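import Crest.Agent.R234.Vc4_164

/-!
Row 234, leaf VF-COMP, file 5: rescalings (blow-ups) of general varifolds.
-/

set_option autoImplicit false
set_option linter.unusedSectionVars false

open MeasureTheory Filter Topology Set
open scoped ENNReal NNReal CompactlySupported
open Crest.GeometryTopology.Submanifold Crest.Agent.R234.Vf_884

namespace Crest.Agent.R234.Vc_164

variable {m k : ℕ} {U : Set (Euc k)} {V : Measure (Euc k × L k)}

/-- the homothety `x ↦ (x - z) / r` on the position, identity on the plane. -/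
noncomputable def hom (z : Euc k) (r : ℝ) (p : Euc k × L k) : Euc k × L k :=
  (r⁻¹ • (p.1 - z), p.2)

theorem continuous_hom (z : Euc k) (r : ℝ) : Continuous (hom z r) := by
  unfold hom
  fun_prop

theorem measurable_hom (z : Euc k) (r : ℝ) : Measurable (hom z r) :=
  (continuous_hom z r).measurable

/-- the rescaled varifold `r^{-m} (hom z r)_# V`. -/
noncomputable def resc (m : ℕ) (z : Euc k) (r : ℝ) (V : Measure (Euc k × L k)) :
    Measure (Euc k × L k) :=
  ENNReal.ofReal ((r ^ m)⁻¹) • V.map (hom z r)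

theorem hom_preimage_prod (z : Euc k) {r : ℝ} (hr : 0 < r) (K : Set (Euc k)) :
    hom z r ⁻¹' (K ×ˢ univ) = ((fun x => z + r • x) '' K) ×ˢ (univ : Set (L k)) := by
  ext p
  simp only [mem_preimage, hom, mem_prod, mem_univ, and_true, mem_image]
  constructor
  · intro h
    refine ⟨_, h, ?_⟩
    rw [smul_smul, mul_inv_cancel₀ hr.ne', one_smul]
    abel
  · rintro ⟨x, hx, hxp⟩
    rw [← hxp, add_sub_cancel_left, smul_smul, inv_mul_cancel₀ hr.ne', one_smul]
    exact hx

theorem resc_prod_univ (m : ℕ) (z : Euc k) {r : ℝ} (hr : 0 < r) (V : Measure (Euc k × L k))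
    {K : Set (Euc k)} (hK : MeasurableSet K) :
    resc m z r V (K ×ˢ univ) =
      ENNReal.ofReal ((r ^ m)⁻¹) * V (((fun x => z + r • x) '' K) ×ˢ univ) := by
  rw [resc, Measure.smul_apply, Measure.map_apply (measurable_hom z r) (hK.prod .univ),
    hom_preimage_prod z hr, smul_eq_mul]

theorem image_closedBall (z x : Euc k) {r : ℝ} (hr : 0 < r) (ρ : ℝ) :
    (fun x => z + r • x) '' (Metric.closedBall x ρ) = Metric.closedBall (z + r • x) (r * ρ) := by
  ext y
  simp only [mem_image, Metric.mem_closedBall, dist_eq_norm]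
  constructor
  · rintro ⟨w, hw, rfl⟩
    rw [add_sub_add_left_eq_sub, ← smul_sub, norm_smul, Real.norm_of_nonneg hr.le]
    gcongr
  · intro h
    refine ⟨r⁻¹ • (y - z), ?_, ?_⟩
    · have h1 : r⁻¹ • (y - z) - x = r⁻¹ • (y - (z + r • x)) := by
        rw [← sub_sub, smul_sub r⁻¹ (y - z) (r • x), smul_smul, inv_mul_cancel₀ hr.ne', one_smul]
      rw [h1, norm_smul, norm_inv, Real.norm_of_nonneg hr.le, inv_mul_le_iff₀ hr]
      exact h
    · rw [smul_smul, mul_inv_cancel₀ hr.ne', one_smul]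
      abel

theorem image_ball (z x : Euc k) {r : ℝ} (hr : 0 < r) (ρ : ℝ) :
    (fun x => z + r • x) '' (Metric.ball x ρ) = Metric.ball (z + r • x) (r * ρ) := by
  ext y
  simp only [mem_image, Metric.mem_ball, dist_eq_norm]
  constructor
  · rintro ⟨w, hw, rfl⟩
    rw [add_sub_add_left_eq_sub, ← smul_sub, norm_smul, Real.norm_of_nonneg hr.le]
    gcongr
  · intro h
    refine ⟨r⁻¹ • (y - z), ?_, ?_⟩
    · have h1 : r⁻¹ • (y - z) - x = r⁻¹ • (y - (z + r • x)) := by
        rw [← sub_sub, smul_sub r⁻¹ (y - z) (r • x), smul_smul, inv_mul_cancel₀ hr.ne', one_smul]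
      rw [h1, norm_smul, norm_inv, Real.norm_of_nonneg hr.le, inv_mul_lt_iff₀ hr]
      exact h
    · rw [smul_smul, mul_inv_cancel₀ hr.ne', one_smul]
      abel

theorem resc_closedBall (m : ℕ) (z x : Euc k) {r : ℝ} (hr : 0 < r) (ρ : ℝ)
    (V : Measure (Euc k × L k)) :
    resc m z r V (Metric.closedBall x ρ ×ˢ univ) =
      ENNReal.ofReal ((r ^ m)⁻¹) * V (Metric.closedBall (z + r • x) (r * ρ) ×ˢ univ) := by
  rw [resc_prod_univ m z hr V Metric.isClosed_closedBall.measurableSet, image_closedBall z x hr]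

theorem resc_ball (m : ℕ) (z x : Euc k) {r : ℝ} (hr : 0 < r) (ρ : ℝ)
    (V : Measure (Euc k × L k)) :
    resc m z r V (Metric.ball x ρ ×ˢ univ) =
      ENNReal.ofReal ((r ^ m)⁻¹) * V (Metric.ball (z + r • x) (r * ρ) ×ˢ univ) := by
  rw [resc_prod_univ m z hr V Metric.isOpen_ball.measurableSet, image_ball z x hr]

theorem resc_conc (z : Euc k) (r : ℝ) (hc : ∀ᵐ p ∂V, p.2 ∈ G m k) (m' : ℕ) :
    ∀ᵐ p ∂(resc m' z r V), p.2 ∈ G m k := by
  refine Measure.ae_smul_measure ?_ _
  rw [ae_map_iff (measurable_hom z r).aemeasurable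
    ((measurableSet_G m k).preimage measurable_snd)]
  exact hc

theorem integral_resc (m : ℕ) (z : Euc k) {r : ℝ} (hr : 0 < r) (V : Measure (Euc k × L k))
    {f : Euc k × L k → ℝ} (hf : AEStronglyMeasurable f (V.map (hom z r))) :
    ∫ p, f p ∂(resc m z r V) = (r ^ m)⁻¹ * ∫ p, f (hom z r p) ∂V := by
  rw [resc, integral_smul_measure, integral_map (measurable_hom z r).aemeasurable hf,
    ENNReal.toReal_ofReal (by positivity), smul_eq_mul]

/-- rescalings of stationary varifolds are stationary. -/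
theorem resc_stat (z : Euc k) {r : ℝ} (hr : 0 < r) (h : Stat m k U V) :
    Stat m k ((fun x => z + r • x) ⁻¹' U) (resc m z r V) where
  conc := resc_conc z r h.conc m
  fin K hK hKU := by
    rw [resc_prod_univ m z hr V hK.measurableSet]
    refine ENNReal.mul_lt_top ENNReal.ofReal_lt_top ?_
    refine h.fin _ (hK.image (by fun_prop)) ?_
    rintro _ ⟨x, hx, rfl⟩
    exact hKU hx
  stat X hX hXc hXU := by
    rw [integral_resc m z hr V (continuous_tr_fderiv hX).aestronglyMeasurable]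
    let Y : Euc k → Euc k := fun x => X (r⁻¹ • (x - z))
    have hY : ContDiff ℝ 1 Y := hX.comp (by fun_prop)
    let e : Euc k ≃ₜ Euc k := (Homeomorph.subRight z).trans (Homeomorph.smulOfNeZero r⁻¹
      (inv_ne_zero hr.ne'))
    have hYe : Y = X ∘ e := rfl
    have hYc : HasCompactSupport Y := by
      rw [hYe]
      exact hXc.comp_homeomorph e
    have hYU : tsupport Y ⊆ U := by
      rw [hYe, tsupport_comp_eq_preimage]
      intro x hx
      have h1 := hXU hx
      simp only [mem_preimage] at h1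
      have h2 : z + r • e x = x := by
        change z + r • (r⁻¹ • (x - z)) = x
        rw [smul_smul, mul_inv_cancel₀ hr.ne', one_smul]
        abel
      rwa [h2] at h1
    have h1 := h.stat Y hY hYc hYU
    have h2 : ∀ x, fderiv ℝ Y x = r⁻¹ • fderiv ℝ X (r⁻¹ • (x - z)) := by
      intro x
      have hd : DifferentiableAt ℝ X (r⁻¹ • (x - z)) := hX.differentiable one_ne_zero _
      have h3 : HasFDerivAt (fun x : Euc k => r⁻¹ • (x - z))
          (r⁻¹ • ContinuousLinearMap.id ℝ (Euc k)) x :=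
        ((hasFDerivAt_id x).sub_const z).const_smul r⁻¹
      have h4 := hd.hasFDerivAt.comp x h3
      have h5 := h4.fderiv
      change fderiv ℝ (X ∘ fun x => r⁻¹ • (x - z)) x = _
      rw [h5]
      ext y
      simp
    simp_rw [h2] at h1
    have h3 : ∀ p : Euc k × L k, tr ((r⁻¹ • fderiv ℝ X (r⁻¹ • (p.1 - z))) ∘L p.2) =
        r⁻¹ * tr ((fderiv ℝ X (hom z r p).1) ∘L (hom z r p).2) := by
      intro p
      rw [ContinuousLinearMap.smul_comp, map_smul, smul_eq_mul]
      rfl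
    simp_rw [h3] at h1
    rw [integral_const_mul] at h1
    have h4 : ∫ p, tr ((fderiv ℝ X (hom z r p).1) ∘L (hom z r p).2) ∂V = 0 := by
      rcases mul_eq_zero.1 h1 with h | h
      · exact absurd h (inv_ne_zero hr.ne')
      · exact h
    rw [h4, mul_zero]


theorem hom_comp (z z' : Euc k) {r r' : ℝ} (hr : r ≠ 0) (p : Euc k × L k) :
    hom z' r' (hom z r p) = hom (z + r • z') (r * r') p := by
  unfold hom
  refine Prod.ext ?_ rfl
  change r'⁻¹ • (r⁻¹ • (p.1 - z) - z') = (r * r')⁻¹ • (p.1 - (z + r • z'))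
  rw [mul_inv, mul_comm, mul_smul]
  congr 1
  rw [← sub_sub, smul_sub r⁻¹ (p.1 - z) (r • z'), smul_smul, inv_mul_cancel₀ hr, one_smul]

theorem resc_resc (m : ℕ) (z z' : Euc k) {r r' : ℝ} (hr : 0 < r)
    (V : Measure (Euc k × L k)) :
    resc m z' r' (resc m z r V) = resc m (z + r • z') (r * r') V := by
  rw [resc, resc, Measure.map_smul, Measure.map_map (measurable_hom z' r') (measurable_hom z r),
    smul_smul, resc]
  have h1 : hom z' r' ∘ hom z r = hom (k := k) (z + r • z') (r * r') := by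
    ext1 p
    exact hom_comp z z' hr.ne' p
  rw [h1]
  congr 1
  rw [← ENNReal.ofReal_mul' (by positivity)]
  congr 1
  rw [mul_pow, mul_inv, mul_comm]

theorem resc_map_fst (m : ℕ) (z : Euc k) (r : ℝ) (V : Measure (Euc k × L k)) :
    (resc m z r V).map Prod.fst =
      ENNReal.ofReal ((r ^ m)⁻¹) • (V.map Prod.fst).map (fun x => r⁻¹ • (x - z)) := by
  rw [resc, Measure.map_smul, Measure.map_map measurable_fst (measurable_hom z r),
    Measure.map_map (by fun_prop) measurable_fst]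
  rfl

/-- mass bounds for blow-ups with varying centres: a uniform upper bound on mass ratios near `z`
gives eventual bounds on compact sets. -/
theorem resc_bdd {ι : Type*} {l : Filter ι} (m : ℕ) {z : Euc k} {zi : ι → Euc k} {ri : ι → ℝ}
    (hz : Tendsto zi l (𝓝 z)) (hr0 : ∀ᶠ i in l, 0 < ri i) (hr : Tendsto ri l (𝓝 0))
    {V : Measure (Euc k × L k)} {C : ℝ≥0} {ρ₀ : ℝ} (hρ₀ : 0 < ρ₀)
    (hV : ∀ y : Euc k, dist y z ≤ ρ₀ → ∀ ρ : ℝ, 0 < ρ → ρ ≤ ρ₀ →
      V (Metric.closedBall y ρ ×ˢ univ) ≤ C * ENNReal.ofReal (ρ ^ m))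
    {K : Set (Euc k)} (hK : IsCompact K) :
    ∃ C' : ℝ≥0, ∀ᶠ i in l, resc m (zi i) (ri i) V (K ×ˢ univ) ≤ C' := by
  obtain ⟨R, hR⟩ := hK.isBounded.subset_closedBall (0 : Euc k)
  refine ⟨C * ((max R 1) ^ m).toNNReal, ?_⟩
  have h1 : Tendsto (fun i => ri i * max R 1) l (𝓝 0) := by
    simpa using hr.mul_const (max R 1)
  have hR1 : 0 < max R 1 := lt_max_of_lt_right one_pos
  filter_upwards [hr0, h1.eventually_le_const hρ₀, (Metric.tendsto_nhds.1 hz) ρ₀ hρ₀]
    with i hi1 hi2 hi3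
  calc resc m (zi i) (ri i) V (K ×ˢ univ)
      ≤ resc m (zi i) (ri i) V (Metric.closedBall 0 (max R 1) ×ˢ univ) :=
        measure_mono (prod_mono (hR.trans (Metric.closedBall_subset_closedBall (le_max_left _ _)))
          subset_rfl)
    _ = ENNReal.ofReal (((ri i) ^ m)⁻¹) *
          V (Metric.closedBall (zi i + (ri i) • (0 : Euc k)) (ri i * max R 1) ×ˢ univ) :=
        resc_closedBall m (zi i) 0 hi1 _ V
    _ ≤ ENNReal.ofReal (((ri i) ^ m)⁻¹) * (C * ENNReal.ofReal ((ri i * max R 1) ^ m)) := by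
        gcongr
        refine hV _ ?_ _ (mul_pos hi1 hR1) hi2
        rw [smul_zero, add_zero]
        exact hi3.le
    _ = C * (ENNReal.ofReal (((ri i) ^ m)⁻¹) * ENNReal.ofReal ((ri i * max R 1) ^ m)) := by ring
    _ = C * ENNReal.ofReal ((max R 1) ^ m) := by
        rw [← ENNReal.ofReal_mul (by positivity), mul_pow, ← mul_assoc,
          inv_mul_cancel₀ (by positivity), one_mul]
    _ = ((C * ((max R 1) ^ m).toNNReal : ℝ≥0) : ℝ≥0∞) := by
        rw [ENNReal.coe_mul]
        rfl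

/-- existence of tangent varifolds (blow-up limits), with varying centres. -/
theorem exists_blowup (hU : IsOpen U) (h : Stat m k U V) {z : Euc k} (hzU : z ∈ U)
    {zi : ℕ → Euc k} {ri : ℕ → ℝ} (hz : Tendsto zi atTop (𝓝 z)) (hr0 : ∀ i, 0 < ri i)
    (hr : Tendsto ri atTop (𝓝 0)) {C : ℝ≥0} {ρ₀ : ℝ} (hρ₀ : 0 < ρ₀)
    (hV : ∀ y : Euc k, dist y z ≤ ρ₀ → ∀ ρ : ℝ, 0 < ρ → ρ ≤ ρ₀ →
      V (Metric.closedBall y ρ ×ˢ univ) ≤ C * ENNReal.ofReal (ρ ^ m)) :
    ∃ φ : ℕ → ℕ, StrictMono φ ∧ ∃ T : Measure (Euc k × L k),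
      VConv atTop (univ ×ˢ univ) (fun i => resc m (zi (φ i)) (ri (φ i)) V) T ∧
      Stat m k univ T := by
  obtain ⟨φ, hφ, T, hT, hTc, -⟩ := exists_limit_subseq (m := m) isOpen_univ
    (fun i => resc m (zi i) (ri i) V)
    (Eventually.of_forall fun i => resc_conc (zi i) (ri i) h.conc m)
    (fun K hK _ => resc_bdd m hz (Eventually.of_forall hr0) hr hρ₀ hV hK)
  refine ⟨φ, hφ, T, hT, hT.stat isOpen_univ
    (Eventually.of_forall fun i => resc_conc _ _ h.conc m) fun X hX hXc _ => ?_⟩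
  obtain ⟨δ, hδ, hδU⟩ := Metric.isOpen_iff.1 hU z hzU
  obtain ⟨R, hR⟩ := hXc.isBounded.subset_closedBall (0 : Euc k)
  have hR1 : 0 < max R 1 := lt_max_of_lt_right one_pos
  have h1 : Tendsto (fun i => ri (φ i) * max R 1) atTop (𝓝 0) := by
    simpa using (hr.comp hφ.tendsto_atTop).mul_const (max R 1)
  have h2 := (hz.comp hφ.tendsto_atTop)
  refine tendsto_const_nhds.congr' ?_
  filter_upwards [(tendsto_order.1 h1).2 (δ / 2) (by positivity),
    (Metric.tendsto_nhds.1 h2) (δ / 2) (by positivity)] with i hi1 hi2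
  refine ((resc_stat (zi (φ i)) (hr0 (φ i)) h).stat X hX hXc fun x hx => ?_).symm
  refine hδU ?_
  have h3 : ‖x‖ ≤ max R 1 := by
    have := hR hx
    rw [mem_closedBall_zero_iff] at this
    exact this.trans (le_max_left _ _)
  rw [Metric.mem_ball, dist_eq_norm]
  calc ‖zi (φ i) + ri (φ i) • x - z‖ = ‖(zi (φ i) - z) + ri (φ i) • x‖ := by congr 1; abel
    _ ≤ ‖zi (φ i) - z‖ + ‖ri (φ i) • x‖ := norm_add_le _ _
    _ ≤ ‖zi (φ i) - z‖ + ri (φ i) * max R 1 := by
        rw [norm_smul, Real.norm_of_nonneg (hr0 _).le]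
        gcongr
        exact (hr0 _).le
    _ < δ / 2 + δ / 2 := by
        rw [← dist_eq_norm]
        exact add_lt_add hi2 hi1
    _ = δ := by ring

end Crest.Agent.R234.Vc_164
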