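import Crest.Agent.R234.Ar5_870
import Crest.Agent.R234.Vc5_164

/-!
# Row 234, VF-MAIN (helper456): the class `AS π U δ V` of almost stationary varifolds

`π : Euc k → Euc m` a coisometry (870's `IsCo`), `hp π = π†π` the horizontal, `vp π = 1 - π†π` the
vertical projection of the ambient space, `y = vp π z` the height over the reference surface `y = 0`,
`τ = tl π P` the tilt.  The error density of a test field `X = X_h + X_v` is

  err = δ (τ + |y|²) (|D_x X_h| + |X_h|)
      + δ (√τ + |y|) (|D_y X_h| + |D_x X_v| + |X_v|)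
      + δ (τ + |y| √τ) |D_y X_v| + √δ τ |X_v|.

`AS` with `δ = 0` is stationarity.  The class is stable under zooms at points of `y = 0` (same `δ`).
A stationary varifold near a minimal graph `M` belongs, in the coordinates
`Φ(x,y) = (x - Du(x)ᵀ y, u(x) + y)` adapted to a point of `M`, to `AS (C κ² s² + C κ sup|y|)` at scale `s`.
-/

set_option autoImplicit false
set_option linter.unusedSectionVars false

open MeasureTheory Filter Topology Set
open Crest.GeometryTopology.Submanifold Crest.Agent.R234.Vf_884 Crest.Agent.R234.Ar_870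
open Crest.Agent.R234.Vc_164

noncomputable section

namespace Crest.Agent.R234.AS_456

variable {m k : ℕ}

/-- horizontal projection of the ambient space. -/
def hp (π : Euc k →L[ℝ] Euc m) : L k := (ContinuousLinearMap.adjoint π) ∘L π

/-- vertical projection of the ambient space. -/
def vp (π : Euc k →L[ℝ] Euc m) : L k := ContinuousLinearMap.id ℝ (Euc k) - hp π

/-- open solid cylinder over the ball of radius `r` of the base. -/
def cyl (π : Euc k →L[ℝ] Euc m) (r : ℝ) : Set (Euc k) := {z | ‖π z‖ < r}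

/-- error density for a value `v` and a derivative `A` of the test field. -/
def errA (π : Euc k →L[ℝ] Euc m) (δ : ℝ) (z : Euc k) (P A : L k) (v : Euc k) : ℝ :=
  δ * (tl π P + ‖vp π z‖ ^ 2) * (‖hp π ∘L A ∘L hp π‖ + ‖hp π v‖)
  + δ * (√(tl π P) + ‖vp π z‖) * (‖hp π ∘L A ∘L vp π‖ + ‖vp π ∘L A ∘L hp π‖ + ‖vp π v‖)
  + δ * (tl π P + ‖vp π z‖ * √(tl π P)) * ‖vp π ∘L A ∘L vp π‖ + √δ * tl π P * ‖vp π v‖

/-- error density of a test field. -/
def err (π : Euc k →L[ℝ] Euc m) (δ : ℝ) (X : Euc k → Euc k) (p : Euc k × L k) : ℝ :=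
  errA π δ p.1 p.2 (fderiv ℝ X p.1) (X p.1)

/-- almost stationary general `m`-varifolds in `U` relative to the surface `y = 0`. -/
structure AS (π : Euc k →L[ℝ] Euc m) (U : Set (Euc k)) (δ : ℝ) (V : Measure (Euc k × L k)) :
    Prop where
  conc : ∀ᵐ p ∂V, p.2 ∈ G m k
  fin : ∀ K : Set (Euc k), IsCompact K → K ⊆ U → V (K ×ˢ Set.univ) < ⊤
  fv : ∀ X : Euc k → Euc k, ContDiff ℝ 1 X → HasCompactSupport X → tsupport X ⊆ U →
    |∫ p, tr ((fderiv ℝ X p.1) ∘L p.2) ∂V| ≤ ∫ p, err π δ X p ∂V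

variable {π : Euc k →L[ℝ] Euc m} {U : Set (Euc k)} {V : Measure (Euc k × L k)} {δ δ' : ℝ}

theorem err_zero (π : Euc k →L[ℝ] Euc m) (X : Euc k → Euc k) (p : Euc k × L k) :
    err π 0 X p = 0 := by
  simp [err, errA]

theorem AS.of_stat (h : Stat m k U V) (π : Euc k →L[ℝ] Euc m) : AS π U 0 V where
  conc := h.conc
  fin := h.fin
  fv X hX hXc hXU := by
    rw [h.stat X hX hXc hXU]
    simp [err_zero]

theorem AS.stat (h : AS π U 0 V) : Stat m k U V where
  conc := h.conc
  fin := h.fin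
  stat X hX hXc hXU := by
    have h1 := h.fv X hX hXc hXU
    simp only [err_zero, integral_zero] at h1
    exact abs_nonpos_iff.1 h1

theorem continuous_errA (π : Euc k →L[ℝ] Euc m) (δ : ℝ) {X : Euc k → Euc k} (hX : ContDiff ℝ 1 X) :
    Continuous (err π δ X) := by
  have h1 : Continuous fun p : Euc k × L k => fderiv ℝ X p.1 :=
    (hX.continuous_fderiv one_ne_zero).comp continuous_fst
  have h2 : Continuous fun p : Euc k × L k => X p.1 := hX.continuous.comp continuous_fst
  have h3 : Continuous fun p : Euc k × L k => tl π p.2 := (measurable_tl π).comp continuous_snd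
  have h4 : ∀ A B : L k, Continuous fun p : Euc k × L k => ‖A ∘L fderiv ℝ X p.1 ∘L B‖ := by
    intro A B
    exact (continuous_const.clm_comp (h1.clm_comp continuous_const)).norm
  have h5 : ∀ A : L k, Continuous fun p : Euc k × L k => ‖A (X p.1)‖ := by
    intro A
    exact (A.continuous.comp h2).norm
  have h6 : Continuous fun p : Euc k × L k => ‖vp π p.1‖ :=
    ((vp π).continuous.comp continuous_fst).norm
  unfold err errA
  exact ((((continuous_const.mul (h3.add (h6.pow 2))).mul ((h4 _ _).add (h5 _))).add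
    ((continuous_const.mul (h3.sqrt.add h6)).mul (((h4 _ _).add (h4 _ _)).add (h5 _)))).add
    ((continuous_const.mul (h3.add (h6.mul h3.sqrt))).mul (h4 _ _))).add
    ((continuous_const.mul h3).mul (h5 _))

theorem err_eq_zero {X : Euc k → Euc k} {p : Euc k × L k} (hp : p.1 ∉ tsupport X) (δ : ℝ) :
    err π δ X p = 0 := by
  have h1 : fderiv ℝ X p.1 = 0 := by
    by_contra h
    exact hp (support_fderiv_subset ℝ h)
  have h2 : X p.1 = 0 := image_eq_zero_of_notMem_tsupport hp
  simp [err, errA, h1, h2]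

theorem integrable_err (hc : ∀ᵐ p ∂V, p.2 ∈ G m k) {X : Euc k → Euc k} (hX : ContDiff ℝ 1 X)
    (hXc : HasCompactSupport X) (hV : V (tsupport X ×ˢ Set.univ) < ⊤) (δ : ℝ) :
    Integrable (err π δ X) V :=
  integrable_of_cont hc hXc hV (continuous_errA π δ hX) fun _ h => err_eq_zero h δ

theorem errA_mono (hπ : IsCo π) {P : L k} (hP : P ∈ G m k) (h : δ ≤ δ') (z : Euc k)
    (A : L k) (v : Euc k) : errA π δ z P A v ≤ errA π δ' z P A v := by
  have ht := tl_nonneg hπ (isPr_of_G hP)
  have hs : √δ ≤ √δ' := Real.sqrt_le_sqrt h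
  unfold errA
  gcongr

theorem AS.mono (hπ : IsCo π) (hV : AS π U δ V) (h : δ ≤ δ') : AS π U δ' V where
  conc := hV.conc
  fin := hV.fin
  fv X hX hXc hXU := by
    refine (hV.fv X hX hXc hXU).trans ?_
    have hf := hV.fin _ hXc hXU
    refine integral_mono_ae (integrable_err hV.conc hX hXc hf δ)
      (integrable_err hV.conc hX hXc hf δ') ?_
    filter_upwards [hV.conc] with p hp
    exact errA_mono hπ hp h _ _ _

theorem AS.mono_set {U' : Set (Euc k)} (hV : AS π U δ V) (h : U' ⊆ U) : AS π U' δ V where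
  conc := hV.conc
  fin K hK hKU := hV.fin K hK (hKU.trans h)
  fv X hX hXc hXU := hV.fv X hX hXc (hXU.trans h)

theorem real_zoom {δ s t r y a b c d vh vv q : ℝ} (h0 : 0 ≤ δ) (hq : 0 ≤ q) (hs : 0 < s)
    (hs1 : s ≤ 1) (ht : 0 ≤ t) (hr : 0 ≤ r) (hy : 0 ≤ y) (ha : 0 ≤ a) (hb : 0 ≤ b) (hc : 0 ≤ c)
    (hd : 0 ≤ d) (hvh : 0 ≤ vh) (hvv : 0 ≤ vv) :
    s * (δ * (t + (s * y) ^ 2) * (s⁻¹ * a + vh) + δ * (r + s * y) * (s⁻¹ * b + s⁻¹ * c + vv) +
        δ * (t + s * y * r) * (s⁻¹ * d) + q * t * vv) ≤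
      δ * (t + y ^ 2) * (a + vh) + δ * (r + y) * (b + c + vv) + δ * (t + y * r) * d +
        q * t * vv := by
  have hss : s * s⁻¹ = 1 := mul_inv_cancel₀ hs.ne'
  have hy1 : s * y ≤ y := mul_le_of_le_one_left hy hs1
  have hsy : 0 ≤ s * y := mul_nonneg hs.le hy
  have hy2 : (s * y) ^ 2 ≤ y ^ 2 := pow_le_pow_left₀ hsy hy1 2
  have hvh1 : s * vh ≤ vh := mul_le_of_le_one_left hvh hs1
  have hvv1 : s * vv ≤ vv := mul_le_of_le_one_left hvv hs1
  have e1 : δ * (t + (s * y) ^ 2) * (a + s * vh) ≤ δ * (t + y ^ 2) * (a + vh) := by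
    apply mul_le_mul
    · apply mul_le_mul_of_nonneg_left _ h0
      linarith
    · linarith
    · exact add_nonneg ha (mul_nonneg hs.le hvh)
    · exact mul_nonneg h0 (add_nonneg ht (sq_nonneg _))
  have e2 : δ * (r + s * y) * (b + c + s * vv) ≤ δ * (r + y) * (b + c + vv) := by
    apply mul_le_mul
    · apply mul_le_mul_of_nonneg_left _ h0
      linarith
    · linarith
    · exact add_nonneg (add_nonneg hb hc) (mul_nonneg hs.le hvv)
    · exact mul_nonneg h0 (add_nonneg hr hy)
  have e3 : δ * (t + s * y * r) * d ≤ δ * (t + y * r) * d := by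
    apply mul_le_mul_of_nonneg_right _ hd
    apply mul_le_mul_of_nonneg_left _ h0
    have := mul_le_mul_of_nonneg_right hy1 hr
    linarith
  have e4 : s * (q * t * vv) ≤ q * t * vv :=
    mul_le_of_le_one_left (mul_nonneg (mul_nonneg hq ht) hvv) hs1
  have key : s * (δ * (t + (s * y) ^ 2) * (s⁻¹ * a + vh) +
      δ * (r + s * y) * (s⁻¹ * b + s⁻¹ * c + vv) + δ * (t + s * y * r) * (s⁻¹ * d) +
      q * t * vv) =
      δ * (t + (s * y) ^ 2) * (a + s * vh) + δ * (r + s * y) * (b + c + s * vv) +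
      δ * (t + s * y * r) * d + s * (q * t * vv) := by
    linear_combination (δ * (t + (s * y) ^ 2) * a + δ * (r + s * y) * (b + c) +
      δ * (t + s * y * r) * d) * hss
  rw [key]
  linarith

/-- zoom of the error density: `0 < s ≤ 1`, base point on the surface `y = 0`. -/
theorem errA_zoom (hπ : IsCo π) {P : L k} (hP : P ∈ G m k) (h0 : 0 ≤ δ) {s : ℝ} (hs : 0 < s)
    (hs1 : s ≤ 1) {z0 : Euc k} (hz0 : vp π z0 = 0) (z : Euc k) (A : L k) (v : Euc k) :
    s * errA π δ (z0 + s • z) P (s⁻¹ • A) v ≤ errA π δ z P A v := by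
  have ht := tl_nonneg hπ (isPr_of_G hP)
  have h1 : vp π (z0 + s • z) = s • vp π z := by rw [map_add, hz0, zero_add, map_smul]
  have hn : ‖vp π (z0 + s • z)‖ = s * ‖vp π z‖ := by
    rw [h1, norm_smul, Real.norm_of_nonneg hs.le]
  have hA : ∀ B C : L k, ‖B ∘L (s⁻¹ • A) ∘L C‖ = s⁻¹ * ‖B ∘L A ∘L C‖ := by
    intro B C
    rw [ContinuousLinearMap.smul_comp, ContinuousLinearMap.comp_smul, norm_smul, norm_inv,
      Real.norm_of_nonneg hs.le]
  unfold errA
  rw [hn, hA, hA, hA, hA]
  exact real_zoom h0 (Real.sqrt_nonneg _) hs hs1 ht (Real.sqrt_nonneg _) (norm_nonneg _)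
    (norm_nonneg _) (norm_nonneg _) (norm_nonneg _) (norm_nonneg _) (norm_nonneg _)
    (norm_nonneg _)

/-- the class is stable under zooms at points of the surface `y = 0`. -/
theorem AS.zoom (hπ : IsCo π) (hV : AS π U δ V) (h0 : 0 ≤ δ) {s : ℝ} (hs : 0 < s) (hs1 : s ≤ 1)
    {z0 : Euc k} (hz0 : vp π z0 = 0) :
    AS π ((fun x => z0 + s • x) ⁻¹' U) δ (resc m z0 s V) where
  conc := resc_conc z0 s hV.conc m
  fin K hK hKU := by
    rw [resc_prod_univ m z0 hs V hK.measurableSet]
    refine ENNReal.mul_lt_top ENNReal.ofReal_lt_top ?_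
    refine hV.fin _ (hK.image (by fun_prop)) ?_
    rintro _ ⟨x, hx, rfl⟩
    exact hKU hx
  fv X hX hXc hXU := by
    rw [integral_resc m z0 hs V (continuous_tr_fderiv hX).aestronglyMeasurable,
      integral_resc m z0 hs V (continuous_errA π δ hX).aestronglyMeasurable, abs_mul,
      abs_of_nonneg (by positivity : (0:ℝ) ≤ (s ^ m)⁻¹)]
    refine mul_le_mul_of_nonneg_left ?_ (by positivity)
    let Y : Euc k → Euc k := fun x => X (s⁻¹ • (x - z0))
    have hY : ContDiff ℝ 1 Y := hX.comp (by fun_prop)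
    let e : Euc k ≃ₜ Euc k := (Homeomorph.subRight z0).trans (Homeomorph.smulOfNeZero s⁻¹
      (inv_ne_zero hs.ne'))
    have hYe : Y = X ∘ e := rfl
    have hYc : HasCompactSupport Y := by
      rw [hYe]
      exact hXc.comp_homeomorph e
    have hYU : tsupport Y ⊆ U := by
      rw [hYe, tsupport_comp_eq_preimage]
      intro x hx
      have h1 := hXU hx
      simp only [mem_preimage] at h1
      have h2 : z0 + s • e x = x := by
        change z0 + s • (s⁻¹ • (x - z0)) = x
        rw [smul_smul, mul_inv_cancel₀ hs.ne', one_smul]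
        abel
      rwa [h2] at h1
    have h1 := hV.fv Y hY hYc hYU
    have h2 : ∀ x, fderiv ℝ Y x = s⁻¹ • fderiv ℝ X (s⁻¹ • (x - z0)) := by
      intro x
      have hd : DifferentiableAt ℝ X (s⁻¹ • (x - z0)) := hX.differentiable one_ne_zero _
      have h3 : HasFDerivAt (fun x : Euc k => s⁻¹ • (x - z0))
          (s⁻¹ • ContinuousLinearMap.id ℝ (Euc k)) x :=
        ((hasFDerivAt_id x).sub_const z0).const_smul s⁻¹
      have h4 := hd.hasFDerivAt.comp x h3
      have h5 := h4.fderiv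
      change fderiv ℝ (X ∘ fun x => s⁻¹ • (x - z0)) x = _
      rw [h5]
      ext y
      simp
    have h3 : ∀ p : Euc k × L k, tr ((fderiv ℝ X (hom z0 s p).1) ∘L (hom z0 s p).2) =
        s * tr ((fderiv ℝ Y p.1) ∘L p.2) := by
      intro p
      rw [h2, ContinuousLinearMap.smul_comp, map_smul, smul_eq_mul, ← mul_assoc,
        mul_inv_cancel₀ hs.ne', one_mul]
      rfl
    simp_rw [h3]
    rw [integral_const_mul, abs_mul, abs_of_pos hs]
    have hXV : V (tsupport Y ×ˢ Set.univ) < ⊤ := hV.fin _ hYc hYU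
    calc s * |∫ p, tr ((fderiv ℝ Y p.1) ∘L p.2) ∂V| ≤ s * ∫ p, err π δ Y p ∂V := by gcongr
      _ = ∫ p, s * err π δ Y p ∂V := (integral_const_mul _ _).symm
      _ ≤ _ := by
        refine integral_mono_ae ((integrable_err hV.conc hY hYc hXV δ).const_mul s) ?_ ?_
        · refine integrable_of_cont (K := tsupport Y) hV.conc hYc hXV
            ((continuous_errA π δ hX).comp (continuous_hom z0 s)) fun p hp => ?_
          refine err_eq_zero ?_ δ
          intro hc
          apply hp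
          rw [hYe, tsupport_comp_eq_preimage]
          exact hc
        · filter_upwards [hV.conc] with p hp
          have h5 := errA_zoom (δ := δ) hπ hp h0 hs hs1 hz0 (s⁻¹ • (p.1 - z0))
            (fderiv ℝ X (s⁻¹ • (p.1 - z0))) (X (s⁻¹ • (p.1 - z0)))
          have h6 : z0 + s • (s⁻¹ • (p.1 - z0)) = p.1 := by
            rw [smul_smul, mul_inv_cancel₀ hs.ne', one_smul]
            abel
          rw [h6, ← h2] at h5
          exact h5

end Crest.Agent.R234.AS_456
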