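import Mathlib

/-!
R234 (helper182), VF-ALLARD part 5: THE GRAPH.  Pure linear algebra and topology: a closed set `S`
with small Lipschitz constant over the plane `T`, no holes, and pointwise `C^{1,α}` expansions is
the graph of a `C^{1,α}` function over a ball of `T`.
-/

open Metric Set Filter Topology
open scoped RealInnerProductSpace

namespace Crest.Agent.R234.Al5_182

noncomputable section

set_option linter.unusedSectionVars false

variable {E : Type*} [NormedAddCommGroup E] [InnerProductSpace ℝ E] [FiniteDimensional ℝ E]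

lemma split (T : Submodule ℝ E) (v : E) :
    ((T.orthogonalProjectionOnto v : T) : E) + (Tᗮ.orthogonalProjectionOnto v : E) = v :=
  Submodule.starProjection_add_starProjection_orthogonal (K := T) v

lemma norm_sq_split (T : Submodule ℝ E) (v : E) :
    ‖v‖ ^ 2 = ‖T.orthogonalProjectionOnto v‖ ^ 2 + ‖Tᗮ.orthogonalProjectionOnto v‖ ^ 2 := by
  have h := split T v
  have h1 : inner ℝ ((T.orthogonalProjectionOnto v : T) : E)
      (Tᗮ.orthogonalProjectionOnto v : E) = 0 :=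
    (Submodule.mem_orthogonal T _).1 (Tᗮ.orthogonalProjectionOnto v).2 _
      (T.orthogonalProjectionOnto v).2
  have h2 := norm_add_sq_real ((T.orthogonalProjectionOnto v : T) : E)
    (Tᗮ.orthogonalProjectionOnto v : E)
  rw [h, h1] at h2
  simpa using h2

lemma norm_hx_le (T : Submodule ℝ E) (v : E) : ‖T.orthogonalProjectionOnto v‖ ≤ ‖v‖ := by
  have := norm_sq_split T v
  refine (sq_le_sq₀ (norm_nonneg _) (norm_nonneg _)).1 ?_
  nlinarith [sq_nonneg ‖Tᗮ.orthogonalProjectionOnto v‖]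

lemma norm_le_hx_hy (T : Submodule ℝ E) (v : E) :
    ‖v‖ ≤ ‖T.orthogonalProjectionOnto v‖ + ‖Tᗮ.orthogonalProjectionOnto v‖ := by
  calc ‖v‖ = ‖((T.orthogonalProjectionOnto v : T) : E) + (Tᗮ.orthogonalProjectionOnto v : E)‖ := by
        rw [split]
    _ ≤ _ := norm_add_le _ _

lemma inner_hx {T : Submodule ℝ E} {e : E} (he : e ∈ T) (v : E) :
    (inner ℝ v e : ℝ) = inner ℝ ((T.orthogonalProjectionOnto v : T) : E) e := by
  conv_lhs => rw [← split T v]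
  rw [inner_add_left]
  have h1 : inner ℝ (Tᗮ.orthogonalProjectionOnto v : E) e = 0 := by
    rw [real_inner_comm]
    exact (Submodule.mem_orthogonal T _).1 (Tᗮ.orthogonalProjectionOnto v).2 _ he
  rw [h1, add_zero]

@[simp] lemma hx_coe {T : Submodule ℝ E} (x : T) (y : Tᗮ) :
    T.orthogonalProjectionOnto ((x : E) + (y : E)) = x := by
  rw [map_add, Submodule.orthogonalProjectionOnto_mem_subspace_eq_self,
    Submodule.orthogonalProjectionOnto_apply_of_mem_orthogonal y.2, add_zero]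

@[simp] lemma hy_coe {T : Submodule ℝ E} (x : T) (y : Tᗮ) :
    Tᗮ.orthogonalProjectionOnto ((x : E) + (y : E)) = y := by
  rw [map_add, Submodule.orthogonalProjectionOnto_mem_subspace_eq_self,
    Submodule.orthogonalProjectionOnto_apply_of_mem_orthogonal, zero_add]
  rw [Submodule.orthogonal_orthogonal]
  exact x.2

/-- small vertical part implies the norm is controlled by the horizontal part -/
lemma norm_le_of_flat {T : Submodule ℝ E} {lam : ℝ} (hlam : lam ≤ 1 / 4) {v : E}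
    (h : ‖Tᗮ.orthogonalProjectionOnto v‖ ≤ lam * ‖v‖) :
    ‖v‖ ≤ 4 / 3 * ‖T.orthogonalProjectionOnto v‖ := by
  have h1 := norm_le_hx_hy T v
  have h2 : lam * ‖v‖ ≤ 1 / 4 * ‖v‖ := mul_le_mul_of_nonneg_right hlam (norm_nonneg _)
  linarith

/-- the NO HOLES property at the points of `S` in `ball x0 R`, in the directions of `T` -/
def NoHole (T : Submodule ℝ E) (S : Set E) (x0 : E) (R : ℝ) : Prop :=
  ∀ X ∈ S, X ∈ ball x0 R → ∀ e ∈ T, ‖e‖ = 1 → ∀ d > 0, ∀ ρ > 0,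
    ∃ Z ∈ S, ‖Z - X‖ < ρ ∧ ‖Z - X‖ ^ 2 / (2 * d) < inner ℝ (Z - X) e

/-- **the projection of `S` is a full disc** -/
theorem surj {T : Submodule ℝ E} {S : Set E} {x0 : E} {R lam : ℝ} (hx0 : x0 ∈ S)
    (hcl : IsCompact (S ∩ closedBall x0 (R / 2))) (hlam : lam ≤ 1 / 4)
    (hL : ∀ x ∈ S, x ∈ ball x0 R → ∀ y ∈ S, y ∈ ball x0 R →
      ‖Tᗮ.orthogonalProjectionOnto (y - x)‖ ≤ lam * ‖y - x‖)
    (hN : NoHole T S x0 R) {z : T} (hz : ‖z‖ < R / 6) :
    ∃ X ∈ S, ‖X - x0‖ < R / 2 ∧ T.orthogonalProjectionOnto (X - x0) = z := by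
  have hR : 0 < R := by
    have := norm_nonneg z
    linarith
  have hne : (S ∩ closedBall x0 (R / 2)).Nonempty :=
    ⟨x0, hx0, mem_closedBall_self (by linarith)⟩
  have hcont : Continuous fun X : E => ‖T.orthogonalProjectionOnto (X - x0) - z‖ :=
    ((T.orthogonalProjectionOnto.continuous.comp (continuous_id.sub continuous_const)).sub
      continuous_const).norm
  obtain ⟨X, ⟨hXS, hXb⟩, hmin⟩ := hcl.exists_isMinOn hne hcont.continuousOn
  have h0 : ‖T.orthogonalProjectionOnto (X - x0) - z‖ ≤ ‖z‖ := by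
    have := hmin (⟨hx0, mem_closedBall_self (by linarith)⟩ : x0 ∈ S ∩ closedBall x0 (R / 2))
    simpa using this
  have h1 : ‖T.orthogonalProjectionOnto (X - x0)‖ ≤ 2 * ‖z‖ := by
    calc ‖T.orthogonalProjectionOnto (X - x0)‖
        = ‖(T.orthogonalProjectionOnto (X - x0) - z) + z‖ := by rw [sub_add_cancel]
      _ ≤ ‖T.orthogonalProjectionOnto (X - x0) - z‖ + ‖z‖ := norm_add_le _ _
      _ ≤ 2 * ‖z‖ := by linarith
  have hXR : X ∈ ball x0 R := by
    refine lt_of_le_of_lt (mem_closedBall.1 hXb) (by linarith)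
  have h2 := norm_le_of_flat hlam (hL x0 hx0 (mem_ball_self hR) X hXS hXR)
  have h3 : ‖X - x0‖ < R / 2 := by linarith
  refine ⟨X, hXS, h3, ?_⟩
  by_contra hcon
  set t := ‖T.orthogonalProjectionOnto (X - x0) - z‖ with ht
  have htpos : 0 < t := norm_pos_iff.2 (sub_ne_zero.2 hcon)
  set e : T := t⁻¹ • (z - T.orthogonalProjectionOnto (X - x0)) with he
  have hen : ‖(e : E)‖ = 1 := by
    have : ‖e‖ = 1 := by
      rw [he, norm_smul, norm_inv, Real.norm_eq_abs, abs_of_pos htpos, norm_sub_rev, ← ht,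
        inv_mul_cancel₀ htpos.ne']
    simpa using this
  have hte : t • e = z - T.orthogonalProjectionOnto (X - x0) := by
    rw [he, smul_smul, mul_inv_cancel₀ htpos.ne', one_smul]
  obtain ⟨Z, hZS, hZρ, hZe⟩ := hN X hXS hXR (e : E) e.2 hen t htpos (R / 2 - ‖X - x0‖)
    (by linarith)
  have hZK : Z ∈ S ∩ closedBall x0 (R / 2) := by
    refine ⟨hZS, ?_⟩
    rw [mem_closedBall, dist_eq_norm]
    calc ‖Z - x0‖ = ‖(Z - X) + (X - x0)‖ := by congr 1; abel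
      _ ≤ ‖Z - X‖ + ‖X - x0‖ := norm_add_le _ _
      _ ≤ R / 2 := by linarith
  have h4 : t ≤ ‖T.orthogonalProjectionOnto (Z - x0) - z‖ := hmin hZK
  set w := T.orthogonalProjectionOnto (Z - X) with hw
  have h5 : T.orthogonalProjectionOnto (Z - x0) - z = w - t • e := by
    rw [hte, hw]
    have : Z - x0 = (Z - X) + (X - x0) := by abel
    rw [this, map_add]
    abel
  rw [h5] at h4
  have h6 : t ^ 2 ≤ ‖w - t • e‖ ^ 2 := pow_le_pow_left₀ htpos.le h4 2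
  have h6' := norm_sub_sq_real w (t • e)
  rw [inner_smul_right, norm_smul, Real.norm_eq_abs, abs_of_pos htpos] at h6'
  have hen' : ‖e‖ = 1 := by simpa using hen
  rw [hen'] at h6'
  have h7 : (inner ℝ (Z - X) (e : E) : ℝ) = inner ℝ w e := by
    rw [inner_hx e.2, Submodule.coe_inner]
  have h8 : ‖w‖ ≤ ‖Z - X‖ := norm_hx_le T _
  have h9 : ‖w‖ ^ 2 ≤ ‖Z - X‖ ^ 2 := pow_le_pow_left₀ (norm_nonneg _) h8 2
  rw [h7, div_lt_iff₀ (by positivity)] at hZe
  nlinarith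

lemma inj {T : Submodule ℝ E} {S : Set E} {x0 : E} {R lam : ℝ} (hlam : lam ≤ 1 / 4)
    (hL : ∀ x ∈ S, x ∈ ball x0 R → ∀ y ∈ S, y ∈ ball x0 R →
      ‖Tᗮ.orthogonalProjectionOnto (y - x)‖ ≤ lam * ‖y - x‖) {x y : E} (hx : x ∈ S)
    (hxR : x ∈ ball x0 R) (hy : y ∈ S) (hyR : y ∈ ball x0 R)
    (h : T.orthogonalProjectionOnto (x - x0) = T.orthogonalProjectionOnto (y - x0)) : x = y := by
  have h1 := norm_le_of_flat hlam (hL x hx hxR y hy hyR)
  have h2 : T.orthogonalProjectionOnto (y - x) = 0 := by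
    have : y - x = (y - x0) - (x - x0) := by abel
    rw [this, map_sub, h, sub_self]
  rw [h2, norm_zero, mul_zero] at h1
  have h3 : y - x = 0 := norm_le_zero_iff.1 h1
  exact (sub_eq_zero.1 h3).symm

/-- linear algebra: the slope of the tangent plane `ker G` -/
lemma slope {T : Submodule ℝ E} {Λ : ℝ} (hΛ : Λ ≤ 1 / 8) (G : E →L[ℝ] Tᗮ)
    (hG : ‖G - Tᗮ.orthogonalProjectionOnto‖ ≤ Λ) :
    ∃ B : T →L[ℝ] Tᗮ, ‖B‖ ≤ 2 * Λ ∧ ∀ v : E,
      ‖Tᗮ.orthogonalProjectionOnto v - B (T.orthogonalProjectionOnto v)‖ ≤ 2 * ‖G v‖ := by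
  have hΛ0 : 0 ≤ Λ := le_trans (norm_nonneg (G - Tᗮ.orthogonalProjectionOnto)) hG
  set A : Tᗮ →L[ℝ] Tᗮ := G ∘L Tᗮ.subtypeL with hA
  have hA1 : ‖1 - A‖ ≤ Λ := by
    refine ContinuousLinearMap.opNorm_le_bound _ hΛ0 fun y => ?_
    have h1 : (1 - A) y = -((G - Tᗮ.orthogonalProjectionOnto) (y : E)) := by
      simp [hA]
    rw [h1, norm_neg]
    calc ‖(G - Tᗮ.orthogonalProjectionOnto) (y : E)‖
        ≤ ‖G - Tᗮ.orthogonalProjectionOnto‖ * ‖(y : E)‖ := ContinuousLinearMap.le_opNorm _ _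
      _ ≤ Λ * ‖y‖ := by
          rw [Submodule.coe_norm]
          gcongr
  have hA2 : ‖(1 : Tᗮ →L[ℝ] Tᗮ) - A‖ < 1 := by linarith
  set u := Units.oneSub (1 - A) hA2 with hu
  have hu1 : (u : Tᗮ →L[ℝ] Tᗮ) = A := by rw [hu]; simp
  -- lower bound
  have hlow : ∀ y : Tᗮ, ‖y‖ ≤ 8 / 7 * ‖A y‖ := by
    intro y
    have h1 : ‖y‖ ≤ ‖(1 - A) y‖ + ‖A y‖ := by
      calc ‖y‖ = ‖(1 - A) y + A y‖ := by simp
        _ ≤ _ := norm_add_le _ _
    have h2 : ‖(1 - A) y‖ ≤ 1 / 8 * ‖y‖ :=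
      (ContinuousLinearMap.le_opNorm _ _).trans
        (mul_le_mul_of_nonneg_right (hA1.trans hΛ) (norm_nonneg _))
    linarith
  have hinv : ∀ y : Tᗮ, A ((↑u⁻¹ : Tᗮ →L[ℝ] Tᗮ) y) = y := by
    intro y
    have h1 : (u : Tᗮ →L[ℝ] Tᗮ) * (↑u⁻¹ : Tᗮ →L[ℝ] Tᗮ) = 1 := Units.mul_inv u
    rw [hu1] at h1
    exact congrArg (fun L : Tᗮ →L[ℝ] Tᗮ => L y) h1
  refine ⟨-((↑u⁻¹ : Tᗮ →L[ℝ] Tᗮ) ∘L (G ∘L T.subtypeL)), ?_, ?_⟩
  · refine ContinuousLinearMap.opNorm_le_bound _ (by positivity) fun x => ?_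
    have h1 := hlow ((↑u⁻¹ : Tᗮ →L[ℝ] Tᗮ) (G (x : E)))
    rw [hinv] at h1
    have h2 : ‖G (x : E)‖ ≤ Λ * ‖x‖ := by
      have h3 : G (x : E) = (G - Tᗮ.orthogonalProjectionOnto) (x : E) := by
        have h4 : Tᗮ.orthogonalProjectionOnto (x : E) = 0 := by
          apply Submodule.orthogonalProjectionOnto_apply_of_mem_orthogonal
          rw [Submodule.orthogonal_orthogonal]
          exact x.2
        simp [h4]
      rw [h3]
      calc ‖(G - Tᗮ.orthogonalProjectionOnto) (x : E)‖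
          ≤ ‖G - Tᗮ.orthogonalProjectionOnto‖ * ‖(x : E)‖ := ContinuousLinearMap.le_opNorm _ _
        _ ≤ Λ * ‖x‖ := by
            rw [Submodule.coe_norm]
            gcongr
    have h5 : 0 ≤ Λ * ‖x‖ := by positivity
    calc ‖(-((↑u⁻¹ : Tᗮ →L[ℝ] Tᗮ) ∘L (G ∘L T.subtypeL))) x‖
        = ‖(↑u⁻¹ : Tᗮ →L[ℝ] Tᗮ) (G (x : E))‖ := by simp
      _ ≤ 2 * Λ * ‖x‖ := by linarith
  · intro v
    set x := T.orthogonalProjectionOnto v with hx
    set y := Tᗮ.orthogonalProjectionOnto v with hy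
    have h1 : A (y - (-((↑u⁻¹ : Tᗮ →L[ℝ] Tᗮ) ∘L (G ∘L T.subtypeL))) x) = G v := by
      have h2 : y - (-((↑u⁻¹ : Tᗮ →L[ℝ] Tᗮ) ∘L (G ∘L T.subtypeL))) x
          = y + (↑u⁻¹ : Tᗮ →L[ℝ] Tᗮ) (G (x : E)) := by simp
      rw [h2, map_add, hinv]
      have h3 : A y = G (y : E) := rfl
      rw [h3, ← map_add, add_comm, hx, hy, split]
    have h4 := hlow (y - (-((↑u⁻¹ : Tᗮ →L[ℝ] Tᗮ) ∘L (G ∘L T.subtypeL))) x)
    rw [h1] at h4
    have := norm_nonneg (G v)
    linarith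

/-- the output of the graph theorem -/
structure GraphData (T : Submodule ℝ E) (S : Set E) (x0 : E) (u : T → Tᗮ) (g : T → T →L[ℝ] Tᗮ)
    (r s Λ K α : ℝ) : Prop where
  zero : u 0 = 0
  mem : ∀ z ∈ ball (0 : T) r, x0 + ((z : E) + (u z : E)) ∈ S
  eq : ∀ p ∈ S, T.orthogonalProjectionOnto (p - x0) ∈ ball (0 : T) r →
    Tᗮ.orthogonalProjectionOnto (p - x0) ∈ ball (0 : Tᗮ) s →
    Tᗮ.orthogonalProjectionOnto (p - x0) = u (T.orthogonalProjectionOnto (p - x0))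
  lt : ∀ z ∈ ball (0 : T) r, ‖u z‖ < s
  lip : ∀ z ∈ ball (0 : T) r, ∀ z' ∈ ball (0 : T) r, ‖u z - u z'‖ ≤ 4 * Λ * ‖z - z'‖
  der : ∀ z ∈ ball (0 : T) r, HasFDerivAt u (g z) z
  le : ∀ z ∈ ball (0 : T) r, ‖g z‖ ≤ 2 * Λ
  hol : ∀ z ∈ ball (0 : T) r, ∀ z' ∈ ball (0 : T) r, ‖g z - g z'‖ ≤ K * ‖z - z'‖ ^ α

/-- a pointwise `C^{1,α}` expansion is a derivative -/
lemma hasFDerivAt_of_exp {F₁ F₂ : Type*} [NormedAddCommGroup F₁] [NormedSpace ℝ F₁]
    [NormedAddCommGroup F₂] [NormedSpace ℝ F₂] {u : F₁ → F₂} {B : F₁ →L[ℝ] F₂} {z : F₁} {C α : ℝ}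
    (hα : 0 < α) (h : ∀ᶠ z' in 𝓝 z, ‖u z' - u z - B (z' - z)‖ ≤ C * ‖z' - z‖ ^ (1 + α)) :
    HasFDerivAt u B z := by
  rw [hasFDerivAt_iff_isLittleO, Asymptotics.isLittleO_iff]
  intro ε hε
  have h1 : Tendsto (fun z' : F₁ => C * ‖z' - z‖ ^ α) (𝓝 z) (𝓝 0) := by
    have h2 : Continuous fun z' : F₁ => C * ‖z' - z‖ ^ α :=
      continuous_const.mul ((continuous_id.sub continuous_const).norm.rpow_const
        fun _ => Or.inr hα.le)
    have h3 := h2.tendsto z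
    simpa [Real.zero_rpow hα.ne'] using h3
  filter_upwards [h, h1.eventually (ge_mem_nhds hε)] with z' hz' hz''
  refine hz'.trans ?_
  rcases eq_or_lt_of_le (norm_nonneg (z' - z)) with h0 | h0
  · rw [← h0, Real.zero_rpow (by linarith)]; simp
  · rw [add_comm 1 α, Real.rpow_add h0, Real.rpow_one, ← mul_assoc]
    exact mul_le_mul_of_nonneg_right hz'' h0.le

/-- pointwise expansions on a ball give a Hölder derivative on the half ball -/
lemma holder_of_exp {F₁ F₂ : Type*} [NormedAddCommGroup F₁] [NormedSpace ℝ F₁]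
    [NormedAddCommGroup F₂] [NormedSpace ℝ F₂] {u : F₁ → F₂} {B : F₁ → F₁ →L[ℝ] F₂} {r C α : ℝ}
    (hC : 0 ≤ C) (hα : 0 < α) (hα1 : α ≤ 1)
    (h : ∀ z ∈ ball (0 : F₁) (2 * r), ∀ z' ∈ ball (0 : F₁) (2 * r),
      ‖u z' - u z - B z (z' - z)‖ ≤ C * ‖z' - z‖ ^ (1 + α)) :
    ∀ z ∈ ball (0 : F₁) r, ∀ z' ∈ ball (0 : F₁) r, ‖B z - B z'‖ ≤ 8 * C * ‖z - z'‖ ^ α := by
  intro z hz z' hz'
  rcases eq_or_lt_of_le (norm_nonneg (z - z')) with h0 | h0
  · have : z = z' := sub_eq_zero.1 (norm_eq_zero.1 h0.symm)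
    subst this
    simp only [sub_self, norm_zero]
    positivity
  set t := ‖z - z'‖ with ht
  have hzr : ‖z‖ < r := by simpa using hz
  have hzr' : ‖z'‖ < r := by simpa using hz'
  have hr : 0 < r := (norm_nonneg _).trans_lt hzr
  have htr : t < 2 * r := by
    have := norm_sub_le z z'
    linarith
  have key : ∀ x : F₁, ‖x‖ ≤ t / 2 → ‖(B z - B z') x‖ ≤ 15 / 4 * (C * t ^ (1 + α)) := by
    intro x hx
    have hb1 : z ∈ ball (0 : F₁) (2 * r) := by simpa using by linarith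
    have hb2 : z' ∈ ball (0 : F₁) (2 * r) := by simpa using by linarith
    have hb3 : z + x ∈ ball (0 : F₁) (2 * r) := by
      rw [mem_ball_zero_iff]
      calc ‖z + x‖ ≤ ‖z‖ + ‖x‖ := norm_add_le _ _
        _ < 2 * r := by linarith
    have e1 := h z hb1 (z + x) hb3
    have e2 := h z' hb2 (z + x) hb3
    have e3 := h z' hb2 z hb1
    rw [add_sub_cancel_left] at e1
    have f1 : ‖x‖ ^ (1 + α) ≤ 1 / 2 * t ^ (1 + α) := by
      calc ‖x‖ ^ (1 + α) ≤ (t / 2) ^ (1 + α) :=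
            Real.rpow_le_rpow (norm_nonneg _) hx (by linarith)
        _ = (1 / 2) ^ (1 + α) * t ^ (1 + α) := by
            rw [← Real.mul_rpow (by norm_num) h0.le]; congr 1; ring
        _ ≤ 1 / 2 * t ^ (1 + α) := by
            refine mul_le_mul_of_nonneg_right ?_ (by positivity)
            calc ((1 : ℝ) / 2) ^ (1 + α) ≤ (1 / 2) ^ (1 : ℝ) :=
                  Real.rpow_le_rpow_of_exponent_ge (by norm_num) (by norm_num) (by linarith)
              _ = 1 / 2 := Real.rpow_one _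
    have f2 : ‖z + x - z'‖ ^ (1 + α) ≤ 9 / 4 * t ^ (1 + α) := by
      have hn : ‖z + x - z'‖ ≤ 3 / 2 * t := by
        have : z + x - z' = (z - z') + x := by abel
        rw [this]
        calc ‖(z - z') + x‖ ≤ ‖z - z'‖ + ‖x‖ := norm_add_le _ _
          _ ≤ 3 / 2 * t := by linarith
      calc ‖z + x - z'‖ ^ (1 + α) ≤ (3 / 2 * t) ^ (1 + α) :=
            Real.rpow_le_rpow (norm_nonneg _) hn (by linarith)
        _ = (3 / 2) ^ (1 + α) * t ^ (1 + α) := Real.mul_rpow (by norm_num) h0.le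
        _ ≤ 9 / 4 * t ^ (1 + α) := by
            refine mul_le_mul_of_nonneg_right ?_ (by positivity)
            calc ((3 : ℝ) / 2) ^ (1 + α) ≤ (3 / 2) ^ (2 : ℝ) :=
                  Real.rpow_le_rpow_of_exponent_le (by norm_num) (by linarith)
              _ = 9 / 4 := by norm_num
    have e4 : (B z - B z') x = (u (z + x) - u z' - B z' (z + x - z'))
        - (u z - u z' - B z' (z - z')) - (u (z + x) - u z - B z x) := by
      have h1 : z + x - z' = (z - z') + x := by abel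
      rw [h1, map_add, sub_apply]
      abel
    rw [e4]
    calc ‖(u (z + x) - u z' - B z' (z + x - z')) - (u z - u z' - B z' (z - z'))
          - (u (z + x) - u z - B z x)‖
        ≤ ‖u (z + x) - u z' - B z' (z + x - z')‖ + ‖u z - u z' - B z' (z - z')‖
          + ‖u (z + x) - u z - B z x‖ := by
            refine (norm_sub_le _ _).trans ?_
            gcongr
            exact norm_sub_le _ _
      _ ≤ C * ‖z + x - z'‖ ^ (1 + α) + C * ‖z - z'‖ ^ (1 + α) + C * ‖x‖ ^ (1 + α) := by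
            gcongr
      _ ≤ C * (9 / 4 * t ^ (1 + α)) + C * t ^ (1 + α) + C * (1 / 2 * t ^ (1 + α)) := by
            gcongr
      _ = 15 / 4 * (C * t ^ (1 + α)) := by ring
  refine ContinuousLinearMap.opNorm_le_bound _ (by positivity) fun x => ?_
  rcases eq_or_lt_of_le (norm_nonneg x) with hx0 | hx0
  · have : x = 0 := norm_eq_zero.1 hx0.symm
    subst this; simp
  have h1 := key ((t / 2 / ‖x‖) • x) (by
    rw [norm_smul, Real.norm_eq_abs, abs_of_pos (by positivity)]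
    field_simp
    exact le_rfl)
  rw [map_smul, norm_smul, Real.norm_eq_abs, abs_of_pos (by positivity)] at h1
  have h2 : t ^ (1 + α) = t * t ^ α := by
    rw [Real.rpow_add h0, Real.rpow_one]
  rw [h2] at h1
  have h3 : t / 2 / ‖x‖ * ‖(B z - B z') x‖ = (t / (2 * ‖x‖)) * ‖(B z - B z') x‖ := by
    field_simp
  rw [h3, div_mul_eq_mul_div, div_le_iff₀ (by positivity)] at h1
  have h4 : t * ‖(B z - B z') x‖ ≤ t * (8 * C * t ^ α * ‖x‖) := by
    have : 0 ≤ C * t ^ α * ‖x‖ * t := by positivity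
    nlinarith
  exact le_of_mul_le_mul_left h4 h0

/-- **THE GRAPH THEOREM** -/
theorem graph {T : Submodule ℝ E} {S : Set E} {x0 : E} {R Λ K α : ℝ} (hR : 0 < R) (hα : 0 < α)
    (hα1 : α ≤ 1) (hx0 : x0 ∈ S) (hcl : IsCompact (S ∩ closedBall x0 (R / 2)))
    (hΛ : Λ ≤ 1 / 8) (hK : 0 ≤ K) (hKR : K * (2 * R) ^ α ≤ Λ) (G : E → E →L[ℝ] Tᗮ)
    (hG : ∀ x ∈ S, x ∈ ball x0 R → ‖G x - Tᗮ.orthogonalProjectionOnto‖ ≤ Λ)
    (hGx : ∀ x ∈ S, x ∈ ball x0 R → ∀ y ∈ S, y ∈ ball x0 R →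
      ‖G x (y - x)‖ ≤ K * ‖y - x‖ ^ (1 + α))
    (hN : NoHole T S x0 R) :
    ∃ (u : T → Tᗮ) (g : T → T →L[ℝ] Tᗮ), GraphData T S x0 u g (R / 12) (R / 2) Λ (32 * K) α := by
  have hΛ0 : 0 ≤ Λ := le_trans (by positivity) hKR
  have hL : ∀ x ∈ S, x ∈ ball x0 R → ∀ y ∈ S, y ∈ ball x0 R →
      ‖Tᗮ.orthogonalProjectionOnto (y - x)‖ ≤ (2 * Λ) * ‖y - x‖ := by
    intro x hx hxR y hy hyR
    have h1 := hGx x hx hxR y hy hyR
    have hd : ‖y - x‖ ≤ 2 * R := by
      rw [mem_ball, dist_eq_norm] at hxR hyR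
      calc ‖y - x‖ = ‖(y - x0) - (x - x0)‖ := by congr 1; abel
        _ ≤ ‖y - x0‖ + ‖x - x0‖ := norm_sub_le _ _
        _ ≤ 2 * R := by linarith
    have h2 : K * ‖y - x‖ ^ (1 + α) ≤ Λ * ‖y - x‖ := by
      rcases eq_or_lt_of_le (norm_nonneg (y - x)) with h0 | h0
      · rw [← h0, Real.zero_rpow (by linarith)]; simp
      · rw [add_comm 1 α, Real.rpow_add h0, Real.rpow_one, ← mul_assoc]
        refine mul_le_mul_of_nonneg_right (le_trans ?_ hKR) h0.le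
        exact mul_le_mul_of_nonneg_left (Real.rpow_le_rpow h0.le hd hα.le) hK
    have h3 : Tᗮ.orthogonalProjectionOnto (y - x)
        = G x (y - x) - (G x - Tᗮ.orthogonalProjectionOnto) (y - x) := by
      rw [sub_apply]; abel
    rw [h3]
    calc ‖G x (y - x) - (G x - Tᗮ.orthogonalProjectionOnto) (y - x)‖
        ≤ ‖G x (y - x)‖ + ‖(G x - Tᗮ.orthogonalProjectionOnto) (y - x)‖ := norm_sub_le _ _
      _ ≤ Λ * ‖y - x‖ + Λ * ‖y - x‖ := by
          refine add_le_add (h1.trans h2) ?_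
          exact (ContinuousLinearMap.le_opNorm _ _).trans
            (mul_le_mul_of_nonneg_right (hG x hx hxR) (norm_nonneg _))
      _ = (2 * Λ) * ‖y - x‖ := by ring
  have hlam : 2 * Λ ≤ 1 / 4 := by linarith
  have hex : ∀ z : T, ∃ X : E, ‖z‖ < R / 6 →
      X ∈ S ∧ ‖X - x0‖ < R / 2 ∧ T.orthogonalProjectionOnto (X - x0) = z := by
    intro z
    by_cases hz : ‖z‖ < R / 6
    · obtain ⟨X, h1, h2, h3⟩ := surj hx0 hcl hlam hL hN hz
      exact ⟨X, fun _ => ⟨h1, h2, h3⟩⟩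
    · exact ⟨0, fun h => absurd h hz⟩
  choose X hX using hex
  have hex2 : ∀ x : E, ∃ B : T →L[ℝ] Tᗮ, (x ∈ S ∧ x ∈ ball x0 R) → ‖B‖ ≤ 2 * Λ ∧ ∀ v : E,
      ‖Tᗮ.orthogonalProjectionOnto v - B (T.orthogonalProjectionOnto v)‖ ≤ 2 * ‖G x v‖ := by
    intro x
    by_cases hx : x ∈ S ∧ x ∈ ball x0 R
    · obtain ⟨B, h1, h2⟩ := slope hΛ (G x) (hG x hx.1 hx.2)
      exact ⟨B, fun _ => ⟨h1, h2⟩⟩
    · exact ⟨0, fun h => absurd h hx⟩
  choose B hB using hex2
  set u : T → Tᗮ := fun z => Tᗮ.orthogonalProjectionOnto (X z - x0) with hu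
  have hXe : ∀ z : T, ‖z‖ < R / 6 → X z = x0 + ((z : E) + (u z : E)) := by
    intro z hz
    have h1 := split T (X z - x0)
    rw [(hX z hz).2.2] at h1
    simp only [hu]
    rw [h1]; abel
  have hXb : ∀ z : T, ‖z‖ < R / 6 → X z ∈ ball x0 R := by
    intro z hz
    rw [mem_ball, dist_eq_norm]
    exact (hX z hz).2.1.trans (by linarith)
  have hdiff : ∀ z z' : T, ‖z‖ < R / 6 → ‖z'‖ < R / 6 →
      T.orthogonalProjectionOnto (X z' - X z) = z' - z ∧
      Tᗮ.orthogonalProjectionOnto (X z' - X z) = u z' - u z := by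
    intro z z' hz hz'
    have h1 : X z' - X z = ((z' - z : T) : E) + ((u z' - u z : Tᗮ) : E) := by
      rw [hXe z hz, hXe z' hz']
      push_cast
      abel
    rw [h1]
    exact ⟨hx_coe _ _, hy_coe _ _⟩
  have hXlip : ∀ z z' : T, ‖z‖ < R / 6 → ‖z'‖ < R / 6 → ‖X z' - X z‖ ≤ 4 / 3 * ‖z' - z‖ := by
    intro z z' hz hz'
    have h1 := norm_le_of_flat hlam (hL _ (hX z hz).1 (hXb z hz) _ (hX z' hz').1 (hXb z' hz'))
    rwa [(hdiff z z' hz hz').1] at h1
  have hexp : ∀ z ∈ ball (0 : T) (2 * (R / 12)), ∀ z' ∈ ball (0 : T) (2 * (R / 12)),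
      ‖u z' - u z - B (X z) (z' - z)‖ ≤ 4 * K * ‖z' - z‖ ^ (1 + α) := by
    intro z hz z' hz'
    have hz1 : ‖z‖ < R / 6 := by
      rw [mem_ball_zero_iff] at hz; linarith
    have hz1' : ‖z'‖ < R / 6 := by
      rw [mem_ball_zero_iff] at hz'; linarith
    have h1 := (hB (X z) ⟨(hX z hz1).1, hXb z hz1⟩).2 (X z' - X z)
    rw [(hdiff z z' hz1 hz1').1, (hdiff z z' hz1 hz1').2] at h1
    have h2 := hGx _ (hX z hz1).1 (hXb z hz1) _ (hX z' hz1').1 (hXb z' hz1')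
    have h3 := hXlip z z' hz1 hz1'
    have h4 : ‖X z' - X z‖ ^ (1 + α) ≤ 16 / 9 * ‖z' - z‖ ^ (1 + α) := by
      calc ‖X z' - X z‖ ^ (1 + α) ≤ (4 / 3 * ‖z' - z‖) ^ (1 + α) :=
            Real.rpow_le_rpow (norm_nonneg _) h3 (by linarith)
        _ = (4 / 3) ^ (1 + α) * ‖z' - z‖ ^ (1 + α) :=
            Real.mul_rpow (by norm_num) (norm_nonneg _)
        _ ≤ 16 / 9 * ‖z' - z‖ ^ (1 + α) := by
            refine mul_le_mul_of_nonneg_right ?_ (by positivity)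
            calc ((4 : ℝ) / 3) ^ (1 + α) ≤ (4 / 3) ^ (2 : ℝ) :=
                  Real.rpow_le_rpow_of_exponent_le (by norm_num) (by linarith)
              _ = 16 / 9 := by norm_num
    have h5 : 0 ≤ K * ‖z' - z‖ ^ (1 + α) := by positivity
    have h6 : K * ‖X z' - X z‖ ^ (1 + α) ≤ K * (16 / 9 * ‖z' - z‖ ^ (1 + α)) :=
      mul_le_mul_of_nonneg_left h4 hK
    nlinarith
  have hlt : ∀ z : T, z ∈ ball (0 : T) (R / 12) → ‖z‖ < R / 6 := by
    intro z hz
    rw [mem_ball_zero_iff] at hz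
    linarith
  refine ⟨u, fun z => B (X z), ?_, ?_, ?_, ?_, ?_, ?_, ?_, ?_⟩
  · have h0 : ‖(0 : T)‖ < R / 6 := by rw [norm_zero]; linarith
    have h1 : X 0 = x0 := by
      refine inj hlam hL (hX 0 h0).1 (hXb 0 h0) hx0 (mem_ball_self hR) ?_
      rw [(hX 0 h0).2.2]; simp
    simp [hu, h1]
  · intro z hz
    rw [← hXe z (hlt z hz)]
    exact (hX z (hlt z hz)).1
  · intro p hp hp1 hp2
    set z := T.orthogonalProjectionOnto (p - x0) with hz
    have hz1 := hlt z hp1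
    have hpR : p ∈ ball x0 R := by
      rw [mem_ball, dist_eq_norm]
      have h1 := norm_le_hx_hy T (p - x0)
      rw [mem_ball_zero_iff] at hp2
      rw [← hz] at h1
      linarith
    have h2 : p = X z := inj hlam hL hp hpR (hX z hz1).1 (hXb z hz1) (by
      rw [(hX z hz1).2.2])
    simp only [hu]
    rw [← h2]
  · intro z hz
    have h1 := (hX z (hlt z hz)).2.1
    have h2 := norm_hx_le Tᗮ (X z - x0)
    exact lt_of_le_of_lt h2 h1
  · intro z hz z' hz'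
    have h1 := hL _ (hX z' (hlt z' hz')).1 (hXb z' (hlt z' hz')) _ (hX z (hlt z hz)).1
      (hXb z (hlt z hz))
    rw [(hdiff z' z (hlt z' hz') (hlt z hz)).2] at h1
    have h2 := hXlip z' z (hlt z' hz') (hlt z hz)
    have h3 : 2 * Λ * ‖X z - X z'‖ ≤ 2 * Λ * (4 / 3 * ‖z - z'‖) := by gcongr
    have h4 : 0 ≤ Λ * ‖z - z'‖ := by positivity
    linarith
  · intro z hz
    refine hasFDerivAt_of_exp (C := 4 * K) hα ?_
    have hzb : z ∈ ball (0 : T) (2 * (R / 12)) := by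
      rw [mem_ball_zero_iff]
      have := hlt z hz
      linarith
    filter_upwards [isOpen_ball.mem_nhds hzb] with z' hz'
    exact hexp z hzb z' hz'
  · intro z hz
    exact (hB (X z) ⟨(hX z (hlt z hz)).1, hXb z (hlt z hz)⟩).1
  · intro z hz z' hz'
    have h1 := holder_of_exp (B := fun z => B (X z)) (by positivity) hα hα1 hexp z hz z' hz'
    calc ‖B (X z) - B (X z')‖ ≤ 8 * (4 * K) * ‖z - z'‖ ^ α := h1
      _ = 32 * K * ‖z - z'‖ ^ α := by ring

end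

end Crest.Agent.R234.Al5_182
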