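import Crest.Agent.R234.Vf7_884

/-!
Row 234, base library (helper884), file 8: the density of the varifold of integral data is the
multiplicity almost everywhere, hence at least one on the support.
-/

set_option autoImplicit false

open MeasureTheory Crest.GeometryTopology.Submanifold Filter Topology
open scoped ENNReal InnerProductSpace

noncomputable section

namespace Crest.Agent.R234.Vf_884

variable {m k : ℕ} {U : Set (Euc k)} {D : VarifoldData m k}

theorem exists_lower {E F : Type*} [NormedAddCommGroup E] [NormedSpace ℝ E]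
    [FiniteDimensional ℝ E] [NormedAddCommGroup F] [NormedSpace ℝ F]
    (Lf : E →L[ℝ] F) (hL : Function.Injective Lf) : ∃ c : ℝ, 0 < c ∧ ∀ v, c * ‖v‖ ≤ ‖Lf v‖ := by
  obtain ⟨K, hK, h⟩ := LinearMap.exists_antilipschitzWith Lf.toLinearMap
    (LinearMap.ker_eq_bot.2 hL)
  refine ⟨(K : ℝ)⁻¹, by positivity, fun v => ?_⟩
  have h1 := h.le_mul_dist v 0
  simp only [dist_zero_right, map_zero] at h1
  rw [inv_mul_le_iff₀ (by positivity)]
  exact h1

theorem measurableSet_image (hD : IsIntegralVarifoldIn U D) {i : ℕ} {A : Set (Euc m)}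
    (hA : MeasurableSet A) (hAd : A ⊆ D.dom i) : MeasurableSet (D.chart i '' A) :=
  hA.image_of_continuousOn_injOn (hD.contDiff i).continuous.continuousOn
    ((hD.injOn i).mono hAd)

/-- the part of the weight carried by a piece of one chart. -/
theorem weight_restrict (hD : IsIntegralVarifoldIn U D) {i : ℕ} {A : Set (Euc m)}
    (hA : MeasurableSet A) (hAd : A ⊆ D.dom i) :
    (weight D).restrict (D.chart i '' A) = ((base D i).restrict A).map (D.chart i) := by
  have hm := measurableSet_image hD hA hAd
  have hfm : ∀ j, Measurable (D.chart j) := fun j => (hD.contDiff j).continuous.measurable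
  have h0 : weight D = Measure.sum fun j => (base D j).map (D.chart j) := rfl
  rw [h0, Measure.restrict_sum _ hm]
  have h1 : (fun j => ((base D j).map (D.chart j)).restrict (D.chart i '' A)) =
      fun j => if j = i then ((base D i).restrict A).map (D.chart i) else 0 := by
    funext j
    rw [Measure.restrict_map (hfm j) hm]
    split_ifs with hj
    · subst hj
      congr 1
      refine Measure.restrict_congr_set ?_
      filter_upwards [base_ae_dom hD j] with a ha
      refine propext ⟨fun h => ?_, fun h => ⟨a, h, rfl⟩⟩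
      obtain ⟨b, hb, hba⟩ := h
      have : b = a := hD.injOn j (hAd hb) ha hba
      rwa [← this]
    · have h2 : (base D j).restrict (D.chart j ⁻¹' (D.chart i '' A)) = 0 := by
        rw [Measure.restrict_eq_zero]
        have h3 : ∀ᵐ a ∂(base D j), a ∉ D.chart j ⁻¹' (D.chart i '' A) := by
          filter_upwards [base_ae_dom hD j] with a ha hcon
          exact (Set.disjoint_left.1 (hD.disjoint j i hj) ⟨a, ha, rfl⟩)
            (Set.image_mono hAd hcon)
        rw [ae_iff] at h3
        refine measure_mono_null (fun a ha => ?_) h3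
        exact fun hcon => hcon ha
      rw [h2, Measure.map_zero]
  rw [h1]
  ext S hS
  rw [Measure.sum_apply _ hS, tsum_eq_single i]
  · simp
  · intro j hj
    simp [hj]

theorem jac_pos {f : Euc m → Euc k} {a : Euc m} (h : Function.Injective (fderiv ℝ f a)) :
    0 < jac f a := by
  obtain ⟨M, hM⟩ := exists_sq (fderiv ℝ f a) h
  have h1 := jac_eq_abs_det hM
  have h2 : jac f a ≠ 0 := by
    intro h0
    unfold jac at h0
    rw [Real.sqrt_eq_zero'] at h0
    have h3 := det_metricMat_ne_zero h
    have h4 : 0 ≤ (metricMat f a).det := by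
      by_contra hcon
      have : jac f a = 0 := Real.sqrt_eq_zero_of_nonpos (not_le.1 hcon).le
      rw [h1] at this
      have h5 : (metricMat f a).det = (LinearMap.det M) ^ 2 := by
        set b := (EuclideanSpace.basisFun (Fin m) ℝ).toBasis with hb
        have h6 : metricMat f a =
            (LinearMap.toMatrix b b M).transpose * LinearMap.toMatrix b b M := by
          ext i j
          rw [Matrix.mul_apply]
          simp only [Matrix.transpose_apply, LinearMap.toMatrix_apply, metricMat,
            Matrix.of_apply, pd]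
          rw [← hM]
          have e1 : ∀ l, b l = stdVec m l := fun l => by simp [hb, stdVec]
          have e2 : ∀ (x : Euc m) l, b.repr x l = x l := fun x l => by simp [hb]
          simp only [e1, e2]
          rw [PiLp.inner_apply]
          refine Finset.sum_congr rfl fun l _ => ?_
          simp [mul_comm]
        rw [h6, Matrix.det_mul, Matrix.det_transpose, LinearMap.det_toMatrix, ← sq]
      rw [h5] at hcon
      exact hcon (sq_nonneg _)
    exact h3 (le_antisymm h0 h4)
  exact lt_of_le_of_ne (Real.sqrt_nonneg _) (Ne.symm h2)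

theorem dens_pos (hD : IsIntegralVarifoldIn U D) {i : ℕ} {a : Euc m} (ha : a ∈ D.dom i) :
    0 < dens D i a := by
  unfold dens
  rw [ENNReal.ofReal_pos]
  have h1 := jac_pos (hD.injective_fderiv i a ha)
  have h2 : (1:ℝ) ≤ D.mult i a := by exact_mod_cast hD.mult_pos i a ha
  positivity

theorem base_restrict {i : ℕ} {A : Set (Euc m)}
    (hA : MeasurableSet A) (hAd : A ⊆ D.dom i) :
    (base D i).restrict A = (volume.restrict A).withDensity (dens D i) := by
  unfold base
  rw [restrict_withDensity hA, Measure.restrict_restrict_of_subset hAd]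

/-- almost everywhere statements on the weight pull back to the domains. -/
theorem ae_of_weight (hD : IsIntegralVarifoldIn U D) {i : ℕ} {A : Set (Euc m)}
    (hA : MeasurableSet A) (hAd : A ⊆ D.dom i) {P : Euc k → Prop}
    (h : ∀ᵐ x ∂(weight D).restrict (D.chart i '' A), P x) :
    ∀ᵐ a ∂(volume.restrict A), P (D.chart i a) := by
  rw [weight_restrict hD hA hAd, base_restrict hA hAd] at h
  have h1 := ae_of_ae_map (hD.contDiff i).continuous.measurable.aemeasurable h
  rw [ae_withDensity_iff (measurable_dens hD i)] at h1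
  filter_upwards [h1, ae_restrict_mem hA] with a ha haA
  exact ha (dens_pos hD (hAd haA)).ne'

theorem ediv_mul_ediv {a b c : ℝ≥0∞} (hab : a ≤ b) (hb : b ≠ ⊤) : a / b * (b / c) = a / c := by
  rcases eq_or_ne b 0 with rfl | h0
  · have : a = 0 := le_antisymm hab zero_le
    subst this
    simp
  · rw [div_eq_mul_inv, div_eq_mul_inv, div_eq_mul_inv, mul_assoc, ← mul_assoc b⁻¹,
      ENNReal.inv_mul_cancel h0 hb, one_mul]

theorem Th_local (hD : IsIntegralVarifoldIn U D) (hs : IsStationaryIn U D) (hm : 1 ≤ m)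
    (i : ℕ) {a0 : Euc m} (ha0 : a0 ∈ D.dom i) (hU : IsOpen U) :
    ∃ N : Set (Euc m), IsOpen N ∧ a0 ∈ N ∧
      ∀ᵐ a ∂(volume.restrict (D.dom i ∩ N)), Th m (VD D) (D.chart i a) = (D.mult i a : ℝ≥0∞) := by
  set f := D.chart i with hf
  have hfd : ContDiff ℝ 1 f := hD.contDiff i
  have hV := stat_VD hD hs
  -- the neighbourhood
  obtain ⟨c0, hc0, hL0⟩ := exists_lower _ (hD.injective_fderiv i a0 ha0)
  obtain ⟨R, hR, hRU⟩ := exists_closedBall hU (hD.subset i ⟨a0, ha0, rfl⟩)
  have hstr : HasStrictFDerivAt f (fderiv ℝ f a0) a0 :=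
    hfd.contDiffAt.hasStrictFDerivAt one_ne_zero
  have h1 := hstr.isLittleO.def (show 0 < c0 / 2 by positivity)
  rw [nhds_prod_eq] at h1
  obtain ⟨N1, hN1, h2⟩ := Filter.eventually_prod_self_iff
    (r := fun x y : Euc m => ‖f x - f y - (fderiv ℝ f a0) (x - y)‖ ≤ c0 / 2 * ‖x - y‖) |>.1 h1
  have hN2 : ∀ᶠ a in 𝓝 a0, f a ∈ Metric.ball (f a0) R :=
    hfd.continuous.continuousAt.eventually_mem (Metric.ball_mem_nhds _ hR)
  obtain ⟨N, hNsub, hNo, haN⟩ := mem_nhds_iff.1 (Filter.inter_mem hN1 hN2)
  refine ⟨N, hNo, haN, ?_⟩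
  have hbi : ∀ x ∈ N, ∀ y ∈ N, (c0 / 2) * ‖x - y‖ ≤ ‖f x - f y‖ := by
    intro x hx y hy
    have e1 := h2 x (hNsub hx).1 y (hNsub hy).1
    have e2 := hL0 (x - y)
    have e3 : ‖fderiv ℝ f a0 (x - y)‖ ≤
        ‖f x - f y - fderiv ℝ f a0 (x - y)‖ + ‖f x - f y‖ := by
      have := norm_sub_le (f x - f y) (f x - f y - fderiv ℝ f a0 (x - y))
      rw [sub_sub_cancel] at this
      linarith
    linarith
  set A := D.dom i ∩ N with hAdef
  have hA : MeasurableSet A := (hD.measurableSet i).inter hNo.measurableSet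
  have hAd : A ⊆ D.dom i := Set.inter_subset_left
  set O := Metric.ball (f a0) R with hO
  have hOm : MeasurableSet O := measurableSet_ball
  have hfA : f '' A ⊆ O := by
    rintro _ ⟨y, hy, rfl⟩
    exact (hNsub hy.2).2
  have hOfin : weight D O < ⊤ :=
    (measure_mono Metric.ball_subset_closedBall).trans_lt
      (hD.locallyFinite _ (isCompact_closedBall _ _) hRU)
  have : IsFiniteMeasure ((weight D).restrict O) := ⟨by simpa using hOfin⟩
  -- Besicovitch
  have hbes := Besicovitch.ae_tendsto_measure_inter_div ((weight D).restrict O) (f '' A)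
  rw [Measure.restrict_restrict_of_subset hfA] at hbes
  have hbes2 := ae_of_weight hD hA hAd hbes
  -- Lebesgue points
  set g : Euc m → ℝ := A.indicator fun y => (D.mult i y : ℝ) * jac f y with hg
  have hgm : Measurable fun y => (D.mult i y : ℝ) * jac f y := by
    have e1 : Measurable fun a => ((D.mult i a : ℕ) : ℝ) :=
      (measurable_of_countable (fun n : ℕ => (n : ℝ))).comp (hD.measurable_mult i)
    exact e1.mul (continuous_jac hfd).measurable
  have hgpos : ∀ y, 0 ≤ (D.mult i y : ℝ) * jac f y := fun y =>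
    mul_nonneg (Nat.cast_nonneg _) (Real.sqrt_nonneg _)
  have hg0 : ∀ y, 0 ≤ g y := fun y => Set.indicator_nonneg (fun y _ => hgpos y) y
  have hval : ∀ S : Set (Euc k), MeasurableSet S →
      weight D (f '' A ∩ S) = ∫⁻ y in f ⁻¹' S, ENNReal.ofReal (g y) := by
    intro S hS
    have e1 : weight D (f '' A ∩ S) = (weight D).restrict (f '' A) S := by
      rw [Measure.restrict_apply hS, Set.inter_comm]
    have hSm : MeasurableSet (f ⁻¹' S) := hfd.continuous.measurable hS
    rw [e1, weight_restrict hD hA hAd, base_restrict hA hAd,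
      Measure.map_apply hfd.continuous.measurable hS, withDensity_apply _ hSm,
      Measure.restrict_restrict hSm, ← lintegral_indicator (hSm.inter hA),
      ← lintegral_indicator hSm]
    refine lintegral_congr fun y => ?_
    by_cases hy1 : y ∈ f ⁻¹' S
    · by_cases hy2 : y ∈ A
      · rw [Set.indicator_of_mem (show y ∈ f ⁻¹' S ∩ A from ⟨hy1, hy2⟩),
          Set.indicator_of_mem hy1, hg, Set.indicator_of_mem hy2]
        rfl
      · rw [Set.indicator_of_notMem (fun h => hy2 h.2), Set.indicator_of_mem hy1, hg,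
          Set.indicator_of_notMem hy2, ENNReal.ofReal_zero]
    · rw [Set.indicator_of_notMem (fun h => hy1 h.1), Set.indicator_of_notMem hy1]
  have hgint : Integrable g := by
    refine ⟨(hgm.indicator hA).aestronglyMeasurable, ?_⟩
    rw [hasFiniteIntegral_iff_ofReal (Eventually.of_forall hg0)]
    have e1 := hval Set.univ MeasurableSet.univ
    rw [Set.inter_univ, Set.preimage_univ, Measure.restrict_univ] at e1
    rw [← e1]
    exact (measure_mono hfA).trans_lt hOfin
  have hleb := IsUnifLocDoublingMeasure.ae_tendsto_average_norm_sub (volume : Measure (Euc m))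
    hgint.locallyIntegrable 1
  filter_upwards [hbes2, ae_restrict_of_ae hleb, ae_restrict_mem hA] with a hb hl haA
  have hinj := hD.injective_fderiv i a (hAd haA)
  obtain ⟨c1, hc1, hL1⟩ := exists_lower _ hinj
  obtain ⟨M, hM⟩ := exists_sq (fderiv ℝ f a) hinj
  have hjac := jac_eq_abs_det hM
  have hjp := jac_pos hinj
  have hdet : LinearMap.det M ≠ 0 := by
    intro h
    rw [h, abs_zero] at hjac
    exact hjp.ne' hjac
  set c := min (c0 / 2) c1 with hcdef
  have hc : 0 < c := lt_min (by positivity) hc1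
  have hT := tendsto_preimage hM hdet hc
    (fun v => (mul_le_mul_of_nonneg_right (min_le_right _ _) (norm_nonneg _)).trans (hL1 v))
    hgint hg0 (hfd.differentiable one_ne_zero a).hasFDerivAt hfd.continuous (a := a)
    (fun y hy => by
      have hyA : y ∈ A := by
        by_contra hcon
        exact hy (Set.indicator_of_notMem hcon _)
      exact (mul_le_mul_of_nonneg_right (min_le_left _ _) (norm_nonneg _)).trans
        (hbi y hyA.2 a haA.2))
    (hl (fun _ => a) (fun δ => δ) tendsto_id (by
      filter_upwards [self_mem_nhdsWithin] with δ hδ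
      rw [one_mul]
      exact Metric.mem_closedBall_self (le_of_lt hδ)))
  have hga : g a / |LinearMap.det M| = (D.mult i a : ℝ) := by
    rw [hg, Set.indicator_of_mem haA, hjac, mul_div_assoc, div_self (abs_pos.2 hdet).ne',
      mul_one]
  rw [hga] at hT
  -- the two limits
  have hfa : f a ∈ U := hD.subset i ⟨a, hAd haA, rfl⟩
  obtain ⟨R', hR', hRU'⟩ := exists_closedBall hU hfa
  have hTh := tendsto_rat_closed hV hm hR' (Metric.ball_subset_closedBall.trans hRU')
  rw [mass_VD hD] at hTh
  have hTh1 : Th m (VD D) (f a) ≠ ⊤ := (Th_lt_top hV hm hU hfa).ne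
  have hprod := ENNReal.Tendsto.mul hb (Or.inl one_ne_zero) hTh (Or.inr ENNReal.one_ne_top)
  rw [one_mul] at hprod
  refine tendsto_nhds_unique hprod ?_
  have hlimE : Tendsto (fun r : ℝ => ENNReal.ofReal
      ((∫ y in f ⁻¹' (Metric.closedBall (f a) r), g y) / (ome m * r ^ m))) (𝓝[>] 0)
      (𝓝 (D.mult i a : ℝ≥0∞)) := by
    have := (ENNReal.continuous_ofReal.tendsto _).comp hT
    rwa [ENNReal.ofReal_natCast] at this
  refine hlimE.congr' ?_
  have hfO : f a ∈ O := hfA ⟨a, haA, rfl⟩
  obtain ⟨R2, hR2, hRO⟩ := Metric.isOpen_iff.1 Metric.isOpen_ball (f a) hfO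
  filter_upwards [Ioo_mem_nhdsGT hR2] with r hr
  have hsub : Metric.closedBall (f a) r ⊆ O :=
    (Metric.closedBall_subset_ball hr.2).trans hRO
  have e1 : (weight D).restrict O (Metric.closedBall (f a) r)
      = weight D (Metric.closedBall (f a) r) := by
    rw [Measure.restrict_apply measurableSet_closedBall, Set.inter_eq_left.2 hsub]
  have e2 : (weight D).restrict O (f '' A ∩ Metric.closedBall (f a) r)
      = weight D (f '' A ∩ Metric.closedBall (f a) r) := by
    rw [Measure.restrict_apply
      ((measurableSet_image hD hA hAd).inter measurableSet_closedBall),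
      Set.inter_eq_left.2 (Set.inter_subset_right.trans hsub)]
  rw [e1, e2, ediv_mul_ediv (measure_mono Set.inter_subset_right)
    ((measure_mono hsub).trans_lt hOfin).ne, hval _ measurableSet_closedBall,
    ENNReal.ofReal_div_of_pos (den_pos m hr.1),
    ofReal_integral_eq_lintegral_ofReal hgint.integrableOn (Eventually.of_forall hg0)]

/-- **the density is the multiplicity** at almost every point. -/
theorem Th_VD_ae (hD : IsIntegralVarifoldIn U D) (hs : IsStationaryIn U D) (hm : 1 ≤ m)
    (hU : IsOpen U) (i : ℕ) :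
    ∀ᵐ a ∂(volume.restrict (D.dom i)), Th m (VD D) (D.chart i a) = (D.mult i a : ℝ≥0∞) := by
  rw [ae_restrict_iff' (hD.measurableSet i), ae_iff]
  refine measure_null_of_locally_null _ fun a0 ha0 => ?_
  have ha0' : a0 ∈ D.dom i := by
    by_contra hcon
    exact ha0 fun h => absurd h hcon
  obtain ⟨N, hNo, haN, hN⟩ := Th_local hD hs hm i ha0' hU
  refine ⟨{a | ¬(a ∈ D.dom i → Th m (VD D) (D.chart i a) = (D.mult i a : ℝ≥0∞))} ∩ N,
    Filter.inter_mem self_mem_nhdsWithin (nhdsWithin_le_nhds (hNo.mem_nhds haN)), ?_⟩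
  rw [ae_restrict_iff' ((hD.measurableSet i).inter hNo.measurableSet), ae_iff] at hN
  refine measure_mono_null ?_ hN
  rintro a ⟨h1, h2⟩ h3
  exact h1 fun h4 => h3 ⟨h4, h2⟩

/-- the density is a positive integer at almost every point of the weight. -/
theorem Th_weight_ae (hD : IsIntegralVarifoldIn U D) (hs : IsStationaryIn U D) (hm : 1 ≤ m)
    (hU : IsOpen U) : ∀ᵐ x ∂(weight D), ∃ N : ℕ, 1 ≤ N ∧ Th m (VD D) x = (N : ℝ≥0∞) := by
  have h0 : weight D = Measure.sum fun j => (base D j).map (D.chart j) := rfl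
  rw [h0, Measure.ae_sum_iff]
  intro i
  have h1 : ∀ᵐ a ∂(base D i), Th m (VD D) (D.chart i a) = (D.mult i a : ℝ≥0∞) :=
    (base_ac D i).ae_le (Th_VD_ae hD hs hm hU i)
  have h2 := base_ae_dom hD i
  -- a measurable good set
  set S : Set (Euc m) := {a | a ∈ D.dom i ∧ Th m (VD D) (D.chart i a) = (D.mult i a : ℝ≥0∞)}
    with hS
  have h3 : base D i Sᶜ = 0 := by
    have : ∀ᵐ a ∂(base D i), a ∈ S := by
      filter_upwards [h1, h2] with a ha hb using ⟨hb, ha⟩
    rwa [ae_iff] at this
  obtain ⟨T, hT1, hT2, hT3⟩ := exists_measurable_superset_of_null h3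
  have h4 : MeasurableSet (D.chart i '' (D.dom i \ T)) :=
    measurableSet_image hD ((hD.measurableSet i).diff hT2) Set.sdiff_subset
  have h5 : ∀ᵐ x ∂((base D i).map (D.chart i)), x ∈ D.chart i '' (D.dom i \ T) := by
    refine (ae_map_iff (hD.contDiff i).continuous.measurable.aemeasurable
      (p := fun x => x ∈ D.chart i '' (D.dom i \ T)) h4).2 ?_
    have h6 : ∀ᵐ a ∂(base D i), a ∉ T := by
      rw [ae_iff]; simpa using hT3
    filter_upwards [h2, h6] with a ha hb
    exact ⟨a, ⟨ha, hb⟩, rfl⟩
  filter_upwards [h5] with x hx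
  obtain ⟨a, ⟨ha, hb⟩, rfl⟩ := hx
  have h7 : a ∈ S := by
    by_contra hcon
    exact hb (hT1 hcon)
  exact ⟨D.mult i a, hD.mult_pos i a ha, h7.2⟩

/-- the density is at least one on the support. -/
theorem one_le_Th (hD : IsIntegralVarifoldIn U D) (hs : IsStationaryIn U D) (hm : 1 ≤ m)
    (hU : IsOpen U) {z : Euc k} (hz : z ∈ U) (hzs : z ∈ support D) : 1 ≤ Th m (VD D) z := by
  refine le_Th_of_ae (stat_VD hD hs) hm hU ?_ hz (by
    intro r hr
    rw [mass_VD hD]
    exact hzs r hr)
  rw [mass_VD hD]
  filter_upwards [Th_weight_ae hD hs hm hU] with x hx _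
  obtain ⟨N, hN, h⟩ := hx
  rw [h]
  exact_mod_cast hN

/-- lower mass bound at support points. -/
theorem le_weight_ball (hD : IsIntegralVarifoldIn U D) (hs : IsStationaryIn U D) (hm : 1 ≤ m)
    (hU : IsOpen U) {z : Euc k} {r : ℝ} (hr : 0 < r) (hz : Metric.ball z r ⊆ U)
    (hzs : z ∈ support D) : ENNReal.ofReal (ome m * r ^ m) ≤ weight D (Metric.ball z r) := by
  have h := mul_le_mass (stat_VD hD hs) hm hr hz
    (one_le_Th hD hs hm hU (hz (Metric.mem_ball_self hr)) hzs)
  rwa [one_mul, mass_VD hD] at h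

end Crest.Agent.R234.Vf_884
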