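import Crest.Agent.R234.Ar3_3
import Crest.Agent.R234.Al5_182
import Crest.Agent.R234.Vf8_884

/-!
R234 (helper3), VF-ALEND: from the graph data of 182 (`Al5_182.GraphData`) for the support of an
integral stationary varifold with density in `[Q, Q+1)` to regular points.

* `weight_support_compl` : the complement of the support has weight zero;
* `mult_eq` : multiplicity `= Q` a.e. in the cylinder when the density is in `[Q, Q+1)`;
* `end_of_graphData`: no singular point in the cylinder.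
-/

open MeasureTheory Metric Set Filter Topology
open scoped ContDiff NNReal ENNReal
open Crest.GeometryTopology.Submanifold

namespace Crest.Agent.R234.Ae1_3

noncomputable section

open Crest.Agent.R234.Ell3_3
open Crest.Agent.R234.Vf_884

variable {m k : ℕ}

/-- The complement of the support is a null set. -/
theorem weight_support_compl (D : VarifoldData m k) : weight D (support D)ᶜ = 0 := by
  refine measure_null_of_locally_null _ fun p hp => ?_
  have h1 : ∃ ρ > 0, weight D (ball p ρ) = 0 := by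
    by_contra hcon
    push Not at hcon
    exact hp fun ρ hρ => pos_iff_ne_zero.2 (hcon ρ hρ)
  obtain ⟨ρ, hρ, h0⟩ := h1
  exact ⟨ball p ρ, mem_nhdsWithin_of_mem_nhds (ball_mem_nhds p hρ), h0⟩

/-- almost every point (of a chart domain) is mapped into the support. -/
theorem chart_mem_support {U : Set (Euc k)} {D : VarifoldData m k}
    (hD : IsIntegralVarifoldIn U D) (i : ℕ) :
    ∀ᵐ a ∂(volume.restrict (D.dom i)), D.chart i a ∈ support D := by
  refine ae_of_weight hD (hD.measurableSet i) subset_rfl ?_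
  refine ae_restrict_of_ae ?_
  rw [ae_iff]
  exact weight_support_compl D

/-- Density in `[Q, Q+1)` at the support points of `W` forces multiplicity `Q` a.e. over `W`. -/
theorem mult_eq {U : Set (Euc k)} {D : VarifoldData m k} (hU : IsOpen U) (hm : 1 ≤ m)
    (hD : IsIntegralVarifoldIn U D) (hs : IsStationaryIn U D) {W : Set (Euc k)} {Q : ℕ}
    (h1 : ∀ p ∈ support D ∩ W, (Q : ℝ≥0∞) ≤ Th m (VD D) p)
    (h2 : ∀ p ∈ support D ∩ W, Th m (VD D) p < (Q : ℝ≥0∞) + 1) (i : ℕ) :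
    ∀ᵐ a ∂(volume.restrict (D.dom i)), D.chart i a ∈ W → D.mult i a = Q := by
  filter_upwards [Th_VD_ae hD hs hm hU i, chart_mem_support hD i] with a ha hsup haW
  have h3 := h1 _ ⟨hsup, haW⟩
  have h4 := h2 _ ⟨hsup, haW⟩
  rw [ha] at h3 h4
  have h5 : Q ≤ D.mult i a := by exact_mod_cast h3
  have h6 : D.mult i a < Q + 1 := by exact_mod_cast h4
  omega

/-- **No singular points over the graph data of 182**: `S` is any set between the part of the
support in the cylinder and the support. -/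
theorem end_of_graphData (m k : ℕ) (hm : 1 ≤ m) {α : ℝ} (hα : 0 < α) (hα1 : α < 1) :
    ∃ p₀ > 0, ∀ (U : Set (Euc k)) (D : VarifoldData m k), IsOpen U → IsIntegralVarifoldIn U D →
      IsStationaryIn U D → ∀ (T : Submodule ℝ (Euc k)), Module.finrank ℝ T = m →
      ∀ (x0 : Euc k) (r s Λ K : ℝ) (S : Set (Euc k)) (u : T → Tᗮ) (g : T → T →L[ℝ] Tᗮ),
      Al5_182.GraphData T S x0 u g r s Λ K α → 2 * Λ < p₀ →
      S ⊆ support D → support D ∩ cyl T x0 r s ⊆ S → cyl T x0 r s ⊆ U →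
      ∀ (Q : ℕ), 1 ≤ Q →
      (∀ i, ∀ᵐ a ∂(volume.restrict (D.dom i)), D.chart i a ∈ cyl T x0 r s → D.mult i a = Q) →
      ContDiffOn ℝ ∞ u (ball 0 r) ∧ ∀ p ∈ cyl T x0 r s, p ∉ singularSet m k U D := by
  obtain ⟨p₀, hp, H⟩ := Ar3_3.allard_end m k hα hα1
  refine ⟨p₀, hp, ?_⟩
  intro U D hU hD hst T hT x0 r s Λ K S u g hG hΛ hS1 hS2 hW Q hQ hmult
  refine H U D hD hst T hT x0 r s u g hG.der ?_ (fun z hz => (hG.le z hz).trans_lt hΛ) hG.lt hW
    ?_ Q hQ hmult ?_
  · intro x hx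
    obtain ⟨ρ, hρ, hsub⟩ := Metric.isOpen_iff.1 isOpen_ball x hx
    exact ⟨ρ, hρ, K, fun z hz z' hz' => hG.hol z (hsub hz) z' (hsub hz')⟩
  · refine measure_mono_null ?_ (weight_support_compl D)
    rintro p ⟨hpc, hpg⟩ hps
    refine hpg ⟨hpc, ?_⟩
    exact hG.eq p (hS2 ⟨hps, hpc⟩) hpc.1 hpc.2
  · intro p hp
    have hpS : p ∈ support D := by
      have h1 := hG.mem (px T x0 p) hp.1.1
      have h2 : x0 + (((px T x0 p : T) : Euc k) + ((u (px T x0 p) : Tᗮ) : Euc k)) = p := by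
        rw [← hp.2]
        exact (split T x0 p).symm
      rw [h2] at h1
      exact hS1 h1
    obtain ⟨ρ₀, hρ₀, hsub⟩ := Metric.isOpen_iff.1 hU p (hW hp.1)
    refine ⟨ome m, ome_pos m, ?_⟩
    filter_upwards [Ioo_mem_nhdsGT hρ₀] with ρ hρ
    exact le_weight_ball hD hst hm hU hρ.1 ((ball_subset_ball hρ.2.le).trans hsub) hpS

/-- The same, with the density hypothesis `Q ≤ Th < Q + 1` at the support points of the
cylinder. -/
theorem end_of_graphData' (m k : ℕ) (hm : 1 ≤ m) {α : ℝ} (hα : 0 < α) (hα1 : α < 1) :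
    ∃ p₀ > 0, ∀ (U : Set (Euc k)) (D : VarifoldData m k), IsOpen U → IsIntegralVarifoldIn U D →
      IsStationaryIn U D → ∀ (T : Submodule ℝ (Euc k)), Module.finrank ℝ T = m →
      ∀ (x0 : Euc k) (r s Λ K : ℝ) (S : Set (Euc k)) (u : T → Tᗮ) (g : T → T →L[ℝ] Tᗮ),
      Al5_182.GraphData T S x0 u g r s Λ K α → 2 * Λ < p₀ →
      S ⊆ support D → support D ∩ cyl T x0 r s ⊆ S → cyl T x0 r s ⊆ U →
      ∀ (Q : ℕ), 1 ≤ Q →
      (∀ p ∈ support D ∩ cyl T x0 r s, (Q : ℝ≥0∞) ≤ Th m (VD D) p) →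
      (∀ p ∈ support D ∩ cyl T x0 r s, Th m (VD D) p < (Q : ℝ≥0∞) + 1) →
      ContDiffOn ℝ ∞ u (ball 0 r) ∧ ∀ p ∈ cyl T x0 r s, p ∉ singularSet m k U D := by
  obtain ⟨p₀, hp, H⟩ := end_of_graphData m k hm hα hα1
  refine ⟨p₀, hp, ?_⟩
  intro U D hU hD hst T hT x0 r s Λ K S u g hG hΛ hS1 hS2 hW Q hQ hlo hhi
  exact H U D hU hD hst T hT x0 r s Λ K S u g hG hΛ hS1 hS2 hW Q hQ
    (mult_eq hU hm hD hst hlo hhi)

end

end Crest.Agent.R234.Ae1_3
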