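import Crest.Agent.R234.Vf3_884

set_option autoImplicit false

/-!
Row 234, VF-ALLARD, part 1 (helper640): affine weighted monotonicity for general stationary
varifolds (language of Vf0_884), with the sharp constant.

* `ph u = (1-u)₊²`, `Ph u = -(1-u)₊³/3` (`Ph' = ph`);
* `radial_aff` : the radial identity with an affine factor.
-/

open MeasureTheory Crest.GeometryTopology.Submanifold Filter Topology Metric Set
open scoped ENNReal InnerProductSpace
open Crest.Agent.R234.Vf_884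

noncomputable section

namespace Crest.Agent.R234.Al1_640

/-! ### the weight -/

/-- the weight `(1-u)₊²` -/
def ph (u : ℝ) : ℝ := (max (1 - u) 0) ^ 2

/-- its derivative -/
def ph' (u : ℝ) : ℝ := -2 * max (1 - u) 0

/-- its primitive vanishing for `u ≥ 1` -/
def Ph (u : ℝ) : ℝ := -(max (1 - u) 0) ^ 3 / 3

theorem ph_nonneg (u : ℝ) : 0 ≤ ph u := sq_nonneg _

theorem ph'_nonpos (u : ℝ) : ph' u ≤ 0 := by
  unfold ph'; nlinarith [le_max_right (1 - u) 0]

theorem ph_zero {u : ℝ} (h : 1 ≤ u) : ph u = 0 := by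
  unfold ph; rw [max_eq_right (by linarith)]; simp

theorem ph'_zero {u : ℝ} (h : 1 ≤ u) : ph' u = 0 := by
  unfold ph'; rw [max_eq_right (by linarith)]; simp

theorem Ph_zero {u : ℝ} (h : 1 ≤ u) : Ph u = 0 := by
  unfold Ph; rw [max_eq_right (by linarith)]; simp

theorem ph_le {u : ℝ} (h : 0 ≤ u) : ph u ≤ 1 := by
  unfold ph
  have h1 : max (1 - u) 0 ≤ 1 := max_le (by linarith) zero_le_one
  have h2 : 0 ≤ max (1 - u) 0 := le_max_right _ _
  nlinarith

theorem abs_ph'_le {u : ℝ} (h : 0 ≤ u) : |ph' u| ≤ 2 := by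
  unfold ph'
  have h1 : max (1 - u) 0 ≤ 1 := max_le (by linarith) zero_le_one
  have h2 : 0 ≤ max (1 - u) 0 := le_max_right _ _
  rw [abs_le]; constructor <;> linarith

theorem ph_anti {u v : ℝ} (h : u ≤ v) : ph v ≤ ph u := by
  unfold ph
  exact pow_le_pow_left₀ (le_max_right _ _) (max_le_max (by linarith) le_rfl) 2

theorem continuous_ph : Continuous ph := by unfold ph; fun_prop

theorem continuous_ph' : Continuous ph' := by unfold ph'; fun_prop

theorem continuous_Ph : Continuous Ph := by unfold Ph; fun_prop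

/-- second order Taylor estimate -/
theorem ph_taylor (u v : ℝ) : |ph u - ph v - ph' v * (u - v)| ≤ (u - v) ^ 2 := by
  unfold ph ph'
  rcases le_total (1 - u) 0 with hu | hu <;> rcases le_total (1 - v) 0 with hv | hv
  · rw [max_eq_right hu, max_eq_right hv]; norm_num; positivity
  · rw [max_eq_right hu, max_eq_left hv, abs_le]; constructor <;> nlinarith
  · rw [max_eq_left hu, max_eq_right hv, abs_le]; constructor <;> nlinarith
  · rw [max_eq_left hu, max_eq_left hv, abs_le]; constructor <;> nlinarith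

theorem hasDerivAt_maxpow (n : ℕ) (x : ℝ) :
    HasDerivAt (fun x : ℝ => (max x 0) ^ (n + 2)) ((n + 2) * (max x 0) ^ (n + 1)) x := by
  rcases lt_trichotomy x 0 with hx | hx | hx
  · have h1 : (fun x : ℝ => (max x 0) ^ (n + 2)) =ᶠ[𝓝 x] fun _ => 0 := by
      filter_upwards [Iio_mem_nhds hx] with y hy
      rw [max_eq_right (le_of_lt hy)]; simp
    rw [max_eq_right hx.le]
    simpa using (hasDerivAt_const x (0 : ℝ)).congr_of_eventuallyEq h1
  · subst hx
    rw [max_self, hasDerivAt_iff_isLittleO_nhds_zero]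
    have h1 : (fun h : ℝ => (max (0 + h) 0) ^ (n + 2) - (max (0:ℝ) 0) ^ (n + 2)
        - h • (((n : ℝ) + 2) * 0 ^ (n + 1))) =O[𝓝 0] fun h : ℝ => h ^ (n + 2) := by
      refine Asymptotics.IsBigO.of_bound 1 (Eventually.of_forall fun h => ?_)
      rw [Real.norm_eq_abs, Real.norm_eq_abs, zero_add, max_self, one_mul, abs_pow]
      simp only [ne_eq, Nat.add_eq_zero_iff, OfNat.ofNat_ne_zero, and_false, not_false_eq_true,
        zero_pow, sub_zero, one_ne_zero, mul_zero, smul_zero, abs_pow]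
      refine pow_le_pow_left₀ (abs_nonneg _) ?_ _
      rw [abs_of_nonneg (le_max_right _ _)]
      exact max_le (le_abs_self h) (abs_nonneg h)
    refine h1.trans_isLittleO ?_
    have := Asymptotics.isLittleO_pow_id (𝕜 := ℝ) (n := n + 2) (by omega)
    simpa using this
  · have h1 : (fun x : ℝ => (max x 0) ^ (n + 2)) =ᶠ[𝓝 x] fun x => x ^ (n + 2) := by
      filter_upwards [Ioi_mem_nhds hx] with y hy
      rw [max_eq_left (le_of_lt hy)]
    rw [max_eq_left hx.le]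
    have h2 := (hasDerivAt_pow (n + 2) x).congr_of_eventuallyEq h1
    refine h2.congr_deriv ?_
    have h3 : n + 2 - 1 = n + 1 := rfl
    rw [h3]; push_cast; rfl

theorem hasDerivAt_ph (u : ℝ) : HasDerivAt ph (ph' u) u := by
  have h1 : HasDerivAt (fun u : ℝ => 1 - u) (-1) u := by
    simpa using (hasDerivAt_id u).const_sub 1
  have h2 := (hasDerivAt_maxpow 0 (1 - u)).comp u h1
  have h3 : ph = (fun x : ℝ => (max x 0) ^ (0 + 2)) ∘ fun u : ℝ => 1 - u := by
    funext x; simp [ph]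
  rw [h3]
  refine h2.congr_deriv ?_
  unfold ph'
  push_cast
  ring

theorem hasDerivAt_Ph (u : ℝ) : HasDerivAt Ph (ph u) u := by
  have h1 : HasDerivAt (fun u : ℝ => 1 - u) (-1) u := by
    simpa using (hasDerivAt_id u).const_sub 1
  have h2 := ((hasDerivAt_maxpow 1 (1 - u)).comp u h1).neg.div_const 3
  have h3 : Ph = fun u => (-((fun x : ℝ => (max x 0) ^ (1 + 2)) ∘ fun u : ℝ => 1 - u)) u / 3 := by
    funext x; simp [Ph]
  rw [h3]
  refine h2.congr_deriv ?_
  unfold ph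
  push_cast
  ring

theorem contDiff_ph : ContDiff ℝ 1 ph := by
  rw [contDiff_one_iff_deriv]
  refine ⟨fun u => (hasDerivAt_ph u).differentiableAt, ?_⟩
  have : deriv ph = ph' := funext fun u => (hasDerivAt_ph u).deriv
  rw [this]; exact continuous_ph'

theorem contDiff_Ph : ContDiff ℝ 1 Ph := by
  rw [contDiff_one_iff_deriv]
  refine ⟨fun u => (hasDerivAt_Ph u).differentiableAt, ?_⟩
  have : deriv Ph = ph := funext fun u => (hasDerivAt_Ph u).deriv
  rw [this]; exact continuous_ph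

/-! ### the radial identity with an affine factor -/

variable {m k : ℕ} {U : Set (Euc k)} {V : Measure (Euc k × L k)}

/-- the test field -/
def Z (g Γ : ℝ → ℝ) (z : Euc k) (c : ℝ) (ℓ : Euc k →L[ℝ] ℝ) (x : Euc k) : Euc k :=
  (c + ℓ x) • (g (‖x - z‖ ^ 2) • (x - z))
    - (2⁻¹ * Γ (‖x - z‖ ^ 2)) • (InnerProductSpace.toDual ℝ (Euc k)).symm ℓ

theorem contDiff_Z {g Γ : ℝ → ℝ} (hg : ContDiff ℝ 1 g) (hΓ : ContDiff ℝ 1 Γ) (z : Euc k)
    (c : ℝ) (ℓ : Euc k →L[ℝ] ℝ) : ContDiff ℝ 1 (Z g Γ z c ℓ) := by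
  unfold Z
  have h1 : ContDiff ℝ 1 (fun x : Euc k => x - z) := contDiff_id.sub contDiff_const
  exact ((contDiff_const.add ℓ.contDiff).smul (contDiff_radial hg z)).sub
    ((contDiff_const.mul (hΓ.comp (h1.norm_sq ℝ))).smul contDiff_const)

theorem tr_Z {g Γ : ℝ → ℝ} (hg : ContDiff ℝ 1 g) (hΓ : ∀ t, HasDerivAt Γ (g t) t) (z : Euc k)
    (c : ℝ) (ℓ : Euc k →L[ℝ] ℝ) (x : Euc k) {P : L k} (hP : P ∈ G m k) :
    tr ((fderiv ℝ (Z g Γ z c ℓ) x) ∘L P)
      = (m * g (‖x - z‖ ^ 2) + 2 * deriv g (‖x - z‖ ^ 2) * ‖P (x - z)‖ ^ 2) * (c + ℓ x) := by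
  have hA := hasFDerivAt_radial hg z x
  have hf : HasFDerivAt (fun x : Euc k => c + ℓ x) ℓ x := ℓ.hasFDerivAt.const_add c
  have h1 := hf.smul hA
  have h0 : HasFDerivAt (fun x : Euc k => x - z) (ContinuousLinearMap.id ℝ (Euc k)) x :=
    (hasFDerivAt_id x).sub_const z
  have h2 : HasFDerivAt (fun x : Euc k => ‖x - z‖ ^ 2) (2 • innerSL ℝ (x - z)) x := by
    have := h0.norm_sq
    simpa using this
  have h3 : HasFDerivAt (fun x : Euc k => Γ (‖x - z‖ ^ 2))
      (g (‖x - z‖ ^ 2) • (2 • innerSL ℝ (x - z))) x := (hΓ _).comp_hasFDerivAt x h2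
  set e := (InnerProductSpace.toDual ℝ (Euc k)).symm ℓ with he
  have h4 := (h3.const_mul 2⁻¹).smul (hasFDerivAt_const e x)
  have h5 := h1.sub h4
  have h6 : fderiv ℝ (Z g Γ z c ℓ) x = _ := h5.fderiv
  rw [h6]
  have hℓ : ∀ v, ℓ v = ⟪e, v⟫_ℝ := fun v => by
    rw [he, InnerProductSpace.toDual_symm_apply]
  have ht := tr_radial (m := m) hg z x hP
  rw [hA.fderiv] at ht
  rw [smul_zero, zero_add, ContinuousLinearMap.sub_comp, map_sub, ContinuousLinearMap.add_comp,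
    map_add, ContinuousLinearMap.smul_comp, map_smul, ht, tr_smulRight_comp, tr_smulRight_comp]
  have h7 : ⟪x - z, P e⟫_ℝ = ⟪e, P (x - z)⟫_ℝ := by
    rw [← G_symm hP, real_inner_comm]
  simp only [map_smul, smul_eq_mul, smul_apply, innerSL_apply_apply, nsmul_eq_mul,
    Nat.cast_ofNat]
  rw [h7, hℓ (P (x - z))]
  ring

theorem tsupport_Z {g Γ : ℝ → ℝ} {z : Euc k} {ρ : ℝ} (hρ : 0 ≤ ρ)
    (hg0 : ∀ t, ρ ^ 2 ≤ t → g t = 0) (hΓ0 : ∀ t, ρ ^ 2 ≤ t → Γ t = 0)
    (c : ℝ) (ℓ : Euc k →L[ℝ] ℝ) :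
    tsupport (Z g Γ z c ℓ) ⊆ closedBall z ρ := by
  refine closure_minimal ?_ isClosed_closedBall
  intro x hx
  by_contra hcon
  apply hx
  rw [mem_closedBall, dist_eq_norm, not_le] at hcon
  have h : ρ ^ 2 ≤ ‖x - z‖ ^ 2 := by gcongr
  simp [Z, hg0 _ h, hΓ0 _ h]

/-- the radial identity with an affine factor. -/
theorem radial_aff (hV : Stat m k U V) {g Γ : ℝ → ℝ} (hg : ContDiff ℝ 1 g)
    (hΓ : ∀ t, HasDerivAt Γ (g t) t) {z : Euc k} {ρ : ℝ} (hρ : 0 ≤ ρ)
    (hU : closedBall z ρ ⊆ U) (hg0 : ∀ t, ρ ^ 2 ≤ t → g t = 0)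
    (hΓ0 : ∀ t, ρ ^ 2 ≤ t → Γ t = 0) (c : ℝ) (ℓ : Euc k →L[ℝ] ℝ) :
    ∫ p, (m * g (‖p.1 - z‖ ^ 2) + 2 * deriv g (‖p.1 - z‖ ^ 2) * ‖p.2 (p.1 - z)‖ ^ 2)
      * (c + ℓ p.1) ∂V = 0 := by
  have hts := tsupport_Z (k := k) (z := z) hρ hg0 hΓ0 c ℓ
  have hΓ1 : ContDiff ℝ 1 Γ := by
    rw [contDiff_one_iff_deriv]
    refine ⟨fun u => (hΓ u).differentiableAt, ?_⟩
    have : deriv Γ = g := funext fun u => (hΓ u).deriv
    rw [this]; exact hg.continuous
  have h := hV.stat _ (contDiff_Z hg hΓ1 z c ℓ)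
    (HasCompactSupport.of_support_subset_isCompact (isCompact_closedBall z ρ)
      (subset_closure.trans hts)) (hts.trans hU)
  rw [← h]
  refine integral_congr_ae ?_
  filter_upwards [hV.conc] with p hp
  exact (tr_Z hg hΓ z c ℓ p.1 hp).symm

end Crest.Agent.R234.Al1_640
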