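import Crest.Agent.R234.Al1_640

set_option autoImplicit false

/-!
Row 234, VF-ALLARD, part 2 (helper640): `HH V z c ℓ r = ∫ ph (|x-z|²/r²) (c + ℓ x) dV`;
`mono` : if `c + ℓ x ≥ 0` on the support, `r^(-m) HH` is nondecreasing in `r`;
`mean_value` : the mean value inequality with the sharp constant.
-/

open MeasureTheory Crest.GeometryTopology.Submanifold Filter Topology Metric Set
open scoped ENNReal InnerProductSpace
open Crest.Agent.R234.Vf_884

noncomputable section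

namespace Crest.Agent.R234.Al1_640

variable {m k : ℕ} {U : Set (Euc k)} {V : Measure (Euc k × L k)}

/-- weighted integral of an affine function -/
def HH (V : Measure (Euc k × L k)) (z : Euc k) (c : ℝ) (ℓ : Euc k →L[ℝ] ℝ) (r : ℝ) : ℝ :=
  ∫ p, ph (‖p.1 - z‖ ^ 2 / r ^ 2) * (c + ℓ p.1) ∂V

theorem one_le_div_sq {r t : ℝ} (hr : 0 < r) (h : r ^ 2 ≤ t) : 1 ≤ t / r ^ 2 := by
  rw [le_div_iff₀ (by positivity)]; linarith

theorem off_ball {z x : Euc k} {r : ℝ} (hr : 0 < r) (h : x ∉ closedBall z r) :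
    1 ≤ ‖x - z‖ ^ 2 / r ^ 2 := by
  rw [mem_closedBall, dist_eq_norm, not_le] at h
  exact one_le_div_sq hr (by gcongr)

theorem cont_aff (c : ℝ) (ℓ : Euc k →L[ℝ] ℝ) : Continuous fun p : Euc k × L k => c + ℓ p.1 :=
  continuous_const.add (ℓ.continuous.comp continuous_fst)

theorem cont_nsq (z : Euc k) : Continuous fun p : Euc k × L k => ‖p.1 - z‖ ^ 2 := by fun_prop

/-- the derivative of `HH` -/
theorem hasDerivAt_HH (hV : Stat m k U V) {z : Euc k} {R r : ℝ} (hU : ball z R ⊆ U)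
    (hr : 0 < r) (hrR : r < R) (c : ℝ) (ℓ : Euc k →L[ℝ] ℝ) :
    HasDerivAt (HH V z c ℓ)
      (∫ p, ph' (‖p.1 - z‖ ^ 2 / r ^ 2) * (-2 * ‖p.1 - z‖ ^ 2 / r ^ 3) * (c + ℓ p.1) ∂V) r := by
  obtain ⟨R', hR', hR'2⟩ := exists_between hrR
  have hK : IsCompact (closedBall z R') := isCompact_closedBall z R'
  have hKU : closedBall z R' ⊆ U := (closedBall_subset_ball hR'2).trans hU
  have hVK := hV.fin _ hK hKU
  have hcont : ∀ s : ℝ, Continuous fun p : Euc k × L k =>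
      ph (‖p.1 - z‖ ^ 2 / s ^ 2) * (c + ℓ p.1) := fun s =>
    (continuous_ph.comp ((cont_nsq z).div_const _)).mul (cont_aff c ℓ)
  have hoff : ∀ s : ℝ, 0 < s → s < R' → ∀ p : Euc k × L k, p.1 ∉ closedBall z R' →
      1 ≤ ‖p.1 - z‖ ^ 2 / s ^ 2 := by
    intro s hs hsR p hp
    exact off_ball hs fun h => hp (closedBall_subset_closedBall hsR.le h)
  obtain ⟨M, hM⟩ := hK.exists_bound_of_continuousOn (f := fun x => c + ℓ x)
    (by fun_prop : ContinuousOn (fun x => c + ℓ x) (closedBall z R'))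
  have hM0 : 0 ≤ M := (norm_nonneg _).trans (hM z (mem_closedBall_self (hr.trans hR').le))
  refine (hasDerivAt_integral_of_dominated_loc_of_deriv_le (𝕜 := ℝ) (μ := V)
    (F := fun s (p : Euc k × L k) => ph (‖p.1 - z‖ ^ 2 / s ^ 2) * (c + ℓ p.1))
    (F' := fun s (p : Euc k × L k) =>
      ph' (‖p.1 - z‖ ^ 2 / s ^ 2) * (-2 * ‖p.1 - z‖ ^ 2 / s ^ 3) * (c + ℓ p.1))
    (bound := indicator (closedBall z R' ×ˢ (univ : Set (L k))) fun _ => (8 / r) * M)
    (s := Ioo (r / 2) R') (Ioo_mem_nhds (by linarith) hR') ?_ ?_ ?_ ?_ ?_ ?_).2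
  · exact Eventually.of_forall fun s => (hcont s).aestronglyMeasurable
  · exact integrable_of_cont hV.conc hK hVK (hcont r) fun p hp => by
      rw [ph_zero (hoff r hr hR' p hp), zero_mul]
  · refine Continuous.aestronglyMeasurable ?_
    exact ((continuous_ph'.comp ((cont_nsq z).div_const _)).mul
      ((continuous_const.mul (cont_nsq z)).div_const _)).mul (cont_aff c ℓ)
  · refine Eventually.of_forall fun p s hs => ?_
    have hs0 : 0 < s := by linarith [hs.1]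
    by_cases hp : p.1 ∈ closedBall z R'
    · rw [indicator_of_mem (by exact ⟨hp, trivial⟩)]
      rw [norm_mul]
      refine mul_le_mul ?_ (hM _ hp) (norm_nonneg _) (by positivity)
      by_cases h1 : 1 ≤ ‖p.1 - z‖ ^ 2 / s ^ 2
      · rw [ph'_zero h1]; simp; positivity
      · rw [not_le, div_lt_one (by positivity)] at h1
        have h2 : |ph' (‖p.1 - z‖ ^ 2 / s ^ 2)| ≤ 2 := abs_ph'_le (by positivity)
        rw [norm_mul, Real.norm_eq_abs, Real.norm_eq_abs]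
        have h3 : |(-2 * ‖p.1 - z‖ ^ 2 / s ^ 3)| ≤ 4 / r := by
          rw [abs_div, abs_mul, abs_neg, abs_of_pos (by norm_num : (0:ℝ) < 2),
            abs_of_nonneg (sq_nonneg ‖p.1 - z‖), abs_of_pos (by positivity : (0:ℝ) < s ^ 3),
            div_le_div_iff₀ (by positivity) hr]
          have h4 : r ≤ 2 * s := by linarith [hs.1]
          calc 2 * ‖p.1 - z‖ ^ 2 * r ≤ 2 * s ^ 2 * (2 * s) := by gcongr
            _ = 4 * s ^ 3 := by ring
        calc |ph' (‖p.1 - z‖ ^ 2 / s ^ 2)| * |(-2 * ‖p.1 - z‖ ^ 2 / s ^ 3)|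
            ≤ 2 * (4 / r) := by gcongr
          _ = 8 / r := by ring
    · rw [ph'_zero (hoff s hs0 hs.2 p hp)]
      simp only [zero_mul, norm_zero]
      exact indicator_nonneg (fun _ _ => by positivity) _
  · rw [integrable_indicator_iff (hK.measurableSet.prod MeasurableSet.univ)]
    exact integrableOn_const hVK.ne
  · refine Eventually.of_forall fun p s hs => ?_
    have hs0 : 0 < s := by linarith [hs.1]
    have h1 : HasDerivAt (fun s : ℝ => ‖p.1 - z‖ ^ 2 / s ^ 2) (-2 * ‖p.1 - z‖ ^ 2 / s ^ 3) s := by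
      have h2 := (hasDerivAt_const s (‖p.1 - z‖ ^ 2)).div (hasDerivAt_pow 2 s)
        (pow_ne_zero 2 hs0.ne')
      refine h2.congr_deriv ?_
      field_simp
      ring
    exact (((hasDerivAt_ph _).comp s h1)).mul_const _

/-- the differential inequality -/
theorem key_ineq (hV : Stat m k U V) {z : Euc k} {r : ℝ} (hU : closedBall z r ⊆ U)
    (hr : 0 < r) (c : ℝ) (ℓ : Euc k →L[ℝ] ℝ)
    (hf : ∀ᵐ p ∂V, p.1 ∈ ball z r → 0 ≤ c + ℓ p.1) :
    m * HH V z c ℓ r ≤ r *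
      (∫ p, ph' (‖p.1 - z‖ ^ 2 / r ^ 2) * (-2 * ‖p.1 - z‖ ^ 2 / r ^ 3) * (c + ℓ p.1) ∂V) := by
  have hK : IsCompact (closedBall z r) := isCompact_closedBall z r
  have hVK := hV.fin _ hK hU
  set g : ℝ → ℝ := fun t => ph (t / r ^ 2) with hgdef
  set Γ : ℝ → ℝ := fun t => r ^ 2 * Ph (t / r ^ 2) with hΓdef
  have hr2 : r ^ 2 ≠ 0 := by positivity
  have hdg : ∀ t, HasDerivAt g (ph' (t / r ^ 2) / r ^ 2) t := by
    intro t
    have := (hasDerivAt_ph (t / r ^ 2)).comp t ((hasDerivAt_id t).div_const (r ^ 2))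
    refine this.congr_deriv ?_
    ring
  have hdg' : ∀ t, deriv g t = ph' (t / r ^ 2) / r ^ 2 := fun t => (hdg t).deriv
  have hdΓ : ∀ t, HasDerivAt Γ (g t) t := by
    intro t
    have := ((hasDerivAt_Ph (t / r ^ 2)).comp t ((hasDerivAt_id t).div_const (r ^ 2))).const_mul
      (r ^ 2)
    refine this.congr_deriv ?_
    rw [hgdef]
    field_simp
  have hg : ContDiff ℝ 1 g := contDiff_ph.comp (contDiff_id.div_const _)
  have hid := radial_aff hV hg hdΓ hr.le hU (fun t ht => ph_zero (one_le_div_sq hr ht))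
    (fun t ht => by rw [hΓdef]; simp only; rw [Ph_zero (one_le_div_sq hr ht), mul_zero]) c ℓ
  -- integrability of the three integrands
  have ia : Integrable (fun p : Euc k × L k =>
      (m : ℝ) * (ph (‖p.1 - z‖ ^ 2 / r ^ 2) * (c + ℓ p.1))) V := by
    refine integrable_of_cont hV.conc hK hVK ?_ fun p hp => by
      rw [ph_zero (off_ball hr hp), zero_mul, mul_zero]
    exact continuous_const.mul
      ((continuous_ph.comp ((cont_nsq z).div_const _)).mul (cont_aff c ℓ))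
  have ib : Integrable (fun p : Euc k × L k =>
      r * (ph' (‖p.1 - z‖ ^ 2 / r ^ 2) * (-2 * ‖p.1 - z‖ ^ 2 / r ^ 3) * (c + ℓ p.1))) V := by
    refine integrable_of_cont hV.conc hK hVK ?_ fun p hp => by
      rw [ph'_zero (off_ball hr hp)]; ring
    exact continuous_const.mul (((continuous_ph'.comp ((cont_nsq z).div_const _)).mul
      ((continuous_const.mul (cont_nsq z)).div_const _)).mul (cont_aff c ℓ))
  have ic : Integrable (fun p : Euc k × L k =>
      (m * g (‖p.1 - z‖ ^ 2) + 2 * deriv g (‖p.1 - z‖ ^ 2) * ‖p.2 (p.1 - z)‖ ^ 2)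
      * (c + ℓ p.1)) V := by
    have hcP : Continuous fun p : Euc k × L k => ‖p.2 (p.1 - z)‖ ^ 2 := by
      have : Continuous fun p : Euc k × L k => p.2 (p.1 - z) :=
        continuous_snd.clm_apply (continuous_fst.sub continuous_const)
      exact (this.norm).pow 2
    refine integrable_of_cont hV.conc hK hVK ?_ fun p hp => by
      have h1 := off_ball hr hp
      rw [hdg', ph'_zero h1, hgdef]; simp only; rw [ph_zero h1]; ring
    refine Continuous.mul ?_ (cont_aff c ℓ)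
    simp only [hdg']
    exact (continuous_const.mul (continuous_ph.comp ((cont_nsq z).div_const _))).add
      ((continuous_const.mul ((continuous_ph'.comp ((cont_nsq z).div_const _)).div_const _)).mul
        hcP)
  unfold HH
  rw [← integral_const_mul, ← integral_const_mul]
  have h1 : ∫ p, (m : ℝ) * (ph (‖p.1 - z‖ ^ 2 / r ^ 2) * (c + ℓ p.1)) ∂V
      = ∫ p, ((m : ℝ) * (ph (‖p.1 - z‖ ^ 2 / r ^ 2) * (c + ℓ p.1))
        - (m * g (‖p.1 - z‖ ^ 2) + 2 * deriv g (‖p.1 - z‖ ^ 2) * ‖p.2 (p.1 - z)‖ ^ 2)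
      * (c + ℓ p.1)) ∂V := by
    rw [integral_sub ia ic, hid, sub_zero]
  rw [h1]
  refine integral_mono_ae (ia.sub ic) ib ?_
  filter_upwards [hf, hV.conc] with p hp hp2
  by_cases h2 : p.1 ∈ ball z r
  · have h3 := hp h2
    have h4 : ‖p.2 (p.1 - z)‖ ^ 2 ≤ ‖p.1 - z‖ ^ 2 := by
      have := G_norm_apply_le hp2 (p.1 - z)
      gcongr
    have h5 := ph'_nonpos (‖p.1 - z‖ ^ 2 / r ^ 2)
    rw [hdg', hgdef]
    simp only
    have h6 : (m : ℝ) * (ph (‖p.1 - z‖ ^ 2 / r ^ 2) * (c + ℓ p.1))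
        - (m * ph (‖p.1 - z‖ ^ 2 / r ^ 2) + 2 * (ph' (‖p.1 - z‖ ^ 2 / r ^ 2) / r ^ 2) *
          ‖p.2 (p.1 - z)‖ ^ 2) * (c + ℓ p.1)
        = 2 / r ^ 2 * ((-ph' (‖p.1 - z‖ ^ 2 / r ^ 2)) * (c + ℓ p.1)) * ‖p.2 (p.1 - z)‖ ^ 2 := by
      ring
    have h7 : r * (ph' (‖p.1 - z‖ ^ 2 / r ^ 2) * (-2 * ‖p.1 - z‖ ^ 2 / r ^ 3) * (c + ℓ p.1))
        = 2 / r ^ 2 * ((-ph' (‖p.1 - z‖ ^ 2 / r ^ 2)) * (c + ℓ p.1)) * ‖p.1 - z‖ ^ 2 := by
      field_simp
    rw [h6, h7]
    have h8 : 0 ≤ 2 / r ^ 2 * ((-ph' (‖p.1 - z‖ ^ 2 / r ^ 2)) * (c + ℓ p.1)) :=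
      mul_nonneg (by positivity) (mul_nonneg (by linarith) h3)
    exact mul_le_mul_of_nonneg_left h4 h8
  · have h3 : 1 ≤ ‖p.1 - z‖ ^ 2 / r ^ 2 := by
      rw [mem_ball, dist_eq_norm, not_lt] at h2
      exact one_le_div_sq hr (by gcongr)
    rw [hdg', ph'_zero h3, hgdef]
    simp only
    rw [ph_zero h3]
    simp

/-- **affine weighted monotonicity** -/
theorem mono (hV : Stat m k U V) {z : Euc k} {R : ℝ} (hU : ball z R ⊆ U)
    (c : ℝ) (ℓ : Euc k →L[ℝ] ℝ)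
    (hf : ∀ᵐ p ∂V, p.1 ∈ ball z R → 0 ≤ c + ℓ p.1) :
    MonotoneOn (fun r => HH V z c ℓ r / r ^ m) (Ioo 0 R) := by
  have hd : ∀ r ∈ Ioo 0 R, HasDerivAt (fun r => HH V z c ℓ r / r ^ m)
      ((r * (∫ p, ph' (‖p.1 - z‖ ^ 2 / r ^ 2) * (-2 * ‖p.1 - z‖ ^ 2 / r ^ 3) * (c + ℓ p.1) ∂V)
        - m * HH V z c ℓ r) / r ^ (m + 1)) r := by
    intro r hr
    have h1 := (hasDerivAt_HH hV hU hr.1 hr.2 c ℓ).div (hasDerivAt_pow m r)
      (pow_ne_zero m hr.1.ne')
    refine h1.congr_deriv ?_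
    have hr0 : r ≠ 0 := hr.1.ne'
    generalize (∫ p, ph' (‖p.1 - z‖ ^ 2 / r ^ 2) * (-2 * ‖p.1 - z‖ ^ 2 / r ^ 3)
      * (c + ℓ p.1) ∂V) = I
    generalize HH V z c ℓ r = H
    clear h1 hf hV
    rcases m with _ | n
    · simp; field_simp
    · rw [Nat.add_sub_cancel]
      field_simp
      ring
  refine monotoneOn_of_deriv_nonneg (convex_Ioo _ _)
    (fun r hr => (hd r hr).continuousAt.continuousWithinAt)
    (fun r hr => (hd r (interior_subset hr)).differentiableAt.differentiableWithinAt) ?_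
  intro r hr
  have hr' := interior_subset hr
  rw [(hd r hr').deriv]
  refine div_nonneg ?_ (pow_nonneg hr'.1.le _)
  rw [sub_nonneg]
  refine key_ineq hV ((closedBall_subset_ball hr'.2).trans hU) hr'.1 c ℓ ?_
  filter_upwards [hf] with p hp h
  exact hp (ball_subset_ball hr'.2.le h)

end Crest.Agent.R234.Al1_640
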