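import Crest.Agent.R234.Al2_640

set_option autoImplicit false

/-!
Row 234, VF-ALLARD, part 3 (helper640): the mean value inequality with the sharp constant,
scalar (`mean_value`) and vector valued (`mv_vec`), and one step of the decay (`step`).
`II m V z r = r^(-m) ∫ ph (|x-z|²/r²) dV`.
-/

open MeasureTheory Crest.GeometryTopology.Submanifold Filter Topology Metric Set
open scoped ENNReal InnerProductSpace
open Crest.Agent.R234.Vf_884

noncomputable section

namespace Crest.Agent.R234.Al1_640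

variable {m k : ℕ} {U : Set (Euc k)} {V : Measure (Euc k × L k)}

/-- the weighted mass ratio -/
def II (m : ℕ) (V : Measure (Euc k × L k)) (z : Euc k) (r : ℝ) : ℝ :=
  (∫ p, ph (‖p.1 - z‖ ^ 2 / r ^ 2) ∂V) / r ^ m

theorem HH_one (z : Euc k) (r : ℝ) :
    HH V z 1 0 r = ∫ p, ph (‖p.1 - z‖ ^ 2 / r ^ 2) ∂V := by
  unfold HH; simp

theorem II_mono (hV : Stat m k U V) {z : Euc k} {R : ℝ} (hU : ball z R ⊆ U) :
    MonotoneOn (II m V z) (Ioo 0 R) := by
  have h := mono hV hU 1 0 (Eventually.of_forall fun p _ => by simp)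
  intro a ha b hb hab
  have := h ha hb hab
  simpa only [HH_one, II] using this

theorem integrable_vec {W : Type*} [NormedAddCommGroup W] [NormedSpace ℝ W]
    (hV : Stat m k U V) {K : Set (Euc k)} (hK : IsCompact K) (hKU : K ⊆ U)
    {φ : Euc k → W} (hφ : Continuous φ) (h0 : ∀ x, x ∉ K → φ x = 0) :
    Integrable (fun p : Euc k × L k => φ p.1) V := by
  obtain ⟨C, hC⟩ := hK.exists_bound_of_continuousOn hφ.continuousOn
  have h1 : IntegrableOn (fun p : Euc k × L k => φ p.1) (K ×ˢ Set.univ) V := by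
    refine IntegrableOn.of_bound (hV.fin K hK hKU)
      (hφ.comp continuous_fst).aestronglyMeasurable C ?_
    filter_upwards [ae_restrict_mem (hK.measurableSet.prod MeasurableSet.univ)] with p hp2
    exact hC p.1 hp2.1
  refine (integrableOn_iff_integrable_of_support_subset ?_).1 h1
  intro p hp
  by_contra hcon
  exact hp (h0 p.1 fun h => hcon ⟨h, trivial⟩)

theorem cont_phx (z : Euc k) (r : ℝ) : Continuous fun x : Euc k => ph (‖x - z‖ ^ 2 / r ^ 2) :=
  continuous_ph.comp (by fun_prop)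

theorem integrable_ph (hV : Stat m k U V) {z : Euc k} {r : ℝ} (hr : 0 < r)
    (hU : closedBall z r ⊆ U) :
    Integrable (fun p : Euc k × L k => ph (‖p.1 - z‖ ^ 2 / r ^ 2)) V :=
  integrable_vec hV (isCompact_closedBall z r) hU (cont_phx z r)
    (fun _ hx => ph_zero (off_ball hr hx))

theorem integrable_ph_smul {W : Type*} [NormedAddCommGroup W] [NormedSpace ℝ W]
    (hV : Stat m k U V) {z : Euc k} {r : ℝ} (hr : 0 < r)
    (hU : closedBall z r ⊆ U) {φ : Euc k → W} (hφ : Continuous φ) :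
    Integrable (fun p : Euc k × L k => ph (‖p.1 - z‖ ^ 2 / r ^ 2) • φ p.1) V :=
  integrable_vec hV (isCompact_closedBall z r) hU
    (φ := fun x => ph (‖x - z‖ ^ 2 / r ^ 2) • φ x) ((cont_phx z r).smul hφ)
    (fun _ hx => by rw [ph_zero (off_ball hr hx), zero_smul])

/-- **mean value inequality with the sharp constant** -/
theorem mean_value (hV : Stat m k U V) {z : Euc k} {R : ℝ} (hU : ball z R ⊆ U)
    (c : ℝ) (ℓ : Euc k →L[ℝ] ℝ)
    (hf : ∀ᵐ p ∂V, p.1 ∈ ball z R → 0 ≤ c + ℓ p.1) (hz : 0 ≤ c + ℓ z)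
    {θ : ℝ} (hθ : ∀ s ∈ Ioo 0 R, θ ≤ II m V z s) {r : ℝ} (hr : r ∈ Ioo 0 R) :
    θ * (c + ℓ z) ≤ HH V z c ℓ r / r ^ m := by
  have key : ∀ s ∈ Ioc 0 r, θ * (c + ℓ z) - ‖ℓ‖ * II m V z r * s ≤ HH V z c ℓ r / r ^ m := by
    intro s hs
    have hsR : s ∈ Ioo 0 R := ⟨hs.1, hs.2.trans_lt hr.2⟩
    have hsU : closedBall z s ⊆ U := (closedBall_subset_ball hsR.2).trans hU
    have h1 : HH V z c ℓ s / s ^ m ≤ HH V z c ℓ r / r ^ m := mono hV hU c ℓ hf hsR hr hs.2
    refine le_trans ?_ h1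
    have h2 : (c + ℓ z - ‖ℓ‖ * s) * ∫ p, ph (‖p.1 - z‖ ^ 2 / s ^ 2) ∂V ≤ HH V z c ℓ s := by
      rw [← integral_const_mul]
      unfold HH
      have ia := (integrable_ph hV hs.1 hsU).const_mul (c + ℓ z - ‖ℓ‖ * s)
      have ib := integrable_ph_smul hV hs.1 hsU (φ := fun x => c + ℓ x) (by fun_prop)
      refine integral_mono ia ib ?_
      intro p
      simp only
      by_cases hp : p.1 ∈ closedBall z s
      · rw [mul_comm]
        refine mul_le_mul_of_nonneg_left ?_ (ph_nonneg _)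
        have h3 : |ℓ (p.1 - z)| ≤ ‖ℓ‖ * ‖p.1 - z‖ := by
          have := ℓ.le_opNorm (p.1 - z)
          rwa [Real.norm_eq_abs] at this
        rw [mem_closedBall, dist_eq_norm] at hp
        have h4 : ‖ℓ‖ * ‖p.1 - z‖ ≤ ‖ℓ‖ * s := by gcongr
        rw [map_sub] at h3
        have := neg_abs_le (ℓ p.1 - ℓ z)
        linarith
      · rw [ph_zero (off_ball hs.1 hp)]; simp
    have h3 : (c + ℓ z - ‖ℓ‖ * s) * II m V z s ≤ HH V z c ℓ s / s ^ m := by
      unfold II
      rw [← mul_div_assoc]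
      exact div_le_div_of_nonneg_right h2 (pow_nonneg hs.1.le _)
    refine le_trans ?_ h3
    have h4 : II m V z s ≤ II m V z r := II_mono hV hU hsR hr hs.2
    have h5 : θ ≤ II m V z s := hθ s hsR
    have h6 : ‖ℓ‖ * s * II m V z s ≤ ‖ℓ‖ * s * II m V z r :=
      mul_le_mul_of_nonneg_left h4 (mul_nonneg (norm_nonneg _) hs.1.le)
    nlinarith [mul_le_mul_of_nonneg_left h5 hz]
  have ht : Tendsto (fun s : ℝ => θ * (c + ℓ z) - ‖ℓ‖ * II m V z r * s) (𝓝[>] 0)
      (𝓝 (θ * (c + ℓ z) - ‖ℓ‖ * II m V z r * 0)) := by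
    have : Continuous (fun s : ℝ => θ * (c + ℓ z) - ‖ℓ‖ * II m V z r * s) := by fun_prop
    exact (this.tendsto 0).mono_left nhdsWithin_le_nhds
  rw [mul_zero, sub_zero] at ht
  refine le_of_tendsto ht ?_
  filter_upwards [Ioc_mem_nhdsGT hr.1] with s hs
  exact key s hs

variable {F : Type*} [NormedAddCommGroup F] [InnerProductSpace ℝ F] [CompleteSpace F]

/-- the weighted integral of an affine vector valued function -/
def JJ (V : Measure (Euc k × L k)) (b : F) (G : Euc k →L[ℝ] F) (z : Euc k) (r : ℝ) : F :=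
  ∫ p, ph (‖p.1 - z‖ ^ 2 / r ^ 2) • (b + G p.1) ∂V

/-- vector valued mean value inequality -/
theorem mv_vec (hV : Stat m k U V) {z : Euc k} {R : ℝ} (hU : ball z R ⊆ U)
    (b : F) (G : Euc k →L[ℝ] F) {ε : ℝ}
    (hf : ∀ᵐ p ∂V, p.1 ∈ ball z R → ‖b + G p.1‖ ≤ ε) (hz : ‖b + G z‖ ≤ ε)
    {θ : ℝ} (hθ : ∀ s ∈ Ioo 0 R, θ ≤ II m V z s) {r : ℝ} (hr : r ∈ Ioo 0 R) :
    ‖(r ^ m)⁻¹ • JJ V b G z r - θ • (b + G z)‖ ≤ ε * (II m V z r - θ) := by
  have hrU : closedBall z r ⊆ U := (closedBall_subset_ball hr.2).trans hU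
  have hε : 0 ≤ ε := (norm_nonneg _).trans hz
  have key : ∀ e : F, ‖e‖ ≤ 1 →
      ⟪e, (r ^ m)⁻¹ • JJ V b G z r - θ • (b + G z)⟫_ℝ ≤ ε * (II m V z r - θ) := by
    intro e he
    have hcs : ∀ x : F, ‖x‖ ≤ ε → ⟪e, x⟫_ℝ ≤ ε := by
      intro x hx
      calc ⟪e, x⟫_ℝ ≤ ‖e‖ * ‖x‖ := real_inner_le_norm e x
        _ ≤ 1 * ε := by gcongr
        _ = ε := one_mul ε
    set ℓ : Euc k →L[ℝ] ℝ := -((innerSL ℝ e).comp G) with hℓ
    have hℓa : ∀ x, (ε - ⟪e, b⟫_ℝ) + ℓ x = ε - ⟪e, b + G x⟫_ℝ := by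
      intro x
      rw [inner_add_right, hℓ]
      simp only [neg_apply, ContinuousLinearMap.comp_apply, innerSL_apply_apply]
      ring
    have h1 := mean_value hV hU (ε - ⟪e, b⟫_ℝ) ℓ
      (by
        filter_upwards [hf] with p hp h
        rw [hℓa]
        linarith [hcs _ (hp h)])
      (by rw [hℓa]; linarith [hcs _ hz]) hθ hr
    rw [hℓa] at h1
    have h2 : HH V z (ε - ⟪e, b⟫_ℝ) ℓ r
        = ε * (∫ p, ph (‖p.1 - z‖ ^ 2 / r ^ 2) ∂V) - ⟪e, JJ V b G z r⟫_ℝ := by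
      unfold HH JJ
      rw [← integral_inner (integrable_ph_smul hV hr.1 hrU (φ := fun x => b + G x)
        (by fun_prop)), ← integral_const_mul, ← integral_sub
        ((integrable_ph hV hr.1 hrU).const_mul ε)]
      · refine integral_congr_ae (Eventually.of_forall fun p => ?_)
        simp only
        rw [hℓa, inner_smul_right]
        ring
      · exact Integrable.const_inner (𝕜 := ℝ) e (integrable_ph_smul hV hr.1 hrU
          (φ := fun x => b + G x) (by fun_prop))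
    rw [h2] at h1
    rw [inner_sub_right, inner_smul_right, inner_smul_right]
    have h3 : (ε * (∫ p, ph (‖p.1 - z‖ ^ 2 / r ^ 2) ∂V) - ⟪e, JJ V b G z r⟫_ℝ) / r ^ m
        = ε * II m V z r - (r ^ m)⁻¹ * ⟪e, JJ V b G z r⟫_ℝ := by
      unfold II; ring
    rw [h3] at h1
    nlinarith
  set w := (r ^ m)⁻¹ • JJ V b G z r - θ • (b + G z) with hw
  rcases eq_or_ne w 0 with h0 | h0
  · rw [h0, norm_zero]
    exact mul_nonneg hε (by linarith [hθ r hr])
  · have hn : ‖w‖ ≠ 0 := norm_ne_zero_iff.2 h0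
    have h1 := key (‖w‖⁻¹ • w) (by
      rw [norm_smul, norm_inv, norm_norm, inv_mul_cancel₀ hn])
    rw [inner_smul_left, real_inner_self_eq_norm_sq] at h1
    have h2 : (starRingEnd ℝ) ‖w‖⁻¹ * ‖w‖ ^ 2 = ‖w‖ := by
      simp only [conj_trivial]
      field_simp
    rwa [h2] at h1

end Crest.Agent.R234.Al1_640
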