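import Mathlib

/-!
R234 (helper182), VF-ALLARD part 4: NO HOLES and the graph function.

`V` is a measure on `E × (E →L[ℝ] E)` (a general varifold; `z.1` the point, `z.2` the plane).
-/

open MeasureTheory Metric Set Filter Topology
open scoped ContDiff RealInnerProductSpace

namespace Crest.Agent.R234.Al4_182

noncomputable section

set_option linter.unusedSectionVars false

variable {E : Type*} [NormedAddCommGroup E] [InnerProductSpace ℝ E] [FiniteDimensional ℝ E]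
  [MeasurableSpace E] [BorelSpace E]

/-- the trace of `D(f • e) ∘ P` is `Df (P e)` -/
lemma trace_smul_field {f : E → ℝ} {e : E} {x : E} (hf : DifferentiableAt ℝ f x)
    (P : E →L[ℝ] E) :
    LinearMap.trace ℝ E ((fderiv ℝ (fun y => f y • e) x).comp P).toLinearMap
      = fderiv ℝ f x (P e) := by
  have h1 : fderiv ℝ (fun y => f y • e) x = (fderiv ℝ f x).smulRight e := by
    rw [fderiv_smul_const hf]
  rw [h1]
  have h2 : (((fderiv ℝ f x).smulRight e).comp P).toLinearMap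
      = LinearMap.smulRight ((fderiv ℝ f x).comp P).toLinearMap e := by
    ext v
    simp
  rw [h2, LinearMap.trace_smulRight]
  simp

/-- the kernel `(1 - s)_+ ^ p` -/
def ph (p : ℕ) (s : ℝ) : ℝ := (max (1 - s) 0) ^ p

lemma ph_nonneg (p : ℕ) (s : ℝ) : 0 ≤ ph p s := pow_nonneg (le_max_right _ _) _

lemma ph_le_one (p : ℕ) {s : ℝ} (hs : 0 ≤ s) : ph p s ≤ 1 := by
  refine pow_le_one₀ (le_max_right _ _) ?_
  exact max_le (by linarith) zero_le_one

lemma ph_zero_of_ge {p : ℕ} (hp : p ≠ 0) {s : ℝ} (hs : 1 ≤ s) : ph p s = 0 := by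
  have : max (1 - s) 0 = 0 := max_eq_right (by linarith)
  simp [ph, this, hp]

lemma hasDerivAt_ph2 (s : ℝ) : HasDerivAt (ph 2) (-2 * ph 1 s) s := by
  unfold ph
  rcases lt_trichotomy s 1 with h | h | h
  · have hev : (fun t : ℝ => (max (1 - t) 0) ^ 2) =ᶠ[𝓝 s] fun t => (1 - t) ^ 2 := by
      filter_upwards [Iio_mem_nhds h] with t ht
      rw [max_eq_left (by have : t < 1 := ht; linarith)]
    have h1 : HasDerivAt (fun t : ℝ => (1 - t) ^ 2) (-2 * (1 - s)) s := by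
      have := ((hasDerivAt_id s).const_sub 1).pow 2
      refine this.congr_deriv ?_
      simp only [id_eq, Nat.cast_ofNat]
      ring
    rw [max_eq_left (by linarith), pow_one]
    exact h1.congr_of_eventuallyEq hev
  · subst h
    simp only [sub_self, max_self, pow_one, mul_zero]
    rw [hasDerivAt_iff_isLittleO]
    have : (fun x' : ℝ => max (1 - x') 0 ^ 2 - max (1 - (1:ℝ)) 0 ^ 2 - (x' - 1) • (0:ℝ))
        = fun x' => max (1 - x') 0 ^ 2 := by
      ext; simp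
    rw [this]
    have h2 : (fun x' : ℝ => max (1 - x') 0 ^ 2) =O[𝓝 1] fun x' => (x' - 1) ^ 2 := by
      refine Asymptotics.IsBigO.of_bound 1 (Eventually.of_forall fun x' => ?_)
      rw [one_mul, Real.norm_eq_abs, Real.norm_eq_abs, abs_of_nonneg (sq_nonneg _),
        abs_of_nonneg (sq_nonneg _)]
      rcases le_total (1 - x') 0 with h | h
      · rw [max_eq_right h]; nlinarith [sq_nonneg (x' - 1)]
      · rw [max_eq_left h]; nlinarith
    have h3 : (fun x' : ℝ => (x' - 1) ^ 2) =o[𝓝 1] fun x' => x' - 1 := by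
      have h4 : Tendsto (fun x' : ℝ => x' - 1) (𝓝 1) (𝓝 0) := by
        have : Tendsto (fun x' : ℝ => x' - 1) (𝓝 1) (𝓝 (1 - 1)) :=
          tendsto_id.sub tendsto_const_nhds
        simpa using this
      have h5 := (Asymptotics.isLittleO_pow_id (𝕜 := ℝ) (n := 2) (by norm_num)).comp_tendsto h4
      exact h5
    exact h2.trans_isLittleO h3
  · have hev : (fun t : ℝ => (max (1 - t) 0) ^ 2) =ᶠ[𝓝 s] fun _ => (0:ℝ) := by
      filter_upwards [Ioi_mem_nhds h] with t ht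
      rw [max_eq_right (by have : 1 < t := ht; linarith)]; simp
    rw [max_eq_right (by linarith)]
    have := (hasDerivAt_const s (0:ℝ)).congr_of_eventuallyEq hev
    simpa using this

lemma continuous_ph (p : ℕ) : Continuous (ph p) := by
  unfold ph
  exact ((continuous_const.sub continuous_id).max continuous_const).pow p

lemma contDiff_ph2 : ContDiff ℝ 1 (ph 2) := by
  rw [contDiff_one_iff_deriv]
  refine ⟨fun s => (hasDerivAt_ph2 s).differentiableAt, ?_⟩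
  have : deriv (ph 2) = fun s => -2 * ph 1 s := funext fun s => (hasDerivAt_ph2 s).deriv
  rw [this]
  exact continuous_const.mul (continuous_ph 1)

/-- the radial cut-off at `X₀` of radius `r` -/
def ker (p : ℕ) (X₀ : E) (r : ℝ) (x : E) : ℝ := ph p (‖x - X₀‖ ^ 2 / r ^ 2)

lemma ker_nonneg (p : ℕ) (X₀ : E) (r : ℝ) (x : E) : 0 ≤ ker p X₀ r x := ph_nonneg _ _

lemma ker_le_one (p : ℕ) (X₀ : E) (r : ℝ) (x : E) : ker p X₀ r x ≤ 1 :=
  ph_le_one _ (by positivity)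

lemma ker_zero {p : ℕ} (hp : p ≠ 0) {X₀ : E} {r : ℝ} (hr : 0 < r) {x : E} (hx : r ≤ ‖x - X₀‖) :
    ker p X₀ r x = 0 := by
  refine ph_zero_of_ge hp ?_
  rw [le_div_iff₀ (by positivity), one_mul]
  exact pow_le_pow_left₀ hr.le hx 2

lemma continuous_ker (p : ℕ) (X₀ : E) (r : ℝ) : Continuous (ker p X₀ r) := by
  unfold ker
  exact (continuous_ph p).comp (((continuous_id.sub continuous_const).norm.pow 2).div_const _)

lemma hasFDerivAt_ker2 (X₀ : E) (r : ℝ) (x : E) :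
    HasFDerivAt (ker 2 X₀ r) ((-4 * ker 1 X₀ r x / r ^ 2) • innerSL ℝ (x - X₀)) x := by
  have h1 : HasFDerivAt (fun y : E => ‖y - X₀‖ ^ 2) (2 • innerSL ℝ (x - X₀)) x := by
    have := (hasFDerivAt_id (𝕜 := ℝ) x).sub_const X₀
    have h2 := this.norm_sq
    simpa using h2
  have h3 : HasFDerivAt (fun y : E => ‖y - X₀‖ ^ 2 / r ^ 2)
      ((r ^ 2)⁻¹ • (2 • innerSL ℝ (x - X₀))) x := by
    have := h1.const_smul ((r ^ 2)⁻¹)
    refine this.congr_of_eventuallyEq (Eventually.of_forall fun y => ?_)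
    simp [div_eq_inv_mul]
  have h4 := (hasDerivAt_ph2 (‖x - X₀‖ ^ 2 / r ^ 2)).comp_hasFDerivAt x h3
  refine HasFDerivAt.congr_fderiv h4 ?_
  ext v
  simp [ker]
  ring

lemma contDiff_ker2 (X₀ : E) (r : ℝ) : ContDiff ℝ 1 (ker 2 X₀ r) := by
  unfold ker
  refine contDiff_ph2.comp ?_
  exact (((contDiff_id.sub contDiff_const).norm_sq ℝ).div_const _)

/-- the test function `ker · ⟨x - X₀, e⟩` -/
def tf (X₀ : E) (r : ℝ) (e : E) (x : E) : ℝ := ker 2 X₀ r x * inner ℝ (x - X₀) e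

lemma hasFDerivAt_tf (X₀ : E) (r : ℝ) (e : E) (x : E) :
    HasFDerivAt (tf X₀ r e)
      (ker 2 X₀ r x • innerSL ℝ e +
        (inner ℝ (x - X₀) e * (-4 * ker 1 X₀ r x / r ^ 2)) • innerSL ℝ (x - X₀)) x := by
  have h1 := hasFDerivAt_ker2 X₀ r x
  have h2 : HasFDerivAt (fun y : E => inner ℝ (y - X₀) e) (innerSL ℝ e) x := by
    have h3 : HasFDerivAt (fun y : E => innerSL ℝ e (y - X₀)) (innerSL ℝ e) x := by
      have h4 := (hasFDerivAt_id (𝕜 := ℝ) x).sub_const X₀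
      exact (((innerSL ℝ e).hasFDerivAt (x := x - X₀)).comp x h4).congr_fderiv
        (by ext v; simp)
    refine h3.congr_of_eventuallyEq (Eventually.of_forall fun y => ?_)
    simp [real_inner_comm]
  have h5 := h1.mul h2
  refine HasFDerivAt.congr_fderiv h5 ?_
  ext v
  simp only [add_apply, smul_apply, innerSL_apply_apply,
    smul_eq_mul]
  ring

lemma contDiff_tf (X₀ : E) (r : ℝ) (e : E) : ContDiff ℝ 1 (tf X₀ r e) := by
  unfold tf
  exact (contDiff_ker2 X₀ r).mul ((contDiff_id.sub contDiff_const).inner ℝ contDiff_const)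

lemma tf_trace (X₀ : E) (r : ℝ) (e : E) (x : E) (P : E →L[ℝ] E) :
    LinearMap.trace ℝ E ((fderiv ℝ (fun y => tf X₀ r e y • e) x).comp P).toLinearMap
      = ker 2 X₀ r x * inner ℝ e (P e)
        - 4 / r ^ 2 * (ker 1 X₀ r x * inner ℝ (x - X₀) e * inner ℝ (x - X₀) (P e)) := by
  have h := hasFDerivAt_tf X₀ r e x
  rw [trace_smul_field h.differentiableAt, h.fderiv]
  simp only [add_apply, smul_apply, innerSL_apply_apply,
    smul_eq_mul]
  ring

/-- integrability of bounded measurable functions living over a ball of finite mass -/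
lemma integrable_of_ball {V : Measure (E × (E →L[ℝ] E))} {X₀ : E} {R : ℝ}
    (hfin : V (closedBall X₀ R ×ˢ univ) < ⊤) {g : E × (E →L[ℝ] E) → ℝ}
    (hg : AEStronglyMeasurable g V) {C : ℝ} (hb : ∀ᵐ z ∂V, ‖g z‖ ≤ C)
    (hs : ∀ z : E × (E →L[ℝ] E), z.1 ∉ closedBall X₀ R → g z = 0) : Integrable g V := by
  have hms : MeasurableSet (closedBall X₀ R ×ˢ (univ : Set (E →L[ℝ] E))) :=
    isClosed_closedBall.measurableSet.prod MeasurableSet.univ
  have h1 : IntegrableOn g (closedBall X₀ R ×ˢ univ) V := by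
    refine Integrable.mono' (g := fun _ => C) ?_ hg.restrict (ae_restrict_of_ae hb)
    exact integrableOn_const (hs := hfin.ne)
  refine (integrableOn_iff_integrable_of_support_subset ?_).1 h1
  intro z hz
  by_contra hcon
  apply hz
  apply hs
  intro hz1
  exact hcon ⟨hz1, mem_univ _⟩

lemma norm_le_of_ker1 {X₀ : E} {r : ℝ} (hr : 0 < r) {x : E} (h : ker 1 X₀ r x ≠ 0) :
    ‖x - X₀‖ ≤ r := by
  by_contra hcon
  exact h (ker_zero one_ne_zero hr (not_le.1 hcon).le)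

lemma ker1_le_ker2 {X₀ : E} {r : ℝ} (hr : 0 < r) (x : E) :
    ker 1 X₀ r x ≤ 16 / 9 * ker 2 X₀ (2 * r) x := by
  by_cases h : ker 1 X₀ r x = 0
  · rw [h]
    have := ker_nonneg 2 X₀ (2 * r) x
    positivity
  · have h1 := norm_le_of_ker1 hr h
    have h2 : ker 1 X₀ r x ≤ 1 := ker_le_one _ _ _ _
    have h3 : ‖x - X₀‖ ^ 2 / (2 * r) ^ 2 ≤ 1 / 4 := by
      rw [div_le_iff₀ (by positivity)]
      have := pow_le_pow_left₀ (norm_nonneg _) h1 2
      nlinarith
    have h4 : 3 / 4 ≤ max (1 - ‖x - X₀‖ ^ 2 / (2 * r) ^ 2) 0 := le_max_of_le_left (by linarith)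
    have h5 : 9 / 16 ≤ ker 2 X₀ (2 * r) x := by
      unfold ker ph
      nlinarith
    linarith

/-- the key inequality excluding holes -/
lemma no_hole_ineq {V : Measure (E × (E →L[ℝ] E))} {X₀ e : E} {r : ℝ} (hr : 0 < r)
    (he : ‖e‖ = 1) (hfin : V (closedBall X₀ (2 * r) ×ˢ univ) < ⊤)
    (hP : ∀ᵐ z ∂V, ‖z.2‖ ≤ 1)
    (hst : ∫ z, LinearMap.trace ℝ E
      ((fderiv ℝ (fun y => tf X₀ r e y • e) z.1).comp z.2).toLinearMap ∂V = 0)
    {θ δ τ κ : ℝ} (m : ℕ) (hκ : 0 ≤ κ)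
    (hlow : θ * r ^ m ≤ ∫ z, ker 2 X₀ r z.1 ∂V)
    (hup : ∫ z, ker 2 X₀ (2 * r) z.1 ∂V ≤ (1 + δ) * θ * (2 * r) ^ m)
    (hmv : |∫ z, ker 2 X₀ (2 * r) z.1 * inner ℝ (z.1 - X₀) e ∂V|
      ≤ δ * θ * (2 * r) ^ m * (2 * r))
    (htilt : ∫ z, ker 2 X₀ r z.1 * (1 - inner ℝ e (z.2 e)) ∂V ≤ τ * r ^ m)
    (hone : ∀ᵐ z ∂V, z.1 ∈ ball X₀ (2 * r) → inner ℝ (z.1 - X₀) e ≤ κ) :
    (θ - τ) * r ^ m ≤ 4 / r * (16 / 9 * (2 * κ * ((1 + δ) * θ * (2 * r) ^ m)
      + δ * θ * (2 * r) ^ m * (2 * r))) := by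
  have hk0 : ∀ p : ℕ, p ≠ 0 → ∀ ρ : ℝ, 0 < ρ → ρ ≤ 2 * r → ∀ x : E, x ∉ closedBall X₀ (2 * r) →
      ker p X₀ ρ x = 0 := by
    intro p hp ρ hρ hρr x hx
    refine ker_zero hp hρ ?_
    rw [mem_closedBall, dist_eq_norm, not_le] at hx
    linarith
  have hmk : ∀ p : ℕ, ∀ ρ : ℝ, Continuous fun z : E × (E →L[ℝ] E) => ker p X₀ ρ z.1 :=
    fun p ρ => (continuous_ker p X₀ ρ).comp continuous_fst
  have hml : Continuous fun z : E × (E →L[ℝ] E) => inner ℝ (z.1 - X₀) e :=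
    (continuous_fst.sub continuous_const).inner continuous_const
  have hmPe : Continuous fun z : E × (E →L[ℝ] E) => z.2 e :=
    continuous_snd.clm_apply continuous_const
  -- integrabilities
  have i1 : Integrable (fun z : E × (E →L[ℝ] E) => ker 2 X₀ r z.1) V := by
    refine integrable_of_ball hfin (hmk 2 r).aestronglyMeasurable (C := 1)
      (Eventually.of_forall fun z => ?_) fun z hz => hk0 2 two_ne_zero r hr (by linarith) _ hz
    rw [Real.norm_eq_abs, abs_of_nonneg (ker_nonneg _ _ _ _)]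
    exact ker_le_one _ _ _ _
  have i2 : Integrable (fun z : E × (E →L[ℝ] E) => ker 2 X₀ (2 * r) z.1) V := by
    refine integrable_of_ball hfin (hmk 2 _).aestronglyMeasurable (C := 1)
      (Eventually.of_forall fun z => ?_) fun z hz =>
        hk0 2 two_ne_zero (2 * r) (by linarith) le_rfl _ hz
    rw [Real.norm_eq_abs, abs_of_nonneg (ker_nonneg _ _ _ _)]
    exact ker_le_one _ _ _ _
  have hPe : ∀ᵐ z ∂V, |(inner ℝ e (z.2 e) : ℝ)| ≤ 1 := by
    filter_upwards [hP] with z hz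
    calc |(inner ℝ e (z.2 e) : ℝ)| ≤ ‖e‖ * ‖z.2 e‖ := abs_real_inner_le_norm _ _
      _ ≤ ‖e‖ * (‖z.2‖ * ‖e‖) := by gcongr; exact z.2.le_opNorm e
      _ ≤ 1 := by rw [he]; linarith
  have i3 : Integrable (fun z : E × (E →L[ℝ] E) => ker 2 X₀ r z.1 * inner ℝ e (z.2 e)) V := by
    refine integrable_of_ball hfin ((hmk 2 r).mul
      (continuous_const.inner hmPe)).aestronglyMeasurable (C := 1) ?_
      fun z hz => by rw [hk0 2 two_ne_zero r hr (by linarith) _ hz, zero_mul]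
    filter_upwards [hPe] with z hz
    rw [norm_mul, Real.norm_eq_abs, Real.norm_eq_abs, abs_of_nonneg (ker_nonneg _ _ _ _)]
    have h1 := ker_le_one 2 X₀ r z.1
    have h2 := ker_nonneg 2 X₀ r z.1
    have h3 := abs_nonneg (inner ℝ e (z.2 e) : ℝ)
    nlinarith
  have hℓ : ∀ ρ : ℝ, ∀ x : E, ‖x - X₀‖ ≤ ρ → |(inner ℝ (x - X₀) e : ℝ)| ≤ ρ := by
    intro ρ x hx
    calc |(inner ℝ (x - X₀) e : ℝ)| ≤ ‖x - X₀‖ * ‖e‖ := abs_real_inner_le_norm _ _
      _ ≤ ρ := by rw [he, mul_one]; exact hx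
  have i4 : Integrable (fun z : E × (E →L[ℝ] E) =>
      ker 1 X₀ r z.1 * inner ℝ (z.1 - X₀) e * inner ℝ (z.1 - X₀) (z.2 e)) V := by
    refine integrable_of_ball hfin (((hmk 1 r).mul hml).mul
      ((continuous_fst.sub continuous_const).inner hmPe)).aestronglyMeasurable (C := r * r) ?_
      fun z hz => by rw [hk0 1 one_ne_zero r hr (by linarith) _ hz, zero_mul, zero_mul]
    filter_upwards [hP] with z hz
    by_cases h0 : ker 1 X₀ r z.1 = 0
    · rw [h0]; simp; positivity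
    · have h1 := norm_le_of_ker1 hr h0
      have h2 := hℓ r z.1 h1
      have h3 : |(inner ℝ (z.1 - X₀) (z.2 e) : ℝ)| ≤ r := by
        calc |(inner ℝ (z.1 - X₀) (z.2 e) : ℝ)| ≤ ‖z.1 - X₀‖ * ‖z.2 e‖ :=
              abs_real_inner_le_norm _ _
          _ ≤ r * (1 * 1) := by
              gcongr
              calc ‖z.2 e‖ ≤ ‖z.2‖ * ‖e‖ := z.2.le_opNorm e
                _ ≤ 1 * 1 := by rw [he]; gcongr
          _ = r := by ring
      rw [norm_mul, norm_mul, Real.norm_eq_abs, Real.norm_eq_abs, Real.norm_eq_abs,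
        abs_of_nonneg (ker_nonneg _ _ _ _)]
      have h4 := ker_le_one 1 X₀ r z.1
      have h5 := ker_nonneg 1 X₀ r z.1
      have h6 := abs_nonneg (inner ℝ (z.1 - X₀) e : ℝ)
      have h7 := abs_nonneg (inner ℝ (z.1 - X₀) (z.2 e) : ℝ)
      calc ker 1 X₀ r z.1 * |(inner ℝ (z.1 - X₀) e : ℝ)| * |(inner ℝ (z.1 - X₀) (z.2 e) : ℝ)|
          ≤ 1 * r * r := by gcongr
        _ = r * r := by ring
  have i5 : Integrable (fun z : E × (E →L[ℝ] E) =>
      ker 2 X₀ (2 * r) z.1 * inner ℝ (z.1 - X₀) e) V := by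
    refine integrable_of_ball hfin ((hmk 2 _).mul hml).aestronglyMeasurable (C := 2 * r)
      (Eventually.of_forall fun z => ?_) fun z hz => by
        rw [hk0 2 two_ne_zero (2 * r) (by linarith) le_rfl _ hz, zero_mul]
    by_cases h0 : ‖z.1 - X₀‖ ≤ 2 * r
    · have h2 := hℓ (2 * r) z.1 h0
      rw [norm_mul, Real.norm_eq_abs, Real.norm_eq_abs, abs_of_nonneg (ker_nonneg _ _ _ _)]
      have h4 := ker_le_one 2 X₀ (2 * r) z.1
      have h5 := ker_nonneg 2 X₀ (2 * r) z.1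
      calc ker 2 X₀ (2 * r) z.1 * |(inner ℝ (z.1 - X₀) e : ℝ)| ≤ 1 * (2 * r) := by gcongr
        _ = 2 * r := by ring
    · rw [hk0 2 two_ne_zero (2 * r) (by linarith) le_rfl _ (by
        rw [mem_closedBall, dist_eq_norm]; exact h0), zero_mul, norm_zero]
      positivity
  have i6 : Integrable (fun z : E × (E →L[ℝ] E) =>
      ker 2 X₀ (2 * r) z.1 * |inner ℝ (z.1 - X₀) e|) V := by
    refine i5.norm.congr (Eventually.of_forall fun z => ?_)
    simp only [norm_mul, Real.norm_eq_abs]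
    rw [abs_of_nonneg (ker_nonneg _ _ _ _)]
  -- the identity
  have hid : ∫ z, ker 2 X₀ r z.1 * inner ℝ e (z.2 e) ∂V
      = 4 / r ^ 2 * ∫ z, ker 1 X₀ r z.1 * inner ℝ (z.1 - X₀) e
        * inner ℝ (z.1 - X₀) (z.2 e) ∂V := by
    have h1 : ∫ z, (ker 2 X₀ r z.1 * inner ℝ e (z.2 e)
        - 4 / r ^ 2 * (ker 1 X₀ r z.1 * inner ℝ (z.1 - X₀) e
          * inner ℝ (z.1 - X₀) (z.2 e))) ∂V = 0 := by
      rw [← hst]
      refine integral_congr_ae (Eventually.of_forall fun z => ?_)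
      exact (tf_trace X₀ r e z.1 z.2).symm
    rw [integral_sub i3 (i4.const_mul _), integral_const_mul] at h1
    linarith
  have hA : (θ - τ) * r ^ m ≤ ∫ z, ker 2 X₀ r z.1 * inner ℝ e (z.2 e) ∂V := by
    have h1 : ∫ z, ker 2 X₀ r z.1 * (1 - inner ℝ e (z.2 e)) ∂V
        = ∫ z, ker 2 X₀ r z.1 ∂V - ∫ z, ker 2 X₀ r z.1 * inner ℝ e (z.2 e) ∂V := by
      rw [← integral_sub i1 i3]
      refine integral_congr_ae (Eventually.of_forall fun z => ?_)
      simp only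
      ring
    rw [h1] at htilt
    nlinarith
  have hB : 4 / r ^ 2 * ∫ z, ker 1 X₀ r z.1 * inner ℝ (z.1 - X₀) e
        * inner ℝ (z.1 - X₀) (z.2 e) ∂V
      ≤ 4 / r * (16 / 9 * ∫ z, ker 2 X₀ (2 * r) z.1 * |inner ℝ (z.1 - X₀) e| ∂V) := by
    have h1 : ∫ z, ker 1 X₀ r z.1 * inner ℝ (z.1 - X₀) e
        * inner ℝ (z.1 - X₀) (z.2 e) ∂V
        ≤ ∫ z, (r * (16 / 9)) * (ker 2 X₀ (2 * r) z.1 * |inner ℝ (z.1 - X₀) e|) ∂V := by
      refine integral_mono_ae i4 (i6.const_mul _) ?_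
      filter_upwards [hP] with z hz
      by_cases h0 : ker 1 X₀ r z.1 = 0
      · simp only [h0, zero_mul]
        have := ker_nonneg 2 X₀ (2 * r) z.1
        positivity
      · have h1 := norm_le_of_ker1 hr h0
        have h3 : |(inner ℝ (z.1 - X₀) (z.2 e) : ℝ)| ≤ r := by
          calc |(inner ℝ (z.1 - X₀) (z.2 e) : ℝ)| ≤ ‖z.1 - X₀‖ * ‖z.2 e‖ :=
                abs_real_inner_le_norm _ _
            _ ≤ r * (1 * 1) := by
                gcongr
                calc ‖z.2 e‖ ≤ ‖z.2‖ * ‖e‖ := z.2.le_opNorm e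
                  _ ≤ 1 * 1 := by rw [he]; gcongr
            _ = r := by ring
        have h5 := ker_nonneg 1 X₀ r z.1
        have h6 := abs_nonneg (inner ℝ (z.1 - X₀) e : ℝ)
        have h7 := ker1_le_ker2 (X₀ := X₀) hr z.1
        calc ker 1 X₀ r z.1 * inner ℝ (z.1 - X₀) e * inner ℝ (z.1 - X₀) (z.2 e)
            ≤ |ker 1 X₀ r z.1 * inner ℝ (z.1 - X₀) e * inner ℝ (z.1 - X₀) (z.2 e)| := le_abs_self _
          _ = ker 1 X₀ r z.1 * |(inner ℝ (z.1 - X₀) e : ℝ)|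
              * |(inner ℝ (z.1 - X₀) (z.2 e) : ℝ)| := by
                rw [abs_mul, abs_mul, abs_of_nonneg h5]
          _ ≤ (16 / 9 * ker 2 X₀ (2 * r) z.1) * |(inner ℝ (z.1 - X₀) e : ℝ)| * r :=
              mul_le_mul (mul_le_mul_of_nonneg_right h7 h6) h3 (abs_nonneg _)
                (mul_nonneg (h5.trans h7) h6)
          _ = (r * (16 / 9)) * (ker 2 X₀ (2 * r) z.1 * |inner ℝ (z.1 - X₀) e|) := by ring
    rw [integral_const_mul] at h1
    calc 4 / r ^ 2 * ∫ z, ker 1 X₀ r z.1 * inner ℝ (z.1 - X₀) e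
          * inner ℝ (z.1 - X₀) (z.2 e) ∂V
        ≤ 4 / r ^ 2 * (r * (16 / 9) *
          ∫ z, ker 2 X₀ (2 * r) z.1 * |inner ℝ (z.1 - X₀) e| ∂V) := by gcongr
      _ = 4 / r * (16 / 9 * ∫ z, ker 2 X₀ (2 * r) z.1 * |inner ℝ (z.1 - X₀) e| ∂V) := by
          field_simp
  have hC : ∫ z, ker 2 X₀ (2 * r) z.1 * |inner ℝ (z.1 - X₀) e| ∂V
      ≤ 2 * κ * ((1 + δ) * θ * (2 * r) ^ m) + δ * θ * (2 * r) ^ m * (2 * r) := by
    have h1 : ∫ z, ker 2 X₀ (2 * r) z.1 * |inner ℝ (z.1 - X₀) e| ∂V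
        ≤ ∫ z, (2 * κ * ker 2 X₀ (2 * r) z.1
          - ker 2 X₀ (2 * r) z.1 * inner ℝ (z.1 - X₀) e) ∂V := by
      refine integral_mono_ae i6 ((i2.const_mul _).sub i5) ?_
      filter_upwards [hone] with z hz
      by_cases h0 : z.1 ∈ ball X₀ (2 * r)
      · have h2 := hz h0
        have h3 := ker_nonneg 2 X₀ (2 * r) z.1
        rcases le_total 0 (inner ℝ (z.1 - X₀) e : ℝ) with h4 | h4
        · rw [abs_of_nonneg h4]; nlinarith
        · rw [abs_of_nonpos h4]; nlinarith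
      · have h5 : ker 2 X₀ (2 * r) z.1 = 0 := by
          refine ker_zero two_ne_zero (by linarith) ?_
          rw [mem_ball, dist_eq_norm, not_lt] at h0
          exact h0
        simp [h5]
    rw [integral_sub (i2.const_mul _) i5, integral_const_mul] at h1
    have h2 := (abs_le.1 hmv).1
    have h3 : 2 * κ * ∫ z, ker 2 X₀ (2 * r) z.1 ∂V ≤ 2 * κ * ((1 + δ) * θ * (2 * r) ^ m) := by
      gcongr
    linarith
  calc (θ - τ) * r ^ m ≤ ∫ z, ker 2 X₀ r z.1 * inner ℝ e (z.2 e) ∂V := hA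
    _ = _ := hid
    _ ≤ _ := hB
    _ ≤ _ := by gcongr

end

end Crest.Agent.R234.Al4_182
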