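import Crest.Agent.R234.Al3_640

set_option autoImplicit false

/-!
Row 234, VF-ALLARD, part 4 (helper640): one step of the decay.

`S` carries `V` in `U`; the weighted mass ratios of the points of `S` in `ball x₁ ρ` at all scales
below `ρ` lie in `[θ, (1+δ)θ]`; `‖b + G x‖ ≤ ε` on `S ∩ ball x₁ ρ`.  Then there is an affine map
`b' + G' x` with `‖G' - G‖ ≤ C ε/ρ` and `‖b' + G' x‖ ≤ (δ + C η²) ε` on `S ∩ ball x₁ (η ρ)`
for all `η ≤ 1/4`.
-/

open MeasureTheory Crest.GeometryTopology.Submanifold Filter Topology Metric Set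
open scoped ENNReal InnerProductSpace
open Crest.Agent.R234.Vf_884

noncomputable section

namespace Crest.Agent.R234.Al1_640

variable {m k : ℕ} {U : Set (Euc k)} {V : Measure (Euc k × L k)}

/-- mass bound from the weighted mass ratio -/
theorem mass_le (hV : Stat m k U V) {z : Euc k} {s t A : ℝ} (hs : 0 < s)
    (ht : 0 ≤ t) (hts : t < s)
    (hU : closedBall z s ⊆ U) (hI : II m V z s ≤ A) :
    V.real (closedBall z t ×ˢ univ) ≤ A * s ^ m / ph (t ^ 2 / s ^ 2) := by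
  have h0 : t ^ 2 / s ^ 2 < 1 := by
    rw [div_lt_one (by positivity)]
    gcongr
  have hph : 0 < ph (t ^ 2 / s ^ 2) := by
    unfold ph
    rw [max_eq_left (by linarith)]
    exact pow_pos (by linarith) 2
  rw [le_div_iff₀ hph]
  have hI' : ∫ p, ph (‖p.1 - z‖ ^ 2 / s ^ 2) ∂V ≤ A * s ^ m := by
    unfold II at hI
    rwa [div_le_iff₀ (pow_pos hs m)] at hI
  refine le_trans ?_ hI'
  have hK : MeasurableSet (closedBall z t ×ˢ (univ : Set (L k))) :=
    isClosed_closedBall.measurableSet.prod MeasurableSet.univ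
  have hfin : V (closedBall z t ×ˢ univ) < ⊤ := hV.fin _ (isCompact_closedBall z t)
    ((closedBall_subset_closedBall hts.le).trans hU)
  have h1 : V.real (closedBall z t ×ˢ univ) * ph (t ^ 2 / s ^ 2)
      = ∫ p, (closedBall z t ×ˢ (univ : Set (L k))).indicator
        (fun _ => ph (t ^ 2 / s ^ 2)) p ∂V := by
    rw [integral_indicator_const _ hK, smul_eq_mul]
  rw [h1]
  refine integral_mono ?_ (integrable_ph hV hs hU) ?_
  · rw [integrable_indicator_iff hK]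
    exact integrableOn_const hfin.ne
  · intro p
    simp only
    by_cases hp : p ∈ closedBall z t ×ˢ (univ : Set (L k))
    · rw [indicator_of_mem hp]
      have h2 : ‖p.1 - z‖ ≤ t := by
        have := hp.1
        rwa [mem_closedBall, dist_eq_norm] at this
      exact ph_anti (by gcongr)
    · rw [indicator_of_notMem hp]
      exact ph_nonneg _

/-- pointwise second order estimate of the kernel -/
theorem kernel_taylor {x x0 x1 : Euc k} {r : ℝ} (hr : 0 < r) (h : ‖x0 - x1‖ ≤ r / 2)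
    (hx : ‖x - x1‖ ≤ 3 / 2 * r) :
    |ph (‖x - x0‖ ^ 2 / r ^ 2) - ph (‖x - x1‖ ^ 2 / r ^ 2)
      - ph' (‖x - x1‖ ^ 2 / r ^ 2) * (-2 / r ^ 2 * ⟪x - x1, x0 - x1⟫_ℝ)|
      ≤ 15 * ‖x0 - x1‖ ^ 2 / r ^ 2 := by
  set u := ‖x - x0‖ ^ 2 / r ^ 2 with hu
  set v := ‖x - x1‖ ^ 2 / r ^ 2 with hv
  set n := ‖x0 - x1‖ with hn
  have hn0 : 0 ≤ n := norm_nonneg _
  have h1 : ‖x - x0‖ ^ 2 = ‖x - x1‖ ^ 2 - 2 * ⟪x - x1, x0 - x1⟫_ℝ + n ^ 2 := by
    have : x - x0 = (x - x1) - (x0 - x1) := by abel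
    rw [this, norm_sub_sq_real]
  have huv : u - v = (n ^ 2 - 2 * ⟪x - x1, x0 - x1⟫_ℝ) / r ^ 2 := by
    rw [hu, hv, h1]; ring
  have h2 : ph u - ph v - ph' v * (-2 / r ^ 2 * ⟪x - x1, x0 - x1⟫_ℝ)
      = (ph u - ph v - ph' v * (u - v)) + ph' v * (n ^ 2 / r ^ 2) := by
    rw [huv]; ring
  rw [h2]
  have h3 : |⟪x - x1, x0 - x1⟫_ℝ| ≤ 3 / 2 * r * n :=
    (abs_real_inner_le_norm _ _).trans (mul_le_mul_of_nonneg_right hx hn0)
  have h4 : |u - v| ≤ 7 / 2 * n / r := by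
    rw [huv, abs_div, abs_of_pos (by positivity : (0:ℝ) < r ^ 2), div_le_div_iff₀ (by positivity) hr]
    have h5 : |n ^ 2 - 2 * ⟪x - x1, x0 - x1⟫_ℝ| ≤ 7 / 2 * n * r := by
      rw [abs_le] at h3 ⊢
      constructor <;> nlinarith [mul_nonneg hn0 hr.le]
    calc |n ^ 2 - 2 * ⟪x - x1, x0 - x1⟫_ℝ| * r ≤ (7 / 2 * n * r) * r := by gcongr
      _ = 7 / 2 * n * r ^ 2 := by ring
  have h5 : (u - v) ^ 2 ≤ (7 / 2 * n / r) ^ 2 := by
    rw [← sq_abs (u - v)]
    gcongr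
  have h6 : |ph' v * (n ^ 2 / r ^ 2)| ≤ 2 * (n ^ 2 / r ^ 2) := by
    rw [abs_mul, abs_of_nonneg (by positivity : (0:ℝ) ≤ n ^ 2 / r ^ 2)]
    exact mul_le_mul_of_nonneg_right (abs_ph'_le (by positivity)) (by positivity)
  calc |ph u - ph v - ph' v * (u - v) + ph' v * (n ^ 2 / r ^ 2)|
      ≤ |ph u - ph v - ph' v * (u - v)| + |ph' v * (n ^ 2 / r ^ 2)| := abs_add_le _ _
    _ ≤ (7 / 2 * n / r) ^ 2 + 2 * (n ^ 2 / r ^ 2) := add_le_add ((ph_taylor u v).trans h5) h6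
    _ = (57 / 4) * (n ^ 2 / r ^ 2) := by ring
    _ ≤ 15 * (n ^ 2 / r ^ 2) := by gcongr; norm_num
    _ = 15 * n ^ 2 / r ^ 2 := by ring

theorem kernel_zero {x x0 x1 : Euc k} {r : ℝ} (hr : 0 < r) (h : ‖x0 - x1‖ ≤ r / 2)
    (hx : 3 / 2 * r < ‖x - x1‖) :
    ph (‖x - x0‖ ^ 2 / r ^ 2) = 0 ∧ ph (‖x - x1‖ ^ 2 / r ^ 2) = 0
      ∧ ph' (‖x - x1‖ ^ 2 / r ^ 2) = 0 := by
  have h1 : r ≤ ‖x - x1‖ := by linarith
  have h2 : r ≤ ‖x - x0‖ := by
    have : ‖x - x1‖ ≤ ‖x - x0‖ + ‖x0 - x1‖ := by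
      have h3 : x - x1 = (x - x0) + (x0 - x1) := by abel
      rw [h3]; exact norm_add_le _ _
    linarith
  exact ⟨ph_zero (one_le_div_sq hr (by gcongr)), ph_zero (one_le_div_sq hr (by gcongr)),
    ph'_zero (one_le_div_sq hr (by gcongr))⟩

variable {F : Type*} [NormedAddCommGroup F] [InnerProductSpace ℝ F]

/-- the integrand of the linear part -/
def lk (b : F) (G : Euc k →L[ℝ] F) (z : Euc k) (r : ℝ) (x : Euc k) : Euc k →L[ℝ] F :=
  (ph' (‖x - z‖ ^ 2 / r ^ 2) * (-2 / r ^ 2)) • (innerSL ℝ (x - z)).smulRight (b + G x)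

theorem lk_apply (b : F) (G : Euc k →L[ℝ] F) (z : Euc k) (r : ℝ) (x h : Euc k) :
    lk b G z r x h
      = (ph' (‖x - z‖ ^ 2 / r ^ 2) * (-2 / r ^ 2 * ⟪x - z, h⟫_ℝ)) • (b + G x) := by
  unfold lk
  rw [smul_apply, ContinuousLinearMap.smulRight_apply, innerSL_apply_apply, smul_smul, mul_assoc]

theorem continuous_lk (b : F) (G : Euc k →L[ℝ] F) (z : Euc k) (r : ℝ) :
    Continuous (lk b G z r) := by
  unfold lk
  have h1 : Continuous fun x : Euc k => ph' (‖x - z‖ ^ 2 / r ^ 2) :=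
    continuous_ph'.comp (by fun_prop)
  have h2 : Continuous fun x : Euc k => (innerSL ℝ (x - z)).smulRight (b + G x) := by
    have h3 : Continuous fun x : Euc k => innerSL ℝ (x - z) := by fun_prop
    have h4 : Continuous fun x : Euc k => b + G x := by fun_prop
    exact (ContinuousLinearMap.smulRightL ℝ (Euc k) F).continuous₂.comp (h3.prodMk h4)
  exact (h1.mul continuous_const).smul h2

/-- the linear part -/
def LL (V : Measure (Euc k × L k)) (b : F) (G : Euc k →L[ℝ] F) (z : Euc k) (r : ℝ) :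
    Euc k →L[ℝ] F := ∫ p, lk b G z r p.1 ∂V

theorem integrable_lk (hV : Stat m k U V) {z : Euc k} {r : ℝ} (hr : 0 < r)
    (hU : closedBall z r ⊆ U) (b : F) (G : Euc k →L[ℝ] F) :
    Integrable (fun p : Euc k × L k => lk b G z r p.1) V :=
  integrable_vec hV (isCompact_closedBall z r) hU (continuous_lk b G z r)
    (fun x hx => by unfold lk; rw [ph'_zero (off_ball hr hx)]; simp)

/-- `J(x₀) = J(x₁) + L(x₀ - x₁) + O(ε |x₀-x₁|²/r²) mass` -/
theorem JJ_taylor (hV : Stat m k U V) {x0 x1 : Euc k} {r : ℝ} (hr : 0 < r)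
    (h : ‖x0 - x1‖ ≤ r / 2) (hU : closedBall x1 (3 / 2 * r) ⊆ U)
    (b : F) (G : Euc k →L[ℝ] F) {ε : ℝ} (_hε : 0 ≤ ε)
    (hf : ∀ᵐ p ∂V, p.1 ∈ closedBall x1 (3 / 2 * r) → ‖b + G p.1‖ ≤ ε) :
    ‖JJ V b G x0 r - JJ V b G x1 r - LL V b G x1 r (x0 - x1)‖
      ≤ 15 * ‖x0 - x1‖ ^ 2 / r ^ 2 * ε * V.real (closedBall x1 (3 / 2 * r) ×ˢ univ) := by
  have hU0 : closedBall x0 r ⊆ U := by
    refine (closedBall_subset_closedBall' ?_).trans hU
    rw [dist_eq_norm]; linarith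
  have hU1 : closedBall x1 r ⊆ U := (closedBall_subset_closedBall (by linarith)).trans hU
  have hK : MeasurableSet (closedBall x1 (3 / 2 * r) ×ˢ (univ : Set (L k))) :=
    isClosed_closedBall.measurableSet.prod MeasurableSet.univ
  have hfin : V (closedBall x1 (3 / 2 * r) ×ˢ univ) < ⊤ :=
    hV.fin _ (isCompact_closedBall _ _) hU
  have i0 := integrable_ph_smul hV hr hU0 (φ := fun x => b + G x) (by fun_prop)
  have i1 := integrable_ph_smul hV hr hU1 (φ := fun x => b + G x) (by fun_prop)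
  have i2 := integrable_lk hV hr hU1 b G
  have i01 : Integrable (fun p : Euc k × L k => ph (‖p.1 - x0‖ ^ 2 / r ^ 2) • (b + G p.1)
      - ph (‖p.1 - x1‖ ^ 2 / r ^ 2) • (b + G p.1)) V := i0.sub i1
  have i3 : Integrable (fun p : Euc k × L k => (lk b G x1 r p.1) (x0 - x1)) V :=
    i2.apply_continuousLinearMap _
  unfold JJ LL
  rw [ContinuousLinearMap.integral_apply i2, ← integral_sub i0 i1, ← integral_sub i01 i3]
  have hb : Integrable ((closedBall x1 (3 / 2 * r) ×ˢ (univ : Set (L k))).indicator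
      fun _ => 15 * ‖x0 - x1‖ ^ 2 / r ^ 2 * ε) V := by
    rw [integrable_indicator_iff hK]
    exact integrableOn_const hfin.ne
  have h1 := norm_integral_le_of_norm_le hb (f := fun p : Euc k × L k =>
    ph (‖p.1 - x0‖ ^ 2 / r ^ 2) • (b + G p.1) - ph (‖p.1 - x1‖ ^ 2 / r ^ 2) • (b + G p.1)
      - (lk b G x1 r p.1) (x0 - x1)) ?_
  · rw [integral_indicator_const _ hK, smul_eq_mul, mul_comm] at h1
    exact h1
  · filter_upwards [hf] with p hp
    rw [lk_apply, ← sub_smul, ← sub_smul, norm_smul, Real.norm_eq_abs]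
    by_cases hx : p.1 ∈ closedBall x1 (3 / 2 * r)
    · rw [indicator_of_mem (by exact ⟨hx, trivial⟩)]
      have hx' : ‖p.1 - x1‖ ≤ 3 / 2 * r := by rwa [mem_closedBall, dist_eq_norm] at hx
      exact mul_le_mul (kernel_taylor hr h hx') (hp hx) (norm_nonneg _) (by positivity)
    · have hx' : 3 / 2 * r < ‖p.1 - x1‖ := by
        rwa [mem_closedBall, dist_eq_norm, not_le] at hx
      obtain ⟨e1, e2, e3⟩ := kernel_zero hr h hx'
      rw [e1, e2, e3, indicator_of_notMem (by exact fun hh => hx hh.1)]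
      simp

/-- bound of the linear part -/
theorem LL_le (hV : Stat m k U V) {x1 : Euc k} {r : ℝ} (hr : 0 < r)
    (hU : closedBall x1 r ⊆ U)
    (b : F) (G : Euc k →L[ℝ] F) {ε : ℝ}
    (hf : ∀ᵐ p ∂V, p.1 ∈ closedBall x1 r → ‖b + G p.1‖ ≤ ε) :
    ‖LL V b G x1 r‖ ≤ 4 / r * ε * V.real (closedBall x1 r ×ˢ univ) := by
  have hK : MeasurableSet (closedBall x1 r ×ˢ (univ : Set (L k))) :=
    isClosed_closedBall.measurableSet.prod MeasurableSet.univ
  have hfin : V (closedBall x1 r ×ˢ univ) < ⊤ := hV.fin _ (isCompact_closedBall _ _) hU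
  have hb : Integrable ((closedBall x1 r ×ˢ (univ : Set (L k))).indicator
      fun _ => 4 / r * ε) V := by
    rw [integrable_indicator_iff hK]
    exact integrableOn_const hfin.ne
  have h1 := norm_integral_le_of_norm_le hb (f := fun p : Euc k × L k => lk b G x1 r p.1) ?_
  · rw [integral_indicator_const _ hK, smul_eq_mul, mul_comm] at h1
    exact h1
  · filter_upwards [hf] with p hp
    by_cases hx : p.1 ∈ closedBall x1 r
    · rw [indicator_of_mem (by exact ⟨hx, trivial⟩)]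
      have hx' : ‖p.1 - x1‖ ≤ r := by rwa [mem_closedBall, dist_eq_norm] at hx
      unfold lk
      rw [norm_smul, ContinuousLinearMap.norm_smulRight_apply, innerSL_apply_norm, norm_mul,
        Real.norm_eq_abs, Real.norm_eq_abs, abs_div, abs_neg, abs_of_pos (by norm_num : (0:ℝ) < 2),
        abs_of_pos (by positivity : (0:ℝ) < r ^ 2)]
      have h2 : |ph' (‖p.1 - x1‖ ^ 2 / r ^ 2)| ≤ 2 := abs_ph'_le (by positivity)
      calc |ph' (‖p.1 - x1‖ ^ 2 / r ^ 2)| * (2 / r ^ 2) * (‖p.1 - x1‖ * ‖b + G p.1‖)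
          ≤ 2 * (2 / r ^ 2) * (r * ε) := by
            have := hp hx
            gcongr
        _ = 4 / r * ε := by field_simp; ring
    · unfold lk
      rw [ph'_zero (off_ball hr hx), indicator_of_notMem (by exact fun hh => hx hh.1)]
      simp

end Crest.Agent.R234.Al1_640
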