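import Crest.Agent.R234.Al4_640

set_option autoImplicit false

/-!
Row 234, VF-ALLARD, part 5 (helper640): `Pin` (pinched weighted mass ratios) and one step of the
decay (`step`).
-/

open MeasureTheory Crest.GeometryTopology.Submanifold Filter Topology Metric Set
open scoped ENNReal InnerProductSpace
open Crest.Agent.R234.Vf_884

noncomputable section

namespace Crest.Agent.R234.Al1_640

variable {m k : ℕ} {U : Set (Euc k)} {V : Measure (Euc k × L k)}

/-- pinched weighted mass ratios: `θ ≤ I(x,s) ≤ (1+δ) θ` for the points `x` of `S` in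
`ball x₁ (ρ/2)` and `0 < s ≤ ρ/2`. -/
structure Pin (m : ℕ) (V : Measure (Euc k × L k)) (S : Set (Euc k)) (x1 : Euc k)
    (ρ θ δ : ℝ) : Prop where
  lo : ∀ x ∈ S, x ∈ ball x1 (ρ / 2) → ∀ s, 0 < s → s ≤ ρ / 2 → θ ≤ II m V x s
  hi : ∀ x ∈ S, x ∈ ball x1 (ρ / 2) → ∀ s, 0 < s → s ≤ ρ / 2 → II m V x s ≤ (1 + δ) * θ

theorem Pin.anti {S : Set (Euc k)} {x1 : Euc k} {ρ ρ' θ δ : ℝ} (h : Pin m V S x1 ρ θ δ)
    (hρ : ρ' ≤ ρ) : Pin m V S x1 ρ' θ δ where
  lo x hx hx1 s hs hs1 := h.lo x hx (ball_subset_ball (by linarith) hx1) s hs (by linarith)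
  hi x hx hx1 s hs hs1 := h.hi x hx (ball_subset_ball (by linarith) hx1) s hs (by linarith)

/-- the upper bound at the top scale and the lower bound at small scales suffice -/
theorem Pin.of_top (hV : Stat m k U V) {S : Set (Euc k)} {x1 : Euc k} {ρ θ δ : ℝ}
    (hU : ball x1 ρ ⊆ U) 
    (hlo : ∀ x ∈ S, x ∈ ball x1 (ρ / 2) → ∃ s0 > 0, ∀ s, 0 < s → s < s0 → θ ≤ II m V x s)
    (hhi : ∀ x ∈ S, x ∈ ball x1 (ρ / 2) → II m V x (ρ / 2) ≤ (1 + δ) * θ) :
    Pin m V S x1 ρ θ δ := by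
  have hball : ∀ x ∈ ball x1 (ρ / 2), ball x (ρ - dist x x1) ⊆ U := by
    intro x hx
    refine Subset.trans (ball_subset_ball' ?_) hU
    linarith
  have hm : ∀ x ∈ ball x1 (ρ / 2), ∀ s t, 0 < s → s ≤ t → t ≤ ρ / 2 →
      II m V x s ≤ II m V x t := by
    intro x hx s t hs hst ht
    have hx' : dist x x1 < ρ / 2 := hx
    exact II_mono hV (hball x hx) ⟨hs, by linarith⟩ ⟨by linarith, by linarith⟩ hst
  refine ⟨?_, ?_⟩
  · intro x hx hx1 s hs hs1
    obtain ⟨s0, hs0, h⟩ := hlo x hx hx1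
    have h1 : 0 < min s (s0 / 2) := lt_min hs (by linarith)
    refine (h (min s (s0 / 2)) h1 ?_).trans (hm x hx1 _ _ h1 (min_le_left _ _) hs1)
    exact (min_le_right _ _).trans_lt (by linarith)
  · intro x hx hx1 s hs hs1
    exact (hm x hx1 s _ hs hs1 le_rfl).trans (hhi x hx hx1)

variable {F : Type*} [NormedAddCommGroup F] [InnerProductSpace ℝ F] [CompleteSpace F]

/-- **one step of the decay** -/
theorem step (hV : Stat m k U V) {S : Set (Euc k)} (hS : ∀ᵐ p ∂V, p.1 ∈ U → p.1 ∈ S)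
    {x1 : Euc k} {ρ θ δ ε : ℝ} (hρ : 0 < ρ) (hU : ball x1 ρ ⊆ U) (hθ : 0 < θ)
    (hδ : δ ≤ 1) (hP : Pin m V S x1 ρ θ δ) (hx1 : x1 ∈ S) (b : F) (G : Euc k →L[ℝ] F)
    (hg : ∀ x ∈ S, x ∈ ball x1 ρ → ‖b + G x‖ ≤ ε) :
    ∃ (b' : F) (G' : Euc k →L[ℝ] F), ‖G' - G‖ ≤ 176 * 2 ^ m * (ε / ρ) ∧
      ∀ x ∈ S, ‖x - x1‖ ≤ ρ / 8 →
        ‖b' + G' x‖ ≤ (δ + 2640 * 2 ^ m * (‖x - x1‖ / ρ) ^ 2) * ε := by
  have hε : 0 ≤ ε := (norm_nonneg _).trans (hg x1 hx1 (mem_ball_self hρ))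
  set r := ρ / 4 with hr_def
  have hr : 0 < r := by positivity
  have hρr : ρ = 4 * r := by rw [hr_def]; ring
  have hrm : 0 < r ^ m := pow_pos hr m
  have h2m : (0:ℝ) < 2 ^ m := by positivity
  have hae : ∀ᵐ p ∂V, p.1 ∈ ball x1 ρ → ‖b + G p.1‖ ≤ ε := by
    filter_upwards [hS] with p hp h
    exact hg p.1 (hp (hU h)) h
  have hc1 : closedBall x1 (3 / 2 * r) ⊆ ball x1 ρ := closedBall_subset_ball (by linarith)
  have hc2 : closedBall x1 r ⊆ ball x1 ρ := closedBall_subset_ball (by linarith)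
  have hmass : V.real (closedBall x1 (3 / 2 * r) ×ˢ univ) ≤ 11 * 2 ^ m * θ * r ^ m := by
    have h1 := mass_le (m := m) (A := (1 + δ) * θ) hV (z := x1) (s := 2 * r) (t := 3 / 2 * r)
      (by positivity) (by positivity) (by linarith)
      ((closedBall_subset_ball (by linarith)).trans hU)
      (hP.hi x1 hx1 (mem_ball_self (by linarith)) _ (by positivity) (by linarith))
    have h2 : (3 / 2 * r) ^ 2 / (2 * r) ^ 2 = 9 / 16 := by
      field_simp; norm_num
    have h3 : ph (9 / 16) = 49 / 256 := by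
      unfold ph; rw [max_eq_left (by norm_num)]; norm_num
    rw [h2, h3] at h1
    refine h1.trans ?_
    rw [div_le_iff₀ (by norm_num), mul_pow]
    have h4 : (1 + δ) * θ * (2 ^ m * r ^ m) ≤ 2 * θ * (2 ^ m * r ^ m) := by
      refine mul_le_mul_of_nonneg_right ?_ (by positivity)
      nlinarith
    have h5 : 0 ≤ θ * (2 ^ m * r ^ m) := by positivity
    nlinarith
  have hmass' : V.real (closedBall x1 r ×ˢ univ) ≤ 11 * 2 ^ m * θ * r ^ m := by
    refine le_trans ?_ hmass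
    refine measureReal_mono (prod_mono (closedBall_subset_closedBall (by linarith)) le_rfl) ?_
    exact (hV.fin _ (isCompact_closedBall _ _) (hc1.trans hU)).ne
  set c : ℝ := (θ * r ^ m)⁻¹ with hc
  have hc0 : 0 < c := by positivity
  have hcθ : c * (θ * r ^ m) = 1 := by rw [hc]; field_simp
  refine ⟨b - c • (JJ V b G x1 r - LL V b G x1 r x1), G - c • LL V b G x1 r, ?_, ?_⟩
  · rw [sub_sub_cancel_left, norm_neg, norm_smul, Real.norm_eq_abs, abs_of_pos hc0]
    have h1 := LL_le hV hr (hc2.trans hU) b G (ε := ε) (by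
      filter_upwards [hae] with p hp h
      exact hp (hc2 h))
    calc c * ‖LL V b G x1 r‖ ≤ c * (4 / r * ε * (11 * 2 ^ m * θ * r ^ m)) := by
          refine mul_le_mul_of_nonneg_left (h1.trans ?_) hc0.le
          gcongr
      _ = 44 * 2 ^ m * ε / r * (c * (θ * r ^ m)) := by ring
      _ = 176 * 2 ^ m * (ε / ρ) := by rw [hcθ, hρr]; field_simp; ring
  · intro x hx hxx
    have hxball : x ∈ ball x1 (ρ / 2) := by
      rw [mem_ball, dist_eq_norm]; linarith
    have h38 : ball x (3 / 2 * r) ⊆ ball x1 ρ := by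
      refine ball_subset_ball' ?_
      rw [dist_eq_norm]; linarith
    have hmv := mv_vec hV (z := x) (R := 3 / 2 * r) (h38.trans hU) b G (ε := ε)
      (by
        filter_upwards [hae] with p hp h
        exact hp (h38 h))
      (hg x hx (ball_subset_ball (by linarith) hxball)) (θ := θ)
      (fun s hs => hP.lo x hx hxball s hs.1 (by linarith [hs.2])) (r := r)
      ⟨hr, by linarith⟩
    have hI : II m V x r ≤ (1 + δ) * θ := hP.hi x hx hxball r hr (by linarith)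
    have hJ := JJ_taylor hV (x0 := x) (x1 := x1) hr (by linarith) (hc1.trans hU) b G (ε := ε) hε
      (by
        filter_upwards [hae] with p hp h
        exact hp (hc1 h))
    have hkey : θ • (b - c • (JJ V b G x1 r - LL V b G x1 r x1) + (G - c • LL V b G x1 r) x)
        = -((r ^ m)⁻¹ • JJ V b G x r - θ • (b + G x))
          + (r ^ m)⁻¹ • (JJ V b G x r - JJ V b G x1 r - LL V b G x1 r (x - x1)) := by
      have h1 : θ * c = (r ^ m)⁻¹ := by rw [hc]; field_simp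
      rw [sub_apply, smul_apply, map_sub]
      simp only [smul_sub, smul_add, smul_smul, h1]
      abel
    have h5 : θ * ‖b - c • (JJ V b G x1 r - LL V b G x1 r x1) + (G - c • LL V b G x1 r) x‖
        ≤ θ * ((δ + 2640 * 2 ^ m * (‖x - x1‖ / ρ) ^ 2) * ε) := by
      have h6 : θ * ‖b - c • (JJ V b G x1 r - LL V b G x1 r x1) + (G - c • LL V b G x1 r) x‖
          = ‖θ • (b - c • (JJ V b G x1 r - LL V b G x1 r x1)
            + (G - c • LL V b G x1 r) x)‖ := by
        rw [norm_smul, Real.norm_eq_abs, abs_of_pos hθ]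
      rw [h6, hkey]
      refine (norm_add_le _ _).trans ?_
      rw [norm_neg, norm_smul, Real.norm_eq_abs, abs_of_pos (inv_pos.2 hrm)]
      have h7 : ε * (II m V x r - θ) ≤ θ * δ * ε := by nlinarith
      have h8 : (r ^ m)⁻¹ * ‖JJ V b G x r - JJ V b G x1 r - LL V b G x1 r (x - x1)‖
          ≤ θ * (2640 * 2 ^ m * (‖x - x1‖ / ρ) ^ 2) * ε := by
        rw [inv_mul_le_iff₀ hrm]
        refine hJ.trans ?_
        calc 15 * ‖x - x1‖ ^ 2 / r ^ 2 * ε * V.real (closedBall x1 (3 / 2 * r) ×ˢ univ)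
            ≤ 15 * ‖x - x1‖ ^ 2 / r ^ 2 * ε * (11 * 2 ^ m * θ * r ^ m) := by gcongr
          _ = r ^ m * (θ * (2640 * 2 ^ m * (‖x - x1‖ / ρ) ^ 2) * ε) := by
            rw [hρr]; field_simp; ring
      calc ‖(r ^ m)⁻¹ • JJ V b G x r - θ • (b + G x)‖
          + (r ^ m)⁻¹ * ‖JJ V b G x r - JJ V b G x1 r - LL V b G x1 r (x - x1)‖
          ≤ θ * δ * ε + θ * (2640 * 2 ^ m * (‖x - x1‖ / ρ) ^ 2) * ε :=
            add_le_add (hmv.trans h7) h8
        _ = θ * ((δ + 2640 * 2 ^ m * (‖x - x1‖ / ρ) ^ 2) * ε) := by ring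
    exact le_of_mul_le_mul_left h5 hθ

end Crest.Agent.R234.Al1_640
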