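import Mathlib

/-!
Row 234: Caccioppoli inequality for stationary general varifolds.

A general varifold is a measure on `E × (E →L[ℝ] E)`; it is carried by the pairs `(x, P)` with `P` an
orthogonal projection (the plane is the range of `P`).
-/

set_option linter.unusedSectionVars false

namespace Crest.Agent.R234.Cacc_113

open MeasureTheory Set
open scoped InnerProductSpace

variable {E : Type*} [NormedAddCommGroup E] [InnerProductSpace ℝ E] [FiniteDimensional ℝ E]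

/-- the trace of a continuous endomorphism. -/
noncomputable def tr (A : E →L[ℝ] E) : ℝ := LinearMap.trace ℝ E A.toLinearMap

theorem tr_add (A B : E →L[ℝ] E) : tr (A + B) = tr A + tr B := by
  simp [tr]

theorem tr_sub (A B : E →L[ℝ] E) : tr (A - B) = tr A - tr B := by
  simp [tr]

theorem tr_smul (c : ℝ) (A : E →L[ℝ] E) : tr (c • A) = c * tr A := by
  simp [tr]

theorem tr_comp_comm (A B : E →L[ℝ] E) : tr (A ∘L B) = tr (B ∘L A) := by
  simp only [tr, ContinuousLinearMap.toLinearMap_comp]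
  exact LinearMap.trace_comp_comm' _ _

theorem tr_smulRight (f : E →L[ℝ] ℝ) (w : E) : tr (f.smulRight w) = f w := by
  have : (f.smulRight w).toLinearMap = (f.toLinearMap).smulRight w := by
    ext v; simp
  rw [tr, this, LinearMap.trace_smulRight]
  rfl

theorem tr_smulRight_comp (f : E →L[ℝ] ℝ) (w : E) (A : E →L[ℝ] E) :
    tr ((f.smulRight w) ∘L A) = f (A w) := by
  rw [tr_comp_comm]
  have : A ∘L f.smulRight w = f.smulRight (A w) := by
    ext v; simp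
  rw [this, tr_smulRight]

/-- the trace as a continuous linear form -/
noncomputable def trL : (E →L[ℝ] E) →L[ℝ] ℝ :=
  LinearMap.toContinuousLinearMap
    ((LinearMap.trace ℝ E) ∘ₗ (ContinuousLinearMap.coeLM ℝ : (E →L[ℝ] E) →ₗ[ℝ] (E →ₗ[ℝ] E)))

theorem trL_apply (A : E →L[ℝ] E) : trL A = tr A := rfl

theorem continuous_tr : Continuous (tr : (E →L[ℝ] E) → ℝ) := (trL (E := E)).continuous

/-- orthogonal projections. -/
structure IsPr (P : E →L[ℝ] E) : Prop where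
  idem : ∀ x, P (P x) = P x
  sa : ∀ x y, ⟪P x, y⟫_ℝ = ⟪x, P y⟫_ℝ

namespace IsPr

variable {P Q : E →L[ℝ] E}

theorem inner_self (hP : IsPr P) (x : E) : ⟪x, P x⟫_ℝ = ‖P x‖ ^ 2 := by
  rw [← real_inner_self_eq_norm_sq, hP.sa, hP.idem]

theorem inner_self_nonneg (hP : IsPr P) (x : E) : 0 ≤ ⟪x, P x⟫_ℝ := by
  rw [hP.inner_self]; positivity

theorem norm_le (hP : IsPr P) (x : E) : ‖P x‖ ≤ ‖x‖ := by
  have h1 := hP.inner_self x
  have h2 := real_inner_le_norm x (P x)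
  rw [h1] at h2
  by_contra hcon
  push Not at hcon
  have h3 : 0 ≤ ‖x‖ := norm_nonneg x
  nlinarith [norm_nonneg (P x)]

theorem opNorm_le (hP : IsPr P) : ‖P‖ ≤ 1 :=
  ContinuousLinearMap.opNorm_le_bound _ zero_le_one fun x => by simpa using hP.norm_le x

theorem compl (hP : IsPr P) : IsPr (1 - P) := by
  refine ⟨fun x => ?_, fun x y => ?_⟩
  · simp [hP.idem]
  · simp [inner_sub_left, inner_sub_right, hP.sa]

theorem tr_nonneg_conj (hP : IsPr P) (hQ : IsPr Q) : 0 ≤ tr (Q ∘L P) := by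
  have h1 : tr (Q ∘L P) = tr (P ∘L Q ∘L P) := by
    have h2 : P ∘L Q ∘L P = P ∘L (Q ∘L P) := rfl
    rw [h2, tr_comp_comm P (Q ∘L P)]
    congr 1
    ext x
    simp [hP.idem]
  rw [h1, tr, LinearMap.trace_eq_sum_inner _ (stdOrthonormalBasis ℝ E)]
  refine Finset.sum_nonneg fun i _ => ?_
  have : ⟪(stdOrthonormalBasis ℝ E) i, (P ∘L Q ∘L P) ((stdOrthonormalBasis ℝ E) i)⟫_ℝ =
      ⟪P ((stdOrthonormalBasis ℝ E) i), Q (P ((stdOrthonormalBasis ℝ E) i))⟫_ℝ := by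
    simp only [ContinuousLinearMap.comp_apply]
    rw [hP.sa]
  simp only [ContinuousLinearMap.coe_coe]
  rw [this]
  exact hQ.inner_self_nonneg _

/-- for `y` in the range of `q`: `|P y|² ≤ tr (q P) |y|²`. -/
theorem norm_sq_le (hP : IsPr P) (hQ : IsPr Q) {y : E} (hy : Q y = y) :
    ‖P y‖ ^ 2 ≤ tr (Q ∘L P) * ‖y‖ ^ 2 := by
  -- `P y = P Q y`; Hilbert-Schmidt
  have h1 : tr (Q ∘L P) = ∑ i, ‖P (Q ((stdOrthonormalBasis ℝ E) i))‖ ^ 2 := by
    have h2 : tr (Q ∘L P) = tr (Q ∘L P ∘L Q) := by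
      have h3 : Q ∘L P ∘L Q = Q ∘L (P ∘L Q) := rfl
      rw [h3, tr_comp_comm Q (P ∘L Q), tr_comp_comm Q P]
      congr 1
      ext x
      simp [hQ.idem]
    rw [h2, tr, LinearMap.trace_eq_sum_inner _ (stdOrthonormalBasis ℝ E)]
    refine Finset.sum_congr rfl fun i _ => ?_
    simp only [ContinuousLinearMap.coe_coe, ContinuousLinearMap.comp_apply]
    rw [← hQ.sa, hP.inner_self]
  have h4 : P y = ∑ i, ⟪(stdOrthonormalBasis ℝ E) i, y⟫_ℝ • P (Q ((stdOrthonormalBasis ℝ E) i)) := by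
    conv_lhs => rw [← hy, ← (stdOrthonormalBasis ℝ E).sum_repr' y]
    simp only [map_sum, map_smul]
  have h5 : ‖P y‖ ≤ ∑ i, |⟪(stdOrthonormalBasis ℝ E) i, y⟫_ℝ| *
      ‖P (Q ((stdOrthonormalBasis ℝ E) i))‖ := by
    rw [h4]
    refine (norm_sum_le _ _).trans (Finset.sum_le_sum fun i _ => ?_)
    rw [norm_smul, Real.norm_eq_abs]
  have h6 : (∑ i, |⟪(stdOrthonormalBasis ℝ E) i, y⟫_ℝ| *
      ‖P (Q ((stdOrthonormalBasis ℝ E) i))‖) ^ 2 ≤
      (∑ i, |⟪(stdOrthonormalBasis ℝ E) i, y⟫_ℝ| ^ 2) *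
        ∑ i, ‖P (Q ((stdOrthonormalBasis ℝ E) i))‖ ^ 2 :=
    Finset.sum_mul_sq_le_sq_mul_sq _ _ _
  have h7 : ∑ i, |⟪(stdOrthonormalBasis ℝ E) i, y⟫_ℝ| ^ 2 = ‖y‖ ^ 2 := by
    rw [← (stdOrthonormalBasis ℝ E).sum_sq_norm_inner_right y]
    refine Finset.sum_congr rfl fun i _ => ?_
    rw [Real.norm_eq_abs]
  rw [h7, ← h1] at h6
  calc ‖P y‖ ^ 2 ≤ (∑ i, |⟪(stdOrthonormalBasis ℝ E) i, y⟫_ℝ| *
      ‖P (Q ((stdOrthonormalBasis ℝ E) i))‖) ^ 2 := by
        gcongr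
    _ ≤ _ := by rw [mul_comm]; exact h6

/-- Hilbert-Schmidt norm of the difference of two projections of the same rank. -/
theorem two_mul_tr (hP : IsPr P) (hQ : IsPr Q) (h : tr P = tr Q) :
    2 * tr ((1 - Q) ∘L P) = tr ((P - Q) ∘L (P - Q)) := by
  have h1 : (P - Q) ∘L (P - Q) = P - P ∘L Q - Q ∘L P + Q := by
    ext x
    simp only [ContinuousLinearMap.comp_apply, sub_apply, add_apply, map_sub, hP.idem, hQ.idem]
    abel
  have h2 : (1 - Q) ∘L P = P - Q ∘L P := by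
    ext x
    simp
  rw [h1, h2, tr_add, tr_sub, tr_sub, tr_sub, tr_comp_comm P Q, h]
  ring

theorem _root_.Crest.Agent.R234.Cacc_113.tr_sq_eq_sum {A : E →L[ℝ] E}
    (hA : ∀ x y, ⟪A x, y⟫_ℝ = ⟪x, A y⟫_ℝ) :
    tr (A ∘L A) = ∑ i, ‖A ((stdOrthonormalBasis ℝ E) i)‖ ^ 2 := by
  rw [tr, LinearMap.trace_eq_sum_inner _ (stdOrthonormalBasis ℝ E)]
  refine Finset.sum_congr rfl fun i _ => ?_
  simp only [ContinuousLinearMap.coe_coe, ContinuousLinearMap.comp_apply]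
  rw [← hA, real_inner_self_eq_norm_sq]

theorem _root_.Crest.Agent.R234.Cacc_113.norm_sq_le_tr_sq {A : E →L[ℝ] E}
    (hA : ∀ x y, ⟪A x, y⟫_ℝ = ⟪x, A y⟫_ℝ) (y : E) : ‖A y‖ ^ 2 ≤ tr (A ∘L A) * ‖y‖ ^ 2 := by
  have h4 : A y = ∑ i, ⟪(stdOrthonormalBasis ℝ E) i, y⟫_ℝ • A ((stdOrthonormalBasis ℝ E) i) := by
    conv_lhs => rw [← (stdOrthonormalBasis ℝ E).sum_repr' y]
    simp only [map_sum, map_smul]
  have h5 : ‖A y‖ ≤ ∑ i, |⟪(stdOrthonormalBasis ℝ E) i, y⟫_ℝ| *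
      ‖A ((stdOrthonormalBasis ℝ E) i)‖ := by
    rw [h4]
    refine (norm_sum_le _ _).trans (Finset.sum_le_sum fun i _ => ?_)
    rw [norm_smul, Real.norm_eq_abs]
  have h6 : (∑ i, |⟪(stdOrthonormalBasis ℝ E) i, y⟫_ℝ| *
      ‖A ((stdOrthonormalBasis ℝ E) i)‖) ^ 2 ≤
      (∑ i, |⟪(stdOrthonormalBasis ℝ E) i, y⟫_ℝ| ^ 2) *
        ∑ i, ‖A ((stdOrthonormalBasis ℝ E) i)‖ ^ 2 :=
    Finset.sum_mul_sq_le_sq_mul_sq _ _ _
  have h7 : ∑ i, |⟪(stdOrthonormalBasis ℝ E) i, y⟫_ℝ| ^ 2 = ‖y‖ ^ 2 := by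
    rw [← (stdOrthonormalBasis ℝ E).sum_sq_norm_inner_right y]
    refine Finset.sum_congr rfl fun i _ => ?_
    rw [Real.norm_eq_abs]
  rw [h7, ← tr_sq_eq_sum hA] at h6
  calc ‖A y‖ ^ 2 ≤ (∑ i, |⟪(stdOrthonormalBasis ℝ E) i, y⟫_ℝ| *
      ‖A ((stdOrthonormalBasis ℝ E) i)‖) ^ 2 := by
        gcongr
    _ ≤ _ := by rw [mul_comm]; exact h6

theorem _root_.Crest.Agent.R234.Cacc_113.opNorm_sq_le_tr_sq {A : E →L[ℝ] E}
    (hA : ∀ x y, ⟪A x, y⟫_ℝ = ⟪x, A y⟫_ℝ) : ‖A‖ ^ 2 ≤ tr (A ∘L A) := by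
  have h0 : 0 ≤ tr (A ∘L A) := by
    rw [tr_sq_eq_sum hA]; positivity
  have h1 : ‖A‖ ≤ Real.sqrt (tr (A ∘L A)) := by
    refine ContinuousLinearMap.opNorm_le_bound _ (Real.sqrt_nonneg _) fun x => ?_
    have h2 := norm_sq_le_tr_sq hA x
    refine (sq_le_sq₀ (norm_nonneg _) (by positivity)).mp ?_
    rw [mul_pow, Real.sq_sqrt h0]
    exact h2
  calc ‖A‖ ^ 2 ≤ Real.sqrt (tr (A ∘L A)) ^ 2 := by gcongr
    _ = _ := Real.sq_sqrt h0

theorem _root_.Crest.Agent.R234.Cacc_113.tr_sq_le {A : E →L[ℝ] E}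
    (hA : ∀ x y, ⟪A x, y⟫_ℝ = ⟪x, A y⟫_ℝ) : tr (A ∘L A) ≤ Module.finrank ℝ E * ‖A‖ ^ 2 := by
  rw [tr_sq_eq_sum hA]
  calc ∑ i, ‖A ((stdOrthonormalBasis ℝ E) i)‖ ^ 2 ≤ ∑ _i : Fin (Module.finrank ℝ E), ‖A‖ ^ 2 := by
        refine Finset.sum_le_sum fun i _ => ?_
        gcongr
        have := A.le_opNorm ((stdOrthonormalBasis ℝ E) i)
        simpa using this
    _ = _ := by simp

theorem sub_sa (hP : IsPr P) (hQ : IsPr Q) (x y : E) : ⟪(P - Q) x, y⟫_ℝ = ⟪x, (P - Q) y⟫_ℝ := by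
  simp [inner_sub_left, inner_sub_right, hP.sa, hQ.sa]

/-- the operator norm of the difference of two projections of the same rank is controlled by the
tilt. -/
theorem norm_sub_sq_le (hP : IsPr P) (hQ : IsPr Q) (h : tr P = tr Q) :
    ‖P - Q‖ ^ 2 ≤ 2 * tr ((1 - Q) ∘L P) := by
  rw [hP.two_mul_tr hQ h]
  exact opNorm_sq_le_tr_sq (hP.sub_sa hQ)

theorem two_mul_tr_le (hP : IsPr P) (hQ : IsPr Q) (h : tr P = tr Q) :
    2 * tr ((1 - Q) ∘L P) ≤ Module.finrank ℝ E * ‖P - Q‖ ^ 2 := by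
  rw [hP.two_mul_tr hQ h]
  exact tr_sq_le (hP.sub_sa hQ)

end IsPr

section integral

variable [MeasurableSpace E] [BorelSpace E]

/-- a general varifold (measure on pairs point, projection), stationary in `U`. -/
structure St (U : Set E) (V : Measure (E × (E →L[ℝ] E))) : Prop where
  pr : ∀ᵐ z ∂V, IsPr z.2
  fin : ∀ K ⊆ U, IsCompact K → V (K ×ˢ univ) < ⊤
  st : ∀ X : E → E, ContDiff ℝ 1 X → HasCompactSupport X → tsupport X ⊆ U →
    ∫ z, tr (fderiv ℝ X z.1 ∘L z.2) ∂V = 0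

variable {U : Set E} {V : Measure (E × (E →L[ℝ] E))}

theorem integrable_of (hpr : ∀ᵐ z ∂V, IsPr z.2) (hfin : ∀ K ⊆ U, IsCompact K → V (K ×ˢ univ) < ⊤)
    {g : E × (E →L[ℝ] E) → ℝ} (hg : AEStronglyMeasurable g V)
    {K : Set E} (hK : IsCompact K) (hKU : K ⊆ U) {C : ℝ} (hb : ∀ z, IsPr z.2 → |g z| ≤ C)
    (h0 : ∀ z : E × (E →L[ℝ] E), z.1 ∉ K → g z = 0) : Integrable g V := by
  have hs : Function.support g ⊆ K ×ˢ (univ : Set (E →L[ℝ] E)) := by
    intro z hz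
    rw [mem_prod]
    refine ⟨?_, mem_univ _⟩
    by_contra hcon
    exact hz (h0 z hcon)
  rw [← integrableOn_iff_integrable_of_support_subset hs]
  refine Measure.integrableOn_of_bounded (M := C) (hfin K hKU hK).ne hg ?_
  filter_upwards [ae_restrict_of_ae hpr] with z hz
  rw [Real.norm_eq_abs]
  exact hb z hz

/-- continuous functions with compact support in the first variable are integrable. -/
theorem St.integrable (h : St U V) {g : E × (E →L[ℝ] E) → ℝ} (hg : Continuous g)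
    {K : Set E} (hK : IsCompact K) (hKU : K ⊆ U)
    (h0 : ∀ z : E × (E →L[ℝ] E), z.1 ∉ K → g z = 0) : Integrable g V := by
  have hc : IsCompact (K ×ˢ Metric.closedBall (0 : E →L[ℝ] E) 1) :=
    hK.prod (isCompact_closedBall _ _)
  obtain ⟨C, hC⟩ := hc.exists_bound_of_continuousOn hg.continuousOn
  refine integrable_of (C := max C 0) h.pr h.fin hg.aestronglyMeasurable hK hKU ?_ h0
  intro z hz
  by_cases hzK : z.1 ∈ K
  · refine le_trans ?_ (le_max_left _ _)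
    rw [← Real.norm_eq_abs]
    exact hC z ⟨hzK, by simpa using hz.opNorm_le⟩
  · rw [h0 z hzK]; simp

theorem tr_fderiv_mul {φ : E → ℝ} (hφ : ContDiff ℝ 1 φ) (q : E →L[ℝ] E) (x₀ x : E)
    (P : E →L[ℝ] E) :
    tr (fderiv ℝ (fun x => φ x • q (x - x₀)) x ∘L P) =
      fderiv ℝ φ x (P (q (x - x₀))) + φ x * tr (q ∘L P) := by
  have h1 : HasFDerivAt (fun x => φ x • q (x - x₀))
      (φ x • q + (fderiv ℝ φ x).smulRight (q (x - x₀))) x := by
    have h2 : HasFDerivAt φ (fderiv ℝ φ x) x := (hφ.differentiable one_ne_zero x).hasFDerivAt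
    have h3 : HasFDerivAt (fun x => q (x - x₀)) q x := by
      have h4 : HasFDerivAt (fun x => q x - q x₀) q x := q.hasFDerivAt.sub_const _
      simpa only [map_sub] using h4
    exact h2.smul h3
  rw [h1.fderiv, ContinuousLinearMap.add_comp, tr_add, tr_smulRight_comp,
    ContinuousLinearMap.smul_comp, tr_smul]
  ring

/-- the basic identity. -/
theorem St.identity (h : St U V) {φ : E → ℝ} (hφ : ContDiff ℝ 1 φ) (hc : HasCompactSupport φ)
    (hs : tsupport φ ⊆ U) (q : E →L[ℝ] E) (x₀ : E) :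
    ∫ z, φ z.1 * tr (q ∘L z.2) ∂V = - ∫ z, fderiv ℝ φ z.1 (z.2 (q (z.1 - x₀))) ∂V := by
  have h1 := h.st (fun x => φ x • q (x - x₀)) ?_ ?_ ?_
  · have hi1 : Integrable (fun z : E × (E →L[ℝ] E) => fderiv ℝ φ z.1 (z.2 (q (z.1 - x₀)))) V := by
      refine h.integrable ?_ hc.isCompact hs ?_
      · have h2 : Continuous (fderiv ℝ φ) := hφ.continuous_fderiv one_ne_zero
        exact (h2.comp continuous_fst).clm_apply
          (continuous_snd.clm_apply (q.continuous.comp (continuous_fst.sub continuous_const)))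
      · intro z hz
        have : fderiv ℝ φ z.1 = 0 := by
          by_contra hcon
          exact hz (support_fderiv_subset ℝ hcon)
        rw [this]; simp
    have hi2 : Integrable (fun z : E × (E →L[ℝ] E) => φ z.1 * tr (q ∘L z.2)) V := by
      refine h.integrable ?_ hc.isCompact hs ?_
      · refine (hφ.continuous.comp continuous_fst).mul (continuous_tr.comp ?_)
        exact continuous_const.clm_comp continuous_snd
      · intro z hz
        rw [image_eq_zero_of_notMem_tsupport hz, zero_mul]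
    simp_rw [tr_fderiv_mul hφ] at h1
    rw [integral_add hi1 hi2] at h1
    linarith
  · exact hφ.smul (q.contDiff.comp (contDiff_id.sub contDiff_const))
  · exact hc.smul_right
  · exact (tsupport_smul_subset_left _ _).trans hs

theorem aux_ineq {a d t D n : ℝ} (ht : 0 ≤ t) (h : d ^ 2 ≤ D ^ 2 * (t * n ^ 2)) :
    -(2 * a * d) ≤ 1 / 2 * (a ^ 2 * t) + 2 * (D ^ 2 * n ^ 2) := by
  have h1 : (2 * a * d) ^ 2 ≤ (1 / 2 * (a ^ 2 * t) + 2 * (D ^ 2 * n ^ 2)) ^ 2 := by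
    have h2 : a ^ 2 * d ^ 2 ≤ a ^ 2 * (D ^ 2 * (t * n ^ 2)) := by gcongr
    nlinarith [sq_nonneg (1 / 2 * (a ^ 2 * t) - 2 * (D ^ 2 * n ^ 2))]
  have h3 : 0 ≤ 1 / 2 * (a ^ 2 * t) + 2 * (D ^ 2 * n ^ 2) := by positivity
  have h4 := abs_le_of_sq_le_sq h1 h3
  have h5 := neg_abs_le (2 * a * d)
  linarith

/-- **Caccioppoli inequality**: the tilt excess is controlled by the height excess. -/
theorem St.caccioppoli (h : St U V) {η : E → ℝ} (hη : ContDiff ℝ 1 η) (hc : HasCompactSupport η)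
    (hs : tsupport η ⊆ U) {q : E →L[ℝ] E} (hq : IsPr q) (x₀ : E) :
    ∫ z, η z.1 ^ 2 * tr (q ∘L z.2) ∂V ≤
      4 * ∫ z, ‖fderiv ℝ η z.1‖ ^ 2 * ‖q (z.1 - x₀)‖ ^ 2 ∂V := by
  have hφ : ContDiff ℝ 1 (fun x => η x ^ 2) := hη.pow 2
  have hts : tsupport (fun x => η x ^ 2) ⊆ tsupport η := by
    have : (fun x => η x ^ 2) = fun x => η x • η x := by funext x; simp [sq]
    rw [this]
    exact tsupport_smul_subset_left _ _
  have hcφ : HasCompactSupport (fun x => η x ^ 2) := by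
    have : (fun x => η x ^ 2) = fun x => η x • η x := by funext x; simp [sq]
    rw [this]
    exact hc.smul_right
  have hid := h.identity hφ hcφ (hts.trans hs) q x₀
  have hder : ∀ x, fderiv ℝ (fun x => η x ^ 2) x = (2 * η x) • fderiv ℝ η x := by
    intro x
    have h2 : HasFDerivAt η (fderiv ℝ η x) x := (hη.differentiable one_ne_zero x).hasFDerivAt
    have := h2.pow 2
    rw [this.fderiv]
    simp
  simp_rw [hder, smul_apply, smul_eq_mul] at hid
  have hfd0 : ∀ z : E × (E →L[ℝ] E), z.1 ∉ tsupport η → fderiv ℝ η z.1 = 0 := by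
    intro z hz
    by_contra hcon
    exact hz (support_fderiv_subset ℝ hcon)
  have hcf : Continuous (fderiv ℝ η) := hη.continuous_fderiv one_ne_zero
  have hi1 : Integrable (fun z : E × (E →L[ℝ] E) => η z.1 ^ 2 * tr (q ∘L z.2)) V := by
    refine h.integrable ?_ hc.isCompact hs ?_
    · refine ((hη.continuous.comp continuous_fst).pow 2).mul (continuous_tr.comp ?_)
      exact continuous_const.clm_comp continuous_snd
    · intro z hz
      rw [image_eq_zero_of_notMem_tsupport hz]; simp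
  have hi2 : Integrable (fun z : E × (E →L[ℝ] E) =>
      ‖fderiv ℝ η z.1‖ ^ 2 * ‖q (z.1 - x₀)‖ ^ 2) V := by
    refine h.integrable ?_ hc.isCompact hs ?_
    · exact ((hcf.comp continuous_fst).norm.pow 2).mul
        ((q.continuous.comp (continuous_fst.sub continuous_const)).norm.pow 2)
    · intro z hz
      rw [hfd0 z hz]; simp
  have hi3 : Integrable (fun z : E × (E →L[ℝ] E) =>
      2 * η z.1 * fderiv ℝ η z.1 (z.2 (q (z.1 - x₀)))) V := by
    refine h.integrable ?_ hc.isCompact hs ?_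
    · refine (continuous_const.mul (hη.continuous.comp continuous_fst)).mul ?_
      exact (hcf.comp continuous_fst).clm_apply
          (continuous_snd.clm_apply (q.continuous.comp (continuous_fst.sub continuous_const)))
    · intro z hz
      rw [hfd0 z hz]; simp
  have hle : - ∫ z, 2 * η z.1 * fderiv ℝ η z.1 (z.2 (q (z.1 - x₀))) ∂V ≤
      ∫ z, (1 / 2 * (η z.1 ^ 2 * tr (q ∘L z.2)) +
        2 * (‖fderiv ℝ η z.1‖ ^ 2 * ‖q (z.1 - x₀)‖ ^ 2)) ∂V := by
    rw [← integral_neg]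
    refine integral_mono_ae hi3.neg ((hi1.const_mul _).add (hi2.const_mul _)) ?_
    filter_upwards [h.pr] with z hz
    refine aux_ineq (IsPr.tr_nonneg_conj hz hq) ?_
    have h1 : |fderiv ℝ η z.1 (z.2 (q (z.1 - x₀)))| ≤
        ‖fderiv ℝ η z.1‖ * ‖z.2 (q (z.1 - x₀))‖ := by
      rw [← Real.norm_eq_abs]
      exact ContinuousLinearMap.le_opNorm _ _
    have h2 := hz.norm_sq_le hq (hq.idem (z.1 - x₀))
    calc fderiv ℝ η z.1 (z.2 (q (z.1 - x₀))) ^ 2
        = |fderiv ℝ η z.1 (z.2 (q (z.1 - x₀)))| ^ 2 := by rw [sq_abs]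
      _ ≤ (‖fderiv ℝ η z.1‖ * ‖z.2 (q (z.1 - x₀))‖) ^ 2 := by gcongr
      _ = ‖fderiv ℝ η z.1‖ ^ 2 * ‖z.2 (q (z.1 - x₀))‖ ^ 2 := by ring
      _ ≤ _ := by gcongr
  rw [integral_add (hi1.const_mul _) (hi2.const_mul _), integral_const_mul,
    integral_const_mul] at hle
  rw [← hid] at hle
  linarith

end integral

end Crest.Agent.R234.Cacc_113
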