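import Crest.Agent.R234.Al4_182
import Crest.Agent.R234.Al5_182
import Crest.Agent.R234.Cacc_113

/-!
R234 (helper182), VF-ALLARD part 6: NO HOLES for stationary varifolds of mass ratio close to one
near a plane (local form), from the mean value property for linear functions.
-/

open MeasureTheory Metric Set Filter Topology
open scoped ContDiff RealInnerProductSpace

namespace Crest.Agent.R234.Al6_182

open Crest.Agent.R234.Al4_182 Crest.Agent.R234.Cacc_113

noncomputable section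

set_option linter.unusedSectionVars false

variable {E : Type*} [NormedAddCommGroup E] [InnerProductSpace ℝ E] [FiniteDimensional ℝ E]

lemma isPr_starProjection (T : Submodule ℝ E) : IsPr T.starProjection := by
  refine ⟨fun x => ?_, fun x y => ?_⟩
  · exact Submodule.starProjection_eq_self_iff.2 (Submodule.starProjection_apply_mem T x)
  · rw [← ContinuousLinearMap.adjoint_inner_right, (isSelfAdjoint_starProjection T).adjoint_eq]

lemma tr_starProjection (T : Submodule ℝ E) : tr T.starProjection = Module.finrank ℝ T := by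
  have hp : LinearMap.IsProj T T.starProjection.toLinearMap := by
    refine ⟨fun x => ?_, fun x hx => ?_⟩
    · exact Submodule.starProjection_apply_mem T x
    · exact Submodule.starProjection_eq_self_iff.2 hx
  rw [tr, hp.trace]

lemma starProjection_compl (T : Submodule ℝ E) : Tᗮ.starProjection = 1 - T.starProjection := by
  ext x
  have := Submodule.starProjection_add_starProjection_orthogonal (K := T) x
  simp only [sub_apply, one_apply_eq_self]
  rw [← this]
  simp

/-- the defect of a unit horizontal vector is controlled by the tilt -/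
lemma one_sub_inner_le {T : Submodule ℝ E} {P : E →L[ℝ] E} (hP : IsPr P)
    (htr : tr P = Module.finrank ℝ T) {e : E} (he : e ∈ T) (hen : ‖e‖ = 1) :
    1 - (inner ℝ e (P e) : ℝ) ≤ tr (Tᗮ.starProjection ∘L P) := by
  have h1 := hP.compl.norm_sq_le (isPr_starProjection T)
    (y := e) (Submodule.starProjection_eq_self_iff.2 he)
  rw [hen, one_pow, mul_one] at h1
  have h2 : ‖(1 - P) e‖ ^ 2 = 1 - (inner ℝ e (P e) : ℝ) := by
    rw [← hP.compl.inner_self]
    simp only [sub_apply, one_apply_eq_self]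
    rw [inner_sub_right, real_inner_self_eq_norm_sq, hen, one_pow]
  have h3 : tr (T.starProjection ∘L (1 - P)) = tr (Tᗮ.starProjection ∘L P) := by
    have e1 : T.starProjection ∘L (1 - P) = T.starProjection - T.starProjection ∘L P := by
      ext x; simp
    have e2 : Tᗮ.starProjection ∘L P = P - T.starProjection ∘L P := by
      rw [starProjection_compl]; ext x; simp
    rw [e1, e2, tr_sub, tr_sub, tr_starProjection, htr]
  rw [← h2, ← h3]
  exact h1

variable [MeasurableSpace E] [BorelSpace E]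

lemma ker2_eq_sq (X₀ : E) (r : ℝ) (x : E) : ker 2 X₀ r x = ker 1 X₀ r x ^ 2 := by
  simp [Al4_182.ker, ph]

lemma tsupport_ker {p : ℕ} (hp : p ≠ 0) (X₀ : E) {r : ℝ} (hr : 0 < r) :
    tsupport (ker p X₀ r) ⊆ closedBall X₀ r := by
  refine closure_minimal ?_ isClosed_closedBall
  intro x hx
  rw [mem_closedBall, dist_eq_norm]
  by_contra hcon
  exact hx (ker_zero hp hr (not_le.1 hcon).le)

lemma hasCompactSupport_ker {p : ℕ} (hp : p ≠ 0) (X₀ : E) {r : ℝ} (hr : 0 < r) :
    HasCompactSupport (ker p X₀ r) :=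
  (isCompact_closedBall X₀ r).of_isClosed_subset (isClosed_tsupport _) (tsupport_ker hp X₀ hr)

variable {U : Set E} {V : Measure (E × (E →L[ℝ] E))}

/-- tilt bound from the height bound -/
lemma tilt_le (hSt : St U V) {T : Submodule ℝ E} {X₀ : E} {r : ℝ} (hr : 0 < r)
    (hball : closedBall X₀ (2 * r) ⊆ U) {lam A : ℝ}
    (hflat : ∀ᵐ z ∂V, z.1 ∈ ball X₀ (2 * r) →
      ‖Tᗮ.starProjection (z.1 - X₀)‖ ≤ lam * ‖z.1 - X₀‖)
    (hA : ∫ z, ker 2 X₀ (2 * r) z.1 ∂V ≤ A) :
    ∫ z, ker 2 X₀ r z.1 * tr (Tᗮ.starProjection ∘L z.2) ∂V ≤ 203 * lam ^ 2 * A := by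
  have h2r : 0 < 2 * r := by linarith
  set η : E → ℝ := fun x => 16 / 9 * ker 2 X₀ (2 * r) x with hη
  have hη1 : ContDiff ℝ 1 η := contDiff_const.mul (contDiff_ker2 X₀ (2 * r))
  have hts : tsupport η ⊆ closedBall X₀ (2 * r) := by
    refine closure_minimal ?_ isClosed_closedBall
    intro x hx
    rw [mem_closedBall, dist_eq_norm]
    by_contra hcon
    apply hx
    simp only [hη]
    rw [ker_zero two_ne_zero h2r (not_le.1 hcon).le, mul_zero]
  have hcs : HasCompactSupport η :=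
    (isCompact_closedBall X₀ (2 * r)).of_isClosed_subset (isClosed_tsupport _) hts
  have hfd : ∀ x, fderiv ℝ η x
      = (16 / 9 * (-4 * ker 1 X₀ (2 * r) x / (2 * r) ^ 2)) • innerSL ℝ (x - X₀) := by
    intro x
    have h1 := (hasFDerivAt_ker2 X₀ (2 * r) x).const_mul (16 / 9)
    have h2 : HasFDerivAt η ((16 / 9 * (-4 * ker 1 X₀ (2 * r) x / (2 * r) ^ 2)) •
        innerSL ℝ (x - X₀)) x := by
      refine h1.congr_fderiv ?_
      rw [smul_smul]
    exact h2.fderiv
  have hcac := hSt.caccioppoli hη1 hcs (hts.trans hball) (isPr_starProjection Tᗮ) X₀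
  have hi0 : Integrable (fun z : E × (E →L[ℝ] E) => ker 2 X₀ r z.1 *
      tr (Tᗮ.starProjection ∘L z.2)) V := by
    refine hSt.integrable ?_ (isCompact_closedBall X₀ (2 * r)) hball ?_
    · exact ((continuous_ker 2 X₀ r).comp continuous_fst).mul
        (continuous_tr.comp (continuous_const.clm_comp continuous_snd))
    · intro z hz
      rw [mem_closedBall, dist_eq_norm, not_le] at hz
      rw [ker_zero two_ne_zero hr (by linarith), zero_mul]
  have hi1 : Integrable (fun z : E × (E →L[ℝ] E) => η z.1 ^ 2 *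
      tr (Tᗮ.starProjection ∘L z.2)) V := by
    refine hSt.integrable ?_ (isCompact_closedBall X₀ (2 * r)) hball ?_
    · exact ((hη1.continuous.comp continuous_fst).pow 2).mul
        (continuous_tr.comp (continuous_const.clm_comp continuous_snd))
    · intro z hz
      rw [mem_closedBall, dist_eq_norm, not_le] at hz
      simp only [hη]
      rw [ker_zero two_ne_zero h2r hz.le]; simp
  have hi2 : Integrable (fun z : E × (E →L[ℝ] E) => ‖fderiv ℝ η z.1‖ ^ 2 *
      ‖Tᗮ.starProjection (z.1 - X₀)‖ ^ 2) V := by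
    refine hSt.integrable ?_ (isCompact_closedBall X₀ (2 * r)) hball ?_
    · exact ((((hη1.continuous_fderiv one_ne_zero).comp continuous_fst).norm).pow 2).mul
        ((Tᗮ.starProjection.continuous.comp (continuous_fst.sub continuous_const)).norm.pow 2)
    · intro z hz
      rw [mem_closedBall, dist_eq_norm, not_le] at hz
      rw [hfd, ker_zero one_ne_zero h2r hz.le]; simp
  have hi3 : Integrable (fun z : E × (E →L[ℝ] E) => ker 2 X₀ (2 * r) z.1) V := by
    refine hSt.integrable ((continuous_ker 2 X₀ (2 * r)).comp continuous_fst)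
      (isCompact_closedBall X₀ (2 * r)) hball ?_
    intro z hz
    rw [mem_closedBall, dist_eq_norm, not_le] at hz
    exact ker_zero two_ne_zero h2r hz.le
  have h1 : ∫ z, ker 2 X₀ r z.1 * tr (Tᗮ.starProjection ∘L z.2) ∂V
      ≤ ∫ z, η z.1 ^ 2 * tr (Tᗮ.starProjection ∘L z.2) ∂V := by
    refine integral_mono_ae hi0 hi1 ?_
    filter_upwards [hSt.pr] with z hz
    have h2 := ker1_le_ker2 (X₀ := X₀) hr z.1
    have h3 := ker_nonneg 1 X₀ r z.1
    have h4 : ker 2 X₀ r z.1 ≤ η z.1 ^ 2 := by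
      rw [ker2_eq_sq]
      exact pow_le_pow_left₀ h3 h2 2
    exact mul_le_mul_of_nonneg_right h4 (IsPr.tr_nonneg_conj hz (isPr_starProjection Tᗮ))
  have h2 : ∫ z, ‖fderiv ℝ η z.1‖ ^ 2 * ‖Tᗮ.starProjection (z.1 - X₀)‖ ^ 2 ∂V
      ≤ ∫ z, (4096 / 81 * lam ^ 2) * ker 2 X₀ (2 * r) z.1 ∂V := by
    refine integral_mono_ae hi2 (hi3.const_mul _) ?_
    filter_upwards [hflat] with z hz
    by_cases hk : ker 1 X₀ (2 * r) z.1 = 0
    · have h0 : fderiv ℝ η z.1 = 0 := by rw [hfd, hk]; simp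
      rw [h0, norm_zero, zero_pow two_ne_zero, zero_mul]
      have := ker_nonneg 2 X₀ (2 * r) z.1
      positivity
    · have hzb : z.1 ∈ ball X₀ (2 * r) := by
        rw [mem_ball, dist_eq_norm]
        by_contra hcon
        exact hk (ker_zero one_ne_zero h2r (not_lt.1 hcon))
      have h3 := hz hzb
      have h4 : ‖z.1 - X₀‖ ≤ 2 * r := norm_le_of_ker1 h2r hk
      have h5 : ‖fderiv ℝ η z.1‖ ≤ 16 / 9 * (ker 1 X₀ (2 * r) z.1 / r ^ 2) * ‖z.1 - X₀‖ := by
        rw [hfd, norm_smul, innerSL_apply_norm, Real.norm_eq_abs]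
        have h6 := ker_nonneg 1 X₀ (2 * r) z.1
        have h7 : |16 / 9 * (-4 * ker 1 X₀ (2 * r) z.1 / (2 * r) ^ 2)|
            = 16 / 9 * (ker 1 X₀ (2 * r) z.1 / r ^ 2) := by
          have h8 : 16 / 9 * (-4 * ker 1 X₀ (2 * r) z.1 / (2 * r) ^ 2)
              = -(16 / 9 * (ker 1 X₀ (2 * r) z.1 / r ^ 2)) := by
            field_simp
            ring
          rw [h8, abs_neg, abs_of_nonneg (by positivity)]
        rw [h7]
      have hk1 := ker_nonneg 1 X₀ (2 * r) z.1
      have h6 : ‖fderiv ℝ η z.1‖ ^ 2 ≤ (16 / 9 * (ker 1 X₀ (2 * r) z.1 / r ^ 2) * (2 * r)) ^ 2 := by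
        refine pow_le_pow_left₀ (norm_nonneg _) (h5.trans ?_) 2
        gcongr
      have h7 : ‖Tᗮ.starProjection (z.1 - X₀)‖ ^ 2 ≤ (lam * ‖z.1 - X₀‖) ^ 2 :=
        pow_le_pow_left₀ (norm_nonneg _) h3 2
      have h8 : (lam * ‖z.1 - X₀‖) ^ 2 ≤ lam ^ 2 * (2 * r) ^ 2 := by
        rw [mul_pow]
        gcongr
      calc ‖fderiv ℝ η z.1‖ ^ 2 * ‖Tᗮ.starProjection (z.1 - X₀)‖ ^ 2
          ≤ (16 / 9 * (ker 1 X₀ (2 * r) z.1 / r ^ 2) * (2 * r)) ^ 2 * (lam ^ 2 * (2 * r) ^ 2) := by
            gcongr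
            exact h7.trans h8
        _ = (4096 / 81 * lam ^ 2) * ker 2 X₀ (2 * r) z.1 := by
            rw [ker2_eq_sq]
            field_simp
            ring
  rw [integral_const_mul] at h2
  have h3 : (4096 / 81 * lam ^ 2) * ∫ z, ker 2 X₀ (2 * r) z.1 ∂V ≤ (4096 / 81 * lam ^ 2) * A := by
    gcongr
  have hA0 : 0 ≤ A := by
    refine le_trans ?_ hA
    exact integral_nonneg fun z => ker_nonneg _ _ _ _
  have h4 : 0 ≤ lam ^ 2 * A := by positivity
  linarith

/-- **NO HOLES**, local form -/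
theorem no_hole_local (hSt : St U V) {T : Submodule ℝ E} {m : ℕ} (hm : Module.finrank ℝ T = m)
    (htr : ∀ᵐ z ∂V, tr z.2 = m) {S : Set E} {X₀ : E} {R : ℝ} (hR : 0 < R)
    (hball : closedBall X₀ R ⊆ U) {θ δ lam : ℝ} (hθ : 0 < θ) (hδ : 0 ≤ δ)
    (hδm : 64 * 2 ^ m * δ ≤ 1) (hlam : 2048 * 2 ^ m * lam ^ 2 ≤ 1)
    (hlow : ∀ r, 0 < r → r ≤ R → θ * r ^ m ≤ ∫ z, ker 2 X₀ r z.1 ∂V)
    (hup : ∀ r, 0 < r → r ≤ R → ∫ z, ker 2 X₀ r z.1 ∂V ≤ (1 + δ) * θ * r ^ m)
    {e : E} (he : e ∈ T) (hen : ‖e‖ = 1)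
    (hmv : ∀ r, 0 < r → r ≤ R →
      |∫ z, ker 2 X₀ r z.1 * inner ℝ (z.1 - X₀) e ∂V| ≤ δ * θ * r ^ m * r)
    (hS : ∀ᵐ z ∂V, z.1 ∈ ball X₀ R → z.1 ∈ S)
    (hflat : ∀ y ∈ S, y ∈ ball X₀ R → ‖Tᗮ.starProjection (y - X₀)‖ ≤ lam * ‖y - X₀‖)
    {d ρ : ℝ} (hd : 0 < d) (hρ : 0 < ρ) :
    ∃ Z ∈ S, ‖Z - X₀‖ < ρ ∧ ‖Z - X₀‖ ^ 2 / (2 * d) < inner ℝ (Z - X₀) e := by
  by_contra hcon
  push Not at hcon
  obtain ⟨r, hr, hrR, hrρ, hrd⟩ : ∃ r : ℝ, 0 < r ∧ 2 * r ≤ R ∧ 2 * r ≤ ρ ∧
      256 * 2 ^ m * r ≤ d := by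
    refine ⟨min (R / 2) (min (ρ / 2) (d / (256 * 2 ^ m))), by positivity, ?_, ?_, ?_⟩
    · have := min_le_left (R / 2) (min (ρ / 2) (d / (256 * 2 ^ m)))
      linarith
    · have := (min_le_right (R / 2) (min (ρ / 2) (d / (256 * 2 ^ m)))).trans (min_le_left _ _)
      linarith
    · have := (min_le_right (R / 2) (min (ρ / 2) (d / (256 * 2 ^ m)))).trans (min_le_right _ _)
      rw [le_div_iff₀ (by positivity)] at this
      linarith
  have h2r : 0 < 2 * r := by linarith
  have hb2 : closedBall X₀ (2 * r) ⊆ U := (closedBall_subset_closedBall hrR).trans hball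
  have hδ1 : δ ≤ 1 / 64 := by
    have h1 : (1 : ℝ) ≤ 2 ^ m := one_le_pow₀ (by norm_num)
    nlinarith
  have hpm : (0 : ℝ) < 2 ^ m := by positivity
  -- tilt
  have htilt : ∫ z, ker 2 X₀ r z.1 * (1 - inner ℝ e (z.2 e)) ∂V ≤ (θ / 4) * r ^ m := by
    have h1 : ∫ z, ker 2 X₀ r z.1 * (1 - inner ℝ e (z.2 e)) ∂V
        ≤ ∫ z, ker 2 X₀ r z.1 * tr (Tᗮ.starProjection ∘L z.2) ∂V := by
      refine integral_mono_ae ?_ ?_ ?_
      · refine hSt.integrable ?_ (isCompact_closedBall X₀ (2 * r)) hb2 ?_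
        · exact ((continuous_ker 2 X₀ r).comp continuous_fst).mul
            (continuous_const.sub (continuous_const.inner
              (continuous_snd.clm_apply continuous_const)))
        · intro z hz
          rw [mem_closedBall, dist_eq_norm, not_le] at hz
          rw [ker_zero two_ne_zero hr (by linarith), zero_mul]
      · refine hSt.integrable ?_ (isCompact_closedBall X₀ (2 * r)) hb2 ?_
        · exact ((continuous_ker 2 X₀ r).comp continuous_fst).mul
            (continuous_tr.comp (continuous_const.clm_comp continuous_snd))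
        · intro z hz
          rw [mem_closedBall, dist_eq_norm, not_le] at hz
          rw [ker_zero two_ne_zero hr (by linarith), zero_mul]
      · filter_upwards [hSt.pr, htr] with z hz hz2
        refine mul_le_mul_of_nonneg_left ?_ (ker_nonneg _ _ _ _)
        exact one_sub_inner_le hz (by rw [hz2, hm]) he hen
    have h2 := tilt_le hSt (T := T) hr hb2 (lam := lam) (A := (1 + δ) * θ * (2 * r) ^ m) (by
      filter_upwards [hS] with z hz hzb
      have hzb' : z.1 ∈ ball X₀ R := ball_subset_ball hrR hzb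
      exact hflat z.1 (hz hzb') hzb') (hup (2 * r) h2r hrR)
    refine (h1.trans h2).trans ?_
    have h3 : 203 * lam ^ 2 * ((1 + δ) * θ * (2 * r) ^ m)
        = (203 * (1 + δ) * (2 ^ m * lam ^ 2)) * (θ * r ^ m) := by
      rw [mul_pow]; ring
    rw [h3]
    have h4 : 203 * (1 + δ) * (2 ^ m * lam ^ 2) ≤ 1 / 4 := by
      have h5 : 2 ^ m * lam ^ 2 ≤ 1 / 2048 := by linarith
      have h6 : 0 ≤ 2 ^ m * lam ^ 2 := by positivity
      nlinarith
    have h7 : 0 ≤ θ * r ^ m := by positivity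
    calc 203 * (1 + δ) * (2 ^ m * lam ^ 2) * (θ * r ^ m) ≤ 1 / 4 * (θ * r ^ m) := by gcongr
      _ = θ / 4 * r ^ m := by ring
  have hst : ∫ z, LinearMap.trace ℝ E
      ((fderiv ℝ (fun y => tf X₀ r e y • e) z.1).comp z.2).toLinearMap ∂V = 0 := by
    have hsub : Function.support (fun y => tf X₀ r e y • e) ⊆ closedBall X₀ r := by
      intro x hx
      rw [mem_closedBall, dist_eq_norm]
      by_contra hc
      apply hx
      simp only [tf]
      rw [ker_zero two_ne_zero hr (not_le.1 hc).le]; simp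
    have hts : tsupport (fun y => tf X₀ r e y • e) ⊆ closedBall X₀ r :=
      closure_minimal hsub isClosed_closedBall
    have := hSt.st (fun y => tf X₀ r e y • e) ((contDiff_tf X₀ r e).smul contDiff_const)
      ((isCompact_closedBall X₀ r).of_isClosed_subset (isClosed_tsupport _) hts)
      (hts.trans ((closedBall_subset_closedBall (by linarith)).trans hball))
    exact this
  have hfin : V (closedBall X₀ (2 * r) ×ˢ univ) < ⊤ := hSt.fin _ hb2 (isCompact_closedBall _ _)
  have hone : ∀ᵐ z ∂V, z.1 ∈ ball X₀ (2 * r) →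
      inner ℝ (z.1 - X₀) e ≤ (2 * r) ^ 2 / (2 * d) := by
    filter_upwards [hS] with z hz hzb
    have hzb' : z.1 ∈ ball X₀ R := ball_subset_ball hrR hzb
    rw [mem_ball, dist_eq_norm] at hzb
    refine (hcon z.1 (hz hzb') (hzb.trans_le hrρ)).trans ?_
    gcongr
  have hP1 : ∀ᵐ z ∂V, ‖z.2‖ ≤ 1 := by
    filter_upwards [hSt.pr] with z hz
    exact hz.opNorm_le
  have key := no_hole_ineq hr hen hfin hP1 hst m (θ := θ) (δ := δ) (τ := θ / 4)
    (κ := (2 * r) ^ 2 / (2 * d)) (by positivity) (hlow r hr (by linarith))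
    (hup (2 * r) h2r hrR) (hmv (2 * r) h2r hrR) htilt hone
  have h5 : 4 / r * (16 / 9 * (2 * ((2 * r) ^ 2 / (2 * d)) * ((1 + δ) * θ * (2 * r) ^ m)
      + δ * θ * (2 * r) ^ m * (2 * r)))
      = (256 / 9 * (1 + δ) * (2 ^ m * r / d) + 128 / 9 * (2 ^ m * δ)) * (θ * r ^ m) := by
    rw [mul_pow (2 : ℝ) r m]
    field_simp
    ring
  rw [h5] at key
  have h6 : 2 ^ m * r / d ≤ 1 / 256 := by
    rw [div_le_iff₀ hd]; linarith
  have h7 : 0 ≤ 2 ^ m * r / d := by positivity
  have h8 : 2 ^ m * δ ≤ 1 / 64 := by linarith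
  have h9 : 256 / 9 * (1 + δ) * (2 ^ m * r / d) + 128 / 9 * (2 ^ m * δ) ≤ 1 / 2 := by
    nlinarith
  have h10 : 0 < θ * r ^ m := by positivity
  have h11 := mul_le_mul_of_nonneg_right h9 h10.le
  nlinarith

end

end Crest.Agent.R234.Al6_182
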