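import Crest.Agent.R234.Al5_640

set_option autoImplicit false

/-!
Row 234, VF-ALLARD, part 6 (helper640): the iteration.  `flat_pt`: at a point `x₁` of `S` there is
a linear map `G'` with `‖G' - G‖ ≤ C ε/ρ` and `‖G' (y - x₁)‖ ≤ C ε (‖y - x₁‖/ρ)^(1+a)` for all
`y ∈ S ∩ ball x₁ ρ`.
-/

open MeasureTheory Crest.GeometryTopology.Submanifold Filter Topology Metric Set
open scoped ENNReal InnerProductSpace
open Crest.Agent.R234.Vf_884

noncomputable section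

namespace Crest.Agent.R234.Al1_640

/-- choice of the ratio of the radii -/
theorem exists_ratio (m : ℕ) {a : ℝ} (_ha : 0 < a) (ha1 : a < 1) :
    ∃ η : ℝ, 0 < η ∧ η ≤ 1 / 8 ∧ 2640 * 2 ^ m * η ^ 2 ≤ η ^ (1 + a) / 2 := by
  have h1 : Tendsto (fun η : ℝ => 5280 * 2 ^ m * η ^ (1 - a)) (𝓝[>] 0) (𝓝 (5280 * 2 ^ m * 0)) := by
    refine Tendsto.const_mul _ ?_
    have := (Real.continuousAt_rpow_const 0 (1 - a) (Or.inr (by linarith))).tendsto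
    rw [Real.zero_rpow (by linarith)] at this
    exact this.mono_left nhdsWithin_le_nhds
  rw [mul_zero] at h1
  have h2 : ∀ᶠ η : ℝ in 𝓝[>] 0, 5280 * 2 ^ m * η ^ (1 - a) < 1 :=
    h1.eventually (Iio_mem_nhds one_pos)
  have h3 : ∀ᶠ η : ℝ in 𝓝[>] 0, η ∈ Ioc (0:ℝ) (1 / 8) := Ioc_mem_nhdsGT (by norm_num)
  obtain ⟨η, h4, h5⟩ := (h2.and h3).exists
  refine ⟨η, h5.1, h5.2, ?_⟩
  have h6 : η ^ 2 = η ^ (1 - a) * η ^ (1 + a) := by
    rw [← Real.rpow_add h5.1, ← Real.rpow_natCast]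
    congr 1
    push_cast
    ring
  have h7 : 0 < η ^ (1 + a) := Real.rpow_pos_of_pos h5.1 _
  rw [h6]
  nlinarith

variable {m k : ℕ} {U : Set (Euc k)} {V : Measure (Euc k × L k)}

variable {F : Type*} [NormedAddCommGroup F] [InnerProductSpace ℝ F] [CompleteSpace F]

/-- the iteration -/
theorem iter (hV : Stat m k U V) {S : Set (Euc k)} (hS : ∀ᵐ p ∂V, p.1 ∈ U → p.1 ∈ S)
    {x1 : Euc k} {ρ θ δ ε a η : ℝ} (hρ : 0 < ρ) (hU : ball x1 ρ ⊆ U) (hθ : 0 < θ)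
    (hη : 0 < η) (hη8 : η ≤ 1 / 8) (hη2 : 2640 * 2 ^ m * η ^ 2 ≤ η ^ (1 + a) / 2)
    (hδ : δ ≤ 1) (hδ2 : δ ≤ η ^ (1 + a) / 2)
    (hP : Pin m V S x1 ρ θ δ) (hx1 : x1 ∈ S) (b : F) (G : Euc k →L[ℝ] F)
    (hg : ∀ x ∈ S, x ∈ ball x1 ρ → ‖b + G x‖ ≤ ε) :
    ∃ s : ℕ → F × (Euc k →L[ℝ] F), s 0 = (b, G) ∧
      (∀ j, ∀ x ∈ S, x ∈ ball x1 ρ → ‖x - x1‖ ≤ η ^ j * ρ →
        ‖(s j).1 + (s j).2 x‖ ≤ (η ^ (1 + a)) ^ j * ε) ∧
      ∀ j, ‖(s (j + 1)).2 - (s j).2‖ ≤ 176 * 2 ^ m * (ε / ρ) * (η ^ a) ^ j := by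
  have hε : 0 ≤ ε := (norm_nonneg _).trans (hg x1 hx1 (mem_ball_self hρ))
  set κ := η ^ (1 + a) with hκ
  have hκ0 : 0 < κ := Real.rpow_pos_of_pos hη _
  have hκη : κ = η * η ^ a := by rw [hκ, Real.rpow_add hη, Real.rpow_one]
  let good : ℕ → F × (Euc k →L[ℝ] F) → Prop := fun j q =>
    ∀ x ∈ S, x ∈ ball x1 ρ → ‖x - x1‖ ≤ η ^ j * ρ → ‖q.1 + q.2 x‖ ≤ κ ^ j * ε
  have hstep : ∀ j q, good j q → ∃ q', good (j + 1) q' ∧
      ‖q'.2 - q.2‖ ≤ 176 * 2 ^ m * (ε / ρ) * (η ^ a) ^ j := by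
    intro j q hq
    have hηj : 0 < η ^ j := pow_pos hη j
    have hηj1 : η ^ j ≤ 1 := pow_le_one₀ hη.le (by linarith)
    have hρj : 0 < η ^ j * ρ := by positivity
    have hρj1 : η ^ j * ρ ≤ ρ := by nlinarith
    obtain ⟨b', G', h1, h2⟩ := step hV hS (ρ := η ^ j * ρ) (θ := θ) (δ := δ)
      (ε := κ ^ j * ε) hρj ((ball_subset_ball hρj1).trans hU) hθ hδ (hP.anti hρj1) hx1 q.1 q.2
      (fun x hx hxb => hq x hx (ball_subset_ball hρj1 hxb) (by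
        rw [mem_ball, dist_eq_norm] at hxb; exact hxb.le))
    refine ⟨(b', G'), ?_, ?_⟩
    · intro x hx hxb hxx
      have h3 : ‖x - x1‖ ≤ η * (η ^ j * ρ) := by rw [pow_succ] at hxx; linarith
      have h4 := h2 x hx (by nlinarith)
      refine h4.trans ?_
      have h5 : ‖x - x1‖ / (η ^ j * ρ) ≤ η := by
        rw [div_le_iff₀ hρj]; exact h3
      have h6 : δ + 2640 * 2 ^ m * (‖x - x1‖ / (η ^ j * ρ)) ^ 2 ≤ κ := by
        have : 2640 * 2 ^ m * (‖x - x1‖ / (η ^ j * ρ)) ^ 2 ≤ 2640 * 2 ^ m * η ^ 2 := by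
          gcongr
        linarith
      calc (δ + 2640 * 2 ^ m * (‖x - x1‖ / (η ^ j * ρ)) ^ 2) * (κ ^ j * ε)
          ≤ κ * (κ ^ j * ε) := by gcongr
        _ = κ ^ (j + 1) * ε := by ring
    · refine h1.trans (le_of_eq ?_)
      rw [hκη, mul_pow]
      field_simp
  choose! f hf1 hf2 using hstep
  let T : (j : ℕ) → {q : F × (Euc k →L[ℝ] F) // good j q} := fun j =>
    Nat.rec (motive := fun j => {q : F × (Euc k →L[ℝ] F) // good j q})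
      ⟨(b, G), fun x hx hxb _ => by simpa using hg x hx hxb⟩
      (fun j q => ⟨f j q.1, hf1 j q.1 q.2⟩) j
  refine ⟨fun j => (T j).1, rfl, fun j => (T j).2, fun j => ?_⟩
  exact hf2 j (T j).1 (T j).2

/-- **decay at a point** -/
theorem flat_pt (m : ℕ) {a : ℝ} (ha : 0 < a) (ha1 : a < 1) :
    ∃ C : ℝ, 0 < C ∧ ∃ δ0 : ℝ, 0 < δ0 ∧ δ0 ≤ 1 ∧ ∀ {k : ℕ} {U : Set (Euc k)}
      {V : Measure (Euc k × L k)} {F : Type} [NormedAddCommGroup F] [InnerProductSpace ℝ F]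
      [CompleteSpace F], Stat m k U V → ∀ {S : Set (Euc k)}, (∀ᵐ p ∂V, p.1 ∈ U → p.1 ∈ S) →
      ∀ {x1 : Euc k} {ρ θ δ ε : ℝ}, 0 < ρ → ball x1 ρ ⊆ U → 0 < θ → δ ≤ δ0 →
      Pin m V S x1 ρ θ δ → x1 ∈ S → ∀ (b : F) (G : Euc k →L[ℝ] F),
      (∀ x ∈ S, x ∈ ball x1 ρ → ‖b + G x‖ ≤ ε) →
      ∃ G' : Euc k →L[ℝ] F, ‖G' - G‖ ≤ C * (ε / ρ) ∧
        ∀ y ∈ S, y ∈ ball x1 ρ → ‖G' (y - x1)‖ ≤ C * ε * (‖y - x1‖ / ρ) ^ (1 + a) := by
  obtain ⟨η, hη, hη8, hη2⟩ := exists_ratio m ha ha1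
  set κ := η ^ (1 + a) with hκ
  have hκ0 : 0 < κ := Real.rpow_pos_of_pos hη _
  have hκ1 : κ ≤ 1 := Real.rpow_le_one hη.le (by linarith) (by linarith)
  have hηa0 : 0 < η ^ a := Real.rpow_pos_of_pos hη _
  have hηa1 : η ^ a < 1 := Real.rpow_lt_one hη.le (by linarith) ha
  have hκη : κ = η * η ^ a := by rw [hκ, Real.rpow_add hη, Real.rpow_one]
  set C2 : ℝ := 176 * 2 ^ m with hC2
  have hC20 : 0 < C2 := by positivity
  set q : ℝ := 1 - η ^ a with hq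
  have hq0 : 0 < q := by linarith
  refine ⟨(2 + C2 / q) / κ, by positivity, κ / 2, by positivity, by linarith, ?_⟩
  intro k U V F _ _ _ hV S hS x1 ρ θ δ ε hρ hU hθ hδ hP hx1 b G hg
  have hε : 0 ≤ ε := (norm_nonneg _).trans (hg x1 hx1 (mem_ball_self hρ))
  obtain ⟨s, hs0, hs1, hs2⟩ := iter hV hS hρ hU hθ hη hη8 hη2 (by linarith) hδ hP hx1 b G hg
  have hd : ∀ n, dist ((s n).2) ((s (n + 1)).2) ≤ C2 * (ε / ρ) * (η ^ a) ^ n := by
    intro n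
    rw [dist_comm, dist_eq_norm]
    exact hs2 n
  have hcau : CauchySeq fun n => (s n).2 := cauchySeq_of_le_geometric (η ^ a) _ hηa1 hd
  obtain ⟨G', hG'⟩ := cauchySeq_tendsto_of_complete hcau
  have hlim : ∀ n, ‖(s n).2 - G'‖ ≤ C2 * (ε / ρ) * (η ^ a) ^ n / q := by
    intro n
    rw [← dist_eq_norm]
    exact dist_le_of_le_geometric_of_tendsto (η ^ a) _ hηa1 hd hG' n
  refine ⟨G', ?_, ?_⟩
  · have h0 := hlim 0
    rw [hs0, pow_zero, mul_one, ← norm_neg, neg_sub] at h0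
    refine h0.trans ?_
    have h1 : C2 * (ε / ρ) / q = C2 / q * (ε / ρ) := by ring
    rw [h1]
    refine mul_le_mul_of_nonneg_right ?_ (by positivity)
    rw [le_div_iff₀ hκ0]
    have h2 : 0 < C2 / q := by positivity
    nlinarith
  · intro y hy hyb
    rcases eq_or_ne y x1 with rfl | hne
    · rw [sub_self, map_zero, norm_zero]; positivity
    set t := ‖y - x1‖ / ρ with ht
    have ht0 : 0 < t := div_pos (norm_pos_iff.2 (sub_ne_zero.2 hne)) hρ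
    have ht1 : t ≤ 1 := by
      rw [ht, div_le_one hρ]
      rw [mem_ball, dist_eq_norm] at hyb
      exact hyb.le
    have hyt : ‖y - x1‖ = t * ρ := by rw [ht]; field_simp
    obtain ⟨n, hn1, hn2⟩ := exists_nat_pow_near_of_lt_one ht0 ht1 hη (by linarith)
    have hyn : ‖y - x1‖ ≤ η ^ n * ρ := by rw [hyt]; gcongr
    have h1 := hs1 n y hy hyb hyn
    have h2 := hs1 n x1 hx1 (mem_ball_self hρ) (by rw [sub_self, norm_zero]; positivity)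
    have h3 : (s n).2 (y - x1) = ((s n).1 + (s n).2 y) - ((s n).1 + (s n).2 x1) := by
      rw [map_sub]; abel
    have h4 : ‖(s n).2 (y - x1)‖ ≤ 2 * (κ ^ n * ε) := by
      rw [h3]
      refine (norm_sub_le _ _).trans ?_
      linarith
    have h5 : ‖((s n).2 - G') (y - x1)‖ ≤ C2 / q * (κ ^ n * ε) := by
      refine (ContinuousLinearMap.le_opNorm _ _).trans ?_
      calc ‖(s n).2 - G'‖ * ‖y - x1‖ ≤ (C2 * (ε / ρ) * (η ^ a) ^ n / q) * (η ^ n * ρ) := by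
            have := hlim n
            gcongr
        _ = C2 / q * (κ ^ n * ε) := by
            rw [hκη, mul_pow]; field_simp
    have h6 : G' (y - x1) = (s n).2 (y - x1) - ((s n).2 - G') (y - x1) := by
      rw [sub_apply]; abel
    have h7 : κ ^ n ≤ t ^ (1 + a) / κ := by
      rw [le_div_iff₀ hκ0, ← pow_succ]
      have h8 : κ ^ (n + 1) = (η ^ (n + 1)) ^ (1 + a) := by
        rw [hκ, ← Real.rpow_natCast, ← Real.rpow_natCast, ← Real.rpow_mul hη.le,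
          ← Real.rpow_mul hη.le, mul_comm]
      rw [h8]
      exact Real.rpow_le_rpow (by positivity) hn1.le (by linarith)
    calc ‖G' (y - x1)‖ ≤ 2 * (κ ^ n * ε) + C2 / q * (κ ^ n * ε) := by
          rw [h6]
          exact (norm_sub_le _ _).trans (add_le_add h4 h5)
      _ = (2 + C2 / q) * ε * κ ^ n := by ring
      _ ≤ (2 + C2 / q) * ε * (t ^ (1 + a) / κ) := by gcongr
      _ = (2 + C2 / q) / κ * ε * t ^ (1 + a) := by ring

end Crest.Agent.R234.Al1_640
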