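import Crest.Agent.R234.Cp2_914

/-!
Convergence of set integrals, supports (row 234, helper914).
-/

set_option autoImplicit false
set_option linter.unusedSectionVars false
set_option linter.unusedVariables false

open MeasureTheory Filter Topology Set
open scoped CompactlySupported ENNReal

namespace Crest.Agent.R234.Cp914

variable {X : Type*} [MetricSpace X] [ProperSpace X] [MeasurableSpace X] [BorelSpace X]
variable {ι : Type*} {O : Set X} {F : Filter ι} {μ : ι → Measure X} {ν : Measure X}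

theorem abs_integral_sub_le {S : Set X} {μ : Measure X} (hμS : μ Sᶜ = 0) {f g k : X → ℝ}
    (hf : Integrable f μ) (hg : Integrable g μ) (hk : Integrable k μ)
    (hfg : ∀ x ∈ S, |f x - g x| ≤ k x) : |∫ x, f x ∂μ - ∫ x, g x ∂μ| ≤ ∫ x, k x ∂μ := by
  rw [← integral_sub hf hg]
  refine (abs_integral_le_integral_abs).trans ?_
  refine integral_mono_ae (hf.sub hg).abs hk ?_
  rw [Filter.EventuallyLE, ae_iff]
  refine measure_mono_null (fun x hx => ?_) hμS
  exact fun hxS => hx (hfg x hxS)

theorem integral_mono_carrier {S : Set X} {μ : Measure X} (hμS : μ Sᶜ = 0) {f k : X → ℝ}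
    (hf : Integrable f μ) (hk : Integrable k μ)
    (hfg : ∀ x ∈ S, f x ≤ k x) : ∫ x, f x ∂μ ≤ ∫ x, k x ∂μ := by
  refine integral_mono_ae hf hk ?_
  rw [Filter.EventuallyLE, ae_iff]
  refine measure_mono_null (fun x hx => ?_) hμS
  exact fun hxS => hx (hfg x hxS)

/-- **Convergence of integrals over sets with null frontier.** `S` is a closed carrier. -/
theorem VConv.tendsto_setIntegral (h : VConv O F μ ν) (hO : IsOpen O) {S : Set X}
    (hμS : ∀ᶠ i in F, μ i Sᶜ = 0) (hνS : ν Sᶜ = 0) {f : X → ℝ} (hf : Continuous f)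
    {B : Set X} (hB : MeasurableSet B) (hBc : IsCompact (closure B ∩ S))
    (hBO : closure B ∩ S ⊆ O) (hfr : ν (frontier B ∩ S) = 0) :
    Tendsto (fun i => ∫ x in B, f x ∂(μ i)) F (𝓝 (∫ x in B, f x ∂ν)) := by
  set K : Set X := closure B ∩ S with hKdef
  have hKfin : ν K < ∞ := h.fin' K hBO hBc
  obtain ⟨χ, hχ, hχc, hχs, hχ1, hχ0, hχle⟩ := exists_cut hBc hO hBO
  set g : X → ℝ := fun x => χ x * f x with hg
  have hgc : Continuous g := hχ.mul hf
  have hgs : HasCompactSupport g := hχc.mul_right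
  have hgO : tsupport g ⊆ O := (tsupport_mul_subset_left).trans hχs
  obtain ⟨M, hM0, hM⟩ : ∃ M : ℝ, 0 ≤ M ∧ ∀ x, |g x| ≤ M := by
    obtain ⟨M, hM⟩ := hgs.exists_bound_of_continuous hgc
    exact ⟨max M 0, le_max_right _ _, fun x => (hM x).trans (le_max_left _ _)⟩
  have hcongr : ∀ lam : Measure X, lam Sᶜ = 0 →
      ∫ x in B, f x ∂lam = ∫ x, B.indicator g x ∂lam := by
    intro lam hlam
    rw [← integral_indicator hB]
    refine integral_congr_carrier hlam fun x hx => ?_
    by_cases hxB : x ∈ B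
    · simp only [hxB, indicator_of_mem, hg]
      rw [hχ1 x ⟨subset_closure hxB, hx⟩, one_mul]
    · simp [hxB]
  rw [hcongr ν hνS]
  have hev : ∀ᶠ i in F, ∫ x in B, f x ∂(μ i) = ∫ x, B.indicator g x ∂(μ i) :=
    hμS.mono fun i hi => hcongr _ hi
  refine Tendsto.congr' (hev.mono fun i hi => hi.symm) ?_
  rw [Metric.tendsto_nhds]
  intro δ hδ
  set ε : ℝ := δ / (8 * (M + 1)) with hεdef
  have hε : 0 < ε := by positivity
  have hMε : 4 * M * ε < δ / 2 := by
    rw [hεdef]
    rw [mul_div_assoc', div_lt_div_iff₀ (by positivity) (by norm_num)]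
    nlinarith
  have hKlt : ν K < ν K + ENNReal.ofReal ε :=
    ENNReal.lt_add_right hKfin.ne (by simpa using hε)
  obtain ⟨W, hW, hKW, hWO, hWc, hWcO, hWlt⟩ := exists_open_lt hO ν h.fin' hBc hBO hKlt
  have hWfin : ν W ≠ ∞ := ((measure_mono subset_closure).trans_lt (h.fin' _ hWcO hWc)).ne
  have hW2 : IsOpen (interior B ∩ W) := isOpen_interior.inter hW
  have hW2fin : ν (interior B ∩ W) ≠ ∞ :=
    ((measure_mono inter_subset_right).trans_lt hWfin.lt_top).ne
  obtain ⟨C, hCW2, hC, hCle⟩ := exists_compact_add ν hW2 hW2fin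
    (ε := ENNReal.ofReal ε) (by simpa using hε)
  have hKle : ν K ≤ ν (interior B ∩ W) := by
    have h1 : K ⊆ (interior B ∩ W) ∪ (frontier B ∩ S) := by
      intro x hx
      rcases (closure_eq_interior_union_frontier B ▸ hx.1 : x ∈ interior B ∪ frontier B) with h | h
      · exact Or.inl ⟨h, hKW hx⟩
      · exact Or.inr ⟨h, hx.2⟩
    refine (measure_mono h1).trans ((measure_union_le _ _).trans ?_)
    rw [hfr, add_zero]
  obtain ⟨ψ, hψ, hψc, hψs, hψ1, hψ0, hψle⟩ := exists_cut hBc hW hKW
  obtain ⟨φ, hφ, hφc, hφs, hφ1, hφ0, hφle⟩ := exists_cut hC hW2 hCW2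
  have hφO : tsupport φ ⊆ O := hφs.trans (inter_subset_right.trans hWO)
  have hψO : tsupport ψ ⊆ O := hψs.trans hWO
  -- the comparison function
  set k : X → ℝ := fun x => (ψ x - φ x) * |g x| with hk
  have hkc : Continuous k := (hψ.sub hφ).mul hgc.abs
  have hks : HasCompactSupport k := by
    have : HasCompactSupport fun x => |g x| := hgs.abs
    exact this.mul_left
  have hkO : tsupport k ⊆ O := by
    refine (closure_mono ?_).trans hgO
    intro x hx
    rw [Function.mem_support] at hx ⊢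
    intro h0
    exact hx (by simp [hk, h0])
  set l : X → ℝ := fun x => φ x * g x with hl
  have hlc : Continuous l := hφ.mul hgc
  have hls : HasCompactSupport l := hφc.mul_right
  have hlO : tsupport l ⊆ O := (tsupport_mul_subset_left).trans hφO
  have hpt : ∀ x ∈ S, |B.indicator g x - l x| ≤ k x := by
    intro x hx
    by_cases hxB : x ∈ B
    · have h1 : ψ x = 1 := hψ1 x ⟨subset_closure hxB, hx⟩
      have h2 : B.indicator g x - l x = (1 - φ x) * g x := by
        simp only [hxB, indicator_of_mem, hl]; ring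
      rw [h2, abs_mul, abs_of_nonneg (by linarith [hφle x])]
      simp only [hk, h1]
      exact le_rfl
    · have h1 : φ x = 0 := image_eq_zero_of_notMem_tsupport fun h =>
        hxB (interior_subset (hφs h).1)
      simp only [hxB, not_false_eq_true, indicator_of_notMem, hl, h1, zero_mul, sub_zero, abs_zero,
        hk]
      exact mul_nonneg (hψ0 x) (abs_nonneg _)
  have hnonneg : ∀ x ∈ S, 0 ≤ ψ x - φ x := by
    intro x hx
    by_cases hxB : x ∈ B
    · rw [hψ1 x ⟨subset_closure hxB, hx⟩]; linarith [hφle x]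
    · have h1 : φ x = 0 := image_eq_zero_of_notMem_tsupport fun h =>
        hxB (interior_subset (hφs h).1)
      rw [h1, sub_zero]; exact hψ0 x
  have hmain : ∀ lam : Measure X, lam Sᶜ = 0 → lam (tsupport g) < ∞ → lam (tsupport l) < ∞ →
      lam (tsupport k) < ∞ →
      |∫ x, B.indicator g x ∂lam - ∫ x, l x ∂lam| ≤ ∫ x, k x ∂lam := by
    intro lam h1 h2 h3 h4
    exact abs_integral_sub_le h1 ((integrable_cc' hgc hgs lam h2).indicator hB)
      (integrable_cc' hlc hls lam h3) (integrable_cc' hkc hks lam h4) hpt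
  have hkν : ∫ x, k x ∂ν ≤ 2 * M * ε := by
    have iψ : Integrable ψ ν := integrable_cc' hψ hψc ν (h.fin' _ hψO hψc)
    have iφ : Integrable φ ν := integrable_cc' hφ hφc ν (h.fin' _ hφO hφc)
    have ik : Integrable k ν := integrable_cc' hkc hks ν (h.fin' _ hkO hks)
    have h1 : ∫ x, k x ∂ν ≤ ∫ x, M * (ψ x - φ x) ∂ν := by
      refine integral_mono_carrier hνS ik ((iψ.sub iφ).const_mul M) fun x hx => ?_
      simp only [hk]
      rw [mul_comm]
      exact mul_le_mul_of_nonneg_right (hM x) (hnonneg x hx)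
    have h2 : ∫ x, ψ x ∂ν ≤ (ν W).toReal := by
      have : ∫ x, ψ x ∂ν ≤ ∫ x, W.indicator (fun _ => (1 : ℝ)) x ∂ν := by
        refine integral_mono iψ ?_ fun x => ?_
        · exact (integrable_indicator_iff hW.measurableSet).2 (integrableOn_const hWfin)
        · by_cases hx : x ∈ W
          · simpa [hx] using hψle x
          · have : ψ x = 0 := image_eq_zero_of_notMem_tsupport fun h => hx (hψs h)
            simp [hx, this]
      refine this.trans (le_of_eq ?_)
      rw [integral_indicator hW.measurableSet]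
      simp [Measure.real]
    have h3 : (ν C).toReal ≤ ∫ x, φ x ∂ν := by
      have hCfin : ν C ≠ ∞ := ((measure_mono hCW2).trans_lt hW2fin.lt_top).ne
      have : ∫ x, C.indicator (fun _ => (1 : ℝ)) x ∂ν ≤ ∫ x, φ x ∂ν := by
        refine integral_mono ?_ iφ fun x => ?_
        · exact (integrable_indicator_iff hC.measurableSet).2 (integrableOn_const hCfin)
        · by_cases hx : x ∈ C
          · simp [hx, hφ1 x hx]
          · simpa [hx] using hφ0 x
      refine le_trans (le_of_eq ?_) this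
      rw [integral_indicator hC.measurableSet]
      simp [Measure.real]
    have h4 : (ν W).toReal ≤ (ν C).toReal + 2 * ε := by
      have hCfin : ν C ≠ ∞ := ((measure_mono hCW2).trans_lt hW2fin.lt_top).ne
      have e1 : ν W ≤ ν C + ENNReal.ofReal (2 * ε) := by
        calc ν W ≤ ν K + ENNReal.ofReal ε := hWlt.le
          _ ≤ ν (interior B ∩ W) + ENNReal.ofReal ε := by gcongr
          _ ≤ ν C + ENNReal.ofReal ε + ENNReal.ofReal ε := by gcongr
          _ = ν C + ENNReal.ofReal (2 * ε) := by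
            rw [add_assoc, ← ENNReal.ofReal_add hε.le hε.le]; ring_nf
      have e2 := ENNReal.toReal_mono (by finiteness) e1
      rwa [ENNReal.toReal_add hCfin ENNReal.ofReal_ne_top,
        ENNReal.toReal_ofReal (by positivity)] at e2
    calc ∫ x, k x ∂ν ≤ ∫ x, M * (ψ x - φ x) ∂ν := h1
      _ = M * (∫ x, ψ x ∂ν - ∫ x, φ x ∂ν) := by
        rw [integral_const_mul, integral_sub iψ iφ]
      _ ≤ M * (2 * ε) := by
        refine mul_le_mul_of_nonneg_left ?_ hM0
        linarith
      _ = 2 * M * ε := by ring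
  have hl1 := h.tendsto l hlc hls hlO
  have hk1 := h.tendsto k hkc hks hkO
  rw [Metric.tendsto_nhds] at hl1
  filter_upwards [hμS, h.fin _ hgO hgs, h.fin _ hlO hls, h.fin _ hkO hks,
    hl1 (δ / 4) (by positivity),
    hk1.eventually_lt_const (show ∫ x, k x ∂ν < ∫ x, k x ∂ν + δ / 4 by linarith)]
    with i h1 h2 h3 h4 h5 h6
  have a1 := hmain (μ i) h1 h2 h3 h4
  have a2 := hmain ν hνS (h.fin' _ hgO hgs) (h.fin' _ hlO hls) (h.fin' _ hkO hks)
  rw [Real.dist_eq] at h5 ⊢
  rw [abs_le] at a1 a2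
  rw [abs_lt] at h5
  rw [abs_lt]
  constructor <;> nlinarith [a1.1, a1.2, a2.1, a2.2, h5.1, h5.2]

/-- points of the open support (balls). -/
def spt (μ : Measure X) : Set X := {x | ∀ ρ : ℝ, 0 < ρ → 0 < μ (Metric.ball x ρ)}

theorem isClosed_spt (μ : Measure X) : IsClosed (spt μ) := by
  refine isClosed_of_closure_subset fun x hx ρ hρ => ?_
  obtain ⟨y, hy, hxy⟩ := Metric.mem_closure_iff.1 hx (ρ / 2) (by positivity)
  refine (hy (ρ / 2) (by positivity)).trans_le (measure_mono ?_)
  refine Metric.ball_subset_ball' ?_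
  rw [dist_comm y x]; linarith

theorem measure_compl_spt (μ : Measure X) : μ (spt μ)ᶜ = 0 := by
  refine measure_null_of_locally_null _ fun x hx => ?_
  simp only [spt, mem_compl_iff, mem_setOf_eq, not_forall, not_lt, nonpos_iff_eq_zero] at hx
  obtain ⟨ρ, hρ, h0⟩ := hx
  exact ⟨_, mem_nhdsWithin_of_mem_nhds (Metric.ball_mem_nhds x hρ), h0⟩

/-- every support point of the limit is approximated: locally uniform version. -/
theorem VConv.spt_approx (h : VConv O F μ ν) (hO : IsOpen O) {x : X} (hx : x ∈ spt ν)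
    (hxO : x ∈ O) {ρ : ℝ} (hρ : 0 < ρ) : ∀ᶠ i in F, (spt (μ i) ∩ Metric.ball x ρ).Nonempty := by
  obtain ⟨r, hr, hrO⟩ := Metric.isOpen_iff.1 hO x hxO
  have h1 : 0 < ν (Metric.ball x (min r ρ)) := hx _ (lt_min hr hρ)
  filter_upwards [h.lt_of_isOpen Metric.isOpen_ball
    ((Metric.ball_subset_ball (min_le_left _ _)).trans hrO) h1] with i hi
  by_contra hne
  rw [not_nonempty_iff_eq_empty] at hne
  refine hi.ne' (measure_mono_null ?_ (measure_compl_spt (μ i)))
  intro y hy hys
  have : y ∈ spt (μ i) ∩ Metric.ball x ρ :=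
    ⟨hys, Metric.ball_subset_ball (min_le_right _ _) hy⟩
  rw [hne] at this
  exact this

/-- uniform version on compact sets: `spt ν ∩ K` is in the `ε`-neighbourhood of `spt (μ i)`. -/
theorem VConv.spt_approx_unif (h : VConv O F μ ν) (hO : IsOpen O) {K : Set X} (hK : IsCompact K)
    (hKO : K ⊆ O) {ε : ℝ} (hε : 0 < ε) :
    ∀ᶠ i in F, ∀ x ∈ spt ν ∩ K, ∃ y ∈ spt (μ i), dist x y < ε := by
  have hc : IsCompact (spt ν ∩ K) := hK.inter_left (isClosed_spt ν)
  obtain ⟨t, ht, hcov⟩ := hc.elim_nhds_subcover (fun x => Metric.ball x (ε / 2))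
    fun x _ => Metric.ball_mem_nhds x (by positivity)
  have hall : ∀ᶠ i in F, ∀ x ∈ t, (spt (μ i) ∩ Metric.ball x (ε / 2)).Nonempty := by
    rw [Filter.eventually_all_finset]
    exact fun x hx => h.spt_approx hO (ht x hx).1 (hKO (ht x hx).2) (by positivity)
  filter_upwards [hall] with i hi x hx
  obtain ⟨z, hz, hxz⟩ := mem_iUnion₂.1 (hcov hx)
  obtain ⟨y, hy, hyz⟩ := hi z hz
  refine ⟨y, hy, ?_⟩
  rw [Metric.mem_ball] at hxz hyz
  calc dist x y ≤ dist x z + dist z y := dist_triangle _ _ _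
    _ < ε / 2 + ε / 2 := by rw [dist_comm z y]; exact add_lt_add hxz hyz
    _ = ε := by ring

/-- with a uniform lower density bound the supports of `μ i` converge into the support of the
limit, uniformly on compact sets. -/
theorem VConv.spt_conv (h : VConv O F μ ν) (hO : IsOpen O) {K : Set X} (hK : IsCompact K)
    (hKO : K ⊆ O) (c : ℝ → ℝ≥0∞) (hc : ∀ r, 0 < r → 0 < c r)
    (hlow : ∀ᶠ i in F, ∀ x ∈ spt (μ i), ∀ r, 0 < r → Metric.ball x r ⊆ O →
      c r ≤ μ i (Metric.ball x r)) {ε : ℝ} (hε : 0 < ε) :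
    ∀ᶠ i in F, ∀ x ∈ spt (μ i) ∩ K, ∃ y ∈ spt ν, dist x y < ε := by
  by_contra hcon
  rw [Filter.not_eventually] at hcon
  -- the set of points of `K` at distance `≥ ε` from `spt ν`
  set T : Set X := K ∩ {x | ∀ y ∈ spt ν, ε ≤ dist x y} with hT
  have hTc : IsCompact T := by
    refine hK.inter_right ?_
    have : {x : X | ∀ y ∈ spt ν, ε ≤ dist x y} = ⋂ y ∈ spt ν, {x | ε ≤ dist x y} := by
      ext x; simp
    rw [this]
    exact isClosed_biInter fun y _ => isClosed_le continuous_const (continuous_id.dist continuous_const)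
  obtain ⟨r0, hr0, hr0O⟩ : ∃ r0 : ℝ, 0 < r0 ∧ Metric.cthickening r0 K ⊆ O :=
    hK.exists_cthickening_subset_open hO hKO
  set r : ℝ := min r0 (ε / 2) / 2 with hr
  have hr' : 0 < r := by positivity
  have hrr0 : r < r0 := by
    have := min_le_left r0 (ε / 2)
    have h3 : 0 < min r0 (ε / 2) := by positivity
    rw [hr]; linarith
  have hrε : 2 * r ≤ ε / 2 := by
    have := min_le_right r0 (ε / 2)
    rw [hr]; linarith
  obtain ⟨t, ht, hcov⟩ := hTc.elim_nhds_subcover (fun x => Metric.ball x (r / 2))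
    fun x _ => Metric.ball_mem_nhds x (by positivity)
  have hsmall : ∀ᶠ i in F, ∀ x ∈ t, μ i (Metric.closedBall x r) < c (r / 2) := by
    rw [Filter.eventually_all_finset]
    intro x hx
    refine h.lt_of_isCompact hO (isCompact_closedBall x r) ?_ ?_
    · refine (Metric.closedBall_subset_cthickening (ht x hx).1 r).trans ?_
      exact (Metric.cthickening_mono hrr0.le K).trans hr0O
    · have h0 : ν (Metric.closedBall x r) = 0 := by
        refine measure_mono_null ?_ (measure_compl_spt ν)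
        intro y hy hys
        have h1 := (ht x hx).2 y hys
        rw [Metric.mem_closedBall, dist_comm] at hy
        linarith
      rw [h0]
      exact hc _ (by positivity)
  obtain ⟨i, hi, hlow', hsm⟩ := (hcon.and_eventually (hlow.and hsmall)).exists
  push_neg at hi
  obtain ⟨x, ⟨hxs, hxK⟩, hfar⟩ := hi
  have hxT : x ∈ T := ⟨hxK, hfar⟩
  obtain ⟨z, hz, hxz⟩ := mem_iUnion₂.1 (hcov hxT)
  rw [Metric.mem_ball] at hxz
  have hsub : Metric.ball x (r / 2) ⊆ Metric.closedBall z r := by
    refine Metric.ball_subset_closedBall.trans (Metric.closedBall_subset_closedBall' ?_)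
    linarith
  have hsubO : Metric.ball x (r / 2) ⊆ O := by
    refine Metric.ball_subset_closedBall.trans
      ((Metric.closedBall_subset_cthickening hxK (r / 2)).trans ?_)
    exact (Metric.cthickening_mono (by linarith) K).trans hr0O
  exact absurd ((hlow' x hxs (r / 2) (by positivity) hsubO).trans (measure_mono hsub))
    (not_le.2 (hsm z hz))

end Crest.Agent.R234.Cp914
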