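import Crest.Agent.R234.Vf5_884

/-!
Row 234, base library (helper884), file 6: monotone mass ratios, the density, semicontinuity.
-/

set_option autoImplicit false

open MeasureTheory Crest.GeometryTopology.Submanifold Filter Topology
open scoped ENNReal InnerProductSpace

noncomputable section

namespace Crest.Agent.R234.Vf_884

variable {m k : ℕ} {U : Set (Euc k)} {V : Measure (Euc k × L k)}

theorem mass_real_apply (V : Measure (Euc k × L k)) {S : Set (Euc k)} (hS : MeasurableSet S) :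
    (mass V).real S = V.real (Prod.fst ⁻¹' S) := by
  rw [measureReal_def, mass_apply V hS, ← measureReal_def]

/-- **the monotonicity identity**. -/
theorem mono_identity (hV : Stat m k U V) (hm : 1 ≤ m) {z : Euc k} {σ ρ : ℝ} (hσ : 0 < σ)
    (hσρ : σ < ρ) (hU : Metric.closedBall z ρ ⊆ U) :
    (ρ ^ m)⁻¹ * (mass V).real (Metric.ball z ρ)
      - (σ ^ m)⁻¹ * (mass V).real (Metric.closedBall z σ) =
    ∫ p in Prod.fst ⁻¹' (Metric.ball z ρ \ Metric.closedBall z σ), perpQ m z p ∂V := by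
  have h := mono_identity_weighted hV hm (h := fun _ => (1:ℝ)) contDiff_const hσ hσρ hU
  have h1 : ∀ p : Euc k × L k, fderiv ℝ (fun _ : Euc k => (1:ℝ)) p.1 (p.2 (p.1 - z)) = 0 := by
    intro p
    rw [fderiv_fun_const]
    simp
  simp only [h1, mul_zero, integral_zero, add_zero, one_mul, setIntegral_const, smul_eq_mul,
    mul_one] at h
  rw [mass_real_apply V measurableSet_ball, mass_real_apply V measurableSet_closedBall]
  exact h

theorem mass_lt_top (hV : Stat m k U V) {K : Set (Euc k)} (hK : IsCompact K) (hKU : K ⊆ U) :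
    mass V K < ⊤ := by
  rw [mass_apply V hK.measurableSet, ← prod_univ_eq]
  exact hV.fin K hK hKU

theorem mono_real (hV : Stat m k U V) (hm : 1 ≤ m) {z : Euc k} {σ ρ : ℝ} (hσ : 0 < σ)
    (hσρ : σ < ρ) (hU : Metric.closedBall z ρ ⊆ U) :
    (σ ^ m)⁻¹ * (mass V).real (Metric.closedBall z σ)
      ≤ (ρ ^ m)⁻¹ * (mass V).real (Metric.ball z ρ) := by
  have h := mono_identity hV hm hσ hσρ hU
  have h2 : 0 ≤ ∫ p in Prod.fst ⁻¹' (Metric.ball z ρ \ Metric.closedBall z σ), perpQ m z p ∂V :=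
    integral_nonneg fun p => perpQ_nonneg m z p
  linarith

/-- the volume of the unit ball of `ℝ^m`. -/
def ome (m : ℕ) : ℝ := (volume (Metric.ball (0 : Euc m) 1)).toReal

theorem ome_pos (m : ℕ) : 0 < ome m :=
  ENNReal.toReal_pos (Metric.measure_ball_pos volume _ one_pos).ne' measure_ball_lt_top.ne

theorem ofReal_ome (m : ℕ) : ENNReal.ofReal (ome m) = volume (Metric.ball (0 : Euc m) 1) :=
  ENNReal.ofReal_toReal measure_ball_lt_top.ne

theorem volume_ball_eq (m : ℕ) (x : Euc m) {r : ℝ} (hr : 0 < r) :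
    volume (Metric.ball x r) = ENNReal.ofReal (ome m * r ^ m) := by
  rw [Measure.addHaar_ball_of_pos _ _ hr, mul_comm (ome m), ENNReal.ofReal_mul (by positivity),
    ofReal_ome]
  simp

/-- mass ratios. -/
def rat (m : ℕ) (V : Measure (Euc k × L k)) (z : Euc k) (r : ℝ) : ℝ≥0∞ :=
  mass V (Metric.ball z r) / ENNReal.ofReal (ome m * r ^ m)

/-- the density. -/
def Th (m : ℕ) (V : Measure (Euc k × L k)) (z : Euc k) : ℝ≥0∞ :=
  liminf (rat m V z) (𝓝[>] (0:ℝ))

theorem den_pos (m : ℕ) {r : ℝ} (hr : 0 < r) : 0 < ome m * r ^ m :=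
  mul_pos (ome_pos m) (pow_pos hr m)

theorem rat_closed_le_aux (hV : Stat m k U V) (hm : 1 ≤ m) {z : Euc k} {σ ρ : ℝ} (hσ : 0 < σ)
    (hσρ : σ < ρ) (hU : Metric.closedBall z ρ ⊆ U) :
    mass V (Metric.closedBall z σ) / ENNReal.ofReal (ome m * σ ^ m) ≤ rat m V z ρ := by
  have hρ := hσ.trans hσρ
  have h := mono_real hV hm hσ hσρ hU
  have f1 : mass V (Metric.closedBall z σ) ≠ ⊤ :=
    (mass_lt_top hV (isCompact_closedBall z σ)
      ((Metric.closedBall_subset_closedBall hσρ.le).trans hU)).ne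
  have f2 : mass V (Metric.ball z ρ) ≠ ⊤ :=
    ((measure_mono Metric.ball_subset_closedBall).trans_lt
      (mass_lt_top hV (isCompact_closedBall z ρ) hU)).ne
  unfold rat
  rw [← ENNReal.ofReal_toReal f1, ← ENNReal.ofReal_toReal f2,
    ← ENNReal.ofReal_div_of_pos (den_pos m hσ), ← ENNReal.ofReal_div_of_pos (den_pos m hρ)]
  refine ENNReal.ofReal_le_ofReal ?_
  have ho := ome_pos m
  have h2 := mul_le_mul_of_nonneg_left h (inv_nonneg.2 ho.le)
  calc _ = (ome m)⁻¹ * ((σ ^ m)⁻¹ * (mass V).real (Metric.closedBall z σ)) := by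
        rw [measureReal_def]; field_simp
    _ ≤ _ := h2
    _ = _ := by rw [measureReal_def]; field_simp

theorem rat_closed_le (hV : Stat m k U V) (hm : 1 ≤ m) {z : Euc k} {σ ρ : ℝ} (hσ : 0 < σ)
    (hσρ : σ < ρ) (hU : Metric.ball z ρ ⊆ U) :
    mass V (Metric.closedBall z σ) / ENNReal.ofReal (ome m * σ ^ m) ≤ rat m V z ρ := by
  have hρ := hσ.trans hσρ
  have h1 : Tendsto (fun r : ℝ => mass V (Metric.ball z ρ) / ENNReal.ofReal (ome m * r ^ m))
      (𝓝[<] ρ) (𝓝 (rat m V z ρ)) := by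
    unfold rat
    refine ENNReal.Tendsto.const_div ?_ (Or.inl ENNReal.ofReal_ne_top)
    refine (ENNReal.continuous_ofReal.tendsto _).comp ?_
    refine Tendsto.mono_left ?_ nhdsWithin_le_nhds
    exact ((continuous_const.mul (continuous_pow m)).tendsto ρ)
  refine ge_of_tendsto h1 ?_
  filter_upwards [Ioo_mem_nhdsLT hσρ] with r hr
  refine (rat_closed_le_aux hV hm hσ hr.1
    ((Metric.closedBall_subset_ball hr.2).trans hU)).trans ?_
  unfold rat
  gcongr
  exact hr.2.le

theorem rat_mono (hV : Stat m k U V) (hm : 1 ≤ m) {z : Euc k} {σ ρ : ℝ} (hσ : 0 < σ)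
    (hσρ : σ ≤ ρ) (hU : Metric.ball z ρ ⊆ U) : rat m V z σ ≤ rat m V z ρ := by
  rcases hσρ.eq_or_lt with rfl | h
  · exact le_rfl
  · refine le_trans ?_ (rat_closed_le hV hm hσ h hU)
    unfold rat
    gcongr
    exact Metric.ball_subset_closedBall

theorem tendsto_rat_aux (hV : Stat m k U V) (hm : 1 ≤ m) {z : Euc k} {R : ℝ} (hR : 0 < R)
    (hU : Metric.ball z R ⊆ U) :
    Tendsto (rat m V z) (𝓝[>] 0) (𝓝 (sInf (rat m V z '' Set.Ioo 0 R))) := by
  refine MonotoneOn.tendsto_nhdsWithin_Ioo_right ⟨R / 2, by constructor <;> linarith⟩ ?_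
    (OrderBot.bddBelow _)
  intro r hr s hs hrs
  exact rat_mono hV hm hr.1 hrs ((Metric.ball_subset_ball hs.2.le).trans hU)

theorem tendsto_rat (hV : Stat m k U V) (hm : 1 ≤ m) {z : Euc k} {R : ℝ} (hR : 0 < R)
    (hU : Metric.ball z R ⊆ U) : Tendsto (rat m V z) (𝓝[>] 0) (𝓝 (Th m V z)) := by
  have h := tendsto_rat_aux hV hm hR hU
  have h2 : Th m V z = sInf (rat m V z '' Set.Ioo 0 R) := h.liminf_eq
  rw [h2]
  exact h

theorem Th_le_rat (hV : Stat m k U V) (hm : 1 ≤ m) {z : Euc k} {r : ℝ} (hr : 0 < r)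
    (hU : Metric.ball z r ⊆ U) : Th m V z ≤ rat m V z r := by
  refine le_of_tendsto (tendsto_rat hV hm hr hU) ?_
  filter_upwards [Ioo_mem_nhdsGT hr] with s hs
  exact rat_mono hV hm hs.1 hs.2.le hU

/-- lower mass bound from the density. -/
theorem mul_le_mass (hV : Stat m k U V) (hm : 1 ≤ m) {z : Euc k} {r : ℝ} (hr : 0 < r)
    (hU : Metric.ball z r ⊆ U) {c : ℝ≥0∞} (hc : c ≤ Th m V z) :
    c * ENNReal.ofReal (ome m * r ^ m) ≤ mass V (Metric.ball z r) := by
  have h := hc.trans (Th_le_rat hV hm hr hU)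
  unfold rat at h
  rwa [ENNReal.le_div_iff_mul_le (Or.inl (by
    rw [ne_eq, ENNReal.ofReal_eq_zero, not_le]; exact den_pos m hr))
    (Or.inl ENNReal.ofReal_ne_top)] at h

theorem rat_lt_top (hV : Stat m k U V) {z : Euc k} {r : ℝ} (hr : 0 < r)
    (hU : Metric.closedBall z r ⊆ U) : rat m V z r < ⊤ := by
  unfold rat
  refine ENNReal.div_lt_top ?_ (by rw [ne_eq, ENNReal.ofReal_eq_zero, not_le]; exact den_pos m hr)
  exact ((measure_mono Metric.ball_subset_closedBall).trans_lt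
    (mass_lt_top hV (isCompact_closedBall z r) hU)).ne

theorem exists_closedBall (hU : IsOpen U) {z : Euc k} (hz : z ∈ U) :
    ∃ r, 0 < r ∧ Metric.closedBall z r ⊆ U := by
  obtain ⟨r, hr, h⟩ := Metric.isOpen_iff.1 hU z hz
  exact ⟨r / 2, by positivity, (Metric.closedBall_subset_ball (by linarith)).trans h⟩

theorem Th_lt_top (hV : Stat m k U V) (hm : 1 ≤ m) (hU : IsOpen U) {z : Euc k} (hz : z ∈ U) :
    Th m V z < ⊤ := by
  obtain ⟨r, hr, h⟩ := exists_closedBall hU hz
  exact (Th_le_rat hV hm hr (Metric.ball_subset_closedBall.trans h)).trans_lt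
    (rat_lt_top hV hr h)

/-- comparison of ratios at nearby centres. -/
theorem rat_shift (V : Measure (Euc k × L k)) (m : ℕ) {z w : Euc k} {r s : ℝ} (hr : 0 < r)
    (h : dist w z + s ≤ r) (hs : 0 < s) :
    rat m V w s ≤ rat m V z r * ENNReal.ofReal ((r / s) ^ m) := by
  unfold rat
  have h1 : Metric.ball w s ⊆ Metric.ball z r := Metric.ball_subset_ball' (by linarith)
  have h2 : mass V (Metric.ball w s) ≤ mass V (Metric.ball z r) := measure_mono h1
  rw [ENNReal.div_eq_inv_mul, ENNReal.div_eq_inv_mul, mul_comm (_ * _) (ENNReal.ofReal _),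
    ← mul_assoc]
  refine mul_le_mul' ?_ h2
  rw [← ENNReal.ofReal_inv_of_pos (den_pos m hs), ← ENNReal.ofReal_inv_of_pos (den_pos m hr),
    ← ENNReal.ofReal_mul (by positivity)]
  refine ENNReal.ofReal_le_ofReal (le_of_eq ?_)
  have := ome_pos m
  rw [div_pow]
  field_simp

/-- the density is upper semicontinuous. -/
theorem usc_Th (hV : Stat m k U V) (hm : 1 ≤ m) (hU : IsOpen U) {z : Euc k} (hz : z ∈ U) :
    UpperSemicontinuousAt (Th m V) z := by
  intro c hc
  obtain ⟨R, hR, hRU⟩ := exists_closedBall hU hz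
  have h1 := tendsto_rat hV hm hR (Metric.ball_subset_closedBall.trans hRU)
  obtain ⟨r, hr1, hr2⟩ := ((h1.eventually_lt_const hc).and (Ioo_mem_nhdsGT hR)).exists
  have h2 : Tendsto (fun s : ℝ => rat m V z r * ENNReal.ofReal ((r / s) ^ m)) (𝓝[<] r)
      (𝓝 (rat m V z r)) := by
    have e : rat m V z r = rat m V z r * ENNReal.ofReal ((r / r) ^ m) := by
      rw [div_self hr2.1.ne']; simp
    conv_rhs => rw [e]
    refine ENNReal.Tendsto.const_mul ?_ (Or.inr hr1.ne_top)
    refine (ENNReal.continuous_ofReal.tendsto _).comp (Tendsto.mono_left ?_ nhdsWithin_le_nhds)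
    exact ((continuousAt_const.div continuousAt_id hr2.1.ne').pow m)
  obtain ⟨s, hs1, hs2⟩ := ((h2.eventually_lt_const hr1).and (Ioo_mem_nhdsLT hr2.1)).exists
  filter_upwards [Metric.ball_mem_nhds z (show 0 < r - s by linarith [hs2.2])] with w hw
  rw [Metric.mem_ball] at hw
  have h3 : Metric.ball w s ⊆ U := by
    refine (Metric.ball_subset_ball' (ε₂ := R) (y := z) ?_).trans
      (Metric.ball_subset_closedBall.trans hRU)
    linarith [hr2.2]
  exact ((Th_le_rat hV hm hs2.1 h3).trans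
    (rat_shift V m hr2.1 (by linarith) hs2.1)).trans_lt hs1

/-- an a.e. lower bound of the density holds on the support. -/
theorem le_Th_of_ae (hV : Stat m k U V) (hm : 1 ≤ m) (hU : IsOpen U) {c : ℝ≥0∞}
    (h : ∀ᵐ x ∂(mass V), x ∈ U → c ≤ Th m V x) {z : Euc k} (hz : z ∈ U)
    (hs : ∀ r, 0 < r → 0 < mass V (Metric.ball z r)) : c ≤ Th m V z := by
  by_contra hcon
  rw [not_le] at hcon
  have h1 := usc_Th hV hm hU hz c hcon
  obtain ⟨r, hr, h2⟩ := Metric.eventually_nhds_iff_ball.1 (h1.and (hU.mem_nhds hz))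
  have h3 : mass V (Metric.ball z r) = 0 := by
    refine measure_mono_null (fun x hx => ?_) (ae_iff.1 h)
    intro hcon2
    exact absurd (hcon2 (h2 x hx).2) (not_le.2 (h2 x hx).1)
  exact (hs r hr).ne' h3

/-- closed-ball ratios converge to the density too. -/
theorem tendsto_rat_closed (hV : Stat m k U V) (hm : 1 ≤ m) {z : Euc k} {R : ℝ} (hR : 0 < R)
    (hU : Metric.ball z R ⊆ U) :
    Tendsto (fun r => mass V (Metric.closedBall z r) / ENNReal.ofReal (ome m * r ^ m)) (𝓝[>] 0)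
      (𝓝 (Th m V z)) := by
  have h := tendsto_rat hV hm hR hU
  refine tendsto_order.2 ⟨fun c hc => ?_, fun c hc => ?_⟩
  · filter_upwards [h.eventually_const_lt hc] with r hr
    refine hr.trans_le ?_
    unfold rat
    gcongr
    exact Metric.ball_subset_closedBall
  · obtain ⟨s, hs1, hs2⟩ := ((h.eventually_lt_const hc).and (Ioo_mem_nhdsGT hR)).exists
    filter_upwards [Ioo_mem_nhdsGT hs2.1] with r hr
    exact (rat_closed_le hV hm hr.1 hr.2
      ((Metric.ball_subset_ball hs2.2.le).trans hU)).trans_lt hs1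

end Crest.Agent.R234.Vf_884
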