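import Crest.Agent.R234.Al3_640
import Crest.Agent.R234.Al6_182
import Crest.Agent.R234.Vf6_884
import Crest.Agent.R234.Cp3_914

/-!
R234 (helper182), VF-ALLARD part 7: the density ratio with the smooth kernel against the ball
ratios (layer cake), nearby points, and NO HOLES in the language of general stationary varifolds.
-/

set_option autoImplicit false

open MeasureTheory Metric Set Filter Topology
open Crest.GeometryTopology.Submanifold
open scoped ENNReal RealInnerProductSpace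

namespace Crest.Agent.R234.Al7_182

open Crest.Agent.R234.Vf_884

noncomputable section

variable {m k : ℕ} {U : Set (Euc k)} {V : Measure (Euc k × L k)}

theorem isPr_of_G {P : L k} (hP : P ∈ G m k) : Cacc_113.IsPr P :=
  ⟨fun x => G_idem_apply hP x, fun x y => G_symm hP x y⟩

theorem st_of_stat (hV : Stat m k U V) : Cacc_113.St U V where
  pr := by filter_upwards [hV.conc] with z hz using isPr_of_G hz
  fin := fun K hKU hK => hV.fin K hK hKU
  st := fun X hX hXc hXU => hV.stat X hX hXc hXU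

theorem tr_ae (hV : Stat m k U V) : ∀ᵐ z ∂V, Cacc_113.tr z.2 = m := by
  filter_upwards [hV.conc] with z hz
  exact hz.2.2

/-- `V` is carried by its support. -/
theorem ae_mem_spt (V : Measure (Euc k × L k)) : ∀ᵐ p ∂V, p.1 ∈ Cp914.spt (mass V) := by
  have h1 := Cp914.measure_compl_spt (mass V)
  rw [mass_apply V (Cp914.isClosed_spt (mass V)).isOpen_compl.measurableSet] at h1
  exact h1

/-- the mass of the kernel of the plane -/
def cph (m : ℕ) : ℝ := ∫ x : Euc m, Al1_640.ph (‖x‖ ^ 2)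

theorem lt_ph_iff {t s : ℝ} (ht : 0 ≤ t) : t < Al1_640.ph s ↔ s < 1 - √t := by
  unfold Al1_640.ph
  have h0 : 0 ≤ max (1 - s) 0 := le_max_right _ _
  rw [← Real.sqrt_lt_sqrt_iff ht, Real.sqrt_sq h0, lt_max_iff]
  constructor
  · rintro (h | h)
    · linarith
    · exact absurd h (not_lt.2 (Real.sqrt_nonneg t))
  · intro h
    left; linarith

theorem level_set {F : Type*} [NormedAddCommGroup F] (z : F) {r t : ℝ} (hr : 0 < r) (ht : 0 ≤ t)
    (ht1 : t < 1) :
    {x : F | t < Al1_640.ph (‖x - z‖ ^ 2 / r ^ 2)} = ball z (r * √(1 - √t)) := by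
  have h1 : √t < 1 := by
    rw [Real.sqrt_lt' one_pos]; simpa using ht1
  ext x
  rw [mem_ofPred_eq, lt_ph_iff ht, mem_ball, dist_eq_norm, div_lt_iff₀ (by positivity)]
  rw [← Real.sqrt_lt_sqrt_iff (by positivity), Real.sqrt_sq (norm_nonneg _), mul_comm (1 - √t),
    Real.sqrt_mul (by positivity), Real.sqrt_sq hr.le]

theorem level_set_empty {F : Type*} [NormedAddCommGroup F] (z : F) {r t : ℝ} (ht1 : 1 ≤ t) :
    {x : F | t < Al1_640.ph (‖x - z‖ ^ 2 / r ^ 2)} = ∅ := by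
  ext x
  simp only [mem_ofPred_eq, mem_empty_iff_false, iff_false, not_lt]
  exact (Al1_640.ph_le (by positivity)).trans ht1

theorem lint_eq {F : Type*} [NormedAddCommGroup F] [MeasurableSpace F] [BorelSpace F]
    (μ : Measure F) (z : F) (r : ℝ) :
    ∫⁻ x, ENNReal.ofReal (Al1_640.ph (‖x - z‖ ^ 2 / r ^ 2)) ∂μ
      = ∫⁻ t in Ioi (0:ℝ), μ {x : F | t < Al1_640.ph (‖x - z‖ ^ 2 / r ^ 2)} := by
  refine lintegral_eq_lintegral_meas_lt μ (Eventually.of_forall fun x => Al1_640.ph_nonneg _) ?_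
  exact (Al1_640.continuous_ph.comp (((continuous_id.sub continuous_const).norm.pow 2).div_const
    _)).measurable.aemeasurable

theorem rad_pos {r t : ℝ} (hr : 0 < r) (ht1 : t < 1) : 0 < r * √(1 - √t) := by
  have h1 : √t < 1 := by
    rw [Real.sqrt_lt' one_pos]; simpa using ht1
  have : 0 < 1 - √t := by linarith
  positivity

theorem rad_le {r t : ℝ} (hr : 0 < r) : r * √(1 - √t) ≤ r := by
  have : √(1 - √t) ≤ 1 := by
    rw [Real.sqrt_le_left zero_le_one]
    have := Real.sqrt_nonneg t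
    linarith
  nlinarith

theorem lint_ge {μ : Measure (Euc k)} {z : Euc k} {r A : ℝ} (hr : 0 < r) (hA : 0 ≤ A)
    (h : ∀ s, 0 < s → s ≤ r → ENNReal.ofReal (A * (ome m * s ^ m)) ≤ μ (ball z s)) :
    ENNReal.ofReal A * ∫⁻ x : Euc m, ENNReal.ofReal (Al1_640.ph (‖x - 0‖ ^ 2 / r ^ 2)) ≤
      ∫⁻ x, ENNReal.ofReal (Al1_640.ph (‖x - z‖ ^ 2 / r ^ 2)) ∂μ := by
  rw [lint_eq, lint_eq, ← lintegral_const_mul' _ _ ENNReal.ofReal_ne_top]
  refine setLIntegral_mono_ae' measurableSet_Ioi (Eventually.of_forall fun t ht => ?_)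
  rcases lt_or_ge t 1 with ht1 | ht1
  · rw [level_set z hr (le_of_lt ht) ht1, level_set (0 : Euc m) hr (le_of_lt ht) ht1,
      volume_ball_eq m 0 (rad_pos hr ht1), ← ENNReal.ofReal_mul hA]
    exact h _ (rad_pos hr ht1) (rad_le hr)
  · rw [level_set_empty (0 : Euc m) ht1, measure_empty, mul_zero]
    exact zero_le

theorem lint_le {μ : Measure (Euc k)} {z : Euc k} {r B : ℝ} (hr : 0 < r) (hB : 0 ≤ B)
    (h : ∀ s, 0 < s → s ≤ r → μ (ball z s) ≤ ENNReal.ofReal (B * (ome m * s ^ m))) :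
    ∫⁻ x, ENNReal.ofReal (Al1_640.ph (‖x - z‖ ^ 2 / r ^ 2)) ∂μ ≤
      ENNReal.ofReal B * ∫⁻ x : Euc m, ENNReal.ofReal (Al1_640.ph (‖x - 0‖ ^ 2 / r ^ 2)) := by
  rw [lint_eq, lint_eq, ← lintegral_const_mul' _ _ ENNReal.ofReal_ne_top]
  refine setLIntegral_mono_ae' measurableSet_Ioi (Eventually.of_forall fun t ht => ?_)
  rcases lt_or_ge t 1 with ht1 | ht1
  · rw [level_set z hr (le_of_lt ht) ht1, level_set (0 : Euc m) hr (le_of_lt ht) ht1,
      volume_ball_eq m 0 (rad_pos hr ht1), ← ENNReal.ofReal_mul hB]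
    exact h _ (rad_pos hr ht1) (rad_le hr)
  · rw [level_set_empty z ht1, measure_empty]
    exact zero_le

theorem lint_plane (m : ℕ) {r : ℝ} (hr : 0 < r) :
    ∫⁻ x : Euc m, ENNReal.ofReal (Al1_640.ph (‖x - 0‖ ^ 2 / r ^ 2))
      = ENNReal.ofReal (r ^ m * cph m) := by
  have hint : Integrable (fun x : Euc m => Al1_640.ph (‖x - 0‖ ^ 2 / r ^ 2)) := by
    refine Continuous.integrable_of_hasCompactSupport
      (Al1_640.continuous_ph.comp (by fun_prop)) ?_
    refine HasCompactSupport.of_support_subset_isCompact (isCompact_closedBall (0 : Euc m) r) ?_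
    intro x hx
    by_contra hcon
    exact hx (Al1_640.ph_zero (Al1_640.off_ball hr hcon))
  rw [← ofReal_integral_eq_lintegral_ofReal hint
    (Eventually.of_forall fun x => Al1_640.ph_nonneg _)]
  congr 1
  have h1 := Measure.integral_comp_inv_smul_of_nonneg (volume : Measure (Euc m))
    (fun x => Al1_640.ph (‖x‖ ^ 2)) (R := r) hr.le
  rw [finrank_euclideanSpace_fin, smul_eq_mul] at h1
  rw [cph, ← h1]
  refine integral_congr_ae (Eventually.of_forall fun x => ?_)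
  simp only [sub_zero]
  rw [norm_smul, norm_inv, Real.norm_eq_abs, abs_of_pos hr, mul_pow, inv_pow, ← div_eq_inv_mul]

theorem cph_nonneg (m : ℕ) : 0 ≤ cph m := integral_nonneg fun _ => Al1_640.ph_nonneg _

theorem cph_pos (m : ℕ) : 0 < cph m := by
  refine lt_of_le_of_ne (cph_nonneg m) ?_
  intro h0
  have h1 := lint_plane m one_pos
  rw [← h0, mul_zero, ENNReal.ofReal_zero, lint_eq] at h1
  have h2 : ∫⁻ t in Ioc (0:ℝ) (1/4), volume {x : Euc m | t < Al1_640.ph (‖x - 0‖ ^ 2 / 1 ^ 2)}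
      ≤ 0 := by
    rw [← h1]
    exact lintegral_mono_set Ioc_subset_Ioi_self
  have h3 : ∫⁻ t in Ioc (0:ℝ) (1/4), ENNReal.ofReal (ome m * (√(1/2)) ^ m)
      ≤ ∫⁻ t in Ioc (0:ℝ) (1/4), volume {x : Euc m | t < Al1_640.ph (‖x - 0‖ ^ 2 / 1 ^ 2)} := by
    refine setLIntegral_mono_ae' measurableSet_Ioc (Eventually.of_forall fun t ht => ?_)
    have ht1 : t < 1 := by linarith [ht.2]
    rw [level_set (0 : Euc m) one_pos ht.1.le ht1, volume_ball_eq m 0 (rad_pos one_pos ht1)]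
    refine ENNReal.ofReal_le_ofReal ?_
    have h4 : √t ≤ 1 / 2 := by
      rw [Real.sqrt_le_left (by norm_num)]
      linarith [ht.2]
    have h5 := ome_pos m
    rw [one_mul]
    gcongr
    linarith
  have h4 := h3.trans h2
  rw [setLIntegral_const, Real.volume_Ioc] at h4
  have h5 : 0 < ENNReal.ofReal (ome m * (√(1/2)) ^ m) * ENNReal.ofReal (1 / 4 - 0) := by
    refine ENNReal.mul_pos ?_ ?_
    · rw [ne_eq, ENNReal.ofReal_eq_zero, not_le]
      have := ome_pos m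
      positivity
    · rw [ne_eq, ENNReal.ofReal_eq_zero, not_le]; norm_num
  exact absurd h4 (not_le.2 h5)

/-- the kernel integral as a Lebesgue integral -/
theorem ofReal_int (hV : Stat m k U V) {z : Euc k} {r : ℝ} (hr : 0 < r)
    (hU : closedBall z r ⊆ U) :
    ENNReal.ofReal (∫ p, Al1_640.ph (‖p.1 - z‖ ^ 2 / r ^ 2) ∂V)
      = ∫⁻ x, ENNReal.ofReal (Al1_640.ph (‖x - z‖ ^ 2 / r ^ 2)) ∂(mass V) := by
  rw [ofReal_integral_eq_lintegral_ofReal (Al1_640.integrable_ph hV hr hU)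
    (Eventually.of_forall fun x => Al1_640.ph_nonneg _)]
  unfold mass
  rw [lintegral_map _ measurable_fst]
  exact ((Al1_640.cont_phx z r).measurable).ennreal_ofReal

theorem II_ge (hV : Stat m k U V) {z : Euc k} {r A : ℝ} (hr : 0 < r) (hU : closedBall z r ⊆ U)
    (hA : 0 ≤ A)
    (h : ∀ s, 0 < s → s ≤ r → ENNReal.ofReal (A * (ome m * s ^ m)) ≤ mass V (ball z s)) :
    A * cph m ≤ Al1_640.II m V z r := by
  have h1 := lint_ge (m := m) hr hA h
  rw [lint_plane m hr, ← ofReal_int hV hr hU, ← ENNReal.ofReal_mul hA] at h1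
  have h2 : A * (r ^ m * cph m) ≤ ∫ p, Al1_640.ph (‖p.1 - z‖ ^ 2 / r ^ 2) ∂V :=
    (ENNReal.ofReal_le_ofReal_iff (integral_nonneg fun _ => Al1_640.ph_nonneg _)).1 h1
  unfold Al1_640.II
  rw [le_div_iff₀ (by positivity)]
  linarith

theorem II_le (hV : Stat m k U V) {z : Euc k} {r B : ℝ} (hr : 0 < r) (hU : closedBall z r ⊆ U)
    (hB : 0 ≤ B)
    (h : ∀ s, 0 < s → s ≤ r → mass V (ball z s) ≤ ENNReal.ofReal (B * (ome m * s ^ m))) :
    Al1_640.II m V z r ≤ B * cph m := by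
  have h1 := lint_le (m := m) hr hB h
  rw [lint_plane m hr, ← ofReal_int hV hr hU, ← ENNReal.ofReal_mul hB] at h1
  have h0 := cph_nonneg m
  have h2 : ∫ p, Al1_640.ph (‖p.1 - z‖ ^ 2 / r ^ 2) ∂V ≤ B * (r ^ m * cph m) :=
    (ENNReal.ofReal_le_ofReal_iff (by positivity)).1 h1
  unfold Al1_640.II
  rw [div_le_iff₀ (by positivity)]
  linarith

theorem II_ge_of_Th (hV : Stat m k U V) (hm : 1 ≤ m) {z : Euc k} {r A : ℝ} (hr : 0 < r)
    (hU : closedBall z r ⊆ U) (hA : 0 ≤ A) (h : ENNReal.ofReal A ≤ Th m V z) :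
    A * cph m ≤ Al1_640.II m V z r := by
  refine II_ge hV hr hU hA fun s hs hsr => ?_
  rw [ENNReal.ofReal_mul hA]
  exact mul_le_mass hV hm hs ((ball_subset_ball hsr).trans (ball_subset_closedBall.trans hU)) h

theorem II_le_of_rat (hV : Stat m k U V) (hm : 1 ≤ m) {z : Euc k} {r B : ℝ} (hr : 0 < r)
    (hU : closedBall z r ⊆ U) (hB : 0 ≤ B) (h : rat m V z r ≤ ENNReal.ofReal B) :
    Al1_640.II m V z r ≤ B * cph m := by
  refine II_le hV hr hU hB fun s hs hsr => ?_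
  have h1 := (rat_mono hV hm hs hsr (ball_subset_closedBall.trans hU)).trans h
  unfold rat at h1
  rw [ENNReal.div_le_iff_le_mul (Or.inl (by
    rw [ne_eq, ENNReal.ofReal_eq_zero, not_le]; exact den_pos m hs))
    (Or.inl ENNReal.ofReal_ne_top)] at h1
  rwa [ENNReal.ofReal_mul hB]

/-- the mean value property for a linear function, sup norm one -/
theorem mv_inner (hV : Stat m k U V) {z e : Euc k} {R : ℝ} (hU : ball z R ⊆ U) (he : ‖e‖ = 1)
    {θ : ℝ} (hθ : ∀ s ∈ Ioo 0 R, θ ≤ Al1_640.II m V z s) {r : ℝ} (hr : r ∈ Ioo 0 R) :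
    |∫ p, Al1_640.ph (‖p.1 - z‖ ^ 2 / r ^ 2) * inner ℝ (p.1 - z) e ∂V|
      ≤ (Al1_640.II m V z r - θ) * r ^ m * r := by
  have hrU : closedBall z r ⊆ U := (closedBall_subset_ball hr.2).trans hU
  have hr0 : 0 < r := hr.1
  have key : ∀ R' ∈ Ioo r R, ∀ σ : ℝ, |σ| = 1 →
      σ * ∫ p, Al1_640.ph (‖p.1 - z‖ ^ 2 / r ^ 2) * inner ℝ (p.1 - z) e ∂V
        ≤ R' * ((Al1_640.II m V z r - θ) * r ^ m) := by
    intro R' hR' σ hσ
    have hU' : ball z R' ⊆ U := (ball_subset_ball hR'.2.le).trans hU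
    set ℓ : Euc k →L[ℝ] ℝ := -(σ • innerSL ℝ e) with hℓ
    have hval : ∀ x : Euc k, (R' + σ * inner ℝ z e) + ℓ x = R' - σ * inner ℝ (x - z) e := by
      intro x
      rw [hℓ]
      simp only [neg_apply, smul_apply, innerSL_apply_apply, smul_eq_mul]
      rw [inner_sub_left, real_inner_comm x e, real_inner_comm]
      ring
    have hb : ∀ x : Euc k, ‖x - z‖ ≤ R' → 0 ≤ (R' + σ * inner ℝ z e) + ℓ x := by
      intro x hx
      rw [hval]
      have h1 : |σ * (inner ℝ (x - z) e : ℝ)| ≤ R' := by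
        rw [abs_mul, hσ, one_mul]
        calc |(inner ℝ (x - z) e : ℝ)| ≤ ‖x - z‖ * ‖e‖ := abs_real_inner_le_norm _ _
          _ ≤ R' := by rw [he, mul_one]; exact hx
      have := le_abs_self (σ * (inner ℝ (x - z) e : ℝ))
      linarith
    have h1 := Al1_640.mean_value hV hU' (R' + σ * inner ℝ z e) ℓ
      (Eventually.of_forall fun p hp => hb p.1 (by
        rw [mem_ball, dist_eq_norm] at hp; exact hp.le))
      (hb z (by simp; linarith [hR'.1])) (θ := θ) (r := r)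
      (fun s hs => hθ s ⟨hs.1, hs.2.trans hR'.2⟩) ⟨hr0, hR'.1⟩
    rw [hval, sub_self, inner_zero_left, mul_zero, sub_zero, le_div_iff₀ (by positivity)] at h1
    have h2 : Al1_640.HH V z (R' + σ * inner ℝ z e) ℓ r
        = R' * (∫ p, Al1_640.ph (‖p.1 - z‖ ^ 2 / r ^ 2) ∂V)
          - σ * ∫ p, Al1_640.ph (‖p.1 - z‖ ^ 2 / r ^ 2) * inner ℝ (p.1 - z) e ∂V := by
      unfold Al1_640.HH
      rw [← integral_const_mul, ← integral_const_mul, ← integral_sub
        ((Al1_640.integrable_ph hV hr0 hrU).const_mul _)]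
      · refine integral_congr_ae (Eventually.of_forall fun p => ?_)
        simp only
        rw [hval]
        ring
      · refine Integrable.const_mul ?_ _
        exact Al1_640.integrable_ph_smul hV hr0 hrU (φ := fun x => inner ℝ (x - z) e)
          (by fun_prop)
    rw [h2] at h1
    have h3 : ∫ p, Al1_640.ph (‖p.1 - z‖ ^ 2 / r ^ 2) ∂V = Al1_640.II m V z r * r ^ m := by
      unfold Al1_640.II
      rw [div_mul_cancel₀ _ (by positivity)]
    rw [h3] at h1
    nlinarith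
  have lim : ∀ σ : ℝ, |σ| = 1 →
      σ * ∫ p, Al1_640.ph (‖p.1 - z‖ ^ 2 / r ^ 2) * inner ℝ (p.1 - z) e ∂V
        ≤ r * ((Al1_640.II m V z r - θ) * r ^ m) := by
    intro σ hσ
    have ht : Tendsto (fun R' : ℝ => R' * ((Al1_640.II m V z r - θ) * r ^ m)) (𝓝[>] r)
        (𝓝 (r * ((Al1_640.II m V z r - θ) * r ^ m))) := by
      have : Continuous (fun R' : ℝ => R' * ((Al1_640.II m V z r - θ) * r ^ m)) := by fun_prop
      exact (this.tendsto r).mono_left nhdsWithin_le_nhds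
    refine ge_of_tendsto ht ?_
    filter_upwards [Ioo_mem_nhdsGT hr.2] with R' hR'
    exact key R' hR' σ hσ
  have h1 := lim 1 (by simp)
  have h2 := lim (-1) (by simp)
  rw [abs_le]
  constructor <;> nlinarith

/-- **NO HOLES** -/
theorem noHole (hV : Stat m k U V) {T : Submodule ℝ (Euc k)} (hT : Module.finrank ℝ T = m)
    {S : Set (Euc k)} (hS : ∀ᵐ p ∂V, p.1 ∈ U → p.1 ∈ S) {x0 : Euc k} {R θ δ lam : ℝ} (hR : 0 < R)
    (hU : ball x0 (2 * R) ⊆ U) (hθ : 0 < θ) (hδ : 0 ≤ δ) (hδm : 64 * 2 ^ m * δ ≤ 1)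
    (hlam : 2048 * 2 ^ m * lam ^ 2 ≤ 1)
    (hlow : ∀ X ∈ S, X ∈ ball x0 R → ∀ s ∈ Ioo 0 R, θ ≤ Al1_640.II m V X s)
    (hup : ∀ X ∈ S, X ∈ ball x0 R → ∀ s ∈ Ioo 0 R, Al1_640.II m V X s ≤ (1 + δ) * θ)
    (hflat : ∀ x ∈ S, x ∈ ball x0 R → ∀ y ∈ S, y ∈ ball x0 R →
      ‖Tᗮ.starProjection (y - x)‖ ≤ lam * ‖y - x‖) :
    Al5_182.NoHole T S x0 R := by
  intro X hXS hXR e he hen d hd ρ hρ
  have hXR' : dist X x0 < R := hXR
  set R1 := (R - dist X x0) / 2 with hR1
  have hR1p : 0 < R1 := by rw [hR1]; linarith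
  have hd0 := dist_nonneg (x := X) (y := x0)
  have hR1R : R1 < R := by rw [hR1]; linarith
  have hUX : ball X R ⊆ U := by
    refine (ball_subset_ball' ?_).trans hU
    linarith
  have hsub : ball X R1 ⊆ ball x0 R := by
    refine ball_subset_ball' ?_
    rw [hR1]; linarith
  have hint : ∀ r, ∫ z, Al4_182.ker 2 X r z.1 ∂V
      = ∫ p, Al1_640.ph (‖p.1 - X‖ ^ 2 / r ^ 2) ∂V := fun r => rfl
  have hII : ∀ r, 0 < r → ∫ p, Al1_640.ph (‖p.1 - X‖ ^ 2 / r ^ 2) ∂V
      = Al1_640.II m V X r * r ^ m := by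
    intro r hr
    unfold Al1_640.II
    rw [div_mul_cancel₀ _ (by positivity)]
  refine Al6_182.no_hole_local (st_of_stat hV) hT (tr_ae hV) (S := S) (X₀ := X) (R := R1) hR1p
    ((closedBall_subset_ball hR1R).trans hUX) hθ hδ hδm hlam ?_ ?_ he hen ?_ ?_ ?_ hd hρ
  · intro r hr hrR
    rw [hint, hII r hr]
    exact mul_le_mul_of_nonneg_right (hlow X hXS hXR r ⟨hr, by linarith⟩) (by positivity)
  · intro r hr hrR
    rw [hint, hII r hr]
    exact mul_le_mul_of_nonneg_right (hup X hXS hXR r ⟨hr, by linarith⟩) (by positivity)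
  · intro r hr hrR
    have h1 := mv_inner hV hUX hen (hlow X hXS hXR) (r := r) ⟨hr, by linarith⟩
    refine (le_of_eq ?_).trans (h1.trans ?_)
    · rfl
    · have h2 := hup X hXS hXR r ⟨hr, by linarith⟩
      have h3 : Al1_640.II m V X r - θ ≤ δ * θ := by linarith
      gcongr
  · filter_upwards [hS] with p hp hpb
    exact hp (hUX (ball_subset_ball hR1R.le hpb))
  · intro y hy hyb
    exact hflat X hXS hXR y hy (hsub hyb)

end

end Crest.Agent.R234.Al7_182
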