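import Crest.Agent.R234.Al6_640
import Crest.Agent.R234.Al7_182

/-!
R234 (helper182), VF-ALLARD part 8: assembly for general stationary varifolds.
`graph_of_flat`: mass ratio close to `Q`, density `≥ Q` on the support, support close to a plane
==> the support is a `C^{1,α}` graph.
-/

set_option autoImplicit false

open MeasureTheory Metric Set Filter Topology
open Crest.GeometryTopology.Submanifold
open scoped ENNReal RealInnerProductSpace

namespace Crest.Agent.R234.Al8_182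

open Crest.Agent.R234.Vf_884 Crest.Agent.R234.Al7_182

noncomputable section

variable {m k : ℕ}

/-- cone condition from the pointwise expansions -/
theorem cone_of_exp {T : Submodule ℝ (Euc k)} {S : Set (Euc k)} {x0 : Euc k} {R Λ K α : ℝ}
    (hα : 0 < α) (hK : 0 ≤ K) (hKR : K * (2 * R) ^ α ≤ Λ) (G : Euc k → Euc k →L[ℝ] Tᗮ)
    (hG : ∀ x ∈ S, x ∈ ball x0 R → ‖G x - Tᗮ.orthogonalProjectionOnto‖ ≤ Λ)
    (hGx : ∀ x ∈ S, x ∈ ball x0 R → ∀ y ∈ S, y ∈ ball x0 R →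
      ‖G x (y - x)‖ ≤ K * ‖y - x‖ ^ (1 + α)) :
    ∀ x ∈ S, x ∈ ball x0 R → ∀ y ∈ S, y ∈ ball x0 R →
      ‖Tᗮ.starProjection (y - x)‖ ≤ (2 * Λ) * ‖y - x‖ := by
  intro x hx hxR y hy hyR
  have h1 := hGx x hx hxR y hy hyR
  have hd : ‖y - x‖ ≤ 2 * R := by
    rw [mem_ball, dist_eq_norm] at hxR hyR
    calc ‖y - x‖ = ‖(y - x0) - (x - x0)‖ := by congr 1; abel
      _ ≤ ‖y - x0‖ + ‖x - x0‖ := norm_sub_le _ _
      _ ≤ 2 * R := by linarith
  have h2 : K * ‖y - x‖ ^ (1 + α) ≤ Λ * ‖y - x‖ := by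
    rcases eq_or_lt_of_le (norm_nonneg (y - x)) with h0 | h0
    · rw [← h0, Real.zero_rpow (by linarith)]; simp
    · rw [add_comm 1 α, Real.rpow_add h0, Real.rpow_one, ← mul_assoc]
      refine mul_le_mul_of_nonneg_right (le_trans ?_ hKR) h0.le
      exact mul_le_mul_of_nonneg_left (Real.rpow_le_rpow h0.le hd hα.le) hK
  have h3 : Tᗮ.orthogonalProjectionOnto (y - x)
      = G x (y - x) - (G x - Tᗮ.orthogonalProjectionOnto) (y - x) := by
    rw [sub_apply]; abel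
  have h4 : ‖Tᗮ.starProjection (y - x)‖ = ‖Tᗮ.orthogonalProjectionOnto (y - x)‖ := rfl
  rw [h4, h3]
  calc ‖G x (y - x) - (G x - Tᗮ.orthogonalProjectionOnto) (y - x)‖
      ≤ ‖G x (y - x)‖ + ‖(G x - Tᗮ.orthogonalProjectionOnto) (y - x)‖ := norm_sub_le _ _
    _ ≤ Λ * ‖y - x‖ + Λ * ‖y - x‖ := by
        refine add_le_add (h1.trans h2) ?_
        exact (ContinuousLinearMap.le_opNorm _ _).trans
          (mul_le_mul_of_nonneg_right (hG x hx hxR) (norm_nonneg _))
    _ = (2 * Λ) * ‖y - x‖ := by ring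

/-- choice of the radius fraction -/
theorem exists_eta (m : ℕ) {δ : ℝ} (hδ : 0 < δ) :
    ∃ η : ℝ, 0 < η ∧ η ≤ 1 / 2 ∧ (1 + δ / 2) * (1 / (1 - η)) ^ m ≤ 1 + δ := by
  have h1 : Tendsto (fun η : ℝ => (1 + δ / 2) * (1 / (1 - η)) ^ m) (𝓝[>] 0)
      (𝓝 ((1 + δ / 2) * (1 / (1 - 0)) ^ m)) := by
    have h2 : ContinuousAt (fun η : ℝ => (1 + δ / 2) * (1 / (1 - η)) ^ m) 0 := by
      refine continuousAt_const.mul (ContinuousAt.pow ?_ m)
      exact continuousAt_const.div (continuousAt_const.sub continuousAt_id) (by norm_num)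
    exact h2.tendsto.mono_left nhdsWithin_le_nhds
  have h2 : (1 + δ / 2) * (1 / (1 - 0)) ^ m < 1 + δ := by
    rw [sub_zero, div_one, one_pow, mul_one]; linarith
  obtain ⟨η, h3, h4⟩ := ((h1.eventually_lt_const h2).and
    (Ioc_mem_nhdsGT (show (0:ℝ) < 1 / 2 by norm_num))).exists
  exact ⟨η, h4.1, h4.2, h3.le⟩

/-- **ALLARD, graph form, for general stationary varifolds** -/
theorem graph_of_flat (m : ℕ) (hm : 1 ≤ m) {α Λ₀ τ : ℝ} (hα : 0 < α) (hα1 : α < 1)
    (hΛ₀ : 0 < Λ₀) (hτ : 0 < τ) :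
    ∃ c > 0, c ≤ 1 / 96 ∧ ∃ ε > 0, ∃ Λ, 0 < Λ ∧ Λ ≤ Λ₀ ∧ ∀ {k : ℕ} {U : Set (Euc k)}
      {V : Measure (Euc k × L k)}, Stat m k U V → ∀ {S : Set (Euc k)}, IsClosed S →
      (∀ᵐ p ∂V, p.1 ∈ U → p.1 ∈ S) → ∀ {x0 : Euc k} {r Q : ℝ} {T : Submodule ℝ (Euc k)},
      x0 ∈ S → 0 < r → ball x0 r ⊆ U → 0 < Q → Module.finrank ℝ T = m →
      (∀ x ∈ S, x ∈ ball x0 r → ENNReal.ofReal Q ≤ Th m V x) →
      rat m V x0 r ≤ ENNReal.ofReal ((1 + ε) * Q) →
      (∀ x ∈ S, x ∈ ball x0 r → ‖Tᗮ.starProjection (x - x0)‖ ≤ ε * r) →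
      (∀ z ∈ ball x0 (12 * c * r), Th m V z ≤ ENNReal.ofReal ((1 + τ) * Q)) ∧
      ∃ (u : T → Tᗮ) (g : T → T →L[ℝ] Tᗮ) (K : ℝ),
        Al5_182.GraphData T S x0 u g (c * r) (6 * c * r) Λ K α := by
  obtain ⟨C, hC, δ0, hδ0, hδ01, H⟩ := Al1_640.flat_pt m hα hα1
  set δ : ℝ := min δ0 (min (1 / (64 * 2 ^ m)) τ) with hδdef
  have hδ : 0 < δ := by positivity
  have hδ1 : δ ≤ δ0 := min_le_left _ _
  have hδ2 : 64 * 2 ^ m * δ ≤ 1 := by
    have h1 : δ ≤ 1 / (64 * 2 ^ m) := (min_le_right _ _).trans (min_le_left _ _)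
    rw [le_div_iff₀ (by positivity)] at h1
    linarith
  have hδ3 : δ ≤ τ := (min_le_right _ _).trans (min_le_right _ _)
  obtain ⟨η, hη, hη2, hηδ⟩ := exists_eta m hδ
  set Λ : ℝ := min Λ₀ (1 / (128 * 2 ^ m)) with hΛdef
  have h2m : (1 : ℝ) ≤ 2 ^ m := one_le_pow₀ (by norm_num)
  have hΛ : 0 < Λ := by positivity
  have hΛ1 : Λ ≤ 1 / (128 * 2 ^ m) := min_le_right _ _
  have hΛ1' : 128 * 2 ^ m * Λ ≤ 1 := by
    rw [le_div_iff₀ (by positivity)] at hΛ1
    linarith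
  have hΛ8 : Λ ≤ 1 / 8 := by nlinarith
  have hlam : 2048 * 2 ^ m * (2 * Λ) ^ 2 ≤ 1 := by
    have h1 : 0 ≤ 2 ^ m * Λ := by positivity
    have h2 : Λ ≤ 1 / 128 := by nlinarith
    nlinarith
  set ε : ℝ := min (δ / 2) (η * Λ / C) with hεdef
  have hε : 0 < ε := by positivity
  have hεδ : ε ≤ δ / 2 := min_le_left _ _
  have hεC : C * ε / η ≤ Λ := by
    have h1 : ε ≤ η * Λ / C := min_le_right _ _
    rw [le_div_iff₀ hC] at h1
    rw [div_le_iff₀ hη]
    linarith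
  refine ⟨η / 48, by positivity, by linarith, ε, hε, Λ, hΛ, min_le_left _ _, ?_⟩
  intro k U V hV S hScl hS x0 r Q T hx0 hr hU hQ hT hTh hrat hflat
  -- linear bookkeeping
  obtain ⟨a, ha⟩ : ∃ a : ℝ, a = η * r := ⟨_, rfl⟩
  have hap : 0 < a := by rw [ha]; positivity
  have har : a ≤ r / 2 := by rw [ha]; nlinarith
  have h1a : (1 - η) * r = r - a := by rw [ha]; ring
  have h1η : 0 < 1 - η := by linarith
  obtain ⟨R, hR⟩ : ∃ R : ℝ, R = a / 4 := ⟨_, rfl⟩
  have hRp : 0 < R := by rw [hR]; positivity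
  -- ratios at nearby points
  have hnear : ∀ z ∈ ball x0 a, ∀ s, 0 < s → s ≤ r - a →
      rat m V z s ≤ ENNReal.ofReal ((1 + δ) * Q) := by
    intro z hz s hs hsr
    have hz' : dist z x0 < a := hz
    have hb : ball z (r - a) ⊆ U := (ball_subset_ball' (by linarith)).trans hU
    refine (rat_mono hV hm hs hsr hb).trans ?_
    refine (rat_shift V m hr (z := x0) (w := z) (s := r - a) (by linarith)
      (by linarith)).trans ?_
    have h3 : r / (r - a) = 1 / (1 - η) := by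
      rw [← h1a]; field_simp
    rw [h3]
    refine (mul_le_mul_left hrat _).trans ?_
    rw [← ENNReal.ofReal_mul (by positivity)]
    refine ENNReal.ofReal_le_ofReal ?_
    have h4 : 0 ≤ (1 / (1 - η)) ^ m := by positivity
    calc (1 + ε) * Q * (1 / (1 - η)) ^ m ≤ (1 + δ / 2) * Q * (1 / (1 - η)) ^ m := by
          gcongr
      _ = (1 + δ / 2) * (1 / (1 - η)) ^ m * Q := by ring
      _ ≤ (1 + δ) * Q := by gcongr
  obtain ⟨θ, hθdef⟩ : ∃ θ : ℝ, θ = Q * cph m := ⟨_, rfl⟩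
  have hθ : 0 < θ := by rw [hθdef]; exact mul_pos hQ (cph_pos m)
  have hlo : ∀ x ∈ S, x ∈ ball x0 a → ∀ s, 0 < s → s < r - a →
      θ ≤ Al1_640.II m V x s := by
    intro x hx hxb s hs hsr
    have hxb' : dist x x0 < a := hxb
    rw [hθdef]
    refine II_ge_of_Th hV hm hs ?_ hQ.le (hTh x hx (ball_subset_ball (by linarith) hxb))
    exact (closedBall_subset_ball' (by linarith)).trans hU
  have hhi : ∀ x ∈ S, x ∈ ball x0 a → ∀ s, 0 < s → s < r - a →
      Al1_640.II m V x s ≤ (1 + δ) * θ := by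
    intro x _ hxb s hs hsr
    have hxb' : dist x x0 < a := hxb
    have h3 := II_le_of_rat hV hm hs (z := x) (B := (1 + δ) * Q) ((closedBall_subset_ball'
      (by linarith)).trans hU) (by positivity) (hnear x hxb s hs hsr.le)
    rw [hθdef]
    linarith
  have hRa : R ≤ a := by rw [hR]; linarith
  obtain ⟨K, hKdef⟩ : ∃ K : ℝ, K = C * (ε * r) * (1 / a) ^ (1 + α) := ⟨_, rfl⟩
  have hK : 0 ≤ K := by rw [hKdef]; positivity
  -- pointwise expansions
  have hpt : ∀ x : Euc k, ∃ G' : Euc k →L[ℝ] Tᗮ, x ∈ S → x ∈ ball x0 R →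
      ‖G' - Tᗮ.orthogonalProjectionOnto‖ ≤ Λ ∧ ∀ y ∈ S, y ∈ ball x0 R →
        ‖G' (y - x)‖ ≤ K * ‖y - x‖ ^ (1 + α) := by
    intro x
    by_cases hx : x ∈ S ∧ x ∈ ball x0 R
    · have hxR : dist x x0 < R := hx.2
      have hsub : ball x a ⊆ ball x0 r := ball_subset_ball' (by linarith)
      have hP : Al1_640.Pin m V S x a θ δ := by
        refine ⟨fun y hy hyb s hs hsr => ?_, fun y hy hyb s hs hsr => ?_⟩
        · refine hlo y hy ?_ s hs (by linarith)
          rw [mem_ball] at hyb ⊢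
          have := dist_triangle y x x0
          linarith
        · refine hhi y hy ?_ s hs (by linarith)
          rw [mem_ball] at hyb ⊢
          have := dist_triangle y x x0
          linarith
      obtain ⟨G', hG1, hG2⟩ := H hV hS (x1 := x) (ρ := a) (θ := θ) (δ := δ)
        (ε := ε * r) (F := Tᗮ) hap (hsub.trans hU) hθ hδ1 hP hx.1
        (-(Tᗮ.orthogonalProjectionOnto x0)) Tᗮ.orthogonalProjectionOnto (by
          intro y hy hyb
          have h3 := hflat y hy (hsub hyb)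
          rw [neg_add_eq_sub, ← map_sub]
          exact h3)
      refine ⟨G', fun _ _ => ⟨hG1.trans ?_, fun y hy hyb => ?_⟩⟩
      · refine le_trans (le_of_eq ?_) hεC
        rw [ha]
        field_simp
      · have hyx : y ∈ ball x a := by
          rw [mem_ball] at hyb ⊢
          have := dist_triangle_right y x x0
          linarith
        refine (hG2 y hy hyx).trans (le_of_eq ?_)
        rw [hKdef, div_eq_mul_one_div, mul_comm ‖y - x‖,
          Real.mul_rpow (by positivity) (norm_nonneg _)]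
        ring
    · exact ⟨0, fun h1 h2 => absurd ⟨h1, h2⟩ hx⟩
  choose G hG using hpt
  have hKR : K * (2 * R) ^ α ≤ Λ := by
    have h3 : (2 * R) ^ α ≤ a ^ α :=
      Real.rpow_le_rpow (by positivity) (by linarith) hα.le
    have h4 : (1 / a) ^ (1 + α) * a ^ α = 1 / a := by
      rw [Real.rpow_add (by positivity), Real.rpow_one, mul_assoc,
        ← Real.mul_rpow (by positivity) hap.le, one_div_mul_cancel hap.ne', Real.one_rpow, mul_one]
    calc K * (2 * R) ^ α ≤ K * a ^ α := by gcongr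
      _ = C * (ε * r) * ((1 / a) ^ (1 + α) * a ^ α) := by rw [hKdef]; ring
      _ = C * ε / η := by rw [h4, ha]; field_simp
      _ ≤ Λ := hεC
  have hcone := cone_of_exp (T := T) (S := S) (x0 := x0) (R := R) (Λ := Λ) (K := K) hα hK hKR G
    (fun x hx hxR => (hG x hx hxR).1) (fun x hx hxR => (hG x hx hxR).2)
  have hNH : Al5_182.NoHole T S x0 R := by
    refine noHole hV hT hS (R := R) (θ := θ) (δ := δ) (lam := 2 * Λ) hRp ?_ hθ hδ.le hδ2 hlam
      ?_ ?_ hcone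
    · exact (ball_subset_ball (by linarith)).trans hU
    · intro X hX hXR s hs
      exact hlo X hX (ball_subset_ball hRa hXR) s hs.1 (by linarith [hs.2])
    · intro X hX hXR s hs
      exact hhi X hX (ball_subset_ball hRa hXR) s hs.1 (by linarith [hs.2])
  refine ⟨?_, ?_⟩
  · intro z hz
    have hz' : z ∈ ball x0 a := ball_subset_ball (by rw [ha]; nlinarith) hz
    have hzd : dist z x0 < a := hz'
    have hb : ball z (r - a) ⊆ U := (ball_subset_ball' (by linarith)).trans hU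
    refine (Th_le_rat hV hm (by linarith) hb).trans
      ((hnear z hz' _ (by linarith) le_rfl).trans ?_)
    refine ENNReal.ofReal_le_ofReal ?_
    gcongr
  · obtain ⟨u, g, hg⟩ := Al5_182.graph (T := T) (S := S) (x0 := x0) (R := R) (Λ := Λ) (K := K)
      hRp hα hα1.le hx0 ((isCompact_closedBall x0 (R / 2)).inter_left hScl) hΛ8 hK hKR G
      (fun x hx hxR => (hG x hx hxR).1) (fun x hx hxR => (hG x hx hxR).2) hNH
    refine ⟨u, g, 32 * K, ?_⟩
    have e1 : η / 48 * r = R / 12 := by rw [hR, ha]; ring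
    have e2 : 6 * (η / 48) * r = R / 2 := by rw [hR, ha]; ring
    rw [e1, e2]
    exact hg

end

end Crest.Agent.R234.Al8_182
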