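import Crest.Agent.R234.Strat3_842

/-!
Row 234, VF-STRAT2 (helper842), part 2: the stratum of non-flat points has dimension `≤ m - 1`
(no tangent cones, no compactness).
-/

set_option autoImplicit false

open Set Filter Topology MeasureTheory Metric Module Function
open Crest.GeometryTopology.Submanifold
open Crest.Agent.R234.Vf_884
open scoped ENNReal NNReal InnerProductSpace

noncomputable section

namespace Crest.Agent.R234.Strat3_842

section general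

variable {E : Type*} [NormedAddCommGroup E] [NormedSpace ℝ E] [FiniteDimensional ℝ E]

/-- a set of dimension `> m - 1`, cut into countably many pieces: one piece contains, at
arbitrarily small scales, `m + 1` effectively spanning points.  The constant `K` does not depend on
the pieces. -/
theorem exists_spanning {m : ℕ} (hm : 1 ≤ m) (A : Set E) (hA : ((m - 1 : ℕ) : ℝ≥0∞) < dimH A) :
    ∃ K : ℝ, 0 < K ∧ ∀ T : ℕ → Set E, A ⊆ ⋃ n, T n → ∃ n, ∀ ρ₀ : ℝ, 0 < ρ₀ →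
      ∃ x ∈ A ∩ T n, ∃ ρ : ℝ, 0 < ρ ∧ ρ ≤ ρ₀ ∧ ∃ v : Fin m → E,
        (∀ i, ‖v i‖ ≤ 1 ∧ x + ρ • v i ∈ A ∩ T n) ∧
        ∀ (c : Fin m → ℝ) (i : Fin m), |c i| ≤ K * ‖∑ i, c i • v i‖ := by
  obtain ⟨s, hs1, hs2⟩ := ENNReal.lt_iff_exists_nnreal_btwn.1 hA
  have hs : ((m - 1 : ℕ) : ℝ) < s := by
    have : (((m - 1 : ℕ) : ℝ≥0) : ℝ≥0∞) < (s : ℝ≥0∞) := by simpa using hs1
    exact_mod_cast this
  obtain ⟨δ, hδ, hE⟩ := Strat_842.exists_delta E (m - 1) s hs
  refine ⟨(1 + 1 / δ) ^ m, by positivity, fun T hT => ?_⟩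
  have h1 : ∃ n, (s : ℝ≥0∞) < dimH (A ∩ T n) := by
    by_contra hcon
    push Not at hcon
    have h2 : dimH A ≤ s := by
      calc dimH A ≤ dimH (⋃ n, A ∩ T n) := by
            refine dimH_mono fun x hx => ?_
            obtain ⟨n, hn⟩ := mem_iUnion.1 (hT hx)
            exact mem_iUnion.2 ⟨n, hx, hn⟩
        _ = ⨆ n, dimH (A ∩ T n) := dimH_iUnion _
        _ ≤ s := iSup_le hcon
    exact absurd h2 (not_le.2 hs2)
  obtain ⟨n, hn⟩ := h1
  refine ⟨n, fun ρ₀ hρ₀ => ?_⟩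
  have h3 : ¬ ∀ x ∈ A ∩ T n, ∀ ρ : ℝ, 0 < ρ → ρ ≤ ρ₀ → Strat_842.Near (m - 1) (A ∩ T n) x ρ δ :=
    fun h => absurd (hE (A ∩ T n) ρ₀ hρ₀ h) (not_le.2 hn)
  push Not at h3
  obtain ⟨x, hx, ρ, hρ, hρ', hnear⟩ := h3
  refine ⟨x, hx, ρ, hρ, hρ', ?_⟩
  have H : ∀ W : Submodule ℝ E, finrank ℝ W < m →
      ∃ v ∈ {v : E | ‖v‖ ≤ 1 ∧ x + ρ • v ∈ A ∩ T n}, ∀ l ∈ W, δ < ‖v - l‖ := by
    intro W hW
    unfold Strat_842.Near at hnear
    push Not at hnear
    obtain ⟨y, hy, hd, hl⟩ := hnear W (by omega)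
    have e : ρ • (ρ⁻¹ • (y - x)) = y - x := by
      rw [smul_smul, mul_inv_cancel₀ hρ.ne', one_smul]
    refine ⟨ρ⁻¹ • (y - x), ⟨?_, ?_⟩, fun l hlW => ?_⟩
    · rw [norm_smul, Real.norm_of_nonneg (by positivity), ← dist_eq_norm, inv_mul_le_iff₀ hρ]
      linarith
    · rw [e]; simpa using hy
    · have h4 := hl (ρ • l) (W.smul_mem _ hlW)
      rw [← e, ← smul_sub, norm_smul, Real.norm_of_nonneg hρ.le, mul_comm] at h4
      exact lt_of_mul_lt_mul_right (by linarith) hρ.le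
  obtain ⟨v, hvB, hv⟩ := exists_fat _ (fun v hv => hv.1) hδ m H m le_rfl
  exact ⟨v, hvB, hv⟩

end general

variable {m k : ℕ} {V : Measure (Euc k × L k)}

theorem continuous_defect (z : Euc k) : Continuous (defect z) := by
  unfold defect
  have h : Continuous fun p : Euc k × L k => p.2 (p.1 - z) :=
    continuous_snd.clm_apply (continuous_fst.sub continuous_const)
  fun_prop

theorem continuous_tilt (P : L k) : Continuous (tilt P) := by
  unfold tilt
  exact tr.continuous.comp (continuous_const.clm_comp continuous_snd)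

theorem continuous_height (P : L k) (x : Euc k) : Continuous (height P x) := by
  unfold height
  fun_prop

theorem defect_le {z : Euc k} {p : Euc k × L k} (hp : p.2 ∈ G m k) : defect z p ≤ ‖p.1 - z‖ ^ 2 := by
  have := G_norm_sq_add hp (p.1 - z)
  unfold defect
  nlinarith [sq_nonneg ‖p.2 (p.1 - z)‖]

theorem integrableOn_of_bdd (hc : ∀ᵐ p ∂V, p.2 ∈ G m k) {x : Euc k} {r : ℝ}
    (hfin : V (ball x r ×ˢ univ) < ⊤) {f : Euc k × L k → ℝ} (hf : Continuous f) :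
    IntegrableOn f (ball x r ×ˢ univ) V := by
  have hK : IsCompact (closedBall x r ×ˢ G m k) := (isCompact_closedBall x r).prod (isCompact_G m k)
  obtain ⟨C, hC⟩ := hK.exists_bound_of_continuousOn hf.continuousOn
  refine Measure.integrableOn_of_bounded (M := C) hfin.ne hf.aestronglyMeasurable ?_
  filter_upwards [ae_restrict_mem (measurableSet_ball.prod MeasurableSet.univ),
    ae_restrict_of_ae hc] with p hp hp2
  exact hC p ⟨ball_subset_closedBall hp.1, hp2⟩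

/-- scaled defect in a ball (not normalised). -/
def dInt (V : Measure (Euc k × L k)) (x : Euc k) (r : ℝ) : ℝ :=
  ∫ p in ball x r ×ˢ univ, defect x p ∂V

/-- `V` is `ε`-flat in `B_r(x)`: tilt and height w.r.t. some `m`-plane through `x`. -/
def Flat (m : ℕ) (V : Measure (Euc k × L k)) (x : Euc k) (r ε : ℝ) : Prop :=
  ∃ P ∈ G m k, ∫ p in ball x r ×ˢ univ, (r ^ 2 * tilt P p + height P x p) ∂V ≤ ε * r ^ (m + 2)

/-- the pinching estimate. -/
theorem excess_int (hc : ∀ᵐ p ∂V, p.2 ∈ G m k) {v : Fin m → Euc k} {K : ℝ} (hK : 0 ≤ K)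
    (hv1 : ∀ i, ‖v i‖ ≤ 1)
    (hv : ∀ (c : Fin m → ℝ) (i : Fin m), |c i| ≤ K * ‖∑ i, c i • v i‖) {x : Euc k} {r : ℝ}
    (hr : 0 < r) (hfin : V (ball x (3 * r) ×ˢ univ) < ⊤) {κ : ℝ}
    (h0 : dInt V x (2 * r) ≤ κ) (hi : ∀ i, dInt V (x + r • v i) (2 * r) ≤ κ) :
    ∫ p in ball x r ×ˢ univ, (r ^ 2 * tilt (plane v).starProjection p +
      height (plane v).starProjection x p) ∂V ≤ (2 + 20 * (m * K) ^ 2 * m) * κ := by
  set P := (plane v).starProjection with hP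
  have hsub : ∀ z : Euc k, ‖z - x‖ ≤ r → ball x r ⊆ ball z (2 * r) ∧ ball z (2 * r) ⊆ ball x (3 * r) := by
    intro z hz
    rw [← dist_eq_norm] at hz
    constructor
    · exact ball_subset_ball' (by rw [dist_comm] at hz; linarith)
    · exact ball_subset_ball' (by linarith)
  have hfin' : ∀ z : Euc k, ‖z - x‖ ≤ r → V (ball z (2 * r) ×ˢ univ) < ⊤ := fun z hz =>
    (measure_mono (Set.prod_mono (hsub z hz).2 Subset.rfl)).trans_lt hfin
  have hfin0 : V (ball x r ×ˢ univ) < ⊤ :=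
    (measure_mono (Set.prod_mono (ball_subset_ball (by linarith)) Subset.rfl)).trans_lt hfin
  have hint : ∀ z : Euc k, IntegrableOn (defect z) (ball x r ×ˢ univ) V := fun z =>
    integrableOn_of_bdd hc hfin0 (continuous_defect z)
  have hle : ∀ z : Euc k, ‖z - x‖ ≤ r → ∫ p in ball x r ×ˢ univ, defect z p ∂V ≤ dInt V z (2 * r) := by
    intro z hz
    refine setIntegral_mono_set (integrableOn_of_bdd hc (hfin' z hz) (continuous_defect z)) ?_ ?_
    · exact Filter.Eventually.of_forall fun p => defect_nonneg z p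
    · exact (Set.prod_mono (hsub z hz).1 Subset.rfl).eventuallyLE
  have hzi : ∀ i, ‖x + r • v i - x‖ ≤ r := by
    intro i
    rw [add_sub_cancel_left, norm_smul, Real.norm_of_nonneg hr.le]
    nlinarith [hv1 i]
  have h1 : ∫ p in ball x r ×ˢ univ, (r ^ 2 * tilt P p + height P x p) ∂V ≤
      ∫ p in ball x r ×ˢ univ, ((2 + 10 * (m * K) ^ 2 * m) * defect x p +
        10 * (m * K) ^ 2 * ∑ i, defect (x + r • v i) p) ∂V := by
    refine setIntegral_mono_ae_restrict ?_ ?_ ?_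
    · exact integrableOn_of_bdd hc hfin0
        ((continuous_const.mul (continuous_tilt P)).add (continuous_height P x))
    · refine integrableOn_of_bdd hc hfin0 ?_
      exact (continuous_const.mul (continuous_defect x)).add
        (continuous_const.mul (continuous_finsetSum _ fun i _ => continuous_defect _))
    · filter_upwards [ae_restrict_mem (measurableSet_ball.prod MeasurableSet.univ),
        ae_restrict_of_ae hc] with p hp hp2
      have hy : ‖p.1 - x‖ ≤ r := by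
        rw [← dist_eq_norm]; exact (mem_ball.1 hp.1).le
      exact excess_pt hK hv hp2 x p.1 r hy
  have h2 : ∫ p in ball x r ×ˢ univ, ((2 + 10 * (m * K) ^ 2 * m) * defect x p +
        10 * (m * K) ^ 2 * ∑ i, defect (x + r • v i) p) ∂V =
      (2 + 10 * (m * K) ^ 2 * m) * (∫ p in ball x r ×ˢ univ, defect x p ∂V) +
        10 * (m * K) ^ 2 * ∑ i, ∫ p in ball x r ×ˢ univ, defect (x + r • v i) p ∂V := by
    rw [integral_add ((hint x).const_mul _)
      ((integrable_finsetSum _ fun i _ => hint (x + r • v i)).const_mul _), integral_const_mul,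
      integral_const_mul, integral_finsetSum _ fun i _ => hint (x + r • v i)]
  have h3 : ∑ i, ∫ p in ball x r ×ˢ univ, defect (x + r • v i) p ∂V ≤ m * κ := by
    calc ∑ i, ∫ p in ball x r ×ˢ univ, defect (x + r • v i) p ∂V ≤ ∑ i : Fin m, κ :=
          Finset.sum_le_sum fun i _ => (hle _ (hzi i)).trans (hi i)
      _ = m * κ := by rw [Finset.sum_const, Finset.card_univ, Fintype.card_fin, nsmul_eq_mul]
  have h4 : ∫ p in ball x r ×ˢ univ, defect x p ∂V ≤ κ :=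
    (hle x (by simpa using hr.le)).trans h0
  calc _ ≤ _ := h1
    _ = _ := h2
    _ ≤ (2 + 10 * (m * K) ^ 2 * m) * κ + 10 * (m * K) ^ 2 * (m * κ) := by gcongr
    _ = _ := by ring

/-- flatness at one scale at least as small as any given one, from the vanishing of the scaled
defects at the points of a set of dimension `> m - 1`. -/
theorem exists_flat (hm : 1 ≤ m) (hc : ∀ᵐ p ∂V, p.2 ∈ G m k) (A : Set (Euc k))
    (hA : ((m - 1 : ℕ) : ℝ≥0∞) < dimH A)
    (hfin : ∀ x ∈ A, ∃ r : ℝ, 0 < r ∧ V (ball x r ×ˢ univ) < ⊤)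
    (h0 : ∀ x ∈ A, ∀ η : ℝ, 0 < η → ∃ r₀ : ℝ, 0 < r₀ ∧ ∀ r : ℝ, 0 < r → r ≤ r₀ →
      dInt V x r ≤ η * r ^ (m + 2)) {ε : ℝ} (hε : 0 < ε) (T : ℕ → Set (Euc k))
    (hT : A ⊆ ⋃ n, T n) :
    ∃ n, ∀ r₁ : ℝ, 0 < r₁ → ∃ x ∈ A ∩ T n, ∃ r : ℝ, 0 < r ∧ r ≤ r₁ ∧ Flat m V x r ε := by
  obtain ⟨K, hK, hsp⟩ := exists_spanning hm A hA
  set C : ℝ := 2 + 20 * (m * K) ^ 2 * m with hC
  have hCpos : 0 < C := by positivity
  set η : ℝ := ε / (C * 2 ^ (m + 2)) with hη
  have hηpos : 0 < η := by positivity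
  let T' : ℕ → Set (Euc k) := fun q =>
    {x ∈ T q.unpair.1 | V (ball x (1 / ((q.unpair.2 : ℝ) + 1)) ×ˢ univ) < ⊤ ∧
      ∀ r : ℝ, 0 < r → r ≤ 1 / ((q.unpair.2 : ℝ) + 1) → dInt V x r ≤ η * r ^ (m + 2)}
  have hT' : A ⊆ ⋃ q, T' q := by
    intro x hx
    obtain ⟨n, hn⟩ := mem_iUnion.1 (hT hx)
    obtain ⟨r, hr, hVr⟩ := hfin x hx
    obtain ⟨r₀, hr₀, hd⟩ := h0 x hx η hηpos
    obtain ⟨i, hi⟩ := exists_nat_one_div_lt (lt_min hr hr₀)
    refine mem_iUnion.2 ⟨Nat.pair n i, ?_⟩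
    simp only [T', Nat.unpair_pair, mem_ofPred_eq]
    refine ⟨hn, ?_, fun ρ h1 h2 => hd ρ h1 (h2.trans (hi.le.trans (min_le_right _ _)))⟩
    exact (measure_mono (Set.prod_mono (ball_subset_ball (hi.le.trans (min_le_left _ _)))
      Subset.rfl)).trans_lt hVr
  obtain ⟨q, hq⟩ := hsp T' hT'
  refine ⟨q.unpair.1, fun r₁ hr₁ => ?_⟩
  set N : ℝ := 1 / ((q.unpair.2 : ℝ) + 1) with hN
  have hNpos : 0 < N := by positivity
  obtain ⟨x, hx, ρ, hρ, hρ', v, hv1, hv2⟩ := hq (min r₁ (N / 3)) (by positivity)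
  refine ⟨x, ⟨hx.1, hx.2.1⟩, ρ, hρ, hρ'.trans (min_le_left _ _), (plane v).starProjection,
    plane_mem_G hv2, ?_⟩
  have hρN : 3 * ρ ≤ N := by
    have := hρ'.trans (min_le_right _ _)
    linarith
  have key := excess_int (κ := η * (2 * ρ) ^ (m + 2)) hc hK.le (fun i => (hv1 i).1) hv2 hρ
    ((measure_mono (Set.prod_mono (ball_subset_ball hρN) Subset.rfl)).trans_lt hx.2.2.1)
    (hx.2.2.2 (2 * ρ) (by linarith) (by linarith))
    (fun i => (hv1 i).2.2.2.2 (2 * ρ) (by linarith) (by linarith))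
  refine key.trans (le_of_eq ?_)
  rw [← hC, hη, mul_pow]
  field_simp

/-- the stratum of points where `V` is not `ε`-flat at small scales, for some `ε > 0`. -/
def NF (m : ℕ) (V : Measure (Euc k × L k)) : Set (Euc k) :=
  {x | ∃ ε : ℝ, 0 < ε ∧ ∃ r₀ : ℝ, 0 < r₀ ∧ ∀ r : ℝ, 0 < r → r < r₀ → ¬ Flat m V x r ε}

/-- **the stratum of non-flat points has dimension at most `m - 1`.** -/
theorem dimH_NF (hm : 1 ≤ m) {U : Set (Euc k)} (hU : IsOpen U) (hV : Stat m k U V)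
    (h0 : ∀ x ∈ U, ∀ η : ℝ, 0 < η → ∃ r₀ : ℝ, 0 < r₀ ∧ ∀ r : ℝ, 0 < r → r ≤ r₀ →
      dInt V x r ≤ η * r ^ (m + 2)) :
    dimH (NF m V ∩ U) ≤ ((m - 1 : ℕ) : ℝ≥0∞) := by
  have hsub : NF m V ∩ U ⊆ ⋃ n : ℕ, {x ∈ U | ∀ r : ℝ, 0 < r → r < 1 / ((n : ℝ) + 1) →
      ¬ Flat m V x r (1 / ((n : ℝ) + 1))} := by
    rintro x ⟨⟨ε, hε, r₀, hr₀, h⟩, hxU⟩
    obtain ⟨n, hn⟩ := exists_nat_one_div_lt (lt_min hε hr₀)
    refine mem_iUnion.2 ⟨n, hxU, fun r h1 h2 hF => ?_⟩
    refine h r h1 (h2.trans (hn.trans_le (min_le_right _ _))) ?_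
    obtain ⟨P, hP, hle⟩ := hF
    refine ⟨P, hP, hle.trans ?_⟩
    have := hn.le.trans (min_le_left _ _)
    gcongr
  refine (dimH_mono hsub).trans ?_
  rw [dimH_iUnion]
  refine iSup_le fun n => ?_
  by_contra hcon
  push Not at hcon
  have hf : ∀ x ∈ {x ∈ U | ∀ r : ℝ, 0 < r → r < 1 / ((n : ℝ) + 1) →
      ¬ Flat m V x r (1 / ((n : ℝ) + 1))}, ∃ r : ℝ, 0 < r ∧ V (ball x r ×ˢ univ) < ⊤ := by
    intro x hx
    obtain ⟨r, hr, hrU⟩ := Metric.isOpen_iff.1 hU x hx.1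
    refine ⟨r / 2, by positivity, ?_⟩
    have h1 : closedBall x (r / 2) ⊆ U :=
      (closedBall_subset_ball (by linarith)).trans hrU
    exact (measure_mono (Set.prod_mono ball_subset_closedBall Subset.rfl)).trans_lt
      (hV.fin _ (isCompact_closedBall _ _) h1)
  obtain ⟨-, h⟩ := exists_flat (V := V) (ε := 1 / ((n : ℝ) + 1)) hm hV.conc _ hcon hf
    (fun x hx => h0 x hx.1) (by positivity) (fun _ => univ) (fun x _ => mem_iUnion.2 ⟨0, mem_univ _⟩)
  obtain ⟨x, hx, r, h1, h2, hF⟩ := h (1 / ((n : ℝ) + 1) / 2) (by positivity)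
  refine hx.1.2 r h1 (lt_of_le_of_lt h2 ?_) hF
  exact half_lt_self (by positivity)

end Crest.Agent.R234.Strat3_842
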