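import Mathlib
import Crest.Agent.R234.Cacc_113

/-!
Row 234: weighted monotonicity and the sharp mean value inequality for subharmonic functions on a
stationary general varifold.
-/

set_option linter.unusedSectionVars false

namespace Crest.Agent.R234.Cacc_113

open MeasureTheory Set Filter Topology
open scoped InnerProductSpace

variable {E : Type*} [NormedAddCommGroup E] [InnerProductSpace ℝ E] [FiniteDimensional ℝ E]
  [MeasurableSpace E] [BorelSpace E]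

variable {U : Set E} {V : Measure (E × (E →L[ℝ] E))} {m : ℕ}

/-- `φ (|x - x₀|² / r²)` -/
noncomputable def ker (φ : ℝ → ℝ) (x₀ : E) (r : ℝ) (x : E) : ℝ := φ (‖x - x₀‖ ^ 2 / r ^ 2)

theorem hasFDerivAt_ker {φ : ℝ → ℝ} (hφ : Differentiable ℝ φ) (x₀ : E) (r : ℝ) (x : E) :
    HasFDerivAt (ker φ x₀ r)
      ((deriv φ (‖x - x₀‖ ^ 2 / r ^ 2) * (2 / r ^ 2)) • innerSL ℝ (x - x₀)) x := by
  have h1 : HasFDerivAt (fun x : E => ‖x - x₀‖ ^ 2) (2 • innerSL ℝ (x - x₀)) x := by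
    have h2 : HasFDerivAt (fun x : E => x - x₀) (ContinuousLinearMap.id ℝ E) x :=
      (hasFDerivAt_id x).sub_const x₀
    have h3 := h2.norm_sq
    simpa using h3
  have h4 : HasFDerivAt (fun x : E => ‖x - x₀‖ ^ 2 / r ^ 2)
      ((r ^ 2)⁻¹ • (2 • innerSL ℝ (x - x₀))) x := by
    have := h1.mul_const (r ^ 2)⁻¹
    simpa [div_eq_mul_inv] using this
  have h5 : HasDerivAt φ (deriv φ (‖x - x₀‖ ^ 2 / r ^ 2)) (‖x - x₀‖ ^ 2 / r ^ 2) :=
    (hφ _).hasDerivAt
  have h6 := h5.comp_hasFDerivAt x h4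
  refine h6.congr_fderiv ?_
  ext v
  simp
  ring

theorem contDiff_ker {φ : ℝ → ℝ} (hφ : ContDiff ℝ 1 φ) (x₀ : E) (r : ℝ) :
    ContDiff ℝ 1 (ker φ x₀ r) := by
  unfold ker
  exact hφ.comp (((contDiff_id.sub contDiff_const).norm_sq ℝ).div_const _)

theorem ker_eq_zero {φ : ℝ → ℝ} (h1 : ∀ s, 1 ≤ s → φ s = 0) {x₀ : E} {r : ℝ} (hr : 0 < r) {x : E}
    (hx : x ∉ Metric.ball x₀ r) : ker φ x₀ r x = 0 := by
  refine h1 _ ?_
  rw [Metric.mem_ball, dist_eq_norm, not_lt] at hx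
  rw [le_div_iff₀ (by positivity), one_mul]
  gcongr

theorem deriv_eq_zero_of {φ : ℝ → ℝ} (hφ : ContDiff ℝ 1 φ) (h1 : ∀ s, 1 ≤ s → φ s = 0) {s : ℝ}
    (hs : 1 ≤ s) : deriv φ s = 0 := by
  have h2 : ∀ s, 1 < s → deriv φ s = 0 := by
    intro s hs
    have : φ =ᶠ[𝓝 s] fun _ => 0 := by
      filter_upwards [lt_mem_nhds hs] with t ht
      exact h1 t ht.le
    rw [this.deriv_eq]
    simp
  rcases hs.lt_or_eq with h | h
  · exact h2 s h
  · subst h
    have hc : Continuous (deriv φ) := hφ.continuous_deriv le_rfl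
    have h3 : Tendsto (deriv φ) (𝓝[>] 1) (𝓝 (deriv φ 1)) := hc.continuousAt.mono_left inf_le_left
    have h4 : Tendsto (deriv φ) (𝓝[>] (1 : ℝ)) (𝓝 0) := by
      refine tendsto_const_nhds.congr' ?_
      filter_upwards [self_mem_nhdsWithin] with t ht
      exact (h2 t ht).symm
    exact tendsto_nhds_unique h3 h4

theorem tsupport_subset_of {F : Type*} [Zero F] {X : E → F} {x₀ : E} {r : ℝ}
    (h : ∀ x, x ∉ Metric.ball x₀ r → X x = 0) : tsupport X ⊆ Metric.closedBall x₀ r := by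
  refine closure_minimal ?_ Metric.isClosed_closedBall
  intro x hx
  by_contra hcon
  exact hx (h x fun h' => hcon (Metric.ball_subset_closedBall h'))

section mono

variable {x₀ : E} {R : ℝ} {f : E → ℝ} {G : E → E} {φ : ℝ → ℝ}

theorem continuous_of_grad (hf : ∀ x, HasFDerivAt f (innerSL ℝ (G x)) x) : Continuous f :=
  continuous_iff_continuousAt.mpr fun x => (hf x).continuousAt

theorem contDiff_of_grad (hf : ∀ x, HasFDerivAt f (innerSL ℝ (G x)) x) (hG : ContDiff ℝ 1 G) :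
    ContDiff ℝ 1 f := by
  rw [contDiff_one_iff_hasFDerivAt]
  exact ⟨fun x => innerSL ℝ (G x), (innerSL ℝ).continuous.comp hG.continuous, hf⟩

/-- first test field. -/
theorem tr_field1 (hf : ∀ x, HasFDerivAt f (innerSL ℝ (G x)) x) (hφ : Differentiable ℝ φ)
    (r : ℝ) (x : E) (P : E →L[ℝ] E) :
    tr (fderiv ℝ (fun x => (ker φ x₀ r x * f x) • (x - x₀)) x ∘L P) =
      ker φ x₀ r x * f x * tr P +
      (deriv φ (‖x - x₀‖ ^ 2 / r ^ 2) * (2 / r ^ 2) * ⟪x - x₀, P (x - x₀)⟫_ℝ * f x +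
        ker φ x₀ r x * ⟪G x, P (x - x₀)⟫_ℝ) := by
  have h1 : HasFDerivAt (fun x => ker φ x₀ r x * f x)
      (ker φ x₀ r x • innerSL ℝ (G x) + f x •
        ((deriv φ (‖x - x₀‖ ^ 2 / r ^ 2) * (2 / r ^ 2)) • innerSL ℝ (x - x₀))) x :=
    (hasFDerivAt_ker hφ x₀ r x).mul (hf x)
  have h2 : HasFDerivAt (fun x : E => x - x₀) (ContinuousLinearMap.id ℝ E) x :=
    (hasFDerivAt_id x).sub_const x₀
  have h3 : HasFDerivAt (fun x => (ker φ x₀ r x * f x) • (x - x₀)) _ x := h1.smul h2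
  rw [h3.fderiv, ContinuousLinearMap.add_comp, tr_add, tr_smulRight_comp,
    ContinuousLinearMap.smul_comp, tr_smul, ContinuousLinearMap.id_comp]
  simp only [add_apply, smul_apply, innerSL_apply_apply, smul_eq_mul]
  ring

/-- second test field. -/
theorem tr_field2 {Φ : ℝ → ℝ} (hG : ContDiff ℝ 1 G) (hΦ : ∀ s, HasDerivAt Φ (φ s) s)
    (r : ℝ) (x : E) (P : E →L[ℝ] E) :
    tr (fderiv ℝ (fun x => ker Φ x₀ r x • G x) x ∘L P) =
      ker Φ x₀ r x * tr (fderiv ℝ G x ∘L P) +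
        ker φ x₀ r x * (2 / r ^ 2) * ⟪x - x₀, P (G x)⟫_ℝ := by
  have hd : Differentiable ℝ Φ := fun s => (hΦ s).differentiableAt
  have h1 := hasFDerivAt_ker hd x₀ r x
  have h2 : HasFDerivAt G (fderiv ℝ G x) x := (hG.differentiable one_ne_zero x).hasFDerivAt
  have h3 : HasFDerivAt (fun x => ker Φ x₀ r x • G x) _ x := h1.smul h2
  rw [h3.fderiv, ContinuousLinearMap.add_comp, tr_add, tr_smulRight_comp,
    ContinuousLinearMap.smul_comp, tr_smul, (hΦ _).deriv]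
  simp only [smul_apply, innerSL_apply_apply, smul_eq_mul, ker]

/-- the antiderivative of `φ` vanishing on `[1, ∞)`. -/
noncomputable def Prim (φ : ℝ → ℝ) (s : ℝ) : ℝ := ∫ u in (1 : ℝ)..s, φ u

theorem hasDerivAt_prim (hφ : Continuous φ) (s : ℝ) : HasDerivAt (Prim φ) (φ s) s :=
  intervalIntegral.integral_hasDerivAt_right (hφ.intervalIntegrable _ _)
    (hφ.stronglyMeasurableAtFilter _ _) hφ.continuousAt

theorem prim_eq_zero (h1 : ∀ s, 1 ≤ s → φ s = 0) {s : ℝ} (hs : 1 ≤ s) : Prim φ s = 0 := by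
  unfold Prim
  rw [intervalIntegral.integral_congr (g := fun _ => (0 : ℝ))]
  · simp
  · intro u hu
    rw [uIcc_of_le hs] at hu
    exact h1 u hu.1

theorem nonneg_of_antitone (hφa : Antitone φ) (h1 : ∀ s, 1 ≤ s → φ s = 0) (s : ℝ) : 0 ≤ φ s := by
  have h2 := hφa (le_max_left s 1)
  rw [h1 _ (le_max_right _ _)] at h2
  exact h2

theorem prim_nonpos (hφa : Antitone φ) (h1 : ∀ s, 1 ≤ s → φ s = 0) (s : ℝ) : Prim φ s ≤ 0 := by
  rcases le_or_gt 1 s with hs | hs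
  · rw [prim_eq_zero h1 hs]
  · unfold Prim
    rw [intervalIntegral.integral_symm, neg_nonpos]
    exact intervalIntegral.integral_nonneg hs.le fun u _ => nonneg_of_antitone hφa h1 u

theorem contDiff_prim (hφ : ContDiff ℝ 1 φ) : ContDiff ℝ 1 (Prim φ) := by
  rw [contDiff_one_iff_deriv]
  refine ⟨fun s => (hasDerivAt_prim hφ.continuous s).differentiableAt, ?_⟩
  have : deriv (Prim φ) = φ := by
    funext s
    exact (hasDerivAt_prim hφ.continuous s).deriv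
  rw [this]
  exact hφ.continuous

/-- the basic identity for the two test fields. -/
theorem St.ident (h : St U V) (hm : ∀ᵐ z ∂V, tr z.2 = m) {r : ℝ} (hr : 0 < r)
    (hU : Metric.closedBall x₀ r ⊆ U)
    (hf : ∀ x, HasFDerivAt f (innerSL ℝ (G x)) x) (hG : ContDiff ℝ 1 G)
    (hφ : ContDiff ℝ 1 φ) (h1 : ∀ s, 1 ≤ s → φ s = 0) :
    m * ∫ z, ker φ x₀ r z.1 * f z.1 ∂V +
      ∫ z, deriv φ (‖z.1 - x₀‖ ^ 2 / r ^ 2) * (2 / r ^ 2) * ⟪z.1 - x₀, z.2 (z.1 - x₀)⟫_ℝ * f z.1 ∂V =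
      r ^ 2 / 2 * ∫ z, ker (Prim φ) x₀ r z.1 * tr (fderiv ℝ G z.1 ∘L z.2) ∂V := by
  have hK := isCompact_closedBall x₀ r
  have hfc := continuous_of_grad hf
  have hkc : Continuous (ker φ x₀ r) := (contDiff_ker hφ x₀ r).continuous
  have hkc' : Continuous (ker (Prim φ) x₀ r) := (contDiff_ker (contDiff_prim hφ) x₀ r).continuous
  have hdc : Continuous (deriv φ) := hφ.continuous_deriv le_rfl
  have hz0 : ∀ z : E × (E →L[ℝ] E), z.1 ∉ Metric.closedBall x₀ r → z.1 ∉ Metric.ball x₀ r :=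
    fun z hz h' => hz (Metric.ball_subset_closedBall h')
  have hquad : Continuous fun z : E × (E →L[ℝ] E) => ‖z.1 - x₀‖ ^ 2 / r ^ 2 :=
    ((continuous_fst.sub continuous_const).norm.pow 2).div_const _
  have hin : Continuous fun z : E × (E →L[ℝ] E) => ⟪z.1 - x₀, z.2 (z.1 - x₀)⟫_ℝ :=
    (continuous_fst.sub continuous_const).inner
      (continuous_snd.clm_apply (continuous_fst.sub continuous_const))
  have hA : Integrable (fun z : E × (E →L[ℝ] E) => ker φ x₀ r z.1 * f z.1) V := by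
    refine h.integrable ((hkc.comp continuous_fst).mul (hfc.comp continuous_fst)) hK hU ?_
    intro z hz
    rw [ker_eq_zero h1 hr (hz0 z hz), zero_mul]
  have hAm : Integrable (fun z : E × (E →L[ℝ] E) => ker φ x₀ r z.1 * f z.1 * tr z.2) V := by
    refine h.integrable (((hkc.comp continuous_fst).mul (hfc.comp continuous_fst)).mul
      (continuous_tr.comp continuous_snd)) hK hU ?_
    intro z hz
    rw [ker_eq_zero h1 hr (hz0 z hz), zero_mul, zero_mul]
  have hB : Integrable (fun z : E × (E →L[ℝ] E) =>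
      deriv φ (‖z.1 - x₀‖ ^ 2 / r ^ 2) * (2 / r ^ 2) * ⟪z.1 - x₀, z.2 (z.1 - x₀)⟫_ℝ * f z.1) V := by
    refine h.integrable (((((hdc.comp hquad).mul continuous_const).mul hin)).mul
      (hfc.comp continuous_fst)) hK hU ?_
    intro z hz
    have h2 : 1 ≤ ‖z.1 - x₀‖ ^ 2 / r ^ 2 := by
      rw [Metric.mem_closedBall, dist_eq_norm, not_le] at hz
      rw [le_div_iff₀ (by positivity), one_mul]
      gcongr
    rw [deriv_eq_zero_of hφ h1 h2]
    simp
  have hC : Integrable (fun z : E × (E →L[ℝ] E) =>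
      ker φ x₀ r z.1 * ⟪G z.1, z.2 (z.1 - x₀)⟫_ℝ) V := by
    refine h.integrable ((hkc.comp continuous_fst).mul ((hG.continuous.comp continuous_fst).inner
      (continuous_snd.clm_apply (continuous_fst.sub continuous_const)))) hK hU ?_
    intro z hz
    rw [ker_eq_zero h1 hr (hz0 z hz), zero_mul]
  have hD : Integrable (fun z : E × (E →L[ℝ] E) =>
      ker (Prim φ) x₀ r z.1 * tr (fderiv ℝ G z.1 ∘L z.2)) V := by
    refine h.integrable ((hkc'.comp continuous_fst).mul (continuous_tr.comp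
      (((hG.continuous_fderiv one_ne_zero).comp continuous_fst).clm_comp continuous_snd))) hK hU ?_
    intro z hz
    rw [ker_eq_zero (fun s hs => prim_eq_zero h1 hs) hr (hz0 z hz), zero_mul]
  have hC' : Integrable (fun z : E × (E →L[ℝ] E) =>
      ker φ x₀ r z.1 * (2 / r ^ 2) * ⟪z.1 - x₀, z.2 (G z.1)⟫_ℝ) V := by
    refine h.integrable (((hkc.comp continuous_fst).mul continuous_const).mul
      ((continuous_fst.sub continuous_const).inner
      (continuous_snd.clm_apply (hG.continuous.comp continuous_fst)))) hK hU ?_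
    intro z hz
    rw [ker_eq_zero h1 hr (hz0 z hz), zero_mul, zero_mul]
  -- first field
  have e1 := h.st (fun x => (ker φ x₀ r x * f x) • (x - x₀))
    (((contDiff_ker hφ x₀ r).mul (contDiff_of_grad hf hG)).smul (contDiff_id.sub contDiff_const))
    ((HasCompactSupport.intro hK fun x hx => by
      rw [ker_eq_zero h1 hr (fun h' => hx (Metric.ball_subset_closedBall h')), zero_mul, zero_smul]))
    ((tsupport_subset_of fun x hx => by
      rw [ker_eq_zero h1 hr hx, zero_mul, zero_smul]).trans hU)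
  simp_rw [tr_field1 hf (hφ.differentiable one_ne_zero)] at e1
  have hBC : Integrable (fun z : E × (E →L[ℝ] E) =>
      deriv φ (‖z.1 - x₀‖ ^ 2 / r ^ 2) * (2 / r ^ 2) * ⟪z.1 - x₀, z.2 (z.1 - x₀)⟫_ℝ * f z.1 +
      ker φ x₀ r z.1 * ⟪G z.1, z.2 (z.1 - x₀)⟫_ℝ) V := hB.add hC
  rw [integral_add hAm hBC, integral_add hB hC] at e1
  -- second field
  have e2 := h.st (fun x => ker (Prim φ) x₀ r x • G x)
    ((contDiff_ker (contDiff_prim hφ) x₀ r).smul hG)
    ((HasCompactSupport.intro hK fun x hx => by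
      rw [ker_eq_zero (fun s hs => prim_eq_zero h1 hs) hr
        (fun h' => hx (Metric.ball_subset_closedBall h')), zero_smul]))
    ((tsupport_subset_of fun x hx => by
      rw [ker_eq_zero (fun s hs => prim_eq_zero h1 hs) hr hx, zero_smul]).trans hU)
  simp_rw [tr_field2 hG (hasDerivAt_prim hφ.continuous)] at e2
  rw [integral_add hD hC'] at e2
  have e3 : ∫ z, ker φ x₀ r z.1 * f z.1 * tr z.2 ∂V = m * ∫ z, ker φ x₀ r z.1 * f z.1 ∂V := by
    rw [← integral_const_mul]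
    refine integral_congr_ae ?_
    filter_upwards [hm] with z hz
    rw [hz]; ring
  have e4 : ∫ z, ker φ x₀ r z.1 * (2 / r ^ 2) * ⟪z.1 - x₀, z.2 (G z.1)⟫_ℝ ∂V =
      (2 / r ^ 2) * ∫ z, ker φ x₀ r z.1 * ⟪G z.1, z.2 (z.1 - x₀)⟫_ℝ ∂V := by
    rw [← integral_const_mul]
    refine integral_congr_ae ?_
    filter_upwards [h.pr] with z hz
    have : ⟪z.1 - x₀, z.2 (G z.1)⟫_ℝ = ⟪G z.1, z.2 (z.1 - x₀)⟫_ℝ := by
      rw [← hz.sa, real_inner_comm]
    rw [this]; ring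
  rw [e3] at e1
  rw [e4] at e2
  have hr2 : r ^ 2 ≠ 0 := by positivity
  have e5 : r ^ 2 / 2 * ∫ z, ker (Prim φ) x₀ r z.1 * tr (fderiv ℝ G z.1 ∘L z.2) ∂V =
      - ∫ z, ker φ x₀ r z.1 * ⟪G z.1, z.2 (z.1 - x₀)⟫_ℝ ∂V := by
    have e6 : ∫ z, ker (Prim φ) x₀ r z.1 * tr (fderiv ℝ G z.1 ∘L z.2) ∂V =
      - ((2 / r ^ 2) * ∫ z, ker φ x₀ r z.1 * ⟪G z.1, z.2 (z.1 - x₀)⟫_ℝ ∂V) := by linarith
    rw [e6]
    field_simp
  rw [e5]
  linarith

/-- derivative of the kernel mean in the radius. -/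
theorem St.hasDerivAt_mean (h : St U V) {r : ℝ} (hr : 0 < r) (hrR : r < R)
    (hU : Metric.closedBall x₀ R ⊆ U) (hfc : Continuous f)
    (hφ : ContDiff ℝ 1 φ) (h1 : ∀ s, 1 ≤ s → φ s = 0) :
    HasDerivAt (fun t => ∫ z, ker φ x₀ t z.1 * f z.1 ∂V)
      (∫ z, deriv φ (‖z.1 - x₀‖ ^ 2 / r ^ 2) * (-(2 * ‖z.1 - x₀‖ ^ 2 / r ^ 3)) * f z.1 ∂V) r := by
  have hK := isCompact_closedBall x₀ R
  have hdc : Continuous (deriv φ) := hφ.continuous_deriv le_rfl
  obtain ⟨Cf, hCf⟩ := hK.exists_bound_of_continuousOn hfc.continuousOn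
  obtain ⟨Cd, hCd⟩ := (isCompact_Icc (a := (0 : ℝ)) (b := 1)).exists_bound_of_continuousOn
    hdc.continuousOn
  have hCf0 : 0 ≤ Cf := (norm_nonneg _).trans (hCf x₀ (Metric.mem_closedBall_self (hr.trans hrR).le))
  have hCd0 : 0 ≤ Cd := (norm_nonneg _).trans (hCd 0 (by simp))
  have hs : Ioo (r / 2) R ∈ 𝓝 r := Ioo_mem_nhds (by linarith) hrR
  have hmeas : ∀ t : ℝ, Continuous fun z : E × (E →L[ℝ] E) => ker φ x₀ t z.1 * f z.1 := fun t =>
    ((contDiff_ker hφ x₀ t).continuous.comp continuous_fst).mul (hfc.comp continuous_fst)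
  have hbd : ∀ z : E × (E →L[ℝ] E), ∀ t ∈ Ioo (r / 2) R,
      ‖deriv φ (‖z.1 - x₀‖ ^ 2 / t ^ 2) * (-(2 * ‖z.1 - x₀‖ ^ 2 / t ^ 3)) * f z.1‖ ≤
        (Metric.closedBall x₀ R ×ˢ (univ : Set (E →L[ℝ] E))).indicator
          (fun _ => Cd * (2 * R ^ 2 / (r / 2) ^ 3) * Cf) z := by
    intro z t ht
    have ht0 : 0 < t := lt_trans (by linarith) ht.1
    by_cases hz : z.1 ∈ Metric.closedBall x₀ R
    · rw [indicator_of_mem (show z ∈ Metric.closedBall x₀ R ×ˢ univ from ⟨hz, mem_univ _⟩)]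
      rw [norm_mul, norm_mul]
      have hzR : ‖z.1 - x₀‖ ≤ R := by
        rw [← dist_eq_norm]; exact hz
      have e1 : ‖deriv φ (‖z.1 - x₀‖ ^ 2 / t ^ 2)‖ ≤ Cd := by
        rcases le_or_gt 1 (‖z.1 - x₀‖ ^ 2 / t ^ 2) with h2 | h2
        · rw [deriv_eq_zero_of hφ h1 h2]; simpa using hCd0
        · exact hCd _ ⟨by positivity, h2.le⟩
      have e2 : ‖-(2 * ‖z.1 - x₀‖ ^ 2 / t ^ 3)‖ ≤ 2 * R ^ 2 / (r / 2) ^ 3 := by
        rw [norm_neg, Real.norm_of_nonneg (by positivity)]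
        have : (r / 2) ^ 3 ≤ t ^ 3 := by
          have := ht.1.le
          gcongr
        gcongr
      have e3 := hCf z.1 hz
      gcongr
    · rw [indicator_of_notMem (fun h' => hz h'.1)]
      have h2 : 1 ≤ ‖z.1 - x₀‖ ^ 2 / t ^ 2 := by
        rw [Metric.mem_closedBall, dist_eq_norm, not_le] at hz
        rw [le_div_iff₀ (by positivity), one_mul]
        have := ht.2.le.trans hz.le
        gcongr
      rw [deriv_eq_zero_of hφ h1 h2]
      simp
  refine (hasDerivAt_integral_of_dominated_loc_of_deriv_le (𝕜 := ℝ) (s := Ioo (r / 2) R)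
    (F := fun t (z : E × (E →L[ℝ] E)) => ker φ x₀ t z.1 * f z.1)
    (F' := fun t (z : E × (E →L[ℝ] E)) => deriv φ (‖z.1 - x₀‖ ^ 2 / t ^ 2) *
      (-(2 * ‖z.1 - x₀‖ ^ 2 / t ^ 3)) * f z.1)
    (bound := (Metric.closedBall x₀ R ×ˢ (univ : Set (E →L[ℝ] E))).indicator
          (fun _ => Cd * (2 * R ^ 2 / (r / 2) ^ 3) * Cf))
    hs ?_ ?_ ?_ ?_ ?_ ?_).2
  · exact Eventually.of_forall fun t => (hmeas t).aestronglyMeasurable
  · refine h.integrable (hmeas r) hK hU ?_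
    intro z hz
    rw [ker_eq_zero h1 hr, zero_mul]
    intro h'
    exact hz (Metric.closedBall_subset_closedBall hrR.le (Metric.ball_subset_closedBall h'))
  · refine Continuous.aestronglyMeasurable ?_
    refine ((hdc.comp (((continuous_fst.sub continuous_const).norm.pow 2).div_const _)).mul ?_).mul
      (hfc.comp continuous_fst)
    exact ((continuous_const.mul ((continuous_fst.sub continuous_const).norm.pow 2)).div_const _).neg
  · exact Eventually.of_forall fun z => hbd z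
  · rw [integrable_indicator_iff (measurableSet_closedBall.prod MeasurableSet.univ)]
    exact integrableOn_const (h.fin _ hU hK).ne
  · refine Eventually.of_forall fun z t ht => ?_
    have ht0 : t ≠ 0 := (lt_trans (by linarith) ht.1).ne'
    have e1 : HasDerivAt (fun t : ℝ => ‖z.1 - x₀‖ ^ 2 / t ^ 2) (-(2 * ‖z.1 - x₀‖ ^ 2 / t ^ 3)) t := by
      have e2 : HasDerivAt (fun t : ℝ => t ^ 2) (2 * t) t := by simpa using hasDerivAt_pow 2 t
      have e3 := (e2.inv (pow_ne_zero 2 ht0)).const_mul (‖z.1 - x₀‖ ^ 2)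
      refine (e3.congr_deriv ?_).congr_of_eventuallyEq ?_
      · field_simp
      · exact Eventually.of_forall fun t => by simp [div_eq_mul_inv]
    have e4 : HasDerivAt φ (deriv φ (‖z.1 - x₀‖ ^ 2 / t ^ 2)) (‖z.1 - x₀‖ ^ 2 / t ^ 2) :=
      (hφ.differentiable one_ne_zero _).hasDerivAt
    exact (e4.comp t e1).mul_const (f z.1)

/-- **(S1)** weighted monotonicity for a subharmonic function. -/
theorem St.mono_phi (h : St U V) (hm : ∀ᵐ z ∂V, tr z.2 = m)
    (hU : Metric.closedBall x₀ R ⊆ U)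
    (hf : ∀ x, HasFDerivAt f (innerSL ℝ (G x)) x) (hG : ContDiff ℝ 1 G)
    (hf0 : ∀ᵐ z ∂V, z.1 ∈ Metric.ball x₀ R → 0 ≤ f z.1)
    (hfs : ∀ᵐ z ∂V, z.1 ∈ Metric.ball x₀ R → 0 ≤ tr (fderiv ℝ G z.1 ∘L z.2))
    (hφ : ContDiff ℝ 1 φ) (hφa : Antitone φ) (h1 : ∀ s, 1 ≤ s → φ s = 0) :
    MonotoneOn (fun r => (r ^ m)⁻¹ * ∫ z, ker φ x₀ r z.1 * f z.1 ∂V) (Ioo 0 R) := by
  have hfc := continuous_of_grad hf
  have hder : ∀ r ∈ Ioo 0 R, HasDerivAt (fun r => (r ^ m)⁻¹ * ∫ z, ker φ x₀ r z.1 * f z.1 ∂V)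
      (-(m * r ^ (m - 1)) / (r ^ m) ^ 2 * ∫ z, ker φ x₀ r z.1 * f z.1 ∂V + (r ^ m)⁻¹ *
        ∫ z, deriv φ (‖z.1 - x₀‖ ^ 2 / r ^ 2) * (-(2 * ‖z.1 - x₀‖ ^ 2 / r ^ 3)) * f z.1 ∂V) r := by
    intro r hr
    have e1 : HasDerivAt (fun t : ℝ => t ^ m) (m * r ^ (m - 1)) r := hasDerivAt_pow m r
    exact (e1.inv (pow_ne_zero m hr.1.ne')).mul
      (h.hasDerivAt_mean hr.1 hr.2 hU hfc hφ h1)
  refine monotoneOn_of_deriv_nonneg (convex_Ioo 0 R) ?_ ?_ ?_
  · intro r hr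
    exact (hder r hr).continuousAt.continuousWithinAt
  · rw [interior_Ioo]
    intro r hr
    exact (hder r hr).differentiableAt.differentiableWithinAt
  · rw [interior_Ioo]
    intro r hr
    rw [(hder r hr).deriv]
    have hr0 := hr.1
    have hUr : Metric.closedBall x₀ r ⊆ U := (Metric.closedBall_subset_closedBall hr.2.le).trans hU
    have hid := h.ident hm hr0 hUr hf hG hφ h1
    have hK := isCompact_closedBall x₀ r
    have hdc : Continuous (deriv φ) := hφ.continuous_deriv le_rfl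
    have hquad : Continuous fun z : E × (E →L[ℝ] E) => ‖z.1 - x₀‖ ^ 2 / r ^ 2 :=
      ((continuous_fst.sub continuous_const).norm.pow 2).div_const _
    have hd0 : ∀ z : E × (E →L[ℝ] E), z.1 ∉ Metric.closedBall x₀ r →
        deriv φ (‖z.1 - x₀‖ ^ 2 / r ^ 2) = 0 := by
      intro z hz
      refine deriv_eq_zero_of hφ h1 ?_
      rw [Metric.mem_closedBall, dist_eq_norm, not_le] at hz
      rw [le_div_iff₀ (by positivity), one_mul]
      gcongr
    have hdneg : ∀ s, deriv φ s ≤ 0 := fun s => hφa.deriv_nonpos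
    have hB : Integrable (fun z : E × (E →L[ℝ] E) =>
      deriv φ (‖z.1 - x₀‖ ^ 2 / r ^ 2) * (2 / r ^ 2) * ⟪z.1 - x₀, z.2 (z.1 - x₀)⟫_ℝ * f z.1) V := by
      refine h.integrable (((((hdc.comp hquad).mul continuous_const).mul ?_)).mul
        (hfc.comp continuous_fst)) hK hUr ?_
      · exact (continuous_fst.sub continuous_const).inner
          (continuous_snd.clm_apply (continuous_fst.sub continuous_const))
      · intro z hz
        rw [hd0 z hz]
        simp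
    have hB' : Integrable (fun z : E × (E →L[ℝ] E) =>
      deriv φ (‖z.1 - x₀‖ ^ 2 / r ^ 2) * (-(2 * ‖z.1 - x₀‖ ^ 2 / r ^ 3)) * f z.1) V := by
      refine h.integrable (((hdc.comp hquad).mul ?_).mul (hfc.comp continuous_fst)) hK hUr ?_
      · exact ((continuous_const.mul
          ((continuous_fst.sub continuous_const).norm.pow 2)).div_const _).neg
      · intro z hz
        rw [hd0 z hz]
        simp
    have hD : ∫ z, ker (Prim φ) x₀ r z.1 * tr (fderiv ℝ G z.1 ∘L z.2) ∂V ≤ 0 := by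
      refine integral_nonpos_of_ae ?_
      filter_upwards [hfs] with z hz
      by_cases hzb : z.1 ∈ Metric.ball x₀ r
      · exact mul_nonpos_of_nonpos_of_nonneg (prim_nonpos hφa h1 _)
          (hz (Metric.ball_subset_ball hr.2.le hzb))
      · rw [ker_eq_zero (fun s hs => prim_eq_zero h1 hs) hr0 hzb, zero_mul]
        exact le_rfl
    have hle : ∫ z, deriv φ (‖z.1 - x₀‖ ^ 2 / r ^ 2) * (2 / r ^ 2) *
        ⟪z.1 - x₀, z.2 (z.1 - x₀)⟫_ℝ * f z.1 ∂V + r * ∫ z, deriv φ (‖z.1 - x₀‖ ^ 2 / r ^ 2) *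
          (-(2 * ‖z.1 - x₀‖ ^ 2 / r ^ 3)) * f z.1 ∂V ≥ 0 := by
      rw [← integral_const_mul, ← integral_add hB (hB'.const_mul r)]
      refine integral_nonneg_of_ae ?_
      filter_upwards [hf0, h.pr] with z hz hzp
      by_cases hzb : z.1 ∈ Metric.ball x₀ r
      · have e1 := hz (Metric.ball_subset_ball hr.2.le hzb)
        have e2 : ⟪z.1 - x₀, z.2 (z.1 - x₀)⟫_ℝ ≤ ‖z.1 - x₀‖ ^ 2 := by
          rw [hzp.inner_self]
          have := hzp.norm_le (z.1 - x₀)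
          gcongr
        have e3 := hdneg (‖z.1 - x₀‖ ^ 2 / r ^ 2)
        have e4 : deriv φ (‖z.1 - x₀‖ ^ 2 / r ^ 2) * (2 / r ^ 2) *
            ⟪z.1 - x₀, z.2 (z.1 - x₀)⟫_ℝ * f z.1 + r * (deriv φ (‖z.1 - x₀‖ ^ 2 / r ^ 2) *
            (-(2 * ‖z.1 - x₀‖ ^ 2 / r ^ 3)) * f z.1) =
            (-deriv φ (‖z.1 - x₀‖ ^ 2 / r ^ 2)) * (2 / r ^ 2) *
            (‖z.1 - x₀‖ ^ 2 - ⟪z.1 - x₀, z.2 (z.1 - x₀)⟫_ℝ) * f z.1 := by
          field_simp
          ring
        simp only [Pi.zero_apply]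
        rw [e4]
        have e5 : 0 ≤ -deriv φ (‖z.1 - x₀‖ ^ 2 / r ^ 2) := by linarith
        have e6 : 0 ≤ ‖z.1 - x₀‖ ^ 2 - ⟪z.1 - x₀, z.2 (z.1 - x₀)⟫_ℝ := by linarith
        positivity
      · have e1 : deriv φ (‖z.1 - x₀‖ ^ 2 / r ^ 2) = 0 := by
          refine deriv_eq_zero_of hφ h1 ?_
          rw [Metric.mem_ball, dist_eq_norm, not_lt] at hzb
          rw [le_div_iff₀ (by positivity), one_mul]
          gcongr
        simp only [e1, Pi.zero_apply]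
        simp
    set I := ∫ z, ker φ x₀ r z.1 * f z.1 ∂V with hI
    set B := ∫ z, deriv φ (‖z.1 - x₀‖ ^ 2 / r ^ 2) * (2 / r ^ 2) *
        ⟪z.1 - x₀, z.2 (z.1 - x₀)⟫_ℝ * f z.1 ∂V
    set B' := ∫ z, deriv φ (‖z.1 - x₀‖ ^ 2 / r ^ 2) *
          (-(2 * ‖z.1 - x₀‖ ^ 2 / r ^ 3)) * f z.1 ∂V
    set D := ∫ z, ker (Prim φ) x₀ r z.1 * tr (fderiv ℝ G z.1 ∘L z.2) ∂V
    have e7 : 0 ≤ r * B' - m * I := by
      have : r ^ 2 / 2 * D ≤ 0 := mul_nonpos_of_nonneg_of_nonpos (by positivity) hD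
      linarith
    have e8 : -(m * r ^ (m - 1)) / (r ^ m) ^ 2 * I + (r ^ m)⁻¹ * B' =
        (r ^ m)⁻¹ * r⁻¹ * (r * B' - m * I) := by
      rcases Nat.eq_zero_or_pos m with hm0 | hm0
      · subst hm0
        field_simp
        simp
      · have e9 : r ^ m = r ^ (m - 1) * r := by
          rw [← pow_succ, Nat.sub_add_cancel hm0]
        rw [e9]
        field_simp
        ring
    rw [e8]
    positivity

end mono

end Crest.Agent.R234.Cacc_113
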