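import Mathlib
import Crest.Agent.R234.Sup_113

/-!
Row 234: the sharp mean value inequality on balls for subharmonic functions on a stationary general
varifold.
-/

set_option linter.unusedSectionVars false

namespace Crest.Agent.R234.Cacc_113

open MeasureTheory Set Filter Topology
open scoped InnerProductSpace

variable {E : Type*} [NormedAddCommGroup E] [InnerProductSpace ℝ E] [FiniteDimensional ℝ E]
  [MeasurableSpace E] [BorelSpace E]

variable {U : Set E} {V : Measure (E × (E →L[ℝ] E))} {m : ℕ}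

/-- cut-off functions increasing to the indicator function of `(-∞, 1)`. -/
noncomputable def cut (k : ℕ) (s : ℝ) : ℝ := Real.smoothTransition ((k + 1) * (1 - s))

theorem contDiff_cut (k : ℕ) : ContDiff ℝ 1 (cut k) := by
  unfold cut
  exact (Real.smoothTransition.contDiff (n := 1)).comp
    (contDiff_const.mul (contDiff_const.sub contDiff_id))

theorem antitone_cut (k : ℕ) : Antitone (cut k) := by
  intro s t hst
  refine Real.smoothTransition.monotone ?_
  have : (0 : ℝ) ≤ k + 1 := by positivity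
  nlinarith

theorem cut_eq_zero (k : ℕ) {s : ℝ} (hs : 1 ≤ s) : cut k s = 0 := by
  refine Real.smoothTransition.zero_of_nonpos ?_
  have : (0 : ℝ) ≤ k + 1 := by positivity
  nlinarith

theorem cut_nonneg (k : ℕ) (s : ℝ) : 0 ≤ cut k s := Real.smoothTransition.nonneg _

theorem cut_le_one (k : ℕ) (s : ℝ) : cut k s ≤ 1 := Real.smoothTransition.le_one _

theorem tendsto_cut {s : ℝ} (hs : s < 1) : Tendsto (fun k => cut k s) atTop (𝓝 1) := by
  refine tendsto_const_nhds.congr' ?_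
  obtain ⟨N, hN⟩ := exists_nat_gt (1 - s)⁻¹
  filter_upwards [eventually_ge_atTop N] with k hk
  symm
  refine Real.smoothTransition.one_of_one_le ?_
  have h1 : (N : ℝ) ≤ k := by exact_mod_cast hk
  have h2 : 0 < 1 - s := by linarith
  have h3 : (1 - s)⁻¹ * (1 - s) = 1 := inv_mul_cancel₀ h2.ne'
  nlinarith

section ballmean

variable {x₀ : E} {R : ℝ} {f : E → ℝ} {G : E → E}

/-- the part of the varifold over a set. -/
theorem measurableSet_over (x₀ : E) (r : ℝ) :
    MeasurableSet (Prod.fst ⁻¹' Metric.ball x₀ r : Set (E × (E →L[ℝ] E))) :=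
  measurable_fst measurableSet_ball

theorem St.over_lt_top (h : St U V) {r : ℝ} (hU : Metric.closedBall x₀ r ⊆ U) :
    V (Prod.fst ⁻¹' Metric.ball x₀ r) < ⊤ := by
  refine (measure_mono ?_).trans_lt (h.fin _ hU (isCompact_closedBall x₀ r))
  intro z hz
  exact ⟨Metric.ball_subset_closedBall hz, mem_univ _⟩

theorem St.integrableOn (h : St U V) {r : ℝ} (hU : Metric.closedBall x₀ r ⊆ U)
    (hfc : ContinuousOn f (Metric.closedBall x₀ r)) :
    IntegrableOn (fun z : E × (E →L[ℝ] E) => f z.1) (Prod.fst ⁻¹' Metric.ball x₀ r) V := by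
  obtain ⟨C, hC⟩ := (isCompact_closedBall x₀ r).exists_bound_of_continuousOn hfc
  have : IsFiniteMeasure (V.restrict (Prod.fst ⁻¹' Metric.ball x₀ r)) :=
    ⟨by rw [Measure.restrict_apply_univ]; exact h.over_lt_top hU⟩
  refine Integrable.of_bound ?_ C ?_
  · have h1 : ContinuousOn (fun z : E × (E →L[ℝ] E) => f z.1)
        (Prod.fst ⁻¹' Metric.closedBall x₀ r) :=
      hfc.comp continuous_fst.continuousOn fun z hz => hz
    have h2 : AEStronglyMeasurable (fun z : E × (E →L[ℝ] E) => f z.1)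
        (V.restrict (Prod.fst ⁻¹' Metric.closedBall x₀ r)) :=
      h1.aestronglyMeasurable (measurable_fst measurableSet_closedBall)
    exact h2.mono_measure
        (Measure.restrict_mono (preimage_mono Metric.ball_subset_closedBall) le_rfl)
  · filter_upwards [ae_restrict_mem (measurableSet_over x₀ r)] with z hz
    exact hC z.1 (Metric.ball_subset_closedBall hz)

theorem St.tendsto_cut (h : St U V) {r : ℝ} (hr : 0 < r) (hU : Metric.closedBall x₀ r ⊆ U)
    (hfc : Continuous f) :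
    Tendsto (fun k => ∫ z, ker (cut k) x₀ r z.1 * f z.1 ∂V) atTop
      (𝓝 (∫ z in Prod.fst ⁻¹' Metric.ball x₀ r, f z.1 ∂V)) := by
  rw [← integral_indicator (measurableSet_over x₀ r)]
  refine tendsto_integral_of_dominated_convergence
    ((Prod.fst ⁻¹' Metric.ball x₀ r).indicator fun z : E × (E →L[ℝ] E) => ‖f z.1‖) ?_ ?_ ?_ ?_
  · intro k
    exact (((contDiff_ker (contDiff_cut k) x₀ r).continuous.comp continuous_fst).mul
      (hfc.comp continuous_fst)).aestronglyMeasurable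
  · rw [integrable_indicator_iff (measurableSet_over x₀ r)]
    exact (h.integrableOn hU hfc.continuousOn).norm
  · intro k
    refine Eventually.of_forall fun z => ?_
    by_cases hz : z ∈ (Prod.fst ⁻¹' Metric.ball x₀ r : Set (E × (E →L[ℝ] E)))
    · rw [indicator_of_mem hz, norm_mul]
      have h1 : ‖ker (cut k) x₀ r z.1‖ ≤ 1 := by
        unfold ker
        rw [Real.norm_of_nonneg (cut_nonneg _ _)]
        exact cut_le_one _ _
      exact mul_le_of_le_one_left (norm_nonneg _) h1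
    · rw [indicator_of_notMem hz, ker_eq_zero (fun s hs => cut_eq_zero k hs) hr hz, zero_mul,
        norm_zero]
  · refine Eventually.of_forall fun z => ?_
    by_cases hz : z ∈ (Prod.fst ⁻¹' Metric.ball x₀ r : Set (E × (E →L[ℝ] E)))
    · rw [indicator_of_mem hz]
      have h1 : ‖z.1 - x₀‖ ^ 2 / r ^ 2 < 1 := by
        have h2 : ‖z.1 - x₀‖ < r := by
          rw [← dist_eq_norm]; exact hz
        rw [div_lt_one (by positivity)]
        gcongr
      simpa [ker] using (Cacc_113.tendsto_cut h1).mul_const (f z.1)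
    · rw [indicator_of_notMem hz]
      refine tendsto_const_nhds.congr fun k => ?_
      rw [ker_eq_zero (fun s hs => cut_eq_zero k hs) hr hz, zero_mul]

/-- **(S2)**, open interval. -/
theorem St.mono_ball' (h : St U V) (hm : ∀ᵐ z ∂V, tr z.2 = m)
    (hU : Metric.closedBall x₀ R ⊆ U)
    (hf : ∀ x, HasFDerivAt f (innerSL ℝ (G x)) x) (hG : ContDiff ℝ 1 G)
    (hf0 : ∀ᵐ z ∂V, z.1 ∈ Metric.ball x₀ R → 0 ≤ f z.1)
    (hfs : ∀ᵐ z ∂V, z.1 ∈ Metric.ball x₀ R → 0 ≤ tr (fderiv ℝ G z.1 ∘L z.2)) :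
    MonotoneOn (fun r => (r ^ m)⁻¹ * ∫ z in Prod.fst ⁻¹' Metric.ball x₀ r, f z.1 ∂V)
      (Ioo 0 R) := by
  intro s hs r hr hsr
  have hfc := continuous_of_grad hf
  have e1 := (h.tendsto_cut hs.1 ((Metric.closedBall_subset_closedBall hs.2.le).trans hU)
    hfc).const_mul (s ^ m)⁻¹
  have e2 := (h.tendsto_cut hr.1 ((Metric.closedBall_subset_closedBall hr.2.le).trans hU)
    hfc).const_mul (r ^ m)⁻¹
  refine le_of_tendsto_of_tendsto' e1 e2 fun k => ?_
  exact h.mono_phi hm hU hf hG hf0 hfs (contDiff_cut k) (antitone_cut k)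
    (fun s hs => cut_eq_zero k hs) hs hr hsr

theorem St.tendsto_ball (h : St U V) (hR : 0 < R) (hU : Metric.closedBall x₀ R ⊆ U)
    (hfc : ContinuousOn f (Metric.closedBall x₀ R)) :
    Tendsto (fun r => (r ^ m)⁻¹ * ∫ z in Prod.fst ⁻¹' Metric.ball x₀ r, f z.1 ∂V)
      (𝓝[<] R) (𝓝 ((R ^ m)⁻¹ * ∫ z in Prod.fst ⁻¹' Metric.ball x₀ R, f z.1 ∂V)) := by
  refine Tendsto.mul ?_ ?_
  · have : ContinuousAt (fun r : ℝ => (r ^ m)⁻¹) R :=
      (continuousAt_id.pow m).inv₀ (pow_ne_zero m hR.ne')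
    exact this.tendsto.mono_left inf_le_left
  · simp_rw [← integral_indicator (measurableSet_over x₀ _)]
    refine tendsto_integral_filter_of_dominated_convergence
      ((Prod.fst ⁻¹' Metric.ball x₀ R).indicator fun z : E × (E →L[ℝ] E) => ‖f z.1‖) ?_ ?_ ?_ ?_
    · filter_upwards [Ioo_mem_nhdsLT hR] with r hr
      rw [aestronglyMeasurable_indicator_iff (measurableSet_over x₀ r)]
      exact (h.integrableOn ((Metric.closedBall_subset_closedBall hr.2.le).trans hU)
        (hfc.mono (Metric.closedBall_subset_closedBall hr.2.le))).aestronglyMeasurable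
    · filter_upwards [self_mem_nhdsWithin] with r hr
      refine Eventually.of_forall fun z => ?_
      rw [norm_indicator_eq_indicator_norm]
      exact indicator_le_indicator_of_subset
        (preimage_mono (Metric.ball_subset_ball (le_of_lt hr))) (fun _ => norm_nonneg _) z
    · rw [integrable_indicator_iff (measurableSet_over x₀ R)]
      exact (h.integrableOn hU hfc).norm
    · refine Eventually.of_forall fun z => ?_
      by_cases hz : z ∈ (Prod.fst ⁻¹' Metric.ball x₀ R : Set (E × (E →L[ℝ] E)))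
      · rw [indicator_of_mem hz]
        refine tendsto_const_nhds.congr' ?_
        have h2 : dist z.1 x₀ < R := hz
        filter_upwards [Ioo_mem_nhdsLT h2] with r hr
        rw [indicator_of_mem]
        exact hr.1
      · rw [indicator_of_notMem hz]
        refine tendsto_const_nhds.congr' ?_
        filter_upwards [self_mem_nhdsWithin] with r hr
        rw [indicator_of_notMem]
        intro h'
        exact hz (Metric.ball_subset_ball (le_of_lt hr) h')

/-- **(S2)**. -/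
theorem St.mono_ball (h : St U V) (hm : ∀ᵐ z ∂V, tr z.2 = m)
    (hU : Metric.closedBall x₀ R ⊆ U)
    (hf : ∀ x, HasFDerivAt f (innerSL ℝ (G x)) x) (hG : ContDiff ℝ 1 G)
    (hf0 : ∀ᵐ z ∂V, z.1 ∈ Metric.ball x₀ R → 0 ≤ f z.1)
    (hfs : ∀ᵐ z ∂V, z.1 ∈ Metric.ball x₀ R → 0 ≤ tr (fderiv ℝ G z.1 ∘L z.2)) :
    MonotoneOn (fun r => (r ^ m)⁻¹ * ∫ z in Prod.fst ⁻¹' Metric.ball x₀ r, f z.1 ∂V)
      (Ioc 0 R) := by
  intro s hs r hr hsr
  rcases hsr.eq_or_lt with rfl | hsr
  · exact le_rfl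
  rcases hr.2.lt_or_eq with hrR | rfl
  · exact h.mono_ball' hm hU hf hG hf0 hfs ⟨hs.1, hsr.trans hrR⟩ ⟨hr.1, hrR⟩ hsr.le
  · have hfc := continuous_of_grad hf
    refine ge_of_tendsto (h.tendsto_ball (m := m) hr.1 hU hfc.continuousOn) ?_
    filter_upwards [Ioo_mem_nhdsLT hsr] with t ht
    exact h.mono_ball' hm hU hf hG hf0 hfs ⟨hs.1, hsr⟩ ⟨hs.1.trans ht.1, ht.2⟩ ht.1.le

/-- integral over a ball of a function which is almost constant. -/
theorem St.le_ball (h : St U V) {r : ℝ} (hU : Metric.closedBall x₀ r ⊆ U)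
    (hfc : ContinuousOn f (Metric.closedBall x₀ r)) {c : ℝ}
    (hc : ∀ x ∈ Metric.ball x₀ r, c ≤ f x) :
    c * (V (Prod.fst ⁻¹' Metric.ball x₀ r)).toReal ≤
      ∫ z in Prod.fst ⁻¹' Metric.ball x₀ r, f z.1 ∂V := by
  have h1 : ∫ _z in (Prod.fst ⁻¹' Metric.ball x₀ r : Set (E × (E →L[ℝ] E))), c ∂V =
      c * (V (Prod.fst ⁻¹' Metric.ball x₀ r)).toReal := by
    rw [setIntegral_const, smul_eq_mul, mul_comm]
    rfl
  rw [← h1]
  refine setIntegral_mono_on ?_ (h.integrableOn hU hfc) (measurableSet_over x₀ r) ?_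
  · exact integrableOn_const (h.over_lt_top hU).ne
  · intro z hz
    exact hc z.1 hz

/-- the mean value inequality from monotonicity of the ball means (for any continuous function). -/
theorem St.mean_value_of_mono (h : St U V) (hR : 0 < R) (hU : Metric.closedBall x₀ R ⊆ U)
    (hfc : ContinuousOn f (Metric.closedBall x₀ R))
    (hf0 : ∀ᵐ z ∂V, z.1 ∈ Metric.ball x₀ R → 0 ≤ f z.1)
    (hmono : MonotoneOn (fun r => (r ^ m)⁻¹ * ∫ z in Prod.fst ⁻¹' Metric.ball x₀ r, f z.1 ∂V)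
      (Ioc 0 R)) {θ : ℝ} (hθ : 0 ≤ θ)
    (hdens : ∃ᶠ r in 𝓝[>] (0 : ℝ), θ * r ^ m ≤ (V (Prod.fst ⁻¹' Metric.ball x₀ r)).toReal) :
    θ * f x₀ ≤ (R ^ m)⁻¹ * ∫ z in Prod.fst ⁻¹' Metric.ball x₀ R, f z.1 ∂V := by
  have hnn : 0 ≤ (R ^ m)⁻¹ * ∫ z in Prod.fst ⁻¹' Metric.ball x₀ R, f z.1 ∂V := by
    refine mul_nonneg (by positivity) ?_
    refine integral_nonneg_of_ae ?_
    filter_upwards [ae_restrict_mem (measurableSet_over x₀ R), ae_restrict_of_ae hf0] with z hz h0
    exact h0 hz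
  rcases le_or_gt (f x₀) 0 with hfx | hfx
  · exact (mul_nonpos_of_nonneg_of_nonpos hθ hfx).trans hnn
  refine le_of_forall_pos_lt_add fun ε hε => ?_
  -- choose a small radius
  obtain ⟨δ, hδ0, hδθ, hδf⟩ : ∃ δ, 0 < δ ∧ θ * δ < ε ∧ δ < f x₀ := by
    refine ⟨min (ε / (2 * (θ + 1))) (f x₀ / 2), by positivity, ?_, ?_⟩
    · have h1 : min (ε / (2 * (θ + 1))) (f x₀ / 2) ≤ ε / (2 * (θ + 1)) := min_le_left _ _
      have h2 : θ * (ε / (2 * (θ + 1))) < ε := by
        rw [mul_div_assoc', div_lt_iff₀ (by positivity)]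
        nlinarith
      exact (mul_le_mul_of_nonneg_left h1 hθ).trans_lt h2
    · exact (min_le_right _ _).trans_lt (by linarith)
  have hcx : ContinuousAt f x₀ := hfc.continuousAt (Metric.closedBall_mem_nhds x₀ hR)
  obtain ⟨s, hs0, hs⟩ := Metric.continuousAt_iff.mp hcx δ hδ0
  have hev : ∀ᶠ r in 𝓝[>] (0 : ℝ), r ∈ Ioo 0 (min s R) :=
    Ioo_mem_nhdsGT (lt_min hs0 hR)
  obtain ⟨r, hr1, hr2⟩ := (hdens.and_eventually hev).exists
  have hrR : r < R := hr2.2.trans_le (min_le_right _ _)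
  have hrs : r < s := hr2.2.trans_le (min_le_left _ _)
  have hr0 := hr2.1
  have h3 := h.le_ball (c := f x₀ - δ) ((Metric.closedBall_subset_closedBall hrR.le).trans hU)
    (hfc.mono (Metric.closedBall_subset_closedBall hrR.le)) (fun x hx => by
      have h4 := hs (show dist x x₀ < s from lt_trans hx hrs)
      rw [Real.dist_eq, abs_lt] at h4
      linarith)
  have h5 := hmono ⟨hr0, hrR.le⟩ ⟨hR, le_rfl⟩ hrR.le
  simp only at h5
  refine lt_of_lt_of_le ?_ (add_le_add_left h5 ε)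
  have h6 : θ * (f x₀ - δ) ≤ (r ^ m)⁻¹ * ∫ z in Prod.fst ⁻¹' Metric.ball x₀ r, f z.1 ∂V := by
    have h7 : (f x₀ - δ) * (θ * r ^ m) ≤ ∫ z in Prod.fst ⁻¹' Metric.ball x₀ r, f z.1 ∂V :=
      (mul_le_mul_of_nonneg_left hr1 (by linarith)).trans h3
    calc θ * (f x₀ - δ) = (r ^ m)⁻¹ * ((f x₀ - δ) * (θ * r ^ m)) := by
          field_simp
      _ ≤ _ := by gcongr
  linarith [mul_sub θ (f x₀) δ]

/-- **(S3)** the sharp mean value inequality. -/
theorem St.mean_value (h : St U V) (hm : ∀ᵐ z ∂V, tr z.2 = m) (hR : 0 < R)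
    (hU : Metric.closedBall x₀ R ⊆ U)
    (hf : ∀ x, HasFDerivAt f (innerSL ℝ (G x)) x) (hG : ContDiff ℝ 1 G)
    (hf0 : ∀ᵐ z ∂V, z.1 ∈ Metric.ball x₀ R → 0 ≤ f z.1)
    (hfs : ∀ᵐ z ∂V, z.1 ∈ Metric.ball x₀ R → 0 ≤ tr (fderiv ℝ G z.1 ∘L z.2))
    {θ : ℝ} (hθ : 0 ≤ θ)
    (hdens : ∃ᶠ r in 𝓝[>] (0 : ℝ), θ * r ^ m ≤ (V (Prod.fst ⁻¹' Metric.ball x₀ r)).toReal) :
    θ * f x₀ ≤ (R ^ m)⁻¹ * ∫ z in Prod.fst ⁻¹' Metric.ball x₀ R, f z.1 ∂V :=
  h.mean_value_of_mono hR hU (continuous_of_grad hf).continuousOn hf0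
    (h.mono_ball hm hU hf hG hf0 hfs) hθ hdens

end ballmean

end Crest.Agent.R234.Cacc_113
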