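import Mathlib
import Crest.Agent.R234.Sup2_113

/-!
Row 234: examples of functions with monotone ball means on a stationary general varifold: functions of
a linear form, positive parts, squares of heights; height bound.
-/

set_option linter.unusedSectionVars false

namespace Crest.Agent.R234.Cacc_113

open MeasureTheory Set Filter Topology
open scoped InnerProductSpace

variable {E : Type*} [NormedAddCommGroup E] [InnerProductSpace ℝ E] [FiniteDimensional ℝ E]
  [MeasurableSpace E] [BorelSpace E]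

variable {U : Set E} {V : Measure (E × (E →L[ℝ] E))} {m : ℕ}

/-- the normalised ball means of `f` are monotone. -/
def BM (V : Measure (E × (E →L[ℝ] E))) (m : ℕ) (x₀ : E) (R : ℝ) (f : E → ℝ) : Prop :=
  MonotoneOn (fun r => (r ^ m)⁻¹ * ∫ z in Prod.fst ⁻¹' Metric.ball x₀ r, f z.1 ∂V) (Ioc 0 R)

section bm

variable {x₀ : E} {R : ℝ} {f g : E → ℝ}

theorem St.bm_of_grad (h : St U V) (hm : ∀ᵐ z ∂V, tr z.2 = m)
    (hU : Metric.closedBall x₀ R ⊆ U) {G : E → E}
    (hf : ∀ x, HasFDerivAt f (innerSL ℝ (G x)) x) (hG : ContDiff ℝ 1 G)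
    (hf0 : ∀ᵐ z ∂V, z.1 ∈ Metric.ball x₀ R → 0 ≤ f z.1)
    (hfs : ∀ᵐ z ∂V, z.1 ∈ Metric.ball x₀ R → 0 ≤ tr (fderiv ℝ G z.1 ∘L z.2)) :
    BM V m x₀ R f :=
  h.mono_ball hm hU hf hG hf0 hfs

theorem St.bm_add (h : St U V) (hU : Metric.closedBall x₀ R ⊆ U)
    (hfc : ContinuousOn f (Metric.closedBall x₀ R)) (hgc : ContinuousOn g (Metric.closedBall x₀ R))
    (hf : BM V m x₀ R f) (hg : BM V m x₀ R g) : BM V m x₀ R (fun x => f x + g x) := by
  intro s hs r hr hsr
  have e : ∀ t ∈ Ioc 0 R, (t ^ m)⁻¹ * ∫ z in Prod.fst ⁻¹' Metric.ball x₀ t, (f z.1 + g z.1) ∂V =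
      (t ^ m)⁻¹ * ∫ z in Prod.fst ⁻¹' Metric.ball x₀ t, f z.1 ∂V +
      (t ^ m)⁻¹ * ∫ z in Prod.fst ⁻¹' Metric.ball x₀ t, g z.1 ∂V := by
    intro t ht
    have hsub := Metric.closedBall_subset_closedBall (x := x₀) ht.2
    rw [integral_add (h.integrableOn (hsub.trans hU) (hfc.mono hsub))
      (h.integrableOn (hsub.trans hU) (hgc.mono hsub)), mul_add]
  simp only
  rw [e s hs, e r hr]
  exact add_le_add (hf hs hr hsr) (hg hs hr hsr)

/-- uniform limits. -/
theorem St.bm_of_tendsto (h : St U V) (hU : Metric.closedBall x₀ R ⊆ U) {F : ℕ → E → ℝ}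
    (hFc : ∀ k, ContinuousOn (F k) (Metric.closedBall x₀ R))
    (hF : ∀ k, BM V m x₀ R (F k))
    (hlim : TendstoUniformlyOn F f atTop (Metric.closedBall x₀ R)) : BM V m x₀ R f := by
  have hfc : ContinuousOn f (Metric.closedBall x₀ R) :=
    hlim.continuousOn (Frequently.of_forall fun k => hFc k)
  have key : ∀ t ∈ Ioc 0 R, Tendsto (fun k => (t ^ m)⁻¹ *
      ∫ z in Prod.fst ⁻¹' Metric.ball x₀ t, F k z.1 ∂V) atTop
      (𝓝 ((t ^ m)⁻¹ * ∫ z in Prod.fst ⁻¹' Metric.ball x₀ t, f z.1 ∂V)) := by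
    intro t ht
    refine Tendsto.const_mul _ ?_
    have hsub := Metric.closedBall_subset_closedBall (x := x₀) ht.2
    have hfin : IsFiniteMeasure (V.restrict (Prod.fst ⁻¹' Metric.ball x₀ t)) :=
      ⟨by rw [Measure.restrict_apply_univ]; exact h.over_lt_top (hsub.trans hU)⟩
    obtain ⟨C, hC⟩ := (isCompact_closedBall x₀ R).exists_bound_of_continuousOn hfc
    refine tendsto_integral_filter_of_dominated_convergence (fun _ => C + 1) ?_ ?_ ?_ ?_
    · exact Eventually.of_forall fun k =>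
        (h.integrableOn (hsub.trans hU) ((hFc k).mono hsub)).aestronglyMeasurable
    · rw [Metric.tendstoUniformlyOn_iff] at hlim
      filter_upwards [hlim 1 one_pos] with k hk
      filter_upwards [ae_restrict_mem (measurableSet_over x₀ t)] with z hz
      have hz' : z.1 ∈ Metric.closedBall x₀ R := hsub (Metric.ball_subset_closedBall hz)
      have h1 := hk z.1 hz'
      have h2 := hC z.1 hz'
      rw [dist_eq_norm] at h1
      calc ‖F k z.1‖ = ‖f z.1 - (f z.1 - F k z.1)‖ := by rw [sub_sub_cancel]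
        _ ≤ ‖f z.1‖ + ‖f z.1 - F k z.1‖ := norm_sub_le _ _
        _ ≤ C + 1 := by linarith
    · exact integrable_const _
    · filter_upwards [ae_restrict_mem (measurableSet_over x₀ t)] with z hz
      exact hlim.tendsto_at (hsub (Metric.ball_subset_closedBall hz))
  intro s hs r hr hsr
  exact le_of_tendsto_of_tendsto' (key s hs) (key r hr) fun k => hF k hs hr hsr

/-- functions of a linear form. -/
theorem St.bm_comp (h : St U V) (hm : ∀ᵐ z ∂V, tr z.2 = m) (hU : Metric.closedBall x₀ R ⊆ U)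
    {γ γ₁ γ₂ : ℝ → ℝ} (h1 : ∀ t, HasDerivAt γ (γ₁ t) t) (h2 : ∀ t, HasDerivAt γ₁ (γ₂ t) t)
    (h2c : Continuous γ₂) (h0 : ∀ t, 0 ≤ γ t) (h20 : ∀ t, 0 ≤ γ₂ t) (e : E) (c : ℝ) :
    BM V m x₀ R (fun x => γ (⟪e, x⟫_ℝ - c)) := by
  have hl : ∀ x, HasFDerivAt (fun x : E => ⟪e, x⟫_ℝ - c) (innerSL ℝ e) x := by
    intro x
    exact ((innerSL ℝ e).hasFDerivAt).sub_const c
  have hγ1c : Continuous γ₁ := continuous_iff_continuousAt.mpr fun t => (h2 t).continuousAt
  have hGd : ∀ x, HasFDerivAt (fun x : E => γ₁ (⟪e, x⟫_ℝ - c) • e)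
      ((γ₂ (⟪e, x⟫_ℝ - c) • innerSL ℝ e).smulRight e) x := by
    intro x
    exact ((h2 _).comp_hasFDerivAt x (hl x)).smul_const e
  refine h.bm_of_grad hm hU (G := fun x => γ₁ (⟪e, x⟫_ℝ - c) • e) ?_ ?_ ?_ ?_
  · intro x
    have := (h1 _).comp_hasFDerivAt x (hl x)
    refine this.congr_fderiv ?_
    ext v
    simp
  · rw [contDiff_one_iff_hasFDerivAt]
    refine ⟨_, ?_, hGd⟩
    have hc : Continuous fun x : E => γ₂ (⟪e, x⟫_ℝ - c) • innerSL ℝ e :=
      (h2c.comp (((innerSL ℝ e).continuous).sub continuous_const)).smul continuous_const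
    exact (ContinuousLinearMap.smulRightL ℝ E E).flip e |>.continuous.comp hc
  · exact Eventually.of_forall fun z _ => h0 _
  · filter_upwards [h.pr] with z hz _
    rw [(hGd z.1).fderiv, tr_smulRight_comp, smul_apply, innerSL_apply_apply, smul_eq_mul]
    exact mul_nonneg (h20 _) (hz.inner_self_nonneg e)

/-- positive part of a linear form. -/
theorem St.bm_pos (h : St U V) (hm : ∀ᵐ z ∂V, tr z.2 = m) (hU : Metric.closedBall x₀ R ⊆ U)
    (e : E) (c : ℝ) : BM V m x₀ R (fun x => max (⟪e, x⟫_ℝ - c) 0) := by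
  have hpos : ∀ (k : ℕ) (t : ℝ), 0 < t ^ 2 + (1 / ((k : ℝ) + 1)) ^ 2 := fun k t => by positivity
  refine h.bm_of_tendsto hU
    (F := fun k x => ((⟪e, x⟫_ℝ - c) + √((⟪e, x⟫_ℝ - c) ^ 2 + (1 / ((k : ℝ) + 1)) ^ 2)) / 2) ?_ ?_ ?_
  · intro k
    refine Continuous.continuousOn ?_
    have h1 : Continuous fun x : E => ⟪e, x⟫_ℝ - c := ((innerSL ℝ e).continuous).sub continuous_const
    exact (h1.add ((h1.pow 2).add continuous_const).sqrt).div_const 2
  · intro k
    refine h.bm_comp hm hU (γ := fun t => (t + √(t ^ 2 + (1 / ((k : ℝ) + 1)) ^ 2)) / 2)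
      (γ₁ := fun t => (1 + t / √(t ^ 2 + (1 / ((k : ℝ) + 1)) ^ 2)) / 2)
      (γ₂ := fun t => ((1 / ((k : ℝ) + 1)) ^ 2 /
        ((t ^ 2 + (1 / ((k : ℝ) + 1)) ^ 2) * √(t ^ 2 + (1 / ((k : ℝ) + 1)) ^ 2))) / 2) ?_ ?_ ?_ ?_ ?_ e c
    · intro t
      have h1 : HasDerivAt (fun t : ℝ => t ^ 2 + (1 / ((k : ℝ) + 1)) ^ 2) (2 * t) t := by
        simpa using (hasDerivAt_pow 2 t).add_const ((1 / ((k : ℝ) + 1)) ^ 2)
      have h2 := h1.sqrt (hpos k t).ne'
      have h3 := ((hasDerivAt_id t).add h2).div_const 2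
      refine h3.congr_deriv ?_
      rw [mul_div_mul_left _ _ (two_ne_zero)]
    · intro t
      have h1 : HasDerivAt (fun t : ℝ => t ^ 2 + (1 / ((k : ℝ) + 1)) ^ 2) (2 * t) t := by
        simpa using (hasDerivAt_pow 2 t).add_const ((1 / ((k : ℝ) + 1)) ^ 2)
      have h2 := h1.sqrt (hpos k t).ne'
      have hs : √(t ^ 2 + (1 / ((k : ℝ) + 1)) ^ 2) ≠ 0 := (Real.sqrt_pos.mpr (hpos k t)).ne'
      have h3 := (((hasDerivAt_id t).div h2 hs).const_add 1).div_const 2
      refine h3.congr_deriv ?_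
      have hsq : √(t ^ 2 + (1 / ((k : ℝ) + 1)) ^ 2) ^ 2 = t ^ 2 + (1 / ((k : ℝ) + 1)) ^ 2 :=
        Real.sq_sqrt (hpos k t).le
      set S := √(t ^ 2 + (1 / ((k : ℝ) + 1)) ^ 2) with hS
      set a := (1 / ((k : ℝ) + 1)) ^ 2 with ha
      have h4 : (1 * S - id t * (2 * t / (2 * S))) / S ^ 2 = a / ((t ^ 2 + a) * S) := by
        rw [← hsq]
        field_simp
        simp only [id]
        have : S ^ 2 = t ^ 2 + a := hsq
        nlinarith
      rw [h4]
    · have h1 : Continuous fun t : ℝ => t ^ 2 + (1 / ((k : ℝ) + 1)) ^ 2 :=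
        (continuous_id.pow 2).add continuous_const
      refine Continuous.div_const (continuous_const.div (h1.mul h1.sqrt) fun t => ?_) 2
      exact (mul_pos (hpos k t) (Real.sqrt_pos.mpr (hpos k t))).ne'
    · intro t
      have h1 : |t| ≤ √(t ^ 2 + (1 / ((k : ℝ) + 1)) ^ 2) := by
        rw [← Real.sqrt_sq_eq_abs]
        exact Real.sqrt_le_sqrt (by nlinarith [sq_nonneg (1 / ((k : ℝ) + 1))])
      have h2 := neg_abs_le t
      linarith
    · intro t
      have := hpos k t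
      positivity
  · rw [Metric.tendstoUniformlyOn_iff]
    intro ε hε
    obtain ⟨N, hN⟩ := exists_nat_one_div_lt hε
    filter_upwards [eventually_ge_atTop N] with k hk x _
    have hkN : 1 / ((k : ℝ) + 1) ≤ 1 / ((N : ℝ) + 1) := by
      have : (N : ℝ) ≤ k := by exact_mod_cast hk
      gcongr
    have hk0 : (0 : ℝ) < 1 / ((k : ℝ) + 1) := by positivity
    set t := ⟪e, x⟫_ℝ - c with ht
    set a := 1 / ((k : ℝ) + 1) with ha
    have h1 : |t| ≤ √(t ^ 2 + a ^ 2) := by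
      rw [← Real.sqrt_sq_eq_abs]
      exact Real.sqrt_le_sqrt (by nlinarith [sq_nonneg a])
    have h2 : √(t ^ 2 + a ^ 2) ≤ |t| + a := by
      rw [Real.sqrt_le_left (by positivity)]
      have := abs_nonneg t
      nlinarith [sq_abs t]
    have h3 : max t 0 = (t + |t|) / 2 := by
      rcases le_total 0 t with h | h
      · rw [max_eq_left h, abs_of_nonneg h]; ring
      · rw [max_eq_right h, abs_of_nonpos h]; ring
    rw [Real.dist_eq, h3, abs_lt]
    constructor <;> linarith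

/-- absolute value of an affine function. -/
theorem St.bm_abs (h : St U V) (hm : ∀ᵐ z ∂V, tr z.2 = m) (hU : Metric.closedBall x₀ R ⊆ U)
    (e : E) (c : ℝ) : BM V m x₀ R (fun x => |⟪e, x⟫_ℝ - c|) := by
  have h1 := h.bm_pos hm hU e c
  have h2 := h.bm_pos hm hU (-e) (-c)
  have hc1 : Continuous fun x : E => ⟪e, x⟫_ℝ - c := ((innerSL ℝ e).continuous).sub continuous_const
  have hc2 : Continuous fun x : E => ⟪-e, x⟫_ℝ - -c :=
    ((innerSL ℝ (-e)).continuous).sub continuous_const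
  have h3 := h.bm_add hU (hc1.max continuous_const).continuousOn
    (hc2.max continuous_const).continuousOn h1 h2
  convert h3 using 2 with x
  rw [inner_neg_left]
  rcases le_total 0 (⟪e, x⟫_ℝ - c) with h | h
  · rw [abs_of_nonneg h, max_eq_left h, max_eq_right (by linarith)]; ring
  · rw [abs_of_nonpos h, max_eq_right h, max_eq_left (by linarith)]; ring

/-- affine functions, non-negative on the support. -/
theorem St.bm_affine (h : St U V) (hm : ∀ᵐ z ∂V, tr z.2 = m) (hU : Metric.closedBall x₀ R ⊆ U)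
    (a : ℝ) (e : E) (h0 : ∀ᵐ z ∂V, z.1 ∈ Metric.ball x₀ R → 0 ≤ a + ⟪e, z.1⟫_ℝ) :
    BM V m x₀ R (fun x => a + ⟪e, x⟫_ℝ) := by
  refine h.bm_of_grad hm hU (G := fun _ => e) ?_ contDiff_const h0 ?_
  · intro x
    exact ((innerSL ℝ e).hasFDerivAt).const_add a
  · refine Eventually.of_forall fun z _ => ?_
    simp [tr]

/-- constants: the mass ratio is monotone. -/
theorem St.bm_one (h : St U V) (hm : ∀ᵐ z ∂V, tr z.2 = m) (hU : Metric.closedBall x₀ R ⊆ U) :
    BM V m x₀ R (fun _ => 1) := by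
  have := h.bm_affine hm hU 1 0 (Eventually.of_forall fun z _ => by simp)
  simpa using this

/-- squared heights. -/
theorem St.bm_height (h : St U V) (hm : ∀ᵐ z ∂V, tr z.2 = m) (hU : Metric.closedBall x₀ R ⊆ U)
    {q : E →L[ℝ] E} (hq : IsPr q) (x₁ : E) : BM V m x₀ R (fun x => ‖q (x - x₁)‖ ^ 2) := by
  have hl : ∀ x, HasFDerivAt (fun x : E => q (x - x₁)) q x := by
    intro x
    have h4 : HasFDerivAt (fun x => q x - q x₁) q x := q.hasFDerivAt.sub_const _
    simpa only [map_sub] using h4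
  refine h.bm_of_grad hm hU (G := fun x => (2 : ℝ) • q (x - x₁)) ?_ ?_ ?_ ?_
  · intro x
    have h2 := (hl x).norm_sq
    refine h2.congr_fderiv ?_
    ext v
    simp only [smul_apply, ContinuousLinearMap.comp_apply, innerSL_apply_apply,
      inner_smul_left, nsmul_eq_mul]
    rw [← hq.sa, hq.idem]
    simp
  · exact contDiff_const.smul (q.contDiff.comp (contDiff_id.sub contDiff_const))
  · exact Eventually.of_forall fun z _ => by positivity
  · filter_upwards [h.pr] with z hz _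
    have hd : HasFDerivAt (fun x => (2 : ℝ) • q (x - x₁)) ((2 : ℝ) • q) z.1 :=
      (hl z.1).const_smul (2 : ℝ)
    rw [hd.fderiv, ContinuousLinearMap.smul_comp, tr_smul]
    exact mul_nonneg (by norm_num) (IsPr.tr_nonneg_conj hz hq)

/-- the mean value inequality for functions with monotone ball means. -/
theorem St.mean_value_bm (h : St U V) (hR : 0 < R) (hU : Metric.closedBall x₀ R ⊆ U)
    (hfc : ContinuousOn f (Metric.closedBall x₀ R))
    (hf0 : ∀ᵐ z ∂V, z.1 ∈ Metric.ball x₀ R → 0 ≤ f z.1)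
    (hmono : BM V m x₀ R f) {θ : ℝ} (hθ : 0 ≤ θ)
    (hdens : ∃ᶠ r in 𝓝[>] (0 : ℝ), θ * r ^ m ≤ (V (Prod.fst ⁻¹' Metric.ball x₀ r)).toReal) :
    θ * f x₀ ≤ (R ^ m)⁻¹ * ∫ z in Prod.fst ⁻¹' Metric.ball x₀ R, f z.1 ∂V :=
  h.mean_value_of_mono hR hU hfc hf0 hmono hθ hdens

/-- **height bound**. -/
theorem St.height (h : St U V) (hm : ∀ᵐ z ∂V, tr z.2 = m) {x₁ : E} {ρ : ℝ}
    (hU : Metric.closedBall x₁ (R + ρ) ⊆ U) (hρ : 0 < ρ)
    {q : E →L[ℝ] E} (hq : IsPr q) (hx : dist x₀ x₁ ≤ R) {θ : ℝ} (hθ : 0 ≤ θ)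
    (hdens : ∃ᶠ r in 𝓝[>] (0 : ℝ), θ * r ^ m ≤ (V (Prod.fst ⁻¹' Metric.ball x₀ r)).toReal)
    (x₂ : E) :
    θ * ‖q (x₀ - x₂)‖ ^ 2 ≤
      (ρ ^ m)⁻¹ * ∫ z in Prod.fst ⁻¹' Metric.ball x₁ (R + ρ), ‖q (z.1 - x₂)‖ ^ 2 ∂V := by
  have hsub : Metric.closedBall x₀ ρ ⊆ Metric.closedBall x₁ (R + ρ) :=
    Metric.closedBall_subset_closedBall' (by linarith)
  have hfc : Continuous fun x : E => ‖q (x - x₂)‖ ^ 2 :=
    (q.continuous.comp (continuous_id.sub continuous_const)).norm.pow 2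
  have h1 := h.mean_value_bm hρ (hsub.trans hU) hfc.continuousOn
    (Eventually.of_forall fun z _ => by positivity) (h.bm_height hm (hsub.trans hU) hq x₂) hθ hdens
  refine h1.trans ?_
  refine mul_le_mul_of_nonneg_left ?_ (by positivity)
  refine setIntegral_mono_set (h.integrableOn hU hfc.continuousOn) ?_ ?_
  · exact Eventually.of_forall fun z => by positivity
  · exact (preimage_mono (Metric.ball_subset_ball' (by linarith))).eventuallyLE

end bm

end Crest.Agent.R234.Cacc_113
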