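import Crest.Agent.R234.Al8_182
import Crest.Agent.R234.Ae1_3
import Crest.Agent.R234.Strat4_842
import Crest.Agent.R234.Sup3_113

/-!
R234 (helper182), VF-ALLARD part 9: Allard's theorem for the frozen integral stationary varifolds.

* `allard`: mass ratio `≤ Q + ε`, density `≥ Q` on the support, support `ε`-close to a plane at one
  scale ==> the point is regular;
* `regular_of_not_NF`: `x` in the support, not in `NF` (flat at arbitrarily small scales), density
  `≤ Q` at `x` and `≥ Q` on the support near `x` ==> `x` is regular;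
* `hone`: the case `Q = 1`.
-/

set_option autoImplicit false

open MeasureTheory Metric Set Filter Topology
open Crest.GeometryTopology.Submanifold
open scoped ENNReal RealInnerProductSpace

namespace Crest.Agent.R234.Al9_182

open Crest.Agent.R234.Vf_884 Crest.Agent.R234.Al7_182 Crest.Agent.R234.Al8_182
open Crest.Agent.R234.Strat3_842

noncomputable section

variable {m k : ℕ}

theorem isClosed_support (D : VarifoldData m k) : IsClosed (support D) :=
  Cp914.isClosed_spt (weight D)

theorem ae_mem_support {U : Set (Euc k)} {D : VarifoldData m k} (hD : IsIntegralVarifoldIn U D) :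
    ∀ᵐ p ∂(VD D), p.1 ∈ support D := by
  have h1 := ae_mem_spt (VD D)
  rw [mass_VD hD] at h1
  exact h1

theorem cyl_subset_ball (T : Submodule ℝ (Euc k)) (x0 : Euc k) {r s R : ℝ} (h : r + s ≤ R) :
    Ell3_3.cyl T x0 r s ⊆ ball x0 R := by
  rintro p ⟨h1, h2⟩
  rw [mem_ball_zero_iff] at h1 h2
  rw [mem_ball, dist_eq_norm]
  have h3 := Al5_182.norm_le_hx_hy T (p - x0)
  exact h3.trans_lt ((add_lt_add h1 h2).trans_le h)

/-- **Allard's regularity theorem** for integral stationary varifolds, density `≥ Q`, mass ratio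
close to `Q`, support close to a plane. -/
theorem allard (m k : ℕ) (hm : 1 ≤ m) (Q : ℕ) (hQ : 1 ≤ Q) :
    ∃ ε : ℝ, 0 < ε ∧ ∀ (U : Set (Euc k)) (D : VarifoldData m k), IsOpen U →
      IsIntegralVarifoldIn U D → IsStationaryIn U D → ∀ x0 ∈ support D, ∀ r : ℝ, 0 < r →
      ball x0 r ⊆ U → ∀ T : Submodule ℝ (Euc k), Module.finrank ℝ T = m →
      (∀ y ∈ support D, y ∈ ball x0 r → ‖Tᗮ.starProjection (y - x0)‖ ≤ ε * r) →
      (∀ y ∈ support D, y ∈ ball x0 r → (Q : ℝ≥0∞) ≤ Th m (VD D) y) →
      rat m (VD D) x0 r ≤ (Q : ℝ≥0∞) + ENNReal.ofReal ε → x0 ∉ singularSet m k U D := by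
  obtain ⟨p₀, hp₀, H⟩ := Ae1_3.end_of_graphData' m k hm (α := 1 / 2) (by norm_num) (by norm_num)
  have hQ1 : (1 : ℝ) ≤ Q := by exact_mod_cast hQ
  have hQ0 : (0 : ℝ) < Q := by linarith
  obtain ⟨c, hc, hc96, ε, hε, Λ, hΛ, hΛ₀, G⟩ := graph_of_flat m hm (α := 1 / 2) (Λ₀ := p₀ / 3)
    (τ := 1 / (2 * Q)) (by norm_num) (by norm_num) (by positivity) (by positivity)
  refine ⟨ε, hε, ?_⟩
  intro U D hU hD hst x0 hx0 r hr hrU T hT hflat hTh hrat
  have hV := stat_VD hD hst
  have hQe : ENNReal.ofReal (Q : ℝ) = (Q : ℝ≥0∞) := ENNReal.ofReal_natCast Q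
  obtain ⟨hup, u, g, K, hg⟩ := G hV (isClosed_support D)
    ((ae_mem_support hD).mono fun p hp _ => hp) (x0 := x0) (r := r) (Q := Q) (T := T) hx0 hr hrU
    hQ0 hT (fun x hx hxb => by rw [hQe]; exact hTh x hx hxb)
    (hrat.trans (by
      rw [← hQe, ← ENNReal.ofReal_add hQ0.le hε.le]
      refine ENNReal.ofReal_le_ofReal ?_
      nlinarith)) hflat
  have hsub : Ell3_3.cyl T x0 (c * r) (6 * c * r) ⊆ ball x0 (12 * c * r) :=
    cyl_subset_ball T x0 (by nlinarith)
  have hsub2 : ball x0 (12 * c * r) ⊆ ball x0 r := ball_subset_ball (by nlinarith)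
  have h1 := (H U D hU hD hst T hT x0 (c * r) (6 * c * r) Λ K (support D) u g hg (by linarith)
    Subset.rfl inter_subset_left (hsub.trans (hsub2.trans hrU)) Q hQ
    (fun p hp => hTh p hp.1 (hsub2 (hsub hp.2)))
    (fun p hp => by
      refine (hup p (hsub hp.2)).trans_lt ?_
      rw [← hQe, ← ENNReal.ofReal_one, ← ENNReal.ofReal_add hQ0.le zero_le_one]
      refine (ENNReal.ofReal_lt_ofReal_iff (by linarith)).2 ?_
      have : (1 + 1 / (2 * (Q : ℝ))) * Q = Q + 1 / 2 := by field_simp
      rw [this]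
      linarith)).2
  refine h1 x0 ⟨?_, ?_⟩
  · have : Ell3_3.px T x0 x0 = 0 := by simp [Ell3_3.px]
    rw [this]
    exact mem_ball_self (by positivity)
  · have : Ell3_3.py T x0 x0 = 0 := by simp [Ell3_3.py]
    rw [this]
    exact mem_ball_self (by positivity)

/-- an element of the Grassmannian is the projection onto its range -/
theorem exists_plane {P : L k} (hP : P ∈ G m k) :
    ∃ T : Submodule ℝ (Euc k), Module.finrank ℝ T = m ∧ T.starProjection = P := by
  have h1 : (LinearMap.range P.toLinearMap).starProjection = P := by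
    ext1 x
    refine Submodule.eq_starProjection_of_mem_orthogonal ⟨x, rfl⟩ ?_
    rw [Submodule.mem_orthogonal]
    rintro _ ⟨y, rfl⟩
    have h2 := G_symm hP y (x - P x)
    rw [map_sub, G_idem_apply hP, sub_self, inner_zero_right] at h2
    exact h2
  refine ⟨LinearMap.range P.toLinearMap, ?_, h1⟩
  have h2 := Al6_182.tr_starProjection (LinearMap.range P.toLinearMap)
  rw [h1] at h2
  have h3 : Cacc_113.tr P = m := hP.2.2
  rw [h3] at h2
  exact_mod_cast h2.symm

/-- density `≤ Q` at `x`, density `≥ Q` on the support near `x`, flat at arbitrarily small scales: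
regular point. -/
theorem regular_of_not_NF {U : Set (Euc k)} {D : VarifoldData m k} (hU : IsOpen U) (hm : 1 ≤ m)
    (hD : IsIntegralVarifoldIn U D) (hst : IsStationaryIn U D) {x : Euc k} (hxU : x ∈ U)
    (hx : x ∈ support D) (hNF : x ∉ Strat3_842.NF m (VD D)) {Q : ℕ} (hQ : 1 ≤ Q)
    (hTx : Th m (VD D) x ≤ Q)
    (hTh : ∃ ρ > 0, ∀ y ∈ support D, y ∈ ball x ρ → (Q : ℝ≥0∞) ≤ Th m (VD D) y) :
    x ∉ singularSet m k U D := by
  obtain ⟨ε, hε, A⟩ := allard m k hm Q hQ
  have hV := stat_VD hD hst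
  obtain ⟨ρ, hρ, hρTh⟩ := hTh
  obtain ⟨R, hR, hRU⟩ := Metric.isOpen_iff.1 hU x hxU
  -- small scales
  have hlim := tendsto_rat hV hm hR hRU
  have hlt : Th m (VD D) x < (Q : ℝ≥0∞) + ENNReal.ofReal ε := by
    refine hTx.trans_lt (ENNReal.lt_add_right (ENNReal.natCast_ne_top Q) ?_)
    rw [ne_eq, ENNReal.ofReal_eq_zero, not_le]
    exact hε
  obtain ⟨r1, hr1, hr1'⟩ : ∃ r1 > 0, ∀ r, 0 < r → r < r1 →
      rat m (VD D) x r ≤ (Q : ℝ≥0∞) + ENNReal.ofReal ε := by
    have h1 := hlim.eventually_lt_const hlt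
    obtain ⟨r1, hr1, h2⟩ := mem_nhdsGT_iff_exists_Ioo_subset.1 h1
    exact ⟨r1, hr1, fun r h3 h4 => (h2 ⟨h3, h4⟩).le⟩
  set ε' : ℝ := ε ^ 2 * ome m / (4 * 2 ^ m) with hε'
  have home := ome_pos m
  have hε'0 : 0 < ε' := by positivity
  simp only [Strat3_842.NF, mem_ofPred_eq, not_exists, not_and, not_forall, not_not] at hNF
  obtain ⟨r, hr, hr0, P, hP, hfl⟩ := hNF ε' hε'0 (min (min r1 ρ) R) (by positivity)
  have hrr1 : r < r1 := hr0.trans_le ((min_le_left _ _).trans (min_le_left _ _))
  have hrρ : r < ρ := hr0.trans_le ((min_le_left _ _).trans (min_le_right _ _))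
  have hrR : r < R := hr0.trans_le (min_le_right _ _)
  have hcU : closedBall x r ⊆ U := (closedBall_subset_ball hrR).trans hRU
  obtain ⟨T, hT, hTP⟩ := exists_plane hP
  have hcompl : Tᗮ.starProjection = 1 - P := by
    rw [Al6_182.starProjection_compl, hTP]
  have hq : Cacc_113.IsPr (Tᗮ.starProjection) := Al6_182.isPr_starProjection _
  -- the height integral
  have hfin : VD D (ball x r ×ˢ univ) < ⊤ :=
    (measure_mono (Set.prod_mono ball_subset_closedBall Subset.rfl)).trans_lt
      (hV.fin _ (isCompact_closedBall x r) hcU)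
  have hH : ∫ z in Prod.fst ⁻¹' ball x r, ‖Tᗮ.starProjection (z.1 - x)‖ ^ 2 ∂(VD D)
      ≤ ε' * r ^ (m + 2) := by
    refine le_trans ?_ hfl
    rw [prod_univ_eq]
    have e : ∀ z : Euc k × L k, ‖Tᗮ.starProjection (z.1 - x)‖ ^ 2 = height P x z := by
      intro z
      unfold height
      rw [hcompl]
      simp
    simp_rw [e]
    rw [← prod_univ_eq]
    refine setIntegral_mono_ae_restrict ?_ ?_ ?_
    · exact integrableOn_of_bdd hV.conc hfin (continuous_height P x)
    · exact integrableOn_of_bdd hV.conc hfin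
        ((continuous_const.mul (continuous_tilt P)).add (continuous_height P x))
    · filter_upwards [ae_restrict_of_ae hV.conc] with z hz
      have := tr_perp_nonneg hz hP
      have h2 : 0 ≤ r ^ 2 * tilt P z := mul_nonneg (sq_nonneg r) this
      linarith
  -- the height bound
  have hheight : ∀ y ∈ support D, y ∈ ball x (r / 2) →
      ‖Tᗮ.starProjection (y - x)‖ ≤ ε * (r / 2) := by
    intro y hy hyb
    have hyb' : dist y x < r / 2 := hyb
    have h1 := (st_of_stat hV).height (x₀ := y) (R := r / 2) (m := m) (tr_ae hV) (x₁ := x)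
      (ρ := r / 2) (by rw [add_halves]; exact hcU) (by positivity) hq hyb'.le (θ := ome m) home.le
      (by
        refine Eventually.frequently ?_
        filter_upwards [Ioo_mem_nhdsGT (show (0:ℝ) < r / 2 by positivity)] with s hs
        have hsU : ball y s ⊆ U := by
          refine (ball_subset_ball' ?_).trans (ball_subset_closedBall.trans hcU)
          linarith [hs.2]
        have h3 := le_weight_ball hD hst hm hU hs.1 hsU hy
        rw [← mass_VD hD, mass_apply _ measurableSet_ball] at h3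
        have h4 : VD D (Prod.fst ⁻¹' ball y s) ≠ ⊤ := by
          rw [← mass_apply _ measurableSet_ball]
          refine ne_top_of_le_ne_top (mass_lt_top hV (isCompact_closedBall x r) hcU).ne
            (measure_mono ?_)
          refine (ball_subset_ball' ?_).trans ball_subset_closedBall
          linarith [hs.2]
        exact (ENNReal.ofReal_le_iff_le_toReal h4).1 h3) x
    rw [add_halves] at h1
    have h2 : ome m * ‖Tᗮ.starProjection (y - x)‖ ^ 2 ≤ ome m * (ε * (r / 2)) ^ 2 := by
      refine h1.trans ?_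
      calc ((r / 2) ^ m)⁻¹ * ∫ z in Prod.fst ⁻¹' ball x r,
            ‖Tᗮ.starProjection (z.1 - x)‖ ^ 2 ∂(VD D)
          ≤ ((r / 2) ^ m)⁻¹ * (ε' * r ^ (m + 2)) := by gcongr
        _ = ome m * (ε * (r / 2)) ^ 2 := by
            rw [hε', div_pow, pow_add]
            field_simp
            ring
    have h3 : ‖Tᗮ.starProjection (y - x)‖ ^ 2 ≤ (ε * (r / 2)) ^ 2 :=
      le_of_mul_le_mul_left h2 home
    exact (sq_le_sq₀ (norm_nonneg _) (by positivity)).1 h3
  refine A U D hU hD hst x hx (r / 2) (by positivity) ?_ T hT hheight ?_ ?_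
  · exact (ball_subset_ball (by linarith)).trans (ball_subset_closedBall.trans hcU)
  · intro y hy hyb
    exact hρTh y hy (ball_subset_ball (by linarith) hyb)
  · exact hr1' (r / 2) (by positivity) (by linarith)

/-- **density at most one and not in the non-flat stratum ==> regular** -/
theorem hone {U : Set (Euc k)} {D : VarifoldData m k} (hU : IsOpen U) (hm : 1 ≤ m)
    (hD : IsIntegralVarifoldIn U D) (hst : IsStationaryIn U D) :
    ∀ x ∈ U, x ∈ support D → x ∉ Strat3_842.NF m (VD D) → Th m (VD D) x ≤ 1 →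
      x ∉ singularSet m k U D := by
  intro x hxU hx hNF hTx
  obtain ⟨R, hR, hRU⟩ := Metric.isOpen_iff.1 hU x hxU
  refine regular_of_not_NF hU hm hD hst hxU hx hNF (Q := 1) le_rfl (by simpa using hTx)
    ⟨R, hR, fun y hy hyb => ?_⟩
  simpa using one_le_Th hD hst hm hU (hRU hyb) hy

end

end Crest.Agent.R234.Al9_182
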