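import Crest.Agent.R234.Ell6_3

/-!
R234 (helper3), VF-AREAID part 1: the Jacobian of a piece along a `C¹` graph.
-/

open MeasureTheory Metric Set Filter Topology
open scoped ContDiff NNReal ENNReal
open Crest.GeometryTopology.Submanifold

namespace Crest.Agent.R234.Ar1_3

noncomputable section

set_option linter.unusedSectionVars false

open Crest.Agent.R234.Ell1_3 Crest.Agent.R234.Ell2_3 Crest.Agent.R234.Ell3_3
open Crest.Agent.R234.Ell4_3

variable {m k : ℕ}

lemma det_adj {E : Type*} [NormedAddCommGroup E] [InnerProductSpace ℝ E] [FiniteDimensional ℝ E]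
    (B : E →L[ℝ] E) : (ContinuousLinearMap.adjoint B).det = B.det := by
  set b := stdOrthonormalBasis ℝ E
  have h1 : (ContinuousLinearMap.adjoint B).det =
      (LinearMap.toMatrix b.toBasis b.toBasis
        (LinearMap.adjoint (B : E →ₗ[ℝ] E))).det := by
    rw [LinearMap.det_toMatrix]; rfl
  have h2 : B.det = (LinearMap.toMatrix b.toBasis b.toBasis (B : E →ₗ[ℝ] E)).det := by
    rw [LinearMap.det_toMatrix]
  rw [h1, h2, LinearMap.toMatrix_adjoint, Matrix.det_conjTranspose]
  simp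

lemma det_metricMat (f : Euc m → Euc k) (a : Euc m) :
    (metricMat f a).det =
      ((ContinuousLinearMap.adjoint (fderiv ℝ f a)) ∘L fderiv ℝ f a).det := by
  set b := EuclideanSpace.basisFun (Fin m) ℝ
  have h1 : metricMat f a = LinearMap.toMatrix b.toBasis b.toBasis
      (((ContinuousLinearMap.adjoint (fderiv ℝ f a)) ∘L fderiv ℝ f a : Euc m →L[ℝ] Euc m) :
        Euc m →ₗ[ℝ] Euc m) := by
    ext i j
    have hb : ∀ i, b i = stdVec m i := fun i => by simp [b, stdVec]
    have h2 : LinearMap.toMatrix b.toBasis b.toBasis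
      (((ContinuousLinearMap.adjoint (fderiv ℝ f a)) ∘L fderiv ℝ f a : Euc m →L[ℝ] Euc m) :
        Euc m →ₗ[ℝ] Euc m) i j =
      inner ℝ (b i) ((ContinuousLinearMap.adjoint (fderiv ℝ f a)) (fderiv ℝ f a (b j))) := by
      rw [LinearMap.toMatrix_apply]
      simp [← OrthonormalBasis.repr_apply_apply]
    rw [h2, ContinuousLinearMap.adjoint_inner_right, hb, hb]
    rfl
  rw [h1, LinearMap.det_toMatrix]

variable (T : Submodule ℝ (Euc k))

/-- Jacobian of a piece whose tangent plane is the graph plane of `q` -/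
theorem jac_eq (L : T ≃ₗᵢ[ℝ] Euc m) (f : Euc m → Euc k) (a : Euc m) (q : T →L[ℝ] Tᗮ)
    (h : Tᗮ.orthogonalProjectionOnto ∘L fderiv ℝ f a =
      q ∘L (T.orthogonalProjectionOnto ∘L fderiv ℝ f a)) :
    jac f a = dns q *
      |((L : T →L[ℝ] Euc m) ∘L (T.orthogonalProjectionOnto ∘L fderiv ℝ f a)).det| := by
  set A : Euc m →L[ℝ] Euc k := fderiv ℝ f a with hA
  set B : Euc m →L[ℝ] Euc m := (L : T →L[ℝ] Euc m) ∘L (T.orthogonalProjectionOnto ∘L A) with hB
  set H : Euc m →L[ℝ] Euc m :=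
    (L : T →L[ℝ] Euc m) ∘L (gop q ∘L (L.symm : Euc m →L[ℝ] T)) with hH
  have hsplit : ∀ ξ, A ξ = ((T.orthogonalProjectionOnto (A ξ) : T) : Euc k) +
      ((q (T.orthogonalProjectionOnto (A ξ)) : Tᗮ) : Euc k) := by
    intro ξ
    have h1 := Submodule.starProjection_add_starProjection_orthogonal (K := T) (A ξ)
    have h2 := congrArg (fun M : Euc m →L[ℝ] Tᗮ => M ξ) h
    simp only [ContinuousLinearMap.comp_apply] at h2
    rw [← h2]
    exact h1.symm
  have hop : (ContinuousLinearMap.adjoint A) ∘L A = (ContinuousLinearMap.adjoint B) ∘L (H ∘L B) := by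
    ext ξ : 1
    apply ext_inner_left ℝ
    intro η
    simp only [ContinuousLinearMap.comp_apply]
    rw [ContinuousLinearMap.adjoint_inner_right, ContinuousLinearMap.adjoint_inner_right,
      hsplit η, hsplit ξ, inner_split]
    have h3 : H (B ξ) = L (gop q (T.orthogonalProjectionOnto (A ξ))) := by
      simp [hH, hB]
    have h4 : B η = L (T.orthogonalProjectionOnto (A η)) := by simp [hB]
    rw [h3, h4, L.inner_map_map, gop_inner]
  have hdH : H.det = gdet q := by
    have h5 : (H : Euc m →ₗ[ℝ] Euc m) = (L.toLinearEquiv : T →ₗ[ℝ] Euc m) ∘ₗ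
        (gop q : T →ₗ[ℝ] T) ∘ₗ (L.toLinearEquiv.symm : Euc m →ₗ[ℝ] T) := by
      ext x; rfl
    have h6 : H.det = LinearMap.det (H : Euc m →ₗ[ℝ] Euc m) := rfl
    rw [h6, h5]
    exact LinearMap.det_conj (gop q : T →ₗ[ℝ] T) L.toLinearEquiv
  have hdet : ((ContinuousLinearMap.adjoint B) ∘L (H ∘L B)).det =
      (ContinuousLinearMap.adjoint B).det * (H.det * B.det) := by
    have h7 : ∀ X Y : Euc m →L[ℝ] Euc m, (X ∘L Y).det = X.det * Y.det := by
      intro X Y
      exact LinearMap.det_comp (X : Euc m →ₗ[ℝ] Euc m) (Y : Euc m →ₗ[ℝ] Euc m)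
    rw [h7, h7]
  unfold jac dns
  rw [det_metricMat, ← hA, hop, hdet, det_adj, hdH]
  have h8 : B.det * (gdet q * B.det) = gdet q * (B.det) ^ 2 := by ring
  rw [h8, Real.sqrt_mul (gdet_pos q).le, Real.sqrt_sq_eq_abs]

/-- vertical differential of a piece along the graph -/
lemma vert_eq (x0 : Euc k) (r s : ℝ) (u : T → Tᗮ) (g : T → T →L[ℝ] Tᗮ)
    {U : Set (Euc k)} {D : VarifoldData m k} (hD : IsIntegralVarifoldIn U D)
    (hder : ∀ z ∈ ball (0 : T) r, HasFDerivAt u (g z) z) (i : ℕ) :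
    ∀ᵐ a ∂(volume.restrict (D.dom i)), D.chart i a ∈ grf T x0 u r s →
      Tᗮ.orthogonalProjectionOnto ∘L fderiv ℝ (D.chart i) a =
        g (px T x0 (D.chart i a)) ∘L (T.orthogonalProjectionOnto ∘L fderiv ℝ (D.chart i) a) := by
  have hu : ContinuousOn u (ball 0 r) := fun z hz => (hder z hz).continuousAt.continuousWithinAt
  have hgm : MeasurableSet (grf T x0 u r s) := by
    have h1 : grf T x0 u r s = cyl T x0 r s \ (cyl T x0 r s \ grf T x0 u r s) := by
      ext p; simp only [Set.mem_sdiff, grf, Set.mem_ofPred_eq]; tauto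
    rw [h1]
    exact (cyl_isOpen T x0 r s).measurableSet.diff (cyl_diff_grf_isOpen T x0 r s u hu).measurableSet
  have hc : Measurable (D.chart i) := (hD.contDiff i).continuous.measurable
  set A : Set (Euc m) := D.dom i ∩ D.chart i ⁻¹' (grf T x0 u r s) with hA
  have hAm : MeasurableSet A := (hD.measurableSet i).inter (hc hgm)
  set f := D.chart i with hf
  have hfd : ∀ a, HasFDerivAt f (fderiv ℝ f a) a := fun a =>
    ((hD.contDiff i).differentiable (by norm_num) a).hasFDerivAt
  have hx : ∀ a, HasFDerivAt (fun a => px T x0 (f a))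
      (T.orthogonalProjectionOnto ∘L fderiv ℝ f a) a :=
    fun a => T.orthogonalProjectionOnto.hasFDerivAt.comp a ((hfd a).sub_const x0)
  have hy : ∀ a, HasFDerivAt (fun a => py T x0 (f a))
      (Tᗮ.orthogonalProjectionOnto ∘L fderiv ℝ f a) a :=
    fun a => Tᗮ.orthogonalProjectionOnto.hasFDerivAt.comp a ((hfd a).sub_const x0)
  have key := ae_fderiv_zero (volume : Measure (Euc m))
    (h := fun a => py T x0 (f a) - u (px T x0 (f a)))
    (h' := fun a => (Tᗮ.orthogonalProjectionOnto ∘L fderiv ℝ f a) -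
      (g (px T x0 (f a))) ∘L (T.orthogonalProjectionOnto ∘L fderiv ℝ f a)) hAm
    (fun a ha => ((hy a).sub ((hder _ ha.2.1.1).comp a (hx a))).hasFDerivWithinAt)
    (fun a ha => sub_eq_zero.2 ha.2.2)
  rw [ae_restrict_iff' hAm] at key
  rw [ae_restrict_iff' (hD.measurableSet i)]
  filter_upwards [key] with a ha hda hga
  exact sub_eq_zero.1 (ha ⟨hda, hga⟩)

end

end Crest.Agent.R234.Ar1_3
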