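import Mathlib

/-!
# Row 234, VF-AREA, part 1 (helper870)

Area formula with multiplicities, abstract form: a C¹ map `F : E → E` on a Borel set, partition of the
noncritical part into countably many Borel pieces on which `F` is injective, with measurable inverses.
-/

set_option autoImplicit false

open MeasureTheory Set Function
open scoped ENNReal NNReal

noncomputable section

namespace Crest.Agent.R234.Ar_870

variable {E : Type*} [NormedAddCommGroup E] [NormedSpace ℝ E] [FiniteDimensional ℝ E]
  [MeasurableSpace E] [BorelSpace E]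

omit [FiniteDimensional ℝ E] in
theorem measurableSet_noncrit {F' : E → E →L[ℝ] E} (hF' : Continuous F') :
    MeasurableSet {x | (F' x).det ≠ 0} :=
  (ContinuousLinearMap.continuous_det.comp hF').measurable (measurableSet_singleton 0).compl

/-- the noncritical part of a Borel set is a countable disjoint union of Borel sets of injectivity -/
theorem exists_pieces {F : E → E} {F' : E → E →L[ℝ] E} {s : Set E} (hs : MeasurableSet s)
    (hF : ∀ x, HasFDerivAt F (F' x) x) (hF' : Continuous F') :
    ∃ A : ℕ → Set E, Pairwise (Disjoint on A) ∧ (∀ n, MeasurableSet (A n)) ∧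
      (⋃ n, A n) = s ∩ {x | (F' x).det ≠ 0} ∧ ∀ n, InjOn F (A n) := by
  classical
  set s' := s ∩ {x | (F' x).det ≠ 0} with hs'def
  have hs' : MeasurableSet s' := hs.inter (measurableSet_noncrit hF')
  rcases subsingleton_or_nontrivial E with hE | hE
  · refine ⟨fun n => if n = 0 then s' else ∅, ?_, ?_, ?_, ?_⟩
    · intro i j hij
      simp only [Function.onFun]
      by_cases hi : i = 0
      · have hj : j ≠ 0 := fun h => hij (hi.trans h.symm)
        simp [hj]
      · simp [hi]
    · intro n
      by_cases hn : n = 0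
      · simp only [hn, if_true]; exact hs'
      · simp only [hn, if_false]; exact MeasurableSet.empty
    · ext x
      simp only [mem_iUnion]
      constructor
      · rintro ⟨n, hn⟩
        by_cases h : n = 0
        · simpa [h] using hn
        · simp [h] at hn
      · intro hx
        exact ⟨0, by simpa using hx⟩
    · intro n
      exact fun a _ b _ _ => Subsingleton.elim a b
  · let r : (E →L[ℝ] E) → ℝ≥0 := fun A =>
      if h : A.det ≠ 0 then
        ‖((A.toContinuousLinearEquivOfDetNeZero h).symm : E →L[ℝ] E)‖₊⁻¹ / 2 else 1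
    have rpos : ∀ A, r A ≠ 0 := by
      intro A
      by_cases h : A.det ≠ 0
      · simp only [r, dif_pos h]
        have : ‖((A.toContinuousLinearEquivOfDetNeZero h).symm : E →L[ℝ] E)‖₊ ≠ 0 := by
          rw [Ne, nnnorm_eq_zero]
          intro h0
          obtain ⟨v, hv⟩ := exists_ne (0 : E)
          apply hv
          have h1 : (A.toContinuousLinearEquivOfDetNeZero h).symm
              ((A.toContinuousLinearEquivOfDetNeZero h) v) = v :=
            (A.toContinuousLinearEquivOfDetNeZero h).symm_apply_apply v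
          have h2 : ((A.toContinuousLinearEquivOfDetNeZero h).symm : E →L[ℝ] E)
              ((A.toContinuousLinearEquivOfDetNeZero h) v) = 0 := by rw [h0]; rfl
          rw [← h1]
          exact h2
        positivity
      · simp only [r, dif_neg h]; exact one_ne_zero
    obtain ⟨t, A, td, tm, st, ta, tA⟩ :=
      exists_partition_approximatesLinearOn_of_hasFDerivWithinAt F s' F'
        (fun x _ => (hF x).hasFDerivWithinAt) r rpos
    refine ⟨fun n => s' ∩ t n, ?_, fun n => hs'.inter (tm n), ?_, ?_⟩
    · intro i j hij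
      exact (td hij).mono inter_subset_right inter_subset_right
    · rw [← inter_iUnion]
      exact inter_eq_left.2 st
    · intro n
      rcases eq_empty_or_nonempty s' with h0 | h0
      · simp [h0]
      · obtain ⟨y, hy, hAy⟩ := tA h0 n
        have hdet : (A n).det ≠ 0 := by rw [hAy]; exact hy.2
        have happ := ta n
        have hr : r (A n) = ‖(((A n).toContinuousLinearEquivOfDetNeZero hdet).symm : E →L[ℝ] E)‖₊⁻¹ / 2 := by
          simp only [r, dif_pos hdet]
        have hlt : r (A n) <
            ‖(((A n).toContinuousLinearEquivOfDetNeZero hdet).symm : E →L[ℝ] E)‖₊⁻¹ := by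
          have h1 := rpos (A n)
          rw [hr] at h1 ⊢
          refine half_lt_self ?_
          rw [pos_iff_ne_zero]
          intro h2
          apply h1
          rw [h2, zero_div]
        have hcoe : (((A n).toContinuousLinearEquivOfDetNeZero hdet) : E →L[ℝ] E) = A n :=
          (A n).coe_toContinuousLinearEquivOfDetNeZero hdet
        have happ' : ApproximatesLinearOn F
            (((A n).toContinuousLinearEquivOfDetNeZero hdet) : E →L[ℝ] E) (s' ∩ t n) (r (A n)) := by
          rw [hcoe]; exact happ
        exact happ'.injOn (Or.inr hlt)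

/-- measurable inverse on a piece of injectivity -/
theorem exists_inverse {F : E → E} {F' : E → E →L[ℝ] E} {A : Set E} (hA : MeasurableSet A)
    (hF : ∀ x, HasFDerivAt F (F' x) x) (hinj : InjOn F A) :
    ∃ G : E → E, Measurable G ∧ ∀ a ∈ A, G (F a) = a := by
  have hme := measurableEmbedding_of_fderivWithin hA (fun x _ => (hF x).hasFDerivWithinAt) hinj
  obtain ⟨G, hG, hGF⟩ := hme.exists_measurable_extend (g := fun a : A => (a : E))
    measurable_subtype_coe fun _ => ⟨0⟩
  refine ⟨G, hG, fun a ha => ?_⟩
  exact congrFun hGF ⟨a, ha⟩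

variable (μ : Measure E) [μ.IsAddHaarMeasure]

/-- change of variables on a piece of injectivity, for functions on the source -/
theorem lintegral_piece {F G : E → E} {F' : E → E →L[ℝ] E} {A : Set E} (hA : MeasurableSet A)
    (hF : ∀ x, HasFDerivAt F (F' x) x) (hinj : InjOn F A) (hG : ∀ a ∈ A, G (F a) = a)
    (h : E → ℝ≥0∞) :
    ∫⁻ a in A, ENNReal.ofReal |(F' a).det| * h a ∂μ = ∫⁻ x in F '' A, h (G x) ∂μ := by
  rw [lintegral_image_eq_lintegral_abs_det_fderiv_mul μ hA
    (fun x _ => (hF x).hasFDerivWithinAt) hinj]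
  refine setLIntegral_congr_fun hA fun a ha => ?_
  simp only [hG a ha]

/-- a countable family of sheets over the base: the noncritical part of `F` on `dom`, with constant
multiplicity on every sheet -/
theorem exists_sheets {F : E → E} {F' : E → E →L[ℝ] E} {dom : Set E} (hdom : MeasurableSet dom)
    (hF : ∀ x, HasFDerivAt F (F' x) x) (hF' : Continuous F') {mult : E → ℕ}
    (hmult : Measurable mult) :
    ∃ (B : ℕ → Set E) (G : ℕ → E → E) (q : ℕ → ℕ),
      (∀ j, MeasurableSet (B j)) ∧ (∀ j, Measurable (G j)) ∧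
      (∀ j, ∀ x ∈ B j, G j x ∈ dom ∧ (F' (G j x)).det ≠ 0 ∧ F (G j x) = x ∧
        mult (G j x) = q j) ∧
      (∀ a ∈ dom, (F' a).det ≠ 0 → ∃ j, F a ∈ B j ∧ G j (F a) = a) ∧
      (∀ i j, ∀ x ∈ B i, x ∈ B j → G i x = G j x → i = j) ∧
      ∀ h : E → ℝ≥0∞, ∫⁻ a in dom, ENNReal.ofReal |(F' a).det| * h a ∂μ =
        ∑' j, ∫⁻ x in B j, h (G j x) ∂μ := by
  obtain ⟨A', hdis', hmeas', hU', hinj'⟩ := exists_pieces hdom hF hF'
  set A : ℕ → Set E := fun j => A' j.unpair.1 ∩ mult ⁻¹' {j.unpair.2} with hA
  have hAm : ∀ j, MeasurableSet (A j) := fun j =>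
    (hmeas' _).inter (hmult (measurableSet_singleton _))
  have hAinj : ∀ j, InjOn F (A j) := fun j => (hinj' _).mono inter_subset_left
  have hAdis : Pairwise (Disjoint on A) := by
    intro i j hij
    simp only [Function.onFun]
    rw [Set.disjoint_left]
    intro a hi hj
    apply hij
    have h1 : i.unpair.1 = j.unpair.1 := by
      by_contra hne
      exact Set.disjoint_left.1 (hdis' hne) hi.1 hj.1
    have h2 : i.unpair.2 = j.unpair.2 := by
      have e1 : mult a = i.unpair.2 := hi.2
      have e2 : mult a = j.unpair.2 := hj.2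
      rw [← e1, e2]
    have h3 : i.unpair = j.unpair := Prod.ext h1 h2
    rw [← Nat.pair_unpair i, ← Nat.pair_unpair j, h3]
  have hAU : (⋃ j, A j) = dom ∩ {x | (F' x).det ≠ 0} := by
    rw [← hU']
    ext a
    simp only [mem_iUnion]
    constructor
    · rintro ⟨j, hj⟩; exact ⟨_, hj.1⟩
    · rintro ⟨n, hn⟩
      refine ⟨Nat.pair n (mult a), ?_⟩
      simp only [hA, Nat.unpair_pair]
      exact ⟨hn, rfl⟩
  choose G hGm hG using fun j => exists_inverse (hAm j) hF (hAinj j)
  refine ⟨fun j => F '' A j, G, fun j => j.unpair.2, fun j => ?_, hGm, ?_, ?_, ?_, ?_⟩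
  · exact measurable_image_of_fderivWithin (hAm j) (fun x _ => (hF x).hasFDerivWithinAt)
      (hAinj j)
  · rintro j _ ⟨a, ha, rfl⟩
    rw [hG j a ha]
    have h1 : a ∈ dom ∩ {x | (F' x).det ≠ 0} := hAU ▸ mem_iUnion.2 ⟨j, ha⟩
    exact ⟨h1.1, h1.2, rfl, ha.2⟩
  · intro a ha hd
    have h1 : a ∈ ⋃ j, A j := hAU ▸ ⟨ha, hd⟩
    obtain ⟨j, hj⟩ := mem_iUnion.1 h1
    exact ⟨j, ⟨a, hj, rfl⟩, hG j a hj⟩
  · rintro i j _ ⟨a, ha, rfl⟩ ⟨b, hb, hba⟩ hGG
    rw [hG i a ha, ← hba, hG j b hb] at hGG
    subst hGG
    by_contra hne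
    exact Set.disjoint_left.1 (hAdis hne) ha hb
  · intro h
    have h1 : ∫⁻ a in dom, ENNReal.ofReal |(F' a).det| * h a ∂μ =
        ∫⁻ a in ⋃ j, A j, ENNReal.ofReal |(F' a).det| * h a ∂μ := by
      rw [hAU, ← lintegral_inter_add_diff _ dom (measurableSet_noncrit hF')]
      have h2 : ∫⁻ a in dom \ {x | (F' x).det ≠ 0}, ENNReal.ofReal |(F' a).det| * h a ∂μ = 0 := by
        rw [setLIntegral_congr_fun (g := fun _ => 0) (hdom.diff (measurableSet_noncrit hF'))]
        · simp
        · intro a ha
          have : (F' a).det = 0 := by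
            by_contra hne
            exact ha.2 hne
          simp [this]
      rw [h2, add_zero]
    rw [h1, lintegral_iUnion hAm hAdis]
    exact tsum_congr fun j => lintegral_piece μ (hAm j) hF (hAinj j) (hG j) h

end Crest.Agent.R234.Ar_870
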