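import Crest.Agent.R234.Ar1_3

/-!
R234 (helper3), VF-AREAID part 2: **area identification**.  An integral varifold whose support in a
cylinder lies on a `C¹` graph, with multiplicity `Q` almost everywhere and positive lower density
along the graph, has weight `Q · area` in the cylinder.
-/

open MeasureTheory Metric Set Filter Topology
open scoped ContDiff NNReal ENNReal
open Crest.GeometryTopology.Submanifold

namespace Crest.Agent.R234.Ar2_3

noncomputable section

set_option linter.unusedSectionVars false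

open Crest.Agent.R234.Ell1_3 Crest.Agent.R234.Ell2_3 Crest.Agent.R234.Ell3_3
open Crest.Agent.R234.Ell4_3 Crest.Agent.R234.Ell6_3 Crest.Agent.R234.Ar1_3

variable {m k : ℕ}

variable (T : Submodule ℝ (Euc k)) (x0 : Euc k) (r s : ℝ) (u : T → Tᗮ) (g : T → T →L[ℝ] Tᗮ)

lemma grf_measurable (hu : ContinuousOn u (ball 0 r)) : MeasurableSet (grf T x0 u r s) := by
  have h1 : grf T x0 u r s = cyl T x0 r s \ (cyl T x0 r s \ grf T x0 u r s) := by
    ext p; simp only [Set.mem_sdiff, grf, Set.mem_ofPred_eq]; tauto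
  rw [h1]
  exact (cyl_isOpen T x0 r s).measurableSet.diff (cyl_diff_grf_isOpen T x0 r s u hu).measurableSet

/-- the part of the `i`-th parameter domain that lies on the graph over `S` -/
def AS (D : VarifoldData m k) (i : ℕ) (S : Set (Euc k)) : Set (Euc m) :=
  D.dom i ∩ D.chart i ⁻¹' (S ∩ grf T x0 u r s)

/-- shadow of `AS` -/
def RS (D : VarifoldData m k) (i : ℕ) (S : Set (Euc k)) : Set T :=
  (fun a => px T x0 (D.chart i a)) '' (AS T x0 r s u D i S)

variable {U : Set (Euc k)} {D : VarifoldData m k}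

lemma AS_measurable (hD : IsIntegralVarifoldIn U D) (hu : ContinuousOn u (ball 0 r)) (i : ℕ)
    {S : Set (Euc k)} (hS : MeasurableSet S) : MeasurableSet (AS T x0 r s u D i S) :=
  (hD.measurableSet i).inter
    ((hD.contDiff i).continuous.measurable (hS.inter (grf_measurable T x0 r s u hu)))

lemma px_injOn (hD : IsIntegralVarifoldIn U D) (i : ℕ) (S : Set (Euc k)) :
    InjOn (fun a => px T x0 (D.chart i a)) (AS T x0 r s u D i S) := by
  intro a ha b hb hab
  have h1 := gmap_px T x0 r s u ha.2.2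
  have h2 := gmap_px T x0 r s u hb.2.2
  apply hD.injOn i ha.1 hb.1
  rw [← h1, ← h2]
  exact congrArg _ hab

lemma RS_eq (D : VarifoldData m k) (i : ℕ) (S : Set (Euc k)) :
    RS T x0 r s u D i S = RS T x0 r s u D i univ ∩ gmap T x0 u ⁻¹' S := by
  ext x
  constructor
  · rintro ⟨a, ha, rfl⟩
    refine ⟨⟨a, ⟨ha.1, mem_univ _, ha.2.2⟩, rfl⟩, ?_⟩
    show gmap T x0 u (px T x0 (D.chart i a)) ∈ S
    rw [gmap_px T x0 r s u ha.2.2]
    exact ha.2.1
  · rintro ⟨⟨a, ha, rfl⟩, hS⟩
    refine ⟨a, ⟨ha.1, ?_, ha.2.2⟩, rfl⟩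
    have h1 : gmap T x0 u (px T x0 (D.chart i a)) ∈ S := hS
    rwa [gmap_px T x0 r s u ha.2.2] at h1

lemma RS_subset (D : VarifoldData m k) (i : ℕ) (S : Set (Euc k)) :
    RS T x0 r s u D i S ⊆ ball 0 r := by
  rintro _ ⟨a, ha, rfl⟩
  exact ha.2.2.1.1

lemma RS_disjoint (hD : IsIntegralVarifoldIn U D) {i j : ℕ} (hij : i ≠ j) (S : Set (Euc k)) :
    Disjoint (RS T x0 r s u D i S) (RS T x0 r s u D j S) := by
  rw [Set.disjoint_left]
  rintro _ ⟨a, ha, rfl⟩ ⟨b, hb, hab⟩
  have h1 := gmap_px T x0 r s u ha.2.2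
  have h2 := gmap_px T x0 r s u hb.2.2
  have h3 : D.chart j b = D.chart i a := by
    rw [← h1, ← h2]; exact congrArg _ hab
  exact Set.disjoint_left.1 (hD.disjoint i j hij) ⟨a, ha.1, rfl⟩ ⟨b, hb.1, h3⟩

/-- derivative of the shadow map, in isometric coordinates -/
def shd (L : T ≃ₗᵢ[ℝ] Euc m) (D : VarifoldData m k) (i : ℕ) (a : Euc m) : Euc m →L[ℝ] Euc m :=
  (L : T →L[ℝ] Euc m) ∘L (T.orthogonalProjectionOnto ∘L fderiv ℝ (D.chart i) a)

lemma hasFDerivAt_shadow (L : T ≃ₗᵢ[ℝ] Euc m) (hD : IsIntegralVarifoldIn U D) (i : ℕ) (a : Euc m) :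
    HasFDerivAt (fun a => L (px T x0 (D.chart i a))) (shd T L D i a) a := by
  have hfd : HasFDerivAt (D.chart i) (fderiv ℝ (D.chart i) a) a :=
    ((hD.contDiff i).differentiable (by norm_num) a).hasFDerivAt
  have hx : HasFDerivAt (fun a => px T x0 (D.chart i a))
      (T.orthogonalProjectionOnto ∘L fderiv ℝ (D.chart i) a) a :=
    T.orthogonalProjectionOnto.hasFDerivAt.comp a (hfd.sub_const x0)
  exact (L : T ≃L[ℝ] Euc m).hasFDerivAt.comp a hx

lemma RS_image (L : T ≃ₗᵢ[ℝ] Euc m) (D : VarifoldData m k) (i : ℕ) (S : Set (Euc k)) :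
    (fun a => L (px T x0 (D.chart i a))) '' (AS T x0 r s u D i S) =
      L '' (RS T x0 r s u D i S) := by
  unfold RS
  rw [← image_comp]
  rfl

lemma RS_measurable (hT : Module.finrank ℝ T = m) (hD : IsIntegralVarifoldIn U D)
    (hu : ContinuousOn u (ball 0 r)) (i : ℕ)
    {S : Set (Euc k)} (hS : MeasurableSet S) : MeasurableSet (RS T x0 r s u D i S) := by
  let L : T ≃ₗᵢ[ℝ] Euc m := ((stdOrthonormalBasis ℝ T).reindex (finCongr hT)).repr
  have h1 : MeasurableSet (L '' (RS T x0 r s u D i S)) := by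
    rw [← RS_image]
    refine measurable_image_of_fderivWithin (AS_measurable T x0 r s u hD hu i hS)
      (fun a _ => (hasFDerivAt_shadow T x0 L hD i a).hasFDerivWithinAt) ?_
    intro a ha b hb hab
    exact px_injOn T x0 r s u hD i S ha hb (L.injective hab)
  have h2 : RS T x0 r s u D i S = L ⁻¹' (L '' (RS T x0 r s u D i S)) :=
    (preimage_image_eq _ L.injective).symm
  rw [h2]
  exact L.continuous.measurable h1

/-- the weight of a piece on the graph -/
theorem wi_graph (hT : Module.finrank ℝ T = m) (hD : IsIntegralVarifoldIn U D)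
    (hder : ∀ z ∈ ball (0 : T) r, HasFDerivAt u (g z) z) {Q : ℕ} (i : ℕ)
    (hmult : ∀ᵐ a ∂(volume.restrict (D.dom i)), D.chart i a ∈ cyl T x0 r s → D.mult i a = Q)
    {S : Set (Euc k)} (hS : MeasurableSet S) :
    wi D i (S ∩ grf T x0 u r s) =
      ∫⁻ x in RS T x0 r s u D i S, (Q : ℝ≥0∞) * ENNReal.ofReal (dns (g x)) := by
  have hu : ContinuousOn u (ball 0 r) := fun z hz => (hder z hz).continuousAt.continuousWithinAt
  let L : T ≃ₗᵢ[ℝ] Euc m := ((stdOrthonormalBasis ℝ T).reindex (finCongr hT)).repr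
  have hc : Measurable (D.chart i) := (hD.contDiff i).continuous.measurable
  have hSg : MeasurableSet (S ∩ grf T x0 u r s) := hS.inter (grf_measurable T x0 r s u hu)
  have hAm := AS_measurable T x0 r s u hD hu i hS
  -- change of variables
  have hcv := lintegral_image_eq_lintegral_abs_det_fderiv_mul (volume : Measure (Euc m)) hAm
    (fun a _ => (hasFDerivAt_shadow T x0 L hD i a).hasFDerivWithinAt)
    (fun a ha b hb hab => px_injOn T x0 r s u hD i S ha hb (L.injective hab))
    (fun y => (Q : ℝ≥0∞) * ENNReal.ofReal (dns (g (L.symm y))))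
  rw [RS_image] at hcv
  -- transfer to `T`
  have hmp : MeasurePreserving L (volume : Measure T) (volume : Measure (Euc m)) :=
    L.measurePreserving
  have htr : ∫⁻ y in L '' (RS T x0 r s u D i S),
      (Q : ℝ≥0∞) * ENNReal.ofReal (dns (g (L.symm y))) =
      ∫⁻ x in RS T x0 r s u D i S, (Q : ℝ≥0∞) * ENNReal.ofReal (dns (g x)) := by
    rw [← hmp.setLIntegral_comp_emb L.toHomeomorph.measurableEmbedding]
    simp
  rw [← htr, hcv]
  unfold wi
  rw [Measure.map_apply hc hSg, withDensity_apply _ (hc hSg), Measure.restrict_restrict (hc hSg)]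
  have h0 : D.chart i ⁻¹' (S ∩ grf T x0 u r s) ∩ D.dom i = AS T x0 r s u D i S := by
    unfold AS; rw [inter_comm]
  rw [h0]
  refine setLIntegral_congr_fun_ae hAm ?_
  have hv := vert_eq T x0 r s u g hD hder i
  rw [ae_restrict_iff' (hD.measurableSet i)] at hv hmult
  filter_upwards [hv, hmult] with a h1 h2 ha
  have h3 := h1 ha.1 ha.2.2
  have h4 := h2 ha.1 ha.2.2.1
  have h5 := jac_eq T L (D.chart i) a (g (px T x0 (D.chart i a))) h3
  rw [h4, h5]
  simp only [LinearIsometryEquiv.symm_apply_apply]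
  have h6 : (shd T L D i a) =
      (L : T →L[ℝ] Euc m) ∘L (T.orthogonalProjectionOnto ∘L fderiv ℝ (D.chart i) a) := rfl
  rw [h6, ENNReal.ofReal_mul (by positivity), ENNReal.ofReal_mul (dns_pos _).le,
    ENNReal.ofReal_natCast]
  ring

/-- the weight in the cylinder, over Borel sets -/
theorem weight_graph (hT : Module.finrank ℝ T = m) (hD : IsIntegralVarifoldIn U D)
    (hder : ∀ z ∈ ball (0 : T) r, HasFDerivAt u (g z) z)
    {Q : ℕ}
    (hnull : weight D (cyl T x0 r s \ grf T x0 u r s) = 0)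
    (hmult : ∀ i, ∀ᵐ a ∂(volume.restrict (D.dom i)),
      D.chart i a ∈ cyl T x0 r s → D.mult i a = Q)
    {S : Set (Euc k)} (hS : MeasurableSet S) :
    weight D (S ∩ cyl T x0 r s) =
      ∫⁻ x in (⋃ i, RS T x0 r s u D i univ) ∩ gmap T x0 u ⁻¹' S,
        (Q : ℝ≥0∞) * ENNReal.ofReal (dns (g x)) := by
  have hu : ContinuousOn u (ball 0 r) := fun z hz => (hder z hz).continuousAt.continuousWithinAt
  have hgm := grf_measurable T x0 r s u hu
  have h1 : weight D (S ∩ cyl T x0 r s) = weight D (S ∩ grf T x0 u r s) := by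
    apply le_antisymm
    · have h2 : S ∩ cyl T x0 r s ⊆ (S ∩ grf T x0 u r s) ∪ (cyl T x0 r s \ grf T x0 u r s) := by
        intro p hp
        by_cases h : p ∈ grf T x0 u r s
        · exact Or.inl ⟨hp.1, h⟩
        · exact Or.inr ⟨hp.2, h⟩
      refine (measure_mono h2).trans ((measure_union_le _ _).trans ?_)
      rw [hnull, add_zero]
    · exact measure_mono (inter_subset_inter_right _ (fun p hp => hp.1))
  rw [h1, weight_eq, Measure.sum_apply _ (hS.inter hgm)]
  have h3 : (⋃ i, RS T x0 r s u D i univ) ∩ gmap T x0 u ⁻¹' S = ⋃ i, RS T x0 r s u D i S := by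
    rw [iUnion_inter]
    exact iUnion_congr fun i => (RS_eq T x0 r s u D i S).symm
  rw [h3, lintegral_iUnion (fun i => RS_measurable T x0 r s u hT hD hu i hS)
    (fun i j hij => RS_disjoint T x0 r s u hD hij S)]
  exact tsum_congr fun i => wi_graph T x0 r s u g hT hD hder i (hmult i) hS

end

end Crest.Agent.R234.Ar2_3
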