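import Crest.Agent.R234.Ar1_870
import Crest.Prelude.Def_Varifold

/-!
# Row 234, VF-AREA, part 2 (helper870)

Jacobian of the horizontal projection `π : E k → E m` restricted to a tangent plane `P`:
`Jh π P = √det(π P π†)`, and `jac f a * Jh π (P_a) = |det (π ∘ Df a)|`.
-/

set_option autoImplicit false

open MeasureTheory Set Function
open Crest.GeometryTopology.Submanifold
open scoped ENNReal NNReal InnerProductSpace

noncomputable section

namespace Crest.Agent.R234.Ar_870

variable {m k : ℕ}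

/-- square of the Jacobian of `π` on the plane with orthogonal projection `P` -/
def Jq (π : Euc k →L[ℝ] Euc m) (P : Euc k →L[ℝ] Euc k) : ℝ :=
  (π ∘L P ∘L ContinuousLinearMap.adjoint π).det

/-- Jacobian of `π` on the plane with orthogonal projection `P` -/
def Jh (π : Euc k →L[ℝ] Euc m) (P : Euc k →L[ℝ] Euc k) : ℝ := Real.sqrt (Jq π P)

theorem Jh_nonneg (π : Euc k →L[ℝ] Euc m) (P : Euc k →L[ℝ] Euc k) : 0 ≤ Jh π P := Real.sqrt_nonneg _

theorem det_adjoint (A : Euc m →L[ℝ] Euc m) : (ContinuousLinearMap.adjoint A).det = A.det := by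
  have h := LinearMap.toMatrix_adjoint (𝕜 := ℝ) (EuclideanSpace.basisFun (Fin m) ℝ)
    (EuclideanSpace.basisFun (Fin m) ℝ) (A : Euc m →ₗ[ℝ] Euc m)
  have h1 := congrArg Matrix.det h
  rw [Matrix.det_conjTranspose, LinearMap.det_toMatrix, LinearMap.det_toMatrix] at h1
  exact h1

theorem det_comp (A B : Euc m →L[ℝ] Euc m) : (A ∘L B).det = A.det * B.det :=
  LinearMap.det_comp _ _

theorem jac_eq_normDet (f : Euc m → Euc k) (a : Euc m) :
    jac f a = (fderiv ℝ f a : Euc m →ₗ[ℝ] Euc k).normDet := by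
  have h := (fderiv ℝ f a : Euc m →ₗ[ℝ] Euc k).normDet_sq_eq_det_gram
    (EuclideanSpace.basisFun (Fin m) ℝ)
  unfold jac
  have h2 : (metricMat f a).det =
      (Matrix.gram ℝ fun i => (fderiv ℝ f a : Euc m →ₗ[ℝ] Euc k)
        (EuclideanSpace.basisFun (Fin m) ℝ i)).det := by
    congr 1
    ext i j
    simp [metricMat, Matrix.gram, pd, stdVec]
  rw [h2, ← h]
  exact Real.sqrt_sq (LinearMap.normDet_nonneg _)

theorem jac_sq (f : Euc m → Euc k) (a : Euc m) :
    jac f a ^ 2 = (ContinuousLinearMap.adjoint (fderiv ℝ f a) ∘L fderiv ℝ f a).det := by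
  rw [jac_eq_normDet]
  exact (fderiv ℝ f a).normDet_sq

/-- the Jacobian identity for a parametrised plane -/
theorem Jq_mul (π : Euc k →L[ℝ] Euc m) (A : Euc m →L[ℝ] Euc k) (hA : Injective A)
    (P : Euc k →L[ℝ] Euc k) (hP : ContinuousLinearMap.adjoint P = P) (hPA : P ∘L A = A)
    (hr : ∀ v, P v ∈ LinearMap.range (A : Euc m →ₗ[ℝ] Euc k)) :
    Jq π P * (ContinuousLinearMap.adjoint A ∘L A).det = (π ∘L A).det ^ 2 := by
  obtain ⟨B, hB⟩ : ∃ B : Euc k →L[ℝ] Euc m, A ∘L B = P := by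
    let e := LinearEquiv.ofInjective (A : Euc m →ₗ[ℝ] Euc k) hA
    let B₀ : Euc k →ₗ[ℝ] Euc m :=
      (e.symm : _ →ₗ[ℝ] Euc m) ∘ₗ (P : Euc k →ₗ[ℝ] Euc k).codRestrict _ hr
    refine ⟨LinearMap.toContinuousLinearMap B₀, ?_⟩
    ext1 v
    have h1 : e (e.symm ⟨P v, hr v⟩) = ⟨P v, hr v⟩ := e.apply_symm_apply _
    have h2 := congrArg Subtype.val h1
    exact h2
  have h1 : Jq π P = (π ∘L A).det * (B ∘L ContinuousLinearMap.adjoint π).det := by
    unfold Jq
    rw [← hB, ← det_comp]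
    rfl
  have hAP : ContinuousLinearMap.adjoint A ∘L P = ContinuousLinearMap.adjoint A := by
    have := congrArg ContinuousLinearMap.adjoint hPA
    rw [ContinuousLinearMap.adjoint_comp, hP] at this
    exact this
  have h2 : (ContinuousLinearMap.adjoint A ∘L A).det *
      (B ∘L ContinuousLinearMap.adjoint π).det = (π ∘L A).det := by
    rw [← det_comp]
    have : (ContinuousLinearMap.adjoint A ∘L A) ∘L (B ∘L ContinuousLinearMap.adjoint π) =
        (ContinuousLinearMap.adjoint A ∘L (A ∘L B)) ∘L ContinuousLinearMap.adjoint π := rfl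
    rw [this, hB, hAP, ← ContinuousLinearMap.adjoint_comp, det_adjoint]
  rw [h1, sq, mul_assoc, mul_comm (B ∘L ContinuousLinearMap.adjoint π).det, h2]

/-- projection onto the tangent plane of a parametrisation -/
def tp (f : Euc m → Euc k) (a : Euc m) : Euc k →L[ℝ] Euc k := (tangentAt f a).starProjection

theorem tangentAt_eq (f : Euc m → Euc k) (a : Euc m) :
    tangentAt f a = LinearMap.range (fderiv ℝ f a : Euc m →ₗ[ℝ] Euc k) := by
  unfold tangentAt
  have h : Set.range (pd f a) = (fderiv ℝ f a : Euc m →ₗ[ℝ] Euc k) ''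
      Set.range (EuclideanSpace.basisFun (Fin m) ℝ) := by
    rw [← Set.range_comp]
    congr 1
    funext i
    simp [pd, stdVec]
  rw [h, Submodule.span_image]
  have h2 : Submodule.span ℝ (Set.range (EuclideanSpace.basisFun (Fin m) ℝ)) = ⊤ := by
    have := (EuclideanSpace.basisFun (Fin m) ℝ).toBasis.span_eq
    simpa using this
  rw [h2, Submodule.map_top]

theorem adjoint_tp (f : Euc m → Euc k) (a : Euc m) :
    ContinuousLinearMap.adjoint (tp f a) = tp f a := by
  have h : IsSelfAdjoint (tp f a) := by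
    unfold tp
    exact isSelfAdjoint_starProjection _
  exact h

theorem tp_comp (f : Euc m → Euc k) (a : Euc m) : tp f a ∘L fderiv ℝ f a = fderiv ℝ f a := by
  ext1 v
  have h : fderiv ℝ f a v ∈ tangentAt f a := by
    rw [tangentAt_eq]
    exact ⟨v, rfl⟩
  exact Submodule.starProjection_eq_self_iff.2 h

theorem tp_mem (f : Euc m → Euc k) (a : Euc m) (v : Euc k) :
    tp f a v ∈ LinearMap.range (fderiv ℝ f a : Euc m →ₗ[ℝ] Euc k) := by
  rw [← tangentAt_eq]
  exact Submodule.starProjection_apply_mem _ _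

/-- **Jacobian identity**: `jac f a * Jh π P_a = |det (π ∘ Df a)|` -/
theorem jac_mul_Jh (π : Euc k →L[ℝ] Euc m) (f : Euc m → Euc k) (a : Euc m)
    (hinj : Injective (fderiv ℝ f a)) :
    jac f a * Jh π (tp f a) = |(π ∘L fderiv ℝ f a).det| := by
  have h := Jq_mul π (fderiv ℝ f a) hinj (tp f a) (adjoint_tp f a) (tp_comp f a) (tp_mem f a)
  rw [← jac_sq] at h
  have h0 : 0 ≤ jac f a := Real.sqrt_nonneg _
  rw [← Real.sqrt_sq_eq_abs, ← h, Real.sqrt_mul' _ (sq_nonneg _), Real.sqrt_sq h0, mul_comm]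
  rfl

end Crest.Agent.R234.Ar_870
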