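import Crest.Agent.R234.Ar2_3

/-!
R234 (helper3), VF-AREAID part 3: the shadow of the pieces has full measure, final form
`area_id` and **`allard_end`**: graph + multiplicity `Q` + lower density ==> regular.
-/

open MeasureTheory Metric Set Filter Topology
open scoped ContDiff NNReal ENNReal
open Crest.GeometryTopology.Submanifold

namespace Crest.Agent.R234.Ar3_3

noncomputable section

set_option linter.unusedSectionVars false

open Crest.Agent.R234.Ell1_3 Crest.Agent.R234.Ell2_3 Crest.Agent.R234.Ell3_3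
open Crest.Agent.R234.Ell4_3 Crest.Agent.R234.Ell6_3 Crest.Agent.R234.Ar1_3
open Crest.Agent.R234.Ar2_3

variable {m k : ℕ}

variable (T : Submodule ℝ (Euc k)) (x0 : Euc k) (r s : ℝ) (u : T → Tᗮ) (g : T → T →L[ℝ] Tᗮ)

variable {U : Set (Euc k)} {D : VarifoldData m k}

lemma shadow_full (hT : Module.finrank ℝ T = m) (hD : IsIntegralVarifoldIn U D)
    (hder : ∀ z ∈ ball (0 : T) r, HasFDerivAt u (g z) z) (hg : ContinuousOn g (ball 0 r))
    (hus : ∀ z ∈ ball (0 : T) r, ‖u z‖ < s)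
    {Q : ℕ}
    (hnull : weight D (cyl T x0 r s \ grf T x0 u r s) = 0)
    (hmult : ∀ i, ∀ᵐ a ∂(volume.restrict (D.dom i)),
      D.chart i a ∈ cyl T x0 r s → D.mult i a = Q)
    (hlow : ∀ p ∈ grf T x0 u r s, ∃ c : ℝ, 0 < c ∧
      ∀ᶠ ρ in 𝓝[>] (0 : ℝ), ENNReal.ofReal (c * ρ ^ m) ≤ weight D (ball p ρ)) :
    volume (ball (0 : T) r \ ⋃ i, RS T x0 r s u D i univ) = 0 := by
  have hu : ContinuousOn u (ball 0 r) := fun z hz => (hder z hz).continuousAt.continuousWithinAt
  set R : Set T := ⋃ i, RS T x0 r s u D i univ with hR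
  have hRm : MeasurableSet R :=
    MeasurableSet.iUnion fun i => RS_measurable T x0 r s u hT hD hu i MeasurableSet.univ
  have hdens := Besicovitch.ae_tendsto_measure_inter_div_of_measurableSet (volume : Measure T) hRm
  rw [← compl_compl (ball (0 : T) r \ R)] 
  rw [← mem_ae_iff]
  filter_upwards [hdens] with x hx hxN
  have hxb : x ∈ ball (0 : T) r := hxN.1
  have hxR : x ∉ R := hxN.2
  rw [indicator_of_notMem hxR] at hx
  -- the point of the graph
  set p := gmap T x0 u x with hp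
  have hpg : p ∈ grf T x0 u r s := gmap_mem_grf T x0 r s u hxb (hus x hxb)
  obtain ⟨c, hc, hlc⟩ := hlow p hpg
  -- bound of the density near `x`
  have hgc : ContinuousAt g x := hg.continuousAt (isOpen_ball.mem_nhds hxb)
  have hdc : ContinuousAt (fun y => dns (g y)) x :=
    (dns_contDiff.continuous.continuousAt).comp hgc
  set C : ℝ := dns (g x) + 1 with hC
  have hCpos : 0 < C := by have := dns_pos (g x); positivity
  have hev : ∀ᶠ y in 𝓝 x, dns (g y) < C := hdc.eventually (gt_mem_nhds (by linarith))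
  obtain ⟨ρ₀, hρ₀, hball⟩ := Metric.eventually_nhds_iff_ball.1 hev
  obtain ⟨ρ₁, hρ₁, hcylρ⟩ := Metric.isOpen_iff.1 (cyl_isOpen T x0 r s) p hpg.1
  -- the upper bound of the weight of small balls
  have hup : ∀ᶠ ρ in 𝓝[>] (0 : ℝ), weight D (ball p ρ) ≤
      ((Q : ℝ≥0∞) * ENNReal.ofReal C) * volume (R ∩ closedBall x ρ) := by
    have e1 : ∀ᶠ ρ in 𝓝[>] (0 : ℝ), ρ < min ρ₀ ρ₁ :=
      (eventually_lt_nhds (lt_min hρ₀ hρ₁)).filter_mono nhdsWithin_le_nhds
    filter_upwards [e1] with ρ hρ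
    have h1 : ball p ρ = ball p ρ ∩ cyl T x0 r s := by
      rw [inter_eq_left.2]
      exact (ball_subset_ball (hρ.le.trans (min_le_right _ _))).trans hcylρ
    rw [h1, weight_graph T x0 r s u g hT hD hder hnull hmult measurableSet_ball]
    have hsub : R ∩ gmap T x0 u ⁻¹' (ball p ρ) ⊆ R ∩ closedBall x ρ := by
      rintro y ⟨hy, hy2⟩
      refine ⟨hy, ?_⟩
      have h2 : ‖gmap T x0 u y - gmap T x0 u x‖ < ρ := by
        have : gmap T x0 u y ∈ ball p ρ := hy2
        rwa [mem_ball, dist_eq_norm] at this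
      have h3 : ‖y - x‖ ≤ ‖gmap T x0 u y - gmap T x0 u x‖ := by
        have h4 : y - x = T.orthogonalProjectionOnto (gmap T x0 u y - gmap T x0 u x) := by
          have h5 : gmap T x0 u y - gmap T x0 u x =
              ((y - x : T) : Euc k) + ((u y - u x : Tᗮ) : Euc k) := by
            unfold gmap; push_cast; abel
          have h6 := px_gmap T 0 (y - x) (u y - u x)
          unfold px at h6
          rw [zero_add, sub_zero] at h6
          rw [h5, h6]
        rw [h4]
        exact (T.orthogonalProjectionOnto.le_opNorm _).trans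
          (mul_le_of_le_one_left (norm_nonneg _) T.orthogonalProjectionOnto_norm_le)
      rw [mem_closedBall, dist_eq_norm]
      linarith
    refine (lintegral_mono_set hsub).trans ?_
    have h7 : ∫⁻ y in R ∩ closedBall x ρ, (Q : ℝ≥0∞) * ENNReal.ofReal (dns (g y)) ≤
        ∫⁻ _ in R ∩ closedBall x ρ, (Q : ℝ≥0∞) * ENNReal.ofReal C := by
      refine setLIntegral_mono_ae' (hRm.inter measurableSet_closedBall) ?_
      refine Filter.Eventually.of_forall fun y hy => ?_
      have h8 : y ∈ ball x ρ₀ := by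
        have := hy.2
        rw [mem_closedBall] at this
        rw [mem_ball]
        exact lt_of_le_of_lt this (hρ.trans_le (min_le_left _ _))
      gcongr
      exact (hball y h8).le
    refine h7.trans ?_
    rw [setLIntegral_const]
  -- contradiction
  set vb : ℝ≥0∞ := volume (ball (0 : T) 1) with hvb
  have hvb0 : vb ≠ 0 := (measure_ball_pos _ _ one_pos).ne'
  have hvb1 : vb ≠ ⊤ := measure_ball_lt_top.ne
  set K : ℝ≥0∞ := ((Q : ℝ≥0∞) * ENNReal.ofReal C) * vb with hK
  have hK1 : K ≠ ⊤ := by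
    refine ENNReal.mul_ne_top (ENNReal.mul_ne_top (ENNReal.natCast_ne_top _)
      ENNReal.ofReal_ne_top) hvb1
  have hlim : Tendsto (fun ρ => K * (volume (R ∩ closedBall x ρ) / volume (closedBall x ρ)))
      (𝓝[>] 0) (𝓝 (K * 0)) := ENNReal.Tendsto.const_mul hx (Or.inr hK1)
  rw [mul_zero] at hlim
  have hev2 : ∀ᶠ ρ in 𝓝[>] (0 : ℝ), ENNReal.ofReal c ≤
      K * (volume (R ∩ closedBall x ρ) / volume (closedBall x ρ)) := by
    filter_upwards [hlc, hup, self_mem_nhdsWithin] with ρ h1 h2 hρ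
    have hρ0 : (0 : ℝ) < ρ := hρ
    have hvol : volume (closedBall x ρ) = ENNReal.ofReal (ρ ^ m) * vb := by
      rw [Measure.addHaar_closedBall _ _ hρ0.le, hT]
    have hv0 : ENNReal.ofReal (ρ ^ m) ≠ 0 := (ENNReal.ofReal_pos.2 (by positivity)).ne'
    have hv1 : ENNReal.ofReal (ρ ^ m) ≠ ⊤ := ENNReal.ofReal_ne_top
    have h3 := h1.trans h2
    rw [ENNReal.ofReal_mul hc.le] at h3
    have h4 : K * (volume (R ∩ closedBall x ρ) / volume (closedBall x ρ)) =
        ((Q : ℝ≥0∞) * ENNReal.ofReal C) * volume (R ∩ closedBall x ρ) /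
          ENNReal.ofReal (ρ ^ m) := by
      rw [hvol, hK, ENNReal.div_eq_inv_mul, ENNReal.div_eq_inv_mul,
        ENNReal.mul_inv (Or.inl hv0) (Or.inl hv1)]
      have h5 : vb * vb⁻¹ = 1 := ENNReal.mul_inv_cancel hvb0 hvb1
      calc ((Q : ℝ≥0∞) * ENNReal.ofReal C) * vb *
            ((ENNReal.ofReal (ρ ^ m))⁻¹ * vb⁻¹ * volume (R ∩ closedBall x ρ))
          = (vb * vb⁻¹) * ((ENNReal.ofReal (ρ ^ m))⁻¹ *
            (((Q : ℝ≥0∞) * ENNReal.ofReal C) * volume (R ∩ closedBall x ρ))) := by ring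
        _ = _ := by rw [h5, one_mul]
    rw [h4, ENNReal.le_div_iff_mul_le (Or.inl hv0) (Or.inl hv1)]
    exact h3
  have h9 : ENNReal.ofReal c ≤ 0 := ge_of_tendsto hlim hev2
  have h10 : (0 : ℝ≥0∞) < ENNReal.ofReal c := ENNReal.ofReal_pos.2 hc
  exact absurd h9 (not_le.2 h10)

/-- **Area identification.** -/
theorem area_id (hT : Module.finrank ℝ T = m) (hD : IsIntegralVarifoldIn U D)
    (hder : ∀ z ∈ ball (0 : T) r, HasFDerivAt u (g z) z) (hg : ContinuousOn g (ball 0 r))
    (hus : ∀ z ∈ ball (0 : T) r, ‖u z‖ < s)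
    {Q : ℕ}
    (hnull : weight D (cyl T x0 r s \ grf T x0 u r s) = 0)
    (hmult : ∀ i, ∀ᵐ a ∂(volume.restrict (D.dom i)),
      D.chart i a ∈ cyl T x0 r s → D.mult i a = Q)
    (hlow : ∀ p ∈ grf T x0 u r s, ∃ c : ℝ, 0 < c ∧
      ∀ᶠ ρ in 𝓝[>] (0 : ℝ), ENNReal.ofReal (c * ρ ^ m) ≤ weight D (ball p ρ)) :
    (weight D).restrict (cyl T x0 r s) = (Q : ℝ≥0∞) • gmeas T x0 u g r := by
  have hu : ContinuousOn u (ball 0 r) := fun z hz => (hder z hz).continuousAt.continuousWithinAt
  set R : Set T := ⋃ i, RS T x0 r s u D i univ with hR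
  have hRb : R ⊆ ball 0 r := iUnion_subset fun i => RS_subset T x0 r s u D i univ
  have hfull := shadow_full T x0 r s u g hT hD hder hg hus hnull hmult hlow
  have hRm : MeasurableSet R :=
    MeasurableSet.iUnion fun i => RS_measurable T x0 r s u hT hD hu i MeasurableSet.univ
  have hae : R =ᵐ[volume] ball (0 : T) r := by
    refine (LE.le.eventuallyLE hRb).antisymm ?_
    rw [ae_le_set]; exact hfull
  have hres : (volume : Measure T).restrict (ball 0 r) = (volume : Measure T).restrict R :=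
    (Measure.restrict_congr_set hae).symm
  have hmeas : AEMeasurable (fun x => ENNReal.ofReal (dns (g x)))
      (volume.restrict (ball (0 : T) r)) :=
    ((dns_contDiff.continuous.comp_continuousOn hg).aemeasurable
      measurableSet_ball).ennreal_ofReal
  ext S hS
  rw [Measure.restrict_apply hS, weight_graph T x0 r s u g hT hD hder hnull hmult hS,
    Measure.smul_apply, smul_eq_mul]
  unfold gmeas
  rw [Measure.map_apply_of_aemeasurable (gmap_aemeasurable T x0 r u g hu) hS,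
    withDensity_apply' _ _]
  have hnm : NullMeasurableSet (gmap T x0 u ⁻¹' S) ((volume : Measure T).restrict R) := by
    have h1 : AEMeasurable (gmap T x0 u) (volume.restrict (ball (0 : T) r)) :=
      (gmap_continuousOn T x0 r u hu).aemeasurable measurableSet_ball
    rw [hres] at h1
    exact h1.nullMeasurableSet_preimage hS
  rw [hres, Measure.restrict_restrict₀ hnm, inter_comm (gmap T x0 u ⁻¹' S) R]
  rw [lintegral_const_mul' _ _ (ENNReal.natCast_ne_top _)]

/-- **End of Allard's theorem for integral varifolds**: there is `p₀ = p₀(m,k,α) > 0` such that a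
`C^{1,α}` graph with gradient `< p₀` that carries a stationary integral varifold in a cylinder,
with multiplicity `Q ≥ 1` almost everywhere and positive lower density along the graph, consists of
regular points. -/
theorem allard_end (m k : ℕ) {α : ℝ} (hα : 0 < α) (hα1 : α < 1) :
    ∃ p₀ > 0, ∀ (U : Set (Euc k)) (D : VarifoldData m k), IsIntegralVarifoldIn U D →
      IsStationaryIn U D → ∀ (T : Submodule ℝ (Euc k)), Module.finrank ℝ T = m →
      ∀ (x0 : Euc k) (r s : ℝ) (u : T → Tᗮ) (g : T → T →L[ℝ] Tᗮ),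
      (∀ z ∈ ball (0 : T) r, HasFDerivAt u (g z) z) →
      (∀ x ∈ ball (0 : T) r, ∃ ρ > 0, ∃ K, ∀ z ∈ ball x ρ, ∀ z' ∈ ball x ρ,
        ‖g z - g z'‖ ≤ K * ‖z - z'‖ ^ α) →
      (∀ z ∈ ball (0 : T) r, ‖g z‖ < p₀) →
      (∀ z ∈ ball (0 : T) r, ‖u z‖ < s) → cyl T x0 r s ⊆ U →
      weight D (cyl T x0 r s \ grf T x0 u r s) = 0 →
      ∀ (Q : ℕ), 1 ≤ Q →
      (∀ i, ∀ᵐ a ∂(volume.restrict (D.dom i)), D.chart i a ∈ cyl T x0 r s → D.mult i a = Q) →
      (∀ p ∈ grf T x0 u r s, ∃ c : ℝ, 0 < c ∧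
        ∀ᶠ ρ in 𝓝[>] (0 : ℝ), ENNReal.ofReal (c * ρ ^ m) ≤ weight D (ball p ρ)) →
      ContDiffOn ℝ ∞ u (ball 0 r) ∧ ∀ p ∈ cyl T x0 r s, p ∉ singularSet m k U D := by
  obtain ⟨p₀, hp, H⟩ := regular_of_graph m k hα hα1
  refine ⟨p₀, hp, ?_⟩
  intro U D hD hst T hT x0 r s u g hder hhol hsm hus hW hnull Q hQ hmult hlow
  have hg : ContinuousOn g (ball 0 r) := by
    intro x hx
    obtain ⟨ρ, hρ, K, hK⟩ := hhol x hx
    exact (Crest.Agent.R246.H2x622.continuousAt_of_hol (W := T →L[ℝ] Tᗮ) (g := g) (x := x)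
      hα hρ hK).continuousWithinAt
  refine H U D hD hst T hT x0 r s u g hder hhol hsm hus hW Q ?_ (ENNReal.natCast_ne_top _)
    (area_id T x0 r s u g hT hD hder hg hus hnull hmult hlow)
  exact_mod_cast (by omega : Q ≠ 0)

end

end Crest.Agent.R234.Ar3_3
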