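import Crest.Agent.R234.Ar2_870

/-!
# Row 234, VF-AREA, part 3 (helper870)

Inequalities between the Jacobian `Jh` and the tilt `tl π P = m - tr (π P π†)`:
`0 ≤ tl`, `1 - tl ≤ Jq ≤ exp (-tl)`, `1 - Jh ≤ tl`, `|1 - Jh - tl / 2| ≤ tl² / 2`.
-/

set_option autoImplicit false

open MeasureTheory Set Function
open Crest.GeometryTopology.Submanifold
open scoped ENNReal NNReal InnerProductSpace

noncomputable section

namespace Crest.Agent.R234.Ar_870

variable {m k : ℕ}

/-- tilt of the plane `P` with respect to the horizontal plane `range π†` -/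
def tl (π : Euc k →L[ℝ] Euc m) (P : Euc k →L[ℝ] Euc k) : ℝ :=
  m - LinearMap.trace ℝ (Euc m) (π ∘L P ∘L ContinuousLinearMap.adjoint π : Euc m →L[ℝ] Euc m)

/-- `π` is an orthogonal projection onto coordinates of an `m`-plane -/
def IsCo (π : Euc k →L[ℝ] Euc m) : Prop :=
  π ∘L ContinuousLinearMap.adjoint π = ContinuousLinearMap.id ℝ (Euc m)

/-- orthogonal projections -/
def IsPr (P : Euc k →L[ℝ] Euc k) : Prop :=
  P ∘L P = P ∧ ContinuousLinearMap.adjoint P = P

theorem isPr_tp (f : Euc m → Euc k) (a : Euc m) : IsPr (tp f a) := by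
  refine ⟨?_, adjoint_tp f a⟩
  ext1 v
  exact Submodule.starProjection_eq_self_iff.2 (Submodule.starProjection_apply_mem _ _)

theorem norm_adjoint_co {π : Euc k →L[ℝ] Euc m} (hπ : IsCo π) (v : Euc m) :
    ‖ContinuousLinearMap.adjoint π v‖ = ‖v‖ := by
  have h : ‖ContinuousLinearMap.adjoint π v‖ ^ 2 = ‖v‖ ^ 2 := by
    rw [← real_inner_self_eq_norm_sq, ContinuousLinearMap.adjoint_inner_left,
      ← real_inner_self_eq_norm_sq]
    congr 1
    exact congrArg (fun T : Euc m →L[ℝ] Euc m => T v) hπ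
  exact (sq_eq_sq₀ (norm_nonneg _) (norm_nonneg _)).1 h

theorem norm_pr_le {P : Euc k →L[ℝ] Euc k} (hP : IsPr P) (v : Euc k) : ‖P v‖ ≤ ‖v‖ := by
  have h : ‖P v‖ ^ 2 ≤ ‖P v‖ * ‖v‖ := by
    rw [← real_inner_self_eq_norm_sq]
    have h1 : ⟪P v, P v⟫_ℝ = ⟪P v, v⟫_ℝ := by
      nth_rewrite 2 [← hP.2]
      rw [ContinuousLinearMap.adjoint_inner_right]
      congr 1
      exact congrArg (fun T : Euc k →L[ℝ] Euc k => T v) hP.1
    rw [h1]
    exact real_inner_le_norm _ _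
  rcases eq_or_lt_of_le (norm_nonneg (P v)) with h0 | h0
  · rw [← h0]; exact norm_nonneg _
  · rw [sq] at h
    exact le_of_mul_le_mul_left h h0

theorem inner_M (π : Euc k →L[ℝ] Euc m) {P : Euc k →L[ℝ] Euc k} (hP : IsPr P) (v : Euc m) :
    ⟪v, (π ∘L P ∘L ContinuousLinearMap.adjoint π) v⟫_ℝ =
      ‖P (ContinuousLinearMap.adjoint π v)‖ ^ 2 := by
  rw [← real_inner_self_eq_norm_sq]
  change ⟪v, π (P (ContinuousLinearMap.adjoint π v))⟫_ℝ = _
  rw [← ContinuousLinearMap.adjoint_inner_left]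
  nth_rewrite 3 [← hP.2]
  rw [ContinuousLinearMap.adjoint_inner_right]
  rw [real_inner_comm]
  congr 1
  exact (congrArg (fun T : Euc k →L[ℝ] Euc k => T (ContinuousLinearMap.adjoint π v)) hP.1).symm

/-- eigenvalues of `π P π†` -/
theorem exists_eig {π : Euc k →L[ℝ] Euc m} (hπ : IsCo π) {P : Euc k →L[ℝ] Euc k} (hP : IsPr P) :
    ∃ c : Fin m → ℝ, (∀ i, 0 ≤ c i) ∧ (∀ i, c i ≤ 1) ∧ Jq π P = ∏ i, c i ∧
      tl π P = ∑ i, (1 - c i) := by
  set M : Euc m →L[ℝ] Euc m := π ∘L P ∘L ContinuousLinearMap.adjoint π with hM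
  set b := EuclideanSpace.basisFun (Fin m) ℝ with hb
  set X : Matrix (Fin m) (Fin m) ℝ := LinearMap.toMatrix b.toBasis b.toBasis
    (M : Euc m →ₗ[ℝ] Euc m) with hX
  have hMs : ContinuousLinearMap.adjoint M = M := by
    rw [hM, ContinuousLinearMap.adjoint_comp, ContinuousLinearMap.adjoint_comp,
      ContinuousLinearMap.adjoint_adjoint, hP.2]
    rfl
  have hXh : X.IsHermitian := by
    have h := LinearMap.toMatrix_adjoint (𝕜 := ℝ) b b (M : Euc m →ₗ[ℝ] Euc m)
    have h2 : LinearMap.adjoint (M : Euc m →ₗ[ℝ] Euc m) = (M : Euc m →ₗ[ℝ] Euc m) := by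
      have := congrArg (fun T : Euc m →L[ℝ] Euc m => (T : Euc m →ₗ[ℝ] Euc m)) hMs
      exact this
    rw [h2] at h
    exact h.symm
  have hdet : X.det = Jq π P := LinearMap.det_toMatrix b.toBasis (M : Euc m →ₗ[ℝ] Euc m)
  have htr : X.trace = LinearMap.trace ℝ (Euc m) (M : Euc m →ₗ[ℝ] Euc m) :=
    (LinearMap.trace_eq_matrix_trace ℝ b.toBasis _).symm
  have hev : ∀ i, hXh.eigenvalues i =
      ‖P (ContinuousLinearMap.adjoint π (hXh.eigenvectorBasis i))‖ ^ 2 := by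
    intro i
    rw [← inner_M π hP]
    have h1 : M (hXh.eigenvectorBasis i) = hXh.eigenvalues i • hXh.eigenvectorBasis i := by
      have h2 := hXh.mulVec_eigenvectorBasis i
      ext j
      have h3 := congrFun h2 j
      have h4 : (M (hXh.eigenvectorBasis i)) j = (X.mulVec (hXh.eigenvectorBasis i)) j := by
        have h5 := LinearMap.toMatrix_mulVec_repr b.toBasis b.toBasis
          (M : Euc m →ₗ[ℝ] Euc m) (hXh.eigenvectorBasis i)
        have h6 := congrFun h5 j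
        have h7 : ∀ w : Euc m, (⇑(b.toBasis.repr w) : Fin m → ℝ) = w.ofLp := by
          intro w
          funext l
          simp [hb]
        rw [h7, h7] at h6
        exact h6.symm
      rw [h4, h3]
      simp
    rw [← hM, h1, inner_smul_right, real_inner_self_eq_norm_sq, hXh.eigenvectorBasis.norm_eq_one]
    ring
  refine ⟨hXh.eigenvalues, fun i => ?_, fun i => ?_, ?_, ?_⟩
  · rw [hev i]; positivity
  · rw [hev i]
    have h1 := norm_pr_le hP (ContinuousLinearMap.adjoint π (hXh.eigenvectorBasis i))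
    rw [norm_adjoint_co hπ, hXh.eigenvectorBasis.norm_eq_one] at h1
    exact pow_le_one₀ (norm_nonneg _) h1
  · rw [← hdet, hXh.det_eq_prod_eigenvalues]
    simp
  · unfold tl
    rw [Finset.sum_sub_distrib]
    have h1 := hXh.trace_eq_sum_eigenvalues
    rw [htr] at h1
    simp only [RCLike.ofReal_real_eq_id, id_eq] at h1
    rw [← h1]
    simp [hM]

theorem one_sub_sum_le_prod {ι : Type*} (s : Finset ι) (c : ι → ℝ) (h0 : ∀ i, 0 ≤ c i)
    (h1 : ∀ i, c i ≤ 1) : 1 - ∑ i ∈ s, (1 - c i) ≤ ∏ i ∈ s, c i := by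
  classical
  induction s using Finset.induction_on with
  | empty => simp
  | insert i s hi ih =>
    rw [Finset.sum_insert hi, Finset.prod_insert hi]
    have hp0 : 0 ≤ ∏ j ∈ s, c j := Finset.prod_nonneg fun j _ => h0 j
    have hp1 : ∏ j ∈ s, c j ≤ 1 := Finset.prod_le_one (fun j _ => h0 j) fun j _ => h1 j
    nlinarith [h0 i, h1 i]

variable {π : Euc k →L[ℝ] Euc m} {P : Euc k →L[ℝ] Euc k}

theorem tl_nonneg (hπ : IsCo π) (hP : IsPr P) : 0 ≤ tl π P := by
  obtain ⟨c, h0, h1, -, ht⟩ := exists_eig hπ hP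
  rw [ht]
  exact Finset.sum_nonneg fun i _ => by linarith [h1 i]

theorem tl_le (hπ : IsCo π) (hP : IsPr P) : tl π P ≤ m := by
  obtain ⟨c, h0, h1, -, ht⟩ := exists_eig hπ hP
  rw [ht]
  calc ∑ i, (1 - c i) ≤ ∑ _i : Fin m, (1:ℝ) := Finset.sum_le_sum fun i _ => by linarith [h0 i]
    _ = m := by simp

theorem Jq_nonneg (hπ : IsCo π) (hP : IsPr P) : 0 ≤ Jq π P := by
  obtain ⟨c, h0, h1, hd, -⟩ := exists_eig hπ hP
  rw [hd]
  exact Finset.prod_nonneg fun i _ => h0 i

theorem Jq_le_one (hπ : IsCo π) (hP : IsPr P) : Jq π P ≤ 1 := by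
  obtain ⟨c, h0, h1, hd, -⟩ := exists_eig hπ hP
  rw [hd]
  exact Finset.prod_le_one (fun i _ => h0 i) fun i _ => h1 i

theorem one_sub_tl_le (hπ : IsCo π) (hP : IsPr P) : 1 - tl π P ≤ Jq π P := by
  obtain ⟨c, h0, h1, hd, ht⟩ := exists_eig hπ hP
  rw [hd, ht]
  exact one_sub_sum_le_prod _ c h0 h1

theorem Jq_le_exp (hπ : IsCo π) (hP : IsPr P) : Jq π P ≤ Real.exp (-tl π P) := by
  obtain ⟨c, h0, h1, hd, ht⟩ := exists_eig hπ hP
  rw [hd, ht, ← Finset.sum_neg_distrib, Real.exp_sum]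
  refine Finset.prod_le_prod (fun i _ => h0 i) fun i _ => ?_
  have := Real.add_one_le_exp (-(1 - c i))
  linarith

theorem Jh_sq (hπ : IsCo π) (hP : IsPr P) : Jh π P ^ 2 = Jq π P := Real.sq_sqrt (Jq_nonneg hπ hP)

theorem Jh_le_one (hπ : IsCo π) (hP : IsPr P) : Jh π P ≤ 1 := by
  unfold Jh
  rw [Real.sqrt_le_one]
  exact Jq_le_one hπ hP

theorem one_sub_Jh_le (hπ : IsCo π) (hP : IsPr P) : 1 - Jh π P ≤ tl π P := by
  have h1 := one_sub_tl_le hπ hP
  have h2 := Jh_sq hπ hP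
  have h3 := Jh_le_one hπ hP
  have h4 := Jh_nonneg π P
  nlinarith

theorem Jh_le_exp (hπ : IsCo π) (hP : IsPr P) : Jh π P ≤ Real.exp (-tl π P / 2) := by
  unfold Jh
  rw [Real.sqrt_le_left (Real.exp_pos _).le, ← Real.exp_nat_mul]
  refine (Jq_le_exp hπ hP).trans (le_of_eq ?_)
  congr 1
  push_cast
  ring

/-- **the anomaly is quartic off the holes** -/
theorem abs_anom_le (hπ : IsCo π) (hP : IsPr P) :
    |1 - Jh π P - tl π P / 2| ≤ tl π P ^ 2 / 2 := by
  have h1 := one_sub_tl_le hπ hP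
  have h2 := Jh_sq hπ hP
  have h3 := Jh_le_one hπ hP
  have h4 := Jh_nonneg π P
  have h5 := Jh_le_exp hπ hP
  have h6 := tl_nonneg hπ hP
  set t := tl π P
  set J := Jh π P
  rw [abs_le]
  constructor
  · have h7 : Real.exp (-t / 2) ≤ 1 - t / 2 + t ^ 2 / 2 := by
      have h8 : Real.exp (-(t / 2)) ≤ 1 - t / 2 + (t / 2) ^ 2 := by
        rcases le_or_gt t 2 with ht | ht
        · have := Real.abs_exp_sub_one_sub_id_le (x := -(t / 2)) (by
            rw [abs_neg, abs_of_nonneg (by positivity)]; linarith)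
          have h9 := (abs_le.1 this).2
          nlinarith
        · have h9 : Real.exp (-(t / 2)) ≤ 1 := Real.exp_le_one_iff.2 (by linarith)
          nlinarith
      have : -t / 2 = -(t / 2) := by ring
      rw [this]
      nlinarith
    linarith
  · rcases le_or_gt t 1 with ht | ht
    · by_contra hcon
      push Not at hcon
      have h7 : J < 1 - t / 2 - t ^ 2 / 2 := by linarith
      have h8 : 0 ≤ 1 - t / 2 - t ^ 2 / 2 := by nlinarith
      have h9 : J ^ 2 < (1 - t / 2 - t ^ 2 / 2) ^ 2 := by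
        exact pow_lt_pow_left₀ h7 h4 (by norm_num)
      rw [h2] at h9
      nlinarith [mul_nonneg h6 h6, mul_nonneg (mul_nonneg h6 h6) (by linarith : (0:ℝ) ≤ 1 - t)]
    · nlinarith

theorem one_le_tl_of_Jh_eq_zero (hπ : IsCo π) (hP : IsPr P) (h : Jh π P = 0) : 1 ≤ tl π P := by
  have h1 := one_sub_Jh_le hπ hP
  rw [h] at h1
  linarith

end Crest.Agent.R234.Ar_870
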