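import Crest.Agent.R234.Vf1_884

/-!
Row 234, base library (helper884), file 2: the general varifold `VD D` of the frozen
`VarifoldData`, its mass measure `weight D`, its first variation, stationarity.
-/

set_option autoImplicit false

open MeasureTheory Crest.GeometryTopology.Submanifold
open scoped ENNReal InnerProductSpace

noncomputable section

namespace Crest.Agent.R234.Vf_884

variable {m k : ℕ}

/-- density on the `i`-th parameter domain. -/
def dens (D : VarifoldData m k) (i : ℕ) (a : Euc m) : ℝ≥0∞ :=
  ENNReal.ofReal ((D.mult i a : ℝ) * jac (D.chart i) a)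

/-- the weighted Lebesgue measure on the `i`-th parameter domain. -/
def base (D : VarifoldData m k) (i : ℕ) : Measure (Euc m) :=
  (volume.restrict (D.dom i)).withDensity (dens D i)

/-- point and tangent plane. -/
def lift (D : VarifoldData m k) (i : ℕ) (a : Euc m) : Euc k × L k :=
  (D.chart i a, projF (D.chart i) a)

/-- the general varifold of the data. -/
def VD (D : VarifoldData m k) : Measure (Euc k × L k) :=
  Measure.sum fun i => (base D i).map (lift D i)

variable {U : Set (Euc k)} {D : VarifoldData m k}

theorem measurable_dens (hD : IsIntegralVarifoldIn U D) (i : ℕ) : Measurable (dens D i) := by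
  have h1 : Measurable fun a => ((D.mult i a : ℕ) : ℝ) :=
    (measurable_of_countable (fun n : ℕ => (n : ℝ))).comp (hD.measurable_mult i)
  exact (h1.mul (continuous_jac (hD.contDiff i)).measurable).ennreal_ofReal

theorem dom_subset (hD : IsIntegralVarifoldIn U D) (i : ℕ) :
    D.dom i ⊆ {a | (metricMat (D.chart i) a).det ≠ 0} := fun a ha =>
  det_metricMat_ne_zero (hD.injective_fderiv i a ha)

theorem base_ac (D : VarifoldData m k) (i : ℕ) : base D i ≪ volume.restrict (D.dom i) :=
  withDensity_absolutelyContinuous _ _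

theorem aemeasurable_lift (hD : IsIntegralVarifoldIn U D) (i : ℕ) :
    AEMeasurable (lift D i) (base D i) := by
  refine AEMeasurable.mono_ac ?_ (base_ac D i)
  refine (hD.contDiff i).continuous.measurable.aemeasurable.prodMk ?_
  exact ((continuousOn_projF (hD.contDiff i)).mono (dom_subset hD i)).aemeasurable
    (hD.measurableSet i)

theorem VD_fst (hD : IsIntegralVarifoldIn U D) : (VD D).map Prod.fst = weight D := by
  unfold VD weight
  rw [Measure.map_sum measurable_fst.aemeasurable]
  congr 1
  funext i
  rw [AEMeasurable.map_map_of_aemeasurable measurable_fst.aemeasurable (aemeasurable_lift hD i)]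
  rfl

theorem VD_prod_univ (hD : IsIntegralVarifoldIn U D) {K : Set (Euc k)} (hK : MeasurableSet K) :
    VD D (K ×ˢ Set.univ) = weight D K := by
  rw [← VD_fst hD, Measure.map_apply measurable_fst hK]
  congr 1
  ext p
  simp

theorem base_ae_dom (hD : IsIntegralVarifoldIn U D) (i : ℕ) : ∀ᵐ a ∂(base D i), a ∈ D.dom i :=
  (base_ac D i).ae_le (ae_restrict_mem (hD.measurableSet i))

theorem VD_conc (hD : IsIntegralVarifoldIn U D) : ∀ᵐ p ∂(VD D), p.2 ∈ G m k := by
  refine Measure.ae_sum_iff.2 fun i => ?_
  refine (ae_map_iff (aemeasurable_lift hD i) (measurable_snd (measurableSet_G m k))).2 ?_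
  filter_upwards [base_ae_dom hD i] with a ha
  exact projF_mem_G (hD.injective_fderiv i a ha)

/-- the varifold is concentrated on `U`. -/
theorem VD_mem (hD : IsIntegralVarifoldIn U D) (hU : MeasurableSet U) :
    ∀ᵐ p ∂(VD D), p.1 ∈ U := by
  refine Measure.ae_sum_iff.2 fun i => ?_
  refine (ae_map_iff (aemeasurable_lift hD i) (measurable_fst hU)).2 ?_
  filter_upwards [base_ae_dom hD i] with a ha
  exact hD.subset i ⟨a, ha, rfl⟩

theorem integral_VD (hD : IsIntegralVarifoldIn U D) {F : Euc k × L k → ℝ}
    (hF : Integrable F (VD D)) : ∫ p, F p ∂(VD D) =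
      ∑' i, ∫ a in D.dom i, (D.mult i a : ℝ) * jac (D.chart i) a * F (lift D i a) := by
  have hF' : Integrable F (Measure.sum fun i => (base D i).map (lift D i)) := hF
  unfold VD
  rw [integral_sum_measure hF']
  congr 1
  funext i
  have h1 : Integrable F ((base D i).map (lift D i)) :=
    hF'.mono_measure (Measure.le_sum (fun i => (base D i).map (lift D i)) i)
  rw [integral_map (aemeasurable_lift hD i) h1.aestronglyMeasurable]
  unfold base
  rw [integral_withDensity_eq_integral_toReal_smul (measurable_dens hD i)]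
  · refine integral_congr_ae (Filter.Eventually.of_forall fun a => ?_)
    simp only [dens, smul_eq_mul]
    rw [ENNReal.toReal_ofReal]
    exact mul_nonneg (Nat.cast_nonneg _) (Real.sqrt_nonneg _)
  · exact Filter.Eventually.of_forall fun a => ENNReal.ofReal_lt_top

theorem VD_fin (hD : IsIntegralVarifoldIn U D) {K : Set (Euc k)} (hK : IsCompact K)
    (hKU : K ⊆ U) : VD D (K ×ˢ Set.univ) < ⊤ := by
  rw [VD_prod_univ hD hK.measurableSet]
  exact hD.locallyFinite K hK hKU

/-- integrability of continuous test functions of compact support in the point variable. -/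
theorem integrable_of_cont {V : Measure (Euc k × L k)} (hc : ∀ᵐ p ∂V, p.2 ∈ G m k)
    {K : Set (Euc k)} (hK : IsCompact K) (hV : V (K ×ˢ Set.univ) < ⊤)
    {F : Euc k × L k → ℝ} (hF : Continuous F) (h0 : ∀ p, p.1 ∉ K → F p = 0) :
    Integrable F V := by
  obtain ⟨C, hC⟩ : ∃ C, ∀ p ∈ K ×ˢ G m k, ‖F p‖ ≤ C :=
    (hK.prod (isCompact_G m k)).exists_bound_of_continuousOn hF.continuousOn
  have h1 : IntegrableOn F (K ×ˢ Set.univ) V := by
    refine IntegrableOn.of_bound hV hF.aestronglyMeasurable C ?_
    filter_upwards [ae_restrict_of_ae hc,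
      ae_restrict_mem (hK.measurableSet.prod MeasurableSet.univ)] with p hp hp2
    exact hC p ⟨hp2.1, hp⟩
  refine (integrableOn_iff_integrable_of_support_subset ?_).1 h1
  intro p hp
  by_contra hcon
  exact hp (h0 p fun h => hcon ⟨h, trivial⟩)

theorem integrable_fv {V : Measure (Euc k × L k)} (hc : ∀ᵐ p ∂V, p.2 ∈ G m k)
    {X : Euc k → Euc k} (hX : ContDiff ℝ 1 X) (hXc : HasCompactSupport X)
    (hV : V (tsupport X ×ˢ Set.univ) < ⊤) :
    Integrable (fun p : Euc k × L k => tr ((fderiv ℝ X p.1) ∘L p.2)) V := by
  refine integrable_of_cont hc hXc hV ?_ fun p hp => ?_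
  · exact tr.continuous.comp (((hX.continuous_fderiv one_ne_zero).comp continuous_fst).clm_comp
      continuous_snd)
  · have h1 : fderiv ℝ X p.1 = 0 := by
      by_contra h
      exact hp (support_fderiv_subset ℝ h)
    rw [h1, ContinuousLinearMap.zero_comp, map_zero]

theorem firstVariation_eq (hD : IsIntegralVarifoldIn U D) {X : Euc k → Euc k}
    (hX : ContDiff ℝ 1 X) (hXc : HasCompactSupport X) (hXU : tsupport X ⊆ U) :
    firstVariation D X = ∫ p, tr ((fderiv ℝ X p.1) ∘L p.2) ∂(VD D) := by
  rw [integral_VD hD (integrable_fv (VD_conc hD) hX hXc (VD_fin hD hXc hXU))]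
  rfl

/-- the varifold of stationary data is stationary. -/
theorem stat_VD (hD : IsIntegralVarifoldIn U D) (hs : IsStationaryIn U D) :
    Stat m k U (VD D) where
  conc := VD_conc hD
  fin _ hK hKU := VD_fin hD hK hKU
  stat X hX hXc hXU := by
    rw [← firstVariation_eq hD hX hXc hXU]
    exact hs X hX hXc hXU

end Crest.Agent.R234.Vf_884
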