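import Crest.Agent.R234.Ar3_870
import Crest.Agent.R234.Vf2_884

/-!
# Row 234, VF-AREA, part 4 (helper870)

Sheets of an integral varifold over a horizontal plane: the part of `VD D` where the Jacobian of the
projection `π` does not vanish is a countable family of measurable sections with constant multiplicity.
-/

set_option autoImplicit false

open MeasureTheory Set Function
open Crest.GeometryTopology.Submanifold
open Crest.Agent.R234.Vf_884
open scoped ENNReal NNReal InnerProductSpace

noncomputable section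

namespace Crest.Agent.R234.Ar_870

variable {m k : ℕ}

theorem isPr_of_G {P : L k} (h : P ∈ G m k) : IsPr P := ⟨h.1, h.2.1.adjoint_eq⟩

theorem continuous_Jq (π : Euc k →L[ℝ] Euc m) : Continuous (Jq π : L k → ℝ) := by
  unfold Jq
  exact ContinuousLinearMap.continuous_det.comp
    (continuous_const.clm_comp (continuous_id.clm_comp continuous_const))

theorem continuous_Jh (π : Euc k →L[ℝ] Euc m) : Continuous (Jh π : L k → ℝ) :=
  (continuous_Jq π).sqrt

/-- sheets over the base -/
structure Sheets (D : VarifoldData m k) (π : Euc k →L[ℝ] Euc m) where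
  B : ℕ → Set (Euc m)
  s : ℕ → Euc m → Euc k
  Q : ℕ → Euc m → L k
  q : ℕ → ℕ
  measB : ∀ j, MeasurableSet (B j)
  measS : ∀ j, Measurable (s j)
  measQ : ∀ j, Measurable (Q j)
  sec : ∀ j, ∀ x ∈ B j, π (s j x) = x
  memG : ∀ j, ∀ x ∈ B j, Q j x ∈ G m k
  Jpos : ∀ j, ∀ x ∈ B j, 0 < Jh π (Q j x)
  qpos : ∀ j, ∀ x ∈ B j, 1 ≤ q j
  memD : ∀ j, ∀ x ∈ B j, ∃ i, ∃ a ∈ D.dom i, D.chart i a = s j x ∧ D.mult i a = q j ∧
    projF (D.chart i) a = Q j x
  inj : ∀ i j, ∀ x, x ∈ B i → x ∈ B j → s i x = s j x → i = j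
  full : ∀ i, ∀ a ∈ D.dom i, Jh π (projF (D.chart i) a) ≠ 0 →
    ∃ j, π (D.chart i a) ∈ B j ∧ s j (π (D.chart i a)) = D.chart i a
  area : ∀ g : Euc k × L k → ℝ≥0∞, Measurable g →
    ∫⁻ p, ENNReal.ofReal (Jh π p.2) * g p ∂(VD D) =
      ∑' j, (q j : ℝ≥0∞) * ∫⁻ x in B j, g (s j x, Q j x)

variable {U : Set (Euc k)} {D : VarifoldData m k}

theorem lintegral_VD (hD : IsIntegralVarifoldIn U D) {g : Euc k × L k → ℝ≥0∞}
    (hg : Measurable g) : ∫⁻ p, g p ∂(VD D) =
      ∑' i, ∫⁻ a in D.dom i, ENNReal.ofReal ((D.mult i a : ℝ) * jac (D.chart i) a) *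
        g (lift D i a) := by
  unfold VD
  rw [lintegral_sum_measure]
  refine tsum_congr fun i => ?_
  rw [lintegral_map' hg.aemeasurable (aemeasurable_lift hD i)]
  unfold base
  rw [lintegral_withDensity_eq_lintegral_mul_non_measurable _ (measurable_dens hD i)
    (Filter.Eventually.of_forall fun a => ENNReal.ofReal_lt_top)]
  rfl

theorem exists_sheets_VD (hD : IsIntegralVarifoldIn U D) (π : Euc k →L[ℝ] Euc m) :
    Nonempty (Sheets D π) := by
  classical
  have hF : ∀ i a, HasFDerivAt (fun a => π (D.chart i a)) (π ∘L fderiv ℝ (D.chart i) a) a := by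
    intro i a
    exact π.hasFDerivAt.comp a (((hD.contDiff i).differentiable one_ne_zero) a).hasFDerivAt
  have hF' : ∀ i, Continuous fun a => π ∘L fderiv ℝ (D.chart i) a := by
    intro i
    exact continuous_const.clm_comp ((hD.contDiff i).continuous_fderiv one_ne_zero)
  choose B Gs q hB hGs h1 h2 h3 h4 using fun i => exists_sheets (volume : Measure (Euc m))
    (hD.measurableSet i) (hF i) (hF' i) (hD.measurable_mult i)
  have hne : ∀ i a, a ∈ D.dom i → jac (D.chart i) a ≠ 0 := by
    intro i a ha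
    rw [jac_eq_normDet]
    intro h0
    rw [LinearMap.normDet_eq_zero_iff_ker_ne_bot] at h0
    exact h0 (LinearMap.ker_eq_bot.2 (hD.injective_fderiv i a ha))
  have hdet : ∀ i a, a ∈ D.dom i →
      jac (D.chart i) a * Jh π (projF (D.chart i) a) = |(π ∘L fderiv ℝ (D.chart i) a).det| :=
    fun i a ha => jac_mul_Jh π (D.chart i) a (hD.injective_fderiv i a ha)
  -- measurable version of the tangent plane
  set pj : ℕ → Euc m → L k := fun i a =>
    if (metricMat (D.chart i) a).det ≠ 0 then projF (D.chart i) a else 0 with hpj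
  have hpjm : ∀ i, Measurable (pj i) := by
    intro i
    have hs : MeasurableSet {a | (metricMat (D.chart i) a).det ≠ 0} :=
      ((continuous_metricMat (hD.contDiff i)).matrix_det.measurable
        (measurableSet_singleton (0:ℝ)).compl)
    have := (continuousOn_projF (hD.contDiff i)).measurable_piecewise
      (g := fun _ => (0 : L k)) continuousOn_const hs
    have h8 : pj i = Set.piecewise {a | (metricMat (D.chart i) a).det ≠ 0}
        (projF (D.chart i)) (fun _ => (0 : L k)) := by
      funext a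
      by_cases h9 : (metricMat (D.chart i) a).det ≠ 0
      · rw [Set.piecewise_eq_of_mem _ _ _ h9]
        simp only [hpj]
        exact if_pos h9
      · rw [Set.piecewise_eq_of_notMem _ _ _ h9]
        simp only [hpj]
        exact if_neg h9
    rw [h8]
    exact this
  have hpjd : ∀ i a, a ∈ D.dom i → pj i a = projF (D.chart i) a := by
    intro i a ha
    simp only [hpj]
    exact if_pos (dom_subset hD i ha)
  refine ⟨{
    B := fun j => B j.unpair.1 j.unpair.2
    s := fun j x => D.chart j.unpair.1 (Gs j.unpair.1 j.unpair.2 x)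
    Q := fun j x => pj j.unpair.1 (Gs j.unpair.1 j.unpair.2 x)
    q := fun j => q j.unpair.1 j.unpair.2
    measB := fun j => hB _ _
    measS := fun j => (hD.contDiff _).continuous.measurable.comp (hGs _ _)
    measQ := fun j => (hpjm _).comp (hGs _ _)
    sec := fun j x hx => (h1 _ _ x hx).2.2.1
    memG := fun j x hx => ?_
    Jpos := fun j x hx => ?_
    qpos := fun j x hx => ?_
    memD := fun j x hx => ?_
    inj := ?_
    full := ?_
    area := ?_ }⟩
  · rw [hpjd _ _ (h1 _ _ x hx).1]
    exact projF_mem_G (hD.injective_fderiv _ _ (h1 _ _ x hx).1)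
  · rw [hpjd _ _ (h1 _ _ x hx).1]
    refine lt_of_le_of_ne (Jh_nonneg _ _) fun h0 => ?_
    have h5 := hdet _ _ (h1 _ _ x hx).1
    rw [← h0, mul_zero] at h5
    exact (h1 _ _ x hx).2.1 (abs_eq_zero.1 h5.symm)
  · rw [← (h1 _ _ x hx).2.2.2]
    exact hD.mult_pos _ _ (h1 _ _ x hx).1
  · exact ⟨_, _, (h1 _ _ x hx).1, rfl, (h1 _ _ x hx).2.2.2, (hpjd _ _ (h1 _ _ x hx).1).symm⟩
  · intro i j x hi hj hs
    have hx1 := h1 _ _ x hi
    have hx2 := h1 _ _ x hj
    have e1 : i.unpair.1 = j.unpair.1 := by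
      by_contra hne'
      refine Set.disjoint_left.1 (hD.disjoint _ _ hne') ⟨_, hx1.1, rfl⟩ ?_
      rw [hs]
      exact ⟨_, hx2.1, rfl⟩
    have e2 : i.unpair.2 = j.unpair.2 := by
      have hx2' := hx2
      rw [← e1] at hx2' hj hs
      have h5 := hD.injOn _ hx1.1 hx2'.1 hs
      exact h3 _ _ _ x hi hj h5
    rw [← Nat.pair_unpair i, ← Nat.pair_unpair j, e1, e2]
  · intro i a ha hJ
    have h5 := hdet i a ha
    have h6 : (π ∘L fderiv ℝ (D.chart i) a).det ≠ 0 := by
      intro h7
      rw [h7, abs_zero] at h5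
      exact (mul_ne_zero (hne i a ha) hJ) h5
    obtain ⟨j, hj1, hj2⟩ := h2 i a ha h6
    refine ⟨Nat.pair i j, ?_, ?_⟩
    · simp only [Nat.unpair_pair]; exact hj1
    · simp only [Nat.unpair_pair, hj2]
  · intro g hg
    have hgm : Measurable fun p : Euc k × L k => ENNReal.ofReal (Jh π p.2) * g p :=
      (((continuous_Jh π).measurable.comp measurable_snd).ennreal_ofReal).mul hg
    rw [lintegral_VD hD hgm]
    have h5 : ∀ i, ∫⁻ a in D.dom i, ENNReal.ofReal ((D.mult i a : ℝ) * jac (D.chart i) a) *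
        (ENNReal.ofReal (Jh π (lift D i a).2) * g (lift D i a)) =
        ∑' j, (q i j : ℝ≥0∞) * ∫⁻ x in B i j, g (D.chart i (Gs i j x), pj i (Gs i j x)) := by
      intro i
      have h6 : ∫⁻ a in D.dom i, ENNReal.ofReal ((D.mult i a : ℝ) * jac (D.chart i) a) *
          (ENNReal.ofReal (Jh π (lift D i a).2) * g (lift D i a)) =
          ∫⁻ a in D.dom i, ENNReal.ofReal |(π ∘L fderiv ℝ (D.chart i) a).det| *
            ((D.mult i a : ℝ≥0∞) * g (D.chart i a, pj i a)) := by
        refine setLIntegral_congr_fun (hD.measurableSet i) fun a ha => ?_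
        simp only
        have h7 : 0 ≤ jac (D.chart i) a := Real.sqrt_nonneg _
        rw [← hdet i a ha, hpjd i a ha, ENNReal.ofReal_mul (Nat.cast_nonneg _),
          ENNReal.ofReal_mul h7, ENNReal.ofReal_natCast]
        unfold lift
        ring
      rw [h6, h4 i]
      refine tsum_congr fun j => ?_
      rw [← lintegral_const_mul']
      · refine setLIntegral_congr_fun (hB i j) fun x hx => ?_
        rw [(h1 i j x hx).2.2.2]
      · exact ENNReal.natCast_ne_top _
    rw [tsum_congr h5]
    have h7 : ∀ F : ℕ → ℕ → ℝ≥0∞, ∑' i, ∑' j, F i j =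
        ∑' j : ℕ, F j.unpair.1 j.unpair.2 := by
      intro F
      rw [← ENNReal.tsum_prod]
      exact (Nat.pairEquiv.symm.tsum_eq (fun p : ℕ × ℕ => F p.1 p.2)).symm
    exact h7 _

end Crest.Agent.R234.Ar_870
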