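import Crest.Agent.R234.Ar4_870

/-!
# Row 234, VF-AREA, part 5 (helper870)

The integer valued covering number `N` of the part of the varifold in a Borel set `W`, area formula
`∫ g(π x) J dV = ∫ g N dx`, and the anomaly identity
`∫ φ dμ - Q ∫ φ dx - (1/2) ∫ φ tl dV = ∫ φ (1 - J - tl/2) dV - ∫ φ (Q - N) dx`.
-/

set_option autoImplicit false

open MeasureTheory Set Function
open Crest.GeometryTopology.Submanifold
open Crest.Agent.R234.Vf_884
open scoped ENNReal NNReal InnerProductSpace

noncomputable section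

namespace Crest.Agent.R234.Ar_870

variable {m k : ℕ} {U : Set (Euc k)} {D : VarifoldData m k} {π : Euc k →L[ℝ] Euc m}

theorem measurable_tl (π : Euc k →L[ℝ] Euc m) : Continuous (tl π : L k → ℝ) := by
  unfold tl
  have h : Continuous fun A : Euc m →L[ℝ] Euc m => LinearMap.trace ℝ (Euc m) (A : Euc m →ₗ[ℝ] Euc m) :=
    (LinearMap.continuous_of_finiteDimensional
      (LinearMap.trace ℝ (Euc m) ∘ₗ ContinuousLinearMap.coeLM ℝ))
  exact continuous_const.sub
    (h.comp (continuous_const.clm_comp (continuous_id.clm_comp continuous_const)))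

namespace Sheets

/-- the covering number of the part in `W` -/
def N (S : Sheets D π) (W : Set (Euc k)) (x : Euc m) : ℝ≥0∞ :=
  ∑' j, (S.B j ∩ S.s j ⁻¹' W).indicator (fun _ => (S.q j : ℝ≥0∞)) x

theorem measurable_N (S : Sheets D π) {W : Set (Euc k)} (hW : MeasurableSet W) :
    Measurable (S.N W) := by
  unfold N
  exact Measurable.tsum fun j =>
    measurable_const.indicator ((S.measB j).inter (S.measS j hW))

theorem area_W (S : Sheets D π) {W : Set (Euc k)} (hW : MeasurableSet W) {g : Euc m → ℝ≥0∞}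
    (hg : Measurable g) :
    ∫⁻ p in W ×ˢ univ, ENNReal.ofReal (Jh π p.2) * g (π p.1) ∂(VD D) =
      ∫⁻ x, S.N W x * g x := by
  have hWm : MeasurableSet (W ×ˢ (univ : Set (L k))) := hW.prod MeasurableSet.univ
  have hm : Measurable fun p : Euc k × L k => (W ×ˢ univ).indicator (fun p => g (π p.1)) p :=
    (hg.comp (π.continuous.measurable.comp measurable_fst)).indicator hWm
  have h := S.area _ hm
  rw [← lintegral_indicator hWm]
  have h1 : ∀ p : Euc k × L k, (W ×ˢ univ).indicator
      (fun p => ENNReal.ofReal (Jh π p.2) * g (π p.1)) p =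
      ENNReal.ofReal (Jh π p.2) * (W ×ˢ univ).indicator (fun p => g (π p.1)) p := by
    intro p
    by_cases hp : p ∈ W ×ˢ (univ : Set (L k)) <;> simp [hp]
  simp_rw [h1]
  rw [h]
  unfold N
  simp_rw [← ENNReal.tsum_mul_right]
  have hts : ∫⁻ x, ∑' j, (S.B j ∩ S.s j ⁻¹' W).indicator (fun _ => (S.q j : ℝ≥0∞)) x * g x =
      ∑' j, ∫⁻ x, (S.B j ∩ S.s j ⁻¹' W).indicator (fun _ => (S.q j : ℝ≥0∞)) x * g x :=
    lintegral_tsum fun j => ((measurable_const.indicator
      ((S.measB j).inter (S.measS j hW))).mul hg).aemeasurable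
  rw [hts]
  refine tsum_congr fun j => ?_
  rw [← lintegral_const_mul' _ _ (ENNReal.natCast_ne_top _), ← lintegral_indicator (S.measB j)]
  refine lintegral_congr fun x => ?_
  by_cases hx : x ∈ S.B j
  · by_cases hw : S.s j x ∈ W
    · have h2 : x ∈ S.B j ∩ S.s j ⁻¹' W := ⟨hx, hw⟩
      have h3 : (S.s j x, S.Q j x) ∈ W ×ˢ (univ : Set (L k)) := ⟨hw, trivial⟩
      rw [Set.indicator_of_mem hx, Set.indicator_of_mem h2, Set.indicator_of_mem h3, S.sec j x hx]
    · have h2 : x ∉ S.B j ∩ S.s j ⁻¹' W := fun h => hw h.2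
      have h3 : (S.s j x, S.Q j x) ∉ W ×ˢ (univ : Set (L k)) := fun h => hw h.1
      rw [Set.indicator_of_mem hx, Set.indicator_of_notMem h2, Set.indicator_of_notMem h3]
      simp
  · have h2 : x ∉ S.B j ∩ S.s j ⁻¹' W := fun h => hx h.1
    rw [Set.indicator_of_notMem hx, Set.indicator_of_notMem h2]
    simp

/-- the covering number is an integer where it is finite -/
theorem N_nat (S : Sheets D π) (W : Set (Euc k)) {x : Euc m} (hx : S.N W x ≠ ⊤) :
    ∃ n : ℕ, S.N W x = n := by
  classical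
  unfold N at hx ⊢
  set f : ℕ → ℝ≥0∞ := fun j => (S.B j ∩ S.s j ⁻¹' W).indicator (fun _ => (S.q j : ℝ≥0∞)) x with hf
  have hnat : ∀ j, ∃ n : ℕ, f j = n := by
    intro j
    by_cases h : x ∈ S.B j ∩ S.s j ⁻¹' W
    · exact ⟨S.q j, by simp only [hf]; rw [Set.indicator_of_mem h]⟩
    · exact ⟨0, by simp only [hf]; rw [Set.indicator_of_notMem h]; simp⟩
  choose c hc using hnat
  have hfin : (support f).Finite := by
    have h1 := ENNReal.finite_const_le_of_tsum_ne_top hx (ε := 1) one_ne_zero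
    refine h1.subset fun j hj => ?_
    rw [mem_support] at hj
    change 1 ≤ f j
    rw [hc j] at hj ⊢
    have : c j ≠ 0 := by
      intro h0
      rw [h0] at hj
      simp at hj
    exact_mod_cast Nat.one_le_iff_ne_zero.2 this
  refine ⟨∑ j ∈ hfin.toFinset, c j, ?_⟩
  rw [tsum_eq_sum (s := hfin.toFinset)]
  · push_cast
    exact Finset.sum_congr rfl fun j _ => hc j
  · intro j hj
    by_contra h
    exact hj (hfin.mem_toFinset.2 h)

theorem lintegral_N_le (S : Sheets D π) (hD : IsIntegralVarifoldIn U D) (hπ : IsCo π)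
    {W : Set (Euc k)} (hW : MeasurableSet W) {A : Set (Euc m)} (hA : MeasurableSet A) :
    ∫⁻ x in A, S.N W x ≤ VD D ((W ∩ π ⁻¹' A) ×ˢ univ) := by
  have h := S.area_W hW (g := A.indicator 1) (measurable_one.indicator hA)
  have h1 : ∫⁻ x, S.N W x * A.indicator 1 x = ∫⁻ x in A, S.N W x := by
    rw [← lintegral_indicator hA]
    refine lintegral_congr fun x => ?_
    by_cases hx : x ∈ A <;> simp [hx]
  rw [← h1, ← h]
  have hWA : MeasurableSet ((W ∩ π ⁻¹' A) ×ˢ (univ : Set (L k))) :=
    (hW.inter (π.continuous.measurable hA)).prod MeasurableSet.univ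
  rw [← lintegral_indicator (hW.prod MeasurableSet.univ), ← lintegral_indicator_one hWA]
  refine lintegral_mono_ae ?_
  filter_upwards [VD_conc hD] with p hp
  by_cases h2 : p ∈ W ×ˢ (univ : Set (L k))
  · rw [Set.indicator_of_mem h2]
    by_cases h3 : π p.1 ∈ A
    · have h4 : p ∈ (W ∩ π ⁻¹' A) ×ˢ (univ : Set (L k)) := ⟨⟨h2.1, h3⟩, trivial⟩
      rw [Set.indicator_of_mem h3, Set.indicator_of_mem h4]
      simp only [Pi.one_apply, mul_one]
      rw [ENNReal.ofReal_le_one]
      exact Jh_le_one hπ (isPr_of_G hp)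
    · rw [Set.indicator_of_notMem h3, mul_zero]
      exact bot_le
  · rw [Set.indicator_of_notMem h2]
    exact bot_le

theorem ae_N_lt_top (S : Sheets D π) (hD : IsIntegralVarifoldIn U D) (hπ : IsCo π)
    {W : Set (Euc k)} (hW : MeasurableSet W) {A : Set (Euc m)} (hA : MeasurableSet A)
    (hfin : VD D ((W ∩ π ⁻¹' A) ×ˢ univ) < ⊤) : ∀ᵐ x ∂(volume.restrict A), S.N W x < ⊤ :=
  ae_lt_top (S.measurable_N hW) ((S.lintegral_N_le hD hπ hW hA).trans_lt hfin).ne

theorem ae_N_nat (S : Sheets D π) (hD : IsIntegralVarifoldIn U D) (hπ : IsCo π)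
    {W : Set (Euc k)} (hW : MeasurableSet W) {A : Set (Euc m)} (hA : MeasurableSet A)
    (hfin : VD D ((W ∩ π ⁻¹' A) ×ˢ univ) < ⊤) :
    ∀ᵐ x ∂(volume.restrict A), ∃ n : ℕ, S.N W x = n := by
  filter_upwards [S.ae_N_lt_top hD hπ hW hA hfin] with x hx
  exact S.N_nat W hx.ne

theorem integrableOn_N (S : Sheets D π) (hD : IsIntegralVarifoldIn U D) (hπ : IsCo π)
    {W : Set (Euc k)} (hW : MeasurableSet W) {A : Set (Euc m)} (hA : MeasurableSet A)
    (hfin : VD D ((W ∩ π ⁻¹' A) ×ˢ univ) < ⊤) :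
    IntegrableOn (fun x => (S.N W x).toReal) A :=
  integrable_toReal_of_lintegral_ne_top (S.measurable_N hW).aemeasurable
    ((S.lintegral_N_le hD hπ hW hA).trans_lt hfin).ne

/-- **area formula**, real form -/
theorem area_real (S : Sheets D π) (hD : IsIntegralVarifoldIn U D) (hπ : IsCo π)
    {W : Set (Euc k)} (hW : MeasurableSet W) {A : Set (Euc m)} (hA : MeasurableSet A)
    (hfin : VD D ((W ∩ π ⁻¹' A) ×ˢ univ) < ⊤) {g : Euc m → ℝ} (hg : Measurable g)
    {C : ℝ} (hC : ∀ x, |g x| ≤ C) (h0 : ∀ x, x ∉ A → g x = 0) :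
    ∫ p in W ×ˢ univ, Jh π p.2 * g (π p.1) ∂(VD D) = ∫ x, (S.N W x).toReal * g x := by
  have hmJ : ∀ g : Euc m → ℝ, Measurable g →
      Measurable fun p : Euc k × L k => Jh π p.2 * g (π p.1) := fun g hg =>
    ((continuous_Jh π).measurable.comp measurable_snd).mul
        (hg.comp (π.continuous.measurable.comp measurable_fst))
  -- nonnegative case
  have key : ∀ g : Euc m → ℝ, Measurable g → (∀ x, 0 ≤ g x) → (∀ x, x ∉ A → g x = 0) →
      (∀ x, g x ≤ C) →
      ∫ p in W ×ˢ univ, Jh π p.2 * g (π p.1) ∂(VD D) = ∫ x, (S.N W x).toReal * g x := by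
    intro g hg hg0 hgA hgC
    rw [integral_eq_lintegral_of_nonneg_ae
      (Filter.Eventually.of_forall fun p => mul_nonneg (Jh_nonneg _ _) (hg0 _))
      (hmJ g hg).aestronglyMeasurable,
      integral_eq_lintegral_of_nonneg_ae
      (Filter.Eventually.of_forall fun x => mul_nonneg ENNReal.toReal_nonneg (hg0 _))
      (((S.measurable_N hW).ennreal_toReal.mul hg).aestronglyMeasurable)]
    congr 1
    have h1 : ∀ p : Euc k × L k, ENNReal.ofReal (Jh π p.2 * g (π p.1)) =
        ENNReal.ofReal (Jh π p.2) * ENNReal.ofReal (g (π p.1)) := fun p =>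
      ENNReal.ofReal_mul (Jh_nonneg _ _)
    simp_rw [h1]
    rw [S.area_W hW (g := fun x => ENNReal.ofReal (g x)) hg.ennreal_ofReal]
    have h2 := S.ae_N_lt_top hD hπ hW hA hfin
    rw [ae_restrict_iff' hA] at h2
    refine lintegral_congr_ae ?_
    filter_upwards [h2] with x hx
    by_cases hxA : x ∈ A
    · rw [ENNReal.ofReal_mul ENNReal.toReal_nonneg, ENNReal.ofReal_toReal (hx hxA).ne]
    · rw [hgA x hxA]; simp
  have hpos := key (fun x => max (g x) 0) (hg.max measurable_const) (fun x => le_max_right _ _)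
    (fun x hx => by rw [h0 x hx]; simp)
    (fun x => max_le ((le_abs_self _).trans (hC x)) ((abs_nonneg _).trans (hC x)))
  have hgn : Measurable fun x => -g x := hg.neg
  have hneg := key (fun x => max (-g x) 0) (hgn.max measurable_const)
    (fun x => le_max_right _ _) (fun x hx => by rw [h0 x hx]; simp)
    (fun x => max_le ((neg_le_abs _).trans (hC x)) ((abs_nonneg _).trans (hC x)))
  have hC0 : 0 ≤ C := (abs_nonneg _).trans (hC 0)
  -- integrability
  have hint1 : ∀ g : Euc m → ℝ, Measurable g → (∀ x, |g x| ≤ C) → (∀ x, x ∉ A → g x = 0) →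
      IntegrableOn (fun p : Euc k × L k => Jh π p.2 * g (π p.1)) (W ×ˢ univ) (VD D) := by
    intro g hg hgC hgA
    have hWA : MeasurableSet ((W ∩ π ⁻¹' A) ×ˢ (univ : Set (L k))) :=
      (hW.inter (π.continuous.measurable hA)).prod MeasurableSet.univ
    have hmeas : Measurable fun p : Euc k × L k => Jh π p.2 * g (π p.1) :=
      ((continuous_Jh π).measurable.comp measurable_snd).mul
        (hg.comp (π.continuous.measurable.comp measurable_fst))
    have h1 : IntegrableOn (fun p : Euc k × L k => Jh π p.2 * g (π p.1))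
        ((W ∩ π ⁻¹' A) ×ˢ univ) (VD D) := by
      refine IntegrableOn.of_bound hfin hmeas.aestronglyMeasurable C ?_
      filter_upwards [ae_restrict_of_ae (VD_conc hD)] with p hp
      rw [Real.norm_eq_abs, abs_mul, abs_of_nonneg (Jh_nonneg _ _)]
      calc Jh π p.2 * |g (π p.1)| ≤ 1 * C :=
            mul_le_mul (Jh_le_one hπ (isPr_of_G hp)) (hgC _) (abs_nonneg _) zero_le_one
        _ = C := one_mul C
    refine h1.of_forall_sdiff_eq_zero (hW.prod MeasurableSet.univ) fun p hp => ?_
    have h2 : π p.1 ∉ A := fun h => hp.2 ⟨⟨hp.1.1, h⟩, trivial⟩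
    rw [hgA _ h2, mul_zero]
  have hint2 : ∀ g : Euc m → ℝ, Measurable g → (∀ x, |g x| ≤ C) → (∀ x, x ∉ A → g x = 0) →
      Integrable (fun x => (S.N W x).toReal * g x) := by
    intro g hg hgC hgA
    have h1 : IntegrableOn (fun x => (S.N W x).toReal * g x) A :=
      (S.integrableOn_N hD hπ hW hA hfin).mul_bdd hg.aestronglyMeasurable
        (Filter.Eventually.of_forall fun x => hgC x)
    refine (integrableOn_iff_integrable_of_support_subset ?_).1 h1
    intro x hx
    by_contra hxA
    apply hx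
    simp only
    rw [hgA x hxA, mul_zero]
  have hsplit : ∀ x, g x = max (g x) 0 - max (-g x) 0 := by
    intro x
    rcases le_total (g x) 0 with h | h
    · rw [max_eq_right h, max_eq_left (by linarith)]; ring
    · rw [max_eq_left h, max_eq_right (by linarith)]; ring
  have hb1 : ∀ x, |max (g x) 0| ≤ C := fun x => by
    rw [abs_of_nonneg (le_max_right _ _)]
    exact max_le ((le_abs_self _).trans (hC x)) hC0
  have hb2 : ∀ x, |max (-g x) 0| ≤ C := fun x => by
    rw [abs_of_nonneg (le_max_right _ _)]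
    exact max_le ((neg_le_abs _).trans (hC x)) hC0
  have e1 : ∫ p in W ×ˢ univ, Jh π p.2 * g (π p.1) ∂(VD D) =
      ∫ p in W ×ˢ univ, (Jh π p.2 * max (g (π p.1)) 0 - Jh π p.2 * max (-g (π p.1)) 0) ∂(VD D) := by
    refine integral_congr_ae (Filter.Eventually.of_forall fun p => ?_)
    simp only
    rw [← mul_sub, ← hsplit]
  have e2 : ∫ x, (S.N W x).toReal * g x =
      ∫ x, ((S.N W x).toReal * max (g x) 0 - (S.N W x).toReal * max (-g x) 0) := by
    refine integral_congr_ae (Filter.Eventually.of_forall fun x => ?_)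
    simp only
    rw [← mul_sub, ← hsplit]
  rw [e1, e2, integral_sub, integral_sub, hpos, hneg]
  · exact hint2 _ (hg.max measurable_const) hb1 fun x hx => by rw [h0 x hx]; simp
  · exact hint2 _ (hgn.max measurable_const) hb2 fun x hx => by rw [h0 x hx]; simp
  · exact hint1 _ (hg.max measurable_const) hb1 fun x hx => by rw [h0 x hx]; simp
  · exact hint1 _ (hgn.max measurable_const) hb2 fun x hx => by rw [h0 x hx]; simp

end Sheets

end Crest.Agent.R234.Ar_870
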