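import Crest.Agent.R234.Cy6_870
import Crest.Agent.R234.AS_456

/-!
# Row 234, VF-ASL, part 1 (helper214)

Almost stationary varifolds (`AS_456.AS`) in a cylinder: no vertical cut-off, and the error density of
horizontal fields `f(κ p) π†(ξ(π p))` and vertical fields `f(π p) κ†(ψ(κ p))`.
-/

set_option autoImplicit false
set_option linter.deprecated false
set_option linter.unusedSimpArgs false

open MeasureTheory Set Function Filter Topology
open Crest.GeometryTopology.Submanifold
open Crest.Agent.R234.Vf_884 Crest.Agent.R234.Ar_870 Crest.Agent.R234.Cy_870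
open Crest.Agent.R234.AS_456 (AS errA err hp vp)
open scoped ENNReal NNReal InnerProductSpace

noncomputable section

namespace Crest.Agent.R234.Asl_214

variable {m n k : ℕ} {π : Euc k →L[ℝ] Euc m} {κ : Euc k →L[ℝ] Euc n} {δ : ℝ}

/-! ### the splitting -/

theorem pi_kap (hs : Split π κ) : π ∘L ContinuousLinearMap.adjoint κ = 0 := by
  have h1 : π ∘L (ContinuousLinearMap.adjoint π ∘L π + ContinuousLinearMap.adjoint κ ∘L κ) ∘L
      ContinuousLinearMap.adjoint κ = π ∘L ContinuousLinearMap.adjoint κ := by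
    rw [hs.sum, ContinuousLinearMap.id_comp]
  rw [ContinuousLinearMap.add_comp, ContinuousLinearMap.comp_add,
    ContinuousLinearMap.comp_assoc (ContinuousLinearMap.adjoint κ), hs.vv,
    ContinuousLinearMap.comp_id, ContinuousLinearMap.comp_assoc (ContinuousLinearMap.adjoint π),
    ← ContinuousLinearMap.comp_assoc π, hs.hh, ContinuousLinearMap.id_comp] at h1
  exact add_eq_left.1 h1

theorem kap_pi (hs : Split π κ) : κ ∘L ContinuousLinearMap.adjoint π = 0 := by
  have h1 := congrArg ContinuousLinearMap.adjoint (pi_kap hs)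
  rw [ContinuousLinearMap.adjoint_comp, ContinuousLinearMap.adjoint_adjoint, map_zero] at h1
  exact h1

theorem vp_eq (hs : Split π κ) : vp π = ContinuousLinearMap.adjoint κ ∘L κ := by
  unfold vp hp
  rw [← hs.sum]
  abel

theorem norm_le_one_of_co {j : ℕ} {σ : Euc k →L[ℝ] Euc j}
    (h : σ ∘L ContinuousLinearMap.adjoint σ = ContinuousLinearMap.id ℝ (Euc j)) :
    ‖ContinuousLinearMap.adjoint σ‖ ≤ 1 := by
  refine ContinuousLinearMap.opNorm_le_bound _ zero_le_one fun v => ?_
  have h1 : ‖ContinuousLinearMap.adjoint σ v‖ ^ 2 = ‖v‖ ^ 2 := by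
    rw [← real_inner_self_eq_norm_sq, ← real_inner_self_eq_norm_sq,
      ContinuousLinearMap.adjoint_inner_right]
    have h2 : σ (ContinuousLinearMap.adjoint σ v) = v :=
      congrArg (fun T : Euc j →L[ℝ] Euc j => T v) h
    rw [h2]
  rw [one_mul]
  exact ((sq_eq_sq₀ (norm_nonneg _) (norm_nonneg _)).1 h1).le

theorem norm_adj_pi (hs : Split π κ) : ‖ContinuousLinearMap.adjoint π‖ ≤ 1 :=
  norm_le_one_of_co hs.hh

theorem norm_adj_kap (hs : Split π κ) : ‖ContinuousLinearMap.adjoint κ‖ ≤ 1 :=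
  norm_le_one_of_co hs.vv

theorem norm_pi (hs : Split π κ) : ‖π‖ ≤ 1 := by
  rw [← ContinuousLinearMap.adjoint.norm_map π]; exact norm_adj_pi hs

theorem norm_kap (hs : Split π κ) : ‖κ‖ ≤ 1 := by
  rw [← ContinuousLinearMap.adjoint.norm_map κ]; exact norm_adj_kap hs

theorem norm_adj_pi_apply (hs : Split π κ) (v : Euc m) :
    ‖ContinuousLinearMap.adjoint π v‖ ≤ ‖v‖ :=
  ((ContinuousLinearMap.adjoint π).le_opNorm v).trans
    (mul_le_of_le_one_left (norm_nonneg _) (norm_adj_pi hs))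

theorem norm_adj_kap_apply (hs : Split π κ) (v : Euc n) :
    ‖ContinuousLinearMap.adjoint κ v‖ ≤ ‖v‖ :=
  ((ContinuousLinearMap.adjoint κ).le_opNorm v).trans
    (mul_le_of_le_one_left (norm_nonneg _) (norm_adj_kap hs))

/-- `|vp z| = |κ z|` -/
theorem norm_vp (hs : Split π κ) (z : Euc k) : ‖vp π z‖ = ‖κ z‖ := by
  rw [vp_eq hs]
  have h1 : ‖ContinuousLinearMap.adjoint κ (κ z)‖ ^ 2 = ‖κ z‖ ^ 2 := by
    rw [← real_inner_self_eq_norm_sq, ← real_inner_self_eq_norm_sq,
      ContinuousLinearMap.adjoint_inner_right]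
    have h2 : κ (ContinuousLinearMap.adjoint κ (κ z)) = κ z :=
      congrArg (fun T : Euc n →L[ℝ] Euc n => T (κ z)) hs.vv
    rw [h2]
  exact (sq_eq_sq₀ (norm_nonneg _) (norm_nonneg _)).1 h1

/-! ### the error density of the two types of fields -/

theorem pi_adj_apply (hs : Split π κ) (v : Euc m) : π (ContinuousLinearMap.adjoint π v) = v :=
  congrArg (fun T : Euc m →L[ℝ] Euc m => T v) hs.hh

theorem kap_adj_apply (hs : Split π κ) (v : Euc n) : κ (ContinuousLinearMap.adjoint κ v) = v :=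
  congrArg (fun T : Euc n →L[ℝ] Euc n => T v) hs.vv

theorem kap_adj_pi_apply (hs : Split π κ) (v : Euc m) :
    κ (ContinuousLinearMap.adjoint π v) = 0 :=
  congrArg (fun T : Euc m →L[ℝ] Euc n => T v) (kap_pi hs)

theorem pi_adj_kap_apply (hs : Split π κ) (v : Euc n) :
    π (ContinuousLinearMap.adjoint κ v) = 0 :=
  congrArg (fun T : Euc n →L[ℝ] Euc m => T v) (pi_kap hs)

/-- error of a horizontal field: derivative `π† B π + π† C κ`, value `π† v` -/
theorem errA_hor (hs : Split π κ) {P : L k} (hP : P ∈ G m k) (h0 : 0 ≤ δ) (z : Euc k)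
    (B : Euc m →L[ℝ] Euc m) (C : Euc n →L[ℝ] Euc m) (v : Euc m) :
    errA π δ z P (ContinuousLinearMap.adjoint π ∘L B ∘L π +
        ContinuousLinearMap.adjoint π ∘L C ∘L κ) (ContinuousLinearMap.adjoint π v) ≤
      δ * (tl π P + ‖κ z‖ ^ 2) * (‖B‖ + ‖v‖) + δ * (√(tl π P) + ‖κ z‖) * ‖C‖ := by
  have ht := tl_nonneg hs.hh (isPr_of_G hP)
  set A : L k := ContinuousLinearMap.adjoint π ∘L B ∘L π +
        ContinuousLinearMap.adjoint π ∘L C ∘L κ with hA
  have e1 : hp π ∘L A ∘L hp π = ContinuousLinearMap.adjoint π ∘L B ∘L π := by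
    ext1 w
    simp only [hA, hp, ContinuousLinearMap.comp_apply, ContinuousLinearMap.add_apply, map_add,
      pi_adj_apply hs, kap_adj_pi_apply hs, map_zero, add_zero]
  have e2 : hp π ∘L A ∘L vp π = ContinuousLinearMap.adjoint π ∘L C ∘L κ := by
    ext1 w
    simp only [hA, hp, vp_eq hs, ContinuousLinearMap.comp_apply, ContinuousLinearMap.add_apply,
      map_add, pi_adj_apply hs, pi_adj_kap_apply hs, kap_adj_apply hs, map_zero, zero_add]
  have e3 : vp π ∘L A ∘L hp π = 0 := by
    ext1 w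
    simp only [hA, vp_eq hs, ContinuousLinearMap.comp_apply, ContinuousLinearMap.add_apply,
      map_add, kap_adj_pi_apply hs, map_zero, add_zero, ContinuousLinearMap.zero_apply]
  have e4 : vp π ∘L A ∘L vp π = 0 := by
    ext1 w
    simp only [hA, vp_eq hs, ContinuousLinearMap.comp_apply, ContinuousLinearMap.add_apply,
      map_add, kap_adj_pi_apply hs, map_zero, add_zero, ContinuousLinearMap.zero_apply]
  have e5 : hp π (ContinuousLinearMap.adjoint π v) = ContinuousLinearMap.adjoint π v := by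
    simp only [hp, ContinuousLinearMap.comp_apply, pi_adj_apply hs]
  have e6 : vp π (ContinuousLinearMap.adjoint π v) = 0 := by
    simp only [vp_eq hs, ContinuousLinearMap.comp_apply, kap_adj_pi_apply hs, map_zero]
  have n1 : ‖ContinuousLinearMap.adjoint π ∘L B ∘L π‖ ≤ ‖B‖ := by
    calc _ ≤ ‖ContinuousLinearMap.adjoint π‖ * (‖B‖ * ‖π‖) :=
          (ContinuousLinearMap.opNorm_comp_le _ _).trans (mul_le_mul_of_nonneg_left
            (ContinuousLinearMap.opNorm_comp_le _ _) (norm_nonneg _))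
      _ ≤ 1 * (‖B‖ * 1) := by
          gcongr
          · exact norm_adj_pi hs
          · exact norm_pi hs
      _ = ‖B‖ := by ring
  have n2 : ‖ContinuousLinearMap.adjoint π ∘L C ∘L κ‖ ≤ ‖C‖ := by
    calc _ ≤ ‖ContinuousLinearMap.adjoint π‖ * (‖C‖ * ‖κ‖) :=
          (ContinuousLinearMap.opNorm_comp_le _ _).trans (mul_le_mul_of_nonneg_left
            (ContinuousLinearMap.opNorm_comp_le _ _) (norm_nonneg _))
      _ ≤ 1 * (‖C‖ * 1) := by
          gcongr
          · exact norm_adj_pi hs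
          · exact norm_kap hs
      _ = ‖C‖ := by ring
  have n3 := norm_adj_pi_apply hs v
  unfold errA
  rw [e1, e2, e3, e4, e5, e6, norm_vp hs]
  simp only [norm_zero, add_zero, mul_zero]
  have hn : 0 ≤ √(tl π P) + ‖κ z‖ := add_nonneg (Real.sqrt_nonneg _) (norm_nonneg _)
  have hn2 : 0 ≤ tl π P + ‖κ z‖ ^ 2 := add_nonneg ht (sq_nonneg _)
  gcongr

/-- error of a vertical field: derivative `κ† B κ + κ† C π`, value `κ† v` -/
theorem errA_ver (hs : Split π κ) {P : L k} (hP : P ∈ G m k) (h0 : 0 ≤ δ) (z : Euc k)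
    (B : Euc n →L[ℝ] Euc n) (C : Euc m →L[ℝ] Euc n) (v : Euc n) :
    errA π δ z P (ContinuousLinearMap.adjoint κ ∘L B ∘L κ +
        ContinuousLinearMap.adjoint κ ∘L C ∘L π) (ContinuousLinearMap.adjoint κ v) ≤
      δ * (√(tl π P) + ‖κ z‖) * (‖C‖ + ‖v‖) + δ * (tl π P + ‖κ z‖ * √(tl π P)) * ‖B‖ +
        √δ * tl π P * ‖v‖ := by
  have ht := tl_nonneg hs.hh (isPr_of_G hP)
  set A : L k := ContinuousLinearMap.adjoint κ ∘L B ∘L κ +
        ContinuousLinearMap.adjoint κ ∘L C ∘L π with hA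
  have e1 : hp π ∘L A ∘L hp π = 0 := by
    ext1 w
    simp only [hA, hp, ContinuousLinearMap.comp_apply, ContinuousLinearMap.add_apply, map_add,
      pi_adj_kap_apply hs, map_zero, add_zero, ContinuousLinearMap.zero_apply]
  have e2 : hp π ∘L A ∘L vp π = 0 := by
    ext1 w
    simp only [hA, hp, ContinuousLinearMap.comp_apply, ContinuousLinearMap.add_apply, map_add,
      pi_adj_kap_apply hs, map_zero, add_zero, ContinuousLinearMap.zero_apply]
  have e3 : vp π ∘L A ∘L hp π = ContinuousLinearMap.adjoint κ ∘L C ∘L π := by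
    ext1 w
    simp only [hA, hp, vp_eq hs, ContinuousLinearMap.comp_apply, ContinuousLinearMap.add_apply,
      map_add, kap_adj_pi_apply hs, kap_adj_apply hs, pi_adj_apply hs, map_zero, zero_add]
  have e4 : vp π ∘L A ∘L vp π = ContinuousLinearMap.adjoint κ ∘L B ∘L κ := by
    ext1 w
    simp only [hA, vp_eq hs, ContinuousLinearMap.comp_apply, ContinuousLinearMap.add_apply,
      map_add, kap_adj_apply hs, pi_adj_kap_apply hs, map_zero, add_zero]
  have e5 : hp π (ContinuousLinearMap.adjoint κ v) = 0 := by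
    simp only [hp, ContinuousLinearMap.comp_apply, pi_adj_kap_apply hs, map_zero]
  have e6 : vp π (ContinuousLinearMap.adjoint κ v) = ContinuousLinearMap.adjoint κ v := by
    simp only [vp_eq hs, ContinuousLinearMap.comp_apply, kap_adj_apply hs]
  have n1 : ‖ContinuousLinearMap.adjoint κ ∘L B ∘L κ‖ ≤ ‖B‖ := by
    calc _ ≤ ‖ContinuousLinearMap.adjoint κ‖ * (‖B‖ * ‖κ‖) :=
          (ContinuousLinearMap.opNorm_comp_le _ _).trans (mul_le_mul_of_nonneg_left
            (ContinuousLinearMap.opNorm_comp_le _ _) (norm_nonneg _))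
      _ ≤ 1 * (‖B‖ * 1) := by
          gcongr
          · exact norm_adj_kap hs
          · exact norm_kap hs
      _ = ‖B‖ := by ring
  have n2 : ‖ContinuousLinearMap.adjoint κ ∘L C ∘L π‖ ≤ ‖C‖ := by
    calc _ ≤ ‖ContinuousLinearMap.adjoint κ‖ * (‖C‖ * ‖π‖) :=
          (ContinuousLinearMap.opNorm_comp_le _ _).trans (mul_le_mul_of_nonneg_left
            (ContinuousLinearMap.opNorm_comp_le _ _) (norm_nonneg _))
      _ ≤ 1 * (‖C‖ * 1) := by
          gcongr
          · exact norm_adj_kap hs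
          · exact norm_pi hs
      _ = ‖C‖ := by ring
  have n3 := norm_adj_kap_apply hs v
  unfold errA
  rw [e1, e2, e3, e4, e5, e6, norm_vp hs]
  simp only [norm_zero, add_zero, mul_zero, zero_add]
  have hn : 0 ≤ √(tl π P) + ‖κ z‖ := add_nonneg (Real.sqrt_nonneg _) (norm_nonneg _)
  have hn2 : 0 ≤ √δ := Real.sqrt_nonneg _
  have hn3 : 0 ≤ tl π P + ‖κ z‖ * √(tl π P) :=
    add_nonneg ht (mul_nonneg (norm_nonneg _) (Real.sqrt_nonneg _))
  gcongr

end Crest.Agent.R234.Asl_214
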