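import Crest.Agent.R234.Asl1_214

/-!
# Row 234, VF-ASL, part 2 (helper214)

Almost stationary varifolds in a cylinder (`CylAS`), the first variation of horizontal and vertical
fields.
-/

set_option autoImplicit false

open MeasureTheory Set Function Filter Topology
open Crest.GeometryTopology.Submanifold
open Crest.Agent.R234.Vf_884 Crest.Agent.R234.Ar_870 Crest.Agent.R234.Cy_870
open Crest.Agent.R234.AS_456 (AS errA err hp vp)
open scoped ENNReal NNReal InnerProductSpace

noncomputable section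

namespace Crest.Agent.R234.Asl_214

variable {m n k : ℕ} {π : Euc k →L[ℝ] Euc m} {κ : Euc k →L[ℝ] Euc n} {δ : ℝ}
  {x₀ x : Euc m} {R h₀ : ℝ}

/-- **no vertical cut-off** for almost stationary varifolds -/
theorem FV_cyl_le {U : Set (Euc k)} {V : Measure (Euc k × L k)} (hV : AS π U δ V)
    (hs : Split π κ) {h₁ : ℝ} (h01 : h₀ < h₁) (h1pos : 0 < h₁)
    (hU : cyl π κ x₀ R h₁ ⊆ U)
    (hgap : ∀ᵐ p ∂V, p.1 ∈ cyl π κ x₀ R h₁ → ‖κ p.1‖ ≤ h₀)
    {X : Euc k → Euc k} (hX : ContDiff ℝ 1 X) (h0 : ∀ p, R ≤ ‖π p - x₀‖ → X p = 0) :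
    |FV (V.restrict (cyl π κ x₀ R h₁ ×ˢ univ)) X| ≤
      ∫ p, err π δ X p ∂(V.restrict (cyl π κ x₀ R h₁ ×ˢ univ)) := by
  -- the cut-off
  set c : ContDiffBump (0 : Euc n) := ⟨(max h₀ 0 + 2 * h₁) / 3, (2 * max h₀ 0 + 4 * h₁) / 6 +
    (h₁ - max h₀ 0) / 6, by have := le_max_right h₀ 0; linarith, by
      have h2 : max h₀ 0 < h₁ := max_lt h01 h1pos
      have := le_max_right h₀ 0
      linarith⟩ with hc
  have hm : max h₀ 0 < h₁ := max_lt h01 h1pos
  have hrin : max h₀ 0 < c.rIn := by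
    simp only [hc]; linarith
  have hrout : c.rOut ≤ h₁ := by
    simp only [hc]; linarith [le_max_right h₀ 0]
  set η : Euc k → ℝ := fun p => c (κ p) with hη
  have hηs : ContDiff ℝ 1 η := c.contDiff.comp κ.contDiff
  set Y : Euc k → Euc k := fun p => η p • X p with hY
  have hYs : ContDiff ℝ 1 Y := hηs.smul hX
  have hY0 : ∀ p, p ∉ cyl π κ x₀ R h₁ → Y p = 0 := by
    intro p hp
    simp only [hY]
    by_cases h2 : ‖π p - x₀‖ ≤ R
    · have h3 : h₁ < ‖κ p‖ := by
        by_contra hcon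
        exact hp ⟨h2, not_lt.1 hcon⟩
      have h4 : η p = 0 := by
        simp only [hη]
        refine c.zero_of_le_dist ?_
        rw [dist_zero_right]
        linarith
      rw [h4, zero_smul]
    · rw [h0 p (not_le.1 h2).le, smul_zero]
  have hsup : tsupport Y ⊆ cyl π κ x₀ R h₁ := by
    refine closure_minimal ?_ (isClosed_cyl π κ x₀ R h₁)
    intro p hp
    by_contra hcon
    exact hp (hY0 p hcon)
  have hcpt := isCompact_cyl (n := n) hs x₀ R h₁
  have hst := hV.fv Y hYs (HasCompactSupport.of_support_subset_isCompact hcpt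
    (subset_closure.trans hsup)) (hsup.trans hU)
  have hmeas : MeasurableSet (cyl π κ x₀ R h₁ ×ˢ (univ : Set (L k))) :=
    (isClosed_cyl π κ x₀ R h₁).measurableSet.prod MeasurableSet.univ
  have hloc : ∀ p : Euc k × L k, ‖κ p.1‖ ≤ h₀ → fderiv ℝ Y p.1 = fderiv ℝ X p.1 ∧
      Y p.1 = X p.1 := by
    intro p h2
    have h5 : ‖κ p.1‖ < c.rIn := lt_of_le_of_lt (h2.trans (le_max_left h₀ 0)) hrin
    constructor
    · refine Filter.EventuallyEq.fderiv_eq ?_
      have h4 : ∀ᶠ q in 𝓝 p.1, ‖κ q‖ < c.rIn :=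
        (κ.continuous.norm.continuousAt).eventually_lt continuousAt_const h5
      filter_upwards [h4] with q hq
      simp only [hY, hη]
      rw [c.one_of_mem_closedBall, one_smul]
      rw [mem_closedBall_zero_iff]
      exact hq.le
    · simp only [hY, hη]
      rw [c.one_of_mem_closedBall, one_smul]
      rw [mem_closedBall_zero_iff]
      exact h5.le
  have e1 : ∫ p in cyl π κ x₀ R h₁ ×ˢ univ, tr ((fderiv ℝ X p.1) ∘L p.2) ∂V =
      ∫ p, tr ((fderiv ℝ Y p.1) ∘L p.2) ∂V := by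
    rw [← setIntegral_eq_integral_of_forall_compl_eq_zero (s := cyl π κ x₀ R h₁ ×ˢ univ)
      (f := fun p : Euc k × L k => tr ((fderiv ℝ Y p.1) ∘L p.2))]
    · refine setIntegral_congr_ae hmeas ?_
      filter_upwards [hgap] with p hp hpm
      rw [(hloc p (hp hpm.1)).1]
    · intro p hp
      have h2 : p.1 ∉ cyl π κ x₀ R h₁ := fun h => hp ⟨h, trivial⟩
      have h3 : fderiv ℝ Y p.1 = 0 := by
        by_contra hne
        exact h2 (hsup (support_fderiv_subset ℝ hne))
      rw [h3, ContinuousLinearMap.zero_comp, map_zero]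
  have e2 : ∫ p in cyl π κ x₀ R h₁ ×ˢ univ, err π δ X p ∂V = ∫ p, err π δ Y p ∂V := by
    rw [← setIntegral_eq_integral_of_forall_compl_eq_zero (s := cyl π κ x₀ R h₁ ×ˢ univ)
      (f := fun p : Euc k × L k => err π δ Y p)]
    · refine setIntegral_congr_ae hmeas ?_
      filter_upwards [hgap] with p hp hpm
      unfold err
      rw [(hloc p (hp hpm.1)).1, (hloc p (hp hpm.1)).2]
    · intro p hp
      exact AS_456.err_eq_zero (fun h => hp ⟨hsup h, trivial⟩) δ
  unfold FV
  rw [e1, e2]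
  exact hst

/-- an almost stationary varifold in a cylinder, restricted to it, heights at most `h₀` -/
structure CylAS (W : Measure (Euc k × L k)) (π : Euc k →L[ℝ] Euc m) (κ : Euc k →L[ℝ] Euc n)
    (x₀ : Euc m) (R h₀ δ : ℝ) : Prop where
  sp : Split π κ
  conc : ∀ᵐ p ∂W, p.2 ∈ G m k
  fin : W univ < ⊤
  base : ∀ᵐ p ∂W, ‖π p.1 - x₀‖ ≤ R
  hgt : ∀ᵐ p ∂W, ‖κ p.1‖ ≤ h₀
  fv : ∀ X : Euc k → Euc k, ContDiff ℝ 1 X → (∀ p, R ≤ ‖π p - x₀‖ → X p = 0) →
    |FV W X| ≤ ∫ p, err π δ X p ∂W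

theorem cylAS_of_AS {U : Set (Euc k)} {V : Measure (Euc k × L k)} (hV : AS π U δ V)
    (hs : Split π κ) {h₁ : ℝ} (h01 : h₀ < h₁) (h1pos : 0 < h₁)
    (hU : cyl π κ x₀ R h₁ ⊆ U)
    (hgap : ∀ᵐ p ∂V, p.1 ∈ cyl π κ x₀ R h₁ → ‖κ p.1‖ ≤ h₀) :
    CylAS (V.restrict (cyl π κ x₀ R h₁ ×ˢ univ)) π κ x₀ R h₀ δ where
  sp := hs
  conc := ae_restrict_of_ae hV.conc
  fin := by
    rw [Measure.restrict_apply_univ]
    exact hV.fin _ (isCompact_cyl hs x₀ R h₁) hU
  base := by
    have hmeas : MeasurableSet (cyl π κ x₀ R h₁ ×ˢ (univ : Set (L k))) :=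
      (isClosed_cyl π κ x₀ R h₁).measurableSet.prod MeasurableSet.univ
    filter_upwards [ae_restrict_mem hmeas] with p hp
    exact hp.1.1
  hgt := by
    have hmeas : MeasurableSet (cyl π κ x₀ R h₁ ×ˢ (univ : Set (L k))) :=
      (isClosed_cyl π κ x₀ R h₁).measurableSet.prod MeasurableSet.univ
    filter_upwards [ae_restrict_mem hmeas, ae_restrict_of_ae hgap] with p hp hp2
    exact hp2 hp.1
  fv X hX h0 := FV_cyl_le hV hs h01 h1pos hU hgap hX h0

/-- the class with `δ = 0` is 870's class -/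
theorem CylAS.cylStat {W : Measure (Euc k × L k)} (h : CylAS W π κ x₀ R h₀ 0) :
    CylStat W π κ x₀ R h₀ where
  sp := h.sp
  conc := h.conc
  fin := h.fin
  base := h.base
  hgt := h.hgt
  stat X hX h0 := by
    have h1 := h.fv X hX h0
    simp only [AS_456.err_zero, integral_zero] at h1
    exact abs_nonpos_iff.1 h1

theorem cylAS_of_cylStat {W : Measure (Euc k × L k)} (h : CylStat W π κ x₀ R h₀) :
    CylAS W π κ x₀ R h₀ 0 where
  sp := h.sp
  conc := h.conc
  fin := h.fin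
  base := h.base
  hgt := h.hgt
  fv X hX h0 := by
    rw [h.stat X hX h0]
    simp only [AS_456.err_zero, integral_zero, abs_zero, le_refl]

namespace CylAS

variable {W : Measure (Euc k × L k)}

theorem fr (h : CylAS W π κ x₀ R h₀ δ) (x : Euc m) (L₀ : ℝ) : Fr W π κ x L₀ :=
  ⟨h.sp, h.conc, lt_of_le_of_lt (measure_mono (subset_univ _)) h.fin⟩

theorem hgt' (h : CylAS W π κ x₀ R h₀ δ) (x : Euc m) (L₀ : ℝ) : Hgt W π κ x L₀ h₀ := by
  filter_upwards [h.hgt] with p hp _
  exact hp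

theorem tl_bd (h : CylAS W π κ x₀ R h₀ δ) : ∀ᵐ p ∂W, |tl π p.2| ≤ m := by
  filter_upwards [h.conc] with p hp
  rw [abs_of_nonneg (tl_nonneg h.sp.hh (isPr_of_G hp))]
  exact tl_le h.sp.hh (isPr_of_G hp)

/-- continuous functions are integrable -/
theorem integrable_continuous (h : CylAS W π κ x₀ R h₀ δ) {c : Euc k × L k → ℝ}
    (hc : Continuous c) : Integrable c W := by
  obtain ⟨C, hC⟩ := ((isCompact_cyl (n := n) h.sp x₀ R h₀).prod
    (isCompact_G m k)).exists_bound_of_continuousOn hc.continuousOn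
  have : IsFiniteMeasure W := ⟨h.fin⟩
  refine Integrable.of_bound hc.aestronglyMeasurable C ?_
  filter_upwards [h.conc, h.base, h.hgt] with p h1 h2 h3
  exact hC p ⟨⟨h2, h3⟩, h1⟩

theorem continuous_tl (π : Euc k →L[ℝ] Euc m) :
    Continuous fun p : Euc k × L k => tl π p.2 :=
  (measurable_tl π).comp continuous_snd

/-- the first variation of a horizontal field `f(κ p) π† ξ(π p)` -/
theorem fv_hor (h : CylAS W π κ x₀ R h₀ δ) (h0 : 0 ≤ δ) {f : Euc n → ℝ}
    {df : Euc n → Euc n →L[ℝ] ℝ} (hf : ∀ y, HasFDerivAt f (df y) y) (hdf : Continuous df)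
    {ξ : Euc m → Euc m} {dξ : Euc m → L m} (hξ : ∀ v, HasFDerivAt ξ (dξ v) v)
    (hdξ : Continuous dξ) (hz : ∀ v, R ≤ ‖v - x₀‖ → ξ v = 0) :
    |FV W (fun p => f (κ p) • ContinuousLinearMap.adjoint π (ξ (π p)))| ≤
      ∫ p, (δ * (tl π p.2 + ‖κ p.1‖ ^ 2) * (|f (κ p.1)| * (‖dξ (π p.1)‖ + ‖ξ (π p.1)‖)) +
        δ * (√(tl π p.2) + ‖κ p.1‖) * (‖df (κ p.1)‖ * ‖ξ (π p.1)‖)) ∂W := by
  have hfc : ContDiff ℝ 1 f := by
    rw [contDiff_one_iff_fderiv]
    refine ⟨fun y => (hf y).differentiableAt, ?_⟩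
    have : fderiv ℝ f = df := funext fun y => (hf y).fderiv
    rw [this]; exact hdf
  have hξc : ContDiff ℝ 1 ξ := by
    rw [contDiff_one_iff_fderiv]
    refine ⟨fun y => (hξ y).differentiableAt, ?_⟩
    have : fderiv ℝ ξ = dξ := funext fun y => (hξ y).fderiv
    rw [this]; exact hdξ
  set X : Euc k → Euc k := fun p => f (κ p) • ContinuousLinearMap.adjoint π (ξ (π p)) with hX
  have hXc : ContDiff ℝ 1 X := (hfc.comp κ.contDiff).smul
    ((ContinuousLinearMap.adjoint π).contDiff.comp (hξc.comp π.contDiff))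
  have hX0 : ∀ p, R ≤ ‖π p - x₀‖ → X p = 0 := by
    intro p hp
    simp only [hX]
    rw [hz _ hp, map_zero, smul_zero]
  refine (h.fv X hXc hX0).trans ?_
  refine integral_mono_ae (h.integrable_continuous (AS_456.continuous_errA π δ hXc))
    (h.integrable_continuous ?_) ?_
  · have c1 := continuous_tl (k := k) π
    have c2 : Continuous fun p : Euc k × L k => ‖κ p.1‖ :=
      (κ.continuous.comp continuous_fst).norm
    have c3 : Continuous fun p : Euc k × L k => |f (κ p.1)| :=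
      (hfc.continuous.comp (κ.continuous.comp continuous_fst)).abs
    have c4 : Continuous fun p : Euc k × L k => ‖dξ (π p.1)‖ :=
      (hdξ.comp (π.continuous.comp continuous_fst)).norm
    have c5 : Continuous fun p : Euc k × L k => ‖ξ (π p.1)‖ :=
      (hξc.continuous.comp (π.continuous.comp continuous_fst)).norm
    have c6 : Continuous fun p : Euc k × L k => ‖df (κ p.1)‖ :=
      (hdf.comp (κ.continuous.comp continuous_fst)).norm
    exact ((continuous_const.mul (c1.add (c2.pow 2))).mul (c3.mul (c4.add c5))).add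
      ((continuous_const.mul (c1.sqrt.add c2)).mul (c6.mul c5))
  · filter_upwards [h.conc] with p hp
    have hd : HasFDerivAt X (ContinuousLinearMap.adjoint π ∘L (f (κ p.1) • dξ (π p.1)) ∘L π +
        ContinuousLinearMap.adjoint π ∘L ((df (κ p.1)).smulRight (ξ (π p.1))) ∘L κ) p.1 := by
      have h1 : HasFDerivAt (fun p => f (κ p)) (df (κ p.1) ∘L κ) p.1 :=
        (hf (κ p.1)).comp p.1 κ.hasFDerivAt
      have h2 : HasFDerivAt (fun p => ContinuousLinearMap.adjoint π (ξ (π p)))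
          (ContinuousLinearMap.adjoint π ∘L (dξ (π p.1) ∘L π)) p.1 :=
        (ContinuousLinearMap.adjoint π).hasFDerivAt.comp p.1 ((hξ (π p.1)).comp p.1 π.hasFDerivAt)
      refine (h1.smul h2).congr_fderiv ?_
      ext1 w
      simp only [ContinuousLinearMap.add_apply, ContinuousLinearMap.smul_apply,
        ContinuousLinearMap.comp_apply, ContinuousLinearMap.smulRight_apply, map_smul]
    have h3 := errA_hor h.sp hp h0 p.1 (f (κ p.1) • dξ (π p.1))
      ((df (κ p.1)).smulRight (ξ (π p.1))) (f (κ p.1) • ξ (π p.1))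
    have h4 : err π δ X p = errA π δ p.1 p.2
        (ContinuousLinearMap.adjoint π ∘L (f (κ p.1) • dξ (π p.1)) ∘L π +
        ContinuousLinearMap.adjoint π ∘L ((df (κ p.1)).smulRight (ξ (π p.1))) ∘L κ)
        (ContinuousLinearMap.adjoint π (f (κ p.1) • ξ (π p.1))) := by
      unfold err
      rw [hd.fderiv, map_smul]
    rw [h4]
    refine h3.trans (le_of_eq ?_)
    rw [norm_smul, norm_smul, Real.norm_eq_abs, ContinuousLinearMap.norm_smulRight_apply]
    ring

/-- the first variation of a vertical field `f(π p) κ† ψ(κ p)` -/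
theorem fv_ver (h : CylAS W π κ x₀ R h₀ δ) (h0 : 0 ≤ δ) {f : Euc m → ℝ}
    {df : Euc m → Euc m →L[ℝ] ℝ} (hf : ∀ y, HasFDerivAt f (df y) y) (hdf : Continuous df)
    {ψ : Euc n → Euc n} {dψ : Euc n → L n} (hψ : ∀ v, HasFDerivAt ψ (dψ v) v)
    (hdψ : Continuous dψ) (hz : ∀ v, R ≤ ‖v - x₀‖ → f v = 0) :
    |FV W (fun p => f (π p) • ContinuousLinearMap.adjoint κ (ψ (κ p)))| ≤
      ∫ p, (δ * (√(tl π p.2) + ‖κ p.1‖) *
          (‖df (π p.1)‖ * ‖ψ (κ p.1)‖ + |f (π p.1)| * ‖ψ (κ p.1)‖) +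
        δ * (tl π p.2 + ‖κ p.1‖ * √(tl π p.2)) * (|f (π p.1)| * ‖dψ (κ p.1)‖) +
        √δ * tl π p.2 * (|f (π p.1)| * ‖ψ (κ p.1)‖)) ∂W := by
  have hfc : ContDiff ℝ 1 f := by
    rw [contDiff_one_iff_fderiv]
    refine ⟨fun y => (hf y).differentiableAt, ?_⟩
    have : fderiv ℝ f = df := funext fun y => (hf y).fderiv
    rw [this]; exact hdf
  have hψc : ContDiff ℝ 1 ψ := by
    rw [contDiff_one_iff_fderiv]
    refine ⟨fun y => (hψ y).differentiableAt, ?_⟩
    have : fderiv ℝ ψ = dψ := funext fun y => (hψ y).fderiv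
    rw [this]; exact hdψ
  set X : Euc k → Euc k := fun p => f (π p) • ContinuousLinearMap.adjoint κ (ψ (κ p)) with hX
  have hXc : ContDiff ℝ 1 X := (hfc.comp π.contDiff).smul
    ((ContinuousLinearMap.adjoint κ).contDiff.comp (hψc.comp κ.contDiff))
  have hX0 : ∀ p, R ≤ ‖π p - x₀‖ → X p = 0 := by
    intro p hp
    simp only [hX]
    rw [hz _ hp, zero_smul]
  refine (h.fv X hXc hX0).trans ?_
  refine integral_mono_ae (h.integrable_continuous (AS_456.continuous_errA π δ hXc))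
    (h.integrable_continuous ?_) ?_
  · have c1 := continuous_tl (k := k) π
    have c2 : Continuous fun p : Euc k × L k => ‖κ p.1‖ :=
      (κ.continuous.comp continuous_fst).norm
    have c3 : Continuous fun p : Euc k × L k => |f (π p.1)| :=
      (hfc.continuous.comp (π.continuous.comp continuous_fst)).abs
    have c4 : Continuous fun p : Euc k × L k => ‖dψ (κ p.1)‖ :=
      (hdψ.comp (κ.continuous.comp continuous_fst)).norm
    have c5 : Continuous fun p : Euc k × L k => ‖ψ (κ p.1)‖ :=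
      (hψc.continuous.comp (κ.continuous.comp continuous_fst)).norm
    have c6 : Continuous fun p : Euc k × L k => ‖df (π p.1)‖ :=
      (hdf.comp (π.continuous.comp continuous_fst)).norm
    exact (((continuous_const.mul (c1.sqrt.add c2)).mul ((c6.mul c5).add (c3.mul c5))).add
      ((continuous_const.mul (c1.add (c2.mul c1.sqrt))).mul (c3.mul c4))).add
      ((continuous_const.mul c1).mul (c3.mul c5))
  · filter_upwards [h.conc] with p hp
    have hd : HasFDerivAt X (ContinuousLinearMap.adjoint κ ∘L (f (π p.1) • dψ (κ p.1)) ∘L κ +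
        ContinuousLinearMap.adjoint κ ∘L ((df (π p.1)).smulRight (ψ (κ p.1))) ∘L π) p.1 := by
      have h1 : HasFDerivAt (fun p => f (π p)) (df (π p.1) ∘L π) p.1 :=
        (hf (π p.1)).comp p.1 π.hasFDerivAt
      have h2 : HasFDerivAt (fun p => ContinuousLinearMap.adjoint κ (ψ (κ p)))
          (ContinuousLinearMap.adjoint κ ∘L (dψ (κ p.1) ∘L κ)) p.1 :=
        (ContinuousLinearMap.adjoint κ).hasFDerivAt.comp p.1 ((hψ (κ p.1)).comp p.1 κ.hasFDerivAt)
      refine (h1.smul h2).congr_fderiv ?_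
      ext1 w
      simp only [ContinuousLinearMap.add_apply, ContinuousLinearMap.smul_apply,
        ContinuousLinearMap.comp_apply, ContinuousLinearMap.smulRight_apply, map_smul]
    have h3 := errA_ver h.sp hp h0 p.1 (f (π p.1) • dψ (κ p.1))
      ((df (π p.1)).smulRight (ψ (κ p.1))) (f (π p.1) • ψ (κ p.1))
    have h4 : err π δ X p = errA π δ p.1 p.2
        (ContinuousLinearMap.adjoint κ ∘L (f (π p.1) • dψ (κ p.1)) ∘L κ +
        ContinuousLinearMap.adjoint κ ∘L ((df (π p.1)).smulRight (ψ (κ p.1))) ∘L π)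
        (ContinuousLinearMap.adjoint κ (f (π p.1) • ψ (κ p.1))) := by
      unfold err
      rw [hd.fderiv, map_smul]
    rw [h4]
    refine h3.trans (le_of_eq ?_)
    rw [norm_smul, norm_smul, Real.norm_eq_abs, ContinuousLinearMap.norm_smulRight_apply]

end CylAS

end Crest.Agent.R234.Asl_214
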