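import Crest.Agent.R234.Asl2_214

/-!
# Row 234, VF-ASL, part 3 (helper214)

Explicit bounds of the first variation of horizontal and vertical fields supported over a ball, and
870's identities (W1), (W2), (W3) for the almost stationary class.
-/

set_option autoImplicit false

open MeasureTheory Set Function Filter Topology
open Crest.GeometryTopology.Submanifold
open Crest.Agent.R234.Vf_884 Crest.Agent.R234.Ar_870 Crest.Agent.R234.Cy_870
open Crest.Agent.R234.AS_456 (AS errA err hp vp)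
open scoped ENNReal NNReal InnerProductSpace

noncomputable section

namespace Crest.Agent.R234.Asl_214

variable {m n k : ℕ} {π : Euc k →L[ℝ] Euc m} {κ : Euc k →L[ℝ] Euc n} {δ : ℝ}
  {x₀ x : Euc m} {R h₀ : ℝ} {W : Measure (Euc k × L k)}

/-- the part over the open ball `B_s(x)` -/
def ovr (π : Euc k →L[ℝ] Euc m) (x : Euc m) (s : ℝ) : Set (Euc k × L k) := {p | ‖π p.1 - x‖ < s}

/-- tilt energy over the ball (not scaled) -/
def TB (W : Measure (Euc k × L k)) (π : Euc k →L[ℝ] Euc m) (x : Euc m) (s : ℝ) : ℝ :=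
  ∫ p in ovr π x s, tl π p.2 ∂W

/-- mass over the ball (not scaled) -/
def MB (W : Measure (Euc k × L k)) (π : Euc k →L[ℝ] Euc m) (x : Euc m) (s : ℝ) : ℝ :=
  (W (ovr π x s)).toReal

theorem measurableSet_ovr (π : Euc k →L[ℝ] Euc m) (x : Euc m) (s : ℝ) :
    MeasurableSet (ovr π x s : Set (Euc k × L k)) :=
  (isOpen_lt ((π.continuous.comp continuous_fst).sub continuous_const).norm
    continuous_const).measurableSet

theorem MB_nonneg (x : Euc m) (s : ℝ) : 0 ≤ MB W π x s := ENNReal.toReal_nonneg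

namespace CylAS

theorem tl_nonneg' (h : CylAS W π κ x₀ R h₀ δ) : ∀ᵐ p ∂W, 0 ≤ tl π p.2 := by
  filter_upwards [h.conc] with p hp
  exact tl_nonneg h.sp.hh (isPr_of_G hp)

theorem TB_nonneg (h : CylAS W π κ x₀ R h₀ δ) (x : Euc m) (s : ℝ) : 0 ≤ TB W π x s :=
  integral_nonneg_of_ae (ae_restrict_of_ae h.tl_nonneg')

theorem h₀_nonneg (h : CylAS W π κ x₀ R h₀ δ) (hW : W ≠ 0) : 0 ≤ h₀ := by
  have : (ae W).NeBot := ae_neBot.2 hW
  obtain ⟨p, hp⟩ := h.hgt.exists
  exact (norm_nonneg _).trans hp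

/-- Cauchy-Schwarz -/
theorem int_sqrt_tl_le (h : CylAS W π κ x₀ R h₀ δ) (x : Euc m) (s : ℝ) :
    ∫ p in ovr π x s, √(tl π p.2) ∂W ≤ √(TB W π x s) * √(MB W π x s) := by
  have : IsFiniteMeasure W := ⟨h.fin⟩
  set a := ∫ p in ovr π x s, √(tl π p.2) ∂W with ha
  have i1 : Integrable (fun p : Euc k × L k => √(tl π p.2)) (W.restrict (ovr π x s)) :=
    (h.integrable_continuous (continuous_tl π).sqrt).restrict
  have i2 : Integrable (fun p : Euc k × L k => tl π p.2) (W.restrict (ovr π x s)) :=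
    (h.integrable_continuous (continuous_tl π)).restrict
  have ha0 : 0 ≤ a := integral_nonneg fun p => Real.sqrt_nonneg _
  have key : ∀ c : ℝ, 0 ≤ MB W π x s * (c * c) + (-2 * a) * c + TB W π x s := by
    intro c
    have h1 : MB W π x s * (c * c) + (-2 * a) * c + TB W π x s =
        ∫ p in ovr π x s, ((c * c) + (-2 * c) * √(tl π p.2) + tl π p.2) ∂W := by
      have e0 : ∫ p in ovr π x s, ((c * c) + (-2 * c) * √(tl π p.2) + tl π p.2) ∂W =
          (∫ p in ovr π x s, ((c * c) + (-2 * c) * √(tl π p.2)) ∂W) +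
            ∫ p in ovr π x s, tl π p.2 ∂W :=
        integral_add ((integrable_const _).add (i1.const_mul _)) i2
      have e1 : ∫ p in ovr π x s, ((c * c) + (-2 * c) * √(tl π p.2)) ∂W =
          (∫ p in ovr π x s, (c * c) ∂W) + ∫ p in ovr π x s, (-2 * c) * √(tl π p.2) ∂W :=
        integral_add (integrable_const _) (i1.const_mul _)
      have e2 : ∫ p in ovr π x s, (-2 * c) * √(tl π p.2) ∂W = (-2 * c) * a :=
        integral_const_mul _ _
      have e3 : ∫ p in (ovr π x s : Set (Euc k × L k)), (c * c) ∂W = MB W π x s * (c * c) := by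
        rw [integral_const]
        simp only [Measure.real, Measure.restrict_apply_univ, smul_eq_mul]
        rfl
      rw [e0, e1, e2, e3]
      unfold TB
      ring
    rw [h1]
    refine integral_nonneg_of_ae ?_
    filter_upwards [ae_restrict_of_ae h.tl_nonneg'] with p hp
    simp only [Pi.zero_apply]
    have h2 : √(tl π p.2) ^ 2 = tl π p.2 := Real.sq_sqrt hp
    nlinarith [sq_nonneg (c - √(tl π p.2))]
  have hd := discrim_le_zero key
  unfold discrim at hd
  have h3 : a ^ 2 ≤ TB W π x s * MB W π x s := by nlinarith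
  have h4 := Real.sqrt_le_sqrt h3
  rwa [Real.sqrt_sq ha0, Real.sqrt_mul (h.TB_nonneg x s)] at h4

/-- **horizontal fields**, explicit bound -/
theorem fv_hor_le (h : CylAS W π κ x₀ R h₀ δ) (h0 : 0 ≤ δ) (hh : 0 ≤ h₀) {f : Euc n → ℝ}
    {df : Euc n → Euc n →L[ℝ] ℝ} (hf : ∀ y, HasFDerivAt f (df y) y) (hdf : Continuous df)
    {ξ : Euc m → Euc m} {dξ : Euc m → L m} (hξ : ∀ v, HasFDerivAt ξ (dξ v) v)
    (hdξ : Continuous dξ) {s : ℝ} (hs : ‖x - x₀‖ + s ≤ R) {F₀ d₀ a b : ℝ}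
    (hF₀ : ∀ y, ‖y‖ ≤ h₀ → |f y| ≤ F₀) (hd₀ : ∀ y, ‖y‖ ≤ h₀ → ‖df y‖ ≤ d₀)
    (ha : ∀ v, ‖dξ v‖ ≤ a) (hb : ∀ v, ‖ξ v‖ ≤ b) (hz : ∀ v, s ≤ ‖v - x‖ → ξ v = 0)
    (hz' : ∀ v, s ≤ ‖v - x‖ → dξ v = 0) :
    |FV W (fun p => f (κ p) • ContinuousLinearMap.adjoint π (ξ (π p)))| ≤
      δ * F₀ * (a + b) * (TB W π x s + h₀ ^ 2 * MB W π x s) +
        δ * d₀ * b * (√(TB W π x s) * √(MB W π x s) + h₀ * MB W π x s) := by
  have : IsFiniteMeasure W := ⟨h.fin⟩
  have ha0 : 0 ≤ a := (norm_nonneg _).trans (ha 0)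
  have hb0 : 0 ≤ b := (norm_nonneg _).trans (hb 0)
  have hF0 : 0 ≤ F₀ := (abs_nonneg _).trans (hF₀ 0 (by simpa using hh))
  have hd0 : 0 ≤ d₀ := (norm_nonneg _).trans (hd₀ 0 (by simpa using hh))
  have hzR : ∀ v, R ≤ ‖v - x₀‖ → s ≤ ‖v - x‖ := by
    intro v hv
    have h1 : ‖v - x₀‖ ≤ ‖v - x‖ + ‖x - x₀‖ := norm_sub_le_norm_sub_add_norm_sub v x x₀
    linarith
  refine (h.fv_hor h0 hf hdf hξ hdξ fun v hv => hz v (hzR v hv)).trans ?_
  have i1 : Integrable (fun p : Euc k × L k => √(tl π p.2)) (W.restrict (ovr π x s)) :=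
    (h.integrable_continuous (continuous_tl π).sqrt).restrict
  have i2 : Integrable (fun p : Euc k × L k => tl π p.2) (W.restrict (ovr π x s)) :=
    (h.integrable_continuous (continuous_tl π)).restrict
  set T := TB W π x s
  set M := MB W π x s
  have hle : ∫ p in ovr π x s, (δ * F₀ * (a + b) * tl π p.2 + δ * d₀ * b * √(tl π p.2) +
      (δ * F₀ * (a + b) * h₀ ^ 2 + δ * d₀ * b * h₀)) ∂W ≤
      δ * F₀ * (a + b) * (T + h₀ ^ 2 * M) + δ * d₀ * b * (√T * √M + h₀ * M) := by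
    have e0 : ∫ p in ovr π x s, (δ * F₀ * (a + b) * tl π p.2 + δ * d₀ * b * √(tl π p.2) +
        (δ * F₀ * (a + b) * h₀ ^ 2 + δ * d₀ * b * h₀)) ∂W =
        (∫ p in ovr π x s, (δ * F₀ * (a + b) * tl π p.2 + δ * d₀ * b * √(tl π p.2)) ∂W) +
        ∫ p in ovr π x s, (δ * F₀ * (a + b) * h₀ ^ 2 + δ * d₀ * b * h₀) ∂W :=
      integral_add ((i2.const_mul _).add (i1.const_mul _)) (integrable_const _)
    have e1 : ∫ p in ovr π x s, (δ * F₀ * (a + b) * tl π p.2 + δ * d₀ * b * √(tl π p.2)) ∂W =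
        (∫ p in ovr π x s, δ * F₀ * (a + b) * tl π p.2 ∂W) +
        ∫ p in ovr π x s, δ * d₀ * b * √(tl π p.2) ∂W :=
      integral_add (i2.const_mul _) (i1.const_mul _)
    rw [e0, e1, integral_const_mul, integral_const_mul, integral_const]
    simp only [Measure.real, Measure.restrict_apply_univ, smul_eq_mul]
    have h1 := h.int_sqrt_tl_le x s
    have h2 : 0 ≤ δ * d₀ * b := by positivity
    have h3 := mul_le_mul_of_nonneg_left h1 h2
    have e2 : (W (ovr π x s)).toReal = M := rfl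
    have e3 : ∫ p in ovr π x s, tl π p.2 ∂W = T := rfl
    rw [e2, e3]
    nlinarith
  refine le_trans ?_ hle
  rw [← integral_indicator (measurableSet_ovr π x s)]
  refine integral_mono_ae (h.integrable_continuous ?_) ?_ ?_
  · have hfc : Continuous f := continuous_iff_continuousAt.2 fun y => (hf y).continuousAt
    have hξc : Continuous ξ := continuous_iff_continuousAt.2 fun y => (hξ y).continuousAt
    have c1 := continuous_tl (k := k) π
    have c2 : Continuous fun p : Euc k × L k => ‖κ p.1‖ :=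
      (κ.continuous.comp continuous_fst).norm
    have c3 : Continuous fun p : Euc k × L k => |f (κ p.1)| :=
      (hfc.comp (κ.continuous.comp continuous_fst)).abs
    have c4 : Continuous fun p : Euc k × L k => ‖dξ (π p.1)‖ :=
      (hdξ.comp (π.continuous.comp continuous_fst)).norm
    have c5 : Continuous fun p : Euc k × L k => ‖ξ (π p.1)‖ :=
      (hξc.comp (π.continuous.comp continuous_fst)).norm
    have c6 : Continuous fun p : Euc k × L k => ‖df (κ p.1)‖ :=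
      (hdf.comp (κ.continuous.comp continuous_fst)).norm
    exact ((continuous_const.mul (c1.add (c2.pow 2))).mul (c3.mul (c4.add c5))).add
      ((continuous_const.mul (c1.sqrt.add c2)).mul (c6.mul c5))
  · rw [integrable_indicator_iff (measurableSet_ovr π x s)]
    exact ((i2.const_mul _).add (i1.const_mul _)).add (integrable_const _)
  · filter_upwards [h.tl_nonneg', h.hgt] with p ht hy
    by_cases hp : p ∈ ovr π x s
    · rw [indicator_of_mem hp]
      have hq := Real.sqrt_nonneg (tl π p.2)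
      have hy2 : ‖κ p.1‖ ^ 2 ≤ h₀ ^ 2 := pow_le_pow_left₀ (norm_nonneg _) hy 2
      have b1 : |f (κ p.1)| * (‖dξ (π p.1)‖ + ‖ξ (π p.1)‖) ≤ F₀ * (a + b) :=
        mul_le_mul (hF₀ _ hy) (add_le_add (ha _) (hb _)) (by positivity) hF0
      have b2 : ‖df (κ p.1)‖ * ‖ξ (π p.1)‖ ≤ d₀ * b :=
        mul_le_mul (hd₀ _ hy) (hb _) (norm_nonneg _) hd0
      have b3 : δ * (tl π p.2 + ‖κ p.1‖ ^ 2) * (|f (κ p.1)| * (‖dξ (π p.1)‖ + ‖ξ (π p.1)‖)) ≤
          δ * (tl π p.2 + h₀ ^ 2) * (F₀ * (a + b)) := by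
        apply mul_le_mul _ b1 (by positivity) (by positivity)
        apply mul_le_mul_of_nonneg_left _ h0
        linarith
      have b4 : δ * (√(tl π p.2) + ‖κ p.1‖) * (‖df (κ p.1)‖ * ‖ξ (π p.1)‖) ≤
          δ * (√(tl π p.2) + h₀) * (d₀ * b) := by
        apply mul_le_mul _ b2 (by positivity) (by positivity)
        apply mul_le_mul_of_nonneg_left _ h0
        linarith
      nlinarith
    · rw [indicator_of_notMem hp]
      have h1 : s ≤ ‖π p.1 - x‖ := not_lt.1 hp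
      rw [hz _ h1, hz' _ h1]
      simp

/-- **vertical fields**, explicit bound -/
theorem fv_ver_le (h : CylAS W π κ x₀ R h₀ δ) (h0 : 0 ≤ δ) (hh : 0 ≤ h₀) {f : Euc m → ℝ}
    {df : Euc m → Euc m →L[ℝ] ℝ} (hf : ∀ y, HasFDerivAt f (df y) y) (hdf : Continuous df)
    {ψ : Euc n → Euc n} {dψ : Euc n → L n} (hψ : ∀ v, HasFDerivAt ψ (dψ v) v)
    (hdψ : Continuous dψ) {s : ℝ} (hs : ‖x - x₀‖ + s ≤ R) {f₀ a d₀ B₀ : ℝ}
    (hf₀ : ∀ v, |f v| ≤ f₀) (ha : ∀ v, ‖df v‖ ≤ a)
    (hd₀ : ∀ y, ‖y‖ ≤ h₀ → ‖ψ y‖ ≤ d₀) (hB₀ : ∀ y, ‖y‖ ≤ h₀ → ‖dψ y‖ ≤ B₀)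
    (hz : ∀ v, s ≤ ‖v - x‖ → f v = 0) (hz' : ∀ v, s ≤ ‖v - x‖ → df v = 0) :
    |FV W (fun p => f (π p) • ContinuousLinearMap.adjoint κ (ψ (κ p)))| ≤
      δ * d₀ * (a + f₀) * (√(TB W π x s) * √(MB W π x s) + h₀ * MB W π x s) +
        δ * f₀ * B₀ * h₀ * (√(TB W π x s) * √(MB W π x s)) +
        (δ * f₀ * B₀ + √δ * f₀ * d₀) * TB W π x s := by
  have : IsFiniteMeasure W := ⟨h.fin⟩
  have ha0 : 0 ≤ a := (norm_nonneg _).trans (ha 0)
  have hf0 : 0 ≤ f₀ := (abs_nonneg _).trans (hf₀ 0)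
  have hd0 : 0 ≤ d₀ := (norm_nonneg _).trans (hd₀ 0 (by simpa using hh))
  have hB0 : 0 ≤ B₀ := (norm_nonneg _).trans (hB₀ 0 (by simpa using hh))
  have hδ : 0 ≤ √δ := Real.sqrt_nonneg _
  have hzR : ∀ v, R ≤ ‖v - x₀‖ → s ≤ ‖v - x‖ := by
    intro v hv
    have h1 : ‖v - x₀‖ ≤ ‖v - x‖ + ‖x - x₀‖ := norm_sub_le_norm_sub_add_norm_sub v x x₀
    linarith
  refine (h.fv_ver h0 hf hdf hψ hdψ fun v hv => hz v (hzR v hv)).trans ?_
  have i1 : Integrable (fun p : Euc k × L k => √(tl π p.2)) (W.restrict (ovr π x s)) :=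
    (h.integrable_continuous (continuous_tl π).sqrt).restrict
  have i2 : Integrable (fun p : Euc k × L k => tl π p.2) (W.restrict (ovr π x s)) :=
    (h.integrable_continuous (continuous_tl π)).restrict
  set T := TB W π x s
  set M := MB W π x s
  have hle : ∫ p in ovr π x s, ((δ * f₀ * B₀ + √δ * f₀ * d₀) * tl π p.2 +
      (δ * d₀ * (a + f₀) + δ * f₀ * B₀ * h₀) * √(tl π p.2) + δ * d₀ * (a + f₀) * h₀) ∂W ≤
      δ * d₀ * (a + f₀) * (√T * √M + h₀ * M) + δ * f₀ * B₀ * h₀ * (√T * √M) +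
        (δ * f₀ * B₀ + √δ * f₀ * d₀) * T := by
    have e0 : ∫ p in ovr π x s, ((δ * f₀ * B₀ + √δ * f₀ * d₀) * tl π p.2 +
        (δ * d₀ * (a + f₀) + δ * f₀ * B₀ * h₀) * √(tl π p.2) + δ * d₀ * (a + f₀) * h₀) ∂W =
        (∫ p in ovr π x s, ((δ * f₀ * B₀ + √δ * f₀ * d₀) * tl π p.2 +
          (δ * d₀ * (a + f₀) + δ * f₀ * B₀ * h₀) * √(tl π p.2)) ∂W) +
        ∫ p in ovr π x s, δ * d₀ * (a + f₀) * h₀ ∂W :=
      integral_add ((i2.const_mul _).add (i1.const_mul _)) (integrable_const _)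
    have e1 : ∫ p in ovr π x s, ((δ * f₀ * B₀ + √δ * f₀ * d₀) * tl π p.2 +
          (δ * d₀ * (a + f₀) + δ * f₀ * B₀ * h₀) * √(tl π p.2)) ∂W =
        (∫ p in ovr π x s, (δ * f₀ * B₀ + √δ * f₀ * d₀) * tl π p.2 ∂W) +
        ∫ p in ovr π x s, (δ * d₀ * (a + f₀) + δ * f₀ * B₀ * h₀) * √(tl π p.2) ∂W :=
      integral_add (i2.const_mul _) (i1.const_mul _)
    rw [e0, e1, integral_const_mul, integral_const_mul, integral_const]
    simp only [Measure.real, Measure.restrict_apply_univ, smul_eq_mul]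
    have h1 := h.int_sqrt_tl_le x s
    have h2 : 0 ≤ δ * d₀ * (a + f₀) + δ * f₀ * B₀ * h₀ := by positivity
    have h3 := mul_le_mul_of_nonneg_left h1 h2
    have e2 : (W (ovr π x s)).toReal = M := rfl
    have e3 : ∫ p in ovr π x s, tl π p.2 ∂W = T := rfl
    rw [e2, e3]
    nlinarith
  refine le_trans ?_ hle
  rw [← integral_indicator (measurableSet_ovr π x s)]
  refine integral_mono_ae (h.integrable_continuous ?_) ?_ ?_
  · have hfc : Continuous f := continuous_iff_continuousAt.2 fun y => (hf y).continuousAt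
    have hψc : Continuous ψ := continuous_iff_continuousAt.2 fun y => (hψ y).continuousAt
    have c1 := continuous_tl (k := k) π
    have c2 : Continuous fun p : Euc k × L k => ‖κ p.1‖ :=
      (κ.continuous.comp continuous_fst).norm
    have c3 : Continuous fun p : Euc k × L k => |f (π p.1)| :=
      (hfc.comp (π.continuous.comp continuous_fst)).abs
    have c4 : Continuous fun p : Euc k × L k => ‖dψ (κ p.1)‖ :=
      (hdψ.comp (κ.continuous.comp continuous_fst)).norm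
    have c5 : Continuous fun p : Euc k × L k => ‖ψ (κ p.1)‖ :=
      (hψc.comp (κ.continuous.comp continuous_fst)).norm
    have c6 : Continuous fun p : Euc k × L k => ‖df (π p.1)‖ :=
      (hdf.comp (π.continuous.comp continuous_fst)).norm
    exact (((continuous_const.mul (c1.sqrt.add c2)).mul ((c6.mul c5).add (c3.mul c5))).add
      ((continuous_const.mul (c1.add (c2.mul c1.sqrt))).mul (c3.mul c4))).add
      ((continuous_const.mul c1).mul (c3.mul c5))
  · rw [integrable_indicator_iff (measurableSet_ovr π x s)]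
    exact ((i2.const_mul _).add (i1.const_mul _)).add (integrable_const _)
  · filter_upwards [h.tl_nonneg', h.hgt] with p ht hy
    by_cases hp : p ∈ ovr π x s
    · rw [indicator_of_mem hp]
      have hq := Real.sqrt_nonneg (tl π p.2)
      have b1 : ‖df (π p.1)‖ * ‖ψ (κ p.1)‖ + |f (π p.1)| * ‖ψ (κ p.1)‖ ≤ (a + f₀) * d₀ := by
        rw [← add_mul]
        exact mul_le_mul (add_le_add (ha _) (hf₀ _)) (hd₀ _ hy) (norm_nonneg _) (by positivity)
      have b2 : |f (π p.1)| * ‖dψ (κ p.1)‖ ≤ f₀ * B₀ :=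
        mul_le_mul (hf₀ _) (hB₀ _ hy) (norm_nonneg _) hf0
      have b3 : |f (π p.1)| * ‖ψ (κ p.1)‖ ≤ f₀ * d₀ :=
        mul_le_mul (hf₀ _) (hd₀ _ hy) (norm_nonneg _) hf0
      have c1 : δ * (√(tl π p.2) + ‖κ p.1‖) *
          (‖df (π p.1)‖ * ‖ψ (κ p.1)‖ + |f (π p.1)| * ‖ψ (κ p.1)‖) ≤
          δ * (√(tl π p.2) + h₀) * ((a + f₀) * d₀) := by
        apply mul_le_mul _ b1 (by positivity) (by positivity)
        apply mul_le_mul_of_nonneg_left _ h0
        linarith
      have c2 : δ * (tl π p.2 + ‖κ p.1‖ * √(tl π p.2)) * (|f (π p.1)| * ‖dψ (κ p.1)‖) ≤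
          δ * (tl π p.2 + h₀ * √(tl π p.2)) * (f₀ * B₀) := by
        apply mul_le_mul _ b2 (by positivity) (by positivity)
        apply mul_le_mul_of_nonneg_left _ h0
        have := mul_le_mul_of_nonneg_right hy hq
        linarith
      have c3 : √δ * tl π p.2 * (|f (π p.1)| * ‖ψ (κ p.1)‖) ≤ √δ * tl π p.2 * (f₀ * d₀) :=
        mul_le_mul_of_nonneg_left b3 (by positivity)
      nlinarith
    · rw [indicator_of_notMem hp]
      have h1 : s ≤ ‖π p.1 - x‖ := not_lt.1 hp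
      rw [hz _ h1, hz' _ h1]
      simp

end CylAS

end Crest.Agent.R234.Asl_214
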