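import Crest.Agent.R234.Asl3_214

/-!
# Row 234, VF-ASL, part 4 (helper214)

870's identities (W1), (W2), (W3) for almost stationary varifolds in a cylinder, with explicit errors.
-/

set_option autoImplicit false

open MeasureTheory Set Function Filter Topology
open Crest.GeometryTopology.Submanifold
open Crest.Agent.R234.Vf_884 Crest.Agent.R234.Ar_870 Crest.Agent.R234.Cy_870
open Crest.Agent.R234.AS_456 (AS errA err hp vp)
open scoped ENNReal NNReal InnerProductSpace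

noncomputable section

namespace Crest.Agent.R234.Asl_214

variable {m n k : ℕ} {π : Euc k →L[ℝ] Euc m} {κ : Euc k →L[ℝ] Euc n} {δ : ℝ}
  {x₀ x : Euc m} {R h₀ : ℝ} {W : Measure (Euc k × L k)} {g g1 g2 : ℝ → ℝ}

/-! ### radial profiles -/

/-- the derivative of `g(e^{-2l}|v-x|²)(v-x)` -/
def dR (g g1 : ℝ → ℝ) (l : ℝ) (x v : Euc m) : L m :=
  g (Real.exp (-2 * l) * ‖v - x‖ ^ 2) • ContinuousLinearMap.id ℝ (Euc m) +
    (innerSL ℝ ((2 * Real.exp (-2 * l) * g1 (Real.exp (-2 * l) * ‖v - x‖ ^ 2)) •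
      (v - x))).smulRight (v - x)

theorem hasFDerivAt_R (hg : Ker g g1) (l : ℝ) (x v : Euc m) :
    HasFDerivAt (fun v : Euc m => g (Real.exp (-2 * l) * ‖v - x‖ ^ 2) • (v - x))
      (dR g g1 l x v) v := by
  have h1 := hasFDerivAt_rad hg.der l x v
  have h2 : HasFDerivAt (fun v : Euc m => v - x) (ContinuousLinearMap.id ℝ (Euc m)) v :=
    (hasFDerivAt_id v).sub_const x
  exact h1.smul h2

theorem continuous_dR (hg : Ker g g1) (l : ℝ) (x : Euc m) : Continuous (dR g g1 l x) := by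
  have c0 : Continuous fun v : Euc m => v - x := continuous_id.sub continuous_const
  have c1 : Continuous fun v : Euc m => Real.exp (-2 * l) * ‖v - x‖ ^ 2 :=
    continuous_const.mul (c0.norm.pow 2)
  have c2 : Continuous fun v : Euc m => g (Real.exp (-2 * l) * ‖v - x‖ ^ 2) :=
    hg.continuous.comp c1
  have c3 : Continuous fun v : Euc m => g1 (Real.exp (-2 * l) * ‖v - x‖ ^ 2) := hg.cont.comp c1
  have c4 : Continuous fun v : Euc m =>
      innerSL ℝ ((2 * Real.exp (-2 * l) * g1 (Real.exp (-2 * l) * ‖v - x‖ ^ 2)) • (v - x)) :=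
    (innerSL ℝ).continuous.comp ((continuous_const.mul c3).smul c0)
  refine (c2.smul continuous_const).add ?_
  have c5 : Continuous fun v : Euc m => (ContinuousLinearMap.smulRightL ℝ (Euc m) (Euc m)
      (innerSL ℝ ((2 * Real.exp (-2 * l) * g1 (Real.exp (-2 * l) * ‖v - x‖ ^ 2)) • (v - x))))
      (v - x) :=
    ((ContinuousLinearMap.smulRightL ℝ (Euc m) (Euc m)).continuous.comp c4).clm_apply c0
  exact c5

theorem scaled_nonneg (l : ℝ) (x v : Euc m) : 0 ≤ Real.exp (-2 * l) * ‖v - x‖ ^ 2 := by positivity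

/-- common bound of `g`, `g'`, `t g'` -/
structure Bd (g g1 : ℝ → ℝ) (K : ℝ) : Prop where
  b0 : ∀ t, 0 ≤ t → |g t| ≤ K
  b1 : ∀ t, 0 ≤ t → |g1 t| ≤ K
  b2 : ∀ t, 0 ≤ t → |t * g1 t| ≤ K

theorem exists_Bd (hg : Ker g g1) : ∃ K : ℝ, 0 ≤ K ∧ Bd g g1 K := by
  obtain ⟨K, h0, h1, h2, h3⟩ := hg.exists_bound
  exact ⟨K, h0, h1, h2, h3⟩

theorem Bd.nonneg {K : ℝ} (h : Bd g g1 K) : 0 ≤ K := (abs_nonneg _).trans (h.b0 0 le_rfl)

theorem norm_dR_le {K : ℝ} (hK : Bd g g1 K) (l : ℝ) (x v : Euc m) : ‖dR g g1 l x v‖ ≤ 3 * K := by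
  set t := Real.exp (-2 * l) * ‖v - x‖ ^ 2 with ht
  have h1 : ‖g t • ContinuousLinearMap.id ℝ (Euc m)‖ ≤ K := by
    rw [norm_smul, Real.norm_eq_abs]
    calc |g t| * ‖ContinuousLinearMap.id ℝ (Euc m)‖ ≤ K * 1 :=
          mul_le_mul (hK.b0 t (scaled_nonneg l x v)) ContinuousLinearMap.norm_id_le
            (norm_nonneg _) hK.nonneg
      _ = K := mul_one K
  have h2 : ‖(innerSL ℝ ((2 * Real.exp (-2 * l) * g1 t) • (v - x))).smulRight (v - x)‖ ≤
      2 * K := by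
    rw [ContinuousLinearMap.norm_smulRight_apply, innerSL_apply_norm, norm_smul,
      Real.norm_eq_abs, abs_mul, abs_of_nonneg (by positivity : (0:ℝ) ≤ 2 * Real.exp (-2 * l))]
    have h3 := hK.b2 t (scaled_nonneg l x v)
    rw [abs_mul, abs_of_nonneg (scaled_nonneg l x v)] at h3
    calc 2 * Real.exp (-2 * l) * |g1 t| * ‖v - x‖ * ‖v - x‖ = 2 * (t * |g1 t|) := by
          rw [ht]; ring
      _ ≤ 2 * K := by linarith
  unfold dR
  rw [← ht]
  calc _ ≤ K + 2 * K := (norm_add_le _ _).trans (add_le_add h1 h2)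
    _ = 3 * K := by ring

theorem dR_zero (hg : Ker g g1) {l : ℝ} {x v : Euc m} (hv : Real.exp l ≤ ‖v - x‖) :
    dR g g1 l x v = 0 := by
  unfold dR
  rw [hg.zero _ (Ker.one_le_of x hv), hg.zero' _ (Ker.one_le_of x hv)]
  ext u
  simp

theorem norm_R_le {K : ℝ} (hg : Ker g g1) (hK : Bd g g1 K) (l : ℝ) (x v : Euc m) :
    ‖g (Real.exp (-2 * l) * ‖v - x‖ ^ 2) • (v - x)‖ ≤ K * Real.exp l := by
  rw [norm_smul, Real.norm_eq_abs]
  rcases le_or_gt (Real.exp l) ‖v - x‖ with h1 | h1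
  · rw [hg.zero _ (Ker.one_le_of x h1), abs_zero, zero_mul]
    exact mul_nonneg hK.nonneg (Real.exp_pos _).le
  · exact mul_le_mul (hK.b0 _ (scaled_nonneg l x v)) h1.le (norm_nonneg _) hK.nonneg

/-- the derivative of `g(e^{-2l}|v-x|²)` -/
def dr (g1 : ℝ → ℝ) (l : ℝ) (x v : Euc m) : Euc m →L[ℝ] ℝ :=
  innerSL ℝ ((2 * Real.exp (-2 * l) * g1 (Real.exp (-2 * l) * ‖v - x‖ ^ 2)) • (v - x))

theorem continuous_dr (hg : Ker g g1) (l : ℝ) (x : Euc m) : Continuous (dr g1 l x) := by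
  have c0 : Continuous fun v : Euc m => v - x := continuous_id.sub continuous_const
  have c1 : Continuous fun v : Euc m => Real.exp (-2 * l) * ‖v - x‖ ^ 2 :=
    continuous_const.mul (c0.norm.pow 2)
  exact (innerSL ℝ).continuous.comp ((continuous_const.mul (hg.cont.comp c1)).smul c0)

theorem dr_zero (hg : Ker g g1) {l : ℝ} {x v : Euc m} (hv : Real.exp l ≤ ‖v - x‖) :
    dr g1 l x v = 0 := by
  unfold dr
  rw [hg.zero' _ (Ker.one_le_of x hv), mul_zero, zero_smul, map_zero]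

theorem norm_dr_le {K : ℝ} (hg : Ker g g1) (hK : Bd g g1 K) (l : ℝ) (x v : Euc m) :
    ‖dr g1 l x v‖ ≤ 2 * K * Real.exp (-l) := by
  rcases le_or_gt (Real.exp l) ‖v - x‖ with h1 | h1
  · rw [dr_zero hg h1, norm_zero]
    have := hK.nonneg
    positivity
  · unfold dr
    rw [innerSL_apply_norm, norm_smul, Real.norm_eq_abs, abs_mul,
      abs_of_nonneg (by positivity : (0:ℝ) ≤ 2 * Real.exp (-2 * l))]
    have h2 := hK.b1 _ (scaled_nonneg l x v)
    calc 2 * Real.exp (-2 * l) * |g1 (Real.exp (-2 * l) * ‖v - x‖ ^ 2)| * ‖v - x‖ ≤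
          2 * Real.exp (-2 * l) * K * Real.exp l := by
          apply mul_le_mul _ h1.le (norm_nonneg _)
            (by have := hK.nonneg; positivity)
          exact mul_le_mul_of_nonneg_left h2 (by positivity)
      _ = 2 * K * (Real.exp (-2 * l) * Real.exp l) := by ring
      _ = 2 * K * Real.exp (-l) := by
          rw [← Real.exp_add]; congr 2; ring

namespace CylAS

/-- the first variation of `X1 = χ (x' - x)` -/
theorem FV1_le (h : CylAS W π κ x₀ R h₀ δ) (h0 : 0 ≤ δ) (hh : 0 ≤ h₀) (hg : Ker g g1) {K : ℝ}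
    (hK : Bd g g1 K) {l : ℝ} (hl : ‖x - x₀‖ + Real.exp l ≤ R) :
    |FV W (X1 π x g l)| ≤ δ * (K * (3 + Real.exp l)) *
      (TB W π x (Real.exp l) + h₀ ^ 2 * MB W π x (Real.exp l)) := by
  have h1 := h.fv_hor_le (x := x) h0 hh (f := fun _ => (1:ℝ)) (df := fun _ => 0)
    (fun y => hasFDerivAt_const _ _) continuous_const (hasFDerivAt_R hg l x)
    (continuous_dR hg l x) hl (F₀ := 1) (d₀ := 0) (a := 3 * K) (b := K * Real.exp l)
    (fun y _ => by simp) (fun y _ => by simp) (norm_dR_le hK l x) (norm_R_le hg hK l x)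
    (fun v hv => by rw [hg.zero _ (Ker.one_le_of x hv), zero_smul]) (fun v hv => dR_zero hg hv)
  refine h1.trans (le_of_eq ?_)
  ring

/-- the first variation of `X2 = χ dF(y)` -/
theorem FV2_le (h : CylAS W π κ x₀ R h₀ δ) (h0 : 0 ≤ δ) (hh : 0 ≤ h₀) (hg : Ker g g1) {K : ℝ}
    (hK : Bd g g1 K) {F : Euc n → ℝ} {dF : Euc n → Euc n} {H : Euc n → L n}
    (hF : Well F dF H) {d₀ B₀ : ℝ} (hd₀ : ∀ y, ‖y‖ ≤ h₀ → ‖dF y‖ ≤ d₀)
    (hB₀ : ∀ y, ‖y‖ ≤ h₀ → ‖H y‖ ≤ B₀) {l : ℝ} (hl : ‖x - x₀‖ + Real.exp l ≤ R) :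
    |FV W (X2 π κ x dF g l)| ≤
      δ * d₀ * (K * (2 * Real.exp (-l) + 1)) *
        (√(TB W π x (Real.exp l)) * √(MB W π x (Real.exp l)) + h₀ * MB W π x (Real.exp l)) +
      K * δ * B₀ * h₀ * (√(TB W π x (Real.exp l)) * √(MB W π x (Real.exp l))) +
      K * (δ * B₀ + √δ * d₀) * TB W π x (Real.exp l) := by
  have h1 := h.fv_ver_le (x := x) h0 hh (f := fun v : Euc m => g (Real.exp (-2 * l) * ‖v - x‖ ^ 2))
    (df := dr g1 l x) (fun v => hasFDerivAt_rad hg.der l x v) (continuous_dr hg l x) hF.hasdF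
    hF.contH hl (f₀ := K) (a := 2 * K * Real.exp (-l)) (d₀ := d₀) (B₀ := B₀)
    (fun v => hK.b0 _ (scaled_nonneg l x v)) (norm_dr_le hg hK l x) hd₀ hB₀
    (fun v hv => hg.zero _ (Ker.one_le_of x hv)) (fun v hv => dr_zero hg hv)
  refine h1.trans (le_of_eq ?_)
  ring

/-- the first variation of `X3 = F g1 (x' - x)` -/
theorem FV3_le (h : CylAS W π κ x₀ R h₀ δ) (h0 : 0 ≤ δ) (hh : 0 ≤ h₀) (hg : Ker g1 g2) {K : ℝ}
    (hK : Bd g1 g2 K) {F : Euc n → ℝ} {dF : Euc n → Euc n} {H : Euc n → L n}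
    (hF : Well F dF H) {F₀ d₀ : ℝ} (hF₀ : ∀ y, ‖y‖ ≤ h₀ → F y ≤ F₀)
    (hd₀ : ∀ y, ‖y‖ ≤ h₀ → ‖dF y‖ ≤ d₀) {l : ℝ} (hl : ‖x - x₀‖ + Real.exp l ≤ R) :
    |FV W (X3 π κ x F g1 l)| ≤
      δ * F₀ * (K * (3 + Real.exp l)) *
        (TB W π x (Real.exp l) + h₀ ^ 2 * MB W π x (Real.exp l)) +
      δ * d₀ * (K * Real.exp l) *
        (√(TB W π x (Real.exp l)) * √(MB W π x (Real.exp l)) + h₀ * MB W π x (Real.exp l)) := by
  have h1 := h.fv_hor_le (x := x) h0 hh hF.hasF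
    ((innerSL ℝ).continuous.comp hF.contdF) (hasFDerivAt_R hg l x)
    (continuous_dR hg l x) hl (F₀ := F₀) (d₀ := d₀) (a := 3 * K) (b := K * Real.exp l)
    (fun y hy => by rw [abs_of_nonneg (hF.nonneg y)]; exact hF₀ y hy)
    (fun y hy => by rw [innerSL_apply_norm]; exact hd₀ y hy)
    (norm_dR_le hK l x) (norm_R_le hg hK l x)
    (fun v hv => by rw [hg.zero _ (Ker.one_le_of x hv), zero_smul]) (fun v hv => dR_zero hg hv)
  refine h1.trans (le_of_eq ?_)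
  ring

end CylAS

end Crest.Agent.R234.Asl_214
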