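import Crest.Agent.R234.Asl4_214

/-!
# Row 234, VF-ASL, part 5 (helper214)

(W1), (W2), (W3) of helper504 (#5326) / helper870 for the almost stationary class, scaled errors.
-/

set_option autoImplicit false

open MeasureTheory Set Function Filter Topology
open Crest.GeometryTopology.Submanifold
open Crest.Agent.R234.Vf_884 Crest.Agent.R234.Ar_870 Crest.Agent.R234.Cy_870
open Crest.Agent.R234.AS_456 (AS errA err hp vp)
open scoped ENNReal NNReal InnerProductSpace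

noncomputable section

namespace Crest.Agent.R234.Asl_214

variable {m n k : ℕ} {π : Euc k →L[ℝ] Euc m} {κ : Euc k →L[ℝ] Euc n} {δ : ℝ}
  {x₀ x : Euc m} {R h₀ : ℝ} {W : Measure (Euc k × L k)} {g g1 g2 : ℝ → ℝ}
  {F : Euc n → ℝ} {dF : Euc n → Euc n} {H : Euc n → L n}

/-- scaled tilt energy over the open ball of radius `e^l` -/
def tb (W : Measure (Euc k × L k)) (π : Euc k →L[ℝ] Euc m) (x : Euc m) (l : ℝ) : ℝ :=
  Real.exp ((2 - m) * l) * TB W π x (Real.exp l)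

/-- scaled mass over the open ball of radius `e^l` -/
def mb (W : Measure (Euc k × L k)) (π : Euc k →L[ℝ] Euc m) (x : Euc m) (l : ℝ) : ℝ :=
  Real.exp (-m * l) * MB W π x (Real.exp l)

theorem mb_nonneg (x : Euc m) (l : ℝ) : 0 ≤ mb W π x l :=
  mul_nonneg (Real.exp_pos _).le (MB_nonneg x _)

theorem CylAS.tb_nonneg (h : CylAS W π κ x₀ R h₀ δ) (x : Euc m) (l : ℝ) : 0 ≤ tb W π x l :=
  mul_nonneg (Real.exp_pos _).le (h.TB_nonneg x _)

theorem TB_eq (W : Measure (Euc k × L k)) (π : Euc k →L[ℝ] Euc m) (x : Euc m) (l : ℝ) :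
    TB W π x (Real.exp l) = Real.exp ((m - 2) * l) * tb W π x l := by
  unfold tb
  rw [← mul_assoc, ← Real.exp_add]
  have : (m - 2 : ℝ) * l + (2 - m) * l = 0 := by ring
  rw [this, Real.exp_zero, one_mul]

theorem MB_eq (W : Measure (Euc k × L k)) (π : Euc k →L[ℝ] Euc m) (x : Euc m) (l : ℝ) :
    MB W π x (Real.exp l) = Real.exp (m * l) * mb W π x l := by
  unfold mb
  rw [← mul_assoc, ← Real.exp_add]
  have : (m : ℝ) * l + -m * l = 0 := by ring
  rw [this, Real.exp_zero, one_mul]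

theorem sqrt_TM (h : CylAS W π κ x₀ R h₀ δ) (x : Euc m) (l : ℝ) :
    √(TB W π x (Real.exp l)) * √(MB W π x (Real.exp l)) =
      Real.exp ((m - 1) * l) * (√(tb W π x l) * √(mb W π x l)) := by
  have h1 := h.tb_nonneg x l
  have h2 := mb_nonneg (W := W) (π := π) x l
  rw [TB_eq, MB_eq, ← Real.sqrt_mul (by positivity), ← Real.sqrt_mul h1]
  have h3 : Real.exp ((m - 2) * l) * tb W π x l * (Real.exp (m * l) * mb W π x l) =
      Real.exp ((m - 1) * l) ^ 2 * (tb W π x l * mb W π x l) := by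
    have : Real.exp ((m - 1) * l) ^ 2 = Real.exp ((m - 2) * l) * Real.exp (m * l) := by
      rw [← Real.exp_nat_mul, ← Real.exp_add]; congr 1; push_cast; ring
    rw [this]; ring
  rw [h3, Real.sqrt_mul (by positivity), Real.sqrt_sq (Real.exp_pos _).le]

/-- the error of (W1) -/
def rho1 (W : Measure (Euc k × L k)) (π : Euc k →L[ℝ] Euc m) (x : Euc m) (g : ℝ → ℝ) (l : ℝ) : ℝ :=
  -(Real.exp ((2 - m) * l) * FV W (X1 π x g l))

/-- the error of (W2) -/
def rho2 (W : Measure (Euc k × L k)) (π : Euc k →L[ℝ] Euc m) (κ : Euc k →L[ℝ] Euc n) (x : Euc m)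
    (dF : Euc n → Euc n) (g : ℝ → ℝ) (l : ℝ) : ℝ :=
  Real.exp ((2 - m) * l) * FV W (X2 π κ x dF g l)

/-- the error of (W3) -/
def rho3 (W : Measure (Euc k × L k)) (π : Euc k →L[ℝ] Euc m) (κ : Euc k →L[ℝ] Euc n) (x : Euc m)
    (F : Euc n → ℝ) (dF : Euc n → Euc n) (g g1 : ℝ → ℝ) (l : ℝ) : ℝ :=
  4 * Real.exp (-m * l) * FV W (X3 π κ x F g1 l) -
    2 * (Real.exp ((2 - m) * l) * FV W (X2 π κ x dF g l))

namespace CylAS

/-- **(W1)** -/
theorem W1 (h : CylAS W π κ x₀ R h₀ δ) (hg : Prof g g1 g2) (Q l : ℝ) :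
    HasDerivAt (EE W π x g Q) (2 * bb W π x g Q l + RR W π x g1 l + rho1 W π x g l) l :=
  hasDerivAt_EE (h.fr x (l + 1)) hg Q (by linarith : l < l + 1)

/-- **(W2)** -/
theorem W2 (h : CylAS W π κ x₀ R h₀ δ) (hF : Well F dF H) (hg : Prof g g1 g2) (l : ℝ) :
    (eF W π κ x H g l - rho2 W π κ x dF g l) ^ 2 ≤ IF W π κ x F g1 l * RR W π x g1 l :=
  eF_sq_le (h.fr x l) (h.hgt' x l) hF hg le_rfl

/-- **(W3)** -/
theorem W3 (h : CylAS W π κ x₀ R h₀ δ) (hF : Well F dF H) (hg : Prof g g1 g2) (l : ℝ) :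
    HasDerivAt (IF W π κ x F g1)
      (2 * eF W π κ x H g l + err3 W π κ x F g1 g2 l + rho3 W π κ x F dF g g1 l) l :=
  hasDerivAt_IF (h.fr x (l + 1)) (h.hgt' x (l + 1)) hF hg (by linarith : l < l + 1)

/-- error of (W1) -/
theorem rho1_le (h : CylAS W π κ x₀ R h₀ δ) (h0 : 0 ≤ δ) (hh : 0 ≤ h₀) (hg : Ker g g1) {K : ℝ}
    (hK : Bd g g1 K) {l : ℝ} (hl : ‖x - x₀‖ + Real.exp l ≤ R) (hl0 : l ≤ 0) :
    |rho1 W π x g l| ≤ 4 * K * δ * (tb W π x l + h₀ ^ 2 * Real.exp l ^ 2 * mb W π x l) := by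
  have h1 := h.FV1_le h0 hh hg hK hl
  have hs : Real.exp l ≤ 1 := Real.exp_le_one_iff.2 hl0
  have hK0 := hK.nonneg
  have ht := h.tb_nonneg x l
  have hm := mb_nonneg (W := W) (π := π) x l
  unfold rho1
  rw [abs_neg, abs_mul, abs_of_pos (Real.exp_pos _)]
  rw [TB_eq, MB_eq] at h1
  have e1 : Real.exp ((2 - m) * l) * Real.exp ((m - 2) * l) = 1 := by
    rw [← Real.exp_add]
    have : (2 - m : ℝ) * l + (m - 2) * l = 0 := by ring
    rw [this, Real.exp_zero]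
  have e2 : Real.exp ((2 - m) * l) * Real.exp (m * l) = Real.exp l ^ 2 := by
    rw [← Real.exp_add, ← Real.exp_nat_mul]
    congr 1; push_cast; ring
  calc Real.exp ((2 - m) * l) * |FV W (X1 π x g l)| ≤ Real.exp ((2 - m) * l) *
        (δ * (K * (3 + Real.exp l)) * (Real.exp ((m - 2) * l) * tb W π x l +
          h₀ ^ 2 * (Real.exp (m * l) * mb W π x l))) :=
        mul_le_mul_of_nonneg_left h1 (Real.exp_pos _).le
    _ = δ * (K * (3 + Real.exp l)) * ((Real.exp ((2 - m) * l) * Real.exp ((m - 2) * l)) *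
          tb W π x l + h₀ ^ 2 * ((Real.exp ((2 - m) * l) * Real.exp (m * l)) * mb W π x l)) := by
        ring
    _ = δ * (K * (3 + Real.exp l)) * (tb W π x l + h₀ ^ 2 * Real.exp l ^ 2 * mb W π x l) := by
        rw [e1, e2]; ring
    _ ≤ δ * (K * (3 + 1)) * (tb W π x l + h₀ ^ 2 * Real.exp l ^ 2 * mb W π x l) := by
        gcongr
    _ = _ := by ring

/-- error of (W2) -/
theorem rho2_le (h : CylAS W π κ x₀ R h₀ δ) (h0 : 0 ≤ δ) (hh : 0 ≤ h₀) (hg : Ker g g1) {K : ℝ}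
    (hK : Bd g g1 K) (hF : Well F dF H) {d₀ B₀ : ℝ} (hd₀ : ∀ y, ‖y‖ ≤ h₀ → ‖dF y‖ ≤ d₀)
    (hB₀ : ∀ y, ‖y‖ ≤ h₀ → ‖H y‖ ≤ B₀) {l : ℝ} (hl : ‖x - x₀‖ + Real.exp l ≤ R) (hl0 : l ≤ 0) :
    |rho2 W π κ x dF g l| ≤ 3 * K * δ * d₀ *
        (√(tb W π x l) * √(mb W π x l) + h₀ * Real.exp l * mb W π x l) +
      K * δ * B₀ * h₀ * Real.exp l * (√(tb W π x l) * √(mb W π x l)) +
      K * (δ * B₀ + √δ * d₀) * tb W π x l := by
  have h1 := h.FV2_le h0 hh hg hK hF hd₀ hB₀ hl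
  have hs : Real.exp l ≤ 1 := Real.exp_le_one_iff.2 hl0
  have hK0 := hK.nonneg
  have ht := h.tb_nonneg x l
  have hm := mb_nonneg (W := W) (π := π) x l
  have hd0 : 0 ≤ d₀ := (norm_nonneg _).trans (hd₀ 0 (by simpa using hh))
  unfold rho2
  rw [abs_mul, abs_of_pos (Real.exp_pos _)]
  rw [sqrt_TM h, TB_eq, MB_eq] at h1
  have e1 : Real.exp ((2 - m) * l) * Real.exp ((m - 2) * l) = 1 := by
    rw [← Real.exp_add]
    have : (2 - m : ℝ) * l + (m - 2) * l = 0 := by ring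
    rw [this, Real.exp_zero]
  have e4 : Real.exp ((2 - m) * l) * Real.exp ((m - 1) * l) = Real.exp l := by
    rw [← Real.exp_add]; congr 1; ring
  have e2 : Real.exp ((2 - m) * l) * (2 * Real.exp (-l) + 1) * Real.exp ((m - 1) * l) =
      2 + Real.exp l := by
    have a1 : Real.exp ((2 - m) * l) * Real.exp (-l) * Real.exp ((m - 1) * l) = 1 := by
      rw [← Real.exp_add, ← Real.exp_add]
      have : (2 - m : ℝ) * l + -l + (m - 1) * l = 0 := by ring
      rw [this, Real.exp_zero]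
    linear_combination 2 * a1 + e4
  have e3 : Real.exp ((2 - m) * l) * (2 * Real.exp (-l) + 1) * Real.exp (m * l) =
      (2 + Real.exp l) * Real.exp l := by
    have a1 : Real.exp ((2 - m) * l) * Real.exp (-l) * Real.exp (m * l) = Real.exp l := by
      rw [← Real.exp_add, ← Real.exp_add]; congr 1; ring
    have a2 : Real.exp ((2 - m) * l) * Real.exp (m * l) = Real.exp l * Real.exp l := by
      rw [← Real.exp_add, ← Real.exp_add]; congr 1; ring
    linear_combination 2 * a1 + a2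
  calc Real.exp ((2 - m) * l) * |FV W (X2 π κ x dF g l)| ≤ Real.exp ((2 - m) * l) * _ :=
        mul_le_mul_of_nonneg_left h1 (Real.exp_pos _).le
    _ = δ * d₀ * K * ((Real.exp ((2 - m) * l) * (2 * Real.exp (-l) + 1) *
            Real.exp ((m - 1) * l)) * (√(tb W π x l) * √(mb W π x l)) +
          (Real.exp ((2 - m) * l) * (2 * Real.exp (-l) + 1) * Real.exp (m * l)) *
            (h₀ * mb W π x l)) +
        K * δ * B₀ * h₀ * ((Real.exp ((2 - m) * l) * Real.exp ((m - 1) * l)) *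
          (√(tb W π x l) * √(mb W π x l))) +
        K * (δ * B₀ + √δ * d₀) * ((Real.exp ((2 - m) * l) * Real.exp ((m - 2) * l)) *
          tb W π x l) := by ring
    _ = δ * d₀ * K * ((2 + Real.exp l) * (√(tb W π x l) * √(mb W π x l) +
          h₀ * Real.exp l * mb W π x l)) +
        K * δ * B₀ * h₀ * Real.exp l * (√(tb W π x l) * √(mb W π x l)) +
        K * (δ * B₀ + √δ * d₀) * tb W π x l := by
        rw [e1, e2, e3, e4]; ring
    _ ≤ δ * d₀ * K * ((2 + 1) * (√(tb W π x l) * √(mb W π x l) +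
          h₀ * Real.exp l * mb W π x l)) +
        K * δ * B₀ * h₀ * Real.exp l * (√(tb W π x l) * √(mb W π x l)) +
        K * (δ * B₀ + √δ * d₀) * tb W π x l := by
        gcongr
    _ = _ := by ring

/-- error of (W3) -/
theorem rho3_le (h : CylAS W π κ x₀ R h₀ δ) (h0 : 0 ≤ δ) (hh : 0 ≤ h₀) (hg : Prof g g1 g2)
    {K : ℝ} (hK : Bd g g1 K) (hK' : Bd g1 g2 K) (hF : Well F dF H) {F₀ d₀ B₀ : ℝ}
    (hF₀ : ∀ y, ‖y‖ ≤ h₀ → F y ≤ F₀) (hd₀ : ∀ y, ‖y‖ ≤ h₀ → ‖dF y‖ ≤ d₀)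
    (hB₀ : ∀ y, ‖y‖ ≤ h₀ → ‖H y‖ ≤ B₀) {l : ℝ} (hl : ‖x - x₀‖ + Real.exp l ≤ R) (hl0 : l ≤ 0) :
    |rho3 W π κ x F dF g g1 l| ≤
      16 * K * δ * F₀ * (Real.exp (-2 * l) * tb W π x l + h₀ ^ 2 * mb W π x l) +
      10 * K * δ * d₀ * (√(tb W π x l) * √(mb W π x l) + h₀ * Real.exp l * mb W π x l) +
      2 * K * δ * B₀ * h₀ * Real.exp l * (√(tb W π x l) * √(mb W π x l)) +
      2 * K * (δ * B₀ + √δ * d₀) * tb W π x l := by
  have h1 := h.FV3_le h0 hh hg.k1 hK' hF hF₀ hd₀ hl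
  have h2 := h.rho2_le h0 hh hg.k0 hK hF hd₀ hB₀ hl hl0
  have hs : Real.exp l ≤ 1 := Real.exp_le_one_iff.2 hl0
  have hK0 := hK.nonneg
  have ht := h.tb_nonneg x l
  have hm := mb_nonneg (W := W) (π := π) x l
  have hd0 : 0 ≤ d₀ := (norm_nonneg _).trans (hd₀ 0 (by simpa using hh))
  have hF0 : 0 ≤ F₀ := (hF.nonneg 0).trans (hF₀ 0 (by simpa using hh))
  rw [sqrt_TM h, TB_eq, MB_eq] at h1
  have e1 : Real.exp (-m * l) * Real.exp ((m - 2) * l) = Real.exp (-2 * l) := by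
    rw [← Real.exp_add]; congr 1; ring
  have e2 : Real.exp (-m * l) * Real.exp (m * l) = 1 := by
    rw [← Real.exp_add]
    have : (-m : ℝ) * l + m * l = 0 := by ring
    rw [this, Real.exp_zero]
  have e3 : Real.exp (-m * l) * Real.exp l * Real.exp ((m - 1) * l) = 1 := by
    rw [← Real.exp_add, ← Real.exp_add]
    have : (-m : ℝ) * l + l + (m - 1) * l = 0 := by ring
    rw [this, Real.exp_zero]
  have e4 : Real.exp (-m * l) * Real.exp l * Real.exp (m * l) = Real.exp l := by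
    rw [← Real.exp_add, ← Real.exp_add]; congr 1; ring
  have h3 : Real.exp (-m * l) * |FV W (X3 π κ x F g1 l)| ≤
      4 * K * δ * F₀ * (Real.exp (-2 * l) * tb W π x l + h₀ ^ 2 * mb W π x l) +
      K * δ * d₀ * (√(tb W π x l) * √(mb W π x l) + h₀ * Real.exp l * mb W π x l) := by
    calc Real.exp (-m * l) * |FV W (X3 π κ x F g1 l)| ≤ Real.exp (-m * l) * _ :=
          mul_le_mul_of_nonneg_left h1 (Real.exp_pos _).le
      _ = δ * F₀ * (K * (3 + Real.exp l)) * ((Real.exp (-m * l) * Real.exp ((m - 2) * l)) *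
            tb W π x l + h₀ ^ 2 * ((Real.exp (-m * l) * Real.exp (m * l)) * mb W π x l)) +
          δ * d₀ * K * ((Real.exp (-m * l) * Real.exp l * Real.exp ((m - 1) * l)) *
            (√(tb W π x l) * √(mb W π x l)) +
            (Real.exp (-m * l) * Real.exp l * Real.exp (m * l)) * (h₀ * mb W π x l)) := by ring
      _ = δ * F₀ * (K * (3 + Real.exp l)) * (Real.exp (-2 * l) * tb W π x l +
            h₀ ^ 2 * mb W π x l) +
          δ * d₀ * K * (√(tb W π x l) * √(mb W π x l) + h₀ * Real.exp l * mb W π x l) := by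
          rw [e1, e2, e3, e4]; ring
      _ ≤ δ * F₀ * (K * (3 + 1)) * (Real.exp (-2 * l) * tb W π x l +
            h₀ ^ 2 * mb W π x l) +
          δ * d₀ * K * (√(tb W π x l) * √(mb W π x l) + h₀ * Real.exp l * mb W π x l) := by
          gcongr
      _ = _ := by ring
  have h4 : |rho3 W π κ x F dF g g1 l| ≤ 4 * (Real.exp (-m * l) * |FV W (X3 π κ x F g1 l)|) +
      2 * |rho2 W π κ x dF g l| := by
    unfold rho3 rho2
    refine (abs_sub _ _).trans (le_of_eq ?_)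
    rw [abs_mul, abs_mul, abs_mul, abs_of_pos (Real.exp_pos _), abs_of_pos (by norm_num : (0:ℝ) < 4),
      abs_of_pos (by norm_num : (0:ℝ) < 2)]
    ring
  refine h4.trans ?_
  have h5 := mul_le_mul_of_nonneg_left h3 (by norm_num : (0:ℝ) ≤ 4)
  have h6 := mul_le_mul_of_nonneg_left h2 (by norm_num : (0:ℝ) ≤ 2)
  refine (add_le_add h5 h6).trans (le_of_eq ?_)
  ring

end CylAS

end Crest.Agent.R234.Asl_214
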