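import Crest.Agent.R234.Asl5_214

/-!
# Row 234, VF-ASL, part 6 (helper214)

The first variation bounds of 870's fields `X2`, `X3` for arbitrary `C²` functions of the height
(no sign, no `|dF|² ≤ 2F`), scaled.
-/

set_option autoImplicit false

open MeasureTheory Set Function Filter Topology
open Crest.GeometryTopology.Submanifold
open Crest.Agent.R234.Vf_884 Crest.Agent.R234.Ar_870 Crest.Agent.R234.Cy_870
open Crest.Agent.R234.AS_456 (AS errA err hp vp)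
open scoped ENNReal NNReal InnerProductSpace

noncomputable section

namespace Crest.Agent.R234.Asl_214

variable {m n k : ℕ} {π : Euc k →L[ℝ] Euc m} {κ : Euc k →L[ℝ] Euc n} {δ : ℝ}
  {x₀ x : Euc m} {R h₀ : ℝ} {W : Measure (Euc k × L k)} {g g1 g2 : ℝ → ℝ}
  {F : Euc n → ℝ} {dF : Euc n → Euc n} {H : Euc n → L n}

/-- a `C²` function of the height with gradient `dF` and Hessian `H` -/
structure C2F (F : Euc n → ℝ) (dF : Euc n → Euc n) (H : Euc n → L n) : Prop where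
  hasF : ∀ y, HasFDerivAt F (innerSL ℝ (dF y)) y
  hasdF : ∀ y, HasFDerivAt dF (H y) y
  contH : Continuous H

theorem _root_.Crest.Agent.R234.Cy_870.Well.c2F (h : Well F dF H) : C2F F dF H :=
  ⟨h.hasF, h.hasdF, h.contH⟩

theorem C2F.contdF (h : C2F F dF H) : Continuous dF :=
  continuous_iff_continuousAt.2 fun y => (h.hasdF y).continuousAt

namespace CylAS

/-- the first variation of `X2 = χ dF(y)`, any `C²` function -/
theorem FV2_gen (h : CylAS W π κ x₀ R h₀ δ) (h0 : 0 ≤ δ) (hh : 0 ≤ h₀) (hg : Ker g g1) {K : ℝ}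
    (hK : Bd g g1 K) (hF : C2F F dF H) {d₀ B₀ : ℝ} (hd₀ : ∀ y, ‖y‖ ≤ h₀ → ‖dF y‖ ≤ d₀)
    (hB₀ : ∀ y, ‖y‖ ≤ h₀ → ‖H y‖ ≤ B₀) {l : ℝ} (hl : ‖x - x₀‖ + Real.exp l ≤ R) :
    |FV W (X2 π κ x dF g l)| ≤
      δ * d₀ * (K * (2 * Real.exp (-l) + 1)) *
        (√(TB W π x (Real.exp l)) * √(MB W π x (Real.exp l)) + h₀ * MB W π x (Real.exp l)) +
      K * δ * B₀ * h₀ * (√(TB W π x (Real.exp l)) * √(MB W π x (Real.exp l))) +
      K * (δ * B₀ + √δ * d₀) * TB W π x (Real.exp l) := by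
  have h1 := h.fv_ver_le (x := x) h0 hh (f := fun v : Euc m => g (Real.exp (-2 * l) * ‖v - x‖ ^ 2))
    (df := dr g1 l x) (fun v => hasFDerivAt_rad hg.der l x v) (continuous_dr hg l x) hF.hasdF
    hF.contH hl (f₀ := K) (a := 2 * K * Real.exp (-l)) (d₀ := d₀) (B₀ := B₀)
    (fun v => hK.b0 _ (scaled_nonneg l x v)) (norm_dr_le hg hK l x) hd₀ hB₀
    (fun v hv => hg.zero _ (Ker.one_le_of x hv)) (fun v hv => dr_zero hg hv)
  refine h1.trans (le_of_eq ?_)
  ring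

/-- the first variation of `X3 = F g1 (x' - x)`, any `C²` function -/
theorem FV3_gen (h : CylAS W π κ x₀ R h₀ δ) (h0 : 0 ≤ δ) (hh : 0 ≤ h₀) (hg : Ker g1 g2) {K : ℝ}
    (hK : Bd g1 g2 K) (hF : C2F F dF H) {F₀ d₀ : ℝ} (hF₀ : ∀ y, ‖y‖ ≤ h₀ → |F y| ≤ F₀)
    (hd₀ : ∀ y, ‖y‖ ≤ h₀ → ‖dF y‖ ≤ d₀) {l : ℝ} (hl : ‖x - x₀‖ + Real.exp l ≤ R) :
    |FV W (X3 π κ x F g1 l)| ≤
      δ * F₀ * (K * (3 + Real.exp l)) *
        (TB W π x (Real.exp l) + h₀ ^ 2 * MB W π x (Real.exp l)) +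
      δ * d₀ * (K * Real.exp l) *
        (√(TB W π x (Real.exp l)) * √(MB W π x (Real.exp l)) + h₀ * MB W π x (Real.exp l)) := by
  have h1 := h.fv_hor_le (x := x) h0 hh hF.hasF
    ((innerSL ℝ).continuous.comp hF.contdF) (hasFDerivAt_R hg l x)
    (continuous_dR hg l x) hl (F₀ := F₀) (d₀ := d₀) (a := 3 * K) (b := K * Real.exp l)
    hF₀ (fun y hy => by rw [innerSL_apply_norm]; exact hd₀ y hy)
    (norm_dR_le hK l x) (norm_R_le hg hK l x)
    (fun v hv => by rw [hg.zero _ (Ker.one_le_of x hv), zero_smul]) (fun v hv => dR_zero hg hv)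
  refine h1.trans (le_of_eq ?_)
  ring

/-- `s^{2-m} |FV X2|`, scaled -/
theorem x2_le (h : CylAS W π κ x₀ R h₀ δ) (h0 : 0 ≤ δ) (hh : 0 ≤ h₀) (hg : Ker g g1) {K : ℝ}
    (hK : Bd g g1 K) (hF : C2F F dF H) {d₀ B₀ : ℝ} (hd₀ : ∀ y, ‖y‖ ≤ h₀ → ‖dF y‖ ≤ d₀)
    (hB₀ : ∀ y, ‖y‖ ≤ h₀ → ‖H y‖ ≤ B₀) {l : ℝ} (hl : ‖x - x₀‖ + Real.exp l ≤ R) (hl0 : l ≤ 0) :
    Real.exp ((2 - m) * l) * |FV W (X2 π κ x dF g l)| ≤ 3 * K * δ * d₀ *
        (√(tb W π x l) * √(mb W π x l) + h₀ * Real.exp l * mb W π x l) +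
      K * δ * B₀ * h₀ * Real.exp l * (√(tb W π x l) * √(mb W π x l)) +
      K * (δ * B₀ + √δ * d₀) * tb W π x l := by
  have h1 := h.FV2_gen h0 hh hg hK hF hd₀ hB₀ hl
  have hs : Real.exp l ≤ 1 := Real.exp_le_one_iff.2 hl0
  have hK0 := hK.nonneg
  have ht := h.tb_nonneg x l
  have hm := mb_nonneg (W := W) (π := π) x l
  have hd0 : 0 ≤ d₀ := (norm_nonneg _).trans (hd₀ 0 (by simpa using hh))
  rw [sqrt_TM h, TB_eq, MB_eq] at h1
  have e1 : Real.exp ((2 - m) * l) * Real.exp ((m - 2) * l) = 1 := by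
    rw [← Real.exp_add]
    have : (2 - m : ℝ) * l + (m - 2) * l = 0 := by ring
    rw [this, Real.exp_zero]
  have e4 : Real.exp ((2 - m) * l) * Real.exp ((m - 1) * l) = Real.exp l := by
    rw [← Real.exp_add]; congr 1; ring
  have e2 : Real.exp ((2 - m) * l) * (2 * Real.exp (-l) + 1) * Real.exp ((m - 1) * l) =
      2 + Real.exp l := by
    have a1 : Real.exp ((2 - m) * l) * Real.exp (-l) * Real.exp ((m - 1) * l) = 1 := by
      rw [← Real.exp_add, ← Real.exp_add]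
      have : (2 - m : ℝ) * l + -l + (m - 1) * l = 0 := by ring
      rw [this, Real.exp_zero]
    linear_combination 2 * a1 + e4
  have e3 : Real.exp ((2 - m) * l) * (2 * Real.exp (-l) + 1) * Real.exp (m * l) =
      (2 + Real.exp l) * Real.exp l := by
    have a1 : Real.exp ((2 - m) * l) * Real.exp (-l) * Real.exp (m * l) = Real.exp l := by
      rw [← Real.exp_add, ← Real.exp_add]; congr 1; ring
    have a2 : Real.exp ((2 - m) * l) * Real.exp (m * l) = Real.exp l * Real.exp l := by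
      rw [← Real.exp_add, ← Real.exp_add]; congr 1; ring
    linear_combination 2 * a1 + a2
  calc Real.exp ((2 - m) * l) * |FV W (X2 π κ x dF g l)| ≤ Real.exp ((2 - m) * l) * _ :=
        mul_le_mul_of_nonneg_left h1 (Real.exp_pos _).le
    _ = δ * d₀ * K * ((Real.exp ((2 - m) * l) * (2 * Real.exp (-l) + 1) *
            Real.exp ((m - 1) * l)) * (√(tb W π x l) * √(mb W π x l)) +
          (Real.exp ((2 - m) * l) * (2 * Real.exp (-l) + 1) * Real.exp (m * l)) *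
            (h₀ * mb W π x l)) +
        K * δ * B₀ * h₀ * ((Real.exp ((2 - m) * l) * Real.exp ((m - 1) * l)) *
          (√(tb W π x l) * √(mb W π x l))) +
        K * (δ * B₀ + √δ * d₀) * ((Real.exp ((2 - m) * l) * Real.exp ((m - 2) * l)) *
          tb W π x l) := by ring
    _ = δ * d₀ * K * ((2 + Real.exp l) * (√(tb W π x l) * √(mb W π x l) +
          h₀ * Real.exp l * mb W π x l)) +
        K * δ * B₀ * h₀ * Real.exp l * (√(tb W π x l) * √(mb W π x l)) +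
        K * (δ * B₀ + √δ * d₀) * tb W π x l := by
        rw [e1, e2, e3, e4]; ring
    _ ≤ δ * d₀ * K * ((2 + 1) * (√(tb W π x l) * √(mb W π x l) +
          h₀ * Real.exp l * mb W π x l)) +
        K * δ * B₀ * h₀ * Real.exp l * (√(tb W π x l) * √(mb W π x l)) +
        K * (δ * B₀ + √δ * d₀) * tb W π x l := by
        gcongr
    _ = _ := by ring

/-- `s^{-m} |FV X3|`, scaled -/
theorem x3_le (h : CylAS W π κ x₀ R h₀ δ) (h0 : 0 ≤ δ) (hh : 0 ≤ h₀) (hg : Ker g1 g2)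
    {K : ℝ} (hK : Bd g1 g2 K) (hF : C2F F dF H) {F₀ d₀ : ℝ}
    (hF₀ : ∀ y, ‖y‖ ≤ h₀ → |F y| ≤ F₀) (hd₀ : ∀ y, ‖y‖ ≤ h₀ → ‖dF y‖ ≤ d₀)
    {l : ℝ} (hl : ‖x - x₀‖ + Real.exp l ≤ R) (hl0 : l ≤ 0) :
    Real.exp (-m * l) * |FV W (X3 π κ x F g1 l)| ≤
      4 * K * δ * F₀ * (Real.exp (-2 * l) * tb W π x l + h₀ ^ 2 * mb W π x l) +
      K * δ * d₀ * (√(tb W π x l) * √(mb W π x l) + h₀ * Real.exp l * mb W π x l) := by
  have h1 := h.FV3_gen h0 hh hg hK hF hF₀ hd₀ hl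
  have hs : Real.exp l ≤ 1 := Real.exp_le_one_iff.2 hl0
  have hK0 := hK.nonneg
  have ht := h.tb_nonneg x l
  have hm := mb_nonneg (W := W) (π := π) x l
  have hd0 : 0 ≤ d₀ := (norm_nonneg _).trans (hd₀ 0 (by simpa using hh))
  have hF0 : 0 ≤ F₀ := (abs_nonneg _).trans (hF₀ 0 (by simpa using hh))
  rw [sqrt_TM h, TB_eq, MB_eq] at h1
  have e1 : Real.exp (-m * l) * Real.exp ((m - 2) * l) = Real.exp (-2 * l) := by
    rw [← Real.exp_add]; congr 1; ring
  have e2 : Real.exp (-m * l) * Real.exp (m * l) = 1 := by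
    rw [← Real.exp_add]
    have : (-m : ℝ) * l + m * l = 0 := by ring
    rw [this, Real.exp_zero]
  have e3 : Real.exp (-m * l) * Real.exp l * Real.exp ((m - 1) * l) = 1 := by
    rw [← Real.exp_add, ← Real.exp_add]
    have : (-m : ℝ) * l + l + (m - 1) * l = 0 := by ring
    rw [this, Real.exp_zero]
  have e4 : Real.exp (-m * l) * Real.exp l * Real.exp (m * l) = Real.exp l := by
    rw [← Real.exp_add, ← Real.exp_add]; congr 1; ring
  calc Real.exp (-m * l) * |FV W (X3 π κ x F g1 l)| ≤ Real.exp (-m * l) * _ :=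
        mul_le_mul_of_nonneg_left h1 (Real.exp_pos _).le
    _ = δ * F₀ * (K * (3 + Real.exp l)) * ((Real.exp (-m * l) * Real.exp ((m - 2) * l)) *
          tb W π x l + h₀ ^ 2 * ((Real.exp (-m * l) * Real.exp (m * l)) * mb W π x l)) +
        δ * d₀ * K * ((Real.exp (-m * l) * Real.exp l * Real.exp ((m - 1) * l)) *
          (√(tb W π x l) * √(mb W π x l)) +
          (Real.exp (-m * l) * Real.exp l * Real.exp (m * l)) * (h₀ * mb W π x l)) := by ring
    _ = δ * F₀ * (K * (3 + Real.exp l)) * (Real.exp (-2 * l) * tb W π x l +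
          h₀ ^ 2 * mb W π x l) +
        δ * d₀ * K * (√(tb W π x l) * √(mb W π x l) + h₀ * Real.exp l * mb W π x l) := by
        rw [e1, e2, e3, e4]; ring
    _ ≤ δ * F₀ * (K * (3 + 1)) * (Real.exp (-2 * l) * tb W π x l +
          h₀ ^ 2 * mb W π x l) +
        δ * d₀ * K * (√(tb W π x l) * √(mb W π x l) + h₀ * Real.exp l * mb W π x l) := by
        gcongr
    _ = _ := by ring

end CylAS

end Crest.Agent.R234.Asl_214
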