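import Crest.Agent.R234.Asl6_214

/-!
# Row 234, VF-ASL, part 7 (helper214)

Sharp weighted errors (helper98 #6717): `|s^{2-m} FV X1| ≤ 2 δ (e + et) + 4 K δ h₀² s² mb`,
`s^{-m} |FV X3| ≤ (δ/2) √(IF et) + ..`, `et = e' + (m-2) e = s^{2-m} ∫ tl (-2 t g1(t)) dW ≥ RR`.
-/

set_option autoImplicit false

open MeasureTheory Set Function Filter Topology
open Crest.GeometryTopology.Submanifold
open Crest.Agent.R234.Vf_884 Crest.Agent.R234.Ar_870 Crest.Agent.R234.Cy_870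
open Crest.Agent.R234.AS_456 (AS errA err hp vp)
open scoped ENNReal NNReal InnerProductSpace

noncomputable section

namespace Crest.Agent.R234.Asl_214

variable {m n k : ℕ} {π : Euc k →L[ℝ] Euc m} {κ : Euc k →L[ℝ] Euc n} {δ : ℝ}
  {x₀ x : Euc m} {R h₀ : ℝ} {W : Measure (Euc k × L k)} {g g1 g2 : ℝ → ℝ}
  {F : Euc n → ℝ} {dF : Euc n → Euc n} {H : Euc n → L n}

/-- Cauchy-Schwarz -/
theorem cs_int {Ω : Type*} [MeasurableSpace Ω] {V : Measure Ω} {a b : Ω → ℝ}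
    (ha : Integrable (fun p => a p ^ 2) V) (hb : Integrable (fun p => b p ^ 2) V)
    (hab : Integrable (fun p => a p * b p) V) :
    ∫ p, a p * b p ∂V ≤ √(∫ p, a p ^ 2 ∂V) * √(∫ p, b p ^ 2 ∂V) := by
  have hA : 0 ≤ ∫ p, a p ^ 2 ∂V := integral_nonneg fun p => sq_nonneg _
  have key : ∀ c : ℝ, 0 ≤ (∫ p, b p ^ 2 ∂V) * (c * c) + (-2 * ∫ p, a p * b p ∂V) * c +
      ∫ p, a p ^ 2 ∂V := by
    intro c
    have h1 : (∫ p, b p ^ 2 ∂V) * (c * c) + (-2 * ∫ p, a p * b p ∂V) * c +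
        ∫ p, a p ^ 2 ∂V = ∫ p, (a p - c * b p) ^ 2 ∂V := by
      have e0 : ∀ p, (a p - c * b p) ^ 2 =
          (c * c) * b p ^ 2 + (-2 * c) * (a p * b p) + a p ^ 2 := fun p => by ring
      simp_rw [e0]
      have i1 : Integrable (fun p => (c * c) * b p ^ 2 + (-2 * c) * (a p * b p)) V :=
        (hb.const_mul _).add (hab.const_mul _)
      rw [integral_add i1 ha, integral_add (hb.const_mul _) (hab.const_mul _),
        integral_const_mul, integral_const_mul]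
      ring
    rw [h1]
    exact integral_nonneg fun p => sq_nonneg _
  have hd := discrim_le_zero key
  unfold discrim at hd
  have h3 : (∫ p, a p * b p ∂V) ^ 2 ≤ (∫ p, a p ^ 2 ∂V) * ∫ p, b p ^ 2 ∂V := by nlinarith
  rw [← Real.sqrt_mul hA]
  exact Real.le_sqrt_of_sq_le h3

/-- `et = s^{2-m} ∫ tl (-2 t g1(t)) dW` -/
def et (W : Measure (Euc k × L k)) (π : Euc k →L[ℝ] Euc m) (x : Euc m) (g1 : ℝ → ℝ) (l : ℝ) : ℝ :=
  Real.exp ((2 - m) * l) *
    ∫ p, tl π p.2 * (-2 * (Real.exp (-2 * l) * ‖π p.1 - x‖ ^ 2 *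
      g1 (Real.exp (-2 * l) * ‖π p.1 - x‖ ^ 2))) ∂W

/-- `e' = (2 - m) e + et` -/
theorem hasDerivAt_ee {L₀ : ℝ} (h : Fr W π κ x L₀) (hg : Ker g g1) {l : ℝ} (hl : l < L₀) :
    HasDerivAt (ee W π x g) ((2 - m) * ee W π x g l + et W π x g1 l) l := by
  have h1 := h.deriv_c (aestronglyMeasurable_tl π W) h.tl_bound hg hl
  have h3 : HasDerivAt (fun l : ℝ => Real.exp ((2 - m) * l))
      (Real.exp ((2 - m) * l) * (2 - m)) l := by
    have h4 : HasDerivAt (fun l : ℝ => (2 - m : ℝ) * l) (2 - m) l := by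
      simpa using (hasDerivAt_id l).const_mul (2 - m : ℝ)
    exact h4.exp
  refine (h3.mul h1).congr_deriv ?_
  unfold ee et
  ring

/-- pointwise bound of the derivative of the radial field -/
theorem norm_dR_le' (hg : Prof g g1 g2) (l : ℝ) (x v : Euc m) :
    ‖dR g g1 l x v‖ ≤ g (Real.exp (-2 * l) * ‖v - x‖ ^ 2) +
      (-2 * (Real.exp (-2 * l) * ‖v - x‖ ^ 2 * g1 (Real.exp (-2 * l) * ‖v - x‖ ^ 2))) := by
  set t := Real.exp (-2 * l) * ‖v - x‖ ^ 2 with ht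
  have ht0 : 0 ≤ t := scaled_nonneg l x v
  have hg0 : 0 ≤ g t := Prof.nonneg hg t ht0
  have hg1 : g1 t ≤ 0 := hg.anti t ht0
  have h1 : ‖g t • ContinuousLinearMap.id ℝ (Euc m)‖ ≤ g t := by
    rw [norm_smul, Real.norm_of_nonneg hg0]
    exact mul_le_of_le_one_right hg0 ContinuousLinearMap.norm_id_le
  have h2 : ‖(innerSL ℝ ((2 * Real.exp (-2 * l) * g1 t) • (v - x))).smulRight (v - x)‖ =
      -2 * (t * g1 t) := by
    rw [ContinuousLinearMap.norm_smulRight_apply, innerSL_apply_norm, norm_smul,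
      Real.norm_eq_abs, abs_mul, abs_of_nonneg (by positivity : (0:ℝ) ≤ 2 * Real.exp (-2 * l)),
      abs_of_nonpos hg1, ht]
    ring
  unfold dR
  rw [← ht]
  calc _ ≤ g t + -2 * (t * g1 t) := (norm_add_le _ _).trans (add_le_add h1 h2.le)

/-- pointwise bound of the radial field -/
theorem norm_R_le' (hg : Prof g g1 g2) (l : ℝ) (x v : Euc m) :
    ‖g (Real.exp (-2 * l) * ‖v - x‖ ^ 2) • (v - x)‖ ≤
      Real.exp l * g (Real.exp (-2 * l) * ‖v - x‖ ^ 2) := by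
  have hg0 : 0 ≤ g (Real.exp (-2 * l) * ‖v - x‖ ^ 2) := Prof.nonneg hg _ (scaled_nonneg l x v)
  rw [norm_smul, Real.norm_of_nonneg hg0, mul_comm]
  rcases le_or_gt (Real.exp l) ‖v - x‖ with h1 | h1
  · rw [hg.k0.zero _ (Ker.one_le_of x h1), mul_zero, mul_zero]
  · exact mul_le_mul_of_nonneg_right h1.le hg0

/-- the weight `(1+s) g(t) - 2 t g1(t)` vanishes off the ball and is at most `(3 + s) K` -/
theorem wgt_le (hg : Prof g g1 g2) {K : ℝ} (hK : Bd g g1 K) (l : ℝ) (x v : Euc m) :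
    0 ≤ (1 + Real.exp l) * g (Real.exp (-2 * l) * ‖v - x‖ ^ 2) +
      (-2 * (Real.exp (-2 * l) * ‖v - x‖ ^ 2 * g1 (Real.exp (-2 * l) * ‖v - x‖ ^ 2))) ∧
    (1 + Real.exp l) * g (Real.exp (-2 * l) * ‖v - x‖ ^ 2) +
      (-2 * (Real.exp (-2 * l) * ‖v - x‖ ^ 2 * g1 (Real.exp (-2 * l) * ‖v - x‖ ^ 2))) ≤
      (3 + Real.exp l) * K := by
  set t := Real.exp (-2 * l) * ‖v - x‖ ^ 2 with ht
  have ht0 : 0 ≤ t := scaled_nonneg l x v
  have hg0 : 0 ≤ g t := Prof.nonneg hg t ht0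
  have hg1 : g1 t ≤ 0 := hg.anti t ht0
  have hs := Real.exp_pos l
  have h1 := hK.b0 t ht0
  have h2 := hK.b2 t ht0
  rw [abs_of_nonneg hg0] at h1
  rw [abs_le] at h2
  have h3 : t * g1 t ≤ 0 := mul_nonpos_of_nonneg_of_nonpos ht0 hg1
  constructor
  · nlinarith [mul_nonneg hs.le hg0]
  · have h4 : (1 + Real.exp l) * g t ≤ (1 + Real.exp l) * K :=
      mul_le_mul_of_nonneg_left h1 (by positivity)
    nlinarith [h2.1]

namespace CylAS

theorem hasDerivAt_ee (h : CylAS W π κ x₀ R h₀ δ) (hg : Ker g g1) (l : ℝ) :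
    HasDerivAt (ee W π x g) ((2 - m) * ee W π x g l + et W π x g1 l) l :=
  Asl_214.hasDerivAt_ee (h.fr x (l + 1)) hg (by linarith : l < l + 1)

theorem et_nonneg (h : CylAS W π κ x₀ R h₀ δ) (hg : Prof g g1 g2) (x : Euc m) (l : ℝ) :
    0 ≤ et W π x g1 l := by
  unfold et
  refine mul_nonneg (Real.exp_pos _).le (integral_nonneg_of_ae ?_)
  filter_upwards [h.tl_nonneg'] with p hp
  have h1 := hg.anti _ (scaled_nonneg l x (π p.1))
  have h2 := mul_nonpos_of_nonneg_of_nonpos (scaled_nonneg l x (π p.1)) h1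
  exact mul_nonneg hp (by linarith)

theorem ee_nonneg (h : CylAS W π κ x₀ R h₀ δ) (hg : Prof g g1 g2) (x : Euc m) (l : ℝ) :
    0 ≤ ee W π x g l := by
  unfold ee
  refine mul_nonneg (Real.exp_pos _).le (integral_nonneg_of_ae ?_)
  filter_upwards [h.tl_nonneg'] with p hp
  exact mul_nonneg hp (Prof.nonneg hg _ (scaled_nonneg l x (π p.1)))

theorem RR_nonneg (h : CylAS W π κ x₀ R h₀ δ) (hg : Prof g g1 g2) (x : Euc m) (l : ℝ) :
    0 ≤ RR W π x g1 l := by
  unfold RR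
  refine mul_nonneg (Real.exp_pos _).le (integral_nonneg_of_ae ?_)
  filter_upwards [h.conc] with p hp
  have := hg.anti (Real.exp (-2 * l) * ‖π p.1 - x‖ ^ 2) (by positivity)
  exact mul_nonneg (qf_nonneg h.sp.hh (isPr_of_G hp) _) (by linarith)

/-- continuous kernels against continuous coefficients -/
theorem int_ck (h : CylAS W π κ x₀ R h₀ δ) {c : Euc k × L k → ℝ} (hc : Continuous c) {f : ℝ → ℝ}
    (hf : Continuous f) (x : Euc m) (l : ℝ) :
    Integrable (fun p => c p * f (Real.exp (-2 * l) * ‖π p.1 - x‖ ^ 2)) W := by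
  refine h.integrable_continuous (hc.mul (hf.comp ?_))
  exact continuous_const.mul (((π.continuous.comp continuous_fst).sub
    continuous_const).norm.pow 2)

/-- the radial energy is at most `et` -/
theorem RR_le_et (h : CylAS W π κ x₀ R h₀ δ) (hg : Prof g g1 g2) (x : Euc m) (l : ℝ) :
    RR W π x g1 l ≤ et W π x g1 l := by
  unfold RR et
  have h6 : Real.exp (-m * l) = Real.exp ((2 - m) * l) * Real.exp (-2 * l) := by
    rw [← Real.exp_add]; congr 1; ring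
  rw [h6, mul_assoc]
  refine mul_le_mul_of_nonneg_left ?_ (Real.exp_pos _).le
  rw [← integral_const_mul]
  have i1 : Integrable (fun p : Euc k × L k => Real.exp (-2 * l) * (qf π p.2 (π p.1 - x) *
      (-2 * g1 (Real.exp (-2 * l) * ‖π p.1 - x‖ ^ 2)))) W :=
    (h.int_ck (continuous_qf π x) (continuous_const.mul hg.k0.cont) x l).const_mul _
  have i2 : Integrable (fun p : Euc k × L k => tl π p.2 *
      (-2 * (Real.exp (-2 * l) * ‖π p.1 - x‖ ^ 2 *
        g1 (Real.exp (-2 * l) * ‖π p.1 - x‖ ^ 2)))) W :=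
    h.int_ck (f := fun t => -2 * (t * g1 t)) (continuous_tl π)
      (continuous_const.mul (continuous_id.mul hg.k0.cont)) x l
  refine integral_mono_ae i1 i2 ?_
  filter_upwards [h.conc] with p hp
  have h1 := qf_le_tl h.sp hp (π p.1 - x)
  have h2 := hg.anti _ (scaled_nonneg l x (π p.1))
  have h3 : 0 ≤ Real.exp (-2 * l) * (-2 * g1 (Real.exp (-2 * l) * ‖π p.1 - x‖ ^ 2)) :=
    mul_nonneg (Real.exp_pos _).le (by linarith)
  have h4 := mul_le_mul_of_nonneg_right h1 h3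
  nlinarith [h4]

/-- **sharp error of (W1)**, integral form -/
theorem FV1_sharp (h : CylAS W π κ x₀ R h₀ δ) (h0 : 0 ≤ δ) (hg : Prof g g1 g2)
    {K : ℝ} (hK : Bd g g1 K) {l : ℝ} (hl : ‖x - x₀‖ + Real.exp l ≤ R) :
    Real.exp ((2 - m) * l) * |FV W (X1 π x g l)| ≤
      δ * ((1 + Real.exp l) * ee W π x g l + et W π x g1 l) +
        δ * ((3 + Real.exp l) * K) * (h₀ ^ 2 * Real.exp l ^ 2 * mb W π x l) := by
  have : IsFiniteMeasure W := ⟨h.fin⟩
  have hzR : ∀ v, R ≤ ‖v - x₀‖ → Real.exp l ≤ ‖v - x‖ := by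
    intro v hv
    have h1 : ‖v - x₀‖ ≤ ‖v - x‖ + ‖x - x₀‖ := norm_sub_le_norm_sub_add_norm_sub v x x₀
    linarith
  have h1 := h.fv_hor h0 (f := fun _ => (1:ℝ)) (df := fun _ => 0)
    (fun y => hasFDerivAt_const _ _) continuous_const (hasFDerivAt_R hg.k0 l x)
    (continuous_dR hg.k0 l x)
    (fun v hv => by rw [hg.k0.zero _ (Ker.one_le_of x (hzR v hv)), zero_smul])
  have hX : (fun p => (fun _ => (1:ℝ)) (κ p) • ContinuousLinearMap.adjoint π
      ((fun v : Euc m => g (Real.exp (-2 * l) * ‖v - x‖ ^ 2) • (v - x)) (π p))) = X1 π x g l := rfl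
  rw [hX] at h1
  -- the weight
  set w : Euc m → ℝ := fun v => (1 + Real.exp l) * g (Real.exp (-2 * l) * ‖v - x‖ ^ 2) +
      (-2 * (Real.exp (-2 * l) * ‖v - x‖ ^ 2 * g1 (Real.exp (-2 * l) * ‖v - x‖ ^ 2))) with hw
  have i1 : Integrable (fun p : Euc k × L k => tl π p.2 *
      g (Real.exp (-2 * l) * ‖π p.1 - x‖ ^ 2)) W :=
    h.int_ck (continuous_tl π) hg.k0.continuous x l
  have i2 : Integrable (fun p : Euc k × L k => tl π p.2 *
      (-2 * (Real.exp (-2 * l) * ‖π p.1 - x‖ ^ 2 *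
        g1 (Real.exp (-2 * l) * ‖π p.1 - x‖ ^ 2)))) W :=
    h.int_ck (f := fun t => -2 * (t * g1 t)) (continuous_tl π)
      (continuous_const.mul (continuous_id.mul hg.k0.cont)) x l
  have i3 : Integrable (fun p : Euc k × L k =>
      (ovr π x (Real.exp l)).indicator (fun _ => (3 + Real.exp l) * K * h₀ ^ 2) p) W :=
    (integrable_const _).indicator (measurableSet_ovr π x _)
  have i12 : Integrable (fun p : Euc k × L k => (1 + Real.exp l) * (tl π p.2 *
      g (Real.exp (-2 * l) * ‖π p.1 - x‖ ^ 2)) + tl π p.2 *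
      (-2 * (Real.exp (-2 * l) * ‖π p.1 - x‖ ^ 2 *
        g1 (Real.exp (-2 * l) * ‖π p.1 - x‖ ^ 2)))) W := (i1.const_mul _).add i2
  have h2 : |FV W (X1 π x g l)| ≤ ∫ p, (δ * ((1 + Real.exp l) * (tl π p.2 *
      g (Real.exp (-2 * l) * ‖π p.1 - x‖ ^ 2)) + tl π p.2 *
      (-2 * (Real.exp (-2 * l) * ‖π p.1 - x‖ ^ 2 *
        g1 (Real.exp (-2 * l) * ‖π p.1 - x‖ ^ 2)))) +
      δ * (ovr π x (Real.exp l)).indicator (fun _ => (3 + Real.exp l) * K * h₀ ^ 2) p) ∂W := by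
    refine h1.trans (integral_mono_of_nonneg ?_
      ((i12.const_mul _).add (i3.const_mul _)) ?_)
    · filter_upwards [h.tl_nonneg'] with p hp
      simp only [Pi.zero_apply]
      positivity
    · filter_upwards [h.tl_nonneg', h.hgt] with p hp hy
      have a1 := norm_dR_le' hg l x (π p.1)
      have a2 := norm_R_le' hg l x (π p.1)
      have a3 : ‖dR g g1 l x (π p.1)‖ + ‖g (Real.exp (-2 * l) * ‖π p.1 - x‖ ^ 2) • (π p.1 - x)‖ ≤
          w (π p.1) := by
        simp only [hw]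
        linarith
      obtain ⟨w0, w1⟩ := wgt_le hg hK l x (π p.1)
      have hy2 : ‖κ p.1‖ ^ 2 ≤ h₀ ^ 2 := pow_le_pow_left₀ (norm_nonneg _) hy 2
      have a4 : ‖κ p.1‖ ^ 2 * w (π p.1) ≤
          (ovr π x (Real.exp l)).indicator (fun _ => (3 + Real.exp l) * K * h₀ ^ 2) p := by
        by_cases hp2 : p ∈ ovr π x (Real.exp l)
        · rw [indicator_of_mem hp2]
          calc ‖κ p.1‖ ^ 2 * w (π p.1) ≤ h₀ ^ 2 * ((3 + Real.exp l) * K) :=
                mul_le_mul hy2 w1 w0 (sq_nonneg _)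
            _ = _ := by ring
        · rw [indicator_of_notMem hp2]
          have h3 : Real.exp l ≤ ‖π p.1 - x‖ := not_lt.1 hp2
          have h4 : w (π p.1) = 0 := by
            simp only [hw]
            rw [hg.k0.zero _ (Ker.one_le_of x h3), hg.k0.zero' _ (Ker.one_le_of x h3)]
            ring
          rw [h4, mul_zero]
      have a5 : (tl π p.2 + ‖κ p.1‖ ^ 2) * (‖dR g g1 l x (π p.1)‖ +
          ‖g (Real.exp (-2 * l) * ‖π p.1 - x‖ ^ 2) • (π p.1 - x)‖) ≤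
          (tl π p.2 + ‖κ p.1‖ ^ 2) * w (π p.1) :=
        mul_le_mul_of_nonneg_left a3 (by positivity)
      simp only [abs_one, one_mul, norm_zero, zero_mul, mul_zero, add_zero]
      calc δ * (tl π p.2 + ‖κ p.1‖ ^ 2) * (‖dR g g1 l x (π p.1)‖ +
          ‖g (Real.exp (-2 * l) * ‖π p.1 - x‖ ^ 2) • (π p.1 - x)‖) ≤
          δ * ((tl π p.2 + ‖κ p.1‖ ^ 2) * w (π p.1)) := by
            rw [mul_assoc]; exact mul_le_mul_of_nonneg_left a5 h0
        _ = δ * (tl π p.2 * w (π p.1)) + δ * (‖κ p.1‖ ^ 2 * w (π p.1)) := by ring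
        _ ≤ δ * (tl π p.2 * w (π p.1)) + δ * (ovr π x (Real.exp l)).indicator
            (fun _ => (3 + Real.exp l) * K * h₀ ^ 2) p :=
            add_le_add le_rfl (mul_le_mul_of_nonneg_left a4 h0)
        _ = _ := by simp only [hw]; ring
  have h3 : ∫ p, (δ * ((1 + Real.exp l) * (tl π p.2 *
      g (Real.exp (-2 * l) * ‖π p.1 - x‖ ^ 2)) + tl π p.2 *
      (-2 * (Real.exp (-2 * l) * ‖π p.1 - x‖ ^ 2 *
        g1 (Real.exp (-2 * l) * ‖π p.1 - x‖ ^ 2)))) +
      δ * (ovr π x (Real.exp l)).indicator (fun _ => (3 + Real.exp l) * K * h₀ ^ 2) p) ∂W =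
      δ * ((1 + Real.exp l) * (∫ p, tl π p.2 * g (Real.exp (-2 * l) * ‖π p.1 - x‖ ^ 2) ∂W) +
        ∫ p, tl π p.2 * (-2 * (Real.exp (-2 * l) * ‖π p.1 - x‖ ^ 2 *
          g1 (Real.exp (-2 * l) * ‖π p.1 - x‖ ^ 2))) ∂W) +
      δ * ((3 + Real.exp l) * K * h₀ ^ 2 * MB W π x (Real.exp l)) := by
    rw [integral_add (i12.const_mul _) (i3.const_mul _),
      integral_const_mul, integral_add (i1.const_mul _) i2, integral_const_mul,
      integral_const_mul, integral_indicator (measurableSet_ovr π x _), integral_const]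
    simp only [Measure.real, Measure.restrict_apply_univ, smul_eq_mul]
    unfold MB
    ring
  rw [h3, MB_eq] at h2
  have e2 : Real.exp ((2 - m) * l) * Real.exp (m * l) = Real.exp l ^ 2 := by
    rw [← Real.exp_add, ← Real.exp_nat_mul]
    congr 1; push_cast; ring
  calc Real.exp ((2 - m) * l) * |FV W (X1 π x g l)| ≤ Real.exp ((2 - m) * l) * _ :=
        mul_le_mul_of_nonneg_left h2 (Real.exp_pos _).le
    _ = δ * ((1 + Real.exp l) * ee W π x g l + et W π x g1 l) +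
        δ * ((3 + Real.exp l) * K) * (h₀ ^ 2 * (Real.exp ((2 - m) * l) * Real.exp (m * l)) *
          mb W π x l) := by unfold ee et; ring
    _ = _ := by rw [e2]

/-- **sharp error of (W1)** -/
theorem rho1_sharp (h : CylAS W π κ x₀ R h₀ δ) (h0 : 0 ≤ δ) (hg : Prof g g1 g2)
    {K : ℝ} (hK : Bd g g1 K) {l : ℝ} (hl : ‖x - x₀‖ + Real.exp l ≤ R) (hl0 : l ≤ 0) :
    |rho1 W π x g l| ≤ 2 * δ * (ee W π x g l + et W π x g1 l) +
        4 * K * δ * (h₀ ^ 2 * Real.exp l ^ 2 * mb W π x l) := by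
  have h1 := h.FV1_sharp h0 hg hK hl
  have hs : Real.exp l ≤ 1 := Real.exp_le_one_iff.2 hl0
  have hK0 := hK.nonneg
  have hm := mb_nonneg (W := W) (π := π) x l
  have he := h.ee_nonneg hg x l
  have het := h.et_nonneg hg x l
  unfold rho1
  rw [abs_neg, abs_mul, abs_of_pos (Real.exp_pos _)]
  refine h1.trans (add_le_add ?_ ?_)
  · have a1 : (1 + Real.exp l) * ee W π x g l + et W π x g1 l ≤
        2 * (ee W π x g l + et W π x g1 l) := by nlinarith
    calc _ ≤ δ * (2 * (ee W π x g l + et W π x g1 l)) := mul_le_mul_of_nonneg_left a1 h0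
      _ = _ := by ring
  · calc δ * ((3 + Real.exp l) * K) * (h₀ ^ 2 * Real.exp l ^ 2 * mb W π x l) ≤
          δ * ((3 + 1) * K) * (h₀ ^ 2 * Real.exp l ^ 2 * mb W π x l) := by gcongr
      _ = _ := by ring

end CylAS

end Crest.Agent.R234.Asl_214
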