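import Crest.Agent.R234.Asl7_214

/-!
# Row 234, VF-ASL, part 8 (helper214)

Sharp weighted error of (W3) (helper98 #6717):
`s^{-m} |FV X3| ≤ (δ/2) √(et IF) + δ h₀ s √(K mb) √(IF/2) + (terms with the factor F₀)`, and
`IF' = 2 fl + err3 + f3`, `fl² ≤ IF RR`.
-/

set_option autoImplicit false

open MeasureTheory Set Function Filter Topology
open Crest.GeometryTopology.Submanifold
open Crest.Agent.R234.Vf_884 Crest.Agent.R234.Ar_870 Crest.Agent.R234.Cy_870
open Crest.Agent.R234.AS_456 (AS errA err hp vp)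
open scoped ENNReal NNReal InnerProductSpace

noncomputable section

namespace Crest.Agent.R234.Asl_214

variable {m n k : ℕ} {π : Euc k →L[ℝ] Euc m} {κ : Euc k →L[ℝ] Euc n} {δ : ℝ}
  {x₀ x : Euc m} {R h₀ : ℝ} {W : Measure (Euc k × L k)} {g g1 g2 : ℝ → ℝ}
  {F : Euc n → ℝ} {dF : Euc n → Euc n} {H : Euc n → L n}

/-- the error of (W3) without the vertical field -/
def f3 (W : Measure (Euc k × L k)) (π : Euc k →L[ℝ] Euc m) (κ : Euc k →L[ℝ] Euc n) (x : Euc m)
    (F : Euc n → ℝ) (g1 : ℝ → ℝ) (l : ℝ) : ℝ :=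
  4 * Real.exp (-m * l) * FV W (X3 π κ x F g1 l)

/-- the flux `eF - s^{2-m} FV X2` -/
def fl (W : Measure (Euc k × L k)) (π : Euc k →L[ℝ] Euc m) (κ : Euc k →L[ℝ] Euc n) (x : Euc m)
    (dF : Euc n → Euc n) (H : Euc n → L n) (g : ℝ → ℝ) (l : ℝ) : ℝ :=
  eF W π κ x H g l - rho2 W π κ x dF g l

namespace CylAS

/-- **(W3)** in flux form -/
theorem W3' (h : CylAS W π κ x₀ R h₀ δ) (hF : Well F dF H) (hg : Prof g g1 g2) (l : ℝ) :
    HasDerivAt (IF W π κ x F g1)
      (2 * fl W π κ x dF H g l + err3 W π κ x F g1 g2 l + f3 W π κ x F g1 l) l := by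
  refine (h.W3 hF hg l).congr_deriv ?_
  unfold fl rho3 f3 rho2
  ring

/-- **(W2)** in flux form -/
theorem W2' (h : CylAS W π κ x₀ R h₀ δ) (hF : Well F dF H) (hg : Prof g g1 g2) (l : ℝ) :
    fl W π κ x dF H g l ^ 2 ≤ IF W π κ x F g1 l * RR W π x g1 l :=
  h.W2 hF hg l

/-- **sharp error of (W3)** -/
theorem x3_sharp (h : CylAS W π κ x₀ R h₀ δ) (h0 : 0 ≤ δ) (hh : 0 ≤ h₀) (hg : Prof g g1 g2)
    {K : ℝ} (hK : Bd g1 g2 K) (hF : Well F dF H) {F₀ : ℝ} (hF₀ : ∀ y, ‖y‖ ≤ h₀ → F y ≤ F₀)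
    {l : ℝ} (hl : ‖x - x₀‖ + Real.exp l ≤ R) :
    Real.exp (-m * l) * |FV W (X3 π κ x F g1 l)| ≤
      δ * F₀ * ((3 + Real.exp l) * K) * (Real.exp (-2 * l) * tb W π x l + h₀ ^ 2 * mb W π x l) +
      δ / 2 * √(et W π x g1 l * IF W π κ x F g1 l) +
      δ * h₀ * Real.exp l * √(K * mb W π x l) * √(IF W π κ x F g1 l / 2) := by
  have : IsFiniteMeasure W := ⟨h.fin⟩
  have hK0 := hK.nonneg
  have hF0 : 0 ≤ F₀ := (hF.nonneg 0).trans (hF₀ 0 (by simpa using hh))
  have hs := Real.exp_pos l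
  have hzR : ∀ v, R ≤ ‖v - x₀‖ → Real.exp l ≤ ‖v - x‖ := by
    intro v hv
    have h1 : ‖v - x₀‖ ≤ ‖v - x‖ + ‖x - x₀‖ := norm_sub_le_norm_sub_add_norm_sub v x x₀
    linarith
  have h1 := h.fv_hor h0 hF.hasF ((innerSL ℝ).continuous.comp hF.contdF)
    (hasFDerivAt_R hg.k1 l x) (continuous_dR hg.k1 l x)
    (fun v hv => by rw [hg.k1.zero _ (Ker.one_le_of x (hzR v hv)), zero_smul])
  have hX : (fun p => F (κ p) • ContinuousLinearMap.adjoint π
      ((fun v : Euc m => g1 (Real.exp (-2 * l) * ‖v - x‖ ^ 2) • (v - x)) (π p))) =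
      X3 π κ x F g1 l := rfl
  rw [hX] at h1
  -- notation
  set u : Euc k × L k → ℝ := fun p => -g1 (Real.exp (-2 * l) * ‖π p.1 - x‖ ^ 2) with hu
  have cu : Continuous u := by
    refine (hg.k1.continuous.comp ?_).neg
    exact continuous_const.mul (((π.continuous.comp continuous_fst).sub
      continuous_const).norm.pow 2)
  have u0 : ∀ p, 0 ≤ u p := fun p => by
    have := hg.anti _ (scaled_nonneg l x (π p.1))
    simp only [hu]; linarith
  have uK : ∀ p, u p ≤ K := fun p => by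
    have := hK.b0 _ (scaled_nonneg l x (π p.1))
    rw [abs_of_nonpos (hg.anti _ (scaled_nonneg l x (π p.1)))] at this
    exact this
  have uz : ∀ p, p ∉ ovr π x (Real.exp l) → u p = 0 := fun p hp => by
    have h3 : Real.exp l ≤ ‖π p.1 - x‖ := not_lt.1 hp
    simp only [hu]
    rw [hg.k1.zero _ (Ker.one_le_of x h3), neg_zero]
  set A : Euc k × L k → ℝ := fun p => √(tl π p.2) * (√(u p) * ‖π p.1 - x‖) with hA
  set B : Euc k × L k → ℝ := fun p => √(u p) * √(2 * F (κ p.1)) with hB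
  set C : Euc k × L k → ℝ := fun p => √(u p) with hC
  have cn : Continuous fun p : Euc k × L k => ‖π p.1 - x‖ :=
    ((π.continuous.comp continuous_fst).sub continuous_const).norm
  have cF : Continuous fun p : Euc k × L k => F (κ p.1) :=
    hF.contF.comp (κ.continuous.comp continuous_fst)
  have cC : Continuous C := cu.sqrt
  have cA : Continuous A := (continuous_tl π).sqrt.mul (cC.mul cn)
  have cB : Continuous B := cC.mul (continuous_const.mul cF).sqrt
  have iA2 := h.integrable_continuous (cA.pow 2)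
  have iB2 := h.integrable_continuous (cB.pow 2)
  have iC2 := h.integrable_continuous (cC.pow 2)
  have iAB := h.integrable_continuous (cA.mul cB)
  have iCB := h.integrable_continuous (cC.mul cB)
  have iT : Integrable (fun p : Euc k × L k => tl π p.2) W :=
    h.integrable_continuous (continuous_tl π)
  -- the three integrals
  have eA : ∫ p, A p ^ 2 ∂W = Real.exp (m * l) * et W π x g1 l / 2 := by
    have e1 : Real.exp (m * l) * et W π x g1 l / 2 = ∫ p, Real.exp (2 * l) * (tl π p.2 *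
        (-(Real.exp (-2 * l) * ‖π p.1 - x‖ ^ 2 *
        g1 (Real.exp (-2 * l) * ‖π p.1 - x‖ ^ 2)))) ∂W := by
      rw [integral_const_mul]
      unfold et
      have e2 : ∫ p, tl π p.2 * (-2 * (Real.exp (-2 * l) * ‖π p.1 - x‖ ^ 2 *
          g1 (Real.exp (-2 * l) * ‖π p.1 - x‖ ^ 2))) ∂W = 2 * ∫ p, tl π p.2 *
          (-(Real.exp (-2 * l) * ‖π p.1 - x‖ ^ 2 *
          g1 (Real.exp (-2 * l) * ‖π p.1 - x‖ ^ 2))) ∂W := by
        rw [← integral_const_mul]
        refine integral_congr_ae (Eventually.of_forall fun p => ?_)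
        simp only
        ring
      rw [e2]
      have e3 : Real.exp (m * l) * Real.exp ((2 - m) * l) = Real.exp (2 * l) := by
        rw [← Real.exp_add]; congr 1; ring
      rw [← e3]
      ring
    rw [e1]
    refine integral_congr_ae ?_
    filter_upwards [h.tl_nonneg'] with p hp
    simp only [hA]
    rw [mul_pow, mul_pow, Real.sq_sqrt hp, Real.sq_sqrt (u0 p)]
    have e3 : Real.exp (2 * l) * Real.exp (-2 * l) = 1 := by
      rw [← Real.exp_add]
      have : 2 * l + -2 * l = 0 := by ring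
      rw [this, Real.exp_zero]
    simp only [hu]
    linear_combination (tl π p.2 * ‖π p.1 - x‖ ^ 2 *
      g1 (Real.exp (-2 * l) * ‖π p.1 - x‖ ^ 2)) * e3
  have eB : ∫ p, B p ^ 2 ∂W = Real.exp (m * l) * IF W π κ x F g1 l / 2 := by
    have e1 : Real.exp (m * l) * IF W π κ x F g1 l / 2 = ∫ p, 2 * (F (κ p.1) *
        (-g1 (Real.exp (-2 * l) * ‖π p.1 - x‖ ^ 2))) ∂W := by
      rw [integral_const_mul]
      unfold IF
      have e2 : ∫ p, F (κ p.1) * (-4 * g1 (Real.exp (-2 * l) * ‖π p.1 - x‖ ^ 2)) ∂W =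
          4 * ∫ p, F (κ p.1) * (-g1 (Real.exp (-2 * l) * ‖π p.1 - x‖ ^ 2)) ∂W := by
        rw [← integral_const_mul]
        refine integral_congr_ae (Eventually.of_forall fun p => ?_)
        simp only
        ring
      rw [e2]
      have e3 : Real.exp (m * l) * Real.exp (-m * l) = 1 := by
        rw [← Real.exp_add]
        have : (m : ℝ) * l + -m * l = 0 := by ring
        rw [this, Real.exp_zero]
      linear_combination (2 * ∫ p, F (κ p.1) *
        (-g1 (Real.exp (-2 * l) * ‖π p.1 - x‖ ^ 2)) ∂W) * e3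
    rw [e1]
    refine integral_congr_ae (Eventually.of_forall fun p => ?_)
    simp only [hB]
    rw [mul_pow, Real.sq_sqrt (u0 p), Real.sq_sqrt (by have := hF.nonneg (κ p.1); positivity)]
    simp only [hu]
    ring
  have eC : ∫ p, C p ^ 2 ∂W ≤ K * MB W π x (Real.exp l) := by
    have e1 : K * MB W π x (Real.exp l) =
        ∫ p, (ovr π x (Real.exp l)).indicator (fun _ => K) p ∂W := by
      rw [integral_indicator (measurableSet_ovr π x _), integral_const]
      simp only [Measure.real, Measure.restrict_apply_univ, smul_eq_mul]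
      unfold MB
      ring
    rw [e1]
    refine integral_mono iC2 ((integrable_const _).indicator (measurableSet_ovr π x _))
      fun p => ?_
    simp only [hC]
    rw [Real.sq_sqrt (u0 p)]
    by_cases hp2 : p ∈ ovr π x (Real.exp l)
    · rw [indicator_of_mem hp2]; exact uK p
    · rw [indicator_of_notMem hp2, uz p hp2]
  have hIF : 0 ≤ IF W π κ x F g1 l := Cy_870.IF_nonneg hF hg W l
  have het := h.et_nonneg hg x l
  have hmb := mb_nonneg (W := W) (π := π) x l
  have k1 : ∫ p, A p * B p ∂W ≤ Real.exp (m * l) / 2 * √(et W π x g1 l * IF W π κ x F g1 l) := by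
    refine (cs_int iA2 iB2 iAB).trans (le_of_eq ?_)
    rw [eA, eB, ← Real.sqrt_mul (by positivity)]
    have : Real.exp (m * l) * et W π x g1 l / 2 * (Real.exp (m * l) * IF W π κ x F g1 l / 2) =
        (Real.exp (m * l) / 2) ^ 2 * (et W π x g1 l * IF W π κ x F g1 l) := by ring
    rw [this, Real.sqrt_mul (by positivity), Real.sqrt_sq (by positivity)]
  have k2 : ∫ p, C p * B p ∂W ≤ Real.exp (m * l) * (√(K * mb W π x l) *
      √(IF W π κ x F g1 l / 2)) := by
    have a1 : √(∫ p, C p ^ 2 ∂W) ≤ √(Real.exp (m * l)) * √(K * mb W π x l) := by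
      rw [← Real.sqrt_mul (Real.exp_pos _).le]
      refine Real.sqrt_le_sqrt (eC.trans (le_of_eq ?_))
      rw [MB_eq]; ring
    have a2 : √(∫ p, B p ^ 2 ∂W) = √(Real.exp (m * l)) * √(IF W π κ x F g1 l / 2) := by
      rw [← Real.sqrt_mul (Real.exp_pos _).le, eB]
      congr 1; ring
    refine (cs_int iC2 iB2 iCB).trans ?_
    rw [a2]
    have a3 : √(Real.exp (m * l)) * √(Real.exp (m * l)) = Real.exp (m * l) :=
      Real.mul_self_sqrt (Real.exp_pos _).le
    calc √(∫ p, C p ^ 2 ∂W) * (√(Real.exp (m * l)) * √(IF W π κ x F g1 l / 2)) ≤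
          (√(Real.exp (m * l)) * √(K * mb W π x l)) *
          (√(Real.exp (m * l)) * √(IF W π κ x F g1 l / 2)) :=
          mul_le_mul_of_nonneg_right a1 (by positivity)
      _ = (√(Real.exp (m * l)) * √(Real.exp (m * l))) * (√(K * mb W π x l) *
          √(IF W π κ x F g1 l / 2)) := by ring
      _ = _ := by rw [a3]
  -- pointwise
  have iI : Integrable (fun p : Euc k × L k => (ovr π x (Real.exp l)).indicator
      (fun p => F₀ * ((3 + Real.exp l) * K) * (tl π p.2 + h₀ ^ 2)) p) W := by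
    refine Integrable.indicator ?_ (measurableSet_ovr π x _)
    exact (iT.add (integrable_const _)).const_mul _
  have h2 : |FV W (X3 π κ x F g1 l)| ≤ ∫ p, (δ * (ovr π x (Real.exp l)).indicator
      (fun p => F₀ * ((3 + Real.exp l) * K) * (tl π p.2 + h₀ ^ 2)) p +
      (δ * (A p * B p) + δ * h₀ * Real.exp l * (C p * B p))) ∂W := by
    refine h1.trans (integral_mono_of_nonneg ?_
      ((iI.const_mul _).add ((iAB.const_mul _).add (iCB.const_mul _))) ?_)
    · filter_upwards [h.tl_nonneg'] with p hp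
      simp only [Pi.zero_apply]
      positivity
    · filter_upwards [h.tl_nonneg', h.hgt] with p hp hy
      have hy2 : ‖κ p.1‖ ^ 2 ≤ h₀ ^ 2 := pow_le_pow_left₀ (norm_nonneg _) hy 2
      have hFp := hF.nonneg (κ p.1)
      have nR : ‖g1 (Real.exp (-2 * l) * ‖π p.1 - x‖ ^ 2) • (π p.1 - x)‖ =
          u p * ‖π p.1 - x‖ := by
        rw [norm_smul, Real.norm_eq_abs, abs_of_nonpos (hg.anti _ (scaled_nonneg l x (π p.1)))]
      have nR2 : ‖g1 (Real.exp (-2 * l) * ‖π p.1 - x‖ ^ 2) • (π p.1 - x)‖ ≤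
          K * Real.exp l := norm_R_le hg.k1 hK l x (π p.1)
      have nF : ‖(innerSL ℝ) (dF (κ p.1))‖ ≤ √(2 * F (κ p.1)) := by
        rw [innerSL_apply_norm]
        exact Real.le_sqrt_of_sq_le (hF.grad _)
      have b1 : δ * (tl π p.2 + ‖κ p.1‖ ^ 2) * (|F (κ p.1)| * (‖dR g1 g2 l x (π p.1)‖ +
          ‖g1 (Real.exp (-2 * l) * ‖π p.1 - x‖ ^ 2) • (π p.1 - x)‖)) ≤
          δ * (ovr π x (Real.exp l)).indicator
          (fun p => F₀ * ((3 + Real.exp l) * K) * (tl π p.2 + h₀ ^ 2)) p := by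
        rw [mul_assoc]
        refine mul_le_mul_of_nonneg_left ?_ h0
        by_cases hp2 : p ∈ ovr π x (Real.exp l)
        · rw [indicator_of_mem hp2, abs_of_nonneg hFp]
          have c1 : F (κ p.1) * (‖dR g1 g2 l x (π p.1)‖ +
              ‖g1 (Real.exp (-2 * l) * ‖π p.1 - x‖ ^ 2) • (π p.1 - x)‖) ≤
              F₀ * ((3 + Real.exp l) * K) := by
            refine mul_le_mul (hF₀ _ hy) ?_ (by positivity) hF0
            have := norm_dR_le hK l x (π p.1)
            linarith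
          calc (tl π p.2 + ‖κ p.1‖ ^ 2) * (F (κ p.1) * (‖dR g1 g2 l x (π p.1)‖ +
              ‖g1 (Real.exp (-2 * l) * ‖π p.1 - x‖ ^ 2) • (π p.1 - x)‖)) ≤
              (tl π p.2 + h₀ ^ 2) * (F₀ * ((3 + Real.exp l) * K)) :=
                mul_le_mul (by linarith) c1 (by positivity) (by positivity)
            _ = _ := by ring
        · have h3 : Real.exp l ≤ ‖π p.1 - x‖ := not_lt.1 hp2
          rw [indicator_of_notMem hp2, dR_zero hg.k1 h3,
            hg.k1.zero _ (Ker.one_le_of x h3)]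
          simp
      have b2 : δ * (√(tl π p.2) + ‖κ p.1‖) * (‖(innerSL ℝ) (dF (κ p.1))‖ *
          ‖g1 (Real.exp (-2 * l) * ‖π p.1 - x‖ ^ 2) • (π p.1 - x)‖) ≤
          δ * (A p * B p) + δ * h₀ * Real.exp l * (C p * B p) := by
        rw [nR]
        have hsu : √(u p) * √(u p) = u p := Real.mul_self_sqrt (u0 p)
        have c1 : ‖(innerSL ℝ) (dF (κ p.1))‖ * (u p * ‖π p.1 - x‖) ≤
            √(2 * F (κ p.1)) * (u p * ‖π p.1 - x‖) :=
          mul_le_mul_of_nonneg_right nF (mul_nonneg (u0 p) (norm_nonneg _))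
        have c2 : u p * ‖π p.1 - x‖ ≤ u p * Real.exp l := by
          by_cases hp2 : p ∈ ovr π x (Real.exp l)
          · exact mul_le_mul_of_nonneg_left (le_of_lt hp2) (u0 p)
          · rw [uz p hp2]; simp
        have c3 : ‖κ p.1‖ * (√(2 * F (κ p.1)) * (u p * ‖π p.1 - x‖)) ≤
            h₀ * (√(2 * F (κ p.1)) * (u p * Real.exp l)) :=
          mul_le_mul hy (mul_le_mul_of_nonneg_left c2 (Real.sqrt_nonneg _))
            (mul_nonneg (Real.sqrt_nonneg _) (mul_nonneg (u0 p) (norm_nonneg _))) hh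
        calc δ * (√(tl π p.2) + ‖κ p.1‖) * (‖(innerSL ℝ) (dF (κ p.1))‖ * (u p * ‖π p.1 - x‖)) ≤
            δ * (√(tl π p.2) + ‖κ p.1‖) * (√(2 * F (κ p.1)) * (u p * ‖π p.1 - x‖)) :=
              mul_le_mul_of_nonneg_left c1 (by positivity)
          _ = δ * (√(tl π p.2) * (√(2 * F (κ p.1)) * (u p * ‖π p.1 - x‖))) +
              δ * (‖κ p.1‖ * (√(2 * F (κ p.1)) * (u p * ‖π p.1 - x‖))) := by ring
          _ ≤ δ * (√(tl π p.2) * (√(2 * F (κ p.1)) * (u p * ‖π p.1 - x‖))) +
              δ * (h₀ * (√(2 * F (κ p.1)) * (u p * Real.exp l))) :=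
              add_le_add le_rfl (mul_le_mul_of_nonneg_left c3 h0)
          _ = _ := by
              simp only [hA, hB, hC]
              linear_combination (-(δ * √(tl π p.2) * √(2 * F (κ p.1)) * ‖π p.1 - x‖ +
                δ * h₀ * √(2 * F (κ p.1)) * Real.exp l)) * hsu
      exact add_le_add b1 b2
  have h3 : ∫ p, (δ * (ovr π x (Real.exp l)).indicator
      (fun p => F₀ * ((3 + Real.exp l) * K) * (tl π p.2 + h₀ ^ 2)) p +
      (δ * (A p * B p) + δ * h₀ * Real.exp l * (C p * B p))) ∂W =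
      δ * (F₀ * ((3 + Real.exp l) * K) * (TB W π x (Real.exp l) +
        h₀ ^ 2 * MB W π x (Real.exp l))) +
      (δ * (∫ p, A p * B p ∂W) + δ * h₀ * Real.exp l * ∫ p, C p * B p ∂W) := by
    have e0 : ∫ p, (δ * (ovr π x (Real.exp l)).indicator
        (fun p => F₀ * ((3 + Real.exp l) * K) * (tl π p.2 + h₀ ^ 2)) p +
        (δ * (A p * B p) + δ * h₀ * Real.exp l * (C p * B p))) ∂W =
        (∫ p, δ * (ovr π x (Real.exp l)).indicator
        (fun p => F₀ * ((3 + Real.exp l) * K) * (tl π p.2 + h₀ ^ 2)) p ∂W) +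
        ∫ p, (δ * (A p * B p) + δ * h₀ * Real.exp l * (C p * B p)) ∂W :=
      integral_add (iI.const_mul _) ((iAB.const_mul _).add (iCB.const_mul _))
    have e1 : ∫ p, (δ * (A p * B p) + δ * h₀ * Real.exp l * (C p * B p)) ∂W =
        (∫ p, δ * (A p * B p) ∂W) + ∫ p, δ * h₀ * Real.exp l * (C p * B p) ∂W :=
      integral_add (iAB.const_mul _) (iCB.const_mul _)
    have e2 : ∫ p in ovr π x (Real.exp l), F₀ * ((3 + Real.exp l) * K) *
        (tl π p.2 + h₀ ^ 2) ∂W = F₀ * ((3 + Real.exp l) * K) * (TB W π x (Real.exp l) +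
        h₀ ^ 2 * MB W π x (Real.exp l)) := by
      rw [integral_const_mul, integral_add iT.restrict (integrable_const _), integral_const]
      simp only [Measure.real, Measure.restrict_apply_univ, smul_eq_mul]
      unfold MB TB
      ring
    rw [e0, e1, integral_const_mul, integral_const_mul, integral_const_mul,
      integral_indicator (measurableSet_ovr π x _), e2]
  rw [h3, TB_eq, MB_eq] at h2
  have q1 : Real.exp (-m * l) * Real.exp ((m - 2) * l) = Real.exp (-2 * l) := by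
    rw [← Real.exp_add]; congr 1; ring
  have q2 : Real.exp (-m * l) * Real.exp (m * l) = 1 := by
    rw [← Real.exp_add]
    have : (-m : ℝ) * l + m * l = 0 := by ring
    rw [this, Real.exp_zero]
  have p1 : Real.exp (-m * l) * ∫ p, A p * B p ∂W ≤
      1 / 2 * √(et W π x g1 l * IF W π κ x F g1 l) := by
    calc _ ≤ Real.exp (-m * l) * _ := mul_le_mul_of_nonneg_left k1 (Real.exp_pos _).le
      _ = (Real.exp (-m * l) * Real.exp (m * l)) * (1 / 2 *
          √(et W π x g1 l * IF W π κ x F g1 l)) := by ring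
      _ = _ := by rw [q2, one_mul]
  have p2 : Real.exp (-m * l) * ∫ p, C p * B p ∂W ≤
      √(K * mb W π x l) * √(IF W π κ x F g1 l / 2) := by
    calc _ ≤ Real.exp (-m * l) * _ := mul_le_mul_of_nonneg_left k2 (Real.exp_pos _).le
      _ = (Real.exp (-m * l) * Real.exp (m * l)) * (√(K * mb W π x l) *
          √(IF W π κ x F g1 l / 2)) := by ring
      _ = _ := by rw [q2, one_mul]
  calc Real.exp (-m * l) * |FV W (X3 π κ x F g1 l)| ≤ Real.exp (-m * l) * _ :=
        mul_le_mul_of_nonneg_left h2 (Real.exp_pos _).le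
    _ = δ * F₀ * ((3 + Real.exp l) * K) * ((Real.exp (-m * l) * Real.exp ((m - 2) * l)) *
          tb W π x l + h₀ ^ 2 * ((Real.exp (-m * l) * Real.exp (m * l)) * mb W π x l)) +
        δ * (Real.exp (-m * l) * ∫ p, A p * B p ∂W) +
        δ * h₀ * Real.exp l * (Real.exp (-m * l) * ∫ p, C p * B p ∂W) := by ring
    _ ≤ δ * F₀ * ((3 + Real.exp l) * K) * ((Real.exp (-m * l) * Real.exp ((m - 2) * l)) *
          tb W π x l + h₀ ^ 2 * ((Real.exp (-m * l) * Real.exp (m * l)) * mb W π x l)) +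
        δ * (1 / 2 * √(et W π x g1 l * IF W π κ x F g1 l)) +
        δ * h₀ * Real.exp l * (√(K * mb W π x l) * √(IF W π κ x F g1 l / 2)) := by
        gcongr
    _ = _ := by rw [q1, q2]; ring

end CylAS

end Crest.Agent.R234.Asl_214
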