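import Crest.Agent.R234.Cy4_870

/-!
# Row 234, VF-AVG, part 1 (helper387)

Averages over centres `x - h` with a continuous weight `d ≥ 0` supported in `‖h‖ ≤ τ` of the weighted
frame (W1)-(W3) of helper870 (`Cy3`, `Cy4`): joint continuity in (centre, `l`), differentiation under the
average, Cauchy-Schwarz.
-/

set_option autoImplicit false

open MeasureTheory Set Function Filter Topology Metric
open Crest.GeometryTopology.Submanifold
open Crest.Agent.R234.Vf_884 Crest.Agent.R234.Ar_870 Crest.Agent.R234.Cy_870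
open scoped ENNReal NNReal InnerProductSpace

noncomputable section

namespace Crest.Agent.R234.Avg_387

variable {m n k : ℕ}

/-! ### weights and averages -/

/-- weights on centres -/
structure CW (d : Euc m → ℝ) (τ : ℝ) : Prop where
  cont : Continuous d
  nonneg : ∀ h, 0 ≤ d h
  zero : ∀ h, τ < ‖h‖ → d h = 0

/-- average over the centres `x - h` with weight `d` (not normalised) -/
def av (d : Euc m → ℝ) (q : Euc m → ℝ → ℝ) (x : Euc m) (l : ℝ) : ℝ := ∫ h, d h * q (x - h) l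

/-- joint continuity in centre and logarithmic scale -/
def CO (x : Euc m) (τ L₀ : ℝ) (q : Euc m → ℝ → ℝ) : Prop :=
  ContinuousOn (uncurry q) (closedBall x τ ×ˢ Iio L₀)

variable {d : Euc m → ℝ} {τ L₀ L₁ : ℝ} {x : Euc m} {q q' q1 q2 q3 : Euc m → ℝ → ℝ}

theorem CW.zero' (hd : CW d τ) {h : Euc m} (hh : h ∉ closedBall (0 : Euc m) τ) : d h = 0 :=
  hd.zero h (by simpa using hh)

theorem sub_mem {h : Euc m} (hh : h ∈ closedBall (0 : Euc m) τ) : x - h ∈ closedBall x τ := by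
  rw [mem_closedBall_iff_norm]
  simpa using hh

theorem CW.integrable (hd : CW d τ) {f : Euc m → ℝ} (hf : ContinuousOn f (closedBall 0 τ)) :
    Integrable (fun h => d h * f h) := by
  have h1 : IntegrableOn (fun h => d h * f h) (closedBall (0 : Euc m) τ) :=
    (hd.cont.continuousOn.mul hf).integrableOn_compact (isCompact_closedBall _ _)
  refine (integrableOn_iff_integrable_of_support_subset ?_).1 h1
  intro h hh
  by_contra hcon
  exact hh (by simp only [hd.zero' hcon, zero_mul])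

theorem CO.slice (h : CO x τ L₀ q) {l : ℝ} (hl : l < L₀) :
    ContinuousOn (fun h => q (x - h) l) (closedBall (0 : Euc m) τ) := by
  have h1 : ContinuousOn (fun h : Euc m => (x - h, l)) (closedBall (0 : Euc m) τ) := by fun_prop
  exact ContinuousOn.comp (g := uncurry q) h h1 fun y hy => ⟨sub_mem hy, hl⟩

theorem CO.integrable (h : CO x τ L₀ q) (hd : CW d τ) {l : ℝ} (hl : l < L₀) :
    Integrable (fun h => d h * q (x - h) l) := hd.integrable (h.slice hl)

theorem CO.add (h1 : CO x τ L₀ q1) (h2 : CO x τ L₀ q2) :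
    CO x τ L₀ (fun y l => q1 y l + q2 y l) := ContinuousOn.add h1 h2

theorem CO.sub (h1 : CO x τ L₀ q1) (h2 : CO x τ L₀ q2) :
    CO x τ L₀ (fun y l => q1 y l - q2 y l) := ContinuousOn.sub h1 h2

theorem CO.mul_left (h1 : CO x τ L₀ q) {f : ℝ → ℝ} (hf : Continuous f) :
    CO x τ L₀ (fun y l => f l * q y l) := by
  have h2 : ContinuousOn (fun p : Euc m × ℝ => f p.2) (closedBall x τ ×ˢ Iio L₀) :=
    (hf.comp continuous_snd).continuousOn
  exact ContinuousOn.mul h2 h1

theorem CO.const_mul (h1 : CO x τ L₀ q) (a : ℝ) : CO x τ L₀ (fun y l => a * q y l) :=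
  h1.mul_left (f := fun _ => a) continuous_const

theorem CO.neg (h1 : CO x τ L₀ q) : CO x τ L₀ (fun y l => - q y l) := ContinuousOn.neg h1

theorem CO_const (f : ℝ → ℝ) (hf : Continuous f) : CO x τ L₀ (fun _ l => f l) :=
  (hf.comp continuous_snd).continuousOn

theorem CO.congr (h : CO x τ L₀ q) (hq : ∀ y ∈ closedBall x τ, ∀ l < L₀, q' y l = q y l) :
    CO x τ L₀ q' :=
  ContinuousOn.congr h fun p hp => hq p.1 hp.1 p.2 hp.2

theorem av_congr (hd : CW d τ) {l : ℝ} (hq : ∀ y ∈ closedBall x τ, q' y l = q y l) :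
    av d q' x l = av d q x l := by
  unfold av
  refine integral_congr_ae (Eventually.of_forall fun h => ?_)
  simp only
  by_cases hh : h ∈ closedBall (0 : Euc m) τ
  · rw [hq _ (sub_mem hh)]
  · rw [hd.zero' hh]; simp

theorem av_nonneg (hd : CW d τ) {l : ℝ} (hq : ∀ y ∈ closedBall x τ, 0 ≤ q y l) :
    0 ≤ av d q x l := by
  unfold av
  refine integral_nonneg fun h => ?_
  simp only [Pi.zero_apply]
  by_cases hh : h ∈ closedBall (0 : Euc m) τ
  · exact mul_nonneg (hd.nonneg _) (hq _ (sub_mem hh))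
  · rw [hd.zero' hh]; simp

theorem av_add (hd : CW d τ) (h1 : CO x τ L₀ q1) (h2 : CO x τ L₀ q2) {l : ℝ} (hl : l < L₀) :
    av d (fun y l => q1 y l + q2 y l) x l = av d q1 x l + av d q2 x l := by
  unfold av
  rw [← integral_add (h1.integrable hd hl) (h2.integrable hd hl)]
  refine integral_congr_ae (Eventually.of_forall fun h => ?_)
  simp only
  ring

theorem av_sub (hd : CW d τ) (h1 : CO x τ L₀ q1) (h2 : CO x τ L₀ q2) {l : ℝ} (hl : l < L₀) :
    av d (fun y l => q1 y l - q2 y l) x l = av d q1 x l - av d q2 x l := by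
  unfold av
  rw [← integral_sub (h1.integrable hd hl) (h2.integrable hd hl)]
  refine integral_congr_ae (Eventually.of_forall fun h => ?_)
  simp only
  ring

theorem av_mul_left (d : Euc m → ℝ) (q : Euc m → ℝ → ℝ) (f : ℝ → ℝ) (x : Euc m) (l : ℝ) :
    av d (fun y l => f l * q y l) x l = f l * av d q x l := by
  unfold av
  rw [← integral_const_mul]
  refine integral_congr_ae (Eventually.of_forall fun h => ?_)
  simp only
  ring

theorem av_const_mul (d : Euc m → ℝ) (q : Euc m → ℝ → ℝ) (a : ℝ) (x : Euc m) (l : ℝ) :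
    av d (fun y l => a * q y l) x l = a * av d q x l := av_mul_left d q (fun _ => a) x l

theorem av_mono (hd : CW d τ) (h1 : CO x τ L₀ q1) (h2 : CO x τ L₀ q2) {l : ℝ} (hl : l < L₀)
    (h : ∀ y ∈ closedBall x τ, q1 y l ≤ q2 y l) : av d q1 x l ≤ av d q2 x l := by
  have h3 : 0 ≤ av d (fun y l => q2 y l - q1 y l) x l :=
    av_nonneg hd fun y hy => sub_nonneg.2 (h y hy)
  rw [av_sub hd h2 h1 hl] at h3
  linarith

theorem av_le_of_le (hd : CW d τ) (h1 : CO x τ L₀ q) {l : ℝ} (hl : l < L₀) {C : ℝ}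
    (h : ∀ y ∈ closedBall x τ, q y l ≤ C) : av d q x l ≤ C * ∫ h, d h := by
  have h2 := av_mono hd h1 (CO_const (x := x) (τ := τ) (L₀ := L₀) (fun _ => C) continuous_const)
    hl h
  refine h2.trans (le_of_eq ?_)
  unfold av
  rw [← integral_const_mul]
  refine integral_congr_ae (Eventually.of_forall fun h => ?_)
  simp only
  ring

/-- **Cauchy-Schwarz for averages** -/
theorem av_cs (hd : CW d τ) (h1 : CO x τ L₀ q1) (h2 : CO x τ L₀ q2) (h3 : CO x τ L₀ q3) {l : ℝ}
    (hl : l < L₀) (hI : ∀ y ∈ closedBall x τ, 0 ≤ q2 y l) (hR : ∀ y ∈ closedBall x τ, 0 ≤ q3 y l)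
    (h : ∀ y ∈ closedBall x τ, q1 y l ^ 2 ≤ q2 y l * q3 y l) :
    av d q1 x l ^ 2 ≤ av d q2 x l * av d q3 x l := by
  have key : ∀ t : ℝ, 0 ≤ av d q2 x l * (t * t) + (-2 * av d q1 x l) * t + av d q3 x l := by
    intro t
    have e1 : av d (fun y l => (t * t) * q2 y l + (-2 * t) * q1 y l + q3 y l) x l =
        av d q2 x l * (t * t) + (-2 * av d q1 x l) * t + av d q3 x l := by
      rw [av_add hd ((h2.const_mul (t * t)).add (h1.const_mul (-2 * t))) h3 hl,
        av_add hd (h2.const_mul (t * t)) (h1.const_mul (-2 * t)) hl, av_const_mul, av_const_mul]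
      ring
    rw [← e1]
    refine av_nonneg hd fun y hy => ?_
    have a1 := hI y hy
    have a2 := hR y hy
    have a3 := h y hy
    rcases eq_or_lt_of_le a1 with h0 | h0
    · rw [← h0, zero_mul] at a3
      have h4 : q1 y l = 0 := by nlinarith [sq_nonneg (q1 y l)]
      rw [← h0, h4]
      simpa using a2
    · have h5 : 0 ≤ q2 y l * ((t * t) * q2 y l + (-2 * t) * q1 y l + q3 y l) := by
        nlinarith [sq_nonneg (t * q2 y l - q1 y l)]
      exact nonneg_of_mul_nonneg_right h5 h0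
  have hd := discrim_le_zero key
  unfold discrim at hd
  nlinarith

/-- **differentiation under the average** -/
theorem hasDerivAt_av (hd : CW d τ) (h : CO x τ L₀ q) (h' : CO x τ L₀ q')
    (hder : ∀ y ∈ closedBall x τ, ∀ l < L₀, HasDerivAt (q y) (q' y l) l) {l : ℝ} (hl : l < L₀) :
    HasDerivAt (av d q x) (av d q' x l) l := by
  set ε : ℝ := (L₀ - l) / 2 with hε
  have hε0 : 0 < ε := by rw [hε]; linarith
  have hsub : closedBall x τ ×ˢ Icc (l - ε) (l + ε) ⊆ closedBall x τ ×ˢ Iio L₀ := by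
    refine prod_mono subset_rfl fun t ht => ?_
    have := ht.2
    simp only [mem_Iio]
    rw [hε] at this
    linarith
  obtain ⟨C, hC⟩ := ((isCompact_closedBall x τ).prod
    (isCompact_Icc (a := l - ε) (b := l + ε))).exists_bound_of_continuousOn (ContinuousOn.mono h' hsub)
  unfold av
  refine (hasDerivAt_integral_of_dominated_loc_of_deriv_le (μ := (volume : Measure (Euc m)))
    (F := fun l h => d h * q (x - h) l)
    (F' := fun l h => d h * q' (x - h) l) (bound := fun h => d h * C)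
    (Metric.ball_mem_nhds l hε0) ?_ (h.integrable hd hl) ?_ ?_ ?_ ?_).2
  · filter_upwards [Iio_mem_nhds hl] with l' hl'
    exact (h.integrable hd hl').aestronglyMeasurable
  · exact (h'.integrable hd hl).aestronglyMeasurable
  · refine Eventually.of_forall fun h l' hl' => ?_
    rw [Real.norm_eq_abs, abs_mul, abs_of_nonneg (hd.nonneg h)]
    by_cases hh : h ∈ closedBall (0 : Euc m) τ
    · refine mul_le_mul_of_nonneg_left ?_ (hd.nonneg h)
      rw [Metric.mem_ball, Real.dist_eq, abs_lt] at hl'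
      exact hC (x - h, l') ⟨sub_mem hh, ⟨by linarith [hl'.1], by linarith [hl'.2]⟩⟩
    · rw [hd.zero' hh]; simp
  · exact hd.integrable (f := fun _ => C) continuousOn_const
  · refine Eventually.of_forall fun h l' hl' => ?_
    by_cases hh : h ∈ closedBall (0 : Euc m) τ
    · refine HasDerivAt.const_mul _ (hder _ (sub_mem hh) l' ?_)
      rw [Metric.mem_ball, Real.dist_eq, abs_lt] at hl'
      have h5 := hl'.2
      rw [hε] at h5
      linarith
    · simp only [hd.zero' hh, zero_mul]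
      exact hasDerivAt_const _ _

/-! ### kernels -/

/-- frame around all the centres in `closedBall x τ` -/
structure AFr (V : Measure (Euc k × L k)) (π : Euc k →L[ℝ] Euc m) (κ : Euc k →L[ℝ] Euc n)
    (x : Euc m) (τ L₀ L₁ : ℝ) : Prop where
  fr : Fr V π κ x L₁
  τ0 : 0 ≤ τ
  le : Real.exp L₀ + τ ≤ Real.exp L₁

variable {π : Euc k →L[ℝ] Euc m} {κ : Euc k →L[ℝ] Euc n} {V : Measure (Euc k × L k)}
  {g g1 g2 : ℝ → ℝ} {h₀ : ℝ} {F : Euc n → ℝ} {dF : Euc n → Euc n} {H : Euc n → L n}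

theorem exp_two (L : ℝ) : Real.exp (2 * L) = Real.exp L ^ 2 := by
  rw [← Real.exp_nat_mul]; norm_num

theorem lt_sq_iff (π : Euc k →L[ℝ] Euc m) (y : Euc m) (L : ℝ) (p : Euc k) :
    ‖π p - y‖ ^ 2 < Real.exp (2 * L) ↔ ‖π p - y‖ < Real.exp L := by
  rw [exp_two]
  exact sq_lt_sq₀ (norm_nonneg _) (Real.exp_pos _).le

namespace AFr

theorem region (h : AFr V π κ x τ L₀ L₁) {y : Euc m} (hy : y ∈ closedBall x τ) {p : Euc k}
    (hp : ‖π p - y‖ ^ 2 < Real.exp (2 * L₀)) : ‖π p - x‖ ^ 2 < Real.exp (2 * L₁) := by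
  rw [lt_sq_iff] at hp ⊢
  have h1 : ‖y - x‖ ≤ τ := by rwa [mem_closedBall_iff_norm] at hy
  have h2 : ‖π p - x‖ ≤ ‖π p - y‖ + ‖y - x‖ := by
    have : π p - x = (π p - y) + (y - x) := by abel
    rw [this]; exact norm_add_le _ _
  have := h.le
  linarith

theorem fr' (h : AFr V π κ x τ L₀ L₁) {y : Euc m} (hy : y ∈ closedBall x τ) :
    Fr V π κ y L₀ where
  sp := h.fr.sp
  conc := h.fr.conc
  fin := lt_of_le_of_lt (measure_mono fun _ hp => h.region hy hp) h.fr.fin

theorem hgt' (h : AFr V π κ x τ L₀ L₁) (hh : Hgt V π κ x L₁ h₀) {y : Euc m}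
    (hy : y ∈ closedBall x τ) : Hgt V π κ y L₀ h₀ := by
  filter_upwards [hh] with p hp hlt
  exact hp (h.region hy hlt)

/-- **joint continuity of kernel integrals in (centre, scale)** -/
theorem co_ker (h : AFr V π κ x τ L₀ L₁) {c : Euc m → Euc k × L k → ℝ}
    (hc : ∀ p, Continuous fun y => c y p) (hcm : ∀ y, AEStronglyMeasurable (c y) V)
    {C : ℝ} (hcC : ∀ᵐ p ∂V, ‖π p.1 - x‖ ^ 2 < Real.exp (2 * L₁) →
      ∀ y ∈ closedBall x τ, |c y p| ≤ C)
    {f : ℝ → ℝ} (hf : Continuous f) {K : ℝ} (hK : ∀ t, 0 ≤ t → |f t| ≤ K)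
    (hf0 : ∀ t, 1 ≤ t → f t = 0) :
    CO x τ L₀ (fun y l => ∫ p, c y p * f (Real.exp (-2 * l) * ‖π p.1 - y‖ ^ 2) ∂V) := by
  rintro ⟨y0, l0⟩ ⟨hy0, hl0⟩
  have hS : MeasurableSet {p : Euc k × L k | ‖π p.1 - x‖ ^ 2 < Real.exp (2 * L₁)} :=
    measurableSet_lt (measurable_rho π x) measurable_const
  have hK0 : 0 ≤ K := (abs_nonneg _).trans (hK 0 le_rfl)
  refine continuousWithinAt_of_dominated
    (F := fun (q : Euc m × ℝ) (p : Euc k × L k) =>
      c q.1 p * f (Real.exp (-2 * q.2) * ‖π p.1 - q.1‖ ^ 2))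
    (bound := indicator {p : Euc k × L k | ‖π p.1 - x‖ ^ 2 < Real.exp (2 * L₁)}
      fun _ => C * K) ?_ ?_ ?_ ?_
  · refine Eventually.of_forall fun q => ?_
    exact (hcm q.1).mul (hf.measurable.comp
      ((measurable_rho π q.1).const_mul _)).aestronglyMeasurable
  · filter_upwards [self_mem_nhdsWithin] with q hq
    filter_upwards [hcC] with p hp
    by_cases hpS : ‖π p.1 - x‖ ^ 2 < Real.exp (2 * L₁)
    · rw [indicator_of_mem (by exact hpS), Real.norm_eq_abs, abs_mul]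
      exact mul_le_mul (hp hpS _ hq.1) (hK _ (by positivity)) (abs_nonneg _)
        ((abs_nonneg _).trans (hp hpS _ hq.1))
    · rw [indicator_of_notMem (by exact hpS)]
      have h1 : ¬ ‖π p.1 - q.1‖ ^ 2 < Real.exp (2 * L₀) := fun hcon => hpS (h.region hq.1 hcon)
      have h2 : 1 ≤ Real.exp (-2 * q.2) * ‖π p.1 - q.1‖ ^ 2 := by
        have hq2 : q.2 < L₀ := hq.2
        calc (1:ℝ) = Real.exp (-2 * q.2) * Real.exp (2 * q.2) := by rw [← Real.exp_add]; simp
          _ ≤ Real.exp (-2 * q.2) * Real.exp (2 * L₀) := by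
              gcongr
          _ ≤ _ := by
              refine mul_le_mul_of_nonneg_left (not_lt.1 h1) (Real.exp_pos _).le
      rw [hf0 _ h2]; simp
  · rw [integrable_indicator_iff hS]
    exact integrableOn_const (by exact h.fr.fin.ne)
  · refine Eventually.of_forall fun p => ?_
    refine Continuous.continuousWithinAt ?_
    refine ((hc p).comp continuous_fst).mul (hf.comp ?_)
    fun_prop

theorem co_ker' (h : AFr V π κ x τ L₀ L₁) {c : Euc k × L k → ℝ}
    (hcm : AEStronglyMeasurable c V)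
    {C : ℝ} (hcC : ∀ᵐ p ∂V, ‖π p.1 - x‖ ^ 2 < Real.exp (2 * L₁) → |c p| ≤ C)
    {f : ℝ → ℝ} (hf : Continuous f) {K : ℝ} (hK : ∀ t, 0 ≤ t → |f t| ≤ K)
    (hf0 : ∀ t, 1 ≤ t → f t = 0) :
    CO x τ L₀ (fun y l => ∫ p, c p * f (Real.exp (-2 * l) * ‖π p.1 - y‖ ^ 2) ∂V) := by
  refine h.co_ker (c := fun _ p => c p) (fun _ => continuous_const) (fun _ => hcm) (C := C) ?_ hf hK
    hf0
  filter_upwards [hcC] with p hp hlt y _
  exact hp hlt

/-- continuous coefficients depending on the centre are bounded -/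
theorem exists_bd' (h : AFr V π κ x τ L₀ L₁) (hh : Hgt V π κ x L₁ h₀)
    {c : Euc n × L k × Euc m × Euc m → ℝ} (hc : Continuous c) :
    ∃ C : ℝ, ∀ᵐ p ∂V, ‖π p.1 - x‖ ^ 2 < Real.exp (2 * L₁) →
      ∀ y ∈ closedBall x τ, |c (κ p.1, p.2, π p.1, y)| ≤ C := by
  obtain ⟨C, hC⟩ := ((isCompact_closedBall (0 : Euc n) h₀).prod ((isCompact_G m k).prod
    ((isCompact_closedBall x (Real.exp L₁)).prod
      (isCompact_closedBall x τ)))).exists_bound_of_continuousOn hc.continuousOn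
  refine ⟨C, ?_⟩
  filter_upwards [h.fr.conc, hh] with p hp hp2 hlt y hy
  refine hC (κ p.1, p.2, π p.1, y) ⟨?_, hp, ?_, hy⟩
  · rw [mem_closedBall_zero_iff]; exact hp2 hlt
  · rw [Metric.mem_closedBall, dist_eq_norm]
    exact ((lt_sq_iff π x L₁ p.1).1 hlt).le

theorem qf_bd (h : AFr V π κ x τ L₀ L₁) :
    ∀ᵐ p ∂V, ‖π p.1 - x‖ ^ 2 < Real.exp (2 * L₁) →
      ∀ y ∈ closedBall x τ, |qf π p.2 (π p.1 - y)| ≤ (Real.exp L₁ + τ) ^ 2 := by
  filter_upwards [h.fr.conc] with p hp hlt y hy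
  rw [abs_of_nonneg (qf_nonneg h.fr.sp.hh (isPr_of_G hp) _)]
  refine (qf_le (isPr_of_G hp) _).trans ?_
  refine pow_le_pow_left₀ (norm_nonneg _) ?_ 2
  have h1 : ‖y - x‖ ≤ τ := by rwa [mem_closedBall_iff_norm] at hy
  have h2 : ‖π p.1 - y‖ ≤ ‖π p.1 - x‖ + ‖y - x‖ := by
    have : π p.1 - y = (π p.1 - x) - (y - x) := by abel
    rw [this]; exact norm_sub_le _ _
  have h3 := (lt_sq_iff π x L₁ p.1).1 hlt
  linarith

end AFr

theorem continuous_qf_c (π : Euc k →L[ℝ] Euc m) (p : Euc k × L k) :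
    Continuous fun y : Euc m => qf π p.2 (π p.1 - y) := by
  unfold qf
  have h1 : Continuous fun y : Euc m => π p.1 - y := continuous_const.sub continuous_id
  exact (h1.norm.pow 2).sub (h1.inner ((Shh π p.2).continuous.comp h1))

theorem continuous_cM_c (π : Euc k →L[ℝ] Euc m) (κ : Euc k →L[ℝ] Euc n) (dF : Euc n → Euc n)
    (p : Euc k × L k) : Continuous fun y : Euc m => cM π κ y dF p := by
  unfold cM
  exact continuous_const.inner ((Svh π κ p.2).continuous.comp (continuous_const.sub continuous_id))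

/-! ### the quantities of the frame are jointly continuous -/

namespace AFr

theorem co_one (h : AFr V π κ x τ L₀ L₁) (hg : Ker g g1) :
    CO x τ L₀ (fun y l => ∫ p, 1 * g (Real.exp (-2 * l) * ‖π p.1 - y‖ ^ 2) ∂V) := by
  obtain ⟨K, -, hK, -, -⟩ := hg.exists_bound
  exact h.co_ker' (c := fun _ => 1) aestronglyMeasurable_const (C := 1) ae_one_bound hg.continuous hK
    hg.zero

theorem co_tl (h : AFr V π κ x τ L₀ L₁) (hg : Ker g g1) :
    CO x τ L₀ (fun y l => ∫ p, tl π p.2 * g (Real.exp (-2 * l) * ‖π p.1 - y‖ ^ 2) ∂V) := by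
  obtain ⟨K, -, hK, -, -⟩ := hg.exists_bound
  exact h.co_ker' (aestronglyMeasurable_tl π V) h.fr.tl_bound hg.continuous hK hg.zero

theorem co_leb (x : Euc m) (τ L₀ : ℝ) (g : ℝ → ℝ) :
    CO x τ L₀ (fun y l => ∫ v : Euc m, 1 * g (Real.exp (-2 * l) * ‖v - y‖ ^ 2)) := by
  have h1 : (fun (y : Euc m) (l : ℝ) => ∫ v : Euc m, 1 * g (Real.exp (-2 * l) * ‖v - y‖ ^ 2)) =
      fun _ l => Real.exp (m * l) * ∫ v : Euc m, g (‖v‖ ^ 2) := by
    funext y l
    simp only [one_mul]
    exact leb_scale g y l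
  rw [h1]
  exact CO_const _ (by fun_prop)

theorem co_EE (h : AFr V π κ x τ L₀ L₁) (hg : Ker g g1) (Q : ℝ) :
    CO x τ L₀ (fun y l => EE V π y g Q l) := by
  unfold EE
  exact ((h.co_one hg).sub ((co_leb x τ L₀ g).const_mul Q)).mul_left
    (f := fun l => Real.exp ((2 - m) * l)) (by fun_prop)

theorem co_ee (h : AFr V π κ x τ L₀ L₁) (hg : Ker g g1) :
    CO x τ L₀ (fun y l => ee V π y g l) := by
  unfold ee
  exact (h.co_tl hg).mul_left (f := fun l => Real.exp ((2 - m) * l)) (by fun_prop)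

theorem co_bb (h : AFr V π κ x τ L₀ L₁) (hg : Ker g g1) (Q : ℝ) :
    CO x τ L₀ (fun y l => bb V π y g Q l) := by
  refine CO.congr ((h.co_EE hg Q).sub ((h.co_ee hg).const_mul (1 / 2))) fun y _ l _ => ?_
  unfold bb
  ring

theorem co_qf (h : AFr V π κ x τ L₀ L₁) (hg : Ker g1 g2) :
    CO x τ L₀ (fun y l => ∫ p, qf π p.2 (π p.1 - y) *
      (-2 * g1 (Real.exp (-2 * l) * ‖π p.1 - y‖ ^ 2)) ∂V) := by
  obtain ⟨K, -, hK, -, -⟩ := hg.exists_bound
  refine h.co_ker (c := fun y p => qf π p.2 (π p.1 - y)) (continuous_qf_c π)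
    (fun y => (continuous_qf π y).aestronglyMeasurable) h.qf_bd (f := fun t => -2 * g1 t)
    (continuous_const.mul hg.continuous) (K := 2 * K) ?_ ?_
  · intro t ht
    rw [abs_mul]
    have : |(-2:ℝ)| = 2 := by norm_num
    rw [this]
    have := hK t ht
    linarith
  · intro t ht
    rw [hg.zero t ht]; ring

theorem co_RR (h : AFr V π κ x τ L₀ L₁) (hg : Ker g1 g2) :
    CO x τ L₀ (fun y l => RR V π y g1 l) := by
  unfold RR
  exact (h.co_qf hg).mul_left (f := fun l => Real.exp (-m * l)) (by fun_prop)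

theorem co_F (h : AFr V π κ x τ L₀ L₁) (hh : Hgt V π κ x L₁ h₀) (hF : Well F dF H) {f : ℝ → ℝ}
    (hf : Continuous f) {K : ℝ} (hK : ∀ t, 0 ≤ t → |f t| ≤ K) (hf0 : ∀ t, 1 ≤ t → f t = 0) :
    CO x τ L₀ (fun y l => ∫ p, F (κ p.1) * f (Real.exp (-2 * l) * ‖π p.1 - y‖ ^ 2) ∂V) := by
  obtain ⟨C, hC⟩ := F_bd h.fr hh hF
  exact h.co_ker' (aesm_F hF κ V) hC hf hK hf0

theorem co_IF (h : AFr V π κ x τ L₀ L₁) (hh : Hgt V π κ x L₁ h₀) (hF : Well F dF H)
    (hg : Ker g1 g2) : CO x τ L₀ (fun y l => IF V π κ y F g1 l) := by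
  unfold IF
  obtain ⟨K, -, hK, -, -⟩ := hg.exists_bound
  refine (h.co_F hh hF (f := fun t => -4 * g1 t) (continuous_const.mul hg.continuous)
    (K := 4 * K) ?_ ?_).mul_left (f := fun l => Real.exp (-m * l)) (by fun_prop)
  · intro t ht
    rw [abs_mul]
    have : |(-4:ℝ)| = 4 := by norm_num
    rw [this]
    have := hK t ht
    linarith
  · intro t ht
    rw [hg.zero t ht]; ring

theorem co_eF (h : AFr V π κ x τ L₀ L₁) (hh : Hgt V π κ x L₁ h₀) (hF : Well F dF H)
    (hg : Ker g g1) : CO x τ L₀ (fun y l => eF V π κ y H g l) := by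
  unfold eF
  obtain ⟨K, -, hK, -, -⟩ := hg.exists_bound
  obtain ⟨C, hC⟩ := trH_bd h.fr hh hF
  exact (h.co_ker' (trH_cont hF κ).aestronglyMeasurable hC hg.continuous hK hg.zero).mul_left
    (f := fun l => Real.exp ((2 - m) * l)) (by fun_prop)

theorem co_MM (h : AFr V π κ x τ L₀ L₁) (hh : Hgt V π κ x L₁ h₀) (hF : Well F dF H)
    (hg : Ker g1 g2) : CO x τ L₀ (fun y l => MM V π κ y dF g1 l) := by
  unfold MM
  obtain ⟨K, -, hK, -, -⟩ := hg.exists_bound
  obtain ⟨C, hC⟩ := h.exists_bd' hh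
    (c := fun q => ⟪dF q.1, Svh π κ q.2.1 (q.2.2.1 - q.2.2.2)⟫_ℝ)
    ((hF.contdF.comp continuous_fst).inner
      (((continuous_Svh π κ).comp (continuous_fst.comp continuous_snd)).clm_apply
        ((continuous_fst.comp (continuous_snd.comp continuous_snd)).sub
          (continuous_snd.comp (continuous_snd.comp continuous_snd)))))
  exact h.co_ker (c := fun y p => cM π κ y dF p) (continuous_cM_c π κ dF)
    (fun y => (continuous_cM hF π κ y).aestronglyMeasurable) hC hg.continuous hK hg.zero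

theorem co_err3 (h : AFr V π κ x τ L₀ L₁) (hh : Hgt V π κ x L₁ h₀) (hF : Well F dF H)
    (hg : Ker g1 g2) (hg2 : Continuous g2) :
    CO x τ L₀ (fun y l => err3 V π κ y F g1 g2 l) := by
  unfold err3
  obtain ⟨K, -, hK, hK', -⟩ := hg.exists_bound
  obtain ⟨C1, hC1⟩ := F_bd h.fr hh hF
  have hFt : AEStronglyMeasurable (fun p : Euc k × L k => F (κ p.1) * tl π p.2) V :=
    (aesm_F hF κ V).mul (aestronglyMeasurable_tl π V)
  have hbt : ∀ᵐ p ∂V, ‖π p.1 - x‖ ^ 2 < Real.exp (2 * L₁) →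
      |F (κ p.1) * tl π p.2| ≤ C1 * m := by
    filter_upwards [hC1, h.fr.tl_bound] with p h1 h2 hlt
    rw [abs_mul]
    exact mul_le_mul (h1 hlt) (h2 hlt) (abs_nonneg _) ((abs_nonneg _).trans (h1 hlt))
  have hbq : ∀ᵐ p ∂V, ‖π p.1 - x‖ ^ 2 < Real.exp (2 * L₁) → ∀ y ∈ closedBall x τ,
      |F (κ p.1) * qf π p.2 (π p.1 - y)| ≤ C1 * (Real.exp L₁ + τ) ^ 2 := by
    filter_upwards [hC1, h.qf_bd] with p h1 h2 hlt y hy
    rw [abs_mul]
    exact mul_le_mul (h1 hlt) (h2 hlt y hy) (abs_nonneg _) ((abs_nonneg _).trans (h1 hlt))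
  have k1 := h.co_ker' hFt hbt hg.continuous hK hg.zero
  have k2 := h.co_ker (c := fun y p => F (κ p.1) * qf π p.2 (π p.1 - y))
    (fun p => continuous_const.mul (continuous_qf_c π p))
    (fun y => (aesm_F hF κ V).mul (continuous_qf π y).aestronglyMeasurable) hbq hg2 hK' hg.zero'
  refine CO.congr ((k1.add (k2.mul_left (f := fun l => 2 * Real.exp (-2 * l))
    (by fun_prop))).mul_left (f := fun l => 4 * Real.exp (-m * l)) (by fun_prop)) fun y _ l _ => ?_
  rfl

end AFr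

end Crest.Agent.R234.Avg_387
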