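import Crest.Agent.R234.Cy6_870

/-!
# Row 234, VF-CYL, part 7 (helper870)

Bound of the error term of (W3), continuity and integrated forms, the linear horizontal fields
`χ B (x' - x)`.
-/

set_option autoImplicit false

open MeasureTheory Set Function Filter Topology
open Crest.GeometryTopology.Submanifold
open Crest.Agent.R234.Vf_884 Crest.Agent.R234.Ar_870
open scoped ENNReal NNReal InnerProductSpace

noncomputable section

namespace Crest.Agent.R234.Cy_870

variable {m n k : ℕ} {π : Euc k →L[ℝ] Euc m} {κ : Euc k →L[ℝ] Euc n} {x₀ x : Euc m} {R : ℝ}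
  {g g1 g2 : ℝ → ℝ} {W : Measure (Euc k × L k)} {h₀ : ℝ}
  {F : Euc n → ℝ} {dF : Euc n → Euc n} {H : Euc n → L n}

/-- sharp tilt energy of the base ball of radius `e^l` -/
def te (W : Measure (Euc k × L k)) (π : Euc k →L[ℝ] Euc m) (x : Euc m) (l : ℝ) : ℝ :=
  Real.exp ((2 - m) * l) * ∫ p in {p | ‖π p.1 - x‖ ^ 2 < Real.exp (2 * l)}, tl π p.2 ∂W

theorem measurableSet_base (π : Euc k →L[ℝ] Euc m) (x : Euc m) (l : ℝ) :
    MeasurableSet {p : Euc k × L k | ‖π p.1 - x‖ ^ 2 < Real.exp (2 * l)} :=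
  measurableSet_lt (measurable_rho π x) measurable_const

namespace CylStat

theorem integrable_tl (h : CylStat W π κ x₀ R h₀) : Integrable (fun p => tl π p.2) W := by
  have : IsFiniteMeasure W := ⟨h.fin⟩
  refine Integrable.mono' (integrable_const (m:ℝ)) (aestronglyMeasurable_tl π W) ?_
  filter_upwards [h.tl_bd] with p hp
  exact hp

theorem te_nonneg (h : CylStat W π κ x₀ R h₀) (x : Euc m) (l : ℝ) : 0 ≤ te W π x l := by
  unfold te
  refine mul_nonneg (Real.exp_pos _).le (integral_nonneg_of_ae ?_)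
  filter_upwards [ae_restrict_of_ae h.conc] with p hp
  exact tl_nonneg h.sp.hh (isPr_of_G hp)

/-- kernel integrals with coefficient `≤ C tl` -/
theorem abs_ker_le (h : CylStat W π κ x₀ R h₀) {c : Euc k × L k → ℝ} {C : ℝ} (hC : 0 ≤ C)
    (hc : ∀ᵐ p ∂W, |c p| ≤ C * tl π p.2) {f : ℝ → ℝ} {K : ℝ} (hK : ∀ t, 0 ≤ t → |f t| ≤ K)
    (hf0 : ∀ t, 1 ≤ t → f t = 0) (l : ℝ) :
    |∫ p, c p * f (Real.exp (-2 * l) * ‖π p.1 - x‖ ^ 2) ∂W| ≤
      C * K * ∫ p in {p | ‖π p.1 - x‖ ^ 2 < Real.exp (2 * l)}, tl π p.2 ∂W := by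
  have hS := measurableSet_base π x l
  have hK0 : 0 ≤ K := (abs_nonneg _).trans (hK 0 le_rfl)
  rw [integral_ker_restrict (V := W) (L := l) (measurable_rho π x) hf0 le_rfl,
    ← integral_const_mul, ← Real.norm_eq_abs]
  refine norm_integral_le_of_norm_le ((h.integrable_tl.const_mul (C * K)).integrableOn) ?_
  filter_upwards [ae_restrict_of_ae hc, ae_restrict_of_ae h.conc] with p hp hp2
  rw [Real.norm_eq_abs, abs_mul]
  have h1 := hK (Real.exp (-2 * l) * ‖π p.1 - x‖ ^ 2) (by positivity)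
  calc |c p| * |f (Real.exp (-2 * l) * ‖π p.1 - x‖ ^ 2)| ≤ (C * tl π p.2) * K :=
        mul_le_mul hp h1 (abs_nonneg _) (mul_nonneg hC (tl_nonneg h.sp.hh (isPr_of_G hp2)))
    _ = C * K * tl π p.2 := by ring

/-- **bound of the error term of (W3)**: `F ≤ A` on the heights -/
theorem abs_err3_le (h : CylStat W π κ x₀ R h₀) (hF : Well F dF H) (hg : Prof g g1 g2) {K A : ℝ}
    (hK1 : ∀ t, 0 ≤ t → |g1 t| ≤ K) (hK2 : ∀ t, 0 ≤ t → |t * g2 t| ≤ K)
    (hA : ∀ᵐ p ∂W, F (κ p.1) ≤ A) (hA0 : 0 ≤ A) (x : Euc m) (l : ℝ) :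
    |err3 W π κ x F g1 g2 l| ≤ 12 * K * A * Real.exp (-2 * l) * te W π x l := by
  have hK0 : 0 ≤ K := (abs_nonneg _).trans (hK1 0 le_rfl)
  have hc1 : ∀ᵐ p ∂W, |F (κ p.1) * tl π p.2| ≤ A * tl π p.2 := by
    filter_upwards [hA, h.conc] with p hp hp2
    have h1 := tl_nonneg h.sp.hh (isPr_of_G hp2)
    rw [abs_of_nonneg (mul_nonneg (hF.nonneg _) h1)]
    exact mul_le_mul_of_nonneg_right hp h1
  have e1 := h.abs_ker_le (x := x) hA0 hc1 hK1 hg.k1.zero l
  -- the quadratic form part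
  have hS := measurableSet_base π x l
  have e2 : |∫ p, (F (κ p.1) * qf π p.2 (π p.1 - x)) *
      g2 (Real.exp (-2 * l) * ‖π p.1 - x‖ ^ 2) ∂W| ≤
      A * K * Real.exp (2 * l) *
        ∫ p in {p | ‖π p.1 - x‖ ^ 2 < Real.exp (2 * l)}, tl π p.2 ∂W := by
    rw [integral_ker_restrict (V := W) (L := l) (measurable_rho π x) hg.k1.zero' le_rfl,
      ← integral_const_mul, ← Real.norm_eq_abs]
    refine norm_integral_le_of_norm_le
      ((h.integrable_tl.const_mul (A * K * Real.exp (2 * l))).integrableOn) ?_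
    filter_upwards [ae_restrict_of_ae hA, ae_restrict_of_ae h.conc] with p hp hp2
    have hPr := isPr_of_G hp2
    have h1 := tl_nonneg h.sp.hh hPr
    have hq0 := qf_nonneg h.sp.hh hPr (π p.1 - x)
    have hq := qf_le_tl h.sp hp2 (π p.1 - x)
    set ρ := ‖π p.1 - x‖ ^ 2 with hρ
    have hρ0 : 0 ≤ ρ := by positivity
    have h2 := hK2 (Real.exp (-2 * l) * ρ) (by positivity)
    rw [Real.norm_eq_abs, abs_mul, abs_mul, abs_of_nonneg (hF.nonneg _), abs_of_nonneg hq0]
    have h3 : ρ * |g2 (Real.exp (-2 * l) * ρ)| ≤ Real.exp (2 * l) * K := by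
      have h4 : ρ * |g2 (Real.exp (-2 * l) * ρ)| =
          Real.exp (2 * l) * |(Real.exp (-2 * l) * ρ) * g2 (Real.exp (-2 * l) * ρ)| := by
        rw [abs_mul, abs_of_nonneg (mul_nonneg (Real.exp_pos (-2 * l)).le hρ0), ← mul_assoc,
          ← mul_assoc, ← Real.exp_add]
        simp
      rw [h4]
      exact mul_le_mul_of_nonneg_left h2 (Real.exp_pos _).le
    calc F (κ p.1) * qf π p.2 (π p.1 - x) * |g2 (Real.exp (-2 * l) * ρ)|
        ≤ A * (ρ * tl π p.2) * |g2 (Real.exp (-2 * l) * ρ)| := by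
          refine mul_le_mul_of_nonneg_right ?_ (abs_nonneg _)
          exact mul_le_mul hp hq hq0 hA0
      _ = A * tl π p.2 * (ρ * |g2 (Real.exp (-2 * l) * ρ)|) := by ring
      _ ≤ A * tl π p.2 * (Real.exp (2 * l) * K) :=
          mul_le_mul_of_nonneg_left h3 (mul_nonneg hA0 h1)
      _ = A * K * Real.exp (2 * l) * tl π p.2 := by ring
  set T := ∫ p in {p | ‖π p.1 - x‖ ^ 2 < Real.exp (2 * l)}, tl π p.2 ∂W with hT
  unfold err3 te
  rw [abs_mul, abs_mul, abs_of_pos (by norm_num : (0:ℝ) < 4), abs_of_pos (Real.exp_pos _)]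
  have e3 : |(∫ p, (F (κ p.1) * tl π p.2) * g1 (Real.exp (-2 * l) * ‖π p.1 - x‖ ^ 2) ∂W)
      + 2 * Real.exp (-2 * l) * (∫ p, (F (κ p.1) * qf π p.2 (π p.1 - x)) *
            g2 (Real.exp (-2 * l) * ‖π p.1 - x‖ ^ 2) ∂W)| ≤ A * K * T + 2 * (A * K * T) := by
    refine (abs_add_le _ _).trans (add_le_add e1 ?_)
    rw [abs_mul, abs_of_pos (by positivity)]
    calc 2 * Real.exp (-2 * l) * |∫ p, (F (κ p.1) * qf π p.2 (π p.1 - x)) *
            g2 (Real.exp (-2 * l) * ‖π p.1 - x‖ ^ 2) ∂W|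
        ≤ 2 * Real.exp (-2 * l) * (A * K * Real.exp (2 * l) * T) :=
          mul_le_mul_of_nonneg_left e2 (by positivity)
      _ = 2 * (A * K * T) * (Real.exp (-2 * l) * Real.exp (2 * l)) := by ring
      _ = 2 * (A * K * T) := by rw [← Real.exp_add]; simp
  have h6 : Real.exp (-m * l) = Real.exp ((2 - m) * l) * Real.exp (-2 * l) := by
    rw [← Real.exp_add]; congr 1; ring
  calc 4 * Real.exp (-m * l) * |(∫ p, (F (κ p.1) * tl π p.2) *
          g1 (Real.exp (-2 * l) * ‖π p.1 - x‖ ^ 2) ∂W)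
      + 2 * Real.exp (-2 * l) * (∫ p, (F (κ p.1) * qf π p.2 (π p.1 - x)) *
            g2 (Real.exp (-2 * l) * ‖π p.1 - x‖ ^ 2) ∂W)|
      ≤ 4 * Real.exp (-m * l) * (A * K * T + 2 * (A * K * T)) :=
        mul_le_mul_of_nonneg_left e3 (by positivity)
    _ = _ := by rw [h6]; ring

/-- `te` against the smooth energy of a profile with `g ≥ c` on `[0, θ]` -/
theorem te_le_ee (h : CylStat W π κ x₀ R h₀) (hg : Prof g g1 g2) {c a : ℝ}
    (hga : ∀ t, 0 ≤ t → t < Real.exp (-2 * a) → c ≤ g t) (x : Euc m) (l : ℝ) :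
    c * te W π x l ≤ Real.exp ((m - 2) * a) * ee W π x g (l + a) := by
  unfold te ee
  have hS := measurableSet_base π x l
  have h1 : c * ∫ p in {p | ‖π p.1 - x‖ ^ 2 < Real.exp (2 * l)}, tl π p.2 ∂W ≤
      ∫ p, tl π p.2 * g (Real.exp (-2 * (l + a)) * ‖π p.1 - x‖ ^ 2) ∂W := by
    rw [← integral_const_mul, ← integral_indicator hS]
    have hint := (h.fr x (l + a)).integrable_c (aestronglyMeasurable_tl π W)
      (h.fr x (l + a)).tl_bound hg.k0 le_rfl
    refine integral_mono_ae ((h.integrable_tl.const_mul c).indicator hS) hint ?_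
    filter_upwards [h.conc] with p hp
    have ht := tl_nonneg h.sp.hh (isPr_of_G hp)
    by_cases hp2 : p ∈ {p : Euc k × L k | ‖π p.1 - x‖ ^ 2 < Real.exp (2 * l)}
    · rw [Set.indicator_of_mem hp2]
      have h2 : Real.exp (-2 * (l + a)) * ‖π p.1 - x‖ ^ 2 < Real.exp (-2 * a) := by
        calc Real.exp (-2 * (l + a)) * ‖π p.1 - x‖ ^ 2
            < Real.exp (-2 * (l + a)) * Real.exp (2 * l) :=
              mul_lt_mul_of_pos_left hp2 (Real.exp_pos _)
          _ = Real.exp (-2 * a) := by rw [← Real.exp_add]; congr 1; ring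
      have h3 := hga _ (by positivity) h2
      calc c * tl π p.2 = tl π p.2 * c := mul_comm _ _
        _ ≤ _ := mul_le_mul_of_nonneg_left h3 ht
    · rw [Set.indicator_of_notMem hp2]
      exact mul_nonneg ht (hg.nonneg _ (by positivity))
  have h2 : Real.exp ((2 - m) * l) = Real.exp ((m - 2) * a) * Real.exp ((2 - m) * (l + a)) := by
    rw [← Real.exp_add]; congr 1; ring
  calc c * (Real.exp ((2 - m) * l) *
        ∫ p in {p | ‖π p.1 - x‖ ^ 2 < Real.exp (2 * l)}, tl π p.2 ∂W)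
      = Real.exp ((2 - m) * l) * (c *
        ∫ p in {p | ‖π p.1 - x‖ ^ 2 < Real.exp (2 * l)}, tl π p.2 ∂W) := by ring
    _ ≤ Real.exp ((2 - m) * l) * _ := mul_le_mul_of_nonneg_left h1 (Real.exp_pos _).le
    _ = _ := by rw [h2]; ring

/-! ### continuity and integrated forms -/

theorem continuous_EE (h : CylStat W π κ x₀ R h₀) (hg : Prof g g1 g2) (x : Euc m) (Q : ℝ) :
    Continuous (EE W π x g Q) :=
  continuous_iff_continuousAt.2 fun l =>
    (hasDerivAt_EE (h.fr x (l + 1)) hg Q (by linarith : l < l + 1)).continuousAt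

theorem continuous_ee (h : CylStat W π κ x₀ R h₀) (hg : Prof g g1 g2) (x : Euc m) :
    Continuous (ee W π x g) := by
  refine continuous_iff_continuousAt.2 fun l => ?_
  unfold ee
  refine ContinuousAt.mul (by fun_prop) ?_
  exact continuousAt_kc (h.fr x (l + 1)) (aestronglyMeasurable_tl π W)
    (h.fr x (l + 1)).tl_bound hg.k0

theorem continuous_bb (h : CylStat W π κ x₀ R h₀) (hg : Prof g g1 g2) (x : Euc m) (Q : ℝ) :
    Continuous (bb W π x g Q) := by
  unfold bb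
  exact (h.continuous_EE hg x Q).sub ((h.continuous_ee hg x).div_const 2)

theorem continuous_RR (h : CylStat W π κ x₀ R h₀) (hg : Prof g g1 g2) (x : Euc m) :
    Continuous (RR W π x g1) := by
  refine continuous_iff_continuousAt.2 fun l => ?_
  unfold RR
  refine ContinuousAt.mul (by fun_prop) ?_
  have h1 := continuousAt_kc (h.fr x (l + 1)) (continuous_qf π x).aestronglyMeasurable
    (h.fr x (l + 1)).qf_bound hg.k1
  have h2 : (fun l => ∫ p, qf π p.2 (π p.1 - x) *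
      (-2 * g1 (Real.exp (-2 * l) * ‖π p.1 - x‖ ^ 2)) ∂W) = fun l => -2 *
      ∫ p, qf π p.2 (π p.1 - x) * g1 (Real.exp (-2 * l) * ‖π p.1 - x‖ ^ 2) ∂W := by
    funext l
    exact int_c4 W (fun p => qf π p.2 (π p.1 - x))
      (fun p => g1 (Real.exp (-2 * l) * ‖π p.1 - x‖ ^ 2)) (-2)
  rw [h2]
  exact continuousAt_const.mul h1

theorem continuous_eF (h : CylStat W π κ x₀ R h₀) (hF : Well F dF H) (hg : Prof g g1 g2)
    (x : Euc m) : Continuous (eF W π κ x H g) := by
  refine continuous_iff_continuousAt.2 fun l => ?_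
  unfold eF
  refine ContinuousAt.mul (by fun_prop) ?_
  obtain ⟨C, hC⟩ := trH_bd (h.fr x (l + 1)) (h.hgt' x (l + 1)) hF
  exact continuousAt_kc (h.fr x (l + 1)) (trH_cont hF κ).aestronglyMeasurable hC hg.k0

theorem continuous_IF (h : CylStat W π κ x₀ R h₀) (hF : Well F dF H) (hg : Prof g g1 g2)
    (x : Euc m) : Continuous (IF W π κ x F g1) :=
  continuous_iff_continuousAt.2 fun l =>
    (hasDerivAt_IF (h.fr x (l + 1)) (h.hgt' x (l + 1)) hF hg
      (by linarith : l < l + 1)).continuousAt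

theorem continuous_err3 (h : CylStat W π κ x₀ R h₀) (hF : Well F dF H) (hg : Prof g g1 g2)
    (x : Euc m) : Continuous (err3 W π κ x F g1 g2) := by
  refine continuous_iff_continuousAt.2 fun l => ?_
  obtain ⟨C1, hC1⟩ := F_bd (h.fr x (l + 1)) (h.hgt' x (l + 1)) hF
  have hFt : AEStronglyMeasurable (fun p : Euc k × L k => F (κ p.1) * tl π p.2) W :=
    (aesm_F hF κ W).mul (aestronglyMeasurable_tl π W)
  have hFq : AEStronglyMeasurable (fun p : Euc k × L k => F (κ p.1) * qf π p.2 (π p.1 - x)) W :=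
    (aesm_F hF κ W).mul (continuous_qf π x).aestronglyMeasurable
  have hbt : ∀ᵐ p ∂W, ‖π p.1 - x‖ ^ 2 < Real.exp (2 * (l + 1)) →
      |F (κ p.1) * tl π p.2| ≤ C1 * m := by
    filter_upwards [hC1, (h.fr x (l + 1)).tl_bound] with p h1 h2 hlt
    rw [abs_mul]
    exact mul_le_mul (h1 hlt) (h2 hlt) (abs_nonneg _) ((abs_nonneg _).trans (h1 hlt))
  have hbq : ∀ᵐ p ∂W, ‖π p.1 - x‖ ^ 2 < Real.exp (2 * (l + 1)) →
      |F (κ p.1) * qf π p.2 (π p.1 - x)| ≤ C1 * Real.exp (2 * (l + 1)) := by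
    filter_upwards [hC1, (h.fr x (l + 1)).qf_bound] with p h1 h2 hlt
    rw [abs_mul]
    exact mul_le_mul (h1 hlt) (h2 hlt) (abs_nonneg _) ((abs_nonneg _).trans (h1 hlt))
  have h1 := continuousAt_kc (h.fr x (l + 1)) hFt hbt hg.k1
  have h2 := continuousAt_kc' (h.fr x (l + 1)) hFq hbq hg.k1
  unfold err3
  refine ContinuousAt.mul (by fun_prop) (h1.add (ContinuousAt.mul (by fun_prop) h2))

/-- integrated (W1) -/
theorem EE_sub (h : CylStat W π κ x₀ R h₀) (hg : Prof g g1 g2) (Q : ℝ) {a b : ℝ} (hab : a ≤ b)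
    (hb : ‖x - x₀‖ + Real.exp b ≤ R) :
    EE W π x g Q b - EE W π x g Q a =
      (∫ l in a..b, 2 * bb W π x g Q l) + ∫ l in a..b, RR W π x g1 l := by
  have hc1 : Continuous fun l => 2 * bb W π x g Q l := continuous_const.mul (h.continuous_bb hg x Q)
  have hc2 := h.continuous_RR hg x
  rw [← intervalIntegral.integral_add (hc1.intervalIntegrable _ _) (hc2.intervalIntegrable _ _)]
  symm
  refine intervalIntegral.integral_eq_sub_of_hasDerivAt (fun l hl => ?_)
    ((hc1.add hc2).intervalIntegrable _ _)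
  rw [Set.uIcc_of_le hab] at hl
  refine h.W1 hg Q ?_
  have := Real.exp_le_exp.2 hl.2
  linarith

/-- integrated (W3) -/
theorem IF_sub (h : CylStat W π κ x₀ R h₀) (hF : Well F dF H) (hg : Prof g g1 g2) {a b : ℝ}
    (hab : a ≤ b) (hb : ‖x - x₀‖ + Real.exp b ≤ R) :
    IF W π κ x F g1 b - IF W π κ x F g1 a =
      (∫ l in a..b, 2 * eF W π κ x H g l) + ∫ l in a..b, err3 W π κ x F g1 g2 l := by
  have hc1 : Continuous fun l => 2 * eF W π κ x H g l :=
    continuous_const.mul (h.continuous_eF hF hg x)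
  have hc2 := h.continuous_err3 hF hg x
  rw [← intervalIntegral.integral_add (hc1.intervalIntegrable _ _) (hc2.intervalIntegrable _ _)]
  symm
  refine intervalIntegral.integral_eq_sub_of_hasDerivAt (fun l hl => ?_)
    ((hc1.add hc2).intervalIntegrable _ _)
  rw [Set.uIcc_of_le hab] at hl
  refine h.W3 hF hg ?_
  have := Real.exp_le_exp.2 hl.2
  linarith

end CylStat

end Crest.Agent.R234.Cy_870
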