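import Crest.Agent.R234.Avg1_387
import Crest.Agent.R234.Cy7_870

/-!
# Row 234, VF-AVG, part 2 (helper387)

(W1), (W2), (W3) for averaged centres: general `V` (first variation functional kept as a term) and
stationary in a cylinder (`CylStat`).
-/

set_option autoImplicit false

open MeasureTheory Set Function Filter Topology Metric
open Crest.GeometryTopology.Submanifold
open Crest.Agent.R234.Vf_884 Crest.Agent.R234.Ar_870 Crest.Agent.R234.Cy_870
open scoped ENNReal NNReal InnerProductSpace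

noncomputable section

namespace Crest.Agent.R234.Avg_387

variable {m n k : ℕ}

/-! ### the averaged quantities -/

/-- averaged mass excess -/
def EEa (d : Euc m → ℝ) (V : Measure (Euc k × L k)) (π : Euc k →L[ℝ] Euc m) (g : ℝ → ℝ) (Q : ℝ)
    (x : Euc m) (l : ℝ) : ℝ := av d (fun y l => EE V π y g Q l) x l

/-- averaged tilt energy -/
def eea (d : Euc m → ℝ) (V : Measure (Euc k × L k)) (π : Euc k →L[ℝ] Euc m) (g : ℝ → ℝ)
    (x : Euc m) (l : ℝ) : ℝ := av d (fun y l => ee V π y g l) x l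

/-- averaged anomaly -/
def bba (d : Euc m → ℝ) (V : Measure (Euc k × L k)) (π : Euc k →L[ℝ] Euc m) (g : ℝ → ℝ) (Q : ℝ)
    (x : Euc m) (l : ℝ) : ℝ := av d (fun y l => bb V π y g Q l) x l

/-- averaged radial energy -/
def RRa (d : Euc m → ℝ) (V : Measure (Euc k × L k)) (π : Euc k →L[ℝ] Euc m) (g1 : ℝ → ℝ)
    (x : Euc m) (l : ℝ) : ℝ := av d (fun y l => RR V π y g1 l) x l

/-- averaged well height -/
def IFa (d : Euc m → ℝ) (V : Measure (Euc k × L k)) (π : Euc k →L[ℝ] Euc m)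
    (κ : Euc k →L[ℝ] Euc n) (F : Euc n → ℝ) (g1 : ℝ → ℝ) (x : Euc m) (l : ℝ) : ℝ :=
  av d (fun y l => IF V π κ y F g1 l) x l

/-- averaged well energy -/
def eFa (d : Euc m → ℝ) (V : Measure (Euc k × L k)) (π : Euc k →L[ℝ] Euc m)
    (κ : Euc k →L[ℝ] Euc n) (H : Euc n → L n) (g : ℝ → ℝ) (x : Euc m) (l : ℝ) : ℝ :=
  av d (fun y l => eF V π κ y H g l) x l

/-- averaged error term of (W3) -/
def err3a (d : Euc m → ℝ) (V : Measure (Euc k × L k)) (π : Euc k →L[ℝ] Euc m)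
    (κ : Euc k →L[ℝ] Euc n) (F : Euc n → ℝ) (g1 g2 : ℝ → ℝ) (x : Euc m) (l : ℝ) : ℝ :=
  av d (fun y l => err3 V π κ y F g1 g2 l) x l

/-- first variation term of (W1) -/
def f1 (V : Measure (Euc k × L k)) (π : Euc k →L[ℝ] Euc m) (g : ℝ → ℝ) (y : Euc m) (l : ℝ) : ℝ :=
  Real.exp ((2 - m) * l) * FV V (X1 π y g l)

/-- first variation term of (W2) -/
def f2 (V : Measure (Euc k × L k)) (π : Euc k →L[ℝ] Euc m) (κ : Euc k →L[ℝ] Euc n)
    (dF : Euc n → Euc n) (g : ℝ → ℝ) (y : Euc m) (l : ℝ) : ℝ :=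
  Real.exp ((2 - m) * l) * FV V (X2 π κ y dF g l)

/-- first variation term of (W3) -/
def f3 (V : Measure (Euc k × L k)) (π : Euc k →L[ℝ] Euc m) (κ : Euc k →L[ℝ] Euc n)
    (F : Euc n → ℝ) (g1 : ℝ → ℝ) (y : Euc m) (l : ℝ) : ℝ :=
  4 * Real.exp (-m * l) * FV V (X3 π κ y F g1 l)

variable {d : Euc m → ℝ} {τ L₀ L₁ : ℝ} {x : Euc m}
  {π : Euc k →L[ℝ] Euc m} {κ : Euc k →L[ℝ] Euc n} {V : Measure (Euc k × L k)}
  {g g1 g2 : ℝ → ℝ} {h₀ : ℝ} {F : Euc n → ℝ} {dF : Euc n → Euc n} {H : Euc n → L n}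

namespace AFr

theorem co_tk (h : AFr V π κ x τ L₀ L₁) {c : Euc k × L k → ℝ} (hcm : AEStronglyMeasurable c V)
    {C : ℝ} (hcC : ∀ᵐ p ∂V, ‖π p.1 - x‖ ^ 2 < Real.exp (2 * L₁) → |c p| ≤ C) (hg : Ker g g1) :
    CO x τ L₀ (fun y l => ∫ p, c p * (Real.exp (-2 * l) * ‖π p.1 - y‖ ^ 2 *
      g1 (Real.exp (-2 * l) * ‖π p.1 - y‖ ^ 2)) ∂V) := by
  obtain ⟨K, -, -, -, hK⟩ := hg.exists_bound
  exact h.co_ker' hcm hcC (f := fun t => t * g1 t) (continuous_id.mul hg.cont) hK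
    (fun t ht => by rw [hg.zero' t ht, mul_zero])

theorem co_f1 (h : AFr V π κ x τ L₀ L₁) (hg : Prof g g1 g2) :
    CO x τ L₀ (fun y l => f1 V π g y l) := by
  have hc1 : AEStronglyMeasurable (fun _ : Euc k × L k => (1:ℝ)) V := aestronglyMeasurable_const
  have k2 := h.co_tk hc1 (C := 1) ae_one_bound hg.k0
  have hs : CO x τ L₀ (fun y l => FV V (X1 π y g l)) := by
    refine CO.congr (((((h.co_one hg.k0).const_mul m).sub (h.co_tl hg.k0)).add
      (k2.const_mul 2)).add ((h.co_qf hg.k1).mul_left (f := fun l => Real.exp (-2 * l))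
        (by fun_prop))) fun y hy l hl => ?_
    exact FV_X1 (h.fr' hy) hg.k0 hl.le
  unfold f1
  exact hs.mul_left (f := fun l => Real.exp ((2 - m) * l)) (by fun_prop)

theorem co_FV2 (h : AFr V π κ x τ L₀ L₁) (hh : Hgt V π κ x L₁ h₀) (hF : Well F dF H)
    (hg : Prof g g1 g2) : CO x τ L₀ (fun y l => FV V (X2 π κ y dF g l)) := by
  obtain ⟨K, -, hK, -, -⟩ := hg.k0.exists_bound
  obtain ⟨C, hC⟩ := trH_bd h.fr hh hF
  have k1 := h.co_ker' (trH_cont hF κ).aestronglyMeasurable hC hg.k0.continuous hK hg.k0.zero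
  refine CO.congr (k1.add ((h.co_MM hh hF hg.k1).mul_left (f := fun l => 2 * Real.exp (-2 * l))
    (by fun_prop))) fun y hy l hl => ?_
  exact FV_X2 (h.fr' hy) (h.hgt' hh hy) hF hg.k0 hl.le

theorem co_f2 (h : AFr V π κ x τ L₀ L₁) (hh : Hgt V π κ x L₁ h₀) (hF : Well F dF H)
    (hg : Prof g g1 g2) : CO x τ L₀ (fun y l => f2 V π κ dF g y l) := by
  unfold f2
  exact (h.co_FV2 hh hF hg).mul_left (f := fun l => Real.exp ((2 - m) * l)) (by fun_prop)

theorem co_f3 (h : AFr V π κ x τ L₀ L₁) (hh : Hgt V π κ x L₁ h₀) (hF : Well F dF H)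
    (hg : Prof g g1 g2) : CO x τ L₀ (fun y l => f3 V π κ F g1 y l) := by
  obtain ⟨K, -, hK, hK', hK''⟩ := hg.k1.exists_bound
  obtain ⟨C1, hC1⟩ := F_bd h.fr hh hF
  have hFt : AEStronglyMeasurable (fun p : Euc k × L k => F (κ p.1) * tl π p.2) V :=
    (aesm_F hF κ V).mul (aestronglyMeasurable_tl π V)
  have hbt : ∀ᵐ p ∂V, ‖π p.1 - x‖ ^ 2 < Real.exp (2 * L₁) →
      |F (κ p.1) * tl π p.2| ≤ C1 * m := by
    filter_upwards [hC1, h.fr.tl_bound] with p h1 h2 hlt
    rw [abs_mul]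
    exact mul_le_mul (h1 hlt) (h2 hlt) (abs_nonneg _) ((abs_nonneg _).trans (h1 hlt))
  have hbq : ∀ᵐ p ∂V, ‖π p.1 - x‖ ^ 2 < Real.exp (2 * L₁) → ∀ y ∈ closedBall x τ,
      |F (κ p.1) * qf π p.2 (π p.1 - y)| ≤ C1 * (Real.exp L₁ + τ) ^ 2 := by
    filter_upwards [hC1, h.qf_bd] with p h1 h2 hlt y hy
    rw [abs_mul]
    exact mul_le_mul (h1 hlt) (h2 hlt y hy) (abs_nonneg _) ((abs_nonneg _).trans (h1 hlt))
  have k1 := h.co_F hh hF hg.k1.continuous hK hg.k1.zero
  have k2 := h.co_tk (aesm_F hF κ V) hC1 hg.k1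
  have k3 := h.co_ker' hFt hbt hg.k1.continuous hK hg.k1.zero
  have k4 := h.co_ker (c := fun y p => F (κ p.1) * qf π p.2 (π p.1 - y))
    (fun p => continuous_const.mul (continuous_qf_c π p))
    (fun y => (aesm_F hF κ V).mul (continuous_qf π y).aestronglyMeasurable) hbq hg.k1.cont hK'
    hg.k1.zero'
  have hs : CO x τ L₀ (fun y l => FV V (X3 π κ y F g1 l)) := by
    refine CO.congr (((((k1.const_mul m).add (k2.const_mul 2)).sub k3).sub
      (k4.mul_left (f := fun l => 2 * Real.exp (-2 * l)) (by fun_prop))).add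
        (h.co_MM hh hF hg.k1)) fun y hy l hl => ?_
    exact FV_X3 (h.fr' hy) (h.hgt' hh hy) hF hg.k1 hl.le
  unfold f3
  exact hs.mul_left (f := fun l => 4 * Real.exp (-m * l)) (by fun_prop)

/-! ### the averaged identities, general `V` -/

/-- (W1) averaged, first variation kept -/
theorem W1a (h : AFr V π κ x τ L₀ L₁) (hd : CW d τ) (hg : Prof g g1 g2) (Q : ℝ) {l : ℝ}
    (hl : l < L₀) :
    HasDerivAt (EEa d V π g Q x)
      (2 * bba d V π g Q x l + RRa d V π g1 x l - av d (f1 V π g) x l) l := by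
  have c1 := h.co_bb hg.k0 Q
  have c2 := h.co_RR hg.k1
  have c3 := h.co_f1 hg
  have h1 := hasDerivAt_av hd (h.co_EE hg.k0 Q) (((c1.const_mul 2).add c2).sub c3)
    (fun y hy l hl => hasDerivAt_EE (h.fr' hy) hg Q hl) hl
  refine h1.congr_deriv ?_
  rw [av_sub hd ((c1.const_mul 2).add c2) c3 hl, av_add hd (c1.const_mul 2) c2 hl, av_const_mul]
  rfl

/-- (W2) averaged, first variation kept -/
theorem W2a (h : AFr V π κ x τ L₀ L₁) (hh : Hgt V π κ x L₁ h₀) (hd : CW d τ) (hF : Well F dF H)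
    (hg : Prof g g1 g2) {l : ℝ} (hl : l < L₀) :
    (eFa d V π κ H g x l - av d (f2 V π κ dF g) x l) ^ 2 ≤
      IFa d V π κ F g1 x l * RRa d V π g1 x l := by
  have c1 := (h.co_eF hh hF hg.k0).sub (h.co_f2 hh hF hg)
  have h1 := av_cs hd c1 (h.co_IF hh hF hg.k1) (h.co_RR hg.k1) hl
    (fun y _ => IF_nonneg hF hg V l) (fun y hy => by
      have hfr := h.fr' hy
      unfold RR
      refine mul_nonneg (Real.exp_pos _).le (integral_nonneg_of_ae ?_)
      filter_upwards [hfr.conc] with p hp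
      have := hg.anti (Real.exp (-2 * l) * ‖π p.1 - y‖ ^ 2) (by positivity)
      exact mul_nonneg (qf_nonneg hfr.sp.hh (isPr_of_G hp) _) (by linarith))
    (fun y hy => eF_sq_le (h.fr' hy) (h.hgt' hh hy) hF hg hl.le)
  rw [av_sub hd (h.co_eF hh hF hg.k0) (h.co_f2 hh hF hg) hl] at h1
  exact h1

/-- (W3) averaged, first variation kept -/
theorem W3a (h : AFr V π κ x τ L₀ L₁) (hh : Hgt V π κ x L₁ h₀) (hd : CW d τ) (hF : Well F dF H)
    (hg : Prof g g1 g2) {l : ℝ} (hl : l < L₀) :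
    HasDerivAt (IFa d V π κ F g1 x)
      (2 * eFa d V π κ H g x l + err3a d V π κ F g1 g2 x l +
        (av d (f3 V π κ F g1) x l - 2 * av d (f2 V π κ dF g) x l)) l := by
  have c1 := h.co_eF hh hF hg.k0
  have c2 := h.co_err3 hh hF hg.k1 hg.k1.cont
  have c3 := h.co_f3 hh hF hg
  have c4 := h.co_f2 hh hF hg
  have h1 := hasDerivAt_av hd (h.co_IF hh hF hg.k1)
    (((c1.const_mul 2).add c2).add (c3.sub (c4.const_mul 2)))
    (fun y hy l hl => hasDerivAt_IF (h.fr' hy) (h.hgt' hh hy) hF hg hl) hl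
  refine h1.congr_deriv ?_
  rw [av_add hd ((c1.const_mul 2).add c2) (c3.sub (c4.const_mul 2)) hl,
    av_add hd (c1.const_mul 2) c2 hl, av_const_mul, av_sub hd c3 (c4.const_mul 2) hl,
    av_const_mul]
  rfl

theorem EEa_eq (h : AFr V π κ x τ L₀ L₁) (hd : CW d τ) (hg : Ker g g1) (Q : ℝ) {l : ℝ}
    (hl : l < L₀) : EEa d V π g Q x l = bba d V π g Q x l + eea d V π g x l / 2 := by
  have h1 : bba d V π g Q x l = EEa d V π g Q x l - (1 / 2) * eea d V π g x l := by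
    have h2 : bba d V π g Q x l =
        av d (fun y l => EE V π y g Q l - (1 / 2) * ee V π y g l) x l := by
      unfold bba
      refine av_congr hd fun y _ => ?_
      unfold bb
      ring
    rw [h2, av_sub hd (h.co_EE hg Q) ((h.co_ee hg).const_mul (1 / 2)) hl, av_const_mul]
    rfl
  rw [h1]; ring

theorem RRa_nonneg (h : AFr V π κ x τ L₀ L₁) (hd : CW d τ) (hg : Prof g g1 g2) (l : ℝ) :
    0 ≤ RRa d V π g1 x l := by
  refine av_nonneg hd fun y hy => ?_
  have hfr := h.fr' hy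
  unfold RR
  refine mul_nonneg (Real.exp_pos _).le (integral_nonneg_of_ae ?_)
  filter_upwards [hfr.conc] with p hp
  have := hg.anti (Real.exp (-2 * l) * ‖π p.1 - y‖ ^ 2) (by positivity)
  exact mul_nonneg (qf_nonneg hfr.sp.hh (isPr_of_G hp) _) (by linarith)

theorem eea_nonneg (h : AFr V π κ x τ L₀ L₁) (hd : CW d τ) (hg : Prof g g1 g2) (l : ℝ) :
    0 ≤ eea d V π g x l := by
  refine av_nonneg hd fun y hy => ?_
  have hfr := h.fr' hy
  unfold ee
  refine mul_nonneg (Real.exp_pos _).le (integral_nonneg_of_ae ?_)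
  filter_upwards [hfr.conc] with p hp
  exact mul_nonneg (tl_nonneg hfr.sp.hh (isPr_of_G hp)) (hg.nonneg _ (by positivity))

/-- continuity in `l` -/
theorem continuousOn_av (hd : CW d τ) {q : Euc m → ℝ → ℝ} (hq : CO x τ L₀ q) :
    ContinuousOn (av d q x) (Iio L₀) := by
  intro l hl
  have hl' : l < L₀ := hl
  set ε : ℝ := (L₀ - l) / 2 with hε
  have hε0 : 0 < ε := by rw [hε]; linarith
  have hsub : closedBall x τ ×ˢ Icc (l - ε) (l + ε) ⊆ closedBall x τ ×ˢ Iio L₀ := by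
    refine prod_mono subset_rfl fun t ht => ?_
    have := ht.2
    simp only [mem_Iio]
    rw [hε] at this
    linarith
  obtain ⟨C, hC⟩ := ((isCompact_closedBall x τ).prod
    (isCompact_Icc (a := l - ε) (b := l + ε))).exists_bound_of_continuousOn (ContinuousOn.mono hq hsub)
  refine ContinuousAt.continuousWithinAt ?_
  unfold av
  refine continuousAt_of_dominated (F := fun l h => d h * q (x - h) l) (bound := fun h => d h * C)
    ?_ ?_ (hd.integrable (f := fun _ => C) continuousOn_const) ?_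
  · filter_upwards [Iio_mem_nhds hl'] with l' hl'
    exact (hq.integrable hd hl').aestronglyMeasurable
  · filter_upwards [Metric.ball_mem_nhds l hε0] with l' hl'
    refine Eventually.of_forall fun h => ?_
    rw [Real.norm_eq_abs, abs_mul, abs_of_nonneg (hd.nonneg h)]
    by_cases hh : h ∈ closedBall (0 : Euc m) τ
    · refine mul_le_mul_of_nonneg_left ?_ (hd.nonneg h)
      rw [Metric.mem_ball, Real.dist_eq, abs_lt] at hl'
      exact hC (x - h, l') ⟨sub_mem hh, ⟨by linarith [hl'.1], by linarith [hl'.2]⟩⟩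
    · rw [hd.zero' hh]; simp
  · refine Eventually.of_forall fun h => ?_
    by_cases hh : h ∈ closedBall (0 : Euc m) τ
    · refine ContinuousAt.mul continuousAt_const ?_
      have h1 : ContinuousOn (fun l => q (x - h) l) (Iio L₀) := by
        have h2 : ContinuousOn (fun l : ℝ => (x - h, l)) (Iio L₀) := by fun_prop
        exact ContinuousOn.comp (g := uncurry q) hq h2 fun t ht => ⟨sub_mem hh, ht⟩
      exact h1.continuousAt (Iio_mem_nhds hl')
    · simp only [hd.zero' hh, zero_mul]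
      exact continuousAt_const

end AFr

/-! ### stationary in a cylinder -/

variable {W : Measure (Euc k × L k)} {x₀ : Euc m} {R : ℝ}

/-- a finite measure gives a frame at all centres and scales -/
theorem afr_of_cyl (h : CylStat W π κ x₀ R h₀) (hτ : 0 ≤ τ) (x : Euc m) (L₀ : ℝ) :
    AFr W π κ x τ L₀ (Real.log (Real.exp L₀ + τ)) where
  fr := h.fr x _
  τ0 := hτ
  le := by
    rw [Real.exp_log (by positivity)]

theorem mem_R {l : ℝ} (hl : ‖x - x₀‖ + τ + Real.exp l ≤ R) {y : Euc m} (hy : y ∈ closedBall x τ) :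
    ‖y - x₀‖ + Real.exp l ≤ R := by
  have h1 : ‖y - x‖ ≤ τ := by rwa [mem_closedBall_iff_norm] at hy
  have h2 : ‖y - x₀‖ ≤ ‖y - x‖ + ‖x - x₀‖ := norm_sub_le_norm_sub_add_norm_sub y x x₀
  linarith

/-- **(W1)** for averaged centres -/
theorem W1c (h : CylStat W π κ x₀ R h₀) (hτ : 0 ≤ τ) (hd : CW d τ) (hg : Prof g g1 g2) (Q : ℝ)
    {l : ℝ} (hl : ‖x - x₀‖ + τ + Real.exp l ≤ R) :
    HasDerivAt (EEa d W π g Q x) (2 * bba d W π g Q x l + RRa d W π g1 x l) l := by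
  have h1 := (afr_of_cyl h hτ x (l + 1)).W1a hd hg Q (by linarith : l < l + 1)
  have h2 : av d (f1 W π g) x l = av d (fun _ _ => 0) x l := by
    refine av_congr hd fun y hy => ?_
    unfold f1
    rw [h.FV1 hg.k0 (mem_R hl hy), mul_zero]
  have h3 : av d (fun _ _ => 0) x l = 0 := by unfold av; simp
  rw [h2, h3, sub_zero] at h1
  exact h1

/-- **(W2)** for averaged centres -/
theorem W2c (h : CylStat W π κ x₀ R h₀) (hτ : 0 ≤ τ) (hd : CW d τ) (hF : Well F dF H)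
    (hg : Prof g g1 g2) {l : ℝ} (hl : ‖x - x₀‖ + τ + Real.exp l ≤ R) :
    eFa d W π κ H g x l ^ 2 ≤ IFa d W π κ F g1 x l * RRa d W π g1 x l := by
  have h1 := (afr_of_cyl h hτ x (l + 1)).W2a (h.hgt' x _) hd hF hg (by linarith : l < l + 1)
  have h2 : av d (f2 W π κ dF g) x l = av d (fun _ _ => 0) x l := by
    refine av_congr hd fun y hy => ?_
    unfold f2
    rw [h.FV2 hF hg.k0 (mem_R hl hy), mul_zero]
  have h3 : av d (fun _ _ => 0) x l = 0 := by unfold av; simp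
  rw [h2, h3, sub_zero] at h1
  exact h1

/-- **(W3)** for averaged centres -/
theorem W3c (h : CylStat W π κ x₀ R h₀) (hτ : 0 ≤ τ) (hd : CW d τ) (hF : Well F dF H)
    (hg : Prof g g1 g2) {l : ℝ} (hl : ‖x - x₀‖ + τ + Real.exp l ≤ R) :
    HasDerivAt (IFa d W π κ F g1 x)
      (2 * eFa d W π κ H g x l + err3a d W π κ F g1 g2 x l) l := by
  have h1 := (afr_of_cyl h hτ x (l + 1)).W3a (h.hgt' x _) hd hF hg (by linarith : l < l + 1)
  have h2 : av d (f2 W π κ dF g) x l = av d (fun _ _ => 0) x l := by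
    refine av_congr hd fun y hy => ?_
    unfold f2
    rw [h.FV2 hF hg.k0 (mem_R hl hy), mul_zero]
  have h4 : av d (f3 W π κ F g1) x l = av d (fun _ _ => 0) x l := by
    refine av_congr hd fun y hy => ?_
    unfold f3
    rw [h.FV3 hF hg.k1 (mem_R hl hy), mul_zero]
  have h3 : av d (fun _ _ => 0) x l = 0 := by unfold av; simp
  rw [h2, h4, h3, mul_zero, sub_zero, add_zero] at h1
  exact h1

/-- (W4): for `F = |y|²/2` the averaged well energy is the averaged tilt energy -/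
theorem eFa_sq_eq (h : CylStat W π κ x₀ R h₀) (x : Euc m) (g : ℝ → ℝ) (l : ℝ) :
    eFa d W π κ (fun _ => ContinuousLinearMap.id ℝ (Euc n)) g x l = eea d W π g x l := by
  unfold eFa eea av
  refine integral_congr_ae (Eventually.of_forall fun y => ?_)
  simp only
  rw [h.eF_sq_eq]

/-- `e² ≤ I R` for averaged centres -/
theorem eea_sq_le (h : CylStat W π κ x₀ R h₀) (hτ : 0 ≤ τ) (hd : CW d τ) (hg : Prof g g1 g2)
    {l : ℝ} (hl : ‖x - x₀‖ + τ + Real.exp l ≤ R) :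
    eea d W π g x l ^ 2 ≤ IFa d W π κ (fun y => ‖y‖ ^ 2 / 2) g1 x l * RRa d W π g1 x l := by
  rw [← eFa_sq_eq h x g l (n := n)]
  exact W2c h hτ hd well_sq hg hl

/-- `E = b + e / 2` for averaged centres -/
theorem EEa_eq_c (h : CylStat W π κ x₀ R h₀) (hτ : 0 ≤ τ) (hd : CW d τ) (hg : Ker g g1) (Q : ℝ)
    (x : Euc m) (l : ℝ) : EEa d W π g Q x l = bba d W π g Q x l + eea d W π g x l / 2 :=
  (afr_of_cyl h hτ x (l + 1)).EEa_eq hd hg Q (by linarith : l < l + 1)

theorem RRa_nonneg_c (h : CylStat W π κ x₀ R h₀) (hτ : 0 ≤ τ) (hd : CW d τ) (hg : Prof g g1 g2)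
    (x : Euc m) (l : ℝ) : 0 ≤ RRa d W π g1 x l :=
  (afr_of_cyl h hτ x (l + 1)).RRa_nonneg hd hg l

theorem eea_nonneg_c (h : CylStat W π κ x₀ R h₀) (hτ : 0 ≤ τ) (hd : CW d τ) (hg : Prof g g1 g2)
    (x : Euc m) (l : ℝ) : 0 ≤ eea d W π g x l :=
  (afr_of_cyl h hτ x (l + 1)).eea_nonneg hd hg l

theorem IFa_nonneg (hd : CW d τ) (hF : Well F dF H) (hg : Prof g g1 g2)
    (W : Measure (Euc k × L k)) (x : Euc m) (l : ℝ) : 0 ≤ IFa d W π κ F g1 x l :=
  av_nonneg hd fun _ _ => IF_nonneg hF hg W l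

theorem continuous_of_CO {q : Euc m → ℝ → ℝ} (hd : CW d τ) (hq : ∀ L₀, CO x τ L₀ q) :
    Continuous (av d q x) := by
  rw [continuous_iff_continuousAt]
  intro l
  exact (AFr.continuousOn_av hd (hq (l + 1))).continuousAt (Iio_mem_nhds (by linarith))

theorem continuous_EEa (h : CylStat W π κ x₀ R h₀) (hτ : 0 ≤ τ) (hd : CW d τ) (hg : Ker g g1)
    (Q : ℝ) (x : Euc m) : Continuous (EEa d W π g Q x) :=
  continuous_of_CO hd fun L₀ => (afr_of_cyl h hτ x L₀).co_EE hg Q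

theorem continuous_eea (h : CylStat W π κ x₀ R h₀) (hτ : 0 ≤ τ) (hd : CW d τ) (hg : Ker g g1)
    (x : Euc m) : Continuous (eea d W π g x) :=
  continuous_of_CO hd fun L₀ => (afr_of_cyl h hτ x L₀).co_ee hg

theorem continuous_bba (h : CylStat W π κ x₀ R h₀) (hτ : 0 ≤ τ) (hd : CW d τ) (hg : Ker g g1)
    (Q : ℝ) (x : Euc m) : Continuous (bba d W π g Q x) :=
  continuous_of_CO hd fun L₀ => (afr_of_cyl h hτ x L₀).co_bb hg Q

theorem continuous_RRa (h : CylStat W π κ x₀ R h₀) (hτ : 0 ≤ τ) (hd : CW d τ)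
    (hg : Ker g1 g2) (x : Euc m) : Continuous (RRa d W π g1 x) :=
  continuous_of_CO hd fun L₀ => (afr_of_cyl h hτ x L₀).co_RR hg

theorem continuous_IFa (h : CylStat W π κ x₀ R h₀) (hτ : 0 ≤ τ) (hd : CW d τ)
    (hF : Well F dF H) (hg : Ker g1 g2) (x : Euc m) : Continuous (IFa d W π κ F g1 x) :=
  continuous_of_CO hd fun L₀ => (afr_of_cyl h hτ x L₀).co_IF (h.hgt' x _) hF hg

theorem continuous_eFa (h : CylStat W π κ x₀ R h₀) (hτ : 0 ≤ τ) (hd : CW d τ)
    (hF : Well F dF H) (hg : Ker g g1) (x : Euc m) : Continuous (eFa d W π κ H g x) :=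
  continuous_of_CO hd fun L₀ => (afr_of_cyl h hτ x L₀).co_eF (h.hgt' x _) hF hg

theorem continuous_err3a (h : CylStat W π κ x₀ R h₀) (hτ : 0 ≤ τ) (hd : CW d τ)
    (hF : Well F dF H) (hg : Prof g g1 g2) (x : Euc m) :
    Continuous (err3a d W π κ F g1 g2 x) :=
  continuous_of_CO hd fun L₀ => (afr_of_cyl h hτ x L₀).co_err3 (h.hgt' x _) hF hg.k1 hg.k1.cont

/-- integrated (W1) -/
theorem EEa_sub (h : CylStat W π κ x₀ R h₀) (hτ : 0 ≤ τ) (hd : CW d τ) (hg : Prof g g1 g2)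
    (Q : ℝ) {a b : ℝ} (hab : a ≤ b) (hb : ‖x - x₀‖ + τ + Real.exp b ≤ R) :
    EEa d W π g Q x b - EEa d W π g Q x a =
      (∫ l in a..b, 2 * bba d W π g Q x l) + ∫ l in a..b, RRa d W π g1 x l := by
  have hc1 : Continuous fun l => 2 * bba d W π g Q x l :=
    continuous_const.mul (continuous_bba h hτ hd hg.k0 Q x)
  have hc2 := continuous_RRa h hτ hd hg.k1 x
  rw [← intervalIntegral.integral_add (hc1.intervalIntegrable _ _) (hc2.intervalIntegrable _ _)]
  symm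
  refine intervalIntegral.integral_eq_sub_of_hasDerivAt (fun l hl => ?_)
    ((hc1.add hc2).intervalIntegrable _ _)
  rw [Set.uIcc_of_le hab] at hl
  refine W1c h hτ hd hg Q ?_
  have := Real.exp_le_exp.2 hl.2
  linarith

/-- integrated (W3) -/
theorem IFa_sub (h : CylStat W π κ x₀ R h₀) (hτ : 0 ≤ τ) (hd : CW d τ) (hF : Well F dF H)
    (hg : Prof g g1 g2) {a b : ℝ} (hab : a ≤ b) (hb : ‖x - x₀‖ + τ + Real.exp b ≤ R) :
    IFa d W π κ F g1 x b - IFa d W π κ F g1 x a =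
      (∫ l in a..b, 2 * eFa d W π κ H g x l) + ∫ l in a..b, err3a d W π κ F g1 g2 x l := by
  have hc1 : Continuous fun l => 2 * eFa d W π κ H g x l :=
    continuous_const.mul (continuous_eFa h hτ hd hF hg.k0 x)
  have hc2 := continuous_err3a h hτ hd hF hg x
  rw [← intervalIntegral.integral_add (hc1.intervalIntegrable _ _) (hc2.intervalIntegrable _ _)]
  symm
  refine intervalIntegral.integral_eq_sub_of_hasDerivAt (fun l hl => ?_)
    ((hc1.add hc2).intervalIntegrable _ _)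
  rw [Set.uIcc_of_le hab] at hl
  refine W3c h hτ hd hF hg ?_
  have := Real.exp_le_exp.2 hl.2
  linarith

end Crest.Agent.R234.Avg_387
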