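import Crest.Agent.R234.Pot3_425

/-!
R234 (helper425), POT part 4: the contact frame.
-/

open MeasureTheory Filter Topology Set Metric
open scoped ENNReal NNReal

namespace Crest.Agent.R234.Pot_425

noncomputable section

set_option linter.unusedSectionVars false

variable {F : Type*} [NormedAddCommGroup F] [InnerProductSpace ℝ F] [FiniteDimensional ℝ F]
  [MeasurableSpace F] [BorelSpace F]

attribute [local irreducible] DD KK PP gg

/-- the closed ball of radius `1 - τ` as a compact metric space -/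
abbrev XB (F : Type*) [NormedAddCommGroup F] (τ : ℝ) : Type _ := ↥(closedBall (0 : F) (1 - τ))

instance (τ : ℝ) : CompactSpace (XB F τ) := isCompact_iff_compactSpace.1 (isCompact_closedBall _ _)

lemma XB_norm {τ : ℝ} (y : XB F τ) : ‖(y : F)‖ ≤ 1 - τ :=
  mem_closedBall_zero_iff.1 y.2

variable {m : ℕ} {τ : ℝ}

/-- potential of a measure on the closed ball, as a function on `F` -/
def pt (m : ℕ) (τ : ℝ) (μ : Measure (XB F τ)) (z : F) : ℝ := ∫ y, KK m τ z (y : F) ∂μ

/-- mollified density of a measure on the closed ball -/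
def ml (m : ℕ) (τ : ℝ) (μ : Measure (XB F τ)) (z : F) : ℝ := ∫ y, DD m τ (‖z - (y : F)‖ ^ 2) ∂μ

lemma ml_nonneg (hτ : 0 < τ) (μ : Measure (XB F τ)) (z : F) : 0 ≤ ml m τ μ z :=
  integral_nonneg fun _ => DD_nonneg hτ _

lemma continuous_param {Y Z : Type*} [TopologicalSpace Y] [TopologicalSpace Z] [CompactSpace Z]
    [FirstCountableTopology Y] [LocallyCompactSpace Y]
    [MeasurableSpace Z] [OpensMeasurableSpace Z] [SecondCountableTopologyEither Z ℝ]
    (μ : Measure Z) [IsFiniteMeasure μ] {g : Y → Z → ℝ}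
    (hg : Continuous fun p : Y × Z => g p.1 p.2) : Continuous fun y => ∫ z, g y z ∂μ := by
  have h := continuous_parametric_integral_of_continuous (μ := μ) (f := g) hg
    (isCompact_univ (X := Z))
  simpa using h

lemma continuous_pt (hτ : 0 < τ) (μ : Measure (XB F τ)) [IsFiniteMeasure μ] :
    Continuous (pt m τ μ) := by
  refine continuous_param μ (g := fun (z : F) (y : XB F τ) => KK m τ z (y : F)) ?_
  exact (continuous_KK hτ).comp (by fun_prop : Continuous fun p : F × XB F τ => (p.1, (p.2 : F)))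

lemma continuous_ml (hτ : 0 < τ) (μ : Measure (XB F τ)) [IsFiniteMeasure μ] :
    Continuous (ml m τ μ) := by
  refine continuous_param μ (g := fun (z : F) (y : XB F τ) => DD m τ (‖z - (y : F)‖ ^ 2)) ?_
  have h : Continuous fun p : F × XB F τ => ‖p.1 - (p.2 : F)‖ ^ 2 := by fun_prop
  exact (continuous_DD (m := m) hτ).comp h

section generic

variable {Z : Type*} [TopologicalSpace Z] [T2Space Z] [CompactSpace Z] [MeasurableSpace Z]
  [BorelSpace Z] [SecondCountableTopology Z]

lemma swap_ball (μ : Measure Z) [IsFiniteMeasure μ] {g : F → Z → ℝ}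
    (hg : Continuous fun p : F × Z => g p.1 p.2)
    (h0 : ∀ y ∉ closedBall (0 : F) 1, ∀ z, g y z = 0) :
    ∫ y, (∫ z, g y z ∂μ) = ∫ z, (∫ y, g y z) ∂μ := by
  rw [integral_integral_swap]
  refine hg.integrable_of_hasCompactSupport ?_
  refine HasCompactSupport.intro ((isCompact_closedBall (0 : F) 1).prod isCompact_univ) ?_
  rintro ⟨a, b⟩ hab
  have : a ∉ closedBall (0 : F) 1 := by
    intro h
    exact hab ⟨h, mem_univ _⟩
  exact h0 a this b

lemma swap_interval (μ : Measure Z) [IsFiniteMeasure μ] {g : ℝ → Z → ℝ}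
    (hg : Continuous fun p : ℝ × Z => g p.1 p.2) {s : ℝ} (hs : 0 ≤ s) :
    ∫ ρ in (0 : ℝ)..s, (∫ z, g ρ z ∂μ) = ∫ z, (∫ ρ in (0 : ℝ)..s, g ρ z) ∂μ := by
  simp only [intervalIntegral.integral_of_le hs]
  rw [integral_integral_swap]
  have h6 : IntegrableOn (fun p : ℝ × Z => g p.1 p.2) (Icc 0 s ×ˢ univ)
      ((volume : Measure ℝ).prod μ) :=
    hg.continuousOn.integrableOn_compact (isCompact_Icc.prod isCompact_univ)
  have h7 : IntegrableOn (fun p : ℝ × Z => g p.1 p.2) (Ioc 0 s ×ˢ univ)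
      ((volume : Measure ℝ).prod μ) := h6.mono_set (prod_mono Ioc_subset_Icc_self subset_rfl)
  rw [IntegrableOn, ← Measure.prod_restrict, Measure.restrict_univ] at h7
  exact h7

lemma continuous_int_ball {Y : Type*} [TopologicalSpace Y] [FirstCountableTopology Y]
    [LocallyCompactSpace Y] {g : Y → F → ℝ} (hg : Continuous fun p : Y × F => g p.1 p.2)
    (h0 : ∀ y ∉ closedBall (0 : F) 1, ∀ z, g z y = 0) : Continuous fun z => ∫ y, g z y := by
  have h4 : (fun z => ∫ y, g z y) = fun z => ∫ y in closedBall (0 : F) 1, g z y := by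
    funext z
    rw [setIntegral_eq_integral_of_forall_compl_eq_zero]
    intro y hy
    exact h0 y hy z
  rw [h4]
  exact continuous_parametric_integral_of_continuous (μ := (volume : Measure F)) hg
    (isCompact_closedBall (0 : F) 1)

end generic

/-- averaging identity for potentials -/
theorem pt_mean (hm : m = Module.finrank ℝ F) (hτ : 0 < τ) (w : Wt) (μ : Measure (XB F τ))
    [IsFiniteMeasure μ] {x : F} {s : ℝ} (hs : 0 ≤ s) (hx : ‖x‖ + s ≤ 1 - τ) :
    ∫ y, w.eta y * pt m τ μ (x - s • y) = (∫ y : F, w.eta y) * pt m τ μ x -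
      ∫ ρ in (0 : ℝ)..s, (ρ * ∫ y, w.psi y * ml m τ μ (x - ρ • y)) := by
  have hpsi := w.continuous_psi (F := F)
  have heta := w.continuous_eta (F := F)
  have hK := continuous_KK (m := m) (F := F) hτ
  have hD := continuous_DD (m := m) hτ
  -- step 1: swap
  have e1 : ∫ y', w.eta y' * pt m τ μ (x - s • y') =
      ∫ y : XB F τ, (∫ y' : F, w.eta y' * KK m τ (x - s • y') (y : F)) ∂μ := by
    rw [← swap_ball (F := F) μ (g := fun (y' : F) (y : XB F τ) =>
      w.eta y' * KK m τ (x - s • y') (y : F))]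
    · refine integral_congr_ae (Eventually.of_forall fun y' => ?_)
      simp only [pt]
      rw [integral_const_mul]
    · have h : Continuous fun p : F × XB F τ => (x - s • p.1, (p.2 : F)) := by fun_prop
      exact (heta.comp continuous_fst).mul (hK.comp h)
    · intro y' hy' y
      rw [w.eta_zero hy', zero_mul]
  -- step 2: the scale identity
  let J : ℝ × XB F τ → ℝ := fun p => ∫ y' : F, w.psi y' * DD m τ (‖(x - p.1 • y') - (p.2 : F)‖ ^ 2)
  have hJ : Continuous J := by
    refine continuous_int_ball (g := fun (p : ℝ × XB F τ) (y' : F) =>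
      w.psi y' * DD m τ (‖(x - p.1 • y') - (p.2 : F)‖ ^ 2)) ?_ ?_
    · have h : Continuous fun p : (ℝ × XB F τ) × F => ‖(x - p.1.1 • p.2) - (p.1.2 : F)‖ ^ 2 := by
        fun_prop
      exact (hpsi.comp continuous_snd).mul (hD.comp h)
    · intro y' hy' z
      simp only [w.psi_zero hy', zero_mul]
  have e2 : ∀ y : XB F τ, ∫ y' : F, w.eta y' * KK m τ (x - s • y') (y : F) =
      (∫ y : F, w.eta y) * KK m τ x (y : F) - ∫ ρ in (0 : ℝ)..s, (ρ * J (ρ, y)) := by
    intro y
    have h := scale_identity w (hasFDerivAt_KK (m := m) hτ (y : F)) (hasFDerivAt_GK hτ (y : F))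
      (continuous_HK hτ (y : F)) x s
    have h2 : ∫ ρ in (0 : ℝ)..s, (ρ * ∫ y', w.psi y' * dv (HK m τ (y : F) (x - ρ • y'))) =
        - ∫ ρ in (0 : ℝ)..s, (ρ * J (ρ, y)) := by
      rw [← intervalIntegral.integral_neg]
      refine intervalIntegral.integral_congr fun ρ hρ => ?_
      rw [uIcc_of_le hs] at hρ
      simp only [J]
      rw [← mul_neg, ← integral_neg]
      congr 1
      refine integral_congr_ae (Eventually.of_forall fun y' => ?_)
      simp only
      by_cases hy : y' ∈ closedBall (0 : F) 1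
      · have hy1 : ‖y'‖ ≤ 1 := by simpa using hy
        have hz : ‖x - ρ • y'‖ ≤ 1 - τ := by
          have h5 : ‖ρ • y'‖ ≤ s := by
            rw [norm_smul, Real.norm_of_nonneg hρ.1]
            nlinarith [norm_nonneg y', hρ.1, hρ.2]
          have := norm_sub_le x (ρ • y')
          linarith
        rw [dv_HK' hm hτ hz (XB_norm y)]
        ring
      · rw [w.psi_zero hy]; simp
    rw [h2] at h
    linarith
  rw [e1]
  simp only [e2]
  have hint1 : Integrable (fun y : XB F τ => (∫ y : F, w.eta y) * KK m τ x (y : F)) μ := by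
    refine integrable_cont μ ?_
    have h : Continuous fun y : XB F τ => (x, (y : F)) := by fun_prop
    exact continuous_const.mul (hK.comp h)
  have hcI : Continuous fun y : XB F τ => ∫ ρ in (0 : ℝ)..s, (ρ * J (ρ, y)) := by
    refine intervalIntegral.continuous_parametric_intervalIntegral_of_continuous' ?_ _ _
    show Continuous fun p : XB F τ × ℝ => p.2 * J (p.2, p.1)
    exact continuous_snd.mul (hJ.comp (continuous_snd.prodMk continuous_fst))
  rw [integral_sub hint1 (integrable_cont μ hcI), integral_const_mul]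
  have e5 : ∫ y : XB F τ, (∫ ρ in (0 : ℝ)..s, (ρ * J (ρ, y))) ∂μ =
      ∫ ρ in (0 : ℝ)..s, (ρ * ∫ y, w.psi y * ml m τ μ (x - ρ • y)) := by
    rw [← swap_interval μ (g := fun (ρ : ℝ) (y : XB F τ) => ρ * J (ρ, y)) ?_ hs]
    · refine intervalIntegral.integral_congr fun ρ _ => ?_
      show ∫ y : XB F τ, ρ * J (ρ, y) ∂μ = _
      rw [integral_const_mul]
      congr 1
      simp only [J]
      rw [← swap_ball (F := F) μ (g := fun (y' : F) (y : XB F τ) =>
        w.psi y' * DD m τ (‖(x - ρ • y') - (y : F)‖ ^ 2))]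
      · refine integral_congr_ae (Eventually.of_forall fun y' => ?_)
        simp only [ml]
        rw [integral_const_mul]
      · have h : Continuous fun p : F × XB F τ => ‖(x - ρ • p.1) - (p.2 : F)‖ ^ 2 := by
          fun_prop
        exact (hpsi.comp continuous_fst).mul (hD.comp h)
      · intro y' hy' y
        rw [w.psi_zero hy', zero_mul]
    · exact continuous_fst.mul hJ
  rw [e5]
  rfl

/-- the kernel on the compact ball -/
def KX (m : ℕ) (τ : ℝ) (p : XB F τ × XB F τ) : ℝ := KK m τ (p.1 : F) (p.2 : F)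

lemma continuous_KX (hτ : 0 < τ) : Continuous (KX m τ : XB F τ × XB F τ → ℝ) := by
  have h : Continuous fun p : XB F τ × XB F τ => ((p.1 : F), (p.2 : F)) := by fun_prop
  exact (continuous_KK (m := m) hτ).comp h

lemma pot_KX (μ : Measure (XB F τ)) (x : XB F τ) : pot (KX m τ) μ x = pt m τ μ (x : F) := rfl

/-- the scale integral `∫_0^s ρ ∫ ψ(y) μ_τ(x - ρ y) dy dρ` (a mollified `∫_0^s μ̂_x(ρ) dρ/ρ`) -/
def SS (m : ℕ) (τ : ℝ) (w : Wt) (μ : Measure (XB F τ)) (x : F) (s : ℝ) : ℝ :=
  ∫ ρ in (0 : ℝ)..s, (ρ * ∫ y, w.psi y * ml m τ μ (x - ρ • y))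

lemma SS_nonneg (hτ : 0 < τ) (w : Wt) (μ : Measure (XB F τ)) (x : F) {s : ℝ} (hs : 0 ≤ s) :
    0 ≤ SS m τ w μ x s := by
  unfold SS
  refine intervalIntegral.integral_nonneg hs fun ρ hρ => mul_nonneg hρ.1 ?_
  exact integral_nonneg fun y => mul_nonneg (w.psi_nonneg y) (ml_nonneg hτ μ _)

/-- **CONTACT FRAME.**  For a signed measure `b₁ - b₂` on the closed ball of radius `1 - τ` there is a
finite measure `ε` on this ball such that
(i) `K ε ≥ K (b₁ - b₂)` on the ball;
(ii) `(b₁ - b₂)(φ) ≤ ε(φ)` for every potential `φ = K ν`, `ν ≥ 0`;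
(iii) `K ε = K (b₁ - b₂)` on the support of `ε`;
(iv) for `x` in the support of `ε` and every scale `s` with `B_s(x)` in the ball
`0 ≤ ∫_0^s ε^_x ≤ ∫_0^s b^_x` (centres averaged at scale `τ`). -/
theorem contact_ball (hm : m = Module.finrank ℝ F) (hτ : 0 < τ) (b₁ b₂ : Measure (XB F τ))
    [IsFiniteMeasure b₁] [IsFiniteMeasure b₂] :
    ∃ ε : Measure (XB F τ), IsFiniteMeasure ε ∧
      (∀ x : XB F τ, pt m τ b₁ (x : F) - pt m τ b₂ (x : F) ≤ pt m τ ε (x : F)) ∧
      (∀ ν : Measure (XB F τ), IsFiniteMeasure ν →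
        ∫ x : XB F τ, pt m τ ν (x : F) ∂b₁ - ∫ x : XB F τ, pt m τ ν (x : F) ∂b₂ ≤
          ∫ x : XB F τ, pt m τ ν (x : F) ∂ε) ∧
      (∀ x ∈ ε.support, pt m τ ε (x : F) = pt m τ b₁ (x : F) - pt m τ b₂ (x : F)) ∧
      (∀ x ∈ ε.support, ∀ (w : Wt) (s : ℝ), 0 ≤ s → ‖(x : F)‖ + s ≤ 1 - τ →
        0 ≤ SS m τ w ε (x : F) s ∧
          SS m τ w ε (x : F) s ≤ SS m τ w b₁ (x : F) s - SS m τ w b₂ (x : F) s) := by
  have hK := continuous_KX (m := m) (F := F) hτ
  have hsym : ∀ x y : XB F τ, KX m τ (x, y) = KX m τ (y, x) := fun x y => KK_symm _ _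
  have hpos : ∀ p : XB F τ × XB F τ, 0 < KX m τ p := by
    intro p
    have h1 := XB_norm p.1
    have h2 := XB_norm p.2
    exact KK_pos hτ (by linarith) (by linarith)
  let f : XB F τ → ℝ := fun x => pt m τ b₁ (x : F) - pt m τ b₂ (x : F)
  have hf : Continuous f := by
    have h1 := continuous_pot hK b₁
    have h2 := continuous_pot hK b₂
    exact h1.sub h2
  obtain ⟨ε, hε, hge, hsupp⟩ := exists_contact hK hsym hpos hf
  have hge' : ∀ x : XB F τ, pt m τ b₁ (x : F) - pt m τ b₂ (x : F) ≤ pt m τ ε (x : F) := hge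
  have hsupp' : ∀ x ∈ ε.support,
      pt m τ ε (x : F) = pt m τ b₁ (x : F) - pt m τ b₂ (x : F) := hsupp
  refine ⟨ε, hε, hge', ?_, hsupp', ?_⟩
  · intro ν hν
    have h1 := dominate hK hsym hf hge ν
    have h2 : ∫ x, f x ∂ν = ∫ x : XB F τ, pt m τ ν (x : F) ∂b₁ -
        ∫ x : XB F τ, pt m τ ν (x : F) ∂b₂ := by
      have h3 : ∫ x, f x ∂ν = ∫ x, pot (KX m τ) b₁ x ∂ν - ∫ x, pot (KX m τ) b₂ x ∂ν :=
        integral_sub (integrable_cont _ (continuous_pot hK b₁))
          (integrable_cont _ (continuous_pot hK b₂))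
      rw [h3]
      have h4 : ∫ x, pot (KX m τ) b₁ x ∂ν = ∫ x, pot (KX m τ) ν x ∂b₁ := en_symm hK hsym ν b₁
      have h5 : ∫ x, pot (KX m τ) b₂ x ∂ν = ∫ x, pot (KX m τ) ν x ∂b₂ := en_symm hK hsym ν b₂
      rw [h4, h5]
      rfl
    rw [h2] at h1
    exact h1
  · intro x hx w s hs hxs
    refine ⟨SS_nonneg hτ w ε _ hs, ?_⟩
    have e0 := pt_mean hm hτ w ε hs hxs
    have e1 := pt_mean hm hτ w b₁ hs hxs
    have e2 := pt_mean hm hτ w b₂ hs hxs
    have hcx : ∀ μ : Measure (XB F τ), IsFiniteMeasure μ →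
        Continuous fun y : F => pt m τ μ ((x : F) - s • y) := by
      intro μ hμ
      have h : Continuous fun y : F => (x : F) - s • y := by fun_prop
      exact (continuous_pt hτ μ).comp h
    have hnn : 0 ≤ (∫ y : F, w.eta y * pt m τ ε ((x : F) - s • y)) -
        ((∫ y : F, w.eta y * pt m τ b₁ ((x : F) - s • y)) -
          (∫ y : F, w.eta y * pt m τ b₂ ((x : F) - s • y))) := by
      have i1 := w.integrable_eta_mul (hcx b₁ inferInstance)
      have i2 := w.integrable_eta_mul (hcx b₂ inferInstance)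
      have i0 := w.integrable_eta_mul (hcx ε hε)
      have h8 : ∫ y : F, (w.eta y * pt m τ ε ((x : F) - s • y) -
          (w.eta y * pt m τ b₁ ((x : F) - s • y) - w.eta y * pt m τ b₂ ((x : F) - s • y))) =
          (∫ y : F, w.eta y * pt m τ ε ((x : F) - s • y)) -
        ((∫ y : F, w.eta y * pt m τ b₁ ((x : F) - s • y)) -
          (∫ y : F, w.eta y * pt m τ b₂ ((x : F) - s • y))) := by
        refine (integral_sub i0 (i1.sub i2)).trans ?_
        congr 1
        exact integral_sub i1 i2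
      rw [← h8]
      refine integral_nonneg fun y => ?_
      simp only [Pi.zero_apply]
      by_cases hy : y ∈ closedBall (0 : F) 1
      · have hy1 : ‖y‖ ≤ 1 := by simpa using hy
        have hz : ‖(x : F) - s • y‖ ≤ 1 - τ := by
          have h5 : ‖s • y‖ ≤ s := by
            rw [norm_smul, Real.norm_of_nonneg hs]
            nlinarith [norm_nonneg y]
          have := norm_sub_le (x : F) (s • y)
          linarith
        have h6 := hge' ⟨(x : F) - s • y, by simpa using hz⟩
        simp only at h6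
        have h7 := w.eta_nonneg y
        nlinarith
      · rw [w.eta_zero hy]; simp
    rw [e0, e1, e2, hsupp' x hx] at hnn
    unfold SS
    linarith

end

end Crest.Agent.R234.Pot_425
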