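import Crest.Agent.R234.Avg2_387
import Crest.Agent.R234.Pot4_425

/-!
# Row 234, VF-AVG, part 3 (helper387)

The scale integral `SS` of helper425 is the primitive of the averaged anomaly; `E = 2 B + U`, `U' = R`,
`U → 0` at small scales.
-/

set_option autoImplicit false

open MeasureTheory Set Function Filter Topology Metric
open Crest.GeometryTopology.Submanifold
open Crest.Agent.R234.Vf_884 Crest.Agent.R234.Ar_870 Crest.Agent.R234.Cy_870
open Crest.Agent.R234.Pot_425
open scoped ENNReal NNReal InnerProductSpace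

noncomputable section

namespace Crest.Agent.R234.Avg_387

variable {m n k : ℕ}

/-! ### generic lemmas -/

theorem swap_c {E Z : Type*} [NormedAddCommGroup E] [InnerProductSpace ℝ E]
    [FiniteDimensional ℝ E] [MeasurableSpace E] [BorelSpace E]
    [TopologicalSpace Z] [T2Space Z] [CompactSpace Z] [MeasurableSpace Z]
    [BorelSpace Z] [SecondCountableTopology Z] (μ : Measure Z) [IsFiniteMeasure μ]
    {f : E → Z → ℝ} (hf : Continuous fun p : E × Z => f p.1 p.2) (r : ℝ)
    (h0 : ∀ y ∉ closedBall (0 : E) r, ∀ z, f y z = 0) :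
    ∫ y, (∫ z, f y z ∂μ) = ∫ z, (∫ y, f y z) ∂μ := by
  rw [integral_integral_swap]
  refine hf.integrable_of_hasCompactSupport ?_
  refine HasCompactSupport.intro ((isCompact_closedBall (0 : E) r).prod isCompact_univ) ?_
  rintro ⟨a, b⟩ hab
  have : a ∉ closedBall (0 : E) r := by
    intro h
    exact hab ⟨h, mem_univ _⟩
  exact h0 a this b

/-- if `U' ≥ r - ε`, `U → 0` at `-∞`, `r ≥ 0` and `∫ ε ≤ K` then `∫_a^l r ≤ U l + K` -/
theorem le_of_tendsto_zero {U u r ε : ℝ → ℝ} {l K : ℝ} (hder : ∀ t ≤ l, HasDerivAt U (u t) t)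
    (hu : ContinuousOn u (Iic l)) (hr : ContinuousOn r (Iic l)) (hε : ContinuousOn ε (Iic l))
    (h0 : Tendsto U atBot (𝓝 0)) (hr0 : ∀ t ≤ l, 0 ≤ r t) (hle : ∀ t ≤ l, r t - ε t ≤ u t)
    (hK : ∀ a ≤ l, ∫ t in a..l, ε t ≤ K) {a : ℝ} (ha : a ≤ l) :
    ∫ t in a..l, r t ≤ U l + K := by
  have ii : ∀ {f : ℝ → ℝ}, ContinuousOn f (Iic l) → ∀ {c b : ℝ}, c ≤ b → b ≤ l →
      IntervalIntegrable f volume c b := by
    intro f hf c b hcb hb
    refine ContinuousOn.intervalIntegrable (hf.mono ?_)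
    rw [uIcc_of_le hcb]
    exact fun t ht => ht.2.trans hb
  have key : ∀ c ≤ a, ∫ t in a..l, r t ≤ U l - U c + K := by
    intro c hc
    have hcl := hc.trans ha
    have e1 : ∫ t in c..l, u t = U l - U c := by
      refine intervalIntegral.integral_eq_sub_of_hasDerivAt (fun t ht => ?_)
        (ii hu hcl le_rfl)
      rw [uIcc_of_le hcl] at ht
      exact hder t ht.2
    have e2 : ∫ t in c..l, (r t - ε t) ≤ ∫ t in c..l, u t := by
      refine intervalIntegral.integral_mono_on hcl ((ii hr hcl le_rfl).sub (ii hε hcl le_rfl))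
        (ii hu hcl le_rfl) fun t ht => hle t ht.2
    rw [intervalIntegral.integral_sub (ii hr hcl le_rfl) (ii hε hcl le_rfl), e1] at e2
    have e3 := hK c hcl
    have e4 : ∫ t in a..l, r t ≤ ∫ t in c..l, r t := by
      rw [← intervalIntegral.integral_add_adjacent_intervals (ii hr hc ha) (ii hr ha le_rfl)]
      have : 0 ≤ ∫ t in c..a, r t :=
        intervalIntegral.integral_nonneg hc fun t ht => hr0 t (ht.2.trans ha)
      linarith
    linarith
  have h1 : Tendsto (fun c => U l - U c + K) atBot (𝓝 (U l - 0 + K)) :=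
    (tendsto_const_nhds.sub h0).add tendsto_const_nhds
  rw [sub_zero] at h1
  refine ge_of_tendsto h1 ?_
  filter_upwards [eventually_le_atBot a] with c hc
  exact key c hc

/-! ### the weight on centres and the scale integral -/

/-- the weight on centres -/
def dd (m : ℕ) (τ : ℝ) (h : Euc m) : ℝ := DD m τ (‖h‖ ^ 2)

variable {τ : ℝ}

theorem cw_dd (hτ : 0 < τ) : CW (dd m τ) τ where
  cont := (continuous_DD hτ).comp (by fun_prop)
  nonneg h := DD_nonneg hτ _
  zero h hh := DD_of_ge hτ (pow_le_pow_left₀ hτ.le hh.le 2)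

/-- `s^{2-m} b(χ)` for a measure on the closed ball -/
def hat (w : Wt) (b : Measure (XB (Euc m) τ)) (y : Euc m) (l : ℝ) : ℝ :=
  Real.exp ((2 - m) * l) *
    ∫ z : XB (Euc m) τ, w.θ (Real.exp (-2 * l) * ‖(z : Euc m) - y‖ ^ 2) ∂b

theorem ker_wt (w : Wt) : Ker w.θ w.θ' := ⟨w.deriv, w.cont', w.zero⟩

theorem psi_scaled (w : Wt) (l : ℝ) (v : Euc m) :
    w.psi ((Real.exp l)⁻¹ • v) = w.θ (Real.exp (-2 * l) * ‖v‖ ^ 2) := by
  unfold Wt.psi
  rw [norm_smul, mul_pow, norm_inv, Real.norm_eq_abs, abs_of_pos (Real.exp_pos _), ← Real.exp_neg,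
    ← Real.exp_nat_mul]
  congr 3
  push_cast
  ring

/-- change of variables between `SS` and the averages -/
theorem SS_integrand (hτ : 0 < τ) (w : Wt) (b : Measure (XB (Euc m) τ)) [IsFiniteMeasure b]
    (x : Euc m) (l : ℝ) :
    Real.exp l * (Real.exp l * ∫ y, w.psi y * ml m τ b (x - Real.exp l • y)) =
      av (dd m τ) (hat w b) x l := by
  set ρ := Real.exp l with hρ
  have hρ0 : 0 < ρ := Real.exp_pos _
  have hpsi := w.continuous_psi (F := Euc m)
  have hD := continuous_DD (m := m) hτ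
  -- scaling
  have e1 : ∫ y, w.psi y * ml m τ b (x - ρ • y) =
      (ρ ^ m)⁻¹ * ∫ v : Euc m, w.psi (ρ⁻¹ • v) * ml m τ b (x - v) := by
    have h := Measure.integral_comp_smul (volume : Measure (Euc m))
      (fun v : Euc m => w.psi (ρ⁻¹ • v) * ml m τ b (x - v)) ρ
    simp only [smul_smul, inv_mul_cancel₀ hρ0.ne', one_smul] at h
    rw [h, finrank_euclideanSpace, Fintype.card_fin, smul_eq_mul, abs_of_pos (by positivity)]
  -- swap
  have e2 : ∫ v : Euc m, w.psi (ρ⁻¹ • v) * ml m τ b (x - v) =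
      ∫ z : XB (Euc m) τ, (∫ v : Euc m, w.psi (ρ⁻¹ • v) *
        DD m τ (‖x - v - (z : Euc m)‖ ^ 2)) ∂b := by
    rw [← swap_c (E := Euc m) b (f := fun (v : Euc m) (z : XB (Euc m) τ) =>
      w.psi (ρ⁻¹ • v) * DD m τ (‖x - v - (z : Euc m)‖ ^ 2)) ?_ ρ ?_]
    · refine integral_congr_ae (Eventually.of_forall fun v => ?_)
      simp only [ml]
      rw [integral_const_mul]
    · have h1 : Continuous fun p : Euc m × XB (Euc m) τ => ρ⁻¹ • p.1 := by fun_prop
      have h2 : Continuous fun p : Euc m × XB (Euc m) τ => ‖x - p.1 - (p.2 : Euc m)‖ ^ 2 := by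
        fun_prop
      exact (hpsi.comp h1).mul (hD.comp h2)
    · intro v hv z
      have h3 : w.psi (ρ⁻¹ • v) = 0 := by
        refine w.psi_zero' ?_
        rw [norm_smul, norm_inv, Real.norm_eq_abs, abs_of_pos hρ0]
        have h4 : ρ < ‖v‖ := by simpa using hv
        rw [inv_mul_eq_div, one_le_div hρ0]
        exact h4.le
      rw [h3, zero_mul]
  -- substitution
  have e3 : ∀ z : XB (Euc m) τ, (∫ v : Euc m, w.psi (ρ⁻¹ • v) *
      DD m τ (‖x - v - (z : Euc m)‖ ^ 2)) =
      ∫ h : Euc m, dd m τ h * w.θ (Real.exp (-2 * l) * ‖(z : Euc m) - (x - h)‖ ^ 2) := by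
    intro z
    have h := integral_sub_left_eq_self (fun v : Euc m => w.psi (ρ⁻¹ • v) *
      DD m τ (‖x - v - (z : Euc m)‖ ^ 2)) (volume : Measure (Euc m)) (x - (z : Euc m))
    rw [← h]
    refine integral_congr_ae (Eventually.of_forall fun h => ?_)
    simp only
    rw [hρ, psi_scaled, mul_comm]
    unfold dd
    congr 2
    · congr 2
      abel_nf
    · congr 1
      rw [← norm_neg]
      congr 2
      abel
  -- swap back
  have e4 : ∫ z : XB (Euc m) τ, (∫ h : Euc m, dd m τ h *
      w.θ (Real.exp (-2 * l) * ‖(z : Euc m) - (x - h)‖ ^ 2)) ∂b =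
      ∫ h : Euc m, dd m τ h * ∫ z : XB (Euc m) τ,
        w.θ (Real.exp (-2 * l) * ‖(z : Euc m) - (x - h)‖ ^ 2) ∂b := by
    rw [← swap_c (E := Euc m) b (f := fun (h : Euc m) (z : XB (Euc m) τ) =>
      dd m τ h * w.θ (Real.exp (-2 * l) * ‖(z : Euc m) - (x - h)‖ ^ 2)) ?_ τ ?_]
    · refine integral_congr_ae (Eventually.of_forall fun v => ?_)
      simp only
      rw [integral_const_mul]
    · have h1 : Continuous fun p : Euc m × XB (Euc m) τ =>
          Real.exp (-2 * l) * ‖(p.2 : Euc m) - (x - p.1)‖ ^ 2 := by fun_prop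
      exact ((cw_dd hτ).cont.comp continuous_fst).mul (w.cont.comp h1)
    · intro v hv z
      rw [(cw_dd hτ).zero' hv, zero_mul]
  rw [e1, e2]
  simp only [e3]
  rw [e4]
  unfold av hat
  have e5 : ∀ h : Euc m, dd m τ h * (Real.exp ((2 - m) * l) * ∫ z : XB (Euc m) τ,
      w.θ (Real.exp (-2 * l) * ‖(z : Euc m) - (x - h)‖ ^ 2) ∂b) =
      Real.exp ((2 - m) * l) * (dd m τ h * ∫ z : XB (Euc m) τ,
      w.θ (Real.exp (-2 * l) * ‖(z : Euc m) - (x - h)‖ ^ 2) ∂b) := fun h => by ring
  simp only [e5]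
  rw [integral_const_mul]
  have e6 : ρ * (ρ * ((ρ ^ m)⁻¹)) = Real.exp ((2 - m) * l) := by
    rw [hρ, ← Real.exp_nat_mul, ← Real.exp_neg, ← Real.exp_add, ← Real.exp_add]
    congr 1
    ring
  rw [← e6]
  ring

/-- **`SS` is the primitive of the averaged functional** -/
theorem hasDerivAt_SS (hτ : 0 < τ) (w : Wt) (b : Measure (XB (Euc m) τ)) [IsFiniteMeasure b]
    (x : Euc m) (l : ℝ) :
    HasDerivAt (fun l => SS m τ w b x (Real.exp l)) (av (dd m τ) (hat w b) x l) l := by
  have hJ : Continuous fun ρ : ℝ => ρ * ∫ y, w.psi y * ml m τ b (x - ρ • y) := by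
    refine continuous_id.mul ?_
    refine continuous_int_ball (g := fun (ρ : ℝ) (y : Euc m) =>
      w.psi y * ml m τ b (x - ρ • y)) ?_ ?_
    · have h : Continuous fun p : ℝ × Euc m => x - p.1 • p.2 := by fun_prop
      exact ((w.continuous_psi (F := Euc m)).comp continuous_snd).mul
        ((continuous_ml hτ b).comp h)
    · intro y hy z
      rw [w.psi_zero hy, zero_mul]
  have h1 : HasDerivAt (fun s => SS m τ w b x s)
      (Real.exp l * ∫ y, w.psi y * ml m τ b (x - Real.exp l • y)) (Real.exp l) :=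
    (hJ.integral_hasStrictDerivAt 0 (Real.exp l)).hasDerivAt
  have h2 := h1.comp l (Real.hasDerivAt_exp l)
  refine h2.congr_deriv ?_
  rw [← SS_integrand hτ w b x l]
  ring

theorem tendsto_SS (hτ : 0 < τ) (w : Wt) (b : Measure (XB (Euc m) τ)) [IsFiniteMeasure b]
    (x : Euc m) : Tendsto (fun l => SS m τ w b x (Real.exp l)) atBot (𝓝 0) := by
  have hJ : Continuous fun ρ : ℝ => ρ * ∫ y, w.psi y * ml m τ b (x - ρ • y) := by
    refine continuous_id.mul ?_
    refine continuous_int_ball (g := fun (ρ : ℝ) (y : Euc m) =>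
      w.psi y * ml m τ b (x - ρ • y)) ?_ ?_
    · have h : Continuous fun p : ℝ × Euc m => x - p.1 • p.2 := by fun_prop
      exact ((w.continuous_psi (F := Euc m)).comp continuous_snd).mul
        ((continuous_ml hτ b).comp h)
    · intro y hy z
      rw [w.psi_zero hy, zero_mul]
  have h1 : Continuous fun s => SS m τ w b x s := by
    unfold SS
    exact continuous_iff_continuousAt.2 fun s =>
      (hJ.integral_hasStrictDerivAt 0 s).hasDerivAt.continuousAt
  have h2 : SS m τ w b x 0 = 0 := by unfold SS; simp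
  have h3 := (h1.tendsto 0).comp Real.tendsto_exp_atBot
  rw [h2] at h3
  exact h3

/-! ### small scales -/

variable {d : Euc m → ℝ} {L₀ L₁ : ℝ} {x : Euc m}
  {π : Euc k →L[ℝ] Euc m} {κ : Euc k →L[ℝ] Euc n} {V : Measure (Euc k × L k)}
  {g g1 g2 : ℝ → ℝ} {h₀ : ℝ} {F : Euc n → ℝ} {dF : Euc n → Euc n} {H : Euc n → L n}

theorem cg_integrable (hg : Ker g g1) : Integrable fun v : Euc m => g (‖v‖ ^ 2) := by
  refine (hg.continuous.comp (by fun_prop : Continuous fun v : Euc m => ‖v‖ ^ 2)).integrable_of_hasCompactSupport ?_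
  refine HasCompactSupport.intro (isCompact_closedBall (0 : Euc m) 1) fun v hv => ?_
  have h1 : 1 < ‖v‖ := by simpa using hv
  exact hg.zero _ (by nlinarith)

/-- the averaged mass is `O(s^m)` -/
theorem av_mass_le (h : AFr V π κ x τ L₀ L₁) (hd : CW d τ) (hg : Prof g g1 g2) {D : ℝ}
    (hD : ∀ h, d h ≤ D) {l : ℝ} (hl : l < L₀) :
    av d (fun y l => ∫ p, 1 * g (Real.exp (-2 * l) * ‖π p.1 - y‖ ^ 2) ∂V) x l ≤
      D * (V {p | ‖π p.1 - x‖ ^ 2 < Real.exp (2 * L₁)}).toReal *
        (Real.exp (m * l) * ∫ v : Euc m, g (‖v‖ ^ 2)) := by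
  set S : Set (Euc k × L k) := {p | ‖π p.1 - x‖ ^ 2 < Real.exp (2 * L₁)} with hS
  have hSm : MeasurableSet S := measurableSet_lt (measurable_rho π x) measurable_const
  set ν : Measure (Euc k × L k) := V.restrict S with hν
  have hfin : IsFiniteMeasure ν := ⟨by rw [hν, Measure.restrict_apply_univ]; exact h.fr.fin⟩
  have hD0 : 0 ≤ D := (hd.nonneg 0).trans (hD 0)
  obtain ⟨K, hK0, hK, -, -⟩ := hg.k0.exists_bound
  have e1 : av d (fun y l => ∫ p, 1 * g (Real.exp (-2 * l) * ‖π p.1 - y‖ ^ 2) ∂V) x l =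
      ∫ h, ∫ p, d h * g (Real.exp (-2 * l) * ‖π p.1 - (x - h)‖ ^ 2) ∂ν := by
    unfold av
    refine integral_congr_ae (Eventually.of_forall fun y => ?_)
    simp only [one_mul]
    rw [integral_const_mul]
    by_cases hy : y ∈ closedBall (0 : Euc m) τ
    · congr 1
      symm
      refine setIntegral_eq_integral_of_forall_compl_eq_zero fun p hp => ?_
      have h1 : ¬ ‖π p.1 - (x - y)‖ ^ 2 < Real.exp (2 * L₀) := fun hcon =>
        hp (h.region (sub_mem hy) hcon)
      refine hg.k0.zero _ ?_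
      calc (1:ℝ) = Real.exp (-2 * l) * Real.exp (2 * l) := by rw [← Real.exp_add]; simp
          _ ≤ Real.exp (-2 * l) * Real.exp (2 * L₀) := by
              gcongr
          _ ≤ _ := mul_le_mul_of_nonneg_left (not_lt.1 h1) (Real.exp_pos _).le
    · rw [hd.zero' hy]; simp
  have hcont : Continuous fun q : Euc m × (Euc k × L k) =>
      d q.1 * g (Real.exp (-2 * l) * ‖π q.2.1 - (x - q.1)‖ ^ 2) := by
    refine (hd.cont.comp continuous_fst).mul (hg.k0.continuous.comp ?_)
    fun_prop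
  have hint : Integrable (uncurry fun (h : Euc m) (p : Euc k × L k) =>
      d h * g (Real.exp (-2 * l) * ‖π p.1 - (x - h)‖ ^ 2)) ((volume : Measure (Euc m)).prod ν) := by
    have hdi : Integrable (fun h : Euc m => d h * K) :=
      hd.integrable (f := fun _ => K) continuousOn_const
    refine Integrable.mono' (hdi.comp_fst ν) hcont.aestronglyMeasurable ?_
    refine Eventually.of_forall fun q => ?_
    simp only [uncurry]
    rw [Real.norm_eq_abs, abs_mul, abs_of_nonneg (hd.nonneg _)]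
    exact mul_le_mul_of_nonneg_left (hK _ (by positivity)) (hd.nonneg _)
  rw [e1, integral_integral_swap hint]
  have e2 : ∀ p : Euc k × L k, ∫ h : Euc m, d h *
      g (Real.exp (-2 * l) * ‖π p.1 - (x - h)‖ ^ 2) ≤
      D * (Real.exp (m * l) * ∫ v : Euc m, g (‖v‖ ^ 2)) := by
    intro p
    have e3 : ∫ v : Euc m, g (Real.exp (-2 * l) * ‖v - (x - π p.1)‖ ^ 2) =
        Real.exp (m * l) * ∫ v : Euc m, g (‖v‖ ^ 2) := leb_scale g _ l
    rw [← e3, ← integral_const_mul]
    have e4 : ∀ h : Euc m, ‖π p.1 - (x - h)‖ = ‖h - (x - π p.1)‖ := by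
      intro h
      congr 1
      abel
    have i1 : Integrable fun h : Euc m => g (Real.exp (-2 * l) * ‖h - (x - π p.1)‖ ^ 2) := by
      refine (hg.k0.continuous.comp (by fun_prop : Continuous fun h : Euc m =>
        Real.exp (-2 * l) * ‖h - (x - π p.1)‖ ^ 2)).integrable_of_hasCompactSupport ?_
      refine HasCompactSupport.intro (isCompact_closedBall (x - π p.1) (Real.exp l))
        fun v hv => ?_
      refine hg.k0.zero _ (Ker.one_le_of _ ?_)
      have : Real.exp l < dist v (x - π p.1) := by simpa using hv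
      rw [dist_eq_norm] at this
      exact this.le
    simp only [e4]
    refine integral_mono_of_nonneg (Eventually.of_forall fun h => ?_) (i1.const_mul D)
      (Eventually.of_forall fun h => ?_)
    · exact mul_nonneg (hd.nonneg _) (hg.nonneg _ (by positivity))
    · exact mul_le_mul_of_nonneg_right (hD h) (hg.nonneg _ (by positivity))
  calc ∫ p, (∫ h : Euc m, d h * g (Real.exp (-2 * l) * ‖π p.1 - (x - h)‖ ^ 2)) ∂ν
      ≤ ∫ _, D * (Real.exp (m * l) * ∫ v : Euc m, g (‖v‖ ^ 2)) ∂ν := by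
        refine integral_mono_of_nonneg (Eventually.of_forall fun p => ?_) (integrable_const _)
          (Eventually.of_forall e2)
        exact integral_nonneg fun h => mul_nonneg (hd.nonneg _) (hg.nonneg _ (by positivity))
    _ = _ := by
        rw [integral_const, smul_eq_mul, Measure.real, hν, Measure.restrict_apply_univ]
        ring

/-- **the averaged excess tends to zero at small scales** -/
theorem tendsto_EEa (h : AFr V π κ x τ L₀ L₁) (hd : CW d τ) (hg : Prof g g1 g2) (Q : ℝ) :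
    Tendsto (EEa d V π g Q x) atBot (𝓝 0) := by
  obtain ⟨D, hD⟩ : ∃ D, ∀ h, d h ≤ D := by
    obtain ⟨D, hD⟩ := (isCompact_closedBall (0 : Euc m) τ).exists_bound_of_continuousOn
      hd.cont.continuousOn
    refine ⟨max D 0, fun h => ?_⟩
    by_cases hh : h ∈ closedBall (0 : Euc m) τ
    · exact ((le_abs_self _).trans (hD h hh)).trans (le_max_left _ _)
    · rw [hd.zero' hh]; exact le_max_right _ _
  have hD0 : 0 ≤ D := (hd.nonneg 0).trans (hD 0)
  set cg := ∫ v : Euc m, g (‖v‖ ^ 2) with hcg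
  have hcg0 : 0 ≤ cg := integral_nonneg fun v => hg.nonneg _ (by positivity)
  set A := D * (V {p | ‖π p.1 - x‖ ^ 2 < Real.exp (2 * L₁)}).toReal with hA
  have hA0 : 0 ≤ A := mul_nonneg hD0 ENNReal.toReal_nonneg
  set M := ∫ h, d h with hM
  have hM0 : 0 ≤ M := integral_nonneg hd.nonneg
  have hb : ∀ l < L₀, |EEa d V π g Q x l| ≤ Real.exp (2 * l) * ((A + |Q| * M) * cg) := by
    intro l hl
    have e1 : EEa d V π g Q x l = Real.exp ((2 - m) * l) *
        (av d (fun y l => ∫ p, 1 * g (Real.exp (-2 * l) * ‖π p.1 - y‖ ^ 2) ∂V) x l -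
          Q * (Real.exp (m * l) * cg * M)) := by
      unfold EEa EE
      rw [av_mul_left d (fun y l => ∫ p, 1 * g (Real.exp (-2 * l) * ‖π p.1 - y‖ ^ 2) ∂V -
        Q * ∫ v : Euc m, 1 * g (Real.exp (-2 * l) * ‖v - y‖ ^ 2))
        (fun l => Real.exp ((2 - m) * l)) x l,
        av_sub hd (h.co_one hg.k0) ((AFr.co_leb x τ L₀ g).const_mul Q) hl, av_const_mul]
      congr 3
      unfold av
      simp only [one_mul]
      have : ∀ h : Euc m, d h * ∫ v : Euc m, g (Real.exp (-2 * l) * ‖v - (x - h)‖ ^ 2) =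
          (Real.exp (m * l) * cg) * d h := fun h => by
        rw [leb_scale g _ l]; ring
      simp only [this]
      rw [integral_const_mul]
    have e2 := av_mass_le h hd hg hD hl
    have e3 : 0 ≤ av d (fun y l => ∫ p, 1 * g (Real.exp (-2 * l) * ‖π p.1 - y‖ ^ 2) ∂V) x l := by
      refine av_nonneg hd fun y _ => integral_nonneg fun p => ?_
      simp only [Pi.zero_apply, one_mul]
      exact hg.nonneg _ (by positivity)
    rw [e1, abs_mul, abs_of_pos (Real.exp_pos _)]
    have e4 : |av d (fun y l => ∫ p, 1 * g (Real.exp (-2 * l) * ‖π p.1 - y‖ ^ 2) ∂V) x l -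
          Q * (Real.exp (m * l) * cg * M)| ≤ Real.exp (m * l) * ((A + |Q| * M) * cg) := by
      refine (abs_sub _ _).trans ?_
      rw [abs_of_nonneg e3, abs_mul, abs_of_nonneg (by positivity : 0 ≤ Real.exp (m * l) * cg * M)]
      calc _ ≤ A * (Real.exp (m * l) * cg) + |Q| * (Real.exp (m * l) * cg * M) :=
            add_le_add e2 le_rfl
        _ = _ := by ring
    calc Real.exp ((2 - m) * l) * _ ≤ Real.exp ((2 - m) * l) *
          (Real.exp (m * l) * ((A + |Q| * M) * cg)) :=
          mul_le_mul_of_nonneg_left e4 (Real.exp_pos _).le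
      _ = _ := by
          rw [← mul_assoc, ← Real.exp_add]
          congr 2
          ring
  have ht : Tendsto (fun l : ℝ => Real.exp (2 * l) * ((A + |Q| * M) * cg)) atBot (𝓝 0) := by
    have h1 : Tendsto (fun l : ℝ => Real.exp (2 * l)) atBot (𝓝 0) :=
      Real.tendsto_exp_atBot.comp (tendsto_id.const_mul_atBot two_pos)
    simpa using h1.mul_const ((A + |Q| * M) * cg)
  rw [tendsto_zero_iff_abs_tendsto_zero]
  refine squeeze_zero' (Eventually.of_forall fun l => abs_nonneg _) ?_ ht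
  filter_upwards [eventually_lt_atBot L₀] with l hl
  exact hb l hl

end Crest.Agent.R234.Avg_387
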