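import Crest.Agent.R234.Avg3_387

/-!
# Row 234, VF-AVG, part 4 (helper387)

The anomaly of a stationary varifold in a cylinder as a difference of two measures on the closed ball,
`E = 2 B + U`, and the contact inequality in the form of helper309.
-/

set_option autoImplicit false

open MeasureTheory Set Function Filter Topology Metric
open Crest.GeometryTopology.Submanifold
open Crest.Agent.R234.Vf_884 Crest.Agent.R234.Ar_870 Crest.Agent.R234.Cy_870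
open Crest.Agent.R234.Pot_425
open scoped ENNReal NNReal InnerProductSpace

noncomputable section

namespace Crest.Agent.R234.Avg_387

variable {m n k : ℕ} {τ : ℝ}

/-- `b₁ - b₂` represents the anomaly `π_#((1 - tl/2) W) - Q dx` on functions vanishing off the ball of
radius `1 - τ` -/
structure Rep (b₁ b₂ : Measure (XB (Euc m) τ)) (W : Measure (Euc k × L k))
    (π : Euc k →L[ℝ] Euc m) (Q : ℝ) : Prop where
  rep : ∀ φ : Euc m → ℝ, Continuous φ → (∀ z, 1 - τ ≤ ‖z‖ → φ z = 0) →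
    ∫ z : XB (Euc m) τ, φ (z : Euc m) ∂b₁ - ∫ z : XB (Euc m) τ, φ (z : Euc m) ∂b₂ =
      ∫ p, φ (π p.1) * (1 - tl π p.2 / 2) ∂W - Q * ∫ z, φ z

variable {d : Euc m → ℝ} {L₀ L₁ : ℝ} {x : Euc m}
  {π : Euc k →L[ℝ] Euc m} {κ : Euc k →L[ℝ] Euc n} {W : Measure (Euc k × L k)}
  {g2 : ℝ → ℝ} {h₀ R Q : ℝ} {x₀ : Euc m} {b₁ b₂ : Measure (XB (Euc m) τ)}

/-- the averaged scale integral -/
def BB (w : Wt) (b₁ b₂ : Measure (XB (Euc m) τ)) (x : Euc m) (l : ℝ) : ℝ :=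
  SS m τ w b₁ x (Real.exp l) - SS m τ w b₂ x (Real.exp l)

/-- the averaged radial energy below the scale -/
def UU (w : Wt) (b₁ b₂ : Measure (XB (Euc m) τ)) (W : Measure (Euc k × L k))
    (π : Euc k →L[ℝ] Euc m) (Q : ℝ) (x : Euc m) (l : ℝ) : ℝ :=
  EEa (dd m τ) W π w.θ Q x l - 2 * BB w b₁ b₂ x l

theorem bb_eq_hat (h : CylStat W π κ x₀ R h₀) (w : Wt) [IsFiniteMeasure b₁] [IsFiniteMeasure b₂]
    (hrep : Rep b₁ b₂ W π Q) {y : Euc m} {l : ℝ} (hy : ‖y‖ + Real.exp l ≤ 1 - τ) :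
    bb W π y w.θ Q l = hat w b₁ y l - hat w b₂ y l := by
  have h1 := hrep.rep (fun z => w.θ (Real.exp (-2 * l) * ‖z - y‖ ^ 2))
    (w.cont.comp (by fun_prop)) (fun z hz => by
      refine w.zero _ (Ker.one_le_of y ?_)
      have : ‖z‖ ≤ ‖z - y‖ + ‖y‖ := by
        have := norm_add_le (z - y) y
        simpa using this
      linarith)
  have hfr := h.fr y (l + 1)
  have i0 := hfr.integrable_c (c := fun _ => 1) (C := 1) aestronglyMeasurable_const ae_one_bound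
    (ker_wt w) (by linarith : l ≤ l + 1)
  have i1 := hfr.integrable_c (aestronglyMeasurable_tl π W) hfr.tl_bound (ker_wt w)
    (by linarith : l ≤ l + 1)
  have e1 : ∫ p, w.θ (Real.exp (-2 * l) * ‖π p.1 - y‖ ^ 2) * (1 - tl π p.2 / 2) ∂W =
      ∫ p, 1 * w.θ (Real.exp (-2 * l) * ‖π p.1 - y‖ ^ 2) ∂W -
      (1 / 2) * ∫ p, tl π p.2 * w.θ (Real.exp (-2 * l) * ‖π p.1 - y‖ ^ 2) ∂W := by
    rw [← integral_const_mul, ← integral_sub i0 (i1.const_mul _)]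
    refine integral_congr_ae (Eventually.of_forall fun p => ?_)
    simp only
    ring
  rw [e1] at h1
  unfold bb EE ee hat
  have e2 : Real.exp ((2 - m) * l) * ∫ z : XB (Euc m) τ,
      w.θ (Real.exp (-2 * l) * ‖(z : Euc m) - y‖ ^ 2) ∂b₁ -
      Real.exp ((2 - m) * l) * ∫ z : XB (Euc m) τ,
      w.θ (Real.exp (-2 * l) * ‖(z : Euc m) - y‖ ^ 2) ∂b₂ =
      Real.exp ((2 - m) * l) * (∫ z : XB (Euc m) τ,
      w.θ (Real.exp (-2 * l) * ‖(z : Euc m) - y‖ ^ 2) ∂b₁ - ∫ z : XB (Euc m) τ,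
      w.θ (Real.exp (-2 * l) * ‖(z : Euc m) - y‖ ^ 2) ∂b₂) := by ring
  rw [e2, h1]
  simp only [one_mul]
  ring

theorem co_hat (w : Wt) (b : Measure (XB (Euc m) τ)) [IsFiniteMeasure b]
    (x : Euc m) (r L₀ : ℝ) : CO x r L₀ (hat w b) := by
  have h1 : Continuous fun q : Euc m × ℝ =>
      ∫ z : XB (Euc m) τ, w.θ (Real.exp (-2 * q.2) * ‖(z : Euc m) - q.1‖ ^ 2) ∂b := by
    refine continuous_param b (g := fun (q : Euc m × ℝ) (z : XB (Euc m) τ) =>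
      w.θ (Real.exp (-2 * q.2) * ‖(z : Euc m) - q.1‖ ^ 2)) ?_
    exact w.cont.comp (by fun_prop)
  have h2 : Continuous (uncurry (hat w b : Euc m → ℝ → ℝ)) := by
    unfold hat
    exact (by fun_prop : Continuous fun q : Euc m × ℝ => Real.exp ((2 - m) * q.2)).mul h1
  exact h2.continuousOn

/-- **`B' = b`** for averaged centres -/
theorem hasDerivAt_BB (h : CylStat W π κ x₀ R h₀) (hτ : 0 < τ) (w : Wt) [IsFiniteMeasure b₁]
    [IsFiniteMeasure b₂] (hrep : Rep b₁ b₂ W π Q) {l : ℝ}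
    (hl : ‖x‖ + Real.exp l + 2 * τ ≤ 1) :
    HasDerivAt (BB w b₁ b₂ x) (bba (dd m τ) W π w.θ Q x l) l := by
  have h1 := (hasDerivAt_SS hτ w b₁ x l).sub (hasDerivAt_SS hτ w b₂ x l)
  refine h1.congr_deriv ?_
  rw [← av_sub (cw_dd hτ) (co_hat w b₁ x τ (l + 1)) (co_hat w b₂ x τ (l + 1))
    (by linarith : l < l + 1)]
  unfold bba
  refine av_congr (cw_dd hτ) fun y hy => ?_
  refine (bb_eq_hat h w hrep ?_).symm
  have h2 : ‖y - x‖ ≤ τ := by rwa [mem_closedBall_iff_norm] at hy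
  have h3 : ‖y‖ ≤ ‖y - x‖ + ‖x‖ := by
    have := norm_add_le (y - x) x
    simpa using this
  linarith

theorem tendsto_BB (hτ : 0 < τ) (w : Wt) [IsFiniteMeasure b₁] [IsFiniteMeasure b₂] (x : Euc m) :
    Tendsto (BB w b₁ b₂ x) atBot (𝓝 0) := by
  have := (tendsto_SS hτ w b₁ x).sub (tendsto_SS hτ w b₂ x)
  rw [sub_zero] at this
  exact this

/-- `E = 2 B + U` (by definition) -/
theorem EEa_eq_UU (w : Wt) (b₁ b₂ : Measure (XB (Euc m) τ)) (W : Measure (Euc k × L k))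
    (π : Euc k →L[ℝ] Euc m) (Q : ℝ) (x : Euc m) (l : ℝ) :
    EEa (dd m τ) W π w.θ Q x l = 2 * BB w b₁ b₂ x l + UU w b₁ b₂ W π Q x l := by
  unfold UU; ring

/-- **`U' = R`** for averaged centres -/
theorem hasDerivAt_UU (h : CylStat W π κ x₀ R h₀) (hτ : 0 < τ) {w : Wt}
    (hg : Prof w.θ w.θ' g2) [IsFiniteMeasure b₁] [IsFiniteMeasure b₂] (hrep : Rep b₁ b₂ W π Q)
    {l : ℝ} (hl : ‖x‖ + Real.exp l + 2 * τ ≤ 1) (hlR : ‖x - x₀‖ + τ + Real.exp l ≤ R) :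
    HasDerivAt (UU w b₁ b₂ W π Q x) (RRa (dd m τ) W π w.θ' x l) l := by
  have h1 := (W1c h hτ.le (cw_dd hτ) hg Q hlR).sub ((hasDerivAt_BB h hτ w hrep hl).const_mul 2)
  refine h1.congr_deriv ?_
  ring

theorem tendsto_UU (h : CylStat W π κ x₀ R h₀) (hτ : 0 < τ) {w : Wt}
    (hg : Prof w.θ w.θ' g2) [IsFiniteMeasure b₁] [IsFiniteMeasure b₂] (Q : ℝ) (x : Euc m) :
    Tendsto (UU w b₁ b₂ W π Q x) atBot (𝓝 0) := by
  have h1 := (tendsto_EEa (afr_of_cyl h hτ.le x 0) (cw_dd hτ) hg Q).sub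
    ((tendsto_BB (b₁ := b₁) (b₂ := b₂) hτ w x).const_mul 2)
  rw [mul_zero, sub_zero] at h1
  exact h1

/-- integrated form: `∫_a^l R ≤ U(l)`, in particular `U ≥ 0` -/
theorem integral_RRa_le_UU (h : CylStat W π κ x₀ R h₀) (hτ : 0 < τ) {w : Wt}
    (hg : Prof w.θ w.θ' g2) [IsFiniteMeasure b₁] [IsFiniteMeasure b₂] (hrep : Rep b₁ b₂ W π Q)
    {l : ℝ} (hl : ‖x‖ + Real.exp l + 2 * τ ≤ 1) (hlR : ‖x - x₀‖ + τ + Real.exp l ≤ R)
    {a : ℝ} (ha : a ≤ l) :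
    ∫ t in a..l, RRa (dd m τ) W π w.θ' x t ≤ UU w b₁ b₂ W π Q x l := by
  have hc := (continuous_RRa h hτ.le (cw_dd hτ) hg.k1 x).continuousOn (s := Iic l)
  have h1 := le_of_tendsto_zero (U := UU w b₁ b₂ W π Q x) (u := RRa (dd m τ) W π w.θ' x)
    (r := RRa (dd m τ) W π w.θ' x) (ε := fun _ => 0) (l := l) (K := 0) (fun t ht => by
      have h2 := Real.exp_le_exp.2 ht
      exact hasDerivAt_UU h hτ hg hrep (by linarith) (by linarith)) hc hc continuousOn_const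
    (tendsto_UU h hτ hg Q x) (fun t _ => RRa_nonneg_c h hτ.le (cw_dd hτ) hg x t)
    (fun t _ => by rw [sub_zero]) (fun a _ => by simp) ha
  rwa [add_zero] at h1

theorem UU_nonneg (h : CylStat W π κ x₀ R h₀) (hτ : 0 < τ) {w : Wt}
    (hg : Prof w.θ w.θ' g2) [IsFiniteMeasure b₁] [IsFiniteMeasure b₂] (hrep : Rep b₁ b₂ W π Q)
    {l : ℝ} (hl : ‖x‖ + Real.exp l + 2 * τ ≤ 1) (hlR : ‖x - x₀‖ + τ + Real.exp l ≤ R) :
    0 ≤ UU w b₁ b₂ W π Q x l := by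
  have h1 := integral_RRa_le_UU h hτ hg hrep hl hlR (a := l) le_rfl
  rwa [intervalIntegral.integral_same] at h1

/-- `U(b) - U(a) = ∫_a^b R` -/
theorem UU_sub (h : CylStat W π κ x₀ R h₀) (hτ : 0 < τ) {w : Wt}
    (hg : Prof w.θ w.θ' g2) [IsFiniteMeasure b₁] [IsFiniteMeasure b₂] (hrep : Rep b₁ b₂ W π Q)
    {a b : ℝ} (hab : a ≤ b) (hl : ‖x‖ + Real.exp b + 2 * τ ≤ 1)
    (hlR : ‖x - x₀‖ + τ + Real.exp b ≤ R) :
    UU w b₁ b₂ W π Q x b - UU w b₁ b₂ W π Q x a = ∫ t in a..b, RRa (dd m τ) W π w.θ' x t := by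
  symm
  refine intervalIntegral.integral_eq_sub_of_hasDerivAt (fun t ht => ?_)
    ((continuous_RRa h hτ.le (cw_dd hτ) hg.k1 x).intervalIntegrable _ _)
  rw [uIcc_of_le hab] at ht
  have h2 := Real.exp_le_exp.2 ht.2
  exact hasDerivAt_UU h hτ hg hrep (by linarith) (by linarith)

/-- `B(b) - B(a) = ∫_a^b b` -/
theorem BB_sub (h : CylStat W π κ x₀ R h₀) (hτ : 0 < τ) (w : Wt) [IsFiniteMeasure b₁]
    [IsFiniteMeasure b₂] (hrep : Rep b₁ b₂ W π Q) {a b : ℝ} (hab : a ≤ b)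
    (hl : ‖x‖ + Real.exp b + 2 * τ ≤ 1) :
    BB w b₁ b₂ x b - BB w b₁ b₂ x a = ∫ t in a..b, bba (dd m τ) W π w.θ Q x t := by
  symm
  refine intervalIntegral.integral_eq_sub_of_hasDerivAt (fun t ht => ?_)
    ((continuous_bba h hτ.le (cw_dd hτ) (ker_wt w) Q x).intervalIntegrable _ _)
  rw [uIcc_of_le hab] at ht
  have h2 := Real.exp_le_exp.2 ht.2
  exact hasDerivAt_BB h hτ w hrep (by linarith)

/-- **the form consumed by helper309** -/
theorem contact_ineq (h : CylStat W π κ x₀ R h₀) (hτ : 0 < τ) {w : Wt}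
    (hg : Prof w.θ w.θ' g2) [IsFiniteMeasure b₁] [IsFiniteMeasure b₂] (hrep : Rep b₁ b₂ W π Q)
    {s : ℝ} (hs : 0 < s) (hx : ‖x‖ + s + 2 * τ ≤ 1) (hxR : ‖x - x₀‖ + τ + s ≤ R)
    {a : ℝ} (ha : a ≤ Real.log s) :
    2 * (SS m τ w b₁ x s - SS m τ w b₂ x s) +
      ∫ t in a..Real.log s, RRa (dd m τ) W π w.θ' x t ≤
        EEa (dd m τ) W π w.θ Q x (Real.log s) := by
  have h1 := integral_RRa_le_UU h hτ hg hrep (x := x) (l := Real.log s)
    (by rw [Real.exp_log hs]; exact hx) (by rw [Real.exp_log hs]; exact hxR) ha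
  rw [EEa_eq_UU w b₁ b₂]
  unfold BB
  rw [Real.exp_log hs]
  linarith

/-- **contact points**: `0 ≤ P ≤ B` gives `E ≥ 2 P + U` -/
theorem contact_E (h : CylStat W π κ x₀ R h₀) (hτ : 0 < τ) {w : Wt}
    (hg : Prof w.θ w.θ' g2) [IsFiniteMeasure b₁] [IsFiniteMeasure b₂] (hrep : Rep b₁ b₂ W π Q)
    {ε : Measure (XB (Euc m) τ)} {s : ℝ} (hs : 0 < s) (hx : ‖x‖ + s + 2 * τ ≤ 1)
    (hxR : ‖x - x₀‖ + τ + s ≤ R) {a : ℝ} (ha : a ≤ Real.log s)
    (hc : SS m τ w ε x s ≤ SS m τ w b₁ x s - SS m τ w b₂ x s) :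
    2 * SS m τ w ε x s + ∫ t in a..Real.log s, RRa (dd m τ) W π w.θ' x t ≤
        EEa (dd m τ) W π w.θ Q x (Real.log s) := by
  have := contact_ineq h hτ hg hrep hs hx hxR ha
  linarith

end Crest.Agent.R234.Avg_387
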