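import Crest.Agent.R234.Avg4_387

/-!
# Row 234, VF-AVG, part 5 (helper387)

Joint continuity in (centre, scale) of the averaged quantities, quasi-monotonicity of the energies in the
scale, change of centre, `R(t) ≤ C (U(t+4) - U(t+3))`, bound of the error term of (W3), mean values.
-/

set_option autoImplicit false

open MeasureTheory Set Function Filter Topology Metric
open Crest.GeometryTopology.Submanifold
open Crest.Agent.R234.Vf_884 Crest.Agent.R234.Ar_870 Crest.Agent.R234.Cy_870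
open Crest.Agent.R234.Pot_425
open scoped ENNReal NNReal InnerProductSpace

noncomputable section

namespace Crest.Agent.R234.Avg_387

variable {m n k : ℕ} {τ : ℝ} {d : Euc m → ℝ} {L₀ L₁ : ℝ} {x x' : Euc m}
  {π : Euc k →L[ℝ] Euc m} {κ : Euc k →L[ℝ] Euc n} {W : Measure (Euc k × L k)}
  {g g1 g2 : ℝ → ℝ} {h₀ R Q : ℝ} {x₀ : Euc m} {b₁ b₂ : Measure (XB (Euc m) τ)}
  {F : Euc n → ℝ} {dF : Euc n → Euc n} {H : Euc n → L n} {q q1 q2 : Euc m → ℝ → ℝ}

/-! ### joint continuity -/

theorem cont_of_CO (h : ∀ x : Euc m, ∀ L₀ : ℝ, CO x 1 L₀ q) : Continuous (uncurry q) := by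
  rw [continuous_iff_continuousAt]
  rintro ⟨y, l⟩
  refine (h y (l + 1)).continuousAt ?_
  refine prod_mem_nhds ?_ (Iio_mem_nhds (by linarith))
  exact closedBall_mem_nhds _ one_pos

theorem CO_of_cont (h : Continuous (uncurry q)) (x : Euc m) (τ L₀ : ℝ) : CO x τ L₀ q :=
  h.continuousOn

/-- averages of jointly continuous functions are jointly continuous -/
theorem continuous_av2 (hd : CW d τ) (h : Continuous (uncurry q)) :
    Continuous (uncurry (av d q)) := by
  have h1 : (uncurry (av d q)) = fun p : Euc m × ℝ =>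
      ∫ h in closedBall (0 : Euc m) τ, d h * q (p.1 - h) p.2 := by
    funext p
    simp only [uncurry, av]
    rw [setIntegral_eq_integral_of_forall_compl_eq_zero]
    intro y hy
    rw [hd.zero' hy, zero_mul]
  rw [h1]
  refine continuous_parametric_integral_of_continuous (μ := (volume : Measure (Euc m)))
    (f := fun (p : Euc m × ℝ) (h : Euc m) => d h * q (p.1 - h) p.2) ?_
    (isCompact_closedBall (0 : Euc m) τ)
  have h2 : Continuous fun p : (Euc m × ℝ) × Euc m => (p.1.1 - p.2, p.1.2) := by fun_prop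
  exact (hd.cont.comp continuous_snd).mul (h.comp h2)

theorem cont2_EE (h : CylStat W π κ x₀ R h₀) (hg : Ker g g1) (Q : ℝ) :
    Continuous (uncurry fun y l => EE W π y g Q l) :=
  cont_of_CO fun x L₀ => (afr_of_cyl h zero_le_one x L₀).co_EE hg Q

theorem cont2_ee (h : CylStat W π κ x₀ R h₀) (hg : Ker g g1) :
    Continuous (uncurry fun y l => ee W π y g l) :=
  cont_of_CO fun x L₀ => (afr_of_cyl h zero_le_one x L₀).co_ee hg

theorem cont2_bb (h : CylStat W π κ x₀ R h₀) (hg : Ker g g1) (Q : ℝ) :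
    Continuous (uncurry fun y l => bb W π y g Q l) :=
  cont_of_CO fun x L₀ => (afr_of_cyl h zero_le_one x L₀).co_bb hg Q

theorem cont2_RR (h : CylStat W π κ x₀ R h₀) (hg : Ker g1 g2) :
    Continuous (uncurry fun y l => RR W π y g1 l) :=
  cont_of_CO fun x L₀ => (afr_of_cyl h zero_le_one x L₀).co_RR hg

theorem cont2_IF (h : CylStat W π κ x₀ R h₀) (hF : Well F dF H) (hg : Ker g1 g2) :
    Continuous (uncurry fun y l => IF W π κ y F g1 l) :=
  cont_of_CO fun x L₀ => (afr_of_cyl h zero_le_one x L₀).co_IF (h.hgt' x _) hF hg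

theorem cont2_eF (h : CylStat W π κ x₀ R h₀) (hF : Well F dF H) (hg : Ker g g1) :
    Continuous (uncurry fun y l => eF W π κ y H g l) :=
  cont_of_CO fun x L₀ => (afr_of_cyl h zero_le_one x L₀).co_eF (h.hgt' x _) hF hg

theorem cont2_err3 (h : CylStat W π κ x₀ R h₀) (hF : Well F dF H) (hg : Prof g g1 g2) :
    Continuous (uncurry fun y l => err3 W π κ y F g1 g2 l) :=
  cont_of_CO fun x L₀ => (afr_of_cyl h zero_le_one x L₀).co_err3 (h.hgt' x _) hF hg.k1 hg.k1.cont

theorem cont2_EEa (h : CylStat W π κ x₀ R h₀) (hd : CW d τ) (hg : Ker g g1) (Q : ℝ) :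
    Continuous (uncurry (EEa d W π g Q)) := continuous_av2 hd (cont2_EE h hg Q)

theorem cont2_eea (h : CylStat W π κ x₀ R h₀) (hd : CW d τ) (hg : Ker g g1) :
    Continuous (uncurry (eea d W π g)) := continuous_av2 hd (cont2_ee h hg)

theorem cont2_bba (h : CylStat W π κ x₀ R h₀) (hd : CW d τ) (hg : Ker g g1) (Q : ℝ) :
    Continuous (uncurry (bba d W π g Q)) := continuous_av2 hd (cont2_bb h hg Q)

theorem cont2_RRa (h : CylStat W π κ x₀ R h₀) (hd : CW d τ) (hg : Ker g1 g2) :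
    Continuous (uncurry (RRa d W π g1)) := continuous_av2 hd (cont2_RR h hg)

theorem cont2_IFa (h : CylStat W π κ x₀ R h₀) (hd : CW d τ) (hF : Well F dF H)
    (hg : Ker g1 g2) : Continuous (uncurry (IFa d W π κ F g1)) :=
  continuous_av2 hd (cont2_IF h hF hg)

theorem cont2_eFa (h : CylStat W π κ x₀ R h₀) (hd : CW d τ) (hF : Well F dF H)
    (hg : Ker g g1) : Continuous (uncurry (eFa d W π κ H g)) :=
  continuous_av2 hd (cont2_eF h hF hg)

theorem cont2_err3a (h : CylStat W π κ x₀ R h₀) (hd : CW d τ) (hF : Well F dF H)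
    (hg : Prof g g1 g2) : Continuous (uncurry (err3a d W π κ F g1 g2)) :=
  continuous_av2 hd (cont2_err3 h hF hg)

theorem cont2_SS (hτ : 0 < τ) (w : Wt) (b : Measure (XB (Euc m) τ)) [IsFiniteMeasure b] :
    Continuous fun p : Euc m × ℝ => SS m τ w b p.1 p.2 := by
  unfold SS
  have hJ : Continuous fun q : (Euc m × ℝ) × ℝ =>
      q.2 * ∫ y, w.psi y * ml m τ b (q.1.1 - q.2 • y) := by
    refine continuous_snd.mul ?_
    refine continuous_int_ball (g := fun (q : (Euc m × ℝ) × ℝ) (y : Euc m) =>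
      w.psi y * ml m τ b (q.1.1 - q.2 • y)) ?_ ?_
    · have h : Continuous fun p : ((Euc m × ℝ) × ℝ) × Euc m => p.1.1.1 - p.1.2 • p.2 := by
        fun_prop
      exact ((w.continuous_psi (F := Euc m)).comp continuous_snd).mul
        ((continuous_ml hτ b).comp h)
    · intro y hy z
      rw [w.psi_zero hy, zero_mul]
  exact intervalIntegral.continuous_parametric_intervalIntegral_of_continuous
    (f := fun (p : Euc m × ℝ) (ρ : ℝ) => ρ * ∫ y, w.psi y * ml m τ b (p.1 - ρ • y)) hJ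
    continuous_snd

theorem cont2_BB (hτ : 0 < τ) (w : Wt) [IsFiniteMeasure b₁] [IsFiniteMeasure b₂] :
    Continuous (uncurry (BB w b₁ b₂ : Euc m → ℝ → ℝ)) := by
  have h : Continuous fun p : Euc m × ℝ => (p.1, Real.exp p.2) := by fun_prop
  exact ((cont2_SS hτ w b₁).comp h).sub ((cont2_SS hτ w b₂).comp h)

theorem cont2_UU (h : CylStat W π κ x₀ R h₀) (hτ : 0 < τ) (w : Wt)
    [IsFiniteMeasure b₁] [IsFiniteMeasure b₂] (Q : ℝ) :
    Continuous (uncurry (UU w b₁ b₂ W π Q : Euc m → ℝ → ℝ)) :=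
  (cont2_EEa h (cw_dd hτ) (ker_wt w) Q).sub ((cont2_BB hτ w).const_mul 2)

/-! ### quasi-monotonicity and change of centre -/

theorem Prof.anti' (hg : Prof g g1 g2) {s t : ℝ} (hs : 0 ≤ s) (hst : s ≤ t) : g t ≤ g s := by
  have hanti : AntitoneOn g (Ici 0) := by
    refine antitoneOn_of_deriv_nonpos (convex_Ici 0) hg.k0.continuous.continuousOn
      (fun u _ => (hg.k0.der u).differentiableAt.differentiableWithinAt) fun u hu => ?_
    rw [interior_Ici] at hu
    rw [(hg.k0.der u).deriv]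
    exact hg.anti u (le_of_lt hu)
  exact hanti hs (hs.trans hst) hst

/-- pointwise comparison of energies of two centres and scales -/
theorem ee_le_of_ker (h : CylStat W π κ x₀ R h₀) (hg : Prof g g1 g2) {y y' : Euc m} {t t' C : ℝ}
    (hC : ∀ v : Euc m, g (Real.exp (-2 * t) * ‖v - y'‖ ^ 2) ≤
      C * g (Real.exp (-2 * t') * ‖v - y‖ ^ 2)) :
    ee W π y' g t ≤ C * Real.exp ((m - 2) * (t' - t)) * ee W π y g t' := by
  unfold ee
  have i1 : ∀ (z : Euc m) (l : ℝ), Integrable (fun p : Euc k × L k => tl π p.2 *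
      g (Real.exp (-2 * l) * ‖π p.1 - z‖ ^ 2)) W := fun z l =>
    (h.fr z (l + 1)).integrable_c (aestronglyMeasurable_tl π W) (h.fr z (l + 1)).tl_bound hg.k0
      (by linarith : l ≤ l + 1)
  have e1 : ∫ p, tl π p.2 * g (Real.exp (-2 * t) * ‖π p.1 - y'‖ ^ 2) ∂W ≤
      C * ∫ p, tl π p.2 * g (Real.exp (-2 * t') * ‖π p.1 - y‖ ^ 2) ∂W := by
    rw [← integral_const_mul]
    refine integral_mono_ae (i1 y' t) ((i1 y t').const_mul C) ?_
    filter_upwards [h.conc] with p hp
    have h1 := tl_nonneg h.sp.hh (isPr_of_G hp)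
    have h2 := mul_le_mul_of_nonneg_left (hC (π p.1)) h1
    linarith
  have e2 : Real.exp ((2 - m) * t) =
      Real.exp ((m - 2) * (t' - t)) * Real.exp ((2 - m) * t') := by
    rw [← Real.exp_add]; congr 1; ring
  calc _ ≤ Real.exp ((2 - m) * t) *
        (C * ∫ p, tl π p.2 * g (Real.exp (-2 * t') * ‖π p.1 - y‖ ^ 2) ∂W) :=
        mul_le_mul_of_nonneg_left e1 (Real.exp_pos _).le
    _ = _ := by rw [e2]; ring

/-- `e_x(t) ≤ e^{(m-2)(t'-t)} e_x(t')`, ordinary centres -/
theorem ee_mono (h : CylStat W π κ x₀ R h₀) (hg : Prof g g1 g2) (y : Euc m) {t t' : ℝ}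
    (ht : t ≤ t') : ee W π y g t ≤ Real.exp ((m - 2) * (t' - t)) * ee W π y g t' := by
  have h1 := ee_le_of_ker h hg (y := y) (y' := y) (t := t) (t' := t') (C := 1) fun v => by
    rw [one_mul]
    refine Prof.anti' hg (by positivity) ?_
    refine mul_le_mul_of_nonneg_right (Real.exp_le_exp.2 ?_) (by positivity)
    linarith
  rwa [one_mul] at h1

/-- **`e_x(t) ≤ e^{(m-2)(t'-t)} e_x(t')`**, averaged centres -/
theorem eea_mono (h : CylStat W π κ x₀ R h₀) (hd : CW d τ) (hg : Prof g g1 g2)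
    (x : Euc m) {t t' : ℝ} (ht : t ≤ t') :
    eea d W π g x t ≤ Real.exp ((m - 2) * (t' - t)) * eea d W π g x t' := by
  have c1 := cont2_ee h hg.k0
  unfold eea av
  rw [← integral_const_mul]
  have i1 : ∀ l : ℝ, Integrable fun y : Euc m => d y * ee W π (x - y) g l := fun l =>
    (CO_of_cont c1 x τ (l + 1)).integrable hd (by linarith : l < l + 1)
  refine integral_mono (i1 t) ((i1 t').const_mul _) fun y => ?_
  have h2 := mul_le_mul_of_nonneg_left (ee_mono h hg (x - y) ht) (hd.nonneg y)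
  simp only
  linarith

/-- kernel comparison for a change of centre: `g ≤ K`, `c ≤ g` on `[0, r²]`, `(1 + A) e^{-j} ≤ r` -/
theorem ker_change (hg : Prof g g1 g2) {K c r A j : ℝ} (hK : ∀ t, 0 ≤ t → g t ≤ K) (hc : 0 < c)
    (_hr : 0 ≤ r) (hcr : ∀ t, 0 ≤ t → t ≤ r ^ 2 → c ≤ g t) (_hA : 0 ≤ A)
    (hj : (1 + A) * Real.exp (-j) ≤ r) {y y' : Euc m} {t : ℝ} (hy : ‖y' - y‖ ≤ A * Real.exp t)
    (v : Euc m) : g (Real.exp (-2 * t) * ‖v - y'‖ ^ 2) ≤
      (K / c) * g (Real.exp (-2 * (t + j)) * ‖v - y‖ ^ 2) := by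
  have hK0 : 0 ≤ K := (hg.nonneg 0 le_rfl).trans (hK 0 le_rfl)
  by_cases hv : ‖v - y'‖ < Real.exp t
  · have h1 : ‖v - y‖ ≤ (1 + A) * Real.exp t := by
      have : ‖v - y‖ ≤ ‖v - y'‖ + ‖y' - y‖ := norm_sub_le_norm_sub_add_norm_sub v y' y
      linarith
    have h2 : Real.exp (-2 * (t + j)) * ‖v - y‖ ^ 2 ≤ r ^ 2 := by
      have e1 : Real.exp (-2 * (t + j)) * ‖v - y‖ ^ 2 = (Real.exp (-(t + j)) * ‖v - y‖) ^ 2 := by
        rw [mul_pow, ← Real.exp_nat_mul]
        congr 2
        push_cast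
        ring
      rw [e1]
      refine pow_le_pow_left₀ (by positivity) ?_ 2
      calc Real.exp (-(t + j)) * ‖v - y‖ ≤ Real.exp (-(t + j)) * ((1 + A) * Real.exp t) :=
            mul_le_mul_of_nonneg_left h1 (Real.exp_pos _).le
        _ = (1 + A) * Real.exp (-j) := by
            have : Real.exp (-(t + j)) * Real.exp t = Real.exp (-j) := by
              rw [← Real.exp_add]; congr 1; ring
            rw [← this]; ring
        _ ≤ r := hj
    have h3 := hcr _ (by positivity) h2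
    calc g (Real.exp (-2 * t) * ‖v - y'‖ ^ 2) ≤ K := hK _ (by positivity)
      _ = (K / c) * c := by field_simp
      _ ≤ _ := mul_le_mul_of_nonneg_left h3 (by positivity)
  · rw [hg.k0.zero _ (Ker.one_le_of y' (not_lt.1 hv))]
    exact mul_nonneg (by positivity) (hg.nonneg _ (by positivity))

/-- **change of centre for averaged energies**: `e_x'(t) ≤ C e_x(t + j)` if `|x' - x| ≤ A e^t` -/
theorem eea_change (h : CylStat W π κ x₀ R h₀) (hd : CW d τ) (hg : Prof g g1 g2) {K c r A j : ℝ}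
    (hK : ∀ t, 0 ≤ t → g t ≤ K) (hc : 0 < c) (hr : 0 ≤ r)
    (hcr : ∀ t, 0 ≤ t → t ≤ r ^ 2 → c ≤ g t) (hA : 0 ≤ A) (hj : (1 + A) * Real.exp (-j) ≤ r)
    {t : ℝ} (hx : ‖x' - x‖ ≤ A * Real.exp t) :
    eea d W π g x' t ≤ (K / c) * Real.exp ((m - 2) * j) * eea d W π g x (t + j) := by
  have c1 := cont2_ee h hg.k0
  unfold eea av
  rw [← integral_const_mul]
  have i1 : ∀ (z : Euc m) (l : ℝ), Integrable fun y : Euc m => d y * ee W π (z - y) g l :=
    fun z l => (CO_of_cont c1 z τ (l + 1)).integrable hd (by linarith : l < l + 1)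
  refine integral_mono (i1 x' t) ((i1 x (t + j)).const_mul _) fun y => ?_
  have h1 := ee_le_of_ker h hg (y := x - y) (y' := x' - y) (t := t) (t' := t + j)
    (C := K / c) fun v => ker_change hg hK hc hr hcr hA hj (by
      have : x' - y - (x - y) = x' - x := by abel
      rw [this]; exact hx) v
  have e1 : t + j - t = j := by ring
  rw [e1] at h1
  have h2 := mul_le_mul_of_nonneg_left h1 (hd.nonneg y)
  simp only
  linarith

/-- change of centre for ordinary energies -/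
theorem ee_change (h : CylStat W π κ x₀ R h₀) (hg : Prof g g1 g2) {K c r A j : ℝ}
    (hK : ∀ t, 0 ≤ t → g t ≤ K) (hc : 0 < c) (hr : 0 ≤ r)
    (hcr : ∀ t, 0 ≤ t → t ≤ r ^ 2 → c ≤ g t) (hA : 0 ≤ A) (hj : (1 + A) * Real.exp (-j) ≤ r)
    {t : ℝ} (hx : ‖x' - x‖ ≤ A * Real.exp t) :
    ee W π x' g t ≤ (K / c) * Real.exp ((m - 2) * j) * ee W π x g (t + j) := by
  have h1 := ee_le_of_ker h hg (y := x) (y' := x') (t := t) (t' := t + j)
    (C := K / c) fun v => ker_change hg hK hc hr hcr hA hj hx v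
  have e1 : t + j - t = j := by ring
  rwa [e1] at h1

/-- ordinary energies against averaged ones: `M e_y(t) ≤ C ē_x(t + j)`, `M = ∫ d` -/
theorem ee_le_eea (h : CylStat W π κ x₀ R h₀) (hd : CW d τ) (hg : Prof g g1 g2)
    {K c r A j : ℝ} (hK : ∀ t, 0 ≤ t → g t ≤ K) (hc : 0 < c) (hr : 0 ≤ r)
    (hcr : ∀ t, 0 ≤ t → t ≤ r ^ 2 → c ≤ g t) (hA : 0 ≤ A) (hj : (1 + A) * Real.exp (-j) ≤ r)
    {t : ℝ} (hx : ‖x' - x‖ + τ ≤ A * Real.exp t) :
    (∫ h, d h) * ee W π x' g t ≤ (K / c) * Real.exp ((m - 2) * j) * eea d W π g x (t + j) := by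
  have c1 := cont2_ee h hg.k0
  unfold eea av
  rw [← integral_const_mul, ← integral_mul_const]
  have i0 : Integrable fun y : Euc m => d y * ee W π x' g t :=
    hd.integrable (f := fun _ => ee W π x' g t) continuousOn_const
  have i1 : ∀ (z : Euc m) (l : ℝ), Integrable fun y : Euc m => d y * ee W π (z - y) g l :=
    fun z l => (CO_of_cont c1 z τ (l + 1)).integrable hd (by linarith : l < l + 1)
  refine integral_mono i0 ((i1 x (t + j)).const_mul _) fun y => ?_
  by_cases hy : y ∈ closedBall (0 : Euc m) τ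
  · have hy1 : ‖y‖ ≤ τ := by simpa using hy
    have h1 := ee_le_of_ker h hg (y := x - y) (y' := x') (t := t) (t' := t + j)
      (C := K / c) fun v => ker_change hg hK hc hr hcr hA hj (by
        have h3 : ‖x' - (x - y)‖ ≤ ‖x' - x‖ + ‖y‖ := by
          have : x' - (x - y) = (x' - x) + y := by abel
          rw [this]; exact norm_add_le _ _
        linarith) v
    have e1 : t + j - t = j := by ring
    rw [e1] at h1
    have h2 := mul_le_mul_of_nonneg_left h1 (hd.nonneg y)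
    simp only
    linarith
  · simp only [hd.zero' hy, zero_mul, mul_zero]; exact le_rfl

/-- averaged energies against ordinary ones -/
theorem eea_le_ee (h : CylStat W π κ x₀ R h₀) (hd : CW d τ) (hg : Prof g g1 g2)
    {K c r A j : ℝ} (hK : ∀ t, 0 ≤ t → g t ≤ K) (hc : 0 < c) (hr : 0 ≤ r)
    (hcr : ∀ t, 0 ≤ t → t ≤ r ^ 2 → c ≤ g t) (hA : 0 ≤ A) (hj : (1 + A) * Real.exp (-j) ≤ r)
    {t : ℝ} (hx : ‖x' - x‖ + τ ≤ A * Real.exp t) :
    eea d W π g x' t ≤ (∫ h, d h) * ((K / c) * Real.exp ((m - 2) * j) * ee W π x g (t + j)) := by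
  have c1 := cont2_ee h hg.k0
  unfold eea av
  rw [← integral_mul_const]
  have i0 : Integrable fun y : Euc m =>
      d y * ((K / c) * Real.exp ((m - 2) * j) * ee W π x g (t + j)) :=
    hd.integrable (f := fun _ => (K / c) * Real.exp ((m - 2) * j) * ee W π x g (t + j))
      continuousOn_const
  have i1 : ∀ (z : Euc m) (l : ℝ), Integrable fun y : Euc m => d y * ee W π (z - y) g l :=
    fun z l => (CO_of_cont c1 z τ (l + 1)).integrable hd (by linarith : l < l + 1)
  refine integral_mono (i1 x' t) i0 fun y => ?_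
  by_cases hy : y ∈ closedBall (0 : Euc m) τ
  · have hy1 : ‖y‖ ≤ τ := by simpa using hy
    have h1 := ee_change h hg hK hc hr hcr hA hj (x := x) (x' := x' - y) (t := t) (by
      have h3 : ‖x' - y - x‖ ≤ ‖x' - x‖ + ‖y‖ := by
        have : x' - y - x = (x' - x) - y := by abel
        rw [this]; exact norm_sub_le _ _
      linarith)
    exact mul_le_mul_of_nonneg_left h1 (hd.nonneg y)
  · simp only [hd.zero' hy, zero_mul]; exact le_rfl

/-! ### the radial energy -/

/-- `R(t) ≤ (K/c) e^{m(l-t)} R(l)` for `l - t ≥ j`, `-g1 ≤ K`, `-g1 ≥ c` on `[0, e^{-2j}]` -/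
theorem RR_le (h : CylStat W π κ x₀ R h₀) (hg : Prof g g1 g2) {K c j : ℝ}
    (hK : ∀ t, 0 ≤ t → -g1 t ≤ K) (hc : 0 < c)
    (hcr : ∀ t, 0 ≤ t → t ≤ Real.exp (-2 * j) → c ≤ -g1 t) (y : Euc m) {t l : ℝ}
    (hl : t + j ≤ l) :
    RR W π y g1 t ≤ (K / c) * Real.exp (m * (l - t)) * RR W π y g1 l := by
  have hK0 : 0 ≤ K := by
    have h1 := hg.anti 0 le_rfl
    have h2 := hK 0 le_rfl
    linarith
  unfold RR
  have i1 : ∀ (z : Euc m) (l : ℝ), Integrable (fun p : Euc k × L k => qf π p.2 (π p.1 - z) *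
      (-2 * g1 (Real.exp (-2 * l) * ‖π p.1 - z‖ ^ 2))) W := fun z l => by
    have h1 := (h.fr z (l + 1)).integrable_c (continuous_qf π z).aestronglyMeasurable
      (h.fr z (l + 1)).qf_bound hg.k1 (by linarith : l ≤ l + 1)
    refine (h1.const_mul (-2)).congr (Eventually.of_forall fun p => ?_)
    simp only
    ring
  have e1 : ∫ p, qf π p.2 (π p.1 - y) * (-2 * g1 (Real.exp (-2 * t) * ‖π p.1 - y‖ ^ 2)) ∂W ≤
      (K / c) * ∫ p, qf π p.2 (π p.1 - y) *
        (-2 * g1 (Real.exp (-2 * l) * ‖π p.1 - y‖ ^ 2)) ∂W := by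
    rw [← integral_const_mul]
    refine integral_mono_ae (i1 y t) ((i1 y l).const_mul _) ?_
    filter_upwards [h.conc] with p hp
    have h1 := qf_nonneg h.sp.hh (isPr_of_G hp) (π p.1 - y)
    have h2 : -2 * g1 (Real.exp (-2 * t) * ‖π p.1 - y‖ ^ 2) ≤
        (K / c) * (-2 * g1 (Real.exp (-2 * l) * ‖π p.1 - y‖ ^ 2)) := by
      by_cases hv : ‖π p.1 - y‖ < Real.exp t
      · have h3 : Real.exp (-2 * l) * ‖π p.1 - y‖ ^ 2 ≤ Real.exp (-2 * j) := by
          calc Real.exp (-2 * l) * ‖π p.1 - y‖ ^ 2 ≤ Real.exp (-2 * l) * Real.exp t ^ 2 :=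
                mul_le_mul_of_nonneg_left (pow_le_pow_left₀ (norm_nonneg _) hv.le 2)
                  (Real.exp_pos _).le
            _ = Real.exp (-2 * l + 2 * t) := by
                rw [← Real.exp_nat_mul, ← Real.exp_add]; norm_num
            _ ≤ _ := Real.exp_le_exp.2 (by linarith)
        have h4 := hcr _ (by positivity) h3
        have h5 := hK (Real.exp (-2 * t) * ‖π p.1 - y‖ ^ 2) (by positivity)
        calc -2 * g1 (Real.exp (-2 * t) * ‖π p.1 - y‖ ^ 2) ≤ 2 * K := by linarith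
          _ = (K / c) * (2 * c) := by field_simp
          _ ≤ _ := mul_le_mul_of_nonneg_left (by linarith) (by positivity)
      · rw [hg.k1.zero _ (Ker.one_le_of y (not_lt.1 hv)), mul_zero]
        have h6 := hg.anti (Real.exp (-2 * l) * ‖π p.1 - y‖ ^ 2) (by positivity)
        exact mul_nonneg (by positivity) (by linarith)
    have h3 := mul_le_mul_of_nonneg_left h2 h1
    linarith
  have e2 : Real.exp (-m * t) = Real.exp (m * (l - t)) * Real.exp (-m * l) := by
    rw [← Real.exp_add]; congr 1; ring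
  calc _ ≤ Real.exp (-m * t) * ((K / c) * ∫ p, qf π p.2 (π p.1 - y) *
        (-2 * g1 (Real.exp (-2 * l) * ‖π p.1 - y‖ ^ 2)) ∂W) :=
        mul_le_mul_of_nonneg_left e1 (Real.exp_pos _).le
    _ = _ := by rw [e2]; ring

theorem RRa_le (h : CylStat W π κ x₀ R h₀) (hd : CW d τ) (hg : Prof g g1 g2) {K c j : ℝ}
    (hK : ∀ t, 0 ≤ t → -g1 t ≤ K) (hc : 0 < c)
    (hcr : ∀ t, 0 ≤ t → t ≤ Real.exp (-2 * j) → c ≤ -g1 t) (x : Euc m) {t l : ℝ}
    (hl : t + j ≤ l) :
    RRa d W π g1 x t ≤ (K / c) * Real.exp (m * (l - t)) * RRa d W π g1 x l := by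
  have c1 := cont2_RR h hg.k1
  unfold RRa av
  rw [← integral_const_mul]
  have i1 : ∀ l : ℝ, Integrable fun y : Euc m => d y * RR W π (x - y) g1 l := fun l =>
    (CO_of_cont c1 x τ (l + 1)).integrable hd (by linarith : l < l + 1)
  refine integral_mono (i1 t) ((i1 l).const_mul _) fun y => ?_
  have h2 := mul_le_mul_of_nonneg_left (RR_le h hg hK hc hcr (x - y) hl) (hd.nonneg y)
  simp only
  linarith

/-- **`R(t) ≤ C ∫_{t+j}^{t+j+1} R`** -/
theorem RRa_le_integral (h : CylStat W π κ x₀ R h₀) (hτ : 0 ≤ τ) (hd : CW d τ)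
    (hg : Prof g g1 g2) {K c j : ℝ}
    (hK : ∀ t, 0 ≤ t → -g1 t ≤ K) (hc : 0 < c)
    (hcr : ∀ t, 0 ≤ t → t ≤ Real.exp (-2 * j) → c ≤ -g1 t) (x : Euc m) (t : ℝ) :
    RRa d W π g1 x t ≤ (K / c) * Real.exp (m * (j + 1)) *
      ∫ l in (t + j)..(t + j + 1), RRa d W π g1 x l := by
  have hK0 : 0 ≤ K := by
    have h1 := hg.anti 0 le_rfl
    have h2 := hK 0 le_rfl
    linarith
  have hc1 := continuous_RRa h hτ hd hg.k1 x
  rw [← intervalIntegral.integral_const_mul]
  have h1 : ∫ _ in (t + j)..(t + j + 1), RRa d W π g1 x t ≤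
      ∫ l in (t + j)..(t + j + 1), (K / c) * Real.exp (m * (j + 1)) * RRa d W π g1 x l := by
    refine intervalIntegral.integral_mono_on (by linarith) (by simp)
      ((hc1.const_mul _).intervalIntegrable _ _) fun l hl => ?_
    refine (RRa_le h hd hg hK hc hcr x hl.1).trans ?_
    refine mul_le_mul_of_nonneg_right ?_ (RRa_nonneg_c h hτ hd hg x l)
    refine mul_le_mul_of_nonneg_left (Real.exp_le_exp.2 ?_) (by positivity)
    refine mul_le_mul_of_nonneg_left ?_ (Nat.cast_nonneg m)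
    linarith [hl.2]
  simpa using h1

/-- **`R(t) ≤ C (U(t+j+1) - U(t+j))`** -/
theorem RRa_le_UU_sub (h : CylStat W π κ x₀ R h₀) (hτ : 0 < τ) {w : Wt}
    (hg : Prof w.θ w.θ' g2) [IsFiniteMeasure b₁] [IsFiniteMeasure b₂] (hrep : Rep b₁ b₂ W π Q)
    {K c j : ℝ} (hK : ∀ t, 0 ≤ t → -w.θ' t ≤ K) (hc : 0 < c)
    (hcr : ∀ t, 0 ≤ t → t ≤ Real.exp (-2 * j) → c ≤ -w.θ' t) {t : ℝ}
    (hl : ‖x‖ + Real.exp (t + j + 1) + 2 * τ ≤ 1)
    (hlR : ‖x - x₀‖ + τ + Real.exp (t + j + 1) ≤ R) :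
    RRa (dd m τ) W π w.θ' x t ≤ (K / c) * Real.exp (m * (j + 1)) *
      (UU w b₁ b₂ W π Q x (t + j + 1) - UU w b₁ b₂ W π Q x (t + j)) := by
  rw [UU_sub h hτ hg hrep (by linarith : t + j ≤ t + j + 1) hl hlR]
  exact RRa_le_integral h hτ.le (cw_dd hτ) hg hK hc hcr x t

/-! ### the error term of (W3) -/

/-- **bound of the averaged error term** -/
theorem abs_err3a_le (h : CylStat W π κ x₀ R h₀) (hd : CW d τ) (hF : Well F dF H)
    (hg : Prof g g1 g2) {K A c a : ℝ}
    (hK1 : ∀ t, 0 ≤ t → |g1 t| ≤ K) (hK2 : ∀ t, 0 ≤ t → |t * g2 t| ≤ K)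
    (hA : ∀ᵐ p ∂W, F (κ p.1) ≤ A) (hA0 : 0 ≤ A) (hc : 0 < c)
    (hga : ∀ t, 0 ≤ t → t < Real.exp (-2 * a) → c ≤ g t) (x : Euc m) (l : ℝ) :
    |err3a d W π κ F g1 g2 x l| ≤
      12 * K * A / c * Real.exp ((m - 2) * a) * Real.exp (-2 * l) * eea d W π g x (l + a) := by
  have hK0 : 0 ≤ K := (abs_nonneg _).trans (hK1 0 le_rfl)
  have c1 := cont2_ee h hg.k0
  have c3 := cont2_err3 h hF hg
  have hpt : ∀ y : Euc m, |err3 W π κ y F g1 g2 l| ≤
      12 * K * A / c * Real.exp ((m - 2) * a) * Real.exp (-2 * l) * ee W π y g (l + a) := by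
    intro y
    have h1 := h.abs_err3_le hF hg hK1 hK2 hA hA0 y l
    have h2 := h.te_le_ee hg hga y l
    refine h1.trans ?_
    calc 12 * K * A * Real.exp (-2 * l) * te W π y l =
          (12 * K * A / c * Real.exp (-2 * l)) * (c * te W π y l) := by field_simp
      _ ≤ (12 * K * A / c * Real.exp (-2 * l)) *
          (Real.exp ((m - 2) * a) * ee W π y g (l + a)) :=
          mul_le_mul_of_nonneg_left h2 (by positivity)
      _ = _ := by ring
  unfold err3a eea av
  rw [← integral_const_mul]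
  have i1 : ∀ l : ℝ, Integrable fun y : Euc m => d y * ee W π (x - y) g l := fun l =>
    (CO_of_cont c1 x τ (l + 1)).integrable hd (by linarith : l < l + 1)
  have h3 := norm_integral_le_of_norm_le (f := fun y : Euc m => d y * err3 W π κ (x - y) F g1 g2 l)
    ((i1 (l + a)).const_mul (12 * K * A / c * Real.exp ((m - 2) * a) * Real.exp (-2 * l)))
    (Eventually.of_forall fun y => by
      rw [Real.norm_eq_abs, abs_mul, abs_of_nonneg (hd.nonneg y)]
      have := mul_le_mul_of_nonneg_left (hpt (x - y)) (hd.nonneg y)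
      linarith)
  rwa [Real.norm_eq_abs] at h3

/-! ### mean values -/

/-- a centre at which `q` is at most its mean -/
theorem exists_le_mean (hd : CW d τ) (hM : 0 < ∫ h, d h) (hq : CO x τ L₀ q) {l : ℝ}
    (hl : l < L₀) : ∃ h ∈ closedBall (0 : Euc m) τ, q (x - h) l * ∫ h, d h ≤ av d q x l := by
  by_contra hcon
  push Not at hcon
  have hi := hq.integrable hd hl
  have hi2 : Integrable fun h : Euc m => d h * (av d q x l / ∫ h, d h) :=
    hd.integrable (f := fun _ => av d q x l / ∫ h, d h) continuousOn_const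
  have h1 : ∀ h : Euc m, d h * (av d q x l / ∫ h, d h) ≤ d h * q (x - h) l := by
    intro h
    by_cases hh : h ∈ closedBall (0 : Euc m) τ
    · have := hcon h hh
      refine mul_le_mul_of_nonneg_left ?_ (hd.nonneg h)
      rw [div_le_iff₀ hM]
      exact this.le
    · rw [hd.zero' hh]; simp
  have h2 : ∫ h, (d h * q (x - h) l - d h * (av d q x l / ∫ h, d h)) = 0 := by
    rw [integral_sub hi hi2, integral_mul_const]
    have : (∫ h, d h) * (av d q x l / ∫ h, d h) = av d q x l := by field_simp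
    rw [this]
    unfold av
    ring
  rw [integral_eq_zero_iff_of_nonneg (fun h => sub_nonneg.2 (h1 h)) (hi.sub hi2)] at h2
  have h3 : ∀ᵐ h : Euc m, d h = 0 := by
    filter_upwards [h2] with h hh
    by_contra hne
    have hmem : h ∈ closedBall (0 : Euc m) τ := by
      by_contra hn
      exact hne (hd.zero' hn)
    have h4 := hcon h hmem
    have h5 : av d q x l / (∫ h, d h) < q (x - h) l := by
      rw [div_lt_iff₀ hM]; exact h4
    have h6 : 0 < d h := lt_of_le_of_ne (hd.nonneg h) (Ne.symm hne)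
    have h7 : d h * q (x - h) l - d h * (av d q x l / ∫ h, d h) = 0 := hh
    nlinarith
  have h4 : ∫ h, d h = 0 := by
    rw [integral_congr_ae h3]; simp
  rw [h4] at hM
  exact lt_irrefl _ hM

end Crest.Agent.R234.Avg_387
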