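import Crest.Agent.R234.Avg5_387

/-!
# Row 234, VF-AVG, part 6 (helper387)

The mass of the weight `dd m τ` does not depend on `τ`; frames for general `V` over a fixed ball and the
general version (first variation kept) of `E = 2 B + U`.
-/

set_option autoImplicit false

open MeasureTheory Set Function Filter Topology Metric
open Crest.GeometryTopology.Submanifold
open Crest.Agent.R234.Vf_884 Crest.Agent.R234.Ar_870 Crest.Agent.R234.Cy_870
open Crest.Agent.R234.Pot_425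
open scoped ENNReal NNReal InnerProductSpace

noncomputable section

namespace Crest.Agent.R234.Avg_387

variable {m n k : ℕ} {τ : ℝ}

/-! ### the mass of the weight -/

/-- profile of the weight at unit scale -/
def d1 (m : ℕ) (v : Euc m) : ℝ := m * (1 + m / 2) * max (1 - ‖v‖ ^ 2) 0

/-- the mass of the weights `dd m τ` -/
def Md (m : ℕ) : ℝ := ∫ v : Euc m, d1 m v

theorem dd_eq (hτ : 0 < τ) (h : Euc m) : dd m τ h = (τ ^ m)⁻¹ * d1 m (τ⁻¹ • h) := by
  unfold dd d1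
  rw [norm_smul, norm_inv, Real.norm_eq_abs, abs_of_pos hτ, mul_pow, inv_pow]
  rcases le_total (‖h‖ ^ 2) (τ ^ 2) with hle | hle
  · rw [DD_of_le hτ hle, max_eq_left]
    · have e1 : (τ ^ 2) ^ (-(m : ℝ) / 2 - 1) = (τ ^ m)⁻¹ * (τ ^ 2)⁻¹ := by
        have h1 : (τ ^ 2 : ℝ) = τ ^ (2:ℝ) := by norm_num
        rw [h1, ← Real.rpow_mul hτ.le, ← Real.rpow_natCast τ m, ← Real.rpow_neg hτ.le,
          ← Real.rpow_neg hτ.le, ← Real.rpow_add hτ]
        congr 1
        ring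
      rw [e1]
      field_simp
    · rw [sub_nonneg, inv_mul_le_iff₀ (by positivity)]
      simpa using hle
  · rw [DD_of_ge hτ hle, max_eq_right]
    · ring
    · rw [sub_nonpos, le_inv_mul_iff₀ (by positivity)]
      simpa using hle

theorem continuous_d1 : Continuous (d1 m : Euc m → ℝ) := by
  unfold d1; fun_prop

theorem d1_nonneg (v : Euc m) : 0 ≤ d1 m v := by
  unfold d1
  exact mul_nonneg (by positivity) (le_max_right _ _)

theorem d1_le (v : Euc m) : d1 m v ≤ m * (1 + m / 2) := by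
  unfold d1
  have h1 : max (1 - ‖v‖ ^ 2) 0 ≤ 1 := max_le (by nlinarith [norm_nonneg v]) zero_le_one
  calc _ ≤ (m : ℝ) * (1 + m / 2) * 1 := mul_le_mul_of_nonneg_left h1 (by positivity)
    _ = _ := mul_one _

theorem integral_dd (hτ : 0 < τ) : ∫ h : Euc m, dd m τ h = Md m := by
  simp only [dd_eq hτ]
  rw [integral_const_mul]
  have h := Measure.integral_comp_smul (volume : Measure (Euc m)) (d1 m) τ⁻¹
  rw [h, finrank_euclideanSpace, Fintype.card_fin, smul_eq_mul, inv_pow, inv_inv,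
    abs_of_pos (by positivity), ← mul_assoc, inv_mul_cancel₀ (by positivity), one_mul]
  rfl

theorem Md_pos (hm : 0 < m) : 0 < Md m := by
  unfold Md
  have hc : HasCompactSupport (d1 m : Euc m → ℝ) := by
    refine HasCompactSupport.intro (isCompact_closedBall (0 : Euc m) 1) fun v hv => ?_
    have h1 : 1 < ‖v‖ := by simpa using hv
    unfold d1
    rw [max_eq_right (by nlinarith), mul_zero]
  refine continuous_d1.integral_pos_of_hasCompactSupport_nonneg_nonzero hc (x := 0)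
    (fun v => d1_nonneg v) ?_
  unfold d1
  simp only [norm_zero]
  have : (0:ℝ) < m := by exact_mod_cast hm
  have h2 : (0:ℝ) < (m : ℝ) * (1 + m / 2) := by positivity
  simp
  constructor
  · exact hm.ne'
  · positivity

theorem dd_le (hτ : 0 < τ) (h : Euc m) : dd m τ h ≤ (τ ^ m)⁻¹ * (m * (1 + m / 2)) := by
  rw [dd_eq hτ]
  exact mul_le_mul_of_nonneg_left (d1_le _) (by positivity)

/-! ### general `V`: `E = 2 B + U` with the first variation kept -/

variable {L₀ L₁ : ℝ} {x : Euc m}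
  {π : Euc k →L[ℝ] Euc m} {κ : Euc k →L[ℝ] Euc n} {V : Measure (Euc k × L k)}
  {g2 : ℝ → ℝ} {Q : ℝ} {b₁ b₂ : Measure (XB (Euc m) τ)}

theorem bb_eq_hat' (h : Fr V π κ x L₀) (w : Wt)
    (hrep : Rep b₁ b₂ V π Q) {l : ℝ} (hl : l ≤ L₀) (hx : ‖x‖ + Real.exp l ≤ 1 - τ) :
    bb V π x w.θ Q l = hat w b₁ x l - hat w b₂ x l := by
  have h1 := hrep.rep (fun z => w.θ (Real.exp (-2 * l) * ‖z - x‖ ^ 2))
    (w.cont.comp (by fun_prop)) (fun z hz => by
      refine w.zero _ (Ker.one_le_of x ?_)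
      have : ‖z‖ ≤ ‖z - x‖ + ‖x‖ := by
        have := norm_add_le (z - x) x
        simpa using this
      linarith)
  have i0 := h.integrable_c (c := fun _ => 1) (C := 1) aestronglyMeasurable_const ae_one_bound
    (ker_wt w) hl
  have i1 := h.integrable_c (aestronglyMeasurable_tl π V) h.tl_bound (ker_wt w) hl
  have e1 : ∫ p, w.θ (Real.exp (-2 * l) * ‖π p.1 - x‖ ^ 2) * (1 - tl π p.2 / 2) ∂V =
      ∫ p, 1 * w.θ (Real.exp (-2 * l) * ‖π p.1 - x‖ ^ 2) ∂V -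
      (1 / 2) * ∫ p, tl π p.2 * w.θ (Real.exp (-2 * l) * ‖π p.1 - x‖ ^ 2) ∂V := by
    rw [← integral_const_mul, ← integral_sub i0 (i1.const_mul _)]
    refine integral_congr_ae (Eventually.of_forall fun p => ?_)
    simp only
    ring
  rw [e1] at h1
  unfold bb EE ee hat
  have e2 : Real.exp ((2 - m) * l) * ∫ z : XB (Euc m) τ,
      w.θ (Real.exp (-2 * l) * ‖(z : Euc m) - x‖ ^ 2) ∂b₁ -
      Real.exp ((2 - m) * l) * ∫ z : XB (Euc m) τ,
      w.θ (Real.exp (-2 * l) * ‖(z : Euc m) - x‖ ^ 2) ∂b₂ =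
      Real.exp ((2 - m) * l) * (∫ z : XB (Euc m) τ,
      w.θ (Real.exp (-2 * l) * ‖(z : Euc m) - x‖ ^ 2) ∂b₁ - ∫ z : XB (Euc m) τ,
      w.θ (Real.exp (-2 * l) * ‖(z : Euc m) - x‖ ^ 2) ∂b₂) := by ring
  rw [e2, h1]
  simp only [one_mul]
  ring

namespace AFr

/-- **`B' = b`**, general `V` -/
theorem hasDerivAt_BB (h : AFr V π κ x τ L₀ L₁) (hτ : 0 < τ) (w : Wt) [IsFiniteMeasure b₁]
    [IsFiniteMeasure b₂] (hrep : Rep b₁ b₂ V π Q) {l : ℝ} (hlL : l < L₀)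
    (hl : ‖x‖ + Real.exp l + 2 * τ ≤ 1) :
    HasDerivAt (BB w b₁ b₂ x) (bba (dd m τ) V π w.θ Q x l) l := by
  have h1 := (hasDerivAt_SS hτ w b₁ x l).sub (hasDerivAt_SS hτ w b₂ x l)
  refine h1.congr_deriv ?_
  rw [← av_sub (cw_dd hτ) (co_hat w b₁ x τ (l + 1)) (co_hat w b₂ x τ (l + 1))
    (by linarith : l < l + 1)]
  unfold bba
  refine av_congr (cw_dd hτ) fun y hy => ?_
  refine (bb_eq_hat' (h.fr' hy) w hrep hlL.le ?_).symm
  have h2 : ‖y - x‖ ≤ τ := by rwa [mem_closedBall_iff_norm] at hy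
  have h3 : ‖y‖ ≤ ‖y - x‖ + ‖x‖ := by
    have := norm_add_le (y - x) x
    simpa using this
  linarith

/-- **`U' = R - f1`**, general `V` -/
theorem hasDerivAt_UU (h : AFr V π κ x τ L₀ L₁) (hτ : 0 < τ) {w : Wt}
    (hg : Prof w.θ w.θ' g2) [IsFiniteMeasure b₁] [IsFiniteMeasure b₂] (hrep : Rep b₁ b₂ V π Q)
    {l : ℝ} (hlL : l < L₀) (hl : ‖x‖ + Real.exp l + 2 * τ ≤ 1) :
    HasDerivAt (UU w b₁ b₂ V π Q x)
      (RRa (dd m τ) V π w.θ' x l - av (dd m τ) (f1 V π w.θ) x l) l := by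
  have h1 := (h.W1a (cw_dd hτ) hg Q hlL).sub ((h.hasDerivAt_BB hτ w hrep hlL hl).const_mul 2)
  refine h1.congr_deriv ?_
  ring

theorem tendsto_UU (h : AFr V π κ x τ L₀ L₁) (hτ : 0 < τ) {w : Wt}
    (hg : Prof w.θ w.θ' g2) [IsFiniteMeasure b₁] [IsFiniteMeasure b₂] (Q : ℝ) :
    Tendsto (UU w b₁ b₂ V π Q x) atBot (𝓝 0) := by
  have h1 := (tendsto_EEa h (cw_dd hτ) hg Q).sub
    ((tendsto_BB (b₁ := b₁) (b₂ := b₂) hτ w x).const_mul 2)
  rw [mul_zero, sub_zero] at h1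
  exact h1

/-- integrated form with errors: if `av f1 ≤ ε` below `l` and `∫_a^l ε ≤ K` for all `a` then
`∫_a^l R ≤ U(l) + K` -/
theorem integral_RRa_le_UU (h : AFr V π κ x τ L₀ L₁) (hτ : 0 < τ) {w : Wt}
    (hg : Prof w.θ w.θ' g2) [IsFiniteMeasure b₁] [IsFiniteMeasure b₂] (hrep : Rep b₁ b₂ V π Q)
    {l : ℝ} (hlL : l < L₀) (hl : ‖x‖ + Real.exp l + 2 * τ ≤ 1) {ε : ℝ → ℝ} {K : ℝ}
    (hε : ContinuousOn ε (Iic l)) (hfε : ∀ t ≤ l, av (dd m τ) (f1 V π w.θ) x t ≤ ε t)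
    (hK : ∀ a ≤ l, ∫ t in a..l, ε t ≤ K) {a : ℝ} (ha : a ≤ l) :
    ∫ t in a..l, RRa (dd m τ) V π w.θ' x t ≤ UU w b₁ b₂ V π Q x l + K := by
  have hc : ContinuousOn (RRa (dd m τ) V π w.θ' x) (Iic l) :=
    (continuousOn_av (cw_dd hτ) (h.co_RR hg.k1)).mono fun t ht => lt_of_le_of_lt ht hlL
  have hc2 : ContinuousOn (av (dd m τ) (f1 V π w.θ) x) (Iic l) :=
    (continuousOn_av (cw_dd hτ) (h.co_f1 hg)).mono fun t ht => lt_of_le_of_lt ht hlL
  refine le_of_tendsto_zero (U := UU w b₁ b₂ V π Q x)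
    (u := fun t => RRa (dd m τ) V π w.θ' x t - av (dd m τ) (f1 V π w.θ) x t)
    (r := RRa (dd m τ) V π w.θ' x) (ε := ε) (fun t ht => ?_) (hc.sub hc2) hc hε
    (h.tendsto_UU hτ hg Q) (fun t _ => h.RRa_nonneg (cw_dd hτ) hg t) (fun t ht => ?_) hK ha
  · have h2 := Real.exp_le_exp.2 ht
    exact h.hasDerivAt_UU hτ hg hrep (lt_of_le_of_lt ht hlL) (by linarith)
  · have := hfε t ht
    linarith

end AFr

end Crest.Agent.R234.Avg_387
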