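import Crest.Agent.R246.H2c5_622

/-!
R234 (helper3), VF-ELL part 1: `C^{1,α}` weak solutions of the minimal surface SYSTEM
(any codimension) with small gradient are `C^∞`.

`w : F → V`, `g = dw`, metric operator `gop q = 1 + qᵀ q`, density `dns q = √det (gop q)`;
weak system `∫ dns (g z) • (g z) ((gop (g z))⁻¹ (∇ζ z)) = 0` for all test functions `ζ`.
-/

open MeasureTheory Metric Set Filter Topology
open scoped ContDiff

namespace Crest.Agent.R234.Ell1_3

noncomputable section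

open Crest.Agent.R246.H2x622

variable {F V : Type} [NormedAddCommGroup F] [InnerProductSpace ℝ F] [FiniteDimensional ℝ F]
  [NormedAddCommGroup V] [InnerProductSpace ℝ V] [FiniteDimensional ℝ V]

/-- the adjoint as a continuous linear map over `ℝ` -/
def adjL : (F →L[ℝ] V) →L[ℝ] (V →L[ℝ] F) :=
  LinearMap.toContinuousLinearMap
    { toFun := fun q => ContinuousLinearMap.adjoint q
      map_add' := fun a b => map_add _ a b
      map_smul' := fun c a => by simp }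

@[simp] lemma adjL_apply (q : F →L[ℝ] V) : adjL q = ContinuousLinearMap.adjoint q := rfl

/-- the metric operator `1 + qᵀ q` -/
def gop (q : F →L[ℝ] V) : F →L[ℝ] F :=
  ContinuousLinearMap.id ℝ F + (ContinuousLinearMap.adjoint q) ∘L q

lemma gop_inner (q : F →L[ℝ] V) (x y : F) :
    inner ℝ x (gop q y) = inner ℝ x y + inner ℝ (q x) (q y) := by
  simp [gop, inner_add_right, ContinuousLinearMap.adjoint_inner_right]

lemma gop_contDiff : ContDiff ℝ ∞ (gop : (F →L[ℝ] V) → (F →L[ℝ] F)) := by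
  have h1 : ContDiff ℝ ∞ (fun q : F →L[ℝ] V => (adjL q) ∘L q) :=
    (adjL (F := F) (V := V)).contDiff.clm_comp contDiff_id
  exact contDiff_const.add h1

lemma gop_injective (q : F →L[ℝ] V) : Function.Injective (gop q) := by
  rw [injective_iff_map_eq_zero]
  intro x hx
  have h := gop_inner q x x
  rw [hx, inner_zero_right] at h
  have h1 : (0 : ℝ) ≤ inner ℝ (q x) (q x) := real_inner_self_nonneg
  have h2 : (0 : ℝ) ≤ inner ℝ x x := real_inner_self_nonneg
  have h3 : inner ℝ x x = (0 : ℝ) := by linarith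
  exact inner_self_eq_zero.1 h3

lemma gop_isUnit (q : F →L[ℝ] V) : IsUnit (gop q) := by
  let e : F ≃L[ℝ] F := (LinearEquiv.ofInjectiveEndo (gop q : F →ₗ[ℝ] F)
    (gop_injective q)).toContinuousLinearEquiv
  refine ⟨ContinuousLinearEquiv.toUnit e, ?_⟩
  ext x
  rfl

/-- the inverse metric operator -/
def ginv (q : F →L[ℝ] V) : F →L[ℝ] F := Ring.inverse (gop q)

lemma gop_ginv (q : F →L[ℝ] V) : gop q ∘L ginv q = ContinuousLinearMap.id ℝ F :=
  Ring.mul_inverse_cancel _ (gop_isUnit q)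

lemma ginv_gop (q : F →L[ℝ] V) : ginv q ∘L gop q = ContinuousLinearMap.id ℝ F :=
  Ring.inverse_mul_cancel _ (gop_isUnit q)

lemma ginv_contDiff : ContDiff ℝ ∞ (ginv : (F →L[ℝ] V) → (F →L[ℝ] F)) := by
  rw [contDiff_iff_contDiffAt]
  intro q
  obtain ⟨u, hu⟩ := gop_isUnit q
  have h1 : ContDiffAt ℝ ∞ (Ring.inverse : (F →L[ℝ] F) → (F →L[ℝ] F)) (gop q) := by
    rw [← hu]; exact contDiffAt_ringInverse ℝ u
  exact h1.comp q gop_contDiff.contDiffAt

/-- the Gram matrix of the graph metric in an orthonormal basis -/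
def gmat (q : F →L[ℝ] V) : Matrix (Fin (Module.finrank ℝ F)) (Fin (Module.finrank ℝ F)) ℝ :=
  Matrix.of fun i j => (if i = j then 1 else 0) +
    inner ℝ (q (stdOrthonormalBasis ℝ F i)) (q (stdOrthonormalBasis ℝ F j))

lemma gmat_eq (q : F →L[ℝ] V) :
    gmat q = LinearMap.toMatrix (stdOrthonormalBasis ℝ F).toBasis (stdOrthonormalBasis ℝ F).toBasis
      (gop q : F →ₗ[ℝ] F) := by
  ext i j
  have h1 : LinearMap.toMatrix (stdOrthonormalBasis ℝ F).toBasis
      (stdOrthonormalBasis ℝ F).toBasis (gop q : F →ₗ[ℝ] F) i j =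
      inner ℝ (stdOrthonormalBasis ℝ F i) (gop q (stdOrthonormalBasis ℝ F j)) := by
    rw [LinearMap.toMatrix_apply]
    simp [OrthonormalBasis.repr_apply_apply]
  rw [h1, gop_inner]
  have h2 := (orthonormal_iff_ite.1 (stdOrthonormalBasis ℝ F).orthonormal) i j
  rw [h2]
  rfl

/-- `det (1 + qᵀ q)` -/
def gdet (q : F →L[ℝ] V) : ℝ := LinearMap.det (gop q : F →ₗ[ℝ] F)

lemma gdet_eq (q : F →L[ℝ] V) : gdet q = (gmat q).det := by
  rw [gmat_eq, gdet, LinearMap.det_toMatrix]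

lemma gmat_posDef (q : F →L[ℝ] V) : (gmat q).PosDef := by
  have h1 : ((1 : Matrix (Fin (Module.finrank ℝ F)) (Fin (Module.finrank ℝ F)) ℝ)).PosDef :=
    Matrix.PosDef.one
  have h2 : (Matrix.gram ℝ fun i => q (stdOrthonormalBasis ℝ F i)).PosSemidef :=
    Matrix.posSemidef_gram _ _
  have h3 : gmat q = 1 + Matrix.gram ℝ fun i => q (stdOrthonormalBasis ℝ F i) := by
    ext i j
    simp [gmat, Matrix.gram, Matrix.one_apply]
  rw [h3]
  exact h1.add_posSemidef h2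

lemma gdet_pos (q : F →L[ℝ] V) : 0 < gdet q := by
  rw [gdet_eq]; exact (gmat_posDef q).det_pos

lemma gdet_contDiff : ContDiff ℝ ∞ (gdet : (F →L[ℝ] V) → ℝ) := by
  have h : (gdet : (F →L[ℝ] V) → ℝ) = fun q => (gmat q).det := funext gdet_eq
  rw [h]
  simp only [Matrix.det_apply]
  refine ContDiff.sum fun σ _ => ?_
  refine ContDiff.const_smul _ ?_
  refine contDiff_prod fun i _ => ?_
  refine contDiff_const.add ?_
  exact (ContDiff.clm_apply contDiff_id contDiff_const).inner ℝ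
    (ContDiff.clm_apply contDiff_id contDiff_const)

/-- area density of the graph -/
def dns (q : F →L[ℝ] V) : ℝ := Real.sqrt (gdet q)

lemma dns_pos (q : F →L[ℝ] V) : 0 < dns q := Real.sqrt_pos.2 (gdet_pos q)

lemma dns_contDiff : ContDiff ℝ ∞ (dns : (F →L[ℝ] V) → ℝ) :=
  gdet_contDiff.sqrt (fun q => (gdet_pos q).ne')

lemma gop_zero : gop (0 : F →L[ℝ] V) = ContinuousLinearMap.id ℝ F := by
  simp [gop]

lemma dns_zero : dns (0 : F →L[ℝ] V) = 1 := by
  simp [dns, gdet, gop_zero]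

lemma ginv_zero : ginv (0 : F →L[ℝ] V) = ContinuousLinearMap.id ℝ F := by
  have := ginv_gop (0 : F →L[ℝ] V)
  rwa [gop_zero, ContinuousLinearMap.comp_id] at this

/-- the flux of the minimal surface system -/
def flx (q : F →L[ℝ] V) : F →L[ℝ] V := dns q • (q ∘L ginv q)

lemma flx_contDiff : ContDiff ℝ ∞ (flx : (F →L[ℝ] V) → (F →L[ℝ] V)) :=
  dns_contDiff.smul (contDiff_id.clm_comp ginv_contDiff)

/-- the nonlinearity -/
def mssM (q : F →L[ℝ] V) : F →L[ℝ] V := q - flx q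

/-- the nonlinearity, as a function of value and gradient -/
def mssG (p : V × (F →L[ℝ] V)) : F →L[ℝ] V := mssM p.2

lemma mssM_contDiff : ContDiff ℝ ∞ (mssM : (F →L[ℝ] V) → (F →L[ℝ] V)) :=
  contDiff_id.sub flx_contDiff

lemma mssG_contDiff : ContDiff ℝ ∞ (mssG : V × (F →L[ℝ] V) → (F →L[ℝ] V)) :=
  mssM_contDiff.comp contDiff_snd

lemma hasFDerivAt_flx_zero :
    HasFDerivAt (flx : (F →L[ℝ] V) → (F →L[ℝ] V))
      (ContinuousLinearMap.id ℝ (F →L[ℝ] V)) 0 := by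
  have hd : HasFDerivAt (dns : (F →L[ℝ] V) → ℝ) (fderiv ℝ dns 0) 0 :=
    (dns_contDiff.differentiable (by simp) _).hasFDerivAt
  have hi : HasFDerivAt (ginv : (F →L[ℝ] V) → (F →L[ℝ] F)) (fderiv ℝ ginv 0) 0 :=
    (ginv_contDiff.differentiable (by simp) _).hasFDerivAt
  have hc := (hasFDerivAt_id (𝕜 := ℝ) (0 : F →L[ℝ] V)).clm_comp hi
  have h := hd.smul hc
  refine h.congr_fderiv ?_
  ext P x
  simp [dns_zero, ginv_zero]

lemma fderiv_mssM_zero : fderiv ℝ (mssM : (F →L[ℝ] V) → (F →L[ℝ] V)) 0 = 0 := by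
  have h : HasFDerivAt (mssM : (F →L[ℝ] V) → (F →L[ℝ] V)) _ 0 :=
    (hasFDerivAt_id (𝕜 := ℝ) (0 : F →L[ℝ] V)).sub hasFDerivAt_flx_zero
  rw [h.fderiv, sub_self]

lemma exists_small_mss {β : ℝ} (hβ : 0 < β) :
    ∃ p₀ > 0, ∀ p : V × (F →L[ℝ] V), ‖p.2‖ < p₀ → Sml β mssG p := by
  obtain ⟨p₀, hp, hp2⟩ := small_of_fderiv_zero (mssM_contDiff (F := F) (V := V))
    (fun P => by rw [fderiv_mssM_zero]; rfl) hβ
  refine ⟨p₀, hp, fun p hpp P => ?_⟩
  have h2 : HasFDerivAt (mssG : V × (F →L[ℝ] V) → (F →L[ℝ] V))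
      (fderiv ℝ mssM p.2 ∘L ContinuousLinearMap.snd ℝ V (F →L[ℝ] V)) p :=
    ((mssM_contDiff.differentiable (by simp) _).hasFDerivAt).comp p hasFDerivAt_snd
  rw [h2.fderiv]
  exact hp2 p.2 hpp P

variable [MeasurableSpace F] [BorelSpace F]

variable (F V) in
/-- **Regularity for the minimal surface system**: `C^{1,α}` weak solutions with small gradient
are smooth. -/
theorem mss_smooth {α : ℝ} (hα : 0 < α) (hα1 : α < 1) :
    ∃ p₀ > 0, ∀ (U : Set F) (w : F → V) (g : F → F →L[ℝ] V), IsOpen U →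
      (∀ z ∈ U, HasFDerivAt w (g z) z) →
      (∀ x ∈ U, ∃ r > 0, ∃ K, ∀ z ∈ ball x r, ∀ z' ∈ ball x r, ‖g z - g z'‖ ≤ K * ‖z - z'‖ ^ α) →
      (∀ z ∈ U, ‖g z‖ < p₀) →
      (∀ ζ : F → ℝ, ContDiff ℝ ∞ ζ → HasCompactSupport ζ → tsupport ζ ⊆ U →
        ∫ z, flx (g z) (gradient ζ z) = 0) →
      ContDiffOn ℝ ∞ w U := by
  obtain ⟨κ, hκ⟩ := exists_KB F
  have hb := bet_pos hκ hα hα1
  obtain ⟨p₀, hp, hp2⟩ := exists_small_mss (F := F) (V := V) (half_pos hb)
  refine ⟨p₀, hp, ?_⟩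
  intro U w g hU hder hhol hsm hweak
  have hS : Sol α (mssG : V × (F →L[ℝ] V) → (F →L[ℝ] V)) w g U := by
    refine ⟨hU, hder, hhol, ?_⟩
    intro ζ h1 h2 h3
    rw [← hweak ζ h1 h2 h3]
    congr 1
    ext z
    simp [mssG, mssM]
  rw [contDiffOn_infty]
  intro n
  exact sol_contDiffOn hκ hα hα1 (half_pos hb).le (half_lt_self hb) n mssG_contDiff hS
    (fun z hz => hp2 _ (hsm z hz))

end

end Crest.Agent.R234.Ell1_3
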