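import Crest.Agent.R234.Main_456
import Crest.Agent.R234.Ell1_3

/-!
# Row 234, VF-MAIN (helper456), version 2: the SUCP stage `NoSel` from the nodes `Dbl` and `Pin`

* `Dbl` (F-c + F-d): at the scales of a selection there are reference minimal graphs with a doubling
  constant `C` independent of `ε`.
* `Pin` (F-b): content of `Q`-points + doubling relative to an almost optimal minimal graph is impossible.
-/

set_option autoImplicit false
set_option linter.unusedVariables false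

open MeasureTheory Filter Topology Set
open scoped ENNReal NNReal ContDiff
open Crest.GeometryTopology.Submanifold Crest.Agent.R234.Vf_884
open Crest.Agent.R234.Strat3_842 (tilt height)
open Crest.Agent.R234.AS_456 (hp vp)

noncomputable section

namespace Crest.Agent.R234.Main_456

variable {m n k : ℕ}

/-- orthonormal frame: `π` = base coordinates, `ρ` = height coordinates. -/
structure Frame (π : Euc k →L[ℝ] Euc m) (ρ : Euc k →L[ℝ] Euc n) : Prop where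
  coπ : Ar_870.IsCo π
  coρ : Ar_870.IsCo ρ
  orth : π ∘L ContinuousLinearMap.adjoint ρ = 0
  full : (ContinuousLinearMap.adjoint π) ∘L π + (ContinuousLinearMap.adjoint ρ) ∘L ρ =
    ContinuousLinearMap.id ℝ (Euc k)

/-- the minimal surface system `∑ g^{ij} ∂_i ∂_j u` at `z`, `g = 1 + Duᵀ Du`. -/
def Msys (u : Euc m → Euc n) (z : Euc m) : Euc n :=
  ∑ i, (fderiv ℝ (fderiv ℝ u) z (Ell1_3.ginv (fderiv ℝ u z) (stdVec m i))) (stdVec m i)

/-- the box `|π(z - x)| < a r, |ρ(z - x)| < a r`. -/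
def box (π : Euc k →L[ℝ] Euc m) (ρ : Euc k →L[ℝ] Euc n) (x : Euc k) (r : ℝ) : Set (Euc k) :=
  {z | ‖π (z - x)‖ < r ∧ ‖ρ (z - x)‖ < r}

/-- height over the graph of `u` (at scale `r` about `x`). -/
def hgt (π : Euc k →L[ℝ] Euc m) (ρ : Euc k →L[ℝ] Euc n) (x : Euc k) (r : ℝ) (u : Euc m → Euc n)
    (z : Euc k) : Euc n := ρ (z - x) - r • u (r⁻¹ • π (z - x))

/-- height excess of `V` over the graph of `u` in the box of radius `a r` (not normalised). -/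
def sep (V : Measure (Euc k × L k)) (π : Euc k →L[ℝ] Euc m) (ρ : Euc k →L[ℝ] Euc n) (x : Euc k)
    (r : ℝ) (u : Euc m → Euc n) (a : ℝ) : ℝ :=
  ∫ p in box π ρ x (a * r) ×ˢ univ, ‖hgt π ρ x r u p.1‖ ^ 2 ∂V

/-- reference minimal graph with doubling at scale `r`. -/
structure Ref (V : Measure (Euc k × L k)) (Q : ℕ) (x : Euc k) (r : ℝ) (π : Euc k →L[ℝ] Euc m)
    (ρ : Euc k →L[ℝ] Euc n) (u : Euc m → Euc n) (K : ℕ) (ε C : ℝ) : Prop where
  frame : Frame π ρ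
  near : NearQ m V Q x (64 * r) ε (hp π)
  smooth : ContDiff ℝ ∞ u
  small : ∀ j ≤ K, ∀ z ∈ Metric.ball (0 : Euc m) 32, ‖iteratedFDeriv ℝ j u z‖ ≤ ε
  minimal : ∀ z ∈ Metric.ball (0 : Euc m) 32, Msys u z = 0
  pos : 0 < sep V π ρ x r u (1 / 4)
  dbl : sep V π ρ x r u 8 ≤ C * sep V π ρ x r u (1 / 4)
  mean : ∀ ζ : Euc m → ℝ, ContDiff ℝ ∞ ζ → tsupport ζ ⊆ Metric.ball 0 8 →
    (∀ j ≤ K, ∀ z, ‖iteratedFDeriv ℝ j ζ z‖ ≤ 1) →
    ‖∫ p in box π ρ x (8 * r) ×ˢ univ, ζ (r⁻¹ • π (p.1 - x)) • hgt π ρ x r u p.1 ∂V‖ ^ 2 ≤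
      ε ^ 2 * r ^ m * sep V π ρ x r u 8

/-- node N2a (F-c, F-d): doubling at the scales of a selection. -/
def Dbl : Prop :=
  ∀ (m n : ℕ), 3 ≤ m → 1 ≤ n → ∀ (U : Set (Euc (m + n))), IsOpen U →
    ∀ D : VarifoldData m (m + n), IsIntegralVarifoldIn U D → IsStationaryIn U D →
      ∀ (s : ℝ) (Q : ℕ) (c : ℝ) (x : Euc (m + n)) (r : ℕ → ℝ) (P : ℕ → L (m + n)),
        Sel m (m + n) U D s Q c x r P → ∀ K : ℕ, ∃ C : ℝ, ∀ ε : ℝ, 0 < ε → ∃ᶠ i in atTop,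
          ∃ (π : Euc (m + n) →L[ℝ] Euc m) (ρ : Euc (m + n) →L[ℝ] Euc n) (u : Euc m → Euc n),
            Ref (VD D) Q x (r i) π ρ u K ε C

/-- node N2b (F-b): pinching. -/
def Pin : Prop :=
  ∀ (m n : ℕ), 3 ≤ m → 1 ≤ n → ∃ K : ℕ, ∀ (Q : ℕ) (s c C : ℝ), 2 ≤ Q → (m : ℝ) - 1 < s → 0 < c →
    ∃ ε : ℝ, 0 < ε ∧ ∀ (U : Set (Euc (m + n))), IsOpen U → ∀ D : VarifoldData m (m + n),
      IsIntegralVarifoldIn U D → IsStationaryIn U D → ∀ (x : Euc (m + n)) (r : ℝ), 0 < r →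
        Metric.closedBall x (128 * r) ⊆ U → Th m (VD D) x = (Q : ℝ≥0∞) →
        ENNReal.ofReal c * ENNReal.ofReal r ^ s ≤
          Fa_694.cont s ({y | (Q : ℝ≥0∞) ≤ Th m (VD D) y} ∩ Metric.closedBall x r) →
        ∀ (π : Euc (m + n) →L[ℝ] Euc m) (ρ : Euc (m + n) →L[ℝ] Euc n) (u : Euc m → Euc n),
          ¬ Ref (VD D) Q x r π ρ u K ε C

/-- the SUCP stage. -/
theorem noSel_of (h1 : Dbl) (h2 : Pin) : NoSel := by
  intro m n hm hn U hU D hD hs s Q c x r P hsel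
  obtain ⟨K, hK⟩ := h2 m n hm hn
  obtain ⟨C, hC⟩ := h1 m n hm hn U hU D hD hs s Q c x r P hsel K
  obtain ⟨ε, hε, hpin⟩ := hK Q s c C hsel.hQ hsel.hs hsel.hc
  have hxU : x ∈ U := hsel.mem.1.1
  obtain ⟨R, hR, hRU⟩ := Metric.isOpen_iff.1 hU x hxU
  have hev : ∀ᶠ i in atTop, 128 * r i < R := by
    have h := hsel.lim.const_mul 128
    rw [mul_zero] at h
    exact h.eventually (gt_mem_nhds hR)
  obtain ⟨i, ⟨π, ρ, u, href⟩, hi⟩ := ((hC ε hε).and_eventually hev).exists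
  refine hpin U hU D hD hs x (r i) (hsel.pos i) ?_ hsel.mem.2 ?_ π ρ u href
  · exact (Metric.closedBall_subset_ball hi).trans hRU
  · refine (hsel.cont i).trans (Fa_694.cont_mono s ?_)
    rintro y ⟨⟨_, hy⟩, hyx⟩
    exact ⟨hy.ge, hyx⟩

/-- the top level, version 2. -/
theorem main2 (h0 : ProdStep) (h1 : FA) (h2 : Dbl) (h3 : Pin) :
    ∀ m n : ℕ, 1 ≤ m → 1 ≤ n → S m n :=
  main h0 h1 (noSel_of h2 h3)

end Crest.Agent.R234.Main_456
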