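import Crest.Agent.R234.Kern_567
import Crest.Agent.R234.Main2_456

/-!
# Row 234 (helper332), node F3-KERN2: the kernel of the rotated charts

`u : F → G` with `‖Du‖ ≤ κ ≤ 1/4`, `Lip Du ≤ λ ≤ 1`, `g = 1 + Duᵀ Du`, `w x y = (y - x) + Du(x)ᵀ (u y - u x)`.
The base coordinate of the point `m_y = (y, u y)` of the graph in the frame tangent at `m_x` has norm
`⟪g(x)⁻¹ w, w⟫^{1/2}`.  The kernel `β x y = (1 - ⟪g(x)⁻¹ w, w⟫ / ρ²)₊` with the weight
`√(det g(x)) / mass ρ` satisfies `F31_354.Kern` with `θ = C κ λ ρ` (over 567's ellipsoidal kernel).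
-/

set_option autoImplicit false
set_option linter.unusedSectionVars false
set_option linter.unusedVariables false

open MeasureTheory Set Metric Function
open scoped ENNReal NNReal Topology InnerProductSpace

noncomputable section

namespace Crest.Agent.R234.Kern2_332

open Crest.Agent.R234.Loc1_290 Crest.Agent.R234.F31_354 Crest.Agent.R234.Kern_567
open ContinuousLinearMap (adjoint)
open Crest.GeometryTopology.Submanifold (Euc)

variable {F : Type*} [NormedAddCommGroup F] [InnerProductSpace ℝ F] [FiniteDimensional ℝ F]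
  [MeasurableSpace F] [BorelSpace F]
variable {G : Type*} [NormedAddCommGroup G] [InnerProductSpace ℝ G] [FiniteDimensional ℝ G]

/-- bounded measurable functions with bounded support are integrable -/
theorem integrable_of_ball {vol : Measure F} [vol.IsAddHaarMeasure] {f : F → ℝ} (hf : Measurable f)
    {C : ℝ} (hC : ∀ x, |f x| ≤ C) {y : F} {r : ℝ} (h0 : ∀ x, r < ‖x - y‖ → f x = 0) :
    Integrable f vol := by
  have hi : Integrable (indicator (closedBall y r) fun _ : F => C) vol :=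
    (integrable_indicator_iff measurableSet_closedBall).2
      (integrableOn_const (measure_closedBall_lt_top.ne))
  refine hi.mono hf.aestronglyMeasurable (Filter.Eventually.of_forall fun x => ?_)
  by_cases hx : x ∈ closedBall y r
  · rw [indicator_of_mem hx, Real.norm_eq_abs, Real.norm_eq_abs]
    exact (hC x).trans (le_abs_self _)
  · rw [mem_closedBall, dist_eq_norm, not_le] at hx
    rw [h0 x hx, norm_zero]
    exact norm_nonneg _

/-- perturbation of a kernel -/
theorem perturb {vol : Measure F} [vol.IsAddHaarMeasure] {β β' : F → F → ℝ} {w : F → ℝ}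
    {ρ θ W R c : ℝ} (h : Kern vol β w ρ θ W R) (hW : 0 ≤ W)
    (hm : Measurable (uncurry β')) (h0 : ∀ x y, 0 ≤ β' x y)
    (h1 : ∀ x y, β' x y ≤ 1) (hs : ∀ x y, 2 * ρ < ‖y - x‖ → β' x y = 0) (hc0 : 0 ≤ c)
    (hc : ∀ x y, ‖y - x‖ ≤ 2 * ρ → |β' x y - β x y| ≤ c) :
    Kern vol β' w ρ (θ + W * c * vol.real (closedBall 0 (2 * ρ))) W R where
  meas := hm
  nonneg := h0
  le_one := h1
  supp := hs
  wmeas := h.wmeas
  wnonneg := h.wnonneg
  wle := h.wle
  mass := by
    intro y hy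
    have hβ'i : Integrable (fun x => w x * β' x y) vol := by
      refine integrable_of_ball (C := W) (y := y) (r := 2 * ρ)
        (h.wmeas.mul (hm.comp (measurable_id.prodMk measurable_const))) (fun x => ?_) fun x hx => ?_
      · rw [abs_mul, abs_of_nonneg (h.wnonneg x), abs_of_nonneg (h0 x y)]
        calc w x * β' x y ≤ W * 1 :=
              mul_le_mul (h.wle x) (h1 x y) (h0 x y) hW
          _ = W := mul_one _
      · rw [hs x y (by rw [norm_sub_rev]; exact hx), mul_zero]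
    have hβi := h.integrable y
    have hdi : Integrable (fun x => w x * β' x y - w x * β x y) vol := hβ'i.sub hβi
    have hd : |∫ x, (w x * β' x y - w x * β x y) ∂vol| ≤
        W * c * vol.real (closedBall 0 (2 * ρ)) := by
      have hi : Integrable (indicator (closedBall y (2 * ρ)) fun _ : F => W * c) vol :=
        (integrable_indicator_iff measurableSet_closedBall).2
          (integrableOn_const (measure_closedBall_lt_top.ne))
      calc |∫ x, (w x * β' x y - w x * β x y) ∂vol|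
          ≤ ∫ x, |w x * β' x y - w x * β x y| ∂vol := abs_integral_le_integral_abs
        _ ≤ ∫ x, indicator (closedBall y (2 * ρ)) (fun _ : F => W * c) x ∂vol := by
            refine integral_mono hdi.abs hi fun x => ?_
            by_cases hx : x ∈ closedBall y (2 * ρ)
            · rw [indicator_of_mem hx, ← mul_sub, abs_mul, abs_of_nonneg (h.wnonneg x)]
              refine mul_le_mul (h.wle x) (hc x y ?_) (abs_nonneg _) hW
              rw [mem_closedBall, dist_eq_norm] at hx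
              rw [norm_sub_rev]; exact hx
            · rw [indicator_of_notMem hx]
              rw [mem_closedBall, dist_eq_norm, not_le] at hx
              have hx' : 2 * ρ < ‖y - x‖ := by rw [norm_sub_rev]; exact hx
              rw [hs x y hx', h.supp x y hx']
              simp
        _ = vol.real (closedBall y (2 * ρ)) * (W * c) := by
            rw [integral_indicator measurableSet_closedBall, setIntegral_const, smul_eq_mul]
        _ = W * c * vol.real (closedBall 0 (2 * ρ)) := by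
            rw [show vol.real (closedBall y (2 * ρ)) = vol.real (closedBall (0 : F) (2 * ρ)) by
              unfold Measure.real; rw [Measure.addHaar_closedBall_center], mul_comm]
    have he : ∫ x, w x * β' x y ∂vol - 1 =
        (∫ x, (w x * β' x y - w x * β x y) ∂vol) + (∫ x, w x * β x y ∂vol - 1) := by
      rw [integral_sub hβ'i hβi]; ring
    rw [he]
    calc _ ≤ |∫ x, (w x * β' x y - w x * β x y) ∂vol| + |∫ x, w x * β x y ∂vol - 1| := abs_add_le _ _
      _ ≤ W * c * vol.real (closedBall 0 (2 * ρ)) + θ := add_le_add hd (h.mass y hy)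
      _ = _ := by ring

/-! ### the metric of a graph -/

/-- `g = 1 + Dᵀ D` -/
def gm (D : F →L[ℝ] G) : F →L[ℝ] F := ContinuousLinearMap.id ℝ F + (adjoint D) ∘L D

/-- the inverse metric -/
def gi (D : F →L[ℝ] G) : F →L[ℝ] F := Ring.inverse (gm D)

theorem gm_apply (D : F →L[ℝ] G) (v : F) : gm D v = v + adjoint D (D v) := rfl

theorem inner_gm (D : F →L[ℝ] G) (v w : F) : ⟪gm D v, w⟫_ℝ = ⟪v, w⟫_ℝ + ⟪D v, D w⟫_ℝ := by
  rw [gm_apply, inner_add_left, ContinuousLinearMap.adjoint_inner_left]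

theorem inner_gm_self (D : F →L[ℝ] G) (v : F) : ⟪gm D v, v⟫_ℝ = ‖v‖ ^ 2 + ‖D v‖ ^ 2 := by
  rw [inner_gm, real_inner_self_eq_norm_sq, real_inner_self_eq_norm_sq]

theorem gm_symm (D : F →L[ℝ] G) (v w : F) : ⟪gm D v, w⟫_ℝ = ⟪v, gm D w⟫_ℝ := by
  rw [inner_gm, real_inner_comm (gm D w) v, inner_gm, real_inner_comm v w,
    real_inner_comm (D v) (D w)]

theorem isUnit_gm (D : F →L[ℝ] G) : IsUnit (gm D) := by
  have hinj : Injective (gm D : F →ₗ[ℝ] F) := by
    refine (injective_iff_map_eq_zero _).2 fun v hv => ?_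
    have h := inner_gm_self D v
    have hv' : gm D v = 0 := hv
    rw [hv', inner_zero_left] at h
    have h2 : ‖v‖ ^ 2 = 0 := by nlinarith [sq_nonneg ‖v‖, sq_nonneg ‖D v‖]
    exact norm_eq_zero.1 (pow_eq_zero_iff (two_ne_zero)|>.1 h2)
  let e : F ≃L[ℝ] F := (LinearEquiv.ofInjectiveEndo (gm D : F →ₗ[ℝ] F) hinj).toContinuousLinearEquiv
  refine ⟨(ContinuousLinearEquiv.unitsEquiv ℝ F).symm e, ?_⟩
  ext v
  rfl

theorem gm_gi (D : F →L[ℝ] G) (v : F) : gm D (gi D v) = v := by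
  have h := Ring.mul_inverse_cancel _ (isUnit_gm D)
  exact congrArg (fun T : F →L[ℝ] F => T v) h

theorem gi_gm (D : F →L[ℝ] G) (v : F) : gi D (gm D v) = v := by
  have h := Ring.inverse_mul_cancel _ (isUnit_gm D)
  exact congrArg (fun T : F →L[ℝ] F => T v) h

/-- uniqueness of the inverse -/
theorem gi_eq {D : F →L[ℝ] G} {v w : F} (h : gm D w = v) : gi D v = w := by rw [← h, gi_gm]

theorem gi_symm (D : F →L[ℝ] G) (v w : F) : ⟪gi D v, w⟫_ℝ = ⟪v, gi D w⟫_ℝ := by
  nth_rewrite 1 [← gm_gi D w]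
  rw [← gm_symm, gm_gi]

theorem inner_gi_nonneg (D : F →L[ℝ] G) (v : F) : 0 ≤ ⟪gi D v, v⟫_ℝ := by
  nth_rewrite 2 [← gm_gi D v]
  rw [← gm_symm, inner_gm_self]
  positivity

theorem norm_gi_le (D : F →L[ℝ] G) (v : F) : ‖gi D v‖ ≤ ‖v‖ := by
  have h : ‖gi D v‖ ^ 2 ≤ ‖gi D v‖ * ‖v‖ := by
    have h1 : ‖gi D v‖ ^ 2 ≤ ⟪gm D (gi D v), gi D v⟫_ℝ := by
      rw [inner_gm_self]; nlinarith [sq_nonneg ‖D (gi D v)‖]
    rw [gm_gi] at h1
    exact h1.trans ((real_inner_le_norm _ _).trans (le_of_eq (mul_comm _ _)))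
  rcases eq_or_lt_of_le (norm_nonneg (gi D v)) with h0 | h0
  · rw [← h0]; exact norm_nonneg _
  · rw [sq] at h
    exact le_of_mul_le_mul_left h h0

theorem continuous_gm : Continuous (gm : (F →L[ℝ] G) → (F →L[ℝ] F)) := by
  unfold gm
  have h1 : Continuous fun D : F →L[ℝ] G => adjoint D :=
    (ContinuousLinearMap.adjoint : (F →L[ℝ] G) ≃ₗᵢ⋆[ℝ] (G →L[ℝ] F)).continuous
  exact continuous_const.add (h1.clm_comp continuous_id)

theorem continuous_gi : Continuous (gi : (F →L[ℝ] G) → (F →L[ℝ] F)) := by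
  refine continuous_iff_continuousAt.2 fun D => ?_
  obtain ⟨x, hx⟩ := isUnit_gm D
  have h1 : ContinuousAt Ring.inverse (gm D) := by
    rw [← hx]; exact NormedRing.inverse_continuousAt x
  exact h1.comp (continuous_gm.continuousAt)

/-! ### the kernel -/

/-- `w x y = (y - x) + Du(x)ᵀ (u y - u x)` -/
def wv (u : F → G) (D : F → F →L[ℝ] G) (x y : F) : F := (y - x) + adjoint (D x) (u y - u x)

/-- squared norm of the base coordinate of `m_y` in the frame tangent at `m_x`. -/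
def ds (u : F → G) (D : F → F →L[ℝ] G) (x y : F) : ℝ := ⟪gi (D x) (wv u D x y), wv u D x y⟫_ℝ

theorem ds_nonneg (u : F → G) (D : F → F →L[ℝ] G) (x y : F) : 0 ≤ ds u D x y :=
  inner_gi_nonneg _ _

theorem continuous_ds {u : F → G} {D : F → F →L[ℝ] G} (hu : Continuous u) (hD : Continuous D) :
    Continuous (uncurry (ds u D)) := by
  have h1 : Continuous fun p : F × F => adjoint (D p.1) :=
    (ContinuousLinearMap.adjoint : (F →L[ℝ] G) ≃ₗᵢ⋆[ℝ] (G →L[ℝ] F)).continuous.comp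
      (hD.comp continuous_fst)
  have h2 : Continuous fun p : F × F => wv u D p.1 p.2 := by
    unfold wv
    exact (continuous_snd.sub continuous_fst).add
      (h1.clm_apply ((hu.comp continuous_snd).sub (hu.comp continuous_fst)))
  have h3 : Continuous fun p : F × F => gi (D p.1) := continuous_gi.comp (hD.comp continuous_fst)
  exact (h3.clm_apply h2).inner h2

/-- the kernel -/
def beta (u : F → G) (D : F → F →L[ℝ] G) (ρ : ℝ) (x y : F) : ℝ := max 0 (1 - ds u D x y / ρ ^ 2)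

/-- the hypotheses on the reference. -/
structure Dat (u : F → G) (D : F → F →L[ℝ] G) (κ l : ℝ) : Prop where
  hu : ∀ x, HasFDerivAt u (D x) x
  k0 : 0 ≤ κ
  k1 : κ ≤ 1 / 4
  hD : ∀ x, ‖D x‖ ≤ κ
  l0 : 0 ≤ l
  l1 : l ≤ 1
  hL : ∀ x y, ‖D x - D y‖ ≤ l * ‖x - y‖

variable {u : F → G} {D : F → F →L[ℝ] G} {κ l : ℝ}

theorem Dat.cont (h : Dat u D κ l) : Continuous u :=
  continuous_iff_continuousAt.2 fun x => (h.hu x).continuousAt

theorem Dat.contD (h : Dat u D κ l) : Continuous D := by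
  have : LipschitzWith ⟨l, h.l0⟩ D := LipschitzWith.of_dist_le_mul fun x y => by
    rw [dist_eq_norm, dist_eq_norm]; exact h.hL x y
  exact this.continuous

theorem Dat.lip (h : Dat u D κ l) (x y : F) : ‖u y - u x‖ ≤ κ * ‖y - x‖ :=
  Convex.norm_image_sub_le_of_norm_hasFDerivWithin_le (s := univ) (f' := D)
    (fun z _ => (h.hu z).hasFDerivWithinAt) (fun z _ => h.hD z) convex_univ (mem_univ x) (mem_univ y)

theorem Dat.taylor (h : Dat u D κ l) (x y : F) :
    ‖u y - u x - D x (y - x)‖ ≤ l * ‖y - x‖ ^ 2 := by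
  have h1 := Convex.norm_image_sub_le_of_norm_hasFDerivWithin_le' (s := closedBall x ‖y - x‖)
    (f := u) (f' := D) (φ := D x) (C := l * ‖y - x‖)
    (fun z _ => (h.hu z).hasFDerivWithinAt)
    (fun z hz => (h.hL z x).trans (mul_le_mul_of_nonneg_left
      (by rwa [mem_closedBall, dist_eq_norm] at hz) h.l0))
    (convex_closedBall x _) (mem_closedBall_self (norm_nonneg _))
    (by rw [mem_closedBall, dist_eq_norm])
  calc _ ≤ l * ‖y - x‖ * ‖y - x‖ := h1
    _ = l * ‖y - x‖ ^ 2 := by ring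

/-- comparison with the ellipsoid. -/
theorem Dat.ds_eq (h : Dat u D κ l) (x y : F) :
    ∃ e : F, ‖e‖ ≤ κ * (l * ‖y - x‖ ^ 2) ∧ ‖e‖ ≤ κ * (2 * κ * ‖y - x‖) ∧
      ds u D x y = ⟪gm (D x) (y - x), y - x⟫_ℝ + 2 * ⟪e, y - x⟫_ℝ + ⟪gi (D x) e, e⟫_ℝ := by
  set v := y - x with hv
  refine ⟨adjoint (D x) (u y - u x - D x v), ?_, ?_, ?_⟩
  · calc _ ≤ ‖adjoint (D x)‖ * ‖u y - u x - D x v‖ := ContinuousLinearMap.le_opNorm _ _
      _ ≤ κ * (l * ‖v‖ ^ 2) := by
          rw [LinearIsometryEquiv.norm_map]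
          exact mul_le_mul (h.hD x) (h.taylor x y) (norm_nonneg _) h.k0
  · calc _ ≤ ‖adjoint (D x)‖ * ‖u y - u x - D x v‖ := ContinuousLinearMap.le_opNorm _ _
      _ ≤ κ * (2 * κ * ‖v‖) := by
          rw [LinearIsometryEquiv.norm_map]
          refine mul_le_mul (h.hD x) ?_ (norm_nonneg _) h.k0
          have h1 := h.lip x y
          have h2 : ‖D x v‖ ≤ κ * ‖v‖ :=
            (ContinuousLinearMap.le_opNorm _ _).trans
              (mul_le_mul_of_nonneg_right (h.hD x) (norm_nonneg _))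
          have h3 := norm_sub_le (u y - u x) (D x v)
          rw [← hv] at h1
          linarith
  · set e := adjoint (D x) (u y - u x - D x v) with he
    have hw : wv u D x y = gm (D x) v + e := by
      have h0 : adjoint (D x) (u y - u x) = adjoint (D x) (D x v) + e := by
        rw [he, ← map_add]
        congr 1
        abel
      unfold wv
      rw [← hv, h0, gm_apply, add_assoc]
    unfold ds
    rw [hw, map_add, gi_gm]
    have h4 : ⟪gi (D x) e, gm (D x) v⟫_ℝ = ⟪e, v⟫_ℝ := by rw [← gm_symm, gm_gi]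
    rw [inner_add_left, inner_add_right, inner_add_right, h4, real_inner_comm e v,
      real_inner_comm (gm (D x) v) v]
    ring

/-- `|ds - ⟪g v, v⟫| ≤ 3 κ l |v|³` -/
theorem Dat.abs_ds_sub (h : Dat u D κ l) (x y : F) :
    |ds u D x y - ⟪gm (D x) (y - x), y - x⟫_ℝ| ≤ 3 * κ * l * ‖y - x‖ ^ 3 := by
  obtain ⟨e, h1, h2, h3⟩ := h.ds_eq x y
  set t := ‖y - x‖ with ht
  have ht0 : 0 ≤ t := norm_nonneg _
  have he0 : 0 ≤ ‖e‖ := norm_nonneg _
  have a1 : |⟪e, y - x⟫_ℝ| ≤ ‖e‖ * t := abs_real_inner_le_norm _ _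
  have a2 : ⟪gi (D x) e, e⟫_ℝ ≤ ‖e‖ * ‖e‖ :=
    (real_inner_le_norm _ _).trans (mul_le_mul_of_nonneg_right (norm_gi_le _ _) he0)
  have a3 := inner_gi_nonneg (D x) e
  rw [h3]
  have h4 : ‖e‖ ≤ t := by
    have : κ * (2 * κ * t) ≤ 1 * t := by
      have := h.k0; have := h.k1
      nlinarith [mul_nonneg h.k0 ht0, mul_nonneg (mul_nonneg h.k0 h.k0) ht0]
    linarith
  have h5 : |2 * ⟪e, y - x⟫_ℝ + ⟪gi (D x) e, e⟫_ℝ| ≤ 3 * (‖e‖ * t) := by
    rw [abs_le] at a1 ⊢
    have : ‖e‖ * ‖e‖ ≤ ‖e‖ * t := mul_le_mul_of_nonneg_left h4 he0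
    constructor <;> linarith [a1.1, a1.2]
  have h6 : ⟪gm (D x) (y - x), y - x⟫_ℝ + 2 * ⟪e, y - x⟫_ℝ + ⟪gi (D x) e, e⟫_ℝ
      - ⟪gm (D x) (y - x), y - x⟫_ℝ = 2 * ⟪e, y - x⟫_ℝ + ⟪gi (D x) e, e⟫_ℝ := by ring
  rw [h6]
  refine h5.trans ?_
  have : ‖e‖ * t ≤ κ * (l * t ^ 2) * t := mul_le_mul_of_nonneg_right h1 ht0
  nlinarith

/-- `ds ≥ (3/4) |y - x|²` -/
theorem Dat.ds_ge (h : Dat u D κ l) (x y : F) : 3 / 4 * ‖y - x‖ ^ 2 ≤ ds u D x y := by
  obtain ⟨e, h1, h2, h3⟩ := h.ds_eq x y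
  set t := ‖y - x‖ with ht
  have ht0 : 0 ≤ t := norm_nonneg _
  have a1 : |⟪e, y - x⟫_ℝ| ≤ ‖e‖ * t := abs_real_inner_le_norm _ _
  have a3 := inner_gi_nonneg (D x) e
  have a4 := inner_gm_self (D x) (y - x)
  have a5 : ‖e‖ * t ≤ κ * (2 * κ * t) * t := mul_le_mul_of_nonneg_right h2 ht0
  have a6 : κ * (2 * κ * t) * t ≤ 1 / 8 * t ^ 2 := by
    have : κ * κ ≤ 1 / 16 := by nlinarith [h.k0, h.k1]
    nlinarith [sq_nonneg t]
  rw [h3, a4]
  rw [abs_le] at a1
  nlinarith [sq_nonneg ‖D x (y - x)‖, a1.1]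

theorem beta_nonneg (u : F → G) (D : F → F →L[ℝ] G) (ρ : ℝ) (x y : F) : 0 ≤ beta u D ρ x y :=
  le_max_left _ _

theorem beta_le_one (u : F → G) (D : F → F →L[ℝ] G) (ρ : ℝ) (x y : F) : beta u D ρ x y ≤ 1 := by
  refine max_le zero_le_one ?_
  have := div_nonneg (ds_nonneg u D x y) (sq_nonneg ρ)
  linarith

theorem Dat.beta_eq_zero (h : Dat u D κ l) {ρ : ℝ} (hρ : 0 < ρ) {x y : F} (hxy : 2 * ρ < ‖y - x‖) :
    beta u D ρ x y = 0 := by
  refine max_eq_left ?_
  have h1 := h.ds_ge x y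
  have h2 : ρ ^ 2 ≤ ds u D x y := by nlinarith
  have h3 : 1 ≤ ds u D x y / ρ ^ 2 := by rwa [le_div_iff₀ (by positivity), one_mul]
  linarith

theorem Dat.beta_sub (h : Dat u D κ l) {ρ : ℝ} (hρ : 0 < ρ) {x y : F} (hxy : ‖y - x‖ ≤ 2 * ρ) :
    |beta u D ρ x y - max 0 (1 - ⟪gm (D x) (y - x), y - x⟫_ℝ / ρ ^ 2)| ≤ 24 * κ * l * ρ := by
  unfold beta
  have h1 := h.abs_ds_sub x y
  have hkl : 0 ≤ κ * l := mul_nonneg h.k0 h.l0
  have h2 : ‖y - x‖ ^ 3 ≤ (2 * ρ) ^ 3 := pow_le_pow_left₀ (norm_nonneg _) hxy 3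
  calc |max 0 (1 - ds u D x y / ρ ^ 2) - max 0 (1 - ⟪gm (D x) (y - x), y - x⟫_ℝ / ρ ^ 2)|
      ≤ |(1 - ds u D x y / ρ ^ 2) - (1 - ⟪gm (D x) (y - x), y - x⟫_ℝ / ρ ^ 2)| := by
        have := abs_max_sub_max_le_abs (1 - ds u D x y / ρ ^ 2)
          (1 - ⟪gm (D x) (y - x), y - x⟫_ℝ / ρ ^ 2) 0
        rwa [max_comm 0, max_comm 0]
    _ = |ds u D x y - ⟪gm (D x) (y - x), y - x⟫_ℝ| / ρ ^ 2 := by
        rw [show (1 - ds u D x y / ρ ^ 2) - (1 - ⟪gm (D x) (y - x), y - x⟫_ℝ / ρ ^ 2) =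
          -((ds u D x y - ⟪gm (D x) (y - x), y - x⟫_ℝ) / ρ ^ 2) by ring, abs_neg, abs_div,
          abs_of_pos (by positivity : (0 : ℝ) < ρ ^ 2)]
    _ ≤ (3 * κ * l * (2 * ρ) ^ 3) / ρ ^ 2 := by
        refine div_le_div_of_nonneg_right ?_ (by positivity)
        refine h1.trans ?_
        have : 0 ≤ 3 * κ * l := by linarith
        exact mul_le_mul_of_nonneg_left h2 this
    _ = 24 * κ * l * ρ := by field_simp; ring

/-- the constant -/
def C2 (m : ℕ) : ℝ := CK m * (2 + 32 * 4 ^ m)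

theorem C2_pos (m : ℕ) : 0 < C2 m := by
  unfold C2
  have := CK_pos m
  positivity

/-- **node F3-KERN2** -/
theorem Dat.kern (vol : Measure F) [vol.IsAddHaarMeasure] (h : Dat u D κ l) {ρ : ℝ} (hρ : 0 < ρ)
    (hρ1 : ρ ≤ 1) (R : ℝ) :
    Kern vol (beta u D ρ) (fun x => √(LinearMap.det (gm (D x) : F →ₗ[ℝ] F)) / mass vol ρ) ρ
      (C2 (Module.finrank ℝ F) * κ * l * ρ) (CK (Module.finrank ℝ F) / mass vol ρ) R := by
  have hm := mass_pos vol hρ
  have hCK := CK_pos (Module.finrank ℝ F)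
  have hkl : 0 ≤ κ * l := mul_nonneg h.k0 h.l0
  have h1 := Kern_567.kern vol (g := fun x => gm (D x)) (lg := 2 * κ * l)
    (fun x a b => gm_symm _ _ _)
    (fun x v => by rw [inner_gm_self]; nlinarith [sq_nonneg ‖v‖, sq_nonneg ‖D x v‖])
    (fun x => by
      refine ContinuousLinearMap.opNorm_le_bound _ (by norm_num) fun v => ?_
      rw [gm_apply]
      have a1 : ‖adjoint (D x) (D x v)‖ ≤ κ * (κ * ‖v‖) :=
        calc _ ≤ ‖adjoint (D x)‖ * ‖D x v‖ := ContinuousLinearMap.le_opNorm _ _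
          _ ≤ κ * (κ * ‖v‖) := by
              rw [LinearIsometryEquiv.norm_map]
              exact mul_le_mul (h.hD x) ((ContinuousLinearMap.le_opNorm _ _).trans
                (mul_le_mul_of_nonneg_right (h.hD x) (norm_nonneg _))) (norm_nonneg _) h.k0
      have a2 : κ * κ ≤ 1 := by nlinarith [h.k0, h.k1]
      calc _ ≤ ‖v‖ + ‖adjoint (D x) (D x v)‖ := norm_add_le _ _
        _ ≤ 2 * ‖v‖ := by nlinarith [norm_nonneg v])
    (fun x y => by
      refine ContinuousLinearMap.opNorm_le_bound _ (by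
        have := norm_nonneg (x - y); nlinarith [mul_nonneg hkl this]) fun v => ?_
      have e1 : (gm (D x) - gm (D y)) v =
          adjoint (D x) ((D x - D y) v) + (adjoint (D x - D y)) (D y v) := by
        rw [sub_apply, gm_apply, gm_apply, sub_apply,
          map_sub, map_sub, sub_apply]
        abel
      rw [e1]
      have b1 : ‖adjoint (D x) ((D x - D y) v)‖ ≤ κ * (l * ‖x - y‖ * ‖v‖) :=
        calc _ ≤ ‖adjoint (D x)‖ * ‖(D x - D y) v‖ := ContinuousLinearMap.le_opNorm _ _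
          _ ≤ κ * (l * ‖x - y‖ * ‖v‖) := by
              rw [LinearIsometryEquiv.norm_map]
              exact mul_le_mul (h.hD x) ((ContinuousLinearMap.le_opNorm _ _).trans
                (mul_le_mul_of_nonneg_right (h.hL x y) (norm_nonneg _))) (norm_nonneg _) h.k0
      have b2 : ‖adjoint (D x - D y) (D y v)‖ ≤ (l * ‖x - y‖) * (κ * ‖v‖) :=
        calc _ ≤ ‖adjoint (D x - D y)‖ * ‖D y v‖ := ContinuousLinearMap.le_opNorm _ _
          _ ≤ (l * ‖x - y‖) * (κ * ‖v‖) := by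
              rw [LinearIsometryEquiv.norm_map]
              exact mul_le_mul (h.hL x y) ((ContinuousLinearMap.le_opNorm _ _).trans
                (mul_le_mul_of_nonneg_right (h.hD y) (norm_nonneg _))) (norm_nonneg _)
                (mul_nonneg h.l0 (norm_nonneg _))
      refine (norm_add_le _ _).trans ((add_le_add b1 b2).trans (le_of_eq ?_))
      ring)
    (by linarith) (by nlinarith [h.k0, h.k1, h.l0, h.l1]) hρ hρ1 R
  have h2 := perturb h1 (β' := beta u D ρ) (c := 24 * κ * l * ρ) (by positivity)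
    ((by
      have := continuous_ds h.cont h.contD
      exact (continuous_const.max (continuous_const.sub (this.div_const _))).measurable))
    (fun x y => beta_nonneg u D ρ x y) (fun x y => beta_le_one u D ρ x y)
    (fun x y hxy => h.beta_eq_zero hρ hxy) (by nlinarith [mul_nonneg hkl hρ.le])
    (fun x y hxy => h.beta_sub hρ hxy)
  have h3 := vol_le_mass vol hρ (F := F)
  refine { h2 with mass := fun y hy => (h2.mass y hy).trans ?_ }
  have h4 : CK (Module.finrank ℝ F) / mass vol ρ * (24 * κ * l * ρ) *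
      vol.real (closedBall (0 : F) (2 * ρ)) ≤
      CK (Module.finrank ℝ F) * (24 * κ * l * ρ) * (4 / 3 * 4 ^ (Module.finrank ℝ F)) := by
    have h5 : 0 ≤ CK (Module.finrank ℝ F) / mass vol ρ * (24 * κ * l * ρ) := by
      have : 0 ≤ 24 * κ * l * ρ := by nlinarith [mul_nonneg hkl hρ.le]
      positivity
    calc _ ≤ CK (Module.finrank ℝ F) / mass vol ρ * (24 * κ * l * ρ) *
          (4 / 3 * 4 ^ (Module.finrank ℝ F) * mass vol ρ) := mul_le_mul_of_nonneg_left h3 h5
      _ = _ := by field_simp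
  unfold C2
  refine (add_le_add le_rfl h4).trans (le_of_eq ?_)
  ring

/-! ### the base coordinate in the rotated frame -/

section Frame

variable {E : Type*} [NormedAddCommGroup E] [InnerProductSpace ℝ E] [FiniteDimensional ℝ E]

/-- abstract form: `A : F → E` with `AᵀA = g`, `p : E → F` linear with `pᵀ p A = A`
(`p` = orthogonal coordinates of the plane `range A`): `|p ζ|² = ⟪g⁻¹ Aᵀ ζ, Aᵀ ζ⟫`. -/
theorem norm_coord (D : F →L[ℝ] G) (A : F →L[ℝ] E) (hA : (adjoint A) ∘L A = gm D)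
    (p : E →L[ℝ] F) (hp : ∀ v, adjoint p (p (A v)) = A v) (ζ : E) :
    ‖p ζ‖ ^ 2 = ⟪gi D (adjoint A ζ), adjoint A ζ⟫_ℝ := by
  have hA' : ∀ v, adjoint A (A v) = gm D v := fun v => congrArg (fun T : F →L[ℝ] F => T v) hA
  -- `B = p A` is bijective
  have hB : ∀ v, ‖p (A v)‖ ^ 2 = ⟪gm D v, v⟫_ℝ := by
    intro v
    rw [← real_inner_self_eq_norm_sq, ← ContinuousLinearMap.adjoint_inner_left, hp,
      ← ContinuousLinearMap.adjoint_inner_left, hA']
  have hinj : Injective ((p ∘L A : F →L[ℝ] F) : F →ₗ[ℝ] F) := by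
    refine (injective_iff_map_eq_zero _).2 fun v hv => ?_
    have hv' : p (A v) = 0 := hv
    have h := hB v
    rw [hv', inner_gm_self, norm_zero] at h
    have h2 : ‖v‖ ^ 2 = 0 := by nlinarith [sq_nonneg ‖v‖, sq_nonneg ‖D v‖]
    exact norm_eq_zero.1 ((pow_eq_zero_iff two_ne_zero).1 h2)
  obtain ⟨v, hv⟩ := (LinearMap.injective_iff_surjective.1 hinj) (p ζ)
  have hv' : p (A v) = p ζ := hv
  -- `Aᵀ ζ = g v`
  have h1 : adjoint A ζ = gm D v := by
    refine ext_inner_right ℝ fun w => ?_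
    rw [ContinuousLinearMap.adjoint_inner_left, ← hp w, ContinuousLinearMap.adjoint_inner_right,
      ← hv', ← ContinuousLinearMap.adjoint_inner_left, hp,
      ← ContinuousLinearMap.adjoint_inner_left, hA']
  rw [h1, gi_gm, ← hv', hB, real_inner_comm]

end Frame

/-- **in the language of `Main_456.Frame`**: `m_y - m_x = πᵀ (y - x) + ρᵀ (u y - u x)`, `(π', ρ')` a
frame tangent to the graph at `m_x`. -/
theorem norm_frame {m n k : ℕ} {π π' : Euc k →L[ℝ] Euc m} {ρ ρ' : Euc k →L[ℝ] Euc n}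
    (h : Main_456.Frame π ρ) (h' : Main_456.Frame π' ρ') (u : Euc m → Euc n)
    (D : Euc m → Euc m →L[ℝ] Euc n) (x y : Euc m)
    (ht : ρ' ∘L (adjoint π + adjoint ρ ∘L D x) = 0) :
    ‖π' (adjoint π (y - x) + adjoint ρ (u y - u x))‖ ^ 2 = ds u D x y := by
  have e1 : ∀ v, π (adjoint π v) = v := fun v => congrArg (fun T : Euc m →L[ℝ] Euc m => T v) h.coπ
  have e2 : ∀ v, ρ (adjoint ρ v) = v := fun v => congrArg (fun T : Euc n →L[ℝ] Euc n => T v) h.coρ
  have e3 : ∀ v, π (adjoint ρ v) = 0 := fun v => congrArg (fun T : Euc n →L[ℝ] Euc m => T v) h.orth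
  have e4 : ∀ v, ρ (adjoint π v) = 0 := by
    intro v
    refine ext_inner_right ℝ fun w => ?_
    rw [← ContinuousLinearMap.adjoint_inner_right, ContinuousLinearMap.adjoint_inner_left, e3]
    simp
  set A : Euc m →L[ℝ] Euc k := adjoint π + adjoint ρ ∘L D x with hA
  have hAT : ∀ ζ, adjoint A ζ = π ζ + adjoint (D x) (ρ ζ) := by
    intro ζ
    refine ext_inner_right ℝ fun w => ?_
    rw [ContinuousLinearMap.adjoint_inner_left, hA, inner_add_left,
      ContinuousLinearMap.adjoint_inner_left, ContinuousLinearMap.add_apply,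
      ContinuousLinearMap.comp_apply, inner_add_right, ContinuousLinearMap.adjoint_inner_right,
      ContinuousLinearMap.adjoint_inner_right]
  have hAv : ∀ v, A v = adjoint π v + adjoint ρ (D x v) := fun v => rfl
  have hg : (adjoint A) ∘L A = gm (D x) := by
    ext1 v
    rw [ContinuousLinearMap.comp_apply, hAT, hAv, map_add, map_add, e1, e3, e4, e2, add_zero,
      zero_add, gm_apply]
  have hp : ∀ v, adjoint π' (π' (A v)) = A v := by
    intro v
    have h1 := congrArg (fun T : Euc k →L[ℝ] Euc k => T (A v)) h'.full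
    have h2 : ρ' (A v) = 0 := congrArg (fun T : Euc m →L[ℝ] Euc n => T v) ht
    simp only [ContinuousLinearMap.add_apply, ContinuousLinearMap.comp_apply, h2, map_zero,
      add_zero, ContinuousLinearMap.id_apply] at h1
    exact h1
  rw [norm_coord (D x) A hg π' hp]
  have hw : adjoint A (adjoint π (y - x) + adjoint ρ (u y - u x)) = wv u D x y := by
    rw [hAT, map_add, map_add, e1, e3, e4, e2, add_zero, zero_add]
    rfl
  rw [hw]
  rfl

end Crest.Agent.R234.Kern2_332
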