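import Crest.Agent.R234.Nrm2_842
import Crest.Agent.R234.Kern2_332

/-!
# Row 234 (helper433), node F3-KV: the kernel of KERN2 in the coordinate `v = ch.x`

`comp_lin`: linear change of variables of a kernel. `kern_ch`: the instance for a graph of class
`Gr 1 w`, with the weight `jB w X0 v / mass ρ`. `beta_zc`, `beta_ch`: the kernel is the profile
`max 0 (1 - |x''|²)` of the base coordinate of the normalised chart.
-/

set_option autoImplicit false
set_option linter.unusedSectionVars false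

open MeasureTheory Set Metric Function Filter Topology
open scoped ENNReal NNReal ContDiff RealInnerProductSpace
open Crest.GeometryTopology.Submanifold

noncomputable section

namespace Crest.Agent.R234.F35k_433

open Crest.Agent.R234.F31_354 (Kern)
open Crest.Agent.R234.Kern2_332 (gm gi wv ds beta Dat C2)
open Crest.Agent.R234.Loc1_290 (mass mass_pos)
open Crest.Agent.R234.Ell1_3 (dns gdet gop)
open Crest.Agent.R234.Main_456 Crest.Agent.R234.Grot_842 Crest.Agent.R234.Foot_842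
open Crest.Agent.R234.Nrm_842
open Crest.Agent.R234.Gi_456 (Gr tube IsFoot foot Lo Loi Loi_Lo Lo_Loi ch jB det_Lo det_Lo_pos norm_Lo_sq
  Loi_spec norm_Lo_le)

local notation "adj" => ContinuousLinearMap.adjoint

section Lin

variable {F : Type*} [NormedAddCommGroup F] [InnerProductSpace ℝ F] [FiniteDimensional ℝ F]
  [MeasurableSpace F] [BorelSpace F]

omit [MeasurableSpace F] [BorelSpace F] [FiniteDimensional ℝ F] in
theorem det_mul_det {A B : F →L[ℝ] F} (h : A ∘L B = ContinuousLinearMap.id ℝ F) :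
    A.det * B.det = 1 := by
  have h1 : LinearMap.det ((A : F →ₗ[ℝ] F) ∘ₗ (B : F →ₗ[ℝ] F)) = 1 := by
    have h2 : (A : F →ₗ[ℝ] F) ∘ₗ (B : F →ₗ[ℝ] F) = LinearMap.id := by
      ext v
      exact congrArg (fun T : F →L[ℝ] F => T v) h
    rw [h2, LinearMap.det_id]
  rwa [LinearMap.det_comp] at h1

/-- change of variables -/
theorem integral_comp_lin {vol : Measure F} [vol.IsAddHaarMeasure] {Li : F →L[ℝ] F}
    (hdet : Li.det ≠ 0) (f : F → ℝ) (X0 : F) :
    |Li.det| * ∫ v, f (X0 + Li v) ∂vol = ∫ x, f x ∂vol := by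
  have hd : LinearMap.det (Li : F →ₗ[ℝ] F) ≠ 0 := hdet
  have e1 : ∫ v, f (X0 + Li v) ∂vol = ∫ y, f (X0 + y) ∂(Measure.map Li vol) := by
    set e : F ≃L[ℝ] F := (LinearMap.equivOfDetNeZero (Li : F →ₗ[ℝ] F) hd).toContinuousLinearEquiv
      with he
    have h2 : (Li : F → F) = e := rfl
    have h3 : MeasurableEmbedding (e : F → F) := e.toHomeomorph.measurableEmbedding
    rw [h2, h3.integral_map]
  have e2 : Measure.map (Li : F → F) vol = Measure.map (Li : F →ₗ[ℝ] F) vol := rfl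
  rw [e1, e2, Measure.map_linearMap_addHaar_eq_smul_addHaar vol hd, integral_smul_measure,
    ENNReal.toReal_ofReal (abs_nonneg _), abs_inv, smul_eq_mul, ← mul_assoc]
  rw [show |Li.det| * |LinearMap.det (Li : F →ₗ[ℝ] F)|⁻¹ = 1 from
    mul_inv_cancel₀ (abs_ne_zero.2 hd), one_mul]
  exact integral_add_left_eq_self f X0

/-- linear change of variables of a kernel -/
theorem comp_lin {vol : Measure F} [vol.IsAddHaarMeasure] {β : F → F → ℝ} {w : F → ℝ}
    {ρ θ W R R' : ℝ} (h : Kern vol β w ρ θ W R') {L Li : F →L[ℝ] F}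
    (h2 : ∀ v, L (Li v) = v) {a σ : ℝ} (hLi : ∀ v, ‖Li v‖ ≤ ‖v‖) (hL : ∀ v, ‖L v‖ ≤ a * ‖v‖)
    (ha : 0 ≤ a) (hσ : ∀ x y, σ < ‖y - x‖ → β x y = 0) (haσ : a * σ ≤ 2 * ρ) {X0 : F}
    (hR : ‖X0‖ + R ≤ R') :
    Kern vol (fun v₁ v₂ => β (X0 + Li v₁) (X0 + Li v₂)) (fun v => w (X0 + Li v) * |Li.det|) ρ θ
      (W * |Li.det|) R := by
  have hc : Continuous fun v : F => X0 + Li v := continuous_const.add Li.continuous
  have hdet : Li.det ≠ 0 := by
    intro h0
    have e : L ∘L Li = ContinuousLinearMap.id ℝ F := ContinuousLinearMap.ext h2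
    have e2 : L.det * Li.det = 1 := det_mul_det e
    rw [h0, mul_zero] at e2
    exact zero_ne_one e2
  refine ⟨?_, fun x y => h.nonneg _ _, fun x y => h.le_one _ _, ?_, ?_, ?_, ?_, ?_⟩
  · exact h.meas.comp ((hc.comp continuous_fst).prodMk (hc.comp continuous_snd)).measurable
  · intro x y hxy
    refine hσ _ _ ?_
    by_contra hcon
    have e1 : X0 + Li y - (X0 + Li x) = Li (y - x) := by rw [map_sub]; abel
    rw [e1, not_lt] at hcon
    have e2 := hL (Li (y - x))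
    rw [h2] at e2
    have e3 : a * ‖Li (y - x)‖ ≤ a * σ := mul_le_mul_of_nonneg_left hcon ha
    linarith
  · exact (h.wmeas.comp hc.measurable).mul_const _
  · exact fun x => mul_nonneg (h.wnonneg _) (abs_nonneg _)
  · exact fun x => mul_le_mul_of_nonneg_right (h.wle _) (abs_nonneg _)
  · intro y hy
    have hy2 : X0 + Li y ∈ closedBall (0 : F) (R' + 2 * ρ) := by
      rw [mem_closedBall_zero_iff] at hy ⊢
      have := norm_add_le X0 (Li y)
      have := hLi y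
      linarith
    refine le_trans (le_of_eq ?_) (h.mass _ hy2)
    congr 2
    have e := integral_comp_lin (vol := vol) hdet (fun x => w x * β x (X0 + Li y)) X0
    rw [← e, ← integral_const_mul]
    refine integral_congr_ae (Eventually.of_forall fun v => ?_)
    simp only
    ring

end Lin

variable {m n k : ℕ}

theorem gm_eq_gop (q : Euc m →L[ℝ] Euc n) : gm q = gop q := rfl

theorem sqrt_det_gm (q : Euc m →L[ℝ] Euc n) :
    √(LinearMap.det (gm q : Euc m →ₗ[ℝ] Euc m)) = dns q := rfl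

/-- the class of graphs supplies the data of KERN2 -/
theorem dat_gr {w : Euc m → Euc n} (h : Gr 1 w) : Dat w (fderiv ℝ w) (1 / 8) (1 / 8) where
  hu := fun x => (h.differentiable x).hasFDerivAt
  k0 := by norm_num
  k1 := by norm_num
  hD := h.d1
  l0 := by norm_num
  l1 := by norm_num
  hL := fun x y => by
    have := h.lip' x y
    rwa [mul_one] at this

/-- the kernel in the coordinate of the chart -/
def bv (w : Euc m → Euc n) (Xc : Euc m) (ρ : ℝ) (v₁ v₂ : Euc m) : ℝ :=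
  beta w (fderiv ℝ w) ρ (Gi_456.pt w Xc v₁) (Gi_456.pt w Xc v₂)

theorem abs_det_Loi (q : Euc m →L[ℝ] Euc n) : |(Loi q).det| = (dns q)⁻¹ := by
  have e : Lo q ∘L Loi q = ContinuousLinearMap.id ℝ (Euc m) := (Loi_spec q).2.1
  have e2 : (Lo q).det * (Loi q).det = 1 := det_mul_det e
  rw [det_Lo] at e2
  rw [eq_inv_of_mul_eq_one_right e2, abs_of_pos (inv_pos.2 (Ell1_3.dns_pos q))]

/-- **node F3-KV**: the kernel in the coordinate `v = ch.x` -/
theorem kern_ch {w : Euc m → Euc n} (h : Gr 1 w) (Xc : Euc m) {ρ : ℝ} (hρ : 0 < ρ) (hρ1 : ρ ≤ 1)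
    (R : ℝ) :
    Kern volume (bv w Xc ρ) (fun v => jB w Xc v / mass (volume : Measure (Euc m)) ρ) ρ (C2 m * ρ)
      (Kern_567.CK m / mass (volume : Measure (Euc m)) ρ) R := by
  have hm := mass_pos (volume : Measure (Euc m)) hρ
  have h1 := (dat_gr h).kern volume hρ hρ1 (‖Xc‖ + R)
  rw [finrank_euclideanSpace, Fintype.card_fin] at h1
  have hq8 := h.d1 Xc
  have h2 := comp_lin h1 (L := Lo (fderiv ℝ w Xc)) (Li := Loi (fderiv ℝ w Xc)) (X0 := Xc) (R := R)
    (Lo_Loi _) (a := 65 / 64) (σ := 6 / 5 * ρ)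
    (fun v => (ContinuousLinearMap.le_opNorm _ _).trans
      (mul_le_of_le_one_left (norm_nonneg _) (Loi_spec _).2.2))
    (fun v => norm_Lo_le hq8 v) (by norm_num)
    (fun x y hxy => by
      have h3 := (dat_gr h).ds_ge x y
      have h5 : (6 / 5 * ρ) ^ 2 ≤ ‖y - x‖ ^ 2 := pow_le_pow_left₀ (by positivity) hxy.le 2
      have h4 : 1 ≤ ds w (fderiv ℝ w) x y / ρ ^ 2 := by
        rw [le_div_iff₀ (by positivity)]
        nlinarith [sq_nonneg ρ]
      exact max_eq_left (by linarith))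
    (by linarith) le_rfl
  have hd1 : |(Loi (fderiv ℝ w Xc)).det| = (dns (fderiv ℝ w Xc))⁻¹ := abs_det_Loi _
  have hd2 : 1 ≤ dns (fderiv ℝ w Xc) := one_le_dns _
  refine ⟨h2.meas, h2.nonneg, h2.le_one, h2.supp, ?_, ?_, ?_, ?_⟩
  · exact (h.contDiff_j Xc).continuous.measurable.div_const _
  · exact fun v => div_nonneg (Gi_456.jB_pos _ _ _).le hm.le
  · intro v
    have h3 := h2.wle v
    simp only [hd1, sqrt_det_gm] at h3
    have e1 : jB w Xc v / mass (volume : Measure (Euc m)) ρ = dns (fderiv ℝ w (Xc + Loi (fderiv ℝ w Xc) v)) /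
        mass (volume : Measure (Euc m)) ρ * (dns (fderiv ℝ w Xc))⁻¹ := by
      rw [jB, det_Lo, Gi_456.pt]
      ring
    rw [e1]
    refine h3.trans ?_
    have h4 : (dns (fderiv ℝ w Xc))⁻¹ ≤ 1 := inv_le_one_of_one_le₀ hd2
    have h5 : 0 ≤ Kern_567.CK m / mass (volume : Measure (Euc m)) ρ := div_nonneg (Kern_567.CK_pos m).le hm.le
    exact mul_le_of_le_one_right h5 h4
  · intro y hy
    have h3 := h2.mass y hy
    simp only [hd1, sqrt_det_gm] at h3
    have e1 : ∀ v, jB w Xc v / mass (volume : Measure (Euc m)) ρ * bv w Xc ρ v y =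
        dns (fderiv ℝ w (Xc + Loi (fderiv ℝ w Xc) v)) / mass (volume : Measure (Euc m)) ρ *
          (dns (fderiv ℝ w Xc))⁻¹ * beta w (fderiv ℝ w) ρ (Xc + Loi (fderiv ℝ w Xc) v)
            (Xc + Loi (fderiv ℝ w Xc) y) := by
      intro v
      rw [jB, det_Lo, bv, Gi_456.pt, Gi_456.pt]
      ring
    simp_rw [e1]
    refine h3.trans ?_
    have h4 : 0 ≤ C2 m * ρ := mul_nonneg (Kern2_332.C2_pos m).le hρ.le
    nlinarith

/-! ### the kernel is the profile of the normalised chart -/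

theorem tangent {π : Euc k →L[ℝ] Euc m} {ρ : Euc k →L[ℝ] Euc n} (hf : Frame π ρ)
    (q : Euc m →L[ℝ] Euc n) (H' : Euc n →L[ℝ] Euc n) :
    rρ π ρ q H' ∘L (adj π + adj ρ ∘L q) = 0 := by
  refine ContinuousLinearMap.ext fun v => ?_
  show rρ π ρ q H' (adj π v + adj ρ (q v)) = 0
  rw [rρ_apply, map_add, map_add, fr_ρπ hf, fr_ρρ hf, fr_ππ hf, fr_πρ hf, zero_add, add_zero,
    sub_self, map_zero]

theorem ds_eq {π : Euc k →L[ℝ] Euc m} {ρ : Euc k →L[ℝ] Euc n} (hf : Frame π ρ)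
    {w : Euc m → Euc n} {X0 : Euc m} {H : Euc m →L[ℝ] Euc m} {H' : Euc n →L[ℝ] Euc n}
    (hR : Rt (fderiv ℝ w X0) H H') (X : Euc m) :
    ds w (fderiv ℝ w) X0 X = ‖chg (fderiv ℝ w X0) H (shf w X0) (X - X0)‖ ^ 2 := by
  have h1 := Kern2_332.norm_frame hf (frame_rot hf hR) w (fderiv ℝ w) X0 X (tangent hf _ H')
  rw [← h1]
  congr 2
  rw [rπ_apply]
  simp only [map_add, fr_ππ hf, fr_πρ hf, fr_ρρ hf, fr_ρπ hf, add_zero, zero_add, chg, shf,
    add_sub_cancel]

/-- the kernel is the profile of the zoomed base coordinate -/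
theorem beta_zc {π : Euc k →L[ℝ] Euc m} {ρ : Euc k →L[ℝ] Euc n} (hf : Frame π ρ)
    {w w' U : Euc m → Euc n} {X0 : Euc m} {K : ℕ} {C κ t : ℝ} {q : Euc m →L[ℝ] Euc n}
    {H : Euc m →L[ℝ] Euc m} {H' : Euc n →L[ℝ] Euc n} (h : Zm w X0 K C κ t q H H' w' U)
    (X : Euc m) :
    beta w (fderiv ℝ w) t X0 X = max 0 (1 - ‖zc t q H w X0 X‖ ^ 2) := by
  have hq := h.qe
  have hR := h.rot.rt
  rw [hq] at hR
  rw [beta, ds_eq hf hR, zc, norm_smul, norm_inv, Real.norm_of_nonneg h.t0.le, mul_pow, inv_pow,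
    ← hq, inv_mul_eq_div]

theorem norm_Lo_zero (v : Euc m) : ‖Lo (0 : Euc m →L[ℝ] Euc n) v‖ = ‖v‖ := by
  have h := norm_Lo_sq (0 : Euc m →L[ℝ] Euc n) v
  rw [_root_.zero_apply, norm_zero, zero_pow two_ne_zero, add_zero] at h
  exact (pow_left_inj₀ (norm_nonneg _) (norm_nonneg _) two_ne_zero).1 h

/-- the base coordinate of the centred chart has the length of the foot -/
theorem norm_ch_x {π' : Euc k →L[ℝ] Euc m} {ρ' : Euc k →L[ℝ] Euc n} {U : Euc m → Euc n} {r' : ℝ}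
    (h : fderiv ℝ U 0 = 0) (z : Euc k) :
    ‖(ch π' ρ' 0 r' U 0).x z‖ = ‖foot π' ρ' 0 r' U z‖ := by
  show ‖Lo (fderiv ℝ U 0) (foot π' ρ' 0 r' U z - 0)‖ = _
  rw [h, norm_Lo_zero, sub_zero]

theorem pt_ch_x {π : Euc k →L[ℝ] Euc m} {ρ : Euc k →L[ℝ] Euc n} {x : Euc k} {r : ℝ}
    {w : Euc m → Euc n} (Xc : Euc m) (z : Euc k) :
    Gi_456.pt w Xc ((ch π ρ x r w Xc).x z) = foot π ρ x r w z := by
  show Xc + Loi _ (Lo _ (foot π ρ x r w z - Xc)) = _
  rw [Loi_Lo, add_sub_cancel]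

theorem pt_Lo (w : Euc m → Euc n) (Xc X0 : Euc m) :
    Gi_456.pt w Xc (Lo (fderiv ℝ w Xc) (X0 - Xc)) = X0 := by
  show Xc + Loi _ (Lo _ (X0 - Xc)) = _
  rw [Loi_Lo, add_sub_cancel]

/-- **the kernel at a point of the chart is the profile of the normalised chart** (near feet) -/
theorem bv_ch {π : Euc k →L[ℝ] Euc m} {ρ : Euc k →L[ℝ] Euc n} (hf : Frame π ρ)
    {w w' U : Euc m → Euc n} {X0 : Euc m} {K : ℕ} {C κ t : ℝ} {q : Euc m →L[ℝ] Euc n}
    {H : Euc m →L[ℝ] Euc m} {H' : Euc n →L[ℝ] Euc n} (h : Zm w X0 K C κ t q H H' w' U)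
    {x : Euc k} {r r' : ℝ} (hw : Gr r w) (Xc : Euc m) {z : Euc k} (hz : z ∈ tube π ρ x r w)
    (hX : ‖foot π ρ x r w z - X0‖ ≤ 6 * t) (hr0 : 0 < r') (hr8 : r' ≤ 8)
    (hr' : ‖z - pt π ρ x w (foot π ρ x r w z)‖ ≤ 2 * (t * r')) :
    bv w Xc t (Lo (fderiv ℝ w Xc) (X0 - Xc)) ((ch π ρ x r w Xc).x z) =
      max 0 (1 - ‖(ch (rπ π ρ q H) (rρ π ρ q H') 0 r' U 0).x
        (t⁻¹ • (z - pt π ρ x w X0))‖ ^ 2) := by
  rw [bv, pt_ch_x, pt_Lo, beta_zc hf h, norm_ch_x h.dU0,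
    h.foot_eq hf hX (hw.foot_spec hz) hr0 hr8 hr']

/-- the kernel vanishes away from the base point -/
theorem bv_zero {w : Euc m → Euc n} (h : Gr 1 w) (Xc : Euc m) {ρ : ℝ} (hρ : 0 < ρ) {v₁ v₂ : Euc m}
    (hv : 2 * ρ < ‖Gi_456.pt w Xc v₂ - Gi_456.pt w Xc v₁‖) : bv w Xc ρ v₁ v₂ = 0 :=
  (dat_gr h).beta_eq_zero hρ hv

end Crest.Agent.R234.F35k_433
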