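import Crest.Agent.R234.Fx3_281

/-!
# Row 234 (helper281), node F3-TRANS, file 4: physical foot point and point of the zoomed Fermi chart
-/

set_option autoImplicit false

open MeasureTheory Filter Topology Set
open Crest.GeometryTopology.Submanifold
open Crest.Agent.R234.Vf_884
open Crest.Agent.R234.Ar_870 (IsCo tl)
open Crest.Agent.R234.Ft_209 (Dif IsPj)
open Crest.Agent.R234.Cy_870 (Split)
open Crest.Agent.R234.Fc_209 (IsChart Bd)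
open Crest.Agent.R234.Main_456 (Msys Frame)
open Crest.Agent.R234.Ell1_3 (dns gdet gop)
open Crest.Agent.R234.GLK_128 (BB A0 NN Fr Inv hh gg tau0)
open Crest.Agent.R234.Gi_456 (hinv IsFoot)
open Crest.Agent.R234.Foot_842 (pt)
open Crest.Agent.R234.Nrm_842 (Zm zc)
open Crest.Agent.R234.Grot_842 (rπ rρ)
open scoped InnerProductSpace

noncomputable section

namespace Crest.Agent.R234.Fm_281

variable {m n k : ℕ}

local notation "adj" => ContinuousLinearMap.adjoint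

theorem split_of_frame' {π : Euc k →L[ℝ] Euc m} {ρ : Euc k →L[ℝ] Euc n} (h : Frame π ρ) :
    Split π ρ := ⟨h.coπ, h.coρ, h.full⟩

/-- the inverse of the chart -/
theorem chart_inv {π : Euc k →L[ℝ] Euc m} {κ : Euc k →L[ℝ] Euc n} {u : Euc m → Euc n} {e : ℝ}
    {T : Dif k} (hs : Split π κ) (hu : ContDiff ℝ 3 u) (hT : IsChart T π κ u e) {y : Euc k}
    {X : Euc m} {r : ℝ} (hy : IsFoot π κ 0 r u y X) (h3 : ‖κ y - u X‖ < 3) :
    T.Ψ y = adj π X + adj κ (κ y - u X) ∧ π (T.Ψ y) = X ∧ κ (T.Ψ y) = κ y - u X := by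
  obtain ⟨Y, hY⟩ : ∃ Y, Y = κ y - u X := ⟨_, rfl⟩
  rw [← hY] at h3 ⊢
  obtain ⟨z, hz⟩ : ∃ z, z = adj π X + adj κ Y := ⟨_, rfl⟩
  have e1 : π z = X := by
    rw [hz, map_add, Fc_209.ππ' hs, Fc_209.πκ' hs, add_zero]
  have e2 : κ z = Y := by
    rw [hz, map_add, Fc_209.κπ' hs, Fc_209.κκ' hs, zero_add]
  have e3 : T.Φ z = y := by
    rw [hT.Φ_eq' hu (by rw [e2]; exact h3), e1, e2]
    have h1 := hy.1
    rw [sub_zero, ← hY] at h1
    have h4 : adj π X = adj π (π y) + adj π (adj (fderiv ℝ u X) Y) := by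
      rw [← map_add, ← h1]
    have h5 : adj κ Y = adj κ (κ y) - adj κ (u X) := by rw [hY, map_sub]
    rw [hz, h4, h5]
    have h6 := Fc_209.sum_apply hs y
    nth_rewrite 3 [← h6]
    abel
  have e4 : T.Ψ y = z := by rw [← e3, T.left]
  rw [e4, ← hz]
  exact ⟨rfl, e1, e2⟩

section Zm

variable {π : Euc k →L[ℝ] Euc m} {ρ : Euc k →L[ℝ] Euc n} {x : Euc k} {w w' U : Euc m → Euc n}
  {X0 : Euc m} {K : ℕ} {C κ t e : ℝ} {q : Euc m →L[ℝ] Euc n}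
  {H : Euc m →L[ℝ] Euc m} {H' : Euc n →L[ℝ] Euc n} {T : Dif k}

/-- the zoomed point -/
def zy (π : Euc k →L[ℝ] Euc m) (ρ : Euc k →L[ℝ] Euc n) (x : Euc k) (w : Euc m → Euc n)
    (X0 : Euc m) (t : ℝ) (z : Euc k) : Euc k := t⁻¹ • (z - pt π ρ x w X0)

theorem cdU (h : Zm w X0 K C κ t q H H' w' U) : ContDiff ℝ 3 U :=
  h.sm.of_le (by
    have h : ((3 : ℕ∞) : WithTop ℕ∞) ≤ ((⊤ : ℕ∞) : WithTop ℕ∞) := WithTop.coe_le_coe.2 le_top
    exact h)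

theorem splitZ (h : Zm w X0 K C κ t q H H' w' U) (hf : Frame π ρ) :
    Split (rπ π ρ q H) (rρ π ρ q H') := split_of_frame' (h.rot.frame hf)

/-- **physical foot to chart** -/
theorem corr1 (h : Zm w X0 K C κ t q H H' w' U) (hf : Frame π ρ)
    (hT : IsChart T (rπ π ρ q H) (rρ π ρ q H') U e) {r : ℝ} {z : Euc k} {X : Euc m}
    (hX : ‖X - X0‖ ≤ 6 * t) (hz : IsFoot π ρ x r w z X) (hν : ‖z - pt π ρ x w X‖ < 3 * t) :
    rπ π ρ q H (T.Ψ (zy π ρ x w X0 t z)) = zc t q H w X0 X ∧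
      rρ π ρ q H' (T.Ψ (zy π ρ x w X0 t z)) = t⁻¹ • rρ π ρ q H' (z - pt π ρ x w X) ∧
      ‖rρ π ρ q H' (T.Ψ (zy π ρ x w X0 t z))‖ ≤ ‖z - pt π ρ x w X‖ / t := by
  have hs := splitZ h hf
  have hfr := h.rot.frame hf
  have ht := h.t0
  have h1 := h.isFoot hf (r' := 3 / 2) hX hz (by linarith)
  have h2 := (Foot_842.foot_normal hfr h1).2.1
  have h3 := h.normal_eq hf x z hX
  rw [sub_zero] at h2
  rw [h3] at h2
  have h4 : ‖t⁻¹ • (z - pt π ρ x w X)‖ = ‖z - pt π ρ x w X‖ / t := by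
    rw [norm_smul, norm_inv, Real.norm_of_nonneg ht.le, inv_mul_eq_div]
  have h5 : ‖rρ π ρ q H' (t⁻¹ • (z - pt π ρ x w X))‖ ≤ ‖z - pt π ρ x w X‖ / t := by
    rw [← h4]; exact Fc_209.norm_κ_le hs _
  have h6 : ‖z - pt π ρ x w X‖ / t < 3 := by rw [div_lt_iff₀ ht]; exact hν
  have h7 := chart_inv hs (cdU h) hT (y := zy π ρ x w X0 t z) h1 (by
    unfold zy
    rw [← h2]
    exact lt_of_le_of_lt h5 h6)
  have h8 : rρ π ρ q H' (T.Ψ (zy π ρ x w X0 t z)) = t⁻¹ • rρ π ρ q H' (z - pt π ρ x w X) := by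
    rw [h7.2.2]
    unfold zy
    rw [← h2, map_smul]
  refine ⟨h7.2.1, h8, ?_⟩
  rw [h8, ← map_smul]
  exact h5

/-- the normal vector in the chart -/
theorem chart_normal (h : Zm w X0 K C κ t q H H' w' U) (hf : Frame π ρ)
    (hT : IsChart T (rπ π ρ q H) (rρ π ρ q H') U e) {z : Euc k} {X : Euc m}
    (hX : ‖X - X0‖ ≤ 6 * t) (hzX : zc t q H w X0 X = rπ π ρ q H (T.Ψ (zy π ρ x w X0 t z)))
    (hy : ‖rρ π ρ q H' (T.Ψ (zy π ρ x w X0 t z))‖ < 3) :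
    z - pt π ρ x w X = t • BB (adj (rπ π ρ q H)) (adj (rρ π ρ q H'))
      (fderiv ℝ U (zc t q H w X0 X)) (rρ π ρ q H' (T.Ψ (zy π ρ x w X0 t z))) ∧
    ‖z - pt π ρ x w X‖ ^ 2 = t ^ 2 * (‖rρ π ρ q H' (T.Ψ (zy π ρ x w X0 t z))‖ ^ 2 +
      ‖adj (fderiv ℝ U (zc t q H w X0 X)) (rρ π ρ q H' (T.Ψ (zy π ρ x w X0 t z)))‖ ^ 2) := by
  have hs := splitZ h hf
  have ht := h.t0
  have h1 := chart_foot hs (cdU h) hT hy (r := 3) (by linarith)
  rw [T.right, ← hzX] at h1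
  have h3 := h.normal_eq hf x z hX
  have h4 : z - pt π ρ x w X = t • (zy π ρ x w X0 t z -
      pt (rπ π ρ q H) (rρ π ρ q H') 0 U (zc t q H w X0 X)) := by
    unfold zy
    rw [h3, smul_smul, mul_inv_cancel₀ ht.ne', one_smul]
  constructor
  · rw [h4, h1.2.2.1]
  · rw [h4, norm_smul, mul_pow, h1.2.2.2, Real.norm_of_nonneg ht.le]

/-- **chart to physical foot** -/
theorem corr2 (h : Zm w X0 K C κ t q H H' w' U) (hf : Frame π ρ)
    (hT : IsChart T (rπ π ρ q H) (rρ π ρ q H') U e) {z : Euc k} {r : ℝ} (hr : 2 * t ≤ r)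
    (h5 : ‖rπ π ρ q H (T.Ψ (zy π ρ x w X0 t z))‖ ≤ 5)
    (h2 : ‖rρ π ρ q H' (T.Ψ (zy π ρ x w X0 t z))‖ ≤ 2) :
    ∃ X, ‖X - X0‖ < 6 * t ∧ zc t q H w X0 X = rπ π ρ q H (T.Ψ (zy π ρ x w X0 t z)) ∧
      IsFoot π ρ x r w z X ∧ ‖z - pt π ρ x w X‖ ≤
        33 / 32 * (t * ‖rρ π ρ q H' (T.Ψ (zy π ρ x w X0 t z))‖) := by
  have hs := splitZ h hf
  have hs0 := split_of_frame' hf
  have ht := h.t0
  obtain ⟨X, hX, hzX⟩ := h.zc_surj h5
  obtain ⟨h6, h7⟩ := chart_normal h hf hT hX.le hzX (x := x) (z := z) (by linarith)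
  obtain ⟨Y, hY⟩ : ∃ Y, Y = rρ π ρ q H' (T.Ψ (zy π ρ x w X0 t z)) := ⟨_, rfl⟩
  rw [← hY] at h6 h7 h2 ⊢
  have h8 : ‖adj (fderiv ℝ U (zc t q H w X0 X)) Y‖ ≤ 1 / 64 * ‖Y‖ := by
    refine (ContinuousLinearMap.le_opNorm _ _).trans ?_
    rw [LinearIsometryEquiv.norm_map]
    exact mul_le_mul_of_nonneg_right ((h.norm_dU _).trans h.Cκt) (norm_nonneg _)
  have h9 : ‖z - pt π ρ x w X‖ ≤ 33 / 32 * (t * ‖Y‖) := by
    refine (sq_le_sq₀ (norm_nonneg _) (by positivity)).1 ?_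
    rw [h7]
    have h10 : ‖adj (fderiv ℝ U (zc t q H w X0 X)) Y‖ ^ 2 ≤ (1 / 64 * ‖Y‖) ^ 2 :=
      pow_le_pow_left₀ (norm_nonneg _) h8 2
    have h11 : 0 ≤ t ^ 2 * ‖Y‖ ^ 2 := by positivity
    have h12 : t ^ 2 * ‖adj (fderiv ℝ U (zc t q H w X0 X)) Y‖ ^ 2 ≤
        t ^ 2 * (1 / 64 * ‖Y‖) ^ 2 := mul_le_mul_of_nonneg_left h10 (sq_nonneg t)
    nlinarith
  refine ⟨X, hX, hzX, ?_, h9⟩
  refine Foot_842.isFoot_of_normal hf ?_ ?_
  · -- the normal vector is in the range of the normal projection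
    have e1 : NN (adj π) (adj ρ) (fderiv ℝ w X) (hinv (fderiv ℝ w X)) (z - pt π ρ x w X) =
        z - pt π ρ x w X := by
      rw [← h.NN_eq hf hX.le, h6, map_smul]
      congr 1
      exact congrArg (fun A : Euc n →L[ℝ] Euc k => A Y)
        (GLK_128.NN_BB (fr_of_split hs) (Nrm_842.inv0 (fderiv ℝ U (zc t q H w X0 X))))
    have e2 : adj (A0 (adj π) (adj ρ) (fderiv ℝ w X)) (z - pt π ρ x w X) = 0 := by
      rw [← e1]
      exact congrArg (fun A : Euc n →L[ℝ] Euc m => A (hinv (fderiv ℝ w X)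
        (adj (BB (adj π) (adj ρ) (fderiv ℝ w X)) (z - pt π ρ x w X))))
        (GLK_128.A0_BB (q := fderiv ℝ w X) (fr_of_split hs0))
    rw [GLK_128.adj_A0_apply, ContinuousLinearMap.adjoint_adjoint,
      ContinuousLinearMap.adjoint_adjoint] at e2
    exact e2
  · refine (Fc_209.norm_κ_le hs0 _).trans (h9.trans ?_)
    nlinarith [norm_nonneg Y]

/-- the tilts agree -/
theorem Nt_eq (h : Zm w X0 K C κ t q H H' w' U) (hf : Frame π ρ) {X : Euc m}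
    (hX : ‖X - X0‖ ≤ 6 * t) (S : L k) :
    Nt (rπ π ρ q H) (rρ π ρ q H') U (zc t q H w X0 X) S = Nt π ρ w X S := by
  unfold Nt GLK_128.tau0
  rw [h.NN_eq hf hX]

end Zm

end Crest.Agent.R234.Fm_281
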