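import Crest.Agent.R234.Cy4_870

/-!
# Row 234, VF-CYL, part 5 (helper870)

Stationary varifolds in a cylinder: the first variation of the restriction to the cylinder vanishes on
all `C¹` fields which vanish over the boundary of the base ball (no vertical cut-off).
-/

set_option autoImplicit false

open MeasureTheory Set Function Filter Topology
open Crest.GeometryTopology.Submanifold
open Crest.Agent.R234.Vf_884 Crest.Agent.R234.Ar_870
open scoped ENNReal NNReal InnerProductSpace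

noncomputable section

namespace Crest.Agent.R234.Cy_870

variable {m n k : ℕ}

/-- the closed cylinder -/
def cyl (π : Euc k →L[ℝ] Euc m) (κ : Euc k →L[ℝ] Euc n) (x : Euc m) (R h : ℝ) : Set (Euc k) :=
  {p | ‖π p - x‖ ≤ R ∧ ‖κ p‖ ≤ h}

variable {π : Euc k →L[ℝ] Euc m} {κ : Euc k →L[ℝ] Euc n}

theorem isClosed_cyl (π : Euc k →L[ℝ] Euc m) (κ : Euc k →L[ℝ] Euc n) (x : Euc m) (R h : ℝ) :
    IsClosed (cyl π κ x R h) :=
  (isClosed_le ((π.continuous.sub continuous_const).norm) continuous_const).inter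
    (isClosed_le κ.continuous.norm continuous_const)

theorem isCompact_cyl (hs : Split π κ) (x : Euc m) (R h : ℝ) : IsCompact (cyl π κ x R h) := by
  refine Metric.isCompact_of_isClosed_isBounded (isClosed_cyl π κ x R h) ?_
  refine (Metric.isBounded_closedBall (x := (0 : Euc k)) (r := (‖x‖ + |R|) + |h|)).subset
    fun p hp => ?_
  rw [mem_closedBall_zero_iff]
  have h1 := hs.norm_sq p
  have h2 : ‖π p‖ ≤ ‖x‖ + |R| := by
    have := norm_sub_norm_le (π p) x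
    have h3 := hp.1
    have h4 := le_abs_self R
    linarith
  have h3 : ‖κ p‖ ≤ |h| := hp.2.trans (le_abs_self h)
  have h4 : ‖p‖ ^ 2 ≤ ((‖x‖ + |R|) + |h|) ^ 2 := by
    rw [h1]
    nlinarith [norm_nonneg (π p), norm_nonneg (κ p), norm_nonneg x, abs_nonneg R, abs_nonneg h]
  exact (sq_le_sq₀ (norm_nonneg _) (by positivity)).1 h4

/-- **no vertical cut-off**: the first variation of the part in the cylinder vanishes on fields which
vanish outside the base ball -/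
theorem FV_cyl {U : Set (Euc k)} {V : Measure (Euc k × L k)} (hV : Stat m k U V)
    (hs : Split π κ) {x₀ : Euc m} {R h₀ h₁ : ℝ} (h01 : h₀ < h₁) (h1pos : 0 < h₁)
    (hU : cyl π κ x₀ R h₁ ⊆ U)
    (hgap : ∀ᵐ p ∂V, p.1 ∈ cyl π κ x₀ R h₁ → ‖κ p.1‖ ≤ h₀)
    {X : Euc k → Euc k} (hX : ContDiff ℝ 1 X) (h0 : ∀ p, R ≤ ‖π p - x₀‖ → X p = 0) :
    FV (V.restrict (cyl π κ x₀ R h₁ ×ˢ univ)) X = 0 := by
  -- the cut-off
  set c : ContDiffBump (0 : Euc n) := ⟨(max h₀ 0 + 2 * h₁) / 3, (2 * max h₀ 0 + 4 * h₁) / 6 +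
    (h₁ - max h₀ 0) / 6, by have := le_max_right h₀ 0; linarith, by
      have h2 : max h₀ 0 < h₁ := max_lt h01 h1pos
      have := le_max_right h₀ 0
      linarith⟩ with hc
  have hm : max h₀ 0 < h₁ := max_lt h01 h1pos
  have hrin : max h₀ 0 < c.rIn := by
    simp only [hc]; linarith
  have hrout : c.rOut ≤ h₁ := by
    simp only [hc]; linarith [le_max_right h₀ 0]
  set η : Euc k → ℝ := fun p => c (κ p) with hη
  have hηs : ContDiff ℝ 1 η := c.contDiff.comp κ.contDiff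
  set Y : Euc k → Euc k := fun p => η p • X p with hY
  have hYs : ContDiff ℝ 1 Y := hηs.smul hX
  have hY0 : ∀ p, p ∉ cyl π κ x₀ R h₁ → Y p = 0 := by
    intro p hp
    simp only [hY]
    by_cases h2 : ‖π p - x₀‖ ≤ R
    · have h3 : h₁ < ‖κ p‖ := by
        by_contra hcon
        exact hp ⟨h2, not_lt.1 hcon⟩
      have h4 : η p = 0 := by
        simp only [hη]
        refine c.zero_of_le_dist ?_
        rw [dist_zero_right]
        linarith
      rw [h4, zero_smul]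
    · rw [h0 p (not_le.1 h2).le, smul_zero]
  have hsup : tsupport Y ⊆ cyl π κ x₀ R h₁ := by
    refine closure_minimal ?_ (isClosed_cyl π κ x₀ R h₁)
    intro p hp
    by_contra hcon
    exact hp (hY0 p hcon)
  have hcpt := isCompact_cyl (n := n) hs x₀ R h₁
  have hst := hV.stat Y hYs (HasCompactSupport.of_support_subset_isCompact hcpt
    (subset_closure.trans hsup)) (hsup.trans hU)
  have hmeas : MeasurableSet (cyl π κ x₀ R h₁ ×ˢ (univ : Set (L k))) :=
    (isClosed_cyl π κ x₀ R h₁).measurableSet.prod MeasurableSet.univ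
  unfold FV
  have e1 : ∫ p in cyl π κ x₀ R h₁ ×ˢ univ, tr ((fderiv ℝ X p.1) ∘L p.2) ∂V =
      ∫ p in cyl π κ x₀ R h₁ ×ˢ univ, tr ((fderiv ℝ Y p.1) ∘L p.2) ∂V := by
    refine setIntegral_congr_ae hmeas ?_
    filter_upwards [hgap] with p hp hpm
    have h2 := hp hpm.1
    have h3 : fderiv ℝ Y p.1 = fderiv ℝ X p.1 := by
      refine Filter.EventuallyEq.fderiv_eq ?_
      have h4 : ∀ᶠ q in 𝓝 p.1, ‖κ q‖ < c.rIn := by
        refine (κ.continuous.norm.continuousAt).eventually_lt continuousAt_const ?_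
        exact lt_of_le_of_lt (h2.trans (le_max_left h₀ 0)) hrin
      filter_upwards [h4] with q hq
      simp only [hY, hη]
      rw [c.one_of_mem_closedBall, one_smul]
      rw [mem_closedBall_zero_iff]
      exact hq.le
    rw [h3]
  rw [e1, ← hst]
  refine setIntegral_eq_integral_of_forall_compl_eq_zero fun p hp => ?_
  have h2 : p.1 ∉ cyl π κ x₀ R h₁ := fun h => hp ⟨h, trivial⟩
  have h3 : fderiv ℝ Y p.1 = 0 := by
    by_contra hne
    exact h2 (hsup (support_fderiv_subset ℝ hne))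
  rw [h3, ContinuousLinearMap.zero_comp, map_zero]

variable {x₀ x : Euc m} {R : ℝ} {g g1 g2 : ℝ → ℝ}

theorem contDiff_X1 (hg : Ker g g1) (π : Euc k →L[ℝ] Euc m) (x : Euc m) (l : ℝ) :
    ContDiff ℝ 1 (X1 π x g l) := by
  unfold X1
  exact (((ContinuousLinearMap.adjoint π).contDiff.comp
    ((contDiff_rad hg.der hg.cont l x).comp π.contDiff))).const_smul (1:ℝ)

theorem Ker.one_le_of (x : Euc m) {l : ℝ} {v : Euc m} (hv : Real.exp l ≤ ‖v - x‖) :
    1 ≤ Real.exp (-2 * l) * ‖v - x‖ ^ 2 := by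
  have h1 : Real.exp l ^ 2 ≤ ‖v - x‖ ^ 2 := pow_le_pow_left₀ (Real.exp_pos _).le hv 2
  calc (1:ℝ) = Real.exp (-2 * l) * Real.exp l ^ 2 := by
        rw [← Real.exp_nat_mul, ← Real.exp_add]; simp
    _ ≤ _ := mul_le_mul_of_nonneg_left h1 (Real.exp_pos _).le

theorem X1_zero (hg : Ker g g1) {l : ℝ} {p : Euc k} (hp : Real.exp l ≤ ‖π p - x‖) :
    X1 π x g l p = 0 := by
  unfold X1
  rw [hg.zero _ (Ker.one_le_of x hp), zero_smul, map_zero, smul_zero]

theorem contDiff_X2 {F : Euc n → ℝ} {dF : Euc n → Euc n} {H : Euc n → L n} (hF : Well F dF H)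
    (hg : Ker g g1) (π : Euc k →L[ℝ] Euc m) (κ : Euc k →L[ℝ] Euc n) (x : Euc m) (l : ℝ) :
    ContDiff ℝ 1 (X2 π κ x dF g l) := by
  unfold X2
  have h1 : ContDiff ℝ 1 dF := by
    rw [contDiff_one_iff_fderiv]
    refine ⟨fun y => (hF.hasdF y).differentiableAt, ?_⟩
    have : fderiv ℝ dF = H := funext fun y => (hF.hasdF y).fderiv
    rw [this]
    exact hF.contH
  have h2 : ContDiff ℝ 1 fun v : Euc m => ‖v - x‖ ^ 2 :=
    (contDiff_id.sub contDiff_const).norm_sq ℝ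
  exact ((contDiff_scaled hg.der hg.cont l).comp (h2.comp π.contDiff)).smul
    ((ContinuousLinearMap.adjoint κ).contDiff.comp (h1.comp κ.contDiff))

theorem X2_zero {dF : Euc n → Euc n} (hg : Ker g g1) {l : ℝ} {p : Euc k}
    (hp : Real.exp l ≤ ‖π p - x‖) : X2 π κ x dF g l p = 0 := by
  unfold X2
  rw [hg.zero _ (Ker.one_le_of x hp), zero_smul]

theorem contDiff_X3 {F : Euc n → ℝ} {dF : Euc n → Euc n} {H : Euc n → L n} (hF : Well F dF H)
    (hg : Ker g1 g2) (π : Euc k →L[ℝ] Euc m) (κ : Euc k →L[ℝ] Euc n) (x : Euc m) (l : ℝ) :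
    ContDiff ℝ 1 (X3 π κ x F g1 l) := by
  unfold X3
  have h1 : ContDiff ℝ 1 F := by
    rw [contDiff_one_iff_fderiv]
    refine ⟨fun y => (hF.hasF y).differentiableAt, ?_⟩
    have : fderiv ℝ F = fun y => innerSL ℝ (dF y) := funext fun y => (hF.hasF y).fderiv
    rw [this]
    exact (innerSL ℝ).continuous.comp hF.contdF
  exact (h1.comp κ.contDiff).smul ((ContinuousLinearMap.adjoint π).contDiff.comp
    ((contDiff_rad hg.der hg.cont l x).comp π.contDiff))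

theorem X3_zero {F : Euc n → ℝ} (hg : Ker g1 g2) {l : ℝ} {p : Euc k}
    (hp : Real.exp l ≤ ‖π p - x‖) : X3 π κ x F g1 l p = 0 := by
  unfold X3
  rw [hg.zero _ (Ker.one_le_of x hp), zero_smul, map_zero, smul_zero]

/-- a stationary varifold in a cylinder, restricted to it, heights at most `h₀` -/
structure CylStat (W : Measure (Euc k × L k)) (π : Euc k →L[ℝ] Euc m) (κ : Euc k →L[ℝ] Euc n)
    (x₀ : Euc m) (R h₀ : ℝ) : Prop where
  sp : Split π κ
  conc : ∀ᵐ p ∂W, p.2 ∈ G m k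
  fin : W univ < ⊤
  base : ∀ᵐ p ∂W, ‖π p.1 - x₀‖ ≤ R
  hgt : ∀ᵐ p ∂W, ‖κ p.1‖ ≤ h₀
  stat : ∀ X : Euc k → Euc k, ContDiff ℝ 1 X → (∀ p, R ≤ ‖π p - x₀‖ → X p = 0) → FV W X = 0

theorem cylStat_of_stat {U : Set (Euc k)} {V : Measure (Euc k × L k)} (hV : Stat m k U V)
    (hs : Split π κ) {h₀ h₁ : ℝ} (h01 : h₀ < h₁) (h1pos : 0 < h₁)
    (hU : cyl π κ x₀ R h₁ ⊆ U)
    (hgap : ∀ᵐ p ∂V, p.1 ∈ cyl π κ x₀ R h₁ → ‖κ p.1‖ ≤ h₀) :
    CylStat (V.restrict (cyl π κ x₀ R h₁ ×ˢ univ)) π κ x₀ R h₀ where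
  sp := hs
  conc := ae_restrict_of_ae hV.conc
  fin := by
    rw [Measure.restrict_apply_univ]
    exact hV.fin _ (isCompact_cyl hs x₀ R h₁) hU
  base := by
    have hmeas : MeasurableSet (cyl π κ x₀ R h₁ ×ˢ (univ : Set (L k))) :=
      (isClosed_cyl π κ x₀ R h₁).measurableSet.prod MeasurableSet.univ
    filter_upwards [ae_restrict_mem hmeas] with p hp
    exact hp.1.1
  hgt := by
    have hmeas : MeasurableSet (cyl π κ x₀ R h₁ ×ˢ (univ : Set (L k))) :=
      (isClosed_cyl π κ x₀ R h₁).measurableSet.prod MeasurableSet.univ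
    filter_upwards [ae_restrict_mem hmeas, ae_restrict_of_ae hgap] with p hp hp2
    exact hp2 hp.1
  stat X hX h0 := FV_cyl hV hs h01 h1pos hU hgap hX h0

namespace CylStat

variable {W : Measure (Euc k × L k)} {h₀ : ℝ}

theorem fr (h : CylStat W π κ x₀ R h₀) (x : Euc m) (L₀ : ℝ) : Fr W π κ x L₀ :=
  ⟨h.sp, h.conc, lt_of_le_of_lt (measure_mono (subset_univ _)) h.fin⟩

theorem hgt' (h : CylStat W π κ x₀ R h₀) (x : Euc m) (L₀ : ℝ) : Hgt W π κ x L₀ h₀ := by
  filter_upwards [h.hgt] with p hp _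
  exact hp

theorem le_of_R {l : ℝ} (hl : ‖x - x₀‖ + Real.exp l ≤ R) {v : Euc m} (hv : R ≤ ‖v - x₀‖) :
    Real.exp l ≤ ‖v - x‖ := by
  have h1 : ‖v - x₀‖ ≤ ‖v - x‖ + ‖x - x₀‖ := norm_sub_le_norm_sub_add_norm_sub v x x₀
  linarith

theorem FV1 (h : CylStat W π κ x₀ R h₀) (hg : Ker g g1) {l : ℝ}
    (hl : ‖x - x₀‖ + Real.exp l ≤ R) : FV W (X1 π x g l) = 0 :=
  h.stat _ (contDiff_X1 hg π x l) fun _ hp => X1_zero hg (le_of_R hl hp)

theorem FV2 (h : CylStat W π κ x₀ R h₀) {F : Euc n → ℝ} {dF : Euc n → Euc n} {H : Euc n → L n}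
    (hF : Well F dF H) (hg : Ker g g1) {l : ℝ}
    (hl : ‖x - x₀‖ + Real.exp l ≤ R) : FV W (X2 π κ x dF g l) = 0 :=
  h.stat _ (contDiff_X2 hF hg π κ x l) fun _ hp => X2_zero hg (le_of_R hl hp)

theorem FV3 (h : CylStat W π κ x₀ R h₀) {F : Euc n → ℝ} {dF : Euc n → Euc n} {H : Euc n → L n}
    (hF : Well F dF H) (hg : Ker g1 g2) {l : ℝ}
    (hl : ‖x - x₀‖ + Real.exp l ≤ R) : FV W (X3 π κ x F g1 l) = 0 :=
  h.stat _ (contDiff_X3 hF hg π κ x l) fun _ hp => X3_zero hg (le_of_R hl hp)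

/-- **(W1)** for stationary varifolds in a cylinder -/
theorem W1 (h : CylStat W π κ x₀ R h₀) (hg : Prof g g1 g2) (Q : ℝ) {l : ℝ}
    (hl : ‖x - x₀‖ + Real.exp l ≤ R) :
    HasDerivAt (EE W π x g Q) (2 * bb W π x g Q l + RR W π x g1 l) l := by
  have h1 := hasDerivAt_EE (h.fr x (l + 1)) hg Q (by linarith : l < l + 1)
  rw [h.FV1 hg.k0 hl, mul_zero, sub_zero] at h1
  exact h1

/-- **(W2)** for stationary varifolds in a cylinder -/
theorem W2 (h : CylStat W π κ x₀ R h₀) {F : Euc n → ℝ} {dF : Euc n → Euc n} {H : Euc n → L n}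
    (hF : Well F dF H) (hg : Prof g g1 g2) {l : ℝ} (hl : ‖x - x₀‖ + Real.exp l ≤ R) :
    eF W π κ x H g l ^ 2 ≤ IF W π κ x F g1 l * RR W π x g1 l := by
  have h1 := eF_sq_le (h.fr x l) (h.hgt' x l) hF hg le_rfl
  rw [h.FV2 hF hg.k0 hl, mul_zero, sub_zero] at h1
  exact h1

/-- **(W3)** for stationary varifolds in a cylinder -/
theorem W3 (h : CylStat W π κ x₀ R h₀) {F : Euc n → ℝ} {dF : Euc n → Euc n} {H : Euc n → L n}
    (hF : Well F dF H) (hg : Prof g g1 g2) {l : ℝ} (hl : ‖x - x₀‖ + Real.exp l ≤ R) :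
    HasDerivAt (IF W π κ x F g1) (2 * eF W π κ x H g l + err3 W π κ x F g1 g2 l) l := by
  have h1 := hasDerivAt_IF (h.fr x (l + 1)) (h.hgt' x (l + 1)) hF hg (by linarith : l < l + 1)
  rw [h.FV2 hF hg.k0 hl, h.FV3 hF hg.k1 hl] at h1
  simpa using h1

end CylStat

end Crest.Agent.R234.Cy_870
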