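import Crest.Agent.R234.GL5_394
import Crest.Agent.R234.Cy5_870

/-!
# Row 234, VF-GL, part 6 (helper394)

Chart data on an open tube `W`; the first variation of a stationary `V` vanishes on the three test
fields; the output theorem for stationary varifolds.
-/

set_option autoImplicit false

open MeasureTheory Set Function Filter Topology
open Crest.GeometryTopology.Submanifold
open Crest.Agent.R234.Vf_884 Crest.Agent.R234.Ar_870 Crest.Agent.R234.Cy_870
open scoped ENNReal NNReal InnerProductSpace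

noncomputable section

namespace Crest.Agent.R234.GL_394

variable {m k : ℕ} {c : Ch m k} {K W U : Set (Euc k)} {D : Set (Euc m)}
  {V : Measure (Euc k × L k)} {g g1 g2 : ℝ → ℝ} {Q l : ℝ}

/-- the chart data are what they should be, on the open tube `W` (ambient) and `D` (base) -/
structure Reg (c : Ch m k) (W : Set (Euc k)) (D : Set (Euc m)) : Prop where
  opnW : IsOpen W
  opn : IsOpen D
  mem : ∀ z ∈ W, c.x z ∈ D
  hx : ∀ z ∈ W, HasFDerivAt c.x (c.dx z) z
  hf : ∀ z ∈ W, HasFDerivAt c.f (innerSL ℝ (c.nu z)) z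
  hnu : ∀ z ∈ W, HasFDerivAt c.nu (c.H z) z
  hA : ∀ z ∈ W, HasFDerivAt c.A (c.dA z) z
  cdx : ContinuousOn c.dx W
  cH : ContinuousOn c.H W
  cdA : ContinuousOn c.dA W
  ctau : ContinuousOn (fun p : Euc k × L k => c.tau p.1 p.2) (W ×ˢ G m k)
  dxA : ∀ z ∈ W, c.dx z ∘L c.A z = ContinuousLinearMap.id ℝ (Euc m)
  dxnu : ∀ z ∈ W, c.dx z (c.nu z) = 0
  nusq : ∀ z ∈ W, ‖c.nu z‖ ^ 2 = 2 * c.f z
  hgi : ∀ v ∈ D, HasFDerivAt c.gi (c.dgi v) v
  cdgi : ContinuousOn c.dgi D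
  hj : ∀ v ∈ D, HasFDerivAt c.j (c.j v • innerSL ℝ (c.lam v)) v
  clam : ContinuousOn c.lam D
  cmu : ContinuousOn c.mu D
  mupos : ∀ v ∈ D, 0 < c.mu v
  hmu : ∀ v ∈ D, ⟪v, c.gi v v⟫_ℝ = c.mu v * ‖v‖ ^ 2
  hbe : ∀ v ∈ D, c.be v = (c.mu v)⁻¹ • c.gi v v
  hdbe : ∀ v ∈ D, HasFDerivAt c.be (c.dbe v) v
  cdbe : ContinuousOn c.dbe D

namespace Reg

theorem ok (h : Reg c W D) (hK : IsCompact K) (hKW : K ⊆ W) : Ok c K D where
  cpt := hK
  opn := h.opn
  mem := fun z hz => h.mem z (hKW hz)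
  hx := fun z hz => h.hx z (hKW hz)
  hf := fun z hz => h.hf z (hKW hz)
  hnu := fun z hz => h.hnu z (hKW hz)
  hA := fun z hz => h.hA z (hKW hz)
  cdx := h.cdx.mono hKW
  cH := h.cH.mono hKW
  cdA := h.cdA.mono hKW
  ctau := h.ctau.mono (prod_mono hKW le_rfl)
  dxA := fun z hz => h.dxA z (hKW hz)
  dxnu := fun z hz => h.dxnu z (hKW hz)
  nusq := fun z hz => h.nusq z (hKW hz)
  hgi := h.hgi
  cdgi := h.cdgi
  hj := h.hj
  clam := h.clam
  cmu := h.cmu
  mupos := h.mupos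
  hmu := h.hmu
  hbe := h.hbe
  hdbe := h.hdbe
  cdbe := h.cdbe

theorem cx (h : Reg c W D) : ContinuousOn c.x W := fun z hz =>
  (h.hx z hz).continuousAt.continuousWithinAt
theorem cf (h : Reg c W D) : ContinuousOn c.f W := fun z hz =>
  (h.hf z hz).continuousAt.continuousWithinAt
theorem cnu (h : Reg c W D) : ContinuousOn c.nu W := fun z hz =>
  (h.hnu z hz).continuousAt.continuousWithinAt
theorem cA (h : Reg c W D) : ContinuousOn c.A W := fun z hz =>
  (h.hA z hz).continuousAt.continuousWithinAt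
theorem cgi (h : Reg c W D) : ContinuousOn c.gi D := fun z hz =>
  (h.hgi z hz).continuousAt.continuousWithinAt
theorem cbe (h : Reg c W D) : ContinuousOn c.be D := fun z hz =>
  (h.hdbe z hz).continuousAt.continuousWithinAt

theorem cgv (h : Reg c W D) : ContinuousOn (fun v => c.gi v v) D :=
  h.cgi.clm_apply continuousOn_id

theorem cdgv (h : Reg c W D) : ContinuousOn (dgv c) D := by
  unfold dgv
  have h1 : ContinuousOn (fun v => (c.dgi v).flip) D :=
    (ContinuousLinearMap.flipₗᵢ ℝ (Euc m) (Euc m) (Euc m)).continuous.comp_continuousOn h.cdgi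
  exact h.cgi.add (h1.clm_apply continuousOn_id)

/-- `C¹` from an explicit continuous derivative -/
theorem _root_.Crest.Agent.R234.GL_394.contDiffOn_one_of {X : Euc k → Euc k} {X' : Euc k → L k}
    (hW : IsOpen W) (h : ∀ z ∈ W, HasFDerivAt X (X' z) z) (hc : ContinuousOn X' W) :
    ContDiffOn ℝ 1 X W := by
  rw [show (1 : WithTop ℕ∞) = 0 + 1 from (zero_add 1).symm, contDiffOn_succ_iff_fderiv_of_isOpen hW]
  refine ⟨fun z hz => (h z hz).differentiableAt.differentiableWithinAt, by simp, ?_⟩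
  rw [contDiffOn_zero]
  exact hc.congr fun z hz => (h z hz).fderiv

/-- `z ↦ A z (ξ (x z))` -/
theorem contDiffOn_Axi (h : Reg c W D) {ξ : Euc m → Euc m} {ξ' : Euc m → L m}
    (hξ : ∀ v ∈ D, HasFDerivAt ξ (ξ' v) v) (hξ' : ContinuousOn ξ' D) :
    ContDiffOn ℝ 1 (fun z => c.A z (ξ (c.x z))) W := by
  refine contDiffOn_one_of h.opnW (X' := fun z => (c.A z) ∘L (ξ' (c.x z) ∘L c.dx z) +
    (c.dA z).flip (ξ (c.x z))) (fun z hz => hasFDerivAt_Axi (h.hx z hz) (h.hA z hz)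
    (hξ _ (h.mem z hz))) ?_
  have hξc : ContinuousOn ξ D := fun v hv => (hξ v hv).continuousAt.continuousWithinAt
  have h1 : ContinuousOn (fun z => (c.dA z).flip) W :=
    (ContinuousLinearMap.flipₗᵢ ℝ (Euc k) (Euc m) (Euc k)).continuous.comp_continuousOn h.cdA
  exact (h.cA.clm_comp ((hξ'.comp h.cx h.mem).clm_comp h.cdx)).add
    (h1.clm_apply (hξc.comp h.cx h.mem))

theorem contDiffOn_f (h : Reg c W D) : ContDiffOn ℝ 1 c.f W := by
  rw [show (1 : WithTop ℕ∞) = 0 + 1 from (zero_add 1).symm,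
    contDiffOn_succ_iff_fderiv_of_isOpen h.opnW]
  refine ⟨fun z hz => (h.hf z hz).differentiableAt.differentiableWithinAt, by simp, ?_⟩
  rw [contDiffOn_zero]
  have h1 : ContinuousOn (fun z => innerSL ℝ (c.nu z)) W :=
    (innerSL ℝ).continuous.comp_continuousOn h.cnu
  exact h1.congr fun z hz => (h.hf z hz).fderiv

theorem contDiffOn_x (h : Reg c W D) : ContDiffOn ℝ 1 c.x W := by
  rw [show (1 : WithTop ℕ∞) = 0 + 1 from (zero_add 1).symm,
    contDiffOn_succ_iff_fderiv_of_isOpen h.opnW]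
  refine ⟨fun z hz => (h.hx z hz).differentiableAt.differentiableWithinAt, by simp, ?_⟩
  rw [contDiffOn_zero]
  exact h.cdx.congr fun z hz => (h.hx z hz).fderiv

theorem contDiffOn_X1 (h : Reg c W D) (hg : Ker g g1) (l : ℝ) : ContDiffOn ℝ 1 (X1 c g l) W := by
  have h1 : ∀ v ∈ D, HasFDerivAt (fun v : Euc m => g (Real.exp (-2 * l) * ‖v‖ ^ 2) • c.be v)
      (g (Real.exp (-2 * l) * ‖v‖ ^ 2) • c.dbe v +
        (innerSL ℝ ((2 * Real.exp (-2 * l) * g1 (Real.exp (-2 * l) * ‖v‖ ^ 2)) • v)).smulRight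
          (c.be v)) v := by
    intro v hv
    have h2 := hasFDerivAt_rad hg.der l 0 v
    simp only [sub_zero] at h2
    exact h2.smul (h.hdbe v hv)
  have h2 : ContinuousOn (fun v : Euc m => g (Real.exp (-2 * l) * ‖v‖ ^ 2) • c.dbe v +
        (innerSL ℝ ((2 * Real.exp (-2 * l) * g1 (Real.exp (-2 * l) * ‖v‖ ^ 2)) • v)).smulRight
          (c.be v)) D := by
    refine ((cker_v hg.continuous l).continuousOn.smul h.cdbe).add ?_
    have h3 : Continuous fun v : Euc m =>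
        (2 * Real.exp (-2 * l) * g1 (Real.exp (-2 * l) * ‖v‖ ^ 2)) • v :=
      (continuous_const.mul (cker_v hg.cont l)).smul continuous_id
    have h4 : ContinuousOn (fun v : Euc m => (ContinuousLinearMap.smulRightL ℝ (Euc m) (Euc m)
        (innerSL ℝ ((2 * Real.exp (-2 * l) * g1 (Real.exp (-2 * l) * ‖v‖ ^ 2)) • v)))
          (c.be v)) D :=
      ((ContinuousLinearMap.smulRightL ℝ (Euc m) (Euc m)).continuous.comp_continuousOn
        ((innerSL ℝ).continuous.comp h3).continuousOn).clm_apply h.cbe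
    exact h4
  exact h.contDiffOn_Axi h1 h2

theorem contDiffOn_nu (h : Reg c W D) : ContDiffOn ℝ 1 c.nu W :=
  contDiffOn_one_of h.opnW h.hnu h.cH

theorem contDiffOn_X2 (h : Reg c W D) (hg : Ker g g1) (l : ℝ) : ContDiffOn ℝ 1 (X2 c g l) W := by
  have h1 : ContDiff ℝ 1 fun v : Euc m => g (Real.exp (-2 * l) * ‖v‖ ^ 2) := by
    have h2 : ContDiff ℝ 1 g := by
      rw [contDiff_one_iff_deriv]
      refine ⟨fun t => (hg.der t).differentiableAt, ?_⟩
      rw [show deriv g = g1 from funext fun t => (hg.der t).deriv]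
      exact hg.cont
    exact h2.comp (contDiff_const.mul (contDiff_norm_sq ℝ))
  exact (h1.comp_contDiffOn h.contDiffOn_x).smul h.contDiffOn_nu

theorem hgv (h : Reg c W D) {v : Euc m} (hv : v ∈ D) :
    HasFDerivAt (fun v => c.gi v v) (dgv c v) v := by
  have h1 := (h.hgi v hv).clm_apply (hasFDerivAt_id v)
  refine h1.congr_fderiv ?_
  unfold dgv
  ext u : 1
  simp

theorem contDiffOn_X3 (h : Reg c W D) (hg : Ker g1 g2) (l : ℝ) :
    ContDiffOn ℝ 1 (X3 c g1 l) W := by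
  have h1 : ∀ v ∈ D, HasFDerivAt (eta c g1 l) (deta c g1 g2 l v) v := by
    intro v hv
    have h2 := hasFDerivAt_rad hg.der l 0 v
    simp only [sub_zero] at h2
    exact h2.smul (h.hgv hv)
  have h2 : ContinuousOn (deta c g1 g2 l) D := by
    unfold deta
    refine ((cker_v hg.continuous l).continuousOn.smul h.cdgv).add ?_
    have h1 : Continuous fun v : Euc m =>
        (2 * Real.exp (-2 * l) * g2 (Real.exp (-2 * l) * ‖v‖ ^ 2)) • v :=
      (continuous_const.mul (cker_v hg.cont l)).smul continuous_id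
    have h2 : ContinuousOn (fun v : Euc m => (ContinuousLinearMap.smulRightL ℝ (Euc m) (Euc m)
        (innerSL ℝ ((2 * Real.exp (-2 * l) * g2 (Real.exp (-2 * l) * ‖v‖ ^ 2)) • v)))
          (c.gi v v)) D :=
      ((ContinuousLinearMap.smulRightL ℝ (Euc m) (Euc m)).continuous.comp_continuousOn
        ((innerSL ℝ).continuous.comp h1).continuousOn).clm_apply h.cgv
    exact h2
  exact h.contDiffOn_f.smul (h.contDiffOn_Axi h1 h2)

end Reg

/-! ### the fields vanish outside `{|x| < s}` together with their derivatives -/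

theorem X1_zero' (h : Reg c W D) (hg : Ker g g1) {z : Euc k} (hz : z ∈ W)
    (hr : ¬ ‖c.x z‖ ≤ Real.exp l) : X1 c g l z = 0 ∧ fderiv ℝ (X1 c g l) z = 0 := by
  have h1 : ∀ w, ¬ ‖c.x w‖ ≤ Real.exp l → X1 c g l w = 0 := fun w hw => by
    unfold X1
    rw [hg.zero _ (t_ge hw), zero_smul, map_zero]
  have h2 : X1 c g l =ᶠ[𝓝 z] fun _ => 0 := by
    have h3 : ∀ᶠ w in 𝓝 z, Real.exp l < ‖c.x w‖ :=
      continuousAt_const.eventually_lt (h.hx z hz).continuousAt.norm (not_le.1 hr)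
    filter_upwards [h3] with w hw
    exact h1 w (not_le.2 hw)
  exact ⟨h1 z hr, by rw [h2.fderiv_eq, fderiv_fun_const]; rfl⟩

theorem X2_zero' (h : Reg c W D) (hg : Ker g g1) {z : Euc k} (hz : z ∈ W)
    (hr : ¬ ‖c.x z‖ ≤ Real.exp l) : X2 c g l z = 0 ∧ fderiv ℝ (X2 c g l) z = 0 := by
  have h1 : ∀ w, ¬ ‖c.x w‖ ≤ Real.exp l → X2 c g l w = 0 := fun w hw => by
    unfold X2
    rw [hg.zero _ (t_ge hw), zero_smul]
  have h2 : X2 c g l =ᶠ[𝓝 z] fun _ => 0 := by
    have h3 : ∀ᶠ w in 𝓝 z, Real.exp l < ‖c.x w‖ :=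
      continuousAt_const.eventually_lt (h.hx z hz).continuousAt.norm (not_le.1 hr)
    filter_upwards [h3] with w hw
    exact h1 w (not_le.2 hw)
  exact ⟨h1 z hr, by rw [h2.fderiv_eq, fderiv_fun_const]; rfl⟩

theorem X3_zero' (h : Reg c W D) (hg : Ker g1 g2) {z : Euc k} (hz : z ∈ W)
    (hr : ¬ ‖c.x z‖ ≤ Real.exp l) : X3 c g1 l z = 0 ∧ fderiv ℝ (X3 c g1 l) z = 0 := by
  have h1 : ∀ w, ¬ ‖c.x w‖ ≤ Real.exp l → X3 c g1 l w = 0 := fun w hw => by
    unfold X3
    rw [hg.zero _ (t_ge hw), zero_smul, map_zero, smul_zero]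
  have h2 : X3 c g1 l =ᶠ[𝓝 z] fun _ => 0 := by
    have h3 : ∀ᶠ w in 𝓝 z, Real.exp l < ‖c.x w‖ :=
      continuousAt_const.eventually_lt (h.hx z hz).continuousAt.norm (not_le.1 hr)
    filter_upwards [h3] with w hw
    exact h1 w (not_le.2 hw)
  exact ⟨h1 z hr, by rw [h2.fderiv_eq, fderiv_fun_const]; rfl⟩

/-! ### stationary varifolds -/

/-- `C¹` fields on an open set `W`, tested by cut-off near a compact set `K` carrying them -/
theorem FV_eq_zero (hV : Stat m k U V) (hU : IsOpen U) (hW : IsOpen W) (hK : IsCompact K)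
    (hKW : K ⊆ W ∩ U) {X : Euc k → Euc k} (hX : ContDiffOn ℝ 1 X W)
    (hgap : ∀ᵐ p ∂V, p.1 ∈ W ∩ U → p.1 ∉ K → X p.1 = 0 ∧ fderiv ℝ X p.1 = 0) :
    FV (V.restrict (K ×ˢ univ)) X = 0 := by
  obtain ⟨φ, hφs, hφc, hφ1, hφW⟩ : ∃ φ : Euc k → ℝ, ContDiff ℝ 1 φ ∧ HasCompactSupport φ ∧
      (∀ z ∈ K, φ =ᶠ[𝓝 z] fun _ => 1) ∧ tsupport φ ⊆ W ∩ U := by
    obtain ⟨K', hK'c, hKK', hK'W⟩ := exists_compact_between hK (hW.inter hU) hKW
    obtain ⟨f, hf1, hf0, -⟩ := exists_contMDiffMap_one_nhds_of_subset_interior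
      (n := 1) (modelWithCornersSelf ℝ (Euc k)) hK.isClosed hKK'
    have hsup : tsupport (f : Euc k → ℝ) ⊆ K' := by
      refine closure_minimal ?_ hK'c.isClosed
      intro z hz
      by_contra hcon
      exact hz (hf0 z hcon)
    refine ⟨f, f.contMDiff.contDiff, HasCompactSupport.of_support_subset_isCompact hK'c
      (subset_closure.trans hsup), fun z hz => ?_, hsup.trans hK'W⟩
    exact (eventually_nhdsSet_iff_forall.1 hf1) z hz
  set Y : Euc k → Euc k := fun z => φ z • X z with hY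
  have hYs : ContDiff ℝ 1 Y := by
    rw [contDiff_iff_contDiffAt]
    intro z
    by_cases hz : z ∈ tsupport φ
    · have hzW := (hφW hz).1
      exact (hφs.contDiffAt).smul (hX.contDiffAt (hW.mem_nhds hzW))
    · have h1 : Y =ᶠ[𝓝 z] fun _ => 0 := by
        filter_upwards [(isClosed_tsupport φ).isOpen_compl.mem_nhds hz] with w hw
        simp only [hY]
        rw [image_eq_zero_of_notMem_tsupport hw, zero_smul]
      exact contDiffAt_const.congr_of_eventuallyEq h1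
  have hYsup : tsupport Y ⊆ tsupport φ := by
    refine closure_mono ?_
    intro z hz hφz
    apply hz
    simp only [hY]
    rw [hφz, zero_smul]
  have hYc : HasCompactSupport Y := hφc.mono' (subset_closure.trans hYsup)
  have hst := hV.stat Y hYs hYc (hYsup.trans (hφW.trans inter_subset_right))
  have hmeas : MeasurableSet (K ×ˢ (univ : Set (L k))) :=
    hK.isClosed.measurableSet.prod MeasurableSet.univ
  unfold FV
  rw [← hst]
  have e1 : ∫ p in K ×ˢ univ, tr ((fderiv ℝ X p.1) ∘L p.2) ∂V =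
      ∫ p in K ×ˢ univ, tr ((fderiv ℝ Y p.1) ∘L p.2) ∂V := by
    refine setIntegral_congr_fun hmeas ?_
    intro p hp
    have h2 : fderiv ℝ Y p.1 = fderiv ℝ X p.1 := by
      refine Filter.EventuallyEq.fderiv_eq ?_
      filter_upwards [hφ1 p.1 hp.1] with w hw
      simp only [hY]
      rw [hw, one_smul]
    simp only
    rw [h2]
  rw [e1]
  refine setIntegral_eq_integral_of_ae_compl_eq_zero ?_
  filter_upwards [hgap] with p hp hpK
  have hpK' : p.1 ∉ K := fun h => hpK ⟨h, trivial⟩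
  have h3 : fderiv ℝ Y p.1 = 0 := by
    by_cases hz : p.1 ∈ tsupport φ
    · have hzWU := hφW hz
      obtain ⟨h4, h5⟩ := hp hzWU hpK'
      have h6 : HasFDerivAt X (fderiv ℝ X p.1) p.1 :=
        ((hX.contDiffAt (hW.mem_nhds hzWU.1)).differentiableAt one_ne_zero).hasFDerivAt
      have h7 : HasFDerivAt φ (fderiv ℝ φ p.1) p.1 :=
        (hφs.differentiable one_ne_zero p.1).hasFDerivAt
      have h8 : HasFDerivAt Y _ p.1 := h7.smul h6
      rw [h8.fderiv, h4, h5]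
      ext u; simp
    · by_contra hne
      exact hz (hYsup (support_fderiv_subset ℝ hne))
  rw [h3, ContinuousLinearMap.zero_comp, map_zero]

/-- a stationary varifold which near `{|x| ≤ e^L}` lives over the compact `K ⊆ W ∩ U` -/
structure Loc (c : Ch m k) (U W K : Set (Euc k)) (V : Measure (Euc k × L k)) (L : ℝ) : Prop where
  st : Stat m k U V
  opU : IsOpen U
  cpt : IsCompact K
  sub : K ⊆ W ∩ U
  gap : ∀ᵐ p ∂V, p.1 ∈ W ∩ U → ‖c.x p.1‖ ≤ Real.exp L → p.1 ∈ K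

/-- the part of `V` over `K` -/
def VK (V : Measure (Euc k × L k)) (K : Set (Euc k)) : Measure (Euc k × L k) :=
  V.restrict (K ×ˢ univ)

namespace Loc

variable {L : ℝ}

theorem toOn (h : Loc c U W K V L) : On (VK V K) m K where
  fin := ⟨by
    unfold VK
    rw [Measure.restrict_apply_univ]
    exact h.st.fin K h.cpt (h.sub.trans inter_subset_right)⟩
  mem := by
    unfold VK
    have hmeas : MeasurableSet (K ×ˢ (univ : Set (Vf_884.L k))) :=
      h.cpt.isClosed.measurableSet.prod MeasurableSet.univ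
    filter_upwards [ae_restrict_of_ae h.st.conc, ae_restrict_mem hmeas] with p hp hp2
    exact ⟨hp2.1, hp⟩

theorem gap' (h : Loc c U W K V L) (hr : Reg c W D) (hl : l ≤ L) {X : Euc k → Euc k}
    (hX0 : ∀ z ∈ W, ¬ ‖c.x z‖ ≤ Real.exp l → X z = 0 ∧ fderiv ℝ X z = 0)
    (hX : ContDiffOn ℝ 1 X W) : FV (VK V K) X = 0 := by
  refine FV_eq_zero h.st h.opU hr.opnW h.cpt h.sub hX ?_
  filter_upwards [h.gap] with p hp hpW hpK
  refine hX0 p.1 hpW.1 ?_
  intro hle
  exact hpK (hp hpW (hle.trans (Real.exp_le_exp.2 hl)))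

theorem fv1 (h : Loc c U W K V L) (hr : Reg c W D) (hg : Ker g g1) (hl : l ≤ L) :
    FV (VK V K) (X1 c g l) = 0 :=
  h.gap' hr hl (fun _ hz hz2 => X1_zero' hr hg hz hz2) (hr.contDiffOn_X1 hg l)

theorem fv2 (h : Loc c U W K V L) (hr : Reg c W D) (hg : Ker g g1) (hl : l ≤ L) :
    FV (VK V K) (X2 c g l) = 0 :=
  h.gap' hr hl (fun _ hz hz2 => X2_zero' hr hg hz hz2) (hr.contDiffOn_X2 hg l)

theorem fv3 (h : Loc c U W K V L) (hr : Reg c W D) (hg : Ker g1 g2) (hl : l ≤ L) :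
    FV (VK V K) (X3 c g1 l) = 0 :=
  h.gap' hr hl (fun _ hz hz2 => X3_zero' hr hg hz hz2) (hr.contDiffOn_X3 hg l)

end Loc

variable {c0 d0 hh C0 B : ℝ} {zN : Euc k → Euc k}

/-- **OUTPUT OF VF-GL FOR STATIONARY VARIFOLDS** -/
theorem gl_stat {L : ℝ} (hr : Reg c W D) (h : Loc c U W K V L) (hp : Pf g g1 g2 B)
    (hk : KB c K l c0 d0 hh C0 zN) (hc1 : c0 ≤ 1) (Q : ℝ) (hlL : l < L)
    (hL : Metric.closedBall 0 (Real.exp L) ⊆ D) :
    0 ≤ RF c (VK V K) g1 B c0 d0 l ∧ 0 ≤ II c (VK V K) g1 l ∧ 0 ≤ ee c (VK V K) g l ∧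
    EE c (VK V K) g Q l = ee c (VK V K) g l / 2 + bb c (VK V K) g Q l ∧
    (∃ I', HasDerivAt (II c (VK V K) g1) I' l ∧
      |I' - 2 * ee c (VK V K) g l| ≤ Cg m B C0 * ((c0 + d0) * II c (VK V K) g1 l) +
        Cg m B C0 * ((hh ^ 2 + d0) * OO c (VK V K) l)) ∧
    (∃ E', HasDerivAt (EE c (VK V K) g Q) E' l ∧
      |E' - (2 * bb c (VK V K) g Q l + RF c (VK V K) g1 B c0 d0 l)| ≤
        Cg m B C0 * ((c0 + d0) * ee c (VK V K) g l + (c0 + d0) * II c (VK V K) g1 l) +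
        Real.exp ((2 - m) * l) * |er1a c (VK V K) g Q l| +
        Cg m B C0 * ((hh ^ 2 + d0) * OO c (VK V K) l)) ∧
    ee c (VK V K) g l ≤ √(II c (VK V K) g1 l * RF c (VK V K) g1 B c0 d0 l) +
      (Cg m B C0 * ((c0 + d0) * II c (VK V K) g1 l) +
        Cg m B C0 * ((hh ^ 2 + d0) * OO c (VK V K) l)) :=
  gl_out (hr.ok h.cpt (h.sub.trans inter_subset_left)) h.toOn hp hk hc1 Q hlL hL
    (h.fv1 hr hp.pr.k0 hlL.le) (h.fv2 hr hp.pr.k0 hlL.le) (h.fv3 hr hp.pr.k1 hlL.le)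

end Crest.Agent.R234.GL_394
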