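import Crest.Agent.R234.LeS_3
import Crest.Agent.R234.Fx4_281
import Crest.Agent.R234.F35k_433
import Crest.Agent.R234.GL6_394

/-!
R234 (helper3), (LE-mass) of F3: the masses of the chart cylinders over the base point from the
total variation bound of the anomaly, the tilt energy and the area identity.
-/

set_option autoImplicit false

open MeasureTheory Filter Topology Set Metric
open scoped ENNReal NNReal ContDiff InnerProductSpace
open Crest.GeometryTopology.Submanifold Crest.Agent.R234.Vf_884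

noncomputable section

namespace Crest.Agent.R234.F35_354

open Crest.Agent.R234.Main_456 (Frame Msys hgt sep box)
open Crest.Agent.R234.Grot_842 (rπ rρ)
open Crest.Agent.R234.Foot_842 Crest.Agent.R234.Nrm_842 Crest.Agent.R234.Swb_159
open Crest.Agent.R234.Grot_842 Crest.Agent.R234.Ell1_3
open Crest.Agent.R234.Gi_456 (Gr tube foot ch Lo Loi)
open Crest.Agent.R234.GL_394 (VK On)

local notation "adj" => ContinuousLinearMap.adjoint

variable {m n k : ℕ}

/-- **area in the coordinate `c.x`** -/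
theorem int_jB (w : Euc m → Euc n) (Xc : Euc m) (F : Euc m → ℝ) :
    ∫ v, F v * Gi_456.jB w Xc v =
      ∫ X, F (Lo (fderiv ℝ w Xc) (X - Xc)) * dns (fderiv ℝ w X) := by
  set q := fderiv ℝ w Xc with hq
  have hdet : (Loi q).det ≠ 0 := by
    intro h0
    have h1 := F35k_433.abs_det_Loi q
    rw [h0, abs_zero] at h1
    have := inv_pos.2 (dns_pos q)
    linarith
  have h1 := F35k_433.integral_comp_lin (vol := (volume : Measure (Euc m))) hdet
    (fun X => F (Lo q (X - Xc)) * dns (fderiv ℝ w X)) Xc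
  rw [← h1, F35k_433.abs_det_Loi, ← integral_const_mul]
  refine integral_congr_ae (Eventually.of_forall fun v => ?_)
  show F v * (dns (fderiv ℝ w (Xc + Loi q v)) / (Lo q).det) =
    (dns q)⁻¹ * (F (Lo q (Xc + Loi q v - Xc)) * dns (fderiv ℝ w (Xc + Loi q v)))
  rw [add_sub_cancel_left, Gi_456.Lo_Loi, Gi_456.det_Lo]
  ring

/-- volume of a closed ball -/
theorem vol_cb (m : ℕ) {a : ℝ} (ha : 0 < a) :
    (volume : Measure (Euc m)).real (closedBall 0 a) = ome m * a ^ m := by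
  have h1 := ome_pos m
  rw [measureReal_def, Measure.addHaar_closedBall volume 0 ha.le, finrank_euclideanSpace,
    Fintype.card_fin, ← ofReal_ome, ← ENNReal.ofReal_mul (by positivity),
    ENNReal.toReal_ofReal (by positivity), mul_comm]

variable {π : Euc k →L[ℝ] Euc m} {ρ : Euc k →L[ℝ] Euc n} {x : Euc k}
  {w : Euc m → Euc n} {Xb : Euc m} {C κ t : ℝ} {q : Euc m →L[ℝ] Euc n} {H : Euc m →L[ℝ] Euc m}
  {H' : Euc n →L[ℝ] Euc n} {w' u : Euc m → Euc n} {T : Ft_209.Dif k} {e : ℝ}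

theorem tau_nonneg {r : ℝ} (hf : Frame π ρ) (Xc : Euc m) (z : Euc k) {P : L k} (hP : P ∈ G m k) :
    0 ≤ (ch π ρ x r w Xc).tau z P :=
  Fm_281.tau0_nonneg' (Fm_281.split_of_frame' hf) (fderiv ℝ w (foot π ρ x r w z)) hP

namespace Bp

variable (h : Bp π ρ x w Xb C κ t q H H' w' u T e)
include h

theorem continuous_zc : Continuous (zc t q H w Xb) :=
  continuous_iff_continuousAt.2 fun X => (h.zm.hasFDerivAt_zc X).continuousAt

/-- base points over the ball of radius `a` -/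
theorem near_of_zc {X : Euc m} {a : ℝ} (ha : a ≤ 5) (h1 : ‖X - Xb‖ ≤ 6 * t)
    (h2 : ‖zc t q H w Xb X‖ ≤ a) : ‖X - Xb‖ ≤ 21 / 4 * t := by
  have h3 := h.zm.le_norm_zc h1
  have ht := h.zm.t0
  have h4 : 65 / 64 * ‖zc t q H w Xb X‖ ≤ 21 / 4 := by linarith
  calc _ ≤ _ := h3
    _ ≤ t * (21 / 4) := by gcongr
    _ = _ := by ring

/-- the area over the ball of radius `a` -/
theorem area_j (Xc : Euc m) {a : ℝ} (ha : a ≤ 5) :
    ∫ v, indicator {v | ‖Gi_456.pt w Xc v - Xb‖ ≤ 6 * t ∧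
        ‖zc t q H w Xb (Gi_456.pt w Xc v)‖ ≤ a} (fun _ => (1:ℝ)) v * Gi_456.jB w Xc v =
      t ^ m * ∫ y in closedBall (0 : Euc m) a, dns (fderiv ℝ u y) := by
  have ht := h.zm.t0
  rw [int_jB]
  have h1 := h.zm.area (f := indicator (closedBall (0 : Euc m) a) (fun _ => (1:ℝ)))
    (fun y hy => indicator_of_notMem (fun h2 => by
      have := mem_closedBall_zero_iff.1 h2
      linarith) _)
  have h2 : ∀ y : Euc m, indicator (closedBall (0 : Euc m) a) (fun _ => (1:ℝ)) y *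
      dns (fderiv ℝ u y) = indicator (closedBall (0 : Euc m) a) (fun y => dns (fderiv ℝ u y)) y := by
    intro y
    by_cases hy : y ∈ closedBall (0 : Euc m) a
    · rw [indicator_of_mem hy, indicator_of_mem hy, one_mul]
    · rw [indicator_of_notMem hy, indicator_of_notMem hy, zero_mul]
  simp_rw [h2] at h1
  rw [integral_indicator measurableSet_closedBall] at h1
  rw [← h1, ← integral_indicator measurableSet_ball]
  refine integral_congr_ae (Eventually.of_forall fun X => ?_)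
  simp only
  have hpt : Gi_456.pt w Xc (Lo (fderiv ℝ w Xc) (X - Xc)) = X := F35k_433.pt_Lo w Xc X
  by_cases hX : ‖X - Xb‖ ≤ 6 * t ∧ ‖zc t q H w Xb X‖ ≤ a
  · have h3 := h.near_of_zc ha hX.1 hX.2
    rw [indicator_of_mem (show Lo (fderiv ℝ w Xc) (X - Xc) ∈ _ by
        simp only [mem_ofPred_eq]; rw [hpt]; exact hX),
      indicator_of_mem (show X ∈ ball Xb (6 * t) by
        rw [mem_ball_iff_norm]; linarith),
      indicator_of_mem (show zc t q H w Xb X ∈ closedBall (0 : Euc m) a from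
        mem_closedBall_zero_iff.2 hX.2)]
  · rw [indicator_of_notMem (show Lo (fderiv ℝ w Xc) (X - Xc) ∉ _ by
        simp only [mem_ofPred_eq]; rw [hpt]; exact hX), zero_mul]
    by_cases hX2 : X ∈ ball Xb (6 * t)
    · rw [indicator_of_mem hX2, indicator_of_notMem (show zc t q H w Xb X ∉ closedBall (0 : Euc m) a
        from fun h4 => hX ⟨(mem_ball_iff_norm.1 hX2).le, mem_closedBall_zero_iff.1 h4⟩), zero_mul]
    · rw [indicator_of_notMem hX2]

/-- bounds of the area -/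
theorem area_bd {Cd : ℝ} (hCd : ∀ p : Euc m →L[ℝ] Euc n, ‖p‖ ≤ 1 / 4 → dns p ≤ 1 + Cd * ‖p‖ ^ 2)
    (hCd0 : 0 ≤ Cd) {a : ℝ} (ha : 0 < a) :
    ome m * a ^ m ≤ ∫ y in closedBall (0 : Euc m) a, dns (fderiv ℝ u y) ∧
      ∫ y in closedBall (0 : Euc m) a, dns (fderiv ℝ u y) ≤
        (1 + Cd * (C * κ * t) ^ 2) * (ome m * a ^ m) := by
  have hc : Continuous fun y => dns (fderiv ℝ u y) :=
    dns_contDiff.continuous.comp (h.zm.sm.continuous_fderiv (by simp))
  have hi : IntegrableOn (fun y => dns (fderiv ℝ u y)) (closedBall (0 : Euc m) a) :=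
    hc.continuousOn.integrableOn_compact (isCompact_closedBall _ _)
  have hfin : volume (closedBall (0 : Euc m) a) ≠ ⊤ := measure_closedBall_lt_top.ne
  have hu : ∀ y, ‖fderiv ℝ u y‖ ≤ 1 / 4 := fun y =>
    (h.zm.norm_dU y).trans (h.zm.Cκt.trans (by norm_num))
  constructor
  · calc ome m * a ^ m = ∫ _y in closedBall (0 : Euc m) a, (1:ℝ) := by
          rw [setIntegral_const, vol_cb m ha, smul_eq_mul, mul_one]
      _ ≤ _ := setIntegral_mono (integrableOn_const hfin) hi fun y => one_le_dns _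
  · calc ∫ y in closedBall (0 : Euc m) a, dns (fderiv ℝ u y) ≤
          ∫ _y in closedBall (0 : Euc m) a, (1 + Cd * (C * κ * t) ^ 2) := by
            refine setIntegral_mono hi (integrableOn_const hfin) fun y => ?_
            refine (hCd _ (hu y)).trans ?_
            have := h.zm.norm_dU y
            gcongr
      _ = _ := by rw [setIntegral_const, vol_cb m ha, smul_eq_mul, mul_comm]

/-- the foot set over the ball of radius `a` is compact -/
theorem isCompact_FS {K : Set (Euc k)} (hK : IsCompact K) (hKt : K ⊆ tube π ρ x 1 w) (a : ℝ) :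
    IsCompact {z | z ∈ K ∧ ‖foot π ρ x 1 w z - Xb‖ ≤ 6 * t ∧
      ‖zc t q H w Xb (foot π ρ x 1 w z)‖ ≤ a} := by
  have h0 : ContinuousOn (foot π ρ x 1 w) K := (h.gr.continuousOn_foot h.fr).mono hKt
  have h1 : ContinuousOn (fun z => ‖zc t q H w Xb (foot π ρ x 1 w z)‖) K :=
    (h.continuous_zc.comp_continuousOn h0).norm
  have h2 := isCompact_footset h.gr h.fr hK hKt Xb (6 * t)
  have h3 : IsClosed (K ∩ (fun z => ‖zc t q H w Xb (foot π ρ x 1 w z)‖) ⁻¹' Iic a) :=
    h1.preimage_isClosed_of_isClosed hK.isClosed isClosed_Iic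
  have h4 := h2.inter_right h3
  have h5 : {z | z ∈ K ∧ ‖foot π ρ x 1 w z - Xb‖ ≤ 6 * t ∧
      ‖zc t q H w Xb (foot π ρ x 1 w z)‖ ≤ a} = {z | z ∈ K ∧ ‖foot π ρ x 1 w z - Xb‖ ≤ 6 * t} ∩
        (K ∩ (fun z => ‖zc t q H w Xb (foot π ρ x 1 w z)‖) ⁻¹' Iic a) := by
    ext z
    constructor
    · rintro ⟨a, b, c⟩
      exact ⟨⟨a, b⟩, a, c⟩
    · rintro ⟨⟨a, b⟩, -, c⟩
      exact ⟨a, b, c⟩
  rw [h5]
  exact h4

/-- **the mass over the ball of radius `a`** -/
theorem mass_FS (Xc : Euc m) {K U : Set (Euc k)} {Dd : VarifoldData m k} {Q : ℕ}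
    {ev : Measure (Euc m)} [IsFiniteMeasure ev]
    (hD : IsIntegralVarifoldIn U Dd) (hK : IsCompact K) (hKt : K ⊆ tube π ρ x 1 w) (hKU : K ⊆ U)
    (htv : ∀ F : Euc m → ℝ, Measurable F → (∃ b : ℝ, ∀ v, |F v| ≤ b) →
      (∀ v, v ∉ closedBall (Lo (fderiv ℝ w Xc) (Xb - Xc)) (6 * t) → F v = 0) →
      |∫ p, F ((ch π ρ x 1 w Xc).x p.1) * (1 - (ch π ρ x 1 w Xc).tau p.1 p.2 / 2)
        ∂(VK (VD Dd) K) - Q * ∫ v, F v * (ch π ρ x 1 w Xc).j v| ≤ ∫ v, |F v| ∂ev)
    {a : ℝ} (ha0 : 0 < a) (ha : a ≤ 5) :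
    |(VD Dd).real ({z | z ∈ K ∧ ‖foot π ρ x 1 w z - Xb‖ ≤ 6 * t ∧
        ‖zc t q H w Xb (foot π ρ x 1 w z)‖ ≤ a} ×ˢ univ) -
      Q * (t ^ m * ∫ y in closedBall (0 : Euc m) a, dns (fderiv ℝ u y))| ≤
      1 / 2 * ∫ p in {z | z ∈ K ∧ ‖foot π ρ x 1 w z - Xb‖ ≤ 14 * t} ×ˢ univ,
        (ch π ρ x 1 w Xc).tau p.1 p.2 ∂(VD Dd) +
      ev.real (closedBall (Lo (fderiv ℝ w Xc) (Xb - Xc)) (6 * t)) := by
  have ht := h.zm.t0
  set c := ch π ρ x 1 w Xc with hc
  set S := {z | z ∈ K ∧ ‖foot π ρ x 1 w z - Xb‖ ≤ 6 * t ∧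
        ‖zc t q H w Xb (foot π ρ x 1 w z)‖ ≤ a} with hS
  set S' := {z | z ∈ K ∧ ‖foot π ρ x 1 w z - Xb‖ ≤ 14 * t} with hS'
  set A := {v | ‖Gi_456.pt w Xc v - Xb‖ ≤ 6 * t ∧ ‖zc t q H w Xb (Gi_456.pt w Xc v)‖ ≤ a} with hA
  have hSc : IsCompact S := h.isCompact_FS hK hKt a
  have hSc' : IsCompact S' := isCompact_footset h.gr h.fr hK hKt Xb _
  have hSS' : S ⊆ S' := fun z hz => ⟨hz.1, hz.2.1.trans (by linarith)⟩
  have hmS : MeasurableSet (S ×ˢ (univ : Set (L k))) := hSc.measurableSet.prod MeasurableSet.univ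
  have hmS' : MeasurableSet (S' ×ˢ (univ : Set (L k))) := hSc'.measurableSet.prod MeasurableSet.univ
  have hmK : MeasurableSet (K ×ˢ (univ : Set (L k))) := hK.measurableSet.prod MeasurableSet.univ
  -- the test function
  have hptc : Continuous (Gi_456.pt w Xc) := by
    unfold Gi_456.pt
    fun_prop
  have hAc : IsClosed A := by
    have h1 : IsClosed {v | ‖Gi_456.pt w Xc v - Xb‖ ≤ 6 * t} :=
      isClosed_le (hptc.sub continuous_const).norm continuous_const
    have h2 : IsClosed {v | ‖zc t q H w Xb (Gi_456.pt w Xc v)‖ ≤ a} :=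
      isClosed_le (h.continuous_zc.comp hptc).norm continuous_const
    exact h1.inter h2
  set F : Euc m → ℝ := indicator A (fun _ => (1:ℝ)) with hF
  have hF01 : ∀ v, 0 ≤ F v ∧ F v ≤ 1 := by
    intro v
    by_cases hv : v ∈ A
    · rw [hF, indicator_of_mem hv]; norm_num
    · rw [hF, indicator_of_notMem hv]; norm_num
  have hFabs : ∀ v, |F v| = F v := fun v => abs_of_nonneg (hF01 v).1
  have hFs : ∀ v, v ∉ closedBall (Lo (fderiv ℝ w Xc) (Xb - Xc)) (6 * t) → F v = 0 := by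
    intro v hv
    refine indicator_of_notMem (fun hvA => hv ?_) _
    have h1 := h.near_of_zc ha hvA.1 hvA.2
    rw [mem_closedBall_iff_norm]
    have e1 : v = Lo (fderiv ℝ w Xc) (Gi_456.pt w Xc v - Xc) := by
      show v = Lo _ (Xc + Loi _ v - Xc)
      rw [add_sub_cancel_left, Gi_456.Lo_Loi]
    have e2 : v - Lo (fderiv ℝ w Xc) (Xb - Xc) =
        Lo (fderiv ℝ w Xc) (Gi_456.pt w Xc v - Xb) := by
      conv_lhs => rw [e1]
      rw [← map_sub]
      congr 1
      abel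
    rw [e2]
    refine (Gi_456.norm_Lo_le (h.gr.d1 Xc) _).trans ?_
    linarith
  have h1 := htv F (measurable_const.indicator hAc.measurableSet) ⟨1, fun v => by
    rw [hFabs]; exact (hF01 v).2⟩ hFs
  -- the right hand side
  have h2 : ∫ v, |F v| ∂ev ≤ ev.real (closedBall (Lo (fderiv ℝ w Xc) (Xb - Xc)) (6 * t)) := by
    rw [← integral_indicator_one measurableSet_closedBall]
    refine integral_mono_of_nonneg (Eventually.of_forall fun v => abs_nonneg _)
      ((integrable_const 1).indicator measurableSet_closedBall) (Eventually.of_forall fun v => ?_)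
    by_cases hv : v ∈ closedBall (Lo (fderiv ℝ w Xc) (Xb - Xc)) (6 * t)
    · show |F v| ≤ indicator _ _ v
      rw [indicator_of_mem hv, hFabs]
      exact (hF01 v).2
    · show |F v| ≤ indicator _ _ v
      rw [indicator_of_notMem hv, hFs v hv, abs_zero]
  -- the area
  have h3 : ∫ v, F v * c.j v = t ^ m * ∫ y in closedBall (0 : Euc m) a, dns (fderiv ℝ u y) :=
    h.area_j Xc ha
  -- the integral over the varifold
  have hon : On ((VD Dd).restrict (S' ×ˢ univ)) m S' := by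
    refine ⟨⟨?_⟩, ?_⟩
    · rw [Measure.restrict_apply_univ]
      exact VD_fin hD hSc' (fun z hz => hKU hz.1)
    · filter_upwards [ae_restrict_of_ae (VD_conc hD), ae_restrict_mem hmS'] with p hp hp2
      exact ⟨hp2.1, hp⟩
  have hreg := h.gr.reg h.fr (x := x) Xc
  have htau : IntegrableOn (fun p : Euc k × L k => c.tau p.1 p.2) (S' ×ˢ univ) (VD Dd) :=
    hon.integrable hSc' (hreg.ctau.mono (prod_mono (fun z hz => hKt hz.1) (Subset.refl _)))
  have hfinS : IsFiniteMeasure ((VD Dd).restrict (S ×ˢ univ)) := ⟨by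
    rw [Measure.restrict_apply_univ]
    exact VD_fin hD hSc (fun z hz => hKU hz.1)⟩
  have htauS : IntegrableOn (fun p : Euc k × L k => c.tau p.1 p.2) (S ×ˢ univ) (VD Dd) :=
    htau.mono_set (prod_mono hSS' (Subset.refl _))
  have h4 : ∫ p, F (c.x p.1) * (1 - c.tau p.1 p.2 / 2) ∂(VK (VD Dd) K) =
      (VD Dd).real (S ×ˢ univ) - 1 / 2 * ∫ p in S ×ˢ univ, c.tau p.1 p.2 ∂(VD Dd) := by
    have e1 : ∫ p, F (c.x p.1) * (1 - c.tau p.1 p.2 / 2) ∂(VK (VD Dd) K) =
        ∫ p in K ×ˢ univ, indicator (S ×ˢ univ) (fun p => 1 - c.tau p.1 p.2 / 2) p ∂(VD Dd) := by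
      show ∫ p in K ×ˢ univ, F (c.x p.1) * (1 - c.tau p.1 p.2 / 2) ∂(VD Dd) = _
      refine setIntegral_congr_fun hmK fun p hp => ?_
      have hpt : Gi_456.pt w Xc (c.x p.1) = foot π ρ x 1 w p.1 := F35k_433.pt_ch_x Xc p.1
      by_cases hpS : p.1 ∈ S
      · have : c.x p.1 ∈ A := by
          simp only [hA, mem_ofPred_eq]
          rw [hpt]
          exact hpS.2
        rw [hF, indicator_of_mem this,
          indicator_of_mem (show p ∈ S ×ˢ (univ : Set (L k)) from ⟨hpS, mem_univ _⟩), one_mul]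
      · have : c.x p.1 ∉ A := by
          simp only [hA, mem_ofPred_eq]
          rw [hpt]
          exact fun h5 => hpS ⟨hp.1, h5⟩
        rw [hF, indicator_of_notMem this,
          indicator_of_notMem (show p ∉ S ×ˢ (univ : Set (L k)) from fun h5 => hpS h5.1), zero_mul]
    rw [e1, setIntegral_indicator hmS, show (K ×ˢ (univ : Set (L k))) ∩ S ×ˢ univ = S ×ˢ univ from
      inter_eq_right.2 (prod_mono (fun z hz => hz.1) (Subset.refl _))]
    rw [integral_sub (integrable_const _) (htauS.div_const 2)]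
    rw [setIntegral_const, smul_eq_mul, mul_one, integral_div]
    ring
  have h5 : 0 ≤ ∫ p in S ×ˢ univ, c.tau p.1 p.2 ∂(VD Dd) := by
    refine setIntegral_nonneg_of_ae_restrict ?_
    filter_upwards [ae_restrict_of_ae (VD_conc hD)] with p hp
    exact tau_nonneg h.fr Xc p.1 hp
  have h6 : ∫ p in S ×ˢ univ, c.tau p.1 p.2 ∂(VD Dd) ≤
      ∫ p in S' ×ˢ univ, c.tau p.1 p.2 ∂(VD Dd) := by
    refine setIntegral_mono_set htau ?_ (Eventually.of_forall
      (prod_mono hSS' (Subset.refl _)))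
    filter_upwards [ae_restrict_of_ae (VD_conc hD)] with p hp
    exact tau_nonneg h.fr Xc p.1 hp
  rw [h4, h3] at h1
  have h7 := abs_le.1 (h1.trans h2)
  rw [abs_le]
  constructor <;> linarith [h7.1, h7.2]

end Bp

end Crest.Agent.R234.F35_354
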