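import Crest.Agent.R234.F39_354
import Crest.Agent.R234.LeM_3
import Crest.Agent.R234.F35k_433

/-!
# Row 234 (helper534), (b2) of F3: the kernel at a point and the test function of the local estimate

`b2P_of : F37_354.B2P m n k Q`.
-/

set_option autoImplicit false

open MeasureTheory Filter Topology Set Metric
open scoped ENNReal NNReal ContDiff InnerProductSpace
open Crest.GeometryTopology.Submanifold Crest.Agent.R234.Vf_884

noncomputable section

namespace Crest.Agent.R234.B2_534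

open Crest.Agent.R234.Main_456 (Frame)
open Crest.Agent.R234.Gi_456 (Gr tube foot ch Lo Loi jB)
open Crest.Agent.R234.GL_394 (VK On Ok)
open Crest.Agent.R234.Foot_842 (pt)
open Crest.Agent.R234.Nrm_842 (Zm zc)
open Crest.Agent.R234.Fm_281 (Nt Bf fB)
open Crest.Agent.R234.F35_354 (Bp)
open Crest.Agent.R234.F37_354 (Am B2P)
open Crest.Agent.R234.Ell1_3 (dns)
open Crest.Agent.R234.F35k_433 (bv)

variable {m n k : ℕ} {π : Euc k →L[ℝ] Euc m} {ρ : Euc k →L[ℝ] Euc n} {x : Euc k}
  {w : Euc m → Euc n} {Xc X : Euc m} {t : ℝ} {U K : Set (Euc k)} {Dd : VarifoldData m k}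
  {C κ e : ℝ} {q : Euc m →L[ℝ] Euc n} {H : Euc m →L[ℝ] Euc m} {H' : Euc n →L[ℝ] Euc n}
  {w' u : Euc m → Euc n} {T : Ft_209.Dif k}

/-- the test function of the local estimate in the coordinate of the chart -/
def Fv (w u : Euc m → Euc n) (Xc X : Euc m) (t : ℝ) (q : Euc m →L[ℝ] Euc n)
    (H : Euc m →L[ℝ] Euc m) (v : Euc m) : ℝ := Bf t q H w u X (Gi_456.pt w Xc v)

theorem continuous_pt (w : Euc m → Euc n) (Xc : Euc m) : Continuous (Gi_456.pt w Xc) := by
  unfold Gi_456.pt
  fun_prop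

/-- bounded measurable functions of the coordinate are integrable -/
theorem int_F (h : Am π ρ x w Xc X t U K Dd) {F : Euc m → ℝ} (hF : Measurable F) {b : ℝ}
    (hb : ∀ v, |F v| ≤ b) :
    Integrable (fun p : Euc k × L k => F ((ch π ρ x 1 w Xc).x p.1) *
      (1 - (ch π ρ x 1 w Xc).tau p.1 p.2 / 2)) (VK (VD Dd) K) := by
  have hon := h.on
  have := hon.fin
  have hKm : MeasurableSet (K ×ˢ (univ : Set (L k))) := h.cpt.isClosed.measurableSet.prod .univ
  have h1 : Integrable (fun p : Euc k × L k => 1 - (ch π ρ x 1 w Xc).tau p.1 p.2 / 2)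
      (VK (VD Dd) K) := by
    refine hon.integrable h.cpt ?_
    exact continuousOn_const.sub (h.ok.ctau.div_const 2)
  have h0 : AEMeasurable (fun p : Euc k × L k => (ch π ρ x 1 w Xc).x p.1) (VK (VD Dd) K) := by
    unfold GL_394.VK
    refine ContinuousOn.aemeasurable (s := K ×ˢ univ) ?_ hKm
    exact h.ok.cx.comp continuousOn_fst (fun p hp => hp.1)
  refine h1.bdd_mul (c := b) (hF.comp_aemeasurable h0).aestronglyMeasurable
    (Eventually.of_forall fun p => ?_)
  exact hb _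

/-- integrability against the area density -/
theorem int_j (h : Gr 1 w) (Xc : Euc m) {F : Euc m → ℝ} (hF : Measurable F) {b : ℝ}
    (hb : ∀ v, |F v| ≤ b) {v0 : Euc m} {s : ℝ} (hs : ∀ v, v ∉ closedBall v0 s → F v = 0) :
    Integrable (fun v => F v * jB w Xc v) := by
  have hc : Continuous (jB w Xc) := (h.contDiff_j Xc).continuous
  have h1 : IntegrableOn (jB w Xc) (closedBall v0 s) :=
    hc.continuousOn.integrableOn_compact (isCompact_closedBall _ _)
  have h2 : IntegrableOn (fun v => F v * jB w Xc v) (closedBall v0 s) := by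
    refine h1.bdd_mul (c := b) hF.aestronglyMeasurable (Eventually.of_forall fun p => ?_)
    exact hb _
  refine h2.integrable_of_forall_notMem_eq_zero fun v hv => ?_
  rw [hs v hv, zero_mul]

/-- the kernel in terms of the zoomed coordinate -/
theorem bv_eq (h : Bp π ρ x w X C κ t q H H' w' u T e) (Xc v : Euc m) :
    bv w Xc t (Lo (fderiv ℝ w Xc) (X - Xc)) v =
      max 0 (1 - ‖zc t q H w X (Gi_456.pt w Xc v)‖ ^ 2) := by
  unfold F35k_433.bv
  rw [F35k_433.pt_Lo, F35k_433.beta_zc h.fr h.zm]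

theorem bump_eq (y : Euc m) : Loc1_290.bump 1 0 y = max 0 (1 - ‖y‖ ^ 2) := by
  unfold Loc1_290.bump
  rw [sub_zero, one_pow, div_one]

theorem measurable_bv (h : Bp π ρ x w X C κ t q H H' w' u T e) (Xc : Euc m) :
    Measurable (bv w Xc t (Lo (fderiv ℝ w Xc) (X - Xc))) := by
  have h1 : bv w Xc t (Lo (fderiv ℝ w Xc) (X - Xc)) =
      fun v => max 0 (1 - ‖zc t q H w X (Gi_456.pt w Xc v)‖ ^ 2) := funext fun v => bv_eq h Xc v
  rw [h1]
  have h2 : Continuous fun v => zc t q H w X (Gi_456.pt w Xc v) :=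
    h.continuous_zc.comp (continuous_pt w Xc)
  exact (continuous_const.max (continuous_const.sub (h2.norm.pow 2))).measurable

theorem measurable_Fv (h : Bp π ρ x w X C κ t q H H' w' u T e) (Xc : Euc m) :
    Measurable (Fv w u Xc X t q H) := by
  have h1 : Measurable (Bf t q H w u X) := by
    unfold Fm_281.Bf
    exact ((Fm_281.measurable_fB (Fm_281.cdU h.zm)).comp h.continuous_zc.measurable).indicator
      measurableSet_ball
  exact h1.comp (continuous_pt w Xc).measurable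

theorem Fv_nonneg (Xc v : Euc m) : 0 ≤ Fv w u Xc X t q H v := by
  unfold Fv Fm_281.Bf
  exact indicator_nonneg (fun _ _ => Fm_281.fB_nonneg _ _) _

theorem Fv_le (Xc v : Euc m) : Fv w u Xc X t q H v ≤ 1 := by
  unfold Fv Fm_281.Bf
  exact indicator_le' (fun _ _ => Fm_281.fB_le _ _) (fun _ _ => zero_le_one) _

theorem bv_mem (h : Bp π ρ x w X C κ t q H H' w' u T e) (Xc v : Euc m) :
    0 ≤ bv w Xc t (Lo (fderiv ℝ w Xc) (X - Xc)) v ∧
      bv w Xc t (Lo (fderiv ℝ w Xc) (X - Xc)) v ≤ 1 := by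
  rw [bv_eq h]
  refine ⟨le_max_left _ _, max_le zero_le_one ?_⟩
  have := sq_nonneg ‖zc t q H w X (Gi_456.pt w Xc v)‖
  linarith

/-- points of the coordinate near the base point -/
theorem near_v (hw : Gr 1 w) (Xc X v : Euc m) :
    ‖v - Lo (fderiv ℝ w Xc) (X - Xc)‖ ≤ 65 / 64 * ‖Gi_456.pt w Xc v - X‖ := by
  have e1 : v = Lo (fderiv ℝ w Xc) (Gi_456.pt w Xc v - Xc) := by
    show v = Lo _ (Xc + Loi _ v - Xc)
    rw [add_sub_cancel_left, Gi_456.Lo_Loi]
  have e2 : v - Lo (fderiv ℝ w Xc) (X - Xc) =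
      Lo (fderiv ℝ w Xc) (Gi_456.pt w Xc v - X) := by
    conv_lhs => rw [e1]
    rw [← map_sub]
    congr 1
    abel
  rw [e2]
  exact Gi_456.norm_Lo_le (hw.d1 Xc) _

/-- **pointwise difference** -/
theorem diff_le {Cd : ℝ} (hCd0 : 0 ≤ Cd)
    (hCd : ∀ p : Euc m →L[ℝ] Euc n, ‖p‖ ≤ 1 / 4 → dns p ≤ 1 + Cd * ‖p‖ ^ 2)
    (h : Bp π ρ x w X C κ t q H H' w' u T e) (Xc v : Euc m) :
    |bv w Xc t (Lo (fderiv ℝ w Xc) (X - Xc)) v - Fv w u Xc X t q H v| ≤
      (closedBall (Lo (fderiv ℝ w Xc) (X - Xc)) (2 * t)).indicator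
        (fun _ => Cd * (C * κ * t) ^ 2) v := by
  have ht := h.zm.t0
  set Y := Gi_456.pt w Xc v with hY
  set v0 := Lo (fderiv ℝ w Xc) (X - Xc) with hv0
  have hind0 : 0 ≤ (closedBall v0 (2 * t)).indicator (fun _ => Cd * (C * κ * t) ^ 2) v :=
    indicator_nonneg (fun _ _ => by positivity) _
  by_cases hX : ‖Y - X‖ < 6 * t
  · have e2 : Fv w u Xc X t q H v = fB u (zc t q H w X Y) := by
      unfold Fv Fm_281.Bf
      rw [indicator_of_mem (mem_ball_iff_norm.2 hX)]
    have e3 : bv w Xc t v0 v = Loc1_290.bump 1 0 (zc t q H w X Y) := by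
      rw [hv0, bv_eq h, bump_eq]
    by_cases hz : ‖zc t q H w X Y‖ < 1
    · have h1 : ‖Y - X‖ ≤ 65 / 64 * t := by
        refine (h.zm.le_norm_zc hX.le).trans ?_
        nlinarith
      have h2 : v ∈ closedBall v0 (2 * t) := by
        rw [mem_closedBall_iff_norm]
        refine (near_v h.gr Xc X v).trans ?_
        rw [← hY]
        linarith
      rw [indicator_of_mem h2, e2, e3]
      have h3 := h.zm.norm_dU (zc t q H w X Y)
      have h4 := hCd _ (h3.trans (h.zm.Cκt.trans (by norm_num)))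
      have h5 := Nrm_842.one_le_dns (fderiv ℝ u (zc t q H w X Y))
      have h6 : ‖fderiv ℝ u (zc t q H w X Y)‖ ^ 2 ≤ (C * κ * t) ^ 2 :=
        pow_le_pow_left₀ (norm_nonneg _) h3 2
      have h7 : Cd * ‖fderiv ℝ u (zc t q H w X Y)‖ ^ 2 ≤ Cd * (C * κ * t) ^ 2 :=
        mul_le_mul_of_nonneg_left h6 hCd0
      have h8 := Loc1_290.bump_nonneg 1 0 (zc t q H w X Y)
      have h9 := Loc1_290.bump_le_one 1 0 (zc t q H w X Y)
      have h10 := Fm_281.fB_mul u (zc t q H w X Y)
      have h11 := Fm_281.fB_nonneg u (zc t q H w X Y)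
      have h12 := Fm_281.fB_le u (zc t q H w X Y)
      obtain ⟨d, hd⟩ : ∃ d, d = dns (fderiv ℝ u (zc t q H w X Y)) := ⟨_, rfl⟩
      obtain ⟨f, hf⟩ : ∃ f, f = fB u (zc t q H w X Y) := ⟨_, rfl⟩
      rw [← hd] at h4 h5 h10
      rw [← hf] at h10 h11 h12 ⊢
      rw [← h10]
      have e4 : f * d - f = f * (d - 1) := by ring
      have h13 : 0 ≤ d - 1 := by linarith
      rw [e4, abs_of_nonneg (mul_nonneg h11 h13)]
      calc f * (d - 1) ≤ 1 * (d - 1) := mul_le_mul_of_nonneg_right h12 h13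
        _ ≤ _ := by linarith
    · rw [not_lt] at hz
      have h1 : fB u (zc t q H w X Y) = 0 := Fm_281.fB_zero u hz
      have h2 : Loc1_290.bump 1 0 (zc t q H w X Y) = 0 :=
        Loc1_290.bump_eq_zero one_pos (by rwa [sub_zero])
      rw [e2, e3, h1, h2, sub_zero, abs_zero]
      exact hind0
  · have e2 : Fv w u Xc X t q H v = 0 := by
      unfold Fv Fm_281.Bf
      rw [indicator_of_notMem (fun h2 => hX (mem_ball_iff_norm.1 h2))]
    have e3 : bv w Xc t v0 v = 0 := by
      refine F35k_433.bv_zero h.gr Xc ht ?_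
      rw [hv0, F35k_433.pt_Lo, ← hY]
      linarith
    rw [e2, e3, sub_zero, abs_zero]
    exact hind0

/-- **(b2)** -/
theorem b2P_of (m n k Q : ℕ) : B2P m n k Q := by
  obtain ⟨Cd, hCd1, hCd⟩ := Nrm_842.exists_dns_le m n
  have hCd0 : 0 ≤ Cd := by linarith
  refine ⟨Cd, hCd0, ?_⟩
  intro π ρ x w Xc X t U K Dd C κ e q H H' w' u T E hA hB hE habs
  have ht := hB.zm.t0
  have := hE
  set c := ch π ρ x 1 w Xc with hc
  set v0 := Lo (fderiv ℝ w Xc) (X - Xc) with hv0
  have hd := diff_le hCd0 hCd hB Xc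
  have m1 : Measurable (bv w Xc t v0) := measurable_bv hB Xc
  have m2 : Measurable (Fv w u Xc X t q H) := measurable_Fv hB Xc
  have b1 : ∀ v, |bv w Xc t v0 v| ≤ 1 := fun v => by
    have h1 := bv_mem hB Xc v
    rw [abs_of_nonneg h1.1]
    exact h1.2
  have b2 : ∀ v, |Fv w u Xc X t q H v| ≤ 1 := fun v => by
    rw [abs_of_nonneg (Fv_nonneg Xc v)]
    exact Fv_le Xc v
  have z0 : ∀ v, v ∉ closedBall v0 (2 * t) →
      bv w Xc t v0 v - Fv w u Xc X t q H v = 0 := fun v hv => by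
    have h1 := hd v
    rw [indicator_of_notMem hv] at h1
    exact abs_eq_zero.1 (le_antisymm h1 (abs_nonneg _))
  have z1 : ∀ v, v ∉ closedBall v0 (6 * t) → bv w Xc t v0 v = 0 := fun v hv => by
    refine F35k_433.bv_zero hB.gr Xc ht ?_
    rw [hv0, F35k_433.pt_Lo]
    rw [mem_closedBall_iff_norm, not_le] at hv
    have h1 := near_v hB.gr Xc X v
    rw [← hv0] at h1
    linarith
  have z2 : ∀ v, v ∉ closedBall v0 (6 * t) → Fv w u Xc X t q H v = 0 := fun v hv => by
    have h1 := z0 v (fun h2 => hv (closedBall_subset_closedBall (by linarith) h2))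
    rw [z1 v hv] at h1
    linarith
  have h1 := habs (fun v => bv w Xc t v0 v - Fv w u Xc X t q H v) (m1.sub m2)
    ⟨2, fun v => by
      refine (abs_sub _ _).trans ?_
      have := b1 v
      have := b2 v
      linarith⟩
    (fun v hv => by
      rw [z1 v hv, z2 v hv, sub_zero])
  have i1 := int_F hA m1 b1
  have i2 := int_F hA m2 b2
  have j1 := int_j hB.gr Xc m1 b1 z1
  have j2 := int_j hB.gr Xc m2 b2 z2
  -- the varifold side
  have e1 : ∫ p, (bv w Xc t v0 (c.x p.1) - Fv w u Xc X t q H (c.x p.1)) *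
        (1 - c.tau p.1 p.2 / 2) ∂(VK (VD Dd) K) =
      ∫ p, bv w Xc t v0 (c.x p.1) * (1 - c.tau p.1 p.2 / 2) ∂(VK (VD Dd) K) -
        ∫ p, Fv w u Xc X t q H (c.x p.1) * (1 - c.tau p.1 p.2 / 2) ∂(VK (VD Dd) K) := by
    rw [← integral_sub i1 i2]
    refine integral_congr_ae (Eventually.of_forall fun p => ?_)
    simp only
    ring
  have e2 : ∫ p, Fv w u Xc X t q H (c.x p.1) * (1 - c.tau p.1 p.2 / 2) ∂(VK (VD Dd) K) =
      ∫ p in K ×ˢ univ, Bf t q H w u X (foot π ρ x 1 w p.1) *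
        (1 - Nt π ρ w (foot π ρ x 1 w p.1) p.2 / 2) ∂(VD Dd) := by
    show ∫ p in K ×ˢ univ, Fv w u Xc X t q H (c.x p.1) * (1 - c.tau p.1 p.2 / 2) ∂(VD Dd) = _
    refine integral_congr_ae (Eventually.of_forall fun p => ?_)
    simp only
    unfold Fv
    rw [hc, F35k_433.pt_ch_x]
    rfl
  -- the area side
  have e3 : ∫ v, (bv w Xc t v0 v - Fv w u Xc X t q H v) * c.j v =
      (∫ v, bv w Xc t v0 v * c.j v) - ∫ v, Fv w u Xc X t q H v * c.j v := by
    have j1' : Integrable (fun v => bv w Xc t v0 v * c.j v) := j1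
    have j2' : Integrable (fun v => Fv w u Xc X t q H v * c.j v) := j2
    rw [← integral_sub j1' j2']
    refine integral_congr_ae (Eventually.of_forall fun p => ?_)
    simp only
    ring
  have e4 : ∫ v, Fv w u Xc X t q H v * c.j v =
      ∫ X', Bf t q H w u X X' * dns (fderiv ℝ w X') := by
    have h2 := F35_354.int_jB w Xc (Fv w u Xc X t q H)
    have h3 : ∫ v, Fv w u Xc X t q H v * c.j v = ∫ v, Fv w u Xc X t q H v * jB w Xc v := rfl
    rw [h3, h2]
    refine integral_congr_ae (Eventually.of_forall fun X' => ?_)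
    simp only
    unfold Fv
    rw [F35k_433.pt_Lo]
  -- the error
  have e5 : ∫ v, |bv w Xc t v0 v - Fv w u Xc X t q H v| ∂E ≤
      Cd * (C * κ * t) ^ 2 * E.real (closedBall v0 (2 * t)) := by
    have h2 : ∫ v, (closedBall v0 (2 * t)).indicator (fun _ => Cd * (C * κ * t) ^ 2) v ∂E =
        Cd * (C * κ * t) ^ 2 * E.real (closedBall v0 (2 * t)) := by
      rw [integral_indicator measurableSet_closedBall, setIntegral_const, smul_eq_mul, mul_comm]
    rw [← h2]
    refine integral_mono_of_nonneg (Eventually.of_forall fun v => abs_nonneg _)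
      ((integrable_const _).indicator measurableSet_closedBall) (Eventually.of_forall hd)
  rw [e1, e3, e2, e4] at h1
  have h2 := (abs_le.1 (h1.trans e5)).2
  linarith

end Crest.Agent.R234.B2_534
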