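import Crest.Agent.R234.Shp1_98

/-!
# Row 234, BDS part 1 (helper214): bounds at one contact centre

Over helper98's `Raw` (sharp averaged quantities of one contact centre, all scales `l ≤ Tr`):
`Es l ≤ A es (l+1)`, `D₀ / A ≤ es`, `K₀ δ e l ≤ A Us (l+1)`, `2 g l ≤ A Us (l+1)`, and the upper
bounds of `Us`, `es`, `Es`, `B` from the values at one top scale.
-/

set_option autoImplicit false

open MeasureTheory Set Filter Topology

noncomputable section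

namespace Crest.Agent.R234.Bds_214

open Crest.Agent.R234.Shp_98

/-- quasi-monotonicity in one step, and the mean bound `E ≤ A e(· + 1)`, on `[a, Tr]` -/
structure Qm (A a Tr : ℝ) (E e g P : ℝ → ℝ) : Prop where
  A1 : 1 ≤ A
  qe : ∀ s t, a ≤ s → s ≤ t → t ≤ s + 1 → t ≤ Tr → e s ≤ A * e t
  qg : ∀ s t, a ≤ s → s ≤ t → t ≤ s + 1 → t ≤ Tr → g s ≤ A * g t
  qP : ∀ s t, a ≤ s → s ≤ t → t ≤ Tr → P s ≤ P t
  Ee : ∀ t, a ≤ t → t + 1 ≤ Tr → E t ≤ A * e (t + 1)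

variable {m K K₀ c δ Tr a A : ℝ} {E e et b g R f p P B : ℝ → ℝ}

section
variable (h : Raw m K c δ Tr E e et b g R f p P B) (q : Qm A a Tr E e g P)
include h q

theorem Es_le_es {l : ℝ} (hl : a ≤ l) (hl1 : l + 1 ≤ Tr) :
    Es K δ E e P l ≤ A * es m K δ E e b g P (l + 1) := by
  rw [h.es_eq hl1]
  unfold Es
  have hA := q.A1
  have h1 := q.Ee l hl hl1
  have h2 := q.qe l (l + 1) hl (by linarith) le_rfl hl1
  have h3 := h.e0 (l + 1) hl1
  have h4 := h.g0 (l + 1) hl1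
  have h5 := h.P0 (l + 1) hl1
  have h6 := h.K0
  have h7 := h.δ0
  have h8 := h.m0
  have h9 := q.qP l (l + 1) hl (by linarith) hl1
  have h10 : K * δ * e l ≤ K * δ * (A * e (l + 1)) :=
    mul_le_mul_of_nonneg_left h2 (by positivity)
  have h13 : 1 * P (l + 1) ≤ A * (2 * P (l + 1)) := by nlinarith
  have h14 : 0 ≤ A * (m + 1) * (K * δ * e (l + 1)) := by positivity
  have h15 : 0 ≤ A * g (l + 1) := by positivity
  nlinarith

theorem Us_le_es (hB : ∀ l, a ≤ l → l ≤ Tr → 0 ≤ B l) {l : ℝ} (hl : a ≤ l) (hl1 : l + 1 ≤ Tr) :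
    Us K δ E e P B l ≤ A * es m K δ E e b g P (l + 1) := by
  have h1 := Es_le_es h q hl hl1
  have h2 := hB l hl (by linarith)
  have h3 : Us K δ E e P B l = Es K δ E e P l - 2 * B l := rfl
  linarith

/-- **lower bound of `es`** -/
theorem es_low (hcK : c ≤ K) (hB : ∀ l, a ≤ l → l ≤ Tr → 0 ≤ B l) {D₀ : ℝ}
    (hU : D₀ ≤ Us K δ E e P B a) {l : ℝ} (hl : a + 1 ≤ l) (hlT : l ≤ Tr) :
    D₀ / A ≤ es m K δ E e b g P l := by
  have h1 := Us_le_es h q hB (l := l - 1) (by linarith) (by linarith)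
  have h2 := h.Us_mono hcK (s := a) (t := l - 1) (by linarith) (by linarith)
  have h3 : l - 1 + 1 = l := by ring
  rw [h3] at h1
  have hA : 0 < A := by linarith [q.A1]
  rw [div_le_iff₀ hA]
  linarith

/-- `e` from `Us` -/
theorem e_up (hK : c + K₀ ≤ K) (hK0 : 0 ≤ K₀)
    (hU0 : ∀ l, a ≤ l → l ≤ Tr → 0 ≤ Us K δ E e P B l) {l : ℝ}
    (hl : a ≤ l) (hl1 : l + 1 ≤ Tr) :
    K₀ * δ * e l ≤ A * Us K δ E e P B (l + 1) :=
  h.e_le_Us hK hK0 (by linarith [q.A1]) hl1 (hU0 l hl (by linarith)) fun t ht =>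
    q.qe l t hl ht.1 ht.2 (ht.2.trans hl1)

/-- `g` from `Us` -/
theorem g_up (hcK : c ≤ K) (hU0 : ∀ l, a ≤ l → l ≤ Tr → 0 ≤ Us K δ E e P B l) {l : ℝ}
    (hl : a ≤ l) (hl1 : l + 1 ≤ Tr) :
    2 * g l ≤ A * Us K δ E e P B (l + 1) := by
  have hA : 0 < A := by linarith [q.A1]
  have h1 := h.Us_sub (s := l) (t := l + 1) (by linarith) hl1
  have h2 : ∫ x in l..(l + 1), (2 * (g l / A)) ≤ ∫ x in l..(l + 1), Rs K δ e et g R f p x := by
    refine intervalIntegral.integral_mono_on (by linarith) (by simp)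
      (h.cont_Rs.intervalIntegrable _ _) fun x hx => ?_
    have hx' : x ≤ Tr := hx.2.trans hl1
    have h3 := h.Rs_lower (K₀ := 0) (by linarith) hx'
    have h5 := h.R0 x hx'
    have h7 : g l / A ≤ g x := by
      rw [div_le_iff₀ hA]
      linarith [q.qg l x hl hx.1 hx.2 hx']
    linarith
  simp only [intervalIntegral.integral_const, smul_eq_mul] at h2
  have h8 := hU0 l hl (by linarith)
  have h9 : (l + 1 - l) * (2 * (g l / A)) = 2 * g l / A := by ring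
  rw [h9, div_le_iff₀ hA] at h2
  nlinarith

/-- **upper bound of `es`** from `Us` one step higher -/
theorem es_up (hK : c + K₀ ≤ K) (hK0 : 0 < K₀) (hcK : c ≤ K)
    (hU0 : ∀ l, a ≤ l → l ≤ Tr → 0 ≤ Us K δ E e P B l) {l : ℝ}
    (hl : a ≤ l) (hl1 : l + 1 ≤ Tr) :
    es m K δ E e b g P l ≤ ((1 + (2 + m) * K * δ) / (K₀ * δ) + 1) * A *
      Us K δ E e P B (l + 1) + 2 * P l := by
  rw [h.es_eq (by linarith)]
  have h1 := e_up h q hK hK0.le hU0 hl hl1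
  have h2 := g_up h q hcK hU0 hl hl1
  have h6 := h.K0
  have h7 := h.δ0
  have h8 := h.m0
  have h9 : e l ≤ A * Us K δ E e P B (l + 1) / (K₀ * δ) := by
    rw [le_div_iff₀ (by positivity)]
    linarith
  have h10 := mul_le_mul_of_nonneg_left h9 (by positivity : 0 ≤ 1 + (2 + m) * K * δ)
  have h11 : ((1 + (2 + m) * K * δ) / (K₀ * δ) + 1) * A * Us K δ E e P B (l + 1) =
      (1 + (2 + m) * K * δ) * (A * Us K δ E e P B (l + 1) / (K₀ * δ)) +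
        A * Us K δ E e P B (l + 1) := by ring
  rw [h11]
  linarith

/-- the value of `Us` at the top -/
theorem Us_top (hB : ∀ l, a ≤ l → l ≤ Tr → 0 ≤ B l) {T₁ et₁ gt₁ pt₁ : ℝ} (haT : a ≤ T₁)
    (hT : T₁ + 1 ≤ Tr) (he : e (T₁ + 1) ≤ et₁) (hg : g (T₁ + 1) ≤ gt₁) (hp : P (T₁ + 1) ≤ pt₁) :
    Us K δ E e P B T₁ ≤ A * ((1 + (2 + m) * K * δ) * et₁ + 2 * gt₁ + 2 * pt₁) := by
  have h1 := Us_le_es h q hB haT hT
  rw [h.es_eq hT] at h1
  refine h1.trans (mul_le_mul_of_nonneg_left ?_ (by linarith [q.A1]))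
  have h6 := h.K0
  have h7 := h.δ0
  have h8 := h.m0
  have h9 := mul_le_mul_of_nonneg_left he (by positivity : 0 ≤ 1 + (2 + m) * K * δ)
  linarith

end

/-- all bounds at one centre; `V` bounds `Us` on `[a, T₁]` -/
structure Bd1 (A K₀ m K δ a T₁ D₀ V P₁ : ℝ) (E e b g P B : ℝ → ℝ) : Prop where
  Ulow : ∀ l, a ≤ l → l ≤ T₁ → D₀ ≤ Us K δ E e P B l
  Uup : ∀ l, a ≤ l → l ≤ T₁ → Us K δ E e P B l ≤ V
  elow : ∀ l, a + 1 ≤ l → l ≤ T₁ → D₀ / A ≤ es m K δ E e b g P l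
  eup : ∀ l, a ≤ l → l + 1 ≤ T₁ → es m K δ E e b g P l ≤
    ((1 + (2 + m) * K * δ) / (K₀ * δ) + 1) * A * V + 2 * P₁
  Eup : ∀ l, a ≤ l → l + 2 ≤ T₁ → Es K δ E e P l ≤
    A * (((1 + (2 + m) * K * δ) / (K₀ * δ) + 1) * A * V + 2 * P₁)
  Bup : ∀ l, a ≤ l → l + 2 ≤ T₁ → B l ≤
    A / 2 * (((1 + (2 + m) * K * δ) / (K₀ * δ) + 1) * A * V + 2 * P₁)

/-- **all bounds at one centre** -/
theorem bd1 (h : Raw m K c δ Tr E e et b g R f p P B) (q : Qm A a Tr E e g P)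
    (hK : c + K₀ ≤ K) (hK0 : 0 < K₀) (hcK : c ≤ K)
    (hB : ∀ l, a ≤ l → l ≤ Tr → 0 ≤ B l) {D₀ T₁ et₁ gt₁ pt₁ P₁ : ℝ} (hD : 0 < D₀)
    (hU : D₀ ≤ Us K δ E e P B a) (haT : a ≤ T₁) (hT : T₁ + 1 ≤ Tr) (he : e (T₁ + 1) ≤ et₁)
    (hg : g (T₁ + 1) ≤ gt₁) (hp : P (T₁ + 1) ≤ pt₁) (hP₁ : P T₁ ≤ P₁) :
    Bd1 A K₀ m K δ a T₁ D₀ (A * ((1 + (2 + m) * K * δ) * et₁ + 2 * gt₁ + 2 * pt₁)) P₁
      E e b g P B := by
  have hA : 0 < A := by linarith [q.A1]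
  have hUl : ∀ l, a ≤ l → l ≤ Tr → D₀ ≤ Us K δ E e P B l := fun l h1 h2 =>
    hU.trans (h.Us_mono hcK h1 h2)
  have hU0 : ∀ l, a ≤ l → l ≤ Tr → 0 ≤ Us K δ E e P B l := fun l h1 h2 =>
    hD.le.trans (hUl l h1 h2)
  have hUt := Us_top h q hB haT hT he hg hp
  set V := A * ((1 + (2 + m) * K * δ) * et₁ + 2 * gt₁ + 2 * pt₁) with hV
  have hUup : ∀ l, a ≤ l → l ≤ T₁ → Us K δ E e P B l ≤ V := fun l h1 h2 =>
    (h.Us_mono hcK h2 (by linarith)).trans hUt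
  have h6 := h.K0
  have h7 := h.δ0
  have h8 := h.m0
  have hes : ∀ l, a ≤ l → l + 1 ≤ T₁ → es m K δ E e b g P l ≤
      ((1 + (2 + m) * K * δ) / (K₀ * δ) + 1) * A * V + 2 * P₁ := by
    intro l h1 h2
    have h3 := es_up h q hK hK0 hcK hU0 h1 (by linarith : l + 1 ≤ Tr)
    have h4 := hUup (l + 1) (by linarith) h2
    have h5 := q.qP l T₁ h1 (by linarith) (by linarith)
    have h9 : ((1 + (2 + m) * K * δ) / (K₀ * δ) + 1) * A * Us K δ E e P B (l + 1) ≤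
        ((1 + (2 + m) * K * δ) / (K₀ * δ) + 1) * A * V :=
      mul_le_mul_of_nonneg_left h4 (by positivity)
    linarith
  have hEs : ∀ l, a ≤ l → l + 2 ≤ T₁ → Es K δ E e P l ≤
      A * (((1 + (2 + m) * K * δ) / (K₀ * δ) + 1) * A * V + 2 * P₁) := by
    intro l h1 h2
    refine (Es_le_es h q h1 (by linarith)).trans (mul_le_mul_of_nonneg_left ?_ hA.le)
    exact hes (l + 1) (by linarith) (by linarith)
  refine ⟨fun l h1 h2 => hUl l h1 (by linarith), hUup, fun l h1 h2 =>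
    es_low h q hcK hB hU h1 (by linarith), hes, hEs, ?_⟩
  intro l h1 h2
  have h3 := hEs l h1 h2
  have h4 := hU0 l h1 (by linarith)
  have h5 : Us K δ E e P B l = Es K δ E e P l - 2 * B l := rfl
  linarith

end Crest.Agent.R234.Bds_214
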