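import Mathlib

/-! Row 234, VF-RIG (task 1369), part 1: positive semidefinite forms, the SIMPLEX lemma
((7)(v) of #5124) and the translation estimate for a divergence free tensor `a I - e`. -/

namespace Crest.Agent.R234.Rig_300

open MeasureTheory Set Metric

noncomputable section

variable {F : Type*} [NormedAddCommGroup F] [InnerProductSpace ℝ F]

/-- symmetric positive semidefinite operators. -/
structure PSD (q : F →L[ℝ] F) : Prop where
  symm : ∀ x y, inner ℝ (q x) y = inner ℝ x (q y)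
  nonneg : ∀ x, 0 ≤ inner ℝ (q x) x

variable {q : F →L[ℝ] F}

theorem PSD.expand (h : PSD q) (x y : F) (t : ℝ) :
    inner ℝ (q (x + t • y)) (x + t • y) =
      inner ℝ (q x) x + 2 * t * inner ℝ (q x) y + t ^ 2 * inner ℝ (q y) y := by
  have h1 : inner ℝ (q y) x = inner ℝ (q x) y := by
    rw [h.symm y x, real_inner_comm]
  simp only [map_add, map_smul, inner_add_left, inner_add_right, real_inner_smul_left,
    real_inner_smul_right, h1]
  ring

theorem PSD.cs (h : PSD q) (x y : F) :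
    (inner ℝ (q x) y) ^ 2 ≤ inner ℝ (q x) x * inner ℝ (q y) y := by
  have key : ∀ t : ℝ, 0 ≤ inner ℝ (q y) y * (t * t) + 2 * inner ℝ (q x) y * t + inner ℝ (q x) x := by
    intro t
    have := h.nonneg (x + t • y)
    rw [h.expand] at this
    nlinarith [this]
  have := discrim_le_zero key
  rw [discrim] at this
  nlinarith [this]

theorem PSD.add_le (h : PSD q) (x y : F) :
    inner ℝ (q (x + y)) (x + y) ≤ 2 * inner ℝ (q x) x + 2 * inner ℝ (q y) y := by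
  have h1 := h.expand x y 1
  have h2 := h.expand x y (-1)
  have h3 := h.nonneg (x + (-1 : ℝ) • y)
  rw [one_smul] at h1
  rw [h1]
  rw [h2] at h3
  linarith

theorem PSD.sub_le (h : PSD q) (x y : F) :
    inner ℝ (q (x - y)) (x - y) ≤ 2 * inner ℝ (q x) x + 2 * inner ℝ (q y) y := by
  have := h.add_le x (-y)
  simpa [sub_eq_add_neg] using this

theorem PSD.smul_eq (q : F →L[ℝ] F) (t : ℝ) (x : F) :
    inner ℝ (q (t • x)) (t • x) = t ^ 2 * inner ℝ (q x) x := by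
  simp only [map_smul, real_inner_smul_left, real_inner_smul_right]
  ring

/-- `⟨q (Σ a_i u_i), Σ a_i u_i⟩ ≤ (Σ a_i²) Σ ⟨q u_i, u_i⟩`. -/
theorem PSD.sum_le (h : PSD q) {ι : Type*} (s : Finset ι) (a : ι → ℝ) (u : ι → F) :
    inner ℝ (q (∑ i ∈ s, a i • u i)) (∑ i ∈ s, a i • u i) ≤
      (∑ i ∈ s, a i ^ 2) * ∑ i ∈ s, inner ℝ (q (u i)) (u i) := by
  have h1 : inner ℝ (q (∑ i ∈ s, a i • u i)) (∑ i ∈ s, a i • u i) =
      ∑ i ∈ s, ∑ j ∈ s, (a i * a j) * inner ℝ (q (u i)) (u j) := by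
    simp only [map_sum, map_smul, sum_inner, inner_sum, real_inner_smul_left,
      real_inner_smul_right]
    refine Finset.sum_congr rfl fun i _ => Finset.sum_congr rfl fun j _ => ?_
    have h3 : inner ℝ (q (u j)) (u i) = inner ℝ (q (u i)) (u j) := by
      rw [h.symm (u j) (u i), real_inner_comm]
    rw [h3]
    ring
  rw [h1]
  have h2 : ∀ i ∈ s, ∀ j ∈ s, (a i * a j) * inner ℝ (q (u i)) (u j) ≤
      (a i ^ 2 * inner ℝ (q (u j)) (u j) + a j ^ 2 * inner ℝ (q (u i)) (u i)) / 2 := by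
    intro i _ j _
    have e1 := h.nonneg (a j • u i - a i • u j)
    have e2 : inner ℝ (q (a j • u i - a i • u j)) (a j • u i - a i • u j) =
        a j ^ 2 * inner ℝ (q (u i)) (u i) - 2 * (a i * a j) * inner ℝ (q (u i)) (u j)
          + a i ^ 2 * inner ℝ (q (u j)) (u j) := by
      have h3 : inner ℝ (q (u j)) (u i) = inner ℝ (q (u i)) (u j) := by
        rw [h.symm (u j) (u i), real_inner_comm]
      simp only [map_sub, map_smul, inner_sub_left, inner_sub_right, real_inner_smul_left,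
        real_inner_smul_right, h3]
      ring
    rw [e2] at e1
    linarith
  calc ∑ i ∈ s, ∑ j ∈ s, (a i * a j) * inner ℝ (q (u i)) (u j)
      ≤ ∑ i ∈ s, ∑ j ∈ s,
        (a i ^ 2 * inner ℝ (q (u j)) (u j) + a j ^ 2 * inner ℝ (q (u i)) (u i)) / 2 :=
        Finset.sum_le_sum fun i hi => Finset.sum_le_sum fun j hj => h2 i hi j hj
    _ = (∑ i ∈ s, a i ^ 2) * ∑ i ∈ s, inner ℝ (q (u i)) (u i) := by
        simp only [← Finset.sum_div, Finset.sum_add_distrib]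
        rw [Finset.sum_comm (f := fun i j => a j ^ 2 * inner ℝ (q (u i)) (u i))]
        simp only [← Finset.mul_sum, ← Finset.sum_mul]
        ring

/-- `‖q w‖² ≤ ‖q‖ ⟨q w, w⟩`. -/
theorem PSD.norm_sq_le (h : PSD q) (w : F) : ‖q w‖ ^ 2 ≤ ‖q‖ * inner ℝ (q w) w := by
  have h1 := h.cs w (q w)
  rw [real_inner_self_eq_norm_sq] at h1
  have h2 : inner ℝ (q (q w)) (q w) ≤ ‖q‖ * ‖q w‖ ^ 2 := by
    calc inner ℝ (q (q w)) (q w) ≤ ‖q (q w)‖ * ‖q w‖ := real_inner_le_norm _ _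
      _ ≤ (‖q‖ * ‖q w‖) * ‖q w‖ := by gcongr; exact q.le_opNorm _
      _ = ‖q‖ * ‖q w‖ ^ 2 := by ring
  rcases eq_or_ne (q w) 0 with h0 | h0
  · rw [h0]; simp
  · have h3 : 0 < ‖q w‖ ^ 2 := by positivity
    have h4 : (‖q w‖ ^ 2) ^ 2 ≤ (‖q‖ * inner ℝ (q w) w) * ‖q w‖ ^ 2 := by
      calc (‖q w‖ ^ 2) ^ 2 ≤ inner ℝ (q w) w * inner ℝ (q (q w)) (q w) := h1
        _ ≤ inner ℝ (q w) w * (‖q‖ * ‖q w‖ ^ 2) := by
            gcongr; exact h.nonneg w
        _ = _ := by ring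
    rw [sq (‖q w‖ ^ 2)] at h4
    exact le_of_mul_le_mul_right h4 h3

theorem PSD.norm_le_sqrt (h : PSD q) (w : F) :
    ‖q w‖ ≤ Real.sqrt ‖q‖ * Real.sqrt (inner ℝ (q w) w) := by
  rw [← Real.sqrt_mul (norm_nonneg _)]
  exact Real.le_sqrt_of_sq_le (h.norm_sq_le w)

/-- `⟨q w, w⟩ ≤ ‖q‖ ‖w‖²`. -/
theorem inner_le_norm (q : F →L[ℝ] F) (w : F) : inner ℝ (q w) w ≤ ‖q‖ * ‖w‖ ^ 2 := by
  calc inner ℝ (q w) w ≤ ‖q w‖ * ‖w‖ := real_inner_le_norm _ _
    _ ≤ (‖q‖ * ‖w‖) * ‖w‖ := by gcongr; exact q.le_opNorm _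
    _ = _ := by ring

/-! ### (7)(v): the simplex lemma -/

/-- pointwise simplex lemma: centres `x₀`, `x i`, position `y`,
`ξ = Σ c_i (x_i - x₀)`. -/
theorem PSD.simplex (h : PSD q) {ι : Type*} (s : Finset ι) (c : ι → ℝ) (x₀ : F) (x : ι → F)
    (y : F) :
    inner ℝ (q (∑ i ∈ s, c i • (x i - x₀))) (∑ i ∈ s, c i • (x i - x₀)) ≤
      2 * (∑ i ∈ s, c i ^ 2) * ∑ i ∈ s, (inner ℝ (q (y - x i)) (y - x i) +
        inner ℝ (q (y - x₀)) (y - x₀)) := by
  refine (h.sum_le s c (fun i => x i - x₀)).trans ?_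
  have h1 : ∀ i ∈ s, inner ℝ (q (x i - x₀)) (x i - x₀) ≤
      2 * (inner ℝ (q (y - x i)) (y - x i) + inner ℝ (q (y - x₀)) (y - x₀)) := by
    intro i _
    have := h.sub_le (y - x₀) (y - x i)
    have e : (y - x₀) - (y - x i) = x i - x₀ := by abel
    rw [e] at this
    linarith
  calc (∑ i ∈ s, c i ^ 2) * ∑ i ∈ s, inner ℝ (q (x i - x₀)) (x i - x₀)
      ≤ (∑ i ∈ s, c i ^ 2) * ∑ i ∈ s, 2 * (inner ℝ (q (y - x i)) (y - x i) +
        inner ℝ (q (y - x₀)) (y - x₀)) :=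
        mul_le_mul_of_nonneg_left (Finset.sum_le_sum h1)
          (Finset.sum_nonneg fun i _ => sq_nonneg _)
    _ = _ := by
        rw [← Finset.mul_sum]; ring

variable {Ω : Type*} [MeasurableSpace Ω] {V : Measure Ω}

/-- **(7)(v), integral form.**  `V` may be a restriction or a weighted measure. -/
theorem simplex_integral {Q : Ω → F →L[ℝ] F} {p : Ω → F} (hQ : ∀ᵐ ω ∂V, PSD (Q ω))
    {ι : Type*} (s : Finset ι) (c : ι → ℝ) (x₀ : F) (x : ι → F) {ξ : F}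
    (hξ : ξ = ∑ i ∈ s, c i • (x i - x₀))
    (h₀ : Integrable (fun ω => inner ℝ (Q ω (p ω - x₀)) (p ω - x₀)) V)
    (hi : ∀ i ∈ s, Integrable (fun ω => inner ℝ (Q ω (p ω - x i)) (p ω - x i)) V) :
    ∫ ω, inner ℝ (Q ω ξ) ξ ∂V ≤
      2 * (∑ i ∈ s, c i ^ 2) * ∑ i ∈ s, (∫ ω, inner ℝ (Q ω (p ω - x i)) (p ω - x i) ∂V +
        ∫ ω, inner ℝ (Q ω (p ω - x₀)) (p ω - x₀) ∂V) := by
  have e1 : 2 * (∑ i ∈ s, c i ^ 2) * ∑ i ∈ s, (∫ ω, inner ℝ (Q ω (p ω - x i)) (p ω - x i) ∂V +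
        ∫ ω, inner ℝ (Q ω (p ω - x₀)) (p ω - x₀) ∂V) =
      ∫ ω, 2 * (∑ i ∈ s, c i ^ 2) * ∑ i ∈ s, (inner ℝ (Q ω (p ω - x i)) (p ω - x i) +
        inner ℝ (Q ω (p ω - x₀)) (p ω - x₀)) ∂V := by
    rw [integral_const_mul, integral_finsetSum s (f := fun i ω =>
      inner ℝ (Q ω (p ω - x i)) (p ω - x i) + inner ℝ (Q ω (p ω - x₀)) (p ω - x₀))
      fun i h => (hi i h).add h₀]
    congr 1
    refine Finset.sum_congr rfl fun i h => ?_
    rw [integral_add (hi i h) h₀]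
  rw [e1]
  refine integral_mono_of_nonneg ?_ ?_ ?_
  · filter_upwards [hQ] with ω h using h.nonneg ξ
  · exact (integrable_finsetSum _ fun i h => (hi i h).add h₀).const_mul _
  · filter_upwards [hQ] with ω h
    rw [hξ]
    exact h.simplex s c x₀ x (p ω)

end

end Crest.Agent.R234.Rig_300
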