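import Crest.Agent.R234.Cy6_870
import Crest.Agent.R234.Rig1_300

/-!
Row 234, node N5 (LOCAL) of the core (helper372), part 1: the base measures
`eM = π_#(tl W)`, `qM = π_#(tl² W)`, `lM S = π_#(tr_S (1 - S_hh) W)`, and the SIMPLEX step:
radial energies at the vertices of a fat simplex bound `lM (span)`.
-/

set_option autoImplicit false

open MeasureTheory Metric Set Filter Topology
open Crest.GeometryTopology.Submanifold
open Crest.Agent.R234.Vf_884 Crest.Agent.R234.Ar_870 Crest.Agent.R234.Cy_870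
open scoped ENNReal NNReal InnerProductSpace

noncomputable section

namespace Crest.Agent.R234.N5_372

variable {m n k : ℕ}

/-- the tilt along a subspace `S` of the base: `tr_S (1 - S_hh)`. -/
def eL (π : Euc k →L[ℝ] Euc m) (S : Submodule ℝ (Euc m)) (P : L k) : ℝ :=
  ∑ i, qf π P (stdOrthonormalBasis ℝ S i : Euc m)

/-- weighted base measure `π_# (c W)`. -/
def bm (W : Measure (Euc k × L k)) (π : Euc k →L[ℝ] Euc m) (c : L k → ℝ) : Measure (Euc m) :=
  (W.withDensity fun p => ENNReal.ofReal (c p.2)).map fun p => π p.1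

/-- tilt energy on the base. -/
def eM (W : Measure (Euc k × L k)) (π : Euc k →L[ℝ] Euc m) : Measure (Euc m) := bm W π (tl π)

/-- quartic energy on the base. -/
def qM (W : Measure (Euc k × L k)) (π : Euc k →L[ℝ] Euc m) : Measure (Euc m) :=
  bm W π fun P => tl π P ^ 2

/-- energy along `S` on the base. -/
def lM (W : Measure (Euc k × L k)) (π : Euc k →L[ℝ] Euc m) (S : Submodule ℝ (Euc m)) :
    Measure (Euc m) := bm W π (eL π S)

/-- the part of the cylinder over `A`. -/
def ov (π : Euc k →L[ℝ] Euc m) (A : Set (Euc m)) : Set (Euc k × L k) := {p | π p.1 ∈ A}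

variable {π : Euc k →L[ℝ] Euc m} {κ : Euc k →L[ℝ] Euc n} {W : Measure (Euc k × L k)}
  {x x₀ : Euc m} {R h₀ : ℝ} {g g1 g2 : ℝ → ℝ}

/-- finite varifold over the base ball `‖x - x₀‖ ≤ R` (no stationarity). -/
structure CF (W : Measure (Euc k × L k)) (π : Euc k →L[ℝ] Euc m) (κ : Euc k →L[ℝ] Euc n)
    (x₀ : Euc m) (R : ℝ) : Prop where
  sp : Split π κ
  conc : ∀ᵐ p ∂W, p.2 ∈ G m k
  fin : W univ < ⊤
  base : ∀ᵐ p ∂W, ‖π p.1 - x₀‖ ≤ R

theorem _root_.Crest.Agent.R234.Cy_870.CylStat.cf (h : CylStat W π κ x₀ R h₀) :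
    CF W π κ x₀ R := ⟨h.sp, h.conc, h.fin, h.base⟩

theorem CF.fr (h : CF W π κ x₀ R) (y : Euc m) (L₀ : ℝ) : Fr W π κ y L₀ :=
  ⟨h.sp, h.conc, lt_of_le_of_lt (measure_mono (subset_univ _)) h.fin⟩

theorem CF.RR_nonneg (h : CF W π κ x₀ R) (hg : Prof g g1 g2) (l : ℝ) :
    0 ≤ RR W π x g1 l := by
  unfold RR
  refine mul_nonneg (Real.exp_pos _).le (integral_nonneg_of_ae ?_)
  filter_upwards [h.conc] with p hp
  have := hg.anti (Real.exp (-2 * l) * ‖π p.1 - x‖ ^ 2) (by positivity)
  exact mul_nonneg (qf_nonneg h.sp.hh (isPr_of_G hp) _) (by linarith)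

theorem measurable_base (π : Euc k →L[ℝ] Euc m) : Measurable fun p : Euc k × L k => π p.1 :=
  (π.continuous.comp continuous_fst).measurable

theorem measurableSet_ov {A : Set (Euc m)} (hA : MeasurableSet A) : MeasurableSet (ov π A) :=
  measurable_base π hA

theorem bm_apply (W : Measure (Euc k × L k)) (π : Euc k →L[ℝ] Euc m) (c : L k → ℝ)
    {A : Set (Euc m)} (hA : MeasurableSet A) :
    bm W π c A = ∫⁻ p in ov π A, ENNReal.ofReal (c p.2) ∂W := by
  unfold bm
  rw [Measure.map_apply (measurable_base π) hA, withDensity_apply _ (measurable_base π hA)]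
  rfl

/-- positive semidefinite form `1 - S_hh`. -/
def qop (π : Euc k →L[ℝ] Euc m) (P : L k) : Euc m →L[ℝ] Euc m :=
  ContinuousLinearMap.id ℝ (Euc m) - Shh π P

theorem inner_qop (π : Euc k →L[ℝ] Euc m) (P : L k) (v : Euc m) :
    ⟪qop π P v, v⟫_ℝ = qf π P v := by
  unfold qop qf
  rw [_root_.sub_apply, inner_sub_left, ContinuousLinearMap.id_apply, real_inner_self_eq_norm_sq,
    real_inner_comm]

theorem psd_qop (hπ : IsCo π) {P : L k} (hP : IsPr P) : Rig_300.PSD (qop π P) where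
  symm u v := by
    unfold qop
    rw [_root_.sub_apply, _root_.sub_apply, inner_sub_left, inner_sub_right,
      ContinuousLinearMap.id_apply, ContinuousLinearMap.id_apply, Shh_symm hP]
  nonneg v := by
    rw [inner_qop]
    exact qf_nonneg hπ hP v

theorem eL_nonneg (hπ : IsCo π) {P : L k} (hP : IsPr P) (S : Submodule ℝ (Euc m)) :
    0 ≤ eL π S P := Finset.sum_nonneg fun _ _ => qf_nonneg hπ hP _

theorem continuous_qf_const (π : Euc k →L[ℝ] Euc m) (v : Euc m) :
    Continuous fun P : L k => qf π P v := by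
  unfold qf
  exact continuous_const.sub (continuous_const.inner
    ((continuous_Shh π).clm_apply continuous_const))

theorem continuous_eL (π : Euc k →L[ℝ] Euc m) (S : Submodule ℝ (Euc m)) :
    Continuous (eL π S : L k → ℝ) := by
  unfold eL
  exact continuous_finsetSum _ fun i _ => continuous_qf_const π _

theorem eL_le {P : L k} (hP : IsPr P) (S : Submodule ℝ (Euc m)) :
    eL π S P ≤ m := by
  have h1 : ∀ i, ‖(stdOrthonormalBasis ℝ S i : Euc m)‖ = 1 := fun i => by
    rw [← Submodule.coe_norm]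
    exact (stdOrthonormalBasis ℝ S).norm_eq_one i
  calc eL π S P ≤ ∑ _i : Fin (Module.finrank ℝ S), (1:ℝ) := by
        refine Finset.sum_le_sum fun i _ => (qf_le hP _).trans ?_
        rw [h1 i]; norm_num
    _ = Module.finrank ℝ S := by simp
    _ ≤ m := by
        have := Submodule.finrank_le S
        rw [finrank_euclideanSpace_fin] at this
        exact_mod_cast this

/-- `∫` over the cylinder of the form at a fixed vector, from the radial energies. -/
theorem int_qf_le (h : CF W π κ x₀ R) (hg : Prof g g1 g2) {c₀ t₀ : ℝ} (hc₀ : 0 < c₀)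
    (hc : ∀ t, 0 ≤ t → t ≤ t₀ → c₀ ≤ -g1 t) (y : Euc m) (l : ℝ) {A : Set (Euc m)}
    (hA : MeasurableSet A) (hAy : ∀ v ∈ A, ‖v - y‖ ^ 2 ≤ t₀ * Real.exp (2 * l)) :
    ∫ p in ov π A, qf π p.2 (π p.1 - y) ∂W ≤ (2 * c₀)⁻¹ * (Real.exp (m * l) * RR W π y g1 l) := by
  have hint : Integrable (fun p : Euc k × L k =>
      qf π p.2 (π p.1 - y) * (-2 * g1 (Real.exp (-2 * l) * ‖π p.1 - y‖ ^ 2))) W := by
    have h1 := (h.fr y (l + 1))
    obtain ⟨K, _, hK, -, -⟩ := hg.k1.exists_bound
    have h2 := integrable_ker (V := W) (ρ := fun p : Euc k × L k => ‖π p.1 - y‖ ^ 2)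
      (c := fun p : Euc k × L k => qf π p.2 (π p.1 - y)) (L := l + 1) (measurable_rho π y)
      (fun p => by positivity) (continuous_qf π y).aestronglyMeasurable h1.fin h1.qf_bound
      hg.k1.continuous hK hg.k1.zero (l := l) (by linarith)
    have h3 := h2.const_mul (-2)
    refine h3.congr (Eventually.of_forall fun p => ?_)
    simp only
    ring
  have hpos : ∀ᵐ p ∂W, 0 ≤ qf π p.2 (π p.1 - y) * (-2 * g1 (Real.exp (-2 * l) * ‖π p.1 - y‖ ^ 2))
      := by
    filter_upwards [h.conc] with p hp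
    have h1 := qf_nonneg h.sp.hh (isPr_of_G hp) (π p.1 - y)
    have h2 := hg.anti (Real.exp (-2 * l) * ‖π p.1 - y‖ ^ 2) (by positivity)
    exact mul_nonneg h1 (by linarith)
  have h1 : ∫ p in ov π A, qf π p.2 (π p.1 - y) ∂W ≤ ∫ p in ov π A, (2 * c₀)⁻¹ *
      (qf π p.2 (π p.1 - y) * (-2 * g1 (Real.exp (-2 * l) * ‖π p.1 - y‖ ^ 2))) ∂W := by
    refine integral_mono_of_nonneg ?_ (hint.const_mul _).integrableOn ?_
    · filter_upwards [ae_restrict_of_ae h.conc] with p hp
      exact qf_nonneg h.sp.hh (isPr_of_G hp) _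
    · filter_upwards [ae_restrict_of_ae h.conc, ae_restrict_mem (measurableSet_ov hA)] with p hp hpA
      have h2 := qf_nonneg h.sp.hh (isPr_of_G hp) (π p.1 - y)
      have h3 : Real.exp (-2 * l) * ‖π p.1 - y‖ ^ 2 ≤ t₀ := by
        have h4 := hAy _ hpA
        calc Real.exp (-2 * l) * ‖π p.1 - y‖ ^ 2 ≤ Real.exp (-2 * l) * (t₀ * Real.exp (2 * l)) := by
              gcongr
          _ = t₀ * (Real.exp (-2 * l) * Real.exp (2 * l)) := by ring
          _ = t₀ := by rw [← Real.exp_add]; simp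
      have h5 := hc _ (by positivity) h3
      have h6 : qf π p.2 (π p.1 - y) * (2 * c₀) ≤
          qf π p.2 (π p.1 - y) * (-2 * g1 (Real.exp (-2 * l) * ‖π p.1 - y‖ ^ 2)) :=
        mul_le_mul_of_nonneg_left (by linarith) h2
      rw [le_inv_mul_iff₀ (by positivity)]
      linarith
  refine h1.trans ?_
  rw [integral_const_mul]
  refine mul_le_mul_of_nonneg_left ?_ (by positivity)
  have h2 : Real.exp (m * l) * RR W π y g1 l = ∫ p, qf π p.2 (π p.1 - y) *
      (-2 * g1 (Real.exp (-2 * l) * ‖π p.1 - y‖ ^ 2)) ∂W := by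
    unfold RR
    rw [← mul_assoc, ← Real.exp_add]
    have : (m:ℝ) * l + -m * l = 0 := by ring
    rw [this, Real.exp_zero, one_mul]
  rw [h2]
  exact setIntegral_le_integral hint hpos

/-- **SIMPLEX**: fat simplex with small radial energies at its vertices ==> the energy along its
span is small. -/
theorem lM_le (h : CF W π κ x₀ R) (hg : Prof g g1 g2) {c₀ t₀ : ℝ} (hc₀ : 0 < c₀)
    (hc : ∀ t, 0 ≤ t → t ≤ t₀ → c₀ ≤ -g1 t) {d : ℕ} {y : Euc m} {v : Fin d → Euc m} {l l' K r : ℝ}
    (hfat : ∀ (c : Fin d → ℝ) (i : Fin d), |c i| * Real.exp l ≤ K * ‖∑ j, c j • v j‖)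
    {A : Set (Euc m)} (hA : MeasurableSet A)
    (hAy : ∀ z ∈ A, ‖z - y‖ ^ 2 ≤ t₀ * Real.exp (2 * l'))
    (hAv : ∀ i, ∀ z ∈ A, ‖z - (y + v i)‖ ^ 2 ≤ t₀ * Real.exp (2 * l'))
    (hr0 : RR W π y g1 l' ≤ r) (hrv : ∀ i, RR W π (y + v i) g1 l' ≤ r) :
    lM W π (Submodule.span ℝ (range v)) A ≤
      ENNReal.ofReal (2 * d ^ 3 * K ^ 2 / c₀ * Real.exp (-2 * l) * Real.exp (m * l') * r) := by
  set S := Submodule.span ℝ (range v) with hS
  -- the basic integrals
  set M0 : ℝ := (2 * c₀)⁻¹ * (Real.exp (m * l') * r) with hM0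
  have hr : 0 ≤ r := (h.RR_nonneg hg l').trans hr0
  have hM0nn : 0 ≤ M0 := by positivity
  have hI0 : ∫ p in ov π A, qf π p.2 (π p.1 - y) ∂W ≤ M0 :=
    (int_qf_le h hg hc₀ hc y l' hA hAy).trans (by rw [hM0]; gcongr)
  have hI : ∀ i, ∫ p in ov π A, qf π p.2 (π p.1 - (y + v i)) ∂W ≤ M0 := fun i =>
    (int_qf_le h hg hc₀ hc (y + v i) l' hA (hAv i)).trans (by rw [hM0]; gcongr; exact hrv i)
  have hfin : IsFiniteMeasure W := ⟨h.fin⟩
  have hintq : ∀ z : Euc m, IntegrableOn (fun p : Euc k × L k => qf π p.2 (π p.1 - z)) (ov π A) W := by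
    intro z
    refine Integrable.integrableOn ?_
    refine Integrable.of_bound (continuous_qf π z).aestronglyMeasurable ((R + ‖x₀ - z‖) ^ 2) ?_
    filter_upwards [h.conc, h.base] with p hp hb
    rw [Real.norm_of_nonneg (qf_nonneg h.sp.hh (isPr_of_G hp) _)]
    refine (qf_le (isPr_of_G hp) _).trans ?_
    have : ‖π p.1 - z‖ ≤ R + ‖x₀ - z‖ := by
      calc ‖π p.1 - z‖ = ‖(π p.1 - x₀) + (x₀ - z)‖ := by congr 1; abel
        _ ≤ ‖π p.1 - x₀‖ + ‖x₀ - z‖ := norm_add_le _ _
        _ ≤ _ := by linarith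
    exact pow_le_pow_left₀ (norm_nonneg _) this 2
  have hintc : ∀ u : Euc m, IntegrableOn (fun p : Euc k × L k => qf π p.2 u) (ov π A) W := by
    intro u
    refine Integrable.integrableOn ?_
    refine Integrable.of_bound ((continuous_qf_const π u).comp
      continuous_snd).aestronglyMeasurable (‖u‖ ^ 2) ?_
    filter_upwards [h.conc] with p hp
    rw [Real.norm_of_nonneg (qf_nonneg h.sp.hh (isPr_of_G hp) _)]
    exact qf_le (isPr_of_G hp) _
  -- a unit vector of the span
  have key : ∀ u ∈ S, ‖u‖ = 1 → ∫ p in ov π A, qf π p.2 u ∂W ≤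
      4 * d ^ 2 * K ^ 2 * Real.exp (-2 * l) * M0 := by
    intro u hu hu1
    obtain ⟨c, hcu⟩ := (Submodule.mem_span_range_iff_exists_fun ℝ).1 hu
    have hci : ∀ i, c i ^ 2 ≤ K ^ 2 * Real.exp (-2 * l) := by
      intro i
      have h1 := hfat c i
      rw [hcu, hu1, mul_one] at h1
      have h2 : |c i| ≤ K * Real.exp (-l) := by
        calc |c i| = |c i| * Real.exp l * Real.exp (-l) := by
              rw [mul_assoc, ← Real.exp_add]; simp
          _ ≤ K * Real.exp (-l) := by gcongr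
      calc c i ^ 2 = |c i| ^ 2 := (sq_abs _).symm
        _ ≤ (K * Real.exp (-l)) ^ 2 := by gcongr
        _ = K ^ 2 * Real.exp (-2 * l) := by
            rw [mul_pow, ← Real.exp_nat_mul]; congr 2; push_cast; ring
    have hsum : ∑ i, c i ^ 2 ≤ d * (K ^ 2 * Real.exp (-2 * l)) := by
      calc ∑ i, c i ^ 2 ≤ ∑ _i : Fin d, K ^ 2 * Real.exp (-2 * l) :=
            Finset.sum_le_sum fun i _ => hci i
        _ = _ := by simp
    have hpt : ∀ᵐ p ∂(W.restrict (ov π A)), qf π p.2 u ≤
        2 * (d * (K ^ 2 * Real.exp (-2 * l))) *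
          ∑ i, (qf π p.2 (π p.1 - (y + v i)) + qf π p.2 (π p.1 - y)) := by
      filter_upwards [ae_restrict_of_ae h.conc] with p hp
      have h1 := (psd_qop h.sp.hh (isPr_of_G hp)).simplex Finset.univ c y (fun i => y + v i)
        (π p.1)
      have h2 : ∑ i, c i • ((y + v i) - y) = u := by
        rw [← hcu]
        exact Finset.sum_congr rfl fun i _ => by rw [add_sub_cancel_left]
      rw [h2] at h1
      simp only [inner_qop] at h1
      refine h1.trans ?_
      have h3 : 0 ≤ ∑ i, (qf π p.2 (π p.1 - (y + v i)) + qf π p.2 (π p.1 - y)) :=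
        Finset.sum_nonneg fun i _ => add_nonneg (qf_nonneg h.sp.hh (isPr_of_G hp) _)
          (qf_nonneg h.sp.hh (isPr_of_G hp) _)
      gcongr
    calc ∫ p in ov π A, qf π p.2 u ∂W ≤ ∫ p in ov π A, 2 * (d * (K ^ 2 * Real.exp (-2 * l))) *
          ∑ i, (qf π p.2 (π p.1 - (y + v i)) + qf π p.2 (π p.1 - y)) ∂W := by
          refine integral_mono_ae (hintc u) ?_ hpt
          refine Integrable.const_mul ?_ _
          exact integrable_finsetSum _ fun i _ => (hintq _).add (hintq _)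
      _ = 2 * (d * (K ^ 2 * Real.exp (-2 * l))) * ∑ i, ((∫ p in ov π A,
          qf π p.2 (π p.1 - (y + v i)) ∂W) + ∫ p in ov π A, qf π p.2 (π p.1 - y) ∂W) := by
          rw [integral_const_mul, integral_finsetSum]
          · congr 1
            refine Finset.sum_congr rfl fun i _ => ?_
            rw [integral_add (hintq _) (hintq _)]
          · exact fun i _ => (hintq _).add (hintq _)
      _ ≤ 2 * (d * (K ^ 2 * Real.exp (-2 * l))) * ∑ _i : Fin d, (M0 + M0) := by
          gcongr with i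
          exact hI i
      _ = _ := by
          rw [Finset.sum_const, Finset.card_univ, Fintype.card_fin, nsmul_eq_mul]; ring
  -- sum over an orthonormal basis
  have hfr : (Module.finrank ℝ S : ℝ) ≤ d := by
    have := finrank_range_le_card (R := ℝ) v
    rw [Set.finrank, ← hS, Fintype.card_fin] at this
    exact_mod_cast this
  have hsumint : ∫ p in ov π A, eL π S p.2 ∂W ≤ d * (4 * d ^ 2 * K ^ 2 * Real.exp (-2 * l) * M0) := by
    unfold eL
    rw [integral_finsetSum _ fun i _ => hintc _]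
    calc ∑ i, ∫ p in ov π A, qf π p.2 (stdOrthonormalBasis ℝ S i : Euc m) ∂W
        ≤ ∑ _i : Fin (Module.finrank ℝ S), 4 * (d:ℝ) ^ 2 * K ^ 2 * Real.exp (-2 * l) * M0 := by
          refine Finset.sum_le_sum fun i _ => key _ (Submodule.coe_mem _) ?_
          rw [← Submodule.coe_norm]
          exact (stdOrthonormalBasis ℝ S).norm_eq_one i
      _ = Module.finrank ℝ S * (4 * (d:ℝ) ^ 2 * K ^ 2 * Real.exp (-2 * l) * M0) := by simp
      _ ≤ _ := by gcongr
  have hintE : IntegrableOn (fun p : Euc k × L k => eL π S p.2) (ov π A) W := by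
    unfold eL
    exact integrable_finsetSum _ fun i _ => hintc _
  unfold lM
  rw [bm_apply _ _ _ hA, ← ofReal_integral_eq_lintegral_ofReal hintE]
  · refine ENNReal.ofReal_le_ofReal (hsumint.trans (le_of_eq ?_))
    rw [hM0]
    field_simp
    ring
  · filter_upwards [ae_restrict_of_ae h.conc] with p hp
    exact eL_nonneg h.sp.hh (isPr_of_G hp) S

end Crest.Agent.R234.N5_372
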