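import Mathlib

/-!
# (REG) of post 6485, row 234: regular scales without the soft sign lemma

Pure real analysis. `vol_jump`: a function with values in `[L0, L1]` which drops by at most `D`
over a step `J` jumps up by more than `K` over a step `J` only on a set of measure
`≤ (J (L1 - L0) + (b - a) D) / K`.
`RD` = data at one contact centre. `e_le`: `e(s) ≤ 8 A (E(s) + ΔU + ∫|r|)`.
-/

open MeasureTheory Set Filter Topology

namespace Crest.Agent.R234.Reg1_504

/-- **the pigeonhole.** -/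
theorem vol_jump {f : ℝ → ℝ} {a b J D K L0 L1 : ℝ} (hab : a ≤ b) (hJ : 0 ≤ J) (hD : 0 ≤ D)
    (hm : Measurable f) (hlow : ∀ t ∈ Icc a (b + J), L0 ≤ f t)
    (hup : ∀ t ∈ Icc a (b + J), f t ≤ L1) (hdrop : ∀ t ∈ Icc a b, f t - D ≤ f (t + J)) :
    K * (volume {t | t ∈ Icc a b ∧ f t + K < f (t + J)}).toReal ≤
      J * (L1 - L0) + (b - a) * D := by
  set S : Set ℝ := {t | t ∈ Icc a b ∧ f t + K < f (t + J)} with hS
  have hSm : MeasurableSet S := by
    refine measurableSet_Icc.inter (measurableSet_lt (hm.add_const K) ?_)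
    exact hm.comp (measurable_id.add_const J)
  have hbdd : ∀ c d, a ≤ c → d ≤ b + J → c ≤ d → IntervalIntegrable f volume c d := by
    intro c d hc hd hcd
    rw [intervalIntegrable_iff_integrableOn_Icc_of_le hcd]
    refine Measure.integrableOn_of_bounded (M := max |L0| |L1|) (by simp) hm.aestronglyMeasurable
      ?_
    refine (ae_restrict_iff' measurableSet_Icc).2 (Eventually.of_forall fun t ht => ?_)
    have h1 := hlow t ⟨hc.trans ht.1, ht.2.trans hd⟩
    have h2 := hup t ⟨hc.trans ht.1, ht.2.trans hd⟩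
    rw [Real.norm_eq_abs]
    exact abs_le_max_abs_abs h1 h2
  have h1 : IntervalIntegrable f volume a b := hbdd a b le_rfl (by linarith) hab
  have h2 : IntervalIntegrable (fun t => f (t + J)) volume a b := by
    have := (hbdd (a + J) (b + J) (by linarith) le_rfl (by linarith)).comp_add_right J
    simpa using this
  -- upper bound of the integral of the increments
  have hA : ∫ t in a..b, (f (t + J) - f t) ≤ J * (L1 - L0) := by
    rw [intervalIntegral.integral_sub h2 h1, intervalIntegral.integral_comp_add_right]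
    have h3 : IntervalIntegrable f volume a (a + J) := hbdd a (a + J) le_rfl (by linarith)
      (by linarith)
    have h4 : IntervalIntegrable f volume (a + J) (b + J) :=
      hbdd (a + J) (b + J) (by linarith) le_rfl (by linarith)
    have h5 : IntervalIntegrable f volume b (b + J) := hbdd b (b + J) hab le_rfl (by linarith)
    have h6 : (∫ t in a..a + J, f t) + ∫ t in (a + J)..(b + J), f t =
        (∫ t in a..b, f t) + ∫ t in b..(b + J), f t := by
      rw [intervalIntegral.integral_add_adjacent_intervals h3 h4,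
        intervalIntegral.integral_add_adjacent_intervals h1 h5]
    have h7 : ∫ t in b..(b + J), f t ≤ J * L1 := by
      have := intervalIntegral.integral_mono_on (by linarith : b ≤ b + J) h5
        (intervalIntegrable_const (c := L1)) fun t ht => hup t ⟨hab.trans ht.1, ht.2⟩
      rw [intervalIntegral.integral_const, smul_eq_mul] at this
      linarith
    have h8 : J * L0 ≤ ∫ t in a..(a + J), f t := by
      have := intervalIntegral.integral_mono_on (by linarith : a ≤ a + J)
        (intervalIntegrable_const (c := L0)) h3 fun t ht => hlow t ⟨ht.1, by linarith [ht.2]⟩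
      rw [intervalIntegral.integral_const, smul_eq_mul] at this
      linarith
    linarith
  -- lower bound
  have hB : K * (volume S).toReal - (b - a) * D ≤ ∫ t in a..b, (f (t + J) - f t) := by
    have hSab : S ⊆ Icc a b := fun t ht => ht.1
    have hvol : (volume S).toReal = ∫ t in a..b, S.indicator (fun _ => (1 : ℝ)) t := by
      rw [intervalIntegral.integral_of_le hab, ← integral_Icc_eq_integral_Ioc,
        integral_indicator hSm, Measure.restrict_restrict hSm, inter_eq_left.2 hSab]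
      simp [Measure.real]
    have hind : IntervalIntegrable (S.indicator (fun _ => (1 : ℝ))) volume a b := by
      rw [intervalIntegrable_iff_integrableOn_Icc_of_le hab]
      exact (integrableOn_const (by simp)).indicator hSm
    have h9 : ∫ t in a..b, (K * S.indicator (fun _ => (1 : ℝ)) t - D) ≤
        ∫ t in a..b, (f (t + J) - f t) := by
      refine intervalIntegral.integral_mono_on hab ((hind.const_mul K).sub
        intervalIntegrable_const) (h2.sub h1) fun t ht => ?_
      by_cases htS : t ∈ S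
      · rw [indicator_of_mem htS]
        have := htS.2
        linarith
      · rw [indicator_of_notMem htS]
        have := hdrop t ht
        linarith
    rw [intervalIntegral.integral_sub (hind.const_mul K) intervalIntegrable_const,
      intervalIntegral.integral_const_mul, ← hvol, intervalIntegral.integral_const,
      smul_eq_mul] at h9
    exact h9
  linarith

/-- data of #5326 / #6067 at one contact centre, on a window `[α, β]` of scales `l = log s`:
`E' = 2b + R + r` (`r` = all errors), `U' = R`, `e = 2E - 2b`; NO sign information on `b`. -/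
structure RD (A D0 D1 α β : ℝ) (E e b R r U : ℝ → ℝ) : Prop where
  hA : 1 ≤ A
  D0_pos : 0 < D0
  meas_e : Measurable e
  meas_U : Measurable U
  int_b : IntervalIntegrable b volume α β
  int_R : IntervalIntegrable R volume α β
  int_r : IntervalIntegrable r volume α β
  hE : ∀ s ∈ Icc α β, ∀ t ∈ Icc α β, s ≤ t → E t - E s = ∫ x in s..t, (2 * b x + R x + r x)
  hU : ∀ s ∈ Icc α β, ∀ t ∈ Icc α β, s ≤ t → U t - U s = ∫ x in s..t, R x
  he : ∀ t ∈ Icc α β, e t = 2 * E t - 2 * b t
  he0 : ∀ t ∈ Icc α β, 0 ≤ e t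
  hR : ∀ t ∈ Icc α β, 0 ≤ R t
  hD0 : ∀ t ∈ Icc α β, D0 ≤ U t
  he1 : ∀ t ∈ Icc α β, e t ≤ D1
  hUE : ∀ t ∈ Icc α β, U t ≤ 2 * E t
  hEe : ∀ t ∈ Icc α β, t + 1 ∈ Icc α β → E t ≤ A * e (t + 1)
  err : ∀ t ∈ Icc α β, |r t| ≤ U t
  qm : ∀ s ∈ Icc α β, ∀ t ∈ Icc α β, s ≤ t → t ≤ s + 1 → e s ≤ A * e t

namespace RD

variable {A D0 D1 α β : ℝ} {E e b R r U : ℝ → ℝ}

theorem A_pos (h : RD A D0 D1 α β E e b R r U) : 0 < A := lt_of_lt_of_le one_pos h.hA

theorem U_pos (h : RD A D0 D1 α β E e b R r U) {t : ℝ} (ht : t ∈ Icc α β) : 0 < U t :=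
  lt_of_lt_of_le h.D0_pos (h.hD0 t ht)

theorem E_pos (h : RD A D0 D1 α β E e b R r U) {t : ℝ} (ht : t ∈ Icc α β) : 0 < E t := by
  have h1 := h.U_pos ht
  have h2 := h.hUE t ht
  linarith

theorem U_mono (h : RD A D0 D1 α β E e b R r U) {s t : ℝ} (hs : s ∈ Icc α β)
    (ht : t ∈ Icc α β) (hst : s ≤ t) : U s ≤ U t := by
  have h1 := h.hU s hs t ht hst
  have h2 : 0 ≤ ∫ x in s..t, R x :=
    intervalIntegral.integral_nonneg hst fun x hx =>
      h.hR x ⟨hs.1.trans hx.1, hx.2.trans ht.2⟩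
  linarith

theorem sub_int {f : ℝ → ℝ} (hf : IntervalIntegrable f volume α β) {s t : ℝ} (hs : s ∈ Icc α β)
    (ht : t ∈ Icc α β) (hst : s ≤ t) : IntervalIntegrable f volume s t := by
  refine hf.mono_set ?_
  rw [uIcc_of_le hst, uIcc_of_le (hs.1.trans hs.2)]
  exact Icc_subset_Icc hs.1 ht.2

theorem cont_E (h : RD A D0 D1 α β E e b R r U) {s t : ℝ} (hs : s ∈ Icc α β)
    (ht : t ∈ Icc α β) (hst : s ≤ t) : ContinuousOn E (Icc s t) := by
  have hb := sub_int h.int_b hs ht hst
  have hR := sub_int h.int_R hs ht hst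
  have hr := sub_int h.int_r hs ht hst
  have hf : IntervalIntegrable (fun x => 2 * b x + R x + r x) volume s t :=
    ((hb.const_mul 2).add hR).add hr
  have h1 : ContinuousOn (fun x => E s + ∫ y in s..x, (2 * b y + R y + r y)) (Icc s t) := by
    rw [← uIcc_of_le hst]
    refine continuousOn_const.add ?_
    exact intervalIntegral.continuousOn_primitive_interval' hf (left_mem_uIcc)
  refine h1.congr fun x hx => ?_
  have h2 := h.hE s hs x ⟨hs.1.trans hx.1, hx.2.trans ht.2⟩ hx.1
  show E x = E s + _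
  linarith

/-- **(a) of (REG)**: no sign of `b`, only `E ≥ 0`. -/
theorem e_le (h : RD A D0 D1 α β E e b R r U) {s : ℝ} (hs : s ∈ Icc α β)
    (hs1 : s + 1 ∈ Icc α β) : e s ≤ 24 * A * (E s + U (s + 1)) := by
  have hA := h.A_pos
  set v : ℝ := s + 1 / 4 with hv
  have hsv : s ≤ v := by rw [hv]; linarith
  have hv1 : v ∈ Icc α β := ⟨hs.1.trans hsv, by rw [hv]; linarith [hs1.2]⟩
  have hb := sub_int h.int_b hs hv1 hsv
  have hR := sub_int h.int_R hs hv1 hsv
  have hr := sub_int h.int_r hs hv1 hsv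
  have hc := h.cont_E hs hv1 hsv
  obtain ⟨t0, ht0, hmax⟩ := isCompact_Icc.exists_isMaxOn (nonempty_Icc.2 hsv) hc
  have hU1 : U v ≤ U (s + 1) := h.U_mono hv1 hs1 (by rw [hv]; linarith)
  have hUs : 0 < U s := h.U_pos hs
  have hEi : IntervalIntegrable E volume s v := by
    exact hc.intervalIntegrable_of_Icc (μ := volume) hsv
  -- bound of the increments
  have key : ∀ t, t ∈ Icc s v → E t - E s = (∫ x in s..t, (2 * E x - e x)) +
      (U t - U s) + ∫ x in s..t, r x := by
    intro t ht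
    have htm : t ∈ Icc α β := ⟨hs.1.trans ht.1, ht.2.trans hv1.2⟩
    have hb' := sub_int h.int_b hs htm ht.1
    have hR' := sub_int h.int_R hs htm ht.1
    have hr' := sub_int h.int_r hs htm ht.1
    rw [h.hE s hs t htm ht.1, h.hU s hs t htm ht.1,
      intervalIntegral.integral_add ((hb'.const_mul 2).add hR') hr',
      intervalIntegral.integral_add (hb'.const_mul 2) hR']
    congr 2
    refine intervalIntegral.integral_congr fun x hx => ?_
    rw [uIcc_of_le ht.1] at hx
    have := h.he x ⟨hs.1.trans hx.1, hx.2.trans htm.2⟩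
    show 2 * b x = 2 * E x - e x
    linarith
  have hrle : ∀ t, t ∈ Icc s v → |∫ x in s..t, r x| ≤ 1 / 4 * U (s + 1) := by
    intro t ht
    have htm : t ∈ Icc α β := ⟨hs.1.trans ht.1, ht.2.trans hv1.2⟩
    have h1 : ‖∫ x in s..t, r x‖ ≤ U (s + 1) * |t - s| := by
      refine intervalIntegral.norm_integral_le_of_norm_le_const fun x hx => ?_
      rw [uIoc_of_le ht.1] at hx
      have hx' : x ∈ Icc α β := ⟨hs.1.trans hx.1.le, hx.2.trans htm.2⟩
      refine (h.err x hx').trans (h.U_mono hx' hs1 ?_)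
      have := ht.2; have := hx.2; rw [hv] at *; linarith
    rw [Real.norm_eq_abs] at h1
    refine h1.trans ?_
    have h2 : |t - s| ≤ 1 / 4 := by
      rw [abs_of_nonneg (by linarith [ht.1])]
      have := ht.2; rw [hv] at this; linarith
    have h3 := (h.U_pos hs1).le
    nlinarith
  have hEle : ∀ t, t ∈ Icc s v → E t ≤ E t0 := fun t ht => hmax ht
  have hE0 := h.E_pos (t := t0) ⟨hs.1.trans ht0.1, ht0.2.trans hv1.2⟩
  -- the maximum
  have hM : E t0 ≤ 2 * E s + 4 * U (s + 1) := by
    have htm : t0 ∈ Icc α β := ⟨hs.1.trans ht0.1, ht0.2.trans hv1.2⟩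
    have h1 := key t0 ht0
    have h2 := (abs_le.1 (hrle t0 ht0)).2
    have h3 : U t0 ≤ U (s + 1) := h.U_mono htm hs1 (by
      have := ht0.2; rw [hv] at this; linarith)
    have hb' := sub_int h.int_b hs htm ht0.1
    have hEi' : IntervalIntegrable E volume s t0 :=
      (h.cont_E hs htm ht0.1).intervalIntegrable_of_Icc (μ := volume) ht0.1
    have hei' : IntervalIntegrable e volume s t0 := by
      refine ((hEi'.const_mul 2).sub (hb'.const_mul 2)).congr ?_
      intro x hx
      rw [uIoc_of_le ht0.1] at hx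
      exact (h.he x ⟨hs.1.trans hx.1.le, hx.2.trans htm.2⟩).symm
    have h4 : ∫ x in s..t0, (2 * E x - e x) ≤ ∫ x in s..t0, 2 * E t0 := by
      refine intervalIntegral.integral_mono_on ht0.1 ((hEi'.const_mul 2).sub hei')
        intervalIntegrable_const fun x hx => ?_
      have h5 := hEle x ⟨hx.1, hx.2.trans ht0.2⟩
      have h6 := h.he0 x ⟨hs.1.trans hx.1, hx.2.trans htm.2⟩
      linarith
    rw [intervalIntegral.integral_const, smul_eq_mul] at h4
    have h7 : (t0 - s) * (2 * E t0) ≤ 1 / 2 * E t0 := by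
      have h8 : t0 - s ≤ 1 / 4 := by
        have := ht0.2; rw [hv] at this; linarith
      nlinarith
    have h9 := (h.U_pos hs1).le
    nlinarith
  -- integral of `e`
  have hvv : v ∈ Icc s v := ⟨hsv, le_rfl⟩
  have h1 := key v hvv
  have h2 := (abs_le.1 (hrle v hvv)).2
  have hei : IntervalIntegrable e volume s v := by
    refine ((hEi.const_mul 2).sub (hb.const_mul 2)).congr ?_
    intro x hx
    rw [uIoc_of_le hsv] at hx
    exact (h.he x ⟨hs.1.trans hx.1.le, hx.2.trans hv1.2⟩).symm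
  rw [intervalIntegral.integral_sub (hEi.const_mul 2) hei] at h1
  have h3 : ∫ x in s..v, 2 * E x ≤ ∫ x in s..v, 2 * E t0 := by
    refine intervalIntegral.integral_mono_on hsv (hEi.const_mul 2) intervalIntegrable_const
      fun x hx => ?_
    have := hEle x hx
    linarith
  rw [intervalIntegral.integral_const, smul_eq_mul] at h3
  have hEv := h.E_pos hv1
  have h4 : ∫ x in s..v, e x ≤ 2 * E s + 3.5 * U (s + 1) := by
    have h5 : (v - s) * (2 * E t0) = 1 / 2 * E t0 := by rw [hv]; ring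
    rw [h5] at h3
    have h6 := h.U_pos hs1
    linarith
  have h5 : ∫ x in s..v, e s ≤ ∫ x in s..v, A * e x := by
    refine intervalIntegral.integral_mono_on hsv intervalIntegrable_const (hei.const_mul A)
      fun x hx => ?_
    exact h.qm s hs x ⟨hs.1.trans hx.1, hx.2.trans hv1.2⟩ hx.1 (by
      have := hx.2; rw [hv] at this; linarith)
  rw [intervalIntegral.integral_const, smul_eq_mul, intervalIntegral.integral_const_mul] at h5
  have h6 : (v - s) * e s = 1 / 4 * e s := by rw [hv]; ring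
  rw [h6] at h5
  have h7 : A * ∫ x in s..v, e x ≤ A * (2 * E s + 3.5 * U (s + 1)) :=
    mul_le_mul_of_nonneg_left h4 hA.le
  have h8 := h.E_pos hs
  have h9 := h.U_pos hs1
  have h10 : 0 < A * E s := mul_pos hA h8
  have h11 : 0 < A * U (s + 1) := mul_pos hA h9
  nlinarith

/-- where `U` does not double, `e ≤ 120 A E`. -/
theorem e_le' (h : RD A D0 D1 α β E e b R r U) {s : ℝ} (hs : s ∈ Icc α β)
    (hs1 : s + 1 ∈ Icc α β) (hU2 : U (s + 1) ≤ 2 * U s) : e s ≤ 120 * A * E s := by
  have h1 := h.e_le hs hs1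
  have h2 := h.hUE s hs
  have h3 := h.A_pos
  have h4 := h.E_pos hs
  have h5 : A * (E s + U (s + 1)) ≤ A * (5 * E s) := mul_le_mul_of_nonneg_left (by linarith) h3.le
  nlinarith

/-- lower bound of `e`. -/
theorem le_e (h : RD A D0 D1 α β E e b R r U) {t : ℝ} (ht : t ∈ Icc α β)
    (ht1 : t - 1 ∈ Icc α β) : D0 / (2 * A) ≤ e t := by
  have h1 := h.hEe (t - 1) ht1 (by rw [sub_add_cancel]; exact ht)
  rw [sub_add_cancel] at h1
  have h2 := h.hD0 (t - 1) ht1
  have h3 := h.hUE (t - 1) ht1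
  have h4 := h.A_pos
  rw [div_le_iff₀ (by positivity)]
  nlinarith

theorem e_pow (h : RD A D0 D1 α β E e b R r U) {s : ℝ} (hs : s ∈ Icc α β) :
    ∀ i : ℕ, s + i ∈ Icc α β → e s ≤ A ^ i * e (s + i) := by
  intro i
  have hA := h.A_pos
  induction i with
  | zero => intro _; simp
  | succ i ih =>
    intro hi
    push_cast at hi ⊢
    have h1 : s + i ∈ Icc α β := by
      have : (0 : ℝ) ≤ i := Nat.cast_nonneg i
      exact ⟨by linarith [hs.1], by linarith [hi.2]⟩
    have h2 := h.qm (s + i) h1 (s + (i + 1)) hi (by linarith) (by linarith)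
    calc e s ≤ A ^ i * e (s + i) := ih h1
      _ ≤ A ^ i * (A * e (s + (i + 1))) := mul_le_mul_of_nonneg_left h2 (by positivity)
      _ = A ^ (i + 1) * e (s + (i + 1)) := by ring

/-- the exceptional set of scales: jump of `e` over `J` units, or doubling of `U` over one. -/
def Bad (J : ℕ) (K : ℝ) (e U : ℝ → ℝ) : Set ℝ := {t | K * e t < e (t + J) ∨ 2 * U t < U (t + 1)}

theorem measurableSet_bad (h : RD A D0 D1 α β E e b R r U) (J : ℕ) (K : ℝ) :
    MeasurableSet (Bad J K e U) := by
  refine (measurableSet_lt (h.meas_e.const_mul K) ?_).union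
    (measurableSet_lt (h.meas_U.const_mul 2) ?_)
  · exact h.meas_e.comp (measurable_id.add_const _)
  · exact h.meas_U.comp (measurable_id.add_const _)

/-- **regular scale**: `e(t') ≤ 120 A^(J+2) K E(t)` for `t ≤ t' ≤ t + J`. -/
theorem regular (h : RD A D0 D1 α β E e b R r U) {J : ℕ} (hJ : 1 ≤ J) {K t : ℝ} (hK : 0 ≤ K)
    (ht : t ∈ Icc α β) (htJ : t + J ∈ Icc α β) (hB : t ∉ Bad J K e U) {t' : ℝ} (h1 : t ≤ t')
    (h2 : t' ≤ t + J) : e t' ≤ 120 * A ^ (J + 2) * K * E t := by
  have hJr : (1 : ℝ) ≤ J := by exact_mod_cast hJ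
  have hA := h.A_pos
  have hA1 := h.hA
  have hE := h.E_pos ht
  have hB1 : e (t + J) ≤ K * e t := not_lt.1 fun h' => hB (Or.inl h')
  have hB2 : U (t + 1) ≤ 2 * U t := not_lt.1 fun h' => hB (Or.inr h')
  have ht1 : t + 1 ∈ Icc α β := ⟨by linarith [ht.1], by linarith [htJ.2]⟩
  have h3 := h.e_le' ht ht1 hB2
  have hlt : 0 ≤ t + J - t' := by linarith
  set i : ℕ := ⌊t + J - t'⌋₊ with hi
  have h4 : (i : ℝ) ≤ t + J - t' := Nat.floor_le hlt
  have h5 : t + J - t' < i + 1 := Nat.lt_floor_add_one _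
  have htm : t' ∈ Icc α β := ⟨ht.1.trans h1, h2.trans htJ.2⟩
  have hti : t' + i ∈ Icc α β := ⟨by linarith [htm.1, (Nat.cast_nonneg i : (0 : ℝ) ≤ i)],
    by linarith [htJ.2]⟩
  have h6 := h.e_pow htm i hti
  have h7 := h.qm (t' + i) hti (t + J) htJ (by linarith) (by linarith)
  have hiJ : i ≤ J := by
    have : (i : ℝ) ≤ J := by linarith
    exact_mod_cast this
  have h8 : e (t + J) ≤ K * (120 * A * E t) := hB1.trans (mul_le_mul_of_nonneg_left h3 hK)
  calc e t' ≤ A ^ i * e (t' + i) := h6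
    _ ≤ A ^ i * (A * e (t + J)) := mul_le_mul_of_nonneg_left h7 (by positivity)
    _ ≤ A ^ i * (A * (K * (120 * A * E t))) := by
        refine mul_le_mul_of_nonneg_left (mul_le_mul_of_nonneg_left h8 hA.le) (by positivity)
    _ = A ^ i * (120 * A ^ 2 * K * E t) := by ring
    _ ≤ A ^ J * (120 * A ^ 2 * K * E t) :=
        mul_le_mul_of_nonneg_right (pow_le_pow_right₀ hA1 hiJ) (by positivity)
    _ = 120 * A ^ (J + 2) * K * E t := by ring

/-- **(c) of (REG), one block.** -/
theorem vol_bad (h : RD A D0 D1 α β E e b R r U) {J : ℕ} (hJ : 1 ≤ J) {K a c : ℝ} (hK : 1 < K)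
    (ha : α + 1 ≤ a) (hac : a ≤ c) (hc : c + J + 1 ≤ β) :
    (volume (Bad J K e U ∩ Icc a c)).toReal ≤
      (J * Real.log (2 * A * D1 / D0) + (c - a) * (J * Real.log A)) / Real.log K +
        Real.log (2 * A * D1 / D0) / Real.log 2 := by
  have hJr : (1 : ℝ) ≤ J := by exact_mod_cast hJ
  have hA := h.A_pos
  have hA1 := h.hA
  have hlA : 0 ≤ Real.log A := Real.log_nonneg hA1
  have hlK : 0 < Real.log K := Real.log_pos hK
  have hl2 : 0 < Real.log 2 := Real.log_pos one_lt_two
  have hD0 := h.D0_pos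
  have hpos : ∀ t, t ∈ Icc a (c + J) → 0 < e t ∧ D0 / (2 * A) ≤ e t ∧ e t ≤ D1 := by
    intro t ht
    have htm : t ∈ Icc α β := ⟨by linarith [ht.1], by linarith [ht.2]⟩
    have h1 := h.le_e htm ⟨by linarith [ht.1], by linarith [htm.2]⟩
    exact ⟨lt_of_lt_of_le (by positivity) h1, h1, h.he1 t htm⟩
  have hD1 : 0 < D1 := by
    have := hpos a ⟨le_rfl, by linarith⟩
    linarith
  have hlog : Real.log (2 * A * D1 / D0) = Real.log D1 - Real.log (D0 / (2 * A)) := by
    rw [← Real.log_div hD1.ne' (by positivity)]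
    congr 1
    field_simp
  have hH0 : 0 ≤ Real.log (2 * A * D1 / D0) := by
    rw [hlog]
    obtain ⟨h1, h2, h3⟩ := hpos a ⟨le_rfl, by linarith⟩
    have := Real.log_le_log (by positivity : 0 < D0 / (2 * A)) (h2.trans h3)
    linarith
  -- part 1
  have hp1 := vol_jump (f := fun t => Real.log (e t)) (a := a) (b := c) (J := J)
    (D := J * Real.log A) (K := Real.log K) (L0 := Real.log (D0 / (2 * A))) (L1 := Real.log D1)
    hac (by linarith) (by positivity) (Real.measurable_log.comp h.meas_e)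
    (fun t ht => Real.log_le_log (by positivity) (hpos t ht).2.1)
    (fun t ht => Real.log_le_log (hpos t ht).1 (hpos t ht).2.2)
    (fun t ht => by
      have htm : t ∈ Icc α β := ⟨by linarith [ht.1], by linarith [ht.2]⟩
      have h1 := h.e_pow htm J ⟨by linarith [htm.1], by linarith [ht.2]⟩
      have h2 := (hpos t ⟨ht.1, by linarith [ht.2]⟩).1
      have h3 := (hpos (t + J) ⟨by linarith [ht.1], by linarith [ht.2]⟩).1
      have h4 := Real.log_le_log h2 h1
      rw [Real.log_mul (by positivity) h3.ne', Real.log_pow] at h4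
      show Real.log (e t) - J * Real.log A ≤ Real.log (e (t + J))
      linarith)
  rw [← hlog] at hp1
  -- part 2
  have hU1 : ∀ t, t ∈ Icc a (c + 1) → 0 < U t ∧ D0 ≤ U t ∧ U t ≤ 2 * A * D1 := by
    intro t ht
    have htm : t ∈ Icc α β := ⟨by linarith [ht.1], by linarith [ht.2]⟩
    refine ⟨h.U_pos htm, h.hD0 t htm, ?_⟩
    have ht1 : t + 1 ∈ Icc α β := ⟨by linarith [ht.1], by linarith [ht.2]⟩
    have h1 := h.hUE t htm
    have h2 := h.hEe t htm ht1
    have h3 := h.he1 _ ht1
    have h4 : A * e (t + 1) ≤ A * D1 := mul_le_mul_of_nonneg_left h3 hA.le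
    linarith
  have hp2 := vol_jump (f := fun t => Real.log (U t)) (a := a) (b := c) (J := 1)
    (D := 0) (K := Real.log 2) (L0 := Real.log D0) (L1 := Real.log (2 * A * D1))
    hac zero_le_one le_rfl (Real.measurable_log.comp h.meas_U)
    (fun t ht => Real.log_le_log hD0 (hU1 t ht).2.1)
    (fun t ht => Real.log_le_log (hU1 t ht).1 (hU1 t ht).2.2)
    (fun t ht => by
      have htm : t ∈ Icc α β := ⟨by linarith [ht.1], by linarith [ht.2]⟩
      have ht1 : t + 1 ∈ Icc α β := ⟨by linarith [ht.1], by linarith [ht.2]⟩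
      have h1 := h.U_mono htm ht1 (by linarith)
      have h2 := Real.log_le_log (h.U_pos htm) h1
      show Real.log (U t) - 0 ≤ Real.log (U (t + 1))
      linarith)
  rw [← Real.log_div (by positivity) hD0.ne'] at hp2
  set S1 : Set ℝ := {t | t ∈ Icc a c ∧ Real.log (e t) + Real.log K < Real.log (e (t + J))} with hS1
  set S2 : Set ℝ := {t | t ∈ Icc a c ∧ Real.log (U t) + Real.log 2 < Real.log (U (t + 1))}
    with hS2
  have hsub : Bad J K e U ∩ Icc a c ⊆ S1 ∪ S2 := by
    rintro t ⟨hB | hB, ht⟩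
    · left
      refine ⟨ht, ?_⟩
      have h2 := (hpos t ⟨ht.1, by linarith [ht.2]⟩).1
      rw [← Real.log_mul h2.ne' (by positivity), mul_comm]
      exact Real.log_lt_log (by positivity) hB
    · right
      refine ⟨ht, ?_⟩
      have h2 := (hU1 t ⟨ht.1, by linarith [ht.2]⟩).1
      rw [← Real.log_mul h2.ne' (by positivity), mul_comm]
      exact Real.log_lt_log (by positivity) hB
  have hfin1 : volume S1 ≠ ⊤ :=
    ne_top_of_le_ne_top (by simp : volume (Icc a c) ≠ ⊤) (measure_mono fun t ht => ht.1)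
  have hfin2 : volume S2 ≠ ⊤ :=
    ne_top_of_le_ne_top (by simp : volume (Icc a c) ≠ ⊤) (measure_mono fun t ht => ht.1)
  have hle : (volume (Bad J K e U ∩ Icc a c)).toReal ≤
      (volume S1).toReal + (volume S2).toReal := by
    rw [← ENNReal.toReal_add hfin1 hfin2]
    exact ENNReal.toReal_mono (ENNReal.add_ne_top.2 ⟨hfin1, hfin2⟩)
      ((measure_mono hsub).trans (measure_union_le _ _))
  refine hle.trans (add_le_add ?_ ?_)
  · rw [le_div_iff₀ hlK]
    linarith
  · rw [le_div_iff₀ hl2]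
    linarith

/-- **(REG), sum over dyadic blocks** in the form consumed by `Ode_201.Dat.run`. -/
theorem sum_bad (h : RD A D0 D1 α β E e b R r U) {J : ℕ} (hJ : 1 ≤ J) {K : ℝ} (hK : 1 < K)
    {k0 N : ℕ} (ha : α + 1 ≤ 2 ^ k0) (hc : (2 : ℝ) ^ (k0 + N) + J + 1 ≤ β) :
    ∑ k ∈ Finset.range N,
      (volume (Bad J K e U ∩ Icc ((2 : ℝ) ^ (k0 + k)) (2 ^ (k0 + k + 1)))).toReal / 2 ^ (k0 + k)
      ≤ N * (J * Real.log A / Real.log K) +
        (J / Real.log K + 1 / Real.log 2) * Real.log (2 * A * D1 / D0) * (2 / 2 ^ k0) := by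
  have hlK : 0 < Real.log K := Real.log_pos hK
  have hl2 : 0 < Real.log 2 := Real.log_pos one_lt_two
  have hJr : (1 : ℝ) ≤ J := by exact_mod_cast hJ
  set H0 : ℝ := Real.log (2 * A * D1 / D0) with hH0
  rcases Nat.eq_zero_or_pos N with hN | hN
  · subst hN
    have hcc : (2 : ℝ) ^ k0 + J + 1 ≤ β := by simpa using hc
    have hH : 0 ≤ H0 := by
      have hm : (2 : ℝ) ^ k0 ∈ Icc α β := ⟨by linarith, by linarith⟩
      have h1 := h.le_e hm ⟨by linarith, by linarith⟩
      have h2 := h.he1 _ hm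
      have hA := h.A_pos
      have hD0 := h.D0_pos
      rw [hH0]
      apply Real.log_nonneg
      rw [le_div_iff₀ hD0]
      rw [div_le_iff₀ (by positivity)] at h1
      nlinarith
    simp only [Finset.range_zero, Finset.sum_empty, Nat.cast_zero, zero_mul, zero_add]
    positivity
  have hterm : ∀ k ∈ Finset.range N,
      (volume (Bad J K e U ∩ Icc ((2 : ℝ) ^ (k0 + k)) (2 ^ (k0 + k + 1)))).toReal / 2 ^ (k0 + k)
      ≤ J * Real.log A / Real.log K +
        (J / Real.log K + 1 / Real.log 2) * H0 * (1 / 2 ^ k0) * (1 / 2) ^ k := by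
    intro k hk
    have hkN := Finset.mem_range.1 hk
    have hp : (0 : ℝ) < 2 ^ (k0 + k) := by positivity
    have h1 : (2 : ℝ) ^ k0 ≤ 2 ^ (k0 + k) := pow_le_pow_right₀ one_le_two (by omega)
    have h2 : (2 : ℝ) ^ (k0 + k + 1) ≤ 2 ^ (k0 + N) := pow_le_pow_right₀ one_le_two (by omega)
    have h3 : (2 : ℝ) ^ (k0 + k) ≤ 2 ^ (k0 + k + 1) := pow_le_pow_right₀ one_le_two (by omega)
    have h4 := h.vol_bad hJ hK (a := 2 ^ (k0 + k)) (c := 2 ^ (k0 + k + 1)) (by linarith) h3
      (by linarith)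
    rw [div_le_iff₀ hp]
    refine h4.trans (le_of_eq ?_)
    have h5 : (2 : ℝ) ^ (k0 + k + 1) - 2 ^ (k0 + k) = 2 ^ (k0 + k) := by ring
    rw [h5]
    have h6 : (1 : ℝ) / 2 ^ k0 * (1 / 2) ^ k * 2 ^ (k0 + k) = 1 := by
      rw [one_div_pow, pow_add]
      field_simp
    calc (J * H0 + 2 ^ (k0 + k) * (J * Real.log A)) / Real.log K + H0 / Real.log 2
        = J * Real.log A / Real.log K * 2 ^ (k0 + k) +
          (J / Real.log K + 1 / Real.log 2) * H0 * 1 := by
          field_simp
          ring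
      _ = J * Real.log A / Real.log K * 2 ^ (k0 + k) +
          (J / Real.log K + 1 / Real.log 2) * H0 * (1 / 2 ^ k0 * (1 / 2) ^ k * 2 ^ (k0 + k)) := by
          rw [h6]
      _ = _ := by ring
  have hH : 0 ≤ H0 := by
    have hm : (2 : ℝ) ^ k0 ∈ Icc α β := by
      have h2 : (2 : ℝ) ^ k0 ≤ 2 ^ (k0 + N) := pow_le_pow_right₀ one_le_two (by omega)
      exact ⟨by linarith, by linarith⟩
    have h1 := h.le_e hm ⟨by linarith, by linarith [hm.2]⟩
    have h2 := h.he1 _ hm
    have hA := h.A_pos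
    have hD0 := h.D0_pos
    rw [hH0]
    apply Real.log_nonneg
    rw [le_div_iff₀ hD0]
    rw [div_le_iff₀ (by positivity)] at h1
    nlinarith
  refine (Finset.sum_le_sum hterm).trans ?_
  rw [Finset.sum_add_distrib, Finset.sum_const, Finset.card_range, nsmul_eq_mul,
    ← Finset.mul_sum]
  have hgeo : ∑ i ∈ Finset.range N, ((1 : ℝ) / 2) ^ i ≤ 2 := by
    have := summable_geometric_two.sum_le_tsum (Finset.range N) (fun i _ => by positivity)
    rw [tsum_geometric_two] at this
    exact this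
  have hc0 : 0 ≤ (J / Real.log K + 1 / Real.log 2) * H0 * (1 / 2 ^ k0) := by positivity
  have := mul_le_mul_of_nonneg_left hgeo hc0
  have he : (J / Real.log K + 1 / Real.log 2) * H0 * (1 / 2 ^ k0) * 2 =
      (J / Real.log K + 1 / Real.log 2) * H0 * (2 / 2 ^ k0) := by ring
  linarith

/-- **(REG)**: for every `η > 0` there is `K = K(A, J, η)` such that the mean density of the
exceptional set is `≤ η` as soon as `2^k0 ≥ C log (2 A D1 / D0) / η`, `C = C(A, J, η)`. -/
theorem exists_reg (A : ℝ) (hA : 1 ≤ A) {J : ℕ} (hJ : 1 ≤ J) {η : ℝ} (hη : 0 < η) :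
    ∃ K > (1 : ℝ), ∃ C > (0 : ℝ), ∀ {D0 D1 α β : ℝ} {E e b R r U : ℝ → ℝ},
      RD A D0 D1 α β E e b R r U → ∀ {k0 N : ℕ}, 0 < N → α + 1 ≤ 2 ^ k0 →
      (2 : ℝ) ^ (k0 + N) + J + 1 ≤ β → C * Real.log (2 * A * D1 / D0) ≤ 2 ^ k0 →
      ∑ k ∈ Finset.range N,
        (volume (Bad J K e U ∩ Icc ((2 : ℝ) ^ (k0 + k)) (2 ^ (k0 + k + 1)))).toReal /
          2 ^ (k0 + k) ≤ η * N := by
  have hlA : 0 ≤ Real.log A := Real.log_nonneg hA
  have hl2 : 0 < Real.log 2 := Real.log_pos one_lt_two
  have hJr : (1 : ℝ) ≤ J := by exact_mod_cast hJ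
  set L : ℝ := 2 * (J * Real.log A + 1) / η with hL
  have hLpos : 0 < L := by positivity
  refine ⟨Real.exp L, Real.one_lt_exp_iff.2 hLpos, 4 * (J / L + 1 / Real.log 2) / η,
    by positivity, ?_⟩
  intro D0 D1 α β E e b R r U h k0 N hN ha hc hC
  refine (h.sum_bad hJ (Real.one_lt_exp_iff.2 hLpos) ha hc).trans ?_
  rw [Real.log_exp]
  have hNr : (1 : ℝ) ≤ N := by exact_mod_cast hN
  have h1 : J * Real.log A / L ≤ η / 2 := by
    rw [hL, div_le_iff₀ (by positivity)]
    have : η / 2 * (2 * (J * Real.log A + 1) / η) = J * Real.log A + 1 := by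
      field_simp
    rw [this]
    linarith
  have h2 : (J / L + 1 / Real.log 2) * Real.log (2 * A * D1 / D0) * (2 / 2 ^ k0) ≤ η / 2 := by
    have hp : (0 : ℝ) < 2 ^ k0 := by positivity
    have h3 : (J / L + 1 / Real.log 2) * Real.log (2 * A * D1 / D0) ≤ η / 4 * 2 ^ k0 := by
      have h4 : η / 4 * (4 * (J / L + 1 / Real.log 2) / η * Real.log (2 * A * D1 / D0)) ≤
          η / 4 * 2 ^ k0 := mul_le_mul_of_nonneg_left hC (by positivity)
      have h5 : η / 4 * (4 * (J / L + 1 / Real.log 2) / η * Real.log (2 * A * D1 / D0)) =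
          (J / L + 1 / Real.log 2) * Real.log (2 * A * D1 / D0) := by
        field_simp
      linarith
    calc (J / L + 1 / Real.log 2) * Real.log (2 * A * D1 / D0) * (2 / 2 ^ k0)
        ≤ η / 4 * 2 ^ k0 * (2 / 2 ^ k0) := mul_le_mul_of_nonneg_right h3 (by positivity)
      _ = η / 2 := by field_simp; ring
  have h3 : (N : ℝ) * (J * Real.log A / L) ≤ N * (η / 2) :=
    mul_le_mul_of_nonneg_left h1 (by linarith)
  nlinarith

end RD

end Crest.Agent.R234.Reg1_504
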