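import Crest.Agent.R234.Core1_809
import Crest.Agent.R234.Reg1_504

/-!
# Row 234 (helper98): absorption of the AS(δ) errors at a contact centre

Contact is used for `b - (K m / 2) δ e` instead of `b`.  With

  `Es = E + K δ e + P`,  `Us = Es - 2 Bs`,  `Bs' = b - g - (K m / 2) δ e`

(`P' = p` bounds the errors which decay with the scale) all first variation errors of (W1) - (W3)
are absorbed:  `Us' = Rs ≥ R + 2 g + K₀ δ (et + e)`, `(IF' / 2)² ≤ IF Rs + κ Us²`.
-/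

set_option autoImplicit false

open MeasureTheory Set Filter Topology

noncomputable section

namespace Crest.Agent.R234.Shp_98

/-- the sharp energy -/
def Es (K δ : ℝ) (E e P : ℝ → ℝ) (l : ℝ) : ℝ := E l + K * δ * e l + P l

/-- the sharp radial energy below the scale -/
def Us (K δ : ℝ) (E e P B : ℝ → ℝ) (l : ℝ) : ℝ := Es K δ E e P l - 2 * B l

/-- the derivative of `Us` -/
def Rs (K δ : ℝ) (e et g R f p : ℝ → ℝ) (l : ℝ) : ℝ :=
  R l + f l + 2 * g l + K * δ * (et l + 2 * e l) + p l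

theorem hasDerivAt_Us {m K δ l : ℝ} {E e et b g R f p P B : ℝ → ℝ}
    (hE : HasDerivAt E (2 * b l + R l + f l) l)
    (he : HasDerivAt e (et l - (m - 2) * e l) l)
    (hP : HasDerivAt P (p l) l)
    (hB : HasDerivAt B (b l - g l - K * m / 2 * δ * e l) l) :
    HasDerivAt (Us K δ E e P B) (Rs K δ e et g R f p l) l := by
  have h2 := ((hE.add (he.const_mul (K * δ))).add hP).sub (hB.const_mul 2)
  refine h2.congr_deriv ?_
  unfold Rs
  ring

theorem Rs_ge {K K₀ c δ l : ℝ} {e et g R f p : ℝ → ℝ} (hδ : 0 ≤ δ)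
    (hK : c + K₀ ≤ K) (hK0 : 0 ≤ K) (he : 0 ≤ e l) (het : 0 ≤ et l)
    (hf : |f l| ≤ c * δ * (e l + et l) + p l) :
    R l + 2 * g l + K₀ * δ * (e l + et l) ≤ Rs K δ e et g R f p l := by
  have h1 := (abs_le.1 hf).1
  have h2 : (c + K₀) * (δ * (e l + et l)) ≤ K * (δ * (e l + et l)) :=
    mul_le_mul_of_nonneg_right hK (by positivity)
  have h3 : 0 ≤ K * δ * e l := by positivity
  unfold Rs
  nlinarith

theorem Rs_le {K c δ l : ℝ} {e et g R f p : ℝ → ℝ} (hδ : 0 ≤ δ)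
    (hK0 : 0 ≤ K) (het : 0 ≤ et l)
    (hf : |f l| ≤ c * δ * (e l + et l) + p l) :
    Rs K δ e et g R f p l ≤ R l + 2 * g l + (2 * K + c) * δ * (e l + et l) + 2 * p l := by
  have h1 := (abs_le.1 hf).2
  have h3 : 0 ≤ K * δ * et l := by positivity
  unfold Rs
  nlinarith

/-- absorption in (W2), (W3): `IF' / 2 = F + G`, `F² ≤ IF R`. -/
theorem cs_absorb {I R et F G c δ κ t U K₀ : ℝ} (hI : 0 ≤ I) (hR : 0 ≤ R) (hRet : R ≤ et)
    (hF : F ^ 2 ≤ I * R) (hδ : 0 < δ) (hδ1 : δ ≤ 1)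
    (hG : |G| ≤ c * δ * √(I * et) + t) (ht : 3 * t ^ 2 ≤ κ * δ * U ^ 2)
    (hK : 2 * c + 1 + 2 * c ^ 2 ≤ K₀) :
    (F + G) ^ 2 ≤ I * (R + K₀ * δ * et) + κ * U ^ 2 := by
  have het : 0 ≤ et := hR.trans hRet
  set a : ℝ := √(I * et) with ha
  have ha0 : 0 ≤ a := Real.sqrt_nonneg _
  have ha2 : a ^ 2 = I * et := Real.sq_sqrt (by positivity)
  have hFa : |F| ≤ a := by
    apply Real.abs_le_sqrt
    exact hF.trans (mul_le_mul_of_nonneg_left hRet hI)
  have h1 : |F * G| ≤ a * (c * δ * a + t) := by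
    rw [abs_mul]
    exact mul_le_mul hFa hG (abs_nonneg _) ha0
  have h2 : G ^ 2 ≤ (c * δ * a + t) ^ 2 := by
    rw [← sq_abs G]
    exact pow_le_pow_left₀ (abs_nonneg _) hG 2
  have h3 : F * G ≤ a * (c * δ * a + t) := (le_abs_self _).trans h1
  -- `2 a t ≤ δ a² + t² / δ`
  have h4 : 2 * (a * t) ≤ δ * a ^ 2 + t ^ 2 / δ := by
    have h5 : 0 ≤ (δ * a - t) ^ 2 / δ := by positivity
    have h6 : (δ * a - t) ^ 2 / δ = δ * a ^ 2 - 2 * (a * t) + t ^ 2 / δ := by
      field_simp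
      ring
    linarith
  have h7 : t ^ 2 ≤ t ^ 2 / δ := by
    rw [le_div_iff₀ hδ]
    nlinarith [sq_nonneg t]
  have h8 : 3 * (t ^ 2 / δ) ≤ κ * U ^ 2 := by
    have : 3 * (t ^ 2 / δ) = 3 * t ^ 2 / δ := by ring
    rw [this, div_le_iff₀ hδ]
    linarith
  have h9 : (c * δ * a + t) ^ 2 ≤ 2 * (c ^ 2 * δ * a ^ 2) + 2 * t ^ 2 := by
    have h10 : (c * δ * a + t) ^ 2 ≤ 2 * (c * δ * a) ^ 2 + 2 * t ^ 2 := by
      nlinarith [sq_nonneg (c * δ * a - t)]
    have h11 : (c * δ * a) ^ 2 ≤ c ^ 2 * δ * a ^ 2 := by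
      have : (c * δ * a) ^ 2 = c ^ 2 * δ * a ^ 2 * δ := by ring
      rw [this]
      exact mul_le_of_le_one_right (by positivity) hδ1
    linarith
  have h12 : (2 * c + 1 + 2 * c ^ 2) * (δ * a ^ 2) ≤ K₀ * (δ * a ^ 2) :=
    mul_le_mul_of_nonneg_right hK (by positivity)
  have h13 : I * (R + K₀ * δ * et) = I * R + K₀ * (δ * a ^ 2) := by rw [ha2]; ring
  rw [h13]
  nlinarith

/-! ## One contact centre -/

/-- averaged quantities at one contact centre, for all scales `l = log s ≤ T`: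
`E, e, b, R` of (W1), `et = e' + (m-2) e`, `g` the part of the anomaly which is not in the contact
problem, `f` the first variation error, `p = P'` its decaying part, `B` the contact potential
difference. -/
structure Raw (m K c δ T : ℝ) (E e et b g R f p P B : ℝ → ℝ) : Prop where
  m0 : 0 ≤ m
  δ0 : 0 < δ
  K0 : 0 ≤ K
  cE : Continuous E
  ce : Continuous e
  cet : Continuous et
  cb : Continuous b
  cg : Continuous g
  cR : Continuous R
  cf : Continuous f
  cp : Continuous p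
  cP : Continuous P
  cB : Continuous B
  dE : ∀ l ≤ T, HasDerivAt E (2 * b l + R l + f l) l
  de : ∀ l ≤ T, HasDerivAt e (et l - (m - 2) * e l) l
  dP : ∀ l ≤ T, HasDerivAt P (p l) l
  dB : ∀ l ≤ T, HasDerivAt B (b l - g l - K * m / 2 * δ * e l) l
  Eb : ∀ l ≤ T, E l = b l + e l / 2
  e0 : ∀ l ≤ T, 0 ≤ e l
  g0 : ∀ l ≤ T, 0 ≤ g l
  R0 : ∀ l ≤ T, 0 ≤ R l
  p0 : ∀ l ≤ T, 0 ≤ p l
  P0 : ∀ l ≤ T, 0 ≤ P l
  Ret : ∀ l ≤ T, R l ≤ et l
  f_le : ∀ l ≤ T, |f l| ≤ c * δ * (e l + et l) + p l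

/-- the sharp anomaly -/
def bs (m K δ : ℝ) (e b g : ℝ → ℝ) (l : ℝ) : ℝ := b l - g l - K * m / 2 * δ * e l

/-- the sharp energy density -/
def es (m K δ : ℝ) (E e b g P : ℝ → ℝ) (l : ℝ) : ℝ := 2 * Es K δ E e P l - 2 * bs m K δ e b g l

namespace Raw

variable {m K K₀ c δ T : ℝ} {E e et b g R f p P B : ℝ → ℝ}

theorem et0 (h : Raw m K c δ T E e et b g R f p P B) {l : ℝ} (hl : l ≤ T) : 0 ≤ et l :=
  (h.R0 l hl).trans (h.Ret l hl)

theorem dU (h : Raw m K c δ T E e et b g R f p P B) {l : ℝ} (hl : l ≤ T) :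
    HasDerivAt (Us K δ E e P B) (Rs K δ e et g R f p l) l :=
  hasDerivAt_Us (h.dE l hl) (h.de l hl) (h.dP l hl) (h.dB l hl)

theorem cont_Rs (h : Raw m K c δ T E e et b g R f p P B) : Continuous (Rs K δ e et g R f p) := by
  have h1 := h.cR
  have h2 := h.cf
  have h3 := h.cg
  have h4 := h.cet
  have h5 := h.ce
  have h6 := h.cp
  unfold Rs
  fun_prop

theorem cont_Es (h : Raw m K c δ T E e et b g R f p P B) : Continuous (Es K δ E e P) := by
  have h1 := h.cE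
  have h5 := h.ce
  have h6 := h.cP
  unfold Es
  fun_prop

theorem cont_Us (h : Raw m K c δ T E e et b g R f p P B) : Continuous (Us K δ E e P B) := by
  have h1 := h.cont_Es
  have h5 := h.cB
  unfold Us
  fun_prop

theorem cont_bs (h : Raw m K c δ T E e et b g R f p P B) : Continuous (bs m K δ e b g) := by
  have h1 := h.cb
  have h2 := h.cg
  have h5 := h.ce
  unfold bs
  fun_prop

theorem cont_es (h : Raw m K c δ T E e et b g R f p P B) : Continuous (es m K δ E e b g P) := by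
  have h1 := h.cont_Es
  have h2 := h.cont_bs
  unfold es
  fun_prop

theorem Rs_lower (h : Raw m K c δ T E e et b g R f p P B) (hK : c + K₀ ≤ K) {l : ℝ}
    (hl : l ≤ T) : R l + 2 * g l + K₀ * δ * (e l + et l) ≤ Rs K δ e et g R f p l :=
  Rs_ge h.δ0.le hK h.K0 (h.e0 l hl) (h.et0 hl) (h.f_le l hl)

theorem Rs_upper (h : Raw m K c δ T E e et b g R f p P B) {l : ℝ} (hl : l ≤ T) :
    Rs K δ e et g R f p l ≤ R l + 2 * g l + (2 * K + c) * δ * (e l + et l) + 2 * p l :=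
  Rs_le h.δ0.le h.K0 (h.et0 hl) (h.f_le l hl)

theorem R_le_Rs (h : Raw m K c δ T E e et b g R f p P B) (hK : c ≤ K) {l : ℝ} (hl : l ≤ T) :
    R l ≤ Rs K δ e et g R f p l := by
  have h1 := h.Rs_lower (K₀ := 0) (by linarith) hl
  have h2 := h.g0 l hl
  linarith

theorem Rs_nonneg (h : Raw m K c δ T E e et b g R f p P B) (hK : c ≤ K) {l : ℝ} (hl : l ≤ T) :
    0 ≤ Rs K δ e et g R f p l := (h.R0 l hl).trans (h.R_le_Rs hK hl)

theorem Us_sub (h : Raw m K c δ T E e et b g R f p P B) {s t : ℝ} (hs : s ≤ T) (ht : t ≤ T) :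
    Us K δ E e P B t - Us K δ E e P B s = ∫ x in s..t, Rs K δ e et g R f p x := by
  symm
  refine intervalIntegral.integral_eq_sub_of_hasDerivAt (fun x hx => ?_)
    (h.cont_Rs.intervalIntegrable _ _)
  exact h.dU (hx.2.trans (max_le hs ht))

theorem Us_mono (h : Raw m K c δ T E e et b g R f p P B) (hK : c ≤ K) {s t : ℝ} (hst : s ≤ t)
    (ht : t ≤ T) : Us K δ E e P B s ≤ Us K δ E e P B t := by
  have h1 := h.Us_sub (hst.trans ht) ht
  have h2 : 0 ≤ ∫ x in s..t, Rs K δ e et g R f p x :=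
    intervalIntegral.integral_nonneg hst fun x hx => h.Rs_nonneg hK (hx.2.trans ht)
  linarith

/-- `P(l) ≤ Us(l)` when everything vanishes at `-∞`: not used, `Us ≥ 0`. -/
theorem Us_nonneg (h : Raw m K c δ T E e et b g R f p P B) (hK : c ≤ K)
    (hlim : Tendsto (Us K δ E e P B) atBot (𝓝 0)) {l : ℝ} (hl : l ≤ T) :
    0 ≤ Us K δ E e P B l := by
  refine le_of_tendsto hlim ?_
  filter_upwards [eventually_le_atBot l] with s hs
  exact h.Us_mono hK hs hl

theorem Es_sub (h : Raw m K c δ T E e et b g R f p P B) {s t : ℝ} (hs : s ≤ T) (ht : t ≤ T) :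
    Es K δ E e P t - Es K δ E e P s =
      ∫ x in s..t, (2 * bs m K δ e b g x + Rs K δ e et g R f p x) := by
  symm
  refine intervalIntegral.integral_eq_sub_of_hasDerivAt (fun x hx => ?_)
    (((h.cont_bs.const_mul 2).add h.cont_Rs).intervalIntegrable _ _)
  have hx' : x ≤ T := hx.2.trans (max_le hs ht)
  have h1 := (h.dU hx').add ((h.dB x hx').const_mul 2)
  refine (h1.congr_of_eventuallyEq ?_).congr_deriv ?_
  · filter_upwards with y
    simp only [Us, Pi.add_apply]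
    ring
  · unfold bs
    ring

/-- **tall centres**. -/
theorem tall (h : Raw m K c δ T E e et b g R f p P B) (hK : c + K₀ ≤ K) (hK0 : 0 ≤ K₀)
    (hcK : c ≤ K) (hlim : Tendsto (Us K δ E e P B) atBot (𝓝 0)) {a θ : ℝ} (ha : a ≤ T)
    (hθ : ∀ x ∈ Icc (a - 1) a, θ ≤ e x) : K₀ * δ * θ ≤ Us K δ E e P B a := by
  have h0 : 0 ≤ Us K δ E e P B (a - 1) := h.Us_nonneg hcK hlim (by linarith)
  have h1 := h.Us_sub (s := a - 1) (t := a) (by linarith) ha
  have h2 : ∫ x in (a - 1)..a, (K₀ * δ * θ) ≤ ∫ x in (a - 1)..a, Rs K δ e et g R f p x := by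
    refine intervalIntegral.integral_mono_on (by linarith) (by simp)
      (h.cont_Rs.intervalIntegrable _ _) fun x hx => ?_
    have hx' : x ≤ T := hx.2.trans ha
    have h3 := h.Rs_lower hK hx'
    have h4 := h.g0 x hx'
    have h5 := h.R0 x hx'
    have h6 := h.et0 hx'
    have h7 : K₀ * δ * θ ≤ K₀ * δ * e x :=
      mul_le_mul_of_nonneg_left (hθ x hx) (mul_nonneg hK0 h.δ0.le)
    have h8 : 0 ≤ K₀ * δ * et x := by
      have := h.δ0
      positivity
    linarith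
  simp only [intervalIntegral.integral_const, smul_eq_mul] at h2
  have h9 : (a - (a - 1)) * (K₀ * δ * θ) = K₀ * δ * θ := by ring
  rw [h9] at h2
  linarith

/-- energy bound at all scales from `Us`. -/
theorem e_le_Us (h : Raw m K c δ T E e et b g R f p P B) (hK : c + K₀ ≤ K) (hK0 : 0 ≤ K₀)
    {A : ℝ} (hA : 0 < A) {l : ℝ} (hl : l + 1 ≤ T)
    (hU0 : 0 ≤ Us K δ E e P B l) (hqm : ∀ t ∈ Icc l (l + 1), e l ≤ A * e t) :
    K₀ * δ * e l ≤ A * Us K δ E e P B (l + 1) := by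
  have h1 := h.Us_sub (s := l) (t := l + 1) (by linarith) hl
  have h2 : ∫ x in l..(l + 1), (K₀ * δ * (e l / A)) ≤ ∫ x in l..(l + 1), Rs K δ e et g R f p x := by
    refine intervalIntegral.integral_mono_on (by linarith) (by simp)
      (h.cont_Rs.intervalIntegrable _ _) fun x hx => ?_
    have hx' : x ≤ T := hx.2.trans hl
    have h3 := h.Rs_lower hK hx'
    have h4 := h.g0 x hx'
    have h5 := h.R0 x hx'
    have h6 := h.et0 hx'
    have h7 : K₀ * δ * (e l / A) ≤ K₀ * δ * e x := by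
      refine mul_le_mul_of_nonneg_left ?_ (mul_nonneg hK0 h.δ0.le)
      rw [div_le_iff₀ hA]
      linarith [hqm x hx]
    have h8 : 0 ≤ K₀ * δ * et x := by
      have := h.δ0
      positivity
    linarith
  simp only [intervalIntegral.integral_const, smul_eq_mul] at h2
  have h9 : (l + 1 - l) * (K₀ * δ * (e l / A)) = K₀ * δ * e l / A := by ring
  rw [h9, div_le_iff₀ hA] at h2
  nlinarith

theorem es_eq (h : Raw m K c δ T E e et b g R f p P B) {l : ℝ} (hl : l ≤ T) :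
    es m K δ E e b g P l = (1 + (2 + m) * K * δ) * e l + 2 * g l + 2 * P l := by
  have h1 := h.Eb l hl
  unfold es Es bs
  rw [h1]
  ring

theorem e_le_es (h : Raw m K c δ T E e et b g R f p P B) {l : ℝ} (hl : l ≤ T) :
    e l ≤ es m K δ E e b g P l := by
  rw [h.es_eq hl]
  have h1 := h.e0 l hl
  have h2 := h.g0 l hl
  have h3 := h.P0 l hl
  have h4 := h.K0
  have h5 := h.δ0
  have h6 := h.m0
  have h7 : 0 ≤ (2 + m) * K * δ * e l := by positivity
  nlinarith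

theorem es_le (h : Raw m K c δ T E e et b g R f p P B) {l G : ℝ} (hl : l ≤ T)
    (hg : g l ≤ G * e l) :
    es m K δ E e b g P l ≤ (1 + 2 * G + (2 + m) * K * δ) * e l + 2 * P l := by
  rw [h.es_eq hl]
  nlinarith

/-- **504's `RD`** for the sharp quantities, `r = 0`. -/
theorem rd (h : Raw m K c δ T E e et b g R f p P B) (hK : c ≤ K) {A D₀ D₁ a : ℝ} (hA : 1 ≤ A)
    (hD₀ : 0 < D₀) (hU : D₀ ≤ Us K δ E e P B a) (hB : ∀ l ∈ Icc a T, 0 ≤ B l)
    (hD1 : ∀ l ∈ Icc a T, es m K δ E e b g P l ≤ D₁)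
    (hEe : ∀ t ∈ Icc a T, t + 1 ∈ Icc a T → E t ≤ A * e (t + 1))
    (hqe : ∀ s ∈ Icc a T, ∀ t ∈ Icc a T, s ≤ t → t ≤ s + 1 → e s ≤ A * e t)
    (hqg : ∀ s ∈ Icc a T, ∀ t ∈ Icc a T, s ≤ t → t ≤ s + 1 → g s ≤ A * g t)
    (hP : ∀ s ∈ Icc a T, ∀ t ∈ Icc a T, s ≤ t → P s ≤ P t) :
    Reg1_504.RD A D₀ D₁ a T (Es K δ E e P) (es m K δ E e b g P) (bs m K δ e b g)
      (Rs K δ e et g R f p) (fun _ => 0) (Us K δ E e P B) where
  hA := hA
  D0_pos := hD₀
  meas_e := h.cont_es.measurable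
  meas_U := h.cont_Us.measurable
  int_b := h.cont_bs.intervalIntegrable _ _
  int_R := h.cont_Rs.intervalIntegrable _ _
  int_r := by simp
  hE := fun s hs t ht _ => by
    simp only [add_zero]
    exact h.Es_sub hs.2 ht.2
  hU := fun s hs t ht _ => h.Us_sub hs.2 ht.2
  he := fun t _ => rfl
  he0 := fun t ht => (h.e0 t ht.2).trans (h.e_le_es ht.2)
  hR := fun t ht => h.Rs_nonneg hK ht.2
  hD0 := fun t ht => hU.trans (h.Us_mono hK ht.1 ht.2)
  he1 := hD1
  hUE := fun t ht => by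
    have h1 := hB t ht
    have h2 : 0 < Us K δ E e P B t := hD₀.trans_le (hU.trans (h.Us_mono hK ht.1 ht.2))
    have h3 : Us K δ E e P B t = Es K δ E e P t - 2 * B t := rfl
    linarith
  hEe := fun t ht ht1 => by
    rw [h.es_eq ht1.2]
    unfold Es
    have h1 := hEe t ht ht1
    have h2 := hqe t ht (t + 1) ht1 (by linarith) le_rfl
    have h3 := h.e0 (t + 1) ht1.2
    have h4 := h.g0 (t + 1) ht1.2
    have h5 := h.P0 (t + 1) ht1.2
    have h6 := h.K0
    have h7 := h.δ0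
    have h8 := h.m0
    have h9 := hP t ht (t + 1) ht1 (by linarith)
    have h10 : K * δ * e t ≤ K * δ * (A * e (t + 1)) :=
      mul_le_mul_of_nonneg_left h2 (by positivity)
    have h13 : 1 * P (t + 1) ≤ A * (2 * P (t + 1)) := by nlinarith
    have h14 : 0 ≤ A * (m + 1) * (K * δ * e (t + 1)) := by positivity
    have h15 : 0 ≤ A * g (t + 1) := by positivity
    nlinarith
  err := fun t ht => by
    rw [abs_zero]
    exact (hD₀.trans_le (hU.trans (h.Us_mono hK ht.1 ht.2))).le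
  qm := fun s hs t ht hst hts => by
    rw [h.es_eq hs.2, h.es_eq ht.2]
    have h1 := hqe s hs t ht hst hts
    have h2 := hqg s hs t ht hst hts
    have h5 := h.P0 t ht.2
    have h6 := h.K0
    have h7 := h.δ0
    have h8 := h.m0
    have h9 := hP s hs t ht hst
    have h10 : (1 + (2 + m) * K * δ) * e s ≤ (1 + (2 + m) * K * δ) * (A * e t) :=
      mul_le_mul_of_nonneg_left h1 (by positivity)
    have h13 : 1 * P t ≤ A * P t := mul_le_mul_of_nonneg_right hA h5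
    nlinarith

/-- **809's `PtDat`** for the sharp quantities: `eF = IF' / 2 = F + G`, `er = 0`. -/
theorem ptDat (h : Raw m K c δ T E e et b g R f p P B) {W : Type*} {q : W → ℝ}
    {κ a q1 c₁ : ℝ} {IF F G tt : W → ℝ → ℝ} (hδ1 : δ ≤ 1) (haT : a ≤ T) (hκ : 0 ≤ κ)
    (hK : c + (2 * c₁ + 1 + 2 * c₁ ^ 2) ≤ K) (hcK : c ≤ K)
    (hU : 0 < Us K δ E e P B a) (hB : ∀ l ∈ Icc a T, 0 ≤ B l)
    (hI0 : ∀ w, ∀ l ∈ Icc a T, 0 ≤ IF w l)
    (hcF : ∀ w, q w ^ 2 ≤ q1 → Continuous fun l => F w l + G w l)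
    (hI : ∀ w, q w ^ 2 ≤ q1 → ∀ l ≤ T, HasDerivAt (IF w) (2 * (F w l + G w l)) l)
    (hF : ∀ w, q w ^ 2 ≤ q1 → ∀ l ∈ Icc a T, F w l ^ 2 ≤ IF w l * R l)
    (hG : ∀ w, q w ^ 2 ≤ q1 → ∀ l ∈ Icc a T,
      |G w l| ≤ c₁ * δ * √(IF w l * et l) + tt w l)
    (ht : ∀ w, q w ^ 2 ≤ q1 → ∀ l ∈ Icc a T,
      3 * tt w l ^ 2 ≤ κ * δ * Us K δ E e P B a ^ 2) :
    Core_809.PtDat q κ a T q1 (Us K δ E e P B) (Es K δ E e P) (Rs K δ e et g R f p)
      (fun w l => F w l + G w l) IF (fun _ _ => 0) where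
  haT := haT
  k0 := hκ
  Upos := hU
  hR := h.cont_Rs.intervalIntegrable _ _
  hU := fun x hx => by
    have := h.Us_sub (s := a) (t := x) haT hx.2
    linarith
  Rnn := by
    filter_upwards with t ht
    exact h.Rs_nonneg hcK ht.2
  UE := fun x hx => by
    have h1 := hB x hx
    have h3 : Us K δ E e P B x = Es K δ E e P x - 2 * B x := rfl
    linarith
  Em := h.cont_Es.measurable
  Inn := hI0
  he := fun w hw => (hcF w hw).intervalIntegrable _ _
  hρ := fun w _ => by simp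
  hI := fun w hw x hx => by
    have h1 : ∫ t in a..x, 2 * (F w t + G w t) = IF w x - IF w a := by
      refine intervalIntegral.integral_eq_sub_of_hasDerivAt (fun y hy => ?_)
        (((hcF w hw).const_mul 2).intervalIntegrable _ _)
      exact hI w hw y (hy.2.trans (max_le haT hx.2))
    simp only [add_zero]
    linarith
  cs := fun w hw => by
    filter_upwards with t htt
    have htT := htt.2
    have h1 := cs_absorb (U := Us K δ E e P B a) (κ := κ) (K₀ := 2 * c₁ + 1 + 2 * c₁ ^ 2)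
      (hI0 w t htt) (h.R0 t htT) (h.Ret t htT) (hF w hw t htt) h.δ0 hδ1 (hG w hw t htt)
      (ht w hw t htt) le_rfl
    have h2 := h.Rs_lower hK htT
    have h3 := h.g0 t htT
    have h4 : Us K δ E e P B a ^ 2 ≤ Us K δ E e P B t ^ 2 :=
      pow_le_pow_left₀ hU.le (h.Us_mono hcK htt.1 htT) 2
    have h5 : 0 ≤ 2 * c₁ + 1 + 2 * c₁ ^ 2 := by nlinarith [sq_nonneg (c₁ + 1 / 2)]
    have h6 : 0 ≤ (2 * c₁ + 1 + 2 * c₁ ^ 2) * δ * e t := by
      have h7 := h.e0 t htT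
      have h9 := h.δ0
      positivity
    have h10 : R t + (2 * c₁ + 1 + 2 * c₁ ^ 2) * δ * et t ≤ Rs K δ e et g R f p t := by
      nlinarith
    have h11 := mul_le_mul_of_nonneg_left h10 (hI0 w t htt)
    have h12 := mul_le_mul_of_nonneg_left h4 hκ
    linarith
  rho := fun w _ => by
    filter_upwards with t ht
    rw [abs_zero]
    exact mul_nonneg hκ (hU.le.trans (h.Us_mono hcK ht.1 ht.2))

end Raw

end Crest.Agent.R234.Shp_98
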