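import Crest.Agent.R234.Raw1_387
import Crest.Agent.R234.Shp1_98

/-!
# Row 234 (helper387): 98's structure `Raw` for the averaged quantities

`FF W π κ`: finite measure over projections with a splitting.  `etT` = average of
`s^{2-m} ∫ tl (-2 t g1(t)) dW`; `(eea)' = etT - (m-2) eea`, `RRa ≤ etT`;
`b2s = b₂ + c π_#(tl W)`, `Bs = SS β - SS b2s`; the decaying error `p = P'` of helper98 with
`P = 2 δ (av (s^{2-m} ∫ |κ p|² g dW) + (m-1) SS (π_#(|κ p|² W)))`.
-/

set_option autoImplicit false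

open MeasureTheory Set Function Filter Topology Metric
open Crest.GeometryTopology.Submanifold
open Crest.Agent.R234.Vf_884 Crest.Agent.R234.Ar_870 Crest.Agent.R234.Cy_870
open Crest.Agent.R234.Pot_425 Crest.Agent.R234.Avg_387 Crest.Agent.R234.Rep_387
open scoped ENNReal NNReal InnerProductSpace

noncomputable section

namespace Crest.Agent.R234.Raw_387

variable {m n k : ℕ} {τ : ℝ}

/-- a finite measure over projections with a splitting -/
structure FF (W : Measure (Euc k × L k)) (π : Euc k →L[ℝ] Euc m) (κ : Euc k →L[ℝ] Euc n) :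
    Prop where
  sp : Split π κ
  conc : ∀ᵐ p ∂W, p.2 ∈ G m k
  fin : W univ < ⊤

variable {W : Measure (Euc k × L k)} {π : Euc k →L[ℝ] Euc m} {κ : Euc k →L[ℝ] Euc n}
  {d : Euc m → ℝ} {x : Euc m} {g g1 g2 : ℝ → ℝ} {Q : ℝ}

namespace FF

theorem of_cyl {x₀ : Euc m} {R h₀ : ℝ} (h : CylStat W π κ x₀ R h₀) : FF W π κ :=
  ⟨h.sp, h.conc, h.fin⟩

theorem fr (h : FF W π κ) (x : Euc m) (L₀ : ℝ) : Fr W π κ x L₀ :=
  ⟨h.sp, h.conc, lt_of_le_of_lt (measure_mono (subset_univ _)) h.fin⟩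

theorem afr (h : FF W π κ) (hτ : 0 ≤ τ) (x : Euc m) (L₀ : ℝ) :
    AFr W π κ x τ L₀ (Real.log (Real.exp L₀ + τ)) where
  fr := h.fr x _
  τ0 := hτ
  le := by
    rw [Real.exp_log (by positivity)]

end FF

/-- the radial tilt energy `s^{2-m} ∫ tl (-2 t g1(t)) dW`, `t = |π p - y|²/s²` -/
def et (W : Measure (Euc k × L k)) (π : Euc k →L[ℝ] Euc m) (g1 : ℝ → ℝ) (y : Euc m) (l : ℝ) : ℝ :=
  Real.exp ((2 - m) * l) * ∫ p, tl π p.2 *
    (-2 * (Real.exp (-2 * l) * ‖π p.1 - y‖ ^ 2 * g1 (Real.exp (-2 * l) * ‖π p.1 - y‖ ^ 2))) ∂W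

/-- averaged radial tilt energy -/
def eta (d : Euc m → ℝ) (W : Measure (Euc k × L k)) (π : Euc k →L[ℝ] Euc m) (g1 : ℝ → ℝ)
    (x : Euc m) (l : ℝ) : ℝ := av d (fun y l => et W π g1 y l) x l

/-- `e' = et - (m - 2) e`, ordinary centres -/
theorem hasDerivAt_ee (h : FF W π κ) (hg : Prof g g1 g2) (y : Euc m) (l : ℝ) :
    HasDerivAt (ee W π y g) (et W π g1 y l - (m - 2) * ee W π y g l) l := by
  have h1 := (h.fr y (l + 1)).deriv_c (aestronglyMeasurable_tl π W) (h.fr y (l + 1)).tl_bound hg.k0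
    (by linarith : l < l + 1)
  have h3 : HasDerivAt (fun l : ℝ => Real.exp ((2 - m) * l))
      (Real.exp ((2 - m) * l) * (2 - m)) l := by
    have h4 : HasDerivAt (fun l : ℝ => (2 - m : ℝ) * l) (2 - m) l := by
      simpa using (hasDerivAt_id l).const_mul (2 - m : ℝ)
    exact h4.exp
  have h5 := h3.mul h1
  refine h5.congr_deriv ?_
  unfold et ee
  ring

theorem co_et (h : FF W π κ) (hg : Prof g g1 g2) (x : Euc m) (L₀ : ℝ) :
    CO x 1 L₀ (fun y l => et W π g1 y l) := by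
  have h0 := h.afr zero_le_one x L₀
  have h1 := h0.co_tk (aestronglyMeasurable_tl π W) h0.fr.tl_bound hg.k0
  have h2 : CO x 1 L₀ (fun y l => Real.exp ((2 - m) * l) * (-2 * ∫ p, tl π p.2 *
      (Real.exp (-2 * l) * ‖π p.1 - y‖ ^ 2 * g1 (Real.exp (-2 * l) * ‖π p.1 - y‖ ^ 2)) ∂W)) :=
    (h1.const_mul (-2)).mul_left (f := fun l => Real.exp ((2 - m) * l)) (by fun_prop)
  refine CO.congr h2 fun y _ l _ => ?_
  unfold et
  have e1 : ∫ p, tl π p.2 * (-2 * (Real.exp (-2 * l) * ‖π p.1 - y‖ ^ 2 *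
      g1 (Real.exp (-2 * l) * ‖π p.1 - y‖ ^ 2))) ∂W = -2 * ∫ p, tl π p.2 *
      (Real.exp (-2 * l) * ‖π p.1 - y‖ ^ 2 * g1 (Real.exp (-2 * l) * ‖π p.1 - y‖ ^ 2)) ∂W := by
    rw [← integral_const_mul]
    refine integral_congr_ae (Eventually.of_forall fun p => ?_)
    simp only
    ring
  rw [e1]

theorem cont2_et (h : FF W π κ) (hg : Prof g g1 g2) :
    Continuous (uncurry fun y l => et W π g1 y l) :=
  cont_of_CO fun x L₀ => co_et h hg x L₀

theorem cont2_ee' (h : FF W π κ) (hg : Ker g g1) :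
    Continuous (uncurry fun y l => ee W π y g l) :=
  cont_of_CO fun x L₀ => (h.afr zero_le_one x L₀).co_ee hg

theorem cont2_EE' (h : FF W π κ) (hg : Ker g g1) (Q : ℝ) :
    Continuous (uncurry fun y l => EE W π y g Q l) :=
  cont_of_CO fun x L₀ => (h.afr zero_le_one x L₀).co_EE hg Q

theorem cont2_bb' (h : FF W π κ) (hg : Ker g g1) (Q : ℝ) :
    Continuous (uncurry fun y l => bb W π y g Q l) :=
  cont_of_CO fun x L₀ => (h.afr zero_le_one x L₀).co_bb hg Q

theorem cont2_RR' (h : FF W π κ) (hg : Ker g1 g2) :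
    Continuous (uncurry fun y l => RR W π y g1 l) :=
  cont_of_CO fun x L₀ => (h.afr zero_le_one x L₀).co_RR hg

theorem cont2_f1 (h : FF W π κ) (hg : Prof g g1 g2) :
    Continuous (uncurry fun y l => f1 W π g y l) :=
  cont_of_CO fun x L₀ => (h.afr zero_le_one x L₀).co_f1 hg

/-- `(eea)' = eta - (m - 2) eea` -/
theorem hasDerivAt_eea (h : FF W π κ) (hd : CW d τ) (hg : Prof g g1 g2) (x : Euc m) (l : ℝ) :
    HasDerivAt (eea d W π g x) (eta d W π g1 x l - (m - 2) * eea d W π g x l) l := by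
  have c1 : CO x τ (l + 1) (fun y l => ee W π y g l) := CO_of_cont (cont2_ee' h hg.k0) x τ (l + 1)
  have c2 : CO x τ (l + 1) (fun y l => et W π g1 y l) := CO_of_cont (cont2_et h hg) x τ (l + 1)
  have h1 := hasDerivAt_av hd c1 (c2.sub (c1.const_mul (m - 2)))
    (fun y _ l _ => hasDerivAt_ee h hg y l) (by linarith : l < l + 1)
  refine h1.congr_deriv ?_
  rw [av_sub hd c2 (c1.const_mul (m - 2)) (by linarith : l < l + 1), av_const_mul]
  rfl

/-- `R ≤ et`, ordinary centres -/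
theorem RR_le_et (h : FF W π κ) (hg : Prof g g1 g2) (y : Euc m) (l : ℝ) :
    RR W π y g1 l ≤ et W π g1 y l := by
  unfold RR et
  have h6 : Real.exp (-m * l) = Real.exp ((2 - m) * l) * Real.exp (-2 * l) := by
    rw [← Real.exp_add]; congr 1; ring
  rw [h6, mul_assoc]
  refine mul_le_mul_of_nonneg_left ?_ (Real.exp_pos _).le
  rw [← integral_const_mul]
  have i1 : Integrable (fun p : Euc k × L k => qf π p.2 (π p.1 - y) *
      g1 (Real.exp (-2 * l) * ‖π p.1 - y‖ ^ 2)) W :=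
    (h.fr y (l + 1)).integrable_c (continuous_qf π y).aestronglyMeasurable
      (h.fr y (l + 1)).qf_bound hg.k1 (by linarith : l ≤ l + 1)
  have i2 := integrable_tk (h.fr y (l + 1)) (aestronglyMeasurable_tl π W)
    (h.fr y (l + 1)).tl_bound hg.k0 (by linarith : l ≤ l + 1)
  refine integral_mono_ae ((i1.const_mul (-2 * Real.exp (-2 * l))).congr
    (Eventually.of_forall fun p => by ring)) ((i2.const_mul (-2)).congr
    (Eventually.of_forall fun p => by ring)) ?_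
  filter_upwards [h.conc] with p hp
  have h1 := qf_le_tl h.sp hp (π p.1 - y)
  have h2 := hg.anti (Real.exp (-2 * l) * ‖π p.1 - y‖ ^ 2) (by positivity)
  have h3 : 0 ≤ Real.exp (-2 * l) * (-2 * g1 (Real.exp (-2 * l) * ‖π p.1 - y‖ ^ 2)) :=
    mul_nonneg (Real.exp_pos _).le (by linarith)
  have h4 := mul_le_mul_of_nonneg_left h1 h3
  calc Real.exp (-2 * l) * (qf π p.2 (π p.1 - y) *
        (-2 * g1 (Real.exp (-2 * l) * ‖π p.1 - y‖ ^ 2))) =
        Real.exp (-2 * l) * (-2 * g1 (Real.exp (-2 * l) * ‖π p.1 - y‖ ^ 2)) *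
          qf π p.2 (π p.1 - y) := by ring
    _ ≤ _ := h4
    _ = _ := by ring

theorem RRa_le_eta (h : FF W π κ) (hd : CW d τ) (hg : Prof g g1 g2) (x : Euc m) (l : ℝ) :
    RRa d W π g1 x l ≤ eta d W π g1 x l := by
  refine av_mono hd (CO_of_cont (cont2_RR' h hg.k1) x τ (l + 1))
    (CO_of_cont (cont2_et h hg) x τ (l + 1)) (by linarith : l < l + 1) fun y _ => ?_
  exact RR_le_et h hg y l

/-! ### the sharp second measure -/

/-- `π_#(c tl W)` on the base -/
def tm (W : Measure (Euc k × L k)) (π : Euc k →L[ℝ] Euc m) (c : ℝ) : Measure (Euc m) :=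
  mk W π (fun P => c * tl π P) fun _ => 0

theorem finite_tm (h : FF W π κ) {c : ℝ} (hc : 0 ≤ c) : IsFiniteMeasure (toXB τ (tm W π c)) := by
  have hf : IsFiniteMeasure W := ⟨h.fin⟩
  refine finite_toXB (mk_lt_top (C := c * m) ?_ measurableSet_closedBall ?_)
  · filter_upwards [h.conc] with p hp
    exact mul_le_mul_of_nonneg_left (tl_le h.sp.hh (isPr_of_G hp)) hc
  · exact integrableOn_zero

/-- `hat` of `π_#(c tl W)` is `c ee` -/
theorem hat_tm (h : FF W π κ) {c : ℝ} (hc : 0 ≤ c) (w : Wt) {y : Euc m} {l : ℝ}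
    (hy : ‖y‖ + Real.exp l ≤ 1 - τ) :
    hat w (toXB τ (tm W π c)) y l = c * ee W π y w.θ l := by
  have hf : IsFiniteMeasure W := ⟨h.fin⟩
  unfold hat
  rw [integral_toXB (tm W π c) fun z => w.θ (Real.exp (-2 * l) * ‖z - y‖ ^ 2)]
  obtain ⟨K, -, hK, -, -⟩ := (ker_wt w).exists_bound
  have h1 := setIntegral_mk (W := W) (π := π) (ρ := fun P => c * tl π P) (ν := fun _ => 0)
    ((measurable_tl π).measurable.const_mul c) (C := c * m) (by
      filter_upwards [h.conc] with p hp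
      exact mul_le_mul_of_nonneg_left (tl_le h.sp.hh (isPr_of_G hp)) hc) measurable_const
    (A := closedBall (0 : Euc m) (1 - τ)) measurableSet_closedBall integrableOn_zero
    (φ := fun z => w.θ (Real.exp (-2 * l) * ‖z - y‖ ^ 2))
    (w.cont.comp (by fun_prop)).measurable (K := K) fun z => hK _ (by positivity)
  unfold tm
  rw [h1]
  have e1 : ∫ x in closedBall (0 : Euc m) (1 - τ), max (0:ℝ) 0 *
      w.θ (Real.exp (-2 * l) * ‖x - y‖ ^ 2) = 0 := by simp
  rw [e1, add_zero, setIntegral_eq_integral_of_forall_compl_eq_zero]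
  · unfold ee
    have e2 : ∫ p, max (c * tl π p.2) 0 * w.θ (Real.exp (-2 * l) * ‖π p.1 - y‖ ^ 2) ∂W =
        c * ∫ p, tl π p.2 * w.θ (Real.exp (-2 * l) * ‖π p.1 - y‖ ^ 2) ∂W := by
      rw [← integral_const_mul]
      refine integral_congr_ae ?_
      filter_upwards [h.conc] with p hp
      rw [max_eq_left (mul_nonneg hc (tl_nonneg h.sp.hh (isPr_of_G hp)))]
      ring
    rw [e2]
    ring
  · intro p hp
    have h2 : w.θ (Real.exp (-2 * l) * ‖π p.1 - y‖ ^ 2) = 0 := by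
      refine w.zero _ (Ker.one_le_of y ?_)
      have h3 : 1 - τ < ‖π p.1‖ := by
        have : π p.1 ∉ closedBall (0 : Euc m) (1 - τ) := hp
        simpa using this
      have h4 : ‖π p.1‖ ≤ ‖π p.1 - y‖ + ‖y‖ := by
        have := norm_add_le (π p.1 - y) y
        simpa using this
      linarith
    rw [h2, mul_zero]

theorem hat_add (w : Wt) (μ ν : Measure (XB (Euc m) τ)) [IsFiniteMeasure μ] [IsFiniteMeasure ν]
    (y : Euc m) (l : ℝ) : hat w (μ + ν) y l = hat w μ y l + hat w ν y l := by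
  unfold hat
  have hc : Continuous fun z : XB (Euc m) τ =>
      w.θ (Real.exp (-2 * l) * ‖(z : Euc m) - y‖ ^ 2) := w.cont.comp (by fun_prop)
  obtain ⟨K, hK⟩ := (isCompact_univ : IsCompact (univ : Set (XB (Euc m) τ))).exists_bound_of_continuousOn
    hc.continuousOn
  have hi : ∀ ν : Measure (XB (Euc m) τ), IsFiniteMeasure ν →
      Integrable (fun z : XB (Euc m) τ => w.θ (Real.exp (-2 * l) * ‖(z : Euc m) - y‖ ^ 2)) ν :=
    fun ν _ => Integrable.of_bound hc.aestronglyMeasurable K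
      (Eventually.of_forall fun z => hK z (mem_univ _))
  rw [integral_add_measure (hi μ inferInstance) (hi ν inferInstance)]
  ring

theorem hat_nonneg (w : Wt) (μ : Measure (XB (Euc m) τ)) (y : Euc m) (l : ℝ) :
    0 ≤ hat w μ y l :=
  mul_nonneg (Real.exp_pos _).le (integral_nonneg fun _ => w.nonneg _)

/-- the sharp second measure -/
def b2s (b₂ : Measure (XB (Euc m) τ)) (W : Measure (Euc k × L k)) (π : Euc k →L[ℝ] Euc m)
    (c : ℝ) : Measure (XB (Euc m) τ) := b₂ + toXB τ (tm W π c)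

/-- averaged functional of a measure -/
def hata (w : Wt) (μ : Measure (XB (Euc m) τ)) (x : Euc m) (l : ℝ) : ℝ :=
  av (dd m τ) (hat w μ) x l

theorem hata_nonneg (hτ : 0 < τ) (w : Wt) (μ : Measure (XB (Euc m) τ)) (x : Euc m) (l : ℝ) :
    0 ≤ hata w μ x l := av_nonneg (cw_dd hτ) fun _ _ => hat_nonneg w μ _ _

theorem cont2_hat (w : Wt) (b : Measure (XB (Euc m) τ)) [IsFiniteMeasure b] :
    Continuous (uncurry (hat w b : Euc m → ℝ → ℝ)) :=
  cont_of_CO fun x L₀ => co_hat w b x 1 L₀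

theorem cont2_hata (hτ : 0 < τ) (w : Wt) (b : Measure (XB (Euc m) τ)) [IsFiniteMeasure b] :
    Continuous (uncurry (hata w b : Euc m → ℝ → ℝ)) :=
  continuous_av2 (cw_dd hτ) (cont2_hat w b)

variable {b₁ b₂ β γ : Measure (XB (Euc m) τ)}

/-- **derivative of the sharp potential difference**: `B' = b - γ^ - c e` for `b₁ = β + γ` -/
theorem hasDerivAt_BBs (h : FF W π κ) (hτ : 0 < τ) (w : Wt) [IsFiniteMeasure b₁]
    [IsFiniteMeasure b₂] [IsFiniteMeasure β] [IsFiniteMeasure γ] (hβγ : β + γ = b₁)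
    (hrep : Rep b₁ b₂ W π Q) {c : ℝ} (hc : 0 ≤ c) {l : ℝ}
    (hl : ‖x‖ + Real.exp l + 2 * τ ≤ 1) :
    HasDerivAt (BB w β (b2s b₂ W π c) x)
      (bba (dd m τ) W π w.θ Q x l - hata w γ x l - c * eea (dd m τ) W π w.θ x l) l := by
  have hft := finite_tm (τ := τ) h hc
  have hfs : IsFiniteMeasure (b2s b₂ W π c) := by unfold b2s; infer_instance
  have h1 := (hasDerivAt_SS hτ w β x l).sub (hasDerivAt_SS hτ w (b2s b₂ W π c) x l)
  refine h1.congr_deriv ?_
  have hl1 : l < l + 1 := by linarith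
  have cβ := co_hat w β x τ (l + 1)
  have cγ := co_hat w γ x τ (l + 1)
  have c2 := co_hat w (b2s b₂ W π c) x τ (l + 1)
  have cb : CO x τ (l + 1) (fun y l => bb W π y w.θ Q l) :=
    CO_of_cont (cont2_bb' h (ker_wt w) Q) x τ (l + 1)
  have ce : CO x τ (l + 1) (fun y l => ee W π y w.θ l) :=
    CO_of_cont (cont2_ee' h (ker_wt w)) x τ (l + 1)
  have e1 : av (dd m τ) (fun y l => bb W π y w.θ Q l - hat w γ y l - c * ee W π y w.θ l) x l =
      bba (dd m τ) W π w.θ Q x l - hata w γ x l - c * eea (dd m τ) W π w.θ x l := by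
    rw [av_sub (cw_dd hτ) (cb.sub cγ) (ce.const_mul c) hl1, av_sub (cw_dd hτ) cb cγ hl1,
      av_const_mul]
    rfl
  rw [← e1, ← av_sub (cw_dd hτ) cβ c2 hl1]
  refine av_congr (cw_dd hτ) fun y hy => ?_
  have h2 : ‖y - x‖ ≤ τ := by rwa [mem_closedBall_iff_norm] at hy
  have h3 : ‖y‖ ≤ ‖y - x‖ + ‖x‖ := by
    have := norm_add_le (y - x) x
    simpa using this
  have hy1 : ‖y‖ + Real.exp l ≤ 1 - τ := by linarith
  have e2 := bb_eq_hat' (h.fr y l) w hrep le_rfl hy1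
  rw [← hβγ, hat_add] at e2
  have e3 : hat w (b2s b₂ W π c) y l = hat w b₂ y l + c * ee W π y w.θ l := by
    unfold b2s
    rw [hat_add, hat_tm h hc w hy1]
  rw [e3]
  linarith

/-! ### general coefficients -/

/-- `s^{2-m} ∫ c(p) g(t) dW`, `t = |π p - y|²/s²` -/
def kk (W : Measure (Euc k × L k)) (π : Euc k →L[ℝ] Euc m) (c : Euc k × L k → ℝ) (g : ℝ → ℝ)
    (y : Euc m) (l : ℝ) : ℝ :=
  Real.exp ((2 - m) * l) * ∫ p, c p * g (Real.exp (-2 * l) * ‖π p.1 - y‖ ^ 2) ∂W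

/-- `s^{2-m} ∫ c(p) (-2 t g1(t)) dW` -/
def kt (W : Measure (Euc k × L k)) (π : Euc k →L[ℝ] Euc m) (c : Euc k × L k → ℝ) (g1 : ℝ → ℝ)
    (y : Euc m) (l : ℝ) : ℝ :=
  Real.exp ((2 - m) * l) * ∫ p, c p *
    (-2 * (Real.exp (-2 * l) * ‖π p.1 - y‖ ^ 2 * g1 (Real.exp (-2 * l) * ‖π p.1 - y‖ ^ 2))) ∂W

/-- a bounded measurable nonnegative coefficient -/
structure Cf (W : Measure (Euc k × L k)) (c : Euc k × L k → ℝ) (C : ℝ) : Prop where
  meas : Measurable c
  nonneg : ∀ p, 0 ≤ c p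
  le : ∀ᵐ p ∂W, c p ≤ C

variable {c : Euc k × L k → ℝ} {C : ℝ}

theorem Cf.bd (hc : Cf W c C) {S : Euc k × L k → Prop} : ∀ᵐ p ∂W, S p → |c p| ≤ C := by
  filter_upwards [hc.le] with p hp _
  rw [abs_of_nonneg (hc.nonneg p)]
  exact hp

theorem hasDerivAt_kk (h : FF W π κ) (hc : Cf W c C) (hg : Prof g g1 g2) (y : Euc m) (l : ℝ) :
    HasDerivAt (kk W π c g y) (kt W π c g1 y l - (m - 2) * kk W π c g y l) l := by
  have h1 := (h.fr y (l + 1)).deriv_c hc.meas.aestronglyMeasurable hc.bd hg.k0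
    (by linarith : l < l + 1)
  have h3 : HasDerivAt (fun l : ℝ => Real.exp ((2 - m) * l))
      (Real.exp ((2 - m) * l) * (2 - m)) l := by
    have h4 : HasDerivAt (fun l : ℝ => (2 - m : ℝ) * l) (2 - m) l := by
      simpa using (hasDerivAt_id l).const_mul (2 - m : ℝ)
    exact h4.exp
  have h5 := h3.mul h1
  refine h5.congr_deriv ?_
  unfold kt kk
  ring

theorem cont2_kk (h : FF W π κ) (hc : Cf W c C) (hg : Ker g g1) :
    Continuous (uncurry fun y l => kk W π c g y l) := by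
  refine cont_of_CO fun x L₀ => ?_
  obtain ⟨K, -, hK, -, -⟩ := hg.exists_bound
  have h0 := h.afr zero_le_one x L₀
  exact (h0.co_ker' hc.meas.aestronglyMeasurable hc.bd hg.continuous hK hg.zero).mul_left
    (f := fun l => Real.exp ((2 - m) * l)) (by fun_prop)

theorem cont2_kt (h : FF W π κ) (hc : Cf W c C) (hg : Prof g g1 g2) :
    Continuous (uncurry fun y l => kt W π c g1 y l) := by
  refine cont_of_CO fun x L₀ => ?_
  have h0 := h.afr zero_le_one x L₀
  have h1 := h0.co_tk hc.meas.aestronglyMeasurable hc.bd hg.k0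
  have h2 : CO x 1 L₀ (fun y l => Real.exp ((2 - m) * l) * (-2 * ∫ p, c p *
      (Real.exp (-2 * l) * ‖π p.1 - y‖ ^ 2 * g1 (Real.exp (-2 * l) * ‖π p.1 - y‖ ^ 2)) ∂W)) :=
    (h1.const_mul (-2)).mul_left (f := fun l => Real.exp ((2 - m) * l)) (by fun_prop)
  refine CO.congr h2 fun y _ l _ => ?_
  unfold kt
  have e1 : ∫ p, c p * (-2 * (Real.exp (-2 * l) * ‖π p.1 - y‖ ^ 2 *
      g1 (Real.exp (-2 * l) * ‖π p.1 - y‖ ^ 2))) ∂W = -2 * ∫ p, c p *
      (Real.exp (-2 * l) * ‖π p.1 - y‖ ^ 2 * g1 (Real.exp (-2 * l) * ‖π p.1 - y‖ ^ 2)) ∂W := by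
    rw [← integral_const_mul]
    refine integral_congr_ae (Eventually.of_forall fun p => ?_)
    simp only
    ring
  rw [e1]

theorem kk_nonneg (hc : Cf W c C) (hg : Prof g g1 g2) (y : Euc m) (l : ℝ) :
    0 ≤ kk W π c g y l :=
  mul_nonneg (Real.exp_pos _).le (integral_nonneg fun p =>
    mul_nonneg (hc.nonneg p) (hg.nonneg _ (by positivity)))

theorem kt_nonneg (hc : Cf W c C) (hg : Prof g g1 g2) (y : Euc m) (l : ℝ) :
    0 ≤ kt W π c g1 y l := by
  refine mul_nonneg (Real.exp_pos _).le (integral_nonneg fun p => ?_)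
  have h1 := hg.anti (Real.exp (-2 * l) * ‖π p.1 - y‖ ^ 2) (by positivity)
  have h2 : 0 ≤ Real.exp (-2 * l) * ‖π p.1 - y‖ ^ 2 := by positivity
  refine mul_nonneg (hc.nonneg p) ?_
  nlinarith [mul_nonneg h2 (neg_nonneg.2 h1)]

/-- `av kk` and its derivative -/
theorem hasDerivAt_av_kk (h : FF W π κ) (hd : CW d τ) (hc : Cf W c C) (hg : Prof g g1 g2)
    (x : Euc m) (l : ℝ) :
    HasDerivAt (av d (fun y l => kk W π c g y l) x)
      (av d (fun y l => kt W π c g1 y l) x l -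
        (m - 2) * av d (fun y l => kk W π c g y l) x l) l := by
  have c1 : CO x τ (l + 1) (fun y l => kk W π c g y l) :=
    CO_of_cont (cont2_kk h hc hg.k0) x τ (l + 1)
  have c2 : CO x τ (l + 1) (fun y l => kt W π c g1 y l) :=
    CO_of_cont (cont2_kt h hc hg) x τ (l + 1)
  have h1 := hasDerivAt_av hd c1 (c2.sub (c1.const_mul (m - 2)))
    (fun y _ l _ => hasDerivAt_kk h hc hg y l) (by linarith : l < l + 1)
  refine h1.congr_deriv ?_
  rw [av_sub hd c2 (c1.const_mul (m - 2)) (by linarith : l < l + 1), av_const_mul]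

/-- `π_#(c W)` on the compact ball -/
def cm (τ : ℝ) (W : Measure (Euc k × L k)) (π : Euc k →L[ℝ] Euc m) (c : Euc k × L k → ℝ) :
    Measure (XB (Euc m) τ) :=
  toXB τ ((W.withDensity fun p => ENNReal.ofReal (c p)).map fun p => π p.1)

theorem finite_cm (h : FF W π κ) (hc : Cf W c C) : IsFiniteMeasure (cm τ W π c) := by
  have hf : IsFiniteMeasure W := ⟨h.fin⟩
  have h1 : IsFiniteMeasure (W.withDensity fun p => ENNReal.ofReal (c p)) := by
    refine isFiniteMeasure_withDensity ?_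
    have h1 : ∫⁻ p, ENNReal.ofReal (c p) ∂W ≤ ∫⁻ _, ENNReal.ofReal C ∂W := by
      refine lintegral_mono_ae ?_
      filter_upwards [hc.le] with p hp
      exact ENNReal.ofReal_le_ofReal hp
    refine (h1.trans_lt ?_).ne
    rw [lintegral_const]
    exact ENNReal.mul_lt_top ENNReal.ofReal_lt_top (measure_lt_top _ _)
  exact finite_toXB (measure_lt_top _ _)

/-- integration against `cm` -/
theorem integral_cm (hc : Cf W c C) {φ : Euc m → ℝ} (hφ : Continuous φ) :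
    ∫ z : XB (Euc m) τ, φ (z : Euc m) ∂(cm τ W π c) =
      ∫ p in {p : Euc k × L k | π p.1 ∈ closedBall (0 : Euc m) (1 - τ)},
        c p * φ (π p.1) ∂W := by
  unfold cm
  rw [integral_toXB, setIntegral_map measurableSet_closedBall hφ.aestronglyMeasurable
    (measurable_base π).aemeasurable]
  have hA' : MeasurableSet ((fun p : Euc k × L k => π p.1) ⁻¹' closedBall (0 : Euc m) (1 - τ)) :=
    measurable_base π measurableSet_closedBall
  rw [setIntegral_withDensity_eq_setIntegral_toReal_smul hc.meas.ennreal_ofReal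
    (Eventually.of_forall fun p => ENNReal.ofReal_lt_top) _ hA']
  refine setIntegral_congr_fun hA' fun p _ => ?_
  simp only [ENNReal.toReal_ofReal (hc.nonneg p), smul_eq_mul]

/-- `hat (π_#(c W)) = kk` -/
theorem hat_cm (hc : Cf W c C) (w : Wt) {y : Euc m} {l : ℝ} (hy : ‖y‖ + Real.exp l ≤ 1 - τ) :
    hat w (cm τ W π c) y l = kk W π c w.θ y l := by
  unfold hat kk
  rw [integral_cm hc (φ := fun z => w.θ (Real.exp (-2 * l) * ‖z - y‖ ^ 2))
    (w.cont.comp (by fun_prop)), setIntegral_eq_integral_of_forall_compl_eq_zero]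
  intro p hp
  have h2 : w.θ (Real.exp (-2 * l) * ‖π p.1 - y‖ ^ 2) = 0 := by
    refine w.zero _ (Ker.one_le_of y ?_)
    have h3 : 1 - τ < ‖π p.1‖ := by
      have : π p.1 ∉ closedBall (0 : Euc m) (1 - τ) := hp
      simpa using this
    have h4 : ‖π p.1‖ ≤ ‖π p.1 - y‖ + ‖y‖ := by
      have := norm_add_le (π p.1 - y) y
      simpa using this
    linarith
  rw [h2, mul_zero]

theorem hata_cm (hτ : 0 < τ) (hc : Cf W c C) (w : Wt) {l : ℝ}
    (hl : ‖x‖ + Real.exp l + 2 * τ ≤ 1) :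
    hata w (cm τ W π c) x l = av (dd m τ) (fun y l => kk W π c w.θ y l) x l := by
  refine av_congr (cw_dd hτ) fun y hy => hat_cm hc w ?_
  have h2 : ‖y - x‖ ≤ τ := by rwa [mem_closedBall_iff_norm] at hy
  have h3 : ‖y‖ ≤ ‖y - x‖ + ‖x‖ := by
    have := norm_add_le (y - x) x
    simpa using this
  linarith

/-! ### the decaying error -/

/-- the coefficient `|κ p|²` -/
def yc (κ : Euc k →L[ℝ] Euc n) (p : Euc k × L k) : ℝ := ‖κ p.1‖ ^ 2

theorem cf_yc {h₀ : ℝ} (hh : ∀ᵐ p ∂W, ‖κ p.1‖ ≤ h₀) : Cf W (yc κ) (h₀ ^ 2) where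
  meas := ((κ.continuous.comp continuous_fst).norm.pow 2).measurable
  nonneg p := by unfold yc; positivity
  le := by
    filter_upwards [hh] with p hp
    exact pow_le_pow_left₀ (norm_nonneg _) hp 2

/-- the decaying first variation error `p` -/
def pY (δ : ℝ) (W : Measure (Euc k × L k)) (π : Euc k →L[ℝ] Euc m) (κ : Euc k →L[ℝ] Euc n)
    (τ : ℝ) (w : Wt) (x : Euc m) (l : ℝ) : ℝ :=
  2 * δ * (av (dd m τ) (fun y l => kk W π (yc κ) w.θ y l) x l +
    av (dd m τ) (fun y l => kt W π (yc κ) w.θ' y l) x l)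

/-- its primitive `P` -/
def PY (δ : ℝ) (W : Measure (Euc k × L k)) (π : Euc k →L[ℝ] Euc m) (κ : Euc k →L[ℝ] Euc n)
    (τ : ℝ) (w : Wt) (x : Euc m) (l : ℝ) : ℝ :=
  2 * δ * (av (dd m τ) (fun y l => kk W π (yc κ) w.θ y l) x l +
    (m - 1) * SS m τ w (cm τ W π (yc κ)) x (Real.exp l))

theorem hasDerivAt_PY (h : FF W π κ) (hτ : 0 < τ) {w : Wt} (hg : Prof w.θ w.θ' g2)
    (hc : Cf W (yc κ) C) (δ : ℝ) {l : ℝ} (hl : ‖x‖ + Real.exp l + 2 * τ ≤ 1) :
    HasDerivAt (PY δ W π κ τ w x) (pY δ W π κ τ w x l) l := by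
  have hf := finite_cm (τ := τ) h hc
  have h1 := hasDerivAt_av_kk h (cw_dd hτ) hc hg x l
  have h2 := hasDerivAt_SS hτ w (cm τ W π (yc κ)) x l
  have h3 : av (dd m τ) (hat w (cm τ W π (yc κ))) x l =
      av (dd m τ) (fun y l => kk W π (yc κ) w.θ y l) x l := hata_cm hτ hc w hl
  rw [h3] at h2
  have h4 := (h1.add (h2.const_mul ((m:ℝ) - 1))).const_mul (2 * δ)
  refine h4.congr_deriv ?_
  unfold pY
  ring

theorem cont2_pY (h : FF W π κ) (hτ : 0 < τ) {w : Wt} (hg : Prof w.θ w.θ' g2)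
    (hc : Cf W (yc κ) C) (δ : ℝ) : Continuous (uncurry (pY δ W π κ τ w : Euc m → ℝ → ℝ)) :=
  ((continuous_av2 (cw_dd hτ) (cont2_kk h hc hg.k0)).add
    (continuous_av2 (cw_dd hτ) (cont2_kt h hc hg))).const_mul (2 * δ)

theorem cont2_PY (h : FF W π κ) (hτ : 0 < τ) {w : Wt} (hg : Prof w.θ w.θ' g2)
    (hc : Cf W (yc κ) C) (δ : ℝ) : Continuous (uncurry (PY δ W π κ τ w : Euc m → ℝ → ℝ)) := by
  have hf := finite_cm (τ := τ) h hc
  have h1 : Continuous fun p : Euc m × ℝ => (p.1, Real.exp p.2) := by fun_prop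
  exact ((continuous_av2 (cw_dd hτ) (cont2_kk h hc hg.k0)).add
    (((cont2_SS hτ w (cm τ W π (yc κ))).comp h1).const_mul ((m:ℝ) - 1))).const_mul (2 * δ)

theorem pY_nonneg (hτ : 0 < τ) {w : Wt} (hg : Prof w.θ w.θ' g2)
    (hc : Cf W (yc κ) C) {δ : ℝ} (hδ : 0 ≤ δ) (x : Euc m) (l : ℝ) :
    0 ≤ pY δ W π κ τ w x l :=
  mul_nonneg (by positivity) (add_nonneg
    (av_nonneg (cw_dd hτ) fun _ _ => kk_nonneg hc hg _ _)
    (av_nonneg (cw_dd hτ) fun _ _ => kt_nonneg hc hg _ _))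

theorem PY_nonneg (hm : 1 ≤ m) (hτ : 0 < τ) {w : Wt} (hg : Prof w.θ w.θ' g2)
    (hc : Cf W (yc κ) C) {δ : ℝ} (hδ : 0 ≤ δ) (x : Euc m) (l : ℝ) :
    0 ≤ PY δ W π κ τ w x l := by
  have h1 : (1:ℝ) ≤ m := by exact_mod_cast hm
  exact mul_nonneg (by positivity) (add_nonneg
    (av_nonneg (cw_dd hτ) fun _ _ => kk_nonneg hc hg _ _)
    (mul_nonneg (by linarith) (SS_nonneg hτ w _ x (Real.exp_pos _).le)))

/-! ### limits at small scales -/

theorem tendsto_av_kk (h : FF W π κ) (hτ : 0 ≤ τ) (hd : CW d τ) (hc : Cf W c C)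
    (hC : 0 ≤ C) (hg : Prof g g1 g2) (x : Euc m) :
    Tendsto (av d (fun y l => kk W π c g y l) x) atBot (𝓝 0) := by
  obtain ⟨D, hD⟩ : ∃ D, ∀ h, d h ≤ D := by
    obtain ⟨D, hD⟩ := (isCompact_closedBall (0 : Euc m) τ).exists_bound_of_continuousOn
      hd.cont.continuousOn
    refine ⟨max D 0, fun h => ?_⟩
    by_cases hh : h ∈ closedBall (0 : Euc m) τ
    · exact ((le_abs_self _).trans (hD h hh)).trans (le_max_left _ _)
    · rw [hd.zero' hh]; exact le_max_right _ _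
  have hA := h.afr hτ x 0
  have hb : ∀ l < (0:ℝ), av d (fun y l => kk W π c g y l) x l ≤ Real.exp (2 * l) * (C * (D *
      (W {p | ‖π p.1 - x‖ ^ 2 < Real.exp (2 * Real.log (Real.exp 0 + τ))}).toReal *
        ∫ v : Euc m, g (‖v‖ ^ 2))) := by
    intro l hl
    have e2 := av_mass_le hA hd hg hD hl
    have c1 : CO x τ 0 (fun y l => kk W π c g y l) := CO_of_cont (cont2_kk h hc hg.k0) x τ 0
    have c2 : CO x τ 0 (fun y l => (Real.exp ((2 - m) * l) * C) *
        ∫ p, 1 * g (Real.exp (-2 * l) * ‖π p.1 - y‖ ^ 2) ∂W) :=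
      (hA.co_one hg.k0).mul_left (f := fun l => Real.exp ((2 - m) * l) * C) (by fun_prop)
    have e3 : av d (fun y l => kk W π c g y l) x l ≤ av d (fun y l =>
        (Real.exp ((2 - m) * l) * C) *
        ∫ p, 1 * g (Real.exp (-2 * l) * ‖π p.1 - y‖ ^ 2) ∂W) x l := by
      refine av_mono hd c1 c2 hl fun y _ => ?_
      unfold kk
      rw [mul_assoc]
      refine mul_le_mul_of_nonneg_left ?_ (Real.exp_pos _).le
      rw [← integral_const_mul]
      have i0 := (h.fr y (l + 1)).integrable_c (c := fun _ => 1) (C := 1)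
        aestronglyMeasurable_const ae_one_bound hg.k0 (by linarith : l ≤ l + 1)
      have i1 := (h.fr y (l + 1)).integrable_c hc.meas.aestronglyMeasurable
        hc.bd hg.k0 (by linarith : l ≤ l + 1)
      refine integral_mono_ae i1 (i0.const_mul C) ?_
      filter_upwards [hc.le] with p hp
      have h2 := hg.nonneg (Real.exp (-2 * l) * ‖π p.1 - y‖ ^ 2) (by positivity)
      have h3 := mul_le_mul_of_nonneg_right hp h2
      linarith
    rw [av_mul_left d (fun y l => ∫ p, 1 * g (Real.exp (-2 * l) * ‖π p.1 - y‖ ^ 2) ∂W)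
      (fun l => Real.exp ((2 - m) * l) * C) x l] at e3
    refine e3.trans ?_
    refine (mul_le_mul_of_nonneg_left e2 (by positivity)).trans (le_of_eq ?_)
    have e5 : Real.exp ((2 - m) * l) * Real.exp (m * l) = Real.exp (2 * l) := by
      rw [← Real.exp_add]; congr 1; ring
    rw [← e5]
    ring
  have ht : Tendsto (fun l : ℝ => Real.exp (2 * l) * (C * (D *
      (W {p | ‖π p.1 - x‖ ^ 2 < Real.exp (2 * Real.log (Real.exp 0 + τ))}).toReal *
        ∫ v : Euc m, g (‖v‖ ^ 2)))) atBot (𝓝 0) := by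
    have h1 : Tendsto (fun l : ℝ => Real.exp (2 * l)) atBot (𝓝 0) :=
      Real.tendsto_exp_atBot.comp (tendsto_id.const_mul_atBot two_pos)
    simpa using h1.mul_const (C * (D *
      (W {p | ‖π p.1 - x‖ ^ 2 < Real.exp (2 * Real.log (Real.exp 0 + τ))}).toReal *
        ∫ v : Euc m, g (‖v‖ ^ 2)))
  refine squeeze_zero' (Eventually.of_forall fun l => av_nonneg hd fun _ _ =>
    kk_nonneg hc hg _ _) ?_ ht
  filter_upwards [eventually_lt_atBot (0:ℝ)] with l hl
  exact hb l hl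

/-- the tilt as a nonnegative bounded coefficient -/
def tc (π : Euc k →L[ℝ] Euc m) (p : Euc k × L k) : ℝ := max (tl π p.2) 0

theorem cf_tc (h : FF W π κ) : Cf W (tc π) m where
  meas := ((measurable_tl π).measurable.comp measurable_snd).max measurable_const
  nonneg p := le_max_right _ _
  le := by
    filter_upwards [h.conc] with p hp
    exact max_le (tl_le h.sp.hh (isPr_of_G hp)) (Nat.cast_nonneg m)

theorem ee_eq_kk (h : FF W π κ) (g : ℝ → ℝ) (y : Euc m) (l : ℝ) :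
    ee W π y g l = kk W π (tc π) g y l := by
  unfold ee kk
  congr 1
  refine integral_congr_ae ?_
  filter_upwards [h.conc] with p hp
  unfold tc
  rw [max_eq_left (tl_nonneg h.sp.hh (isPr_of_G hp))]

theorem tendsto_eea (h : FF W π κ) (hτ : 0 ≤ τ) (hd : CW d τ) (hg : Prof g g1 g2) (x : Euc m) :
    Tendsto (eea d W π g x) atBot (𝓝 0) := by
  have h1 := tendsto_av_kk h hτ hd (cf_tc h) (Nat.cast_nonneg m) hg x
  refine h1.congr fun l => ?_
  exact av_congr hd fun y _ => (ee_eq_kk h g y l).symm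

theorem tendsto_PY (h : FF W π κ) (hτ : 0 < τ) {w : Wt} (hg : Prof w.θ w.θ' g2)
    (hc : Cf W (yc κ) C) (hC : 0 ≤ C) (δ : ℝ) (x : Euc m) :
    Tendsto (PY δ W π κ τ w x) atBot (𝓝 0) := by
  have hf := finite_cm (τ := τ) h hc
  have h1 := tendsto_av_kk h hτ.le (cw_dd hτ) hc hC hg x
  have h2 := tendsto_SS hτ w (cm τ W π (yc κ)) x
  have h3 := (h1.add (h2.const_mul ((m:ℝ) - 1))).const_mul (2 * δ)
  simp only [mul_zero, add_zero] at h3
  exact h3

/-- the sharp `U` tends to zero at small scales -/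
theorem tendsto_Us (h : FF W π κ) (hτ : 0 < τ) {w : Wt} (hg : Prof w.θ w.θ' g2)
    [IsFiniteMeasure b₂] [IsFiniteMeasure β] {c' : ℝ} (hc' : 0 ≤ c') (Q K δ : ℝ) {P : ℝ → ℝ}
    (hP : Tendsto P atBot (𝓝 0)) (x : Euc m) :
    Tendsto (Shp_98.Us K δ (EEa (dd m τ) W π w.θ Q x) (eea (dd m τ) W π w.θ x) P
      (BB w β (b2s b₂ W π c') x)) atBot (𝓝 0) := by
  have hft := finite_tm (τ := τ) h hc'
  have hfs : IsFiniteMeasure (b2s b₂ W π c') := by unfold b2s; infer_instance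
  have h1 := tendsto_EEa (h.afr hτ.le x 0) (cw_dd hτ) hg Q
  have h2 := tendsto_eea h hτ.le (cw_dd hτ) hg x
  have h4 := tendsto_BB (b₁ := β) (b₂ := b2s b₂ W π c') hτ w x
  have h5 := (((h1.add (h2.const_mul (K * δ))).add hP)).sub (h4.const_mul 2)
  simp only [mul_zero, add_zero, sub_zero] at h5
  exact h5

/-! ### the structure `Raw` of helper98 -/

/-- **98's `Raw`** for the averaged quantities at the centre `x`, `‖x‖ + e^T + 2 τ ≤ 1`.  The only
hypothesis on the first variation is `hf` (ordinary centres near `x`). -/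
theorem raw (hm : 1 ≤ m) (h : FF W π κ) {h₀ : ℝ} (hh : ∀ᵐ p ∂W, ‖κ p.1‖ ≤ h₀) (hτ : 0 < τ) {w : Wt}
    (hg : Prof w.θ w.θ' g2) [IsFiniteMeasure b₁]
    [IsFiniteMeasure b₂] [IsFiniteMeasure β] [IsFiniteMeasure γ] (hβγ : β + γ = b₁)
    (hrep : Rep b₁ b₂ W π Q) {K δ δ' T : ℝ} (hδ : 0 < δ) (hδ' : 0 ≤ δ') (hδδ : δ' ≤ δ)
    (hK : 0 ≤ K) (hT : ‖x‖ + Real.exp T + 2 * τ ≤ 1)
    (hf : ∀ y ∈ closedBall x τ, ∀ l ≤ T, |f1 W π w.θ y l| ≤ 2 * δ' * (ee W π y w.θ l +
      et W π w.θ' y l + kk W π (yc κ) w.θ y l + kt W π (yc κ) w.θ' y l)) :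
    Shp_98.Raw m K 2 δ T (EEa (dd m τ) W π w.θ Q x) (eea (dd m τ) W π w.θ x)
      (eta (dd m τ) W π w.θ' x) (bba (dd m τ) W π w.θ Q x) (hata w γ x)
      (RRa (dd m τ) W π w.θ' x) (fun l => - av (dd m τ) (f1 W π w.θ) x l)
      (pY δ' W π κ τ w x) (PY δ' W π κ τ w x)
      (BB w β (b2s b₂ W π (K * m / 2 * δ)) x) := by
  have hc0 : 0 ≤ K * m / 2 * δ := by positivity
  have hft := finite_tm (τ := τ) h hc0
  have hfs : IsFiniteMeasure (b2s b₂ W π (K * m / 2 * δ)) := by unfold b2s; infer_instance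
  have hd := cw_dd (m := m) hτ
  have hcy := cf_yc (W := W) (κ := κ) hh
  have c2l : ∀ {q : Euc m → ℝ → ℝ}, Continuous (uncurry q) → Continuous (q x) := fun {q} hq => by
    have h2 : Continuous fun l : ℝ => (x, l) := by fun_prop
    exact hq.comp h2
  refine
    { m0 := Nat.cast_nonneg m
      δ0 := hδ
      K0 := hK
      cE := c2l (continuous_av2 hd (cont2_EE' h hg.k0 Q))
      ce := c2l (continuous_av2 hd (cont2_ee' h hg.k0))
      cet := c2l (continuous_av2 hd (cont2_et h hg))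
      cb := c2l (continuous_av2 hd (cont2_bb' h hg.k0 Q))
      cg := c2l (cont2_hata hτ w γ)
      cR := c2l (continuous_av2 hd (cont2_RR' h hg.k1))
      cf := (c2l (continuous_av2 hd (cont2_f1 h hg))).neg
      cp := c2l (cont2_pY h hτ hg hcy δ')
      cP := c2l (cont2_PY h hτ hg hcy δ')
      cB := c2l (cont2_BB hτ w)
      dE := fun l _ => ?_
      de := fun l _ => hasDerivAt_eea h hd hg x l
      dP := fun l hl => ?_
      dB := fun l hl => ?_
      Eb := fun l _ => (h.afr hτ.le x (l + 1)).EEa_eq hd hg.k0 Q (by linarith)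
      e0 := fun l _ => (h.afr hτ.le x (l + 1)).eea_nonneg hd hg l
      g0 := fun l _ => hata_nonneg hτ w γ x l
      R0 := fun l _ => (h.afr hτ.le x (l + 1)).RRa_nonneg hd hg l
      p0 := fun l _ => pY_nonneg hτ hg hcy hδ' x l
      P0 := fun l _ => PY_nonneg hm hτ hg hcy hδ' x l
      Ret := fun l _ => RRa_le_eta h hd hg x l
      f_le := fun l hl => ?_ }
  · have h1 := (h.afr hτ.le x (l + 1)).W1a hd hg Q (by linarith : l < l + 1)
    rw [sub_eq_add_neg] at h1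
    exact h1
  · have h2 := Real.exp_le_exp.2 hl
    exact hasDerivAt_PY h hτ hg hcy δ' (by linarith)
  · have h2 := Real.exp_le_exp.2 hl
    exact hasDerivAt_BBs h hτ w hβγ hrep hc0 (by linarith)
  · have hl1 : l < l + 1 := by linarith
    have c0 : CO x τ (l + 1) (fun y l => f1 W π w.θ y l) :=
      CO_of_cont (cont2_f1 h hg) x τ (l + 1)
    have c1 : CO x τ (l + 1) (fun y l => ee W π y w.θ l) :=
      CO_of_cont (cont2_ee' h hg.k0) x τ (l + 1)
    have c2 : CO x τ (l + 1) (fun y l => et W π w.θ' y l) :=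
      CO_of_cont (cont2_et h hg) x τ (l + 1)
    have c3 : CO x τ (l + 1) (fun y l => kk W π (yc κ) w.θ y l) :=
      CO_of_cont (cont2_kk h hcy hg.k0) x τ (l + 1)
    have c4 : CO x τ (l + 1) (fun y l => kt W π (yc κ) w.θ' y l) :=
      CO_of_cont (cont2_kt h hcy hg) x τ (l + 1)
    have c5 : CO x τ (l + 1) (fun y l => 2 * δ' * (ee W π y w.θ l +
      et W π w.θ' y l + kk W π (yc κ) w.θ y l + kt W π (yc κ) w.θ' y l)) :=
      (((c1.add c2).add c3).add c4).const_mul (2 * δ')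
    have e1 : av (dd m τ) (fun y l => 2 * δ' * (ee W π y w.θ l +
      et W π w.θ' y l + kk W π (yc κ) w.θ y l + kt W π (yc κ) w.θ' y l)) x l =
        2 * δ' * (eea (dd m τ) W π w.θ x l + eta (dd m τ) W π w.θ' x l) +
          pY δ' W π κ τ w x l := by
      rw [av_const_mul, av_add hd ((c1.add c2).add c3) c4 hl1, av_add hd (c1.add c2) c3 hl1,
        av_add hd c1 c2 hl1]
      unfold pY eea eta
      ring
    have e2 := av_mono hd c0 c5 hl1 fun y hy => (le_abs_self _).trans (hf y hy l hl)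
    have e3 := av_mono hd c0.neg c5 hl1 fun y hy => (neg_le_abs _).trans (hf y hy l hl)
    have e4 : av (dd m τ) (fun y l => -f1 W π w.θ y l) x l =
        - av (dd m τ) (f1 W π w.θ) x l := by
      unfold av
      rw [← integral_neg]
      refine integral_congr_ae (Eventually.of_forall fun y => ?_)
      simp only
      ring
    rw [e1] at e2 e3
    rw [e4] at e3
    have e5 : 0 ≤ eea (dd m τ) W π w.θ x l := (h.afr hτ.le x (l + 1)).eea_nonneg hd hg l
    have e6 : 0 ≤ eta (dd m τ) W π w.θ' x l :=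
      ((h.afr hτ.le x (l + 1)).RRa_nonneg hd hg l).trans (RRa_le_eta h hd hg x l)
    have e7 : 2 * δ' * (eea (dd m τ) W π w.θ x l + eta (dd m τ) W π w.θ' x l) ≤
        2 * δ * (eea (dd m τ) W π w.θ x l + eta (dd m τ) W π w.θ' x l) :=
      mul_le_mul_of_nonneg_right (by linarith) (by linarith)
    rw [abs_neg, abs_le]
    have e8 : av (dd m τ) (fun y l => f1 W π w.θ y l) x l = av (dd m τ) (f1 W π w.θ) x l := rfl
    rw [e8] at e2
    constructor <;> linarith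

/-- the `Raw` of the part of an integral varifold: `β, γ` = `b₁` over `T₀` and its complement -/
theorem raw_VD (hm : 1 ≤ m) {D₀ : VarifoldData m k} {U : Set (Euc k)} {W₀ : Set (Euc k)}
    (S : Sheets D₀ π) (hD : IsIntegralVarifoldIn U D₀) (hs : Split π κ) (hW : MeasurableSet W₀)
    (hfin : VD D₀ (W₀ ×ˢ univ) < ⊤) {h₀ : ℝ}
    (hh : ∀ᵐ p ∂((VD D₀).restrict (W₀ ×ˢ univ)), ‖κ p.1‖ ≤ h₀) (hτ : 0 < τ) {w : Wt}
    (hg : Prof w.θ w.θ' g2)
    {T₀ : Set (Euc m)} (hT₀ : MeasurableSet T₀) {K δ δ' T : ℝ} (hδ : 0 < δ) (hδ' : 0 ≤ δ')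
    (hδδ : δ' ≤ δ) (hK : 0 ≤ K) (hT : ‖x‖ + Real.exp T + 2 * τ ≤ 1)
    (hf : ∀ y ∈ closedBall x τ, ∀ l ≤ T, |f1 ((VD D₀).restrict (W₀ ×ˢ univ)) π w.θ y l| ≤
      2 * δ' * (ee ((VD D₀).restrict (W₀ ×ˢ univ)) π y w.θ l +
      et ((VD D₀).restrict (W₀ ×ˢ univ)) π w.θ' y l +
      kk ((VD D₀).restrict (W₀ ×ˢ univ)) π (yc κ) w.θ y l +
      kt ((VD D₀).restrict (W₀ ×ˢ univ)) π (yc κ) w.θ' y l)) :
    Shp_98.Raw m K 2 δ T (EEa (dd m τ) ((VD D₀).restrict (W₀ ×ˢ univ)) π w.θ Q x)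
      (eea (dd m τ) ((VD D₀).restrict (W₀ ×ˢ univ)) π w.θ x)
      (eta (dd m τ) ((VD D₀).restrict (W₀ ×ˢ univ)) π w.θ' x)
      (bba (dd m τ) ((VD D₀).restrict (W₀ ×ˢ univ)) π w.θ Q x)
      (hata w (beta S W₀ Q τ T₀ᶜ) x)
      (RRa (dd m τ) ((VD D₀).restrict (W₀ ×ˢ univ)) π w.θ' x)
      (fun l => - av (dd m τ) (f1 ((VD D₀).restrict (W₀ ×ˢ univ)) π w.θ) x l)
      (pY δ' ((VD D₀).restrict (W₀ ×ˢ univ)) π κ τ w x)
      (PY δ' ((VD D₀).restrict (W₀ ×ˢ univ)) π κ τ w x)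
      (BB w (beta S W₀ Q τ T₀) (b2s (b2 S W₀ Q τ) ((VD D₀).restrict (W₀ ×ˢ univ)) π
        (K * m / 2 * δ)) x) := by
  have h1 := finite_b1 (Q := Q) (τ := τ) S hD hs.hh hW hfin
  have h2 := finite_b2 (Q := Q) (τ := τ) S hD hs.hh hW hfin
  have h3 := finite_beta (Q := Q) (τ := τ) S hD hs.hh hW hfin T₀
  have h4 := finite_beta (Q := Q) (τ := τ) S hD hs.hh hW hfin T₀ᶜ
  have hF : FF ((VD D₀).restrict (W₀ ×ˢ univ)) π κ :=
    ⟨hs, ae_restrict_of_ae (VD_conc hD), by rw [Measure.restrict_apply_univ]; exact hfin⟩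
  exact raw hm hF hh hτ hg (beta_add_gamma S hT₀) (rep S hD hs.hh hW hfin) hδ hδ' hδδ hK hT hf

end Crest.Agent.R234.Raw_387
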