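import Crest.Agent.R234.Bds1_214
import Crest.Agent.R234.Raw2_387
import Crest.Agent.R234.N5a_372

/-!
# Row 234, BDS part 2 (helper214): balls against scale integrals

* `ball_le_SS` : the mass of a ball is bounded by the scale integral `SS` one step above;
* `hata_le`, `eea_le` : the averaged functionals are bounded by masses of balls;
* `muB = π_# (tl W) + γ`.
-/

set_option autoImplicit false

open MeasureTheory Set Function Filter Topology Metric
open Crest.GeometryTopology.Submanifold
open Crest.Agent.R234.Vf_884 Crest.Agent.R234.Ar_870 Crest.Agent.R234.Cy_870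
open Crest.Agent.R234.Pot_425 Crest.Agent.R234.Avg_387 Crest.Agent.R234.Rep_387
open Crest.Agent.R234.Raw_387
open Crest.Agent.R234.N5_372 (eM bm ov bm_apply)
open scoped ENNReal NNReal InnerProductSpace

noncomputable section

namespace Crest.Agent.R234.Bds_214

variable {m n k : ℕ} {τ : ℝ}

/-- a ball of the base in `XB` -/
def bal (τ : ℝ) (x : Euc m) (s : ℝ) : Set (XB (Euc m) τ) := {z | ‖(z : Euc m) - x‖ ≤ s}

theorem measurableSet_bal (x : Euc m) (s : ℝ) : MeasurableSet (bal τ x s) :=
  (isClosed_le (by fun_prop) continuous_const).measurableSet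

theorem SS_mono (hτ : 0 < τ) (w : Wt) (b : Measure (XB (Euc m) τ)) [IsFiniteMeasure b]
    (x : Euc m) {l l' : ℝ} (h : l ≤ l') :
    SS m τ w b x (Real.exp l) ≤ SS m τ w b x (Real.exp l') := by
  refine monotone_of_deriv_nonneg (f := fun l => SS m τ w b x (Real.exp l))
    (fun t => (hasDerivAt_SS hτ w b x t).differentiableAt) (fun t => ?_) h
  rw [(hasDerivAt_SS hτ w b x t).deriv]
  exact hata_nonneg hτ w b x t

theorem integrable_theta (w : Wt) (b : Measure (XB (Euc m) τ)) [IsFiniteMeasure b] (y : Euc m)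
    (l : ℝ) : Integrable (fun z : XB (Euc m) τ =>
      w.θ (Real.exp (-2 * l) * ‖(z : Euc m) - y‖ ^ 2)) b := by
  have hc : Continuous fun z : XB (Euc m) τ =>
      w.θ (Real.exp (-2 * l) * ‖(z : Euc m) - y‖ ^ 2) := w.cont.comp (by fun_prop)
  obtain ⟨K, hK⟩ := (isCompact_univ : IsCompact (univ : Set (XB (Euc m) τ))).exists_bound_of_continuousOn
    hc.continuousOn
  exact Integrable.of_bound hc.aestronglyMeasurable K
    (Eventually.of_forall fun z => hK z (mem_univ _))

theorem hat_ge (w : Wt) (b : Measure (XB (Euc m) τ)) [IsFiniteMeasure b] {x y : Euc m}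
    {s t c₀ r : ℝ} (hy : ‖y - x‖ ≤ τ) (hθ : ∀ u, 0 ≤ u → u ≤ r ^ 2 → c₀ ≤ w.θ u)
    (hs : s + τ ≤ r * Real.exp t) :
    Real.exp ((2 - m) * t) * (c₀ * b.real (bal τ x s)) ≤ hat w b y t := by
  unfold hat
  refine mul_le_mul_of_nonneg_left ?_ (Real.exp_pos _).le
  have h1 : c₀ * b.real (bal τ x s) = ∫ z, (bal τ x s).indicator (fun _ => c₀) z ∂b := by
    rw [integral_indicator_const _ (measurableSet_bal x s), smul_eq_mul, mul_comm]
  rw [h1]
  refine integral_mono ((integrable_const _).indicator (measurableSet_bal x s))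
    (integrable_theta w b y t) fun z => ?_
  by_cases hz : z ∈ bal τ x s
  · rw [indicator_of_mem hz]
    refine hθ _ (by positivity) ?_
    have h2 : ‖(z : Euc m) - y‖ ≤ ‖(z : Euc m) - x‖ + ‖x - y‖ :=
      norm_sub_le_norm_sub_add_norm_sub _ _ _
    rw [norm_sub_rev x y] at h2
    have h3 : ‖(z : Euc m) - x‖ ≤ s := hz
    have h4 : ‖(z : Euc m) - y‖ ≤ r * Real.exp t := by linarith
    have h5 : ‖(z : Euc m) - y‖ ^ 2 ≤ (r * Real.exp t) ^ 2 := pow_le_pow_left₀ (norm_nonneg _) h4 2
    have h6 : Real.exp (-2 * t) * Real.exp t ^ 2 = 1 := by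
      rw [← Real.exp_nat_mul, ← Real.exp_add]
      have : -2 * t + ((2 : ℕ) : ℝ) * t = 0 := by push_cast; ring
      rw [this, Real.exp_zero]
    calc Real.exp (-2 * t) * ‖(z : Euc m) - y‖ ^ 2 ≤ Real.exp (-2 * t) * (r * Real.exp t) ^ 2 :=
          mul_le_mul_of_nonneg_left h5 (Real.exp_pos _).le
      _ = r ^ 2 * (Real.exp (-2 * t) * Real.exp t ^ 2) := by ring
      _ = r ^ 2 := by rw [h6, mul_one]
  · rw [indicator_of_notMem hz]
    exact w.nonneg _

theorem av_ge_const (hτ : 0 < τ) {q : Euc m → ℝ → ℝ} {x : Euc m} {l C : ℝ}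
    (hq : Continuous (uncurry q)) (h : ∀ y ∈ closedBall x τ, C ≤ q y l) :
    Md m * C ≤ av (dd m τ) q x l := by
  have h2 := av_mono (cw_dd (m := m) hτ)
    (CO_const (x := x) (τ := τ) (L₀ := l + 1) (fun _ => C) continuous_const)
    (CO_of_cont hq x τ (l + 1)) (by linarith : l < l + 1) h
  refine le_trans (le_of_eq ?_) h2
  unfold av
  rw [integral_mul_const, integral_dd hτ]

theorem av_le_const (hτ : 0 < τ) {q : Euc m → ℝ → ℝ} {x : Euc m} {l C : ℝ}
    (hq : Continuous (uncurry q)) (h : ∀ y ∈ closedBall x τ, q y l ≤ C) :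
    av (dd m τ) q x l ≤ Md m * C := by
  have h2 := av_le_of_le (cw_dd (m := m) hτ) (CO_of_cont hq x τ (l + 1))
    (by linarith : l < l + 1) h
  rw [integral_dd hτ] at h2
  linarith

/-- **the mass of a ball is bounded by the scale integral** -/
theorem ball_le_SS (hm : 2 ≤ m) (hτ : 0 < τ) (w : Wt) (b : Measure (XB (Euc m) τ))
    [IsFiniteMeasure b] (x : Euc m) {s l c₀ r : ℝ} (hr : 0 ≤ r) (hc : 0 ≤ c₀)
    (hθ : ∀ u, 0 ≤ u → u ≤ r ^ 2 → c₀ ≤ w.θ u) (hs : s + τ ≤ r * Real.exp l) :
    Md m * c₀ * Real.exp ((2 - m) * (l + 1)) * b.real (bal τ x s) ≤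
      SS m τ w b x (Real.exp (l + 1)) := by
  have h0 : 0 ≤ SS m τ w b x (Real.exp l) := SS_nonneg hτ w b x (Real.exp_pos _).le
  have hcont : Continuous (hata w b x) := by
    have h2 : Continuous fun l : ℝ => (x, l) := by fun_prop
    exact (cont2_hata hτ w b).comp h2
  have h1 : SS m τ w b x (Real.exp (l + 1)) - SS m τ w b x (Real.exp l) =
      ∫ t in l..(l + 1), hata w b x t := by
    symm
    exact intervalIntegral.integral_eq_sub_of_hasDerivAt
      (f := fun l => SS m τ w b x (Real.exp l)) (fun t _ => hasDerivAt_SS hτ w b x t)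
      (hcont.intervalIntegrable _ _)
  have hm' : (2:ℝ) ≤ m := by exact_mod_cast hm
  have hM : 0 ≤ Md m := by
    have : 0 < m := by omega
    exact (Md_pos this).le
  have h2 : ∫ t in l..(l + 1), (Md m * c₀ * Real.exp ((2 - m) * (l + 1)) * b.real (bal τ x s)) ≤
      ∫ t in l..(l + 1), hata w b x t := by
    refine intervalIntegral.integral_mono_on (by linarith) (by simp)
      (hcont.intervalIntegrable _ _) fun t ht => ?_
    have h3 : Real.exp l ≤ Real.exp t := Real.exp_le_exp.2 ht.1
    have h4 : s + τ ≤ r * Real.exp t := hs.trans (mul_le_mul_of_nonneg_left h3 hr)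
    have h5 := av_ge_const (m := m) hτ (x := x) (l := t) (cont2_hat w b)
      (C := Real.exp ((2 - m) * t) * (c₀ * b.real (bal τ x s))) fun y hy =>
        hat_ge w b (mem_closedBall_iff_norm.1 hy) hθ h4
    have h6 : Real.exp ((2 - m) * (l + 1)) ≤ Real.exp ((2 - m) * t) := by
      apply Real.exp_le_exp.2
      have := ht.2
      nlinarith
    calc Md m * c₀ * Real.exp ((2 - m) * (l + 1)) * b.real (bal τ x s) =
        Md m * (Real.exp ((2 - m) * (l + 1)) * (c₀ * b.real (bal τ x s))) := by ring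
      _ ≤ Md m * (Real.exp ((2 - m) * t) * (c₀ * b.real (bal τ x s))) := by gcongr
      _ ≤ _ := h5
  simp only [intervalIntegral.integral_const, smul_eq_mul] at h2
  have h9 : (l + 1 - l) * (Md m * c₀ * Real.exp ((2 - m) * (l + 1)) * b.real (bal τ x s)) =
      Md m * c₀ * Real.exp ((2 - m) * (l + 1)) * b.real (bal τ x s) := by ring
  rw [h9] at h2
  linarith

/-- the averaged functional of a measure is bounded by the mass of a ball -/
theorem hata_le (hτ : 0 < τ) (w : Wt) (b : Measure (XB (Euc m) τ)) [IsFiniteMeasure b]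
    (x : Euc m) {s l Kθ : ℝ} (hK : ∀ u, 0 ≤ u → w.θ u ≤ Kθ)
    (hs : Real.exp l + τ ≤ s) :
    hata w b x l ≤ Md m * (Real.exp ((2 - m) * l) * (Kθ * b.real (bal τ x s))) := by
  refine av_le_const hτ (cont2_hat w b) fun y hy => ?_
  unfold hat
  refine mul_le_mul_of_nonneg_left ?_ (Real.exp_pos _).le
  have h1 : Kθ * b.real (bal τ x s) = ∫ z, (bal τ x s).indicator (fun _ => Kθ) z ∂b := by
    rw [integral_indicator_const _ (measurableSet_bal x s), smul_eq_mul, mul_comm]
  rw [h1]
  refine integral_mono (integrable_theta w b y l)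
    ((integrable_const _).indicator (measurableSet_bal x s)) fun z => ?_
  by_cases hz : z ∈ bal τ x s
  · rw [indicator_of_mem hz]
    exact hK _ (by positivity)
  · rw [indicator_of_notMem hz]
    have h3 : s < ‖(z : Euc m) - x‖ := not_le.1 hz
    have h2 : ‖(z : Euc m) - x‖ ≤ ‖(z : Euc m) - y‖ + ‖y - x‖ :=
      norm_sub_le_norm_sub_add_norm_sub _ _ _
    have h4 : ‖y - x‖ ≤ τ := mem_closedBall_iff_norm.1 hy
    have h5 : Real.exp l ≤ ‖(z : Euc m) - y‖ := by linarith
    exact (w.zero _ (Ker.one_le_of y h5)).le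

variable {W : Measure (Euc k × L k)} {π : Euc k →L[ℝ] Euc m} {κ : Euc k →L[ℝ] Euc n}

theorem integrable_tl (h : FF W π κ) : Integrable (fun p : Euc k × L k => tl π p.2) W := by
  have : IsFiniteMeasure W := ⟨h.fin⟩
  refine Integrable.of_bound ((measurable_tl π).comp continuous_snd).aestronglyMeasurable m ?_
  filter_upwards [h.conc] with p hp
  rw [Real.norm_eq_abs, abs_of_nonneg (tl_nonneg h.sp.hh (isPr_of_G hp))]
  exact tl_le h.sp.hh (isPr_of_G hp)

theorem eM_real (h : FF W π κ) {A : Set (Euc m)} (hA : MeasurableSet A) :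
    (eM W π).real A = ∫ p in ov π A, tl π p.2 ∂W := by
  unfold Measure.real
  have h0 : eM W π A = ∫⁻ p in ov π A, ENNReal.ofReal (tl π p.2) ∂W := bm_apply W π _ hA
  rw [h0, ← ofReal_integral_eq_lintegral_ofReal (integrable_tl h).restrict,
    ENNReal.toReal_ofReal]
  · refine integral_nonneg_of_ae (ae_restrict_of_ae ?_)
    filter_upwards [h.conc] with p hp
    exact tl_nonneg h.sp.hh (isPr_of_G hp)
  · refine ae_restrict_of_ae ?_
    filter_upwards [h.conc] with p hp
    exact tl_nonneg h.sp.hh (isPr_of_G hp)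

theorem eM_finite (h : FF W π κ) : IsFiniteMeasure (eM W π) := by
  constructor
  have h0 : eM W π univ = ∫⁻ p in ov π univ, ENNReal.ofReal (tl π p.2) ∂W :=
    bm_apply W π _ MeasurableSet.univ
  rw [h0, ← ofReal_integral_eq_lintegral_ofReal (integrable_tl h).restrict]
  · exact ENNReal.ofReal_lt_top
  · refine ae_restrict_of_ae ?_
    filter_upwards [h.conc] with p hp
    exact tl_nonneg h.sp.hh (isPr_of_G hp)

theorem measurableSet_ov {A : Set (Euc m)} (hA : MeasurableSet A) :
    MeasurableSet (ov π A : Set (Euc k × L k)) := Crest.Agent.R234.N5_372.measurable_base π hA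

/-- the averaged tilt energy is bounded by the energy of a ball -/
theorem eea_le (h : FF W π κ) (hτ : 0 < τ) {w : Wt} (x : Euc m) {s l Kθ : ℝ}
    (hK : ∀ u, 0 ≤ u → w.θ u ≤ Kθ) (hs : Real.exp l + τ ≤ s) :
    eea (dd m τ) W π w.θ x l ≤
      Md m * (Real.exp ((2 - m) * l) * (Kθ * (eM W π).real (closedBall x s))) := by
  have : IsFiniteMeasure W := ⟨h.fin⟩
  refine av_le_const hτ (cont2_ee' h (ker_wt w)) fun y hy => ?_
  unfold ee
  refine mul_le_mul_of_nonneg_left ?_ (Real.exp_pos _).le
  rw [eM_real h measurableSet_closedBall, ← integral_const_mul,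
    ← integral_indicator (measurableSet_ov measurableSet_closedBall)]
  have i1 := (h.fr y (l + 1)).integrable_c (aestronglyMeasurable_tl π W)
    (h.fr y (l + 1)).tl_bound (ker_wt w) (by linarith : l ≤ l + 1)
  refine integral_mono_ae i1 (((integrable_tl h).const_mul _).indicator
    (measurableSet_ov measurableSet_closedBall)) ?_
  filter_upwards [h.conc] with p hp
  have htl := tl_nonneg h.sp.hh (isPr_of_G hp)
  by_cases hz : p ∈ (ov π (closedBall x s) : Set (Euc k × L k))
  · rw [indicator_of_mem hz, mul_comm]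
    exact mul_le_mul_of_nonneg_right (hK _ (by positivity)) htl
  · rw [indicator_of_notMem hz]
    have h3 : s < ‖π p.1 - x‖ := by
      have : π p.1 ∉ closedBall x s := hz
      rwa [mem_closedBall_iff_norm, not_le] at this
    have h2 : ‖π p.1 - x‖ ≤ ‖π p.1 - y‖ + ‖y - x‖ :=
      norm_sub_le_norm_sub_add_norm_sub _ _ _
    have h4 : ‖y - x‖ ≤ τ := mem_closedBall_iff_norm.1 hy
    have h5 : Real.exp l ≤ ‖π p.1 - y‖ := by linarith
    rw [w.zero _ (Ker.one_le_of y h5), mul_zero]

/-- `μ = π_#(tl W) + γ` on the base -/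
def muB (W : Measure (Euc k × L k)) (π : Euc k →L[ℝ] Euc m) (γ : Measure (XB (Euc m) τ)) :
    Measure (Euc m) := eM W π + γ.map Subtype.val

theorem real_map_val (b : Measure (XB (Euc m) τ)) (x : Euc m) (s : ℝ) :
    (b.map Subtype.val).real (closedBall x s) = b.real (bal τ x s) := by
  unfold Measure.real
  rw [Measure.map_apply measurable_subtype_coe measurableSet_closedBall]
  congr 2

theorem real_map_univ (b : Measure (XB (Euc m) τ)) :
    (b.map Subtype.val).real univ = b.real univ := by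
  unfold Measure.real
  rw [Measure.map_apply measurable_subtype_coe MeasurableSet.univ, preimage_univ]

theorem finite_muB (h : FF W π κ) (γ : Measure (XB (Euc m) τ)) [IsFiniteMeasure γ] :
    IsFiniteMeasure (muB W π γ) := by
  have := eM_finite h
  unfold muB
  infer_instance

theorem muB_real (h : FF W π κ) (γ : Measure (XB (Euc m) τ)) [IsFiniteMeasure γ] (x : Euc m)
    (s : ℝ) : (muB W π γ).real (closedBall x s) =
      (eM W π).real (closedBall x s) + γ.real (bal τ x s) := by
  have := eM_finite h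
  unfold muB
  rw [measureReal_add_apply, real_map_val]

theorem muB_univ (h : FF W π κ) (γ : Measure (XB (Euc m) τ)) [IsFiniteMeasure γ] :
    (muB W π γ).real univ = ∫ p, tl π p.2 ∂W + γ.real univ := by
  have := eM_finite h
  unfold muB
  rw [measureReal_add_apply, real_map_univ, eM_real h MeasurableSet.univ]
  have : (ov π univ : Set (Euc k × L k)) = univ := by
    ext p; simp [ov]
  rw [this, Measure.restrict_univ]

/-- **lower bound of `μ` on balls** -/
theorem muB_low (h : FF W π κ) (hτ : 0 < τ) {w : Wt} (γ : Measure (XB (Euc m) τ))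
    [IsFiniteMeasure γ] (x : Euc m) {s l Kθ : ℝ}
    (hK : ∀ u, 0 ≤ u → w.θ u ≤ Kθ) (hs : Real.exp l + τ ≤ s) :
    eea (dd m τ) W π w.θ x l + hata w γ x l ≤
      Md m * Kθ * Real.exp ((2 - m) * l) * (muB W π γ).real (closedBall x s) := by
  have h1 := eea_le h hτ x hK hs
  have h2 := hata_le hτ w γ x hK hs
  rw [muB_real h]
  linarith

end Crest.Agent.R234.Bds_214
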