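import Mathlib

/-!
# R234 / Ovl1_201 : bounded overlap, transfer, entropy ((7)(ii), (7)(iv) of #5124; task 1308)

`ε` a finite measure on a second countable metric space.
* `ovl` : `∫_S dε(x) / ε(B_r(x)) ≤ 1` for `S` of diameter `≤ r`;
* `transfer` : the set of points in whose ball a fraction `≥ δ` is bad has measure
  `≤ (N / δ) ε(bad)`;
* `entropy` : `∫ log (ε(B_s(x)) / ε(B_r(x))) dε ≤ ∑_i ε(τ = i) log N_i + ε(X) log p`.
-/

set_option linter.unusedSectionVars false

namespace Crest.Agent.R234.Ovl_201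

open MeasureTheory Set Filter Metric
open scoped Topology ENNReal

variable {X : Type*} [PseudoMetricSpace X] [SecondCountableTopology X] [MeasurableSpace X]
  [BorelSpace X]

/-- `T` is covered by `N` sets of diameter `≤ r` -/
def Cov (N : ℕ) (r : ℝ) (T : Set X) : Prop :=
  ∃ S : Fin N → Set X, (∀ j, ∀ x ∈ S j, ∀ y ∈ S j, dist x y ≤ r) ∧ T ⊆ ⋃ j, S j

theorem Cov.mono {N : ℕ} {r : ℝ} {T T' : Set X} (h : Cov N r T) (hT : T' ⊆ T) : Cov N r T' := by
  obtain ⟨S, h1, h2⟩ := h
  exact ⟨S, h1, hT.trans h2⟩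

theorem Cov.mono_r {N : ℕ} {r r' : ℝ} {T : Set X} (h : Cov N r T) (hr : r ≤ r') :
    Cov N r' T := by
  obtain ⟨S, h1, h2⟩ := h
  exact ⟨S, fun j x hx y hy => (h1 j x hx y hy).trans hr, h2⟩

theorem Cov.mono_N {N N' : ℕ} {r : ℝ} {T : Set X} (h : Cov N r T) (hN : N ≤ N') :
    Cov N' r T := by
  obtain ⟨S, h1, h2⟩ := h
  refine ⟨fun j => if hj : j.1 < N then S ⟨j.1, hj⟩ else ∅, fun j x hx y hy => ?_, fun x hx => ?_⟩
  · by_cases hj : j.1 < N
    · simp only [hj, dif_pos] at hx hy
      exact h1 _ x hx y hy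
    · simp [hj] at hx
  · obtain ⟨j, hj⟩ := mem_iUnion.1 (h2 hx)
    refine mem_iUnion.2 ⟨⟨j.1, j.2.trans_le hN⟩, ?_⟩
    simpa using hj

theorem Cov.union {N M : ℕ} {r : ℝ} {T T' : Set X} (h : Cov N r T) (h' : Cov M r T') :
    Cov (N + M) r (T ∪ T') := by
  obtain ⟨S, h1, h2⟩ := h
  obtain ⟨S', h1', h2'⟩ := h'
  refine ⟨Fin.append S S', fun j => ?_, ?_⟩
  · refine Fin.addCases (fun i => ?_) (fun i => ?_) j
    · simpa using h1 i
    · simpa using h1' i
  · rintro x (hx | hx)
    · obtain ⟨j, hj⟩ := mem_iUnion.1 (h2 hx)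
      exact mem_iUnion.2 ⟨Fin.castAdd M j, by simpa using hj⟩
    · obtain ⟨j, hj⟩ := mem_iUnion.1 (h2' hx)
      exact mem_iUnion.2 ⟨Fin.natAdd N j, by simpa using hj⟩

variable (ε : Measure X)

/-- **bounded overlap** for one small set -/
theorem ovl {r : ℝ} {S : Set X} (hS : MeasurableSet S) (hd : ∀ x ∈ S, ∀ y ∈ S, dist x y ≤ r) :
    ∫⁻ x in S, (ε (closedBall x r))⁻¹ ∂ε ≤ 1 := by
  calc ∫⁻ x in S, (ε (closedBall x r))⁻¹ ∂ε ≤ ∫⁻ _ in S, (ε S)⁻¹ ∂ε := by
        apply setLIntegral_mono' hS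
        intro x hx
        apply ENNReal.inv_le_inv.2
        apply measure_mono
        intro y hy
        exact hd y hy x hx
    _ = (ε S)⁻¹ * ε S := by rw [lintegral_const, Measure.restrict_apply MeasurableSet.univ,
        univ_inter]
    _ ≤ 1 := ENNReal.inv_mul_le_one _

/-- bounded overlap for a set covered by `N` small sets -/
theorem ovl_cov {r : ℝ} {N : ℕ} {T : Set X} (hT : Cov N r T) :
    ∫⁻ x in T, (ε (closedBall x r))⁻¹ ∂ε ≤ N := by
  obtain ⟨S, h1, h2⟩ := hT
  calc ∫⁻ x in T, (ε (closedBall x r))⁻¹ ∂ε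
      ≤ ∫⁻ x in ⋃ j, closure (S j), (ε (closedBall x r))⁻¹ ∂ε :=
        lintegral_mono_set (h2.trans (iUnion_mono fun j => subset_closure))
    _ ≤ ∑' j, ∫⁻ x in closure (S j), (ε (closedBall x r))⁻¹ ∂ε := lintegral_iUnion_le _ _
    _ ≤ ∑' _ : Fin N, 1 := by
        apply ENNReal.tsum_le_tsum
        intro j
        apply ovl ε isClosed_closure.measurableSet
        intro x hx y hy
        have : ∀ x ∈ closure (S j), ∀ y ∈ S j, dist x y ≤ r := by
          intro x hx y hy
          have hc : IsClosed {z : X | dist z y ≤ r} := isClosed_le (by fun_prop) (by fun_prop)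
          exact (closure_minimal (fun z hz => h1 j z hz y hy) hc) hx
        have hc : IsClosed {z : X | dist x z ≤ r} := isClosed_le (by fun_prop) (by fun_prop)
        exact (closure_minimal (fun z hz => this x hx z hz) hc) hy
    _ = N := by simp

theorem meas_cb [SFinite ε] (r : ℝ) : Measurable fun x : X => ε (closedBall x r) := by
  have h : MeasurableSet {p : X × X | dist p.2 p.1 ≤ r} :=
    (isClosed_le (by fun_prop) (by fun_prop)).measurableSet
  have := measurable_measure_prodMk_left (ν := ε) h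
  exact this

/-- almost every point has positive measure balls -/
theorem ae_pos {r : ℝ} (hr : 0 < r) : ∀ᵐ x ∂ε, ε (closedBall x r) ≠ 0 := by
  rw [ae_iff]
  simp only [ne_eq, not_not]
  apply measure_null_of_locally_null
  intro x hx
  exact ⟨closedBall x r, mem_nhdsWithin_of_mem_nhds (closedBall_mem_nhds x hr), hx⟩

/-- Tonelli: `∫_B ε(T ∩ B_s(x)) g(x) dε = ∫_T ∫_{B_s(y)} g dε` -/
theorem tonelli [SFinite ε] {s : ℝ} {T : Set X} (hT : MeasurableSet T) {g : X → ℝ≥0∞}
    (hg : Measurable g) :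
    ∫⁻ x, ε (T ∩ closedBall x s) * g x ∂ε = ∫⁻ y in T, ∫⁻ x in closedBall y s, g x ∂ε ∂ε := by
  have hD : MeasurableSet {p : X × X | dist p.2 p.1 ≤ s} :=
    (isClosed_le (by fun_prop) (by fun_prop)).measurableSet
  set F : X → X → ℝ≥0∞ := fun x y => T.indicator 1 y *
    ({p : X × X | dist p.2 p.1 ≤ s}.indicator 1 (x, y) * g x) with hF
  have hFm : Measurable (Function.uncurry F) := by
    simp only [hF]
    apply Measurable.mul
    · exact (measurable_one.indicator hT).comp measurable_snd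
    · apply Measurable.mul
      · exact measurable_one.indicator hD
      · exact hg.comp measurable_fst
  have h1 : ∀ x, ε (T ∩ closedBall x s) * g x = ∫⁻ y, F x y ∂ε := by
    intro x
    have e1 : ∀ y, F x y = (T ∩ closedBall x s).indicator (fun _ => g x) y := by
      intro y
      simp only [hF]
      by_cases hy : y ∈ T <;> by_cases hy' : dist y x ≤ s <;>
        simp [indicator, hy, hy', mem_closedBall]
    simp_rw [e1]
    rw [lintegral_indicator (hT.inter measurableSet_closedBall), lintegral_const,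
      Measure.restrict_apply MeasurableSet.univ, univ_inter, mul_comm]
  have h2 : ∀ y, ∫⁻ x, F x y ∂ε = T.indicator (fun y => ∫⁻ x in closedBall y s, g x ∂ε) y := by
    intro y
    by_cases hy : y ∈ T
    · rw [indicator_of_mem hy, ← lintegral_indicator measurableSet_closedBall]
      apply lintegral_congr
      intro x
      simp only [hF]
      by_cases hy' : dist y x ≤ s
      · have : x ∈ closedBall y s := by rw [mem_closedBall, dist_comm]; exact hy'
        simp [indicator, hy, hy', this]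
      · have : x ∉ closedBall y s := by rw [mem_closedBall, dist_comm]; exact hy'
        simp [indicator, hy, hy', this]
    · rw [indicator_of_notMem hy]
      simp [hF, hy]
  simp_rw [h1]
  rw [lintegral_lintegral_swap hFm.aemeasurable]
  simp_rw [h2]
  rw [lintegral_indicator hT]

/-- `∫ ε(T ∩ B_s(x)) / ε(B_s(x)) dε ≤ N ε(T)` if all `s`-balls are covered by `N` sets of
diameter `≤ s` -/
theorem ratio_le [SFinite ε] {s : ℝ} {N : ℕ} (hN : ∀ y : X, Cov N s (closedBall y s)) {T : Set X}
    (hT : MeasurableSet T) :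
    ∫⁻ x, ε (T ∩ closedBall x s) * (ε (closedBall x s))⁻¹ ∂ε ≤ N * ε T := by
  rw [tonelli ε hT (g := fun x => (ε (closedBall x s))⁻¹) (meas_cb ε s).inv]
  calc ∫⁻ y in T, ∫⁻ x in closedBall y s, (ε (closedBall x s))⁻¹ ∂ε ∂ε
      ≤ ∫⁻ _ in T, (N : ℝ≥0∞) ∂ε := lintegral_mono fun y => ovl_cov ε (hN y)
    _ = N * ε T := by rw [lintegral_const, Measure.restrict_apply MeasurableSet.univ, univ_inter]

/-- **transfer** : the centres in whose `s`-ball a fraction `≥ δ` is bad -/
theorem transfer [IsFiniteMeasure ε] {s : ℝ} (hs : 0 < s) {N : ℕ}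
    (hN : ∀ y : X, Cov N s (closedBall y s)) {T : Set X} (hT : MeasurableSet T) (δ : ℝ≥0∞) :
    δ * ε {x | δ * ε (closedBall x s) ≤ ε (T ∩ closedBall x s)} ≤ N * ε T := by
  refine le_trans ?_ (ratio_le ε hN hT)
  have hm : Measurable fun x => ε (T ∩ closedBall x s) := by
    have h : MeasurableSet ({p : X × X | dist p.2 p.1 ≤ s} ∩ {p : X × X | p.2 ∈ T}) :=
      (isClosed_le (by fun_prop) (by fun_prop)).measurableSet.inter (measurable_snd hT)
    have := measurable_measure_prodMk_left (ν := ε) h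
    have e : (fun x => ε (T ∩ closedBall x s)) = fun x => ε (Prod.mk x ⁻¹'
        ({p : X × X | dist p.2 p.1 ≤ s} ∩ {p : X × X | p.2 ∈ T})) := by
      ext x
      congr 1
      ext y
      simp [and_comm]
    rw [e]
    exact this
  have h2 : ∀ᵐ x ∂ε, {x | δ * ε (closedBall x s) ≤ ε (T ∩ closedBall x s)}.indicator
      (fun _ => δ) x ≤ ε (T ∩ closedBall x s) * (ε (closedBall x s))⁻¹ := by
    filter_upwards [ae_pos ε hs] with x hx
    by_cases hxx : x ∈ {x | δ * ε (closedBall x s) ≤ ε (T ∩ closedBall x s)}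
    · rw [indicator_of_mem hxx]
      have h3 : δ * ε (closedBall x s) ≤ ε (T ∩ closedBall x s) := hxx
      rw [← div_eq_mul_inv, ENNReal.le_div_iff_mul_le (Or.inl hx) (Or.inl (measure_ne_top _ _))]
      exact h3
    · rw [indicator_of_notMem hxx]
      exact bot_le
  have h3 := lintegral_mono_ae h2
  rw [lintegral_indicator (measurableSet_le ((meas_cb ε s).const_mul δ) hm), lintegral_const,
    Measure.restrict_apply MeasurableSet.univ, univ_inter] at h3
  exact h3

/-! ### entropy -/

theorem log_le_mul {t A : ℝ} (ht : 0 < t) (hA : 0 < A) : Real.log t ≤ Real.log A + t / A - 1 := by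
  have := Real.log_le_sub_one_of_pos (div_pos ht hA)
  rw [Real.log_div ht.ne' hA.ne'] at this
  linarith

/-- the ratio `ε(B_s(x)) / ε(B_r(x))` -/
noncomputable def rat (r s : ℝ) (x : X) : ℝ :=
  (ε (closedBall x s) * (ε (closedBall x r))⁻¹).toReal

theorem rat_nonneg (r s : ℝ) (x : X) : 0 ≤ rat ε r s x := ENNReal.toReal_nonneg

theorem rat_meas [SFinite ε] (r s : ℝ) : Measurable (rat ε r s) :=
  ((meas_cb ε s).mul (meas_cb ε r).inv).ennreal_toReal

theorem rat_eq [IsFiniteMeasure ε] (r s : ℝ) (x : X) :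
    rat ε r s x = ε.real (closedBall x s) / ε.real (closedBall x r) := by
  simp [rat, Measure.real, ENNReal.toReal_mul, ENNReal.toReal_inv, div_eq_mul_inv]

theorem tint [SFinite ε] {r s : ℝ} {N : ℕ} {T : Set X} (hT : MeasurableSet T)
    (hN : ∀ y : X, Cov N r (closedBall y s ∩ T)) :
    ∫⁻ x in T, ε (closedBall x s) * (ε (closedBall x r))⁻¹ ∂ε ≤ N * ε univ := by
  have h1 := tonelli ε (s := s) (T := univ) MeasurableSet.univ
    (g := T.indicator fun x => (ε (closedBall x r))⁻¹) ((meas_cb ε r).inv.indicator hT)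
  rw [← lintegral_indicator hT]
  have h2 : ∀ x, T.indicator (fun x => ε (closedBall x s) * (ε (closedBall x r))⁻¹) x
      = ε (univ ∩ closedBall x s) * (T.indicator (fun x => (ε (closedBall x r))⁻¹) x) := by
    intro x
    by_cases hx : x ∈ T <;> simp [hx]
  simp_rw [h2]
  rw [h1, Measure.restrict_univ]
  calc ∫⁻ y, ∫⁻ x in closedBall y s, T.indicator (fun x => (ε (closedBall x r))⁻¹) x ∂ε ∂ε
      ≤ ∫⁻ _, (N : ℝ≥0∞) ∂ε := by
        apply lintegral_mono
        intro y
        show ∫⁻ x in closedBall y s, T.indicator (fun x => (ε (closedBall x r))⁻¹) x ∂ε ≤ N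
        rw [lintegral_indicator hT, Measure.restrict_restrict hT, inter_comm]
        exact ovl_cov ε (hN y)
    _ = N * ε univ := by rw [lintegral_const]

theorem rat_int [IsFiniteMeasure ε] {r s : ℝ} {N : ℕ} {T : Set X} (hT : MeasurableSet T)
    (hN : ∀ y : X, Cov N r (closedBall y s ∩ T)) :
    IntegrableOn (rat ε r s) T ε ∧ ∫ x in T, rat ε r s x ∂ε ≤ N * ε.real univ := by
  have h1 := tint ε hT hN
  have hlt : (N : ℝ≥0∞) * ε univ < ⊤ := ENNReal.mul_lt_top (by simp) (measure_lt_top _ _)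
  have hm := (meas_cb ε s).mul (meas_cb ε r).inv
  refine ⟨integrable_toReal_of_lintegral_ne_top hm.aemeasurable (h1.trans_lt hlt).ne, ?_⟩
  have h2 : ∫ x in T, rat ε r s x ∂ε
      = (∫⁻ x in T, ε (closedBall x s) * (ε (closedBall x r))⁻¹ ∂ε).toReal := by
    apply integral_toReal hm.aemeasurable
    exact ae_lt_top hm (h1.trans_lt hlt).ne
  rw [h2]
  have := ENNReal.toReal_mono hlt.ne h1
  rwa [ENNReal.toReal_mul, ENNReal.toReal_natCast] at this

variable [IsFiniteMeasure ε]

theorem rat_pos {r s : ℝ} (hr : 0 < r) (hrs : r ≤ s) : ∀ᵐ x ∂ε, 1 ≤ rat ε r s x := by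
  filter_upwards [ae_pos ε hr] with x hx
  have h0 : 0 < ε.real (closedBall x r) := ENNReal.toReal_pos hx (measure_ne_top _ _)
  rw [rat_eq, le_div_iff₀ h0, one_mul]
  exact measureReal_mono (closedBall_subset_closedBall hrs)

/-- **entropy inequality** -/
theorem entropy {r s : ℝ} (hr : 0 < r) (hrs : r ≤ s) {p : ℕ} (τ : X → Fin p) (hτ : Measurable τ)
    (N : Fin p → ℕ) (hN0 : ∀ i, 0 < N i)
    (hN : ∀ i, ∀ y : X, Cov (N i) r (closedBall y s ∩ τ ⁻¹' {i})) :
    Integrable (fun x => Real.log (rat ε r s x)) ε ∧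
    ∫ x, Real.log (rat ε r s x) ∂ε
      ≤ ∑ i, ε.real (τ ⁻¹' {i}) * Real.log (N i) + ε.real univ * Real.log p := by
  have hT : ∀ i, MeasurableSet (τ ⁻¹' {i}) := fun i => hτ (measurableSet_singleton i)
  have hi : ∀ i, IntegrableOn (rat ε r s) (τ ⁻¹' {i}) ε := fun i => (rat_int ε (hT i) (hN i)).1
  have hb : ∀ i, ∫ x in τ ⁻¹' {i}, rat ε r s x ∂ε ≤ N i * ε.real univ :=
    fun i => (rat_int ε (hT i) (hN i)).2
  rcases isEmpty_or_nonempty X with hX | ⟨⟨x0⟩⟩
  · have : ε = 0 := Measure.eq_zero_of_isEmpty ε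
    subst this
    simp
  have hp : 0 < p := lt_of_le_of_lt (Nat.zero_le _) (τ x0).2
  have hpr : (0 : ℝ) < p := by exact_mod_cast hp
  have hNr : ∀ i, (0 : ℝ) < N i := fun i => by exact_mod_cast hN0 i
  set g : X → ℝ := fun x => ∑ i, (τ ⁻¹' {i}).indicator
    (fun x => Real.log (p * N i) - 1 + rat ε r s x / (p * N i)) x with hg
  have hgii : ∀ i, Integrable ((τ ⁻¹' {i}).indicator
      (fun x => Real.log (p * N i) - 1 + rat ε r s x / (p * N i))) ε := by
    intro i
    apply IntegrableOn.integrable_indicator _ (hT i)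
    exact (integrable_const _).add ((hi i).div_const _)
  have hgi : Integrable g ε := by
    apply integrable_finsetSum
    intro i _
    exact hgii i
  have hle : ∀ᵐ x ∂ε, Real.log (rat ε r s x) ≤ g x := by
    filter_upwards [rat_pos ε hr hrs] with x hx
    have h1 : g x = Real.log (p * N (τ x)) - 1 + rat ε r s x / (p * N (τ x)) := by
      simp only [hg]
      rw [Finset.sum_eq_single (τ x)]
      · simp
      · intro i _ hi'
        apply indicator_of_notMem
        simp only [mem_preimage, mem_singleton_iff]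
        exact fun h => hi' h.symm
      · intro h; exact absurd (Finset.mem_univ _) h
    rw [h1]
    have := log_le_mul (t := rat ε r s x) (A := p * N (τ x)) (by linarith)
      (mul_pos hpr (hNr _))
    linarith
  have hnn : ∀ᵐ x ∂ε, 0 ≤ Real.log (rat ε r s x) := by
    filter_upwards [rat_pos ε hr hrs] with x hx using Real.log_nonneg hx
  have hint : Integrable (fun x => Real.log (rat ε r s x)) ε := by
    refine hgi.mono' (Real.measurable_log.comp (rat_meas ε r s)).aestronglyMeasurable ?_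
    filter_upwards [hle, hnn] with x h1 h2
    rw [Real.norm_eq_abs, abs_of_nonneg h2]
    exact h1
  refine ⟨hint, (integral_mono_ae hint hgi hle).trans ?_⟩
  simp only [hg]
  rw [integral_finsetSum _ fun i _ => hgii i]
  have h3 : ∀ i, ∫ x, (τ ⁻¹' {i}).indicator
      (fun x => Real.log (p * N i) - 1 + rat ε r s x / (p * N i)) x ∂ε
      ≤ ε.real (τ ⁻¹' {i}) * (Real.log (p * N i) - 1) + ε.real univ / p := by
    intro i
    rw [integral_indicator (hT i), integral_add (integrable_const _).integrableOn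
      ((hi i).div_const _), integral_div]
    simp only [integral_const, smul_eq_mul, measureReal_restrict_apply_univ]
    have h4 : (∫ x in τ ⁻¹' {i}, rat ε r s x ∂ε) / (p * N i) ≤ ε.real univ / p := by
      rw [div_le_div_iff₀ (mul_pos hpr (hNr i)) hpr]
      nlinarith [hb i, hNr i, mul_le_mul_of_nonneg_right (hb i) hpr.le]
    linarith
  refine (Finset.sum_le_sum fun i _ => h3 i).trans ?_
  rw [Finset.sum_add_distrib]
  have h5 : ∑ i : Fin p, ε.real (τ ⁻¹' {i}) = ε.real univ := by
    rw [← measureReal_biUnion_finset]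
    · congr 1
      ext x
      simp
    · intro i _ j _ hij
      exact Disjoint.preimage _ (by simpa using hij)
    · intro i _; exact hT i
  have h6 : ∑ _i : Fin p, ε.real univ / p = ε.real univ := by
    rw [Finset.sum_const, Finset.card_univ, Fintype.card_fin, nsmul_eq_mul]
    field_simp
  have h7 : ∑ i, ε.real (τ ⁻¹' {i}) * (Real.log (p * N i) - 1)
      = ∑ i, ε.real (τ ⁻¹' {i}) * Real.log (N i) + ε.real univ * Real.log p - ε.real univ := by
    have : ∀ i, ε.real (τ ⁻¹' {i}) * (Real.log (p * N i) - 1)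
        = ε.real (τ ⁻¹' {i}) * Real.log (N i) + ε.real (τ ⁻¹' {i}) * Real.log p
          - ε.real (τ ⁻¹' {i}) := by
      intro i
      rw [Real.log_mul hpr.ne' (hNr i).ne']
      ring
    simp_rw [this]
    rw [Finset.sum_sub_distrib, Finset.sum_add_distrib, ← Finset.sum_mul, h5]
  rw [h6, h7]
  linarith

/-- telescoping of the ratios -/
theorem rat_mul {r s t : ℝ} (hr : 0 < r) (hs : 0 < s) (_ht : 0 < t) :
    ∀ᵐ x ∂ε, rat ε r t x = rat ε r s x * rat ε s t x := by
  filter_upwards [ae_pos ε hr, ae_pos ε hs] with x h1 h2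
  rw [rat_eq, rat_eq, rat_eq]
  have := ENNReal.toReal_pos h2 (measure_ne_top _ _)
  have h3 : ε.real (closedBall x s) ≠ 0 := this.ne'
  field_simp

end Crest.Agent.R234.Ovl_201
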