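import Mathlib
import Crest.Agent.R234.Ovl1_201

/-!
# R234 / Ent1_201 : counting of scales ((7)(iv) of #5124; task 1308) and covering numbers

* `tele` : `∫ log (ε(B_{s_K}) / ε(B_{s_0})) dε ≤ ∑_k (∑_i ε(τ_k = i) log N_{k,i} + ε(X) log p)`;
* `count` : three types (thin / plane / rest);
* `cov_near` : the part of a ball of radius `R` near a `j`-plane is covered by
  `(⌊16 R (j+1) / ρ⌋ + 1)^j` sets of diameter `≤ ρ`.
-/

set_option linter.unusedSectionVars false

namespace Crest.Agent.R234.Ovl_201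

open MeasureTheory Set Filter Metric
open scoped Topology ENNReal

section count
variable {X : Type*} [PseudoMetricSpace X] [SecondCountableTopology X] [MeasurableSpace X]
  [BorelSpace X] (ε : Measure X) [IsFiniteMeasure ε]

theorem tele {p : ℕ} (s : ℕ → ℝ) (hs : ∀ k, 0 < s k) (hmono : ∀ k, s k ≤ s (k + 1))
    (τ : ℕ → X → Fin p) (hτ : ∀ k, Measurable (τ k)) (N : ℕ → Fin p → ℕ)
    (hN0 : ∀ k i, 0 < N k i)
    (hN : ∀ k i, ∀ y : X, Cov (N k i) (s k) (closedBall y (s (k + 1)) ∩ τ k ⁻¹' {i})) (K : ℕ) :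
    Integrable (fun x => Real.log (rat ε (s 0) (s K) x)) ε ∧
    ∫ x, Real.log (rat ε (s 0) (s K) x) ∂ε
      ≤ ∑ k ∈ Finset.range K,
        (∑ i, ε.real (τ k ⁻¹' {i}) * Real.log (N k i) + ε.real univ * Real.log p) := by
  have hm : Monotone s := monotone_nat_of_le_succ hmono
  induction K with
  | zero =>
    have h1 : ∀ᵐ x ∂ε, Real.log (rat ε (s 0) (s 0) x) = 0 := by
      filter_upwards [ae_pos ε (hs 0)] with x hx
      have h0 : 0 < ε.real (closedBall x (s 0)) := ENNReal.toReal_pos hx (measure_ne_top _ _)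
      rw [rat_eq, div_self h0.ne', Real.log_one]
    refine ⟨(integrable_zero _ _ _).congr (by
      filter_upwards [h1] with x hx; simp [hx]), ?_⟩
    rw [integral_congr_ae (g := fun _ => 0) h1]
    simp
  | succ K ih =>
    have h2 := entropy ε (hs K) (hmono K) (τ K) (hτ K) (N K) (hN0 K) (hN K)
    have h3 : ∀ᵐ x ∂ε, Real.log (rat ε (s 0) (s (K + 1)) x)
        = Real.log (rat ε (s 0) (s K) x) + Real.log (rat ε (s K) (s (K + 1)) x) := by
      filter_upwards [rat_mul ε (hs 0) (hs K) (hs (K + 1)), rat_pos ε (hs 0) (hm (Nat.zero_le K)),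
        rat_pos ε (hs K) (hmono K)] with x h1 h2 h3
      rw [h1, Real.log_mul (by linarith) (by linarith)]
    refine ⟨(ih.1.add h2.1).congr (by filter_upwards [h3] with x hx; simp [hx]), ?_⟩
    rw [integral_congr_ae h3, integral_add ih.1 h2.1, Finset.sum_range_succ]
    exact add_le_add ih.2 h2.2

/-- lower bound of the telescoped integral from a pointwise one -/
theorem low_of {r s H : ℝ} (hi : Integrable (fun x => Real.log (rat ε r s x)) ε)
    (h : ∀ᵐ x ∂ε, Real.exp H ≤ rat ε r s x) :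
    H * ε.real univ ≤ ∫ x, Real.log (rat ε r s x) ∂ε := by
  have h1 : ∫ _, H ∂ε ≤ ∫ x, Real.log (rat ε r s x) ∂ε := by
    apply integral_mono_ae (integrable_const _) hi
    filter_upwards [h] with x hx
    rw [Real.le_log_iff_exp_le ((Real.exp_pos _).trans_le hx)]
    exact hx
  rw [integral_const, smul_eq_mul, mul_comm] at h1
  exact h1

/-- **(7)(iv)** : types `0` = thin, `1` = plane, `2` = rest -/
theorem count {J C0 d H : ℝ} (s : ℕ → ℝ) (hs : ∀ k, 0 < s k) (hmono : ∀ k, s k ≤ s (k + 1))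
    (τ : ℕ → X → Fin 3) (hτ : ∀ k, Measurable (τ k)) (N : ℕ → Fin 3 → ℕ)
    (hN0 : ∀ k i, 0 < N k i)
    (hN : ∀ k i, ∀ y : X, Cov (N k i) (s k) (closedBall y (s (k + 1)) ∩ τ k ⁻¹' {i})) (K : ℕ)
    (h0 : ∀ k, Real.log (N k 0) ≤ (d - 1) * J + C0) (h1 : ∀ k, Real.log (N k 1) ≤ d * J + C0)
    (h2 : ∀ k, Real.log (N k 2) ≤ (d + 2) * J + C0)
    (hlow : ∀ᵐ x ∂ε, Real.exp (d * J * K - H) ≤ rat ε (s 0) (s K) x) :
    J * ∑ k ∈ Finset.range K, ε.real (τ k ⁻¹' {0})
      ≤ ((C0 + Real.log 3) * K + H) * ε.real univ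
        + 2 * J * ∑ k ∈ Finset.range K, ε.real (τ k ⁻¹' {2}) := by
  obtain ⟨hi, hu⟩ := tele ε s hs hmono τ hτ N hN0 hN K
  have hl := low_of ε hi hlow
  have hk : ∀ k, ∑ i, ε.real (τ k ⁻¹' {i}) * Real.log (N k i) + ε.real univ * Real.log (3 : ℕ)
      ≤ (d * J + C0 + Real.log 3) * ε.real univ - J * ε.real (τ k ⁻¹' {0})
        + 2 * J * ε.real (τ k ⁻¹' {2}) := by
    intro k
    have hsum : ∑ i : Fin 3, ε.real (τ k ⁻¹' {i}) = ε.real univ := by
      rw [← measureReal_biUnion_finset]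
      · congr 1
        ext x
        simp
      · intro i _ j _ hij
        exact Disjoint.preimage _ (by simpa using hij)
      · intro i _; exact hτ k (measurableSet_singleton i)
    rw [Fin.sum_univ_three] at hsum ⊢
    have e0 : 0 ≤ ε.real (τ k ⁻¹' {0}) := measureReal_nonneg
    have e1 : 0 ≤ ε.real (τ k ⁻¹' {1}) := measureReal_nonneg
    have e2 : 0 ≤ ε.real (τ k ⁻¹' {2}) := measureReal_nonneg
    have i0 := mul_le_mul_of_nonneg_left (h0 k) e0
    have i1 := mul_le_mul_of_nonneg_left (h1 k) e1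
    have i2 := mul_le_mul_of_nonneg_left (h2 k) e2
    push_cast
    rw [← hsum]
    nlinarith
  have hS := hl.trans (hu.trans (Finset.sum_le_sum fun k _ => hk k))
  rw [Finset.sum_add_distrib, Finset.sum_sub_distrib, Finset.sum_const, Finset.card_range,
    nsmul_eq_mul] at hS
  have e1 : ∑ k ∈ Finset.range K, J * ε.real (τ k ⁻¹' {0})
      = J * ∑ k ∈ Finset.range K, ε.real (τ k ⁻¹' {0}) := (Finset.mul_sum _ _ _).symm
  have e2 : ∑ k ∈ Finset.range K, 2 * J * ε.real (τ k ⁻¹' {2})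
      = 2 * J * ∑ k ∈ Finset.range K, ε.real (τ k ⁻¹' {2}) := (Finset.mul_sum _ _ _).symm
  rw [e1, e2] at hS
  nlinarith

end count

section net
variable {E : Type*} [NormedAddCommGroup E] [InnerProductSpace ℝ E]

/-- covering of a bounded set of vectors of a `j`-dimensional subspace, through a map -/
theorem cov_near {T : Set E} (W : Submodule ℝ E) [FiniteDimensional ℝ W] (a : E → E) {R ρ δ : ℝ}
    (hR : 0 ≤ R) (hρ : 0 < ρ) (hδ : 4 * δ ≤ ρ) (hδR : δ ≤ R) (y p : E)
    (hT : ∀ x ∈ T, dist x y ≤ R) (ha : ∀ x ∈ T, a x - p ∈ W) (hd : ∀ x ∈ T, dist x (a x) ≤ δ)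
    {j : ℕ} (hj : Module.finrank ℝ W = j) :
    Cov ((⌊16 * R * (j + 1) / ρ⌋₊ + 1) ^ j) ρ T := by
  classical
  rcases T.eq_empty_or_nonempty with rfl | ⟨x0, hx0⟩
  · exact ⟨fun _ => ∅, by simp, by simp⟩
  set h : ℝ := ρ / (2 * (j + 1)) with hh
  have hjp : (0 : ℝ) < j + 1 := by positivity
  have hh0 : 0 < h := by positivity
  set M : ℕ := ⌊16 * R * (j + 1) / ρ⌋₊ + 1 with hM
  -- coordinates
  set b := (stdOrthonormalBasis ℝ W).reindex (finCongr hj) with hb
  have hmem : ∀ x ∈ T, a x - a x0 ∈ W := by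
    intro x hx
    have := W.sub_mem (ha x hx) (ha x0 hx0)
    simpa using this
  have hnorm : ∀ x ∈ T, ‖a x - a x0‖ ≤ 4 * R := by
    intro x hx
    rw [← dist_eq_norm]
    calc dist (a x) (a x0) ≤ dist (a x) x + dist x x0 + dist x0 (a x0) := dist_triangle4 _ _ _ _
      _ ≤ δ + (R + R) + δ := by
          have h1 := hd x hx
          have h2 := hd x0 hx0
          have h3 : dist x x0 ≤ R + R := by
            calc dist x x0 ≤ dist x y + dist y x0 := dist_triangle _ _ _
              _ ≤ R + R := add_le_add (hT x hx) (by rw [dist_comm]; exact hT x0 hx0)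
          rw [dist_comm] at h1
          linarith
      _ ≤ 4 * R := by linarith
  let c : E → Fin j → ℝ := fun x i =>
    if hx : x ∈ T then b.repr ⟨a x - a x0, hmem x hx⟩ i else 0
  have hc : ∀ x (hx : x ∈ T), ∀ i, c x i = b.repr ⟨a x - a x0, hmem x hx⟩ i := fun x hx i => by
    simp only [c, dif_pos hx]
  have hcb : ∀ x ∈ T, ∀ i, |c x i| ≤ 4 * R := by
    intro x hx i
    rw [hc x hx i]
    have h1 : ‖b.repr ⟨a x - a x0, hmem x hx⟩ i‖ ≤ ‖b.repr ⟨a x - a x0, hmem x hx⟩‖ :=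
      PiLp.norm_apply_le _ i
    rw [Real.norm_eq_abs, LinearIsometryEquiv.norm_map] at h1
    exact h1.trans (hnorm x hx)
  -- the cell index
  let q : E → Fin j → Fin M := fun x i =>
    ⟨min ⌊(c x i + 4 * R) / h⌋₊ (M - 1), by
      have : 0 < M := Nat.succ_pos _
      exact lt_of_le_of_lt (min_le_right _ _) (by lia)⟩
  have hq : ∀ x ∈ T, ∀ i, (q x i : ℕ) = ⌊(c x i + 4 * R) / h⌋₊ := by
    intro x hx i
    show min ⌊(c x i + 4 * R) / h⌋₊ (M - 1) = _
    apply min_eq_left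
    show _ ≤ ⌊16 * R * (j + 1) / ρ⌋₊ + 1 - 1
    rw [Nat.add_sub_cancel]
    apply Nat.floor_mono
    have h1 := (abs_le.1 (hcb x hx i)).2
    calc (c x i + 4 * R) / h ≤ (8 * R) / h := div_le_div_of_nonneg_right (by linarith) hh0.le
      _ = 16 * R * (j + 1) / ρ := by
          rw [hh]
          field_simp
          ring
  have hcard : Fintype.card (Fin j → Fin M) = M ^ j := by simp
  let e := Fintype.equivFinOfCardEq hcard
  refine ⟨fun k => {x ∈ T | q x = e.symm k}, fun k x hx x' hx' => ?_, fun x hx =>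
    mem_iUnion.2 ⟨e (q x), hx, by simp⟩⟩
  obtain ⟨hxT, hxq⟩ := hx
  obtain ⟨hxT', hxq'⟩ := hx'
  have hqq : q x = q x' := hxq.trans hxq'.symm
  have hci : ∀ i, |c x i - c x' i| ≤ h := by
    intro i
    have h1 : ⌊(c x i + 4 * R) / h⌋₊ = ⌊(c x' i + 4 * R) / h⌋₊ := by
      rw [← hq x hxT i, ← hq x' hxT' i, hqq]
    have p1 : 0 ≤ (c x i + 4 * R) / h :=
      div_nonneg (by have := (abs_le.1 (hcb x hxT i)).1; linarith) hh0.le
    have p2 : 0 ≤ (c x' i + 4 * R) / h :=
      div_nonneg (by have := (abs_le.1 (hcb x' hxT' i)).1; linarith) hh0.le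
    have a1 := Nat.floor_le p1
    have a2 := Nat.lt_floor_add_one ((c x i + 4 * R) / h)
    have a3 := Nat.floor_le p2
    have a4 := Nat.lt_floor_add_one ((c x' i + 4 * R) / h)
    rw [h1] at a1 a2
    have h2 : |(c x i + 4 * R) / h - (c x' i + 4 * R) / h| ≤ 1 := by
      rw [abs_le]; constructor <;> linarith
    have h3 : (c x i + 4 * R) / h - (c x' i + 4 * R) / h = (c x i - c x' i) / h := by
      field_simp
      ring
    rw [h3, abs_div, abs_of_pos hh0, div_le_one hh0] at h2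
    exact h2
  have haa : dist (a x) (a x') ≤ ρ / 2 := by
    have e1 : a x - a x' = (((⟨a x - a x0, hmem x hxT⟩ : W) - ⟨a x' - a x0, hmem x' hxT'⟩ : W) : E) := by
      simp
    rw [dist_eq_norm, e1, Submodule.norm_coe, ← b.repr.norm_map, map_sub]
    have h4 : ‖b.repr ⟨a x - a x0, hmem x hxT⟩ - b.repr ⟨a x' - a x0, hmem x' hxT'⟩‖
        ≤ ∑ i, |c x i - c x' i| := by
      rw [EuclideanSpace.norm_eq]
      calc √(∑ i, ‖(b.repr ⟨a x - a x0, hmem x hxT⟩ - b.repr ⟨a x' - a x0, hmem x' hxT'⟩) i‖ ^ 2)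
          ≤ √((∑ i, |c x i - c x' i|) ^ 2) := by
            apply Real.sqrt_le_sqrt
            have : ∀ i, ‖(b.repr ⟨a x - a x0, hmem x hxT⟩
                - b.repr ⟨a x' - a x0, hmem x' hxT'⟩) i‖ ^ 2 = |c x i - c x' i| ^ 2 := by
              intro i
              rw [hc x hxT, hc x' hxT']
              simp
            simp_rw [this]
            exact Finset.sum_sq_le_sq_sum_of_nonneg fun i _ => abs_nonneg _
        _ = ∑ i, |c x i - c x' i| := Real.sqrt_sq (Finset.sum_nonneg fun i _ => abs_nonneg _)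
    refine h4.trans ?_
    calc ∑ i, |c x i - c x' i| ≤ ∑ _i : Fin j, h := Finset.sum_le_sum fun i _ => hci i
      _ = j * h := by simp
      _ ≤ ρ / 2 := by
          rw [hh, mul_div_assoc', div_le_div_iff₀ (by positivity) (by positivity)]
          nlinarith
  calc dist x x' ≤ dist x (a x) + dist (a x) (a x') + dist (a x') x' := dist_triangle4 _ _ _ _
    _ ≤ δ + ρ / 2 + δ := by
        have h1 := hd x hxT
        have h2 := hd x' hxT'
        rw [dist_comm] at h2
        linarith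
    _ ≤ ρ := by linarith

/-- the logarithm of the covering number -/
theorem log_cov_le {j : ℕ} {R ρ : ℝ} (hρ : 0 < ρ) (h : ρ ≤ R) :
    Real.log (((⌊16 * R * (j + 1) / ρ⌋₊ + 1) ^ j : ℕ) : ℝ)
      ≤ j * Real.log (R / ρ) + j * Real.log (16 * (j + 1) + 1) := by
  have hR : 0 < R := hρ.trans_le h
  have h1 : (1 : ℝ) ≤ R / ρ := by rw [le_div_iff₀ hρ, one_mul]; exact h
  push_cast
  rw [Real.log_pow]
  rw [← mul_add]
  apply mul_le_mul_of_nonneg_left _ (Nat.cast_nonneg j)
  rw [← Real.log_mul (by positivity) (by positivity)]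
  apply Real.log_le_log (by positivity)
  have h2 := Nat.floor_le (show 0 ≤ 16 * R * (j + 1) / ρ by positivity)
  have h3 : 16 * R * (j + 1) / ρ = (R / ρ) * (16 * (j + 1)) := by field_simp
  rw [h3] at h2 ⊢
  nlinarith

/-- a whole ball -/
theorem cov_ball [FiniteDimensional ℝ E] {R ρ : ℝ} (hR : 0 ≤ R) (hρ : 0 < ρ) (y : E) :
    Cov ((⌊16 * R * (Module.finrank ℝ E + 1) / ρ⌋₊ + 1) ^ Module.finrank ℝ E) ρ
      (closedBall y R) := by
  have := cov_near (T := closedBall y R) (⊤ : Submodule ℝ E) id (δ := 0) hR hρ (by linarith) hR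
    y 0 (fun x hx => hx) (fun x _ => Submodule.mem_top) (fun x _ => by simp)
    (j := Module.finrank ℝ E) (by simp)
  exact this

end net

end Crest.Agent.R234.Ovl_201
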