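import Mathlib

/-!
# Multiscale spanning (VF-SPAN), part 1: covering trees

`Flat k δ A x r`: inside the closed ball of radius `r` about `x` the set `A` lies in the
`δ r`-neighbourhood of an affine subspace of dimension at most `k`.

Main results: `span_null` (for `s > k`, small `δ` and a suitable `θ > 0`: for every set `A`, the set of
points of `A` for which infinitely often less than `θ K` of the first `K` scales `δ^j` are non flat
has `s`-dimensional Hausdorff measure zero).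
-/

open MeasureTheory Metric Set Filter Topology
open scoped ENNReal NNReal

namespace Crest.Agent.R234.Sp1_643

variable {E : Type*} [NormedAddCommGroup E] [InnerProductSpace ℝ E]

/-- `A ∩ closedBall x r` lies in the closed `δ r`-neighbourhood of an affine subspace of dimension
at most `k`. -/
def Flat (k : ℕ) (δ : ℝ) (A : Set E) (x : E) (r : ℝ) : Prop :=
  ∃ W : AffineSubspace ℝ E, Module.finrank ℝ W.direction ≤ k ∧
    ∀ y ∈ A ∩ closedBall x r, ∃ w ∈ W, dist y w ≤ δ * r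

/-- covering of `S` by at most `N` subsets of `S` of diameter at most `ρ` -/
def Cov (S : Set E) (N ρ : ℝ) : Prop :=
  ∃ T : Finset (Set E), (T.card : ℝ) ≤ N ∧
    (∀ t ∈ T, t ⊆ S ∧ ∀ y ∈ t, ∀ z ∈ t, dist y z ≤ ρ) ∧ ∀ y ∈ S, ∃ t ∈ T, y ∈ t

omit [InnerProductSpace ℝ E] in
theorem Cov.mono {S : Set E} {N N' ρ ρ' : ℝ} (h : Cov S N ρ) (hN : N ≤ N') (hρ : ρ ≤ ρ') :
    Cov S N' ρ' := by
  obtain ⟨T, h1, h2, h3⟩ := h
  exact ⟨T, h1.trans hN, fun t ht => ⟨(h2 t ht).1, fun y hy z hz => ((h2 t ht).2 y hy z hz).trans hρ⟩,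
    h3⟩

omit [InnerProductSpace ℝ E] in
theorem cov_empty {N ρ : ℝ} (hN : 0 ≤ N) : Cov (∅ : Set E) N ρ :=
  ⟨∅, by simpa using hN, by simp, by simp⟩

omit [InnerProductSpace ℝ E] in
theorem cov_self {S : Set E} {ρ : ℝ} (h : ∀ y ∈ S, ∀ z ∈ S, dist y z ≤ ρ) : Cov S 1 ρ :=
  ⟨{S}, by simp, by simpa using h, by simp⟩

omit [InnerProductSpace ℝ E] in
theorem Cov.comp {S : Set E} {N ρ N' ρ' : ℝ} (hN' : 0 ≤ N') (h : Cov S N ρ)
    (h' : ∀ t ⊆ S, (∀ y ∈ t, ∀ z ∈ t, dist y z ≤ ρ) → Cov t N' ρ') : Cov S (N * N') ρ' := by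
  classical
  obtain ⟨T, h1, h2, h3⟩ := h
  have hch : ∀ t : Set E, ∃ T' : Finset (Set E), t ∈ T → ((T'.card : ℝ) ≤ N' ∧
    (∀ u ∈ T', u ⊆ t ∧ ∀ y ∈ u, ∀ z ∈ u, dist y z ≤ ρ') ∧ ∀ y ∈ t, ∃ u ∈ T', y ∈ u) := by
    intro t
    by_cases ht : t ∈ T
    · obtain ⟨T', a, b, c⟩ := h' t (h2 t ht).1 (h2 t ht).2
      exact ⟨T', fun _ => ⟨a, b, c⟩⟩
    · exact ⟨∅, fun h => absurd h ht⟩
  choose f hf using hch
  refine ⟨T.biUnion f, ?_, ?_, ?_⟩
  · calc ((T.biUnion f).card : ℝ) ≤ ((∑ t ∈ T, (f t).card : ℕ) : ℝ) := by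
          exact_mod_cast Finset.card_biUnion_le
      _ = ∑ t ∈ T, ((f t).card : ℝ) := by push_cast; rfl
      _ ≤ ∑ _t ∈ T, N' := Finset.sum_le_sum fun t ht => (hf t ht).1
      _ = T.card * N' := by simp
      _ ≤ N * N' := mul_le_mul_of_nonneg_right h1 hN'
  · intro u hu
    obtain ⟨t, ht, hut⟩ := Finset.mem_biUnion.1 hu
    exact ⟨((hf t ht).2.1 u hut).1.trans (h2 t ht).1, ((hf t ht).2.1 u hut).2⟩
  · intro y hy
    obtain ⟨t, ht, hyt⟩ := h3 y hy
    obtain ⟨u, hu, hyu⟩ := (hf t ht).2.2 y hyt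
    exact ⟨u, Finset.mem_biUnion.2 ⟨t, ht, hu⟩, hyu⟩

variable [FiniteDimensional ℝ E]

/-- grid covering adapted to a subspace `F` -/
theorem cov_grid (F : Submodule ℝ E) {S : Set E} {x : E} {r δ ε : ℝ} (hr : 0 < r) (hδ : 0 < δ)
    (hδ1 : δ ≤ 1) (hS : S ⊆ closedBall x r)
    (hF : ∀ y ∈ S, ∀ z ∈ S, ‖(y - z) - F.starProjection (y - z)‖ ≤ ε) :
    Cov S (((2 * (Module.finrank ℝ E : ℝ) + 4) / δ) ^ (Module.finrank ℝ F)) (δ * r + ε) := by
  classical
  set d : ℝ := (Module.finrank ℝ E : ℝ) with hd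
  have hd0 : 0 ≤ d := by rw [hd]; positivity
  set m := Module.finrank ℝ F with hm
  have hmd : (m : ℝ) ≤ d := by
    rw [hd, hm]; exact_mod_cast Submodule.finrank_le F
  let b : OrthonormalBasis (Fin m) ℝ F := stdOrthonormalBasis ℝ F
  set h : ℝ := δ * r / (d + 1) with hh
  have hh0 : 0 < h := by positivity
  have hrh : r / h = (d + 1) / δ := by rw [hh]; field_simp
  let c : E → (Fin m → ℤ) := fun y i => ⌊inner ℝ (b i : E) (y - x) / h⌋
  let I : Finset ℤ := Finset.Icc ⌊-(r / h)⌋ ⌊r / h⌋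
  have hI : ((I.card : ℕ) : ℝ) ≤ (2 * d + 4) / δ := by
    have h1 : ((I.card : ℕ) : ℝ) = ((⌊r / h⌋ + 1 - ⌊-(r / h)⌋ : ℤ) : ℝ) := by
      have : I.card = (⌊r / h⌋ + 1 - ⌊-(r / h)⌋).toNat := by
        simp [I]
      rw [this]
      have h2 : (0:ℤ) ≤ ⌊r / h⌋ + 1 - ⌊-(r / h)⌋ := by
        have h3 : ⌊-(r / h)⌋ ≤ ⌊r / h⌋ := Int.floor_le_floor (by
          have : 0 < r / h := by positivity
          linarith)
        omega
      have h4 := Int.toNat_of_nonneg h2
      exact_mod_cast h4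
    rw [h1]
    push_cast
    have e1 := Int.floor_le (r / h)
    have e2 := Int.lt_floor_add_one (-(r / h))
    have e3 : 1 ≤ 1 / δ := by rw [le_div_iff₀ hδ]; linarith
    have e4 : (2 * d + 4) / δ = 2 * ((d + 1) / δ) + 2 * (1 / δ) := by field_simp; ring
    rw [e4, ← hrh]
    linarith
  have hin : ∀ y ∈ S, ∀ i, c y i ∈ I := by
    intro y hy i
    have h1 : |inner ℝ (b i : E) (y - x)| ≤ r := by
      have h2 := abs_real_inner_le_norm (b i : E) (y - x)
      have h3 : ‖(b i : E)‖ = 1 := (b.norm_eq_one i : ‖b i‖ = 1)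
      rw [h3, one_mul] at h2
      exact h2.trans (by simpa [dist_eq_norm] using hS hy)
    obtain ⟨h4, h5⟩ := abs_le.1 h1
    simp only [I, c, Finset.mem_Icc]
    constructor
    · apply Int.floor_le_floor
      rw [← neg_div]
      gcongr
    · apply Int.floor_le_floor
      gcongr
  refine ⟨(Fintype.piFinset fun _ : Fin m => I).image fun v => {y ∈ S | c y = v}, ?_, ?_, ?_⟩
  · calc ((((Fintype.piFinset fun _ : Fin m => I).image fun v => {y ∈ S | c y = v}).card : ℕ) : ℝ)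
        ≤ (((Fintype.piFinset fun _ : Fin m => I).card : ℕ) : ℝ) := by
          exact_mod_cast Finset.card_image_le
      _ = ((I.card : ℕ) : ℝ) ^ m := by simp [Fintype.card_piFinset]
      _ ≤ _ := by gcongr
  · intro t ht
    obtain ⟨v, hv, rfl⟩ := Finset.mem_image.1 ht
    refine ⟨fun y hy => hy.1, ?_⟩
    rintro y ⟨hy, hyv⟩ z ⟨hz, hzv⟩
    have hcyz : ∀ i, |inner ℝ (b i : E) (y - z)| ≤ h := by
      intro i
      have h1 : c y i = c z i := by rw [hyv, hzv]
      simp only [c] at h1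
      have h2 := Int.abs_sub_lt_one_of_floor_eq_floor h1
      rw [← sub_div, ← inner_sub_right, sub_sub_sub_cancel_right, abs_div, abs_of_pos hh0,
        div_lt_one hh0] at h2
      exact h2.le
    have hP : ‖F.starProjection (y - z)‖ ≤ δ * r := by
      have h1 : F.starProjection (y - z) = ∑ i, inner ℝ (b i : E) (y - z) • (b i : E) := by
        have := b.orthogonalProjectionOnto_apply_eq_sum (y - z)
        have h2 : F.starProjection (y - z) = ((F.orthogonalProjectionOnto (y - z) : F) : E) := rfl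
        rw [h2, this]
        push_cast
        rfl
      rw [h1]
      calc ‖∑ i, inner ℝ (b i : E) (y - z) • (b i : E)‖
          ≤ ∑ i, ‖inner ℝ (b i : E) (y - z) • (b i : E)‖ := norm_sum_le _ _
        _ ≤ ∑ _i : Fin m, h := by
            refine Finset.sum_le_sum fun i _ => ?_
            have h3 : ‖(b i : E)‖ = 1 := (b.norm_eq_one i : ‖b i‖ = 1)
            rw [norm_smul, h3, mul_one]
            exact hcyz i
        _ = m * h := by simp
        _ ≤ d * h := by gcongr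
        _ ≤ (d + 1) * h := by gcongr; linarith
        _ = δ * r := by rw [hh]; field_simp
    have h4 : y - z = F.starProjection (y - z) + ((y - z) - F.starProjection (y - z)) := by abel
    rw [dist_eq_norm, h4]
    exact (norm_add_le _ _).trans (add_le_add hP (hF y hy z hz))
  · intro y hy
    refine ⟨{w ∈ S | c w = c y}, ?_, hy, rfl⟩
    exact Finset.mem_image.2 ⟨c y, Fintype.mem_piFinset.2 fun i => hin y hy i, rfl⟩

/-- covering of a bounded set -/
theorem cov_ball {S : Set E} {x : E} {r δ : ℝ} (hr : 0 < r) (hδ : 0 < δ)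
    (hδ1 : δ ≤ 1) (hS : S ⊆ closedBall x r) :
    Cov S (((2 * (Module.finrank ℝ E : ℝ) + 4) / δ) ^ (Module.finrank ℝ E)) (δ * r) := by
  have h := cov_grid (⊤ : Submodule ℝ E) (S := S) (ε := 0) hr hδ hδ1 hS (by
    intro y _ z _
    have : (⊤ : Submodule ℝ E).starProjection (y - z) = y - z :=
      Submodule.starProjection_eq_self_iff.mpr trivial
    simp [this])
  rw [finrank_top] at h
  simpa using h

/-- the constant of one step -/
def C0 (d : ℕ) : ℝ := (2 * (d : ℝ) + 4) ^ d * (5 * (2 * (d : ℝ) + 4)) ^ d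

theorem one_le_C0 (d : ℕ) : 1 ≤ C0 d := by
  have h1 : (1:ℝ) ≤ (2 * (d : ℝ) + 4) := by
    have : (0:ℝ) ≤ d := by positivity
    linarith
  have h2 : (1:ℝ) ≤ 5 * (2 * (d : ℝ) + 4) := by linarith
  unfold C0
  exact one_le_mul_of_one_le_of_one_le (one_le_pow₀ h1) (one_le_pow₀ h2)

/-- one step of the tree, general case -/
theorem step_all {k : ℕ} {S : Set E} {r δ : ℝ} (hr : 0 < r) (hδ : 0 < δ) (hδ1 : δ ≤ 1)
    (hS : ∀ y ∈ S, ∀ z ∈ S, dist y z ≤ r) :
    Cov S (C0 (Module.finrank ℝ E) * (1 / δ) ^ k * (1 / δ) ^ (Module.finrank ℝ E)) (δ * r) := by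
  set d := Module.finrank ℝ E with hd
  have hb : 1 ≤ 1 / δ := by rw [le_div_iff₀ hδ]; linarith
  rcases S.eq_empty_or_nonempty with rfl | ⟨x, hx⟩
  · exact cov_empty (by unfold C0; positivity)
  · have h := cov_ball (E := E) (S := S) (x := x) hr hδ hδ1 (fun y hy => hS y hy x hx)
    refine h.mono ?_ le_rfl
    rw [← hd]
    have h1 : ((2 * (d : ℝ) + 4) / δ) ^ d = (2 * (d : ℝ) + 4) ^ d * (1 / δ) ^ d := by
      rw [← mul_pow]; congr 1; ring
    rw [h1]
    have h3 : (1:ℝ) ≤ 5 * (2 * (d : ℝ) + 4) := by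
      have : (0:ℝ) ≤ d := by positivity
      linarith
    have h4 : (1:ℝ) ≤ (5 * (2 * (d : ℝ) + 4)) ^ d := one_le_pow₀ h3
    have h5 : (1:ℝ) ≤ (1 / δ) ^ k := one_le_pow₀ hb
    unfold C0
    calc (2 * (d : ℝ) + 4) ^ d * (1 / δ) ^ d
        = (2 * (d : ℝ) + 4) ^ d * 1 * 1 * (1 / δ) ^ d := by ring
      _ ≤ (2 * (d : ℝ) + 4) ^ d * (5 * (2 * (d : ℝ) + 4)) ^ d * (1 / δ) ^ k * (1 / δ) ^ d := by
          gcongr

/-- one step of the tree at a flat point -/
theorem step_flat {k : ℕ} {A S : Set E} {x : E} {r δ : ℝ} (hr : 0 < r) (hδ : 0 < δ) (hδ1 : δ ≤ 1)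
    (hSA : S ⊆ A) (hxS : x ∈ S) (hS : ∀ y ∈ S, ∀ z ∈ S, dist y z ≤ r) (hfl : Flat k δ A x r) :
    Cov S (C0 (Module.finrank ℝ E) * (1 / δ) ^ k) (δ * r) := by
  set d := Module.finrank ℝ E with hd
  have hb : 1 ≤ 1 / δ := by rw [le_div_iff₀ hδ]; linarith
  have hd0 : (0:ℝ) ≤ d := by positivity
  obtain ⟨W, hW, hWA⟩ := hfl
  set F := W.direction with hF
  have hsub : S ⊆ closedBall x r := fun y hy => hS y hy x hxS
  have h1 := cov_grid F (S := S) (x := x) (ε := 4 * (δ * r)) hr hδ hδ1 hsub (by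
    intro y hy z hz
    obtain ⟨w, hw, hyw⟩ := hWA y ⟨hSA hy, hsub hy⟩
    obtain ⟨w', hw', hzw⟩ := hWA z ⟨hSA hz, hsub hz⟩
    have hww : w - w' ∈ F := by
      have := AffineSubspace.vsub_mem_direction hw hw'
      simpa using this
    have hPw : F.starProjection (w - w') = w - w' :=
      Submodule.starProjection_eq_self_iff.mpr hww
    have e : (y - z) - F.starProjection (y - z)
        = ((y - w) - (z - w')) - F.starProjection ((y - w) - (z - w')) := by
      have e1 : y - z = ((y - w) - (z - w')) + (w - w') := by abel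
      rw [e1, map_add, hPw]
      abel
    rw [e]
    have n1 : ‖(y - w) - (z - w')‖ ≤ 2 * (δ * r) := by
      calc ‖(y - w) - (z - w')‖ ≤ ‖y - w‖ + ‖z - w'‖ := norm_sub_le _ _
        _ ≤ δ * r + δ * r := by
            rw [← dist_eq_norm, ← dist_eq_norm]; exact add_le_add hyw hzw
        _ = _ := by ring
    calc ‖((y - w) - (z - w')) - F.starProjection ((y - w) - (z - w'))‖
        ≤ ‖(y - w) - (z - w')‖ + ‖F.starProjection ((y - w) - (z - w'))‖ := norm_sub_le _ _
      _ ≤ ‖(y - w) - (z - w')‖ + ‖(y - w) - (z - w')‖ := by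
          gcongr; exact F.norm_starProjection_apply_le _
      _ ≤ 4 * (δ * r) := by linarith)
  have h5 : δ * r + 4 * (δ * r) = 5 * (δ * r) := by ring
  rw [h5] at h1
  have h2 : Cov S (((2 * (d : ℝ) + 4) / δ) ^ (Module.finrank ℝ F) *
      ((2 * (d : ℝ) + 4) / (1 / 5)) ^ d) (δ * r) := by
    refine h1.comp (by positivity) ?_
    intro t _ ht
    rcases t.eq_empty_or_nonempty with rfl | ⟨y, hy⟩
    · exact cov_empty (by positivity)
    · have h3 := cov_ball (E := E) (S := t) (x := y) (r := 5 * (δ * r)) (δ := 1 / 5)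
        (by positivity) (by norm_num) (by norm_num) (fun z hz => ht z hz y hy)
      refine h3.mono le_rfl (by linarith)
  refine h2.mono ?_ le_rfl
  have hm : Module.finrank ℝ F ≤ d := Submodule.finrank_le F
  have hm' : Module.finrank ℝ F ≤ k := hW
  have h6 : (1:ℝ) ≤ 2 * (d : ℝ) + 4 := by linarith
  unfold C0
  calc ((2 * (d : ℝ) + 4) / δ) ^ (Module.finrank ℝ F) * ((2 * (d : ℝ) + 4) / (1 / 5)) ^ d
      = (2 * (d : ℝ) + 4) ^ (Module.finrank ℝ F) * (5 * (2 * (d : ℝ) + 4)) ^ d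
          * (1 / δ) ^ (Module.finrank ℝ F) := by
        have e1 : (2 * (d : ℝ) + 4) / δ = (2 * (d : ℝ) + 4) * (1 / δ) := by ring
        have e2 : (2 * (d : ℝ) + 4) / (1 / 5) = 5 * (2 * (d : ℝ) + 4) := by ring
        rw [e1, e2, mul_pow]
        ring
    _ ≤ (2 * (d : ℝ) + 4) ^ d * (5 * (2 * (d : ℝ) + 4)) ^ d * (1 / δ) ^ k := by
        have g1 := pow_le_pow_right₀ h6 hm
        have g2 := pow_le_pow_right₀ hb hm'
        gcongr

open Classical in
/-- number of non flat scales `δ ^ i`, `j ≤ i < j + n`, seen from `x` -/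
noncomputable def good (k : ℕ) (δ : ℝ) (A : Set E) (x : E) (j n : ℕ) : ℕ :=
  ((Finset.range n).filter fun i => ¬ Flat k δ A x (δ ^ (j + i))).card

omit [FiniteDimensional ℝ E] in
open Classical in
theorem good_succ (k : ℕ) (δ : ℝ) (A : Set E) (x : E) (j n : ℕ) :
    good k δ A x j (n + 1) = (if ¬ Flat k δ A x (δ ^ j) then 1 else 0) + good k δ A x (j + 1) n := by
  unfold good
  rw [Finset.range_eq_Ico, Finset.range_eq_Ico]
  rw [Finset.card_filter, Finset.card_filter]
  rw [Finset.sum_Ico_eq_sum_range, Finset.sum_Ico_eq_sum_range]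
  simp only [Nat.sub_zero, zero_add]
  rw [Finset.sum_range_succ', add_comm]
  congr 1
  refine Finset.sum_congr rfl fun i _ => ?_
  have : j + (i + 1) = j + 1 + i := by omega
  rw [this]

omit [FiniteDimensional ℝ E] in
theorem good_le_succ (k : ℕ) (δ : ℝ) (A : Set E) (x : E) (j n : ℕ) :
    good k δ A x (j + 1) n ≤ good k δ A x j (n + 1) := by
  rw [good_succ]; omega

/-- The covering tree: `g` bounds the number of non flat scales seen by the points of `S`. -/
theorem tree {k : ℕ} {A : Set E} {δ : ℝ} (hδ : 0 < δ) (hδ1 : δ ≤ 1) :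
    ∀ (n j g : ℕ) (S : Set E), S ⊆ A → (∀ y ∈ S, ∀ z ∈ S, dist y z ≤ δ ^ j) →
      (∀ x ∈ S, good k δ A x j n ≤ g) →
      Cov S ((C0 (Module.finrank ℝ E) * (1 / δ) ^ k) ^ n * ((1 / δ) ^ (Module.finrank ℝ E)) ^ g)
        (δ ^ (j + n)) := by
  classical
  set d := Module.finrank ℝ E with hd
  have hb : 1 ≤ 1 / δ := by rw [le_div_iff₀ hδ]; linarith
  have hbd : 1 ≤ (1 / δ) ^ d := one_le_pow₀ hb
  have hC : 1 ≤ C0 d := one_le_C0 d
  intro n
  induction n with
  | zero =>
    intro j g S hSA hS _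
    refine (cov_self hS).mono ?_ (by simp)
    simpa using one_le_pow₀ hbd
  | succ n ih =>
    intro j g S hSA hS hg
    have hpos : 0 < δ ^ j := by positivity
    by_cases hx : ∃ x ∈ S, Flat k δ A x (δ ^ j)
    · obtain ⟨x, hxS, hfl⟩ := hx
      have h1 := step_flat (k := k) hpos hδ hδ1 hSA hxS hS hfl
      have h2 := h1.comp (N' := (C0 d * (1 / δ) ^ k) ^ n * ((1 / δ) ^ d) ^ g)
        (ρ' := δ ^ (j + 1 + n)) (by positivity) (by
        intro t ht htd
        refine ih (j + 1) g t (ht.trans hSA) ?_ ?_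
        · intro y hy z hz
          rw [pow_succ']
          exact htd y hy z hz
        · intro y hy
          exact (good_le_succ k δ A y j n).trans (hg y (ht hy)))
      refine h2.mono (le_of_eq ?_) (le_of_eq ?_)
      · rw [pow_succ]; ring
      · congr 1; omega
    · push Not at hx
      rcases S.eq_empty_or_nonempty with rfl | ⟨x0, hx0⟩
      · exact cov_empty (by positivity)
      obtain ⟨g', rfl⟩ : ∃ g', g = g' + 1 := by
        have h3 := hg x0 hx0
        rw [good_succ, if_pos (hx x0 hx0)] at h3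
        exact ⟨g - 1, by omega⟩
      have h1 := step_all (k := k) hpos hδ hδ1 hS
      have h2 := h1.comp (N' := (C0 d * (1 / δ) ^ k) ^ n * ((1 / δ) ^ d) ^ g')
        (ρ' := δ ^ (j + 1 + n)) (by positivity) (by
        intro t ht htd
        refine ih (j + 1) g' t (ht.trans hSA) ?_ ?_
        · intro y hy z hz
          rw [pow_succ']
          exact htd y hy z hz
        · intro y hy
          have h3 := hg y (ht hy)
          rw [good_succ, if_pos (hx y (ht hy))] at h3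
          omega)
      refine h2.mono (le_of_eq ?_) (le_of_eq ?_)
      · rw [← hd, pow_succ, pow_succ]; ring
      · congr 1; omega

end Crest.Agent.R234.Sp1_643
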