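import Mathlib
import Crest.Agent.R234.Sp1_643

/-!
# Multiscale spanning (VF-SPAN), part 3: fat simplices at a non flat scale

`exists_fat`: if `¬ Flat k δ A x r` then there are `k + 1` vectors `v i` of norm at most `r` with
`x + v i ∈ A` and with all coefficients controlled: `|c i| r ≤ (1 + 1/δ)^(k+1) ‖∑ c j • v j‖`.
-/

open Metric Set
open Crest.Agent.R234.Sp1_643

namespace Crest.Agent.R234.Sp3_643

variable {E : Type*} [NormedAddCommGroup E] [InnerProductSpace ℝ E]

theorem exists_chain {k : ℕ} {δ r : ℝ} {A : Set E} {x : E} (hr : 0 ≤ r) (hx : x ∈ A)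
    (h : ¬ Flat k δ A x r) : ∀ n ≤ k + 1, ∃ p : ℕ → E, p 0 = x ∧
      (∀ j ≤ n, p j ∈ A ∩ closedBall x r) ∧
      ∀ j < n, ∀ w ∈ affineSpan ℝ (p '' Iic j), δ * r < dist (p (j + 1)) w := by
  classical
  intro n
  induction n with
  | zero =>
    intro _
    refine ⟨fun _ => x, rfl, ?_, by simp⟩
    intro j _
    exact ⟨hx, by simpa using hr⟩
  | succ n ih =>
    intro hn
    obtain ⟨p, h0, h1, h2⟩ := ih (by omega)
    have hfin : ((Finset.range (n + 1)).image p : Set E) = p '' Iic n := by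
      ext y
      simp
    have hdim : Module.finrank ℝ (affineSpan ℝ (p '' Iic n)).direction ≤ k := by
      have hc : ((Finset.range (n + 1)).image p).card ≤ n + 1 := by
        simpa using Finset.card_image_le (s := Finset.range (n + 1)) (f := p)
      rw [direction_affineSpan, ← hfin]
      have hne : ((Finset.range (n + 1)).image p).Nonempty := by simp
      obtain ⟨m, hm⟩ : ∃ m, ((Finset.range (n + 1)).image p).card = m + 1 :=
        ⟨_, (Nat.succ_pred_eq_of_pos hne.card_pos).symm⟩
      have := finrank_vectorSpan_image_finset_le ℝ (id : E → E) ((Finset.range (n + 1)).image p) hm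
      rw [Finset.image_id] at this
      omega
    have h3 : ¬ ∀ y ∈ A ∩ closedBall x r, ∃ w ∈ affineSpan ℝ (p '' Iic n), dist y w ≤ δ * r :=
      fun hcon => h ⟨_, hdim, hcon⟩
    push Not at h3
    obtain ⟨y, hy, hyw⟩ := h3
    refine ⟨Function.update p (n + 1) y, ?_, ?_, ?_⟩
    · rw [Function.update_of_ne (by omega), h0]
    · intro j hj
      rcases Nat.lt_or_ge j (n + 1) with hjn | hjn
      · rw [Function.update_of_ne (by omega)]
        exact h1 j (by omega)
      · have : j = n + 1 := by omega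
        subst this
        rw [Function.update_self]
        exact hy
    · intro j hj w hw
      have him : (Function.update p (n + 1) y) '' Iic j = p '' Iic j := by
        refine image_congr fun i hi => ?_
        have : i ≤ j := hi
        exact Function.update_of_ne (by omega) _ _
      rw [him] at hw
      rcases Nat.lt_or_ge j n with hjn | hjn
      · rw [Function.update_of_ne (by omega)]
        exact h2 j hjn w hw
      · have : j = n := by omega
        subst this
        rw [Function.update_self]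
        exact hyw w hw

/-- coefficient bound -/
theorem coef_bound {δ r : ℝ} (hδ : 0 < δ) (v : ℕ → E) : ∀ n : ℕ,
    (∀ j < n, ‖v j‖ ≤ r) →
    (∀ j < n, ∀ w ∈ Submodule.span ℝ (v '' Iio j), δ * r ≤ ‖v j - w‖) →
    ∀ c : ℕ → ℝ, ∀ j < n, |c j| * r ≤ (1 + 1 / δ) ^ n * ‖∑ i ∈ Finset.range n, c i • v i‖ := by
  intro n
  induction n with
  | zero => intro _ _ c j hj; omega
  | succ n ih =>
    intro hv hd c j hj
    set S' := ∑ i ∈ Finset.range n, c i • v i with hS'
    have hS : ∑ i ∈ Finset.range (n + 1), c i • v i = S' + c n • v n := Finset.sum_range_succ _ _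
    rw [hS]
    have hS'mem : S' ∈ Submodule.span ℝ (v '' Iio n) := by
      refine Submodule.sum_mem _ fun i hi => Submodule.smul_mem _ _ (Submodule.subset_span ?_)
      exact ⟨i, Finset.mem_range.1 hi, rfl⟩
    have hcn : |c n| * (δ * r) ≤ ‖S' + c n • v n‖ := by
      by_cases h0 : c n = 0
      · rw [h0]; simp
      · have h1 := hd n (by omega) (-(c n)⁻¹ • S') (Submodule.smul_mem _ _ hS'mem)
        have h2 : S' + c n • v n = c n • (v n - -(c n)⁻¹ • S') := by
          rw [smul_sub, smul_smul]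
          have : c n * -(c n)⁻¹ = -1 := by field_simp
          rw [this]
          simp
          abel
        rw [h2, norm_smul, Real.norm_eq_abs]
        gcongr
    have hb : 1 ≤ 1 + 1 / δ := by
      have : 0 < 1 / δ := by positivity
      linarith
    have hcn' : |c n| * r ≤ (1 / δ) * ‖S' + c n • v n‖ := by
      rw [div_mul_eq_mul_div, one_mul, le_div_iff₀ hδ]
      linarith [hcn]
    rcases Nat.lt_or_ge j n with hjn | hjn
    · have h3 := ih (fun i hi => hv i (by omega)) (fun i hi => hd i (by omega)) c j hjn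
      have h4 : ‖S'‖ ≤ (1 + 1 / δ) * ‖S' + c n • v n‖ := by
        have h5 : S' = (S' + c n • v n) - c n • v n := by abel
        calc ‖S'‖ = ‖(S' + c n • v n) - c n • v n‖ := by rw [← h5]
          _ ≤ ‖S' + c n • v n‖ + ‖c n • v n‖ := norm_sub_le _ _
          _ ≤ ‖S' + c n • v n‖ + |c n| * r := by
              rw [norm_smul, Real.norm_eq_abs]
              have := hv n (by omega)
              gcongr
          _ ≤ ‖S' + c n • v n‖ + (1 / δ) * ‖S' + c n • v n‖ := by gcongr
          _ = _ := by ring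
      calc |c j| * r ≤ (1 + 1 / δ) ^ n * ‖S'‖ := h3
        _ ≤ (1 + 1 / δ) ^ n * ((1 + 1 / δ) * ‖S' + c n • v n‖) := by gcongr
        _ = (1 + 1 / δ) ^ (n + 1) * ‖S' + c n • v n‖ := by ring
    · have hjn' : j = n := by omega
      subst hjn'
      calc |c j| * r ≤ (1 / δ) * ‖S' + c j • v j‖ := hcn'
        _ ≤ (1 + 1 / δ) ^ (j + 1) * ‖S' + c j • v j‖ := by
            gcongr
            calc 1 / δ ≤ 1 + 1 / δ := by linarith
              _ = (1 + 1 / δ) ^ 1 := (pow_one _).symm
              _ ≤ (1 + 1 / δ) ^ (j + 1) := pow_le_pow_right₀ hb (by omega)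

/-- fatness constant -/
noncomputable def Cf (k : ℕ) (δ : ℝ) : ℝ := (1 + 1 / δ) ^ (k + 1)

theorem Cf_pos {k : ℕ} {δ : ℝ} (hδ : 0 < δ) : 0 < Cf k δ := by unfold Cf; positivity

theorem one_le_Cf {k : ℕ} {δ : ℝ} (hδ : 0 < δ) : 1 ≤ Cf k δ := by
  unfold Cf
  refine one_le_pow₀ ?_
  have : 0 < 1 / δ := by positivity
  linarith

/-- **Fat simplex at a non flat scale.** -/
theorem exists_fat {k : ℕ} {δ r : ℝ} {A : Set E} {x : E} (hδ : 0 < δ) (hr : 0 < r) (hx : x ∈ A)
    (h : ¬ Flat k δ A x r) :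
    ∃ v : Fin (k + 1) → E, (∀ i, x + v i ∈ A ∧ ‖v i‖ ≤ r) ∧
      ∀ (c : Fin (k + 1) → ℝ) (i : Fin (k + 1)), |c i| * r ≤ Cf k δ * ‖∑ j, c j • v j‖ := by
  classical
  obtain ⟨p, h0, h1, h2⟩ := exists_chain hr.le hx h (k + 1) le_rfl
  set v : ℕ → E := fun j => p (j + 1) - x with hv
  have hvn : ∀ j < k + 1, ‖v j‖ ≤ r := by
    intro j hj
    have := (h1 (j + 1) (by omega)).2
    rw [mem_closedBall, dist_eq_norm] at this
    exact this
  have hd : ∀ j < k + 1, ∀ w ∈ Submodule.span ℝ (v '' Iio j), δ * r ≤ ‖v j - w‖ := by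
    intro j hj w hw
    have hw' : x + w ∈ affineSpan ℝ (p '' Iic j) := by
      have hx0 : x ∈ affineSpan ℝ (p '' Iic j) := by
        rw [← h0]
        exact subset_affineSpan ℝ _ ⟨0, Nat.zero_le j, rfl⟩
      have hwd : w ∈ (affineSpan ℝ (p '' Iic j)).direction := by
        refine (Submodule.span_le.2 ?_) hw
        rintro _ ⟨i, hi, rfl⟩
        have hpi : p (i + 1) ∈ affineSpan ℝ (p '' Iic j) :=
          subset_affineSpan ℝ _ ⟨i + 1, hi, rfl⟩
        have := AffineSubspace.vsub_mem_direction hpi hx0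
        simpa [hv] using this
      have := AffineSubspace.vadd_mem_of_mem_direction hwd hx0
      simpa [add_comm] using this
    have h3 := h2 j hj (x + w) hw'
    rw [dist_eq_norm] at h3
    have h4 : v j - w = p (j + 1) - (x + w) := by simp only [hv]; abel
    rw [h4]
    exact h3.le
  refine ⟨fun i => v i, ?_, ?_⟩
  · intro i
    refine ⟨?_, hvn i i.2⟩
    have := (h1 (i + 1) (by have := i.2; omega)).1
    simpa [hv] using this
  · intro c i
    have hb := coef_bound hδ v (k + 1) hvn hd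
      (fun j => if hj : j < k + 1 then c ⟨j, hj⟩ else 0) i i.2
    have e1 : ∑ j ∈ Finset.range (k + 1), (if hj : j < k + 1 then c ⟨j, hj⟩ else 0) • v j
        = ∑ j : Fin (k + 1), c j • v j := by
      rw [Finset.sum_range]
      refine Finset.sum_congr rfl fun j _ => ?_
      rw [dif_pos j.2]
    rw [e1, dif_pos i.2] at hb
    exact hb

/-- every vector of the span is a controlled combination -/
theorem exists_coef {k : ℕ} {r C : ℝ} {v : Fin (k + 1) → E}
    (hv : ∀ (c : Fin (k + 1) → ℝ) (i : Fin (k + 1)), |c i| * r ≤ C * ‖∑ j, c j • v j‖)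
    {w : E} (hw : w ∈ Submodule.span ℝ (range v)) :
    ∃ c : Fin (k + 1) → ℝ, w = ∑ j, c j • v j ∧ ∀ i, |c i| * r ≤ C * ‖w‖ := by
  obtain ⟨c, hc⟩ := (Submodule.mem_span_range_iff_exists_fun ℝ).1 hw
  exact ⟨c, hc.symm, fun i => by rw [← hc]; exact hv c i⟩

theorem linearIndependent_of_coef {k : ℕ} {r C : ℝ} (hr : 0 < r) {v : Fin (k + 1) → E}
    (hv : ∀ (c : Fin (k + 1) → ℝ) (i : Fin (k + 1)), |c i| * r ≤ C * ‖∑ j, c j • v j‖) :
    LinearIndependent ℝ v := by
  rw [Fintype.linearIndependent_iff]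
  intro c hc i
  have := hv c i
  rw [hc, norm_zero, mul_zero] at this
  have h1 : |c i| ≤ 0 := by
    by_contra h
    push Not at h
    have : 0 < |c i| * r := by positivity
    linarith
  exact abs_eq_zero.1 (le_antisymm h1 (abs_nonneg _))

theorem finrank_span_of_coef {k : ℕ} {r C : ℝ} (hr : 0 < r) {v : Fin (k + 1) → E}
    (hv : ∀ (c : Fin (k + 1) → ℝ) (i : Fin (k + 1)), |c i| * r ≤ C * ‖∑ j, c j • v j‖) :
    Module.finrank ℝ (Submodule.span ℝ (range v)) = k + 1 := by
  have := finrank_span_eq_card (linearIndependent_of_coef hr hv)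
  simpa using this

/-- Fatness in the form of widths: a unit vector of the span has a large inner product with one of the
edges. -/
theorem exists_inner_ge {k : ℕ} {r C : ℝ} (hr : 0 < r) {v : Fin (k + 1) → E}
    (hv : ∀ (c : Fin (k + 1) → ℝ) (i : Fin (k + 1)), |c i| * r ≤ C * ‖∑ j, c j • v j‖)
    {u : E} (hu : u ∈ Submodule.span ℝ (range v)) :
    ∃ i, r * ‖u‖ ≤ ((k : ℝ) + 1) * C * |inner ℝ (v i) u| := by
  obtain ⟨c, hc, hcb⟩ := exists_coef hv hu
  by_contra hcon
  push Not at hcon
  rcases eq_or_ne u 0 with rfl | hu0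
  · have := hcon 0
    simp at this
  have hn : 0 < ‖u‖ := norm_pos_iff.2 hu0
  have h1 : ‖u‖ ^ 2 = ∑ j, c j * inner ℝ (v j) u := by
    have e : inner ℝ u u = ∑ j, c j * inner ℝ (v j) u := by
      calc inner ℝ u u = inner ℝ (∑ j, c j • v j) u := by rw [← hc]
        _ = ∑ j, c j * inner ℝ (v j) u := by
            rw [sum_inner]
            exact Finset.sum_congr rfl fun j _ => by rw [real_inner_smul_left]
    rw [← real_inner_self_eq_norm_sq, e]
  have h2 : ∀ j, c j * inner ℝ (v j) u * (((k : ℝ) + 1) * r) < ‖u‖ ^ 2 * r ∨ c j = 0 := by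
    intro j
    by_cases hcj : c j = 0
    · exact Or.inr hcj
    · left
      have h3 : 0 < |c j| := abs_pos.2 hcj
      have h4 : c j * inner ℝ (v j) u ≤ |c j| * |inner ℝ (v j) u| := by
        rw [← abs_mul]; exact le_abs_self _
      have h5 := hcon j
      have h6 := hcb j
      have hk : (0:ℝ) < (k : ℝ) + 1 := by positivity
      calc c j * inner ℝ (v j) u * (((k : ℝ) + 1) * r)
          ≤ (|c j| * |inner ℝ (v j) u|) * (((k : ℝ) + 1) * r) := by gcongr
        _ = (|c j| * r) * (((k : ℝ) + 1) * |inner ℝ (v j) u|) := by ring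
        _ ≤ (C * ‖u‖) * (((k : ℝ) + 1) * |inner ℝ (v j) u|) := by gcongr
        _ = ‖u‖ * (((k : ℝ) + 1) * C * |inner ℝ (v j) u|) := by ring
        _ < ‖u‖ * (r * ‖u‖) := by gcongr
        _ = ‖u‖ ^ 2 * r := by ring
  have h7 : ∀ j, c j * inner ℝ (v j) u * (((k : ℝ) + 1) * r) < ‖u‖ ^ 2 * r := by
    intro j
    rcases h2 j with h | h
    · exact h
    · rw [h]
      have : 0 < ‖u‖ ^ 2 * r := by positivity
      simpa using this
  have h8 : ∑ j : Fin (k + 1), c j * inner ℝ (v j) u * (((k : ℝ) + 1) * r) <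
      ∑ _j : Fin (k + 1), ‖u‖ ^ 2 * r :=
    Finset.sum_lt_sum_of_nonempty ⟨0, Finset.mem_univ _⟩ fun j _ => h7 j
  rw [← Finset.sum_mul, ← h1] at h8
  simp at h8
  nlinarith

end Crest.Agent.R234.Sp3_643
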