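import Mathlib
import Crest.Agent.R234.Ent1_201
import Crest.Agent.R234.Sp3_643

/-!
# R234 / Sev1_201 : (7) of #5124, the count of the non-spanning levels in one block (VF-SEVEN)

`E` of dimension `d + 2`, levels `s k = s0 exp (J k)`, `G k` = good centres of level `k`
(measurable), all `G k` flat in dimension `d` (rigidity, (7)(iii)).  `Wk` = points near a good
centre around which `G k` is not flat in dimension `d - 1`.  Then the total measure of
`G k \ Wk` is small.
-/

set_option linter.unusedSectionVars false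

namespace Crest.Agent.R234.Sev_201

open MeasureTheory Set Filter Metric
open scoped Topology ENNReal
open Crest.Agent.R234.Ovl_201
open Crest.Agent.R234.Sp1_643 (Flat)

section geom
variable {E : Type*} [NormedAddCommGroup E] [InnerProductSpace ℝ E] [FiniteDimensional ℝ E]
  [MeasurableSpace E] [BorelSpace E]

theorem cov_flat {j : ℕ} {δ r R ρ : ℝ} {A T : Set E} (hfl : ∀ x ∈ T, Flat j δ A x r)
    (hTA : T ⊆ A) (h2R : 2 * R ≤ r) (hρ : 0 < ρ) (hρR : ρ ≤ R)
    (h4 : 4 * (δ * r) ≤ ρ) (y : E) (hT : T ⊆ closedBall y R) :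
    Ovl_201.Cov ((⌊16 * R * (j + 1) / ρ⌋₊ + 1) ^ j) ρ T := by
  classical
  have hR : 0 < R := hρ.trans_le hρR
  rcases T.eq_empty_or_nonempty with rfl | ⟨x0, hx0⟩
  · exact ⟨fun _ => ∅, by simp, by simp⟩
  obtain ⟨W, hW, hWA⟩ := hfl x0 hx0
  have h1 : ∀ x ∈ T, ∃ w ∈ W, dist x w ≤ δ * r := by
    intro x hx
    apply hWA x ⟨hTA hx, ?_⟩
    rw [mem_closedBall]
    have h2 := hT hx
    have h3 := hT hx0
    rw [mem_closedBall] at h2 h3
    rw [dist_comm] at h3
    calc dist x x0 ≤ dist x y + dist y x0 := dist_triangle _ _ _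
      _ ≤ r := by linarith
  have h1' : ∀ x, ∃ w, x ∈ T → (w ∈ W ∧ dist x w ≤ δ * r) := by
    intro x
    by_cases hx : x ∈ T
    · obtain ⟨w, hw, hd⟩ := h1 x hx
      exact ⟨w, fun _ => ⟨hw, hd⟩⟩
    · exact ⟨x, fun h => absurd h hx⟩
  choose a ha using h1'
  have h5 := cov_near (T := T) W.direction a (R := R) (ρ := ρ) (δ := δ * r) hR.le hρ h4
    (by linarith) y (a x0) (fun x hx => mem_closedBall.1 (hT hx))
    (fun x hx => by
      have := AffineSubspace.vsub_mem_direction (ha x hx).1 (ha x0 hx0).1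
      simpa using this)
    (fun x hx => (ha x hx).2) rfl
  refine h5.mono_N ?_
  have h6 : (⌊16 * R * ((Module.finrank ℝ W.direction : ℕ) + 1) / ρ⌋₊ + 1 : ℕ)
      ≤ ⌊16 * R * (j + 1) / ρ⌋₊ + 1 := by
    apply Nat.add_le_add_right
    apply Nat.floor_le_floor
    apply div_le_div_of_nonneg_right _ hρ.le
    apply mul_le_mul_of_nonneg_left _ (by positivity)
    have : ((Module.finrank ℝ W.direction : ℕ) : ℝ) ≤ j := by exact_mod_cast hW
    linarith
  calc _ ≤ (⌊16 * R * (j + 1) / ρ⌋₊ + 1) ^ (Module.finrank ℝ W.direction) :=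
        Nat.pow_le_pow_left h6 _
    _ ≤ _ := Nat.pow_le_pow_right (by lia) hW

end geom

section lower
variable {X : Type*} [PseudoMetricSpace X] [SecondCountableTopology X] [MeasurableSpace X]
  [BorelSpace X] (ε : Measure X) [IsFiniteMeasure ε]

/-- lower bound of the telescoped integral, with an exceptional set -/
theorem low_of' {r s M H θ : ℝ} (hr : 0 < r) (hrs : r ≤ s)
    (hi : Integrable (fun x => Real.log (rat ε r s x)) ε) {X0 : Set X} (hX0 : MeasurableSet X0)
    (hM : 0 ≤ M) (hH : 0 ≤ H) (hθ : 0 ≤ θ)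
    (hX : ε.real X0ᶜ ≤ θ * ε.real univ)
    (h : ∀ x ∈ X0, Real.exp (M - H) ≤ rat ε r s x) :
    (M - (H + θ * M)) * ε.real univ ≤ ∫ x, Real.log (rat ε r s x) ∂ε := by
  have h1 : ∫ x, X0.indicator (fun _ => M - H) x ∂ε ≤ ∫ x, Real.log (rat ε r s x) ∂ε := by
    apply integral_mono_ae ((integrable_const _).indicator hX0) hi
    filter_upwards [rat_pos ε hr hrs] with x hx
    by_cases hx0 : x ∈ X0
    · simp only [indicator_of_mem hx0]
      rw [Real.le_log_iff_exp_le (by linarith)]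
      exact h x hx0
    · simp only [indicator_of_notMem hx0]
      exact Real.log_nonneg hx
  rw [integral_indicator hX0, integral_const, smul_eq_mul] at h1
  have h2 : (ε.restrict X0).real univ = ε.real X0 := by
    simp [Measure.real]
  rw [h2] at h1
  have h3 : ε.real X0 + ε.real X0ᶜ = ε.real univ := by
    rw [← measureReal_union disjoint_compl_right hX0.compl, union_compl_self]
  have h4 : 0 ≤ ε.real X0ᶜ := measureReal_nonneg
  have h5 : 0 ≤ ε.real univ := measureReal_nonneg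
  refine le_trans ?_ h1
  have h6 : ε.real X0 = ε.real univ - ε.real X0ᶜ := by linarith
  rw [h6]
  by_cases hMH : 0 ≤ M - H
  · have h7 : (M - H) * ε.real X0ᶜ ≤ M * (θ * ε.real univ) :=
      mul_le_mul (by linarith) hX h4 hM
    nlinarith
  · push Not at hMH
    have h7 : 0 ≤ θ * M * ε.real univ := by positivity
    nlinarith

/-- `count` with an integral lower bound -/
theorem count' {J C0 d H : ℝ} (s : ℕ → ℝ) (hs : ∀ k, 0 < s k) (hmono : ∀ k, s k ≤ s (k + 1))
    (τ : ℕ → X → Fin 3) (hτ : ∀ k, Measurable (τ k)) (N : ℕ → Fin 3 → ℕ)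
    (hN0 : ∀ k i, 0 < N k i)
    (hN : ∀ k i, ∀ y : X, Ovl_201.Cov (N k i) (s k) (closedBall y (s (k + 1)) ∩ τ k ⁻¹' {i}))
    (K : ℕ)
    (h0 : ∀ k, Real.log (N k 0) ≤ (d - 1) * J + C0) (h1 : ∀ k, Real.log (N k 1) ≤ d * J + C0)
    (h2 : ∀ k, Real.log (N k 2) ≤ (d + 2) * J + C0)
    (hlow : Integrable (fun x => Real.log (rat ε (s 0) (s K) x)) ε →
      (d * J * K - H) * ε.real univ ≤ ∫ x, Real.log (rat ε (s 0) (s K) x) ∂ε) :
    J * ∑ k ∈ Finset.range K, ε.real (τ k ⁻¹' {0})
      ≤ ((C0 + Real.log 3) * K + H) * ε.real univ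
        + 2 * J * ∑ k ∈ Finset.range K, ε.real (τ k ⁻¹' {2}) := by
  obtain ⟨hi, hu⟩ := tele ε s hs hmono τ hτ N hN0 hN K
  have hl := hlow hi
  have hk : ∀ k, ∑ i, ε.real (τ k ⁻¹' {i}) * Real.log (N k i) + ε.real univ * Real.log (3 : ℕ)
      ≤ (d * J + C0 + Real.log 3) * ε.real univ - J * ε.real (τ k ⁻¹' {0})
        + 2 * J * ε.real (τ k ⁻¹' {2}) := by
    intro k
    have hsum : ∑ i : Fin 3, ε.real (τ k ⁻¹' {i}) = ε.real univ := by
      rw [← measureReal_biUnion_finset]
      · congr 1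
        ext x
        simp
      · intro i _ j _ hij
        exact Disjoint.preimage _ (by simpa using hij)
      · intro i _; exact hτ k (measurableSet_singleton i)
    rw [Fin.sum_univ_three] at hsum ⊢
    have e0 : 0 ≤ ε.real (τ k ⁻¹' {0}) := measureReal_nonneg
    have e1 : 0 ≤ ε.real (τ k ⁻¹' {1}) := measureReal_nonneg
    have e2 : 0 ≤ ε.real (τ k ⁻¹' {2}) := measureReal_nonneg
    have i0 := mul_le_mul_of_nonneg_left (h0 k) e0
    have i1 := mul_le_mul_of_nonneg_left (h1 k) e1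
    have i2 := mul_le_mul_of_nonneg_left (h2 k) e2
    push_cast
    rw [← hsum]
    nlinarith
  have hS := hl.trans (hu.trans (Finset.sum_le_sum fun k _ => hk k))
  rw [Finset.sum_add_distrib, Finset.sum_sub_distrib, Finset.sum_const, Finset.card_range,
    nsmul_eq_mul] at hS
  have e1 : ∑ k ∈ Finset.range K, J * ε.real (τ k ⁻¹' {0})
      = J * ∑ k ∈ Finset.range K, ε.real (τ k ⁻¹' {0}) := (Finset.mul_sum _ _ _).symm
  have e2 : ∑ k ∈ Finset.range K, 2 * J * ε.real (τ k ⁻¹' {2})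
      = 2 * J * ∑ k ∈ Finset.range K, ε.real (τ k ⁻¹' {2}) := (Finset.mul_sum _ _ _).symm
  rw [e1, e2] at hS
  nlinarith

end lower

section block
variable {E : Type*} [NormedAddCommGroup E] [InnerProductSpace ℝ E] [FiniteDimensional ℝ E]
  [MeasurableSpace E] [BorelSpace E] (ε : Measure E) [IsFiniteMeasure ε]

/-- near a centre of `G` around which `G` is not flat in dimension `j` -/
def Wide (j : ℕ) (δ : ℝ) (G : Set E) (r : ℝ) : Set E :=
  Metric.thickening r {y ∈ G | ¬ Flat j δ G y r}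

theorem isOpen_wide (j : ℕ) (δ : ℝ) (G : Set E) (r : ℝ) : IsOpen (Wide j δ G r) :=
  Metric.isOpen_thickening

/-- at a wide point there is a fat simplex of good centres nearby -/
theorem Wide.fat {j : ℕ} {δ r : ℝ} {G : Set E} {x : E} (hx : x ∈ Wide j δ G r) (hδ : 0 < δ)
    (hr : 0 < r) :
    ∃ y ∈ G, dist x y < r ∧ ∃ v : Fin (j + 1) → E, (∀ i, y + v i ∈ G ∧ ‖v i‖ ≤ r) ∧
      ∀ (c : Fin (j + 1) → ℝ) (i : Fin (j + 1)),
        |c i| * r ≤ Sp3_643.Cf j δ * ‖∑ l, c l • v l‖ := by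
  obtain ⟨y, ⟨hy, hyf⟩, hd⟩ := Metric.mem_thickening_iff.1 hx
  exact ⟨y, hy, hd, Sp3_643.exists_fat hδ hr hy hyf⟩

/-- the constant of the entropy count in dimension `d + 2` -/
noncomputable def CE (d : ℕ) : ℝ := (d + 2) * Real.log (16 * (d + 3) + 1)

theorem CE_nonneg (d : ℕ) : 0 ≤ CE d := by
  unfold CE
  have : 0 ≤ Real.log (16 * (d + 3) + 1) := Real.log_nonneg (by
    have : (0 : ℝ) ≤ d := Nat.cast_nonneg d
    linarith)
  positivity

theorem log_cov_le' {d j : ℕ} (hj : j ≤ d + 2) {R ρ J : ℝ} (hρ : 0 < ρ) (hR : ρ ≤ R)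
    (hJ : R / ρ = Real.exp J) :
    Real.log (((⌊16 * R * (j + 1) / ρ⌋₊ + 1) ^ j : ℕ) : ℝ) ≤ j * J + CE d := by
  have h1 := log_cov_le (j := j) hρ hR
  rw [hJ, Real.log_exp] at h1
  refine h1.trans ?_
  have h2 : (j : ℝ) * Real.log (16 * (j + 1) + 1) ≤ CE d := by
    unfold CE
    have hj' : (j : ℝ) ≤ d + 2 := by exact_mod_cast hj
    have h3 : Real.log (16 * ((j : ℝ) + 1) + 1) ≤ Real.log (16 * ((d : ℝ) + 3) + 1) := by
      apply Real.log_le_log (by positivity)
      linarith
    have h4 : 0 ≤ Real.log (16 * ((j : ℝ) + 1) + 1) := Real.log_nonneg (by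
      have : (0 : ℝ) ≤ j := Nat.cast_nonneg j
      linarith)
    exact mul_le_mul hj' h3 h4 (by positivity)
  linarith

/-- **(7), one block** -/
theorem block_count {d n : ℕ} (hd : Module.finrank ℝ E = d + 2) (hd1 : 1 ≤ d)
    {J H s0 θ : ℝ} (hJ : 0 < J) (hs0 : 0 < s0) (hH : 0 ≤ H) (hθ : 0 ≤ θ)
    (G : ℕ → Set E) (hG : ∀ k, MeasurableSet (G k))
    (h3 : ∀ k < n, ∀ x ∈ G k,
      Flat d (Real.exp (-J) / 8) (G k) x (2 * (s0 * Real.exp (J * (k + 1)))))
    {X0 : Set E} (hX0 : MeasurableSet X0) (hX : ε.real X0ᶜ ≤ θ * ε.real univ)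
    (hlow : ∀ x ∈ X0, Real.exp (d * J * n - H) ≤ rat ε s0 (s0 * Real.exp (J * n)) x) :
    J * ∑ k ∈ Finset.range n, ε.real (G k \ Wide (d - 1) (Real.exp (-J) / 8) (G k)
        (2 * (s0 * Real.exp (J * (k + 1)))))
      ≤ ((CE d + Real.log 3) * n + (H + θ * (d * J * n))) * ε.real univ
        + 2 * J * ∑ k ∈ Finset.range n, ε.real (G k)ᶜ := by
  classical
  set δ : ℝ := Real.exp (-J) / 8 with hδ
  set s : ℕ → ℝ := fun k => s0 * Real.exp (J * k) with hs
  have hsp : ∀ k, 0 < s k := fun k => by positivity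
  have hratio : ∀ k, s (k + 1) / s k = Real.exp J := by
    intro k
    simp only [hs]
    rw [mul_div_mul_left _ _ hs0.ne', ← Real.exp_sub]
    congr 1
    push_cast
    ring
  have hs1 : ∀ k, s (k + 1) = Real.exp J * s k := fun k => by
    rw [← hratio k, div_mul_cancel₀ _ (hsp k).ne']
  have hsm : ∀ k, s k ≤ s (k + 1) := fun k => by
    rw [hs1]
    have : 1 ≤ Real.exp J := Real.one_le_exp hJ.le
    nlinarith [hsp k]
  -- truncation of `G`
  set G' : ℕ → Set E := fun k => if k < n then G k else ∅ with hG'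
  have hG'm : ∀ k, MeasurableSet (G' k) := fun k => by
    simp only [hG']
    split_ifs
    · exact hG k
    · exact MeasurableSet.empty
  set r : ℕ → ℝ := fun k => 2 * s (k + 1) with hr
  set W : ℕ → Set E := fun k => Wide (d - 1) δ (G' k) (r k) with hW
  have hWm : ∀ k, MeasurableSet (W k) := fun k => (isOpen_wide _ _ _ _).measurableSet
  have h4 : ∀ k, 4 * (δ * r k) ≤ s k := by
    intro k
    simp only [hr, hs1, hδ, Real.exp_neg]
    have : 0 < Real.exp J := Real.exp_pos J
    apply le_of_eq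
    field_simp
    ring
  have h3' : ∀ k, ∀ x ∈ G' k, Flat d δ (G' k) x (r k) := by
    intro k x hx
    by_cases hk : k < n
    · have e : G' k = G k := by simp [hG', hk]
      rw [e] at hx ⊢
      have := h3 k hk x hx
      simp only [hr, hs]
      push_cast
      exact this
    · simp [hG', hk] at hx
  have h0' : ∀ k, ∀ x ∈ G' k \ W k, Flat (d - 1) δ (G' k) x (r k) := by
    intro k x hx
    by_contra hcon
    apply hx.2
    apply Metric.mem_thickening_iff.2
    refine ⟨x, ⟨hx.1, hcon⟩, ?_⟩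
    rw [dist_self]
    have := hsp (k + 1)
    simp only [hr]
    positivity
  set τ : ℕ → E → Fin 3 := fun k x => if x ∈ G' k then (if x ∈ W k then 1 else 0) else 2 with hτ
  have hτm : ∀ k, Measurable (τ k) := fun k =>
    Measurable.ite (hG'm k) (Measurable.ite (hWm k) measurable_const measurable_const)
      measurable_const
  have p0 : ∀ k, τ k ⁻¹' {0} = G' k \ W k := by
    intro k
    ext x
    simp only [hτ, mem_preimage, mem_singleton_iff, Set.mem_sdiff]
    by_cases h1 : x ∈ G' k <;> by_cases h2 : x ∈ W k <;> simp [h1, h2]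
  have p1 : ∀ k, τ k ⁻¹' {1} = G' k ∩ W k := by
    intro k
    ext x
    simp only [hτ, mem_preimage, mem_singleton_iff, mem_inter_iff]
    by_cases h1 : x ∈ G' k <;> by_cases h2 : x ∈ W k <;> simp [h1, h2]
  have p2 : ∀ k, τ k ⁻¹' {2} = (G' k)ᶜ := by
    intro k
    ext x
    simp only [hτ, mem_preimage, mem_singleton_iff, mem_compl_iff]
    by_cases h1 : x ∈ G' k <;> by_cases h2 : x ∈ W k <;> simp [h1, h2]
  set N : ℕ → Fin 3 → ℕ := fun k =>
    ![(⌊16 * s (k + 1) * (((d - 1 : ℕ) : ℝ) + 1) / s k⌋₊ + 1) ^ (d - 1),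
      (⌊16 * s (k + 1) * ((d : ℕ) + 1) / s k⌋₊ + 1) ^ d,
      (⌊16 * s (k + 1) * (((d + 2 : ℕ) : ℝ) + 1) / s k⌋₊ + 1) ^ (d + 2)] with hN
  have hcount := count' (J := J) (C0 := CE d) (d := d) (H := H + θ * (d * J * n)) ε s hsp hsm τ hτm N
    (by
      intro k i
      fin_cases i <;> simp [hN])
    (by
      intro k i y
      have hball : closedBall y (s (k + 1)) ∩ τ k ⁻¹' {i} ⊆ closedBall y (s (k + 1)) :=
        inter_subset_left
      fin_cases i
      · show Ovl_201.Cov (N k 0) (s k) (closedBall y (s (k + 1)) ∩ τ k ⁻¹' {0})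
        rw [p0]
        exact cov_flat (A := G' k) (δ := δ) (r := r k) (fun x hx => h0' k x hx.2)
          (fun x hx => hx.2.1) (le_refl _) (hsp k) (hsm k) (h4 k) y inter_subset_left
      · show Ovl_201.Cov (N k 1) (s k) (closedBall y (s (k + 1)) ∩ τ k ⁻¹' {1})
        rw [p1]
        exact cov_flat (A := G' k) (δ := δ) (r := r k) (fun x hx => h3' k x hx.2.1)
          (fun x hx => hx.2.1) (le_refl _) (hsp k) (hsm k) (h4 k) y inter_subset_left
      · show Ovl_201.Cov (N k 2) (s k) (closedBall y (s (k + 1)) ∩ τ k ⁻¹' {2})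
        have h5 := cov_ball (R := s (k + 1)) (ρ := s k) (hsp (k + 1)).le (hsp k) y
        rw [hd] at h5
        exact h5.mono inter_subset_left)
    n
    (by
      intro k
      have h5 := log_cov_le' (d := d) (j := d - 1) (by lia) (hsp k) (hsm k) (hratio k)
      have e : ((d - 1 : ℕ) : ℝ) = (d : ℝ) - 1 := by
        push_cast [Nat.cast_sub hd1]
        ring
      show Real.log ((N k 0 : ℕ) : ℝ) ≤ _
      refine h5.trans (le_of_eq ?_)
      rw [e])
    (by
      intro k
      exact log_cov_le' (d := d) (j := d) (by lia) (hsp k) (hsm k) (hratio k))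
    (by
      intro k
      have h5 := log_cov_le' (d := d) (j := d + 2) (by lia) (hsp k) (hsm k) (hratio k)
      show Real.log ((N k 2 : ℕ) : ℝ) ≤ _
      refine h5.trans (le_of_eq ?_)
      push_cast
      ring)
    (by
      intro hi
      have hmono : Monotone s := monotone_nat_of_le_succ hsm
      have h5 := low_of' ε (M := d * J * n) (H := H) (θ := θ) (hsp 0) (hmono (Nat.zero_le n)) hi
        hX0 (by positivity) hH hθ hX (by
          intro x hx
          have := hlow x hx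
          simpa [hs] using this)
      exact h5)
  -- back to `G`
  have e0 : ∑ k ∈ Finset.range n, ε.real (τ k ⁻¹' {0}) = ∑ k ∈ Finset.range n,
      ε.real (G k \ Wide (d - 1) δ (G k) (2 * (s0 * Real.exp (J * (k + 1))))) := by
    apply Finset.sum_congr rfl
    intro k hk
    have hk' := Finset.mem_range.1 hk
    have e : G' k = G k := by simp [hG', hk']
    rw [p0]
    simp only [hW, e, hr, hs]
    push_cast
    rfl
  have e2 : ∑ k ∈ Finset.range n, ε.real (τ k ⁻¹' {2}) = ∑ k ∈ Finset.range n,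
      ε.real (G k)ᶜ := by
    apply Finset.sum_congr rfl
    intro k hk
    have hk' := Finset.mem_range.1 hk
    have e : G' k = G k := by simp [hG', hk']
    rw [p2, e]
  rw [e0, e2] at hcount
  exact hcount

end block

end Crest.Agent.R234.Sev_201
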