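import Mathlib
import Crest.Agent.R234.Sev1_201

/-!
# R234 / Sev2_201 : node N6 (SPAN COUNT) of #6067 (VF-SEVEN)

* `low_mass` : lower mass bound of `ε` off a small set, from a lower bound of another measure;
* `span_block` : the non-spanning levels of one block;
* `span_all` : Chebyshev over the dyadic blocks of `l`, in the form of `Ode_201.Dat.run`.
-/

set_option linter.unusedSectionVars false

namespace Crest.Agent.R234.Sev_201

open MeasureTheory Set Filter Metric
open scoped Topology ENNReal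
open Crest.Agent.R234.Ovl_201
open Crest.Agent.R234.Sp1_643 (Flat)

section mass
variable {X : Type*} [PseudoMetricSpace X]

/-- maximal separated subset, bounded cardinality -/
theorem exists_sep {T : Set X} {s : ℝ} (hs : 0 ≤ s) {N : ℕ}
    (hN : ∀ F : Finset X, (F : Set X) ⊆ T → (∀ x ∈ F, ∀ y ∈ F, x ≠ y → s < dist x y) →
      F.card ≤ N) :
    ∃ F : Finset X, (F : Set X) ⊆ T ∧ (∀ x ∈ F, ∀ y ∈ F, x ≠ y → s < dist x y) ∧
      ∀ x ∈ T, ∃ y ∈ F, dist x y ≤ s := by
  classical
  let P : ℕ → Prop := fun n => ∃ F : Finset X, F.card = n ∧ (F : Set X) ⊆ T ∧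
    ∀ x ∈ F, ∀ y ∈ F, x ≠ y → s < dist x y
  have h0 : P 0 := ⟨∅, by simp, by simp, by simp⟩
  have h1 : P (Nat.findGreatest P N) := Nat.findGreatest_spec (Nat.zero_le N) h0
  obtain ⟨F, hc, hF, hsep⟩ := h1
  refine ⟨F, hF, hsep, ?_⟩
  intro x hx
  by_contra hcon
  push Not at hcon
  have hxF : x ∉ F := fun h => by
    have := hcon x h
    rw [dist_self] at this
    linarith
  have hins : (insert x F : Finset X).card = Nat.findGreatest P N + 1 := by
    rw [Finset.card_insert_of_notMem hxF, hc]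
  have hsub : ((insert x F : Finset X) : Set X) ⊆ T := by
    intro y hy
    rcases Finset.mem_insert.1 (Finset.mem_coe.1 hy) with rfl | h
    · exact hx
    · exact hF h
  have hsp : ∀ y ∈ (insert x F : Finset X), ∀ z ∈ (insert x F : Finset X), y ≠ z →
      s < dist y z := by
    intro y hy z hz hyz
    rcases Finset.mem_insert.1 hy with rfl | h
    · rcases Finset.mem_insert.1 hz with rfl | h'
      · exact absurd rfl hyz
      · exact hcon z h'
    · rcases Finset.mem_insert.1 hz with rfl | h'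
      · rw [dist_comm]; exact hcon y h
      · exact hsep y h z h' hyz
  have h2 : Nat.findGreatest P N + 1 ≤ N := hins ▸ hN _ hsub hsp
  have h3 : Nat.findGreatest P N + 1 ≤ Nat.findGreatest P N :=
    Nat.le_findGreatest h2 ⟨_, hins, hsub, hsp⟩
  lia

variable [SecondCountableTopology X] [MeasurableSpace X] [BorelSpace X]

theorem card_mass {μ : Measure X} [IsFiniteMeasure μ] {T : Set X} {s c : ℝ}
    (hm : ∀ x ∈ T, c ≤ μ.real (closedBall x (s / 2))) {F : Finset X} (hF : (F : Set X) ⊆ T)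
    (hsep : ∀ x ∈ F, ∀ y ∈ F, x ≠ y → s < dist x y) : (F.card : ℝ) * c ≤ μ.real univ := by
  have h1 : (F.card : ℝ) * c ≤ ∑ x ∈ F, μ.real (closedBall x (s / 2)) := by
    rw [← nsmul_eq_mul, ← Finset.sum_const]
    exact Finset.sum_le_sum fun x hx => hm x (hF hx)
  refine h1.trans ?_
  rw [← measureReal_biUnion_finset]
  · exact measureReal_mono (subset_univ _)
  · intro x hx y hy hxy
    apply Metric.closedBall_disjoint_closedBall
    have := hsep x hx y hy hxy
    linarith
  · intro x _; exact measurableSet_closedBall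

/-- the set where `ε` has small mass at scale `s` is small -/
theorem low_mass {μ ε : Measure X} [IsFiniteMeasure μ] [IsFiniteMeasure ε] {Z : Set X}
    {s c lam : ℝ} (hs : 0 ≤ s) (hc : 0 < c) (hlam : 0 ≤ lam)
    (hm : ∀ x ∈ Z, c ≤ μ.real (closedBall x (s / 2))) :
    ε.real {x ∈ Z | ε.real (closedBall x s) < lam} ≤ lam * (μ.real univ / c) := by
  set T : Set X := {x ∈ Z | ε.real (closedBall x s) < lam} with hT
  have hmT : ∀ x ∈ T, c ≤ μ.real (closedBall x (s / 2)) := fun x hx => hm x hx.1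
  obtain ⟨F, hF, hsep, hcov⟩ := exists_sep (T := T) hs (N := ⌊μ.real univ / c⌋₊) (by
    intro F hF hsep
    apply Nat.le_floor
    rw [le_div_iff₀ hc]
    exact card_mass hmT hF hsep)
  have h1 : T ⊆ ⋃ y ∈ F, closedBall y s := by
    intro x hx
    obtain ⟨y, hy, hd⟩ := hcov x hx
    simp only [mem_iUnion]
    exact ⟨y, hy, hd⟩
  have h2 : ε.real T ≤ ∑ y ∈ F, ε.real (closedBall y s) :=
    (measureReal_mono h1 (measure_ne_top _ _)).trans (measureReal_biUnion_finset_le _ _)
  have h3 : ∑ y ∈ F, ε.real (closedBall y s) ≤ ∑ _y ∈ F, lam :=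
    Finset.sum_le_sum fun y hy => (hF hy).2.le
  rw [Finset.sum_const, nsmul_eq_mul] at h3
  have h4 : (F.card : ℝ) ≤ μ.real univ / c := by
    rw [le_div_iff₀ hc]
    exact card_mass hmT hF hsep
  calc _ ≤ (F.card : ℝ) * lam := h2.trans h3
    _ ≤ μ.real univ / c * lam := mul_le_mul_of_nonneg_right h4 hlam
    _ = _ := by ring

/-- from pointwise counts to the sum of the measures -/
theorem sum_bad_le {ε : Measure X} [IsFiniteMeasure ε] {G : ℕ → Set X}
    (hG : ∀ k, MeasurableSet (G k)) {Z : Set X} (hZ : ε Zᶜ = 0) {n : ℕ} {M : ℝ}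
    (hM : ∀ x ∈ Z, ∑ k ∈ Finset.range n, (G k)ᶜ.indicator (fun _ => (1 : ℝ)) x ≤ M) :
    ∑ k ∈ Finset.range n, ε.real (G k)ᶜ ≤ M * ε.real univ := by
  have h1 : ∫ x, ∑ k ∈ Finset.range n, (G k)ᶜ.indicator (fun _ => (1 : ℝ)) x ∂ε
      ≤ ∫ _, M ∂ε := by
    apply integral_mono_ae
    · exact integrable_finsetSum _ fun k _ => (integrable_const _).indicator (hG k).compl
    · exact integrable_const _
    · filter_upwards [compl_mem_ae_iff.2 hZ] with x hx
      exact hM x (by simpa using hx)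
  rw [integral_finsetSum _ fun k _ => (integrable_const _).indicator (hG k).compl,
    integral_const, smul_eq_mul, mul_comm] at h1
  refine le_trans (le_of_eq ?_) h1
  apply Finset.sum_congr rfl
  intro k _
  rw [integral_indicator (hG k).compl, integral_const, smul_eq_mul, mul_one]
  simp [Measure.real]

end mass

section span
variable {E : Type*} [NormedAddCommGroup E] [InnerProductSpace ℝ E] [FiniteDimensional ℝ E]
  [MeasurableSpace E] [BorelSpace E]

/-- the spanning set of level `k` : good centres, near a good centre around which the good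
centres are not flat in dimension `d - 1` -/
def Sp (d : ℕ) (J r0 : ℝ) (G : ℕ → Set E) (k : ℕ) : Set E :=
  G k ∩ Wide (d - 1) (Real.exp (-J) / 8) (G k) (r0 * Real.exp (J * k))

theorem measurableSet_sp {d : ℕ} {J r0 : ℝ} {G : ℕ → Set E} (hG : ∀ k, MeasurableSet (G k))
    (k : ℕ) : MeasurableSet (Sp d J r0 G k) :=
  (hG k).inter (isOpen_wide _ _ _ _).measurableSet

/-- the fat simplex of good centres at a spanning point -/
theorem Sp.fat {d : ℕ} (hd : 1 ≤ d) {J r0 : ℝ} (hr0 : 0 < r0) {G : ℕ → Set E} {k : ℕ} {x : E}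
    (hx : x ∈ Sp d J r0 G k) :
    ∃ y ∈ G k, dist x y < r0 * Real.exp (J * k) ∧
      ∃ v : Fin d → E, (∀ i, y + v i ∈ G k ∧ ‖v i‖ ≤ r0 * Real.exp (J * k)) ∧
      ∀ (c : Fin d → ℝ) (i : Fin d), |c i| * (r0 * Real.exp (J * k))
        ≤ Sp3_643.Cf (d - 1) (Real.exp (-J) / 8) * ‖∑ l, c l • v l‖ := by
  obtain ⟨y, hy, hd1, v, hv, hc⟩ := Wide.fat hx.2 (by positivity) (by positivity)
  obtain ⟨e, rfl⟩ : ∃ e, d = e + 1 := ⟨d - 1, by lia⟩
  exact ⟨y, hy, hd1, v, hv, hc⟩

variable (ε : Measure E) [IsFiniteMeasure ε]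

/-- the non-spanning levels `a ≤ k < a + n` -/
theorem span_block {d n a : ℕ} (hd : Module.finrank ℝ E = d + 2) (hd1 : 1 ≤ d)
    {J H r0 θ : ℝ} (hJ : 0 < J) (hr0 : 0 < r0) (hH : 0 ≤ H) (hθ : 0 ≤ θ)
    (G : ℕ → Set E) (hG : ∀ k, MeasurableSet (G k))
    (h3 : ∀ k, a ≤ k → k < a + n → ∀ x ∈ G k,
      Flat d (Real.exp (-J) / 8) (G k) x (r0 * Real.exp (J * k)))
    {X0 : Set E} (hX0 : MeasurableSet X0) (hX : ε.real X0ᶜ ≤ θ * ε.real univ)
    (hlow : ∀ x ∈ X0, Real.exp (d * J * n - H) ≤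
      rat ε (r0 / 2 * Real.exp (J * (a - 1))) (r0 / 2 * Real.exp (J * (a + n - 1))) x) :
    J * ∑ k ∈ Finset.range n, ε.real (Sp d J r0 G (a + k))ᶜ
      ≤ ((CE d + Real.log 3) * n + (H + θ * (d * J * n))) * ε.real univ
        + 3 * J * ∑ k ∈ Finset.range n, ε.real (G (a + k))ᶜ := by
  set s0 : ℝ := r0 / 2 * Real.exp (J * (a - 1)) with hs0
  have hs : ∀ k : ℕ, 2 * (s0 * Real.exp (J * (k + 1))) = r0 * Real.exp (J * ((a + k : ℕ) : ℝ)) := by
    intro k
    rw [hs0]
    have : Real.exp (J * ((a + k : ℕ) : ℝ)) = Real.exp (J * (a - 1)) * Real.exp (J * (k + 1)) := by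
      rw [← Real.exp_add]
      congr 1
      push_cast
      ring
    rw [this]
    ring
  have hb := block_count (n := n) ε hd hd1 hJ (s0 := s0) (by positivity) hH hθ
    (fun k => G (a + k)) (fun k => hG _)
    (fun k hk x hx => by
      rw [hs]
      exact h3 (a + k) (by lia) (by lia) x hx) hX0 hX
    (fun x hx => by
      have h1 := hlow x hx
      have h2 : s0 * Real.exp (J * n) = r0 / 2 * Real.exp (J * (a + n - 1)) := by
        rw [hs0, mul_assoc, ← Real.exp_add]
        congr 2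
        ring
      rw [h2]
      exact h1)
  have hk : ∀ k, ε.real (Sp d J r0 G (a + k))ᶜ ≤ ε.real (G (a + k) \ Wide (d - 1)
      (Real.exp (-J) / 8) (G (a + k)) (2 * (s0 * Real.exp (J * (k + 1)))))
      + ε.real (G (a + k))ᶜ := by
    intro k
    rw [hs]
    refine le_trans (measureReal_mono ?_) (measureReal_union_le _ _)
    intro x hx
    by_cases hxG : x ∈ G (a + k)
    · exact Or.inl ⟨hxG, fun h => hx ⟨hxG, h⟩⟩
    · exact Or.inr hxG
  have h5 := Finset.sum_le_sum fun k (_ : k ∈ Finset.range n) => hk k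
  rw [Finset.sum_add_distrib] at h5
  have h6 := mul_le_mul_of_nonneg_left h5 hJ.le
  rw [mul_add] at h6
  linarith

/-- **N6, one block, with mass bounds** -/
theorem span_block_mass {d n a : ℕ} (hd : Module.finrank ℝ E = d + 2) (hd1 : 1 ≤ d)
    {J r0 θ lo hi c1 : ℝ} (hJ : 0 < J) (hr0 : 0 < r0) (hθ : 0 ≤ θ)
    (G : ℕ → Set E) (hG : ∀ k, MeasurableSet (G k))
    (h3 : ∀ k, a ≤ k → k < a + n → ∀ x ∈ G k,
      Flat d (Real.exp (-J) / 8) (G k) x (r0 * Real.exp (J * k)))
    (μ : Measure E) [IsFiniteMeasure μ] {Z : Set E} (hZm : MeasurableSet Z) (hZ : ε Zᶜ = 0)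
    (hlo : 0 < lo) (hlh : lo ≤ hi) (hc1 : 0 < c1)
    (hup : ∀ x ∈ Z, ε.real (closedBall x (r0 / 2 * Real.exp (J * (a - 1))))
      ≤ hi * (r0 / 2 * Real.exp (J * (a - 1))) ^ d)
    (hμ : ∀ x ∈ Z, c1 * (r0 / 2 * Real.exp (J * (a + n - 1)) / 2) ^ d
      ≤ μ.real (closedBall x (r0 / 2 * Real.exp (J * (a + n - 1)) / 2)))
    (hθ' : lo * 2 ^ d * μ.real univ / c1 ≤ θ * ε.real univ) :
    J * ∑ k ∈ Finset.range n, ε.real (Sp d J r0 G (a + k))ᶜ
      ≤ ((CE d + Real.log 3) * n + (Real.log (hi / lo) + θ * (d * J * n))) * ε.real univ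
        + 3 * J * ∑ k ∈ Finset.range n, ε.real (G (a + k))ᶜ := by
  set σ0 : ℝ := r0 / 2 * Real.exp (J * (a - 1)) with hσ0
  set σn : ℝ := r0 / 2 * Real.exp (J * (a + n - 1)) with hσn
  have hσ0p : 0 < σ0 := by positivity
  have hσnp : 0 < σn := by positivity
  have hhi : 0 < hi := hlo.trans_le hlh
  set X0 : Set E := (Z ∩ {x | lo * σn ^ d ≤ ε.real (closedBall x σn)})
    ∩ {x | 0 < ε.real (closedBall x σ0)} with hX0
  have hmr : ∀ r : ℝ, Measurable fun x : E => ε.real (closedBall x r) := fun r =>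
    (meas_cb ε r).ennreal_toReal
  have hX0m : MeasurableSet X0 :=
    (hZm.inter (measurableSet_le measurable_const (hmr _))).inter
      (measurableSet_lt measurable_const (hmr _))
  refine span_block ε hd hd1 hJ hr0 (Real.log_nonneg ?_) hθ G hG h3 hX0m ?_ ?_
  · rw [le_div_iff₀ hlo, one_mul]; exact hlh
  · refine le_trans ?_ hθ'
    have h1 : ε.real X0ᶜ ≤ ε.real Zᶜ + ε.real {x ∈ Z | ε.real (closedBall x σn) < lo * σn ^ d}
        + ε.real {x | ¬ 0 < ε.real (closedBall x σ0)} := by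
      refine le_trans (measureReal_mono ?_) ((measureReal_union_le _ _).trans
        (add_le_add_left (measureReal_union_le _ _) _))
      intro x hx
      by_cases h1 : x ∈ Z
      · by_cases h2 : lo * σn ^ d ≤ ε.real (closedBall x σn)
        · by_cases h4 : 0 < ε.real (closedBall x σ0)
          · exact absurd ⟨⟨h1, h2⟩, h4⟩ hx
          · exact Or.inr h4
        · exact Or.inl (Or.inr ⟨h1, not_le.1 h2⟩)
      · exact Or.inl (Or.inl h1)
    have h2 : ε.real Zᶜ = 0 := by rw [Measure.real, hZ, ENNReal.toReal_zero]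
    have h4 : ε.real {x | ¬ 0 < ε.real (closedBall x σ0)} = 0 := by
      have : ε {x | ¬ 0 < ε.real (closedBall x σ0)} = 0 := by
        rw [← ae_iff]
        filter_upwards [ae_pos ε hσ0p] with x hx
        exact ENNReal.toReal_pos hx (measure_ne_top _ _)
      rw [Measure.real, this, ENNReal.toReal_zero]
    have h5 := low_mass (ε := ε) (μ := μ) (Z := Z) (s := σn) (lam := lo * σn ^ d)
      (c := c1 * (σn / 2) ^ d) hσnp.le (by positivity) (by positivity) hμ
    have h6 : lo * σn ^ d * (μ.real univ / (c1 * (σn / 2) ^ d))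
        = lo * 2 ^ d * μ.real univ / c1 := by
      rw [div_pow]
      field_simp
    rw [h6] at h5
    linarith
  · intro x hx
    have hx1 : lo * σn ^ d ≤ ε.real (closedBall x σn) := hx.1.2
    have hx2 : 0 < ε.real (closedBall x σ0) := hx.2
    have hx3 := hup x hx.1.1
    rw [rat_eq, le_div_iff₀ hx2]
    have e1 : σn = σ0 * Real.exp (J * n) := by
      rw [hσn, hσ0, mul_assoc, ← Real.exp_add]
      congr 2
      ring
    have e2 : Real.exp (d * J * n - Real.log (hi / lo)) = Real.exp (J * n) ^ d * (lo / hi) := by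
      rw [Real.exp_sub, Real.exp_log (by positivity), ← Real.exp_nat_mul]
      field_simp
    calc Real.exp (d * J * n - Real.log (hi / lo)) * ε.real (closedBall x σ0)
        ≤ Real.exp (J * n) ^ d * (lo / hi) * (hi * σ0 ^ d) := by
          rw [e2]
          exact mul_le_mul_of_nonneg_left hx3 (by positivity)
      _ = lo * σn ^ d := by
          have e3 : σn ^ d = σ0 ^ d * Real.exp (J * n) ^ d := by rw [e1, mul_pow]
          rw [e3]
          clear_value σ0 σn
          field_simp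
      _ ≤ _ := hx1

end span

end Crest.Agent.R234.Sev_201
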