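import Mathlib
import Crest.Agent.R234.Sev2_201

/-!
# R234 / Sev3_201 : N6 of #6067, sums over the dyadic blocks of `l` and Chebyshev (VF-SEVEN)

The conclusions have the form of the hypothesis `hsum` of `Ode_201.Dat.run`.
-/

set_option linter.unusedSectionVars false

namespace Crest.Agent.R234.Sev_201

open MeasureTheory Set Filter Metric
open scoped Topology ENNReal
open Crest.Agent.R234.Ovl_201
open Crest.Agent.R234.Sp1_643 (Flat)

/-! ### sums over dyadic blocks -/

/-- the sum of the densities of `Ω` in the `K` dyadic blocks after `2 ^ k0` -/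
noncomputable def dens (Ω : Set ℝ) (k0 K : ℕ) : ℝ :=
  ∑ k ∈ Finset.range K, (volume (Ω ∩ Icc ((2 : ℝ) ^ (k0 + k)) (2 ^ (k0 + k + 1)))).toReal
    / 2 ^ (k0 + k)

theorem ne_top_Icc (S : Set ℝ) (a b : ℝ) : volume (S ∩ Icc a b) ≠ ⊤ :=
  ne_of_lt (lt_of_le_of_lt (measure_mono inter_subset_right) (by simp))

theorem dens_nonneg (Ω : Set ℝ) (k0 K : ℕ) : 0 ≤ dens Ω k0 K :=
  Finset.sum_nonneg fun _ _ => div_nonneg ENNReal.toReal_nonneg (by positivity)

theorem dens_mono {Ω Ω' : Set ℝ} {k0 K : ℕ}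
    (h : Ω ∩ Icc ((2 : ℝ) ^ k0) (2 ^ (k0 + K)) ⊆ Ω') : dens Ω k0 K ≤ dens Ω' k0 K := by
  apply Finset.sum_le_sum
  intro k hk
  have hk' := Finset.mem_range.1 hk
  apply div_le_div_of_nonneg_right _ (by positivity)
  apply ENNReal.toReal_mono (ne_top_Icc _ _ _)
  apply measure_mono
  rintro t ⟨ht, h1, h2⟩
  refine ⟨h ⟨ht, ?_, ?_⟩, h1, h2⟩
  · exact le_trans (pow_le_pow_right₀ (by norm_num) (by lia)) h1
  · exact h2.trans (pow_le_pow_right₀ (by norm_num) (by lia))

theorem dens_union (Ω Ω' : Set ℝ) (k0 K : ℕ) :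
    dens (Ω ∪ Ω') k0 K ≤ dens Ω k0 K + dens Ω' k0 K := by
  unfold dens
  rw [← Finset.sum_add_distrib]
  apply Finset.sum_le_sum
  intro k _
  rw [← add_div]
  apply div_le_div_of_nonneg_right _ (by positivity)
  rw [← ENNReal.toReal_add (ne_top_Icc _ _ _) (ne_top_Icc _ _ _)]
  apply ENNReal.toReal_mono (ENNReal.add_ne_top.mpr ⟨ne_top_Icc _ _ _, ne_top_Icc _ _ _⟩)
  rw [union_inter_distrib_right]
  exact measure_union_le _ _

/-- a set of small total measure has small density sum -/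
theorem dens_few {S : Set ℝ} (hS : MeasurableSet S) (k0 K : ℕ) :
    dens S k0 K ≤ (volume (S ∩ Icc ((2 : ℝ) ^ k0) (2 ^ (k0 + K)))).toReal / 2 ^ k0 := by
  have key : ∀ n : ℕ, ∑ k ∈ Finset.range n,
      (volume (S ∩ Icc ((2 : ℝ) ^ (k0 + k)) (2 ^ (k0 + k + 1)))).toReal
      ≤ (volume (S ∩ Icc ((2 : ℝ) ^ k0) (2 ^ (k0 + n)))).toReal := by
    intro n
    induction n with
    | zero => simp
    | succ n ih =>
      rw [Finset.sum_range_succ]
      set a : ℝ := 2 ^ k0
      set b : ℝ := 2 ^ (k0 + n)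
      set c : ℝ := 2 ^ (k0 + n + 1)
      have hab : a ≤ b := pow_le_pow_right₀ (by norm_num) (by lia)
      have hbc : b ≤ c := pow_le_pow_right₀ (by norm_num) (by lia)
      have h1 : (volume (S ∩ Icc a c)).toReal
          = (volume (S ∩ Icc a b)).toReal + (volume (S ∩ Ioc b c)).toReal := by
        have hnt : volume (S ∩ Ioc b c) ≠ ⊤ :=
          ne_of_lt (lt_of_le_of_lt (measure_mono inter_subset_right) (by simp))
        rw [← ENNReal.toReal_add (ne_top_Icc _ _ _) hnt, ← measure_union _ (hS.inter measurableSet_Ioc)]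
        · congr 2
          rw [← inter_union_distrib_left, Icc_union_Ioc_eq_Icc hab hbc]
        · rw [Set.disjoint_left]
          rintro t ⟨_, ht⟩ ⟨_, ht'⟩
          exact absurd ht'.1 (not_lt.2 ht.2)
      have h2 : volume (S ∩ Icc b c) ≤ volume (S ∩ Ioc b c) := by
        have h3 : S ∩ Icc b c ⊆ (S ∩ Ioc b c) ∪ {b} := by
          rintro t ⟨ht, ht1, ht2⟩
          rcases ht1.eq_or_lt with rfl | h
          · exact Or.inr rfl
          · exact Or.inl ⟨ht, h, ht2⟩
        refine (measure_mono h3).trans ((measure_union_le _ _).trans ?_)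
        simp
      have h3 : (volume (S ∩ Icc b c)).toReal ≤ (volume (S ∩ Ioc b c)).toReal :=
        ENNReal.toReal_mono
          (ne_of_lt (lt_of_le_of_lt (measure_mono inter_subset_right) (by simp))) h2
      have h4 : k0 + (n + 1) = k0 + n + 1 := by ring
      rw [h4, h1]
      linarith
  rw [le_div_iff₀ (by positivity), dens, Finset.sum_mul]
  refine le_trans (Finset.sum_le_sum fun k _ => ?_) (key K)
  have h1 : (2 : ℝ) ^ k0 ≤ 2 ^ (k0 + k) := pow_le_pow_right₀ (by norm_num) (by lia)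
  have h2 : 0 ≤ (volume (S ∩ Icc ((2 : ℝ) ^ (k0 + k)) (2 ^ (k0 + k + 1)))).toReal :=
    ENNReal.toReal_nonneg
  rw [div_mul_eq_mul_div, div_le_iff₀ (by positivity)]
  exact mul_le_mul_of_nonneg_left h1 h2

/-! ### jumps of a monotone sequence -/

theorem sum_shift_le {u : ℕ → ℝ} (hu : Monotone u) (n p : ℕ) :
    ∑ k ∈ Finset.range n, (u (k + p) - u k) ≤ p * (u (n + p) - u 0) := by
  induction p with
  | zero => simp
  | succ p ih =>
    have h1 : ∑ k ∈ Finset.range n, (u (k + (p + 1)) - u k)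
        = ∑ k ∈ Finset.range n, (u (k + p) - u k)
          + ∑ k ∈ Finset.range n, (u (k + 1 + p) - u (k + p)) := by
      rw [← Finset.sum_add_distrib]
      apply Finset.sum_congr rfl
      intro k _
      have : k + (p + 1) = k + 1 + p := by ring
      rw [this]
      ring
    have h2 : ∑ k ∈ Finset.range n, (u (k + 1 + p) - u (k + p)) = u (n + p) - u (0 + p) :=
      Finset.sum_range_sub (fun k => u (k + p)) n
    rw [h1, h2]
    have h3 : u 0 ≤ u (0 + p) := hu (Nat.zero_le _)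
    have h4 : u (n + p) ≤ u (n + (p + 1)) := hu (by lia)
    have h5 : (p : ℝ) * (u (n + p) - u 0) ≤ p * (u (n + (p + 1)) - u 0) :=
      mul_le_mul_of_nonneg_left (by linarith) (Nat.cast_nonneg p)
    push_cast
    linarith

open Classical in
/-- **jump count** : the number of `k < n` with `c ≤ u (k + p) - u k`. -/
theorem jump_count {u : ℕ → ℝ} (hu : Monotone u) (n p : ℕ) {c : ℝ} (hc : 0 < c) :
    (((Finset.range n).filter fun k => c ≤ u (k + p) - u k).card : ℝ)
      ≤ p * (u (n + p) - u 0) / c := by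
  rw [le_div_iff₀ hc]
  refine le_trans ?_ (sum_shift_le hu n p)
  rw [← nsmul_eq_mul, ← Finset.sum_const]
  refine le_trans (Finset.sum_le_sum (g := fun k => u (k + p) - u k) fun k hk =>
    (Finset.mem_filter.1 hk).2) ?_
  apply Finset.sum_le_sum_of_subset_of_nonneg (Finset.filter_subset _ _)
  intro k _ _
  have := hu (Nat.le_add_right k p)
  linarith

/-! ### the bad set of scales of one centre -/

section om
variable {E : Type*}

/-- the bad set of a centre: `l` with `x ∉ S ⌊l / J⌋` -/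
def Om (J : ℝ) (S : ℕ → Set E) (x : E) : Set ℝ := {l | x ∉ S ⌊l / J⌋₊}

theorem measurableSet_om (J : ℝ) (S : ℕ → Set E) (x : E) : MeasurableSet (Om J S x) := by
  have h1 : Measurable fun l : ℝ => ⌊l / J⌋₊ := Nat.measurable_floor.comp (measurable_id.div_const J)
  exact h1 (MeasurableSet.of_discrete (s := {k | x ∉ S k}))

theorem om_block {J : ℝ} (hJ : 0 < J) (S : ℕ → Set E) (x : E) (a n : ℕ) :
    (volume (Om J S x ∩ Icc (J * a) (J * (a + n)))).toReal
      ≤ J * ∑ k ∈ Finset.range n, (S (a + k))ᶜ.indicator (fun _ => (1 : ℝ)) x := by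
  induction n with
  | zero =>
    have : volume (Om J S x ∩ Icc (J * a) (J * (a + (0 : ℕ)))) = 0 := by
      apply measure_mono_null inter_subset_right
      simp
    rw [this]
    simp
  | succ n ih =>
    rw [Finset.sum_range_succ]
    have hstep : (volume (Om J S x ∩ Icc (J * (a + n)) (J * (a + n + 1)))).toReal
        ≤ J * (S (a + n))ᶜ.indicator (fun _ => (1 : ℝ)) x := by
      by_cases hx : x ∈ S (a + n)
      · have h0 : volume (Om J S x ∩ Icc (J * (a + n)) (J * (a + n + 1))) = 0 := by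
          have h1 : Om J S x ∩ Icc (J * (a + n)) (J * (a + n + 1)) ⊆ {J * (a + n + 1)} := by
            rintro l ⟨hl, hl1, hl2⟩
            by_contra hne
            apply hl
            have h2 : l < J * (a + n + 1) := lt_of_le_of_ne hl2 hne
            have h3 : ⌊l / J⌋₊ = a + n := by
              rw [Nat.floor_eq_iff]
              · push_cast
                rw [le_div_iff₀ hJ, div_lt_iff₀ hJ]
                constructor <;> linarith
              · apply div_nonneg _ hJ.le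
                refine le_trans ?_ hl1
                positivity
            show x ∈ S ⌊l / J⌋₊
            rw [h3]
            exact hx
          exact measure_mono_null h1 (by simp)
        rw [h0]
        simp [hx]
      · have h1 : volume (Om J S x ∩ Icc (J * (a + n)) (J * (a + n + 1))) ≤ ENNReal.ofReal J := by
          refine (measure_mono inter_subset_right).trans (le_of_eq ?_)
          rw [Real.volume_Icc]
          congr 1
          ring
        have h2 := ENNReal.toReal_mono (by simp) h1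
        rw [ENNReal.toReal_ofReal hJ.le] at h2
        have h3 : x ∈ (S (a + n))ᶜ := hx
        simpa [indicator_of_mem h3] using h2
    have hsub : Om J S x ∩ Icc (J * a) (J * (a + (n + 1 : ℕ)))
        ⊆ (Om J S x ∩ Icc (J * a) (J * (a + n)))
          ∪ (Om J S x ∩ Icc (J * (a + n)) (J * (a + n + 1))) := by
      rintro l ⟨hl, hl1, hl2⟩
      push_cast at hl2
      rcases le_total l (J * (a + n)) with h | h
      · exact Or.inl ⟨hl, hl1, h⟩
      · exact Or.inr ⟨hl, h, by linarith⟩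
    have h1 := (measure_mono hsub).trans (measure_union_le (μ := volume) _ _)
    have h2 := ENNReal.toReal_mono (ENNReal.add_ne_top.mpr ⟨ne_top_Icc _ _ _, ne_top_Icc _ _ _⟩) h1
    rw [ENNReal.toReal_add (ne_top_Icc _ _ _) (ne_top_Icc _ _ _)] at h2
    exact h2.trans ((add_le_add ih hstep).trans (le_of_eq (mul_add _ _ _).symm))

end om

/-! ### Chebyshev over the blocks -/

section cheb
variable {E : Type*} [MeasurableSpace E] (ε : Measure E) [IsFiniteMeasure ε]

/-- **from the block bounds to one large set of centres** (`J = 2 ^ q`). -/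
theorem cheb {q k0 K : ℕ} (hq : q ≤ k0) {S : ℕ → Set E} (hS : ∀ k, MeasurableSet (S k))
    {ρ η : ℝ} (hη : 0 < η) (hK : 0 < K)
    (hb : ∀ j < K, ∑ k ∈ Finset.range (2 ^ (k0 + j - q)), ε.real (S (2 ^ (k0 + j - q) + k))ᶜ
      ≤ ρ * 2 ^ (k0 + j - q) * ε.real univ) :
    ∃ X1 : Set E, MeasurableSet X1 ∧ ε.real X1ᶜ ≤ ρ / η * ε.real univ ∧
      ∀ x ∈ X1, dens (Om (2 ^ q) S x) k0 K ≤ η * K := by
  classical
  have hKr : (0 : ℝ) < K := by exact_mod_cast hK
  set n : ℕ → ℕ := fun j => 2 ^ (k0 + j - q) with hn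
  have hnp : ∀ j, (0 : ℝ) < n j := fun j => by simp [hn]
  set B : E → ℝ := fun x => ∑ j ∈ Finset.range K, (1 / (n j : ℝ)) *
    ∑ k ∈ Finset.range (n j), (S (n j + k))ᶜ.indicator (fun _ => (1 : ℝ)) x with hB
  have hBm : Measurable B := by
    apply Finset.measurable_sum
    intro j _
    apply Measurable.const_mul
    apply Finset.measurable_sum
    intro k _
    exact measurable_const.indicator (hS _).compl
  have hint : ∀ j, Integrable (fun x => (1 / (n j : ℝ)) *
      ∑ k ∈ Finset.range (n j), (S (n j + k))ᶜ.indicator (fun _ => (1 : ℝ)) x) ε := fun j =>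
    (integrable_finsetSum _ fun k _ => (integrable_const _).indicator (hS _).compl).const_mul _
  have hBi : Integrable B ε := integrable_finsetSum _ fun j _ => hint j
  have hB0 : ∀ x, 0 ≤ B x := fun x => Finset.sum_nonneg fun j _ =>
    mul_nonneg (by have := hnp j; positivity) (Finset.sum_nonneg fun k _ =>
      indicator_nonneg (fun _ _ => zero_le_one) _)
  have hIB : ∫ x, B x ∂ε ≤ ρ * K * ε.real univ := by
    rw [integral_finsetSum _ fun j _ => hint j]
    have h1 : ∀ j ∈ Finset.range K, ∫ x, (1 / (n j : ℝ)) *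
        ∑ k ∈ Finset.range (n j), (S (n j + k))ᶜ.indicator (fun _ => (1 : ℝ)) x ∂ε
        ≤ ρ * ε.real univ := by
      intro j hj
      rw [integral_const_mul, integral_finsetSum _ fun k _ =>
        (integrable_const _).indicator (hS _).compl]
      have h2 : ∀ k, ∫ x, (S (n j + k))ᶜ.indicator (fun _ => (1 : ℝ)) x ∂ε
          = ε.real (S (n j + k))ᶜ := by
        intro k
        rw [integral_indicator (hS _).compl, integral_const, smul_eq_mul, mul_one]
        simp [Measure.real]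
      simp_rw [h2]
      have h3 := hb j (Finset.mem_range.1 hj)
      have h4 : ((n j : ℕ) : ℝ) = 2 ^ (k0 + j - q) := by simp [hn]
      rw [one_div, inv_mul_le_iff₀ (hnp j), h4]
      calc _ ≤ ρ * 2 ^ (k0 + j - q) * ε.real univ := h3
        _ = _ := by ring
    refine (Finset.sum_le_sum h1).trans (le_of_eq ?_)
    rw [Finset.sum_const, Finset.card_range, nsmul_eq_mul]
    ring
  refine ⟨{x | B x < η * K}, measurableSet_lt hBm measurable_const, ?_, ?_⟩
  · have h1 := mul_meas_ge_le_integral_of_nonneg (μ := ε) (f := B)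
      (Filter.Eventually.of_forall hB0) hBi (η * K)
    have h2 : {x | B x < η * K}ᶜ = {x | η * K ≤ B x} := by
      ext x; simp
    rw [h2]
    have h3 : η * K * ε.real {x | η * K ≤ B x} ≤ ρ * K * ε.real univ := h1.trans hIB
    have h4 : ε.real {x | η * K ≤ B x} ≤ ρ * K * ε.real univ / (η * K) := by
      rw [le_div_iff₀ (by positivity)]
      linarith
    refine h4.trans (le_of_eq ?_)
    field_simp
  · intro x hx
    refine le_trans ?_ (le_of_lt hx)
    apply Finset.sum_le_sum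
    intro j _
    have hJ : (0 : ℝ) < 2 ^ q := by positivity
    have h1 := om_block hJ S x (n j) (n j)
    have e1 : (2 : ℝ) ^ q * (n j : ℝ) = 2 ^ (k0 + j) := by
      simp only [hn]
      push_cast
      rw [← pow_add]
      congr 1
      lia
    have e2 : (2 : ℝ) ^ q * ((n j : ℝ) + (n j : ℝ)) = 2 ^ (k0 + j + 1) := by
      rw [mul_add, e1]
      ring
    rw [e1, e2] at h1
    rw [div_le_iff₀ (by positivity)]
    refine h1.trans (le_of_eq ?_)
    rw [← e1]
    have := (hnp j).ne'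
    field_simp

end cheb

/-! ### N6 -/

section final
variable {E : Type*} [NormedAddCommGroup E] [InnerProductSpace ℝ E] [FiniteDimensional ℝ E]
  [MeasurableSpace E] [BorelSpace E] (ε : Measure E) [IsFiniteMeasure ε]

/-- **N6 SPAN COUNT** of #6067. -/
theorem span_all {d q k0 K : ℕ} (hd : Module.finrank ℝ E = d + 2) (hd1 : 1 ≤ d) (hq : q ≤ k0)
    (hK : 0 < K) {r0 θ lo hi c1 M η smin smax : ℝ} (hr0 : 0 < r0) (hθ : 0 ≤ θ) (hη : 0 < η)
    (G : ℕ → Set E) (hG : ∀ k, MeasurableSet (G k))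
    (h3 : ∀ k : ℕ, (2 : ℝ) ^ k0 ≤ 2 ^ q * k → (2 : ℝ) ^ q * (k + 1) ≤ 2 ^ (k0 + K) → ∀ x ∈ G k,
      Flat d (Real.exp (-(2 ^ q)) / 8) (G k) x (r0 * Real.exp (2 ^ q * k)))
    (μ : Measure E) [IsFiniteMeasure μ] {Z : Set E} (hZm : MeasurableSet Z) (hZ : ε Zᶜ = 0)
    (hlo : 0 < lo) (hlh : lo ≤ hi) (hc1 : 0 < c1)
    (hup : ∀ x ∈ Z, ∀ s, smin ≤ s → s ≤ smax → ε.real (closedBall x s) ≤ hi * s ^ d)
    (hμ : ∀ x ∈ Z, ∀ s, smin ≤ s → s ≤ smax → c1 * s ^ d ≤ μ.real (closedBall x s))
    (hsmin : smin ≤ r0 / 4 * Real.exp (2 ^ k0 - 2 ^ q))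
    (hsmax : r0 / 2 * Real.exp (2 ^ (k0 + K) - 2 ^ q) ≤ smax)
    (hθ' : lo * 2 ^ d * μ.real univ / c1 ≤ θ * ε.real univ)
    (hM : ∑ k ∈ Finset.range (2 ^ (k0 + K - q)), ε.real (G k)ᶜ ≤ M * ε.real univ) :
    ∃ X1 : Set E, MeasurableSet X1 ∧
      ε.real X1ᶜ ≤ ((CE d + Real.log 3) / 2 ^ q + θ * d
        + (Real.log (hi / lo) + 3 * M) / 2 ^ (k0 - q)) / η * ε.real univ ∧
      ∀ x ∈ X1, dens (Om (2 ^ q) (Sp d (2 ^ q) r0 G) x) k0 K ≤ η * K := by
  have hJ : (0 : ℝ) < 2 ^ q := by positivity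
  have hJ1 : (1 : ℝ) ≤ 2 ^ q := one_le_pow₀ (by norm_num)
  have hu0 : 0 ≤ ε.real univ := measureReal_nonneg
  have hlog : 0 ≤ Real.log (hi / lo) := Real.log_nonneg (by
    rw [le_div_iff₀ hlo, one_mul]; exact hlh)
  apply cheb ε hq (measurableSet_sp hG) hη hK
  intro j hj
  set n : ℕ := 2 ^ (k0 + j - q) with hn
  have hnr : (n : ℝ) = 2 ^ (k0 + j - q) := by simp [hn]
  have hnp : (0 : ℝ) < n := by rw [hnr]; positivity
  have e1 : (2 : ℝ) ^ q * (n : ℝ) = 2 ^ (k0 + j) := by
    rw [hnr, ← pow_add]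
    congr 1
    lia
  have hp1 : (2 : ℝ) ^ k0 ≤ 2 ^ (k0 + j) := pow_le_pow_right₀ (by norm_num) (by lia)
  have hp2 : (2 : ℝ) ^ (k0 + j + 1) ≤ 2 ^ (k0 + K) := pow_le_pow_right₀ (by norm_num) (by lia)
  have hp3 : (2 : ℝ) ^ (k0 + j + 1) = 2 * 2 ^ (k0 + j) := by ring
  have hσ0 : smin ≤ r0 / 2 * Real.exp (2 ^ q * (n - 1)) ∧
      r0 / 2 * Real.exp (2 ^ q * (n - 1)) ≤ smax := by
    rw [mul_sub, e1, mul_one]
    constructor
    · refine hsmin.trans ?_
      have : Real.exp (2 ^ k0 - 2 ^ q) ≤ Real.exp (2 ^ (k0 + j) - 2 ^ q) :=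
        Real.exp_le_exp.2 (by linarith)
      have h0 : 0 < Real.exp ((2 : ℝ) ^ k0 - 2 ^ q) := Real.exp_pos _
      nlinarith
    · refine le_trans ?_ hsmax
      have : Real.exp (2 ^ (k0 + j) - 2 ^ q) ≤ Real.exp (2 ^ (k0 + K) - 2 ^ q) :=
        Real.exp_le_exp.2 (by linarith [show (0 : ℝ) < 2 ^ (k0 + j) by positivity])
      nlinarith
  have hσn : smin ≤ r0 / 2 * Real.exp (2 ^ q * (n + n - 1)) / 2 ∧
      r0 / 2 * Real.exp (2 ^ q * (n + n - 1)) / 2 ≤ smax := by
    have e2 : (2 : ℝ) ^ q * (n + n - 1) = 2 ^ (k0 + j + 1) - 2 ^ q := by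
      rw [hp3]
      linarith
    rw [e2]
    constructor
    · refine hsmin.trans ?_
      have : Real.exp (2 ^ k0 - 2 ^ q) ≤ Real.exp (2 ^ (k0 + j + 1) - 2 ^ q) :=
        Real.exp_le_exp.2 (by linarith [show (0 : ℝ) < 2 ^ (k0 + j) by positivity])
      nlinarith
    · refine le_trans ?_ hsmax
      have h5 : Real.exp (2 ^ (k0 + j + 1) - 2 ^ q) ≤ Real.exp (2 ^ (k0 + K) - 2 ^ q) :=
        Real.exp_le_exp.2 (by linarith)
      have h0 : 0 < Real.exp ((2 : ℝ) ^ (k0 + j + 1) - 2 ^ q) := Real.exp_pos _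
      nlinarith
  have hb := span_block_mass (n := n) (a := n) ε hd hd1 hJ hr0 hθ G hG
    (fun k hk1 hk2 x hx => by
      refine h3 k ?_ ?_ x hx
      · refine hp1.trans ?_
        rw [← e1]
        exact mul_le_mul_of_nonneg_left (by exact_mod_cast hk1) hJ.le
      · refine le_trans ?_ hp2
        rw [hp3, ← e1]
        have : (k : ℝ) + 1 ≤ n + n := by exact_mod_cast hk2
        nlinarith)
    μ hZm hZ hlo hlh hc1 (fun x hx => hup x hx _ hσ0.1 hσ0.2)
    (fun x hx => hμ x hx _ hσn.1 hσn.2) hθ'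
  have hMj : ∑ k ∈ Finset.range n, ε.real (G (n + k))ᶜ ≤ M * ε.real univ := by
    refine le_trans ?_ hM
    have h5 : ∑ k ∈ Finset.range n, ε.real (G (n + k))ᶜ
        = ∑ k ∈ Finset.Ico n (n + n), ε.real (G k)ᶜ := by
      rw [Finset.sum_Ico_eq_sum_range]
      simp
    rw [h5]
    apply Finset.sum_le_sum_of_subset_of_nonneg
    · intro k hk
      rw [Finset.mem_range]
      have h6 := (Finset.mem_Ico.1 hk).2
      have h7 : n + n = 2 ^ (k0 + j - q + 1) := by rw [hn]; ring
      have h8 : 2 ^ (k0 + j - q + 1) ≤ 2 ^ (k0 + K - q) := Nat.pow_le_pow_right (by lia) (by lia)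
      lia
    · intro k _ _
      exact measureReal_nonneg
  -- divide by `J`
  have hM0 : 0 ≤ M * ε.real univ := (Finset.sum_nonneg fun k _ => measureReal_nonneg).trans hM
  have hS : ∑ k ∈ Finset.range n, ε.real (Sp d (2 ^ q) r0 G (n + k))ᶜ
      ≤ ((CE d + Real.log 3) / 2 ^ q * n + Real.log (hi / lo) + θ * d * n) * ε.real univ
        + 3 * (M * ε.real univ) := by
    have h6 : 2 ^ q * ∑ k ∈ Finset.range n, ε.real (Sp d (2 ^ q) r0 G (n + k))ᶜ
        ≤ 2 ^ q * (((CE d + Real.log 3) / 2 ^ q * n + Real.log (hi / lo) + θ * d * n)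
          * ε.real univ + 3 * (M * ε.real univ)) := by
      have h7 : (2 : ℝ) ^ q * (((CE d + Real.log 3) / 2 ^ q * n + Real.log (hi / lo) + θ * d * n)
          * ε.real univ + 3 * (M * ε.real univ))
          = ((CE d + Real.log 3) * n + 2 ^ q * Real.log (hi / lo) + θ * (d * 2 ^ q * n))
            * ε.real univ + 3 * 2 ^ q * (M * ε.real univ) := by
        field_simp
      rw [h7]
      have h8 : Real.log (hi / lo) * ε.real univ ≤ 2 ^ q * Real.log (hi / lo) * ε.real univ := by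
        have : 0 ≤ Real.log (hi / lo) * ε.real univ := mul_nonneg hlog hu0
        nlinarith
      have h9 := mul_le_mul_of_nonneg_left hMj (show (0 : ℝ) ≤ 3 * 2 ^ q by positivity)
      nlinarith
    exact le_of_mul_le_mul_left h6 hJ
  refine hS.trans ?_
  -- `n ≥ 2 ^ (k0 - q)`
  have hn0 : (2 : ℝ) ^ (k0 - q) ≤ n := by
    rw [hnr]
    exact pow_le_pow_right₀ (by norm_num) (by lia)
  have h10 : (Real.log (hi / lo) + 3 * M) * ε.real univ
      ≤ (Real.log (hi / lo) + 3 * M) / 2 ^ (k0 - q) * n * ε.real univ := by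
    have h11 : 0 ≤ (Real.log (hi / lo) + 3 * M) * ε.real univ := by nlinarith [mul_nonneg hlog hu0]
    have h12 : (Real.log (hi / lo) + 3 * M) / 2 ^ (k0 - q) * n * ε.real univ
        = (Real.log (hi / lo) + 3 * M) * ε.real univ * (n / 2 ^ (k0 - q)) := by
      field_simp
    rw [h12]
    have h13 : (1 : ℝ) ≤ n / 2 ^ (k0 - q) := by
      rw [le_div_iff₀ (by positivity), one_mul]
      exact hn0
    nlinarith
  rw [← hnr]
  have h14 : ((CE d + Real.log 3) / 2 ^ q + θ * d
      + (Real.log (hi / lo) + 3 * M) / 2 ^ (k0 - q)) * n * ε.real univ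
      = ((CE d + Real.log 3) / 2 ^ q * n + θ * d * n) * ε.real univ
        + (Real.log (hi / lo) + 3 * M) / 2 ^ (k0 - q) * n * ε.real univ := by ring
  rw [h14]
  linarith

end final

end Crest.Agent.R234.Sev_201
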