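import Mathlib
import Crest.Agent.R234.Sev3_201

/-!
# R234 / Sev4_201 : N6 of #6067 with exceptions of small density in every block ((REG) of #6485)

`span_all'` : as `Sev3_201.span_all`, but the exceptions of `G k` in the block of `n` levels have
total measure `≤ (M + η2 n) ε(univ)`.
-/

set_option linter.unusedSectionVars false

namespace Crest.Agent.R234.Sev_201

open MeasureTheory Set Filter Metric
open scoped Topology ENNReal
open Crest.Agent.R234.Ovl_201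
open Crest.Agent.R234.Sp1_643 (Flat)

section final
variable {E : Type*} [NormedAddCommGroup E] [InnerProductSpace ℝ E] [FiniteDimensional ℝ E]
  [MeasurableSpace E] [BorelSpace E] (ε : Measure E) [IsFiniteMeasure ε]

/-- **N6 SPAN COUNT** of #6067, exceptions of small density in every block. -/
theorem span_all' {d q k0 K : ℕ} (hd : Module.finrank ℝ E = d + 2) (hd1 : 1 ≤ d) (hq : q ≤ k0)
    (hK : 0 < K) {r0 θ lo hi c1 M η2 η smin smax : ℝ} (hr0 : 0 < r0) (hθ : 0 ≤ θ) (hη : 0 < η)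
    (G : ℕ → Set E) (hG : ∀ k, MeasurableSet (G k))
    (h3 : ∀ k : ℕ, (2 : ℝ) ^ k0 ≤ 2 ^ q * k → (2 : ℝ) ^ q * (k + 1) ≤ 2 ^ (k0 + K) → ∀ x ∈ G k,
      Flat d (Real.exp (-(2 ^ q)) / 8) (G k) x (r0 * Real.exp (2 ^ q * k)))
    (μ : Measure E) [IsFiniteMeasure μ] {Z : Set E} (hZm : MeasurableSet Z) (hZ : ε Zᶜ = 0)
    (hlo : 0 < lo) (hlh : lo ≤ hi) (hc1 : 0 < c1)
    (hup : ∀ x ∈ Z, ∀ s, smin ≤ s → s ≤ smax → ε.real (closedBall x s) ≤ hi * s ^ d)
    (hμ : ∀ x ∈ Z, ∀ s, smin ≤ s → s ≤ smax → c1 * s ^ d ≤ μ.real (closedBall x s))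
    (hsmin : smin ≤ r0 / 4 * Real.exp (2 ^ k0 - 2 ^ q))
    (hsmax : r0 / 2 * Real.exp (2 ^ (k0 + K) - 2 ^ q) ≤ smax)
    (hθ' : lo * 2 ^ d * μ.real univ / c1 ≤ θ * ε.real univ)
    (hM : ∀ j < K, ∑ k ∈ Finset.range (2 ^ (k0 + j - q)),
      ε.real (G (2 ^ (k0 + j - q) + k))ᶜ ≤ (M + η2 * 2 ^ (k0 + j - q)) * ε.real univ)
    (hM0 : 0 ≤ M) :
    ∃ X1 : Set E, MeasurableSet X1 ∧
      ε.real X1ᶜ ≤ ((CE d + Real.log 3) / 2 ^ q + θ * d + 3 * η2
        + (Real.log (hi / lo) + 3 * M) / 2 ^ (k0 - q)) / η * ε.real univ ∧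
      ∀ x ∈ X1, dens (Om (2 ^ q) (Sp d (2 ^ q) r0 G) x) k0 K ≤ η * K := by
  have hJ : (0 : ℝ) < 2 ^ q := by positivity
  have hJ1 : (1 : ℝ) ≤ 2 ^ q := one_le_pow₀ (by norm_num)
  have hu0 : 0 ≤ ε.real univ := measureReal_nonneg
  have hlog : 0 ≤ Real.log (hi / lo) := Real.log_nonneg (by
    rw [le_div_iff₀ hlo, one_mul]; exact hlh)
  apply cheb ε hq (measurableSet_sp hG) hη hK
  intro j hj
  set n : ℕ := 2 ^ (k0 + j - q) with hn
  have hnr : (n : ℝ) = 2 ^ (k0 + j - q) := by simp [hn]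
  have hnp : (0 : ℝ) < n := by rw [hnr]; positivity
  have e1 : (2 : ℝ) ^ q * (n : ℝ) = 2 ^ (k0 + j) := by
    rw [hnr, ← pow_add]
    congr 1
    lia
  have hp1 : (2 : ℝ) ^ k0 ≤ 2 ^ (k0 + j) := pow_le_pow_right₀ (by norm_num) (by lia)
  have hp2 : (2 : ℝ) ^ (k0 + j + 1) ≤ 2 ^ (k0 + K) := pow_le_pow_right₀ (by norm_num) (by lia)
  have hp3 : (2 : ℝ) ^ (k0 + j + 1) = 2 * 2 ^ (k0 + j) := by ring
  have hσ0 : smin ≤ r0 / 2 * Real.exp (2 ^ q * (n - 1)) ∧
      r0 / 2 * Real.exp (2 ^ q * (n - 1)) ≤ smax := by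
    rw [mul_sub, e1, mul_one]
    constructor
    · refine hsmin.trans ?_
      have : Real.exp (2 ^ k0 - 2 ^ q) ≤ Real.exp (2 ^ (k0 + j) - 2 ^ q) :=
        Real.exp_le_exp.2 (by linarith)
      have h0 : 0 < Real.exp ((2 : ℝ) ^ k0 - 2 ^ q) := Real.exp_pos _
      nlinarith
    · refine le_trans ?_ hsmax
      have : Real.exp (2 ^ (k0 + j) - 2 ^ q) ≤ Real.exp (2 ^ (k0 + K) - 2 ^ q) :=
        Real.exp_le_exp.2 (by linarith [show (0 : ℝ) < 2 ^ (k0 + j) by positivity])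
      nlinarith
  have hσn : smin ≤ r0 / 2 * Real.exp (2 ^ q * (n + n - 1)) / 2 ∧
      r0 / 2 * Real.exp (2 ^ q * (n + n - 1)) / 2 ≤ smax := by
    have e2 : (2 : ℝ) ^ q * (n + n - 1) = 2 ^ (k0 + j + 1) - 2 ^ q := by
      rw [hp3]
      linarith
    rw [e2]
    constructor
    · refine hsmin.trans ?_
      have : Real.exp (2 ^ k0 - 2 ^ q) ≤ Real.exp (2 ^ (k0 + j + 1) - 2 ^ q) :=
        Real.exp_le_exp.2 (by linarith [show (0 : ℝ) < 2 ^ (k0 + j) by positivity])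
      nlinarith
    · refine le_trans ?_ hsmax
      have h5 : Real.exp (2 ^ (k0 + j + 1) - 2 ^ q) ≤ Real.exp (2 ^ (k0 + K) - 2 ^ q) :=
        Real.exp_le_exp.2 (by linarith)
      have h0 : 0 < Real.exp ((2 : ℝ) ^ (k0 + j + 1) - 2 ^ q) := Real.exp_pos _
      nlinarith
  have hb := span_block_mass (n := n) (a := n) ε hd hd1 hJ hr0 hθ G hG
    (fun k hk1 hk2 x hx => by
      refine h3 k ?_ ?_ x hx
      · refine hp1.trans ?_
        rw [← e1]
        exact mul_le_mul_of_nonneg_left (by exact_mod_cast hk1) hJ.le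
      · refine le_trans ?_ hp2
        rw [hp3, ← e1]
        have : (k : ℝ) + 1 ≤ n + n := by exact_mod_cast hk2
        nlinarith)
    μ hZm hZ hlo hlh hc1 (fun x hx => hup x hx _ hσ0.1 hσ0.2)
    (fun x hx => hμ x hx _ hσn.1 hσn.2) hθ'
  have hMj : ∑ k ∈ Finset.range n, ε.real (G (n + k))ᶜ ≤ (M + η2 * n) * ε.real univ := by
    have := hM j hj
    rw [← hnr] at this
    exact this
  -- divide by `J`
  have hS : ∑ k ∈ Finset.range n, ε.real (Sp d (2 ^ q) r0 G (n + k))ᶜ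
      ≤ ((CE d + Real.log 3) / 2 ^ q * n + Real.log (hi / lo) + θ * d * n) * ε.real univ
        + 3 * ((M + η2 * n) * ε.real univ) := by
    have h6 : 2 ^ q * ∑ k ∈ Finset.range n, ε.real (Sp d (2 ^ q) r0 G (n + k))ᶜ
        ≤ 2 ^ q * (((CE d + Real.log 3) / 2 ^ q * n + Real.log (hi / lo) + θ * d * n)
          * ε.real univ + 3 * ((M + η2 * n) * ε.real univ)) := by
      have h7 : (2 : ℝ) ^ q * (((CE d + Real.log 3) / 2 ^ q * n + Real.log (hi / lo) + θ * d * n)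
          * ε.real univ + 3 * ((M + η2 * n) * ε.real univ))
          = ((CE d + Real.log 3) * n + 2 ^ q * Real.log (hi / lo) + θ * (d * 2 ^ q * n))
            * ε.real univ + 3 * 2 ^ q * ((M + η2 * n) * ε.real univ) := by
        field_simp
      rw [h7]
      have h8 : Real.log (hi / lo) * ε.real univ ≤ 2 ^ q * Real.log (hi / lo) * ε.real univ := by
        have : 0 ≤ Real.log (hi / lo) * ε.real univ := mul_nonneg hlog hu0
        nlinarith
      have h9 := mul_le_mul_of_nonneg_left hMj (show (0 : ℝ) ≤ 3 * 2 ^ q by positivity)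
      nlinarith
    exact le_of_mul_le_mul_left h6 hJ
  refine hS.trans ?_
  -- `n ≥ 2 ^ (k0 - q)`
  have hn0 : (2 : ℝ) ^ (k0 - q) ≤ n := by
    rw [hnr]
    exact pow_le_pow_right₀ (by norm_num) (by lia)
  have h10 : (Real.log (hi / lo) + 3 * M) * ε.real univ
      ≤ (Real.log (hi / lo) + 3 * M) / 2 ^ (k0 - q) * n * ε.real univ := by
    have h11 : 0 ≤ (Real.log (hi / lo) + 3 * M) * ε.real univ := by nlinarith [mul_nonneg hlog hu0]
    have h12 : (Real.log (hi / lo) + 3 * M) / 2 ^ (k0 - q) * n * ε.real univ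
        = (Real.log (hi / lo) + 3 * M) * ε.real univ * (n / 2 ^ (k0 - q)) := by
      field_simp
    rw [h12]
    have h13 : (1 : ℝ) ≤ n / 2 ^ (k0 - q) := by
      rw [le_div_iff₀ (by positivity), one_mul]
      exact hn0
    nlinarith
  rw [← hnr]
  have h14 : ((CE d + Real.log 3) / 2 ^ q + θ * d + 3 * η2
      + (Real.log (hi / lo) + 3 * M) / 2 ^ (k0 - q)) * n * ε.real univ
      = ((CE d + Real.log 3) / 2 ^ q * n + θ * d * n + 3 * η2 * n) * ε.real univ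
        + (Real.log (hi / lo) + 3 * M) / 2 ^ (k0 - q) * n * ε.real univ := by ring
  rw [h14]
  linarith

end final

end Crest.Agent.R234.Sev_201
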