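import Crest.Agent.R234.Core1_809
import Crest.Agent.R234.Sev4_201

/-!
# R234 / Core2_809 : abstract assembly of the core over the contact measure

`F` of dimension `d + 2`, `ε` = the contact measure on `Z`, `t = log (s / s0)`, `s0 = 2 r0`.
`Fld` = what holds at every (averaged) contact centre; the hypotheses `hN4`, `hN57`, `hN8`, `hrun`
of `core_abs` are the consumed forms of the nodes N4, N5 + N7, N8, N9 (with explicit constants).
-/

set_option autoImplicit false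
set_option linter.unusedSectionVars false

namespace Crest.Agent.R234.Core_809

open MeasureTheory Set Filter Metric
open Crest.Agent.R234.Ode_201 Crest.Agent.R234.Sev_201
open Crest.Agent.R234.Sp1_643 (Flat)
open scoped Topology

section count

open Classical in
/-- few large jumps of a bounded sequence which does not decrease by more than `A` in a step -/
theorem jump_low {u : ℕ → ℝ} {n : ℕ} {L0 L1 A c : ℝ} (hc : 0 < c)
    (hL : ∀ k, k ≤ n + 1 → L0 ≤ u k ∧ u k ≤ L1) (hA : ∀ k < n, -A ≤ u (k + 2) - u k)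
    {B : Set ℕ} (hB : ∀ k < n, k ∈ B → c < u (k + 2) - u k) (hA0 : 0 ≤ A) :
    ∑ k ∈ Finset.range n, B.indicator (fun _ => (1 : ℝ)) k ≤ (2 * (L1 - L0) + A * n) / c := by
  have h1 : ∑ k ∈ Finset.range n, B.indicator (fun _ => (1 : ℝ)) k
      ≤ ∑ k ∈ Finset.range n, (u (k + 2) - u k + A) / c := by
    apply Finset.sum_le_sum
    intro k hk
    have hk' := Finset.mem_range.1 hk
    have h2 := hA k hk'
    by_cases hb : k ∈ B
    · rw [indicator_of_mem hb, le_div_iff₀ hc]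
      have := hB k hk' hb
      linarith
    · rw [indicator_of_notMem hb]
      apply div_nonneg _ hc.le
      linarith
  refine h1.trans ?_
  rw [← Finset.sum_div]
  apply div_le_div_of_nonneg_right _ hc.le
  rw [Finset.sum_add_distrib, Finset.sum_const, Finset.card_range, nsmul_eq_mul]
  have h3 : ∀ j : ℕ, j ≤ n → ∑ k ∈ Finset.range j, (u (k + 2) - u k)
      = u (j + 1) + u j - u 1 - u 0 := by
    intro j
    induction j with
    | zero => intro _; simp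
    | succ j ih =>
      intro hj
      rw [Finset.sum_range_succ, ih (by lia)]
      ring_nf
  rw [h3 n le_rfl]
  have a1 := hL (n + 1) le_rfl
  have a2 := hL n (by lia)
  have a3 := hL 1 (by lia)
  have a4 := hL 0 (by lia)
  linarith

end count

section fld
variable {F W : Type*} [NormedAddCommGroup F] [InnerProductSpace ℝ F] [FiniteDimensional ℝ F]
  [MeasurableSpace F] [BorelSpace F]

/-- what holds at every (averaged) contact centre -/
structure Fld (Z : Set F) (q : W → ℝ) (d : ℕ) (κ a0 T q1 r0 Cm CR Cb Cn : ℝ)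
    (U E R e : F → ℝ → ℝ) (eF IF er : F → W → ℝ → ℝ) : Prop where
  pt : ∀ x ∈ Z, PtDat q κ a0 T q1 (U x) (E x) (R x) (eF x) (IF x) (er x)
  cs : ∀ x ∈ Z, ∀ w, q w ^ 2 ≤ q1 → ∀ t ∈ Icc a0 T,
    eF x w t ^ 2 ≤ R x t * IF x w t + κ * U x t ^ 2
  epos : ∀ x ∈ Z, ∀ t ∈ Icc a0 T, 0 < e x t
  reg : ∀ x ∈ Z, ∀ t, a0 ≤ t → t + 1 ≤ T → e x t ≤ Cm * (E x t + (U x (t + 1) - U x t))
  qm : ∀ x ∈ Z, ∀ t t', a0 ≤ t → t ≤ t' → t' ≤ T → e x t ≤ Real.exp (d * (t' - t)) * e x t'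
  rr : ∀ x ∈ Z, ∀ t, a0 ≤ t → t + 4 ≤ T → R x t ≤ CR * (U x (t + 4) - U x (t + 3))
  eb : ∀ x ∈ Z, ∀ t, a0 ≤ t → t + 1 ≤ T → E x t ≤ Cb * e x (t + 1)
  nbr : ∀ x ∈ Z, ∀ x' ∈ Z, ∀ t, a0 ≤ t → t + 2 ≤ T → dist x x' ≤ 2 * r0 * Real.exp t →
    e x' t ≤ Cn * e x (t + 2)
  me : ∀ t, Measurable fun x => e x t
  mU : ∀ t, Measurable fun x => U x t

/-- the good centres of level `k` -/
def Good (Z : Set F) (J a0 T K3 ηR : ℝ) (U e : F → ℝ → ℝ) (k : ℕ) : Set F :=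
  {x | x ∈ Z ∧ a0 ≤ J * k ∧ J * (k + 2) ≤ T ∧ e x (J * (k + 2)) ≤ K3 * e x (J * k) ∧
    U x (J * (k + 2)) ≤ (1 + ηR) * U x (J * k)}

variable {Z : Set F} {q : W → ℝ} {d : ℕ} {κ a0 T q1 r0 Cm CR Cb Cn : ℝ}
    {U E R e : F → ℝ → ℝ} {eF IF er : F → W → ℝ → ℝ}

theorem Fld.measurableSet_good (h : Fld Z q d κ a0 T q1 r0 Cm CR Cb Cn U E R e eF IF er)
    (hZ : MeasurableSet Z) (J K3 ηR : ℝ) (k : ℕ) :
    MeasurableSet (Good Z J a0 T K3 ηR U e k) := by
  have h1 : Good Z J a0 T K3 ηR U e k = Z ∩ ({x | a0 ≤ J * k} ∩ ({x | J * (k + 2) ≤ T} ∩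
      ({x | e x (J * (k + 2)) ≤ K3 * e x (J * k)} ∩
        {x | U x (J * (k + 2)) ≤ (1 + ηR) * U x (J * k)}))) := by
    ext x
    simp only [Good, mem_ofPred_eq, mem_inter_iff]
  rw [h1]
  refine hZ.inter ((MeasurableSet.const _).inter ((MeasurableSet.const _).inter
    (MeasurableSet.inter ?_ ?_)))
  · exact measurableSet_le (h.me _) ((h.me _).const_mul _)
  · exact measurableSet_le (h.mU _) ((h.mU _).const_mul _)

variable {J K3 ηR : ℝ} {k : ℕ} {x : F} {t : ℝ}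

/-- consequences at a good centre: range of the level -/
theorem Good.range (hJ : 8 ≤ J) (hx : x ∈ Good Z J a0 T K3 ηR U e k) (h1 : J * k ≤ t)
    (h2 : t ≤ J * (k + 1)) : a0 ≤ t ∧ t + 8 ≤ T ∧ t + 8 ≤ J * (k + 2) := by
  obtain ⟨_, ha, hb, _, _⟩ := hx
  have : J * ((k : ℝ) + 2) = J * (k + 1) + J := by ring
  refine ⟨by linarith, by linarith, by linarith⟩

/-- doubling on the level -/
theorem Good.dbl (h : Fld Z q d κ a0 T q1 r0 Cm CR Cb Cn U E R e eF IF er) (hJ : 8 ≤ J)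
    (hCm : 0 ≤ Cm) (hK3 : 0 ≤ K3) (hηR : ηR ≤ 1)
    (hx : x ∈ Good Z J a0 T K3 ηR U e k) (h1 : J * k ≤ t) (h2 : t ≤ J * (k + 1)) :
    e x (t + 4) ≤ 2 * Cm * K3 * Real.exp (3 * d * J) * E x t := by
  obtain ⟨h3, h4, h5⟩ := Good.range hJ hx h1 h2
  obtain ⟨hZ, ha, hb, he, hU⟩ := hx
  have hJp : 0 < J := by linarith
  have e1 : J * ((k : ℝ) + 2) = J * (k + 1) + J := by ring
  have e2 : J * ((k : ℝ) + 2) = J * k + 2 * J := by ring
  have e3 : J * ((k : ℝ) + 1) = J * k + J := by ring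
  have hd0 : (0 : ℝ) ≤ d := Nat.cast_nonneg d
  have q1' := h.qm x hZ (t + 4) (J * (k + 2)) (by linarith) (by linarith) hb
  have q2 := h.qm x hZ (J * k) t ha h1 (by linarith)
  have q3 := h.reg x hZ t h3 (by linarith)
  have hUt : U x (J * k) ≤ U x t := (h.pt x hZ).mono ⟨ha, by linarith⟩ ⟨h3, by linarith⟩ h1
  have hUt1 : U x (t + 1) ≤ U x (J * (k + 2)) :=
    (h.pt x hZ).mono ⟨by linarith, by linarith⟩ ⟨by linarith, hb⟩ (by linarith)
  have hUp : 0 < U x (J * k) := (h.pt x hZ).pos ⟨ha, by linarith⟩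
  have hUE := (h.pt x hZ).UE t ⟨h3, by linarith⟩
  have hjump : U x (t + 1) - U x t ≤ E x t := by
    have : U x (t + 1) ≤ (1 + ηR) * U x (J * k) := hUt1.trans hU
    nlinarith
  have het : e x t ≤ Cm * (2 * E x t) := q3.trans (mul_le_mul_of_nonneg_left (by linarith) hCm)
  have hep : 0 < e x (J * k) := h.epos x hZ _ ⟨ha, by linarith⟩
  have hep2 : 0 < e x t := h.epos x hZ _ ⟨h3, by linarith⟩
  calc e x (t + 4) ≤ Real.exp (d * (J * (k + 2) - (t + 4))) * e x (J * (k + 2)) := q1'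
    _ ≤ Real.exp (d * (J * (k + 2) - (t + 4))) * (K3 * (Real.exp (d * (t - J * k)) * e x t)) := by
        apply mul_le_mul_of_nonneg_left _ (Real.exp_pos _).le
        exact he.trans (mul_le_mul_of_nonneg_left q2 hK3)
    _ = Real.exp (d * (J * (k + 2) - (t + 4)) + d * (t - J * k)) * (K3 * e x t) := by
        rw [Real.exp_add]; ring
    _ ≤ Real.exp (3 * d * J) * (K3 * e x t) := by
        apply mul_le_mul_of_nonneg_right _ (by positivity)
        apply Real.exp_le_exp.2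
        have : d * (J * ((k : ℝ) + 2) - (t + 4)) + d * (t - J * k) = d * (2 * J - 4) := by ring
        rw [this]
        nlinarith
    _ ≤ Real.exp (3 * d * J) * (K3 * (Cm * (2 * E x t))) := by
        apply mul_le_mul_of_nonneg_left _ (Real.exp_pos _).le
        exact mul_le_mul_of_nonneg_left het hK3
    _ = _ := by ring

/-- `R` is small on the level, relative to `E` -/
theorem Good.rE (h : Fld Z q d κ a0 T q1 r0 Cm CR Cb Cn U E R e eF IF er) (hJ : 8 ≤ J)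
    (hCR : 0 ≤ CR) (hηR : 0 ≤ ηR)
    (hx : x ∈ Good Z J a0 T K3 ηR U e k) (h1 : J * k ≤ t) (h2 : t ≤ J * (k + 1)) {j : ℝ}
    (hj0 : 0 ≤ j) (hj : j ≤ 4) : R x (t + j) ≤ CR * ηR * E x t := by
  obtain ⟨h3, h4, h5⟩ := Good.range hJ hx h1 h2
  obtain ⟨hZ, ha, hb, he, hU⟩ := hx
  have q1' := h.rr x hZ (t + j) (by linarith) (by linarith)
  have hUt : U x (J * k) ≤ U x (t + j + 3) :=
    (h.pt x hZ).mono ⟨ha, by linarith⟩ ⟨by linarith, by linarith⟩ (by linarith)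
  have hUt1 : U x (t + j + 4) ≤ U x (J * (k + 2)) :=
    (h.pt x hZ).mono ⟨by linarith, by linarith⟩ ⟨by linarith, hb⟩ (by linarith)
  have hU0 : U x (J * k) ≤ U x t := (h.pt x hZ).mono ⟨ha, by linarith⟩ ⟨h3, by linarith⟩ h1
  have hUE := (h.pt x hZ).UE t ⟨h3, by linarith⟩
  have hjump : U x (t + j + 4) - U x (t + j + 3) ≤ ηR * E x t := by
    have h6 : U x (t + j + 4) ≤ (1 + ηR) * U x (J * k) := hUt1.trans hU
    have h7 : ηR * U x (J * k) ≤ ηR * E x t := mul_le_mul_of_nonneg_left (hU0.trans hUE) hηR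
    linarith
  calc R x (t + j) ≤ _ := q1'
    _ ≤ CR * (ηR * E x t) := mul_le_mul_of_nonneg_left hjump hCR
    _ = _ := by ring

/-- `R` at a good neighbour is small, relative to `e x (t + 4)` -/
theorem Good.rN (h : Fld Z q d κ a0 T q1 r0 Cm CR Cb Cn U E R e eF IF er) (hJ : 8 ≤ J)
    (hCR : 0 ≤ CR) (hηR : 0 ≤ ηR) (hCb : 0 ≤ Cb) (hCn : 0 ≤ Cn) {x' : F} (hxZ : x ∈ Z)
    (hx : x' ∈ Good Z J a0 T K3 ηR U e k) (h1 : J * k ≤ t) (h2 : t ≤ J * (k + 1))
    (hr0 : 0 ≤ r0) (hd : dist x x' ≤ 2 * r0 * Real.exp t) {j : ℝ} (hj0 : 0 ≤ j) (hj : j ≤ 4) :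
    R x' (t + j) ≤ CR * ηR * (Cb * (Cn * (Real.exp d * e x (t + 4)))) := by
  obtain ⟨h3, h4, h5⟩ := Good.range hJ hx h1 h2
  refine (Good.rE h hJ hCR hηR hx h1 h2 hj0 hj).trans ?_
  apply mul_le_mul_of_nonneg_left _ (by positivity)
  refine (h.eb x' hx.1 t h3 (by linarith)).trans ?_
  apply mul_le_mul_of_nonneg_left _ hCb
  have h6 := h.nbr x hxZ x' hx.1 (t + 1) (by linarith) (by linarith) (by
    refine hd.trans ?_
    apply mul_le_mul_of_nonneg_left _ (by positivity)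
    exact Real.exp_le_exp.2 (by linarith))
  refine h6.trans ?_
  apply mul_le_mul_of_nonneg_left _ hCn
  have h7 := h.qm x hxZ (t + 1 + 2) (t + 4) (by linarith) (by linarith) (by linarith)
  have e1 : (d : ℝ) * (t + 4 - (t + 1 + 2)) = d := by ring
  rw [e1] at h7
  exact h7

/-- number of the bad levels in a block -/
theorem Good.count (h : Fld Z q d κ a0 T q1 r0 Cm CR Cb Cn U E R e eF IF er) {L0 L1 H : ℝ}
    (hJ : 0 < J) (hK3 : 1 < K3) (hηR : 0 < ηR) (hx : x ∈ Z) {a n : ℕ} (ha : a0 ≤ J * a)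
    (hb : J * (a + n + 1) ≤ T)
    (hL : ∀ t ∈ Icc a0 T, L0 ≤ Real.log (e x t) ∧ Real.log (e x t) ≤ L1)
    (hH : Real.log (U x T) - Real.log (U x a0) ≤ H) :
    ∑ k ∈ Finset.range n, (Good Z J a0 T K3 ηR U e (a + k))ᶜ.indicator (fun _ => (1 : ℝ)) x
      ≤ (2 * (L1 - L0) / Real.log K3 + 2 * H / Real.log (1 + ηR))
        + 2 * d * J / Real.log K3 * n := by
  classical
  have hlK : 0 < Real.log K3 := Real.log_pos hK3
  have hlR : 0 < Real.log (1 + ηR) := Real.log_pos (by linarith)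
  have hd0 : (0 : ℝ) ≤ d := Nat.cast_nonneg d
  have hmem : ∀ k : ℕ, k ≤ n + 1 → J * ((a : ℝ) + k) ∈ Icc a0 T := by
    intro k hk
    have hk' : (k : ℝ) ≤ n + 1 := by exact_mod_cast hk
    have hk0 : (0 : ℝ) ≤ k := Nat.cast_nonneg k
    constructor
    · nlinarith
    · nlinarith
  have hTm : T ∈ Icc a0 T := ⟨(h.pt x hx).haT, le_rfl⟩
  have ham : a0 ∈ Icc a0 T := ⟨le_rfl, (h.pt x hx).haT⟩
  set u : ℕ → ℝ := fun k => Real.log (e x (J * ((a : ℝ) + k))) with hu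
  set v : ℕ → ℝ := fun k => Real.log (U x (J * ((a : ℝ) + k))) with hv
  set B1 : Set ℕ := {k | Real.log K3 < u (k + 2) - u k} with hB1
  set B2 : Set ℕ := {k | Real.log (1 + ηR) < v (k + 2) - v k} with hB2
  have c1 := jump_low (u := u) (n := n) (L0 := L0) (L1 := L1) (A := 2 * d * J) (B := B1) hlK
    (fun k hk => hL _ (hmem k hk))
    (by
      intro k hk
      have m1 := hmem k (by lia)
      have m2 := hmem (k + 2) (by lia)
      have e1 : J * ((a : ℝ) + (k + 2 : ℕ)) - J * ((a : ℝ) + k) = 2 * J := by push_cast; ring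
      have h1 := h.qm x hx _ _ m1.1 (by linarith) m2.2
      rw [e1] at h1
      have p1 := h.epos x hx _ m1
      have p2 := h.epos x hx _ m2
      have h2 := Real.log_le_log p1 h1
      rw [Real.log_mul (Real.exp_pos _).ne' p2.ne', Real.log_exp] at h2
      simp only [hu]
      linarith)
    (fun k _ hk => hk) (by positivity)
  have c2 := jump_low (u := v) (n := n) (L0 := Real.log (U x a0)) (L1 := Real.log (U x T))
    (A := 0) (B := B2) hlR
    (fun k hk => ⟨Real.log_le_log ((h.pt x hx).pos ham)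
        ((h.pt x hx).mono ham (hmem k hk) (hmem k hk).1),
      Real.log_le_log ((h.pt x hx).pos (hmem k hk))
        ((h.pt x hx).mono (hmem k hk) hTm (hmem k hk).2)⟩)
    (by
      intro k hk
      have m1 := hmem k (by lia)
      have m2 := hmem (k + 2) (by lia)
      have e1 : J * ((a : ℝ) + (k + 2 : ℕ)) - J * ((a : ℝ) + k) = 2 * J := by push_cast; ring
      have := Real.log_le_log ((h.pt x hx).pos m1) ((h.pt x hx).mono m1 m2 (by linarith))
      simp only [hv]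
      linarith)
    (fun k _ hk => hk) le_rfl
  have hkey : ∀ k ∈ Finset.range n,
      (Good Z J a0 T K3 ηR U e (a + k))ᶜ.indicator (fun _ => (1 : ℝ)) x
      ≤ B1.indicator (fun _ => (1 : ℝ)) k + B2.indicator (fun _ => (1 : ℝ)) k := by
    intro k hk
    have hk' := Finset.mem_range.1 hk
    have i1 : (0 : ℝ) ≤ B1.indicator (fun _ => (1 : ℝ)) k :=
      indicator_nonneg (fun _ _ => zero_le_one) _
    have i2 : (0 : ℝ) ≤ B2.indicator (fun _ => (1 : ℝ)) k :=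
      indicator_nonneg (fun _ _ => zero_le_one) _
    by_cases hg : x ∈ Good Z J a0 T K3 ηR U e (a + k)
    · rw [indicator_of_notMem (by simpa using hg)]
      linarith
    · rw [indicator_of_mem (by simpa using hg)]
      by_contra hcon
      push Not at hcon
      have n1 : k ∉ B1 := by
        intro hk1
        rw [indicator_of_mem hk1] at hcon
        linarith
      have n2 : k ∉ B2 := by
        intro hk1
        rw [indicator_of_mem hk1] at hcon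
        linarith
      apply hg
      have m1 := hmem k (by lia)
      have m2 := hmem (k + 2) (by lia)
      have e1 : J * (((a + k : ℕ) : ℝ)) = J * ((a : ℝ) + k) := by push_cast; ring
      have e2 : J * (((a + k : ℕ) : ℝ) + 2) = J * ((a : ℝ) + (k + 2 : ℕ)) := by push_cast; ring
      refine ⟨hx, ?_, ?_, ?_, ?_⟩
      · rw [e1]; exact m1.1
      · rw [e2]; exact m2.2
      · rw [e1, e2]
        have h1 : u (k + 2) - u k ≤ Real.log K3 := not_lt.1 n1
        have p1 := h.epos x hx _ m1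
        have p2 := h.epos x hx _ m2
        rw [← Real.log_le_log_iff p2 (by positivity), Real.log_mul (by positivity) p1.ne']
        simp only [hu] at h1
        linarith
      · rw [e1, e2]
        have h1 : v (k + 2) - v k ≤ Real.log (1 + ηR) := not_lt.1 n2
        have p1 := (h.pt x hx).pos m1
        have p2 := (h.pt x hx).pos m2
        rw [← Real.log_le_log_iff p2 (by positivity), Real.log_mul (by positivity) p1.ne']
        simp only [hv] at h1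
        linarith
  refine (Finset.sum_le_sum hkey).trans ?_
  rw [Finset.sum_add_distrib]
  have c3 : (2 * (Real.log (U x T) - Real.log (U x a0)) + 0 * n) / Real.log (1 + ηR)
      ≤ 2 * H / Real.log (1 + ηR) := by
    apply div_le_div_of_nonneg_right _ hlR.le
    linarith
  have c4 : (2 * (L1 - L0) + 2 * d * J * n) / Real.log K3
      = 2 * (L1 - L0) / Real.log K3 + 2 * d * J / Real.log K3 * n := by
    field_simp
  linarith

end fld

theorem pos_of_mul_pos_of_pos_right' {a b : ℝ} (h : 0 < a * b) (hb : 0 ≤ b) : 0 < a := by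
  by_contra hcon
  push Not at hcon
  have := mul_nonpos_of_nonpos_of_nonneg hcon hb
  linarith

section main
variable {F W : Type*} [NormedAddCommGroup F] [InnerProductSpace ℝ F] [FiniteDimensional ℝ F]
  [MeasurableSpace F] [BorelSpace F] (ε μ : Measure F) [IsFiniteMeasure ε] [IsFiniteMeasure μ]

/-- consumed form of N4 (THIN) -/
def HThin (Z : Set F) (d : ℕ) (a0 T r0 kf η1 ω : ℝ) (E R e : F → ℝ → ℝ) : Prop :=
  ∀ x ∈ Z, ∀ t, a0 ≤ t → t + 8 ≤ T → ∀ v : Fin (d + 1) → F,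
    (∀ i, x + v i ∈ Z ∧ ‖v i‖ ≤ 2 * r0 * Real.exp t) →
    (∀ (c : Fin (d + 1) → ℝ) i, |c i| * (2 * r0 * Real.exp t) ≤ kf * ‖∑ l, c l • v l‖) →
    (∀ j, 0 ≤ j → j ≤ 4 → R x (t + j) ≤ η1 * e x (t + 4) ∧
      ∀ i, R (x + v i) (t + j) ≤ η1 * e x (t + 4)) →
    E x t ≤ R x t + ω * e x (t + 4)

/-- consumed form of N5 + N7 (LOCAL + CROSS) -/
def HLoc {W : Type*} (Z : Set F) (q : W → ℝ) (d : ℕ) (a0 T q1 r0 kf η1 ω Θ c1 B : ℝ)
    (E R e : F → ℝ → ℝ) (eF IF : F → W → ℝ → ℝ) : Prop :=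
  ∀ x ∈ Z, ∀ t, a0 ≤ t → t + 8 ≤ T → ∀ y ∈ Z, dist x y ≤ 2 * r0 * Real.exp t →
    ∀ v : Fin d → F, (∀ i, y + v i ∈ Z ∧ ‖v i‖ ≤ 2 * r0 * Real.exp t ∧
      dist x (y + v i) ≤ 2 * r0 * Real.exp t) →
    (∀ (c : Fin d → ℝ) i, |c i| * (2 * r0 * Real.exp t) ≤ kf * ‖∑ l, c l • v l‖) →
    (∀ j, 0 ≤ j → j ≤ 4 → R x (t + j) ≤ η1 * e x (t + 4) ∧ R y (t + j) ≤ η1 * e x (t + 4) ∧
      ∀ i, R (y + v i) (t + j) ≤ η1 * e x (t + 4)) →
    ∀ w, q w ^ 2 ≤ q1 → Θ * t * e x (t + 4) ≤ q w ^ 2 → IF x w (t + 1) ≤ c1 * q w ^ 2 →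
      IF x w t ≤ B * t * E x t → IF x w (t + 1) ≤ B * (t * e x (t + 4)) →
      2 * E x t ≤ eF x w t + ω * e x (t + 4)

/-- consumed form of N8 (NET) -/
def HNet {W : Type*} (Z : Set F) (q : W → ℝ) (a0 T q1 Θ c1 C3 C0 : ℝ)
    (E e : F → ℝ → ℝ) (IF : F → W → ℝ → ℝ) : Prop :=
  ∀ x ∈ Z, ∀ t, a0 ≤ t → t + 8 ≤ T → e x (t + 4) ≤ C3 * E x t →
    ∃ w, q w ^ 2 ≤ q1 ∧ Θ * t * e x (t + 4) ≤ q w ^ 2 ∧ IF x w (t + 1) ≤ c1 * q w ^ 2 ∧
      IF x w t ≤ C0 * t * E x t ∧ IF x w (t + 1) ≤ C0 * (t * e x (t + 4))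

/-- consumed form of N9 (RUN) -/
def HRun {W : Type*} (Z : Set F) (q : W → ℝ) (N : ℕ) (a0 T A KR M : ℝ)
    (U e : F → ℝ → ℝ) (IF : F → W → ℝ → ℝ) : Prop :=
  ∀ x ∈ Z, ∀ τ : ℕ → ℝ, (∀ i ≤ N, a0 ≤ τ i ∧ τ i ≤ T ∧ 1 ≤ τ i) →
    (∀ i < N, 16 * τ i ≤ τ (i + 1)) →
    (∀ i ≤ N, A * e x (τ i + 3) ≤ M ^ 2 * (U x (τ i) * τ i)) →
    ∃ i < N, ∃ w, q w ^ 2 = M ^ 2 * (U x (τ (i + 1)) * τ (i + 1)) / 4 ∧
      IF x w (τ i) ≤ KR * M ^ 2 * (U x (τ i) * τ i)

set_option maxHeartbeats 1000000 in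
/-- **ABSTRACT ASSEMBLY OF THE CORE** -/
theorem core_abs {Z : Set F} {q : W → ℝ} {d : ℕ} {κ a0 T q1 r0 Cm CR Cb Cn : ℝ}
    {U E R e : F → ℝ → ℝ} {eF IF er : F → W → ℝ → ℝ}
    (h : Fld Z q d κ a0 T q1 r0 Cm CR Cb Cn U E R e eF IF er)
    (hd : Module.finrank ℝ F = d + 2) (hd1 : 1 ≤ d) (hZm : MeasurableSet Z) (hZ : ε Zᶜ = 0)
    (hε : 0 < ε.real univ)
    {N p K Jq : ℕ} {η H L0 L1 K3 ηR kf η1 ω Θ c1 C3 C0 K2 A KR M B θ lo hi cμ smin smax : ℝ}
    -- scales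
    (hJq : 3 ≤ Jq) (hJp : Jq ≤ p) (ha00 : 0 ≤ a0) (ha0 : a0 ≤ 2 ^ p)
    (hT : (2 : ℝ) ^ (p + (2 * N + 1) * K) + 2 ^ Jq ≤ T) (hr0 : 0 < r0)
    -- nodes
    (hN4 : HThin Z d a0 T r0 kf η1 ω E R e)
    (hN57 : HLoc Z q d a0 T q1 r0 kf η1 ω Θ c1 B E R e eF IF)
    (hN8 : HNet Z q a0 T q1 Θ c1 C3 C0 E e IF)
    (hN9 : HRun Z q N a0 T A KR M U e IF)
    -- bounds
    (hL : ∀ x ∈ Z, ∀ t ∈ Icc a0 T, L0 ≤ Real.log (e x t) ∧ Real.log (e x t) ≤ L1)
    (hH : ∀ x ∈ Z, Real.log (U x T) - Real.log (U x a0) ≤ H)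
    (hlo : 0 < lo) (hlh : lo ≤ hi) (hcμ : 0 < cμ)
    (hup : ∀ x ∈ Z, ∀ s, smin ≤ s → s ≤ smax → ε.real (closedBall x s) ≤ hi * s ^ d)
    (hμ : ∀ x ∈ Z, ∀ s, smin ≤ s → s ≤ smax → cμ * s ^ d ≤ μ.real (closedBall x s))
    (hsmin : smin ≤ r0 / 4 * Real.exp (2 ^ p - 2 ^ Jq))
    (hsmax : r0 / 2 * Real.exp (2 ^ (p + (2 * N + 1) * K) - 2 ^ Jq) ≤ smax)
    (hθ0 : 0 ≤ θ) (hθ : lo * 2 ^ d * μ.real univ / cμ ≤ θ * ε.real univ)
    -- constants of the equations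
    (hCm : 0 ≤ Cm) (hCR : 0 ≤ CR) (hCb : 0 ≤ Cb) (hCn : 1 ≤ Cn)
    -- order of the constants
    (hη0 : 0 < η) (h16 : η ≤ 1 / 16) (hκ : κ ≤ η) (hK : 4 ≤ K) (hH0 : 0 < H)
    (hfin : H < 3 * K / (32 * η)) (hLL : L0 ≤ L1)
    (hK3 : 1 < K3) (hηR0 : 0 < ηR) (hηR1 : ηR ≤ 1)
    (hcount : (CE d + Real.log 3) / 2 ^ Jq + θ * d + 3 * (2 * d * 2 ^ Jq / Real.log K3)
        + (Real.log (hi / lo) + 3 * (2 * (L1 - L0) / Real.log K3 + 2 * H / Real.log (1 + ηR)))
          / 2 ^ (p - Jq) < η / (2 * (2 * N + 1)))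
    (hC3 : 2 * Cm * K3 * Real.exp (3 * d * 2 ^ Jq) ≤ C3)
    (hω0 : 0 ≤ ω) (hω : ω * C3 ≤ η) (hRω : CR * ηR + ω * C3 < 1)
    (hη1 : CR * ηR * (Cb * (Cn * Real.exp d)) ≤ η1)
    (hkf4 : 2 * Sp3_643.Cf d (Real.exp (-(2 ^ Jq)) / 8) ≤ kf)
    (hkf5 : 2 * Real.exp (2 ^ Jq) * Sp3_643.Cf (d - 1) (Real.exp (-(2 ^ Jq)) / 8) ≤ kf)
    (hC0 : 0 < C0) (hK2 : 8 * C0 * Real.exp (4 * H / (η * K)) / η ≤ K2)
    (hq1 : ∀ x ∈ Z, M ^ 2 * (U x T * T) ≤ q1) (hΘ : 0 ≤ Θ) (hM : 4 * K2 * (Θ * C3) ≤ M ^ 2)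
    (hA : 0 ≤ A) (hM2 : A * (Real.exp d * C3) * K2 ≤ M ^ 2) (hc1 : 0 < c1)
    (hM3 : 16 ≤ c1 * M ^ 2) (hKR0 : 0 ≤ KR) (hKR : 8 * KR ≤ c1 * 2 ^ K)
    (hAK : KR * M ^ 2 + 2 ≤ η * K) (hB1 : C0 ≤ B) (hB2 : KR * M ^ 2 + 4 ≤ B)
    (hB3 : (KR * M ^ 2 + 4) * (Cb * Real.exp (2 * d)) ≤ B) : False := by
  classical
  have hd0 : (0 : ℝ) ≤ d := Nat.cast_nonneg d
  have hd1r : (1 : ℝ) ≤ d := by exact_mod_cast hd1
  set J : ℝ := 2 ^ Jq with hJdef
  have hJ8 : 8 ≤ J := by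
    have : (2 : ℝ) ^ 3 ≤ 2 ^ Jq := pow_le_pow_right₀ (by norm_num) hJq
    rw [hJdef]; linarith
  have hJ0 : 0 < J := by linarith
  have hC30 : 0 ≤ C3 := le_trans (by positivity) hC3
  set G : ℕ → Set F := Good Z J a0 T K3 ηR U e with hG
  have hGm : ∀ k, MeasurableSet (G k) := fun k => h.measurableSet_good hZm J K3 ηR k
  have hKpos : 0 < (2 * N + 1) * K := by positivity
  have hKr : (4 : ℝ) ≤ K := by exact_mod_cast hK
  -- consequences on a level
  have hdbl : ∀ k, ∀ x ∈ G k, ∀ t, J * k ≤ t → t ≤ J * (k + 1) → e x (t + 4) ≤ C3 * E x t := by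
    intro k x hx t h1 h2
    have h3 := Good.dbl h hJ8 hCm (by linarith) hηR1 hx h1 h2
    obtain ⟨r1, r2, r3⟩ := Good.range hJ8 hx h1 h2
    have hp := h.pt x hx.1
    have : 0 ≤ E x t := ((hp.pos ⟨r1, by linarith⟩).le).trans (hp.UE t ⟨r1, by linarith⟩)
    exact h3.trans (mul_le_mul_of_nonneg_right hC3 this)
  have hepos4 : ∀ k, ∀ x ∈ G k, ∀ t, J * k ≤ t → t ≤ J * (k + 1) → 0 < e x (t + 4) := by
    intro k x hx t h1 h2
    obtain ⟨r1, r2, r3⟩ := Good.range hJ8 hx h1 h2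
    exact h.epos x hx.1 _ ⟨by linarith, by linarith⟩
  have hRsm : ∀ k, ∀ x ∈ G k, ∀ x' ∈ G k, ∀ t, J * k ≤ t → t ≤ J * (k + 1) →
      dist x x' ≤ 2 * r0 * Real.exp t → ∀ j, 0 ≤ j → j ≤ 4 →
      R x' (t + j) ≤ η1 * e x (t + 4) := by
    intro k x hx x' hx' t h1 h2 hdx j hj0 hj
    have h3 := Good.rN h hJ8 hCR hηR0.le hCb (by linarith) hx.1 hx' h1 h2 hr0.le hdx hj0 hj
    refine h3.trans ?_
    have h4 := mul_le_mul_of_nonneg_right hη1 (hepos4 k x hx t h1 h2).le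
    calc _ = CR * ηR * (Cb * (Cn * Real.exp d)) * e x (t + 4) := by ring
      _ ≤ _ := h4
  have hrk : ∀ k : ℕ, ∀ t, J * k ≤ t → r0 * Real.exp (J * k) * 2 ≤ 2 * r0 * Real.exp t := by
    intro k t h1
    have := mul_le_mul_of_nonneg_left (Real.exp_le_exp.2 h1) hr0.le
    linarith
  -- THIN: the good centres of a level are flat in dimension `d`
  have hflat : ∀ k : ℕ, (2 : ℝ) ^ p ≤ 2 ^ Jq * k → (2 : ℝ) ^ Jq * (k + 1) ≤ 2 ^ (p + (2 * N + 1) * K) →
      ∀ x ∈ G k, Flat d (Real.exp (-(2 ^ Jq)) / 8) (G k) x (r0 * Real.exp (2 ^ Jq * k)) := by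
    intro k _ _ x hx
    by_contra hcon
    obtain ⟨v, hv, hc⟩ := Sp3_643.exists_fat (by positivity) (by positivity) hx hcon
    have hkk : J * (k : ℝ) ≤ J * (k + 1) := by nlinarith
    obtain ⟨r1, r2, r3⟩ := Good.range hJ8 hx le_rfl hkk
    have hrr := hrk k (J * k) le_rfl
    have hvn : ∀ i, ‖v i‖ ≤ 2 * r0 * Real.exp (J * k) := by
      intro i
      have := (hv i).2
      have h0 : 0 ≤ ‖v i‖ := norm_nonneg _
      linarith
    have h1 := hN4 x hx.1 (J * k) r1 r2 v (fun i => ⟨(hv i).1.1, hvn i⟩)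
      (fun c i => by
        have h2 := hc c i
        have h3 : |c i| * (2 * r0 * Real.exp (J * k)) = 2 * (|c i| * (r0 * Real.exp (J * k))) := by
          ring
        rw [h3]
        calc 2 * (|c i| * (r0 * Real.exp (J * k)))
            ≤ 2 * (Sp3_643.Cf d (Real.exp (-(2 ^ Jq)) / 8) * ‖∑ j, c j • v j‖) := by linarith
          _ = 2 * Sp3_643.Cf d (Real.exp (-(2 ^ Jq)) / 8) * ‖∑ j, c j • v j‖ := by ring
          _ ≤ _ := mul_le_mul_of_nonneg_right hkf4 (norm_nonneg _))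
      (fun j hj0 hj4 => ⟨hRsm k x hx x hx _ le_rfl hkk (by rw [dist_self]; positivity) j hj0 hj4,
        fun i => hRsm k x hx _ (hv i).1 _ le_rfl hkk (by
          rw [dist_eq_norm, sub_add_cancel_left, norm_neg]; exact hvn i) j hj0 hj4⟩)
    have h2 := Good.rE h hJ8 hCR hηR0.le hx le_rfl hkk (j := 0) le_rfl (by norm_num)
    rw [add_zero] at h2
    have h3 := hdbl k x hx _ le_rfl hkk
    have hp := h.pt x hx.1
    have hEp : 0 < E x (J * k) :=
      (hp.pos ⟨r1, by linarith⟩).trans_le (hp.UE _ ⟨r1, by linarith⟩)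
    have h4 : ω * e x (J * k + 4) ≤ ω * C3 * E x (J * k) := by
      have := mul_le_mul_of_nonneg_left h3 hω0
      linarith
    have h5 : E x (J * k) ≤ (CR * ηR + ω * C3) * E x (J * k) := by nlinarith
    nlinarith
  -- the number of bad levels
  set Mc : ℝ := 2 * (L1 - L0) / Real.log K3 + 2 * H / Real.log (1 + ηR) with hMc
  have hlK : 0 < Real.log K3 := Real.log_pos hK3
  have hlR : 0 < Real.log (1 + ηR) := Real.log_pos (by linarith)
  have hMc0 : 0 ≤ Mc := by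
    have : 0 ≤ L1 - L0 := by linarith
    positivity
  have hbad : ∀ j < (2 * N + 1) * K, ∑ k ∈ Finset.range (2 ^ (p + j - Jq)),
      ε.real (G (2 ^ (p + j - Jq) + k))ᶜ
      ≤ (Mc + 2 * d * J / Real.log K3 * 2 ^ (p + j - Jq)) * ε.real univ := by
    intro j hj
    set n : ℕ := 2 ^ (p + j - Jq) with hn
    have hnr : (n : ℝ) = 2 ^ (p + j - Jq) := by simp [hn]
    have e1 : J * (n : ℝ) = 2 ^ (p + j) := by
      rw [hnr, hJdef, ← pow_add]
      congr 1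
      lia
    have e2 : (2 : ℝ) ^ (p + j + 1) = 2 * 2 ^ (p + j) := by ring
    have e3 : (2 : ℝ) ^ (p + j + 1) ≤ 2 ^ (p + (2 * N + 1) * K) :=
      pow_le_pow_right₀ (by norm_num) (by lia)
    have e4 : (2 : ℝ) ^ p ≤ 2 ^ (p + j) := pow_le_pow_right₀ (by norm_num) (by lia)
    refine sum_bad_le (G := fun k => G (n + k)) (fun k => hGm _) hZ (n := n) fun x hx => ?_
    have h1 := Good.count h hJ0 hK3 hηR0 hx (a := n) (n := n)
      (by rw [e1]; linarith) (by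
        have : J * ((n : ℝ) + n + 1) = 2 * (J * n) + J := by ring
        rw [this, e1]
        linarith) (hL x hx) (hH x hx)
    rw [← hnr]
    exact h1
  -- N6
  set η' : ℝ := η / (2 * (2 * N + 1)) with hη'
  have hNr : (0 : ℝ) ≤ N := Nat.cast_nonneg N
  have hη'0 : 0 < η' := by positivity
  obtain ⟨X1, hX1m, hX1, hX1d⟩ := span_all' ε hd hd1 hJp hKpos hr0 hθ0 hη'0 G hGm hflat μ hZm hZ
    hlo hlh hcμ hup hμ hsmin hsmax hθ hbad hMc0
  -- a centre with few bad scales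
  have hex : ∃ x, x ∈ X1 ∧ x ∈ Z := by
    by_contra hcon
    push Not at hcon
    have h1 : Z ⊆ X1ᶜ := fun x hx hx1 => hcon x hx1 hx
    have h2 : ε.real univ ≤ ε.real X1ᶜ := by
      have h3 : ε.real univ ≤ ε.real Z + ε.real Zᶜ := by
        rw [← union_compl_self Z]
        exact measureReal_union_le _ _
      have h4 : ε.real Zᶜ = 0 := by simp [Measure.real, hZ]
      have h5 : ε.real Z ≤ ε.real X1ᶜ := measureReal_mono h1
      linarith
    have h3 : ((CE d + Real.log 3) / 2 ^ Jq + θ * d + 3 * (2 * d * J / Real.log K3)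
        + (Real.log (hi / lo) + 3 * Mc) / 2 ^ (p - Jq)) / η' < 1 := by
      rw [div_lt_one hη'0]
      exact hcount
    have h4 := mul_lt_mul_of_pos_right h3 hε
    linarith
  obtain ⟨x, hx1, hxZ⟩ := hex
  have hdens := hX1d x hx1
  set Ω0 : Set ℝ := Om (2 ^ Jq) (Sp d (2 ^ Jq) r0 G) x with hΩ0
  -- off the bad set
  have hoff : ∀ t ∈ Icc a0 T, t ∉ Ω0 → ∃ k : ℕ, J * k ≤ t ∧ t ≤ J * (k + 1) ∧
      x ∈ Sp d (2 ^ Jq) r0 G k := by
    intro t ht htΩ
    have h0 : 0 ≤ t / J := div_nonneg (ha00.trans ht.1) hJ0.le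
    refine ⟨⌊t / J⌋₊, ?_, ?_, ?_⟩
    · have := Nat.floor_le h0
      rw [le_div_iff₀ hJ0] at this
      linarith
    · have := (Nat.lt_floor_add_one (t / J)).le
      rw [div_le_iff₀ hJ0] at this
      linarith
    · exact not_not.1 htΩ
  have hloc : ∀ t ∈ Icc a0 T, t ∉ Ω0 → ∀ w, q w ^ 2 ≤ q1 → Θ * t * e x (t + 4) ≤ q w ^ 2 →
      IF x w (t + 1) ≤ c1 * q w ^ 2 → IF x w t ≤ B * t * E x t →
      IF x w (t + 1) ≤ B * (t * e x (t + 4)) → 2 * E x t ≤ eF x w t + ω * e x (t + 4) := by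
    intro t ht htΩ
    obtain ⟨k, h1, h2, hsp⟩ := hoff t ht htΩ
    obtain ⟨y, hy, hdy, v, hv, hc⟩ := Sp.fat hd1 hr0 hsp
    have hxG : x ∈ G k := hsp.1
    obtain ⟨r1, r2, r3⟩ := Good.range hJ8 hxG h1 h2
    have hrr := hrk k t h1
    have hrp : 0 < r0 * Real.exp (2 ^ Jq * k) := by positivity
    have hdy' : dist x y ≤ 2 * r0 * Real.exp t := by linarith
    have hdv : ∀ i, dist x (y + v i) ≤ 2 * r0 * Real.exp t := by
      intro i
      have h3 : dist y (y + v i) = ‖v i‖ := by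
        rw [dist_eq_norm, sub_add_cancel_left, norm_neg]
      have h4 := dist_triangle x y (y + v i)
      have h5 := (hv i).2
      rw [h3] at h4
      linarith
    refine hN57 x hxZ t r1 r2 y hy.1 hdy' v (fun i => ⟨(hv i).1.1, ?_, hdv i⟩) ?_ ?_
    · have := (hv i).2
      linarith
    · intro c i
      have h3 := hc c i
      have h4 : Real.exp t ≤ Real.exp (2 ^ Jq) * Real.exp (2 ^ Jq * k) := by
        rw [← Real.exp_add]
        apply Real.exp_le_exp.2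
        have : J * ((k : ℝ) + 1) = J + J * k := by ring
        rw [← hJdef]
        linarith
      calc |c i| * (2 * r0 * Real.exp t)
          ≤ |c i| * (2 * r0 * (Real.exp (2 ^ Jq) * Real.exp (2 ^ Jq * k))) := by gcongr
        _ = 2 * Real.exp (2 ^ Jq) * (|c i| * (r0 * Real.exp (2 ^ Jq * k))) := by ring
        _ ≤ 2 * Real.exp (2 ^ Jq) * (Sp3_643.Cf (d - 1) (Real.exp (-(2 ^ Jq)) / 8)
            * ‖∑ l, c l • v l‖) := mul_le_mul_of_nonneg_left h3 (by positivity)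
        _ = 2 * Real.exp (2 ^ Jq) * Sp3_643.Cf (d - 1) (Real.exp (-(2 ^ Jq)) / 8)
            * ‖∑ l, c l • v l‖ := by ring
        _ ≤ _ := mul_le_mul_of_nonneg_right hkf5 (norm_nonneg _)
    · intro j hj0 hj4
      exact ⟨hRsm k x hxG x hxG t h1 h2 (by rw [dist_self]; positivity) j hj0 hj4,
        hRsm k x hxG y hy t h1 h2 hdy' j hj0 hj4,
        fun i => hRsm k x hxG _ (hv i).1 t h1 h2 (hdv i) j hj0 hj4⟩
  have hdb : ∀ t ∈ Icc a0 T, t ∉ Ω0 → e x (t + 4) ≤ C3 * E x t ∧ t + 8 ≤ T := by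
    intro t ht htΩ
    obtain ⟨k, h1, h2, hsp⟩ := hoff t ht htΩ
    have hxG : x ∈ G k := hsp.1
    exact ⟨hdbl k x hxG t h1 h2, (Good.range hJ8 hxG h1 h2).2.1⟩
  have hp := h.pt x hxZ
  have hEp : ∀ t ∈ Icc a0 T, 0 < E x t := fun t ht => (hp.pos ht).trans_le (hp.UE t ht)
  refine pt_false hp (Ω0 := Ω0) (N := N) (p := p) (K := K) (η := η) (H := H) (C0 := C0) (K2 := K2)
    (Θ := Θ * C3) (c1 := c1) (C3 := Real.exp d * C3) (A := A) (KR := KR) (M := M)
    (B := KR * M ^ 2 + 4) (e := e x)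
    (measurableSet_om _ _ _) ha0 (by linarith) hη0 h16 hκ hK hH0 (hH x hxZ) ?_ hC0 hK2
    ?_ ?_ ?_ (hN9 x hxZ) (hq1 x hxZ) (by positivity) hM hA (by positivity) hM2 hc1 hM3 hKR0 hKR
    hAK hfin le_rfl
  · -- hsum
    have h1 : η' * ((2 * N + 1) * K : ℕ) = η / 2 * K := by
      rw [hη']
      push_cast
      field_simp
    rw [h1] at hdens
    exact hdens
  · -- hg6
    intro t ht htΩ
    obtain ⟨h1, h2⟩ := hdb t ht htΩ
    obtain ⟨w, w1, w2, w3, w4, w5⟩ := hN8 x hxZ t ht.1 h2 h1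
    have hE := hEp t ht
    have ht0 : 0 ≤ t := ha00.trans ht.1
    have hep4 : 0 < e x (t + 4) := h.epos x hxZ _ ⟨by linarith [ht.1], by linarith⟩
    have h3 := hloc t ht htΩ w w1 w2 w3
      (w4.trans (mul_le_mul_of_nonneg_right (mul_le_mul_of_nonneg_right hB1 ht0) hE.le))
      (w5.trans (mul_le_mul_of_nonneg_right hB1 (mul_nonneg ht0 hep4.le)))
    have hU := hp.pos ht
    have hUE := hp.UE t ht
    have h4 : ω * e x (t + 4) ≤ η * E x t := by
      calc ω * e x (t + 4) ≤ ω * (C3 * E x t) := mul_le_mul_of_nonneg_left h1 hω0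
        _ = ω * C3 * E x t := by ring
        _ ≤ η * E x t := mul_le_mul_of_nonneg_right hω hE.le
    have h4' : η * E x t ≤ 1 / 16 * E x t := mul_le_mul_of_nonneg_right h16 hE.le
    have h5 : 31 / 16 * E x t ≤ eF x w t := by linarith
    have h6 := h.cs x hxZ w w1 t ht
    have h7 : (31 / 16 * E x t) ^ 2 ≤ eF x w t ^ 2 :=
      pow_le_pow_left₀ (by positivity) h5 2
    have e7 : (31 / 16 * E x t) ^ 2 = 961 / 256 * (E x t * E x t) := by ring
    have h8 : κ * U x t ^ 2 ≤ 1 / 16 * (E x t * E x t) := by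
      have h81 : U x t ^ 2 ≤ E x t ^ 2 := pow_le_pow_left₀ hU.le hUE 2
      have h82 : κ * U x t ^ 2 ≤ κ * E x t ^ 2 := mul_le_mul_of_nonneg_left h81 hp.k0
      have h83 : κ * E x t ^ 2 ≤ 1 / 16 * E x t ^ 2 :=
        mul_le_mul_of_nonneg_right (hκ.trans h16) (sq_nonneg _)
      have h84 : E x t ^ 2 = E x t * E x t := by ring
      rw [h84] at h83 h82
      linarith
    have hEE : 0 < E x t * E x t := mul_pos hE hE
    have hR0 : 0 < R x t * IF x w t := by linarith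
    have hI := hp.Inn w t ht
    have hRp : 0 < R x t := pos_of_mul_pos_of_pos_right' hR0 hI
    have h9 : R x t * IF x w t ≤ R x t * (C0 * t * E x t) :=
      mul_le_mul_of_nonneg_left w4 hRp.le
    have e9 : R x t * (C0 * t * E x t) = (C0 * t * R x t) * E x t := by ring
    have h10 : E x t * E x t ≤ (C0 * t * R x t) * E x t := by linarith
    exact le_of_mul_le_mul_right h10 hE
  · -- hg2
    intro w hw t ht ht1 htΩ hq hI hI1 hI2
    obtain ⟨h1, h2⟩ := hdb t ht htΩ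
    have hE := hEp t ht
    have ht0 : 0 ≤ t := ha00.trans ht.1
    have h3 := hloc t ht htΩ w hw (by
      refine le_trans ?_ hq
      calc Θ * t * e x (t + 4) ≤ Θ * t * (C3 * E x t) :=
            mul_le_mul_of_nonneg_left h1 (by positivity)
        _ = _ := by ring) hI
      (hI1.trans (mul_le_mul_of_nonneg_right (mul_le_mul_of_nonneg_right hB2 ht0) hE.le))
      (by
        refine hI2.trans ?_
        have k0 : 0 ≤ KR * M ^ 2 + 4 := by positivity
        have hep4 : 0 < e x (t + 4) := h.epos x hxZ _ ⟨by linarith [ht.1], by linarith⟩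
        have k1 : U x (t + 1) ≤ Cb * (Real.exp (2 * d) * e x (t + 4)) := by
          refine (hp.UE (t + 1) ⟨by linarith [ht.1], ht1⟩).trans ?_
          refine (h.eb x hxZ (t + 1) (by linarith [ht.1]) (by linarith)).trans ?_
          apply mul_le_mul_of_nonneg_left _ hCb
          have k2 := h.qm x hxZ (t + 1 + 1) (t + 4) (by linarith [ht.1]) (by linarith) (by linarith)
          have e1 : (d : ℝ) * (t + 4 - (t + 1 + 1)) = 2 * d := by ring
          rw [e1] at k2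
          exact k2
        calc (KR * M ^ 2 + 4) * (t * U x (t + 1))
            ≤ (KR * M ^ 2 + 4) * (t * (Cb * (Real.exp (2 * d) * e x (t + 4)))) :=
              mul_le_mul_of_nonneg_left (mul_le_mul_of_nonneg_left k1 ht0) k0
          _ = (KR * M ^ 2 + 4) * (Cb * Real.exp (2 * d)) * (t * e x (t + 4)) := by ring
          _ ≤ B * (t * e x (t + 4)) :=
              mul_le_mul_of_nonneg_right hB3 (mul_nonneg ht0 hep4.le))
    have h4 : ω * e x (t + 4) ≤ η * E x t := by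
      calc ω * e x (t + 4) ≤ ω * (C3 * E x t) := mul_le_mul_of_nonneg_left h1 hω0
        _ = ω * C3 * E x t := by ring
        _ ≤ η * E x t := mul_le_mul_of_nonneg_right hω hE.le
    have h5 : 0 ≤ η * E x t := mul_nonneg hη0.le hE.le
    have h6 : 2 * (1 - η) * E x t = 2 * E x t - 2 * (η * E x t) := by ring
    linarith
  · -- hg1
    intro t ht htΩ
    obtain ⟨h1, h2⟩ := hdb t ht htΩ
    have h3 := h.qm x hxZ (t + 3) (t + 4) (by linarith [ht.1]) (by linarith) (by linarith)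
    have e1 : (d : ℝ) * (t + 4 - (t + 3)) = d := by ring
    rw [e1] at h3
    calc e x (t + 3) ≤ Real.exp d * e x (t + 4) := h3
      _ ≤ Real.exp d * (C3 * E x t) := mul_le_mul_of_nonneg_left h1 (Real.exp_pos _).le
      _ = _ := by ring

end main

end Crest.Agent.R234.Core_809
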