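import Crest.Agent.R234.Shp1_98

/-!
# Row 234 (helper387): one averaged contact centre, the fields of `Core_809.Fld` (abstract part)

`Ctr`: 98's `Raw` on scales `l ≤ T` with the kernel comparisons, tallness and nonnegativity of the
potential on `[a, T]`.  Conclusions: `qm`, `rr`, `eb`, `reg`, positivity and lower bound of `es`,
comparison of two centres.
-/

set_option autoImplicit false

open MeasureTheory Set Filter Topology

noncomputable section

namespace Crest.Agent.R234.Fld_387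

open Crest.Agent.R234.Shp_98

/-- one averaged contact centre -/
structure Ctr (m K δ CC A D₀ a T : ℝ) (E e et b g R f p P B : ℝ → ℝ) : Prop where
  raw : Raw m K 2 δ T E e et b g R f p P B
  m2 : 2 ≤ m
  K2 : 2 ≤ K
  hA : Real.exp (m - 2) ≤ A
  CC1 : 1 ≤ CC
  D0 : 0 < D₀
  aT : a ≤ T
  ce : ∀ s t, s ≤ t → t ≤ T → e s ≤ Real.exp ((m - 2) * (t - s)) * e t
  cg : ∀ s t, s ≤ t → t ≤ T → g s ≤ Real.exp ((m - 2) * (t - s)) * g t
  cet : ∀ s t, s + 3 ≤ t → t ≤ T → et s ≤ CC * Real.exp (m * (t - s)) * et t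
  cR : ∀ s t, s + 3 ≤ t → t ≤ T → R s ≤ CC * Real.exp (m * (t - s)) * R t
  cp : ∀ s t, s + 3 ≤ t → t ≤ T → p s ≤ CC * Real.exp (m * (t - s)) * p t
  hf : ∀ l ≤ T, |f l| ≤ δ * (e l + et l) + p l / 2
  tall : D₀ ≤ Us K δ E e P B a
  hB : ∀ l, a ≤ l → l ≤ T → 0 ≤ B l
  hEe : ∀ l, a ≤ l → l + 1 ≤ T → E l ≤ A * e (l + 1)
  PT : P T ≤ D₀

namespace Ctr

variable {m K δ CC A D₀ a T : ℝ} {E e et b g R f p P B : ℝ → ℝ}

theorem A1 (h : Ctr m K δ CC A D₀ a T E e et b g R f p P B) : 1 ≤ A := by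
  have h1 := h.hA
  have h2 := Real.add_one_le_exp (m - 2)
  have h3 := h.m2
  linarith

theorem P_mono (h : Ctr m K δ CC A D₀ a T E e et b g R f p P B) {s t : ℝ} (hst : s ≤ t)
    (ht : t ≤ T) : P s ≤ P t := by
  have h1 : MonotoneOn P (Iic T) := by
    refine monotoneOn_of_deriv_nonneg (convex_Iic T) h.raw.cP.continuousOn
      (fun x hx => ?_) (fun x hx => ?_)
    · rw [interior_Iic] at hx
      exact (h.raw.dP x (le_of_lt hx)).differentiableAt.differentiableWithinAt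
    · rw [interior_Iic] at hx
      rw [(h.raw.dP x (le_of_lt hx)).deriv]
      exact h.raw.p0 x (le_of_lt hx)
  exact h1 (hst.trans ht) ht hst

theorem U_pos (h : Ctr m K δ CC A D₀ a T E e et b g R f p P B) {l : ℝ} (h1 : a ≤ l) (h2 : l ≤ T) :
    D₀ ≤ Us K δ E e P B l :=
  h.tall.trans (h.raw.Us_mono h.K2 h1 h2)

theorem UE (h : Ctr m K δ CC A D₀ a T E e et b g R f p P B) {l : ℝ} (h1 : a ≤ l) (h2 : l ≤ T) :
    Us K δ E e P B l ≤ Es K δ E e P l := by
  have h3 := h.hB l h1 h2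
  have h4 : Us K δ E e P B l = Es K δ E e P l - 2 * B l := rfl
  linarith

/-- field `qm` -/
theorem qm (h : Ctr m K δ CC A D₀ a T E e et b g R f p P B) {s t : ℝ} (hst : s ≤ t)
    (ht : t ≤ T) : es m K δ E e b g P s ≤ Real.exp ((m - 2) * (t - s)) * es m K δ E e b g P t := by
  rw [h.raw.es_eq (hst.trans ht), h.raw.es_eq ht]
  have h1 := h.ce s t hst ht
  have h2 := h.cg s t hst ht
  have h3 := h.P_mono hst ht
  have h4 := h.raw.P0 t ht
  have h5 : 1 ≤ Real.exp ((m - 2) * (t - s)) := by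
    refine Real.one_le_exp (mul_nonneg ?_ ?_)
    · linarith [h.m2]
    · linarith
  have h6 : 1 * P t ≤ Real.exp ((m - 2) * (t - s)) * P t := mul_le_mul_of_nonneg_right h5 h4
  have h7 : 0 ≤ 1 + (2 + m) * K * δ := by
    have := h.raw.K0
    have := h.raw.δ0
    have := h.m2
    positivity
  have h8 := mul_le_mul_of_nonneg_left h1 h7
  nlinarith

/-- field `eb` -/
theorem eb (h : Ctr m K δ CC A D₀ a T E e et b g R f p P B) {l : ℝ} (h1 : a ≤ l) (h2 : l + 1 ≤ T) :
    Es K δ E e P l ≤ A * es m K δ E e b g P (l + 1) := by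
  rw [h.raw.es_eq h2]
  unfold Es
  have h3 := h.hEe l h1 h2
  have hA := h.A1
  have h4 : e l ≤ A * e (l + 1) := by
    have h5 := h.ce l (l + 1) (by linarith) h2
    have e1 : (m - 2) * (l + 1 - l) = m - 2 := by ring
    rw [e1] at h5
    exact h5.trans (mul_le_mul_of_nonneg_right h.hA (h.raw.e0 _ h2))
  have h5 := h.P_mono (by linarith : l ≤ l + 1) h2
  have h6 := h.raw.P0 _ h2
  have h7 := h.raw.e0 _ h2
  have h8 := h.raw.g0 _ h2
  have hK := h.raw.K0
  have hδ := h.raw.δ0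
  have hm := h.raw.m0
  have h10 : K * δ * e l ≤ K * δ * (A * e (l + 1)) :=
    mul_le_mul_of_nonneg_left h4 (by positivity)
  have h13 : 1 * P (l + 1) ≤ A * (2 * P (l + 1)) := by nlinarith
  have h14 : 0 ≤ A * (m + 1) * (K * δ * e (l + 1)) := by positivity
  have h15 : 0 ≤ A * g (l + 1) := by positivity
  nlinarith

/-- lower bound of `es` -/
theorem le_es (h : Ctr m K δ CC A D₀ a T E e et b g R f p P B) {l : ℝ} (h1 : a + 1 ≤ l)
    (h2 : l ≤ T) : D₀ / A ≤ es m K δ E e b g P l := by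
  have h3 := h.eb (l := l - 1) (by linarith) (by linarith)
  have h4 := h.UE (l := l - 1) (by linarith) (by linarith)
  have h5 := h.U_pos (l := l - 1) (by linarith) (by linarith)
  have e1 : l - 1 + 1 = l := by ring
  rw [e1] at h3
  rw [div_le_iff₀ (by linarith [h.A1])]
  linarith

/-- field `epos` -/
theorem epos (h : Ctr m K δ CC A D₀ a T E e et b g R f p P B) {l : ℝ} (h1 : a + 1 ≤ l)
    (h2 : l ≤ T) : 0 < es m K δ E e b g P l := by
  have h3 := h.le_es h1 h2
  have h4 : 0 < D₀ / A := div_pos h.D0 (by linarith [h.A1])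
  linarith

/-- lower bound of `Rs` with half of `p` -/
theorem Rs_lower (h : Ctr m K δ CC A D₀ a T E e et b g R f p P B) {l : ℝ} (hl : l ≤ T) :
    R l + 2 * g l + (K - 1) * δ * (e l + et l) + p l / 2 ≤ Rs K δ e et g R f p l := by
  have h1 := (abs_le.1 (h.hf l hl)).1
  have h2 : 0 ≤ K * δ * e l := by
    have := h.raw.K0
    have := h.raw.δ0
    have := h.raw.e0 l hl
    positivity
  unfold Rs
  nlinarith

/-- the pieces of `Rs` at two scales -/
theorem Rs_le_Rs (h : Ctr m K δ CC A D₀ a T E e et b g R f p P B) {s t : ℝ} (hst : s + 3 ≤ t)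
    (ht : t ≤ T) : Rs K δ e et g R f p s ≤
      6 * CC * Real.exp (m * (t - s)) * Rs K δ e et g R f p t := by
  have hs : s ≤ T := by linarith
  have h0 := h.raw.Rs_upper hs
  have h1 := h.Rs_lower ht
  have hm := h.m2
  have hC := h.CC1
  set X : ℝ := CC * Real.exp (m * (t - s)) with hX
  have hX0 : 0 ≤ X := by
    have := Real.exp_pos (m * (t - s))
    positivity
  have hX1 : Real.exp ((m - 2) * (t - s)) ≤ X := by
    have a1 : Real.exp ((m - 2) * (t - s)) ≤ Real.exp (m * (t - s)) :=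
      Real.exp_le_exp.2 (by nlinarith)
    have a2 := mul_le_mul_of_nonneg_right hC (Real.exp_pos (m * (t - s))).le
    rw [hX]
    linarith
  have h2 := h.cR s t hst ht
  have h3 := h.cet s t hst ht
  have h4 := h.cp s t hst ht
  have h5 : e s ≤ X * e t := (h.ce s t (by linarith) ht).trans
    (mul_le_mul_of_nonneg_right hX1 (h.raw.e0 t ht))
  have h6 : g s ≤ X * g t := (h.cg s t (by linarith) ht).trans
    (mul_le_mul_of_nonneg_right hX1 (h.raw.g0 t ht))
  have hR := h.raw.R0 t ht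
  have hg := h.raw.g0 t ht
  have he := h.raw.e0 t ht
  have het := h.raw.et0 ht
  have hp := h.raw.p0 t ht
  have hK := h.K2
  have hδ := h.raw.δ0
  have h7 : Rs K δ e et g R f p s ≤
      X * (R t + 2 * g t + (2 * K + 2) * δ * (e t + et t) + 2 * p t) := by
    have b1 : (2 * K + 2) * δ * (e s + et s) ≤ (2 * K + 2) * δ * (X * e t + X * et t) :=
      mul_le_mul_of_nonneg_left (add_le_add h5 h3) (by positivity)
    nlinarith
  have h8 : R t + 2 * g t + (2 * K + 2) * δ * (e t + et t) + 2 * p t ≤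
      6 * Rs K δ e et g R f p t := by
    have b2 : (2 * K + 2) * (δ * (e t + et t)) ≤ 6 * ((K - 1) * (δ * (e t + et t))) := by
      have : 0 ≤ δ * (e t + et t) := by positivity
      nlinarith
    nlinarith
  have h9 := mul_le_mul_of_nonneg_left h8 hX0
  calc _ ≤ _ := h7
    _ ≤ _ := h9
    _ = _ := by rw [hX]; ring

/-- field `rr` -/
theorem rr (h : Ctr m K δ CC A D₀ a T E e et b g R f p P B) {l : ℝ} (hl : l + 4 ≤ T) :
    Rs K δ e et g R f p l ≤ 6 * CC * Real.exp (4 * m) *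
      (Us K δ E e P B (l + 4) - Us K δ E e P B (l + 3)) := by
  have hK : (2 : ℝ) ≤ K := h.K2
  rw [h.raw.Us_sub (s := l + 3) (t := l + 4) (by linarith) hl,
    ← intervalIntegral.integral_const_mul]
  have h1 : ∫ _ in (l + 3)..(l + 4), Rs K δ e et g R f p l ≤
      ∫ x in (l + 3)..(l + 4), 6 * CC * Real.exp (4 * m) * Rs K δ e et g R f p x := by
    refine intervalIntegral.integral_mono_on (by linarith) (by simp)
      ((h.raw.cont_Rs.const_mul _).intervalIntegrable _ _) fun x hx => ?_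
    have hxT : x ≤ T := hx.2.trans hl
    refine (h.Rs_le_Rs hx.1 hxT).trans ?_
    refine mul_le_mul_of_nonneg_right ?_ (h.raw.Rs_nonneg hK hxT)
    have h2 := h.CC1
    refine mul_le_mul_of_nonneg_left (Real.exp_le_exp.2 ?_) (by positivity)
    have h3 := h.m2
    nlinarith [hx.2]
  rw [intervalIntegral.integral_const, smul_eq_mul] at h1
  have e1 : l + 4 - (l + 3) = 1 := by ring
  rw [e1, one_mul] at h1
  exact h1

/-- 504's `RD` -/
theorem rd (h : Ctr m K δ CC A D₀ a T E e et b g R f p P B) :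
    ∃ D₁, Reg1_504.RD A D₀ D₁ a T (Es K δ E e P) (es m K δ E e b g P) (bs m K δ e b g)
      (Rs K δ e et g R f p) (fun _ => 0) (Us K δ E e P B) := by
  obtain ⟨D₁, hD₁⟩ := (isCompact_Icc (a := a) (b := T)).exists_bound_of_continuousOn
    h.raw.cont_es.continuousOn
  have hst : ∀ {q : ℝ → ℝ}, (∀ s t, s ≤ t → t ≤ T → q s ≤ Real.exp ((m - 2) * (t - s)) * q t) →
      (∀ l ≤ T, 0 ≤ q l) → ∀ s ∈ Icc a T, ∀ t ∈ Icc a T, s ≤ t → t ≤ s + 1 → q s ≤ A * q t := by
    intro q hq hq0 s hs t ht h1 h2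
    refine (hq s t h1 ht.2).trans (mul_le_mul_of_nonneg_right ?_ (hq0 t ht.2))
    refine le_trans (Real.exp_le_exp.2 ?_) h.hA
    have := h.m2
    nlinarith
  exact ⟨D₁, h.raw.rd h.K2 h.A1 h.D0 h.tall (fun l hl => h.hB l hl.1 hl.2)
    (fun l hl => (le_abs_self _).trans (hD₁ l hl))
    (fun t ht ht1 => h.hEe t ht.1 ht1.2) (hst h.ce h.raw.e0) (hst h.cg h.raw.g0)
    (fun s _ t ht h1 => h.P_mono h1 ht.2)⟩

/-- field `reg` -/
theorem reg (h : Ctr m K δ CC A D₀ a T E e et b g R f p P B) {l : ℝ} (h1 : a ≤ l)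
    (h2 : l + 1 ≤ T) : es m K δ E e b g P l ≤ 48 * A * (Es K δ E e P l +
      (Us K δ E e P B (l + 1) - Us K δ E e P B l)) := by
  obtain ⟨D₁, hD⟩ := h.rd
  have h3 := hD.e_le (s := l) ⟨h1, by linarith⟩ ⟨by linarith, h2⟩
  have h4 := h.UE h1 (by linarith)
  have h5 := h.A1
  have h6 := h.raw.Us_mono h.K2 (by linarith : l ≤ l + 1) h2
  refine h3.trans ?_
  have h7 : Es K δ E e P l + Us K δ E e P B (l + 1) ≤
      2 * (Es K δ E e P l + (Us K δ E e P B (l + 1) - Us K δ E e P B l)) := by linarith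
  have h8 := mul_le_mul_of_nonneg_left h7 (by positivity : 0 ≤ 24 * A)
  linarith

/-- field `nbr` -/
theorem nbr {E' e' et' b' g' R' f' p' P' B' : ℝ → ℝ}
    (h : Ctr m K δ CC A D₀ a T E e et b g R f p P B)
    (h' : Ctr m K δ CC A D₀ a T E' e' et' b' g' R' f' p' P' B') {CK l : ℝ} (h1 : a ≤ l)
    (h2 : l + 2 ≤ T) (he : e' l ≤ CK * e (l + 2)) (hg : g' l ≤ CK * g (l + 2)) (hCK : 0 ≤ CK) :
    es m K δ E' e' b' g' P' l ≤ (CK + 2 * A) * es m K δ E e b g P (l + 2) := by
  have h3 := h.eb (l := l + 1) (by linarith) (by linarith)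
  have e1 : l + 1 + 1 = l + 2 := by ring
  rw [e1] at h3
  have h4 := h.UE (l := l + 1) (by linarith) (by linarith)
  have h5 := h.U_pos (l := l + 1) (by linarith) (by linarith)
  have h6 : P' l ≤ D₀ := (h'.P_mono (by linarith : l ≤ T) le_rfl).trans h'.PT
  have h7 : P' l ≤ A * es m K δ E e b g P (l + 2) := by linarith
  rw [h'.raw.es_eq (by linarith)]
  have h8 := h.raw.es_eq h2
  have h9 := h.raw.P0 _ h2
  have h10 : 0 ≤ 1 + (2 + m) * K * δ := by
    have := h.raw.K0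
    have := h.raw.δ0
    have := h.m2
    positivity
  have h11 := mul_le_mul_of_nonneg_left he h10
  have h12 : CK * es m K δ E e b g P (l + 2) = CK * ((1 + (2 + m) * K * δ) * e (l + 2) +
      2 * g (l + 2) + 2 * P (l + 2)) := by rw [h8]
  have h13 : 0 ≤ CK * P (l + 2) := mul_nonneg hCK h9
  nlinarith

end Ctr

end Crest.Agent.R234.Fld_387
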