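import Crest.Agent.R234.Fld1_387
import Crest.Agent.R234.Fld2_387
import Crest.Agent.R234.Core2_809

/-!
# Row 234 (helper387): the sharp averaged quantities of a part, `Ctr` and `Core_809.Fld`

`Da` = data (part `W`, projections, weight, averaging radius, the measures `β, γ, b₂`),
`Da.Ok` = its properties, `Da.At` = the hypotheses at one contact centre.
-/

set_option autoImplicit false

open MeasureTheory Set Function Filter Topology Metric
open Crest.GeometryTopology.Submanifold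
open Crest.Agent.R234.Vf_884 Crest.Agent.R234.Ar_870 Crest.Agent.R234.Cy_870
open Crest.Agent.R234.Pot_425 Crest.Agent.R234.Avg_387 Crest.Agent.R234.Rep_387
open Crest.Agent.R234.Raw_387
open scoped ENNReal NNReal InnerProductSpace

noncomputable section

namespace Crest.Agent.R234.Fld_387

variable {m n k : ℕ}

/-- data of the averaged frame of a part `W` -/
structure Da (m n k : ℕ) where
  /-- the part -/
  W : Measure (Euc k × L k)
  /-- horizontal coordinates -/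
  π : Euc k →L[ℝ] Euc m
  /-- vertical coordinates -/
  κ : Euc k →L[ℝ] Euc n
  /-- the profile -/
  w : Wt
  /-- averaging radius -/
  τ : ℝ
  /-- multiplicity -/
  Q : ℝ
  /-- sharpening constant -/
  K : ℝ
  /-- sharpening parameter -/
  δ : ℝ
  /-- first variation parameter of the decaying error -/
  δ' : ℝ
  /-- first measure of the contact problem -/
  β : Measure (XB (Euc m) τ)
  /-- remaining part of the first measure -/
  γ : Measure (XB (Euc m) τ)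
  /-- second measure -/
  b₂ : Measure (XB (Euc m) τ)

namespace Da

variable (D : Da m n k) (x : Euc m)

/-- averaged `E` -/
def E : ℝ → ℝ := EEa (dd m D.τ) D.W D.π D.w.θ D.Q x
/-- averaged `e` -/
def e : ℝ → ℝ := eea (dd m D.τ) D.W D.π D.w.θ x
/-- averaged radial tilt energy -/
def et : ℝ → ℝ := eta (dd m D.τ) D.W D.π D.w.θ' x
/-- averaged `b` -/
def b : ℝ → ℝ := bba (dd m D.τ) D.W D.π D.w.θ D.Q x
/-- averaged `γ^` -/
def g : ℝ → ℝ := hata D.w D.γ x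
/-- averaged `R` -/
def R : ℝ → ℝ := RRa (dd m D.τ) D.W D.π D.w.θ' x
/-- averaged first variation error -/
def f : ℝ → ℝ := fun l => - av (dd m D.τ) (f1 D.W D.π D.w.θ) x l
/-- decaying error -/
def p : ℝ → ℝ := pY D.δ' D.W D.π D.κ D.τ D.w x
/-- primitive of the decaying error -/
def P : ℝ → ℝ := PY D.δ' D.W D.π D.κ D.τ D.w x
/-- contact potential difference -/
def B : ℝ → ℝ := BB D.w D.β (b2s D.b₂ D.W D.π (D.K * m / 2 * D.δ)) x
/-- sharp `E` -/
def Es : ℝ → ℝ := Shp_98.Es D.K D.δ (D.E x) (D.e x) (D.P x)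
/-- sharp `U` -/
def Us : ℝ → ℝ := Shp_98.Us D.K D.δ (D.E x) (D.e x) (D.P x) (D.B x)
/-- sharp `R` -/
def Rs : ℝ → ℝ := Shp_98.Rs D.K D.δ (D.e x) (D.et x) (D.g x) (D.R x) (D.f x) (D.p x)
/-- sharp `b` -/
def bs : ℝ → ℝ := Shp_98.bs m D.K D.δ (D.e x) (D.b x) (D.g x)
/-- sharp `e` -/
def es : ℝ → ℝ := Shp_98.es m D.K D.δ (D.E x) (D.e x) (D.b x) (D.g x) (D.P x)

/-- properties of the data -/
structure Ok (D : Da m n k) (h₀ c₀ K₀ : ℝ) (g2 : ℝ → ℝ) : Prop where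
  m2 : 2 ≤ m
  ff : FF D.W D.π D.κ
  hh : ∀ᵐ p ∂D.W, ‖D.κ p.1‖ ≤ h₀
  τ0 : 0 < D.τ
  prof : Prof D.w.θ D.w.θ' g2
  fβ : IsFiniteMeasure D.β
  fγ : IsFiniteMeasure D.γ
  fb₂ : IsFiniteMeasure D.b₂
  rep : Rep (D.β + D.γ) D.b₂ D.W D.π D.Q
  δ0 : 0 < D.δ
  δ'0 : 0 ≤ D.δ'
  δδ : D.δ' ≤ D.δ
  K2 : 2 ≤ D.K
  c0 : 0 < c₀
  wl : ∀ t, 0 ≤ t → t ≤ 1 / 12 → c₀ ≤ D.w.θ t ∧ c₀ ≤ -D.w.θ' t
  wu : ∀ t, 0 ≤ t → D.w.θ t ≤ K₀ ∧ -D.w.θ' t ≤ K₀

/-- hypotheses at one contact centre, logarithmic scales `l ∈ [a, T]` -/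
structure At (D : Da m n k) (A D₀ a T : ℝ) (x : Euc m) : Prop where
  hT : ‖x‖ + Real.exp T + 2 * D.τ ≤ 1
  hf : ∀ y ∈ closedBall x D.τ, ∀ l ≤ T, |f1 D.W D.π D.w.θ y l| ≤ D.δ' *
    (ee D.W D.π y D.w.θ l + Raw_387.et D.W D.π D.w.θ' y l +
      kk D.W D.π (yc D.κ) D.w.θ y l + kt D.W D.π (yc D.κ) D.w.θ' y l)
  tall : D₀ ≤ D.Us x a
  hB : ∀ l, a ≤ l → l ≤ T → 0 ≤ D.B x l
  hEe : ∀ l, a ≤ l → l + 1 ≤ T → D.E x l ≤ A * D.e x (l + 1)
  PT : D.P x T ≤ D₀

end Da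

/-- averaged bound of the first variation error -/
theorem abs_av_f1_le {W : Measure (Euc k × L k)} {π : Euc k →L[ℝ] Euc m}
    {κ : Euc k →L[ℝ] Euc n} {τ : ℝ} (h : FF W π κ) (hτ : 0 < τ) {w : Wt} {g2 : ℝ → ℝ}
    (hg : Prof w.θ w.θ' g2) {C : ℝ} (hc : Cf W (yc κ) C) {δ' : ℝ} {x : Euc m} {l : ℝ}
    (hf : ∀ y ∈ closedBall x τ, |f1 W π w.θ y l| ≤ δ' * (ee W π y w.θ l +
      et W π w.θ' y l + kk W π (yc κ) w.θ y l + kt W π (yc κ) w.θ' y l)) :
    |av (dd m τ) (f1 W π w.θ) x l| ≤ δ' * (eea (dd m τ) W π w.θ x l +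
      eta (dd m τ) W π w.θ' x l) + pY δ' W π κ τ w x l / 2 := by
  have hd := cw_dd (m := m) hτ
  have hl1 : l < l + 1 := by linarith
  have c0 : CO x τ (l + 1) (fun y l => f1 W π w.θ y l) :=
    CO_of_cont (cont2_f1 h hg) x τ (l + 1)
  have c1 : CO x τ (l + 1) (fun y l => ee W π y w.θ l) :=
    CO_of_cont (cont2_ee' h hg.k0) x τ (l + 1)
  have c2 : CO x τ (l + 1) (fun y l => et W π w.θ' y l) :=
    CO_of_cont (cont2_et h hg) x τ (l + 1)
  have c3 : CO x τ (l + 1) (fun y l => kk W π (yc κ) w.θ y l) :=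
    CO_of_cont (cont2_kk h hc hg.k0) x τ (l + 1)
  have c4 : CO x τ (l + 1) (fun y l => kt W π (yc κ) w.θ' y l) :=
    CO_of_cont (cont2_kt h hc hg) x τ (l + 1)
  have c5 : CO x τ (l + 1) (fun y l => δ' * (ee W π y w.θ l +
    et W π w.θ' y l + kk W π (yc κ) w.θ y l + kt W π (yc κ) w.θ' y l)) :=
    (((c1.add c2).add c3).add c4).const_mul δ'
  have e1 : av (dd m τ) (fun y l => δ' * (ee W π y w.θ l +
    et W π w.θ' y l + kk W π (yc κ) w.θ y l + kt W π (yc κ) w.θ' y l)) x l =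
      δ' * (eea (dd m τ) W π w.θ x l + eta (dd m τ) W π w.θ' x l) +
        pY δ' W π κ τ w x l / 2 := by
    rw [av_const_mul, av_add hd ((c1.add c2).add c3) c4 hl1, av_add hd (c1.add c2) c3 hl1,
      av_add hd c1 c2 hl1]
    unfold pY eea eta
    ring
  have e2 := av_mono hd c0 c5 hl1 fun y hy => (le_abs_self _).trans (hf y hy)
  have e3 := av_mono hd c0.neg c5 hl1 fun y hy => (neg_le_abs _).trans (hf y hy)
  have e4 : av (dd m τ) (fun y l => -f1 W π w.θ y l) x l =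
      - av (dd m τ) (f1 W π w.θ) x l := by
    unfold av
    rw [← integral_neg]
    refine integral_congr_ae (Eventually.of_forall fun y => ?_)
    simp only
    ring
  rw [e1] at e2 e3
  rw [e4] at e3
  have e8 : av (dd m τ) (fun y l => f1 W π w.θ y l) x l = av (dd m τ) (f1 W π w.θ) x l := rfl
  rw [e8] at e2
  rw [abs_le]
  constructor <;> linarith

namespace Da

variable {D : Da m n k} {h₀ c₀ K₀ A D₀ a T : ℝ} {g2 : ℝ → ℝ} {x x' : Euc m}

theorem Ok.K₀0 (ok : D.Ok h₀ c₀ K₀ g2) : c₀ ≤ K₀ :=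
  ((ok.wl 0 le_rfl (by norm_num)).1).trans (ok.wu 0 le_rfl).1

/-- **98's `Raw`** -/
theorem At.raw (ok : D.Ok h₀ c₀ K₀ g2) (hx : D.At A D₀ a T x) :
    Shp_98.Raw m D.K 2 D.δ T (D.E x) (D.e x) (D.et x) (D.b x) (D.g x) (D.R x) (D.f x) (D.p x)
      (D.P x) (D.B x) := by
  have f1 := ok.fβ
  have f2 := ok.fγ
  have f3 := ok.fb₂
  have hm := ok.m2
  refine Raw_387.raw (by lia) ok.ff ok.hh ok.τ0 ok.prof rfl ok.rep ok.δ0 ok.δ'0 ok.δδ
    (by linarith [ok.K2]) hx.hT fun y hy l hl => ?_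
  refine (hx.hf y hy l hl).trans ?_
  have hc := cf_yc (W := D.W) (κ := D.κ) ok.hh
  have h1 : 0 ≤ ee D.W D.π y D.w.θ l := by
    rw [ee_eq_kk ok.ff]
    exact kk_nonneg (cf_tc ok.ff) ok.prof _ _
  have h2 : 0 ≤ Raw_387.et D.W D.π D.w.θ' y l := by
    rw [et_eq_kt ok.ff]
    exact kt_nonneg (cf_tc ok.ff) ok.prof _ _
  have h3 := kk_nonneg (π := D.π) hc ok.prof y l
  have h4 := kt_nonneg (π := D.π) hc ok.prof y l
  have h5 := ok.δ'0
  refine mul_le_mul_of_nonneg_right (by linarith) (by positivity)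

theorem exp_six : Real.exp (-2 * 3) ≤ 1 / 12 := by
  have h1 := Real.exp_one_gt_d9
  have h2 : Real.exp (-2 * 3) = (Real.exp 1 ^ 6)⁻¹ := by
    rw [← Real.exp_nat_mul, ← Real.exp_neg]
    norm_num
  rw [h2]
  have h3 : (12 : ℝ) ≤ Real.exp 1 ^ 6 := by
    have : (2 : ℝ) ^ 6 ≤ Real.exp 1 ^ 6 := pow_le_pow_left₀ (by norm_num) (by linarith) 6
    linarith
  rw [inv_le_comm₀ (by positivity) (by norm_num)]
  linarith

/-- **one averaged contact centre** -/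
theorem At.ctr (ok : D.Ok h₀ c₀ K₀ g2) (hx : D.At A D₀ a T x) (hA : Real.exp ((m:ℝ) - 2) ≤ A)
    (hD₀ : 0 < D₀) (haT : a ≤ T) :
    Ctr m D.K D.δ (K₀ / c₀) A D₀ a T (D.E x) (D.e x) (D.et x) (D.b x) (D.g x) (D.R x) (D.f x)
      (D.p x) (D.P x) (D.B x) := by
  have f1 := ok.fβ
  have f2 := ok.fγ
  have f3 := ok.fb₂
  have hd := cw_dd (m := m) ok.τ0
  have hc := cf_yc (W := D.W) (κ := D.κ) ok.hh
  have hm : (2:ℝ) ≤ m := by exact_mod_cast ok.m2
  have hw : ∀ t, 0 ≤ t → t ≤ Real.exp (-2 * 3) → c₀ ≤ -D.w.θ' t := fun t h1 h2 =>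
    (ok.wl t h1 (h2.trans exp_six)).2
  have hraw := hx.raw ok
  exact
    { raw := hraw
      m2 := hm
      K2 := ok.K2
      hA := hA
      CC1 := (one_le_div ok.c0).2 ok.K₀0
      D0 := hD₀
      aT := haT
      ce := fun s t h1 _ => eea_mono' ok.ff hd ok.prof x h1
      cg := fun s t h1 _ => hata_mono ok.τ0 ok.prof D.γ x h1
      cet := fun s t h1 _ => eta_le ok.ff hd ok.prof (fun t ht => (ok.wu t ht).2) ok.c0 hw x h1
      cR := fun s t h1 _ => RRa_le' ok.ff hd ok.prof (fun t ht => (ok.wu t ht).2) ok.c0 hw x h1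
      cp := fun s t h1 _ => pY_le ok.ff ok.τ0 ok.prof hc ok.δ'0 (fun t ht => (ok.wu t ht).2)
        ok.c0 hw (by norm_num) x h1
      hf := fun l hl => by
        have h1 := abs_av_f1_le ok.ff ok.τ0 ok.prof hc (δ' := D.δ') (x := x) (l := l)
          fun y hy => hx.hf y hy l hl
        have h2 : |D.f x l| = |av (dd m D.τ) (Avg_387.f1 D.W D.π D.w.θ) x l| := by
          unfold Da.f
          rw [abs_neg]
        rw [h2]
        refine h1.trans ?_
        have h3 : D.δ' * (D.e x l + D.et x l) ≤ D.δ * (D.e x l + D.et x l) :=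
          mul_le_mul_of_nonneg_right ok.δδ (add_nonneg (hraw.e0 l hl) (hraw.et0 hl))
        have h4 : D.δ' * (eea (dd m D.τ) D.W D.π D.w.θ x l +
          eta (dd m D.τ) D.W D.π D.w.θ' x l) = D.δ' * (D.e x l + D.et x l) := rfl
        have h5 : pY D.δ' D.W D.π D.κ D.τ D.w x l = D.p x l := rfl
        rw [h4, h5]
        linarith
      tall := hx.tall
      hB := hx.hB
      hEe := hx.hEe
      PT := hx.PT }

/-- the comparison constant of two centres -/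
def CK (m : ℕ) (c₀ K₀ : ℝ) : ℝ := (K₀ / c₀) * Real.exp (((m:ℝ) - 2) * 2)

theorem exp_two_le : (1 + 1) * Real.exp (-2) ≤ 0.28 := by
  have h1 := Real.exp_one_gt_d9
  have h2 : Real.exp (-2) = (Real.exp 1 ^ 2)⁻¹ := by
    rw [← Real.exp_nat_mul, ← Real.exp_neg]
    norm_num
  rw [h2]
  have h3 : (7.38 : ℝ) ≤ Real.exp 1 ^ 2 := by nlinarith
  have h4 : (Real.exp 1 ^ 2)⁻¹ ≤ (7.38 : ℝ)⁻¹ := inv_anti₀ (by norm_num) h3
  norm_num at h4 ⊢
  linarith

theorem e_change (ok : D.Ok h₀ c₀ K₀ g2) {l : ℝ} (hx : ‖x' - x‖ ≤ Real.exp l) :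
    D.e x' l ≤ CK m c₀ K₀ * D.e x (l + 2) := by
  refine eea_change' ok.ff (cw_dd ok.τ0) ok.prof (fun t ht => (ok.wu t ht).1) ok.c0
    (r := 0.28) (by norm_num) (fun t h1 h2 => (ok.wl t h1 (h2.trans (by norm_num))).1)
    zero_le_one exp_two_le (by rwa [one_mul])

theorem g_change (ok : D.Ok h₀ c₀ K₀ g2) {l : ℝ} (hx : ‖x' - x‖ ≤ Real.exp l) :
    D.g x' l ≤ CK m c₀ K₀ * D.g x (l + 2) := by
  have f2 := ok.fγ
  refine hata_change ok.τ0 ok.prof D.γ (fun t ht => (ok.wu t ht).1) ok.c0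
    (r := 0.28) (by norm_num) (fun t h1 h2 => (ok.wl t h1 (h2.trans (by norm_num))).1)
    zero_le_one exp_two_le (by rwa [one_mul])

theorem CK_nonneg (ok : D.Ok h₀ c₀ K₀ g2) : 0 ≤ CK m c₀ K₀ := by
  unfold CK
  have h1 := ok.c0
  have h2 := ok.K₀0
  have h3 : 0 ≤ K₀ / c₀ := div_nonneg (by linarith) h1.le
  positivity

/-! ### measurability in the centre -/

theorem cont2_Es (ok : D.Ok h₀ c₀ K₀ g2) : Continuous (uncurry D.Es) := by
  have hd := cw_dd (m := m) ok.τ0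
  have hc := cf_yc (W := D.W) (κ := D.κ) ok.hh
  exact ((continuous_av2 hd (cont2_EE' ok.ff ok.prof.k0 D.Q)).add
    ((continuous_av2 hd (cont2_ee' ok.ff ok.prof.k0)).const_mul (D.K * D.δ))).add
    (cont2_PY ok.ff ok.τ0 ok.prof hc D.δ')

theorem cont2_Us (ok : D.Ok h₀ c₀ K₀ g2) : Continuous (uncurry D.Us) := by
  have f1 := ok.fβ
  have f3 := ok.fb₂
  have hc0 : 0 ≤ D.K * m / 2 * D.δ := by
    have := ok.K2
    have := ok.δ0
    positivity
  have hft := finite_tm (τ := D.τ) ok.ff hc0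
  have hfs : IsFiniteMeasure (b2s D.b₂ D.W D.π (D.K * m / 2 * D.δ)) := by
    unfold b2s; infer_instance
  exact (cont2_Es ok).sub ((cont2_BB ok.τ0 D.w).const_mul 2)

theorem cont2_es (ok : D.Ok h₀ c₀ K₀ g2) : Continuous (uncurry D.es) := by
  have f2 := ok.fγ
  have hd := cw_dd (m := m) ok.τ0
  have hb : Continuous (uncurry D.bs) :=
    ((continuous_av2 hd (cont2_bb' ok.ff ok.prof.k0 D.Q)).sub (cont2_hata ok.τ0 D.w D.γ)).sub
      ((continuous_av2 hd (cont2_ee' ok.ff ok.prof.k0)).const_mul (D.K * m / 2 * D.δ))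
  exact ((cont2_Es ok).const_mul 2).sub (hb.const_mul 2)

theorem meas_of_cont2 {q : Euc m → ℝ → ℝ} (h : Continuous (uncurry q)) (l : ℝ) :
    Measurable fun x => q x l := by
  have h2 : Continuous fun x : Euc m => (x, l) := by fun_prop
  exact (h.comp h2).measurable

end Da

/-! ### shift of the time -/

/-- shift of `PtDat` -/
theorem ptDat_shift {ι : Type*} {q : ι → ℝ} {κ a0 T q1 L₀ : ℝ} {U E R : ℝ → ℝ}
    {eF IF er : ι → ℝ → ℝ} (h : Core_809.PtDat q κ (L₀ + a0) (L₀ + T) q1 U E R eF IF er) :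
    Core_809.PtDat q κ a0 T q1 (fun t => U (L₀ + t)) (fun t => E (L₀ + t))
      (fun t => R (L₀ + t)) (fun w t => eF w (L₀ + t)) (fun w t => IF w (L₀ + t))
      (fun w t => er w (L₀ + t)) := by
  have hmem : ∀ {t : ℝ}, t ∈ Icc a0 T → L₀ + t ∈ Icc (L₀ + a0) (L₀ + T) := fun {t} ht =>
    ⟨by linarith [ht.1], by linarith [ht.2]⟩
  have hint : ∀ {f : ℝ → ℝ}, IntervalIntegrable f volume (L₀ + a0) (L₀ + T) →
      IntervalIntegrable (fun t => f (L₀ + t)) volume a0 T := fun {f} hf => by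
    have := hf.comp_add_left L₀
    simpa using this
  have hae : ∀ {P : ℝ → Prop}, (∀ᵐ t, P t) → ∀ᵐ t, P (L₀ + t) := fun {P} hP =>
    (measurePreserving_add_left (volume : Measure ℝ) L₀).quasiMeasurePreserving.ae hP
  refine
    { haT := by linarith [h.haT]
      k0 := h.k0
      Upos := h.Upos
      hR := hint h.hR
      hU := fun x hx => ?_
      Rnn := ?_
      UE := fun x hx => h.UE _ (hmem hx)
      Em := h.Em.comp (measurable_const_add L₀)
      Inn := fun w x hx => h.Inn w _ (hmem hx)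
      he := fun w hw => hint (h.he w hw)
      hρ := fun w hw => hint (h.hρ w hw)
      hI := fun w hw x hx => ?_
      cs := fun w hw => ?_
      rho := fun w hw => ?_ }
  · have h1 := h.hU _ (hmem hx)
    rw [intervalIntegral.integral_comp_add_left]
    exact h1
  · filter_upwards [hae h.Rnn] with t ht1 ht2
    exact ht1 (hmem ht2)
  · have h1 := h.hI w hw _ (hmem hx)
    rw [intervalIntegral.integral_comp_add_left (fun t => 2 * eF w t + er w t)]
    exact h1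
  · filter_upwards [hae (h.cs w hw)] with t ht1 ht2
    exact ht1 (hmem ht2)
  · filter_upwards [hae (h.rho w hw)] with t ht1 ht2
    exact ht1 (hmem ht2)

/-- **`Core_809.Fld` for the sharp averaged quantities**, `t = l - L₀`, `e^{L₀} = 2 r₀`; the well
part (`hpt`, `hcs`) is a hypothesis. -/
theorem fld {d : ℕ} {D : Da (d + 2) n k} {h₀ c₀ K₀ : ℝ} {g2 : ℝ → ℝ} (ok : D.Ok h₀ c₀ K₀ g2)
    {Z : Set (Euc (d + 2))} {A D₀ r0 L₀ a0 T κ' q1 : ℝ} {ι : Type*} {q : ι → ℝ}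
    (hA : Real.exp d ≤ A) (hD₀ : 0 < D₀) (hr : Real.exp L₀ = 2 * r0) (haT : a0 ≤ T)
    (hZ : ∀ x ∈ Z, D.At A D₀ (L₀ + a0 - 1) (L₀ + T) x)
    {eF IF er : Euc (d + 2) → ι → ℝ → ℝ}
    (hpt : ∀ x ∈ Z, Core_809.PtDat q κ' (L₀ + a0) (L₀ + T) q1 (D.Us x) (D.Es x) (D.Rs x)
      (eF x) (IF x) (er x))
    (hcs : ∀ x ∈ Z, ∀ w, q w ^ 2 ≤ q1 → ∀ l ∈ Icc (L₀ + a0) (L₀ + T),
      eF x w l ^ 2 ≤ D.Rs x l * IF x w l + κ' * D.Us x l ^ 2) :
    Core_809.Fld Z q d κ' a0 T q1 r0 (48 * A)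
      (6 * (K₀ / c₀) * Real.exp (4 * ((d + 2 : ℕ) : ℝ))) A (Da.CK (d + 2) c₀ K₀ + 2 * A)
      (fun x t => D.Us x (L₀ + t)) (fun x t => D.Es x (L₀ + t)) (fun x t => D.Rs x (L₀ + t))
      (fun x t => D.es x (L₀ + t)) (fun x w t => eF x w (L₀ + t))
      (fun x w t => IF x w (L₀ + t)) (fun x w t => er x w (L₀ + t)) := by
  have hm : (((d + 2 : ℕ) : ℝ) - 2) = d := by push_cast; ring
  have hctr : ∀ x ∈ Z, _ := fun x hx => (hZ x hx).ctr ok (by rw [hm]; exact hA) hD₀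
    (by linarith)
  refine
    { pt := fun x hx => ptDat_shift (hpt x hx)
      cs := fun x hx w hw t ht => hcs x hx w hw _ ⟨by linarith [ht.1], by linarith [ht.2]⟩
      epos := fun x hx t ht => (hctr x hx).epos (by linarith [ht.1]) (by linarith [ht.2])
      reg := fun x hx t h1 h2 => ?_
      qm := fun x hx t t' h1 h2 h3 => ?_
      rr := fun x hx t h1 h2 => ?_
      eb := fun x hx t h1 h2 => ?_
      nbr := fun x hx x' hx' t h1 h2 h3 => ?_
      me := fun t => Da.meas_of_cont2 (Da.cont2_es ok) (L₀ + t)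
      mU := fun t => Da.meas_of_cont2 (Da.cont2_Us ok) (L₀ + t) }
  · have h3 := (hctr x hx).reg (l := L₀ + t) (by linarith) (by linarith)
    have e1 : L₀ + t + 1 = L₀ + (t + 1) := by ring
    rw [e1] at h3
    exact h3
  · have h4 := (hctr x hx).qm (s := L₀ + t) (t := L₀ + t') (by linarith) (by linarith)
    have e1 : (((d + 2 : ℕ) : ℝ) - 2) * (L₀ + t' - (L₀ + t)) = d * (t' - t) := by
      rw [hm]; ring
    rw [e1] at h4
    exact h4
  · have h3 := (hctr x hx).rr (l := L₀ + t) (by linarith)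
    have e1 : L₀ + t + 4 = L₀ + (t + 4) := by ring
    have e2 : L₀ + t + 3 = L₀ + (t + 3) := by ring
    rw [e1, e2] at h3
    exact h3
  · have h3 := (hctr x hx).eb (l := L₀ + t) (by linarith) (by linarith)
    have e1 : L₀ + t + 1 = L₀ + (t + 1) := by ring
    rw [e1] at h3
    exact h3
  · have h4 : ‖x' - x‖ ≤ Real.exp (L₀ + t) := by
      rw [Real.exp_add, hr, ← dist_eq_norm, dist_comm]
      exact h3
    have h5 := (hctr x hx).nbr (hctr x' hx') (l := L₀ + t) (by linarith) (by linarith)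
      (Da.e_change ok h4) (Da.g_change ok h4) (Da.CK_nonneg ok)
    have e1 : L₀ + t + 2 = L₀ + (t + 2) := by ring
    rw [e1] at h5
    exact h5

/-- pointwise lower bound of the sharp energy density (for BDS) -/
theorem le_es_fld {d : ℕ} {D : Da (d + 2) n k} {h₀ c₀ K₀ : ℝ} {g2 : ℝ → ℝ}
    (ok : D.Ok h₀ c₀ K₀ g2) {x : Euc (d + 2)} {A D₀ L₀ a0 T : ℝ}
    (hA : Real.exp d ≤ A) (hD₀ : 0 < D₀) (haT : a0 ≤ T)
    (hx : D.At A D₀ (L₀ + a0 - 1) (L₀ + T) x) {t : ℝ} (ht : t ∈ Icc a0 T) :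
    D₀ / A ≤ D.es x (L₀ + t) := by
  have hm : (((d + 2 : ℕ) : ℝ) - 2) = d := by push_cast; ring
  exact (hx.ctr ok (by rw [hm]; exact hA) hD₀ (by linarith)).le_es (by linarith [ht.1])
    (by linarith [ht.2])

end Crest.Agent.R234.Fld_387
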