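import Crest.Agent.R234.Bds2_214
import Crest.Agent.R234.Fld3_387

/-!
# Row 234, BDS part 3 (helper214): the bounds of `Core_809.CBase` at one centre, over helper387's
`Da`, `Ok`, `At`

Hypotheses at the centre `x`: `At A D₀ a T x`, `P x T ≤ D₀ / (4 A)` and the upper bound
`e x l ≤ V` on `[a, T]` (Caccioppoli at the window scales).  All constants are functions of
`m, K, A, c₀, K₀`.
-/

set_option autoImplicit false

open MeasureTheory Set Function Filter Topology Metric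
open Crest.GeometryTopology.Submanifold
open Crest.Agent.R234.Vf_884 Crest.Agent.R234.Ar_870 Crest.Agent.R234.Cy_870
open Crest.Agent.R234.Pot_425 Crest.Agent.R234.Avg_387 Crest.Agent.R234.Rep_387
open Crest.Agent.R234.Raw_387 Crest.Agent.R234.Fld_387
open Crest.Agent.R234.N5_372 (eM)
open scoped ENNReal NNReal InnerProductSpace

noncomputable section

namespace Crest.Agent.R234.Bds_214

variable {m n k : ℕ} {D : Da m n k} {h₀ c₀ K₀ A D₀ a T : ℝ} {g2 : ℝ → ℝ} {x : Euc m}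

/-- the decaying error is monotone in the scale -/
theorem P_mono (ok : D.Ok h₀ c₀ K₀ g2) (hx : D.At A D₀ a T x) {s t : ℝ} (hst : s ≤ t)
    (ht : t ≤ T) : D.P x s ≤ D.P x t := by
  have hr := hx.raw ok
  have h1 : MonotoneOn (D.P x) (Iic T) := by
    refine monotoneOn_of_deriv_nonneg (convex_Iic T) hr.cP.continuousOn
      (fun x hx => ?_) (fun x hx => ?_)
    · rw [interior_Iic] at hx
      exact (hr.dP x (le_of_lt hx)).differentiableAt.differentiableWithinAt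
    · rw [interior_Iic] at hx
      rw [(hr.dP x (le_of_lt hx)).deriv]
      exact hr.p0 x (le_of_lt hx)
  exact h1 (hst.trans ht) ht hst

/-- **restriction of the window** -/
theorem At_mono (ok : D.Ok h₀ c₀ K₀ g2) (hx : D.At A D₀ a T x) {a' T' : ℝ} (ha : a ≤ a')
    (haT : a' ≤ T') (hT : T' ≤ T) : D.At A D₀ a' T' x where
  hT := by
    have h1 := Real.exp_le_exp.2 hT
    have h2 := hx.hT
    linarith
  hf := fun y hy l hl => hx.hf y hy l (hl.trans hT)
  tall := hx.tall.trans ((hx.raw ok).Us_mono ok.K2 ha (haT.trans hT))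
  hB := fun l h1 h2 => hx.hB l (ha.trans h1) (h2.trans hT)
  hEe := fun l h1 h2 => hx.hEe l (ha.trans h1) (h2.trans hT)
  PT := (P_mono ok hx hT le_rfl).trans hx.PT

theorem qm_of (ok : D.Ok h₀ c₀ K₀ g2) (hx : D.At A D₀ a T x) (hA : Real.exp ((m : ℝ) - 2) ≤ A)
    (hD₀ : 0 < D₀) (haT : a ≤ T) : Qm A a T (D.E x) (D.e x) (D.g x) (D.P x) := by
  have hc := hx.ctr ok hA hD₀ haT
  have hm : (2 : ℝ) ≤ m := hc.m2
  have hst : ∀ {q : ℝ → ℝ}, (∀ s t, s ≤ t → t ≤ T → q s ≤ Real.exp ((m - 2) * (t - s)) * q t) →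
      (∀ l ≤ T, 0 ≤ q l) → ∀ s t, a ≤ s → s ≤ t → t ≤ s + 1 → t ≤ T → q s ≤ A * q t := by
    intro q hq hq0 s t _ h1 h2 ht
    refine (hq s t h1 ht).trans (mul_le_mul_of_nonneg_right ?_ (hq0 t ht))
    refine le_trans (Real.exp_le_exp.2 ?_) hA
    nlinarith
  exact ⟨hc.A1, hst hc.ce hc.raw.e0, hst hc.cg hc.raw.g0, fun s t _ h1 h2 => hc.P_mono h1 h2,
    hx.hEe⟩

/-- the constant of `es` -/
def Ce (m : ℕ) (K A : ℝ) : ℝ := 1 + (2 + m) * K + 3 * A * (A + K)

/-- **bounds of the sharp quantities at one centre** -/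
structure Pt (D : Da m n k) (V A D₀ a T : ℝ) (x : Euc m) : Prop where
  Ulow : ∀ l, a ≤ l → l ≤ T → D₀ ≤ D.Us x l
  elow : ∀ l, a + 1 ≤ l → l ≤ T → D₀ / A ≤ D.es x l
  eglow : ∀ l, a + 1 ≤ l → l ≤ T → D₀ / (2 * A * (2 + (2 + m) * D.K)) ≤ D.e x l + D.g x l
  DV : D₀ ≤ 2 * (A + D.K) * V
  Eup : ∀ l, a ≤ l → l + 1 ≤ T → D.Es x l ≤ 2 * (A + D.K) * V
  Uup : ∀ l, a ≤ l → l + 1 ≤ T → D.Us x l ≤ 2 * (A + D.K) * V
  Bup : ∀ l, a ≤ l → l + 1 ≤ T → D.B x l ≤ (A + D.K) * V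
  eup : ∀ l, a ≤ l → l + 2 ≤ T → D.es x l ≤ Ce m D.K A * V

theorem pt (ok : D.Ok h₀ c₀ K₀ g2) (hx : D.At A D₀ a T x) (hA : Real.exp ((m : ℝ) - 2) ≤ A)
    (hD₀ : 0 < D₀) (haT : a + 1 ≤ T) (hδ : D.δ ≤ 1) {V : ℝ}
    (he : ∀ l, a ≤ l → l ≤ T → D.e x l ≤ V) (hP : D.P x T ≤ D₀ / (4 * A)) :
    Pt D V A D₀ a T x := by
  have hc := hx.ctr ok hA hD₀ (by linarith)
  have hq := qm_of ok hx hA hD₀ (by linarith)
  have hr := hx.raw ok
  have hA1 : 1 ≤ A := hc.A1
  have hK : 2 ≤ D.K := ok.K2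
  have hδ0 : 0 < D.δ := ok.δ0
  have hm : (2 : ℝ) ≤ m := hc.m2
  have hPl : ∀ l, l ≤ T → D.P x l ≤ D₀ / (4 * A) := fun l hl => (P_mono ok hx hl le_rfl).trans hP
  have hP4 : D₀ / (4 * A) ≤ D₀ / 4 := by
    apply div_le_div_of_nonneg_left hD₀.le (by norm_num)
    linarith
  have hV : 0 ≤ V := (hr.e0 a (by linarith)).trans (he a le_rfl (by linarith))
  have hUl : ∀ l, a ≤ l → l ≤ T → D₀ ≤ D.Us x l := fun l h1 h2 => hc.U_pos h1 h2
  have hE1 : ∀ l, a ≤ l → l + 1 ≤ T → D.Es x l ≤ (A + D.K) * V + D₀ / 4 := by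
    intro l h1 h2
    have h3 := hx.hEe l h1 h2
    have h4 := he (l + 1) (by linarith) h2
    have h5 := he l h1 (by linarith)
    have h6 := (hPl l (by linarith)).trans hP4
    have h7 : D.Es x l = D.E x l + D.K * D.δ * D.e x l + D.P x l := by
      unfold Da.Es Shp_98.Es
      ring
    have h8 : D.K * D.δ * D.e x l ≤ D.K * V := by
      have a1 : D.δ * D.e x l ≤ 1 * V :=
        mul_le_mul hδ h5 (hr.e0 l (by linarith)) zero_le_one
      calc D.K * D.δ * D.e x l = D.K * (D.δ * D.e x l) := by ring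
        _ ≤ D.K * (1 * V) := mul_le_mul_of_nonneg_left a1 (by linarith)
        _ = D.K * V := by ring
    have h9 : A * D.e x (l + 1) ≤ A * V := mul_le_mul_of_nonneg_left h4 (by linarith)
    rw [h7]
    linarith
  have hUE : ∀ l, a ≤ l → l ≤ T → D.Us x l ≤ D.Es x l := fun l h1 h2 => hc.UE h1 h2
  have hDV : D₀ ≤ 4 / 3 * ((A + D.K) * V) := by
    have h1 := hUl a le_rfl (by linarith)
    have h2 := hUE a le_rfl (by linarith)
    have h3 := hE1 a le_rfl haT
    linarith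
  have hAKV : 0 ≤ (A + D.K) * V := mul_nonneg (by linarith) hV
  have hEup : ∀ l, a ≤ l → l + 1 ≤ T → D.Es x l ≤ 2 * (A + D.K) * V := by
    intro l h1 h2
    have h3 := hE1 l h1 h2
    linarith
  have hUup : ∀ l, a ≤ l → l + 1 ≤ T → D.Us x l ≤ 2 * (A + D.K) * V := fun l h1 h2 =>
    (hUE l h1 (by linarith)).trans (hEup l h1 h2)
  have hel : ∀ l, a + 1 ≤ l → l ≤ T → D₀ / A ≤ D.es x l := fun l h1 h2 => hc.le_es h1 h2
  refine ⟨hUl, hel, ?_, by linarith, hEup, hUup, ?_, ?_⟩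
  · intro l h1 h2
    have h3 := hel l h1 h2
    have h4 : D.es x l = (1 + (2 + m) * D.K * D.δ) * D.e x l + 2 * D.g x l + 2 * D.P x l :=
      hr.es_eq h2
    rw [h4] at h3
    have h5 := hPl l h2
    have h6 := hr.e0 l h2
    have h7 := hr.g0 l h2
    have h8 : (1 + (2 + m) * D.K * D.δ) * D.e x l ≤ (1 + (2 + m) * D.K) * D.e x l := by
      apply mul_le_mul_of_nonneg_right _ h6
      have : (2 + (m : ℝ)) * D.K * D.δ ≤ (2 + m) * D.K * 1 :=
        mul_le_mul_of_nonneg_left hδ (by positivity)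
      linarith
    have h9 : D₀ / A = 4 * (D₀ / (4 * A)) := by
      field_simp
    have h10 : D₀ / (2 * A * (2 + (2 + m) * D.K)) = 2 * (D₀ / (4 * A)) / (2 + (2 + m) * D.K) := by
      field_simp
      norm_num
    have hpos : 0 < 2 + (2 + (m : ℝ)) * D.K := by positivity
    rw [h10, div_le_iff₀ hpos]
    have h11 : 0 ≤ (2 + (m : ℝ)) * D.K * D.g x l := by
      have : 0 ≤ D.g x l := h7
      positivity
    have h12 : 0 ≤ D.e x l := h6
    have h13 : D.P x l ≤ D₀ / (4 * A) := h5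
    nlinarith
  · intro l h1 h2
    have h3 := hEup l h1 h2
    have h4 := hUl l h1 (by linarith)
    have h5 : D.Us x l = D.Es x l - 2 * D.B x l := rfl
    linarith
  · intro l h1 h2
    have h4 : D.es x l = (1 + (2 + m) * D.K * D.δ) * D.e x l + 2 * D.g x l + 2 * D.P x l :=
      hr.es_eq (by linarith)
    have hU0 : ∀ l, a ≤ l → l ≤ T → 0 ≤ Shp_98.Us D.K D.δ (D.E x) (D.e x) (D.P x) (D.B x) l :=
      fun l h1 h2 => hD₀.le.trans (hUl l h1 h2)
    have h5 : 2 * D.g x l ≤ A * D.Us x (l + 1) :=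
      g_up hr hq hK hU0 h1 (by linarith)
    have h6 := hUup (l + 1) (by linarith) (by linarith)
    have h7 := he l h1 (by linarith)
    have h8 := (hPl l (by linarith)).trans hP4
    have h9 : (1 + (2 + m) * D.K * D.δ) * D.e x l ≤ (1 + (2 + m) * D.K) * V := by
      have a1 : (2 + (m : ℝ)) * D.K * D.δ ≤ (2 + m) * D.K * 1 :=
        mul_le_mul_of_nonneg_left hδ (by positivity)
      exact mul_le_mul (by linarith) h7 (hr.e0 l (by linarith)) (by positivity)
    have h10 : A * D.Us x (l + 1) ≤ A * (2 * (A + D.K) * V) :=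
      mul_le_mul_of_nonneg_left h6 (by linarith)
    have h11 : (A + D.K) * V ≤ A * ((A + D.K) * V) := le_mul_of_one_le_left hAKV hA1
    rw [h4]
    unfold Ce
    nlinarith

/-! ### balls -/

theorem exp_pow_sub (hm : 2 ≤ m) (l : ℝ) :
    Real.exp ((2 - m) * l) * Real.exp l ^ (m - 2) = 1 := by
  rw [← Real.exp_nat_mul, ← Real.exp_add, Nat.cast_sub hm]
  have : (2 - (m : ℝ)) * l + ((m : ℝ) - ((2 : ℕ) : ℝ)) * l = 0 := by push_cast; ring
  rw [this, Real.exp_zero]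

/-- the constant of the upper bound of `ε` -/
def Cε (m : ℕ) (K A c₀ : ℝ) : ℝ := (A + K) / (Md m * c₀) * 24 ^ (m - 2)

/-- **upper bound of the contact measure on a ball** -/
theorem eps_up (ok : D.Ok h₀ c₀ K₀ g2) {V : ℝ} (hp : Pt D V A D₀ a T x)
    {ε : Measure (XB (Euc m) D.τ)} [IsFiniteMeasure ε]
    (hss : ∀ l, a ≤ l → l ≤ T → SS m D.τ D.w ε x (Real.exp l) ≤ D.B x l)
    {s : ℝ} (hs : 0 < s) (hτs : D.τ ≤ s) (h1 : a ≤ Real.log (8 * s) + 1)
    (h2 : Real.log (8 * s) + 2 ≤ T) :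
    ε.real (bal D.τ x s) ≤ Cε m D.K A c₀ * V * s ^ (m - 2) := by
  have hm := ok.m2
  have hM : 0 < Md m := Md_pos (by omega)
  have hc := ok.c0
  set l := Real.log (8 * s) with hl
  have hel : Real.exp l = 8 * s := Real.exp_log (by positivity)
  have h3 := ball_le_SS hm ok.τ0 D.w ε x (s := s) (l := l) (c₀ := c₀) (r := 1 / 4)
    (by norm_num) hc.le (fun u hu hu2 => (ok.wl u hu (hu2.trans (by norm_num))).1)
    (by rw [hel]; linarith)
  have h4 := hss (l + 1) h1 (by linarith)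
  have h5 := hp.Bup (l + 1) h1 (by linarith)
  have h6 : Md m * c₀ * Real.exp ((2 - m) * (l + 1)) * ε.real (bal D.τ x s) ≤ (A + D.K) * V :=
    h3.trans (h4.trans h5)
  have h7 := exp_pow_sub hm (l + 1)
  have h8 : Real.exp (l + 1) ≤ 24 * s := by
    rw [Real.exp_add, hel]
    have := Real.exp_one_lt_d9
    nlinarith
  have h9 : Real.exp (l + 1) ^ (m - 2) ≤ (24 * s) ^ (m - 2) :=
    pow_le_pow_left₀ (Real.exp_pos _).le h8 _
  have h0 : 0 ≤ ε.real (bal D.τ x s) := measureReal_nonneg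
  have h10 : Md m * c₀ * ε.real (bal D.τ x s) =
      (Md m * c₀ * Real.exp ((2 - m) * (l + 1)) * ε.real (bal D.τ x s)) *
        Real.exp (l + 1) ^ (m - 2) := by
    symm
    calc _ = Md m * c₀ * ε.real (bal D.τ x s) *
          (Real.exp ((2 - m) * (l + 1)) * Real.exp (l + 1) ^ (m - 2)) := by ring
      _ = _ := by rw [h7, mul_one]
  have h11 : 0 ≤ (A + D.K) * V := by
    refine le_trans ?_ h6
    positivity
  have h12 : Md m * c₀ * ε.real (bal D.τ x s) ≤ (A + D.K) * V * (24 * s) ^ (m - 2) := by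
    rw [h10]
    exact mul_le_mul h6 h9 (by positivity) h11
  have h13 : Cε m D.K A c₀ * V * s ^ (m - 2) =
      (A + D.K) * V * (24 * s) ^ (m - 2) / (Md m * c₀) := by
    unfold Cε
    rw [mul_pow]
    field_simp
  rw [h13, le_div_iff₀ (by positivity)]
  linarith

/-- the constant of the lower bound of `μ` -/
def cμ (m : ℕ) (K A K₀ : ℝ) : ℝ := 1 / (2 * A * (2 + (2 + m) * K) * (Md m * K₀) * 2 ^ (m - 2))

/-- **lower bound of `μ` on a ball** -/
theorem mu_low (ok : D.Ok h₀ c₀ K₀ g2) {V : ℝ} (hp : Pt D V A D₀ a T x) (hA : 0 < A)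
    (hD₀ : 0 < D₀) {s : ℝ} (hs : 0 < s) (hτs : D.τ ≤ s / 2) (h1 : a + 1 ≤ Real.log (s / 2))
    (h2 : Real.log (s / 2) ≤ T) :
    cμ m D.K A K₀ * D₀ * s ^ (m - 2) ≤ (muB D.W D.π D.γ).real (closedBall x s) := by
  have hm := ok.m2
  have hM : 0 < Md m := Md_pos (by omega)
  have hK₀ : 0 < K₀ := ok.c0.trans_le ok.K₀0
  have hK := ok.K2
  have f2 := ok.fγ
  set l := Real.log (s / 2) with hl
  have hel : Real.exp l = s / 2 := Real.exp_log (by positivity)
  have h3 := muB_low ok.ff ok.τ0 (w := D.w) D.γ x (s := s) (l := l) (Kθ := K₀)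
    (fun u hu => (ok.wu u hu).1) (by rw [hel]; linarith)
  have h4 := hp.eglow l h1 h2
  have h5 : D₀ / (2 * A * (2 + (2 + m) * D.K)) ≤
      Md m * K₀ * Real.exp ((2 - m) * l) * (muB D.W D.π D.γ).real (closedBall x s) :=
    h4.trans h3
  have h7 := exp_pow_sub hm l
  have h8 := mul_le_mul_of_nonneg_right h5 (by positivity : 0 ≤ Real.exp l ^ (m - 2))
  have h9 : Md m * K₀ * Real.exp ((2 - m) * l) * (muB D.W D.π D.γ).real (closedBall x s) *
      Real.exp l ^ (m - 2) = Md m * K₀ * (muB D.W D.π D.γ).real (closedBall x s) := by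
    calc _ = Md m * K₀ * (muB D.W D.π D.γ).real (closedBall x s) *
        (Real.exp ((2 - m) * l) * Real.exp l ^ (m - 2)) := by ring
      _ = _ := by rw [h7, mul_one]
  rw [h9, hel] at h8
  have hpos : 0 < 2 + (2 + (m : ℝ)) * D.K := by positivity
  have h10 : cμ m D.K A K₀ * D₀ * s ^ (m - 2) =
      D₀ / (2 * A * (2 + (2 + m) * D.K)) * (s / 2) ^ (m - 2) / (Md m * K₀) := by
    unfold cμ
    rw [div_pow]
    field_simp
  rw [h10, div_le_iff₀ (by positivity)]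
  linarith

end Crest.Agent.R234.Bds_214
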