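import Crest.Agent.R234.Crs5_173

/-!
# Row 234, N0-COARSE, part 6 (helper173): all scales `≥ A h₀`, and the set form of TH3

`energy`    : mass and energy at scales `≥ h₀`.
`chain_all` : `∫_{B_r(x)} |N - Q| ≤ ε r^m` down to the scale up to which the steep energy is small.
`coarse`    : (c) of 309 #7283.
`set_form`  : (d) of 309 #7283.
-/

set_option autoImplicit false

open MeasureTheory Set Function Filter Topology Metric
open Crest.GeometryTopology.Submanifold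
open Crest.Agent.R234.Vf_884 Crest.Agent.R234.Ar_870 Crest.Agent.R234.Cy_870
open Crest.Agent.R234.AS_456 (AS errA err hp vp)
open Crest.Agent.R234.Asl_214 Crest.Agent.R234.Th_164
open scoped ENNReal NNReal InnerProductSpace

noncomputable section

namespace Crest.Agent.R234.Crs_173

variable {m n k : ℕ} {π : Euc k →L[ℝ] Euc m} {κ : Euc k →L[ℝ] Euc n} {δ : ℝ}
  {x₀ x : Euc m} {R h₀ : ℝ} {W : Measure (Euc k × L k)} {N : Euc m → ℝ≥0∞}

/-- mass and energy at scales `≥ h₀` -/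
theorem energy (m : ℕ) {C₀ : ℝ} (hC₀ : 0 ≤ C₀) : ∃ C : ℝ, 1 ≤ C ∧ ∀ {n k : ℕ}
    {π : Euc k →L[ℝ] Euc m} {κ : Euc k →L[ℝ] Euc n} {W : Measure (Euc k × L k)} {h₀ δ : ℝ},
    CylAS W π κ 0 4 h₀ δ →
    (∀ (z : Euc k) (r : ℝ), 0 < r → r ≤ 1 → W.real (closedBall z r ×ˢ univ) ≤ C₀ * r ^ m) →
    0 ≤ δ → δ ≤ 1 / 16 → ∀ x ∈ closedBall (0 : Euc m) 3, ∀ r, 0 < r → h₀ ≤ r → r ≤ 1 / 4 →
      MB W π x r ≤ C * r ^ m ∧ TB W π x r ≤ C * (h₀ / r) ^ 2 * r ^ m := by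
  obtain ⟨Ca, hCa, hcacc⟩ := cacc m
  refine ⟨Ca * (C₀ + 1) * 4 ^ m, ?_, ?_⟩
  · have h1 : (1 : ℝ) ≤ 4 ^ m := one_le_pow₀ (by norm_num)
    calc (1 : ℝ) = 1 * 1 * 1 := by ring
      _ ≤ Ca * (C₀ + 1) * 4 ^ m := by
          gcongr
          linarith
  intro n k π κ W h₀ δ h hub h0 hδ x hx r hr hhr hr1
  have hx3 : ‖x‖ ≤ 3 := by rwa [mem_closedBall_zero_iff] at hx
  have h1 := mass_cyl h hub x hr (by linarith) hhr
  have h2 := mass_cyl h hub x (r := 2 * r) (by positivity) (by linarith) (by linarith)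
  have h3 := hcacc h h0 hδ (by linarith) x r hr (by linarith) (by rw [sub_zero]; linarith)
  have hrm : 0 < r ^ m := by positivity
  refine ⟨?_, ?_⟩
  · refine h1.trans ?_
    rw [mul_pow]
    have h4 : (2 : ℝ) ^ m ≤ 4 ^ m := pow_le_pow_left₀ (by norm_num) (by norm_num) m
    calc C₀ * (2 ^ m * r ^ m) = 1 * C₀ * 2 ^ m * r ^ m := by ring
      _ ≤ Ca * (C₀ + 1) * 4 ^ m * r ^ m := by
          gcongr
          linarith
  · refine h3.trans ?_
    have e1 : 2 * (2 * r) = 4 * r := by ring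
    rw [e1, mul_pow] at h2
    calc Ca * (h₀ / r) ^ 2 * MB W π x (2 * r) ≤ Ca * (h₀ / r) ^ 2 * (C₀ * (4 ^ m * r ^ m)) := by
          gcongr
      _ ≤ Ca * (h₀ / r) ^ 2 * ((C₀ + 1) * (4 ^ m * r ^ m)) := by
          gcongr
          linarith
      _ = _ := by ring

/-- integrability of the steep weight -/
theorem integrable_ws (h : CylAS W π κ x₀ R h₀ δ) (σ : ℝ) :
    Integrable (ws π σ) W ∧ (∀ᵐ p ∂W, 0 ≤ ws π σ p) ∧ ∀ᵐ p ∂W, ws π σ p ≤ tl π p.2 := by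
  have hfin : IsFiniteMeasure W := ⟨h.fin⟩
  have h0 : ∀ᵐ p ∂W, 0 ≤ ws π σ p := by
    filter_upwards [h.conc] with p hp
    exact ws_nonneg h.sp.hh hp
  have h1 : ∀ᵐ p ∂W, ws π σ p ≤ tl π p.2 := by
    filter_upwards [h.tl_nonneg'] with p hp0
    unfold ws
    by_cases hs : p ∈ {p : Euc k × L k | σ < tl π p.2}
    · rw [Set.indicator_of_mem hs]
    · rw [Set.indicator_of_notMem hs]; exact hp0
  refine ⟨?_, h0, h1⟩
  refine (h.integrable_continuous (CylAS.continuous_tl (k := k) π)).mono'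
    (measurable_ws π σ).aestronglyMeasurable ?_
  filter_upwards [h0, h1] with p hp1 hp2
  rw [Real.norm_eq_abs, abs_of_nonneg hp1]
  exact hp2

/-- from the integral over the cylinder to the projected measure -/
theorem es_of_int (h : CylAS W π κ x₀ R h₀ δ) {σ a r : ℝ} {x : Euc m}
    (hi : ∫ p in ovr π x r, ws π σ p ∂W ≤ a) :
    wM W π (ws π σ) (ball x r) ≤ ENNReal.ofReal a := by
  have hfin : IsFiniteMeasure W := ⟨h.fin⟩
  obtain ⟨h1, h2, -⟩ := integrable_ws h σ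
  refine wM_le h2 h1 measurableSet_ball ?_
  rw [← ovr_eq]
  exact hi

/-- the steep energy is at most the energy -/
theorem es_le_TB (h : CylAS W π κ x₀ R h₀ δ) (σ : ℝ) {a r : ℝ} {x : Euc m}
    (hi : TB W π x r ≤ a) : wM W π (ws π σ) (ball x r) ≤ ENNReal.ofReal a := by
  refine es_of_int h (le_trans ?_ hi)
  obtain ⟨h1, -, h3⟩ := integrable_ws h σ
  exact integral_mono_ae h1.integrableOn
    (h.integrable_continuous (CylAS.continuous_tl (k := k) π)).integrableOn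
    (ae_restrict_of_ae h3)

/-- steep energy above the scale `A h₀` -/
theorem es_coarse {C A δ₁ : ℝ} (hC : 1 ≤ C) (hA : 1 + C / δ₁ ≤ A) (hδ₁ : 0 < δ₁)
    (h : CylAS W π κ x₀ R h₀ δ) (hh : 0 ≤ h₀) (σ : ℝ) {r : ℝ} (hr : 0 < r) (hr1 : A * h₀ ≤ r)
    (hTB : TB W π x r ≤ C * (h₀ / r) ^ 2 * r ^ m) :
    wM W π (ws π σ) (ball x r) ≤ ENNReal.ofReal (δ₁ * r ^ m) := by
  refine es_le_TB h σ (hTB.trans ?_)
  have hCd : 0 < C / δ₁ := by positivity
  have hA0 : 1 ≤ A := by linarith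
  have h1 : h₀ / r ≤ 1 / A := by
    rw [div_le_div_iff₀ hr (by linarith)]
    linarith
  have h2 : (h₀ / r) ^ 2 ≤ (1 / A) ^ 2 := pow_le_pow_left₀ (by positivity) h1 2
  have h3 : C * (1 / A) ^ 2 ≤ δ₁ := by
    have h4 : C / δ₁ ≤ A ^ 2 := by nlinarith
    rw [div_pow, one_pow, mul_one_div, div_le_iff₀ (by positivity)]
    rw [div_le_iff₀ hδ₁] at h4
    linarith
  calc C * (h₀ / r) ^ 2 * r ^ m ≤ C * (1 / A) ^ 2 * r ^ m := by gcongr
    _ ≤ δ₁ * r ^ m := by gcongr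

/-- **`N` is close to `Q` down to the scale up to which the steep energy is small** -/
theorem chain_all (m Q : ℕ) {C₀ : ℝ} (hC₀ : 0 ≤ C₀) {ε : ℝ} (hε : 0 < ε) :
    ∃ σ₁ lam A c : ℝ, 0 < σ₁ ∧ 0 < lam ∧ 1 ≤ A ∧ 0 < c ∧ c ≤ 1 / 16 ∧
      ∀ {n k : ℕ} {π : Euc k →L[ℝ] Euc m} {κ : Euc k →L[ℝ] Euc n}
      {W : Measure (Euc k × L k)} {N : Euc m → ℝ≥0∞} {h₀ δ : ℝ}, In W π κ N Q C₀ h₀ δ →
      δ ≤ c → h₀ ^ 2 ≤ c → ∫ p, tl π p.2 ∂W ≤ c → ∀ σ, 0 ≤ σ → σ ≤ σ₁ →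
      ∀ x ∈ closedBall (0 : Euc m) 3, ∀ s,
        (∀ r, 0 < r → s ≤ r → r < A * h₀ →
          wM W π (ws π σ) (ball x r) ≤ ENNReal.ofReal (lam * r ^ m)) →
        ∀ r, 0 < r → s ≤ r → r ≤ 1 / 4 → ∫ y in ball x r, |(N y).toReal - Q| ≤ ε * r ^ m := by
  obtain ⟨ε₀, hε0, hε01, hε0w⟩ := exists_eps m
  set ε₁ : ℝ := min ε₀ (ε / 4 ^ m) with hε₁
  have hε1 : 0 < ε₁ := lt_min hε0 (by positivity)
  have hε11 : ε₁ ≤ 1 := (min_le_left _ _).trans hε01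
  have hε1w : ε₁ * (1 + 4 ^ m) < om m := by
    refine lt_of_le_of_lt ?_ hε0w
    gcongr
    exact min_le_left _ _
  obtain ⟨c₁, hc1, hc1', δ₁, hδ1, hδ1', hT⟩ := TH1 (sc2 m) Q (C₁ := m + 2) (by positivity) hε1 hε11
    hε1w
  obtain ⟨C, hC, hen⟩ := energy m hC₀
  obtain ⟨ct, hct, hct', htop⟩ := top m Q hC₀ (ε := ε₁ * (1 / 4) ^ m) (by positivity)
  have hm0 : (0 : ℝ) ≤ m := Nat.cast_nonneg m
  set A : ℝ := 1 + C / δ₁ with hA
  have hA1 : 1 ≤ A := by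
    have : 0 < C / δ₁ := by positivity
    linarith
  set c : ℝ := min ct (min (c₁ / 2) (δ₁ / (m + 1))) with hcd
  have hcc1 : c ≤ ct := min_le_left _ _
  have hcc2 : c ≤ c₁ / 2 := (min_le_right _ _).trans (min_le_left _ _)
  have hcc3 : c ≤ δ₁ / (m + 1) := (min_le_right _ _).trans (min_le_right _ _)
  refine ⟨c₁ / 2, δ₁, A, c, by positivity, hδ1, hA1,
    lt_min hct (lt_min (by positivity) (by positivity)), hcc1.trans hct', ?_⟩
  intro n k π κ W N h₀ δ h hδ hh hE σ hσ0 hσ1 x hx s hs r hr hsr hr1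
  have hc0 : 0 ≤ c := h.δ0.trans hδ
  have hcle : c ≤ 1 := by linarith [hcc1, hct']
  have hS := setup_of_cylAS h.cyl h.δ0 (hδ.trans hcle) h.area
  have H := hyp_of_setup hS hσ0
  have hx3 : ‖x‖ ≤ 3 := by rwa [mem_closedBall_zero_iff] at hx
  have hxR : ball x (1 / 4) ⊆ ball (0 : Euc m) 4 := by
    refine ball_subset_ball' ?_
    rw [dist_zero_right]; linarith
  have hxT : ball x (1 / 4) ⊆ ball (0 : Euc m) (7 / 2) := by
    refine ball_subset_ball' ?_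
    rw [dist_zero_right]; linarith
  have hg : δ * (m + h₀ ^ 2) ≤ δ₁ := by
    calc δ * (m + h₀ ^ 2) ≤ δ₁ / (m + 1) * (m + 1) := by
          gcongr
          · exact hδ.trans hcc3
          · exact hh.trans hcle
      _ = δ₁ := by field_simp
  have hNi : IntegrableOn (fun x => |(N x).toReal - (Q : ℝ)|) (ball (0 : Euc m) 4) := by
    have : IsFiniteMeasure W := ⟨h.cyl.fin⟩
    exact ((h.area.integrableOn h.cyl.sp.hh h.cyl.conc measurableSet_ball).sub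
      (integrableOn_const measure_ball_lt_top.ne)).abs
  have h1 := hT (σ + δ * h₀ ^ 2) (δ * (m + h₀ ^ 2)) (ball 0 4) _ _ _ _ _
    (by have := h.δ0; positivity)
    (by
      have h2 : δ * h₀ ^ 2 ≤ c * 1 := by
        gcongr
        exact hh.trans hcle
      linarith)
    (by have := h.δ0; positivity) H x s (1 / 4) hxR
    (by have := h.δ0; nlinarith)
    (by
      refine le_trans ?_ (htop h (hδ.trans hcc1) (hh.trans hcc1) (hE.trans hcc1))
      refine setIntegral_mono_set (hNi.mono_set (ball_subset_ball (by norm_num)))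
        (Eventually.of_forall fun _ => abs_nonneg _) hxT.eventuallyLE)
    (by
      intro ρ hρ hsρ hρ1
      rcases lt_or_ge ρ (A * h₀) with h2 | h2
      · exact hs ρ hρ hsρ h2
      · have h3 : h₀ ≤ ρ := by
          have := h.hh
          nlinarith
        exact es_coarse hC le_rfl hδ1 h.cyl h.hh σ hρ h2
          (hen h.cyl h.ub h.δ0 (hδ.trans (hcc1.trans hct')) x hx ρ hρ h3 hρ1).2)
    r hr hsr hr1
  refine h1.trans ?_
  have h4 : 4 ^ m * ε₁ ≤ ε := by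
    calc 4 ^ m * ε₁ ≤ 4 ^ m * (ε / 4 ^ m) := by
          gcongr
          exact min_le_right _ _
      _ = ε := by field_simp
  gcongr

/-- **N0-COARSE (c)**: all scales `≥ A h₀`. -/
theorem coarse (m Q : ℕ) {C₀ : ℝ} (hC₀ : 0 ≤ C₀) {ε : ℝ} (hε : 0 < ε) :
    ∃ A c : ℝ, 1 ≤ A ∧ 0 < c ∧ c ≤ 1 / 16 ∧
      ∀ {n k : ℕ} {π : Euc k →L[ℝ] Euc m} {κ : Euc k →L[ℝ] Euc n}
      {W : Measure (Euc k × L k)} {N : Euc m → ℝ≥0∞} {h₀ δ : ℝ}, In W π κ N Q C₀ h₀ δ →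
      δ ≤ c → h₀ ^ 2 ≤ c → ∫ p, tl π p.2 ∂W ≤ c → ∀ x ∈ closedBall (0 : Euc m) 3,
      ∀ r, 0 < r → A * h₀ ≤ r → r ≤ 1 / 4 →
        ∫ y in ball x r, |(N y).toReal - Q| ≤ ε * r ^ m ∧ MB W π x r ≤ A * r ^ m ∧
        TB W π x r ≤ A * (h₀ / r) ^ 2 * r ^ m := by
  obtain ⟨σ₁, lam, A, c, hσ, hlam, hA, hc, hc', hT⟩ := chain_all m Q hC₀ hε
  obtain ⟨C, hC, hen⟩ := energy m hC₀
  refine ⟨max A C, c, hA.trans (le_max_left _ _), hc, hc', ?_⟩
  intro n k π κ W N h₀ δ h hδ hh hE x hx r hr hAr hr1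
  have hAr' : A * h₀ ≤ r := by
    refine le_trans ?_ hAr
    have := h.hh
    gcongr
    exact le_max_left _ _
  have h1 : h₀ ≤ r := by
    have := h.hh
    nlinarith
  obtain ⟨h2, h3⟩ := hen h.cyl h.ub h.δ0 (hδ.trans hc') x hx r hr h1 hr1
  refine ⟨hT h hδ hh hE 0 le_rfl hσ.le x hx (A * h₀) (fun ρ _ h4 h5 => absurd h4 (not_le.2 h5)) r hr
    hAr' hr1, h2.trans ?_, h3.trans ?_⟩
  · gcongr
    exact le_max_right _ _
  · gcongr
    exact le_max_right _ _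

end Crest.Agent.R234.Crs_173
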