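import Crest.Agent.R234.N0b_309
import Crest.Agent.R234.Raw2_387

/-!
Row 234, node N0 (helper309), file c: the contact problem for a varifold with sheets
(387's measures `B1`, `B2`, `tm`; `b2s = b₂ + c π_#(tl W)`).
-/

set_option autoImplicit false

open MeasureTheory Filter Topology Set Metric
open scoped ENNReal NNReal

namespace Crest.Agent.R234.N0_309

open Crest.GeometryTopology.Submanifold
open Crest.Agent.R234.Vf_884 Crest.Agent.R234.Ar_870 Crest.Agent.R234.Cy_870
open Crest.Agent.R234.Pot_425 Crest.Agent.R234.Dom_309 Crest.Agent.R234.Rep_387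
open Crest.Agent.R234.Raw_387 Crest.Agent.R234.Avg_387
open Crest.Agent.R234.Loc1_290 (bump bump_nonneg bump_le_one bump_eq_zero)

noncomputable section

variable {m n k : ℕ} {τ lam : ℝ} {T : Set (Euc m)} {π : Euc k →L[ℝ] Euc m}
  {κ : Euc k →L[ℝ] Euc n} {D : VarifoldData m k} {U : Set (Euc k)} {W₀ : Set (Euc k)} {Q : ℝ}

section

variable (S : Sheets D π) (hD : IsIntegralVarifoldIn U D) (hπ : IsCo π)
  (hW : MeasurableSet W₀) (hfin : VD D (W₀ ×ˢ univ) < ⊤)

include hD hπ hW hfin in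
/-- mass of `B₁` over a bounded set -/
theorem B1_real {A : Set (Euc m)} (hA : MeasurableSet A) (hvA : volume A < ⊤) :
    (B1 S W₀ Q).real A =
      (∫ p in {p : Euc k × L k | π p.1 ∈ A}, max (an π p.2) 0
        ∂((VD D).restrict (W₀ ×ˢ univ))) +
        ∫ x in A, max ((S.N W₀ x).toReal - Q) 0 := by
  have h1 := setIntegral_B1 (Q := Q) S hD hπ hW hfin hA hvA (φ := fun _ => 1)
    measurable_const (K := 1) (fun _ => by simp)
  simpa using h1

include hD hπ hW hfin in
/-- mass of `B₁` with the quadratic vertical form -/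
theorem B1_real_le {A : Set (Euc m)} (hA : MeasurableSet A) (hvA : volume A < ⊤) :
    (B1 S W₀ Q).real A ≤
      (m / 2 : ℝ) * (∫ p in {p : Euc k × L k | π p.1 ∈ A}, qq π p.2
        ∂((VD D).restrict (W₀ ×ˢ univ))) +
        ∫ x in A, max ((S.N W₀ x).toReal - Q) 0 := by
  rw [B1_real S hD hπ hW hfin hA hvA, ← integral_const_mul]
  refine add_le_add ?_ le_rfl
  have i1 := integrableOn_cont hD hfin (f := fun P => max (an π P) 0)
    ((continuous_an π).max continuous_const)
  have i2 := (integrableOn_cont hD hfin (continuous_qq π)).const_mul (m / 2 : ℝ)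
  refine integral_mono_ae i1.integrableOn i2.integrableOn ?_
  filter_upwards [ae_restrict_of_ae (ae_restrict_of_ae (VD_conc hD))] with p hp
  exact max_an_le_qq hπ hp

include hD hπ hW hfin in
/-- mass of `B₁` with the tilt -/
theorem B1_real_le_tl {A : Set (Euc m)} (hA : MeasurableSet A) (hvA : volume A < ⊤) :
    (B1 S W₀ Q).real A ≤
      (1 / 2 : ℝ) * (∫ p, tl π p.2 ∂((VD D).restrict (W₀ ×ˢ univ))) +
        ∫ x in A, max ((S.N W₀ x).toReal - Q) 0 := by
  rw [B1_real S hD hπ hW hfin hA hvA]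
  refine add_le_add ?_ le_rfl
  have i1 := integrableOn_cont hD hfin (f := fun P => max (an π P) 0)
    ((continuous_an π).max continuous_const)
  have i2 := (integrableOn_cont hD hfin (measurable_tl π)).const_mul (1 / 2 : ℝ)
  have h0 : ∀ᵐ p ∂((VD D).restrict (W₀ ×ˢ (univ : Set (L k)))), 0 ≤ tl π p.2 := by
    filter_upwards [ae_restrict_of_ae (VD_conc hD)] with p hp
    exact tl_nonneg hπ (isPr_of_G hp)
  rw [← integral_const_mul]
  calc ∫ p in {p : Euc k × L k | π p.1 ∈ A}, max (an π p.2) 0 ∂((VD D).restrict (W₀ ×ˢ univ))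
      ≤ ∫ p in {p : Euc k × L k | π p.1 ∈ A}, 1 / 2 * tl π p.2
          ∂((VD D).restrict (W₀ ×ˢ univ)) := by
        refine integral_mono_ae i1.integrableOn i2.integrableOn ?_
        filter_upwards [ae_restrict_of_ae (ae_restrict_of_ae (VD_conc hD))] with p hp
        have := max_an_le_tl hπ hp
        linarith
    _ ≤ ∫ p, 1 / 2 * tl π p.2 ∂((VD D).restrict (W₀ ×ˢ univ)) := by
        refine setIntegral_le_integral i2 ?_
        filter_upwards [h0] with p hp
        simp only [Pi.zero_apply]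
        linarith

/-- mass of `π_#(c tl W)` -/
theorem tm_real_le {W : Measure (Euc k × L k)} (h : FF W π κ) {c : ℝ} (hc : 0 ≤ c)
    {A : Set (Euc m)} (hA : MeasurableSet A) :
    tm W π c A < ⊤ ∧ (tm W π c).real A ≤ c * ∫ p, tl π p.2 ∂W := by
  have hf : IsFiniteMeasure W := ⟨h.fin⟩
  have hC : ∀ᵐ p ∂W, c * tl π p.2 ≤ c * m := by
    filter_upwards [h.conc] with p hp
    exact mul_le_mul_of_nonneg_left (tl_le h.sp.hh (isPr_of_G hp)) hc
  refine ⟨mk_lt_top (C := c * m) hC hA integrableOn_zero, ?_⟩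
  have h1 := setIntegral_mk (W := W) (π := π) (ρ := fun P => c * tl π P) (ν := fun _ => 0)
    ((measurable_tl π).measurable.const_mul c) (C := c * m) hC measurable_const hA
    integrableOn_zero (φ := fun _ => 1) measurable_const (K := 1) (fun _ => by simp)
  have h2 : (tm W π c).real A =
      ∫ p in {p : Euc k × L k | π p.1 ∈ A}, max (c * tl π p.2) 0 ∂W := by
    unfold tm
    simpa using h1
  have h0 : ∀ᵐ p ∂W, 0 ≤ tl π p.2 := by
    filter_upwards [h.conc] with p hp
    exact tl_nonneg h.sp.hh (isPr_of_G hp)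
  have i1 : Integrable (fun p : Euc k × L k => tl π p.2) W := by
    refine Integrable.of_bound ((measurable_tl π).measurable.comp
      measurable_snd).aestronglyMeasurable m ?_
    filter_upwards [h.conc] with p hp
    rw [Real.norm_eq_abs, abs_of_nonneg (tl_nonneg h.sp.hh (isPr_of_G hp))]
    exact tl_le h.sp.hh (isPr_of_G hp)
  rw [h2, ← integral_const_mul]
  calc ∫ p in {p : Euc k × L k | π p.1 ∈ A}, max (c * tl π p.2) 0 ∂W
      = ∫ p in {p : Euc k × L k | π p.1 ∈ A}, c * tl π p.2 ∂W := by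
        refine integral_congr_ae ?_
        filter_upwards [ae_restrict_of_ae h0] with p hp
        rw [max_eq_left (mul_nonneg hc hp)]
    _ ≤ ∫ p, c * tl π p.2 ∂W := by
        refine setIntegral_le_integral (i1.const_mul c) ?_
        filter_upwards [h0] with p hp
        simp only [Pi.zero_apply]
        exact mul_nonneg hc hp

include hD hW hfin in
/-- **N0, varifold with sheets**: `anom ≤ ε(1) + (small part of b₁) + c ∫ tl + boundary layer`. -/
theorem contact_sheets (hm0 : 0 < m) (hs : Split π κ) (hτ : 0 < τ) (hτ1 : 2 * τ ≤ lam)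
    (hlam : lam ≤ 1) (hT : MeasurableSet T) {c : ℝ} (hc : 0 ≤ c) :
    ∃ ε : Measure (XB (Euc m) τ), IsFiniteMeasure ε ∧
      (∫ p, bump 1 (0 : Euc m) (π p.1) * (1 - tl π p.2 / 2) ∂((VD D).restrict (W₀ ×ˢ univ))
          - Q * ∫ v : Euc m, bump 1 (0 : Euc m) v ≤
        ε.real univ +
        ((m / 2 : ℝ) * (∫ p in {p : Euc k × L k | π p.1 ∈ closedBall (0 : Euc m) 1 \ T},
            qq π p.2 ∂((VD D).restrict (W₀ ×ˢ univ))) +
          ∫ x in closedBall (0 : Euc m) 1 \ T, max ((S.N W₀ x).toReal - Q) 0) +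
        c * ∫ p, tl π p.2 ∂((VD D).restrict (W₀ ×ˢ univ)) +
        (2 * lam + 3 * τ) *
          ((1 / 2 : ℝ) * (∫ p, tl π p.2 ∂((VD D).restrict (W₀ ×ˢ univ))) +
            ∫ x in closedBall (0 : Euc m) 1, max ((S.N W₀ x).toReal - Q) 0)) ∧
      (∀ x ∈ ε.support, ∃ y ∈ closure (tall T lam), ‖(x : Euc m) - y‖ ≤ τ) ∧
      (∀ x ∈ ε.support, ∀ (w : Wt) (s : ℝ), 0 ≤ s → ‖(x : Euc m)‖ + s ≤ 1 →
        0 ≤ SS m τ w ε (x : Euc m) s ∧
          SS m τ w ε (x : Euc m) s ≤
            SS m τ w (beta S W₀ Q τ (tall T lam)) (x : Euc m) s -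
              SS m τ w (b2s (b2 S W₀ Q τ) ((VD D).restrict (W₀ ×ˢ univ)) π c)
                (x : Euc m) s) := by
  have hπ : IsCo π := hs.hh
  have hFF : FF ((VD D).restrict (W₀ ×ˢ (univ : Set (L k)))) π κ := by
    refine ⟨hs, ae_restrict_of_ae (VD_conc hD), ?_⟩
    rw [Measure.restrict_apply_univ]
    exact hfin
  have hcb : MeasurableSet (closedBall (0 : Euc m) 1) := measurableSet_closedBall
  have hvol : volume (closedBall (0 : Euc m) 1) < ⊤ := measure_closedBall_lt_top
  obtain ⟨hE1, hE2⟩ := tm_real_le hFF hc hcb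
  obtain ⟨ε, hε, hb, hsupp, hSS⟩ := contact_measures (T := T) hm0 hτ hτ1 hlam
    (B1_lt_top (Q := Q) S hD hπ hW hfin hcb hvol) (B2_lt_top (Q := Q) S hD hπ hW hfin hcb hvol)
    hE1 hT
  refine ⟨ε, hε, ?_, hsupp, hSS⟩
  have h0 : ∀ x : Euc m, x ∉ closedBall (0 : Euc m) 1 → bump 1 (0 : Euc m) x = 0 := by
    intro x hx
    refine bump_eq_zero one_pos ?_
    rw [sub_zero]
    have : 1 < ‖x‖ := by simpa using hx
    exact this.le
  have h1 := B1_sub_B2 (Q := Q) S hD hπ hW hfin hcb hvol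
    (φ := fun z => bump 1 (0 : Euc m) z) continuous_bump.measurable (K := 1)
    (fun x => by rw [abs_of_nonneg (bump_nonneg _ _ _)]; exact bump_le_one _ _ _) h0
  rw [h1] at hb
  have hvd : volume (closedBall (0 : Euc m) 1 \ T) < ⊤ :=
    (measure_mono sdiff_subset).trans_lt hvol
  have h2 := B1_real_le (Q := Q) S hD hπ hW hfin (hcb.diff hT) hvd
  have h3 := B1_real_le_tl (Q := Q) S hD hπ hW hfin hcb hvol
  have h4 : (2 * lam + 3 * τ) * (B1 S W₀ Q).real (closedBall 0 1) ≤
      (2 * lam + 3 * τ) * ((1 / 2 : ℝ) * (∫ p, tl π p.2 ∂((VD D).restrict (W₀ ×ˢ univ))) +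
            ∫ x in closedBall (0 : Euc m) 1, max ((S.N W₀ x).toReal - Q) 0) :=
    mul_le_mul_of_nonneg_left h3 (by linarith)
  linarith

end

end

end Crest.Agent.R234.N0_309
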