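import Crest.Agent.R234.Bds3_214
import Crest.Agent.R234.Crs6_173
import Crest.Agent.R234.N0c_309

/-!
# Row 234, BDS part 4 (helper214): the contact set, the coarse upper bound, the window, numbers
-/

set_option autoImplicit false

open MeasureTheory Set Function Filter Topology Metric
open Crest.GeometryTopology.Submanifold
open Crest.Agent.R234.Vf_884 Crest.Agent.R234.Ar_870 Crest.Agent.R234.Cy_870
open Crest.Agent.R234.Pot_425 Crest.Agent.R234.Avg_387 Crest.Agent.R234.Rep_387
open Crest.Agent.R234.Raw_387 Crest.Agent.R234.Fld_387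
open Crest.Agent.R234.N5_372 (eM ov)
open Crest.Agent.R234.Asl_214 (TB ovr)
open scoped ENNReal NNReal InnerProductSpace

noncomputable section

namespace Crest.Agent.R234.Bds_214

variable {m n k : ℕ} {τ : ℝ}

/-! ### the contact set -/

theorem isClosed_Z (ε : Measure (XB (Euc m) τ)) :
    IsClosed (Subtype.val '' ε.support : Set (Euc m)) :=
  (Measure.isClosed_support.isCompact.image continuous_subtype_val).isClosed

theorem measurableSet_Z (ε : Measure (XB (Euc m) τ)) :
    MeasurableSet (Subtype.val '' ε.support : Set (Euc m)) := (isClosed_Z ε).measurableSet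

theorem null_Z (ε : Measure (XB (Euc m) τ)) :
    (ε.map Subtype.val) (Subtype.val '' ε.support : Set (Euc m))ᶜ = 0 := by
  rw [Measure.map_apply measurable_subtype_coe (measurableSet_Z ε).compl]
  have h1 : (Subtype.val ⁻¹' (Subtype.val '' ε.support : Set (Euc m))ᶜ : Set (XB (Euc m) τ)) =
      ε.supportᶜ := by
    rw [preimage_compl, preimage_image_eq _ Subtype.val_injective]
  rw [h1]
  exact Measure.measure_compl_support

theorem finite_map (ε : Measure (XB (Euc m) τ)) [IsFiniteMeasure ε] :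
    IsFiniteMeasure (ε.map (Subtype.val : XB (Euc m) τ → Euc m)) := inferInstance

/-! ### the coarse upper bound of `e` -/

variable {W : Measure (Euc k × L k)} {π : Euc k →L[ℝ] Euc m} {κ : Euc k →L[ℝ] Euc n}

/-- the averaged tilt energy from the energy of one ball of radius `2 e^l` -/
theorem eea_TB (h : FF W π κ) (hτ : 0 < τ) {w : Wt} (x : Euc m) {l Kθ : ℝ}
    (hK : ∀ u, 0 ≤ u → w.θ u ≤ Kθ) (hs : τ < Real.exp l) :
    eea (dd m τ) W π w.θ x l ≤
      Md m * (Real.exp ((2 - m) * l) * (Kθ * TB W π x (2 * Real.exp l))) := by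
  refine (eea_le h hτ x hK le_rfl).trans ?_
  have hK0 : 0 ≤ Kθ := (w.nonneg 0).trans (hK 0 le_rfl)
  have h1 : (eM W π).real (closedBall x (Real.exp l + τ)) ≤ TB W π x (2 * Real.exp l) := by
    rw [eM_real h measurableSet_closedBall]
    unfold TB
    refine setIntegral_mono_set (integrable_tl h).integrableOn ?_
      (Eventually.of_forall fun p hp => ?_)
    · refine ae_restrict_of_ae ?_
      filter_upwards [h.conc] with p hp
      exact tl_nonneg h.sp.hh (isPr_of_G hp)
    · have h2 : ‖π p.1 - x‖ ≤ Real.exp l + τ := mem_closedBall_iff_norm.1 hp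
      change ‖π p.1 - x‖ < 2 * Real.exp l
      linarith
  have hM : 0 ≤ Md m := by
    rcases Nat.eq_zero_or_pos m with h0 | h0
    · subst h0
      have := integral_dd (m := 0) hτ
      rw [← this]
      exact integral_nonneg fun y => (cw_dd (m := 0) hτ).nonneg y
    · exact (Md_pos h0).le
  gcongr

/-- **coarse upper bound** -/
theorem eea_coarse (h : FF W π κ) (hτ : 0 < τ) (hm : 2 ≤ m) {w : Wt} (x : Euc m)
    {l Kθ C h₀ : ℝ} (hK : ∀ u, 0 ≤ u → w.θ u ≤ Kθ) (hs : τ < Real.exp l)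
    (hTB : TB W π x (2 * Real.exp l) ≤ C * (h₀ / (2 * Real.exp l)) ^ 2 * (2 * Real.exp l) ^ m) :
    eea (dd m τ) W π w.θ x l ≤ Md m * Kθ * C * 2 ^ (m - 2) * h₀ ^ 2 := by
  refine (eea_TB h hτ x hK hs).trans ?_
  have hK0 : 0 ≤ Kθ := (w.nonneg 0).trans (hK 0 le_rfl)
  have hM : 0 < Md m := Md_pos (by omega)
  have h1 : C * (h₀ / (2 * Real.exp l)) ^ 2 * (2 * Real.exp l) ^ m =
      C * h₀ ^ 2 * (2 * Real.exp l) ^ (m - 2) := by
    have h2 : (2 * Real.exp l) ^ m = (2 * Real.exp l) ^ (m - 2) * (2 * Real.exp l) ^ 2 := by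
      rw [← pow_add]
      congr 1
      omega
    have h3 := Real.exp_pos l
    rw [h2]
    field_simp
  have h4 := exp_pow_sub hm l
  calc Md m * (Real.exp ((2 - m) * l) * (Kθ * TB W π x (2 * Real.exp l)))
      ≤ Md m * (Real.exp ((2 - m) * l) * (Kθ * (C * h₀ ^ 2 * (2 * Real.exp l) ^ (m - 2)))) := by
        rw [← h1]
        gcongr
    _ = Md m * Kθ * C * 2 ^ (m - 2) * h₀ ^ 2 *
        (Real.exp ((2 - m) * l) * Real.exp l ^ (m - 2)) := by
        rw [mul_pow]
        ring
    _ = _ := by rw [h4, mul_one]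

/-! ### the total mass of `γ` -/

section
variable {Dd : VarifoldData m k} {U : Set (Euc k)} {W₀ : Set (Euc k)} {Q : ℝ}

/-- the total mass of `b₁` over any part of the base -/
theorem beta_univ (S : Sheets Dd π) (hD : IsIntegralVarifoldIn U Dd) (hπ : IsCo π)
    (hW : MeasurableSet W₀) (hfin : VD Dd (W₀ ×ˢ univ) < ⊤) (hτ : 0 ≤ τ) (T : Set (Euc m)) :
    (beta S W₀ Q τ T).real univ ≤
      (1 / 2 : ℝ) * (∫ p, tl π p.2 ∂((VD Dd).restrict (W₀ ×ˢ univ))) +
        ∫ x in closedBall (0 : Euc m) 1, |(S.N W₀ x).toReal - Q| := by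
  have f1 := finite_b1 (Q := Q) (τ := τ) S hD hπ hW hfin
  have h1 : (beta S W₀ Q τ T).real univ ≤ (b1 S W₀ Q τ).real univ := by
    unfold beta
    rw [measureReal_restrict_apply MeasurableSet.univ]
    exact measureReal_mono (subset_univ _)
  have h2 : (b1 S W₀ Q τ).real univ ≤ (B1 S W₀ Q).real (closedBall (0 : Euc m) 1) := by
    unfold Measure.real b1
    rw [N0_309.toXB_univ]
    refine ENNReal.toReal_mono ?_ (measure_mono (closedBall_subset_closedBall (by linarith)))
    exact (B1_lt_top S hD hπ hW hfin measurableSet_closedBall measure_closedBall_lt_top).ne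
  have h3 := N0_309.B1_real_le_tl (Q := Q) S hD hπ hW hfin
    (A := closedBall (0 : Euc m) 1) measurableSet_closedBall measure_closedBall_lt_top
  have h4 : ∫ x in closedBall (0 : Euc m) 1, max ((S.N W₀ x).toReal - Q) 0 ≤
      ∫ x in closedBall (0 : Euc m) 1, |(S.N W₀ x).toReal - Q| := by
    have i1 := iN1 S hD hπ hW hfin (A := closedBall (0 : Euc m) 1) measurableSet_closedBall
      measure_closedBall_lt_top Q
    refine setIntegral_mono_on i1.pos_part i1.abs measurableSet_closedBall fun x _ => ?_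
    exact max_le (le_abs_self _) (abs_nonneg _)
  linarith

end

/-! ### the window -/

/-- **all bounds on the window `[0, T]`, `t = l - L₀`, `e^{L₀} = 2 r0`** -/
structure Win (D : Da m n k) (ε : Measure (XB (Euc m) D.τ)) (c₀ K₀ A D₀ V L₀ T r0 : ℝ)
    (x : Euc m) : Prop where
  Ulow : ∀ t, 0 ≤ t → t ≤ T → D₀ ≤ D.Us x (L₀ + t)
  Uup : ∀ t, 0 ≤ t → t ≤ T → D.Us x (L₀ + t) ≤ 2 * (A + D.K) * V
  elow : ∀ t, 0 ≤ t → t ≤ T → D₀ / A ≤ D.es x (L₀ + t)
  eup : ∀ t, 0 ≤ t → t ≤ T → D.es x (L₀ + t) ≤ Ce m D.K A * V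
  εup : ∀ s, r0 / 4 ≤ s → s ≤ r0 / 2 * Real.exp T →
    (ε.map Subtype.val).real (closedBall x s) ≤ Cε m D.K A c₀ * V * s ^ (m - 2)
  μlow : ∀ s, r0 / 4 ≤ s → s ≤ r0 / 2 * Real.exp T →
    cμ m D.K A K₀ * D₀ * s ^ (m - 2) ≤ (muB D.W D.π D.γ).real (closedBall x s)

variable {D : Da m n k} {h₀ c₀ K₀ A D₀ V L₀ T r0 : ℝ} {g2 : ℝ → ℝ} {x : Euc m}

theorem win (ok : D.Ok h₀ c₀ K₀ g2) (hA : Real.exp ((m : ℝ) - 2) ≤ A) (hD₀ : 0 < D₀)
    (hδ : D.δ ≤ 1) (hr : Real.exp L₀ = 2 * r0) (hT : 0 ≤ T) (hτ : D.τ ≤ r0 / 8)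
    {ε : Measure (XB (Euc m) D.τ)} (hε : IsFiniteMeasure ε)
    (hx : D.At A D₀ (L₀ - 4) (L₀ + T + 5) x)
    (he : ∀ l, L₀ - 4 ≤ l → l ≤ L₀ + T + 5 → D.e x l ≤ V)
    (hP : D.P x (L₀ + T + 5) ≤ D₀ / (4 * A))
    (hss : ∀ l, L₀ - 4 ≤ l → l ≤ L₀ + T + 5 →
      SS m D.τ D.w ε x (Real.exp l) ≤ D.B x l) :
    Win D ε c₀ K₀ A D₀ V L₀ T r0 x := by
  have hr0 : 0 < r0 := by
    have := Real.exp_pos L₀
    linarith
  have hp := pt ok hx hA hD₀ (by linarith) hδ he hP
  have hA0 : 0 < A := lt_of_lt_of_le (Real.exp_pos _) hA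
  have hL : Real.log (2 * r0) = L₀ := by rw [← hr, Real.log_exp]
  have hlog2 : Real.log 2 ≤ 0.7 := by
    have := Real.log_two_lt_d9
    linarith
  have hlog2' : 0 ≤ Real.log 2 := Real.log_nonneg (by norm_num)
  refine ⟨fun t h1 h2 => hp.Ulow _ (by linarith) (by linarith),
    fun t h1 h2 => hp.Uup _ (by linarith) (by linarith),
    fun t h1 h2 => hp.elow _ (by linarith) (by linarith),
    fun t h1 h2 => hp.eup _ (by linarith) (by linarith), fun s h1 h2 => ?_, fun s h1 h2 => ?_⟩
  · have hs : 0 < s := by linarith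
    rw [real_map_val]
    refine eps_up ok hp hss hs (by linarith) ?_ ?_
    · have h3 : Real.log (2 * r0) ≤ Real.log (8 * s) :=
        Real.log_le_log (by positivity) (by linarith)
      rw [hL] at h3
      linarith
    · have h3 : Real.log (8 * s) ≤ Real.log (2 * (2 * r0) * Real.exp T) := by
        refine Real.log_le_log (by positivity) ?_
        linarith
      have e1 : Real.log (2 * (2 * r0) * Real.exp T) = Real.log 2 + Real.log (2 * r0) + T := by
        rw [Real.log_mul (by positivity) (Real.exp_pos _).ne', Real.log_exp,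
          Real.log_mul (x := 2) (y := 2 * r0) (by norm_num) (by positivity)]
      rw [e1, hL] at h3
      linarith
  · have hs : 0 < s := by linarith
    refine mu_low ok hp hA0 hD₀ hs (by linarith) ?_ ?_
    · have h3 : Real.log (2 * r0 / 16) ≤ Real.log (s / 2) :=
        Real.log_le_log (by positivity) (by linarith)
      rw [Real.log_div (by positivity) (by norm_num), hL] at h3
      have h4 : Real.log 16 = 4 * Real.log 2 := by
        rw [show (16 : ℝ) = 2 ^ 4 by norm_num, Real.log_pow]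
        norm_num
      rw [h4] at h3
      linarith
    · have h3 : Real.log (s / 2) ≤ Real.log (2 * r0 * Real.exp T) := by
        refine Real.log_le_log (by positivity) ?_
        have : 0 < r0 * Real.exp T := mul_pos hr0 (Real.exp_pos T)
        linarith
      rw [Real.log_mul (by positivity) (Real.exp_pos _).ne', Real.log_exp, hL] at h3
      linarith

/-! ### numbers -/

/-- a constant is absorbed by one power of `Λ = e^l` -/
theorem ev_low {c N CU : ℝ} (hc : 0 < c) (h : N < CU) :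
    ∀ᶠ l : ℝ in atTop, Real.exp (-(CU * l)) ≤ c * Real.exp (-(N * l)) := by
  filter_upwards [eventually_ge_atTop (-Real.log c / (CU - N))] with l hl
  have h1 : 0 < CU - N := by linarith
  rw [div_le_iff₀ h1] at hl
  have h2 : c = Real.exp (Real.log c) := (Real.exp_log hc).symm
  rw [h2, ← Real.exp_add]
  apply Real.exp_le_exp.2
  nlinarith

theorem ev_up {C CU : ℝ} (h : 0 < CU) : ∀ᶠ l : ℝ in atTop, C ≤ Real.exp (CU * l) := by
  have h1 : Tendsto (fun l : ℝ => Real.exp (CU * l)) atTop atTop :=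
    Real.tendsto_exp_atTop.comp (tendsto_id.const_mul_atTop h)
  exact h1.eventually_ge_atTop C

end Crest.Agent.R234.Bds_214
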