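import Crest.Agent.R234.N0c_309
import Crest.Agent.R234.N5a_372

/-!
Row 234, node N0 (helper309), file d: the tall set and the output of N0 (structure `Out`).
-/

set_option autoImplicit false

open MeasureTheory Filter Topology Set Metric
open scoped ENNReal NNReal

namespace Crest.Agent.R234.N0_309

open Crest.GeometryTopology.Submanifold
open Crest.Agent.R234.Vf_884 Crest.Agent.R234.Ar_870 Crest.Agent.R234.Cy_870
open Crest.Agent.R234.Pot_425 Crest.Agent.R234.Dom_309 Crest.Agent.R234.Rep_387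
open Crest.Agent.R234.Raw_387 Crest.Agent.R234.Avg_387
open Crest.Agent.R234.N5_372 (eM)
open Crest.Agent.R234.Loc1_290 (bump bump_nonneg bump_le_one bump_eq_zero)

noncomputable section

variable {m n k : ℕ}

/-! ### the tall set -/

/-- base points with energy `≥ lam s^m` at some scale `s ∈ [h, t]`, closed up. -/
def tallT (e : Measure (Euc m)) (h t lam : ℝ) : Set (Euc m) :=
  closure {x | ∃ s ∈ Icc h t, ENNReal.ofReal (lam * s ^ m) ≤ e (closedBall x s)}

variable {e : Measure (Euc m)} {h t lam : ℝ}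

theorem isClosed_tallT : IsClosed (tallT e h t lam) := isClosed_closure

theorem measurableSet_tallT : MeasurableSet (tallT e h t lam) := isClosed_closure.measurableSet

theorem lt_of_not_tall {x : Euc m} (hx : x ∉ tallT e h t lam) {s : ℝ} (hs : s ∈ Icc h t) :
    e (closedBall x s) < ENNReal.ofReal (lam * s ^ m) := by
  by_contra hcon
  exact hx (subset_closure ⟨s, hs, not_lt.1 hcon⟩)

theorem exists_of_tall {y : Euc m} (hy : y ∈ tallT e h t lam) {η : ℝ} (hη : 0 < η) :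
    ∃ s ∈ Icc h t, ENNReal.ofReal (lam * s ^ m) ≤ e (closedBall y (s + η)) := by
  obtain ⟨x, ⟨s, hs, hx⟩, hxy⟩ := Metric.mem_closure_iff.1 hy η hη
  refine ⟨s, hs, hx.trans (measure_mono ?_)⟩
  intro z hz
  rw [mem_closedBall] at hz ⊢
  have h1 := dist_triangle z x y
  rw [dist_comm x y] at h1
  linarith

/-! ### the output of N0 -/

variable {π : Euc k →L[ℝ] Euc m} {κ : Euc k →L[ℝ] Euc n} {Dd : VarifoldData m k}
  {U : Set (Euc k)} {W₀ : Set (Euc k)}

/-- **the output of N0**: the contact measure `ε` of the obstacle problem for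
`beta(T) - (b₂ + c π_#(tl W))`, `T = tallT (π_# tl W) h t lam ∩ {‖x‖ ≤ 1 - bl}`. -/
structure Out (S : Sheets Dd π) (W₀ : Set (Euc k)) (Q τ h t lam bl c M : ℝ)
    (ε : Measure (XB (Euc m) τ)) : Prop where
  fin : IsFiniteMeasure ε
  mass : M ≤ ε.real univ
  nrm : ∀ x ∈ ε.support, ‖(x : Euc m)‖ ≤ 1 - bl + τ
  tl : ∀ x ∈ ε.support, ∃ s ∈ Icc h t, ENNReal.ofReal (lam * s ^ m) ≤
    eM ((VD Dd).restrict (W₀ ×ˢ univ)) π (closedBall (x : Euc m) (s + 2 * τ))
  ss : ∀ x ∈ ε.support, ∀ (w : Wt) (s : ℝ), 0 ≤ s → ‖(x : Euc m)‖ + s ≤ 1 →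
    0 ≤ SS m τ w ε (x : Euc m) s ∧
      SS m τ w ε (x : Euc m) s ≤
        SS m τ w (beta S W₀ Q τ
            (tall (tallT (eM ((VD Dd).restrict (W₀ ×ˢ univ)) π) h t lam) bl)) (x : Euc m) s -
          SS m τ w (b2s (b2 S W₀ Q τ) ((VD Dd).restrict (W₀ ×ˢ univ)) π c) (x : Euc m) s

/-- **N0 with explicit inputs** -/
theorem out_or {Q τ bl c M G1 G2 G3 : ℝ} (S : Sheets Dd π) (hD : IsIntegralVarifoldIn U Dd)
    (hs : Split π κ) (hW : MeasurableSet W₀) (hfin : VD Dd (W₀ ×ˢ univ) < ⊤)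
    (hm0 : 0 < m) (hτ : 0 < τ) (hτ1 : 2 * τ ≤ bl) (hbl : bl ≤ 1) (hc : 0 ≤ c)
    (hG1 : (m / 2 : ℝ) * (∫ p in {p : Euc k × L k | π p.1 ∈ closedBall (0 : Euc m) 1 \
        tallT (eM ((VD Dd).restrict (W₀ ×ˢ univ)) π) h t lam},
        qq π p.2 ∂((VD Dd).restrict (W₀ ×ˢ univ))) ≤ G1)
    (hG2 : ∫ x in closedBall (0 : Euc m) 1 \
        tallT (eM ((VD Dd).restrict (W₀ ×ˢ univ)) π) h t lam,
        max ((S.N W₀ x).toReal - Q) 0 ≤ G2)
    (hG3 : ∫ x in closedBall (0 : Euc m) 1, max ((S.N W₀ x).toReal - Q) 0 ≤ G3) :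
    ∫ p, bump 1 (0 : Euc m) (π p.1) * (1 - tl π p.2 / 2) ∂((VD Dd).restrict (W₀ ×ˢ univ))
          - Q * ∫ v : Euc m, bump 1 (0 : Euc m) v ≤
        M + (G1 + G2) + c * (∫ p, tl π p.2 ∂((VD Dd).restrict (W₀ ×ˢ univ))) +
          (2 * bl + 3 * τ) *
            ((1 / 2 : ℝ) * (∫ p, tl π p.2 ∂((VD Dd).restrict (W₀ ×ˢ univ))) + G3) ∨
      ∃ ε : Measure (XB (Euc m) τ), Out S W₀ Q τ h t lam bl c M ε := by
  obtain ⟨ε, hε, hb, hsupp, hSS⟩ := contact_sheets (κ := κ) (Q := Q)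
    (T := tallT (eM ((VD Dd).restrict (W₀ ×ˢ univ)) π) h t lam) S hD hW hfin hm0 hs hτ hτ1 hbl
    measurableSet_tallT hc
  rcases le_or_gt M (ε.real univ) with hM | hM
  · right
    refine ⟨ε, hε, hM, ?_, ?_, hSS⟩
    · intro x hx
      obtain ⟨y, hy, hxy⟩ := hsupp x hx
      have h5 : closure (tall (tallT (eM ((VD Dd).restrict (W₀ ×ˢ univ)) π) h t lam) bl) ⊆
          closedBall (0 : Euc m) (1 - bl) :=
        closure_minimal inter_subset_right isClosed_closedBall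
      have h6 := mem_closedBall_zero_iff.1 (h5 hy)
      have h7 : ‖(x : Euc m)‖ ≤ ‖(x : Euc m) - y‖ + ‖y‖ := by
        have := norm_add_le ((x : Euc m) - y) y
        simpa using this
      linarith
    · intro x hx
      obtain ⟨y, hy, hxy⟩ := hsupp x hx
      have h5 : closure (tall (tallT (eM ((VD Dd).restrict (W₀ ×ˢ univ)) π) h t lam) bl) ⊆
          tallT (eM ((VD Dd).restrict (W₀ ×ˢ univ)) π) h t lam :=
        closure_minimal inter_subset_left isClosed_tallT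
      obtain ⟨s, hs1, hs2⟩ := exists_of_tall (h5 hy) hτ
      refine ⟨s, hs1, hs2.trans (measure_mono ?_)⟩
      intro z hz
      rw [mem_closedBall, dist_eq_norm] at hz ⊢
      have h7 : ‖z - (x : Euc m)‖ ≤ ‖z - y‖ + ‖y - (x : Euc m)‖ :=
        norm_sub_le_norm_sub_add_norm_sub _ _ _
      rw [norm_sub_rev y] at h7
      linarith
  · left
    have h4 : (2 * bl + 3 * τ) *
          ((1 / 2 : ℝ) * (∫ p, tl π p.2 ∂((VD Dd).restrict (W₀ ×ˢ univ))) +
            ∫ x in closedBall (0 : Euc m) 1, max ((S.N W₀ x).toReal - Q) 0) ≤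
        (2 * bl + 3 * τ) *
          ((1 / 2 : ℝ) * (∫ p, tl π p.2 ∂((VD Dd).restrict (W₀ ×ˢ univ))) + G3) :=
      mul_le_mul_of_nonneg_left (by linarith) (by linarith)
    linarith

end

end Crest.Agent.R234.N0_309
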