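import Crest.Agent.R234.Well7_761

/-!
Row 234, VF-WELL (helper761), file 8: THEOREM RUN in the literal form `hrun` consumed by
`Core1_809.pt_false`.
-/

set_option autoImplicit false
set_option linter.unusedSectionVars false

open Set Filter Topology MeasureTheory Metric Module
open scoped ContDiff InnerProductSpace ENNReal

noncomputable section

namespace Crest.Agent.R234.Well_761

variable {H : Type*} [NormedAddCommGroup H] [NormedSpace ℝ H] [FiniteDimensional ℝ H]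
  [MeasurableSpace H] [BorelSpace H]
variable {W : Type*} [NormedAddCommGroup W] [InnerProductSpace ℝ W] [MeasurableSpace W]
  [BorelSpace W]

/-- well configurations. -/
structure WCfg (W : Type*) [NormedAddCommGroup W] [InnerProductSpace ℝ W] where
  C : Finset W
  q : ℝ
  hq : 0 < q
  sep : Sep C q

variable {m : ℕ} {κ : ℝ → ℝ} {Kκ cκ : ℝ} {mu en : Measure (H × W)}
  {R : H → ℝ → ℝ} {er : H → ℝ → ℝ → ℝ} {K : ℝ} {x₀ : H} {ρ₀ : ℝ}

theorem test_const {q : ℝ} :
    Test (fun _ : W => q ^ 2) (fun _ => (0 : W)) (fun _ => (0 : W →L[ℝ] W)) |q| where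
  cF := contDiff_const
  cG := contDiff_const
  dF y := by
    rw [map_zero]
    exact hasFDerivAt_const _ _
  dG y := hasFDerivAt_const _ _
  symm y v w := by simp
  bF y := by rw [sq_abs, abs_of_nonneg (sq_nonneg q)]
  bG y := by simp
  bA y := by
    rw [norm_zero]
    have := etaC_nonneg
    linarith

theorem nu_const_mul (x : H) (l a : ℝ) (F : W → ℝ) :
    nu m κ mu x l (fun y => a * F y) = a * nu m κ mu x l F := by
  unfold nu
  have : ∀ z : H × W, κ (dist z.1 x * Real.exp (-l)) * (a * F z.2) =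
      a * (κ (dist z.1 x * Real.exp (-l)) * F z.2) := fun z => by ring
  simp_rw [this]
  rw [integral_const_mul]
  ring

/-- there are heights over a small ball of a good centre. -/
theorem heights_nonempty (hfl : Flow m κ mu en R er K x₀ ρ₀) (hκ : Ker κ Kκ cκ)
    {T : Set (H × W)} {Cμ c0 : ℝ} (hg : Geo m mu T c0 x₀ ρ₀) {x : H} {D l lam θ q c : ℝ}
    (hD : 0 < D) (hq : 0 < q) (hx : Good m mu en er Cμ x₀ ρ₀ x (Real.log D) l lam θ q)
    (hc : c ≤ nu m κ mu x l (fun _ => (1 : ℝ)))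
    (herr : K * lam * (Real.exp (2 * l) / 2) + (K * lam + θ) * (l - Real.log D) * q ^ 2 <
      c * q ^ 2) : (Ht T x D).Nonempty := by
  have hup := hfl.up hx.le hq hx.dom hx.en hx.er (by
    have := test_const (W := W) (q := q)
    rwa [abs_of_pos hq] at this)
  by_contra hcon
  rw [not_nonempty_iff_eq_empty] at hcon
  have h0 : nu m κ mu x (Real.log D) (fun _ : W => q ^ 2) = 0 := by
    refine nu_eq_zero hκ hg.null fun y hy => ?_
    rw [Real.exp_log hD, hcon] at hy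
    exact absurd hy (notMem_empty y)
  have h1 : nu m κ mu x l (fun _ : W => q ^ 2) = q ^ 2 * nu m κ mu x l (fun _ => (1 : ℝ)) := by
    have := nu_const_mul (m := m) (κ := κ) (mu := mu) x l (q ^ 2) (fun _ : W => (1 : ℝ))
    simpa using this
  rw [h0, h1] at hup
  have h2 : c * q ^ 2 ≤ q ^ 2 * nu m κ mu x l (fun _ => (1 : ℝ)) := by
    rw [mul_comm c]
    exact mul_le_mul_of_nonneg_left hc (sq_nonneg q)
  linarith

set_option maxHeartbeats 2000000 in
/-- **THEOREM RUN**, in the form of `Core1_809.pt_false`. -/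
theorem hrun (hm : finrank ℝ H = m) (hfl : Flow m κ mu en R er K x₀ ρ₀)
    {erw : H → ℝ → ℝ → ℝ} {θ₁ θw : ℝ} (hwf : WFlow m κ mu en erw K θ₁ x₀ ρ₀) (hκ : Ker κ Kκ cκ)
    {S : Set (H × W)} {Cμ c0 : ℝ} (hCμ : 0 ≤ Cμ) (hg : Geo m mu S c0 x₀ ρ₀)
    {n : ℕ} (hn1 : 1 ≤ n) (hn : 2 ^ m * Cμ / c0 ≤ n)
    {x : H} {lmin lmax : ℝ} {N : ℝ → (W → ℝ) → ℝ} {C₅ : ℝ}
    (hN : Centre m κ mu x lmin lmax N C₅)
    {L0 a0 T M A θ θ₂ C₄ Ce CR c1 Lg : ℝ} {U e R' : ℝ → ℝ}
    (hlmin : lmin ≤ L0 + a0 - Real.log 4) (hlmax : L0 + T ≤ lmax)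
    (hdom : dist x x₀ + 17 * Real.exp (L0 + T) ≤ ρ₀)
    (hfin : en (cyl x (17 * Real.exp (L0 + T)) univ) ≠ ⊤)
    (hM : 0 < M) (hCe : 0 ≤ Ce) (hCR : 0 ≤ CR) (hC₄ : 0 < C₄) (hθ : 0 ≤ θ) (hθ₂ : 0 ≤ θ₂)
    -- the energy `e`
    (he : ∀ t ∈ Icc a0 T, (en (cyl x (17 * Real.exp (L0 + t)) univ)).toReal ≤
      Ce * Real.exp (m * (L0 + t)) * Real.exp (-(2 * (L0 + t))) * e (t + 3))
    -- `U`
    (hUa : 0 < U a0) (hU0 : 0 ≤ U (a0 - Real.log 4))
    (hR0 : ∀ l ∈ Icc (L0 + a0 - Real.log 4) (L0 + T + Real.log 4), 0 ≤ R' l)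
    (hU : ∀ l ∈ Icc (L0 + a0 - Real.log 4) (L0 + T + Real.log 4),
      HasDerivAt (fun l => U (l - L0)) (R' l) l)
    (hUR : ∀ t ∈ Icc a0 T, U (t + Real.log 4) - U t ≤ CR * e (t + 3))
    -- the errors
    (her : ∀ x' l q, dist x x' ≤ Real.exp (L0 + T) → Real.exp l ≤ 4 * Real.exp (L0 + T) →
      M * √(U a0) ≤ q → M * √(U a0) ≤ 16 * Real.exp l →
      (en (cyl x' (Real.exp l) univ)).toReal ≤ Real.exp (m * l) →
      (en (cyl x' (Real.exp l) univ)).toReal * Real.exp (2 * l) ≤ q ^ 2 * Real.exp (m * l) →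
      mu (cyl x' (Real.exp l) univ) ≤ ENNReal.ofReal (Cμ * Real.exp (m * l)) →
      er x' l q ≤ θ * q ^ 2)
    (herw : ∀ x' l q, dist x x' ≤ Real.exp (L0 + T) → Real.exp l ≤ 4 * Real.exp (L0 + T) →
      M * √(U a0) ≤ q → M * √(U a0) ≤ 16 * Real.exp l →
      (en (cyl x' (Real.exp l) univ)).toReal ≤ Real.exp (m * l) →
      (en (cyl x' (Real.exp l) univ)).toReal * Real.exp (2 * l) ≤ q ^ 2 * Real.exp (m * l) →
      mu (cyl x' (Real.exp l) univ) ≤ ENNReal.ofReal (Cμ * Real.exp (m * l)) →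
      erw x' l q ≤ θw * q ^ 2)
    -- mass at good centres
    (hms : ∀ x' l0 l1 lam, dist x x' ≤ Real.exp l1 / 64 → L0 + a0 + Real.log 4 ≤ l1 →
      l1 ≤ L0 + T + Real.log 4 → l0 ≤ l1 → M * √(U a0) ≤ 16 * Real.exp l0 →
      l1 + Real.log 4 - l0 ≤ 3 * Lg → 0 ≤ lam → lam ≤ 1 →
      (∀ l ∈ Icc l0 (l1 + Real.log 4),
        (en (cyl x' (Real.exp l) univ)).toReal ≤ lam * Real.exp (m * l)) →
      lam * (l1 + Real.log 4 - l0) ≤ 1 →
      ∀ l ∈ Icc l0 l1, mu (cyl x' (Real.exp l) univ) ≤ ENNReal.ofReal (Cμ * Real.exp (m * l)))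
    (hdr : ∀ q, M * √(U a0) ≤ q → q ≤ M * √(U T * T) →
      DriftAt N C₄ θ₂ (L0 + a0 - Real.log 4) (L0 + T + Real.log 4) q R')
    -- mass at the contact centre
    (hmass : ∀ t ∈ Icc a0 T, c1 ≤ N (L0 + t) (fun _ => (1 : ℝ)))
    (hb1 : b1 m cκ c0 / (8 * C₅) < c1)
    -- the window
    (hLg1 : 1 ≤ Lg) (hLg : Real.log (64 * Real.exp (L0 + T) / (M * √(U a0))) ≤ Lg)
    (hw1 : M ^ 2 * (U T * T) * Lg ≤ Real.exp (2 * (L0 + a0)))
    (hθw : 0 ≤ θw) (hw2 : θw * Lg * (U T * T) ≤ U a0) (hw5 : θ₁ * Lg ≤ 1) (hw3 : θ * Lg ≤ b1 m cκ c0 / (32 * C₅ ^ 2))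
    (hw4 : θ₂ * (T + 3) ≤ b1 m cκ c0 / (8 * C₅))
    -- the constants `A`, `M`
    (hA0 : 0 < A) (hA1 : 16 * (2 * 80 ^ m * Ce * K) / A ≤ b1 m cκ c0 / (32 * C₅ ^ 2))
    (hA2 : 32 * 80 ^ m * Ce ≤ A) (hA3 : 2 * 80 ^ m * Ce * K ≤ A)
    (hA4 : 4 * C₄ ^ 2 * Real.log 4 * CR ≤ (b1 m cκ c0 / (8 * C₅)) ^ 2 * A)
    (hM1 : 12 * C₄ ^ 2 ≤ (b1 m cκ c0 / (8 * C₅)) ^ 2 * M ^ 2) :
    ∀ τ : ℕ → ℝ, (∀ i ≤ n, a0 ≤ τ i ∧ τ i ≤ T ∧ 1 ≤ τ i) →
      (∀ i < n, 16 * τ i ≤ τ (i + 1)) →
      (∀ i ≤ n, A * e (τ i + 3) ≤ M ^ 2 * (U (τ i) * τ i)) →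
      ∃ i < n, ∃ w : WCfg W, w.q ^ 2 = M ^ 2 * (U (τ (i + 1)) * τ (i + 1)) / 4 ∧
        2 * N (L0 + τ i) (wells w.C w.q) ≤
          (6 * C₅ * (Kκ * Cμ / 2 + b1 m cκ c0 / 16 + 1 / 2)) * M ^ 2 * (U (τ i) * τ i) := by
  intro τ hτ hτ16 hτe
  have hb : 0 < b1 m cκ c0 := by
    unfold b1
    have := hκ.cpos
    have := hg.cpos
    positivity
  have hC₅ : 0 < C₅ := lt_of_lt_of_le one_pos hN.C1
  have hlog4 : 0 < Real.log 4 := Real.log_pos (by norm_num)
  have hlog42 : Real.log 4 ≤ 2 := by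
    have h1 : Real.log 4 = 2 * Real.log 2 := by
      rw [show (4 : ℝ) = 2 ^ 2 by norm_num, Real.log_pow]; norm_num
    have := Real.log_two_lt_d9
    rw [h1]; linarith
  have hexp4 : Real.exp (Real.log 4) = 4 := Real.exp_log (by norm_num)
  have hK := hfl.K0
  have haT : a0 ≤ T := (hτ 0 (Nat.zero_le _)).1.trans (hτ 0 (Nat.zero_le _)).2.1
  have hT1 : 1 ≤ T := (hτ 0 (Nat.zero_le _)).2.2.trans (hτ 0 (Nat.zero_le _)).2.1
  -- monotonicity of `U`
  have hUmono : ∀ a b, a0 - Real.log 4 ≤ a → a ≤ b → b ≤ T + Real.log 4 → U a ≤ U b := by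
    intro a b h1 h2 h3
    have h4 := le_of_deriv_le (f := fun _ : ℝ => (0 : ℝ)) (g := fun l => U (l - L0))
      (a := L0 + a) (b := L0 + b) (by linarith) (fun l hl => by
        have hl' : l ∈ Icc (L0 + a0 - Real.log 4) (L0 + T + Real.log 4) :=
          ⟨by linarith [hl.1], by linarith [hl.2]⟩
        exact ⟨0, R' l, hasDerivAt_const _ _, hU l hl', hR0 l hl'⟩)
    rw [add_sub_cancel_left, add_sub_cancel_left] at h4
    linarith
  have hUpos : ∀ i ≤ n, U a0 ≤ U (τ i) := fun i hi =>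
    hUmono _ _ (by linarith) (hτ i hi).1 (by linarith [(hτ i hi).2.1])
  have hUi : ∀ i ≤ n, 0 < U (τ i) := fun i hi => lt_of_lt_of_le hUa (hUpos i hi)
  obtain ⟨r, hrdef⟩ : ∃ r : ℕ → ℝ, ∀ i, r i = M * √(U (τ i) * τ i) := ⟨_, fun _ => rfl⟩
  have hr2 : ∀ i ≤ n, r i ^ 2 = M ^ 2 * (U (τ i) * τ i) := by
    intro i hi
    have h1 := (hUi i hi).le
    have h2 := (hτ i hi).2.2
    rw [hrdef, mul_pow, Real.sq_sqrt (by positivity)]
  have hrpos : ∀ i ≤ n, 0 < r i := by
    intro i hi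
    have h1 := hUi i hi
    have h2 := (hτ i hi).2.2
    have : 0 < U (τ i) * τ i := by positivity
    rw [hrdef]
    exact mul_pos hM (Real.sqrt_pos.2 this)
  have hrmin : ∀ i ≤ n, M * √(U a0) ≤ r i := by
    intro i hi
    rw [hrdef]
    refine mul_le_mul_of_nonneg_left (Real.sqrt_le_sqrt ?_) hM.le
    have h1 := hUpos i hi
    have h2 := (hτ i hi).2.2
    exact h1.trans (le_mul_of_one_le_right (hUi i hi).le h2)
  have hrmax : ∀ i ≤ n, r i ≤ M * √(U T * T) := by
    intro i hi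
    rw [hrdef]
    refine mul_le_mul_of_nonneg_left (Real.sqrt_le_sqrt ?_) hM.le
    have h1 := hUmono (τ i) T (by linarith [(hτ i hi).1]) (hτ i hi).2.1 (by linarith)
    have h2 := (hτ i hi).2.2
    have h3 := (hτ i hi).2.1
    have h4 := hUi i hi
    exact mul_le_mul h1 h3 (by linarith only [h2]) (h4.le.trans h1)
  have hUT : 0 < U T := lt_of_lt_of_le hUa (hUmono _ _ (by linarith) haT (by linarith))
  have hrT : ∀ i ≤ n, r i ^ 2 * Lg ≤ Real.exp (2 * (L0 + a0)) := by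
    intro i hi
    have h1 : r i ^ 2 ≤ M ^ 2 * (U T * T) := by
      have h2 := pow_le_pow_left₀ (hrpos i hi).le (hrmax i hi) 2
      have h3 : 0 ≤ U T * T := by positivity
      rwa [mul_pow M, Real.sq_sqrt h3] at h2
    calc r i ^ 2 * Lg ≤ M ^ 2 * (U T * T) * Lg := mul_le_mul_of_nonneg_right h1 (by linarith)
      _ ≤ _ := hw1
  have hexpa : ∀ i ≤ n, Real.exp (2 * (L0 + a0)) ≤ Real.exp (L0 + τ i) ^ 2 := by
    intro i hi
    rw [← Real.exp_nat_mul]
    refine Real.exp_le_exp.2 ?_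
    push_cast
    linarith [(hτ i hi).1]
  have hrs : ∀ i ≤ n, r i ≤ Real.exp (L0 + τ i) := by
    intro i hi
    have h1 := (hrT i hi).trans (hexpa i hi)
    have h2 : r i ^ 2 ≤ r i ^ 2 * Lg := le_mul_of_one_le_right (sq_nonneg _) hLg1
    exact (pow_le_pow_iff_left₀ (hrpos i hi).le (Real.exp_pos _).le two_ne_zero).1 (h2.trans h1)
  -- the good centres
  obtain ⟨s, hsdef⟩ : ∃ s : ℕ → ℝ, ∀ i, s i = Real.exp (L0 + τ i) := ⟨_, fun _ => rfl⟩
  have hs0 : ∀ i, 0 < s i := fun i => by rw [hsdef]; exact Real.exp_pos _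
  have hsT : ∀ i ≤ n, s i ≤ Real.exp (L0 + T) := fun i hi => by
    rw [hsdef]
    exact Real.exp_le_exp.2 (by linarith [(hτ i hi).2.1])
  have hfini : ∀ i ≤ n, en (cyl x (17 * s i) univ) ≠ ⊤ := by
    intro i hi
    refine ne_top_of_le_ne_top hfin (measure_mono (prod_mono (closedBall_subset_closedBall ?_)
      le_rfl))
    linarith [hsT i hi]
  have hex : ∀ i, ∃ x', i ≤ n → dist x x' ≤ s i / 16 ∧ ∀ ρ, 0 < ρ → ρ ≤ 16 * s i →
      (en (cyl x' ρ univ)).toReal ≤
        2 * 80 ^ m * (en (cyl x (17 * s i) univ)).toReal / s i ^ m * ρ ^ m := by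
    intro i
    by_cases hi : i ≤ n
    · obtain ⟨x', h1, h2⟩ := exists_good m hm en x (hs0 i) (hfini i hi)
      exact ⟨x', fun _ => ⟨h1, h2⟩⟩
    · exact ⟨x, fun h => absurd h hi⟩
  choose xs hxs using hex
  obtain ⟨lam, hlamdef⟩ : ∃ lam : ℕ → ℝ, ∀ i, lam i =
      2 * 80 ^ m * (en (cyl x (17 * s i) univ)).toReal / s i ^ m := ⟨_, fun _ => rfl⟩
  have hlam0 : ∀ i, 0 ≤ lam i := by
    intro i
    have : 0 ≤ (en (cyl x (17 * s i) univ)).toReal := ENNReal.toReal_nonneg
    have := (hs0 i).le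
    rw [hlamdef]
    positivity
  -- `lam i * s i ^ 2 ≤ 2 * 80 ^ m * Ce / A * r i ^ 2`
  have hlams : ∀ i ≤ n, lam i * s i ^ 2 ≤ 2 * 80 ^ m * Ce / A * r i ^ 2 := by
    intro i hi
    have h1 := he (τ i) ⟨(hτ i hi).1, (hτ i hi).2.1⟩
    have h2 : Real.exp (m * (L0 + τ i)) = s i ^ m := by
      rw [hsdef, ← Real.exp_nat_mul]
    have h3 : Real.exp (-(2 * (L0 + τ i))) = 1 / s i ^ 2 := by
      rw [hsdef, ← Real.exp_nat_mul, Real.exp_neg, one_div]
      push_cast
      rfl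
    rw [h2, h3, ← hsdef] at h1
    have hs2 : 0 < s i ^ 2 := pow_pos (hs0 i) 2
    have hsm : 0 < s i ^ m := pow_pos (hs0 i) m
    have h4 : lam i * s i ^ 2 ≤ 2 * 80 ^ m * Ce * e (τ i + 3) := by
      have h5 : lam i * s i ^ 2 = 2 * 80 ^ m *
          ((en (cyl x (17 * s i) univ)).toReal * (s i ^ 2 / s i ^ m)) := by
        rw [hlamdef]
        field_simp
      rw [h5]
      have h6 : (en (cyl x (17 * s i) univ)).toReal * (s i ^ 2 / s i ^ m) ≤
          Ce * s i ^ m * (1 / s i ^ 2) * e (τ i + 3) * (s i ^ 2 / s i ^ m) :=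
        mul_le_mul_of_nonneg_right h1 (by positivity)
      have h7 : Ce * s i ^ m * (1 / s i ^ 2) * e (τ i + 3) * (s i ^ 2 / s i ^ m) =
          Ce * e (τ i + 3) := by
        calc _ = Ce * e (τ i + 3) * (s i ^ m / s i ^ m) * (s i ^ 2 / s i ^ 2) := by ring
          _ = _ := by rw [div_self hsm.ne', div_self hs2.ne', mul_one, mul_one]
      rw [h7] at h6
      calc _ ≤ 2 * 80 ^ m * (Ce * e (τ i + 3)) := mul_le_mul_of_nonneg_left h6 (by positivity)
        _ = _ := by ring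
    have h8 : e (τ i + 3) ≤ r i ^ 2 / A := by
      rw [le_div_iff₀ hA0, hr2 i hi]
      linarith [hτe i hi]
    calc lam i * s i ^ 2 ≤ 2 * 80 ^ m * Ce * e (τ i + 3) := h4
      _ ≤ 2 * 80 ^ m * Ce * (r i ^ 2 / A) := mul_le_mul_of_nonneg_left h8 (by positivity)
      _ = _ := by ring
  have hCA : 2 * 80 ^ m * Ce / A ≤ 1 / 16 := by
    rw [div_le_iff₀ hA0]
    linarith
  have hlam1 : ∀ i ≤ n, lam i ≤ 1 := by
    intro i hi
    have h1 := hlams i hi
    have h2 := hrs i hi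
    rw [← hsdef] at h2
    have h3 : r i ^ 2 ≤ s i ^ 2 := pow_le_pow_left₀ (hrpos i hi).le h2 2
    have hs2 : 0 < s i ^ 2 := pow_pos (hs0 i) 2
    have h4 : 2 * 80 ^ m * Ce / A * r i ^ 2 ≤ 1 / 16 * s i ^ 2 := by
      calc 2 * 80 ^ m * Ce / A * r i ^ 2 ≤ 1 / 16 * r i ^ 2 :=
            mul_le_mul_of_nonneg_right hCA (sq_nonneg _)
        _ ≤ _ := by linarith
    exact le_of_mul_le_mul_right (by linarith only [h1, h4, h3, hs2] : lam i * s i ^ 2 ≤ 1 * s i ^ 2) hs2
  -- smallness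
  have hsm2 : ∀ i, Real.exp (2 * (L0 + τ i)) = s i ^ 2 := by
    intro i
    rw [hsdef, ← Real.exp_nat_mul]; push_cast; rfl
  have h1 : ∀ i ≤ n, 8 * K * lam i * Real.exp (2 * (L0 + τ i)) ≤
      b1 m cκ c0 / (16 * C₅ ^ 2) * r i ^ 2 := by
    intro i hi
    rw [hsm2]
    have h2 := hlams i hi
    have h3 : 8 * K * lam i * s i ^ 2 ≤ 8 * K * (2 * 80 ^ m * Ce / A * r i ^ 2) := by
      rw [mul_assoc]
      exact mul_le_mul_of_nonneg_left h2 (by positivity)
    have h4 : 8 * K * (2 * 80 ^ m * Ce / A * r i ^ 2) =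
        (16 * (2 * 80 ^ m * Ce * K) / A) / 2 * r i ^ 2 := by ring
    rw [h4] at h3
    refine h3.trans (mul_le_mul_of_nonneg_right ?_ (sq_nonneg _))
    have h5 : b1 m cκ c0 / (16 * C₅ ^ 2) = 2 * (b1 m cκ c0 / (32 * C₅ ^ 2)) := by
      field_simp; ring
    rw [h5]
    have h6 : 0 ≤ 16 * (2 * 80 ^ m * Ce * K) / A := by positivity
    linarith
  have hlog : ∀ i ≤ n, L0 + τ i + Real.log 4 - Real.log (r i / 16) ≤ Lg := by
    intro i hi
    have hri := hrpos i hi
    have hsi := hs0 i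
    refine le_trans (le_of_eq ?_) ((Real.log_le_log (by positivity)
      (?_ : 64 * s i / r i ≤ 64 * Real.exp (L0 + T) / (M * √(U a0)))).trans hLg)
    · rw [Real.log_div (by positivity) hri.ne', Real.log_mul (by norm_num) (hs0 i).ne',
        Real.log_div hri.ne' (by norm_num)]
      have h5 : Real.log 64 = Real.log 4 + Real.log 16 := by
        rw [← Real.log_mul (by norm_num) (by norm_num)]; norm_num
      have h6 : Real.log (s i) = L0 + τ i := by rw [hsdef]; exact Real.log_exp _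
      rw [h5, h6]; ring
    · have h7 : 0 < M * √(U a0) := mul_pos hM (Real.sqrt_pos.2 hUa)
      exact div_le_div₀ (by positivity) (by linarith [hsT i hi]) h7 (hrmin i hi)
  have hgood : ∀ i ≤ n, ∀ q, r i ≤ q →
      Good m mu en er Cμ x₀ ρ₀ (xs i) (Real.log (r i / 16)) (L0 + τ i + Real.log 4) (lam i)
        θ q := by
    intro i hi q hq
    obtain ⟨h1', h2⟩ := hxs i hi
    have hri := hrpos i hi
    have hen' : ∀ l ∈ Icc (Real.log (r i / 16)) (L0 + τ i + Real.log 4 + Real.log 4),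
        (en (cyl (xs i) (Real.exp l) univ)).toReal ≤ lam i * Real.exp (m * l) := by
      intro l hl
      have h3 := h2 (Real.exp l) (Real.exp_pos l) (by
        have h4 := Real.exp_le_exp.2 hl.2
        rw [Real.exp_add, Real.exp_add, hexp4, ← hsdef] at h4
        have := hs0 i
        linarith)
      rw [← Real.exp_nat_mul, ← hlamdef] at h3
      exact h3
    have hen : ∀ l ∈ Icc (Real.log (r i / 16)) (L0 + τ i + Real.log 4),
        (en (cyl (xs i) (Real.exp l) univ)).toReal ≤ lam i * Real.exp (m * l) :=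
      fun l hl => hen' l ⟨hl.1, by linarith [hl.2]⟩
    have hle : Real.log (r i / 16) ≤ L0 + τ i + Real.log 4 := by
      rw [Real.log_le_iff_le_exp (by positivity), Real.exp_add, hexp4]
      have := hrs i hi
      have := Real.exp_pos (L0 + τ i)
      linarith
    have hmass' : ∀ l ∈ Icc (Real.log (r i / 16)) (L0 + τ i + Real.log 4),
        mu (cyl (xs i) (Real.exp l) univ) ≤ ENNReal.ofReal (Cμ * Real.exp (m * l)) := by
      refine hms (xs i) _ _ (lam i) ?_ ?_ ?_ hle ?_ ?_ (hlam0 i) (hlam1 i hi) hen' ?_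
      · rw [Real.exp_add, hexp4, ← hsdef]
        linarith
      · linarith [(hτ i hi).1]
      · linarith [(hτ i hi).2.1]
      · rw [Real.exp_log (by positivity)]
        linarith [hrmin i hi]
      · have := hlog i hi
        linarith
      · have h3 : L0 + τ i + Real.log 4 + Real.log 4 - Real.log (r i / 16) ≤ 3 * Lg := by
          have := hlog i hi
          linarith
        have hs2 : 0 < s i ^ 2 := pow_pos (hs0 i) 2
        have h4 : lam i ≤ 2 * 80 ^ m * Ce / A * r i ^ 2 / s i ^ 2 := by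
          rw [le_div_iff₀ hs2]
          exact hlams i hi
        have h5 : r i ^ 2 * Lg / s i ^ 2 ≤ 1 := by
          rw [div_le_one hs2, hsdef]
          exact (hrT i hi).trans (hexpa i hi)
        have h6 : 0 ≤ 2 * 80 ^ m * Ce / A := by positivity
        calc lam i * (L0 + τ i + Real.log 4 + Real.log 4 - Real.log (r i / 16))
            ≤ lam i * (3 * Lg) := mul_le_mul_of_nonneg_left h3 (hlam0 i)
          _ ≤ 2 * 80 ^ m * Ce / A * r i ^ 2 / s i ^ 2 * (3 * Lg) :=
              mul_le_mul_of_nonneg_right h4 (by linarith)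
          _ = 3 * (2 * 80 ^ m * Ce / A) * (r i ^ 2 * Lg / s i ^ 2) := by ring
          _ ≤ 3 * (1 / 16) * 1 := by
              refine mul_le_mul ?_ h5 (by positivity) (by norm_num)
              linarith
          _ ≤ 1 := by norm_num
    refine ⟨?_, ?_, hen, ?_, hCμ, hmass'⟩
    · exact hle
    · rw [Real.exp_add, hexp4, ← hsdef]
      have h3 := hsT i hi
      have h4 := dist_triangle (xs i) x x₀
      rw [dist_comm (xs i) x] at h4
      have := hs0 i
      linarith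
    · intro l hl
      have h3 := hen l hl
      have h4 : Real.exp l ≤ 4 * s i := by
        have h5 := Real.exp_le_exp.2 hl.2
        rw [Real.exp_add, hexp4, ← hsdef] at h5
        linarith
      have h5 : r i / 16 ≤ Real.exp l := by
        rw [← Real.log_le_iff_le_exp (by positivity)]
        exact hl.1
      refine her (xs i) l q ?_ ?_ ((hrmin i hi).trans hq) ?_ ?_ ?_ (hmass' l hl)
      · have := hsT i hi
        have := hs0 i
        linarith
      · have := hsT i hi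
        linarith
      · have := hrmin i hi
        linarith
      · refine h3.trans ?_
        have := Real.exp_pos (m * l)
        exact mul_le_of_le_one_left this.le (hlam1 i hi)
      · have h6 : Real.exp (2 * l) ≤ 16 * s i ^ 2 := by
          have h7 : Real.exp (2 * l) = Real.exp l ^ 2 := by
            rw [← Real.exp_nat_mul]; push_cast; rfl
          rw [h7]
          calc Real.exp l ^ 2 ≤ (4 * s i) ^ 2 := pow_le_pow_left₀ (Real.exp_pos l).le h4 2
            _ = _ := by ring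
        have h8 : lam i * Real.exp (2 * l) ≤ q ^ 2 := by
          calc lam i * Real.exp (2 * l) ≤ lam i * (16 * s i ^ 2) :=
                mul_le_mul_of_nonneg_left h6 (hlam0 i)
            _ = 16 * (lam i * s i ^ 2) := by ring
            _ ≤ 16 * (2 * 80 ^ m * Ce / A * r i ^ 2) :=
                mul_le_mul_of_nonneg_left (hlams i hi) (by norm_num)
            _ ≤ 16 * (1 / 16 * r i ^ 2) := by
                refine mul_le_mul_of_nonneg_left ?_ (by norm_num)
                exact mul_le_mul_of_nonneg_right hCA (sq_nonneg _)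
            _ = r i ^ 2 := by ring
            _ ≤ q ^ 2 := pow_le_pow_left₀ hri.le hq 2
        calc (en (cyl (xs i) (Real.exp l) univ)).toReal * Real.exp (2 * l)
            ≤ lam i * Real.exp (m * l) * Real.exp (2 * l) :=
              mul_le_mul_of_nonneg_right h3 (Real.exp_pos _).le
          _ = lam i * Real.exp (2 * l) * Real.exp (m * l) := by ring
          _ ≤ q ^ 2 * Real.exp (m * l) := mul_le_mul_of_nonneg_right h8 (Real.exp_pos _).le
  have hlogpos : ∀ i ≤ n, 0 ≤ L0 + τ i + Real.log 4 - Real.log (r i / 16) := by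
    intro i hi
    have := (hgood i hi (r i) le_rfl).le
    linarith
  have hKlog : ∀ i ≤ n, K * lam i * (L0 + τ i + Real.log 4 - Real.log (r i / 16)) ≤
      2 * 80 ^ m * Ce * K / A * (r i ^ 2 * Lg / s i ^ 2) := by
    intro i hi
    have hs2 : 0 < s i ^ 2 := pow_pos (hs0 i) 2
    have h2 : lam i ≤ 2 * 80 ^ m * Ce / A * r i ^ 2 / s i ^ 2 := by
      rw [le_div_iff₀ hs2]
      exact hlams i hi
    calc K * lam i * (L0 + τ i + Real.log 4 - Real.log (r i / 16))
        ≤ K * lam i * Lg :=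
          mul_le_mul_of_nonneg_left (hlog i hi) (mul_nonneg hK (hlam0 i))
      _ ≤ K * (2 * 80 ^ m * Ce / A * r i ^ 2 / s i ^ 2) * Lg :=
          mul_le_mul_of_nonneg_right (mul_le_mul_of_nonneg_left h2 hK) (by linarith)
      _ = _ := by ring
  have hrLs : ∀ i ≤ n, r i ^ 2 * Lg / s i ^ 2 ≤ 1 := by
    intro i hi
    rw [div_le_one (pow_pos (hs0 i) 2), hsdef]
    exact (hrT i hi).trans (hexpa i hi)
  have h2 : ∀ i ≤ n, (K * lam i + θ) * (L0 + τ i + Real.log 4 - Real.log (r i / 16)) ≤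
      b1 m cκ c0 / (16 * C₅ ^ 2) := by
    intro i hi
    have h3 := hKlog i hi
    have h4 := hrLs i hi
    have h5 : 2 * 80 ^ m * Ce * K / A * (r i ^ 2 * Lg / s i ^ 2) ≤
        b1 m cκ c0 / (32 * C₅ ^ 2) := by
      have h6 : 0 ≤ 2 * 80 ^ m * Ce * K / A := by positivity
      have h7 : 16 * (2 * 80 ^ m * Ce * K) / A = 16 * (2 * 80 ^ m * Ce * K / A) := by ring
      rw [h7] at hA1
      calc 2 * 80 ^ m * Ce * K / A * (r i ^ 2 * Lg / s i ^ 2) ≤
            2 * 80 ^ m * Ce * K / A * 1 := mul_le_mul_of_nonneg_left h4 h6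
        _ ≤ _ := by linarith
    have h8 : θ * (L0 + τ i + Real.log 4 - Real.log (r i / 16)) ≤ b1 m cκ c0 / (32 * C₅ ^ 2) :=
      (mul_le_mul_of_nonneg_left (hlog i hi) hθ).trans hw3
    have h9 : b1 m cκ c0 / (16 * C₅ ^ 2) = 2 * (b1 m cκ c0 / (32 * C₅ ^ 2)) := by
      field_simp; ring
    rw [h9, add_mul]
    linarith
  have hne : ∀ i ≤ n, (Ht S (xs i) (r i / 16)).Nonempty := by
    intro i hi
    have hri := hrpos i hi
    have g := hgood i hi (r i) le_rfl
    have e1 := hN.le_nu (xs i) (L0 + τ i) (fun _ => (1 : ℝ)) 1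
      (by linarith [(hτ i hi).1]) (by linarith [(hτ i hi).2.1])
      (by have := (hxs i hi).1; have := hs0 i; rw [← hsdef]; linarith)
      measurable_const (fun _ => zero_le_one) (fun _ => le_rfl)
    have e2 := hmass (τ i) ⟨(hτ i hi).1, (hτ i hi).2.1⟩
    have e3 : c1 / C₅ ≤ nu m κ mu (xs i) (L0 + τ i + Real.log 4) (fun _ : W => (1 : ℝ)) := by
      rw [div_le_iff₀ hC₅]; linarith
    refine heights_nonempty hfl hκ hg (by positivity) hri g e3 ?_
    have e4 : K * lam i * (Real.exp (2 * (L0 + τ i + Real.log 4)) / 2) ≤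
        b1 m cκ c0 / (16 * C₅ ^ 2) * r i ^ 2 := by
      have e5 : Real.exp (2 * (L0 + τ i + Real.log 4)) = 16 * Real.exp (2 * (L0 + τ i)) := by
        have : 2 * (L0 + τ i + Real.log 4) = 2 * (L0 + τ i) + (Real.log 4 + Real.log 4) := by ring
        rw [this, Real.exp_add, Real.exp_add, hexp4]; ring
      rw [e5]
      have := h1 i hi
      linarith
    have e6 := mul_le_mul_of_nonneg_right (h2 i hi) (sq_nonneg (r i))
    have e7 : b1 m cκ c0 / (16 * C₅ ^ 2) * r i ^ 2 + b1 m cκ c0 / (16 * C₅ ^ 2) * r i ^ 2 =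
        b1 m cκ c0 / (8 * C₅) / C₅ * r i ^ 2 := by field_simp; ring
    have e8 : b1 m cκ c0 / (8 * C₅) / C₅ * r i ^ 2 < c1 / C₅ * r i ^ 2 :=
      mul_lt_mul_of_pos_right (div_lt_div_of_pos_right hb1 hC₅) (by positivity)
    linarith
  have hτmono : ∀ i < n, τ i ≤ τ (i + 1) := by
    intro i hi
    have := hτ16 i hi
    have := (hτ i hi.le).2.2
    linarith
  have hr : ∀ i < n, 2 * r i ≤ r (i + 1) := by
    intro i hi
    have h3 : (2 * r i) ^ 2 ≤ r (i + 1) ^ 2 := by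
      rw [mul_pow, hr2 i hi.le, hr2 (i + 1) hi]
      have h4 := hUmono (τ i) (τ (i + 1)) (by linarith [(hτ i hi.le).1]) (hτmono i hi)
        (by linarith [(hτ (i + 1) hi).2.1])
      have h5 := hτ16 i hi
      have h6 := (hτ i hi.le).2.2
      have h7 := hUi i hi.le
      have h8 : 16 * (U (τ i) * τ i) ≤ U (τ (i + 1)) * τ (i + 1) := by
        calc 16 * (U (τ i) * τ i) = U (τ i) * (16 * τ i) := by ring
          _ ≤ U (τ (i + 1)) * τ (i + 1) :=
              mul_le_mul h4 h5 (by positivity) (hUi (i + 1) hi).le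
      have h9 : M ^ 2 * (16 * (U (τ i) * τ i)) ≤ M ^ 2 * (U (τ (i + 1)) * τ (i + 1)) :=
        mul_le_mul_of_nonneg_left h8 (sq_nonneg M)
      have h10 : 0 ≤ M ^ 2 * (U (τ i) * τ i) := by positivity
      linarith
    exact (pow_le_pow_iff_left₀ (by have := hrpos i hi.le; positivity)
      (hrpos (i + 1) hi).le two_ne_zero).1 h3
  have hsub1 : ∀ i < n, ∀ l ∈ Icc (L0 + τ i - Real.log 4) (L0 + τ (i + 1) + Real.log 4),
      l ∈ Icc (L0 + a0 - Real.log 4) (L0 + T + Real.log 4) := by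
    intro i hi l hl
    exact ⟨by linarith [hl.1, (hτ i hi.le).1], by linarith [hl.2, (hτ (i + 1) hi).2.1]⟩
  -- the error of the wells
  have herw' : ∀ i < n, ∀ l ∈ Icc (Real.log (r i / 16)) (L0 + τ i + Real.log 4),
      erw (xs i) l (r (i + 1) / 2) ≤ θw * (r (i + 1) / 2) ^ 2 := by
    intro i hi l hl
    have hi0 := hi.le
    have hri := hrpos i hi0
    have hq := hr i hi
    have h3 := (hgood i hi0 (r i) le_rfl).en l hl
    have h4 : Real.exp l ≤ 4 * s i := by
      have h5 := Real.exp_le_exp.2 hl.2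
      rw [Real.exp_add, hexp4, ← hsdef] at h5
      linarith
    have h5 : r i / 16 ≤ Real.exp l := by
      rw [← Real.log_le_iff_le_exp (by positivity)]
      exact hl.1
    have hmin := hrmin i hi0
    have hsT' := hsT i hi0
    have hs0' := hs0 i
    refine herw (xs i) l _ ?_ ?_ ?_ ?_ ?_ ?_ ((hgood i hi0 (r i) le_rfl).mass l hl)
    · have := (hxs i hi0).1
      linarith
    · linarith
    · linarith
    · linarith
    · refine h3.trans ?_
      have := Real.exp_pos (m * l)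
      exact mul_le_of_le_one_left this.le (hlam1 i hi0)
    · have h6 : Real.exp (2 * l) ≤ 16 * s i ^ 2 := by
        have h7 : Real.exp (2 * l) = Real.exp l ^ 2 := by
          rw [← Real.exp_nat_mul]; push_cast; rfl
        rw [h7]
        calc Real.exp l ^ 2 ≤ (4 * s i) ^ 2 := pow_le_pow_left₀ (Real.exp_pos l).le h4 2
          _ = _ := by ring
      have h8 : lam i * Real.exp (2 * l) ≤ (r (i + 1) / 2) ^ 2 := by
        calc lam i * Real.exp (2 * l) ≤ lam i * (16 * s i ^ 2) :=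
              mul_le_mul_of_nonneg_left h6 (hlam0 i)
          _ = 16 * (lam i * s i ^ 2) := by ring
          _ ≤ 16 * (2 * 80 ^ m * Ce / A * r i ^ 2) :=
              mul_le_mul_of_nonneg_left (hlams i hi0) (by norm_num)
          _ ≤ 16 * (1 / 16 * r i ^ 2) := by
              refine mul_le_mul_of_nonneg_left ?_ (by norm_num)
              exact mul_le_mul_of_nonneg_right hCA (sq_nonneg _)
          _ = r i ^ 2 := by ring
          _ ≤ (r (i + 1) / 2) ^ 2 := pow_le_pow_left₀ hri.le (by linarith) 2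
      calc (en (cyl (xs i) (Real.exp l) univ)).toReal * Real.exp (2 * l)
          ≤ lam i * Real.exp (m * l) * Real.exp (2 * l) :=
            mul_le_mul_of_nonneg_right h3 (Real.exp_pos _).le
        _ = lam i * Real.exp (2 * l) * Real.exp (m * l) := by ring
        _ ≤ (r (i + 1) / 2) ^ 2 * Real.exp (m * l) :=
            mul_le_mul_of_nonneg_right h8 (Real.exp_pos _).le
  obtain ⟨i, hi, C, hC1, hC2, hC3, hC4, hC5⟩ := run hfl hκ hwf hg hn1 hn hN
    (fun i => L0 + τ i) r lam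
    xs hC₄ (U := fun l => U (l - L0)) (R' := R') hrpos hr
    (fun i hi => by rw [← hsdef]; exact (hxs i hi).1)
    (fun i hi => by linarith [(hτ i hi).1]) (fun i hi => by linarith [(hτ i hi).2.1]) hgood
    hθw herw'
    (fun i hi => (mul_le_mul_of_nonneg_left (hlog i hi) hwf.θ0).trans hw5)
    (fun i hi => by
      have := hrs i hi
      have := Real.exp_pos (L0 + τ i)
      linarith)
    (fun i _ => hlam0 i) hθ h1 h2 hne (fun i hi => by linarith [hτmono i hi])
    (fun i hi => (hdr (r (i + 1)) (hrmin (i + 1) hi) (hrmax (i + 1) hi)).mono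
      (by linarith [(hτ i hi.le).1]) (by linarith [(hτ (i + 1) hi).2.1]))
    (fun i hi l hl => hR0 l (hsub1 i hi l hl))
    (fun i hi l hl => hU l (hsub1 i hi l hl))
    (by
      intro i hi
      have h3 : U (L0 + τ (i + 1) - L0) - U (L0 + τ i - Real.log 4 - L0) ≤ U (τ (i + 1)) := by
        have e1 : L0 + τ (i + 1) - L0 = τ (i + 1) := by ring
        have e2 : L0 + τ i - Real.log 4 - L0 = τ i - Real.log 4 := by ring
        rw [e1, e2]
        have := hUmono (a0 - Real.log 4) (τ i - Real.log 4) le_rfl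
          (by linarith [(hτ i hi.le).1]) (by linarith [(hτ i hi.le).2.1])
        linarith
      have h4 : L0 + τ (i + 1) - (L0 + τ i - Real.log 4) ≤ 3 * τ (i + 1) := by
        have := (hτ i hi.le).2.2
        have := (hτ (i + 1) hi).2.2
        linarith
      have h5 : 0 ≤ L0 + τ (i + 1) - (L0 + τ i - Real.log 4) := by
        have := hτmono i hi
        linarith
      rw [hr2 (i + 1) hi]
      have h6 := (hUi (i + 1) hi).le
      have h7 := (hτ (i + 1) hi).2.2
      calc 4 * C₄ ^ 2 * (L0 + τ (i + 1) - (L0 + τ i - Real.log 4)) *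
            (U (L0 + τ (i + 1) - L0) - U (L0 + τ i - Real.log 4 - L0))
          ≤ 4 * C₄ ^ 2 * (L0 + τ (i + 1) - (L0 + τ i - Real.log 4)) * U (τ (i + 1)) :=
            mul_le_mul_of_nonneg_left h3 (by positivity)
        _ ≤ 4 * C₄ ^ 2 * (3 * τ (i + 1)) * U (τ (i + 1)) := by
            refine mul_le_mul_of_nonneg_right ?_ h6
            exact mul_le_mul_of_nonneg_left h4 (by positivity)
        _ = 12 * C₄ ^ 2 * (U (τ (i + 1)) * τ (i + 1)) := by ring
        _ ≤ (b1 m cκ c0 / (8 * C₅)) ^ 2 * M ^ 2 * (U (τ (i + 1)) * τ (i + 1)) :=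
            mul_le_mul_of_nonneg_right hM1 (by positivity)
        _ = _ := by ring)
    (by
      intro i hi
      have e1 : L0 + τ (i + 1) + Real.log 4 - L0 = τ (i + 1) + Real.log 4 := by ring
      have e2 : L0 + τ (i + 1) - L0 = τ (i + 1) := by ring
      rw [e1, e2]
      have h3 := hUR (τ (i + 1)) ⟨(hτ (i + 1) hi).1, (hτ (i + 1) hi).2.1⟩
      have h4 : e (τ (i + 1) + 3) ≤ r (i + 1) ^ 2 / A := by
        rw [le_div_iff₀ hA0, hr2 (i + 1) hi]
        linarith [hτe (i + 1) hi]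
      calc 4 * C₄ ^ 2 * Real.log 4 * (U (τ (i + 1) + Real.log 4) - U (τ (i + 1)))
          ≤ 4 * C₄ ^ 2 * Real.log 4 * (CR * (r (i + 1) ^ 2 / A)) := by
            refine mul_le_mul_of_nonneg_left (h3.trans ?_) (by positivity)
            exact mul_le_mul_of_nonneg_left h4 hCR
        _ = 4 * C₄ ^ 2 * Real.log 4 * CR * (r (i + 1) ^ 2 / A) := by ring
        _ ≤ (b1 m cκ c0 / (8 * C₅)) ^ 2 * A * (r (i + 1) ^ 2 / A) :=
            mul_le_mul_of_nonneg_right hA4 (by positivity)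
        _ = _ := by field_simp)
    (by
      intro i hi
      refine le_trans (mul_le_mul_of_nonneg_left ?_ hθ₂) hw4
      have := (hτ i hi.le).2.2
      have := (hτ (i + 1) hi).2.1
      linarith)
  refine ⟨i, hi, ⟨C, r (i + 1) / 2, by have := hrpos (i + 1) hi; positivity, hC4⟩, ?_, ?_⟩
  · simp only
    rw [div_pow, hr2 (i + 1) hi]
    norm_num
  · have h3 := hC5 (L0 + τ i) ⟨by linarith, le_rfl⟩
    have hi0 := hi.le
    have h4 : (K * lam i + θw) * (L0 + τ i + Real.log 4 - Real.log (r i / 16)) *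
        (r (i + 1) / 2) ^ 2 ≤ 1 / 2 * r i ^ 2 := by
      have hs2 : 0 < s i ^ 2 := pow_pos (hs0 i) 2
      have h5 := mul_le_mul_of_nonneg_right (hKlog i hi0) (sq_nonneg (r (i + 1)))
      have h6 : 2 * 80 ^ m * Ce * K / A * (r i ^ 2 * Lg / s i ^ 2) * r (i + 1) ^ 2 ≤ r i ^ 2 := by
        have h7 : 2 * 80 ^ m * Ce * K / A ≤ 1 := by
          rw [div_le_one hA0]; exact hA3
        have h8 : r (i + 1) ^ 2 * Lg / s i ^ 2 ≤ 1 := by
          rw [div_le_one hs2, hsdef]
          exact (hrT (i + 1) hi).trans (hexpa i hi0)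
        calc 2 * 80 ^ m * Ce * K / A * (r i ^ 2 * Lg / s i ^ 2) * r (i + 1) ^ 2
            = 2 * 80 ^ m * Ce * K / A * (r (i + 1) ^ 2 * Lg / s i ^ 2) * r i ^ 2 := by ring
          _ ≤ 1 * 1 * r i ^ 2 := by
              refine mul_le_mul_of_nonneg_right ?_ (sq_nonneg _)
              exact mul_le_mul h7 h8 (by positivity) zero_le_one
          _ = r i ^ 2 := by ring
      have h9 : θw * (L0 + τ i + Real.log 4 - Real.log (r i / 16)) * r (i + 1) ^ 2 ≤ r i ^ 2 := by
        have h10 : r (i + 1) ^ 2 ≤ M ^ 2 * (U T * T) := by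
          have h2 := pow_le_pow_left₀ (hrpos (i + 1) hi).le (hrmax (i + 1) hi) 2
          rwa [mul_pow, Real.sq_sqrt (by positivity)] at h2
        have h11 : M ^ 2 * U a0 ≤ r i ^ 2 := by
          have h2 := pow_le_pow_left₀ (by positivity) (hrmin i hi0) 2
          rwa [mul_pow, Real.sq_sqrt hUa.le] at h2
        calc θw * (L0 + τ i + Real.log 4 - Real.log (r i / 16)) * r (i + 1) ^ 2
            ≤ θw * Lg * (M ^ 2 * (U T * T)) :=
              mul_le_mul (mul_le_mul_of_nonneg_left (hlog i hi0) hθw) h10 (sq_nonneg _)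
                (by positivity)
          _ = M ^ 2 * (θw * Lg * (U T * T)) := by ring
          _ ≤ M ^ 2 * U a0 := mul_le_mul_of_nonneg_left hw2 (sq_nonneg M)
          _ ≤ r i ^ 2 := h11
      have h12 : (K * lam i + θw) * (L0 + τ i + Real.log 4 - Real.log (r i / 16)) *
          (r (i + 1) / 2) ^ 2 = (K * lam i * (L0 + τ i + Real.log 4 - Real.log (r i / 16)) *
          r (i + 1) ^ 2 + θw * (L0 + τ i + Real.log 4 - Real.log (r i / 16)) *
          r (i + 1) ^ 2) / 4 := by ring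
      rw [h12]
      have : 0 ≤ r i ^ 2 := sq_nonneg _
      linarith
    have h13 : C₅ * (3 * ((Kκ * Cμ / 2 + b1 m cκ c0 / 16) * r i ^ 2 +
        (K * lam i + θw) * (L0 + τ i + Real.log 4 - Real.log (r i / 16)) *
          (r (i + 1) / 2) ^ 2)) ≤
        C₅ * (3 * ((Kκ * Cμ / 2 + b1 m cκ c0 / 16 + 1 / 2) * r i ^ 2)) := by
      refine mul_le_mul_of_nonneg_left ?_ hC₅.le
      linarith
    have h14 := h3.trans h13
    rw [hr2 i hi0] at h14
    linarith

end Crest.Agent.R234.Well_761
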