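import Crest.Agent.R234.Well5_761

/-!
Row 234, VF-WELL (helper761), file 6: THEOREM RUN (wells on a long run of scales) and THEOREM NET
(wells at one scale).  The functional `N l F` at the contact centre is abstract
(`nu` itself or an average of `nu` over nearby centres).
-/

set_option autoImplicit false
set_option linter.unusedSectionVars false

open Set Filter Topology MeasureTheory Metric
open scoped ContDiff InnerProductSpace ENNReal

noncomputable section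

namespace Crest.Agent.R234.Well_761

variable {H : Type*} [PseudoMetricSpace H] [MeasurableSpace H] [OpensMeasurableSpace H]
variable {W : Type*} [NormedAddCommGroup W] [InnerProductSpace ℝ W] [MeasurableSpace W]
  [BorelSpace W]

variable {m : ℕ} {κ : ℝ → ℝ} {Kκ cκ : ℝ} {mu en : Measure (H × W)}
  {R : H → ℝ → ℝ} {er : H → ℝ → ℝ → ℝ} {K : ℝ} {x₀ : H} {ρ₀ : ℝ}

/-- a functional comparable with `nu` at the centres close to `x`. -/
structure Centre (m : ℕ) (κ : ℝ → ℝ) (mu : Measure (H × W)) (x : H) (lmin lmax : ℝ)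
    (N : ℝ → (W → ℝ) → ℝ) (C₅ : ℝ) : Prop where
  C1 : 1 ≤ C₅
  le_nu : ∀ x' l F M, lmin ≤ l → l ≤ lmax → dist x x' ≤ Real.exp l / 4 → Measurable F →
    (∀ y, 0 ≤ F y) → (∀ y, F y ≤ M) → N l F ≤ C₅ * nu m κ mu x' (l + Real.log 4) F
  nu_le : ∀ x' l F M, lmin ≤ l → l ≤ lmax → dist x x' ≤ Real.exp l / 4 → Measurable F →
    (∀ y, 0 ≤ F y) → (∀ y, F y ≤ M) → nu m κ mu x' l F ≤ C₅ * N (l + Real.log 4) F

/-- drift bound for bumps at the contact centre. -/
def DriftAt (N : ℝ → (W → ℝ) → ℝ) (C₄ θ₂ a b q : ℝ) (R : ℝ → ℝ) : Prop :=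
  ∀ l ∈ Icc a b, ∀ p : W,
    ∃ d, HasDerivAt (fun l => N l (bump p q)) d l ∧ |d| ≤ C₄ * q * √(R l) + θ₂ * q ^ 2

theorem DriftAt.mono {N : ℝ → (W → ℝ) → ℝ} {C₄ θ₂ a b a' b' q : ℝ} {R : ℝ → ℝ}
    (h : DriftAt N C₄ θ₂ a b q R) (ha : a ≤ a') (hb : b' ≤ b) : DriftAt N C₄ θ₂ a' b' q R :=
  fun l hl p => h l ⟨ha.trans hl.1, hl.2.trans hb⟩ p

theorem sqrt_le_half {a R : ℝ} (ha : 0 < a) (hR : 0 ≤ R) : √R ≤ (a * R + 1 / a) / 2 := by
  have h9 : 0 ≤ (√(a * R) - √(1 / a)) ^ 2 := sq_nonneg _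
  rw [sub_sq, Real.sq_sqrt (by positivity), Real.sq_sqrt (by positivity), mul_assoc,
    ← Real.sqrt_mul (by positivity)] at h9
  have : a * R * (1 / a) = R := by field_simp
  rw [this] at h9
  linarith

/-- integrated drift. -/
theorem DriftAt.int {N : ℝ → (W → ℝ) → ℝ} {C₄ θ₂ a b q : ℝ} {R : ℝ → ℝ}
    (h : DriftAt N C₄ θ₂ a b q R) (hab : a < b) (hC : 0 < C₄) (hq : 0 < q) {β : ℝ} (hβ : 0 < β)
    (hR : ∀ l ∈ Icc a b, 0 ≤ R l) {U : ℝ → ℝ} (hU : ∀ l ∈ Icc a b, HasDerivAt U (R l) l)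
    (h1 : 4 * C₄ ^ 2 * (b - a) * (U b - U a) ≤ β ^ 2 * q ^ 2) (p : W) :
    N b (bump p q) - N a (bump p q) ≤ β * q ^ 2 / 2 + θ₂ * (b - a) * q ^ 2 := by
  set α : ℝ := 2 * C₄ * (b - a) / (β * q) with hα
  have hba : 0 < b - a := sub_pos.2 hab
  have hα0 : 0 < α := by positivity
  have key := le_of_deriv_le (f := fun l => N l (bump p q))
    (g := fun l => C₄ * q * (α * U l + l / α) / 2 + θ₂ * q ^ 2 * l) hab.le ?_
  · refine key.trans ?_
    have e1 : C₄ * q * ((b - a) / α) / 2 = β * q ^ 2 / 4 := by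
      rw [hα]; field_simp; ring
    have e2 : C₄ * q * (α * (U b - U a)) / 2 ≤ β * q ^ 2 / 4 := by
      have : C₄ * q * (α * (U b - U a)) / 2 = (4 * C₄ ^ 2 * (b - a) * (U b - U a)) / (4 * β) := by
        rw [hα]; field_simp
      rw [this, div_le_iff₀ (by positivity)]
      calc 4 * C₄ ^ 2 * (b - a) * (U b - U a) ≤ β ^ 2 * q ^ 2 := h1
        _ = β * q ^ 2 / 4 * (4 * β) := by ring
    have e3 : C₄ * q * (α * U b + b / α) / 2 + θ₂ * q ^ 2 * b -
        (C₄ * q * (α * U a + a / α) / 2 + θ₂ * q ^ 2 * a) =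
        C₄ * q * (α * (U b - U a)) / 2 + C₄ * q * ((b - a) / α) / 2 + θ₂ * (b - a) * q ^ 2 := by
      ring
    rw [e3]
    linarith
  · intro l hl
    obtain ⟨d, hd, hd1⟩ := h l hl p
    have h2 : HasDerivAt (fun l => C₄ * q * (α * U l + l / α) / 2 + θ₂ * q ^ 2 * l)
        (C₄ * q * (α * R l + 1 / α) / 2 + θ₂ * q ^ 2 * 1) l := by
      have e1 := (hU l hl).const_mul α
      have e2 := (hasDerivAt_id l).div_const α
      have e3 := ((e1.add e2).const_mul (C₄ * q)).div_const 2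
      exact e3.add ((hasDerivAt_id l).const_mul (θ₂ * q ^ 2))
    refine ⟨d, _, hd, h2, (le_abs_self d).trans (hd1.trans ?_)⟩
    have h3 := sqrt_le_half hα0 (hR l hl)
    have h4 : C₄ * q * √(R l) ≤ C₄ * q * ((α * R l + 1 / α) / 2) :=
      mul_le_mul_of_nonneg_left h3 (by positivity)
    linarith

/-- the constant `b₁`. -/
def b1 (m : ℕ) (cκ c0 : ℝ) : ℝ := 3 / 512 * cκ * (c0 / 4 ^ m)

/-- **THEOREM RUN**. -/
theorem run (hfl : Flow m κ mu en R er K x₀ ρ₀) (hκ : Ker κ Kκ cκ)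
    {erw : H → ℝ → ℝ → ℝ} {θ₁ θw : ℝ} (hwf : WFlow m κ mu en erw K θ₁ x₀ ρ₀)
    {T : Set (H × W)} {Cμ c0 : ℝ} (hg : Geo m mu T c0 x₀ ρ₀)
    {n : ℕ} (hn1 : 1 ≤ n) (hn : 2 ^ m * Cμ / c0 ≤ n)
    {x : H} {lmin lmax : ℝ} {N : ℝ → (W → ℝ) → ℝ} {C₅ : ℝ}
    (hN : Centre m κ mu x lmin lmax N C₅)
    (τ r lam : ℕ → ℝ) (xs : ℕ → H) {θ C₄ θ₂ : ℝ} (hC₄ : 0 < C₄) {U R' : ℝ → ℝ}
    (hr0 : ∀ i ≤ n, 0 < r i) (hr : ∀ i < n, 2 * r i ≤ r (i + 1))
    (hdist : ∀ i ≤ n, dist x (xs i) ≤ Real.exp (τ i) / 16)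
    (hlmin : ∀ i ≤ n, lmin ≤ τ i - Real.log 4) (hlmax : ∀ i ≤ n, τ i ≤ lmax)
    (hgood : ∀ i ≤ n, ∀ q, r i ≤ q →
      Good m mu en er Cμ x₀ ρ₀ (xs i) (Real.log (r i / 16)) (τ i + Real.log 4) (lam i) θ q)
    (hθw : 0 ≤ θw)
    (herw : ∀ i < n, ∀ l ∈ Icc (Real.log (r i / 16)) (τ i + Real.log 4),
      erw (xs i) l (r (i + 1) / 2) ≤ θw * (r (i + 1) / 2) ^ 2)
    (hθ₁ : ∀ i ≤ n, θ₁ * (τ i + Real.log 4 - Real.log (r i / 16)) ≤ 1)
    (hrs : ∀ i ≤ n, r i ≤ 4 * Real.exp (τ i))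
    (hlam : ∀ i ≤ n, 0 ≤ lam i) (hθ : 0 ≤ θ)
    (h1 : ∀ i ≤ n, 8 * K * lam i * Real.exp (2 * τ i) ≤ b1 m cκ c0 / (16 * C₅ ^ 2) * r i ^ 2)
    (h2 : ∀ i ≤ n, (K * lam i + θ) * (τ i + Real.log 4 - Real.log (r i / 16)) ≤
      b1 m cκ c0 / (16 * C₅ ^ 2))
    (hne : ∀ i ≤ n, (Ht T (xs i) (r i / 16)).Nonempty)
    (hτ : ∀ i < n, τ i ≤ τ (i + 1))
    (hdr : ∀ i < n, DriftAt N C₄ θ₂ (τ i - Real.log 4) (τ (i + 1) + Real.log 4) (r (i + 1)) R')
    (hR : ∀ i < n, ∀ l ∈ Icc (τ i - Real.log 4) (τ (i + 1) + Real.log 4), 0 ≤ R' l)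
    (hU : ∀ i < n, ∀ l ∈ Icc (τ i - Real.log 4) (τ (i + 1) + Real.log 4),
      HasDerivAt U (R' l) l)
    (h3 : ∀ i < n, 4 * C₄ ^ 2 * (τ (i + 1) - (τ i - Real.log 4)) *
      (U (τ (i + 1)) - U (τ i - Real.log 4)) ≤
        (b1 m cκ c0 / (8 * C₅)) ^ 2 * r (i + 1) ^ 2)
    (h3' : ∀ i < n, 4 * C₄ ^ 2 * Real.log 4 * (U (τ (i + 1) + Real.log 4) - U (τ (i + 1))) ≤
        (b1 m cκ c0 / (8 * C₅)) ^ 2 * r (i + 1) ^ 2)
    (h4 : ∀ i < n, θ₂ * (τ (i + 1) + Real.log 4 - (τ i - Real.log 4)) ≤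
      b1 m cκ c0 / (8 * C₅)) :
    ∃ i < n, ∃ C : Finset W, (C : Set W) ⊆ Ht T (xs i) (r i / 16) ∧ C.Nonempty ∧ C.card ≤ n ∧
      Sep C (r (i + 1) / 2) ∧
      (∀ l ∈ Icc (τ i - Real.log 4) (τ i), N l (wells C (r (i + 1) / 2)) ≤
        C₅ * (3 * ((Kκ * Cμ / 2 + b1 m cκ c0 / 16) * r i ^ 2 +
          (K * lam i + θw) * (τ i + Real.log 4 - Real.log (r i / 16)) *
            (r (i + 1) / 2) ^ 2))) := by
  have hb1 : 0 < b1 m cκ c0 := by
    unfold b1
    have := hκ.cpos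
    have := hg.cpos
    positivity
  have hC₅ : 0 < C₅ := lt_of_lt_of_le one_pos hN.C1
  have hlog4 : 0 < Real.log 4 := Real.log_pos (by norm_num)
  have hexp4 : Real.exp (Real.log 4) = 4 := Real.exp_log (by norm_num)
  have hmono : ∀ i < n, r i ≤ r (i + 1) := fun i hi => by
    have := hr i hi
    have := hr0 i hi.le
    linarith
  -- one-sided closeness
  have hclose : ∀ i < n, ∀ p' ∈ Ht T (xs (i + 1)) (r (i + 1) / 16),
      ∃ p ∈ Ht T (xs i) (r i / 16), dist p p' ≤ r (i + 1) / 4 := by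
    intro i hi p' hp'
    set q := r (i + 1) with hqdef
    have hq : 0 < q := hr0 (i + 1) hi
    have hi1 : i + 1 ≤ n := hi
    -- mass at the next good centre
    have g1 := hgood (i + 1) hi1 q le_rfl
    have hD0 : 0 < r (i + 1) / 16 := by positivity
    have hlogD : Real.log (r (i + 1) / 16) ≤ Real.log (4 * (r (i + 1) / 16)) :=
      Real.log_le_log hD0 (by linarith)
    have hlogD2 : Real.log (4 * (r (i + 1) / 16)) ≤ τ (i + 1) := by
      rw [Real.log_le_iff_le_exp (by positivity)]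
      have := hrs (i + 1) hi1
      linarith
    have g2 : Good m mu en er Cμ x₀ ρ₀ (xs (i + 1)) (Real.log (4 * (r (i + 1) / 16))) (τ (i + 1))
        (lam (i + 1)) θ q := g1.mono hlogD (by linarith) hlogD2
    have e1 := heights_mass hfl hκ hg hD0 (by rw [hqdef]) g2 hp'
    have e2 : K * lam (i + 1) * (Real.exp (2 * τ (i + 1)) / 2) ≤
        b1 m cκ c0 / (16 * C₅ ^ 2) * q ^ 2 := by
      have := h1 (i + 1) hi1
      have h0 : 0 ≤ K * lam (i + 1) * Real.exp (2 * τ (i + 1)) := by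
        have := hfl.K0
        have := hlam (i + 1) hi1
        positivity
      linarith
    have e3 : (K * lam (i + 1) + θ) * (τ (i + 1) - Real.log (4 * (r (i + 1) / 16))) * q ^ 2 ≤
        b1 m cκ c0 / (16 * C₅ ^ 2) * q ^ 2 := by
      refine mul_le_mul_of_nonneg_right (le_trans ?_ (h2 (i + 1) hi1)) (sq_nonneg q)
      refine mul_le_mul_of_nonneg_left (by linarith) ?_
      have := hfl.K0
      have := hlam (i + 1) hi1
      positivity
    have hbC : b1 m cκ c0 / (16 * C₅ ^ 2) ≤ b1 m cκ c0 / 16 := by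
      refine div_le_div_of_nonneg_left hb1.le (by norm_num) ?_
      nlinarith [hN.C1]
    have e4 : b1 m cκ c0 / 2 * q ^ 2 ≤ nu m κ mu (xs (i + 1)) (τ (i + 1)) (bump p' q) := by
      have e5 : q ^ 2 * (3 / 512) * cκ * (c0 / 4 ^ m) = b1 m cκ c0 * q ^ 2 := by
        unfold b1; ring
      rw [e5] at e1
      have e6 : b1 m cκ c0 / (16 * C₅ ^ 2) * q ^ 2 ≤ b1 m cκ c0 / 16 * q ^ 2 :=
        mul_le_mul_of_nonneg_right hbC (sq_nonneg q)
      have e7 : 0 ≤ b1 m cκ c0 * q ^ 2 := by positivity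
      linarith
    -- to the contact centre
    have e8 := hN.nu_le (xs (i + 1)) (τ (i + 1)) (bump p' q) (q ^ 2 / 32)
      (by have := hlmin (i + 1) hi1; linarith) (hlmax (i + 1) hi1)
      (by have := hdist (i + 1) hi1; have := Real.exp_pos (τ (i + 1)); linarith)
      (test_bump p' hq).meas (bump_nonneg p' q) (bump_le p' q)
    -- drift
    have hab : τ i - Real.log 4 < τ (i + 1) + Real.log 4 := by
      have := hτ i hi
      linarith
    have e9a := ((hdr i hi).mono le_rfl (by linarith : τ (i + 1) ≤ τ (i + 1) + Real.log 4)).int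
      (by have := hτ i hi; linarith) hC₄ hq (β := b1 m cκ c0 / (8 * C₅)) (by positivity)
      (fun l hl => hR i hi l ⟨hl.1, by linarith [hl.2]⟩)
      (fun l hl => hU i hi l ⟨hl.1, by linarith [hl.2]⟩) (h3 i hi) p'
    have e9b := ((hdr i hi).mono (by have := hτ i hi; linarith :
      τ i - Real.log 4 ≤ τ (i + 1)) le_rfl).int
      (by linarith) hC₄ hq (β := b1 m cκ c0 / (8 * C₅)) (by positivity)
      (fun l hl => hR i hi l ⟨by have := hτ i hi; linarith [hl.1], hl.2⟩)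
      (fun l hl => hU i hi l ⟨by have := hτ i hi; linarith [hl.1], hl.2⟩)
      (by rw [add_sub_cancel_left]; exact h3' i hi) p'
    have e9 : N (τ (i + 1) + Real.log 4) (bump p' q) - N (τ i - Real.log 4) (bump p' q) ≤
        b1 m cκ c0 / (8 * C₅) * q ^ 2 +
          θ₂ * (τ (i + 1) + Real.log 4 - (τ i - Real.log 4)) * q ^ 2 := by
      have e : θ₂ * (τ (i + 1) + Real.log 4 - (τ i - Real.log 4)) * q ^ 2 =
          θ₂ * (τ (i + 1) - (τ i - Real.log 4)) * q ^ 2 +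
          θ₂ * (τ (i + 1) + Real.log 4 - τ (i + 1)) * q ^ 2 := by ring
      rw [e]
      linarith
    have e10 : θ₂ * (τ (i + 1) + Real.log 4 - (τ i - Real.log 4)) * q ^ 2 ≤
        b1 m cκ c0 / (8 * C₅) * q ^ 2 := mul_le_mul_of_nonneg_right (h4 i hi) (sq_nonneg q)
    have e11 : b1 m cκ c0 / (2 * C₅) * q ^ 2 ≤ N (τ (i + 1) + Real.log 4) (bump p' q) := by
      have e12 := e4.trans e8
      have : b1 m cκ c0 / (2 * C₅) * q ^ 2 = b1 m cκ c0 / 2 * q ^ 2 / C₅ := by field_simp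
      rw [this, div_le_iff₀ hC₅]
      linarith
    have e13 : b1 m cκ c0 / (4 * C₅) * q ^ 2 ≤ N (τ i - Real.log 4) (bump p' q) := by
      have e14 : b1 m cκ c0 / (2 * C₅) * q ^ 2 = 2 * (b1 m cκ c0 / (4 * C₅) * q ^ 2) := by
        field_simp; ring
      have e15 : b1 m cκ c0 / (8 * C₅) * q ^ 2 + b1 m cκ c0 / (8 * C₅) * q ^ 2 =
          b1 m cκ c0 / (4 * C₅) * q ^ 2 := by
        field_simp; ring
      linarith
    -- to the good centre of scale `i`
    have e16 := hN.le_nu (xs i) (τ i - Real.log 4) (bump p' q) (q ^ 2 / 32)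
      (hlmin i hi.le) (by have := hlmax i hi.le; linarith)
      (by
        rw [Real.exp_sub, hexp4]
        have := hdist i hi.le
        linarith)
      (test_bump p' hq).meas (bump_nonneg p' q) (bump_le p' q)
    rw [sub_add_cancel] at e16
    have e17 : b1 m cκ c0 / (4 * C₅ ^ 2) * q ^ 2 ≤ nu m κ mu (xs i) (τ i) (bump p' q) := by
      have e18 := e13.trans e16
      have : b1 m cκ c0 / (4 * C₅ ^ 2) * q ^ 2 = b1 m cκ c0 / (4 * C₅) * q ^ 2 / C₅ := by
        field_simp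
      rw [this, div_le_iff₀ hC₅]
      linarith
    have hi0 := hi.le
    have hDi : 0 < r i / 16 := by have := hr0 i hi0; positivity
    have g3 := hgood i hi0 q (hmono i hi)
    have hlogD3 : Real.log (r i / 16) ≤ τ i := by
      rw [Real.log_le_iff_le_exp hDi]
      have := hrs i hi0
      have := hr0 i hi0
      linarith
    have g4 : Good m mu en er Cμ x₀ ρ₀ (xs i) (Real.log (r i / 16)) (τ i) (lam i) θ q :=
      g3.mono le_rfl (by linarith) hlogD3
    refine mass_heights hfl hκ hg hDi hq g4 (lt_of_lt_of_le ?_ e17)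
    have e19 : K * lam i * (Real.exp (2 * τ i) / 2) ≤ b1 m cκ c0 / (16 * C₅ ^ 2) * q ^ 2 := by
      have h5 := h1 i hi0
      have h0 : 0 ≤ K * lam i * Real.exp (2 * τ i) := by
        have := hfl.K0
        have := hlam i hi0
        positivity
      have h6 : b1 m cκ c0 / (16 * C₅ ^ 2) * r i ^ 2 ≤ b1 m cκ c0 / (16 * C₅ ^ 2) * q ^ 2 := by
        refine mul_le_mul_of_nonneg_left ?_ (by positivity)
        exact pow_le_pow_left₀ (hr0 i hi0).le (hmono i hi) 2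
      linarith
    have e20 : (K * lam i + θ) * (τ i - Real.log (r i / 16)) * q ^ 2 ≤
        b1 m cκ c0 / (16 * C₅ ^ 2) * q ^ 2 := by
      refine mul_le_mul_of_nonneg_right (le_trans ?_ (h2 i hi0)) (sq_nonneg q)
      refine mul_le_mul_of_nonneg_left (by linarith) ?_
      have := hfl.K0
      have := hlam i hi0
      positivity
    have e21 : b1 m cκ c0 / (4 * C₅ ^ 2) * q ^ 2 =
        4 * (b1 m cκ c0 / (16 * C₅ ^ 2) * q ^ 2) := by field_simp; ring
    have e22 : 0 < b1 m cκ c0 / (16 * C₅ ^ 2) * q ^ 2 := by positivity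
    linarith
  -- the metric lemma
  obtain ⟨i, hi, C, hC1, hC2, hC3, hC4, hC5⟩ := exists_run (N := n)
    (fun i => Ht T (xs i) (r i / 16)) r (fun i => r i / 4) hne hn1 (hr0 0 (Nat.zero_le _))
    (by
      intro i hi k hk
      have hri := hr0 i hi
      have h7 := card_heights hg (D := r i / 16) (r := r i) (by positivity) (by linarith)
        (hgood i hi (r i) le_rfl) (by
          rw [Real.exp_add, hexp4]
          have := hrs i hi
          linarith) hk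
      exact_mod_cast h7.trans hn)
    hclose
    (by
      intro i hi
      have := hr i hi
      linarith)
  have hq : 0 < r (i + 1) / 2 := by
    have := hr0 (i + 1) hi
    positivity
  have hsep : Sep C (r (i + 1) / 2) := by
    intro c hc c' hc' hne'
    have := hC5 c hc c' hc' hne'
    linarith
  refine ⟨i, hi, C, hC1, hC2, hC3, hsep, fun l hl => ?_⟩
  have hi0 := hi.le
  have hri := hr0 i hi0
  have hDi : 0 < r i / 16 := by positivity
  have g3 := hgood i hi0 (r (i + 1) / 2) (by have := hr i hi; linarith)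
  have e1 := hN.le_nu (xs i) l (wells C (r (i + 1) / 2)) ((r (i + 1) / 2) ^ 2)
    ((hlmin i hi0).trans hl.1) (hl.2.trans (hlmax i hi0))
    (by
      have h5 := hdist i hi0
      have h6 := Real.exp_le_exp.2 hl.1
      rw [Real.exp_sub, hexp4] at h6
      linarith)
    (test_wells hq hsep).meas (wells_nonneg hq hsep)
    (fun y => (le_abs_self _).trans ((test_wells hq hsep).bF y))
  have hlogD3 : Real.log (r i / 16) ≤ l + Real.log 4 := by
    rw [Real.log_le_iff_le_exp hDi, Real.exp_add, hexp4]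
    have h6 := Real.exp_le_exp.2 hl.1
    rw [Real.exp_sub, hexp4] at h6
    have := hrs i hi0
    linarith
  have g4 : Good m mu en er Cμ x₀ ρ₀ (xs i) (Real.log (r i / 16)) (l + Real.log 4) (lam i) θ
      (r (i + 1) / 2) := g3.mono le_rfl (by linarith [hl.2]) hlogD3
  have e2 := wells_small hwf hκ hg hDi hq g4 (hlam i hi0) hθw
    (fun l' hl' => herw i hi l' ⟨hl'.1, by linarith [hl'.2, hl.2]⟩) hsep (r := r i)
    (fun y hy => by
      obtain ⟨c, hc, hd⟩ := hC4 y hy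
      exact ⟨c, hc, hd.le⟩)
  have hKl : 0 ≤ K * lam i := mul_nonneg hfl.K0 (hlam i hi0)
  have e3 : K * lam i * (Real.exp (2 * (l + Real.log 4)) / 2) ≤ b1 m cκ c0 / 16 * r i ^ 2 := by
    have h5 : Real.exp (2 * (l + Real.log 4)) ≤ 16 * Real.exp (2 * τ i) := by
      have : 2 * (l + Real.log 4) = 2 * l + (Real.log 4 + Real.log 4) := by ring
      rw [this, Real.exp_add, Real.exp_add, hexp4]
      have := Real.exp_le_exp.2 (show 2 * l ≤ 2 * τ i by linarith [hl.2])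
      linarith
    have h6 : K * lam i * (Real.exp (2 * (l + Real.log 4)) / 2) ≤
        K * lam i * (16 * Real.exp (2 * τ i) / 2) :=
      mul_le_mul_of_nonneg_left (by linarith) hKl
    have h7 := h1 i hi0
    have hbC : b1 m cκ c0 / (16 * C₅ ^ 2) ≤ b1 m cκ c0 / 16 := by
      refine div_le_div_of_nonneg_left hb1.le (by norm_num) ?_
      nlinarith [hN.C1]
    have h8 : b1 m cκ c0 / (16 * C₅ ^ 2) * r i ^ 2 ≤ b1 m cκ c0 / 16 * r i ^ 2 :=
      mul_le_mul_of_nonneg_right hbC (sq_nonneg _)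
    linarith
  have e4 : (K * lam i + θw) * (l + Real.log 4 - Real.log (r i / 16)) * (r (i + 1) / 2) ^ 2 ≤
      (K * lam i + θw) * (τ i + Real.log 4 - Real.log (r i / 16)) * (r (i + 1) / 2) ^ 2 := by
    refine mul_le_mul_of_nonneg_right (mul_le_mul_of_nonneg_left (by linarith [hl.2]) ?_)
      (sq_nonneg _)
    linarith
  refine e1.trans (mul_le_mul_of_nonneg_left ?_ hC₅.le)
  have e5 : Real.exp (θ₁ * (l + Real.log 4 - Real.log (r i / 16))) ≤ 3 := by
    have h6 : θ₁ * (l + Real.log 4 - Real.log (r i / 16)) ≤ 1 :=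
      (mul_le_mul_of_nonneg_left (by linarith [hl.2]) hwf.θ0).trans (hθ₁ i hi0)
    have h7 := Real.exp_le_exp.2 h6
    have h8 := Real.exp_one_lt_d9
    linarith
  have e6 : 0 ≤ r i ^ 2 / 2 * Kκ * Cμ + K * lam i * (Real.exp (2 * (l + Real.log 4)) / 2) +
      (K * lam i + θw) * (l + Real.log 4 - Real.log (r i / 16)) * (r (i + 1) / 2) ^ 2 := by
    have h6 := hκ.Kpos
    have h7 := g4.Cpos
    have h8 : 0 ≤ l + Real.log 4 - Real.log (r i / 16) := by linarith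
    positivity
  refine e2.trans ((mul_le_mul_of_nonneg_right e5 e6).trans ?_)
  linarith

end Crest.Agent.R234.Well_761
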