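import Crest.Agent.R234.Wi4_870
import Crest.Agent.R234.Avg2_387
import Crest.Agent.R234.Well6_761

/-!
# Row 234, VF-WELLAV (helper870)

`Centre` and `DriftAt` (Well6_761) for the averaged functional
`Nav d V π κ g1 x l F = ∫ d h ν(x - h, l; F) dh` (weights `CW d τ` of helper387).
-/

set_option autoImplicit false

open MeasureTheory Set Function Filter Topology Metric
open Crest.GeometryTopology.Submanifold
open Crest.Agent.R234.Vf_884 Crest.Agent.R234.Ar_870 Crest.Agent.R234.Cy_870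
open Crest.Agent.R234.Avg_387
open scoped ENNReal NNReal InnerProductSpace ContDiff

noncomputable section

namespace Crest.Agent.R234.Wi_870

variable {m n k : ℕ} {π : Euc k →L[ℝ] Euc m} {κ : Euc k →L[ℝ] Euc n} {x x₀ : Euc m}
  {h₀ ρ₀ : ℝ} {V : Measure (Euc k × L k)} {g g1 g2 : ℝ → ℝ} {d : Euc m → ℝ} {τ : ℝ}

/-- averaged functional -/
def Nav (d : Euc m → ℝ) (V : Measure (Euc k × L k)) (π : Euc k →L[ℝ] Euc m)
    (κ : Euc k →L[ℝ] Euc n) (g1 : ℝ → ℝ) (x : Euc m) (l : ℝ) (F : Euc n → ℝ) : ℝ :=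
  av d (fun y l => nuG V π κ y F g1 l) x l

/-- frames at all centres give the frame around `closedBall x τ` -/
theorem afr_of (hfr : ∀ x L, Fr V π κ x L) (hτ : 0 ≤ τ) (x : Euc m) (L₀ : ℝ) :
    AFr V π κ x τ L₀ (Real.log (Real.exp L₀ + τ)) where
  fr := hfr x _
  τ0 := hτ
  le := by rw [Real.exp_log (by positivity)]

/-- kernel integrals with a bounded measurable function of the height are jointly continuous -/
theorem co_kerF (hfr : ∀ x L, Fr V π κ x L) (hτ : 0 ≤ τ) {F : Euc n → ℝ} (hF : Measurable F)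
    {M : ℝ} (hM : ∀ y, |F y| ≤ M) {f : ℝ → ℝ} (hf : Continuous f) {K : ℝ}
    (hK : ∀ t, 0 ≤ t → |f t| ≤ K) (hf0 : ∀ t, 1 ≤ t → f t = 0) (x : Euc m) (L₀ : ℝ) :
    CO x τ L₀ (fun y l => ∫ p, F (κ p.1) * f (Real.exp (-2 * l) * ‖π p.1 - y‖ ^ 2) ∂V) :=
  (afr_of hfr hτ x L₀).co_ker' (c := fun p => F (κ p.1))
    (hF.comp (κ.continuous.comp continuous_fst).measurable).aestronglyMeasurable
    (C := M) (Eventually.of_forall fun _ _ => hM _) hf hK hf0

theorem co_nuG (hfr : ∀ x L, Fr V π κ x L) (hτ : 0 ≤ τ) (hg : Prof g g1 g2) {F : Euc n → ℝ}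
    (hF : Measurable F) {M : ℝ} (hM : ∀ y, |F y| ≤ M) (x : Euc m) (L₀ : ℝ) :
    CO x τ L₀ (fun y l => nuG V π κ y F g1 l) := by
  obtain ⟨K, -, hK, -, -⟩ := hg.k1.exists_bound
  unfold nuG
  refine (co_kerF hfr hτ hF hM (f := fun t => -2 * g1 t)
    (continuous_const.mul hg.k1.continuous) (K := 2 * K) ?_ ?_ x L₀).mul_left
    (f := fun l => Real.exp (-m * l)) (by fun_prop)
  · intro t ht
    rw [abs_mul]
    have : |(-2:ℝ)| = 2 := by norm_num
    rw [this]
    have := hK t ht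
    linarith
  · intro t ht
    rw [hg.k1.zero t ht]; ring

/-- the derivative of `nuG` in the scale, kernel form -/
def nuG' (V : Measure (Euc k × L k)) (π : Euc k →L[ℝ] Euc m) (κ : Euc k →L[ℝ] Euc n) (x : Euc m)
    (f : Euc n → ℝ) (g1 g2 : ℝ → ℝ) (l : ℝ) : ℝ :=
  -m * nuG V π κ x f g1 l + Real.exp (-m * l) *
    ∫ p, f (κ p.1) * (4 * (Real.exp (-2 * l) * ‖π p.1 - x‖ ^ 2 *
      g2 (Real.exp (-2 * l) * ‖π p.1 - x‖ ^ 2))) ∂V

theorem hasDerivAt_nuG (hfr : ∀ x L, Fr V π κ x L) (hg : Prof g g1 g2) {F : Euc n → ℝ}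
    (hF : Measurable F) {M : ℝ} (hM : ∀ y, |F y| ≤ M) (x : Euc m) (l : ℝ) :
    HasDerivAt (fun l => nuG V π κ x F g1 l) (nuG' V π κ x F g1 g2 l) l := by
  have h1 := (hfr x (l + 1)).deriv_c (c := fun p => F (κ p.1))
    (hF.comp (κ.continuous.comp continuous_fst).measurable).aestronglyMeasurable
    (C := M) (Eventually.of_forall fun _ _ => hM _) hg.k1 (by linarith : l < l + 1)
  have h3 : HasDerivAt (fun l : ℝ => Real.exp (-m * l)) (Real.exp (-m * l) * (-m)) l := by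
    have h4 : HasDerivAt (fun l : ℝ => (-m : ℝ) * l) (-m) l := by
      simpa using (hasDerivAt_id l).const_mul (-m : ℝ)
    exact h4.exp
  have h5 := h3.mul (h1.const_mul (-2))
  have hfun : (fun l => nuG V π κ x F g1 l) = (fun l : ℝ => Real.exp (-m * l)) * (fun l =>
      -2 * ∫ p, F (κ p.1) * g1 (Real.exp (-2 * l) * ‖π p.1 - x‖ ^ 2) ∂V) := by
    funext l
    unfold nuG
    simp only [Pi.mul_apply]
    rw [int_c4 V (fun p => F (κ p.1)) (fun p => g1 (Real.exp (-2 * l) * ‖π p.1 - x‖ ^ 2)) (-2)]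
  rw [hfun]
  refine h5.congr_deriv ?_
  unfold nuG' nuG
  rw [int_c4 V (fun p => F (κ p.1)) (fun p => g1 (Real.exp (-2 * l) * ‖π p.1 - x‖ ^ 2)) (-2)]
  rw [int_c4 V (fun p => F (κ p.1)) (fun p => (Real.exp (-2 * l) * ‖π p.1 - x‖ ^ 2 *
      g2 (Real.exp (-2 * l) * ‖π p.1 - x‖ ^ 2))) (-2),
    int_c4 V (fun p => F (κ p.1)) (fun p => (Real.exp (-2 * l) * ‖π p.1 - x‖ ^ 2 *
      g2 (Real.exp (-2 * l) * ‖π p.1 - x‖ ^ 2))) 4]
  ring

theorem co_nuG' (hfr : ∀ x L, Fr V π κ x L) (hτ : 0 ≤ τ) (hg : Prof g g1 g2) {F : Euc n → ℝ}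
    (hF : Measurable F) {M : ℝ} (hM : ∀ y, |F y| ≤ M) (x : Euc m) (L₀ : ℝ) :
    CO x τ L₀ (fun y l => nuG' V π κ y F g1 g2 l) := by
  obtain ⟨K, -, -, -, hK⟩ := hg.k1.exists_bound
  unfold nuG'
  refine ((co_nuG hfr hτ hg hF hM x L₀).const_mul (-m)).add
    ((co_kerF hfr hτ hF hM (f := fun t => 4 * (t * g2 t))
      (continuous_const.mul (continuous_id.mul hg.k1.cont)) (K := 4 * K) ?_ ?_ x L₀).mul_left
      (f := fun l => Real.exp (-m * l)) (by fun_prop))
  · intro t ht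
    rw [abs_mul]
    have : |(4:ℝ)| = 4 := by norm_num
    rw [this]
    have := hK t ht
    linarith
  · intro t ht
    rw [hg.k1.zero' t ht]; ring

theorem av_const (d : Euc m → ℝ) (C : ℝ) (x : Euc m) (l : ℝ) :
    av d (fun _ _ => C) x l = C * ∫ h, d h := by
  unfold av
  rw [← integral_const_mul]
  refine integral_congr_ae (Eventually.of_forall fun h => ?_)
  simp only
  ring

theorem abs_av_le (hd : CW d τ) {q q' : Euc m → ℝ → ℝ} {L₀ : ℝ} (h1 : CO x τ L₀ q)
    (h2 : CO x τ L₀ q') {l : ℝ} (hl : l < L₀) (h : ∀ y ∈ closedBall x τ, |q y l| ≤ q' y l) :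
    |av d q x l| ≤ av d q' x l := by
  rw [abs_le]
  constructor
  · have h3 := av_mono hd h2.neg h1 hl fun y hy => (abs_le.1 (h y hy)).1
    have h4 : av d (fun y l => -q' y l) x l = -av d q' x l := by
      have := av_const_mul d q' (-1) x l
      simpa only [neg_one_mul] using this
    rw [h4] at h3
    exact h3
  · exact av_mono hd h1 h2 hl fun y hy => (abs_le.1 (h y hy)).2

/-- **drift of the averaged functional**, all test functions -/
theorem drift_av (hfr : ∀ x L, Fr V π κ x L) (hτ : 0 ≤ τ) (hd : CW d τ) (hg : Prof g g1 g2)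
    {K : ℝ} (hK1 : ∀ t, 0 ≤ t → |g1 t| ≤ K)
    {er : Euc m → ℝ → ℝ → ℝ} {K' : ℝ}
    (hfl : Well_761.Flow m (kap g1) (muOf V π κ) (enOf V π κ) (fun x l => RR V π x g1 l) er K'
      x₀ ρ₀) {l q Cμ lam θ : ℝ} (hq : 0 < q) (hCμ : 0 ≤ Cμ)
    (hdom : dist x x₀ + τ + Real.exp l ≤ ρ₀)
    (hmass : ∀ y ∈ closedBall x τ,
      V {p | ‖π p.1 - y‖ ^ 2 < Real.exp (2 * l)} ≤ ENNReal.ofReal (Cμ * Real.exp (m * l)))
    (hen : ∀ y ∈ closedBall x τ,
      (enOf V π κ (Well_761.cyl y (Real.exp l) univ)).toReal ≤ lam * Real.exp (m * l))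
    (her : ∀ y ∈ closedBall x τ, er y l q ≤ θ * q ^ 2)
    {F : Euc n → ℝ} {G : Euc n → Euc n} {A : Euc n → L n} (hT : Well_761.Test F G A q) :
    ∃ D, HasDerivAt (fun l => Nav d V π κ g1 x l F) D l ∧
      |D| ≤ Real.sqrt (2 * K * Cμ * ∫ h, d h) * q * Real.sqrt (RRa d V π g1 x l) +
        ((K' * lam + θ) * ∫ h, d h) * q ^ 2 := by
  have hFm := hT.meas
  have hl1 : l < l + 1 := by linarith
  have hK0 : 0 ≤ K := (abs_nonneg _).trans (hK1 0 le_rfl)
  have hco := co_nuG (κ := κ) hfr hτ hg hFm hT.bF x (l + 1)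
  have hco' := co_nuG' (κ := κ) hfr hτ hg hFm hT.bF x (l + 1)
  have hder := hasDerivAt_av hd hco hco'
    (fun y _ t _ => hasDerivAt_nuG hfr hg hFm hT.bF y t) hl1
  refine ⟨_, hder, ?_⟩
  have hI0 : 0 ≤ ∫ h, d h := integral_nonneg hd.nonneg
  have hcoR : CO x τ (l + 1) (fun y l => RR V π y g1 l) := (afr_of hfr hτ x (l + 1)).co_RR hg.k1
  have hRnn : ∀ y t, 0 ≤ RR V π y g1 t := fun y t => RR_nonneg' hg (hfr y t) y t
  have hcoS : CO x τ (l + 1) (fun y l => Real.sqrt (RR V π y g1 l)) :=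
    Real.continuous_sqrt.comp_continuousOn hcoR
  have hco1 : CO x τ (l + 1) (fun (_ : Euc m) (_ : ℝ) => (1:ℝ)) := CO_const _ continuous_const
  set B := 2 * K * Cμ with hB
  set c0 := (K' * lam + θ) * q ^ 2 with hc0
  -- pointwise bound
  have hpt : ∀ y ∈ closedBall x τ, |nuG' V π κ y F g1 g2 l| ≤
      q * Real.sqrt B * Real.sqrt (RR V π y g1 l) + c0 * 1 := by
    intro y hy
    have hyx : dist y x ≤ τ := mem_closedBall.1 hy
    have hdy : dist y x₀ + Real.exp l ≤ ρ₀ := by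
      have := dist_triangle y x x₀
      linarith
    obtain ⟨d', hd1, hd2, -⟩ := hfl.flow y l hdy F G A q hq hT
    have hfun : (fun l => Well_761.nu m (kap g1) (muOf V π κ) y l F) =
        fun l => nuG V π κ y F g1 l := by
      funext t
      exact nu_eq hg V π κ y t hFm
    rw [hfun] at hd1
    have heq : nuG' V π κ y F g1 g2 l = d' :=
      (hasDerivAt_nuG hfr hg hFm hT.bF y l).unique hd1
    rw [heq]
    refine hd2.trans ?_
    have hGm : Measurable fun y : Euc n => ‖G y‖ ^ 2 :=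
      (hT.cG.continuous.norm.pow 2).measurable
    rw [nu_eq hg V π κ y l hGm]
    -- nuG of |G|^2
    have e1 : nuG V π κ y (fun y => ‖G y‖ ^ 2) g1 l ≤ q ^ 2 * B := by
      have hfin : V {p | ‖π p.1 - y‖ ^ 2 < Real.exp (2 * l)} ≠ ⊤ := (hfr y l).fin.ne
      have hM := measurableSet_base π y l
      have hI : IntegrableOn (fun _ : Euc k × L k => q ^ 2 * (2 * K))
          {p | ‖π p.1 - y‖ ^ 2 < Real.exp (2 * l)} V := integrableOn_const hfin
      have e2 : ∫ p, ‖G (κ p.1)‖ ^ 2 * (-2 * g1 (Real.exp (-2 * l) * ‖π p.1 - y‖ ^ 2)) ∂V ≤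
          q ^ 2 * (2 * K) * (V {p | ‖π p.1 - y‖ ^ 2 < Real.exp (2 * l)}).toReal := by
        have e3 : q ^ 2 * (2 * K) * (V {p | ‖π p.1 - y‖ ^ 2 < Real.exp (2 * l)}).toReal =
            ∫ _p in {p : Euc k × L k | ‖π p.1 - y‖ ^ 2 < Real.exp (2 * l)},
              q ^ 2 * (2 * K) ∂V := by
          rw [setIntegral_const, smul_eq_mul, mul_comm]; rfl
        rw [e3, ← integral_indicator hM]
        refine integral_mono_of_nonneg ?_ (hI.integrable_indicator hM) ?_
        · refine Eventually.of_forall fun p => ?_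
          have := hg.anti (Real.exp (-2 * l) * ‖π p.1 - y‖ ^ 2) (by positivity)
          have h1 : 0 ≤ -2 * g1 (Real.exp (-2 * l) * ‖π p.1 - y‖ ^ 2) := by linarith
          simp only [Pi.zero_apply]
          positivity
        · refine Eventually.of_forall fun p => ?_
          simp only
          by_cases hp : p ∈ {p : Euc k × L k | ‖π p.1 - y‖ ^ 2 < Real.exp (2 * l)}
          · rw [indicator_of_mem hp]
            have h1 := (abs_le.1 (hK1 (Real.exp (-2 * l) * ‖π p.1 - y‖ ^ 2)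
              (by positivity))).1
            have h2 : ‖G (κ p.1)‖ ^ 2 ≤ q ^ 2 :=
              pow_le_pow_left₀ (norm_nonneg _) (hT.bG _) 2
            have h3 := hg.anti (Real.exp (-2 * l) * ‖π p.1 - y‖ ^ 2) (by positivity)
            exact mul_le_mul h2 (by linarith) (by linarith) (by positivity)
          · rw [indicator_of_notMem hp, hg.k1.zero _ (one_le_of_not hp)]
            simp
      have e4 : (V {p | ‖π p.1 - y‖ ^ 2 < Real.exp (2 * l)}).toReal ≤
          Cμ * Real.exp (m * l) :=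
        ENNReal.toReal_le_of_le_ofReal (by positivity) (hmass y hy)
      unfold nuG
      have hexp : Real.exp (-m * l) * Real.exp (m * l) = 1 := by
        rw [← Real.exp_add]; simp
      calc Real.exp (-m * l) *
            ∫ p, ‖G (κ p.1)‖ ^ 2 * (-2 * g1 (Real.exp (-2 * l) * ‖π p.1 - y‖ ^ 2)) ∂V
          ≤ Real.exp (-m * l) * (q ^ 2 * (2 * K) * (Cμ * Real.exp (m * l))) := by
            refine mul_le_mul_of_nonneg_left (e2.trans ?_) (Real.exp_pos _).le
            exact mul_le_mul_of_nonneg_left e4 (by positivity)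
        _ = (Real.exp (-m * l) * Real.exp (m * l)) * (q ^ 2 * B) := by rw [hB]; ring
        _ = q ^ 2 * B := by rw [hexp, one_mul]
    have e5 : Real.sqrt (nuG V π κ y (fun y => ‖G y‖ ^ 2) g1 l) ≤ q * Real.sqrt B := by
      refine (Real.sqrt_le_sqrt e1).trans (le_of_eq ?_)
      rw [Real.sqrt_mul (by positivity), Real.sqrt_sq hq.le]
    have e6 := hen y hy
    have e7 := her y hy
    have e8 : K' * q ^ 2 * Real.exp (-(m * l)) *
        (enOf V π κ (Well_761.cyl y (Real.exp l) univ)).toReal ≤ K' * q ^ 2 * lam := by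
      have hexp : Real.exp (-(m * l)) * Real.exp (m * l) = 1 := by
        rw [← Real.exp_add]; simp
      have hK'0 := hfl.K0
      calc K' * q ^ 2 * Real.exp (-(m * l)) *
            (enOf V π κ (Well_761.cyl y (Real.exp l) univ)).toReal
          ≤ K' * q ^ 2 * Real.exp (-(m * l)) * (lam * Real.exp (m * l)) :=
            mul_le_mul_of_nonneg_left e6 (by positivity)
        _ = K' * q ^ 2 * lam * (Real.exp (-(m * l)) * Real.exp (m * l)) := by ring
        _ = _ := by rw [hexp, mul_one]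
    have e9 : Real.sqrt (nuG V π κ y (fun y => ‖G y‖ ^ 2) g1 l) *
        Real.sqrt (RR V π y g1 l) ≤ q * Real.sqrt B * Real.sqrt (RR V π y g1 l) :=
      mul_le_mul_of_nonneg_right e5 (Real.sqrt_nonneg _)
    rw [hc0]
    nlinarith
  have hb1 := abs_av_le hd hco' ((hcoS.const_mul (q * Real.sqrt B)).add (hco1.const_mul c0)) hl1
    hpt
  refine hb1.trans ?_
  rw [av_add hd (hcoS.const_mul (q * Real.sqrt B)) (hco1.const_mul c0) hl1, av_const_mul,
    av_const_mul, av_const, one_mul]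
  have hcs := av_cs hd hcoS hco1 hcoR hl1 (fun _ _ => zero_le_one) (fun y _ => hRnn y l)
    (fun y _ => by rw [one_mul, Real.sq_sqrt (hRnn y l)])
  rw [av_const, one_mul] at hcs
  have hS0 : 0 ≤ av d (fun y l => Real.sqrt (RR V π y g1 l)) x l :=
    av_nonneg hd fun y _ => Real.sqrt_nonneg _
  have hS : av d (fun y l => Real.sqrt (RR V π y g1 l)) x l ≤
      Real.sqrt (∫ h, d h) * Real.sqrt (RRa d V π g1 x l) := by
    rw [← Real.sqrt_mul hI0]
    exact Real.le_sqrt_of_sq_le hcs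
  have hfin : q * Real.sqrt B * av d (fun y l => Real.sqrt (RR V π y g1 l)) x l ≤
      Real.sqrt (B * ∫ h, d h) * q * Real.sqrt (RRa d V π g1 x l) := by
    rw [Real.sqrt_mul' _ hI0]
    calc q * Real.sqrt B * av d (fun y l => Real.sqrt (RR V π y g1 l)) x l
        ≤ q * Real.sqrt B * (Real.sqrt (∫ h, d h) * Real.sqrt (RRa d V π g1 x l)) :=
          mul_le_mul_of_nonneg_left hS (by positivity)
      _ = _ := by ring
  rw [hc0]
  nlinarith

/-- **`DriftAt` for the averaged functional** -/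
theorem driftAt_av (hfr : ∀ x L, Fr V π κ x L) (hτ : 0 ≤ τ) (hd : CW d τ) (hg : Prof g g1 g2)
    {K : ℝ} (hK1 : ∀ t, 0 ≤ t → |g1 t| ≤ K)
    {er : Euc m → ℝ → ℝ → ℝ} {K' : ℝ}
    (hfl : Well_761.Flow m (kap g1) (muOf V π κ) (enOf V π κ) (fun x l => RR V π x g1 l) er K'
      x₀ ρ₀) {a b q Cμ lam θ : ℝ} (hq : 0 < q) (hCμ : 0 ≤ Cμ)
    (hdom : dist x x₀ + τ + Real.exp b ≤ ρ₀)
    (hmass : ∀ l ∈ Icc a b, ∀ y ∈ closedBall x τ,
      V {p | ‖π p.1 - y‖ ^ 2 < Real.exp (2 * l)} ≤ ENNReal.ofReal (Cμ * Real.exp (m * l)))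
    (hen : ∀ l ∈ Icc a b, ∀ y ∈ closedBall x τ,
      (enOf V π κ (Well_761.cyl y (Real.exp l) univ)).toReal ≤ lam * Real.exp (m * l))
    (her : ∀ l ∈ Icc a b, ∀ y ∈ closedBall x τ, er y l q ≤ θ * q ^ 2) :
    Well_761.DriftAt (fun l F => Nav d V π κ g1 x l F)
      (Real.sqrt (2 * K * Cμ * ∫ h, d h)) ((K' * lam + θ) * ∫ h, d h) a b q
      (fun l => RRa d V π g1 x l) := by
  intro l hl p
  refine drift_av hfr hτ hd hg hK1 hfl hq hCμ ?_ (hmass l hl) (hen l hl) (her l hl)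
    (Well_761.test_bump p hq)
  have := Real.exp_le_exp.2 hl.2
  linarith

/-- **`Centre` for the averaged functional** (weight of total mass `M > 0`) -/
theorem centre_av (hfr : ∀ x L, Fr V π κ x L) (hτ : 0 ≤ τ) (hd : CW d τ) (hg : Prof g g1 g2)
    {Kκ cκ : ℝ} (hκ : Well_761.Ker (kap g1) Kκ cκ) {lmin lmax : ℝ}
    (hτl : τ ≤ 3 / 4 * Real.exp lmin) (hM : 0 < ∫ h, d h) {C₅ : ℝ} (h1 : 1 ≤ C₅)
    (h2 : Kκ / cκ * 4 ^ m * (∫ h, d h) ≤ C₅) (h3 : Kκ / cκ * 4 ^ m ≤ C₅ * ∫ h, d h) :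
    Well_761.Centre m (kap g1) (muOf V π κ) x lmin lmax
      (fun l F => Nav d V π κ g1 x l F) C₅ := by
  have hlog : Real.exp (Real.log 4) = 4 := Real.exp_log (by norm_num)
  have hfin : ∀ (y : Euc m) (l : ℝ), muOf V π κ (Well_761.cyl y (Real.exp l) univ) ≠ ⊤ := by
    intro y l
    have hcm : MeasurableSet (Well_761.cyl y (Real.exp l) (univ : Set (Euc n))) :=
      Metric.isClosed_closedBall.measurableSet.prod MeasurableSet.univ
    unfold muOf
    rw [Measure.map_apply (measurable_bh π κ) hcm]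
    refine ne_top_of_le_ne_top (hfr y (l + 1)).fin.ne (measure_mono ?_)
    intro p hp
    have h4 : ‖π p.1 - y‖ ≤ Real.exp l := by
      have := hp.1
      rwa [Metric.mem_closedBall, bh, dist_eq_norm] at this
    have h5 : ‖π p.1 - y‖ ^ 2 ≤ Real.exp l ^ 2 := pow_le_pow_left₀ (norm_nonneg _) h4 2
    rw [← Real.exp_nat_mul] at h5
    refine lt_of_le_of_lt h5 (Real.exp_lt_exp.2 ?_)
    push_cast
    linarith
  have hKc : 0 < Kκ / cκ := div_pos hκ.Kpos hκ.cpos
  -- comparison of centres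
  have key : ∀ (y y' : Euc m) (l : ℝ) (F : Euc n → ℝ) (M : ℝ), dist y y' ≤ Real.exp l →
      Measurable F → (∀ y, 0 ≤ F y) → (∀ y, F y ≤ M) →
      nuG V π κ y F g1 l ≤ Kκ / cκ * 4 ^ m * nuG V π κ y' F g1 (l + Real.log 4) := by
    intro y y' l F M hyy hF hF0 hFM
    have h4 := Well_761.nu_centre (m := m) (mu := muOf V π κ) hκ (x := y) (x' := y') (l := l)
      (l' := l + Real.log 4) hF hF0 hFM (hfin _ _) (by
        rw [Real.exp_add, hlog]; linarith)
    rw [nu_eq hg V π κ y l hF, nu_eq hg V π κ y' _ hF] at h4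
    have h5 : Real.exp (m * (l + Real.log 4 - l)) = 4 ^ m := by
      rw [add_sub_cancel_left, Real.exp_nat_mul, hlog]
    rw [h5] at h4
    exact h4
  have hnn : ∀ (y : Euc m) (l : ℝ) (F : Euc n → ℝ), (∀ y, 0 ≤ F y) → 0 ≤ nuG V π κ y F g1 l := by
    intro y l F hF0
    unfold nuG
    refine mul_nonneg (Real.exp_pos _).le (integral_nonneg fun p => ?_)
    have := hg.anti (Real.exp (-2 * l) * ‖π p.1 - y‖ ^ 2) (by positivity)
    have h1 : 0 ≤ -2 * g1 (Real.exp (-2 * l) * ‖π p.1 - y‖ ^ 2) := by linarith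
    exact mul_nonneg (hF0 _) h1
  refine ⟨h1, ?_, ?_⟩
  · intro x' l F M hl1 hl2 hx' hF hF0 hFM
    have hco := co_nuG (κ := κ) hfr hτ hg hF (M := M)
      (fun y => by rw [abs_of_nonneg (hF0 y)]; exact hFM y) x (l + 1)
    have hel := Real.exp_le_exp.2 hl1
    have h4 := av_le_of_le hd hco (by linarith : l < l + 1)
      (C := Kκ / cκ * 4 ^ m * nuG V π κ x' F g1 (l + Real.log 4)) (by
        intro y hy
        refine key y x' l F M ?_ hF hF0 hFM
        have h5 : dist y x ≤ τ := mem_closedBall.1 hy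
        have h6 := dist_triangle y x x'
        linarith)
    rw [nu_eq hg V π κ x' _ hF]
    change av d (fun y l => nuG V π κ y F g1 l) x l ≤ _
    refine h4.trans ?_
    have h7 := hnn x' (l + Real.log 4) F hF0
    calc Kκ / cκ * 4 ^ m * nuG V π κ x' F g1 (l + Real.log 4) * ∫ h, d h
        = Kκ / cκ * 4 ^ m * (∫ h, d h) * nuG V π κ x' F g1 (l + Real.log 4) := by ring
      _ ≤ _ := mul_le_mul_of_nonneg_right h2 h7
  · intro x' l F M hl1 hl2 hx' hF hF0 hFM
    set l' := l + Real.log 4 with hl'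
    have hco := co_nuG (κ := κ) hfr hτ hg hF (M := M)
      (fun y => by rw [abs_of_nonneg (hF0 y)]; exact hFM y) x (l' + 1)
    have hel := Real.exp_le_exp.2 hl1
    rw [nu_eq hg V π κ x' _ hF]
    have hco1 : CO x τ (l' + 1) (fun (_ : Euc m) (_ : ℝ) => nuG V π κ x' F g1 l) :=
      CO_const _ continuous_const
    have h4 := av_mono hd hco1 (hco.const_mul (Kκ / cκ * 4 ^ m)) (by linarith : l' < l' + 1) (by
        intro y hy
        refine key x' y l F M ?_ hF hF0 hFM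
        have h5 : dist y x ≤ τ := mem_closedBall.1 hy
        have h6 := dist_triangle x' x y
        rw [dist_comm x' x, dist_comm x y] at h6
        linarith)
    rw [av_const, av_const_mul] at h4
    change _ ≤ C₅ * av d (fun y l => nuG V π κ y F g1 l) x l'
    have h8 : 0 ≤ av d (fun y l => nuG V π κ y F g1 l) x l' :=
      av_nonneg hd fun y _ => hnn y l' F hF0
    have h9 : Kκ / cκ * 4 ^ m * av d (fun y l => nuG V π κ y F g1 l) x l' ≤
        C₅ * (∫ h, d h) * av d (fun y l => nuG V π κ y F g1 l) x l' :=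
      mul_le_mul_of_nonneg_right h3 h8
    have h10 : nuG V π κ x' F g1 l * ∫ h, d h ≤
        (C₅ * av d (fun y l => nuG V π κ y F g1 l) x l') * ∫ h, d h := by
      calc nuG V π κ x' F g1 l * ∫ h, d h ≤ _ := h4
        _ ≤ _ := h9
        _ = _ := by ring
    exact le_of_mul_le_mul_right h10 hM

end Crest.Agent.R234.Wi_870
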