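import Crest.Agent.R234.Core3_809
import Crest.Agent.R234.N0d_309
import Crest.Agent.R234.Wi5_870
import Crest.Agent.R234.Well8_761

/-!
# R234 / Core4_809 : the contact situations at V level (definitions)

`Sit m n a` : integral varifold of the class, sheets, contact measure.  `IsSit Q K cS a X` : the class
`Cls` + 309's output `Out` with the exponents `a = Cs + 1`:
`h = √D Λ^-a`, `t = √D Λ^a`, `lam = cS (h / t)²`, `τ = h / 4`, `bl = Λ^-a`,
`ds = 7 max δ Λ^-a`, `c = K m / 2 * ds`, `M = Λ^-(a-1) D / 2`; `δ ≤ Λ^-4`.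
Sharp averaged quantities (98, 387) at centre `x` and `l = log s`: `Ash` etc.
Window: `s0 = √D Λ^b`, top `st = Λ^-b`, `b = 100 (m+1) (a+1)`; `t = l - log s0 ∈ [log Λ, T]`
(the window begins at `t = log Λ`: then `log (s / q) ≤ C t` for all gaps `q ≥ Λ^-C √D`).
-/

set_option autoImplicit false

open MeasureTheory Filter Topology Set Metric
open Crest.GeometryTopology.Submanifold
open Crest.Agent.R234.Vf_884 Crest.Agent.R234.Ar_870 Crest.Agent.R234.Cy_870
open Crest.Agent.R234.Pot_425 Crest.Agent.R234.Avg_387 Crest.Agent.R234.Rep_387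
open Crest.Agent.R234.Raw_387 Crest.Agent.R234.N0_309 Crest.Agent.R234.Well_761
open Crest.Agent.R234.Wi_870
open Crest.Agent.R234.N5_372 (eM)

noncomputable section

namespace Crest.Agent.R234.Core_809

/-! ### the profile `(1 - t)₊⁴` -/

theorem hasDerivAt_mx (j : ℕ) (t : ℝ) :
    HasDerivAt (fun t : ℝ => (max (1 - t) 0) ^ (j + 2)) (-((j + 2) * (max (1 - t) 0) ^ (j + 1)))
      t := by
  rcases lt_trichotomy t 1 with h | h | h
  · have h1 : HasDerivAt (fun t : ℝ => (1 - t) ^ (j + 2)) (-((j + 2) * (1 - t) ^ (j + 1))) t := by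
      have h2 := ((hasDerivAt_id t).const_sub 1).pow (j + 2)
      refine h2.congr_deriv ?_
      push_cast
      simp only [id]
      ring_nf
    have h3 : max (1 - t) 0 = 1 - t := max_eq_left (by linarith)
    rw [h3]
    refine h1.congr_of_eventuallyEq ?_
    filter_upwards [Iio_mem_nhds h] with s hs
    rw [max_eq_left (by linarith [show s < 1 from hs])]
  · subst h
    have h3 : max (1 - (1 : ℝ)) 0 = 0 := by norm_num
    rw [h3, zero_pow (by lia), mul_zero, neg_zero]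
    rw [hasDerivAt_iff_isLittleO_nhds_zero]
    have h4 : ∀ u : ℝ, max (1 - (1 + u)) 0 = max (-u) 0 := fun u => by
      congr 1; ring
    simp only [h4, h3, zero_pow (show j + 2 ≠ 0 by lia), sub_zero, smul_zero]
    have h5 : (fun u : ℝ => max (-u) 0 ^ (j + 2)) =O[𝓝 0] fun u : ℝ => u ^ (j + 2) := by
      apply Asymptotics.IsBigO.of_bound 1
      filter_upwards with u
      rw [norm_pow, norm_pow, one_mul]
      apply pow_le_pow_left₀ (norm_nonneg _)
      rw [Real.norm_eq_abs, Real.norm_eq_abs, abs_of_nonneg (le_max_right _ _)]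
      exact max_le (neg_le_abs u) (abs_nonneg u)
    refine h5.trans_isLittleO ?_
    have h6 : (fun u : ℝ => u ^ (j + 2)) =o[𝓝 0] fun u : ℝ => u ^ 1 :=
      Asymptotics.isLittleO_pow_pow (by lia)
    simpa using h6
  · have h3 : max (1 - t) 0 = 0 := max_eq_right (by linarith)
    rw [h3, zero_pow (by lia), mul_zero, neg_zero]
    refine (hasDerivAt_const t (0 : ℝ)).congr_of_eventuallyEq ?_
    filter_upwards [Ioi_mem_nhds h] with s hs
    rw [max_eq_right (by linarith [show 1 < s from hs]), zero_pow (by lia)]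

/-- the profile `(1 - t)₊⁴` -/
def w0 : Wt where
  θ t := (max (1 - t) 0) ^ 4
  θ' t := -(4 * (max (1 - t) 0) ^ 3)
  deriv t := by
    have h := hasDerivAt_mx 2 t
    norm_num at h
    exact h
  cont' := by fun_prop
  anti t := by
    have : 0 ≤ (max (1 - t) 0) ^ 3 := by positivity
    linarith
  zero t ht := by rw [max_eq_right (by linarith)]; norm_num
  zero' t ht := by rw [max_eq_right (by linarith)]; norm_num

/-- its second derivative -/
def w2 (t : ℝ) : ℝ := 12 * (max (1 - t) 0) ^ 2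

theorem prof0 : Prof w0.θ w0.θ' w2 where
  k0 := ker_wt w0
  k1 :=
    { der := fun t => by
        have h := (hasDerivAt_mx 1 t).const_mul 4
        have h2 := h.neg
        norm_num at h2
        refine h2.congr_deriv ?_
        unfold w2
        ring
      cont := by unfold w2; fun_prop
      zero := fun t ht => by
        change -(4 * (max (1 - t) 0) ^ 3) = 0
        rw [max_eq_right (by linarith)]; norm_num }
  anti := fun t _ => w0.anti t

/-! ### exponents -/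

/-- `Λ = log (1/D)` -/
def Lam (D : ℝ) : ℝ := Real.log (1 / D)

def hOf (a D : ℝ) : ℝ := √D * Lam D ^ (-a)

def tOf (a D : ℝ) : ℝ := √D * Lam D ^ a

def tauOf (a D : ℝ) : ℝ := hOf a D / 4

def lamOf (cS a D : ℝ) : ℝ := cS * (hOf a D / tOf a D) ^ 2

def blOf (a D : ℝ) : ℝ := Lam D ^ (-a)

def dsOf (a δ D : ℝ) : ℝ := 7 * max δ (Lam D ^ (-a))

/-- bottom of the window -/
def s0Of (m : ℕ) (a D : ℝ) : ℝ := √D * Lam D ^ (100 * (m + 1) * (a + 1))

/-- top of the window -/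
def stOf (m : ℕ) (a D : ℝ) : ℝ := Lam D ^ (-(100 * (m + 1) * (a + 1)))

/-- length of the window -/
def TOf (m : ℕ) (a D : ℝ) : ℝ := Real.log (stOf m a D / s0Of m a D)

/-- bound for the squares of the gaps -/
def q1Of (D : ℝ) : ℝ := Lam D ^ (2 : ℝ) * D

/-! ### situations -/

/-- a contact situation -/
structure Sit (m n : ℕ) (a : ℝ) where
  k : ℕ
  π : Euc k →L[ℝ] Euc m
  κ : Euc k →L[ℝ] Euc n
  U : Set (Euc k)
  Dd : VarifoldData m k
  S : Sheets Dd π
  δ : ℝ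
  D : ℝ
  ε : Measure (XB (Euc m) (tauOf a D))

namespace Sit
variable {m n : ℕ} {a : ℝ} (Q : ℕ) (K cS : ℝ) (X : Sit m n a)

/-- the varifold in the cylinder -/
def V : Measure (Euc X.k × L X.k) := part X.π X.κ X.Dd

def τ : ℝ := tauOf a X.D

def ds : ℝ := dsOf a X.δ X.D

/-- the tall set inside the ball -/
def T₀ : Set (Euc m) :=
  tall (tallT (eM X.V X.π) (hOf a X.D) (tOf a X.D) (lamOf cS a X.D)) (blOf a X.D)

/-- `b₁` over the tall set -/
def β : Measure (XB (Euc m) (tauOf a X.D)) :=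
  beta X.S (Cy_870.cyl X.π X.κ 0 4 1) Q (tauOf a X.D) (X.T₀ cS)

/-- `b₁` off the tall set -/
def γ : Measure (XB (Euc m) (tauOf a X.D)) :=
  beta X.S (Cy_870.cyl X.π X.κ 0 4 1) Q (tauOf a X.D) (X.T₀ cS)ᶜ

/-- `b₂ + (K m / 2) ds π_#(tl V)` -/
def b2' : Measure (XB (Euc m) (tauOf a X.D)) :=
  b2s (b2 X.S (Cy_870.cyl X.π X.κ 0 4 1) Q (tauOf a X.D)) X.V X.π (K * m / 2 * X.ds)

/-! averaged quantities, `l = log s` -/

def aE (x : Euc m) (l : ℝ) : ℝ := EEa (dd m (tauOf a X.D)) X.V X.π w0.θ Q x l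

def ae (x : Euc m) (l : ℝ) : ℝ := eea (dd m (tauOf a X.D)) X.V X.π w0.θ x l

def aet (x : Euc m) (l : ℝ) : ℝ := Raw_387.eta (dd m (tauOf a X.D)) X.V X.π w0.θ' x l

def ab (x : Euc m) (l : ℝ) : ℝ := bba (dd m (tauOf a X.D)) X.V X.π w0.θ Q x l

def ag (x : Euc m) (l : ℝ) : ℝ := hata w0 (X.γ Q cS) x l

def aR (x : Euc m) (l : ℝ) : ℝ := RRa (dd m (tauOf a X.D)) X.V X.π w0.θ' x l

def af (x : Euc m) (l : ℝ) : ℝ := - av (dd m (tauOf a X.D)) (f1 X.V X.π w0.θ) x l

def ap (x : Euc m) (l : ℝ) : ℝ := pY (7 * X.δ) X.V X.π X.κ (tauOf a X.D) w0 x l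

def aP (x : Euc m) (l : ℝ) : ℝ := PY (7 * X.δ) X.V X.π X.κ (tauOf a X.D) w0 x l

def aB (x : Euc m) (l : ℝ) : ℝ := BB w0 (X.β Q cS) (X.b2' Q K) x l

/-! sharp quantities (98) -/

def sE (x : Euc m) (l : ℝ) : ℝ := Shp_98.Es K X.ds (X.aE Q x) (X.ae x) (X.aP x) l

def sU (x : Euc m) (l : ℝ) : ℝ := Shp_98.Us K X.ds (X.aE Q x) (X.ae x) (X.aP x) (X.aB Q K cS x) l

def sR (x : Euc m) (l : ℝ) : ℝ :=
  Shp_98.Rs K X.ds (X.ae x) (X.aet x) (X.ag Q cS x) (X.aR x) (X.af x) (X.ap x) l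

def sb (x : Euc m) (l : ℝ) : ℝ := Shp_98.bs m K X.ds (X.ae x) (X.ab Q x) (X.ag Q cS x) l

def se (x : Euc m) (l : ℝ) : ℝ :=
  Shp_98.es m K X.ds (X.aE Q x) (X.ae x) (X.ab Q x) (X.ag Q cS x) (X.aP x) l

/-- averaged height over the wells (`I_F`) -/
def aI (x : Euc m) (c : WCfg (Euc n)) (l : ℝ) : ℝ :=
  2 * Nav (dd m (tauOf a X.D)) X.V X.π X.κ w0.θ' x l (wells c.C c.q)

/-- the contact set -/
def Z : Set (Euc m) := Subtype.val '' X.ε.support

/-- the data of the contact problem in `t = l - log s0` -/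
def cd : CData (Euc m) (WCfg (Euc n)) where
  Z := X.Z
  ε := X.ε.map Subtype.val
  μ := eM X.V X.π + (X.γ Q cS).map Subtype.val
  D := X.D
  l := Real.log (Lam X.D)
  κ := Real.exp (-Real.log (Lam X.D))
  T := TOf m a X.D
  q1 := q1Of X.D
  r0 := s0Of m a X.D / 2
  U x t := X.sU Q K cS x (t + Real.log (s0Of m a X.D))
  E x t := X.sE Q K x (t + Real.log (s0Of m a X.D))
  R x t := X.sR Q K cS x (t + Real.log (s0Of m a X.D))
  e x t := X.se Q K cS x (t + Real.log (s0Of m a X.D))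
  eF x c t := deriv (X.aI x c) (t + Real.log (s0Of m a X.D)) / 2
  IF x c t := X.aI x c (t + Real.log (s0Of m a X.D))
  er _ _ _ := 0

end Sit

/-- **the class of contact situations** -/
structure IsSit (Q : ℕ) (K cS : ℝ) {m n : ℕ} {a : ℝ} (X : Sit m n a) : Prop where
  cls : Cls Q X.δ X.D X.π X.κ X.U X.Dd
  D0 : 0 < X.D
  D1 : X.D < 1
  δ0 : 0 ≤ X.δ
  δ1 : X.δ ≤ Lam X.D ^ (-4 : ℝ)
  out : Out X.S (Cy_870.cyl X.π X.κ 0 4 1) Q (tauOf a X.D) (hOf a X.D) (tOf a X.D)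
    (lamOf cS a X.D) (blOf a X.D) (K * m / 2 * X.ds) (1 / 2 * Lam X.D ^ (-(a - 1)) * X.D) X.ε

/-- the class of data for `core_family` -/
def Fam (Q : ℕ) (K cS : ℝ) (m n : ℕ) (a l0 : ℝ) (Y : CData (Euc m) (WCfg (Euc n))) : Prop :=
  ∃ X : Sit m n a, IsSit Q K cS X ∧ l0 ≤ Real.log (Lam X.D) ∧ Y = X.cd Q K cS

end Crest.Agent.R234.Core_809
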