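import Crest.Agent.R234.Crs6_173

/-!
# Row 234, N0-COARSE, part 7 (helper173): the set form of TH3 ((d) of 309 #7283)
-/

set_option autoImplicit false

open MeasureTheory Set Function Filter Topology Metric
open Crest.GeometryTopology.Submanifold
open Crest.Agent.R234.Vf_884 Crest.Agent.R234.Ar_870 Crest.Agent.R234.Cy_870
open Crest.Agent.R234.AS_456 (AS errA err hp vp)
open Crest.Agent.R234.Asl_214 Crest.Agent.R234.Th_164
open scoped ENNReal NNReal InnerProductSpace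

noncomputable section

namespace Crest.Agent.R234.Crs_173

set_option maxHeartbeats 800000 in
/-- **N0-COARSE (d)**, `ℝ≥0∞` form -/
theorem set_form (m Q : ℕ) {C₀ : ℝ} (hC₀ : 0 ≤ C₀) :
    ∃ σ lam A K c δ₁ : ℝ, 0 < σ ∧ 0 < lam ∧ 1 ≤ A ∧ 0 < K ∧ 0 < c ∧ c ≤ 1 / 16 ∧ 0 < δ₁ ∧ δ₁ ≤ 1 ∧
      ∀ {n k : ℕ} {π : Euc k →L[ℝ] Euc m} {κ : Euc k →L[ℝ] Euc n}
      {W : Measure (Euc k × L k)} {N : Euc m → ℝ≥0∞} {h₀ δ : ℝ}, In W π κ N Q C₀ h₀ δ →
      δ ≤ c → h₀ ^ 2 ≤ c → ∫ p, tl π p.2 ∂W ≤ c →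
      ∀ (B : Set (Euc m)), B ⊆ closedBall 0 3 → ∀ ρ, 0 < ρ → ρ ≤ 1 / 32 →
        (∀ x ∈ B, ∀ r, ρ ≤ r → r < A * h₀ →
          wM W π (ws π σ) (ball x r) ≤ ENNReal.ofReal (lam * r ^ m)) →
        (∀ᵐ x, x ∈ B → x ∉ Bad δ₁ ρ (wM W π (ws π σ)) B → N x = Q) ∧
        volume (Bad δ₁ ρ (wM W π (ws π σ)) B) ≤
          ENNReal.ofReal K * wM W π (ws π σ) (⋃ x ∈ B, closedBall x ρ) ∧
        muM W π (Bad δ₁ ρ (wM W π (ws π σ)) B) ≤
          ENNReal.ofReal K * wM W π (ws π σ) (⋃ x ∈ B, closedBall x ρ) ∧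
        (MeasurableSet B → ∫⁻ y in B, ENNReal.ofReal |(N y).toReal - Q| ≤
          ENNReal.ofReal K * wM W π (ws π σ) (⋃ x ∈ B, closedBall x ρ)) := by
  obtain ⟨ε, hε, hε1, hεw⟩ := exists_eps m
  obtain ⟨c₁, hc1, hc1', δ₁, hδ1, hδ1', hT⟩ := cover (sc2 m) Q (C₁ := m + 2) (by positivity) hε hε1 hεw
  obtain ⟨σ₁, lam₁, A₁, c₂, hσ1, hlam1, hA1, hc2, hc2', hch⟩ :=
    chain_all m Q hC₀ (ε := ε / 8 ^ m) (by positivity)
  obtain ⟨C, hC, hen⟩ := energy m hC₀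
  have hm0 : (0 : ℝ) ≤ m := Nat.cast_nonneg m
  have hom := om_pos m
  have hQn : (0 : ℝ) ≤ Q := Nat.cast_nonneg Q
  set σ : ℝ := min (c₁ / 2) σ₁ with hσ
  have hσ0 : 0 < σ := lt_min (by positivity) hσ1
  set lam : ℝ := min lam₁ (δ₁ / 8 ^ m) with hlam
  have hlam0 : 0 < lam := lt_min hlam1 (by positivity)
  set A : ℝ := max A₁ (1 + C / (δ₁ / 8 ^ m)) with hA
  have hAA1 : A₁ ≤ A := le_max_left _ _
  have hAA2 : 1 + C / (δ₁ / 8 ^ m) ≤ A := le_max_right _ _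
  have hA0 : 1 ≤ A := hA1.trans hAA1
  set c : ℝ := min c₂ (min (c₁ / 2) (δ₁ / (m + 1))) with hcd
  have hcc1 : c ≤ c₂ := min_le_left _ _
  have hcc2 : c ≤ c₁ / 2 := (min_le_right _ _).trans (min_le_left _ _)
  have hcc3 : c ≤ δ₁ / (m + 1) := (min_le_right _ _).trans (min_le_right _ _)
  set K : ℝ := 6 ^ m * (om m + 2 * (Q * om m + 4 ^ m * ε + 1) + 4 ^ m * ε) / δ₁ with hK
  refine ⟨σ, lam, A, K, c, δ₁, hσ0, hlam0, hA0, by positivity,
    lt_min hc2 (lt_min (by positivity) (by positivity)), hcc1.trans hc2', hδ1, hδ1', ?_⟩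
  intro n k π κ W N h₀ δ h hδ hh hE B hB ρ hρ hρ1 hsm
  have hfin : IsFiniteMeasure W := ⟨h.cyl.fin⟩
  have hc0 : 0 ≤ c := h.δ0.trans hδ
  have hcle : c ≤ 1 := by linarith [hcc1, hc2']
  have hS := setup_of_cylAS h.cyl h.δ0 (hδ.trans hcle) h.area
  have H := hyp_of_setup hS hσ0.le
  have hg : δ * (m + h₀ ^ 2) ≤ δ₁ := by
    calc δ * (m + h₀ ^ 2) ≤ δ₁ / (m + 1) * (m + 1) := by
          gcongr
          · exact hδ.trans hcc3
          · exact hh.trans hcle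
      _ = δ₁ := by field_simp
  have hBR : ∀ x ∈ B, ball x (8 * ρ) ⊆ ball (0 : Euc m) 4 := by
    intro x hx
    refine ball_subset_ball' ?_
    have := mem_closedBall.1 (hB hx)
    linarith
  have hQ8 : ∀ x ∈ B, ∫ y in ball x (8 * ρ), |(N y).toReal - Q| ≤ ε * ρ ^ m := by
    intro x hx
    refine (hch h (hδ.trans hcc1) (hh.trans hcc1) (hE.trans hcc1) σ hσ0.le (min_le_right _ _) x
      (hB hx) ρ (fun r hr hρr hrA => ?_) (8 * ρ) (by positivity) (by linarith)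
      (by linarith)).trans (le_of_eq ?_)
    · refine (hsm x hx r hρr (lt_of_lt_of_le hrA ?_)).trans (ENNReal.ofReal_le_ofReal ?_)
      · have := h.hh
        gcongr
      · gcongr
        exact min_le_left _ _
    · rw [mul_pow]; field_simp
  have hes8 : ∀ x ∈ B, wM W π (ws π σ) (ball x (8 * ρ)) ≤ ENNReal.ofReal (δ₁ * ρ ^ m) := by
    intro x hx
    have e8 : δ₁ / 8 ^ m * (8 * ρ) ^ m = δ₁ * ρ ^ m := by rw [mul_pow]; field_simp
    rcases lt_or_ge (8 * ρ) (A * h₀) with h1 | h1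
    · refine (hsm x hx (8 * ρ) (by linarith) h1).trans (ENNReal.ofReal_le_ofReal ?_)
      rw [← e8]
      gcongr
      exact min_le_right _ _
    · rw [← e8]
      have h3 : h₀ ≤ 8 * ρ := by
        have := h.hh
        nlinarith
      exact es_coarse hC hAA2 (by positivity) h.cyl h.hh σ (by positivity) h1
        (hen h.cyl h.ub h.δ0 (hδ.trans (hcc1.trans hc2')) x (hB hx) (8 * ρ) (by positivity) h3
          (by linarith)).2
  obtain ⟨h1, h2⟩ := hT (σ + δ * h₀ ^ 2) (δ * (m + h₀ ^ 2)) (ball 0 4) _ _ _ _ _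
    (by have := h.δ0; positivity)
    (by
      have h2 : δ * h₀ ^ 2 ≤ c * 1 := by
        gcongr
        exact hh.trans hcle
      have h3 : σ ≤ c₁ / 2 := min_le_left _ _
      linarith)
    (by have := h.δ0; positivity) H B ρ hρ
    (by have := h.δ0; nlinarith) hBR hQ8 hes8
  obtain ⟨s1, s2, s3⟩ := sums hε hδ1 H hρ hBR h1 h2
  have hle : ∀ a : ℝ, 0 ≤ a → 6 ^ m * a / δ₁ ≤ K →
      ENNReal.ofReal (6 ^ m * a / δ₁) * wM W π (ws π σ) (⋃ x ∈ B, closedBall x ρ) ≤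
        ENNReal.ofReal K * wM W π (ws π σ) (⋃ x ∈ B, closedBall x ρ) := fun a _ ha =>
    mul_le_mul' (ENNReal.ofReal_le_ofReal ha) le_rfl
  have hpos1 : 0 ≤ 2 * (Q * om m + 4 ^ m * ε + 1) := by positivity
  have hpos2 : 0 ≤ 4 ^ m * ε := by positivity
  refine ⟨?_, s1.trans (hle _ hom.le ?_), s2.trans (hle _ hpos1 ?_),
    fun hBm => (s3 hBm).trans (hle _ hpos2 ?_)⟩
  · have hlt := h.area.ae_lt_top h.cyl.sp.hh h.cyl.conc measurableSet_ball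
    rw [ae_restrict_iff' measurableSet_ball] at hlt
    filter_upwards [h1, hlt] with x hx hlx h3 h4
    have h5 := hx h3 h4
    have h6 : x ∈ ball (0 : Euc m) 4 := hBR x h3 (mem_ball_self (by positivity))
    rw [← ENNReal.ofReal_toReal (hlx h6).ne, h5, ENNReal.ofReal_natCast]
  all_goals
    rw [hK]
    gcongr
    linarith

/-- **N0-COARSE (d)**, real form -/
theorem set_form_real (m Q : ℕ) {C₀ : ℝ} (hC₀ : 0 ≤ C₀) :
    ∃ σ lam A K c : ℝ, 0 < σ ∧ 0 < lam ∧ 1 ≤ A ∧ 0 < K ∧ 0 < c ∧ c ≤ 1 / 16 ∧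
      ∀ {n k : ℕ} {π : Euc k →L[ℝ] Euc m} {κ : Euc k →L[ℝ] Euc n}
      {W : Measure (Euc k × L k)} {N : Euc m → ℝ≥0∞} {h₀ δ : ℝ}, In W π κ N Q C₀ h₀ δ →
      δ ≤ c → h₀ ^ 2 ≤ c → ∫ p, tl π p.2 ∂W ≤ c →
      ∀ (B : Set (Euc m)), MeasurableSet B → B ⊆ closedBall 0 3 → ∀ ρ, 0 < ρ → ρ ≤ 1 / 32 →
        (∀ x ∈ B, ∀ r, ρ ≤ r → r < A * h₀ →
          ∫ p in ovr π x r, ws π σ p ∂W ≤ lam * r ^ m) →
        ∫ y in B, |(N y).toReal - Q| ≤
          K * ∫ p in (fun p : Euc k × L k => π p.1) ⁻¹' cthickening ρ B, ws π σ p ∂W := by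
  obtain ⟨σ, lam, A, K, c, δ₁, hσ, hlam, hA, hK, hc, hc', -, -, hT⟩ := set_form m Q hC₀
  refine ⟨σ, lam, A, K, c, hσ, hlam, hA, hK, hc, hc', ?_⟩
  intro n k π κ W N h₀ δ h hδ hh hE B hBm hB ρ hρ hρ1 hsm
  have hfin : IsFiniteMeasure W := ⟨h.cyl.fin⟩
  obtain ⟨-, -, -, h4⟩ := hT h hδ hh hE B hB ρ hρ hρ1 (fun x hx r hr hrA =>
    es_of_int h.cyl (hsm x hx r hr hrA))
  obtain ⟨i1, i2, -⟩ := integrable_ws h.cyl σ
  have hBR : B ⊆ ball (0 : Euc m) 4 := hB.trans (closedBall_subset_ball (by norm_num))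
  have hBf : volume B ≠ ⊤ := ne_top_of_le_ne_top measure_ball_lt_top.ne (measure_mono hBR)
  have hNi : IntegrableOn (fun y => (N y).toReal - (Q : ℝ)) B :=
    ((h.area.integrableOn h.cyl.sp.hh h.cyl.conc measurableSet_ball).mono_set hBR).sub
      (integrableOn_const hBf)
  have e1 : ∫ y in B, |(N y).toReal - Q| =
      (∫⁻ y in B, ENNReal.ofReal |(N y).toReal - Q|).toReal := by
    rw [integral_eq_lintegral_of_nonneg_ae (Eventually.of_forall fun y => abs_nonneg _)]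
    exact hNi.abs.aestronglyMeasurable
  have hcm : MeasurableSet (cthickening ρ B) := isClosed_cthickening.measurableSet
  have e2 : (wM W π (ws π σ)).real (cthickening ρ B) =
      ∫ p in (fun p : Euc k × L k => π p.1) ⁻¹' cthickening ρ B, ws π σ p ∂W :=
    wM_real (measurable_ws π σ) i2 hcm
  have hsub : (⋃ x ∈ B, closedBall x ρ) ⊆ cthickening ρ B :=
    iUnion₂_subset fun x hx => closedBall_subset_cthickening hx ρ
  have hfin2 : wM W π (ws π σ) (cthickening ρ B) ≠ ⊤ :=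
    ne_top_of_le_ne_top ENNReal.ofReal_ne_top (wM_le i2 i1 hcm le_rfl)
  have h5 := (h4 hBm).trans (mul_le_mul' le_rfl (measure_mono hsub))
  have h6 := ENNReal.toReal_mono (ENNReal.mul_ne_top ENNReal.ofReal_ne_top hfin2) h5
  rw [ENNReal.toReal_mul, ENNReal.toReal_ofReal hK.le] at h6
  rw [e1, ← e2]
  exact h6

end Crest.Agent.R234.Crs_173
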