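import Crest.Agent.R234.N0p_309
import Crest.Agent.R234.Crs7_173

/-!
Row 234, node N0-THETA (helper173, for helper309): `ThetaProp` of `N0p_309` from
`Crs_173.set_form_real`.
-/

set_option autoImplicit false

open MeasureTheory Filter Topology Set Metric
open scoped ENNReal NNReal

namespace Crest.Agent.R234.Crs_173

open Crest.GeometryTopology.Submanifold
open Crest.Agent.R234.Vf_884 Crest.Agent.R234.Ar_870 Crest.Agent.R234.Cy_870
open Crest.Agent.R234.Th_164 (ws)
open Crest.Agent.R234.N5_372 (eM bm_apply ov measurableSet_ov)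
open Crest.Agent.R234.N0_309 (tallT lt_of_not_tall isClosed_tallT lowSet ThetaProp)
open Crest.Agent.R234.Core_809 (Lam hOf tOf lamOf)
open Crest.Agent.R234.Asl_214

noncomputable section

variable {m n k : ℕ} {π : Euc k →L[ℝ] Euc m} {κ : Euc k →L[ℝ] Euc n}
  {W : Measure (Euc k × L k)} {x₀ : Euc m} {R h₀ δ : ℝ}

/-- the steep energy over a ball is at most the base tilt energy -/
theorem es_le_eM (h : CylAS W π κ x₀ R h₀ δ) (σ : ℝ) {x : Euc m} {r s b : ℝ} (hrs : r ≤ s)
    (hb : 0 ≤ b) (he : eM W π (closedBall x s) ≤ ENNReal.ofReal b) :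
    ∫ p in ovr π x r, ws π σ p ∂W ≤ b := by
  have hfin : IsFiniteMeasure W := ⟨h.fin⟩
  obtain ⟨h1, h2, h3⟩ := integrable_ws h σ
  rw [ovr_eq]
  have e0 : (fun p : Euc k × L k => π p.1) ⁻¹' ball x r ⊆ ov π (closedBall x s) :=
    preimage_mono (ball_subset_closedBall.trans (closedBall_subset_closedBall hrs))
  rw [integral_eq_lintegral_of_nonneg_ae (ae_restrict_of_ae h2) h1.aestronglyMeasurable.restrict]
  refine ENNReal.toReal_le_of_le_ofReal hb (le_trans ?_ he)
  unfold eM
  rw [bm_apply _ _ _ measurableSet_closedBall]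
  refine (lintegral_mono_set e0).trans ?_
  refine lintegral_mono_ae (ae_restrict_of_ae ?_)
  filter_upwards [h3] with p hp
  exact ENNReal.ofReal_le_ofReal hp

/-- off the tall set the steep energy is small at the scales `[h/8, t]` -/
theorem es_off_tall (h : CylAS W π κ x₀ R h₀ δ) (σ : ℝ) {x : Euc m} {hb t lc lam r : ℝ}
    (hh : 0 < hb) (hht : hb ≤ t) (hlc0 : 0 ≤ lc) (hlc : lc * 8 ^ m ≤ lam)
    (hx : x ∉ tallT (eM W π) hb t lc) (hr : hb / 8 ≤ r) (hrt : r ≤ t) :
    ∫ p in ovr π x r, ws π σ p ∂W ≤ lam * r ^ m := by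
  have hr0 : 0 < r := lt_of_lt_of_le (by positivity) hr
  have h8 : (1 : ℝ) ≤ 8 ^ m := one_le_pow₀ (by norm_num)
  rcases le_total hb r with h1 | h1
  · have h2 := lt_of_not_tall hx ⟨h1, hrt⟩
    refine (es_le_eM h σ le_rfl (by positivity) h2.le).trans ?_
    refine mul_le_mul_of_nonneg_right (le_trans ?_ hlc) (by positivity)
    exact le_mul_of_one_le_right hlc0 h8
  · have h2 := lt_of_not_tall hx ⟨le_rfl, hht⟩
    refine (es_le_eM h σ h1 (by positivity) h2.le).trans ?_
    have h3 : hb ^ m ≤ 8 ^ m * r ^ m := by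
      rw [← mul_pow]
      exact pow_le_pow_left₀ hh.le (by linarith) m
    calc lc * hb ^ m ≤ lc * (8 ^ m * r ^ m) := mul_le_mul_of_nonneg_left h3 hlc0
      _ = lc * 8 ^ m * r ^ m := by ring
      _ ≤ lam * r ^ m := mul_le_mul_of_nonneg_right hlc (by positivity)

/-- smallness of `D` in terms of `Λ` -/
theorem exists_D0 (L₀ b : ℝ) (hb : 0 < b) : ∃ D0 : ℝ, 0 < D0 ∧ D0 < 1 ∧ ∀ D : ℝ, 0 < D → D ≤ D0 →
    L₀ ≤ Lam D ∧ D ≤ b := by
  refine ⟨min (Real.exp (-(max L₀ 1))) b, lt_min (Real.exp_pos _) hb,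
    lt_of_le_of_lt (min_le_left _ _) ?_, ?_⟩
  · rw [Real.exp_lt_one_iff]
    have := le_max_right L₀ 1
    linarith
  intro D hD hDb
  refine ⟨?_, hDb.trans (min_le_right _ _)⟩
  have h1 := hDb.trans (min_le_left _ _)
  have h2 := Real.log_le_log hD h1
  rw [Real.log_exp] at h2
  unfold Lam
  rw [one_div, Real.log_inv]
  have := le_max_left L₀ 1
  linarith

/-- **N0-THETA** -/
theorem thetaProp : ThetaProp := by
  intro m Q C₀ hm hC₀
  obtain ⟨σ, lam, A, K, c, hσ, hlam, hA, hK, hc, hc1, hT⟩ := set_form_real m Q hC₀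
  refine ⟨σ, K, lam / 8 ^ m, hσ, hK.le, by positivity, ?_⟩
  intro cS a hcS hcSc ha
  obtain ⟨D0, hD0, hD01, hD⟩ := exists_D0 (max (max 1 A) c⁻¹) (min c ((1 / (32 * (A + 1))) ^ 2))
    (lt_min hc (by positivity))
  refine ⟨D0, hD0, hD01, ?_⟩
  intro n k π κ W N δ D hDp hDle hδ0 hδ h hE
  obtain ⟨hΛ, hDb⟩ := hD D hDp hDle
  have hΛ1 : 1 ≤ Lam D := (le_max_left _ _).trans ((le_max_left _ _).trans hΛ)
  have hΛA : A ≤ Lam D := (le_max_right _ _).trans ((le_max_left _ _).trans hΛ)
  have hΛc : c⁻¹ ≤ Lam D := (le_max_right _ _).trans hΛ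
  have hΛ0 : 0 < Lam D := by linarith
  have hDc : D ≤ c := hDb.trans (min_le_left _ _)
  have hsD : √D ≤ 1 / (32 * (A + 1)) := by
    rw [Real.sqrt_le_left (by positivity)]
    exact hDb.trans (min_le_right _ _)
  have hs0 : 0 < √D := Real.sqrt_pos.2 hDp
  have hA1 : A * √D < 1 / 32 := by
    calc A * √D ≤ A * (1 / (32 * (A + 1))) := mul_le_mul_of_nonneg_left hsD (by linarith)
      _ < (A + 1) * (1 / (32 * (A + 1))) := by
          refine mul_lt_mul_of_pos_right (by linarith) (by positivity)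
      _ = 1 / 32 := by field_simp
  have hs1 : √D < 1 / 32 := lt_of_le_of_lt (le_mul_of_one_le_left hs0.le hA) hA1
  have hδc : δ ≤ c := by
    refine hδ.trans ?_
    rw [Real.rpow_neg_one]
    exact inv_le_of_inv_le₀ hc hΛc
  have hhc : (√D) ^ 2 ≤ c := by rw [Real.sq_sqrt hDp.le]; exact hDc
  have hEc : ∫ p, tl π p.2 ∂W ≤ c := hE.trans hDc
  have hT' := hT h hδc hhc hEc
  obtain ⟨i1, i2, i3⟩ := integrable_ws h.cyl σ
  have itl := h.cyl.integrable_continuous (CylAS.continuous_tl (k := k) π)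
  refine ⟨?_, ?_⟩
  · refine (hT' (closedBall 0 1) measurableSet_closedBall
      (closedBall_subset_closedBall (by norm_num)) (1 / 32) (by norm_num) le_rfl ?_).trans ?_
    · intro x _ r hr hrA
      exact absurd (lt_of_le_of_lt hr (hrA.trans hA1)) (lt_irrefl _)
    refine mul_le_mul_of_nonneg_left ?_ hK.le
    exact (setIntegral_le_integral i1 i2).trans (integral_mono_ae i1 itl i3)
  · have ha0 : 0 ≤ a := by linarith
    have hh0 : 0 < hOf a D := by unfold hOf; positivity
    have ht0 : 0 < tOf a D := by unfold tOf; positivity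
    have hpn : Lam D ^ (-a) ≤ 1 := Real.rpow_le_one_of_one_le_of_nonpos hΛ1 (by linarith)
    have hpp : Lam D ≤ Lam D ^ a := by
      conv_lhs => rw [← Real.rpow_one (Lam D)]
      exact Real.rpow_le_rpow_of_exponent_le hΛ1 ha
    have hh1 : hOf a D ≤ √D := by unfold hOf; exact mul_le_of_le_one_right hs0.le hpn
    have ht1 : A * √D ≤ tOf a D := by
      unfold tOf
      rw [mul_comm]
      exact mul_le_mul_of_nonneg_left (hΛA.trans hpp) hs0.le
    have hht : hOf a D ≤ tOf a D :=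
      hh1.trans ((le_mul_of_one_le_left hs0.le hA).trans ht1)
    have hlc0 : 0 ≤ lamOf cS a D := by unfold lamOf; positivity
    have hlc : lamOf cS a D * 8 ^ m ≤ lam := by
      have h1 : (hOf a D / tOf a D) ^ 2 ≤ 1 :=
        pow_le_one₀ (by positivity) ((div_le_one ht0).2 hht)
      have h2 : lamOf cS a D ≤ cS := by unfold lamOf; exact mul_le_of_le_one_right hcS.le h1
      rw [← le_div_iff₀ (by positivity)]
      exact h2.trans hcSc
    refine hT' (lowSet W π cS a D) (measurableSet_closedBall.diff isClosed_tallT.measurableSet)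
      (sdiff_subset.trans (closedBall_subset_closedBall (by norm_num))) (hOf a D / 8)
      (by positivity) (by linarith) ?_
    intro x hx r hr hrA
    exact es_off_tall h.cyl σ hh0 hht hlc0 hlc hx.2 hr (hrA.le.trans ht1)

end

end Crest.Agent.R234.Crs_173
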