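import Crest.Agent.R234.Crs2_173

/-!
# Row 234, N0-COARSE, part 3 (helper173): the input structure, the mass near the lateral boundary
-/

set_option autoImplicit false

open MeasureTheory Set Function Filter Topology Metric
open Crest.GeometryTopology.Submanifold
open Crest.Agent.R234.Vf_884 Crest.Agent.R234.Ar_870 Crest.Agent.R234.Cy_870
open Crest.Agent.R234.AS_456 (AS errA err hp vp)
open Crest.Agent.R234.Asl_214 Crest.Agent.R234.Th_164
open scoped ENNReal NNReal ContDiff InnerProductSpace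

noncomputable section

namespace Crest.Agent.R234.Crs_173

variable {m n k : ℕ} {π : Euc k →L[ℝ] Euc m} {κ : Euc k →L[ℝ] Euc n} {δ : ℝ}
  {x₀ x : Euc m} {R h₀ : ℝ} {W : Measure (Euc k × L k)} {N : Euc m → ℝ≥0∞}

/-- input of N0-COARSE (309 #7283) -/
structure In (W : Measure (Euc k × L k)) (π : Euc k →L[ℝ] Euc m) (κ : Euc k →L[ℝ] Euc n)
    (N : Euc m → ℝ≥0∞) (Q : ℕ) (C₀ h₀ δ : ℝ) : Prop where
  cyl : CylAS W π κ 0 4 h₀ δ
  area : Area W π (ball 0 4) N
  mass : |W.real univ - Q * (om m * 4 ^ m)| ≤ 1 / 4 * (om m * 4 ^ m)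
  ub : ∀ (z : Euc k) (r : ℝ), 0 < r → r ≤ 1 → W.real (closedBall z r ×ˢ univ) ≤ C₀ * r ^ m
  δ0 : 0 ≤ δ
  hh : 0 ≤ h₀

/-- 164's `Setup` for `CylAS` -/
theorem setup_of_cylAS (h : CylAS W π κ x₀ R h₀ δ) (h0 : 0 ≤ δ) (h1 : δ ≤ 1)
    (hN : Area W π (ball x₀ R) N) :
    Setup π W (ball x₀ R) N δ (h₀ ^ 2) (fun z => ‖vp π z‖ ^ 2) where
  fin := ⟨h.fin⟩
  co := h.sp.hh
  conc := h.conc
  isOpen := isOpen_ball
  area := hN
  δ_nonneg := h0
  δ_le := h1
  h_nonneg := by positivity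
  q_meas := ((vp π).continuous.norm.pow 2).measurable
  q_nonneg z := by positivity
  q_le := by
    filter_upwards [h.hgt] with p hp
    rw [norm_vp_eq h.sp]
    exact pow_le_pow_left₀ (norm_nonneg _) hp 2
  fv ξ hξ _ hξR := by
    have hfd : Continuous (fderiv ℝ ξ) := hξ.continuous_fderiv (by simp)
    have h2 := h.fv_hor h0 (f := fun _ : Euc n => (1 : ℝ)) (df := fun _ => 0)
      (fun y => hasFDerivAt_const _ _) continuous_const (ξ := ξ) (dξ := fderiv ℝ ξ)
      (fun v => ((hξ.differentiable (by simp)) v).hasFDerivAt) hfd (by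
        intro v hv
        refine image_eq_zero_of_notMem_tsupport fun hm => ?_
        have h4 := hξR hm
        rw [mem_ball, dist_eq_norm] at h4
        linarith)
    have e1 : (fun p : Euc k => (1 : ℝ) • ContinuousLinearMap.adjoint π (ξ (π p))) =
        fun p => ContinuousLinearMap.adjoint π (ξ (π p)) := by
      funext p; rw [one_smul]
    rw [e1] at h2
    refine h2.trans (le_of_eq ?_)
    refine integral_congr_ae (Eventually.of_forall fun p => ?_)
    change δ * (tl π p.2 + ‖κ p.1‖ ^ 2) * (|(1 : ℝ)| * (‖fderiv ℝ ξ (π p.1)‖ + ‖ξ (π p.1)‖)) +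
        δ * (√(tl π p.2) + ‖κ p.1‖) * (‖(0 : Euc n →L[ℝ] ℝ)‖ * ‖ξ (π p.1)‖) =
      δ * (tl π p.2 + ‖vp π p.1‖ ^ 2) * (‖fderiv ℝ ξ (π p.1)‖ + ‖ξ (π p.1)‖)
    rw [norm_vp_eq h.sp, abs_one, norm_zero]
    ring

/-- 164's `Hyp` for `CylAS` -/
theorem hyp_of_setup {W : Measure (Euc k × L k)} {R : Set (Euc m)} {N : Euc m → ℝ≥0∞}
    {δ h σ : ℝ} {q : Euc k → ℝ} (hS : Setup π W R N δ h q) (hσ : 0 ≤ σ) :
    Hyp (m + 2) (σ + δ * h) (δ * (m + h)) R (fun x => (N x).toReal) (muM W π)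
      (wM W π (we π δ q)) (wM W π (ws π σ)) (wM W π (wg π δ q)) := by
  have := hS.fin
  exact hyp_of hS.co hS.conc hS.isOpen hS.area hS.δ_nonneg hS.δ_le hσ hS.h_nonneg hS.q_meas
    hS.q_nonneg hS.q_le hS.fv

theorem ovr_eq (π : Euc k →L[ℝ] Euc m) (x : Euc m) (s : ℝ) :
    (ovr π x s : Set (Euc k × L k)) = (fun p => π p.1) ⁻¹' ball x s := by
  ext p
  simp only [ovr, mem_ofPred_eq, mem_preimage, mem_ball, dist_eq_norm]

theorem muM_ball (x : Euc m) (s : ℝ) : muM W π (ball x s) = W (ovr π x s) := by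
  rw [muM_apply W measurableSet_ball, ovr_eq]

/-- the mass near the lateral boundary -/
theorem annulus {C₀ : ℝ} (hC : 0 ≤ C₀) (h : CylAS W π κ 0 4 h₀ δ)
    (hub : ∀ (z : Euc k) (r : ℝ), 0 < r → r ≤ 1 → W.real (closedBall z r ×ˢ univ) ≤ C₀ * r ^ m)
    {d : ℝ} (hd : 0 < d) (hd1 : d ≤ 1 / 4) (hhd : h₀ ≤ d) :
    W.real {p | 4 - d ≤ ‖π p.1‖} ≤ C₀ * 2 ^ m * ((4 + d) ^ m - (4 - 2 * d) ^ m) := by
  have : IsFiniteMeasure W := ⟨h.fin⟩
  have : IsFiniteMeasure (muM W π) := by unfold muM; infer_instance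
  have hom := om_pos m
  set S : Set (Euc m) := closedBall 0 4 \ ball 0 (4 - d) with hS
  have hSm : MeasurableSet S := measurableSet_closedBall.diff measurableSet_ball
  have h1 : W {p | 4 - d ≤ ‖π p.1‖} ≤ muM W π S := by
    rw [muM_apply W hSm]
    refine measure_mono_ae ?_
    filter_upwards [h.base] with p hp hpm
    have hpm' : 4 - d ≤ ‖π p.1‖ := hpm
    rw [sub_zero] at hp
    refine ⟨?_, ?_⟩
    · rw [mem_closedBall_zero_iff]; exact hp
    · rw [mem_ball_zero_iff, not_lt]; exact hpm'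
  have h2 := measure_mul_le_of_ball (muM W π) (S := S) (r := d)
    (B := ENNReal.ofReal (C₀ * (2 * d) ^ m)) (by
      intro y
      rw [muM_ball, ← ENNReal.ofReal_toReal (measure_ne_top W _)]
      exact ENNReal.ofReal_le_ofReal (mass_cyl h hub y hd (by linarith) hhd))
  have h3 : thickening d S ⊆ ball 0 (4 + d) \ closedBall 0 (4 - 2 * d) := by
    intro y hy
    obtain ⟨z, ⟨hz1, hz2⟩, hz3⟩ := mem_thickening_iff.1 hy
    rw [mem_closedBall_zero_iff] at hz1
    rw [mem_ball_zero_iff, not_lt] at hz2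
    rw [dist_eq_norm] at hz3
    have e1 := norm_sub_norm_le y z
    have e2 := norm_sub_norm_le z y
    rw [norm_sub_rev] at e2
    refine ⟨?_, ?_⟩
    · rw [mem_ball_zero_iff]; linarith
    · rw [mem_closedBall_zero_iff, not_le]; linarith
  have h4 : volume.real (ball (0 : Euc m) (4 + d) \ closedBall 0 (4 - 2 * d)) =
      om m * ((4 + d) ^ m - (4 - 2 * d) ^ m) := by
    have hsub : closedBall (0 : Euc m) (4 - 2 * d) ⊆ ball 0 (4 + d) :=
      closedBall_subset_ball (by linarith)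
    rw [measureReal_sdiff hsub measurableSet_closedBall measure_ball_lt_top.ne]
    have e1 := vol_ball (0 : Euc m) (by linarith : 0 < 4 + d)
    have e2 := vol_closedBall (0 : Euc m) (by linarith : 0 ≤ 4 - 2 * d)
    rw [e1, e2]
    ring
  have h5 : volume (thickening d S) ≤ ENNReal.ofReal (om m * ((4 + d) ^ m - (4 - 2 * d) ^ m)) := by
    rw [← h4]
    have hne : volume (ball (0 : Euc m) (4 + d) \ closedBall 0 (4 - 2 * d)) ≠ ⊤ :=
      ne_top_of_le_ne_top measure_ball_lt_top.ne (measure_mono sdiff_subset)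
    rw [measureReal_def, ENNReal.ofReal_toReal hne]
    exact measure_mono h3
  have hpos : 0 ≤ (4 + d) ^ m - (4 - 2 * d) ^ m :=
    sub_nonneg.2 (pow_le_pow_left₀ (by linarith) (by linarith) m)
  have h6 : volume (ball (0 : Euc m) d) = ENNReal.ofReal (om m * d ^ m) := by
    have e1 := vol_ball (0 : Euc m) hd
    rw [← e1, measureReal_def, ENNReal.ofReal_toReal measure_ball_lt_top.ne]
  have h7 : (muM W π).real S * (om m * d ^ m) ≤
      C₀ * (2 * d) ^ m * (om m * ((4 + d) ^ m - (4 - 2 * d) ^ m)) := by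
    have h8 := h2.trans (mul_le_mul' le_rfl h5)
    rw [h6, ← ENNReal.ofReal_mul (by positivity)] at h8
    have h9 := ENNReal.toReal_le_of_le_ofReal (by positivity) h8
    rw [ENNReal.toReal_mul, ENNReal.toReal_ofReal (by positivity)] at h9
    exact h9
  have h8 : (muM W π).real S ≤ C₀ * 2 ^ m * ((4 + d) ^ m - (4 - 2 * d) ^ m) := by
    have hp : 0 < om m * d ^ m := by positivity
    refine le_of_mul_le_mul_right ?_ hp
    calc (muM W π).real S * (om m * d ^ m) ≤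
        C₀ * (2 * d) ^ m * (om m * ((4 + d) ^ m - (4 - 2 * d) ^ m)) := h7
      _ = _ := by rw [mul_pow]; ring
  refine le_trans ?_ h8
  rw [measureReal_def, measureReal_def]
  exact ENNReal.toReal_mono (measure_ne_top _ _) h1

/-- the mass near the lateral boundary is as small as we like -/
theorem exists_annulus (m : ℕ) (C₀ : ℝ) {ε : ℝ} (hε : 0 < ε) :
    ∃ d₀ : ℝ, 0 < d₀ ∧ d₀ ≤ 1 / 4 ∧ ∀ d, 0 < d → d ≤ d₀ →
      C₀ * 2 ^ m * ((4 + d) ^ m - (4 - 2 * d) ^ m) ≤ ε ∧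
      (1 - ε) * 4 ^ m ≤ (4 - d) ^ m := by
  have hc : Continuous fun d : ℝ => C₀ * 2 ^ m * ((4 + d) ^ m - (4 - 2 * d) ^ m) := by fun_prop
  have hc2 : Continuous fun d : ℝ => (4 - d) ^ m := by fun_prop
  have h1 : ∀ᶠ d in 𝓝 (0 : ℝ), C₀ * 2 ^ m * ((4 + d) ^ m - (4 - 2 * d) ^ m) < ε := by
    refine hc.continuousAt.eventually_lt continuousAt_const ?_
    simpa using hε
  have h2 : ∀ᶠ d in 𝓝 (0 : ℝ), (1 - ε) * 4 ^ m < (4 - d) ^ m := by
    refine continuousAt_const.eventually_lt hc2.continuousAt ?_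
    rw [sub_zero]
    have : (0 : ℝ) < 4 ^ m := by positivity
    nlinarith
  obtain ⟨r, hr, hb⟩ := Metric.eventually_nhds_iff.1 (h1.and h2)
  refine ⟨min (r / 2) (1 / 4), lt_min (by positivity) (by norm_num), min_le_right _ _, ?_⟩
  intro d hd0 hd1
  have hd2 : d ≤ r / 2 := hd1.trans (min_le_left _ _)
  obtain ⟨h3, h4⟩ := hb (y := d) (by rw [dist_zero_right, Real.norm_eq_abs, abs_of_pos hd0]; linarith)
  exact ⟨h3.le, h4.le⟩

end Crest.Agent.R234.Crs_173
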