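import Crest.Agent.R234.Ell5_3

/-!
R234 (helper3), VF-ELL part 6: regular points.

* `support_eq`: the support of the weight in the cylinder is the graph;
* `isSubmanifold_of_smooth`, `regular_of_smooth`: graph of a smooth function ==> no singular point
  in the cylinder;
* `regular_of_graph`: **`C^{1,α}` graph with `weight = Q · area` ==> no singular point**.
-/

open MeasureTheory Metric Set Filter Topology
open scoped ContDiff NNReal ENNReal
open Crest.GeometryTopology.Submanifold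

namespace Crest.Agent.R234.Ell6_3

noncomputable section

set_option linter.unusedSectionVars false

open Crest.Agent.R234.Ell1_3 Crest.Agent.R234.Ell2_3 Crest.Agent.R234.Ell3_3
open Crest.Agent.R234.Ell4_3 Crest.Agent.R234.Ell5_3

variable {m k : ℕ}

variable (T : Submodule ℝ (Euc k)) (x0 : Euc k) (r s : ℝ) (u : T → Tᗮ) (g : T → T →L[ℝ] Tᗮ)

lemma gmap_mem_grf {z : T} (hz : z ∈ ball (0 : T) r) (hus : ‖u z‖ < s) :
    gmap T x0 u z ∈ grf T x0 u r s := by
  refine ⟨⟨?_, ?_⟩, ?_⟩
  · simpa only [gmap, px_gmap] using hz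
  · simp only [gmap, py_gmap, mem_ball, dist_zero_right]; exact hus
  · simp only [gmap, px_gmap, py_gmap]

lemma gmap_px {p : Euc k} (hp : p ∈ grf T x0 u r s) : gmap T x0 u (px T x0 p) = p := by
  unfold gmap
  rw [← hp.2]
  exact (split T x0 p).symm

theorem support_eq {D : VarifoldData m k}
    (hu : ContinuousOn u (ball 0 r)) (hg : ContinuousOn g (ball 0 r))
    {Q : ℝ≥0∞} (hQ0 : Q ≠ 0)
    (hμ : (weight D).restrict (cyl T x0 r s) = Q • gmeas T x0 u g r) :
    support D ∩ cyl T x0 r s = grf T x0 u r s := by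
  ext p
  constructor
  · rintro ⟨hs, hc⟩
    by_contra hng
    have hop := cyl_diff_grf_isOpen T x0 r s u hu
    obtain ⟨ρ, hρ, hsub⟩ := Metric.isOpen_iff.1 hop p ⟨hc, hng⟩
    have h1 : weight D (cyl T x0 r s \ grf T x0 u r s) = 0 := by
      have h1 := congrArg (fun μ : Measure (Euc k) => μ (cyl T x0 r s \ grf T x0 u r s)) hμ
      simp only [Measure.smul_apply, gmeas_diff T x0 r s u g hu, smul_zero] at h1
      rw [Measure.restrict_apply hop.measurableSet, inter_eq_left.2 sdiff_subset] at h1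
      exact h1
    exact absurd (measure_mono_null hsub h1) (hs ρ hρ).ne'
  · intro hp
    refine ⟨fun ρ hρ => ?_, hp.1⟩
    have h1 : Q * gmeas T x0 u g r (ball p ρ) ≤ weight D (ball p ρ) := by
      have h2 := congrArg (fun μ : Measure (Euc k) => μ (ball p ρ)) hμ
      simp only [Measure.smul_apply, smul_eq_mul] at h2
      rw [← h2]
      exact Measure.restrict_apply_le _ _
    refine lt_of_lt_of_le ?_ h1
    refine ENNReal.mul_pos hQ0 ?_
    unfold gmeas
    rw [Measure.map_apply_of_aemeasurable (gmap_aemeasurable T x0 r u g hu) measurableSet_ball]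
    intro h3
    have hz : px T x0 p ∈ ball (0 : T) r := hp.1.1
    have hcont : ContinuousAt (gmap T x0 u) (px T x0 p) :=
      (gmap_continuousOn T x0 r u hu).continuousAt (isOpen_ball.mem_nhds hz)
    have hnb : gmap T x0 u ⁻¹' (ball p ρ) ∩ ball (0 : T) r ∈ 𝓝 (px T x0 p) := by
      refine Filter.inter_mem (hcont.preimage_mem_nhds ?_) (isOpen_ball.mem_nhds hz)
      rw [gmap_px T x0 r s u hp]
      exact ball_mem_nhds p hρ
    obtain ⟨O, hOsub, hOo, hzO⟩ := _root_.mem_nhds_iff.1 hnb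
    have h4 : ((volume.restrict (ball (0 : T) r)).withDensity
        (fun x => ENNReal.ofReal (dns (g x)))) O = 0 :=
      measure_mono_null (hOsub.trans inter_subset_left) h3
    have hmeas : AEMeasurable (fun x => ENNReal.ofReal (dns (g x)))
        (volume.restrict (ball (0 : T) r)) :=
      ((dns_contDiff.continuous.comp_continuousOn hg).aemeasurable
        measurableSet_ball).ennreal_ofReal
    rw [withDensity_apply_eq_zero' hmeas] at h4
    have h5 : {x | ENNReal.ofReal (dns (g x)) ≠ 0} ∩ O = O := by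
      ext x
      simp only [mem_inter_iff, and_iff_right_iff_imp]
      intro _
      exact (ENNReal.ofReal_pos.2 (dns_pos _)).ne'
    rw [h5, Measure.restrict_apply hOo.measurableSet,
      inter_eq_left.2 (hOsub.trans inter_subset_right)] at h4
    exact (hOo.measure_pos volume ⟨_, hzO⟩).ne' h4

theorem isSubmanifold_of_smooth (hT : Module.finrank ℝ T = m)
    (hsm : ContDiffOn ℝ ∞ u (ball 0 r)) (hus : ∀ z ∈ ball (0 : T) r, ‖u z‖ < s) :
    IsSubmanifold m k (grf T x0 u r s) := by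
  intro p hp
  let L : Euc m ≃ₗᵢ[ℝ] T := ((stdOrthonormalBasis ℝ T).reindex (finCongr hT)).repr.symm
  set z0 := px T x0 p with hz0
  have hz : z0 ∈ ball (0 : T) r := hp.1.1
  set A : Euc m → T := fun a => z0 + L a with hA
  have hAc : Continuous A := continuous_const.add L.continuous
  have hAs : ContDiff ℝ ∞ A := contDiff_const.add L.contDiff
  have hAi : Function.Injective A := fun a b h => L.injective (add_left_cancel h)
  refine ⟨fun a => gmap T x0 u (A a), A ⁻¹' (ball 0 r), ?_, ?_, ?_, ?_, ?_, ?_, ?_⟩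
  · exact isOpen_ball.preimage hAc
  · simpa [hA] using hz
  · have h1 : A 0 = z0 := by simp [hA]
    show gmap T x0 u (A 0) = p
    rw [h1]
    exact gmap_px T x0 r s u hp
  · have h1 : ContDiffOn ℝ ∞ (gmap T x0 u) (ball 0 r) := by
      unfold gmap
      refine contDiffOn_const.add ?_
      exact T.subtypeL.contDiff.contDiffOn.add (Tᗮ.subtypeL.contDiff.comp_contDiffOn hsm)
    exact h1.comp hAs.contDiffOn (fun a ha => ha)
  · intro a ha b hb hab
    have h1 := congrArg (px T x0) hab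
    simp only [gmap, px_gmap] at h1
    exact hAi h1
  · intro a ha
    have ha' : A a ∈ ball (0 : T) r := ha
    have hd : DifferentiableAt ℝ u (A a) :=
      ((hsm.differentiableOn (by simp)) _ ha').differentiableAt (isOpen_ball.mem_nhds ha')
    have e1 : HasFDerivAt A (L : Euc m →L[ℝ] T) a := (L : Euc m ≃L[ℝ] T).hasFDerivAt.const_add z0
    have e2 : HasFDerivAt (fun a => gmap T x0 u (A a))
        ((T.subtypeL + Tᗮ.subtypeL ∘L fderiv ℝ u (A a)) ∘L (L : Euc m →L[ℝ] T)) a := by
      have e3 : HasFDerivAt (gmap T x0 u) (T.subtypeL + Tᗮ.subtypeL ∘L fderiv ℝ u (A a)) (A a) := by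
        unfold gmap
        exact (T.subtypeL.hasFDerivAt.add (Tᗮ.subtypeL.hasFDerivAt.comp _ hd.hasFDerivAt)).const_add
          x0
      exact e3.comp a e1
    rw [e2.fderiv, injective_iff_map_eq_zero]
    intro ξ hξ
    have h1 : ((L ξ : T) : Euc k) + ((fderiv ℝ u (A a) (L ξ) : Tᗮ) : Euc k) = 0 := hξ
    have h2 := inner_split T (L ξ) (L ξ) (fderiv ℝ u (A a) (L ξ)) (fderiv ℝ u (A a) (L ξ))
    rw [h1, inner_zero_left] at h2
    have h3 : (0 : ℝ) ≤ inner ℝ (L ξ) (L ξ) := real_inner_self_nonneg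
    have h4 : (0 : ℝ) ≤ inner ℝ (fderiv ℝ u (A a) (L ξ)) (fderiv ℝ u (A a) (L ξ)) :=
      real_inner_self_nonneg
    have h5 : (inner ℝ (L ξ) (L ξ) : ℝ) = 0 := by linarith
    have h6 : L ξ = 0 := inner_self_eq_zero.1 h5
    exact L.injective (by rw [h6, map_zero])
  · intro O hO hOo
    have hAO : IsOpen (A '' O) := by
      have h1 : A '' O = (Homeomorph.addLeft z0) '' (L.toHomeomorph '' O) := by
        rw [← image_comp]; rfl
      rw [h1]
      exact (Homeomorph.addLeft z0).isOpenMap _ (L.toHomeomorph.isOpenMap _ hOo)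
    refine ⟨px T x0 ⁻¹' (A '' O), hAO.preimage (px_continuous T x0), ?_⟩
    ext q
    constructor
    · rintro ⟨a, ha, rfl⟩
      have ha' : A a ∈ ball (0 : T) r := hO ha
      refine ⟨gmap_mem_grf T x0 r s u ha' (hus _ ha'), ?_⟩
      show px T x0 (gmap T x0 u (A a)) ∈ A '' O
      simp only [gmap, px_gmap]
      exact ⟨a, ha, rfl⟩
    · rintro ⟨hq, a, ha, haq⟩
      refine ⟨a, ha, ?_⟩
      show gmap T x0 u (A a) = q
      rw [haq]
      exact gmap_px T x0 r s u hq

/-- graph of a smooth function: no singular point in the cylinder -/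
theorem regular_of_smooth {U : Set (Euc k)} {D : VarifoldData m k}
    (hT : Module.finrank ℝ T = m) (hsm : ContDiffOn ℝ ∞ u (ball 0 r))
    (hus : ∀ z ∈ ball (0 : T) r, ‖u z‖ < s)
    (hsup : support D ∩ cyl T x0 r s = grf T x0 u r s) {p : Euc k} (hp : p ∈ cyl T x0 r s) :
    p ∉ singularSet m k U D := by
  rintro ⟨_, _, h⟩
  refine h ⟨cyl T x0 r s, cyl_isOpen T x0 r s, hp, ?_⟩
  rw [hsup]
  exact isSubmanifold_of_smooth T x0 r s u hT hsm hus

/-- **last step of Allard's theorem**: there is `p₀ = p₀(m,k,α) > 0` such that: if in a cylinder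
the weight of a stationary integral varifold is `Q` times the area of a `C^{1,α}` graph with
gradient `< p₀`, then there is no singular point in the cylinder. -/
theorem regular_of_graph (m k : ℕ) {α : ℝ} (hα : 0 < α) (hα1 : α < 1) :
    ∃ p₀ > 0, ∀ (U : Set (Euc k)) (D : VarifoldData m k), IsIntegralVarifoldIn U D →
      IsStationaryIn U D → ∀ (T : Submodule ℝ (Euc k)), Module.finrank ℝ T = m →
      ∀ (x0 : Euc k) (r s : ℝ) (u : T → Tᗮ) (g : T → T →L[ℝ] Tᗮ),
      (∀ z ∈ ball (0 : T) r, HasFDerivAt u (g z) z) →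
      (∀ x ∈ ball (0 : T) r, ∃ ρ > 0, ∃ K, ∀ z ∈ ball x ρ, ∀ z' ∈ ball x ρ,
        ‖g z - g z'‖ ≤ K * ‖z - z'‖ ^ α) →
      (∀ z ∈ ball (0 : T) r, ‖g z‖ < p₀) →
      (∀ z ∈ ball (0 : T) r, ‖u z‖ < s) → cyl T x0 r s ⊆ U →
      ∀ (Q : ℝ≥0∞), Q ≠ 0 → Q ≠ ⊤ →
      (weight D).restrict (cyl T x0 r s) = Q • gmeas T x0 u g r →
      ContDiffOn ℝ ∞ u (ball 0 r) ∧ ∀ p ∈ cyl T x0 r s, p ∉ singularSet m k U D := by
  obtain ⟨p₀, hp, H⟩ := mss_smooth_unif m k hα hα1
  refine ⟨p₀, hp, ?_⟩
  intro U D hD hst T hT x0 r s u g hder hhol hsm hus hW Q hQ0 hQ1 hμ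
  have hg : ContinuousOn g (ball 0 r) := by
    intro x hx
    obtain ⟨ρ, hρ, K, hK⟩ := hhol x hx
    exact (Crest.Agent.R246.H2x622.continuousAt_of_hol (W := T →L[ℝ] Tᗮ) (g := g) (x := x)
      hα hρ hK).continuousWithinAt
  have hu : ContinuousOn u (ball 0 r) := fun z hz => (hder z hz).continuousAt.continuousWithinAt
  have h1 := H T hT (ball 0 r) u g isOpen_ball hder hhol hsm
    (weak_eq T x0 r s u g hD hst hT hder hg hus hW hQ0 hQ1 hμ)
  exact ⟨h1, fun p hp => regular_of_smooth T x0 r s u hT h1 hus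
    (support_eq T x0 r s u g hu hg hQ0 hμ) hp⟩

end

end Crest.Agent.R234.Ell6_3
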