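import Crest.Agent.R234.Ct1_914
import Crest.Agent.R234.Ell6_3
import Crest.Agent.R234.Cp3_914

/-!
VF-CONST, frozen data (row 234, helper914): if near a point the support of a stationary integral
varifold is contained in a smooth graph, the point is not singular.
-/

set_option autoImplicit false
set_option linter.unusedSectionVars false
set_option linter.unusedVariables false

open MeasureTheory Filter Topology Set Metric Crest.GeometryTopology.Submanifold
open scoped ENNReal ContDiff InnerProductSpace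

namespace Crest.Agent.R234.Ct914

open Crest.Agent.R234.Vf_884 Crest.Agent.R234.Ell3_3 Crest.Agent.R234.Ell2_3
open Crest.Agent.R234.Ell6_3

noncomputable section

variable {m k : ℕ} {U : Set (Euc k)} {D : VarifoldData m k}

theorem weight_compl_support (D : VarifoldData m k) : weight D (support D)ᶜ = 0 :=
  Cp914.measure_compl_spt (weight D)

variable {T : Submodule ℝ (Euc k)} {x0 : Euc k} {r s s' : ℝ} {u : T → Tᗮ}
  {g : T → T →L[ℝ] Tᗮ}

theorem measurableSet_grf (hu : ContinuousOn u (ball 0 r)) :
    MeasurableSet (grf T x0 u r s) := by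
  have h1 : grf T x0 u r s = cyl T x0 r s \ (cyl T x0 r s \ grf T x0 u r s) := by
    ext p; simp only [Set.mem_sdiff, grf, Set.mem_ofPred_eq]; tauto
  rw [h1]
  exact (cyl_isOpen T x0 r s).measurableSet.diff (cyl_diff_grf_isOpen T x0 r s u hu).measurableSet

theorem measurableSet_carried (hu : ContinuousOn u (ball 0 r)) (hg : ContinuousOn g (ball 0 r)) :
    MeasurableSet {p : Euc k × L k | p.1 ∈ cyl T x0 r s → py T x0 p.1 = u (px T x0 p.1) ∧
      ∀ e : T, p.2 ((e : Euc k) + (g (px T x0 p.1) e : Euc k)) =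
        (e : Euc k) + (g (px T x0 p.1) e : Euc k)} := by
  let F : Euc k × L k → L k := fun p =>
    p.2 ∘L ((T.subtypeL + Tᗮ.subtypeL ∘L g (px T x0 p.1)) ∘L
      (T.orthogonalProjectionOnto : Euc k →L[ℝ] T)) -
      (T.subtypeL + Tᗮ.subtypeL ∘L g (px T x0 p.1)) ∘L
        (T.orthogonalProjectionOnto : Euc k →L[ℝ] T)
  have hF : ContinuousOn F (cyl T x0 r s ×ˢ (univ : Set (L k))) := by
    have h1 : ContinuousOn (fun p : Euc k × L k => g (px T x0 p.1))
        (cyl T x0 r s ×ˢ (univ : Set (L k))) :=
      hg.comp ((px_continuous T x0).comp continuous_fst).continuousOn fun p hp => hp.1.1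
    have h2 : ContinuousOn (fun p : Euc k × L k =>
        ((T.subtypeL + Tᗮ.subtypeL ∘L g (px T x0 p.1) : T →L[ℝ] Euc k) ∘L
          (T.orthogonalProjectionOnto : Euc k →L[ℝ] T)))
        (cyl T x0 r s ×ˢ (univ : Set (L k))) :=
      (continuousOn_const.add (continuousOn_const.clm_comp h1)).clm_comp continuousOn_const
    exact (continuous_snd.continuousOn.clm_comp h2).sub h2
  have hgm : MeasurableSet (grf T x0 u r s ×ˢ (univ : Set (L k))) :=
    (measurableSet_grf hu).prod MeasurableSet.univ
  have hcm : MeasurableSet (cyl T x0 r s ×ˢ (univ : Set (L k))) :=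
    (cyl_isOpen T x0 r s).measurableSet.prod MeasurableSet.univ
  have hFm : MeasurableSet (F ⁻¹' {0}ᶜ ∩ cyl T x0 r s ×ˢ (univ : Set (L k))) := by
    obtain ⟨O, hO, he⟩ := (_root_.continuousOn_iff'.1 hF) {0}ᶜ isOpen_compl_singleton
    rw [he]
    exact hO.measurableSet.inter hcm
  have heq : {p : Euc k × L k | p.1 ∈ cyl T x0 r s → py T x0 p.1 = u (px T x0 p.1) ∧
      ∀ e : T, p.2 ((e : Euc k) + (g (px T x0 p.1) e : Euc k)) =
        (e : Euc k) + (g (px T x0 p.1) e : Euc k)} =
      (cyl T x0 r s ×ˢ (univ : Set (L k)))ᶜ ∪ ((grf T x0 u r s ×ˢ (univ : Set (L k))) \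
        (F ⁻¹' {0}ᶜ ∩ cyl T x0 r s ×ˢ (univ : Set (L k)))) := by
    ext p
    simp only [Set.mem_ofPred_eq, mem_union, mem_compl_iff, mem_prod, mem_univ, and_true,
      Set.mem_sdiff, mem_inter_iff, mem_preimage, mem_singleton_iff]
    have hFp : F p = 0 ↔ ∀ e : T, p.2 ((e : Euc k) + (g (px T x0 p.1) e : Euc k)) =
        (e : Euc k) + (g (px T x0 p.1) e : Euc k) := by
      simp only [F]
      rw [sub_eq_zero, ContinuousLinearMap.ext_iff]
      constructor
      · intro h e
        have h1 := h (e : Euc k)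
        simp only [ContinuousLinearMap.comp_apply,
          Submodule.orthogonalProjectionOnto_mem_subspace_eq_self] at h1
        exact h1
      · intro h v
        exact h (T.orthogonalProjectionOnto v)
    rw [← hFp]
    by_cases hp : p.1 ∈ cyl T x0 r s
    · have : p.1 ∈ grf T x0 u r s ↔ py T x0 p.1 = u (px T x0 p.1) :=
        ⟨fun h => h.2, fun h => ⟨hp, h⟩⟩
      rw [this]
      tauto
    · tauto
  rw [heq]
  exact hcm.compl.union (hgm.diff hFm)

/-- the varifold of the data is carried by the graph with its tangent planes. -/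
theorem carried_VD (hD : IsIntegralVarifoldIn U D) (hT : Module.finrank ℝ T = m)
    (hder : ∀ z ∈ ball (0 : T) r, HasFDerivAt u (g z) z) (hg : ContinuousOn g (ball 0 r))
    (hnull : weight D (cyl T x0 r s \ grf T x0 u r s) = 0) : Carried (VD D) T x0 r s u g := by
  have hu : ContinuousOn u (ball 0 r) := fun z hz => (hder z hz).continuousAt.continuousWithinAt
  unfold Carried VD
  refine Measure.ae_sum_iff.2 fun i => ?_
  refine (ae_map_iff (aemeasurable_lift hD i) (measurableSet_carried hu hg)).2 ?_
  have h1 := preimage_null hD (cyl_diff_grf_isOpen T x0 r s u hu).measurableSet hnull i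
  have h2 := tangent_eq T x0 r s u g hD hT hder i
  refine (base_ac D i).ae_le ?_
  filter_upwards [h1, h2] with a ha hb hc
  have hgr : D.chart i a ∈ grf T x0 u r s := by
    by_contra hcon
    exact ha ⟨hc, hcon⟩
  refine ⟨hgr.2, fun e => ?_⟩
  change (tangentAt (D.chart i) a).starProjection _ = _
  rw [hb hgr]
  exact Submodule.starProjection_eq_self_iff.2 (mem_gplane T _ _)

/-- **VF-CONST, frozen form.** If the support of a stationary integral varifold inside a cylinder
is contained in a smooth graph, no point of the cylinder is singular. -/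
theorem regular_of_subset (hD : IsIntegralVarifoldIn U D) (hst : IsStationaryIn U D)
    (hT : Module.finrank ℝ T = m) (hsm : ContDiffOn ℝ ∞ u (ball 0 r)) (hs0 : 0 ≤ s')
    (hs' : s' < s) (hus : ∀ z ∈ ball (0 : T) r, ‖u z‖ ≤ s') (hcyl : cyl T x0 r s ⊆ U)
    (hsub : support D ∩ cyl T x0 r s ⊆ grf T x0 u r s) {p : Euc k} (hp : p ∈ cyl T x0 r s) :
    p ∉ singularSet m k U D := by
  intro hsing
  have hps : p ∈ support D := hsing.2.1
  have hder : ∀ z ∈ ball (0 : T) r, HasFDerivAt u (fderiv ℝ u z) z := fun z hz =>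
    ((hsm.contDiffAt (isOpen_ball.mem_nhds hz)).differentiableAt (by simp)).hasFDerivAt
  have hu : ContinuousOn u (ball 0 r) := hsm.continuousOn
  have hg1 : ContDiffOn ℝ 1 (fun z => fderiv ℝ u z) (ball 0 r) :=
    ((contDiffOn_infty_iff_fderiv_of_isOpen isOpen_ball).1 hsm).2.of_le (by norm_num)
  have hnull : weight D (cyl T x0 r s \ grf T x0 u r s) = 0 := by
    refine measure_mono_null (fun q hq => ?_) (weight_compl_support D)
    exact fun hqs => hq.2 (hsub ⟨hqs, hq.1⟩)
  have hcar : Carried (VD D) T x0 r s u (fun z => fderiv ℝ u z) :=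
    carried_VD hD hT hder hg1.continuousOn hnull
  have hV := stat_VD hD hst
  have hsup : support D ∩ cyl T x0 r s = grf T x0 u r s := by
    refine subset_antisymm hsub fun q hq => ⟨?_, hq.1⟩
    by_contra hqs
    have hqs' : ∃ δ > 0, weight D (ball q δ) = 0 := by
      by_contra hcon
      exact hqs fun δ hδ => pos_iff_ne_zero.2 fun h => hcon ⟨δ, hδ, h⟩
    obtain ⟨δ, hδ, hw⟩ := hqs'
    set z1 : T := px T x0 q with hz1
    have hz1r : z1 ∈ ball (0 : T) r := hq.1.1
    -- nearby points of the graph are near `q`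
    have hcont : ContinuousAt (gmap T x0 u) z1 :=
      (gmap_continuousOn T x0 r u hu).continuousAt (isOpen_ball.mem_nhds hz1r)
    have hq' : gmap T x0 u z1 = q := by
      unfold gmap
      rw [← hq.2]
      exact (split T x0 q).symm
    obtain ⟨ρ, hρ, hρsub⟩ := Metric.continuousAt_iff.1 hcont δ hδ
    have hvac : VD D {p | p.1 ∈ cyl T x0 r s ∧ px T x0 p.1 ∈ ball z1 ρ} = 0 := by
      have e1 : VD D (ball q δ ×ˢ univ) = 0 := by
        rw [VD_prod_univ hD measurableSet_ball]; exact hw
      have e2 : ∀ᵐ p ∂(VD D), p ∉ ball q δ ×ˢ (univ : Set (L k)) := by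
        exact measure_eq_zero_iff_ae_notMem.1 e1
      have e3 : ∀ᵐ p ∂(VD D), ¬ (p.1 ∈ cyl T x0 r s ∧ px T x0 p.1 ∈ ball z1 ρ) := by
        filter_upwards [hcar, e2] with p hp1 hp2 hp3
        refine hp2 ⟨?_, mem_univ _⟩
        have h4 := (hp1 hp3.1).1
        have h5 : gmap T x0 u (px T x0 p.1) = p.1 := by
          unfold gmap
          rw [← h4]
          exact (split T x0 p.1).symm
        rw [mem_ball, ← h5, ← hq']
        exact hρsub hp3.2
      rw [ae_iff] at e3
      simpa using e3
    have hall := vacuum_all hV hs0 hs' hg1 hus hcyl hcar hρ hz1r hvac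
    have hwc : weight D (cyl T x0 r s) = 0 := by
      rw [← VD_prod_univ hD (cyl_isOpen T x0 r s).measurableSet]
      refine measure_mono_null ?_ hall
      rintro ⟨a, b⟩ ⟨ha, -⟩
      exact ha
    obtain ⟨ε, hε, hεs⟩ := Metric.isOpen_iff.1 (cyl_isOpen T x0 r s) p hp
    exact absurd (measure_mono_null hεs hwc) (hps ε hε).ne'
  exact regular_of_smooth T x0 r s u hT hsm (fun z hz => (hus z hz).trans_lt hs') hsup hp hsing

end

end Crest.Agent.R234.Ct914
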