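import Crest.Agent.R234.Ex2_46
import Crest.Agent.R234.Core0_809
import Crest.Agent.R234.Ct2_914

/-!
# Row 234, VF-EXT, file 3 (helper46): the mass fields `dens`, `ubd` of the class from `HasExt`
-/

set_option autoImplicit false

open MeasureTheory Filter Topology Set Metric
open scoped ENNReal InnerProductSpace
open Crest.GeometryTopology.Submanifold Crest.Agent.R234.Vf_884 Crest.Agent.R234.Cy_870

noncomputable section

namespace Crest.Agent.R234.Ex_46

variable {m n k : ℕ} {U : Set (Euc k)} {D : VarifoldData m k}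
  {π : Euc k →L[ℝ] Euc m} {κ : Euc k →L[ℝ] Euc n}

theorem norm_vert_le (h : Split π κ) (z : Euc k) : ‖κ z‖ ≤ ‖z‖ := by
  have h1 := h.norm_sq z
  nlinarith [norm_nonneg (κ z), norm_nonneg z, sq_nonneg ‖π z‖]

theorem closedBall_subset_cyl (sp : Split π κ) {z : Euc k} (hz : z ∈ cyl π κ 0 4 1) :
    closedBall z 1 ⊆ cyl π κ 0 5 2 := by
  intro w hw
  rw [mem_closedBall, dist_eq_norm] at hw
  obtain ⟨h1, h2⟩ := hz
  rw [sub_zero] at h1
  have h3 : π w = π z + π (w - z) := by rw [map_sub]; abel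
  have h4 : κ w = κ z + κ (w - z) := by rw [map_sub]; abel
  constructor
  · rw [sub_zero, h3]
    refine (norm_add_le _ _).trans ?_
    have := norm_base_le sp (w - z)
    linarith
  · rw [h4]
    refine (norm_add_le _ _).trans ?_
    have := norm_vert_le sp (w - z)
    linarith

theorem base_mem_cyl {z : Euc k} (hz : z ∈ cyl π κ 0 4 1) : ‖π z‖ ≤ 4 := by
  have := hz.1
  rwa [sub_zero] at this

theorem measurableSet_cyl (π : Euc k →L[ℝ] Euc m) (κ : Euc k →L[ℝ] Euc n) (x : Euc m) (R h : ℝ) :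
    MeasurableSet (cyl π κ x R h) := (isClosed_cyl π κ x R h).measurableSet

/-- **dens**: lower mass bound at support points -/
theorem dens (hD : IsIntegralVarifoldIn U D) (hU : IsOpen U) (sp : Split π κ)
    (dom : cyl π κ 0 5 2 ⊆ U) (hE : HasExt U D) (hm : 1 ≤ m) {z : Euc k}
    (hz : z ∈ support D) (hzc : z ∈ cyl π κ 0 4 1) {r : ℝ} (hr : 0 < r) (hr1 : r ≤ 1) :
    ome m / 2 ^ m * r ^ m ≤ (VD D).real (closedBall z r ×ˢ univ) := by
  obtain ⟨T, T', hT, hg, hs⟩ := hE
  have hc : closedBall z r ⊆ U :=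
    ((closedBall_subset_closedBall hr1).trans (closedBall_subset_cyl sp hzc)).trans dom
  have h1 := low_mass hD hU hT hg hs hm hz hr (ball_subset_closedBall.trans hc)
  have h2 : weight D (closedBall z r) < ⊤ := hD.locallyFinite _ (isCompact_closedBall z r) hc
  rw [measureReal_def, VD_prod_univ hD measurableSet_closedBall]
  refine (ENNReal.ofReal_le_iff_le_toReal h2.ne).1 (h1.trans (measure_mono ball_subset_closedBall))

/-- **ubd**: upper mass bound in all balls -/
theorem ubd (hD : IsIntegralVarifoldIn U D) (sp : Split π κ)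
    (dom : cyl π κ 0 5 2 ⊆ U) (hE : HasExt U D) (hm : 1 ≤ m) {K : ℝ}
    (hfin : VD D (cyl π κ 0 5 2 ×ˢ univ) < ⊤)
    (big : (VD D).real (cyl π κ 0 5 2 ×ˢ univ) ≤ K) (z : Euc k) {r : ℝ} (hr : 0 < r) :
    ((VD D).restrict (cyl π κ 0 4 1 ×ˢ univ)).real (closedBall z r ×ˢ univ) ≤ 3 ^ m * K * r ^ m := by
  have hK : 0 ≤ K := measureReal_nonneg.trans big
  have hm5 := measurableSet_cyl π κ 0 5 2
  have h45 : cyl π κ 0 4 1 ⊆ cyl π κ 0 5 2 := fun w hw =>
    ⟨hw.1.trans (by norm_num), hw.2.trans (by norm_num)⟩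
  have hfin' : weight D (cyl π κ 0 5 2) < ⊤ := by rwa [← VD_prod_univ hD hm5]
  have hK' : weight D (cyl π κ 0 5 2) ≤ ENNReal.ofReal K := by
    rw [← VD_prod_univ hD hm5]
    refine ENNReal.le_ofReal_iff_toReal_le hfin.ne hK |>.2 ?_
    exact big
  have hset : (closedBall z r ×ˢ univ : Set (Euc k × L k)) ∩ cyl π κ 0 4 1 ×ˢ univ =
      (closedBall z r ∩ cyl π κ 0 4 1) ×ˢ univ := by
    rw [Set.prod_inter_prod, univ_inter]
  rw [measureReal_def, Measure.restrict_apply (measurableSet_closedBall.prod MeasurableSet.univ),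
    hset, VD_prod_univ hD (measurableSet_closedBall.inter (measurableSet_cyl π κ 0 4 1))]
  refine ENNReal.toReal_le_of_le_ofReal (by positivity) ?_
  rcases (closedBall z r ∩ cyl π κ 0 4 1).eq_empty_or_nonempty with h0 | ⟨z₁, hz₁, hz₁c⟩
  · rw [h0, measure_empty]; exact bot_le
  have hrr : closedBall z r ⊆ closedBall z₁ (2 * r) := by
    refine closedBall_subset_closedBall' ?_
    rw [mem_closedBall, dist_comm] at hz₁
    linarith
  rcases le_or_gt 1 (2 * r) with h1 | h1
  · refine (measure_mono (inter_subset_right.trans h45)).trans (hK'.trans ?_)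
    refine ENNReal.ofReal_le_ofReal ?_
    have h2 : 1 ≤ (3 * r) ^ m := one_le_pow₀ (by linarith)
    calc K = 1 * K := (one_mul K).symm
      _ ≤ (3 * r) ^ m * K := mul_le_mul_of_nonneg_right h2 hK
      _ = _ := by rw [mul_pow]; ring
  · obtain ⟨T, T', hT, hg, hs⟩ := hE
    have hb : ball z₁ 1 ⊆ U :=
      (ball_subset_closedBall.trans (closedBall_subset_cyl sp hz₁c)).trans dom
    have h2 := up_mass hD hT hg hs hm (z := z₁) (by positivity : 0 < 2 * r) h1 hb
    refine (measure_mono (inter_subset_left.trans hrr)).trans (h2.trans ?_)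
    have h3 : weight D (ball z₁ 1) ≤ ENNReal.ofReal K :=
      (measure_mono (ball_subset_closedBall.trans (closedBall_subset_cyl sp hz₁c))).trans hK'
    refine (mul_le_mul_right h3 _).trans ?_
    rw [← ENNReal.ofReal_mul (by positivity)]
    refine ENNReal.ofReal_le_ofReal ?_
    have h4 : ((17 / 15 : ℝ) ^ 2 * (2 * r / 1)) ^ m ≤ (3 * r) ^ m := by
      refine pow_le_pow_left₀ (by positivity) ?_ m
      linarith
    calc ((17 / 15 : ℝ) ^ 2 * (2 * r / 1)) ^ m * K ≤ (3 * r) ^ m * K :=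
          mul_le_mul_of_nonneg_right h4 hK
      _ = _ := by rw [mul_pow]; ring

/-! ### the two bounds for the class -/

variable {Q : ℕ} {δ Dm : ℝ}

theorem cls_dens (h : Core_809.Cls Q δ Dm π κ U D) (hm : 1 ≤ m) {z : Euc k}
    (hz : z ∈ support D) (hzc : z ∈ cyl π κ 0 4 1) {r : ℝ} (hr : 0 < r) (hr1 : r ≤ 1) :
    ome m / 2 ^ m * r ^ m ≤ (VD D).real (closedBall z r ×ˢ univ) :=
  dens h.int h.isOpen h.sp h.dom' h.ex hm hz hzc hr hr1

theorem cls_ubd (h : Core_809.Cls Q δ Dm π κ U D) (hm : 1 ≤ m) (z : Euc k) {r : ℝ}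
    (hr : 0 < r) :
    (Core_809.part π κ D).real (closedBall z r ×ˢ univ) ≤
      3 ^ m * ((Q + 1) * (ome m * 5 ^ m)) * r ^ m :=
  ubd h.int h.sp h.dom' h.ex hm
    (VD_fin h.int (isCompact_cyl h.sp 0 5 2) h.dom') h.big z hr

/-- lower mass bound at almost every point -/
theorem cls_dens_ae (h : Core_809.Cls Q δ Dm π κ U D) (hm : 1 ≤ m) :
    ∀ᵐ p ∂(VD D), p.1 ∈ cyl π κ 0 4 1 → ∀ r : ℝ, 0 < r → r ≤ 1 →
      ome m / 2 ^ m * r ^ m ≤ (VD D).real (closedBall p.1 r ×ˢ univ) := by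
  have h1 : ∀ᵐ p ∂(VD D), p.1 ∈ support D := by
    have h2 : ∀ᵐ x ∂(weight D), x ∈ support D := by
      rw [ae_iff]
      exact Ct914.weight_compl_support D
    rw [← VD_fst h.int] at h2
    exact ae_of_ae_map measurable_fst.aemeasurable h2
  filter_upwards [h1] with p hp hpc r hr hr1
  exact cls_dens h hm hp hpc hr hr1

end Crest.Agent.R234.Ex_46
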