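import Crest.Agent.R234.Core0_809
import Crest.Agent.R234.Ex3_46
import Crest.Agent.R234.Asl2_214
import Crest.Agent.R234.Crs3_173

/-!
# Row 234 (helper387): the class `Cls` of the core satisfies `CylAS`, 164's `Area`, 173's `In`

`W = part π κ Dd`, `h₀ = √D`, `N = S.N (cyl π κ 0 4 1)`, `C₀ = 3^m (Q+1) om_m 5^m`.
-/

set_option autoImplicit false

open MeasureTheory Set Function Filter Topology Metric
open Crest.GeometryTopology.Submanifold
open Crest.Agent.R234.Vf_884 Crest.Agent.R234.Ar_870 Crest.Agent.R234.Cy_870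
open Crest.Agent.R234.Asl_214 Crest.Agent.R234.Core_809
open scoped ENNReal NNReal

noncomputable section

namespace Crest.Agent.R234.Ins_387

variable {m n k Q : ℕ} {δ D : ℝ} {π : Euc k →L[ℝ] Euc m} {κ : Euc k →L[ℝ] Euc n}
  {U : Set (Euc k)} {Dd : VarifoldData m k}

/-- the part of the class is `CylAS` with heights `√D` -/
theorem cylAS (h : Cls Q δ D π κ U Dd) (hD1 : D < 1) :
    CylAS (part π κ Dd) π κ 0 4 (√D) δ := by
  refine cylAS_of_AS h.as h.sp (h₀ := √D) (h₁ := 1) ?_ one_pos h.dom ?_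
  · rw [Real.sqrt_lt' one_pos]
    simpa using hD1
  · filter_upwards [h.hgt] with p hp hpc
    exact Real.le_sqrt_of_sq_le (hp hpc)

theorem measurableSet_cyl4 (π : Euc k →L[ℝ] Euc m) (κ : Euc k →L[ℝ] Euc n) :
    MeasurableSet (Cy_870.cyl π κ 0 4 1) := (isClosed_cyl π κ 0 4 1).measurableSet

theorem fin4 (h : Cls Q δ D π κ U Dd) : VD Dd (Cy_870.cyl π κ 0 4 1 ×ˢ univ) < ⊤ :=
  h.as.fin _ (isCompact_cyl h.sp 0 4 1) h.dom

theorem fin5 (h : Cls Q δ D π κ U Dd) : VD Dd (Cy_870.cyl π κ 0 5 2 ×ˢ univ) < ⊤ :=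
  h.as.fin _ (isCompact_cyl h.sp 0 5 2) h.dom'

/-- 164's area formula for the part -/
theorem area (h : Cls Q δ D π κ U Dd) (S : Sheets Dd π) :
    Th_164.Area (part π κ Dd) π (ball 0 4) (S.N (Cy_870.cyl π κ 0 4 1)) where
  meas := S.measurable_N (measurableSet_cyl4 π κ)
  nat := S.ae_N_nat h.int h.sp.hh (measurableSet_cyl4 π κ) measurableSet_ball
    (lt_of_le_of_lt (measure_mono (prod_mono inter_subset_left subset_rfl)) (fin4 h))
  area _ hg _ := S.area_W (measurableSet_cyl4 π κ) hg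

/-- the constant of the upper mass bound -/
def C0 (m Q : ℕ) : ℝ := 3 ^ m * ((Q + 1) * (ome m * 5 ^ m))

theorem C0_nonneg (m Q : ℕ) : 0 ≤ C0 m Q := by
  have := ome_pos m
  unfold C0
  positivity

/-- upper mass bound in all balls -/
theorem ubd (h : Cls Q δ D π κ U Dd) (hm : 1 ≤ m) (z : Euc k) {r : ℝ} (hr : 0 < r) :
    (part π κ Dd).real (closedBall z r ×ˢ univ) ≤ C0 m Q * r ^ m := by
  obtain ⟨T, T', hT, hg, hs⟩ := h.ex
  set K : ℝ := (Q + 1) * (ome m * 5 ^ m) with hKdef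
  have hK : 0 ≤ K := measureReal_nonneg.trans h.big
  have hm5 := Ex_46.measurableSet_cyl π κ 0 5 2
  have h45 : Cy_870.cyl π κ 0 4 1 ⊆ Cy_870.cyl π κ 0 5 2 := fun w hw =>
    ⟨hw.1.trans (by norm_num), hw.2.trans (by norm_num)⟩
  have hK' : weight Dd (Cy_870.cyl π κ 0 5 2) ≤ ENNReal.ofReal K := by
    rw [← VD_prod_univ h.int hm5]
    exact ENNReal.le_ofReal_iff_toReal_le (fin5 h).ne hK |>.2 h.big
  have hset : (closedBall z r ×ˢ univ : Set (Euc k × L k)) ∩ Cy_870.cyl π κ 0 4 1 ×ˢ univ =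
      (closedBall z r ∩ Cy_870.cyl π κ 0 4 1) ×ˢ univ := by
    rw [Set.prod_inter_prod, univ_inter]
  unfold part
  rw [measureReal_def, Measure.restrict_apply (measurableSet_closedBall.prod MeasurableSet.univ),
    hset, VD_prod_univ h.int (measurableSet_closedBall.inter (measurableSet_cyl4 π κ))]
  refine ENNReal.toReal_le_of_le_ofReal (mul_nonneg (C0_nonneg m Q) (by positivity)) ?_
  have e0 : C0 m Q = 3 ^ m * K := rfl
  rcases (closedBall z r ∩ Cy_870.cyl π κ 0 4 1).eq_empty_or_nonempty with h0 | ⟨z₁, hz₁, hz₁c⟩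
  · rw [h0, measure_empty]; exact bot_le
  have hrr : closedBall z r ⊆ closedBall z₁ (2 * r) := by
    refine closedBall_subset_closedBall' ?_
    rw [mem_closedBall, dist_comm] at hz₁
    linarith
  rcases le_or_gt 1 (2 * r) with h1 | h1
  · refine (measure_mono (inter_subset_right.trans h45)).trans (hK'.trans ?_)
    refine ENNReal.ofReal_le_ofReal ?_
    have h2 : 1 ≤ (3 * r) ^ m := one_le_pow₀ (by linarith)
    calc K = 1 * K := (one_mul K).symm
      _ ≤ (3 * r) ^ m * K := mul_le_mul_of_nonneg_right h2 hK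
      _ = _ := by rw [mul_pow, e0]; ring
  · have hb : ball z₁ 1 ⊆ U :=
      (ball_subset_closedBall.trans (Ex_46.closedBall_subset_cyl h.sp hz₁c)).trans h.dom'
    have h2 := Ex_46.up_mass h.int hT hg hs hm (z := z₁) (by positivity : 0 < 2 * r) h1 hb
    refine (measure_mono (inter_subset_left.trans hrr)).trans (h2.trans ?_)
    have h3 : weight Dd (ball z₁ 1) ≤ ENNReal.ofReal K :=
      (measure_mono (ball_subset_closedBall.trans
        (Ex_46.closedBall_subset_cyl h.sp hz₁c))).trans hK'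
    refine (mul_le_mul_right h3 _).trans ?_
    rw [← ENNReal.ofReal_mul (by positivity)]
    refine ENNReal.ofReal_le_ofReal ?_
    have h4 : ((17 / 15 : ℝ) ^ 2 * (2 * r / 1)) ^ m ≤ (3 * r) ^ m := by
      refine pow_le_pow_left₀ (by positivity) ?_ m
      linarith
    calc ((17 / 15 : ℝ) ^ 2 * (2 * r / 1)) ^ m * K ≤ (3 * r) ^ m * K :=
          mul_le_mul_of_nonneg_right h4 hK
      _ = _ := by rw [mul_pow, e0]; ring

/-- **173's `In` for the class** -/
theorem in_of_cls (h : Cls Q δ D π κ U Dd) (hm : 1 ≤ m) (hD1 : D < 1) (hδ : 0 ≤ δ)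
    (S : Sheets Dd π) :
    Crs_173.In (part π κ Dd) π κ (S.N (Cy_870.cyl π κ 0 4 1)) Q (C0 m Q) (√D) δ where
  cyl := cylAS h hD1
  area := area h S
  mass := h.mass
  ub z _ hr _ := ubd h hm z hr
  δ0 := hδ
  hh := Real.sqrt_nonneg D

end Crest.Agent.R234.Ins_387
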