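import Crest.Agent.R234.Shp1_98

/-!
# Row 234 (helper98): absorption with heights

The error of (W3) contains `δ' √(IF Y)`, `Y` = the height kernel which also is in `p = P'`.  It is
absorbed in `Rs` when `|f| ≤ c δ (e + et) + p / 2` and `2 K₀ δ' Y ≤ p`.
-/

set_option autoImplicit false

open MeasureTheory Set Filter Topology

noncomputable section

namespace Crest.Agent.R234.Shp_98

/-- absorption in (W2), (W3): `IF' / 2 = F + G`, `F² ≤ IF R`. -/
theorem cs_absorb2 {I R et Y F G c δ δ' κ t U : ℝ} (hI : 0 ≤ I) (hR : 0 ≤ R) (hRet : R ≤ et)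
    (hY : 0 ≤ Y) (hF : F ^ 2 ≤ I * R) (hδ : 0 < δ) (hδ1 : δ ≤ 1) (hδ' : 0 ≤ δ') (hδδ : δ' ≤ δ)
    (hc : 0 ≤ c) (hG : |G| ≤ c * (δ * √(I * et) + δ' * √(I * Y)) + t)
    (ht : 4 * t ^ 2 ≤ κ * δ * U ^ 2) :
    (F + G) ^ 2 ≤ I * (R + (3 * c + 1 + 3 * c ^ 2) * (δ * et + δ' * Y)) + κ * U ^ 2 := by
  have het : 0 ≤ et := hR.trans hRet
  set a : ℝ := √(I * et) with ha
  have ha0 : 0 ≤ a := Real.sqrt_nonneg _
  have ha2 : a ^ 2 = I * et := Real.sq_sqrt (by positivity)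
  set b : ℝ := √(I * Y) with hb
  have hb0 : 0 ≤ b := Real.sqrt_nonneg _
  have hb2 : b ^ 2 = I * Y := Real.sq_sqrt (by positivity)
  have hFa : |F| ≤ a := by
    apply Real.abs_le_sqrt
    exact hF.trans (mul_le_mul_of_nonneg_left hRet hI)
  have h1 : |F * G| ≤ a * (c * (δ * a + δ' * b) + t) := by
    rw [abs_mul]
    exact mul_le_mul hFa hG (abs_nonneg _) ha0
  have h2 : G ^ 2 ≤ (c * (δ * a + δ' * b) + t) ^ 2 := by
    rw [← sq_abs G]
    exact pow_le_pow_left₀ (abs_nonneg _) hG 2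
  have h3 : F * G ≤ a * (c * (δ * a + δ' * b) + t) := (le_abs_self _).trans h1
  -- `2 a t ≤ δ a² + t² / δ`
  have h4 : 2 * (a * t) ≤ δ * a ^ 2 + t ^ 2 / δ := by
    have h5 : 0 ≤ (δ * a - t) ^ 2 / δ := by positivity
    have h6 : (δ * a - t) ^ 2 / δ = δ * a ^ 2 - 2 * (a * t) + t ^ 2 / δ := by
      field_simp
      ring
    linarith
  have h7 : t ^ 2 ≤ t ^ 2 / δ := by
    rw [le_div_iff₀ hδ]
    nlinarith [sq_nonneg t]
  have h8 : 4 * (t ^ 2 / δ) ≤ κ * U ^ 2 := by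
    have : 4 * (t ^ 2 / δ) = 4 * t ^ 2 / δ := by ring
    rw [this, div_le_iff₀ hδ]
    linarith
  -- `2 a b ≤ a² + b²`
  have h10 : 2 * (a * b) ≤ a ^ 2 + b ^ 2 := by nlinarith [sq_nonneg (a - b)]
  have h11 : c * δ' * (2 * (a * b)) ≤ c * δ' * (a ^ 2 + b ^ 2) :=
    mul_le_mul_of_nonneg_left h10 (by positivity)
  have h12 : c * δ' * a ^ 2 ≤ c * δ * a ^ 2 := by
    have := mul_le_mul_of_nonneg_left hδδ hc
    nlinarith [sq_nonneg a]
  have h13 : (c * (δ * a + δ' * b) + t) ^ 2 ≤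
      3 * (c ^ 2 * δ * a ^ 2) + 3 * (c ^ 2 * δ' * b ^ 2) + 3 * t ^ 2 := by
    have e1 : (c * (δ * a + δ' * b) + t) ^ 2 ≤
        3 * (c * δ * a) ^ 2 + 3 * (c * δ' * b) ^ 2 + 3 * t ^ 2 := by
      have : ∀ u v w : ℝ, (u + v + w) ^ 2 ≤ 3 * u ^ 2 + 3 * v ^ 2 + 3 * w ^ 2 := fun u v w => by
        nlinarith [sq_nonneg (u - v), sq_nonneg (u - w), sq_nonneg (v - w)]
      have h := this (c * δ * a) (c * δ' * b) t
      have e : c * (δ * a + δ' * b) + t = c * δ * a + c * δ' * b + t := by ring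
      rw [e]
      exact h
    have e2 : (c * δ * a) ^ 2 ≤ c ^ 2 * δ * a ^ 2 := by
      have : (c * δ * a) ^ 2 = c ^ 2 * δ * a ^ 2 * δ := by ring
      rw [this]
      exact mul_le_of_le_one_right (by positivity) hδ1
    have e3 : (c * δ' * b) ^ 2 ≤ c ^ 2 * δ' * b ^ 2 := by
      have : (c * δ' * b) ^ 2 = c ^ 2 * δ' * b ^ 2 * δ' := by ring
      rw [this]
      exact mul_le_of_le_one_right (by positivity) (hδδ.trans hδ1)
    linarith
  have h14 : I * (R + (3 * c + 1 + 3 * c ^ 2) * (δ * et + δ' * Y)) =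
      I * R + (3 * c + 1 + 3 * c ^ 2) * (δ * a ^ 2 + δ' * b ^ 2) := by
    rw [ha2, hb2]; ring
  rw [h14]
  have h15 : 0 ≤ (2 * c + 1) * (δ' * b ^ 2) := by positivity
  have h16 : a * (c * (δ * a + δ' * b) + t) = c * δ * a ^ 2 + c * δ' * (a * b) + a * t := by ring
  rw [h16] at h3
  have h17 : (F + G) ^ 2 = F ^ 2 + 2 * (F * G) + G ^ 2 := by ring
  rw [h17]
  have h18 : (3 * c + 1 + 3 * c ^ 2) * (δ * a ^ 2 + δ' * b ^ 2) =
      2 * (c * δ * a ^ 2) + c * δ * a ^ 2 + δ * a ^ 2 + 3 * (c ^ 2 * δ * a ^ 2) +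
        c * δ' * b ^ 2 + 3 * (c ^ 2 * δ' * b ^ 2) + (2 * c + 1) * (δ' * b ^ 2) := by ring
  rw [h18]
  have h19 : c * δ' * (a ^ 2 + b ^ 2) = c * δ' * a ^ 2 + c * δ' * b ^ 2 := by ring
  have h20 : c * δ' * (2 * (a * b)) = 2 * (c * δ' * (a * b)) := by ring
  rw [h19, h20] at h11
  linarith

namespace Raw

variable {m K K₀ c δ T : ℝ} {E e et b g R f p P B : ℝ → ℝ}

/-- lower bound of `Rs` with the spare half of `p` -/
theorem Rs_lower2 (h : Raw m K c δ T E e et b g R f p P B) (hK : c + K₀ ≤ K) {l : ℝ}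
    (hl : l ≤ T) (hf : |f l| ≤ c * δ * (e l + et l) + p l / 2) :
    R l + 2 * g l + K₀ * δ * (e l + et l) + p l / 2 ≤ Rs K δ e et g R f p l := by
  have h0 := h.e0 l hl
  have h00 := h.et0 hl
  have hδ := h.δ0
  have hK0 := h.K0
  have h1 := (abs_le.1 hf).1
  have h2 : (c + K₀) * (δ * (e l + et l)) ≤ K * (δ * (e l + et l)) :=
    mul_le_mul_of_nonneg_right hK (by positivity)
  have h3 : 0 ≤ K * δ * e l := by positivity
  unfold Rs
  nlinarith

/-- the Cauchy-Schwarz inequality with all errors absorbed, at one scale -/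
theorem cs2 (h : Raw m K c δ T E e et b g R f p P B) {κ a c₁ δ' I Y F G tt : ℝ} (hδ1 : δ ≤ 1)
    (hδ' : 0 ≤ δ') (hδδ : δ' ≤ δ) (hκ : 0 ≤ κ) (hc₁ : 0 ≤ c₁)
    (hK : c + (3 * c₁ + 1 + 3 * c₁ ^ 2) ≤ K) (hcK : c ≤ K)
    (hU : 0 < Us K δ E e P B a) {l : ℝ} (hal : a ≤ l) (hl : l ≤ T)
    (hf : |f l| ≤ c * δ * (e l + et l) + p l / 2) (hY0 : 0 ≤ Y)
    (hY : (3 * c₁ + 1 + 3 * c₁ ^ 2) * (δ' * Y) ≤ p l / 2)
    (hI0 : 0 ≤ I) (hF : F ^ 2 ≤ I * R l)
    (hG : |G| ≤ c₁ * (δ * √(I * et l) + δ' * √(I * Y)) + tt)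
    (ht : 4 * tt ^ 2 ≤ κ * δ * Us K δ E e P B a ^ 2) :
    (F + G) ^ 2 ≤ I * Rs K δ e et g R f p l + κ * Us K δ E e P B l ^ 2 := by
  have h1 := cs_absorb2 (U := Us K δ E e P B a) (κ := κ) hI0 (h.R0 l hl) (h.Ret l hl) hY0 hF
    h.δ0 hδ1 hδ' hδδ hc₁ hG ht
  have h2 := h.Rs_lower2 hK hl hf
  have h3 := h.g0 l hl
  have h4 : Us K δ E e P B a ^ 2 ≤ Us K δ E e P B l ^ 2 :=
    pow_le_pow_left₀ hU.le (h.Us_mono hcK hal hl) 2
  have h5 : 0 ≤ 3 * c₁ + 1 + 3 * c₁ ^ 2 := by positivity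
  have h6 : 0 ≤ (3 * c₁ + 1 + 3 * c₁ ^ 2) * δ * e l := by
    have h7 := h.e0 l hl
    have h9 := h.δ0
    positivity
  have h10 : R l + (3 * c₁ + 1 + 3 * c₁ ^ 2) * (δ * et l + δ' * Y) ≤ Rs K δ e et g R f p l := by
    nlinarith
  have h11 := mul_le_mul_of_nonneg_left h10 hI0
  have h12 := mul_le_mul_of_nonneg_left h4 hκ
  linarith

/-- **809's `PtDat`**, heights absorbed: `eF = IF' / 2 = F + G`, `er = 0`. -/
theorem ptDat2 (h : Raw m K c δ T E e et b g R f p P B) {W : Type*} {q : W → ℝ}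
    {κ a q1 c₁ δ' : ℝ} {Y : ℝ → ℝ} {IF F G tt : W → ℝ → ℝ} (hδ1 : δ ≤ 1) (hδ' : 0 ≤ δ')
    (hδδ : δ' ≤ δ) (haT : a ≤ T) (hκ : 0 ≤ κ) (hc₁ : 0 ≤ c₁)
    (hK : c + (3 * c₁ + 1 + 3 * c₁ ^ 2) ≤ K) (hcK : c ≤ K)
    (hU : 0 < Us K δ E e P B a) (hB : ∀ l ∈ Icc a T, 0 ≤ B l)
    (hf : ∀ l ∈ Icc a T, |f l| ≤ c * δ * (e l + et l) + p l / 2)
    (hY0 : ∀ l ∈ Icc a T, 0 ≤ Y l)
    (hY : ∀ l ∈ Icc a T, (3 * c₁ + 1 + 3 * c₁ ^ 2) * (δ' * Y l) ≤ p l / 2)
    (hI0 : ∀ w, ∀ l ∈ Icc a T, 0 ≤ IF w l)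
    (hcF : ∀ w, q w ^ 2 ≤ q1 → Continuous fun l => F w l + G w l)
    (hI : ∀ w, q w ^ 2 ≤ q1 → ∀ l ≤ T, HasDerivAt (IF w) (2 * (F w l + G w l)) l)
    (hF : ∀ w, q w ^ 2 ≤ q1 → ∀ l ∈ Icc a T, F w l ^ 2 ≤ IF w l * R l)
    (hG : ∀ w, q w ^ 2 ≤ q1 → ∀ l ∈ Icc a T,
      |G w l| ≤ c₁ * (δ * √(IF w l * et l) + δ' * √(IF w l * Y l)) + tt w l)
    (ht : ∀ w, q w ^ 2 ≤ q1 → ∀ l ∈ Icc a T,
      4 * tt w l ^ 2 ≤ κ * δ * Us K δ E e P B a ^ 2) :
    Core_809.PtDat q κ a T q1 (Us K δ E e P B) (Es K δ E e P) (Rs K δ e et g R f p)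
      (fun w l => F w l + G w l) IF (fun _ _ => 0) where
  haT := haT
  k0 := hκ
  Upos := hU
  hR := h.cont_Rs.intervalIntegrable _ _
  hU := fun x hx => by
    have := h.Us_sub (s := a) (t := x) haT hx.2
    linarith
  Rnn := by
    filter_upwards with t ht
    exact h.Rs_nonneg hcK ht.2
  UE := fun x hx => by
    have h1 := hB x hx
    have h3 : Us K δ E e P B x = Es K δ E e P x - 2 * B x := rfl
    linarith
  Em := h.cont_Es.measurable
  Inn := hI0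
  he := fun w hw => (hcF w hw).intervalIntegrable _ _
  hρ := fun w _ => by simp
  hI := fun w hw x hx => by
    have h1 : ∫ t in a..x, 2 * (F w t + G w t) = IF w x - IF w a := by
      refine intervalIntegral.integral_eq_sub_of_hasDerivAt (fun y hy => ?_)
        (((hcF w hw).const_mul 2).intervalIntegrable _ _)
      exact hI w hw y (hy.2.trans (max_le haT hx.2))
    simp only [add_zero]
    linarith
  cs := fun w hw => by
    filter_upwards with t htt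
    have h1 := h.cs2 hδ1 hδ' hδδ hκ hc₁ hK hcK hU htt.1 htt.2 (hf t htt) (hY0 t htt) (hY t htt)
      (hI0 w t htt) (hF w hw t htt) (hG w hw t htt) (ht w hw t htt)
    linarith
  rho := fun w _ => by
    filter_upwards with t ht
    rw [abs_zero]
    exact mul_nonneg hκ (hU.le.trans (h.Us_mono hcK ht.1 ht.2))

end Raw

/-- **translation of the scale** in 809's `PtDat` -/
theorem ptDat_shift {W : Type*} {q : W → ℝ} {κ a T q1 : ℝ} {U E R : ℝ → ℝ}
    {eF IF er : W → ℝ → ℝ} (s : ℝ)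
    (h : Core_809.PtDat q κ (a + s) (T + s) q1 U E R eF IF er) :
    Core_809.PtDat q κ a T q1 (fun t => U (t + s)) (fun t => E (t + s)) (fun t => R (t + s))
      (fun w t => eF w (t + s)) (fun w t => IF w (t + s)) (fun w t => er w (t + s)) where
  haT := by linarith [h.haT]
  k0 := h.k0
  Upos := h.Upos
  hR := by
    have := h.hR.comp_add_right s
    simpa using this
  hU := fun x hx => by
    have h1 := h.hU (x + s) ⟨by linarith [hx.1], by linarith [hx.2]⟩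
    rw [h1, intervalIntegral.integral_comp_add_right (fun t => R t)]
  Rnn := by
    have h1 := (measurePreserving_add_right volume s).quasiMeasurePreserving.ae h.Rnn
    filter_upwards [h1] with t ht htt
    exact ht ⟨by linarith [htt.1], by linarith [htt.2]⟩
  UE := fun x hx => h.UE (x + s) ⟨by linarith [hx.1], by linarith [hx.2]⟩
  Em := h.Em.comp (measurable_id.add_const s)
  Inn := fun w x hx => h.Inn w (x + s) ⟨by linarith [hx.1], by linarith [hx.2]⟩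
  he := fun w hw => by
    have := (h.he w hw).comp_add_right s
    simpa using this
  hρ := fun w hw => by
    have := (h.hρ w hw).comp_add_right s
    simpa using this
  hI := fun w hw x hx => by
    have h1 := h.hI w hw (x + s) ⟨by linarith [hx.1], by linarith [hx.2]⟩
    rw [h1, intervalIntegral.integral_comp_add_right (fun t => 2 * eF w t + er w t)]
  cs := fun w hw => by
    have h1 := (measurePreserving_add_right volume s).quasiMeasurePreserving.ae (h.cs w hw)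
    filter_upwards [h1] with t ht htt
    exact ht ⟨by linarith [htt.1], by linarith [htt.2]⟩
  rho := fun w hw => by
    have h1 := (measurePreserving_add_right volume s).quasiMeasurePreserving.ae (h.rho w hw)
    filter_upwards [h1] with t ht htt
    exact ht ⟨by linarith [htt.1], by linarith [htt.2]⟩

end Crest.Agent.R234.Shp_98
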