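import Crest.Agent.R234.Shp2_98
import Crest.Agent.R234.Shp4_98
import Crest.Agent.R234.Raw2_387
import Crest.Agent.R234.Wi5_870

/-!
# Row 234 (helper98): the wells at an averaged contact centre

Weighted bound of the error of (W3) with the heights kept, its average, and the well part of
`Core_809.PtDat` : `IF = IFa`, `eF = IF' / 2 = (eFa - av f2) + (err3a + av f3) / 2`.
-/

set_option autoImplicit false

open MeasureTheory Set Function Filter Topology Metric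
open Crest.GeometryTopology.Submanifold
open Crest.Agent.R234.Vf_884 Crest.Agent.R234.Ar_870 Crest.Agent.R234.Cy_870
open Crest.Agent.R234.Asl_214
open scoped ENNReal NNReal InnerProductSpace

noncomputable section

namespace Crest.Agent.R234.Shp2_98

variable {m n k : ℕ} {π : Euc k →L[ℝ] Euc m} {κ : Euc k →L[ℝ] Euc n} {δ : ℝ}
  {x₀ x : Euc m} {R h₀ : ℝ} {W : Measure (Euc k × L k)} {g g1 g2 : ℝ → ℝ}

/-- **(b')** the error of (W3), weighted, heights kept -/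
theorem abs_X3_le2 (h : CylAS W π κ x₀ R h₀ δ) (h0 : 0 ≤ δ) (hh : 0 ≤ h₀) (hg : Prof g g1 g2)
    {K : ℝ} (hK : Bd g1 g2 K) {F : Euc n → ℝ} {dF : Euc n → Euc n} {H : Euc n → L n}
    (hF : Well F dF H) {F₀ : ℝ} (hF₀ : ∀ y, ‖y‖ ≤ h₀ → F y ≤ F₀) {l : ℝ}
    (hl : ‖x - x₀‖ + Real.exp l ≤ R) (hl0 : l ≤ 0) :
    |4 * Real.exp (-m * l) * FV W (X3 π κ x F g1 l)| ≤
      2 * δ * √(IF W π κ x F g1 l * et W π x g1 l) +
        2 * δ * √(IF W π κ x F g1 l * yk W π κ x (k2 g1) l) +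
        16 * K * δ * F₀ * (Real.exp (-2 * l) * tb W π x l + h₀ ^ 2 * mb W π x l) := by
  have : IsFiniteMeasure W := ⟨h.fin⟩
  have hK0 := hK.nonneg
  have hF0 : 0 ≤ F₀ := (hF.nonneg 0).trans (hF₀ 0 (by simpa using hh))
  set t : Euc k × L k → ℝ := fun p => Real.exp (-2 * l) * ‖π p.1 - x‖ ^ 2 with ht
  have ht0 : ∀ p, 0 ≤ t p := fun p => scaled_nonneg l x _
  have c0 : Continuous t := continuous_sd (k := k) π x l
  have cg1 : Continuous fun p : Euc k × L k => g1 (t p) := hg.k0.cont.comp c0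
  have ct := CylAS.continuous_tl (k := k) π
  have cn : Continuous fun p : Euc k × L k => ‖π p.1 - x‖ :=
    ((π.continuous.comp continuous_fst).sub continuous_const).norm
  have cF : Continuous fun p : Euc k × L k => F (κ p.1) :=
    hF.contF.comp (κ.continuous.comp continuous_fst)
  have cdF : Continuous fun p : Euc k × L k => ‖dF (κ p.1)‖ :=
    (hF.contdF.comp (κ.continuous.comp continuous_fst)).norm
  have cκ : Continuous fun p : Euc k × L k => ‖κ p.1‖ := (κ.continuous.comp continuous_fst).norm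
  set ξ : Euc m → Euc m := fun v => g1 (Real.exp (-2 * l) * ‖v - x‖ ^ 2) • (v - x) with hξ
  have cξ : Continuous fun p : Euc k × L k => ‖ξ (π p.1)‖ :=
    (cg1.smul ((π.continuous.comp continuous_fst).sub continuous_const)).norm
  have cdξ : Continuous fun p : Euc k × L k => ‖dR g1 g2 l x (π p.1)‖ :=
    ((continuous_dR hg.k1 l x).comp (π.continuous.comp continuous_fst)).norm
  have hfv := h.fv_hor h0 hF.hasF ((innerSL ℝ).continuous.comp hF.contdF)
    (hasFDerivAt_R hg.k1 l x) (continuous_dR hg.k1 l x) (fun v hv => by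
      rw [hg.k1.zero _ (Ker.one_le_of x (far hl hv)), zero_smul])
  -- the three parts
  have iA : Integrable (fun p : Euc k × L k => δ * (tl π p.2 + ‖κ p.1‖ ^ 2) *
      (|F (κ p.1)| * (‖dR g1 g2 l x (π p.1)‖ + ‖ξ (π p.1)‖))) W :=
    h.integrable_continuous ((continuous_const.mul (ct.add (cκ.pow 2))).mul
      (cF.abs.mul (cdξ.add cξ)))
  have iB : Integrable (fun p : Euc k × L k => δ * (√(tl π p.2) + ‖κ p.1‖) *
      (‖innerSL ℝ (dF (κ p.1))‖ * ‖ξ (π p.1)‖)) W := by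
    simp only [innerSL_apply_norm]
    exact h.integrable_continuous ((continuous_const.mul (ct.sqrt.add cκ)).mul (cdF.mul cξ))
  have hsplit : |FV W (X3 π κ x F g1 l)| ≤
      (∫ p, δ * (tl π p.2 + ‖κ p.1‖ ^ 2) *
        (|F (κ p.1)| * (‖dR g1 g2 l x (π p.1)‖ + ‖ξ (π p.1)‖)) ∂W) +
      ∫ p, δ * (√(tl π p.2) + ‖κ p.1‖) * (‖innerSL ℝ (dF (κ p.1))‖ * ‖ξ (π p.1)‖) ∂W := by
    rw [← integral_add iA iB]
    exact hfv
  -- part A
  have hA : ∫ p, δ * (tl π p.2 + ‖κ p.1‖ ^ 2) *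
        (|F (κ p.1)| * (‖dR g1 g2 l x (π p.1)‖ + ‖ξ (π p.1)‖)) ∂W ≤
      δ * F₀ * (4 * K) * (TB W π x (Real.exp l) + h₀ ^ 2 * MB W π x (Real.exp l)) := by
    have e1 : δ * F₀ * (4 * K) * (TB W π x (Real.exp l) + h₀ ^ 2 * MB W π x (Real.exp l)) =
        ∫ p in ovr π x (Real.exp l), (δ * F₀ * (4 * K) * tl π p.2 +
          δ * F₀ * (4 * K) * h₀ ^ 2) ∂W := by
      rw [integral_add ((h.integrable_continuous ct).restrict.const_mul _) (integrable_const _),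
        integral_const_mul, integral_const]
      simp only [Measure.real, Measure.restrict_apply_univ, smul_eq_mul, TB, MB]
      ring
    rw [e1, ← integral_indicator (measurableSet_ovr π x _)]
    refine integral_mono_ae iA ?_ ?_
    · rw [integrable_indicator_iff (measurableSet_ovr π x _)]
      exact (((h.integrable_continuous ct).restrict).const_mul _).add (integrable_const _)
    · filter_upwards [h.tl_nonneg', h.hgt] with p htl hy
      by_cases hp : p ∈ ovr π x (Real.exp l)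
      · rw [indicator_of_mem hp]
        have b1 : ‖dR g1 g2 l x (π p.1)‖ + ‖ξ (π p.1)‖ ≤ 4 * K := by
          have b2 := norm_dR_le hK l x (π p.1)
          have b3 := norm_R_le hg.k1 hK l x (π p.1)
          have b4 : K * Real.exp l ≤ K :=
            mul_le_of_le_one_right hK0 (Real.exp_le_one_iff.2 hl0)
          simp only [hξ]
          linarith
        have b5 : |F (κ p.1)| * (‖dR g1 g2 l x (π p.1)‖ + ‖ξ (π p.1)‖) ≤ F₀ * (4 * K) := by
          rw [abs_of_nonneg (hF.nonneg _)]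
          exact mul_le_mul (hF₀ _ hy) b1 (by positivity) hF0
        have b6 : ‖κ p.1‖ ^ 2 ≤ h₀ ^ 2 := pow_le_pow_left₀ (norm_nonneg _) hy 2
        have b7 : δ * (tl π p.2 + ‖κ p.1‖ ^ 2) ≤ δ * (tl π p.2 + h₀ ^ 2) :=
          mul_le_mul_of_nonneg_left (by linarith) h0
        have b8 := mul_le_mul b7 b5 (by positivity) (by positivity)
        refine b8.trans (le_of_eq ?_)
        ring
      · rw [indicator_of_notMem hp]
        have hp' : Real.exp l ≤ ‖π p.1 - x‖ := not_lt.1 hp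
        rw [dR_zero hg.k1 hp']
        simp only [hξ]
        rw [hg.k1.zero _ (Ker.one_le_of x hp')]
        simp
  -- part B
  have iu : Integrable (fun p : Euc k × L k => 2 * F (κ p.1) * (-g1 (t p))) W :=
    h.integrable_continuous ((continuous_const.mul cF).mul cg1.neg)
  have iv : Integrable (fun p : Euc k × L k => tl π p.2 * ((-g1 (t p)) * ‖π p.1 - x‖ ^ 2)) W :=
    h.integrable_continuous (ct.mul (cg1.neg.mul (cn.pow 2)))
  have iw : Integrable (fun p : Euc k × L k =>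
      ‖κ p.1‖ ^ 2 * ((-g1 (t p)) * ‖π p.1 - x‖ ^ 2)) W :=
    h.integrable_continuous ((cκ.pow 2).mul (cg1.neg.mul (cn.pow 2)))
  have hu0 : 0 ≤ᵐ[W] fun p : Euc k × L k => 2 * F (κ p.1) * (-g1 (t p)) := by
    filter_upwards with p
    have := hg.anti _ (ht0 p)
    have := hF.nonneg (κ p.1)
    simp only [Pi.zero_apply]
    nlinarith
  have hv0 : 0 ≤ᵐ[W] fun p : Euc k × L k => tl π p.2 * ((-g1 (t p)) * ‖π p.1 - x‖ ^ 2) := by
    filter_upwards [h.tl_nonneg'] with p htl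
    have := neg_nonneg.2 (hg.anti _ (ht0 p))
    simp only [Pi.zero_apply]
    positivity
  have hw0 : 0 ≤ᵐ[W] fun p : Euc k × L k => ‖κ p.1‖ ^ 2 * ((-g1 (t p)) * ‖π p.1 - x‖ ^ 2) := by
    filter_upwards with p
    have := neg_nonneg.2 (hg.anti _ (ht0 p))
    simp only [Pi.zero_apply]
    positivity
  have hsq1 : Integrable (fun p : Euc k × L k => √(2 * F (κ p.1) * (-g1 (t p)) *
      (tl π p.2 * ((-g1 (t p)) * ‖π p.1 - x‖ ^ 2)))) W :=
    h.integrable_continuous (((continuous_const.mul cF).mul cg1.neg).mul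
      (ct.mul (cg1.neg.mul (cn.pow 2)))).sqrt
  have hsq2 : Integrable (fun p : Euc k × L k => √(2 * F (κ p.1) * (-g1 (t p)) *
      (‖κ p.1‖ ^ 2 * ((-g1 (t p)) * ‖π p.1 - x‖ ^ 2)))) W :=
    h.integrable_continuous (((continuous_const.mul cF).mul cg1.neg).mul
      ((cκ.pow 2).mul (cg1.neg.mul (cn.pow 2)))).sqrt
  have hB : ∫ p, δ * (√(tl π p.2) + ‖κ p.1‖) * (‖innerSL ℝ (dF (κ p.1))‖ * ‖ξ (π p.1)‖) ∂W ≤
      δ * √((∫ p, 2 * F (κ p.1) * (-g1 (t p)) ∂W) *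
          ∫ p, tl π p.2 * ((-g1 (t p)) * ‖π p.1 - x‖ ^ 2) ∂W) +
        δ * √((∫ p, 2 * F (κ p.1) * (-g1 (t p)) ∂W) *
          ∫ p, ‖κ p.1‖ ^ 2 * ((-g1 (t p)) * ‖π p.1 - x‖ ^ 2) ∂W) := by
    have h1 := mul_le_mul_of_nonneg_left (integral_sqrt_mul_le iu iv hu0 hv0) h0
    have h2 := mul_le_mul_of_nonneg_left (integral_sqrt_mul_le iu iw hu0 hw0) h0
    refine le_trans ?_ (add_le_add h1 h2)
    rw [← integral_const_mul, ← integral_const_mul,
      ← integral_add (hsq1.const_mul _) (hsq2.const_mul _)]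
    refine integral_mono_ae iB ((hsq1.const_mul _).add (hsq2.const_mul _)) ?_
    filter_upwards [h.tl_nonneg', h.hgt] with p htl hy
    have hg1 : 0 ≤ -g1 (t p) := neg_nonneg.2 (hg.anti _ (ht0 p))
    have hr : 0 ≤ ‖π p.1 - x‖ := norm_nonneg _
    have hFn := hF.nonneg (κ p.1)
    have hdF : ‖dF (κ p.1)‖ ≤ √(2 * F (κ p.1)) := by
      apply Real.le_sqrt_of_sq_le
      exact hF.grad _
    have hξn : ‖ξ (π p.1)‖ = (-g1 (t p)) * ‖π p.1 - x‖ := by
      simp only [hξ]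
      rw [norm_smul, Real.norm_eq_abs, abs_of_nonpos (hg.anti _ (ht0 p))]
    have e1 : √(2 * F (κ p.1) * (-g1 (t p)) * (‖κ p.1‖ ^ 2 * ((-g1 (t p)) * ‖π p.1 - x‖ ^ 2))) =
        ‖κ p.1‖ * (√(2 * F (κ p.1)) * ((-g1 (t p)) * ‖π p.1 - x‖)) := by
      have : 2 * F (κ p.1) * (-g1 (t p)) * (‖κ p.1‖ ^ 2 * ((-g1 (t p)) * ‖π p.1 - x‖ ^ 2)) =
          ‖κ p.1‖ ^ 2 * (2 * F (κ p.1) * ((-g1 (t p)) * ‖π p.1 - x‖) ^ 2) := by ring
      rw [this, Real.sqrt_mul (by positivity), Real.sqrt_sq (norm_nonneg _),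
        Real.sqrt_mul (by positivity), Real.sqrt_sq (by positivity)]
    have e2 : √(2 * F (κ p.1) * (-g1 (t p)) * (tl π p.2 * ((-g1 (t p)) * ‖π p.1 - x‖ ^ 2))) =
        √(tl π p.2) * (√(2 * F (κ p.1)) * ((-g1 (t p)) * ‖π p.1 - x‖)) := by
      have : 2 * F (κ p.1) * (-g1 (t p)) * (tl π p.2 * ((-g1 (t p)) * ‖π p.1 - x‖ ^ 2)) =
          tl π p.2 * (2 * F (κ p.1) * ((-g1 (t p)) * ‖π p.1 - x‖) ^ 2) := by ring
      rw [this, Real.sqrt_mul htl, Real.sqrt_mul (by positivity), Real.sqrt_sq (by positivity)]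
    rw [e1, e2, innerSL_apply_norm, hξn]
    have q1 := Real.sqrt_nonneg (tl π p.2)
    have q2 : ‖dF (κ p.1)‖ * ((-g1 (t p)) * ‖π p.1 - x‖) ≤
        √(2 * F (κ p.1)) * ((-g1 (t p)) * ‖π p.1 - x‖) :=
      mul_le_mul_of_nonneg_right hdF (by positivity)
    have q3 : 0 ≤ √(2 * F (κ p.1)) * ((-g1 (t p)) * ‖π p.1 - x‖) := by positivity
    have q5 := mul_le_mul_of_nonneg_left q2 (by positivity : 0 ≤ δ * (√(tl π p.2) + ‖κ p.1‖))
    refine q5.trans (le_of_eq ?_)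
    ring
  -- the integrals
  have e1 : ∫ p, 2 * F (κ p.1) * (-g1 (t p)) ∂W = Real.exp (m * l) * IF W π κ x F g1 l / 2 := by
    unfold IF
    rw [← mul_assoc, ← Real.exp_add]
    have : (m : ℝ) * l + -m * l = 0 := by ring
    rw [this, Real.exp_zero, one_mul, ← integral_div]
    refine integral_congr_ae (Eventually.of_forall fun p => ?_)
    simp only [ht]
    ring
  have e2 : ∫ p, tl π p.2 * ((-g1 (t p)) * ‖π p.1 - x‖ ^ 2) ∂W =
      Real.exp (m * l) * et W π x g1 l / 2 := by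
    rw [et_eq_kk]
    unfold kk k2
    rw [← mul_assoc, ← Real.exp_add]
    have : (m : ℝ) * l + (2 - m) * l = 2 * l := by ring
    rw [this, ← integral_const_mul, ← integral_div]
    refine integral_congr_ae (Eventually.of_forall fun p => ?_)
    simp only [ht]
    have h3 : Real.exp (2 * l) * Real.exp (-2 * l) = 1 := by
      rw [← Real.exp_add]
      have : 2 * l + -2 * l = 0 := by ring
      rw [this, Real.exp_zero]
    linear_combination (-(tl π p.2 * g1 (Real.exp (-2 * l) * ‖π p.1 - x‖ ^ 2) *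
      ‖π p.1 - x‖ ^ 2)) * h3.symm
  have e3 : ∫ p, ‖κ p.1‖ ^ 2 * ((-g1 (t p)) * ‖π p.1 - x‖ ^ 2) ∂W =
      Real.exp (m * l) * yk W π κ x (k2 g1) l / 2 := by
    unfold yk kk k2
    rw [← mul_assoc, ← Real.exp_add]
    have : (m : ℝ) * l + (2 - m) * l = 2 * l := by ring
    rw [this, ← integral_const_mul, ← integral_div]
    refine integral_congr_ae (Eventually.of_forall fun p => ?_)
    simp only [ht]
    have h3 : Real.exp (2 * l) * Real.exp (-2 * l) = 1 := by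
      rw [← Real.exp_add]
      have : 2 * l + -2 * l = 0 := by ring
      rw [this, Real.exp_zero]
    linear_combination (-(‖κ p.1‖ ^ 2 * g1 (Real.exp (-2 * l) * ‖π p.1 - x‖ ^ 2) *
      ‖π p.1 - x‖ ^ 2)) * h3.symm
  have hIF : 0 ≤ IF W π κ x F g1 l := by
    have : 0 ≤ ∫ p, 2 * F (κ p.1) * (-g1 (t p)) ∂W := integral_nonneg_of_ae hu0
    rw [e1] at this
    have h4 := Real.exp_pos (m * l)
    by_contra hcon
    push Not at hcon
    have : Real.exp (m * l) * IF W π κ x F g1 l < 0 := mul_neg_of_pos_of_neg h4 hcon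
    linarith
  have het : 0 ≤ et W π x g1 l := by
    have : 0 ≤ ∫ p, tl π p.2 * ((-g1 (t p)) * ‖π p.1 - x‖ ^ 2) ∂W := integral_nonneg_of_ae hv0
    rw [e2] at this
    have h4 := Real.exp_pos (m * l)
    by_contra hcon
    push Not at hcon
    have : Real.exp (m * l) * et W π x g1 l < 0 := mul_neg_of_pos_of_neg h4 hcon
    linarith
  have hyk : 0 ≤ yk W π κ x (k2 g1) l := by
    have : 0 ≤ ∫ p, ‖κ p.1‖ ^ 2 * ((-g1 (t p)) * ‖π p.1 - x‖ ^ 2) ∂W :=
      integral_nonneg_of_ae hw0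
    rw [e3] at this
    have h4 := Real.exp_pos (m * l)
    by_contra hcon
    push Not at hcon
    have : Real.exp (m * l) * yk W π κ x (k2 g1) l < 0 := mul_neg_of_pos_of_neg h4 hcon
    linarith
  have s1 : √((∫ p, 2 * F (κ p.1) * (-g1 (t p)) ∂W) *
          ∫ p, tl π p.2 * ((-g1 (t p)) * ‖π p.1 - x‖ ^ 2) ∂W) =
      Real.exp (m * l) / 2 * √(IF W π κ x F g1 l * et W π x g1 l) := by
    rw [e1, e2]
    have : Real.exp (m * l) * IF W π κ x F g1 l / 2 * (Real.exp (m * l) * et W π x g1 l / 2) =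
        (Real.exp (m * l) / 2) ^ 2 * (IF W π κ x F g1 l * et W π x g1 l) := by ring
    rw [this, Real.sqrt_mul (by positivity), Real.sqrt_sq (by positivity)]
  have s2 : √((∫ p, 2 * F (κ p.1) * (-g1 (t p)) ∂W) *
          ∫ p, ‖κ p.1‖ ^ 2 * ((-g1 (t p)) * ‖π p.1 - x‖ ^ 2) ∂W) =
      Real.exp (m * l) / 2 * √(IF W π κ x F g1 l * yk W π κ x (k2 g1) l) := by
    rw [e1, e3]
    have : Real.exp (m * l) * IF W π κ x F g1 l / 2 *
        (Real.exp (m * l) * yk W π κ x (k2 g1) l / 2) =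
        (Real.exp (m * l) / 2) ^ 2 * (IF W π κ x F g1 l * yk W π κ x (k2 g1) l) := by ring
    rw [this, Real.sqrt_mul (by positivity), Real.sqrt_sq (by positivity)]
  have hfin : |FV W (X3 π κ x F g1 l)| ≤
      δ * F₀ * (4 * K) * (TB W π x (Real.exp l) + h₀ ^ 2 * MB W π x (Real.exp l)) +
      (δ * (Real.exp (m * l) / 2 * √(IF W π κ x F g1 l * et W π x g1 l)) +
        δ * (Real.exp (m * l) / 2 * √(IF W π κ x F g1 l * yk W π κ x (k2 g1) l))) := by
    refine hsplit.trans (add_le_add hA (hB.trans ?_))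
    rw [s1, s2]
  rw [abs_mul, abs_of_pos (by positivity : (0:ℝ) < 4 * Real.exp (-m * l))]
  have h4 := mul_le_mul_of_nonneg_left hfin (by positivity : (0:ℝ) ≤ 4 * Real.exp (-m * l))
  refine h4.trans (le_of_eq ?_)
  rw [TB_eq, MB_eq]
  have h5 : Real.exp (-m * l) * Real.exp (m * l) = 1 := by
    rw [← Real.exp_add]
    have : -(m : ℝ) * l + m * l = 0 := by ring
    rw [this, Real.exp_zero]
  have h6 : Real.exp (-m * l) * Real.exp ((m - 2) * l) = Real.exp (-2 * l) := by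
    rw [← Real.exp_add]
    congr 1
    ring
  linear_combination (16 * K * δ * F₀ * tb W π x l) * h6 +
    (16 * K * δ * F₀ * h₀ ^ 2 * mb W π x l +
      2 * δ * √(IF W π κ x F g1 l * et W π x g1 l) +
      2 * δ * √(IF W π κ x F g1 l * yk W π κ x (k2 g1) l)) * h5


end Crest.Agent.R234.Shp2_98

namespace Crest.Agent.R234.Shp_98

open Crest.Agent.R234.Avg_387 Crest.Agent.R234.Raw_387 Crest.Agent.R234.Pot_425
open Crest.Agent.R234.Wi_870 (abs_av_le av_const)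

variable {m n k : ℕ} {π : Euc k →L[ℝ] Euc m} {κ : Euc k →L[ℝ] Euc n} {δ : ℝ}
  {x₀ x : Euc m} {R h₀ τ : ℝ} {W : Measure (Euc k × L k)} {g g1 g2 : ℝ → ℝ} {d : Euc m → ℝ}
  {F : Euc n → ℝ} {dF : Euc n → Euc n} {H : Euc n → L n}

theorem ff_of_cylAS (h : CylAS W π κ x₀ R h₀ δ) : FF W π κ := ⟨h.sp, h.conc, h.fin⟩

theorem hgt_all {L : ℝ} (hh : ∀ᵐ p ∂W, ‖κ p.1‖ ≤ h₀) (x : Euc m) : Hgt W π κ x L h₀ := by
  filter_upwards [hh] with p hp _
  exact hp

/-- averaged kernel height -/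
def Ya (d : Euc m → ℝ) (W : Measure (Euc k × L k)) (π : Euc k →L[ℝ] Euc m)
    (κ : Euc k →L[ℝ] Euc n) (g1 : ℝ → ℝ) (x : Euc m) (l : ℝ) : ℝ :=
  av d (fun y l => kt W π (yc κ) g1 y l) x l

theorem Ya_nonneg (hh : ∀ᵐ p ∂W, ‖κ p.1‖ ≤ h₀) (hd : CW d τ) (hg : Prof g g1 g2) (x : Euc m)
    (l : ℝ) : 0 ≤ Ya d W π κ g1 x l := av_nonneg hd fun _ _ => kt_nonneg (cf_yc hh) hg _ _

theorem RR_nonneg (h : FF W π κ) (hg : Prof g g1 g2) (y : Euc m) (l : ℝ) :
    0 ≤ RR W π y g1 l := Wi_870.RR_nonneg' hg (h.fr y l) y l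

theorem et_nonneg (h : FF W π κ) (hg : Prof g g1 g2) (y : Euc m) (l : ℝ) :
    0 ≤ Raw_387.et W π g1 y l := (RR_nonneg h hg y l).trans (RR_le_et h hg y l)

theorem eta_nonneg (h : FF W π κ) (hd : CW d τ) (hg : Prof g g1 g2) (x : Euc m) (l : ℝ) :
    0 ≤ eta d W π g1 x l := av_nonneg hd fun _ _ => et_nonneg h hg _ _

/-- average of a geometric mean -/
theorem av_sqrt_le (hd : CW d τ) {L₀ : ℝ} {u v : Euc m → ℝ → ℝ} (hu : CO x τ L₀ u)
    (hv : CO x τ L₀ v) {l : ℝ} (hl : l < L₀) (hu0 : ∀ y ∈ closedBall x τ, 0 ≤ u y l)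
    (hv0 : ∀ y ∈ closedBall x τ, 0 ≤ v y l) :
    av d (fun y l => √(u y l * v y l)) x l ≤ √(av d u x l * av d v x l) := by
  have hc : CO x τ L₀ (fun y l => √(u y l * v y l)) :=
    Real.continuous_sqrt.comp_continuousOn (hu.mul hv)
  apply Real.le_sqrt_of_sq_le
  exact av_cs hd hc hu hv hl hu0 hv0 fun y hy => by
    rw [Real.sq_sqrt (mul_nonneg (hu0 y hy) (hv0 y hy))]

/-- the average of the error of (W3) -/
theorem abs_av_f3_le (h : CylAS W π κ x₀ R h₀ δ) (h0 : 0 ≤ δ) (hh : 0 ≤ h₀) (hτ : 0 ≤ τ)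
    (hd : CW d τ) (hg : Prof g g1 g2) {K : ℝ} (hK : Bd g1 g2 K) (hF : Well F dF H) {F₀ : ℝ}
    (hF₀ : ∀ y, ‖y‖ ≤ h₀ → F y ≤ F₀) {l : ℝ} (hl : ‖x - x₀‖ + τ + Real.exp l ≤ R)
    (hl0 : l ≤ 0) {tM mM : ℝ} (htb : ∀ y ∈ closedBall x τ, tb W π y l ≤ tM)
    (hmb : ∀ y ∈ closedBall x τ, mb W π y l ≤ mM) :
    |av d (Avg_387.f3 W π κ F g1) x l| ≤
      2 * δ * √(IFa d W π κ F g1 x l * eta d W π g1 x l) +
      2 * δ * √(IFa d W π κ F g1 x l * Ya d W π κ g1 x l) +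
      16 * K * δ * F₀ * (Real.exp (-2 * l) * tM + h₀ ^ 2 * mM) * ∫ v, d v := by
  have hf := ff_of_cylAS h
  have hl1 : l < l + 1 := by linarith
  have hK0 := hK.nonneg
  have hF0 : 0 ≤ F₀ := (hF.nonneg 0).trans (hF₀ 0 (by simpa using hh))
  have hcy := cf_yc (W := W) (κ := κ) h.hgt
  have hA := hf.afr hτ x (l + 1)
  have hHg : Hgt W π κ x (Real.log (Real.exp (l + 1) + τ)) h₀ := hgt_all h.hgt x
  have c3 : CO x τ (l + 1) (fun y l => Avg_387.f3 W π κ F g1 y l) := hA.co_f3 hHg hF hg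
  have cI : CO x τ (l + 1) (fun y l => IF W π κ y F g1 l) := hA.co_IF hHg hF hg.k1
  have ce : CO x τ (l + 1) (fun y l => Raw_387.et W π g1 y l) :=
    CO_of_cont (cont2_et hf hg) x τ (l + 1)
  have cy : CO x τ (l + 1) (fun y l => kt W π (yc κ) g1 y l) :=
    CO_of_cont (cont2_kt hf hcy hg) x τ (l + 1)
  have cIe : CO x τ (l + 1) (fun y l => √(IF W π κ y F g1 l * Raw_387.et W π g1 y l)) :=
    Real.continuous_sqrt.comp_continuousOn (cI.mul ce)
  have cIy : CO x τ (l + 1) (fun y l => √(IF W π κ y F g1 l * kt W π (yc κ) g1 y l)) :=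
    Real.continuous_sqrt.comp_continuousOn (cI.mul cy)
  set D₀ : ℝ := 16 * K * δ * F₀ * (Real.exp (-2 * l) * tM + h₀ ^ 2 * mM) with hD₀
  have cD : CO x τ (l + 1) (fun (_ : Euc m) (_ : ℝ) => D₀) := CO_const _ continuous_const
  have h1 := abs_av_le hd c3 (((cIe.const_mul (2 * δ)).add (cIy.const_mul (2 * δ))).add cD) hl1
    fun y hy => by
      have hyx : ‖y - x‖ ≤ τ := by rwa [mem_closedBall_iff_norm] at hy
      have hy2 : ‖y - x₀‖ + Real.exp l ≤ R := by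
        have := norm_sub_le_norm_sub_add_norm_sub y x x₀
        linarith
      have h2 := Shp2_98.abs_X3_le2 h h0 hh hg hK hF hF₀ hy2 hl0
      refine h2.trans (add_le_add le_rfl ?_)
      refine mul_le_mul_of_nonneg_left ?_ (by positivity)
      have h3 := mul_le_mul_of_nonneg_left (htb y hy) (Real.exp_pos (-2 * l)).le
      have h4 := mul_le_mul_of_nonneg_left (hmb y hy) (sq_nonneg h₀)
      linarith
  refine h1.trans ?_
  rw [av_add hd ((cIe.const_mul (2 * δ)).add (cIy.const_mul (2 * δ))) cD hl1,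
    av_add hd (cIe.const_mul (2 * δ)) (cIy.const_mul (2 * δ)) hl1, av_const_mul, av_const_mul,
    av_const]
  have h5 := av_sqrt_le hd cI ce hl1 (fun y _ => IF_nonneg hF hg W l)
    (fun y _ => et_nonneg hf hg y l)
  have h6 := av_sqrt_le hd cI cy hl1 (fun y _ => IF_nonneg hF hg W l)
    (fun y _ => kt_nonneg hcy hg y l)
  have h7 := mul_le_mul_of_nonneg_left h5 (by positivity : 0 ≤ 2 * δ)
  have h8 := mul_le_mul_of_nonneg_left h6 (by positivity : 0 ≤ 2 * δ)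
  exact add_le_add (add_le_add h7 h8) le_rfl

theorem tS_univ (W : Measure (Euc k × L k)) (π : Euc k →L[ℝ] Euc m) (κ : Euc k →L[ℝ] Euc n)
    (y : Euc m) (l : ℝ) : Wi_870.tS W π κ y l univ = TB W π y (Real.exp l) := by
  unfold Wi_870.tS TB ovr
  have : {p : Euc k × L k | ‖π p.1 - y‖ ^ 2 < Real.exp (2 * l) ∧ κ p.1 ∈ (univ : Set (Euc n))} =
      {p | ‖π p.1 - y‖ < Real.exp l} := by
    ext p
    have h1 : Real.exp (2 * l) = Real.exp l ^ 2 := by
      rw [← Real.exp_nat_mul]; norm_num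
    simp only [mem_univ, and_true, mem_ofPred_eq, h1]
    exact pow_lt_pow_iff_left₀ (norm_nonneg _) (Real.exp_pos _).le two_ne_zero
  rw [this]

/-- the average of the tilt error of (W3) -/
theorem abs_err3a_le (h : CylAS W π κ x₀ R h₀ δ) (hτ : 0 ≤ τ)
    (hd : CW d τ) (hg : Prof g g1 g2) {K : ℝ} (hK : Bd g1 g2 K) (hF : Well F dF H) {A : ℝ}
    (hA : ∀ y, |F y| ≤ A) {l tM : ℝ} (htb : ∀ y ∈ closedBall x τ, tb W π y l ≤ tM) :
    |err3a d W π κ F g1 g2 x l| ≤ 12 * K * A * (Real.exp (-2 * l) * tM) * ∫ v, d v := by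
  have hf := ff_of_cylAS h
  have hl1 : l < l + 1 := by linarith
  have hK0 := hK.nonneg
  have hA0 : 0 ≤ A := (abs_nonneg _).trans (hA 0)
  have hAf := hf.afr hτ x (l + 1)
  have hHg : Hgt W π κ x (Real.log (Real.exp (l + 1) + τ)) h₀ := hgt_all h.hgt x
  have c3 : CO x τ (l + 1) (fun y l => err3 W π κ y F g1 g2 l) :=
    hAf.co_err3 hHg hF hg.k1 hg.k1.cont
  have cD : CO x τ (l + 1) (fun (_ : Euc m) (_ : ℝ) =>
      12 * K * A * (Real.exp (-2 * l) * tM)) := CO_const _ continuous_const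
  have h1 := abs_av_le hd c3 cD hl1 fun y hy => by
    have h2 := Wi_870.abs_err3_le_S (κ := κ) (h.fr y l) hg hK.b0 hK.b2 hA
      (S := univ) MeasurableSet.univ (fun y hy => absurd (mem_univ y) hy) le_rfl
    rw [tS_univ, TB_eq] at h2
    refine h2.trans ?_
    have h3 : Real.exp (-m * l) * Real.exp ((m - 2) * l) = Real.exp (-2 * l) := by
      rw [← Real.exp_add]; congr 1; ring
    have h4 : 12 * K * A * Real.exp (-m * l) * (Real.exp ((m - 2) * l) * tb W π y l) =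
        12 * K * A * (Real.exp (-2 * l) * tb W π y l) := by
      rw [← h3]; ring
    rw [h4]
    refine mul_le_mul_of_nonneg_left ?_ (by positivity)
    exact mul_le_mul_of_nonneg_left (htb y hy) (Real.exp_pos _).le
  rw [av_const] at h1
  exact h1

/-! ### the family of wells -/

/-- separated centres and a positive gap -/
def WP (n : ℕ) : Type := {p : Finset (Euc n) × ℝ // Well_761.Sep p.1 p.2 ∧ 0 < p.2}

/-- the gap -/
def qW (w : WP n) : ℝ := w.1.2

/-- the well function -/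
def FW (w : WP n) : Euc n → ℝ := Well_761.wells w.1.1 w.1.2

/-- its gradient -/
def dFW (w : WP n) : Euc n → Euc n := Well_761.wellsG w.1.1 w.1.2

/-- its Hessian -/
def HW (w : WP n) : Euc n → L n := Well_761.wellsH w.1.1 w.1.2

theorem well_FW (w : WP n) : Well (FW w) (dFW w) (HW w) where
  hasF y := Well_761.wells_hasFDerivAt _ w.2.2 y
  hasdF y := Well_761.wellsG_hasFDerivAt _ _ y
  contH := by
    have h1 : HW w = fderiv ℝ (dFW w) := by
      funext y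
      exact (Well_761.wellsG_hasFDerivAt w.1.1 w.1.2 y).fderiv.symm
    rw [h1]
    exact (Well_761.wellsG_contDiff w.1.1 w.1.2).continuous_fderiv (by simp)
  nonneg y := Well_761.wells_nonneg w.2.2 w.2.1 y
  grad y := Well_761.wellsG_sq_le w.2.2 w.2.1 y

theorem abs_FW_le (w : WP n) (y : Euc n) : |FW w y| ≤ qW w ^ 2 / 32 := by
  rw [abs_of_nonneg ((well_FW w).nonneg y)]
  exact (Well_761.wells_le_top y).trans (Well_761.wellTop_le _)

/-- `IF` of the family -/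
def IFw (d : Euc m → ℝ) (W : Measure (Euc k × L k)) (π : Euc k →L[ℝ] Euc m)
    (κ : Euc k →L[ℝ] Euc n) (g1 : ℝ → ℝ) (x : Euc m) (w : WP n) (l : ℝ) : ℝ :=
  IFa d W π κ (FW w) g1 x l

/-- main part of `IF' / 2` -/
def Fm (d : Euc m → ℝ) (W : Measure (Euc k × L k)) (π : Euc k →L[ℝ] Euc m)
    (κ : Euc k →L[ℝ] Euc n) (g : ℝ → ℝ) (x : Euc m) (w : WP n) (l : ℝ) : ℝ :=
  eFa d W π κ (HW w) g x l - av d (f2 W π κ (dFW w) g) x l

/-- error part of `IF' / 2` -/
def Gm (d : Euc m → ℝ) (W : Measure (Euc k × L k)) (π : Euc k →L[ℝ] Euc m)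
    (κ : Euc k →L[ℝ] Euc n) (g1 g2 : ℝ → ℝ) (x : Euc m) (w : WP n) (l : ℝ) : ℝ :=
  (err3a d W π κ (FW w) g1 g2 x l + av d (Avg_387.f3 W π κ (FW w) g1) x l) / 2

theorem IFw_nonneg (hd : CW d τ) (hg : Prof g g1 g2) (x : Euc m) (w : WP n) (l : ℝ) :
    0 ≤ IFw d W π κ g1 x w l := IFa_nonneg hd (well_FW w) hg W x l

theorem hasDerivAt_IFw (h : FF W π κ) (hh : ∀ᵐ p ∂W, ‖κ p.1‖ ≤ h₀) (hτ : 0 ≤ τ) (hd : CW d τ)
    (hg : Prof g g1 g2) (x : Euc m) (w : WP n) (l : ℝ) :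
    HasDerivAt (IFw d W π κ g1 x w)
      (2 * (Fm d W π κ g x w l + Gm d W π κ g1 g2 x w l)) l := by
  have h1 := (h.afr hτ x (l + 1)).W3a (hgt_all hh x) hd (well_FW w) hg (by linarith : l < l + 1)
  refine h1.congr_deriv ?_
  unfold Fm Gm
  ring

theorem Fm_sq_le (h : FF W π κ) (hh : ∀ᵐ p ∂W, ‖κ p.1‖ ≤ h₀) (hτ : 0 ≤ τ) (hd : CW d τ)
    (hg : Prof g g1 g2) (x : Euc m) (w : WP n) (l : ℝ) :
    Fm d W π κ g x w l ^ 2 ≤ IFw d W π κ g1 x w l * RRa d W π g1 x l :=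
  (h.afr hτ x (l + 1)).W2a (hgt_all hh x) hd (well_FW w) hg (by linarith : l < l + 1)

theorem cont_FG (h : FF W π κ) (hh : ∀ᵐ p ∂W, ‖κ p.1‖ ≤ h₀) (hτ : 0 ≤ τ) (hd : CW d τ)
    (hg : Prof g g1 g2) (x : Euc m) (w : WP n) :
    Continuous fun l => Fm d W π κ g x w l + Gm d W π κ g1 g2 x w l := by
  have c1 : Continuous (eFa d W π κ (HW w) g x) :=
    continuous_of_CO hd fun L₀ => (h.afr hτ x L₀).co_eF (hgt_all hh x) (well_FW w) hg.k0
  have c2 : Continuous (av d (f2 W π κ (dFW w) g) x) :=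
    continuous_of_CO hd fun L₀ => (h.afr hτ x L₀).co_f2 (hgt_all hh x) (well_FW w) hg
  have c3 : Continuous (err3a d W π κ (FW w) g1 g2 x) :=
    continuous_of_CO hd fun L₀ => (h.afr hτ x L₀).co_err3 (hgt_all hh x) (well_FW w) hg.k1
      hg.k1.cont
  have c4 : Continuous (av d (Avg_387.f3 W π κ (FW w) g1) x) :=
    continuous_of_CO hd fun L₀ => (h.afr hτ x L₀).co_f3 (hgt_all hh x) (well_FW w) hg
  unfold Fm Gm
  fun_prop

/-- the non absorbed error at gap `q` -/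
def tw (K δ h₀ M₀ q tM mM l : ℝ) : ℝ :=
  K * q ^ 2 * M₀ / 4 * (δ * (Real.exp (-2 * l) * tM + h₀ ^ 2 * mM) + Real.exp (-2 * l) * tM)

/-- **the error part** -/
theorem abs_Gm_le (h : CylAS W π κ x₀ R h₀ δ) (h0 : 0 ≤ δ) (hh : 0 ≤ h₀) (hτ : 0 ≤ τ)
    (hd : CW d τ) (hg : Prof g g1 g2) {K : ℝ} (hK : Bd g1 g2 K) {l : ℝ}
    (hl : ‖x - x₀‖ + τ + Real.exp l ≤ R) (hl0 : l ≤ 0) {tM mM : ℝ} (htM : 0 ≤ tM)
    (htb : ∀ y ∈ closedBall x τ, tb W π y l ≤ tM)
    (hmb : ∀ y ∈ closedBall x τ, mb W π y l ≤ mM) (w : WP n) :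
    |Gm d W π κ g1 g2 x w l| ≤
      δ * √(IFw d W π κ g1 x w l * eta d W π g1 x l) +
      δ * √(IFw d W π κ g1 x w l * Ya d W π κ g1 x l) +
      tw K δ h₀ (∫ v, d v) (qW w) tM mM l := by
  have h1 := abs_av_f3_le h h0 hh hτ hd hg hK (well_FW w) (F₀ := qW w ^ 2 / 32)
    (fun y _ => (le_abs_self _).trans (abs_FW_le w y)) hl hl0 htb hmb
  have h2 := abs_err3a_le h hτ hd hg hK (well_FW w) (abs_FW_le w) htb
  have hI0 : 0 ≤ ∫ v, d v := integral_nonneg hd.nonneg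
  have hK0 := hK.nonneg
  have h3 : |Gm d W π κ g1 g2 x w l| ≤
      (|err3a d W π κ (FW w) g1 g2 x l| + |av d (Avg_387.f3 W π κ (FW w) g1) x l|) / 2 := by
    unfold Gm
    rw [abs_div, abs_two]
    exact div_le_div_of_nonneg_right (abs_add_le _ _) two_pos.le
  have h4 : 0 ≤ K * qW w ^ 2 * (∫ v, d v) * (Real.exp (-2 * l) * tM) := by positivity
  refine h3.trans ?_
  unfold tw IFw
  nlinarith

end Crest.Agent.R234.Shp_98
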