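import Crest.Agent.R234.Bds4_214
import Crest.Agent.R234.Shp5_98
import Crest.Agent.R234.Core4_809
import Crest.Agent.R234.Crs9_173
import Crest.Agent.R234.Ins1_387

/-!
# Row 234, BDS part 5 (helper214): the bound fields of `CBase` for the contact situations of
`Core4_809`
-/

set_option autoImplicit false

open MeasureTheory Set Function Filter Topology Metric
open Crest.GeometryTopology.Submanifold
open Crest.Agent.R234.Vf_884 Crest.Agent.R234.Ar_870 Crest.Agent.R234.Cy_870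
open Crest.Agent.R234.Pot_425 Crest.Agent.R234.Avg_387 Crest.Agent.R234.Rep_387
open Crest.Agent.R234.Raw_387 Crest.Agent.R234.Fld_387
open Crest.Agent.R234.N5_372 (eM ov)
open Crest.Agent.R234.Asl_214 (TB ovr)
open Crest.Agent.R234.Core_809
open scoped ENNReal NNReal InnerProductSpace

noncomputable section

namespace Crest.Agent.R234.Bds_214

/-! ### the numbers of the window in terms of `l = log Λ` -/

theorem D_eq {D : ℝ} (hD : 0 < D) : D = Real.exp (-Lam D) := by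
  unfold Lam
  rw [one_div, Real.log_inv, neg_neg, Real.exp_log hD]

theorem sqrt_D_eq {D : ℝ} (hD : 0 < D) : √D = Real.exp (-Lam D / 2) := by
  rw [show -Lam D / 2 = (-Lam D) * (1 / 2) by ring, Real.exp_mul, ← D_eq hD, Real.sqrt_eq_rpow]

theorem Lam_pos {D : ℝ} (hD : 0 < D) (hD1 : D < 1) : 0 < Lam D := by
  unfold Lam
  exact Real.log_pos ((one_lt_div hD).2 hD1)

theorem Lam_eq {D : ℝ} (hD : 0 < D) (hD1 : D < 1) : Real.exp (Real.log (Lam D)) = Lam D :=
  Real.exp_log (Lam_pos hD hD1)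

theorem Lam_rpow {D : ℝ} (hD : 0 < D) (hD1 : D < 1) (b : ℝ) :
    Lam D ^ b = Real.exp (b * Real.log (Lam D)) := by
  rw [Real.rpow_def_of_pos (Lam_pos hD hD1), mul_comm]

/-- the exponent of the window -/
def bw (m : ℕ) (a : ℝ) : ℝ := 100 * (m + 1) * (a + 1)

theorem bw_ge {m : ℕ} {a : ℝ} (ha : 1 ≤ a) : 200 ≤ bw m a := by
  unfold bw
  have : (0 : ℝ) ≤ m := Nat.cast_nonneg m
  nlinarith

section
variable {m : ℕ} {a D : ℝ}

theorem s0_eq (hD : 0 < D) (hD1 : D < 1) :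
    s0Of m a D = Real.exp (-Lam D / 2 + bw m a * Real.log (Lam D)) := by
  unfold s0Of
  rw [sqrt_D_eq hD, Lam_rpow hD hD1, ← Real.exp_add]
  rfl

theorem log_s0 (hD : 0 < D) (hD1 : D < 1) :
    Real.log (s0Of m a D) = -Lam D / 2 + bw m a * Real.log (Lam D) := by
  rw [s0_eq hD hD1, Real.log_exp]

theorem st_eq (hD : 0 < D) (hD1 : D < 1) :
    stOf m a D = Real.exp (-(bw m a * Real.log (Lam D))) := by
  unfold stOf
  rw [Lam_rpow hD hD1]
  congr 1
  unfold bw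
  ring

theorem T_eq (hD : 0 < D) (hD1 : D < 1) :
    TOf m a D = Lam D / 2 - 2 * (bw m a * Real.log (Lam D)) := by
  unfold TOf
  rw [st_eq hD hD1, s0_eq hD hD1, ← Real.exp_sub, Real.log_exp]
  ring

theorem tau_eq (hD : 0 < D) (hD1 : D < 1) :
    tauOf a D = Real.exp (-Lam D / 2 - a * Real.log (Lam D)) / 4 := by
  unfold tauOf hOf
  rw [sqrt_D_eq hD, Lam_rpow hD hD1, ← Real.exp_add]
  congr 2
  ring

theorem s0_add_T (hD : 0 < D) (hD1 : D < 1) :
    Real.log (s0Of m a D) + TOf m a D = -(bw m a * Real.log (Lam D)) := by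
  rw [log_s0 hD hD1, T_eq hD hD1]
  ring

theorem tau_pos (hD : 0 < D) (hD1 : D < 1) : 0 < tauOf a D := by
  rw [tau_eq hD hD1]
  have := Real.exp_pos (-Lam D / 2 - a * Real.log (Lam D))
  positivity

theorem exp_log_s0 (hD : 0 < D) (hD1 : D < 1) :
    Real.exp (Real.log (s0Of m a D)) = s0Of m a D := by
  rw [s0_eq hD hD1, Real.log_exp]

theorem s0_pos (hD : 0 < D) (hD1 : D < 1) : 0 < s0Of m a D := by
  rw [s0_eq hD hD1]
  exact Real.exp_pos _

theorem exp_two_ge : (4 : ℝ) ≤ Real.exp 2 := by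
  have h1 := Real.exp_one_gt_d9
  have h2 : Real.exp 2 = Real.exp 1 * Real.exp 1 := by
    rw [← Real.exp_add]
    norm_num
  rw [h2]
  nlinarith

theorem exp_neg_four : Real.exp (-4) ≤ 1 / 16 := by
  have h2 : Real.exp (-4) = (Real.exp 2 * Real.exp 2)⁻¹ := by
    rw [← Real.exp_add, ← Real.exp_neg]
    norm_num
  have h3 := exp_two_ge
  have h4 : (16 : ℝ) ≤ Real.exp 2 * Real.exp 2 := by nlinarith
  have h5 : (Real.exp 2 * Real.exp 2)⁻¹ ≤ (16 : ℝ)⁻¹ := inv_anti₀ (by norm_num) h4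
  rw [h2]
  norm_num at h5 ⊢
  linarith

/-- the averaging radius is small against the window -/
theorem tau_le (ha : 1 ≤ a) (hD : 0 < D) (hD1 : D < 1) (hl : 1 ≤ Real.log (Lam D)) :
    tauOf a D ≤ s0Of m a D / 2 / 8 := by
  have hb := bw_ge (m := m) ha
  rw [tau_eq hD hD1, s0_eq hD hD1]
  have h1 : Real.exp (-Lam D / 2 - a * Real.log (Lam D)) * Real.exp 2 ≤
      Real.exp (-Lam D / 2 + bw m a * Real.log (Lam D)) := by
    rw [← Real.exp_add]
    apply Real.exp_le_exp.2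
    nlinarith
  have h2 := exp_two_ge
  have h3 := Real.exp_pos (-Lam D / 2 - a * Real.log (Lam D))
  nlinarith

theorem tau_lt (ha : 1 ≤ a) (hD : 0 < D) (hD1 : D < 1) (hl : 1 ≤ Real.log (Lam D)) {l : ℝ}
    (h : Real.log (s0Of m a D) - 4 ≤ l) : tauOf a D < Real.exp l := by
  have hb := bw_ge (m := m) ha
  rw [log_s0 hD hD1] at h
  rw [tau_eq hD hD1]
  have h1 : Real.exp (-Lam D / 2 - a * Real.log (Lam D)) ≤ Real.exp l := by
    apply Real.exp_le_exp.2
    nlinarith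
  have h3 := Real.exp_pos (-Lam D / 2 - a * Real.log (Lam D))
  linarith

theorem sqrt_le (ha : 1 ≤ a) (hD : 0 < D) (hD1 : D < 1) (hl : 1 ≤ Real.log (Lam D)) {l : ℝ}
    (h : Real.log (s0Of m a D) - 4 ≤ l) : √D ≤ 2 * Real.exp l := by
  have hb := bw_ge (m := m) ha
  rw [log_s0 hD hD1] at h
  rw [sqrt_D_eq hD]
  have h1 : Real.exp (-Lam D / 2) ≤ Real.exp l := by
    apply Real.exp_le_exp.2
    nlinarith
  have h3 := Real.exp_pos l
  linarith

theorem exp_le_top (ha : 1 ≤ a) (hD : 0 < D) (hD1 : D < 1) (hl : 1 ≤ Real.log (Lam D)) {l : ℝ}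
    (h : l ≤ Real.log (s0Of m a D) + TOf m a D + 5) : 2 * Real.exp l ≤ 1 / 4 := by
  have hb := bw_ge (m := m) ha
  rw [s0_add_T hD hD1] at h
  have h1 : Real.exp l ≤ Real.exp (-4) := by
    apply Real.exp_le_exp.2
    nlinarith
  have h5 := exp_neg_four
  linarith

end

/-- the length of the window, for large `l = log Λ` -/
theorem ev_T (b : ℝ) (hb : 0 ≤ b) : ∀ᶠ l : ℝ in atTop,
    Real.exp (l / 2) ≤ Real.exp l / 2 - 2 * (b * l) := by
  filter_upwards [ev_grow (2 * b) 2 0, eventually_ge_atTop 0] with l h1 hl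
  have h2 : Real.exp l = Real.exp (l / 2) * Real.exp (l / 2) := by
    rw [← Real.exp_add]
    congr 1
    ring
  have h3 : 1 ≤ Real.exp (l / 4) := Real.one_le_exp (by linarith)
  have h4 : 1 ≤ Real.exp (l / 2) := Real.one_le_exp (by linarith)
  have hbl : 0 ≤ b * l := mul_nonneg hb hl
  have h5 : 2 * (2 * b * l + 2) * 1 ≤ 2 * (2 * b * l + 2) * Real.exp (l / 4) :=
    mul_le_mul_of_nonneg_left h3 (by nlinarith)
  have h6 : 2 * (2 * b * l + 2) ≤ Real.exp (l / 2) := by linarith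
  have h7 : Real.exp (l / 2) * (2 * (2 * b * l + 2)) ≤ Real.exp (l / 2) * Real.exp (l / 2) :=
    mul_le_mul_of_nonneg_left h6 (Real.exp_pos _).le
  have h8 : 1 * (2 * b * l) ≤ Real.exp (l / 2) * (2 * b * l) :=
    mul_le_mul_of_nonneg_right h4 (by linarith)
  rw [h2]
  nlinarith

/-! ### the data -/

/-- helper387's data for a contact situation -/
def da (Q : ℕ) (K cS : ℝ) {m n : ℕ} {a : ℝ} (X : Sit m n a) : Da m n X.k where
  W := X.V
  π := X.π
  κ := X.κ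
  w := w0
  τ := tauOf a X.D
  Q := Q
  K := K
  δ := X.ds
  δ' := 7 * X.δ
  β := X.β Q cS
  γ := X.γ Q cS
  b₂ := b2 X.S (Cy_870.cyl X.π X.κ 0 4 1) Q (tauOf a X.D)

/-- the fields of `CBase` except `fld` -/
structure BdF {F W : Type*} [NormedAddCommGroup F] [MeasurableSpace F] (d : ℕ) (CU : ℝ)
    (X : CData F W) : Prop where
  finε : IsFiniteMeasure X.ε
  finμ : IsFiniteMeasure X.μ
  Zm : MeasurableSet X.Z
  Zε : X.ε X.Zᶜ = 0
  D0 : 0 < X.D
  r0 : 0 < X.r0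
  εlow : Real.exp (-(CU * X.l)) * X.D ≤ X.ε.real univ
  Ulow : ∀ x ∈ X.Z, ∀ t ∈ Icc 0 X.T, Real.exp (-(CU * X.l)) * X.D ≤ X.U x t
  Uup : ∀ x ∈ X.Z, ∀ t ∈ Icc 0 X.T, X.U x t ≤ Real.exp (CU * X.l) * X.D
  elow : ∀ x ∈ X.Z, ∀ t ∈ Icc 0 X.T, Real.exp (-(CU * X.l)) * X.D ≤ X.e x t
  eup : ∀ x ∈ X.Z, ∀ t ∈ Icc 0 X.T, X.e x t ≤ Real.exp (CU * X.l) * X.D
  εup : ∀ x ∈ X.Z, ∀ s, X.r0 / 4 ≤ s → s ≤ X.r0 / 2 * Real.exp X.T →
    X.ε.real (closedBall x s) ≤ Real.exp (CU * X.l) * X.D * s ^ d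
  μlow : ∀ x ∈ X.Z, ∀ s, X.r0 / 4 ≤ s → s ≤ X.r0 / 2 * Real.exp X.T →
    Real.exp (-(CU * X.l)) * X.D * s ^ d ≤ X.μ.real (closedBall x s)
  μup : X.μ.real univ ≤ Real.exp (CU * X.l) * X.D
  hT0 : 0 ≤ X.T
  hT : Real.exp (X.l / 2) ≤ X.T
  hl : 1 ≤ X.l
  hlT : X.l ≤ X.T
  hκ : X.κ ≤ Real.exp (-X.l)
  hq1 : ∀ x ∈ X.Z, Real.exp (X.l / 2) * (X.U x X.T * X.T) ≤ X.q1

variable {m n Q : ℕ} {K cS a : ℝ}

/-- **the coarse upper bound `e ≤ C D` at all scales of the (enlarged) window** -/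
theorem e_coarse (hm : 2 ≤ m) (n Q : ℕ) (K cS a : ℝ) (ha : 1 ≤ a) : ∃ C₁ l₁ : ℝ, 0 < C₁ ∧
    ∀ X : Sit m n a, IsSit Q K cS X → l₁ ≤ Real.log (Lam X.D) → ∀ x : Euc m, ‖x‖ ≤ 1 →
      ∀ l, Real.log (s0Of m a X.D) - 4 ≤ l → l ≤ Real.log (s0Of m a X.D) + TOf m a X.D + 5 →
        (da Q K cS X).e x l ≤ C₁ * X.D := by
  obtain ⟨C, hC, hen⟩ := Crs_173.energy m (Ins_387.C0_nonneg m Q)
  have hM : 0 < Md m := Md_pos (by omega)
  refine ⟨Md m * 1 * C * 2 ^ (m - 2), 1, by positivity, ?_⟩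
  intro X hX hl x hx l hl1 hl2
  have hcy := Ins_387.cylAS hX.cls hX.D1
  have hδ : X.δ ≤ 1 / 16 := by
    refine hX.δ1.trans ?_
    rw [Lam_rpow hX.D0 hX.D1]
    refine le_trans (Real.exp_le_exp.2 (by linarith : -4 * Real.log (Lam X.D) ≤ -4)) ?_
    exact exp_neg_four
  have hT := (hen hcy (fun z r hr _ => Ins_387.ubd hX.cls (by omega) z hr) hX.δ0 hδ x
    (by rw [mem_closedBall_zero_iff]; linarith) (2 * Real.exp l) (by positivity)
    (sqrt_le ha hX.D0 hX.D1 (by linarith) hl1) (exp_le_top ha hX.D0 hX.D1 (by linarith) hl2)).2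
  have h1 := eea_coarse (Shp_98.ff_of_cylAS hcy) (tau_pos (a := a) hX.D0 hX.D1) hm (w := w0) x
    (Kθ := 1) (fun u hu => by
      change (max (1 - u) 0) ^ 4 ≤ 1
      exact pow_le_one₀ (le_max_right _ _) (max_le (by linarith) zero_le_one))
    (tau_lt ha hX.D0 hX.D1 (by linarith) hl1) hT
  rw [Real.sq_sqrt hX.D0.le] at h1
  exact h1

/-- the centres are `At` on the enlarged window, with lower bound `c Λ^{-N} D` (helper387) -/
def AtP (m n Q : ℕ) (K cS a : ℝ) : Prop :=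
  ∃ A c N c₀ K₀ l₁ : ℝ, Real.exp ((m : ℝ) - 2) ≤ A ∧ 0 < c ∧ 0 < c₀ ∧ 0 < K₀ ∧
    ∀ X : Sit m n a, IsSit Q K cS X → l₁ ≤ Real.log (Lam X.D) →
      (da Q K cS X).Ok (√X.D) c₀ K₀ w2 ∧ ∀ x ∈ X.Z,
        (da Q K cS X).At A (c * Real.exp (-(N * Real.log (Lam X.D))) * X.D)
          (Real.log (s0Of m a X.D) - 4) (Real.log (s0Of m a X.D) + TOf m a X.D + 5) x ∧
        (da Q K cS X).P x (Real.log (s0Of m a X.D) + TOf m a X.D + 5) ≤
          c * Real.exp (-(N * Real.log (Lam X.D))) * X.D / (4 * A)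

theorem le_of_Lam {D D' : ℝ} (hD : 0 < D) (hD' : 0 < D') (h : Lam D' ≤ Lam D) : D ≤ D' := by
  rw [D_eq hD, D_eq hD']
  exact Real.exp_le_exp.2 (by linarith)

set_option maxHeartbeats 1000000 in
/-- **BDS: all fields of `CBase` except `fld`** -/
theorem bdF (hm : 3 ≤ m) (ha : 1 ≤ a) (hK : 0 ≤ K) (h : AtP m n Q K cS a) :
    ∃ CU l₀ : ℝ, 0 < CU ∧ ∀ X : Sit m n a, IsSit Q K cS X → l₀ ≤ Real.log (Lam X.D) →
      BdF (m - 2) CU (X.cd Q K cS) := by
  obtain ⟨A, c, N, c₀, K₀, l₁, hA, hc, hc₀, hK₀, hAt⟩ := h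
  obtain ⟨C₁, l₂, hC₁, hco⟩ := e_coarse (m := m) (by omega) n Q K cS a ha
  obtain ⟨σ, Kθ, cθ, hσ, hKθ, hcθ, hth⟩ := Crs_173.thetaProp m Q (Ins_387.C0 m Q) (by omega)
    (Ins_387.C0_nonneg m Q)
  obtain ⟨D1, hD1, hD1', hth⟩ := hth cθ 1 hcθ le_rfl le_rfl
  have hA0 : 0 < A := lt_of_lt_of_le (Real.exp_pos _) hA
  have hM : 0 < Md m := Md_pos (by omega)
  have hcμ : 0 < cμ m K A K₀ := by
    unfold cμ
    positivity
  obtain ⟨CU, hCU⟩ : ∃ CU : ℝ, CU = max (max (N + 1) a) 1 := ⟨_, rfl⟩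
  have hCUN : N < CU := by
    have h1 : N + 1 ≤ CU := by
      rw [hCU]
      exact (le_max_left _ _).trans (le_max_left _ _)
    linarith
  have hCUa : a - 1 < CU := by
    have h1 : a ≤ CU := by
      rw [hCU]
      exact (le_max_right _ _).trans (le_max_left _ _)
    linarith
  have hCU1 : 0 < CU := by
    have h1 : 1 ≤ CU := by
      rw [hCU]
      exact le_max_right _ _
    linarith
  have hb := bw_ge (m := m) ha
  have hev := ((((ev_low hc hCUN).and (ev_low (c := c / A) (by positivity) hCUN)).and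
    ((ev_low (c := cμ m K A K₀ * c) (by positivity) hCUN).and
      (ev_low (c := 1 / 2) (by norm_num) hCUa))).and
    (((ev_up (C := 2 * (A + K) * C₁) hCU1).and (ev_up (C := Ce m K A * C₁) hCU1)).and
      ((ev_up (C := Cε m K A c₀ * C₁) hCU1).and (ev_up (C := 1 + (1 / 2 + Kθ)) hCU1)))).and
    (((ev_T (bw m a) (by linarith)).and
      (ev_up (C := 2 * (A + K) * C₁) (CU := 1 / 2) (by norm_num))).and
      ((ev_up (C := Lam D1) (CU := 1) one_pos).and
        ((eventually_ge_atTop (4 : ℝ)).and ((eventually_ge_atTop l₁).and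
          (eventually_ge_atTop l₂)))))
  obtain ⟨l₀, hl₀⟩ := eventually_atTop.1 hev
  refine ⟨CU, l₀, hCU1, fun X hX hl => ?_⟩
  obtain ⟨⟨⟨⟨e1, e2⟩, e3, e4⟩, ⟨e5, e6⟩, e7, e8⟩, ⟨e9, e10⟩, e11, e12, e13, e14⟩ := hl₀ _ hl
  obtain ⟨hok, hZ⟩ := hAt X hX e13
  have e12' : 1 ≤ Real.log (Lam X.D) := by linarith
  have hD0 := hX.D0
  have hDl := hX.D1
  set l : ℝ := Real.log (Lam X.D) with hldef
  have hLam : Real.exp l = Lam X.D := Lam_eq hD0 hDl
  have hT : TOf m a X.D = Real.exp l / 2 - 2 * (bw m a * l) := by rw [T_eq hD0 hDl, hLam]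
  have hT1 : Real.exp (l / 2) ≤ TOf m a X.D := by rw [hT]; exact e9
  have hT0 : 0 ≤ TOf m a X.D := (Real.exp_pos _).le.trans hT1
  have hTe : TOf m a X.D ≤ Real.exp l := by
    rw [hT]
    have h1 : 0 ≤ bw m a * l := by positivity
    have h2 := Real.exp_pos l
    linarith
  have hlT : l ≤ TOf m a X.D := by
    refine le_trans ?_ hT1
    have h1 := Real.quadratic_le_exp_of_nonneg (x := l / 2) (by linarith)
    nlinarith [sq_nonneg (l / 2 - 1)]
  have ff := hX.out.fin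
  have fγ := hok.fγ
  have hKa : (da Q K cS X).K = K := rfl
  have hwin : ∀ x ∈ X.Z, Win (da Q K cS X) X.ε c₀ K₀ A (c * Real.exp (-(N * l)) * X.D)
      (C₁ * X.D) (Real.log (s0Of m a X.D)) (TOf m a X.D) (s0Of m a X.D / 2) x := by
    intro x hx
    obtain ⟨hx1, hx2⟩ := hZ x hx
    have hxT := hx1.hT
    have hτ0 : 0 < (da Q K cS X).τ := hok.τ0
    refine win hok hA (by positivity) ?_ ?_ hT0 (tau_le ha hD0 hDl e12')
      hX.out.fin hx1 (fun l' h1 h2 =>
      hco X hX e14 x ?_ l' h1 h2) hx2 fun l' h1 h2 => ?_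
    · change X.ds ≤ 1
      have h1 : X.δ ≤ 1 / 16 := by
        refine hX.δ1.trans ?_
        rw [Lam_rpow hD0 hDl]
        refine le_trans (Real.exp_le_exp.2 (by linarith : -4 * Real.log (Lam X.D) ≤ -4)) ?_
        exact exp_neg_four
      have h2 : Lam X.D ^ (-a) ≤ 1 / 16 := by
        rw [Lam_rpow hD0 hDl]
        refine le_trans (Real.exp_le_exp.2 (?_ : -a * Real.log (Lam X.D) ≤ -4)) exp_neg_four
        nlinarith
      unfold Sit.ds dsOf
      have h3 := max_le h1 h2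
      linarith
    · rw [exp_log_s0 hD0 hDl]
      ring
    · have := Real.exp_pos (Real.log (s0Of m a X.D) + TOf m a X.D + 5)
      linarith
    · obtain ⟨y, hy, rfl⟩ := hx
      have h3 := Real.exp_le_exp.2 h2
      exact (hX.out.ss y hy w0 (Real.exp l') (Real.exp_pos _).le (by linarith)).2
  have hexpD : ∀ {u v : ℝ}, u ≤ v → u * X.D ≤ v * X.D := fun {u v} huv =>
    mul_le_mul_of_nonneg_right huv hD0.le
  have hγ : (X.γ Q cS).real univ ≤ (1 / 2 + Kθ) * X.D := by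
    have h1 := beta_univ (Q := Q) (τ := tauOf a X.D) X.S hX.cls.int hX.cls.sp.hh
      (Ins_387.measurableSet_cyl4 X.π X.κ) (Ins_387.fin4 hX.cls) (tau_pos hD0 hDl).le
      (X.T₀ cS)ᶜ
    have h2 : X.D ≤ D1 := by
      refine le_of_Lam hD0 hD1 ?_
      rw [← hLam]
      have := e11
      rwa [one_mul] at this
    have h3 := (hth n X.k X.π X.κ (part X.π X.κ X.Dd) (X.S.N (Cy_870.cyl X.π X.κ 0 4 1)) X.δ X.D
      hD0 h2 hX.δ0 ?_ (Ins_387.in_of_cls hX.cls (by omega) hDl hX.δ0 X.S) hX.cls.en).1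
    · have h4 := hX.cls.en
      have h5 : Kθ * ∫ p, tl X.π p.2 ∂(part X.π X.κ X.Dd) ≤ Kθ * X.D :=
        mul_le_mul_of_nonneg_left h4 hKθ
      have h6 : (∫ p, tl X.π p.2 ∂((VD X.Dd).restrict (Cy_870.cyl X.π X.κ 0 4 1 ×ˢ univ))) ≤ X.D :=
        h4
      refine h1.trans ?_
      linarith
    · refine hX.δ1.trans ?_
      rw [Lam_rpow hD0 hDl, Lam_rpow hD0 hDl]
      exact Real.exp_le_exp.2 (by linarith)
  have hU : ∀ x ∈ X.Z, ∀ t, 0 ≤ t → t ≤ TOf m a X.D →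
      c * Real.exp (-(N * l)) * X.D ≤ (X.cd Q K cS).U x t ∧
        (X.cd Q K cS).U x t ≤ 2 * (A + K) * C₁ * X.D := by
    intro x hx t h1 h2
    have e : (X.cd Q K cS).U x t = (da Q K cS X).Us x (Real.log (s0Of m a X.D) + t) := by
      rw [add_comm]; rfl
    rw [e]
    have h3 := (hwin x hx).Uup t h1 h2
    rw [hKa] at h3
    exact ⟨(hwin x hx).Ulow t h1 h2, by linarith⟩
  refine
    { finε := finite_map X.ε
      finμ := finite_muB hok.ff (da Q K cS X).γ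
      Zm := measurableSet_Z X.ε
      Zε := null_Z X.ε
      D0 := hD0
      r0 := half_pos (s0_pos hD0 hDl)
      εlow := ?_
      Ulow := fun x hx t ht => (hexpD e1).trans (hU x hx t ht.1 ht.2).1
      Uup := fun x hx t ht => (hU x hx t ht.1 ht.2).2.trans (hexpD e5)
      elow := fun x hx t ht => ?_
      eup := fun x hx t ht => ?_
      εup := fun x hx s h1 h2 => ?_
      μlow := fun x hx s h1 h2 => ?_
      μup := ?_
      hT0 := hT0
      hT := hT1
      hl := e12'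
      hlT := hlT
      hκ := le_rfl
      hq1 := fun x hx => ?_ }
  · change _ ≤ (X.ε.map Subtype.val).real univ
    rw [real_map_univ]
    refine le_trans ?_ hX.out.mass
    rw [Lam_rpow hD0 hDl]
    refine hexpD (e4.trans (le_of_eq ?_))
    congr 2
    rw [neg_mul]
  · have e : (X.cd Q K cS).e x t = (da Q K cS X).es x (Real.log (s0Of m a X.D) + t) := by
      rw [add_comm]; rfl
    rw [e]
    refine le_trans ?_ ((hwin x hx).elow t ht.1 ht.2)
    refine (hexpD e2).trans (le_of_eq ?_)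
    ring
  · have e : (X.cd Q K cS).e x t = (da Q K cS X).es x (Real.log (s0Of m a X.D) + t) := by
      rw [add_comm]; rfl
    rw [e]
    refine ((hwin x hx).eup t ht.1 ht.2).trans ?_
    rw [hKa]
    refine le_trans (le_of_eq ?_) (hexpD e6)
    ring
  · have hs : 0 ≤ s := by
      have := s0_pos (m := m) (a := a) hD0 hDl
      have h3 : (X.cd Q K cS).r0 = s0Of m a X.D / 2 := rfl
      rw [h3] at h1
      linarith
    refine ((hwin x hx).εup s h1 h2).trans ?_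
    rw [hKa]
    refine mul_le_mul_of_nonneg_right ?_ (pow_nonneg hs _)
    refine le_trans (le_of_eq ?_) (hexpD e7)
    ring
  · have hs : 0 ≤ s := by
      have := s0_pos (m := m) (a := a) hD0 hDl
      have h3 : (X.cd Q K cS).r0 = s0Of m a X.D / 2 := rfl
      rw [h3] at h1
      linarith
    refine le_trans ?_ ((hwin x hx).μlow s h1 h2)
    rw [hKa]
    refine mul_le_mul_of_nonneg_right ?_ (pow_nonneg hs _)
    refine (hexpD e3).trans (le_of_eq ?_)
    ring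
  · change (muB (da Q K cS X).W (da Q K cS X).π (da Q K cS X).γ).real univ ≤ _
    rw [muB_univ hok.ff]
    have h1 : ∫ p, tl (da Q K cS X).π p.2 ∂(da Q K cS X).W ≤ X.D := hX.cls.en
    have h2 : (da Q K cS X).γ.real univ ≤ (1 / 2 + Kθ) * X.D := hγ
    refine le_trans ?_ (hexpD e8)
    linarith
  · obtain ⟨h1, h2⟩ := hU x hx _ hT0 le_rfl
    have h3 : 0 ≤ (X.cd Q K cS).U x (TOf m a X.D) := le_trans (by positivity) h1
    have h4 : (X.cd Q K cS).U x (TOf m a X.D) ≤ Real.exp (l / 2) * X.D := by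
      refine h2.trans (hexpD ?_)
      have : 1 / 2 * l = l / 2 := by ring
      rw [this] at e10
      exact e10
    have h5 : (X.cd Q K cS).U x (TOf m a X.D) * TOf m a X.D ≤
        Real.exp (l / 2) * X.D * Real.exp l :=
      mul_le_mul h4 hTe hT0 (by positivity)
    have h6 : (X.cd Q K cS).q1 = Real.exp (l / 2) * (Real.exp (l / 2) * X.D * Real.exp l) := by
      change q1Of X.D = _
      unfold q1Of
      rw [Lam_rpow hD0 hDl]
      have h7 : Real.exp (2 * Real.log (Lam X.D)) =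
          Real.exp (l / 2) * Real.exp (l / 2) * Real.exp l := by
        rw [← Real.exp_add, ← Real.exp_add]
        congr 1
        ring
      rw [h7]
      ring
    change Real.exp (l / 2) * ((X.cd Q K cS).U x (TOf m a X.D) * TOf m a X.D) ≤ _
    rw [h6]
    exact mul_le_mul_of_nonneg_left h5 (Real.exp_pos _).le

end Crest.Agent.R234.Bds_214
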