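import Crest.Agent.R234.Core4_809

/-!
# R234 / Core5_809 : the nodes of the core at V level, and `CoreProp` from them
-/

set_option autoImplicit false

open MeasureTheory Filter Topology Set Metric
open Crest.GeometryTopology.Submanifold
open Crest.Agent.R234.Vf_884 Crest.Agent.R234.Ar_870 Crest.Agent.R234.Cy_870
open Crest.Agent.R234.Pot_425 Crest.Agent.R234.N0_309 Crest.Agent.R234.Well_761

noncomputable section

namespace Crest.Agent.R234.Core_809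

/-- the gap of a well configuration -/
def gap {n : ℕ} (c : WCfg (Euc n)) : ℝ := c.q

/-- **N0** (309) -/
def N0Prop : Prop :=
  ∀ m n Q : ℕ, 3 ≤ m → 1 ≤ n → 1 ≤ Q → ∀ K : ℝ, 0 ≤ K → ∃ cS C0 : ℝ, 0 < cS ∧ 0 < C0 ∧
    ∀ Cs : ℝ, 0 ≤ Cs → ∃ D0 : ℝ, 0 < D0 ∧ D0 < 1 ∧
    ∀ (k : ℕ) (π : Euc k →L[ℝ] Euc m) (κ : Euc k →L[ℝ] Euc n) (U : Set (Euc k))
      (Dd : VarifoldData m k) (δ D : ℝ), 0 < D → D ≤ D0 → 0 ≤ δ → δ ≤ Lam D ^ (-4 : ℝ) →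
      Cls Q δ D π κ U Dd → ∀ S : Sheets Dd π,
      anom Q π κ Dd 1 0 ≤ C0 * (δ * (en π κ Dd + √(en π κ Dd * Yh π κ Dd)) + δ ^ 2 * Yh π κ Dd)
        + Lam D ^ (-Cs) * D ∨
      ∃ ε : Measure (XB (Euc m) (tauOf (Cs + 1) D)),
        Out S (Cy_870.cyl π κ 0 4 1) Q (tauOf (Cs + 1) D) (hOf (Cs + 1) D) (tOf (Cs + 1) D)
          (lamOf cS (Cs + 1) D) (blOf (Cs + 1) D) (K * m / 2 * dsOf (Cs + 1) δ D)
          (1 / 2 * Lam D ^ (-Cs) * D) ε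

/-- **NBASE** (387, 98, 214, 504): all fields of `CBase` -/
def NBase (m n Q : ℕ) (K cS a : ℝ) : Prop :=
  ∃ Cm CR Cb Cn CU l0 : ℝ, 0 ≤ Cm ∧ 0 ≤ CR ∧ 0 ≤ Cb ∧ 1 ≤ Cn ∧ 0 < CU ∧
    ∀ X : Sit m n a, IsSit Q K cS X → l0 ≤ Real.log (Lam X.D) →
      CBase gap (m - 2) Cm CR Cb Cn CU (X.cd Q K cS)

/-- **NTHIN** (561): averaged N4 -/
def NThin (m n Q : ℕ) (K cS a : ℝ) : Prop :=
  ∀ kf ω : ℝ, 0 < ω → ∃ η1 : ℝ, 0 < η1 ∧ ∃ l0 : ℝ,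
    ∀ X : Sit m n a, IsSit Q K cS X → l0 ≤ Real.log (Lam X.D) →
      HThin (X.cd Q K cS).Z (m - 2) (X.cd Q K cS).l (X.cd Q K cS).T (X.cd Q K cS).r0 kf η1 ω
        (X.cd Q K cS).E (X.cd Q K cS).R (X.cd Q K cS).e

/-- **NLOC** (504, 561, 372, 822): averaged N5 + N7, with a threshold `c1` -/
def NLoc (m n Q : ℕ) (K cS a c1 : ℝ) : Prop :=
  ∀ ω : ℝ, 0 < ω → ∃ Θ : ℝ, 0 < Θ ∧ ∀ kf : ℝ, ∃ η1 : ℝ, 0 < η1 ∧ ∀ B : ℝ, ∃ l0 : ℝ,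
    ∀ X : Sit m n a, IsSit Q K cS X → l0 ≤ Real.log (Lam X.D) →
      HLoc (X.cd Q K cS).Z gap (m - 2) (X.cd Q K cS).l (X.cd Q K cS).T (X.cd Q K cS).q1
        (X.cd Q K cS).r0 kf η1 ω Θ c1 B (X.cd Q K cS).E (X.cd Q K cS).R (X.cd Q K cS).e
        (X.cd Q K cS).eF (X.cd Q K cS).IF

/-- **NNET** (761): averaged N8 -/
def NNet (m n Q : ℕ) (K cS a c1 : ℝ) : Prop :=
  ∀ Θ C3 : ℝ, 0 < Θ → ∃ C0 : ℝ, 0 < C0 ∧ ∃ l0 : ℝ,
    ∀ X : Sit m n a, IsSit Q K cS X → l0 ≤ Real.log (Lam X.D) →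
      HNet (X.cd Q K cS).Z gap (X.cd Q K cS).l (X.cd Q K cS).T (X.cd Q K cS).q1 Θ c1 C3 C0
        (X.cd Q K cS).E (X.cd Q K cS).e (X.cd Q K cS).IF

/-- **NRUN** (870): averaged N9 -/
def NRun (m n Q : ℕ) (K cS a : ℝ) : Prop :=
  ∃ (N : ℕ) (A KR M0 : ℝ), 0 ≤ A ∧ 0 ≤ KR ∧ ∀ M : ℝ, M0 ≤ M → ∃ l0 : ℝ,
    ∀ X : Sit m n a, IsSit Q K cS X → l0 ≤ Real.log (Lam X.D) →
      HRun (X.cd Q K cS).Z gap N (X.cd Q K cS).l (X.cd Q K cS).T A KR M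
        (X.cd Q K cS).U (X.cd Q K cS).e (X.cd Q K cS).IF

/-- all V level nodes for one choice of the parameters -/
def Nodes (m n Q : ℕ) (K cS a : ℝ) : Prop :=
  NBase m n Q K cS a ∧ NThin m n Q K cS a ∧
    (∃ c1 : ℝ, 0 < c1 ∧ NLoc m n Q K cS a c1 ∧ NNet m n Q K cS a c1) ∧ NRun m n Q K cS a

theorem no_sit {m n Q : ℕ} {K cS a : ℝ} (hm : 3 ≤ m) (h : Nodes m n Q K cS a) :
    ∃ l0 : ℝ, ∀ X : Sit m n a, IsSit Q K cS X → Real.log (Lam X.D) < l0 := by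
  obtain ⟨⟨Cm, CR, Cb, Cn, CU, lB, hCm, hCR, hCb, hCn, hCU, hB⟩, hT,
    ⟨c1, hc1, hL, hN⟩, N, A, KR, M0, hA, hKR, hR⟩ := h
  obtain ⟨l0, hl0⟩ := core_family (F := Euc m) (W := WCfg (Euc n)) (q := gap) (d := m - 2)
    (N := N) (Cm := Cm) (CR := CR) (Cb := Cb) (Cn := Cn) (CU := CU) (c1 := c1) (A := A) (KR := KR)
    (by
      rw [show (Module.finrank ℝ (Euc m)) = m from finrank_euclideanSpace_fin]
      lia) (by lia) (Fam Q K cS m n a lB)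
    (by
      rintro Y ⟨X, hX, hl, rfl⟩
      exact hB X hX hl) hCm hCR hCb hCn hCU hc1 hA hKR
    (by
      intro kf ω hω
      obtain ⟨η1, hη1, l0, h⟩ := hT kf ω hω
      refine ⟨η1, hη1, l0, ?_⟩
      rintro Y ⟨X, hX, -, rfl⟩ hl
      exact h X hX hl)
    (by
      intro ω hω
      obtain ⟨Θ, hΘ, h1⟩ := hL ω hω
      refine ⟨Θ, hΘ, fun kf => ?_⟩
      obtain ⟨η1, hη1, h2⟩ := h1 kf
      refine ⟨η1, hη1, fun B => ?_⟩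
      obtain ⟨l0, h⟩ := h2 B
      refine ⟨l0, ?_⟩
      rintro Y ⟨X, hX, -, rfl⟩ hl
      exact h X hX hl)
    (by
      intro Θ C3 hΘ
      obtain ⟨C0, hC0, l0, h⟩ := hN Θ C3 hΘ
      refine ⟨C0, hC0, l0, ?_⟩
      rintro Y ⟨X, hX, -, rfl⟩ hl
      exact h X hX hl)
    (by
      refine ⟨M0, fun M hM => ?_⟩
      obtain ⟨l0, h⟩ := hR M hM
      refine ⟨l0, ?_⟩
      rintro Y ⟨X, hX, -, rfl⟩ hl
      exact h X hX hl)
  refine ⟨max lB l0, fun X hX => ?_⟩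
  by_contra hcon
  push Not at hcon
  have h1 := hl0 (X.cd Q K cS) ⟨X, hX, (le_max_left _ _).trans hcon, rfl⟩
  have h2 : (X.cd Q K cS).l = Real.log (Lam X.D) := rfl
  rw [h2] at h1
  exact absurd h1 (not_lt.2 ((le_max_right _ _).trans hcon))

/-- `Λ` is large for small `D` -/
theorem exists_D0 (L : ℝ) : ∃ D0 : ℝ, 0 < D0 ∧ D0 < 1 ∧ ∀ D : ℝ, 0 < D → D ≤ D0 →
    1 ≤ Lam D ∧ L ≤ Real.log (Lam D) := by
  refine ⟨Real.exp (-(Real.exp (max L 0) + 1)), Real.exp_pos _, ?_, fun D hD hD0 => ?_⟩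
  · rw [Real.exp_lt_one_iff]
    have := Real.exp_pos (max L 0)
    linarith
  · have h1 : Real.exp (max L 0) + 1 ≤ Lam D := by
      unfold Lam
      rw [one_div, Real.log_inv]
      have := Real.log_le_log hD hD0
      rw [Real.log_exp] at this
      linarith
    have h2 : 0 < Real.exp (max L 0) := Real.exp_pos _
    refine ⟨by linarith, ?_⟩
    rw [Real.le_log_iff_exp_le (by linarith)]
    have := Real.exp_le_exp.2 (le_max_left L 0)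
    linarith

/-- **THE CORE FROM ITS NODES**.  `K0 m n Q` = the absorption constant. -/
theorem coreProp_of_nodes (h0 : N0Prop)
    (h : ∀ m n Q : ℕ, 3 ≤ m → 1 ≤ n → 1 ≤ Q → ∃ K : ℝ, 0 ≤ K ∧ ∀ cS a : ℝ, 0 < cS → 1 ≤ a →
      Nodes m n Q K cS a) : CoreProp := by
  intro m n Q hm hn hQ
  obtain ⟨K, hK, hnod⟩ := h m n Q hm hn hQ
  obtain ⟨cS, C0, hcS, hC0, hN0⟩ := h0 m n Q hm hn hQ K hK
  refine ⟨4, C0, by norm_num, hC0, fun Cs => ?_⟩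
  set Cs' : ℝ := max Cs 0 with hCs'
  have hCs0 : 0 ≤ Cs' := le_max_right _ _
  obtain ⟨D1, hD1, hD1', hN0⟩ := hN0 Cs' hCs0
  obtain ⟨l0, hl0⟩ := no_sit hm (hnod cS (Cs' + 1) hcS (by linarith))
  obtain ⟨D2, hD2, hD2', hL⟩ := exists_D0 l0
  refine ⟨min D1 D2, lt_min hD1 hD2, (min_le_left _ _).trans_lt hD1', ?_⟩
  intro k π κ U Dd δ D hD hDD hδ hδ2 hcls
  have hDle1 := hDD.trans (min_le_left _ _)
  have hDle2 := hDD.trans (min_le_right _ _)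
  obtain ⟨hLam1, hLaml⟩ := hL D hD hDle2
  obtain ⟨S⟩ := exists_sheets_VD hcls.int π
  have hpow : Lam D ^ (-Cs') * D ≤ Real.log (1 / D) ^ (-Cs) * D := by
    apply mul_le_mul_of_nonneg_right _ hD.le
    exact Real.rpow_le_rpow_of_exponent_le hLam1 (neg_le_neg (le_max_left _ _))
  rcases hN0 k π κ U Dd δ D hD hDle1 hδ hδ2 hcls S with h1 | ⟨ε, hε⟩
  · linarith
  · exfalso
    have hsit : IsSit Q K cS (a := Cs' + 1)
        (⟨k, π, κ, U, Dd, S, δ, D, ε⟩ : Sit m n (Cs' + 1)) :=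
      { cls := hcls
        D0 := hD
        D1 := hDle1.trans_lt hD1'
        δ0 := hδ
        δ1 := hδ2
        out := by
          have e1 : (-(Cs' + 1 - 1)) = -Cs' := by ring
          rw [e1]
          exact hε }
    have := hl0 _ hsit
    exact absurd this (not_lt.2 hLaml)

end Crest.Agent.R234.Core_809
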