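import Crest.Agent.R234.Bds5_214
import Crest.Agent.R234.Core5_809

/-!
# Row 234, BDS part 6 (helper214): `NBase` from its field `fld` and `AtP`
-/

set_option autoImplicit false

open MeasureTheory Set Filter Metric
open Crest.GeometryTopology.Submanifold
open Crest.Agent.R234.Core_809

noncomputable section

namespace Crest.Agent.R234.Bds_214

/-- the field `fld` of `CBase` for all situations (helpers 387, 98) -/
def FldP (m n Q : ℕ) (K cS a : ℝ) : Prop :=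
  ∃ Cm CR Cb Cn l₀ : ℝ, 0 ≤ Cm ∧ 0 ≤ CR ∧ 0 ≤ Cb ∧ 1 ≤ Cn ∧
    ∀ X : Sit m n a, IsSit Q K cS X → l₀ ≤ Real.log (Lam X.D) →
      Fld (X.cd Q K cS).Z gap (m - 2) (X.cd Q K cS).κ (X.cd Q K cS).l (X.cd Q K cS).T
        (X.cd Q K cS).q1 (X.cd Q K cS).r0 Cm CR Cb Cn (X.cd Q K cS).U (X.cd Q K cS).E
        (X.cd Q K cS).R (X.cd Q K cS).e (X.cd Q K cS).eF (X.cd Q K cS).IF (X.cd Q K cS).er

/-- **`NBase` from `fld` and the enlarged window** -/
theorem nBase_of {m n Q : ℕ} {K cS a : ℝ} (hm : 3 ≤ m) (ha : 1 ≤ a) (hK : 0 ≤ K)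
    (hF : FldP m n Q K cS a) (h : AtP m n Q K cS a) : NBase m n Q K cS a := by
  obtain ⟨Cm, CR, Cb, Cn, l₁, hCm, hCR, hCb, hCn, hF⟩ := hF
  obtain ⟨CU, l₂, hCU, hB⟩ := bdF hm ha hK h
  refine ⟨Cm, CR, Cb, Cn, CU, max l₁ l₂, hCm, hCR, hCb, hCn, hCU, fun X hX hl => ?_⟩
  have hf := hF X hX ((le_max_left _ _).trans hl)
  have hb := hB X hX ((le_max_right _ _).trans hl)
  have hl1 := hb.hl
  have hlT := hb.hlT
  have hr0 := hb.r0
  have hs : ∀ s, 2 * (X.cd Q K cS).r0 * Real.exp (X.cd Q K cS).l ≤ s →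
      (X.cd Q K cS).r0 / 4 ≤ s := by
    intro s hs
    have h1 : 1 ≤ Real.exp (X.cd Q K cS).l := Real.one_le_exp (by linarith)
    have h2 : 2 * (X.cd Q K cS).r0 * 1 ≤ 2 * (X.cd Q K cS).r0 * Real.exp (X.cd Q K cS).l :=
      mul_le_mul_of_nonneg_left h1 (by linarith)
    linarith
  have hIcc : ∀ t ∈ Icc (X.cd Q K cS).l (X.cd Q K cS).T, t ∈ Icc 0 (X.cd Q K cS).T :=
    fun t ht => ⟨by linarith [ht.1], ht.2⟩
  exact
    { finε := hb.finε
      finμ := hb.finμ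
      Zm := hb.Zm
      Zε := hb.Zε
      D0 := hb.D0
      r0 := hb.r0
      fld := hf
      εlow := hb.εlow
      Ulow := fun x hx => hb.Ulow x hx _ (hIcc _ ⟨le_rfl, hlT⟩)
      Uup := fun x hx => hb.Uup x hx _ (hIcc _ ⟨hlT, le_rfl⟩)
      elow := fun x hx t ht => hb.elow x hx t (hIcc t ht)
      eup := fun x hx t ht => hb.eup x hx t (hIcc t ht)
      εup := fun x hx s h1 h2 => hb.εup x hx s (hs s h1) h2
      μlow := fun x hx s h1 h2 => hb.μlow x hx s (hs s h1) h2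
      μup := hb.μup
      hT := hb.hT
      hκ := hb.hκ
      hq1 := hb.hq1 }

end Crest.Agent.R234.Bds_214
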