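import Crest.Agent.R234.Fldc3_387

/-!
# Row 234 (helper387), NBASE-FLD, part 4: `Da.OkAS` and `Da.AtAS` for a contact situation

`exists_at`: bottom `√D Λ^b e^-4`, top `Λ^(-b') e^5`; `D₀ = cD Λ^-(2m+3)a D`, `P x T ≤ D₀ / (4 A)`.
-/

set_option autoImplicit false

open MeasureTheory Set Function Filter Topology Metric
open Crest.GeometryTopology.Submanifold
open Crest.Agent.R234.Vf_884 Crest.Agent.R234.Ar_870 Crest.Agent.R234.Cy_870
open Crest.Agent.R234.Pot_425 Crest.Agent.R234.Avg_387 Crest.Agent.R234.Rep_387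
open Crest.Agent.R234.Raw_387 Crest.Agent.R234.N0_309 Crest.Agent.R234.Asl_214
open Crest.Agent.R234.Core_809
open Crest.Agent.R234.N5_372 (eM)
open scoped ENNReal NNReal

noncomputable section

namespace Crest.Agent.R234.Fld_387

local notation "PX" => Crest.Agent.R234.Par_504.X

/-- bottom of the window -/
def sB (b D : ℝ) : ℝ := √D * Lam D ^ b

/-- top of the window -/
def sT (b' D : ℝ) : ℝ := Lam D ^ (-b')

/-- the lower bound of the sharp radial energy -/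
def D0f (m : ℕ) (cS a D : ℝ) : ℝ := cD m cS * (Lam D ^ (-((2 * m + 3) * a)) * D)

theorem D0f_pos {m : ℕ} (hm : 0 < m) {cS a D : ℝ} (hcS : 0 < cS) (hD : 0 < D) (hD1 : D < 1) :
    0 < D0f m cS a D := by
  have h1 := cD_pos hm hcS
  have h2 := Real.rpow_pos_of_pos (Lam_pos hD hD1) (-((2 * m + 3) * a))
  unfold D0f
  positivity

/-- conditions on the exponents -/
structure Exps (m : ℕ) (a b b' : ℝ) : Prop where
  ha : 1 ≤ a
  hb : a + 1 ≤ b
  hb2 : 1 + a + 2 * ((2 * m + 3) * a) + 4 < 4 * (b - 1)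
  hb' : a + 1 ≤ b'
  hb2' : (2 * m + 3) * a + a * m < 2 * b'

theorem exps (m : ℕ) {a : ℝ} (ha : 1 ≤ a) :
    Exps m a (100 * (m + 1) * (a + 1)) (100 * (m + 1) * (a + 1)) := by
  have hm : (0:ℝ) ≤ m := Nat.cast_nonneg m
  have h1 : 0 ≤ (m:ℝ) * a := by positivity
  have e : 100 * ((m:ℝ) + 1) * (a + 1) = 100 * (m * a) + 100 * m + 100 * a + 100 := by ring
  refine ⟨ha, ?_, ?_, ?_, ?_⟩ <;> rw [e] <;> nlinarith

set_option maxHeartbeats 800000 in
/-- **`OkAS` and `AtAS` for a contact situation** -/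
theorem exists_at (m n Q : ℕ) (hm : 2 ≤ m) {K cS a b b' : ℝ} (hK : 9 ≤ K) (hcS : 0 < cS)
    (hE : Exps m a b b') : ∃ A C l0 : ℝ, 1 ≤ A ∧ Real.exp ((m:ℝ) - 2) ≤ A ∧ 1 ≤ C ∧ 0 ≤ l0 ∧
      ∀ X : Sit m n a, Cls Q X.δ X.D X.π X.κ X.U X.Dd → 0 < X.D → X.D < 1 → 0 ≤ X.δ →
      X.δ ≤ Lam X.D ^ (-1 : ℝ) → ∀ ds M : ℝ, 7 * Lam X.D ^ (-a) ≤ ds → 7 * X.δ ≤ ds → ds ≤ 1 →
      Out X.S (Cy_870.cyl X.π X.κ 0 4 1) Q (tauOf a X.D) (hOf a X.D) (tOf a X.D)
        (lamOf cS a X.D) (blOf a X.D) (K * m / 2 * ds) M X.ε → l0 ≤ Real.log (Lam X.D) →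
      (daOf X Q K cS ds).OkAS 4 (√X.D) X.δ (1 / 3) 4 12 w2 ∧
      0 < D0f m cS a X.D ∧ Real.log (sB b X.D) ≤ Real.log (sT b' X.D) ∧
      ∀ x ∈ X.Z, (daOf X Q K cS ds).AtAS A (D0f m cS a X.D) (Real.log (sB b X.D) - 4)
          (Real.log (sT b' X.D) + 5) X.δ (√X.D) 12 (Real.exp (-Real.log (Lam X.D)))
          (Lam X.D ^ (2 : ℝ) * X.D) (fun _ => C * X.D) (fun _ => C) x ∧
        (daOf X Q K cS ds).P x (Real.log (sT b' X.D) + 5) ≤ D0f m cS a X.D / (4 * A) := by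
  have hm0 : 0 < m := by lia
  have hC0 : 0 ≤ Ins_387.C0 m Q := Ins_387.C0_nonneg m Q
  obtain ⟨Ae, ce, hAe, hce, hce', hEB⟩ := Th_164.eb_av_In m Q hC0 (c0 := 1 / 3) (Cg := 4)
    (by norm_num) (by norm_num)
  obtain ⟨C1, hC1, hTM⟩ := Shp_98.tb_mb_le m hC0
  obtain ⟨C2, hC2, hEN⟩ := Crs_173.energy m hC0
  have hMd : 0 ≤ Md m := (Md_pos hm0).le
  obtain ⟨Λ₁, hΛ₁, hHT⟩ := Shp_98.ht_num2 (a := a) (b := b) (c' := (2 * m + 3) * a)
    (cw := Real.exp (-4)) (by linarith [hE.hb2]) (Real.exp_pos _)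
    (KB := 12) (M₀ := Md m) (C := C1) (c := cD m cS) (by norm_num) hMd (by linarith)
    (cD_pos hm0 hcS)
  set A : ℝ := max Ae (Real.exp ((m:ℝ) - 2)) with hA
  have hA1 : 1 ≤ A := hAe.trans (le_max_left _ _)
  have hcD := cD_pos hm0 hcS
  obtain ⟨l0, hl00, hl0⟩ := exists_l0 ((ev_num m (a := a) (b := b) (b' := b')
    (c' := (2 * m + 3) * a) (A := Ae) (c := ce) (c₂ := cD m cS / (4 * A)) (cP m C2)
    hE.ha hE.hb hE.hb' hE.hb2' hce (by positivity)).and (eventually_ge_atTop Λ₁))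
  refine ⟨A, C1, l0, hA1, le_max_right _ _, hC1, hl00, ?_⟩
  intro X hc hD hD1 hδ hδ1 ds M hds1 hds2 hds3 hO hl
  have hL := Lam_pos hD hD1
  obtain ⟨hN, hΛ1⟩ := hl0 _ hL hl
  have hM1 := hN.n1
  have hsD : 0 < √X.D := Real.sqrt_pos.2 hD
  have hds0 : 0 < ds := lt_of_lt_of_le (by positivity) hds1
  have hok := okAS (K := K) (cS := cS) hm hc hD hD1 hδ hds0 hds2 hds3 hK
  have hs : √X.D = PX (-1 / 2) 0 (Lam X.D) := Par_504.sqrt_D_eq_X hD
  have hDX : X.D = PX (-1) 0 (Lam X.D) := Par_504.D_eq_X hD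
  have hsB : sB b X.D = PX (-1 / 2) b (Lam X.D) := by
    unfold sB
    rw [hs, Par_504.rpow_eq_X hL, Par_504.X_mul]
    congr 1 <;> ring
  have hsT : sT b' X.D = PX 0 (-b') (Lam X.D) := by
    unfold sT
    rw [Par_504.rpow_eq_X hL]
  have hbl : blOf a X.D = PX 0 (-a) (Lam X.D) := by
    unfold blOf
    rw [Par_504.rpow_eq_X hL]
  have ht : tOf a X.D = PX (-1 / 2) a (Lam X.D) := by
    unfold tOf
    rw [hs, Par_504.rpow_eq_X hL, Par_504.X_mul]
    congr 1 <;> ring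
  have hτ : tauOf a X.D = √X.D * blOf a X.D / 4 := by unfold tauOf hOf blOf; ring
  have hsB0 : 0 < sB b X.D := by rw [hsB]; exact Par_504.X_pos _ _ _
  have hsT0 : 0 < sT b' X.D := by rw [hsT]; exact Par_504.X_pos _ _ _
  have hbl0 : 0 < blOf a X.D := by rw [hbl]; exact Par_504.X_pos _ _ _
  have hs4 : √X.D ≤ 1 / 4 := by rw [hs]; exact hN.n5
  have hδ16 : X.δ ≤ ce := by
    refine hδ1.trans ?_
    rw [Par_504.rpow_eq_X hL]
    exact hN.n11
  have hDc : √X.D ^ 2 ≤ ce := by rw [Real.sq_sqrt hD.le, hDX]; exact hN.n10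
  have hen : ∫ p, tl X.π p.2 ∂X.V ≤ ce := by
    refine hc.en.trans ?_
    rw [Real.sq_sqrt hD.le] at hDc
    exact hDc
  have hIn := Ins_387.in_of_cls hc (by lia) hD1 hδ X.S
  have hD0 : 0 < D0f m cS a X.D := D0f_pos hm0 hcS hD hD1
  have hD0X : D0f m cS a X.D = cD m cS * PX (-1) (-((2 * m + 3) * a)) (Lam X.D) := by
    have h1 : Lam X.D ^ (-((2 * m + 3) * a)) * X.D =
        PX 0 (-((2 * m + 3) * a)) (Lam X.D) * PX (-1) 0 (Lam X.D) := by
      rw [Par_504.rpow_eq_X hL, ← hDX]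
    unfold D0f
    rw [h1, Par_504.X_mul]
    congr 2 <;> ring
  have eT : Real.exp (Real.log (sT b' X.D) + 5) = Real.exp 5 * sT b' X.D := by
    rw [Real.exp_add, Real.exp_log hsT0]; ring
  have eB : Real.exp (Real.log (sB b X.D) - 4) = Real.exp (-4) * sB b X.D := by
    rw [sub_eq_add_neg, Real.exp_add, Real.exp_log hsB0]; ring
  have hT4 : Real.exp 5 * sT b' X.D ≤ 1 / 4 := by rw [hsT]; exact hN.n4
  have hBT : Real.log (sB b X.D) ≤ Real.log (sT b' X.D) := by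
    refine Real.log_le_log hsB0 ?_
    rw [hsB, hsT]
    exact hN.n8
  refine ⟨hok, hD0, hBT, ?_⟩
  rintro x ⟨x, hx, rfl⟩
  have hnrm := hO.nrm x hx
  -- the window
  have hbl1 : blOf a X.D ≤ 1 := by
    have := hN.n2
    rw [hbl]
    have := Par_504.X_nonneg 0 (-a) (Lam X.D)
    linarith
  have h3τ : 3 * tauOf a X.D ≤ 1 / 2 * blOf a X.D := by
    rw [hτ]
    have := mul_le_mul_of_nonneg_right hs4 hbl0.le
    linarith
  have hwin : ‖(x : Euc m)‖ + Real.exp (Real.log (sT b' X.D) + 5) + 2 * tauOf a X.D ≤ 1 := by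
    have h3 : Real.exp 5 * sT b' X.D ≤ 1 / 2 * blOf a X.D := by rw [hsT, hbl]; exact hN.n3
    rw [eT]
    linarith
  have hτ0 : 0 < tauOf a X.D := tauOf_pos hD hD1
  have hx1 : ‖(x : Euc m)‖ ≤ 1 := by
    have := Real.exp_pos (Real.log (sT b' X.D) + 5)
    linarith
  have hτ1 : tauOf a X.D ≤ 1 := by linarith
  have hxτ : ∀ y ∈ closedBall (x : Euc m) (tauOf a X.D), y ∈ closedBall (0 : Euc m) 3 := by
    intro y hy
    rw [mem_closedBall_iff_norm] at hy
    rw [mem_closedBall_zero_iff]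
    have h1 : ‖y‖ ≤ ‖y - (x : Euc m)‖ + ‖(x : Euc m)‖ := by
      have := norm_add_le (y - (x : Euc m)) (x : Euc m)
      simpa using this
    linarith
  have hbot : ∀ l, Real.log (sB b X.D) - 4 ≤ l → (Ae + 1) * √X.D ≤ Real.exp l := by
    intro l hl
    refine le_trans ?_ (Real.exp_le_exp.2 hl)
    rw [eB, hsB]
    have h1 := mul_le_mul_of_nonneg_left hN.n7 (Real.exp_pos (-4)).le
    have h2 : Real.exp (-4) * ((Ae + 1) * Real.exp 4 * PX (-1 / 2) 0 (Lam X.D)) =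
        (Ae + 1) * PX (-1 / 2) 0 (Lam X.D) * (Real.exp (-4) * Real.exp 4) := by ring
    rw [h2, ← Real.exp_add, neg_add_cancel, Real.exp_zero, mul_one, ← hs] at h1
    exact h1
  have hbot1 : ∀ l, Real.log (sB b X.D) - 4 ≤ l → √X.D ≤ Real.exp l := by
    intro l hl
    have h1 := hbot l hl
    have h2 : 0 ≤ Ae * √X.D := by positivity
    linarith
  have hbot2 : ∀ l, Real.log (sB b X.D) - 4 ≤ l → Ae * √X.D ≤ Real.exp l := by
    intro l hl
    have h1 := hbot l hl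
    linarith
  have htop : ∀ l, l ≤ Real.log (sT b' X.D) + 5 → Real.exp l ≤ 1 / 4 := by
    intro l hl
    refine (Real.exp_le_exp.2 hl).trans ?_
    rw [eT]
    exact hT4
  have hB5 : Real.log (8 * tOf a X.D) + 1 ≤ Real.log (sB b X.D) - 4 := by
    have ht0 : 0 < tOf a X.D := by rw [ht]; exact Par_504.X_pos _ _ _
    have h1 : Real.log (8 * Real.exp 5 * tOf a X.D) ≤ Real.log (sB b X.D) := by
      refine Real.log_le_log (by positivity) ?_
      rw [ht, hsB]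
      exact hN.n6
    have h2 : Real.log (8 * Real.exp 5 * tOf a X.D) = Real.log (8 * tOf a X.D) + 5 := by
      rw [show 8 * Real.exp 5 * tOf a X.D = 8 * tOf a X.D * Real.exp 5 by ring,
        Real.log_mul (by positivity) (Real.exp_pos 5).ne', Real.log_exp]
    linarith
  have hhpos : 0 < hOf a X.D := by
    have h1 : tauOf a X.D = hOf a X.D / 4 := rfl
    linarith
  have hΛ1' : 1 ≤ Lam X.D := by linarith
  have ha0 : (0:ℝ) ≤ a := by linarith [hE.ha]
  have hht : hOf a X.D ≤ tOf a X.D := by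
    unfold hOf tOf
    refine mul_le_mul_of_nonneg_left ?_ hsD.le
    exact Real.rpow_le_rpow_of_exponent_le hΛ1' (by linarith)
  -- the decaying error
  have hPT : (daOf X Q K cS ds).P (x : Euc m) (Real.log (sT b' X.D) + 5) ≤
      D0f m cS a X.D / (4 * A) := by
    have h1 := P_le (b' := b') (by linarith : 0 ≤ C2) hok hD hD1 (by
        have : ce ≤ 1 := hce'.trans (by norm_num)
        linarith) ha0 hΛ1'
      (fun y hy r hr h1 h2 => (hEN hIn.cyl hIn.ub hδ (hδ16.trans hce') y hy r hr h1 h2).1)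
      hx1 hs4 hτ1 hT4 (by
        have h2 := hbot1 (Real.log (sT b' X.D) + 5) (by linarith)
        rw [eT] at h2
        exact h2)
    refine h1.trans (hN.n9.trans (le_of_eq ?_))
    rw [hD0X]
    ring
  have hPT2 : D0f m cS a X.D / (4 * A) ≤ D0f m cS a X.D :=
    div_le_self hD0.le (by linarith)
  refine ⟨{
    hT := hwin
    tall := ?_
    hB := fun l _ hl => (B_nonneg hO hx (by
      have h1 := Real.exp_le_exp.2 hl
      linarith)).2
    hEe := ?_
    PT := hPT.trans hPT2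
    htM := fun l _ => by
      have : 0 ≤ C1 := by linarith
      positivity
    htb := fun l hl y hy => by
      have h1 := (hTM hIn.cyl hIn.ub hδ (hδ16.trans hce') y (hxτ y hy) l (hbot1 l hl.1)
        (htop l hl.2)).1
      rw [Real.sq_sqrt hD.le] at h1
      exact h1
    hmb := fun l hl y hy => (hTM hIn.cyl hIn.ub hδ (hδ16.trans hce') y (hxτ y hy) l
      (hbot1 l hl.1) (htop l hl.2)).2
    ht := ?_ }, hPT⟩
  · -- tall
    have h1 := Us_tall hok hO hcS.le hhpos hht hx hwin (a₀ := Real.log (sB b X.D) - 4)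
      (by linarith) hB5
    refine le_trans ?_ h1
    have h2 := Dt_eq m (a := a) (cS := cS) hD hD1
    have e1 : D0f m cS a X.D = 7 * Lam X.D ^ (-a) *
        Dt m (hOf a X.D) (tOf a X.D) (lamOf cS a X.D) := by rw [h2]; rfl
    rw [e1]
    refine mul_le_mul_of_nonneg_right hds1 ?_
    have hlam : 0 ≤ lamOf cS a X.D := mul_nonneg hcS.le (sq_nonneg _)
    unfold Dt
    positivity
  · -- eb
    intro l hl1 hl2
    have hl0 : l ≤ 0 := by
      have h1 := htop l (by linarith)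
      by_contra hcon
      push Not at hcon
      have := Real.one_lt_exp_iff.2 hcon
      linarith
    have h1 := hEB hIn hδ16 hDc hen (g := w0.θ) (g1 := w0.θ') hok.prof.k0
      (fun t _ => w0.nonneg t) (fun t ht => (w0_up ht).1) (fun t h0 h1 => (w0_low h0 h1).1)
      (d := dd m (tauOf a X.D)) (τ := tauOf a X.D) (cw_dd hτ0) (x : Euc m) (by linarith) l hl0
      (hbot2 l hl1)
    have hr := hok.raw hwin
    have h2 := hr.e0 (l + 1) hl2
    have h3 : (daOf X Q K cS ds).E (x : Euc m) l ≤ Ae * (daOf X Q K cS ds).e (x : Euc m) (l + 1) :=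
      (le_abs_self _).trans h1
    exact h3.trans (mul_le_mul_of_nonneg_right (le_max_left _ _) h2)
  · -- the well error
    intro q hq l hl
    have h1 : ∫ z, dd m (daOf X Q K cS ds).τ z = Md m := integral_dd hok.τ0
    rw [h1]
    refine hHT X.D hD hΛ1 X.δ ds (D0f m cS a X.D) q l hδ (by
        have : ce ≤ 1 := hce'.trans (by norm_num)
        linarith) hds1 hq le_rfl ?_
    refine le_trans ?_ (Real.exp_le_exp.2 hl.1)
    rw [eB]
    exact le_rfl

end Crest.Agent.R234.Fld_387
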