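import Crest.Agent.R234.Bds6_214
import Crest.Agent.R234.Fldc4_387

/-!
# Row 234, BDS part 7 (helper214): `AtP` from helper387's `exists_at`
-/

set_option autoImplicit false

open MeasureTheory Set Filter Metric
open Crest.GeometryTopology.Submanifold
open Crest.Agent.R234.Core_809

noncomputable section

namespace Crest.Agent.R234.Bds_214

/-- bounds of `ds` -/
theorem ds_bounds {m n : ℕ} {a : ℝ} (ha : 1 ≤ a) {X : Sit m n a} (hD : 0 < X.D) (hD1 : X.D < 1)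
    (hδ : X.δ ≤ Lam X.D ^ (-4 : ℝ)) (hl : 4 ≤ Real.log (Lam X.D)) :
    7 * Lam X.D ^ (-a) ≤ X.ds ∧ 7 * X.δ ≤ X.ds ∧ X.ds ≤ 1 := by
  have h1 : X.δ ≤ 1 / 16 := by
    refine hδ.trans ?_
    rw [Lam_rpow hD hD1]
    refine le_trans (Real.exp_le_exp.2 (by linarith : -4 * Real.log (Lam X.D) ≤ -4)) ?_
    exact exp_neg_four
  have h2 : Lam X.D ^ (-a) ≤ 1 / 16 := by
    rw [Lam_rpow hD hD1]
    refine le_trans (Real.exp_le_exp.2 (?_ : -a * Real.log (Lam X.D) ≤ -4)) exp_neg_four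
    nlinarith
  have h3 := max_le h1 h2
  have e : X.ds = 7 * max X.δ (Lam X.D ^ (-a)) := rfl
  rw [e]
  exact ⟨mul_le_mul_of_nonneg_left (le_max_right _ _) (by norm_num),
    mul_le_mul_of_nonneg_left (le_max_left _ _) (by norm_num), by linarith⟩

/-- **`AtP` holds for `K ≥ 9`** -/
theorem atP (m n Q : ℕ) (hm : 2 ≤ m) {K cS a : ℝ} (hK : 9 ≤ K) (hcS : 0 < cS) (ha : 1 ≤ a) :
    AtP m n Q K cS a := by
  obtain ⟨A, C, l0, hA1, hA, hC, hl0, h⟩ := Fld_387.exists_at m n Q hm hK hcS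
    (Fld_387.exps m ha)
  refine ⟨A, Fld_387.cD m cS, (2 * m + 3) * a, 1 / 3, 4, max l0 4, hA,
    Fld_387.cD_pos (by omega) hcS, by norm_num, by norm_num, fun X hX hl => ?_⟩
  have hl1 : l0 ≤ Real.log (Lam X.D) := (le_max_left _ _).trans hl
  have hl4 : 4 ≤ Real.log (Lam X.D) := (le_max_right _ _).trans hl
  obtain ⟨d1, d2, d3⟩ := ds_bounds ha hX.D0 hX.D1 hX.δ1 hl4
  have hδ1 : X.δ ≤ Lam X.D ^ (-1 : ℝ) := by
    refine hX.δ1.trans ?_
    rw [Lam_rpow hX.D0 hX.D1, Lam_rpow hX.D0 hX.D1]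
    exact Real.exp_le_exp.2 (by linarith)
  obtain ⟨hok, hD0, hBT, hat⟩ := h X hX.cls hX.D0 hX.D1 hX.δ0 hδ1 X.ds _ d1 d2 d3 hX.out hl1
  have e1 : Fld_387.D0f m cS a X.D =
      Fld_387.cD m cS * Real.exp (-((2 * m + 3) * a * Real.log (Lam X.D))) * X.D := by
    unfold Fld_387.D0f
    rw [Lam_rpow hX.D0 hX.D1, neg_mul]
    ring
  have e2 : Real.log (Fld_387.sT (100 * (m + 1) * (a + 1)) X.D) + 5 =
      Real.log (s0Of m a X.D) + TOf m a X.D + 5 := by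
    have h1 : Fld_387.sT (100 * (m + 1) * (a + 1)) X.D = stOf m a X.D := rfl
    rw [h1, s0_add_T hX.D0 hX.D1, st_eq hX.D0 hX.D1, Real.log_exp]
  refine ⟨hok.ok, fun x hx => ?_⟩
  obtain ⟨hx1, hx2⟩ := hat x hx
  rw [e1, e2] at hx2
  have hx3 := hx1.at' hok
  rw [e1, e2] at hx3
  exact ⟨hx3, hx2⟩

/-- **all fields of `CBase` except `fld`, unconditional** -/
theorem bds {m n Q : ℕ} {K cS a : ℝ} (hm : 3 ≤ m) (hK : 9 ≤ K) (hcS : 0 < cS) (ha : 1 ≤ a) :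
    ∃ CU l₀ : ℝ, 0 < CU ∧ ∀ X : Sit m n a, IsSit Q K cS X → l₀ ≤ Real.log (Lam X.D) →
      BdF (m - 2) CU (X.cd Q K cS) :=
  bdF hm ha (by linarith) (atP m n Q (by omega) hK hcS ha)

/-- **`NBase` from the field `fld`** -/
theorem nBase {m n Q : ℕ} {K cS a : ℝ} (hm : 3 ≤ m) (hK : 9 ≤ K) (hcS : 0 < cS) (ha : 1 ≤ a)
    (hF : FldP m n Q K cS a) : NBase m n Q K cS a :=
  nBase_of hm ha (by linarith) hF (atP m n Q (by omega) hK hcS ha)

end Crest.Agent.R234.Bds_214
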