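import Crest.Agent.R234.Core5_809

/-!
# R234 / Core6_809 : the literal targets of the node owners and `CoreProp` from them
-/

set_option autoImplicit false

noncomputable section

namespace Crest.Agent.R234.Core_809

/-- target of NBASE (387, 98, 214) -/
def NBaseP : Prop :=
  ∀ m n Q : ℕ, 3 ≤ m → 1 ≤ n → 1 ≤ Q → ∃ K0 : ℝ, ∀ K : ℝ, K0 ≤ K → ∀ cS a : ℝ, 0 < cS → 1 ≤ a →
    NBase m n Q K cS a

/-- target of NTHIN (561) -/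
def NThinP : Prop :=
  ∀ m n Q : ℕ, 3 ≤ m → 1 ≤ n → 1 ≤ Q → ∃ K0 : ℝ, ∀ K : ℝ, K0 ≤ K → ∀ cS a : ℝ, 0 < cS → 1 ≤ a →
    NThin m n Q K cS a

/-- target of NLOC (561, 822, 372) -/
def NLocP : Prop :=
  ∀ m n Q : ℕ, 3 ≤ m → 1 ≤ n → 1 ≤ Q → ∃ K0 : ℝ, ∀ K : ℝ, K0 ≤ K → ∀ cS a : ℝ, 0 < cS → 1 ≤ a →
    ∃ c1 : ℝ, 0 < c1 ∧ NLoc m n Q K cS a c1

/-- target of NNET (761) -/
def NNetP : Prop :=
  ∀ m n Q : ℕ, 3 ≤ m → 1 ≤ n → 1 ≤ Q → ∃ K0 : ℝ, ∀ K : ℝ, K0 ≤ K → ∀ cS a c1 : ℝ, 0 < cS →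
    1 ≤ a → 0 < c1 → NNet m n Q K cS a c1

/-- target of NRUN (870) -/
def NRunP : Prop :=
  ∀ m n Q : ℕ, 3 ≤ m → 1 ≤ n → 1 ≤ Q → ∃ K0 : ℝ, ∀ K : ℝ, K0 ≤ K → ∀ cS a : ℝ, 0 < cS → 1 ≤ a →
    NRun m n Q K cS a

/-- **`CoreProp` from N0 and the five node targets** -/
theorem coreProp_of (h0 : N0Prop) (hB : NBaseP) (hT : NThinP) (hL : NLocP) (hN : NNetP)
    (hR : NRunP) : CoreProp := by
  refine coreProp_of_nodes h0 fun m n Q hm hn hQ => ?_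
  obtain ⟨K1, h1⟩ := hB m n Q hm hn hQ
  obtain ⟨K2, h2⟩ := hT m n Q hm hn hQ
  obtain ⟨K3, h3⟩ := hL m n Q hm hn hQ
  obtain ⟨K4, h4⟩ := hN m n Q hm hn hQ
  obtain ⟨K5, h5⟩ := hR m n Q hm hn hQ
  obtain ⟨K, hK⟩ : ∃ K : ℝ, K = max 0 (max (max K1 K2) (max K3 (max K4 K5))) := ⟨_, rfl⟩
  have k0 : 0 ≤ K := by rw [hK]; exact le_max_left _ _
  have kk : max (max K1 K2) (max K3 (max K4 K5)) ≤ K := by rw [hK]; exact le_max_right _ _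
  have k1 : K1 ≤ K := ((le_max_left _ _).trans (le_max_left _ _)).trans kk
  have k2 : K2 ≤ K := ((le_max_right _ _).trans (le_max_left _ _)).trans kk
  have k3 : K3 ≤ K := ((le_max_left _ _).trans (le_max_right _ _)).trans kk
  have k4 : K4 ≤ K :=
    (((le_max_left _ _).trans (le_max_right _ _)).trans (le_max_right _ _)).trans kk
  have k5 : K5 ≤ K :=
    (((le_max_right _ _).trans (le_max_right _ _)).trans (le_max_right _ _)).trans kk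
  refine ⟨K, k0, fun cS a hcS ha => ?_⟩
  obtain ⟨c1, hc1, hloc⟩ := h3 K k3 cS a hcS ha
  exact ⟨h1 K k1 cS a hcS ha, h2 K k2 cS a hcS ha,
    ⟨c1, hc1, hloc, h4 K k4 cS a c1 hcS ha hc1⟩, h5 K k5 cS a hcS ha⟩

end Crest.Agent.R234.Core_809
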