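import Crest.Agent.R234.Fldc4_387
import Crest.Agent.R234.Core5_809

/-!
# Row 234 (helper387), NBASE-FLD, part 5: the field `fld` of `CBase` for `X.cd`, literally

`Sit.da`, `exists_sit` (`OkAS`, `AtAS`, `P x T ≤ D₀ / (4 A)` for every situation),
`exists_fld` : `Fld` for `X.cd` (one set of constants).
-/

set_option autoImplicit false

open MeasureTheory Set Function Filter Topology Metric
open Crest.GeometryTopology.Submanifold
open Crest.Agent.R234.Vf_884 Crest.Agent.R234.Ar_870 Crest.Agent.R234.Cy_870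
open Crest.Agent.R234.Pot_425 Crest.Agent.R234.Avg_387 Crest.Agent.R234.Rep_387
open Crest.Agent.R234.Raw_387 Crest.Agent.R234.N0_309 Crest.Agent.R234.Asl_214
open Crest.Agent.R234.Core_809
open Crest.Agent.R234.Well_761 (WCfg wells)
open scoped ENNReal NNReal

noncomputable section

namespace Crest.Agent.R234.Fld_387

variable {m n : ℕ} {a : ℝ}

/-- **the data `Da` of a situation** -/
def da (X : Sit m n a) (Q : ℕ) (K cS : ℝ) : Da m n X.k := daOf X Q K cS X.ds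

section bridges
variable (X : Sit m n a) (Q : ℕ) (K cS : ℝ) (x : Euc m)

theorem da_Es : (da X Q K cS).Es x = X.sE Q K x := rfl
theorem da_Us : (da X Q K cS).Us x = X.sU Q K cS x := rfl
theorem da_Rs : (da X Q K cS).Rs x = X.sR Q K cS x := rfl
theorem da_bs : (da X Q K cS).bs x = X.sb Q K cS x := rfl
theorem da_es : (da X Q K cS).es x = X.se Q K cS x := rfl
theorem da_B : (da X Q K cS).B x = X.aB Q K cS x := rfl
theorem da_e : (da X Q K cS).e x = X.ae x := rfl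
theorem da_E : (da X Q K cS).E x = X.aE Q x := rfl
theorem da_P : (da X Q K cS).P x = X.aP x := rfl
theorem da_aI (c : WCfg (Euc n)) : Shp_98.aIw (da X Q K cS) x c = X.aI x c := rfl

end bridges

theorem sB_eq (m : ℕ) (a D : ℝ) : sB (100 * (m + 1) * (a + 1)) D = s0Of m a D := rfl

theorem sT_eq (m : ℕ) (a D : ℝ) : sT (100 * (m + 1) * (a + 1)) D = stOf m a D := rfl

/-- **everything at the contact centres of a situation** -/
theorem exists_sit (m n Q : ℕ) (hm : 2 ≤ m) {K cS a : ℝ} (hK : 9 ≤ K) (hcS : 0 < cS)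
    (ha : 1 ≤ a) : ∃ A C l0 : ℝ, 1 ≤ A ∧ Real.exp ((m:ℝ) - 2) ≤ A ∧ 1 ≤ C ∧ 0 ≤ l0 ∧
      ∀ X : Sit m n a, IsSit Q K cS X → l0 ≤ Real.log (Lam X.D) →
      (da X Q K cS).OkAS 4 (√X.D) X.δ (1 / 3) 4 12 w2 ∧
      0 < D0f m cS a X.D ∧ 0 < s0Of m a X.D ∧
      Real.log (s0Of m a X.D) + TOf m a X.D = Real.log (stOf m a X.D) ∧ 0 ≤ TOf m a X.D ∧
      ∀ x ∈ X.Z, (da X Q K cS).AtAS A (D0f m cS a X.D) (Real.log (s0Of m a X.D) - 4)
          (Real.log (s0Of m a X.D) + TOf m a X.D + 5) X.δ (√X.D) 12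
          (Real.exp (-Real.log (Lam X.D))) (q1Of X.D) (fun _ => C * X.D) (fun _ => C) x ∧
        (da X Q K cS).P x (Real.log (s0Of m a X.D) + TOf m a X.D + 5) ≤
          D0f m cS a X.D / (4 * A) := by
  obtain ⟨A, C, l0, hA1, hA, hC, hl0, H⟩ := exists_at m n Q hm hK hcS (exps m ha)
  obtain ⟨l1, hl1, H1⟩ := exists_l0 ((Par_504.ev_small 7 one_pos
    (show Par_504.Lt 0 (-a) 0 0 from Or.inr ⟨rfl, by linarith⟩)).and
      (eventually_ge_atTop (7:ℝ)))
  refine ⟨A, C, max l0 l1, hA1, hA, hC, hl0.trans (le_max_left _ _), ?_⟩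
  intro X hX hl
  have hD := hX.D0
  have hD1 := hX.D1
  have hL := Lam_pos hD hD1
  obtain ⟨h7a, h7⟩ := H1 _ hL ((le_max_right _ _).trans hl)
  rw [← Par_504.rpow_eq_X hL] at h7a
  have hL1 : 1 ≤ Lam X.D := by linarith
  have hδ1 : X.δ ≤ Lam X.D ^ (-1 : ℝ) :=
    hX.δ1.trans (Real.rpow_le_rpow_of_exponent_le hL1 (by norm_num))
  have hds : X.ds = 7 * max X.δ (Lam X.D ^ (-a)) := rfl
  have hd1 : 7 * Lam X.D ^ (-a) ≤ X.ds := by
    rw [hds]; exact mul_le_mul_of_nonneg_left (le_max_right _ _) (by norm_num)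
  have hd2 : 7 * X.δ ≤ X.ds := by
    rw [hds]; exact mul_le_mul_of_nonneg_left (le_max_left _ _) (by norm_num)
  have hd3 : X.ds ≤ 1 := by
    rw [hds]
    have h1 : 7 * X.δ ≤ 1 := by
      have h2 : Lam X.D ^ (-1 : ℝ) = 1 / Lam X.D := by
        rw [Real.rpow_neg_one, one_div]
      rw [h2, le_div_iff₀ hL] at hδ1
      have := hX.δ0
      nlinarith
    rcases le_total X.δ (Lam X.D ^ (-a)) with h2 | h2
    · rw [max_eq_right h2]; exact h7a
    · rw [max_eq_left h2]; exact h1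
  obtain ⟨h1, h2, h3, h4⟩ := H X hX.cls hD hD1 hX.δ0 hδ1 X.ds _ hd1 hd2 hd3 hX.out
    ((le_max_left _ _).trans hl)
  rw [sB_eq, sT_eq] at h3
  have hst : 0 < stOf m a X.D := Real.rpow_pos_of_pos hL _
  have hs0 : 0 < s0Of m a X.D := mul_pos (Real.sqrt_pos.2 hD) (Real.rpow_pos_of_pos hL _)
  have hsum : Real.log (s0Of m a X.D) + TOf m a X.D = Real.log (stOf m a X.D) := by
    unfold TOf
    rw [Real.log_div hst.ne' hs0.ne']
    ring
  refine ⟨h1, h2, hs0, hsum, by linarith, fun x hx => ?_⟩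
  have h5 := h4 x hx
  rw [sB_eq, sT_eq] at h5
  rw [hsum]
  exact h5

/-- restriction of the window of `AtAS` -/
theorem AtAS_mono {k : ℕ} {D : Da m n k} {R h₀ δA c₀ K₀ KB A D₀ a₀ T κ' q1 : ℝ} {g2 : ℝ → ℝ}
    {tM mM : ℝ → ℝ} {x : Euc m} (ok : D.OkAS R h₀ δA c₀ K₀ KB g2)
    (h : D.AtAS A D₀ a₀ T δA h₀ KB κ' q1 tM mM x) {a' T' : ℝ} (ha : a₀ ≤ a') (haT : a' ≤ T')
    (hT : T' ≤ T) : D.AtAS A D₀ a' T' δA h₀ KB κ' q1 tM mM x := by
  have h1 := Bds_214.At_mono ok.ok (h.at' ok) ha haT hT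
  have hs : ∀ l, l ∈ Icc a' T' → l ∈ Icc a₀ T := fun l hl => ⟨ha.trans hl.1, hl.2.trans hT⟩
  exact
    { hT := h1.hT
      tall := h1.tall
      hB := h1.hB
      hEe := h1.hEe
      PT := h1.PT
      htM := fun l hl => h.htM l (hs l hl)
      htb := fun l hl => h.htb l (hs l hl)
      hmb := fun l hl => h.hmb l (hs l hl)
      ht := fun q hq l hl => h.ht q hq l (hs l hl) }

/-! ### change of the parameter set of the wells -/

section comap
variable {W W' : Type*}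

theorem ptDat_comap (f : W' → W) {q : W → ℝ} {κ a0 T q1 : ℝ} {U E R : ℝ → ℝ}
    {eF IF er : W → ℝ → ℝ} (h : PtDat q κ a0 T q1 U E R eF IF er) :
    PtDat (fun w => q (f w)) κ a0 T q1 U E R (fun w => eF (f w)) (fun w => IF (f w))
      (fun w => er (f w)) where
  haT := h.haT
  k0 := h.k0
  Upos := h.Upos
  hR := h.hR
  hU := h.hU
  Rnn := h.Rnn
  UE := h.UE
  Em := h.Em
  Inn := fun w => h.Inn (f w)
  he := fun w => h.he (f w)
  hρ := fun w => h.hρ (f w)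
  hI := fun w => h.hI (f w)
  cs := fun w => h.cs (f w)
  rho := fun w => h.rho (f w)

theorem fld_comap {F : Type*} [NormedAddCommGroup F] [MeasurableSpace F]
    (f : W' → W) {Z : Set F} {q : W → ℝ} {d : ℕ} {κ a0 T q1 r0 Cm CR Cb Cn : ℝ}
    {U E R e : F → ℝ → ℝ} {eF IF er : F → W → ℝ → ℝ}
    (h : Fld Z q d κ a0 T q1 r0 Cm CR Cb Cn U E R e eF IF er) :
    Fld Z (fun w => q (f w)) d κ a0 T q1 r0 Cm CR Cb Cn U E R e (fun x w => eF x (f w))
      (fun x w => IF x (f w)) (fun x w => er x (f w)) where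
  pt := fun x hx => ptDat_comap f (h.pt x hx)
  cs := fun x hx w => h.cs x hx (f w)
  epos := h.epos
  reg := h.reg
  qm := h.qm
  rr := h.rr
  eb := h.eb
  nbr := h.nbr
  me := h.me
  mU := h.mU

end comap

/-- **`Fld` for `X.cd` from the data of `exists_sit`** -/
theorem fld_of_sit {X : Sit m n a} {Q : ℕ} {K cS A C D₀ : ℝ} (hm : 2 ≤ m)
    (hok : (da X Q K cS).OkAS 4 (√X.D) X.δ (1 / 3) 4 12 w2) (hA : Real.exp ((m:ℝ) - 2) ≤ A)
    (hD₀ : 0 < D₀) (hs0 : 0 < s0Of m a X.D) (hl : 0 ≤ Real.log (Lam X.D))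
    (hlT : Real.log (Lam X.D) ≤ TOf m a X.D)
    (hZ : ∀ x ∈ X.Z, (da X Q K cS).AtAS A D₀ (Real.log (s0Of m a X.D) - 4)
      (Real.log (s0Of m a X.D) + TOf m a X.D + 5) X.δ (√X.D) 12
      (Real.exp (-Real.log (Lam X.D))) (q1Of X.D) (fun _ => C * X.D) (fun _ => C) x) :
    Fld (X.cd Q K cS).Z gap (m - 2) (X.cd Q K cS).κ (X.cd Q K cS).l (X.cd Q K cS).T
      (X.cd Q K cS).q1 (X.cd Q K cS).r0 (48 * A) (6 * (4 / (1 / 3)) * Real.exp (4 * (m : ℝ))) A
      (Da.CK m (1 / 3) 4 + 2 * A) (X.cd Q K cS).U (X.cd Q K cS).E (X.cd Q K cS).R (X.cd Q K cS).e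
      (X.cd Q K cS).eF (X.cd Q K cS).IF (X.cd Q K cS).er := by
  obtain ⟨d, rfl⟩ : ∃ d, m = d + 2 := ⟨m - 2, by lia⟩
  have e2 : (((d + 2 : ℕ) : ℝ) - 2) = d := by push_cast; ring
  rw [e2] at hA
  have h1 := fld_AS hok (Z := X.Z) (r0 := s0Of (d + 2) a X.D / 2)
    (L₀ := Real.log (s0Of (d + 2) a X.D)) (a0 := Real.log (Lam X.D)) (T := TOf (d + 2) a X.D)
    (κ' := Real.exp (-Real.log (Lam X.D))) (q1 := q1Of X.D) (tM := fun _ => C * X.D)
    (mM := fun _ => C) hA hD₀ (by rw [Real.exp_log hs0]; ring) hlT (Real.exp_pos _).le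
    fun x hx => AtAS_mono hok (hZ x hx) (by linarith) (by linarith) (by linarith)
  have h2 := fld_comap (Shp_98.toWP (n := n)) h1
  have e3 : ∀ t : ℝ, t + Real.log (s0Of (d + 2) a X.D) = Real.log (s0Of (d + 2) a X.D) + t :=
    fun t => add_comm _ _
  have e4 : (fun (x : Euc (d + 2)) (w : WCfg (Euc n)) (t : ℝ) => (da X Q K cS).eF w2 x
      (Shp_98.toWP w) (Real.log (s0Of (d + 2) a X.D) + t)) = (X.cd Q K cS).eF := by
    funext x w t
    change _ = deriv (Shp_98.aIw (da X Q K cS) x w) (t + Real.log (s0Of (d + 2) a X.D)) / 2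
    rw [Shp_98.deriv_aIw hok.ok, e3]
    rfl
  have e5 : (fun (x : Euc (d + 2)) (w : WCfg (Euc n)) (t : ℝ) => (da X Q K cS).IF x
      (Shp_98.toWP w) (Real.log (s0Of (d + 2) a X.D) + t)) = (X.cd Q K cS).IF := by
    funext x w t
    change _ = Shp_98.aIw (da X Q K cS) x w (t + Real.log (s0Of (d + 2) a X.D))
    rw [Shp_98.aIw_eq, e3]
    rfl
  have e6 : (X.cd Q K cS).U = fun x t => (da X Q K cS).Us x
      (Real.log (s0Of (d + 2) a X.D) + t) := by
    funext x t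
    change (da X Q K cS).Us x (t + _) = _
    rw [e3]
  have e7 : (X.cd Q K cS).E = fun x t => (da X Q K cS).Es x
      (Real.log (s0Of (d + 2) a X.D) + t) := by
    funext x t
    change (da X Q K cS).Es x (t + _) = _
    rw [e3]
  have e8 : (X.cd Q K cS).R = fun x t => (da X Q K cS).Rs x
      (Real.log (s0Of (d + 2) a X.D) + t) := by
    funext x t
    change (da X Q K cS).Rs x (t + _) = _
    rw [e3]
  have e9 : (X.cd Q K cS).e = fun x t => (da X Q K cS).es x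
      (Real.log (s0Of (d + 2) a X.D) + t) := by
    funext x t
    change (da X Q K cS).es x (t + _) = _
    rw [e3]
  rw [← e4, ← e5, e6, e7, e8, e9]
  exact h2

/-- **NBASE-FLD**: the field `fld` of `CBase` for every situation, literally -/
theorem exists_fld (m n Q : ℕ) (hm : 2 ≤ m) {K cS a : ℝ} (hK : 9 ≤ K) (hcS : 0 < cS)
    (ha : 1 ≤ a) : ∃ Cm CR Cb Cn l0 : ℝ, 0 ≤ Cm ∧ 0 ≤ CR ∧ 0 ≤ Cb ∧ 1 ≤ Cn ∧
      ∀ X : Sit m n a, IsSit Q K cS X → l0 ≤ Real.log (Lam X.D) →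
        Real.log (Lam X.D) ≤ TOf m a X.D →
        Fld (X.cd Q K cS).Z gap (m - 2) (X.cd Q K cS).κ (X.cd Q K cS).l (X.cd Q K cS).T
          (X.cd Q K cS).q1 (X.cd Q K cS).r0 Cm CR Cb Cn (X.cd Q K cS).U (X.cd Q K cS).E
          (X.cd Q K cS).R (X.cd Q K cS).e (X.cd Q K cS).eF (X.cd Q K cS).IF
          (X.cd Q K cS).er := by
  obtain ⟨A, C, l0, hA1, hA, hC, hl0, H⟩ := exists_sit m n Q hm hK hcS ha
  have hCK : 0 ≤ Da.CK m (1 / 3) 4 := by unfold Da.CK; positivity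
  refine ⟨48 * A, 6 * (4 / (1 / 3)) * Real.exp (4 * (m : ℝ)), A, Da.CK m (1 / 3) 4 + 2 * A, l0,
    by positivity, by positivity, by positivity, by linarith, fun X hX hl hlT => ?_⟩
  obtain ⟨h1, h2, h3, h4, h5, h6⟩ := H X hX hl
  exact fld_of_sit hm h1 hA h2 h3 (hl0.trans hl) hlT fun x hx => (h6 x hx).1

end Crest.Agent.R234.Fld_387
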