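import Crest.Agent.R234.Bds7_214
import Crest.Agent.R234.Fldc5_387
import Crest.Agent.R234.Core6_809

/-!
# Row 234, BDS part 8 (helper214): **`NBaseP`** = target NBASE of `Core6_809`
(helper387 `exists_fld`, helper98 wells, helper214 bounds)
-/

set_option autoImplicit false

open MeasureTheory Set Filter Metric
open Crest.GeometryTopology.Submanifold
open Crest.Agent.R234.Core_809

noncomputable section

namespace Crest.Agent.R234.Bds_214

theorem fldP' {m n Q : ℕ} {K cS a : ℝ} (hm : 3 ≤ m) (hK : 9 ≤ K) (hcS : 0 < cS) (ha : 1 ≤ a) :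
    FldP m n Q K cS a := by
  obtain ⟨Cm, CR, Cb, Cn, l₁, hCm, hCR, hCb, hCn, hF⟩ :=
    Fld_387.exists_fld m n Q (by omega) hK hcS ha
  obtain ⟨CU, l₂, hCU, hB⟩ := bds (m := m) (n := n) (Q := Q) hm hK hcS ha
  refine ⟨Cm, CR, Cb, Cn, max l₁ l₂, hCm, hCR, hCb, hCn, fun X hX hl => ?_⟩
  exact hF X hX ((le_max_left _ _).trans hl) (hB X hX ((le_max_right _ _).trans hl)).hlT

/-- **NBASE** -/
theorem nBaseP : NBaseP := by
  intro m n Q hm hn hQ
  exact ⟨9, fun K hK cS a hcS ha => nBase hm hK hcS ha (fldP' hm hK hcS ha)⟩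

end Crest.Agent.R234.Bds_214
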