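import Crest.Agent.R234.Swb6_159

/-!
# Row 234, F6-BLOCK (helper159), part 7: `Same` in ambient scale from the zoomed rotation
-/

set_option autoImplicit false
set_option linter.unusedSectionVars false

open MeasureTheory Set Metric Filter Topology
open Crest.GeometryTopology.Submanifold
open scoped ENNReal NNReal ContDiff RealInnerProductSpace

noncomputable section

namespace Crest.Agent.R234.Swb_159

open Crest.Agent.R234.Ell1_3 Crest.Agent.R234.Main_456 Crest.Agent.R234.Grot_842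

local notation "adj" => ContinuousLinearMap.adjoint

variable {m n : ℕ} {q : Euc m →L[ℝ] Euc n} {H : Euc m →L[ℝ] Euc m} {H' : Euc n →L[ℝ] Euc n}

/-- the function in ambient scale -/
def amb (S : ℝ) (u : Euc m → Euc n) (X : Euc m) : Euc n := S • u (S⁻¹ • X)

theorem differentiable_amb {S : ℝ} {u : Euc m → Euc n} (hu : Differentiable ℝ u) :
    Differentiable ℝ (amb S u) :=
  (hu.comp (differentiable_id.const_smul S⁻¹)).const_smul S

theorem fderiv_amb {S : ℝ} (hS : S ≠ 0) {u : Euc m → Euc n} (hu : Differentiable ℝ u)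
    (X : Euc m) : fderiv ℝ (amb S u) X = fderiv ℝ u (S⁻¹ • X) := by
  have h1 : HasFDerivAt (fun X : Euc m => S⁻¹ • X) (S⁻¹ • ContinuousLinearMap.id ℝ (Euc m)) X :=
    (hasFDerivAt_id X).const_smul S⁻¹
  have h2 : HasFDerivAt (amb S u) (S • (fderiv ℝ u (S⁻¹ • X) ∘L
      (S⁻¹ • ContinuousLinearMap.id ℝ (Euc m)))) X :=
    ((hu _).hasFDerivAt.comp X h1).const_smul S
  rw [h2.fderiv]
  ext1 v
  simp only [_root_.smul_apply, ContinuousLinearMap.comp_apply, ContinuousLinearMap.id_apply,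
    map_smul, smul_smul, mul_inv_cancel₀ hS, one_smul]

/-- the region on which the two descriptions are known to agree -/
def reg (q : Euc m →L[ℝ] Euc n) (H : Euc m →L[ℝ] Euc m) (u : Euc m → Euc n) (X0 : Euc m)
    (t S R R' : ℝ) : Set (Euc m) :=
  {X | t⁻¹ • (S⁻¹ • X - X0) ∈ ball (0 : Euc m) R ∧
    (t * S)⁻¹ • psi q H (amb S u) X ∈ ball (0 : Euc m) R'}

theorem isOpen_reg {u : Euc m → Euc n} (du : Differentiable ℝ u) (X0 : Euc m)
    (t S R R' : ℝ) : IsOpen (reg q H u X0 t S R R') := by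
  have hc1 : Continuous (amb S u) := (differentiable_amb du).continuous
  have h1 : Continuous fun X : Euc m => t⁻¹ • (S⁻¹ • X - X0) :=
    ((continuous_id.const_smul S⁻¹).sub continuous_const).const_smul t⁻¹
  have h2' : Continuous (psi q H (amb S u)) :=
    H.continuous.comp (continuous_id.add ((adj q).continuous.comp hc1))
  have h2 : Continuous fun X : Euc m => (t * S)⁻¹ • psi q H (amb S u) X :=
    h2'.const_smul (t * S)⁻¹
  have e : reg q H u X0 t S R R' =
      (fun X : Euc m => t⁻¹ • (S⁻¹ • X - X0)) ⁻¹' ball (0 : Euc m) R ∩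
        (fun X : Euc m => (t * S)⁻¹ • psi q H (amb S u) X) ⁻¹' ball (0 : Euc m) R' := rfl
  rw [e]
  have h3 := (isOpen_ball (x := (0 : Euc m)) (ε := R)).preimage h1
  have h4 := (isOpen_ball (x := (0 : Euc m)) (ε := R')).preimage h2
  exact h3.inter h4

/-- **`Same` from the forward relation of the zoomed rotation** (`X0` = foot of the base point). -/
theorem same_of_fwd {u u' : Euc m → Euc n} {X0 : Euc m} {c : Euc n} {t R R' S : ℝ} (ht : 0 < t)
    (hS : 0 < S) (rt : Rt q H H') (du : Differentiable ℝ u) (du' : Differentiable ℝ u')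
    (h0 : X0 + adj q (u X0) = 0) (hc : c = t⁻¹ • H' (u X0 - q X0))
    (fwd : ∀ a ∈ ball (0 : Euc m) R, ∀ y ∈ ball (0 : Euc m) R',
      H (t • a + adj q (u (X0 + t • a) - u X0)) = t • y →
      u' y - c = t⁻¹ • H' ((u (X0 + t • a) - u X0) - q (t • a))) :
    Same q H H' (amb S u) (amb (t * S) u') (reg q H u X0 t S R R') where
  rt := rt
  opn := isOpen_reg du X0 t S R R'
  dw := differentiable_amb du
  dw' := differentiable_amb du'
  rel := by
    rintro X ⟨h1, h2⟩
    have hS0 := hS.ne'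
    have ht0 := ht.ne'
    set a := t⁻¹ • (S⁻¹ • X - X0) with ha
    set y := (t * S)⁻¹ • psi q H (amb S u) X with hy
    have ea : t • a = S⁻¹ • X - X0 := by rw [ha, smul_smul, mul_inv_cancel₀ ht0, one_smul]
    have eX : X0 + t • a = S⁻¹ • X := by rw [ea]; abel
    have ePsi : psi q H (amb S u) X = S • H (S⁻¹ • X + adj q (u (S⁻¹ • X))) := by
      unfold psi amb
      rw [← map_smul, smul_add, smul_smul, mul_inv_cancel₀ hS0, one_smul, map_smul]
    have e1 : H (t • a + adj q (u (X0 + t • a) - u X0)) = t • y := by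
      have e2 : t • a + adj q (u (X0 + t • a) - u X0) = S⁻¹ • X + adj q (u (S⁻¹ • X)) := by
        rw [eX, ea, map_sub]
        have : S⁻¹ • X - X0 + (adj q (u (S⁻¹ • X)) - adj q (u X0)) =
          S⁻¹ • X + adj q (u (S⁻¹ • X)) - (X0 + adj q (u X0)) := by abel
        rw [this, h0, sub_zero]
      rw [e2, hy, ePsi, smul_smul, smul_smul]
      have : t * (t * S)⁻¹ * S = 1 := by field_simp
      rw [this, one_smul]
    have h3 := fwd a h1 y h2 e1
    have h4 : u' y = t⁻¹ • H' (u (S⁻¹ • X) - q (S⁻¹ • X)) := by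
      have h5 : u' y = c + t⁻¹ • H' ((u (X0 + t • a) - u X0) - q (t • a)) := by
        rw [← h3]; abel
      rw [h5, hc, ← smul_add, ← map_add, eX, ea]
      congr 2
      rw [map_sub]; abel
    have h6 : amb (t * S) u' (psi q H (amb S u) X) = (t * S) • u' y := rfl
    rw [h6, h4, smul_smul]
    have h7 : t * S * t⁻¹ = S := by field_simp
    rw [h7]
    unfold amb
    rw [← map_smul, smul_sub]
    congr 2
    rw [← map_smul, smul_smul, mul_inv_cancel₀ hS0, one_smul]

/-- a ball inside the region -/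
theorem closedBall_subset_reg {u : Euc m → Euc n} {X0 : Euc m} {t R R' S b : ℝ} (ht : 0 < t)
    (hS : 0 < S) (rt : Rt q H H') (h1 : b + S * ‖X0‖ < t * S * R)
    (h2 : ∀ X, ‖X‖ ≤ b → b + ‖q‖ * ‖amb S u X‖ < t * S * R') :
    closedBall (0 : Euc m) b ⊆ reg q H u X0 t S R R' := by
  intro X hX
  rw [mem_closedBall_zero_iff] at hX
  constructor
  · rw [mem_ball_zero_iff, norm_smul, norm_inv, Real.norm_of_nonneg ht.le, inv_mul_lt_iff₀ ht]
    have e : S * ‖S⁻¹ • X - X0‖ ≤ b + S * ‖X0‖ := by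
      have h3 : ‖S⁻¹ • X - X0‖ ≤ S⁻¹ * ‖X‖ + ‖X0‖ := by
        refine (norm_sub_le _ _).trans ?_
        rw [norm_smul, norm_inv, Real.norm_of_nonneg hS.le]
      calc S * ‖S⁻¹ • X - X0‖ ≤ S * (S⁻¹ * ‖X‖ + ‖X0‖) := mul_le_mul_of_nonneg_left h3 hS.le
        _ = ‖X‖ + S * ‖X0‖ := by field_simp
        _ ≤ _ := by linarith
    have h4 : S * ‖S⁻¹ • X - X0‖ < S * (t * R) := by
      calc _ ≤ b + S * ‖X0‖ := e
        _ < t * S * R := h1
        _ = _ := by ring
    exact lt_of_mul_lt_mul_left h4 hS.le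
  · have hts : 0 < t * S := by positivity
    rw [mem_ball_zero_iff, norm_smul, norm_inv, Real.norm_of_nonneg hts.le,
      inv_mul_lt_iff₀ hts]
    refine lt_of_le_of_lt ?_ (h2 X hX)
    unfold psi
    refine (rt.le _).trans ((norm_add_le _ _).trans (add_le_add hX ?_))
    refine (ContinuousLinearMap.le_opNorm _ _).trans ?_
    rw [LinearIsometryEquiv.norm_map]

/-- the centre: `psi 0 = H (q† (w 0))` -/
theorem norm_psi_zero (rt : Rt q H H') (w : Euc m → Euc n) :
    ‖psi q H w 0‖ ≤ ‖q‖ * ‖w 0‖ := by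
  unfold psi
  rw [zero_add]
  refine (rt.le _).trans ((ContinuousLinearMap.le_opNorm _ _).trans ?_)
  rw [LinearIsometryEquiv.norm_map]

end Crest.Agent.R234.Swb_159
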