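import Crest.Agent.R234.Stp2_518
import Crest.Agent.R234.Swb7_159

/-!
# Row 234, node BLK-MEAN (helper842): heights and means of the rotated reference (part (d) of BlkP)

`RotMo M M' q H H' A`: `M'` is the same surface as `M` over `A`, in the rotated frame, other unit.
`RotMo.sup_le` : `SupLe`; `RotMo.meanK` : `MeanK`.
-/

set_option autoImplicit false
set_option linter.unusedSectionVars false

open MeasureTheory Filter Topology Set
open scoped ENNReal NNReal ContDiff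
open Crest.GeometryTopology.Submanifold Crest.Agent.R234.Vf_884
open Crest.Agent.R234.Main_456 (Frame Msys hgt)
open Crest.Agent.R234.Grot_842 Crest.Agent.R234.Stp_518
open Crest.Agent.R234.Gi_456 (Gr tube foot yy Kc)
open Crest.Agent.R234.Swb_159 (Same psi)

noncomputable section

namespace Crest.Agent.R234.Bmo_842

local notation "adj" => ContinuousLinearMap.adjoint

variable {m n k : ℕ}

/-- `M'` is `M` seen in the rotated frame -/
structure RotMo (M M' : Mo m n k) (q : Euc m →L[ℝ] Euc n) (H : Euc m →L[ℝ] Euc m)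
    (H' : Euc n →L[ℝ] Euc n) (A : Set (Euc m)) : Prop where
  fr : Frame M.π M.ρ
  eπ : M'.π = rπ M.π M.ρ q H
  eρ : M'.ρ = rρ M.π M.ρ q H'
  same : Same q H H' M.w M'.w A
  hq : ‖q‖ ≤ 1 / 8
  gr : Gr M.S M.w
  gr' : Gr M'.S M'.w
  w0 : ‖M.w 0‖ ≤ M.S / 8
  w0' : ‖M'.w 0‖ ≤ M'.S / 8

/-- the cylinder -/
def Wc (M : Mo m n k) (x : Euc k) (R : ℝ) : Set (Euc k × L k) :=
  {p | ‖M.π (p.1 - x)‖ ≤ M.S * R ∧ ‖M.ρ (p.1 - x)‖ ≤ M.S}

theorem measurableSet_Wc (M : Mo m n k) (x : Euc k) (R : ℝ) : MeasurableSet (Wc M x R) := by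
  have h1 : Continuous fun p : Euc k × L k => ‖M.π (p.1 - x)‖ :=
    (M.π.continuous.comp (continuous_fst.sub continuous_const)).norm
  have h2 : Continuous fun p : Euc k × L k => ‖M.ρ (p.1 - x)‖ :=
    (M.ρ.continuous.comp (continuous_fst.sub continuous_const)).norm
  exact ((isClosed_le h1 continuous_const).inter (isClosed_le h2 continuous_const)).measurableSet

namespace RotMo

variable {M M' : Mo m n k} {q : Euc m →L[ℝ] Euc n} {H : Euc m →L[ℝ] Euc m}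
  {H' : Euc n →L[ℝ] Euc n} {A : Set (Euc m)} (h : RotMo M M' q H H' A)
include h

theorem frame' : Frame M'.π M'.ρ := by
  rw [h.eπ, h.eρ]; exact frame_rot h.fr h.same.rt

/-- `|π' v - π v| ≤ 2 |q| |v|` -/
theorem π_sub (v : Euc k) : ‖M'.π v - M.π v‖ ≤ 2 * ‖q‖ * ‖v‖ := by
  rw [h.eπ]
  refine (norm_rπ_sub h.fr h.same.rt v).trans ?_
  have := h.hq
  have h0 := norm_nonneg q
  have : ‖q‖ ^ 2 + ‖q‖ ≤ 2 * ‖q‖ := by nlinarith
  gcongr

/-- the height in the rotated frame -/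
theorem hgt_sub {x z : Euc k} (hX : M.π (z - x) ∈ A) :
    ‖hgt M'.π M'.ρ x M'.S M'.u z - H' (hgt M.π M.ρ x M.S M.u z)‖ ≤
      ‖q‖ * ‖hgt M.π M.ρ x M.S M.u z‖ := by
  have e0 : hgt M'.π M'.ρ x M'.S M'.u z = M'.ρ (z - x) - M'.w (M'.π (z - x)) := rfl
  have e1 : hgt M.π M.ρ x M.S M.u z = M.ρ (z - x) - M.w (M.π (z - x)) := rfl
  set X := M.π (z - x) with hXd
  set hh := hgt M.π M.ρ x M.S M.u z with hhd
  have e2 : M.ρ (z - x) = M.w X + hh := by rw [e1]; abel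
  have e3 : M'.ρ (z - x) = M'.w (psi q H M.w X) + H' hh := by
    rw [h.same.rel X hX, h.eρ, rρ_apply, e2, ← hXd, ← map_add]
    congr 1
    abel
  have e4 : M'.π (z - x) = psi q H M.w X + H (adj q hh) := by
    rw [h.eπ, rπ_apply, e2, ← hXd, psi, ← map_add]
    congr 1
    rw [map_add]; abel
  have h1 := h.gr'.lip (psi q H M.w X) (psi q H M.w X + H (adj q hh))
  have h2 : ‖H (adj q hh)‖ ≤ ‖q‖ * ‖hh‖ := by
    refine (h.same.rt.le _).trans ((ContinuousLinearMap.le_opNorm _ _).trans ?_)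
    rw [LinearIsometryEquiv.norm_map]
  have h3 : psi q H M.w X - (psi q H M.w X + H (adj q hh)) = -H (adj q hh) := by abel
  rw [h3, norm_neg] at h1
  have h5 : 0 ≤ ‖q‖ * ‖hh‖ := by positivity
  rw [e0, e3, e4]
  have h4 : M'.w (psi q H M.w X) + H' hh - M'.w (psi q H M.w X + H (adj q hh)) - H' hh =
      M'.w (psi q H M.w X) - M'.w (psi q H M.w X + H (adj q hh)) := by abel
  rw [h4]
  linarith

theorem norm_hgt' {x z : Euc k} (hX : M.π (z - x) ∈ A) :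
    ‖hgt M'.π M'.ρ x M'.S M'.u z‖ ≤ 9 / 8 * ‖hgt M.π M.ρ x M.S M.u z‖ := by
  have h1 := h.hgt_sub hX
  have h2 := h.same.rt.le' (hgt M.π M.ρ x M.S M.u z)
  have h3 := norm_le_norm_add_norm_sub' (hgt M'.π M'.ρ x M'.S M'.u z)
    (H' (hgt M.π M.ρ x M.S M.u z))
  have h4 := h.hq
  have h5 := norm_nonneg (hgt M.π M.ρ x M.S M.u z)
  nlinarith

theorem sq_norm (v : Euc k) : ‖M.π v‖ ^ 2 + ‖M.ρ v‖ ^ 2 = ‖v‖ ^ 2 := fr_norm_sq h.fr v

theorem norm_le_of {v : Euc k} {a b : ℝ} (ha : ‖M.π v‖ ≤ a) (hb : ‖M.ρ v‖ ≤ b) : ‖v‖ ≤ a + b := by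
  have h1 := h.sq_norm v
  have h2 := norm_nonneg (M.π v)
  have h3 := norm_nonneg (M.ρ v)
  refine abs_le_of_sq_le_sq' ?_ (by linarith) |>.2
  nlinarith

theorem norm_le_of' {v : Euc k} {a b : ℝ} (ha : ‖M'.π v‖ ≤ a) (hb : ‖M'.ρ v‖ ≤ b) :
    ‖v‖ ≤ a + b := by
  have h1 := fr_norm_sq h.frame' v
  have h2 := norm_nonneg (M'.π v)
  have h3 := norm_nonneg (M'.ρ v)
  refine abs_le_of_sq_le_sq' ?_ (by linarith) |>.2
  nlinarith

/-- (R1) points of the cylinder with small heights are in the region -/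
theorem mem_reg {x z : Euc k} (hX : ‖M.π (z - x)‖ ≤ M.S)
    (hh : ‖hgt M.π M.ρ x M.S M.u z‖ ≤ M.S / 4) : z ∈ M.reg x := by
  have hS := M.S_pos
  have hz : z ∈ tube M.π M.ρ x M.S M.w := by
    show ‖hgt M.π M.ρ x M.S M.u z‖ < M.S
    linarith
  have h1 := h.gr.norm_foot_sub hz
  have h2 := h.gr.norm_yy_le hz
  have e : ‖M.ρ (z - x) - M.w (M.π (z - x))‖ = ‖hgt M.π M.ρ x M.S M.u z‖ := rfl
  rw [e] at h1 h2
  refine (h.gr.mem_Kc h.fr (by linarith)).2 ⟨hz, ?_, by linarith⟩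
  rw [sub_zero]
  have h3 := norm_le_norm_add_norm_sub' (foot M.π M.ρ x M.S M.w z) (M.π (z - x))
  linarith

/-- (R2) -/
theorem mem_reg' {x z : Euc k} (hX : ‖M'.π (z - x)‖ ≤ 3 / 2 * M'.S)
    (hh : ‖hgt M'.π M'.ρ x M'.S M'.u z‖ ≤ M'.S / 4) : z ∈ M'.reg x := by
  have hS := M'.S_pos
  have hz : z ∈ tube M'.π M'.ρ x M'.S M'.w := by
    show ‖hgt M'.π M'.ρ x M'.S M'.u z‖ < M'.S
    linarith
  have h1 := h.gr'.norm_foot_sub hz
  have h2 := h.gr'.norm_yy_le hz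
  have e : ‖M'.ρ (z - x) - M'.w (M'.π (z - x))‖ = ‖hgt M'.π M'.ρ x M'.S M'.u z‖ := rfl
  rw [e] at h1 h2
  refine (h.gr'.mem_Kc h.frame' (by linarith)).2 ⟨hz, ?_, by linarith⟩
  rw [sub_zero]
  have h3 := norm_le_norm_add_norm_sub' (foot M'.π M'.ρ x M'.S M'.w z) (M'.π (z - x))
  linarith

/-- (R4) -/
theorem ρ_le_of_reg {x z : Euc k} (hz : z ∈ M.reg x) (hX : ‖M.π (z - x)‖ ≤ M.S) :
    ‖M.ρ (z - x)‖ ≤ M.S := by
  have hS := M.S_pos
  obtain ⟨h1, -, h3⟩ := (h.gr.mem_Kc h.fr (by linarith)).1 hz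
  have h4 := h.gr.le_norm_yy h1
  have h5 := h.gr.lip (M.π (z - x)) 0
  rw [sub_zero] at h5
  have h6 := norm_le_norm_add_norm_sub' (M.w (M.π (z - x))) (M.w 0)
  have h7 := h.w0
  have h8 := norm_le_norm_add_norm_sub' (M.ρ (z - x)) (M.w (M.π (z - x)))
  linarith

/-- (R3) -/
theorem ρ'_le_of_reg {x z : Euc k} (hz : z ∈ M'.reg x) (hX : ‖M'.π (z - x)‖ ≤ M'.S) :
    ‖M'.ρ (z - x)‖ ≤ M'.S := by
  have hS := M'.S_pos
  obtain ⟨h1, -, h3⟩ := (h.gr'.mem_Kc h.frame' (by linarith)).1 hz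
  have h4 := h.gr'.le_norm_yy h1
  have h5 := h.gr'.lip (M'.π (z - x)) 0
  rw [sub_zero] at h5
  have h6 := norm_le_norm_add_norm_sub' (M'.w (M'.π (z - x))) (M'.w 0)
  have h7 := h.w0'
  have h8 := norm_le_norm_add_norm_sub' (M'.ρ (z - x)) (M'.w (M'.π (z - x)))
  linarith

/-- a point of the new cylinder is in the old one -/
theorem mem_Wc {x : Euc k} {p : Euc k × L k} {t R' R₂ : ℝ} (ht : M'.S = t * M.S)
    (ht2 : t ≤ 1 / 2) (ht0 : 0 < t) (hR' : R' ≤ 1) (hR : t * R' + 2 * ‖q‖ ≤ R₂)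
    (h1 : ‖M'.π (p.1 - x)‖ ≤ M'.S * R') (h2 : ‖M'.ρ (p.1 - x)‖ ≤ M'.S) : p ∈ Wc M x R₂ := by
  have hS := M.S_pos
  have hS' := M'.S_pos
  have h1' : ‖M'.π (p.1 - x)‖ ≤ M'.S := h1.trans (by nlinarith)
  have h3 := h.norm_le_of' h1' h2
  have h4 : ‖p.1 - x‖ ≤ M.S := by rw [ht] at h3; nlinarith
  have h5 := h.π_sub (p.1 - x)
  refine ⟨?_, (fr_norm_ρ h.fr _).trans h4⟩
  have h6 := norm_le_norm_add_norm_sub (M'.π (p.1 - x)) (M.π (p.1 - x))
  have h7 : 2 * ‖q‖ * ‖p.1 - x‖ ≤ 2 * ‖q‖ * M.S := by gcongr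
  rw [ht] at h1
  nlinarith

/-- **`SupLe` of the rotated reference** -/
theorem sup_le {x : Euc k} {V : Measure (Euc k × L k)} {t R' R₂ η η' : ℝ} (ht : M'.S = t * M.S)
    (ht2 : t ≤ 1 / 2) (ht0 : 0 < t) (hR' : R' ≤ 1) (hR : t * R' + 2 * ‖q‖ ≤ R₂)
    (hA : Metric.closedBall (0 : Euc m) (M.S * R₂) ⊆ A) (hη : SupLe M x V R₂ η)
    (hη' : 9 / 8 * η ≤ t * η') : SupLe M' x V R' η' := by
  filter_upwards [hη] with p hp h1 h2
  obtain ⟨h3, h4⟩ := h.mem_Wc ht ht2 ht0 hR' hR h1 h2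
  have h5 := hp h3 h4
  have h6 := h.norm_hgt' (hA (mem_closedBall_zero_iff.2 h3))
  have hS := M.S_pos
  calc _ ≤ 9 / 8 * ‖hgt M.π M.ρ x M.S M.u p.1‖ := h6
    _ ≤ 9 / 8 * (M.S * η) := by gcongr
    _ = M.S * (9 / 8 * η) := by ring
    _ ≤ M.S * (t * η') := by gcongr
    _ = M'.S * η' := by rw [ht]; ring

end RotMo

/-! ### test functions -/

theorem iter_scale {ζ : Euc m → ℝ} (hζ : ContDiff ℝ ∞ ζ) (c : ℝ) (j : ℕ) (z : Euc m) :
    ‖iteratedFDeriv ℝ j (fun y => ζ (c • y)) z‖ ≤ |c| ^ j * ‖iteratedFDeriv ℝ j ζ (c • z)‖ := by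
  have h1 : ContDiff ℝ j ζ := hζ.of_le (by exact_mod_cast le_top)
  rw [iteratedFDeriv_comp_const_smul c h1]
  show ‖c ^ j • iteratedFDeriv ℝ j ζ (c • z)‖ ≤ _
  rw [norm_smul, norm_pow, Real.norm_eq_abs]

theorem lip_of {ζ : Euc m → ℝ} (hζ : ContDiff ℝ ∞ ζ)
    (h1 : ∀ z, ‖iteratedFDeriv ℝ 1 ζ z‖ ≤ 1) (a b : Euc m) : |ζ a - ζ b| ≤ ‖a - b‖ := by
  have h := Convex.norm_image_sub_le_of_norm_fderiv_le (𝕜 := ℝ) (f := ζ) (s := univ) (C := 1)
    (fun z _ => (hζ.differentiable (by simp)) z) (fun z _ => by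
      have := h1 z
      rwa [← norm_iteratedFDeriv_fderiv, norm_iteratedFDeriv_zero] at this)
    convex_univ (mem_univ b) (mem_univ a)
  rwa [one_mul, Real.norm_eq_abs] at h

theorem continuous_hgt (M : Mo m n k) (x : Euc k) (hw : Continuous M.w) :
    Continuous fun p : Euc k × L k => hgt M.π M.ρ x M.S M.u p.1 := by
  have h1 : Continuous fun p : Euc k × L k => p.1 - x := continuous_fst.sub continuous_const
  exact (M.ρ.continuous.comp h1).sub (hw.comp (M.π.continuous.comp h1))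

theorem mean_smul (M : Mo m n k) (x : Euc k) (V : Measure (Euc k × L k)) (c : ℝ)
    (ζ : Euc m → ℝ) : M.mean x V (fun y => c * ζ y) = c • M.mean x V ζ := by
  unfold Mo.mean
  rw [← integral_smul]
  refine integral_congr_ae (ae_of_all _ fun p => ?_)
  simp only [smul_smul]

namespace RotMo

variable {M M' : Mo m n k} {q : Euc m →L[ℝ] Euc n} {H : Euc m →L[ℝ] Euc m}
  {H' : Euc n →L[ℝ] Euc n} {A : Set (Euc m)} (h : RotMo M M' q H H' A)
include h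

/-- **`MeanK` of the rotated reference** -/
theorem meanK {x : Euc k} {V : Measure (Euc k × L k)} {Ks : ℕ} (hKs : 1 ≤ Ks)
    {t R R' R₂ σ τ Λ : ℝ} (ht : M'.S = t * M.S) (ht2 : t ≤ 1 / 2) (ht0 : 0 < t) (hR' : R' ≤ 1)
    (hR : t * R' + 2 * ‖q‖ ≤ R₂) (hR1 : R₂ ≤ 1) (hRt : R₂ + 4 * ‖q‖ ≤ 3 / 2 * t)
    (htR : t * R' ≤ R) (hA : Metric.closedBall (0 : Euc m) (M.S * R₂) ⊆ A)
    (hσ : ∀ᵐ p ∂V, p ∈ Wc M x R₂ → ‖hgt M.π M.ρ x M.S M.u p.1‖ ≤ σ) (hσ0 : 0 ≤ σ)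
    (hσS : σ ≤ M'.S / 8)
    (hV : V (Wc M x R₂) ≠ ⊤) (hΛ : V.real (Wc M x R₂) ≤ Λ * M.S ^ m)
    (hτ : MeanK Ks M x V R τ) :
    MeanK Ks M' x V R' (t⁻¹ ^ (m + Ks) * τ + 9 * t⁻¹ ^ (m + 1) * ‖q‖ * σ * Λ) := by
  intro ζ hζ hζs hζb
  have hS := M.S_pos
  have hS' := M'.S_pos
  have hq0 := norm_nonneg q
  -- the two integrands
  set F' : Euc k × L k → Euc n := fun p =>
    ζ (M'.S⁻¹ • M'.π (p.1 - x)) • hgt M'.π M'.ρ x M'.S M'.u p.1 with hF'
  set ζ2 : Euc m → ℝ := fun y => ζ (t⁻¹ • y) with hζ2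
  set F : Euc k × L k → Euc n := fun p =>
    ζ2 (M.S⁻¹ • M.π (p.1 - x)) • hgt M.π M.ρ x M.S M.u p.1 with hF
  set W := Wc M x R₂ with hW
  have hWm : MeasurableSet W := measurableSet_Wc M x R₂
  have hζ0 : ∀ y, |ζ y| ≤ 1 := fun y => by
    have := hζb 0 (by omega) y
    rwa [norm_iteratedFDeriv_zero, Real.norm_eq_abs] at this
  have hζl := lip_of hζ (hζb 1 hKs)
  have hζz : ∀ y, ζ y ≠ 0 → ‖y‖ < R' := fun y hy =>
    mem_ball_zero_iff.1 (hζs (subset_tsupport _ hy))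
  have htS : σ ≤ M.S / 8 := by rw [ht] at hσS; nlinarith
  -- facts on `W`
  have hWf : ∀ p ∈ W, M.π (p.1 - x) ∈ A := fun p hp => hA (mem_closedBall_zero_iff.2 hp.1)
  have hWn : ∀ p ∈ W, ‖p.1 - x‖ ≤ 2 * M.S := fun p hp => by
    have := h.norm_le_of hp.1 hp.2
    nlinarith
  have hWπ : ∀ p ∈ W, ‖M'.π (p.1 - x)‖ ≤ 3 / 2 * M'.S := fun p hp => by
    have h1 := h.π_sub (p.1 - x)
    have h2 := norm_le_norm_add_norm_sub' (M'.π (p.1 - x)) (M.π (p.1 - x))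
    have h3 : 2 * ‖q‖ * ‖p.1 - x‖ ≤ 2 * ‖q‖ * (2 * M.S) := by
      have := hWn p hp
      gcongr
    have h4 := hp.1
    rw [ht]
    nlinarith
  -- (1)
  have e1 : M'.mean x V ζ = ∫ p in W, F' p ∂V := by
    have hreg : MeasurableSet (M'.reg x ×ˢ (univ : Set (L k))) :=
      ((h.gr'.isCompact_Kc 0 _ _).isClosed.measurableSet).prod MeasurableSet.univ
    unfold Mo.mean
    rw [← integral_indicator hreg, ← integral_indicator hWm]
    refine integral_congr_ae ?_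
    filter_upwards [hσ] with p hp
    by_cases hpW : p ∈ W
    · have h1 := hp hpW
      have h2 := h.norm_hgt' (hWf p hpW)
      have h3 : p ∈ M'.reg x ×ˢ (univ : Set (L k)) :=
        ⟨h.mem_reg' (hWπ p hpW) (by linarith), mem_univ _⟩
      rw [indicator_of_mem hpW, indicator_of_mem h3]
    · rw [indicator_of_notMem hpW]
      by_cases h3 : p ∈ M'.reg x ×ˢ (univ : Set (L k))
      · rw [indicator_of_mem h3]
        by_cases h4 : ζ (M'.S⁻¹ • M'.π (p.1 - x)) = 0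
        · rw [h4, zero_smul]
        · exfalso
          have h5 := hζz _ h4
          rw [norm_smul, norm_inv, Real.norm_of_nonneg hS'.le, inv_mul_lt_iff₀ hS'] at h5
          have h6 : ‖M'.π (p.1 - x)‖ ≤ M'.S := by nlinarith
          exact hpW (h.mem_Wc ht ht2 ht0 hR' hR h5.le (h.ρ'_le_of_reg h3.1 h6))
      · rw [indicator_of_notMem h3]
  -- (2)
  have e2 : M.mean x V ζ2 = ∫ p in W, F p ∂V := by
    have hreg : MeasurableSet (M.reg x ×ˢ (univ : Set (L k))) :=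
      ((h.gr.isCompact_Kc 0 _ _).isClosed.measurableSet).prod MeasurableSet.univ
    unfold Mo.mean
    rw [← integral_indicator hreg, ← integral_indicator hWm]
    refine integral_congr_ae ?_
    filter_upwards [hσ] with p hp
    by_cases hpW : p ∈ W
    · have h1 := hp hpW
      have h3 : p ∈ M.reg x ×ˢ (univ : Set (L k)) :=
        ⟨h.mem_reg (hpW.1.trans (by nlinarith)) (by linarith), mem_univ _⟩
      rw [indicator_of_mem hpW, indicator_of_mem h3]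
    · rw [indicator_of_notMem hpW]
      by_cases h3 : p ∈ M.reg x ×ˢ (univ : Set (L k))
      · rw [indicator_of_mem h3]
        by_cases h4 : ζ2 (M.S⁻¹ • M.π (p.1 - x)) = 0
        · rw [h4, zero_smul]
        · exfalso
          have h5 := hζz _ h4
          rw [norm_smul, norm_inv, Real.norm_of_nonneg ht0.le, inv_mul_lt_iff₀ ht0, norm_smul,
            norm_inv, Real.norm_of_nonneg hS.le, inv_mul_lt_iff₀ hS] at h5
          have h6 : ‖M.π (p.1 - x)‖ ≤ M.S * R₂ := by nlinarith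
          exact hpW ⟨h6, h.ρ_le_of_reg h3.1 (h6.trans (by nlinarith))⟩
      · rw [indicator_of_notMem h3]
  -- integrability
  have hwc : Continuous M.w := h.gr.cd.continuous
  have hwc' : Continuous M'.w := h.gr'.cd.continuous
  have hVW : IsFiniteMeasure (V.restrict W) := ⟨by
    rw [Measure.restrict_apply_univ]; exact hV.lt_top⟩
  have hcp : Continuous fun p : Euc k × L k => p.1 - x := continuous_fst.sub continuous_const
  have cF : Continuous F := by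
    have c1 : Continuous fun p : Euc k × L k => ζ (t⁻¹ • M.S⁻¹ • M.π (p.1 - x)) :=
      hζ.continuous.comp (((M.π.continuous.comp hcp).const_smul M.S⁻¹).const_smul t⁻¹)
    exact c1.smul (continuous_hgt M x hwc)
  have cF' : Continuous F' := by
    have c1 : Continuous fun p : Euc k × L k => ζ (M'.S⁻¹ • M'.π (p.1 - x)) :=
      hζ.continuous.comp ((M'.π.continuous.comp hcp).const_smul M'.S⁻¹)
    exact c1.smul (continuous_hgt M' x hwc')
  have bF : ∀ᵐ p ∂(V.restrict W), ‖F p‖ ≤ σ := by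
    refine (ae_restrict_iff' hWm).2 ?_
    filter_upwards [hσ] with p hp hpW
    have h1 := hp hpW
    rw [hF, norm_smul]
    have h2 := hζ0 (t⁻¹ • M.S⁻¹ • M.π (p.1 - x))
    have h3 := norm_nonneg (hgt M.π M.ρ x M.S M.u p.1)
    rw [← Real.norm_eq_abs] at h2
    calc _ ≤ 1 * ‖hgt M.π M.ρ x M.S M.u p.1‖ := by gcongr
      _ ≤ σ := by linarith
  have bF' : ∀ᵐ p ∂(V.restrict W), ‖F' p‖ ≤ 9 / 8 * σ := by
    refine (ae_restrict_iff' hWm).2 ?_
    filter_upwards [hσ] with p hp hpW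
    have h1 := hp hpW
    have h4 := h.norm_hgt' (hWf p hpW)
    rw [hF', norm_smul]
    have h2 := hζ0 (M'.S⁻¹ • M'.π (p.1 - x))
    rw [← Real.norm_eq_abs] at h2
    calc _ ≤ 1 * ‖hgt M'.π M'.ρ x M'.S M'.u p.1‖ := by gcongr
      _ ≤ 9 / 8 * σ := by linarith
  have iF : Integrable F (V.restrict W) :=
    Integrable.mono' (integrable_const σ) cF.aestronglyMeasurable bF
  have iF' : Integrable F' (V.restrict W) :=
    Integrable.mono' (integrable_const (9 / 8 * σ)) cF'.aestronglyMeasurable bF'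
  -- (3)
  have e3 : (∫ p in W, F' p ∂V) - H' (∫ p in W, F p ∂V) = ∫ p in W, (F' p - H' (F p)) ∂V := by
    rw [integral_sub iF' (H'.integrable_comp iF), H'.integral_comp_comm iF]
  have hptw : ∀ᵐ p ∂(V.restrict W), ‖F' p - H' (F p)‖ ≤ 9 * ‖q‖ * σ * t⁻¹ := by
    refine (ae_restrict_iff' hWm).2 ?_
    filter_upwards [hσ] with p hp hpW
    have h1 := hp hpW
    have hA' := hWf p hpW
    have h4 := h.norm_hgt' hA'
    have h5 := h.hgt_sub hA'
    have h0 := norm_nonneg (hgt M.π M.ρ x M.S M.u p.1)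
    have e : F' p - H' (F p) = (ζ (M'.S⁻¹ • M'.π (p.1 - x)) - ζ (t⁻¹ • M.S⁻¹ • M.π (p.1 - x))) •
        hgt M'.π M'.ρ x M'.S M'.u p.1 + ζ (t⁻¹ • M.S⁻¹ • M.π (p.1 - x)) •
        (hgt M'.π M'.ρ x M'.S M'.u p.1 - H' (hgt M.π M.ρ x M.S M.u p.1)) := by
      simp only [hF', hF, hζ2, map_smul, sub_smul, smul_sub]
      abel
    rw [e]
    have h6 : |ζ (M'.S⁻¹ • M'.π (p.1 - x)) - ζ (t⁻¹ • M.S⁻¹ • M.π (p.1 - x))| ≤ 4 * ‖q‖ * t⁻¹ := by
      refine (hζl _ _).trans ?_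
      have e5 : t⁻¹ • M.S⁻¹ • M.π (p.1 - x) = M'.S⁻¹ • M.π (p.1 - x) := by
        rw [smul_smul, ht, mul_inv]
      rw [e5, ← smul_sub, norm_smul, norm_inv, Real.norm_of_nonneg hS'.le]
      have h7 := h.π_sub (p.1 - x)
      have h8 := hWn p hpW
      calc M'.S⁻¹ * ‖M'.π (p.1 - x) - M.π (p.1 - x)‖ ≤ M'.S⁻¹ * (2 * ‖q‖ * (2 * M.S)) := by
            gcongr
            exact h7.trans (by gcongr)
        _ = 4 * ‖q‖ * t⁻¹ := by rw [ht]; field_simp; ring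
    have hti : 1 ≤ t⁻¹ := by rw [one_le_inv₀ ht0]; linarith
    have h9 := hζ0 (t⁻¹ • M.S⁻¹ • M.π (p.1 - x))
    have hσ0 : 0 ≤ σ := h0.trans h1
    refine (norm_add_le _ _).trans ?_
    rw [norm_smul, norm_smul, Real.norm_eq_abs, Real.norm_eq_abs]
    calc _ ≤ (4 * ‖q‖ * t⁻¹) * (9 / 8 * σ) + 1 * (‖q‖ * σ) := by
          refine add_le_add (mul_le_mul h6 (by linarith) (norm_nonneg _) (by positivity))
            (mul_le_mul h9 (h5.trans (by gcongr)) (norm_nonneg _) zero_le_one)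
      _ ≤ 9 * ‖q‖ * σ * t⁻¹ := by
          have h10 : ‖q‖ * σ * 1 ≤ ‖q‖ * σ * t⁻¹ := by gcongr
          nlinarith
  have h11 : ‖∫ p in W, (F' p - H' (F p)) ∂V‖ ≤ 9 * ‖q‖ * σ * t⁻¹ * V.real W := by
    have := norm_integral_le_of_norm_le_const hptw
    rwa [measureReal_restrict_apply_univ] at this
  -- (4)
  set ζ3 : Euc m → ℝ := fun y => t ^ Ks * ζ2 y with hζ3
  have hζ2s : ContDiff ℝ ∞ ζ2 := hζ.comp (contDiff_const_smul t⁻¹)
  have htin : 0 < t⁻¹ := inv_pos.2 ht0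
  have hti : 1 ≤ t⁻¹ := by rw [one_le_inv₀ ht0]; linarith
  have h12 : ‖M.mean x V ζ3‖ ≤ M.S ^ m * τ := by
    refine hτ ζ3 (contDiff_const.mul hζ2s) ?_ ?_
    · have h13 : tsupport ζ3 ⊆ Metric.closedBall 0 (t * R') ∩ tsupport ζ3 := by
        refine fun y hy => ⟨?_, hy⟩
        have h14 : Function.support ζ3 ⊆ Metric.closedBall 0 (t * R') := by
          intro y hy
          have h15 : ζ2 y ≠ 0 := fun h0 => hy (by simp [hζ3, h0])
          have h16 := hζz _ h15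
          rw [norm_smul, norm_inv, Real.norm_of_nonneg ht0.le, inv_mul_lt_iff₀ ht0] at h16
          exact mem_closedBall_zero_iff.2 h16.le
        exact (Metric.isClosed_closedBall.closure_subset_iff.2 h14) hy
      -- strict support
      intro y hy
      have h17 : t⁻¹ • y ∈ tsupport ζ := by
        have hc : Continuous fun y : Euc m => t⁻¹ • y := continuous_const_smul t⁻¹
        have h18 : Function.support ζ3 ⊆ (fun y : Euc m => t⁻¹ • y) ⁻¹' tsupport ζ := by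
          intro y hy
          have h15 : ζ (t⁻¹ • y) ≠ 0 := fun h0 => hy (by simp [hζ3, hζ2, h0])
          exact subset_tsupport _ h15
        exact ((isClosed_tsupport ζ).preimage hc).closure_subset_iff.2 h18 hy
      have h19 := mem_ball_zero_iff.1 (hζs h17)
      rw [norm_smul, norm_inv, Real.norm_of_nonneg ht0.le, inv_mul_lt_iff₀ ht0] at h19
      exact mem_ball_zero_iff.2 (h19.trans_le htR)
    · intro j hj z
      have h20 : ContDiffAt ℝ j ζ2 z := (hζ2s.of_le (by exact_mod_cast le_top)).contDiffAt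
      have e6 : iteratedFDeriv ℝ j ζ3 z = t ^ Ks • iteratedFDeriv ℝ j ζ2 z := by
        have : ζ3 = t ^ Ks • ζ2 := by funext y; simp [hζ3]
        rw [this]
        exact iteratedFDeriv_const_smul_apply h20
      rw [e6, norm_smul, Real.norm_of_nonneg (by positivity)]
      have h21 := iter_scale hζ t⁻¹ j z
      rw [abs_of_pos htin] at h21
      have h22 := hζb j hj (t⁻¹ • z)
      calc t ^ Ks * ‖iteratedFDeriv ℝ j ζ2 z‖ ≤ t ^ Ks * (t⁻¹ ^ j * 1) := by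
            gcongr
            exact h21.trans (by gcongr)
        _ ≤ t ^ Ks * (t⁻¹ ^ Ks * 1) := by gcongr
        _ = 1 := by rw [mul_one, ← mul_pow, mul_inv_cancel₀ ht0.ne', one_pow]
  have h23 : ‖M.mean x V ζ2‖ ≤ t⁻¹ ^ Ks * (M.S ^ m * τ) := by
    have e7 : M.mean x V ζ3 = t ^ Ks • M.mean x V ζ2 := mean_smul M x V (t ^ Ks) ζ2
    rw [e7, norm_smul, Real.norm_of_nonneg (by positivity)] at h12
    calc ‖M.mean x V ζ2‖ = t⁻¹ ^ Ks * (t ^ Ks * ‖M.mean x V ζ2‖) := by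
          rw [← mul_assoc, ← mul_pow, inv_mul_cancel₀ ht0.ne', one_pow, one_mul]
      _ ≤ _ := by gcongr
  have h24 : ‖M'.mean x V ζ‖ ≤ ‖M.mean x V ζ2‖ + 9 * ‖q‖ * σ * t⁻¹ * V.real W := by
    have e8 : M'.mean x V ζ = H' (∫ p in W, F p ∂V) + ∫ p in W, (F' p - H' (F p)) ∂V := by
      rw [e1, ← e3]; abel
    rw [e8]
    refine (norm_add_le _ _).trans (add_le_add ?_ h11)
    rw [e2]
    exact h.same.rt.le' _
  have h25 : 9 * ‖q‖ * σ * t⁻¹ * V.real W ≤ 9 * ‖q‖ * σ * t⁻¹ * (Λ * M.S ^ m) := by gcongr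
  have e9 : M'.S ^ m * (t⁻¹ ^ (m + Ks) * τ + 9 * t⁻¹ ^ (m + 1) * ‖q‖ * σ * Λ) =
      t⁻¹ ^ Ks * (M.S ^ m * τ) + 9 * ‖q‖ * σ * t⁻¹ * (Λ * M.S ^ m) := by
    rw [ht, mul_pow, pow_add, pow_add, pow_one]
    have h26 : t ^ m * t⁻¹ ^ m = 1 := by
      rw [← mul_pow, mul_inv_cancel₀ ht0.ne', one_pow]
    calc t ^ m * M.S ^ m * (t⁻¹ ^ m * t⁻¹ ^ Ks * τ + 9 * (t⁻¹ ^ m * t⁻¹) * ‖q‖ * σ * Λ) =
        (t ^ m * t⁻¹ ^ m) * (t⁻¹ ^ Ks * (M.S ^ m * τ) + 9 * ‖q‖ * σ * t⁻¹ * (Λ * M.S ^ m)) := by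
          ring
      _ = _ := by rw [h26, one_mul]
  rw [e9]
  linarith

end RotMo

end Crest.Agent.R234.Bmo_842
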