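import Crest.Agent.R234.Bmo1_842

/-!
# Row 234, node BLK-MEAN (helper842), part 2: mass of the cylinder from the flat package
-/

set_option autoImplicit false

open MeasureTheory Filter Topology Set
open scoped ENNReal NNReal ContDiff
open Crest.GeometryTopology.Submanifold Crest.Agent.R234.Vf_884
open Crest.Agent.R234.Stp_518

noncomputable section

namespace Crest.Agent.R234.Bmo_842

variable {m n k : ℕ}

/-- **mass of the cylinder** -/
theorem mass_Wc {D : VarifoldData m k} {x : Euc k} {Q : ℕ} {ε Λ : ℝ} {M : Mo m n k}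
    (h : Top_395.FlatPack D x Q M.S ε Λ M.π M.ρ) {R : ℝ} (hR : R ≤ 2) :
    VD D (Wc M x R) ≤ ENNReal.ofReal (Λ * M.S ^ m) := by
  have hS := M.S_pos
  have h1 := h.mass_le R hR
  have hm : MeasurableSet (Cy_870.cyl M.π M.ρ 0 R 1 ×ˢ (univ : Set (L k))) :=
    (Cy_870.isClosed_cyl M.π M.ρ 0 R 1).measurableSet.prod MeasurableSet.univ
  rw [Top_395.wz, Measure.restrict_apply_univ, Vc_164.resc, Measure.smul_apply, smul_eq_mul,
    Measure.map_apply (Vc_164.measurable_hom x M.S) hm] at h1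
  have e : Vc_164.hom x M.S ⁻¹' (Cy_870.cyl M.π M.ρ 0 R 1 ×ˢ (univ : Set (L k))) = Wc M x R := by
    ext p
    simp only [Vc_164.hom, Cy_870.cyl, Wc, mem_preimage, mem_prod, mem_ofPred_eq, mem_univ,
      and_true, map_smul, sub_zero, norm_smul, norm_inv, Real.norm_of_nonneg hS.le]
    rw [inv_mul_le_iff₀ hS, inv_mul_le_iff₀ hS, mul_one]
  rw [e] at h1
  have hp : 0 < M.S ^ m := by positivity
  have h2 : ENNReal.ofReal (M.S ^ m) * (ENNReal.ofReal ((M.S ^ m)⁻¹) * VD D (Wc M x R)) ≤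
      ENNReal.ofReal (M.S ^ m) * ENNReal.ofReal Λ := by gcongr
  rw [← mul_assoc, ← ENNReal.ofReal_mul hp.le, mul_inv_cancel₀ hp.ne', ENNReal.ofReal_one,
    one_mul, ← ENNReal.ofReal_mul hp.le, mul_comm (M.S ^ m)] at h2
  exact h2

theorem mass_Wc_ne {D : VarifoldData m k} {x : Euc k} {Q : ℕ} {ε Λ : ℝ} {M : Mo m n k}
    (h : Top_395.FlatPack D x Q M.S ε Λ M.π M.ρ) {R : ℝ} (hR : R ≤ 2) :
    VD D (Wc M x R) ≠ ⊤ := ((mass_Wc h hR).trans_lt ENNReal.ofReal_lt_top).ne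

theorem mass_Wc_real {D : VarifoldData m k} {x : Euc k} {Q : ℕ} {ε Λ : ℝ} {M : Mo m n k}
    (h : Top_395.FlatPack D x Q M.S ε Λ M.π M.ρ) {R : ℝ} (hR : R ≤ 2) :
    (VD D).real (Wc M x R) ≤ max Λ 0 * M.S ^ m := by
  have hS := M.S_pos
  have h1 := mass_Wc h hR
  refine ENNReal.toReal_le_of_le_ofReal (by positivity) (h1.trans ?_)
  refine ENNReal.ofReal_le_ofReal ?_
  gcongr
  exact le_max_left _ _

end Crest.Agent.R234.Bmo_842
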