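import Crest.Agent.R234.Bmo2_842

/-!
# Row 234, node BLK-MEAN (helper842), part 3: part (d) of `BlkP` in the numbers of `BlkP`

`blk_d : SupP → ...`: `SupLe` and `MeanK` of the rotated reference.
-/

set_option autoImplicit false

open MeasureTheory Filter Topology Set
open scoped ENNReal NNReal ContDiff
open Crest.GeometryTopology.Submanifold Crest.Agent.R234.Vf_884
open Crest.Agent.R234.Main_456 (Frame Msys hgt)
open Crest.Agent.R234.MG_570 (MG)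
open Crest.Agent.R234.Stp_518

noncomputable section

namespace Crest.Agent.R234.Bmo_842

variable {m n k : ℕ}

theorem supLe_mono {M : Mo m n k} {x : Euc k} {V : Measure (Euc k × L k)} {R R' η η' : ℝ}
    (h : SupLe M x V R η) (hR : R' ≤ R) (hη : η ≤ η') : SupLe M x V R' η' := by
  have hS := M.S_pos
  filter_upwards [h] with p hp h1 h2
  exact (hp (h1.trans (by gcongr)) h2).trans (by gcongr)

theorem meanK_mono {M : Mo m n k} {x : Euc k} {V : Measure (Euc k × L k)} {Ks : ℕ}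
    {R R' τ τ' : ℝ} (h : MeanK Ks M x V R τ) (hR : R' ≤ R) (hτ : τ ≤ τ') :
    MeanK Ks M x V R' τ' := by
  have hS := M.S_pos
  intro ζ h1 h2 h3
  exact (h ζ h1 (h2.trans (Metric.ball_subset_ball hR)) h3).trans (by gcongr)

/-- `√(I l) = e^(l - Λ/2)` -/
theorem sqrt_I {I : ℝ → ℝ} {l : ℝ} (h : 0 < I l) :
    √(I l) = Real.exp (l - lam I l / 2) := by
  have h1 : I l = Real.exp (l - lam I l / 2) ^ 2 := by
    rw [← Real.exp_nat_mul]
    have : ((2 : ℕ) : ℝ) * (l - lam I l / 2) = Real.log (I l) := by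
      unfold lam; push_cast; ring
    rw [this, Real.exp_log h]
  rw [h1, Real.sqrt_sq (Real.exp_pos _).le]

/-- eventually `A L^p e^(-c L) ≤ δ` -/
theorem ev_exp (A : ℝ) (p : ℕ) {c δ : ℝ} (hc : 0 < c) (hδ : 0 < δ) :
    ∃ L₀ : ℝ, ∀ L, L₀ ≤ L → A * L ^ p * Real.exp (-(c * L)) ≤ δ := by
  have h1 := Real.tendsto_pow_mul_exp_neg_atTop_nhds_zero p
  have h2 : Tendsto (fun L : ℝ => c * L) atTop atTop := tendsto_id.const_mul_atTop hc
  have h3 := (h1.comp h2).const_mul (A * (c ^ p)⁻¹)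
  rw [mul_zero] at h3
  have h4 : ∀ᶠ L : ℝ in atTop, A * (c ^ p)⁻¹ * ((fun x : ℝ => x ^ p * Real.exp (-x)) ∘
      fun L => c * L) L < δ := h3.eventually_lt_const hδ
  obtain ⟨L₀, hL⟩ := eventually_atTop.1 h4
  refine ⟨L₀, fun L h => ?_⟩
  have h5 := (hL L h).le
  simp only [Function.comp_apply, mul_pow] at h5
  have hcp : c ^ p ≠ 0 := (pow_pos hc p).ne'
  calc A * L ^ p * Real.exp (-(c * L)) =
      A * (c ^ p)⁻¹ * (c ^ p * L ^ p * Real.exp (-(c * L))) := by field_simp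
    _ ≤ δ := h5

set_option maxHeartbeats 2000000 in
/-- **part (d) of `BlkP`** -/
theorem blk_d (hSup : SupP) (m n Q : ℕ) (hm : 3 ≤ m) (hn : 1 ≤ n) (hQ : 1 ≤ Q) : ∃ N₀ : ℕ,
    ∀ N : ℕ, N₀ ≤ N → ∀ (Ks q : ℕ) (T Λ G : ℝ), 1 ≤ Ks → 2 ≤ T → ∃ q₁ : ℕ, ∃ κ₀ ε L₁ : ℝ,
    0 < κ₀ ∧ 0 < ε ∧
    ∀ (U : Set (Euc (m + n))) (D : VarifoldData m (m + n)) (x : Euc (m + n))
      (M : Mo m n (m + n)) (l K θ : ℝ),
      Sit U D Q x M ε Λ → 0 ≤ M.κ → M.κ ≤ κ₀ →
      MG N M.κ (Real.exp (l + 1 / K - M.lb) * (1 + 1 / (8 * K))) M.u →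
      0 ≤ θ → θ ≤ 2 * (lam (M.I x (VD D)) l ^ q₁)⁻¹ →
      ‖fderiv ℝ M.u 0‖ ≤ θ →
      32 ≤ K → K ≤ 2 * lam (M.I x (VD D)) l ^ 2 → M.lb - T ≤ l → l ≤ M.lb - T + 1 →
      0 < M.I x (VD D) l → L₁ ≤ lam (M.I x (VD D)) l →
      Real.log (M.I x (VD D) (l + 1 / K)) ≤ Real.log (M.I x (VD D) l) + G →
      SupLe M x (VD D) (Real.exp (l + 1 / K - M.lb) * (1 + 1 / (8 * K)))
        (Real.exp (-(lam (M.I x (VD D)) l / 4))) →
      MeanK Ks M x (VD D) (Real.exp (l + 1 / K - M.lb) * (1 + 1 / (8 * K)))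
        (θ * √(M.I x (VD D) l)) →
      ∀ (M' : Mo m n (m + n)) (q' : Euc m →L[ℝ] Euc n) (H : Euc m →L[ℝ] Euc m)
        (H' : Euc n →L[ℝ] Euc n) (A : Set (Euc m)),
      RotMo M M' q' H H' A → M'.lb = l - 2 / K + 1 / 8 → ‖q'‖ ≤ θ →
      Metric.closedBall (0 : Euc m) (Real.exp (l + 7 / (8 * K))) ⊆ A →
        SupLe M' x (VD D) (Real.exp (l + 3 / (4 * K) - M'.lb))
          (Real.exp (-(lam (M.I x (VD D)) l / 5))) ∧
        MeanK Ks M' x (VD D) (Real.exp (l + 3 / (4 * K) - M'.lb))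
          ((lam (M.I x (VD D)) l ^ q)⁻¹ * √(M.I x (VD D) l)) := by
  obtain ⟨N₀, hN₀⟩ := hSup m n Q hm hn hQ
  refine ⟨N₀, fun N hN Ks q T Λ G hKs hT => ?_⟩
  obtain ⟨C, κs, ε, hC, hκs, hε, hS⟩ := hN₀ N hN (T + 1) Λ
  -- constants
  set A0 : ℝ := √(C * Real.exp G * 16 ^ (m + 2)) with hA0
  set Λ' : ℝ := max Λ 0 with hΛ'
  have hA00 : 0 ≤ A0 := Real.sqrt_nonneg _
  have hΛ0 : 0 ≤ Λ' := le_max_right _ _
  set a1 : ℝ := 2 * Real.exp T ^ (m + Ks) with ha1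
  set a2 : ℝ := 18 * Real.exp T ^ (m + 1) * A0 * Λ' with ha2
  have ha10 : 0 ≤ a1 := by positivity
  have ha20 : 0 ≤ a2 := by positivity
  obtain ⟨La, hLa⟩ := ev_exp A0 (m + 2) (c := 1 / 2) (δ := 1 / 8) (by norm_num) (by norm_num)
  obtain ⟨Lb, hLb⟩ := ev_exp 16 2 (c := 1 / 4) (δ := κs) (by norm_num) hκs
  refine ⟨q + m + 3, κs, ε, max (max (max 1 (a1 + a2)) (max (128 * Real.exp T) (32 / κs)))
    (max (max La Lb) (20 * (T + 1))), hκs, hε, ?_⟩
  intro U D x M l K θ hSit hκ0 hκ hMG hθ0 hθ hdu hK32 hKL hl1 hl2 hI hL₁ hG hsup hmean M' q' H H' A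
    hR hlb hq' hA
  set Lm := lam (M.I x (VD D)) l with hLm
  have b1 : 1 ≤ Lm := le_trans (by simp) hL₁
  have b2 : a1 + a2 ≤ Lm := le_trans (by simp) hL₁
  have b3 : 128 * Real.exp T ≤ Lm := le_trans (by simp) hL₁
  have b4 : 32 / κs ≤ Lm := le_trans (by simp) hL₁
  have b5 : La ≤ Lm := le_trans (by simp) hL₁
  have b6 : Lb ≤ Lm := le_trans (by simp) hL₁
  have b7 : 20 * (T + 1) ≤ Lm := le_trans (by simp) hL₁
  have hLm0 : 0 < Lm := by linarith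
  have hK0 : 0 < K := by linarith
  have hKi : 1 / K ≤ 1 / 32 := one_div_le_one_div_of_le (by norm_num) hK32
  have hKi0 : 0 < 1 / K := by positivity
  have eK2 : 2 / K = 2 * (1 / K) := by ring
  have eK3 : 3 / (4 * K) = 3 / 4 * (1 / K) := by field_simp
  have eK7 : 7 / (8 * K) = 7 / 8 * (1 / K) := by field_simp
  have eK8 : 1 / (8 * K) = 1 / 8 * (1 / K) := by field_simp
  -- the ratio of the units
  set t : ℝ := Real.exp (M'.lb - M.lb) with htd
  have ht0 : 0 < t := Real.exp_pos _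
  have ht : M'.S = t * M.S := by
    show Real.exp M'.lb = Real.exp (M'.lb - M.lb) * Real.exp M.lb
    rw [← Real.exp_add]; congr 1; ring
  have htT : Real.exp (-T) ≤ t := by
    refine Real.exp_le_exp.2 ?_
    rw [hlb, eK2]; linarith
  have hexp2 : (2 : ℝ) ≤ Real.exp (7 / 8) := by
    have := Real.add_one_le_exp (7 / 16 : ℝ)
    have h2 : Real.exp (7 / 8) = Real.exp (7 / 16) ^ 2 := by
      rw [← Real.exp_nat_mul]; congr 1; norm_num
    rw [h2]; nlinarith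
  have ht2 : t ≤ 1 / 2 := by
    have h1 : t ≤ Real.exp (-(7 / 8)) := by
      refine Real.exp_le_exp.2 ?_
      rw [hlb, eK2]; linarith
    rw [Real.exp_neg] at h1
    have h2 : (Real.exp (7 / 8))⁻¹ ≤ 2⁻¹ := inv_anti₀ (by norm_num) hexp2
    linarith
  set R' : ℝ := Real.exp (l + 3 / (4 * K) - M'.lb) with hR'd
  have hR'1 : R' ≤ 1 := by
    rw [hR'd, Real.exp_le_one_iff, hlb, eK2, eK3]; linarith
  have htR' : t * R' = Real.exp (l + 3 / (4 * K) - M.lb) := by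
    rw [htd, hR'd, ← Real.exp_add]; congr 1; ring
  set R₂ : ℝ := Real.exp (l + 7 / (8 * K) - M.lb) with hR₂d
  have hR₂1 : R₂ ≤ 1 := by
    rw [hR₂d, Real.exp_le_one_iff, eK7]; linarith
  have hR₂t : R₂ ≤ t := by
    refine Real.exp_le_exp.2 ?_
    rw [hlb, eK2, eK7]; linarith
  -- smallness of `θ`
  have hpow : ∀ p : ℕ, p ≤ q + m + 3 → θ * Lm ^ p ≤ 2 := by
    intro p hp
    have h1 : Lm ^ p ≤ Lm ^ (q + m + 3) := pow_le_pow_right₀ b1 hp
    calc θ * Lm ^ p ≤ 2 * (Lm ^ (q + m + 3))⁻¹ * Lm ^ (q + m + 3) := by gcongr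
      _ = 2 := by rw [mul_assoc, inv_mul_cancel₀ (by positivity), mul_one]
  have hθ3 : θ * Lm ^ 3 ≤ 2 := hpow 3 (by omega)
  have hθT : 64 * θ * Lm ^ 2 ≤ Real.exp (-T) := by
    have h1 : θ * Lm ^ 2 * (128 * Real.exp T) ≤ 2 := by
      calc θ * Lm ^ 2 * (128 * Real.exp T) ≤ θ * Lm ^ 2 * Lm := by gcongr
        _ = θ * Lm ^ 3 := by ring
        _ ≤ 2 := hθ3
    rw [Real.exp_neg]
    rw [← one_div, le_div_iff₀ (Real.exp_pos T)]
    nlinarith
  have hθK : 32 * θ * K ≤ Real.exp (-T) := by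
    calc 32 * θ * K ≤ 32 * θ * (2 * Lm ^ 2) := by gcongr
      _ = 64 * θ * Lm ^ 2 := by ring
      _ ≤ _ := hθT
  have hθt : 32 * θ * K ≤ t := hθK.trans htT
  have hq0 := norm_nonneg q'
  have hq4 : 4 * ‖q'‖ ≤ t / 2 := by
    have : 32 * θ * 1 ≤ 32 * θ * K := by gcongr; linarith
    linarith
  have hgap : t * R' + 2 * ‖q'‖ ≤ R₂ := by
    rw [htR']
    have h1 : R₂ = Real.exp (l + 3 / (4 * K) - M.lb) * Real.exp (1 / 8 * (1 / K)) := by
      rw [hR₂d, ← Real.exp_add, eK3, eK7]; congr 1; ring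
    have h2 := Real.add_one_le_exp (1 / 8 * (1 / K))
    have h3 : Real.exp (-T) ≤ Real.exp (l + 3 / (4 * K) - M.lb) := by
      refine Real.exp_le_exp.2 ?_
      rw [eK3]; linarith
    have h4 : 2 * ‖q'‖ ≤ Real.exp (l + 3 / (4 * K) - M.lb) * (1 / 8 * (1 / K)) := by
      have h5 : 16 * θ * K ≤ Real.exp (l + 3 / (4 * K) - M.lb) := by
        have : 0 ≤ θ * K := by positivity
        linarith
      have h6 : 2 * θ = 16 * θ * K * (1 / 8 * (1 / K)) := by field_simp; ring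
      calc 2 * ‖q'‖ ≤ 2 * θ := by linarith
        _ = 16 * θ * K * (1 / 8 * (1 / K)) := h6
        _ ≤ _ := by gcongr
    have h7 := Real.exp_pos (l + 3 / (4 * K) - M.lb)
    rw [h1]
    nlinarith
  have hRR : R₂ ≤ Real.exp (l + 1 / K - M.lb) * (1 + 1 / (8 * K)) := by
    have h1 : R₂ ≤ Real.exp (l + 1 / K - M.lb) := by
      refine Real.exp_le_exp.2 ?_
      rw [eK7]; linarith
    have h2 := Real.exp_pos (l + 1 / K - M.lb)
    have h3 : 0 ≤ 1 / (8 * K) := by positivity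
    nlinarith
  have htR : t * R' ≤ Real.exp (l + 1 / K - M.lb) * (1 + 1 / (8 * K)) := by
    linarith
  have hSR : M.S * R₂ = Real.exp (l + 7 / (8 * K)) := by
    show Real.exp M.lb * _ = _
    rw [hR₂d, ← Real.exp_add]; congr 1; ring
  have hA' : Metric.closedBall (0 : Euc m) (M.S * R₂) ⊆ A := by rw [hSR]; exact hA
  -- the sharp bound of the heights
  have hsh : ∀ᵐ p ∂(VD D), ‖M.π (p.1 - x)‖ ≤ Real.exp (l + 1 / K - 1 / (8 * K)) →
      ‖M.ρ (p.1 - x)‖ ≤ M.S → ‖hgt M.π M.ρ x M.S M.u p.1‖ ^ 2 ≤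
        C * (8 * K) ^ (m + 2) * M.I x (VD D) (l + 1 / K) := by
    refine hS U D x M (l + 1 / K) (8 * K) hSit hκ0 hκ (hMG.mono le_rfl ?_) (by linarith)
      (by linarith) (by linarith) ?_ (supLe_mono hsup ?_ ?_)
    · have h3 : 0 ≤ 1 / (8 * K) := by positivity
      have h2 := Real.exp_pos (l + 1 / K - M.lb)
      nlinarith
    · refine hdu.trans ?_
      rw [le_div_iff₀ (by linarith)]
      have h1 : θ * (8 * K) ≤ θ * (8 * (2 * Lm ^ 2)) := by gcongr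
      have h2 : θ * Lm ^ 2 * (32 / κs) ≤ 2 := by
        calc θ * Lm ^ 2 * (32 / κs) ≤ θ * Lm ^ 2 * Lm := by gcongr
          _ = θ * Lm ^ 3 := by ring
          _ ≤ 2 := hθ3
      rw [mul_div_assoc', div_le_iff₀ hκs] at h2
      linarith
    · have h1 : Real.exp (l + 1 / K - 1 / (8 * K) - M.lb) ≤ Real.exp (l + 1 / K - M.lb) := by
        refine Real.exp_le_exp.2 ?_
        rw [eK8]; linarith
      have h2 := Real.exp_pos (l + 1 / K - M.lb)
      have h3 : 0 ≤ 1 / (8 * K) := by positivity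
      nlinarith
    · have h1 := hLb Lm b6
      rw [le_div_iff₀ (by linarith)]
      have h2 : Real.exp (-(Lm / 4)) * (8 * K) ≤ Real.exp (-(Lm / 4)) * (8 * (2 * Lm ^ 2)) := by
        gcongr
      have e : Real.exp (-(1 / 4 * Lm)) = Real.exp (-(Lm / 4)) := by congr 1; ring
      rw [e] at h1
      linarith
  -- in terms of `I l`
  have hIg : M.I x (VD D) (l + 1 / K) ≤ Real.exp G * M.I x (VD D) l := by
    rcases le_or_gt (M.I x (VD D) (l + 1 / K)) 0 with h0 | h0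
    · exact h0.trans (by positivity)
    · have h1 := Real.exp_le_exp.2 hG
      rw [Real.exp_log h0, Real.exp_add, Real.exp_log hI] at h1
      linarith
  set σ : ℝ := A0 * Lm ^ (m + 2) * √(M.I x (VD D) l) with hσd
  have hσ0 : 0 ≤ σ := by positivity
  have hσ : ∀ᵐ p ∂(VD D), p ∈ Wc M x R₂ → ‖hgt M.π M.ρ x M.S M.u p.1‖ ≤ σ := by
    filter_upwards [hsh] with p hp hpW
    have h1 : ‖M.π (p.1 - x)‖ ≤ Real.exp (l + 1 / K - 1 / (8 * K)) := by
      have h2 := hpW.1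
      rw [hSR] at h2
      have e : l + 1 / K - 1 / (8 * K) = l + 7 / (8 * K) := by rw [eK7, eK8]; ring
      rw [e]; exact h2
    have h2 := hp h1 hpW.2
    refine abs_le_of_sq_le_sq' ?_ hσ0 |>.2
    refine h2.trans ?_
    have e : σ ^ 2 = C * (16 * Lm ^ 2) ^ (m + 2) * (Real.exp G * M.I x (VD D) l) := by
      rw [hσd, mul_pow, mul_pow, Real.sq_sqrt hI.le, hA0, Real.sq_sqrt (by positivity), mul_pow,
        ← pow_mul, ← pow_mul, mul_comm 2 (m + 2)]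
      ring
    rw [e]
    have h3 : (8 * K) ^ (m + 2) ≤ (16 * Lm ^ 2) ^ (m + 2) := by
      refine pow_le_pow_left₀ (by positivity) ?_ _
      linarith
    calc C * (8 * K) ^ (m + 2) * M.I x (VD D) (l + 1 / K) ≤
        C * (8 * K) ^ (m + 2) * (Real.exp G * M.I x (VD D) l) := by gcongr
      _ ≤ _ := by gcongr
  have hσS : σ ≤ M'.S / 8 := by
    have h1 := hLa Lm b5
    have e : Real.exp (-(1 / 2 * Lm)) = Real.exp (-(Lm / 2)) := by congr 1; ring
    rw [e] at h1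
    have h2 : √(M.I x (VD D) l) = Real.exp l * Real.exp (-(Lm / 2)) := by
      rw [sqrt_I hI, ← Real.exp_add]; congr 1
    have h3 : Real.exp l ≤ M'.S := by
      refine Real.exp_le_exp.2 ?_
      rw [hlb, eK2]; linarith
    rw [hσd, h2]
    calc A0 * Lm ^ (m + 2) * (Real.exp l * Real.exp (-(Lm / 2))) =
        (A0 * Lm ^ (m + 2) * Real.exp (-(Lm / 2))) * Real.exp l := by ring
      _ ≤ 1 / 8 * M'.S := by gcongr
      _ = M'.S / 8 := by ring
  have hRt : R₂ + 4 * ‖q'‖ ≤ 3 / 2 * t := by linarith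
  constructor
  · -- SupLe
    refine hR.sup_le ht ht2 ht0 hR'1 hgap hA' (supLe_mono hsup hRR le_rfl) ?_
    have h1 : 9 / 8 * Real.exp T ≤ Real.exp (Lm / 20) := by
      have h2 : Real.exp (T + 1) ≤ Real.exp (Lm / 20) := Real.exp_le_exp.2 (by linarith)
      rw [Real.exp_add] at h2
      have h3 := Real.add_one_le_exp (1 : ℝ)
      nlinarith [Real.exp_pos T]
    have h4 : Real.exp (-(Lm / 4)) = Real.exp (-(Lm / 5)) * Real.exp (-(Lm / 20)) := by
      rw [← Real.exp_add]; congr 1; ring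
    have h5 : 9 / 8 * Real.exp (-(Lm / 20)) ≤ Real.exp (-T) := by
      rw [Real.exp_neg, Real.exp_neg, ← div_eq_mul_inv, ← one_div (Real.exp T),
        div_le_div_iff₀ (Real.exp_pos _) (Real.exp_pos _)]
      linarith
    have h6 := Real.exp_pos (-(Lm / 5))
    calc 9 / 8 * Real.exp (-(Lm / 4)) = (9 / 8 * Real.exp (-(Lm / 20))) * Real.exp (-(Lm / 5)) := by
          rw [h4]; ring
      _ ≤ Real.exp (-T) * Real.exp (-(Lm / 5)) := by gcongr
      _ ≤ t * Real.exp (-(Lm / 5)) := by gcongr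
  · -- MeanK
    have h1 := hR.meanK hKs ht ht2 ht0 hR'1 hgap hR₂1 hRt htR hA' hσ hσ0 hσS
      (mass_Wc_ne hSit.pack (by linarith)) (mass_Wc_real hSit.pack (by linarith)) hmean
    refine meanK_mono h1 le_rfl ?_
    have hti : t⁻¹ ≤ Real.exp T := by
      have h2 : t⁻¹ ≤ (Real.exp (-T))⁻¹ := inv_anti₀ (Real.exp_pos _) htT
      have e : (Real.exp (-T))⁻¹ = Real.exp T := by rw [Real.exp_neg, inv_inv]
      rw [e] at h2
      exact h2
    have hti0 : 0 ≤ t⁻¹ := (inv_pos.2 ht0).le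
    have hsq : 0 ≤ √(M.I x (VD D) l) := Real.sqrt_nonneg _
    have hθm : θ * Lm ^ (q + m + 3) ≤ 2 := hpow _ le_rfl
    -- the sum
    have h3 : t⁻¹ ^ (m + Ks) * (θ * √(M.I x (VD D) l)) ≤
        Real.exp T ^ (m + Ks) * (θ * √(M.I x (VD D) l)) := by gcongr
    have h4 : 9 * t⁻¹ ^ (m + 1) * ‖q'‖ * σ * max Λ 0 ≤
        9 * Real.exp T ^ (m + 1) * θ * σ * Λ' := by gcongr
    have hfin : (Real.exp T ^ (m + Ks) + 9 * Real.exp T ^ (m + 1) * A0 * Λ' * Lm ^ (m + 2)) * θ ≤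
        (Lm ^ q)⁻¹ := by
      rw [← one_div, le_div_iff₀ (by positivity)]
      have h5 : (1 : ℝ) ≤ Lm ^ (m + 2) := one_le_pow₀ b1
      have h6 : Real.exp T ^ (m + Ks) + 9 * Real.exp T ^ (m + 1) * A0 * Λ' * Lm ^ (m + 2) ≤
          (a1 + a2) / 2 * Lm ^ (m + 2) := by
        have h7 : 0 ≤ Real.exp T ^ (m + Ks) := by positivity
        have h8 : Real.exp T ^ (m + Ks) * 1 ≤ Real.exp T ^ (m + Ks) * Lm ^ (m + 2) :=
          mul_le_mul_of_nonneg_left h5 h7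
        have h9 : (a1 + a2) / 2 * Lm ^ (m + 2) = Real.exp T ^ (m + Ks) * Lm ^ (m + 2) +
            9 * Real.exp T ^ (m + 1) * A0 * Λ' * Lm ^ (m + 2) := by
          rw [ha1, ha2]; ring
        rw [h9, mul_one] at *
        exact add_le_add_left h8 _
      calc (Real.exp T ^ (m + Ks) + 9 * Real.exp T ^ (m + 1) * A0 * Λ' * Lm ^ (m + 2)) * θ *
            Lm ^ q ≤ ((a1 + a2) / 2 * Lm ^ (m + 2)) * θ * Lm ^ q := by gcongr
        _ ≤ (Lm / 2 * Lm ^ (m + 2)) * θ * Lm ^ q := by gcongr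
        _ = (θ * Lm ^ (q + m + 3)) / 2 := by ring
        _ ≤ 1 := by linarith
    calc t⁻¹ ^ (m + Ks) * (θ * √(M.I x (VD D) l)) + 9 * t⁻¹ ^ (m + 1) * ‖q'‖ * σ * max Λ 0 ≤
        Real.exp T ^ (m + Ks) * (θ * √(M.I x (VD D) l)) +
          9 * Real.exp T ^ (m + 1) * θ * σ * Λ' := add_le_add h3 h4
      _ = (Real.exp T ^ (m + Ks) + 9 * Real.exp T ^ (m + 1) * A0 * Λ' * Lm ^ (m + 2)) * θ *
          √(M.I x (VD D) l) := by rw [hσd]; ring
      _ ≤ (Lm ^ q)⁻¹ * √(M.I x (VD D) l) := by gcongr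

end Crest.Agent.R234.Bmo_842
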