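import Crest.Agent.R234.F35_354

/-!
R234 (helper128), pieces (A1), (A2), (A5) of F3 (354 #9065): passage between the tube coordinates
`foot`, `nu` of the graph of `w` and 209's adapted chart `T` at a base point.

`Bp.back` : from the chart to the tube; `Bp.fwd` : from the tube to the chart.
-/

set_option autoImplicit false

open MeasureTheory Filter Topology Set Metric
open scoped ENNReal NNReal ContDiff InnerProductSpace
open Crest.GeometryTopology.Submanifold Crest.Agent.R234.Vf_884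

noncomputable section

namespace Crest.Agent.R234.F35_354

open Crest.Agent.R234.Main_456 (Frame Msys hgt sep box)
open Crest.Agent.R234.Grot_842 (rπ rρ)
open Crest.Agent.R234.Foot_842 Crest.Agent.R234.Nrm_842 Crest.Agent.R234.Swb_159 Crest.Agent.R234.Grot_842
open Crest.Agent.R234.Ell1_3
open Crest.Agent.R234.GLK_128 (BB NN BB_BB NN_BB)

local notation "adj" => ContinuousLinearMap.adjoint

variable {m n k : ℕ}

section Fr

variable {π : Euc k →L[ℝ] Euc m} {ρ : Euc k →L[ℝ] Euc n}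

theorem BB_apply' (q : Euc m →L[ℝ] Euc n) (y : Euc n) :
    BB (adj π) (adj ρ) q y = adj ρ y - adj π (adj q y) := rfl

theorem π_BB (hf : Frame π ρ) (q : Euc m →L[ℝ] Euc n) (y : Euc n) :
    π (BB (adj π) (adj ρ) q y) = -adj q y := by
  rw [BB_apply', map_sub, fr_πρ hf, fr_ππ hf, zero_sub]

theorem ρ_BB (hf : Frame π ρ) (q : Euc m →L[ℝ] Euc n) (y : Euc n) :
    ρ (BB (adj π) (adj ρ) q y) = y := by
  rw [BB_apply', map_sub, fr_ρρ hf, fr_ρπ hf, sub_zero]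

/-- a normal vector is determined by its vertical part -/
theorem BB_of_normal (hf : Frame π ρ) {q : Euc m →L[ℝ] Euc n} {ν : Euc k}
    (hν : π ν + adj q (ρ ν) = 0) : BB (adj π) (adj ρ) q (ρ ν) = ν := by
  have h1 := fr_full hf ν
  rw [BB_apply', eq_comm, ← h1]
  have h2 : π ν = -adj q (ρ ν) := eq_neg_of_add_eq_zero_left hν
  have h3 := fr_ππ hf (π ν)
  have h4 := fr_πρ hf (ρ ν)
  have h5 := fr_ρρ hf (ρ ν)
  have h6 := fr_ρπ hf (π ν)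
  rw [map_add, h5, h6, zero_add, h2, map_neg]
  abel

theorem normal_BB (hf : Frame π ρ) (q : Euc m →L[ℝ] Euc n) (y : Euc n) :
    π (BB (adj π) (adj ρ) q y) + adj q (ρ (BB (adj π) (adj ρ) q y)) = 0 := by
  rw [π_BB hf, ρ_BB hf, neg_add_cancel]

theorem norm_BB_sq (hf : Frame π ρ) (q : Euc m →L[ℝ] Euc n) (y : Euc n) :
    ‖BB (adj π) (adj ρ) q y‖ ^ 2 = ‖y‖ ^ 2 + ‖adj q y‖ ^ 2 := by
  rw [← fr_norm_sq hf, π_BB hf, ρ_BB hf, norm_neg]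
  ring

theorem le_norm_BB (hf : Frame π ρ) (q : Euc m →L[ℝ] Euc n) (y : Euc n) :
    ‖y‖ ≤ ‖BB (adj π) (adj ρ) q y‖ := by
  refine (sq_le_sq₀ (norm_nonneg _) (norm_nonneg _)).1 ?_
  rw [norm_BB_sq hf]
  nlinarith [sq_nonneg ‖adj q y‖]

theorem norm_BB_le' (hf : Frame π ρ) {q : Euc m →L[ℝ] Euc n} (hq : ‖q‖ ≤ 1 / 8) (y : Euc n) :
    ‖BB (adj π) (adj ρ) q y‖ ≤ 65 / 64 * ‖y‖ := by
  have h1 : ‖adj q y‖ ≤ 1 / 8 * ‖y‖ := by
    refine (ContinuousLinearMap.le_opNorm _ _).trans ?_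
    rw [LinearIsometryEquiv.norm_map]
    gcongr
  have h3 := norm_nonneg y
  refine (sq_le_sq₀ (norm_nonneg _) (by positivity)).1 ?_
  rw [norm_BB_sq hf]
  have h2 : ‖adj q y‖ ^ 2 ≤ (1 / 8 * ‖y‖) ^ 2 := by gcongr
  nlinarith [sq_nonneg ‖y‖]

end Fr

variable {π : Euc k →L[ℝ] Euc m} {ρ : Euc k →L[ℝ] Euc n} {x : Euc k}
  {w : Euc m → Euc n} {Xb : Euc m} {C κ t : ℝ} {q : Euc m →L[ℝ] Euc n} {H : Euc m →L[ℝ] Euc m}
  {H' : Euc n →L[ℝ] Euc n} {w' u : Euc m → Euc n} {T : Ft_209.Dif k} {e : ℝ}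

/-! ### (A5) -/

/-- **(A5)**: the normal vector of 456's chart -/
theorem nu_eq {r : ℝ} (hg : Gi_456.Gr r w) (hf : Frame π ρ) (X0 : Euc m) {z : Euc k}
    (hz : z ∈ Gi_456.tube π ρ x r w) :
    (Gi_456.ch π ρ x r w X0).nu z = z - pt π ρ x w (Gi_456.foot π ρ x r w z) := by
  have h1 := (foot_normal hf (hg.foot_spec hz))
  have h2 := BB_of_normal hf h1.1
  rw [h1.2.1] at h2
  exact h2

/-- **(A5)** -/
theorem two_f_eq {r : ℝ} (hg : Gi_456.Gr r w) (hf : Frame π ρ) (X0 : Euc m) {z : Euc k}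
    (hz : z ∈ Gi_456.tube π ρ x r w) :
    2 * (Gi_456.ch π ρ x r w X0).f z = ‖z - pt π ρ x w (Gi_456.foot π ρ x r w z)‖ ^ 2 := by
  rw [← nu_eq hg hf X0 hz]
  show 2 * (‖(Gi_456.ch π ρ x r w X0).nu z‖ ^ 2 / 2) = _
  ring

namespace Bp

variable (h : Bp π ρ x w Xb C κ t q H H' w' u T e)
include h

theorem frP : Frame (rπ π ρ q H) (rρ π ρ q H') := h.zm.rot.frame h.fr

theorem norm_du (y : Euc m) : ‖fderiv ℝ u y‖ ≤ 1 / 64 := (h.zm.norm_dU y).trans h.zm.Cκt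

theorem cd3 : ContDiff ℝ 3 u := h.zm.sm.of_le (WithTop.coe_le_coe.2 le_top)

/-- 209's chart is `foot point + normal vector` -/
theorem Φ_eq_pt {z' : Euc k} (hz : ‖rρ π ρ q H' z'‖ < 3) :
    T.Φ z' = pt (rπ π ρ q H) (rρ π ρ q H') 0 u (rπ π ρ q H z') +
      BB (adj (rπ π ρ q H)) (adj (rρ π ρ q H')) (fderiv ℝ u (rπ π ρ q H z'))
        (rρ π ρ q H' z') := by
  rw [h.ct.Φ_eq' h.cd3 hz, BB_apply', pt, zero_add]
  nth_rewrite 1 [← fr_full h.frP z']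
  abel

/-- zoomed and rotated, the derivative of `w` at the point: normal vectors go back -/
theorem normal_back {X : Euc m} (hX : ‖X - Xb‖ ≤ 6 * t) {ν : Euc k}
    (hν : rπ π ρ q H ν + adj (fderiv ℝ u (zc t q H w Xb X)) (rρ π ρ q H' ν) = 0) :
    π ν + adj (fderiv ℝ w X) (ρ ν) = 0 := by
  have h1 := h.zm.NN_eq h.fr hX
  have h2 : NN (adj (rπ π ρ q H)) (adj (rρ π ρ q H')) (fderiv ℝ u (zc t q H w Xb X))
      (Gi_456.hinv (fderiv ℝ u (zc t q H w Xb X))) ν = ν := by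
    rw [← BB_of_normal h.frP hν]
    exact congrArg (fun L : Euc n →L[ℝ] Euc k => L (rρ π ρ q H' ν))
      (NN_BB (Gi_456.frame_fr h.frP) (inv0 (fderiv ℝ u (zc t q H w Xb X))))
  rw [h1] at h2
  rw [← h2]
  exact normal_BB h.fr _ _

theorem normal_fwd {X : Euc m} (hX : ‖X - Xb‖ ≤ 6 * t) {ν : Euc k}
    (hν : π ν + adj (fderiv ℝ w X) (ρ ν) = 0) :
    rπ π ρ q H ν + adj (fderiv ℝ u (zc t q H w Xb X)) (rρ π ρ q H' ν) = 0 := by
  rw [h.zm.dU_zc hX]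
  exact normal_rot h.fr h.zm.rot (h.zm.lt1516 hX) (h.gr.differentiable X) hν

/-- a point with small normal part over `X` lies in the tube -/
theorem tube_of_normal {X : Euc m} {ν : Euc k} (hν : π ν + adj (fderiv ℝ w X) (ρ ν) = 0)
    (hn : ‖ν‖ ≤ 3 / 4) :
    pt π ρ x w X + ν ∈ Gi_456.tube π ρ x 1 w ∧
      Gi_456.foot π ρ x 1 w (pt π ρ x w X + ν) = X := by
  have e1 : π (pt π ρ x w X + ν - x) = X + π ν := by
    unfold pt
    simp only [map_sub, map_add, fr_ππ h.fr, fr_πρ h.fr]; abel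
  have e2 : ρ (pt π ρ x w X + ν - x) = w X + ρ ν := by
    unfold pt
    simp only [map_sub, map_add, fr_ρρ h.fr, fr_ρπ h.fr]; abel
  constructor
  · show ‖ρ (pt π ρ x w X + ν - x) - w (π (pt π ρ x w X + ν - x))‖ < 1
    rw [e1, e2]
    have h1 := h.gr.lip (X + π ν) X
    rw [add_sub_cancel_left] at h1
    have h2 : ‖π ν‖ ≤ ‖ν‖ := Gi_456.norm_pi_le' h.fr ν
    have h3 : ‖ρ ν‖ ≤ ‖ν‖ := Gi_456.norm_rho_le' h.fr ν
    calc ‖w X + ρ ν - w (X + π ν)‖ = ‖ρ ν - (w (X + π ν) - w X)‖ := by congr 1; abel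
      _ ≤ ‖ρ ν‖ + ‖w (X + π ν) - w X‖ := norm_sub_le _ _
      _ < 1 := by linarith
  · refine h.gr.foot_eq (isFoot_of_normal h.fr ?_ ?_)
    · rw [add_sub_cancel_left]; exact hν
    · rw [add_sub_cancel_left]
      have h3 : ‖ρ ν‖ ≤ ‖ν‖ := Gi_456.norm_rho_le' h.fr ν
      linarith

/-- **(A1)** from the chart to the tube -/
theorem back {z' : Euc k} (hP : ‖rπ π ρ q H z'‖ ≤ 5) (hR : ‖rρ π ρ q H' z'‖ ≤ 2) :
    ∃ X, ‖X - Xb‖ < 6 * t ∧ zc t q H w Xb X = rπ π ρ q H z' ∧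
      pt π ρ x w Xb + t • T.Φ z' ∈ Gi_456.tube π ρ x 1 w ∧
      Gi_456.foot π ρ x 1 w (pt π ρ x w Xb + t • T.Φ z') = X ∧
      pt π ρ x w Xb + t • T.Φ z' - pt π ρ x w X =
        t • BB (adj (rπ π ρ q H)) (adj (rρ π ρ q H')) (fderiv ℝ u (rπ π ρ q H z'))
          (rρ π ρ q H' z') ∧
      ‖rρ π ρ q H' z'‖ ≤ ‖BB (adj (rπ π ρ q H)) (adj (rρ π ρ q H'))
        (fderiv ℝ u (rπ π ρ q H z')) (rρ π ρ q H' z')‖ ∧
      ‖BB (adj (rπ π ρ q H)) (adj (rρ π ρ q H')) (fderiv ℝ u (rπ π ρ q H z'))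
        (rρ π ρ q H' z')‖ ≤ 65 / 64 * ‖rρ π ρ q H' z'‖ := by
  have ht := h.zm.t0
  have ht16 := h.t16
  obtain ⟨X, hX, hzc⟩ := h.zm.zc_surj hP
  have hb1 := le_norm_BB h.frP (fderiv ℝ u (rπ π ρ q H z')) (rρ π ρ q H' z')
  have hb2 := norm_BB_le' h.frP ((h.norm_du (rπ π ρ q H z')).trans (by norm_num))
    (rρ π ρ q H' z')
  set b := BB (adj (rπ π ρ q H)) (adj (rρ π ρ q H')) (fderiv ℝ u (rπ π ρ q H z'))
    (rρ π ρ q H' z') with hb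
  have e1 : pt π ρ x w Xb + t • T.Φ z' = pt π ρ x w X + t • b := by
    rw [h.Φ_eq_pt (lt_of_le_of_lt hR (by norm_num)), ← hb, ← hzc, h.zm.pt_eq h.fr x hX.le,
      smul_add, smul_smul, mul_inv_cancel₀ ht.ne', one_smul]
    abel
  have hn : rπ π ρ q H (t • b) + adj (fderiv ℝ u (zc t q H w Xb X)) (rρ π ρ q H' (t • b)) = 0 := by
    rw [hzc, map_smul, map_smul, map_smul, ← smul_add, hb, normal_BB h.frP, smul_zero]
  have hn' := h.normal_back hX.le hn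
  have hnb : ‖t • b‖ ≤ 3 / 4 := by
    rw [norm_smul, Real.norm_of_nonneg ht.le]
    have h2 : ‖b‖ ≤ 65 / 32 := by linarith
    calc t * ‖b‖ ≤ 1 / 16 * (65 / 32) := mul_le_mul ht16 h2 (norm_nonneg _) (by norm_num)
      _ ≤ 3 / 4 := by norm_num
  obtain ⟨h1, h2⟩ := h.tube_of_normal (x := x) hn' hnb
  rw [e1]
  exact ⟨X, hX, hzc, h1, h2, by rw [add_sub_cancel_left], hb1, hb2⟩

/-- **(A2)** from the tube to the chart (radius 6 version) -/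
theorem fwd6 {z : Euc k} (hz : z ∈ Gi_456.tube π ρ x 1 w)
    (hX : ‖Gi_456.foot π ρ x 1 w z - Xb‖ ≤ 6 * t)
    (hn : ‖z - pt π ρ x w (Gi_456.foot π ρ x 1 w z)‖ < 3 * t) :
    rπ π ρ q H (T.Ψ (t⁻¹ • (z - pt π ρ x w Xb))) = zc t q H w Xb (Gi_456.foot π ρ x 1 w z) ∧
      t • rρ π ρ q H' (T.Ψ (t⁻¹ • (z - pt π ρ x w Xb))) =
        rρ π ρ q H' (z - pt π ρ x w (Gi_456.foot π ρ x 1 w z)) ∧
      t * ‖rρ π ρ q H' (T.Ψ (t⁻¹ • (z - pt π ρ x w Xb)))‖ ≤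
        ‖z - pt π ρ x w (Gi_456.foot π ρ x 1 w z)‖ ∧
      z = pt π ρ x w Xb + t • T.Φ (T.Ψ (t⁻¹ • (z - pt π ρ x w Xb))) := by
  have ht := h.zm.t0
  set X := Gi_456.foot π ρ x 1 w z with hXd
  set P := rπ π ρ q H with hPd
  set R := rρ π ρ q H' with hRd
  set ν := z - pt π ρ x w X with hν
  have hnu := (foot_normal h.fr (h.gr.foot_spec hz)).1
  have hnu' := h.normal_fwd hX hnu
  set z'' : Euc k := adj P (zc t q H w Xb X) + adj R (t⁻¹ • R ν) with hz''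
  have hP : P z'' = zc t q H w Xb X := by
    rw [hz'', map_add, fr_ππ h.frP, fr_πρ h.frP, add_zero]
  have hR : R z'' = t⁻¹ • R ν := by
    rw [hz'', map_add, fr_ρρ h.frP, fr_ρπ h.frP, zero_add]
  have hRν : ‖R ν‖ ≤ ‖ν‖ := Gi_456.norm_rho_le' h.frP ν
  have hR3 : ‖R z''‖ < 3 := by
    rw [hR, norm_smul, norm_inv, Real.norm_of_nonneg ht.le, inv_mul_lt_iff₀ ht]
    linarith
  have hΦ : T.Φ z'' = t⁻¹ • (z - pt π ρ x w Xb) := by
    rw [h.Φ_eq_pt hR3, ← hPd, ← hRd, hP, hR, h.zm.pt_eq h.fr x hX, map_smul,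
      BB_of_normal h.frP hnu', ← smul_add]
    congr 1
    rw [← hXd]
    abel
  have hΨ : T.Ψ (t⁻¹ • (z - pt π ρ x w Xb)) = z'' := by rw [← hΦ, T.left]
  rw [hΨ, hP, hR, smul_smul, mul_inv_cancel₀ ht.ne', one_smul]
  refine ⟨rfl, rfl, ?_, ?_⟩
  · rw [norm_smul, norm_inv, Real.norm_of_nonneg ht.le, ← mul_assoc, mul_inv_cancel₀ ht.ne',
      one_mul]
    exact hRν
  · rw [hΦ, smul_smul, mul_inv_cancel₀ ht.ne', one_smul]
    abel

/-- **(A2)** -/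
theorem fwd {z : Euc k} (hz : z ∈ Gi_456.tube π ρ x 1 w)
    (hX : ‖Gi_456.foot π ρ x 1 w z - Xb‖ ≤ 5 * t)
    (hn : ‖z - pt π ρ x w (Gi_456.foot π ρ x 1 w z)‖ ≤ 2 * t) :
    rπ π ρ q H (T.Ψ (t⁻¹ • (z - pt π ρ x w Xb))) = zc t q H w Xb (Gi_456.foot π ρ x 1 w z) ∧
      t * ‖rρ π ρ q H' (T.Ψ (t⁻¹ • (z - pt π ρ x w Xb)))‖ ≤
        ‖z - pt π ρ x w (Gi_456.foot π ρ x 1 w z)‖ ∧
      z = pt π ρ x w Xb + t • T.Φ (T.Ψ (t⁻¹ • (z - pt π ρ x w Xb))) := by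
  have ht := h.zm.t0
  obtain ⟨h1, -, h2, h3⟩ := h.fwd6 hz (by linarith) (by linarith)
  exact ⟨h1, h2, h3⟩

end Bp

end Crest.Agent.R234.F35_354
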