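import Crest.Agent.R234.F35_354

/-!
R234 (helper3), piece (A3) of F3 (354 #9065): points near the base point lie in the tube, their foot
is near `Xb`, and the height over `u` is controlled by the distance to the foot point.
-/

set_option autoImplicit false

open MeasureTheory Filter Topology Set Metric
open scoped ENNReal NNReal ContDiff InnerProductSpace
open Crest.GeometryTopology.Submanifold Crest.Agent.R234.Vf_884

noncomputable section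

namespace Crest.Agent.R234.F35_354

open Crest.Agent.R234.Main_456 (Frame Msys hgt sep box)
open Crest.Agent.R234.Grot_842 (rπ rρ)
open Crest.Agent.R234.Foot_842 Crest.Agent.R234.Nrm_842 Crest.Agent.R234.Swb_159 Crest.Agent.R234.Grot_842
open Crest.Agent.R234.Ell1_3

local notation "adj" => ContinuousLinearMap.adjoint

variable {m n k : ℕ} {π : Euc k →L[ℝ] Euc m} {ρ : Euc k →L[ℝ] Euc n} {x : Euc k}
  {w : Euc m → Euc n} {Xb : Euc m} {C κ t : ℝ} {q : Euc m →L[ℝ] Euc n} {H : Euc m →L[ℝ] Euc m}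
  {H' : Euc n →L[ℝ] Euc n} {w' u : Euc m → Euc n} {T : Ft_209.Dif k} {e : ℝ}

namespace Bp

variable (h : Bp π ρ x w Xb C κ t q H H' w' u T e)
include h

/-- height of `z` over `w`, against the components of `z - z0` -/
theorem hgt_le (z : Euc k) : ‖ρ (z - x) - w (π (z - x))‖ ≤
    ‖ρ (z - pt π ρ x w Xb)‖ + 1 / 8 * ‖π (z - pt π ρ x w Xb)‖ := by
  have e1 : π (z - x) = Xb + π (z - pt π ρ x w Xb) := by
    unfold pt
    simp only [map_sub, map_add, fr_ππ h.fr, fr_πρ h.fr]; abel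
  have e2 : ρ (z - x) = w Xb + ρ (z - pt π ρ x w Xb) := by
    unfold pt
    simp only [map_sub, map_add, fr_ρρ h.fr, fr_ρπ h.fr]; abel
  rw [e1, e2]
  have h1 := h.gr.lip (Xb + π (z - pt π ρ x w Xb)) Xb
  rw [add_sub_cancel_left] at h1
  calc ‖w Xb + ρ (z - pt π ρ x w Xb) - w (Xb + π (z - pt π ρ x w Xb))‖
      = ‖ρ (z - pt π ρ x w Xb) - (w (Xb + π (z - pt π ρ x w Xb)) - w Xb)‖ := by congr 1; abel
    _ ≤ ‖ρ (z - pt π ρ x w Xb)‖ + ‖w (Xb + π (z - pt π ρ x w Xb)) - w Xb‖ := norm_sub_le _ _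
    _ ≤ _ := by linarith

/-- **(A3), ball version**: in the tube, with the foot near `Xb` -/
theorem near_pt {z : Euc k} {a : ℝ} (ha : a ≤ 14) (hz : ‖z - pt π ρ x w Xb‖ ≤ a * t) :
    z ∈ Gi_456.tube π ρ x 1 w ∧
      ‖Gi_456.foot π ρ x 1 w z - Xb‖ ≤ 15 / 14 * a * t := by
  have ht := h.zm.t0
  have ht16 := h.t16
  set v : Euc k := z - pt π ρ x w Xb with hv
  have hsq : ‖π v‖ ^ 2 + ‖ρ v‖ ^ 2 = ‖v‖ ^ 2 := fr_norm_sq h.fr v
  have p1 := norm_nonneg (π v)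
  have p2 := norm_nonneg (ρ v)
  have p3 := norm_nonneg v
  have hπv : ‖π v‖ ≤ ‖v‖ := Gi_456.norm_pi_le' h.fr v
  have hρv : ‖ρ v‖ ≤ ‖v‖ := Gi_456.norm_rho_le' h.fr v
  have hat : a * t ≤ 7 / 8 := by
    have : a * t ≤ 14 * t := mul_le_mul_of_nonneg_right ha ht.le
    linarith
  have hh := h.hgt_le z
  rw [← hv] at hh
  have htube : z ∈ Gi_456.tube π ρ x 1 w := by
    show ‖ρ (z - x) - w (π (z - x))‖ < 1
    linarith
  refine ⟨htube, ?_⟩
  have e1 : π (z - x) = Xb + π v := by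
    rw [hv]
    unfold pt
    simp only [map_sub, map_add, fr_ππ h.fr, fr_πρ h.fr]; abel
  have h1 := h.gr.norm_foot_sub htube
  have h2 : ‖Gi_456.foot π ρ x 1 w z - Xb‖ ≤
      ‖Gi_456.foot π ρ x 1 w z - π (z - x)‖ + ‖π v‖ := by
    calc ‖Gi_456.foot π ρ x 1 w z - Xb‖ = ‖(Gi_456.foot π ρ x 1 w z - π (z - x)) + π v‖ := by
          rw [e1]; congr 1; abel
      _ ≤ _ := norm_add_le _ _
  have h3 : ‖Gi_456.foot π ρ x 1 w z - Xb‖ ≤ 33 / 32 * ‖π v‖ + 1 / 4 * ‖ρ v‖ := by linarith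
  have h4 : 33 / 32 * ‖π v‖ + 1 / 4 * ‖ρ v‖ ≤ 15 / 14 * ‖v‖ := by
    refine (sq_le_sq₀ (by positivity) (by positivity)).1 ?_
    nlinarith [sq_nonneg (33 / 32 * ‖ρ v‖ - 1 / 4 * ‖π v‖), sq_nonneg ‖v‖]
  calc _ ≤ _ := h3
    _ ≤ _ := h4
    _ ≤ 15 / 14 * (a * t) := by gcongr
    _ = _ := by ring

/-- the rotated graph is `1/8`-Lipschitz -/
theorem lip_w' (y y' : Euc m) : ‖w' y - w' y'‖ ≤ 1 / 8 * ‖y - y'‖ := by
  have h1 : ∀ y, ‖fderiv ℝ w' y‖ ≤ 1 / 8 := fun y => by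
    have h2 := h.zm.rot.bound 1 le_rfl (by omega) y
    rw [← norm_iteratedFDeriv_fderiv, norm_iteratedFDeriv_zero] at h2
    exact h2.trans h.zm.small
  exact Convex.norm_image_sub_le_of_norm_fderiv_le (𝕜 := ℝ) (f := w') (s := univ) (C := 1 / 8)
    (fun z _ => (h.zm.rot.smooth.differentiable (by simp)) z) (fun z _ => h1 z) convex_univ
    (mem_univ y') (mem_univ y)

/-- `box P R z0 (7 t)` lies in `closedBall z0 (10 t)` -/
theorem norm_le_of_box {z : Euc k}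
    (hz : z ∈ box (rπ π ρ q H) (rρ π ρ q H') (pt π ρ x w Xb) (7 * t)) :
    ‖z - pt π ρ x w Xb‖ ≤ 10 * t := by
  obtain ⟨h1, h2⟩ := hz
  have ht := h.zm.t0
  have hfr := h.zm.rot.frame h.fr
  have h3 : ‖rπ π ρ q H (z - pt π ρ x w Xb)‖ ^ 2 + ‖rρ π ρ q H' (z - pt π ρ x w Xb)‖ ^ 2 =
    ‖z - pt π ρ x w Xb‖ ^ 2 := fr_norm_sq hfr _
  have p1 := norm_nonneg (rπ π ρ q H (z - pt π ρ x w Xb))
  have p2 := norm_nonneg (rρ π ρ q H' (z - pt π ρ x w Xb))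
  refine (sq_le_sq₀ (norm_nonneg _) (by positivity)).1 ?_
  nlinarith

/-- **(A3)** -/
theorem sep_pt {z : Euc k}
    (hz : z ∈ box (rπ π ρ q H) (rρ π ρ q H') (pt π ρ x w Xb) (7 * t)) :
    z ∈ Gi_456.tube π ρ x 1 w ∧ ‖Gi_456.foot π ρ x 1 w z - Xb‖ ≤ 12 * t ∧
      ‖hgt (rπ π ρ q H) (rρ π ρ q H') (pt π ρ x w Xb) t u z‖ ≤
        5 / 4 * ‖z - pt π ρ x w (Gi_456.foot π ρ x 1 w z)‖ := by
  have ht := h.zm.t0
  have ht16 := h.t16
  have hn := h.norm_le_of_box hz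
  obtain ⟨h1, h2⟩ := h.near_pt (by norm_num : (10:ℝ) ≤ 14) hn
  have h2' : ‖Gi_456.foot π ρ x 1 w z - Xb‖ ≤ 12 * t := by linarith
  refine ⟨h1, h2', ?_⟩
  set X := Gi_456.foot π ρ x 1 w z with hX
  set P := rπ π ρ q H with hP
  set R := rρ π ρ q H' with hR
  set z0 := pt π ρ x w Xb with hz0
  have hfr : Frame P R := h.zm.rot.frame h.fr
  have hX15 : ‖X - Xb‖ ≤ 15 / 16 := by linarith
  have hp := pt_rot (x := x) h.fr h.zm.rot hX15
  -- coordinates of the foot point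
  have hg : R (pt π ρ x w X - z0) = w' (P (pt π ρ x w X - z0)) := by
    rw [hR, hP, hz0, rρ_pt_sub h.fr, rπ_pt_sub h.fr]
    exact (h.zm.rot.graph (X - Xb) (mem_closedBall_zero_iff.2 hX15)).symm
  have hu : t • u (t⁻¹ • P (z - z0)) = w' (P (z - z0)) := by
    have h7 : ‖t⁻¹ • P (z - z0)‖ ≤ 7 := by
      rw [norm_smul, norm_inv, Real.norm_of_nonneg ht.le, inv_mul_eq_div, div_le_iff₀ ht]
      exact hz.1.le
    rw [h.zm.eqU _ h7, smul_smul, mul_inv_cancel₀ ht.ne', one_smul, smul_smul,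
      mul_inv_cancel₀ ht.ne', one_smul]
  have e1 : hgt P R z0 t u z =
      R (z - pt π ρ x w X) + (w' (P (pt π ρ x w X - z0)) - w' (P (z - z0))) := by
    unfold hgt
    rw [hu, ← hg]
    have : R (z - z0) = R (z - pt π ρ x w X) + R (pt π ρ x w X - z0) := by
      rw [← map_add]; congr 1; abel
    rw [this]; abel
  rw [e1]
  have h3 := h.lip_w' (P (pt π ρ x w X - z0)) (P (z - z0))
  have e2 : P (pt π ρ x w X - z0) - P (z - z0) = -P (z - pt π ρ x w X) := by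
    rw [← map_sub, ← map_neg]; congr 1; abel
  rw [e2, norm_neg] at h3
  have h4 : ‖P (z - pt π ρ x w X)‖ ≤ ‖z - pt π ρ x w X‖ := Gi_456.norm_pi_le' hfr _
  have h5 : ‖R (z - pt π ρ x w X)‖ ≤ ‖z - pt π ρ x w X‖ := Gi_456.norm_rho_le' hfr _
  have h6 := norm_nonneg (z - pt π ρ x w X)
  calc ‖R (z - pt π ρ x w X) + (w' (P (pt π ρ x w X - z0)) - w' (P (z - z0)))‖
      ≤ ‖R (z - pt π ρ x w X)‖ + ‖w' (P (pt π ρ x w X - z0)) - w' (P (z - z0))‖ :=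
        norm_add_le _ _
    _ ≤ _ := by linarith

/-- **(A3), ball version with the constants of #9065** (`15 t` instead of `12 t`) -/
theorem near_pt14 {z : Euc k} (hz : ‖z - pt π ρ x w Xb‖ ≤ 14 * t) :
    z ∈ Gi_456.tube π ρ x 1 w ∧ ‖Gi_456.foot π ρ x 1 w z - Xb‖ ≤ 15 * t := by
  obtain ⟨h1, h2⟩ := h.near_pt le_rfl hz
  exact ⟨h1, by linarith⟩

end Bp

end Crest.Agent.R234.F35_354
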