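import Mathlib

/-!
Row 234, VF-CONE, part 1: slicing of Hausdorff measures over a cone.

If `A` lies in a sphere about `0` and the truncated cone `{s x : 1 ≤ s ≤ 2, x ∈ A}` is null for the
`(m+1)`-dimensional Hausdorff measure, then `A` is null for the `m`-dimensional one.
-/

set_option autoImplicit false

open MeasureTheory Set Metric
open scoped ENNReal NNReal Pointwise

namespace Crest.Agent.R234.Co1_696

variable {E : Type*} [NormedAddCommGroup E] [NormedSpace ℝ E] [MeasurableSpace E] [BorelSpace E]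

theorem slice_null {m : ℝ} (hm : 0 ≤ m) {R : ℝ} (hR : 0 < R) {A : Set E} (hA : A ⊆ sphere 0 R)
    {C : Set E} (hC : ∀ s ∈ Icc (1 : ℝ) 2, ∀ x ∈ A, s • x ∈ C) (h0 : μH[m + 1] C = 0) :
    μH[m] A = 0 := by
  rw [Measure.hausdorffMeasure_apply] at h0 ⊢
  refine le_antisymm ?_ zero_le
  refine iSup₂_le fun r hr => ?_
  -- it is enough to bound by any positive number
  refine ENNReal.le_of_forall_pos_le_add fun ε hε _ => ?_
  rw [zero_add]
  have hRR : ENNReal.ofReal R ≠ 0 := by simpa using hR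
  have hRt : ENNReal.ofReal R ≠ ⊤ := ENNReal.ofReal_ne_top
  have hε' : (0 : ℝ≥0∞) < (ε : ℝ≥0∞) * ENNReal.ofReal R :=
    ENNReal.mul_pos (by exact_mod_cast hε.ne') hRR
  have h1 : (⨅ (t : ℕ → Set E) (_ : C ⊆ ⋃ n, t n) (_ : ∀ n, ediam (t n) ≤ r),
      ∑' n, ⨆ _ : (t n).Nonempty, ediam (t n) ^ (m + 1)) < (ε : ℝ≥0∞) * ENNReal.ofReal R := by
    refine lt_of_le_of_lt ?_ hε'
    rw [← h0]
    exact le_iSup₂ (f := fun (r : ℝ≥0∞) (_ : 0 < r) =>
      ⨅ (t : ℕ → Set E) (_ : C ⊆ ⋃ n, t n) (_ : ∀ n, ediam (t n) ≤ r),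
      ∑' n, ⨆ _ : (t n).Nonempty, ediam (t n) ^ (m + 1)) r hr
  simp only [iInf_lt_iff] at h1
  obtain ⟨t, hcov, hdiam, hsum⟩ := h1
  -- radii of slices met by `t n`
  set J : ℕ → Set ℝ := fun n => (fun x : E => R⁻¹ * ‖x‖) '' t n with hJ
  have hJvol : ∀ n, volume (J n) ≤ ENNReal.ofReal R⁻¹ * ediam (t n) := by
    intro n
    refine (Real.volume_le_diam _).trans ?_
    have hlip : LipschitzWith (Real.toNNReal R⁻¹) (fun x : E => R⁻¹ * ‖x‖) := by
      refine LipschitzWith.of_dist_le_mul fun x y => ?_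
      rw [Real.coe_toNNReal _ (inv_nonneg.2 hR.le), Real.dist_eq, ← mul_sub, abs_mul,
        abs_of_nonneg (inv_nonneg.2 hR.le), dist_eq_norm]
      exact mul_le_mul_of_nonneg_left (abs_norm_sub_norm_le x y) (inv_nonneg.2 hR.le)
    exact hlip.ediam_image_le (t n)
  set c : ℕ → ℝ≥0∞ := fun n => ⨆ _ : (t n).Nonempty, ediam (t n) ^ m with hc
  set g : ℕ → ℝ → ℝ≥0∞ := fun n => (toMeasurable volume (J n)).indicator (fun _ => c n) with hg
  have hgm : ∀ n, Measurable (g n) := fun n =>
    measurable_const.indicator (measurableSet_toMeasurable _ _)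
  have hgi : ∀ n, ∫⁻ s in Icc (1 : ℝ) 2, g n s ≤
      ENNReal.ofReal R⁻¹ * ⨆ _ : (t n).Nonempty, ediam (t n) ^ (m + 1) := by
    intro n
    calc ∫⁻ s in Icc (1 : ℝ) 2, g n s ≤ ∫⁻ s, g n s := setLIntegral_le_lintegral _ _
      _ = c n * volume (J n) := by
          rw [hg]; simp only
          rw [lintegral_indicator_const (measurableSet_toMeasurable _ _), measure_toMeasurable]
      _ ≤ _ := by
          rcases (t n).eq_empty_or_nonempty with he | hne
          · have : J n = ∅ := by rw [hJ]; simp [he]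
            rw [this]; simp
          · have hcn : c n = ediam (t n) ^ m := by rw [hc]; simp [hne]
            have : (⨆ _ : (t n).Nonempty, ediam (t n) ^ (m + 1)) = ediam (t n) ^ (m + 1) := by
              simp [hne]
            rw [this, hcn, ENNReal.rpow_add_of_nonneg m 1 hm zero_le_one, ENNReal.rpow_one]
            calc ediam (t n) ^ m * volume (J n)
                ≤ ediam (t n) ^ m * (ENNReal.ofReal R⁻¹ * ediam (t n)) := by
                  gcongr; exact hJvol n
              _ = _ := by ring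
  have hprob : IsProbabilityMeasure (volume.restrict (Icc (1 : ℝ) 2)) := by
    constructor
    rw [Measure.restrict_apply_univ, Real.volume_Icc]; norm_num
  have hN : volume.restrict (Icc (1 : ℝ) 2) (Icc (1 : ℝ) 2)ᶜ = 0 := by
    rw [Measure.restrict_apply measurableSet_Icc.compl]; simp
  obtain ⟨s, hs, hsle⟩ := exists_notMem_null_le_lintegral
    (μ := volume.restrict (Icc (1 : ℝ) 2)) (f := fun s => ∑' n, g n s)
    (Measurable.tsum hgm).aemeasurable hN
  rw [Set.notMem_compl_iff] at hs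
  have hs0 : 0 < s := lt_of_lt_of_le one_pos hs.1
  have htot : ∑' n, g n s ≤ ε := by
    refine hsle.trans ?_
    rw [lintegral_tsum (fun n => (hgm n).aemeasurable)]
    calc ∑' n, ∫⁻ s in Icc (1 : ℝ) 2, g n s
        ≤ ∑' n, ENNReal.ofReal R⁻¹ * ⨆ _ : (t n).Nonempty, ediam (t n) ^ (m + 1) :=
          ENNReal.tsum_le_tsum hgi
      _ = ENNReal.ofReal R⁻¹ * ∑' n, ⨆ _ : (t n).Nonempty, ediam (t n) ^ (m + 1) :=
          ENNReal.tsum_mul_left
      _ ≤ ENNReal.ofReal R⁻¹ * ((ε : ℝ≥0∞) * ENNReal.ofReal R) := by gcongr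
      _ = ε := by
          rw [ENNReal.ofReal_inv_of_pos hR, mul_comm (ε : ℝ≥0∞), ← mul_assoc,
            ENNReal.inv_mul_cancel hRR hRt, one_mul]
  -- the covering of `A`
  classical
  set t' : ℕ → Set E := fun n => if s ∈ J n then s⁻¹ • t n else ∅ with ht'
  have hd' : ∀ n, ediam (t' n) ≤ ediam (t n) := by
    intro n
    rw [ht']; simp only
    split_ifs with h
    · have hlip : LipschitzWith 1 (fun x : E => s⁻¹ • x) := by
        refine LipschitzWith.of_dist_le_mul fun x y => ?_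
        rw [dist_eq_norm, ← smul_sub, norm_smul, Real.norm_of_nonneg (inv_nonneg.2 hs0.le),
          dist_eq_norm, NNReal.coe_one]
        exact mul_le_mul_of_nonneg_right (inv_le_one_of_one_le₀ hs.1) (norm_nonneg _)
      have := hlip.ediam_image_le (t n)
      rw [ENNReal.coe_one, one_mul] at this
      exact this
    · simp
  have hcov' : A ⊆ ⋃ n, t' n := by
    intro x hx
    obtain ⟨n, hn⟩ := mem_iUnion.1 (hcov (hC s hs x hx))
    refine mem_iUnion.2 ⟨n, ?_⟩
    have hsJ : s ∈ J n := by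
      refine ⟨s • x, hn, ?_⟩
      have hxR : ‖x‖ = R := by simpa using hA hx
      simp only [norm_smul, Real.norm_of_nonneg hs0.le, hxR]
      field_simp
    rw [ht']; simp only
    rw [if_pos hsJ]
    exact ⟨s • x, hn, by simp only; rw [smul_smul, inv_mul_cancel₀ hs0.ne', one_smul]⟩
  refine (iInf₂_le_of_le t' hcov' (iInf_le_of_le (fun n => (hd' n).trans (hdiam n)) le_rfl)).trans
    (le_trans (ENNReal.tsum_le_tsum fun n => ?_) htot)
  refine iSup_le fun hne => ?_
  have hsJ : s ∈ J n := by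
    by_contra hcon
    rw [ht'] at hne; simp only at hne
    rw [if_neg hcon] at hne
    exact Set.not_nonempty_empty hne
  have hne' : (t n).Nonempty := by
    obtain ⟨y, hy, -⟩ := hsJ
    exact ⟨y, hy⟩
  have hgs : g n s = ediam (t n) ^ m := by
    rw [hg]; simp only
    rw [indicator_of_mem (subset_toMeasurable _ _ hsJ), hc]
    simp [hne']
  rw [hgs]
  exact ENNReal.rpow_le_rpow (hd' n) hm

end Crest.Agent.R234.Co1_696
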