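import Mathlib
import Crest.Prelude.Def_Submanifold

/-!
Row 234, VF-CONE, part 2: the slice of a smooth cone by a sphere is a smooth submanifold.
-/

set_option autoImplicit false

open Set Metric Filter Topology
open scoped ENNReal NNReal RealInnerProductSpace

open Crest.GeometryTopology.Submanifold

namespace Crest.Agent.R234.Co2_696

/-- Radial direction is tangent: if `φ` parametrises a set containing `t • p` for `t` near `1`,
then some tangent vector is not orthogonal to `p = φ 0`. -/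
theorem exists_tangent {a K : ℕ} {φ : Euc a → Euc K} {V : Set (Euc a)} {S : Set (Euc K)}
    {p : Euc K} (hp : p ≠ 0) (hφ : IsLocalParam a K S p φ V)
    (hS : ∀ᶠ t : ℝ in 𝓝 1, t • p ∈ S) : ∃ v, ⟪p, fderiv ℝ φ 0 v⟫ ≠ 0 := by
  by_contra hcon
  push Not at hcon
  set L := fderiv ℝ φ 0 with hL
  have hd : HasFDerivAt φ L 0 := by
    have h1 : ContDiffAt ℝ (⊤ : ℕ∞) φ 0 := hφ.contDiffOn.contDiffAt (hφ.isOpen.mem_nhds hφ.zero_mem)
    exact (h1.differentiableAt (by simp)).hasFDerivAt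
  obtain ⟨C, hC0, hC⟩ := L.toLinearMap.injective_iff_antilipschitz.1
    (hφ.injective_fderiv 0 hφ.zero_mem)
  have hC0' : (0 : ℝ) < C := by exact_mod_cast hC0
  have hbound : ∀ v, ‖v‖ ≤ C * ‖L v‖ := fun v => by
    have := hC.le_mul_dist v 0
    simpa using this
  -- small error near `0`
  set ε : ℝ := (4 * C)⁻¹ with hε
  have hε0 : 0 < ε := by positivity
  have hev : ∀ᶠ h in 𝓝 (0 : Euc a), ‖φ h - φ 0 - L (h - 0)‖ ≤ ε * ‖h - 0‖ :=
    hd.isLittleO.def hε0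
  obtain ⟨N, hN, hNo, h0N⟩ := _root_.eventually_nhds_iff.1 (hev.and (hφ.isOpen.mem_nhds hφ.zero_mem))
  obtain ⟨U, hU, hUeq⟩ := hφ.image_open N (fun h hh => (hN h hh).2) hNo
  have hpU : p ∈ U := by
    have : φ 0 ∈ φ '' N := ⟨0, h0N, rfl⟩
    rw [hUeq, hφ.map_zero] at this
    exact this.2
  have hcont : Tendsto (fun t : ℝ => t • p) (𝓝 1) (𝓝 p) := by
    have : Continuous fun t : ℝ => t • p := by fun_prop
    simpa using this.tendsto 1
  have hev2 : ∀ᶠ t : ℝ in 𝓝 1, t • p ∈ S ∧ t • p ∈ U := hS.and (hcont (hU.mem_nhds hpU))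
  obtain ⟨δ, hδ, hball⟩ := Metric.eventually_nhds_iff.1 hev2
  set t : ℝ := 1 + δ / 2 with ht
  have htb := @hball t (by rw [Real.dist_eq, ht, add_sub_cancel_left, abs_of_pos (by positivity)]; linarith)
  have hmem : t • p ∈ φ '' N := by rw [hUeq]; exact htb
  obtain ⟨h, hhN, hh⟩ := hmem
  have herr := (hN h hhN).1
  rw [sub_zero, hh, hφ.map_zero] at herr
  set e : Euc K := t • p - p - L h with he
  have htp : t • p - p = (t - 1) • p := by rw [sub_smul, one_smul]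
  have ht1 : 0 < t - 1 := by rw [ht]; linarith
  have hpn : 0 < ‖p‖ := norm_pos_iff.2 hp
  have hinner : (t - 1) * ‖p‖ ^ 2 = ⟪p, e⟫ := by
    rw [he, htp, inner_sub_right, hcon h, sub_zero, inner_smul_right, real_inner_self_eq_norm_sq]
  have h1 : (t - 1) * ‖p‖ ^ 2 ≤ ‖p‖ * (ε * ‖h‖) := by
    rw [hinner]
    exact (real_inner_le_norm _ _).trans (mul_le_mul_of_nonneg_left herr (norm_nonneg _))
  have h2 : ‖L h‖ ≤ (t - 1) * ‖p‖ + ε * ‖h‖ := by
    have : L h = (t - 1) • p - e := by rw [he, htp]; abel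
    rw [this]
    refine (norm_sub_le _ _).trans ?_
    rw [norm_smul, Real.norm_of_nonneg ht1.le]
    exact add_le_add le_rfl herr
  have h3 : ‖h‖ ≤ C * ((t - 1) * ‖p‖) + 1 / 4 * ‖h‖ := by
    refine (hbound h).trans ?_
    calc (C : ℝ) * ‖L h‖ ≤ C * ((t - 1) * ‖p‖ + ε * ‖h‖) := by gcongr
      _ = _ := by rw [hε]; field_simp
  have h4 : ε * ‖h‖ ≤ 1 / 3 * ((t - 1) * ‖p‖) := by
    have : ‖h‖ ≤ 4 / 3 * (C * ((t - 1) * ‖p‖)) := by linarith
    calc ε * ‖h‖ ≤ ε * (4 / 3 * (C * ((t - 1) * ‖p‖))) := by gcongr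
      _ = _ := by rw [hε]; field_simp
  have h5 : (t - 1) * ‖p‖ ^ 2 ≤ 1 / 3 * ((t - 1) * ‖p‖ ^ 2) := by
    refine h1.trans ?_
    calc ‖p‖ * (ε * ‖h‖) ≤ ‖p‖ * (1 / 3 * ((t - 1) * ‖p‖)) := by gcongr
      _ = _ := by ring
  have h6 : 0 < (t - 1) * ‖p‖ ^ 2 := by positivity
  linarith

/-- a linear map injective on the kernel of a nonzero functional. -/
theorem exists_proj {m : ℕ} (l : Euc (m + 1) →L[ℝ] ℝ) (hl : ∃ v, l v ≠ 0) :
    ∃ π : Euc (m + 1) →L[ℝ] Euc m, ∀ v, l v = 0 → π v = 0 → v = 0 := by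
  have hsurj : Function.Surjective l := by
    obtain ⟨v, hv⟩ := hl
    intro c
    refine ⟨(c / l v) • v, ?_⟩
    rw [map_smul, smul_eq_mul, div_mul_cancel₀ _ hv]
  have hfr : Module.finrank ℝ (LinearMap.ker l.toLinearMap) = Module.finrank ℝ (Euc m) := by
    have h1 := LinearMap.finrank_range_add_finrank_ker l.toLinearMap
    have h2 : LinearMap.range l.toLinearMap = ⊤ := LinearMap.range_eq_top.2 hsurj
    rw [h2, finrank_top] at h1
    simp only [Module.finrank_self, finrank_euclideanSpace, Fintype.card_fin] at h1 ⊢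
    omega
  set e : LinearMap.ker l.toLinearMap ≃ₗ[ℝ] Euc m := LinearEquiv.ofFinrankEq _ _ hfr
  refine ⟨(LinearMap.toContinuousLinearMap e.toLinearMap).comp
    (LinearMap.ker l.toLinearMap).orthogonalProjectionOnto, fun v hv h => ?_⟩
  have hmem : v ∈ LinearMap.ker l.toLinearMap := hv
  have h1 : (LinearMap.ker l.toLinearMap).orthogonalProjectionOnto v = ⟨v, hmem⟩ :=
    Submodule.orthogonalProjectionOnto_mem_subspace_eq_self (⟨v, hmem⟩ : LinearMap.ker l.toLinearMap)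
  have h2 : e ((LinearMap.ker l.toLinearMap).orthogonalProjectionOnto v) = 0 := h
  rw [h1] at h2
  have h3 := (LinearEquiv.map_eq_zero_iff e).1 h2
  exact congrArg Subtype.val h3


theorem exists_equiv {m : ℕ} (A : Euc (m + 1) →L[ℝ] ℝ × Euc m) (hA : Function.Injective A) :
    ∃ e : Euc (m + 1) ≃L[ℝ] ℝ × Euc m, (e : Euc (m + 1) →L[ℝ] ℝ × Euc m) = A := by
  have hfr : Module.finrank ℝ (Euc (m + 1)) = Module.finrank ℝ (ℝ × Euc m) := by
    simp [Module.finrank_prod, add_comm]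
  refine ⟨(LinearMap.linearEquivOfInjective A.toLinearMap hA hfr).toContinuousLinearEquiv, ?_⟩
  ext v <;> rfl

theorem slice_param {m K : ℕ} {R s : ℝ} (hR : 0 < R) (hs : 0 < s) {S S' : Set (Euc K)}
    (hS : S ⊆ sphere 0 R)
    (hcone : ∀ x ∈ sphere (0 : Euc K) R, ∀ t : ℝ, 0 < t → (t • x ∈ S' ↔ x ∈ S))
    {W' : Set (Euc K)} (hW' : IsOpen W') {y : Euc K} (hy : y ∈ S) (hyW : s • y ∈ W')
    {φ : Euc (m + 1) → Euc K} {V : Set (Euc (m + 1))}
    (hφ : IsLocalParam (m + 1) K (S' ∩ W') (s • y) φ V) :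
    ∃ (ψ : Euc m → Euc K) (V₂ : Set (Euc m)), IsLocalParam m K (S ∩ {x | s • x ∈ W'}) y ψ V₂ := by
  have hyR : ‖y‖ = R := by simpa using hS hy
  set p := s • y with hp
  have hpn : ‖p‖ = s * R := by rw [hp, norm_smul, Real.norm_of_nonneg hs.le, hyR]
  have hp0 : p ≠ 0 := norm_pos_iff.1 (by rw [hpn]; positivity)
  have hev : ∀ᶠ t : ℝ in 𝓝 1, t • p ∈ S' ∩ W' := by
    have hcont : Tendsto (fun t : ℝ => t • p) (𝓝 1) (𝓝 p) := by
      have : Continuous fun t : ℝ => t • p := by fun_prop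
      simpa using this.tendsto 1
    filter_upwards [hcont (hW'.mem_nhds hyW), lt_mem_nhds (zero_lt_one' ℝ)] with t h1 h2
    refine ⟨?_, h1⟩
    rw [hp, smul_smul]
    exact (hcone y (hS hy) _ (mul_pos h2 hs)).2 hy
  obtain ⟨v₀, hv₀⟩ := exists_tangent hp0 hφ hev
  have hcda : ∀ h ∈ V, ContDiffAt ℝ (⊤ : ℕ∞) φ h := fun h hh =>
    hφ.contDiffOn.contDiffAt (hφ.isOpen.mem_nhds hh)
  have hda : ∀ h ∈ V, HasFDerivAt φ (fderiv ℝ φ h) h := fun h hh =>
    ((hcda h hh).differentiableAt (by simp)).hasFDerivAt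
  obtain ⟨π, hπ⟩ := exists_proj ((innerSL ℝ p).comp (fderiv ℝ φ 0)) ⟨v₀, by simpa using hv₀⟩
  set Ψ : Euc (m + 1) → ℝ × Euc m := fun h => (‖φ h‖ ^ 2 - ‖p‖ ^ 2, π h) with hΨ
  have hΨc : ContDiffOn ℝ (⊤ : ℕ∞) Ψ V :=
    ((hφ.contDiffOn.norm_sq ℝ).sub contDiffOn_const).prodMk π.contDiff.contDiffOn
  have hΨca : ∀ h ∈ V, ContDiffAt ℝ (⊤ : ℕ∞) Ψ h := fun h hh =>
    hΨc.contDiffAt (hφ.isOpen.mem_nhds hh)
  have hΨd : ∀ h ∈ V, HasFDerivAt Ψ (fderiv ℝ Ψ h) h := fun h hh =>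
    ((hΨca h hh).differentiableAt (by simp)).hasFDerivAt
  -- the derivative at `0`
  have hd0 : HasFDerivAt Ψ ((2 • (innerSL ℝ (φ 0)).comp (fderiv ℝ φ 0)).prod π) 0 := by
    have h1 : HasFDerivAt (fun h => ‖φ h‖ ^ 2 - ‖p‖ ^ 2)
        (2 • (innerSL ℝ (φ 0)).comp (fderiv ℝ φ 0)) 0 :=
      ((hda 0 hφ.zero_mem).norm_sq).sub_const _
    exact h1.prodMk π.hasFDerivAt
  have hinj0 : Function.Injective (fderiv ℝ Ψ 0) := by
    rw [hd0.fderiv, injective_iff_map_eq_zero]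
    intro v hv
    rw [ContinuousLinearMap.prod_apply, Prod.mk_eq_zero] at hv
    refine hπ v ?_ hv.2
    have h1 := hv.1
    rw [hφ.map_zero] at h1
    simpa using h1
  obtain ⟨e₀, he₀⟩ := exists_equiv _ hinj0
  set G := (hΨca 0 hφ.zero_mem).toOpenPartialHomeomorph Ψ (f' := e₀)
    (by rw [he₀]; exact hΨd 0 hφ.zero_mem) (by simp) with hG
  have hGc : (G : Euc (m + 1) → ℝ × Euc m) = Ψ := rfl
  have h0G : (0 : Euc (m + 1)) ∈ G.source :=
    ContDiffAt.mem_toOpenPartialHomeomorph_source _ _ _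
  -- the good open set
  set V' : Set (Euc (m + 1)) := V ∩ (fderiv ℝ Ψ) ⁻¹'
    (range ((↑) : (Euc (m + 1) ≃L[ℝ] ℝ × Euc m) → (Euc (m + 1) →L[ℝ] ℝ × Euc m))) with hV'
  have hV'o : IsOpen V' := by
    refine ContinuousOn.isOpen_inter_preimage ?_ hφ.isOpen ContinuousLinearEquiv.isOpen
    exact hΨc.continuousOn_fderiv_of_isOpen hφ.isOpen (by simp)
  have h0V' : (0 : Euc (m + 1)) ∈ V' := ⟨hφ.zero_mem, ⟨e₀, he₀⟩⟩
  have hΨ0 : Ψ 0 = (0, 0) := by rw [hΨ]; simp [hφ.map_zero]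
  set T : Set (ℝ × Euc m) := G.target ∩ G.symm ⁻¹' V' with hT
  have hTo : IsOpen T := G.isOpen_inter_preimage_symm hV'o
  set V₂ : Set (Euc m) := (fun b => ((0 : ℝ), b)) ⁻¹' T with hV₂
  set γ : Euc m → Euc (m + 1) := fun b => G.symm (0, b) with hγ
  have hγmem : ∀ b ∈ V₂, γ b ∈ V' ∧ γ b ∈ G.source ∧ Ψ (γ b) = (0, b) := by
    intro b hb
    refine ⟨hb.2, G.map_target hb.1, ?_⟩
    have := G.right_inv hb.1
    rwa [hGc] at this
  have h0T : ((0 : ℝ), (0 : Euc m)) ∈ T := by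
    have h1 : G 0 ∈ G.target := G.map_source h0G
    rw [hGc, hΨ0] at h1
    refine ⟨h1, ?_⟩
    have h2 := G.left_inv h0G
    rw [hGc, hΨ0] at h2
    show G.symm (0, 0) ∈ V'
    rw [h2]
    exact h0V'
  have hγ0 : γ 0 = 0 := by
    have h2 := G.left_inv h0G
    rw [hGc, hΨ0] at h2
    exact h2
  have hsymm : ∀ b ∈ V₂, ∃ e : Euc (m + 1) ≃L[ℝ] ℝ × Euc m,
      HasFDerivAt G.symm (e.symm : ℝ × Euc m →L[ℝ] Euc (m + 1)) (0, b) ∧
      ContDiffAt ℝ (⊤ : ℕ∞) G.symm (0, b) := by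
    intro b hb
    obtain ⟨e, he⟩ := hb.2.2
    have h1 : HasFDerivAt G (e : Euc (m + 1) →L[ℝ] ℝ × Euc m) (G.symm (0, b)) := by
      rw [he]; exact hΨd _ hb.2.1
    exact ⟨e, G.hasFDerivAt_symm hb.1 h1, G.contDiffAt_symm hb.1 h1 (hΨca _ hb.2.1)⟩
  have hγd : ∀ b ∈ V₂, ContDiffAt ℝ (⊤ : ℕ∞) γ b := by
    intro b hb
    obtain ⟨e, -, h⟩ := hsymm b hb
    exact h.comp b (contDiffAt_const.prodMk contDiffAt_id)
  have hγd' : ∀ b ∈ V₂, ∃ L : Euc m →L[ℝ] Euc (m + 1), Function.Injective L ∧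
      HasFDerivAt γ L b := by
    intro b hb
    obtain ⟨e, h, -⟩ := hsymm b hb
    refine ⟨(e.symm : ℝ × Euc m →L[ℝ] Euc (m + 1)).comp (ContinuousLinearMap.inr ℝ ℝ (Euc m)),
      ?_, ?_⟩
    · exact e.symm.injective.comp (fun x y hxy => (Prod.ext_iff.1 hxy).2)
    · refine h.comp b ?_
      exact (hasFDerivAt_const _ _).prodMk (hasFDerivAt_id _)
  have hγinj : InjOn γ V₂ := by
    intro b hb c hc hbc
    have h1 := (hγmem b hb).2.2
    have h2 := (hγmem c hc).2.2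
    rw [hbc, h2] at h1
    exact (Prod.ext_iff.1 h1).2.symm
  refine ⟨fun b => s⁻¹ • φ (γ b), V₂, ⟨?_, h0T, ?_, ?_, ?_, ?_, ?_⟩⟩
  · exact hTo.preimage (by fun_prop)
  · show s⁻¹ • φ (γ 0) = y
    rw [hγ0, hφ.map_zero, hp, smul_smul, inv_mul_cancel₀ hs.ne', one_smul]
  · intro b hb
    exact (((hcda _ (hγmem b hb).1.1).comp b (hγd b hb)).const_smul s⁻¹).contDiffWithinAt
  · intro b hb c hc hbc
    have h1 : φ (γ b) = φ (γ c) := smul_right_injective _ (inv_ne_zero hs.ne') hbc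
    exact hγinj hb hc (hφ.injOn (hγmem b hb).1.1 (hγmem c hc).1.1 h1)
  · intro b hb
    obtain ⟨L, hL, hLd⟩ := hγd' b hb
    have h1 : HasFDerivAt (fun b => s⁻¹ • φ (γ b)) (s⁻¹ • (fderiv ℝ φ (γ b)).comp L) b :=
      ((hda _ (hγmem b hb).1.1).comp b hLd).const_smul s⁻¹
    rw [h1.fderiv]
    intro v w hvw
    have h2 : fderiv ℝ φ (γ b) (L v) = fderiv ℝ φ (γ b) (L w) :=
      smul_right_injective _ (inv_ne_zero hs.ne') hvw
    exact hL (hφ.injective_fderiv _ (hγmem b hb).1.1 h2)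
  · intro W₁ hW₁ hW₁o
    set O : Set (Euc (m + 1)) := (G.source ∩ V') ∩ π ⁻¹' W₁ with hO
    have hOo : IsOpen O := (G.open_source.inter hV'o).inter (hW₁o.preimage π.continuous)
    obtain ⟨U₁, hU₁, hU₁e⟩ := hφ.image_open O (fun h hh => hh.1.2.1) hOo
    refine ⟨(fun x => s • x) ⁻¹' U₁, hU₁.preimage (by fun_prop), ?_⟩
    ext z
    constructor
    · rintro ⟨b, hb, rfl⟩
      obtain ⟨h1, h2, h3⟩ := hγmem b (hW₁ hb)
      have h3a : ‖φ (γ b)‖ ^ 2 - ‖p‖ ^ 2 = 0 := congrArg Prod.fst h3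
      have h3b : π (γ b) = b := congrArg Prod.snd h3
      have hmem : γ b ∈ O := ⟨⟨h2, h1⟩, by rw [mem_preimage, h3b]; exact hb⟩
      have hφm : φ (γ b) ∈ (S' ∩ W') ∩ U₁ := by rw [← hU₁e]; exact ⟨_, hmem, rfl⟩
      have hss : s • s⁻¹ • φ (γ b) = φ (γ b) := by
        rw [smul_smul, mul_inv_cancel₀ hs.ne', one_smul]
      have hnorm : ‖φ (γ b)‖ = s * R := by
        rw [← hpn]
        exact (pow_left_inj₀ (norm_nonneg _) (norm_nonneg _) two_ne_zero).1 (by linarith)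
      have hsph : s⁻¹ • φ (γ b) ∈ sphere (0 : Euc K) R := by
        rw [mem_sphere_zero_iff_norm, norm_smul, Real.norm_of_nonneg (inv_nonneg.2 hs.le), hnorm,
          ← mul_assoc, inv_mul_cancel₀ hs.ne', one_mul]
      refine ⟨⟨?_, ?_⟩, ?_⟩
      · rw [← hcone _ hsph s hs, hss]; exact hφm.1.1
      · show s • s⁻¹ • φ (γ b) ∈ W'
        rw [hss]; exact hφm.1.2
      · show s • s⁻¹ • φ (γ b) ∈ U₁
        rw [hss]; exact hφm.2
    · rintro ⟨⟨hzS, hzW⟩, hzU⟩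
      have hzR : ‖z‖ = R := by simpa using hS hzS
      have hmem : s • z ∈ (S' ∩ W') ∩ U₁ :=
        ⟨⟨(hcone z (hS hzS) s hs).2 hzS, hzW⟩, hzU⟩
      rw [← hU₁e] at hmem
      obtain ⟨h, hhO, hhz⟩ := hmem
      refine ⟨π h, hhO.2, ?_⟩
      have h1 : Ψ h = (0, π h) := by
        rw [hΨ]
        simp only [hhz, Prod.mk.injEq, and_true]
        rw [norm_smul, Real.norm_of_nonneg hs.le, hzR, hpn, sub_self]
      have h2 : γ (π h) = h := by
        have := G.left_inv hhO.1.1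
        rw [hGc, h1] at this
        exact this
      show s⁻¹ • φ (γ (π h)) = z
      rw [h2, hhz, smul_smul, inv_mul_cancel₀ hs.ne', one_smul]

/-- A smooth cone has smooth spherical slices. -/
theorem slice_submanifold {m K : ℕ} {R s : ℝ} (hR : 0 < R) (hs : 0 < s) {S S' : Set (Euc K)}
    (hS : S ⊆ sphere 0 R)
    (hcone : ∀ x ∈ sphere (0 : Euc K) R, ∀ t : ℝ, 0 < t → (t • x ∈ S' ↔ x ∈ S))
    {W' : Set (Euc K)} (hW' : IsOpen W') (hsub : IsSubmanifold (m + 1) K (S' ∩ W')) :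
    IsSubmanifold m K (S ∩ {x | s • x ∈ W'}) := by
  intro y hy
  obtain ⟨φ, V, hφ⟩ := hsub (s • y) ⟨(hcone y (hS hy.1) s hs).2 hy.1, hy.2⟩
  exact slice_param hR hs hS hcone hW' hy.1 hy.2 hφ

end Crest.Agent.R234.Co2_696
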