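import Crest.Agent.R234.Vf3_884

/-!
Row 234, VF-CONE, part 3: calculus of the cone chart `(t, a) ↦ t f(a)`.
-/

set_option autoImplicit false

open Set MeasureTheory
open scoped ENNReal NNReal RealInnerProductSpace

open Crest.GeometryTopology.Submanifold
open Crest.Agent.R234.Vf_884

noncomputable section

namespace Crest.Agent.R234.Co3_696

variable {m k : ℕ}

/-- the last `m` coordinates. -/
def tl (m : ℕ) : Euc (m + 1) →L[ℝ] Euc m :=
  LinearMap.toContinuousLinearMap
    { toFun := fun p => WithLp.toLp 2 (fun i : Fin m => p i.succ)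
      map_add' := fun p q => by ext i; rfl
      map_smul' := fun c p => by ext i; rfl }

@[simp] theorem tl_apply (p : Euc (m + 1)) (i : Fin m) : tl m p i = p i.succ := rfl

/-- the first coordinate. -/
def hd (m : ℕ) : Euc (m + 1) →L[ℝ] ℝ := EuclideanSpace.proj 0

@[simp] theorem hd_apply (p : Euc (m + 1)) : hd m p = p 0 := rfl

theorem eq_zero_of {p : Euc (m + 1)} (h0 : hd m p = 0) (h : tl m p = 0) : p = 0 := by
  ext i
  refine Fin.cases ?_ (fun j => ?_) i
  · exact h0
  · have := congrArg (fun q : Euc m => q j) h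
    exact this

theorem eq_of {p q : Euc (m + 1)} (h0 : hd m p = hd m q) (h : tl m p = tl m q) : p = q := by
  rw [← sub_eq_zero]
  exact eq_zero_of (by rw [map_sub, h0, sub_self]) (by rw [map_sub, h, sub_self])

/-- the cone chart. -/
def cmap (f : Euc m → Euc k) (p : Euc (m + 1)) : Euc k := hd m p • f (tl m p)

variable {f : Euc m → Euc k}

theorem contDiff_cmap (hf : ContDiff ℝ 1 f) : ContDiff ℝ 1 (cmap f) :=
  (hd m).contDiff.smul (hf.comp (tl m).contDiff)

theorem hasFDerivAt_cmap (hf : ContDiff ℝ 1 f) (p : Euc (m + 1)) :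
    HasFDerivAt (cmap f)
      (hd m p • (fderiv ℝ f (tl m p)).comp (tl m) + (hd m).smulRight (f (tl m p))) p := by
  have h1 : HasFDerivAt (fun p => f (tl m p)) ((fderiv ℝ f (tl m p)).comp (tl m)) p :=
    HasFDerivAt.comp p (hf.differentiable one_ne_zero _).hasFDerivAt (tl m).hasFDerivAt
  exact (hd m).hasFDerivAt.smul h1

theorem fderiv_cmap_apply (hf : ContDiff ℝ 1 f) (p v : Euc (m + 1)) :
    fderiv ℝ (cmap f) p v = hd m p • fderiv ℝ f (tl m p) (tl m v) + hd m v • f (tl m p) := by
  rw [(hasFDerivAt_cmap hf p).fderiv]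
  rfl

theorem hd_stdVec_zero : hd m (stdVec (m + 1) 0) = 1 := by simp [stdVec]

theorem tl_stdVec_zero : tl m (stdVec (m + 1) 0) = 0 := by
  ext j; simp [stdVec]

theorem hd_stdVec_succ (j : Fin m) : hd m (stdVec (m + 1) j.succ) = 0 := by
  simp [stdVec]

theorem tl_stdVec_succ (j : Fin m) : tl m (stdVec (m + 1) j.succ) = stdVec m j := by
  ext i; simp [stdVec, Pi.single_apply]

theorem pd_cmap_zero (hf : ContDiff ℝ 1 f) (p : Euc (m + 1)) : pd (cmap f) p 0 = f (tl m p) := by
  rw [pd, fderiv_cmap_apply hf, hd_stdVec_zero, tl_stdVec_zero, map_zero, smul_zero, zero_add,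
    one_smul]

theorem pd_cmap_succ (hf : ContDiff ℝ 1 f) (p : Euc (m + 1)) (j : Fin m) :
    pd (cmap f) p j.succ = hd m p • pd f (tl m p) j := by
  rw [pd, fderiv_cmap_apply hf, hd_stdVec_succ, tl_stdVec_succ, zero_smul, add_zero]
  rfl

/-- the chart value is orthogonal to the tangent space. -/
def Orth (f : Euc m → Euc k) (a : Euc m) : Prop := ∀ j, ⟪f a, pd f a j⟫ = 0

theorem Orth.fderiv {a : Euc m} (h : Orth f a) (v : Euc m) : ⟪f a, fderiv ℝ f a v⟫ = 0 := by
  rw [← sum_smul_pd, inner_sum]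
  refine Finset.sum_eq_zero fun j _ => ?_
  rw [inner_smul_right, h j, mul_zero]

theorem isClosed_orth (hf : ContDiff ℝ 1 f) : IsClosed {a | Orth f a} := by
  have : {a | Orth f a} = ⋂ j, {a | ⟪f a, pd f a j⟫ = 0} := by ext a; simp [Orth]
  rw [this]
  exact isClosed_iInter fun j => isClosed_eq (hf.continuous.inner (continuous_pd hf j))
    continuous_const

theorem det_metricMat_cmap (hf : ContDiff ℝ 1 f) {p : Euc (m + 1)} (ho : Orth f (tl m p)) :
    (metricMat (cmap f) p).det
      = ‖f (tl m p)‖ ^ 2 * ((hd m p ^ 2) ^ m * (metricMat f (tl m p)).det) := by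
  rw [Matrix.det_succ_row_zero, Fin.sum_univ_succ, Finset.sum_eq_zero (s := Finset.univ)]
  · have h1 : metricMat (cmap f) p 0 0 = ‖f (tl m p)‖ ^ 2 := by
      rw [metricMat, Matrix.of_apply, pd_cmap_zero hf, real_inner_self_eq_norm_sq]
    have h2 : (metricMat (cmap f) p).submatrix Fin.succ (Fin.succAbove 0)
        = (hd m p ^ 2) • metricMat f (tl m p) := by
      ext i j
      rw [Matrix.submatrix_apply, Matrix.smul_apply, metricMat, Matrix.of_apply, metricMat,
        Matrix.of_apply, Fin.succAbove_zero, pd_cmap_succ hf, pd_cmap_succ hf, inner_smul_left,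
        inner_smul_right, smul_eq_mul]
      simp; ring
    rw [h1, h2, Matrix.det_smul]
    simp
  · intro j _
    have : metricMat (cmap f) p 0 j.succ = 0 := by
      rw [metricMat, Matrix.of_apply, pd_cmap_zero hf, pd_cmap_succ hf, inner_smul_right, ho j,
        mul_zero]
    rw [this]; ring

theorem jac_cmap (hf : ContDiff ℝ 1 f) {p : Euc (m + 1)} (ho : Orth f (tl m p))
    (h0 : 0 ≤ hd m p) : jac (cmap f) p = ‖f (tl m p)‖ * hd m p ^ m * jac f (tl m p) := by
  rw [jac, det_metricMat_cmap hf ho, jac, Real.sqrt_mul (sq_nonneg _),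
    Real.sqrt_sq (norm_nonneg _), Real.sqrt_mul (by positivity), ← pow_mul, mul_comm 2 m, pow_mul,
    Real.sqrt_sq (pow_nonneg h0 _), mul_assoc]

theorem projF_cmap (hf : ContDiff ℝ 1 f) {p : Euc (m + 1)} (ho : Orth f (tl m p))
    (h0 : 0 < hd m p) (hf0 : f (tl m p) ≠ 0) :
    projF (cmap f) p = projF f (tl m p)
      + (‖f (tl m p)‖ ^ 2)⁻¹ • (innerSL ℝ (f (tl m p))).smulRight (f (tl m p)) := by
  set x := f (tl m p) with hx
  have hxn : ‖x‖ ^ 2 ≠ 0 := pow_ne_zero _ (norm_ne_zero_iff.2 hf0)
  have hle : tangentAt f (tl m p) ≤ tangentAt (cmap f) p := by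
    refine Submodule.span_le.2 ?_
    rintro _ ⟨j, rfl⟩
    have h1 : pd f (tl m p) j = (hd m p)⁻¹ • pd (cmap f) p j.succ := by
      rw [pd_cmap_succ hf, smul_smul, inv_mul_cancel₀ h0.ne', one_smul]
    rw [h1]
    exact Submodule.smul_mem _ _ (Submodule.subset_span ⟨_, rfl⟩)
  have hxm : x ∈ tangentAt (cmap f) p := Submodule.subset_span ⟨0, pd_cmap_zero hf p⟩
  have hort : ∀ w ∈ tangentAt f (tl m p), ⟪x, w⟫ = 0 := by
    intro w hw
    rw [tangentAt_eq_range] at hw
    obtain ⟨v, rfl⟩ := hw
    exact ho.fderiv v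
  ext1 v
  unfold projF
  refine Submodule.eq_starProjection_of_mem_of_inner_eq_zero (K := tangentAt (cmap f) p) ?_ ?_
  · refine Submodule.add_mem _ (hle (Submodule.starProjection_apply_mem _ v)) ?_
    exact Submodule.smul_mem _ _ (Submodule.smul_mem _ _ hxm)
  · -- orthogonality to the spanning vectors
    have hspan : ∀ j, ⟪v - ((tangentAt f (tl m p)).starProjection +
        (‖x‖ ^ 2)⁻¹ • (innerSL ℝ x).smulRight x) v, pd (cmap f) p j⟫ = 0 := by
      have hv : ((tangentAt f (tl m p)).starProjection +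
        (‖x‖ ^ 2)⁻¹ • (innerSL ℝ x).smulRight x) v = (tangentAt f (tl m p)).starProjection v
          + ((‖x‖ ^ 2)⁻¹ * ⟪x, v⟫) • x := by
        simp [smul_smul]
      intro j
      rw [hv]
      refine Fin.cases ?_ (fun j => ?_) j
      · rw [pd_cmap_zero hf, ← hx, inner_sub_left, inner_add_left, inner_smul_left,
          real_inner_self_eq_norm_sq, real_inner_comm x ((tangentAt f (tl m p)).starProjection v),
          hort _ (Submodule.starProjection_apply_mem _ v), real_inner_comm v x]
        simp only [conj_trivial]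
        field_simp
        ring
      · rw [pd_cmap_succ hf, inner_smul_right, ← sub_sub, inner_sub_left, inner_smul_left]
        have h1 : ⟪v - (tangentAt f (tl m p)).starProjection v, pd f (tl m p) j⟫ = 0 :=
          Submodule.starProjection_inner_eq_zero v _ (Submodule.subset_span ⟨j, rfl⟩)
        rw [h1, hx, ho j]
        simp
    intro w hw
    induction hw using Submodule.span_induction with
    | mem w hw => obtain ⟨j, rfl⟩ := hw; exact hspan j
    | zero => exact inner_zero_right _
    | add a b _ _ ha hb => rw [inner_add_right, ha, hb, add_zero]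
    | smul c a _ ha => rw [inner_smul_right, ha, mul_zero]

/-- `|f| = R` on a measurable set forces orthogonality almost everywhere on it. -/
theorem ae_orth (hf : ContDiff ℝ 1 f) {s : Set (Euc m)} (hs : MeasurableSet s) {R : ℝ}
    (hR : ∀ a ∈ s, ‖f a‖ = R) : ∀ᵐ a ∂(volume.restrict s), Orth f a := by
  rcases Nat.eq_zero_or_pos m with rfl | hm
  · exact Filter.Eventually.of_forall fun a j => j.elim0
  set w : Euc m := stdVec m ⟨0, hm⟩ with hw
  have hw0 : w ≠ 0 := by
    intro h
    have := congrArg (fun q : Euc m => q ⟨0, hm⟩) h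
    simp [hw, stdVec] at this
  set F : Euc m → Euc m := fun a => ‖f a‖ ^ 2 • w with hF
  set F' : Euc m → (Euc m →L[ℝ] Euc m) := fun a =>
    (2 • (innerSL ℝ (f a)).comp (fderiv ℝ f a)).smulRight w with hF'
  have hd : ∀ a, HasFDerivAt F (F' a) a := fun a =>
    ((hf.differentiable one_ne_zero a).hasFDerivAt.norm_sq).smul_const w
  have happ : ApproximatesLinearOn F (0 : Euc m →L[ℝ] Euc m) s 0 := by
    intro x hx y hy
    simp only [hF, hR x hx, hR y hy]
    simp
  have h1 := happ.norm_fderiv_sub_le volume hs F' fun x _ => (hd x).hasFDerivWithinAt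
  filter_upwards [h1] with a ha j
  have h2 : F' a = 0 := by
    have : ‖F' a - 0‖₊ = 0 := le_antisymm ha zero_le
    simpa using this
  have h3 := congrArg (fun A : Euc m →L[ℝ] Euc m => A (stdVec m j)) h2
  simp only [hF', ContinuousLinearMap.smulRight_apply, ContinuousLinearMap.zero_apply,
    smul_eq_zero, hw0, or_false] at h3
  have h4 : (2 • (innerSL ℝ (f a)).comp (fderiv ℝ f a)) (stdVec m j)
      = 2 * ⟪f a, pd f a j⟫ := by
    simp [pd, two_smul, two_mul]
  rw [h4] at h3
  linarith

end Crest.Agent.R234.Co3_696
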