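import Crest.Agent.R234.Co3_696

/-!
Row 234, VF-CONE, part 4: cone data over spherical data, its measures.
-/

set_option autoImplicit false

open Set MeasureTheory
open scoped ENNReal NNReal RealInnerProductSpace

open Crest.GeometryTopology.Submanifold
open Crest.Agent.R234.Vf_884 Crest.Agent.R234.Co3_696

noncomputable section

namespace Crest.Agent.R234.Co4_696

variable {m k : ℕ}

/-! ### general measure theory -/

section Gen

variable {α β γ : Type*} [MeasurableSpace α] [MeasurableSpace β] [MeasurableSpace γ]

theorem map_withDensity_comp (μ : Measure α) {s : α → β} (hs : Measurable s) {g : β → ℝ≥0∞}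
    (hg : Measurable g) : (μ.withDensity (fun a => g (s a))).map s = (μ.map s).withDensity g := by
  refine Measure.ext_of_lintegral _ fun φ hφ => ?_
  have h1 : ∫⁻ a, φ (s a) ∂(μ.withDensity fun a => g (s a))
      = ∫⁻ a, ((fun a => g (s a)) * (fun a => φ (s a))) a ∂μ :=
    lintegral_withDensity_eq_lintegral_mul _ (hg.comp hs) (hφ.comp hs)
  rw [lintegral_map hφ hs, h1,
    lintegral_withDensity_eq_lintegral_mul _ hg hφ, lintegral_map (hg.mul hφ) hs]
  rfl

theorem map_prod_map_ae (μ : Measure α) (ν : Measure β) [SFinite μ] [SFinite ν] {g : β → γ}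
    (hg : AEMeasurable g ν) : (μ.prod ν).map (Prod.map id g) = μ.prod (ν.map g) := by
  have h1 : Prod.map id g =ᵐ[μ.prod ν] Prod.map (id : α → α) (hg.mk g) := by
    have := Measure.quasiMeasurePreserving_snd (μ := μ) (ν := ν) |>.ae hg.ae_eq_mk
    filter_upwards [this] with z hz
    exact Prod.ext rfl hz
  rw [Measure.map_congr h1, Measure.map_congr hg.ae_eq_mk,
    ← Measure.map_prod_map _ _ measurable_id hg.measurable_mk, Measure.map_id]

end Gen

/-! ### splitting coordinates -/

/-- splitting off the first coordinate. -/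
def spl (m : ℕ) : Euc (m + 1) ≃ᵐ ℝ × Euc m :=
  (MeasurableEquiv.toLp 2 (Fin (m + 1) → ℝ)).symm.trans
    ((MeasurableEquiv.piFinSuccAbove (fun _ => ℝ) 0).trans
      ((MeasurableEquiv.refl ℝ).prodCongr (MeasurableEquiv.toLp 2 (Fin m → ℝ))))

theorem spl_apply (p : Euc (m + 1)) : spl m p = (hd m p, tl m p) := by
  refine Prod.ext rfl ?_
  ext i
  rfl

theorem mp_spl : MeasurePreserving (spl m) volume (volume.prod volume) := by
  have h1 := EuclideanSpace.volume_preserving_symm_measurableEquiv_toLp (Fin (m + 1))
  have h2 := volume_preserving_piFinSuccAbove (fun _ : Fin (m + 1) => ℝ) 0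
  have h3 : MeasurePreserving
      ((MeasurableEquiv.refl ℝ).prodCongr (MeasurableEquiv.toLp 2 (Fin m → ℝ)))
      (volume.prod volume) (volume.prod volume) :=
    (MeasurePreserving.id (volume : Measure ℝ)).prod (PiLp.volume_preserving_toLp (Fin m))
  exact (h3.comp h2).comp h1

/-! ### cone data -/

/-- the cone over the data. -/
def cone (D : VarifoldData m k) : VarifoldData (m + 1) k where
  chart i := cmap (D.chart i)
  dom i := {p | 0 < hd m p ∧ tl m p ∈ D.dom i}
  mult i p := D.mult i (tl m p)

/-- integral data in a sphere, with the orthogonality holding everywhere. -/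
structure Sph (R : ℝ) (D : VarifoldData m k) : Prop where
  pos : 0 < R
  int : IsIntegralVarifoldIn univ D
  norm : ∀ i, ∀ a ∈ D.dom i, ‖D.chart i a‖ = R
  orth : ∀ i, ∀ a ∈ D.dom i, Orth (D.chart i) a

/-- the radial measure. -/
def tau (m : ℕ) (R : ℝ) : Measure ℝ :=
  (volume.restrict (Ioi 0)).withDensity fun t => ENNReal.ofReal (R * t ^ m)

theorem measurable_rad (m : ℕ) (R : ℝ) : Measurable fun t : ℝ => ENNReal.ofReal (R * t ^ m) := by
  fun_prop

variable {R : ℝ} {D : VarifoldData m k}

instance : SFinite (tau m R) := by unfold tau; infer_instance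

theorem dom_cone (i : ℕ) : (cone D).dom i = spl m ⁻¹' (Ioi 0 ×ˢ D.dom i) := by
  ext p
  rw [mem_preimage, spl_apply]
  rfl

theorem measurableSet_dom_cone (h : IsIntegralVarifoldIn univ D) (i : ℕ) :
    MeasurableSet ((cone D).dom i) := by
  rw [dom_cone]
  exact (spl m).measurable (measurableSet_Ioi.prod (h.measurableSet i))

theorem jac_nonneg {f : Euc m → Euc k} {a : Euc m} : 0 ≤ jac f a := Real.sqrt_nonneg _

theorem dens_cone (h : Sph R D) {i : ℕ} {p : Euc (m + 1)} (hp : p ∈ (cone D).dom i) :
    dens (cone D) i p = ENNReal.ofReal (R * (hd m p) ^ m) * dens D i (tl m p) := by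
  obtain ⟨h0, h1⟩ := hp
  unfold dens
  have h2 : jac ((cone D).chart i) p = _ := jac_cmap (h.int.contDiff i) (h.orth i _ h1) h0.le
  rw [h2, h.norm i _ h1, ← ENNReal.ofReal_mul (mul_nonneg h.pos.le (pow_nonneg h0.le _))]
  congr 1
  show (D.mult i (tl m p) : ℝ) * _ = _
  ring

theorem map_base_cone (h : Sph R D) (i : ℕ) :
    (base (cone D) i).map (spl m) = (tau m R).prod (base D i) := by
  set g : ℝ × Euc m → ℝ≥0∞ := fun z => ENNReal.ofReal (R * z.1 ^ m) * dens D i z.2 with hg
  have hgm : Measurable g :=
    ((measurable_rad m R).comp measurable_fst).mul ((measurable_dens h.int i).comp measurable_snd)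
  have h1 : base (cone D) i
      = (volume.restrict (spl m ⁻¹' (Ioi 0 ×ˢ D.dom i))).withDensity (fun p => g (spl m p)) := by
    unfold base
    rw [← dom_cone]
    refine withDensity_congr_ae ?_
    filter_upwards [ae_restrict_mem (measurableSet_dom_cone h.int i)] with p hp
    rw [dens_cone h hp, spl_apply]
  rw [h1, map_withDensity_comp _ (spl m).measurable hgm,
    ← Measure.restrict_map (spl m).measurable (measurableSet_Ioi.prod (h.int.measurableSet i)),
    mp_spl.map_eq, ← Measure.prod_restrict]
  unfold tau base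
  rw [prod_withDensity (measurable_rad m R) (measurable_dens h.int i)]

instance (i : ℕ) : SFinite (base D i) := by unfold base; infer_instance

/-- the weight of the cone. -/
theorem weight_cone (h : Sph R D) :
    weight (cone D) = ((tau m R).prod (weight D)).map (fun z => z.1 • z.2) := by
  have hsm : Measurable fun z : ℝ × Euc k => z.1 • z.2 := by fun_prop
  have e1 : weight (cone D) = Measure.sum fun i => (base (cone D) i).map (cmap (D.chart i)) := rfl
  have e2 : weight D = Measure.sum fun i => (base D i).map (D.chart i) := rfl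
  have e3 : ∀ i, SFinite ((base D i).map (D.chart i)) := fun i => inferInstance
  rw [e1, e2, Measure.prod_sum_right, Measure.map_sum hsm.aemeasurable]
  congr 1
  funext i
  have hfm : Measurable (D.chart i) := (h.int.contDiff i).continuous.measurable
  have h2 : cmap (D.chart i)
      = (fun z : ℝ × Euc k => z.1 • z.2) ∘ (Prod.map id (D.chart i)) ∘ (spl m) := by
    funext p
    simp only [Function.comp_apply, spl_apply, Prod.map, id]
    rfl
  rw [h2, ← Measure.map_map hsm (by fun_prop),
    ← Measure.map_map (by fun_prop) (spl m).measurable, map_base_cone h,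
    map_prod_map_ae _ _ hfm.aemeasurable]

/-- the lifted cone map. -/
def Th (R : ℝ) (z : ℝ × (Euc k × L k)) : Euc k × L k :=
  (z.1 • z.2.1, z.2.2 + (R ^ 2)⁻¹ • (innerSL ℝ z.2.1).smulRight z.2.1)

theorem continuous_rk : Continuous fun x : Euc k => (innerSL ℝ x).smulRight x := by
  have : (fun x : Euc k => (innerSL ℝ x).smulRight x)
      = fun x : Euc k => ContinuousLinearMap.smulRightL ℝ (Euc k) (Euc k) (innerSL ℝ x) x := by
    funext x; rfl
  rw [this]
  fun_prop

theorem continuous_Th (R : ℝ) : Continuous (Th R : ℝ × (Euc k × L k) → Euc k × L k) := by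
  unfold Th
  refine Continuous.prodMk (by fun_prop) ?_
  have := continuous_rk (k := k).comp (continuous_fst.comp
    (continuous_snd (X := ℝ) (Y := Euc k × L k)))
  exact (continuous_snd.comp continuous_snd).add (this.const_smul ((R ^ 2)⁻¹))

theorem lift_cone (h : Sph R D) {i : ℕ} {p : Euc (m + 1)} (hp : p ∈ (cone D).dom i) :
    lift (cone D) i p = Th R (hd m p, lift D i (tl m p)) := by
  obtain ⟨h0, h1⟩ := hp
  have hne : D.chart i (tl m p) ≠ 0 := by
    rw [← norm_ne_zero_iff, h.norm i _ h1]; exact h.pos.ne'
  refine Prod.ext rfl ?_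
  show projF (cmap (D.chart i)) p = _
  rw [projF_cmap (h.int.contDiff i) (h.orth i _ h1) h0 hne, h.norm i _ h1]
  rfl

theorem VD_cone (h : Sph R D) :
    VD (cone D) = ((tau m R).prod (VD D)).map (Th R) := by
  have hTh := (continuous_Th (k := k) R).measurable
  have e1 : VD (cone D) = Measure.sum fun i => (base (cone D) i).map (lift (cone D) i) := rfl
  have e2 : VD D = Measure.sum fun i => (base D i).map (lift D i) := rfl
  rw [e1, e2, Measure.prod_sum_right, Measure.map_sum hTh.aemeasurable]
  congr 1
  funext i
  have hl := aemeasurable_lift h.int i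
  have h2 : lift (cone D) i =ᵐ[base (cone D) i]
      (Th R) ∘ (Prod.map id (lift D i)) ∘ (spl m) := by
    have h3 : ∀ᵐ p ∂(base (cone D) i), p ∈ (cone D).dom i :=
      (base_ac (cone D) i).ae_le (ae_restrict_mem (measurableSet_dom_cone h.int i))
    filter_upwards [h3] with p hp
    rw [lift_cone h hp]
    simp only [Function.comp_apply, spl_apply, Prod.map, id]
  have hm1 : AEMeasurable (Prod.map id (lift D i)) ((tau m R).prod (base D i)) := by
    refine (measurable_fst.aemeasurable).prodMk ?_
    exact hl.comp_quasiMeasurePreserving Measure.quasiMeasurePreserving_snd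
  have hm2 : AEMeasurable (Prod.map id (lift D i)) ((base (cone D) i).map (spl m)) := by
    rw [map_base_cone h]; exact hm1
  rw [Measure.map_congr h2, ← AEMeasurable.map_map_of_aemeasurable hTh.aemeasurable
      (hm2.comp_aemeasurable (spl m).measurable.aemeasurable),
    ← AEMeasurable.map_map_of_aemeasurable hm2 (spl m).measurable.aemeasurable,
    map_base_cone h, map_prod_map_ae _ _ hl]

end Crest.Agent.R234.Co4_696
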