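import Crest.Agent.R234.Co4_696

/-!
Row 234, VF-CONE, part 5: the cone data are integral away from the origin; reduction to data with
the orthogonality everywhere.
-/

set_option autoImplicit false

open Set MeasureTheory Metric
open scoped ENNReal NNReal RealInnerProductSpace

open Crest.GeometryTopology.Submanifold
open Crest.Agent.R234.Vf_884 Crest.Agent.R234.Co3_696 Crest.Agent.R234.Co4_696

noncomputable section

namespace Crest.Agent.R234.Co5_696

variable {m k : ℕ} {R : ℝ} {D : VarifoldData m k}

/-! ### concentration -/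

theorem VD_sph (h : Sph R D) : ∀ᵐ z ∂(VD D), ‖z.1‖ = R ∧ z.2 z.1 = 0 ∧ z.2 ∈ G m k := by
  have h1 : ∀ᵐ z ∂(VD D), ‖z.1‖ = R ∧ z.2 z.1 = 0 := by
    have hcl : IsClosed {z : Euc k × L k | ‖z.1‖ = R ∧ z.2 z.1 = 0} :=
      (isClosed_eq (by fun_prop) continuous_const).inter (isClosed_eq (by fun_prop) continuous_const)
    refine Measure.ae_sum_iff.2 fun i => ?_
    refine (ae_map_iff (aemeasurable_lift h.int i) hcl.measurableSet).2 ?_
    filter_upwards [base_ae_dom h.int i] with a ha
    refine ⟨h.norm i a ha, ?_⟩
    show (tangentAt (D.chart i) a).starProjection (D.chart i a) = 0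
    refine Submodule.eq_starProjection_of_mem_of_inner_eq_zero (Submodule.zero_mem _) ?_
    intro w hw
    rw [tangentAt_eq_range] at hw
    obtain ⟨v, rfl⟩ := hw
    rw [sub_zero]
    exact (h.orth i a ha).fderiv v
  filter_upwards [h1, VD_conc h.int] with z hz hz'
  exact ⟨hz.1, hz.2, hz'⟩

theorem weight_sph (h : Sph R D) : ∀ᵐ x ∂(weight D), ‖x‖ = R := by
  rw [← VD_fst h.int, ae_map_iff measurable_fst.aemeasurable
    (isClosed_eq continuous_norm continuous_const).measurableSet]
  filter_upwards [VD_sph h] with z hz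
  exact hz.1

theorem weight_univ (h : Sph R D) : weight D univ < ⊤ := by
  have h1 : weight D univ ≤ weight D (sphere 0 R) := by
    refine measure_mono_ae ?_
    filter_upwards [weight_sph h] with x hx _
    exact mem_sphere_zero_iff_norm.2 hx
  exact h1.trans_lt (h.int.locallyFinite _ (isCompact_sphere 0 R) (subset_univ _))

theorem VD_univ (h : Sph R D) : VD D univ < ⊤ := by
  rw [← univ_prod_univ, VD_prod_univ h.int MeasurableSet.univ]
  exact weight_univ h

theorem isFinite_VD (h : Sph R D) : IsFiniteMeasure (VD D) := ⟨VD_univ h⟩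

theorem tau_pos : ∀ᵐ t ∂(tau m R), 0 < t :=
  (withDensity_absolutelyContinuous _ _).ae_le (ae_restrict_mem measurableSet_Ioi)

theorem tau_Iic (hR : 0 < R) (b : ℝ) : tau m R (Iic b) < ⊤ := by
  unfold tau
  rw [withDensity_apply _ measurableSet_Iic, Measure.restrict_restrict measurableSet_Iic]
  calc ∫⁻ t in Iic b ∩ Ioi 0, ENNReal.ofReal (R * t ^ m)
      ≤ ∫⁻ _ in Iic b ∩ Ioi 0, ENNReal.ofReal (R * |b| ^ m) := by
        refine setLIntegral_mono' (measurableSet_Iic.inter measurableSet_Ioi) fun t ht => ?_
        refine ENNReal.ofReal_le_ofReal (mul_le_mul_of_nonneg_left ?_ hR.le)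
        exact pow_le_pow_left₀ (le_of_lt ht.2) (ht.1.trans (le_abs_self b)) m
    _ = ENNReal.ofReal (R * |b| ^ m) * volume (Iic b ∩ Ioi 0) := setLIntegral_const _ _
    _ < ⊤ := by
        refine ENNReal.mul_lt_top ENNReal.ofReal_lt_top ?_
        refine lt_of_le_of_lt (measure_mono (t := Icc 0 b) fun t ht => ⟨le_of_lt ht.2, ht.1⟩) ?_
        rw [Real.volume_Icc]; exact ENNReal.ofReal_lt_top

/-! ### the cone data are integral -/

theorem cone_norm (h : Sph R D) {i : ℕ} {p : Euc (m + 1)} (hp : p ∈ (cone D).dom i) :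
    ‖(cone D).chart i p‖ = hd m p * R := by
  show ‖hd m p • D.chart i (tl m p)‖ = _
  rw [norm_smul, Real.norm_of_nonneg hp.1.le, h.norm i _ hp.2]

theorem cone_eq (h : Sph R D) {i j : ℕ} {p q : Euc (m + 1)} (hp : p ∈ (cone D).dom i)
    (hq : q ∈ (cone D).dom j) (he : (cone D).chart i p = (cone D).chart j q) :
    hd m p = hd m q ∧ D.chart i (tl m p) = D.chart j (tl m q) := by
  have h1 : hd m p = hd m q := by
    have := congrArg norm he
    rw [cone_norm h hp, cone_norm h hq] at this
    exact mul_right_cancel₀ h.pos.ne' this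
  refine ⟨h1, ?_⟩
  have h2 : hd m p • D.chart i (tl m p) = hd m q • D.chart j (tl m q) := he
  rw [← h1] at h2
  exact smul_right_injective _ hp.1.ne' h2

theorem int_cone (h : Sph R D) : IsIntegralVarifoldIn {(0 : Euc k)}ᶜ (cone D) where
  measurableSet := measurableSet_dom_cone h.int
  contDiff i := contDiff_cmap (h.int.contDiff i)
  injOn i p hp q hq he := by
    obtain ⟨h1, h2⟩ := cone_eq h hp hq he
    exact eq_of h1 (h.int.injOn i hp.2 hq.2 h2)
  injective_fderiv i p hp := by
    show Function.Injective (fderiv ℝ (cmap (D.chart i)) p)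
    rw [injective_iff_map_eq_zero]
    intro v hv
    rw [fderiv_cmap_apply (h.int.contDiff i)] at hv
    have h1 : hd m v = 0 := by
      have h2 := congrArg (fun w => ⟪D.chart i (tl m p), w⟫) hv
      simp only [inner_add_right, inner_smul_right, inner_zero_right] at h2
      rw [(h.orth i _ hp.2).fderiv, real_inner_self_eq_norm_sq, h.norm i _ hp.2] at h2
      have h3 : hd m v * R ^ 2 = 0 := by linarith
      exact (mul_eq_zero.1 h3).resolve_right (pow_ne_zero _ h.pos.ne')
    rw [h1, zero_smul, add_zero] at hv
    have h4 : fderiv ℝ (D.chart i) (tl m p) (tl m v) = 0 :=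
      (smul_eq_zero.1 hv).resolve_left hp.1.ne'
    have h5 : tl m v = 0 := by
      have := h.int.injective_fderiv i _ hp.2
      exact (injective_iff_map_eq_zero _).1 this _ h4
    exact eq_zero_of h1 h5
  disjoint i j hij := by
    rw [Set.disjoint_left]
    rintro _ ⟨p, hp, rfl⟩ ⟨q, hq, he⟩
    obtain ⟨-, h2⟩ := cone_eq h hq hp he
    exact Set.disjoint_left.1 (h.int.disjoint i j hij) ⟨_, hp.2, rfl⟩ ⟨_, hq.2, h2⟩
  subset i := by
    rintro _ ⟨p, hp, rfl⟩
    rw [mem_compl_singleton_iff, ← norm_ne_zero_iff, cone_norm h hp]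
    exact (mul_pos hp.1 h.pos).ne'
  measurable_mult i := (h.int.measurable_mult i).comp (tl m).continuous.measurable
  mult_pos i p hp := h.int.mult_pos i _ hp.2
  locallyFinite K hK _ := by
    have hsm : Measurable fun z : ℝ × Euc k => z.1 • z.2 := by fun_prop
    rw [weight_cone h, Measure.map_apply hsm hK.measurableSet]
    obtain ⟨ρ, hρ⟩ := hK.isBounded.subset_closedBall 0
    have hfin : SFinite (weight D) := by
      have : IsFiniteMeasure (weight D) := ⟨weight_univ h⟩
      infer_instance
    have h1 : ∀ᵐ z ∂((tau m R).prod (weight D)), 0 < z.1 ∧ ‖z.2‖ = R := by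
      have e1 := Measure.quasiMeasurePreserving_fst (μ := tau m R) (ν := weight D) |>.ae tau_pos
      have e2 := Measure.quasiMeasurePreserving_snd (μ := tau m R) (ν := weight D) |>.ae
        (weight_sph h)
      filter_upwards [e1, e2] with z h1 h2
      exact ⟨h1, h2⟩
    calc ((tau m R).prod (weight D)) ((fun z : ℝ × Euc k => z.1 • z.2) ⁻¹' K)
        ≤ ((tau m R).prod (weight D)) (Iic (ρ / R) ×ˢ univ) := by
          refine measure_mono_ae ?_
          filter_upwards [h1] with z hz hzK
          refine ⟨?_, mem_univ _⟩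
          have h2 := hρ hzK
          rw [mem_closedBall_zero_iff, norm_smul, hz.2, Real.norm_of_nonneg hz.1.le] at h2
          exact (le_div_iff₀ h.pos).2 h2
      _ = tau m R (Iic (ρ / R)) * weight D univ := Measure.prod_prod _ _
      _ < ⊤ := ENNReal.mul_lt_top (tau_Iic h.pos _) (weight_univ h)

/-! ### reduction -/

/-- restriction to the points where the orthogonality holds. -/
def red (D : VarifoldData m k) : VarifoldData m k where
  chart := D.chart
  dom i := D.dom i ∩ {a | Orth (D.chart i) a}
  mult := D.mult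

theorem restrict_red (hD : IsIntegralVarifoldIn univ D)
    (hn : ∀ i, ∀ a ∈ D.dom i, ‖D.chart i a‖ = R) (i : ℕ) :
    volume.restrict ((red D).dom i) = volume.restrict (D.dom i) := by
  refine Measure.restrict_congr_set ?_
  have h1 := (ae_restrict_iff' (hD.measurableSet i)).1
    (ae_orth (hD.contDiff i) (hD.measurableSet i) (hn i))
  filter_upwards [h1] with a ha
  refine propext ⟨fun h => h.1, fun h => ⟨h, ha h⟩⟩

theorem weight_red (hD : IsIntegralVarifoldIn univ D)
    (hn : ∀ i, ∀ a ∈ D.dom i, ‖D.chart i a‖ = R) : weight (red D) = weight D := by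
  unfold weight
  congr 1
  funext i
  rw [restrict_red hD hn]
  rfl

theorem fv_red (hD : IsIntegralVarifoldIn univ D)
    (hn : ∀ i, ∀ a ∈ D.dom i, ‖D.chart i a‖ = R) (X : Euc k → Euc k) :
    firstVariation (red D) X = firstVariation D X := by
  unfold firstVariation
  congr 1
  funext i
  rw [restrict_red hD hn]
  rfl

theorem sph_red (hR : 0 < R) (hD : IsIntegralVarifoldIn univ D)
    (hn : ∀ i, ∀ a ∈ D.dom i, ‖D.chart i a‖ = R) : Sph R (red D) where
  pos := hR
  norm i a ha := hn i a ha.1
  orth i a ha := ha.2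
  int :=
    { measurableSet := fun i => (hD.measurableSet i).inter
        (isClosed_orth (hD.contDiff i)).measurableSet
      contDiff := hD.contDiff
      injOn := fun i => (hD.injOn i).mono inter_subset_left
      injective_fderiv := fun i a ha => hD.injective_fderiv i a ha.1
      disjoint := fun i j hij => (hD.disjoint i j hij).mono (image_mono inter_subset_left)
        (image_mono inter_subset_left)
      subset := fun i => subset_univ _
      measurable_mult := hD.measurable_mult
      mult_pos := fun i a ha => hD.mult_pos i a ha.1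
      locallyFinite := fun K hK hKU => by
        rw [weight_red hD hn]; exact hD.locallyFinite K hK hKU }

end Crest.Agent.R234.Co5_696
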