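import Crest.Agent.R234.Co5_696

/-!
Row 234, VF-CONE, part 6: the cone over a spherical stationary integral varifold is stationary away
from the origin.
-/

set_option autoImplicit false

open Set MeasureTheory Metric Filter Topology
open scoped ENNReal NNReal RealInnerProductSpace

open Crest.GeometryTopology.Submanifold
open Crest.Agent.R234.Vf_884 Crest.Agent.R234.Co3_696 Crest.Agent.R234.Co4_696
  Crest.Agent.R234.Co5_696

noncomputable section

namespace Crest.Agent.R234.Co6_696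

variable {m k : ℕ} {R : ℝ} {D : VarifoldData m k} {X : Euc k → Euc k}

/-- the radial integrand. -/
def H2 (m : ℕ) (R : ℝ) (X : Euc k → Euc k) (z : ℝ × (Euc k × L k)) : ℝ :=
  (R ^ 2)⁻¹ * (m * z.1⁻¹ * ⟪X (z.1 • z.2.1), z.2.1⟫ +
    ⟪fderiv ℝ X (z.1 • z.2.1) z.2.1, z.2.1⟫)

theorem hasDerivAt_comp (hX : ContDiff ℝ 1 X) (x : Euc k) (t : ℝ) :
    HasDerivAt (fun t : ℝ => X (t • x)) (fderiv ℝ X (t • x) x) t := by
  have h1 : HasDerivAt (fun t : ℝ => t • x) ((1 : ℝ) • x) t := (hasDerivAt_id t).smul_const x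
  rw [one_smul] at h1
  exact (hX.differentiable one_ne_zero (t • x)).hasFDerivAt.comp_hasDerivAt t h1

/-- the radial integral vanishes. -/
theorem radial_zero (hX : ContDiff ℝ 1 X) (hXc : HasCompactSupport X) (hX0 : X 0 = 0) (hR : 0 < R)
    {w : Euc k × L k} (hw : ‖w.1‖ = R) : ∫ t, H2 m R X (t, w) ∂(tau m R) = 0 := by
  set x := w.1 with hx
  have hx0 : x ≠ 0 := norm_ne_zero_iff.1 (by rw [hw]; exact hR.ne')
  have hcs : HasCompactSupport (fun t : ℝ => X (t • x)) :=
    hXc.comp_isClosedEmbedding (isClosedEmbedding_smul_left hx0)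
  have hcs2 : HasCompactSupport (fun t : ℝ => fderiv ℝ X (t • x)) :=
    (hXc.fderiv ℝ).comp_isClosedEmbedding (isClosedEmbedding_smul_left hx0)
  set u : ℝ → ℝ := fun t => t ^ m * ⟪X (t • x), x⟫ with hu
  set u' : ℝ → ℝ := fun t => m * t ^ (m - 1) * ⟪X (t • x), x⟫
    + t ^ m * ⟪fderiv ℝ X (t • x) x, x⟫ with hu'
  have hd : ∀ t, HasDerivAt u (u' t) t := by
    intro t
    have h1 := (hasDerivAt_comp hX x t).inner ℝ (hasDerivAt_const t x)
    rw [inner_zero_right, zero_add] at h1
    exact (hasDerivAt_pow m t).mul h1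
  have hu'c : Continuous u' := by
    have h1 : Continuous fun t : ℝ => X (t • x) := hX.continuous.comp (by fun_prop)
    have h2 : Continuous fun t : ℝ => fderiv ℝ X (t • x) :=
      (hX.continuous_fderiv one_ne_zero).comp (by fun_prop)
    have h3 : Continuous fun t : ℝ => fderiv ℝ X (t • x) x := h2.clm_apply continuous_const
    exact ((continuous_const.mul (continuous_pow _)).mul (h1.inner continuous_const)).add
      ((continuous_pow _).mul (h3.inner continuous_const))
  have hu's : HasCompactSupport u' := by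
    refine HasCompactSupport.add ?_ ?_
    · refine HasCompactSupport.mono hcs fun t ht => ?_
      contrapose! ht
      rw [Function.notMem_support] at ht ⊢
      simp only [ht, inner_zero_left, mul_zero]
    · refine HasCompactSupport.mono hcs2 fun t ht => ?_
      contrapose! ht
      rw [Function.notMem_support] at ht ⊢
      simp [ht]
  have hint : IntegrableOn u' (Ioi 0) := (hu'c.integrable_of_hasCompactSupport hu's).integrableOn
  have htend : Tendsto u atTop (𝓝 0) := by
    have h1 : HasCompactSupport u := by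
      refine HasCompactSupport.mono hcs fun t ht => ?_
      contrapose! ht
      rw [Function.notMem_support] at ht ⊢
      simp only [hu, ht, inner_zero_left, mul_zero]
    have h2 := h1.is_zero_at_infty
    exact h2.mono_left atTop_le_cocompact
  have hFTC := integral_Ioi_of_hasDerivAt_of_tendsto' (a := (0 : ℝ)) (fun t _ => hd t) hint htend
  have hu0 : u 0 = 0 := by
    simp only [hu, zero_smul, hX0, inner_zero_left, mul_zero]
  rw [hu0, sub_zero] at hFTC
  unfold tau
  rw [integral_withDensity_eq_integral_toReal_smul (measurable_rad m R)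
    (Eventually.of_forall fun t => ENNReal.ofReal_lt_top)]
  have h3 : ∫ t in Ioi (0 : ℝ), (ENNReal.ofReal (R * t ^ m)).toReal • H2 m R X (t, w)
      = ∫ t in Ioi (0 : ℝ), R⁻¹ * u' t := by
    refine setIntegral_congr_fun measurableSet_Ioi fun t ht => ?_
    have ht0 : (0 : ℝ) < t := ht
    rw [ENNReal.toReal_ofReal (mul_nonneg hR.le (pow_nonneg ht0.le _)), smul_eq_mul, H2, hu']
    simp only
    rw [← hx]
    have h4 : (m : ℝ) * t ^ (m - 1) = m * (t ^ m * t⁻¹) := by
      rcases Nat.eq_zero_or_pos m with h | h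
      · simp [h]
      · congr 1
        rw [eq_mul_inv_iff_mul_eq₀ ht0.ne', ← pow_succ, Nat.sub_add_cancel h]
    rw [h4]
    field_simp
  rw [h3, integral_const_mul, hFTC, mul_zero]

/-- the tangential part of the dilated field. -/
def Zt (R t : ℝ) (X : Euc k → Euc k) (x : Euc k) : Euc k :=
  X (t • x) - ((R ^ 2)⁻¹ * ⟪X (t • x), x⟫) • x

theorem hasFDerivAt_Zt (hX : ContDiff ℝ 1 X) (R t : ℝ) (x : Euc k) :
    HasFDerivAt (Zt R t X)
      (t • fderiv ℝ X (t • x)
        - (((R ^ 2)⁻¹ * ⟪X (t • x), x⟫) • ContinuousLinearMap.id ℝ (Euc k) +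
          ((R ^ 2)⁻¹ • (innerSL ℝ (X (t • x)) + t • (innerSL ℝ x).comp (fderiv ℝ X (t • x)))).smulRight
            x)) x := by
  have h0 : HasFDerivAt (fun x : Euc k => t • x) (t • ContinuousLinearMap.id ℝ (Euc k)) x :=
    (hasFDerivAt_id x).const_smul t
  have h1 : HasFDerivAt (fun x : Euc k => X (t • x)) (t • fderiv ℝ X (t • x)) x := by
    have := (hX.differentiable one_ne_zero (t • x)).hasFDerivAt.comp x h0
    refine this.congr_fderiv ?_
    ext v : 1; simp
  have h2 : HasFDerivAt (fun x : Euc k => (R ^ 2)⁻¹ * ⟪X (t • x), x⟫)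
      ((R ^ 2)⁻¹ • (innerSL ℝ (X (t • x)) + t • (innerSL ℝ x).comp (fderiv ℝ X (t • x)))) x := by
    have h3 := (h1.inner ℝ (hasFDerivAt_id x)).const_mul ((R ^ 2)⁻¹)
    refine h3.congr_fderiv ?_
    ext v
    simp [fderivInnerCLM_apply, inner_smul_left, real_inner_comm]
    ring
  exact h1.sub (h2.smul (hasFDerivAt_id x))

theorem tr_Zt (hX : ContDiff ℝ 1 X) (hR : 0 < R) {t : ℝ} (ht : 0 < t) {w : Euc k × L k}
    (h1 : ‖w.1‖ = R) (h2 : w.2 w.1 = 0) (h3 : w.2 ∈ G m k) :
    tr ((fderiv ℝ X (Th R (t, w)).1) ∘L (Th R (t, w)).2)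
      = t⁻¹ * tr ((fderiv ℝ (Zt R t X) w.1) ∘L w.2) + H2 m R X (t, w) := by
  obtain ⟨x, P⟩ := w
  simp only at h1 h2 h3
  rw [(hasFDerivAt_Zt hX R t x).fderiv]
  simp only [Th, H2]
  rw [ContinuousLinearMap.comp_add, map_add, ContinuousLinearMap.sub_comp, map_sub,
    ContinuousLinearMap.add_comp, map_add, tr_smulRight_comp, h2, map_zero, add_zero]
  have e1 : (t • fderiv ℝ X (t • x)) ∘L P = t • ((fderiv ℝ X (t • x)) ∘L P) := by
    ext v : 1; simp
  have e2 : (((R ^ 2)⁻¹ * ⟪X (t • x), x⟫) • ContinuousLinearMap.id ℝ (Euc k)) ∘L P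
      = ((R ^ 2)⁻¹ * ⟪X (t • x), x⟫) • P := by
    ext v : 1; simp
  have e3 : (fderiv ℝ X (t • x)) ∘L ((R ^ 2)⁻¹ • (innerSL ℝ x).smulRight x)
      = (R ^ 2)⁻¹ • ((innerSL ℝ x).smulRight (fderiv ℝ X (t • x) x)) ∘L
        ContinuousLinearMap.id ℝ (Euc k) := by
    ext v : 1; simp
  rw [e1, e2, e3, map_smul, map_smul, map_smul, tr_smulRight_comp, h3.2.2]
  simp only [smul_eq_mul, ContinuousLinearMap.id_apply, innerSL_apply_apply]
  rw [real_inner_comm x (fderiv ℝ X (t • x) x)]
  field_simp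
  ring

theorem fv_slice (h : Sph R D) (hstat : ∀ X : Euc k → Euc k, ContDiff ℝ 1 X →
    HasCompactSupport X → (∀ x ∈ sphere (0 : Euc k) R, ⟪X x, x⟫ = 0) → firstVariation D X = 0)
    (hX : ContDiff ℝ 1 X) (hXc : HasCompactSupport X) {t : ℝ} (ht : 0 < t) :
    ContDiff ℝ 1 (Zt R t X) ∧ HasCompactSupport (Zt R t X) ∧
      ∫ p, tr ((fderiv ℝ (Zt R t X) p.1) ∘L p.2) ∂(VD D) = 0 := by
  have hXt : ContDiff ℝ 1 fun x : Euc k => X (t • x) := hX.comp (contDiff_const_smul t)
  have hZ : ContDiff ℝ 1 (Zt R t X) :=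
    hXt.sub ((contDiff_const.mul (hXt.inner ℝ contDiff_id)).smul contDiff_id)
  have hXtc : HasCompactSupport fun x : Euc k => X (t • x) :=
    hXc.comp_homeomorph (Homeomorph.smulOfNeZero t ht.ne')
  have hZc : HasCompactSupport (Zt R t X) := by
    refine HasCompactSupport.mono hXtc fun x hx => ?_
    contrapose! hx
    rw [Function.notMem_support] at hx ⊢
    simp only [Zt, hx, inner_zero_left, mul_zero, zero_smul, sub_zero]
  refine ⟨hZ, hZc, ?_⟩
  rw [← firstVariation_eq h.int hZ hZc (subset_univ _)]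
  refine hstat _ hZ hZc fun x hx => ?_
  have hx' : ‖x‖ = R := mem_sphere_zero_iff_norm.1 hx
  rw [Zt, inner_sub_left, inner_smul_left, real_inner_self_eq_norm_sq, hx']
  have := h.pos.ne'
  simp only [conj_trivial]
  field_simp
  ring

/-- integrability of the radial integrand. -/
theorem integrable_H2 (h : Sph R D) (hX : ContDiff ℝ 1 X) (hXc : HasCompactSupport X)
    (hXU : tsupport X ⊆ {(0 : Euc k)}ᶜ) :
    Integrable (H2 m R X) ((tau m R).prod (VD D)) := by
  have := isFinite_VD h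
  have hR := h.pos
  -- support bounds
  obtain ⟨M, hM⟩ := hXc.isBounded.subset_closedBall 0
  obtain ⟨ε, hε, hεb⟩ : ∃ ε > 0, ∀ x, ‖x‖ < ε → x ∉ tsupport X := by
    have h1 : (tsupport X)ᶜ ∈ 𝓝 (0 : Euc k) :=
      (isClosed_tsupport X).isOpen_compl.mem_nhds fun h0 => hXU h0 rfl
    obtain ⟨ε, hε, hb⟩ := Metric.mem_nhds_iff.1 h1
    exact ⟨ε, hε, fun x hx => hb (mem_ball_zero_iff.2 hx)⟩
  set S : Set (ℝ × (Euc k × L k)) :=
    Icc (ε / R) (M / R) ×ˢ (sphere (0 : Euc k) R ×ˢ G m k) with hS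
  have hSc : IsCompact S := isCompact_Icc.prod ((isCompact_sphere 0 R).prod (isCompact_G m k))
  have hcont : ContinuousOn (H2 m R X) S := by
    have h1 : Continuous fun z : ℝ × (Euc k × L k) => X (z.1 • z.2.1) :=
      hX.continuous.comp (by fun_prop)
    have h2 : Continuous fun z : ℝ × (Euc k × L k) => fderiv ℝ X (z.1 • z.2.1) z.2.1 :=
      ((hX.continuous_fderiv one_ne_zero).comp (by fun_prop)).clm_apply (by fun_prop)
    have h3 : ContinuousOn (fun z : ℝ × (Euc k × L k) => z.1⁻¹) S :=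
      continuousOn_fst.inv₀ fun z hz => ne_of_gt (lt_of_lt_of_le (div_pos hε hR) hz.1.1)
    have h4 : Continuous fun z : ℝ × (Euc k × L k) => z.2.1 := by fun_prop
    exact continuousOn_const.mul (((continuousOn_const.mul h3).mul
      (h1.inner h4).continuousOn).add (h2.inner h4).continuousOn)
  obtain ⟨C, hC⟩ := hSc.exists_bound_of_continuousOn hcont
  have hfin : ((tau m R).prod (VD D)) S < ⊤ := by
    calc ((tau m R).prod (VD D)) S ≤ ((tau m R).prod (VD D)) (Iic (M / R) ×ˢ univ) :=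
          measure_mono fun z hz => ⟨hz.1.2, mem_univ _⟩
      _ = tau m R (Iic (M / R)) * VD D univ := Measure.prod_prod _ _
      _ < ⊤ := ENNReal.mul_lt_top (tau_Iic hR _) (VD_univ h)
  have hint : IntegrableOn (H2 m R X) S ((tau m R).prod (VD D)) := by
    refine IntegrableOn.of_bound hfin (hcont.aestronglyMeasurable hSc.measurableSet) C ?_
    filter_upwards [ae_restrict_mem hSc.measurableSet] with z hz
    exact hC z hz
  refine hint.integrable_of_ae_notMem_eq_zero ?_
  have e1 := Measure.quasiMeasurePreserving_fst (μ := tau m R) (ν := VD D) |>.ae tau_pos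
  have e2 := Measure.quasiMeasurePreserving_snd (μ := tau m R) (ν := VD D) |>.ae (VD_sph h)
  filter_upwards [e1, e2] with z hz1 hz2 hzS
  have hnorm : ‖z.1 • z.2.1‖ = z.1 * R := by
    rw [norm_smul, hz2.1, Real.norm_of_nonneg hz1.le]
  have hnot : z.1 • z.2.1 ∉ tsupport X := by
    intro hmem
    refine hzS ⟨⟨?_, ?_⟩, mem_sphere_zero_iff_norm.2 hz2.1, hz2.2.2⟩
    · by_contra hcon
      push Not at hcon
      refine hεb _ ?_ hmem
      rw [hnorm]
      exact (lt_div_iff₀ hR).1 hcon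
    · have := hM hmem
      rw [mem_closedBall_zero_iff, hnorm] at this
      exact (le_div_iff₀ hR).2 this
  have hX0 : X (z.1 • z.2.1) = 0 := image_eq_zero_of_notMem_tsupport hnot
  have hX1 : fderiv ℝ X (z.1 • z.2.1) = 0 := by
    by_contra hcon
    exact hnot (support_fderiv_subset ℝ hcon)
  simp [H2, hX0, hX1]

/-- the cone over a spherical stationary varifold is stationary away from `0`. -/
theorem stat_cone (h : Sph R D) (hstat : ∀ X : Euc k → Euc k, ContDiff ℝ 1 X →
    HasCompactSupport X → (∀ x ∈ sphere (0 : Euc k) R, ⟪X x, x⟫ = 0) → firstVariation D X = 0) :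
    IsStationaryIn {(0 : Euc k)}ᶜ (cone D) := by
  intro X hX hXc hXU
  have hfinV := isFinite_VD h
  have hD' := int_cone h
  have hFi := integrable_fv (VD_conc hD') hX hXc (VD_fin hD' hXc hXU)
  have hFc : Continuous fun p : Euc k × L k => tr ((fderiv ℝ X p.1) ∘L p.2) :=
    tr.continuous.comp (((hX.continuous_fderiv one_ne_zero).comp continuous_fst).clm_comp
      continuous_snd)
  have hTh := (continuous_Th (k := k) R)
  rw [firstVariation_eq hD' hX hXc hXU]
  rw [VD_cone h] at hFi ⊢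
  rw [integral_map hTh.aemeasurable hFc.aestronglyMeasurable]
  rw [integrable_map_measure hFc.aestronglyMeasurable hTh.aemeasurable] at hFi
  change Integrable (fun z => tr ((fderiv ℝ X (Th R z).1) ∘L (Th R z).2)) _ at hFi
  have hX0 : X 0 = 0 := image_eq_zero_of_notMem_tsupport fun h0 => hXU h0 rfl
  have hH2 := integrable_H2 h hX hXc hXU
  rw [integral_prod _ hFi]
  have hA : ∀ᵐ t ∂(tau m R), ∫ w, tr ((fderiv ℝ X (Th R (t, w)).1) ∘L (Th R (t, w)).2) ∂(VD D)
      = ∫ w, H2 m R X (t, w) ∂(VD D) := by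
    filter_upwards [tau_pos, hH2.prod_right_ae] with t ht hti
    obtain ⟨hZ, hZc, hZ0⟩ := fv_slice h hstat hX hXc ht
    have hZi := integrable_fv (VD_conc h.int) hZ hZc (VD_fin h.int hZc (subset_univ _))
    have h1 : ∫ w, tr ((fderiv ℝ X (Th R (t, w)).1) ∘L (Th R (t, w)).2) ∂(VD D)
        = ∫ w, (t⁻¹ * tr ((fderiv ℝ (Zt R t X) w.1) ∘L w.2) + H2 m R X (t, w)) ∂(VD D) := by
      refine integral_congr_ae ?_
      filter_upwards [VD_sph h] with w hw
      exact tr_Zt hX h.pos ht hw.1 hw.2.1 hw.2.2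
    rw [h1, integral_add (hZi.const_mul _) hti, integral_const_mul, hZ0, mul_zero, zero_add]
  have hB : ∫ t, ∫ w, tr ((fderiv ℝ X (Th R (t, w)).1) ∘L (Th R (t, w)).2) ∂(VD D) ∂(tau m R)
      = ∫ t, ∫ w, H2 m R X (t, w) ∂(VD D) ∂(tau m R) := integral_congr_ae hA
  rw [hB, integral_integral_swap (f := fun t w => H2 m R X (t, w)) hH2]
  have hC : ∀ᵐ w ∂(VD D), ∫ t, H2 m R X (t, w) ∂(tau m R) = 0 := by
    filter_upwards [VD_sph h] with w hw
    exact radial_zero hX hXc hX0 h.pos hw.1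
  rw [integral_congr_ae hC, integral_zero]

end Crest.Agent.R234.Co6_696
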