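import Crest.Agent.R234.Co1_696
import Crest.Agent.R234.Co2_696
import Crest.Agent.R234.Co6_696

/-!
Row 234, VF-CONE, part 7: support and singular set of the cone; S0363 from S0362.
-/

set_option autoImplicit false

open Set MeasureTheory Metric Filter Topology
open scoped ENNReal NNReal RealInnerProductSpace

open Crest.GeometryTopology.Submanifold
open Crest.Agent.R234.Vf_884 Crest.Agent.R234.Co3_696 Crest.Agent.R234.Co4_696
  Crest.Agent.R234.Co5_696 Crest.Agent.R234.Co6_696

noncomputable section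

namespace Crest.Agent.R234.Co7_696

variable {m k : ℕ} {R : ℝ} {D : VarifoldData m k}

theorem support_sph (h : Sph R D) : support D ⊆ sphere (0 : Euc k) R := by
  intro x hx
  rw [mem_sphere_zero_iff_norm]
  by_contra hne
  have hpos : 0 < |‖x‖ - R| := abs_pos.2 (sub_ne_zero.2 hne)
  have h1 := hx _ hpos
  refine h1.ne' ?_
  have h2 : ∀ᵐ y ∂(weight D), y ∉ ball x |‖x‖ - R| := by
    filter_upwards [weight_sph h] with y hy hyb
    rw [mem_ball_iff_norm'] at hyb
    have h3 := abs_norm_sub_norm_le x y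
    rw [hy] at h3
    linarith
  exact measure_eq_zero_iff_ae_notMem.2 h2

theorem tau_open_pos (hR : 0 < R) {U : Set ℝ} (hU : IsOpen U) {t : ℝ} (ht : 0 < t) (htU : t ∈ U) :
    0 < tau m R U := by
  unfold tau
  rw [withDensity_apply _ hU.measurableSet, Measure.restrict_restrict hU.measurableSet,
    setLIntegral_pos_iff (measurable_rad m R)]
  have hV : IsOpen (U ∩ Ioi (0 : ℝ)) := hU.inter isOpen_Ioi
  refine lt_of_lt_of_le (hV.measure_pos volume ⟨t, htU, ht⟩) (measure_mono fun s hs => ⟨?_, hs⟩)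
  rw [Function.mem_support]
  simp only [ne_eq, ENNReal.ofReal_eq_zero, not_le]
  exact mul_pos hR (pow_pos hs.2 _)

theorem support_cone (h : Sph R D) {x : Euc k} (hx : x ∈ sphere (0 : Euc k) R) {t : ℝ}
    (ht : 0 < t) : t • x ∈ support (cone D) ↔ x ∈ support D := by
  have hsm : Continuous fun z : ℝ × Euc k => z.1 • z.2 := by fun_prop
  have hfin : IsFiniteMeasure (weight D) := ⟨weight_univ h⟩
  constructor
  · intro hsup
    by_contra hcon
    have hcon' : ∃ ρ : ℝ, 0 < ρ ∧ weight D (ball x ρ) = 0 := by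
      unfold support at hcon
      simp only [mem_setOf_eq, not_forall, not_lt] at hcon
      obtain ⟨ρ, hρ, h0⟩ := hcon
      exact ⟨ρ, hρ, le_antisymm h0 zero_le⟩
    obtain ⟨ρ, hρ, h0⟩ := hcon'
    set ρ' : ℝ := t * ρ / 2 with hρ'
    have hρ'0 : 0 < ρ' := by positivity
    refine (hsup ρ' hρ'0).ne' ?_
    rw [weight_cone h, Measure.map_apply hsm.measurable measurableSet_ball]
    refine measure_eq_zero_iff_ae_notMem.2 ?_
    have e1 := Measure.quasiMeasurePreserving_fst (μ := tau m R) (ν := weight D) |>.ae tau_pos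
    have e2 := Measure.quasiMeasurePreserving_snd (μ := tau m R) (ν := weight D) |>.ae
      ((weight_sph h).and (measure_eq_zero_iff_ae_notMem.1 h0))
    filter_upwards [e1, e2] with z hz1 hz2 hz3
    obtain ⟨hzR, hzb⟩ := hz2
    rw [mem_preimage, mem_ball_iff_norm] at hz3
    rw [mem_ball_iff_norm, not_lt] at hzb
    have hxR : ‖x‖ = R := mem_sphere_zero_iff_norm.1 hx
    have h3 : |z.1 - t| * R < ρ' := by
      have h4 := abs_norm_sub_norm_le (z.1 • z.2) (t • x)
      rw [norm_smul, norm_smul, Real.norm_of_nonneg hz1.le, Real.norm_of_nonneg ht.le, hzR, hxR,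
        ← sub_mul, abs_mul, abs_of_pos h.pos] at h4
      linarith
    have h5 : t * ‖z.2 - x‖ ≤ ‖z.1 • z.2 - t • x‖ + |z.1 - t| * R := by
      have h6 : t • (z.2 - x) = (z.1 • z.2 - t • x) - (z.1 - t) • z.2 := by
        rw [smul_sub, sub_smul]; abel
      calc t * ‖z.2 - x‖ = ‖t • (z.2 - x)‖ := by rw [norm_smul, Real.norm_of_nonneg ht.le]
        _ = ‖(z.1 • z.2 - t • x) - (z.1 - t) • z.2‖ := by rw [h6]
        _ ≤ _ := by
          refine (norm_sub_le _ _).trans ?_
          rw [norm_smul, hzR, Real.norm_eq_abs]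
    have h7 : t * ρ ≤ t * ‖z.2 - x‖ := mul_le_mul_of_nonneg_left hzb ht.le
    linarith
  · intro hsup ρ hρ
    rw [weight_cone h, Measure.map_apply hsm.measurable measurableSet_ball]
    have hopen : IsOpen ((fun z : ℝ × Euc k => z.1 • z.2) ⁻¹' ball (t • x) ρ) :=
      isOpen_ball.preimage hsm
    obtain ⟨U, V, hU, hV, htU, hxV, hUV⟩ := isOpen_prod_iff.1 hopen t x (mem_ball_self hρ)
    obtain ⟨δ, hδ, hδV⟩ := Metric.isOpen_iff.1 hV x hxV
    have h1 : 0 < weight D V := lt_of_lt_of_le (hsup δ hδ) (measure_mono hδV)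
    have h2 : 0 < tau m R U := tau_open_pos h.pos hU ht htU
    calc 0 < tau m R U * weight D V := ENNReal.mul_pos h2.ne' h1.ne'
      _ = ((tau m R).prod (weight D)) (U ×ˢ V) := (Measure.prod_prod _ _).symm
      _ ≤ _ := measure_mono hUV

theorem singular_cone (h : Sph R D) {x : Euc k} (hx : x ∈ singularSet m k univ D) {t : ℝ}
    (ht : 0 < t) : t • x ∈ singularSet (m + 1) k {(0 : Euc k)}ᶜ (cone D) := by
  obtain ⟨-, hxs, hns⟩ := hx
  have hxsph := support_sph h hxs
  refine ⟨?_, (support_cone h hxsph ht).2 hxs, ?_⟩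
  · rw [mem_compl_singleton_iff, ← norm_ne_zero_iff, norm_smul, Real.norm_of_nonneg ht.le,
      mem_sphere_zero_iff_norm.1 hxsph]
    exact (mul_pos ht h.pos).ne'
  · rintro ⟨W, hW, hxW, hsub⟩
    refine hns ⟨{y | t • y ∈ W}, hW.preimage (by fun_prop), hxW, ?_⟩
    exact Co2_696.slice_submanifold h.pos ht (support_sph h)
      (fun y hy s hs => support_cone h hy hs) hW hsub

theorem support_red (hD : IsIntegralVarifoldIn univ D)
    (hn : ∀ i, ∀ a ∈ D.dom i, ‖D.chart i a‖ = R) : support (red D) = support D := by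
  unfold support
  rw [weight_red hD hn]

theorem singularSet_red (hD : IsIntegralVarifoldIn univ D)
    (hn : ∀ i, ∀ a ∈ D.dom i, ‖D.chart i a‖ = R) :
    singularSet m k univ (red D) = singularSet m k univ D := by
  unfold singularSet
  rw [support_red hD hn]

/-- S0363 with a free ambient dimension. -/
theorem sphere_of {m k : ℕ}
    (h : ∀ (U : Set (Euc k)), IsOpen U → ∀ D : VarifoldData (m + 1) k,
      IsIntegralVarifoldIn U D → IsStationaryIn U D →
      dimH (singularSet (m + 1) k U D) ≤ ((m + 1 : ℕ) : ENNReal) - 1)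
    {R : ℝ} (hR : 0 < R) (D : VarifoldData m k) (hD : IsIntegralVarifoldIn univ D)
    (hsph : ∀ i, D.chart i '' D.dom i ⊆ sphere (0 : Euc k) R)
    (hstat : ∀ X : Euc k → Euc k, ContDiff ℝ 1 X → HasCompactSupport X →
      (∀ x ∈ sphere (0 : Euc k) R, ⟪X x, x⟫ = 0) → firstVariation D X = 0) :
    μH[(m : ℝ)] (singularSet m k univ D) = 0 := by
  have hn : ∀ i, ∀ a ∈ D.dom i, ‖D.chart i a‖ = R := fun i a ha =>
    mem_sphere_zero_iff_norm.1 (hsph i ⟨a, ha, rfl⟩)
  have hs := sph_red hR hD hn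
  rw [← singularSet_red hD hn]
  have hst : IsStationaryIn {(0 : Euc k)}ᶜ (cone (red D)) :=
    stat_cone hs fun X hX hXc hXt => by rw [fv_red hD hn]; exact hstat X hX hXc hXt
  have hdim := h {(0 : Euc k)}ᶜ isOpen_compl_singleton (cone (red D)) (int_cone hs) hst
  have hnull : μH[(m : ℝ) + 1] (singularSet (m + 1) k {(0 : Euc k)}ᶜ (cone (red D))) = 0 := by
    have h1 : dimH (singularSet (m + 1) k {(0 : Euc k)}ᶜ (cone (red D)))
        < (((m : ℝ≥0) + 1 : ℝ≥0) : ℝ≥0∞) := by
      refine lt_of_le_of_lt hdim ?_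
      rw [Nat.cast_add, Nat.cast_one, ENNReal.add_sub_cancel_right ENNReal.one_ne_top]
      push_cast
      exact ENNReal.lt_add_right (by simp) one_ne_zero
    have h2 := hausdorffMeasure_of_dimH_lt h1
    simpa using h2
  refine Co1_696.slice_null (Nat.cast_nonneg m) hR
    (fun x hx => support_sph hs hx.2.1) (fun s hs1 x hx => ?_) hnull
  exact singular_cone hs hx (lt_of_lt_of_le one_pos hs1.1)

/-- **S0363 from S0362.** -/
theorem s0363_of
    (h : ∀ (m n : ℕ) (_ : 1 ≤ m) (_ : 1 ≤ n) (U : Set (EuclideanSpace ℝ (Fin (m + n))))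
      (_ : IsOpen U) (D : VarifoldData m (m + n)) (_ : IsIntegralVarifoldIn U D)
      (_ : IsStationaryIn U D), dimH (singularSet m (m + n) U D) ≤ (m : ENNReal) - 1)
    (m n : ℕ) (_hm : 1 ≤ m) (hn : 1 ≤ n) (R : ℝ) (hR : 0 < R)
    (D : VarifoldData m (m + n + 1)) (hD : IsIntegralVarifoldIn Set.univ D)
    (hsph : ∀ i, D.chart i '' D.dom i ⊆ Metric.sphere (0 : EuclideanSpace ℝ (Fin (m + n + 1))) R)
    (hstat : ∀ X : EuclideanSpace ℝ (Fin (m + n + 1)) → EuclideanSpace ℝ (Fin (m + n + 1)),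
      ContDiff ℝ 1 X → HasCompactSupport X →
      (∀ x ∈ Metric.sphere (0 : EuclideanSpace ℝ (Fin (m + n + 1))) R, inner ℝ (X x) x = 0) →
      firstVariation D X = 0) :
    μH[(m : ℝ)] (singularSet m (m + n + 1) Set.univ D) = 0 := by
  refine sphere_of ?_ hR D hD hsph hstat
  have key : ∀ k : ℕ, (m + 1) + n = k → ∀ (U : Set (Euc k)), IsOpen U →
      ∀ D : VarifoldData (m + 1) k, IsIntegralVarifoldIn U D → IsStationaryIn U D →
      dimH (singularSet (m + 1) k U D) ≤ ((m + 1 : ℕ) : ENNReal) - 1 := by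
    rintro k rfl U hU D hD hst
    exact h (m + 1) n (by omega) hn U hU D hD hst
  exact key (m + n + 1) (by omega)

end Crest.Agent.R234.Co7_696
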