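import Crest.Agent.R097.HarmMV

/-!
# Row 234, VF-CONTACT (helper751), file 1: the Newton kernel and its means over balls.
`Gam m r = r^(2-m)/(m-2)`; `mean_out`: mean over a ball not containing the pole;
`gam_ball`: the shell theorem `∫_{B_t(x)} Γ(|z-p|) dz = ∫_{B_t(0)} min (Γ|x-p|) (Γ|w|) dw`.
-/

set_option autoImplicit false
open MeasureTheory Metric Set Laplacian InnerProductSpace Topology Filter
open scoped RealInnerProductSpace NNReal ENNReal ContDiff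

namespace Crest.Agent.R234.Con1_751
noncomputable section

/-- Euclidean space -/
abbrev E (m : ℕ) := EuclideanSpace ℝ (Fin m)

/-- normalised Newton kernel (`= r^(2-m)/(m-2)`) -/
def Gam (m : ℕ) (r : ℝ) : ℝ := (r ^ (m - 2))⁻¹ / ((m : ℝ) - 2)

/-- regularised Newton kernel as a function of `|z|²` -/
def Gd (m : ℕ) (δ t : ℝ) : ℝ := (t + δ) ^ (-(((m : ℝ) - 2) / 2)) / ((m : ℝ) - 2)

def Gd1 (m : ℕ) (δ t : ℝ) : ℝ := -(1 / 2) * (t + δ) ^ (-((m : ℝ) / 2))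

def Gd2 (m : ℕ) (δ t : ℝ) : ℝ := ((m : ℝ) / 4) * (t + δ) ^ (-(((m : ℝ) + 2) / 2))

variable {m : ℕ}

theorem m2_pos (hm : 3 ≤ m) : (0 : ℝ) < (m : ℝ) - 2 := by
  have : (3 : ℝ) ≤ m := by exact_mod_cast hm
  linarith

theorem hasDerivAt_Gd (hm : 3 ≤ m) {δ t : ℝ} (h : 0 < t + δ) :
    HasDerivAt (Gd m δ) (Gd1 m δ t) t := by
  have h1 : HasDerivAt (fun t : ℝ => t + δ) 1 t := (hasDerivAt_id t).add_const δ
  have h2 := (h1.rpow_const (p := -(((m : ℝ) - 2) / 2)) (Or.inl h.ne')).div_const ((m : ℝ) - 2)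
  have hp := m2_pos hm
  refine h2.congr_deriv ?_
  unfold Gd1
  have e : -(((m : ℝ) - 2) / 2) - 1 = -((m : ℝ) / 2) := by ring
  rw [e]
  field_simp

theorem hasDerivAt_Gd1 {δ t : ℝ} (h : 0 < t + δ) :
    HasDerivAt (Gd1 m δ) (Gd2 m δ t) t := by
  have h1 : HasDerivAt (fun t : ℝ => t + δ) 1 t := (hasDerivAt_id t).add_const δ
  have h2 := (h1.rpow_const (p := -((m : ℝ) / 2)) (Or.inl h.ne')).const_mul (-(1 / 2) : ℝ)
  refine h2.congr_deriv ?_
  unfold Gd2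
  have e : -((m : ℝ) / 2) - 1 = -(((m : ℝ) + 2) / 2) := by ring
  rw [e]
  ring

theorem continuous_Gd2 {δ : ℝ} (hδ : 0 < δ) (p : E m) :
    Continuous fun y : E m => Gd2 m δ (‖y - p‖ ^ 2) := by
  unfold Gd2
  refine continuous_const.mul (Continuous.rpow_const (by fun_prop) fun y => Or.inl ?_)
  positivity

theorem lap_Gd (hm : 3 ≤ m) {δ : ℝ} (hδ : 0 < δ) (p y : E m) :
    (Δ (fun y : E m => Gd m δ (‖y - p‖ ^ 2))) y
      = -((m : ℝ) * δ) * (‖y - p‖ ^ 2 + δ) ^ (-(((m : ℝ) + 2) / 2)) := by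
  rw [Crest.Agent.R077.lap_radial (φ1 := Gd1 m δ) (φ2 := Gd2 m δ)
    (fun t ht => hasDerivAt_Gd hm (by linarith)) (fun t ht => hasDerivAt_Gd1 (by linarith))
    (continuous_Gd2 hδ p)]
  unfold Gd1 Gd2
  set s := ‖y - p‖ ^ 2 with hs
  have hs0 : 0 < s + δ := by positivity
  have e : (s + δ) ^ (-((m : ℝ) / 2)) = (s + δ) * (s + δ) ^ (-(((m : ℝ) + 2) / 2)) := by
    rw [← Real.rpow_one_add' hs0.le]
    · congr 1; ring
    · intro h
      have : (m : ℝ) = 0 := by linarith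
      have h2 : m = 0 := by exact_mod_cast this
      omega
  rw [e]
  ring

theorem contDiff_Gd (hm : 3 ≤ m) {δ : ℝ} (hδ : 0 < δ) (p : E m) :
    ContDiff ℝ 2 (fun y : E m => Gd m δ (‖y - p‖ ^ 2)) :=
  Crest.Agent.R077.contDiff_radial (φ1 := Gd1 m δ) (φ2 := Gd2 m δ)
    (fun t ht => hasDerivAt_Gd hm (by linarith)) (fun t ht => hasDerivAt_Gd1 (by linarith))
    (continuous_Gd2 hδ p)

theorem Gd_zero (hm : 3 ≤ m) {r : ℝ} (hr : 0 < r) : Gd m 0 (r ^ 2) = Gam m r := by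
  unfold Gd Gam
  congr 1
  rw [add_zero, ← Real.rpow_natCast r 2, ← Real.rpow_mul hr.le, ← Real.rpow_natCast r (m - 2),
    ← Real.rpow_neg hr.le]
  congr 1
  push_cast [Nat.cast_sub (show 2 ≤ m by omega)]
  ring

theorem Gam_pos (hm : 3 ≤ m) {r : ℝ} (hr : 0 < r) : 0 < Gam m r := by
  unfold Gam
  have := m2_pos hm
  positivity

theorem Gam_nonneg (hm : 3 ≤ m) {r : ℝ} (hr : 0 ≤ r) : 0 ≤ Gam m r := by
  unfold Gam
  have := m2_pos hm
  positivity

theorem Gam_zero (hm : 3 ≤ m) : Gam m 0 = 0 := by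
  unfold Gam
  rw [zero_pow (by omega)]
  simp

theorem Gam_anti (hm : 3 ≤ m) {r s : ℝ} (hr : 0 < r) (hrs : r ≤ s) : Gam m s ≤ Gam m r := by
  unfold Gam
  have := m2_pos hm
  gcongr

theorem measurable_Gam (m : ℕ) : Measurable (Gam m) := by
  unfold Gam
  fun_prop

theorem continuousAt_Gam {r : ℝ} (hr : 0 < r) : ContinuousAt (Gam m) r := by
  unfold Gam
  refine ((continuousAt_id.pow _).inv₀ ?_).div_const _
  exact pow_ne_zero _ hr.ne'

theorem Gd_nonneg (hm : 3 ≤ m) {δ t : ℝ} (h : 0 ≤ t + δ) : 0 ≤ Gd m δ t := by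
  unfold Gd
  have := m2_pos hm
  positivity

theorem Gd_le (hm : 3 ≤ m) {δ c t : ℝ} (hδ : 0 ≤ δ) (hc : 0 < c) (hct : c ^ 2 ≤ t) :
    Gd m δ t ≤ Gam m c := by
  rw [← Gd_zero hm hc]
  unfold Gd
  have := m2_pos hm
  apply div_le_div_of_nonneg_right _ this.le
  rw [add_zero]
  exact Real.rpow_le_rpow_of_nonpos (by positivity) (by linarith) (by linarith)

theorem tendsto_Gd (hm : 3 ≤ m) {r : ℝ} (hr : 0 < r) :
    Tendsto (fun k : ℕ => Gd m (1 / ((k : ℝ) + 1)) (r ^ 2)) atTop (𝓝 (Gam m r)) := by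
  rw [← Gd_zero hm hr]
  have h1 : Tendsto (fun k : ℕ => 1 / ((k : ℝ) + 1)) atTop (𝓝 0) :=
    tendsto_one_div_add_atTop_nhds_zero_nat
  have h2 : ContinuousAt (fun δ : ℝ => Gd m δ (r ^ 2)) 0 := by
    unfold Gd
    refine ContinuousAt.div_const ?_ _
    refine ContinuousAt.rpow_const (by fun_prop) (Or.inl ?_)
    positivity
  exact h2.tendsto.comp h1

/-- the mean over a ball not containing the pole -/
theorem mean_out (hm : 3 ≤ m) {x p : E m} {t : ℝ} (ht : 0 < t) (hp : t < ‖x - p‖) :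
    Gam m ‖x - p‖ = ⨍ z in ball x t, Gam m ‖z - p‖ := by
  set c := ‖x - p‖ - t with hc
  have hc0 : 0 < c := by rw [hc]; linarith
  have hball : ∀ z ∈ ball x t, c ≤ ‖z - p‖ := by
    intro z hz
    rw [mem_ball, dist_eq_norm] at hz
    have h1 : ‖x - p‖ ≤ ‖z - x‖ + ‖z - p‖ := by
      have e : x - p = -(z - x) + (z - p) := by abel
      rw [e]
      refine (norm_add_le _ _).trans ?_
      rw [norm_neg]
    linarith
  let δ : ℕ → ℝ := fun k => 1 / ((k : ℝ) + 1)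
  have hδ : ∀ k, 0 < δ k := fun k => by positivity
  let A : ℕ → ℝ := fun k => ((m : ℝ) * δ k) * (c ^ 2) ^ (-(((m : ℝ) + 2) / 2))
  have hA : ∀ k, 0 ≤ A k := fun k => by have := hδ k; positivity
  have hδ0 : Tendsto δ atTop (𝓝 0) := tendsto_one_div_add_atTop_nhds_zero_nat
  have hA0 : Tendsto A atTop (𝓝 0) := by
    have := (hδ0.const_mul (m : ℝ)).mul_const ((c ^ 2) ^ (-(((m : ℝ) + 2) / 2)))
    simpa using this
  have hlap : ∀ k, ∀ y ∈ ball x t,
      -A k ≤ (Δ (fun y : E m => Gd m (δ k) (‖y - p‖ ^ 2))) y ∧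
      (Δ (fun y : E m => Gd m (δ k) (‖y - p‖ ^ 2))) y ≤ A k := by
    intro k y hy
    rw [lap_Gd hm (hδ k)]
    have h1 : (‖y - p‖ ^ 2 + δ k) ^ (-(((m : ℝ) + 2) / 2)) ≤ (c ^ 2) ^ (-(((m : ℝ) + 2) / 2)) := by
      apply Real.rpow_le_rpow_of_nonpos (by positivity)
      · have := hball y hy
        have h2 : c ^ 2 ≤ ‖y - p‖ ^ 2 := by gcongr
        linarith [hδ k]
      · have : (0 : ℝ) ≤ m := by positivity
        linarith
    have h0 : 0 ≤ (‖y - p‖ ^ 2 + δ k) ^ (-(((m : ℝ) + 2) / 2)) := by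
      have := hδ k
      positivity
    have h3 : 0 ≤ (m : ℝ) * δ k := by have := hδ k; positivity
    have h4 : (m : ℝ) * δ k * (‖y - p‖ ^ 2 + δ k) ^ (-(((m : ℝ) + 2) / 2)) ≤ A k :=
      mul_le_mul_of_nonneg_left h1 h3
    have h5 : 0 ≤ (m : ℝ) * δ k * (‖y - p‖ ^ 2 + δ k) ^ (-(((m : ℝ) + 2) / 2)) :=
      mul_nonneg h3 h0
    constructor
    · rw [neg_mul]; linarith
    · rw [neg_mul]; linarith [hA k]
  have hC : ∀ k, ContDiffOn ℝ 2 (fun y : E m => Gd m (δ k) (‖y - p‖ ^ 2)) (ball x (t + 1)) :=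
    fun k => (contDiff_Gd hm (hδ k) p).contDiffOn
  have h1 : ∀ k, Gd m (δ k) (‖x - p‖ ^ 2)
      ≤ (⨍ y in ball x t, Gd m (δ k) (‖y - p‖ ^ 2)) + A k * t ^ 2 / 4 := fun k =>
    Crest.Agent.R097.Hm.sub_mean ht (by linarith) (hC k) (hA k) (fun y hy => (hlap k y hy).1)
  have h2 : ∀ k, (⨍ y in ball x t, Gd m (δ k) (‖y - p‖ ^ 2)) - A k * t ^ 2 / 4
      ≤ Gd m (δ k) (‖x - p‖ ^ 2) := fun k =>
    Crest.Agent.R097.Hm.super_mean ht (by linarith) (hC k) (hA k) (fun y hy => (hlap k y hy).2)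
  have hl1 : Tendsto (fun k => Gd m (δ k) (‖x - p‖ ^ 2)) atTop (𝓝 (Gam m ‖x - p‖)) :=
    tendsto_Gd hm (by linarith)
  have hl2 : Tendsto (fun k => ⨍ y in ball x t, Gd m (δ k) (‖y - p‖ ^ 2)) atTop
      (𝓝 (⨍ y in ball x t, Gam m ‖y - p‖)) := by
    simp only [setAverage_eq]
    refine Tendsto.const_smul ?_ _
    refine tendsto_integral_of_dominated_convergence (fun _ => Gam m c) (fun k => ?_) ?_
      (fun k => ?_) ?_
    · exact (contDiff_Gd hm (hδ k) p).continuous.aestronglyMeasurable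
    · exact integrableOn_const measure_ball_lt_top.ne
    · refine (ae_restrict_iff' isOpen_ball.measurableSet).mpr (Eventually.of_forall fun y hy => ?_)
      have h5 : 0 ≤ Gd m (δ k) (‖y - p‖ ^ 2) := Gd_nonneg hm (by have := hδ k; positivity)
      rw [Real.norm_eq_abs, abs_of_nonneg h5]
      apply Gd_le hm (hδ k).le hc0
      have := hball y hy
      gcongr
    · refine (ae_restrict_iff' isOpen_ball.measurableSet).mpr (Eventually.of_forall fun y hy => ?_)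
      exact tendsto_Gd hm (lt_of_lt_of_le hc0 (hball y hy))
  have hl3 : Tendsto (fun k => A k * t ^ 2 / 4) atTop (𝓝 0) := by
    have := (hA0.mul_const (t ^ 2)).div_const 4
    simpa using this
  apply le_antisymm
  · have := le_of_tendsto_of_tendsto' hl1 (hl2.add hl3) h1
    simpa using this
  · have := le_of_tendsto_of_tendsto' (hl2.sub hl3) hl1 h2
    simpa using this

end
end Crest.Agent.R234.Con1_751
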