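import Crest.Agent.R234.Con1_751

/-!
# Row 234, VF-CONTACT (helper751), file 2: Newton's shell theorem.
`gam_ball`: for `x ≠ p`, `∫_{B_t(x)} Γ(|z-p|) dz = ∫_{B_t(0)} min (Γ|x-p|) (Γ|w|) dw`.
-/

set_option autoImplicit false
open MeasureTheory Metric Set Topology Filter
open scoped RealInnerProductSpace NNReal ENNReal

namespace Crest.Agent.R234.Con1_751
noncomputable section

variable {m : ℕ}

theorem finrank_E (m : ℕ) : Module.finrank ℝ (E m) = m := by simp

theorem locInt_Gam (hm : 3 ≤ m) : LocallyIntegrable (fun z : E m => Gam m ‖z‖) := by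
  refine locallyIntegrable_of_norm_le_rpow (C := 1 / ((m : ℝ) - 2)) (α := (m : ℝ) - 2) ?_ ?_ ?_ ?_
  · rw [finrank_E]; omega
  · rw [finrank_E]; linarith
  · have h0 : ∀ᵐ z : E m, z ≠ 0 := by
      have : Nonempty (Fin m) := ⟨⟨0, by omega⟩⟩
      rw [ae_iff]; simp
    filter_upwards [h0] with z hz
    have hz' : 0 < ‖z‖ := norm_pos_iff.mpr hz
    rw [Real.norm_eq_abs, abs_of_nonneg (Gam_nonneg hm hz'.le)]
    unfold Gam
    apply le_of_eq
    rw [← Real.rpow_natCast ‖z‖ (m - 2), ← Real.rpow_neg hz'.le]
    push_cast [Nat.cast_sub (show 2 ≤ m by omega)]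
    ring
  · exact ((measurable_Gam m).comp measurable_norm).aestronglyMeasurable

theorem locInt_Gam_sub (hm : 3 ≤ m) (p : E m) :
    LocallyIntegrable (fun z : E m => Gam m ‖z - p‖) := by
  intro x
  obtain ⟨s, hs, hi⟩ := (locInt_Gam hm) (x - p)
  refine ⟨(fun z => z - p) ⁻¹' s, ?_, ?_⟩
  · exact (continuous_id.sub continuous_const).continuousAt.preimage_mem_nhds hs
  · exact ((measurePreserving_sub_right (volume : Measure (E m)) p).integrableOn_comp_preimage
      (MeasurableEquiv.subRight p).measurableEmbedding).mpr hi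

theorem intOn_Gam (hm : 3 ≤ m) (p x : E m) (t : ℝ) :
    IntegrableOn (fun z : E m => Gam m ‖z - p‖) (ball x t) :=
  ((locInt_Gam_sub hm p).integrableOn_isCompact (isCompact_closedBall x t)).mono_set
    ball_subset_closedBall

/-- continuity of integrals over concentric balls -/
theorem continuous_ball_int {g : E m → ℝ} (hm : 3 ≤ m) (hg : LocallyIntegrable g) :
    Continuous fun t : ℝ => ∫ z in ball (0 : E m) t, g z := by
  have : Nonempty (Fin m) := ⟨⟨0, by omega⟩⟩
  rw [continuous_iff_continuousAt]
  intro t0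
  have e : (fun t : ℝ => ∫ z in ball (0 : E m) t, g z)
      = fun t => ∫ z, (ball (0 : E m) t).indicator g z := by
    funext t
    rw [integral_indicator isOpen_ball.measurableSet]
  rw [e]
  refine tendsto_integral_filter_of_dominated_convergence
    ((closedBall (0 : E m) (t0 + 1)).indicator fun z => ‖g z‖) ?_ ?_ ?_ ?_
  · exact Eventually.of_forall fun t => hg.aestronglyMeasurable.indicator isOpen_ball.measurableSet
  · filter_upwards [Iio_mem_nhds (show t0 < t0 + 1 by linarith)] with t ht
    refine Eventually.of_forall fun z => ?_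
    by_cases hz : z ∈ ball (0 : E m) t
    · rw [indicator_of_mem hz, indicator_of_mem]
      rw [mem_ball_zero_iff] at hz
      rw [mem_closedBall_zero_iff]
      have : t < t0 + 1 := ht
      linarith
    · rw [indicator_of_notMem hz, norm_zero]
      exact indicator_nonneg (fun _ _ => norm_nonneg _) _
  · rw [integrable_indicator_iff isClosed_closedBall.measurableSet]
    exact (hg.integrableOn_isCompact (isCompact_closedBall _ _)).norm
  · have h0 : ∀ᵐ z : E m, z ∉ sphere (0 : E m) t0 := by
      rw [ae_iff]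
      simp only [not_not]
      exact Measure.addHaar_sphere volume (0 : E m) t0
    filter_upwards [h0] with z hz
    have hz' : ‖z‖ ≠ t0 := by simpa using hz
    rcases lt_or_gt_of_ne hz' with h | h
    · apply tendsto_const_nhds.congr'
      filter_upwards [Ioi_mem_nhds h] with t ht
      rw [indicator_of_mem (by rw [mem_ball_zero_iff]; exact h),
        indicator_of_mem (by rw [mem_ball_zero_iff]; exact ht)]
    · apply tendsto_const_nhds.congr'
      filter_upwards [Iio_mem_nhds h] with t ht
      have ht' : t < ‖z‖ := ht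
      rw [indicator_of_notMem (by rw [mem_ball_zero_iff]; linarith),
        indicator_of_notMem (by rw [mem_ball_zero_iff]; linarith)]

/-- open shell -/
def shell (m : ℕ) (a t : ℝ) : Set (E m) := {w | a < ‖w‖ ∧ ‖w‖ < t}

theorem measurableSet_shell (a t : ℝ) : MeasurableSet (shell m a t) :=
  (measurableSet_lt measurable_const measurable_norm).inter
    (measurableSet_lt measurable_norm measurable_const)

theorem shell_subset (a t : ℝ) : shell m a t ⊆ ball 0 t := fun w hw => by
  rw [mem_ball_zero_iff]; exact hw.2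

def ush (m : ℕ) (a t : ℝ) (p : E m) : ℝ := ∫ w in shell m a t, Gam m ‖w - p‖

theorem ush_radial {a t : ℝ} {p q : E m} (h : ‖p‖ = ‖q‖) : ush m a t p = ush m a t q := by
  set R := Submodule.reflection (Submodule.span ℝ {p - q})ᗮ with hR
  have hRp : R p = q := Submodule.reflection_sub h
  have hmp : MeasurePreserving R (volume : Measure (E m)) volume := R.measurePreserving
  unfold ush
  rw [← integral_indicator (measurableSet_shell a t), ← integral_indicator (measurableSet_shell a t)]
  rw [← hmp.integral_comp R.toHomeomorph.measurableEmbedding]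
  congr 1
  funext w
  have hn : ‖R w‖ = ‖w‖ := R.norm_map w
  by_cases hw : w ∈ shell m a t
  · have hRw : R w ∈ shell m a t := by
      have h1 : a < ‖R w‖ ∧ ‖R w‖ < t := by rw [hn]; exact hw
      exact h1
    rw [indicator_of_mem hw, indicator_of_mem hRw]
    congr 1
    have hRq : R q = p := by
      rw [← hRp]
      exact Submodule.reflection_reflection _ _
    rw [← hRq, ← map_sub, R.norm_map]
  · have hRw : R w ∉ shell m a t := by
      intro h1
      have h2 : a < ‖R w‖ ∧ ‖R w‖ < t := h1
      rw [hn] at h2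
      exact hw h2
    rw [indicator_of_notMem hw, indicator_of_notMem hRw]


theorem norm_lower {w p : E m} {a s : ℝ} (hw : a < ‖w‖) (hp : ‖p‖ ≤ s) : a - s ≤ ‖w - p‖ := by
  have := norm_sub_norm_le w p
  linarith

theorem ush_cont (hm : 3 ≤ m) {a t : ℝ} {p : E m} (hp : ‖p‖ < a) :
    ContinuousAt (ush m a t) p := by
  set s := (‖p‖ + a) / 2 with hs
  have hs1 : ‖p‖ < s := by rw [hs]; linarith
  have hs2 : s < a := by rw [hs]; linarith
  unfold ush
  refine tendsto_integral_filter_of_dominated_convergence (fun _ => Gam m (a - s)) ?_ ?_ ?_ ?_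
  · exact Eventually.of_forall fun q => ((measurable_Gam m).comp
      (measurable_norm.comp (measurable_id.sub_const q))).aestronglyMeasurable
  · have h1 : ∀ᶠ q in 𝓝 p, ‖q‖ < s := continuous_norm.continuousAt.eventually (Iio_mem_nhds hs1)
    filter_upwards [h1] with q hq
    refine (ae_restrict_iff' (measurableSet_shell a t)).mpr (Eventually.of_forall fun w hw => ?_)
    rw [Real.norm_eq_abs, abs_of_nonneg (Gam_nonneg hm (norm_nonneg _))]
    exact Gam_anti hm (by linarith) (norm_lower hw.1 hq.le)
  · exact integrableOn_const ((measure_mono (shell_subset a t)).trans_lt measure_ball_lt_top).ne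
  · refine (ae_restrict_iff' (measurableSet_shell a t)).mpr (Eventually.of_forall fun w hw => ?_)
    have h0 : 0 < ‖w - p‖ := lt_of_lt_of_le (by linarith) (norm_lower hw.1 hs1.le)
    have h1 : Tendsto (fun q : E m => ‖w - q‖) (𝓝 p) (𝓝 ‖w - p‖) :=
      (continuous_const.sub continuous_id).norm.tendsto p
    exact (continuousAt_Gam h0).tendsto.comp h1

/-- ball integrals of `ush` -/
theorem ush_ball (hm : 3 ≤ m) {a t s : ℝ} (hs : 0 < s) (hsa : s < a) :
    ∫ p in ball (0 : E m) s, ush m a t p = (volume (ball (0 : E m) s)).toReal * ush m a t 0 := by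
  unfold ush
  have hfin1 : IsFiniteMeasure ((volume : Measure (E m)).restrict (ball 0 s)) :=
    ⟨by rw [Measure.restrict_apply_univ]; exact measure_ball_lt_top⟩
  have hfin2 : IsFiniteMeasure ((volume : Measure (E m)).restrict (shell m a t)) :=
    ⟨by rw [Measure.restrict_apply_univ]
        exact (measure_mono (shell_subset a t)).trans_lt measure_ball_lt_top⟩
  have hint : Integrable (Function.uncurry fun p w : E m => Gam m ‖w - p‖)
      (((volume : Measure (E m)).restrict (ball 0 s)).prod
        ((volume : Measure (E m)).restrict (shell m a t))) := by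
    refine Integrable.mono' (g := fun _ => Gam m (a - s)) (integrable_const _) ?_ ?_
    · exact ((measurable_Gam m).comp (measurable_norm.comp
        (measurable_snd.sub measurable_fst))).aestronglyMeasurable
    · rw [Measure.prod_restrict]
      refine (ae_restrict_iff' (isOpen_ball.measurableSet.prod (measurableSet_shell a t))).mpr
        (Eventually.of_forall fun z hz => ?_)
      obtain ⟨h1, h2⟩ := hz
      rw [Function.uncurry_apply_pair, Real.norm_eq_abs, abs_of_nonneg (Gam_nonneg hm (norm_nonneg _))]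
      rw [mem_ball_zero_iff] at h1
      exact Gam_anti hm (by linarith) (norm_lower h2.1 h1.le)
  rw [integral_integral_swap hint, ← integral_const_mul]
  refine setIntegral_congr_fun (measurableSet_shell a t) fun w hw => ?_
  have hw1 : a < ‖w‖ := hw.1
  have h1 := mean_out hm (x := (0 : E m)) (p := w) hs (by rw [zero_sub, norm_neg]; linarith)
  rw [setAverage_eq, smul_eq_mul] at h1
  have h2 : (volume (ball (0 : E m) s)).toReal ≠ 0 :=
    (ENNReal.toReal_pos (measure_ball_pos volume _ hs).ne' measure_ball_lt_top.ne).ne'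
  have h3 : ∫ y in ball (0 : E m) s, Gam m ‖w - y‖ = ∫ z in ball (0 : E m) s, Gam m ‖z - w‖ := by
    congr 1
    funext y
    rw [norm_sub_rev]
  simp only [sub_zero]
  rw [h3]
  rw [zero_sub, norm_neg] at h1
  rw [h1, measureReal_def]
  field_simp

theorem ush_intOn (hm : 3 ≤ m) {a t s : ℝ} (hsa : s < a) :
    IntegrableOn (ush m a t) (ball (0 : E m) s) := by
  have hc : ContinuousOn (ush m a t) (closedBall (0 : E m) s) := fun p hp => by
    rw [mem_closedBall_zero_iff] at hp
    exact (ush_cont hm (by linarith)).continuousWithinAt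
  exact (hc.integrableOn_compact (isCompact_closedBall _ _)).mono_set ball_subset_closedBall

theorem vol_ball_lt (hm : 3 ≤ m) {r s : ℝ} (hr : 0 < r) (hrs : r < s) :
    (volume (ball (0 : E m) r)).toReal < (volume (ball (0 : E m) s)).toReal := by
  rw [Crest.Agent.R097.Hm.volume_ball_real _ hr,
    Crest.Agent.R097.Hm.volume_ball_real _ (hr.trans hrs)]
  have h1 : r ^ m < s ^ m := pow_lt_pow_left₀ hrs hr.le (by omega)
  exact mul_lt_mul_of_pos_right h1 Crest.Agent.R097.Hm.omg_pos

/-- the potential of a shell is constant inside -/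
theorem shell_in (hm : 3 ≤ m) {a t : ℝ} {p : E m} (hp : ‖p‖ < a) :
    ush m a t p = ush m a t 0 := by
  by_cases hp0 : p = 0
  · rw [hp0]
  by_contra hne
  set r := ‖p‖ with hr
  have hr0 : 0 < r := norm_pos_iff.mpr hp0
  set c := ush m a t p - ush m a t 0 with hc
  have hc0 : c ≠ 0 := sub_ne_zero.mpr hne
  -- continuity along the ray
  have h1 : ContinuousAt (fun ρ : ℝ => ush m a t ((ρ / r) • p)) r := by
    have e : (r / r) • p = p := by rw [div_self hr0.ne', one_smul]
    have h2 : ContinuousAt (ush m a t) ((r / r) • p) := by rw [e]; exact ush_cont hm hp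
    exact h2.comp (f := fun ρ : ℝ => (ρ / r) • p) (by fun_prop)
  have h2 : ∀ᶠ ρ in 𝓝 r, |ush m a t ((ρ / r) • p) - ush m a t p| < |c| / 2 := by
    have h3 := Metric.continuousAt_iff'.mp h1 (|c| / 2) (by have := abs_pos.mpr hc0; positivity)
    filter_upwards [h3] with ρ hρ
    rw [Real.dist_eq, div_self hr0.ne', one_smul] at hρ
    exact hρ
  obtain ⟨ε, hε, hball⟩ := Metric.eventually_nhds_iff_ball.mp h2
  set h := min (ε / 2) ((a - r) / 2) with hh
  have hh0 : 0 < h := lt_min (by positivity) (by linarith)
  have hh1 : h < ε := (min_le_left _ _).trans_lt (by linarith)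
  have hh2 : r + h < a := by have := min_le_right (ε / 2) ((a - r) / 2); linarith
  set g : E m → ℝ := fun z => ush m a t z - ush m a t 0 with hg
  have hgi : IntegrableOn g (ball 0 (r + h)) :=
    (ush_intOn hm hh2).sub (integrableOn_const measure_ball_lt_top.ne)
  have hg0 : ∀ s, 0 < s → s < a → ∫ z in ball (0 : E m) s, g z = 0 := by
    intro s hs hsa
    rw [hg, integral_sub (ush_intOn hm hsa) (integrableOn_const measure_ball_lt_top.ne),
      ush_ball hm hs hsa, setIntegral_const, measureReal_def, smul_eq_mul, sub_self]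
  set S : Set (E m) := ball 0 (r + h) \ ball 0 r with hS
  have hSm : MeasurableSet S := isOpen_ball.measurableSet.diff isOpen_ball.measurableSet
  have hsub : ball (0 : E m) r ⊆ ball 0 (r + h) := ball_subset_ball (by linarith)
  have hSg : ∫ z in S, g z = 0 := by
    rw [hS, setIntegral_sdiff isOpen_ball.measurableSet hgi hsub, hg0 _ (by linarith) hh2,
      hg0 _ hr0 hp, sub_zero]
  have hSv : 0 < (volume S).toReal := by
    have h5 := vol_ball_lt hm hr0 (show r < r + h by linarith)
    have h6 : (volume S).toReal = (volume (ball (0 : E m) (r + h))).toReal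
        - (volume (ball (0 : E m) r)).toReal := by
      rw [hS, measure_sdiff hsub isOpen_ball.measurableSet.nullMeasurableSet
        measure_ball_lt_top.ne, ENNReal.toReal_sub_of_le (measure_mono hsub)
        measure_ball_lt_top.ne]
    rw [h6]; linarith
  have hlow : ∀ z ∈ S, c ^ 2 / 2 ≤ c * g z := by
    intro z hz
    rw [hS, Set.mem_sdiff, mem_ball_zero_iff, mem_ball_zero_iff, not_lt] at hz
    have h7 : ush m a t z = ush m a t ((‖z‖ / r) • p) := by
      apply ush_radial
      rw [norm_smul, Real.norm_eq_abs, abs_of_nonneg (by positivity), ← hr]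
      field_simp
    have h8 := hball ‖z‖ (by rw [mem_ball, Real.dist_eq, abs_of_nonneg (by linarith)]; linarith)
    rw [← h7] at h8
    have h9 : g z = c + (ush m a t z - ush m a t p) := by
      simp only [hg, hc]; ring
    rw [h9]
    have h10 : |c * (ush m a t z - ush m a t p)| ≤ c ^ 2 / 2 := by
      rw [abs_mul]
      have : |c| * |ush m a t z - ush m a t p| ≤ |c| * (|c| / 2) :=
        mul_le_mul_of_nonneg_left h8.le (abs_nonneg _)
      refine this.trans (le_of_eq ?_)
      rw [← sq_abs c]; ring
    have h11 := (abs_le.mp h10).1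
    nlinarith
  have hfinS : volume S ≠ ⊤ := ((measure_mono sdiff_subset).trans_lt measure_ball_lt_top).ne
  have h12 : ∫ z in S, c ^ 2 / 2 ≤ ∫ z in S, c * g z := by
    apply setIntegral_mono_on (integrableOn_const hfinS)
      ((hgi.mono_set sdiff_subset).const_mul c) hSm hlow
  rw [integral_const_mul, hSg, mul_zero, setIntegral_const, measureReal_def, smul_eq_mul] at h12
  have : 0 < c ^ 2 := by positivity
  nlinarith [mul_pos hSv this]

theorem locInt_min (hm : 3 ≤ m) (b : ℝ) (hb : 0 ≤ b) :
    LocallyIntegrable (fun w : E m => min b (Gam m ‖w‖)) := by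
  have h1 : LocallyIntegrable (fun _ : E m => b) := locallyIntegrable_const b
  refine h1.mono ?_ ?_
  · exact (measurable_const.min ((measurable_Gam m).comp measurable_norm)).aestronglyMeasurable
  · refine Eventually.of_forall fun w => ?_
    rw [Real.norm_eq_abs, Real.norm_eq_abs, abs_of_nonneg hb,
      abs_of_nonneg (le_min hb (Gam_nonneg hm (norm_nonneg _)))]
    exact min_le_left _ _

theorem ball_sub_int {g : E m → ℝ} (hm : 3 ≤ m) (hg : LocallyIntegrable g) {s t : ℝ}
    (hst : s ≤ t) :
    (∫ z in ball (0 : E m) t, g z) - ∫ z in ball (0 : E m) s, g z = ∫ z in shell m s t, g z := by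
  have : Nonempty (Fin m) := ⟨⟨0, by omega⟩⟩
  have hi : IntegrableOn g (ball 0 t) :=
    (hg.integrableOn_isCompact (isCompact_closedBall 0 t)).mono_set ball_subset_closedBall
  rw [← setIntegral_sdiff isOpen_ball.measurableSet hi (ball_subset_ball hst)]
  apply setIntegral_congr_set
  have h0 : ∀ᵐ z : E m, z ∉ sphere (0 : E m) s := by
    rw [ae_iff]
    simp only [not_not]
    exact Measure.addHaar_sphere volume (0 : E m) s
  filter_upwards [h0] with z hz
  have hz' : ‖z‖ ≠ s := by simpa using hz
  apply propext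
  constructor
  · intro h
    have h1 : z ∈ ball (0 : E m) t \ ball 0 s := h
    rw [Set.mem_sdiff, mem_ball_zero_iff, mem_ball_zero_iff, not_lt] at h1
    exact ⟨lt_of_le_of_ne h1.2 (Ne.symm hz'), h1.1⟩
  · intro h
    have h1 : s < ‖z‖ ∧ ‖z‖ < t := h
    have h2 : z ∈ ball (0 : E m) t \ ball 0 s := by
      rw [Set.mem_sdiff, mem_ball_zero_iff, mem_ball_zero_iff, not_lt]
      exact ⟨h1.2, h1.1.le⟩
    exact h2

/-- Newton's theorem, centred at `0` -/
theorem gam_ball0 (hm : 3 ≤ m) {p : E m} (hp : p ≠ 0) {t : ℝ} (ht : 0 < t) :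
    ∫ z in ball (0 : E m) t, Gam m ‖z - p‖
      = ∫ w in ball (0 : E m) t, min (Gam m ‖p‖) (Gam m ‖w‖) := by
  have : Nonempty (Fin m) := ⟨⟨0, by omega⟩⟩
  set r := ‖p‖ with hr
  have hr0 : 0 < r := norm_pos_iff.mpr hp
  have hb : 0 ≤ Gam m r := Gam_nonneg hm hr0.le
  have l1 := locInt_Gam_sub hm p
  have l2 := locInt_min hm (Gam m r) hb
  set D : ℝ → ℝ := fun t => (∫ z in ball (0 : E m) t, Gam m ‖z - p‖)
    - ∫ w in ball (0 : E m) t, min (Gam m r) (Gam m ‖w‖) with hD
  have hDc : Continuous D := (continuous_ball_int hm l1).sub (continuous_ball_int hm l2)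
  have hsmall : ∀ s, 0 < s → s < r → D s = 0 := by
    intro s hs hsr
    have h1 := mean_out hm (x := (0 : E m)) (p := p) hs (by rw [zero_sub, norm_neg]; exact hsr)
    rw [setAverage_eq, smul_eq_mul, zero_sub, norm_neg, ← hr] at h1
    have h2 : (volume (ball (0 : E m) s)).toReal ≠ 0 :=
      (ENNReal.toReal_pos (measure_ball_pos volume _ hs).ne' measure_ball_lt_top.ne).ne'
    have h3 : ∫ w in ball (0 : E m) s, min (Gam m r) (Gam m ‖w‖)
        = ∫ w in ball (0 : E m) s, Gam m r := by
      have h0 : ∀ᵐ z : E m, z ≠ 0 := by rw [ae_iff]; simp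
      refine setIntegral_congr_ae isOpen_ball.measurableSet ?_
      filter_upwards [h0] with w hw hws
      rw [mem_ball_zero_iff] at hws
      exact min_eq_left (Gam_anti hm (norm_pos_iff.mpr hw) (by linarith))
    rw [hD]
    simp only
    rw [h3, setIntegral_const, smul_eq_mul]
    rw [measureReal_def] at h1 ⊢
    rw [h1, mul_inv_cancel_left₀ h2, sub_self]
  have hDr : D r = 0 := by
    have h1 : Tendsto D (𝓝[<] r) (𝓝 (D r)) := hDc.continuousAt.tendsto.mono_left nhdsWithin_le_nhds
    have h2 : Tendsto D (𝓝[<] r) (𝓝 0) := by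
      apply tendsto_const_nhds.congr'
      filter_upwards [Ioo_mem_nhdsLT hr0] with s hs
      exact (hsmall s hs.1 hs.2).symm
    exact tendsto_nhds_unique h1 h2
  have hbig : ∀ t1 t2, r < t1 → t1 ≤ t2 → D t2 = D t1 := by
    intro t1 t2 h1 h2
    have e1 := ball_sub_int hm l1 h2
    have e2 := ball_sub_int hm l2 h2
    have e3 : ∫ z in shell m t1 t2, Gam m ‖z - p‖
        = ∫ w in shell m t1 t2, min (Gam m r) (Gam m ‖w‖) := by
      have e4 := shell_in hm (a := t1) (t := t2) (p := p) h1
      unfold ush at e4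
      rw [e4]
      refine setIntegral_congr_fun (measurableSet_shell t1 t2) fun w hw => ?_
      have hw1 : t1 < ‖w‖ := hw.1
      simp only [sub_zero]
      exact (min_eq_right (Gam_anti hm hr0 (by linarith))).symm
    rw [hD]
    simp only
    linarith
  have hfin : D t = 0 := by
    rcases lt_trichotomy t r with h | h | h
    · exact hsmall t ht h
    · rw [h]; exact hDr
    · have h1 : Tendsto D (𝓝[>] r) (𝓝 (D r)) :=
        hDc.continuousAt.tendsto.mono_left nhdsWithin_le_nhds
      have h2 : Tendsto D (𝓝[>] r) (𝓝 (D t)) := by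
        apply tendsto_const_nhds.congr'
        filter_upwards [Ioo_mem_nhdsGT h] with s hs
        exact hbig s t hs.1 hs.2.le
      rw [← hDr]
      exact tendsto_nhds_unique h2 h1
  rw [hD] at hfin
  simp only at hfin
  linarith

/-- **Newton's theorem** -/
theorem gam_ball (hm : 3 ≤ m) {x p : E m} (hp : x ≠ p) {t : ℝ} (ht : 0 < t) :
    ∫ z in ball x t, Gam m ‖z - p‖
      = ∫ w in ball (0 : E m) t, min (Gam m ‖x - p‖) (Gam m ‖w‖) := by
  have h1 := gam_ball0 hm (p := p - x) (sub_ne_zero.mpr (Ne.symm hp)) ht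
  rw [norm_sub_rev p x] at h1
  rw [← h1]
  have h2 := (measurePreserving_add_right (volume : Measure (E m)) x).setIntegral_preimage_emb
    (MeasurableEquiv.addRight x).measurableEmbedding (fun z => Gam m ‖z - p‖) (ball x t)
  rw [← h2]
  have h3 : (fun z : E m => z + x) ⁻¹' ball x t = ball 0 t := by
    ext z
    simp [mem_ball, dist_eq_norm]
  rw [h3]
  congr 1
  funext z
  congr 2
  abel

end
end Crest.Agent.R234.Con1_751
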