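/-
Row 234, leaf VF-CONTACT, abstract part (helper945).
Discrete excessive majorant ("contact set without potential theory").

`P f x = ∫ k x y * f y dμ(y)` with a nonnegative measurable symmetric kernel of mass `≤ c < 1`.
Given a bounded measurable integrable `β` there are `ε`, `Z` with
(i)   `0 ≤ ε ≤ β₊`, `ε = 0` off `Z`;
(ii)  `∫ β φ ≤ ∫ ε φ` for every bounded measurable `φ` with `P φ ≤ φ`;
(iii) for every `x ∈ Z` and every `n`: `∑_{j<n} P^j ε (x) ≤ ∑_{j<n} P^j β (x)`.
-/
import Mathlib.MeasureTheory.Integral.Prod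
import Mathlib.MeasureTheory.Integral.DominatedConvergence
import Mathlib.MeasureTheory.Function.L1Space.Integrable
import Mathlib.Analysis.SpecificLimits.Basic

set_option autoImplicit false
set_option linter.unusedSectionVars false

namespace Crest.Agent.R234.Contact_945

open MeasureTheory Filter Topology

variable {X : Type*} [MeasurableSpace X]

/-- Bounded measurable functions. -/
def BM (f : X → ℝ) : Prop := Measurable f ∧ ∃ C : ℝ, ∀ x, |f x| ≤ C

lemma BM.add {f g : X → ℝ} (hf : BM f) (hg : BM g) : BM (fun x => f x + g x) := by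
  obtain ⟨hf1, A, hA⟩ := hf
  obtain ⟨hg1, B, hB⟩ := hg
  exact ⟨hf1.add hg1, A + B, fun x => (abs_add_le _ _).trans (add_le_add (hA x) (hB x))⟩

lemma BM.sub {f g : X → ℝ} (hf : BM f) (hg : BM g) : BM (fun x => f x - g x) := by
  obtain ⟨hf1, A, hA⟩ := hf
  obtain ⟨hg1, B, hB⟩ := hg
  exact ⟨hf1.sub hg1, A + B, fun x => (abs_sub _ _).trans (add_le_add (hA x) (hB x))⟩

lemma BM.max {f g : X → ℝ} (hf : BM f) (hg : BM g) : BM (fun x => max (f x) (g x)) := by
  obtain ⟨hf1, A, hA⟩ := hf
  obtain ⟨hg1, B, hB⟩ := hg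
  refine ⟨hf1.max hg1, Max.max A B, fun x => ?_⟩
  have h1 := abs_le.1 (hA x)
  have h2 := abs_le.1 (hB x)
  rw [abs_le]
  constructor
  · exact le_max_of_le_left (by linarith [le_max_left A B])
  · exact max_le_max h1.2 h2.2

lemma BM.abs {f : X → ℝ} (hf : BM f) : BM (fun x => |f x|) := by
  obtain ⟨hf1, A, hA⟩ := hf
  exact ⟨continuous_abs.measurable.comp hf1, A, fun x => by rw [abs_abs]; exact hA x⟩

/-- A sub-Markov kernel with respect to `μ`, strictly contracting by the factor `c < 1`. -/
structure Ker (μ : Measure X) (c : ℝ) (k : X → X → ℝ) : Prop where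
  meas : Measurable (fun p : X × X => k p.1 p.2)
  nonneg : ∀ x y, 0 ≤ k x y
  symm : ∀ x y, k x y = k y x
  int : ∀ x, Integrable (fun y => k x y) μ
  mass : ∀ x, ∫ y, k x y ∂μ ≤ c
  c0 : 0 ≤ c
  c1 : c < 1

/-- The operator. -/
noncomputable def P (μ : Measure X) (k : X → X → ℝ) (f : X → ℝ) (x : X) : ℝ :=
  ∫ y, k x y * f y ∂μ

section

variable {μ : Measure X} [SFinite μ] {c : ℝ} {k : X → X → ℝ}

lemma Ker.integrable_mul (hk : Ker μ c k) {f : X → ℝ} (hf : BM f) (x : X) :
    Integrable (fun y => k x y * f y) μ := by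
  obtain ⟨hf1, A, hA⟩ := hf
  refine (hk.int x).mul_bdd (c := A) hf1.aestronglyMeasurable ?_
  exact Filter.Eventually.of_forall fun y => by simpa [Real.norm_eq_abs] using hA y

lemma Ker.abs_bd (hk : Ker μ c k) {f : X → ℝ} (hf : BM f) {M : ℝ}
    (hM : ∀ x, |f x| ≤ M) (x : X) : |P μ k f x| ≤ c * M := by
  have hM0 : 0 ≤ M := (abs_nonneg _).trans (hM x)
  have h1 : |P μ k f x| ≤ ∫ y, |k x y * f y| ∂μ := abs_integral_le_integral_abs
  have h2 : ∫ y, |k x y * f y| ∂μ ≤ ∫ y, k x y * M ∂μ := by
    refine integral_mono (hk.integrable_mul hf x).abs ((hk.int x).mul_const M) fun y => ?_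
    simp only [abs_mul, abs_of_nonneg (hk.nonneg x y)]
    exact mul_le_mul_of_nonneg_left (hM y) (hk.nonneg x y)
  rw [integral_mul_const] at h2
  exact h1.trans (h2.trans (mul_le_mul_of_nonneg_right (hk.mass x) hM0))

lemma Ker.bm (hk : Ker μ c k) {f : X → ℝ} (hf : BM f) : BM (P μ k f) := by
  obtain ⟨A, hA⟩ := hf.2
  refine ⟨?_, c * A, fun x => hk.abs_bd hf hA x⟩
  have : StronglyMeasurable (fun x => ∫ y, k x y * f y ∂μ) := by
    apply StronglyMeasurable.integral_prod_right (f := fun x y => k x y * f y)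
    exact (hk.meas.mul (hf.1.comp measurable_snd)).stronglyMeasurable
  exact this.measurable

lemma Ker.map_sub (hk : Ker μ c k) {f g : X → ℝ} (hf : BM f) (hg : BM g) (x : X) :
    P μ k (fun y => f y - g y) x = P μ k f x - P μ k g x := by
  unfold P
  rw [← integral_sub (hk.integrable_mul hf x) (hk.integrable_mul hg x)]
  congr 1; ext y; ring

lemma Ker.map_add (hk : Ker μ c k) {f g : X → ℝ} (hf : BM f) (hg : BM g) (x : X) :
    P μ k (fun y => f y + g y) x = P μ k f x + P μ k g x := by
  unfold P
  rw [← integral_add (hk.integrable_mul hf x) (hk.integrable_mul hg x)]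
  congr 1; ext y; ring

lemma Ker.mono (hk : Ker μ c k) {f g : X → ℝ} (hf : BM f) (hg : BM g)
    (h : ∀ x, f x ≤ g x) (x : X) : P μ k f x ≤ P μ k g x :=
  integral_mono (hk.integrable_mul hf x) (hk.integrable_mul hg x)
    fun y => mul_le_mul_of_nonneg_left (h y) (hk.nonneg x y)

lemma Ker.iter_bm (hk : Ker μ c k) {f : X → ℝ} (hf : BM f) (n : ℕ) :
    BM ((P μ k)^[n] f) := by
  induction n with
  | zero => simpa using hf
  | succ n ih => rw [Function.iterate_succ_apply']; exact hk.bm ih

lemma Ker.iter_mono (hk : Ker μ c k) {f g : X → ℝ} (hf : BM f) (hg : BM g)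
    (h : ∀ x, f x ≤ g x) (n : ℕ) (x : X) : (P μ k)^[n] f x ≤ (P μ k)^[n] g x := by
  induction n generalizing x with
  | zero => simpa using h x
  | succ n ih =>
    rw [Function.iterate_succ_apply', Function.iterate_succ_apply']
    exact hk.mono (hk.iter_bm hf n) (hk.iter_bm hg n) ih x

lemma Ker.iter_sub (hk : Ker μ c k) {f g : X → ℝ} (hf : BM f) (hg : BM g) (n : ℕ) (x : X) :
    (P μ k)^[n] (fun y => f y - g y) x = (P μ k)^[n] f x - (P μ k)^[n] g x := by
  induction n generalizing x with
  | zero => simp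
  | succ n ih =>
    simp only [Function.iterate_succ_apply']
    have : (P μ k)^[n] (fun y => f y - g y)
        = fun y => (P μ k)^[n] f y - (P μ k)^[n] g y := funext ih
    rw [this]
    exact hk.map_sub (hk.iter_bm hf n) (hk.iter_bm hg n) x

/-- Telescoping sum. -/
lemma Ker.tele (hk : Ker μ c k) {f : X → ℝ} (hf : BM f) (n : ℕ) (x : X) :
    ∑ j ∈ Finset.range n, (P μ k)^[j] (fun y => f y - P μ k f y) x
      = f x - (P μ k)^[n] f x := by
  induction n with
  | zero => simp
  | succ n ih =>
    rw [Finset.sum_range_succ, ih, hk.iter_sub hf (hk.bm hf), ← Function.iterate_succ_apply]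
    ring

end

/-- A contraction (in sup norm) of the bounded measurable functions has a fixed point. -/
theorem exists_fix (T : (X → ℝ) → (X → ℝ)) {c : ℝ} (c0 : 0 ≤ c) (c1 : c < 1)
    (hT : ∀ f, BM f → BM (T f))
    (hc : ∀ f g, BM f → BM g → ∀ M, (∀ x, |f x - g x| ≤ M) → ∀ x, |T f x - T g x| ≤ c * M)
    (f₀ : X → ℝ) (h₀ : BM f₀) :
    ∃ u, BM u ∧ (∀ x, T u x = u x) ∧ ∀ x, Tendsto (fun n => T^[n] f₀ x) atTop (𝓝 (u x)) := by
  have hbm : ∀ n, BM (T^[n] f₀) := by
    intro n
    induction n with
    | zero => simpa using h₀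
    | succ n ih => rw [Function.iterate_succ_apply']; exact hT _ ih
  obtain ⟨M, hM⟩ := ((hT _ h₀).sub h₀).2
  have hstep : ∀ n x, |T^[n + 1] f₀ x - T^[n] f₀ x| ≤ c ^ n * M := by
    intro n
    induction n with
    | zero => intro x; simpa using hM x
    | succ n ih =>
      intro x
      have := hc _ _ (hbm (n + 1)) (hbm n) _ ih x
      rw [← Function.iterate_succ_apply' T (n + 1), ← Function.iterate_succ_apply' T n] at this
      rw [pow_succ']
      linarith
  have hcau : ∀ x, ∃ l, Tendsto (fun n => T^[n] f₀ x) atTop (𝓝 l) := by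
    intro x
    apply cauchySeq_tendsto_of_complete
    apply cauchySeq_of_le_geometric c M c1
    intro n
    rw [dist_comm, Real.dist_eq, mul_comm]
    exact hstep n x
  choose u hu using hcau
  have hdist : ∀ n x, |u x - T^[n] f₀ x| ≤ c ^ n * (M / (1 - c)) := by
    intro n x
    have := dist_le_of_le_geometric_of_tendsto (f := fun n => T^[n] f₀ x) c M c1
      (fun n => by rw [dist_comm, Real.dist_eq, mul_comm]; exact hstep n x) (hu x) n
    rw [dist_comm, Real.dist_eq] at this
    calc |u x - T^[n] f₀ x| ≤ M * c ^ n / (1 - c) := this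
      _ = c ^ n * (M / (1 - c)) := by ring
  have hubm : BM u := by
    refine ⟨measurable_of_tendsto_metrizable (fun n => (hbm n).1)
      (tendsto_pi_nhds.2 hu), ?_⟩
    obtain ⟨A, hA⟩ := h₀.2
    refine ⟨M / (1 - c) + A, fun x => ?_⟩
    have h1 := hdist 0 x
    simp only [pow_zero, one_mul, Function.iterate_zero, id_eq] at h1
    have h2 := hA x
    have h3 : |u x| ≤ |u x - f₀ x| + |f₀ x| := by
      have := abs_add_le (u x - f₀ x) (f₀ x); simpa using this
    linarith
  refine ⟨u, hubm, fun x => ?_, hu⟩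
  have h1 : Tendsto (fun n => T^[n + 1] f₀ x) atTop (𝓝 (T u x)) := by
    rw [tendsto_iff_dist_tendsto_zero]
    refine squeeze_zero (fun n => dist_nonneg) (fun n => ?_)
      (g := fun n => c * (c ^ n * (M / (1 - c)))) ?_
    · rw [dist_comm, Real.dist_eq, Function.iterate_succ_apply']
      exact hc _ _ hubm (hbm n) _ (hdist n) x
    · have := (tendsto_pow_atTop_nhds_zero_of_lt_one c0 c1).mul_const (M / (1 - c))
      have := this.const_mul c
      simpa using this
  exact tendsto_nhds_unique h1 ((tendsto_add_atTop_iff_nat 1).2 (hu x))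

section

variable {μ : Measure X} [SFinite μ] {c : ℝ} {k : X → X → ℝ}

/-- Positivity: `h ≥ P h` (pointwise) implies `h ≥ 0`. -/
lemma Ker.pos (hk : Ker μ c k) {h : X → ℝ} (hh : BM h) (hge : ∀ x, P μ k h x ≤ h x) (x : X) :
    0 ≤ h x := by
  obtain ⟨M, hM⟩ := hh.2
  have hM0 : 0 ≤ M := (abs_nonneg _).trans (hM x)
  have key : ∀ n : ℕ, ∀ x, -(c ^ n * M) ≤ h x := by
    intro n
    induction n with
    | zero => intro x; simpa using (abs_le.1 (hM x)).1
    | succ n ih =>
      intro x
      have hcn : 0 ≤ c ^ n * M := mul_nonneg (pow_nonneg hk.c0 n) hM0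
      have h1 : BM (fun _ : X => -(c ^ n * M)) := ⟨measurable_const, c ^ n * M, fun _ => by
        rw [abs_neg, abs_of_nonneg hcn]⟩
      have h2 := hk.mono h1 hh ih x
      have h3 : -(c * (c ^ n * M)) ≤ P μ k (fun _ => -(c ^ n * M)) x := by
        have := hk.abs_bd h1 (M := c ^ n * M) (fun _ => by rw [abs_neg, abs_of_nonneg hcn]) x
        exact (abs_le.1 this).1
      have h4 := hge x
      rw [pow_succ']
      linarith
  have hlim : Tendsto (fun n : ℕ => -(c ^ n * M)) atTop (𝓝 0) := by
    have := ((tendsto_pow_atTop_nhds_zero_of_lt_one hk.c0 hk.c1).mul_const M).neg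
    simpa using this
  exact le_of_tendsto' hlim (fun n => key n x)

/-- `P` is a contraction of `L¹`. -/
lemma Ker.integrable_kernel_mul (hk : Ker μ c k) {f φ : X → ℝ} (hfm : Measurable f)
    (hf : Integrable f μ) (hφ : BM φ) :
    Integrable (fun p : X × X => k p.1 p.2 * f p.2 * φ p.1) (μ.prod μ) := by
  obtain ⟨A, hA⟩ := hφ.2
  have hmeas : Measurable (fun p : X × X => k p.1 p.2 * f p.2 * φ p.1) :=
    (hk.meas.mul (hfm.comp measurable_snd)).mul (hφ.1.comp measurable_fst)
  rw [integrable_prod_iff' hmeas.aestronglyMeasurable]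
  have hsymm : ∀ y, (fun x => k x y) = fun x => k y x := fun y => funext fun x => hk.symm x y
  constructor
  · refine Filter.Eventually.of_forall fun y => ?_
    have h1 : Integrable (fun x => k x y) μ := by rw [hsymm]; exact hk.int y
    have h2 : Integrable (fun x => k x y * φ x) μ := by
      refine h1.mul_bdd (c := A) hφ.1.aestronglyMeasurable ?_
      exact Filter.Eventually.of_forall fun y => by simpa [Real.norm_eq_abs] using hA y
    have h3 := h2.mul_const (f y)
    refine h3.congr (Filter.Eventually.of_forall fun x => ?_)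
    simp only; ring
  · have hb : ∀ y, ∫ x, ‖k x y * f y * φ x‖ ∂μ ≤ (c * A) * |f y| := by
      intro y
      have h1 : Integrable (fun x => k x y) μ := by rw [hsymm]; exact hk.int y
      have h2 : ∫ x, ‖k x y * f y * φ x‖ ∂μ ≤ ∫ x, k x y * (A * |f y|) ∂μ := by
        refine integral_mono_of_nonneg (Filter.Eventually.of_forall fun x => norm_nonneg _)
          (h1.mul_const _) (Filter.Eventually.of_forall fun x => ?_)
        simp only [Real.norm_eq_abs, abs_mul, abs_of_nonneg (hk.nonneg x y)]
        have := mul_le_mul_of_nonneg_left (hA x) (mul_nonneg (hk.nonneg x y) (abs_nonneg (f y)))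
        calc k x y * |f y| * |φ x| ≤ k x y * |f y| * A := this
          _ = k x y * (A * |f y|) := by ring
      rw [integral_mul_const] at h2
      have h3 : ∫ x, k x y ∂μ ≤ c := by
        have := hk.mass y
        rwa [← hsymm y] at this
      have hA0 : 0 ≤ A := (abs_nonneg _).trans (hA y)
      calc _ ≤ _ := h2
        _ ≤ c * (A * |f y|) := mul_le_mul_of_nonneg_right h3 (mul_nonneg hA0 (abs_nonneg _))
        _ = (c * A) * |f y| := by ring
    have hm2 : AEStronglyMeasurable (fun y => ∫ x, ‖k x y * f y * φ x‖ ∂μ) μ := by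
      have : StronglyMeasurable (fun y => ∫ x, ‖k x y * f y * φ x‖ ∂μ) := by
        apply StronglyMeasurable.integral_prod_right (f := fun y x => ‖k x y * f y * φ x‖)
        exact ((hmeas.comp measurable_swap).norm).stronglyMeasurable
      exact this.aestronglyMeasurable
    refine Integrable.mono' (hf.abs.const_mul (c * A)) hm2 ?_
    refine Filter.Eventually.of_forall fun y => ?_
    rw [Real.norm_eq_abs, abs_of_nonneg (integral_nonneg fun x => norm_nonneg _)]
    exact hb y

lemma Ker.integrable (hk : Ker μ c k) {f : X → ℝ} (hfm : Measurable f)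
    (hf : Integrable f μ) : Integrable (P μ k f) μ := by
  have h1 : BM (fun _ : X => (1 : ℝ)) := ⟨measurable_const, 1, fun _ => by simp⟩
  have := (hk.integrable_kernel_mul hfm hf h1).integral_prod_left
  refine this.congr (Filter.Eventually.of_forall fun x => ?_)
  simp [P]

/-- Symmetry of `P`. -/
lemma Ker.symm_int (hk : Ker μ c k) {f φ : X → ℝ} (hfm : Measurable f)
    (hf : Integrable f μ) (hφ : BM φ) :
    ∫ x, P μ k f x * φ x ∂μ = ∫ y, f y * P μ k φ y ∂μ := by
  have hI := hk.integrable_kernel_mul hfm hf hφ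
  have h1 : ∫ x, P μ k f x * φ x ∂μ = ∫ x, ∫ y, k x y * f y * φ x ∂μ ∂μ := by
    refine integral_congr_ae (Filter.Eventually.of_forall fun x => ?_)
    simp only [P]
    rw [integral_mul_const]
  rw [h1, integral_integral_swap hI]
  refine integral_congr_ae (Filter.Eventually.of_forall fun y => ?_)
  simp only [P]
  rw [← integral_const_mul]
  refine integral_congr_ae (Filter.Eventually.of_forall fun x => ?_)
  simp only
  rw [hk.symm x y]; ring

lemma Ker.l1 (hk : Ker μ c k) {f : X → ℝ} (hfm : Measurable f)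
    (hf : Integrable f μ) (h0 : ∀ x, 0 ≤ f x) : ∫ x, P μ k f x ∂μ ≤ c * ∫ x, f x ∂μ := by
  have h1 : BM (fun _ : X => (1 : ℝ)) := ⟨measurable_const, 1, fun _ => by simp⟩
  have h2 := hk.symm_int hfm hf h1
  simp only [mul_one] at h2
  rw [h2, ← integral_const_mul]
  have h3 : ∀ y, P μ k (fun _ => (1 : ℝ)) y ≤ c := fun y => by
    simpa [P] using hk.mass y
  have h4 : Integrable (fun y => f y * P μ k (fun _ => (1 : ℝ)) y) μ := by
    obtain ⟨B, hB⟩ := (hk.bm h1).2
    refine hf.mul_bdd (c := B) (hk.bm h1).1.aestronglyMeasurable ?_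
    exact Filter.Eventually.of_forall fun y => by simpa [Real.norm_eq_abs] using hB y
  refine integral_mono h4 (hf.const_mul c) fun y => ?_
  simp only
  rw [mul_comm c]
  exact mul_le_mul_of_nonneg_left (h3 y) (h0 y)

/-- Resolvent: bounded, integrable, nonnegative solution of `W = g + P W` for `g ≥ 0`. -/
theorem Ker.resolvent_nonneg (hk : Ker μ c k) {g : X → ℝ} (hg : BM g) (hgi : Integrable g μ)
    (h0 : ∀ x, 0 ≤ g x) :
    ∃ W, BM W ∧ Integrable W μ ∧ (∀ x, 0 ≤ W x) ∧ ∀ x, W x = g x + P μ k W x := by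
  have hz : BM (fun _ : X => (0 : ℝ)) := ⟨measurable_const, 0, fun _ => by simp⟩
  obtain ⟨W, hW, hfix, hlim⟩ := exists_fix (fun f x => g x + P μ k f x) hk.c0 hk.c1
    (fun f hf => hg.add (hk.bm hf)) (fun f g' hf hg' M hM x => by
      have : g x + P μ k f x - (g x + P μ k g' x) = P μ k (fun y => f y - g' y) x := by
        rw [hk.map_sub hf hg']; ring
      rw [this]
      exact hk.abs_bd (hf.sub hg') hM x) (fun _ => 0) hz
  have hWpos : ∀ x, 0 ≤ W x := fun x => hk.pos hW (fun x => by
    have := hfix x; linarith [h0 x]) x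
  refine ⟨W, hW, ?_, hWpos, fun x => (hfix x).symm⟩
  -- integrability by Fatou on the iterates
  set F : ℕ → X → ℝ := fun n => (fun f x => g x + P μ k f x)^[n] (fun _ => 0) with hF
  have hFs : ∀ n x, F (n + 1) x = g x + P μ k (F n) x := by
    intro n x; simp only [hF, Function.iterate_succ_apply']
  have hFbm : ∀ n, BM (F n) := by
    intro n
    induction n with
    | zero => simpa [hF] using hz
    | succ n ih =>
      have : F (n + 1) = fun x => g x + P μ k (F n) x := funext (hFs n)
      rw [this]; exact hg.add (hk.bm ih)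
  have hFi : ∀ n, Integrable (F n) μ ∧ (∀ x, 0 ≤ F n x) ∧
      ∫ x, F n x ∂μ ≤ (∫ x, g x ∂μ) / (1 - c) := by
    have hG0 : 0 ≤ ∫ x, g x ∂μ := integral_nonneg h0
    have hc1 : 0 < 1 - c := by linarith [hk.c1]
    intro n
    induction n with
    | zero =>
      refine ⟨by simp [hF], by simp [hF], ?_⟩
      simp only [hF, Function.iterate_zero, id_eq, integral_zero]
      positivity
    | succ n ih =>
      obtain ⟨i1, i2, i3⟩ := ih
      have e : F (n + 1) = fun x => g x + P μ k (F n) x := funext (hFs n)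
      have j1 := hk.integrable (hFbm n).1 i1
      rw [e]
      refine ⟨hgi.add j1, fun x => add_nonneg (h0 x)
        (integral_nonneg fun y => mul_nonneg (hk.nonneg x y) (i2 y)), ?_⟩
      rw [integral_add hgi j1]
      have j2 := hk.l1 (hFbm n).1 i1 i2
      have j3 : c * ∫ x, F n x ∂μ ≤ c * ((∫ x, g x ∂μ) / (1 - c)) :=
        mul_le_mul_of_nonneg_left i3 hk.c0
      have j4 : (∫ x, g x ∂μ) + c * ((∫ x, g x ∂μ) / (1 - c)) = (∫ x, g x ∂μ) / (1 - c) := by
        field_simp; ring
      linarith
  refine ⟨hW.1.aestronglyMeasurable, ?_⟩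
  have hfatou : ∫⁻ x, ENNReal.ofReal (W x) ∂μ ≤ ENNReal.ofReal ((∫ x, g x ∂μ) / (1 - c)) := by
    have h1 : ∀ x, ENNReal.ofReal (W x) = liminf (fun n => ENNReal.ofReal (F n x)) atTop := by
      intro x
      exact ((ENNReal.continuous_ofReal.tendsto _).comp (hlim x)).liminf_eq.symm
    calc ∫⁻ x, ENNReal.ofReal (W x) ∂μ
        = ∫⁻ x, liminf (fun n => ENNReal.ofReal (F n x)) atTop ∂μ := by
          simp only [h1]
      _ ≤ liminf (fun n => ∫⁻ x, ENNReal.ofReal (F n x) ∂μ) atTop :=
          lintegral_liminf_le (fun n => (hFbm n).1.ennreal_ofReal)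
      _ ≤ ENNReal.ofReal ((∫ x, g x ∂μ) / (1 - c)) := by
          refine liminf_le_of_frequently_le' (Filter.Frequently.of_forall fun n => ?_)
          rw [← ofReal_integral_eq_lintegral_ofReal (hFi n).1
            (Filter.Eventually.of_forall (hFi n).2.1)]
          exact ENNReal.ofReal_le_ofReal (hFi n).2.2
  rw [hasFiniteIntegral_iff_ofReal (Filter.Eventually.of_forall hWpos)]
  exact hfatou.trans_lt ENNReal.ofReal_lt_top

/-- **Contact set.** -/
theorem Ker.contact (hk : Ker μ c k) {β : X → ℝ} (hβ : BM β) (hβi : Integrable β μ) :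
    ∃ (ε : X → ℝ) (Z : Set X), BM ε ∧ Integrable ε μ ∧ MeasurableSet Z ∧
      (∀ x, 0 ≤ ε x) ∧ (∀ x, ε x ≤ max (β x) 0) ∧ (∀ x, x ∉ Z → ε x = 0) ∧
      (∀ φ : X → ℝ, BM φ → (∀ x, P μ k φ x ≤ φ x) →
        ∫ x, β x * φ x ∂μ ≤ ∫ x, ε x * φ x ∂μ) ∧
      (∀ x ∈ Z, ∀ n : ℕ, ∑ j ∈ Finset.range n, (P μ k)^[j] ε x
        ≤ ∑ j ∈ Finset.range n, (P μ k)^[j] β x) := by
  have hz : BM (fun _ : X => (0 : ℝ)) := ⟨measurable_const, 0, fun _ => by simp⟩
  -- `W` dominates everything
  obtain ⟨W, hW, hWi, hW0, hWeq⟩ := hk.resolvent_nonneg hβ.abs hβi.abs (fun x => abs_nonneg _)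
  -- `w`
  obtain ⟨w, hw, hwfix, -⟩ := exists_fix (fun f x => β x + P μ k f x) hk.c0 hk.c1
    (fun f hf => hβ.add (hk.bm hf)) (fun f g' hf hg' M hM x => by
      have : β x + P μ k f x - (β x + P μ k g' x) = P μ k (fun y => f y - g' y) x := by
        rw [hk.map_sub hf hg']; ring
      rw [this]
      exact hk.abs_bd (hf.sub hg') hM x) (fun _ => 0) hz
  have hwW : ∀ x, w x ≤ W x := by
    intro x
    have := hk.pos (hW.sub hw) (fun x => by
      rw [hk.map_sub hW hw]
      have h1 := hWeq x; have h2 := hwfix x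
      have h3 := le_abs_self (β x)
      linarith) x
    linarith
  have hwW' : ∀ x, -W x ≤ w x := by
    intro x
    have := hk.pos (hW.add hw) (fun x => by
      rw [hk.map_add hW hw]
      have h1 := hWeq x; have h2 := hwfix x
      have h3 := neg_abs_le (β x)
      linarith) x
    linarith
  -- `u`
  obtain ⟨u, hu, hufix, -⟩ := exists_fix (fun f x => max (w x) (P μ k f x)) hk.c0 hk.c1
    (fun f hf => hw.max (hk.bm hf)) (fun f g' hf hg' M hM x => by
      have h1 : |max (w x) (P μ k f x) - max (w x) (P μ k g' x)|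
          ≤ |P μ k f x - P μ k g' x| := by
        rw [max_comm (w x), max_comm (w x)]
        exact abs_max_sub_max_le_abs _ _ _
      refine h1.trans ?_
      have : P μ k f x - P μ k g' x = P μ k (fun y => f y - g' y) x := by
        rw [hk.map_sub hf hg']
      rw [this]
      exact hk.abs_bd (hf.sub hg') hM x) (fun _ => 0) hz
  have huw : ∀ x, w x ≤ u x := fun x => by rw [← hufix x]; exact le_max_left _ _
  have huP : ∀ x, P μ k u x ≤ u x := fun x => by
    conv_rhs => rw [← hufix x]
    exact le_max_right _ _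
  have hPW : ∀ x, P μ k W x ≤ W x := fun x => by
    have := hWeq x; linarith [abs_nonneg (β x)]
  -- `u ≤ W`
  have huW : ∀ x, u x ≤ W x := by
    -- apply positivity to `min 0 (W - u)` replaced by `v = -(max (u - W) 0)`
    have hv : BM (fun x => max (u x - W x) 0) := (hu.sub hW).max hz
    have hv' : BM (fun x => (0 : ℝ) - max (u x - W x) 0) := hz.sub hv
    intro x
    have := hk.pos hv' (fun x => by
      rw [hk.map_sub hz hv]
      have h0 : P μ k (fun _ => (0 : ℝ)) x = 0 := by simp [P]
      rw [h0]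
      have h1 : P μ k (fun y => u y - W y) x ≤ P μ k (fun y => max (u y - W y) 0) x :=
        hk.mono (hu.sub hW) hv (fun y => le_max_left _ _) x
      have h2 : 0 ≤ P μ k (fun y => max (u y - W y) 0) x :=
        integral_nonneg fun y => mul_nonneg (hk.nonneg x y) (le_max_right _ _)
      rw [hk.map_sub hu hW] at h1
      have h3 : u x - W x ≤ P μ k (fun y => max (u y - W y) 0) x := by
        rcases le_total (w x) (P μ k u x) with h | h
        · have : u x = P μ k u x := by rw [← hufix x]; simp [max_eq_right h, hufix]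
          linarith [hPW x]
        · have : u x = w x := by rw [← hufix x, max_eq_left h]
          linarith [hwW x]
      have h4 : max (u x - W x) 0 ≤ P μ k (fun y => max (u y - W y) 0) x := max_le h3 h2
      linarith) x
    have h5 := le_max_left (u x - W x) 0
    linarith
  have hwi : Integrable w μ := hWi.mono' hw.1.aestronglyMeasurable
    (Filter.Eventually.of_forall fun x => by
      rw [Real.norm_eq_abs, abs_le]; exact ⟨hwW' x, hwW x⟩)
  have hui : Integrable u μ := hWi.mono' hu.1.aestronglyMeasurable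
    (Filter.Eventually.of_forall fun x => by
      rw [Real.norm_eq_abs, abs_le]
      exact ⟨(hwW' x).trans (huw x), huW x⟩)
  have hβeq : ∀ x, β x = w x - P μ k w x := fun x => by have := hwfix x; linarith
  refine ⟨fun x => u x - P μ k u x, {x | u x = w x}, hu.sub (hk.bm hu),
    hui.sub (hk.integrable hu.1 hui), measurableSet_eq_fun hu.1 hw.1,
    fun x => by linarith [huP x], ?_, ?_, ?_, ?_⟩
  · intro x
    rcases le_total (w x) (P μ k u x) with h | h
    · have : u x = P μ k u x := by
        have := hufix x; rw [max_eq_right h] at this; exact this.symm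
      simp only
      rw [← this, sub_self]
      exact le_max_right _ _
    · have h1 : u x = w x := by
        have := hufix x; rw [max_eq_left h] at this; exact this.symm
      have h2 := hk.mono hw hu huw x
      have h3 := hβeq x
      refine le_max_of_le_left ?_
      simp only
      linarith
  · intro x hx
    have h : w x ≤ P μ k u x := by
      by_contra hcon
      have h1 := hufix x
      rw [max_eq_left (le_of_lt (not_le.1 hcon))] at h1
      exact hx h1.symm
    have h1 := hufix x
    rw [max_eq_right h] at h1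
    simp only
    linarith
  · intro φ hφ hφP
    have e1 : ∫ x, β x * φ x ∂μ = ∫ x, w x * (φ x - P μ k φ x) ∂μ := by
      have i1 : Integrable (fun x => w x * φ x) μ := by
        obtain ⟨A, hA⟩ := hφ.2
        refine hwi.mul_bdd (c := A) hφ.1.aestronglyMeasurable ?_
        exact Filter.Eventually.of_forall fun y => by simpa [Real.norm_eq_abs] using hA y
      have i2 : Integrable (fun x => P μ k w x * φ x) μ := by
        obtain ⟨A, hA⟩ := hφ.2
        refine (hk.integrable hw.1 hwi).mul_bdd (c := A) hφ.1.aestronglyMeasurable ?_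
        exact Filter.Eventually.of_forall fun y => by simpa [Real.norm_eq_abs] using hA y
      have i3 : Integrable (fun x => w x * P μ k φ x) μ := by
        obtain ⟨A, hA⟩ := (hk.bm hφ).2
        refine hwi.mul_bdd (c := A) (hk.bm hφ).1.aestronglyMeasurable ?_
        exact Filter.Eventually.of_forall fun y => by simpa [Real.norm_eq_abs] using hA y
      calc ∫ x, β x * φ x ∂μ = ∫ x, (w x * φ x - P μ k w x * φ x) ∂μ := by
            refine integral_congr_ae (Filter.Eventually.of_forall fun x => ?_)
            simp only; rw [hβeq x]; ring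
        _ = ∫ x, w x * φ x ∂μ - ∫ x, P μ k w x * φ x ∂μ := integral_sub i1 i2
        _ = ∫ x, w x * φ x ∂μ - ∫ x, w x * P μ k φ x ∂μ := by
            rw [hk.symm_int hw.1 hwi hφ]
        _ = ∫ x, w x * (φ x - P μ k φ x) ∂μ := by
            rw [← integral_sub i1 i3]
            refine integral_congr_ae (Filter.Eventually.of_forall fun x => ?_)
            simp only; ring
    have e2 : ∫ x, (u x - P μ k u x) * φ x ∂μ = ∫ x, u x * (φ x - P μ k φ x) ∂μ := by
      have i1 : Integrable (fun x => u x * φ x) μ := by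
        obtain ⟨A, hA⟩ := hφ.2
        refine hui.mul_bdd (c := A) hφ.1.aestronglyMeasurable ?_
        exact Filter.Eventually.of_forall fun y => by simpa [Real.norm_eq_abs] using hA y
      have i2 : Integrable (fun x => P μ k u x * φ x) μ := by
        obtain ⟨A, hA⟩ := hφ.2
        refine (hk.integrable hu.1 hui).mul_bdd (c := A) hφ.1.aestronglyMeasurable ?_
        exact Filter.Eventually.of_forall fun y => by simpa [Real.norm_eq_abs] using hA y
      have i3 : Integrable (fun x => u x * P μ k φ x) μ := by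
        obtain ⟨A, hA⟩ := (hk.bm hφ).2
        refine hui.mul_bdd (c := A) (hk.bm hφ).1.aestronglyMeasurable ?_
        exact Filter.Eventually.of_forall fun y => by simpa [Real.norm_eq_abs] using hA y
      calc ∫ x, (u x - P μ k u x) * φ x ∂μ = ∫ x, (u x * φ x - P μ k u x * φ x) ∂μ := by
            refine integral_congr_ae (Filter.Eventually.of_forall fun x => ?_)
            simp only; ring
        _ = ∫ x, u x * φ x ∂μ - ∫ x, P μ k u x * φ x ∂μ := integral_sub i1 i2
        _ = ∫ x, u x * φ x ∂μ - ∫ x, u x * P μ k φ x ∂μ := by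
            rw [hk.symm_int hu.1 hui hφ]
        _ = ∫ x, u x * (φ x - P μ k φ x) ∂μ := by
            rw [← integral_sub i1 i3]
            refine integral_congr_ae (Filter.Eventually.of_forall fun x => ?_)
            simp only; ring
    rw [e1, e2]
    have hmul : ∀ v : X → ℝ, Measurable v → Integrable v μ →
        Integrable (fun x => v x * (φ x - P μ k φ x)) μ := by
      intro v _ hvi
      obtain ⟨A, hA⟩ := (hφ.sub (hk.bm hφ)).2
      refine hvi.mul_bdd (c := A) (hφ.sub (hk.bm hφ)).1.aestronglyMeasurable ?_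
      exact Filter.Eventually.of_forall fun y => by simpa [Real.norm_eq_abs] using hA y
    refine integral_mono (hmul w hw.1 hwi) (hmul u hu.1 hui) fun x => ?_
    exact mul_le_mul_of_nonneg_right (huw x) (by linarith [hφP x])
  · intro x hx n
    have hβfun : β = fun y => w y - P μ k w y := funext hβeq
    rw [hk.tele hu n x, hβfun, hk.tele hw n x]
    have h1 := hk.iter_mono hw hu huw n x
    have h2 : u x = w x := hx
    linarith

end

end Crest.Agent.R234.Contact_945
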