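import Crest.Agent.R234.Ode2_201

/-!
# R234 / Core1_809 : node N10 of the core (#5124 (2)+(6)), the contradiction at ONE contact point

Everything is along `l = log (s / s0)`. `W` is the type of well configurations, `q w` the gap,
`eF w`, `IF w`, `er w` the well energy, the well height and the error of (W3).
-/

set_option autoImplicit false

namespace Crest.Agent.R234.Core_809

open MeasureTheory Set Filter
open Crest.Agent.R234.Ode_201
open scoped Topology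

/-- the data at one (averaged) contact centre on the window `[a0, T]` of `l`:
`U' = R ≥ 0`, `U ≤ E`; (W2), (W3) for all wells `w` with `q w ^ 2 ≤ q1`. -/
structure PtDat {W : Type*} (q : W → ℝ) (κ a0 T q1 : ℝ) (U E R : ℝ → ℝ)
    (eF IF er : W → ℝ → ℝ) : Prop where
  haT : a0 ≤ T
  k0 : 0 ≤ κ
  Upos : 0 < U a0
  hR : IntervalIntegrable R volume a0 T
  hU : ∀ x ∈ Icc a0 T, U x = U a0 + ∫ t in a0..x, R t
  Rnn : ∀ᵐ t, t ∈ Icc a0 T → 0 ≤ R t
  UE : ∀ x ∈ Icc a0 T, U x ≤ E x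
  Em : Measurable E
  Inn : ∀ w, ∀ x ∈ Icc a0 T, 0 ≤ IF w x
  he : ∀ w, q w ^ 2 ≤ q1 → IntervalIntegrable (eF w) volume a0 T
  hρ : ∀ w, q w ^ 2 ≤ q1 → IntervalIntegrable (er w) volume a0 T
  hI : ∀ w, q w ^ 2 ≤ q1 → ∀ x ∈ Icc a0 T, IF w x = IF w a0 + ∫ t in a0..x, (2 * eF w t + er w t)
  cs : ∀ w, q w ^ 2 ≤ q1 → ∀ᵐ t, t ∈ Icc a0 T → eF w t ^ 2 ≤ R t * IF w t + κ * U t ^ 2
  rho : ∀ w, q w ^ 2 ≤ q1 → ∀ᵐ t, t ∈ Icc a0 T → |er w t| ≤ κ * U t

/-- the data of (U, E, R) alone, as a `Dat` with zero wells -/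
theorem PtDat.dat0 {W : Type*} {q : W → ℝ} {κ a0 T q1 : ℝ} {U E R : ℝ → ℝ}
    {eF IF er : W → ℝ → ℝ} (h : PtDat q κ a0 T q1 U E R eF IF er) :
    Dat κ a0 T U (fun _ => 0) R (fun _ => 0) (fun _ => 0) where
  hab := h.haT
  k0 := h.k0
  Upos := h.Upos
  Inn := fun _ _ => le_rfl
  hR := h.hR
  he := by simp
  hρ := by simp
  hU := h.hU
  hI := fun x _ => by simp
  Rnn := h.Rnn
  cs := by
    filter_upwards with t _
    have := h.k0
    simp only [ne_eq, OfNat.ofNat_ne_zero, not_false_eq_true, zero_pow, mul_zero, zero_add]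
    positivity
  rho := by
    filter_upwards with t ht
    have hU0 : ∀ x ∈ Icc a0 T, 0 < U x := by
      intro x hx
      rw [h.hU x hx]
      have h1 : 0 ≤ ∫ t in a0..x, R t := by
        apply intervalIntegral.integral_nonneg_of_ae_restrict hx.1
        rw [EventuallyLE, ae_restrict_iff' measurableSet_Icc]
        filter_upwards [h.Rnn] with t h1 h2 using h1 ⟨h2.1, h2.2.trans hx.2⟩
      have := h.Upos
      linarith
    have := h.k0
    have := hU0 t ht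
    simp only [abs_zero]
    positivity

theorem PtDat.dat {W : Type*} {q : W → ℝ} {κ a0 T q1 : ℝ} {U E R : ℝ → ℝ}
    {eF IF er : W → ℝ → ℝ} (h : PtDat q κ a0 T q1 U E R eF IF er) {w : W} (hw : q w ^ 2 ≤ q1) :
    Dat κ a0 T U (IF w) R (eF w) (er w) where
  hab := h.haT
  k0 := h.k0
  Upos := h.Upos
  Inn := h.Inn w
  hR := h.hR
  he := h.he w hw
  hρ := h.hρ w hw
  hU := h.hU
  hI := h.hI w hw
  Rnn := h.Rnn
  cs := h.cs w hw
  rho := h.rho w hw

theorem PtDat.pos {W : Type*} {q : W → ℝ} {κ a0 T q1 : ℝ} {U E R : ℝ → ℝ}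
    {eF IF er : W → ℝ → ℝ} (h : PtDat q κ a0 T q1 U E R eF IF er) {x : ℝ} (hx : x ∈ Icc a0 T) :
    0 < U x := h.dat0.pos hx

theorem PtDat.mono {W : Type*} {q : W → ℝ} {κ a0 T q1 : ℝ} {U E R : ℝ → ℝ}
    {eF IF er : W → ℝ → ℝ} (h : PtDat q κ a0 T q1 U E R eF IF er) {x y : ℝ} (hx : x ∈ Icc a0 T)
    (hy : y ∈ Icc a0 T) (hxy : x ≤ y) : U x ≤ U y := h.dat0.mono hx hy hxy

/-- **search of a good scale** in the zone of the dyadic blocks `a + 1, …, a + K - 1`. -/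
theorem search {κ a0 T : ℝ} {U I R e ρ E : ℝ → ℝ} (h : Dat κ a0 T U I R e ρ) {Ω0 : Set ℝ}
    (hE : Measurable E) (hΩ : MeasurableSet Ω0) {a K : ℕ} {η H C0 K2 : ℝ}
    (ha : a0 ≤ 2 ^ a) (hT : (2 : ℝ) ^ (a + K) ≤ T)
    (h16 : η ≤ 1 / 16) (hK : 2 ≤ K) (hH0 : 0 < H)
    (hH : Real.log (U (2 ^ (a + K))) - Real.log (U (2 ^ a)) ≤ H)
    (hsum : ∑ k ∈ Finset.range K,
      (volume (Ω0 ∩ Icc ((2 : ℝ) ^ (a + k)) (2 ^ (a + k + 1)))).toReal / 2 ^ (a + k) ≤ η / 2 * K)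
    (hC0 : 0 < C0) (hK2 : 8 * C0 * Real.exp (4 * H / K) ≤ K2)
    (hg6 : ∀ᵐ t, t ∈ Icc a0 T → t ∉ Ω0 → E t ≤ C0 * t * R t) :
    ∃ t, (2 : ℝ) ^ (a + 1) ≤ t ∧ t ≤ 2 ^ (a + K) ∧ t ∉ Ω0 ∧ E t ≤ K2 * U t := by
  have hKr : (2 : ℝ) ≤ K := by exact_mod_cast hK
  have hK2p : 0 < K2 := lt_of_lt_of_le (by positivity) hK2
  have hle : ∀ k, k ≤ K → (2 : ℝ) ^ (a + k) ∈ Icc a0 T := fun k hk' =>
    ⟨ha.trans (pow_le_pow_right₀ (by norm_num) (by lia)),
      (pow_le_pow_right₀ (by norm_num) (by lia)).trans hT⟩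
  set θ : ℕ → ℝ := fun k =>
    (volume (Ω0 ∩ Icc ((2 : ℝ) ^ (a + k)) (2 ^ (a + k + 1)))).toReal / 2 ^ (a + k) with hθ
  set L : ℕ → ℝ := fun k => Real.log (U (2 ^ (a + k))) with hL
  have hθ0 : ∀ k, 0 ≤ θ k := fun k => div_nonneg ENNReal.toReal_nonneg (by positivity)
  have hLm : ∀ k, k < K → L k ≤ L (k + 1) := by
    intro k hk
    apply Real.log_le_log (h.pos (hle k hk.le))
    exact h.mono (hle k hk.le) (hle (k + 1) hk) (pow_le_pow_right₀ (by norm_num) (by lia))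
  -- a good block
  have hex : ∃ k, 1 ≤ k ∧ k < K ∧ θ k ≤ 1 / 4 ∧ L (k + 1) - L k ≤ 4 * H / K := by
    by_contra hcon
    push Not at hcon
    have h1 : ∀ k ∈ Finset.range K, (if k = 0 then (0 : ℝ) else 1)
        ≤ 4 * θ k + K / (4 * H) * (L (k + 1) - L k) := by
      intro k hk
      have hkK := Finset.mem_range.mp hk
      have hm := hLm k hkK
      have h3 : 0 ≤ K / (4 * H) * (L (k + 1) - L k) :=
        mul_nonneg (by positivity) (by linarith)
      have h4 := hθ0 k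
      split_ifs with hk0
      · linarith
      · by_cases h5 : θ k ≤ 1 / 4
        · have h6 := hcon k (by lia) hkK h5
          have h7 : 1 < K / (4 * H) * (L (k + 1) - L k) := by
            have h8 : K / (4 * H) * (4 * H / K) = 1 := by field_simp
            have h9 : K / (4 * H) * (4 * H / K) < K / (4 * H) * (L (k + 1) - L k) :=
              mul_lt_mul_of_pos_left h6 (by positivity)
            linarith
          linarith
        · push Not at h5
          linarith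
    have h2 := Finset.sum_le_sum h1
    rw [Finset.sum_add_distrib, ← Finset.mul_sum, ← Finset.mul_sum, Finset.sum_range_sub] at h2
    have h3 : ∑ k ∈ Finset.range K, (if k = 0 then (0 : ℝ) else 1) = K - 1 := by
      have h4 : ∑ k ∈ Finset.range K, (if k = 0 then (0 : ℝ) else 1)
          = ∑ k ∈ Finset.range K, ((1 : ℝ) - if k = 0 then 1 else 0) := by
        apply Finset.sum_congr rfl
        intro k _
        split_ifs <;> simp
      rw [h4, Finset.sum_sub_distrib]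
      simp only [Finset.sum_const, Finset.card_range, nsmul_eq_mul, mul_one]
      rw [Finset.sum_ite_eq' (Finset.range K) 0]
      simp [show 0 < K by lia]
    rw [h3] at h2
    have h5 : K / (4 * H) * (L K - L 0) ≤ K / 4 := by
      have h6 : L K - L 0 ≤ H := by
        simp only [hL, add_zero]
        exact hH
      calc K / (4 * H) * (L K - L 0) ≤ K / (4 * H) * H :=
            mul_le_mul_of_nonneg_left h6 (by positivity)
        _ = K / 4 := by field_simp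
    have h7 : ∑ k ∈ Finset.range K, θ k ≤ η / 2 * K := hsum
    nlinarith
  obtain ⟨k, hk1, hkK, hθk, hLk⟩ := hex
  set P : ℝ := 2 ^ (a + k) with hP
  have hPpos : 0 < P := by positivity
  have hpow : 2 * P = 2 ^ (a + k + 1) := by rw [hP]; ring
  have hPm := hle k hkK.le
  have hP1m := hle (k + 1) hkK
  have hUP := h.pos hPm
  have hUP1 := h.pos hP1m
  have hK1 : U (2 * P) ≤ Real.exp (4 * H / K) * U P := by
    rw [hpow]
    have h1 : Real.log (U (2 ^ (a + (k + 1)))) ≤ 4 * H / K + Real.log (U P) := by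
      have : L (k + 1) - L k ≤ 4 * H / K := hLk
      simp only [hL] at this
      linarith
    calc U (2 ^ (a + k + 1)) = Real.exp (Real.log (U (2 ^ (a + (k + 1))))) :=
          (Real.exp_log hUP1).symm
      _ ≤ Real.exp (4 * H / K + Real.log (U P)) := Real.exp_le_exp.mpr h1
      _ = _ := by rw [Real.exp_add, Real.exp_log hUP]
  have h1 := h.ratio hE hΩ hPpos hPm.1 (by rw [hpow]; exact hP1m.2) hC0 hK2p hg6 hK1
  have h2 : 2 * C0 * Real.exp (4 * H / K) / K2 * P ≤ P / 4 := by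
    have h3 : 2 * C0 * Real.exp (4 * H / K) / K2 ≤ 1 / 4 := by
      rw [div_le_iff₀ hK2p]; linarith
    nlinarith
  set S : Set ℝ := ({t | K2 * ext a0 T U t < E t} \ Ω0) ∩ Icc P (2 * P) with hS
  have h3 : (volume (Ω0 ∩ Icc P (2 * P))).toReal ≤ P / 4 := by
    have h4 : (volume (Ω0 ∩ Icc P (2 ^ (a + k + 1)))).toReal / P ≤ 1 / 4 := hθk
    rw [div_le_iff₀ hPpos] at h4
    rw [hpow]
    linarith
  -- the rest of the block is not empty
  have hne : ¬ (Icc P (2 * P) ⊆ (Ω0 ∩ Icc P (2 * P)) ∪ S) := by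
    intro hsub
    have h5 := measure_mono (μ := volume) hsub
    have h6 := h5.trans (measure_union_le _ _)
    have hfin : ∀ A : Set ℝ, volume (A ∩ Icc P (2 * P)) ≠ ⊤ := fun A =>
      ne_of_lt (lt_of_le_of_lt (measure_mono inter_subset_right) (by simp))
    have h7 : (volume (Icc P (2 * P))).toReal
        ≤ (volume (Ω0 ∩ Icc P (2 * P))).toReal + (volume S).toReal := by
      rw [← ENNReal.toReal_add (hfin _) (hfin _)]
      exact ENNReal.toReal_mono (ENNReal.add_ne_top.mpr ⟨hfin _, hfin _⟩) h6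
    rw [Real.volume_Icc, ENNReal.toReal_ofReal (by linarith)] at h7
    linarith
  rw [not_subset] at hne
  obtain ⟨t, ht, htn⟩ := hne
  have ht1 : t ∉ Ω0 := fun h' => htn (Or.inl ⟨h', ht⟩)
  have htm : t ∈ Icc a0 T := ⟨hPm.1.trans ht.1, ht.2.trans (by rw [hpow]; exact hP1m.2)⟩
  have ht2 : ¬ (K2 * ext a0 T U t < E t) := fun h' => htn (Or.inr ⟨⟨h', ht1⟩, ht⟩)
  rw [ext_eq htm] at ht2
  refine ⟨t, ?_, ?_, ht1, not_lt.mp ht2⟩
  · exact (pow_le_pow_right₀ (by norm_num) (by lia)).trans ht.1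
  · refine ht.2.trans ?_
    rw [hpow]
    exact pow_le_pow_right₀ (by norm_num) (by lia)

theorem zone_sum {f : ℕ → ℝ} (hf : ∀ k, 0 ≤ f k) {j K n : ℕ} (hj : (j + 1) * K ≤ n) :
    ∑ k ∈ Finset.range K, f (j * K + k) ≤ ∑ k ∈ Finset.range n, f k := by
  have h1 : ∑ k ∈ Finset.range K, f (j * K + k)
      = ∑ k ∈ (Finset.range K).map (addLeftEmbedding (j * K)), f k := by
    rw [Finset.sum_map]
    rfl
  rw [h1]
  apply Finset.sum_le_sum_of_subset_of_nonneg
  · intro x hx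
    simp only [Finset.mem_map, Finset.mem_range, addLeftEmbedding_apply] at hx ⊢
    obtain ⟨y, hy, rfl⟩ := hx
    nlinarith
  · intro k _ _
    exact hf k

set_option maxHeartbeats 1000000 in
/-- **NODE N10 (PT)**: the contradiction at one contact point. `Ω0` is the set of bad scales,
`N` the bound for the number of separated heights, `K` the number of dyadic blocks per zone. -/
theorem pt_false {W : Type*} {q : W → ℝ} {κ a0 T q1 : ℝ} {U E R : ℝ → ℝ}
    {eF IF er : W → ℝ → ℝ} (h : PtDat q κ a0 T q1 U E R eF IF er)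
    {N p K : ℕ} {η H C0 K2 Θ c1 C3 A KR M B : ℝ} {e : ℝ → ℝ} {Ω0 : Set ℝ}
    (hΩ : MeasurableSet Ω0) (ha0 : a0 ≤ 2 ^ p) (hT : (2 : ℝ) ^ (p + (2 * N + 1) * K) ≤ T)
    (hη0 : 0 < η) (h16 : η ≤ 1 / 16) (hκ : κ ≤ η) (hK : 4 ≤ K)
    (hH0 : 0 < H) (hH : Real.log (U T) - Real.log (U a0) ≤ H)
    (hsum : ∑ k ∈ Finset.range ((2 * N + 1) * K),
      (volume (Ω0 ∩ Icc ((2 : ℝ) ^ (p + k)) (2 ^ (p + k + 1)))).toReal / 2 ^ (p + k) ≤ η / 2 * K)
    (hC0 : 0 < C0) (hK2 : 8 * C0 * Real.exp (4 * H / (η * K)) / η ≤ K2)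
    (hg6 : ∀ t ∈ Icc a0 T, t ∉ Ω0 → E t ≤ C0 * t * R t)
    (hg2 : ∀ w, q w ^ 2 ≤ q1 → ∀ t ∈ Icc a0 T, t + 1 ≤ T → t ∉ Ω0 → Θ * t * E t ≤ q w ^ 2 →
      IF w (t + 1) ≤ c1 * q w ^ 2 → IF w t ≤ B * t * E t → IF w (t + 1) ≤ B * (t * U (t + 1)) →
      2 * (1 - η) * E t ≤ eF w t)
    (hg1 : ∀ t ∈ Icc a0 T, t ∉ Ω0 → e (t + 3) ≤ C3 * E t)
    (hrun : ∀ τ : ℕ → ℝ, (∀ i ≤ N, a0 ≤ τ i ∧ τ i ≤ T ∧ 1 ≤ τ i) →
      (∀ i < N, 16 * τ i ≤ τ (i + 1)) →
      (∀ i ≤ N, A * e (τ i + 3) ≤ M ^ 2 * (U (τ i) * τ i)) →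
      ∃ i < N, ∃ w, q w ^ 2 = M ^ 2 * (U (τ (i + 1)) * τ (i + 1)) / 4 ∧
        IF w (τ i) ≤ KR * M ^ 2 * (U (τ i) * τ i))
    (hq1 : M ^ 2 * (U T * T) ≤ q1) (hΘ : 0 ≤ Θ) (hM : 4 * K2 * Θ ≤ M ^ 2) (hA : 0 ≤ A)
    (hC3 : 0 ≤ C3) (hM2 : A * C3 * K2 ≤ M ^ 2) (hc1 : 0 < c1) (hM3 : 16 ≤ c1 * M ^ 2)
    (hKR0 : 0 ≤ KR) (hKR : 8 * KR ≤ c1 * 2 ^ K) (hAK : KR * M ^ 2 + 2 ≤ η * K)
    (hfin : H < 3 * K / (32 * η)) (hB : KR * M ^ 2 + 4 ≤ B) : False := by
  have hKr : (4 : ℝ) ≤ K := by exact_mod_cast hK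
  have hKpos : (0 : ℝ) < K := by linarith
  have hK2p : 0 < K2 := lt_of_lt_of_le (by positivity) hK2
  have hκ0 := h.k0
  have hκ2 : 1 + 2 * κ ≤ 2 := by linarith
  have hmem : ∀ k, k ≤ (2 * N + 1) * K → (2 : ℝ) ^ (p + k) ∈ Icc a0 T := fun k hk =>
    ⟨ha0.trans (pow_le_pow_right₀ (by norm_num) (by lia)),
      (pow_le_pow_right₀ (by norm_num) (by lia)).trans hT⟩
  have hTm : T ∈ Icc a0 T := ⟨h.haT, le_rfl⟩
  have ha0m : a0 ∈ Icc a0 T := ⟨le_rfl, h.haT⟩
  have hgrow : ∀ x y, x ∈ Icc a0 T → y ∈ Icc a0 T → Real.log (U y) - Real.log (U x) ≤ H := by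
    intro x y hx hy
    have h1 : Real.log (U y) ≤ Real.log (U T) :=
      Real.log_le_log (h.pos hy) (h.mono hy hTm hy.2)
    have h2 : Real.log (U a0) ≤ Real.log (U x) :=
      Real.log_le_log (h.pos ha0m) (h.mono ha0m hx hx.1)
    linarith
  have hθ0 : ∀ k, 0 ≤ (volume (Ω0 ∩ Icc ((2 : ℝ) ^ (p + k)) (2 ^ (p + k + 1)))).toReal /
      2 ^ (p + k) := fun k => div_nonneg ENNReal.toReal_nonneg (by positivity)
  have hzone : ∀ j, j ≤ 2 * N → ∑ k ∈ Finset.range K,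
      (volume (Ω0 ∩ Icc ((2 : ℝ) ^ (p + j * K + k)) (2 ^ (p + j * K + k + 1)))).toReal /
        2 ^ (p + j * K + k) ≤ η / 2 * K := by
    intro j hj
    refine le_trans ?_ hsum
    have h1 := zone_sum hθ0 (j := j) (K := K) (n := (2 * N + 1) * K)
      (Nat.mul_le_mul_right K (by lia))
    simpa only [← add_assoc] using h1
  have hexp : Real.exp (4 * H / K) ≤ Real.exp (4 * H / (η * K)) / η := by
    have h1 : 4 * H / K ≤ 4 * H / (η * K) := by
      apply div_le_div_of_nonneg_left (by positivity) (by positivity)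
      nlinarith
    have h2 := Real.exp_le_exp.mpr h1
    rw [le_div_iff₀ hη0]
    have := Real.exp_pos (4 * H / K)
    nlinarith
  -- the division points
  have hsearch : ∀ i, i ≤ N → ∃ t, (2 : ℝ) ^ (p + 2 * i * K + 1) ≤ t ∧ t ≤ 2 ^ (p + 2 * i * K + K) ∧
      t ∉ Ω0 ∧ E t ≤ K2 * U t := by
    intro i hi
    have hb1 : 2 * i * K ≤ (2 * N + 1) * K := Nat.mul_le_mul_right K (by lia)
    have hb2 : 2 * i * K + K ≤ (2 * N + 1) * K := by
      calc 2 * i * K + K = (2 * i + 1) * K := by ring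
        _ ≤ _ := Nat.mul_le_mul_right K (by lia)
    have hm1 := hmem _ hb1
    have hm2 := hmem _ hb2
    rw [← add_assoc] at hm2
    refine search h.dat0 h.Em hΩ (η := η) (H := H) (C0 := C0) hm1.1 hm2.2 h16 (by lia) hH0
      (hgrow _ _ hm1 hm2) (hzone (2 * i) (by lia)) hC0 ?_ ?_
    · have h1 : 8 * C0 * Real.exp (4 * H / K) ≤ 8 * C0 * (Real.exp (4 * H / (η * K)) / η) :=
        mul_le_mul_of_nonneg_left hexp (by positivity)
      calc _ ≤ _ := h1
        _ = 8 * C0 * Real.exp (4 * H / (η * K)) / η := by ring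
        _ ≤ K2 := hK2
    · filter_upwards with t ht htΩ using hg6 t ht htΩ
  choose! τ hτ1 hτ2 hτ3 hτ4 using hsearch
  have hτm : ∀ i ≤ N, a0 ≤ τ i ∧ τ i ≤ T ∧ 1 ≤ τ i := by
    intro i hi
    have hb1 : 2 * i * K ≤ (2 * N + 1) * K := Nat.mul_le_mul_right K (by lia)
    have hb2 : 2 * i * K + K ≤ (2 * N + 1) * K := by
      calc 2 * i * K + K = (2 * i + 1) * K := by ring
        _ ≤ _ := Nat.mul_le_mul_right K (by lia)
    have hm1 := hmem _ hb1
    have hm2 := hmem _ hb2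
    rw [← add_assoc] at hm2
    refine ⟨hm1.1.trans ((pow_le_pow_right₀ (by norm_num) (by lia)).trans (hτ1 i hi)),
      (hτ2 i hi).trans hm2.2, le_trans ?_ (hτ1 i hi)⟩
    exact one_le_pow₀ (by norm_num)
  have hτstep : ∀ i < N, 16 * τ i ≤ τ (i + 1) := by
    intro i hi
    have h1 := hτ2 i hi.le
    have h2 := hτ1 (i + 1) hi
    have h3 : (16 : ℝ) * 2 ^ (p + 2 * i * K + K) ≤ 2 ^ (p + 2 * (i + 1) * K + 1) := by
      have h4 : (16 : ℝ) * 2 ^ (p + 2 * i * K + K) = 2 ^ (p + 2 * i * K + K + 4) := by ring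
      rw [h4]
      apply pow_le_pow_right₀ (by norm_num)
      nlinarith
    linarith
  have hτe : ∀ i ≤ N, A * e (τ i + 3) ≤ M ^ 2 * (U (τ i) * τ i) := by
    intro i hi
    obtain ⟨h1, h2, h3⟩ := hτm i hi
    have h4 := hg1 (τ i) ⟨h1, h2⟩ (hτ3 i hi)
    have h5 := hτ4 i hi
    have h6 : 0 < U (τ i) := h.pos ⟨h1, h2⟩
    calc A * e (τ i + 3) ≤ A * (C3 * E (τ i)) := mul_le_mul_of_nonneg_left h4 hA
      _ ≤ A * (C3 * (K2 * U (τ i))) :=
          mul_le_mul_of_nonneg_left (mul_le_mul_of_nonneg_left h5 hC3) hA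
      _ = (A * C3 * K2) * U (τ i) := by ring
      _ ≤ M ^ 2 * U (τ i) := mul_le_mul_of_nonneg_right hM2 h6.le
      _ = M ^ 2 * (U (τ i) * 1) := by ring
      _ ≤ M ^ 2 * (U (τ i) * τ i) := by
          apply mul_le_mul_of_nonneg_left _ (sq_nonneg M)
          exact mul_le_mul_of_nonneg_left h3 h6.le
  obtain ⟨i, hiN, w, hqw, hIw⟩ := hrun τ hτm hτstep hτe
  obtain ⟨hi1, hi2, hi3⟩ := hτm i hiN.le
  obtain ⟨hj1, hj2, hj3⟩ := hτm (i + 1) hiN
  have him : τ i ∈ Icc a0 T := ⟨hi1, hi2⟩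
  have hjm : τ (i + 1) ∈ Icc a0 T := ⟨hj1, hj2⟩
  have hUi := h.pos him
  have hUj := h.pos hjm
  have hqle : q w ^ 2 ≤ q1 := by
    rw [hqw]
    have h1 : U (τ (i + 1)) * τ (i + 1) ≤ U T * T :=
      mul_le_mul (h.mono hjm hTm hj2) hj2 (by linarith) (h.pos hTm).le
    have h2 := mul_le_mul_of_nonneg_left h1 (sq_nonneg M)
    have h3 : 0 ≤ M ^ 2 * (U (τ (i + 1)) * τ (i + 1)) := by positivity
    linarith
  have hdat := h.dat hqle
  -- the run zone
  set k0 : ℕ := p + (2 * i + 1) * K with hk0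
  have hz1 : p + 2 * i * K + K = k0 := by rw [hk0]; ring
  have hz2 : p + 2 * (i + 1) * K = k0 + K := by rw [hk0]; ring
  have hb1 : (2 * i + 1) * K ≤ (2 * N + 1) * K := Nat.mul_le_mul_right K (by lia)
  have hb2 : (2 * i + 1) * K + K ≤ (2 * N + 1) * K := by
    calc (2 * i + 1) * K + K = (2 * i + 2) * K := by ring
      _ ≤ _ := Nat.mul_le_mul_right K (by lia)
  have hm1 : (2 : ℝ) ^ k0 ∈ Icc a0 T := hmem _ hb1
  have hm2 : (2 : ℝ) ^ (k0 + K) ∈ Icc a0 T := by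
    have := hmem _ hb2
    rwa [← add_assoc] at this
  have hτi_le : τ i ≤ 2 ^ k0 := by
    have := hτ2 i hiN.le
    rwa [hz1] at this
  have hτj_ge : (2 : ℝ) ^ (k0 + K) * 2 ≤ τ (i + 1) := by
    have := hτ1 (i + 1) hiN
    rw [hz2, pow_succ] at this
    exact this
  have hpk : (1 : ℝ) ≤ 2 ^ k0 := one_le_pow₀ (by norm_num)
  have hpk2 : (1 : ℝ) ≤ 2 ^ (k0 + K) := one_le_pow₀ (by norm_num)
  -- heights along the zone
  have hY : ∀ t, τ i ≤ t → t ≤ T → IF w t ≤ (KR * M ^ 2 * τ i + 2 * t) * U t := by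
    intro t h1 h2
    have htm : t ∈ Icc a0 T := ⟨hi1.trans h1, h2⟩
    have hUt := h.pos htm
    have h3 := (hdat.sub hi1 h1 h2).Y_le
    have h4 : IF w (τ i) / U (τ i) ≤ KR * M ^ 2 * τ i := by
      rw [div_le_iff₀ hUi]
      linarith [hIw]
    have h5 : (1 + 2 * κ) * (t - τ i) ≤ 2 * (t - τ i) :=
      mul_le_mul_of_nonneg_right hκ2 (by linarith)
    have h6 : IF w t / U t ≤ KR * M ^ 2 * τ i + 2 * t := by linarith
    rwa [div_le_iff₀ hUt] at h6
  have hD := hdat.sub hm1.1 (pow_le_pow_right₀ (by norm_num) (by lia) :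
    (2 : ℝ) ^ k0 ≤ 2 ^ (k0 + K)) hm2.2
  have hfinal := hD.run (η := η) (A := KR * M ^ 2 + 2) (H := H) (C0 := C0) (K2 := K2) (E := E)
    (Ω0 := Ω0) h.Em hΩ hη0 h16 hκ (by lia)
    (by
      rw [div_le_iff₀ (h.pos hm1)]
      refine (hY _ hτi_le hm1.2).trans ?_
      apply mul_le_mul_of_nonneg_right _ (h.pos hm1).le
      have : KR * M ^ 2 * τ i ≤ KR * M ^ 2 * 2 ^ k0 :=
        mul_le_mul_of_nonneg_left hτi_le (by positivity)
      linarith)
    hAK hH0 (hgrow _ _ hm1 hm2) (hzone (2 * i + 1) (by lia)) hC0 hK2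
    (by
      filter_upwards with t ht htΩ
      exact hg6 t ⟨hm1.1.trans ht.1, ht.2.trans hm2.2⟩ htΩ)
    (by
      filter_upwards with t ht htΩ hEt
      have htm : t ∈ Icc a0 T := ⟨hm1.1.trans ht.1, ht.2.trans hm2.2⟩
      have ht1 : 1 ≤ t := hpk.trans ht.1
      have htj : t + 1 ≤ τ (i + 1) := by linarith [ht.2]
      have htT : t + 1 ≤ T := htj.trans hj2
      have hUt := h.pos htm
      have htj' : t ≤ τ (i + 1) := by linarith
      have hUmono : U t ≤ U (τ (i + 1)) := h.mono htm hjm htj'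
      have hUmono1 : U (t + 1) ≤ U (τ (i + 1)) :=
        h.mono ⟨htm.1.trans (by linarith), htT⟩ hjm htj
      have hΘt : Θ * t * E t ≤ q w ^ 2 := by
        rw [hqw]
        have h1 : Θ * t * E t ≤ Θ * t * (K2 * U t) :=
          mul_le_mul_of_nonneg_left hEt (by positivity)
        have h2 : U t * t ≤ U (τ (i + 1)) * τ (i + 1) :=
          mul_le_mul hUmono htj' (by linarith) hUj.le
        have h3 : 4 * K2 * Θ * (U t * t) ≤ M ^ 2 * (U t * t) :=
          mul_le_mul_of_nonneg_right hM (by positivity)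
        have h4 : M ^ 2 * (U t * t) ≤ M ^ 2 * (U (τ (i + 1)) * τ (i + 1)) :=
          mul_le_mul_of_nonneg_left h2 (sq_nonneg M)
        have h5 : 4 * (Θ * t * (K2 * U t)) = 4 * K2 * Θ * (U t * t) := by ring
        linarith
      have hIt : IF w (t + 1) ≤ c1 * q w ^ 2 := by
        have h1 := hY (t + 1) (by linarith [ht.1]) htT
        have hcoef : 0 ≤ KR * M ^ 2 * τ i + 2 * (t + 1) := by positivity
        have h2 : (KR * M ^ 2 * τ i + 2 * (t + 1)) * U (t + 1)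
            ≤ (KR * M ^ 2 * τ i + 2 * (t + 1)) * U (τ (i + 1)) :=
          mul_le_mul_of_nonneg_left hUmono1 hcoef
        have h3 : 8 * KR * τ i ≤ c1 * τ (i + 1) := by
          calc 8 * KR * τ i ≤ c1 * 2 ^ K * τ i := mul_le_mul_of_nonneg_right hKR (by linarith)
            _ ≤ c1 * 2 ^ K * 2 ^ k0 := mul_le_mul_of_nonneg_left hτi_le (by positivity)
            _ = c1 * 2 ^ (k0 + K) := by ring
            _ ≤ c1 * τ (i + 1) := mul_le_mul_of_nonneg_left (by linarith) hc1.le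
        have h4 : KR * M ^ 2 * τ i ≤ c1 * M ^ 2 * τ (i + 1) / 8 := by
          have h4' := mul_le_mul_of_nonneg_right h3 (sq_nonneg M)
          have h4'' : 8 * KR * τ i * M ^ 2 = 8 * (KR * M ^ 2 * τ i) := by ring
          have h4a : c1 * τ (i + 1) * M ^ 2 = c1 * M ^ 2 * τ (i + 1) := by ring
          linarith
        have h5 : 2 * (t + 1) ≤ c1 * M ^ 2 * τ (i + 1) / 8 := by
          have h6 : 16 * τ (i + 1) ≤ c1 * M ^ 2 * τ (i + 1) :=
            mul_le_mul_of_nonneg_right hM3 (by linarith)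
          linarith
        have h7 : (KR * M ^ 2 * τ i + 2 * (t + 1)) * U (τ (i + 1))
            ≤ (c1 * M ^ 2 * τ (i + 1) / 4) * U (τ (i + 1)) := by
          apply mul_le_mul_of_nonneg_right _ hUj.le
          linarith
        rw [hqw]
        have h8' : c1 * (M ^ 2 * (U (τ (i + 1)) * τ (i + 1)) / 4)
            = (c1 * M ^ 2 * τ (i + 1) / 4) * U (τ (i + 1)) := by ring
        linarith
      have hτt : τ i ≤ t := hτi_le.trans ht.1
      have hKM : 0 ≤ KR * M ^ 2 := by positivity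
      have hcoef : KR * M ^ 2 * τ i ≤ KR * M ^ 2 * t := mul_le_mul_of_nonneg_left hτt hKM
      have hB1 : IF w t ≤ B * t * E t := by
        have h1 := hY t hτt (by linarith)
        have h2 : (KR * M ^ 2 * τ i + 2 * t) * U t ≤ (B * t) * U t := by
          apply mul_le_mul_of_nonneg_right _ hUt.le
          have h3 : (KR * M ^ 2 + 4) * t ≤ B * t := mul_le_mul_of_nonneg_right hB (by linarith)
          linarith
        have h3 : (B * t) * U t ≤ (B * t) * E t :=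
          mul_le_mul_of_nonneg_left (h.UE t htm) (mul_nonneg (by linarith) (by linarith))
        linarith
      have hB2 : IF w (t + 1) ≤ B * (t * U (t + 1)) := by
        have h1 := hY (t + 1) (by linarith) htT
        have hU1 : 0 < U (t + 1) := h.pos ⟨by linarith [htm.1], htT⟩
        have h2 : (KR * M ^ 2 * τ i + 2 * (t + 1)) * U (t + 1) ≤ (B * t) * U (t + 1) := by
          apply mul_le_mul_of_nonneg_right _ hU1.le
          have h3 : (KR * M ^ 2 + 4) * t ≤ B * t := mul_le_mul_of_nonneg_right hB (by linarith)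
          linarith
        linarith
      have h8 := hg2 w hqle t htm htT htΩ hΘt hIt hB1 hB2
      have h9 := h.UE t htm
      have h10 : 2 * (1 - η) * U t ≤ 2 * (1 - η) * E t :=
        mul_le_mul_of_nonneg_left h9 (by linarith)
      linarith)
  linarith

end Crest.Agent.R234.Core_809
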