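import Crest.Agent.R234.Core2_809

/-!
# R234 / Core3_809 : the order of the constants of the core

`CData` = the data of one contact problem (`l = log Λ` is also the beginning of the window), `CBase` = what holds for all of them,
`core_family`: a class of contact problems for which the nodes N4, N5 + N7, N8, N9 hold with their
quantifiers contains no element with large `Λ`.
-/

set_option autoImplicit false
set_option linter.unusedSectionVars false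
set_option linter.unusedVariables false

namespace Crest.Agent.R234.Core_809

open MeasureTheory Set Filter Metric
open Crest.Agent.R234.Sev_201
open scoped Topology

/-- the data of one contact problem; `l = log Λ` -/
structure CData (F W : Type*) [MeasurableSpace F] where
  Z : Set F
  ε : Measure F
  μ : Measure F
  D : ℝ
  l : ℝ
  κ : ℝ
  T : ℝ
  q1 : ℝ
  r0 : ℝ
  U : F → ℝ → ℝ
  E : F → ℝ → ℝ
  R : F → ℝ → ℝ
  e : F → ℝ → ℝ
  eF : F → W → ℝ → ℝ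
  IF : F → W → ℝ → ℝ
  er : F → W → ℝ → ℝ

section fam
variable {F W : Type*} [NormedAddCommGroup F] [InnerProductSpace ℝ F] [FiniteDimensional ℝ F]
  [MeasurableSpace F] [BorelSpace F]

/-- what holds for every contact problem -/
structure CBase (q : W → ℝ) (d : ℕ) (Cm CR Cb Cn CU : ℝ) (X : CData F W) : Prop where
  finε : IsFiniteMeasure X.ε
  finμ : IsFiniteMeasure X.μ
  Zm : MeasurableSet X.Z
  Zε : X.ε X.Zᶜ = 0
  D0 : 0 < X.D
  r0 : 0 < X.r0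
  fld : Fld X.Z q d X.κ X.l X.T X.q1 X.r0 Cm CR Cb Cn X.U X.E X.R X.e X.eF X.IF X.er
  εlow : Real.exp (-(CU * X.l)) * X.D ≤ X.ε.real univ
  Ulow : ∀ x ∈ X.Z, Real.exp (-(CU * X.l)) * X.D ≤ X.U x X.l
  Uup : ∀ x ∈ X.Z, X.U x X.T ≤ Real.exp (CU * X.l) * X.D
  elow : ∀ x ∈ X.Z, ∀ t ∈ Icc X.l X.T, Real.exp (-(CU * X.l)) * X.D ≤ X.e x t
  eup : ∀ x ∈ X.Z, ∀ t ∈ Icc X.l X.T, X.e x t ≤ Real.exp (CU * X.l) * X.D
  εup : ∀ x ∈ X.Z, ∀ s, 2 * X.r0 * Real.exp X.l ≤ s → s ≤ X.r0 / 2 * Real.exp X.T →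
    X.ε.real (closedBall x s) ≤ Real.exp (CU * X.l) * X.D * s ^ d
  μlow : ∀ x ∈ X.Z, ∀ s, 2 * X.r0 * Real.exp X.l ≤ s → s ≤ X.r0 / 2 * Real.exp X.T →
    Real.exp (-(CU * X.l)) * X.D * s ^ d ≤ X.μ.real (closedBall x s)
  μup : X.μ.real univ ≤ Real.exp (CU * X.l) * X.D
  hT : Real.exp (X.l / 2) ≤ X.T
  hκ : X.κ ≤ Real.exp (-X.l)
  hq1 : ∀ x ∈ X.Z, Real.exp (X.l / 2) * (X.U x X.T * X.T) ≤ X.q1

theorem HThin.mono {Z : Set F} {d : ℕ} {a0 T r0 kf η1 η1' ω : ℝ} {E R e : F → ℝ → ℝ}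
    (h : HThin Z d a0 T r0 kf η1 ω E R e) (hη : η1' ≤ η1)
    (he : ∀ x ∈ Z, ∀ t ∈ Icc a0 T, 0 < e x t) : HThin Z d a0 T r0 kf η1' ω E R e := by
  intro x hx t h1 h2 v hv hf hR
  refine h x hx t h1 h2 v hv hf fun j hj0 hj4 => ?_
  have h3 := mul_le_mul_of_nonneg_right hη (he x hx (t + 4) ⟨by linarith, by linarith⟩).le
  obtain ⟨a, b⟩ := hR j hj0 hj4
  exact ⟨a.trans h3, fun i => (b i).trans h3⟩

theorem HLoc.mono {Z : Set F} {q : W → ℝ} {d : ℕ} {a0 T q1 r0 kf η1 η1' ω Θ c1 B : ℝ}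
    {E R e : F → ℝ → ℝ} {eF IF : F → W → ℝ → ℝ}
    (h : HLoc Z q d a0 T q1 r0 kf η1 ω Θ c1 B E R e eF IF) (hη : η1' ≤ η1)
    (he : ∀ x ∈ Z, ∀ t ∈ Icc a0 T, 0 < e x t) :
    HLoc Z q d a0 T q1 r0 kf η1' ω Θ c1 B E R e eF IF := by
  intro x hx t h1 h2 y hy hxy v hv hf hR
  refine h x hx t h1 h2 y hy hxy v hv hf fun j hj0 hj4 => ?_
  have h3 := mul_le_mul_of_nonneg_right hη (he x hx (t + 4) ⟨by linarith, by linarith⟩).le
  obtain ⟨a, b, c⟩ := hR j hj0 hj4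
  exact ⟨a.trans h3, b.trans h3, fun i => (c i).trans h3⟩

/-- the number of the first block -/
theorem exists_p {B : ℝ} (hB : 1 ≤ B) : ∃ p : ℕ, B ≤ 2 ^ p ∧ (2 : ℝ) ^ p ≤ 2 * (B + 1) := by
  set n : ℕ := ⌈B⌉₊ with hn
  have h1 : B ≤ n := Nat.le_ceil B
  have h2 : (n : ℝ) < B + 1 := Nat.ceil_lt_add_one (by linarith)
  have hn0 : n ≠ 0 := by
    rintro h
    rw [h] at h1
    norm_num at h1
    linarith
  refine ⟨Nat.log 2 n + 1, ?_, ?_⟩
  · have h3 : n < 2 ^ (Nat.log 2 n + 1) := Nat.lt_pow_succ_log_self (by norm_num) n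
    have h4 : (n : ℝ) < 2 ^ (Nat.log 2 n + 1) := by exact_mod_cast h3
    linarith
  · have h3 : 2 ^ Nat.log 2 n ≤ n := Nat.pow_log_le_self 2 hn0
    have h4 : (2 : ℝ) ^ Nat.log 2 n ≤ n := by exact_mod_cast h3
    rw [pow_succ]
    linarith

/-- elementary growth facts -/
theorem ev_grow (a b c : ℝ) :
    ∀ᶠ l : ℝ in atTop, 2 * (a * l + b) * Real.exp (l / 4) + c ≤ Real.exp (l / 2) := by
  have h1 : Tendsto (fun l : ℝ => l / 4) atTop atTop := tendsto_id.atTop_div_const (by norm_num)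
  obtain ⟨c', hc'⟩ : ∃ c', c' = |c| := ⟨_, rfl⟩
  have hc0 : 0 ≤ c' := by rw [hc']; exact abs_nonneg c
  have hcc : c ≤ c' := by rw [hc']; exact le_abs_self c
  have h2 : ∀ᶠ x : ℝ in atTop, 2 * (a * (4 * x) + b) + c' ≤ Real.exp x := by
    have h3 : Tendsto (fun x : ℝ => Real.exp x / x ^ 2) atTop atTop :=
      Real.tendsto_exp_div_pow_atTop 2
    filter_upwards [h3.eventually_ge_atTop 1,
      eventually_ge_atTop (|8 * a| + |2 * b + c'| + 1)] with x hx hx1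
    have a1 := abs_nonneg (8 * a)
    have a2 := abs_nonneg (2 * b + c')
    have hx0 : 0 < x := by linarith
    have h4 : x ^ 2 ≤ Real.exp x := by
      rw [le_div_iff₀ (by positivity)] at hx
      linarith
    have h5 : 8 * a * x ≤ |8 * a| * x := mul_le_mul_of_nonneg_right (le_abs_self _) hx0.le
    have h6 : 2 * b + c' ≤ |2 * b + c'| * x :=
      (le_abs_self _).trans (le_mul_of_one_le_right a2 (by linarith))
    nlinarith
  filter_upwards [h1.eventually h2, eventually_ge_atTop 0] with l hl hl0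
  have h8 : Real.exp (l / 2) = Real.exp (l / 4) * Real.exp (l / 4) := by
    rw [← Real.exp_add]
    congr 1
    ring
  have h9 : 1 ≤ Real.exp (l / 4) := Real.one_le_exp (by linarith)
  have h10 : 4 * (l / 4) = l := by ring
  rw [h10] at hl
  have h11 : c ≤ c' * Real.exp (l / 4) := hcc.trans (le_mul_of_one_le_right hc0 h9)
  have h12 := mul_le_mul_of_nonneg_right hl (Real.exp_pos (l / 4)).le
  rw [h8]
  linarith

theorem pow_two_le (n : ℕ) {x : ℝ} (h : (n : ℝ) ≤ x) : (2 : ℝ) ^ n ≤ Real.exp x := by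
  have h2 : (2 : ℝ) ^ n = Real.exp (n * Real.log 2) := by
    rw [Real.exp_nat_mul, Real.exp_log (by norm_num)]
  rw [h2]
  apply Real.exp_le_exp.2
  have h4 : Real.log 2 ≤ 1 := by
    have := Real.log_two_lt_d9
    linarith
  have h6 : 0 ≤ Real.log 2 := Real.log_nonneg (by norm_num)
  have h7 : (0 : ℝ) ≤ n := Nat.cast_nonneg n
  nlinarith

/-- the choice of `K` and `p` -/
theorem aux_pK {c2 l Cp J T : ℝ} {N Jq : ℕ} (hc2 : c2 = 2 * N + 1) (hJ : J = 2 ^ Jq)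
    (hCp : J ≤ Cp) (h1 : 1 ≤ l) (h2 : 1 ≤ Cp * l) (h3 : 32 * c2 ≤ l)
    (h4 : 2 * (Cp * l + 1) * Real.exp (l / 4) + J ≤ Real.exp (l / 2))
    (hT : Real.exp (l / 2) ≤ T) :
    ∃ K p : ℕ, 4 ≤ K ∧ l / (8 * c2) ≤ K ∧ Cp * l ≤ 2 ^ p ∧ Jq ≤ p ∧
      (2 : ℝ) ^ (p + (2 * N + 1) * K) + 2 ^ Jq ≤ T := by
  have hNr : (0 : ℝ) ≤ N := Nat.cast_nonneg N
  have hc21 : 1 ≤ c2 := by rw [hc2]; linarith
  have hJ0 : 0 < J := by rw [hJ]; positivity
  obtain ⟨p, hp1, hp2⟩ := exists_p h2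
  refine ⟨⌊l / (4 * c2)⌋₊, p, ?_⟩
  have hKle : (⌊l / (4 * c2)⌋₊ : ℝ) ≤ l / (4 * c2) := Nat.floor_le (by positivity)
  have hKge : l / (8 * c2) ≤ ⌊l / (4 * c2)⌋₊ := by
    have h1 : l / (4 * c2) < ⌊l / (4 * c2)⌋₊ + 1 := Nat.lt_floor_add_one _
    have h2 : l / (4 * c2) = 2 * (l / (8 * c2)) := by field_simp; ring
    have h3 : 1 ≤ l / (8 * c2) := by
      rw [le_div_iff₀ (by positivity)]
      linarith
    linarith
  have hK4 : 4 ≤ ⌊l / (4 * c2)⌋₊ := by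
    have h1 : (4 : ℝ) ≤ l / (8 * c2) := by
      rw [le_div_iff₀ (by positivity)]
      linarith
    have h2 : (4 : ℝ) ≤ ⌊l / (4 * c2)⌋₊ := h1.trans hKge
    exact_mod_cast h2
  have hJp : Jq ≤ p := by
    by_contra h
    push Not at h
    have h1 : (2 : ℝ) ^ p < 2 ^ Jq := pow_lt_pow_right₀ (by norm_num) h
    have h2 : J ≤ Cp * l := by nlinarith
    rw [← hJ] at h1
    linarith
  refine ⟨hK4, hKge, hp1, hJp, ?_⟩
  refine le_trans ?_ hT
  rw [← hJ]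
  refine le_trans ?_ h4
  have h1 : (2 : ℝ) ^ ((2 * N + 1) * ⌊l / (4 * c2)⌋₊) ≤ Real.exp (l / 4) := by
    apply pow_two_le
    push_cast
    rw [← hc2]
    calc c2 * (⌊l / (4 * c2)⌋₊ : ℝ) ≤ c2 * (l / (4 * c2)) := by gcongr
      _ = l / 4 := by field_simp
  rw [pow_add]
  have h7 : (2 : ℝ) ^ p * 2 ^ ((2 * N + 1) * ⌊l / (4 * c2)⌋₊)
      ≤ 2 * (Cp * l + 1) * Real.exp (l / 4) :=
    mul_le_mul hp2 h1 (by positivity) (by positivity)
  linarith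

theorem aux_fin {CU l η c2 K : ℝ} (hCU : 0 < CU) (hη : 0 < η) (hc2 : 1 ≤ c2) (hK : 4 ≤ K)
    (hl : l ≤ 8 * c2 * K) (hηC : 256 * c2 * CU * η ≤ 1) : 2 * CU * l < 3 * K / (32 * η) := by
  rw [lt_div_iff₀ (by positivity)]
  have h1 : 2 * CU * l * (32 * η) ≤ 2 * CU * (8 * c2 * K) * (32 * η) := by gcongr
  have h2 : 2 * CU * (8 * c2 * K) * (32 * η) = 2 * K * (256 * c2 * CU * η) := by ring
  have h3 : 2 * K * (256 * c2 * CU * η) ≤ 2 * K * 1 := by gcongr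
  linarith

theorem aux_K2 {CU l η c2 K C0 : ℝ} (hCU : 0 < CU) (hη : 0 < η) (hc2 : 1 ≤ c2) (hK : 4 ≤ K)
    (hl : l ≤ 8 * c2 * K) (hC0 : 0 < C0) :
    8 * C0 * Real.exp (4 * (2 * CU * l) / (η * K)) / η
      ≤ 8 * C0 * Real.exp (64 * c2 * CU / η) / η := by
  have h1 : 4 * (2 * CU * l) / (η * K) ≤ 64 * c2 * CU / η := by
    rw [div_le_div_iff₀ (by positivity) hη]
    have h2 : 4 * (2 * CU * l) * η ≤ 4 * (2 * CU * (8 * c2 * K)) * η := by gcongr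
    calc _ ≤ _ := h2
      _ = 64 * c2 * CU * (η * K) := by ring
  gcongr

theorem aux_count {CU l η' θ K3 J Cp A1 A2 lR X Y : ℝ} {d p Jq : ℕ} (hd : (1 : ℝ) ≤ d)
    (hJ : J = 2 ^ Jq) (hJp : Jq ≤ p) (hη' : 0 < η') (hl : 1 ≤ l)
    (hX : X ≤ η' / 8) (hθd : θ * d = η' / 8) (hlK : Real.log K3 = 48 * d * J / η')
    (hA1 : A1 = 4 * CU + 12 * CU / Real.log K3 + 12 * CU / lR) (hA10 : 0 ≤ A1) (hA20 : 0 ≤ A2)
    (hCp : Cp = 8 * (A1 + A2) * J / η' + J) (hp1 : Cp * l ≤ 2 ^ p)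
    (hY : Y = A2 + 4 * CU * l) :
    X + θ * d + 3 * (2 * d * J / Real.log K3) + (Y + 3 * (2 * (2 * CU * l) / Real.log K3
        + 2 * (2 * CU * l) / lR)) / 2 ^ (p - Jq) < η' := by
  have hJ0 : 0 < J := by rw [hJ]; positivity
  have hp3 : (2 : ℝ) ^ (p - Jq) * J = 2 ^ p := by
    rw [hJ, ← pow_add]
    congr 1
    lia
  have h1 : (Y + 3 * (2 * (2 * CU * l) / Real.log K3
      + 2 * (2 * CU * l) / lR)) / 2 ^ (p - Jq) ≤ η' / 8 := by
    rw [div_le_iff₀ (by positivity)]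
    have h2 : Y + 3 * (2 * (2 * CU * l) / Real.log K3
        + 2 * (2 * CU * l) / lR) = A2 + A1 * l := by
      rw [hA1, hY]
      ring
    rw [h2]
    have h3 : A2 + A1 * l ≤ (A1 + A2) * l := by nlinarith
    have h4 : 8 * (A1 + A2) * J / η' * l ≤ 2 ^ p := by
      refine le_trans ?_ hp1
      apply mul_le_mul_of_nonneg_right _ (by linarith)
      rw [hCp]
      linarith
    rw [← hp3] at h4
    have h5 : 8 * (A1 + A2) * J / η' * l = (8 * (A1 + A2) / η' * l) * J := by ring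
    rw [h5] at h4
    have h6 := le_of_mul_le_mul_right h4 hJ0
    have h7 := mul_le_mul_of_nonneg_left h6 (show 0 ≤ η' / 8 by positivity)
    have h8 : η' / 8 * (8 * (A1 + A2) / η' * l) = (A1 + A2) * l := by field_simp
    linarith
  have h9 : 3 * (2 * d * J / Real.log K3) = η' / 8 := by
    rw [hlK]
    field_simp
    ring
  rw [hθd, h9]
  linarith

theorem aux_theta {CU l θ D e μu : ℝ} {d : ℕ} (hθ : 0 < θ) (hD : 0 < D)
    (h1 : μu ≤ Real.exp (CU * l) * D) (h2 : Real.exp (-(CU * l)) * D ≤ e) :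
    θ / 2 ^ d * (Real.exp (-(3 * CU * l)) * D) * 2 ^ d * μu / (Real.exp (-(CU * l)) * D)
      ≤ θ * e := by
  rw [div_le_iff₀ (by positivity)]
  have e1 : Real.exp (-(3 * CU * l)) * Real.exp (CU * l)
      = Real.exp (-(CU * l)) * Real.exp (-(CU * l)) := by
    rw [← Real.exp_add, ← Real.exp_add]
    congr 1
    ring
  calc θ / 2 ^ d * (Real.exp (-(3 * CU * l)) * D) * 2 ^ d * μu
      = θ * (Real.exp (-(3 * CU * l)) * D) * μu := by field_simp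
    _ ≤ θ * (Real.exp (-(3 * CU * l)) * D) * (Real.exp (CU * l) * D) := by gcongr
    _ = θ * (Real.exp (-(3 * CU * l)) * Real.exp (CU * l)) * (D * D) := by ring
    _ = θ * (Real.exp (-(CU * l)) * D) * (Real.exp (-(CU * l)) * D) := by rw [e1]; ring
    _ ≤ θ * e * (Real.exp (-(CU * l)) * D) := by gcongr

theorem aux_lohi {CU l θ D : ℝ} {d : ℕ} (hθ : 0 < θ) (hθ1 : θ ≤ 1) (hD : 0 < D) (hCU : 0 < CU)
    (hl : 1 ≤ l) :
    θ / 2 ^ d * (Real.exp (-(3 * CU * l)) * D) ≤ Real.exp (CU * l) * D := by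
  have h1 : θ / 2 ^ d ≤ 1 := by
    rw [div_le_one (by positivity)]
    exact hθ1.trans (one_le_pow₀ (by norm_num))
  have h2 : Real.exp (-(3 * CU * l)) ≤ Real.exp (CU * l) := by
    apply Real.exp_le_exp.2
    have : 0 ≤ CU * l := by positivity
    linarith
  calc θ / 2 ^ d * (Real.exp (-(3 * CU * l)) * D) ≤ 1 * (Real.exp (CU * l) * D) := by
        gcongr
    _ = _ := one_mul _

theorem aux_log (c : ℝ) {D : ℝ} (hD : 0 < D) : Real.log (Real.exp c * D) = c + Real.log D := by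
  rw [Real.log_mul (Real.exp_pos _).ne' hD.ne', Real.log_exp]

theorem aux_loglohi {CU l θ D : ℝ} {d : ℕ} (hθ : 0 < θ) (hD : 0 < D) :
    Real.log (Real.exp (CU * l) * D / (θ / 2 ^ d * (Real.exp (-(3 * CU * l)) * D)))
        = (d * Real.log 2 - Real.log θ) + 4 * CU * l := by
  have h1 : Real.log (θ / 2 ^ d * (Real.exp (-(3 * CU * l)) * D))
      = Real.log θ - d * Real.log 2 + (-(3 * CU * l) + Real.log D) := by
    rw [Real.log_mul (by positivity) (by positivity), aux_log _ hD,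
      Real.log_div hθ.ne' (by positivity), Real.log_pow]
  rw [Real.log_div (by positivity) (by positivity), aux_log _ hD, h1]
  ring

theorem aux_ηR {CR B η1 : ℝ} (hCR : 0 ≤ CR) (hB0 : 0 ≤ B) (hη1 : 0 < η1) :
    ∃ ηR : ℝ, 0 < ηR ∧ ηR ≤ 1 ∧ CR * ηR ≤ 1 / 2 ∧ CR * ηR * B ≤ η1 := by
  refine ⟨min 1 (min (1 / (2 * (CR + 1))) (η1 / (CR * B + 1))), by positivity,
    min_le_left _ _, ?_, ?_⟩
  · have h1 : min 1 (min (1 / (2 * (CR + 1))) (η1 / (CR * B + 1))) ≤ 1 / (2 * (CR + 1)) :=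
      (min_le_right _ _).trans (min_le_left _ _)
    have h2 := mul_le_mul_of_nonneg_left h1 hCR
    refine h2.trans ?_
    rw [mul_one_div, div_le_div_iff₀ (by positivity) (by norm_num)]
    linarith
  · have h1 : min 1 (min (1 / (2 * (CR + 1))) (η1 / (CR * B + 1))) ≤ η1 / (CR * B + 1) :=
      (min_le_right _ _).trans (min_le_right _ _)
    have h2 := mul_le_mul_of_nonneg_left h1 (mul_nonneg hCR hB0)
    calc _ = CR * B * min 1 (min (1 / (2 * (CR + 1))) (η1 / (CR * B + 1))) := by ring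
      _ ≤ CR * B * (η1 / (CR * B + 1)) := h2
      _ = η1 * (CR * B / (CR * B + 1)) := by ring
      _ ≤ η1 * 1 := by
          apply mul_le_mul_of_nonneg_left _ hη1.le
          rw [div_le_one (by positivity)]
          linarith
      _ = η1 := mul_one _

theorem aux_KR {a b c2 l K : ℝ} (hb : 0 < b) (hc2 : 1 ≤ c2) (h : a / b * (8 * c2) ≤ l)
    (hK : l / (8 * c2) ≤ K) : a ≤ b * K := by
  have h1 : a / b ≤ K := by
    have h2 : a / b ≤ l / (8 * c2) := by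
      rw [le_div_iff₀ (by positivity)]
      linarith
    linarith
  rw [div_le_iff₀ hb] at h1
  linarith

set_option maxHeartbeats 4000000 in
/-- **THE ORDER OF THE CONSTANTS OF THE CORE** -/
theorem core_family {q : W → ℝ} {d N : ℕ} {Cm CR Cb Cn CU c1 A KR : ℝ}
    (hd : Module.finrank ℝ F = d + 2) (hd1 : 1 ≤ d) (P : CData F W → Prop)
    (hb : ∀ X, P X → CBase q d Cm CR Cb Cn CU X)
    (hCm : 0 ≤ Cm) (hCR : 0 ≤ CR) (hCb : 0 ≤ Cb) (hCn : 1 ≤ Cn) (hCU : 0 < CU)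
    (hc1 : 0 < c1) (hA : 0 ≤ A) (hKR : 0 ≤ KR)
    (hN4 : ∀ kf ω : ℝ, 0 < ω → ∃ η1 : ℝ, 0 < η1 ∧ ∃ l0 : ℝ, ∀ X, P X → l0 ≤ X.l →
      HThin X.Z d X.l X.T X.r0 kf η1 ω X.E X.R X.e)
    (hN57 : ∀ ω : ℝ, 0 < ω → ∃ Θ : ℝ, 0 < Θ ∧ ∀ kf : ℝ, ∃ η1 : ℝ, 0 < η1 ∧ ∀ B : ℝ, ∃ l0 : ℝ,
      ∀ X, P X → l0 ≤ X.l →
        HLoc X.Z q d X.l X.T X.q1 X.r0 kf η1 ω Θ c1 B X.E X.R X.e X.eF X.IF)
    (hN8 : ∀ Θ C3 : ℝ, 0 < Θ → ∃ C0 : ℝ, 0 < C0 ∧ ∃ l0 : ℝ, ∀ X, P X → l0 ≤ X.l →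
      HNet X.Z q X.l X.T X.q1 Θ c1 C3 C0 X.E X.e X.IF)
    (hN9 : ∃ M0 : ℝ, ∀ M : ℝ, M0 ≤ M → ∃ l0 : ℝ, ∀ X, P X → l0 ≤ X.l →
      HRun X.Z q N X.l X.T A KR M X.U X.e X.IF) :
    ∃ l0 : ℝ, ∀ X, P X → X.l < l0 := by
  classical
  have hdr : (1 : ℝ) ≤ d := by exact_mod_cast hd1
  have hNr : (0 : ℝ) ≤ N := Nat.cast_nonneg N
  have hCE := CE_nonneg d
  have hl3 : 0 < Real.log 3 := Real.log_pos (by norm_num)
  obtain ⟨M0, hN9⟩ := hN9
  -- `η`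
  obtain ⟨c2, hc2⟩ : ∃ c2 : ℝ, c2 = 2 * N + 1 := ⟨_, rfl⟩
  have hc21 : 1 ≤ c2 := by rw [hc2]; linarith
  obtain ⟨η, hη⟩ : ∃ η : ℝ, η = min (1 / 16) (1 / (256 * c2 * CU)) := ⟨_, rfl⟩
  have hη0 : 0 < η := by rw [hη]; positivity
  have hη16 : η ≤ 1 / 16 := by rw [hη]; exact min_le_left _ _
  have hηC : 256 * c2 * CU * η ≤ 1 := by
    have h1 : η ≤ 1 / (256 * c2 * CU) := by rw [hη]; exact min_le_right _ _
    rw [le_div_iff₀ (by positivity)] at h1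
    linarith
  obtain ⟨η', hη'⟩ : ∃ η' : ℝ, η' = η / (2 * c2) := ⟨_, rfl⟩
  have hη'0 : 0 < η' := by rw [hη']; positivity
  have hη'1 : η' ≤ 1 := by
    rw [hη', div_le_one (by positivity)]
    linarith
  -- `J`
  obtain ⟨Jq, hJq3, hJq⟩ : ∃ Jq : ℕ, 3 ≤ Jq ∧ (CE d + Real.log 3) / 2 ^ Jq ≤ η' / 8 := by
    obtain ⟨n, hn⟩ := pow_unbounded_of_one_lt ((CE d + Real.log 3) * 8 / η') (by norm_num : (1:ℝ) < 2)
    refine ⟨max 3 n, le_max_left _ _, ?_⟩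
    have h1 : (2 : ℝ) ^ n ≤ 2 ^ max 3 n := pow_le_pow_right₀ (by norm_num) (le_max_right _ _)
    rw [div_lt_iff₀ hη'0] at hn
    rw [div_le_iff₀ (by positivity)]
    nlinarith
  obtain ⟨J, hJ⟩ : ∃ J : ℝ, J = 2 ^ Jq := ⟨_, rfl⟩
  have hJ0 : 0 < J := by rw [hJ]; positivity
  -- `θ`, `K3`, `C3`, `ω`
  obtain ⟨θ, hθ⟩ : ∃ θ : ℝ, θ = η' / (8 * d) := ⟨_, rfl⟩
  have hθ0 : 0 < θ := by rw [hθ]; positivity
  have hθd : θ * d = η' / 8 := by rw [hθ]; field_simp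
  have hθ1 : θ ≤ 1 := by
    rw [hθ, div_le_one (by positivity)]
    nlinarith
  obtain ⟨K3, hK3⟩ : ∃ K3 : ℝ, K3 = Real.exp (48 * d * J / η') := ⟨_, rfl⟩
  have hlK : Real.log K3 = 48 * d * J / η' := by rw [hK3, Real.log_exp]
  have hlK0 : 0 < Real.log K3 := by rw [hlK]; positivity
  have hK31 : 1 < K3 := by
    rw [hK3]
    exact Real.one_lt_exp_iff.2 (by positivity)
  obtain ⟨C3, hC3⟩ : ∃ C3 : ℝ, C3 = 2 * Cm * K3 * Real.exp (3 * d * J) + 1 := ⟨_, rfl⟩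
  have hC31 : 1 ≤ C3 := by
    rw [hC3]
    have : 0 ≤ 2 * Cm * K3 * Real.exp (3 * d * J) := by positivity
    linarith
  obtain ⟨ω, hω⟩ : ∃ ω : ℝ, ω = η / C3 := ⟨_, rfl⟩
  have hω0 : 0 < ω := by rw [hω]; positivity
  have hωC : ω * C3 = η := by rw [hω]; field_simp
  -- nodes
  obtain ⟨Θ, hΘ0, hN57⟩ := hN57 ω hω0
  obtain ⟨C0, hC00, lN8, hN8⟩ := hN8 Θ C3 hΘ0
  obtain ⟨K2, hK2⟩ : ∃ K2 : ℝ, K2 = 8 * C0 * Real.exp (64 * c2 * CU / η) / η := ⟨_, rfl⟩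
  have hK20 : 0 < K2 := by rw [hK2]; positivity
  obtain ⟨S, hS⟩ : ∃ S : ℝ, S = 4 * K2 * (Θ * C3) + A * (Real.exp d * C3) * K2 + 16 / c1 + M0 ^ 2 :=
    ⟨_, rfl⟩
  have s1 : 0 ≤ 4 * K2 * (Θ * C3) := by positivity
  have s2 : 0 ≤ A * (Real.exp d * C3) * K2 := by positivity
  have s3 : 0 ≤ 16 / c1 := by positivity
  have s4 : 0 ≤ M0 ^ 2 := sq_nonneg _
  have hS0 : 0 ≤ S := by rw [hS]; linarith
  obtain ⟨M, hM⟩ : ∃ M : ℝ, M = √S := ⟨_, rfl⟩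
  have hM2 : M ^ 2 = S := by rw [hM]; exact Real.sq_sqrt hS0
  have hMM0 : M0 ≤ M := by
    rw [hM]
    apply Real.le_sqrt_of_sq_le
    rw [hS]
    linarith
  obtain ⟨lN9, hN9⟩ := hN9 M hMM0
  obtain ⟨kf, hkf⟩ : ∃ kf : ℝ, kf = max (2 * Sp3_643.Cf d (Real.exp (-(2 ^ Jq)) / 8))
    (2 * Real.exp (2 ^ Jq) * Sp3_643.Cf (d - 1) (Real.exp (-(2 ^ Jq)) / 8)) := ⟨_, rfl⟩
  obtain ⟨ηa, hηa0, lN4, hN4⟩ := hN4 kf ω hω0
  obtain ⟨ηb, hηb0, hN57⟩ := hN57 kf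
  obtain ⟨B, hBdef⟩ : ∃ B : ℝ, B = max C0 (max (KR * M ^ 2 + 4)
    ((KR * M ^ 2 + 4) * (Cb * Real.exp (2 * d)))) := ⟨_, rfl⟩
  obtain ⟨lN57, hN57⟩ := hN57 B
  obtain ⟨η1, hη1⟩ : ∃ η1 : ℝ, η1 = min ηa ηb := ⟨_, rfl⟩
  have hη10 : 0 < η1 := by rw [hη1]; exact lt_min hηa0 hηb0
  -- `ηR`
  obtain ⟨ηR, hηR0, hηR1, hηR2, hηR3⟩ := aux_ηR (B := Cb * (Cn * Real.exp d)) hCR
    (by positivity) hη10
  have hlR0 : 0 < Real.log (1 + ηR) := Real.log_pos (by linarith)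
  -- `Cp`
  obtain ⟨A1, hA1⟩ : ∃ A1 : ℝ, A1 = 4 * CU + 12 * CU / Real.log K3 + 12 * CU / Real.log (1 + ηR) :=
    ⟨_, rfl⟩
  have hA10 : 0 < A1 := by rw [hA1]; positivity
  obtain ⟨A2, hA2⟩ : ∃ A2 : ℝ, A2 = d * Real.log 2 - Real.log θ := ⟨_, rfl⟩
  have hA20 : 0 ≤ A2 := by
    rw [hA2]
    have h1 : Real.log θ ≤ 0 := Real.log_nonpos hθ0.le hθ1
    have h2 : 0 ≤ d * Real.log 2 := by positivity
    linarith
  obtain ⟨Cp, hCp⟩ : ∃ Cp : ℝ, Cp = 8 * (A1 + A2) * J / η' + J := ⟨_, rfl⟩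
  have hCp0 : 0 < Cp := by rw [hCp]; positivity
  -- all conditions on `l`
  have hev : ∀ᶠ l : ℝ in atTop, lN4 ≤ l ∧ lN57 ≤ l ∧ lN8 ≤ l ∧ lN9 ≤ l ∧ 1 ≤ l ∧ 1 ≤ Cp * l ∧
      32 * c2 ≤ l ∧ (KR * M ^ 2 + 2) / η * (8 * c2) ≤ l ∧ 8 * KR / c1 * (8 * c2) ≤ l ∧
      2 * (Cp * l + 1) * Real.exp (l / 4) + J ≤ Real.exp (l / 2) ∧ Real.exp (-l) ≤ η ∧
      M ^ 2 ≤ Real.exp (l / 2) := by
    have e1 : Tendsto (fun l : ℝ => Cp * l) atTop atTop := tendsto_id.const_mul_atTop hCp0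
    have e2 : Tendsto (fun l : ℝ => Real.exp (-l)) atTop (𝓝 0) :=
      Real.tendsto_exp_atBot.comp tendsto_neg_atTop_atBot
    have e3 : Tendsto (fun l : ℝ => Real.exp (l / 2)) atTop atTop :=
      Real.tendsto_exp_atTop.comp (tendsto_id.atTop_div_const (by norm_num))
    filter_upwards [eventually_ge_atTop lN4, eventually_ge_atTop lN57, eventually_ge_atTop lN8,
      eventually_ge_atTop lN9, eventually_ge_atTop 1, e1.eventually_ge_atTop 1,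
      eventually_ge_atTop (32 * c2), eventually_ge_atTop ((KR * M ^ 2 + 2) / η * (8 * c2)),
      eventually_ge_atTop (8 * KR / c1 * (8 * c2)), ev_grow Cp 1 J,
      e2.eventually (Iio_mem_nhds hη0), e3.eventually_ge_atTop (M ^ 2)]
      with l h1 h2 h3 h4 h5 h6 h7 h8 h9 h10 h11 h12
    exact ⟨h1, h2, h3, h4, h5, h6, h7, h8, h9, h10, (show Real.exp (-l) < η from h11).le, h12⟩
  obtain ⟨l0, hl0⟩ := eventually_atTop.1 hev
  refine ⟨l0, fun X hX => ?_⟩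
  by_contra hcon
  push Not at hcon
  obtain ⟨g1, g2, g3, g4, g5, g6, g7, g8, g9, g10, g11, g12⟩ := hl0 X.l hcon
  have hB := hb X hX
  obtain ⟨l, hl⟩ : ∃ l : ℝ, l = X.l := ⟨_, rfl⟩
  rw [← hl] at g1 g2 g3 g4 g5 g6 g7 g8 g9 g10 g11 g12
  have := hB.finε
  have := hB.finμ
  have hD := hB.D0
  -- `K` and `p`
  obtain ⟨K, p, hK4, hKge, hp1, hJp, hpow⟩ := aux_pK (T := X.T) hc2 hJ (by
    rw [hCp]
    have : 0 ≤ 8 * (A1 + A2) * J / η' := by positivity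
    linarith) g5 g6 g7 g10 (by rw [hl]; exact hB.hT)
  have hKr : (4 : ℝ) ≤ K := by exact_mod_cast hK4
  have hl8 : l ≤ 8 * c2 * K := by
    rw [div_le_iff₀ (by positivity)] at hKge
    linarith
  have hlp : l ≤ 2 ^ p := by
    refine le_trans ?_ hp1
    have h1 : (1 : ℝ) ≤ Cp := by
      rw [hCp]
      have h2 : (1 : ℝ) ≤ J := by rw [hJ]; exact one_le_pow₀ (by norm_num)
      have h3 : 0 ≤ 8 * (A1 + A2) * J / η' := by positivity
      clear * - h2 h3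
      linarith
    exact le_mul_of_one_le_left (zero_le_one.trans g5) h1
  have hpT : (2 : ℝ) ^ (p + (2 * N + 1) * K) ≤ X.T := by
    have : (0 : ℝ) < 2 ^ Jq := by positivity
    clear * - this hpow
    linarith
  have hepos : ∀ x ∈ X.Z, ∀ t ∈ Icc X.l X.T, 0 < X.e x t := hB.fld.epos
  have hUpos : ∀ x ∈ X.Z, ∀ t ∈ Icc X.l X.T, 0 < X.U x t :=
    fun x hx t ht => (hB.fld.pt x hx).pos ht
  have hlT : ∀ x ∈ X.Z, X.l ≤ X.T := fun x hx => (hB.fld.pt x hx).haT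
  have hT0 : 0 ≤ X.T := (Real.exp_pos _).le.trans hB.hT
  refine core_abs X.ε X.μ hB.fld hd hd1 hB.Zm hB.Zε ?_ (N := N) (p := p) (K := K) (Jq := Jq)
    (η := η) (H := 2 * CU * l) (L0 := -(CU * l) + Real.log X.D) (L1 := CU * l + Real.log X.D)
    (K3 := K3) (ηR := ηR) (kf := kf) (η1 := η1) (ω := ω) (Θ := Θ) (c1 := c1) (C3 := C3)
    (C0 := C0) (K2 := K2) (A := A) (KR := KR) (M := M) (B := B) (θ := θ)
    (lo := θ / 2 ^ d * (Real.exp (-(3 * CU * l)) * X.D)) (hi := Real.exp (CU * l) * X.D)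
    (cμ := Real.exp (-(CU * l)) * X.D) (smin := 2 * X.r0 * Real.exp l)
    (smax := X.r0 / 2 * Real.exp X.T)
    hJq3 hJp (by rw [← hl]; exact zero_le_one.trans g5) (by rw [← hl]; exact hlp) hpow hB.r0
    ((hN4 X hX (by rw [← hl]; exact g1)).mono (by rw [hη1]; exact min_le_left _ _) hepos)
    ((hN57 X hX (by rw [← hl]; exact g2)).mono (by rw [hη1]; exact min_le_right _ _) hepos)
    (hN8 X hX (by rw [← hl]; exact g3)) (hN9 X hX (by rw [← hl]; exact g4)) ?_ ?_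
    (by positivity) (aux_lohi hθ0 hθ1 hD hCU g5) (by positivity)
    (by rw [hl]; exact hB.εup) (by rw [hl]; exact hB.μlow) ?_ ?_ hθ0.le
    (aux_theta hθ0 hD (by rw [hl]; exact hB.μup) (by rw [hl]; exact hB.εlow))
    hCm hCR hCb hCn hη0 hη16
    (hB.hκ.trans (by rw [← hl]; exact g11)) hK4
    (by positivity) (aux_fin hCU hη0 hc21 hKr hl8 hηC) ?_ hK31 hηR0 hηR1 ?_ ?_ hω0.le hωC.le ?_
    hηR3 (by rw [hkf]; exact le_max_left _ _) (by rw [hkf]; exact le_max_right _ _) hC00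
    (by rw [hK2]; exact aux_K2 hCU hη0 hc21 hKr hl8 hC00) ?_ hΘ0.le
    ?_ hA ?_ hc1 ?_ hKR ?_ (aux_KR hη0 hc21 g8 hKge)
    (by rw [hBdef]; exact le_max_left _ _)
    (by rw [hBdef]; exact (le_max_left _ _).trans (le_max_right _ _))
    (by rw [hBdef]; exact (le_max_right _ _).trans (le_max_right _ _))
  · -- `ε univ > 0`
    refine lt_of_lt_of_le ?_ hB.εlow
    positivity
  · -- bounds of `log e`
    intro x hx t ht
    rw [← aux_log _ hD, ← aux_log _ hD, hl]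
    exact ⟨Real.log_le_log (by positivity) (hB.elow x hx t ht),
      Real.log_le_log (hepos x hx t ht) (hB.eup x hx t ht)⟩
  · -- growth of `U`
    intro x hx
    have h1 : Real.log (X.U x X.T) ≤ CU * l + Real.log X.D := by
      rw [← aux_log _ hD, hl]
      exact Real.log_le_log (hUpos x hx _ ⟨hlT x hx, le_rfl⟩) (hB.Uup x hx)
    have h2 : -(CU * l) + Real.log X.D ≤ Real.log (X.U x X.l) := by
      rw [← aux_log _ hD, hl]
      exact Real.log_le_log (by positivity) (hB.Ulow x hx)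
    have h3 : CU * l + Real.log X.D - (-(CU * l) + Real.log X.D) = 2 * CU * l := by ring
    exact (sub_le_sub h1 h2).trans h3.le
  · -- smin
    have h0 : (8 : ℝ) ≤ J := by
      have : (2 : ℝ) ^ 3 ≤ 2 ^ Jq := pow_le_pow_right₀ (by norm_num) hJq3
      rw [hJ]
      linarith
    have hl32 : (32 : ℝ) ≤ l := by
      clear * - g7 hc21
      linarith
    have h1 : l + 8 ≤ 2 ^ p - 2 ^ Jq := by
      have h2 : J * l ≤ Cp * l := by
        apply mul_le_mul_of_nonneg_right _ (zero_le_one.trans g5)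
        rw [hCp]
        have : 0 ≤ 8 * (A1 + A2) * J / η' := by positivity
        clear * - this
        linarith
      rw [← hJ]
      clear * - h2 hp1 h0 hl32
      nlinarith
    have h5 : (8 : ℝ) ≤ Real.exp 8 := by
      have := Real.add_one_le_exp (8 : ℝ)
      linarith
    have h6 : 8 * Real.exp l ≤ Real.exp (2 ^ p - 2 ^ Jq) := by
      refine le_trans ?_ (Real.exp_le_exp.2 h1)
      rw [Real.exp_add, mul_comm]
      exact mul_le_mul_of_nonneg_left h5 (Real.exp_pos l).le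
    have h7 := mul_le_mul_of_nonneg_left h6 (div_nonneg hB.r0.le (show (0 : ℝ) ≤ 4 by norm_num))
    calc 2 * X.r0 * Real.exp l = X.r0 / 4 * (8 * Real.exp l) := by ring
      _ ≤ _ := h7
  · -- smax
    have h1 : (2 : ℝ) ^ (p + (2 * N + 1) * K) - 2 ^ Jq ≤ X.T :=
      (sub_le_self _ (by positivity)).trans hpT
    exact mul_le_mul_of_nonneg_left (Real.exp_le_exp.2 h1) (div_nonneg hB.r0.le (by norm_num))
  · -- `L0 ≤ L1`
    have : 0 ≤ CU * l := by positivity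
    clear * - this
    linarith
  · -- the count
    have hLL : CU * l + Real.log X.D - (-(CU * l) + Real.log X.D) = 2 * CU * l := by ring
    rw [hLL, ← hJ, ← hc2, ← hη']
    exact aux_count hdr hJ hJp hη'0 g5 (by rw [hJ]; exact hJq) hθd hlK hA1 hA10.le hA20 hCp hp1
      (by rw [hA2]; exact aux_loglohi hθ0 hD)
  · -- `C3`
    rw [hC3, ← hJ]
    exact le_add_of_nonneg_right zero_le_one
  · rw [hωC]
    clear * - hηR2 hη16
    linarith
  · -- `q1`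
    intro x hx
    refine le_trans ?_ (hB.hq1 x hx)
    rw [← hl]
    have h1 : 0 ≤ X.U x X.T * X.T := mul_nonneg (hUpos x hx _ ⟨hlT x hx, le_rfl⟩).le hT0
    exact mul_le_mul_of_nonneg_right g12 h1
  · rw [hM2, hS]
    clear * - s1 s2 s3 s4
    linarith
  · rw [hM2, hS]
    clear * - s1 s2 s3 s4
    linarith
  · rw [hM2, hS]
    clear * - s1 s2 s3 s4 hc1
    have h1 : c1 * (16 / c1) = 16 := by field_simp
    have h2 : 16 / c1 ≤ 4 * K2 * (Θ * C3) + A * (Real.exp d * C3) * K2 + 16 / c1 + M0 ^ 2 := by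
      linarith
    have h3 := mul_le_mul_of_nonneg_left h2 hc1.le
    linarith
  · -- `8 KR ≤ c1 2 ^ K`
    have h1 := aux_KR hc1 hc21 g9 hKge
    have h3 : (K : ℝ) ≤ 2 ^ K := by
      have : K < 2 ^ K := Nat.lt_two_pow_self
      exact_mod_cast this.le
    exact h1.trans (mul_le_mul_of_nonneg_left h3 hc1.le)

end fam

end Crest.Agent.R234.Core_809
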