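import Crest.Agent.R234.Pas6_762
import Crest.Agent.R234.Asl2_214

/-!
Row 234 (helper762), VF-DVAS, file 7: the pair inequality for helper214's `CylAS`.
-/

set_option autoImplicit false

open MeasureTheory Crest.GeometryTopology.Submanifold Filter Topology Set
open scoped ENNReal InnerProductSpace

noncomputable section

namespace Crest.Agent.R234.Pas_762

open Crest.Agent.R234.Vf_884 Crest.Agent.R234.In_947
  Crest.Agent.R234.Pair2_762 Crest.Agent.R234.Pair3_762 Crest.Agent.R234.Pair4_762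
  Crest.Agent.R234.Pair5_762 Crest.Agent.R234.Pair6_762 Crest.Agent.R234.Ar_870
open Crest.Agent.R234.Cy_870 (Split CylStat Shh)
open Crest.Agent.R234.Asl_214 (CylAS)

variable {m n k : ℕ} {π : Euc k →L[ℝ] Euc m} {κ : Euc k →L[ℝ] Euc n} {x₀ x : Euc m}
  {R h₀ δ r : ℝ} {τ h M σ c : ℝ} {W : Measure (Euc k × L k)}

theorem base_of_as (h : CylAS W π κ x₀ R h₀ δ) : CylBase W π κ := by
  refine ⟨h.sp, h.conc, ‖x₀‖ + |R| + |h₀|, ?_⟩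
  filter_upwards [h.base, h.hgt] with p h1 h2
  have h3 := h.sp.norm_sq p.1
  have h4 : ‖π p.1‖ ≤ ‖x₀‖ + |R| := by
    have := norm_sub_norm_le (π p.1) x₀
    have h4 := le_abs_self R
    linarith
  have h5 : ‖κ p.1‖ ≤ |h₀| := h2.trans (le_abs_self _)
  have h6 : ‖p.1‖ ^ 2 ≤ (‖x₀‖ + |R| + |h₀|) ^ 2 := by
    rw [h3]
    nlinarith [norm_nonneg (π p.1), norm_nonneg (κ p.1), norm_nonneg x₀, abs_nonneg R,
      abs_nonneg h₀]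
  exact (sq_le_sq₀ (norm_nonneg _) (by positivity)).1 h6

/-- 214's class is an instance. -/
theorem cas_of (h : CylAS W π κ x₀ R h₀ δ) : CAS W π κ x₀ R h₀ δ :=
  ⟨base_of_as h, h.hgt, h.fv⟩

/-- **(DV), class `CylAS`, small points.** -/
theorem dv_small_cylAS (hW : CylAS W π κ x₀ R h₀ δ)
    (hR : ‖x - x₀‖ + 2 * r ≤ R) (hh1 : h₀ ≤ 1) (h0 : 0 ≤ δ) (h1 : δ ≤ 1) (hh : 0 < h)
    (hhτ : h ≤ τ) (hτr : τ ≤ r) (hr1 : r ≤ 1) (hM0 : 0 < M) (hσ0 : 0 < σ) (hc0 : 0 < c)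
    (hM : ∀ y, ‖y - x‖ < 2 * r → W.real (ov π y τ) ≤ M * τ ^ m)
    (hσ : ∀ y, ‖y - x‖ < 2 * r → eb W π y τ ≤ σ ^ 2 * τ ^ m)
    {A : Set (Euc k × L k)} (hA : MeasurableSet A) (hAx : A ⊆ ov π x r)
    (hc : ∀ᵐ z ∂W, z ∈ A →
      c * τ ^ m ≤ W.real {p | ‖π (z.1 - p.1)‖ ≤ τ / 2 ∧ ‖κ (z.1 - p.1)‖ ≤ h}) :
    ∫ z in A, vv (hp π) z.2 ∂W ≤ 32 / 3 / c *
      (h * (30 / r * M * √(eb W π x (2 * r) * W.real (ov π x (2 * r)))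
        + 4 / τ * (σ * √M * eb W π x (2 * r))) + M * ea m W π x r h δ) := by
  haveI : IsFiniteMeasure W := ⟨hW.fin⟩
  exact dv_small_AS (cas_of hW) hR hh1 h0 h1 hh hhτ hτr hr1 hM0 hσ0 hc0 hM hσ hA hAx hc

/-- **(DV), class `CylAS`, in the form of 746: density `≥ c` at scale `h / 2`.** -/
theorem dv_cylAS (hW : CylAS W π κ x₀ R h₀ δ)
    (hR : ‖x - x₀‖ + 2 * r ≤ R) (hh1 : h₀ ≤ 1) (h0 : 0 ≤ δ) (h1 : δ ≤ 1) (hh : 0 < h)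
    (hhr : h ≤ r) (hr1 : r ≤ 1) (hM0 : 0 < M) (hσ0 : 0 < σ) (hc0 : 0 < c)
    (hM : ∀ y, ‖y - x‖ < 2 * r → W.real (ov π y h) ≤ M * h ^ m)
    (hσ : ∀ y, ‖y - x‖ < 2 * r → eb W π y h ≤ σ ^ 2 * h ^ m)
    (hc : ∀ᵐ z ∂W, ‖π z.1 - x‖ < r → c * h ^ m ≤ W.real {p | ‖z.1 - p.1‖ ≤ h / 2}) :
    ∫ z in ov π x r, tl π z.2 ^ 2 ∂W ≤ k / c *
      (320 * M * (h / r) * √(eb W π x (2 * r) * W.real (ov π x (2 * r)))
        + 43 * σ * √M * eb W π x (2 * r) + 11 * M * ea m W π x r h δ) := by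
  haveI : IsFiniteMeasure W := ⟨hW.fin⟩
  exact dv_AS (cas_of hW) hR hh1 h0 h1 hh hhr hr1 hM0 hσ0 hc0 hM hσ hc

end Crest.Agent.R234.Pas_762
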