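import Crest.Agent.R234.N0e_309
import Crest.Agent.R234.Pas7_762

/-!
Row 234, node N0 (helper309), file f: 762's pair truncation summed over a finite cover of the unit ball.
-/

set_option autoImplicit false

open MeasureTheory Filter Topology Set Metric
open scoped ENNReal NNReal

namespace Crest.Agent.R234.N0_309

open Crest.GeometryTopology.Submanifold
open Crest.Agent.R234.Vf_884 Crest.Agent.R234.Ar_870 Crest.Agent.R234.Cy_870
open Crest.Agent.R234.In_947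
open Crest.Agent.R234.Pair2_762 (vv vv_nonneg continuous_vv)
open Crest.Agent.R234.Pair6_762 (hp ov eb)
open Crest.Agent.R234.Pas_762 (ea yb dv_small_cylAS base_of_as)
open Crest.Agent.R234.Asl_214 (CylAS)

noncomputable section

variable {m n k : ℕ} {π : Euc k →L[ℝ] Euc m} {κ : Euc k →L[ℝ] Euc n}

/-- a finite net of the closed unit ball -/
theorem exists_net (m : ℕ) {r : ℝ} (hr : 0 < r) : ∃ Z : Finset (Euc m), (∀ c ∈ Z, ‖c‖ ≤ 1) ∧
    ∀ x : Euc m, ‖x‖ ≤ 1 → ∃ c ∈ Z, ‖x - c‖ < r := by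
  obtain ⟨t, ht, htf, hcov⟩ := (isCompact_closedBall (0 : Euc m) 1).finite_cover_balls hr
  refine ⟨htf.toFinset, fun c hc => mem_closedBall_zero_iff.1 (ht (htf.mem_toFinset.1 hc)),
    fun x hx => ?_⟩
  obtain ⟨c, hc, hxc⟩ := mem_iUnion₂.1 (hcov (mem_closedBall_zero_iff.2 hx))
  exact ⟨c, htf.mem_toFinset.2 hc, by rwa [mem_ball, dist_eq_norm] at hxc⟩

/-- integral of a nonnegative function over a finite cover -/
theorem setIntegral_le_sum {X : Type*} [MeasurableSpace X] {μ : Measure X} {f : X → ℝ}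
    (hf : Integrable f μ) (hf0 : ∀ x, 0 ≤ f x) {ι : Type*} (Z : Finset ι) (s : ι → Set X)
    {A : Set X} (hA : MeasurableSet A) (hs : ∀ i ∈ Z, MeasurableSet (s i))
    (hcov : ∀ x ∈ A, ∃ i ∈ Z, x ∈ s i) :
    ∫ x in A, f x ∂μ ≤ ∑ i ∈ Z, ∫ x in A ∩ s i, f x ∂μ := by
  have h1 : ∀ i ∈ Z, ∫ x in A ∩ s i, f x ∂μ = ∫ x in A, (s i).indicator f x ∂μ := by
    intro i hi
    rw [setIntegral_indicator (hs i hi)]
  rw [Finset.sum_congr rfl h1, ← integral_finsetSum]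
  · refine setIntegral_mono_on hf.integrableOn (integrable_finsetSum _ fun i hi =>
      (hf.indicator (hs i hi)).integrableOn) hA fun x hx => ?_
    obtain ⟨i, hi, hxi⟩ := hcov x hx
    have h2 : (s i).indicator f x = f x := indicator_of_mem hxi f
    rw [← h2]
    exact Finset.single_le_sum (f := fun i => (s i).indicator f x)
      (fun j _ => indicator_nonneg (fun x _ => hf0 x) x) hi
  · exact fun i hi => (hf.indicator (hs i hi)).integrableOn

variable {W : Measure (Euc k × L k)} {h₀ δ τ h M σ c : ℝ}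

/-- the constant of `vv_le` -/
def Kv (m : ℕ) (M : ℝ) : ℝ := 4 * √M + (63 + 154 * (m + 1)) * M

theorem Kv_nonneg (hM : 0 ≤ M) : 0 ≤ Kv m M := by
  unfold Kv
  positivity

theorem Kv_ge {m : ℕ} {M : ℝ} (hM : 0 ≤ M) : 0 ≤ Kv m M - 120 * (m + 1) * M ∧
    0 ≤ Kv m M - 34 * (m + 1) * M ∧ 0 ≤ Kv m M - 62 * M ∧ 0 ≤ Kv m M - (4 * √M + M) := by
  have hm : (0 : ℝ) ≤ m := Nat.cast_nonneg m
  have h1 := mul_nonneg hm hM
  have h2 : 0 ≤ √M := Real.sqrt_nonneg _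
  have e : Kv m M = 4 * √M + 217 * M + 154 * (m * M) := by unfold Kv; ring
  rw [e]
  refine ⟨?_, ?_, ?_, ?_⟩
  · have : 4 * √M + 217 * M + 154 * (m * M) - 120 * (m + 1) * M =
      4 * √M + 97 * M + 34 * (m * M) := by ring
    rw [this]; positivity
  · have : 4 * √M + 217 * M + 154 * (m * M) - 34 * (m + 1) * M =
      4 * √M + 183 * M + 120 * (m * M) := by ring
    rw [this]; positivity
  · have : 4 * √M + 217 * M + 154 * (m * M) - 62 * M =
      4 * √M + 155 * M + 154 * (m * M) := by ring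
    rw [this]; positivity
  · have : 4 * √M + 217 * M + 154 * (m * M) - (4 * √M + M) =
      216 * M + 154 * (m * M) := by ring
    rw [this]; positivity

theorem real_sum {m : ℕ} {M δ h τ σ E Y V e y v : ℝ} (hM : 0 ≤ M) (hδ : 0 ≤ δ) (hδ1 : δ ≤ 1)
    (hh : 0 < h) (hτ : 0 < τ) (hτ1 : τ ≤ 1) (hσ1 : σ ≤ 1) (he : 0 ≤ e)
    (heE : e ≤ E) (hy : 0 ≤ y) (hyY : y ≤ Y) (hv : 0 ≤ v) (hvV : v ≤ V) :
    h * (30 / 1 * M * √(e * v) + 4 / τ * (σ * √M * e)) +
      M * (120 * (m + 1) * δ * (e + √(e * y)) + 34 * (m + 1) * δ ^ 2 * y +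
        32 * δ * (h / 1) * √((e + y) * v) + √δ * h * e) ≤
    Kv m M * (δ * (E + √(E * Y)) + δ ^ 2 * Y + h * √((E + Y) * V) + h / τ * E) := by
  have hE : 0 ≤ E := he.trans heE
  have hY : 0 ≤ Y := hy.trans hyY
  have hV : 0 ≤ V := hv.trans hvV
  have hm : (0 : ℝ) ≤ m := Nat.cast_nonneg m
  have s1 : √(e * v) ≤ √((E + Y) * V) := by
    apply Real.sqrt_le_sqrt
    exact mul_le_mul (by linarith) hvV hv (by linarith)
  have s2 : √((e + y) * v) ≤ √((E + Y) * V) := by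
    apply Real.sqrt_le_sqrt
    exact mul_le_mul (by linarith) hvV hv (by linarith)
  have s3 : √(e * y) ≤ √(E * Y) := Real.sqrt_le_sqrt (mul_le_mul heE hyY hy hE)
  have q : 0 ≤ √((E + Y) * V) := Real.sqrt_nonneg _
  have q3 : 0 ≤ √(E * Y) := Real.sqrt_nonneg _
  have qM : 0 ≤ √M := Real.sqrt_nonneg _
  have hδs : √δ ≤ 1 := Real.sqrt_le_one.2 hδ1
  have hδ0 : 0 ≤ √δ := Real.sqrt_nonneg _
  set A1 := δ * (E + √(E * Y)) with hA1
  set A2 := δ ^ 2 * Y with hA2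
  set A3 := h * √((E + Y) * V) with hA3
  set A4 := h / τ * E with hA4
  have a1 : 0 ≤ A1 := by positivity
  have a2 : 0 ≤ A2 := by positivity
  have a3 : 0 ≤ A3 := by positivity
  have a4 : 0 ≤ A4 := by positivity
  have t1 : h * (30 / 1 * M * √(e * v)) ≤ 30 * M * A3 := by
    calc h * (30 / 1 * M * √(e * v)) = 30 * M * (h * √(e * v)) := by ring
      _ ≤ 30 * M * A3 := by
          apply mul_le_mul_of_nonneg_left _ (by positivity)
          exact mul_le_mul_of_nonneg_left s1 hh.le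
  have t2 : h * (4 / τ * (σ * √M * e)) ≤ 4 * √M * A4 := by
    calc h * (4 / τ * (σ * √M * e)) = 4 * √M * (h / τ * (σ * e)) := by ring
      _ ≤ 4 * √M * A4 := by
          apply mul_le_mul_of_nonneg_left _ (by positivity)
          apply mul_le_mul_of_nonneg_left _ (by positivity)
          calc σ * e ≤ 1 * E := mul_le_mul hσ1 heE he zero_le_one
            _ = E := one_mul E
  have t3 : M * (120 * (m + 1) * δ * (e + √(e * y))) ≤ 120 * (m + 1) * M * A1 := by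
    calc M * (120 * (m + 1) * δ * (e + √(e * y))) =
        120 * (m + 1) * M * (δ * (e + √(e * y))) := by ring
      _ ≤ 120 * (m + 1) * M * A1 := by
          apply mul_le_mul_of_nonneg_left _ (by positivity)
          apply mul_le_mul_of_nonneg_left _ hδ
          linarith
  have t4 : M * (34 * (m + 1) * δ ^ 2 * y) ≤ 34 * (m + 1) * M * A2 := by
    calc M * (34 * (m + 1) * δ ^ 2 * y) = 34 * (m + 1) * M * (δ ^ 2 * y) := by ring
      _ ≤ 34 * (m + 1) * M * A2 := by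
          apply mul_le_mul_of_nonneg_left _ (by positivity)
          exact mul_le_mul_of_nonneg_left hyY (by positivity)
  have t5 : M * (32 * δ * (h / 1) * √((e + y) * v)) ≤ 32 * M * A3 := by
    calc M * (32 * δ * (h / 1) * √((e + y) * v)) = 32 * M * (δ * (h * √((e + y) * v))) := by ring
      _ ≤ 32 * M * (1 * A3) := by
          apply mul_le_mul_of_nonneg_left _ (by positivity)
          exact mul_le_mul hδ1 (mul_le_mul_of_nonneg_left s2 hh.le) (by positivity) zero_le_one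
      _ = 32 * M * A3 := by ring
  have t6 : M * (√δ * h * e) ≤ M * A4 := by
    apply mul_le_mul_of_nonneg_left _ hM
    have h1 : h ≤ h / τ := by
      rw [le_div_iff₀ hτ]
      nlinarith
    calc √δ * h * e ≤ 1 * (h / τ) * E := by gcongr
      _ = A4 := by rw [hA4, one_mul]
  obtain ⟨k1, k2, k3, k4⟩ := Kv_ge (m := m) hM
  have u1 := mul_nonneg k1 a1
  have u2 := mul_nonneg k2 a2
  have u3 := mul_nonneg k3 a3
  have u4 := mul_nonneg k4 a4
  have e1 : h * (30 / 1 * M * √(e * v) + 4 / τ * (σ * √M * e)) +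
      M * (120 * (m + 1) * δ * (e + √(e * y)) + 34 * (m + 1) * δ ^ 2 * y +
        32 * δ * (h / 1) * √((e + y) * v) + √δ * h * e) =
      h * (30 / 1 * M * √(e * v)) + h * (4 / τ * (σ * √M * e)) +
      M * (120 * (m + 1) * δ * (e + √(e * y))) + M * (34 * (m + 1) * δ ^ 2 * y) +
      M * (32 * δ * (h / 1) * √((e + y) * v)) + M * (√δ * h * e) := by ring
  rw [e1]
  have e2 : Kv m M * (A1 + A2 + A3 + A4) = (Kv m M - 120 * (m + 1) * M) * A1 +
      (Kv m M - 34 * (m + 1) * M) * A2 + (Kv m M - 62 * M) * A3 +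
      (Kv m M - (4 * √M + M)) * A4 + (120 * (m + 1) * M * A1 + 34 * (m + 1) * M * A2 +
      (30 * M * A3 + 32 * M * A3) + (4 * √M * A4 + M * A4)) := by ring
  rw [e2]
  linarith

/-- **`∫ |S_vv|²` over the small points** (762 summed over a net) -/
theorem vv_le (hW : CylAS W π κ 0 4 h₀ δ) (hh1 : h₀ ≤ 1) (h0 : 0 ≤ δ) (h1 : δ ≤ 1)
    (hh : 0 < h) (hhτ : h ≤ τ) (hτ1 : τ ≤ 1) (hM0 : 0 < M) (hσ0 : 0 < σ) (hσ1 : σ ≤ 1)
    (hc0 : 0 < c) (hM : ∀ y : Euc m, ‖y‖ ≤ 3 → W.real (ov π y τ) ≤ M * τ ^ m)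
    (hσ : ∀ y : Euc m, ‖y‖ ≤ 3 → eb W π y τ ≤ σ ^ 2 * τ ^ m) {B : Set (Euc m)}
    (hB : B ⊆ closedBall (0 : Euc m) 1)
    (hc : ∀ᵐ z ∂W, π z.1 ∈ thickening (h / 4) B →
      c * τ ^ m ≤ W.real {p | ‖π (z.1 - p.1)‖ ≤ τ / 2 ∧ ‖κ (z.1 - p.1)‖ ≤ h})
    (Z : Finset (Euc m)) (hZ : ∀ c ∈ Z, ‖c‖ ≤ 1)
    (hZc : ∀ x : Euc m, ‖x‖ ≤ 1 → ∃ c ∈ Z, ‖x - c‖ < 1 / 4) :
    ∫ z in (fun p : Euc k × L k => π p.1) ⁻¹' (thickening (h / 4) B), vv (hp π) z.2 ∂W ≤
      Z.card * (32 / 3 / c * (Kv m M * (δ * ((∫ p, tl π p.2 ∂W) +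
        √((∫ p, tl π p.2 ∂W) * ∫ p, ‖κ p.1‖ ^ 2 ∂W)) + δ ^ 2 * (∫ p, ‖κ p.1‖ ^ 2 ∂W) +
        h * √(((∫ p, tl π p.2 ∂W) + ∫ p, ‖κ p.1‖ ^ 2 ∂W) * W.real univ) +
        h / τ * ∫ p, tl π p.2 ∂W))) := by
  have : IsFiniteMeasure W := ⟨hW.fin⟩
  set A : Set (Euc k × L k) := (fun p : Euc k × L k => π p.1) ⁻¹' (thickening (h / 4) B)
    with hA
  have hAm : MeasurableSet A :=
    (π.continuous.comp continuous_fst).measurable isOpen_thickening.measurableSet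
  have hvi : Integrable (fun z : Euc k × L k => vv (hp π) z.2) W :=
    hW.integrable_continuous ((continuous_vv (hp π)).comp continuous_snd)
  have hcov : ∀ z ∈ A, ∃ i ∈ Z, z ∈ ov π i 1 := by
    intro z hz
    obtain ⟨x, hx, hzx⟩ := mem_thickening_iff.1 hz
    obtain ⟨i, hi, hxi⟩ := hZc x (mem_closedBall_zero_iff.1 (hB hx))
    refine ⟨i, hi, ?_⟩
    rw [dist_eq_norm] at hzx
    have h2 : ‖π z.1 - i‖ ≤ ‖π z.1 - x‖ + ‖x - i‖ := norm_sub_le_norm_sub_add_norm_sub _ _ _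
    show ‖π z.1 - i‖ < 1
    linarith
  have hsum := setIntegral_le_sum hvi (fun z => vv_nonneg (hp π) z.2) Z (fun i => ov π i 1) hAm
    (fun i _ => (Pair6_762.isOpen_ov π i 1).measurableSet) hcov
  refine hsum.trans ?_
  have htl0 : ∀ᵐ p ∂W, 0 ≤ tl π p.2 := by
    filter_upwards [hW.conc] with p hp
    exact tl_nonneg hW.sp.hh (isPr_of_G hp)
  have hti : Integrable (fun p : Euc k × L k => tl π p.2) W :=
    hW.integrable_continuous (Asl_214.CylAS.continuous_tl π)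
  have hyi : Integrable (fun p : Euc k × L k => ‖κ p.1‖ ^ 2) W :=
    hW.integrable_continuous ((κ.continuous.comp continuous_fst).norm.pow 2)
  have key : ∀ i ∈ Z, ∫ z in A ∩ ov π i 1, vv (hp π) z.2 ∂W ≤
      32 / 3 / c * (Kv m M * (δ * ((∫ p, tl π p.2 ∂W) +
        √((∫ p, tl π p.2 ∂W) * ∫ p, ‖κ p.1‖ ^ 2 ∂W)) + δ ^ 2 * (∫ p, ‖κ p.1‖ ^ 2 ∂W) +
        h * √(((∫ p, tl π p.2 ∂W) + ∫ p, ‖κ p.1‖ ^ 2 ∂W) * W.real univ) +
        h / τ * ∫ p, tl π p.2 ∂W)) := by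
    intro i hi
    have hin := hZ i hi
    have hy3 : ∀ y : Euc m, ‖y - i‖ < 2 * 1 → ‖y‖ ≤ 3 := by
      intro y hy
      have h2 : ‖y‖ ≤ ‖y - i‖ + ‖i‖ := by
        have := norm_add_le (y - i) i
        simpa using this
      linarith
    have h2 := dv_small_cylAS (x := i) (r := 1) (M := M) (σ := σ) (c := c) hW
      (by rw [sub_zero]; linarith) hh1 h0 h1 hh hhτ hτ1 le_rfl hM0 hσ0 hc0
      (fun y hy => hM y (hy3 y hy)) (fun y hy => hσ y (hy3 y hy))
      (A := A ∩ ov π i 1) (hAm.inter (Pair6_762.isOpen_ov π i 1).measurableSet)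
      inter_subset_right (by
        filter_upwards [hc] with z hz hzA
        exact hz hzA.1)
    refine h2.trans ?_
    refine mul_le_mul_of_nonneg_left ?_ (by positivity)
    unfold ea
    have e1 : eb W π i (2 * 1) ≤ ∫ p, tl π p.2 ∂W := setIntegral_le_integral hti htl0
    have e2 : yb W π i (2 * 1) ≤ ∫ p, ‖κ p.1‖ ^ 2 ∂W := by
      have h3 : yb W π i (2 * 1) = ∫ p in ov π i (2 * 1), ‖κ p.1‖ ^ 2 ∂W := by
        unfold yb
        refine integral_congr_ae (Eventually.of_forall fun p => ?_)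
        simp only
        rw [Pas_762.norm_vp_eq hW.sp]
      rw [h3]
      exact setIntegral_le_integral hyi (Eventually.of_forall fun p => sq_nonneg _)
    have e3 : W.real (ov π i (2 * 1)) ≤ W.real univ := measureReal_mono (subset_univ _)
    exact real_sum hM0.le h0 h1 hh (hh.trans_le hhτ) hτ1 hσ1
      (Pas_762.eb_nonneg (base_of_as hW) _ _) e1 (Pas_762.yb_nonneg _ _) e2
      measureReal_nonneg e3
  calc ∑ i ∈ Z, ∫ z in A ∩ ov π i 1, vv (hp π) z.2 ∂W ≤ ∑ _i ∈ Z, 32 / 3 / c * (Kv m M *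
        (δ * ((∫ p, tl π p.2 ∂W) +
        √((∫ p, tl π p.2 ∂W) * ∫ p, ‖κ p.1‖ ^ 2 ∂W)) + δ ^ 2 * (∫ p, ‖κ p.1‖ ^ 2 ∂W) +
        h * √(((∫ p, tl π p.2 ∂W) + ∫ p, ‖κ p.1‖ ^ 2 ∂W) * W.real univ) +
        h / τ * ∫ p, tl π p.2 ∂W)) := Finset.sum_le_sum key
    _ = _ := by rw [Finset.sum_const, nsmul_eq_mul]

end

end Crest.Agent.R234.N0_309
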