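import Crest.Agent.R234.Core5_809
import Crest.Agent.R234.N0f_309
import Crest.Agent.R234.Crs7_173

/-!
Row 234, node N0 (helper309), file p: the literal statements of the four inputs of `N0Prop`
(`InProp`, `ThetaProp`, `SmallProp`, `VVProp`) and `N0Prop`.
-/

set_option autoImplicit false

open MeasureTheory Filter Topology Set Metric
open scoped ENNReal NNReal

namespace Crest.Agent.R234.N0_309

open Crest.GeometryTopology.Submanifold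
open Crest.Agent.R234.Vf_884 Crest.Agent.R234.Ar_870 Crest.Agent.R234.Cy_870
open Crest.Agent.R234.Pair2_762 (vv)
open Crest.Agent.R234.Pair6_762 (hp)
open Crest.Agent.R234.Th_164 (ws)
open Crest.Agent.R234.N5_372 (eM)
open Crest.Agent.R234.Core_809 (Cls part en Yh Lam hOf tOf lamOf)
open Crest.Agent.R234.Crs_173 (In)

noncomputable section

/-- the part of the unit ball off the tall set -/
def lowSet {m k : ℕ} (W : Measure (Euc k × L k)) (π : Euc k →L[ℝ] Euc m) (cS a D : ℝ) :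
    Set (Euc m) :=
  closedBall (0 : Euc m) 1 \ tallT (eM W π) (hOf a D) (tOf a D) (lamOf cS a D)

/-- **N0-IN** : 173's input structure in the class -/
def InProp : Prop :=
  ∀ m n Q : ℕ, 1 ≤ m → ∃ C₀ : ℝ, 0 ≤ C₀ ∧
    ∀ (k : ℕ) (π : Euc k →L[ℝ] Euc m) (κ : Euc k →L[ℝ] Euc n) (U : Set (Euc k))
      (Dd : VarifoldData m k) (δ D : ℝ), 0 < D → D < 1 → 0 ≤ δ → δ ≤ 1 →
      Cls Q δ D π κ U Dd → ∀ S : Sheets Dd π,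
      In (part π κ Dd) π κ (S.N (Cy_870.cyl π κ 0 4 1)) Q C₀ (√D) δ

/-- **N0-THETA** (from 173's `set_form_real`) -/
def ThetaProp : Prop :=
  ∀ (m Q : ℕ) (C₀ : ℝ), 1 ≤ m → 0 ≤ C₀ → ∃ σ Kθ c : ℝ, 0 < σ ∧ 0 ≤ Kθ ∧ 0 < c ∧
    ∀ cS a : ℝ, 0 < cS → cS ≤ c → 1 ≤ a → ∃ D0 : ℝ, 0 < D0 ∧ D0 < 1 ∧
    ∀ (n k : ℕ) (π : Euc k →L[ℝ] Euc m) (κ : Euc k →L[ℝ] Euc n)
      (W : Measure (Euc k × L k)) (N : Euc m → ℝ≥0∞) (δ D : ℝ), 0 < D → D ≤ D0 → 0 ≤ δ →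
      δ ≤ Lam D ^ (-1 : ℝ) → In W π κ N Q C₀ (√D) δ → ∫ p, tl π p.2 ∂W ≤ D →
      ∫ x in closedBall (0 : Euc m) 1, |(N x).toReal - Q| ≤ Kθ * ∫ p, tl π p.2 ∂W ∧
      ∫ x in lowSet W π cS a D, |(N x).toReal - Q| ≤
        Kθ * ∫ p in (fun p : Euc k × L k => π p.1) ⁻¹'
          (cthickening (hOf a D / 8) (lowSet W π cS a D)), ws π σ p ∂W

/-- **N0-SMALL** (870): the class instance of `small_close` -/
def SmallProp : Prop :=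
  ∀ m n Q : ℕ, 3 ≤ m → 1 ≤ n → 1 ≤ Q → ∃ c : ℝ, 0 < c ∧
    ∀ cS a : ℝ, 0 < cS → cS ≤ c → 1 ≤ a → ∃ D0 : ℝ, 0 < D0 ∧ D0 < 1 ∧
    ∀ (k : ℕ) (π : Euc k →L[ℝ] Euc m) (κ : Euc k →L[ℝ] Euc n) (U : Set (Euc k))
      (Dd : VarifoldData m k) (δ D : ℝ), 0 < D → D ≤ D0 → 0 ≤ δ → δ ≤ Lam D ^ (-1 : ℝ) →
      Cls Q δ D π κ U Dd →
      ∀ᵐ z ∂(part π κ Dd), π z.1 ∈ thickening (hOf a D / 4) (lowSet (part π κ Dd) π cS a D) →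
        c * tOf a D ^ m ≤ (part π κ Dd).real
          {p | ‖π (z.1 - p.1)‖ ≤ 2 * tOf a D ∧ ‖κ (z.1 - p.1)‖ ≤ hOf a D}

/-- **N0-VV** : the pair truncation in numbers -/
def VVProp : Prop :=
  ∀ (m Q : ℕ) (C₀ c : ℝ), 1 ≤ m → 0 ≤ C₀ → 0 < c → ∃ C : ℝ, 0 ≤ C ∧
    ∀ a : ℝ, 1 ≤ a → ∃ D0 : ℝ, 0 < D0 ∧ D0 < 1 ∧
    ∀ (n k : ℕ) (π : Euc k →L[ℝ] Euc m) (κ : Euc k →L[ℝ] Euc n)
      (W : Measure (Euc k × L k)) (N : Euc m → ℝ≥0∞) (δ D : ℝ), 0 < D → D ≤ D0 → 0 ≤ δ →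
      δ ≤ Lam D ^ (-1 : ℝ) → In W π κ N Q C₀ (√D) δ → ∫ p, tl π p.2 ∂W ≤ D →
      ∀ B : Set (Euc m), B ⊆ closedBall (0 : Euc m) 1 →
      (∀ᵐ z ∂W, π z.1 ∈ thickening (hOf a D / 4) B →
        c * tOf a D ^ m ≤ W.real
          {p | ‖π (z.1 - p.1)‖ ≤ 2 * tOf a D ∧ ‖κ (z.1 - p.1)‖ ≤ hOf a D}) →
      ∫ z in (fun p : Euc k × L k => π p.1) ⁻¹' (thickening (hOf a D / 4) B),
        vv (hp π) z.2 ∂W ≤
      C * (δ * ((∫ p, tl π p.2 ∂W) + √((∫ p, tl π p.2 ∂W) * ∫ p, ‖κ p.1‖ ^ 2 ∂W)) +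
        δ ^ 2 * ∫ p, ‖κ p.1‖ ^ 2 ∂W) + C * (Lam D ^ (-a) * D)

end

end Crest.Agent.R234.N0_309
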