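import Crest.Agent.R234.Sml3_870
import Crest.Agent.R234.N0p_309
import Crest.Agent.R234.Ins1_387
import Crest.Agent.R234.Crs6_173

/-!
# Row 234, N0-SMALL, part 4 (helper870): 309's `SmallProp`
-/

set_option autoImplicit false

open MeasureTheory Set Function Filter Topology Metric
open Crest.GeometryTopology.Submanifold
open Crest.Agent.R234.Vf_884 Crest.Agent.R234.Ar_870 Crest.Agent.R234.Cy_870
open Crest.Agent.R234.Asl_214
open Crest.Agent.R234.N5_372 (eM)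
open Crest.Agent.R234.Core_809 (Cls part Lam hOf tOf lamOf)
open Crest.Agent.R234.N0_309 (lowSet tallT lt_of_not_tall SmallProp)
open scoped ENNReal NNReal

noncomputable section

namespace Crest.Agent.R234.Sml_870

/-! ### the numbers for large `Λ` -/

theorem log_le_four {x : ℝ} (hx : 0 ≤ x) : Real.log x ≤ 4 * x ^ (1 / 4 : ℝ) := by
  have := Real.log_le_rpow_div hx (ε := 1 / 4) (by norm_num)
  linarith

/-- everything for large `Λ` -/
theorem ev_small (a c : ℝ) (ha : 0 ≤ a) (hc : 0 < c) : ∀ᶠ L : ℝ in atTop, 1 ≤ L ∧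
    Real.exp (-(L / 2)) * L ^ a ≤ 1 / 8 ∧ L ^ (-1 : ℝ) ≤ 1 / 16 ∧
    √(L ^ (-1 : ℝ)) * (1 + 2 * a * Real.log L) ≤ c ∧
    Real.exp (-(L / 2)) * L ^ (2 * a) * (1 + 2 * a * Real.log L) ≤ c := by
  have e1 : ∀ᶠ L : ℝ in atTop, L ^ a * Real.exp (-(1 / 2) * L) ≤ 1 / 8 :=
    (tendsto_rpow_mul_exp_neg_mul_atTop_nhds_zero a (1 / 2) (by norm_num)).eventually
      (eventually_le_nhds (by norm_num))
  have e2 : ∀ᶠ L : ℝ in atTop, L ^ (2 * a + 1) * Real.exp (-(1 / 2) * L) ≤ c / (1 + 2 * a) :=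
    (tendsto_rpow_mul_exp_neg_mul_atTop_nhds_zero (2 * a + 1) (1 / 2) (by norm_num)).eventually
      (eventually_le_nhds (by positivity))
  have e3 : ∀ᶠ L : ℝ in atTop, L ^ (-(1 / 4) : ℝ) ≤ c / (1 + 8 * a) :=
    (tendsto_rpow_neg_atTop (by norm_num : (0:ℝ) < 1 / 4)).eventually
      (eventually_le_nhds (by positivity))
  filter_upwards [e1, e2, e3, eventually_ge_atTop (16:ℝ)] with L h1 h2 h3 hL
  have hL0 : 0 < L := by linarith
  have hL1 : 1 ≤ L := by linarith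
  have hE : Real.exp (-(1 / 2) * L) = Real.exp (-(L / 2)) := by congr 1; ring
  rw [hE] at h1 h2
  have hlog0 : 0 ≤ Real.log L := Real.log_nonneg hL1
  refine ⟨hL1, by rw [mul_comm]; exact h1, ?_, ?_, ?_⟩
  · rw [Real.rpow_neg_one, inv_eq_one_div]
    exact one_div_le_one_div_of_le (by norm_num) hL
  · have h4 : √(L ^ (-1 : ℝ)) = L ^ (-(1 / 2) : ℝ) := by
      rw [Real.sqrt_eq_rpow, ← Real.rpow_mul hL0.le]
      norm_num
    rw [h4]
    have h5 := log_le_four hL0.le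
    have h6 : 1 ≤ L ^ (1 / 4 : ℝ) := Real.one_le_rpow hL1 (by norm_num)
    have h7 : 1 + 2 * a * Real.log L ≤ (1 + 8 * a) * L ^ (1 / 4 : ℝ) := by
      have := mul_le_mul_of_nonneg_left h5 (by positivity : 0 ≤ 2 * a)
      linarith
    have h8 : L ^ (-(1 / 2) : ℝ) * L ^ (1 / 4 : ℝ) = L ^ (-(1 / 4) : ℝ) := by
      rw [← Real.rpow_add hL0]; norm_num
    have h9 : 0 < L ^ (-(1 / 2) : ℝ) := Real.rpow_pos_of_pos hL0 _
    calc L ^ (-(1 / 2) : ℝ) * (1 + 2 * a * Real.log L) ≤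
          L ^ (-(1 / 2) : ℝ) * ((1 + 8 * a) * L ^ (1 / 4 : ℝ)) :=
        mul_le_mul_of_nonneg_left h7 h9.le
      _ = (1 + 8 * a) * L ^ (-(1 / 4) : ℝ) := by rw [← h8]; ring
      _ ≤ (1 + 8 * a) * (c / (1 + 8 * a)) := mul_le_mul_of_nonneg_left h3 (by positivity)
      _ = c := by field_simp
  · have h5 : Real.log L ≤ L := (Real.log_le_sub_one_of_pos hL0).trans (by linarith)
    have h6 : 1 + 2 * a * Real.log L ≤ (1 + 2 * a) * L := by
      have := mul_le_mul_of_nonneg_left h5 (by positivity : 0 ≤ 2 * a)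
      linarith
    have h7 : L ^ (2 * a + 1) = L ^ (2 * a) * L := by rw [Real.rpow_add hL0, Real.rpow_one]
    rw [h7] at h2
    have h8 : 0 < L ^ (2 * a) := Real.rpow_pos_of_pos hL0 _
    have h9 := Real.exp_pos (-(L / 2))
    calc Real.exp (-(L / 2)) * L ^ (2 * a) * (1 + 2 * a * Real.log L) ≤
          Real.exp (-(L / 2)) * L ^ (2 * a) * ((1 + 2 * a) * L) :=
        mul_le_mul_of_nonneg_left h6 (by positivity)
      _ = (1 + 2 * a) * (L ^ (2 * a) * L * Real.exp (-(L / 2))) := by ring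
      _ ≤ (1 + 2 * a) * (c / (1 + 2 * a)) := mul_le_mul_of_nonneg_left h2 (by positivity)
      _ = c := by field_simp

/-- small `D` = large `Λ` -/
theorem exists_D0 {p : ℝ → Prop} (h : ∀ᶠ L : ℝ in atTop, p L) : ∃ D0 : ℝ, 0 < D0 ∧ D0 < 1 ∧
    ∀ D, 0 < D → D ≤ D0 → p (Lam D) := by
  obtain ⟨L0, hL0⟩ := eventually_atTop.1 h
  refine ⟨Real.exp (-(max L0 1)), Real.exp_pos _, ?_, fun D hD hD0 => hL0 _ ?_⟩
  · rw [Real.exp_lt_one_iff]
    have := le_max_right L0 1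
    linarith
  · unfold Lam
    rw [one_div, Real.log_inv]
    have h1 := Real.log_le_log hD hD0
    rw [Real.log_exp] at h1
    have := le_max_left L0 1
    linarith

theorem exp_Lam {D : ℝ} (hD : 0 < D) : Real.exp (-(Lam D / 2)) = √D := by
  unfold Lam
  rw [one_div, Real.log_inv, Real.sqrt_eq_rpow, Real.rpow_def_of_pos hD]
  congr 1; ring

/-- **N0-SMALL**: 309's literal form -/
theorem smallProp : SmallProp := by
  intro m n Q hm _ _
  have hm1 : 1 ≤ m := by lia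
  obtain ⟨C, hC, hen⟩ := Crs_173.energy m (Ins_387.C0_nonneg m Q)
  obtain ⟨cs, CL, hcs, hCL, H⟩ := small_cls m hm1 (Cm := C * 2 ^ m) (by positivity)
  refine ⟨cs, hcs, fun cS a hcS hcSc ha => ?_⟩
  obtain ⟨D0, hD0, hD01, hev⟩ := exists_D0 (ev_small a CL⁻¹ (by linarith) (inv_pos.2 hCL))
  refine ⟨D0, hD0, hD01, ?_⟩
  intro k π κ U Dd δ D hD hDD hδ hδL hcls
  obtain ⟨hL1, g1, g2, g3, g4⟩ := hev D hD hDD
  set Λ := Lam D with hΛ
  have hL0 : 0 < Λ := by linarith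
  have hsD : Real.exp (-(Λ / 2)) = √D := exp_Lam hD
  rw [hsD] at g1 g4
  have hs0 : 0 < √D := Real.sqrt_pos.2 hD
  have hD1 : D < 1 := lt_of_le_of_lt hDD hD01
  have hA : 1 ≤ Λ ^ a := Real.one_le_rpow hL1 (by linarith)
  have hAi : Λ ^ (-a) = (Λ ^ a)⁻¹ := Real.rpow_neg hL0.le a
  have hAi1 : Λ ^ (-a) ≤ 1 := by rw [hAi]; exact inv_le_one_of_one_le₀ hA
  have hAi0 : 0 < Λ ^ (-a) := Real.rpow_pos_of_pos hL0 _
  have hh : hOf a D = √D * Λ ^ (-a) := rfl
  have ht : tOf a D = √D * Λ ^ a := rfl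
  have hh0 : 0 < hOf a D := by rw [hh]; positivity
  have ht0 : 0 < tOf a D := by rw [ht]; positivity
  have ht8 : tOf a D ≤ 1 / 8 := g1
  have hht : hOf a D ≤ tOf a D := by
    rw [hh, ht]; exact mul_le_mul_of_nonneg_left (hAi1.trans hA) hs0.le
  have hsDt : √D ≤ tOf a D := by rw [ht]; exact le_mul_of_one_le_right hs0.le hA
  have hratio : tOf a D / hOf a D = Λ ^ (2 * a) := by
    rw [hh, ht, hAi]
    have : Λ ^ (2 * a) = Λ ^ a * Λ ^ a := by rw [← Real.rpow_add hL0]; congr 1; ring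
    rw [this]
    have hA0 : Λ ^ a ≠ 0 := by positivity
    field_simp
  have hlog : Real.log (tOf a D / hOf a D) = 2 * a * Real.log Λ := by
    rw [hratio, Real.log_rpow hL0]
  have hδ1 : δ ≤ 1 / 16 := hδL.trans g2
  have hlog0 : 0 ≤ Real.log Λ := Real.log_nonneg hL1
  have hlg : 0 ≤ 1 + 2 * a * Real.log Λ := by positivity
  have hDq : D ≤ 1 / 4 := by
    have h1 : √D ≤ 1 / 8 := hsDt.trans ht8
    have h2 : D = √D * √D := (Real.mul_self_sqrt hD.le).symm
    rw [h2]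
    nlinarith
  have q1 : √δ * (1 + Real.log (tOf a D / hOf a D)) ≤ CL⁻¹ := by
    rw [hlog]
    exact (mul_le_mul_of_nonneg_right (Real.sqrt_le_sqrt hδL) hlg).trans g3
  have q2 : δ * √D * tOf a D * (1 + Real.log (tOf a D / hOf a D)) ≤ CL⁻¹ * hOf a D := by
    rw [hlog]
    have h1 : tOf a D = Λ ^ (2 * a) * hOf a D := by
      rw [← hratio]; field_simp
    have h2 : √D * tOf a D * (1 + 2 * a * Real.log Λ) =
        (√D * Λ ^ (2 * a) * (1 + 2 * a * Real.log Λ)) * hOf a D := by rw [h1]; ring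
    have h3 := mul_le_mul_of_nonneg_right g4 hh0.le
    have h4 : 0 ≤ √D * tOf a D * (1 + 2 * a * Real.log Λ) := by positivity
    calc δ * √D * tOf a D * (1 + 2 * a * Real.log Λ) =
          δ * (√D * tOf a D * (1 + 2 * a * Real.log Λ)) := by ring
      _ ≤ 1 * (√D * tOf a D * (1 + 2 * a * Real.log Λ)) :=
        mul_le_mul_of_nonneg_right (by linarith) h4
      _ ≤ CL⁻¹ * hOf a D := by rw [one_mul, h2]; exact h3
  have key := H n k Q π κ U Dd δ D (hOf a D) (tOf a D) hcls hδ (by linarith) hDq hh0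
    (by linarith) hht (by linarith) q1 q2
  filter_upwards [key] with z hz hzl
  obtain ⟨x, hx, hdx⟩ := mem_thickening_iff.1 hzl
  have hx1 : ‖x‖ ≤ 1 := mem_closedBall_zero_iff.1 hx.1
  refine hz x ?_ (by linarith) ?_ ?_
  · rw [← dist_eq_norm]; exact hdx.le
  · have hcyl := cylAS_cls hcls hD1
    have h1 := (hen hcyl (fun z r hr _ => Ins_387.ubd hcls hm1 z hr) hδ hδ1 x
      (by rw [mem_closedBall_zero_iff]; linarith) (2 * tOf a D) (by linarith) (by linarith)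
      (by linarith)).1
    have hfin : part π κ Dd univ < ⊤ := hcyl.fin
    have h2 : (part π κ Dd).real {p | ‖π p.1 - x‖ ≤ tOf a D} ≤ MB (part π κ Dd) π x (2 * tOf a D) := by
      unfold MB
      refine ENNReal.toReal_mono (lt_of_le_of_lt (measure_mono (subset_univ _)) hfin).ne
        (measure_mono ?_)
      intro p hp
      change ‖π p.1 - x‖ < 2 * tOf a D
      have : ‖π p.1 - x‖ ≤ tOf a D := hp
      linarith
    refine h2.trans (h1.trans (le_of_eq ?_))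
    rw [mul_pow]; ring
  · intro s hs
    have h1 := (lt_of_not_tall hx.2 hs).le
    refine h1.trans (ENNReal.ofReal_le_ofReal ?_)
    unfold lamOf
    have hs0' : 0 < s := hh0.trans_le hs.1
    have h2 : 0 ≤ (hOf a D / tOf a D) ^ 2 := sq_nonneg _
    gcongr

end Crest.Agent.R234.Sml_870
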