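import Crest.Agent.R234.N0p_309

/-!
Row 234, node N0 (helper762): `VVProp` of helper309 (the pair truncation in numbers).
-/

set_option autoImplicit false

open MeasureTheory Filter Topology Set Metric
open scoped ENNReal NNReal

namespace Crest.Agent.R234.VVp_762

open Crest.GeometryTopology.Submanifold
open Crest.Agent.R234.Vf_884 Crest.Agent.R234.Ar_870 Crest.Agent.R234.Cy_870
open Crest.Agent.R234.Pair2_762 (vv vv_nonneg)
open Crest.Agent.R234.Pair6_762 (hp ov eb)
open Crest.Agent.R234.Core_809 (Lam hOf tOf lamOf)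
open Crest.Agent.R234.Crs_173 (In)
open Crest.Agent.R234.Asl_214 (CylAS MB TB)
open Crest.Agent.R234.N0_309

noncomputable section

/-- `√D Λ^a → 0`. -/
theorem exists_small (a e L : ℝ) (he : 0 < e) : ∃ D0 : ℝ, 0 < D0 ∧ D0 < 1 ∧
    ∀ D : ℝ, 0 < D → D ≤ D0 → L ≤ Lam D ∧ 1 ≤ Lam D ∧ √D * Lam D ^ a ≤ e := by
  have h1 := tendsto_rpow_mul_exp_neg_mul_atTop_nhds_zero a (1 / 2) (by norm_num)
  obtain ⟨X, hX⟩ := (Filter.eventually_atTop.1 (h1.eventually (gt_mem_nhds he)))
  set T := max (max X L) 1 with hT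
  have hT1 : 1 ≤ T := le_max_right _ _
  refine ⟨Real.exp (-T), Real.exp_pos _, ?_, fun D hD hD0 => ?_⟩
  · rw [Real.exp_lt_one_iff]; linarith
  have hlog : Real.log D ≤ -T := by
    have := Real.log_le_log hD hD0
    rwa [Real.log_exp] at this
  have hLam : Lam D = -Real.log D := by
    unfold Lam; rw [one_div, Real.log_inv]
  have hLT : T ≤ Lam D := by rw [hLam]; linarith
  refine ⟨((le_max_right X L).trans (le_max_left _ _)).trans hLT, hT1.trans hLT, ?_⟩
  have hx := hX (Lam D) (((le_max_left X L).trans (le_max_left _ _)).trans hLT)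
  have hs : √D = Real.exp (-(1 / 2) * Lam D) := by
    rw [hLam, Real.sqrt_eq_rpow, Real.rpow_def_of_pos hD]
    congr 1; ring
  rw [hs, mul_comm]
  exact hx.le

theorem ov_eq_ovr {m k : ℕ} (π : Euc k →L[ℝ] Euc m) (y : Euc m) (s : ℝ) :
    (ov π y s : Set (Euc k × L k)) = Asl_214.ovr π y s := rfl

set_option maxHeartbeats 800000 in
theorem vvProp : VVProp := by
  intro m Q C₀ c hm hC₀ hc
  obtain ⟨M, hM1, hen⟩ := Crs_173.energy m hC₀
  obtain ⟨Z, hZ, hZc⟩ := exists_net m (r := 1 / 4) (by norm_num)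
  have hM0 : 0 < M := zero_lt_one.trans_le hM1
  set V₀ : ℝ := (Q + 1 / 4) * (Th_164.om m * 4 ^ m) with hV₀
  have hom : 0 < Th_164.om m := Th_164.om_pos m
  have hV0 : 0 ≤ V₀ := by positivity
  have hKv : 0 ≤ Kv m M := Kv_nonneg hM0.le
  set c' : ℝ := c / 4 ^ m with hc'
  have hc0' : 0 < c' := by positivity
  set C : ℝ := Z.card * (32 / 3 / c' * (Kv m M * (2 + V₀))) with hC
  have hCn : 0 ≤ C := by positivity
  refine ⟨C, hCn, fun a ha => ?_⟩
  obtain ⟨D0, hD0, hD01, hsm⟩ := exists_small a (1 / 16) (max 16 M) (by norm_num)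
  refine ⟨D0, hD0, hD01, ?_⟩
  intro n k π κ W N δ D hD hDD hδ0 hδL hIn hE B hB hcl
  obtain ⟨hL, hL1, hsD⟩ := hsm D hD hDD
  have hL16 : 16 ≤ Lam D := (le_max_left _ _).trans hL
  have hLM : M ≤ Lam D := (le_max_right _ _).trans hL
  have hL0 : 0 < Lam D := by linarith
  have hD1 : D ≤ 1 := by linarith
  have hs0 : 0 < √D := Real.sqrt_pos.2 hD
  have hs1 : √D ≤ 1 := Real.sqrt_le_one.2 hD1
  have hδ16 : δ ≤ 1 / 16 := by
    refine hδL.trans ?_
    rw [Real.rpow_neg_one, inv_eq_one_div]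
    exact one_div_le_one_div_of_le (by norm_num) hL16
  have hcyl := hIn.cyl
  have : IsFiniteMeasure W := ⟨hcyl.fin⟩
  -- powers of `Lam`
  set P := Lam D ^ a with hP
  have hPL : Lam D ≤ P := by
    have := Real.rpow_le_rpow_of_exponent_le hL1 ha
    rwa [Real.rpow_one] at this
  have hP0 : 0 < P := by positivity
  have hP1 : 1 ≤ P := hL1.trans hPL
  set I := Lam D ^ (-a) with hI
  have hIP : I = P⁻¹ := by rw [hI, hP, Real.rpow_neg hL0.le]
  have hI0 : 0 < I := by rw [hIP]; positivity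
  have hI1 : I ≤ 1 := by rw [hIP]; exact inv_le_one_of_one_le₀ hP1
  have hPI : P * I = 1 := by rw [hIP]; exact mul_inv_cancel₀ hP0.ne'
  set h := hOf a D with hh
  set t := tOf a D with ht
  have hheq : h = √D * I := rfl
  have hteq : t = √D * P := rfl
  have hh0 : 0 < h := by rw [hheq]; positivity
  have ht0 : 0 < t := by rw [hteq]; positivity
  have hst : √D ≤ t := by rw [hteq]; exact le_mul_of_one_le_right hs0.le hP1
  have hhs : h ≤ √D := by rw [hheq]; exact mul_le_of_le_one_right hs0.le hI1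
  have ht16 : t ≤ 1 / 16 := by rw [hteq]; exact hsD
  set τ := 4 * t with hτ
  have hτ0 : 0 < τ := by positivity
  -- mass and energy at scale `τ`
  have hMτ : ∀ y : Euc m, ‖y‖ ≤ 3 → W.real (ov π y τ) ≤ M * τ ^ m := by
    intro y hy
    exact (hen hcyl hIn.ub hδ0 hδ16 y (mem_closedBall_zero_iff.2 hy) τ hτ0 (by linarith)
      (by linarith)).1
  have hDP : M * (√D / τ) ^ 2 ≤ 1 := by
    have e1 : √D / τ = I / 4 := by
      rw [hτ, hteq, div_eq_div_iff (by positivity) (by norm_num)]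
      calc √D * 4 = √D * 4 * (P * I) := by rw [hPI, mul_one]
        _ = I * (4 * (√D * P)) := by ring
    rw [e1]
    have e2 : M * I ≤ 1 := by
      rw [hIP, ← div_eq_mul_inv, div_le_one hP0]
      exact hLM.trans hPL
    have e3 : M * (I / 4) ^ 2 = (M * I) * I / 16 := by ring
    rw [e3]
    have e4 : M * I * I ≤ 1 * 1 := mul_le_mul e2 hI1 hI0.le zero_le_one
    linarith
  have hστ : ∀ y : Euc m, ‖y‖ ≤ 3 → eb W π y τ ≤ 1 ^ 2 * τ ^ m := by
    intro y hy
    refine ((hen hcyl hIn.ub hδ0 hδ16 y (mem_closedBall_zero_iff.2 hy) τ hτ0 (by linarith)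
      (by linarith)).2).trans ?_
    refine mul_le_mul_of_nonneg_right ?_ (by positivity)
    rw [one_pow]; exact hDP
  have hc4 : ∀ᵐ z ∂W, π z.1 ∈ thickening (h / 4) B →
      c' * τ ^ m ≤ W.real {p | ‖π (z.1 - p.1)‖ ≤ τ / 2 ∧ ‖κ (z.1 - p.1)‖ ≤ h} := by
    filter_upwards [hcl] with z hz hzB
    have e1 : c' * τ ^ m = c * t ^ m := by
      rw [hc', hτ, mul_pow]
      field_simp
    have e2 : τ / 2 = 2 * t := by rw [hτ]; ring
    rw [e1, e2]
    exact hz hzB
  have hmain := vv_le (M := M) (σ := 1) (c := c') (B := B) hcyl hs1 hδ0 (by linarith) hh0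
    (by linarith : h ≤ τ) (by linarith : τ ≤ 1) hM0 one_pos le_rfl hc0' hMτ hστ hB hc4 Z hZ hZc
  refine hmain.trans ?_
  -- the numbers
  have hV : W.real univ ≤ V₀ := by
    have h1 := (abs_le.1 hIn.mass).2
    rw [hV₀]; linarith
  have hVn : 0 ≤ W.real univ := measureReal_nonneg
  set E := ∫ p, tl π p.2 ∂W with hEd
  set Y := ∫ p, ‖κ p.1‖ ^ 2 ∂W with hYd
  have hE0 : 0 ≤ E := by
    refine integral_nonneg_of_ae ?_
    filter_upwards [hcyl.conc] with p hp
    exact tl_nonneg hcyl.sp.hh (isPr_of_G hp)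
  have hY0 : 0 ≤ Y := integral_nonneg fun _ => sq_nonneg _
  have hYD : Y ≤ D * V₀ := by
    have h1 : Y ≤ ∫ _, D ∂W := by
      refine integral_mono_ae
        (hcyl.integrable_continuous ((κ.continuous.comp continuous_fst).norm.pow 2))
        (integrable_const _) ?_
      filter_upwards [hcyl.hgt] with p hp
      have h2 := pow_le_pow_left₀ (norm_nonneg (κ p.1)) hp 2
      rwa [Real.sq_sqrt hD.le] at h2
    refine h1.trans ?_
    rw [integral_const, smul_eq_mul, mul_comm]
    exact mul_le_mul_of_nonneg_left hV hD.le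
  have hq : h * √((E + Y) * W.real univ) ≤ (1 + V₀) * (I * D) := by
    have h1 : √((E + Y) * W.real univ) ≤ √D * (1 + V₀) := by
      refine Real.sqrt_le_iff.2 ⟨by positivity, ?_⟩
      rw [mul_pow, Real.sq_sqrt hD.le]
      calc (E + Y) * W.real univ ≤ (D + D * V₀) * V₀ :=
            mul_le_mul (add_le_add hE hYD) hV hVn (by positivity)
        _ = D * ((1 + V₀) * V₀) := by ring
        _ ≤ D * (1 + V₀) ^ 2 := by
            apply mul_le_mul_of_nonneg_left _ hD.le
            rw [sq]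
            exact mul_le_mul_of_nonneg_left (by linarith) (by linarith)
    calc h * √((E + Y) * W.real univ) ≤ h * (√D * (1 + V₀)) :=
          mul_le_mul_of_nonneg_left h1 hh0.le
      _ = (1 + V₀) * (I * (√D * √D)) := by rw [hheq]; ring
      _ = (1 + V₀) * (I * D) := by rw [Real.mul_self_sqrt hD.le]
  have hr : h / τ * E ≤ I * D := by
    have h1 : h / τ ≤ I := by
      rw [div_le_iff₀ hτ0]
      have : I * √D ≤ I * τ := mul_le_mul_of_nonneg_left (by linarith) hI0.le
      rw [hheq]; linarith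
    exact mul_le_mul h1 hE hE0 hI0.le
  set F := δ * (E + √(E * Y)) + δ ^ 2 * Y with hF
  have hF0 : 0 ≤ F := by positivity
  have hID : 0 ≤ I * D := by positivity
  have hb : F + h * √((E + Y) * W.real univ) + h / τ * E ≤ (2 + V₀) * (F + I * D) := by
    have e1 : (2 + V₀) * (F + I * D) = F + (1 + V₀) * (I * D) + I * D
      + (F + V₀ * F) := by ring
    rw [e1]
    have e2 : 0 ≤ V₀ * F := mul_nonneg hV0 hF0
    linarith
  calc (Z.card : ℝ) * (32 / 3 / c' * (Kv m M * (δ * (E + √(E * Y)) + δ ^ 2 * Y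
        + h * √((E + Y) * W.real univ) + h / τ * E)))
      ≤ Z.card * (32 / 3 / c' * (Kv m M * ((2 + V₀) * (F + I * D)))) := by
        refine mul_le_mul_of_nonneg_left ?_ (Nat.cast_nonneg _)
        refine mul_le_mul_of_nonneg_left ?_ (by positivity)
        exact mul_le_mul_of_nonneg_left hb hKv
    _ = C * F + C * (I * D) := by rw [hC]; ring

end

end Crest.Agent.R234.VVp_762
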