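import Crest.Agent.R234.N0q_309
import Crest.Agent.R234.Crs9_173
import Crest.Agent.R234.Sml4_870
import Crest.Agent.R234.VVp_762

/-!
Row 234, node N0 (helper309), file z: `N0Prop`.
-/

set_option autoImplicit false

namespace Crest.Agent.R234.N0_309

/-- **N0** -/
theorem n0Prop : Core_809.N0Prop :=
  n0Prop_of inProp Crs_173.thetaProp Sml_870.smallProp VVp_762.vvProp

end Crest.Agent.R234.N0_309
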