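import Crest.Agent.R234.Par_504
import Crest.Agent.R234.Core4_809

/-!
# R234 / Par2_504 : 809's numbers (`Core4_809`) in the calculus `X α β Λ` of `Par_504`

`Λ = Lam D`.  For every number `N` of `Core4_809` there is an equation `N = const * X α β (Lam D)`,
and the eventual inequalities (`∀ᶠ Λ in atTop, p Λ`) are transferred to all `D` with
`l0 ≤ log (Lam D)` by `ev_l` / `ev_D`.
-/

set_option autoImplicit false

namespace Crest.Agent.R234.Par_504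

open Filter Real Crest.Agent.R234.Core_809

noncomputable section

variable {D a cS δ : ℝ} {m : ℕ}

/-- the exponent of the window -/
def bb (m : ℕ) (a : ℝ) : ℝ := 100 * (m + 1) * (a + 1)

theorem Lam_pos (h0 : 0 < D) (h1 : D < 1) : 0 < Lam D := by
  unfold Lam
  rw [one_div, Real.log_inv]
  have := Real.log_neg h0 h1
  linarith

theorem D_eq (h0 : 0 < D) : D = X (-1) 0 (Lam D) := D_eq_X h0

theorem sqrt_D_eq (h0 : 0 < D) : √D = X (-1 / 2) 0 (Lam D) := sqrt_D_eq_X h0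

theorem rpow_eq (h0 : 0 < D) (h1 : D < 1) (β : ℝ) : Lam D ^ β = X 0 β (Lam D) :=
  rpow_eq_X (Lam_pos h0 h1) β

theorem hOf_eq (h0 : 0 < D) (h1 : D < 1) : hOf a D = X (-1 / 2) (-a) (Lam D) := by
  unfold hOf
  rw [rpow_eq h0 h1, sqrt_D_eq h0, X_mul]
  congr 1 <;> ring

theorem tOf_eq (h0 : 0 < D) (h1 : D < 1) : tOf a D = X (-1 / 2) a (Lam D) := by
  unfold tOf
  rw [rpow_eq h0 h1, sqrt_D_eq h0, X_mul]
  congr 1 <;> ring

theorem tauOf_eq (h0 : 0 < D) (h1 : D < 1) : tauOf a D = 1 / 4 * X (-1 / 2) (-a) (Lam D) := by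
  unfold tauOf
  rw [hOf_eq h0 h1]
  ring

theorem lamOf_eq (h0 : 0 < D) (h1 : D < 1) : lamOf cS a D = cS * X 0 (-4 * a) (Lam D) := by
  unfold lamOf
  rw [hOf_eq h0 h1, tOf_eq h0 h1, X_div, X_pow]
  congr 2 <;> push_cast <;> ring

theorem blOf_eq (h0 : 0 < D) (h1 : D < 1) : blOf a D = X 0 (-a) (Lam D) := rpow_eq h0 h1 _

theorem le_dsOf (h0 : 0 < D) (h1 : D < 1) : X 0 (-a) (Lam D) ≤ dsOf a δ D := by
  unfold dsOf
  rw [← rpow_eq h0 h1]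
  have h2 : 0 ≤ Lam D ^ (-a) := Real.rpow_nonneg (Lam_pos h0 h1).le _
  have h3 := le_max_right δ (Lam D ^ (-a))
  linarith

theorem dsOf_le {b : ℝ} (h0 : 0 < D) (h1 : D < 1) (hΛ : 1 ≤ Lam D) (hδ : δ ≤ Lam D ^ (-b)) :
    dsOf a δ D ≤ 7 * X 0 (-min a b) (Lam D) := by
  unfold dsOf
  rw [← rpow_eq h0 h1]
  apply mul_le_mul_of_nonneg_left _ (by norm_num)
  refine max_le (hδ.trans ?_) ?_
  · exact Real.rpow_le_rpow_of_exponent_le hΛ (neg_le_neg (min_le_right _ _))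
  · exact Real.rpow_le_rpow_of_exponent_le hΛ (neg_le_neg (min_le_left _ _))

/-- `ds` is small -/
theorem ev_ds {a : ℝ} (ha : 1 ≤ a) {c : ℝ} (hc : 0 < c) : ∃ l0 : ℝ, ∀ D δ : ℝ, 0 < D → D < 1 →
    l0 ≤ Real.log (Lam D) → δ ≤ Lam D ^ (-4 : ℝ) → dsOf a δ D ≤ c := by
  obtain ⟨Λ0, hΛ0⟩ := eventually_atTop.1 ((ev_small 7 hc (show Lt 0 (-min a 4) 0 0 from
    Or.inr ⟨rfl, by
      have : 1 ≤ min a 4 := le_min ha (by norm_num)
      linarith⟩)).and (eventually_ge_atTop (1 : ℝ)))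
  refine ⟨Real.log (max Λ0 1), fun D δ h0 h1 hl hδ => ?_⟩
  have h2 : (0 : ℝ) < max Λ0 1 := lt_of_lt_of_le one_pos (le_max_right _ _)
  obtain ⟨h3, h4⟩ := hΛ0 _ ((le_max_left _ _).trans ((Real.log_le_log_iff h2 (Lam_pos h0 h1)).1 hl))
  exact (dsOf_le h0 h1 h4 hδ).trans h3

theorem s0Of_eq (h0 : 0 < D) (h1 : D < 1) : s0Of m a D = X (-1 / 2) (bb m a) (Lam D) := by
  unfold s0Of
  rw [rpow_eq h0 h1, sqrt_D_eq h0, X_mul]
  congr 1
  · ring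
  · unfold bb; ring

theorem stOf_eq (h0 : 0 < D) (h1 : D < 1) : stOf m a D = X 0 (-bb m a) (Lam D) :=
  rpow_eq h0 h1 _

theorem q1Of_eq (h0 : 0 < D) (h1 : D < 1) : q1Of D = X (-1) 2 (Lam D) := by
  unfold q1Of
  rw [rpow_eq h0 h1]
  calc X 0 2 (Lam D) * D = X 0 2 (Lam D) * X (-1) 0 (Lam D) := by rw [← D_eq h0]
    _ = X (-1) 2 (Lam D) := by rw [X_mul]; congr 1 <;> ring

theorem hOf_pos (h0 : 0 < D) (h1 : D < 1) : 0 < hOf a D := by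
  rw [hOf_eq h0 h1]; exact X_pos _ _ _

theorem tOf_pos (h0 : 0 < D) (h1 : D < 1) : 0 < tOf a D := by
  rw [tOf_eq h0 h1]; exact X_pos _ _ _

theorem tauOf_pos (h0 : 0 < D) (h1 : D < 1) : 0 < tauOf a D := by
  unfold tauOf
  have := hOf_pos (a := a) h0 h1
  positivity

theorem blOf_pos (h0 : 0 < D) (h1 : D < 1) : 0 < blOf a D := by
  rw [blOf_eq h0 h1]; exact X_pos _ _ _

theorem dsOf_pos (h0 : 0 < D) (h1 : D < 1) : 0 < dsOf a δ D :=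
  (X_pos _ _ _).trans_le (le_dsOf h0 h1)

theorem s0Of_pos (h0 : 0 < D) (h1 : D < 1) : 0 < s0Of m a D := by
  rw [s0Of_eq h0 h1]; exact X_pos _ _ _

theorem stOf_pos (h0 : 0 < D) (h1 : D < 1) : 0 < stOf m a D := by
  rw [stOf_eq h0 h1]; exact X_pos _ _ _

theorem q1Of_pos (h0 : 0 < D) (h1 : D < 1) : 0 < q1Of D := by
  rw [q1Of_eq h0 h1]; exact X_pos _ _ _

/-- `log s0 = - Λ / 2 + b log Λ` -/
theorem log_s0Of (h0 : 0 < D) (h1 : D < 1) :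
    Real.log (s0Of m a D) = -1 / 2 * Lam D + bb m a * Real.log (Lam D) := by
  rw [s0Of_eq h0 h1, log_X]

theorem log_stOf (h0 : 0 < D) (h1 : D < 1) :
    Real.log (stOf m a D) = -bb m a * Real.log (Lam D) := by
  rw [stOf_eq h0 h1, log_X]
  ring

/-- `T = Λ / 2 - 2 b log Λ` -/
theorem TOf_eq (h0 : 0 < D) (h1 : D < 1) :
    TOf m a D = 1 / 2 * Lam D - 2 * bb m a * Real.log (Lam D) := by
  unfold TOf
  rw [Real.log_div (stOf_pos h0 h1).ne' (s0Of_pos h0 h1).ne', log_s0Of h0 h1, log_stOf h0 h1]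
  ring

theorem log_s0Of_add_T (h0 : 0 < D) (h1 : D < 1) :
    Real.log (s0Of m a D) + TOf m a D = Real.log (stOf m a D) := by
  unfold TOf
  rw [Real.log_div (stOf_pos h0 h1).ne' (s0Of_pos h0 h1).ne']
  ring

theorem exp_log_s0Of_add_T (h0 : 0 < D) (h1 : D < 1) :
    Real.exp (Real.log (s0Of m a D) + TOf m a D) = stOf m a D := by
  rw [log_s0Of_add_T h0 h1, Real.exp_log (stOf_pos h0 h1)]

/-- `Λ^-(2m+3)a D`, the lower bound of `Us` (up to a constant) -/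
def Dmin (m : ℕ) (a D : ℝ) : ℝ := Lam D ^ (-((2 * m + 3) * a)) * D

theorem Dmin_eq (h0 : 0 < D) (h1 : D < 1) :
    Dmin m a D = X (-1) (-((2 * m + 3) * a)) (Lam D) := by
  unfold Dmin
  rw [rpow_eq h0 h1]
  calc _ = X 0 (-((2 * m + 3) * a)) (Lam D) * X (-1) 0 (Lam D) := by rw [← D_eq h0]
    _ = _ := by rw [X_mul]; congr 1 <;> ring

theorem Dmin_pos (h0 : 0 < D) (h1 : D < 1) : 0 < Dmin m a D := by
  rw [Dmin_eq h0 h1]; exact X_pos _ _ _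

/-! ### transfer -/

theorem ev_l {p : ℝ → Prop} (h : ∀ᶠ Λ : ℝ in atTop, p Λ) :
    ∃ l0 : ℝ, ∀ D : ℝ, 0 < D → D < 1 → l0 ≤ Real.log (Lam D) → p (Lam D) := by
  obtain ⟨Λ0, hΛ0⟩ := eventually_atTop.1 h
  refine ⟨Real.log (max Λ0 1), fun D h0 h1 hl => hΛ0 _ ?_⟩
  have h2 : (0 : ℝ) < max Λ0 1 := lt_of_lt_of_le one_pos (le_max_right _ _)
  exact (le_max_left _ _).trans ((Real.log_le_log_iff h2 (Lam_pos h0 h1)).1 hl)

theorem ev_D {p : ℝ → Prop} (h : ∀ᶠ Λ : ℝ in atTop, p Λ) :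
    ∃ D0 : ℝ, 0 < D0 ∧ D0 < 1 ∧ ∀ D : ℝ, 0 < D → D ≤ D0 → p (Lam D) := by
  obtain ⟨Λ0, hΛ0⟩ := eventually_atTop.1 h
  refine ⟨Real.exp (-(max Λ0 1)), Real.exp_pos _, ?_, fun D h0 h1 => hΛ0 _ ?_⟩
  · rw [Real.exp_lt_one_iff]
    have : (1 : ℝ) ≤ max Λ0 1 := le_max_right _ _
    linarith
  · exact (le_max_left _ _).trans (le_log_of_le h0 h1)

/-- a power of `Λ` against a constant -/
theorem ev_logΛ (C : ℝ) : ∀ᶠ Λ : ℝ in atTop, C ≤ Real.log Λ :=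
  Real.tendsto_log_atTop.eventually_ge_atTop C

/-! ### the numbers of the situation, for `log (Lam D)` large -/

/-- order of the scales -/
theorem ev_scales' (m : ℕ) {a : ℝ} (ha : 1 ≤ a) (C : ℝ) : ∃ l0 : ℝ, ∀ D : ℝ, 0 < D → D < 1 →
    l0 ≤ Real.log (Lam D) →
      C * hOf a D ≤ √D ∧ C * √D ≤ tOf a D ∧ C * tOf a D ≤ s0Of m a D ∧
      C * s0Of m a D ≤ stOf m a D ∧ C * stOf m a D ≤ blOf a D ∧ C * blOf a D ≤ 1 ∧
      C * (Lam D * s0Of m a D) ≤ stOf m a D := by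
  have h4 : (0 : ℝ) ≤ m := Nat.cast_nonneg m
  have h5 : a < bb m a := by unfold bb; nlinarith
  obtain ⟨l0, hl0⟩ := ev_l ((ev_le C (show Lt (-1 / 2) (-a) (-1 / 2) 0 from
      Or.inr ⟨rfl, by linarith⟩)).and
    ((ev_le C (show Lt (-1 / 2) 0 (-1 / 2) a from Or.inr ⟨rfl, by linarith⟩)).and
    ((ev_le C (show Lt (-1 / 2) a (-1 / 2) (bb m a) from Or.inr ⟨rfl, h5⟩)).and
    ((ev_le C (show Lt (-1 / 2) (bb m a) 0 (-bb m a) from Or.inl (by norm_num))).and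
    ((ev_le C (show Lt 0 (-bb m a) 0 (-a) from Or.inr ⟨rfl, by linarith⟩)).and
    ((ev_small C one_pos (show Lt 0 (-a) 0 0 from Or.inr ⟨rfl, by linarith⟩)).and
    (ev_le C (show Lt (-1 / 2) (1 + bb m a) 0 (-bb m a) from Or.inl (by norm_num)))))))))
  refine ⟨l0, fun D h0 h1 hl => ?_⟩
  obtain ⟨e1, e2, e3, e4, e5, e6, e7⟩ := hl0 D h0 h1 hl
  have e8 : Lam D * s0Of m a D = X (-1 / 2) (1 + bb m a) (Lam D) := by
    calc Lam D * s0Of m a D = X 0 1 (Lam D) * X (-1 / 2) (bb m a) (Lam D) := by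
          rw [s0Of_eq h0 h1, ← self_eq_X (Lam_pos h0 h1)]
      _ = _ := by rw [X_mul]; congr 1 <;> ring
  rw [hOf_eq h0 h1, tOf_eq h0 h1, blOf_eq h0 h1, s0Of_eq h0 h1, stOf_eq h0 h1, sqrt_D_eq h0]
  rw [s0Of_eq h0 h1] at e8
  rw [e8]
  exact ⟨e1, e2, e3, e4, e5, e6, e7⟩

/-- the window is long and its logarithmic part is small -/
theorem ev_T (m : ℕ) (a C : ℝ) : ∃ l0 : ℝ, ∀ D : ℝ, 0 < D → D < 1 → l0 ≤ Real.log (Lam D) →
    Lam D / 4 ≤ TOf m a D ∧ TOf m a D ≤ Lam D ∧ Real.exp (Real.log (Lam D) / 2) ≤ TOf m a D ∧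
      C * Real.log (Lam D) ≤ TOf m a D ∧ C ≤ Real.log (Lam D) ∧ C ≤ Lam D := by
  obtain ⟨l0, hl0⟩ := ev_l ((ev_lin (α := 1 / 4) (β := -(2 * bb m a)) 0
      (Or.inl (by norm_num))).and
    ((ev_lin (α := 1 / 4) (β := -C) 0 (Or.inl (by norm_num))).and
    ((ev_lin (α := 1 / 2) (β := 2 * bb m a) 0 (Or.inl (by norm_num))).and
    ((ev_const 16 (show Lt 0 0 0 1 from Or.inr ⟨rfl, one_pos⟩)).and
    ((ev_logΛ C).and (eventually_ge_atTop C))))))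
  refine ⟨l0, fun D h0 h1 hl => ?_⟩
  obtain ⟨e1, e2, e3, e4, e5, e6⟩ := hl0 D h0 h1 hl
  have hΛ := Lam_pos h0 h1
  rw [← self_eq_X hΛ] at e4
  have e7 : Lam D / 4 ≤ TOf m a D := by
    rw [TOf_eq h0 h1]
    linarith
  refine ⟨e7, ?_, ?_, ?_, e5, e6⟩
  · rw [TOf_eq h0 h1]
    linarith
  · refine le_trans ?_ e7
    have e8 : Real.exp (Real.log (Lam D) / 2) = √(Lam D) := by
      rw [Real.sqrt_eq_rpow, Real.rpow_def_of_pos hΛ]
      congr 1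
      ring
    rw [e8, Real.sqrt_le_left (by positivity)]
    nlinarith
  · linarith

/-- the tall number: `t^(2-m) (lam h^m) = cS Λ^-(2m+2)a D` -/
theorem tall_num (h0 : 0 < D) (h1 : D < 1) :
    tOf a D ^ ((2 : ℝ) - m) * (lamOf cS a D * hOf a D ^ m) =
      cS * X (-1) (-((2 * m + 2) * a)) (Lam D) := by
  rw [tOf_eq h0 h1, lamOf_eq h0 h1, hOf_eq h0 h1, X_rpow, X_pow, mul_assoc cS, X_mul,
    ← mul_assoc, mul_comm _ cS, mul_assoc, X_mul]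
  congr 2 <;> ring

/-- `Λ^-a (Λ^-(2m+2)a D) = Dmin ≤ ds (Λ^-(2m+2)a D)` -/
theorem Dmin_le (h0 : 0 < D) (h1 : D < 1) :
    Dmin m a D ≤ dsOf a δ D * X (-1) (-((2 * m + 2) * a)) (Lam D) := by
  have h2 : Dmin m a D = X 0 (-a) (Lam D) * X (-1) (-((2 * m + 2) * a)) (Lam D) := by
    rw [Dmin_eq h0 h1, X_mul]
    congr 1 <;> ring
  rw [h2]
  exact mul_le_mul_of_nonneg_right (le_dsOf h0 h1) (X_nonneg _ _ _)

/-- the error of (W3): `(C (q1 / s0² · D + q1 · D))² ≤ c Λ^-1 ds Dmin²` -/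
theorem ev_w3' (m : ℕ) {a : ℝ} (ha : 1 ≤ a) (C : ℝ) (hC : 0 ≤ C) {c : ℝ} (hc : 0 < c) :
    ∃ l0 : ℝ, ∀ D δ : ℝ, 0 < D → D < 1 → l0 ≤ Real.log (Lam D) →
      (C * (q1Of D * (D / s0Of m a D ^ 2 + D))) ^ 2 ≤
        c * (1 / Lam D) * dsOf a δ D * Dmin m a D ^ 2 := by
  have h4 : (0 : ℝ) ≤ m := Nat.cast_nonneg m
  have hb : (2 * m + 3) * a + (a + 1) / 2 + 3 ≤ 2 * bb m a - 2 := by
    unfold bb
    nlinarith
  have e1 := ev_le' (2 * C) (show (0 : ℝ) < √c from Real.sqrt_pos.2 hc)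
    (show Lt (-1) (2 - 2 * bb m a) (-1) (-((a + 1) / 2) - (2 * m + 3) * a) from
      Or.inr ⟨rfl, by linarith⟩)
  have e2 := ev_le' (2 * C) (show (0 : ℝ) < √c from Real.sqrt_pos.2 hc)
    (show Lt (-2) 2 (-1) (-((a + 1) / 2) - (2 * m + 3) * a) from Or.inl (by norm_num))
  obtain ⟨l0, hl0⟩ := ev_l (e1.and e2)
  refine ⟨l0, fun D δ h0 h1 hl => ?_⟩
  obtain ⟨e3, e4⟩ := hl0 D h0 h1 hl
  have hΛ := Lam_pos h0 h1
  have e5 : C * (q1Of D * (D / s0Of m a D ^ 2 + D)) =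
      C * X (-1) (2 - 2 * bb m a) (Lam D) + C * X (-2) 2 (Lam D) := by
    have e6 : q1Of D * (D / s0Of m a D ^ 2 + D) =
        X (-1) 2 (Lam D) * (X (-1) 0 (Lam D) / X (-1 / 2) (bb m a) (Lam D) ^ 2
          + X (-1) 0 (Lam D)) := by
      rw [← D_eq h0, q1Of_eq h0 h1, s0Of_eq h0 h1]
    rw [e6, X_pow, X_div, mul_add, X_mul, X_mul, mul_add]
    congr 2
    · congr 1 <;> push_cast <;> ring
    · congr 1 <;> ring
  have e7 : C * (q1Of D * (D / s0Of m a D ^ 2 + D)) ≤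
      √c * X (-1) (-((a + 1) / 2) - (2 * m + 3) * a) (Lam D) := by
    rw [e5]
    linarith
  have e8 : 0 ≤ C * (q1Of D * (D / s0Of m a D ^ 2 + D)) := by
    rw [e5]
    have := X_nonneg (-1) (2 - 2 * bb m a) (Lam D)
    have := X_nonneg (-2) 2 (Lam D)
    positivity
  refine (pow_le_pow_left₀ e8 e7 2).trans ?_
  rw [mul_pow, Real.sq_sqrt hc.le, X_pow, mul_assoc c, mul_assoc c]
  apply mul_le_mul_of_nonneg_left _ hc.le
  have e9 : X ((2 : ℕ) * -1) ((2 : ℕ) * (-((a + 1) / 2) - (2 * m + 3) * a)) (Lam D) =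
      1 / Lam D * X 0 (-a) (Lam D) * Dmin m a D ^ 2 := by
    have e10 : 1 / Lam D = X 0 (-1) (Lam D) := by
      rw [one_div]
      conv_lhs => rw [self_eq_X hΛ]
      rw [X_inv]
      congr 1
      ring
    rw [e10, Dmin_eq h0 h1, X_pow, X_mul, X_mul]
    congr 1 <;> push_cast <;> ring
  rw [e9]
  have e11 := le_dsOf (a := a) (δ := δ) h0 h1
  have e12 := Dmin_pos (m := m) (a := a) h0 h1
  gcongr

/-- the top of the window: `C (D st²) ≤ c Dmin` -/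
theorem ev_top' (m : ℕ) {a : ℝ} (ha : 1 ≤ a) (C : ℝ) {c : ℝ} (hc : 0 < c) (p : ℝ)
    (hp : p ≤ 100 * (m + 1) * (a + 1)) :
    ∃ l0 : ℝ, ∀ D : ℝ, 0 < D → D < 1 → l0 ≤ Real.log (Lam D) →
      C * (D * Lam D ^ p * stOf m a D ^ 2) ≤ c * Dmin m a D := by
  have h4 : (0 : ℝ) ≤ m := Nat.cast_nonneg m
  have hb : (2 * m + 3) * a + p < 2 * bb m a := by
    unfold bb
    nlinarith
  obtain ⟨l0, hl0⟩ := ev_l (ev_le' C hc
    (show Lt (-1) (p - 2 * bb m a) (-1) (-((2 * m + 3) * a)) from Or.inr ⟨rfl, by linarith⟩))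
  refine ⟨l0, fun D h0 h1 hl => ?_⟩
  have e1 := hl0 D h0 h1 hl
  have e2 : D * Lam D ^ p * stOf m a D ^ 2 = X (-1) (p - 2 * bb m a) (Lam D) := by
    rw [rpow_eq h0 h1, stOf_eq h0 h1]
    calc _ = X (-1) 0 (Lam D) * X 0 p (Lam D) * X 0 (-bb m a) (Lam D) ^ 2 := by rw [← D_eq h0]
      _ = _ := by
        rw [X_pow, X_mul, X_mul]
        congr 1 <;> push_cast <;> ring
  rw [e2, Dmin_eq h0 h1]
  exact e1

/-- the energy is small against the squares of the scales: `C Λ^p D ≤ s0²` -/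
theorem ev_s0 (m : ℕ) {a : ℝ} (ha : 1 ≤ a) (C p : ℝ) (hp : p ≤ 100 * (m + 1) * (a + 1)) :
    ∃ l0 : ℝ, ∀ D : ℝ, 0 < D → D < 1 → l0 ≤ Real.log (Lam D) →
      C * (Lam D ^ p * D) ≤ s0Of m a D ^ 2 := by
  have h4 : (0 : ℝ) ≤ m := Nat.cast_nonneg m
  have hb : p < 2 * bb m a := by
    unfold bb
    nlinarith
  obtain ⟨l0, hl0⟩ := ev_l (ev_le C
    (show Lt (-1) p (-1) (2 * bb m a) from Or.inr ⟨rfl, hb⟩))
  refine ⟨l0, fun D h0 h1 hl => ?_⟩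
  have e1 := hl0 D h0 h1 hl
  have e2 : Lam D ^ p * D = X (-1) p (Lam D) := by
    rw [rpow_eq h0 h1]
    calc _ = X 0 p (Lam D) * X (-1) 0 (Lam D) := by rw [← D_eq h0]
      _ = _ := by rw [X_mul]; congr 1 <;> ring
  have e3 : s0Of m a D ^ 2 = X (-1) (2 * bb m a) (Lam D) := by
    rw [s0Of_eq h0 h1, X_pow]
    congr 1 <;> push_cast <;> ring
  rw [e2, e3]
  exact e1

/-- `C D T ≤ q1` and `exp (l / 2) (C D T) ≤ q1` (field `hq1` of `CBase`) -/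
theorem ev_q1' (m : ℕ) (a : ℝ) {C : ℝ} (hC : 0 ≤ C) : ∃ l0 : ℝ, ∀ D : ℝ, 0 < D → D < 1 →
    l0 ≤ Real.log (Lam D) → Real.exp (Real.log (Lam D) / 2) * (C * D * TOf m a D) ≤ q1Of D := by
  obtain ⟨l1, hl1⟩ := ev_T m a 0
  obtain ⟨l0, hl0⟩ := ev_l (ev_le C (show Lt (-1) (3 / 2) (-1) 2 from
    Or.inr ⟨rfl, by norm_num⟩))
  refine ⟨max l0 l1, fun D h0 h1 hl => ?_⟩
  have e1 := hl0 D h0 h1 ((le_max_left _ _).trans hl)
  obtain ⟨-, e2, -⟩ := hl1 D h0 h1 ((le_max_right _ _).trans hl)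
  have hΛ := Lam_pos h0 h1
  rw [q1Of_eq h0 h1]
  refine le_trans ?_ e1
  have e3 : Real.exp (Real.log (Lam D) / 2) = X 0 (1 / 2) (Lam D) := by
    unfold X
    congr 1
    ring
  have e4 : X (-1) (3 / 2) (Lam D) = X 0 (1 / 2) (Lam D) * D * Lam D := by
    calc X (-1) (3 / 2) (Lam D) =
        X 0 (1 / 2) (Lam D) * X (-1) 0 (Lam D) * X 0 1 (Lam D) := by
          rw [X_mul, X_mul]
          congr 1 <;> ring
      _ = _ := by rw [← D_eq h0, ← self_eq_X hΛ]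
  rw [e3, e4]
  have h5 := X_nonneg 0 (1 / 2) (Lam D)
  calc X 0 (1 / 2) (Lam D) * (C * D * TOf m a D)
      ≤ X 0 (1 / 2) (Lam D) * (C * D * Lam D) := by gcongr
    _ = _ := by ring

end

end Crest.Agent.R234.Par_504
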