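import Crest.Agent.R234.Fldc5_387
import Crest.Agent.R234.Bds6_214
import Crest.Agent.R234.Core6_809
import Crest.Agent.R234.Par2_504

/-!
# Row 234 (helper387): `NBaseP` (target of NBASE in Core6_809)

`FldP`, `AtP` of helper214 from `Fldc5_387`, then `Bds_214.nBase_of`.
-/

set_option autoImplicit false

open MeasureTheory Set Filter Metric
open Crest.GeometryTopology.Submanifold
open Crest.Agent.R234.Core_809

noncomputable section

namespace Crest.Agent.R234.Fld_387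

variable {m n Q : ℕ} {K cS a : ℝ}

theorem da_eq (X : Sit m n a) : Bds_214.da Q K cS X = da X Q K cS := rfl

theorem fldP (hm : 2 ≤ m) (hK : 9 ≤ K) (hcS : 0 < cS) (ha : 1 ≤ a) :
    Bds_214.FldP m n Q K cS a := by
  obtain ⟨Cm, CR, Cb, Cn, l0, h1, h2, h3, h4, H⟩ := exists_fld m n Q hm hK hcS ha
  obtain ⟨l1, hl1⟩ := Par_504.ev_T m a 1
  refine ⟨Cm, CR, Cb, Cn, max l0 l1, h1, h2, h3, h4, fun X hX hl => ?_⟩
  obtain ⟨-, -, -, e4, -, -⟩ := hl1 X.D hX.D0 hX.D1 ((le_max_right _ _).trans hl)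
  rw [one_mul] at e4
  exact H X hX ((le_max_left _ _).trans hl) e4

/-- `Λ^-c D` as `exp (-(c log Λ)) D` -/
theorem D0f_eq (m : ℕ) (cS a : ℝ) {D : ℝ} (hD : 0 < D) (hD1 : D < 1) :
    D0f m cS a D = cD m cS * Real.exp (-((2 * m + 3) * a * Real.log (Lam D))) * D := by
  unfold D0f
  rw [Real.rpow_def_of_pos (Lam_pos hD hD1)]
  have : Real.log (Lam D) * -((2 * m + 3) * a) = -((2 * m + 3) * a * Real.log (Lam D)) := by ring
  rw [this]
  ring

theorem atP (hm : 2 ≤ m) (hK : 9 ≤ K) (hcS : 0 < cS) (ha : 1 ≤ a) :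
    Bds_214.AtP m n Q K cS a := by
  obtain ⟨A, C, l0, hA1, hA, hC, hl0, H⟩ := exists_sit m n Q hm hK hcS ha
  refine ⟨A, cD m cS, (2 * m + 3) * a, 1 / 3, 4, l0, hA, cD_pos (by lia) hcS, by norm_num,
    by norm_num, fun X hX hl => ?_⟩
  obtain ⟨h1, h2, h3, h4, h5, h6⟩ := H X hX hl
  refine ⟨h1.ok, fun x hx => ?_⟩
  obtain ⟨h7, h8⟩ := h6 x hx
  have h9 := h7.at' h1
  rw [D0f_eq m cS a hX.D0 hX.D1] at h8 h9
  exact ⟨h9, h8⟩

/-- **NBASE** -/
theorem nBaseP : NBaseP := by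
  intro m n Q hm _ _
  refine ⟨9, fun K hK cS a hcS ha => ?_⟩
  exact Bds_214.nBase_of hm ha (by linarith) (fldP (by lia) hK hcS ha) (atP (by lia) hK hcS ha)

end Crest.Agent.R234.Fld_387
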