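import Crest.Agent.R234.Nti1_309

/-!
Row 234, NTHIN-INST (helper309), file 2: `NThin` from `FactsP` and `N5Sit`.
-/

set_option autoImplicit false

open MeasureTheory Set Function Filter Topology Metric
open Crest.GeometryTopology.Submanifold
open Crest.Agent.R234.Vf_884 Crest.Agent.R234.Ar_870 Crest.Agent.R234.Cy_870
open Crest.Agent.R234.Pot_425 Crest.Agent.R234.Avg_387
open Crest.Agent.R234.Asl_214
open Crest.Agent.R234.Core_809 Crest.Agent.R234.Thin_561
open scoped ENNReal NNReal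

noncomputable section

namespace Crest.Agent.R234.Nti_309

variable {m n : ℕ} {a : ℝ} {Q : ℕ} {K cS : ℝ} {X : Sit m n a}

/-- the mass over `BB` is `MB` -/
theorem BB_real {k : ℕ} (W : Measure (Euc k × L k)) (π : Euc k →L[ℝ] Euc m) (y : Euc m) (l : ℝ) :
    (W (BB π y l)).toReal = MB W π y (Real.exp l) := by
  have h1 : (BB π y l : Set (Euc k × L k)) = ovr π y (Real.exp l) := by
    ext p
    rw [norm_lt_of_BB]
    rfl
  rw [h1]
  rfl

theorem MB_eq_mb {k : ℕ} (W : Measure (Euc k × L k)) (π : Euc k →L[ℝ] Euc m) (y : Euc m)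
    (l : ℝ) : Real.exp ((2 - m) * l) * MB W π y (Real.exp l) = Real.exp l ^ 2 * mb W π y l := by
  unfold mb
  rw [← mul_assoc, ← Real.exp_nat_mul, ← Real.exp_add]
  congr 2
  push_cast
  ring

/-- a power of `Λ` beats a constant -/
theorem rpow_small {L c' b κ : ℝ} (hL : 1 ≤ L) (hκ : 0 < κ) (hL2 : 1 / κ ≤ L) (h : c' + 1 ≤ b) :
    L ^ (-b) ≤ κ * L ^ (-c') := by
  have hL0 : 0 < L := by linarith
  have h1 : L ^ (-b) ≤ L ^ (-c' + -1) := Real.rpow_le_rpow_of_exponent_le hL (by linarith)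
  rw [Real.rpow_add hL0, Real.rpow_neg_one] at h1
  have h2 : L⁻¹ ≤ κ := by
    rw [inv_le_comm₀ hL0 hκ]
    rwa [one_div] at hL2
  have h3 : 0 ≤ L ^ (-c') := Real.rpow_nonneg hL0.le _
  calc L ^ (-b) ≤ L ^ (-c') * L⁻¹ := h1
    _ ≤ L ^ (-c') * κ := mul_le_mul_of_nonneg_left h2 h3
    _ = _ := mul_comm _ _

set_option maxHeartbeats 1000000 in
/-- **NTHIN** from the facts and N5 -/
theorem nThin_of (hm : 3 ≤ m) (ha : 1 ≤ a) (hF : FactsP m n Q K cS a)
    (hN : N5Sit m n Q K cS a) : NThin m n Q K cS a := by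
  intro kf ω hω
  have hMd : 0 < Md m := Md_pos (by lia)
  obtain ⟨ω', hω', δ', hδ', H⟩ := hThin (m := m) (d := m - 2) (K := 4) (c := cg0) (c₁ := cg1)
    (M := Md m) (by unfold cg0; norm_num) (by unfold cg1; norm_num) hMd (by lia) kf hω
  obtain ⟨θ, hθ, hN⟩ := hN ω' hω'
  obtain ⟨η, hη, l1, hN⟩ := hN (3 * kf)
  obtain ⟨η1, hη1, H⟩ := H η hη
  obtain ⟨CE, CM, c', hCE, hCM, hc', hcb, hF⟩ := hF
  obtain ⟨l2, hF⟩ := hF (ω / 4) (by positivity)
  have hCg : 0 < Cg (m - 2) cg0 (Md m) := by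
    unfold Cg cg0
    positivity
  set κ : ℝ := ω / (8 * (24 * Md m * CM + 1)) with hκ
  have hκ0 : 0 < κ := by positivity
  refine ⟨η1, hη1, max (max l1 l2) (max (max 0 (Real.log (1 / Cg (m - 2) cg0 (Md m))))
    (max (Real.log (1 / κ)) (Real.log (1 / δ')))), fun X hX hl => ?_⟩
  have hD := hX.D0
  have hD1 := hX.D1
  have hLp := Fld_387.Lam_pos hD hD1
  have hla : l1 ≤ Real.log (Lam X.D) := (le_max_left _ _).trans ((le_max_left _ _).trans hl)
  have hlb : l2 ≤ Real.log (Lam X.D) := (le_max_right _ _).trans ((le_max_left _ _).trans hl)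
  have hlc : 0 ≤ Real.log (Lam X.D) :=
    (le_max_left _ _).trans ((le_max_left _ _).trans ((le_max_right _ _).trans hl))
  have hld : 1 / Cg (m - 2) cg0 (Md m) ≤ Lam X.D := (Real.log_le_log_iff (by positivity) hLp).1
    ((le_max_right _ _).trans ((le_max_left _ _).trans ((le_max_right _ _).trans hl)))
  have hle : 1 / κ ≤ Lam X.D := (Real.log_le_log_iff (by positivity) hLp).1
    ((le_max_left _ _).trans ((le_max_right _ _).trans ((le_max_right _ _).trans hl)))
  have hlf : 1 / δ' ≤ Lam X.D := (Real.log_le_log_iff (by positivity) hLp).1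
    ((le_max_right _ _).trans ((le_max_right _ _).trans ((le_max_right _ _).trans hl)))
  have hΛ1 : 1 ≤ Lam X.D := Lam_ge_one le_rfl hD hD1 hlc
  have h := hF X hX hlb
  have hn5 := hN X hX hla
  have hδle : X.δ ≤ Lam X.D ^ (-1 : ℝ) :=
    hX.δ1.trans (Real.rpow_le_rpow_of_exponent_le hΛ1 (by norm_num))
  rw [Real.rpow_neg_one] at hδle
  have hδδ : X.δ ≤ δ' := by
    refine hδle.trans ?_
    rw [inv_le_comm₀ hLp hδ']
    rwa [one_div] at hlf
  have hδ1 : X.δ ≤ 1 := hδle.trans (inv_le_one_of_one_le₀ hΛ1)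
  have hr : 2 * (s0Of m a X.D / 2) = s0Of m a X.D := by ring
  have hL0T : L0 X + TT' X = Real.log (stOf m a X.D) := Par_504.log_s0Of_add_T hD hD1
  have eL : ∀ t, Real.log (2 * (X.cd Q K cS).r0) + t = L0 X + t := fun t => by
    change Real.log (2 * (s0Of m a X.D / 2)) + t = _
    rw [hr]
    rfl
  have hs0 := Par_504.s0Of_pos (m := m) (a := a) hD hD1
  have hst := Par_504.stOf_pos (m := m) (a := a) hD hD1
  have hsub : X.Z ⊆ closedBall (0 : Euc m) 2 := h.ball.trans (closedBall_subset_closedBall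
    (by norm_num))
  refine H (τ := tauOf a X.D) (θ := θ) (Qn := Q) (X := closedBall 0 2)
    (lmin := Real.log (s0Of m a X.D)) (lmax := Real.log (stOf m a X.D))
    (gm := fun _ => Lam X.D ^ (-(100 * (m + 1) * (a + 1))) * X.D) h.avs hn5 hsub ?_ ?_ hδδ
    ?_ ?_ ?_ ?_ ?_
  · rw [eL]
    change Real.log (s0Of m a X.D) ≤ Real.log (s0Of m a X.D) + Real.log (Lam X.D)
    linarith
  · rw [eL]
    exact hL0T.le
  · intro x hx t ht0 ht8
    rw [eL]
    have h1 := h.sE x hx (L0 X + t) (by linarith [show (ll X) ≤ t from ht0])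
      (by linarith [show t + 8 ≤ TT' X from ht8])
    have e1 : L0 X + t + 4 = t + 4 + Real.log (s0Of m a X.D) := by
      change Real.log (s0Of m a X.D) + t + 4 = _
      ring
    have e2 : (X.cd Q K cS).E x t = X.sE Q K x (L0 X + t) := by
      change X.sE Q K x (t + Real.log (s0Of m a X.D)) = X.sE Q K x (Real.log (s0Of m a X.D) + t)
      rw [add_comm]
    have e3 : (X.cd Q K cS).e x (t + 4) = X.se Q K cS x (L0 X + t + 4) := by
      rw [e1]
      rfl
    rw [e2, e3]
    exact h1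
  · intro x hx t ht0 htT
    rw [eL]
    have h1 := h.aR x hx (L0 X + t) (by linarith [show (ll X) ≤ t from ht0])
      (by linarith [show t ≤ TT' X from htT])
    have e2 : (X.cd Q K cS).R x t = X.sR Q K cS x (L0 X + t) := by
      change X.sR Q K cS x (t + Real.log (s0Of m a X.D)) =
        X.sR Q K cS x (Real.log (s0Of m a X.D) + t)
      rw [add_comm]
    rw [e2]
    exact h1
  · intro x hx t ht0 htT
    rw [eL]
    have h1 := h.ae x hx (L0 X + t) (by linarith [show (ll X) ≤ t from ht0])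
      (by linarith [show t ≤ TT' X from htT])
    have e2 : (X.cd Q K cS).e x t = X.se Q K cS x (L0 X + t) := by
      change X.se Q K cS x (t + Real.log (s0Of m a X.D)) =
        X.se Q K cS x (Real.log (s0Of m a X.D) + t)
      rw [add_comm]
    rw [e2]
    exact h1
  · intro x hx t ht0 ht8
    have h1 := h.low x hx (L0 X + (t + 4)) (by linarith [show (ll X) ≤ t from ht0])
      (by linarith [show t + 8 ≤ TT' X from ht8])
    have e2 : (X.cd Q K cS).e x (t + 4) = X.se Q K cS x (L0 X + (t + 4)) := by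
      change X.se Q K cS x (t + 4 + Real.log (s0Of m a X.D)) =
        X.se Q K cS x (Real.log (s0Of m a X.D) + (t + 4))
      rw [add_comm]
    rw [e2]
    have h2 := rpow_small hΛ1 hCg hld hcb
    calc Lam X.D ^ (-(100 * ((m:ℝ) + 1) * (a + 1))) * X.D ≤
        (Cg (m - 2) cg0 (Md m) * Lam X.D ^ (-c')) * X.D := mul_le_mul_of_nonneg_right h2 hD.le
      _ = Cg (m - 2) cg0 (Md m) * (Lam X.D ^ (-c') * X.D) := by ring
      _ ≤ _ := mul_le_mul_of_nonneg_left h1 hCg.le
  · intro x hx t ht0 ht8 y hy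
    rw [eL]
    have h1 := h.low x hx (L0 X + (t + 4)) (by linarith [show (ll X) ≤ t from ht0])
      (by linarith [show t + 8 ≤ TT' X from ht8])
    have e2 : (X.cd Q K cS).e x (t + 4) = X.se Q K cS x (L0 X + (t + 4)) := by
      change X.se Q K cS x (t + 4 + Real.log (s0Of m a X.D)) =
        X.se Q K cS x (Real.log (s0Of m a X.D) + (t + 4))
      rw [add_comm]
    rw [e2, BB_real, MB_eq_mb]
    have h2 := h.mb x hx (L0 X + t) (by linarith [show (ll X) ≤ t from ht0])
      (by linarith [show t + 8 ≤ TT' X from ht8]) y (by rwa [mem_closedBall_iff_norm])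
    have h3 : Real.exp (L0 X + t) ≤ stOf m a X.D := by
      rw [← Real.exp_log hst, ← hL0T]
      exact Real.exp_le_exp.2 (by linarith [show t + 8 ≤ TT' X from ht8])
    have hst1 : stOf m a X.D ≤ 1 := by
      have := h.avs.top
      have e3 : 2 * (s0Of m a X.D / 2) * Real.exp (TT' X) = stOf m a X.D := by
        have h5 := Par_504.exp_log_s0Of_add_T (m := m) (a := a) hD hD1
        rw [Real.exp_add, Real.exp_log hs0] at h5
        rw [hr]
        exact h5
      rwa [e3] at this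
    have h4 : Real.exp (L0 X + t) ^ 2 ≤ Lam X.D ^ (-(100 * ((m:ℝ) + 1) * (a + 1))) := by
      have e3 : stOf m a X.D = Lam X.D ^ (-(100 * ((m:ℝ) + 1) * (a + 1))) := rfl
      rw [← e3]
      calc Real.exp (L0 X + t) ^ 2 ≤ stOf m a X.D ^ 2 :=
            pow_le_pow_left₀ (Real.exp_pos _).le h3 2
        _ = stOf m a X.D * stOf m a X.D := by ring
        _ ≤ 1 * stOf m a X.D := mul_le_mul_of_nonneg_right hst1 hst.le
        _ = _ := one_mul _
    have h5 := rpow_small hΛ1 hκ0 hle hcb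
    have h6 : 0 ≤ Lam X.D ^ (-c') * X.D :=
      mul_nonneg (Real.rpow_nonneg hLp.le _) hD.le
    have h7 : √X.D ^ 2 = X.D := Real.sq_sqrt hD.le
    rw [h7]
    have h8 : Real.exp (L0 X + t) ^ 2 * mb X.V X.π y (L0 X + t) ≤
        (κ * Lam X.D ^ (-c')) * CM := mul_le_mul (h4.trans h5) h2 (mb_nonneg _ _)
          (mul_nonneg hκ0.le (Real.rpow_nonneg hLp.le _))
    have h9 : 0 ≤ Real.exp (L0 X + t) ^ 2 * mb X.V X.π y (L0 X + t) :=
      mul_nonneg (by positivity) (mb_nonneg _ _)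
    calc 6 * 4 * Md m * (X.δ * (X.D * (Real.exp (L0 X + t) ^ 2 * mb X.V X.π y (L0 X + t)))) ≤
        6 * 4 * Md m * (1 * (X.D * ((κ * Lam X.D ^ (-c')) * CM))) := by
          have := hX.δ0
          gcongr
      _ = (24 * Md m * CM * κ) * (Lam X.D ^ (-c') * X.D) := by ring
      _ ≤ (ω / 8) * (Lam X.D ^ (-c') * X.D) := by
          refine mul_le_mul_of_nonneg_right ?_ h6
          have e5 : (24 * Md m * CM + 1) * κ = ω / 8 := by
            rw [hκ]
            field_simp
          have e6 : 24 * Md m * CM * κ = (24 * Md m * CM + 1) * κ - κ := by ring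
          linarith
      _ ≤ _ := mul_le_mul_of_nonneg_left h1 (by positivity)

/-- **NTHIN** from N5 -/
theorem nThinP_of (hN : ∀ m n Q : ℕ, 3 ≤ m → 1 ≤ n → 1 ≤ Q → ∃ K0 : ℝ, ∀ K : ℝ, K0 ≤ K →
    ∀ cS a : ℝ, 0 < cS → 1 ≤ a → N5Sit m n Q K cS a) : NThinP := by
  intro m n Q hm hn hQ
  obtain ⟨K0, h⟩ := hN m n Q hm hn hQ
  exact ⟨max K0 9, fun K hK cS a hcS ha => nThin_of hm ha
    (factsP m n Q hm ((le_max_right _ _).trans hK) hcS ha)
    (h K ((le_max_left _ _).trans hK) cS a hcS ha)⟩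

end Crest.Agent.R234.Nti_309
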