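import Crest.Agent.R234.Thv7_561
import Crest.Agent.R234.Nti2_309

/-!
# Row 234 (helper561): the targets NTHIN and NLOC of the core

`nLocP : Core_809.NLocP`, `nThinP : Core_809.NThinP`.
-/

set_option autoImplicit false

noncomputable section

namespace Crest.Agent.R234.Thin_561

open Crest.Agent.R234.Core_809

/-- **NLOC** -/
theorem nLocP : NLocP := by
  intro m n Q hm hn hQ
  exact ⟨9, fun K hK cS a hcS ha => nLoc_of hm ha (Nti_309.factsP m n Q hm hK hcS ha)
    (n5Sit (by omega) ha)⟩

/-- **NTHIN** -/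
theorem nThinP : NThinP :=
  Nti_309.nThinP_of fun m n Q hm _ _ => ⟨0, fun K _ cS a _ ha => n5Sit (by omega) ha⟩

end Crest.Agent.R234.Thin_561
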