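import Crest.Agent.R234.Well14_761
import Crest.Agent.R234.Core6_809

/-!
Row 234, VF-N8AV (helper761), file 15: **`Core_809.NNetP`**.
-/

set_option autoImplicit false

namespace Crest.Agent.R234.Well_761

/-- **NNetP** : node N8 of the core, all parameters -/
theorem nNetP : Core_809.NNetP := fun m n Q hm _ hQ =>
  ⟨9, fun _ hK _ _ _ hcS ha hc1 => nnet m n Q hm hQ hK hcS ha hc1⟩

end Crest.Agent.R234.Well_761
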