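import Crest.Agent.R234.Core6_809
import Crest.Agent.R234.N0z_309
import Crest.Agent.R234.NBase_387
import Crest.Agent.R234.Thv8_561
import Crest.Agent.R234.Well15_761

/-!
# R234 / Core7_809 : `CoreProp` from `NRunP` (all other nodes are proved)
-/

set_option autoImplicit false

namespace Crest.Agent.R234.Core_809

/-- `CoreProp` from the node N9 (RUN) -/
theorem coreProp_of_nRun (hR : NRunP) : CoreProp :=
  coreProp_of N0_309.n0Prop Fld_387.nBaseP Thin_561.nThinP Thin_561.nLocP Well_761.nNetP hR

end Crest.Agent.R234.Core_809
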