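import Crest.Agent.R234.Rn3_870

/-!
# Row 234, N9-AV, part 5 (helper870): the numbers of `NRun`
-/

set_option autoImplicit false

open Filter Topology
open Crest.Agent.R234.Core_809
open Crest.Agent.R234.Par_504
open Crest.Agent.R234.Well_761 (etaC etaC_nonneg)

noncomputable section

namespace Crest.Agent.R234.Rn_870

theorem mul_Lam {D α β : ℝ} (h0 : 0 < D) (h1 : D < 1) :
    X α β (Lam D) * Lam D = X α (β + 1) (Lam D) := by
  nth_rewrite 2 [self_eq_X (Par_504.Lam_pos h0 h1)]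
  rw [X_mul, add_zero]

theorem beR_eq {m : ℕ} {a c D : ℝ} (h0 : 0 < D) (h1 : D < 1) (hc : 0 < c) :
    beR m a c D = 4 / √c * X 0 (-bb m a + (2 * m + 3) * a / 2) (Lam D) := by
  unfold beR
  rw [stOf_eq h0 h1, sqrt_D_eq h0, Dmin_eq h0 h1, Real.sqrt_mul hc.le, X_sqrt]
  have hs : 0 < √c := Real.sqrt_pos.2 hc
  have h2 : X 0 (-bb m a) (Lam D) * X (-1 / 2) 0 (Lam D) =
      X 0 (-bb m a + (2 * m + 3) * a / 2) (Lam D) * X (-1 / 2) (-((2 * m + 3) * a) / 2) (Lam D) := by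
    rw [X_mul, X_mul]
    congr 1
    ring
  have h3 := X_pos (-1 / 2) (-((2 * m + 3) * a) / 2) (Lam D)
  rw [mul_assoc 4, h2, ← mul_assoc, mul_div_mul_right _ _ h3.ne']
  exact mul_div_right_comm _ _ _

set_option maxHeartbeats 1000000 in
/-- **the numbers of NRUN** -/
theorem numRun (m : ℕ) {a : ℝ} (ha : 1 ≤ a) : NumRun m a := by
  intro C c M Cμ b η hC hc hc1 hM hCμ hb hη
  have hm : (0:ℝ) ≤ m := Nat.cast_nonneg m
  obtain ⟨B, hB⟩ : ∃ B : ℝ, B = bb m a := ⟨_, rfl⟩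
  obtain ⟨p, hp⟩ : ∃ p : ℝ, p = (2 * m + 3) * a := ⟨_, rfl⟩
  have hp0 : 0 ≤ p := by rw [hp]; positivity
  have hBp : p + 50 ≤ B := by
    rw [hB, hp]
    unfold bb
    nlinarith [mul_nonneg hm (by linarith : (0:ℝ) ≤ a)]
  have hsc : 0 < √c := Real.sqrt_pos.2 hc
  have hη0 := etaC_nonneg
  obtain ⟨G, hG⟩ : ∃ G : ℝ, G = 12 * (15 + etaC / 8) * Cμ := ⟨_, rfl⟩
  have hG0 : 0 ≤ G := by rw [hG]; positivity
  obtain ⟨A, hA⟩ : ∃ A : ℝ, A = We_822.CAS 12 1 1 Cμ := ⟨_, rfl⟩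
  have hA0 : 0 ≤ A := by
    rw [hA]
    exact We_822.CAS_nonneg (by norm_num) zero_le_one zero_le_one hCμ
  obtain ⟨l0, hl0⟩ := ev_l (
    (ev_le (64 / √c) (show Lt (1 / 2) (p / 2 - B) 1 0 from Or.inl (by norm_num))).and
    ((ev_le (M ^ 2 * C) (show Lt (-1) 2 (-1) (2 * B + 2) from Or.inr ⟨rfl, by linarith⟩)).and
    ((ev_le' (G * (4 / √c) ^ 2 * C) (show 0 < c / 3 by positivity)
      (show Lt (-1) (-4 + (2 * (-B + p / 2)) + 2) (-1) (-p) from Or.inr ⟨rfl, by linarith⟩)).and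
    ((ev_le' (G * 16 * C) (show 0 < c / 3 by positivity)
      (show Lt (-1) (-4 + (2 * -B) + 2) (-1) (-p) from Or.inr ⟨rfl, by linarith⟩)).and
    ((ev_le' (G * C) (show 0 < c / 3 by positivity)
      (show Lt (-2) (-2) (-1) (-p) from Or.inl (by norm_num))).and
    ((ev_small 4 one_pos (show Lt 0 (-3) 0 0 from Or.inr ⟨rfl, by norm_num⟩)).and
    ((ev_small A (show 0 < b / 2 by positivity) (show Lt 0 (-1) 0 0 from
      Or.inr ⟨rfl, by norm_num⟩)).and
    ((ev_small (A * (4 / √c)) (show 0 < b / 2 by positivity)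
      (show Lt 0 (-B + p / 2 + 1) 0 0 from Or.inr ⟨rfl, by linarith⟩)).and
    ((ev_small (3 * η) (show (0:ℝ) < 1 / 2 by norm_num)
      (show Lt (-1) (-3) 0 0 from Or.inl (by norm_num))).and
    ((ev_small 4 (show (0:ℝ) < 1 / 64 by norm_num)
      (show Lt 0 (-B) 0 0 from Or.inr ⟨rfl, by linarith⟩)).and
    ((ev_small 1 (show (0:ℝ) < 1 / 256 by norm_num)
      (show Lt (-1) 0 0 0 from Or.inl (by norm_num))).and
    ((eventually_ge_atTop (1 : ℝ)).and
    ((ev_small 1 one_pos (show Lt (-1) (-p) 0 0 from Or.inl (by norm_num))).and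
    ((ev_small (M ^ 2 * C) one_pos (show Lt (-1) 1 0 0 from Or.inl (by norm_num))).and
    ((ev_lin (α := 1 / 2) (β := 2 * B) 0 (Or.inl (by norm_num))).and
    (ev_lin (α := 1 / 2) (β := -(2 * B)) 0 (Or.inl (by norm_num))))))))))))))))))
  refine ⟨l0, fun D δ Ua UT h0 h1 hl hδ0 hδ hUa hUT0 hUT => ?_⟩
  obtain ⟨e1, e2, e3, e4, e5, e6, e7, e8, e9, e10, e11, e12, e13, e14, e15, e16⟩ := hl0 D h0 h1 hl
  have hΛ := Par_504.Lam_pos h0 h1
  have hT : TOf m a D ≤ Lam D := by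
    rw [TOf_eq h0 h1, ← hB]
    linarith
  have hTl := hT
  have hT0 : 0 ≤ TOf m a D := by
    rw [TOf_eq h0 h1, ← hB]
    linarith
  have hDe := D_eq h0
  have hUT' : UT ≤ C * X (-1) 0 (Lam D) := by rw [← hDe]; exact hUT
  have hδ' : δ ≤ X 0 (-4) (Lam D) := by rw [← rpow_eq h0 h1]; exact hδ
  -- `UT * T`
  have hXX : ∀ α β, 0 ≤ X α β (Lam D) := fun α β => X_nonneg α β _
  have hUTT : UT * TOf m a D ≤ C * X (-1) 1 (Lam D) := by
    calc UT * TOf m a D ≤ UT * Lam D := mul_le_mul_of_nonneg_left hTl hUT0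
      _ ≤ C * X (-1) 0 (Lam D) * Lam D := mul_le_mul_of_nonneg_right hUT' hΛ.le
      _ = _ := by rw [mul_assoc, mul_Lam h0 h1, zero_add]
  have hδΛ : δ * Lam D ≤ X 0 (-3) (Lam D) := by
    have h2 := mul_le_mul_of_nonneg_right hδ' hΛ.le
    rw [mul_Lam h0 h1] at h2
    norm_num at h2
    exact h2
  have hst : stOf m a D = X 0 (-B) (Lam D) := by rw [hB]; exact stOf_eq h0 h1
  have hs0 : s0Of m a D = X (-1 / 2) B (Lam D) := by rw [hB]; exact s0Of_eq h0 h1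
  have hDm : Dmin m a D = X (-1) (-p) (Lam D) := by rw [hp]; exact Dmin_eq h0 h1
  have hbe : beR m a c D = 4 / √c * X 0 (-B + p / 2) (Lam D) := by
    rw [beR_eq h0 h1 hc, hB, hp]
  have hsDm : √(c * Dmin m a D) = √c * X (-1 / 2) (-p / 2) (Lam D) := by
    rw [hDm, Real.sqrt_mul hc.le, X_sqrt]
  have hyp : 0 < √(c * Dmin m a D) := by
    rw [hsDm]; exact mul_pos hsc (X_pos _ _ _)
  have hsq : √(c * Dmin m a D) ≤ √Ua := Real.sqrt_le_sqrt hUa
  refine ⟨?_, ?_, ?_, ?_, ?_, ?_, ?_, ?_, e12, ?_, ?_⟩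
  · -- 1
    have hUa0 : 0 < √Ua := hyp.trans_le hsq
    have hst0 : 0 < stOf m a D := stOf_pos h0 h1
    rw [Real.log_le_iff_le_exp (by positivity)]
    have h2 : √c * X (-1 / 2) (-p / 2) (Lam D) ≤ M * √Ua := by
      rw [← hsDm]
      exact hsq.trans (le_mul_of_one_le_left hUa0.le hM)
    have h3 : 64 * stOf m a D / (M * √Ua) ≤
        64 * X 0 (-B) (Lam D) / (√c * X (-1 / 2) (-p / 2) (Lam D)) := by
      rw [hst]
      exact div_le_div_of_nonneg_left (by have := hXX 0 (-B); positivity)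
        (mul_pos hsc (X_pos _ _ _)) h2
    have h4 : 64 * X 0 (-B) (Lam D) / (√c * X (-1 / 2) (-p / 2) (Lam D)) =
        64 / √c * X (1 / 2) (p / 2 - B) (Lam D) := by
      rw [mul_div_mul_comm, X_div]
      congr 2 <;> ring
    have h5 : X 1 0 (Lam D) = Real.exp (Lam D) := by unfold X; congr 1; ring
    rw [h4] at h3
    rw [← h5]
    exact h3.trans e1
  · -- 2
    have h2 : (s0Of m a D * Lam D) ^ 2 = X (-1) (2 * B + 2) (Lam D) := by
      rw [hs0, mul_Lam h0 h1, X_pow]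
      congr 1 <;> push_cast <;> ring
    rw [h2]
    refine le_trans ?_ e2
    calc M ^ 2 * (UT * TOf m a D) * Lam D ≤ M ^ 2 * (C * X (-1) 1 (Lam D)) * Lam D := by gcongr
      _ = M ^ 2 * C * (X (-1) 1 (Lam D) * Lam D) := by ring
      _ = _ := by rw [mul_Lam h0 h1]; norm_num
  · -- 3
    refine le_trans ?_ hUa
    have h2 : thwR m a c Cμ δ D = G * δ * (beR m a c D ^ 2 + (4 * stOf m a D) ^ 2 + √D ^ 2) := by
      unfold thwR
      rw [hG]; ring
    have h3 : beR m a c D ^ 2 = (4 / √c) ^ 2 * X 0 (2 * (-B + p / 2)) (Lam D) := by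
      rw [hbe, mul_pow, X_pow]
      congr 2 <;> push_cast <;> ring
    have h4 : (4 * stOf m a D) ^ 2 = 16 * X 0 (2 * -B) (Lam D) := by
      rw [hst, mul_pow, X_pow]
      norm_num
    have h5 : √D ^ 2 = X (-1) 0 (Lam D) := by rw [Real.sq_sqrt h0.le]; exact hDe
    have h6 : Lam D * (UT * TOf m a D) ≤ C * X (-1) 2 (Lam D) := by
      calc Lam D * (UT * TOf m a D) ≤ Lam D * (C * X (-1) 1 (Lam D)) :=
            mul_le_mul_of_nonneg_left hUTT hΛ.le
        _ = C * (X (-1) 1 (Lam D) * Lam D) := by ring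
        _ = _ := by rw [mul_Lam h0 h1]; norm_num
    obtain ⟨Y, hY⟩ : ∃ Y : ℝ, Y = (4 / √c) ^ 2 * X 0 (2 * (-B + p / 2)) (Lam D) +
        16 * X 0 (2 * -B) (Lam D) + X (-1) 0 (Lam D) := ⟨_, rfl⟩
    have hY0 : 0 ≤ Y := by
      rw [hY]
      have := hXX 0 (2 * (-B + p / 2))
      have := hXX 0 (2 * -B)
      have := hXX (-1) 0
      positivity
    rw [h2, h3, h4, h5, ← hY]
    calc G * δ * Y * Lam D * (UT * TOf m a D) = G * Y * δ * (Lam D * (UT * TOf m a D)) := by ring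
      _ ≤ G * Y * X 0 (-4) (Lam D) * (C * X (-1) 2 (Lam D)) := by
          have h7 := hXX 0 (-4)
          have h8 := hXX (-1) 2
          have h9 : 0 ≤ Lam D * (UT * TOf m a D) := by
            exact mul_nonneg hΛ.le (mul_nonneg hUT0 hT0)
          gcongr
      _ = G * (4 / √c) ^ 2 * C * (X 0 (-4) (Lam D) * X 0 (2 * (-B + p / 2)) (Lam D) *
            X (-1) 2 (Lam D)) + G * 16 * C * (X 0 (-4) (Lam D) * X 0 (2 * -B) (Lam D) *
            X (-1) 2 (Lam D)) + G * C * (X 0 (-4) (Lam D) * X (-1) 0 (Lam D) *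
            X (-1) 2 (Lam D)) := by rw [hY]; ring
      _ = G * (4 / √c) ^ 2 * C * X (-1) (-4 + (2 * (-B + p / 2)) + 2) (Lam D) +
            G * 16 * C * X (-1) (-4 + (2 * -B) + 2) (Lam D) + G * C * X (-2) (-2) (Lam D) := by
          simp only [X_mul]
          norm_num
      _ ≤ c / 3 * X (-1) (-p) (Lam D) + c / 3 * X (-1) (-p) (Lam D) +
            c / 3 * X (-1) (-p) (Lam D) := add_le_add (add_le_add e3 e4) e5
      _ = c * Dmin m a D := by rw [hDm]; ring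
  · -- 4
    calc 4 * δ * Lam D = 4 * (δ * Lam D) := by ring
      _ ≤ 4 * X 0 (-3) (Lam D) := by gcongr
      _ ≤ 1 := e6
  · -- 5
    have h2 : √δ ≤ X 0 (-2) (Lam D) := by
      refine (Real.sqrt_le_sqrt hδ').trans (le_of_eq ?_)
      rw [X_sqrt]
      norm_num
    unfold thR
    rw [← hA, hbe]
    calc A * (√δ + 4 / √c * X 0 (-B + p / 2) (Lam D)) * Lam D ≤
        A * (X 0 (-2) (Lam D) + 4 / √c * X 0 (-B + p / 2) (Lam D)) * Lam D := by gcongr
      _ = A * (X 0 (-2) (Lam D) * Lam D) + A * (4 / √c) * (X 0 (-B + p / 2) (Lam D) * Lam D) := by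
          ring
      _ = A * X 0 (-1) (Lam D) + A * (4 / √c) * X 0 (-B + p / 2 + 1) (Lam D) := by
          rw [mul_Lam h0 h1, mul_Lam h0 h1]
          norm_num
      _ ≤ b / 2 + b / 2 := add_le_add e7 e8
      _ = b := by ring
  · -- 6
    calc η * (δ * D) * (3 * Lam D) = 3 * η * (D * (δ * Lam D)) := by ring
      _ ≤ 3 * η * (X (-1) 0 (Lam D) * X 0 (-3) (Lam D)) := by
          rw [← hDe]
          gcongr
      _ = 3 * η * X (-1) (-3) (Lam D) := by
          rw [X_mul]; norm_num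
      _ ≤ 1 / 2 := e9
  · rw [hst]; exact e10
  · rw [one_mul, ← hDe] at e11
    exact e11
  · rw [one_mul, ← hDm] at e13
    rw [show (1:ℝ) = √1 from Real.sqrt_one.symm]
    refine Real.sqrt_le_sqrt ?_
    have h2 := Dmin_pos (m := m) (a := a) h0 h1
    calc c * Dmin m a D ≤ 1 * 1 := mul_le_mul hc1 e13 h2.le zero_le_one
      _ = 1 := one_mul 1
  · -- 11
    calc M ^ 2 * (UT * TOf m a D) ≤ M ^ 2 * (C * X (-1) 1 (Lam D)) := by gcongr
      _ = M ^ 2 * C * X (-1) 1 (Lam D) := by ring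
      _ ≤ 1 := e14

end Crest.Agent.R234.Rn_870
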