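import Crest.Agent.R234.Rn2_870
import Crest.Agent.R234.Core5_809
import Crest.Agent.R234.Par2_504

/-!
# Row 234, N9-AV, part 3 (helper870): assembly of `NRun`

`USide` = what is used of `U, R', e` at a contact point, `DriftSide` = the drift of bumps,
`NumRun` = the numbers.  `nRun_of : UProp → DrProp → NumRun → NRun`.
-/

set_option autoImplicit false

open MeasureTheory Set Function Filter Topology Metric
open Crest.GeometryTopology.Submanifold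
open Crest.Agent.R234.Vf_884 Crest.Agent.R234.Ar_870 Crest.Agent.R234.Cy_870
open Crest.Agent.R234.Wi_870 Crest.Agent.R234.Asl_214
open Crest.Agent.R234.Avg_387 (CW av dd cw_dd Md integral_dd Md_pos eea RRa)
open Crest.Agent.R234.Core_809
open Crest.Agent.R234.N5_372 (eM)
open Crest.Agent.R234.Well_761 (etaC etaC_nonneg bump b1 WCfg wells)
open scoped ENNReal NNReal

noncomputable section

namespace Crest.Agent.R234.Rn_870

/-! ### the targets of the partner -/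

/-- what is used of `U, R', e` at the contact point `x` -/
structure USide {m n : ℕ} {a : ℝ} (Q : ℕ) (K cS : ℝ) (X : Sit m n a) (cU CU CR Ce : ℝ)
    (x : Euc m) : Prop where
  low : cU * Par_504.Dmin m a X.D ≤
    X.sU Q K cS x (Real.log (Lam X.D) + Real.log (s0Of m a X.D))
  up : X.sU Q K cS x (TOf m a X.D + Real.log (s0Of m a X.D)) ≤ CU * X.D
  R0 : ∀ l ∈ Icc (Real.log (s0Of m a X.D) + Real.log (Lam X.D) - Real.log 4)
      (Real.log (s0Of m a X.D) + TOf m a X.D + Real.log 4 + 1 / 2), 0 ≤ X.sR Q K cS x l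
  der : ∀ l ∈ Icc (Real.log (s0Of m a X.D) + Real.log (Lam X.D) - Real.log 4)
      (Real.log (s0Of m a X.D) + TOf m a X.D + Real.log 4 + 1 / 2),
      HasDerivAt (fun l => X.sU Q K cS x l) (X.sR Q K cS x l) l
  U0 : 0 ≤ X.sU Q K cS x (Real.log (s0Of m a X.D) + Real.log (Lam X.D) - Real.log 4)
  Ue : ∀ t ∈ Icc (Real.log (Lam X.D)) (TOf m a X.D),
    X.sU Q K cS x (Real.log (s0Of m a X.D) + t + Real.log 4 + 1 / 2) ≤
      CR * X.se Q K cS x (Real.log (s0Of m a X.D) + t + 3)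
  en : ∀ t ∈ Icc (Real.log (Lam X.D)) (TOf m a X.D),
    (enOf X.V X.π X.κ (Well_761.cyl x (17 * Real.exp (Real.log (s0Of m a X.D) + t))
      univ)).toReal ≤
      Ce * Real.exp (m * (Real.log (s0Of m a X.D) + t)) *
        Real.exp (-(2 * (Real.log (s0Of m a X.D) + t))) *
        X.se Q K cS x (Real.log (s0Of m a X.D) + t + 3)

/-- **target (A)** -/
def UProp (m n Q : ℕ) (K cS a : ℝ) : Prop :=
  ∃ cU CU CR Ce l0 : ℝ, 0 < cU ∧ 0 ≤ CU ∧ 0 ≤ CR ∧ 0 ≤ Ce ∧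
    ∀ X : Sit m n a, IsSit Q K cS X → l0 ≤ Real.log (Lam X.D) → ∀ x ∈ X.Z,
      USide Q K cS X cU CU CR Ce x

/-- **target (B)** -/
def DrProp (m n Q : ℕ) (K cS a : ℝ) : Prop :=
  ∃ C₄ C₆ : ℝ, 0 < C₄ ∧ 0 ≤ C₆ ∧ ∀ c η : ℝ, 0 < c → 0 < η → ∃ l0 : ℝ,
    ∀ X : Sit m n a, IsSit Q K cS X → l0 ≤ Real.log (Lam X.D) → ∀ x ∈ X.Z, ∀ q : ℝ, 0 < q →
      q ≤ 1 → c * Par_504.Dmin m a X.D ≤ q ^ 2 →
      ∃ θ₂ : ℝ, 0 ≤ θ₂ ∧ θ₂ * (TOf m a X.D + 4) ≤ η ∧ ∀ p : Euc n,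
        ∀ l ∈ Icc (Real.log (s0Of m a X.D) + Real.log (Lam X.D) - Real.log 4)
          (Real.log (s0Of m a X.D) + TOf m a X.D + Real.log 4),
          ∃ d, HasDerivAt (fun l => Nav (dd m (tauOf a X.D)) X.V X.π X.κ w0.θ' x l (bump p q)) d l ∧
            |d| ≤ C₄ * q * √(X.sR Q K cS x l + X.sR Q K cS x (l + 1 / 2)) +
              C₆ * (X.sR Q K cS x l + X.sR Q K cS x (l + 1 / 2)) + θ₂ * q ^ 2

/-! ### the numbers -/

/-- `b h₀ st / q` -/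
def beR (m : ℕ) (a c D : ℝ) : ℝ := 4 * stOf m a D * √D / √(c * Par_504.Dmin m a D)

def thR (m : ℕ) (a c Cμ δ D : ℝ) : ℝ := We_822.CAS 12 1 1 Cμ * (√δ + beR m a c D)

def thwR (m : ℕ) (a c Cμ δ D : ℝ) : ℝ :=
  12 * (15 + etaC / 8) * δ * Cμ * (beR m a c D ^ 2 + (4 * stOf m a D) ^ 2 + √D ^ 2)

/-- the numbers of NRUN (504) -/
def NumRun (m : ℕ) (a : ℝ) : Prop :=
  ∀ C c M Cμ b η : ℝ, 0 ≤ C → 0 < c → c ≤ 1 → 1 ≤ M → 0 ≤ Cμ → 0 < b → 0 < η →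
    ∃ l0 : ℝ, ∀ D δ Ua UT : ℝ, 0 < D → D < 1 → l0 ≤ Real.log (Lam D) → 0 ≤ δ →
      δ ≤ Lam D ^ (-4 : ℝ) → c * Par_504.Dmin m a D ≤ Ua → 0 ≤ UT → UT ≤ C * D →
      Real.log (64 * stOf m a D / (M * √Ua)) ≤ Lam D ∧
      M ^ 2 * (UT * TOf m a D) * Lam D ≤ (s0Of m a D * Lam D) ^ 2 ∧
      thwR m a c Cμ δ D * Lam D * (UT * TOf m a D) ≤ Ua ∧
      4 * δ * Lam D ≤ 1 ∧
      thR m a c Cμ δ D * Lam D ≤ b ∧
      η * (δ * D) * (3 * Lam D) ≤ 1 / 2 ∧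
      4 * stOf m a D ≤ 1 / 64 ∧ D ≤ 1 / 256 ∧ 1 ≤ Lam D ∧ √(c * Par_504.Dmin m a D) ≤ 1 ∧
      M ^ 2 * (UT * TOf m a D) ≤ 1

end Crest.Agent.R234.Rn_870
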