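import Crest.Agent.R234.Rni3_98
import Crest.Agent.R234.Rn3_870

/-!
# Row 234 (helper98): NRUN-INST, the literal targets `UProp`, `DrProp` of `Rn3_870`
-/

set_option autoImplicit false

open MeasureTheory Set Function Filter Topology Metric
open Crest.GeometryTopology.Submanifold
open Crest.Agent.R234.Vf_884 Crest.Agent.R234.Ar_870 Crest.Agent.R234.Cy_870
open Crest.Agent.R234.Wi_870 Crest.Agent.R234.Asl_214
open Crest.Agent.R234.Avg_387 (CW av dd cw_dd Md integral_dd Md_pos eea RRa)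
open Crest.Agent.R234.Core_809
open scoped ENNReal NNReal

noncomputable section

namespace Crest.Agent.R234.Rni_98

variable {m n : ℕ} {a : ℝ}

theorem USide.conv {c C CR Ce : ℝ} {X : Sit m n a} {Q : ℕ} {K cS : ℝ} {x : Euc m}
    (h : USide c C CR Ce X Q K cS x) (hT : -4 ≤ TOf m a X.D) :
    Rn_870.USide Q K cS X c C CR Ce x where
  low := h.Ulow
  up := h.Uup _ hT (by linarith)
  R0 := h.R0
  der := fun l hl => by
    have h1 := h.dU l hl
    have e1 : (fun l => X.sU Q K cS x (l - Real.log (s0Of m a X.D) + Real.log (s0Of m a X.D))) =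
        fun l => X.sU Q K cS x l := by
      funext u
      rw [sub_add_cancel]
    rwa [e1] at h1
  U0 := by
    have h1 := h.U0
    have e1 : Real.log (Lam X.D) - Real.log 4 + Real.log (s0Of m a X.D) =
      Real.log (s0Of m a X.D) + Real.log (Lam X.D) - Real.log 4 := by ring
    rwa [e1] at h1
  Ue := fun t ht => by
    have h1 := h.Ue t ht
    have e1 : t + Real.log 4 + 1 / 2 + Real.log (s0Of m a X.D) =
      Real.log (s0Of m a X.D) + t + Real.log 4 + 1 / 2 := by ring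
    have e2 : t + 3 + Real.log (s0Of m a X.D) = Real.log (s0Of m a X.D) + t + 3 := by ring
    rwa [e1, e2] at h1
  en := fun t ht => by
    have h1 := h.he t ht
    have e2 : t + 3 + Real.log (s0Of m a X.D) = Real.log (s0Of m a X.D) + t + 3 := by ring
    rwa [e2] at h1

theorem uProp (m n Q : ℕ) (hm : 2 ≤ m) {K cS a : ℝ} (hK : 9 ≤ K) (hcS : 0 < cS)
    (ha : 1 ≤ a) : Rn_870.UProp m n Q K cS a := by
  obtain ⟨c, C, CR, Ce, C4, C6, hc, hC, hCR, hCe, hC4, hC6, h⟩ := exists_run m n Q hm hK hcS ha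
  obtain ⟨l0, hl0, hX⟩ := h 1 1 one_pos one_pos
  obtain ⟨l1, hl1⟩ := Par_504.ev_T m a 1
  refine ⟨c, C, CR, Ce, max l0 l1, hc, hC.le, hCR.le, hCe, fun X hXs hl x hx => ?_⟩
  obtain ⟨-, -, hT3, -, -, -⟩ := hl1 X.D hXs.D0 hXs.D1 ((le_max_right _ _).trans hl)
  obtain ⟨θ₂, -, -, h1⟩ := hX X hXs ((le_max_left _ _).trans hl)
  refine (h1 x hx).1.conv ?_
  have := Real.exp_pos (Real.log (Lam X.D) / 2)
  linarith

theorem drProp (m n Q : ℕ) (hm : 2 ≤ m) {K cS a : ℝ} (hK : 9 ≤ K) (hcS : 0 < cS)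
    (ha : 1 ≤ a) : Rn_870.DrProp m n Q K cS a := by
  obtain ⟨c, C, CR, Ce, C4, C6, hc, hC, hCR, hCe, hC4, hC6, h⟩ := exists_run m n Q hm hK hcS ha
  refine ⟨C4, C6, hC4, hC6, fun c' η hc' hη => ?_⟩
  obtain ⟨l0, hl0, hX⟩ := h c' η hc' hη
  refine ⟨l0, fun X hXs hl x hx q hq _ hcq => ?_⟩
  obtain ⟨θ₂, h2, h3, h1⟩ := hX X hXs hl
  exact ⟨θ₂, h2, h3, fun p l hlI => (h1 x hx).2 q hq hcq l hlI p⟩

/-- **both targets** -/
theorem udr : ∀ m n Q : ℕ, 3 ≤ m → 1 ≤ n → 1 ≤ Q → ∃ K0 : ℝ, ∀ K : ℝ, K0 ≤ K → ∀ cS a : ℝ,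
    0 < cS → 1 ≤ a → Rn_870.UProp m n Q K cS a ∧ Rn_870.DrProp m n Q K cS a :=
  fun m n Q hm _ _ => ⟨9, fun _ hK _ _ hcS ha =>
    ⟨uProp m n Q (by lia) hK hcS ha, drProp m n Q (by lia) hK hcS ha⟩⟩

end Crest.Agent.R234.Rni_98
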