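import Crest.Agent.R234.Rn4_870
import Crest.Agent.R234.Rn5_870
import Crest.Agent.R234.Rni4_98
import Crest.Agent.R234.Core6_809

/-!
# Row 234, N9-AV, part 6 (helper870): `nRunP : NRunP`
-/

set_option autoImplicit false

noncomputable section

namespace Crest.Agent.R234.Rn_870

/-- **NODE NRUN** -/
theorem nRunP : Core_809.NRunP := by
  intro m n Q hm hn hQ
  obtain ⟨K0, h⟩ := Rni_98.udr m n Q hm hn hQ
  refine ⟨K0, fun K hK cS a hcS ha => ?_⟩
  obtain ⟨h1, h2⟩ := h K hK cS a hcS ha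
  exact nRun_of hm hcS ha h1 h2 (numRun m ha)

end Crest.Agent.R234.Rn_870
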