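import Crest.Agent.R234.Core7_809
import Crest.Agent.R234.Rn6_870

/-!
# R234 / Core8_809 : the core, `CoreProp`, is proved
-/

set_option autoImplicit false

namespace Crest.Agent.R234.Core_809

/-- **THE CORE** -/
theorem coreProp : CoreProp := coreProp_of_nRun Rn_870.nRunP

end Crest.Agent.R234.Core_809
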