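import Mathlib

/-!
Vague convergence of measures on an open subset `O` of a proper metric space `X`, along an
arbitrary filter (row 234, helper914): existence of limits along ultrafilters, semicontinuity on
open / compact sets, convergence on sets of null frontier.
-/

set_option autoImplicit false
set_option linter.unusedSectionVars false

open MeasureTheory Filter Topology Set
open scoped CompactlySupported ENNReal

namespace Crest.Agent.R234.Cp914

section Functional

variable {Y : Type*} [TopologicalSpace Y] [T2Space Y] [MeasurableSpace Y] [BorelSpace Y]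

theorem bounded_cc (f : C_c(Y, ℝ)) : ∃ C : ℝ, 0 ≤ C ∧ ∀ x, |f x| ≤ C := by
  obtain ⟨C, hC⟩ := f.hasCompactSupport.exists_bound_of_continuous f.continuous
  exact ⟨max C 0, le_max_right _ _, fun x => (hC x).trans (le_max_left _ _)⟩

theorem integrable_cc' {f : Y → ℝ} (hf : Continuous f) (hc : HasCompactSupport f) (μ : Measure Y)
    (h : μ (tsupport f) < ∞) : Integrable f μ := by
  obtain ⟨C, hC⟩ := hc.exists_bound_of_continuous hf
  rw [← integrableOn_iff_integrable_of_support_subset (subset_tsupport f)]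
  exact Measure.integrableOn_of_bounded h.ne
    (hf.stronglyMeasurable_of_hasCompactSupport hc).aestronglyMeasurable
    (Eventually.of_forall hC)

theorem abs_integral_cc_le {f : Y → ℝ} (μ : Measure Y)
    (h : μ (tsupport f) < ∞) {C : ℝ} (hC : ∀ x, |f x| ≤ C) :
    |∫ x, f x ∂μ| ≤ C * (μ (tsupport f)).toReal := by
  have h1 : ∫ x in tsupport f, f x ∂μ = ∫ x, f x ∂μ :=
    setIntegral_eq_integral_of_forall_compl_eq_zero fun x hx => image_eq_zero_of_notMem_tsupport hx
  rw [← h1]
  have := norm_setIntegral_le_of_norm_le_const (μ := μ) (s := tsupport f) (f := f) (C := C) h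
    (fun x _ => by simpa [Real.norm_eq_abs] using hC x)
  simpa [Real.norm_eq_abs, Measure.real] using this

/-- the limit functional along an ultrafilter. -/
theorem exists_functional {ι : Type*} (U : Ultrafilter ι) (μ : ι → Measure Y)
    (hb : ∀ K : Set Y, IsCompact K → ∃ C : ℝ, ∀ᶠ i in (U : Filter ι), μ i K ≤ ENNReal.ofReal C) :
    ∃ Λ : C_c(Y, ℝ) →ₚ[ℝ] ℝ,
      ∀ f : C_c(Y, ℝ), Tendsto (fun i => ∫ x, f x ∂(μ i)) U (𝓝 (Λ f)) := by
  have hint : ∀ f : C_c(Y, ℝ), ∀ᶠ i in (U : Filter ι), Integrable (fun x => f x) (μ i) := by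
    intro f
    obtain ⟨C, hC⟩ := hb _ f.hasCompactSupport
    exact hC.mono fun i hi =>
      integrable_cc' f.continuous f.hasCompactSupport _ (hi.trans_lt ENNReal.ofReal_lt_top)
  have key : ∀ f : C_c(Y, ℝ), ∃ a : ℝ, Tendsto (fun i => ∫ x, f x ∂(μ i)) U (𝓝 a) := by
    intro f
    obtain ⟨C, hC0, hC⟩ := bounded_cc f
    obtain ⟨M, hM⟩ := hb _ f.hasCompactSupport
    have hmem : ∀ᶠ i in (U : Filter ι),
        (∫ x, f x ∂(μ i)) ∈ Set.Icc (-(C * max M 0)) (C * max M 0) := by
      refine hM.mono fun i hi => abs_le.1 ?_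
      refine (abs_integral_cc_le (μ i) (hi.trans_lt ENNReal.ofReal_lt_top) hC).trans ?_
      refine mul_le_mul_of_nonneg_left ?_ hC0
      refine (ENNReal.toReal_mono ENNReal.ofReal_ne_top hi).trans ?_
      rw [ENNReal.toReal_ofReal']
    have hle : (U.map (fun i => ∫ x, f x ∂(μ i)) : Filter ℝ) ≤
        𝓟 (Set.Icc (-(C * max M 0)) (C * max M 0)) := by
      rw [le_principal_iff]
      exact hmem
    obtain ⟨a, -, ha⟩ := isCompact_Icc.ultrafilter_le_nhds _ hle
    exact ⟨a, ha⟩
  choose L hL using key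
  have hadd : ∀ f g : C_c(Y, ℝ), L (f + g) = L f + L g := by
    intro f g
    refine tendsto_nhds_unique (hL (f + g)) ?_
    refine ((hL f).add (hL g)).congr' ?_
    filter_upwards [hint f, hint g] with i h1 h2
    rw [← integral_add h1 h2]
    rfl
  have hsmul : ∀ (c : ℝ) (f : C_c(Y, ℝ)), L (c • f) = c * L f := by
    intro c f
    refine tendsto_nhds_unique (hL (c • f)) ?_
    refine ((hL f).const_mul c).congr fun i => ?_
    rw [← integral_const_mul]
    rfl
  refine ⟨PositiveLinearMap.mk₀
    { toFun := L, map_add' := hadd, map_smul' := fun c f => by simpa using hsmul c f } ?_,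
    fun f => hL f⟩
  intro f hf
  refine ge_of_tendsto' (hL f) fun i => ?_
  exact integral_nonneg fun x => hf x

/-- vague limits along ultrafilters, locally bounded masses. -/
theorem exists_regular_limit [LocallyCompactSpace Y] {ι : Type*} (U : Ultrafilter ι)
    (μ : ι → Measure Y)
    (hb : ∀ K : Set Y, IsCompact K → ∃ C : ℝ, ∀ᶠ i in (U : Filter ι), μ i K ≤ ENNReal.ofReal C) :
    ∃ ν : Measure Y, ν.Regular ∧
      ∀ f : C_c(Y, ℝ), Tendsto (fun i => ∫ x, f x ∂(μ i)) U (𝓝 (∫ x, f x ∂ν)) := by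
  obtain ⟨Λ, hΛ⟩ := exists_functional U μ hb
  exact ⟨RealRMK.rieszMeasure Λ, inferInstance, fun f => by simpa using hΛ f⟩

end Functional

variable {X : Type*} [MetricSpace X] [ProperSpace X] [MeasurableSpace X] [BorelSpace X]

/-- vague convergence inside the open set `O` along the filter `F`. -/
structure VConv {ι : Type*} (O : Set X) (F : Filter ι) (μ : ι → Measure X) (ν : Measure X) :
    Prop where
  fin : ∀ K ⊆ O, IsCompact K → ∀ᶠ i in F, μ i K < ∞
  fin' : ∀ K ⊆ O, IsCompact K → ν K < ∞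
  tendsto : ∀ f : X → ℝ, Continuous f → HasCompactSupport f → tsupport f ⊆ O →
    Tendsto (fun i => ∫ x, f x ∂(μ i)) F (𝓝 (∫ x, f x ∂ν))

theorem VConv.mono {ι : Type*} {O : Set X} {F G : Filter ι} {μ : ι → Measure X} {ν : Measure X}
    (h : VConv O F μ ν) (hG : G ≤ F) : VConv O G μ ν :=
  ⟨fun K hK hc => hG (h.fin K hK hc), h.fin', fun f a b c => (h.tendsto f a b c).mono_left hG⟩

theorem VConv.mono_set {ι : Type*} {O O' : Set X} {F : Filter ι} {μ : ι → Measure X}
    {ν : Measure X} (h : VConv O F μ ν) (hO : O' ⊆ O) : VConv O' F μ ν :=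
  ⟨fun K hK hc => h.fin K (hK.trans hO) hc, fun K hK hc => h.fin' K (hK.trans hO) hc,
    fun f a b c => h.tendsto f a b (c.trans hO)⟩

/-- **Existence of vague limits along ultrafilters.** -/
theorem exists_vconv {ι : Type*} {O : Set X} (hO : IsOpen O) (U : Ultrafilter ι)
    (μ : ι → Measure X)
    (hb : ∀ K ⊆ O, IsCompact K → ∃ C : ℝ, ∀ᶠ i in (U : Filter ι), μ i K ≤ ENNReal.ofReal C) :
    ∃ ν : Measure X, ν Oᶜ = 0 ∧ VConv O U μ ν := by
  have : LocallyCompactSpace O := hO.locallyCompactSpace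
  have hemb : MeasurableEmbedding (Subtype.val : O → X) :=
    MeasurableEmbedding.subtype_coe hO.measurableSet
  obtain ⟨ν, hreg, hν⟩ := exists_regular_limit U (fun i => (μ i).comap (Subtype.val : O → X))
    (by
      intro K hK
      obtain ⟨C, hC⟩ := hb (Subtype.val '' K) (by rintro _ ⟨x, -, rfl⟩; exact x.2)
        (hK.image continuous_subtype_val)
      refine ⟨C, hC.mono fun i hi => ?_⟩
      rwa [hemb.comap_apply])
  refine ⟨ν.map Subtype.val, ?_, ?_, ?_, ?_⟩
  · rw [hemb.map_apply]
    have : (Subtype.val : O → X) ⁻¹' Oᶜ = ∅ := by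
      ext x; simp
    simp [this]
  · intro K hK hc
    obtain ⟨C, hC⟩ := hb K hK hc
    exact hC.mono fun i hi => hi.trans_lt ENNReal.ofReal_lt_top
  · intro K hK hc
    rw [hemb.map_apply]
    have : IsCompact ((Subtype.val : O → X) ⁻¹' K) :=
      (Topology.IsInducing.subtypeVal.isCompact_preimage_iff (by simpa using hK)).2 hc
    exact this.measure_lt_top
  · intro f hf hc hs
    have hgc : HasCompactSupport (fun x : O => f x) := by
      refine HasCompactSupport.intro
        (K := (Subtype.val : O → X) ⁻¹' tsupport f) ?_ fun x hx => ?_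
      · exact (Topology.IsInducing.subtypeVal.isCompact_preimage_iff (by simpa using hs)).2 hc
      · exact image_eq_zero_of_notMem_tsupport hx
    have h1 := hν ⟨⟨fun x : O => f x, hf.comp continuous_subtype_val⟩, hgc⟩
    have h2 : ∫ x, f x ∂(ν.map Subtype.val) = ∫ x : O, f x ∂ν := hemb.integral_map _
    rw [h2]
    refine h1.congr fun i => ?_
    change ∫ x : O, f x ∂(μ i).comap Subtype.val = _
    rw [integral_subtype_comap hO.measurableSet]
    exact setIntegral_eq_integral_of_forall_compl_eq_zero fun x hx =>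
      image_eq_zero_of_notMem_tsupport fun h => hx (hs h)

/-- cutoff functions. -/
theorem exists_cut {K O : Set X} (hK : IsCompact K) (hO : IsOpen O) (hKO : K ⊆ O) :
    ∃ f : X → ℝ, Continuous f ∧ HasCompactSupport f ∧ tsupport f ⊆ O ∧ (∀ x ∈ K, f x = 1) ∧
      (∀ x, 0 ≤ f x) ∧ ∀ x, f x ≤ 1 := by
  obtain ⟨f, hf1, hf2, hf3, hf4⟩ := exists_continuousMap_one_of_isCompact_subset_isOpen hK hO hKO
  exact ⟨f, f.continuous, hf2, hf3, fun x hx => hf1 hx, fun x => (hf4 x).1, fun x => (hf4 x).2⟩

end Crest.Agent.R234.Cp914
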