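import Crest.Agent.R234.Cp1_914

/-!
Semicontinuity and convergence of integrals under vague convergence (row 234, helper914).
-/

set_option autoImplicit false
set_option linter.unusedSectionVars false

open MeasureTheory Filter Topology Set
open scoped CompactlySupported ENNReal

namespace Crest.Agent.R234.Cp914

variable {X : Type*} [MetricSpace X] [ProperSpace X] [MeasurableSpace X] [BorelSpace X]

/-- inner regularity on open sets, any measure. -/
theorem exists_compact_lt (ν : Measure X) {W : Set X} (hW : IsOpen W) {a : ℝ≥0∞}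
    (ha : a < ν W) : ∃ K ⊆ W, IsCompact K ∧ a < ν K := by
  rcases isEmpty_or_nonempty X with hX | ⟨⟨x0⟩⟩
  · rw [eq_empty_of_isEmpty W] at ha ⊢
    exact ⟨∅, subset_rfl, isCompact_empty, ha⟩
  obtain ⟨C, hC, hCW, hU, hmono⟩ := hW.exists_iUnion_isClosed
  let K : ℕ → Set X := fun n => C n ∩ Metric.closedBall x0 n
  have hKmono : Monotone K := fun a b hab => inter_subset_inter (hmono hab)
    (Metric.closedBall_subset_closedBall (by exact_mod_cast hab))
  have hKU : ⋃ n, K n = W := by
    refine subset_antisymm (iUnion_subset fun n => inter_subset_left.trans (hCW n)) fun x hx => ?_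
    rw [← hU] at hx
    obtain ⟨n, hn⟩ := mem_iUnion.1 hx
    obtain ⟨m, hm⟩ := exists_nat_ge (dist x x0)
    refine mem_iUnion.2 ⟨max n m, hmono (le_max_left _ _) hn, ?_⟩
    rw [Metric.mem_closedBall]
    exact hm.trans (by exact_mod_cast le_max_right n m)
  rw [← hKU, hKmono.measure_iUnion] at ha
  obtain ⟨n, hn⟩ := lt_iSup_iff.1 ha
  exact ⟨K n, inter_subset_left.trans (hCW n), (isCompact_closedBall x0 n).inter_left (hC n), hn⟩

theorem exists_compact_add (ν : Measure X) {W : Set X} (hW : IsOpen W) (hfin : ν W ≠ ∞)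
    {ε : ℝ≥0∞} (hε : ε ≠ 0) : ∃ K ⊆ W, IsCompact K ∧ ν W ≤ ν K + ε := by
  rcases eq_or_ne (ν W) 0 with h0 | h0
  · exact ⟨∅, empty_subset _, isCompact_empty, by simp [h0]⟩
  obtain ⟨K, hKW, hK, hlt⟩ := exists_compact_lt ν hW (ENNReal.sub_lt_self hfin h0 hε)
  exact ⟨K, hKW, hK, tsub_le_iff_right.1 hlt.le⟩

/-- outer regularity on compact sets. -/
theorem exists_open_lt {O : Set X} (hO : IsOpen O) (ν : Measure X)
    (hν : ∀ K ⊆ O, IsCompact K → ν K < ∞) {K : Set X} (hK : IsCompact K) (hKO : K ⊆ O)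
    {a : ℝ≥0∞} (ha : ν K < a) : ∃ W, IsOpen W ∧ K ⊆ W ∧ W ⊆ O ∧ IsCompact (closure W) ∧
      closure W ⊆ O ∧ ν W < a := by
  obtain ⟨L, hL, hKL, hLO⟩ := exists_compact_between hK hO hKO
  have hfin : IsFiniteMeasure (ν.restrict L) := ⟨by simpa using hν L hLO hL⟩
  have h1 : (ν.restrict L) K < a := by
    rw [Measure.restrict_apply hK.measurableSet,
      inter_eq_self_of_subset_left (hKL.trans interior_subset)]
    exact ha
  obtain ⟨W', hKW', hW', hlt⟩ := K.exists_isOpen_lt_of_lt a h1
  refine ⟨W' ∩ interior L, hW'.inter isOpen_interior, subset_inter hKW' hKL,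
    inter_subset_right.trans (interior_subset.trans hLO), ?_, ?_, ?_⟩
  · exact hL.closure_of_subset (inter_subset_right.trans interior_subset)
  · exact (closure_minimal (inter_subset_right.trans interior_subset) hL.isClosed).trans hLO
  · rw [Measure.restrict_apply hW'.measurableSet] at hlt
    exact (measure_mono (inter_subset_inter_right _ interior_subset)).trans_lt hlt

variable {ι : Type*} {O : Set X} {F : Filter ι} {μ : ι → Measure X} {ν : Measure X}

theorem ofReal_integral_le_lintegral (μ : Measure X) {f : X → ℝ} (h0 : ∀ x, 0 ≤ f x) :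
    ENNReal.ofReal (∫ x, f x ∂μ) ≤ ∫⁻ x, ENNReal.ofReal (f x) ∂μ := by
  by_cases hi : Integrable f μ
  · rw [ofReal_integral_eq_lintegral_ofReal hi (Eventually.of_forall h0)]
  · rw [integral_undef hi]; simp

/-- **Lower semicontinuity on open sets.** -/
theorem VConv.lt_of_isOpen (h : VConv O F μ ν) {W : Set X} (hW : IsOpen W) (hWO : W ⊆ O)
    {a : ℝ≥0∞} (ha : a < ν W) : ∀ᶠ i in F, a < μ i W := by
  obtain ⟨K, hKW, hK, hlt⟩ := exists_compact_lt ν hW ha
  obtain ⟨f, hf, hc, hs, h1, h0, hle⟩ := exists_cut hK hW hKW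
  have hint : Integrable f ν := integrable_cc' hf hc ν (h.fin' _ (hs.trans hWO) hc)
  have h2 : a < ENNReal.ofReal (∫ x, f x ∂ν) := by
    refine hlt.trans_le ?_
    rw [ofReal_integral_eq_lintegral_ofReal hint (Eventually.of_forall h0),
      ← lintegral_indicator_one hK.measurableSet]
    refine lintegral_mono fun x => ?_
    by_cases hx : x ∈ K
    · simp [hx, h1 x hx]
    · simp [hx]
  have h3 := (ENNReal.continuous_ofReal.tendsto _).comp (h.tendsto f hf hc (hs.trans hWO))
  filter_upwards [h3.eventually_const_lt h2] with i hi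
  refine hi.trans_le ?_
  refine (ofReal_integral_le_lintegral _ h0).trans ?_
  rw [← lintegral_indicator_one hW.measurableSet]
  refine lintegral_mono fun x => ?_
  by_cases hx : x ∈ W
  · simpa [hx] using hle x
  · have : f x = 0 := image_eq_zero_of_notMem_tsupport fun h => hx (hs h)
    simp [hx, this]

/-- **Upper semicontinuity on compact sets.** -/
theorem VConv.lt_of_isCompact (h : VConv O F μ ν) (hO : IsOpen O) {K : Set X}
    (hK : IsCompact K) (hKO : K ⊆ O) {a : ℝ≥0∞} (ha : ν K < a) : ∀ᶠ i in F, μ i K < a := by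
  obtain ⟨W, hW, hKW, hWO, hWc, hWcO, hlt⟩ := exists_open_lt hO ν h.fin' hK hKO ha
  obtain ⟨f, hf, hc, hs, h1, h0, hle⟩ := exists_cut hK hW hKW
  have hint : Integrable f ν := integrable_cc' hf hc ν (h.fin' _ (hs.trans hWO) hc)
  have h2 : ENNReal.ofReal (∫ x, f x ∂ν) < a := by
    refine lt_of_le_of_lt ?_ hlt
    rw [ofReal_integral_eq_lintegral_ofReal hint (Eventually.of_forall h0),
      ← lintegral_indicator_one hW.measurableSet]
    refine lintegral_mono fun x => ?_
    by_cases hx : x ∈ W
    · simpa [hx] using hle x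
    · have : f x = 0 := image_eq_zero_of_notMem_tsupport fun h => hx (hs h)
      simp [hx, this]
  have h3 := (ENNReal.continuous_ofReal.tendsto _).comp (h.tendsto f hf hc (hs.trans hWO))
  filter_upwards [h3.eventually_lt_const h2, h.fin _ (hs.trans hWO) hc] with i hi hfin
  refine lt_of_le_of_lt ?_ hi
  have hint' : Integrable f (μ i) := integrable_cc' hf hc _ hfin
  simp only [Function.comp]
  rw [ofReal_integral_eq_lintegral_ofReal hint' (Eventually.of_forall h0),
    ← lintegral_indicator_one hK.measurableSet]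
  refine lintegral_mono fun x => ?_
  by_cases hx : x ∈ K
  · simp [hx, h1 x hx]
  · simp [hx]

/-- **Convergence of masses of sets with null frontier.** -/
theorem VConv.tendsto_measure (h : VConv O F μ ν) (hO : IsOpen O) {B : Set X}
    (hB : IsCompact (closure B)) (hBO : closure B ⊆ O) (hfr : ν (frontier B) = 0) :
    Tendsto (fun i => μ i B) F (𝓝 (ν B)) := by
  have hle : ν (closure B) ≤ ν (interior B) := by
    have : closure B = interior B ∪ frontier B := (closure_eq_interior_union_frontier B)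
    rw [this]
    refine (measure_union_le _ _).trans ?_
    rw [hfr, add_zero]
  refine tendsto_order.2 ⟨fun a ha => ?_, fun a ha => ?_⟩
  · have h1 : a < ν (interior B) := ha.trans_le ((measure_mono subset_closure).trans hle)
    filter_upwards [h.lt_of_isOpen isOpen_interior
      (interior_subset.trans (subset_closure.trans hBO)) h1] with i hi
    exact hi.trans_le (measure_mono interior_subset)
  · have h1 : ν (closure B) < a := (hle.trans (measure_mono interior_subset)).trans_lt ha
    filter_upwards [h.lt_of_isCompact hO hB hBO h1] with i hi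
    exact (measure_mono subset_closure).trans_lt hi

/-- uniqueness of vague limits (on `O`). -/
theorem VConv.unique [F.NeBot] {ν' : Measure X} (h : VConv O F μ ν) (h' : VConv O F μ ν')
    (hO : IsOpen O) {B : Set X} (hB : IsOpen B) (hBO : B ⊆ O) : ν B = ν' B := by
  have key : ∀ ν₁ ν₂ : Measure X, VConv O F μ ν₁ → VConv O F μ ν₂ → ν₁ B ≤ ν₂ B := by
    intro ν₁ ν₂ h₁ h₂
    refine le_of_forall_lt fun a ha => ?_
    obtain ⟨K, hKB, hK, hlt⟩ := exists_compact_lt ν₁ hB ha
    obtain ⟨f, hf, hc, hs, h1, h0, hle⟩ := exists_cut hK hB hKB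
    have e : ∫ x, f x ∂ν₁ = ∫ x, f x ∂ν₂ :=
      tendsto_nhds_unique (h₁.tendsto f hf hc (hs.trans hBO)) (h₂.tendsto f hf hc (hs.trans hBO))
    have i1 : Integrable f ν₁ := integrable_cc' hf hc _ (h₁.fin' _ (hs.trans hBO) hc)
    have i2 : Integrable f ν₂ := integrable_cc' hf hc _ (h₂.fin' _ (hs.trans hBO) hc)
    calc a < ν₁ K := hlt
      _ ≤ ∫⁻ x, ENNReal.ofReal (f x) ∂ν₁ := by
        rw [← lintegral_indicator_one hK.measurableSet]
        refine lintegral_mono fun x => ?_
        by_cases hx : x ∈ K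
        · simp [hx, h1 x hx]
        · simp [hx]
      _ = ENNReal.ofReal (∫ x, f x ∂ν₁) :=
        (ofReal_integral_eq_lintegral_ofReal i1 (Eventually.of_forall h0)).symm
      _ = ENNReal.ofReal (∫ x, f x ∂ν₂) := by rw [e]
      _ = ∫⁻ x, ENNReal.ofReal (f x) ∂ν₂ :=
        ofReal_integral_eq_lintegral_ofReal i2 (Eventually.of_forall h0)
      _ ≤ ν₂ B := by
        rw [← lintegral_indicator_one hB.measurableSet]
        refine lintegral_mono fun x => ?_
        by_cases hx : x ∈ B
        · simpa [hx] using hle x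
        · have : f x = 0 := image_eq_zero_of_notMem_tsupport fun h => hx (hs h)
          simp [hx, this]
  exact le_antisymm (key _ _ h h') (key _ _ h' h)

/-- a closed carrier passes to the limit. -/
theorem VConv.carrier [F.NeBot] (h : VConv O F μ ν) (hO : IsOpen O) {S : Set X}
    (hS : IsClosed S) (hμS : ∀ᶠ i in F, μ i (Sᶜ ∩ O) = 0) : ν (Sᶜ ∩ O) = 0 := by
  by_contra hne
  have h1 : 0 < ν (Sᶜ ∩ O) := pos_iff_ne_zero.2 hne
  have h2 := h.lt_of_isOpen (hS.isOpen_compl.inter hO) inter_subset_right h1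
  obtain ⟨i, hi, hi'⟩ := (h2.and hμS).exists
  exact hi.ne' hi'

theorem integral_congr_carrier {S : Set X} {μ : Measure X} (hμS : μ Sᶜ = 0) {f g : X → ℝ}
    (hfg : ∀ x ∈ S, f x = g x) : ∫ x, f x ∂μ = ∫ x, g x ∂μ := by
  refine integral_congr_ae ?_
  rw [Filter.EventuallyEq, ae_iff]
  refine measure_mono_null (fun x hx => ?_) hμS
  exact fun hxS => hx (hfg x hxS)

/-- test functions with compact support on the carrier. -/
theorem VConv.tendsto_carrier (h : VConv O F μ ν) (hO : IsOpen O) {S : Set X}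
    (hμS : ∀ᶠ i in F, μ i Sᶜ = 0) (hνS : ν Sᶜ = 0) {f : X → ℝ} (hf : Continuous f)
    {K : Set X} (hK : IsCompact K) (hKO : K ⊆ O) (hfS : ∀ x ∈ S, x ∉ K → f x = 0) :
    Tendsto (fun i => ∫ x, f x ∂(μ i)) F (𝓝 (∫ x, f x ∂ν)) := by
  obtain ⟨χ, hχ, hc, hs, h1, h0, hle⟩ := exists_cut hK hO hKO
  have hcong : ∀ x ∈ S, f x = χ x * f x := by
    intro x hx
    by_cases hxK : x ∈ K
    · rw [h1 x hxK, one_mul]
    · rw [hfS x hx hxK, mul_zero]
  rw [integral_congr_carrier hνS hcong]
  have hc' : HasCompactSupport fun x => χ x * f x := hc.mul_right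
  have hs' : tsupport (fun x => χ x * f x) ⊆ O := (tsupport_mul_subset_left).trans hs
  refine (h.tendsto _ (hχ.mul hf) hc' hs').congr' ?_
  filter_upwards [hμS] with i hi
  exact (integral_congr_carrier hi hcong).symm

end Crest.Agent.R234.Cp914
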