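import Mathlib

/-!
Row 234 (S0362, S0363), leaf VF-COMP: vague convergence of measures on an open subset `W` of a
proper metric space `X`, along an arbitrary filter: existence of limits along ultrafilters and
along subsequences.
-/

set_option autoImplicit false
set_option linter.unusedSectionVars false

open MeasureTheory Filter Topology Set
open scoped ENNReal NNReal CompactlySupported

namespace Crest.Agent.R234.Vc_164

variable {X : Type*} {ι : Type*}

section Def

variable [TopologicalSpace X] [MeasurableSpace X]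

/-- vague convergence `V i → V₀` along `l` on the open set `W`. -/
structure VConv (l : Filter ι) (W : Set X) (V : ι → Measure X) (V₀ : Measure X) : Prop where
  fin : ∀ K : Set X, IsCompact K → K ⊆ W → V₀ K < ⊤
  off : V₀ Wᶜ = 0
  bdd : ∀ K : Set X, IsCompact K → K ⊆ W → ∃ C : ℝ≥0, ∀ᶠ i in l, V i K ≤ C
  lim : ∀ f : X → ℝ, Continuous f → HasCompactSupport f → tsupport f ⊆ W →
    Tendsto (fun i => ∫ x, f x ∂(V i)) l (𝓝 (∫ x, f x ∂V₀))

/-- a bound for the integral of a compactly supported function. -/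
theorem abs_integral_le_of {μ : Measure X} {f : X → ℝ} {K : Set X} {B : ℝ} {C : ℝ≥0}
    (hB0 : 0 ≤ B) (hμ : μ K ≤ C) (hf : ∀ x, x ∉ K → f x = 0) (hB : ∀ x, |f x| ≤ B) :
    |∫ x, f x ∂μ| ≤ B * C := by
  have hlt : μ K < ⊤ := hμ.trans_lt ENNReal.coe_lt_top
  rw [← setIntegral_eq_integral_of_forall_compl_eq_zero (fun x hx => hf x hx)]
  have h1 : ‖∫ x in K, f x ∂μ‖ ≤ B * μ.real K :=
    norm_setIntegral_le_of_norm_le_const hlt (fun x _ => by simpa [Real.norm_eq_abs] using hB x)
  have h2 : μ.real K ≤ C := by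
    rw [measureReal_def]
    calc (μ K).toReal ≤ (C : ℝ≥0∞).toReal := ENNReal.toReal_mono ENNReal.coe_ne_top hμ
      _ = C := by simp
  calc |∫ x in K, f x ∂μ| = ‖∫ x in K, f x ∂μ‖ := rfl
    _ ≤ B * μ.real K := h1
    _ ≤ B * C := by gcongr

/-- a compactly supported continuous function is integrable for every measure which is finite on
its topological support. -/
theorem integrable_cc [OpensMeasurableSpace X] {μ : Measure X} {f : X → ℝ}
    (hf : Continuous f) (hc : HasCompactSupport f) (hK : μ (tsupport f) < ⊤) :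
    Integrable f μ := by
  have h1 : IntegrableOn f (tsupport f) μ := by
    obtain ⟨B, hB⟩ := hc.exists_bound_of_continuous hf
    have : IsFiniteMeasure (μ.restrict (tsupport f)) := ⟨by simpa using hK⟩
    exact Integrable.of_bound (hf.stronglyMeasurable_of_hasCompactSupport hc).aestronglyMeasurable
      B (Eventually.of_forall hB)
  exact (integrableOn_iff_integrable_of_support_subset (subset_tsupport f)).1 h1

end Def

section Exist

variable [TopologicalSpace X] [T2Space X] [LocallyCompactSpace X] [MeasurableSpace X]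
  [BorelSpace X]

/-- extension by zero of a compactly supported function on an open subset. -/
noncomputable def ext0 {W : Set X} (f : W → ℝ) : X → ℝ := Function.extend Subtype.val f 0

theorem ext0_val {W : Set X} (f : W → ℝ) (x : W) : ext0 f x = f x := by
  unfold ext0
  exact Subtype.val_injective.extend_apply f 0 x

theorem ext0_notMem {W : Set X} (f : W → ℝ) {x : X} (hx : x ∉ W) : ext0 f x = 0 := by
  unfold ext0
  rw [Function.extend_apply']
  · rfl
  · rintro ⟨a, rfl⟩
    exact hx a.2

theorem ext0_continuous {W : Set X} (hW : IsOpen W) (f : C_c(W, ℝ)) : Continuous (ext0 (W := W) f) :=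
  f.hasCompactSupport.continuous_extend_zero hW f.continuous

theorem ext0_hasCompactSupport {W : Set X} (f : C_c(W, ℝ)) : HasCompactSupport (ext0 (W := W) f) :=
  f.hasCompactSupport.extend_zero continuous_subtype_val

theorem ext0_tsupport {W : Set X} (f : C_c(W, ℝ)) : tsupport (ext0 (W := W) f) ⊆ W := by
  unfold ext0
  rw [f.hasCompactSupport.tsupport_extend_zero continuous_subtype_val Subtype.val_injective]
  exact Subtype.coe_image_subset _ _

/-- vague limits exist along ultrafilters. -/
theorem exists_vconv (U : Ultrafilter ι) {W : Set X} (hW : IsOpen W) (V : ι → Measure X)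
    (hb : ∀ K : Set X, IsCompact K → K ⊆ W → ∃ C : ℝ≥0, ∀ᶠ i in (U : Filter ι), V i K ≤ C) :
    ∃ V₀ : Measure X, VConv (U : Filter ι) W V V₀ := by
  have hint : ∀ g : C_c(W, ℝ), ∀ᶠ i in (U : Filter ι), Integrable (ext0 (W := W) g) (V i) := by
    intro g
    obtain ⟨C, hC⟩ := hb (tsupport (ext0 (W := W) g)) (ext0_hasCompactSupport g)
      (ext0_tsupport g)
    filter_upwards [hC] with i hi
    exact integrable_cc (ext0_continuous hW g) (ext0_hasCompactSupport g)
      (hi.trans_lt ENNReal.coe_lt_top)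
  have key : ∀ g : C_c(W, ℝ), ∃ a : ℝ,
      Tendsto (fun i => ∫ x, ext0 (W := W) g x ∂(V i)) (U : Filter ι) (𝓝 a) := by
    intro g
    obtain ⟨B, hB⟩ := (ext0_hasCompactSupport g).exists_bound_of_continuous
      (ext0_continuous hW g)
    obtain ⟨C, hC⟩ := hb (tsupport (ext0 (W := W) g)) (ext0_hasCompactSupport g)
      (ext0_tsupport g)
    have hmem : ∀ᶠ i in (U : Filter ι),
        (∫ x, ext0 (W := W) g x ∂(V i)) ∈ Icc (-(max B 0 * C)) (max B 0 * C) := by
      filter_upwards [hC] with i hi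
      rw [mem_Icc, ← abs_le]
      exact abs_integral_le_of (le_max_right _ _) hi
        (fun x hx => image_eq_zero_of_notMem_tsupport hx)
        (fun x => (by simpa [Real.norm_eq_abs] using hB x : |ext0 (W := W) g x| ≤ B).trans
          (le_max_left _ _))
    have hle : (U.map (fun i => ∫ x, ext0 (W := W) g x ∂(V i)) : Filter ℝ) ≤
        𝓟 (Icc (-(max B 0 * C)) (max B 0 * C)) := by
      rw [le_principal_iff]
      exact mem_map.2 hmem
    obtain ⟨a, -, ha⟩ := (isCompact_Icc (a := -(max B 0 * (C : ℝ))) (b := max B 0 * C)).ultrafilter_le_nhds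
      _ hle
    exact ⟨a, ha⟩
  choose L hL using key
  have hadd : ∀ f g : C_c(W, ℝ), L (f + g) = L f + L g := by
    intro f g
    refine tendsto_nhds_unique (hL (f + g)) ?_
    refine ((hL f).add (hL g)).congr' ?_
    filter_upwards [hint f, hint g] with i hf hg
    rw [← integral_add hf hg]
    congr 1
    ext x
    by_cases hx : x ∈ W
    · rw [show x = ((⟨x, hx⟩ : W) : X) from rfl, ext0_val, ext0_val, ext0_val]
      rfl
    · rw [ext0_notMem _ hx, ext0_notMem _ hx, ext0_notMem _ hx, add_zero]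
  have hsmul : ∀ (c : ℝ) (f : C_c(W, ℝ)), L (c • f) = c * L f := by
    intro c f
    refine tendsto_nhds_unique (hL (c • f)) ?_
    refine ((hL f).const_mul c).congr fun i => ?_
    rw [← integral_const_mul]
    congr 1
    ext x
    by_cases hx : x ∈ W
    · rw [show x = ((⟨x, hx⟩ : W) : X) from rfl, ext0_val, ext0_val]
      rfl
    · rw [ext0_notMem _ hx, ext0_notMem _ hx, mul_zero]
  have : LocallyCompactSpace W := hW.locallyCompactSpace
  let Λ : C_c(W, ℝ) →ₚ[ℝ] ℝ := PositiveLinearMap.mk₀
    { toFun := L, map_add' := hadd, map_smul' := fun c f => by simpa using hsmul c f } (by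
      intro f hf
      refine ge_of_tendsto' (hL f) fun i => ?_
      refine integral_nonneg fun x => ?_
      by_cases hx : x ∈ W
      · rw [show x = ((⟨x, hx⟩ : W) : X) from rfl, ext0_val]
        exact hf _
      · rw [ext0_notMem _ hx]
        simp)
  have hΛ : ∀ f, Λ f = L f := fun f => rfl
  have hreg : (RealRMK.rieszMeasure Λ).Regular := inferInstance
  have hlf : IsFiniteMeasureOnCompacts (RealRMK.rieszMeasure Λ) := inferInstance
  have hme : MeasurableEmbedding (Subtype.val : W → X) :=
    MeasurableEmbedding.subtype_coe hW.measurableSet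
  refine ⟨(RealRMK.rieszMeasure Λ).map Subtype.val, ⟨?_, ?_, hb, ?_⟩⟩
  · intro K hK hKW
    rw [hme.map_apply]
    have hK' : IsCompact ((Subtype.val : W → X) ⁻¹' K) := by
      rw [Subtype.isCompact_iff, Subtype.image_preimage_coe, inter_eq_right.2 hKW]
      exact hK
    exact hK'.measure_lt_top
  · rw [hme.map_apply]
    have : (Subtype.val : W → X) ⁻¹' Wᶜ = ∅ := by
      ext x
      simp
    rw [this, measure_empty]
  · intro f hf hfc hfW
    rw [hme.integral_map]
    have hcs : HasCompactSupport (fun x : W => f x) := by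
      rw [hasCompactSupport_def]
      have h1 : IsCompact ((Subtype.val : W → X) ⁻¹' (tsupport f)) := by
        rw [Subtype.isCompact_iff, Subtype.image_preimage_coe, inter_eq_right.2 hfW]
        exact hfc
      refine h1.of_isClosed_subset isClosed_closure ?_
      refine closure_minimal ?_ ((isClosed_tsupport f).preimage continuous_subtype_val)
      intro x hx
      exact subset_tsupport f hx
    let g : C_c(W, ℝ) := ⟨⟨fun x : W => f x, hf.comp continuous_subtype_val⟩, hcs⟩
    have hg : ∀ x, g x = f x := fun x => rfl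
    have hgf : ext0 (W := W) g = f := by
      ext x
      by_cases hx : x ∈ W
      · rw [show x = ((⟨x, hx⟩ : W) : X) from rfl, ext0_val]
        rfl
      · rw [ext0_notMem _ hx]
        exact (image_eq_zero_of_notMem_tsupport fun h => hx (hfW h)).symm
    have h2 := RealRMK.integral_rieszMeasure Λ g
    have h3 := hL g
    rw [hgf] at h3
    rw [hΛ] at h2
    rw [← h2] at h3
    exact h3

end Exist


section Basic

variable [TopologicalSpace X] [MeasurableSpace X]

theorem VConv.comp_tendsto {κ : Type*} {l : Filter ι} {l' : Filter κ} {W : Set X}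
    {V : ι → Measure X} {V₀ : Measure X} (h : VConv l W V V₀) {φ : κ → ι}
    (hφ : Tendsto φ l' l) : VConv l' W (fun k => V (φ k)) V₀ where
  fin := h.fin
  off := h.off
  bdd K hK hKW := by
    obtain ⟨C, hC⟩ := h.bdd K hK hKW
    exact ⟨C, hφ.eventually hC⟩
  lim f hf hfc hfW := (h.lim f hf hfc hfW).comp hφ

theorem VConv.mono_filter {l l' : Filter ι} {W : Set X}
    {V : ι → Measure X} {V₀ : Measure X} (h : VConv l W V V₀)
    (hl : l' ≤ l) : VConv l' W V V₀ :=
  h.comp_tendsto (φ := id) (tendsto_id'.2 hl)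

theorem VConv.congr {l : Filter ι} {W : Set X}
    {V V' : ι → Measure X} {V₀ : Measure X} (h : VConv l W V V₀)
    (hV : ∀ᶠ i in l, V i = V' i) : VConv l W V' V₀ where
  fin := h.fin
  off := h.off
  bdd K hK hKW := by
    obtain ⟨C, hC⟩ := h.bdd K hK hKW
    refine ⟨C, ?_⟩
    filter_upwards [hC, hV] with i hi hi'
    rwa [← hi']
  lim f hf hfc hfW := by
    refine (h.lim f hf hfc hfW).congr' ?_
    filter_upwards [hV] with i hi
    rw [hi]

theorem VConv.bdd₀ {l : Filter ι} {W : Set X}
    {V : ι → Measure X} {V₀ : Measure X} (h : VConv l W V V₀) {K : Set X} (hK : IsCompact K)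
    (hKW : K ⊆ W) : ∃ C : ℝ≥0, V₀ K ≤ C ∧ ∀ᶠ i in l, V i K ≤ C := by
  obtain ⟨C, hC⟩ := h.bdd K hK hKW
  refine ⟨max C (V₀ K).toNNReal, ?_, ?_⟩
  · rw [ENNReal.coe_max, ENNReal.coe_toNNReal (h.fin K hK hKW).ne]
    exact le_max_right _ _
  · filter_upwards [hC] with i hi
    exact hi.trans (by rw [ENNReal.coe_max]; exact le_max_left _ _)

theorem VConv.integrable [OpensMeasurableSpace X] {l : Filter ι} {W : Set X}
    {V : ι → Measure X} {V₀ : Measure X} (h : VConv l W V V₀) {f : X → ℝ} (hf : Continuous f)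
    (hfc : HasCompactSupport f) (hfW : tsupport f ⊆ W) :
    Integrable f V₀ ∧ ∀ᶠ i in l, Integrable f (V i) := by
  refine ⟨integrable_cc hf hfc (h.fin _ hfc hfW), ?_⟩
  obtain ⟨C, hC⟩ := h.bdd _ hfc hfW
  filter_upwards [hC] with i hi
  exact integrable_cc hf hfc (hi.trans_lt ENNReal.coe_lt_top)

end Basic

section Seq

variable [TopologicalSpace X] [T2Space X] [LocallyCompactSpace X] [MeasurableSpace X]
  [BorelSpace X]

theorem exists_cutoff {K W : Set X} (hK : IsCompact K) (hW : IsOpen W) (hKW : K ⊆ W) :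
    ∃ f : C(X, ℝ), (∀ x ∈ K, f x = 1) ∧ HasCompactSupport f ∧ tsupport f ⊆ W ∧
      ∀ x, 0 ≤ f x ∧ f x ≤ 1 := by
  obtain ⟨f, hf1, hf2, hf3, hf4⟩ := exists_continuousMap_one_of_isCompact_subset_isOpen hK hW hKW
  exact ⟨f, fun x hx => hf1 hx, hf2, hf3, fun x => ⟨(hf4 x).1, (hf4 x).2⟩⟩

/-- an open subset of a locally compact second countable space is exhausted by compact sets. -/
theorem exists_exhaustion [SecondCountableTopology X] {W : Set X} (hW : IsOpen W) :
    ∃ K : ℕ → Set X, (∀ n, IsCompact (K n)) ∧ (∀ n, K n ⊆ W) ∧ Monotone K ∧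
      (⋃ n, K n) = W ∧ ∀ S, IsCompact S → S ⊆ W → ∃ n, S ⊆ K n := by
  have : LocallyCompactSpace W := hW.locallyCompactSpace
  let E : CompactExhaustion W := CompactExhaustion.choice W
  refine ⟨fun n => Subtype.val '' (E n), fun n => (E.isCompact n).image continuous_subtype_val,
    fun n => Subtype.coe_image_subset _ _, fun a b hab => image_mono (E.subset hab), ?_, ?_⟩
  · rw [← image_iUnion, E.iUnion_eq, image_univ, Subtype.range_coe]
  · intro S hS hSW
    have h1 : IsCompact ((Subtype.val : W → X) ⁻¹' S) := by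
      rw [Subtype.isCompact_iff, Subtype.image_preimage_coe, inter_eq_right.2 hSW]
      exact hS
    obtain ⟨n, hn⟩ := E.exists_superset_of_isCompact h1
    refine ⟨n, fun x hx => ⟨⟨x, hSW hx⟩, hn hx, rfl⟩⟩

/-- vague compactness along subsequences. -/
theorem exists_subseq [SecondCountableTopology X] {W : Set X} (hW : IsOpen W) (V : ℕ → Measure X)
    (hb : ∀ K : Set X, IsCompact K → K ⊆ W → ∃ C : ℝ≥0, ∀ᶠ i in atTop, V i K ≤ C) :
    ∃ φ : ℕ → ℕ, StrictMono φ ∧ ∃ V₀ : Measure X, VConv atTop W (fun k => V (φ k)) V₀ := by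
  classical
  obtain ⟨V₀, hV₀⟩ := exists_vconv (hyperfilter ℕ) hW V (fun K hK hKW => by
    obtain ⟨C, hC⟩ := hb K hK hKW
    exact ⟨C, Nat.hyperfilter_le_atTop hC⟩)
  obtain ⟨K, hKc, hKW, -, -, hKS⟩ := exists_exhaustion hW
  have hcut := fun n => exists_cutoff (hKc n) hW (hKW n)
  choose χ hχ1 hχc hχW hχ01 using hcut
  let D : ℕ → C(X, ℝ) := TopologicalSpace.denseSeq C(X, ℝ)
  let a : ℕ → ℕ → Measure X → ℝ := fun n q μ => ∫ x, χ n x * D q x ∂μ
  have hac : ∀ n q, Continuous (fun x => χ n x * D q x) := fun n q =>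
    (χ n).continuous.mul (D q).continuous
  have hacs : ∀ n q, HasCompactSupport (fun x => χ n x * D q x) := fun n q =>
    (hχc n).mul_right
  have hasub : ∀ n (g : X → ℝ), tsupport (fun x => χ n x * g x) ⊆ tsupport (χ n) := by
    intro n g
    refine closure_mono fun x hx => ?_
    rw [Function.mem_support] at hx ⊢
    exact left_ne_zero_of_mul hx
  have hfreq : ∀ k : ℕ, ∃ᶠ i in atTop, ∀ n ≤ k, ∀ q ≤ k,
      |a n q (V i) - a n q V₀| < 1 / ((k : ℝ) + 1) := by
    intro k
    have h1 : ∀ᶠ i in (hyperfilter ℕ : Filter ℕ), ∀ n ≤ k, ∀ q ≤ k,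
        |a n q (V i) - a n q V₀| < 1 / ((k : ℝ) + 1) := by
      have h2 : ∀ n ∈ Finset.range (k + 1), ∀ q ∈ Finset.range (k + 1),
          ∀ᶠ i in (hyperfilter ℕ : Filter ℕ), |a n q (V i) - a n q V₀| < 1 / ((k : ℝ) + 1) := by
        intro n _ q _
        have h3 := hV₀.lim _ (hac n q) (hacs n q) ((hasub n _).trans (hχW n))
        have h4 := (Metric.tendsto_nhds.1 h3) (1 / ((k : ℝ) + 1)) (by positivity)
        filter_upwards [h4] with i hi
        simpa [Real.dist_eq] using hi
      have h5 : ∀ᶠ i in (hyperfilter ℕ : Filter ℕ), ∀ n ∈ Finset.range (k + 1),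
          ∀ q ∈ Finset.range (k + 1), |a n q (V i) - a n q V₀| < 1 / ((k : ℝ) + 1) := by
        rw [Filter.eventually_all_finset]
        intro n hn
        rw [Filter.eventually_all_finset]
        intro q hq
        exact h2 n hn q hq
      filter_upwards [h5] with i hi n hn q hq
      exact hi n (by simpa using Nat.lt_succ_of_le hn) q (by simpa using Nat.lt_succ_of_le hq)
    exact h1.frequently.filter_mono Nat.hyperfilter_le_atTop
  obtain ⟨φ, hφ, hφa⟩ := extraction_forall_of_frequently hfreq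
  refine ⟨φ, hφ, V₀, ⟨hV₀.fin, hV₀.off, ?_, ?_⟩⟩
  · intro S hS hSW
    obtain ⟨C, hC⟩ := hb S hS hSW
    exact ⟨C, hφ.tendsto_atTop.eventually hC⟩
  · intro f hf hfc hfW
    obtain ⟨n, hn⟩ := hKS _ hfc hfW
    have hfχ : ∀ x, χ n x * f x = f x := by
      intro x
      by_cases hx : x ∈ tsupport f
      · rw [hχ1 n x (hn hx), one_mul]
      · rw [image_eq_zero_of_notMem_tsupport hx, mul_zero]
    obtain ⟨C₁, hC₁⟩ := hb (tsupport (χ n)) (hχc n) (hχW n)
    obtain ⟨C₂, hC₂⟩ : ∃ C : ℝ≥0, V₀ (tsupport (χ n)) ≤ C :=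
      ⟨(V₀ (tsupport (χ n))).toNNReal, by
        rw [ENNReal.coe_toNNReal (hV₀.fin _ (hχc n) (hχW n)).ne]⟩
    rw [Metric.tendsto_nhds]
    intro ε hε
    obtain ⟨δ, hδ0, hδ⟩ : ∃ δ : ℝ, 0 < δ ∧ δ * (C₁ + C₂) < ε / 2 := by
      refine ⟨ε / (4 * (C₁ + C₂ + 1)), by positivity, ?_⟩
      rw [div_mul_eq_mul_div, div_lt_div_iff₀ (by positivity) (by norm_num)]
      nlinarith [C₁.coe_nonneg, C₂.coe_nonneg]
    obtain ⟨q, hq⟩ : ∃ q, ∀ x ∈ tsupport (χ n), |f x - D q x| < δ := by
      let f' : C(X, ℝ) := ⟨f, hf⟩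
      have h1 : TendstoUniformlyOn (fun (g : C(X, ℝ)) (x : X) => g x) f' (𝓝 f')
          (tsupport (χ n)) :=
        (ContinuousMap.tendsto_iff_forall_isCompact_tendstoUniformlyOn (f := f')
          (F := fun g : C(X, ℝ) => g)).1 tendsto_id _ (hχc n)
      have h2 := (Metric.tendstoUniformlyOn_iff.1 h1) δ hδ0
      obtain ⟨q, hq⟩ := (TopologicalSpace.denseRange_denseSeq C(X, ℝ)).exists_mem_open
        isOpen_interior ⟨f', mem_interior_iff_mem_nhds.2 h2⟩
      refine ⟨q, fun x hx => ?_⟩
      have h3 := interior_subset hq x hx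
      rw [Real.dist_eq] at h3
      exact h3
    have hsm : ∀ (μ : Measure X) (C : ℝ≥0), μ (tsupport (χ n)) ≤ C →
        |∫ x, f x ∂μ - a n q μ| ≤ δ * C := by
      intro μ C hC
      have i1 : Integrable (fun x => χ n x * f x) μ :=
        integrable_cc ((χ n).continuous.mul hf) (hχc n).mul_right
          ((measure_mono (hasub n f)).trans_lt (hC.trans_lt ENNReal.coe_lt_top))
      have i2 : Integrable (fun x => χ n x * D q x) μ :=
        integrable_cc (hac n q) (hacs n q)
          ((measure_mono (hasub n _)).trans_lt (hC.trans_lt ENNReal.coe_lt_top))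
      have h1 : ∫ x, f x ∂μ = ∫ x, χ n x * f x ∂μ := by
        congr 1
        ext x
        exact (hfχ x).symm
      rw [h1, ← integral_sub i1 i2]
      refine abs_integral_le_of hδ0.le hC (fun x hx => ?_) (fun x => ?_)
      · rw [image_eq_zero_of_notMem_tsupport hx]
        ring
      · rw [← mul_sub, abs_mul]
        by_cases hx : x ∈ tsupport (χ n)
        · calc |χ n x| * |f x - D q x| ≤ 1 * δ := by
                refine mul_le_mul ?_ (hq x hx).le (abs_nonneg _) zero_le_one
                rw [abs_of_nonneg (hχ01 n x).1]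
                exact (hχ01 n x).2
            _ = δ := one_mul _
        · rw [image_eq_zero_of_notMem_tsupport hx]
          simpa using hδ0.le
    have hk1 : ∀ᶠ k : ℕ in atTop, 1 / ((k : ℝ) + 1) < ε / 2 := by
      have := tendsto_one_div_add_atTop_nhds_zero_nat (𝕜 := ℝ)
      exact (tendsto_order.1 this).2 _ (by positivity)
    filter_upwards [hφ.tendsto_atTop.eventually hC₁, eventually_ge_atTop (max n q), hk1]
      with k hk1 hk2 hk3
    have e1 := hsm (V (φ k)) C₁ hk1
    have e2 := hsm V₀ C₂ hC₂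
    have e3 := hφa k n ((le_max_left _ _).trans hk2) q ((le_max_right _ _).trans hk2)
    rw [Real.dist_eq]
    have e4 : |∫ x, f x ∂(V (φ k)) - ∫ x, f x ∂V₀| ≤
        |∫ x, f x ∂(V (φ k)) - a n q (V (φ k))| + |a n q (V (φ k)) - a n q V₀| +
          |∫ x, f x ∂V₀ - a n q V₀| := by
      rw [abs_sub_comm (∫ x, f x ∂V₀) (a n q V₀)]
      refine (abs_sub_le _ (a n q V₀) _).trans ?_
      gcongr
      exact abs_sub_le _ _ _
    nlinarith [e1, e2, e3, e4]

end Seq

end Crest.Agent.R234.Vc_164
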