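import Crest.Prelude.Def_Varifold

/-!
Row 234, base library (helper884), file 0: the Grassmannian `G m k` of `m`-planes of `ℝ^k` as the
set of orthogonal projections of trace `m`, the trace, general stationary varifolds.
-/

set_option autoImplicit false

open MeasureTheory Crest.GeometryTopology.Submanifold
open scoped ENNReal InnerProductSpace

noncomputable section

namespace Crest.Agent.R234.Vf_884

/-- the operators of `ℝ^k`. -/
abbrev L (k : ℕ) : Type := Euc k →L[ℝ] Euc k

variable {m k : ℕ}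

/-- the trace as a continuous linear functional. -/
def tr : L k →L[ℝ] ℝ :=
  LinearMap.toContinuousLinearMap (LinearMap.trace ℝ (Euc k) ∘ₗ ContinuousLinearMap.coeLM ℝ)

theorem tr_apply (A : L k) : tr A = LinearMap.trace ℝ (Euc k) A.toLinearMap := rfl

theorem tr_comm (A B : L k) : tr (A ∘L B) = tr (B ∘L A) := by
  rw [tr_apply, tr_apply]
  exact LinearMap.trace_mul_comm ℝ A.toLinearMap B.toLinearMap

theorem tr_eq_sum (A : L k) : tr A = ∑ i, ⟪stdVec k i, A (stdVec k i)⟫_ℝ := by
  rw [tr_apply, LinearMap.trace_eq_sum_inner _ (EuclideanSpace.basisFun (Fin k) ℝ)]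
  simp [stdVec]

theorem tr_one : tr (ContinuousLinearMap.id ℝ (Euc k)) = k := by
  rw [tr_eq_sum]
  simp [stdVec]

/-- the Grassmannian: orthogonal projections of trace `m`. -/
def G (m k : ℕ) : Set (L k) := {P | P ∘L P = P ∧ IsSelfAdjoint P ∧ tr P = m}

theorem G_idem {P : L k} (h : P ∈ G m k) : P ∘L P = P := h.1

theorem G_idem_apply {P : L k} (h : P ∈ G m k) (x : Euc k) : P (P x) = P x :=
  congrArg (fun A : L k => A x) h.1

theorem G_symm {P : L k} (h : P ∈ G m k) (x y : Euc k) : ⟪P x, y⟫_ℝ = ⟪x, P y⟫_ℝ := by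
  rw [← ContinuousLinearMap.adjoint_inner_right, h.2.1.adjoint_eq]

theorem G_inner_self {P : L k} (h : P ∈ G m k) (x : Euc k) : ⟪P x, x⟫_ℝ = ‖P x‖ ^ 2 := by
  rw [← real_inner_self_eq_norm_sq, G_symm h x (P x), G_idem_apply h, G_symm h]

theorem G_norm_sq_add {P : L k} (h : P ∈ G m k) (x : Euc k) :
    ‖P x‖ ^ 2 + ‖x - P x‖ ^ 2 = ‖x‖ ^ 2 := by
  rw [norm_sub_sq_real, real_inner_comm, G_inner_self h]
  ring

theorem G_norm_apply_le {P : L k} (h : P ∈ G m k) (x : Euc k) : ‖P x‖ ≤ ‖x‖ := by
  have := G_norm_sq_add h x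
  nlinarith [norm_nonneg (P x), norm_nonneg x, sq_nonneg ‖x - P x‖]

theorem G_norm_le {P : L k} (h : P ∈ G m k) : ‖P‖ ≤ 1 :=
  ContinuousLinearMap.opNorm_le_bound _ zero_le_one fun x => by
    rw [one_mul]; exact G_norm_apply_le h x

theorem isClosed_G (m k : ℕ) : IsClosed (G m k) := by
  have h1 : IsClosed {P : L k | P ∘L P = P} :=
    isClosed_eq (continuous_id.clm_comp continuous_id) continuous_id
  have h2 : IsClosed {P : L k | IsSelfAdjoint P} := by
    simp_rw [ContinuousLinearMap.isSelfAdjoint_iff']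
    exact isClosed_eq (ContinuousLinearMap.adjoint (𝕜 := ℝ) (E := Euc k) (F := Euc k)).continuous
      continuous_id
  have h3 : IsClosed {P : L k | tr P = m} := isClosed_eq tr.continuous continuous_const
  exact h1.inter (h2.inter h3)

theorem isCompact_G (m k : ℕ) : IsCompact (G m k) := by
  refine Metric.isCompact_of_isClosed_isBounded (isClosed_G m k) ?_
  refine (Metric.isBounded_closedBall (x := (0 : L k)) (r := 1)).subset fun P hP => ?_
  rw [mem_closedBall_zero_iff]
  exact G_norm_le hP

theorem measurableSet_G (m k : ℕ) : MeasurableSet (G m k) := (isClosed_G m k).measurableSet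

/-- the projection onto a subspace of dimension `m`. -/
theorem starProjection_mem_G (T : Submodule ℝ (Euc k)) (h : Module.finrank ℝ T = m) :
    T.starProjection ∈ G m k := by
  refine ⟨?_, isSelfAdjoint_starProjection T, ?_⟩
  · ext1 x
    exact Submodule.starProjection_eq_self_iff.2 (Submodule.starProjection_apply_mem T x)
  · rw [tr_apply]
    have hp : LinearMap.IsProj T T.starProjection.toLinearMap := by
      refine ⟨fun x => ?_, fun x hx => ?_⟩
      · exact Submodule.starProjection_apply_mem T x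
      · exact Submodule.starProjection_eq_self_iff.2 hx
    rw [hp.trace, h]

/-- general stationary `m`-varifolds in `U`. -/
structure Stat (m k : ℕ) (U : Set (Euc k)) (V : Measure (Euc k × L k)) : Prop where
  conc : ∀ᵐ p ∂V, p.2 ∈ G m k
  fin : ∀ K : Set (Euc k), IsCompact K → K ⊆ U → V (K ×ˢ Set.univ) < ⊤
  stat : ∀ X : Euc k → Euc k, ContDiff ℝ 1 X → HasCompactSupport X → tsupport X ⊆ U →
    ∫ p, tr ((fderiv ℝ X p.1) ∘L p.2) ∂V = 0

end Crest.Agent.R234.Vf_884
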