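import Crest.Agent.R234.Cp3_914
import Crest.Agent.R234.Vc1_164
import Crest.Agent.R234.Vf0_884

/-!
Conversion from `Vc_164.VConv`, and the product form `X = Euc k × L k` for varifolds concentrated
on the Grassmannian (row 234, helper914).
-/

set_option autoImplicit false
set_option linter.unusedSectionVars false
set_option linter.unusedVariables false

open MeasureTheory Filter Topology Set Crest.GeometryTopology.Submanifold
open scoped CompactlySupported ENNReal NNReal

namespace Crest.Agent.R234.Cp914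

open Crest.Agent.R234.Vf_884

theorem VConv.of_vc {X : Type*} [MetricSpace X] [ProperSpace X] [MeasurableSpace X]
    [BorelSpace X] {ι : Type*} {O : Set X} {F : Filter ι} {μ : ι → Measure X} {ν : Measure X}
    (h : Vc_164.VConv F O μ ν) : VConv O F μ ν where
  fin K hK hc := by
    obtain ⟨C, hC⟩ := h.bdd K hc hK
    exact hC.mono fun i hi => hi.trans_lt ENNReal.coe_lt_top
  fin' K hK hc := h.fin K hc hK
  tendsto f hf hc hs := h.lim f hf hc hs

variable {m k : ℕ} {ι : Type*} {F : Filter ι}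

/-- varifold convergence in `U`: the measures are carried by `Euc k × G m k`. -/
structure VfConv (m k : ℕ) (U : Set (Euc k)) (F : Filter ι) (V : ι → Measure (Euc k × L k))
    (V₀ : Measure (Euc k × L k)) : Prop where
  conv : VConv (U ×ˢ (univ : Set (L k))) F V V₀
  conc : ∀ᶠ i in F, V i ((univ : Set (Euc k)) ×ˢ G m k)ᶜ = 0
  conc₀ : V₀ ((univ : Set (Euc k)) ×ˢ G m k)ᶜ = 0

theorem compl_univ_prod (S : Set (L k)) :
    ((univ : Set (Euc k)) ×ˢ S)ᶜ = {p | p.2 ∉ S} := by
  ext p; simp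

theorem ae_G_iff {V : Measure (Euc k × L k)} :
    (∀ᵐ p ∂V, p.2 ∈ G m k) ↔ V ((univ : Set (Euc k)) ×ˢ G m k)ᶜ = 0 := by
  rw [ae_iff, compl_univ_prod]

/-- **Varifold compactness along ultrafilters.** -/
theorem exists_vfconv {U : Set (Euc k)} (hU : IsOpen U) (𝒰 : Ultrafilter ι)
    (V : ι → Measure (Euc k × L k))
    (hG : ∀ᶠ i in (𝒰 : Filter ι), ∀ᵐ p ∂(V i), p.2 ∈ G m k)
    (hb : ∀ K ⊆ U, IsCompact K → ∃ C : ℝ, ∀ᶠ i in (𝒰 : Filter ι),
      V i (K ×ˢ univ) ≤ ENNReal.ofReal C) :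
    ∃ V₀ : Measure (Euc k × L k), V₀ (U ×ˢ univ)ᶜ = 0 ∧
      VfConv m k U (𝒰 : Filter ι) V V₀ := by
  have hO : IsOpen (U ×ˢ (univ : Set (L k))) := hU.prod isOpen_univ
  obtain ⟨V₀, h0, hconv⟩ := exists_vconv hO 𝒰 V (by
    intro K hK hc
    obtain ⟨C, hC⟩ := hb (Prod.fst '' K) (by rintro _ ⟨p, hp, rfl⟩; exact (hK hp).1)
      (hc.image continuous_fst)
    refine ⟨C, hC.mono fun i hi => le_trans (measure_mono ?_) hi⟩
    intro p hp
    exact ⟨⟨p, hp, rfl⟩, mem_univ _⟩)
  have hS : IsClosed ((univ : Set (Euc k)) ×ˢ G m k) := isClosed_univ.prod (isClosed_G m k)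
  have hconc : ∀ᶠ i in (𝒰 : Filter ι), V i ((univ : Set (Euc k)) ×ˢ G m k)ᶜ = 0 :=
    hG.mono fun i hi => ae_G_iff.1 hi
  refine ⟨V₀, h0, hconv, hconc, ?_⟩
  have h1 : V₀ (((univ : Set (Euc k)) ×ˢ G m k)ᶜ ∩ U ×ˢ univ) = 0 :=
    hconv.carrier hO hS (hconc.mono fun i hi => measure_mono_null inter_subset_left hi)
  have h2 : ((univ : Set (Euc k)) ×ˢ G m k)ᶜ ⊆
      (((univ : Set (Euc k)) ×ˢ G m k)ᶜ ∩ U ×ˢ univ) ∪ (U ×ˢ univ)ᶜ := by
    intro p hp
    by_cases hpU : p ∈ U ×ˢ (univ : Set (L k))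
    · exact Or.inl ⟨hp, hpU⟩
    · exact Or.inr hpU
  exact measure_mono_null h2 (measure_union_null h1 h0)

variable {U : Set (Euc k)} {V : ι → Measure (Euc k × L k)} {V₀ : Measure (Euc k × L k)}

/-- test functions on `Euc k × L k` with compact support in the first variable only. -/
theorem VfConv.tendsto (h : VfConv m k U F V V₀) (hU : IsOpen U) {f : Euc k × L k → ℝ}
    (hf : Continuous f) {K : Set (Euc k)} (hK : IsCompact K) (hKU : K ⊆ U)
    (hfK : ∀ x ∉ K, ∀ P, f (x, P) = 0) :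
    Tendsto (fun i => ∫ p, f p ∂(V i)) F (𝓝 (∫ p, f p ∂V₀)) := by
  refine h.conv.tendsto_carrier (hU.prod isOpen_univ) h.conc h.conc₀ hf
    (hK.prod (isCompact_G m k)) (prod_mono hKU (subset_univ _)) ?_
  rintro ⟨x, P⟩ ⟨-, hP⟩ hx
  refine hfK x (fun hxK => hx ⟨hxK, hP⟩) P

/-- the mass measures converge. -/
theorem VfConv.fst (h : VfConv m k U F V V₀) (hU : IsOpen U) :
    VConv U F (fun i => (V i).map Prod.fst) (V₀.map Prod.fst) where
  fin K hK hc := by
    have h1 : IsCompact (K ×ˢ G m k) := hc.prod (isCompact_G m k)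
    filter_upwards [h.conv.fin _ (prod_mono hK (subset_univ (G m k))) h1, h.conc] with i hi hi'
    rw [Measure.map_apply measurable_fst hc.measurableSet]
    refine lt_of_le_of_lt (measure_mono (t := (K ×ˢ G m k) ∪ ((univ : Set (Euc k)) ×ˢ G m k)ᶜ)
      ?_) ((measure_union_le _ _).trans_lt ?_)
    · rintro ⟨x, P⟩ hx
      by_cases hP : P ∈ G m k
      · exact Or.inl ⟨hx, hP⟩
      · exact Or.inr fun h => hP h.2
    · rw [hi', add_zero]; exact hi
  fin' K hK hc := by
    have h1 : IsCompact (K ×ˢ G m k) := hc.prod (isCompact_G m k)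
    have hi := h.conv.fin' _ (prod_mono hK (subset_univ (G m k))) h1
    rw [Measure.map_apply measurable_fst hc.measurableSet]
    refine lt_of_le_of_lt (measure_mono (t := (K ×ˢ G m k) ∪ ((univ : Set (Euc k)) ×ˢ G m k)ᶜ)
      ?_) ((measure_union_le _ _).trans_lt ?_)
    · rintro ⟨x, P⟩ hx
      by_cases hP : P ∈ G m k
      · exact Or.inl ⟨hx, hP⟩
      · exact Or.inr fun h => hP h.2
    · rw [h.conc₀, add_zero]; exact hi
  tendsto f hf hc hs := by
    have e : ∀ W : Measure (Euc k × L k), ∫ x, f x ∂(W.map Prod.fst) = ∫ p, f p.1 ∂W := by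
      intro W
      exact integral_map measurable_fst.aemeasurable
        (hf.stronglyMeasurable_of_hasCompactSupport hc).aestronglyMeasurable
    rw [e]
    simp_rw [e]
    refine h.tendsto hU (hf.comp continuous_fst) hc hs ?_
    intro x hx P
    exact image_eq_zero_of_notMem_tsupport hx

/-- integrals over `B × L` of functions continuous in `(x, P)`, `B` with null frontier. -/
theorem VfConv.tendsto_setIntegral (h : VfConv m k U F V V₀) (hU : IsOpen U)
    {f : Euc k × L k → ℝ} (hf : Continuous f) {B : Set (Euc k)} (hB : MeasurableSet B)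
    (hBc : IsCompact (closure B)) (hBU : closure B ⊆ U)
    (hfr : (V₀.map Prod.fst) (frontier B) = 0) :
    Tendsto (fun i => ∫ p in B ×ˢ univ, f p ∂(V i)) F (𝓝 (∫ p in B ×ˢ univ, f p ∂V₀)) := by
  have hcl : closure (B ×ˢ (univ : Set (L k))) = closure B ×ˢ univ := by
    rw [closure_prod_eq, closure_univ]
  refine h.conv.tendsto_setIntegral (hU.prod isOpen_univ) h.conc h.conc₀ hf
    (hB.prod MeasurableSet.univ) ?_ ?_ ?_
  · rw [hcl, prod_inter_prod, inter_univ, univ_inter]
    exact hBc.prod (isCompact_G m k)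
  · rw [hcl, prod_inter_prod]
    exact prod_mono (inter_subset_left.trans hBU) (subset_univ _)
  · rw [Measure.map_apply measurable_fst isClosed_frontier.measurableSet] at hfr
    refine measure_mono_null ?_ hfr
    rintro ⟨x, P⟩ ⟨hx, -⟩
    rw [frontier_prod_univ_eq] at hx
    exact hx.1

/-- the first variations converge. -/
theorem VfConv.tendsto_firstVariation (h : VfConv m k U F V V₀) (hU : IsOpen U)
    {X : Euc k → Euc k} (hX : ContDiff ℝ 1 X) (hc : HasCompactSupport X)
    (hs : tsupport X ⊆ U) :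
    Tendsto (fun i => ∫ p, tr ((fderiv ℝ X p.1) ∘L p.2) ∂(V i)) F
      (𝓝 (∫ p, tr ((fderiv ℝ X p.1) ∘L p.2) ∂V₀)) := by
  refine h.tendsto hU (f := fun p => tr ((fderiv ℝ X p.1) ∘L p.2)) ?_ hc hs ?_
  · exact tr.continuous.comp
      (((hX.continuous_fderiv one_ne_zero).comp continuous_fst).clm_comp continuous_snd)
  · intro x hx P
    have h0 : fderiv ℝ X x = 0 := by
      have : x ∉ tsupport (fderiv ℝ X) := fun h' => hx (tsupport_fderiv_subset ℝ h')
      exact image_eq_zero_of_notMem_tsupport this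
    simp only [h0]
    simp

/-- **Limits of (approximately) stationary varifolds are stationary.** -/
theorem VfConv.stat [F.NeBot] (h : VfConv m k U F V V₀) (hU : IsOpen U)
    (hst : ∀ X : Euc k → Euc k, ContDiff ℝ 1 X → HasCompactSupport X → tsupport X ⊆ U →
      Tendsto (fun i => ∫ p, tr ((fderiv ℝ X p.1) ∘L p.2) ∂(V i)) F (𝓝 0)) :
    Stat m k U V₀ where
  conc := ae_G_iff.2 h.conc₀
  fin K hK hKU := by
    have := (h.fst hU).fin' K hKU hK
    rw [Measure.map_apply measurable_fst hK.measurableSet] at this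
    refine lt_of_le_of_lt (measure_mono ?_) this
    rintro ⟨x, P⟩ hx
    exact hx.1
  stat X hX hc hs := tendsto_nhds_unique (h.tendsto_firstVariation hU hX hc hs) (hst X hX hc hs)

theorem VfConv.stat_of_stat [F.NeBot] (h : VfConv m k U F V V₀) (hU : IsOpen U)
    (hst : ∀ K ⊆ U, IsCompact K → ∀ᶠ i in F, ∃ U' ⊇ K, Stat m k U' (V i)) : Stat m k U V₀ := by
  refine h.stat hU fun X hX hc hs => ?_
  refine (tendsto_const_nhds (x := (0 : ℝ))).congr' ?_
  filter_upwards [hst _ hs hc] with i hi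
  obtain ⟨U', hU', hi⟩ := hi
  exact (hi.stat X hX hc hU').symm

end Crest.Agent.R234.Cp914
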