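import Crest.Agent.R234.Asl3_214

/-!
# Row 234, N0-COARSE, part 1 (helper173): the Caccioppoli inequality in the class `CylAS`

`∫ η(π z)² tl ≤ 16 h₀² ∫ (|Dη|² + η²)` for `δ ≤ 1/16`, `h₀ ≤ 1`, from the vertical field `η(π z)² κ†κ z`.
-/

set_option autoImplicit false

open MeasureTheory Set Function Filter Topology Metric
open Crest.GeometryTopology.Submanifold
open Crest.Agent.R234.Vf_884 Crest.Agent.R234.Ar_870 Crest.Agent.R234.Cy_870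
open Crest.Agent.R234.AS_456 (AS errA err hp vp)
open Crest.Agent.R234.Asl_214
open scoped ENNReal NNReal InnerProductSpace

noncomputable section

namespace Crest.Agent.R234.Crs_173

variable {m n k : ℕ} {π : Euc k →L[ℝ] Euc m} {κ : Euc k →L[ℝ] Euc n} {δ : ℝ}
  {x₀ x : Euc m} {R h₀ : ℝ} {W : Measure (Euc k × L k)}

/-- `|π P κ† w| ≤ √tl |w|` -/
theorem norm_mixed_le (hs : Split π κ) {P : L k} (hP : P ∈ G m k) (w : Euc n) :
    ‖π (P (ContinuousLinearMap.adjoint κ w))‖ ≤ √(tl π P) * ‖w‖ := by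
  have hPr := isPr_of_G hP
  have ht := tl_nonneg hs.hh hPr
  set u := π (P (ContinuousLinearMap.adjoint κ w)) with hu
  have h1 : ‖u‖ ^ 2 = ⟪w, Svh π κ P u⟫_ℝ := by
    rw [← inner_swap hPr, ← real_inner_self_eq_norm_sq]
  have h2 : ‖Svh π κ P u‖ ≤ ‖u‖ * √(tl π P) := by
    have h3 := (norm_Svh_sq_le hs hPr u).trans (qf_le_tl hs hP u)
    have h4 : ‖Svh π κ P u‖ ^ 2 ≤ (‖u‖ * √(tl π P)) ^ 2 := by
      rw [mul_pow, Real.sq_sqrt ht]; exact h3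
    exact (sq_le_sq₀ (norm_nonneg _) (by positivity)).1 h4
  have h3 : ‖u‖ * ‖u‖ ≤ (√(tl π P) * ‖w‖) * ‖u‖ := by
    calc ‖u‖ * ‖u‖ = ‖u‖ ^ 2 := (sq _).symm
      _ ≤ ‖w‖ * ‖Svh π κ P u‖ := by rw [h1]; exact real_inner_le_norm _ _
      _ ≤ ‖w‖ * (‖u‖ * √(tl π P)) := by gcongr
      _ = _ := by ring
  rcases eq_or_lt_of_le (norm_nonneg u) with h0 | h0
  · rw [← h0]; positivity
  · exact le_of_mul_le_mul_right h3 h0

theorem real_cacc {a b t y h d q : ℝ} (ha : 0 ≤ a) (hb : 0 ≤ b) (_ht : 0 ≤ t) (hy : 0 ≤ y)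
    (hyh : y ≤ h) (hh1 : h ≤ 1) (hd : 0 ≤ d) (hd1 : d ≤ 1 / 16) (hq : 0 ≤ q) (hq1 : q ≤ 1 / 4) :
    (d * (t + y) * ((2 * a * b) * y + a ^ 2 * y) + d * (t ^ 2 + y * t) * (a ^ 2 * 1) +
        q * t ^ 2 * (a ^ 2 * y)) + 2 * a * b * (t * y) ≤
      11 / 16 * (a ^ 2 * t ^ 2) + 5 * h ^ 2 * (b ^ 2 + a ^ 2) := by
  have hh0 : 0 ≤ h := hy.trans hyh
  have hy1 : y ≤ 1 := hyh.trans hh1
  have hy2 : y ^ 2 ≤ h ^ 2 := pow_le_pow_left₀ hy hyh 2
  have e1 : 2 * a * b * (t * y) ≤ 1 / 4 * (a ^ 2 * t ^ 2) + 4 * (b ^ 2 * h ^ 2) := by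
    have h1 : 2 * a * b * (t * y) ≤ 1 / 4 * (a ^ 2 * t ^ 2) + 4 * (b ^ 2 * y ^ 2) := by
      nlinarith [sq_nonneg (a * t / 2 - 2 * (b * y))]
    have h2 : b ^ 2 * y ^ 2 ≤ b ^ 2 * h ^ 2 := by gcongr
    linarith
  have e2 : d * (t * (2 * a * b * y)) ≤ 1 / 16 * (a ^ 2 * t ^ 2 + b ^ 2 * h ^ 2) := by
    have h1 : t * (2 * a * b * y) ≤ a ^ 2 * t ^ 2 + b ^ 2 * h ^ 2 := by
      have h2 : b ^ 2 * y ^ 2 ≤ b ^ 2 * h ^ 2 := by gcongr
      nlinarith [sq_nonneg (a * t - b * y)]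
    calc d * (t * (2 * a * b * y)) ≤ d * (a ^ 2 * t ^ 2 + b ^ 2 * h ^ 2) := by gcongr
      _ ≤ _ := by gcongr
  have e3 : d * (t * (a ^ 2 * y)) ≤ 1 / 32 * (a ^ 2 * t ^ 2 + a ^ 2 * h ^ 2) := by
    have h1 : t * (a ^ 2 * y) ≤ 1 / 2 * (a ^ 2 * t ^ 2 + a ^ 2 * h ^ 2) := by
      have h2 : a ^ 2 * y ^ 2 ≤ a ^ 2 * h ^ 2 := by gcongr
      nlinarith [sq_nonneg (a * (t - y))]
    calc d * (t * (a ^ 2 * y)) ≤ d * (1 / 2 * (a ^ 2 * t ^ 2 + a ^ 2 * h ^ 2)) := by gcongr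
      _ ≤ 1 / 16 * (1 / 2 * (a ^ 2 * t ^ 2 + a ^ 2 * h ^ 2)) := by gcongr
      _ = _ := by ring
  have e4 : d * (y * (2 * a * b * y + a ^ 2 * y)) ≤ 1 / 16 * (h ^ 2 * (2 * a ^ 2 + b ^ 2)) := by
    have h1 : y * (2 * a * b * y + a ^ 2 * y) ≤ h ^ 2 * (2 * a ^ 2 + b ^ 2) := by
      calc y * (2 * a * b * y + a ^ 2 * y) = y ^ 2 * (2 * a * b + a ^ 2) := by ring
        _ ≤ h ^ 2 * (2 * a * b + a ^ 2) := by gcongr
        _ ≤ h ^ 2 * (2 * a ^ 2 + b ^ 2) :=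
            mul_le_mul_of_nonneg_left (by nlinarith [sq_nonneg (a - b)]) (by positivity)
    calc d * (y * (2 * a * b * y + a ^ 2 * y)) ≤ d * (h ^ 2 * (2 * a ^ 2 + b ^ 2)) := by gcongr
      _ ≤ _ := by gcongr
  have e5 : d * (t ^ 2 * a ^ 2) ≤ 1 / 16 * (a ^ 2 * t ^ 2) := by
    calc d * (t ^ 2 * a ^ 2) ≤ 1 / 16 * (t ^ 2 * a ^ 2) := by gcongr
      _ = _ := by ring
  have e6 : d * (y * t * a ^ 2) ≤ 1 / 32 * (a ^ 2 * t ^ 2 + a ^ 2 * h ^ 2) := by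
    calc d * (y * t * a ^ 2) = d * (t * (a ^ 2 * y)) := by ring
      _ ≤ _ := e3
  have e7 : q * (t ^ 2 * (a ^ 2 * y)) ≤ 1 / 4 * (a ^ 2 * t ^ 2) := by
    calc q * (t ^ 2 * (a ^ 2 * y)) ≤ q * (t ^ 2 * (a ^ 2 * 1)) := by gcongr
      _ ≤ 1 / 4 * (t ^ 2 * (a ^ 2 * 1)) := by gcongr
      _ = _ := by ring
  have hb2 : 0 ≤ b ^ 2 * h ^ 2 := by positivity
  have ha2 : 0 ≤ a ^ 2 * h ^ 2 := by positivity
  nlinarith [e1, e2, e3, e4, e5, e6, e7]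

/-- **Caccioppoli inequality in `CylAS`**, general cut-off -/
theorem cacc_eta (h : CylAS W π κ x₀ R h₀ δ) (h0 : 0 ≤ δ) (hδ : δ ≤ 1 / 16)
    (hh1 : h₀ ≤ 1) {η : Euc m → ℝ} (hη : ContDiff ℝ 1 η)
    (hz : ∀ v, R ≤ ‖v - x₀‖ → η v = 0) :
    ∫ p, η (π p.1) ^ 2 * tl π p.2 ∂W ≤
      16 * h₀ ^ 2 * ∫ p, (‖fderiv ℝ η (π p.1)‖ ^ 2 + η (π p.1) ^ 2) ∂W := by
  have hηd : Continuous (fderiv ℝ η) := hη.continuous_fderiv one_ne_zero
  have hηc := hη.continuous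
  set f : Euc m → ℝ := fun v => η v ^ 2 with hf
  set df : Euc m → Euc m →L[ℝ] ℝ := fun v => (2 * η v) • fderiv ℝ η v with hdf
  have hfd : ∀ y, HasFDerivAt f (df y) y := by
    intro y
    have h1 := ((hη.differentiable one_ne_zero) y).hasFDerivAt.pow 2
    refine h1.congr_fderiv ?_
    ext v
    simp [hdf]
  have hdfc : Continuous df := (continuous_const.mul hηc).smul hηd
  set ψ : Euc n → Euc n := fun v => v with hψ
  have hψd : ∀ v, HasFDerivAt ψ (ContinuousLinearMap.id ℝ (Euc n)) v := fun v => hasFDerivAt_id v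
  have key := h.fv_ver h0 hfd hdfc hψd continuous_const (fun v hv => by
    simp only [hf]; rw [hz v hv]; norm_num)
  -- the trace
  have htr : ∀ᵐ p ∂W, tr ((fderiv ℝ (fun p => f (π p) • ContinuousLinearMap.adjoint κ (ψ (κ p))) p.1)
      ∘L p.2) = η (π p.1) ^ 2 * tl π p.2 +
        df (π p.1) (π (p.2 (ContinuousLinearMap.adjoint κ (κ p.1)))) := by
    filter_upwards [h.conc] with p hp
    rw [tr_field κ π p.1 p.2 (hfd _).differentiableAt (hψd _).differentiableAt, (hfd _).fderiv,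
      (hψd _).fderiv, ContinuousLinearMap.id_comp, tr_Svv h.sp hp]
  have c1 := CylAS.continuous_tl (k := k) π
  have c2 : Continuous fun p : Euc k × L k => ‖κ p.1‖ := (κ.continuous.comp continuous_fst).norm
  have c3 : Continuous fun p : Euc k × L k => η (π p.1) :=
    hηc.comp (π.continuous.comp continuous_fst)
  have c4 : Continuous fun p : Euc k × L k => df (π p.1) :=
    hdfc.comp (π.continuous.comp continuous_fst)
  have c5 : Continuous fun p : Euc k × L k => ‖fderiv ℝ η (π p.1)‖ :=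
    (hηd.comp (π.continuous.comp continuous_fst)).norm
  have c6 : Continuous fun p : Euc k × L k =>
      df (π p.1) (π (p.2 (ContinuousLinearMap.adjoint κ (κ p.1)))) :=
    c4.clm_apply (π.continuous.comp (continuous_snd.clm_apply
      ((ContinuousLinearMap.adjoint κ).continuous.comp (κ.continuous.comp continuous_fst))))
  have i1 : Integrable (fun p : Euc k × L k => η (π p.1) ^ 2 * tl π p.2) W :=
    h.integrable_continuous ((c3.pow 2).mul c1)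
  have i2 := h.integrable_continuous c6
  have i3 : Integrable (fun p : Euc k × L k => ‖fderiv ℝ η (π p.1)‖ ^ 2 + η (π p.1) ^ 2) W :=
    h.integrable_continuous ((c5.pow 2).add (c3.pow 2))
  have eFV : FV W (fun p => f (π p) • ContinuousLinearMap.adjoint κ (ψ (κ p))) =
      (∫ p, η (π p.1) ^ 2 * tl π p.2 ∂W) +
        ∫ p, df (π p.1) (π (p.2 (ContinuousLinearMap.adjoint κ (κ p.1)))) ∂W := by
    unfold FV
    rw [integral_congr_ae htr]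
    exact integral_add i1 i2
  rw [eFV] at key
  set E : Euc k × L k → ℝ := fun p => (δ * (√(tl π p.2) + ‖κ p.1‖) *
          (‖df (π p.1)‖ * ‖ψ (κ p.1)‖ + |f (π p.1)| * ‖ψ (κ p.1)‖) +
        δ * (tl π p.2 + ‖κ p.1‖ * √(tl π p.2)) * (|f (π p.1)| * ‖ContinuousLinearMap.id ℝ (Euc n)‖) +
        √δ * tl π p.2 * (|f (π p.1)| * ‖ψ (κ p.1)‖)) with hE
  have cE : Continuous E := by
    have d1 : Continuous fun p : Euc k × L k => ‖df (π p.1)‖ := c4.norm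
    have d2 : Continuous fun p : Euc k × L k => |f (π p.1)| := (c3.pow 2).abs
    have d3 : Continuous fun p : Euc k × L k => ‖ψ (κ p.1)‖ := c2
    exact (((continuous_const.mul (c1.sqrt.add c2)).mul ((d1.mul d3).add (d2.mul d3))).add
      ((continuous_const.mul (c1.add (c2.mul c1.sqrt))).mul (d2.mul continuous_const))).add
      ((continuous_const.mul c1).mul (d2.mul d3))
  have i4 := h.integrable_continuous cE
  have i5 : Integrable (fun p : Euc k × L k =>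
      |df (π p.1) (π (p.2 (ContinuousLinearMap.adjoint κ (κ p.1))))|) W := i2.abs
  have h2 : ∫ p, (E p + |df (π p.1) (π (p.2 (ContinuousLinearMap.adjoint κ (κ p.1))))|) ∂W ≤
      ∫ p, (11 / 16 * (η (π p.1) ^ 2 * tl π p.2) +
        5 * h₀ ^ 2 * (‖fderiv ℝ η (π p.1)‖ ^ 2 + η (π p.1) ^ 2)) ∂W := by
    refine integral_mono_ae (i4.add i5) ((i1.const_mul _).add (i3.const_mul _)) ?_
    filter_upwards [h.conc, h.hgt] with p hp hy
    have ht := tl_nonneg h.sp.hh (isPr_of_G hp)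
    set t := √(tl π p.2) with htd
    have ht2 : tl π p.2 = t ^ 2 := (Real.sq_sqrt ht).symm
    have ha : |f (π p.1)| = |η (π p.1)| ^ 2 := by
      simp only [hf]; rw [sq_abs, abs_of_nonneg (sq_nonneg _)]
    have hb : ‖df (π p.1)‖ = 2 * |η (π p.1)| * ‖fderiv ℝ η (π p.1)‖ := by
      simp only [hdf]
      rw [norm_smul, Real.norm_eq_abs, abs_mul, abs_of_nonneg (by norm_num : (0 : ℝ) ≤ 2)]
    have hmix : |df (π p.1) (π (p.2 (ContinuousLinearMap.adjoint κ (κ p.1))))| ≤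
        2 * |η (π p.1)| * ‖fderiv ℝ η (π p.1)‖ * (t * ‖κ p.1‖) := by
      rw [← Real.norm_eq_abs, ← hb]
      refine (ContinuousLinearMap.le_opNorm _ _).trans ?_
      gcongr
      exact norm_mixed_le h.sp hp _
    have hsq : √δ ≤ 1 / 4 := by
      rw [Real.sqrt_le_left (by norm_num)]
      linarith
    have hid : ‖ContinuousLinearMap.id ℝ (Euc n)‖ ≤ 1 := ContinuousLinearMap.norm_id_le
    have hr := real_cacc (a := |η (π p.1)|) (b := ‖fderiv ℝ η (π p.1)‖) (t := t) (y := ‖κ p.1‖)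
      (h := h₀) (d := δ) (q := √δ) (abs_nonneg _) (norm_nonneg _) (Real.sqrt_nonneg _)
      (norm_nonneg _) hy hh1 h0 hδ (Real.sqrt_nonneg _) hsq
    have hEp : E p ≤ δ * (t + ‖κ p.1‖) * ((2 * |η (π p.1)| * ‖fderiv ℝ η (π p.1)‖) * ‖κ p.1‖ +
        |η (π p.1)| ^ 2 * ‖κ p.1‖) + δ * (t ^ 2 + ‖κ p.1‖ * t) * (|η (π p.1)| ^ 2 * 1) +
        √δ * t ^ 2 * (|η (π p.1)| ^ 2 * ‖κ p.1‖) := by
      have hEp' : E p = δ * (t + ‖κ p.1‖) * ((2 * |η (π p.1)| * ‖fderiv ℝ η (π p.1)‖) * ‖κ p.1‖ +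
        |η (π p.1)| ^ 2 * ‖κ p.1‖) + δ * (t ^ 2 + ‖κ p.1‖ * t) *
          (|η (π p.1)| ^ 2 * ‖ContinuousLinearMap.id ℝ (Euc n)‖) +
        √δ * t ^ 2 * (|η (π p.1)| ^ 2 * ‖κ p.1‖) := by
        change (δ * (√(tl π p.2) + ‖κ p.1‖) *
          (‖df (π p.1)‖ * ‖κ p.1‖ + |f (π p.1)| * ‖κ p.1‖) +
          δ * (tl π p.2 + ‖κ p.1‖ * √(tl π p.2)) *
            (|f (π p.1)| * ‖ContinuousLinearMap.id ℝ (Euc n)‖) +
          √δ * tl π p.2 * (|f (π p.1)| * ‖κ p.1‖)) = _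
        rw [ha, hb, ← htd, ht2]
      rw [hEp']
      gcongr
    change E p + _ ≤ 11 / 16 * (η (π p.1) ^ 2 * tl π p.2) +
        5 * h₀ ^ 2 * (‖fderiv ℝ η (π p.1)‖ ^ 2 + η (π p.1) ^ 2)
    rw [ht2, ← sq_abs (η (π p.1))]
    linarith
  have h3 : ∫ p, (E p + |df (π p.1) (π (p.2 (ContinuousLinearMap.adjoint κ (κ p.1))))|) ∂W =
      (∫ p, E p ∂W) + ∫ p, |df (π p.1) (π (p.2 (ContinuousLinearMap.adjoint κ (κ p.1))))| ∂W :=
    integral_add i4 i5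
  have h4 : ∫ p, (11 / 16 * (η (π p.1) ^ 2 * tl π p.2) +
        5 * h₀ ^ 2 * (‖fderiv ℝ η (π p.1)‖ ^ 2 + η (π p.1) ^ 2)) ∂W =
      11 / 16 * (∫ p, η (π p.1) ^ 2 * tl π p.2 ∂W) +
        5 * h₀ ^ 2 * ∫ p, (‖fderiv ℝ η (π p.1)‖ ^ 2 + η (π p.1) ^ 2) ∂W := by
    rw [integral_add (i1.const_mul _) (i3.const_mul _), integral_const_mul, integral_const_mul]
  have h5 : |∫ p, df (π p.1) (π (p.2 (ContinuousLinearMap.adjoint κ (κ p.1)))) ∂W| ≤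
      ∫ p, |df (π p.1) (π (p.2 (ContinuousLinearMap.adjoint κ (κ p.1))))| ∂W :=
    abs_integral_le_integral_abs
  rw [h3, h4] at h2
  have h6 : 0 ≤ ∫ p, (‖fderiv ℝ η (π p.1)‖ ^ 2 + η (π p.1) ^ 2) ∂W :=
    integral_nonneg fun p => by positivity
  have h7 := (abs_le.1 key).2
  have h8 := (abs_le.1 h5).1
  have h9 : (0 : ℝ) ≤ h₀ ^ 2 * ∫ p, (‖fderiv ℝ η (π p.1)‖ ^ 2 + η (π p.1) ^ 2) ∂W := by positivity
  nlinarith

end Crest.Agent.R234.Crs_173
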