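import Crest.Agent.R234.Th11_164

/-!
# Row 234, VF-THETA, final interface (helper164)

`Setup π W R N δ h q` : a finite general varifold `W` over an open set `R` of the base, covering number `N`, first
variation on horizontal fields `π† ξ(π z)` bounded by `∫ δ (tl + q) (|Dξ| + |ξ|) dW`, `q ≤ h`
(`δ = 0`, `q = 0`: stationary; `q = |y|²`: class `AS`).
`Setup.of_stat`, `Setup.of_AS`, `area_VD`.
`THETA` : holes and overlaps `N ≠ Q`, the anomaly `b` and the mass over the bad points are controlled by the energy of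
the steep part, `∫ |N - Q| ≤ K ∫ tl 1_(tl > σ) dW ≤ (K/σ) ∫ tl² dW`.
-/

set_option autoImplicit false

open Set Filter Topology MeasureTheory Metric
open Crest.GeometryTopology.Submanifold
open Crest.Agent.R234.Vf_884 Crest.Agent.R234.Ar_870 Crest.Agent.R234.Cy_870
open Crest.Agent.R234.AS_456 (AS err errA hp vp)
open scoped ENNReal NNReal ContDiff InnerProductSpace

noncomputable section

namespace Crest.Agent.R234.Th_164

variable {m n k : ℕ} {π : Euc k →L[ℝ] Euc m} {κ : Euc k →L[ℝ] Euc n}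

/-- general setup of VF-THETA -/
structure Setup (π : Euc k →L[ℝ] Euc m) (W : Measure (Euc k × L k)) (R : Set (Euc m))
    (N : Euc m → ℝ≥0∞) (δ h : ℝ) (q : Euc k → ℝ) : Prop where
  fin : IsFiniteMeasure W
  co : IsCo π
  conc : ∀ᵐ p ∂W, p.2 ∈ G m k
  isOpen : IsOpen R
  area : Area W π R N
  δ_nonneg : 0 ≤ δ
  δ_le : δ ≤ 1
  h_nonneg : 0 ≤ h
  q_meas : Measurable q
  q_nonneg : ∀ z, 0 ≤ q z
  q_le : ∀ᵐ p ∂W, q p.1 ≤ h
  fv : ∀ ξ : Euc m → Euc m, ContDiff ℝ ∞ ξ → HasCompactSupport ξ → tsupport ξ ⊆ R →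
    |FV W (fun p => ContinuousLinearMap.adjoint π (ξ (π p)))| ≤
      ∫ p, wg π δ q p * (‖fderiv ℝ ξ (π p.1)‖ + ‖ξ (π p.1)‖) ∂W

theorem Setup.of_stat {W : Measure (Euc k × L k)} {x₀ : Euc m} {R h₀ : ℝ}
    (h : CylStat W π κ x₀ R h₀) {N : Euc m → ℝ≥0∞} (hN : Area W π (ball x₀ R) N) :
    Setup π W (ball x₀ R) N 0 0 (fun _ => 0) where
  fin := ⟨h.fin⟩
  co := h.sp.hh
  conc := h.conc
  isOpen := isOpen_ball
  area := hN
  δ_nonneg := le_rfl
  δ_le := zero_le_one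
  h_nonneg := le_rfl
  q_meas := measurable_const
  q_nonneg _ := le_rfl
  q_le := Eventually.of_forall fun _ => le_rfl
  fv ξ hξ _ hξR := by
    have h2 : FV W (fun p => ContinuousLinearMap.adjoint π (ξ (π p))) = 0 := by
      refine h.stat _ ?_ ?_
      · exact (ContinuousLinearMap.adjoint π).contDiff.comp
          ((hξ.of_le (by exact_mod_cast le_top)).comp π.contDiff)
      · intro p hp
        have h3 : ξ (π p) = 0 := by
          refine image_eq_zero_of_notMem_tsupport fun hm => ?_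
          have h4 := hξR hm
          rw [mem_ball, dist_eq_norm] at h4
          linarith
        rw [h3, map_zero]
    rw [h2]
    simp [wg]

theorem Setup.of_AS {U : Set (Euc k)} {V : Measure (Euc k × L k)} {δ : ℝ} (hδ : 0 ≤ δ) (hδ1 : δ ≤ 1)
    (hV : AS π U δ V) (hs : Split π κ) {x₀ : Euc m} {R h₀ h₁ : ℝ} (h0 : 0 ≤ h₀) (h01 : h₀ < h₁)
    (hU : cyl π κ x₀ R h₁ ⊆ U)
    (hgap : ∀ᵐ p ∂V, p.1 ∈ cyl π κ x₀ R h₁ → ‖κ p.1‖ ≤ h₀) {N : Euc m → ℝ≥0∞}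
    (hN : Area (V.restrict (cyl π κ x₀ R h₁ ×ˢ univ)) π (ball x₀ R) N) :
    Setup π (V.restrict (cyl π κ x₀ R h₁ ×ˢ univ)) (ball x₀ R) N δ (h₀ ^ 2)
      (fun z => ‖vp π z‖ ^ 2) where
  fin := ⟨by
    rw [Measure.restrict_apply_univ]
    exact hV.fin _ (isCompact_cyl hs x₀ R h₁) hU⟩
  co := hs.hh
  conc := ae_restrict_of_ae hV.conc
  isOpen := isOpen_ball
  area := hN
  δ_nonneg := hδ
  δ_le := hδ1
  h_nonneg := by positivity
  q_meas := ((vp π).continuous.norm.pow 2).measurable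
  q_nonneg z := by positivity
  q_le := by
    have hmeas : MeasurableSet (cyl π κ x₀ R h₁ ×ˢ (univ : Set (L k))) :=
      (isClosed_cyl π κ x₀ R h₁).measurableSet.prod MeasurableSet.univ
    rw [ae_restrict_iff' hmeas]
    filter_upwards [hgap] with p hp hpm
    have h1 := hp hpm.1
    rw [norm_vp_eq hs]
    exact pow_le_pow_left₀ (norm_nonneg _) h1 2
  fv ξ hξ hξc hξR := FV_cyl_AS hδ hV hs h01 (h0.trans_lt h01) hU hgap hξ hξc hξR

/-- smaller base -/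
theorem Setup.mono {W : Measure (Euc k × L k)} {R R' : Set (Euc m)} {N : Euc m → ℝ≥0∞} {δ h : ℝ}
    {q : Euc k → ℝ} (hS : Setup π W R N δ h q) (hR' : IsOpen R') (hsub : R' ⊆ R) :
    Setup π W R' N δ h q where
  fin := hS.fin
  co := hS.co
  conc := hS.conc
  isOpen := hR'
  area := ⟨hS.area.meas, ae_mono (Measure.restrict_mono hsub le_rfl) hS.area.nat,
    fun g hg h0 => hS.area.area g hg fun x hx => h0 x fun hx' => hx (hsub hx')⟩
  δ_nonneg := hS.δ_nonneg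
  δ_le := hS.δ_le
  h_nonneg := hS.h_nonneg
  q_meas := hS.q_meas
  q_nonneg := hS.q_nonneg
  q_le := hS.q_le
  fv ξ hξ hξc hξR := hS.fv ξ hξ hξc (hξR.trans hsub)

set_option maxHeartbeats 800000 in
/-- **VF-THETA**. -/
theorem THETA (m Q : ℕ) : ∃ σ δ₁ δ₃ K : ℝ, 0 < σ ∧ σ ≤ 1 / 4 ∧ 0 < δ₁ ∧ δ₁ ≤ 1 ∧ 0 < δ₃ ∧ δ₃ ≤ δ₁ ∧
    0 < K ∧
    ∀ (k : ℕ) (π : Euc k →L[ℝ] Euc m) (W : Measure (Euc k × L k)) (R : Set (Euc m))
      (N : Euc m → ℝ≥0∞) (δ h : ℝ) (q : Euc k → ℝ), Setup π W R N δ h q → δ * h ≤ δ₃ →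
      ∀ (c : Euc m) (r : ℝ), 0 < r → ball c (4 * r) ⊆ R → δ * (m + h) * r ≤ δ₃ →
      W.real ((fun p => π p.1) ⁻¹' ball c (4 * r)) ≤ (Q + 1) * om m * (4 * r) ^ m →
      ∫ p in (fun p => π p.1) ⁻¹' ball c (4 * r), tl π p.2 ∂W ≤ δ₃ * r ^ m →
      |W.real ((fun p => π p.1) ⁻¹' ball c r) - Q * om m * r ^ m| ≤ om m / 4 * r ^ m →
      (∀ᵐ x, x ∈ ball c (r / 2) → x ∉ Bad δ₁ (r / 16) (wM W π (ws π σ)) (ball c (r / 2)) →
        N x = Q) ∧
      (∀ x ∈ Bad δ₁ (r / 16) (wM W π (ws π σ)) (ball c (r / 2)), ∃ ρ, 0 < ρ ∧ ρ ≤ r / 16 ∧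
        δ₁ * ρ ^ m < ∫ p in (fun p => π p.1) ⁻¹' ball x ρ, ws π σ p ∂W ∧
        (∀ t, 3 * ρ ≤ t → t ≤ r / 2 →
          ∫ p in (fun p => π p.1) ⁻¹' ball x t, ws π σ p ∂W ≤ δ₁ * t ^ m ∧
          ∫ y in ball x t, |(N y).toReal - Q| ≤ K * t ^ m ∧
          W.real ((fun p => π p.1) ⁻¹' ball x t) ≤ K * t ^ m)) ∧
      (volume (Bad δ₁ (r / 16) (wM W π (ws π σ)) (ball c (r / 2)))).toReal ≤
        K * ∫ p in (fun p => π p.1) ⁻¹' ball c r, ws π σ p ∂W ∧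
      (muM W π (Bad δ₁ (r / 16) (wM W π (ws π σ)) (ball c (r / 2)))).toReal ≤
        K * ∫ p in (fun p => π p.1) ⁻¹' ball c r, ws π σ p ∂W ∧
      ∫ y in ball c (r / 2), |(N y).toReal - Q| ≤
        K * ∫ p in (fun p => π p.1) ⁻¹' ball c r, ws π σ p ∂W ∧
      (∫ p in (fun p => π p.1) ⁻¹' ball c r, ws π σ p ∂W ≤
        σ⁻¹ * ∫ p in (fun p => π p.1) ⁻¹' ball c r, tl π p.2 ^ 2 ∂W) ∧
      ∀ f : Euc m → ℝ, Continuous f → (∀ x, |f x| ≤ 1) → (∀ x, x ∉ ball c (r / 2) → f x = 0) →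
        |(∫ p, f (π p.1) ∂W) - Q * (∫ x, f x) - 1 / 2 * ∫ p, tl π p.2 * f (π p.1) ∂W| ≤
          (1 / 2 + K / σ) * ∫ p in (fun p => π p.1) ⁻¹' ball c r, tl π p.2 ^ 2 ∂W := by
  obtain ⟨σ, δ₁, δ₃, K, hσ, hσ1, hδ1, hδ1', hδ3, hδ31, hK, hT⟩ := theta m Q
  refine ⟨σ, δ₁, δ₃, K, hσ, hσ1, hδ1, hδ1', hδ3, hδ31, hK, ?_⟩
  intro k π W R N δ h q hS hδh c r hr hcR hgr hmass htilt hnear
  obtain ⟨t1, t2, t3, t4, t5⟩ := hT k π W hS.fin hS.co hS.conc R hS.isOpen N hS.area δ h hS.δ_nonneg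
    hS.δ_le hS.h_nonneg q hS.q_meas hS.q_nonneg hS.q_le hS.fv hδh c r hr hcR hgr hmass htilt hnear
  have := hS.fin
  have hRb : ball c (4 * r) ⊆ R := hcR
  have hsub : ball c (r / 2) ⊆ ball c r := ball_subset_ball (by linarith)
  have hsub4 : ball c (r / 2) ⊆ ball c (4 * r) := ball_subset_ball (by linarith)
  have hit2 : Integrable (fun p : Euc k × L k => tl π p.2 ^ 2) W := by
    refine Integrable.of_bound ((measurable_tl2 π).pow_const 2).aestronglyMeasurable (m ^ 2) ?_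
    filter_upwards [hS.conc] with p hp
    have h1 := tl_le hS.co (isPr_of_G hp)
    have h0 := tl_nonneg hS.co (isPr_of_G hp)
    rw [Real.norm_eq_abs, abs_of_nonneg (by positivity)]
    gcongr
  have hwsi : Integrable (ws π σ) W := by
    refine Integrable.of_bound (measurable_ws π σ).aestronglyMeasurable m ?_
    filter_upwards [hS.conc] with p hp
    have h1 := tl_le hS.co (isPr_of_G hp)
    have h0 := tl_nonneg hS.co (isPr_of_G hp)
    rw [Real.norm_eq_abs, abs_of_nonneg (ws_nonneg hS.co hp)]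
    unfold ws
    by_cases hs : p ∈ {p : Euc k × L k | σ < tl π p.2}
    · rw [Set.indicator_of_mem hs]; exact h1
    · rw [Set.indicator_of_notMem hs]; positivity
  have t6 : ∫ p in (fun p => π p.1) ⁻¹' ball c r, ws π σ p ∂W ≤
      σ⁻¹ * ∫ p in (fun p => π p.1) ⁻¹' ball c r, tl π p.2 ^ 2 ∂W := by
    rw [← integral_const_mul]
    refine integral_mono_ae hwsi.integrableOn (hit2.integrableOn.const_mul _) ?_
    filter_upwards [ae_restrict_of_ae hS.conc] with p hp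
    have h1 := ws_le (m := m) hσ hS.co hp
    calc ws π σ p ≤ tl π p.2 ^ 2 / σ := h1
      _ = σ⁻¹ * tl π p.2 ^ 2 := by ring
  refine ⟨t1, t2, t3, t4, t5, t6, ?_⟩
  intro f hf hf1 hf0
  have hR4 : MeasurableSet (ball c (4 * r)) := measurableSet_ball
  have hS4 := hS.mono isOpen_ball hcR
  have h1 := abs_b_le (W := W) hS.co hS.conc hR4 measure_ball_lt_top.ne hS4.area (Q := (Q : ℝ)) hf hf1
    (B := ball c (r / 2)) measurableSet_ball hsub4 hf0
  refine h1.trans ?_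
  have h2 : ∫ p in (fun p => π p.1) ⁻¹' ball c (r / 2), tl π p.2 ^ 2 ∂W ≤
      ∫ p in (fun p => π p.1) ⁻¹' ball c r, tl π p.2 ^ 2 ∂W :=
    setIntegral_mono_set hit2.integrableOn (Eventually.of_forall fun p => by positivity)
      (preimage_mono hsub).eventuallyLE
  have h3 := mul_le_mul_of_nonneg_left t6 hK.le
  calc _ ≤ 1 / 2 * (∫ p in (fun p => π p.1) ⁻¹' ball c r, tl π p.2 ^ 2 ∂W) +
        K * (σ⁻¹ * ∫ p in (fun p => π p.1) ⁻¹' ball c r, tl π p.2 ^ 2 ∂W) := by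
        gcongr
        exact t5.trans h3
    _ = _ := by ring

end Crest.Agent.R234.Th_164
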