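import Crest.Agent.R234.Crs1_173
import Crest.Agent.R234.Th12_164

/-!
# Row 234, N0-COARSE, part 2 (helper173): Caccioppoli on balls, masses of cylinders and annuli

`cacc`   : `∫_{|π z - x| < r} tl ≤ C (h₀/r)² W{|π z - x| < 2r}` in the class `CylAS`.
`mass_cyl` : masses of cylinders of radius `≥ h₀` from the upper mass bound in ambient balls.
`measure_mul_le_of_ball` : `μ(S) |B_d| ≤ sup_y μ(B_d(y)) |S + B_d|`.
-/

set_option autoImplicit false

open MeasureTheory Set Function Filter Topology Metric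
open Crest.GeometryTopology.Submanifold
open Crest.Agent.R234.Vf_884 Crest.Agent.R234.Ar_870 Crest.Agent.R234.Cy_870
open Crest.Agent.R234.AS_456 (AS errA err hp vp)
open Crest.Agent.R234.Asl_214 Crest.Agent.R234.Th_164
open scoped ENNReal NNReal InnerProductSpace

noncomputable section

namespace Crest.Agent.R234.Crs_173

variable {m n k : ℕ} {π : Euc k →L[ℝ] Euc m} {κ : Euc k →L[ℝ] Euc n} {δ : ℝ}
  {x₀ x : Euc m} {R h₀ : ℝ} {W : Measure (Euc k × L k)}

/-- cut-off functions with gradient at most `K / r` -/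
theorem exists_cut (m : ℕ) : ∃ K : ℝ, 1 ≤ K ∧ ∀ (x : Euc m) (r : ℝ), 0 < r →
    ∃ η : Euc m → ℝ, ContDiff ℝ 1 η ∧ (∀ v, 0 ≤ η v) ∧ (∀ v, η v ≤ 1) ∧
      (∀ v, ‖v - x‖ < r → η v = 1) ∧ (∀ v, 2 * r ≤ ‖v - x‖ → η v = 0) ∧
      (∀ v, 2 * r ≤ ‖v - x‖ → fderiv ℝ η v = 0) ∧ ∀ v, ‖fderiv ℝ η v‖ ≤ K / r := by
  set b : ContDiffBump (0 : Euc m) := ⟨1, 3 / 2, one_pos, by norm_num⟩ with hb
  have hbs : ContDiff ℝ 1 b := b.contDiff
  have hbc : HasCompactSupport b := b.hasCompactSupport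
  obtain ⟨K, hK⟩ := (hbc.fderiv ℝ).exists_bound_of_continuous
    (hbs.continuous_fderiv one_ne_zero)
  refine ⟨max K 1, le_max_right _ _, fun x r hr => ?_⟩
  have hnorm : ∀ v, ‖r⁻¹ • (v - x)‖ = ‖v - x‖ / r := fun v => by
    rw [norm_smul, norm_inv, Real.norm_eq_abs, abs_of_pos hr, inv_mul_eq_div]
  have hd : ∀ v, HasFDerivAt (fun v => b (r⁻¹ • (v - x)))
      ((fderiv ℝ b (r⁻¹ • (v - x))) ∘L (r⁻¹ • ContinuousLinearMap.id ℝ (Euc m))) v := by
    intro v
    have h1 : HasFDerivAt (fun v : Euc m => r⁻¹ • (v - x))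
        (r⁻¹ • ContinuousLinearMap.id ℝ (Euc m)) v :=
      ((hasFDerivAt_id (𝕜 := ℝ) v).sub_const x).const_smul r⁻¹
    exact ((hbs.differentiable one_ne_zero) _).hasFDerivAt.comp v h1
  refine ⟨fun v => b (r⁻¹ • (v - x)), ?_, fun v => b.nonneg, fun v => b.le_one, ?_, ?_, ?_, ?_⟩
  · exact hbs.comp ((contDiff_id.sub contDiff_const).const_smul _)
  · intro v hv
    refine b.one_of_mem_closedBall ?_
    rw [mem_closedBall_zero_iff, hnorm]
    change ‖v - x‖ / r ≤ 1
    rw [div_le_one hr]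
    exact hv.le
  · intro v hv
    refine b.zero_of_le_dist ?_
    rw [dist_zero_right, hnorm]
    change 3 / 2 ≤ ‖v - x‖ / r
    rw [le_div_iff₀ hr]
    linarith
  · intro v hv
    rw [(hd v).fderiv]
    have h1 : fderiv ℝ b (r⁻¹ • (v - x)) = 0 := by
      by_contra hcon
      have h2 := support_fderiv_subset ℝ hcon
      rw [b.tsupport_eq, mem_closedBall_zero_iff, hnorm] at h2
      have h3 : ‖v - x‖ / r ≤ 3 / 2 := h2
      rw [div_le_iff₀ hr] at h3
      linarith
    rw [h1, ContinuousLinearMap.zero_comp]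
  · intro v
    rw [(hd v).fderiv]
    refine (ContinuousLinearMap.opNorm_comp_le _ _).trans ?_
    have h1 : ‖r⁻¹ • ContinuousLinearMap.id ℝ (Euc m)‖ ≤ r⁻¹ := by
      rw [norm_smul, norm_inv, Real.norm_eq_abs, abs_of_pos hr]
      calc r⁻¹ * ‖ContinuousLinearMap.id ℝ (Euc m)‖ ≤ r⁻¹ * 1 := by
            gcongr
            exact ContinuousLinearMap.norm_id_le
        _ = r⁻¹ := mul_one _
    calc ‖fderiv ℝ b (r⁻¹ • (v - x))‖ * ‖r⁻¹ • ContinuousLinearMap.id ℝ (Euc m)‖
        ≤ max K 1 * r⁻¹ := by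
          gcongr
          exact (hK _).trans (le_max_left _ _)
      _ = _ := (div_eq_mul_inv _ _).symm

/-- **Caccioppoli inequality in `CylAS`** (309's (a)) -/
theorem cacc (m : ℕ) : ∃ Ca : ℝ, 1 ≤ Ca ∧ ∀ {n k : ℕ} {π : Euc k →L[ℝ] Euc m}
    {κ : Euc k →L[ℝ] Euc n} {W : Measure (Euc k × L k)} {x₀ : Euc m} {R h₀ δ : ℝ},
    CylAS W π κ x₀ R h₀ δ → 0 ≤ δ → δ ≤ 1 / 16 → h₀ ≤ 1 → ∀ (x : Euc m) (r : ℝ), 0 < r → r ≤ 1 →
      ‖x - x₀‖ + 2 * r ≤ R → TB W π x r ≤ Ca * (h₀ / r) ^ 2 * MB W π x (2 * r) := by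
  obtain ⟨K, hK1, hcut⟩ := exists_cut m
  refine ⟨16 * (K ^ 2 + 1), by nlinarith, ?_⟩
  intro n k π κ W x₀ R h₀ δ h h0 hδ hh1 x r hr hr1 hxR
  have : IsFiniteMeasure W := ⟨h.fin⟩
  obtain ⟨η, hη, hη0, hη1, hηr, hη2, hηd, hηK⟩ := hcut x r hr
  have hfar : ∀ v, R ≤ ‖v - x₀‖ → 2 * r ≤ ‖v - x‖ := by
    intro v hv
    have h1 : ‖v - x₀‖ ≤ ‖v - x‖ + ‖x - x₀‖ := by
      calc ‖v - x₀‖ = ‖(v - x) + (x - x₀)‖ := by congr 1; abel
        _ ≤ _ := norm_add_le _ _
    linarith
  have key := cacc_eta h h0 hδ hh1 hη (fun v hv => hη2 v (hfar v hv))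
  have hηc := hη.continuous
  have hfd := hη.continuous_fderiv one_ne_zero
  have c1 := CylAS.continuous_tl (k := k) π
  have c3 : Continuous fun p : Euc k × L k => η (π p.1) :=
    hηc.comp (π.continuous.comp continuous_fst)
  have c5 : Continuous fun p : Euc k × L k => ‖fderiv ℝ η (π p.1)‖ :=
    (hfd.comp (π.continuous.comp continuous_fst)).norm
  have i1 : Integrable (fun p : Euc k × L k => η (π p.1) ^ 2 * tl π p.2) W :=
    h.integrable_continuous ((c3.pow 2).mul c1)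
  have i0 : Integrable (fun p : Euc k × L k => tl π p.2) W := h.integrable_continuous c1
  have i3 : Integrable (fun p : Euc k × L k => ‖fderiv ℝ η (π p.1)‖ ^ 2 + η (π p.1) ^ 2) W :=
    h.integrable_continuous ((c5.pow 2).add (c3.pow 2))
  have h1 : TB W π x r ≤ ∫ p, η (π p.1) ^ 2 * tl π p.2 ∂W := by
    unfold TB
    rw [← integral_indicator (measurableSet_ovr π x r)]
    refine integral_mono_ae (i0.indicator (measurableSet_ovr π x r)) i1 ?_
    filter_upwards [h.tl_nonneg'] with p hp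
    by_cases hpm : p ∈ ovr π x r
    · rw [Set.indicator_of_mem hpm, hηr _ hpm]
      simp
    · rw [Set.indicator_of_notMem hpm]
      positivity
  have h2 : ∫ p, (‖fderiv ℝ η (π p.1)‖ ^ 2 + η (π p.1) ^ 2) ∂W ≤
      ((K / r) ^ 2 + 1) * MB W π x (2 * r) := by
    have e1 : ((K / r) ^ 2 + 1) * MB W π x (2 * r) =
        ∫ p, (ovr π x (2 * r)).indicator (fun _ => ((K / r) ^ 2 + 1)) p ∂W := by
      rw [integral_indicator (measurableSet_ovr π x _), setIntegral_const, smul_eq_mul, mul_comm]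
      rfl
    rw [e1]
    refine integral_mono_ae i3 ((integrable_const _).indicator (measurableSet_ovr π x _)) ?_
    refine Eventually.of_forall fun p => ?_
    change ‖fderiv ℝ η (π p.1)‖ ^ 2 + η (π p.1) ^ 2 ≤
      (ovr π x (2 * r)).indicator (fun _ => ((K / r) ^ 2 + 1)) p
    by_cases hpm : p ∈ ovr π x (2 * r)
    · rw [Set.indicator_of_mem hpm]
      have h3 := pow_le_pow_left₀ (norm_nonneg _) (hηK (π p.1)) 2
      have h4 := pow_le_pow_left₀ (hη0 (π p.1)) (hη1 (π p.1)) 2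
      linarith
    · rw [Set.indicator_of_notMem hpm]
      have h5 : 2 * r ≤ ‖π p.1 - x‖ := not_lt.1 hpm
      rw [hη2 _ h5, hηd _ h5]
      simp
  have hM := MB_nonneg (W := W) (π := π) x (2 * r)
  have h6 : (K / r) ^ 2 + 1 ≤ (K ^ 2 + 1) * (1 / r) ^ 2 := by
    have h7 : 1 ≤ (1 / r) ^ 2 := by
      have : 1 ≤ 1 / r := by rw [le_div_iff₀ hr]; linarith
      exact one_le_pow₀ this
    have e2 : (K / r) ^ 2 = K ^ 2 * (1 / r) ^ 2 := by ring
    rw [e2]
    linarith
  calc TB W π x r ≤ 16 * h₀ ^ 2 * ∫ p, (‖fderiv ℝ η (π p.1)‖ ^ 2 + η (π p.1) ^ 2) ∂W :=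
        h1.trans key
    _ ≤ 16 * h₀ ^ 2 * (((K ^ 2 + 1) * (1 / r) ^ 2) * MB W π x (2 * r)) := by
        gcongr
        exact h2.trans (by gcongr)
    _ = _ := by ring

/-- masses of cylinders of radius at least the height -/
theorem mass_cyl {C₀ : ℝ} (h : CylAS W π κ x₀ R h₀ δ)
    (hub : ∀ (z : Euc k) (r : ℝ), 0 < r → r ≤ 1 → W.real (closedBall z r ×ˢ univ) ≤ C₀ * r ^ m)
    (y : Euc m) {r : ℝ} (hr : 0 < r) (hr1 : 2 * r ≤ 1) (hhr : h₀ ≤ r) :
    MB W π y r ≤ C₀ * (2 * r) ^ m := by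
  have : IsFiniteMeasure W := ⟨h.fin⟩
  have h1 := hub (ContinuousLinearMap.adjoint π y) (2 * r) (by positivity) hr1
  refine le_trans ?_ h1
  unfold MB Measure.real
  refine ENNReal.toReal_mono (measure_ne_top W _) ?_
  refine measure_mono_ae ?_
  filter_upwards [h.hgt] with p hp hpm
  refine ⟨?_, mem_univ _⟩
  rw [mem_closedBall, dist_eq_norm]
  have h2 : ContinuousLinearMap.adjoint π (π p.1) + ContinuousLinearMap.adjoint κ (κ p.1) = p.1 :=
    congrArg (fun T : L k => T p.1) h.sp.sum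
  have h3 : p.1 - ContinuousLinearMap.adjoint π y =
      ContinuousLinearMap.adjoint π (π p.1 - y) + ContinuousLinearMap.adjoint κ (κ p.1) := by
    nth_rewrite 1 [← h2]
    rw [map_sub]
    abel
  rw [h3]
  have h4 : ‖π p.1 - y‖ < r := hpm
  calc _ ≤ ‖ContinuousLinearMap.adjoint π (π p.1 - y)‖ +
        ‖ContinuousLinearMap.adjoint κ (κ p.1)‖ := norm_add_le _ _
    _ ≤ ‖π p.1 - y‖ + ‖κ p.1‖ :=
        add_le_add (norm_adj_pi_apply h.sp _) (norm_adj_kap_apply h.sp _)
    _ ≤ r + r := add_le_add h4.le (hp.trans hhr)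
    _ = 2 * r := by ring

/-- `μ(S) |B_d| ≤ sup_y μ(B_d(y)) |S + B_d|` -/
theorem measure_mul_le_of_ball {d : ℕ} (μ : Measure (Eu d)) [SFinite μ] {S : Set (Eu d)}
    {r : ℝ} {B : ℝ≥0∞} (hB : ∀ y, μ (ball y r) ≤ B) :
    μ S * volume (ball (0 : Eu d) r) ≤ B * volume (thickening r S) := by
  set F : Eu d → Eu d → ℝ≥0∞ := fun x y => (ball y r).indicator 1 x with hF
  have hFm : Measurable (uncurry F) := by
    have h1 : uncurry F = ({z : Eu d × Eu d | dist z.1 z.2 < r}).indicator 1 := by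
      funext z
      simp only [hF, uncurry, Set.indicator, mem_ball, mem_ofPred_eq, Pi.one_apply]
    rw [h1]
    exact measurable_one.indicator (isOpen_lt continuous_dist continuous_const).measurableSet
  have e1 : ∀ x, ∫⁻ y, F x y = volume (ball (0 : Eu d) r) := by
    intro x
    have h1 : ∀ y, F x y = (ball x r).indicator 1 y := by
      intro y
      simp only [hF, Set.indicator, mem_ball, Pi.one_apply, dist_comm x y]
    simp_rw [h1]
    rw [lintegral_indicator_one measurableSet_ball]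
    exact Measure.addHaar_ball_center volume x r
  calc μ S * volume (ball (0 : Eu d) r) = ∫⁻ x in S, ∫⁻ y, F x y ∂volume ∂μ := by
        simp_rw [e1]
        rw [setLIntegral_const, mul_comm]
    _ = ∫⁻ y, ∫⁻ x in S, F x y ∂μ ∂volume := lintegral_lintegral_swap hFm.aemeasurable
    _ ≤ ∫⁻ y, (thickening r S).indicator (fun _ => B) y ∂volume := by
        refine lintegral_mono fun y => ?_
        change ∫⁻ x in S, (ball y r).indicator 1 x ∂μ ≤ _
        rw [lintegral_indicator_one measurableSet_ball, Measure.restrict_apply measurableSet_ball]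
        by_cases hy : y ∈ thickening r S
        · rw [Set.indicator_of_mem hy]
          exact (measure_mono inter_subset_left).trans (hB y)
        · rw [Set.indicator_of_notMem hy]
          have h2 : ball y r ∩ S = ∅ := by
            ext z
            simp only [mem_inter_iff, mem_empty_iff_false, iff_false, not_and]
            intro h3 h4
            exact hy (mem_thickening_iff.2 ⟨z, h4, by rw [dist_comm]; exact h3⟩)
          rw [h2, measure_empty]
    _ = B * volume (thickening r S) := by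
        rw [lintegral_indicator isOpen_thickening.measurableSet, setLIntegral_const]

end Crest.Agent.R234.Crs_173
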