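import Crest.Agent.R234.Crs3_173

/-!
# Row 234, N0-COARSE, part 4 (helper173): `N` is close to an integer on the whole ball

`int_at`    : strong constancy at one point.
`one_integer` : the integer does not depend on the point.
`cover_int` : from small balls to the whole ball.
-/

set_option autoImplicit false

open MeasureTheory Set Function Filter Topology Metric
open Crest.GeometryTopology.Submanifold
open Crest.Agent.R234.Vf_884 Crest.Agent.R234.Ar_870 Crest.Agent.R234.Cy_870
open Crest.Agent.R234.AS_456 (AS errA err hp vp)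
open Crest.Agent.R234.Asl_214 Crest.Agent.R234.Th_164
open scoped ENNReal NNReal ContDiff InnerProductSpace

noncomputable section

namespace Crest.Agent.R234.Crs_173

/-- bound of the energy with height correction -/
theorem we_le {m n k : ℕ} {π : Euc k →L[ℝ] Euc m} {κ : Euc k →L[ℝ] Euc n}
    {W : Measure (Euc k × L k)} {x₀ : Euc m} {R h₀ δ c M₁ : ℝ} (h : CylAS W π κ x₀ R h₀ δ)
    (h0 : 0 ≤ δ) (hc1 : c ≤ 1) (hM : W.real univ ≤ M₁) (hδ : δ ≤ c)
    (hh : h₀ ^ 2 ≤ c) (hE : ∫ p, tl π p.2 ∂W ≤ c) {S : Set (Euc m)} (hS : MeasurableSet S) :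
    wM W π (we π δ fun z => ‖vp π z‖ ^ 2) S ≤ ENNReal.ofReal (c * (1 + M₁)) := by
  have : IsFiniteMeasure W := ⟨h.fin⟩
  have hc0 : 0 ≤ c := h0.trans hδ
  have hM0 : 0 ≤ M₁ := measureReal_nonneg.trans hM
  have hwe0 : ∀ᵐ p ∂W, 0 ≤ we π δ (fun z => ‖vp π z‖ ^ 2) p := by
    filter_upwards [h.tl_nonneg'] with p hp
    exact add_nonneg hp (mul_nonneg h0 (by positivity))
  have c1 := CylAS.continuous_tl (k := k) π
  have c2 : Continuous fun p : Euc k × L k => δ * ‖vp π p.1‖ ^ 2 :=
    continuous_const.mul (((vp π).continuous.comp continuous_fst).norm.pow 2)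
  have i1 : Integrable (fun p : Euc k × L k => tl π p.2) W := h.integrable_continuous c1
  have i2 : Integrable (fun p : Euc k × L k => δ * ‖vp π p.1‖ ^ 2) W := h.integrable_continuous c2
  have hwei : Integrable (we π δ fun z => ‖vp π z‖ ^ 2) W := i1.add i2
  refine wM_le hwe0 hwei hS ?_
  have e1 : ∫ p in (fun p => π p.1) ⁻¹' S, we π δ (fun z => ‖vp π z‖ ^ 2) p ∂W ≤
      ∫ p, we π δ (fun z => ‖vp π z‖ ^ 2) p ∂W := setIntegral_le_integral hwei hwe0
  have e2 : ∫ p, we π δ (fun z => ‖vp π z‖ ^ 2) p ∂W =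
      (∫ p, tl π p.2 ∂W) + ∫ p, δ * ‖vp π p.1‖ ^ 2 ∂W := integral_add i1 i2
  have e3 : ∫ p, δ * ‖vp π p.1‖ ^ 2 ∂W ≤ c * M₁ := by
    calc ∫ p, δ * ‖vp π p.1‖ ^ 2 ∂W ≤ ∫ _p, c ∂W := by
          refine integral_mono_ae i2 (integrable_const _) ?_
          filter_upwards [h.hgt] with p hp
          rw [norm_vp_eq h.sp]
          have h1 : ‖κ p.1‖ ^ 2 ≤ c := (pow_le_pow_left₀ (norm_nonneg _) hp 2).trans hh
          calc δ * ‖κ p.1‖ ^ 2 ≤ c * c := by gcongr
            _ ≤ c * 1 := by gcongr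
            _ = c := mul_one c
      _ = c * W.real univ := by rw [integral_const, smul_eq_mul, mul_comm]
      _ ≤ c * M₁ := by gcongr
  calc _ ≤ _ := e1
    _ ≤ c + c * M₁ := by rw [e2]; exact add_le_add hE e3
    _ = c * (1 + M₁) := by ring

/-- strong constancy at one point -/
theorem int_at (m : ℕ) {M₁ : ℝ} (hM₁ : 0 ≤ M₁) {η : ℝ} (hη : 0 < η) :
    ∃ c : ℝ, 0 < c ∧ c ≤ 1 ∧ ∀ {n k : ℕ} {π : Euc k →L[ℝ] Euc m} {κ : Euc k →L[ℝ] Euc n}
      {W : Measure (Euc k × L k)} {N : Euc m → ℝ≥0∞} {x₀ : Euc m} {R h₀ δ : ℝ},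
      CylAS W π κ x₀ R h₀ δ → Area W π (ball x₀ R) N → 0 ≤ δ → W.real univ ≤ M₁ →
      δ ≤ c → h₀ ^ 2 ≤ c → ∫ p, tl π p.2 ∂W ≤ c →
      ∀ (x : Euc m) (r : ℝ), 0 < r → r ≤ 1 → ball x (4 * r) ⊆ ball x₀ R →
        ∃ j : ℕ, ∫ y in ball x r, |(N y).toReal - j| ≤ η := by
  set C : ℝ := Sc173.Csc m with hC
  set M : ℝ := M₁ + 1 with hM
  have hM0 : 0 < M := by linarith
  have hm0 : (0 : ℝ) ≤ m := Nat.cast_nonneg m
  set A : ℝ := (m + 2) * (1 + M₁) with hA
  have hA0 : 0 < A := by positivity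
  set c : ℝ := min 1 (min (1 / A) ((η / (4 * (|C| + 1))) ^ 2 / (M * A))) with hc
  have hc0 : 0 < c := lt_min one_pos (lt_min (by positivity) (by positivity))
  have hc1 : c ≤ 1 := min_le_left _ _
  have hc2 : c ≤ 1 / A := (min_le_right _ _).trans (min_le_left _ _)
  have hc3 : c ≤ (η / (4 * (|C| + 1))) ^ 2 / (M * A) := (min_le_right _ _).trans (min_le_right _ _)
  refine ⟨c, hc0, hc1, ?_⟩
  intro n k π κ W N x₀ R h₀ δ h hN h0 hW hδ hh hE x r hr hr1 hsub
  have hfin : IsFiniteMeasure W := ⟨h.fin⟩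
  have hS := setup_of_cylAS h h0 (hδ.trans hc1) hN
  have H := hyp_of_setup hS (σ := 0) le_rfl
  have hμ : muM W π (ball x (4 * r)) ≤ ENNReal.ofReal M₁ := by
    rw [muM_apply W measurableSet_ball]
    refine (measure_mono (subset_univ _)).trans ?_
    rw [← ENNReal.ofReal_toReal (measure_ne_top W _)]
    exact ENNReal.ofReal_le_ofReal hW
  obtain ⟨j, hj⟩ := exists_integer (sc2 m) (C₁ := m + 2) (by positivity) H (x := x) (r := r)
    (M := M) (δ := A * c) hr (by positivity)
    (by
      calc A * c ≤ A * (1 / A) := by gcongr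
        _ = 1 := by field_simp
        _ ≤ M := by linarith)
    hsub
    (by
      have h1 := (H.le_mass _ measurableSet_ball hsub).trans hμ
      exact ((ENNReal.ofReal_le_ofReal_iff hM₁).1 h1).trans (by linarith))
    (by
      have h1 := we_le h h0 hc1 hW hδ hh hE (S := ball x (4 * r)) measurableSet_ball
      calc _ ≤ ENNReal.ofReal (m + 2) * ENNReal.ofReal (c * (1 + M₁)) := by gcongr
        _ = ENNReal.ofReal (A * c) := by
            rw [← ENNReal.ofReal_mul (by positivity)]
            congr 1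
            rw [hA]; ring)
    (by
      calc _ ≤ ENNReal.ofReal (δ * (m + h₀ ^ 2)) * muM W π (ball x (4 * r)) :=
            H.low _ measurableSet_ball hsub
        _ ≤ ENNReal.ofReal (δ * (m + h₀ ^ 2)) * ENNReal.ofReal M₁ := by gcongr
        _ = ENNReal.ofReal (δ * (m + h₀ ^ 2) * M₁) := (ENNReal.ofReal_mul (by positivity)).symm
        _ ≤ ENNReal.ofReal (A * c / r) := by
            refine ENNReal.ofReal_le_ofReal ?_
            rw [le_div_iff₀ hr]
            have h1 : h₀ ^ 2 ≤ 2 := by linarith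
            calc δ * (m + h₀ ^ 2) * M₁ * r ≤ c * (m + 2) * (1 + M₁) * 1 := by
                  gcongr
                  linarith
              _ = A * c := by rw [hA]; ring)
  refine ⟨j, hj.trans ?_⟩
  have h1 : Real.sqrt (M * (A * c)) ≤ η / (4 * (|C| + 1)) := by
    rw [Real.sqrt_le_left (by positivity)]
    calc M * (A * c) ≤ M * (A * ((η / (4 * (|C| + 1))) ^ 2 / (M * A))) := by gcongr
      _ = _ := by field_simp
  calc 4 * (C * Real.sqrt (M * (A * c))) ≤ 4 * (|C| * (η / (4 * (|C| + 1)))) := by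
        gcongr
        exact le_abs_self C
    _ = η * (|C| / (|C| + 1)) := by field_simp
    _ ≤ η * 1 := by
        gcongr
        rw [div_le_one (by positivity)]
        linarith
    _ = η := mul_one η

/-- the integer does not depend on the point -/
theorem one_integer {d : ℕ} {f : Eu d → ℝ} {U : Set (Eu d)} (hf : IntegrableOn f U) {ρ r η : ℝ}
    (hr : 0 < r) (hU : ∀ x ∈ closedBall (0 : Eu d) ρ, ball x r ⊆ U)
    (hη : 2 * η < om d * (r / 2) ^ d)
    (h : ∀ x ∈ closedBall (0 : Eu d) ρ, ∃ j : ℕ, ∫ y in ball x r, |f y - j| ≤ η) :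
    ∃ j : ℕ, ∀ x ∈ closedBall (0 : Eu d) ρ, ∫ y in ball x r, |f y - j| ≤ η := by
  choose! j hj using h
  have key : ∀ x ∈ closedBall (0 : Eu d) ρ, ∀ y ∈ closedBall (0 : Eu d) ρ, dist x y ≤ r / 2 →
      j x = j y := by
    intro x hx y hy hxy
    have hsx : ball x (r / 2) ⊆ ball x r := ball_subset_ball (by linarith)
    have hsy : ball x (r / 2) ⊆ ball y r := ball_subset_ball' (by linarith)
    have hi := hf.mono_set (hU x hx)
    have hi' := hf.mono_set (hU y hy)
    have hint : ∀ (z : Eu d) (a : ℕ), z ∈ closedBall (0 : Eu d) ρ →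
        IntegrableOn (fun w => |f w - (a : ℝ)|) (ball z r) := by
      intro z a hz
      have h1 : IntegrableOn (fun _ : Eu d => (a : ℝ)) (ball z r) :=
        integrableOn_const measure_ball_lt_top.ne
      exact ((hf.mono_set (hU z hz)).sub h1).abs
    refine eq_of_close (ν := volume) (B := ball x (r / 2)) (hi.mono_set hsx)
      measure_ball_lt_top.ne ?_
    have h1 : ∫ w in ball x (r / 2), |f w - (j x : ℝ)| ≤ η :=
      (setIntegral_mono_set (hint x _ hx) (Eventually.of_forall fun _ => abs_nonneg _)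
        hsx.eventuallyLE).trans (hj x hx)
    have h2 : ∫ w in ball x (r / 2), |f w - (j y : ℝ)| ≤ η :=
      (setIntegral_mono_set (hint y _ hy) (Eventually.of_forall fun _ => abs_nonneg _)
        hsy.eventuallyLE).trans (hj y hy)
    rw [vol_ball x (by positivity)]
    linarith
  refine ⟨j 0, fun x hx => ?_⟩
  suffices hs : j x = j 0 by
    rw [← hs]; exact hj x hx
  obtain ⟨a, ha⟩ := exists_nat_gt (‖x‖ / (r / 2))
  have ha0 : (0 : ℝ) < a := lt_of_le_of_lt (by positivity) ha
  have hx' : ‖x‖ ≤ ρ := by rwa [mem_closedBall_zero_iff] at hx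
  have hmem : ∀ i : ℕ, i ≤ a → ((i : ℝ) / a) • x ∈ closedBall (0 : Eu d) ρ := by
    intro i hi
    rw [mem_closedBall_zero_iff, norm_smul, Real.norm_eq_abs, abs_of_nonneg (by positivity)]
    have h1 : (i : ℝ) / a ≤ 1 := by
      rw [div_le_one ha0]
      exact_mod_cast hi
    calc (i : ℝ) / a * ‖x‖ ≤ 1 * ρ := by gcongr
      _ = ρ := one_mul ρ
  have hind : ∀ i : ℕ, i ≤ a → j (((i : ℝ) / a) • x) = j 0 := by
    intro i
    induction i with
    | zero => intro _; simp
    | succ i ih =>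
      intro hi
      rw [← ih (by omega)]
      refine key _ (hmem _ hi) _ (hmem _ (by omega)) ?_
      rw [dist_eq_norm, ← sub_smul, norm_smul]
      have h1 : ((i + 1 : ℕ) : ℝ) / a - (i : ℝ) / a = 1 / a := by
        push_cast; ring
      rw [h1, Real.norm_eq_abs, abs_of_nonneg (by positivity)]
      have h2 : ‖x‖ < a * (r / 2) := (div_lt_iff₀ (by positivity)).1 ha
      rw [div_mul_eq_mul_div, one_mul, div_le_iff₀ ha0]
      linarith
  have := hind a le_rfl
  rwa [div_self ha0.ne', one_smul] at this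

/-- from small balls to the whole ball -/
theorem cover_int (d : ℕ) {ρ r : ℝ} (hr : 0 < r) : ∃ K : ℕ, ∀ {f : Eu d → ℝ}
    {U : Set (Eu d)} (_ : IntegrableOn f U) (_ : ∀ x, 0 ≤ f x)
    (_ : ∀ x ∈ closedBall (0 : Eu d) ρ, ball x r ⊆ U) {η : ℝ}
    (_ : ∀ x ∈ closedBall (0 : Eu d) ρ, ∫ y in ball x r, f y ≤ η),
    ∫ y in closedBall (0 : Eu d) ρ, f y ≤ K * η := by
  classical
  obtain ⟨t, ht, htf, hcov⟩ := (isCompact_closedBall (0 : Eu d) ρ).finite_cover_balls hr
  refine ⟨htf.toFinset.card, ?_⟩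
  intro f U hf hf0 hU η h
  have hi : ∀ x ∈ htf.toFinset, Integrable ((ball x r).indicator f) := by
    intro x hx
    exact (integrable_indicator_iff measurableSet_ball).2
      (hf.mono_set (hU x (ht (htf.mem_toFinset.1 hx))))
  have hc : IntegrableOn f (closedBall (0 : Eu d) ρ) := by
    refine hf.mono_set (hcov.trans ?_)
    exact iUnion₂_subset fun x hx => hU x (ht hx)
  calc ∫ y in closedBall (0 : Eu d) ρ, f y
      = ∫ y, (closedBall (0 : Eu d) ρ).indicator f y :=
        (integral_indicator measurableSet_closedBall).symm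
    _ ≤ ∫ y, ∑ x ∈ htf.toFinset, (ball x r).indicator f y := by
        refine integral_mono ((integrable_indicator_iff measurableSet_closedBall).2 hc)
          (integrable_finsetSum _ hi) fun y => ?_
        change (closedBall (0 : Eu d) ρ).indicator f y ≤ ∑ x ∈ htf.toFinset, (ball x r).indicator f y
        have hnn : ∀ x ∈ htf.toFinset, 0 ≤ (ball x r).indicator f y := fun x _ =>
          Set.indicator_nonneg (fun z _ => hf0 z) y
        by_cases hy : y ∈ closedBall (0 : Eu d) ρ
        · obtain ⟨x, hx, hxy⟩ := mem_iUnion₂.1 (hcov hy)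
          rw [Set.indicator_of_mem hy]
          calc f y = (ball x r).indicator f y := (Set.indicator_of_mem hxy f).symm
            _ ≤ _ := Finset.single_le_sum hnn (htf.mem_toFinset.2 hx)
        · rw [Set.indicator_of_notMem hy]
          exact Finset.sum_nonneg hnn
    _ = ∑ x ∈ htf.toFinset, ∫ y, (ball x r).indicator f y := integral_finsetSum _ hi
    _ ≤ ∑ _x ∈ htf.toFinset, η := by
        refine Finset.sum_le_sum fun x hx => ?_
        rw [integral_indicator measurableSet_ball]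
        exact h x (ht (htf.mem_toFinset.1 hx))
    _ = _ := by rw [Finset.sum_const, nsmul_eq_mul]

end Crest.Agent.R234.Crs_173
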