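import Crest.Agent.R234.Crs4_173

/-!
# Row 234, N0-COARSE, part 5 (helper173): `N` is close to `Q` at the top scale

`top` : (b) of 309 #7283:  `∫_{B_{7/2}} |N - Q| ≤ ε`  if `h₀², δ, ∫ tl ≤ c(m, Q, C₀, ε)`.
-/

set_option autoImplicit false

open MeasureTheory Set Function Filter Topology Metric
open Crest.GeometryTopology.Submanifold
open Crest.Agent.R234.Vf_884 Crest.Agent.R234.Ar_870 Crest.Agent.R234.Cy_870
open Crest.Agent.R234.AS_456 (AS errA err hp vp)
open Crest.Agent.R234.Asl_214 Crest.Agent.R234.Th_164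
open scoped ENNReal NNReal ContDiff InnerProductSpace

noncomputable section

namespace Crest.Agent.R234.Crs_173

/-- two naturals, real arithmetic -/
theorem nat_eq_of_close {j Q : ℕ} {a b θ : ℝ} (ha : 0 < a) (hb : b ≤ a) (hb' : (1 - θ) * a ≤ b)
    (hθ : θ * (Q + 1) ≤ 1 / 4) (h0 : 0 ≤ θ) (h : |(j : ℝ) * b - Q * a| ≤ 11 / 32 * a) : j = Q := by
  have hQ : (0 : ℝ) ≤ Q := Nat.cast_nonneg Q
  obtain ⟨h1, h2⟩ := abs_le.1 h
  have hθ1 : θ ≤ 1 / 4 := by nlinarith
  have hb0 : 0 ≤ b := le_trans (by nlinarith) hb'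
  rcases lt_trichotomy j Q with hlt | heq | hgt
  · exfalso
    have h3 : (j : ℝ) + 1 ≤ Q := by exact_mod_cast hlt
    have h4 : (j : ℝ) * b ≤ (Q - 1) * a := by
      have : (0 : ℝ) ≤ j := Nat.cast_nonneg j
      calc (j : ℝ) * b ≤ j * a := by gcongr
        _ ≤ (Q - 1) * a := by gcongr; linarith
    linarith
  · exact heq
  · exfalso
    have h3 : (Q : ℝ) + 1 ≤ j := by exact_mod_cast hgt
    have h4 : (Q + 1) * ((1 - θ) * a) ≤ (j : ℝ) * b := by
      calc (Q + 1) * ((1 - θ) * a) ≤ (Q + 1) * b := by gcongr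
        _ ≤ j * b := by gcongr
    have h5 : θ * (Q + 1) * a ≤ 1 / 4 * a := by gcongr
    nlinarith

/-- **N0-COARSE (b)**: `N` is close to `Q` in `L¹(B_{7/2})`. -/
theorem top (m Q : ℕ) {C₀ : ℝ} (hC₀ : 0 ≤ C₀) {ε : ℝ} (hε : 0 < ε) :
    ∃ c : ℝ, 0 < c ∧ c ≤ 1 / 16 ∧ ∀ {n k : ℕ} {π : Euc k →L[ℝ] Euc m} {κ : Euc k →L[ℝ] Euc n}
      {W : Measure (Euc k × L k)} {N : Euc m → ℝ≥0∞} {h₀ δ : ℝ}, In W π κ N Q C₀ h₀ δ →
      δ ≤ c → h₀ ^ 2 ≤ c → ∫ p, tl π p.2 ∂W ≤ c →
        ∫ y in ball 0 (7 / 2), |(N y).toReal - Q| ≤ ε := by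
  have hom := om_pos m
  have hQ : (0 : ℝ) ≤ Q := Nat.cast_nonneg Q
  set M₁ : ℝ := (Q + 1) * (om m * 4 ^ m) with hM₁
  have hM0 : 0 < M₁ := by positivity
  set wm : ℝ := om m * 4 ^ m with hw
  have hw0 : 0 < wm := by positivity
  set θ : ℝ := min (wm / 32) (1 / (4 * (Q + 1))) with hθ
  have hθ0 : 0 < θ := lt_min (by positivity) (by positivity)
  have hθ1 : θ ≤ wm / 32 := min_le_left _ _
  have hθ2 : θ * (Q + 1) ≤ 1 / 4 := by
    calc θ * (Q + 1) ≤ 1 / (4 * (Q + 1)) * (Q + 1) := by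
          gcongr
          exact min_le_right _ _
      _ = 1 / 4 := by field_simp
  obtain ⟨d, hd0, hd1, hd⟩ := exists_annulus m C₀ hθ0
  obtain ⟨hdA, hdB⟩ := hd d hd0 le_rfl
  obtain ⟨K, hK⟩ := cover_int m (ρ := 4 - d) (r := d / 4) (by positivity)
  set η : ℝ := min (om m * (d / 4 / 2) ^ m / 4) (min ε (wm / 32) / (K + 1)) with hη
  have hη0 : 0 < η := lt_min (by positivity) (div_pos (lt_min hε (by positivity)) (by positivity))
  have hη1 : 2 * η < om m * (d / 4 / 2) ^ m := by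
    have h1 : η ≤ om m * (d / 4 / 2) ^ m / 4 := min_le_left _ _
    have h2 : 0 < om m * (d / 4 / 2) ^ m := by positivity
    linarith
  have hη2 : K * η ≤ min ε (wm / 32) := by
    have h1 : η ≤ min ε (wm / 32) / (K + 1) := min_le_right _ _
    have h2 : 0 ≤ min ε (wm / 32) := le_min hε.le (by positivity)
    calc K * η ≤ K * (min ε (wm / 32) / (K + 1)) := by gcongr
      _ = min ε (wm / 32) * (K / (K + 1)) := by ring
      _ ≤ min ε (wm / 32) * 1 := by
          gcongr
          rw [div_le_one (by positivity)]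
          linarith
      _ = _ := mul_one _
  obtain ⟨c₁, hc0, hc1, hc⟩ := int_at m hM0.le hη0
  set c : ℝ := min (min c₁ (1 / 16)) (min (d ^ 2) (wm / 32 / (1 + M₁))) with hcd
  have hcc1 : c ≤ c₁ := (min_le_left _ _).trans (min_le_left _ _)
  have hcc2 : c ≤ 1 / 16 := (min_le_left _ _).trans (min_le_right _ _)
  have hcc3 : c ≤ d ^ 2 := (min_le_right _ _).trans (min_le_left _ _)
  have hcc4 : c ≤ wm / 32 / (1 + M₁) := (min_le_right _ _).trans (min_le_right _ _)
  refine ⟨c, lt_min (lt_min hc0 (by norm_num)) (lt_min (by positivity) (by positivity)), hcc2, ?_⟩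
  intro n k π κ W N h₀ δ h hδ hh hE
  have hfin : IsFiniteMeasure W := ⟨h.cyl.fin⟩
  have hmu : IsFiniteMeasure (muM W π) := by unfold muM; infer_instance
  have hhd : h₀ ≤ d := (sq_le_sq₀ h.hh hd0.le).1 (hh.trans hcc3)
  have hWM : W.real univ ≤ M₁ := by
    have h1 := (abs_le.1 h.mass).2
    rw [hM₁]
    have : 0 ≤ wm := hw0.le
    nlinarith
  have hU : ∀ x ∈ closedBall (0 : Euc m) (4 - d), ball x (4 * (d / 4)) ⊆ ball 0 4 := by
    intro x hx
    refine ball_subset_ball' ?_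
    have := mem_closedBall.1 hx
    linarith
  have hU1 : ∀ x ∈ closedBall (0 : Euc m) (4 - d), ball x (d / 4) ⊆ ball 0 4 := fun x hx =>
    (ball_subset_ball (by linarith)).trans (hU x hx)
  have hNi : IntegrableOn (fun x => (N x).toReal) (ball (0 : Euc m) 4) :=
    h.area.integrableOn h.cyl.sp.hh h.cyl.conc measurableSet_ball
  obtain ⟨j, hj⟩ := one_integer (f := fun x => (N x).toReal) hNi (ρ := 4 - d) (r := d / 4)
    (η := η) (by positivity) hU1 hη1 (fun x hx =>
      hc h.cyl h.area h.δ0 hWM (hδ.trans hcc1) (hh.trans hcc1) (hE.trans hcc1) x (d / 4)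
        (by positivity) (by linarith) (hU x hx))
  have hji : IntegrableOn (fun x => |(N x).toReal - (j : ℝ)|) (ball (0 : Euc m) 4) :=
    (hNi.sub (integrableOn_const measure_ball_lt_top.ne)).abs
  have hcov := hK hji (fun _ => abs_nonneg _) hU1 hj
  set cB : Set (Euc m) := closedBall 0 (4 - d) with hcB
  have hcBm : MeasurableSet cB := measurableSet_closedBall
  have hcBs : cB ⊆ ball 0 4 := closedBall_subset_ball (by linarith)
  have hsmall : ∫ y in cB, |(N y).toReal - (j : ℝ)| ≤ min ε (wm / 32) := hcov.trans hη2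
  -- the integer is `Q`
  have hS := setup_of_cylAS h.cyl h.δ0 (hδ.trans (hcc1.trans hc1)) h.area
  have H := hyp_of_setup hS (σ := 0) le_rfl
  have e1 : wM W π (we π δ fun z => ‖vp π z‖ ^ 2) cB ≤ ENNReal.ofReal (wm / 32) := by
    refine (we_le h.cyl h.δ0 (hcc1.trans hc1) hWM hδ hh hE hcBm).trans ?_
    refine ENNReal.ofReal_le_ofReal ?_
    calc c * (1 + M₁) ≤ wm / 32 / (1 + M₁) * (1 + M₁) := by gcongr
      _ = wm / 32 := by field_simp
  have e0 : 0 ≤ ∫ y in cB, (N y).toReal := integral_nonneg fun _ => ENNReal.toReal_nonneg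
  have e2 : (muM W π).real cB ≤ (∫ y in cB, (N y).toReal) + wm / 32 := by
    have h1 := (H.mass _ hcBm hcBs).trans (add_le_add le_rfl e1)
    rw [← ENNReal.ofReal_add e0 (by positivity)] at h1
    rw [measureReal_def]
    exact ENNReal.toReal_le_of_le_ofReal (by positivity) h1
  have e3 : ∫ y in cB, (N y).toReal ≤ (muM W π).real cB := by
    have h1 := H.le_mass _ hcBm hcBs
    rw [← ENNReal.ofReal_toReal (measure_ne_top (muM W π) cB)] at h1
    exact (ENNReal.ofReal_le_ofReal_iff ENNReal.toReal_nonneg).1 h1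
  have e4 : (muM W π).real cB = W.real ((fun p => π p.1) ⁻¹' cB) := by
    rw [measureReal_def, muM_apply W hcBm]; rfl
  have e5 : W.real ((fun p => π p.1) ⁻¹' cB) ≤ W.real univ := measureReal_mono (subset_univ _)
  have e6 : W.real univ ≤ W.real ((fun p => π p.1) ⁻¹' cB) + θ := by
    have h1 := (annulus hC₀ h.cyl h.ub hd0 hd1 hhd).trans hdA
    have h2 : (univ : Set (Euc k × L k)) ⊆
        ((fun p => π p.1) ⁻¹' cB) ∪ {p | 4 - d ≤ ‖π p.1‖} := by
      intro p _
      by_cases hp : ‖π p.1‖ ≤ 4 - d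
      · left
        change π p.1 ∈ cB
        rw [hcB, mem_closedBall_zero_iff]
        exact hp
      · right
        exact (not_le.1 hp).le
    calc W.real univ ≤ W.real (((fun p => π p.1) ⁻¹' cB) ∪ {p | 4 - d ≤ ‖π p.1‖}) :=
          measureReal_mono h2
      _ ≤ _ := measureReal_union_le _ _
      _ ≤ _ := by gcongr
  have hvol : volume.real cB = om m * (4 - d) ^ m := vol_closedBall (0 : Euc m) (by linarith)
  have hvf : volume cB ≠ ⊤ := measure_closedBall_lt_top.ne
  have e7 : |(∫ y in cB, (N y).toReal) - j * (om m * (4 - d) ^ m)| ≤ wm / 32 := by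
    have hjc : IntegrableOn (fun _ : Euc m => (j : ℝ)) cB := integrableOn_const hvf
    have h1 : (∫ y in cB, (N y).toReal) - j * (om m * (4 - d) ^ m) =
        ∫ y in cB, ((N y).toReal - j) := by
      rw [integral_sub (hNi.mono_set hcBs) hjc, setIntegral_const, smul_eq_mul, hvol]
      ring
    rw [h1]
    exact abs_integral_le_integral_abs.trans (hsmall.trans (min_le_right _ _))
  have e8 := h.mass
  have hle4 : om m * (4 - d) ^ m ≤ wm := by
    rw [hw]
    gcongr
    · linarith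
    · linarith
  have hge4 : (1 - θ) * wm ≤ om m * (4 - d) ^ m := by
    calc (1 - θ) * wm = om m * ((1 - θ) * 4 ^ m) := by rw [hw]; ring
      _ ≤ _ := by gcongr
  have hjQ : j = Q := by
    refine nat_eq_of_close hw0 hle4 hge4 hθ2 hθ0.le ?_
    rw [abs_le] at e7 e8 ⊢
    constructor <;> linarith [e7.1, e7.2, e8.1, e8.2]
  rw [hjQ] at hsmall hji
  refine le_trans ?_ (hsmall.trans (min_le_left _ _))
  refine setIntegral_mono_set (hji.mono_set hcBs) (Eventually.of_forall fun _ => abs_nonneg _) ?_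
  exact (ball_subset_closedBall.trans
    (closedBall_subset_closedBall (by linarith))).eventuallyLE

end Crest.Agent.R234.Crs_173
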