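import Crest.Agent.R234.Vf2_884

/-!
Row 234, base library (helper884), file 3: radial test fields, the monotonicity identity for
general stationary varifolds.
-/

set_option autoImplicit false

open MeasureTheory Crest.GeometryTopology.Submanifold Filter Topology
open scoped ENNReal InnerProductSpace

noncomputable section

namespace Crest.Agent.R234.Vf_884

variable {m k : ℕ}

theorem tr_smulRight_comp (c : Euc k →L[ℝ] ℝ) (y : Euc k) (P : L k) :
    tr ((c.smulRight y) ∘L P) = c (P y) := by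
  rw [tr_eq_sum]
  have h : y = ∑ i, ⟪stdVec k i, y⟫_ℝ • stdVec k i := by
    ext j
    simp [stdVec, Pi.single_apply, EuclideanSpace.inner_single_left]
  conv_rhs => rw [h, map_sum, map_sum]
  refine Finset.sum_congr rfl fun i _ => ?_
  rw [map_smul, map_smul, smul_eq_mul, ContinuousLinearMap.comp_apply,
    ContinuousLinearMap.smulRight_apply, inner_smul_right]
  ring

/-- derivative of a radial field. -/
theorem hasFDerivAt_radial {g : ℝ → ℝ} (hg : ContDiff ℝ 1 g) (z x : Euc k) :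
    HasFDerivAt (fun x : Euc k => g (‖x - z‖ ^ 2) • (x - z))
      (g (‖x - z‖ ^ 2) • ContinuousLinearMap.id ℝ (Euc k) +
        ((2 * deriv g (‖x - z‖ ^ 2)) • innerSL ℝ (x - z)).smulRight (x - z)) x := by
  have h1 : HasFDerivAt (fun x : Euc k => x - z) (ContinuousLinearMap.id ℝ (Euc k)) x :=
    (hasFDerivAt_id x).sub_const z
  have h2 : HasFDerivAt (fun x : Euc k => ‖x - z‖ ^ 2) (2 • innerSL ℝ (x - z)) x := by
    have := h1.norm_sq
    simpa using this
  have h3 : HasDerivAt g (deriv g (‖x - z‖ ^ 2)) (‖x - z‖ ^ 2) :=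
    (hg.differentiable one_ne_zero _).hasDerivAt
  have h4 : HasFDerivAt (fun x : Euc k => g (‖x - z‖ ^ 2))
      (deriv g (‖x - z‖ ^ 2) • (2 • innerSL ℝ (x - z))) x := h3.comp_hasFDerivAt x h2
  have h6 : (2 * deriv g (‖x - z‖ ^ 2)) • innerSL ℝ (x - z)
      = deriv g (‖x - z‖ ^ 2) • (2 • innerSL ℝ (x - z)) := by
    rw [smul_comm (deriv g _) (2 : ℕ), ← Nat.cast_smul_eq_nsmul ℝ, smul_smul]
    norm_num
  rw [h6]
  exact h4.smul h1

theorem contDiff_radial {g : ℝ → ℝ} (hg : ContDiff ℝ 1 g) (z : Euc k) :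
    ContDiff ℝ 1 (fun x : Euc k => g (‖x - z‖ ^ 2) • (x - z)) := by
  have h1 : ContDiff ℝ 1 (fun x : Euc k => x - z) := contDiff_id.sub contDiff_const
  exact (hg.comp (h1.norm_sq ℝ)).smul h1

theorem tr_radial {g : ℝ → ℝ} (hg : ContDiff ℝ 1 g) (z x : Euc k) {P : L k} (hP : P ∈ G m k) :
    tr ((fderiv ℝ (fun x : Euc k => g (‖x - z‖ ^ 2) • (x - z)) x) ∘L P)
      = m * g (‖x - z‖ ^ 2) + 2 * deriv g (‖x - z‖ ^ 2) * ‖P (x - z)‖ ^ 2 := by
  rw [(hasFDerivAt_radial hg z x).fderiv, ContinuousLinearMap.add_comp, map_add,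
    tr_smulRight_comp]
  have h1 : (g (‖x - z‖ ^ 2) • ContinuousLinearMap.id ℝ (Euc k)) ∘L P = g (‖x - z‖ ^ 2) • P := by
    ext v; simp
  rw [h1, map_smul, hP.2.2, smul_apply, innerSL_apply_apply,
    real_inner_comm, G_inner_self hP, smul_eq_mul, smul_eq_mul]
  ring

variable {U : Set (Euc k)} {V : Measure (Euc k × L k)}

theorem tsupport_radial {g : ℝ → ℝ} {z : Euc k} {ρ : ℝ} (hρ : 0 ≤ ρ)
    (hg0 : ∀ t, ρ ^ 2 ≤ t → g t = 0) :
    tsupport (fun x : Euc k => g (‖x - z‖ ^ 2) • (x - z)) ⊆ Metric.closedBall z ρ := by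
  refine closure_minimal ?_ Metric.isClosed_closedBall
  intro x hx
  by_contra hcon
  apply hx
  rw [Metric.mem_closedBall, dist_eq_norm, not_le] at hcon
  simp only
  rw [hg0 _ (by gcongr), zero_smul]

/-- the radial identity, `C¹` weights. -/
theorem radial_C1 (hV : Stat m k U V) {g : ℝ → ℝ} (hg : ContDiff ℝ 1 g) {z : Euc k} {ρ : ℝ}
    (hρ : 0 ≤ ρ) (hU : Metric.closedBall z ρ ⊆ U) (hg0 : ∀ t, ρ ^ 2 ≤ t → g t = 0) :
    ∫ p, (m * g (‖p.1 - z‖ ^ 2) + 2 * deriv g (‖p.1 - z‖ ^ 2) * ‖p.2 (p.1 - z)‖ ^ 2) ∂V = 0 := by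
  have hts := tsupport_radial (k := k) (z := z) hρ hg0
  have h := hV.stat _ (contDiff_radial hg z)
    (HasCompactSupport.of_support_subset_isCompact (isCompact_closedBall z ρ)
      (subset_closure.trans hts)) (hts.trans hU)
  rw [← h]
  refine integral_congr_ae ?_
  filter_upwards [hV.conc] with p hp
  exact (tr_radial hg z p.1 hp).symm

/-- the radial identity, continuous weights. -/
theorem radial_C0 (hV : Stat m k U V) {ψ : ℝ → ℝ} (hψ : Continuous ψ) {z : Euc k} {ρ : ℝ}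
    (hρ : 0 ≤ ρ) (hU : Metric.closedBall z ρ ⊆ U) (hψ0 : ∀ t, ρ ^ 2 ≤ t → ψ t = 0) :
    ∫ p, ((m / 2 : ℝ) * (∫ u in (‖p.1 - z‖ ^ 2)..(ρ ^ 2), ψ u)
      - ψ (‖p.1 - z‖ ^ 2) * ‖p.2 (p.1 - z)‖ ^ 2) ∂V = 0 := by
  set g : ℝ → ℝ := fun t => (1 / 2 : ℝ) * ∫ u in t..(ρ ^ 2), ψ u with hgdef
  have hd : ∀ t, HasDerivAt g ((1 / 2 : ℝ) * (-ψ t)) t := by
    intro t
    refine HasDerivAt.const_mul _ ?_
    exact intervalIntegral.integral_hasDerivAt_left (hψ.intervalIntegrable _ _)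
      hψ.aestronglyMeasurable.stronglyMeasurableAtFilter hψ.continuousAt
  have hderiv : deriv g = fun t => (1 / 2 : ℝ) * (-ψ t) := funext fun t => (hd t).deriv
  have hg : ContDiff ℝ 1 g := by
    rw [contDiff_one_iff_deriv]
    refine ⟨fun t => (hd t).differentiableAt, ?_⟩
    rw [hderiv]
    fun_prop
  have hg0 : ∀ t, ρ ^ 2 ≤ t → g t = 0 := by
    intro t ht
    simp only [hgdef]
    rw [intervalIntegral.integral_symm, intervalIntegral.integral_congr (g := fun _ => (0:ℝ))]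
    · simp
    · intro u hu
      rw [Set.uIcc_of_le ht] at hu
      exact hψ0 u hu.1
  have h := radial_C1 hV hg hρ hU hg0
  rw [← h]
  refine integral_congr_ae (Filter.Eventually.of_forall fun p => ?_)
  simp only
  rw [hderiv, hgdef]
  ring

end Crest.Agent.R234.Vf_884
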