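import Crest.Agent.R234.Ell3_3
import Crest.Agent.R234.Vf3_884

/-!
VF-CONST (row 234, helper914): a stationary varifold carried, over a ball, by the graph of a `C²`
map (with tangent planes a.e.) has support equal to the whole graph or nothing.  No minimality of
the graph is needed.
-/

set_option autoImplicit false
set_option linter.unusedSectionVars false
set_option linter.unusedVariables false

open MeasureTheory Filter Topology Set Metric Crest.GeometryTopology.Submanifold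
open scoped ENNReal ContDiff InnerProductSpace

namespace Crest.Agent.R234.Ct914

open Crest.Agent.R234.Vf_884 Crest.Agent.R234.Ell3_3

noncomputable section

/-- the cut-off profile. -/
def hh (A b t : ℝ) : ℝ := Real.exp (-(A * t)) * Real.smoothTransition (b - t)

theorem hh_contDiff (A b : ℝ) : ContDiff ℝ ∞ (hh A b) := by
  unfold hh
  refine ContDiff.mul ?_ ?_
  · exact Real.contDiff_exp.comp (contDiff_const.mul contDiff_id).neg
  · exact Real.smoothTransition.contDiff.comp (contDiff_const.sub contDiff_id)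

theorem hh_pos {A b t : ℝ} (h : t < b) : 0 < hh A b t :=
  mul_pos (Real.exp_pos _) (Real.smoothTransition.pos_of_pos (by linarith))

theorem hh_nonneg (A b t : ℝ) : 0 ≤ hh A b t :=
  mul_nonneg (Real.exp_pos _).le (Real.smoothTransition.nonneg _)

theorem hh_zero {A b t : ℝ} (h : b ≤ t) : hh A b t = 0 := by
  unfold hh
  rw [Real.smoothTransition.zero_of_nonpos (by linarith), mul_zero]

theorem hh_deriv_le (A b t : ℝ) : deriv (hh A b) t ≤ -A * hh A b t := by
  have h1 : HasDerivAt (fun t => Real.exp (-(A * t))) (Real.exp (-(A * t)) * (-(A * 1))) t :=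
    ((hasDerivAt_id t).const_mul A).neg.exp
  have hd : Differentiable ℝ fun t => Real.smoothTransition (b - t) :=
    (Real.smoothTransition.contDiff.comp (contDiff_const.sub contDiff_id)).differentiable
      (n := 1) (by norm_num)
  have h2 := (hd t).hasDerivAt
  have h3 : deriv (fun t => Real.smoothTransition (b - t)) t ≤ 0 := by
    refine Antitone.deriv_nonpos fun x y hxy => ?_
    exact Real.smoothTransition.monotone (by linarith)
  have h4 := (h1.mul h2).deriv
  have h5 : deriv (hh A b) t = _ := h4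
  rw [h5]
  unfold hh
  have := Real.exp_pos (-(A * t))
  nlinarith [mul_nonneg this.le (neg_nonneg.2 h3)]

theorem bound_fderiv {F E : Type*} [NormedAddCommGroup F] [NormedSpace ℝ F] [ProperSpace F]
    [NormedAddCommGroup E] [NormedSpace ℝ E] {Y : F → E} {r : ℝ} (hY : ContDiffOn ℝ 1 Y (ball 0 r))
    {z1 : F} {R : ℝ} (hR : closedBall z1 R ⊆ ball 0 r) :
    ∃ C, 0 ≤ C ∧ ∀ z ∈ closedBall z1 R, ‖fderiv ℝ Y z‖ ≤ C := by
  have h1 : ContinuousOn (fun z => fderiv ℝ Y z) (closedBall z1 R) :=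
    (hY.continuousOn_fderiv_of_isOpen isOpen_ball le_rfl).mono hR
  obtain ⟨C0, hC0⟩ := (isCompact_closedBall z1 R).exists_bound_of_continuousOn h1
  exact ⟨max C0 0, le_max_right _ _, fun z hz => (hC0 z hz).trans (le_max_left _ _)⟩

variable {m k : ℕ} {U : Set (Euc k)} {V : Measure (Euc k × L k)}

section Field

variable (T : Submodule ℝ (Euc k)) (x0 : Euc k) (g : T → T →L[ℝ] Tᗮ) (z1 : T)

/-- the lifted radial field. -/
def Y (z : T) : Euc k := ((z - z1 : T) : Euc k) + ((g z (z - z1) : Tᗮ) : Euc k)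

theorem px_Y (z : T) : T.orthogonalProjectionOnto (Y T g z1 z) = z - z1 := by
  unfold Y
  rw [map_add, Submodule.orthogonalProjectionOnto_mem_subspace_eq_self,
    Submodule.orthogonalProjectionOnto_apply_of_mem_orthogonal (g z (z - z1)).2, add_zero]

theorem Y_contDiffOn {r : ℝ} (hg : ContDiffOn ℝ 1 g (ball 0 r)) :
    ContDiffOn ℝ 1 (Y T g z1) (ball 0 r) := by
  unfold Y
  have h1 : ContDiffOn ℝ 1 (fun z : T => z - z1) (ball 0 r) :=
    contDiffOn_id.sub contDiffOn_const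
  exact (T.subtypeL.contDiff.comp_contDiffOn h1).add
    (Tᗮ.subtypeL.contDiff.comp_contDiffOn (hg.clm_apply h1))

/-- the cut off radial field. -/
def Z (A b : ℝ) (z : T) : Euc k := hh A b (‖z - z1‖ ^ 2) • Y T g z1 z

theorem Z_support {A R : ℝ} (hR : 0 ≤ R) :
    tsupport (Z T g z1 A (R ^ 2)) ⊆ closedBall z1 R := by
  refine closure_minimal (fun z hz => ?_) isClosed_closedBall
  by_contra hcon
  rw [mem_closedBall, dist_eq_norm, not_le] at hcon
  refine hz ?_
  unfold Z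
  rw [hh_zero (by gcongr), zero_smul]

theorem Z_contDiff {r A R : ℝ} (hR : 0 ≤ R) (hg : ContDiffOn ℝ 1 g (ball 0 r))
    (hRr : closedBall z1 R ⊆ ball 0 r) : ContDiff ℝ 1 (Z T g z1 A (R ^ 2)) := by
  refine contDiff_iff_contDiffAt.2 fun z => ?_
  by_cases hz : z ∈ tsupport (Z T g z1 A (R ^ 2))
  swap
  · exact contDiffAt_const.congr_of_eventuallyEq (notMem_tsupport_iff_eventuallyEq.1 hz)
  have hz' : z ∈ ball (0 : T) r := hRr (Z_support T g z1 hR hz)
  have h1 : ContDiffAt ℝ 1 (Y T g z1) z :=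
    (Y_contDiffOn T g z1 hg).contDiffAt (isOpen_ball.mem_nhds hz')
  have h2 : ContDiff ℝ 1 fun z : T => hh A (R ^ 2) (‖z - z1‖ ^ 2) :=
    ((hh_contDiff A (R ^ 2)).of_le (by norm_num)).comp
      ((contDiff_id.sub contDiff_const).norm_sq ℝ)
  exact h2.contDiffAt.smul h1

theorem hasFDerivAt_Z {r A R : ℝ} (hg : ContDiffOn ℝ 1 g (ball 0 r)) {z : T}
    (hz : z ∈ ball (0 : T) r) :
    HasFDerivAt (Z T g z1 A (R ^ 2))
      (hh A (R ^ 2) (‖z - z1‖ ^ 2) • fderiv ℝ (Y T g z1) z +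
        ((deriv (hh A (R ^ 2)) (‖z - z1‖ ^ 2)) • ((2 : ℝ) • innerSL ℝ (z - z1))).smulRight
          (Y T g z1 z)) z := by
  have h1 : HasFDerivAt (Y T g z1) (fderiv ℝ (Y T g z1) z) z :=
    (((Y_contDiffOn T g z1 hg).contDiffAt (isOpen_ball.mem_nhds hz)).differentiableAt
      one_ne_zero).hasFDerivAt
  have h2 : HasFDerivAt (fun z : T => ‖z - z1‖ ^ 2) ((2 : ℝ) • innerSL ℝ (z - z1)) z := by
    have h3 : HasFDerivAt (fun z : T => z - z1) (ContinuousLinearMap.id ℝ T) z :=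
      (hasFDerivAt_id z).sub_const z1
    exact h3.norm_sq.congr_fderiv (by ext v; simp)
  have h3 : HasDerivAt (hh A (R ^ 2)) (deriv (hh A (R ^ 2)) (‖z - z1‖ ^ 2)) (‖z - z1‖ ^ 2) :=
    (((hh_contDiff A (R ^ 2)).differentiable (by norm_num)) _).hasDerivAt
  have h4 := h3.comp_hasFDerivAt z h2
  exact h4.smul h1

end Field

section Main

variable {T : Submodule ℝ (Euc k)} {x0 : Euc k} {r s s' : ℝ} {u : T → Tᗮ}
  {g : T → T →L[ℝ] Tᗮ}

theorem isCompact_cc (T : Submodule ℝ (Euc k)) (x0 : Euc k) (z1 : T) (R s : ℝ) :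
    IsCompact {p : Euc k | px T x0 p ∈ closedBall z1 R ∧ py T x0 p ∈ closedBall (0 : Tᗮ) s} := by
  have h1 : IsCompact ((closedBall z1 R) ×ˢ (closedBall (0 : Tᗮ) s)) :=
    (isCompact_closedBall _ _).prod (isCompact_closedBall _ _)
  have h2 : Continuous fun q : T × Tᗮ => x0 + ((q.1 : Euc k) + (q.2 : Euc k)) := by fun_prop
  refine (h1.image h2).of_isClosed_subset ?_ ?_
  · exact (isClosed_closedBall.preimage (px_continuous T x0)).inter
      (isClosed_closedBall.preimage (py_continuous T x0))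
  · intro p hp
    exact ⟨(px T x0 p, py T x0 p), ⟨hp.1, hp.2⟩, (split T x0 p).symm⟩

theorem hasFDerivAt_px (T : Submodule ℝ (Euc k)) (x0 p : Euc k) :
    HasFDerivAt (px T x0) (T.orthogonalProjectionOnto : Euc k →L[ℝ] T) p :=
  T.orthogonalProjectionOnto.hasFDerivAt.comp p ((hasFDerivAt_id p).sub_const x0)

/-- the carrier hypothesis: over the cylinder the varifold lives on the graph of `u`, and its
planes contain the tangent vectors of the graph. -/
def Carried (V : Measure (Euc k × L k)) (T : Submodule ℝ (Euc k)) (x0 : Euc k) (r s : ℝ)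
    (u : T → Tᗮ) (g : T → T →L[ℝ] Tᗮ) : Prop :=
  ∀ᵐ p ∂V, p.1 ∈ cyl T x0 r s → py T x0 p.1 = u (px T x0 p.1) ∧
    ∀ e : T, p.2 ((e : Euc k) + (g (px T x0 p.1) e : Euc k)) =
      (e : Euc k) + (g (px T x0 p.1) e : Euc k)

/-- **vacuum grows**: if the varifold has no mass over the ball `B(z1, ρ)`, it has none over
`B(z1, R)`. -/
theorem vacuum_grow (hV : Stat m k U V) (hs0 : 0 ≤ s') (hs' : s' < s)
    (hg : ContDiffOn ℝ 1 g (ball 0 r)) (hus : ∀ z ∈ ball (0 : T) r, ‖u z‖ ≤ s')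
    (hcyl : cyl T x0 r s ⊆ U) (hcar : Carried V T x0 r s u g) {z1 : T} {ρ R : ℝ} (hρ : 0 < ρ)
    (hρR : ρ ≤ R) (hR : closedBall z1 R ⊆ ball (0 : T) r)
    (hvac : V {p | p.1 ∈ cyl T x0 r s ∧ px T x0 p.1 ∈ ball z1 ρ} = 0) :
    V {p | p.1 ∈ cyl T x0 r s ∧ px T x0 p.1 ∈ ball z1 R} = 0 := by
  have hR0 : 0 ≤ R := hρ.le.trans hρR
  -- the vertical cut-off
  let χ : ContDiffBump (0 : Tᗮ) := ⟨(2 * s' + s) / 3, (s' + 2 * s) / 3, by linarith, by linarith⟩
  have hχin : s' < χ.rIn := show s' < (2 * s' + s) / 3 by linarith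
  have hχout : χ.rOut < s := show (s' + 2 * s) / 3 < s by linarith
  -- the constant
  obtain ⟨C, hC0, hC⟩ : ∃ C : ℝ, 0 ≤ C ∧ ∀ z ∈ closedBall z1 R, ∀ P ∈ G m k,
      |tr ((fderiv ℝ (Y T g z1) z ∘L (T.orthogonalProjectionOnto : Euc k →L[ℝ] T)) ∘L P)| ≤ C := by
    obtain ⟨C0, hC00, hC0⟩ := bound_fderiv (Y_contDiffOn T g z1 hg) hR
    refine ⟨‖(tr : L k →L[ℝ] ℝ)‖ * C0, by positivity, fun z hz P hP => ?_⟩
    refine ((tr : L k →L[ℝ] ℝ).le_opNorm _).trans ?_
    refine mul_le_mul_of_nonneg_left ?_ (norm_nonneg _)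
    refine ContinuousLinearMap.opNorm_le_bound _ hC00 fun v => ?_
    simp only [ContinuousLinearMap.comp_apply]
    refine ((fderiv ℝ (Y T g z1) z).le_opNorm _).trans ?_
    refine mul_le_mul (hC0 z hz) ?_ (norm_nonneg _) hC00
    exact (T.norm_orthogonalProjectionOnto_apply_le _).trans (G_norm_apply_le hP v)
  set A : ℝ := (C + 1) / (2 * ρ ^ 2) with hA
  have hAρ : 2 * A * ρ ^ 2 = C + 1 := by rw [hA]; field_simp
  have hA0 : 0 ≤ A := by positivity
  -- the field
  set Zf : T → Euc k := Z T g z1 A (R ^ 2) with hZf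
  have hZc : ContDiff ℝ 1 Zf := Z_contDiff T g z1 hR0 hg hR
  have hZs : tsupport Zf ⊆ closedBall z1 R := Z_support T g z1 hR0
  set X : Euc k → Euc k := fun p => χ (py T x0 p) • Zf (px T x0 p) with hX
  have hXc : ContDiff ℝ 1 X := by
    have a1 : ContDiff ℝ 1 fun p => χ (py T x0 p) :=
      (χ.contDiff (n := 1)).comp ((py_contDiff T x0).of_le (by norm_num))
    have a2 : ContDiff ℝ 1 fun p => Zf (px T x0 p) :=
      hZc.comp ((px_contDiff T x0).of_le (by norm_num))
    exact a1.smul a2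
  have hXs : tsupport X ⊆ {p : Euc k | px T x0 p ∈ closedBall z1 R ∧
      py T x0 p ∈ closedBall (0 : Tᗮ) χ.rOut} := by
    refine closure_minimal (fun p hp => ?_) (isCompact_cc T x0 z1 R χ.rOut).isClosed
    have h1 : χ (py T x0 p) ≠ 0 := fun h => hp (by simp [hX, h])
    have h2 : Zf (px T x0 p) ≠ 0 := fun h => hp (by simp [hX, h])
    refine ⟨hZs (subset_tsupport _ h2), ?_⟩
    have h3 : py T x0 p ∈ Function.support χ := h1
    rw [χ.support_eq] at h3
    exact ball_subset_closedBall h3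
  have hXcyl : {p : Euc k | px T x0 p ∈ closedBall z1 R ∧
      py T x0 p ∈ closedBall (0 : Tᗮ) χ.rOut} ⊆ cyl T x0 r s := by
    rintro p ⟨hp1, hp2⟩
    exact ⟨hR hp1, closedBall_subset_ball hχout hp2⟩
  have hXcomp : HasCompactSupport X :=
    (isCompact_cc T x0 z1 R χ.rOut).of_isClosed_subset (isClosed_tsupport _) hXs
  have hXU : tsupport X ⊆ U := hXs.trans (hXcyl.trans hcyl)
  have h0 := hV.stat X hXc hXcomp hXU
  have hint : Integrable (fun p : Euc k × L k => tr ((fderiv ℝ X p.1) ∘L p.2)) V :=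
    integrable_fv hV.conc hXc hXcomp (hV.fin _ hXcomp hXU)
  -- the pointwise formula
  have hpt : ∀ p : Euc k × L k, p.1 ∈ cyl T x0 r s → p.2 ∈ G m k →
      py T x0 p.1 = u (px T x0 p.1) →
      (∀ e : T, p.2 ((e : Euc k) + (g (px T x0 p.1) e : Euc k)) =
        (e : Euc k) + (g (px T x0 p.1) e : Euc k)) →
      ¬ px T x0 p.1 ∈ ball z1 ρ →
      hh A (R ^ 2) (‖px T x0 p.1 - z1‖ ^ 2) ≤ -tr ((fderiv ℝ X p.1) ∘L p.2) := by
    intro p hp hG hpu hpe hpρ
    set z : T := px T x0 p.1 with hz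
    have hzr : z ∈ ball (0 : T) r := hp.1
    have hXd : HasFDerivAt X ((fderiv ℝ Zf z) ∘L (T.orthogonalProjectionOnto : Euc k →L[ℝ] T))
        p.1 := by
      have h1 : HasFDerivAt (fun p => Zf (px T x0 p))
          ((fderiv ℝ Zf z) ∘L (T.orthogonalProjectionOnto : Euc k →L[ℝ] T)) p.1 :=
        HasFDerivAt.comp p.1 ((hZc.differentiable one_ne_zero) _).hasFDerivAt
          (hasFDerivAt_px T x0 p.1)
      refine h1.congr_of_eventuallyEq ?_
      have h2 : py T x0 p.1 ∈ ball (0 : Tᗮ) χ.rIn := by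
        rw [mem_ball_zero_iff, hpu]
        exact (hus z hzr).trans_lt hχin
      filter_upwards [(isOpen_ball.preimage (py_continuous T x0)).mem_nhds h2] with q hq
      simp only [hX]
      rw [χ.one_of_mem_closedBall (ball_subset_closedBall hq), one_smul]
    rw [hXd.fderiv]
    rw [(hasFDerivAt_Z T g z1 (A := A) (R := R) hg hzr).fderiv]
    rw [ContinuousLinearMap.add_comp, ContinuousLinearMap.add_comp, map_add,
      ContinuousLinearMap.smul_comp, ContinuousLinearMap.smul_comp, map_smul]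
    have h2 : tr (((((deriv (hh A (R ^ 2)) (‖z - z1‖ ^ 2)) •
        ((2 : ℝ) • innerSL ℝ (z - z1))).smulRight (Y T g z1 z)) ∘L
          (T.orthogonalProjectionOnto : Euc k →L[ℝ] T)) ∘L p.2) =
        deriv (hh A (R ^ 2)) (‖z - z1‖ ^ 2) * (2 * ‖z - z1‖ ^ 2) := by
      have e1 : (((deriv (hh A (R ^ 2)) (‖z - z1‖ ^ 2)) •
        ((2 : ℝ) • innerSL ℝ (z - z1))).smulRight (Y T g z1 z)) ∘L
          (T.orthogonalProjectionOnto : Euc k →L[ℝ] T) =
          (((deriv (hh A (R ^ 2)) (‖z - z1‖ ^ 2)) •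
            ((2 : ℝ) • innerSL ℝ (z - z1))) ∘L
              (T.orthogonalProjectionOnto : Euc k →L[ℝ] T)).smulRight (Y T g z1 z) := by
        ext v; simp
      rw [e1, tr_smulRight_comp]
      have e2 : p.2 (Y T g z1 z) = Y T g z1 z := by
        unfold Y
        exact hpe (z - z1)
      rw [e2]
      simp only [ContinuousLinearMap.comp_apply, px_Y, smul_apply,
        innerSL_apply_apply, real_inner_self_eq_norm_sq, smul_eq_mul]
    rw [h2]
    rcases le_or_gt (R ^ 2) (‖z - z1‖ ^ 2) with hle | hlt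
    · have e1 : deriv (hh A (R ^ 2)) (‖z - z1‖ ^ 2) ≤ 0 := by
        have := hh_deriv_le A (R ^ 2) (‖z - z1‖ ^ 2)
        rw [hh_zero hle] at this
        simpa using this
      rw [hh_zero hle]
      simp only [zero_smul]
      nlinarith [sq_nonneg ‖z - z1‖]
    · have hzR : z ∈ closedBall z1 R := by
        rw [mem_closedBall, dist_eq_norm]
        exact (abs_le_of_sq_le_sq' hlt.le hR0).2
      have e1 := abs_le.1 (hC z hzR p.2 hG)
      have e2 := hh_deriv_le A (R ^ 2) (‖z - z1‖ ^ 2)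
      have e3 : ρ ^ 2 ≤ ‖z - z1‖ ^ 2 := by
        rw [mem_ball, dist_eq_norm, not_lt] at hpρ
        gcongr
      have e4 := hh_nonneg A (R ^ 2) (‖z - z1‖ ^ 2)
      set η := hh A (R ^ 2) (‖z - z1‖ ^ 2) with hη
      set t := ‖z - z1‖ ^ 2 with ht
      have e5 : deriv (hh A (R ^ 2)) t * (2 * t) ≤ -A * η * (2 * t) :=
        mul_le_mul_of_nonneg_right e2 (by positivity)
      have e6 : (C + 1) * η ≤ 2 * A * t * η := by
        refine mul_le_mul_of_nonneg_right ?_ e4
        rw [← hAρ]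
        exact mul_le_mul_of_nonneg_left e3 (by positivity)
      have e7 : η * tr ((fderiv ℝ (Y T g z1) z ∘L
          (T.orthogonalProjectionOnto : Euc k →L[ℝ] T)) ∘L p.2) ≤ η * C :=
        mul_le_mul_of_nonneg_left e1.2 e4
      simp only [smul_eq_mul]
      linarith
  -- the sign of the integrand
  have hae : ∀ᵐ p ∂V, 0 ≤ -tr ((fderiv ℝ X p.1) ∘L p.2) ∧
      (p.1 ∈ cyl T x0 r s → px T x0 p.1 ∈ ball z1 R →
        0 < -tr ((fderiv ℝ X p.1) ∘L p.2)) := by
    have hv : ∀ᵐ p ∂V, ¬ (p.1 ∈ cyl T x0 r s ∧ px T x0 p.1 ∈ ball z1 ρ) := by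
      rw [ae_iff]
      simpa using hvac
    filter_upwards [hV.conc, hcar, hv] with p hG hc hvp
    by_cases hp : p.1 ∈ cyl T x0 r s
    · have hpρ : ¬ px T x0 p.1 ∈ ball z1 ρ := fun h => hvp ⟨hp, h⟩
      have h1 := hpt p hp hG (hc hp).1 (hc hp).2 hpρ
      refine ⟨(hh_nonneg _ _ _).trans h1, fun _ hpR => lt_of_lt_of_le ?_ h1⟩
      refine hh_pos ?_
      rw [mem_ball, dist_eq_norm] at hpR
      have := norm_nonneg (px T x0 p.1 - z1)
      nlinarith
    · have h1 : fderiv ℝ X p.1 = 0 := by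
        have : p.1 ∉ tsupport (fderiv ℝ X) := fun h =>
          hp (hXcyl (hXs (tsupport_fderiv_subset ℝ h)))
        exact image_eq_zero_of_notMem_tsupport this
      refine ⟨by rw [h1]; simp, fun h => absurd h hp⟩
  have hzero : (fun p : Euc k × L k => -tr ((fderiv ℝ X p.1) ∘L p.2)) =ᵐ[V] 0 := by
    refine (integral_eq_zero_iff_of_nonneg_ae (hae.mono fun p hp => hp.1) hint.neg).1 ?_
    rw [integral_neg, h0, neg_zero]
  have hfin : ∀ᵐ p ∂V, ¬ (p.1 ∈ cyl T x0 r s ∧ px T x0 p.1 ∈ ball z1 R) := by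
    filter_upwards [hae, hzero] with p hp hp0 hcon
    have := hp.2 hcon.1 hcon.2
    simp only [Pi.zero_apply] at hp0
    linarith
  rw [ae_iff] at hfin
  simpa using hfin

/-- **constancy (support form)**: no mass over one small ball inside the cylinder implies no mass
over the whole cylinder. -/
theorem vacuum_all (hV : Stat m k U V) (hs0 : 0 ≤ s') (hs' : s' < s)
    (hg : ContDiffOn ℝ 1 g (ball 0 r)) (hus : ∀ z ∈ ball (0 : T) r, ‖u z‖ ≤ s')
    (hcyl : cyl T x0 r s ⊆ U) (hcar : Carried V T x0 r s u g) {z1 : T} {ρ : ℝ} (hρ : 0 < ρ)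
    (hz1 : z1 ∈ ball (0 : T) r)
    (hvac : V {p | p.1 ∈ cyl T x0 r s ∧ px T x0 p.1 ∈ ball z1 ρ} = 0) :
    V {p | p.1 ∈ cyl T x0 r s} = 0 := by
  set W : Set T := {z | ∃ δ > 0, V {p | p.1 ∈ cyl T x0 r s ∧ px T x0 p.1 ∈ ball z δ} = 0} with hW
  have hWo : IsOpen W := by
    rw [Metric.isOpen_iff]
    rintro z ⟨δ, hδ, h⟩
    refine ⟨δ / 2, by positivity, fun w hw => ⟨δ / 2, by positivity, measure_mono_null ?_ h⟩⟩
    rintro p ⟨hp1, hp2⟩
    refine ⟨hp1, ?_⟩
    rw [mem_ball] at hw hp2 ⊢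
    calc dist (px T x0 p.1) z ≤ dist (px T x0 p.1) w + dist w z := dist_triangle _ _ _
      _ < δ / 2 + δ / 2 := add_lt_add hp2 hw
      _ = δ := by ring
  have hclos : ∀ z ∈ ball (0 : T) r, z ∈ closure W → z ∈ W := by
    intro z hz hzc
    rw [mem_ball_zero_iff] at hz
    have h1 : 0 < r - ‖z‖ := by linarith
    obtain ⟨w, ⟨δ, hδ, hw⟩, hzw⟩ := Metric.mem_closure_iff.1 hzc ((r - ‖z‖) / 4) (by positivity)
    have hwz : ‖w‖ ≤ ‖z‖ + dist z w := by
      rw [dist_comm, dist_eq_norm]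
      calc ‖w‖ = ‖z + (w - z)‖ := by congr 1; abel
        _ ≤ ‖z‖ + ‖w - z‖ := norm_add_le _ _
    have hsub : closedBall w ((r - ‖z‖) / 2) ⊆ ball (0 : T) r := by
      intro v hv
      rw [mem_closedBall, dist_eq_norm] at hv
      rw [mem_ball_zero_iff]
      have : ‖v‖ ≤ ‖w‖ + ‖v - w‖ := by
        calc ‖v‖ = ‖w + (v - w)‖ := by congr 1; abel
          _ ≤ _ := norm_add_le _ _
      linarith
    have hδ' : 0 < min δ ((r - ‖z‖) / 2) := by positivity
    have hgrow := vacuum_grow hV hs0 hs' hg hus hcyl hcar (z1 := w)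
      (ρ := min δ ((r - ‖z‖) / 2)) (R := (r - ‖z‖) / 2) hδ' (min_le_right _ _) hsub
      (by
        refine measure_mono_null ?_ hw
        rintro p ⟨hp1, hp2⟩
        exact ⟨hp1, ball_subset_ball (min_le_left _ _) hp2⟩)
    refine ⟨(r - ‖z‖) / 4, by positivity, measure_mono_null ?_ hgrow⟩
    rintro p ⟨hp1, hp2⟩
    refine ⟨hp1, ?_⟩
    rw [mem_ball] at hp2 ⊢
    calc dist (px T x0 p.1) w ≤ dist (px T x0 p.1) z + dist z w := dist_triangle _ _ _
      _ < (r - ‖z‖) / 4 + (r - ‖z‖) / 4 := add_lt_add hp2 hzw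
      _ = (r - ‖z‖) / 2 := by ring
  have hall : ball (0 : T) r ⊆ W := by
    have hpre : IsPreconnected (ball (0 : T) r) := (convex_ball _ _).isPreconnected
    have hz1W : z1 ∈ W := ⟨ρ, hρ, hvac⟩
    refine hpre.subset_of_closure_inter_subset hWo ⟨z1, hz1, hz1W⟩ ?_
    rintro z ⟨hz1, hz2⟩
    exact hclos z hz2 hz1
  -- countable cover
  refine measure_null_of_locally_null _ fun p hp => ?_
  obtain ⟨δ, hδ, h⟩ := hall hp.1
  refine ⟨{q : Euc k × L k | q.1 ∈ cyl T x0 r s ∧ px T x0 q.1 ∈ ball (px T x0 p.1) δ},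
    mem_nhdsWithin_of_mem_nhds ?_, h⟩
  refine IsOpen.mem_nhds ?_ ⟨hp, mem_ball_self hδ⟩
  exact ((cyl_isOpen T x0 r s).preimage continuous_fst).inter
    (isOpen_ball.preimage ((px_continuous T x0).comp continuous_fst))

end Main

end

end Crest.Agent.R234.Ct914
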