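import Crest.Agent.R234.Mx3_397
import Mathlib.Analysis.SpecialFunctions.SmoothTransition

/-!
# Row 234 (helper161): quantitative radial cut-offs as elements of the Wiener algebra

`ct s r x = 1 - smoothTransition ((‖x‖² - s²)/(r² - s²))` is smooth, `= 1` for `‖x‖ ≤ s`,
`= 0` for `‖x‖ ≥ r`, `‖D^j ct‖ ≤ C (r-s)⁻ᵖ` and `‖toX N ct‖ ≤ C (r-s)⁻ᵖ` for all
`0 ≤ s < r ≤ 3/2`.
-/

set_option autoImplicit false
set_option linter.unusedSectionVars false

open MeasureTheory Complex Filter Real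
open scoped ContDiff FourierTransform Topology InnerProductSpace SchwartzMap

noncomputable section

namespace Crest.Agent.R234.Cto_161

open Crest.Agent.R086.Wie Crest.Agent.R234.Mx1_397 Crest.Agent.R234.Mx2_397
open Crest.Agent.R234.Mx3_397

variable {F : Type*} [NormedAddCommGroup F] [InnerProductSpace ℝ F] [FiniteDimensional ℝ F]
  [MeasurableSpace F] [BorelSpace F]

/-- the profile -/
def ph (x : ℝ) : ℝ := 1 - Real.smoothTransition x

theorem ph_smooth : ContDiff ℝ ∞ ph := contDiff_const.sub Real.smoothTransition.contDiff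

theorem ph_one {x : ℝ} (h : x ≤ 0) : ph x = 1 := by
  rw [ph, Real.smoothTransition.zero_of_nonpos h, sub_zero]

theorem ph_zero {x : ℝ} (h : 1 ≤ x) : ph x = 0 := by
  rw [ph, Real.smoothTransition.one_of_one_le h, sub_self]

theorem ph_nonneg (x : ℝ) : 0 ≤ ph x := sub_nonneg.2 (Real.smoothTransition.le_one x)

theorem ph_le_one (x : ℝ) : ph x ≤ 1 := by
  have := Real.smoothTransition.nonneg x
  unfold ph
  linarith

/-- all derivatives of the profile are bounded -/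
theorem ph_bound (K : ℕ) : ∃ C : ℝ, 1 ≤ C ∧ ∀ j ≤ K, ∀ x, ‖iteratedFDeriv ℝ j ph x‖ ≤ C := by
  have h1 : ∀ j : ℕ, ∃ C, ∀ x, ‖iteratedFDeriv ℝ j ph x‖ ≤ C := fun j => by
    have hc : Continuous (iteratedFDeriv ℝ j ph) :=
      ph_smooth.continuous_iteratedFDeriv (by exact_mod_cast le_top)
    obtain ⟨C, hC⟩ := (isCompact_Icc (a := (-1 : ℝ)) (b := 2)).exists_bound_of_continuousOn
      hc.continuousOn
    refine ⟨max C 1, fun x => ?_⟩
    by_cases hx : x ∈ Set.Icc (-1 : ℝ) 2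
    · exact (hC x hx).trans (le_max_left _ _)
    · rcases lt_or_ge x (-1) with h | h
      · have h4 : ph =ᶠ[𝓝 x] fun _ => (1 : ℝ) := by
          filter_upwards [(isOpen_gt' (-1 : ℝ)).mem_nhds h] with y hy
          have hy' : y < -1 := hy
          exact ph_one (by linarith)
        rw [(Filter.EventuallyEq.iteratedFDeriv ℝ h4 j).eq_of_nhds]
        rcases Nat.eq_zero_or_pos j with rfl | hj
        · rw [norm_iteratedFDeriv_zero, norm_one]
          exact le_max_right _ _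
        · rw [iteratedFDeriv_const_of_ne (by omega)]
          simp
      · have h2 : (2 : ℝ) < x := by
          by_contra h3
          exact hx ⟨h, not_lt.1 h3⟩
        have h4 : ph =ᶠ[𝓝 x] fun _ => (0 : ℝ) := by
          filter_upwards [(isOpen_lt' (2 : ℝ)).mem_nhds h2] with y hy
          have hy' : (2 : ℝ) < y := hy
          exact ph_zero (by linarith)
        rw [(Filter.EventuallyEq.iteratedFDeriv ℝ h4 j).eq_of_nhds]
        simp only [iteratedFDeriv_fun_zero, Pi.zero_apply, norm_zero]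
        positivity
  choose C hC using h1
  refine ⟨1 + ∑ j ∈ Finset.range (K + 1), C j, ?_, fun j hj x => (hC j x).trans ?_⟩
  · have : 0 ≤ ∑ j ∈ Finset.range (K + 1), C j := Finset.sum_nonneg fun j _ =>
      (norm_nonneg _).trans (hC j 0)
    linarith
  · have := Finset.single_le_sum (f := C) (fun i _ => (norm_nonneg _).trans (hC i 0))
      (Finset.mem_range.2 (show j < K + 1 by omega))
    linarith

/-- the radial function -/
def rd (s r : ℝ) (x : F) : ℝ := (‖x‖ ^ 2 - s ^ 2) / (r ^ 2 - s ^ 2)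

/-- the cut-off -/
def ct (s r : ℝ) (x : F) : ℝ := ph (rd s r x)

theorem rd_smooth (s r : ℝ) : ContDiff ℝ ∞ (rd s r : F → ℝ) := by
  unfold rd
  exact ((contDiff_norm_sq ℝ).sub contDiff_const).div_const _

theorem ct_smooth (s r : ℝ) : ContDiff ℝ ∞ (ct s r : F → ℝ) := ph_smooth.comp (rd_smooth s r)

theorem ct_nonneg (s r : ℝ) (x : F) : 0 ≤ ct s r x := ph_nonneg _

theorem ct_le_one (s r : ℝ) (x : F) : ct s r x ≤ 1 := ph_le_one _

theorem sq_sub_pos {s r : ℝ} (hs : 0 ≤ s) (hr : s < r) : 0 < r ^ 2 - s ^ 2 := by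
  nlinarith

theorem ct_one {s r : ℝ} (hs : 0 ≤ s) (hr : s < r) {x : F} (hx : ‖x‖ ≤ s) : ct s r x = 1 := by
  refine ph_one (div_nonpos_of_nonpos_of_nonneg ?_ (sq_sub_pos hs hr).le)
  have := pow_le_pow_left₀ (norm_nonneg x) hx 2
  linarith

theorem ct_zero {s r : ℝ} (hs : 0 ≤ s) (hr : s < r) {x : F} (hx : r ≤ ‖x‖) : ct s r x = 0 := by
  refine ph_zero ?_
  rw [rd, le_div_iff₀ (sq_sub_pos hs hr), one_mul]
  have := pow_le_pow_left₀ (hs.trans hr.le) hx 2
  linarith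

theorem tsupport_ct {s r : ℝ} (hs : 0 ≤ s) (hr : s < r) :
    tsupport (ct s r : F → ℝ) ⊆ Metric.closedBall 0 r := by
  refine closure_minimal (fun x hx => ?_) Metric.isClosed_closedBall
  rw [mem_closedBall_zero_iff]
  by_contra h
  exact hx (ct_zero hs hr (not_le.1 h).le)

theorem ct_isCut {s r : ℝ} (hs : 0 ≤ s) (hr : s < r) (h2 : r < 2) : IsCut (ct s r : F → ℝ) :=
  ⟨ct_smooth s r, (tsupport_ct hs hr).trans (Metric.closedBall_subset_ball h2)⟩

/-! ### the derivatives of the radial function -/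

theorem fderiv_rd (s r : ℝ) (x : F) :
    fderiv ℝ (rd s r : F → ℝ) x = (2 / (r ^ 2 - s ^ 2)) • innerSL ℝ x := by
  have h : HasFDerivAt (fun y : F => ‖y‖ ^ 2) (2 • innerSL ℝ x) x :=
    (hasStrictFDerivAt_norm_sq x).hasFDerivAt
  have h1 : HasFDerivAt (rd s r : F → ℝ) ((r ^ 2 - s ^ 2)⁻¹ • (2 • innerSL ℝ x)) x := by
    have := (h.sub_const (s ^ 2)).const_mul ((r ^ 2 - s ^ 2)⁻¹)
    refine this.congr_of_eventuallyEq (Eventually.of_forall fun y => ?_)
    simp only [rd, div_eq_inv_mul]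
  rw [h1.fderiv]
  ext v
  simp [div_eq_inv_mul]
  ring

theorem fderiv2_rd (s r : ℝ) :
    fderiv ℝ (rd s r : F → ℝ) = fun x => ((2 / (r ^ 2 - s ^ 2)) • innerSL ℝ) x := by
  funext x
  rw [fderiv_rd]
  rfl

theorem innerSL_norm_le : ‖(innerSL ℝ : F →L[ℝ] F →L[ℝ] ℝ)‖ ≤ 1 := by
  refine ContinuousLinearMap.opNorm_le_bound _ zero_le_one fun x => ?_
  rw [one_mul, innerSL_apply_norm]

/-- the derivatives of the radial function on `‖x‖ ≤ r` -/
theorem rd_bound {s r : ℝ} (hs : 0 ≤ s) (hr : s < r) {x : F} (hx : ‖x‖ ≤ r) (j : ℕ)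
    (hj : 1 ≤ j) : ‖iteratedFDeriv ℝ j (rd s r : F → ℝ) x‖ ≤ (2 / (r - s)) ^ j := by
  have hp := sq_sub_pos hs hr
  have hd : 0 < r - s := sub_pos.2 hr
  have hfac : r ^ 2 - s ^ 2 = (r - s) * (r + s) := by ring
  have hrs : 0 < r + s := by linarith
  obtain ⟨i, rfl⟩ : ∃ i, j = i + 1 := ⟨j - 1, by omega⟩
  rw [← norm_iteratedFDeriv_fderiv]
  rcases i with _ | i
  · rw [norm_iteratedFDeriv_zero, fderiv_rd, norm_smul, innerSL_apply_norm, zero_add, pow_one,
      Real.norm_of_nonneg (by positivity), hfac]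
    have h1 : ‖x‖ ≤ r + s := by linarith
    rw [div_mul_eq_mul_div, div_le_div_iff₀ (by positivity) hd]
    nlinarith [mul_pos hd hrs]
  · rw [← norm_iteratedFDeriv_fderiv, fderiv2_rd]
    have h2 : (fun x : F => fderiv ℝ (fun x => ((2 / (r ^ 2 - s ^ 2)) •
        (innerSL ℝ : F →L[ℝ] F →L[ℝ] ℝ)) x) x) = fun _ => (2 / (r ^ 2 - s ^ 2)) •
        (innerSL ℝ : F →L[ℝ] F →L[ℝ] ℝ) := by
      funext y
      exact ContinuousLinearMap.fderiv _
    have h3 : fderiv ℝ (fun x => ((2 / (r ^ 2 - s ^ 2)) •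
        (innerSL ℝ : F →L[ℝ] F →L[ℝ] ℝ)) x) = fun _ : F => (2 / (r ^ 2 - s ^ 2)) •
        (innerSL ℝ : F →L[ℝ] F →L[ℝ] ℝ) := h2
    rw [h3]
    rcases i with _ | i
    · rw [norm_iteratedFDeriv_zero, norm_smul, Real.norm_of_nonneg (by positivity)]
      calc 2 / (r ^ 2 - s ^ 2) * ‖(innerSL ℝ : F →L[ℝ] F →L[ℝ] ℝ)‖
          ≤ 2 / (r ^ 2 - s ^ 2) * 1 :=
            mul_le_mul_of_nonneg_left innerSL_norm_le (by positivity)
        _ = 2 / ((r - s) * (r + s)) := by rw [mul_one, hfac]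
        _ ≤ 2 / ((r - s) * (r - s)) := by
            apply div_le_div_of_nonneg_left (by norm_num) (by positivity)
            exact mul_le_mul_of_nonneg_left (by linarith) hd.le
        _ ≤ (2 / (r - s)) ^ (0 + 1 + 1) := by
            rw [show (0 : ℕ) + 1 + 1 = 2 from rfl, div_pow, ← sq]
            gcongr
            norm_num
    · rw [iteratedFDeriv_const_of_ne (by omega)]
      simp only [Pi.zero_apply, norm_zero]
      positivity

/-- **pointwise bounds**: `‖D^j ct‖ ≤ C (r - s)⁻ʲ` -/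
theorem ct_bound (K : ℕ) : ∃ C : ℝ, 1 ≤ C ∧ ∀ s r : ℝ, 0 ≤ s → s < r → ∀ j ≤ K, ∀ x : F,
    ‖iteratedFDeriv ℝ j (ct s r : F → ℝ) x‖ ≤ C / (r - s) ^ j := by
  obtain ⟨C, hC1, hC⟩ := ph_bound K
  refine ⟨(K.factorial : ℝ) * C * 2 ^ K, ?_, fun s r hs hr j hj x => ?_⟩
  · have h1 : (1 : ℝ) ≤ (K.factorial : ℝ) := by exact_mod_cast K.factorial_pos
    have h2 : (1 : ℝ) ≤ 2 ^ K := one_le_pow₀ (by norm_num)
    calc (1 : ℝ) = 1 * 1 * 1 := by norm_num
      _ ≤ (K.factorial : ℝ) * C * 2 ^ K := by gcongr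
  have hd : 0 < r - s := sub_pos.2 hr
  rcases le_or_gt ‖x‖ r with hx | hx
  · have h1 := norm_iteratedFDeriv_comp_le (𝕜 := ℝ) (g := ph) (f := (rd s r : F → ℝ)) (n := j)
      (N := ∞) ph_smooth (rd_smooth s r) (by exact_mod_cast le_top) x (C := C)
      (D := 2 / (r - s)) (fun i hi => hC i (hi.trans hj) _)
      (fun i hi1 _ => rd_bound hs hr hx i hi1)
    refine h1.trans ?_
    rw [div_pow, mul_div_assoc']
    have h2 : (j.factorial : ℝ) ≤ K.factorial := by exact_mod_cast Nat.factorial_le hj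
    have h3 : (2 : ℝ) ^ j ≤ 2 ^ K := pow_le_pow_right₀ (by norm_num) hj
    gcongr
  · have h4 : (ct s r : F → ℝ) =ᶠ[𝓝 x] fun _ => (0 : ℝ) := by
      filter_upwards [(isOpen_lt continuous_const continuous_norm).mem_nhds hx] with y hy
      have hy' : r < ‖y‖ := hy
      exact ct_zero hs hr hy'.le
    rw [(Filter.EventuallyEq.iteratedFDeriv ℝ h4 j).eq_of_nhds]
    simp only [iteratedFDeriv_fun_zero, Pi.zero_apply, norm_zero]
    positivity

/-- the cut-off as an element of the Wiener algebra -/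
def cX (N : ℕ) {s r : ℝ} (hs : 0 ≤ s) (hr : s < r) (h2 : r < 2) : X F N :=
  toX N (toS (ct s r) (ct_isCut hs hr h2).compact (ct_smooth s r))

theorem ev_cX (N : ℕ) {s r : ℝ} (hs : 0 ≤ s) (hr : s < r) (h2 : r < 2) (x : F) :
    ev (cX N hs hr h2) x = (ct s r x : ℂ) := by
  unfold cX
  rw [ev_toX, toS_apply]

theorem star_cX (N : ℕ) {s r : ℝ} (hs : 0 ≤ s) (hr : s < r) (h2 : r < 2) :
    star (cX (F := F) N hs hr h2) = cX N hs hr h2 := star_toX_toS N _ _ _

/-- **Wiener norm of the cut-off**: `‖ct‖ ≤ C (r - s)⁻ᵖ` for all `0 ≤ s < r < 2` -/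
theorem cX_bound (N : ℕ) : ∃ C : ℝ, 1 ≤ C ∧ ∃ p : ℕ, ∀ (s r : ℝ) (hs : 0 ≤ s) (hr : s < r)
    (h2 : r < 2), ‖cX (F := F) N hs hr h2‖ ≤ C / (r - s) ^ p := by
  obtain ⟨K, C, hC0, hC⟩ := exists_toX_bound (F := F) N
  obtain ⟨C', hC'1, hC'⟩ := ct_bound (F := F) K
  refine ⟨max 1 (C * C' * 2 ^ K), le_max_left _ _, K, fun s r hs hr h2 => ?_⟩
  have hd : 0 < r - s := sub_pos.2 hr
  have hd2 : r - s ≤ 2 := by linarith
  have h3 : ‖cX (F := F) N hs hr h2‖ ≤ C * (C' * 2 ^ K / (r - s) ^ K) := by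
    refine hC _ _ (by positivity) (fun x hx => ?_) (fun j hj x => ?_)
    · rw [toS_apply, ct_zero hs hr (by linarith), Complex.ofReal_zero]
    · refine (norm_iteratedFDeriv_toS _ _ _ j x).trans ((hC' s r hs hr j hj x).trans ?_)
      rw [div_le_div_iff₀ (by positivity) (by positivity)]
      have h5 : (r - s) ^ K = (r - s) ^ j * (r - s) ^ (K - j) := by
        rw [← pow_add]; congr 1; omega
      have h6 : (r - s) ^ (K - j) ≤ 2 ^ K :=
        (pow_le_pow_left₀ hd.le hd2 _).trans (pow_le_pow_right₀ (by norm_num) (Nat.sub_le _ _))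
      rw [h5]
      calc C' * ((r - s) ^ j * (r - s) ^ (K - j)) = C' * (r - s) ^ (K - j) * (r - s) ^ j := by ring
        _ ≤ C' * 2 ^ K * (r - s) ^ j := by gcongr
  refine h3.trans ?_
  rw [mul_div_assoc', ← mul_assoc]
  gcongr
  exact le_max_right _ _

end Crest.Agent.R234.Cto_161
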