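import Mathlib

/-!
# Row 234, VF-CYL, part 1 (helper870)

Logarithmic derivative of kernel integrals `l ↦ ∫ c k(e^{-2l} ρ) dV`, `ρ ≥ 0` a squared distance.
-/

set_option autoImplicit false

open MeasureTheory Set Function Filter Topology
open scoped ENNReal NNReal

noncomputable section

namespace Crest.Agent.R234.Cy_870

variable {Ω : Type*} [MeasurableSpace Ω]

/-- finite measures, kernels with `k`, `t k'` bounded on `[0, ∞)` -/
theorem hasDerivAt_ker_fin {V : Measure Ω} [IsFiniteMeasure V] {ρ c : Ω → ℝ}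
    (hρ : AEMeasurable ρ V) (hρ0 : ∀ p, 0 ≤ ρ p) (hc : AEStronglyMeasurable c V) {C : ℝ}
    (hcC : ∀ᵐ p ∂V, |c p| ≤ C) {k k' : ℝ → ℝ} (hk : ∀ t, HasDerivAt k (k' t) t)
    (hk'c : Continuous k') {K : ℝ} (hK : ∀ t, 0 ≤ t → |k t| ≤ K)
    (hK' : ∀ t, 0 ≤ t → |t * k' t| ≤ K) (l : ℝ) :
    HasDerivAt (fun l => ∫ p, c p * k (Real.exp (-2 * l) * ρ p) ∂V)
      (∫ p, c p * (-2 * (Real.exp (-2 * l) * ρ p * k' (Real.exp (-2 * l) * ρ p))) ∂V) l := by
  have hkc : Continuous k := continuous_iff_continuousAt.2 fun t => (hk t).continuousAt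
  have hmeas : ∀ (f : ℝ → ℝ), Continuous f → ∀ l : ℝ,
      AEStronglyMeasurable (fun p => f (Real.exp (-2 * l) * ρ p)) V := fun f hf l =>
    (hf.measurable.comp_aemeasurable (hρ.const_mul _)).aestronglyMeasurable
  refine (hasDerivAt_integral_of_dominated_loc_of_deriv_le (bound := fun _ => C * (2 * K))
    (F := fun l p => c p * k (Real.exp (-2 * l) * ρ p))
    (F' := fun l p => c p * (-2 * (Real.exp (-2 * l) * ρ p * k' (Real.exp (-2 * l) * ρ p))))
    (Metric.ball_mem_nhds l one_pos) ?_ ?_ ?_ ?_ (integrable_const _) ?_).2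
  · exact Eventually.of_forall fun l => hc.mul (hmeas k hkc l)
  · refine Integrable.mono' (integrable_const (C * K)) (hc.mul (hmeas k hkc l)) ?_
    filter_upwards [hcC] with p hp
    rw [Real.norm_eq_abs, abs_mul]
    exact mul_le_mul hp (hK _ (mul_nonneg (Real.exp_pos _).le (hρ0 p))) (abs_nonneg _)
      ((abs_nonneg _).trans hp)
  · refine hc.mul ?_
    exact (hmeas (fun t => t * k' t) (continuous_id.mul hk'c) l).const_mul (-2)
  · filter_upwards [hcC] with p hp l' _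
    rw [Real.norm_eq_abs, abs_mul]
    refine mul_le_mul hp ?_ (abs_nonneg _) ((abs_nonneg _).trans hp)
    rw [abs_mul]
    have : |(-2:ℝ)| = 2 := by norm_num
    rw [this]
    exact mul_le_mul_of_nonneg_left (hK' _ (mul_nonneg (Real.exp_pos _).le (hρ0 p))) two_pos.le
  · refine Eventually.of_forall fun p l' _ => ?_
    refine HasDerivAt.const_mul _ ?_
    have h1 : HasDerivAt (fun l : ℝ => Real.exp (-2 * l) * ρ p)
        (-2 * (Real.exp (-2 * l') * ρ p)) l' := by
      have h2 : HasDerivAt (fun l : ℝ => Real.exp (-2 * l)) (Real.exp (-2 * l') * (-2)) l' := by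
        have h3 : HasDerivAt (fun l : ℝ => -2 * l) (-2) l' := by
          simpa using (hasDerivAt_id l').const_mul (-2)
        exact h3.exp
      have h4 := h2.mul_const (ρ p)
      have h7 : -2 * (Real.exp (-2 * l') * ρ p) = Real.exp (-2 * l') * (-2) * ρ p := by ring
      rw [h7]
      exact h4
    have h5 := (hk (Real.exp (-2 * l') * ρ p)).comp l' h1
    have h6 : -2 * (Real.exp (-2 * l') * ρ p * k' (Real.exp (-2 * l') * ρ p)) =
        k' (Real.exp (-2 * l') * ρ p) * (-2 * (Real.exp (-2 * l') * ρ p)) := by ring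
    rw [h6]
    exact h5

theorem continuous_ker_fin {V : Measure Ω} [IsFiniteMeasure V] {ρ c : Ω → ℝ}
    (hρ : AEMeasurable ρ V) (hρ0 : ∀ p, 0 ≤ ρ p) (hc : AEStronglyMeasurable c V) {C : ℝ}
    (hcC : ∀ᵐ p ∂V, |c p| ≤ C) {k : ℝ → ℝ} (hk : Continuous k) {K : ℝ}
    (hK : ∀ t, 0 ≤ t → |k t| ≤ K) :
    Continuous fun l => ∫ p, c p * k (Real.exp (-2 * l) * ρ p) ∂V := by
  have hmeas : ∀ l : ℝ, AEStronglyMeasurable (fun p => k (Real.exp (-2 * l) * ρ p)) V := fun l =>
    (hk.measurable.comp_aemeasurable (hρ.const_mul _)).aestronglyMeasurable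
  refine continuous_of_dominated (bound := fun _ => C * K) (fun l => hc.mul (hmeas l)) ?_
    (integrable_const _) ?_
  · intro l
    filter_upwards [hcC] with p hp
    rw [Real.norm_eq_abs, abs_mul]
    exact mul_le_mul hp (hK _ (mul_nonneg (Real.exp_pos _).le (hρ0 p))) (abs_nonneg _)
      ((abs_nonneg _).trans hp)
  · refine Eventually.of_forall fun p => ?_
    exact continuous_const.mul (hk.comp ((Real.continuous_exp.comp
      (continuous_const.mul continuous_id)).mul continuous_const))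

/-- kernels supported in `[0, 1]`, `C¹` -/
structure Ker (k k' : ℝ → ℝ) : Prop where
  der : ∀ t, HasDerivAt k (k' t) t
  cont : Continuous k'
  zero : ∀ t, 1 ≤ t → k t = 0

namespace Ker

variable {k k' : ℝ → ℝ}

theorem continuous (h : Ker k k') : Continuous k :=
  continuous_iff_continuousAt.2 fun t => (h.der t).continuousAt

theorem zero' (h : Ker k k') : ∀ t, 1 ≤ t → k' t = 0 := by
  intro t ht
  have h1 : HasDerivWithinAt k (k' t) (Ici t) t := (h.der t).hasDerivWithinAt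
  have h2 : HasDerivWithinAt k 0 (Ici t) t := by
    refine (hasDerivWithinAt_const t (Ici t) (0:ℝ)).congr ?_ ?_
    · intro u hu
      exact h.zero u (ht.trans hu)
    · exact h.zero t ht
  exact (uniqueDiffWithinAt_Ici t).eq_deriv _ h1 h2

theorem exists_bound (h : Ker k k') :
    ∃ K : ℝ, 0 ≤ K ∧ (∀ t, 0 ≤ t → |k t| ≤ K) ∧ (∀ t, 0 ≤ t → |k' t| ≤ K) ∧
      (∀ t, 0 ≤ t → |t * k' t| ≤ K) := by
  obtain ⟨K1, hK1⟩ := (isCompact_Icc (a := (0:ℝ)) (b := 1)).exists_bound_of_continuousOn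
    h.continuous.continuousOn
  obtain ⟨K2, hK2⟩ := (isCompact_Icc (a := (0:ℝ)) (b := 1)).exists_bound_of_continuousOn
    h.cont.continuousOn
  have h10 : 0 ≤ K1 := (norm_nonneg _).trans (hK1 0 ⟨le_rfl, zero_le_one⟩)
  have h20 : 0 ≤ K2 := (norm_nonneg _).trans (hK2 0 ⟨le_rfl, zero_le_one⟩)
  refine ⟨K1 + K2, by positivity, fun t ht => ?_, fun t ht => ?_, fun t ht => ?_⟩
  · rcases le_or_gt t 1 with h1 | h1
    · have := hK1 t ⟨ht, h1⟩
      rw [Real.norm_eq_abs] at this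
      linarith
    · rw [h.zero t h1.le, abs_zero]; positivity
  · rcases le_or_gt t 1 with h1 | h1
    · have := hK2 t ⟨ht, h1⟩
      rw [Real.norm_eq_abs] at this
      linarith
    · rw [h.zero' t h1.le, abs_zero]; positivity
  · rcases le_or_gt t 1 with h1 | h1
    · have := hK2 t ⟨ht, h1⟩
      rw [Real.norm_eq_abs] at this
      rw [abs_mul, abs_of_nonneg ht]
      nlinarith [abs_nonneg (k' t)]
    · rw [h.zero' t h1.le, mul_zero, abs_zero]; positivity

end Ker

variable {V : Measure Ω} {ρ c : Ω → ℝ} {L : ℝ}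

/-- the integral only sees `{ρ < e^{2L}}` for `l < L` -/
theorem integral_ker_restrict (_hρ : Measurable ρ) {k : ℝ → ℝ} (hk : ∀ t, 1 ≤ t → k t = 0) {l : ℝ}
    (hl : l ≤ L) :
    ∫ p, c p * k (Real.exp (-2 * l) * ρ p) ∂V =
      ∫ p, c p * k (Real.exp (-2 * l) * ρ p) ∂(V.restrict {p | ρ p < Real.exp (2 * L)}) := by
  symm
  refine setIntegral_eq_integral_of_forall_compl_eq_zero fun p hp => ?_
  have h1 : Real.exp (2 * L) ≤ ρ p := not_lt.1 hp
  have h2 : 1 ≤ Real.exp (-2 * l) * ρ p := by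
    calc (1:ℝ) = Real.exp (-2 * l) * Real.exp (2 * l) := by rw [← Real.exp_add]; simp
      _ ≤ Real.exp (-2 * l) * Real.exp (2 * L) := by
          gcongr
      _ ≤ _ := by gcongr
  rw [hk _ h2, mul_zero]

theorem integrable_ker (hρ : Measurable ρ) (hρ0 : ∀ p, 0 ≤ ρ p) (hc : AEStronglyMeasurable c V)
    (hfin : V {p | ρ p < Real.exp (2 * L)} < ⊤) {C : ℝ}
    (hcC : ∀ᵐ p ∂V, ρ p < Real.exp (2 * L) → |c p| ≤ C) {k : ℝ → ℝ} (hk : Continuous k)
    {K : ℝ} (hK : ∀ t, 0 ≤ t → |k t| ≤ K)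
    (hk0 : ∀ t, 1 ≤ t → k t = 0) {l : ℝ} (hl : l ≤ L) :
    Integrable (fun p => c p * k (Real.exp (-2 * l) * ρ p)) V := by
  have hS : MeasurableSet {p | ρ p < Real.exp (2 * L)} := measurableSet_lt hρ measurable_const
  have hmeas : AEStronglyMeasurable (fun p => c p * k (Real.exp (-2 * l) * ρ p)) V :=
    hc.mul ((hk.measurable.comp (hρ.const_mul _)).aestronglyMeasurable)
  have h1 : IntegrableOn (fun p => c p * k (Real.exp (-2 * l) * ρ p))
      {p | ρ p < Real.exp (2 * L)} V := by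
    refine IntegrableOn.of_bound hfin hmeas.restrict (C * K) ?_
    filter_upwards [ae_restrict_of_ae hcC, ae_restrict_mem hS] with p hp hp2
    rw [Real.norm_eq_abs, abs_mul]
    exact mul_le_mul (hp hp2) (hK _ (mul_nonneg (Real.exp_pos _).le (hρ0 p))) (abs_nonneg _)
      ((abs_nonneg _).trans (hp hp2))
  refine (integrableOn_iff_integrable_of_support_subset ?_).1 h1
  intro p hp
  by_contra hcon
  apply hp
  have h1 : Real.exp (2 * L) ≤ ρ p := not_lt.1 hcon
  have h2 : 1 ≤ Real.exp (-2 * l) * ρ p := by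
    calc (1:ℝ) = Real.exp (-2 * l) * Real.exp (2 * l) := by rw [← Real.exp_add]; simp
      _ ≤ Real.exp (-2 * l) * Real.exp (2 * L) := by
          gcongr
      _ ≤ _ := by gcongr
  simp only
  rw [hk0 _ h2, mul_zero]

/-- **logarithmic derivative of a kernel integral** -/
theorem hasDerivAt_ker (hρ : Measurable ρ) (hρ0 : ∀ p, 0 ≤ ρ p) (hc : AEStronglyMeasurable c V)
    (hfin : V {p | ρ p < Real.exp (2 * L)} < ⊤) {C : ℝ}
    (hcC : ∀ᵐ p ∂V, ρ p < Real.exp (2 * L) → |c p| ≤ C) {k k' : ℝ → ℝ} (hk : Ker k k')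
    {l : ℝ} (hl : l < L) :
    HasDerivAt (fun l => ∫ p, c p * k (Real.exp (-2 * l) * ρ p) ∂V)
      (∫ p, c p * (-2 * (Real.exp (-2 * l) * ρ p * k' (Real.exp (-2 * l) * ρ p))) ∂V) l := by
  have hS : MeasurableSet {p | ρ p < Real.exp (2 * L)} := measurableSet_lt hρ measurable_const
  obtain ⟨K, hK0, hK, -, hK'⟩ := hk.exists_bound
  have : IsFiniteMeasure (V.restrict {p | ρ p < Real.exp (2 * L)}) := ⟨by
    rw [Measure.restrict_apply_univ]; exact hfin⟩
  have hcC' : ∀ᵐ p ∂(V.restrict {p | ρ p < Real.exp (2 * L)}), |c p| ≤ C := by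
    filter_upwards [ae_restrict_of_ae hcC, ae_restrict_mem hS] with p hp hp2
    exact hp hp2
  have h := hasDerivAt_ker_fin hρ.aemeasurable hρ0 hc.restrict hcC' hk.der hk.cont hK hK' l
  have h2 : ∫ p, c p * (-2 * (Real.exp (-2 * l) * ρ p * k' (Real.exp (-2 * l) * ρ p))) ∂V =
      ∫ p, c p * (-2 * (Real.exp (-2 * l) * ρ p * k' (Real.exp (-2 * l) * ρ p)))
        ∂(V.restrict {p | ρ p < Real.exp (2 * L)}) :=
    integral_ker_restrict (k := fun t => -2 * (t * k' t)) hρ (fun t ht => by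
      rw [hk.zero' t ht]; ring) hl.le
  rw [h2]
  refine h.congr_of_eventuallyEq ?_
  filter_upwards [Iio_mem_nhds hl] with l' hl'
  exact integral_ker_restrict hρ hk.zero (le_of_lt hl')

/-- continuity in `l` of a kernel integral -/
theorem continuousAt_ker (hρ : Measurable ρ) (hρ0 : ∀ p, 0 ≤ ρ p) (hc : AEStronglyMeasurable c V)
    (hfin : V {p | ρ p < Real.exp (2 * L)} < ⊤) {C : ℝ}
    (hcC : ∀ᵐ p ∂V, ρ p < Real.exp (2 * L) → |c p| ≤ C) {k : ℝ → ℝ} (hk : Continuous k)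
    {K : ℝ} (hK : ∀ t, 0 ≤ t → |k t| ≤ K) (hk0 : ∀ t, 1 ≤ t → k t = 0)
    {l : ℝ} (hl : l < L) :
    ContinuousAt (fun l => ∫ p, c p * k (Real.exp (-2 * l) * ρ p) ∂V) l := by
  have hS : MeasurableSet {p | ρ p < Real.exp (2 * L)} := measurableSet_lt hρ measurable_const
  have : IsFiniteMeasure (V.restrict {p | ρ p < Real.exp (2 * L)}) := ⟨by
    rw [Measure.restrict_apply_univ]; exact hfin⟩
  have hcC' : ∀ᵐ p ∂(V.restrict {p | ρ p < Real.exp (2 * L)}), |c p| ≤ C := by
    filter_upwards [ae_restrict_of_ae hcC, ae_restrict_mem hS] with p hp hp2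
    exact hp hp2
  have h := (continuous_ker_fin hρ.aemeasurable hρ0 hc.restrict hcC' hk hK).continuousAt (x := l)
  refine h.congr ?_
  filter_upwards [Iio_mem_nhds hl] with l' hl'
  exact (integral_ker_restrict hρ hk0 (le_of_lt hl')).symm

end Crest.Agent.R234.Cy_870
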