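import Crest.Agent.R234.Cy1_870
import Crest.Agent.R234.Ar5_870
import Crest.Agent.R234.Vf3_884

/-!
# Row 234, VF-CYL, part 2 (helper870)

Blocks of a plane with respect to a splitting `Euc k = Euc m × Euc n`, traces of the derivatives of
horizontal fields `ξ(π p)`, vertical fields `χ(π p) ψ(κ p)` and mixed fields `F(κ p) ξ(π p)`.
-/

set_option autoImplicit false

open MeasureTheory Set Function Filter Topology
open Crest.GeometryTopology.Submanifold
open Crest.Agent.R234.Vf_884 Crest.Agent.R234.Ar_870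
open scoped ENNReal NNReal InnerProductSpace

noncomputable section

namespace Crest.Agent.R234.Cy_870

variable {m n k : ℕ}

/-- orthogonal splitting in horizontal and vertical coordinates -/
structure Split (π : Euc k →L[ℝ] Euc m) (κ : Euc k →L[ℝ] Euc n) : Prop where
  hh : π ∘L ContinuousLinearMap.adjoint π = ContinuousLinearMap.id ℝ (Euc m)
  vv : κ ∘L ContinuousLinearMap.adjoint κ = ContinuousLinearMap.id ℝ (Euc n)
  sum : ContinuousLinearMap.adjoint π ∘L π + ContinuousLinearMap.adjoint κ ∘L κ =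
    ContinuousLinearMap.id ℝ (Euc k)

/-- horizontal block -/
def Shh (π : Euc k →L[ℝ] Euc m) (P : L k) : L m := π ∘L P ∘L ContinuousLinearMap.adjoint π

/-- mixed block -/
def Svh (π : Euc k →L[ℝ] Euc m) (κ : Euc k →L[ℝ] Euc n) (P : L k) : Euc m →L[ℝ] Euc n :=
  κ ∘L P ∘L ContinuousLinearMap.adjoint π

/-- the quadratic form `⟨(1 - S_hh) v, v⟩` -/
def qf (π : Euc k →L[ℝ] Euc m) (P : L k) (v : Euc m) : ℝ := ‖v‖ ^ 2 - ⟪v, Shh π P v⟫_ℝ

variable {π : Euc k →L[ℝ] Euc m} {κ : Euc k →L[ℝ] Euc n} {P : L k}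

theorem Split.norm_sq (h : Split π κ) (u : Euc k) : ‖u‖ ^ 2 = ‖π u‖ ^ 2 + ‖κ u‖ ^ 2 := by
  have h1 : ContinuousLinearMap.adjoint π (π u) + ContinuousLinearMap.adjoint κ (κ u) = u :=
    congrArg (fun T : L k => T u) h.sum
  rw [← real_inner_self_eq_norm_sq u]
  nth_rewrite 2 [← h1]
  rw [inner_add_right, ContinuousLinearMap.adjoint_inner_right,
    ContinuousLinearMap.adjoint_inner_right, real_inner_self_eq_norm_sq,
    real_inner_self_eq_norm_sq]

theorem Shh_symm (hP : IsPr P) (u v : Euc m) : ⟪Shh π P u, v⟫_ℝ = ⟪u, Shh π P v⟫_ℝ := by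
  unfold Shh
  change ⟪π (P (ContinuousLinearMap.adjoint π u)), v⟫_ℝ =
    ⟪u, π (P (ContinuousLinearMap.adjoint π v))⟫_ℝ
  rw [← ContinuousLinearMap.adjoint_inner_right, ← ContinuousLinearMap.adjoint_inner_left π]
  nth_rewrite 1 [← hP.2]
  rw [ContinuousLinearMap.adjoint_inner_left]

theorem inner_Shh (hP : IsPr P) (v : Euc m) :
    ⟪v, Shh π P v⟫_ℝ = ‖P (ContinuousLinearMap.adjoint π v)‖ ^ 2 := inner_M π hP v

theorem qf_nonneg (hπ : IsCo π) (hP : IsPr P) (v : Euc m) : 0 ≤ qf π P v := by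
  unfold qf
  rw [inner_Shh hP]
  have h1 := norm_pr_le hP (ContinuousLinearMap.adjoint π v)
  rw [norm_adjoint_co hπ] at h1
  have h2 : ‖P (ContinuousLinearMap.adjoint π v)‖ ^ 2 ≤ ‖v‖ ^ 2 :=
    pow_le_pow_left₀ (norm_nonneg _) h1 2
  linarith

theorem qf_le (hP : IsPr P) (v : Euc m) : qf π P v ≤ ‖v‖ ^ 2 := by
  unfold qf
  rw [inner_Shh hP]
  have : 0 ≤ ‖P (ContinuousLinearMap.adjoint π v)‖ ^ 2 := by positivity
  linarith

/-- **`|S_vh v|² ≤ ⟨(1 - S_hh) v, v⟩`** -/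
theorem norm_Svh_sq_le (h : Split π κ) (hP : IsPr P) (v : Euc m) :
    ‖Svh π κ P v‖ ^ 2 ≤ qf π P v := by
  have h1 := h.norm_sq (P (ContinuousLinearMap.adjoint π v))
  have h2 := inner_Shh (π := π) hP v
  have h3 : ‖v - Shh π P v‖ ^ 2 = ‖v‖ ^ 2 - 2 * ⟪v, Shh π P v⟫_ℝ + ‖Shh π P v‖ ^ 2 :=
    norm_sub_sq_real _ _
  have h4 : 0 ≤ ‖v - Shh π P v‖ ^ 2 := by positivity
  have h5 : ‖Svh π κ P v‖ ^ 2 = ‖P (ContinuousLinearMap.adjoint π v)‖ ^ 2 - ‖Shh π P v‖ ^ 2 := by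
    have : ‖Svh π κ P v‖ ^ 2 = ‖κ (P (ContinuousLinearMap.adjoint π v))‖ ^ 2 := rfl
    have h6 : ‖Shh π P v‖ ^ 2 = ‖π (P (ContinuousLinearMap.adjoint π v))‖ ^ 2 := rfl
    rw [this, h6]
    linarith
  unfold qf
  rw [h5, ← h2]
  linarith

/-- cyclicity of the trace between different spaces -/
theorem tr_cyc (A : Euc m →L[ℝ] Euc k) (B : Euc k →L[ℝ] Euc m) : tr (A ∘L B) = tr (B ∘L A) := by
  rw [tr_apply, tr_apply]
  exact (LinearMap.trace_comp_comm' (A : Euc m →ₗ[ℝ] Euc k) (B : Euc k →ₗ[ℝ] Euc m)).symm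

theorem tr_hh (B : L m) (P : L k) :
    tr ((ContinuousLinearMap.adjoint π ∘L B ∘L π) ∘L P) = tr (B ∘L Shh π P) := by
  have h1 : (ContinuousLinearMap.adjoint π ∘L B ∘L π) ∘L P =
      ContinuousLinearMap.adjoint π ∘L (B ∘L π ∘L P) := rfl
  rw [h1, tr_cyc]
  rfl

theorem tl_eq (π : Euc k →L[ℝ] Euc m) (P : L k) : tl π P = m - tr (Shh π P) := rfl

theorem tr_Svv (h : Split π κ) (hP : P ∈ G m k) : tr (Shh κ P) = tl π P := by
  have h1 : tr (ContinuousLinearMap.id ℝ (Euc k) ∘L P) = m := by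
    rw [ContinuousLinearMap.id_comp]; exact hP.2.2
  rw [← h.sum, ContinuousLinearMap.add_comp, map_add] at h1
  have h2 := tr_hh (π := π) (ContinuousLinearMap.id ℝ (Euc m)) P
  have h3 := tr_hh (π := κ) (ContinuousLinearMap.id ℝ (Euc n)) P
  rw [ContinuousLinearMap.id_comp, ContinuousLinearMap.id_comp] at h2 h3
  rw [h2, h3] at h1
  rw [tl_eq]
  linarith

/-- `⟨(1 - S_hh) v, v⟩ ≤ |v|² tl` -/
theorem qf_le_tl (h : Split π κ) (hP : P ∈ G m k) (v : Euc m) :
    qf π P v ≤ ‖v‖ ^ 2 * tl π P := by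
  have hPr := isPr_of_G hP
  obtain hv | hv := eq_or_ne v 0
  · simp [qf, hv]
  -- orthonormal basis starting with v
  have hn : 0 < ‖v‖ := norm_pos_iff.2 hv
  set e : Euc m := ‖v‖⁻¹ • v with he
  have hen : ‖e‖ = 1 := by
    rw [he, norm_smul, norm_inv, norm_norm, inv_mul_cancel₀ hn.ne']
  obtain ⟨u, b, hub, hb⟩ := Orthonormal.exists_orthonormalBasis_extension (𝕜 := ℝ) (v := {e}) (by
    rw [orthonormal_subtype_iff_ite]
    intro a ha b hb
    rw [Set.mem_singleton_iff] at ha hb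
    subst ha; subst hb
    simp [hen]) (E := Euc m)
  have htr : tl π P = ∑ i, qf π P (b i) := by
    rw [tl_eq, tr_apply, LinearMap.trace_eq_sum_inner _ b]
    unfold qf
    rw [Finset.sum_sub_distrib]
    congr 1
    have h1 : ∀ i, ‖b i‖ ^ 2 = 1 := fun i => by rw [b.norm_eq_one]; norm_num
    simp only [h1]
    rw [Finset.sum_const, Finset.card_univ, ← Module.finrank_eq_card_basis b.toBasis]
    simp
  have hmem : e ∈ u := hub (Set.mem_singleton e)
  have h2 : qf π P e ≤ tl π P := by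
    rw [htr]
    have h3 : b ⟨e, hmem⟩ = e := by rw [hb]
    have h4 := Finset.single_le_sum (f := fun i => qf π P (b i))
      (fun i _ => qf_nonneg h.hh hPr (b i)) (Finset.mem_univ (⟨e, hmem⟩ : u))
    simp only [h3] at h4
    exact h4
  have h5 : qf π P v = ‖v‖ ^ 2 * qf π P e := by
    have hve : v = ‖v‖ • e := by
      rw [he, smul_smul, mul_inv_cancel₀ hn.ne', one_smul]
    unfold qf
    rw [hen]
    conv_lhs => rw [hve]
    rw [map_smul, inner_smul_left, inner_smul_right, norm_smul, hen]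
    simp
    ring
  rw [h5]
  exact mul_le_mul_of_nonneg_left h2 (by positivity)

/-- first variation functional -/
def FV (V : Measure (Euc k × L k)) (X : Euc k → Euc k) : ℝ :=
  ∫ p, tr ((fderiv ℝ X p.1) ∘L p.2) ∂V

/-- trace of a mixed field `F(κ p) ξ(π p)` (any maps `π`, `κ`) -/
theorem tr_field (π : Euc k →L[ℝ] Euc m) (κ : Euc k →L[ℝ] Euc n) {F : Euc n → ℝ}
    {ξ : Euc m → Euc m} (p : Euc k) (P : L k)
    (hF : DifferentiableAt ℝ F (κ p)) (hξ : DifferentiableAt ℝ ξ (π p)) :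
    tr ((fderiv ℝ (fun p => F (κ p) • ContinuousLinearMap.adjoint π (ξ (π p))) p) ∘L P) =
      F (κ p) * tr (fderiv ℝ ξ (π p) ∘L Shh π P) +
        fderiv ℝ F (κ p) (κ (P (ContinuousLinearMap.adjoint π (ξ (π p))))) := by
  have h1 : HasFDerivAt (fun p => F (κ p)) (fderiv ℝ F (κ p) ∘L κ) p :=
    hF.hasFDerivAt.comp p κ.hasFDerivAt
  have h2 : HasFDerivAt (fun p => ContinuousLinearMap.adjoint π (ξ (π p)))
      (ContinuousLinearMap.adjoint π ∘L (fderiv ℝ ξ (π p) ∘L π)) p :=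
    (ContinuousLinearMap.adjoint π).hasFDerivAt.comp p (hξ.hasFDerivAt.comp p π.hasFDerivAt)
  have h3 : HasFDerivAt (fun p => F (κ p) • ContinuousLinearMap.adjoint π (ξ (π p)))
      (F (κ p) • ContinuousLinearMap.adjoint π ∘L fderiv ℝ ξ (π p) ∘L π +
      (fderiv ℝ F (κ p) ∘L κ).smulRight (ContinuousLinearMap.adjoint π (ξ (π p)))) p := h1.smul h2
  rw [h3.fderiv, ContinuousLinearMap.add_comp, map_add]
  congr 1
  · have h4 : (F (κ p) • (ContinuousLinearMap.adjoint π ∘L (fderiv ℝ ξ (π p) ∘L π))) ∘L P =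
        F (κ p) • ((ContinuousLinearMap.adjoint π ∘L fderiv ℝ ξ (π p) ∘L π) ∘L P) := by
      ext v; simp
    rw [h4, map_smul, tr_hh, smul_eq_mul]
  · rw [tr_smulRight_comp]
    rfl

theorem continuous_Shh (π : Euc k →L[ℝ] Euc m) : Continuous (Shh π : L k → L m) :=
  continuous_const.clm_comp (continuous_id.clm_comp continuous_const)

end Crest.Agent.R234.Cy_870
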