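import Crest.Agent.R234.Cy2_870

/-!
# Row 234, VF-CYL, part 3 (helper870)

The exact weighted frame (W1)-(W3) of helper504 (#5326), with the first variation functional kept as a
term: nothing here uses stationarity. `l = log s`, weight `g (e^{-2l} |π p - x|²)`.
-/

set_option autoImplicit false

open MeasureTheory Set Function Filter Topology
open Crest.GeometryTopology.Submanifold
open Crest.Agent.R234.Vf_884 Crest.Agent.R234.Ar_870
open scoped ENNReal NNReal InnerProductSpace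

noncomputable section

namespace Crest.Agent.R234.Cy_870

variable {m n k : ℕ}

/-- the measure `V` near the ball of radius `e^L` about `x` -/
structure Fr (V : Measure (Euc k × L k)) (π : Euc k →L[ℝ] Euc m) (κ : Euc k →L[ℝ] Euc n)
    (x : Euc m) (L₀ : ℝ) : Prop where
  sp : Split π κ
  conc : ∀ᵐ p ∂V, p.2 ∈ G m k
  fin : V {p | ‖π p.1 - x‖ ^ 2 < Real.exp (2 * L₀)} < ⊤

/-- profiles `g` with `g' = g1`, `g'' = g2`, `g = 0` on `[1, ∞)`, nonincreasing -/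
structure Prof (g g1 g2 : ℝ → ℝ) : Prop where
  k0 : Ker g g1
  k1 : Ker g1 g2
  anti : ∀ t, 0 ≤ t → g1 t ≤ 0

/-- the scaled squared distance -/
def sd (π : Euc k →L[ℝ] Euc m) (x : Euc m) (l : ℝ) (p : Euc k) : ℝ :=
  Real.exp (-2 * l) * ‖π p - x‖ ^ 2

/-- mass excess `s^{2-m} (∫ χ dμ - Q ∫ χ dx)` -/
def EE (V : Measure (Euc k × L k)) (π : Euc k →L[ℝ] Euc m) (x : Euc m) (g : ℝ → ℝ) (Q l : ℝ) : ℝ :=
  Real.exp ((2 - m) * l) *
    (∫ p, 1 * g (Real.exp (-2 * l) * ‖π p.1 - x‖ ^ 2) ∂V -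
      Q * ∫ v : Euc m, 1 * g (Real.exp (-2 * l) * ‖v - x‖ ^ 2))

/-- tilt energy `s^{2-m} ∫ χ tl dV` -/
def ee (V : Measure (Euc k × L k)) (π : Euc k →L[ℝ] Euc m) (x : Euc m) (g : ℝ → ℝ) (l : ℝ) : ℝ :=
  Real.exp ((2 - m) * l) *
    ∫ p, tl π p.2 * g (Real.exp (-2 * l) * ‖π p.1 - x‖ ^ 2) ∂V

/-- anomaly `E - e / 2` -/
def bb (V : Measure (Euc k × L k)) (π : Euc k →L[ℝ] Euc m) (x : Euc m) (g : ℝ → ℝ) (Q l : ℝ) : ℝ :=
  EE V π x g Q l - ee V π x g l / 2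

/-- radial energy `s^{2-m} ∫ (w/r) ⟨(1 - S_hh)(x' - x), x' - x⟩ dV` -/
def RR (V : Measure (Euc k × L k)) (π : Euc k →L[ℝ] Euc m) (x : Euc m) (g1 : ℝ → ℝ) (l : ℝ) : ℝ :=
  Real.exp (-m * l) *
    ∫ p, qf π p.2 (π p.1 - x) * (-2 * g1 (Real.exp (-2 * l) * ‖π p.1 - x‖ ^ 2)) ∂V

/-- well height `s^{2-m} ∫ 2 F (w/r) dV` -/
def IF (V : Measure (Euc k × L k)) (π : Euc k →L[ℝ] Euc m) (κ : Euc k →L[ℝ] Euc n) (x : Euc m)
    (F : Euc n → ℝ) (g1 : ℝ → ℝ) (l : ℝ) : ℝ :=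
  Real.exp (-m * l) *
    ∫ p, F (κ p.1) * (-4 * g1 (Real.exp (-2 * l) * ‖π p.1 - x‖ ^ 2)) ∂V

/-- well energy `s^{2-m} ∫ χ D²F : S_vv dV`, `H = D²F` -/
def eF (V : Measure (Euc k × L k)) (π : Euc k →L[ℝ] Euc m) (κ : Euc k →L[ℝ] Euc n) (x : Euc m)
    (H : Euc n → L n) (g : ℝ → ℝ) (l : ℝ) : ℝ :=
  Real.exp ((2 - m) * l) *
    ∫ p, tr (H (κ p.1) ∘L Shh κ p.2) * g (Real.exp (-2 * l) * ‖π p.1 - x‖ ^ 2) ∂V

/-- the field `χ (x' - x)` -/
def X1 (π : Euc k →L[ℝ] Euc m) (x : Euc m) (g : ℝ → ℝ) (l : ℝ) (p : Euc k) : Euc k :=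
  (1 : ℝ) • ContinuousLinearMap.adjoint π
    (g (Real.exp (-2 * l) * ‖π p - x‖ ^ 2) • (π p - x))

variable {π : Euc k →L[ℝ] Euc m} {κ : Euc k →L[ℝ] Euc n} {x : Euc m} {L₀ : ℝ}
  {V : Measure (Euc k × L k)} {g g1 g2 : ℝ → ℝ}

theorem measurable_rho (π : Euc k →L[ℝ] Euc m) (x : Euc m) :
    Measurable fun p : Euc k × L k => ‖π p.1 - x‖ ^ 2 :=
  (((π.continuous.comp continuous_fst).sub continuous_const).norm.pow 2).measurable

theorem aestronglyMeasurable_tl (π : Euc k →L[ℝ] Euc m) (V : Measure (Euc k × L k)) :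
    AEStronglyMeasurable (fun p : Euc k × L k => tl π p.2) V :=
  ((measurable_tl π).comp continuous_snd).aestronglyMeasurable

theorem continuous_qf (π : Euc k →L[ℝ] Euc m) (x : Euc m) :
    Continuous fun p : Euc k × L k => qf π p.2 (π p.1 - x) := by
  unfold qf
  have h1 : Continuous fun p : Euc k × L k => π p.1 - x :=
    (π.continuous.comp continuous_fst).sub continuous_const
  exact (h1.norm.pow 2).sub (h1.inner
    (((continuous_Shh π).comp continuous_snd).clm_apply h1))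

namespace Fr

theorem tl_bound (h : Fr V π κ x L₀) :
    ∀ᵐ p ∂V, ‖π p.1 - x‖ ^ 2 < Real.exp (2 * L₀) → |tl π p.2| ≤ m := by
  filter_upwards [h.conc] with p hp _
  rw [abs_of_nonneg (tl_nonneg h.sp.hh (isPr_of_G hp))]
  exact tl_le h.sp.hh (isPr_of_G hp)

theorem qf_bound (h : Fr V π κ x L₀) :
    ∀ᵐ p ∂V, ‖π p.1 - x‖ ^ 2 < Real.exp (2 * L₀) →
      |qf π p.2 (π p.1 - x)| ≤ Real.exp (2 * L₀) := by
  filter_upwards [h.conc] with p hp hlt
  rw [abs_of_nonneg (qf_nonneg h.sp.hh (isPr_of_G hp) _)]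
  exact (qf_le (isPr_of_G hp) _).trans hlt.le

theorem integrable_c (h : Fr V π κ x L₀) {c : Euc k × L k → ℝ} (hc : AEStronglyMeasurable c V)
    {C : ℝ} (hcC : ∀ᵐ p ∂V, ‖π p.1 - x‖ ^ 2 < Real.exp (2 * L₀) → |c p| ≤ C) {f f' : ℝ → ℝ}
    (hf : Ker f f') {l : ℝ} (hl : l ≤ L₀) :
    Integrable (fun p => c p * f (Real.exp (-2 * l) * ‖π p.1 - x‖ ^ 2)) V := by
  obtain ⟨K, -, hK, -, -⟩ := hf.exists_bound
  exact integrable_ker (measurable_rho π x) (fun p => by positivity) hc h.fin hcC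
    hf.continuous hK hf.zero hl

theorem deriv_c (h : Fr V π κ x L₀) {c : Euc k × L k → ℝ} (hc : AEStronglyMeasurable c V)
    {C : ℝ} (hcC : ∀ᵐ p ∂V, ‖π p.1 - x‖ ^ 2 < Real.exp (2 * L₀) → |c p| ≤ C) {f f' : ℝ → ℝ}
    (hf : Ker f f') {l : ℝ} (hl : l < L₀) :
    HasDerivAt (fun l => ∫ p, c p * f (Real.exp (-2 * l) * ‖π p.1 - x‖ ^ 2) ∂V)
      (∫ p, c p * (-2 * (Real.exp (-2 * l) * ‖π p.1 - x‖ ^ 2 *
        f' (Real.exp (-2 * l) * ‖π p.1 - x‖ ^ 2))) ∂V) l :=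
  hasDerivAt_ker (measurable_rho π x) (fun p => by positivity) hc h.fin hcC hf hl

end Fr

theorem ae_one_bound {Ω : Type*} [MeasurableSpace Ω] {V : Measure Ω} {S : Ω → Prop} :
    ∀ᵐ p ∂V, S p → |(1:ℝ)| ≤ 1 := Eventually.of_forall fun _ _ => by simp

/-- kernels `t f'(t)` -/
theorem integrable_tk (h : Fr V π κ x L₀) {c : Euc k × L k → ℝ} (hc : AEStronglyMeasurable c V)
    {C : ℝ} (hcC : ∀ᵐ p ∂V, ‖π p.1 - x‖ ^ 2 < Real.exp (2 * L₀) → |c p| ≤ C) {f f' : ℝ → ℝ}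
    (hf : Ker f f') {l : ℝ} (hl : l ≤ L₀) :
    Integrable (fun p => c p * (Real.exp (-2 * l) * ‖π p.1 - x‖ ^ 2 *
      f' (Real.exp (-2 * l) * ‖π p.1 - x‖ ^ 2))) V := by
  obtain ⟨K, -, -, -, hK⟩ := hf.exists_bound
  exact integrable_ker (k := fun t => t * f' t) (measurable_rho π x) (fun p => by positivity) hc
    h.fin hcC (continuous_id.mul hf.cont) hK (fun t ht => by rw [hf.zero' t ht, mul_zero]) hl

theorem integrable_k' (h : Fr V π κ x L₀) {c : Euc k × L k → ℝ} (hc : AEStronglyMeasurable c V)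
    {C : ℝ} (hcC : ∀ᵐ p ∂V, ‖π p.1 - x‖ ^ 2 < Real.exp (2 * L₀) → |c p| ≤ C) {f f' : ℝ → ℝ}
    (hf : Ker f f') {l : ℝ} (hl : l ≤ L₀) :
    Integrable (fun p => c p * f' (Real.exp (-2 * l) * ‖π p.1 - x‖ ^ 2)) V := by
  obtain ⟨K, -, -, hK, -⟩ := hf.exists_bound
  exact integrable_ker (measurable_rho π x) (fun p => by positivity) hc
    h.fin hcC hf.cont hK hf.zero' hl

/-! ### Lebesgue measure -/

theorem leb_scale (f : ℝ → ℝ) (x : Euc m) (l : ℝ) :
    ∫ v : Euc m, f (Real.exp (-2 * l) * ‖v - x‖ ^ 2) =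
      Real.exp (m * l) * ∫ v : Euc m, f (‖v‖ ^ 2) := by
  rw [integral_sub_right_eq_self (μ := (volume : Measure (Euc m)))
    (fun v : Euc m => f (Real.exp (-2 * l) * ‖v‖ ^ 2)) x]
  have h1 : ∀ v : Euc m, f (Real.exp (-2 * l) * ‖v‖ ^ 2) =
      (fun w : Euc m => f (‖w‖ ^ 2)) (Real.exp (-l) • v) := by
    intro v
    simp only
    rw [norm_smul, Real.norm_eq_abs, abs_of_pos (Real.exp_pos _), mul_pow, ← Real.exp_nat_mul]
    congr 3
    push_cast
    ring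
  have h2 := Measure.integral_comp_smul (volume : Measure (Euc m)) (fun w : Euc m => f (‖w‖ ^ 2))
    (Real.exp (-l))
  rw [integral_congr_ae (Eventually.of_forall h1), h2]
  rw [finrank_euclideanSpace, Fintype.card_fin, smul_eq_mul]
  congr 1
  rw [← Real.exp_nat_mul, ← Real.exp_neg, abs_of_pos (Real.exp_pos _)]
  congr 1
  ring

theorem hasDerivAt_leb (f : ℝ → ℝ) (x : Euc m) (l : ℝ) :
    HasDerivAt (fun l => ∫ v : Euc m, f (Real.exp (-2 * l) * ‖v - x‖ ^ 2))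
      (m * ∫ v : Euc m, f (Real.exp (-2 * l) * ‖v - x‖ ^ 2)) l := by
  simp_rw [leb_scale f x]
  have h1 : HasDerivAt (fun l : ℝ => Real.exp (m * l)) (Real.exp (m * l) * m) l := by
    have h2 : HasDerivAt (fun l : ℝ => (m:ℝ) * l) m l := by
      simpa using (hasDerivAt_id l).const_mul (m:ℝ)
    exact h2.exp
  have h3 := h1.mul_const (∫ v : Euc m, f (‖v‖ ^ 2))
  have h4 : (m:ℝ) * (Real.exp (m * l) * ∫ v : Euc m, f (‖v‖ ^ 2)) =
      Real.exp (m * l) * m * ∫ v : Euc m, f (‖v‖ ^ 2) := by ring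
  rw [h4]
  exact h3

/-! ### the derivative of radial fields -/

theorem hasDerivAt_scaled {f f' : ℝ → ℝ} (hf : ∀ t, HasDerivAt f (f' t) t) (l t : ℝ) :
    HasDerivAt (fun t => f (Real.exp (-2 * l) * t))
      (Real.exp (-2 * l) * f' (Real.exp (-2 * l) * t)) t := by
  have h1 : HasDerivAt (fun t : ℝ => Real.exp (-2 * l) * t) (Real.exp (-2 * l)) t := by
    simpa using (hasDerivAt_id t).const_mul (Real.exp (-2 * l))
  have h2 := (hf (Real.exp (-2 * l) * t)).comp t h1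
  have h3 : Real.exp (-2 * l) * f' (Real.exp (-2 * l) * t) =
      f' (Real.exp (-2 * l) * t) * Real.exp (-2 * l) := by ring
  rw [h3]
  exact h2

theorem contDiff_scaled {f f' : ℝ → ℝ} (hf : ∀ t, HasDerivAt f (f' t) t) (hc : Continuous f')
    (l : ℝ) : ContDiff ℝ 1 fun t => f (Real.exp (-2 * l) * t) := by
  rw [contDiff_one_iff_deriv]
  refine ⟨fun t => (hasDerivAt_scaled hf l t).differentiableAt, ?_⟩
  have h1 : deriv (fun t => f (Real.exp (-2 * l) * t)) =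
      fun t => Real.exp (-2 * l) * f' (Real.exp (-2 * l) * t) :=
    funext fun t => (hasDerivAt_scaled hf l t).deriv
  rw [h1]
  exact continuous_const.mul (hc.comp (continuous_const.mul continuous_id))

theorem contDiff_rad {f f' : ℝ → ℝ} (hf : ∀ t, HasDerivAt f (f' t) t) (hc : Continuous f')
    (l : ℝ) (x : Euc m) :
    ContDiff ℝ 1 fun v : Euc m => f (Real.exp (-2 * l) * ‖v - x‖ ^ 2) • (v - x) :=
  contDiff_radial (contDiff_scaled hf hc l) x

theorem tr_rad {f f' : ℝ → ℝ} (hf : ∀ t, HasDerivAt f (f' t) t) (hc : Continuous f')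
    (l : ℝ) (x v : Euc m) (S : L m) :
    tr (fderiv ℝ (fun v : Euc m => f (Real.exp (-2 * l) * ‖v - x‖ ^ 2) • (v - x)) v ∘L S) =
      f (Real.exp (-2 * l) * ‖v - x‖ ^ 2) * tr S +
        2 * Real.exp (-2 * l) * f' (Real.exp (-2 * l) * ‖v - x‖ ^ 2) * ⟪v - x, S (v - x)⟫_ℝ := by
  have h := hasFDerivAt_radial (contDiff_scaled hf hc l) x v
  rw [h.fderiv, ContinuousLinearMap.add_comp, map_add, tr_smulRight_comp,
    (hasDerivAt_scaled hf l _).deriv]
  have h1 : (f (Real.exp (-2 * l) * ‖v - x‖ ^ 2) • ContinuousLinearMap.id ℝ (Euc m)) ∘L S =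
      f (Real.exp (-2 * l) * ‖v - x‖ ^ 2) • S := by
    ext u; simp
  rw [h1, map_smul, smul_eq_mul, smul_apply, innerSL_apply_apply, smul_eq_mul]
  ring

theorem int4 {Ω : Type*} [MeasurableSpace Ω] {V : Measure Ω} {A B C D : Ω → ℝ}
    (hA : Integrable A V) (hB : Integrable B V) (hC : Integrable C V) (hD : Integrable D V)
    (a b c d : ℝ) :
    ∫ p, (a * A p + b * B p + c * C p + d * D p) ∂V =
      a * ∫ p, A p ∂V + b * ∫ p, B p ∂V + c * ∫ p, C p ∂V + d * ∫ p, D p ∂V := by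
  have h1 : Integrable (fun p => a * A p + b * B p) V := (hA.const_mul a).add (hB.const_mul b)
  have h2 : Integrable (fun p => a * A p + b * B p + c * C p) V := h1.add (hC.const_mul c)
  rw [integral_add h2 (hD.const_mul d), integral_add h1 (hC.const_mul c),
    integral_add (hA.const_mul a) (hB.const_mul b), integral_const_mul, integral_const_mul,
    integral_const_mul, integral_const_mul]

/-! ### (W1) -/

theorem FV_X1 (h : Fr V π κ x L₀) (hg : Ker g g1) {l : ℝ} (hl : l ≤ L₀) :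
    FV V (X1 π x g l) =
      m * (∫ p, 1 * g (Real.exp (-2 * l) * ‖π p.1 - x‖ ^ 2) ∂V)
        - (∫ p, tl π p.2 * g (Real.exp (-2 * l) * ‖π p.1 - x‖ ^ 2) ∂V)
        + 2 * (∫ p, 1 * (Real.exp (-2 * l) * ‖π p.1 - x‖ ^ 2 *
            g1 (Real.exp (-2 * l) * ‖π p.1 - x‖ ^ 2)) ∂V)
        + Real.exp (-2 * l) * (∫ p, qf π p.2 (π p.1 - x) *
            (-2 * g1 (Real.exp (-2 * l) * ‖π p.1 - x‖ ^ 2)) ∂V) := by
  have hc1 : AEStronglyMeasurable (fun _ : Euc k × L k => (1:ℝ)) V :=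
    aestronglyMeasurable_const
  have i0 := h.integrable_c (C := 1) hc1 ae_one_bound hg hl
  have i1 := h.integrable_c (aestronglyMeasurable_tl π V) h.tl_bound hg hl
  have i2 := integrable_tk h (C := 1) hc1 ae_one_bound hg hl
  have i3' := integrable_k' h (continuous_qf π x).aestronglyMeasurable h.qf_bound hg hl
  have i3 : Integrable (fun p : Euc k × L k => qf π p.2 (π p.1 - x) *
      (-2 * g1 (Real.exp (-2 * l) * ‖π p.1 - x‖ ^ 2))) V := by
    refine (i3'.const_mul (-2)).congr (Eventually.of_forall fun p => ?_)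
    simp only
    ring
  have h0 := int4 i0 i1 i2 i3 (m:ℝ) (-1) 2 (Real.exp (-2 * l))
  rw [neg_one_mul, ← sub_eq_add_neg] at h0
  rw [← h0]
  unfold FV
  refine integral_congr_ae ?_
  filter_upwards [h.conc] with p hp
  have h1 := tr_field (n := n) π κ (F := fun _ => (1:ℝ))
    (ξ := fun v : Euc m => g (Real.exp (-2 * l) * ‖v - x‖ ^ 2) • (v - x)) p.1 p.2
    (differentiableAt_const _)
    ((contDiff_rad hg.der hg.cont l x).differentiable one_ne_zero _)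
  have h2 : tr (fderiv ℝ (X1 π x g l) p.1 ∘L p.2) = _ := h1
  rw [h2, tr_rad hg.der hg.cont]
  simp only [fderiv_fun_const, Pi.zero_apply, ContinuousLinearMap.zero_apply, add_zero, one_mul]
  rw [tl_eq]
  unfold qf
  ring

/-- **(W1)**: `dE/dl = 2 b + R - s^{2-m} δV(χ (x' - x))` -/
theorem hasDerivAt_EE (h : Fr V π κ x L₀) (hg : Prof g g1 g2) (Q : ℝ) {l : ℝ} (hl : l < L₀) :
    HasDerivAt (EE V π x g Q)
      (2 * bb V π x g Q l + RR V π x g1 l - Real.exp ((2 - m) * l) * FV V (X1 π x g l)) l := by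
  have h1 := h.deriv_c (c := fun _ => 1) (C := 1) aestronglyMeasurable_const ae_one_bound hg.k0 hl
  have h2 : HasDerivAt (fun l => ∫ v : Euc m, 1 * g (Real.exp (-2 * l) * ‖v - x‖ ^ 2))
      (m * ∫ v : Euc m, 1 * g (Real.exp (-2 * l) * ‖v - x‖ ^ 2)) l := by
    simpa only [one_mul] using hasDerivAt_leb g x l
  have h3 : HasDerivAt (fun l : ℝ => Real.exp ((2 - m) * l))
      (Real.exp ((2 - m) * l) * (2 - m)) l := by
    have h4 : HasDerivAt (fun l : ℝ => (2 - m : ℝ) * l) (2 - m) l := by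
      simpa using (hasDerivAt_id l).const_mul (2 - m : ℝ)
    exact h4.exp
  have h5 := h3.mul (h1.sub (h2.const_mul Q))
  refine h5.congr_deriv ?_
  rw [FV_X1 h hg.k0 hl.le]
  unfold bb EE ee RR
  have h6 : Real.exp (-m * l) = Real.exp ((2 - m) * l) * Real.exp (-2 * l) := by
    rw [← Real.exp_add]; congr 1; ring
  rw [h6]
  have h7 : ∫ p, 1 * (-2 * (Real.exp (-2 * l) * ‖π p.1 - x‖ ^ 2 *
      g1 (Real.exp (-2 * l) * ‖π p.1 - x‖ ^ 2))) ∂V =
      -2 * ∫ p, 1 * (Real.exp (-2 * l) * ‖π p.1 - x‖ ^ 2 *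
      g1 (Real.exp (-2 * l) * ‖π p.1 - x‖ ^ 2)) ∂V := by
    rw [← integral_const_mul]
    refine integral_congr_ae (Eventually.of_forall fun p => ?_)
    simp only
    ring
  rw [h7]
  simp only [Pi.sub_apply]
  ring

end Crest.Agent.R234.Cy_870
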