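import Crest.Agent.R234.Cy3_870

/-!
# Row 234, VF-CYL, part 4 (helper870)

(W2), (W3) of helper504 (#5326) for a well function `F`, first variation functional kept as a term.
-/

set_option autoImplicit false

open MeasureTheory Set Function Filter Topology
open Crest.GeometryTopology.Submanifold
open Crest.Agent.R234.Vf_884 Crest.Agent.R234.Ar_870
open scoped ENNReal NNReal InnerProductSpace

noncomputable section

namespace Crest.Agent.R234.Cy_870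

variable {m n k : ℕ}

/-- well functions: `F ≥ 0`, gradient `dF`, Hessian `H`, `|dF|² ≤ 2 F` -/
structure Well (F : Euc n → ℝ) (dF : Euc n → Euc n) (H : Euc n → L n) : Prop where
  hasF : ∀ y, HasFDerivAt F (innerSL ℝ (dF y)) y
  hasdF : ∀ y, HasFDerivAt dF (H y) y
  contH : Continuous H
  nonneg : ∀ y, 0 ≤ F y
  grad : ∀ y, ‖dF y‖ ^ 2 ≤ 2 * F y

namespace Well

variable {F : Euc n → ℝ} {dF : Euc n → Euc n} {H : Euc n → L n}

theorem contF (h : Well F dF H) : Continuous F :=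
  continuous_iff_continuousAt.2 fun y => (h.hasF y).continuousAt

theorem contdF (h : Well F dF H) : Continuous dF :=
  continuous_iff_continuousAt.2 fun y => (h.hasdF y).continuousAt

end Well

/-- the well `|y|²/2` -/
theorem well_sq : Well (n := n) (fun y => ‖y‖ ^ 2 / 2) (fun y => y)
    (fun _ => ContinuousLinearMap.id ℝ (Euc n)) where
  hasF y := by
    have h1 : HasFDerivAt (fun y : Euc n => ‖y‖ ^ 2) (2 • innerSL ℝ y) y := by
      have := (hasFDerivAt_id (𝕜 := ℝ) y).norm_sq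
      simpa using this
    have h2 := h1.mul_const (2⁻¹ : ℝ)
    have h3 : (2⁻¹ : ℝ) • (2 • innerSL ℝ y) = innerSL ℝ y := by
      rw [← Nat.cast_smul_eq_nsmul ℝ, smul_smul]
      norm_num
    rw [h3] at h2
    exact h2
  hasdF y := hasFDerivAt_id y
  contH := continuous_const
  nonneg y := by positivity
  grad y := le_of_eq (by ring)

/-- heights bounded near the ball -/
def Hgt (V : Measure (Euc k × L k)) (π : Euc k →L[ℝ] Euc m) (κ : Euc k →L[ℝ] Euc n)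
    (x : Euc m) (L₀ h₀ : ℝ) : Prop :=
  ∀ᵐ p ∂V, ‖π p.1 - x‖ ^ 2 < Real.exp (2 * L₀) → ‖κ p.1‖ ≤ h₀

variable {π : Euc k →L[ℝ] Euc m} {κ : Euc k →L[ℝ] Euc n} {x : Euc m} {L₀ h₀ : ℝ}
  {V : Measure (Euc k × L k)} {g g1 g2 : ℝ → ℝ}
  {F : Euc n → ℝ} {dF : Euc n → Euc n} {H : Euc n → L n}

/-- continuous functions of `(κ p, P, π p)` are bounded near the ball -/
theorem exists_bd (h : Fr V π κ x L₀) (hh : Hgt V π κ x L₀ h₀)
    {c : Euc n × L k × Euc m → ℝ} (hc : Continuous c) :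
    ∃ C : ℝ, ∀ᵐ p ∂V, ‖π p.1 - x‖ ^ 2 < Real.exp (2 * L₀) →
      |c (κ p.1, p.2, π p.1)| ≤ C := by
  obtain ⟨C, hC⟩ := ((isCompact_closedBall (0 : Euc n) h₀).prod ((isCompact_G m k).prod
    (isCompact_closedBall x (Real.exp L₀)))).exists_bound_of_continuousOn hc.continuousOn
  refine ⟨C, ?_⟩
  filter_upwards [h.conc, hh] with p hp hp2 hlt
  refine hC (κ p.1, p.2, π p.1) ⟨?_, hp, ?_⟩
  · rw [mem_closedBall_zero_iff]; exact hp2 hlt
  · rw [Metric.mem_closedBall, dist_eq_norm]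
    have h1 : ‖π p.1 - x‖ ^ 2 ≤ Real.exp L₀ ^ 2 := by
      rw [← Real.exp_nat_mul]; exact_mod_cast hlt.le
    exact (sq_le_sq₀ (norm_nonneg _) (Real.exp_pos _).le).1 h1

/-- the coefficient `⟨dF, S_vh v⟩` -/
def cM (π : Euc k →L[ℝ] Euc m) (κ : Euc k →L[ℝ] Euc n) (x : Euc m) (dF : Euc n → Euc n)
    (p : Euc k × L k) : ℝ := ⟪dF (κ p.1), Svh π κ p.2 (π p.1 - x)⟫_ℝ

/-- the field `χ(x') dF(y)` -/
def X2 (π : Euc k →L[ℝ] Euc m) (κ : Euc k →L[ℝ] Euc n) (x : Euc m) (dF : Euc n → Euc n)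
    (g : ℝ → ℝ) (l : ℝ) (p : Euc k) : Euc k :=
  g (Real.exp (-2 * l) * ‖π p - x‖ ^ 2) • ContinuousLinearMap.adjoint κ (dF (κ p))

/-- the field `F(y) g'(..) (x' - x)`; `F ∇χ = 2 e^{-2l} X3` -/
def X3 (π : Euc k →L[ℝ] Euc m) (κ : Euc k →L[ℝ] Euc n) (x : Euc m) (F : Euc n → ℝ)
    (g1 : ℝ → ℝ) (l : ℝ) (p : Euc k) : Euc k :=
  F (κ p) • ContinuousLinearMap.adjoint π
    (g1 (Real.exp (-2 * l) * ‖π p - x‖ ^ 2) • (π p - x))

theorem continuous_Svh (π : Euc k →L[ℝ] Euc m) (κ : Euc k →L[ℝ] Euc n) :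
    Continuous (Svh π κ : L k → Euc m →L[ℝ] Euc n) :=
  continuous_const.clm_comp (continuous_id.clm_comp continuous_const)

theorem hasFDerivAt_rad {f f' : ℝ → ℝ} (hf : ∀ t, HasDerivAt f (f' t) t) (l : ℝ) (x v : Euc m) :
    HasFDerivAt (fun v : Euc m => f (Real.exp (-2 * l) * ‖v - x‖ ^ 2))
      (innerSL ℝ ((2 * Real.exp (-2 * l) * f' (Real.exp (-2 * l) * ‖v - x‖ ^ 2)) • (v - x))) v := by
  have h1 : HasFDerivAt (fun v : Euc m => v - x) (ContinuousLinearMap.id ℝ (Euc m)) v :=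
    (hasFDerivAt_id v).sub_const x
  have h2 : HasFDerivAt (fun v : Euc m => ‖v - x‖ ^ 2) (2 • innerSL ℝ (v - x)) v := by
    have := h1.norm_sq
    simpa using this
  have h3 := (hasDerivAt_scaled hf l (‖v - x‖ ^ 2)).comp_hasFDerivAt v h2
  have h4 : innerSL ℝ ((2 * Real.exp (-2 * l) * f' (Real.exp (-2 * l) * ‖v - x‖ ^ 2)) • (v - x))
      = (Real.exp (-2 * l) * f' (Real.exp (-2 * l) * ‖v - x‖ ^ 2)) • (2 • innerSL ℝ (v - x)) := by
    rw [map_smul, ← Nat.cast_smul_eq_nsmul ℝ, smul_smul]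
    congr 1
    push_cast
    ring
  rw [h4]
  exact h3

theorem inner_swap {P : L k} (hP : IsPr P) (u : Euc m) (w : Euc n) :
    ⟪u, π (P (ContinuousLinearMap.adjoint κ w))⟫_ℝ = ⟪w, Svh π κ P u⟫_ℝ := by
  unfold Svh
  change _ = ⟪w, κ (P (ContinuousLinearMap.adjoint π u))⟫_ℝ
  rw [← ContinuousLinearMap.adjoint_inner_left, ← ContinuousLinearMap.adjoint_inner_left κ,
    real_inner_comm]
  nth_rewrite 1 [← hP.2]
  rw [ContinuousLinearMap.adjoint_inner_left]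

theorem aesm_F (hF : Well F dF H) (κ : Euc k →L[ℝ] Euc n) (V : Measure (Euc k × L k)) :
    AEStronglyMeasurable (fun p : Euc k × L k => F (κ p.1)) V :=
  (hF.contF.comp (κ.continuous.comp continuous_fst)).aestronglyMeasurable

theorem continuous_cM (hF : Well F dF H) (π : Euc k →L[ℝ] Euc m) (κ : Euc k →L[ℝ] Euc n)
    (x : Euc m) : Continuous (cM π κ x dF) := by
  unfold cM
  refine (hF.contdF.comp (κ.continuous.comp continuous_fst)).inner ?_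
  exact ((continuous_Svh π κ).comp continuous_snd).clm_apply
    ((π.continuous.comp continuous_fst).sub continuous_const)

theorem cM_bd (h : Fr V π κ x L₀) (hh : Hgt V π κ x L₀ h₀) (hF : Well F dF H) :
    ∃ C : ℝ, ∀ᵐ p ∂V, ‖π p.1 - x‖ ^ 2 < Real.exp (2 * L₀) → |cM π κ x dF p| ≤ C :=
  exists_bd h hh (c := fun q => ⟪dF q.1, Svh π κ q.2.1 (q.2.2 - x)⟫_ℝ)
    ((hF.contdF.comp continuous_fst).inner
      (((continuous_Svh π κ).comp (continuous_fst.comp continuous_snd)).clm_apply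
        ((continuous_snd.comp continuous_snd).sub continuous_const)))

theorem F_bd (h : Fr V π κ x L₀) (hh : Hgt V π κ x L₀ h₀) (hF : Well F dF H) :
    ∃ C : ℝ, ∀ᵐ p ∂V, ‖π p.1 - x‖ ^ 2 < Real.exp (2 * L₀) → |F (κ p.1)| ≤ C :=
  exists_bd h hh (c := fun q => F q.1) (hF.contF.comp continuous_fst)

theorem trH_cont (hF : Well F dF H) (κ : Euc k →L[ℝ] Euc n) :
    Continuous fun p : Euc k × L k => tr (H (κ p.1) ∘L Shh κ p.2) :=
  tr.continuous.comp ((hF.contH.comp (κ.continuous.comp continuous_fst)).clm_comp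
    ((continuous_Shh κ).comp continuous_snd))

theorem trH_bd (h : Fr V π κ x L₀) (hh : Hgt V π κ x L₀ h₀) (hF : Well F dF H) :
    ∃ C : ℝ, ∀ᵐ p ∂V, ‖π p.1 - x‖ ^ 2 < Real.exp (2 * L₀) →
      |tr (H (κ p.1) ∘L Shh κ p.2)| ≤ C :=
  exists_bd h hh (c := fun q => tr (H q.1 ∘L Shh κ q.2.1))
    (tr.continuous.comp ((hF.contH.comp continuous_fst).clm_comp
      ((continuous_Shh κ).comp (continuous_fst.comp continuous_snd))))

/-- `∫ g' ⟨dF, S_vh v⟩ dV` -/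
def MM (V : Measure (Euc k × L k)) (π : Euc k →L[ℝ] Euc m) (κ : Euc k →L[ℝ] Euc n) (x : Euc m)
    (dF : Euc n → Euc n) (g1 : ℝ → ℝ) (l : ℝ) : ℝ :=
  ∫ p, cM π κ x dF p * g1 (Real.exp (-2 * l) * ‖π p.1 - x‖ ^ 2) ∂V

theorem FV_X2 (h : Fr V π κ x L₀) (hh : Hgt V π κ x L₀ h₀) (hF : Well F dF H) (hg : Ker g g1)
    {l : ℝ} (hl : l ≤ L₀) :
    FV V (X2 π κ x dF g l) =
      (∫ p, tr (H (κ p.1) ∘L Shh κ p.2) * g (Real.exp (-2 * l) * ‖π p.1 - x‖ ^ 2) ∂V)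
        + 2 * Real.exp (-2 * l) * MM V π κ x dF g1 l := by
  obtain ⟨C1, hC1⟩ := trH_bd h hh hF
  obtain ⟨C2, hC2⟩ := cM_bd h hh hF
  have i1 := h.integrable_c (trH_cont hF κ).aestronglyMeasurable hC1 hg hl
  have i2 := integrable_k' h (continuous_cM hF π κ x).aestronglyMeasurable hC2 hg hl
  unfold MM
  rw [← integral_const_mul, ← integral_add i1 (i2.const_mul _)]
  unfold FV
  refine integral_congr_ae ?_
  filter_upwards [h.conc] with p hp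
  have h1 := tr_field (m := n) (n := m) κ π
    (F := fun v : Euc m => g (Real.exp (-2 * l) * ‖v - x‖ ^ 2)) (ξ := dF) p.1 p.2
    (hasFDerivAt_rad hg.der l x (π p.1)).differentiableAt (hF.hasdF _).differentiableAt
  have h2 : tr (fderiv ℝ (X2 π κ x dF g l) p.1 ∘L p.2) = _ := h1
  rw [h2, (hasFDerivAt_rad hg.der l x (π p.1)).fderiv, (hF.hasdF _).fderiv, innerSL_apply_apply,
    inner_smul_left, inner_swap (isPr_of_G hp)]
  unfold cM
  simp only [RCLike.conj_to_real]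
  ring

theorem FV_X3 (h : Fr V π κ x L₀) (hh : Hgt V π κ x L₀ h₀) (hF : Well F dF H) (hg : Ker g1 g2)
    {l : ℝ} (hl : l ≤ L₀) :
    FV V (X3 π κ x F g1 l) =
      (m * (∫ p, F (κ p.1) * g1 (Real.exp (-2 * l) * ‖π p.1 - x‖ ^ 2) ∂V)
        + 2 * (∫ p, F (κ p.1) * (Real.exp (-2 * l) * ‖π p.1 - x‖ ^ 2 *
            g2 (Real.exp (-2 * l) * ‖π p.1 - x‖ ^ 2)) ∂V)
        - (∫ p, (F (κ p.1) * tl π p.2) * g1 (Real.exp (-2 * l) * ‖π p.1 - x‖ ^ 2) ∂V)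
        - 2 * Real.exp (-2 * l) * (∫ p, (F (κ p.1) * qf π p.2 (π p.1 - x)) *
            g2 (Real.exp (-2 * l) * ‖π p.1 - x‖ ^ 2) ∂V))
        + MM V π κ x dF g1 l := by
  obtain ⟨C1, hC1⟩ := F_bd h hh hF
  obtain ⟨C2, hC2⟩ := cM_bd h hh hF
  have hFt : AEStronglyMeasurable (fun p : Euc k × L k => F (κ p.1) * tl π p.2) V :=
    (aesm_F hF κ V).mul (aestronglyMeasurable_tl π V)
  have hFq : AEStronglyMeasurable (fun p : Euc k × L k => F (κ p.1) * qf π p.2 (π p.1 - x)) V :=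
    (aesm_F hF κ V).mul (continuous_qf π x).aestronglyMeasurable
  have hbt : ∀ᵐ p ∂V, ‖π p.1 - x‖ ^ 2 < Real.exp (2 * L₀) →
      |F (κ p.1) * tl π p.2| ≤ C1 * m := by
    filter_upwards [hC1, h.tl_bound] with p h1 h2 hlt
    rw [abs_mul]
    exact mul_le_mul (h1 hlt) (h2 hlt) (abs_nonneg _) ((abs_nonneg _).trans (h1 hlt))
  have hbq : ∀ᵐ p ∂V, ‖π p.1 - x‖ ^ 2 < Real.exp (2 * L₀) →
      |F (κ p.1) * qf π p.2 (π p.1 - x)| ≤ C1 * Real.exp (2 * L₀) := by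
    filter_upwards [hC1, h.qf_bound] with p h1 h2 hlt
    rw [abs_mul]
    exact mul_le_mul (h1 hlt) (h2 hlt) (abs_nonneg _) ((abs_nonneg _).trans (h1 hlt))
  have i1 := h.integrable_c (aesm_F hF κ V) hC1 hg hl
  have i2 := integrable_tk h (aesm_F hF κ V) hC1 hg hl
  have i3 := h.integrable_c hFt hbt hg hl
  have i4 := integrable_k' h hFq hbq hg hl
  have i5 := h.integrable_c (continuous_cM hF π κ x).aestronglyMeasurable hC2 hg hl
  have h0 := int4 i1 i2 i3 i4 (m:ℝ) 2 (-1) (-(2 * Real.exp (-2 * l)))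
  have e1 : (m * (∫ p, F (κ p.1) * g1 (Real.exp (-2 * l) * ‖π p.1 - x‖ ^ 2) ∂V)
        + 2 * (∫ p, F (κ p.1) * (Real.exp (-2 * l) * ‖π p.1 - x‖ ^ 2 *
            g2 (Real.exp (-2 * l) * ‖π p.1 - x‖ ^ 2)) ∂V)
        - (∫ p, (F (κ p.1) * tl π p.2) * g1 (Real.exp (-2 * l) * ‖π p.1 - x‖ ^ 2) ∂V)
        - 2 * Real.exp (-2 * l) * (∫ p, (F (κ p.1) * qf π p.2 (π p.1 - x)) *
            g2 (Real.exp (-2 * l) * ‖π p.1 - x‖ ^ 2) ∂V)) =
      (m * (∫ p, F (κ p.1) * g1 (Real.exp (-2 * l) * ‖π p.1 - x‖ ^ 2) ∂V)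
        + 2 * (∫ p, F (κ p.1) * (Real.exp (-2 * l) * ‖π p.1 - x‖ ^ 2 *
            g2 (Real.exp (-2 * l) * ‖π p.1 - x‖ ^ 2)) ∂V)
        + -1 * (∫ p, (F (κ p.1) * tl π p.2) * g1 (Real.exp (-2 * l) * ‖π p.1 - x‖ ^ 2) ∂V)
        + -(2 * Real.exp (-2 * l)) * (∫ p, (F (κ p.1) * qf π p.2 (π p.1 - x)) *
            g2 (Real.exp (-2 * l) * ‖π p.1 - x‖ ^ 2) ∂V)) := by ring
  rw [e1, ← h0]
  unfold MM
  have i6 : Integrable (fun p : Euc k × L k =>
      (m:ℝ) * (F (κ p.1) * g1 (Real.exp (-2 * l) * ‖π p.1 - x‖ ^ 2)) +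
      2 * (F (κ p.1) * (Real.exp (-2 * l) * ‖π p.1 - x‖ ^ 2 *
        g2 (Real.exp (-2 * l) * ‖π p.1 - x‖ ^ 2))) +
      -1 * (F (κ p.1) * tl π p.2 * g1 (Real.exp (-2 * l) * ‖π p.1 - x‖ ^ 2)) +
      -(2 * Real.exp (-2 * l)) * (F (κ p.1) * qf π p.2 (π p.1 - x) *
        g2 (Real.exp (-2 * l) * ‖π p.1 - x‖ ^ 2))) V :=
    (((i1.const_mul _).add (i2.const_mul _)).add (i3.const_mul _)).add (i4.const_mul _)
  rw [← integral_add i6 i5]
  unfold FV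
  refine integral_congr_ae ?_
  filter_upwards [h.conc] with p hp
  have h1 := tr_field π κ (F := F)
    (ξ := fun v : Euc m => g1 (Real.exp (-2 * l) * ‖v - x‖ ^ 2) • (v - x)) p.1 p.2
    (hF.hasF _).differentiableAt
    ((contDiff_rad hg.der hg.cont l x).differentiable one_ne_zero _)
  have h2 : tr (fderiv ℝ (X3 π κ x F g1 l) p.1 ∘L p.2) = _ := h1
  rw [h2, tr_rad hg.der hg.cont, (hF.hasF _).fderiv, innerSL_apply_apply]
  have h3 : ⟪dF (κ p.1), κ (p.2 (ContinuousLinearMap.adjoint π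
      (g1 (Real.exp (-2 * l) * ‖π p.1 - x‖ ^ 2) • (π p.1 - x))))⟫_ℝ =
      cM π κ x dF p * g1 (Real.exp (-2 * l) * ‖π p.1 - x‖ ^ 2) := by
    rw [map_smul, map_smul, map_smul, inner_smul_right, mul_comm]
    rfl
  rw [h3, tl_eq]
  unfold qf
  ring

/-- the error term of (W3): `2 s^{2-m} ∫ F (1 - S_hh) : D²χ dV` -/
def err3 (V : Measure (Euc k × L k)) (π : Euc k →L[ℝ] Euc m) (κ : Euc k →L[ℝ] Euc n) (x : Euc m)
    (F : Euc n → ℝ) (g1 g2 : ℝ → ℝ) (l : ℝ) : ℝ :=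
  4 * Real.exp (-m * l) *
    ((∫ p, (F (κ p.1) * tl π p.2) * g1 (Real.exp (-2 * l) * ‖π p.1 - x‖ ^ 2) ∂V)
      + 2 * Real.exp (-2 * l) * (∫ p, (F (κ p.1) * qf π p.2 (π p.1 - x)) *
            g2 (Real.exp (-2 * l) * ‖π p.1 - x‖ ^ 2) ∂V))

/-- the vertical identity `e_F = s^{2-m} (δV(χ dF) - 2 s^{-2} ∫ g' ⟨dF, S_vh v⟩ dV)` -/
theorem eF_eq (h : Fr V π κ x L₀) (hh : Hgt V π κ x L₀ h₀) (hF : Well F dF H) (hg : Ker g g1)
    {l : ℝ} (hl : l ≤ L₀) :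
    eF V π κ x H g l - Real.exp ((2 - m) * l) * FV V (X2 π κ x dF g l) =
      -(2 * Real.exp (-m * l) * MM V π κ x dF g1 l) := by
  rw [FV_X2 h hh hF hg hl]
  unfold eF
  have h6 : Real.exp (-m * l) = Real.exp ((2 - m) * l) * Real.exp (-2 * l) := by
    rw [← Real.exp_add]; congr 1; ring
  rw [h6]
  ring

theorem int_c4 (V : Measure (Euc k × L k)) (c : Euc k × L k → ℝ) (f : Euc k × L k → ℝ) (a : ℝ) :
    ∫ p, c p * (a * f p) ∂V = a * ∫ p, c p * f p ∂V := by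
  rw [← integral_const_mul]
  refine integral_congr_ae (Eventually.of_forall fun p => ?_)
  simp only
  ring

/-- **(W3)**: `dI_F/dl = 2 e_F + 2 s^{2-m} ∫ F (1 - S_hh) : D²χ + 2 s^{2-m} (δV(F ∇χ) - δV(χ dF))` -/
theorem hasDerivAt_IF (h : Fr V π κ x L₀) (hh : Hgt V π κ x L₀ h₀) (hF : Well F dF H)
    (hg : Prof g g1 g2) {l : ℝ} (hl : l < L₀) :
    HasDerivAt (IF V π κ x F g1)
      (2 * eF V π κ x H g l + err3 V π κ x F g1 g2 l +
        (4 * Real.exp (-m * l) * FV V (X3 π κ x F g1 l) -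
          2 * (Real.exp ((2 - m) * l) * FV V (X2 π κ x dF g l)))) l := by
  obtain ⟨C1, hC1⟩ := F_bd h hh hF
  have h1 := h.deriv_c (aesm_F hF κ V) hC1 hg.k1 hl
  have h3 : HasDerivAt (fun l : ℝ => Real.exp (-m * l)) (Real.exp (-m * l) * (-m)) l := by
    have h4 : HasDerivAt (fun l : ℝ => (-m : ℝ) * l) (-m) l := by
      simpa using (hasDerivAt_id l).const_mul (-m : ℝ)
    exact h4.exp
  have h5 := h3.mul (h1.const_mul (-4))
  have hfun : IF V π κ x F g1 = (fun l : ℝ => Real.exp (-m * l)) * (fun l =>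
      -4 * ∫ p, F (κ p.1) * g1 (Real.exp (-2 * l) * ‖π p.1 - x‖ ^ 2) ∂V) := by
    funext l
    unfold IF
    simp only [Pi.mul_apply]
    rw [int_c4 V (fun p => F (κ p.1)) (fun p => g1 (Real.exp (-2 * l) * ‖π p.1 - x‖ ^ 2)) (-4)]
  rw [hfun]
  refine h5.congr_deriv ?_
  have e2 := eF_eq h hh hF hg.k0 hl.le
  have e3 := FV_X3 h hh hF hg.k1 hl.le
  have h7 : ∫ p, F (κ p.1) * (-2 * (Real.exp (-2 * l) * ‖π p.1 - x‖ ^ 2 *
      g2 (Real.exp (-2 * l) * ‖π p.1 - x‖ ^ 2))) ∂V =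
      -2 * ∫ p, F (κ p.1) * (Real.exp (-2 * l) * ‖π p.1 - x‖ ^ 2 *
      g2 (Real.exp (-2 * l) * ‖π p.1 - x‖ ^ 2)) ∂V := by
    rw [← integral_const_mul]
    refine integral_congr_ae (Eventually.of_forall fun p => ?_)
    simp only
    ring
  rw [h7]
  have e4 : eF V π κ x H g l = Real.exp ((2 - m) * l) * FV V (X2 π κ x dF g l)
      - 2 * Real.exp (-m * l) * MM V π κ x dF g1 l := by linarith
  rw [e4, e3]
  unfold err3
  ring

/-- **(W2)**: `(e_F - s^{2-m} δV(χ dF))² ≤ I_F R` -/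
theorem eF_sq_le (h : Fr V π κ x L₀) (hh : Hgt V π κ x L₀ h₀) (hF : Well F dF H)
    (hg : Prof g g1 g2) {l : ℝ} (hl : l ≤ L₀) :
    (eF V π κ x H g l - Real.exp ((2 - m) * l) * FV V (X2 π κ x dF g l)) ^ 2 ≤
      IF V π κ x F g1 l * RR V π x g1 l := by
  rw [eF_eq h hh hF hg.k0 hl]
  obtain ⟨C1, hC1⟩ := F_bd h hh hF
  obtain ⟨C2, hC2⟩ := cM_bd h hh hF
  have i1 := h.integrable_c (aesm_F hF κ V) hC1 hg.k1 hl
  have i2 := h.integrable_c (continuous_qf π x).aestronglyMeasurable h.qf_bound hg.k1 hl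
  have i3 := h.integrable_c (continuous_cM hF π κ x).aestronglyMeasurable hC2 hg.k1 hl
  set A := ∫ p, F (κ p.1) * g1 (Real.exp (-2 * l) * ‖π p.1 - x‖ ^ 2) ∂V with hA
  set B := ∫ p, qf π p.2 (π p.1 - x) * g1 (Real.exp (-2 * l) * ‖π p.1 - x‖ ^ 2) ∂V with hB
  set M := MM V π κ x dF g1 l with hM
  have key : ∀ t : ℝ, 0 ≤ (-2 * A) * (t * t) + 2 * M * t + (-B) := by
    intro t
    have h1 : (-2 * A) * (t * t) + 2 * M * t + (-B) =
        ∫ p, ((-2 * (t * t)) * (F (κ p.1) * g1 (Real.exp (-2 * l) * ‖π p.1 - x‖ ^ 2)) +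
          (2 * t) * (cM π κ x dF p * g1 (Real.exp (-2 * l) * ‖π p.1 - x‖ ^ 2)) +
          (-1) * (qf π p.2 (π p.1 - x) * g1 (Real.exp (-2 * l) * ‖π p.1 - x‖ ^ 2)) +
          0 * (qf π p.2 (π p.1 - x) * g1 (Real.exp (-2 * l) * ‖π p.1 - x‖ ^ 2))) ∂V := by
      rw [int4 i1 i3 i2 i2]
      rw [← hA, ← hB]
      unfold MM at hM
      rw [← hM]
      ring
    rw [h1]
    refine integral_nonneg_of_ae ?_
    filter_upwards [h.conc] with p hp
    have hneg : 0 ≤ -g1 (Real.exp (-2 * l) * ‖π p.1 - x‖ ^ 2) := by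
      have := hg.anti (Real.exp (-2 * l) * ‖π p.1 - x‖ ^ 2) (by positivity)
      linarith
    have h2 : (0:ℝ) ≤ (t * t) * (2 * F (κ p.1)) - 2 * t * cM π κ x dF p +
        qf π p.2 (π p.1 - x) := by
      have h3 := hF.grad (κ p.1)
      have h4 := norm_Svh_sq_le h.sp (isPr_of_G hp) (π p.1 - x)
      have h5 : ‖t • dF (κ p.1) - Svh π κ p.2 (π p.1 - x)‖ ^ 2 =
          (t * t) * ‖dF (κ p.1)‖ ^ 2 - 2 * t * cM π κ x dF p +
            ‖Svh π κ p.2 (π p.1 - x)‖ ^ 2 := by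
        rw [norm_sub_sq_real, inner_smul_left, norm_smul, mul_pow, Real.norm_eq_abs, sq_abs]
        unfold cM
        simp only [RCLike.conj_to_real]
        ring
      have h6 : 0 ≤ ‖t • dF (κ p.1) - Svh π κ p.2 (π p.1 - x)‖ ^ 2 := by positivity
      nlinarith [mul_self_nonneg t]
    have h7 := mul_nonneg hneg h2
    simp only [Pi.zero_apply]
    nlinarith
  have hd := discrim_le_zero key
  unfold discrim at hd
  have eI : IF V π κ x F g1 l = Real.exp (-m * l) * (-4 * A) := by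
    unfold IF
    rw [int_c4 V (fun p => F (κ p.1)) (fun p => g1 (Real.exp (-2 * l) * ‖π p.1 - x‖ ^ 2)) (-4)]
  have eR : RR V π x g1 l = Real.exp (-m * l) * (-2 * B) := by
    unfold RR
    rw [int_c4 V (fun p => qf π p.2 (π p.1 - x))
      (fun p => g1 (Real.exp (-2 * l) * ‖π p.1 - x‖ ^ 2)) (-2)]
  rw [eI, eR]
  have hE : 0 ≤ Real.exp (-m * l) ^ 2 := by positivity
  nlinarith

end Crest.Agent.R234.Cy_870
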