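import Crest.Agent.R234.Cy5_870

/-!
# Row 234, VF-CYL, part 6 (helper870)

(W4), continuity in `l`, integrated forms, signs and the bound of the error term of (W3).
-/

set_option autoImplicit false

open MeasureTheory Set Function Filter Topology
open Crest.GeometryTopology.Submanifold
open Crest.Agent.R234.Vf_884 Crest.Agent.R234.Ar_870
open scoped ENNReal NNReal InnerProductSpace

noncomputable section

namespace Crest.Agent.R234.Cy_870

variable {m n k : ℕ} {π : Euc k →L[ℝ] Euc m} {κ : Euc k →L[ℝ] Euc n} {x₀ x : Euc m} {R : ℝ}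
  {g g1 g2 : ℝ → ℝ} {W : Measure (Euc k × L k)} {h₀ : ℝ}
  {F : Euc n → ℝ} {dF : Euc n → Euc n} {H : Euc n → L n}

namespace CylStat

theorem tl_bd (h : CylStat W π κ x₀ R h₀) : ∀ᵐ p ∂W, |tl π p.2| ≤ m := by
  filter_upwards [h.conc] with p hp
  rw [abs_of_nonneg (tl_nonneg h.sp.hh (isPr_of_G hp))]
  exact tl_le h.sp.hh (isPr_of_G hp)

/-- (W4): for `F = |y|²/2` the well energy is the tilt energy -/
theorem eF_sq_eq (h : CylStat W π κ x₀ R h₀) (x : Euc m) (g : ℝ → ℝ) (l : ℝ) :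
    eF W π κ x (fun _ => ContinuousLinearMap.id ℝ (Euc n)) g l = ee W π x g l := by
  unfold eF ee
  congr 1
  refine integral_congr_ae ?_
  filter_upwards [h.conc] with p hp
  rw [ContinuousLinearMap.id_comp, tr_Svv h.sp hp]

theorem ee_nonneg (h : CylStat W π κ x₀ R h₀) (hg : ∀ t, 0 ≤ t → 0 ≤ g t) (l : ℝ) :
    0 ≤ ee W π x g l := by
  unfold ee
  refine mul_nonneg (Real.exp_pos _).le (integral_nonneg_of_ae ?_)
  filter_upwards [h.conc] with p hp
  exact mul_nonneg (tl_nonneg h.sp.hh (isPr_of_G hp)) (hg _ (by positivity))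

theorem RR_nonneg (h : CylStat W π κ x₀ R h₀) (hg : Prof g g1 g2) (l : ℝ) :
    0 ≤ RR W π x g1 l := by
  unfold RR
  refine mul_nonneg (Real.exp_pos _).le (integral_nonneg_of_ae ?_)
  filter_upwards [h.conc] with p hp
  have := hg.anti (Real.exp (-2 * l) * ‖π p.1 - x‖ ^ 2) (by positivity)
  exact mul_nonneg (qf_nonneg h.sp.hh (isPr_of_G hp) _) (by linarith)

end CylStat

theorem IF_nonneg (hF : Well F dF H) (hg : Prof g g1 g2) (W : Measure (Euc k × L k)) (l : ℝ) :
    0 ≤ IF W π κ x F g1 l := by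
  unfold IF
  refine mul_nonneg (Real.exp_pos _).le (integral_nonneg fun p => ?_)
  have := hg.anti (Real.exp (-2 * l) * ‖π p.1 - x‖ ^ 2) (by positivity)
  exact mul_nonneg (hF.nonneg _) (by linarith)

theorem Prof.nonneg (hg : Prof g g1 g2) : ∀ t, 0 ≤ t → 0 ≤ g t := by
  intro t ht
  rcases le_or_gt 1 t with h1 | h1
  · rw [hg.k0.zero t h1]
  · have hanti : AntitoneOn g (Icc t 1) := by
      refine antitoneOn_of_deriv_nonpos (convex_Icc t 1) hg.k0.continuous.continuousOn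
        (fun u _ => (hg.k0.der u).differentiableAt.differentiableWithinAt) fun u hu => ?_
      rw [interior_Icc] at hu
      rw [(hg.k0.der u).deriv]
      exact hg.anti u (ht.trans hu.1.le)
    have := hanti (left_mem_Icc.2 h1.le) (right_mem_Icc.2 h1.le) h1.le
    rw [hg.k0.zero 1 le_rfl] at this
    exact this

/-! ### continuity in `l` -/

theorem continuousAt_kc {l : ℝ} (h : Fr W π κ x (l + 1)) {c : Euc k × L k → ℝ}
    (hc : AEStronglyMeasurable c W) {C : ℝ}
    (hcC : ∀ᵐ p ∂W, ‖π p.1 - x‖ ^ 2 < Real.exp (2 * (l + 1)) → |c p| ≤ C) {f f' : ℝ → ℝ}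
    (hf : Ker f f') :
    ContinuousAt (fun l => ∫ p, c p * f (Real.exp (-2 * l) * ‖π p.1 - x‖ ^ 2) ∂W) l :=
  (h.deriv_c hc hcC hf (by linarith : l < l + 1)).continuousAt

theorem continuousAt_kc' {l : ℝ} (h : Fr W π κ x (l + 1)) {c : Euc k × L k → ℝ}
    (hc : AEStronglyMeasurable c W) {C : ℝ}
    (hcC : ∀ᵐ p ∂W, ‖π p.1 - x‖ ^ 2 < Real.exp (2 * (l + 1)) → |c p| ≤ C) {f f' : ℝ → ℝ}
    (hf : Ker f f') :
    ContinuousAt (fun l => ∫ p, c p * f' (Real.exp (-2 * l) * ‖π p.1 - x‖ ^ 2) ∂W) l := by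
  obtain ⟨K, -, -, hK, -⟩ := hf.exists_bound
  exact continuousAt_ker (measurable_rho π x) (fun p => by positivity) hc h.fin hcC
    hf.cont hK hf.zero' (by linarith : l < l + 1)

end Crest.Agent.R234.Cy_870
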