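import Mathlib

/-!
# Calderon-Zygmund package, file 1 (helper475, row 234): the kernels

`Eu d = EuclideanSpace ℝ (Fin d)`.  `F : Eu d → Eu d` smooth, radial (so `∂_j F_i = ∂_i F_j`), equal to
`c⁻¹ x |x|^{-d}` for `|x| ≥ 1`, `div F = rho ≥ 0`, `rho = 0` for `|x| > 1`, `∫ rho = 1`.
Everything else is a scaling of `F`.
-/

set_option autoImplicit false
open MeasureTheory Set Metric Filter Topology
open scoped ENNReal NNReal ContDiff

noncomputable section

namespace Crest.Agent.R234.Cz1_475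

/-- the Euclidean space -/
abbrev Eu (d : ℕ) := EuclideanSpace ℝ (Fin d)

/-- basis vector -/
abbrev bv {d : ℕ} (j : Fin d) : Eu d := EuclideanSpace.single j (1:ℝ)

/-- `pd φ i j = ∂_j φ_i` -/
def pd {d : ℕ} (φ : Eu d → Eu d) (i j : Fin d) (x : Eu d) : ℝ := (fderiv ℝ φ x (bv j)) i

/-- divergence -/
def dvg {d : ℕ} (φ : Eu d → Eu d) (x : Eu d) : ℝ := ∑ i, pd φ i i x

/-- radial profile in the variable `s = |z|^2` -/
def kap (d : ℕ) (s : ℝ) : ℝ := Real.smoothTransition (2 * s - 1) * s ^ (-(d:ℝ)/2)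

theorem kap_zero {d : ℕ} {s : ℝ} (hs : s ≤ 1/2) : kap d s = 0 := by
  unfold kap
  rw [Real.smoothTransition.zero_of_nonpos (by linarith), zero_mul]

theorem kap_one {d : ℕ} {s : ℝ} (hs : 1 ≤ s) : kap d s = s ^ (-(d:ℝ)/2) := by
  unfold kap
  rw [Real.smoothTransition.one_of_one_le (by linarith), one_mul]

theorem kap_contDiff (d : ℕ) : ContDiff ℝ ∞ (kap d) := by
  rw [contDiff_iff_contDiffAt]
  intro s
  by_cases hs : s < 1/2
  · have : kap d =ᶠ[𝓝 s] fun _ => 0 := by
      filter_upwards [Iio_mem_nhds hs] with t ht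
      exact kap_zero (le_of_lt ht)
    exact contDiffAt_const.congr_of_eventuallyEq this
  · push Not at hs
    have h0 : s ≠ 0 := by
      intro h; rw [h] at hs; norm_num at hs
    have h1 : ContDiffAt ℝ ∞ (fun s : ℝ => Real.smoothTransition (2 * s - 1)) s :=
      Real.smoothTransition.contDiff.contDiffAt.comp s (by fun_prop)
    exact h1.mul (Real.contDiffAt_rpow_const_of_ne h0)

theorem kap_hasDerivAt (d : ℕ) (s : ℝ) : HasDerivAt (kap d) (deriv (kap d) s) s :=
  ((kap_contDiff d).differentiable (by simp)).differentiableAt.hasDerivAt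

theorem st_deriv_nonneg (x : ℝ) : 0 ≤ deriv Real.smoothTransition x :=
  Real.smoothTransition.monotone.deriv_nonneg

theorem kap_deriv_zero {d : ℕ} {s : ℝ} (hs : s < 1/2) : deriv (kap d) s = 0 := by
  have : kap d =ᶠ[𝓝 s] fun _ => 0 := by
    filter_upwards [Iio_mem_nhds hs] with t ht
    exact kap_zero (le_of_lt ht)
  rw [this.deriv_eq]; simp

theorem kap_deriv {d : ℕ} {s : ℝ} (hs : 0 < s) :
    deriv (kap d) s = 2 * deriv Real.smoothTransition (2 * s - 1) * s ^ (-(d:ℝ)/2)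
      + Real.smoothTransition (2 * s - 1) * ((-(d:ℝ)/2) * s ^ (-(d:ℝ)/2 - 1)) := by
  have h1 : HasDerivAt (fun s : ℝ => Real.smoothTransition (2 * s - 1))
      (deriv Real.smoothTransition (2 * s - 1) * 2) s := by
    have ha : HasDerivAt (fun s : ℝ => 2 * s - 1) 2 s := by
      simpa using ((hasDerivAt_id s).const_mul 2).sub_const 1
    have hb : HasDerivAt Real.smoothTransition (deriv Real.smoothTransition (2 * s - 1)) (2 * s - 1) :=
      ((Real.smoothTransition.contDiff (n := 1)).differentiable (by simp)).differentiableAt.hasDerivAt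
    exact hb.comp s ha
  have h2 : HasDerivAt (fun s : ℝ => s ^ (-(d:ℝ)/2)) ((-(d:ℝ)/2) * s ^ (-(d:ℝ)/2 - 1)) s :=
    Real.hasDerivAt_rpow_const (Or.inl hs.ne')
  have h3 := (h1.mul h2).deriv
  have h4 : deriv (kap d) s = deriv ((fun s : ℝ => Real.smoothTransition (2 * s - 1)) *
    fun s : ℝ => s ^ (-(d:ℝ)/2)) s := rfl
  rw [h4, h3]
  ring

theorem kap_comb {d : ℕ} {s : ℝ} (hs : 0 < s) :
    (d:ℝ) * kap d s + 2 * s * deriv (kap d) s
      = 4 * s * deriv Real.smoothTransition (2 * s - 1) * s ^ (-(d:ℝ)/2) := by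
  rw [kap_deriv hs]
  have h1 : s * s ^ (-(d:ℝ)/2 - 1) = s ^ (-(d:ℝ)/2) := by
    rw [Real.rpow_sub_one hs.ne']
    field_simp
  unfold kap
  linear_combination (-(d:ℝ)) * Real.smoothTransition (2 * s - 1) * h1

/-- unnormalised density -/
def rho0 (d : ℕ) (z : Eu d) : ℝ := (d:ℝ) * kap d (‖z‖^2) + 2 * ‖z‖^2 * deriv (kap d) (‖z‖^2)

/-- unnormalised kernel -/
def F0 (d : ℕ) (z : Eu d) : Eu d := kap d (‖z‖^2) • z

theorem rho0_nonneg (d : ℕ) (z : Eu d) : 0 ≤ rho0 d z := by
  unfold rho0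
  rcases (sq_nonneg ‖z‖).lt_or_eq with h | h
  · rw [kap_comb h]
    have := st_deriv_nonneg (2 * ‖z‖^2 - 1)
    positivity
  · rw [← h, kap_zero (by norm_num)]
    simp

theorem rho0_zero {d : ℕ} {z : Eu d} (hz : 1 < ‖z‖) : rho0 d z = 0 := by
  unfold rho0
  have h1 : 1 < ‖z‖^2 := by nlinarith [norm_nonneg z]
  rw [kap_comb (by linarith)]
  have h2 : Real.smoothTransition =ᶠ[𝓝 (2 * ‖z‖^2 - 1)] fun _ => 1 := by
    filter_upwards [Ioi_mem_nhds (show (1:ℝ) < 2 * ‖z‖^2 - 1 by linarith)] with t ht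
    exact Real.smoothTransition.one_of_one_le (le_of_lt ht)
  rw [h2.deriv_eq]
  simp

theorem F0_contDiff (d : ℕ) : ContDiff ℝ ∞ (F0 d) := by
  unfold F0
  exact ((kap_contDiff d).comp (contDiff_norm_sq ℝ)).smul contDiff_id

theorem rho0_contDiff (d : ℕ) : ContDiff ℝ ∞ (rho0 d) := by
  unfold rho0
  have h1 : ContDiff ℝ ∞ (deriv (kap d)) := (contDiff_infty_iff_deriv.1 (kap_contDiff d)).2
  exact (contDiff_const.mul ((kap_contDiff d).comp (contDiff_norm_sq ℝ))).add
    ((contDiff_const.mul (contDiff_norm_sq ℝ)).mul (h1.comp (contDiff_norm_sq ℝ)))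

theorem F0_hasFDerivAt (d : ℕ) (z : Eu d) :
    HasFDerivAt (F0 d) (kap d (‖z‖^2) • ContinuousLinearMap.id ℝ (Eu d) +
      ((deriv (kap d) (‖z‖^2)) • ((2:ℕ) • innerSL ℝ z)).smulRight z) z := by
  have h1 : HasFDerivAt (fun x : Eu d => ‖x‖^2) ((2:ℕ) • innerSL ℝ z) z :=
    (hasStrictFDerivAt_norm_sq z).hasFDerivAt
  have h2 : HasFDerivAt (kap d ∘ fun x : Eu d => ‖x‖^2)
      ((deriv (kap d) (‖z‖^2)) • ((2:ℕ) • innerSL ℝ z)) z :=
    HasDerivAt.comp_hasFDerivAt z (kap_hasDerivAt d (‖z‖^2)) h1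
  exact h2.smul (hasFDerivAt_id z)

theorem pd_F0 {d : ℕ} (i j : Fin d) (z : Eu d) :
    pd (F0 d) i j z = (if i = j then kap d (‖z‖^2) else 0)
      + 2 * deriv (kap d) (‖z‖^2) * z j * z i := by
  unfold pd
  rw [(F0_hasFDerivAt d z).fderiv]
  have h1 : (innerSL ℝ z) (bv j) = z j := by
    simp [PiLp.inner_apply]
  simp only [ContinuousLinearMap.add_apply, ContinuousLinearMap.smul_apply,
    ContinuousLinearMap.id_apply, ContinuousLinearMap.smulRight_apply, PiLp.add_apply,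
    PiLp.smul_apply, smul_eq_mul, h1, nsmul_eq_mul, Nat.cast_ofNat]
  rw [PiLp.single_apply]
  split_ifs <;> ring

theorem pd_F0_symm {d : ℕ} (i j : Fin d) (z : Eu d) : pd (F0 d) i j z = pd (F0 d) j i z := by
  rw [pd_F0, pd_F0]
  by_cases h : i = j
  · subst h; rfl
  · rw [if_neg h, if_neg (Ne.symm h)]; ring

theorem dvg_F0 {d : ℕ} (z : Eu d) : dvg (F0 d) z = rho0 d z := by
  unfold dvg rho0
  simp_rw [pd_F0]
  rw [Finset.sum_add_distrib]
  simp only [if_true, Finset.sum_const, Finset.card_univ, Fintype.card_fin, nsmul_eq_mul]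
  congr 1
  rw [EuclideanSpace.norm_sq_eq]
  rw [Finset.mul_sum, Finset.sum_mul]
  refine Finset.sum_congr rfl fun i _ => ?_
  rw [Real.norm_eq_abs, sq_abs]
  ring

theorem F0_far {d : ℕ} {z : Eu d} (hz : 1 ≤ ‖z‖) {r : ℝ} (hr : 1 ≤ r) :
    F0 d (r • z) = r ^ (1 - (d:ℝ)) • F0 d z := by
  unfold F0
  have hr0 : 0 < r := by linarith
  have h1 : 1 ≤ ‖z‖^2 := one_le_pow₀ hz
  have h2 : 1 ≤ ‖r • z‖^2 := by
    rw [norm_smul, mul_pow]
    have : 1 ≤ ‖r‖^2 := one_le_pow₀ (by rw [Real.norm_eq_abs, abs_of_pos hr0]; exact hr)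
    nlinarith
  rw [kap_one h1, kap_one h2, norm_smul, mul_pow, Real.norm_eq_abs, sq_abs,
    Real.mul_rpow (by positivity) (by positivity), smul_smul, smul_smul]
  congr 1
  have h3 : (r^2) ^ (-(d:ℝ)/2) = r ^ (-(d:ℝ)) := by
    rw [← Real.rpow_natCast, ← Real.rpow_mul hr0.le]
    congr 1; push_cast; ring
  rw [h3, sub_eq_add_neg, Real.rpow_add hr0, Real.rpow_one]
  ring

theorem rho0_hasCompactSupport (d : ℕ) : HasCompactSupport (rho0 d) := by
  refine HasCompactSupport.intro (isCompact_closedBall (0 : Eu d) 1) fun x hx => ?_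
  rw [mem_closedBall_zero_iff, not_le] at hx
  exact rho0_zero hx

theorem int_rho0_pos {d : ℕ} (hd : 0 < d) : 0 < ∫ z, rho0 d z := by
  have hc : Continuous (rho0 d) := (rho0_contDiff d).continuous
  have hi : Integrable (rho0 d) := hc.integrable_of_hasCompactSupport (rho0_hasCompactSupport d)
  rcases (integral_nonneg (f := rho0 d) (rho0_nonneg d)).lt_or_eq with h | h
  · exact h
  · exfalso
    have h0 : rho0 d = 0 := by
      have := (integral_eq_zero_iff_of_nonneg (rho0_nonneg d) hi).1 h.symm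
      exact (Continuous.ae_eq_iff_eq volume hc continuous_const).1 this
    have h1 : ∀ t : ℝ, deriv Real.smoothTransition t = 0 := by
      intro t
      rcases lt_or_ge (-1) t with ht | ht
      · have hs : 0 < (t + 1)/2 := by linarith
        have hz : ‖(EuclideanSpace.single (⟨0, hd⟩ : Fin d) (Real.sqrt ((t+1)/2)) : Eu d)‖^2
            = (t+1)/2 := by
          rw [EuclideanSpace.norm_single, Real.norm_eq_abs, sq_abs, Real.sq_sqrt hs.le]
        have h2 := congrFun h0 (EuclideanSpace.single (⟨0, hd⟩ : Fin d) (Real.sqrt ((t+1)/2)) : Eu d)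
        simp only [rho0, Pi.zero_apply] at h2
        rw [hz, kap_comb hs] at h2
        have h3 : 2 * ((t+1)/2) - 1 = t := by ring
        rw [h3] at h2
        have h4 : 0 < ((t+1)/2) ^ (-(d:ℝ)/2) := Real.rpow_pos_of_pos hs _
        have h5 : 4 * ((t+1)/2) ≠ 0 := by positivity
        rcases mul_eq_zero.1 h2 with h6 | h6
        · rcases mul_eq_zero.1 h6 with h7 | h7
          · exact absurd h7 h5
          · exact h7
        · exact absurd h6 h4.ne'
      · have h2 : Real.smoothTransition =ᶠ[𝓝 t] fun _ => 0 := by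
          filter_upwards [Iio_mem_nhds (show t < 0 by linarith)] with u hu
          exact Real.smoothTransition.zero_of_nonpos (le_of_lt hu)
        rw [h2.deriv_eq]; simp
    have h2 := is_const_of_deriv_eq_zero
      ((Real.smoothTransition.contDiff (n := 1)).differentiable (by simp)) h1 0 1
    rw [Real.smoothTransition.zero, Real.smoothTransition.one] at h2
    exact zero_ne_one h2

end Crest.Agent.R234.Cz1_475
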