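import Crest.Agent.R234.Cz1_475

/-!
# Calderon-Zygmund package, file 2 (helper475, row 234): scaled kernels

`rho d r` mollifier at scale `r`, `P1 d r` with `div = rho d r`, `PP d a b = P1 d a - P1 d b` smooth, supported in
`|z| ≤ b`, `div (PP d a b) = rho d a - rho d b`; dyadic telescoping, Hormander condition uniform in the number of
scales, `L^1` bound.
-/

set_option autoImplicit false
open MeasureTheory Set Metric Filter Topology
open scoped ENNReal NNReal ContDiff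

noncomputable section

namespace Crest.Agent.R234.Cz2_475

open Crest.Agent.R234.Cz1_475

/-- normalising constant -/
def cc (d : ℕ) : ℝ := (∫ z, rho0 d z)⁻¹

theorem cc_nonneg (d : ℕ) : 0 ≤ cc d := inv_nonneg.2 (integral_nonneg (f := rho0 d) (rho0_nonneg d))

/-- mollifier at scale `r` -/
def rho (d : ℕ) (r : ℝ) (z : Eu d) : ℝ := cc d * (r⁻¹)^d * rho0 d (r⁻¹ • z)

/-- field with divergence `rho d r` -/
def P1 (d : ℕ) (r : ℝ) (z : Eu d) : Eu d := (cc d * (r * (r⁻¹)^d)) • F0 d (r⁻¹ • z)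

theorem rho_nonneg {d : ℕ} {r : ℝ} (hr : 0 < r) (z : Eu d) : 0 ≤ rho d r z := by
  unfold rho
  have := cc_nonneg d
  have := rho0_nonneg d (r⁻¹ • z)
  positivity

theorem norm_inv_smul {d : ℕ} {r : ℝ} (hr : 0 < r) (z : Eu d) : ‖r⁻¹ • z‖ = ‖z‖ / r := by
  rw [norm_smul, norm_inv, Real.norm_eq_abs, abs_of_pos hr]
  ring

theorem rho_zero {d : ℕ} {r : ℝ} (hr : 0 < r) {z : Eu d} (hz : r < ‖z‖) : rho d r z = 0 := by
  unfold rho
  rw [rho0_zero, mul_zero]
  rw [norm_inv_smul hr, lt_div_iff₀ hr]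
  linarith

theorem rho_contDiff (d : ℕ) (r : ℝ) : ContDiff ℝ ∞ (rho d r) := by
  unfold rho
  exact contDiff_const.mul ((rho0_contDiff d).comp (contDiff_const_smul _))

theorem P1_contDiff (d : ℕ) (r : ℝ) : ContDiff ℝ ∞ (P1 d r) := by
  unfold P1
  exact ((F0_contDiff d).comp (contDiff_const_smul _)).const_smul _

theorem rho_hasCompactSupport (d : ℕ) {r : ℝ} (hr : 0 < r) : HasCompactSupport (rho d r) := by
  refine HasCompactSupport.intro (isCompact_closedBall (0 : Eu d) r) fun x hx => ?_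
  rw [mem_closedBall_zero_iff, not_le] at hx
  exact rho_zero hr hx

theorem finrank_Eu (d : ℕ) : Module.finrank ℝ (Eu d) = d := by simp

theorem int_rho {d : ℕ} (hd : 0 < d) {r : ℝ} (hr : 0 < r) : ∫ z, rho d r z = 1 := by
  unfold rho
  rw [integral_const_mul, Measure.integral_comp_inv_smul_of_nonneg volume _ hr.le, finrank_Eu, smul_eq_mul]
  unfold cc
  have := (int_rho0_pos hd).ne'
  rw [inv_pow]
  field_simp

theorem pd_smul_comp {d : ℕ} {φ : Eu d → Eu d} (hφ : Differentiable ℝ φ) (a b : ℝ) (i j : Fin d)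
    (z : Eu d) : pd (fun z => a • φ (b • z)) i j z = a * b * pd φ i j (b • z) := by
  unfold pd
  have h1 : HasFDerivAt (fun z : Eu d => b • z) (b • ContinuousLinearMap.id ℝ (Eu d)) z :=
    (hasFDerivAt_id z).const_smul b
  have h2 : HasFDerivAt (fun z : Eu d => φ (b • z))
      ((fderiv ℝ φ (b • z)).comp (b • ContinuousLinearMap.id ℝ (Eu d))) z :=
    ((hφ (b • z)).hasFDerivAt).comp z h1
  have h3 : HasFDerivAt (fun z : Eu d => a • φ (b • z))
      (a • ((fderiv ℝ φ (b • z)).comp (b • ContinuousLinearMap.id ℝ (Eu d)))) z := h2.const_smul a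
  rw [h3.fderiv]
  simp [mul_assoc]

theorem pd_P1 {d : ℕ} {r : ℝ} (hr : r ≠ 0) (i j : Fin d) (z : Eu d) :
    pd (P1 d r) i j z = cc d * (r⁻¹)^d * pd (F0 d) i j (r⁻¹ • z) := by
  unfold P1
  rw [pd_smul_comp ((F0_contDiff d).differentiable (by simp))]
  field_simp

theorem dvg_P1 {d : ℕ} {r : ℝ} (hr : r ≠ 0) (z : Eu d) : dvg (P1 d r) z = rho d r z := by
  unfold dvg rho
  simp_rw [pd_P1 hr]
  rw [← Finset.mul_sum, ← dvg_F0]
  rfl

theorem P1_far {d : ℕ} {r : ℝ} (hr : 0 < r) {z : Eu d} (hz : r ≤ ‖z‖) :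
    P1 d r z = (cc d * (‖z‖⁻¹)^d) • z := by
  unfold P1 F0
  have hz0 : 0 < ‖z‖ := hr.trans_le hz
  have h1 : 1 ≤ ‖r⁻¹ • z‖ := by rw [norm_inv_smul hr, le_div_iff₀ hr]; linarith
  have h2 : 1 ≤ ‖r⁻¹ • z‖^2 := one_le_pow₀ h1
  rw [kap_one h2, norm_inv_smul hr, smul_smul, smul_smul]
  congr 1
  have h3 : ((‖z‖ / r)^2) ^ (-(d:ℝ)/2) = ((‖z‖ / r)⁻¹) ^ d := by
    rw [← Real.rpow_natCast (‖z‖ / r) 2, ← Real.rpow_mul (by positivity)]
    have : ((2:ℕ):ℝ) * (-(d:ℝ)/2) = -(d:ℝ) := by push_cast; ring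
    rw [this, Real.rpow_neg (by positivity), Real.rpow_natCast, inv_pow]
  rw [h3, inv_div, div_pow, inv_pow, inv_pow]
  field_simp

/-- annular field -/
def PP (d : ℕ) (a b : ℝ) (z : Eu d) : Eu d := P1 d a z - P1 d b z

theorem PP_zero {d : ℕ} {a b : ℝ} (ha : 0 < a) (hab : a ≤ b) {z : Eu d} (hz : b ≤ ‖z‖) :
    PP d a b z = 0 := by
  unfold PP
  rw [P1_far ha (hab.trans hz), P1_far (ha.trans_le hab) hz, sub_self]

theorem PP_contDiff (d : ℕ) (a b : ℝ) : ContDiff ℝ ∞ (PP d a b) :=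
  (P1_contDiff d a).sub (P1_contDiff d b)

theorem PP_hasCompactSupport (d : ℕ) {a b : ℝ} (ha : 0 < a) (hab : a ≤ b) :
    HasCompactSupport (PP d a b) := by
  refine HasCompactSupport.intro (isCompact_closedBall (0 : Eu d) b) fun x hx => ?_
  rw [mem_closedBall_zero_iff, not_le] at hx
  exact PP_zero ha hab hx.le

theorem pd_sub {d : ℕ} {φ ψ : Eu d → Eu d} (hφ : Differentiable ℝ φ) (hψ : Differentiable ℝ ψ)
    (i j : Fin d) (z : Eu d) : pd (fun z => φ z - ψ z) i j z = pd φ i j z - pd ψ i j z := by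
  unfold pd
  rw [fderiv_fun_sub (hφ z) (hψ z)]
  simp

theorem pd_PP {d : ℕ} (a b : ℝ) (i j : Fin d) (z : Eu d) :
    pd (PP d a b) i j z = pd (P1 d a) i j z - pd (P1 d b) i j z :=
  pd_sub ((P1_contDiff d a).differentiable (by simp)) ((P1_contDiff d b).differentiable (by simp)) i j z

theorem dvg_PP {d : ℕ} {a b : ℝ} (ha : a ≠ 0) (hb : b ≠ 0) (z : Eu d) :
    dvg (PP d a b) z = rho d a z - rho d b z := by
  rw [← dvg_P1 ha, ← dvg_P1 hb]
  unfold dvg
  simp_rw [pd_PP]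
  rw [Finset.sum_sub_distrib]

theorem pd_P1_symm {d : ℕ} {r : ℝ} (hr : r ≠ 0) (i j : Fin d) (z : Eu d) :
    pd (P1 d r) i j z = pd (P1 d r) j i z := by
  rw [pd_P1 hr, pd_P1 hr, pd_F0_symm]

theorem pd_PP_symm {d : ℕ} {a b : ℝ} (ha : a ≠ 0) (hb : b ≠ 0) (i j : Fin d) (z : Eu d) :
    pd (PP d a b) i j z = pd (PP d a b) j i z := by
  rw [pd_PP, pd_PP, pd_P1_symm ha, pd_P1_symm hb]

/-- the model annular field -/
def Th (d : ℕ) : Eu d → Eu d := PP d (1/2) 1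

theorem P1_scale {d : ℕ} (r s : ℝ) (z : Eu d) :
    P1 d (r * s) z = (r * (r⁻¹)^d) • P1 d s (r⁻¹ • z) := by
  unfold P1
  rw [smul_smul, smul_smul, mul_inv, mul_comm r⁻¹ s⁻¹, mul_pow]
  congr 1
  ring

theorem PP_scale {d : ℕ} (r : ℝ) (z : Eu d) :
    PP d (r/2) r z = (r * (r⁻¹)^d) • Th d (r⁻¹ • z) := by
  unfold Th PP
  rw [smul_sub, ← P1_scale, ← P1_scale, mul_one, mul_one_div]

theorem pd_PP_half {d : ℕ} {r : ℝ} (hr : 0 < r) (i j : Fin d) (z : Eu d) :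
    pd (PP d (r/2) r) i j z = (r⁻¹)^d * pd (Th d) i j (r⁻¹ • z) := by
  have h1 : PP d (r/2) r = fun z => (r * (r⁻¹)^d) • Th d (r⁻¹ • z) := funext (PP_scale r)
  rw [h1, pd_smul_comp (φ := Th d) ((PP_contDiff d _ _).differentiable (by simp))]
  field_simp

theorem Th_zero {d : ℕ} {z : Eu d} (hz : 1 ≤ ‖z‖) : Th d z = 0 :=
  PP_zero one_half_pos (by norm_num) hz

theorem Th_contDiff (d : ℕ) : ContDiff ℝ ∞ (Th d) := PP_contDiff d _ _

theorem pd_contDiff {d : ℕ} {φ : Eu d → Eu d} (hφ : ContDiff ℝ ∞ φ) (i j : Fin d) :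
    ContDiff ℝ ∞ (pd φ i j) := by
  unfold pd
  have h1 : ContDiff ℝ ∞ (fderiv ℝ φ) := (contDiff_infty_iff_fderiv.1 hφ).2
  have h2 : ContDiff ℝ ∞ (fun x => fderiv ℝ φ x (bv j)) := h1.clm_apply contDiff_const
  exact (EuclideanSpace.proj i : Eu d →L[ℝ] ℝ).contDiff.comp h2

theorem pd_zero_of_far {d : ℕ} {φ : Eu d → Eu d} {b : ℝ} (h : ∀ z, b ≤ ‖z‖ → φ z = 0)
    (i j : Fin d) {z : Eu d} (hz : b < ‖z‖) : pd φ i j z = 0 := by
  unfold pd
  have h1 : φ =ᶠ[𝓝 z] fun _ => 0 := by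
    have : {w : Eu d | b < ‖w‖} ∈ 𝓝 z := (isOpen_lt continuous_const continuous_norm).mem_nhds hz
    filter_upwards [this] with w hw
    exact h w hw.le
  rw [h1.fderiv_eq]
  simp

/-- dyadic sum of scaled copies of `g` -/
def SS {d : ℕ} (R : ℝ) (N : ℕ) (g : Eu d → ℝ) (z : Eu d) : ℝ :=
  ∑ k ∈ Finset.range N, ((R/2^k)⁻¹)^d * g ((R/2^k)⁻¹ • z)

theorem PP_tele {d : ℕ} (R : ℝ) (N : ℕ) (z : Eu d) :
    PP d (R/2^N) R z = ∑ k ∈ Finset.range N, PP d (R/2^k/2) (R/2^k) z := by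
  induction N with
  | zero => simp [PP]
  | succ n ih =>
    rw [Finset.sum_range_succ, ← ih]
    unfold PP
    have : R / 2^(n+1) = R/2^n/2 := by rw [pow_succ]; field_simp
    rw [this]
    abel

theorem pd_PP_tele {d : ℕ} {R : ℝ} (hR : 0 < R) (N : ℕ) (i j : Fin d) (z : Eu d) :
    pd (PP d (R/2^N) R) i j z = SS R N (pd (Th d) i j) z := by
  unfold SS
  have h2 : ∀ n : ℕ, pd (PP d (R/2^n) R) i j z
      = ∑ k ∈ Finset.range n, pd (PP d (R/2^k/2) (R/2^k)) i j z := by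
    intro n
    induction n with
    | zero => rw [pd_PP]; simp
    | succ n ih =>
      rw [Finset.sum_range_succ, ← ih, pd_PP, pd_PP, pd_PP]
      have : R / 2^(n+1) = R/2^n/2 := by rw [pow_succ]; field_simp
      rw [this]
      ring
  rw [h2 N]
  refine Finset.sum_congr rfl fun k _ => ?_
  rw [pd_PP_half (by positivity)]

theorem geo (c : ℝ) (hc : 0 ≤ c) (N : ℕ) :
    ∑ k ∈ Finset.range N, (if c * 2^k ≤ 1 then c * 2^k else 0) ≤ 2 ∧
    ∑ k ∈ Finset.range N, (if c * 2^k ≤ 1 then c * 2^k else 0) ≤ c * 2^N := by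
  induction N with
  | zero => simp; exact hc
  | succ n ih =>
    rw [Finset.sum_range_succ]
    have h3 : c * 2^(n+1) = c * 2^n + c * 2^n := by rw [pow_succ]; ring
    have h4 : 0 ≤ c * 2^n := by positivity
    split_ifs with h
    · constructor
      · linarith [ih.2]
      · linarith [ih.2]
    · constructor
      · linarith [ih.1]
      · linarith [ih.2]

section hor

variable {d : ℕ}

theorem hor_one {g : Eu d → ℝ} {L : ℝ} (hL : ∀ a b, |g a - g b| ≤ L * ‖a - b‖)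
    (hg : ∀ a, 1 < ‖a‖ → g a = 0) {r : ℝ} (hr : 0 < r) (y : Eu d) :
    ∫⁻ x in {x | 2 * ‖y‖ ≤ ‖x‖}, ‖(r⁻¹)^d * g (r⁻¹ • (x - y)) - (r⁻¹)^d * g (r⁻¹ • x)‖ₑ
      ≤ ENNReal.ofReal (L * (if ‖y‖ / r ≤ 1 then ‖y‖ / r else 0)) * volume (closedBall (0 : Eu d) 2) := by
  have hL0 : 0 ≤ L ∨ ‖y‖ = 0 := by
    by_contra h
    push Not at h
    have h1 := hL (‖y‖⁻¹ • y) 0
    have h2 := abs_nonneg (g (‖y‖⁻¹ • y) - g 0)
    rw [sub_zero, norm_smul, norm_inv, norm_norm, inv_mul_cancel₀ h.2] at h1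
    linarith [h.1]
  by_cases hy : ‖y‖ / r ≤ 1
  · rw [if_pos hy]
    have hyr : ‖y‖ ≤ r := by rwa [div_le_one hr] at hy
    have hpt : ∀ x : Eu d, ‖(r⁻¹)^d * g (r⁻¹ • (x - y)) - (r⁻¹)^d * g (r⁻¹ • x)‖ₑ
        ≤ (closedBall (0 : Eu d) (r * 2)).indicator
          (fun _ => ENNReal.ofReal ((r⁻¹)^d * (L * (‖y‖ / r)))) x := by
      intro x
      by_cases hx : x ∈ closedBall (0 : Eu d) (r * 2)
      · rw [indicator_of_mem hx, Real.enorm_eq_ofReal_abs, ← mul_sub, abs_mul, abs_of_nonneg (by positivity)]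
        refine ENNReal.ofReal_le_ofReal (mul_le_mul_of_nonneg_left ?_ (by positivity))
        refine (hL _ _).trans (le_of_eq ?_)
        rw [← smul_sub, sub_sub_cancel_left, norm_inv_smul hr, norm_neg]
      · rw [indicator_of_notMem hx]
        rw [mem_closedBall_zero_iff, not_le] at hx
        have h1 : g (r⁻¹ • x) = 0 := by
          refine hg _ ?_
          rw [norm_inv_smul hr, lt_div_iff₀ hr]; linarith
        have h2 : g (r⁻¹ • (x - y)) = 0 := by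
          refine hg _ ?_
          rw [norm_inv_smul hr, lt_div_iff₀ hr]
          have := norm_sub_norm_le x y
          linarith
        rw [h1, h2]; simp
    calc ∫⁻ x in {x | 2 * ‖y‖ ≤ ‖x‖}, ‖(r⁻¹)^d * g (r⁻¹ • (x - y)) - (r⁻¹)^d * g (r⁻¹ • x)‖ₑ
        ≤ ∫⁻ x, ‖(r⁻¹)^d * g (r⁻¹ • (x - y)) - (r⁻¹)^d * g (r⁻¹ • x)‖ₑ :=
          setLIntegral_le_lintegral _ _
      _ ≤ ∫⁻ x, (closedBall (0 : Eu d) (r * 2)).indicator
          (fun _ => ENNReal.ofReal ((r⁻¹)^d * (L * (‖y‖ / r)))) x := lintegral_mono hpt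
      _ = ENNReal.ofReal ((r⁻¹)^d * (L * (‖y‖ / r))) * volume (closedBall (0 : Eu d) (r * 2)) := by
          rw [lintegral_indicator isClosed_closedBall.measurableSet, setLIntegral_const]
      _ = ENNReal.ofReal (L * (‖y‖ / r)) * volume (closedBall (0 : Eu d) 2) := by
          rw [Measure.addHaar_closedBall_mul_of_pos volume _ hr, finrank_Eu, ← mul_assoc,
            ← ENNReal.ofReal_mul]
          · congr 2
            rw [inv_pow]
            field_simp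
          · rcases hL0 with h | h
            · positivity
            · rw [h]; simp
      _ ≤ _ := le_rfl
  · rw [if_neg hy]
    push Not at hy
    have hyr : r < ‖y‖ := by rwa [lt_div_iff₀ hr, one_mul] at hy
    rw [mul_zero, ENNReal.ofReal_zero, zero_mul, nonpos_iff_eq_zero]
    refine (setLIntegral_congr_fun (measurableSet_le measurable_const measurable_norm)
      (g := fun _ => 0) ?_).trans (by simp)
    intro x hx
    simp only [mem_ofPred_eq] at hx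
    have h1 : g (r⁻¹ • x) = 0 := by
      refine hg _ ?_
      rw [norm_inv_smul hr, lt_div_iff₀ hr]; linarith
    have h2 : g (r⁻¹ • (x - y)) = 0 := by
      refine hg _ ?_
      rw [norm_inv_smul hr, lt_div_iff₀ hr]
      have := norm_sub_norm_le x y
      linarith
    simp only [h1, h2]
    simp

/-- Hormander condition, uniform in the number of scales. -/
theorem hor {g : Eu d → ℝ} (hgm : Measurable g) {L : ℝ} (hL0 : 0 ≤ L)
    (hL : ∀ a b, |g a - g b| ≤ L * ‖a - b‖)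
    (hg : ∀ a, 1 < ‖a‖ → g a = 0) {R : ℝ} (hR : 0 < R) (N : ℕ) (y : Eu d) :
    ∫⁻ x in {x | 2 * ‖y‖ ≤ ‖x‖}, ‖SS R N g (x - y) - SS R N g x‖ₑ
      ≤ ENNReal.ofReal (2 * L) * volume (closedBall (0 : Eu d) 2) := by
  calc ∫⁻ x in {x | 2 * ‖y‖ ≤ ‖x‖}, ‖SS R N g (x - y) - SS R N g x‖ₑ
      ≤ ∫⁻ x in {x | 2 * ‖y‖ ≤ ‖x‖}, ∑ k ∈ Finset.range N,
        ‖((R/2^k)⁻¹)^d * g ((R/2^k)⁻¹ • (x - y)) - ((R/2^k)⁻¹)^d * g ((R/2^k)⁻¹ • x)‖ₑ := by
        refine lintegral_mono fun x => ?_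
        unfold SS
        rw [← Finset.sum_sub_distrib]
        exact enorm_sum_le _ _
    _ = ∑ k ∈ Finset.range N, ∫⁻ x in {x | 2 * ‖y‖ ≤ ‖x‖},
        ‖((R/2^k)⁻¹)^d * g ((R/2^k)⁻¹ • (x - y)) - ((R/2^k)⁻¹)^d * g ((R/2^k)⁻¹ • x)‖ₑ := by
        refine lintegral_finsetSum _ fun k _ => ?_
        fun_prop
    _ ≤ ∑ k ∈ Finset.range N, ENNReal.ofReal (L * (if ‖y‖ / R * 2^k ≤ 1 then ‖y‖ / R * 2^k else 0))
          * volume (closedBall (0 : Eu d) 2) := by
        refine Finset.sum_le_sum fun k _ => ?_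
        have h := hor_one hL hg (r := R/2^k) (by positivity) y
        have h2 : ‖y‖ / (R/2^k) = ‖y‖ / R * 2^k := by field_simp
        rw [h2] at h
        exact h
    _ = ENNReal.ofReal (L * ∑ k ∈ Finset.range N, (if ‖y‖ / R * 2^k ≤ 1 then ‖y‖ / R * 2^k else 0))
          * volume (closedBall (0 : Eu d) 2) := by
        rw [← Finset.sum_mul, Finset.mul_sum, ENNReal.ofReal_sum_of_nonneg]
        intro k _
        refine mul_nonneg hL0 ?_
        split_ifs <;> positivity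
    _ ≤ _ := by
        have h5 := (geo (‖y‖ / R) (by positivity) N).1
        refine mul_le_mul_left (ENNReal.ofReal_le_ofReal ?_) _
        rw [mul_comm 2 L]
        exact mul_le_mul_of_nonneg_left h5 hL0

end hor

end Crest.Agent.R234.Cz2_475
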