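import Crest.Agent.R234.Cz2_475

/-!
# Calderon-Zygmund package, file 3 (helper475, row 234): the L^2 bound

`cv K g x = ∫ K (x - y) g y dy`; for a curl-free test field `P`: `∑ ∫ (cv (∂_j P_i) g)² = ∫ (cv (div P) g)²`,
hence `∫ (cv (pd (PP d a b) i j) g)² ≤ 4 ∫ g²`.
-/

set_option autoImplicit false
open MeasureTheory Set Metric Filter Topology
open scoped ENNReal NNReal ContDiff Convolution

noncomputable section

namespace Crest.Agent.R234.Cz3_475

open Crest.Agent.R234.Cz1_475 Crest.Agent.R234.Cz2_475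

variable {d : ℕ}

/-- convolution of a kernel with data `g` -/
def cv (K g : Eu d → ℝ) (x : Eu d) : ℝ := ∫ y, K (x - y) * g y

theorem cv_eq (K g : Eu d → ℝ) : cv K g = g ⋆[ContinuousLinearMap.mul ℝ ℝ, volume] K := by
  ext x
  unfold cv
  rw [convolution_def]
  refine integral_congr_ae (Eventually.of_forall fun y => ?_)
  simp [mul_comm]

/-- test kernels -/
structure TK (K : Eu d → ℝ) : Prop where
  smooth : ContDiff ℝ ∞ K
  cpt : HasCompactSupport K

theorem TK.cont {K : Eu d → ℝ} (h : TK K) : Continuous K := h.smooth.continuous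

theorem TK.integrable {K : Eu d → ℝ} (h : TK K) : Integrable K :=
  h.cont.integrable_of_hasCompactSupport h.cpt

theorem TK.bdd {K : Eu d → ℝ} (h : TK K) : ∃ M, ∀ x, |K x| ≤ M := by
  obtain ⟨C, hC⟩ := h.cont.bounded_above_of_compact_support h.cpt
  exact ⟨C, fun x => hC x⟩

theorem TK.dv {K : Eu d → ℝ} (h : TK K) (v : Eu d) : TK (fun z => fderiv ℝ K z v) := by
  refine ⟨?_, ?_⟩
  · exact ((contDiff_infty_iff_fderiv.1 h.smooth).2).clm_apply contDiff_const
  · exact h.cpt.fderiv_apply ℝ v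

theorem TK.pd {P : Eu d → Eu d} (h : ContDiff ℝ ∞ P) (hc : HasCompactSupport P) (i j : Fin d) :
    TK (pd P i j) := by
  refine ⟨pd_contDiff h i j, ?_⟩
  have h1 : HasCompactSupport (fun x => fderiv ℝ P x (bv j)) := hc.fderiv_apply ℝ _
  exact h1.comp_left (g := fun w : Eu d => w i) rfl

theorem TK.comp {P : Eu d → Eu d} (h : ContDiff ℝ ∞ P) (hc : HasCompactSupport P) (i : Fin d) :
    TK (fun x => P x i) := by
  refine ⟨(EuclideanSpace.proj i : Eu d →L[ℝ] ℝ).contDiff.comp h, ?_⟩
  exact hc.comp_left (g := fun w : Eu d => w i) rfl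

theorem TK.rho (d : ℕ) {r : ℝ} (hr : 0 < r) : TK (rho d r) := ⟨rho_contDiff d r, rho_hasCompactSupport d hr⟩

theorem cv_integrand {K g : Eu d → ℝ} (hK : TK K) (hg : Integrable g) (x : Eu d) :
    Integrable (fun y => K (x - y) * g y) := by
  obtain ⟨M, hM⟩ := hK.bdd
  refine hg.bdd_mul (c := M) ?_ ?_
  · exact (hK.cont.comp (by fun_prop)).aestronglyMeasurable
  · exact Eventually.of_forall fun y => hM _

theorem cv_integrable {K g : Eu d → ℝ} (hK : TK K) (hg : Integrable g) : Integrable (cv K g) := by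
  rw [cv_eq]
  exact hg.integrable_convolution _ hK.integrable

theorem cv_cont {K g : Eu d → ℝ} (hK : TK K) (hg : Integrable g) : Continuous (cv K g) := by
  rw [cv_eq]
  exact hK.cpt.continuous_convolution_right _ hg.locallyIntegrable hK.cont

theorem cv_bdd {K g : Eu d → ℝ} (hK : TK K) (hg : Integrable g) : ∃ M, ∀ x, |cv K g x| ≤ M := by
  obtain ⟨M, hM⟩ := hK.bdd
  refine ⟨∫ y, M * |g y|, fun x => ?_⟩
  unfold cv
  refine (abs_integral_le_integral_abs).trans ?_
  refine integral_mono (cv_integrand hK hg x).abs (hg.abs.const_mul M) fun y => ?_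
  simp only [abs_mul]
  exact mul_le_mul_of_nonneg_right (hM _) (abs_nonneg _)

theorem cv_add {K K' g : Eu d → ℝ} (hK : TK K) (hK' : TK K') (hg : Integrable g) (x : Eu d) :
    cv (fun z => K z + K' z) g x = cv K g x + cv K' g x := by
  unfold cv
  rw [← integral_add (cv_integrand hK hg x) (cv_integrand hK' hg x)]
  refine integral_congr_ae (Eventually.of_forall fun y => ?_)
  simp only; ring

theorem cv_sub {K K' g : Eu d → ℝ} (hK : TK K) (hK' : TK K') (hg : Integrable g) (x : Eu d) :
    cv (fun z => K z - K' z) g x = cv K g x - cv K' g x := by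
  unfold cv
  rw [← integral_sub (cv_integrand hK hg x) (cv_integrand hK' hg x)]
  refine integral_congr_ae (Eventually.of_forall fun y => ?_)
  simp only; ring

theorem cv_sum {ι : Type*} (s : Finset ι) {K : ι → Eu d → ℝ} {g : Eu d → ℝ} (hK : ∀ i ∈ s, TK (K i))
    (hg : Integrable g) (x : Eu d) : cv (fun z => ∑ i ∈ s, K i z) g x = ∑ i ∈ s, cv (K i) g x := by
  unfold cv
  rw [← integral_finsetSum s fun i hi => cv_integrand (hK i hi) hg x]
  refine integral_congr_ae (Eventually.of_forall fun y => ?_)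
  simp only [Finset.sum_mul]

theorem cv_fderiv {K g : Eu d → ℝ} (hK : TK K) (hg : Integrable g) (x v : Eu d) :
    fderiv ℝ (cv K g) x v = cv (fun z => fderiv ℝ K z v) g x := by
  have h1 := hK.cpt.hasFDerivAt_convolution_right (ContinuousLinearMap.mul ℝ ℝ)
    hg.locallyIntegrable (hK.smooth.of_le (by simp)) x
  rw [cv_eq, h1.fderiv, convolution_precompR_apply (ContinuousLinearMap.mul ℝ ℝ)
    hg.locallyIntegrable (hK.cpt.fderiv ℝ) (hK.smooth.continuous_fderiv (by simp)), cv_eq]

theorem cv_differentiable {K g : Eu d → ℝ} (hK : TK K) (hg : Integrable g) :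
    Differentiable ℝ (cv K g) := by
  intro x
  rw [cv_eq]
  exact (hK.cpt.hasFDerivAt_convolution_right (ContinuousLinearMap.mul ℝ ℝ)
    hg.locallyIntegrable (hK.smooth.of_le (by simp)) x).differentiableAt

theorem cv_mul_integrable {K K' g : Eu d → ℝ} (hK : TK K) (hK' : TK K') (hg : Integrable g) :
    Integrable (fun x => cv K g x * cv K' g x) := by
  obtain ⟨M, hM⟩ := cv_bdd hK hg
  exact (cv_integrable hK' hg).bdd_mul (c := M) (cv_cont hK hg).aestronglyMeasurable
    (Eventually.of_forall fun x => hM x)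

theorem bp {φ ψ g : Eu d → ℝ} (hφ : TK φ) (hψ : TK ψ) (hg : Integrable g) (v : Eu d) :
    ∫ x, cv (fun z => fderiv ℝ φ z v) g x * cv ψ g x
      = - ∫ x, cv φ g x * cv (fun z => fderiv ℝ ψ z v) g x := by
  have h1 := integral_mul_fderiv_eq_neg_fderiv_mul_of_integrable (μ := volume) (f := cv φ g)
    (g := cv ψ g) (v := v) (by simp_rw [cv_fderiv hφ hg]; exact cv_mul_integrable (hφ.dv v) hψ hg)
    (by simp_rw [cv_fderiv hψ hg]; exact cv_mul_integrable hφ (hψ.dv v) hg)
    (cv_mul_integrable hφ hψ hg) (fun x _ => cv_differentiable hφ hg x)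
    (fun x _ => cv_differentiable hψ hg x)
  simp_rw [cv_fderiv hφ hg, cv_fderiv hψ hg] at h1
  rw [h1, neg_neg]

theorem dd_symm {p : Eu d → ℝ} (hp : ContDiff ℝ ∞ p) (a b z : Eu d) :
    fderiv ℝ (fun z => fderiv ℝ p z a) z b = fderiv ℝ (fun z => fderiv ℝ p z b) z a := by
  have h1 : DifferentiableAt ℝ (fderiv ℝ p) z :=
    ((contDiff_infty_iff_fderiv.1 hp).2.differentiable (by simp)).differentiableAt
  have h2 : ∀ a b : Eu d, fderiv ℝ (fun z => fderiv ℝ p z a) z b = fderiv ℝ (fderiv ℝ p) z b a := by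
    intro a b
    rw [fderiv_clm_apply h1 (differentiableAt_const a)]
    simp
  rw [h2, h2]
  have h3 : IsSymmSndFDerivAt ℝ p z := by
    refine (hp.contDiffAt (x := z)).isSymmSndFDerivAt ?_
    rw [minSmoothness_of_isRCLikeNormedField]
    exact_mod_cast le_top
  exact h3.eq b a

theorem pd_eq {P : Eu d → Eu d} (hP : Differentiable ℝ P) (i j : Fin d) (x : Eu d) :
    pd P i j x = fderiv ℝ (fun z => P z i) x (bv j) := by
  unfold pd
  have h1 : HasFDerivAt (fun z => P z i) ((EuclideanSpace.proj i : Eu d →L[ℝ] ℝ).comp (fderiv ℝ P x)) x :=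
    (EuclideanSpace.proj i : Eu d →L[ℝ] ℝ).hasFDerivAt.comp x (hP x).hasFDerivAt
  rw [h1.fderiv]
  rfl

theorem l2_term {P : Eu d → Eu d} (hP : ContDiff ℝ ∞ P) (hc : HasCompactSupport P)
    (hs : ∀ i j z, pd P i j z = pd P j i z) {g : Eu d → ℝ} (hg : Integrable g) (i j : Fin d) :
    ∫ x, (cv (pd P i j) g x)^2 = ∫ x, cv (pd P i i) g x * cv (pd P j j) g x := by
  have hd : Differentiable ℝ P := hP.differentiable (by simp)
  have e1 : ∀ i j, pd P i j = fun z => fderiv ℝ (fun w => P w i) z (bv j) := by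
    intro i j; ext z; exact pd_eq hd i j z
  have hcomp : ∀ i, TK (fun w => P w i) := fun i => TK.comp hP hc i
  have e2 : ∀ z, fderiv ℝ (pd P j i) z (bv j) = fderiv ℝ (pd P j j) z (bv i) := by
    intro z
    rw [e1 j i, e1 j j]
    exact dd_symm (hcomp j).smooth (bv i) (bv j) z
  have s1 : pd P i j = pd P j i := by ext z; exact hs i j z
  calc ∫ x, (cv (pd P i j) g x)^2 = ∫ x, cv (fun z => fderiv ℝ (fun w => P w i) z (bv j)) g x
        * cv (pd P j i) g x := by
        refine integral_congr_ae (Eventually.of_forall fun x => ?_)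
        simp only
        rw [← e1 i j, ← s1, sq]
    _ = - ∫ x, cv (fun w => P w i) g x * cv (fun z => fderiv ℝ (pd P j i) z (bv j)) g x :=
        bp (hcomp i) (TK.pd hP hc j i) hg (bv j)
    _ = - ∫ x, cv (fun w => P w i) g x * cv (fun z => fderiv ℝ (pd P j j) z (bv i)) g x := by
        simp_rw [e2]
    _ = ∫ x, cv (fun z => fderiv ℝ (fun w => P w i) z (bv i)) g x * cv (pd P j j) g x :=
        (bp (hcomp i) (TK.pd hP hc j j) hg (bv i)).symm
    _ = _ := by rw [← e1 i i]

theorem l2_sum {P : Eu d → Eu d} (hP : ContDiff ℝ ∞ P) (hc : HasCompactSupport P)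
    (hs : ∀ i j z, pd P i j z = pd P j i z) {g : Eu d → ℝ} (hg : Integrable g) :
    ∑ i, ∑ j, ∫ x, (cv (pd P i j) g x)^2 = ∫ x, (cv (dvg P) g x)^2 := by
  have h1 : ∀ x, cv (dvg P) g x = ∑ i, cv (pd P i i) g x := by
    intro x
    exact cv_sum Finset.univ (fun i _ => TK.pd hP hc i i) hg x
  simp_rw [h1, l2_term hP hc hs hg, sq, Finset.sum_mul_sum]
  rw [integral_finsetSum]
  · refine Finset.sum_congr rfl fun i _ => ?_
    rw [integral_finsetSum]
    intro j _
    exact cv_mul_integrable (TK.pd hP hc i i) (TK.pd hP hc j j) hg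
  · intro i _
    refine integrable_finsetSum _ fun j _ => ?_
    exact cv_mul_integrable (TK.pd hP hc i i) (TK.pd hP hc j j) hg

theorem young_pt (hd : 0 < d) {r : ℝ} (hr : 0 < r) {g : Eu d → ℝ} (hg : Integrable g)
    (hg2 : Integrable (fun y => g y ^ 2)) (x : Eu d) :
    (cv (rho d r) g x)^2 ≤ cv (rho d r) (fun y => g y ^ 2) x := by
  set m := cv (rho d r) g x with hm
  have hK := TK.rho d hr
  have i1 := cv_integrand hK hg x
  have i2 := cv_integrand hK hg2 x
  have i3 : Integrable (fun y => rho d r (x - y)) := hK.integrable.comp_sub_left x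
  have h3 : ∫ y, rho d r (x - y) = 1 := by
    rw [integral_sub_left_eq_self (fun y => rho d r y) volume x]
    exact int_rho hd hr
  have h0 : 0 ≤ ∫ y, rho d r (x - y) * (g y - m)^2 :=
    integral_nonneg fun y => mul_nonneg (rho_nonneg hr _) (sq_nonneg _)
  have h1 : ∫ y, rho d r (x - y) * (g y - m)^2
      = cv (rho d r) (fun y => g y ^ 2) x - 2 * m * m + m^2 := by
    have e : ∀ y, rho d r (x - y) * (g y - m)^2 = rho d r (x - y) * g y ^ 2
        - 2 * m * (rho d r (x - y) * g y) + m^2 * rho d r (x - y) := fun y => by ring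
    simp_rw [e]
    have i4 : Integrable (fun y => rho d r (x - y) * g y ^ 2 - 2 * m * (rho d r (x - y) * g y)) :=
      i2.sub (i1.const_mul _)
    rw [integral_add i4 (i3.const_mul _), integral_sub i2 (i1.const_mul _),
      integral_const_mul, integral_const_mul, h3, mul_one]
    rfl
  nlinarith

theorem young (hd : 0 < d) {r : ℝ} (hr : 0 < r) {g : Eu d → ℝ} (hg : Integrable g)
    (hg2 : Integrable (fun y => g y ^ 2)) : ∫ x, (cv (rho d r) g x)^2 ≤ ∫ y, g y ^ 2 := by
  have hK := TK.rho d hr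
  calc ∫ x, (cv (rho d r) g x)^2 ≤ ∫ x, cv (rho d r) (fun y => g y ^ 2) x := by
        refine integral_mono ?_ (cv_integrable hK hg2) (young_pt hd hr hg hg2)
        simp_rw [sq]
        exact cv_mul_integrable hK hK hg
    _ = ∫ y, g y ^ 2 := by
        rw [cv_eq, integral_convolution _ hg2 hK.integrable, int_rho hd hr]
        simp

/-- **L^2 bound** for the kernels `pd (PP d a b) i j`, uniform in `a, b`. -/
theorem l2_bound (hd : 0 < d) {a b : ℝ} (ha : 0 < a) (hab : a ≤ b) {g : Eu d → ℝ}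
    (hg : Integrable g) (hg2 : Integrable (fun y => g y ^ 2)) (i j : Fin d) :
    ∫ x, (cv (pd (PP d a b) i j) g x)^2 ≤ 4 * ∫ y, g y ^ 2 := by
  have hb : 0 < b := ha.trans_le hab
  have hP := PP_contDiff d a b
  have hc := PP_hasCompactSupport d ha hab
  have hs : ∀ i j z, pd (PP d a b) i j z = pd (PP d a b) j i z :=
    fun i j z => pd_PP_symm ha.ne' hb.ne' i j z
  have h1 := l2_sum hP hc hs hg
  have h2 : ∫ x, (cv (pd (PP d a b) i j) g x)^2 ≤ ∑ i, ∑ j, ∫ x, (cv (pd (PP d a b) i j) g x)^2 := by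
    have n0 : ∀ i j, 0 ≤ ∫ x, (cv (pd (PP d a b) i j) g x)^2 := fun i j => integral_nonneg fun x => sq_nonneg _
    refine le_trans ?_ (Finset.single_le_sum (f := fun i => ∑ j, ∫ x, (cv (pd (PP d a b) i j) g x)^2)
      (fun i _ => Finset.sum_nonneg fun j _ => n0 i j) (Finset.mem_univ i))
    exact Finset.single_le_sum (f := fun j => ∫ x, (cv (pd (PP d a b) i j) g x)^2)
      (fun j _ => n0 i j) (Finset.mem_univ j)
  have h3 : ∀ x, cv (dvg (PP d a b)) g x = cv (rho d a) g x - cv (rho d b) g x := by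
    intro x
    rw [← cv_sub (TK.rho d ha) (TK.rho d hb) hg]
    congr 1
    ext z
    exact dvg_PP ha.ne' hb.ne' z
  have h4 : ∫ x, (cv (dvg (PP d a b)) g x)^2 ≤ 4 * ∫ y, g y ^ 2 := by
    simp_rw [h3]
    have i1 := cv_mul_integrable (TK.rho d ha) (TK.rho d ha) hg
    have i2 := cv_mul_integrable (TK.rho d hb) (TK.rho d hb) hg
    have i3 := cv_mul_integrable (TK.rho d ha) (TK.rho d hb) hg
    have j1 := young hd ha hg hg2
    have j2 := young hd hb hg hg2
    simp_rw [sq] at j1 j2 ⊢
    calc ∫ x, (cv (rho d a) g x - cv (rho d b) g x) * (cv (rho d a) g x - cv (rho d b) g x)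
        ≤ ∫ x, (2 * (cv (rho d a) g x * cv (rho d a) g x) + 2 * (cv (rho d b) g x * cv (rho d b) g x)) := by
          refine integral_mono ?_ ((i1.const_mul 2).add (i2.const_mul 2)) fun x => ?_
          · have : (fun x => (cv (rho d a) g x - cv (rho d b) g x) * (cv (rho d a) g x - cv (rho d b) g x))
                = fun x => (cv (rho d a) g x * cv (rho d a) g x) - 2 * (cv (rho d a) g x * cv (rho d b) g x)
                  + cv (rho d b) g x * cv (rho d b) g x := by ext x; ring
            rw [this]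
            exact (i1.sub (i3.const_mul 2)).add i2
          · simp only
            nlinarith [sq_nonneg (cv (rho d a) g x + cv (rho d b) g x)]
      _ = 2 * (∫ x, cv (rho d a) g x * cv (rho d a) g x) + 2 * ∫ x, cv (rho d b) g x * cv (rho d b) g x := by
          rw [integral_add (i1.const_mul 2) (i2.const_mul 2), integral_const_mul, integral_const_mul]
      _ ≤ _ := by linarith
  linarith

end Crest.Agent.R234.Cz3_475
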