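import Crest.Agent.R234.Cz1_475

/-!
# Calderon-Zygmund package, file 4 (helper475, row 234): the dyadic stopping partition of a finite measure
-/

set_option autoImplicit false
open MeasureTheory Set Metric Filter Topology
open scoped ENNReal NNReal

noncomputable section

namespace Crest.Agent.R234.Cz4_475

open Crest.Agent.R234.Cz1_475

variable {d : ℕ}

/-- dyadic index of level `n` -/
def ci (n : ℕ) (x : Eu d) : Fin d → ℤ := fun i => ⌊(2:ℝ)^n * x i⌋

/-- dyadic cube -/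
def Q (n : ℕ) (k : Fin d → ℤ) : Set (Eu d) := {x | ci n x = k}

/-- corner of the dyadic cube -/
def zc (n : ℕ) (k : Fin d → ℤ) : Eu d := WithLp.toLp 2 fun i => (k i : ℝ) / 2^n

theorem measurable_ci (n : ℕ) : Measurable (ci n : Eu d → Fin d → ℤ) := by
  refine measurable_pi_lambda _ fun i => ?_
  refine Int.measurable_floor.comp ?_
  fun_prop

theorem measurableSet_Q (n : ℕ) (k : Fin d → ℤ) : MeasurableSet (Q n k : Set (Eu d)) :=
  (measurable_ci n) (measurableSet_singleton k)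

theorem mem_Q {n : ℕ} {k : Fin d → ℤ} {x : Eu d} :
    x ∈ Q n k ↔ ∀ i, (k i : ℝ) ≤ 2^n * x i ∧ 2^n * x i < k i + 1 := by
  unfold Q ci
  rw [mem_ofPred_eq, funext_iff]
  exact forall_congr' fun i => Int.floor_eq_iff

theorem mem_Q' {n : ℕ} {k : Fin d → ℤ} {x : Eu d} :
    x ∈ Q n k ↔ ∀ i, x i ∈ Ico ((k i : ℝ) / 2^n) (((k i : ℝ) + 1) / 2^n) := by
  rw [mem_Q]
  refine forall_congr' fun i => ?_
  have h2 : (0:ℝ) < 2^n := by positivity
  rw [mem_Ico, div_le_iff₀ h2, lt_div_iff₀ h2, mul_comm (x i)]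

theorem ci_succ {n : ℕ} {x y : Eu d} (h : ci (n+1) x = ci (n+1) y) : ci n x = ci n y := by
  funext i
  have h1 : (ci (n+1) x) i = (ci (n+1) y) i := congrFun h i
  unfold ci at h1 ⊢
  simp only at h1 ⊢
  rw [Int.floor_eq_iff]
  have e1 : (2:ℝ)^(n+1) * x i = 2 * (2^n * x i) := by rw [pow_succ]; ring
  have e2 : (2:ℝ)^(n+1) * y i = 2 * (2^n * y i) := by rw [pow_succ]; ring
  rw [e1, e2] at h1
  set a := (2:ℝ)^n * x i
  set b := (2:ℝ)^n * y i
  have b1 : (⌊b⌋ : ℝ) ≤ b := Int.floor_le b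
  have b2 : b < ⌊b⌋ + 1 := Int.lt_floor_add_one b
  constructor
  · have h2 : (2 * ⌊b⌋ : ℤ) ≤ ⌊2 * b⌋ := by
      rw [Int.le_floor]; push_cast; linarith
    rw [← h1, Int.le_floor] at h2
    push_cast at h2
    linarith
  · have h2 : ⌊2 * b⌋ < (2 * ⌊b⌋ + 2 : ℤ) := by
      rw [Int.floor_lt]; push_cast; linarith
    rw [← h1, Int.floor_lt] at h2
    push_cast at h2
    linarith

theorem ci_mono {m n : ℕ} (hmn : m ≤ n) {x y : Eu d} (h : ci n x = ci n y) : ci m x = ci m y := by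
  induction n, hmn using Nat.le_induction with
  | base => exact h
  | succ n _ ih => exact ih (ci_succ h)

theorem vol_Q (n : ℕ) (k : Fin d → ℤ) :
    volume (Q n k : Set (Eu d)) = ENNReal.ofReal (((2:ℝ)^n)⁻¹ ^ d) := by
  have h1 : (Q n k : Set (Eu d)) = (WithLp.ofLp (p := 2) (V := Fin d → ℝ)) ⁻¹'
      (pi univ fun i => Ico ((k i : ℝ) / 2^n) (((k i : ℝ) + 1) / 2^n)) := by
    ext x
    rw [mem_Q', mem_preimage, mem_univ_pi]
  rw [h1, (PiLp.volume_preserving_ofLp (Fin d)).measure_preimage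
    (MeasurableSet.univ_pi fun i => measurableSet_Ico).nullMeasurableSet, Real.volume_pi_Ico]
  have h2 : ∀ i : Fin d, ENNReal.ofReal (((k i : ℝ) + 1) / 2^n - (k i : ℝ) / 2^n)
      = ENNReal.ofReal (((2:ℝ)^n)⁻¹) := by
    intro i; congr 1; ring
  simp_rw [h2]
  rw [Finset.prod_const, Finset.card_univ, Fintype.card_fin, ENNReal.ofReal_pow (by positivity)]

theorem dist_Q {n : ℕ} {k : Fin d → ℤ} {x : Eu d} (h : x ∈ Q n k) :
    ‖x - zc n k‖ ≤ Real.sqrt d * ((2:ℝ)^n)⁻¹ := by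
  rw [mem_Q'] at h
  rw [EuclideanSpace.norm_eq]
  have h1 : ∀ i, ‖(x - zc n k) i‖ ^ 2 ≤ (((2:ℝ)^n)⁻¹)^2 := by
    intro i
    have := h i
    rw [mem_Ico] at this
    rw [Real.norm_eq_abs]
    refine pow_le_pow_left₀ (abs_nonneg _) ?_ 2
    have e : (x - zc n k) i = x i - (k i : ℝ)/2^n := rfl
    rw [e, abs_le]
    have e2 : ((k i : ℝ) + 1)/2^n = (k i : ℝ)/2^n + ((2:ℝ)^n)⁻¹ := by ring
    have e3 : 0 < ((2:ℝ)^n)⁻¹ := by positivity
    constructor <;> linarith [this.1, this.2]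
  calc Real.sqrt (∑ i, ‖(x - zc n k) i‖ ^ 2) ≤ Real.sqrt (∑ _i : Fin d, (((2:ℝ)^n)⁻¹)^2) :=
        Real.sqrt_le_sqrt (Finset.sum_le_sum fun i _ => h1 i)
    _ = Real.sqrt d * ((2:ℝ)^n)⁻¹ := by
        rw [Finset.sum_const, Finset.card_univ, Fintype.card_fin, nsmul_eq_mul,
          Real.sqrt_mul (by positivity), Real.sqrt_sq (by positivity)]

section stop

variable (e : Measure (Eu d)) (lam : ℝ) (N : ℕ)

/-- heavy cube -/
def Heavy (n : ℕ) (k : Fin d → ℤ) : Prop := ENNReal.ofReal (lam * ((2:ℝ)^n)⁻¹ ^ d) < e (Q n k)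

theorem lev_ex (x : Eu d) : ∃ n, n = N ∨ Heavy e lam n (ci n x) := ⟨N, Or.inl rfl⟩

open Classical in
/-- stopping level -/
def lev (x : Eu d) : ℕ := Nat.find (lev_ex e lam N x)

/-- stopping cells -/
def Cell (a : ℕ × (Fin d → ℤ)) : Set (Eu d) := {x | lev e lam N x = a.1 ∧ ci a.1 x = a.2}

variable {e lam N}

theorem lev_congr {x y : Eu d} (h : ci (lev e lam N x) x = ci (lev e lam N x) y) :
    lev e lam N y = lev e lam N x := by
  classical
  unfold lev at h ⊢
  rw [Nat.find_eq_iff]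
  constructor
  · rcases Nat.find_spec (lev_ex e lam N x) with h1 | h1
    · exact Or.inl h1
    · right; rw [← h]; exact h1
  · intro m hm
    have h1 := Nat.find_min (lev_ex e lam N x) hm
    rwa [ci_mono hm.le h] at h1

theorem cell_eq {a : ℕ × (Fin d → ℤ)} (h : (Cell e lam N a).Nonempty) :
    Cell e lam N a = Q a.1 a.2 := by
  obtain ⟨x, hx1, hx2⟩ := h
  ext y
  constructor
  · exact fun hy => hy.2
  · intro hy
    have hy : ci a.1 y = a.2 := hy
    refine ⟨?_, hy⟩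
    rw [← hx1]
    refine lev_congr ?_
    rw [hx1, hx2, hy]

theorem cell_meas (a : ℕ × (Fin d → ℤ)) : MeasurableSet (Cell e lam N a) := by
  rcases (Cell e lam N a).eq_empty_or_nonempty with h | h
  · rw [h]; exact MeasurableSet.empty
  · rw [cell_eq h]; exact measurableSet_Q _ _

theorem cell_disj : Pairwise (Function.onFun Disjoint (Cell e lam N)) := by
  intro a b hab
  refine disjoint_left.2 fun x hx hy => hab ?_
  have h1 : a.1 = b.1 := hx.1.symm.trans hy.1
  refine Prod.ext h1 ?_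
  rw [← hx.2, ← hy.2, h1]

theorem cell_cover : ⋃ a, Cell e lam N a = univ := by
  refine eq_univ_of_forall fun x => ?_
  exact mem_iUnion.2 ⟨(lev e lam N x, ci (lev e lam N x) x), rfl, rfl⟩

theorem cell_ball (a : ℕ × (Fin d → ℤ)) :
    Cell e lam N a ⊆ closedBall (zc a.1 a.2) (Real.sqrt d * ((2:ℝ)^a.1)⁻¹) := by
  intro x hx
  rw [mem_closedBall_iff_norm]
  exact dist_Q hx.2

theorem cell_vol_le (a : ℕ × (Fin d → ℤ)) :
    volume (Cell e lam N a) ≤ ENNReal.ofReal (((2:ℝ)^a.1)⁻¹ ^ d) := by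
  rw [← vol_Q a.1 a.2]
  exact measure_mono fun x hx => hx.2

theorem cell_vol {a : ℕ × (Fin d → ℤ)} (h : (Cell e lam N a).Nonempty) :
    volume (Cell e lam N a) = ENNReal.ofReal (((2:ℝ)^a.1)⁻¹ ^ d) := by
  rw [← vol_Q a.1 a.2, cell_eq h]

theorem cell_upper (hlam : 0 ≤ lam) (he : e univ ≤ ENNReal.ofReal lam) (a : ℕ × (Fin d → ℤ)) :
    e (Cell e lam N a) ≤ ENNReal.ofReal (2^d * lam) * volume (Cell e lam N a) := by
  rcases (Cell e lam N a).eq_empty_or_nonempty with h | h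
  · rw [h]; simp
  · rw [cell_vol h, ← ENNReal.ofReal_mul (by positivity)]
    obtain ⟨x, hx1, hx2⟩ := id h
    rcases Nat.eq_zero_or_pos a.1 with h0 | h0
    · refine (measure_mono (subset_univ _)).trans (he.trans (ENNReal.ofReal_le_ofReal ?_))
      rw [h0]
      have : (1:ℝ) ≤ 2^d := one_le_pow₀ (by norm_num)
      simp only [pow_zero, inv_one, one_pow, mul_one]
      nlinarith
    · obtain ⟨m, hm⟩ : ∃ m, a.1 = m + 1 := ⟨a.1 - 1, by omega⟩
      classical
      have h1 : ¬ (m = N ∨ Heavy e lam m (ci m x)) := by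
        refine Nat.find_min (lev_ex e lam N x) ?_
        have : lev e lam N x = m + 1 := by rw [hx1, hm]
        unfold lev at this
        omega
      push Not at h1
      have h2 := h1.2
      unfold Heavy at h2
      rw [not_lt] at h2
      have h3 : Cell e lam N a ⊆ Q m (ci m x) := by
        intro y hy
        have hy2 : ci a.1 y = a.2 := hy.2
        have : ci a.1 y = ci a.1 x := by rw [hy2, hx2]
        exact ci_mono (by omega) this
      refine (measure_mono h3).trans (h2.trans (le_of_eq ?_))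
      congr 1
      rw [hm, pow_succ, mul_inv, mul_pow]
      have : ((2:ℝ)⁻¹)^d * 2^d = 1 := by rw [← mul_pow]; norm_num
      linear_combination (-lam * (((2:ℝ)^m)⁻¹)^d) * this

/-- stopped (bad) cells -/
def Bad (e : Measure (Eu d)) (lam : ℝ) (N : ℕ) : Set (ℕ × (Fin d → ℤ)) :=
  {a | (Cell e lam N a).Nonempty ∧ Heavy e lam a.1 a.2}

theorem bad_lower (hlam : 0 ≤ lam) {a : ℕ × (Fin d → ℤ)} (ha : a ∈ Bad e lam N) :
    ENNReal.ofReal lam * volume (Cell e lam N a) ≤ e (Cell e lam N a) := by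
  rw [cell_vol ha.1, ← ENNReal.ofReal_mul hlam, cell_eq ha.1]
  exact ha.2.le

theorem not_bad {a : ℕ × (Fin d → ℤ)} (ha : a ∉ Bad e lam N) (h : (Cell e lam N a).Nonempty) :
    a.1 = N := by
  classical
  obtain ⟨x, hx1, hx2⟩ := id h
  have h1 : lev e lam N x = N ∨ Heavy e lam (lev e lam N x) (ci (lev e lam N x) x) :=
    Nat.find_spec (lev_ex e lam N x)
  rcases h1 with h1 | h1
  · rw [← hx1, h1]
  · exfalso
    refine ha ⟨h, ?_⟩
    rw [hx1, hx2] at h1
    exact h1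

end stop

end Crest.Agent.R234.Cz4_475
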