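import Mathlib

/-!
# Row 234, VF-F11 (helper534): doubling and frequency bounds, the real-variable part

Node (F11) of the F-list #6174 (and the last line of (F10)).  `l = log s`.

* `pt_ineq`, `I_le_of_freq` : if `2E ≤ N₀ I` on a window `[a, c]` then `I c ≤ 2 N₀ exp (B (c - a)) I a`.
* `nonjump` : a radius `l₁` in a window with `E ≤ 4 E(l₁)` on `[l₁, l₁ + ρ]`.
* `freq_le` : one doubling at the top of the window bounds the frequency on the whole window below.
-/

set_option autoImplicit false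

open Set Real

namespace Crest.Agent.R234.Dbl_534

/-! ### (A) doubling from a frequency bound -/

/-- the constant of the doubling estimate. -/
noncomputable def BB (N0 : ℝ) : ℝ := 8 + 4 * N0 + 2 * (3 / 2 + 2 * N0) ^ 2

theorem BB_pos {N0 : ℝ} (h : 0 ≤ N0) : 0 < BB N0 := by
  unfold BB; positivity

/-- pointwise inequality: `(log E)' ≥ 2 (log I)' - B`. -/
theorem pt_ineq {E I e b R dE dI ep tau N0 : ℝ} (hI : 0 < I) (htau1 : tau ≤ 1)
    (low : I ≤ 4 * E) (up : 2 * E ≤ N0 * I)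
    (h1 : 2 * b + R - tau * (E + |b| + I) ≤ dE) (h2 : dI ≤ 2 * e + tau * I)
    (h3 : e = 2 * E - 2 * b) (h4 : (e + ep) ^ 2 ≤ I * R) (h5 : |ep| ≤ tau * I) :
    2 * (dI * E) ≤ dE * I + BB N0 * (E * I) := by
  have hE : 0 < E := by linarith
  have hb : b = E - e / 2 := by linarith
  have hN0 : 0 < N0 := by
    by_contra h
    have : N0 * I ≤ 0 := mul_nonpos_of_nonpos_of_nonneg (not_lt.1 h) hI.le
    linarith
  -- bounds
  have habsb : |b| ≤ E + |e| / 2 := by
    rw [hb]
    calc |E - e / 2| ≤ |E| + |e / 2| := abs_sub _ _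
      _ = E + |e| / 2 := by rw [abs_of_pos hE, abs_div, abs_of_pos (by norm_num : (0:ℝ) < 2)]
  have hep : ep ^ 2 ≤ I ^ 2 := by
    have : |ep| ≤ I := h5.trans (by nlinarith)
    rw [← sq_abs ep]
    exact pow_le_pow_left₀ (abs_nonneg _) this 2
  have hIR : e ^ 2 / 2 - I ^ 2 ≤ I * R := by nlinarith [sq_nonneg (e + 2 * ep)]
  have ht1 : tau * (E + |b| + I) ≤ 2 * E + |e| / 2 + I := by
    have h0 : 0 ≤ E + |b| + I := by positivity
    calc tau * (E + |b| + I) ≤ 1 * (E + |b| + I) := by gcongr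
      _ ≤ 2 * E + |e| / 2 + I := by linarith
  -- `dE * I`
  have hdE : (2 * b + R - (2 * E + |e| / 2 + I)) * I ≤ dE * I := by
    apply mul_le_mul_of_nonneg_right _ hI.le
    linarith
  have hdI : dI * E ≤ (2 * |e| + I) * E := by
    apply mul_le_mul_of_nonneg_right _ hE.le
    have : tau * I ≤ I := by nlinarith
    have h' := le_abs_self e
    linarith
  have he2 : e ^ 2 = |e| ^ 2 := (sq_abs e).symm
  have hee : -|e| ≤ -e := by have := le_abs_self e; linarith
  set x := |e| with hx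
  have hx0 : 0 ≤ x := abs_nonneg e
  -- reduce to: quadratic inequality
  have key : 2 * ((2 * x + I) * E) ≤ (2 * b - 2 * E - x / 2 - I) * I + (x ^ 2 / 2 - I ^ 2)
      + BB N0 * (E * I) := by
    have hb' : 2 * b - 2 * E = - e := by rw [hb]; ring
    rw [hb']
    have h6 : (-e - x / 2 - I) * I ≥ (-x - x / 2 - I) * I := by
      apply mul_le_mul_of_nonneg_right _ hI.le
      linarith
    have h7 : BB N0 * (E * I) ≥ BB N0 * (I * I / 4) := by
      have := BB_pos hN0.le
      apply mul_le_mul_of_nonneg_left _ this.le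
      nlinarith
    have h8 : 4 * x * E ≤ 2 * x * (N0 * I) := by nlinarith
    have h9 : 2 * I * E ≤ I * (N0 * I) := by nlinarith
    unfold BB at h7 ⊢
    nlinarith [sq_nonneg (x - (3 / 2 + 2 * N0) * I)]
  nlinarith

/-- **doubling from a frequency bound**. -/
theorem I_le_of_freq {E I e b R dE dI ep tau : ℝ → ℝ} {a c N0 : ℝ} (hac : a ≤ c)
    (hE : ∀ l ∈ Icc a c, HasDerivAt E (dE l) l) (hI : ∀ l ∈ Icc a c, HasDerivAt I (dI l) l)
    (pos : ∀ l ∈ Icc a c, 0 < I l) (htau1 : ∀ l ∈ Icc a c, tau l ≤ 1)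
    (low : ∀ l ∈ Icc a c, I l ≤ 4 * E l) (up : ∀ l ∈ Icc a c, 2 * E l ≤ N0 * I l)
    (h1 : ∀ l ∈ Icc a c, 2 * b l + R l - tau l * (E l + |b l| + I l) ≤ dE l)
    (h2 : ∀ l ∈ Icc a c, dI l ≤ 2 * e l + tau l * I l)
    (h3 : ∀ l ∈ Icc a c, e l = 2 * E l - 2 * b l)
    (h4 : ∀ l ∈ Icc a c, (e l + ep l) ^ 2 ≤ I l * R l)
    (h5 : ∀ l ∈ Icc a c, |ep l| ≤ tau l * I l) :
    I c ≤ 2 * N0 * exp (BB N0 * (c - a)) * I a := by
  have ha : a ∈ Icc a c := left_mem_Icc.2 hac
  have hc : c ∈ Icc a c := right_mem_Icc.2 hac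
  have posE : ∀ l ∈ Icc a c, 0 < E l := fun l hl => by linarith [pos l hl, low l hl]
  have hmono : MonotoneOn (fun l => log (E l) - 2 * log (I l) + BB N0 * l) (Icc a c) := by
    apply monotoneOn_of_deriv_nonneg (convex_Icc a c)
    · intro l hl
      have hd : HasDerivAt (fun l => log (E l) - 2 * log (I l) + BB N0 * l)
          (dE l / E l - 2 * (dI l / I l) + BB N0 * 1) l :=
        (((hE l hl).log (posE l hl).ne').sub
          (((hI l hl).log (pos l hl).ne').const_mul 2)).add ((hasDerivAt_id l).const_mul _)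
      exact hd.continuousAt.continuousWithinAt
    · intro l hl
      have hl' := interior_subset hl
      have hd : HasDerivAt (fun l => log (E l) - 2 * log (I l) + BB N0 * l)
          (dE l / E l - 2 * (dI l / I l) + BB N0 * 1) l :=
        (((hE l hl').log (posE l hl').ne').sub
          (((hI l hl').log (pos l hl').ne').const_mul 2)).add ((hasDerivAt_id l).const_mul _)
      exact hd.differentiableAt.differentiableWithinAt
    · intro l hl
      have hl' := interior_subset hl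
      have hd : HasDerivAt (fun l => log (E l) - 2 * log (I l) + BB N0 * l)
          (dE l / E l - 2 * (dI l / I l) + BB N0 * 1) l :=
        (((hE l hl').log (posE l hl').ne').sub
          (((hI l hl').log (pos l hl').ne').const_mul 2)).add ((hasDerivAt_id l).const_mul _)
      rw [hd.deriv]
      have hp := pt_ineq (pos l hl') (htau1 l hl') (low l hl') (up l hl') (h1 l hl')
        (h2 l hl') (h3 l hl') (h4 l hl') (h5 l hl')
      have hE0 := posE l hl'
      have hI0 := pos l hl'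
      have : dE l / E l - 2 * (dI l / I l) + BB N0 * 1 =
          (dE l * I l + BB N0 * (E l * I l) - 2 * (dI l * E l)) / (E l * I l) := by
        field_simp
        ring
      rw [this]
      apply div_nonneg _ (mul_pos hE0 hI0).le
      linarith
  have h := hmono ha hc hac
  simp only at h
  have hN0 : 0 < N0 := by
    by_contra h'
    have h6 : N0 * I a ≤ 0 := mul_nonpos_of_nonpos_of_nonneg (not_lt.1 h') (pos a ha).le
    linarith [up a ha, posE a ha]
  -- log E(c) ≤ log (N0/2) + log I(c); log E(a) ≥ log I(a) - log 4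
  have u : log (E c) ≤ log (N0 / 2) + log (I c) := by
    rw [← log_mul (by positivity) (pos c hc).ne']
    exact log_le_log (posE c hc) (by linarith [up c hc])
  have v : log (I a) ≤ log 4 + log (E a) := by
    rw [← log_mul (by norm_num) (posE a ha).ne']
    exact log_le_log (pos a ha) (low a ha)
  have w : log (I c) ≤ log (2 * N0) + BB N0 * (c - a) + log (I a) := by
    have h7 : log (2 * N0) = log (N0 / 2) + log 4 := by
      rw [← log_mul (by positivity) (by norm_num)]; congr 1; ring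
    rw [h7]; nlinarith
  have hIc := pos c hc
  have hIa := pos a ha
  calc I c = exp (log (I c)) := (exp_log hIc).symm
    _ ≤ exp (log (2 * N0) + BB N0 * (c - a) + log (I a)) := exp_le_exp.2 w
    _ = 2 * N0 * exp (BB N0 * (c - a)) * I a := by
      rw [exp_add, exp_add, exp_log (by positivity), exp_log hIa]

/-! ### (B) non-jump radii -/

/-- a non-jump radius in a window. -/
theorem nonjump {E : ℝ → ℝ} {t0 t1 rho C q : ℝ} {J : ℕ} (hrho : 0 < rho)
    (hlen : t0 + (J + 1) * rho ≤ t1) (hJ : C < 4 ^ J * q) (hq : q ≤ E t0)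
    (top : ∀ l ∈ Icc t0 t1, E l ≤ C) :
    ∃ l1 ∈ Icc t0 (t1 - rho), ∀ l ∈ Icc l1 (l1 + rho), E l ≤ 4 * E l1 := by
  by_contra hcon
  push Not at hcon
  have step : ∀ j : ℕ, j ≤ J → ∃ l, l ∈ Icc t0 (t0 + j * rho) ∧ 4 ^ j * q ≤ E l := by
    intro j
    induction j with
    | zero =>
      intro _
      exact ⟨t0, by simp, by simpa using hq⟩
    | succ j ih =>
      intro hj
      obtain ⟨l, hl, hEl⟩ := ih (by omega)
      have hjJ : (j : ℝ) + 1 ≤ J := by exact_mod_cast hj
      have h1 : l ∈ Icc t0 (t1 - rho) := by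
        refine ⟨hl.1, hl.2.trans ?_⟩
        nlinarith
      obtain ⟨l', hl', hE'⟩ := hcon l h1
      refine ⟨l', ⟨hl.1.trans hl'.1, ?_⟩, ?_⟩
      · push_cast
        linarith [hl'.2, hl.2]
      · have : (4 : ℝ) ^ (j + 1) * q = 4 * (4 ^ j * q) := by ring
        rw [this]
        linarith
  obtain ⟨l, hl, hEl⟩ := step J le_rfl
  have : E l ≤ C := top l ⟨hl.1, hl.2.trans (by nlinarith)⟩
  linarith

/-! ### (C) one doubling at the top bounds the frequency below -/

/-- **(F11), real-variable core**: `[lo, t0]` the window of scales, `[t0, t1]` the top window where the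
doubling of `I` (in the form `E ≤ C₁ I(t0)`) is known. `rv` is the frequency lemma (F5). -/
theorem freq_le {E I : ℝ → ℝ} {lo t0 t1 rho C1 : ℝ} {J : ℕ} (h0 : lo ≤ t0) (hrho : 0 < rho)
    (hlen : t0 + (J + 1) * rho ≤ t1) (hJ : 4 * C1 < 4 ^ J)
    (hE : ContinuousOn E (Icc lo t0)) (hI : ContinuousOn I (Icc lo t0))
    (pos : ∀ l ∈ Icc lo t1, 0 < I l) (low : ∀ l ∈ Icc lo t1, I l ≤ 4 * E l)
    (top : ∀ l ∈ Icc t0 t1, E l ≤ C1 * I t0)
    (mono : ∀ l ∈ Icc t0 t1, I t0 ≤ 2 * I l)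
    (rv : ∀ l0 ∈ Icc lo t0, ∀ l1 ∈ Icc t0 (t1 - rho), 2 * E l0 ≤ (8 * C1 + 1) * I l0 →
      (∀ l ∈ Icc l1 (l1 + rho), E l ≤ 4 * E l1) → E l0 * I l1 ≤ 2 * (E l1 * I l0)) :
    ∀ l ∈ Icc lo t0, 2 * E l ≤ 8 * C1 * I l := by
  have ht : t0 ≤ t1 - rho := by nlinarith [(Nat.cast_nonneg J : (0 : ℝ) ≤ J)]
  have ht0 : t0 ∈ Icc lo t1 := ⟨h0, by linarith⟩
  have hI0 := pos t0 ht0
  have hC1 : 0 < C1 := by
    have h1 := top t0 ⟨le_rfl, by linarith⟩
    have h2 := low t0 ht0
    by_contra h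
    have : C1 * I t0 ≤ 0 := mul_nonpos_of_nonpos_of_nonneg (not_lt.1 h) hI0.le
    linarith
  obtain ⟨l1, hl1, hnj⟩ := nonjump (E := E) (t0 := t0) (t1 := t1) (rho := rho) (C := C1 * I t0)
    (q := I t0 / 4) (J := J) hrho hlen (by nlinarith) (by linarith [low t0 ht0]) top
  have hl1' : l1 ∈ Icc t0 t1 := ⟨hl1.1, by linarith [hl1.2]⟩
  have hl1'' : l1 ∈ Icc lo t1 := ⟨h0.trans hl1.1, hl1'.2⟩
  -- gap
  have gap : ∀ l ∈ Icc lo t0, 2 * E l ≤ (8 * C1 + 1) * I l → 2 * E l ≤ 8 * C1 * I l := by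
    intro l hl hN
    have hlt : l ∈ Icc lo t1 := ⟨hl.1, hl.2.trans (by linarith)⟩
    have h1 := rv l hl l1 hl1 hN hnj
    have h2 := top l1 hl1'
    have h3 := mono l1 hl1'
    have hI1 := pos l1 hl1''
    have hIl := pos l hlt
    -- E l * I l1 ≤ 2 E l1 I l ≤ 2 C1 I t0 I l ≤ 4 C1 I l1 I l
    have h4 : E l * I l1 ≤ 4 * C1 * I l * I l1 := by
      calc E l * I l1 ≤ 2 * (E l1 * I l) := h1
        _ ≤ 2 * ((C1 * I t0) * I l) := by gcongr
        _ ≤ 2 * ((C1 * (2 * I l1)) * I l) := by gcongr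
        _ = 4 * C1 * I l * I l1 := by ring
    have h5 : E l ≤ 4 * C1 * I l := le_of_mul_le_mul_right h4 hI1
    linarith
  -- connectedness
  intro l hl
  by_contra hcon
  have hcon' : 8 * C1 * I l < 2 * E l := not_lt.1 (fun h => hcon h.le) |>.lt_of_ne
    (fun h => hcon h.symm.le)
  -- the function N = 2E/I
  have hcN : ContinuousOn (fun x => 2 * E x / I x) (Icc l t0) := by
    apply ContinuousOn.div
    · exact (continuousOn_const.mul hE).mono (Icc_subset_Icc_left hl.1)
    · exact hI.mono (Icc_subset_Icc_left hl.1)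
    · intro x hx
      exact (pos x ⟨hl.1.trans hx.1, hx.2.trans (by linarith)⟩).ne'
  have hNt : 2 * E t0 / I t0 ≤ 8 * C1 + 1 / 2 := by
    rw [div_le_iff₀ hI0]
    have := top t0 ⟨le_rfl, by linarith⟩
    nlinarith
  have hIl := pos l ⟨hl.1, hl.2.trans (by linarith)⟩
  have hNl : 8 * C1 + 1 < 2 * E l / I l := by
    rw [lt_div_iff₀ hIl]
    by_contra h
    exact hcon (gap l hl (not_lt.1 h))
  have hmem : (8 * C1 + 3 / 4 : ℝ) ∈ (fun x => 2 * E x / I x) '' Icc l t0 := by
    have := intermediate_value_Icc' hl.2 hcN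
    exact this ⟨by show 2 * E t0 / I t0 ≤ _; linarith, by show _ ≤ 2 * E l / I l; linarith⟩
  obtain ⟨x, hx, hxe⟩ := hmem
  have hx' : x ∈ Icc lo t0 := ⟨hl.1.trans hx.1, hx.2⟩
  have hIx := pos x ⟨hx'.1, hx'.2.trans (by linarith)⟩
  simp only at hxe
  have hxe' : 2 * E x = (8 * C1 + 3 / 4) * I x := by
    rw [div_eq_iff hIx.ne'] at hxe
    exact hxe
  have h1 := gap x hx' (by rw [hxe']; nlinarith)
  nlinarith

end Crest.Agent.R234.Dbl_534
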