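import Mathlib

/-!
Row 234, VF-DBL (helper634): the doubling COUNT at a contact centre.

* `count_abs`   : purely combinatorial (downward induction) counting lemma;
* `count_seq`   : sequence version;
* `Dat`         : the continuous data of #5326 (`E' = 2b + R + err`, `e = 2E - 2b`, `U' = R`);
* `count_int`   : number of `k ≤ n` with `e (a + k + J) > 36 A E (a + k)` is `≤ (J+1) log (D1/D0)`;
* `volume_bad`  : the same for the Lebesgue measure of the bad scales;
* consequences at a good scale (`good_e`, `good_b`, `good_le`, `good_neg`).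
-/

set_option autoImplicit false

open MeasureTheory Set
open scoped ENNReal

noncomputable section

namespace Crest.Agent.R234.Dbl_634

/-- combinatorial core. -/
theorem count_abs {J n : ℕ} (hJ : 1 ≤ J) {L : ℝ} (q x : ℕ → ℝ) (bad : ℕ → Prop)
    [DecidablePred bad]
    (hq : ∀ k, k < n + J + 1 → q k ≤ q (k + 1))
    (hqL : ∀ k, k ≤ n + J + 1 → q k ≤ L)
    (hxL : ∀ k, k ≤ n + 2 → bad k → x k ≤ L)
    (hb1 : ∀ k, k ≤ n → bad k → q k + 1 ≤ x k)
    (hb2 : ∀ k, k ≤ n → bad k → x k ≤ q (k + J + 1) ∨ (bad (k + 2) ∧ x k + 1 ≤ x (k + 2))) :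
    (((Finset.range (n + 1)).filter bad).card : ℝ) ≤ (J + 1) * (L - q 0) := by
  classical
  set N : ℕ → ℝ := fun k => (((Finset.Ico k (n + 1)).filter bad).card : ℝ) with hN
  have hN0 : ∀ k, n + 1 ≤ k → N k = 0 := by
    intro k hk
    simp [hN, Finset.Ico_eq_empty_of_le hk]
  have hNadd : ∀ k j : ℕ, N k ≤ j + N (k + j) := by
    intro k j
    have h1 : (Finset.Ico k (n + 1)).filter bad ⊆
        Finset.Ico k (k + j) ∪ (Finset.Ico (k + j) (n + 1)).filter bad := by
      intro i hi
      simp only [Finset.mem_filter, Finset.mem_Ico, Finset.mem_union] at hi ⊢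
      by_cases h : i < k + j
      · exact Or.inl ⟨hi.1.1, h⟩
      · exact Or.inr ⟨⟨not_lt.1 h, hi.1.2⟩, hi.2⟩
    have h2 := (Finset.card_le_card h1).trans (Finset.card_union_le _ _)
    have h3 : (Finset.Ico k (k + j)).card = j := by simp
    rw [h3] at h2
    simp only [hN]
    exact_mod_cast h2
  have hNbad : ∀ k, ¬ bad k → N k ≤ N (k + 1) := by
    intro k hk
    have h1 : (Finset.Ico k (n + 1)).filter bad ⊆ (Finset.Ico (k + 1) (n + 1)).filter bad := by
      intro i hi
      simp only [Finset.mem_filter, Finset.mem_Ico] at hi ⊢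
      refine ⟨⟨?_, hi.1.2⟩, hi.2⟩
      rcases eq_or_lt_of_le hi.1.1 with h | h
      · exact absurd (h ▸ hi.2) hk
      · exact h
    simp only [hN]
    exact_mod_cast Finset.card_le_card h1
  have hJ0 : (0 : ℝ) < (J : ℝ) + 1 := by positivity
  have hJ2 : (2 : ℝ) ≤ (J : ℝ) + 1 := by
    have : (1 : ℝ) ≤ J := by exact_mod_cast hJ
    linarith
  -- downward induction
  have key : ∀ d k : ℕ, n + 1 ≤ k + d →
      ((k ≤ n + J + 1 → N k ≤ (J + 1) * (L - q k)) ∧
        (k ≤ n + 2 → bad k → N k ≤ (J + 1) * (L - x k) + (J + 1))) := by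
    intro d
    induction d using Nat.strong_induction_on with
    | _ d ih =>
      intro k hk
      by_cases hkn : n + 1 ≤ k
      · constructor
        · intro h
          rw [hN0 k hkn]
          exact mul_nonneg hJ0.le (by linarith [hqL k h])
        · intro h hb
          rw [hN0 k hkn]
          have := mul_nonneg hJ0.le (sub_nonneg.2 (hxL k h hb))
          linarith
      · have hkn' : k ≤ n := by omega
        have hB : bad k → N k ≤ (J + 1) * (L - x k) + (J + 1) := by
          intro hbk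
          rcases hb2 k hkn' hbk with h | ⟨h, h'⟩
          · have h1 := (ih (d - (J + 1)) (by omega) (k + (J + 1)) (by omega)).1 (by omega)
            have h2 := hNadd k (J + 1)
            push_cast at h2
            have h3 : (J + 1 : ℝ) * (L - q (k + (J + 1))) ≤ (J + 1) * (L - x k) :=
              mul_le_mul_of_nonneg_left (by
                have : q (k + J + 1) = q (k + (J + 1)) := by rw [add_assoc]
                linarith) hJ0.le
            linarith
          · have h1 := (ih (d - 2) (by omega) (k + 2) (by omega)).2 (by omega) h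
            have h2 := hNadd k 2
            push_cast at h2
            have h3 : (J + 1 : ℝ) * (L - x (k + 2)) ≤ (J + 1) * (L - x k - 1) :=
              mul_le_mul_of_nonneg_left (by linarith) hJ0.le
            nlinarith
        constructor
        · intro _
          by_cases hbk : bad k
          · have h1 := hB hbk
            have h2 : (J + 1 : ℝ) * (L - x k) ≤ (J + 1) * (L - q k - 1) :=
              mul_le_mul_of_nonneg_left (by linarith [hb1 k hkn' hbk]) hJ0.le
            nlinarith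
          · have h1 := hNbad k hbk
            have h2 := (ih (d - 1) (by omega) (k + 1) (by omega)).1 (by omega)
            have h3 : (J + 1 : ℝ) * (L - q (k + 1)) ≤ (J + 1) * (L - q k) :=
              mul_le_mul_of_nonneg_left (by linarith [hq k (by omega)]) hJ0.le
            linarith
        · intro _ h
          exact hB h
  have := (key (n + 1) 0 (by omega)).1 (by omega)
  rw [Finset.range_eq_Ico]
  exact this

/-- sequence version. -/
theorem count_seq {A G D1 : ℝ} {J n : ℕ} (hJ : 3 ≤ J) (hA : 1 ≤ A) (hG : 0 ≤ G)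
    (hGs : 144 * A ^ (J - 1) * G < 1)
    (E e U : ℕ → ℝ)
    (hU0 : ∀ k, k ≤ n + J + 1 → 0 < U k)
    (hU : ∀ k, k < n + J + 1 → U k ≤ U (k + 1))
    (hU1 : ∀ k, k ≤ n + J + 1 → U k ≤ D1)
    (he1 : ∀ k, k ≤ n + J + 2 → e k ≤ D1)
    (hUE : ∀ k, k ≤ n + 2 → U k ≤ 2 * E k)
    (he : ∀ k, k < n + J + 2 → e k ≤ A * e (k + 1))
    (hEe : ∀ k, k ≤ n + 2 → E k ≤ A * e (k + 1))
    (hmain : ∀ k, k ≤ n → e (k + J) ≤ 3 * A * E k + G * e (k + J + 2) +
      3 * A * (U (k + J + 1) - U k)) :
    (((Finset.range (n + 1)).filter fun k => 36 * A * E k < e (k + J)).card : ℝ) ≤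
      (J + 1) * (Real.log D1 - Real.log (U 0)) := by
  have hA0 : 0 < A := by linarith
  have hexp : Real.exp 1 ≤ 3 := by linarith [Real.exp_one_lt_d9]
  have hlog3 : ∀ {a b : ℝ}, 0 < a → 3 * a ≤ b → Real.log a + 1 ≤ Real.log b := by
    intro a b ha hab
    have h1 : Real.log (Real.exp 1 * a) ≤ Real.log b := by
      apply Real.log_le_log (by positivity)
      nlinarith
    rw [Real.log_mul (Real.exp_pos 1).ne' ha.ne', Real.log_exp] at h1
    linarith
  refine count_abs (L := Real.log D1) (by omega) (fun k => Real.log (U k))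
    (fun k => Real.log (e (k + J) / (6 * A))) (fun k => 36 * A * E k < e (k + J)) ?_ ?_ ?_ ?_ ?_
  · intro k hk
    exact Real.log_le_log (hU0 k (by omega)) (hU k hk)
  · intro k hk
    exact Real.log_le_log (hU0 k hk) (hU1 k hk)
  · intro k hk hb
    have hD : 0 < D1 := (hU0 0 (by omega)).trans_le (hU1 0 (by omega))
    have h1 : e (k + J) ≤ D1 := he1 _ (by omega)
    have hpos : 0 < e (k + J) := by
      have h2 := hU0 k (by omega)
      have h3 := hUE k hk
      have h4 : 0 < 36 * A * E k := by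
        have : 0 < E k := by linarith
        positivity
      linarith
    apply Real.log_le_log (by positivity)
    rw [div_le_iff₀ (by positivity)]
    nlinarith
  · intro k hk hb
    have h2 := hU0 k (by omega)
    have h3 := hUE k (by omega)
    apply hlog3 h2
    rw [le_div_iff₀ (by positivity)]
    nlinarith
  · intro k hk hb
    have h2 := hU0 k (by omega)
    have h3 := hUE k (by omega)
    have hE : 0 < E k := by linarith
    have hpos : 0 < e (k + J) := by
      have h4 : 0 < 36 * A * E k := by positivity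
      linarith
    have hm := hmain k hk
    by_cases hc : e (k + J) ≤ 4 * G * e (k + J + 2)
    · right
      have hJp : e (k + 3) ≤ A ^ (J - 3) * e (k + J) := by
        have : ∀ i, i ≤ J - 3 → e (k + 3) ≤ A ^ i * e (k + 3 + i) := by
          intro i
          induction i with
          | zero => intro _; simp
          | succ i ih =>
            intro hi
            have h5 := ih (by omega)
            have h6 := he (k + 3 + i) (by omega)
            calc e (k + 3) ≤ A ^ i * e (k + 3 + i) := h5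
              _ ≤ A ^ i * (A * e (k + 3 + i + 1)) := mul_le_mul_of_nonneg_left h6 (by positivity)
              _ = A ^ (i + 1) * e (k + 3 + (i + 1)) := by rw [pow_succ, add_assoc, mul_assoc]
        have h7 := this (J - 3) le_rfl
        rwa [show k + 3 + (J - 3) = k + J by omega] at h7
      have hE2 : E (k + 2) ≤ A ^ (J - 2) * e (k + J) := by
        have h5 := hEe (k + 2) (by omega)
        calc E (k + 2) ≤ A * e (k + 2 + 1) := h5
          _ ≤ A * (A ^ (J - 3) * e (k + J)) := mul_le_mul_of_nonneg_left hJp hA0.le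
          _ = A ^ (J - 2) * e (k + J) := by
            rw [show J - 2 = (J - 3) + 1 by omega, pow_succ]; ring
      have hpos2 : 0 < e (k + J + 2) := by
        by_contra hcon
        have : 4 * G * e (k + J + 2) ≤ 0 := mul_nonpos_of_nonneg_of_nonpos (by positivity)
          (not_lt.1 hcon)
        linarith
      have hAJ : A ^ (J - 1) = A ^ (J - 2) * A := by
        rw [show J - 1 = (J - 2) + 1 by omega, pow_succ]
      have hG1 : 144 * G ≤ 1 := by
        have h8 : 1 ≤ A ^ (J - 1) := one_le_pow₀ hA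
        nlinarith
      constructor
      · show 36 * A * E (k + 2) < e (k + 2 + J)
        rw [show k + 2 + J = k + J + 2 by omega]
        have h9 : 36 * A * E (k + 2) ≤ 36 * A * (A ^ (J - 2) * (4 * G * e (k + J + 2))) := by
          refine mul_le_mul_of_nonneg_left ?_ (by positivity)
          exact hE2.trans (mul_le_mul_of_nonneg_left hc (by positivity))
        have h10 : 36 * A * (A ^ (J - 2) * (4 * G * e (k + J + 2))) =
            (144 * A ^ (J - 1) * G) * e (k + J + 2) := by rw [hAJ]; ring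
        have h11 : (144 * A ^ (J - 1) * G) * e (k + J + 2) < 1 * e (k + J + 2) :=
          mul_lt_mul_of_pos_right hGs hpos2
        linarith
      · show Real.log (e (k + J) / (6 * A)) + 1 ≤ Real.log (e (k + 2 + J) / (6 * A))
        rw [show k + 2 + J = k + J + 2 by omega]
        apply hlog3 (by positivity)
        rw [← mul_div_assoc]
        apply div_le_div_of_nonneg_right _ (by positivity)
        nlinarith
    · left
      push Not at hc
      show Real.log (e (k + J) / (6 * A)) ≤ Real.log (U (k + J + 1))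
      apply Real.log_le_log (by positivity)
      rw [div_le_iff₀ (by positivity)]
      nlinarith

/-- the data of #5326 at one contact centre, on the window `[α, β]` of scales `l = log s`:
`E' = 2b + R + r` (`r` = all errors), `U' = R`, `e = 2E - 2b`, soft sign lemma `b ≤ η e(·+1)`. -/
structure Dat (A η D0 D1 α β : ℝ) (E e b R r U : ℝ → ℝ) : Prop where
  hA : 1 ≤ A
  hη : 0 ≤ η
  hη' : η ≤ 1 / 2
  D0_pos : 0 < D0
  int_b : IntervalIntegrable b volume α β
  int_R : IntervalIntegrable R volume α β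
  int_r : IntervalIntegrable r volume α β
  hE : ∀ s ∈ Icc α β, ∀ t ∈ Icc α β, s ≤ t → E t - E s = ∫ x in s..t, (2 * b x + R x + r x)
  hU : ∀ s ∈ Icc α β, ∀ t ∈ Icc α β, s ≤ t → U t - U s = ∫ x in s..t, R x
  he : ∀ t ∈ Icc α β, e t = 2 * E t - 2 * b t
  he0 : ∀ t ∈ Icc α β, 0 ≤ e t
  hR : ∀ t ∈ Icc α β, 0 ≤ R t
  hD0 : ∀ t ∈ Icc α β, D0 ≤ U t
  hU1 : ∀ t ∈ Icc α β, U t ≤ D1
  he1 : ∀ t ∈ Icc α β, e t ≤ D1
  hUE : ∀ t ∈ Icc α β, U t ≤ 2 * E t
  soft : ∀ t ∈ Icc α β, t + 1 ∈ Icc α β → b t ≤ η * e (t + 1)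
  err : ∀ t ∈ Icc α β, t + 1 ∈ Icc α β → |r t| ≤ η * e (t + 1)
  qm : ∀ s ∈ Icc α β, ∀ t ∈ Icc α β, s ≤ t → t ≤ s + 1 → e s ≤ A * e t

namespace Dat

variable {A η D0 D1 α β : ℝ} {E e b R r U : ℝ → ℝ}

theorem A_pos (h : Dat A η D0 D1 α β E e b R r U) : 0 < A := lt_of_lt_of_le one_pos h.hA

theorem E_nonneg (h : Dat A η D0 D1 α β E e b R r U) {t : ℝ} (ht : t ∈ Icc α β) : 0 < E t := by
  have h1 := h.hD0 t ht
  have h2 := h.hUE t ht
  have h3 := h.D0_pos
  linarith

theorem U_mono (h : Dat A η D0 D1 α β E e b R r U) {s t : ℝ} (hs : s ∈ Icc α β)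
    (ht : t ∈ Icc α β) (hst : s ≤ t) : U s ≤ U t := by
  have h1 := h.hU s hs t ht hst
  have h2 : 0 ≤ ∫ x in s..t, R x :=
    intervalIntegral.integral_nonneg hst fun x hx =>
      h.hR x ⟨hs.1.trans hx.1, hx.2.trans ht.2⟩
  linarith

theorem sub_int {f : ℝ → ℝ} (hf : IntervalIntegrable f volume α β) {s t : ℝ} (hs : s ∈ Icc α β)
    (ht : t ∈ Icc α β) (hst : s ≤ t) : IntervalIntegrable f volume s t := by
  refine hf.mono_set ?_
  rw [uIcc_of_le hst, uIcc_of_le (hs.1.trans hs.2)]
  exact Icc_subset_Icc hs.1 ht.2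

/-- increase of `E` over at most one unit. -/
theorem step_up (h : Dat A η D0 D1 α β E e b R r U) {s t : ℝ} (hs : s ∈ Icc α β)
    (hs2 : s + 2 ∈ Icc α β) (hst : s ≤ t) (hts : t ≤ s + 1) :
    E t ≤ E s + 3 * η * A * e (s + 2) + (U t - U s) := by
  have ht : t ∈ Icc α β := ⟨hs.1.trans hst, by linarith [hs2.2]⟩
  have hb := sub_int h.int_b hs ht hst
  have hR := sub_int h.int_R hs ht hst
  have hr := sub_int h.int_r hs ht hst
  have h1 := h.hE s hs t ht hst
  have h2 := h.hU s hs t ht hst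
  have h3 : ∫ x in s..t, (2 * b x + R x + r x) =
      (∫ x in s..t, (2 * b x + r x)) + ∫ x in s..t, R x := by
    rw [← intervalIntegral.integral_add ((hb.const_mul 2).add hr) hR]
    refine intervalIntegral.integral_congr fun x _ => ?_
    ring
  have he2 := h.he0 _ hs2
  have hA := h.A_pos
  have hη := h.hη
  have hc : 0 ≤ 3 * η * A * e (s + 2) := by positivity
  have h4 : ∫ x in s..t, (2 * b x + r x) ≤ ∫ x in s..t, 3 * η * A * e (s + 2) := by
    refine intervalIntegral.integral_mono_on hst ((hb.const_mul 2).add hr)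
      intervalIntegrable_const fun x hx => ?_
    have hx0 : x ∈ Icc α β := ⟨hs.1.trans hx.1, hx.2.trans ht.2⟩
    have hx1 : x + 1 ∈ Icc α β := ⟨by linarith [hx0.1], by linarith [hx.2, hs2.2]⟩
    have h5 := h.soft x hx0 hx1
    have h6 := (abs_le.1 (h.err x hx0 hx1)).2
    have h7 := h.qm (x + 1) hx1 (s + 2) hs2 (by linarith [hx.2]) (by linarith [hx.1])
    have h8 : η * e (x + 1) ≤ η * (A * e (s + 2)) := mul_le_mul_of_nonneg_left h7 hη
    nlinarith
  have h9 : ∫ x in s..t, 3 * η * A * e (s + 2) ≤ 3 * η * A * e (s + 2) := by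
    rw [intervalIntegral.integral_const, smul_eq_mul]
    nlinarith
  linarith

theorem E_le (h : Dat A η D0 D1 α β E e b R r U) {t : ℝ} (ht : t ∈ Icc α β)
    (ht1 : t + 1 ∈ Icc α β) : E t ≤ A * e (t + 1) := by
  have h1 := h.he t ht
  have h2 := h.soft t ht ht1
  have h3 := h.qm t ht (t + 1) ht1 (by linarith) le_rfl
  have h4 := h.he0 _ ht1
  have h5 : η * e (t + 1) ≤ 1 / 2 * (A * e (t + 1)) := by
    have h6 := h.hη'
    have h7 := h.hA
    have h8 : η * e (t + 1) ≤ 1 / 2 * e (t + 1) := mul_le_mul_of_nonneg_right h6 h4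
    nlinarith
  linarith

theorem int_E (h : Dat A η D0 D1 α β E e b R r U) {s t : ℝ} (hs : s ∈ Icc α β)
    (ht : t ∈ Icc α β) (hst : s ≤ t) : IntervalIntegrable E volume s t := by
  have hb := sub_int h.int_b hs ht hst
  have hR := sub_int h.int_R hs ht hst
  have hr := sub_int h.int_r hs ht hst
  have hf : IntervalIntegrable (fun x => 2 * b x + R x + r x) volume s t :=
    ((hb.const_mul 2).add hR).add hr
  have h1 : ContinuousOn (fun x => E s + ∫ y in s..x, (2 * b y + R y + r y)) (uIcc s t) := by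
    refine continuousOn_const.add ?_
    have := intervalIntegral.continuousOn_primitive_interval' hf (left_mem_uIcc)
    exact this
  refine (h1.congr fun x hx => ?_).intervalIntegrable
  rw [uIcc_of_le hst] at hx
  have h2 := h.hE s hs x ⟨hs.1.trans hx.1, hx.2.trans ht.2⟩ hx.1
  linarith

/-- lower bound `(a)`. -/
theorem e_le (h : Dat A η D0 D1 α β E e b R r U) {s : ℝ} (hs : s ∈ Icc α β)
    (hs2 : s + 2 ∈ Icc α β) :
    e s ≤ A * (3 * E s + 7 * η * A * e (s + 2) + 3 * (U (s + 1) - U s)) := by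
  have hs1 : s + 1 ∈ Icc α β := ⟨by linarith [hs.1], by linarith [hs2.2]⟩
  have hst : s ≤ s + 1 := by linarith
  have hb := sub_int h.int_b hs hs1 hst
  have hR := sub_int h.int_R hs hs1 hst
  have hr := sub_int h.int_r hs hs1 hst
  have hEi := h.int_E hs hs1 hst
  have hA := h.A_pos
  have hη := h.hη
  have he2 := h.he0 _ hs2
  have hc : 0 ≤ η * A * e (s + 2) := by positivity
  have h1 := h.hE s hs _ hs1 hst
  have h2 := h.hU s hs _ hs1 hst
  have h3 : ∫ x in s..s + 1, (2 * b x + R x + r x) =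
      ((∫ x in s..s + 1, 2 * b x) + ∫ x in s..s + 1, R x) + ∫ x in s..s + 1, r x := by
    rw [intervalIntegral.integral_add ((hb.const_mul 2).add hR) hr,
      intervalIntegral.integral_add (hb.const_mul 2) hR]
  -- `∫ e`
  have h4 : e s ≤ A * ((∫ x in s..s + 1, 2 * E x) - ∫ x in s..s + 1, 2 * b x) := by
    have h5 : ∫ x in s..s + 1, e s ≤ ∫ x in s..s + 1, A * (2 * E x - 2 * b x) := by
      refine intervalIntegral.integral_mono_on hst intervalIntegrable_const
        (((hEi.const_mul 2).sub (hb.const_mul 2)).const_mul A) fun x hx => ?_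
      have hx0 : x ∈ Icc α β := ⟨hs.1.trans hx.1, hx.2.trans hs1.2⟩
      rw [← h.he x hx0]
      exact h.qm s hs x hx0 hx.1 (by linarith [hx.2])
    rw [intervalIntegral.integral_const, smul_eq_mul, intervalIntegral.integral_const_mul,
      intervalIntegral.integral_sub (hEi.const_mul 2) (hb.const_mul 2)] at h5
    linarith
  have h6 : ∫ x in s..s + 1, 2 * E x ≤
      2 * (E s + 3 * η * A * e (s + 2) + (U (s + 1) - U s)) := by
    have h7 : ∫ x in s..s + 1, 2 * E x ≤ ∫ x in s..s + 1,
        2 * (E s + 3 * η * A * e (s + 2) + (U (s + 1) - U s)) := by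
      refine intervalIntegral.integral_mono_on hst (hEi.const_mul 2) intervalIntegrable_const
        fun x hx => ?_
      have hx0 : x ∈ Icc α β := ⟨hs.1.trans hx.1, hx.2.trans hs1.2⟩
      have h8 := h.step_up hs hs2 hx.1 (by linarith [hx.2])
      have h9 := h.U_mono hx0 hs1 hx.2
      linarith
    rw [intervalIntegral.integral_const, smul_eq_mul] at h7
    linarith
  have h10 : ∫ x in s..s + 1, r x ≤ η * A * e (s + 2) := by
    have h11 : ∫ x in s..s + 1, r x ≤ ∫ x in s..s + 1, η * A * e (s + 2) := by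
      refine intervalIntegral.integral_mono_on hst hr intervalIntegrable_const fun x hx => ?_
      have hx0 : x ∈ Icc α β := ⟨hs.1.trans hx.1, hx.2.trans hs1.2⟩
      have hx1 : x + 1 ∈ Icc α β := ⟨by linarith [hx0.1], by linarith [hx.2, hs2.2]⟩
      have h12 := (abs_le.1 (h.err x hx0 hx1)).2
      have h13 := h.qm (x + 1) hx1 (s + 2) hs2 (by linarith [hx.2]) (by linarith [hx.1])
      have h14 : η * e (x + 1) ≤ η * (A * e (s + 2)) := mul_le_mul_of_nonneg_left h13 hη
      linarith
    rw [intervalIntegral.integral_const, smul_eq_mul] at h11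
    linarith
  have hE1 := h.E_nonneg hs1
  refine h4.trans (mul_le_mul_of_nonneg_left ?_ hA.le)
  linarith

theorem e_pow (h : Dat A η D0 D1 α β E e b R r U) {s : ℝ} (hs : s ∈ Icc α β) :
    ∀ i : ℕ, s + i ∈ Icc α β → e s ≤ A ^ i * e (s + i) := by
  intro i
  have hA := h.A_pos
  induction i with
  | zero => intro _; simp
  | succ i ih =>
    intro hi
    push_cast at hi ⊢
    have h1 : s + i ∈ Icc α β := by
      have : (0 : ℝ) ≤ i := Nat.cast_nonneg i
      exact ⟨by linarith [hs.1], by linarith [hi.2]⟩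
    have h2 := h.qm (s + i) h1 (s + (i + 1)) hi (by linarith) (by linarith)
    calc e s ≤ A ^ i * e (s + i) := ih h1
      _ ≤ A ^ i * (A * e (s + (i + 1))) := mul_le_mul_of_nonneg_left h2 (by positivity)
      _ = A ^ (i + 1) * e (s + (i + 1)) := by ring

/-- main inequality over `J` units. -/
theorem main (h : Dat A η D0 D1 α β E e b R r U) {s : ℝ} {J : ℕ} (hJ : 1 ≤ J)
    (hs : s ∈ Icc α β) (hs2 : s + J + 2 ∈ Icc α β) :
    e (s + J) ≤ 3 * A * E s + 16 * J * A ^ (J + 2) * η * e (s + J + 2) +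
      3 * A * (U (s + J + 1) - U s) := by
  have hA := h.A_pos
  have hA1 := h.hA
  have hη := h.hη
  have he2 := h.he0 _ hs2
  have hJr : (1 : ℝ) ≤ J := by exact_mod_cast hJ
  set M : ℝ := A ^ J * e (s + J + 2) with hM
  have hM0 : 0 ≤ M := by positivity
  have hmem : ∀ i : ℕ, i ≤ J → s + i ∈ Icc α β ∧ s + i + 2 ∈ Icc α β := by
    intro i hi
    have h1 : (0 : ℝ) ≤ i := Nat.cast_nonneg i
    have h2 : (i : ℝ) ≤ J := by exact_mod_cast hi
    exact ⟨⟨by linarith [hs.1], by linarith [hs2.2]⟩, ⟨by linarith [hs.1], by linarith [hs2.2]⟩⟩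
  have heM : ∀ i : ℕ, i ≤ J → e (s + i + 2) ≤ M := by
    intro i hi
    have h1 := h.e_pow (hmem i hi).2 (J - i) (by
      rw [Nat.cast_sub hi]
      have : s + i + 2 + (J - i) = s + J + 2 := by ring
      rw [this]; exact hs2)
    rw [Nat.cast_sub hi, show s + (i : ℝ) + 2 + ((J : ℝ) - i) = s + J + 2 by ring] at h1
    refine h1.trans (mul_le_mul_of_nonneg_right ?_ he2)
    exact pow_le_pow_right₀ hA1 (Nat.sub_le _ _)
  have hstep : ∀ j : ℕ, j ≤ J → E (s + j) ≤ E s + j * (3 * η * A * M) + (U (s + j) - U s) := by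
    intro j
    induction j with
    | zero => intro _; simp
    | succ j ih =>
      intro hj
      have h1 := ih (by omega)
      have h2 := h.step_up (hmem j (by omega)).1 (hmem j (by omega)).2
        (t := s + j + 1) (by linarith) le_rfl
      have h3 := heM j (by omega)
      have h4 : 3 * η * A * e (s + j + 2) ≤ 3 * η * A * M :=
        mul_le_mul_of_nonneg_left h3 (by positivity)
      push_cast
      rw [show s + ((j : ℝ) + 1) = s + j + 1 by ring]
      linarith
  have h1 := h.e_le (hmem J le_rfl).1 (hmem J le_rfl).2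
  have h2 := hstep J le_rfl
  have h3 : A * (3 * E (s + J) + 7 * η * A * e (s + J + 2) + 3 * (U (s + J + 1) - U (s + J))) ≤
      A * (3 * (E s + J * (3 * η * A * M) + (U (s + J) - U s)) + 7 * η * A * e (s + J + 2) +
        3 * (U (s + J + 1) - U (s + J))) := by
    refine mul_le_mul_of_nonneg_left ?_ hA.le
    linarith
  have h4 : A * (3 * (E s + J * (3 * η * A * M) + (U (s + J) - U s)) + 7 * η * A * e (s + J + 2) +
        3 * (U (s + J + 1) - U (s + J))) =
      3 * A * E s + (9 * J * A ^ (J + 2) + 7 * A ^ 2) * η * e (s + J + 2) +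
        3 * A * (U (s + J + 1) - U s) := by
    rw [hM]; ring
  have h5 : (7 * A ^ 2) * (η * e (s + J + 2)) ≤ (7 * J * A ^ (J + 2)) * (η * e (s + J + 2)) := by
    refine mul_le_mul_of_nonneg_right ?_ (by positivity)
    have h6 : A ^ 2 ≤ A ^ (J + 2) := pow_le_pow_right₀ hA1 (by omega)
    have h7 : (0 : ℝ) ≤ A ^ (J + 2) := by positivity
    nlinarith
  nlinarith

/-- DOUBLING COUNT, integer shifts of a base scale `α'`. -/
theorem count_int (h : Dat A η D0 D1 α β E e b R r U) {J n : ℕ} (hJ : 3 ≤ J)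
    (hsmall : 2304 * J * A ^ (2 * J + 1) * η < 1) {a : ℝ} (ha : α ≤ a)
    (ha' : a + n + J + 2 ≤ β) :
    (((Finset.range (n + 1)).filter fun k : ℕ => 36 * A * E (a + k) < e (a + k + J)).card : ℝ) ≤
      (J + 1) * Real.log (D1 / D0) := by
  have hA := h.A_pos
  have hA1 := h.hA
  have hη := h.hη
  have hJr : (3 : ℝ) ≤ J := by exact_mod_cast hJ
  have hmem : ∀ k : ℕ, k ≤ n + J + 2 → a + k ∈ Icc α β := by
    intro k hk
    have h1 : (0 : ℝ) ≤ k := Nat.cast_nonneg k
    have h2 : (k : ℝ) ≤ n + J + 2 := by exact_mod_cast hk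
    exact ⟨by linarith, by linarith⟩
  have hsucc : ∀ k : ℕ, a + ((k + 1 : ℕ) : ℝ) = a + k + 1 := by
    intro k; push_cast; ring
  have h0 := hmem 0 (by omega)
  simp only [Nat.cast_zero, add_zero] at h0
  have hc := count_seq (A := A) (G := 16 * J * A ^ (J + 2) * η) (D1 := D1) (J := J) (n := n)
    hJ hA1 (by positivity) (by
      have h1 : 144 * A ^ (J - 1) * (16 * J * A ^ (J + 2) * η) =
          2304 * J * A ^ (2 * J + 1) * η := by
        have h2 : A ^ (2 * J + 1) = A ^ (J - 1) * A ^ (J + 2) := by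
          rw [← pow_add]; congr 1; omega
        rw [h2]; ring
      rw [h1]; exact hsmall)
    (fun k => E (a + k)) (fun k => e (a + k)) (fun k => U (a + k))
    (fun k hk => lt_of_lt_of_le h.D0_pos (h.hD0 _ (hmem k (by omega))))
    (fun k hk => h.U_mono (hmem k (by omega)) (hmem (k + 1) (by omega)) (by
      rw [hsucc]; linarith))
    (fun k hk => h.hU1 _ (hmem k (by omega)))
    (fun k hk => h.he1 _ (hmem k hk))
    (fun k hk => h.hUE _ (hmem k (by omega)))
    (fun k hk => h.qm _ (hmem k (by omega)) _ (hmem (k + 1) (by omega)) (by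
      rw [hsucc]; linarith) (by rw [hsucc]))
    (fun k hk => by
      have h1 := h.E_le (hmem k (by omega)) (by
        rw [← hsucc]; exact hmem (k + 1) (by omega))
      rw [← hsucc] at h1
      exact h1)
    (fun k hk => by
      have h1 := h.main (s := a + k) (J := J) (by omega) (hmem k (by omega)) (by
        have h3 : (k : ℝ) ≤ n := by exact_mod_cast hk
        have h4 : (0 : ℝ) ≤ k := Nat.cast_nonneg k
        exact ⟨by linarith, by linarith⟩)
      have e1 : a + ((k + J : ℕ) : ℝ) = a + k + J := by push_cast; ring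
      have e2 : a + ((k + J + 2 : ℕ) : ℝ) = a + k + J + 2 := by push_cast; ring
      have e3 : a + ((k + J + 1 : ℕ) : ℝ) = a + k + J + 1 := by push_cast; ring
      show e (a + ((k + J : ℕ) : ℝ)) ≤ 3 * A * E (a + k) +
        16 * J * A ^ (J + 2) * η * e (a + ((k + J + 2 : ℕ) : ℝ)) +
        3 * A * (U (a + ((k + J + 1 : ℕ) : ℝ)) - U (a + k))
      rw [e1, e2, e3]
      exact h1)
  have hU0 : D0 ≤ U a := h.hD0 a h0
  have hD1 : 0 < D1 := lt_of_lt_of_le h.D0_pos (hU0.trans (h.hU1 a h0))
  have hlog : Real.log D0 ≤ Real.log (U a) := Real.log_le_log h.D0_pos hU0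
  rw [Real.log_div hD1.ne' h.D0_pos.ne']
  have e1 : ∀ k : ℕ, a + ((k + J : ℕ) : ℝ) = a + k + J := fun k => by push_cast; ring
  simp only [Nat.cast_zero, add_zero, e1] at hc
  refine hc.trans ?_
  refine mul_le_mul_of_nonneg_left ?_ (by positivity)
  linarith

end Dat

/-- averaging over the base scale. -/
theorem vol_avg {S : Set ℝ} (hS : MeasurableSet S) (α : ℝ) (N : ℕ) (c : ℝ≥0∞)
    (h : ∀ θ ∈ Ico (0 : ℝ) 1, (∑ k ∈ Finset.range N, S.indicator (fun _ => (1 : ℝ≥0∞)) (α + k + θ)) ≤ c) :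
    volume (S ∩ Ico α (α + N)) ≤ c := by
  have h1 : S ∩ Ico α (α + N) ⊆ ⋃ k ∈ Finset.range N, S ∩ Ico (α + k) (α + k + 1) := by
    rintro x ⟨hx, hx1, hx2⟩
    simp only [mem_iUnion, Finset.mem_range]
    have h0 : 0 ≤ x - α := by linarith
    refine ⟨⌊x - α⌋₊, ?_, hx, ?_, ?_⟩
    · rw [Nat.floor_lt h0]; linarith
    · have := Nat.floor_le h0; linarith
    · have := Nat.lt_floor_add_one (x - α); linarith
  refine (measure_mono h1).trans ((measure_biUnion_finset_le _ _).trans ?_)
  have h2 : ∀ k : ℕ, volume (S ∩ Ico (α + k) (α + k + 1)) =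
      ∫⁻ θ in Ico (0 : ℝ) 1, S.indicator (fun _ => (1 : ℝ≥0∞)) (α + k + θ) := by
    intro k
    have hm : MeasurePreserving (fun θ : ℝ => α + k + θ) volume volume :=
      measurePreserving_add_left volume (α + k)
    have h3 : volume (S ∩ Ico (α + k) (α + k + 1)) =
        volume ((fun θ : ℝ => α + k + θ) ⁻¹' (S ∩ Ico (α + k) (α + k + 1))) :=
      (hm.measure_preimage (hS.inter measurableSet_Ico).nullMeasurableSet).symm
    rw [h3, ← lintegral_indicator measurableSet_Ico]
    rw [← lintegral_indicator_one (hm.measurable (hS.inter measurableSet_Ico))]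
    refine lintegral_congr fun θ => ?_
    by_cases h4 : θ ∈ Ico (0 : ℝ) 1
    · by_cases h5 : α + k + θ ∈ S
      · have h6 : θ ∈ (fun θ : ℝ => α + k + θ) ⁻¹' (S ∩ Ico (α + k) (α + k + 1)) :=
          ⟨h5, by simpa using h4.1, by simpa using h4.2⟩
        rw [indicator_of_mem h6, indicator_of_mem h4, indicator_of_mem h5]
        rfl
      · have h6 : θ ∉ (fun θ : ℝ => α + k + θ) ⁻¹' (S ∩ Ico (α + k) (α + k + 1)) :=
          fun h7 => h5 h7.1
        rw [indicator_of_notMem h6, indicator_of_mem h4, indicator_of_notMem h5]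
    · have h6 : θ ∉ (fun θ : ℝ => α + k + θ) ⁻¹' (S ∩ Ico (α + k) (α + k + 1)) := by
        intro h7
        exact h4 ⟨by simpa using h7.2.1, by simpa using h7.2.2⟩
      rw [indicator_of_notMem h6, indicator_of_notMem h4]
  simp_rw [h2]
  rw [← lintegral_finsetSum]
  · calc ∫⁻ θ in Ico (0 : ℝ) 1, ∑ k ∈ Finset.range N,
          S.indicator (fun _ => (1 : ℝ≥0∞)) (α + k + θ)
        ≤ ∫⁻ _ in Ico (0 : ℝ) 1, c := by
          refine setLIntegral_mono' measurableSet_Ico fun θ hθ => h θ hθ
      _ = c := by simp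
  · intro k _
    exact (measurable_const.indicator hS).comp (measurable_const_add _)

namespace Dat

variable {A η D0 D1 α β : ℝ} {E e b R r U : ℝ → ℝ}

/-- DOUBLING COUNT, Lebesgue measure of the bad scales. -/
theorem volume_bad (h : Dat A η D0 D1 α β E e b R r U) {J : ℕ} (hJ : 3 ≤ J)
    (hsmall : 2304 * J * A ^ (2 * J + 1) * η < 1) {S : Set ℝ} (hS : MeasurableSet S)
    (hSb : ∀ l ∈ S, α ≤ l ∧ l + J + 2 ≤ β ∧ 36 * A * E l < e (l + J)) :
    volume S ≤ ENNReal.ofReal ((J + 1) * Real.log (D1 / D0) + 1) := by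
  by_cases hT : α + J + 2 ≤ β
  swap
  · have : S = ∅ := by
      rw [eq_empty_iff_forall_notMem]
      intro l hl
      have := hSb l hl
      linarith [this.1, this.2.1]
    simp [this]
  set T : ℝ := β - (α + J + 2) with hTdef
  have hT0 : 0 ≤ T := by rw [hTdef]; linarith
  set N : ℕ := ⌊T⌋₊ with hN
  have hNT : (N : ℝ) ≤ T := Nat.floor_le hT0
  have hTN : T < N + 1 := Nat.lt_floor_add_one T
  have h0 : α ∈ Icc α β := ⟨le_rfl, by linarith⟩
  have hD1 : D0 ≤ D1 := (h.hD0 α h0).trans (h.hU1 α h0)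
  have hlog0 : 0 ≤ Real.log (D1 / D0) :=
    Real.log_nonneg (by rw [le_div_iff₀ h.D0_pos]; linarith)
  have hJr : (0 : ℝ) ≤ (J + 1) * Real.log (D1 / D0) := by positivity
  have h1 : S ⊆ (S ∩ Ico α (α + N)) ∪ Icc (α + N) (α + T) := by
    intro l hl
    have h2 := hSb l hl
    by_cases h3 : l < α + N
    · exact Or.inl ⟨hl, h2.1, h3⟩
    · exact Or.inr ⟨not_lt.1 h3, by rw [hTdef]; linarith [h2.2.1]⟩
  have h2 : volume (S ∩ Ico α (α + N)) ≤ ENNReal.ofReal ((J + 1) * Real.log (D1 / D0)) := by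
    refine vol_avg hS α N _ fun θ hθ => ?_
    rcases Nat.eq_zero_or_pos N with hN0 | hN0
    · simp [hN0]
    obtain ⟨n, hn⟩ : ∃ n, N = n + 1 := ⟨N - 1, by omega⟩
    have hnT : (n : ℝ) + 1 ≤ T := by
      have : ((n + 1 : ℕ) : ℝ) ≤ T := by rw [← hn]; exact hNT
      push_cast at this; exact this
    have h3 := h.count_int (n := n) hJ hsmall (a := α + θ) (by linarith [hθ.1]) (by
      rw [hTdef] at hnT; linarith [hθ.2])
    rw [hn]
    have h4 : (∑ k ∈ Finset.range (n + 1), S.indicator (fun _ => (1 : ℝ≥0∞)) (α + k + θ)) ≤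
        (((Finset.range (n + 1)).filter
          fun k : ℕ => 36 * A * E (α + θ + k) < e (α + θ + k + J)).card : ℝ≥0∞) := by
      rw [Finset.card_filter, Nat.cast_sum]
      refine Finset.sum_le_sum fun k _ => ?_
      by_cases h5 : α + k + θ ∈ S
      · rw [indicator_of_mem h5]
        have h6 := (hSb _ h5).2.2
        rw [show α + (k : ℝ) + θ = α + θ + k by ring] at h6
        rw [if_pos h6]
        simp
      · rw [indicator_of_notMem h5]
        exact zero_le
    refine h4.trans ?_
    rw [← ENNReal.ofReal_natCast]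
    exact ENNReal.ofReal_le_ofReal h3
  refine (measure_mono h1).trans ((measure_union_le _ _).trans ?_)
  rw [ENNReal.ofReal_add hJr zero_le_one]
  refine add_le_add h2 ?_
  rw [Real.volume_Icc]
  exact ENNReal.ofReal_le_ofReal (by linarith)

/-- consequences at a good scale. -/
theorem good_e (h : Dat A η D0 D1 α β E e b R r U) {J : ℕ} {l : ℝ}
    (hl : l ∈ Icc α β) (hl2 : l + J ∈ Icc α β) (hg : e (l + J) ≤ 36 * A * E l)
    {t : ℝ} (ht : l ≤ t) (ht' : t ≤ l + J) : e t ≤ 36 * A ^ (J + 2) * E l := by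
  have hA := h.A_pos
  have hA1 := h.hA
  have hE := h.E_nonneg hl
  have hlt : 0 ≤ l + J - t := by linarith
  set i : ℕ := ⌊l + J - t⌋₊ with hi
  have h1 : (i : ℝ) ≤ l + J - t := Nat.floor_le hlt
  have h2 : l + J - t < i + 1 := Nat.lt_floor_add_one _
  have htm : t ∈ Icc α β := ⟨hl.1.trans ht, ht'.trans hl2.2⟩
  have hti : t + i ∈ Icc α β := ⟨by linarith [htm.1, (Nat.cast_nonneg i : (0 : ℝ) ≤ i)],
    by linarith [hl2.2]⟩
  have h3 := h.e_pow htm i hti
  have h4 := h.qm (t + i) hti (l + J) hl2 (by linarith) (by linarith)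
  have hiJ : i ≤ J := by
    have : (i : ℝ) ≤ J := by linarith
    exact_mod_cast this
  calc e t ≤ A ^ i * e (t + i) := h3
    _ ≤ A ^ i * (A * e (l + J)) := mul_le_mul_of_nonneg_left h4 (by positivity)
    _ ≤ A ^ i * (A * (36 * A * E l)) := by
        refine mul_le_mul_of_nonneg_left (mul_le_mul_of_nonneg_left hg hA.le) (by positivity)
    _ = A ^ i * (36 * A ^ 2 * E l) := by ring
    _ ≤ A ^ J * (36 * A ^ 2 * E l) :=
        mul_le_mul_of_nonneg_right (pow_le_pow_right₀ hA1 hiJ) (by positivity)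
    _ = 36 * A ^ (J + 2) * E l := by ring

theorem good_b (h : Dat A η D0 D1 α β E e b R r U) {J : ℕ} {l : ℝ}
    (hl : l ∈ Icc α β) (hl2 : l + J ∈ Icc α β) (hg : e (l + J) ≤ 36 * A * E l)
    {t : ℝ} (ht : l ≤ t) (ht' : t + 1 ≤ l + J) :
    b t ≤ η * (36 * A ^ (J + 2) * E l) ∧ |r t| ≤ η * (36 * A ^ (J + 2) * E l) ∧
      E t ≤ A * (36 * A ^ (J + 2) * E l) := by
  have htm : t ∈ Icc α β := ⟨hl.1.trans ht, by linarith [hl2.2]⟩
  have htm1 : t + 1 ∈ Icc α β := ⟨by linarith [htm.1], ht'.trans hl2.2⟩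
  have h1 := h.good_e hl hl2 hg (t := t + 1) (by linarith) ht'
  refine ⟨(h.soft t htm htm1).trans (mul_le_mul_of_nonneg_left h1 h.hη),
    (h.err t htm htm1).trans (mul_le_mul_of_nonneg_left h1 h.hη),
    (h.E_le htm htm1).trans (mul_le_mul_of_nonneg_left h1 h.A_pos.le)⟩

/-- `E l ≤ e l` at a good scale, hence `E l ≤ A e t` for `l ≤ t ≤ l + 1`. -/
theorem good_le (h : Dat A η D0 D1 α β E e b R r U) {J : ℕ} (hJ : 1 ≤ J) {l : ℝ}
    (hl : l ∈ Icc α β) (hl2 : l + J ∈ Icc α β) (hg : e (l + J) ≤ 36 * A * E l)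
    (hs : 72 * A ^ (J + 2) * η ≤ 1) : E l ≤ e l := by
  have hJr : (1 : ℝ) ≤ J := by exact_mod_cast hJ
  have h1 := (h.good_b hl hl2 hg (t := l) le_rfl (by linarith)).1
  have h2 := h.he l hl
  have h3 := h.E_nonneg hl
  nlinarith

/-- negative part: `∫ b_- ≤ E + ½ ΔU + errors` over one unit. -/
theorem good_neg (h : Dat A η D0 D1 α β E e b R r U) {J : ℕ} (hJ : 2 ≤ J) {l : ℝ}
    (hl : l ∈ Icc α β) (hl2 : l + J ∈ Icc α β) (hg : e (l + J) ≤ 36 * A * E l) :
    ∫ x in l..l + 1, |b x| ≤ E l + (U (l + 1) - U l) + 3 * η * (36 * A ^ (J + 2) * E l) := by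
  have hJr : (2 : ℝ) ≤ J := by exact_mod_cast hJ
  have hl1 : l + 1 ∈ Icc α β := ⟨by linarith [hl.1], by linarith [hl2.2]⟩
  have hll : l ≤ l + 1 := by linarith
  have hb := sub_int h.int_b hl hl1 hll
  have hR := sub_int h.int_R hl hl1 hll
  have hr := sub_int h.int_r hl hl1 hll
  set K : ℝ := η * (36 * A ^ (J + 2) * E l) with hK
  have hK0 : 0 ≤ K := by
    have := h.hη; have := h.A_pos; have := h.E_nonneg hl
    positivity
  have hpt : ∀ x ∈ Icc l (l + 1), |b x| ≤ 2 * K - b x := by
    intro x hx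
    have h1 := (h.good_b hl hl2 hg (t := x) hx.1 (by linarith [hx.2])).1
    rcases abs_cases (b x) with ⟨h2, h3⟩ | ⟨h2, h3⟩ <;> rw [h2] <;> linarith
  have h1 : ∫ x in l..l + 1, |b x| ≤ ∫ x in l..l + 1, (2 * K - b x) :=
    intervalIntegral.integral_mono_on hll hb.abs (intervalIntegrable_const.sub hb) hpt
  have h2 : ∫ x in l..l + 1, (2 * K - b x) = 2 * K - ∫ x in l..l + 1, b x := by
    rw [intervalIntegral.integral_sub intervalIntegrable_const hb,
      intervalIntegral.integral_const, smul_eq_mul]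
    ring
  have h3 := h.hE l hl _ hl1 hll
  have h4 := h.hU l hl _ hl1 hll
  have h5 : ∫ x in l..l + 1, (2 * b x + R x + r x) =
      (2 * (∫ x in l..l + 1, b x) + ∫ x in l..l + 1, R x) + ∫ x in l..l + 1, r x := by
    rw [intervalIntegral.integral_add ((hb.const_mul 2).add hR) hr,
      intervalIntegral.integral_add (hb.const_mul 2) hR, intervalIntegral.integral_const_mul]
  have h6 : ∫ x in l..l + 1, r x ≤ K := by
    have h7 : ∫ x in l..l + 1, r x ≤ ∫ x in l..l + 1, K := by
      refine intervalIntegral.integral_mono_on hll hr intervalIntegrable_const fun x hx => ?_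
      exact (abs_le.1 (h.good_b hl hl2 hg (t := x) hx.1 (by linarith [hx.2])).2.1).2
    rw [intervalIntegral.integral_const, smul_eq_mul] at h7
    linarith
  have h8 := h.E_nonneg hl1
  have h9 := h.E_nonneg hl
  have h10 := h.U_mono hl hl1 hll
  have h11 : 3 * η * (36 * A ^ (J + 2) * E l) = 3 * K := by rw [hK]; ring
  rw [h11]
  linarith

end Dat

end Crest.Agent.R234.Dbl_634
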