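import Crest.Agent.R234.Dbl1_534

/-!
# Row 234, VF-F11 (helper534): one doubling at the top ⟹ frequency bound and non-degeneracy below,
with SLOPPY (additive) errors

`l = log s`.  All errors are bounded by one number `om = th * I t0`.
-/

set_option autoImplicit false

open Set Real

namespace Crest.Agent.R234.Dbl_534

/-- continuity method, downwards. -/
theorem bootstrap {h : ℝ → ℝ} {lo t0 : ℝ} (hc : ContinuousOn h (Icc lo t0)) (top : h t0 < 0)
    (step : ∀ l0 ∈ Icc lo t0, (∀ l ∈ Icc l0 t0, h l ≤ 0) → h l0 < 0) :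
    ∀ l ∈ Icc lo t0, h l < 0 := by
  intro l hl
  by_contra hcon
  have hcon' := not_lt.1 hcon
  set S : Set ℝ := Icc lo t0 ∩ h ⁻¹' Ici 0 with hS
  have hSc : IsCompact S := by
    have : IsClosed S := hc.preimage_isClosed_of_isClosed isClosed_Icc isClosed_Ici
    exact isCompact_Icc.of_isClosed_subset this inter_subset_left
  have hne : S.Nonempty := ⟨l, hl, hcon'⟩
  obtain ⟨m, hm, hmax⟩ := hSc.exists_isMaxOn hne continuousOn_id
  have hm1 : m ∈ Icc lo t0 := hm.1
  have hm2 : 0 ≤ h m := hm.2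
  have hlt : ∀ x ∈ Icc lo t0, m < x → h x < 0 := by
    intro x hx hmx
    by_contra h'
    have : x ≤ m := hmax (show x ∈ S from ⟨hx, not_lt.1 h'⟩)
    linarith
  have hmt : m < t0 := by
    rcases lt_or_eq_of_le hm1.2 with h' | h'
    · exact h'
    · rw [h'] at hm2; linarith
  have hm0 : h m ≤ 0 := by
    have hcw : ContinuousWithinAt h (Ioc m t0) m :=
      (hc m hm1).mono (fun x hx => ⟨hm1.1.trans hx.1.le, hx.2⟩)
    have hcl : m ∈ closure (Ioc m t0) := by
      rw [closure_Ioc hmt.ne]; exact left_mem_Icc.2 hmt.le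
    have hne' : (nhdsWithin m (Ioc m t0)).NeBot := mem_closure_iff_nhdsWithin_neBot.1 hcl
    refine le_of_tendsto hcw.tendsto ?_
    filter_upwards [self_mem_nhdsWithin] with x hx
    exact (hlt x ⟨hm1.1.trans hx.1.le, hx.2⟩ hx.1).le
  have := step m hm1 (fun x hx => by
    rcases eq_or_lt_of_le hx.1 with h' | h'
    · rw [← h']; exact hm0
    · exact (hlt x ⟨hm1.1.trans hx.1, hx.2⟩ h').le)
  linarith

/-- the data of the frequency stage at one centre relative to one reference, additive errors. -/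
structure Dat (E I e b R ep dE dI : ℝ → ℝ) (a c om eta rho : ℝ) : Prop where
  hE : ∀ l ∈ Icc a c, HasDerivAt E (dE l) l
  hI : ∀ l ∈ Icc a c, HasDerivAt I (dI l) l
  pos : ∀ l ∈ Icc a c, 0 < I l
  e0 : ∀ l ∈ Icc a c, 0 ≤ e l
  low : ∀ l ∈ Icc a c, I l ≤ 4 * E l
  E1 : ∀ l ∈ Icc a c, 2 * b l + R l - om ≤ dE l
  I1 : ∀ l ∈ Icc a c, |dI l - 2 * e l| ≤ om
  eE : ∀ l ∈ Icc a c, e l = 2 * E l - 2 * b l
  S1 : ∀ l ∈ Icc a c, (e l + ep l) ^ 2 ≤ I l * R l
  S2 : ∀ l ∈ Icc a c, |ep l| ≤ om
  b1 : ∀ l ∈ Icc a (c - rho), ∀ M, (∀ l' ∈ Icc l (l + rho), E l' ≤ M) → b l ≤ eta * M + om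

section

variable {E I e b R ep dE dI : ℝ → ℝ} {a c om eta rho : ℝ}

/-- almost monotonicity of `I`. -/
theorem Dat.mono (h : Dat E I e b R ep dE dI a c om eta rho) {x y : ℝ} (hx : a ≤ x) (hxy : x ≤ y)
    (hy : y ≤ c) : I x ≤ I y + om * (y - x) := by
  have hmono : MonotoneOn (fun l => I l + om * l) (Icc x y) := by
    apply monotoneOn_of_deriv_nonneg (convex_Icc x y)
    · intro l hl
      exact ((h.hI l ⟨hx.trans hl.1, hl.2.trans hy⟩).add
        ((hasDerivAt_id l).const_mul om)).continuousAt.continuousWithinAt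
    · intro l hl
      have hl' := interior_subset hl
      exact ((h.hI l ⟨hx.trans hl'.1, hl'.2.trans hy⟩).add
        ((hasDerivAt_id l).const_mul om)).differentiableAt.differentiableWithinAt
    · intro l hl
      have hl' := interior_subset hl
      have hm : l ∈ Icc a c := ⟨hx.trans hl'.1, hl'.2.trans hy⟩
      have hd : HasDerivAt (fun l => I l + om * l) (dI l + om * 1) l :=
        (h.hI l hm).add ((hasDerivAt_id l).const_mul om)
      rw [hd.deriv]
      have h1 := (abs_le.1 (h.I1 l hm)).1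
      have h2 := h.e0 l hm
      linarith
  have := hmono (left_mem_Icc.2 hxy) (right_mem_Icc.2 hxy) hxy
  simp only at this
  linarith [mul_sub om y x]

/-- the two differential inequalities of the frequency lemma (F5), `α ≥ 1`. -/
theorem Dat.pt (h : Dat E I e b R ep dE dI a c om eta rho) {al l : ℝ} (hal : 1 ≤ al)
    (hl : l ∈ Icc a c) :
    -2 * (al - 1) * b l - (1 + 5 / 2 * al) * om ≤
        (dE l - 2 * al * E l) - al / 2 * (dI l - 2 * al * I l) ∧
      2 * al * (E l - al / 2 * I l) - (4 * al - 2) * b l - (1 + 2 * al) * om ≤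
        dE l - 2 * al * E l := by
  have hI := h.pos l hl
  have h1 := h.E1 l hl
  have h2 := abs_le.1 (h.I1 l hl)
  have h3 := h.eE l hl
  have h4 := h.S1 l hl
  have h5 := abs_le.1 (h.S2 l hl)
  -- R ≥ 2 al (e + ep) - al² I
  have hR : 2 * al * (e l + ep l) - al ^ 2 * I l ≤ R l := by
    have : (2 * al * (e l + ep l) - al ^ 2 * I l) * I l ≤ R l * I l := by
      nlinarith [sq_nonneg (e l + ep l - al * I l)]
    exact le_of_mul_le_mul_right this hI
  have hR' : 2 * al * e l - 2 * al * om - al ^ 2 * I l ≤ R l := by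
    have := mul_le_mul_of_nonneg_left h5.1 (by linarith : (0:ℝ) ≤ 2 * al)
    linarith
  constructor
  · have h6 : al / 2 * (dI l - 2 * al * I l) ≤ al / 2 * (2 * e l + om - 2 * al * I l) := by
      apply mul_le_mul_of_nonneg_left _ (by linarith)
      linarith
    rw [h3] at hR' h6
    linarith
  · rw [h3] at hR'
    linarith

end

/-- **the frequency lemma (F5) for bounded frequency and a bounded window, additive errors.** -/
theorem rv_bdd {E I e b R ep dE dI : ℝ → ℝ} {a c om eta rho : ℝ}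
    (h : Dat E I e b R ep dE dI a c om eta rho) {l0 l1 A Lw al : ℝ} (hrho : 0 ≤ rho)
    (hrho1 : rho ≤ 1) (heta : 0 ≤ eta) (hom : 0 ≤ om)
    (ha : a ≤ l0) (h01 : l0 ≤ l1) (h1c : l1 + rho ≤ c) (hLw : l1 - l0 ≤ Lw)
    (hal : 1 ≤ al) (halA : al ≤ A) (hN : 2 * E l0 = al * I l0)
    (nj : ∀ l ∈ Icc l1 (l1 + rho), E l ≤ 4 * E l1)
    (heta1 : eta * (exp (2 * A) * (4 * A ^ 2 * Lw + 4 * A) * (8 * (Lw + 1))) ≤ 1)
    (hom1 : om * (44 * (A + 1) ^ 2 * (Lw + 1) ^ 2) ≤ exp (-(2 * A * Lw)) * E l1) :
    al * I l1 ≤ 4 * E l1 := by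
  have hLw0 : 0 ≤ Lw := by linarith
  have hA : 1 ≤ A := hal.trans halA
  have hl1 : l1 ∈ Icc a c := ⟨ha.trans h01, by linarith⟩
  have posE : ∀ l ∈ Icc a c, 0 < E l := fun l hl => by linarith [h.pos l hl, h.low l hl]
  set wt : ℝ → ℝ := fun l => exp (-(2 * al * (l - l0))) with hwt
  have hwt0 : ∀ l, 0 < wt l := fun l => exp_pos _
  have hwt1 : ∀ l, l0 ≤ l → wt l ≤ 1 := by
    intro l hl
    rw [hwt]; simp only
    apply exp_le_one_iff.2
    have : 0 ≤ 2 * al * (l - l0) := by have := sub_nonneg.2 hl; positivity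
    linarith
  have hdwt : ∀ l, HasDerivAt wt (-(2 * al) * wt l) l := by
    intro l
    have h1 : HasDerivAt (fun x => -(2 * al * (x - l0))) (-(2 * al * 1)) l :=
      (((hasDerivAt_id l).sub_const l0).const_mul (2 * al)).neg
    have := h1.exp
    convert this using 1
    simp only [hwt]; ring
  set y : ℝ → ℝ := fun l => E l * wt l with hy
  set W : ℝ → ℝ := fun l => (E l - al / 2 * I l) * wt l with hW
  have hcont : ContinuousOn y (Icc l0 (l1 + rho)) := by
    intro l hl
    exact ((h.hE l ⟨ha.trans hl.1, hl.2.trans h1c⟩).mul (hdwt l)).continuousAt.continuousWithinAt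
  obtain ⟨lm, hlm, hmax⟩ := isCompact_Icc.exists_isMaxOn
    (nonempty_Icc.2 (show l0 ≤ l1 + rho by linarith)) hcont
  set M := y lm with hM
  have hyM : ∀ l ∈ Icc l0 (l1 + rho), y l ≤ M := fun l hl => hmax hl
  have hMpos : 0 < M := by
    rw [hM]
    exact mul_pos (posE lm ⟨ha.trans hlm.1, hlm.2.trans h1c⟩) (hwt0 lm)
  set X := exp (2 * A) with hX
  have hX1 : 1 ≤ X := by
    rw [hX]; exact one_le_exp (by linarith)
  -- the bound of `b`
  have hb : ∀ l ∈ Icc l0 l1, b l * wt l ≤ eta * X * M + om := by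
    intro l hl
    have h1 : b l ≤ eta * (M * exp (2 * al * (l + rho - l0))) + om := by
      apply h.b1 l ⟨ha.trans hl.1, by linarith [hl.2]⟩
      intro l' hl'
      have h2 := hyM l' ⟨hl.1.trans hl'.1, by linarith [hl'.2, hl.2]⟩
      have h3 : E l' = y l' * exp (2 * al * (l' - l0)) := by
        simp only [hy, hwt]
        rw [mul_assoc, ← exp_add]; simp
      rw [h3]
      have h4 : exp (2 * al * (l' - l0)) ≤ exp (2 * al * (l + rho - l0)) := by
        apply exp_le_exp.2
        have := hl'.2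
        exact mul_le_mul_of_nonneg_left (by linarith) (by linarith)
      calc y l' * exp (2 * al * (l' - l0)) ≤ M * exp (2 * al * (l' - l0)) := by gcongr
        _ ≤ M * exp (2 * al * (l + rho - l0)) := by gcongr
    calc b l * wt l ≤ (eta * (M * exp (2 * al * (l + rho - l0))) + om) * wt l := by
          apply mul_le_mul_of_nonneg_right h1 (hwt0 l).le
      _ = eta * M * exp (2 * al * rho) + om * wt l := by
          have : exp (2 * al * (l + rho - l0)) * wt l = exp (2 * al * rho) := by
            simp only [hwt]; rw [← exp_add]; congr 1; ring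
          linear_combination eta * M * this
      _ ≤ eta * M * X + om * 1 := by
          have h5 : exp (2 * al * rho) ≤ X := by
            rw [hX]; apply exp_le_exp.2; 
            have h51 : al * rho ≤ A * 1 := mul_le_mul halA hrho1 hrho (by linarith)
            linarith
          have h6 := hwt1 l hl.1
          gcongr
      _ = eta * X * M + om := by ring
  set K := 2 * A * (eta * X * M) + (1 + 9 / 2 * A) * om with hK
  have hetaXM : 0 ≤ eta * X * M := by positivity
  have hK0 : 0 ≤ K := by rw [hK]; positivity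
  -- W ≥ - K (l - l0)
  have hWd : ∀ l ∈ Icc l0 l1, HasDerivAt W
      (((dE l - al / 2 * dI l) - 2 * al * (E l - al / 2 * I l)) * wt l) l := by
    intro l hl
    have hlm' : l ∈ Icc a c := ⟨ha.trans hl.1, by linarith [hl.2]⟩
    have := ((h.hE l hlm').sub ((h.hI l hlm').const_mul (al / 2))).mul (hdwt l)
    refine HasDerivAt.congr_deriv this ?_
    simp only [Pi.sub_apply]; ring
  have hWlow : ∀ l ∈ Icc l0 l1, -(K * Lw) ≤ W l := by
    intro l hl
    have hmono : MonotoneOn (fun x => W x + K * x) (Icc l0 l) := by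
      apply monotoneOn_of_deriv_nonneg (convex_Icc l0 l)
      · intro x hx
        exact ((hWd x ⟨hx.1, hx.2.trans hl.2⟩).add
          ((hasDerivAt_id x).const_mul K)).continuousAt.continuousWithinAt
      · intro x hx
        have hx' := interior_subset hx
        exact ((hWd x ⟨hx'.1, hx'.2.trans hl.2⟩).add
          ((hasDerivAt_id x).const_mul K)).differentiableAt.differentiableWithinAt
      · intro x hx
        have hx' := interior_subset hx
        have hx1 : x ∈ Icc l0 l1 := ⟨hx'.1, hx'.2.trans hl.2⟩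
        have hx2 : x ∈ Icc a c := ⟨ha.trans hx1.1, by linarith [hx1.2]⟩
        have hd := (hWd x hx1).add ((hasDerivAt_id x).const_mul K)
        have hd' : deriv (fun x => W x + K * x) x =
            ((dE x - al / 2 * dI x) - 2 * al * (E x - al / 2 * I x)) * wt x + K * 1 := hd.deriv
        rw [hd']
        have hp := (h.pt hal hx2).1
        have hbx := hb x hx1
        have hw1 := hwt1 x hx1.1
        have hw0 := hwt0 x
        have h7 : (-2 * (al - 1) * b x - (1 + 5 / 2 * al) * om) * wt x ≤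
            ((dE x - al / 2 * dI x) - 2 * al * (E x - al / 2 * I x)) * wt x := by
          apply mul_le_mul_of_nonneg_right _ hw0.le
          linarith
        have h8 : -(2 * (al - 1) * (eta * X * M + om)) ≤ -2 * (al - 1) * (b x * wt x) := by
          have : 0 ≤ 2 * (al - 1) := by linarith
          linarith [mul_le_mul_of_nonneg_left hbx this]
        have h9 : (1 + 5 / 2 * al) * om * wt x ≤ (1 + 5 / 2 * al) * om * 1 := by
          gcongr
        have h10 : 2 * (al - 1) * (eta * X * M + om) + (1 + 5 / 2 * al) * om ≤ K := by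
          rw [hK]
          have h11 : 2 * (al - 1) * (eta * X * M) ≤ 2 * A * (eta * X * M) := by
            gcongr; linarith
          have h12 : 2 * (al - 1) * om + (1 + 5 / 2 * al) * om ≤ (1 + 9 / 2 * A) * om := by
            linarith [mul_le_mul_of_nonneg_right halA hom]
          linarith
        linarith
    have h1 := hmono (left_mem_Icc.2 hl.1) (right_mem_Icc.2 hl.1) hl.1
    simp only at h1
    have h2 : W l0 = 0 := by
      simp only [hW]
      have : E l0 - al / 2 * I l0 = 0 := by linarith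
      rw [this, zero_mul]
    have h3 : K * (l - l0) ≤ K * Lw := by
      apply mul_le_mul_of_nonneg_left _ hK0
      linarith [hl.2]
    linarith
  set K2 := 2 * A * (K * Lw) + 4 * A * (eta * X * M) + (1 + 6 * A) * om with hK2
  have hK20 : 0 ≤ K2 := by rw [hK2]; positivity
  have hyd : ∀ l ∈ Icc l0 l1, HasDerivAt y ((dE l - 2 * al * E l) * wt l) l := by
    intro l hl
    have hlm' : l ∈ Icc a c := ⟨ha.trans hl.1, by linarith [hl.2]⟩
    have := (h.hE l hlm').mul (hdwt l)
    refine HasDerivAt.congr_deriv this ?_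
    ring
  have hylow : ∀ l ∈ Icc l0 l1, y l ≤ y l1 + K2 * Lw := by
    intro l hl
    have hmono : MonotoneOn (fun x => y x + K2 * x) (Icc l l1) := by
      apply monotoneOn_of_deriv_nonneg (convex_Icc l l1)
      · intro x hx
        exact ((hyd x ⟨hl.1.trans hx.1, hx.2⟩).add
          ((hasDerivAt_id x).const_mul K2)).continuousAt.continuousWithinAt
      · intro x hx
        have hx' := interior_subset hx
        exact ((hyd x ⟨hl.1.trans hx'.1, hx'.2⟩).add
          ((hasDerivAt_id x).const_mul K2)).differentiableAt.differentiableWithinAt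
      · intro x hx
        have hx' := interior_subset hx
        have hx1 : x ∈ Icc l0 l1 := ⟨hl.1.trans hx'.1, hx'.2⟩
        have hx2 : x ∈ Icc a c := ⟨ha.trans hx1.1, by linarith [hx1.2]⟩
        have hd := (hyd x hx1).add ((hasDerivAt_id x).const_mul K2)
        have hd' : deriv (fun x => y x + K2 * x) x = (dE x - 2 * al * E x) * wt x + K2 * 1 :=
          hd.deriv
        rw [hd']
        have hp := (h.pt hal hx2).2
        have hbx := hb x hx1
        have hw1 := hwt1 x hx1.1
        have hw0 := hwt0 x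
        have hWx := hWlow x hx1
        have h7 : (2 * al * (E x - al / 2 * I x) - (4 * al - 2) * b x - (1 + 2 * al) * om) * wt x ≤
            (dE x - 2 * al * E x) * wt x := mul_le_mul_of_nonneg_right hp hw0.le
        have h8 : -(2 * A * (K * Lw)) ≤ 2 * al * W x := by
          have h81 : 2 * al * (-(K * Lw)) ≤ 2 * al * W x := by
            apply mul_le_mul_of_nonneg_left hWx; linarith
          have h82 : 2 * al * (K * Lw) ≤ 2 * A * (K * Lw) := by
            have : 0 ≤ K * Lw := by positivity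
            linarith [mul_le_mul_of_nonneg_right halA this]
          linarith
        have h9 : (4 * al - 2) * (b x * wt x) ≤ 4 * A * (eta * X * M + om) := by
          have h91 : (4 * al - 2) * (b x * wt x) ≤ (4 * al - 2) * (eta * X * M + om) := by
            apply mul_le_mul_of_nonneg_left hbx; linarith
          have h92 : (4 * al - 2) * (eta * X * M + om) ≤ 4 * A * (eta * X * M + om) := by
            apply mul_le_mul_of_nonneg_right _ (by positivity); linarith
          linarith
        have h10 : (1 + 2 * al) * om * wt x ≤ (1 + 2 * A) * om := by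
          calc (1 + 2 * al) * om * wt x ≤ (1 + 2 * al) * om * 1 := by gcongr
            _ ≤ (1 + 2 * A) * om := by linarith [mul_le_mul_of_nonneg_right halA hom]
        have h11 : W x = (E x - al / 2 * I x) * wt x := rfl
        rw [hK2]
        rw [h11] at h8
        linarith
    have h1 := hmono (left_mem_Icc.2 hl.2) (right_mem_Icc.2 hl.2) hl.2
    simp only at h1
    have h3 : K2 * (l1 - l) ≤ K2 * Lw := by
      apply mul_le_mul_of_nonneg_left _ hK20
      linarith [hl.1]
    linarith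
  -- M ≤ 4 y(l1) + K2 Lw
  have hyl1 : 0 < y l1 := mul_pos (posE l1 hl1) (hwt0 l1)
  have hMle : M ≤ 4 * y l1 + K2 * Lw := by
    rcases le_or_gt lm l1 with h' | h'
    · have := hylow lm ⟨hlm.1, h'⟩
      linarith
    · have h2 := nj lm ⟨h'.le, hlm.2⟩
      have h3 : wt lm ≤ wt l1 := by
        simp only [hwt]; apply exp_le_exp.2; 
        have h31 : al * (l1 - l0) ≤ al * (lm - l0) :=
          mul_le_mul_of_nonneg_left (by linarith) (by linarith)
        linarith
      have h4 : M ≤ 4 * y l1 := by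
        calc M = E lm * wt lm := rfl
          _ ≤ (4 * E l1) * wt l1 := by
              have := posE lm ⟨ha.trans hlm.1, hlm.2.trans h1c⟩
              have h5 := posE l1 hl1
              have h6 := hwt0 lm
              gcongr
          _ = 4 * y l1 := by simp only [hy]; ring
      have : 0 ≤ K2 * Lw := by positivity
      linarith
  -- lower bound of y l1
  have hyl1' : exp (-(2 * A * Lw)) * E l1 ≤ y l1 := by
    simp only [hy, hwt]
    rw [mul_comm]
    apply mul_le_mul_of_nonneg_left _ (posE l1 hl1).le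
    apply exp_le_exp.2
    have h1 : al * (l1 - l0) ≤ A * Lw := by
      have : 0 ≤ l1 - l0 := by linarith
      calc al * (l1 - l0) ≤ A * (l1 - l0) := by gcongr
        _ ≤ A * Lw := by gcongr
    linarith
  have hom2 : om * (44 * (A + 1) ^ 2 * (Lw + 1) ^ 2) ≤ y l1 := hom1.trans hyl1'
  -- absorb
  set Z := eta * X * M with hZ
  have hZ0 : 0 ≤ Z := hetaXM
  have hZM : Z * ((4 * A ^ 2 * Lw + 4 * A) * (8 * (Lw + 1))) ≤ M := by
    have : Z * ((4 * A ^ 2 * Lw + 4 * A) * (8 * (Lw + 1))) =
        (eta * (X * (4 * A ^ 2 * Lw + 4 * A) * (8 * (Lw + 1)))) * M := by rw [hZ]; ring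
    rw [this]
    calc _ ≤ 1 * M := by gcongr
      _ = M := one_mul M
  -- K2 Lw ≤ M / 8 + y l1 / 2 
  have hK2eq : K2 = (4 * A ^ 2 * Lw + 4 * A) * Z + (2 * A * Lw * (1 + 9 / 2 * A) + (1 + 6 * A)) * om := by
    rw [hK2, hK]; ring
  have hZ1 : (4 * A ^ 2 * Lw + 4 * A) * Z * Lw ≤ M / 8 := by
    have h1 : (4 * A ^ 2 * Lw + 4 * A) * Z * Lw ≤ (4 * A ^ 2 * Lw + 4 * A) * Z * (Lw + 1) := by
      have : 0 ≤ (4 * A ^ 2 * Lw + 4 * A) * Z := by positivity
      linarith
    
    have h3 : Z * ((4 * A ^ 2 * Lw + 4 * A) * (8 * (Lw + 1))) =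
        8 * ((4 * A ^ 2 * Lw + 4 * A) * Z * (Lw + 1)) := by ring
    linarith
  have hom3 : (2 * A * Lw * (1 + 9 / 2 * A) + (1 + 6 * A)) * om * Lw ≤ y l1 / 4 := by
    have h1 : (2 * A * Lw * (1 + 9 / 2 * A) + (1 + 6 * A)) * Lw ≤
        11 * (A + 1) ^ 2 * (Lw + 1) ^ 2 := by
      have hA0 : 0 ≤ A := by linarith
      have h11 : 2 * A * Lw * (1 + 9 / 2 * A) ≤ 9 * (A + 1) ^ 2 * (Lw + 1) := by
        have : 2 * A * (1 + 9 / 2 * A) ≤ 9 * (A + 1) ^ 2 := by
          have h0 : 9 * (A + 1) ^ 2 - 2 * A * (1 + 9 / 2 * A) = 16 * A + 9 := by ring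
          linarith
        calc 2 * A * Lw * (1 + 9 / 2 * A) = (2 * A * (1 + 9 / 2 * A)) * Lw := by ring
          _ ≤ (9 * (A + 1) ^ 2) * (Lw + 1) := by gcongr; linarith
          _ = _ := by ring
      have h12 : 1 + 6 * A ≤ (A + 1) ^ 2 * (Lw + 1) + 4 * A := by
        have : (A + 1) ^ 2 * 1 ≤ (A + 1) ^ 2 * (Lw + 1) := by gcongr; linarith
        have h0 : (A + 1) ^ 2 * 1 = 1 + 2 * A + A ^ 2 := by ring
        have h00 := sq_nonneg A
        linarith
      have h13 : 4 * A ≤ (A + 1) ^ 2 * (Lw + 1) := by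
        have : (A + 1) ^ 2 * 1 ≤ (A + 1) ^ 2 * (Lw + 1) := by gcongr; linarith
        have h0 : (A + 1) ^ 2 * 1 - 4 * A = (A - 1) ^ 2 := by ring
        have h00 := sq_nonneg (A - 1)
        linarith
      calc (2 * A * Lw * (1 + 9 / 2 * A) + (1 + 6 * A)) * Lw ≤
            (11 * (A + 1) ^ 2 * (Lw + 1)) * (Lw + 1) := by
              gcongr
              · linarith
              · linarith
        _ = 11 * (A + 1) ^ 2 * (Lw + 1) ^ 2 := by ring
    calc (2 * A * Lw * (1 + 9 / 2 * A) + (1 + 6 * A)) * om * Lw =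
          om * ((2 * A * Lw * (1 + 9 / 2 * A) + (1 + 6 * A)) * Lw) := by ring
      _ ≤ om * (11 * (A + 1) ^ 2 * (Lw + 1) ^ 2) := by gcongr
      _ ≤ y l1 / 4 := by linarith
  have hM7 : M ≤ 5 * y l1 := by
    have : K2 * Lw ≤ M / 8 + y l1 / 4 := by
      rw [hK2eq]
      linarith
    linarith
  -- K Lw ≤ y l1
  have hKLw : K * Lw ≤ y l1 := by
    have h1 : 2 * A * Z * Lw ≤ (4 * A ^ 2 * Lw + 4 * A) * Z * Lw := by
      have h2 : 2 * A ≤ 4 * A ^ 2 * Lw + 4 * A := by
        have : 0 ≤ 4 * A ^ 2 * Lw := by positivity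
        linarith
      gcongr
    have h3 : (1 + 9 / 2 * A) * om * Lw ≤ y l1 / 4 := by
      have h4 : (1 + 9 / 2 * A) * Lw ≤ 11 * (A + 1) ^ 2 * (Lw + 1) ^ 2 := by
        have h41 : (1 + 9 / 2 * A) ≤ 11 * (A + 1) ^ 2 := by
          have h0 : 11 * (A + 1) ^ 2 = 11 * A ^ 2 + 22 * A + 11 := by ring
          have h00 := sq_nonneg A
          linarith
        have h42 : Lw ≤ (Lw + 1) ^ 2 := by
          have h0 : (Lw + 1) ^ 2 = Lw ^ 2 + 2 * Lw + 1 := by ring
          have h00 := sq_nonneg Lw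
          linarith
        calc (1 + 9 / 2 * A) * Lw ≤ (11 * (A + 1) ^ 2) * (Lw + 1) ^ 2 := by gcongr
          _ = _ := by ring
      calc (1 + 9 / 2 * A) * om * Lw = om * ((1 + 9 / 2 * A) * Lw) := by ring
        _ ≤ om * (11 * (A + 1) ^ 2 * (Lw + 1) ^ 2) := by gcongr
        _ ≤ y l1 / 4 := by linarith
    have h5 : K * Lw = 2 * A * Z * Lw + (1 + 9 / 2 * A) * om * Lw := by rw [hK]; ring
    rw [h5]
    linarith
  have hfin := hWlow l1 (right_mem_Icc.2 h01)
  -- (E - al/2 I) wt ≥ - y = - E wt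
  have h20 : -(E l1 * wt l1) ≤ (E l1 - al / 2 * I l1) * wt l1 := by
    have : y l1 = E l1 * wt l1 := rfl
    have h21 : W l1 = (E l1 - al / 2 * I l1) * wt l1 := rfl
    rw [← this, ← h21]; linarith
  have h22 : (al * I l1) * wt l1 ≤ (4 * E l1) * wt l1 := by 
    have h23 : (E l1 - al / 2 * I l1) * wt l1 = E l1 * wt l1 - al * I l1 * wt l1 / 2 := by ring
    linarith
  exact le_of_mul_le_mul_right h22 (hwt0 l1)


/-- the thresholds of `freq_below`. -/
structure Thr (C1 Lw hw th0 eta0 rho0 c0 : ℝ) : Prop where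
  th : 0 < th0
  eta : 0 < eta0
  rho : 0 < rho0
  c : 0 < c0
  main : ∀ (E I e b R ep dE dI : ℝ → ℝ) (lo t0 t1 om eta rho : ℝ), lo ≤ t0 → t1 - lo ≤ Lw →
    t0 + hw ≤ t1 → 0 ≤ om → om ≤ th0 * I t0 → 0 ≤ eta → eta ≤ eta0 → 0 < rho → rho ≤ rho0 →
    Dat E I e b R ep dE dI lo t1 om eta rho → (∀ l ∈ Icc t0 t1, E l ≤ C1 * I t0) →
    ∀ l ∈ Icc lo t0, 2 * E l ≤ 8 * C1 * I l ∧ c0 * I t0 ≤ I l

/-- **(F11), real-variable theorem**: one doubling at the top (in the form `E ≤ C₁ I(t₀)` on
`[t₀, t₁]`) bounds the frequency and the decay of `I` on the whole window below. -/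
theorem freq_below {C1 Lw hw : ℝ} (hC1 : 1 ≤ C1) (hLw : 0 ≤ Lw) (hhw : 0 < hw) :
    ∃ th0 eta0 rho0 c0 : ℝ, Thr C1 Lw hw th0 eta0 rho0 c0 := by
  obtain ⟨J, hJ⟩ := pow_unbounded_of_one_lt (4 * C1) (by norm_num : (1 : ℝ) < 4)
  set A : ℝ := 8 * C1 + 1 with hA
  have hA9 : 9 ≤ A := by rw [hA]; linarith
  have hA0 : 0 < A := by linarith
  set D : ℝ := 2 * A * exp (BB A * Lw) with hD
  have hBB := BB_pos hA0.le
  have hexp1 : 1 ≤ exp (BB A * Lw) := one_le_exp (by positivity)
  have hD1 : 2 ≤ D := by rw [hD]; nlinarith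
  have hD0 : 0 < D := by linarith
  set c0 : ℝ := 1 / (2 * D) with hc0
  have hc00 : 0 < c0 := by rw [hc0]; positivity
  have hc01 : c0 < 1 := by
    rw [hc0, div_lt_one (by positivity)]; linarith
  set G : ℝ := 44 * (A + 1) ^ 2 * (Lw + 1) ^ 2 with hG
  have hG0 : 0 < G := by rw [hG]; positivity
  set th1 : ℝ := exp (-(2 * A * Lw)) / (8 * G) with hth1
  have hth10 : 0 < th1 := by rw [hth1]; positivity
  set H : ℝ := exp (2 * A) * (4 * A ^ 2 * Lw + 4 * A) * (8 * (Lw + 1)) with hH
  have hH0 : 0 < H := by rw [hH]; positivity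
  refine ⟨min c0 (min (1 / (2 * (Lw + 1))) th1), 1 / H, min 1 (hw / (J + 1)), c0, ?_, ?_, ?_, hc00,
    ?_⟩
  · have : 0 < 1 / (2 * (Lw + 1)) := by positivity
    exact lt_min hc00 (lt_min this hth10)
  · positivity
  · exact lt_min one_pos (by positivity)
  intro E I e b R ep dE dI lo t0 t1 om eta rho hlo ht1 htw hom homth heta heta' hrho hrho' h top
  have hrho1 : rho ≤ 1 := hrho'.trans (min_le_left _ _)
  have hrhoJ : rho * (J + 1) ≤ hw := by
    have := hrho'.trans (min_le_right _ _)
    rwa [le_div_iff₀ (by positivity)] at this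
  have ht0 : t0 ∈ Icc lo t1 := ⟨hlo, by linarith⟩
  have hIt0 := h.pos t0 ht0
  have homc : om ≤ c0 * I t0 := homth.trans (by gcongr; exact min_le_left _ _)
  have homL : om * (2 * (Lw + 1)) ≤ I t0 := by
    have h1 : om ≤ 1 / (2 * (Lw + 1)) * I t0 :=
      homth.trans (by gcongr; exact (min_le_right _ _).trans (min_le_left _ _))
    calc om * (2 * (Lw + 1)) ≤ (1 / (2 * (Lw + 1)) * I t0) * (2 * (Lw + 1)) := by gcongr
      _ = I t0 := by field_simp
  have homT : om * (8 * G) ≤ exp (-(2 * A * Lw)) * I t0 := by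
    have h1 : om ≤ th1 * I t0 :=
      homth.trans (by gcongr; exact (min_le_right _ _).trans (min_le_right _ _))
    calc om * (8 * G) ≤ (th1 * I t0) * (8 * G) := by gcongr
      _ = exp (-(2 * A * Lw)) * I t0 := by rw [hth1]; field_simp
  have hetaH : eta * H ≤ 1 := by
    calc eta * H ≤ (1 / H) * H := by gcongr
      _ = 1 := by field_simp
  -- `I t0 ≤ 2 I l` on the top window
  have hmono : ∀ l ∈ Icc t0 t1, I t0 ≤ 2 * I l := by
    intro l hl
    have h1 := h.mono hlo hl.1 hl.2
    have h2 : om * (l - t0) ≤ om * (Lw + 1) := by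
      apply mul_le_mul_of_nonneg_left _ hom
      linarith [hl.2]
    linarith
  obtain ⟨l1, hl1, hnj⟩ := nonjump (E := E) (t0 := t0) (t1 := t1) (rho := rho) (C := C1 * I t0)
    (q := I t0 / 4) (J := J) hrho (by linarith) (by nlinarith) (by linarith [h.low t0 ht0]) top
  have hl1' : l1 ∈ Icc t0 t1 := ⟨hl1.1, by linarith [hl1.2]⟩
  have hl1'' : l1 ∈ Icc lo t1 := ⟨hlo.trans hl1.1, hl1'.2⟩
  have hIl1 := h.pos l1 hl1''
  have key : ∀ l0 ∈ Icc lo t0, (∀ l ∈ Icc l0 t0, max (2 * E l - A * I l) (c0 * I t0 - I l) ≤ 0) →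
      2 * E l0 ≤ 8 * C1 * I l0 ∧ 2 * c0 * I t0 ≤ I l0 := by
    intro l0 hl0 hbad
    have hl0' : l0 ∈ Icc lo t1 := ⟨hl0.1, hl0.2.trans ht0.2⟩
    have hIl0 := h.pos l0 hl0'
    have hup : ∀ l ∈ Icc l0 t0, 2 * E l ≤ A * I l := fun l hl => by
      have := (max_le_iff.1 (hbad l hl)).1; linarith
    have hcI : ∀ l ∈ Icc l0 t0, c0 * I t0 ≤ I l := fun l hl => by
      have := (max_le_iff.1 (hbad l hl)).2; linarith
    have hsub : ∀ l ∈ Icc l0 t0, l ∈ Icc lo t1 := fun l hl => ⟨hl0.1.trans hl.1, hl.2.trans ht0.2⟩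
    constructor
    · by_contra hcon
      have hcon' := not_le.1 hcon
      set al := 2 * E l0 / I l0 with hal
      have hN : 2 * E l0 = al * I l0 := by rw [hal]; field_simp
      have hal8 : 8 * C1 < al := by
        rw [hal, lt_div_iff₀ hIl0]; exact hcon'
      have halA : al ≤ A := by
        rw [hal, div_le_iff₀ hIl0]
        exact hup l0 (left_mem_Icc.2 hl0.2)
      have hE1 : I t0 / 8 ≤ E l1 := by
        have h1 := hmono l1 hl1'
        have h2 := h.low l1 hl1''
        linarith
      have hr := rv_bdd h (l0 := l0) (l1 := l1) (A := A) (Lw := Lw) (al := al) hrho.le hrho1 heta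
        hom hl0.1 (hl0.2.trans hl1.1) (by linarith [hl1.2]) (by linarith [hl0.1, hl1'.2])
        (by linarith) halA hN hnj hetaH (by
          have h3 : exp (-(2 * A * Lw)) * (I t0 / 8) ≤ exp (-(2 * A * Lw)) * E l1 := by gcongr
          rw [← hG]
          linarith)
      have h1 := top l1 hl1'
      have h2 := hmono l1 hl1'
      have h3 : al * I l1 ≤ 8 * C1 * I l1 := by
        have h4 : C1 * I t0 ≤ C1 * (2 * I l1) := by gcongr
        linarith
      have h5 := le_of_mul_le_mul_right h3 hIl1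
      linarith
    · have hd := I_le_of_freq (E := E) (I := I) (e := e) (b := b) (R := R) (dE := dE) (dI := dI)
        (ep := ep) (tau := fun _ => 1) (a := l0) (c := t0) (N0 := A) hl0.2
        (fun l hl => h.hE l (hsub l hl)) (fun l hl => h.hI l (hsub l hl))
        (fun l hl => h.pos l (hsub l hl)) (fun _ _ => le_rfl) (fun l hl => h.low l (hsub l hl)) hup
        (fun l hl => by
          have h1 := h.E1 l (hsub l hl)
          have h2 := hcI l hl
          have h3 := h.low l (hsub l hl)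
          have h4 := h.pos l (hsub l hl)
          have h5 := abs_nonneg (b l)
          linarith)
        (fun l hl => by
          have h1 := (abs_le.1 (h.I1 l (hsub l hl))).2
          have h2 := hcI l hl
          linarith)
        (fun l hl => h.eE l (hsub l hl)) (fun l hl => h.S1 l (hsub l hl))
        (fun l hl => by
          have h1 := h.S2 l (hsub l hl)
          have h2 := hcI l hl
          linarith)
      have h6 : 2 * A * exp (BB A * (t0 - l0)) * I l0 ≤ D * I l0 := by
        apply mul_le_mul_of_nonneg_right _ hIl0.le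
        rw [hD]
        apply mul_le_mul_of_nonneg_left _ (by positivity)
        apply exp_le_exp.2
        apply mul_le_mul_of_nonneg_left _ hBB.le
        linarith [hl0.1]
      have h7 : I t0 ≤ D * I l0 := hd.trans h6
      have h8 : 2 * c0 * I t0 ≤ 2 * c0 * (D * I l0) := by gcongr
      have h9 : 2 * c0 * (D * I l0) = I l0 := by rw [hc0]; field_simp
      linarith
  have hE : ContinuousOn E (Icc lo t0) := fun l hl =>
    (h.hE l ⟨hl.1, hl.2.trans ht0.2⟩).continuousAt.continuousWithinAt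
  have hI : ContinuousOn I (Icc lo t0) := fun l hl =>
    (h.hI l ⟨hl.1, hl.2.trans ht0.2⟩).continuousAt.continuousWithinAt
  have hcont : ContinuousOn (fun l => max (2 * E l - A * I l) (c0 * I t0 - I l)) (Icc lo t0) :=
    ((continuousOn_const.mul hE).sub (continuousOn_const.mul hI)).sup (continuousOn_const.sub hI)
  have hboot := bootstrap hcont (by
      apply max_lt
      · have := top t0 ⟨le_rfl, ht0.2⟩
        have h1 : A * I t0 = 8 * (C1 * I t0) + I t0 := by rw [hA]; ring
        have h2 : 0 < C1 * I t0 := by positivity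
        linarith
      · nlinarith)
    (fun l0 hl0 hb => by
      obtain ⟨h1, h2⟩ := key l0 hl0 hb
      have hIl0 := h.pos l0 ⟨hl0.1, hl0.2.trans ht0.2⟩
      apply max_lt
      · have h3 : A * I l0 = 8 * C1 * I l0 + I l0 := by rw [hA]; ring
        linarith
      · have h4 : 0 < c0 * I t0 := by positivity
        linarith)
  intro l hl
  obtain ⟨h1, h2⟩ := key l hl (fun l' hl' => (hboot l' ⟨hl.1.trans hl'.1, hl'.2⟩).le)
  refine ⟨h1, ?_⟩
  have h4 : 0 < c0 * I t0 := by positivity
  linarith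

end Crest.Agent.R234.Dbl_534
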