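import Mathlib

/-!
# R234: one step of the frequency bound (F-c) relative to one fixed reference surface

`l = log s`.  `I` height, `E = e/2 + b`, `e` tilt energy, `R` radial energy.  Errors: `δ I` (metric,
exact weights) and `w` (sloppy, `w = θ I(c)`, `c` slightly above the step).
-/

set_option linter.unusedVariables false

open Set Filter
open scoped Topology

namespace Crest.Agent.R234.Nb_290

/-- pointwise algebra, everything divided by `I`: `ν = e/I`, `β = 2b/I`, `r = R/I`, `ε = E'/I`,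
`ι = I'/I`, `N = ν + β`. -/
theorem alg {ν β r ε ι y N : ℝ} (hN : N = ν + β) (hν : 0 ≤ ν) (hN1 : -1 ≤ N) (hβ : β ≤ 2 * y)
    (hr0 : 0 ≤ r) (hr : ν ≤ Real.sqrt r + y) (hε : β + r - y * (ν + 1) ≤ ε)
    (hι : |ι - 2 * ν| ≤ y) (hy : 0 ≤ y) (hy1 : y ≤ 1) :
    (max 0 (-β)) ^ 2 - 25 - 11 * y * (|N| + 1) ≤ 2 * ε - N * ι ∧
      (1 ≤ N → -(22 * y * N) ≤ 2 * ε - N * ι) := by
  have hr1 : ν ^ 2 - 2 * ν * y ≤ r := by
    rcases le_total y ν with h | h
    · have h1 : ν - y ≤ Real.sqrt r := by linarith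
      have h2 : (ν - y) ^ 2 ≤ r := by
        calc (ν - y) ^ 2 ≤ (Real.sqrt r) ^ 2 := by
              apply pow_le_pow_left₀ (by linarith) h1
          _ = r := Real.sq_sqrt hr0
      nlinarith
    · nlinarith
  have hNι : N * ι ≤ N * (2 * ν) + |N| * y := by
    have h1 : N * ι - N * (2 * ν) = N * (ι - 2 * ν) := by ring
    have h2 : N * (ι - 2 * ν) ≤ |N * (ι - 2 * ν)| := le_abs_self _
    rw [abs_mul] at h2
    have h3 : |N| * |ι - 2 * ν| ≤ |N| * y := mul_le_mul_of_nonneg_left hι (abs_nonneg _)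
    linarith
  have key : 2 * β * (1 - ν) - 6 * y * ν - 2 * y - |N| * y ≤ 2 * ε - N * ι := by
    subst hN
    nlinarith
  rcases le_total 0 β with hb | hb
  · have h0 : max 0 (-β) = 0 := max_eq_left (by linarith)
    have hNn : 0 ≤ N := by linarith
    have hNa : |N| = N := abs_of_nonneg hNn
    have hνN : ν ≤ N := by linarith
    have h1 : -(4 * y * ν) ≤ 2 * β * (1 - ν) := by nlinarith
    have h2 : y * ν ≤ y * N := mul_le_mul_of_nonneg_left hνN hy
    rw [hNa] at key
    have hyN0 : 0 ≤ y * N := mul_nonneg hy hNn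
    refine ⟨?_, fun h => ?_⟩
    · rw [h0, hNa]
      nlinarith
    · have h3 : y * 1 ≤ y * N := mul_le_mul_of_nonneg_left h hy
      nlinarith
  · have h0 : max 0 (-β) = -β := max_eq_right (by linarith)
    rw [h0]
    set p := -β with hp
    have hp0 : 0 ≤ p := by linarith
    have hβp : β = -p := by linarith
    have hνp : ν = N + p := by linarith
    have k2 : 2 * β * (1 - ν) = 2 * p * (N + p - 1) := by rw [hβp, hνp]; ring
    rw [k2, hνp] at key
    have hNabs : N ≤ |N| := le_abs_self N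
    have hyN : y * N ≤ y * |N| := mul_le_mul_of_nonneg_left hNabs hy
    refine ⟨?_, fun h => ?_⟩
    · have h1 : 2 * p * (p - 2) ≤ 2 * p * (N + p - 1) :=
        mul_le_mul_of_nonneg_left (by linarith) (by linarith)
      have h2 : y * p ≤ p := by nlinarith
      have h3 : 0 ≤ y * |N| := mul_nonneg hy (abs_nonneg _)
      nlinarith [sq_nonneg (p - 5)]
    · have hNa : |N| = N := abs_of_nonneg (by linarith)
      rw [hNa] at key
      have h1 : 2 * p * p ≤ 2 * p * (N + p - 1) :=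
        mul_le_mul_of_nonneg_left (by linarith) (by linarith)
      have h2 : y * y ≤ y * N := mul_le_mul_of_nonneg_left (by linarith) hy
      have h3 : y * 1 ≤ y * N := mul_le_mul_of_nonneg_left h hy
      nlinarith [sq_nonneg (p - 3 / 2 * y)]

/-- growth algebra -/
theorem alg_growth {ν β ι y N : ℝ} (hN : N = ν + β) (hν : 0 ≤ ν) (hβ : β ≤ 2 * y)
    (hι : |ι - 2 * ν| ≤ y) :
    ι ≤ 2 * |N| + 2 * max 0 (-β) + y ∧ 2 * N - 5 * y ≤ ι ∧ -y ≤ ι := by
  have h1 := abs_le.mp hι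
  have h2 : N ≤ |N| := le_abs_self N
  have h3 : -β ≤ max 0 (-β) := le_max_right _ _
  refine ⟨by linarith, by linarith, by linarith⟩

/-- data of one step: `a` bottom, `b₀` top -/
structure StepData (a b₀ δ w : ℝ) (I E e b R : ℝ → ℝ) : Prop where
  hI : ∀ l ∈ Icc a b₀, 0 < I l
  he : ∀ l ∈ Icc a b₀, 0 ≤ e l
  hR : ∀ l ∈ Icc a b₀, 0 ≤ R l
  hE : ∀ l ∈ Icc a b₀, E l = e l / 2 + b l
  dI : ∀ l ∈ Icc a b₀, ∃ I', HasDerivAt I I' l ∧ |I' - 2 * e l| ≤ δ * I l + w
  dE : ∀ l ∈ Icc a b₀, ∃ E', HasDerivAt E E' l ∧ 2 * b l + R l - (δ * (e l + I l) + w) ≤ E'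
  hCS : ∀ l ∈ Icc a b₀, e l ≤ Real.sqrt (I l * R l) + (δ * I l + w)
  hb : ∀ l ∈ Icc a b₀, b l ≤ δ * I l + w
  hlow : ∀ l ∈ Icc a b₀, -I l ≤ 2 * E l

/-- the frequency -/
noncomputable def Fr (E I : ℝ → ℝ) (l : ℝ) : ℝ := 2 * E l / I l

variable {a b₀ δ w : ℝ} {I E e b R : ℝ → ℝ}

/-- all pointwise consequences at one scale -/
theorem StepData.pointwise (h : StepData a b₀ δ w I E e b R) (hδ : 0 ≤ δ) (hw : 0 ≤ w) {y : ℝ}
    (hy1 : y ≤ 1) {l : ℝ} (hl : l ∈ Icc a b₀) (hy : δ + w / I l ≤ y) :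
    ∃ N' ι : ℝ, HasDerivAt (Fr E I) N' l ∧ HasDerivAt (fun t => Real.log (I t)) ι l ∧
      (∃ p : ℝ, p ^ 2 - 25 - 11 * y * (|Fr E I l| + 1) ≤ N' ∧
        ι ≤ 2 * |Fr E I l| + 2 * p + y) ∧
      (1 ≤ Fr E I l → -(22 * y * Fr E I l) ≤ N') ∧ 2 * Fr E I l - 5 * y ≤ ι ∧ -y ≤ ι := by
  have hI := h.hI l hl
  have hI0 : I l ≠ 0 := hI.ne'
  obtain ⟨I', hI', hI'b⟩ := h.dI l hl
  obtain ⟨E', hE', hE'b⟩ := h.dE l hl
  have hwI : 0 ≤ w / I l := div_nonneg hw hI.le
  have hy0 : 0 ≤ y := by linarith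
  have hyI : δ * I l + w ≤ y * I l := by
    have : (δ + w / I l) * I l ≤ y * I l := mul_le_mul_of_nonneg_right hy hI.le
    have h2 : (δ + w / I l) * I l = δ * I l + w := by field_simp
    linarith
  set ν := e l / I l with hν
  set β := 2 * b l / I l with hβ
  set N := Fr E I l with hN
  have hNeq : N = ν + β := by
    rw [hN, hν, hβ]
    unfold Fr
    rw [h.hE l hl]
    field_simp
  have e1 : 0 ≤ ν := div_nonneg (h.he l hl) hI.le
  have e2 : -1 ≤ N := by
    rw [hN]; unfold Fr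
    rw [le_div_iff₀ hI]
    have := h.hlow l hl
    linarith
  have e3 : β ≤ 2 * y := by
    rw [hβ, div_le_iff₀ hI]
    have := h.hb l hl
    linarith
  have e4 : 0 ≤ R l / I l := div_nonneg (h.hR l hl) hI.le
  have e5 : ν ≤ Real.sqrt (R l / I l) + y := by
    rw [hν, div_le_iff₀ hI]
    have h1 := h.hCS l hl
    have h2 : Real.sqrt (I l * R l) = Real.sqrt (R l / I l) * I l := by
      have h3 : I l * R l = (R l / I l) * (I l) ^ 2 := by field_simp
      rw [h3, Real.sqrt_mul e4, Real.sqrt_sq hI.le]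
    rw [h2] at h1
    linarith
  have e6 : β + R l / I l - y * (ν + 1) ≤ E' / I l := by
    rw [le_div_iff₀ hI]
    have h1 : (β + R l / I l - y * (ν + 1)) * I l = 2 * b l + R l - y * (e l + I l) := by
      rw [hβ, hν]; field_simp
    rw [h1]
    have h2 : δ * (e l + I l) + w ≤ y * (e l + I l) := by
      have h3 : δ ≤ y := by linarith
      have h4 : δ * e l ≤ y * e l := mul_le_mul_of_nonneg_right h3 (h.he l hl)
      linarith
    linarith
  have e7 : |I' / I l - 2 * ν| ≤ y := by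
    have h1 : I' / I l - 2 * ν = (I' - 2 * e l) / I l := by rw [hν]; field_simp
    rw [h1, abs_div, abs_of_pos hI, div_le_iff₀ hI]
    linarith
  have A := alg hNeq e1 e2 e3 e4 e5 e6 e7 hy0 hy1
  have B := alg_growth hNeq e1 e3 e7
  refine ⟨2 * (E' / I l) - N * (I' / I l), I' / I l, ?_, hI'.log hI0,
    ⟨max 0 (-β), A.1, B.1⟩, A.2, B.2.1, B.2.2⟩
  have h1 : HasDerivAt (fun t => 2 * E t / I t) ((2 * E' * I l - 2 * E l * I') / (I l) ^ 2) l :=
    (hE'.const_mul 2).div hI' hI0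
  have h2 : (2 * E' * I l - 2 * E l * I') / (I l) ^ 2 = 2 * (E' / I l) - N * (I' / I l) := by
    rw [hN]; unfold Fr
    field_simp
  rw [← h2]
  exact h1

/-- a function with nonnegative derivative on `[α, β]` is monotone there -/
theorem mono_of_deriv {f f' : ℝ → ℝ} {α β : ℝ} (hf : ∀ t ∈ Icc α β, HasDerivAt f (f' t) t)
    (h0 : ∀ t ∈ Ioo α β, 0 ≤ f' t) : MonotoneOn f (Icc α β) := by
  refine monotoneOn_of_deriv_nonneg (convex_Icc α β) ?_ ?_ ?_
  · exact fun t ht => (hf t ht).continuousAt.continuousWithinAt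
  · rw [interior_Icc]
    exact fun t ht => (hf t (Ioo_subset_Icc_self ht)).differentiableAt.differentiableWithinAt
  · rw [interior_Icc]
    intro t ht
    rw [(hf t (Ioo_subset_Icc_self ht)).deriv]
    exact h0 t ht

/-- if `(N)' ≥ - c N` where `N ≥ 1` then `max N 1` does not decrease faster than `exp (-c t)` -/
theorem max_one_mono {N N' : ℝ → ℝ} {α β c : ℝ} (hc : 0 ≤ c)
    (hN : ∀ t ∈ Icc α β, HasDerivAt N (N' t) t)
    (h1 : ∀ t ∈ Icc α β, 1 ≤ N t → -(c * N t) ≤ N' t) {l l' : ℝ} (hl : α ≤ l) (hll : l ≤ l')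
    (hl' : l' ≤ β) : max (N l) 1 ≤ max (N l') 1 * Real.exp (c * (l' - l)) := by
  have hexp : ∀ {u v : ℝ}, u ≤ v → 1 ≤ Real.exp (c * (v - u)) := by
    intro u v huv
    exact Real.one_le_exp (mul_nonneg hc (by linarith))
  have hmax1 : 1 ≤ max (N l') 1 := le_max_right _ _
  refine max_le ?_ ?_
  swap
  · calc (1 : ℝ) = 1 * 1 := (one_mul 1).symm
      _ ≤ max (N l') 1 * Real.exp (c * (l' - l)) :=
        mul_le_mul hmax1 (hexp hll) zero_le_one (by linarith)
  rcases le_or_gt (N l) 1 with hN1 | hN1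
  · refine hN1.trans ?_
    calc (1 : ℝ) = 1 * 1 := (one_mul 1).symm
      _ ≤ max (N l') 1 * Real.exp (c * (l' - l)) :=
        mul_le_mul hmax1 (hexp hll) zero_le_one (by linarith)
  -- on `[l, t]` with `N ≥ 1`
  have step : ∀ t, l ≤ t → t ≤ l' → (∀ u ∈ Ioo l t, 1 ≤ N u) →
      N l ≤ N t * Real.exp (c * (t - l)) := by
    intro t hlt htl' hu
    have hm : MonotoneOn (fun u => N u * Real.exp (c * u)) (Icc l t) := by
      refine mono_of_deriv (f' := fun u => N' u * Real.exp (c * u) +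
        N u * (Real.exp (c * u) * c)) ?_ ?_
      · intro u hu'
        have h2 : HasDerivAt (fun u => Real.exp (c * u)) (Real.exp (c * u) * c) u := by
          have := ((hasDerivAt_id u).const_mul c).exp
          simpa using this
        exact (hN u ⟨hl.trans hu'.1, hu'.2.trans (htl'.trans hl')⟩).mul h2
      · intro u hu'
        have h3 := h1 u ⟨hl.trans hu'.1.le, hu'.2.le.trans (htl'.trans hl')⟩ (hu u hu')
        have h4 : N' u * Real.exp (c * u) + N u * (Real.exp (c * u) * c) =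
            (N' u + c * N u) * Real.exp (c * u) := by ring
        rw [h4]
        exact mul_nonneg (by linarith) (Real.exp_pos _).le
    have h5 := hm (left_mem_Icc.mpr hlt) (right_mem_Icc.mpr hlt) hlt
    simp only at h5
    have h6 : Real.exp (c * t) = Real.exp (c * (t - l)) * Real.exp (c * l) := by
      rw [← Real.exp_add]; ring_nf
    rw [h6, ← mul_assoc] at h5
    exact le_of_mul_le_mul_right h5 (Real.exp_pos _)
  -- the first point where `N ≤ 1`
  by_cases hS : ∃ t ∈ Icc l l', N t ≤ 1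
  · set S := {t | t ∈ Icc l l' ∧ N t ≤ 1} with hSdef
    have hSne : S.Nonempty := by
      obtain ⟨t, ht, ht1⟩ := hS
      exact ⟨t, ht, ht1⟩
    have hSb : BddBelow S := ⟨l, fun t ht => ht.1.1⟩
    have hcont : ContinuousOn N (Icc l l') := fun t ht =>
      (hN t ⟨hl.trans ht.1, ht.2.trans hl'⟩).continuousAt.continuousWithinAt
    have hSc : IsClosed S := hcont.preimage_isClosed_of_isClosed isClosed_Icc isClosed_Iic
    have hmem : sInf S ∈ S := hSc.csInf_mem hSne hSb
    have h7 := step (sInf S) hmem.1.1 hmem.1.2 (by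
      intro u hu
      by_contra hcon
      have : u ∈ S := ⟨⟨hu.1.le, hu.2.le.trans hmem.1.2⟩, (not_le.mp hcon).le⟩
      exact absurd (csInf_le hSb this) (not_le.mpr hu.2))
    calc N l ≤ N (sInf S) * Real.exp (c * (sInf S - l)) := h7
      _ ≤ 1 * Real.exp (c * (sInf S - l)) :=
        mul_le_mul_of_nonneg_right hmem.2 (Real.exp_pos _).le
      _ ≤ 1 * Real.exp (c * (l' - l)) := by
        refine mul_le_mul_of_nonneg_left ?_ zero_le_one
        refine Real.exp_le_exp.mpr (mul_le_mul_of_nonneg_left ?_ hc)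
        linarith [hmem.1.2]
      _ ≤ max (N l') 1 * Real.exp (c * (l' - l)) :=
        mul_le_mul_of_nonneg_right hmax1 (Real.exp_pos _).le
  · push Not at hS
    have h7 := step l' hll le_rfl (fun u hu => (hS u ⟨hu.1.le, hu.2.le⟩).le)
    refine h7.trans (mul_le_mul_of_nonneg_right (le_max_left _ _) (Real.exp_pos _).le)

/-- estimates on `[m, b₀]` under the weak a-priori bounds -/
theorem StepData.est (h : StepData a b₀ δ w I E e b R) (hδ : 0 ≤ δ) (hw : 0 ≤ w) {y K : ℝ}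
    (hK : 32 ≤ K) (hy1 : y ≤ 1) (hab : b₀ - a ≤ 2 / K) (hy : δ + w * Real.exp 10 / I b₀ ≤ y)
    (hN0 : 8 * Fr E I b₀ ≤ K) {m : ℝ} (hm : m ∈ Icc a b₀)
    (hap : ∀ t ∈ Icc m b₀, I b₀ ≤ Real.exp 10 * I t ∧ Fr E I t ≤ K / 4) :
    (∀ l l', m ≤ l → l ≤ l' → l' ≤ b₀ →
        max (Fr E I l) 1 ≤ max (Fr E I l') 1 * Real.exp (22 * y * (l' - l))) ∧
      (∀ l ∈ Icc m b₀, I b₀ ≤ Real.exp 9 * I l) ∧
      (∀ l l' θ, m ≤ l → l ≤ l' → l' ≤ b₀ → (∀ t ∈ Icc l l', θ ≤ Fr E I t) →
        (2 * θ - 5 * y) * (l' - l) ≤ Real.log (I l') - Real.log (I l)) ∧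
      (∀ l l', m ≤ l → l ≤ l' → l' ≤ b₀ →
        -y * (l' - l) ≤ Real.log (I l') - Real.log (I l)) := by
  have hab' : a ≤ b₀ := hm.1.trans hm.2
  have hb₀ : b₀ ∈ Icc a b₀ := right_mem_Icc.mpr hab'
  have hIb := h.hI b₀ hb₀
  have hy0 : 0 ≤ y := by
    have : 0 ≤ w * Real.exp 10 / I b₀ := by positivity
    linarith
  have hsub : ∀ t ∈ Icc m b₀, t ∈ Icc a b₀ := fun t ht => ⟨hm.1.trans ht.1, ht.2⟩
  -- uniform relative error
  have hyt : ∀ t ∈ Icc m b₀, δ + w / I t ≤ y := by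
    intro t ht
    have hIt := h.hI t (hsub t ht)
    have h1 := (hap t ht).1
    have h2 : w / I t ≤ w * Real.exp 10 / I b₀ := by
      rw [div_le_div_iff₀ hIt hIb]
      calc w * I b₀ ≤ w * (Real.exp 10 * I t) := mul_le_mul_of_nonneg_left h1 hw
        _ = w * Real.exp 10 * I t := by ring
    linarith
  have hpt : ∀ t ∈ Icc m b₀, ∃ N' ι : ℝ, HasDerivAt (Fr E I) N' t ∧
      HasDerivAt (fun t => Real.log (I t)) ι t ∧
      (∃ p : ℝ, p ^ 2 - 25 - 11 * y * (|Fr E I t| + 1) ≤ N' ∧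
        ι ≤ 2 * |Fr E I t| + 2 * p + y) ∧
      (1 ≤ Fr E I t → -(22 * y * Fr E I t) ≤ N') ∧ 2 * Fr E I t - 5 * y ≤ ι ∧ -y ≤ ι :=
    fun t ht => h.pointwise hδ hw hy1 (hsub t ht) (hyt t ht)
  choose! N' ι hN hι hp hN1 hι1 hι2 using hpt
  refine ⟨?_, ?_, ?_, ?_⟩
  · intro l l' h1 h2 h3
    exact max_one_mono (by positivity) hN hN1 h1 h2 h3
  · intro l hl
    -- `log I - N/K - 4 K t` is antitone
    have hmono : MonotoneOn (fun t => 4 * K * t + Fr E I t / K - Real.log (I t)) (Icc m b₀) := by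
      refine mono_of_deriv (f' := fun t => 4 * K + N' t / K - ι t) ?_ ?_
      · intro t ht
        have h1 := (((hasDerivAt_id' t).const_mul (4 * K)).fun_add
          ((hN t ht).div_const K)).fun_sub (hι t ht)
        exact h1.congr_deriv (by ring)
      · intro t ht
        have ht' := Ioo_subset_Icc_self ht
        obtain ⟨p, hp1, hp2⟩ := hp t ht'
        have hK0 : 0 < K := by linarith
        have hNabs : |Fr E I t| ≤ K / 4 := by
          rw [abs_le]
          refine ⟨?_, (hap t ht').2⟩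
          have h1 := h.hlow t (hsub t ht')
          have h2 := h.hI t (hsub t ht')
          have h3 : -1 ≤ Fr E I t := by
            unfold Fr; rw [le_div_iff₀ h2]; linarith
          linarith
        have h4 : 2 * p ≤ p ^ 2 / K + K := by
          have h5 : 0 ≤ (p - K) ^ 2 / K := by positivity
          have h6 : (p - K) ^ 2 / K = p ^ 2 / K - 2 * p + K := by field_simp; ring
          linarith
        have h7 : (p ^ 2 - 25 - 11 * y * (|Fr E I t| + 1)) / K ≤ N' t / K :=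
          div_le_div_of_nonneg_right hp1 hK0.le
        have h8 : (p ^ 2 - 25 - 11 * y * (|Fr E I t| + 1)) / K =
            p ^ 2 / K - (25 + 11 * y * (|Fr E I t| + 1)) / K := by ring
        have h9 : (25 + 11 * y * (|Fr E I t| + 1)) / K ≤ 4 := by
          rw [div_le_iff₀ hK0]
          have h10 : y * (|Fr E I t| + 1) ≤ 1 * (K / 4 + 1) :=
            mul_le_mul hy1 (by linarith) (by positivity) zero_le_one
          nlinarith
        linarith
    have h1 := hmono hl (right_mem_Icc.mpr hm.2) hl.2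
    simp only at h1
    have hK0 : 0 < K := by linarith
    have hIl := h.hI l (hsub l hl)
    have h2 : 4 * K * (b₀ - l) ≤ 8 := by
      have h3 : b₀ - l ≤ 2 / K := by linarith [hl.1, hm.1]
      calc 4 * K * (b₀ - l) ≤ 4 * K * (2 / K) := mul_le_mul_of_nonneg_left h3 (by positivity)
        _ = 8 := by field_simp; norm_num
    have h4 : Fr E I b₀ / K ≤ 1 / 8 := by
      rw [div_le_iff₀ hK0]; linarith
    have h5 : -(1 / 32) ≤ Fr E I l / K := by
      rw [le_div_iff₀ hK0]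
      have h6 := h.hlow l (hsub l hl)
      have h7 : -1 ≤ Fr E I l := by
        unfold Fr; rw [le_div_iff₀ hIl]; linarith
      nlinarith
    have h6 : Real.log (I b₀) ≤ 9 + Real.log (I l) := by nlinarith
    calc I b₀ = Real.exp (Real.log (I b₀)) := (Real.exp_log hIb).symm
      _ ≤ Real.exp (9 + Real.log (I l)) := Real.exp_le_exp.mpr h6
      _ = Real.exp 9 * I l := by rw [Real.exp_add, Real.exp_log hIl]
  · intro l l' θ h1 h2 h3 hθ
    have hmono : MonotoneOn (fun t => Real.log (I t) - (2 * θ - 5 * y) * t) (Icc l l') := by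
      refine mono_of_deriv (f' := fun t => ι t - (2 * θ - 5 * y)) ?_ ?_
      · intro t ht
        have h4 := (hι t ⟨h1.trans ht.1, ht.2.trans h3⟩).fun_sub
          ((hasDerivAt_id' t).const_mul (2 * θ - 5 * y))
        exact h4.congr_deriv (by ring)
      · intro t ht
        have h5 := hι1 t ⟨h1.trans ht.1.le, ht.2.le.trans h3⟩
        have h6 := hθ t (Ioo_subset_Icc_self ht)
        linarith
    have h7 := hmono (left_mem_Icc.mpr h2) (right_mem_Icc.mpr h2) h2
    simp only at h7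
    linarith
  · intro l l' h1 h2 h3
    have hmono : MonotoneOn (fun t => Real.log (I t) - (-y) * t) (Icc l l') := by
      refine mono_of_deriv (f' := fun t => ι t - (-y)) ?_ ?_
      · intro t ht
        have h4 := (hι t ⟨h1.trans ht.1, ht.2.trans h3⟩).fun_sub
          ((hasDerivAt_id' t).const_mul (-y))
        exact h4.congr_deriv (by ring)
      · intro t ht
        have h5 := hι2 t ⟨h1.trans ht.1.le, ht.2.le.trans h3⟩
        linarith
    have h7 := hmono (left_mem_Icc.mpr h2) (right_mem_Icc.mpr h2) h2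
    simp only at h7
    linarith

theorem StepData.continuousOn_I (h : StepData a b₀ δ w I E e b R) : ContinuousOn I (Icc a b₀) := by
  intro t ht
  obtain ⟨I', hI', -⟩ := h.dI t ht
  exact hI'.continuousAt.continuousWithinAt

theorem StepData.continuousOn_Fr (h : StepData a b₀ δ w I E e b R) :
    ContinuousOn (Fr E I) (Icc a b₀) := by
  have hE : ContinuousOn E (Icc a b₀) := by
    intro t ht
    obtain ⟨E', hE', -⟩ := h.dE t ht
    exact hE'.continuousAt.continuousWithinAt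
  exact (hE.const_mul 2).div h.continuousOn_I fun t ht => (h.hI t ht).ne'

theorem exp_small {u : ℝ} (hu : u ≤ 1 / 50) : Real.exp u ≤ 103 / 100 := by
  have h1 : Real.exp u ≤ Real.exp (1 / 50) := Real.exp_le_exp.mpr hu
  have h2 : Real.exp (1 / 50) ≤ 103 / 100 := by
    have h3 : (1 : ℝ) - 1 / 50 ≤ Real.exp (-(1 / 50)) := by
      have := Real.add_one_le_exp (-(1 / 50 : ℝ))
      linarith
    rw [Real.exp_neg] at h3
    have h4 : 0 < Real.exp (1 / 50) := Real.exp_pos _
    rw [le_inv_comm₀ (by norm_num) h4] at h3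
    refine h3.trans (by norm_num)
  exact h1.trans h2

/-- **one step** (fixed reference surface) -/
theorem StepData.step (h : StepData a b₀ δ w I E e b R) (hδ : 0 ≤ δ) (hw : 0 ≤ w) {y K : ℝ}
    (hK : 32 ≤ K) (hy1 : y ≤ 1 / 100) (hab0 : a ≤ b₀) (hab : b₀ - a ≤ 2 / K)
    (hy : δ + w * Real.exp 10 / I b₀ ≤ y) (hN0 : 8 * Fr E I b₀ ≤ K) :
    (∀ l l', a ≤ l → l ≤ l' → l' ≤ b₀ →
        max (Fr E I l) 1 ≤ max (Fr E I l') 1 * Real.exp (22 * y * (l' - l))) ∧
      (∀ l ∈ Icc a b₀, I b₀ ≤ Real.exp 9 * I l) ∧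
      (19 / 10 ≤ Fr E I a → b₀ - a ≤ (2 * a - Real.log (I a)) - (2 * b₀ - Real.log (I b₀))) ∧
      (-(3 * (b₀ - a)) ≤ (2 * a - Real.log (I a)) - (2 * b₀ - Real.log (I b₀))) := by
  have hb₀ : b₀ ∈ Icc a b₀ := right_mem_Icc.mpr hab0
  have hIb := h.hI b₀ hb₀
  have hK0 : 0 < K := by linarith
  have hy0 : 0 ≤ y := by
    have : 0 ≤ w * Real.exp 10 / I b₀ := by positivity
    linarith
  have hexp910 : Real.exp 9 < Real.exp 10 := Real.exp_lt_exp.mpr (by norm_num)
  have hsmall : ∀ u, u ≤ 2 / K → Real.exp (22 * y * u) ≤ 103 / 100 := by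
    intro u hu
    refine exp_small ?_
    have h1 : 22 * y * u ≤ 22 * y * (2 / K) := mul_le_mul_of_nonneg_left hu (by positivity)
    have h2 : 2 / K ≤ 2 / 32 := by
      rw [div_le_div_iff₀ hK0 (by norm_num)]; linarith
    have h3 : 22 * y * (2 / K) ≤ 22 * y * (2 / 32) := mul_le_mul_of_nonneg_left h2 (by positivity)
    nlinarith
  -- a priori bounds hold everywhere
  have hall : ∀ t ∈ Icc a b₀, I b₀ ≤ Real.exp 10 * I t ∧ Fr E I t ≤ K / 4 := by
    by_contra hcon
    set F := {t | t ∈ Icc a b₀ ∧ (Real.exp 10 * I t ≤ I b₀ ∨ K / 4 ≤ Fr E I t)} with hF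
    have hFne : F.Nonempty := by
      push Not at hcon
      obtain ⟨t, ht, ht2⟩ := hcon
      refine ⟨t, ht, ?_⟩
      by_contra h3
      push Not at h3
      exact absurd (ht2 h3.1.le) (not_lt.mpr h3.2.le)
    have hFb : BddAbove F := ⟨b₀, fun t ht => ht.1.2⟩
    have hFc : IsClosed F := by
      have h1 : IsClosed {t | t ∈ Icc a b₀ ∧ Real.exp 10 * I t ∈ Iic (I b₀)} :=
        (h.continuousOn_I.const_mul (Real.exp 10)).preimage_isClosed_of_isClosed isClosed_Icc
          isClosed_Iic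
      have h2 : IsClosed {t | t ∈ Icc a b₀ ∧ Fr E I t ∈ Ici (K / 4)} :=
        h.continuousOn_Fr.preimage_isClosed_of_isClosed isClosed_Icc isClosed_Ici
      have h3 : F = {t | t ∈ Icc a b₀ ∧ Real.exp 10 * I t ∈ Iic (I b₀)} ∪
          {t | t ∈ Icc a b₀ ∧ Fr E I t ∈ Ici (K / 4)} := by
        ext t
        simp only [hF, mem_ofPred_eq, mem_union, mem_Iic, mem_Ici]
        tauto
      rw [h3]
      exact h1.union h2
    have hm : sSup F ∈ F := hFc.csSup_mem hFne hFb
    set m := sSup F with hmdef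
    have hmb : m < b₀ := by
      refine lt_of_le_of_ne hm.1.2 ?_
      intro heq
      rcases hm.2 with h3 | h3
      · rw [heq] at h3
        have : (1 : ℝ) < Real.exp 10 := Real.one_lt_exp_iff.mpr (by norm_num)
        nlinarith
      · rw [heq] at h3
        linarith
    have hgood : ∀ t ∈ Ioc m b₀, I b₀ ≤ Real.exp 10 * I t ∧ Fr E I t ≤ K / 4 := by
      intro t ht
      have htF : t ∉ F := fun hcon2 => absurd (le_csSup hFb hcon2) (not_le.mpr ht.1)
      have htI : t ∈ Icc a b₀ := ⟨hm.1.1.trans ht.1.le, ht.2⟩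
      simp only [hF, mem_ofPred_eq, not_and, not_or, not_le] at htF
      exact ⟨(htF htI).1.le, (htF htI).2.le⟩
    have hgood2 : ∀ t ∈ Icc m b₀, I b₀ ≤ Real.exp 10 * I t ∧ Fr E I t ≤ K / 4 := by
      have hc1 : ContinuousOn I (Icc m b₀) :=
        h.continuousOn_I.mono (Icc_subset_Icc_left hm.1.1)
      have hc2 : ContinuousOn (Fr E I) (Icc m b₀) :=
        h.continuousOn_Fr.mono (Icc_subset_Icc_left hm.1.1)
      have h1 : IsClosed {t | t ∈ Icc m b₀ ∧ Real.exp 10 * I t ∈ Ici (I b₀)} :=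
        (hc1.const_mul (Real.exp 10)).preimage_isClosed_of_isClosed isClosed_Icc isClosed_Ici
      have h2 : IsClosed {t | t ∈ Icc m b₀ ∧ Fr E I t ∈ Iic (K / 4)} :=
        hc2.preimage_isClosed_of_isClosed isClosed_Icc isClosed_Iic
      have h3 : Icc m b₀ ⊆ {t | t ∈ Icc m b₀ ∧ Real.exp 10 * I t ∈ Ici (I b₀)} ∩
          {t | t ∈ Icc m b₀ ∧ Fr E I t ∈ Iic (K / 4)} := by
        have h4 : Ioc m b₀ ⊆ {t | t ∈ Icc m b₀ ∧ Real.exp 10 * I t ∈ Ici (I b₀)} ∩
            {t | t ∈ Icc m b₀ ∧ Fr E I t ∈ Iic (K / 4)} := fun t ht =>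
          ⟨⟨Ioc_subset_Icc_self ht, (hgood t ht).1⟩, ⟨Ioc_subset_Icc_self ht, (hgood t ht).2⟩⟩
        have h5 := (h1.inter h2).closure_subset_iff.mpr h4
        rwa [closure_Ioc hmb.ne] at h5
      intro t ht
      exact ⟨(h3 ht).1.2, (h3 ht).2.2⟩
    obtain ⟨q1, q2, -, -⟩ := h.est hδ hw hK (by linarith) hab hy hN0 hm.1 hgood2
    rcases hm.2 with h3 | h3
    · have h4 := q2 m (left_mem_Icc.mpr hmb.le)
      have h5 := h.hI m hm.1
      nlinarith
    · have h4 := q1 m b₀ le_rfl hmb.le le_rfl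
      have h5 := hsmall (b₀ - m) (by linarith [hm.1.1])
      have h6 : max (Fr E I b₀) 1 ≤ K / 8 := max_le (by linarith) (by linarith)
      have h7 : max (Fr E I m) 1 ≤ K / 8 * (103 / 100) :=
        h4.trans (mul_le_mul h6 h5 (Real.exp_pos _).le (by positivity))
      have h8 := le_max_left (Fr E I m) 1
      linarith
  obtain ⟨q1, q2, q3, q4⟩ := h.est hδ hw hK (by linarith) hab hy hN0 (left_mem_Icc.mpr hab0) hall
  refine ⟨q1, q2, ?_, ?_⟩
  · intro h2
    have h3 : ∀ t ∈ Icc a b₀, 9 / 5 ≤ Fr E I t := by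
      intro t ht
      have h4 := q1 a t le_rfl ht.1 ht.2
      have h5 := hsmall (t - a) (by linarith [ht.2])
      have h6 : (19 / 10 : ℝ) ≤ max (Fr E I t) 1 * (103 / 100) := by
        calc (19 / 10 : ℝ) ≤ max (Fr E I a) 1 := h2.trans (le_max_left _ _)
          _ ≤ max (Fr E I t) 1 * Real.exp (22 * y * (t - a)) := h4
          _ ≤ max (Fr E I t) 1 * (103 / 100) :=
            mul_le_mul_of_nonneg_left h5 (le_trans zero_le_one (le_max_right _ _))
      rcases le_total (Fr E I t) 1 with h7 | h7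
      · rw [max_eq_right h7] at h6
        norm_num at h6
      · rw [max_eq_left h7] at h6
        linarith
    have h4 := q3 a b₀ (9 / 5) le_rfl hab0 le_rfl h3
    nlinarith
  · have h4 := q4 a b₀ le_rfl hab0 le_rfl
    nlinarith

end Crest.Agent.R234.Nb_290
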