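import Mathlib

/-!
R234 (helper3), VF-PIN part 1 (node (F13) of 518 #6174): frequency data at one centre, up to relative
errors `η`: `E' = 2b + R`, `I' = 2e`, `e = 2E - 2b`, `e² ≤ I R`, `2E ≥ (1 - η) I`, `b ≤ η E`.

With `N = 2E/I`, `β = 2b/I`, `q = R/I - (e/I)²`:
* `N' ≥ 2 q + β² - 20 η (1 + N²)`, `q ≥ - small`;
* `N` is almost nondecreasing, bounded below the top scale;
* `I` is nondecreasing and doubling;
* a pinched window contains a scale with `R - 2 N e + N² I ≤ C (δ + η) I`.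
-/

open Set Real

namespace Crest.Agent.R234.Pin1_3

/-- frequency data at one centre on `[l₀, l₁]` up to relative errors `η`. -/
structure FD (E I e b R : ℝ → ℝ) (η l₀ l₁ : ℝ) : Prop where
  pos : ∀ l ∈ Icc l₀ l₁, 0 < I l
  dE : ∀ l ∈ Icc l₀ l₁, ∃ ε, |ε| ≤ η * (E l + |b l| + I l) ∧ HasDerivAt E (2 * b l + R l + ε) l
  dI : ∀ l ∈ Icc l₀ l₁, ∃ ε, |ε| ≤ η * (E l + |b l| + I l) ∧ HasDerivAt I (2 * e l + ε) l
  eE : ∀ l ∈ Icc l₀ l₁, e l = 2 * E l - 2 * b l
  cs : ∀ l ∈ Icc l₀ l₁, ∃ ε, |ε| ≤ η * (E l + |b l| + I l) ∧ (e l + ε) ^ 2 ≤ I l * R l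
  low : ∀ l ∈ Icc l₀ l₁, (1 - η) * I l ≤ 2 * E l
  bu : ∀ l ∈ Icc l₀ l₁, b l ≤ η * E l

/-- the frequency -/
noncomputable def NN (E I : ℝ → ℝ) (l : ℝ) : ℝ := 2 * E l / I l

/-- the pointwise algebra, everything divided by `I`:
`N = 2E/I`, `B = 2b/I`, `P = R/I`, `ν = N - B`, errors `x, y, z`. -/
theorem alg {N B P x y z η : ℝ} (hη : 0 ≤ η) (hη1 : η ≤ 1 / 16) (hN : 1 - η ≤ N) (hB : B ≤ η * N)
    (hx : |x| ≤ η * (N / 2 + |B| / 2 + 1)) (hy : |y| ≤ η * (N / 2 + |B| / 2 + 1))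
    (hz : |z| ≤ η * (N / 2 + |B| / 2 + 1)) (hcs : (N - B + z) ^ 2 ≤ P) :
    2 * (P - (N - B) ^ 2) + B ^ 2 - 20 * η * (1 + N ^ 2) ≤
        2 * B + 2 * P + 2 * x - N * (2 * (N - B) + y) ∧
      -(8 * η * (1 + N ^ 2)) - B ^ 2 / 4 ≤ P - (N - B) ^ 2 := by
  have hN0 : 0 < N := by linarith
  obtain ⟨a, ha⟩ : ∃ a, a = |B| := ⟨_, rfl⟩
  rw [← ha] at hx hy hz
  have ha0 : 0 ≤ a := by rw [ha]; exact abs_nonneg B
  have haB : B ^ 2 = a ^ 2 := by rw [ha, sq_abs]
  have hηN : 0 ≤ η * N ^ 2 := by positivity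
  have h2 : η * N ≤ η * (1 + N ^ 2) / 2 := by
    have : N ≤ (1 + N ^ 2) / 2 := by linarith [sq_nonneg (N - 1)]
    have := mul_le_mul_of_nonneg_left this hη
    linarith
  have hηη : η * η ≤ η / 16 := by
    have := mul_le_mul_of_nonneg_left hη1 hη
    linarith
  have hηa : η * a ≤ a ^ 2 / 16 + η / 4 := by
    have := sq_nonneg (a / 4 - 2 * η)
    have e : (a / 4 - 2 * η) ^ 2 = a ^ 2 / 16 - η * a + 4 * (η * η) := by ring
    linarith
  have hηNa : η * N * a ≤ a ^ 2 / 16 + η * N ^ 2 / 4 := by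
    have := sq_nonneg (a / 4 - 2 * η * N)
    have e : (a / 4 - 2 * η * N) ^ 2 = a ^ 2 / 16 - η * N * a + 4 * (η * η) * N ^ 2 := by ring
    have h3 : (η * η) * N ^ 2 ≤ η / 16 * N ^ 2 := mul_le_mul_of_nonneg_right hηη (sq_nonneg N)
    linarith
  have hηa0 : 0 ≤ η * a := by positivity
  have hηN1 : 0 ≤ η * N := by positivity
  have hx1 := (abs_le.1 hx).1
  have hy2 := (abs_le.1 hy).2
  constructor
  · -- main inequality
    have e1 : 2 * B + 2 * P + 2 * x - N * (2 * (N - B) + y) =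
        2 * (P - (N - B) ^ 2) + 2 * B ^ 2 + 2 * (B * (1 - N)) + 2 * x - N * y := by ring
    rw [e1]
    have h3 : -(η * N ^ 2 + η * N) - η * a ≤ B * (1 - N) := by
      rcases le_total 0 B with hB0 | hB0
      · rcases le_total 1 N with h | h
        · have h4 : B * (N - 1) ≤ η * N * (N - 1) :=
            mul_le_mul_of_nonneg_right hB (by linarith)
          have e : η * N * (N - 1) = η * N ^ 2 - η * N := by ring
          have e' : B * (1 - N) = -(B * (N - 1)) := by ring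
          linarith
        · have h4 : 0 ≤ B * (1 - N) := mul_nonneg hB0 (by linarith)
          linarith
      · have hBa : B = -a := by rw [ha, abs_of_nonpos hB0]; ring
        have h4 : a * (1 - N) ≤ a * η := mul_le_mul_of_nonneg_left (by linarith) ha0
        have e' : B * (1 - N) = -(a * (1 - N)) := by rw [hBa]; ring
        rw [e']
        linarith
    have h6 : N * y ≤ N * (η * (N / 2 + a / 2 + 1)) := mul_le_mul_of_nonneg_left hy2 hN0.le
    have e6 : N * (η * (N / 2 + a / 2 + 1)) = η * N ^ 2 / 2 + η * N * a / 2 + η * N := by ring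
    have e7 : η * (N / 2 + a / 2 + 1) = η * N / 2 + η * a / 2 + η := by ring
    rw [e6] at h6
    rw [e7] at hx1
    rw [haB]
    have ha2 := sq_nonneg a
    linarith
  · have h3 : -(2 * (|N - B| * |z|)) ≤ P - (N - B) ^ 2 := by
      have h4 : -(|N - B| * |z|) ≤ (N - B) * z := by
        rw [← abs_mul]; exact neg_abs_le _
      have e : (N - B + z) ^ 2 = (N - B) ^ 2 + 2 * ((N - B) * z) + z ^ 2 := by ring
      have := sq_nonneg z
      linarith
    have h5 : |N - B| ≤ N + a := by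
      calc |N - B| ≤ |N| + |B| := abs_sub _ _
        _ = N + a := by rw [abs_of_pos hN0, ha]
    have h6 : |N - B| * |z| ≤ (N + a) * (η * (N / 2 + a / 2 + 1)) :=
      mul_le_mul h5 hz (abs_nonneg _) (by positivity)
    have e1 : (N + a) * (η * (N / 2 + a / 2 + 1)) =
        η * N ^ 2 / 2 + η * N * a + η * a ^ 2 / 2 + η * N + η * a := by ring
    have h8 : η * a ^ 2 ≤ 1 / 16 * a ^ 2 := mul_le_mul_of_nonneg_right hη1 (sq_nonneg a)
    have hηa' : η * a ≤ a ^ 2 / 32 + η / 2 := by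
      have := sq_nonneg (a - 16 * η)
      have e : (a - 16 * η) ^ 2 = a ^ 2 - 32 * (η * a) + 256 * (η * η) := by ring
      linarith
    rw [e1] at h6
    rw [haB]
    have ha2 := sq_nonneg a
    linarith

theorem doubling_alg {B a d N N₁ y : ℝ} (h6 : -B ≤ a) (h8 : a ^ 2 = B ^ 2) (h5 : B ^ 2 ≤ 2 * d + 1)
    (hNu : N ≤ N₁) (hN0 : 0 ≤ N) (hy : y ≤ 1 / 16 * (N / 2 + a / 2 + 1)) :
    2 * (N - B) + y - 2 * d - (3 * N₁ + 6) ≤ 0 := by
  nlinarith [sq_nonneg (a - 5 / 4)]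

namespace FD

variable {E I e b R : ℝ → ℝ} {η l₀ l₁ : ℝ}

theorem NN_low (h : FD E I e b R η l₀ l₁) {l : ℝ} (hl : l ∈ Icc l₀ l₁) : 1 - η ≤ NN E I l := by
  unfold NN
  rw [le_div_iff₀ (h.pos l hl)]
  exact h.low l hl

theorem hasDerivAt_NN (h : FD E I e b R η l₀ l₁) {l : ℝ} (hl : l ∈ Icc l₀ l₁) :
    ∃ d, HasDerivAt (NN E I) d l ∧
      ∃ x y : ℝ, |x| ≤ η * (NN E I l / 2 + |2 * b l / I l| / 2 + 1) ∧
        |y| ≤ η * (NN E I l / 2 + |2 * b l / I l| / 2 + 1) ∧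
        HasDerivAt I (I l * (2 * (NN E I l - 2 * b l / I l) + y)) l ∧
        d = 2 * (2 * b l / I l) + 2 * (R l / I l) + 2 * x -
          NN E I l * (2 * (NN E I l - 2 * b l / I l) + y) := by
  have hI := h.pos l hl
  obtain ⟨ε1, h1, hE'⟩ := h.dE l hl
  obtain ⟨ε3, h3, hI'⟩ := h.dI l hl
  have he := h.eE l hl
  have habs : ∀ ε : ℝ, |ε| ≤ η * (E l + |b l| + I l) →
      |ε / I l| ≤ η * (NN E I l / 2 + |2 * b l / I l| / 2 + 1) := by
    intro ε hε
    rw [abs_div, abs_of_pos hI, div_le_iff₀ hI]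
    refine hε.trans (le_of_eq ?_)
    unfold NN
    rw [abs_div, abs_of_pos hI, abs_mul, abs_two]
    field_simp
  refine ⟨_, (hE'.const_mul 2).div hI' hI.ne', ε1 / I l, ε3 / I l, habs _ h1, habs _ h3, ?_, ?_⟩
  · convert hI' using 1
    unfold NN
    rw [he]
    field_simp
  · unfold NN
    rw [he]
    field_simp

/-- the derivative of the frequency, and `R/I - ν² ≥ - small`. -/
theorem deriv_ge (h : FD E I e b R η l₀ l₁) (hη : 0 ≤ η) (hη1 : η ≤ 1 / 16) {l : ℝ}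
    (hl : l ∈ Icc l₀ l₁) :
    ∃ d, HasDerivAt (NN E I) d l ∧
      2 * (R l / I l - (e l / I l) ^ 2) + (2 * b l / I l) ^ 2 - 20 * η * (1 + NN E I l ^ 2) ≤ d ∧
      -(8 * η * (1 + NN E I l ^ 2)) - (2 * b l / I l) ^ 2 / 4 ≤ R l / I l - (e l / I l) ^ 2 := by
  have hI := h.pos l hl
  obtain ⟨d, hd, x, y, hx, hy, -, hdeq⟩ := h.hasDerivAt_NN hl
  obtain ⟨ε2, h2, hcs⟩ := h.cs l hl
  have he := h.eE l hl
  have hz : |ε2 / I l| ≤ η * (NN E I l / 2 + |2 * b l / I l| / 2 + 1) := by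
    rw [abs_div, abs_of_pos hI, div_le_iff₀ hI]
    refine h2.trans (le_of_eq ?_)
    unfold NN
    rw [abs_div, abs_of_pos hI, abs_mul, abs_two]
    field_simp
  have hB : 2 * b l / I l ≤ η * NN E I l := by
    unfold NN
    rw [← mul_div_assoc]
    apply div_le_div_of_nonneg_right _ hI.le
    have := h.bu l hl
    linarith
  have hν : NN E I l - 2 * b l / I l = e l / I l := by
    unfold NN
    rw [he]
    ring
  have hP : (NN E I l - 2 * b l / I l + ε2 / I l) ^ 2 ≤ R l / I l := by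
    rw [hν, ← add_div, div_pow, div_le_div_iff₀ (by positivity) hI]
    nlinarith
  obtain ⟨a1, a2⟩ := alg hη hη1 (h.NN_low hl) hB hx hy hz hP
  rw [hν] at a1 a2
  refine ⟨d, hd, ?_, a2⟩
  rw [hdeq, hν]
  exact a1

theorem cont_NN (h : FD E I e b R η l₀ l₁) : ContinuousOn (NN E I) (Icc l₀ l₁) := fun l hl => by
  obtain ⟨d, hd, -⟩ := h.hasDerivAt_NN hl
  exact hd.continuousAt.continuousWithinAt

/-- crude lower bound of the derivative -/
theorem deriv_ge' (h : FD E I e b R η l₀ l₁) (hη : 0 ≤ η) (hη1 : η ≤ 1 / 16) {l : ℝ}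
    (hl : l ∈ Icc l₀ l₁) :
    ∃ d, HasDerivAt (NN E I) d l ∧ -(36 * η * (1 + NN E I l ^ 2)) ≤ d := by
  obtain ⟨d, hd, h1, h2⟩ := h.deriv_ge hη hη1 hl
  refine ⟨d, hd, ?_⟩
  have := sq_nonneg (2 * b l / I l)
  linarith

/-- the frequency stays bounded below the top scale -/
theorem NN_le (h : FD E I e b R η l₀ l₁) (hη : 0 ≤ η) (hη1 : η ≤ 1 / 16) (h01 : l₀ ≤ l₁) {N₀ : ℝ}
    (hN₀ : 0 < N₀) (htop : NN E I l₁ ≤ N₀) (hsm : 160 * η * N₀ * (l₁ - l₀) ≤ 1) {l : ℝ}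
    (hl : l ∈ Icc l₀ l₁) : NN E I l ≤ 2 * N₀ := by
  have hpos : ∀ t ∈ Icc l₀ l₁, 15 / 16 ≤ NN E I t := fun t ht => by
    have := h.NN_low ht
    linarith
  -- `1/N - 80 η l` is antitone
  have hanti : AntitoneOn (fun t => (NN E I t)⁻¹ - 80 * η * t) (Icc l₀ l₁) := by
    refine antitoneOn_of_deriv_nonpos (convex_Icc _ _) ?_ ?_ ?_
    · refine ContinuousOn.sub (h.cont_NN.inv₀ fun t ht => ?_) (by fun_prop)
      have := hpos t ht
      linarith
    · intro t ht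
      rw [interior_Icc] at ht
      obtain ⟨d, hd, -⟩ := h.hasDerivAt_NN (Ioo_subset_Icc_self ht)
      have := hpos t (Ioo_subset_Icc_self ht)
      exact ((hd.inv (by linarith)).sub
        ((hasDerivAt_id t).const_mul (80 * η))).differentiableAt.differentiableWithinAt
    · intro t ht
      rw [interior_Icc] at ht
      have ht' := Ioo_subset_Icc_self ht
      obtain ⟨d, hd, hd1⟩ := h.deriv_ge' hη hη1 ht'
      have hp := hpos t ht'
      have hne : NN E I t ≠ 0 := by linarith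
      have h1 := (hd.inv hne).sub ((hasDerivAt_id t).const_mul (80 * η))
      rw [show deriv (fun t => (NN E I t)⁻¹ - 80 * η * t) t = -d / NN E I t ^ 2 - 80 * η * 1 from
        h1.deriv]
      have h2 : 0 < NN E I t ^ 2 := by positivity
      have h3 : -d / NN E I t ^ 2 ≤ 80 * η := by
        rw [div_le_iff₀ h2]
        have h4 : (225 / 256 : ℝ) ≤ NN E I t ^ 2 := by nlinarith
        nlinarith
      linarith
  have h1 := hanti hl (right_mem_Icc.2 h01) hl.2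
  simp only at h1
  have h2 : N₀⁻¹ ≤ (NN E I l₁)⁻¹ := by
    apply inv_anti₀ _ htop
    have := hpos l₁ (right_mem_Icc.2 h01)
    linarith
  have h3 : 80 * η * (l₁ - l) ≤ N₀⁻¹ / 2 := by
    rw [le_div_iff₀ two_pos, inv_eq_one_div, le_div_iff₀ hN₀]
    have : 80 * η * (l₁ - l) * 2 * N₀ ≤ 160 * η * N₀ * (l₁ - l₀) := by
      have h4 : l₁ - l ≤ l₁ - l₀ := by linarith [hl.1]
      have h5 : 0 ≤ 160 * η * N₀ := by positivity
      nlinarith
    linarith
  have h4 : N₀⁻¹ / 2 ≤ (NN E I l)⁻¹ := by linarith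
  have hpl := hpos l hl
  have h5 : NN E I l ≤ (N₀⁻¹ / 2)⁻¹ := by
    rw [← inv_inv (NN E I l)]
    exact inv_anti₀ (by positivity) h4
  have h6 : (N₀⁻¹ / 2)⁻¹ = 2 * N₀ := by field_simp
  linarith

/-- the frequency is almost nondecreasing -/
theorem NN_mono (h : FD E I e b R η l₀ l₁) (hη : 0 ≤ η) (hη1 : η ≤ 1 / 16) {N₁ : ℝ}
    (hN : ∀ l ∈ Icc l₀ l₁, NN E I l ≤ N₁) {l l' : ℝ} (hl : l ∈ Icc l₀ l₁) (hl' : l' ∈ Icc l₀ l₁)
    (hll : l ≤ l') : NN E I l ≤ NN E I l' + 36 * η * (1 + N₁ ^ 2) * (l' - l) := by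
  have hmono : MonotoneOn (fun t => NN E I t + 36 * η * (1 + N₁ ^ 2) * t) (Icc l₀ l₁) := by
    refine monotoneOn_of_deriv_nonneg (convex_Icc _ _) (h.cont_NN.add (by fun_prop)) ?_ ?_
    · intro t ht
      rw [interior_Icc] at ht
      obtain ⟨d, hd, -⟩ := h.hasDerivAt_NN (Ioo_subset_Icc_self ht)
      exact (hd.add ((hasDerivAt_id t).const_mul _)).differentiableAt.differentiableWithinAt
    · intro t ht
      rw [interior_Icc] at ht
      have ht' := Ioo_subset_Icc_self ht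
      obtain ⟨d, hd, hd1⟩ := h.deriv_ge' hη hη1 ht'
      have h1 := hd.add ((hasDerivAt_id t).const_mul (36 * η * (1 + N₁ ^ 2)))
      rw [show deriv (fun t => NN E I t + 36 * η * (1 + N₁ ^ 2) * t) t =
        d + 36 * η * (1 + N₁ ^ 2) * 1 from h1.deriv]
      have h2 : NN E I t ^ 2 ≤ N₁ ^ 2 := by
        have h3 := h.NN_low ht'
        exact pow_le_pow_left₀ (by linarith) (hN t ht') 2
      have h4 : 36 * η * (1 + NN E I t ^ 2) ≤ 36 * η * (1 + N₁ ^ 2) := by gcongr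
      linarith
  have := hmono hl hl' hll
  simp only at this
  linarith

/-- `I` is nondecreasing -/
theorem I_mono (h : FD E I e b R η l₀ l₁) (hη : 0 ≤ η) (hη1 : η ≤ 1 / 16) :
    MonotoneOn I (Icc l₀ l₁) := by
  have hd : ∀ l ∈ Icc l₀ l₁, ∃ d, HasDerivAt I d l ∧ 0 ≤ d := by
    intro l hl
    obtain ⟨-, -, x, y, -, hy, hI', -⟩ := h.hasDerivAt_NN hl
    refine ⟨_, hI', mul_nonneg (h.pos l hl).le ?_⟩
    have hN := h.NN_low hl
    have hI := h.pos l hl
    have hB : 2 * b l / I l ≤ η * NN E I l := by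
      unfold NN
      rw [← mul_div_assoc]
      apply div_le_div_of_nonneg_right _ hI.le
      have := h.bu l hl
      linarith
    have hy1 := (abs_le.1 hy).1
    rcases le_total 0 (2 * b l / I l) with h0 | h0
    · rw [abs_of_nonneg h0] at hy1
      nlinarith [mul_nonneg hη h0]
    · rw [abs_of_nonpos h0] at hy1
      nlinarith [mul_nonneg hη (neg_nonneg.2 h0)]
  refine monotoneOn_of_deriv_nonneg (convex_Icc _ _) ?_ ?_ ?_
  · intro l hl
    obtain ⟨d, hd, -⟩ := hd l hl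
    exact hd.continuousAt.continuousWithinAt
  · intro l hl
    rw [interior_Icc] at hl
    obtain ⟨d, hd, -⟩ := hd l (Ioo_subset_Icc_self hl)
    exact hd.differentiableAt.differentiableWithinAt
  · intro l hl
    rw [interior_Icc] at hl
    obtain ⟨d, hd, h0⟩ := hd l (Ioo_subset_Icc_self hl)
    rw [hd.deriv]
    exact h0

/-- doubling of `I` -/
theorem I_doubling (h : FD E I e b R η l₀ l₁) (hη : 0 ≤ η) (hη1 : η ≤ 1 / 16) {N₁ : ℝ}
    (hN : ∀ l ∈ Icc l₀ l₁, NN E I l ≤ N₁) (hsm : 72 * η * (1 + N₁ ^ 2) ≤ 1) {l l' : ℝ}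
    (hl : l ∈ Icc l₀ l₁) (hl' : l' ∈ Icc l₀ l₁) (hll : l ≤ l') :
    I l' ≤ Real.exp (2 * N₁ + (3 * N₁ + 6) * (l' - l)) * I l := by
  have hd : ∀ t ∈ Icc l₀ l₁, ∃ d, HasDerivAt (fun t => Real.log (I t) - 2 * NN E I t -
      (3 * N₁ + 6) * t) d t ∧ d ≤ 0 := by
    intro t ht
    obtain ⟨d, hd, x, y, hx, hy, hI', hdeq⟩ := h.hasDerivAt_NN ht
    have hI := h.pos t ht
    refine ⟨_, ((hI'.log hI.ne').sub (hd.const_mul 2)).sub
      ((hasDerivAt_id t).const_mul (3 * N₁ + 6)), ?_⟩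
    obtain ⟨d', hd', h1, h2⟩ := h.deriv_ge hη hη1 ht
    have hdd : d' = d := hd'.unique hd
    subst hdd
    rw [mul_div_cancel_left₀ _ hI.ne']
    have hNl := h.NN_low ht
    have hNu := hN t ht
    have hy2 := (abs_le.1 hy).2
    have h3 : NN E I t ^ 2 ≤ N₁ ^ 2 := pow_le_pow_left₀ (by linarith) hNu 2
    have h4 : 72 * η * (1 + NN E I t ^ 2) ≤ 1 := le_trans (by gcongr) hsm
    have h5 : (2 * b t / I t) ^ 2 ≤ 2 * d' + 1 := by linarith
    have h7 : η * (NN E I t / 2 + |2 * b t / I t| / 2 + 1) ≤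
        1 / 16 * (NN E I t / 2 + |2 * b t / I t| / 2 + 1) := by
      apply mul_le_mul_of_nonneg_right hη1
      have := abs_nonneg (2 * b t / I t)
      linarith
    have h9 := doubling_alg (neg_le_abs (2 * b t / I t)) (sq_abs (2 * b t / I t)) h5 hNu
      (by linarith) (hy2.trans h7)
    linarith
  have hanti : AntitoneOn (fun t => Real.log (I t) - 2 * NN E I t - (3 * N₁ + 6) * t)
      (Icc l₀ l₁) := by
    refine antitoneOn_of_deriv_nonpos (convex_Icc _ _) ?_ ?_ ?_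
    · intro t ht
      obtain ⟨d, hd, -⟩ := hd t ht
      exact hd.continuousAt.continuousWithinAt
    · intro t ht
      rw [interior_Icc] at ht
      obtain ⟨d, hd, -⟩ := hd t (Ioo_subset_Icc_self ht)
      exact hd.differentiableAt.differentiableWithinAt
    · intro t ht
      rw [interior_Icc] at ht
      obtain ⟨d, hd, h0⟩ := hd t (Ioo_subset_Icc_self ht)
      rw [hd.deriv]
      exact h0
  have h1 := hanti hl hl' hll
  simp only at h1
  have hI := h.pos l hl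
  have hI' := h.pos l' hl'
  rw [← Real.log_le_log_iff hI' (by positivity), Real.log_mul (Real.exp_pos _).ne' hI.ne',
    Real.log_exp]
  have h2 := h.NN_low hl
  have h3 := hN l' hl'
  linarith

/-- **a pinched window contains a scale where the quadratic form is small** -/
theorem exists_pinched (h : FD E I e b R η l₀ l₁) (hη : 0 ≤ η) (hη1 : η ≤ 1 / 16) {N₁ : ℝ}
    (hN : ∀ l ∈ Icc l₀ l₁, NN E I l ≤ N₁) {l l' δ : ℝ} (hl : l ∈ Icc l₀ l₁) (hl' : l' ∈ Icc l₀ l₁)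
    (hll : l < l') (hδ : NN E I l' - NN E I l ≤ δ * (l' - l)) :
    ∃ t ∈ Ioo l l', R t - 2 * NN E I t * e t + NN E I t ^ 2 * I t ≤
      (5 / 2 * δ + 82 * η * (1 + N₁ ^ 2)) * I t := by
  have hsub : Icc l l' ⊆ Icc l₀ l₁ := Icc_subset_Icc hl.1 hl'.2
  obtain ⟨t, ht, hs⟩ := exists_deriv_eq_slope (NN E I) hll (h.cont_NN.mono hsub) (fun t ht => by
    obtain ⟨d, hd, -⟩ := h.hasDerivAt_NN (hsub (Ioo_subset_Icc_self ht))
    exact hd.differentiableAt.differentiableWithinAt)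
  refine ⟨t, ht, ?_⟩
  have ht' := hsub (Ioo_subset_Icc_self ht)
  obtain ⟨d, hd, h1, h2⟩ := h.deriv_ge hη hη1 ht'
  rw [hd.deriv] at hs
  have hdδ : d ≤ δ := by
    rw [hs, div_le_iff₀ (by linarith)]
    exact hδ
  have hI := h.pos t ht'
  have he := h.eE t ht'
  have hNl := h.NN_low ht'
  have hN2 : NN E I t ^ 2 ≤ N₁ ^ 2 := pow_le_pow_left₀ (by linarith) (hN t ht') 2
  have h4 : η * (1 + NN E I t ^ 2) ≤ η * (1 + N₁ ^ 2) := by gcongr
  have key : R t - 2 * NN E I t * e t + NN E I t ^ 2 * I t =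
      ((R t / I t - (e t / I t) ^ 2) + (2 * b t / I t) ^ 2) * I t := by
    unfold NN
    rw [he]
    field_simp
    ring
  rw [key]
  apply mul_le_mul_of_nonneg_right _ hI.le
  have h5 := sq_nonneg (2 * b t / I t)
  linarith

end FD

end Crest.Agent.R234.Pin1_3
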