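import Crest.Agent.R234.Dbl2_534
import Crest.Agent.R234.Nb1_290
import Crest.Agent.R234.Pin1_3

/-!
# Row 234, VF-F11 (helper534): from 290's `StepData` (sloppy errors, one fixed reference, window of
any bounded length) to 3's `FD` (relative errors) at a `Q`-point
-/

set_option autoImplicit false

open Set Real

namespace Crest.Agent.R234.Dbl_534

open Crest.Agent.R234.Nb_290 (StepData)
open Crest.Agent.R234.Pin1_3 (FD NN)

/-- `e ≤ √(I R) + d` as a perturbed Cauchy–Schwarz inequality. -/
theorem exists_pert {e I R d : ℝ} (he : 0 ≤ e) (hI : 0 ≤ I) (hR : 0 ≤ R) (hd : 0 ≤ d)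
    (h : e ≤ sqrt (I * R) + d) : ∃ ep, |ep| ≤ d ∧ (e + ep) ^ 2 ≤ I * R := by
  rcases le_total e d with h1 | h1
  · refine ⟨-e, by rw [abs_neg, abs_of_nonneg he]; exact h1, ?_⟩
    have : 0 ≤ I * R := mul_nonneg hI hR
    simpa using this
  · refine ⟨-d, by rw [abs_neg, abs_of_nonneg hd], ?_⟩
    have h2 : e + -d ≤ sqrt (I * R) := by linarith
    calc (e + -d) ^ 2 ≤ (sqrt (I * R)) ^ 2 := pow_le_pow_left₀ (by linarith) h2 2
      _ = I * R := sq_sqrt (mul_nonneg hI hR)

/-- `StepData` + low frequency + crude bounds ⟹ `Dat`. -/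
theorem dat_of_step {lo t0 t1 del w rho Ce : ℝ} {I E e b R : ℝ → ℝ}
    (h : StepData lo t1 del w I E e b R) (hdel : 0 ≤ del) (hw : 0 ≤ w)
    (hlow : ∀ l ∈ Icc lo t1, I l ≤ 4 * E l) (hCe : ∀ l ∈ Icc lo t1, e l + I l ≤ Ce * I t0) 
    (hrho : 0 ≤ rho) :
    ∃ ep dE dI : ℝ → ℝ, Dat E I e b R ep dE dI lo t1 (del * (Ce * I t0) + w) 0 rho := by
  classical
  have hI' : ∀ l, ∃ d, l ∈ Icc lo t1 → HasDerivAt I d l ∧ |d - 2 * e l| ≤ del * I l + w := by
    intro l
    by_cases hl : l ∈ Icc lo t1
    · obtain ⟨d, hd⟩ := h.dI l hl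
      exact ⟨d, fun _ => hd⟩
    · exact ⟨0, fun h' => absurd h' hl⟩
  have hE' : ∀ l, ∃ d, l ∈ Icc lo t1 → HasDerivAt E d l ∧
      2 * b l + R l - (del * (e l + I l) + w) ≤ d := by
    intro l
    by_cases hl : l ∈ Icc lo t1
    · obtain ⟨d, hd⟩ := h.dE l hl
      exact ⟨d, fun _ => hd⟩
    · exact ⟨0, fun h' => absurd h' hl⟩
  have hep' : ∀ l, ∃ d, l ∈ Icc lo t1 → |d| ≤ del * I l + w ∧ (e l + d) ^ 2 ≤ I l * R l := by
    intro l
    by_cases hl : l ∈ Icc lo t1
    · have hIl := (h.hI l hl).le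
      obtain ⟨d, hd⟩ := exists_pert (h.he l hl) hIl (h.hR l hl)
        (by positivity : 0 ≤ del * I l + w) (h.hCS l hl)
      exact ⟨d, fun _ => hd⟩
    · exact ⟨0, fun h' => absurd h' hl⟩
  choose dI hdI using hI'
  choose dE hdE using hE'
  choose ep hep using hep'
  have hIle : ∀ l ∈ Icc lo t1, del * I l + w ≤ del * (Ce * I t0) + w := by
    intro l hl
    have h1 := hCe l hl
    have h2 := h.he l hl
    have h3 : del * I l ≤ del * (Ce * I t0) := mul_le_mul_of_nonneg_left (by linarith) hdel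
    linarith
  refine ⟨ep, dE, dI, ?_⟩
  exact
    { hE := fun l hl => (hdE l hl).1
      hI := fun l hl => (hdI l hl).1
      pos := h.hI
      e0 := h.he
      low := hlow
      E1 := fun l hl => by
        have h1 := (hdE l hl).2
        have h2 : del * (e l + I l) ≤ del * (Ce * I t0) :=
          mul_le_mul_of_nonneg_left (hCe l hl) hdel
        linarith
      I1 := fun l hl => (hdI l hl).2.trans (hIle l hl)
      eE := fun l hl => by linarith [h.hE l hl]
      S1 := fun l hl => (hep l hl).2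
      S2 := fun l hl => (hep l hl).1.trans (hIle l hl)
      b1 := fun l hl M hM => by
        have hl' : l ∈ Icc lo t1 := ⟨hl.1, hl.2.trans (by linarith)⟩
        have h1 := h.hb l hl'
        have h2 := hIle l hl'
        linarith }

/-- **(F11)**: thresholds such that data with sloppy errors on `[lo, t₁]` give relative data
(`FD`) on `[lo, t₀]`, bounded frequency and non-degenerate height. -/
structure Thr2 (C1 Ce Lw hw et k0 c0 : ℝ) : Prop where
  k : 0 < k0
  c : 0 < c0
  main : ∀ (I E e b R : ℝ → ℝ) (lo t0 t1 del w : ℝ), lo ≤ t0 → t1 - lo ≤ Lw →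
    t0 + hw ≤ t1 → 0 ≤ del → del ≤ k0 → 0 ≤ w → w ≤ k0 * I t0 →
    StepData lo t1 del w I E e b R →
    (∀ l ∈ Icc lo t1, (1 - et) * I l ≤ 2 * E l) →
    (∀ l ∈ Icc lo t1, e l + I l ≤ Ce * I t0) →
    (∀ l ∈ Icc t0 t1, E l ≤ C1 * I t0) →
    ∃ R' : ℝ → ℝ, (∀ l ∈ Icc lo t0, R l ≤ R' l) ∧ FD E I e b R' et lo t0 ∧
      (∀ l ∈ Icc lo t0, NN E I l ≤ 8 * C1) ∧ ∀ l ∈ Icc lo t0, c0 * I t0 ≤ I l

theorem fd_of_step {C1 Ce Lw hw et : ℝ} (hC1 : 1 ≤ C1) (hCe : 1 ≤ Ce) (hLw : 0 ≤ Lw) (hhw : 0 < hw)
    (het : 0 < et) (het1 : et ≤ 1 / 2) : ∃ k0 c0 : ℝ, Thr2 C1 Ce Lw hw et k0 c0 := by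
  obtain ⟨th0, eta0, rho0, c0, hT⟩ := freq_below hC1 hLw hhw
  have hth := hT.th
  have hc0 := hT.c
  have hCe0 : 0 < Ce := by linarith
  set k0 : ℝ := min (th0 / (2 * Ce)) (min (et / 8) (min (et * c0 / 8) 1)) with hk0
  have hk00 : 0 < k0 := by
    rw [hk0]
    refine lt_min (by positivity) (lt_min (by positivity) (lt_min (by positivity) one_pos))
  have hk1 : k0 * (2 * Ce) ≤ th0 := by
    have : k0 ≤ th0 / (2 * Ce) := min_le_left _ _
    rwa [le_div_iff₀ (by positivity)] at this
  have hk2 : k0 ≤ et / 8 := (min_le_right _ _).trans (min_le_left _ _)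
  have hk3 : k0 ≤ et * c0 / 8 :=
    (min_le_right _ _).trans ((min_le_right _ _).trans (min_le_left _ _))
  refine ⟨k0, c0, hk00, hc0, ?_⟩
  intro I E e b R lo t0 t1 del w hlo ht1 htw hdel hdelk hw hwk h hlow hCe' htop
  have ht0 : t0 ∈ Icc lo t1 := ⟨hlo, by linarith⟩
  have hIt0 := h.hI t0 ht0
  have hlow4 : ∀ l ∈ Icc lo t1, I l ≤ 4 * E l := by
    intro l hl
    have h1 := hlow l hl
    have h2 := h.hI l hl
    nlinarith
  obtain ⟨ep, dE, dI, hD⟩ := dat_of_step (t0 := t0) (rho := rho0) h hdel hw hlow4 hCe' hT.rho.le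
  have hres := hT.main E I e b R ep dE dI lo t0 t1 _ 0 rho0 hlo ht1 htw (by positivity)
    (by
      have h1 : del * (Ce * I t0) ≤ k0 * (Ce * I t0) := by gcongr
      have h2 : w ≤ k0 * Ce * I t0 := by
        have : k0 * I t0 ≤ k0 * Ce * I t0 := by
          have h3 : k0 * 1 ≤ k0 * Ce := by gcongr
          calc k0 * I t0 = (k0 * 1) * I t0 := by ring
            _ ≤ (k0 * Ce) * I t0 := by gcongr
        linarith
      calc del * (Ce * I t0) + w ≤ (k0 * (2 * Ce)) * I t0 := by linarith
        _ ≤ th0 * I t0 := by gcongr)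
    le_rfl hT.eta.le hT.rho le_rfl hD htop
  have hsub : ∀ l ∈ Icc lo t0, l ∈ Icc lo t1 := fun l hl => ⟨hl.1, hl.2.trans ht0.2⟩
  -- relative errors
  have hwI : ∀ l ∈ Icc lo t0, w ≤ et / 8 * I l := by
    intro l hl
    have h1 := (hres l hl).2
    calc w ≤ k0 * I t0 := hwk
      _ ≤ (et * c0 / 8) * I t0 := by gcongr
      _ = et / 8 * (c0 * I t0) := by ring
      _ ≤ et / 8 * I l := by gcongr
  have hdI : ∀ l ∈ Icc lo t0, del * I l ≤ et / 8 * I l := by
    intro l hl
    have := h.hI l (hsub l hl)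
    gcongr
    exact hdelk.trans hk2
  refine ⟨fun l => dE l - 2 * b l + (del * (e l + I l) + w), ?_, ?_, ?_, fun l hl => (hres l hl).2⟩
  · intro l hl
    obtain ⟨d, hd1, hd2⟩ := h.dE l (hsub l hl)
    have := (hD.hE l (hsub l hl)).unique hd1
    show R l ≤ dE l - 2 * b l + (del * (e l + I l) + w)
    rw [this]; linarith
  · have hRR : ∀ l ∈ Icc lo t0, R l ≤ dE l - 2 * b l + (del * (e l + I l) + w) := by
      intro l hl
      obtain ⟨d, hd1, hd2⟩ := h.dE l (hsub l hl)
      have := (hD.hE l (hsub l hl)).unique hd1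
      rw [this]; linarith
    have hIl : ∀ l ∈ Icc lo t0, 0 < I l := fun l hl => h.hI l (hsub l hl)
    have hEl : ∀ l ∈ Icc lo t0, 0 < E l := fun l hl => by
      linarith [hIl l hl, hlow4 l (hsub l hl)]
    have hdel8 : del ≤ et / 8 := hdelk.trans hk2
    exact
      { pos := hIl
        dE := fun l hl => by
          refine ⟨-(del * (e l + I l) + w), ?_, ?_⟩
          · have h0 := h.he l (hsub l hl)
            have h1 := hIl l hl
            have h2 := hEl l hl
            have h3 : e l ≤ 2 * (E l + |b l|) := by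
              have := h.hE l (hsub l hl)
              have := neg_abs_le (b l)
              linarith
            rw [abs_neg, abs_of_nonneg (by positivity)]
            have h4 : del * e l ≤ et / 8 * (2 * (E l + |b l|)) := by
              apply mul_le_mul hdel8 h3 h0 (by positivity)
            have h5 := hwI l hl
            have h6 := hdI l hl
            have h7 : 0 ≤ et * (E l + |b l|) := by positivity
            nlinarith
          · have := hD.hE l (hsub l hl)
            convert this using 1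
            ring
        dI := fun l hl => by
          obtain ⟨d, hd1, hd2⟩ := h.dI l (hsub l hl)
          refine ⟨d - 2 * e l, ?_, ?_⟩
          · have h1 := hIl l hl
            have h2 := hEl l hl
            have h5 := hwI l hl
            have h6 := hdI l hl
            have h7 : 0 ≤ et * (E l + |b l|) := by positivity
            have h8 : 0 ≤ et * I l := by positivity
            nlinarith
          · convert hd1 using 1
            ring
        eE := fun l hl => by linarith [h.hE l (hsub l hl)]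
        cs := fun l hl => by
          have h1 := hIl l hl
          have h2 := hEl l hl
          obtain ⟨d, hd1, hd2⟩ := exists_pert (h.he l (hsub l hl)) h1.le (h.hR l (hsub l hl))
            (by positivity : 0 ≤ del * I l + w) (h.hCS l (hsub l hl))
          refine ⟨d, ?_, ?_⟩
          · have h5 := hwI l hl
            have h6 := hdI l hl
            have h7 : 0 ≤ et * (E l + |b l|) := by positivity
            have h8 : 0 ≤ et * I l := by positivity
            nlinarith
          · exact hd2.trans (mul_le_mul_of_nonneg_left (hRR l hl) h1.le)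
        low := fun l hl => hlow l (hsub l hl)
        bu := fun l hl => by
          have h1 := h.hb l (hsub l hl)
          have h5 := hwI l hl
          have h6 := hdI l hl
          have h7 := hlow4 l (hsub l hl)
          have h8 : et * I l ≤ et * (4 * E l) := by gcongr
          linarith }
  · intro l hl
    unfold NN
    rw [div_le_iff₀ (h.hI l (hsub l hl))]
    exact (hres l hl).1

end Crest.Agent.R234.Dbl_534
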