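import Crest.Agent.R234.Pot4_425

/-!
Row 234, VF-SOFT (helper309): localised contact frame over `Pot_425`.
`pt_mean2`: the averaging identity for `‖x‖ + s ≤ 1`; `contact_loc`: the contact measure is carried by the
`τ`-neighbourhood of the support of `b₁` (weak maximum principle by mean values).
-/

open MeasureTheory Filter Topology Set Metric
open scoped ENNReal NNReal

namespace Crest.Agent.R234.Dom_309

open Crest.Agent.R234.Pot_425

noncomputable section

set_option linter.unusedSectionVars false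

variable {F : Type*} [NormedAddCommGroup F] [InnerProductSpace ℝ F] [FiniteDimensional ℝ F]
  [MeasurableSpace F] [BorelSpace F]

variable {m : ℕ} {τ : ℝ}

attribute [local irreducible] DD KK PP gg

lemma pp_ge2 (hτ : 0 < τ) {z y : F} (hz : ‖z‖ ≤ 1) (hy : ‖y‖ ≤ 1 - τ) : τ ^ 2 ≤ pp z y := by
  have h1 : pp z y = 1 - 2 * inner ℝ z y + ‖z‖ ^ 2 * ‖y‖ ^ 2 := by
    unfold pp
    rw [norm_sub_sq_real]; ring
  have h2 := real_inner_le_norm z y
  have h3 : ‖z‖ * ‖y‖ ≤ 1 - τ := by
    calc ‖z‖ * ‖y‖ ≤ 1 * ‖y‖ := by gcongr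
      _ ≤ 1 - τ := by linarith
  have h4 : τ ≤ 1 - ‖z‖ * ‖y‖ := by linarith
  have h5 : (1 - ‖z‖ * ‖y‖) ^ 2 ≤ pp z y := by rw [h1]; nlinarith
  nlinarith

lemma dv_HK2 (hm : m = Module.finrank ℝ F) (hτ : 0 < τ) {y z : F} (hz : ‖z‖ ≤ 1)
    (hy : ‖y‖ ≤ 1 - τ) : dv (HK m τ y z) = - DD m τ (‖z - y‖ ^ 2) := by
  rw [dv_HK hm, DD_of_ge hτ (pp_ge2 hτ hz hy)]
  ring

/-- averaging identity for potentials, up to the unit sphere -/
theorem pt_mean2 (hm : m = Module.finrank ℝ F) (hτ : 0 < τ) (w : Wt) (μ : Measure (XB F τ))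
    [IsFiniteMeasure μ] {x : F} {s : ℝ} (hs : 0 ≤ s) (hx : ‖x‖ + s ≤ 1) :
    ∫ y, w.eta y * pt m τ μ (x - s • y) = (∫ y : F, w.eta y) * pt m τ μ x - SS m τ w μ x s := by
  have hpsi := w.continuous_psi (F := F)
  have heta := w.continuous_eta (F := F)
  have hK := continuous_KK (m := m) (F := F) hτ
  have hD := continuous_DD (m := m) hτ
  have e1 : ∫ y', w.eta y' * pt m τ μ (x - s • y') =
      ∫ y : XB F τ, (∫ y' : F, w.eta y' * KK m τ (x - s • y') (y : F)) ∂μ := by
    rw [← swap_ball (F := F) μ (g := fun (y' : F) (y : XB F τ) =>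
      w.eta y' * KK m τ (x - s • y') (y : F))]
    · refine integral_congr_ae (Eventually.of_forall fun y' => ?_)
      simp only [pt]
      rw [integral_const_mul]
    · have h : Continuous fun p : F × XB F τ => (x - s • p.1, (p.2 : F)) := by fun_prop
      exact (heta.comp continuous_fst).mul (hK.comp h)
    · intro y' hy' y
      rw [w.eta_zero hy', zero_mul]
  let J : ℝ × XB F τ → ℝ := fun p => ∫ y' : F, w.psi y' * DD m τ (‖(x - p.1 • y') - (p.2 : F)‖ ^ 2)
  have hJ : Continuous J := by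
    refine continuous_int_ball (g := fun (p : ℝ × XB F τ) (y' : F) =>
      w.psi y' * DD m τ (‖(x - p.1 • y') - (p.2 : F)‖ ^ 2)) ?_ ?_
    · have h : Continuous fun p : (ℝ × XB F τ) × F => ‖(x - p.1.1 • p.2) - (p.1.2 : F)‖ ^ 2 := by
        fun_prop
      exact (hpsi.comp continuous_snd).mul (hD.comp h)
    · intro y' hy' z
      simp only [w.psi_zero hy', zero_mul]
  have e2 : ∀ y : XB F τ, ∫ y' : F, w.eta y' * KK m τ (x - s • y') (y : F) =
      (∫ y : F, w.eta y) * KK m τ x (y : F) - ∫ ρ in (0 : ℝ)..s, (ρ * J (ρ, y)) := by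
    intro y
    have h := scale_identity w (hasFDerivAt_KK (m := m) hτ (y : F)) (hasFDerivAt_GK hτ (y : F))
      (continuous_HK hτ (y : F)) x s
    have h2 : ∫ ρ in (0 : ℝ)..s, (ρ * ∫ y', w.psi y' * dv (HK m τ (y : F) (x - ρ • y'))) =
        - ∫ ρ in (0 : ℝ)..s, (ρ * J (ρ, y)) := by
      rw [← intervalIntegral.integral_neg]
      refine intervalIntegral.integral_congr fun ρ hρ => ?_
      rw [uIcc_of_le hs] at hρ
      simp only [J]
      rw [← mul_neg, ← integral_neg]
      congr 1
      refine integral_congr_ae (Eventually.of_forall fun y' => ?_)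
      simp only
      by_cases hy : y' ∈ closedBall (0 : F) 1
      · have hy1 : ‖y'‖ ≤ 1 := by simpa using hy
        have hz : ‖x - ρ • y'‖ ≤ 1 := by
          have h5 : ‖ρ • y'‖ ≤ s := by
            rw [norm_smul, Real.norm_of_nonneg hρ.1]
            nlinarith [norm_nonneg y', hρ.1, hρ.2]
          have := norm_sub_le x (ρ • y')
          linarith
        rw [dv_HK2 hm hτ hz (XB_norm y)]
        ring
      · rw [w.psi_zero hy]; simp
    rw [h2] at h
    linarith
  rw [e1]
  simp only [e2]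
  have hint1 : Integrable (fun y : XB F τ => (∫ y : F, w.eta y) * KK m τ x (y : F)) μ := by
    refine integrable_cont μ ?_
    have h : Continuous fun y : XB F τ => (x, (y : F)) := by fun_prop
    exact continuous_const.mul (hK.comp h)
  have hcI : Continuous fun y : XB F τ => ∫ ρ in (0 : ℝ)..s, (ρ * J (ρ, y)) := by
    refine intervalIntegral.continuous_parametric_intervalIntegral_of_continuous' ?_ _ _
    show Continuous fun p : XB F τ × ℝ => p.2 * J (p.2, p.1)
    exact continuous_snd.mul (hJ.comp (continuous_snd.prodMk continuous_fst))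
  rw [integral_sub hint1 (integrable_cont μ hcI), integral_const_mul]
  have e5 : ∫ y : XB F τ, (∫ ρ in (0 : ℝ)..s, (ρ * J (ρ, y))) ∂μ = SS m τ w μ x s := by
    rw [← swap_interval μ (g := fun (ρ : ℝ) (y : XB F τ) => ρ * J (ρ, y)) ?_ hs]
    · refine intervalIntegral.integral_congr fun ρ _ => ?_
      show ∫ y : XB F τ, ρ * J (ρ, y) ∂μ = _
      rw [integral_const_mul]
      congr 1
      simp only [J]
      rw [← swap_ball (F := F) μ (g := fun (y' : F) (y : XB F τ) =>
        w.psi y' * DD m τ (‖(x - ρ • y') - (y : F)‖ ^ 2))]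
      · refine integral_congr_ae (Eventually.of_forall fun y' => ?_)
        simp only [ml]
        rw [integral_const_mul]
      · have h : Continuous fun p : F × XB F τ => ‖(x - ρ • p.1) - (p.2 : F)‖ ^ 2 := by
          fun_prop
        exact (hpsi.comp continuous_fst).mul (hD.comp h)
      · intro y' hy' y
        rw [w.psi_zero hy']; simp
    · exact continuous_fst.mul hJ
  rw [e5]
  rfl

/-! ### the profiles `x²/(x+a)` -/

/-- `x₊² / (x₊ + a)` -/
def fa (a x : ℝ) : ℝ := (max x 0) ^ 2 / (max x 0 + a)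

/-- its derivative -/
def fa' (a x : ℝ) : ℝ := ((max x 0) ^ 2 + 2 * a * max x 0) / (max x 0 + a) ^ 2

lemma hasDerivAt_fa {a : ℝ} (ha : 0 < a) (x : ℝ) : HasDerivAt (fa a) (fa' a x) x := by
  rcases lt_trichotomy x 0 with h | h | h
  · have h1 : fa' a x = 0 := by simp [fa', max_eq_right h.le]
    rw [h1]
    refine (hasDerivAt_const x (0 : ℝ)).congr_of_eventuallyEq ?_
    filter_upwards [eventually_lt_nhds h] with y hy
    simp [fa, max_eq_right (le_of_lt hy)]
  · subst h
    have h1 : fa' a 0 = 0 := by simp [fa']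
    rw [h1, hasDerivAt_iff_isLittleO]
    have h2 : fa a 0 = 0 := by simp [fa]
    simp only [h2, sub_zero, smul_zero]
    have h3 : (fun x : ℝ => fa a x) =O[𝓝 0] fun x : ℝ => x ^ 2 := by
      refine Asymptotics.IsBigO.of_bound a⁻¹ (Eventually.of_forall fun y => ?_)
      have h4 : 0 ≤ max y 0 := le_max_right _ _
      have h5 : (max y 0) ^ 2 ≤ y ^ 2 := by
        rcases le_total y 0 with h | h
        · rw [max_eq_right h]; nlinarith [sq_nonneg y]
        · rw [max_eq_left h]
      unfold fa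
      rw [Real.norm_of_nonneg (show 0 ≤ (max y 0) ^ 2 / (max y 0 + a) by positivity),
        Real.norm_of_nonneg (show (0 : ℝ) ≤ y ^ 2 by positivity), inv_mul_eq_div]
      calc (max y 0) ^ 2 / (max y 0 + a) ≤ (max y 0) ^ 2 / a := by gcongr; linarith
        _ ≤ y ^ 2 / a := by gcongr
    refine h3.trans_isLittleO ?_
    have := Asymptotics.isLittleO_pow_id (𝕜 := ℝ) (n := 2) (by norm_num)
    simpa using this
  · have h0 : 0 < x + a := by linarith
    have h1 : HasDerivAt (fun x : ℝ => x ^ 2 / (x + a)) (fa' a x) x := by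
      have h2 := (hasDerivAt_pow 2 x).div ((hasDerivAt_id x).add_const a) h0.ne'
      refine h2.congr_deriv ?_
      simp only [fa', max_eq_left h.le, id]
      field_simp
      ring
    refine h1.congr_of_eventuallyEq ?_
    filter_upwards [eventually_gt_nhds h] with y hy
    simp [fa, max_eq_left (le_of_lt hy)]

lemma continuous_fa' {a : ℝ} (ha : 0 < a) : Continuous (fa' a) := by
  unfold fa'
  have h : Continuous fun x : ℝ => max x 0 := continuous_id.max continuous_const
  refine (((h.pow 2).add (continuous_const.mul h))).div ((h.add continuous_const).pow 2) fun x => ?_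
  have h4 : 0 ≤ max x 0 := le_max_right _ _
  have h5 : 0 < max x 0 + a := by linarith
  exact (pow_pos h5 2).ne'

lemma fa'_nonneg {a : ℝ} (ha : 0 < a) (x : ℝ) : 0 ≤ fa' a x := by
  have h4 : 0 ≤ max x 0 := le_max_right _ _
  unfold fa'; positivity

lemma fa'_le_one {a : ℝ} (ha : 0 < a) (x : ℝ) : fa' a x ≤ 1 := by
  have h4 : 0 ≤ max x 0 := le_max_right _ _
  unfold fa'
  rw [div_le_one (by positivity)]
  nlinarith [sq_nonneg a]

lemma fa'_pos {a : ℝ} (ha : 0 < a) {x : ℝ} (hx : 0 < x) : 0 < fa' a x := by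
  unfold fa'
  rw [max_eq_left hx.le]
  positivity

/-- the weights -/
def wa {a : ℝ} (ha : 0 < a) : Wt where
  θ t := fa a (1 - t)
  θ' t := -fa' a (1 - t)
  deriv t := by
    have h := (hasDerivAt_fa ha (1 - t)).comp t ((hasDerivAt_id t).const_sub 1)
    refine h.congr_deriv ?_
    simp
  cont' := ((continuous_fa' ha).comp (by fun_prop)).neg
  anti t := by have := fa'_nonneg ha (1 - t); linarith
  zero t ht := by simp [fa, max_eq_right (by linarith : 1 - t ≤ 0)]
  zero' t ht := by simp [fa', max_eq_right (by linarith : 1 - t ≤ 0)]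

lemma wa_eta {a : ℝ} (ha : 0 < a) (y : F) : (wa ha).eta y = 2 * fa' a (1 - ‖y‖ ^ 2) := by
  simp [Wt.eta, wa]

lemma wa_psi {a : ℝ} (ha : 0 < a) (y : F) : (wa ha).psi y = fa a (1 - ‖y‖ ^ 2) := by
  simp [Wt.psi, wa]

/-! ### the localised contact frame -/

lemma ml_zero (hτ : 0 < τ) (μ : Measure (XB F τ)) [IsFiniteMeasure μ] {z : F}
    (h : ∀ y ∈ μ.support, τ ≤ ‖z - (y : F)‖) : ml m τ μ z = 0 := by
  unfold ml
  have h1 : ∀ᵐ y ∂μ, y ∈ μ.support := Measure.support_mem_ae
  have h2 : (fun y : XB F τ => DD m τ (‖z - (y : F)‖ ^ 2)) =ᵐ[μ] fun _ => 0 := by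
    filter_upwards [h1] with y hy
    exact DD_of_ge hτ (by have := h y hy; gcongr)
  rw [integral_congr_ae h2]
  simp

lemma pt_zero (μ : Measure (XB F τ)) {z : F} (hz : ‖z‖ = 1) : pt m τ μ z = 0 := by
  unfold pt
  simp [KK_zero hz]

/-- weak maximum principle by mean values -/
theorem max_principle (hm : m = Module.finrank ℝ F) (hm0 : 0 < m) (hτ : 0 < τ)
    (b₁ b₂ ε : Measure (XB F τ)) [IsFiniteMeasure b₁] [IsFiniteMeasure b₂] [IsFiniteMeasure ε]
    (S : Set F) (hS : IsClosed S) (hml : ∀ z : F, ‖z‖ < 1 → z ∉ S → ml m τ b₁ z = 0)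
    (hle : ∀ z ∈ S, ‖z‖ ≤ 1 → pt m τ b₁ z - pt m τ b₂ z - pt m τ ε z ≤ 0) (z : F) (hz : ‖z‖ ≤ 1) :
    pt m τ b₁ z - pt m τ b₂ z - pt m τ ε z ≤ 0 := by
  by_contra hcon
  rw [not_le] at hcon
  set v : F → ℝ := fun z => pt m τ b₁ z - pt m τ b₂ z - pt m τ ε z with hv
  have hvc : Continuous v :=
    ((continuous_pt hτ b₁).sub (continuous_pt hτ b₂)).sub (continuous_pt hτ ε)
  have hYc : IsCompact (closedBall (0 : F) 1) := isCompact_closedBall _ _
  obtain ⟨x1, hx1, hmax⟩ := hYc.exists_isMaxOn ⟨z, by simpa using hz⟩ hvc.continuousOn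
  set M := v x1 with hM
  have hMpos : 0 < M := lt_of_lt_of_le hcon (hmax (by simpa using hz : z ∈ closedBall (0:F) 1))
  have hKc : IsCompact (closedBall (0 : F) 1 ∩ v ⁻¹' {M}) :=
    hYc.inter_right (isClosed_singleton.preimage hvc)
  obtain ⟨x, hx, hxmax⟩ := hKc.exists_isMaxOn ⟨x1, hx1, rfl⟩ continuous_norm.continuousOn
  have hxM : v x = M := hx.2
  have hx1' : ‖x‖ ≤ 1 := by simpa using hx.1
  have hxlt : ‖x‖ < 1 := by
    rcases hx1'.lt_or_eq with h | h
    · exact h
    · exfalso
      have : v x = 0 := by simp only [hv, pt_zero _ h]; ring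
      linarith
  have hxS : x ∉ S := fun h => by have := hle x h hx1'; linarith
  -- a small ball
  obtain ⟨s, hs0, hs⟩ : ∃ s : ℝ, 0 < s ∧ closedBall x s ⊆ ball 0 1 ∩ Sᶜ := by
    have hopen : IsOpen (ball (0 : F) 1 ∩ Sᶜ) := isOpen_ball.inter hS.isOpen_compl
    exact Metric.nhds_basis_closedBall.mem_iff.1 (hopen.mem_nhds ⟨by simpa using hxlt, hxS⟩)
  set w : Wt := wa one_pos with hw
  have hball : ∀ y : F, ‖y‖ ≤ 1 → ∀ ρ ∈ Icc 0 s, ‖x - ρ • y‖ < 1 ∧ x - ρ • y ∉ S := by
    intro y hy ρ hρ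
    have h1 : x - ρ • y ∈ closedBall x s := by
      rw [mem_closedBall, dist_eq_norm, sub_sub_cancel_left, norm_neg, norm_smul,
        Real.norm_of_nonneg hρ.1]
      nlinarith [norm_nonneg y, hρ.1, hρ.2]
    have h2 := hs h1
    exact ⟨by simpa using h2.1, h2.2⟩
  have : Nontrivial F := Module.nontrivial_of_finrank_pos (R := ℝ) (by omega)
  -- the point of the sphere in direction x
  obtain ⟨u, hu1, hu2⟩ : ∃ u : F, ‖u‖ = 1 ∧ x = ‖x‖ • u := by
    rcases eq_or_ne x 0 with h0 | h0
    · obtain ⟨u, hu⟩ := exists_norm_eq F (zero_le_one (α := ℝ))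
      exact ⟨u, hu, by simp [h0]⟩
    · refine ⟨(‖x‖)⁻¹ • x, by rw [norm_smul, norm_inv, norm_norm, inv_mul_cancel₀ (by simpa)], ?_⟩
      rw [smul_smul, mul_inv_cancel₀ (by simpa), one_smul]
  have hxs : ‖x‖ + s ≤ 1 := by
    by_contra h
    rw [not_le] at h
    have h1 : u ∈ closedBall x s := by
      rw [mem_closedBall, dist_eq_norm, hu2]
      have : u - ‖x‖ • u = (1 - ‖x‖) • u := by rw [sub_smul, one_smul]
      rw [this, norm_smul, hu1, mul_one, Real.norm_of_nonneg (by linarith)]
      linarith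
    have h2 := (hs h1).1
    simp [hu1] at h2
  have i1 := pt_mean2 hm hτ w b₁ hs0.le hxs
  have i2 := pt_mean2 hm hτ w b₂ hs0.le hxs
  have i3 := pt_mean2 hm hτ w ε hs0.le hxs
  have hSS : SS m τ w b₁ x s = 0 := by
    unfold SS
    rw [intervalIntegral.integral_congr (g := fun _ => (0 : ℝ)), intervalIntegral.integral_zero]
    intro ρ hρ
    rw [uIcc_of_le hs0.le] at hρ
    simp only
    rw [mul_eq_zero]; right
    have : (fun y : F => w.psi y * ml m τ b₁ (x - ρ • y)) = fun _ => 0 := by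
      funext y
      by_cases hy : y ∈ closedBall (0 : F) 1
      · have h := hball y (by simpa using hy) ρ hρ
        rw [hml _ h.1 h.2, mul_zero]
      · rw [w.psi_zero hy, zero_mul]
    rw [this]; simp
  have n2 := SS_nonneg (m := m) hτ w b₂ x hs0.le
  have n3 := SS_nonneg (m := m) hτ w ε x hs0.le
  have hcx : ∀ μ : Measure (XB F τ), IsFiniteMeasure μ →
      Continuous fun y : F => pt m τ μ (x - s • y) := by
    intro μ hμ
    have h : Continuous fun y : F => x - s • y := by fun_prop
    exact (continuous_pt hτ μ).comp h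
  have j1 := w.integrable_eta_mul (hcx b₁ inferInstance)
  have j2 := w.integrable_eta_mul (hcx b₂ inferInstance)
  have j3 := w.integrable_eta_mul (hcx ε inferInstance)
  have hint : ∫ y, w.eta y * v (x - s • y) = (∫ y, w.eta y * pt m τ b₁ (x - s • y)) -
      (∫ y, w.eta y * pt m τ b₂ (x - s • y)) - ∫ y, w.eta y * pt m τ ε (x - s • y) := by
    have k1 := integral_sub j1 j2
    have k2 := integral_sub (j1.sub j2) j3
    simp only [Pi.sub_apply] at k2
    rw [← k1, ← k2]
    refine integral_congr_ae (Eventually.of_forall fun y => ?_)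
    simp only [hv]
    ring
  have hge : (∫ y : F, w.eta y) * M ≤ ∫ y, w.eta y * v (x - s • y) := by
    rw [hint, i1, i2, i3, hSS, ← hxM]
    simp only [hv]
    nlinarith
  -- strict inequality
  have hvx : Continuous fun y : F => v (x - s • y) := by
    have h : Continuous fun y : F => x - s • y := by fun_prop
    exact hvc.comp h
  have hpos : 0 < ∫ y : F, w.eta y * (M - v (x - s • y)) := by
    refine Continuous.integral_pos_of_hasCompactSupport_nonneg_nonzero
      (w.continuous_eta.mul (continuous_const.sub hvx)) w.hasCompactSupport_eta.mul_right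
      (x := -((1 / 2 : ℝ) • u)) ?_ ?_
    · intro y
      by_cases hy : y ∈ closedBall (0 : F) 1
      · have h := hball y (by simpa using hy) s ⟨hs0.le, le_rfl⟩
        have h2 : v (x - s • y) ≤ M := hmax (by simpa using h.1.le)
        exact mul_nonneg (w.eta_nonneg y) (by linarith)
      · simp [w.eta_zero hy]
    · have hn : ‖-((1 / 2 : ℝ) • u)‖ = 1 / 2 := by
        rw [norm_neg, norm_smul, hu1, mul_one]; norm_num
      have he : 0 < w.eta (-((1 / 2 : ℝ) • u)) := by
        rw [hw, wa_eta, hn]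
        have := fa'_pos one_pos (x := 1 - (1 / 2 : ℝ) ^ 2) (by norm_num)
        linarith
      have hx2 : x - s • (-((1 / 2 : ℝ) • u)) = (‖x‖ + s / 2) • u := by
        conv_lhs => rw [hu2]
        rw [smul_neg, sub_neg_eq_add, smul_smul, ← add_smul]
        ring_nf
      have hn2 : ‖x - s • (-((1 / 2 : ℝ) • u))‖ = ‖x‖ + s / 2 := by
        rw [hx2, norm_smul, hu1, mul_one, Real.norm_of_nonneg (by positivity)]
      have hlt : v (x - s • (-((1 / 2 : ℝ) • u))) < M := by
        have h := hball (-((1 / 2 : ℝ) • u)) (by rw [hn]; norm_num) s ⟨hs0.le, le_rfl⟩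
        have h2 : v (x - s • (-((1 / 2 : ℝ) • u))) ≤ M := hmax (by simpa using h.1.le)
        refine lt_of_le_of_ne h2 fun heq => ?_
        have h3 := hxmax (show x - s • (-((1 / 2 : ℝ) • u)) ∈ closedBall (0 : F) 1 ∩ v ⁻¹' {M} from
          ⟨by simpa using h.1.le, heq⟩)
        have h3 : ‖x - s • (-((1 / 2 : ℝ) • u))‖ ≤ ‖x‖ := h3
        rw [hn2] at h3
        linarith
      exact (mul_pos he (by linarith)).ne'
  have hcontra : ∫ y : F, w.eta y * (M - v (x - s • y)) =
      (∫ y : F, w.eta y) * M - ∫ y, w.eta y * v (x - s • y) := by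
    rw [← integral_mul_const, ← integral_sub _ (w.integrable_eta_mul hvx)]
    · refine integral_congr_ae (Eventually.of_forall fun y => ?_)
      simp only
      ring
    · have := w.integrable_eta_mul (F := F) (h := fun _ => M) continuous_const
      exact this
  linarith

/-- **LOCALISED CONTACT FRAME.**  As `Pot_425.contact_ball`, but the domination holds on the whole unit
ball, the contact measure is carried by the `τ`-neighbourhood of the support of `b₁`, and the scale
inequality holds for `‖x‖ + s ≤ 1`. -/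
theorem contact_loc (hm : m = Module.finrank ℝ F) (hm0 : 0 < m) (hτ : 0 < τ)
    (b₁ b₂ : Measure (XB F τ)) [IsFiniteMeasure b₁] [IsFiniteMeasure b₂]
    (hb : ∀ y ∈ b₁.support, ‖(y : F)‖ ≤ 1 - 2 * τ) :
    ∃ ε : Measure (XB F τ), IsFiniteMeasure ε ∧
      (∀ z : F, ‖z‖ ≤ 1 → pt m τ b₁ z - pt m τ b₂ z ≤ pt m τ ε z) ∧
      (∀ x ∈ ε.support, ∃ y ∈ b₁.support, ‖(x : F) - (y : F)‖ ≤ τ) ∧
      (∀ x ∈ ε.support, pt m τ ε (x : F) = pt m τ b₁ (x : F) - pt m τ b₂ (x : F)) ∧
      (∀ x ∈ ε.support, ∀ (w : Wt) (s : ℝ), 0 ≤ s → ‖(x : F)‖ + s ≤ 1 →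
        0 ≤ SS m τ w ε (x : F) s ∧
          SS m τ w ε (x : F) s ≤ SS m τ w b₁ (x : F) s - SS m τ w b₂ (x : F) s) := by
  -- the compact set
  set C : Set (XB F τ) := ⋃ y ∈ b₁.support, closedBall y τ with hC
  have hsc : IsCompact b₁.support := Measure.isClosed_support.isCompact
  have hCeq : C = cthickening τ b₁.support := (hsc.cthickening_eq_biUnion_closedBall hτ.le).symm
  have hCcl : IsClosed C := by rw [hCeq]; exact isClosed_cthickening
  have hCcomp : CompactSpace C := isCompact_iff_compactSpace.1 hCcl.isCompact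
  let ι : C → XB F τ := Subtype.val
  have hι : Continuous ι := continuous_subtype_val
  have hιm : Measurable ι := hι.measurable
  let K' : C × C → ℝ := fun p => KK m τ (p.1.1 : F) (p.2.1 : F)
  have hK' : Continuous K' := by
    have h : Continuous fun p : C × C => ((p.1.1 : F), (p.2.1 : F)) := by fun_prop
    exact (continuous_KK (m := m) hτ).comp h
  have hsym : ∀ x y : C, K' (x, y) = K' (y, x) := fun x y => KK_symm _ _
  have hpos : ∀ p, 0 < K' p := by
    intro p
    have h1 := XB_norm p.1.1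
    have h2 := XB_norm p.2.1
    exact KK_pos hτ (by linarith) (by linarith)
  let f : C → ℝ := fun x => pt m τ b₁ (x.1 : F) - pt m τ b₂ (x.1 : F)
  have hf : Continuous f := by
    have h1 : Continuous fun x : C => (x.1 : F) := by fun_prop
    exact ((continuous_pt hτ b₁).comp h1).sub ((continuous_pt hτ b₂).comp h1)
  obtain ⟨ε', hε', hge, hsupp⟩ := exists_contact hK' hsym hpos hf
  set ε : Measure (XB F τ) := ε'.map ι with hε
  have hεfin : IsFiniteMeasure ε := by rw [hε]; infer_instance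
  have hptε : ∀ z : F, pt m τ ε z = ∫ y : C, KK m τ z (y.1 : F) ∂ε' := by
    intro z
    unfold pt
    rw [hε, integral_map hιm.aemeasurable]
    exact ((continuous_KK (m := m) hτ).comp (by fun_prop : Continuous fun y : XB F τ =>
      (z, (y : F)))).aestronglyMeasurable
  -- support
  have hsuppC : ∀ x ∈ ε.support, ∃ hx : x ∈ C, (⟨x, hx⟩ : C) ∈ ε'.support := by
    intro x hx
    rw [Measure.mem_support_iff_forall] at hx
    have hxC : x ∈ C := by
      by_contra hcon
      have h1 := hx Cᶜ (hCcl.isOpen_compl.mem_nhds hcon)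
      rw [hε, Measure.map_apply hιm hCcl.measurableSet.compl] at h1
      have : ι ⁻¹' Cᶜ = ∅ := by
        ext y
        simp [ι]
      rw [this] at h1
      simp at h1
    refine ⟨hxC, ?_⟩
    rw [Measure.mem_support_iff_forall]
    intro U hU
    rw [nhds_subtype_eq_comap, mem_comap] at hU
    obtain ⟨V, hV, hVU⟩ := hU
    obtain ⟨W, hWV, hWo, hxW⟩ := _root_.mem_nhds_iff.1 hV
    have h1 := hx W (hWo.mem_nhds hxW)
    rw [hε, Measure.map_apply hιm hWo.measurableSet] at h1
    exact h1.trans_le (measure_mono ((preimage_mono hWV).trans hVU))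
  have heq : ∀ x ∈ ε.support, pt m τ ε (x : F) = pt m τ b₁ (x : F) - pt m τ b₂ (x : F) := by
    intro x hx
    obtain ⟨hxC, hx'⟩ := hsuppC x hx
    rw [hptε]
    exact hsupp _ hx'
  -- domination
  set S : Set F := (Subtype.val : XB F τ → F) '' C with hS
  have hScl : IsClosed S := (hCcl.isCompact.image continuous_subtype_val).isClosed
  have hml : ∀ z : F, ‖z‖ < 1 → z ∉ S → ml m τ b₁ z = 0 := by
    intro z _ hzS
    refine ml_zero hτ b₁ fun y hy => ?_
    by_contra hcon
    rw [not_le] at hcon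
    have hzn : ‖z‖ ≤ 1 - τ := by
      have h1 := hb y hy
      have h2 : ‖z‖ ≤ ‖z - (y : F)‖ + ‖(y : F)‖ := by
        have := norm_add_le (z - (y : F)) (y : F)
        simpa using this
      linarith
    apply hzS
    refine ⟨⟨z, by simpa using hzn⟩, ?_, rfl⟩
    rw [hC, mem_iUnion₂]
    exact ⟨y, hy, by rw [mem_closedBall, Subtype.dist_eq, dist_eq_norm]; exact hcon.le⟩
  have hle : ∀ z ∈ S, ‖z‖ ≤ 1 → pt m τ b₁ z - pt m τ b₂ z - pt m τ ε z ≤ 0 := by
    rintro z ⟨x, hx, rfl⟩ _
    have h1 := hge ⟨x, hx⟩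
    rw [hptε]
    simp only [f, pot, K'] at h1
    linarith
  have hdom := max_principle hm hm0 hτ b₁ b₂ ε S hScl hml hle
  refine ⟨ε, hεfin, fun z hz => by linarith [hdom z hz], ?_, heq, ?_⟩
  · intro x hx
    obtain ⟨hxC, _⟩ := hsuppC x hx
    rw [hC, mem_iUnion₂] at hxC
    obtain ⟨y, hy, hxy⟩ := hxC
    rw [mem_closedBall, Subtype.dist_eq, dist_eq_norm] at hxy
    exact ⟨y, hy, hxy⟩
  · intro x hx w s hs hxs
    refine ⟨SS_nonneg hτ w ε _ hs, ?_⟩
    have e0 := pt_mean2 hm hτ w ε hs hxs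
    have e1 := pt_mean2 hm hτ w b₁ hs hxs
    have e2 := pt_mean2 hm hτ w b₂ hs hxs
    have hcx : ∀ μ : Measure (XB F τ), IsFiniteMeasure μ →
        Continuous fun y : F => pt m τ μ ((x : F) - s • y) := by
      intro μ hμ
      have h : Continuous fun y : F => (x : F) - s • y := by fun_prop
      exact (continuous_pt hτ μ).comp h
    have hnn : 0 ≤ (∫ y : F, w.eta y * pt m τ ε ((x : F) - s • y)) -
        ((∫ y : F, w.eta y * pt m τ b₁ ((x : F) - s • y)) -
          (∫ y : F, w.eta y * pt m τ b₂ ((x : F) - s • y))) := by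
      have i1 := w.integrable_eta_mul (hcx b₁ inferInstance)
      have i2 := w.integrable_eta_mul (hcx b₂ inferInstance)
      have i0 := w.integrable_eta_mul (hcx ε hεfin)
      have h8 : ∫ y : F, (w.eta y * pt m τ ε ((x : F) - s • y) -
          (w.eta y * pt m τ b₁ ((x : F) - s • y) - w.eta y * pt m τ b₂ ((x : F) - s • y))) =
          (∫ y : F, w.eta y * pt m τ ε ((x : F) - s • y)) -
        ((∫ y : F, w.eta y * pt m τ b₁ ((x : F) - s • y)) -
          (∫ y : F, w.eta y * pt m τ b₂ ((x : F) - s • y))) := by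
        refine (integral_sub i0 (i1.sub i2)).trans ?_
        congr 1
        exact integral_sub i1 i2
      rw [← h8]
      refine integral_nonneg fun y => ?_
      simp only [Pi.zero_apply]
      by_cases hy : y ∈ closedBall (0 : F) 1
      · have hy1 : ‖y‖ ≤ 1 := by simpa using hy
        have hz : ‖(x : F) - s • y‖ ≤ 1 := by
          have h5 : ‖s • y‖ ≤ s := by
            rw [norm_smul, Real.norm_of_nonneg hs]
            nlinarith [norm_nonneg y]
          have := norm_sub_le (x : F) (s • y)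
          linarith
        have h6 := hdom _ hz
        have h7 := w.eta_nonneg y
        nlinarith
      · rw [w.eta_zero hy]; simp
    rw [e0, e1, e2, heq x hx] at hnn
    linarith

end

end Crest.Agent.R234.Dom_309
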