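import Crest.Agent.R234.Dom1_309

/-!
Row 234, VF-SOFT / N0 (helper309): domination tested with the bump `1 - ‖z‖²`.
If `pt b₁ - pt b₂ ≤ pt ε` on the unit ball, then
`∫ (1 - ‖z‖²) db₁ - ∫ (1 - ‖z‖²) db₂ ≤ ∫ (1 - ‖z‖²) dε + τ² b₁(1)`.
-/

open MeasureTheory Filter Topology Set Metric
open scoped ENNReal NNReal

namespace Crest.Agent.R234.Dom_309

open Crest.Agent.R234.Pot_425

noncomputable section

set_option linter.unusedSectionVars false

variable {F : Type*} [NormedAddCommGroup F] [InnerProductSpace ℝ F] [FiniteDimensional ℝ F]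
  [MeasurableSpace F] [BorelSpace F]

variable {m : ℕ} {τ : ℝ}

/-- the kernel vanishes linearly at the sphere -/
lemma exists_KK_bound (m : ℕ) (hτ : 0 < τ) : ∃ G : ℝ, 0 ≤ G ∧ ∀ z y : F, ‖z‖ ≤ 1 → ‖y‖ ≤ 1 →
    0 ≤ KK m τ z y ∧ KK m τ z y ≤ G * (1 - ‖z‖ ^ 2) := by
  have hg := continuous_gg (m := m) hτ
  obtain ⟨G, hG⟩ := (isCompact_Icc (a := (0:ℝ)) (b := 5)).exists_bound_of_continuousOn hg.continuousOn
  refine ⟨|G|, abs_nonneg _, fun z y hz hy => ?_⟩
  have h1 : 0 ≤ 1 - ‖z‖ ^ 2 := by nlinarith [norm_nonneg z]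
  have h2 : 0 ≤ 1 - ‖y‖ ^ 2 := by nlinarith [norm_nonneg y]
  have h2' : 1 - ‖y‖ ^ 2 ≤ 1 := by nlinarith [norm_nonneg y]
  have h1' : 1 - ‖z‖ ^ 2 ≤ 1 := by nlinarith [norm_nonneg z]
  have h3 : 0 ≤ (1 - ‖z‖ ^ 2) * (1 - ‖y‖ ^ 2) := mul_nonneg h1 h2
  have h4 : ‖z - y‖ ≤ 2 := by
    have := norm_sub_le z y
    linarith
  have h5 : ‖z - y‖ ^ 2 ≤ 4 := by nlinarith [norm_nonneg (z - y)]
  have h6 : 0 ≤ ‖z - y‖ ^ 2 := by positivity
  have h7 : (1 - ‖z‖ ^ 2) * (1 - ‖y‖ ^ 2) ≤ 1 - ‖z‖ ^ 2 := by nlinarith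
  have hle : ‖z - y‖ ^ 2 ≤ pp z y := by unfold pp; linarith
  have hpp5 : pp z y ≤ 5 := by unfold pp; linarith
  have e1 : KK m τ z y = ∫ t in (‖z - y‖ ^ 2)..(pp z y), gg m τ t := by
    unfold KK PP
    rw [intervalIntegral.integral_interval_sub_left (hg.intervalIntegrable _ _)
      (hg.intervalIntegrable _ _)]
  constructor
  · rw [e1]
    exact intervalIntegral.integral_nonneg hle fun t _ => (gg_pos hτ t).le
  · rw [e1]
    have h8 := intervalIntegral.norm_integral_le_of_norm_le_const (a := ‖z - y‖ ^ 2) (b := pp z y)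
      (C := |G|) (f := gg m τ) (fun t ht => by
        rw [uIoc_of_le hle] at ht
        exact (hG t ⟨by linarith [ht.1], by linarith [ht.2]⟩).trans (le_abs_self _))
    rw [Real.norm_eq_abs, abs_of_nonneg (by linarith : 0 ≤ pp z y - ‖z - y‖ ^ 2)] at h8
    have h9 : pp z y - ‖z - y‖ ^ 2 = (1 - ‖z‖ ^ 2) * (1 - ‖y‖ ^ 2) := by unfold pp; ring
    rw [h9] at h8
    calc _ ≤ |G| * ((1 - ‖z‖ ^ 2) * (1 - ‖y‖ ^ 2)) := (le_abs_self _).trans h8
      _ ≤ |G| * (1 - ‖z‖ ^ 2) := mul_le_mul_of_nonneg_left h7 (abs_nonneg _)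

attribute [local irreducible] DD KK PP gg

/-- the bump -/
def bp (y : F) : ℝ := max (1 - ‖y‖ ^ 2) 0

lemma continuous_bp : Continuous (bp : F → ℝ) := by
  unfold bp
  exact (continuous_const.sub (continuous_norm.pow 2)).max continuous_const

lemma bp_zero {y : F} (hy : y ∉ closedBall (0 : F) 1) : bp y = 0 := by
  have : 1 < ‖y‖ := by simpa using hy
  exact max_eq_right (by nlinarith)

lemma bp_nonneg (y : F) : 0 ≤ bp y := le_max_right _ _

lemma bp_le_one (y : F) : bp y ≤ 1 := max_le (by nlinarith [norm_nonneg y]) zero_le_one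

lemma abs_psi_sub {a : ℝ} (ha : 0 < a) (y : F) : |(wa ha).psi y - bp y| ≤ a := by
  rw [wa_psi]
  unfold fa bp
  set x := max (1 - ‖y‖ ^ 2) 0 with hx
  have hx0 : 0 ≤ x := le_max_right _ _
  have h1 : x ^ 2 / (x + a) - x = -(a * x / (x + a)) := by
    field_simp
    ring
  rw [h1, abs_neg, abs_of_nonneg (by positivity), div_le_iff₀ (by positivity)]
  nlinarith

/-- `∫ bump(y) μ_τ(-ρ y) dy` -/
def J0 (m : ℕ) (τ : ℝ) (μ : Measure (XB F τ)) (ρ : ℝ) : ℝ := ∫ y, bp y * ml m τ μ (0 - ρ • y)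

lemma continuous_J0 (hτ : 0 < τ) (μ : Measure (XB F τ)) [IsFiniteMeasure μ] :
    Continuous (J0 m τ μ) := by
  unfold J0
  refine continuous_int_ball (g := fun (ρ : ℝ) (y : F) => bp y * ml m τ μ (0 - ρ • y)) ?_ ?_
  · have h1 := continuous_ml (m := m) hτ μ
    have h2 : Continuous fun p : ℝ × F => (0 : F) - p.1 • p.2 := by fun_prop
    exact (continuous_bp.comp continuous_snd).mul (h1.comp h2)
  · intro y hy z
    simp only [bp_zero hy, zero_mul]

lemma integrable_bp_mul {h : F → ℝ} (hh : Continuous h) :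
    Integrable (fun y => bp y * h y) (volume : Measure F) := by
  refine (continuous_bp.mul hh).integrable_of_hasCompactSupport ?_
  refine HasCompactSupport.intro (isCompact_closedBall (0 : F) 1) fun y hy => ?_
  simp only [Pi.mul_apply, bp_zero hy, zero_mul]

/-- bound of the mollified density near the ball -/
lemma exists_ml_bound (hτ : 0 < τ) (μ : Measure (XB F τ)) [IsFiniteMeasure μ] :
    ∃ C, 0 ≤ C ∧ ∀ z : F, ‖z‖ ≤ 1 → ml m τ μ z ≤ C := by
  obtain ⟨C, hC⟩ := (isCompact_closedBall (0 : F) 1).exists_bound_of_continuousOn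
    (continuous_ml (m := m) hτ μ).continuousOn
  refine ⟨|C|, abs_nonneg _, fun z hz => ?_⟩
  have := hC z (by simpa using hz)
  exact (le_abs_self _).trans (this.trans (le_abs_self _))

lemma J_sub_le (hτ : 0 < τ) (μ : Measure (XB F τ)) [IsFiniteMeasure μ] {C : ℝ}
    (hC : ∀ z : F, ‖z‖ ≤ 1 → ml m τ μ z ≤ C) {a : ℝ} (ha : 0 < a) {ρ : ℝ} (hρ : ρ ∈ Icc (0:ℝ) 1) :
    |(∫ y, (wa ha).psi y * ml m τ μ ((0 : F) - ρ • y)) - J0 m τ μ ρ| ≤
      a * (C * (volume : Measure F).real (closedBall 0 1)) := by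
  have hc : Continuous fun y : F => ml m τ μ ((0 : F) - ρ • y) :=
    (continuous_ml (m := m) hτ μ).comp (by fun_prop)
  have i1 := (wa ha).integrable_psi_mul hc
  have i2 := integrable_bp_mul hc
  unfold J0
  rw [← integral_sub i1 i2]
  have hfin : (volume : Measure F) (closedBall 0 1) ≠ ∞ :=
    (isCompact_closedBall (0 : F) 1).measure_lt_top.ne
  have h1 : Integrable ((closedBall (0 : F) 1).indicator fun _ : F => a * C) := by
    rw [integrable_indicator_iff measurableSet_closedBall]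
    exact integrableOn_const hfin
  calc |∫ y, ((wa ha).psi y * ml m τ μ ((0 : F) - ρ • y) - bp y * ml m τ μ ((0 : F) - ρ • y))|
      ≤ ∫ y, |(wa ha).psi y * ml m τ μ ((0 : F) - ρ • y) - bp y * ml m τ μ ((0 : F) - ρ • y)| :=
        abs_integral_le_integral_abs
    _ ≤ ∫ y, (closedBall (0 : F) 1).indicator (fun _ : F => a * C) y := by
        refine integral_mono (i1.sub i2).abs h1 fun y => ?_
        by_cases hy : y ∈ closedBall (0 : F) 1
        · rw [indicator_of_mem hy]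
          have hy1 : ‖y‖ ≤ 1 := by simpa using hy
          have hz : ‖(0 : F) - ρ • y‖ ≤ 1 := by
            rw [zero_sub, norm_neg, norm_smul, Real.norm_of_nonneg hρ.1]
            nlinarith [norm_nonneg y, hρ.1, hρ.2]
          simp only
          rw [← sub_mul, abs_mul]
          have h2 := ml_nonneg (m := m) hτ μ ((0 : F) - ρ • y)
          rw [abs_of_nonneg h2]
          exact mul_le_mul (abs_psi_sub ha y) (hC _ hz) h2 ha.le
        · rw [indicator_of_notMem hy]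
          simp only
          rw [(wa ha).psi_zero hy, bp_zero hy]
          simp
    _ = a * (C * (volume : Measure F).real (closedBall 0 1)) := by
        rw [integral_indicator measurableSet_closedBall, setIntegral_const, smul_eq_mul]
        ring

lemma fa'_tendsto {x : ℝ} (hx : 0 < x) :
    Tendsto (fun n : ℕ => fa' (1 / ((n : ℝ) + 1)) x) atTop (𝓝 1) := by
  have h1 : Tendsto (fun n : ℕ => 1 / ((n : ℝ) + 1)) atTop (𝓝 0) :=
    tendsto_one_div_add_atTop_nhds_zero_nat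
  have h2 : Tendsto (fun a : ℝ => fa' a x) (𝓝 0) (𝓝 (fa' 0 x)) := by
    have hc : ContinuousAt (fun a : ℝ => fa' a x) 0 := by
      unfold fa'
      refine ContinuousAt.div (by fun_prop) (by fun_prop) ?_
      rw [max_eq_left hx.le]
      positivity
    exact hc
  have h3 : fa' 0 x = 1 := by
    unfold fa'
    rw [max_eq_left hx.le]
    field_simp
    ring
  rw [h3] at h2
  exact h2.comp h1

/-- limit of the averages -/
lemma tendsto_avg {v : F → ℝ} (hv : Continuous v) (s : ℝ) :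
    Tendsto (fun n : ℕ => ∫ y, (wa (show (0:ℝ) < 1 / ((n : ℝ) + 1) by positivity)).eta y *
      v ((0 : F) - s • y)) atTop (𝓝 (∫ y in ball (0 : F) 1, 2 * v ((0 : F) - s • y))) := by
  have hc : Continuous fun y : F => v ((0 : F) - s • y) := hv.comp (by fun_prop)
  obtain ⟨C, hC⟩ := (isCompact_closedBall (0 : F) 1).exists_bound_of_continuousOn hc.continuousOn
  have hfin : (volume : Measure F) (closedBall 0 1) ≠ ∞ :=
    (isCompact_closedBall (0 : F) 1).measure_lt_top.ne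
  rw [← integral_indicator isOpen_ball.measurableSet]
  refine tendsto_integral_of_dominated_convergence
    ((closedBall (0 : F) 1).indicator fun _ : F => 2 * C) ?_ ?_ ?_ ?_
  · intro n
    exact ((wa _).integrable_eta_mul hc).aestronglyMeasurable
  · rw [integrable_indicator_iff measurableSet_closedBall]
    exact integrableOn_const hfin
  · intro n
    refine Eventually.of_forall fun y => ?_
    by_cases hy : y ∈ closedBall (0 : F) 1
    · rw [indicator_of_mem hy, norm_mul]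
      have h1 := fa'_nonneg (show (0:ℝ) < 1 / ((n : ℝ) + 1) by positivity) (1 - ‖y‖ ^ 2)
      have h2 := fa'_le_one (show (0:ℝ) < 1 / ((n : ℝ) + 1) by positivity) (1 - ‖y‖ ^ 2)
      rw [wa_eta, Real.norm_of_nonneg (by positivity)]
      exact mul_le_mul (by linarith) (hC y hy) (norm_nonneg _) zero_le_two
    · rw [indicator_of_notMem hy, (wa _).eta_zero hy]
      simp
  · refine Eventually.of_forall fun y => ?_
    by_cases hy : y ∈ ball (0 : F) 1
    · rw [indicator_of_mem hy]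
      simp only [wa_eta]
      have hy1 : ‖y‖ < 1 := by simpa using hy
      have h := (fa'_tendsto (x := 1 - ‖y‖ ^ 2) (by nlinarith [norm_nonneg y])).const_mul 2
      rw [mul_one] at h
      exact h.mul_const _
    · rw [indicator_of_notMem hy]
      have hy1 : 1 ≤ ‖y‖ := by simpa using hy
      refine tendsto_const_nhds.congr fun n => ?_
      rw [(wa _).eta_zero' hy1, zero_mul]

/-- the signed potential -/
def vv (m : ℕ) (τ : ℝ) (b₁ b₂ ε : Measure (XB F τ)) (z : F) : ℝ :=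
  pt m τ b₁ z - pt m τ b₂ z - pt m τ ε z

lemma continuous_vv (hτ : 0 < τ) (b₁ b₂ ε : Measure (XB F τ)) [IsFiniteMeasure b₁]
    [IsFiniteMeasure b₂] [IsFiniteMeasure ε] : Continuous (vv m τ b₁ b₂ ε) :=
  ((continuous_pt hτ b₁).sub (continuous_pt hτ b₂)).sub (continuous_pt hτ ε)

lemma avg_eq (hm : m = Module.finrank ℝ F) (hτ : 0 < τ) (w : Wt) (b₁ b₂ ε : Measure (XB F τ))
    [IsFiniteMeasure b₁] [IsFiniteMeasure b₂] [IsFiniteMeasure ε] {s : ℝ} (hs : 0 ≤ s)
    (hs1 : s ≤ 1) :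
    ∫ y, w.eta y * vv m τ b₁ b₂ ε ((0 : F) - s • y) =
      (∫ y : F, w.eta y) * vv m τ b₁ b₂ ε 0 -
        (SS m τ w b₁ 0 s - SS m τ w b₂ 0 s - SS m τ w ε 0 s) := by
  have hx : ‖(0 : F)‖ + s ≤ 1 := by simpa using hs1
  have e1 := pt_mean2 hm hτ w b₁ hs hx
  have e2 := pt_mean2 hm hτ w b₂ hs hx
  have e3 := pt_mean2 hm hτ w ε hs hx
  have hcx : ∀ μ : Measure (XB F τ), IsFiniteMeasure μ →
      Continuous fun y : F => pt m τ μ ((0 : F) - s • y) := by
    intro μ hμ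
    have h : Continuous fun y : F => (0 : F) - s • y := by fun_prop
    exact (continuous_pt hτ μ).comp h
  have j1 := w.integrable_eta_mul (hcx b₁ inferInstance)
  have j2 := w.integrable_eta_mul (hcx b₂ inferInstance)
  have j3 := w.integrable_eta_mul (hcx ε inferInstance)
  have k1 := integral_sub j1 j2
  have k2 := integral_sub (j1.sub j2) j3
  simp only [Pi.sub_apply] at k2
  have hint : ∫ y, w.eta y * vv m τ b₁ b₂ ε ((0 : F) - s • y) =
      (∫ y, w.eta y * pt m τ b₁ ((0 : F) - s • y)) -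
      (∫ y, w.eta y * pt m τ b₂ ((0 : F) - s • y)) - ∫ y, w.eta y * pt m τ ε ((0 : F) - s • y) := by
    rw [← k1, ← k2]
    refine integral_congr_ae (Eventually.of_forall fun y => ?_)
    simp only [vv]
    ring
  rw [hint, e1, e2, e3]
  unfold vv
  ring

/-- `SS(1) - SS(s)` against the bump -/
lemma SS_sub_le (hτ : 0 < τ) (μ : Measure (XB F τ)) [IsFiniteMeasure μ] {C : ℝ} (hC0 : 0 ≤ C)
    (hC : ∀ z : F, ‖z‖ ≤ 1 → ml m τ μ z ≤ C) {a : ℝ} (ha : 0 < a) {s : ℝ} (hs : 0 ≤ s)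
    (hs1 : s ≤ 1) :
    |(SS m τ (wa ha) μ 0 1 - SS m τ (wa ha) μ 0 s) - ∫ ρ in s..1, ρ * J0 m τ μ ρ| ≤
      a * (C * (volume : Measure F).real (closedBall 0 1)) := by
  have hJc : Continuous fun ρ : ℝ => ∫ y, (wa ha).psi y * ml m τ μ ((0 : F) - ρ • y) := by
    refine continuous_int_ball (g := fun (ρ : ℝ) (y : F) =>
      (wa ha).psi y * ml m τ μ ((0 : F) - ρ • y)) ?_ ?_
    · have h1 := continuous_ml (m := m) hτ μ
      have h2 : Continuous fun p : ℝ × F => (0 : F) - p.1 • p.2 := by fun_prop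
      exact ((wa ha).continuous_psi.comp continuous_snd).mul (h1.comp h2)
    · intro y hy z
      simp only [(wa ha).psi_zero hy, zero_mul]
  have hc1 : Continuous fun ρ : ℝ => ρ * ∫ y, (wa ha).psi y * ml m τ μ ((0 : F) - ρ • y) :=
    continuous_id.mul hJc
  have hc2 : Continuous fun ρ : ℝ => ρ * J0 m τ μ ρ := continuous_id.mul (continuous_J0 hτ μ)
  have e1 : SS m τ (wa ha) μ 0 1 - SS m τ (wa ha) μ 0 s =
      ∫ ρ in s..1, ρ * ∫ y, (wa ha).psi y * ml m τ μ ((0 : F) - ρ • y) := by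
    unfold SS
    rw [intervalIntegral.integral_interval_sub_left (hc1.intervalIntegrable _ _)
      (hc1.intervalIntegrable _ _)]
  rw [e1, ← intervalIntegral.integral_sub (hc1.intervalIntegrable _ _)
    (hc2.intervalIntegrable _ _)]
  have h3 := intervalIntegral.norm_integral_le_of_norm_le_const (a := s) (b := 1)
    (C := a * (C * (volume : Measure F).real (closedBall 0 1)))
    (f := fun ρ => ρ * (∫ y, (wa ha).psi y * ml m τ μ ((0 : F) - ρ • y)) - ρ * J0 m τ μ ρ) ?_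
  · rw [Real.norm_eq_abs] at h3
    refine h3.trans ?_
    rw [abs_of_nonneg (by linarith : (0:ℝ) ≤ 1 - s)]
    have h4 : 0 ≤ a * (C * (volume : Measure F).real (closedBall 0 1)) := by positivity
    nlinarith
  · intro ρ hρ
    rw [uIoc_of_le hs1] at hρ
    have hρ' : ρ ∈ Icc (0:ℝ) 1 := ⟨by linarith [hρ.1], hρ.2⟩
    rw [← mul_sub, norm_mul, Real.norm_of_nonneg hρ'.1, Real.norm_eq_abs]
    have h5 := J_sub_le hτ μ hC ha hρ'
    have h6 : 0 ≤ |(∫ y, (wa ha).psi y * ml m τ μ ((0 : F) - ρ • y)) - J0 m τ μ ρ| := abs_nonneg _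
    nlinarith [hρ'.1, hρ'.2]

/-- the identity with the uniform weight -/
lemma uniform_identity (hm : m = Module.finrank ℝ F) (hτ : 0 < τ) (b₁ b₂ ε : Measure (XB F τ))
    [IsFiniteMeasure b₁] [IsFiniteMeasure b₂] [IsFiniteMeasure ε] {s : ℝ} (hs : 0 ≤ s)
    (hs1 : s ≤ 1) :
    (∫ y in ball (0 : F) 1, 2 * vv m τ b₁ b₂ ε ((0 : F) - (1 : ℝ) • y)) -
      (∫ y in ball (0 : F) 1, 2 * vv m τ b₁ b₂ ε ((0 : F) - s • y)) =
      - ((∫ ρ in s..1, ρ * J0 m τ b₁ ρ) - (∫ ρ in s..1, ρ * J0 m τ b₂ ρ)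
        - ∫ ρ in s..1, ρ * J0 m τ ε ρ) := by
  obtain ⟨C1, hC10, hC1⟩ := exists_ml_bound (m := m) hτ b₁
  obtain ⟨C2, hC20, hC2⟩ := exists_ml_bound (m := m) hτ b₂
  obtain ⟨C3, hC30, hC3⟩ := exists_ml_bound (m := m) hτ ε
  have hvc := continuous_vv (m := m) hτ b₁ b₂ ε
  have hpos : ∀ n : ℕ, (0:ℝ) < 1 / ((n : ℝ) + 1) := fun n => by positivity
  have t1 := (tendsto_avg hvc 1).sub (tendsto_avg hvc s)
  set V := (volume : Measure F).real (closedBall 0 1) with hV
  have t2 : Tendsto (fun n : ℕ =>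
      -((SS m τ (wa (hpos n)) b₁ 0 1 - SS m τ (wa (hpos n)) b₁ 0 s) -
        (SS m τ (wa (hpos n)) b₂ 0 1 - SS m τ (wa (hpos n)) b₂ 0 s) -
        (SS m τ (wa (hpos n)) ε 0 1 - SS m τ (wa (hpos n)) ε 0 s))) atTop
      (𝓝 (- ((∫ ρ in s..1, ρ * J0 m τ b₁ ρ) - (∫ ρ in s..1, ρ * J0 m τ b₂ ρ)
        - ∫ ρ in s..1, ρ * J0 m τ ε ρ))) := by
    have h0 : ∀ (C : ℝ) , Tendsto (fun n : ℕ => 1 / ((n : ℝ) + 1) * (C * V)) atTop (𝓝 0) := by
      intro C
      have := (tendsto_one_div_add_atTop_nhds_zero_nat (𝕜 := ℝ)).mul_const (C * V)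
      simpa using this
    have k : ∀ (μ : Measure (XB F τ)) (hμ : IsFiniteMeasure μ) (C : ℝ), 0 ≤ C →
        (∀ z : F, ‖z‖ ≤ 1 → ml m τ μ z ≤ C) →
        Tendsto (fun n : ℕ => SS m τ (wa (hpos n)) μ 0 1 - SS m τ (wa (hpos n)) μ 0 s) atTop
          (𝓝 (∫ ρ in s..1, ρ * J0 m τ μ ρ)) := by
      intro μ hμ C hC0 hC
      rw [tendsto_iff_norm_sub_tendsto_zero]
      refine squeeze_zero (fun _ => norm_nonneg _) (fun n => ?_) (h0 C)
      rw [Real.norm_eq_abs]
      exact SS_sub_le hτ μ hC0 hC (hpos n) hs hs1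
    exact (((k b₁ inferInstance C1 hC10 hC1).sub (k b₂ inferInstance C2 hC20 hC2)).sub
      (k ε inferInstance C3 hC30 hC3)).neg
  refine tendsto_nhds_unique t1 (t2.congr fun n => ?_)
  rw [avg_eq hm hτ (wa (hpos n)) b₁ b₂ ε zero_le_one le_rfl,
    avg_eq hm hτ (wa (hpos n)) b₁ b₂ ε hs hs1]
  ring

lemma exists_pt_bound (m : ℕ) (hτ : 0 < τ) (μ : Measure (XB F τ)) [IsFiniteMeasure μ] :
    ∃ C : ℝ, 0 ≤ C ∧ ∀ z : F, ‖z‖ ≤ 1 → pt m τ μ z ≤ C * (1 - ‖z‖ ^ 2) := by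
  obtain ⟨G, hG0, hG⟩ := exists_KK_bound (F := F) m hτ
  refine ⟨G * μ.real univ, by positivity, fun z hz => ?_⟩
  have h1 : pt m τ μ z ≤ ∫ _ : XB F τ, G * (1 - ‖z‖ ^ 2) ∂μ := by
    unfold pt
    refine integral_mono ?_ (integrable_const _) fun y => ?_
    · exact integrable_cont μ ((continuous_KK (m := m) hτ).comp (by fun_prop :
        Continuous fun y : XB F τ => (z, (y : F))))
    · have := XB_norm y
      exact (hG z y hz (by linarith)).2
  refine h1.trans (le_of_eq ?_)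
  rw [integral_const, smul_eq_mul]
  ring

/-- the difference of the two averages is quadratically small -/
lemma avg_diff_ge (hm : m = Module.finrank ℝ F) (hτ : 0 < τ) (b₁ b₂ ε : Measure (XB F τ))
    [IsFiniteMeasure b₁] [IsFiniteMeasure b₂] [IsFiniteMeasure ε]
    (hv : ∀ z : F, ‖z‖ ≤ 1 → vv m τ b₁ b₂ ε z ≤ 0) :
    ∃ C : ℝ, 0 ≤ C ∧ ∀ s ∈ Ioo (0:ℝ) 1, - (C * ((1 - s) * (1 - s ^ m))) ≤
      (∫ y in ball (0 : F) 1, 2 * vv m τ b₁ b₂ ε ((0 : F) - (1 : ℝ) • y)) -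
      (∫ y in ball (0 : F) 1, 2 * vv m τ b₁ b₂ ε ((0 : F) - s • y)) := by
  obtain ⟨C2, hC20, hC2⟩ := exists_pt_bound (F := F) m hτ b₂
  obtain ⟨C3, hC30, hC3⟩ := exists_pt_bound (F := F) m hτ ε
  have hptn : ∀ z : F, ‖z‖ ≤ 1 → 0 ≤ pt m τ b₁ z := by
    intro z hz
    obtain ⟨G, hG0, hG⟩ := exists_KK_bound (F := F) m hτ
    exact integral_nonneg fun y => (hG z y hz (by have := XB_norm y; linarith)).1
  set V := (volume : Measure F).real (ball 0 1) with hV
  refine ⟨4 * (C2 + C3) * V, by positivity, fun s hs => ?_⟩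
  have hs0 := hs.1
  set g : F → ℝ := fun z => 2 * vv m τ b₁ b₂ ε ((0 : F) - z) with hg
  have hgc : Continuous g := continuous_const.mul ((continuous_vv hτ b₁ b₂ ε).comp (by fun_prop))
  have hgi : ∀ r : ℝ, IntegrableOn g (ball (0 : F) r) := fun r =>
    (hgc.continuousOn.integrableOn_compact (isCompact_closedBall (0 : F) r)).mono_set
      ball_subset_closedBall
  have hg0 : ∀ z : F, ‖z‖ ≤ 1 → g z ≤ 0 := fun z hz => by
    have := hv ((0 : F) - z) (by simpa using hz)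
    simp only [hg]; linarith
  have hglow : ∀ z : F, ‖z‖ ≤ 1 → -(2 * (C2 + C3) * (1 - ‖z‖ ^ 2)) ≤ g z := fun z hz => by
    have hz' : ‖(0 : F) - z‖ ≤ 1 := by simpa using hz
    have h1 := hptn _ hz'
    have h2 := hC2 _ hz'
    have h3 := hC3 _ hz'
    have hn : ‖(0 : F) - z‖ = ‖z‖ := by simp
    rw [hn] at h2 h3
    simp only [hg, vv]
    linarith
  have e1 : ∫ y in ball (0 : F) 1, 2 * vv m τ b₁ b₂ ε ((0 : F) - (1 : ℝ) • y) =
      ∫ y in ball (0 : F) 1, g y := by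
    refine integral_congr_ae (Eventually.of_forall fun y => ?_)
    simp only [hg, one_smul]
  have e2 : ∫ y in ball (0 : F) 1, 2 * vv m τ b₁ b₂ ε ((0 : F) - s • y) =
      (s ^ m)⁻¹ * ∫ y in ball (0 : F) s, g y := by
    have h := Measure.setIntegral_comp_smul_of_pos (volume : Measure F) g (ball (0 : F) 1) hs0
    rw [_root_.smul_ball hs0.ne', smul_zero, Real.norm_of_nonneg hs0.le, mul_one, ← hm, smul_eq_mul] at h
    exact h
  have hIs : ∫ y in ball (0 : F) s, g y ≤ 0 :=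
    setIntegral_nonpos measurableSet_ball fun z hz => hg0 z (by
      have : ‖z‖ < s := by simpa using hz
      linarith [hs.2])
  have hsm : 1 ≤ (s ^ m)⁻¹ := (one_le_inv₀ (by positivity)).2 (pow_le_one₀ hs0.le hs.2.le)
  have h3 : (s ^ m)⁻¹ * ∫ y in ball (0 : F) s, g y ≤ ∫ y in ball (0 : F) s, g y := by nlinarith
  have hsub : ball (0 : F) s ⊆ ball 0 1 := ball_subset_ball hs.2.le
  have h4 : (∫ y in ball (0 : F) 1, g y) - ∫ y in ball (0 : F) s, g y =
      ∫ y in ball (0 : F) 1 \ ball 0 s, g y := by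
    rw [setIntegral_sdiff measurableSet_ball (hgi 1) hsub]
  have hcon : ∀ c : ℝ, ∫ _ in ball (0 : F) 1 \ ball 0 s, c = c * (V * (1 - s ^ m)) := by
    intro c
    rw [setIntegral_sdiff measurableSet_ball (integrableOn_const measure_ball_lt_top.ne) hsub,
      setIntegral_const, setIntegral_const, smul_eq_mul, smul_eq_mul]
    have h5 : (volume : Measure F).real (ball (0 : F) s) = s ^ m * V := by
      rw [hV, measureReal_def, measureReal_def, Measure.addHaar_ball_of_pos _ _ hs0, ← hm,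
        ENNReal.toReal_mul, ENNReal.toReal_ofReal (by positivity)]
    rw [h5, ← hV]
    ring
  have h6 : ∫ _ in ball (0 : F) 1 \ ball 0 s, (-(2 * (C2 + C3) * (1 - s ^ 2))) ≤
      ∫ y in ball (0 : F) 1 \ ball 0 s, g y := by
    refine setIntegral_mono_on ?_ ((hgi 1).mono_set sdiff_subset)
      (measurableSet_ball.diff measurableSet_ball) fun z hz => ?_
    · exact integrableOn_const ((measure_mono sdiff_subset).trans_lt measure_ball_lt_top).ne
    · have hz1 : ‖z‖ < 1 := by simpa using hz.1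
      have hz2 : s ≤ ‖z‖ := by simpa using hz.2
      refine le_trans ?_ (hglow z hz1.le)
      have h7 : s ^ 2 ≤ ‖z‖ ^ 2 := by gcongr
      have h8 : 0 ≤ 2 * (C2 + C3) := by positivity
      nlinarith
  rw [hcon] at h6
  rw [e1, e2]
  have h9 : 1 - s ^ 2 ≤ 2 * (1 - s) := by nlinarith [hs.2]
  have h10 : 0 ≤ 1 - s ^ m := by
    have := pow_le_one₀ (n := m) hs0.le hs.2.le
    linarith
  have hV0 : 0 ≤ V := measureReal_nonneg
  have h11 : 2 * (C2 + C3) * (1 - s ^ 2) * (V * (1 - s ^ m)) ≤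
      2 * (C2 + C3) * (2 * (1 - s)) * (V * (1 - s ^ m)) := by
    have : 0 ≤ V * (1 - s ^ m) := by positivity
    have : 0 ≤ 2 * (C2 + C3) := by positivity
    gcongr
  have h12 : 2 * (C2 + C3) * (2 * (1 - s)) * (V * (1 - s ^ m)) =
      4 * (C2 + C3) * V * ((1 - s) * (1 - s ^ m)) := by ring
  linarith

/-- **the bump inequality** in mollified form -/
theorem J0_nonpos (hm : m = Module.finrank ℝ F) (hτ : 0 < τ) (b₁ b₂ ε : Measure (XB F τ))
    [IsFiniteMeasure b₁] [IsFiniteMeasure b₂] [IsFiniteMeasure ε]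
    (hv : ∀ z : F, ‖z‖ ≤ 1 → vv m τ b₁ b₂ ε z ≤ 0) :
    J0 m τ b₁ 1 - J0 m τ b₂ 1 - J0 m τ ε 1 ≤ 0 := by
  by_contra hcon
  rw [not_le] at hcon
  obtain ⟨C, hC0, hC⟩ := avg_diff_ge hm hτ b₁ b₂ ε hv
  have c1 := continuous_J0 (m := m) hτ b₁
  have c2 := continuous_J0 (m := m) hτ b₂
  have c3 := continuous_J0 (m := m) hτ ε
  set Φ : ℝ → ℝ := fun ρ => ρ * J0 m τ b₁ ρ - ρ * J0 m τ b₂ ρ - ρ * J0 m τ ε ρ with hΦ
  have hΦc : Continuous Φ := ((continuous_id.mul c1).sub (continuous_id.mul c2)).sub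
    (continuous_id.mul c3)
  have hΦ1 : 0 < Φ 1 := by simp only [hΦ, one_mul]; exact hcon
  -- points near 1
  have ev1 : ∀ᶠ ρ in 𝓝 (1:ℝ), Φ 1 / 2 < Φ ρ :=
    hΦc.continuousAt.eventually (lt_mem_nhds (half_lt_self hΦ1))
  have ev2 : ∀ᶠ s in 𝓝 (1:ℝ), C * (1 - s ^ m) < Φ 1 / 2 := by
    have h1 : ContinuousAt (fun s : ℝ => C * (1 - s ^ m)) 1 := by fun_prop
    have h2 : C * (1 - (1:ℝ) ^ m) < Φ 1 / 2 := by
      rw [one_pow, sub_self, mul_zero]; linarith
    exact h1.eventually (gt_mem_nhds h2)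
  obtain ⟨δ, hδ0, hδ⟩ := Metric.eventually_nhds_iff.1 (ev1.and ev2)
  set s : ℝ := 1 - min δ 1 / 2 with hs
  have hmin : 0 < min δ 1 := lt_min hδ0 one_pos
  have hmin1 : min δ 1 ≤ 1 := min_le_right _ _
  have hmind : min δ 1 ≤ δ := min_le_left _ _
  have hs01 : s ∈ Ioo (0:ℝ) 1 := ⟨by rw [hs]; linarith, by rw [hs]; linarith⟩
  have hnear : ∀ ρ ∈ Icc s 1, dist ρ 1 < δ := by
    intro ρ hρ
    rw [Real.dist_eq, abs_of_nonpos (by linarith [hρ.2])]
    have := hρ.1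
    rw [hs] at this
    linarith
  have h1 := hC s hs01
  rw [uniform_identity hm hτ b₁ b₂ ε hs01.1.le hs01.2.le] at h1
  have i1 : IntervalIntegrable (fun ρ => ρ * J0 m τ b₁ ρ) volume s 1 :=
    (continuous_id.mul c1).intervalIntegrable _ _
  have i2 : IntervalIntegrable (fun ρ => ρ * J0 m τ b₂ ρ) volume s 1 :=
    (continuous_id.mul c2).intervalIntegrable _ _
  have i3 : IntervalIntegrable (fun ρ => ρ * J0 m τ ε ρ) volume s 1 :=
    (continuous_id.mul c3).intervalIntegrable _ _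
  rw [← intervalIntegral.integral_sub i1 i2, ← intervalIntegral.integral_sub (i1.sub i2) i3] at h1
  have h2 : (1 - s) * (Φ 1 / 2) ≤ ∫ ρ in s..1, Φ ρ := by
    have h3 : (∫ _ in s..1, Φ 1 / 2) = (1 - s) * (Φ 1 / 2) := by
      rw [intervalIntegral.integral_const, smul_eq_mul]
    rw [← h3]
    refine intervalIntegral.integral_mono_on hs01.2.le (by simp)
      (hΦc.intervalIntegrable _ _) fun ρ hρ => ?_
    exact (hδ (hnear ρ hρ)).1.le
  have h4 := (hδ (hnear s ⟨le_rfl, hs01.2.le⟩)).2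
  have h5 : 0 < 1 - s := by linarith [hs01.2]
  have h6 : ∫ ρ in s..1, Φ ρ ≤ C * ((1 - s) * (1 - s ^ m)) := by
    simp only [hΦ]
    linarith
  have h7 : (1 - s) * (C * (1 - s ^ m)) < (1 - s) * (Φ 1 / 2) := mul_lt_mul_of_pos_left h4 h5
  nlinarith

/-! ### the exact value of the mollified bump -/

/-- mass of the mollifier -/
def cD (F : Type*) [NormedAddCommGroup F] [InnerProductSpace ℝ F] [FiniteDimensional ℝ F]
    [MeasurableSpace F] [BorelSpace F] (m : ℕ) (τ : ℝ) : ℝ := ∫ u : F, DD m τ (‖u‖ ^ 2)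

/-- second moment of the mollifier -/
def kD (F : Type*) [NormedAddCommGroup F] [InnerProductSpace ℝ F] [FiniteDimensional ℝ F]
    [MeasurableSpace F] [BorelSpace F] (m : ℕ) (τ : ℝ) : ℝ := ∫ u : F, ‖u‖ ^ 2 * DD m τ (‖u‖ ^ 2)

lemma DD_far (hτ : 0 < τ) {u : F} (hu : u ∉ closedBall (0 : F) τ) : DD m τ (‖u‖ ^ 2) = 0 := by
  have : τ < ‖u‖ := by simpa using hu
  exact DD_of_ge hτ (by gcongr)

lemma integrable_mul_DD (hτ : 0 < τ) {h : F → ℝ} (hh : Continuous h) :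
    Integrable (fun u : F => h u * DD m τ (‖u‖ ^ 2)) := by
  have hc : Continuous fun u : F => h u * DD m τ (‖u‖ ^ 2) :=
    hh.mul ((continuous_DD hτ).comp (continuous_norm.pow 2))
  refine hc.integrable_of_hasCompactSupport ?_
  refine HasCompactSupport.intro (isCompact_closedBall (0 : F) τ) fun y hy => ?_
  rw [DD_far hτ hy, mul_zero]

lemma cD_pos (hm : m = Module.finrank ℝ F) (hm0 : 0 < m) (hτ : 0 < τ) : 0 < cD F m τ := by
  have hc : Continuous fun u : F => DD m τ (‖u‖ ^ 2) :=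
    (continuous_DD hτ).comp (continuous_norm.pow 2)
  refine Continuous.integral_pos_of_hasCompactSupport_nonneg_nonzero hc
    (HasCompactSupport.intro (isCompact_closedBall (0 : F) τ) fun y hy => DD_far hτ hy)
    (fun u => DD_nonneg hτ _) (x := 0) ?_
  have hm1 : (0:ℝ) < m := by exact_mod_cast hm0
  have h2 : 0 < τ ^ 2 := by positivity
  have h3 : 0 < (τ ^ 2) ^ (-(m : ℝ) / 2 - 1) := Real.rpow_pos_of_pos h2 _
  rw [norm_zero, zero_pow two_ne_zero, DD_of_le hτ h2.le, sub_zero]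
  have h4 : (0:ℝ) < m * (1 + m / 2) * (τ ^ 2) ^ (-(m : ℝ) / 2 - 1) * τ ^ 2 := by positivity
  exact h4.ne'

lemma kD_nonneg (hτ : 0 < τ) : 0 ≤ kD F m τ :=
  integral_nonneg fun u => mul_nonneg (by positivity) (DD_nonneg hτ _)

lemma kD_le (hτ : 0 < τ) : kD F m τ ≤ τ ^ 2 * cD F m τ := by
  unfold kD cD
  rw [← integral_const_mul]
  refine integral_mono (integrable_mul_DD hτ (continuous_norm.pow 2))
    (integrable_mul_DD hτ continuous_const) fun u => ?_
  simp only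
  by_cases hu : u ∈ closedBall (0 : F) τ
  · have h1 : ‖u‖ ≤ τ := by simpa using hu
    have h2 := DD_nonneg (m := m) hτ (‖u‖ ^ 2)
    gcongr
  · rw [DD_far hτ hu]; simp

/-- mollified bump = bump - constant -/
lemma int_bp_DD (hτ : 0 < τ) {z : F} (hz : ‖z‖ ≤ 1 - τ) :
    ∫ y : F, bp y * DD m τ (‖((0 : F) - (1 : ℝ) • y) - z‖ ^ 2) =
      cD F m τ * (1 - ‖z‖ ^ 2) - kD F m τ := by
  have e0 : ∫ y : F, bp y * DD m τ (‖((0 : F) - (1 : ℝ) • y) - z‖ ^ 2) =
      ∫ u : F, bp (-z - u) * DD m τ (‖u‖ ^ 2) := by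
    rw [← integral_sub_left_eq_self (fun y : F => bp y *
      DD m τ (‖((0 : F) - (1 : ℝ) • y) - z‖ ^ 2)) volume (-z)]
    refine integral_congr_ae (Eventually.of_forall fun u => ?_)
    simp only
    have : (0 : F) - (1 : ℝ) • (-z - u) - z = u := by
      rw [one_smul]; abel
    rw [this]
  have e1 : ∀ u : F, bp (-z - u) * DD m τ (‖u‖ ^ 2) =
      (1 - ‖z‖ ^ 2) * DD m τ (‖u‖ ^ 2) - ‖u‖ ^ 2 * DD m τ (‖u‖ ^ 2) -
        (2 * inner ℝ z u) * DD m τ (‖u‖ ^ 2) := by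
    intro u
    by_cases hu : u ∈ closedBall (0 : F) τ
    · have h1 : ‖u‖ ≤ τ := by simpa using hu
      have h2 : ‖-z - u‖ ≤ 1 := by
        have := norm_sub_le (-z) u
        rw [norm_neg] at this
        linarith
      have h3 : bp (-z - u) = 1 - ‖-z - u‖ ^ 2 :=
        max_eq_left (by nlinarith [norm_nonneg (-z - u)])
      have h4 : ‖-z - u‖ ^ 2 = ‖z‖ ^ 2 + 2 * inner ℝ z u + ‖u‖ ^ 2 := by
        rw [norm_sub_sq_real, norm_neg, inner_neg_left]; ring
      rw [h3, h4]; ring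
    · rw [DD_far hτ hu]; ring
  have i1 := integrable_mul_DD (m := m) hτ (h := fun _ : F => (1 - ‖z‖ ^ 2)) continuous_const
  have i2 := integrable_mul_DD (m := m) hτ (h := fun u : F => ‖u‖ ^ 2) (continuous_norm.pow 2)
  have i3 := integrable_mul_DD (m := m) hτ (h := fun u : F => 2 * inner ℝ z u) (by fun_prop)
  have e2 : ∫ u : F, (2 * inner ℝ z u) * DD m τ (‖u‖ ^ 2) = 0 := by
    have h := integral_neg_eq_self (fun u : F => (2 * inner ℝ z u) * DD m τ (‖u‖ ^ 2)) volume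
    have h2 : ∫ u : F, (2 * inner ℝ z (-u)) * DD m τ (‖-u‖ ^ 2) =
        - ∫ u : F, (2 * inner ℝ z u) * DD m τ (‖u‖ ^ 2) := by
      rw [← integral_neg]
      refine integral_congr_ae (Eventually.of_forall fun u => ?_)
      simp only [inner_neg_right, norm_neg]
      ring
    rw [h2] at h
    linarith
  have k1 := integral_sub i1 i2
  have k2 := integral_sub (i1.sub i2) i3
  simp only [Pi.sub_apply] at k2
  rw [e0, integral_congr_ae (Eventually.of_forall e1), k2, k1, e2, integral_const_mul]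
  unfold cD kD
  ring

lemma J0_one (hτ : 0 < τ) (μ : Measure (XB F τ)) [IsFiniteMeasure μ] :
    J0 m τ μ 1 = cD F m τ * (∫ z : XB F τ, (1 - ‖(z : F)‖ ^ 2) ∂μ) - kD F m τ * μ.real univ := by
  have e0 : J0 m τ μ 1 = ∫ z : XB F τ, (∫ y : F, bp y *
      DD m τ (‖((0 : F) - (1 : ℝ) • y) - (z : F)‖ ^ 2)) ∂μ := by
    rw [← swap_ball (F := F) μ (g := fun (y : F) (z : XB F τ) =>
      bp y * DD m τ (‖((0 : F) - (1 : ℝ) • y) - (z : F)‖ ^ 2))]
    · unfold J0 ml
      refine integral_congr_ae (Eventually.of_forall fun y => ?_)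
      simp only
      rw [integral_const_mul]
    · have h3 : Continuous fun p : F × XB F τ => ‖((0 : F) - (1 : ℝ) • p.1) - (p.2 : F)‖ ^ 2 := by
        fun_prop
      exact (continuous_bp.comp continuous_fst).mul ((continuous_DD (m := m) hτ).comp h3)
    · intro y hy z
      rw [bp_zero hy, zero_mul]
  rw [e0]
  have e1 : ∀ z : XB F τ, ∫ y : F, bp y * DD m τ (‖((0 : F) - (1 : ℝ) • y) - (z : F)‖ ^ 2) =
      cD F m τ * (1 - ‖(z : F)‖ ^ 2) - kD F m τ := fun z => int_bp_DD hτ (XB_norm z)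
  simp only [e1]
  have hc : Continuous fun z : XB F τ => (1 - ‖(z : F)‖ ^ 2) := by fun_prop
  have hi := integrable_cont μ hc
  rw [integral_sub (hi.const_mul _) (integrable_const _), integral_const_mul, integral_const,
    smul_eq_mul]
  ring

/-- **BUMP DOMINATION.** -/
theorem bump_dom (hm : m = Module.finrank ℝ F) (hm0 : 0 < m) (hτ : 0 < τ)
    (b₁ b₂ ε : Measure (XB F τ))
    [IsFiniteMeasure b₁] [IsFiniteMeasure b₂] [IsFiniteMeasure ε]
    (hv : ∀ z : F, ‖z‖ ≤ 1 → pt m τ b₁ z - pt m τ b₂ z ≤ pt m τ ε z) :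
    ∫ z : XB F τ, (1 - ‖(z : F)‖ ^ 2) ∂b₁ - ∫ z : XB F τ, (1 - ‖(z : F)‖ ^ 2) ∂b₂ ≤
      ∫ z : XB F τ, (1 - ‖(z : F)‖ ^ 2) ∂ε + τ ^ 2 * b₁.real univ := by
  have h := J0_nonpos hm hτ b₁ b₂ ε (fun z hz => by
    have := hv z hz
    unfold vv; linarith)
  rw [J0_one hτ b₁, J0_one hτ b₂, J0_one hτ ε] at h
  have hc := cD_pos (F := F) hm hm0 hτ
  have hk := kD_nonneg (F := F) (m := m) hτ
  have hk2 := kD_le (F := F) (m := m) hτ
  have n1 : 0 ≤ b₁.real univ := measureReal_nonneg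
  have n2 : 0 ≤ b₂.real univ := measureReal_nonneg
  have n3 : 0 ≤ ε.real univ := measureReal_nonneg
  set c := cD F m τ
  set κ := kD F m τ
  set I1 := ∫ z : XB F τ, (1 - ‖(z : F)‖ ^ 2) ∂b₁
  set I2 := ∫ z : XB F τ, (1 - ‖(z : F)‖ ^ 2) ∂b₂
  set I3 := ∫ z : XB F τ, (1 - ‖(z : F)‖ ^ 2) ∂ε
  have h1 : c * (I1 - I2 - I3) ≤ c * (τ ^ 2 * b₁.real univ) := by
    have h2 : κ * b₁.real univ ≤ τ ^ 2 * c * b₁.real univ := mul_le_mul_of_nonneg_right hk2 n1
    have h3 : 0 ≤ κ * b₂.real univ := mul_nonneg hk n2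
    have h4 : 0 ≤ κ * ε.real univ := mul_nonneg hk n3
    nlinarith
  have h5 := le_of_mul_le_mul_left h1 hc
  linarith

end

end Crest.Agent.R234.Dom_309
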