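import Crest.Agent.R234.Ell1_3
import Crest.Prelude.Def_Varifold

/-!
R234 (helper3), VF-ELL part 2: pointwise facts about the frozen varifold data.

* `ae_fderiv_zero`: a map that vanishes on a measurable set `A` and is differentiable within `A`
  has zero derivative at almost every point of `A`;
* `tangentAt_eq_range`: `tangentAt f a = range (fderiv f a)`;
* `starProjection_graph`: orthogonal projection onto the graph plane `{ξ + q ξ}`;
* `jac_pos`.
-/

open MeasureTheory Metric Set Filter Topology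
open scoped ContDiff NNReal ENNReal
open Crest.GeometryTopology.Submanifold

namespace Crest.Agent.R234.Ell2_3

noncomputable section

set_option linter.unusedSectionVars false

open Crest.Agent.R234.Ell1_3

/-! ### vanishing on a set of positive measure -/

lemma ae_fderiv_zero {E₁ E₂ : Type*} [NormedAddCommGroup E₁] [NormedSpace ℝ E₁]
    [FiniteDimensional ℝ E₁] [MeasurableSpace E₁] [BorelSpace E₁]
    [NormedAddCommGroup E₂] [NormedSpace ℝ E₂] [FiniteDimensional ℝ E₂]
    (μ : Measure E₁) [μ.IsAddHaarMeasure]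
    {h : E₁ → E₂} {h' : E₁ → E₁ →L[ℝ] E₂} {A : Set E₁} (hA : MeasurableSet A)
    (hd : ∀ a ∈ A, HasFDerivWithinAt h (h' a) A a) (h0 : ∀ a ∈ A, h a = 0) :
    ∀ᵐ a ∂(μ.restrict A), h' a = 0 := by
  rcases subsingleton_or_nontrivial E₁ with hs | hn
  · refine Filter.Eventually.of_forall fun a => ?_
    ext x
    rw [Subsingleton.elim x 0]; simp
  obtain ⟨v, hv⟩ := exists_ne (0 : E₁)
  set b := Module.finBasis ℝ E₂ with hb
  let φ : Fin (Module.finrank ℝ E₂) → (E₂ →L[ℝ] ℝ) := fun j =>
    LinearMap.toContinuousLinearMap (b.coord j)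
  have key : ∀ j, ∀ᵐ a ∂(μ.restrict A), ‖((φ j).smulRight v) ∘L (h' a) - 0‖₊ ≤ (0 : ℝ≥0) := by
    intro j
    have happ : ApproximatesLinearOn (fun a => ((φ j).smulRight v) (h a))
        (0 : E₁ →L[ℝ] E₁) A 0 := by
      intro x hx y hy
      simp [h0 x hx, h0 y hy]
    exact happ.norm_fderiv_sub_le μ hA (fun a => ((φ j).smulRight v) ∘L (h' a))
      (fun x hx => (((φ j).smulRight v).hasFDerivAt.comp_hasFDerivWithinAt x (hd x hx)))
  have key2 : ∀ᵐ a ∂(μ.restrict A), ∀ j, ‖((φ j).smulRight v) ∘L (h' a) - 0‖₊ ≤ (0 : ℝ≥0) :=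
    ae_all_iff.2 key
  filter_upwards [key2] with a ha
  ext x
  have h1 : ∀ j, b.coord j (h' a x) = 0 := by
    intro j
    have h2 := ha j
    rw [sub_zero, nonpos_iff_eq_zero, nnnorm_eq_zero] at h2
    have h3 := congrArg (fun L : E₁ →L[ℝ] E₁ => L x) h2
    simp only [ContinuousLinearMap.comp_apply, ContinuousLinearMap.smulRight_apply,
      zero_apply, smul_eq_zero] at h3
    rcases h3 with h3 | h3
    · exact h3
    · exact absurd h3 hv
  have h4 : h' a x = 0 := by
    apply b.ext_elem
    intro j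
    simpa using h1 j
  simpa using h4

/-! ### tangent planes of the charts -/

variable {m k : ℕ}

lemma tangentAt_eq_range (f : Euc m → Euc k) (a : Euc m) :
    tangentAt f a = LinearMap.range (fderiv ℝ f a : Euc m →ₗ[ℝ] Euc k) := by
  unfold tangentAt
  apply le_antisymm
  · rw [Submodule.span_le]
    rintro _ ⟨i, rfl⟩
    exact ⟨stdVec m i, rfl⟩
  · rintro _ ⟨x, rfl⟩
    have hx : x = ∑ i, x i • stdVec m i := by
      ext j
      simp [stdVec, Pi.single_apply]
    rw [hx, map_sum]
    refine Submodule.sum_mem _ fun i _ => ?_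
    rw [map_smul]
    exact Submodule.smul_mem _ _ (Submodule.subset_span ⟨i, rfl⟩)

lemma finrank_tangentAt {f : Euc m → Euc k} {a : Euc m}
    (h : Function.Injective (fderiv ℝ f a)) : Module.finrank ℝ (tangentAt f a) = m := by
  rw [tangentAt_eq_range, LinearMap.finrank_range_of_inj h]
  simp

lemma jac_pos {f : Euc m → Euc k} {a : Euc m}
    (h : Function.Injective (fderiv ℝ f a)) : 0 < jac f a := by
  unfold jac
  apply Real.sqrt_pos.2
  have h1 : metricMat f a = Matrix.gram ℝ (pd f a) := by
    ext i j; simp [metricMat, Matrix.gram]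
  rw [h1]
  apply Matrix.PosDef.det_pos
  apply Matrix.posDef_gram_of_linearIndependent
  have h2 : LinearIndependent ℝ (fun i : Fin m => stdVec m i) := by
    have h3 := (EuclideanSpace.basisFun (Fin m) ℝ).orthonormal.linearIndependent
    have e : (fun i : Fin m => stdVec m i) = ⇑(EuclideanSpace.basisFun (Fin m) ℝ) := by
      funext i; simp [stdVec]
    rw [e]; exact h3
  exact h2.map' (fderiv ℝ f a : Euc m →ₗ[ℝ] Euc k) (LinearMap.ker_eq_bot.2 h)

/-! ### the graph plane -/

variable {E : Type} [NormedAddCommGroup E] [InnerProductSpace ℝ E] [FiniteDimensional ℝ E]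
  (T : Submodule ℝ E)

/-- the plane `{ξ + q ξ : ξ ∈ T}` -/
def gplane (q : T →L[ℝ] Tᗮ) : Submodule ℝ E :=
  LinearMap.range ((T.subtypeL + Tᗮ.subtypeL ∘L q : T →L[ℝ] E) : T →ₗ[ℝ] E)

lemma mem_gplane (q : T →L[ℝ] Tᗮ) (ξ : T) : (ξ : E) + (q ξ : E) ∈ gplane T q := ⟨ξ, rfl⟩

lemma inner_split (a b : T) (c d : Tᗮ) :
    (inner ℝ ((a : E) + (c : E)) ((b : E) + (d : E)) : ℝ) = inner ℝ a b + inner ℝ c d := by
  have h1 : (inner ℝ (a : E) (d : E) : ℝ) = 0 :=
    (Submodule.mem_orthogonal T (d : E)).1 d.2 a a.2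
  have h2 : (inner ℝ (c : E) (b : E) : ℝ) = 0 :=
    (Submodule.mem_orthogonal' T (c : E)).1 c.2 b b.2
  rw [inner_add_left, inner_add_right, inner_add_right, h1, h2]
  simp

lemma finrank_gplane (q : T →L[ℝ] Tᗮ) :
    Module.finrank ℝ (gplane T q) = Module.finrank ℝ T := by
  unfold gplane
  apply LinearMap.finrank_range_of_inj
  intro x y hxy
  have h1 : ((x : E) + (q x : E)) = (y : E) + (q y : E) := hxy
  have h2 : (((x - y : T) : E) + ((q x - q y : Tᗮ) : E)) = 0 := by
    push_cast
    rw [← sub_eq_zero] at h1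
    rw [← h1]; abel
  have h3 := inner_split T (x - y) (x - y) (q x - q y) (q x - q y)
  rw [h2, inner_zero_left] at h3
  have h4 : (0 : ℝ) ≤ inner ℝ (x - y) (x - y) := real_inner_self_nonneg
  have h5 : (0 : ℝ) ≤ inner ℝ (q x - q y) (q x - q y) := real_inner_self_nonneg
  have h6 : (inner ℝ (x - y) (x - y) : ℝ) = 0 := by linarith
  exact sub_eq_zero.1 (inner_self_eq_zero.1 h6)

/-- projection of a vertical vector onto the graph plane -/
lemma starProjection_graph (q : T →L[ℝ] Tᗮ) (v : Tᗮ) :
    (gplane T q).starProjection (v : E) =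
      ((ginv q (ContinuousLinearMap.adjoint q v) : T) : E) +
        ((q (ginv q (ContinuousLinearMap.adjoint q v)) : Tᗮ) : E) := by
  set z : T := ginv q (ContinuousLinearMap.adjoint q v) with hz
  apply Submodule.eq_starProjection_of_mem_of_inner_eq_zero
  · exact mem_gplane T q z
  · rintro _ ⟨ξ, rfl⟩
    have h0 : ((v : E) - ((z : E) + (q z : E))) = ((-z : T) : E) + ((v - q z : Tᗮ) : E) := by
      push_cast; abel
    have h1 : (((T.subtypeL + Tᗮ.subtypeL ∘L q : T →L[ℝ] E) : T →ₗ[ℝ] E) ξ) =
        (ξ : E) + (q ξ : E) := rfl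
    rw [h1, h0, inner_split]
    have h2 : gop q z = ContinuousLinearMap.adjoint q v := by
      have := congrArg (fun L : T →L[ℝ] T => L (ContinuousLinearMap.adjoint q v)) (gop_ginv q)
      simpa [hz] using this
    have h3 : (inner ℝ (gop q z) ξ : ℝ) = inner ℝ z ξ + inner ℝ (q z) (q ξ) := by
      rw [real_inner_comm, gop_inner, real_inner_comm, real_inner_comm (q z)]
    rw [h2, ContinuousLinearMap.adjoint_inner_left] at h3
    rw [inner_neg_left, inner_sub_left]
    linarith

/-- the divergence along the graph plane of the field `p ↦ ζ v` -/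
lemma trace_graph (q : T →L[ℝ] Tᗮ) (c : T) (v : Tᗮ) :
    LinearMap.trace ℝ E ((((innerSL ℝ (c : E)).smulRight (v : E)).comp
      (gplane T q).starProjection).toLinearMap) = inner ℝ (q (ginv q c)) v := by
  have h1 : ((((innerSL ℝ (c : E)).smulRight (v : E)).comp
      (gplane T q).starProjection).toLinearMap : E →ₗ[ℝ] E) =
      LinearMap.smulRight ((innerSL ℝ (c : E) ∘L (gplane T q).starProjection) : E →ₗ[ℝ] ℝ)
        (v : E) := by
    ext x; simp
  rw [h1, LinearMap.trace_smulRight]
  simp only [ContinuousLinearMap.coe_coe, ContinuousLinearMap.comp_apply, innerSL_apply_apply]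
  rw [starProjection_graph]
  set z : T := ginv q (ContinuousLinearMap.adjoint q v) with hz
  have h2 : (inner ℝ (c : E) ((z : E) + (q z : E)) : ℝ) = inner ℝ c z := by
    have := inner_split T c z 0 (q z)
    simpa using this
  rw [h2]
  -- self-adjointness of `ginv q`
  have hsa : ∀ x y : T, (inner ℝ (ginv q x) y : ℝ) = inner ℝ x (ginv q y) := by
    intro x y
    have hx : gop q (ginv q x) = x := by
      have := congrArg (fun L : T →L[ℝ] T => L x) (gop_ginv q)
      simpa using this
    have hy : gop q (ginv q y) = y := by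
      have := congrArg (fun L : T →L[ℝ] T => L y) (gop_ginv q)
      simpa using this
    have e1 := gop_inner q (ginv q x) (ginv q y)
    have e2 := gop_inner q (ginv q y) (ginv q x)
    rw [hy] at e1
    rw [hx] at e2
    rw [e1, real_inner_comm (ginv q y) x, e2, real_inner_comm (ginv q x) (ginv q y),
      real_inner_comm (q (ginv q x)) (q (ginv q y))]
  rw [hz, ← hsa, ContinuousLinearMap.adjoint_inner_right]

end

end Crest.Agent.R234.Ell2_3
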