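import Crest.Agent.R234.Ell2_3

/-!
R234 (helper3), VF-ELL part 3: if near a point the weight of a stationary integral varifold is `Q`
times the area of a `C¹` graph over an `m`-plane, then the graph function solves the weak minimal
surface system.
-/

open MeasureTheory Metric Set Filter Topology
open scoped ContDiff NNReal ENNReal
open Crest.GeometryTopology.Submanifold

namespace Crest.Agent.R234.Ell3_3

noncomputable section

set_option linter.unusedSectionVars false

open Crest.Agent.R234.Ell1_3 Crest.Agent.R234.Ell2_3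

variable {m k : ℕ}

/-- horizontal coordinate -/
def px (T : Submodule ℝ (Euc k)) (x0 p : Euc k) : T := T.orthogonalProjectionOnto (p - x0)

/-- vertical coordinate -/
def py (T : Submodule ℝ (Euc k)) (x0 p : Euc k) : Tᗮ := Tᗮ.orthogonalProjectionOnto (p - x0)

/-- graph map -/
def gmap (T : Submodule ℝ (Euc k)) (x0 : Euc k) (u : T → Tᗮ) (x : T) : Euc k :=
  x0 + ((x : Euc k) + (u x : Euc k))

/-- the cylinder of radius `r`, height `s` about `x0` -/
def cyl (T : Submodule ℝ (Euc k)) (x0 : Euc k) (r s : ℝ) : Set (Euc k) :=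
  {p | px T x0 p ∈ ball (0 : T) r ∧ py T x0 p ∈ ball (0 : Tᗮ) s}

/-- the area measure of the graph over the ball of radius `r` -/
def gmeas (T : Submodule ℝ (Euc k)) (x0 : Euc k) (u : T → Tᗮ) (g : T → T →L[ℝ] Tᗮ) (r : ℝ) :
    Measure (Euc k) :=
  ((volume.restrict (ball (0 : T) r)).withDensity (fun x => ENNReal.ofReal (dns (g x)))).map
    (gmap T x0 u)

lemma px_contDiff (T : Submodule ℝ (Euc k)) (x0 : Euc k) : ContDiff ℝ ∞ (px T x0) :=
  T.orthogonalProjectionOnto.contDiff.comp (contDiff_id.sub contDiff_const)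

lemma py_contDiff (T : Submodule ℝ (Euc k)) (x0 : Euc k) : ContDiff ℝ ∞ (py T x0) :=
  Tᗮ.orthogonalProjectionOnto.contDiff.comp (contDiff_id.sub contDiff_const)

lemma px_continuous (T : Submodule ℝ (Euc k)) (x0 : Euc k) : Continuous (px T x0) :=
  (px_contDiff T x0).continuous

lemma py_continuous (T : Submodule ℝ (Euc k)) (x0 : Euc k) : Continuous (py T x0) :=
  (py_contDiff T x0).continuous

lemma cyl_isOpen (T : Submodule ℝ (Euc k)) (x0 : Euc k) (r s : ℝ) : IsOpen (cyl T x0 r s) :=
  (isOpen_ball.preimage (px_continuous T x0)).inter (isOpen_ball.preimage (py_continuous T x0))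

lemma split (T : Submodule ℝ (Euc k)) (x0 p : Euc k) :
    p = x0 + ((px T x0 p : Euc k) + (py T x0 p : Euc k)) := by
  have h := Submodule.starProjection_add_starProjection_orthogonal (K := T) (p - x0)
  have h1 : ((px T x0 p : T) : Euc k) = T.starProjection (p - x0) := rfl
  have h2 : ((py T x0 p : Tᗮ) : Euc k) = Tᗮ.starProjection (p - x0) := rfl
  rw [h1, h2, h]; abel

@[simp] lemma px_gmap (T : Submodule ℝ (Euc k)) (x0 : Euc k) (x : T) (y : Tᗮ) :
    px T x0 (x0 + ((x : Euc k) + (y : Euc k))) = x := by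
  unfold px
  rw [add_sub_cancel_left, map_add, Submodule.orthogonalProjectionOnto_mem_subspace_eq_self,
    Submodule.orthogonalProjectionOnto_apply_of_mem_orthogonal y.2, add_zero]

@[simp] lemma py_gmap (T : Submodule ℝ (Euc k)) (x0 : Euc k) (x : T) (y : Tᗮ) :
    py T x0 (x0 + ((x : Euc k) + (y : Euc k))) = y := by
  unfold py
  rw [add_sub_cancel_left, map_add, Submodule.orthogonalProjectionOnto_mem_subspace_eq_self,
    Submodule.orthogonalProjectionOnto_apply_of_mem_orthogonal, zero_add]
  rw [Submodule.orthogonal_orthogonal]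
  exact x.2

/-- the graph inside the cylinder -/
def grf (T : Submodule ℝ (Euc k)) (x0 : Euc k) (u : T → Tᗮ) (r s : ℝ) : Set (Euc k) :=
  {p | p ∈ cyl T x0 r s ∧ py T x0 p = u (px T x0 p)}

variable (T : Submodule ℝ (Euc k)) (x0 : Euc k) (r s : ℝ) (u : T → Tᗮ) (g : T → T →L[ℝ] Tᗮ)

lemma cyl_diff_grf_isOpen (hu : ContinuousOn u (ball 0 r)) :
    IsOpen (cyl T x0 r s \ grf T x0 u r s) := by
  have h1 : cyl T x0 r s \ grf T x0 u r s =
      cyl T x0 r s ∩ (fun p => (py T x0 p) - u (px T x0 p)) ⁻¹' {0}ᶜ := by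
    ext p
    simp only [grf, Set.mem_sdiff, Set.mem_ofPred_eq, not_and, mem_inter_iff, mem_preimage,
      mem_compl_iff, mem_singleton_iff, sub_eq_zero]
    constructor
    · rintro ⟨ha, hb⟩; exact ⟨ha, hb ha⟩
    · rintro ⟨ha, hb⟩; exact ⟨ha, fun _ => hb⟩
  rw [h1]
  have h2 : ContinuousOn (fun p => (py T x0 p) - u (px T x0 p)) (cyl T x0 r s) := by
    refine (py_continuous T x0).continuousOn.sub ?_
    exact hu.comp (px_continuous T x0).continuousOn (fun p hp => hp.1)
  exact h2.isOpen_inter_preimage (cyl_isOpen T x0 r s) isOpen_compl_singleton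

lemma gmap_continuousOn (hu : ContinuousOn u (ball 0 r)) :
    ContinuousOn (gmap T x0 u) (ball 0 r) := by
  unfold gmap
  refine continuousOn_const.add ?_
  exact continuous_subtype_val.continuousOn.add (continuous_subtype_val.comp_continuousOn hu)

lemma gmap_aemeasurable (hu : ContinuousOn u (ball 0 r)) :
    AEMeasurable (gmap T x0 u) ((volume.restrict (ball (0 : T) r)).withDensity
      (fun x => ENNReal.ofReal (dns (g x)))) := by
  have h1 : AEMeasurable (gmap T x0 u) (volume.restrict (ball (0 : T) r)) :=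
    (gmap_continuousOn T x0 r u hu).aemeasurable measurableSet_ball
  exact h1.mono_ac (withDensity_absolutelyContinuous _ _)

lemma gmeas_diff (hu : ContinuousOn u (ball 0 r)) :
    gmeas T x0 u g r (cyl T x0 r s \ grf T x0 u r s) = 0 := by
  unfold gmeas
  rw [Measure.map_apply_of_aemeasurable (gmap_aemeasurable T x0 r u g hu)
    (cyl_diff_grf_isOpen T x0 r s u hu).measurableSet]
  have h1 : gmap T x0 u ⁻¹' (cyl T x0 r s \ grf T x0 u r s) = ∅ := by
    ext x
    simp only [mem_preimage, Set.mem_sdiff, grf, Set.mem_ofPred_eq, gmap, px_gmap, py_gmap, and_true,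
      mem_empty_iff_false, iff_false]
    tauto
  rw [h1, measure_empty]

/-- the weight of a piece -/
def wi (D : VarifoldData m k) (i : ℕ) : Measure (Euc k) :=
  ((volume.restrict (D.dom i)).withDensity fun a =>
        ENNReal.ofReal ((D.mult i a : ℝ) * jac (D.chart i) a)).map (D.chart i)

lemma weight_eq (D : VarifoldData m k) : weight D = Measure.sum (wi D) := rfl

lemma wi_le (D : VarifoldData m k) (i : ℕ) : wi D i ≤ weight D := Measure.le_sum _ i

lemma jac_continuous {f : Euc m → Euc k} (hf : ContDiff ℝ 1 f) : Continuous (jac f) := by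
  unfold jac
  refine Real.continuous_sqrt.comp ?_
  refine Continuous.matrix_det ?_
  refine continuous_matrix fun i j => ?_
  simp only [metricMat, Matrix.of_apply, pd]
  have h := hf.continuous_fderiv (by norm_num)
  exact ((h.clm_apply continuous_const).inner (h.clm_apply continuous_const))

lemma dens_measurable {U : Set (Euc k)} {D : VarifoldData m k} (hD : IsIntegralVarifoldIn U D)
    (i : ℕ) : Measurable (fun a => ENNReal.ofReal ((D.mult i a : ℝ) * jac (D.chart i) a)) := by
  have h1 : Measurable (fun a => (D.mult i a : ℝ)) :=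
    measurable_from_nat.comp (hD.measurable_mult i)
  exact (h1.mul (jac_continuous (hD.contDiff i)).measurable).ennreal_ofReal

/-- a set null for the weight has null preimage in the parameter domains -/
lemma preimage_null {U : Set (Euc k)} {D : VarifoldData m k} (hD : IsIntegralVarifoldIn U D)
    {S : Set (Euc k)} (hS : MeasurableSet S) (h0 : weight D S = 0) (i : ℕ) :
    ∀ᵐ a ∂(volume.restrict (D.dom i)), D.chart i a ∉ S := by
  have hc : Measurable (D.chart i) := (hD.contDiff i).continuous.measurable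
  have h1 : wi D i S = 0 := le_antisymm ((wi_le D i S).trans h0.le) zero_le
  unfold wi at h1
  rw [Measure.map_apply hc hS, withDensity_apply _ (hc hS)] at h1
  rw [lintegral_eq_zero_iff (dens_measurable hD i)] at h1
  rw [Filter.EventuallyEq, ae_restrict_iff' (hc hS), ae_restrict_iff' (hD.measurableSet i)] at h1
  rw [ae_restrict_iff' (hD.measurableSet i)]
  filter_upwards [h1] with a ha hda hS'
  have h2 := ha hda hS'
  simp only [Pi.zero_apply, ENNReal.ofReal_eq_zero] at h2
  have h3 : (1 : ℝ) ≤ D.mult i a := by exact_mod_cast hD.mult_pos i a hda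
  have h4 := jac_pos (hD.injective_fderiv i a hda)
  nlinarith

/-- integrals against the weight of a piece -/
lemma wi_integral {U : Set (Euc k)} {D : VarifoldData m k} (hD : IsIntegralVarifoldIn U D)
    {Ψ : Euc k → ℝ} (hm : Measurable Ψ) (i : ℕ) :
    ∫ p, Ψ p ∂(wi D i) =
      ∫ a in D.dom i, ((D.mult i a : ℝ) * jac (D.chart i) a) * Ψ (D.chart i a) := by
  unfold wi
  have hc : Measurable (D.chart i) := (hD.contDiff i).continuous.measurable
  rw [integral_map hc.aemeasurable hm.aestronglyMeasurable,
    integral_withDensity_eq_integral_toReal_smul (dens_measurable hD i)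
      (Filter.Eventually.of_forall fun a => ENNReal.ofReal_lt_top)]
  refine setIntegral_congr_fun (hD.measurableSet i) fun a ha => ?_
  have h4 := (jac_pos (hD.injective_fderiv i a ha)).le
  simp only [smul_eq_mul]
  rw [ENNReal.toReal_ofReal (by positivity)]

/-- integrals against the weight -/
lemma hasSum_weight {U : Set (Euc k)} {D : VarifoldData m k} (hD : IsIntegralVarifoldIn U D)
    {Ψ : Euc k → ℝ} (hm : Measurable Ψ) (hΨ : Integrable Ψ (weight D)) :
    HasSum (fun i => ∫ a in D.dom i, ((D.mult i a : ℝ) * jac (D.chart i) a) * Ψ (D.chart i a))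
      (∫ p, Ψ p ∂(weight D)) := by
  rw [weight_eq] at hΨ ⊢
  have h := hasSum_integral_measure hΨ
  have e : (fun i => ∫ a in D.dom i, ((D.mult i a : ℝ) * jac (D.chart i) a) * Ψ (D.chart i a)) =
      fun i => ∫ p, Ψ p ∂(wi D i) := by
    funext i
    exact (wi_integral hD hm i).symm
  rw [e]; exact h

/-- tangent planes of the pieces along the graph -/
lemma tangent_eq {U : Set (Euc k)} {D : VarifoldData m k} (hD : IsIntegralVarifoldIn U D)
    (hT : Module.finrank ℝ T = m)
    (hder : ∀ z ∈ ball (0 : T) r, HasFDerivAt u (g z) z) (i : ℕ) :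
    ∀ᵐ a ∂(volume.restrict (D.dom i)), D.chart i a ∈ grf T x0 u r s →
      tangentAt (D.chart i) a = gplane T (g (px T x0 (D.chart i a))) := by
  have hu : ContinuousOn u (ball 0 r) := fun z hz => (hder z hz).continuousAt.continuousWithinAt
  have hgm : MeasurableSet (grf T x0 u r s) := by
    have h1 : grf T x0 u r s = cyl T x0 r s \ (cyl T x0 r s \ grf T x0 u r s) := by
      ext p; simp only [Set.mem_sdiff, grf, Set.mem_ofPred_eq]; tauto
    rw [h1]
    exact (cyl_isOpen T x0 r s).measurableSet.diff (cyl_diff_grf_isOpen T x0 r s u hu).measurableSet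
  have hc : Measurable (D.chart i) := (hD.contDiff i).continuous.measurable
  set A : Set (Euc m) := D.dom i ∩ D.chart i ⁻¹' (grf T x0 u r s) with hA
  have hAm : MeasurableSet A := (hD.measurableSet i).inter (hc hgm)
  set f := D.chart i with hf
  have hfd : ∀ a, HasFDerivAt f (fderiv ℝ f a) a := fun a =>
    ((hD.contDiff i).differentiable (by norm_num) a).hasFDerivAt
  have hx : ∀ a, HasFDerivAt (fun a => px T x0 (f a)) (T.orthogonalProjectionOnto ∘L fderiv ℝ f a) a :=
    fun a => T.orthogonalProjectionOnto.hasFDerivAt.comp a ((hfd a).sub_const x0)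
  have hy : ∀ a, HasFDerivAt (fun a => py T x0 (f a)) (Tᗮ.orthogonalProjectionOnto ∘L fderiv ℝ f a) a :=
    fun a => Tᗮ.orthogonalProjectionOnto.hasFDerivAt.comp a ((hfd a).sub_const x0)
  have key := ae_fderiv_zero (volume : Measure (Euc m))
    (h := fun a => py T x0 (f a) - u (px T x0 (f a)))
    (h' := fun a => (Tᗮ.orthogonalProjectionOnto ∘L fderiv ℝ f a) -
      (g (px T x0 (f a))) ∘L (T.orthogonalProjectionOnto ∘L fderiv ℝ f a)) hAm
    (fun a ha => ((hy a).sub ((hder _ ha.2.1.1).comp a (hx a))).hasFDerivWithinAt)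
    (fun a ha => sub_eq_zero.2 ha.2.2)
  rw [ae_restrict_iff' hAm] at key
  rw [ae_restrict_iff' (hD.measurableSet i)]
  filter_upwards [key] with a ha hda hga
  have h1 := ha ⟨hda, hga⟩
  apply Submodule.eq_of_le_of_finrank_eq
  · rw [tangentAt_eq_range]
    rintro _ ⟨ξ, rfl⟩
    have h2 := congrArg (fun L : Euc m →L[ℝ] Tᗮ => L ξ) h1
    simp only [sub_apply, ContinuousLinearMap.comp_apply, zero_apply, sub_eq_zero] at h2
    have h3 := Submodule.starProjection_add_starProjection_orthogonal (K := T) (fderiv ℝ f a ξ)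
    have h4 : (fderiv ℝ f a : Euc m →ₗ[ℝ] Euc k) ξ =
        ((T.orthogonalProjectionOnto (fderiv ℝ f a ξ) : T) : Euc k) +
          ((Tᗮ.orthogonalProjectionOnto (fderiv ℝ f a ξ) : Tᗮ) : Euc k) := h3.symm
    rw [h4, h2]
    exact mem_gplane T _ _
  · rw [finrank_tangentAt (hD.injective_fderiv i a hda), finrank_gplane, hT]

end

end Crest.Agent.R234.Ell3_3
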