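import Crest.Agent.R234.Ell3_3

/-!
R234 (helper3), VF-ELL part 4: the weak minimal surface system from stationarity.
-/

open MeasureTheory Metric Set Filter Topology
open scoped ContDiff NNReal ENNReal
open Crest.GeometryTopology.Submanifold

namespace Crest.Agent.R234.Ell4_3

noncomputable section

set_option linter.unusedSectionVars false

open Crest.Agent.R234.Ell1_3 Crest.Agent.R234.Ell2_3 Crest.Agent.R234.Ell3_3
open Crest.Agent.R246.H2x622 (gradient_zero_of_notMem gradient_contDiff)

variable {m k : ℕ}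

variable (T : Submodule ℝ (Euc k)) (x0 : Euc k) (r s : ℝ) (u : T → Tᗮ) (g : T → T →L[ℝ] Tᗮ)

/-- the test field `p ↦ ζ(px p) χ(py p) v` -/
def fld (ζ : T → ℝ) (χ : Tᗮ → ℝ) (v : Tᗮ) (p : Euc k) : Euc k :=
  (ζ (px T x0 p) * χ (py T x0 p)) • (v : Euc k)

lemma fld_contDiff {ζ : T → ℝ} {χ : Tᗮ → ℝ} (hζ : ContDiff ℝ ∞ ζ) (hχ : ContDiff ℝ ∞ χ) (v : Tᗮ) :
    ContDiff ℝ ∞ (fld T x0 ζ χ v) := by
  unfold fld
  exact ((hζ.comp (px_contDiff T x0)).mul (hχ.comp (py_contDiff T x0))).smul contDiff_const

/-- `(px, py)` as a homeomorphism-like compactness statement -/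
lemma prod_compact {K : Set T} {L : Set Tᗮ} (hK : IsCompact K) (hL : IsCompact L) :
    IsCompact {p : Euc k | px T x0 p ∈ K ∧ py T x0 p ∈ L} := by
  have h1 : {p : Euc k | px T x0 p ∈ K ∧ py T x0 p ∈ L} =
      (fun z : T × Tᗮ => x0 + ((z.1 : Euc k) + (z.2 : Euc k))) '' (K ×ˢ L) := by
    ext p
    constructor
    · rintro ⟨h1, h2⟩
      exact ⟨(px T x0 p, py T x0 p), ⟨h1, h2⟩, (split T x0 p).symm⟩
    · rintro ⟨⟨a, b⟩, ⟨ha, hb⟩, rfl⟩
      constructor
      · simpa using ha
      · simpa using hb
  rw [h1]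
  exact (hK.prod hL).image (by fun_prop)

lemma fld_support {ζ : T → ℝ} {χ : Tᗮ → ℝ} (v : Tᗮ) {p : Euc k}
    (hp : p ∈ tsupport (fld T x0 ζ χ v)) : px T x0 p ∈ tsupport ζ ∧ py T x0 p ∈ tsupport χ := by
  have hc : IsClosed {p : Euc k | px T x0 p ∈ tsupport ζ ∧ py T x0 p ∈ tsupport χ} :=
    ((isClosed_tsupport ζ).preimage (px_continuous T x0)).inter
      ((isClosed_tsupport χ).preimage (py_continuous T x0))
  refine closure_minimal ?_ hc hp
  intro q hq
  have h1 : ζ (px T x0 q) * χ (py T x0 q) ≠ 0 := by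
    intro h; apply hq; simp [fld, h]
  exact ⟨subset_tsupport _ (left_ne_zero_of_mul h1), subset_tsupport _ (right_ne_zero_of_mul h1)⟩

lemma fld_hasCompactSupport {ζ : T → ℝ} {χ : Tᗮ → ℝ} (hζ : HasCompactSupport ζ)
    (hχ : HasCompactSupport χ) (v : Tᗮ) : HasCompactSupport (fld T x0 ζ χ v) :=
  (prod_compact T x0 hζ hχ).of_isClosed_subset (isClosed_tsupport _)
    (fun _ hp => fld_support T x0 v hp)

/-- the differential of the test field where the vertical cut-off is `1` -/
lemma fderiv_fld {ζ : T → ℝ} {χ : Tᗮ → ℝ} (hζ : ContDiff ℝ ∞ ζ) (v : Tᗮ) (p : Euc k)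
    (h : px T x0 p ∈ tsupport ζ → ∀ᶠ y in 𝓝 (py T x0 p), χ y = 1) :
    fderiv ℝ (fld T x0 ζ χ v) p =
      (innerSL ℝ ((gradient ζ (px T x0 p) : T) : Euc k)).smulRight (v : Euc k) := by
  by_cases hp : px T x0 p ∈ tsupport ζ
  · have h1 : fld T x0 ζ χ v =ᶠ[𝓝 p] fun p => (ζ (px T x0 p)) • (v : Euc k) := by
      filter_upwards [(py_continuous T x0).continuousAt.eventually (h hp)] with q hq
      simp [fld, hq]
    rw [h1.fderiv_eq]
    have hx : HasFDerivAt (px T x0) (T.orthogonalProjectionOnto) p :=
      T.orthogonalProjectionOnto.hasFDerivAt.comp p ((hasFDerivAt_id p).sub_const x0)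
    have hz : HasFDerivAt ζ (fderiv ℝ ζ (px T x0 p)) (px T x0 p) :=
      (hζ.differentiable (by simp) _).hasFDerivAt
    have h2 := (hz.comp p hx).smul_const (v : Euc k)
    refine h2.fderiv.trans ?_
    ext y : 1
    simp only [ContinuousLinearMap.smulRight_apply, ContinuousLinearMap.comp_apply,
      innerSL_apply_apply]
    congr 1
    have h3 : fderiv ℝ ζ (px T x0 p) (T.orthogonalProjectionOnto y) =
        inner ℝ (gradient ζ (px T x0 p)) (T.orthogonalProjectionOnto y) := by
      rw [gradient, InnerProductSpace.toDual_symm_apply]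
    rw [h3, Submodule.inner_orthogonalProjectionOnto_eq_of_mem_left]
  · have h1 : fld T x0 ζ χ v =ᶠ[𝓝 p] fun _ => 0 := by
      have h2 : ∀ᶠ q in 𝓝 p, px T x0 q ∉ tsupport ζ :=
        (px_continuous T x0).continuousAt.eventually
          ((isClosed_tsupport ζ).isOpen_compl.mem_nhds hp)
      filter_upwards [h2] with q hq
      simp [fld, image_eq_zero_of_notMem_tsupport hq]
    rw [h1.fderiv_eq, gradient_zero_of_notMem hp]
    ext y : 1
    simp

lemma trace_congr {S₁ S₂ : Submodule ℝ (Euc k)} (h : S₁ = S₂) (A : Euc k →L[ℝ] Euc k) :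
    LinearMap.trace ℝ (Euc k) ((A.comp S₁.starProjection).toLinearMap) =
      LinearMap.trace ℝ (Euc k) ((A.comp S₂.starProjection).toLinearMap) := by
  subst h; rfl

/-- scalar density of the first variation -/
def dth (ζ : T → ℝ) (v : Tᗮ) (x : T) : ℝ := inner ℝ (g x (ginv (g x) (gradient ζ x))) v

lemma dth_zero {ζ : T → ℝ} {v : Tᗮ} {x : T} (hx : x ∉ tsupport ζ) : dth T g ζ v x = 0 := by
  simp [dth, gradient_zero_of_notMem hx]

lemma continuous_of_local {ζ : T → ℝ} (hts : tsupport ζ ⊆ ball 0 r) {W : Type*}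
    [TopologicalSpace W] [Zero W] {F : T → W} (h1 : ContinuousOn F (ball 0 r))
    (h2 : ∀ x ∉ tsupport ζ, F x = 0) : Continuous F := by
  rw [continuous_iff_continuousAt]
  intro x
  by_cases hx : x ∈ tsupport ζ
  · exact (h1 x (hts hx)).continuousAt (isOpen_ball.mem_nhds (hts hx))
  · have h3 : F =ᶠ[𝓝 x] fun _ => 0 := by
      filter_upwards [(isClosed_tsupport ζ).isOpen_compl.mem_nhds hx] with y hy
      exact h2 y hy
    exact continuousAt_const.congr h3.symm

lemma dth_continuous {ζ : T → ℝ} (hζ : ContDiff ℝ ∞ ζ) (hts : tsupport ζ ⊆ ball 0 r)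
    (hg : ContinuousOn g (ball 0 r)) (v : Tᗮ) : Continuous (dth T g ζ v) := by
  refine continuous_of_local T r hts ?_ (fun x hx => dth_zero T g hx)
  unfold dth
  have h1 : ContinuousOn (fun x => ginv (g x)) (ball 0 r) :=
    (ginv_contDiff (F := T) (V := Tᗮ)).continuous.comp_continuousOn hg
  have h2 : ContinuousOn (fun x => ginv (g x) (gradient ζ x)) (ball 0 r) :=
    h1.clm_apply (gradient_contDiff hζ).continuous.continuousOn
  exact (hg.clm_apply h2).inner continuousOn_const

theorem weak_eq {U : Set (Euc k)} {D : VarifoldData m k} (hD : IsIntegralVarifoldIn U D)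
    (hst : IsStationaryIn U D) (hT : Module.finrank ℝ T = m)
    (hder : ∀ z ∈ ball (0 : T) r, HasFDerivAt u (g z) z) (hg : ContinuousOn g (ball 0 r))
    (hus : ∀ z ∈ ball (0 : T) r, ‖u z‖ < s) (hW : cyl T x0 r s ⊆ U)
    {Q : ℝ≥0∞} (hQ0 : Q ≠ 0) (hQ1 : Q ≠ ⊤)
    (hμ : (weight D).restrict (cyl T x0 r s) = Q • gmeas T x0 u g r)
    (ζ : T → ℝ) (hζ : ContDiff ℝ ∞ ζ) (hcs : HasCompactSupport ζ) (hts : tsupport ζ ⊆ ball 0 r) :
    ∫ z, flx (g z) (gradient ζ z) = 0 := by
  have hu : ContinuousOn u (ball 0 r) := fun z hz => (hder z hz).continuousAt.continuousWithinAt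
  -- the vertical cut-off
  obtain ⟨χ, hχ, hχs, hχt, hχ1⟩ : ∃ χ : Tᗮ → ℝ, ContDiff ℝ ∞ χ ∧ HasCompactSupport χ ∧
      tsupport χ ⊆ ball 0 s ∧ ∀ x ∈ tsupport ζ, ∀ᶠ y in 𝓝 (u x), χ y = 1 := by
    by_cases hne : (tsupport ζ).Nonempty
    · obtain ⟨xm, hxm, hmax⟩ := hcs.exists_isMaxOn hne ((hu.mono hts).norm)
      have h1 : ‖u xm‖ < s := hus xm (hts hxm)
      have h0 : 0 ≤ ‖u xm‖ := norm_nonneg _
      let B : ContDiffBump (0 : Tᗮ) := ⟨‖u xm‖ + (s - ‖u xm‖) / 3,
        ‖u xm‖ + 2 * ((s - ‖u xm‖) / 3), by linarith, by linarith⟩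
      refine ⟨B, B.contDiff, B.hasCompactSupport, ?_, ?_⟩
      · rw [B.tsupport_eq]
        intro y hy
        rw [mem_closedBall, dist_zero_right] at hy
        rw [mem_ball, dist_zero_right]
        have : B.rOut = ‖u xm‖ + 2 * ((s - ‖u xm‖) / 3) := rfl
        linarith
      · intro x hx
        have h2 : u x ∈ ball (0 : Tᗮ) B.rIn := by
          rw [mem_ball, dist_zero_right]
          have h3 : ‖u x‖ ≤ ‖u xm‖ := hmax hx
          have : B.rIn = ‖u xm‖ + (s - ‖u xm‖) / 3 := rfl
          linarith
        filter_upwards [isOpen_ball.mem_nhds h2] with y hy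
        exact B.one_of_mem_closedBall (ball_subset_closedBall hy)
    · refine ⟨fun _ => 0, contDiff_const, HasCompactSupport.zero, ?_, ?_⟩
      · have : tsupport (fun _ : Tᗮ => (0 : ℝ)) = ∅ := by
          rw [tsupport_eq_empty_iff]; rfl
        rw [this]; exact empty_subset _
      · intro x hx; exact absurd ⟨x, hx⟩ hne
  -- weight null set
  have hnull : weight D (cyl T x0 r s \ grf T x0 u r s) = 0 := by
    have h1 := congrArg (fun μ : Measure (Euc k) => μ (cyl T x0 r s \ grf T x0 u r s)) hμ
    simp only [Measure.smul_apply, gmeas_diff T x0 r s u g hu, smul_zero] at h1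
    rw [Measure.restrict_apply (cyl_diff_grf_isOpen T x0 r s u hu).measurableSet,
      inter_eq_left.2 sdiff_subset] at h1
    exact h1
  have hmain : ∀ v : Tᗮ, ∫ z, inner ℝ v (flx (g z) (gradient ζ z)) = (0 : ℝ) := by
    intro v
    set Ψ : Euc k → ℝ := (cyl T x0 r s).indicator (fun p => dth T g ζ v (px T x0 p)) with hΨ
    have hdc := dth_continuous T r g hζ hts hg v
    have hΨm : Measurable Ψ := (hdc.comp (px_continuous T x0)).measurable.indicator
      (cyl_isOpen T x0 r s).measurableSet
    -- integrals against gmeas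
    have hgm : ∀ F : T → ℝ, Continuous F →
        ∫ p, F (px T x0 p) ∂(gmeas T x0 u g r) = ∫ z in ball (0 : T) r, dns (g z) * F z := by
      intro F hF
      unfold gmeas
      rw [integral_map (f := fun p => F (px T x0 p)) (gmap_aemeasurable T x0 r u g hu)
        (hF.comp (px_continuous T x0)).measurable.aestronglyMeasurable]
      have hmeas : AEMeasurable (fun x => ENNReal.ofReal (dns (g x)))
          (volume.restrict (ball (0 : T) r)) :=
        ((dns_contDiff.continuous.comp_continuousOn hg).aemeasurable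
          measurableSet_ball).ennreal_ofReal
      rw [integral_withDensity_eq_integral_toReal_smul₀ hmeas
        (Filter.Eventually.of_forall fun a => ENNReal.ofReal_lt_top)]
      refine setIntegral_congr_fun measurableSet_ball fun z hz => ?_
      simp only [smul_eq_mul, gmap, px_gmap]
      rw [ENNReal.toReal_ofReal (dns_pos _).le]
    have hint0 : Integrable (fun z => dns (g z) * dth T g ζ v z) := by
      have h1 : Continuous (fun z => dns (g z) * dth T g ζ v z) := by
        refine continuous_of_local T r hts ?_ (fun x hx => by rw [dth_zero T g hx, mul_zero])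
        exact (dns_contDiff.continuous.comp_continuousOn hg).mul hdc.continuousOn
      refine h1.integrable_of_hasCompactSupport ?_
      exact HasCompactSupport.intro hcs (fun x hx => by rw [dth_zero T g hx, mul_zero])
    have hint : Integrable Ψ (weight D) := by
      rw [hΨ, integrable_indicator_iff (cyl_isOpen T x0 r s).measurableSet, IntegrableOn, hμ]
      refine Integrable.smul_measure ?_ hQ1
      unfold gmeas
      refine (integrable_map_measure (g := fun p => dth T g ζ v (px T x0 p))
        (hdc.comp (px_continuous T x0)).measurable.aestronglyMeasurable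
        (gmap_aemeasurable T x0 r u g hu)).2 ?_
      have hmeas : AEMeasurable (fun x => ENNReal.ofReal (dns (g x)))
          (volume.restrict (ball (0 : T) r)) :=
        ((dns_contDiff.continuous.comp_continuousOn hg).aemeasurable
          measurableSet_ball).ennreal_ofReal
      rw [integrable_withDensity_iff_integrable_smul₀' hmeas
        (Filter.Eventually.of_forall fun a => ENNReal.ofReal_lt_top)]
      refine (hint0.integrableOn (s := ball (0 : T) r)).congr ?_
      refine Filter.Eventually.of_forall fun z => ?_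
      simp only [smul_eq_mul, Function.comp, gmap, px_gmap]
      rw [ENNReal.toReal_ofReal (dns_pos _).le]
    -- the first variation
    have hfv : firstVariation D (fld T x0 ζ χ v) = ∫ p, Ψ p ∂(weight D) := by
      rw [← (hasSum_weight hD hΨm hint).tsum_eq]
      unfold firstVariation
      refine tsum_congr fun i => ?_
      refine integral_congr_ae ?_
      filter_upwards [preimage_null hD (cyl_diff_grf_isOpen T x0 r s u hu).measurableSet hnull i,
        tangent_eq T x0 r s u g hD hT hder i] with a h1 h2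
      by_cases hc : D.chart i a ∈ cyl T x0 r s
      · have h3 : D.chart i a ∈ grf T x0 u r s := by
          by_contra h3; exact h1 ⟨hc, h3⟩
        rw [trace_congr (h2 h3), fderiv_fld T x0 hζ v _ (fun h => by rw [h3.2]; exact hχ1 _ h),
          trace_graph]
        rw [hΨ, indicator_of_mem hc]
        rfl
      · have h4 : D.chart i a ∉ tsupport (fld T x0 ζ χ v) := by
          intro h5
          have h6 := fld_support T x0 v h5
          exact hc ⟨hts h6.1, hχt h6.2⟩
        rw [hΨ, indicator_of_notMem hc, fderiv_of_notMem_tsupport ℝ h4]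
        simp
    have h0 : firstVariation D (fld T x0 ζ χ v) = 0 := by
      refine hst _ ((fld_contDiff T x0 hζ hχ v).of_le (by norm_cast))
        (fld_hasCompactSupport T x0 hcs hχs v) ?_
      intro p hp
      have h6 := fld_support T x0 v hp
      exact hW ⟨hts h6.1, hχt h6.2⟩
    rw [hfv, hΨ, integral_indicator (cyl_isOpen T x0 r s).measurableSet, hμ,
      integral_smul_measure, hgm _ hdc] at h0
    have hQr : Q.toReal ≠ 0 := by
      rw [ENNReal.toReal_ne_zero]; exact ⟨hQ0, hQ1⟩
    have h1 := (smul_eq_zero.1 h0).resolve_left hQr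
    have h2 : ∫ z in ball (0 : T) r, dns (g z) * dth T g ζ v z =
        ∫ z, dns (g z) * dth T g ζ v z := by
      apply setIntegral_eq_integral_of_forall_compl_eq_zero
      intro z hz
      rw [dth_zero T g (fun h => hz (hts h)), mul_zero]
    rw [h2] at h1
    rw [← h1]
    refine integral_congr_ae (Filter.Eventually.of_forall fun z => ?_)
    simp only [flx, dth, ContinuousLinearMap.smul_apply, ContinuousLinearMap.comp_apply,
      inner_smul_right]
    rw [real_inner_comm]
  -- conclude
  have hint : Integrable (fun z => flx (g z) (gradient ζ z)) := by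
    have h1 : Continuous (fun z => flx (g z) (gradient ζ z)) := by
      refine continuous_of_local T r hts ?_
        (fun x hx => by rw [gradient_zero_of_notMem hx, map_zero])
      exact (flx_contDiff.continuous.comp_continuousOn hg).clm_apply
        (gradient_contDiff hζ).continuous.continuousOn
    refine h1.integrable_of_hasCompactSupport ?_
    exact HasCompactSupport.intro hcs (fun x hx => by rw [gradient_zero_of_notMem hx, map_zero])
  apply ext_inner_left ℝ
  intro v
  rw [inner_zero_right, ← hmain v]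
  exact (integral_inner hint v).symm

end

end Crest.Agent.R234.Ell4_3
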