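import Crest.Agent.R234.Ell4_3

/-!
R234 (helper3), VF-ELL part 5: regular points.

* `flx_conj`, `mss_smooth_unif`: the smallness constant of `mss_smooth` can be chosen uniformly for
  all `m`-planes of `ℝ^k`;
* `support_eq`: the support of the weight in the cylinder is the graph;
* `regular_of_smooth`: graph of a smooth function ==> no singular point in the cylinder;
* `regular_of_graph`: **`C^{1,α}` graph with `weight = Q · area` ==> no singular point**.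
-/

open MeasureTheory Metric Set Filter Topology
open scoped ContDiff NNReal ENNReal
open Crest.GeometryTopology.Submanifold

namespace Crest.Agent.R234.Ell5_3

noncomputable section

set_option linter.unusedSectionVars false

open Crest.Agent.R234.Ell1_3 Crest.Agent.R234.Ell2_3 Crest.Agent.R234.Ell3_3
open Crest.Agent.R234.Ell4_3

section unif

variable {F V F' V' : Type} [NormedAddCommGroup F] [InnerProductSpace ℝ F] [FiniteDimensional ℝ F]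
  [NormedAddCommGroup V] [InnerProductSpace ℝ V] [FiniteDimensional ℝ V]
  [NormedAddCommGroup F'] [InnerProductSpace ℝ F'] [FiniteDimensional ℝ F']
  [NormedAddCommGroup V'] [InnerProductSpace ℝ V'] [FiniteDimensional ℝ V']

/-- conjugation of a linear map by isometries -/
def cj (L₁ : F' ≃ₗᵢ[ℝ] F) (L₂ : V' ≃ₗᵢ[ℝ] V) (q : F →L[ℝ] V) : F' →L[ℝ] V' :=
  (L₂.symm : V →L[ℝ] V') ∘L (q ∘L (L₁ : F' →L[ℝ] F))

lemma cj_apply (L₁ : F' ≃ₗᵢ[ℝ] F) (L₂ : V' ≃ₗᵢ[ℝ] V) (q : F →L[ℝ] V) (x : F') :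
    cj L₁ L₂ q x = L₂.symm (q (L₁ x)) := rfl

lemma gop_cj (L₁ : F' ≃ₗᵢ[ℝ] F) (L₂ : V' ≃ₗᵢ[ℝ] V) (q : F →L[ℝ] V) (x : F') :
    gop (cj L₁ L₂ q) x = L₁.symm (gop q (L₁ x)) := by
  apply ext_inner_left ℝ
  intro y
  rw [gop_inner, cj_apply, cj_apply, L₂.symm.inner_map_map]
  have h1 : (inner ℝ y (L₁.symm (gop q (L₁ x))) : ℝ) = inner ℝ (L₁ y) (gop q (L₁ x)) := by
    rw [← L₁.inner_map_map, L₁.apply_symm_apply]
  rw [h1, gop_inner, L₁.inner_map_map]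

lemma ginv_cj (L₁ : F' ≃ₗᵢ[ℝ] F) (L₂ : V' ≃ₗᵢ[ℝ] V) (q : F →L[ℝ] V) (x : F') :
    ginv (cj L₁ L₂ q) x = L₁.symm (ginv q (L₁ x)) := by
  apply gop_injective (cj L₁ L₂ q)
  have h1 : ∀ {F₀ V₀ : Type} [NormedAddCommGroup F₀] [InnerProductSpace ℝ F₀]
      [FiniteDimensional ℝ F₀] [NormedAddCommGroup V₀] [InnerProductSpace ℝ V₀]
      [FiniteDimensional ℝ V₀] (q₀ : F₀ →L[ℝ] V₀) (y : F₀), gop q₀ (ginv q₀ y) = y := by
    intro F₀ V₀ _ _ _ _ _ _ q₀ y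
    have := congrArg (fun L : F₀ →L[ℝ] F₀ => L y) (gop_ginv q₀)
    simpa using this
  rw [h1, gop_cj, L₁.apply_symm_apply, h1, L₁.symm_apply_apply]

lemma gdet_cj (L₁ : F' ≃ₗᵢ[ℝ] F) (L₂ : V' ≃ₗᵢ[ℝ] V) (q : F →L[ℝ] V) :
    gdet (cj L₁ L₂ q) = gdet q := by
  unfold gdet
  have h1 : (gop (cj L₁ L₂ q) : F' →ₗ[ℝ] F') =
      (L₁.symm.toLinearEquiv : F →ₗ[ℝ] F') ∘ₗ (gop q : F →ₗ[ℝ] F) ∘ₗ
        (L₁.symm.toLinearEquiv.symm : F' →ₗ[ℝ] F) := by
    ext x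
    exact gop_cj L₁ L₂ q x
  rw [h1]
  exact LinearMap.det_conj (gop q : F →ₗ[ℝ] F) L₁.symm.toLinearEquiv

lemma flx_cj (L₁ : F' ≃ₗᵢ[ℝ] F) (L₂ : V' ≃ₗᵢ[ℝ] V) (q : F →L[ℝ] V) (x : F') :
    flx (cj L₁ L₂ q) x = L₂.symm (flx q (L₁ x)) := by
  unfold flx dns
  rw [gdet_cj]
  simp only [smul_apply, ContinuousLinearMap.comp_apply, map_smul]
  rw [ginv_cj, cj_apply, L₁.apply_symm_apply]

variable [MeasurableSpace F] [BorelSpace F] [MeasurableSpace F'] [BorelSpace F']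

lemma gradient_comp_isometry (L₁ : F' ≃ₗᵢ[ℝ] F) {ζ : F' → ℝ} (hζ : ContDiff ℝ ∞ ζ) (y : F) :
    gradient (fun y => ζ (L₁.symm y)) y = L₁ (gradient ζ (L₁.symm y)) := by
  apply HasGradientAt.gradient
  rw [hasGradientAt_iff_hasFDerivAt]
  have h1 : HasFDerivAt ζ (fderiv ℝ ζ (L₁.symm y)) (L₁.symm y) :=
    (hζ.differentiable (by simp) _).hasFDerivAt
  have h2 : HasFDerivAt (fun y => L₁.symm y) (L₁.symm : F →L[ℝ] F') y :=
    (L₁.symm : F ≃L[ℝ] F').hasFDerivAt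
  refine (h1.comp y h2).congr_fderiv ?_
  ext z
  simp only [ContinuousLinearMap.comp_apply, InnerProductSpace.toDual_apply_apply]
  rw [gradient]
  have h3 : (inner ℝ (L₁ ((InnerProductSpace.toDual ℝ F').symm (fderiv ℝ ζ (L₁.symm y)))) z : ℝ) =
      inner ℝ ((InnerProductSpace.toDual ℝ F').symm (fderiv ℝ ζ (L₁.symm y))) (L₁.symm z) := by
    rw [← L₁.inner_map_map, L₁.apply_symm_apply]
  rw [h3, InnerProductSpace.toDual_symm_apply]
  rfl

/-- smallness constant, uniform over isometric spaces -/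
theorem mss_transfer {α p₀ : ℝ}
    (H : ∀ (U : Set F') (w : F' → V') (g : F' → F' →L[ℝ] V'), IsOpen U →
      (∀ z ∈ U, HasFDerivAt w (g z) z) →
      (∀ x ∈ U, ∃ r > 0, ∃ K, ∀ z ∈ ball x r, ∀ z' ∈ ball x r, ‖g z - g z'‖ ≤ K * ‖z - z'‖ ^ α) →
      (∀ z ∈ U, ‖g z‖ < p₀) →
      (∀ ζ : F' → ℝ, ContDiff ℝ ∞ ζ → HasCompactSupport ζ → tsupport ζ ⊆ U →
        ∫ z, flx (g z) (gradient ζ z) = 0) → ContDiffOn ℝ ∞ w U)
    (L₁ : F' ≃ₗᵢ[ℝ] F) (L₂ : V' ≃ₗᵢ[ℝ] V)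
    (U : Set F) (w : F → V) (g : F → F →L[ℝ] V) (hU : IsOpen U)
    (hder : ∀ z ∈ U, HasFDerivAt w (g z) z)
    (hhol : ∀ x ∈ U, ∃ r > 0, ∃ K, ∀ z ∈ ball x r, ∀ z' ∈ ball x r,
      ‖g z - g z'‖ ≤ K * ‖z - z'‖ ^ α)
    (hsm : ∀ z ∈ U, ‖g z‖ < p₀)
    (hweak : ∀ ζ : F → ℝ, ContDiff ℝ ∞ ζ → HasCompactSupport ζ → tsupport ζ ⊆ U →
        ∫ z, flx (g z) (gradient ζ z) = 0) : ContDiffOn ℝ ∞ w U := by
  have hn : ∀ q : F →L[ℝ] V, ‖cj L₁ L₂ q‖ ≤ ‖q‖ := by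
    intro q
    refine ContinuousLinearMap.opNorm_le_bound _ (norm_nonneg _) fun x => ?_
    rw [cj_apply, L₂.symm.norm_map]
    exact (q.le_opNorm _).trans (by rw [L₁.norm_map])
  have h1 := H (L₁ ⁻¹' U) (fun x => L₂.symm (w (L₁ x))) (fun x => cj L₁ L₂ (g (L₁ x)))
    (hU.preimage L₁.continuous) ?_ ?_ ?_ ?_
  · have h2 : ContDiffOn ℝ ∞ (fun y => L₂ (L₂.symm (w (L₁ (L₁.symm y))))) U := by
      refine (L₂.contDiff.comp_contDiffOn (h1.comp L₁.symm.contDiff.contDiffOn ?_))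
      intro y hy
      simpa using hy
    refine h2.congr fun y _ => ?_
    simp
  · intro z hz
    have e1 : HasFDerivAt (fun x => L₁ x) (L₁ : F' →L[ℝ] F) z :=
      (L₁ : F' ≃L[ℝ] F).hasFDerivAt
    have e2 : HasFDerivAt (fun x => L₂.symm x) (L₂.symm : V →L[ℝ] V') (w (L₁ z)) :=
      (L₂.symm : V ≃L[ℝ] V').hasFDerivAt
    exact e2.comp z ((hder _ hz).comp z e1)
  · intro x hx
    obtain ⟨r, hr, K, hK⟩ := hhol _ hx
    refine ⟨r, hr, K, fun z hz z' hz' => ?_⟩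
    have hb : ∀ z ∈ ball x r, L₁ z ∈ ball (L₁ x) r := by
      intro z hz
      rw [mem_ball, dist_eq_norm, ← map_sub, L₁.norm_map, ← dist_eq_norm]
      exact hz
    have e1 : cj L₁ L₂ (g (L₁ z)) - cj L₁ L₂ (g (L₁ z')) = cj L₁ L₂ (g (L₁ z) - g (L₁ z')) := by
      ext y; simp [cj_apply]
    rw [e1]
    refine (hn _).trans ((hK _ (hb z hz) _ (hb z' hz')).trans ?_)
    rw [← map_sub, L₁.norm_map]
  · intro z hz
    exact (hn _).trans_lt (hsm _ hz)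
  · intro ζ hζ hcs hts
    have hz1 : ContDiff ℝ ∞ (fun y => ζ (L₁.symm y)) := hζ.comp L₁.symm.contDiff
    have hsub : tsupport (fun y => ζ (L₁.symm y)) ⊆ L₁.symm ⁻¹' (tsupport ζ) :=
      tsupport_comp_subset_preimage (f := fun y : F => L₁.symm y) ζ L₁.symm.continuous
    have hcs1 : HasCompactSupport (fun y => ζ (L₁.symm y)) := by
      have h3 : IsCompact (L₁ '' tsupport ζ) := hcs.image L₁.continuous
      refine HasCompactSupport.of_support_subset_isCompact h3 ?_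
      intro z hz
      exact ⟨L₁.symm z, hsub (subset_tsupport _ hz), by simp⟩
    have h2 := hweak _ hz1 hcs1 (fun y hy => by
      have := hts (hsub hy)
      simpa using this)
    have hmp : MeasurePreserving L₁ (volume : Measure F') (volume : Measure F) :=
      L₁.measurePreserving
    rw [← hmp.integral_comp L₁.toHomeomorph.measurableEmbedding] at h2
    have h3 : ∀ x : F', flx (cj L₁ L₂ (g (L₁ x))) (gradient ζ x) =
        L₂.symm (flx (g (L₁ x)) (gradient (fun y => ζ (L₁.symm y)) (L₁ x))) := by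
      intro x
      rw [flx_cj, gradient_comp_isometry L₁ hζ, L₁.symm_apply_apply]
    simp only [h3]
    have h4 := (L₂.symm : V ≃L[ℝ] V').integral_comp_comm
      (μ := (volume : Measure F')) (fun x : F' =>
        flx (g (L₁ x)) (gradient (fun y => ζ (L₁.symm y)) (L₁ x)))
    refine h4.trans ?_
    rw [h2, map_zero]

end unif

variable {m k : ℕ}

/-- uniform smallness constant for the minimal surface system over all `m`-planes of `ℝ^k` -/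
theorem mss_smooth_unif (m k : ℕ) {α : ℝ} (hα : 0 < α) (hα1 : α < 1) :
    ∃ p₀ > 0, ∀ (T : Submodule ℝ (Euc k)), Module.finrank ℝ T = m →
      ∀ (U : Set T) (w : T → Tᗮ) (g : T → T →L[ℝ] Tᗮ), IsOpen U →
      (∀ z ∈ U, HasFDerivAt w (g z) z) →
      (∀ x ∈ U, ∃ r > 0, ∃ K, ∀ z ∈ ball x r, ∀ z' ∈ ball x r, ‖g z - g z'‖ ≤ K * ‖z - z'‖ ^ α) →
      (∀ z ∈ U, ‖g z‖ < p₀) →
      (∀ ζ : T → ℝ, ContDiff ℝ ∞ ζ → HasCompactSupport ζ → tsupport ζ ⊆ U →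
        ∫ z, flx (g z) (gradient ζ z) = 0) → ContDiffOn ℝ ∞ w U := by
  obtain ⟨p₀, hp, H⟩ := mss_smooth (Euc m) (Euc (k - m)) hα hα1
  refine ⟨p₀, hp, ?_⟩
  intro T hT
  have hT' : Module.finrank ℝ Tᗮ = k - m := by
    have h1 := T.finrank_add_finrank_orthogonal
    rw [finrank_euclideanSpace, Fintype.card_fin] at h1
    omega
  let L₁ : Euc m ≃ₗᵢ[ℝ] T := ((stdOrthonormalBasis ℝ T).reindex (finCongr hT)).repr.symm
  let L₂ : Euc (k - m) ≃ₗᵢ[ℝ] Tᗮ := ((stdOrthonormalBasis ℝ Tᗮ).reindex (finCongr hT')).repr.symm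
  intro U w g hU hder hhol hsm hweak
  exact mss_transfer H L₁ L₂ U w g hU hder hhol hsm hweak

end

end Crest.Agent.R234.Ell5_3
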