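import Crest.Agent.R234.Nb4_290

/-!
# R234: one step of the frequency bound without any lower bound of the frequency

`StepW`: as `StepData`, but `hlow` (`-I ≤ 2E`) is replaced by `-(C₀ (e + I) + w) ≤ E`
(total variation bound of the anomaly, weighted by the kernel: the constant `C₀` does not depend on
`K`).
-/

set_option linter.unusedVariables false

open Set Filter
open scoped Topology

namespace Crest.Agent.R234.Nb_290

/-- pointwise algebra without lower bound of `N` -/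
theorem algW {ν β r ε ι y N : ℝ} (hN : N = ν + β) (hν : 0 ≤ ν) (hβ : β ≤ 2 * y)
    (hr0 : 0 ≤ r) (hr : ν ≤ Real.sqrt r + y) (hε : β + r - y * (ν + 1) ≤ ε)
    (hι : |ι - 2 * ν| ≤ y) (hy : 0 ≤ y) (hy1 : y ≤ 1) :
    (2 * β * (1 - ν) - 6 * y * ν - 2 * y - |N| * y ≤ 2 * ε - N * ι) ∧
      (1 ≤ N → -(22 * y * N) ≤ 2 * ε - N * ι) := by
  have hr1 : ν ^ 2 - 2 * ν * y ≤ r := by
    rcases le_total y ν with h | h
    · have h1 : ν - y ≤ Real.sqrt r := by linarith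
      have h2 : (ν - y) ^ 2 ≤ r := by
        calc (ν - y) ^ 2 ≤ (Real.sqrt r) ^ 2 := by
              apply pow_le_pow_left₀ (by linarith) h1
          _ = r := Real.sq_sqrt hr0
      nlinarith
    · nlinarith
  have hNι : N * ι ≤ N * (2 * ν) + |N| * y := by
    have h1 : N * ι - N * (2 * ν) = N * (ι - 2 * ν) := by ring
    have h2 : N * (ι - 2 * ν) ≤ |N * (ι - 2 * ν)| := le_abs_self _
    rw [abs_mul] at h2
    have h3 : |N| * |ι - 2 * ν| ≤ |N| * y := mul_le_mul_of_nonneg_left hι (abs_nonneg _)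
    linarith
  have key : 2 * β * (1 - ν) - 6 * y * ν - 2 * y - |N| * y ≤ 2 * ε - N * ι := by
    subst hN
    nlinarith
  refine ⟨key, fun h => ?_⟩
  have hNa : |N| = N := abs_of_nonneg (by linarith)
  rw [hNa] at key
  rcases le_total 0 β with hb | hb
  · have hνN : ν ≤ N := by linarith
    have h1 : -(4 * y * ν) ≤ 2 * β * (1 - ν) := by nlinarith
    have h2 : y * ν ≤ y * N := mul_le_mul_of_nonneg_left hνN hy
    have h3 : y * 1 ≤ y * N := mul_le_mul_of_nonneg_left h hy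
    nlinarith
  · set p := -β with hp
    have hp0 : 0 ≤ p := by linarith
    have hβp : β = -p := by linarith
    have hνp : ν = N + p := by linarith
    have k2 : 2 * β * (1 - ν) = 2 * p * (N + p - 1) := by rw [hβp, hνp]; ring
    rw [k2, hνp] at key
    have h1 : 2 * p * p ≤ 2 * p * (N + p - 1) :=
      mul_le_mul_of_nonneg_left (by linarith) (by linarith)
    have h2 : y * y ≤ y * N := mul_le_mul_of_nonneg_left (by linarith) hy
    have h3 : y * 1 ≤ y * N := mul_le_mul_of_nonneg_left h hy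
    nlinarith [sq_nonneg (p - 3 / 2 * y)]

/-- growth algebra: `N' = 2 ε - N ι`, `N ≥ - M K`, `N ≤ K / 4` -/
theorem alg_growthW {ν β y N N' K M : ℝ} (hN : N = ν + β) (hν : 0 ≤ ν) (hβ : β ≤ 2 * y)
    (hN' : 2 * β * (1 - ν) - 6 * y * ν - 2 * y - |N| * y ≤ N') (hy : 0 ≤ y) (hy1 : y ≤ 1)
    (hK : 32 ≤ K) (hM : 1 ≤ M) (hNM : -(M * K) ≤ N) (hNK : N ≤ K / 4) :
    ν ≤ K / 2 + 5 / K * (N' + (3 * M + 6) * K) := by
  have hK0 : 0 < K := by linarith
  have hMK : K ≤ M * K := by nlinarith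
  have hNabs : |N| ≤ M * K := abs_le.2 ⟨hNM, by linarith⟩
  have hfin : 0 ≤ N' + (3 * M + 6) * K → ν ≤ K / 2 → ν ≤ K / 2 + 5 / K * (N' + (3 * M + 6) * K) := by
    intro h1 h2
    have h3 : 0 ≤ 5 / K * (N' + (3 * M + 6) * K) := mul_nonneg (by positivity) h1
    linarith
  have hyN : |N| * y ≤ M * K := by
    calc |N| * y ≤ |N| * 1 := mul_le_mul_of_nonneg_left hy1 (abs_nonneg _)
      _ ≤ M * K := by linarith
  rcases le_total 0 β with hb | hb
  · have hνN : ν ≤ N := by linarith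
    refine hfin ?_ (by linarith)
    have h1 : -(4 * y * ν) ≤ 2 * β * (1 - ν) := by nlinarith
    have h2 : y * ν ≤ K / 4 := by nlinarith
    nlinarith
  · rcases lt_or_ge ν (K / 2) with hlt | hge
    · refine hfin ?_ hlt.le
      have h1 : 2 * β ≤ 2 * β * (1 - ν) := by nlinarith
      have h2 : -β ≤ K / 2 + M * K := by linarith
      have h3 : y * ν ≤ K / 2 := by nlinarith
      nlinarith
    · set p := -β with hp
      have hp0 : 0 ≤ p := by linarith
      have hβp : β = -p := by linarith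
      have hνp : ν = N + p := by linarith
      have hpν : ν / 2 ≤ p := by linarith
      have hN2 : |N| ≤ ν + p := by
        rw [abs_le]; constructor <;> linarith
      have k2 : 2 * β * (1 - ν) = 2 * p * (ν - 1) := by rw [hβp]; ring
      rw [k2] at hN'
      have h16 : 16 ≤ ν := by linarith
      have h1 : |N| * y ≤ ν + p := by
        calc |N| * y ≤ |N| * 1 := mul_le_mul_of_nonneg_left hy1 (abs_nonneg _)
          _ ≤ ν + p := by linarith
      have h2 : 6 * y * ν ≤ 6 * ν := by nlinarith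
      have h3 : ν / 2 * (2 * ν - 3) ≤ p * (2 * ν - 3) :=
        mul_le_mul_of_nonneg_right hpν (by linarith)
      have h4 : 2 / 5 * ν ^ 2 ≤ N' := by nlinarith
      have h5 : K / 5 * ν ≤ N' := by nlinarith
      have h6 : ν ≤ 5 / K * N' := by
        rw [div_mul_eq_mul_div, le_div_iff₀ hK0]
        linarith
      have h7 : 0 ≤ 5 / K * ((3 * M + 6) * K) := by positivity
      have h8 : 5 / K * (N' + (3 * M + 6) * K) = 5 / K * N' + 5 / K * ((3 * M + 6) * K) := by ring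
      linarith

/-- data of one step: `a` bottom, `b₀` top; total variation bound instead of `hlow` -/
structure StepW (C₀ a b₀ δ w : ℝ) (I E e b R : ℝ → ℝ) : Prop where
  hI : ∀ l ∈ Icc a b₀, 0 ≤ I l
  he : ∀ l ∈ Icc a b₀, 0 ≤ e l
  hR : ∀ l ∈ Icc a b₀, 0 ≤ R l
  hE : ∀ l ∈ Icc a b₀, E l = e l / 2 + b l
  dI : ∀ l ∈ Icc a b₀, ∃ I', HasDerivAt I I' l ∧ |I' - 2 * e l| ≤ δ * I l + w
  dE : ∀ l ∈ Icc a b₀, ∃ E', HasDerivAt E E' l ∧ 2 * b l + R l - (δ * (e l + I l) + w) ≤ E'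
  hCS : ∀ l ∈ Icc a b₀, e l ≤ Real.sqrt (I l * R l) + (δ * I l + w)
  hb : ∀ l ∈ Icc a b₀, b l ≤ δ * I l + w
  hab : ∀ l ∈ Icc a b₀, -(C₀ * (e l + I l) + w) ≤ E l

variable {C₀ a b₀ δ w : ℝ} {I E e b R : ℝ → ℝ}

/-- F4-type bound gives back `StepData` -/
theorem StepW.toStepData (h : StepW C₀ a b₀ δ w I E e b R) (hpos : ∀ l ∈ Icc a b₀, 0 < I l)
    (hlow : ∀ l ∈ Icc a b₀, -I l ≤ 2 * E l) : StepData a b₀ δ w I E e b R :=
  ⟨hpos, h.he, h.hR, h.hE, h.dI, h.dE, h.hCS, h.hb, hlow⟩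

theorem StepW.mono (h : StepW C₀ a b₀ δ w I E e b R) {a' b' : ℝ} (ha : a ≤ a') (hb' : b' ≤ b₀) :
    StepW C₀ a' b' δ w I E e b R := by
  have hs : ∀ l ∈ Icc a' b', l ∈ Icc a b₀ := fun l hl => ⟨ha.trans hl.1, hl.2.trans hb'⟩
  exact ⟨fun l hl => h.hI l (hs l hl), fun l hl => h.he l (hs l hl), fun l hl => h.hR l (hs l hl),
    fun l hl => h.hE l (hs l hl), fun l hl => h.dI l (hs l hl), fun l hl => h.dE l (hs l hl),
    fun l hl => h.hCS l (hs l hl), fun l hl => h.hb l (hs l hl), fun l hl => h.hab l (hs l hl)⟩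

theorem StepW.weaken (h : StepW C₀ a b₀ δ w I E e b R) {C₁ δ' w' : ℝ} (hC : C₀ ≤ C₁) (hδ : δ ≤ δ')
    (hw : w ≤ w') : StepW C₁ a b₀ δ' w' I E e b R where
  hI := h.hI
  he := h.he
  hR := h.hR
  hE := h.hE
  dI l hl := by
    obtain ⟨I', h1, h2⟩ := h.dI l hl
    have h3 := mul_le_mul_of_nonneg_right hδ (h.hI l hl)
    exact ⟨I', h1, by linarith⟩
  dE l hl := by
    obtain ⟨E', h1, h2⟩ := h.dE l hl
    have h3 := mul_le_mul_of_nonneg_right hδ (add_nonneg (h.he l hl) (h.hI l hl))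
    exact ⟨E', h1, by linarith⟩
  hCS l hl := by
    have h2 := h.hCS l hl
    have h3 := mul_le_mul_of_nonneg_right hδ (h.hI l hl)
    linarith
  hb l hl := by
    have h2 := h.hb l hl
    have h3 := mul_le_mul_of_nonneg_right hδ (h.hI l hl)
    linarith
  hab l hl := by
    have h2 := h.hab l hl
    have h3 := mul_le_mul_of_nonneg_right hC (add_nonneg (h.he l hl) (h.hI l hl))
    linarith

theorem StepW.continuousOn_I (h : StepW C₀ a b₀ δ w I E e b R) : ContinuousOn I (Icc a b₀) := by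
  intro t ht
  obtain ⟨I', hI', -⟩ := h.dI t ht
  exact hI'.continuousAt.continuousWithinAt

theorem StepW.continuousOn_E (h : StepW C₀ a b₀ δ w I E e b R) : ContinuousOn E (Icc a b₀) := by
  intro t ht
  obtain ⟨E', hE', -⟩ := h.dE t ht
  exact hE'.continuousAt.continuousWithinAt

/-- all pointwise consequences at one scale -/
theorem StepW.pointwise (h : StepW C₀ a b₀ δ w I E e b R) (hδ : 0 ≤ δ) (hw : 0 ≤ w) {y : ℝ}
    (hy1 : y ≤ 1) {l : ℝ} (hl : l ∈ Icc a b₀) (hI : 0 < I l) (hy : δ + w / I l ≤ y) :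
    ∃ N' ι : ℝ, HasDerivAt (Fr E I) N' l ∧ HasDerivAt (fun t => Real.log (I t)) ι l ∧
      (∀ K M : ℝ, 32 ≤ K → 1 ≤ M → -(M * K) ≤ Fr E I l → Fr E I l ≤ K / 4 →
        ι ≤ K + 10 / K * N' + (30 * M + 61)) ∧
      (1 ≤ Fr E I l → -(22 * y * Fr E I l) ≤ N') ∧ 2 * Fr E I l - 5 * y ≤ ι ∧ -y ≤ ι := by
  have hI0 : I l ≠ 0 := hI.ne'
  obtain ⟨I', hI', hI'b⟩ := h.dI l hl
  obtain ⟨E', hE', hE'b⟩ := h.dE l hl
  have hwI : 0 ≤ w / I l := div_nonneg hw hI.le
  have hy0 : 0 ≤ y := by linarith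
  have hyI : δ * I l + w ≤ y * I l := by
    have : (δ + w / I l) * I l ≤ y * I l := mul_le_mul_of_nonneg_right hy hI.le
    have h2 : (δ + w / I l) * I l = δ * I l + w := by field_simp
    linarith
  set ν := e l / I l with hν
  set β := 2 * b l / I l with hβ
  set N := Fr E I l with hN
  have hNeq : N = ν + β := by
    rw [hN, hν, hβ]
    unfold Fr
    rw [h.hE l hl]
    field_simp
  have e1 : 0 ≤ ν := div_nonneg (h.he l hl) hI.le
  have e3 : β ≤ 2 * y := by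
    rw [hβ, div_le_iff₀ hI]
    have := h.hb l hl
    linarith
  have e4 : 0 ≤ R l / I l := div_nonneg (h.hR l hl) hI.le
  have e5 : ν ≤ Real.sqrt (R l / I l) + y := by
    rw [hν, div_le_iff₀ hI]
    have h1 := h.hCS l hl
    have h2 : Real.sqrt (I l * R l) = Real.sqrt (R l / I l) * I l := by
      have h3 : I l * R l = (R l / I l) * (I l) ^ 2 := by field_simp
      rw [h3, Real.sqrt_mul e4, Real.sqrt_sq hI.le]
    rw [h2] at h1
    linarith
  have e6 : β + R l / I l - y * (ν + 1) ≤ E' / I l := by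
    rw [le_div_iff₀ hI]
    have h1 : (β + R l / I l - y * (ν + 1)) * I l = 2 * b l + R l - y * (e l + I l) := by
      rw [hβ, hν]; field_simp
    rw [h1]
    have h2 : δ * (e l + I l) + w ≤ y * (e l + I l) := by
      have h3 : δ ≤ y := by linarith
      have h4 : δ * e l ≤ y * e l := mul_le_mul_of_nonneg_right h3 (h.he l hl)
      linarith
    linarith
  have e7 : |I' / I l - 2 * ν| ≤ y := by
    have h1 : I' / I l - 2 * ν = (I' - 2 * e l) / I l := by rw [hν]; field_simp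
    rw [h1, abs_div, abs_of_pos hI, div_le_iff₀ hI]
    linarith
  have A := algW hNeq e1 e3 e4 e5 e6 e7 hy0 hy1
  have B := alg_growth hNeq e1 e3 e7
  refine ⟨2 * (E' / I l) - N * (I' / I l), I' / I l, ?_, hI'.log hI0, ?_, A.2, B.2.1, B.2.2⟩
  · have h1 : HasDerivAt (fun t => 2 * E t / I t) ((2 * E' * I l - 2 * E l * I') / (I l) ^ 2) l :=
      (hE'.const_mul 2).div hI' hI0
    have h2 : (2 * E' * I l - 2 * E l * I') / (I l) ^ 2 = 2 * (E' / I l) - N * (I' / I l) := by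
      rw [hN]; unfold Fr
      field_simp
    rw [← h2]
    exact h1
  · intro K M hK hM h1 h2
    have h3 := alg_growthW hNeq e1 e3 A.1 hy0 hy1 hK hM h1 h2
    have h4 := abs_le.mp e7
    have hK0 : (K:ℝ) ≠ 0 := by linarith
    have h5 : 5 / K * (2 * (E' / I l) - N * (I' / I l) + (3 * M + 6) * K) =
        5 / K * (2 * (E' / I l) - N * (I' / I l)) + (15 * M + 30) := by
      field_simp; ring
    rw [h5] at h3
    have h6 : 10 / K * (2 * (E' / I l) - N * (I' / I l)) =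
        2 * (5 / K * (2 * (E' / I l) - N * (I' / I l))) := by ring
    rw [h6]
    linarith [h4.2]

/-- algebra for the lower bound of `E'` -/
theorem alg_E {δ w I e R S E' E b : ℝ} (hδ : 0 ≤ δ) (hδ1 : δ ≤ 1 / 100) (hw : 0 ≤ w) (hI : 0 ≤ I)
    (he : 0 ≤ e) (hR : 0 ≤ R) (hS0 : 0 ≤ S) (hS2 : S ^ 2 = I * R) (hE : E = e / 2 + b)
    (hCS : e ≤ S + (δ * I + w)) (hE' : 2 * b + R - (δ * (e + I) + w) ≤ E') :
    2 * E - 3 / 10 * I - 3 * w ≤ E' := by
  have hS3 : (1 + δ) * S ≤ R + (1 + δ) ^ 2 / 4 * I := by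
    have h7 : ((1 + δ) * S) ^ 2 ≤ (R + (1 + δ) ^ 2 / 4 * I) ^ 2 := by
      have h8 : (R + (1 + δ) ^ 2 / 4 * I) ^ 2 - ((1 + δ) * S) ^ 2 =
          (R - (1 + δ) ^ 2 / 4 * I) ^ 2 := by
        rw [mul_pow, hS2]; ring
      linarith [sq_nonneg (R - (1 + δ) ^ 2 / 4 * I)]
    exact le_of_sq_le_sq h7 (by positivity)
  have h9 : (1 + δ) * e ≤ (1 + δ) * (S + (δ * I + w)) :=
    mul_le_mul_of_nonneg_left hCS (by linarith)
  have h11 : δ * I ≤ 1 / 100 * I := mul_le_mul_of_nonneg_right hδ1 hI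
  have h12 : (1 + δ) ^ 2 / 4 * I ≤ 26 / 100 * I := by
    refine mul_le_mul_of_nonneg_right ?_ hI
    nlinarith
  have h13 : (1 + δ) * (δ * I + w) ≤ 101 / 100 * (δ * I + w) :=
    mul_le_mul_of_nonneg_right (by linarith) (by positivity)
  have h14 : (1 + δ) * (S + (δ * I + w)) = (1 + δ) * S + (1 + δ) * (δ * I + w) := by ring
  have h15 : δ * (e + I) = δ * e + δ * I := by ring
  have h16 : (1 + δ) * e = e + δ * e := by ring
  linarith

/-- ODE 1 -/
theorem ode_up {I I' : ℝ → ℝ} {s t y I₁ : ℝ} (hst : s ≤ t) (hts : t - s ≤ 1 / 32)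
    (hy0 : 0 ≤ y) (hy1 : y ≤ 1 / 100) (hI₁ : 0 ≤ I₁) (hIt : I t = I₁)
    (hI' : ∀ u ∈ Icc s t, HasDerivAt I (I' u) u)
    (hb : ∀ u ∈ Icc s t, -(y * (I u + I₁)) ≤ I' u) : I s ≤ 2 * I₁ := by
  have hm : MonotoneOn (fun u => (I u + I₁) * Real.exp (y * u)) (Icc s t) := by
    refine mono_of_deriv (f' := fun u => I' u * Real.exp (y * u) +
      (I u + I₁) * (Real.exp (y * u) * y)) ?_ ?_
    · intro u hu
      have h2 : HasDerivAt (fun u => Real.exp (y * u)) (Real.exp (y * u) * y) u := by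
        have := ((hasDerivAt_id u).const_mul y).exp
        simpa using this
      exact ((hI' u hu).add_const I₁).mul h2
    · intro u hu
      have h3 := hb u (Ioo_subset_Icc_self hu)
      have h6 : I' u * Real.exp (y * u) + (I u + I₁) * (Real.exp (y * u) * y) =
          (I' u + y * (I u + I₁)) * Real.exp (y * u) := by ring
      rw [h6]
      exact mul_nonneg (by linarith) (Real.exp_pos _).le
  have h8 := hm (left_mem_Icc.mpr hst) (right_mem_Icc.mpr hst) hst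
  simp only at h8
  rw [hIt] at h8
  have h9 : Real.exp (y * t) ≤ 103 / 100 * Real.exp (y * s) := by
    have h10 : y * t = y * (t - s) + y * s := by ring
    rw [h10, Real.exp_add]
    refine mul_le_mul_of_nonneg_right (exp_small ?_) (Real.exp_pos _).le
    have h12 : 0 ≤ t - s := by linarith
    calc y * (t - s) ≤ 1 / 100 * (1 / 32) := mul_le_mul hy1 hts h12 (by norm_num)
      _ ≤ 1 / 50 := by norm_num
  have h13 : (I s + I₁) * Real.exp (y * s) ≤ (I₁ + I₁) * (103 / 100) * Real.exp (y * s) := by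
    calc (I s + I₁) * Real.exp (y * s) ≤ (I₁ + I₁) * Real.exp (y * t) := h8
      _ ≤ (I₁ + I₁) * (103 / 100 * Real.exp (y * s)) :=
        mul_le_mul_of_nonneg_left h9 (by linarith)
      _ = _ := by ring
  have h14 := le_of_mul_le_mul_right h13 (Real.exp_pos _)
  linarith

/-- ODE 2 -/
theorem ode_E {E E' : ℝ → ℝ} {s t I₁ : ℝ} (hst : s ≤ t) (hts : t - s ≤ 1 / 32)
    (hI₁ : 0 ≤ I₁) (hEt : E t ≤ -(64 * I₁)) (hE' : ∀ u ∈ Icc s t, HasDerivAt E (E' u) u)
    (hb : ∀ u ∈ Icc s t, 2 * E u - I₁ ≤ E' u) : E s ≤ 7 / 8 * E t := by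
  have hm : MonotoneOn (fun u => (E u - 1 / 2 * I₁) * Real.exp (-2 * u)) (Icc s t) := by
    refine mono_of_deriv (f' := fun u => E' u * Real.exp (-2 * u) +
      (E u - 1 / 2 * I₁) * (Real.exp (-2 * u) * (-2))) ?_ ?_
    · intro u hu
      have h2 : HasDerivAt (fun u => Real.exp (-2 * u)) (Real.exp (-2 * u) * (-2)) u := by
        have := ((hasDerivAt_id u).const_mul (-2 : ℝ)).exp
        simpa using this
      exact ((hE' u hu).sub_const (1 / 2 * I₁)).mul h2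
    · intro u hu
      have h3 := hb u (Ioo_subset_Icc_self hu)
      have h6 : E' u * Real.exp (-2 * u) + (E u - 1 / 2 * I₁) * (Real.exp (-2 * u) * (-2)) =
          (E' u - 2 * E u + I₁) * Real.exp (-2 * u) := by ring
      rw [h6]
      exact mul_nonneg (by linarith) (Real.exp_pos _).le
  have h8 := hm (left_mem_Icc.mpr hst) (right_mem_Icc.mpr hst) hst
  simp only at h8
  have h9 : 15 / 16 * Real.exp (-2 * s) ≤ Real.exp (-2 * t) := by
    have h10 : -2 * t = -2 * (t - s) + -2 * s := by ring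
    rw [h10, Real.exp_add]
    refine mul_le_mul_of_nonneg_right ?_ (Real.exp_pos _).le
    have h12 := Real.add_one_le_exp (-2 * (t - s))
    linarith
  have h13 : (E s - 1 / 2 * I₁) * Real.exp (-2 * s) ≤
      (E t - 1 / 2 * I₁) * (15 / 16) * Real.exp (-2 * s) := by
    calc (E s - 1 / 2 * I₁) * Real.exp (-2 * s) ≤ (E t - 1 / 2 * I₁) * Real.exp (-2 * t) := h8
      _ ≤ (E t - 1 / 2 * I₁) * (15 / 16 * Real.exp (-2 * s)) :=
        mul_le_mul_of_nonpos_left h9 (by linarith)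
      _ = _ := by ring
  have h14 := le_of_mul_le_mul_right h13 (Real.exp_pos _)
  linarith

/-- **lower bound of the frequency** `N > - 4 C₀ K` at `l₁`, from data on `[l₁ - 1/K, l₁]` -/
theorem StepW.low (h : StepW C₀ a b₀ δ w I E e b R) (hC : 1 ≤ C₀) (hδ : 0 ≤ δ) (hw : 0 ≤ w)
    {y K : ℝ} (hK : 32 ≤ K) (hy1 : y ≤ 1 / 100) {l₁ : ℝ} (hl₁ : l₁ ≤ b₀) (hal : a ≤ l₁ - 1 / K)
    (hI₁ : 0 < I l₁) (hy : δ + w / I l₁ ≤ y) : -(4 * C₀ * K) < Fr E I l₁ := by
  by_contra hcon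
  push Not at hcon
  have hK0 : 0 < K := by linarith
  have hh0 : 0 < 1 / K := by positivity
  have hh1 : 1 / K ≤ 1 / 32 := one_div_le_one_div_of_le (by norm_num) hK
  have hal' : a ≤ l₁ := by linarith
  have hml : l₁ ∈ Icc a b₀ := ⟨hal', hl₁⟩
  obtain ⟨I₁, hI₁def⟩ : ∃ I₁, I₁ = I l₁ := ⟨_, rfl⟩
  rw [← hI₁def] at hI₁ hy
  have hsub : ∀ t ∈ Icc (l₁ - 1 / K) l₁, t ∈ Icc a b₀ := fun t ht =>
    ⟨hal.trans ht.1, ht.2.trans hl₁⟩
  have hwI : 0 ≤ w / I₁ := by positivity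
  have hy0 : 0 ≤ y := by linarith
  have hδy : δ ≤ y := by linarith
  have hδ1 : δ ≤ 1 / 100 := hδy.trans hy1
  have hwy : w ≤ y * I₁ := by
    have h1 : w / I₁ ≤ y := by linarith
    rwa [div_le_iff₀ hI₁] at h1
  have hw1 : w ≤ 1 / 100 * I₁ := hwy.trans (mul_le_mul_of_nonneg_right hy1 hI₁.le)
  have hY : E l₁ ≤ -(2 * (C₀ * K) * I₁) := by
    unfold Fr at hcon
    rw [← hI₁def, div_le_iff₀ hI₁] at hcon
    linarith
  have hCK : 32 ≤ C₀ * K := by
    calc (32:ℝ) ≤ K := hK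
      _ = 1 * K := (one_mul K).symm
      _ ≤ C₀ * K := mul_le_mul_of_nonneg_right hC hK0.le
  have hE64 : E l₁ ≤ -(64 * I₁) := by
    have : 32 * I₁ ≤ C₀ * K * I₁ := mul_le_mul_of_nonneg_right hCK hI₁.le
    linarith
  -- derivative choices
  have hdI : ∀ t ∈ Icc (l₁ - 1 / K) l₁, ∃ I', HasDerivAt I I' t ∧ |I' - 2 * e t| ≤ δ * I t + w :=
    fun t ht => h.dI t (hsub t ht)
  have hdE : ∀ t ∈ Icc (l₁ - 1 / K) l₁, ∃ E', HasDerivAt E E' t ∧
      2 * b t + R t - (δ * (e t + I t) + w) ≤ E' := fun t ht => h.dE t (hsub t ht)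
  choose! I' hI' hI'b using hdI
  choose! E' hE' hE'b using hdE
  -- upper bound of `I`
  have hup : ∀ t ∈ Icc (l₁ - 1 / K) l₁, I t ≤ 2 * I₁ := by
    intro t ht
    refine ode_up (I' := I') ht.2 (by linarith [ht.1]) hy0 hy1 hI₁.le hI₁def.symm
      (fun u hu => hI' u ⟨ht.1.trans hu.1, hu.2⟩) ?_
    intro u hu
    have hu' : u ∈ Icc (l₁ - 1 / K) l₁ := ⟨ht.1.trans hu.1, hu.2⟩
    have h3 := (abs_le.mp (hI'b u hu')).1
    have h4 := h.he u (hsub u hu')
    have h5 := h.hI u (hsub u hu')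
    have h7 : δ * I u ≤ y * I u := mul_le_mul_of_nonneg_right hδy h5
    have h8 : y * (I u + I₁) = y * I u + y * I₁ := by ring
    linarith
  -- upper bound of `E`
  have hEup : ∀ t ∈ Icc (l₁ - 1 / K) l₁, E t ≤ 7 / 8 * E l₁ := by
    intro t ht
    refine ode_E (E' := E') ht.2 (by linarith [ht.1]) hI₁.le hE64
      (fun u hu => hE' u ⟨ht.1.trans hu.1, hu.2⟩) ?_
    intro u hu
    have hu' : u ∈ Icc (l₁ - 1 / K) l₁ := ⟨ht.1.trans hu.1, hu.2⟩
    have hI := h.hI u (hsub u hu')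
    have hR := h.hR u (hsub u hu')
    have h1 := alg_E hδ hδ1 hw hI (h.he u (hsub u hu')) hR (Real.sqrt_nonneg _)
      (Real.sq_sqrt (mul_nonneg hI hR)) (h.hE u (hsub u hu')) (h.hCS u (hsub u hu'))
      (hE'b u hu')
    have h2 := hup u hu'
    linarith
  -- lower bound of `I'`
  have hIlow : ∀ t ∈ Icc (l₁ - 1 / K) l₁, 3 * K * I₁ ≤ I' t := by
    intro t ht
    have h3 := (abs_le.mp (hI'b t ht)).1
    have h4 := h.hab t (hsub t ht)
    have h5 := hEup t ht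
    have h6 := hup t ht
    have hI := h.hI t (hsub t ht)
    have he := h.he t (hsub t ht)
    have h7 : 7 / 4 * (C₀ * K) * I₁ ≤ C₀ * (e t + I t) + w := by linarith
    have h8 : w ≤ C₀ * (1 / 100 * I₁) := by
      calc w ≤ 1 * (1 / 100 * I₁) := by linarith
        _ ≤ C₀ * (1 / 100 * I₁) := mul_le_mul_of_nonneg_right hC (by positivity)
    have h9 : C₀ * (7 / 4 * K * I₁) ≤ C₀ * (e t + I t + 1 / 100 * I₁) := by
      have h10 : C₀ * (e t + I t + 1 / 100 * I₁) = C₀ * (e t + I t) + C₀ * (1 / 100 * I₁) := by ring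
      have h11 : C₀ * (7 / 4 * K * I₁) = 7 / 4 * (C₀ * K) * I₁ := by ring
      rw [h10, h11]
      linarith
    have h12 : 7 / 4 * K * I₁ ≤ e t + I t + 1 / 100 * I₁ :=
      le_of_mul_le_mul_left h9 (by linarith)
    have h13 : δ * I t ≤ 1 / 100 * I t := mul_le_mul_of_nonneg_right hδ1 hI
    have h15 : 32 * I₁ ≤ K * I₁ := mul_le_mul_of_nonneg_right hK hI₁.le
    linarith
  have hmJ : l₁ - 1 / K ∈ Icc (l₁ - 1 / K) l₁ := left_mem_Icc.mpr (by linarith)
  have hl₁J : l₁ ∈ Icc (l₁ - 1 / K) l₁ := right_mem_Icc.mpr (by linarith)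
  have hm : MonotoneOn (fun u => I u - 3 * K * I₁ * u) (Icc (l₁ - 1 / K) l₁) := by
    refine mono_of_deriv (f' := fun u => I' u - 3 * K * I₁) ?_ ?_
    · intro u hu
      have h4 := (hI' u hu).fun_sub ((hasDerivAt_id' u).const_mul (3 * K * I₁))
      exact h4.congr_deriv (by ring)
    · intro u hu
      have := hIlow u (Ioo_subset_Icc_self hu)
      linarith
  have h8 := hm hmJ hl₁J hmJ.2
  simp only at h8
  have h9 := h.hI _ (hsub _ hmJ)
  have h10 : 3 * K * I₁ * (1 / K) = 3 * I₁ := by field_simp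
  have h11 : 3 * K * I₁ * (l₁ - 1 / K) = 3 * K * I₁ * l₁ - 3 * I₁ := by
    rw [mul_sub, h10]
  rw [h11, ← hI₁def] at h8
  linarith

/-- estimates on `[m, b₀]` under the weak a-priori bounds -/
theorem StepW.est {a₀ : ℝ} (h : StepW C₀ a₀ b₀ δ w I E e b R) (hC : 1 ≤ C₀) (hδ : 0 ≤ δ)
    (hw : 0 ≤ w) {y K G : ℝ}
    (hK : 32 ≤ K) (hy1 : y ≤ 1 / 100) {m : ℝ} (ha₀ : a₀ ≤ m - 1 / K) (hm : m ≤ b₀)
    (hG : (K + (120 * C₀ + 61)) * (b₀ - m) + 5 / 4 + 40 * C₀ ≤ G)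
    (hy : δ + w * Real.exp (G + 1) / I b₀ ≤ y)
    (hN0 : 8 * Fr E I b₀ ≤ K) (hIb : 0 < I b₀)
    (hap : ∀ t ∈ Icc m b₀, I b₀ ≤ Real.exp (G + 1) * I t ∧ 2 * E t ≤ K / 4 * I t) :
    (∀ l l', m ≤ l → l ≤ l' → l' ≤ b₀ →
        max (Fr E I l) 1 ≤ max (Fr E I l') 1 * Real.exp (22 * y * (l' - l))) ∧
      (∀ l ∈ Icc m b₀, I b₀ ≤ Real.exp G * I l) ∧
      (∀ l l' θ, m ≤ l → l ≤ l' → l' ≤ b₀ → (∀ t ∈ Icc l l', θ ≤ Fr E I t) →
        (2 * θ - 5 * y) * (l' - l) ≤ Real.log (I l') - Real.log (I l)) ∧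
      (∀ l l', m ≤ l → l ≤ l' → l' ≤ b₀ →
        -y * (l' - l) ≤ Real.log (I l') - Real.log (I l)) ∧
      (∀ l ∈ Icc m b₀, -(4 * C₀ * K) < Fr E I l) := by
  have hK0 : 0 < K := by linarith
  have hh0 : 0 < 1 / K := by positivity
  have hsub : ∀ t ∈ Icc m b₀, t ∈ Icc a₀ b₀ := fun t ht => ⟨by linarith [ht.1], ht.2⟩
  have hy0 : 0 ≤ y := by
    have : 0 ≤ w * Real.exp (G + 1) / I b₀ := by positivity
    linarith
  have hpos : ∀ t ∈ Icc m b₀, 0 < I t := by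
    intro t ht
    have h1 := (hap t ht).1
    by_contra hcon
    have h2 : Real.exp (G + 1) * I t ≤ 0 :=
      mul_nonpos_of_nonneg_of_nonpos (Real.exp_pos _).le (not_lt.1 hcon)
    linarith
  have hFr : ∀ t ∈ Icc m b₀, Fr E I t ≤ K / 4 := by
    intro t ht
    unfold Fr
    rw [div_le_iff₀ (hpos t ht)]
    exact (hap t ht).2
  -- uniform relative error
  have hyt : ∀ t ∈ Icc m b₀, δ + w / I t ≤ y := by
    intro t ht
    have hIt := hpos t ht
    have h1 := (hap t ht).1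
    have h2 : w / I t ≤ w * Real.exp (G + 1) / I b₀ := by
      rw [div_le_div_iff₀ hIt hIb]
      calc w * I b₀ ≤ w * (Real.exp (G + 1) * I t) := mul_le_mul_of_nonneg_left h1 hw
        _ = w * Real.exp (G + 1) * I t := by ring
    linarith
  have hlow : ∀ t ∈ Icc m b₀, -(4 * C₀ * K) < Fr E I t := fun t ht =>
    h.low hC hδ hw hK hy1 ht.2 (by linarith [ht.1]) (hpos t ht) (hyt t ht)
  have hpt : ∀ t ∈ Icc m b₀, ∃ N' ι : ℝ, HasDerivAt (Fr E I) N' t ∧
      HasDerivAt (fun t => Real.log (I t)) ι t ∧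
      (∀ K M : ℝ, 32 ≤ K → 1 ≤ M → -(M * K) ≤ Fr E I t → Fr E I t ≤ K / 4 →
        ι ≤ K + 10 / K * N' + (30 * M + 61)) ∧
      (1 ≤ Fr E I t → -(22 * y * Fr E I t) ≤ N') ∧ 2 * Fr E I t - 5 * y ≤ ι ∧ -y ≤ ι :=
    fun t ht => h.pointwise hδ hw (by linarith) (hsub t ht) (hpos t ht) (hyt t ht)
  choose! N' ι hN hι hp hN1 hι1 hι2 using hpt
  refine ⟨?_, ?_, ?_, ?_, hlow⟩
  · intro l l' h1 h2 h3
    exact max_one_mono (by positivity) hN hN1 h1 h2 h3
  · intro l hl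
    have hmono : MonotoneOn (fun t => (K + (120 * C₀ + 61)) * t + 10 / K * Fr E I t -
        Real.log (I t)) (Icc m b₀) := by
      refine mono_of_deriv (f' := fun t => (K + (120 * C₀ + 61)) + 10 / K * N' t - ι t) ?_ ?_
      · intro t ht
        have h1 := (((hasDerivAt_id' t).const_mul (K + (120 * C₀ + 61))).fun_add
          ((hN t ht).const_mul (10 / K))).fun_sub (hι t ht)
        exact h1.congr_deriv (by ring)
      · intro t ht
        have ht' := Ioo_subset_Icc_self ht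
        have h1 := hp t ht' K (4 * C₀) hK (by linarith) (hlow t ht').le (hFr t ht')
        linarith
    have h1 := hmono hl (right_mem_Icc.mpr hm) hl.2
    simp only at h1
    have hIl := hpos l hl
    have h4 : 10 / K * Fr E I b₀ ≤ 5 / 4 := by
      rw [div_mul_eq_mul_div, div_le_iff₀ hK0]; linarith
    have h5 : -(40 * C₀) ≤ 10 / K * Fr E I l := by
      rw [div_mul_eq_mul_div, le_div_iff₀ hK0]
      have := hlow l hl
      linarith
    have h2 : (K + (120 * C₀ + 61)) * (b₀ - l) ≤ (K + (120 * C₀ + 61)) * (b₀ - m) :=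
      mul_le_mul_of_nonneg_left (by linarith [hl.1]) (by linarith)
    have h6 : Real.log (I b₀) ≤ G + Real.log (I l) := by
      have h7 : (K + (120 * C₀ + 61)) * (b₀ - l) = (K + (120 * C₀ + 61)) * b₀ -
        (K + (120 * C₀ + 61)) * l := by ring
      linarith
    calc I b₀ = Real.exp (Real.log (I b₀)) := (Real.exp_log hIb).symm
      _ ≤ Real.exp (G + Real.log (I l)) := Real.exp_le_exp.mpr h6
      _ = Real.exp G * I l := by rw [Real.exp_add, Real.exp_log hIl]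
  · intro l l' θ h1 h2 h3 hθ
    have hmono : MonotoneOn (fun t => Real.log (I t) - (2 * θ - 5 * y) * t) (Icc l l') := by
      refine mono_of_deriv (f' := fun t => ι t - (2 * θ - 5 * y)) ?_ ?_
      · intro t ht
        have h4 := (hι t ⟨h1.trans ht.1, ht.2.trans h3⟩).fun_sub
          ((hasDerivAt_id' t).const_mul (2 * θ - 5 * y))
        exact h4.congr_deriv (by ring)
      · intro t ht
        have h5 := hι1 t ⟨h1.trans ht.1.le, ht.2.le.trans h3⟩
        have h6 := hθ t (Ioo_subset_Icc_self ht)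
        linarith
    have h7 := hmono (left_mem_Icc.mpr h2) (right_mem_Icc.mpr h2) h2
    simp only at h7
    linarith
  · intro l l' h1 h2 h3
    have hmono : MonotoneOn (fun t => Real.log (I t) - (-y) * t) (Icc l l') := by
      refine mono_of_deriv (f' := fun t => ι t - (-y)) ?_ ?_
      · intro t ht
        have h4 := (hι t ⟨h1.trans ht.1, ht.2.trans h3⟩).fun_sub
          ((hasDerivAt_id' t).const_mul (-y))
        exact h4.congr_deriv (by ring)
      · intro t ht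
        have h5 := hι2 t ⟨h1.trans ht.1.le, ht.2.le.trans h3⟩
        linarith
    have h7 := hmono (left_mem_Icc.mpr h2) (right_mem_Icc.mpr h2) h2
    simp only at h7
    linarith

/-- **window of any length**, no lower bound of the frequency: data on `[a - 1/K, b₀]` -/
theorem StepW.window6 {a₀ : ℝ} (h : StepW C₀ a₀ b₀ δ w I E e b R) (hC : 1 ≤ C₀) (hδ : 0 ≤ δ)
    (hw : 0 ≤ w) {y K G : ℝ} (hK : 32 ≤ K) (hy1 : y ≤ 1 / 100) (ha₀ : a₀ ≤ a - 1 / K)
    (hab0 : a ≤ b₀) (hyl : y * (b₀ - a) ≤ 1 / 1100)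
    (hG : (K + (120 * C₀ + 61)) * (b₀ - a) + 5 / 4 + 40 * C₀ ≤ G)
    (hy : δ + w * Real.exp (G + 1) / I b₀ ≤ y) (hN0 : 8 * Fr E I b₀ ≤ K) (hIb : 0 < I b₀) :
    (∀ l l', a ≤ l → l ≤ l' → l' ≤ b₀ →
        max (Fr E I l) 1 ≤ max (Fr E I l') 1 * Real.exp (22 * y * (l' - l))) ∧
      (∀ l ∈ Icc a b₀, I b₀ ≤ Real.exp G * I l) ∧
      (19 / 10 ≤ Fr E I a → b₀ - a ≤ (2 * a - Real.log (I a)) - (2 * b₀ - Real.log (I b₀))) ∧
      (-(3 * (b₀ - a)) ≤ (2 * a - Real.log (I a)) - (2 * b₀ - Real.log (I b₀))) ∧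
      (∀ l ∈ Icc a b₀, -(4 * C₀ * K) < Fr E I l) ∧
      (∀ l l', a ≤ l → l ≤ l' → l' ≤ b₀ → I l ≤ Real.exp (y * (l' - l)) * I l') := by
  have hK0 : 0 < K := by linarith
  have hh0 : 0 < 1 / K := by positivity
  have h' : StepW C₀ a b₀ δ w I E e b R := h.mono (by linarith) le_rfl
  have hb₀ : b₀ ∈ Icc a b₀ := right_mem_Icc.mpr hab0
  have hG0 : 0 ≤ G := by
    have : 0 ≤ (K + (120 * C₀ + 61)) * (b₀ - a) := mul_nonneg (by linarith) (by linarith)
    linarith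
  have hy0 : 0 ≤ y := by
    have : 0 ≤ w * Real.exp (G + 1) / I b₀ := by positivity
    linarith
  have hexpG : Real.exp G < Real.exp (G + 1) := Real.exp_lt_exp.mpr (by linarith)
  have hsmall : ∀ u, u ≤ b₀ - a → Real.exp (22 * y * u) ≤ 103 / 100 := by
    intro u hu
    refine exp_small ?_
    have h1 : 22 * y * u ≤ 22 * y * (b₀ - a) := mul_le_mul_of_nonneg_left hu (by positivity)
    linarith
  -- a priori bounds hold everywhere
  have hall : ∀ t ∈ Icc a b₀, I b₀ ≤ Real.exp (G + 1) * I t ∧ 2 * E t ≤ K / 4 * I t := by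
    by_contra hcon
    set F := {t | t ∈ Icc a b₀ ∧ (Real.exp (G + 1) * I t ≤ I b₀ ∨ 0 ≤ 2 * E t - K / 4 * I t)}
      with hF
    have hcE : ContinuousOn (fun t => 2 * E t - K / 4 * I t) (Icc a b₀) :=
      (h'.continuousOn_E.const_mul 2).sub (h'.continuousOn_I.const_mul (K / 4))
    have hFne : F.Nonempty := by
      push Not at hcon
      obtain ⟨t, ht, ht2⟩ := hcon
      refine ⟨t, ht, ?_⟩
      by_contra h3
      push Not at h3
      exact absurd (ht2 h3.1.le) (not_lt.mpr (by linarith [h3.2]))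
    have hFb : BddAbove F := ⟨b₀, fun t ht => ht.1.2⟩
    have hFc : IsClosed F := by
      have h1 : IsClosed {t | t ∈ Icc a b₀ ∧ Real.exp (G + 1) * I t ∈ Iic (I b₀)} :=
        (h'.continuousOn_I.const_mul (Real.exp (G + 1))).preimage_isClosed_of_isClosed isClosed_Icc
          isClosed_Iic
      have h2 : IsClosed {t | t ∈ Icc a b₀ ∧ 2 * E t - K / 4 * I t ∈ Ici (0:ℝ)} :=
        hcE.preimage_isClosed_of_isClosed isClosed_Icc isClosed_Ici
      have h3 : F = {t | t ∈ Icc a b₀ ∧ Real.exp (G + 1) * I t ∈ Iic (I b₀)} ∪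
          {t | t ∈ Icc a b₀ ∧ 2 * E t - K / 4 * I t ∈ Ici (0:ℝ)} := by
        ext t
        simp only [hF, mem_ofPred_eq, mem_union, mem_Iic, mem_Ici]
        tauto
      rw [h3]
      exact h1.union h2
    have hm : sSup F ∈ F := hFc.csSup_mem hFne hFb
    set m := sSup F with hmdef
    have hNb : 2 * E b₀ ≤ K / 8 * I b₀ := by
      have h1 : Fr E I b₀ ≤ K / 8 := by linarith
      unfold Fr at h1
      rwa [div_le_iff₀ hIb] at h1
    have hKI : 0 < K * I b₀ := mul_pos hK0 hIb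
    have hmb : m < b₀ := by
      refine lt_of_le_of_ne hm.1.2 ?_
      intro heq
      rcases hm.2 with h3 | h3
      · rw [heq] at h3
        have : (1 : ℝ) < Real.exp (G + 1) := Real.one_lt_exp_iff.mpr (by linarith)
        nlinarith
      · rw [heq] at h3
        linarith
    have hgood : ∀ t ∈ Ioc m b₀, I b₀ ≤ Real.exp (G + 1) * I t ∧ 2 * E t - K / 4 * I t ≤ 0 := by
      intro t ht
      have htF : t ∉ F := fun hcon2 => absurd (le_csSup hFb hcon2) (not_le.mpr ht.1)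
      have htI : t ∈ Icc a b₀ := ⟨hm.1.1.trans ht.1.le, ht.2⟩
      simp only [hF, mem_ofPred_eq, not_and, not_or, not_le] at htF
      exact ⟨(htF htI).1.le, (htF htI).2.le⟩
    have hgood2 : ∀ t ∈ Icc m b₀, I b₀ ≤ Real.exp (G + 1) * I t ∧ 2 * E t ≤ K / 4 * I t := by
      have hc1 : ContinuousOn I (Icc m b₀) :=
        h'.continuousOn_I.mono (Icc_subset_Icc_left hm.1.1)
      have hc2 := hcE.mono (Icc_subset_Icc_left (b := b₀) hm.1.1)
      have h1 : IsClosed {t | t ∈ Icc m b₀ ∧ Real.exp (G + 1) * I t ∈ Ici (I b₀)} :=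
        (hc1.const_mul (Real.exp (G + 1))).preimage_isClosed_of_isClosed isClosed_Icc isClosed_Ici
      have h2 : IsClosed {t | t ∈ Icc m b₀ ∧ 2 * E t - K / 4 * I t ∈ Iic (0:ℝ)} :=
        hc2.preimage_isClosed_of_isClosed isClosed_Icc isClosed_Iic
      have h3 : Icc m b₀ ⊆ {t | t ∈ Icc m b₀ ∧ Real.exp (G + 1) * I t ∈ Ici (I b₀)} ∩
          {t | t ∈ Icc m b₀ ∧ 2 * E t - K / 4 * I t ∈ Iic (0:ℝ)} := by
        have h4 : Ioc m b₀ ⊆ {t | t ∈ Icc m b₀ ∧ Real.exp (G + 1) * I t ∈ Ici (I b₀)} ∩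
            {t | t ∈ Icc m b₀ ∧ 2 * E t - K / 4 * I t ∈ Iic (0:ℝ)} := fun t ht =>
          ⟨⟨Ioc_subset_Icc_self ht, (hgood t ht).1⟩, ⟨Ioc_subset_Icc_self ht, (hgood t ht).2⟩⟩
        have h5 := (h1.inter h2).closure_subset_iff.mpr h4
        rwa [closure_Ioc hmb.ne] at h5
      intro t ht
      have h6 := (h3 ht).2.2
      rw [mem_Iic] at h6
      exact ⟨(h3 ht).1.2, by linarith⟩
    have hGm : (K + (120 * C₀ + 61)) * (b₀ - m) + 5 / 4 + 40 * C₀ ≤ G := by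
      have : (K + (120 * C₀ + 61)) * (b₀ - m) ≤ (K + (120 * C₀ + 61)) * (b₀ - a) :=
        mul_le_mul_of_nonneg_left (by linarith [hm.1.1]) (by linarith)
      linarith
    obtain ⟨q1, q2, -, -, -⟩ := h.est hC hδ hw hK hy1 (by linarith [hm.1.1]) hm.1.2 hGm hy hN0 hIb
      hgood2
    have hIm : 0 < I m := by
      have h4 := q2 m (left_mem_Icc.mpr hmb.le)
      by_contra hcon2
      have h5 : Real.exp G * I m ≤ 0 :=
        mul_nonpos_of_nonneg_of_nonpos (Real.exp_pos _).le (not_lt.1 hcon2)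
      linarith
    rcases hm.2 with h3 | h3
    · have h4 := q2 m (left_mem_Icc.mpr hmb.le)
      nlinarith
    · have h4 := q1 m b₀ le_rfl hmb.le le_rfl
      have h5 := hsmall (b₀ - m) (by linarith [hm.1.1])
      have h6 : max (Fr E I b₀) 1 ≤ K / 8 := max_le (by linarith) (by linarith)
      have h7 : max (Fr E I m) 1 ≤ K / 8 * (103 / 100) :=
        h4.trans (mul_le_mul h6 h5 (Real.exp_pos _).le (by positivity))
      have h8 := le_max_left (Fr E I m) 1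
      have h9 : Fr E I m ≤ K / 8 * (103 / 100) := h8.trans h7
      unfold Fr at h9
      rw [div_le_iff₀ hIm] at h9
      have h10 : 0 < K * I m := mul_pos hK0 hIm
      linarith
  obtain ⟨q1, q2, q3, q4, q5⟩ := h.est hC hδ hw hK hy1 ha₀ hab0 hG hy hN0 hIb hall
  have hpos : ∀ t ∈ Icc a b₀, 0 < I t := by
    intro t ht
    have h1 := q2 t ht
    by_contra hcon
    have h2 : Real.exp G * I t ≤ 0 :=
      mul_nonpos_of_nonneg_of_nonpos (Real.exp_pos _).le (not_lt.1 hcon)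
    linarith
  have q6 : ∀ l l', a ≤ l → l ≤ l' → l' ≤ b₀ → I l ≤ Real.exp (y * (l' - l)) * I l' := by
    intro l l' h1 h2 h3
    have h4 := q4 l l' h1 h2 h3
    have hl := hpos l ⟨h1, h2.trans h3⟩
    have hl' := hpos l' ⟨h1.trans h2, h3⟩
    calc I l = Real.exp (Real.log (I l)) := (Real.exp_log hl).symm
      _ ≤ Real.exp (y * (l' - l) + Real.log (I l')) := Real.exp_le_exp.mpr (by linarith)
      _ = Real.exp (y * (l' - l)) * I l' := by rw [Real.exp_add, Real.exp_log hl']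
  refine ⟨q1, q2, ?_, ?_, q5, q6⟩
  · intro h2
    have h3 : ∀ t ∈ Icc a b₀, 9 / 5 ≤ Fr E I t := by
      intro t ht
      have h4 := q1 a t le_rfl ht.1 ht.2
      have h5 := hsmall (t - a) (by linarith [ht.2])
      have h6 : (19 / 10 : ℝ) ≤ max (Fr E I t) 1 * (103 / 100) := by
        calc (19 / 10 : ℝ) ≤ max (Fr E I a) 1 := h2.trans (le_max_left _ _)
          _ ≤ max (Fr E I t) 1 * Real.exp (22 * y * (t - a)) := h4
          _ ≤ max (Fr E I t) 1 * (103 / 100) :=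
            mul_le_mul_of_nonneg_left h5 (le_trans zero_le_one (le_max_right _ _))
      rcases le_total (Fr E I t) 1 with h7 | h7
      · rw [max_eq_right h7] at h6
        norm_num at h6
      · rw [max_eq_left h7] at h6
        linarith
    have h4 := q3 a b₀ (9 / 5) le_rfl hab0 le_rfl h3
    nlinarith
  · have h4 := q4 a b₀ le_rfl hab0 le_rfl
    nlinarith

/-- **window of any length** -/
theorem StepW.window {a₀ : ℝ} (h : StepW C₀ a₀ b₀ δ w I E e b R) (hC : 1 ≤ C₀) (hδ : 0 ≤ δ)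
    (hw : 0 ≤ w) {y K G : ℝ} (hK : 32 ≤ K) (hy1 : y ≤ 1 / 100) (ha₀ : a₀ ≤ a - 1 / K)
    (hab0 : a ≤ b₀) (hyl : y * (b₀ - a) ≤ 1 / 1100)
    (hG : (K + (120 * C₀ + 61)) * (b₀ - a) + 5 / 4 + 40 * C₀ ≤ G)
    (hy : δ + w * Real.exp (G + 1) / I b₀ ≤ y) (hN0 : 8 * Fr E I b₀ ≤ K) (hIb : 0 < I b₀) :
    (∀ l l', a ≤ l → l ≤ l' → l' ≤ b₀ →
        max (Fr E I l) 1 ≤ max (Fr E I l') 1 * Real.exp (22 * y * (l' - l))) ∧
      (∀ l ∈ Icc a b₀, I b₀ ≤ Real.exp G * I l) ∧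
      (19 / 10 ≤ Fr E I a → b₀ - a ≤ (2 * a - Real.log (I a)) - (2 * b₀ - Real.log (I b₀))) ∧
      (-(3 * (b₀ - a)) ≤ (2 * a - Real.log (I a)) - (2 * b₀ - Real.log (I b₀))) ∧
      (∀ l ∈ Icc a b₀, -(4 * C₀ * K) < Fr E I l) := by
  obtain ⟨h1, h2, h3, h4, h5, -⟩ := h.window6 hC hδ hw hK hy1 ha₀ hab0 hyl hG hy hN0 hIb
  exact ⟨h1, h2, h3, h4, h5⟩

/-- doubling exponent of one step -/
def GC (C₀ : ℝ) : ℝ := 48 * C₀ + 8

/-- **one step** (fixed reference surface), no lower bound of the frequency: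
data on `[a - 1/K, b₀]`, `b₀ - a ≤ 2/K` -/
theorem StepW.step6 {a₀ : ℝ} (h : StepW C₀ a₀ b₀ δ w I E e b R) (hC : 1 ≤ C₀) (hδ : 0 ≤ δ)
    (hw : 0 ≤ w) {y K : ℝ} (hK : 32 ≤ K) (hy1 : y ≤ 1 / 100) (ha₀ : a₀ ≤ a - 1 / K)
    (hab0 : a ≤ b₀) (hab : b₀ - a ≤ 2 / K)
    (hy : δ + w * Real.exp (GC C₀ + 1) / I b₀ ≤ y) (hN0 : 8 * Fr E I b₀ ≤ K) (hIb : 0 < I b₀) :
    (∀ l l', a ≤ l → l ≤ l' → l' ≤ b₀ →
        max (Fr E I l) 1 ≤ max (Fr E I l') 1 * Real.exp (22 * y * (l' - l))) ∧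
      (∀ l ∈ Icc a b₀, I b₀ ≤ Real.exp (GC C₀) * I l) ∧
      (19 / 10 ≤ Fr E I a → b₀ - a ≤ (2 * a - Real.log (I a)) - (2 * b₀ - Real.log (I b₀))) ∧
      (-(3 * (b₀ - a)) ≤ (2 * a - Real.log (I a)) - (2 * b₀ - Real.log (I b₀))) ∧
      (∀ l ∈ Icc a b₀, -(4 * C₀ * K) < Fr E I l) ∧
      (∀ l l', a ≤ l → l ≤ l' → l' ≤ b₀ → I l ≤ Real.exp (y * (l' - l)) * I l') := by
  have hK0 : 0 < K := by linarith
  have hh0 : 0 < 1 / K := by positivity
  have hy0 : 0 ≤ y := by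
    have : 0 ≤ w * Real.exp (GC C₀ + 1) / I b₀ := by positivity
    linarith
  have h2K : 2 / K ≤ 1 / 16 := by
    rw [div_le_div_iff₀ hK0 (by norm_num)]; linarith
  refine h.window6 hC hδ hw hK hy1 ha₀ hab0 ?_ ?_ hy hN0 hIb
  · have h1 : y * (b₀ - a) ≤ 1 / 100 * (1 / 16) :=
      mul_le_mul hy1 (hab.trans h2K) (by linarith) (by norm_num)
    linarith
  · unfold GC
    have h1 : (K + (120 * C₀ + 61)) * (b₀ - a) ≤ (K + (120 * C₀ + 61)) * (2 / K) :=
      mul_le_mul_of_nonneg_left hab (by linarith)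
    have h2 : (K + (120 * C₀ + 61)) * (2 / K) = 2 + (120 * C₀ + 61) * (2 / K) := by
      field_simp
    have h3 : (120 * C₀ + 61) * (2 / K) ≤ (120 * C₀ + 61) * (1 / 16) :=
      mul_le_mul_of_nonneg_left h2K (by linarith)
    linarith

/-- **one step** -/
theorem StepW.step {a₀ : ℝ} (h : StepW C₀ a₀ b₀ δ w I E e b R) (hC : 1 ≤ C₀) (hδ : 0 ≤ δ)
    (hw : 0 ≤ w) {y K : ℝ} (hK : 32 ≤ K) (hy1 : y ≤ 1 / 100) (ha₀ : a₀ ≤ a - 1 / K)
    (hab0 : a ≤ b₀) (hab : b₀ - a ≤ 2 / K)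
    (hy : δ + w * Real.exp (GC C₀ + 1) / I b₀ ≤ y) (hN0 : 8 * Fr E I b₀ ≤ K) (hIb : 0 < I b₀) :
    (∀ l l', a ≤ l → l ≤ l' → l' ≤ b₀ →
        max (Fr E I l) 1 ≤ max (Fr E I l') 1 * Real.exp (22 * y * (l' - l))) ∧
      (∀ l ∈ Icc a b₀, I b₀ ≤ Real.exp (GC C₀) * I l) ∧
      (19 / 10 ≤ Fr E I a → b₀ - a ≤ (2 * a - Real.log (I a)) - (2 * b₀ - Real.log (I b₀))) ∧
      (-(3 * (b₀ - a)) ≤ (2 * a - Real.log (I a)) - (2 * b₀ - Real.log (I b₀))) ∧
      (∀ l ∈ Icc a b₀, -(4 * C₀ * K) < Fr E I l) := by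
  obtain ⟨h1, h2, h3, h4, h5, -⟩ := h.step6 hC hδ hw hK hy1 ha₀ hab0 hab hy hN0 hIb
  exact ⟨h1, h2, h3, h4, h5⟩

end Crest.Agent.R234.Nb_290
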