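import Crest.Agent.R234.End4_395
import Crest.Agent.R234.Nb5_290

/-!
# Row 234, (END) (helper395), part 5: `Ref` from the one-step data of a state

`StS` : a block with 290's `StepW` on a long window below the level `l`.  `ref_of_stS`.
-/

set_option autoImplicit false
set_option linter.unusedSectionVars false

open MeasureTheory Set Filter Topology
open Crest.GeometryTopology.Submanifold Crest.Agent.R234.Vf_884
open Crest.Agent.R234.Main_456 Crest.Agent.R234.GL_394 Crest.Agent.R234.Gi_456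
open Crest.Agent.R234.AS_456 (hp vp)
open Crest.Agent.R234.Nb_290
open scoped ENNReal NNReal InnerProductSpace ContDiff

noncomputable section

namespace Crest.Agent.R234.End_395

variable {m n k : ℕ}

/-- a block at the level `l`, with the one-step data on a window of length `≥ 5 + log 8 + 1/32`. -/
structure StS (U : Set (Euc k)) (V : Measure (Euc k × L k)) (x : Euc k) (r : ℝ)
    (π : Euc k →L[ℝ] Euc m) (ρ : Euc k →L[ℝ] Euc n) (S : ℝ) (w : Euc m → Euc n)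
    (Kt : Set (Euc k)) (g1 : ℝ → ℝ) (l κ C₀ F : ℝ) (K : ℕ) : Prop where
  frame : Frame π ρ
  gr : Gr S w
  d1 : ∀ X, ‖fderiv ℝ w X‖ ≤ κ
  d2 : ∀ X, S * ‖fderiv ℝ (fderiv ℝ w) X‖ ≤ κ
  w0 : ‖w 0‖ ≤ κ * r
  ms : ∀ X ∈ Metric.ball (0 : Euc m) (Real.exp l), Msys w X = 0
  lS : Real.exp l ≤ S
  ll : Real.log r + 4 ≤ l
  lu : l ≤ Real.log r + 5
  loc : Loc (ch π ρ x S w 0) U (tube π ρ x S w) Kt V l
  sup : ∀ᵐ p ∂(VK V Kt), ‖(ch π ρ x S w 0).x p.1‖ ≤ 12 * r →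
    2 * (ch π ρ x S w 0).f p.1 ≤ κ ^ 2 * r ^ 2
  step : ∃ (lo δ wE : ℝ) (E e b R : ℝ → ℝ), lo ≤ Real.log (r / 8) - 1 / 32 ∧ 0 ≤ δ ∧ 0 ≤ wE ∧
    StepW C₀ lo l δ wE (II (ch π ρ x S w 0) (VK V Kt) g1) E e b R ∧
    δ + wE / II (ch π ρ x S w 0) (VK V Kt) g1 l ≤ κ ∧
    Fr E (II (ch π ρ x S w 0) (VK V Kt) g1) l ≤ F
  pos : 0 < II (ch π ρ x S w 0) (VK V Kt) g1 l
  sml : II (ch π ρ x S w 0) (VK V Kt) g1 l ≤ κ ^ 2 * r ^ 2
  mean : ∀ ζ : Euc m → ℝ, ContDiff ℝ ∞ ζ → tsupport ζ ⊆ Metric.ball 0 8 →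
    (∀ j ≤ K, ∀ z, ‖iteratedFDeriv ℝ j ζ z‖ ≤ 1) →
    ‖∫ p in box π ρ x (8 * r) ×ˢ univ, ζ (r⁻¹ • π (p.1 - x)) •
      (ρ (p.1 - x) - w (π (p.1 - x))) ∂V‖ ^ 2 ≤
      κ ^ 2 * (r ^ m * (r ^ m * II (ch π ρ x S w 0) (VK V Kt) g1 l))

/-- inverse step of the window -/
def Kw (F : ℝ) : ℝ := max 32 (8 * F)

/-- growth constant of the window -/
def Gw (C₀ F : ℝ) : ℝ := (Kw F + (120 * C₀ + 61)) * 8 + 5 / 4 + 40 * C₀

theorem log8_le : Real.log 8 ≤ 3 := by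
  have h1 : Real.log 8 = 3 * Real.log 2 := by
    rw [show (8:ℝ) = 2 ^ 3 by norm_num, Real.log_pow]; norm_num
  have := Real.log_two_lt_d9
  linarith

/-- **`StS` gives `Blk`**. -/
theorem blk_of_stS {U : Set (Euc k)} {V : Measure (Euc k × L k)} {x : Euc k} {r : ℝ}
    {π : Euc k →L[ℝ] Euc m} {ρ : Euc k →L[ℝ] Euc n} {S : ℝ} {w : Euc m → Euc n}
    {Kt : Set (Euc k)} {g1 : ℝ → ℝ} {l κ C₀ F : ℝ} {K : ℕ} (hC₀ : 1 ≤ C₀) (hr : 0 < r)
    (hκ : 0 ≤ κ) (h : StS U V x r π ρ S w Kt g1 l κ C₀ F K)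
    (hκG : κ * Real.exp (Gw C₀ F + 1) ≤ 1 / 8800) :
    Blk U V x r π ρ S w Kt g1 l (κ * Real.exp (Gw C₀ F)) (Gw C₀ F) K := by
  obtain ⟨lo, δ, wE, E, e, b, R, hlo, hδ, hw, hst, hsm, hF⟩ := h.step
  set I := II (ch π ρ x S w 0) (VK V Kt) g1 with hI
  have hK32 : 32 ≤ Kw F := le_max_left _ _
  have hG0 : 0 ≤ Gw C₀ F := by
    unfold Gw
    nlinarith
  have hGe : 1 ≤ Real.exp (Gw C₀ F) := Real.one_le_exp hG0
  have hlr : Real.log (r / 8) = Real.log r - Real.log 8 := Real.log_div hr.ne' (by norm_num)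
  have hlr12 : Real.log (12 * r) = Real.log 12 + Real.log r :=
    Real.log_mul (by norm_num) hr.ne'
  have hlog8 := log8_le
  have hlog80 : 0 ≤ Real.log 8 := Real.log_nonneg (by norm_num)
  have hlog12 : Real.log 12 ≤ 4 := by
    have h1 : Real.log 12 ≤ Real.log 16 := Real.log_le_log (by norm_num) (by norm_num)
    have h2 : Real.log 16 = 4 * Real.log 2 := by
      rw [show (16:ℝ) = 2 ^ 4 by norm_num, Real.log_pow]; norm_num
    have := Real.log_two_lt_d9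
    linarith
  have hlog120 : 0 ≤ Real.log 12 := Real.log_nonneg (by norm_num)
  have hll := h.ll
  have hlu := h.lu
  have hlen : l - Real.log (r / 8) ≤ 8 := by rw [hlr]; linarith
  have hab0 : Real.log (r / 8) ≤ l := by rw [hlr]; linarith
  have hwin := hst.window6 (a := Real.log (r / 8)) (y := 1 / 8800) (K := Kw F) (G := Gw C₀ F)
    hC₀ hδ hw hK32 (by norm_num) (by
      refine hlo.trans ?_
      have : 1 / Kw F ≤ 1 / 32 := one_div_le_one_div_of_le (by norm_num) hK32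
      linarith) hab0 (by linarith) (by
      unfold Gw
      have : 0 ≤ Kw F + (120 * C₀ + 61) := by linarith
      nlinarith) (by
      refine le_trans ?_ hκG
      have e1 : 1 ≤ Real.exp (Gw C₀ F + 1) := Real.one_le_exp (by linarith)
      have e2 : wE * Real.exp (Gw C₀ F + 1) / I l = wE / I l * Real.exp (Gw C₀ F + 1) := by ring
      rw [e2]
      calc δ + wE / I l * Real.exp (Gw C₀ F + 1)
          ≤ δ * Real.exp (Gw C₀ F + 1) + wE / I l * Real.exp (Gw C₀ F + 1) := by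
            have := le_mul_of_one_le_right hδ e1
            linarith
        _ = (δ + wE / I l) * Real.exp (Gw C₀ F + 1) := by ring
        _ ≤ κ * Real.exp (Gw C₀ F + 1) :=
            mul_le_mul_of_nonneg_right hsm (Real.exp_pos _).le) (by
      have : 8 * F ≤ Kw F := le_max_right _ _
      linarith) h.pos
  obtain ⟨-, h2, -, -, -, h6⟩ := hwin
  have hdbl : I l ≤ Real.exp (Gw C₀ F) * I (Real.log (r / 8)) := h2 _ ⟨le_rfl, hab0⟩
  have hpos : 0 < I (Real.log (r / 8)) := by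
    have h3 : 0 < Real.exp (Gw C₀ F) * I (Real.log (r / 8)) := h.pos.trans_le hdbl
    exact pos_of_mul_pos_right h3 (Real.exp_pos _).le
  have hκκ : κ ≤ κ * Real.exp (Gw C₀ F) := le_mul_of_one_le_right hκ hGe
  have hmon : I (Real.log (12 * r)) ≤ Real.exp (Gw C₀ F) * I l := by
    have h3 := h6 (Real.log (12 * r)) l (by rw [hlr, hlr12]; linarith) (by rw [hlr12]; linarith)
      le_rfl
    refine h3.trans (mul_le_mul_of_nonneg_right (Real.exp_le_exp.2 ?_) h.pos.le)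
    have h4 : l - Real.log (12 * r) ≤ 8 := by rw [hlr12]; linarith
    have h5 : (1:ℝ) / 8800 * (l - Real.log (12 * r)) ≤ 1 := by linarith
    refine h5.trans ?_
    unfold Gw
    nlinarith
  refine
    { frame := h.frame, gr := h.gr, d1 := fun X => (h.d1 X).trans hκκ,
      d2 := fun X => (h.d2 X).trans hκκ, w0 := h.w0.trans (by gcongr), ms := h.ms, lS := h.lS
      ll := h.ll, lu := h.lu, loc := h.loc, sup := ?_, pos := hpos, dbl := hdbl, mon := hmon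
      sml := ?_, mean := ?_ }
  · filter_upwards [h.sup] with p hp1 hp2
    refine (hp1 hp2).trans ?_
    gcongr
  · refine h.sml.trans ?_
    gcongr
  · intro ζ hζ1 hζ2 hζ3
    refine (h.mean ζ hζ1 hζ2 hζ3).trans ?_
    calc κ ^ 2 * (r ^ m * (r ^ m * I l))
        ≤ κ ^ 2 * (r ^ m * (r ^ m * (Real.exp (Gw C₀ F) * I (Real.log (r / 8))))) := by gcongr
      _ = κ ^ 2 * Real.exp (Gw C₀ F) * (r ^ m * (r ^ m * I (Real.log (r / 8)))) := by ring
      _ ≤ (κ * Real.exp (Gw C₀ F)) ^ 2 * (r ^ m * (r ^ m * I (Real.log (r / 8)))) := by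
          refine mul_le_mul_of_nonneg_right ?_ (by positivity)
          rw [mul_pow]
          refine mul_le_mul_of_nonneg_left ?_ (by positivity)
          nlinarith

/-- **(END)**: `Ref` from the one-step data of a state. -/
theorem ref_of_stS (m n k Q K : ℕ) (hm : 1 ≤ m) {g g1 g2 : ℝ → ℝ} {B bl : ℝ} (hg : Pf g g1 g2 B)
    (hB : 0 < B) (hbl : 0 < bl)
    (hlow : ∀ a t, 0 ≤ t → t ≤ a → a ≤ 1 → bl * (1 - a) ^ 2 ≤ -g1 t) {C₀ : ℝ} (hC₀ : 1 ≤ C₀) :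
    ∀ F : ℝ, ∃ C : ℝ, ∀ ε : ℝ, 0 < ε → ∃ κ : ℝ, 0 < κ ∧
      ∀ (U : Set (Euc k)) (V : Measure (Euc k × L k)), Stat m k U V → ∀ (x : Euc k) (r : ℝ), 0 < r →
        Metric.closedBall x (128 * r) ⊆ U → 1 ≤ Th m V x → ∀ P : L k,
        NearQ m V Q x (128 * r) κ P →
        ∀ (π : Euc k →L[ℝ] Euc m) (ρ : Euc k →L[ℝ] Euc n) (S : ℝ) (w : Euc m → Euc n)
          (Kt : Set (Euc k)) (l : ℝ),
          StS U V x r π ρ S w Kt g1 l κ C₀ F K →
          ∃ u : Euc m → Euc n, Ref V Q x r π ρ u K ε C := by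
  intro F
  obtain ⟨C, HC⟩ := ref_of_std m n k Q K hm hg hB (b := bl * (1 - (3 / 4) ^ 2) ^ 2)
    (mul_pos hbl (by norm_num)) (fun t h0 h1 => hlow _ t h0 h1 (by norm_num)) (2 * Gw C₀ F)
  refine ⟨C, ?_⟩
  intro ε hε
  obtain ⟨δ, hδ0, H⟩ := HC ε hε
  set M := Real.exp (Gw C₀ F) with hM
  have hG0 : 0 ≤ Gw C₀ F := by
    have : 32 ≤ Kw F := le_max_left _ _
    unfold Gw
    nlinarith
  have hM1 : 1 ≤ M := Real.one_le_exp hG0
  -- the constant
  obtain ⟨κ, hκ0, h1, h2, h3, h5⟩ : ∃ κ : ℝ, 0 < κ ∧ κ * Real.exp (Gw C₀ F + 1) ≤ 1 / 8800 ∧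
      κ * M ≤ 1 / 8 ∧ 2 * (κ * M) ≤ δ ∧ M * (κ * M) ^ 2 ≤ δ := by
    have ha : ∀ A : ℝ, 0 < A → ∀ p : ℝ → ℝ, Tendsto p (𝓝[>] 0) (𝓝 0) → ∀ᶠ κ in 𝓝[>] (0:ℝ), p κ ≤ A :=
      fun A hA p hp => (hp.eventually (gt_mem_nhds hA)).mono fun _ h => h.le
    have t1 : Tendsto (fun κ : ℝ => κ * Real.exp (Gw C₀ F + 1)) (𝓝[>] 0) (𝓝 0) := by
      refine tendsto_nhdsWithin_of_tendsto_nhds ?_
      have : Continuous fun κ : ℝ => κ * Real.exp (Gw C₀ F + 1) := by fun_prop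
      simpa using this.tendsto 0
    have t2 : Tendsto (fun κ : ℝ => κ * M) (𝓝[>] 0) (𝓝 0) := by
      refine tendsto_nhdsWithin_of_tendsto_nhds ?_
      have : Continuous fun κ : ℝ => κ * M := by fun_prop
      simpa using this.tendsto 0
    have t3 : Tendsto (fun κ : ℝ => 2 * (κ * M)) (𝓝[>] 0) (𝓝 0) := by
      refine tendsto_nhdsWithin_of_tendsto_nhds ?_
      have : Continuous fun κ : ℝ => 2 * (κ * M) := by fun_prop
      simpa using this.tendsto 0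
    have t4 : Tendsto (fun κ : ℝ => M * (κ * M) ^ 2) (𝓝[>] 0) (𝓝 0) := by
      refine tendsto_nhdsWithin_of_tendsto_nhds ?_
      have : Continuous fun κ : ℝ => M * (κ * M) ^ 2 := by fun_prop
      simpa using this.tendsto 0
    obtain ⟨κ, h1, h2, h3, h5, h6⟩ := ((ha (1 / 8800) (by norm_num) _ t1).and
      ((ha (1 / 8) (by norm_num) _ t2).and ((ha δ hδ0 _ t3).and
        ((ha δ hδ0 _ t4).and (self_mem_nhdsWithin (s := Ioi (0:ℝ)) (a := 0)))))).exists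
    exact ⟨κ, h6, h1, h2, h3, h5⟩
  refine ⟨κ, hκ0, ?_⟩
  intro U V hV x r hr hU hTh P hnear π ρ S w Kt l h
  have hblk := blk_of_stS hC₀ hr hκ0.le h h1
  have hstd := std_of_blk hU hr hg hblk (by positivity) h2 h3 (by rw [hM] at h5; exact h5)
  have hκδ : κ ≤ δ := (le_mul_of_one_le_right hκ0.le hM1).trans (by nlinarith)
  have hnear' : NearQ m V Q x (128 * r) δ P :=
    ⟨hnear.1, hnear.2.1.trans (by gcongr), hnear.2.2.trans (by gcongr)⟩
  exact H U V hV x r hr hU hTh P hnear' π ρ x w _ _ _ _ hstd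

end Crest.Agent.R234.End_395
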