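import Crest.Agent.R234.End9_395
import Crest.Agent.R234.End5_395

/-!
# Row 234 (helper395), (END), part 10: `Ref` from a state of the world

* `stS_of_mo` : `StS` for a reference of 518.
* `fin_mo` : field `fin` of `F10d_188.Thy` from 290's `GLP`, for what (END) needs of a state.
* `fin_sta` : the same for 518's `Sta`.
-/

set_option autoImplicit false
set_option linter.unusedSectionVars false
set_option linter.unusedVariables false

open MeasureTheory Set Filter Topology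
open scoped ENNReal NNReal ContDiff
open Crest.GeometryTopology.Submanifold Crest.Agent.R234.Vf_884
open Crest.Agent.R234.Strat3_842 (tilt height)
open Crest.Agent.R234.AS_456 (hp vp)
open Crest.Agent.R234.Main_456 Crest.Agent.R234.Top_395 Crest.Agent.R234.Stp_518
open Crest.Agent.R234.Gi_456 Crest.Agent.R234.Nb_290
open Crest.Agent.R234.MG_570 (MG)

noncomputable section

namespace Crest.Agent.R234.End_395

variable {m n k : ℕ}

local notation "adj" => ContinuousLinearMap.adjoint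

/-- `StS` for a reference. -/
theorem stS_of_mo {U : Set (Euc k)} {V : Measure (Euc k × L k)} {x : Euc k} {M : Mo m n k}
    {Ks K : ℕ} {r l κ κw η A C₀ F : ℝ} (hV : Stat m k U V) (hU : IsOpen U) (hr : 0 < r)
    (hf : Frame M.π M.ρ) (hg : Gr M.S M.w) (hκw : 0 ≤ κw)
    (h1 : ∀ X, ‖fderiv ℝ M.w X‖ ≤ κw) (h2 : ∀ X, M.S * ‖fderiv ℝ (fderiv ℝ M.w) X‖ ≤ κw)
    (h0 : ∀ X, ‖M.w X‖ ≤ M.S * κw)
    (hms : ∀ X ∈ Metric.ball (0 : Euc m) (Real.exp l), Msys M.w X = 0)
    (hA : 1 ≤ A) (hSA : M.S ≤ A * r) (hlS : Real.exp l ≤ M.S)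
    (hll : Real.log r + 4 ≤ l) (hlu : l ≤ Real.log r + 5)
    (hκ8 : κ ≤ 1 / 8) (hAκ : A * κw ≤ κ) (hη : 0 ≤ η) (hη2 : 2 * (A * η) ≤ κ)
    (hη3 : A ^ (Ks + m) * η ≤ κ) (hsub : Metric.closedBall x (8 * M.S) ⊆ U)
    (hae : ∀ᵐ p ∂V, p.1 ∈ Metric.ball x (4 * M.S) → ‖M.ρ (p.1 - x)‖ ≤ 1 / 16 * M.S)
    (hsup : SupLe M x V (Real.exp (l - M.lb)) η) (hKs : Ks ≤ K)
    (hmean : ∀ ζ : Euc m → ℝ, ContDiff ℝ ∞ ζ →
      tsupport ζ ⊆ Metric.ball 0 (Real.exp (l - M.lb)) →
      (∀ j ≤ Ks, ∀ z, ‖iteratedFDeriv ℝ j ζ z‖ ≤ 1) →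
      ‖M.mean x V ζ‖ ≤ M.S ^ m * (η * √(M.I x V l)))
    (hpos : 0 < M.I x V l) (hsml : M.I x V l ≤ κ ^ 2 * r ^ 2)
    (hstep : ∃ (lo δ wE : ℝ) (E e b R : ℝ → ℝ), lo ≤ Real.log (r / 8) - 1 / 32 ∧ 0 ≤ δ ∧
      0 ≤ wE ∧ StepW C₀ lo l δ wE (M.I x V) E e b R ∧ δ + wE / M.I x V l ≤ κ ∧
      Fr E (M.I x V) l ≤ F) :
    StS U V x r M.π M.ρ M.S M.w (M.reg x) GI_640.g31 l κ C₀ F K := by
  have hS := M.S_pos
  have hκ0 : 0 ≤ κ := le_trans (by positivity) hAκ
  have hκwκ : κw ≤ κ := by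
    have : κw ≤ A * κw := le_mul_of_one_le_left hκw hA
    linarith
  have hSκ : M.S * κw ≤ κ * r := by
    calc M.S * κw ≤ A * r * κw := mul_le_mul_of_nonneg_right hSA hκw
      _ = A * κw * r := by ring
      _ ≤ κ * r := mul_le_mul_of_nonneg_right hAκ hr.le
  have hSη : 2 * (M.S * η) ≤ κ * r := by
    calc 2 * (M.S * η) ≤ 2 * (A * r * η) := by gcongr
      _ = 2 * (A * η) * r := by ring
      _ ≤ κ * r := mul_le_mul_of_nonneg_right hη2 hr.le
  have hκr : κ * r ≤ r / 8 := by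
    have := mul_le_mul_of_nonneg_right hκ8 hr.le
    linarith
  have he4 : 54 * r ≤ Real.exp l := by
    have e1 : Real.exp (Real.log r + 4) ≤ Real.exp l := Real.exp_le_exp.2 hll
    rw [Real.exp_add, Real.exp_log hr] at e1
    have e2 : (54 : ℝ) ≤ Real.exp 4 := by
      have h3 : (2.7182818283 : ℝ) < Real.exp 1 := Real.exp_one_gt_d9
      have h4 : Real.exp 4 = Real.exp 1 ^ 4 := by rw [← Real.exp_nat_mul]; norm_num
      rw [h4]
      calc (54 : ℝ) ≤ 2.7182818283 ^ 4 := by norm_num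
        _ ≤ Real.exp 1 ^ 4 := pow_le_pow_left₀ (by norm_num) h3.le 4
    nlinarith
  have hSr : 54 * r ≤ M.S := he4.trans hlS
  have hel : M.S * Real.exp (l - M.lb) = Real.exp l := by
    unfold Mo.S
    rw [← Real.exp_add]
    congr 1
    ring
  have h08 : ∀ X, ‖M.w X‖ ≤ M.S * (1 / 8) := fun X =>
    (h0 X).trans (mul_le_mul_of_nonneg_left (hκwκ.trans hκ8) hS.le)
  -- points of the region
  have hreg : ∀ z ∈ M.reg x, z ∈ tube M.π M.ρ x M.S M.w ∧
      ‖yy M.π M.ρ x M.S M.w z‖ ≤ M.S / 2 ∧ ‖M.ρ (z - x)‖ ≤ M.S := by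
    intro z hz
    unfold Mo.reg at hz
    rw [hg.mem_Kc hf (by linarith)] at hz
    obtain ⟨ht, -, h3⟩ := hz
    refine ⟨ht, h3, ?_⟩
    have h4 := hg.le_norm_yy ht
    have h5 := h08 (M.π (z - x))
    have h6 := norm_le_norm_add_norm_sub' (M.ρ (z - x)) (M.w (M.π (z - x)))
    linarith
  refine
    { frame := hf, gr := hg, d1 := fun X => (h1 X).trans hκwκ,
      d2 := fun X => (h2 X).trans hκwκ, w0 := (h0 0).trans hSκ, ms := hms, lS := hlS
      ll := hll, lu := hlu, loc := mo_loc hV hU hf hg h08 hsub hae (by linarith)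
      sup := ?_, step := hstep, pos := hpos, sml := hsml, mean := ?_ }
  · have hm1 : MeasurableSet (M.reg x ×ˢ (univ : Set (Vf_884.L k))) :=
      (hg.isCompact_Kc 0 _ _).isClosed.measurableSet.prod MeasurableSet.univ
    show ∀ᵐ p ∂(V.restrict (M.reg x ×ˢ univ)), _
    rw [ae_restrict_iff' hm1]
    filter_upwards [hsup] with p hp hpm hpx
    obtain ⟨ht, h3, h4⟩ := hreg p.1 hpm.1
    have h5 : ‖foot M.π M.ρ x M.S M.w p.1‖ ≤ 12 * r := (le_norm_x p.1).trans hpx
    have h6 := hg.norm_foot_sub' ht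
    have h7 : ‖fderiv ℝ M.w (foot M.π M.ρ x M.S M.w p.1)‖ * ‖yy M.π M.ρ x M.S M.w p.1‖ ≤
        κw * (M.S / 2) := mul_le_mul (h1 _) h3 (norm_nonneg _) hκw
    have h8 : ‖M.π (p.1 - x)‖ ≤ 13 * r := by
      have := norm_le_norm_add_norm_sub (foot M.π M.ρ x M.S M.w p.1) (M.π (p.1 - x))
      nlinarith
    have h9 := hp (by rw [hel]; linarith) h4
    rw [Mo.hgt_eq] at h9
    have h10 := hg.norm_yy_le ht
    have h11 := adj_le hg (foot M.π M.ρ x M.S M.w p.1) (yy M.π M.ρ x M.S M.w p.1)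
    rw [two_f, nu_sq hf]
    set Y := ‖yy M.π M.ρ x M.S M.w p.1‖ with hY
    have hY0 : 0 ≤ Y := norm_nonneg _
    have hY1 : Y ≤ 9 / 8 * (M.S * η) := by linarith
    have hA0 := norm_nonneg (adj (fderiv ℝ M.w (foot M.π M.ρ x M.S M.w p.1))
      (yy M.π M.ρ x M.S M.w p.1))
    have hSη0 : 0 ≤ M.S * η := by positivity
    calc Y ^ 2 + ‖adj (fderiv ℝ M.w (foot M.π M.ρ x M.S M.w p.1))
          (yy M.π M.ρ x M.S M.w p.1)‖ ^ 2
        ≤ Y ^ 2 + (1 / 8 * Y) ^ 2 := by gcongr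
      _ = 65 / 64 * Y ^ 2 := by ring
      _ ≤ 65 / 64 * (9 / 8 * (M.S * η)) ^ 2 := by gcongr
      _ ≤ (2 * (M.S * η)) ^ 2 := by nlinarith [sq_nonneg (M.S * η)]
      _ ≤ (κ * r) ^ 2 := pow_le_pow_left₀ (by positivity) hSη 2
      _ = κ ^ 2 * r ^ 2 := by ring
  · intro ζ hζ1 hζ2 hζ3
    have h8r : 8 * r ≤ Real.exp l := by linarith
    have hes : Real.exp l / M.S = Real.exp (l - M.lb) := by
      rw [← hel]
      field_simp
    have hm1 : MeasurableSet (M.reg x ×ˢ (univ : Set (Vf_884.L k))) :=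
      (hg.isCompact_Kc 0 _ _).isClosed.measurableSet.prod MeasurableSet.univ
    have key := mean_scale (π := M.π) (ρ := M.ρ) (x := x) (S := M.S) (V := V)
      (A := M.reg x ×ˢ (univ : Set (Vf_884.L k))) (r := r)
      (μ := M.S ^ m * (η * √(M.I x V l))) (l := l) (Ks := Ks) (K := K) hr (by linarith) hKs h8r
      hm1 (hz := fun z => M.ρ (z - x) - M.w (M.π (z - x))) ?_ ?_ ζ hζ1 hζ2 hζ3
    · refine (pow_le_pow_left₀ (norm_nonneg _) key 2).trans ?_
      have e1 : M.S / r ≤ A := by rwa [div_le_iff₀ hr]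
      have e2 : (M.S / r) ^ Ks * (M.S ^ m * (η * √(M.I x V l))) ≤
          κ * (r ^ m * √(M.I x V l)) := by
        have e3 : M.S ^ m = (M.S / r) ^ m * r ^ m := by
          rw [← mul_pow, div_mul_cancel₀ _ hr.ne']
        rw [e3]
        calc (M.S / r) ^ Ks * ((M.S / r) ^ m * r ^ m * (η * √(M.I x V l)))
            = ((M.S / r) ^ (Ks + m) * η) * (r ^ m * √(M.I x V l)) := by rw [pow_add]; ring
          _ ≤ (A ^ (Ks + m) * η) * (r ^ m * √(M.I x V l)) := by gcongr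
          _ ≤ κ * (r ^ m * √(M.I x V l)) :=
              mul_le_mul_of_nonneg_right hη3 (by positivity)
      refine (pow_le_pow_left₀ (by positivity) e2 2).trans (le_of_eq ?_)
      rw [mul_pow, mul_pow, Real.sq_sqrt hpos.le]
      show κ ^ 2 * ((r ^ m) ^ 2 * M.I x V l) = κ ^ 2 * (r ^ m * (r ^ m * M.I x V l))
      ring
    · filter_upwards [hsup] with p hp hpi
      have hpi' : ‖M.π (p.1 - x)‖ ≤ M.S * Real.exp (l - M.lb) := by rw [hel]; linarith
      have hρ : ‖M.ρ (p.1 - x)‖ ≤ M.S → ‖M.ρ (p.1 - x) - M.w (M.π (p.1 - x))‖ ≤ M.S * η ∧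
          ‖M.ρ (p.1 - x)‖ ≤ r / 4 := by
        intro hρ
        have h9 := hp hpi' hρ
        rw [Mo.hgt_eq] at h9
        refine ⟨h9, ?_⟩
        have h10 := h0 (M.π (p.1 - x))
        have h11 := norm_le_norm_add_norm_sub' (M.ρ (p.1 - x)) (M.w (M.π (p.1 - x)))
        linarith
      constructor
      · intro hpm
        obtain ⟨ht, h3, h4⟩ := hreg p.1 hpm.1
        refine ⟨⟨hpi, ?_⟩, mem_univ _⟩
        have := (hρ h4).2
        linarith
      · rintro ⟨⟨-, h3⟩, -⟩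
        refine ⟨?_, mem_univ _⟩
        obtain ⟨h9, h10⟩ := hρ (by linarith)
        have ht : p.1 ∈ tube M.π M.ρ x M.S M.w := by
          show ‖M.ρ (p.1 - x) - M.w (M.π (p.1 - x))‖ < M.S
          linarith
        unfold Mo.reg
        rw [hg.mem_Kc hf (by linarith)]
        refine ⟨ht, ?_, ?_⟩
        · rw [sub_zero]
          have h4 := hg.norm_foot_sub ht
          have h5 := norm_le_norm_add_norm_sub' (foot M.π M.ρ x M.S M.w p.1) (M.π (p.1 - x))
          linarith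
        · have := hg.norm_yy_le ht
          linarith
    · intro ζ' h3 h4 h5
      rw [hes] at h4
      exact hmean ζ' h3 h4 h5

theorem StS.mono {U : Set (Euc k)} {V : Measure (Euc k × L k)} {x : Euc k} {r : ℝ}
    {π : Euc k →L[ℝ] Euc m} {ρ : Euc k →L[ℝ] Euc n} {S : ℝ} {w : Euc m → Euc n}
    {Kt : Set (Euc k)} {g1 : ℝ → ℝ} {l κ κ' C₀ F : ℝ} {K : ℕ}
    (h : StS U V x r π ρ S w Kt g1 l κ C₀ F K) (hr : 0 < r) (hκ : 0 ≤ κ) (hκκ : κ ≤ κ') :
    StS U V x r π ρ S w Kt g1 l κ' C₀ F K := by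
  have hp := h.pos
  refine
    { frame := h.frame, gr := h.gr, d1 := fun X => (h.d1 X).trans hκκ,
      d2 := fun X => (h.d2 X).trans hκκ, w0 := h.w0.trans (by gcongr), ms := h.ms, lS := h.lS
      ll := h.ll, lu := h.lu, loc := h.loc, sup := ?_, step := ?_, pos := h.pos
      sml := h.sml.trans (by gcongr), mean := ?_ }
  · filter_upwards [h.sup] with p h1 h2
    exact (h1 h2).trans (by gcongr)
  · obtain ⟨lo, δ, wE, E, e, b, R, h1, h2, h3, h4, h5, h6⟩ := h.step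
    exact ⟨lo, δ, wE, E, e, b, R, h1, h2, h3, h4, h5.trans hκκ, h6⟩
  · intro ζ h1 h2 h3
    refine (h.mean ζ h1 h2 h3).trans ?_
    gcongr

/-- what (END) needs of a state. -/
structure Fst (c : Cn) (V : Measure (Euc k × L k)) (x : Euc k) (M : Mo m n k) (l : ℝ) : Prop where
  frame : Frame M.π M.ρ
  κ0 : 0 ≤ M.κ
  mg : MG c.N M.κ (M.rad l) M.u
  lo : M.lb - c.T ≤ l
  hl : l ≤ M.lb - 1 / 8
  pos : 0 < M.I x V l
  mean : MeanLe c M x V (M.rad l) (Real.exp (-(lam (M.I x V) l / 4)) * Real.sqrt (M.I x V l))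
  sup : SupLe M x V (Real.exp (l - M.lb)) (Real.exp (-(lam (M.I x V) l / 4)))
  grow : Real.log (M.I x V (l + 1 / M.K)) ≤ Real.log (M.I x V l) + c.G
  K32 : 32 ≤ M.K
  KL : M.K ≤ 2 * lam (M.I x V) l ^ 2

theorem le_rad (M : Mo m n k) (hK : 32 ≤ M.K) (l : ℝ) :
    Real.exp (l + 1 / M.K - M.lb) ≤ M.rad l := by
  unfold Mo.rad
  refine le_mul_of_one_le_right (Real.exp_pos _).le ?_
  have : 0 ≤ 1 / (8 * M.K) := by positivity
  linarith

theorem le_rad' (M : Mo m n k) (hK : 32 ≤ M.K) (l : ℝ) : Real.exp (l - M.lb) ≤ M.rad l := by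
  refine le_trans (Real.exp_le_exp.2 ?_) (le_rad M hK l)
  have : 0 ≤ 1 / M.K := by positivity
  linarith

theorem fst_of_sta {c : Cn} {C : F10a_188.Cst} {κm : ℝ} {V : Measure (Euc k × L k)} {Q : ℝ}
    {x : Euc k} {M : Mo m n k} {l : ℝ} (h : Sta c C κm V Q x M l) : Fst c V x M l where
  frame := h.cls.frame
  κ0 := h.cls.κ0
  mg := h.cls.mg
  lo := h.lo
  hl := h.rcd.hl
  pos := h.pos
  mean := h.mean
  sup := by
    have h1 := h.sup
    unfold SupLe at h1 ⊢
    filter_upwards [h1] with p hp h2 h3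
    exact hp (h2.trans (mul_le_mul_of_nonneg_left (le_rad' M h.K32 l) M.S_pos.le)) h3
  grow := h.grow
  K32 := h.K32
  KL := h.KL

set_option maxHeartbeats 1000000 in
/-- **(END)** for the references of 518. -/
theorem fin_mo (hG : GLP) (m n Q : ℕ) (hm : 3 ≤ m) (hn : 1 ≤ n) (hQ : 1 ≤ Q) :
    ∃ N₀ : ℕ, ∀ c : Cn, N₀ ≤ c.N → 0 ≤ c.T → ∀ K : ℕ, c.Ks ≤ K → ∀ F : ℝ, ∃ C : ℝ, ∀ ε : ℝ,
      0 < ε → ∃ mu κ₁ ε' : ℝ, 0 < κ₁ ∧ 0 < ε' ∧
        ∀ (U : Set (Euc (m + n))) (D : VarifoldData m (m + n)) (x : Euc (m + n)),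
          IsOpen U → IsIntegralVarifoldIn U D → IsStationaryIn U D →
          Th m (VD D) x = (Q : ℝ≥0∞) → ∀ (r : ℝ) (P' : Vf_884.L (m + n)), 0 < r →
          Metric.closedBall x (8 * Real.exp (c.T + 5) * r) ⊆ U →
          NearQ m (VD D) Q x (8 * Real.exp (c.T + 5) * r) ε' P' →
          ∀ (M : Mo m n (m + n)) (l : ℝ), Real.log r + 4 ≤ l → l ≤ Real.log r + 5 →
            Fst c (VD D) x M l → 1 + fx (M.E x (VD D) Q) (M.I x (VD D)) l ≤ F →
            M.kap l ≤ κ₁ → mu ≤ lam (M.I x (VD D)) l →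
            ∃ u : Euc m → Euc n, Ref (VD D) Q x r M.π M.ρ u K ε C := by
  obtain ⟨N₁, HN⟩ := hG m n Q hm hn hQ
  refine ⟨max N₁ 2, ?_⟩
  intro c hcN hcT K hKs F
  have hN1 : N₁ ≤ c.N := (le_max_left _ _).trans hcN
  have hN2 : 2 ≤ c.N := (le_max_right _ _).trans hcN
  obtain ⟨Λ, hΛ, HP⟩ := pack_mo m n (m + n) c.N Q (by omega) hQ c.T hcT
  obtain ⟨C₀, Cδ, hC₀, hCδ, HG⟩ := HN c.N hN1 (c.T + 9) Λ
  obtain ⟨κg, εg, Lg, hκg, hεg, HG'⟩ := HG 1
  obtain ⟨Cg, hCg, Hgr⟩ := mo_gr m n c.N hN2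
  obtain ⟨C, HC⟩ := ref_of_stS m n (m + n) Q K (by omega) GL_394.pf_cubic (by norm_num)
    (bl := 3) (by norm_num) hlow_cubic hC₀ F
  refine ⟨C, ?_⟩
  intro ε hε
  obtain ⟨κr, hκr, HR⟩ := HC ε hε
  obtain ⟨om, κp, ηp, hom, hom1, hκp, hηp, HP'⟩ := HP (min εg (1 / 16)) (by positivity)
    (lt_of_le_of_lt (min_le_right _ _) (by norm_num))
  set κ := min κr (1 / 8) with hκdef
  have hκ0 : 0 < κ := lt_min hκr (by norm_num)
  have hκ8 : κ ≤ 1 / 8 := min_le_right _ _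
  have hκκr : κ ≤ κr := min_le_left _ _
  set A := Real.exp (c.T + 5) with hA
  have hA1 : 1 ≤ A := Real.one_le_exp (by linarith)
  have hA0 : 0 < A := by linarith
  -- smallness of the class
  set X := min (min κg κp) (min (κ / (8 * A * Cg)) (κ / (2 * (Cδ + 1) * (1 + Cg)))) with hX
  have hX0 : 0 < X := by positivity
  have hXg : X ≤ κg := (min_le_left _ _).trans (min_le_left _ _)
  have hXp : X ≤ κp := (min_le_left _ _).trans (min_le_right _ _)
  have hXA : A * (Cg * X) ≤ κ / 8 := by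
    have h1 : X ≤ κ / (8 * A * Cg) := (min_le_right _ _).trans (min_le_left _ _)
    rw [le_div_iff₀ (by positivity)] at h1
    linarith
  have hXδ : Cδ * ((1 + Cg) * X) ≤ κ / 2 := by
    have h1 : X ≤ κ / (2 * (Cδ + 1) * (1 + Cg)) := (min_le_right _ _).trans (min_le_right _ _)
    rw [le_div_iff₀ (by positivity)] at h1
    have h2 : 0 ≤ (1 + Cg) * X := by positivity
    linarith
  -- smallness of the heights
  obtain ⟨mu, hmu1, hmu2, hmu3, hmu4, hmu5⟩ : ∃ mu : ℝ,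
      2 * (A * Real.exp (-(mu / 4))) ≤ κ ∧ A ^ (c.Ks + m) * Real.exp (-(mu / 4)) ≤ κ ∧
      Real.exp (-(mu / 4)) ≤ ηp ∧ Real.exp 10 * Real.exp (-mu) ≤ κ ^ 2 ∧
      max (max Lg |c.G|) (max 8 (2 * Real.exp c.G / κ)) ≤ mu - c.G := by
    have ht : Tendsto (fun mu : ℝ => Real.exp (-(mu / 4))) atTop (𝓝 0) := by
      refine Real.tendsto_exp_neg_atTop_nhds_zero.comp ?_
      exact tendsto_id.atTop_div_const (by norm_num)
    have ht' : Tendsto (fun mu : ℝ => Real.exp (-mu)) atTop (𝓝 0) :=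
      Real.tendsto_exp_neg_atTop_nhds_zero
    have t1 : Tendsto (fun mu : ℝ => 2 * (A * Real.exp (-(mu / 4)))) atTop (𝓝 0) := by
      simpa using (ht.const_mul A).const_mul 2
    have t2 : Tendsto (fun mu : ℝ => A ^ (c.Ks + m) * Real.exp (-(mu / 4))) atTop (𝓝 0) := by
      simpa using ht.const_mul (A ^ (c.Ks + m))
    have t4 : Tendsto (fun mu : ℝ => Real.exp 10 * Real.exp (-mu)) atTop (𝓝 0) := by
      simpa using ht'.const_mul (Real.exp 10)
    have hk2 : 0 < κ ^ 2 := by positivity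
    obtain ⟨mu, h1, h2, h3, h4, h5⟩ := ((t1.eventually (gt_mem_nhds hκ0)).and
      ((t2.eventually (gt_mem_nhds hκ0)).and ((ht.eventually (gt_mem_nhds hηp)).and
        ((t4.eventually (gt_mem_nhds hk2)).and
          (eventually_ge_atTop (max (max Lg |c.G|) (max 8 (2 * Real.exp c.G / κ)) + c.G)))))).exists
    exact ⟨mu, h1.le, h2.le, h3.le, h4.le, by linarith⟩
  set B := (8 * A) ^ (m + 2) with hB
  have hB1 : 1 ≤ B := one_le_pow₀ (by linarith)
  have hB0 : 0 < B := by linarith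
  refine ⟨mu, X * Real.exp (-c.T), min om κr / B, by positivity, by positivity, ?_⟩
  intro U D x hU hint hst hTh r P' hr hsub hnear M l hl1 hl2 hs hF hkap hlam
  have hV : Stat m (m + n) U (VD D) := stat_VD hint hst
  have hS := M.S_pos
  have hR : 0 < 8 * A * r := by positivity
  have hKp : (0:ℝ) < M.K := by have := hs.K32; linarith
  have hK' : 1 / M.K ≤ 1 / 32 := one_div_le_one_div_of_le (by norm_num) hs.K32
  have hK0 : 0 < 1 / M.K := by positivity
  have hε'0 : 0 ≤ min om κr / B := by positivity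
  have hε'1 : min om κr / B ≤ om := (div_le_self (by positivity) hB1).trans (min_le_left _ _)
  have hε'2 : B * (min om κr / B) ≤ om := by
    rw [mul_div_cancel₀ _ hB0.ne']
    exact min_le_left _ _
  have hε'3 : B * (min om κr / B) ≤ κr := by
    rw [mul_div_cancel₀ _ hB0.ne']
    exact min_le_right _ _
  have hε'4 : min om κr / B ≤ κr := (div_le_self (by positivity) hB1).trans (min_le_right _ _)
  -- the class
  have hκX : M.κ ≤ X := by
    unfold Mo.kap at hkap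
    have h1 : Real.exp (-c.T) ≤ Real.exp (-(4 / 5 * (M.lb - l))) := by
      refine Real.exp_le_exp.2 ?_
      have := hs.lo
      linarith
    have h2 : M.κ * Real.exp (-c.T) ≤ X * Real.exp (-c.T) :=
      (mul_le_mul_of_nonneg_left h1 hs.κ0).trans hkap
    exact le_of_mul_le_mul_right h2 (Real.exp_pos _)
  have hCgκ : Cg * M.κ ≤ Cg * X := mul_le_mul_of_nonneg_left hκX (by linarith)
  have hAκ : A * (Cg * M.κ) ≤ κ := by
    have : A * (Cg * M.κ) ≤ A * (Cg * X) := mul_le_mul_of_nonneg_left hCgκ hA0.le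
    linarith
  have hCg0 : 0 ≤ Cg * M.κ := mul_nonneg (by linarith) hs.κ0
  have hCg8 : Cg * M.κ ≤ 1 / 8 := by
    have : Cg * M.κ ≤ A * (Cg * M.κ) := le_mul_of_one_le_left hCg0 hA1
    linarith
  obtain ⟨hg, hd1, hd2, hw0, hdu⟩ := Hgr (m + n) M _ hs.κ0 hs.mg hCg8
  -- sizes
  have hlS : Real.exp l ≤ M.S := Real.exp_le_exp.2 (by have := hs.hl; linarith)
  have hSA : M.S ≤ A * r := by
    calc M.S ≤ Real.exp (c.T + 5 + Real.log r) :=
          Real.exp_le_exp.2 (by have := hs.lo; linarith)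
      _ = A * r := by rw [Real.exp_add, Real.exp_log hr]
  have h8S : 8 * M.S ≤ 8 * A * r := by linarith
  have hrS : r ≤ M.S := by
    refine le_trans ?_ hlS
    calc r = Real.exp (Real.log r) := (Real.exp_log hr).symm
      _ ≤ Real.exp l := Real.exp_le_exp.2 (by linarith)
  have hsub8 : Metric.closedBall x (8 * M.S) ⊆ U :=
    (Metric.closedBall_subset_closedBall h8S).trans hsub
  -- flatness
  have hrat : rat m (VD D) x (8 * M.S) ≤ (Q : ℝ≥0∞) + ENNReal.ofReal om := by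
    refine (rat_mono hV (by omega) (by positivity) h8S
      (Metric.ball_subset_closedBall.trans hsub)).trans (hnear.2.2.trans ?_)
    gcongr
  have hflat : FlatAt m (VD D) x om (8 * M.S) := by
    refine F10d_188.FlatAt.mono
      (F10d_188.flat_of_near hV hsub hnear (by positivity) h8S) ?_
    refine le_trans (mul_le_mul_of_nonneg_right ?_ hε'0) hε'2
    refine pow_le_pow_left₀ (by positivity) ?_ _
    rw [div_le_iff₀ (by positivity)]
    have : 8 * A * r ≤ 8 * A * (8 * M.S) := by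
      refine mul_le_mul_of_nonneg_left ?_ (by positivity)
      linarith
    exact this
  have hη : Real.exp (-(lam (M.I x (VD D)) l / 4)) ≤ Real.exp (-(mu / 4)) :=
    Real.exp_le_exp.2 (by linarith)
  have hsup1 : SupLe M x (VD D) (Real.exp (l - M.lb)) ηp := by
    have h1 := hs.sup
    unfold SupLe at h1 ⊢
    filter_upwards [h1] with p hp h2 h3
    refine (hp h2 h3).trans (mul_le_mul_of_nonneg_left ?_ hS.le)
    linarith
  have hpack := HP' U D x M l _ hU hint hst hTh hsub8 hrat hs.frame hs.κ0 (hκX.trans hXp) hs.mg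
    hs.lo hsup1 hflat
  have hae : ∀ᵐ p ∂(VD D), p.1 ∈ Metric.ball x (4 * M.S) → ‖M.ρ (p.1 - x)‖ ≤ 1 / 16 * M.S := by
    filter_upwards [hpack.supae] with p hp h1
    refine (hp h1).trans (mul_le_mul_of_nonneg_right (min_le_right _ _) hS.le)
  have hsit : Sit U D Q x M εg Λ :=
    ⟨hU, hint, hst, hQ, hTh, hsub8, FlatPack.mono hpack hS.le (min_le_left _ _)⟩
  -- growth of `I`
  set I := M.I x (VD D) with hI
  set cT := l + 1 / M.K with hcTd
  have hloc2 : GL_394.Loc (M.ch x) U (tube M.π M.ρ x M.S M.w) (M.reg x) (VD D) l :=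
    mo_loc hV hU hs.frame hg (fun X => (hw0 X).trans (mul_le_mul_of_nonneg_left hCg8 hS.le)) hsub8
      hae (by linarith)
  have hmono := mo_mono hs.frame hg hloc2 (l := l) (l' := cT) (by linarith)
  have hIc : 0 < I cT := by
    have h1 : 0 < Real.exp (m * (cT - l)) * I cT := hs.pos.trans_le hmono
    exact pos_of_mul_pos_right h1 (Real.exp_pos _).le
  have hIG : I cT ≤ Real.exp c.G * I l := by
    have h1 := hs.grow
    have h2 : 0 < I l := hs.pos
    calc I cT = Real.exp (Real.log (I cT)) := (Real.exp_log hIc).symm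
      _ ≤ Real.exp (c.G + Real.log (I l)) := Real.exp_le_exp.2 (by linarith)
      _ = Real.exp c.G * I l := by rw [Real.exp_add, Real.exp_log h2]
  have hlamc : lam I l - c.G ≤ lam I cT := by
    have h1 := hs.grow
    show 2 * l - Real.log (I l) - c.G ≤ 2 * cT - Real.log (I cT)
    have : l ≤ cT := by linarith
    linarith
  have hge : max (max Lg |c.G|) (max 8 (2 * Real.exp c.G / κ)) ≤ lam I cT := by linarith
  have hg1 : Lg ≤ lam I cT := ((le_max_left _ _).trans (le_max_left _ _)).trans hge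
  have hg2 : |c.G| ≤ lam I cT := ((le_max_right _ _).trans (le_max_left _ _)).trans hge
  have hg3 : 8 ≤ lam I cT := ((le_max_left _ _).trans (le_max_right _ _)).trans hge
  have hg4 : 2 * Real.exp c.G / κ ≤ lam I cT :=
    ((le_max_right _ _).trans (le_max_right _ _)).trans hge
  have hKc : M.K ≤ lam I cT ^ 3 := by
    have h1 := hs.KL
    have h2 : lam I l ≤ 2 * lam I cT := by
      have := le_abs_self c.G
      linarith
    have h3 : 0 ≤ lam I l := by
      have h5 := neg_abs_le c.G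
      have h4 : mu - c.G ≤ lam I l - c.G := by linarith
      have h6 : |c.G| ≤ lam I l - c.G :=
        (((le_max_right _ _).trans (le_max_left _ _)).trans hmu5).trans h4
      linarith
    calc M.K ≤ 2 * lam I l ^ 2 := h1
      _ ≤ 2 * (2 * lam I cT) ^ 2 := by gcongr
      _ = 8 * lam I cT ^ 2 := by ring
      _ ≤ lam I cT * lam I cT ^ 2 := by gcongr
      _ = lam I cT ^ 3 := by ring
  -- the step
  have hradm : MG c.N M.κ (Real.exp (cT - M.lb)) M.u :=
    hs.mg.mono le_rfl (le_rad M hs.K32 l)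
  set a := Real.log (r / 8) - 1 / 32 with ha
  have hlog8 : Real.log 8 ≤ 3 := log8_le
  have hlog80 : 0 ≤ Real.log 8 := Real.log_nonneg (by norm_num)
  have ha1 : a = Real.log r - Real.log 8 - 1 / 32 := by
    rw [ha, Real.log_div hr.ne' (by norm_num)]
  have hcTl : cT - 1 / M.K = l := by rw [hcTd]; ring
  obtain ⟨Rf, w, hw, hwI, hstep⟩ := HG' U D x M a cT M.K hsit hs.κ0 (hκX.trans hXg) hradm
    (by have := hs.K32; linarith) (by rw [hcTl, ha1]; linarith)
    (by have := hs.lo; rw [ha1]; linarith) (by have := hs.hl; linarith) hIc hg1 hKc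
  rw [hcTl] at hstep
  set δ := Cδ * (M.κ * Real.exp (cT - M.lb) + ‖fderiv ℝ M.u 0‖) with hδ
  have hδ0 : 0 ≤ δ := by
    have := hs.κ0
    positivity
  have hδκ : δ ≤ κ / 2 := by
    have e1 : Real.exp (cT - M.lb) ≤ 1 := Real.exp_le_one_iff.2 (by have := hs.hl; linarith)
    calc δ ≤ Cδ * (M.κ * 1 + Cg * M.κ) := by
          rw [hδ]
          have := hs.κ0
          gcongr
          exact hdu 0
      _ = Cδ * ((1 + Cg) * M.κ) := by ring
      _ ≤ Cδ * ((1 + Cg) * X) := by gcongr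
      _ ≤ κ / 2 := hXδ
  have hwκ : w / I l ≤ κ / 2 := by
    rw [div_le_iff₀ hs.pos]
    have hl0 : 0 < lam I cT := by linarith
    have e1 : (lam I cT)⁻¹ * Real.exp c.G ≤ κ / 2 := by
      rw [inv_mul_le_iff₀ hl0]
      rw [div_le_iff₀ hκ0] at hg4
      linarith
    calc w ≤ (lam I cT ^ 1)⁻¹ * I cT := hwI
      _ ≤ (lam I cT ^ 1)⁻¹ * (Real.exp c.G * I l) := by gcongr
      _ = ((lam I cT)⁻¹ * Real.exp c.G) * I l := by rw [pow_one]; ring
      _ ≤ κ / 2 * I l := mul_le_mul_of_nonneg_right e1 hs.pos.le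
  -- heights
  have hsml : I l ≤ κ ^ 2 * r ^ 2 := by
    have e1 : Real.log (I l) ≤ 2 * l - mu := by
      have : mu ≤ 2 * l - Real.log (I l) := hlam
      linarith
    calc I l = Real.exp (Real.log (I l)) := (Real.exp_log hs.pos).symm
      _ ≤ Real.exp (2 * (Real.log r + 5) - mu) := Real.exp_le_exp.2 (by linarith)
      _ = Real.exp 10 * Real.exp (-mu) * Real.exp (Real.log r) ^ 2 := by
          rw [← Real.exp_add, ← Real.exp_nat_mul, ← Real.exp_add]
          congr 1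
          push_cast
          ring
      _ ≤ κ ^ 2 * r ^ 2 := by
          rw [Real.exp_log hr]
          gcongr
  set η := Real.exp (-(lam I l / 4)) with hηd
  have hη0 : 0 ≤ η := (Real.exp_pos _).le
  have hms : ∀ X ∈ Metric.ball (0 : Euc m) (Real.exp l), Msys M.w X = 0 := by
    intro Y hY
    refine mo_ms hs.mg Y (Metric.ball_subset_ball ?_ hY)
    have e1 : M.S * Real.exp (l - M.lb) = Real.exp l := by
      unfold Mo.S
      rw [← Real.exp_add]
      congr 1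
      ring
    rw [← e1]
    exact mul_le_mul_of_nonneg_left (le_rad' M hs.K32 l) hS.le
  have hstS := stS_of_mo (U := U) (V := VD D) (x := x) (M := M) (Ks := c.Ks) (K := K) (r := r)
    (l := l) (κ := κ) (κw := Cg * M.κ) (η := η) (A := A) (C₀ := C₀) (F := F) hV hU hr hs.frame hg
    hCg0 hd1 hd2 hw0 hms hA1 hSA hlS hl1 hl2 hκ8 hAκ hη0
    (le_trans (by gcongr) hmu1) (le_trans (by gcongr) hmu2) hsub8 hae hs.sup hKs
    (fun ζ h1 h2 h3 => hs.mean ζ h1
      (h2.trans (Metric.ball_subset_ball (le_rad' M hs.K32 l))) h3) hs.pos hsml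
    ⟨a, δ, w, _, _, _, _, le_rfl, hδ0, hw, hstep, by linarith, by
      rw [one_add_fx] at hF
      exact (le_max_left _ _).trans hF⟩
  -- conclusion
  have hA128 : 128 ≤ 8 * A := by
    have e1 : c.T + 5 + 1 ≤ A := Real.add_one_le_exp _
    have e2 : (54 : ℝ) ≤ A := by
      have h3 : (2.7182818283 : ℝ) < Real.exp 1 := Real.exp_one_gt_d9
      have h4 : Real.exp 4 = Real.exp 1 ^ 4 := by rw [← Real.exp_nat_mul]; norm_num
      have h5 : Real.exp 4 ≤ A := Real.exp_le_exp.2 (by linarith)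
      refine le_trans ?_ h5
      rw [h4]
      calc (54 : ℝ) ≤ 2.7182818283 ^ 4 := by norm_num
        _ ≤ Real.exp 1 ^ 4 := pow_le_pow_left₀ (by norm_num) h3.le 4
    linarith
  have h128 : 128 * r ≤ 8 * A * r := mul_le_mul_of_nonneg_right hA128 hr.le
  have hTh1 : 1 ≤ Th m (VD D) x := by
    rw [hTh]
    exact_mod_cast hQ
  have hnear' : NearQ m (VD D) Q x (128 * r) κr P' := by
    refine near_sub hV (by omega) (A := 8 * A) (by positivity) h128 ?_ hsub hε'0 hnear hε'4 hε'3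
    have : 8 * A * r ≤ 8 * A * (128 * r) := mul_le_mul_of_nonneg_left (by linarith) (by positivity)
    exact this
  exact HR U (VD D) hV x r hr ((Metric.closedBall_subset_closedBall h128).trans hsub) hTh1 P' hnear'
    M.π M.ρ M.S M.w (M.reg x) l (hstS.mono hr hκ0.le hκκr)

/-- **(END)** for the world of 518, in the shape of the field `fin` of `F10d_188.Thy`. -/
theorem fin_sta (hG : GLP) (m n Q : ℕ) (hm : 3 ≤ m) (hn : 1 ≤ n) (hQ : 1 ≤ Q) :
    ∃ N₀ : ℕ, ∀ c : Cn, N₀ ≤ c.N → 0 ≤ c.T → ∀ K : ℕ, c.Ks ≤ K → ∀ (Ck : F10a_188.Cst) (κm : ℝ),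
      ∀ F : ℝ, ∃ C : ℝ, ∀ ε : ℝ, 0 < ε → ∃ mu κ₁ ε' : ℝ, 0 < κ₁ ∧ 0 < ε' ∧
        ∀ (U : Set (Euc (m + n))) (D : VarifoldData m (m + n)) (x : Euc (m + n)),
          IsOpen U → IsIntegralVarifoldIn U D → IsStationaryIn U D →
          Th m (VD D) x = (Q : ℝ≥0∞) → ∀ (r : ℝ) (P' : Vf_884.L (m + n)), 0 < r →
          Metric.closedBall x (8 * Real.exp (c.T + 5) * r) ⊆ U →
          NearQ m (VD D) Q x (8 * Real.exp (c.T + 5) * r) ε' P' →
          ∀ (M : Mo m n (m + n)) (l : ℝ), Real.log r + 4 ≤ l → l ≤ Real.log r + 4 + 1 →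
            (world c Ck κm (VD D) Q x).st M l → 1 + (world c Ck κm (VD D) Q x).f M l ≤ F →
            (world c Ck κm (VD D) Q x).κ M l ≤ κ₁ → mu ≤ (world c Ck κm (VD D) Q x).L M l →
            ∃ (π : Euc (m + n) →L[ℝ] Euc m) (ρ : Euc (m + n) →L[ℝ] Euc n) (u : Euc m → Euc n),
              Ref (VD D) Q x r π ρ u K ε C := by
  obtain ⟨N₀, H⟩ := fin_mo hG m n Q hm hn hQ
  refine ⟨N₀, ?_⟩
  intro c hN hT K hK Ck κm F
  obtain ⟨C, HC⟩ := H c hN hT K hK F
  refine ⟨C, ?_⟩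
  intro ε hε
  obtain ⟨mu, κ₁, ε', h1, h2, H'⟩ := HC ε hε
  refine ⟨mu, κ₁, ε', h1, h2, ?_⟩
  intro U D x hU hint hst hTh r P' hr hsub hnear M l hl1 hl2 hs hF hkap hmu
  obtain ⟨u, hu⟩ := H' U D x hU hint hst hTh r P' hr hsub hnear M l hl1 (by linarith)
    (fst_of_sta hs) hF hkap hmu
  exact ⟨_, _, u, hu⟩

end Crest.Agent.R234.End_395
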