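import Crest.Agent.R234.GL4_394
import Crest.Agent.R234.Main2_456

/-!
# Row 234, (V6) (helper395): the height functional `II` of the foot chart against `∫ |hgt|²`

`Cmp c K h p l` : pointwise comparison on `K` of the chart data `c` (394, 456) with the graph height
`h` and the base coordinate `p` (`= π (z - x) - X0`).  `II_le`, `le_II` : two-sided comparison of
`II c V g1 l` with `e^{-ml} ∫_S ‖h‖² dV`; `II_le_sep`, `sep_le_II` : the same with `sep`.
-/

set_option autoImplicit false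
set_option linter.unusedSectionVars false

open MeasureTheory Set Filter Topology
open Crest.GeometryTopology.Submanifold
open Crest.Agent.R234.Vf_884 Crest.Agent.R234.Cy_870 Crest.Agent.R234.GL_394
open Crest.Agent.R234.Main_456
open scoped ENNReal NNReal InnerProductSpace

noncomputable section

namespace Crest.Agent.R234.End_395

variable {m n k : ℕ} {c : Ch m k} {K S : Set (Euc k)} {D : Set (Euc m)}
  {V : Measure (Euc k × L k)} {g g1 g2 : ℝ → ℝ} {B l η : ℝ}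
  {h : Euc k → Euc n} {p : Euc k → Euc m}

/-- comparison of the chart data with height and base coordinate. -/
structure Cmp (c : Ch m k) (K : Set (Euc k)) (h : Euc k → Euc n) (p : Euc k → Euc m) (l : ℝ) :
    Prop where
  f1 : ∀ z ∈ K, 2 * c.f z ≤ 3 / 2 * ‖h z‖ ^ 2
  f2 : ∀ z ∈ K, ‖h z‖ ^ 2 ≤ 3 / 2 * (2 * c.f z)
  x1 : ∀ z ∈ K, ‖c.x z‖ ≤ 33 / 32 * (‖p z‖ + ‖h z‖)
  x2 : ∀ z ∈ K, ‖p z‖ ≤ ‖c.x z‖ + ‖h z‖
  mu : ∀ z ∈ K, ‖c.x z‖ ≤ Real.exp l → 1 / 2 ≤ c.mu (c.x z) ∧ c.mu (c.x z) ≤ 3 / 2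

/-- the integrand of `II`. -/
def ig (c : Ch m k) (g1 : ℝ → ℝ) (l : ℝ) (q : Euc k × L k) : ℝ :=
  (c.f q.1 * c.mu (c.x q.1)) * (-4 * g1 (Real.exp (-2 * l) * ‖c.x q.1‖ ^ 2))

theorem II_eq : II c V g1 l = Real.exp (-m * l) * ∫ q, ig c g1 l q ∂V := rfl

theorem sq_arg (l t : ℝ) : Real.exp (-2 * l) * t ^ 2 = (Real.exp (-l) * t) ^ 2 := by
  rw [mul_pow, ← Real.exp_nat_mul]
  congr 2
  push_cast
  ring

theorem ig_nonneg (hc : Cmp c K h p l) (hg : Pf g g1 g2 B) {q : Euc k × L k} (hq : q.1 ∈ K) :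
    0 ≤ ig c g1 l q := by
  have h0 : 0 ≤ c.f q.1 := by
    have := hc.f2 q.1 hq
    nlinarith [sq_nonneg ‖h q.1‖]
  unfold ig
  rcases le_or_gt ‖c.x q.1‖ (Real.exp l) with hx | hx
  · have h1 := (hc.mu q.1 hq hx).1
    have h2 := hg.pr.anti (Real.exp (-2 * l) * ‖c.x q.1‖ ^ 2) (by positivity)
    have h3 : 0 ≤ c.f q.1 * c.mu (c.x q.1) := mul_nonneg h0 (by linarith)
    nlinarith
  · have h2 : g1 (Real.exp (-2 * l) * ‖c.x q.1‖ ^ 2) = 0 := by
      refine hg.pr.k1.zero _ ?_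
      rw [sq_arg]
      have : 1 ≤ Real.exp (-l) * ‖c.x q.1‖ := by
        rw [Real.exp_neg, ← div_eq_inv_mul, one_le_div (Real.exp_pos l)]
        exact hx.le
      nlinarith
    rw [h2]
    simp

theorem ig_le (hc : Cmp c K h p l) (hg : Pf g g1 g2 B) (hB : 0 ≤ B) {q : Euc k × L k}
    (hq : q.1 ∈ K) (hη : ‖h q.1‖ ≤ η) :
    ig c g1 l q ≤ {q : Euc k × L k | ‖p q.1‖ ≤ Real.exp l + η}.indicator
      (fun q => 9 / 2 * B * ‖h q.1‖ ^ 2) q := by
  have h0 : 0 ≤ c.f q.1 := by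
    have := hc.f2 q.1 hq
    nlinarith [sq_nonneg ‖h q.1‖]
  rcases le_or_gt ‖c.x q.1‖ (Real.exp l) with hx | hx
  · have hmem : q ∈ {q : Euc k × L k | ‖p q.1‖ ≤ Real.exp l + η} := by
      have := hc.x2 q.1 hq
      show ‖p q.1‖ ≤ Real.exp l + η
      linarith
    rw [indicator_of_mem hmem]
    unfold ig
    obtain ⟨h1, h2⟩ := hc.mu q.1 hq hx
    have h3 := hg.b1 (Real.exp (-2 * l) * ‖c.x q.1‖ ^ 2) (by positivity)
    have h4 := hg.pr.anti (Real.exp (-2 * l) * ‖c.x q.1‖ ^ 2) (by positivity)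
    have h5 := hc.f1 q.1 hq
    have h6 : c.f q.1 * c.mu (c.x q.1) ≤ 3 / 4 * ‖h q.1‖ ^ 2 * (3 / 2) := by
      refine mul_le_mul (by linarith) h2 (by linarith) (by positivity)
    have h7 : c.f q.1 * c.mu (c.x q.1) * (-4 * g1 (Real.exp (-2 * l) * ‖c.x q.1‖ ^ 2)) ≤
        3 / 4 * ‖h q.1‖ ^ 2 * (3 / 2) * (4 * B) := by
      refine mul_le_mul h6 (by linarith) (by linarith) (by positivity)
    refine h7.trans (le_of_eq ?_)
    ring
  · have h2 : g1 (Real.exp (-2 * l) * ‖c.x q.1‖ ^ 2) = 0 := by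
      refine hg.pr.k1.zero _ ?_
      rw [sq_arg]
      have : 1 ≤ Real.exp (-l) * ‖c.x q.1‖ := by
        rw [Real.exp_neg, ← div_eq_inv_mul, one_le_div (Real.exp_pos l)]
        exact hx.le
      nlinarith
    unfold ig
    rw [h2, mul_zero, mul_zero]
    refine indicator_nonneg (fun q _ => ?_) q
    positivity

/-- upper bound of `II`. -/
theorem II_le (hV : On V m K) (hK : IsCompact K) (hc : Cmp c K h p l) (hg : Pf g g1 g2 B)
    (hB : 0 ≤ B) (hh : ContinuousOn h K) (hη : ∀ z ∈ K, ‖h z‖ ≤ η) (hS : MeasurableSet S)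
    (hsub : ∀ z ∈ K, ‖p z‖ ≤ Real.exp l + η → z ∈ S) :
    II c V g1 l ≤ 9 / 2 * B * (Real.exp (-m * l) * ∫ q in Prod.fst ⁻¹' S, ‖h q.1‖ ^ 2 ∂V) := by
  rw [II_eq]
  have hcont : ContinuousOn (fun q : Euc k × L k => ‖h q.1‖ ^ 2) (K ×ˢ G m k) :=
    (hh.comp continuousOn_fst fun q hq => hq.1).norm.pow 2
  have hint : Integrable (fun q : Euc k × L k => ‖h q.1‖ ^ 2) V := hV.integrable hK hcont
  have hSm : MeasurableSet ((Prod.fst : Euc k × L k → Euc k) ⁻¹' S) := measurable_fst hS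
  have h1 : ∫ q, ig c g1 l q ∂V ≤
      ∫ q, ((Prod.fst : Euc k × L k → Euc k) ⁻¹' S).indicator
        (fun q => 9 / 2 * B * ‖h q.1‖ ^ 2) q ∂V := by
    refine integral_mono_of_nonneg ?_ ((hint.const_mul _).indicator hSm) ?_
    · filter_upwards [hV.mem] with q hq
      exact ig_nonneg hc hg hq.1
    · filter_upwards [hV.mem] with q hq
      refine (ig_le hc hg hB hq.1 (hη q.1 hq.1)).trans ?_
      by_cases hmem : q ∈ {q : Euc k × L k | ‖p q.1‖ ≤ Real.exp l + η}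
      · rw [indicator_of_mem hmem, indicator_of_mem (show q ∈ Prod.fst ⁻¹' S from
          hsub q.1 hq.1 hmem)]
      · rw [indicator_of_notMem hmem]
        exact indicator_nonneg (fun q _ => by positivity) q
  rw [integral_indicator hSm, integral_const_mul] at h1
  calc Real.exp (-m * l) * ∫ q, ig c g1 l q ∂V
      ≤ Real.exp (-m * l) * (9 / 2 * B * ∫ q in Prod.fst ⁻¹' S, ‖h q.1‖ ^ 2 ∂V) := by gcongr
    _ = _ := by ring

/-- lower bound of `II`. -/
theorem le_II (hok : Ok c K D) (hV : On V m K) (hc : Cmp c K h p l) (hg : Pf g g1 g2 B)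
    (hh : ContinuousOn h K) {a b : ℝ} (ha : a ≤ 1) (hb : 0 ≤ b)
    (hg1 : ∀ t, 0 ≤ t → t ≤ a ^ 2 → b ≤ -g1 t) (hS : MeasurableSet S)
    (hsub : ∀ z ∈ K, z ∈ S → 33 / 32 * (‖p z‖ + ‖h z‖) ≤ a * Real.exp l) :
    2 / 3 * b * (Real.exp (-m * l) * ∫ q in Prod.fst ⁻¹' S, ‖h q.1‖ ^ 2 ∂V) ≤ II c V g1 l := by
  rw [II_eq]
  have hcont : ContinuousOn (fun q : Euc k × L k => ‖h q.1‖ ^ 2) (K ×ˢ G m k) :=
    (hh.comp continuousOn_fst fun q hq => hq.1).norm.pow 2
  have hint : Integrable (fun q : Euc k × L k => ‖h q.1‖ ^ 2) V := hV.integrable hok.cpt hcont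
  have hig : Integrable (ig c g1 l) V := by
    refine hV.integrable hok.cpt ?_
    unfold ig
    have e1 : ContinuousOn (fun q : Euc k × L k => c.f q.1) (K ×ˢ G m k) :=
      hok.cf.comp continuousOn_fst fun q hq => hq.1
    have e2 : ContinuousOn (fun q : Euc k × L k => c.x q.1) (K ×ˢ G m k) :=
      hok.cx.comp continuousOn_fst fun q hq => hq.1
    have e3 : ContinuousOn (fun q : Euc k × L k => c.mu (c.x q.1)) (K ×ˢ G m k) :=
      hok.cmu.comp e2 fun q hq => hok.mem q.1 hq.1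
    have e4 : ContinuousOn (fun q : Euc k × L k =>
        g1 (Real.exp (-2 * l) * ‖c.x q.1‖ ^ 2)) (K ×ˢ G m k) :=
      hg.pr.k1.continuous.comp_continuousOn (continuousOn_const.mul (e2.norm.pow 2))
    exact (e1.mul e3).mul (continuousOn_const.mul e4)
  have hSm : MeasurableSet ((Prod.fst : Euc k × L k → Euc k) ⁻¹' S) := measurable_fst hS
  have h1 : ∫ q, ((Prod.fst : Euc k × L k → Euc k) ⁻¹' S).indicator
        (fun q => 2 / 3 * b * ‖h q.1‖ ^ 2) q ∂V ≤ ∫ q, ig c g1 l q ∂V := by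
    refine integral_mono_ae ((hint.const_mul _).indicator hSm) hig ?_
    filter_upwards [hV.mem] with q hq
    by_cases hmem : q ∈ (Prod.fst : Euc k × L k → Euc k) ⁻¹' S
    · rw [indicator_of_mem hmem]
      have h2 := hsub q.1 hq.1 hmem
      have h3 := hc.x1 q.1 hq.1
      have h4 : ‖c.x q.1‖ ≤ a * Real.exp l := h3.trans h2
      have h5 : ‖c.x q.1‖ ≤ Real.exp l := h4.trans (by
        have := Real.exp_pos l
        nlinarith)
      obtain ⟨h6, -⟩ := hc.mu q.1 hq.1 h5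
      have h7 : b ≤ -g1 (Real.exp (-2 * l) * ‖c.x q.1‖ ^ 2) := by
        refine hg1 _ (by positivity) ?_
        rw [sq_arg]
        have h8 : Real.exp (-l) * ‖c.x q.1‖ ≤ a := by
          rw [Real.exp_neg, inv_mul_le_iff₀ (Real.exp_pos l), mul_comm]
          exact h4
        exact pow_le_pow_left₀ (by positivity) h8 2
      have h9 := hc.f2 q.1 hq.1
      have h10 : 1 / 3 * ‖h q.1‖ ^ 2 * (1 / 2) ≤ c.f q.1 * c.mu (c.x q.1) := by
        have : 1 / 3 * ‖h q.1‖ ^ 2 ≤ c.f q.1 := by linarith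
        refine mul_le_mul this h6 (by norm_num) (le_trans (by positivity) this)
      have h11 : 1 / 3 * ‖h q.1‖ ^ 2 * (1 / 2) * (4 * b) ≤
          c.f q.1 * c.mu (c.x q.1) * (-4 * g1 (Real.exp (-2 * l) * ‖c.x q.1‖ ^ 2)) := by
        refine mul_le_mul h10 (by linarith) (by linarith) (le_trans (by positivity) h10)
      unfold ig
      refine le_trans (le_of_eq ?_) h11
      ring
    · rw [indicator_of_notMem hmem]
      exact ig_nonneg hc hg hq.1
  rw [integral_indicator hSm, integral_const_mul] at h1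
  calc _ = Real.exp (-m * l) * (2 / 3 * b * ∫ q in Prod.fst ⁻¹' S, ‖h q.1‖ ^ 2 ∂V) := by ring
    _ ≤ _ := by gcongr

end Crest.Agent.R234.End_395
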