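import Crest.Agent.R234.Main2_456

/-!
# Row 234, VF-MAIN (helper456): literal statements of leaves of the F side (05:30Z)

* `NearChg`  : change of the plane in `NearQ` (Caccioppoli).
* `QLeb`     : the projection of a flat varifold of density `Q` is close to `Q · Lebesgue`.
* `NearZ`    : `NearQ` passes from `x` to all other `Q`-points and smaller scales.
* `HgtCmp`   : graph height versus normal height (209's chart).
* `IntReg`   : quantitative interior regularity of the minimal surface system.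
-/

set_option autoImplicit false
set_option linter.unusedVariables false

open MeasureTheory Filter Topology Set
open scoped ENNReal NNReal ContDiff
open Crest.GeometryTopology.Submanifold Crest.Agent.R234.Vf_884
open Crest.Agent.R234.Strat3_842 (tilt height)
open Crest.Agent.R234.AS_456 (hp vp)

noncomputable section

namespace Crest.Agent.R234.Main_456

/-- LEAF NEARCHG -/
def NearChg : Prop :=
  ∀ (m k : ℕ), 1 ≤ m → ∃ C : ℝ, ∀ (U : Set (Euc k)), IsOpen U → ∀ V : Measure (Euc k × L k),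
    Stat m k U V → ∀ (Q : ℕ) (x : Euc k) (r ε ε' : ℝ) (P P' : L k), 0 < r →
      Metric.closedBall x (2 * r) ⊆ U → 0 ≤ ε → 0 ≤ ε' → NearQ m V Q x (2 * r) ε P → P' ∈ G m k →
      ∫ p in Metric.ball x (2 * r) ×ˢ univ, height P' x p ∂V ≤ ε' * r ^ (m + 2) →
        NearQ m V Q x r (ε + C * ε') P'

/-- LEAF QLEB -/
def QLeb : Prop :=
  ∀ (m k Q : ℕ), 1 ≤ m → 1 ≤ Q → ∀ η : ℝ, 0 < η → ∃ ε : ℝ, 0 < ε ∧
    ∀ (U : Set (Euc k)), IsOpen U → ∀ D : VarifoldData m k,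
      IsIntegralVarifoldIn U D → IsStationaryIn U D → ∀ (x : Euc k) (r : ℝ), 0 < r →
        Metric.closedBall x (4 * r) ⊆ U → (Q : ℝ≥0∞) ≤ Th m (VD D) x →
        ∀ π : Euc k →L[ℝ] Euc m, Ar_870.IsCo π → NearQ m (VD D) Q x (4 * r) ε (hp π) →
        ∀ φ : Euc m → ℝ, LipschitzWith 1 φ → (∀ z, |φ z| ≤ 1) →
          (∀ z, φ z ≠ 0 → ‖z‖ ≤ 2) →
          |∫ p in Metric.ball x (3 * r) ×ˢ univ, φ (r⁻¹ • π (p.1 - x)) ∂(VD D)
            - r ^ m * (Q * ∫ z, φ z)| ≤ η * r ^ m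

/-- LEAF NEARZ -/
def NearZ : Prop :=
  ∀ (m k Q : ℕ), 1 ≤ m → 1 ≤ Q → ∀ δ η : ℝ, 0 < δ → 0 < η → ∃ ε : ℝ, 0 < ε ∧
    ∀ (U : Set (Euc k)), IsOpen U → ∀ D : VarifoldData m k,
      IsIntegralVarifoldIn U D → IsStationaryIn U D → ∀ (x : Euc k) (r : ℝ), 0 < r →
        Metric.closedBall x (64 * r) ⊆ U → (Q : ℝ≥0∞) ≤ Th m (VD D) x →
        ∀ P : L k, NearQ m (VD D) Q x (64 * r) ε P →
        ∀ z ∈ Metric.closedBall x (8 * r), (Q : ℝ≥0∞) ≤ Th m (VD D) z →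
        ∀ t : ℝ, δ * r ≤ t → t ≤ 16 * r → NearQ m (VD D) Q z t η P

/-- LEAF HGTCMP -/
def HgtCmp : Prop :=
  ∀ (m n k : ℕ) (u : Euc m → Euc n) (κ : ℝ), 0 ≤ κ → κ ≤ 1 / 4 → ContDiff ℝ 2 u →
    (∀ z, ‖fderiv ℝ u z‖ ≤ κ) → (∀ z, ‖fderiv ℝ (fderiv ℝ u) z‖ ≤ κ) →
    ∀ (π : Euc k →L[ℝ] Euc m) (ρ : Euc k →L[ℝ] Euc n), Frame π ρ → ∀ (x : Euc k) (X : Euc m)
      (Y : Euc n) (z : Euc k),
      z = x + ContinuousLinearMap.adjoint π (X - ContinuousLinearMap.adjoint (fderiv ℝ u X) Y)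
        + ContinuousLinearMap.adjoint ρ (u X + Y) →
      ‖hgt π ρ x 1 u z - Y - fderiv ℝ u X (ContinuousLinearMap.adjoint (fderiv ℝ u X) Y)‖ ≤
        κ ^ 3 * ‖Y‖ ^ 2 / 2

/-- LEAF INTREG -/
def IntReg : Prop :=
  ∀ (m n K : ℕ), 1 ≤ m → ∃ κ₀ C : ℝ, 0 < κ₀ ∧ ∀ u : Euc m → Euc n, ContDiff ℝ ∞ u →
    ∀ κ : ℝ, 0 ≤ κ → κ ≤ κ₀ →
      (∀ j ≤ 2, ∀ z ∈ Metric.ball (0 : Euc m) 1, ‖iteratedFDeriv ℝ j u z‖ ≤ κ) →
      (∀ z ∈ Metric.ball (0 : Euc m) 1, Msys u z = 0) →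
        ∀ j ≤ K, ∀ z ∈ Metric.ball (0 : Euc m) (1 / 2), ‖iteratedFDeriv ℝ j u z‖ ≤ C * κ

end Crest.Agent.R234.Main_456
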