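import Crest.Agent.R234.IntRegB_971
import Crest.Agent.R234.Leaf1_456

/-!
R234, VF-INTREG (helper971): **`Leaf1_456.IntReg`**, quantitative interior regularity of the
minimal surface system.
-/

set_option autoImplicit false
set_option maxSynthPendingDepth 3

open MeasureTheory Metric Set Filter Topology
open scoped ContDiff
open Crest.GeometryTopology.Submanifold

namespace Crest.Agent.R234.IntReg_971

noncomputable section

set_option linter.unusedSectionVars false
set_option linter.unusedVariables false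

open Crest.Agent.R246.H2x622 Crest.Agent.R234.Ell1_3
open Crest.Agent.R234.Main_456 (Msys IntReg)

variable {m n : ℕ}

/-- the standard basis -/
abbrev eb (m : ℕ) : OrthonormalBasis (Fin m) ℝ (Euc m) := EuclideanSpace.basisFun (Fin m) ℝ

lemma Bq_eq {u : Euc m → Euc n} {z : Euc m} (h : Msys u z = 0) :
    Bq (eb m) (fderiv ℝ u z) (fderiv ℝ (fderiv ℝ u) z) = trC (eb m) (fderiv ℝ (fderiv ℝ u) z) := by
  rw [Bq_apply]
  have h1 : ∑ i, fderiv ℝ (fderiv ℝ u) z (ginv (fderiv ℝ u z) (eb m i)) (eb m i) = Msys u z := by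
    unfold Msys
    refine Finset.sum_congr rfl fun i _ => ?_
    have h2 : eb m i = stdVec m i := by
      simp [eb, stdVec]
    rw [h2]
  rw [h1, h, sub_zero]

/-- the gradient of a solution of the minimal surface system is a solution of the divergence
form system. -/
theorem weak_msys {u : Euc m → Euc n} (hu : ContDiff ℝ ∞ u) {x₀ : Euc m} {ρ : ℝ}
    (h : ∀ z ∈ ball x₀ ρ, Msys u z = 0) :
    WeakDiv (fun z => fderiv ℝ (fderiv ℝ u) z -
      G0 (eb m) (fderiv ℝ u z, fderiv ℝ (fderiv ℝ u) z)) (ball x₀ ρ) := by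
  intro ζ hζ hcs hts
  have h1 := weak_grad (eb m) hu hζ hcs
  rw [← h1]
  refine integral_congr_ae (Filter.Eventually.of_forall fun z => ?_)
  simp only
  by_cases hz : z ∈ tsupport ζ
  · have h2 : G0 (eb m) (fderiv ℝ u z, fderiv ℝ (fderiv ℝ u) z) =
        Jm (Euc m) (Euc n) (trC (eb m) (fderiv ℝ (fderiv ℝ u) z)) := by
      unfold G0
      rw [Bq_eq (h z (hts hz))]
    rw [h2]
  · rw [gradient_zero_of_notMem hz, map_zero, map_zero]

theorem intReg : IntReg := by
  intro m n K hm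
  obtain ⟨κF, hκF⟩ := exists_KB (F := Euc m)
  have hbet : 0 < bet (Euc m) κF (1 / 2) := bet_pos hκF (by norm_num) (by norm_num)
  obtain ⟨hQB, _⟩ := G0_small (V := Euc n) (eb m) hbet
  obtain ⟨_, δ, hδ, hsml⟩ := G0_small (V := Euc n) (eb m) (half_pos hbet)
  obtain ⟨κ₁, hκ₁, C, hC, H⟩ := quant hκF (α := 1 / 2) (by norm_num) (by norm_num)
    (half_pos hbet).le (half_lt_self hbet) K (G0_contDiff (V := Euc n) (eb m))
    (sml0_G0 (V := Euc n) (eb m)) hQB (ρ := 1 / 2) (by norm_num) (by norm_num)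
  refine ⟨min κ₁ δ, max C 1, lt_min hκ₁ hδ, ?_⟩
  intro u hu κ hκ0 hκ hb hM j hj z hz
  have hCκ : C * κ ≤ max C 1 * κ := mul_le_mul_of_nonneg_right (le_max_left _ _) hκ0
  have h1κ : κ ≤ max C 1 * κ := by
    have := mul_le_mul_of_nonneg_right (le_max_right C 1) hκ0
    linarith
  have hsub : ball z (1 / 2) ⊆ ball (0 : Euc m) 1 := by
    intro y hy
    rw [mem_ball, dist_eq_norm] at hy
    rw [mem_ball, dist_zero_right] at hz ⊢
    calc ‖y‖ = ‖(y - z) + z‖ := by congr 1; abel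
      _ ≤ ‖y - z‖ + ‖z‖ := norm_add_le _ _
      _ < 1 := by linarith
  rcases Nat.eq_zero_or_pos j with rfl | hjpos
  · exact (hb 0 (by norm_num) z (hsub (mem_ball_self (by norm_num)))).trans h1κ
  obtain ⟨i, rfl⟩ : ∃ i, j = i + 1 := ⟨j - 1, by omega⟩
  have hu1 : ContDiff ℝ (∞ + 1) u := by simpa using hu
  have hg : ContDiff ℝ ∞ (fderiv ℝ u) := hu1.fderiv_right (m := ∞) le_rfl
  have hd1 : ∀ y ∈ ball z (1 / 2), ‖fderiv ℝ u y‖ ≤ κ := by
    intro y hy
    have := hb 1 (by norm_num) y (hsub hy)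
    rwa [norm_iteratedFDeriv_one] at this
  have hd2 : ∀ y ∈ ball z (1 / 2), ‖fderiv ℝ (fderiv ℝ u) y‖ ≤ κ := by
    intro y hy
    have := hb 2 (by norm_num) y (hsub hy)
    rwa [← norm_iteratedFDeriv_fderiv, norm_iteratedFDeriv_one] at this
  rw [← norm_iteratedFDeriv_fderiv]
  refine (H z (fderiv ℝ u) hg (weak_msys hu fun y hy => hM y (hsub hy))
    (fun y hy => hsml _ ((hd1 y hy).trans (hκ.trans (min_le_right _ _))) _) κ hκ0
    (hκ.trans (min_le_left _ _)) hd1 ?_ i (by omega)).trans hCκ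
  intro y hy y' hy'
  have h1 : ‖fderiv ℝ u y - fderiv ℝ u y'‖ ≤ κ * ‖y - y'‖ :=
    (convex_ball z (1 / 2)).norm_image_sub_le_of_norm_fderiv_le
      (fun y _ => hg.differentiable (by simp) y) hd2 hy' hy
  refine h1.trans (mul_le_mul_of_nonneg_left ?_ hκ0)
  have h2 : ‖y - y'‖ ≤ 1 := by
    rw [mem_ball, dist_eq_norm] at hy hy'
    calc ‖y - y'‖ = ‖(y - z) - (y' - z)‖ := by congr 1; abel
      _ ≤ ‖y - z‖ + ‖y' - z‖ := norm_sub_le _ _
      _ ≤ 1 := by linarith
  calc ‖y - y'‖ = ‖y - y'‖ ^ (1 : ℝ) := (Real.rpow_one _).symm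
    _ ≤ ‖y - y'‖ ^ (1 / 2 : ℝ) :=
        Real.rpow_le_rpow_of_exponent_ge' (norm_nonneg _) h2 (by norm_num) (by norm_num)

end

end Crest.Agent.R234.IntReg_971
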