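import Crest.Agent.R234.Mx13_397
import Crest.Agent.R234.IntReg_971
import Crest.Agent.R234.Main2_456

/-!
# Row 234, (END) graph part (helper395)

`ref_graph`: a small `C²` minimal graph over the ball of radius `34` agrees on the ball of radius `33`
with a globally smooth function with `C^K` bounds on the ball of radius `32`.
-/

set_option autoImplicit false
set_option linter.unusedSectionVars false

open MeasureTheory Set Filter Topology
open Crest.GeometryTopology.Submanifold Crest.Agent.R234.Vf_884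
open Crest.Agent.R234.Main_456
open Crest.Agent.R234.Mx5_397 (msop msop_congr)
open scoped ENNReal NNReal InnerProductSpace ContDiff

noncomputable section

namespace Crest.Agent.R234.End_395

variable {m n k : ℕ}

theorem msop_eq_Msys (u : Euc m → Euc n) (x : Euc m) : msop u x = Msys u x := by
  rw [Mx13_397.msop_eq_sum (EuclideanSpace.basisFun (Fin m) ℝ)]
  unfold Msys
  refine Finset.sum_congr rfl fun i _ => ?_
  have : (EuclideanSpace.basisFun (Fin m) ℝ) i = stdVec m i := by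
    rw [EuclideanSpace.basisFun_apply]; rfl
  rw [this]

theorem Msys_congr {u v : Euc m → Euc n} {x : Euc m} (h : u =ᶠ[𝓝 x] v) : Msys u x = Msys v x := by
  rw [← msop_eq_Msys, ← msop_eq_Msys]
  exact msop_congr h

theorem Msys_translate (a : Euc m) (u : Euc m → Euc n) (x : Euc m) :
    Msys (fun x => u (x + a)) x = Msys u (x + a) := by
  rw [← msop_eq_Msys, ← msop_eq_Msys, Mx13_397.msop_translate]

theorem Msys_scale {r : ℝ} (hr : r ≠ 0) (u : Euc m → Euc n) (x : Euc m) :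
    Msys (fun x => r⁻¹ • u (r • x)) x = r • Msys u (r • x) := by
  rw [← msop_eq_Msys, ← msop_eq_Msys, Mx13_397.msop_scale hr]

/-- **graph part of `Ref`.** -/
theorem ref_graph (m n K : ℕ) (hm : 1 ≤ m) : ∃ κ₀ C : ℝ, 0 < κ₀ ∧ 0 ≤ C ∧
    ∀ (v : Euc m → Euc n) (κ : ℝ), 0 ≤ κ → κ ≤ κ₀ → ContDiffOn ℝ 2 v (Metric.ball 0 34) →
      (∀ j ≤ 2, ∀ y ∈ Metric.ball (0 : Euc m) 34, ‖iteratedFDeriv ℝ j v y‖ ≤ κ) →
      (∀ y ∈ Metric.ball (0 : Euc m) 34, Msys v y = 0) →
      ∃ u : Euc m → Euc n, ContDiff ℝ ∞ u ∧ (∀ y ∈ Metric.ball (0 : Euc m) 33, u y = v y) ∧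
        (∀ j ≤ K, ∀ y ∈ Metric.ball (0 : Euc m) 32, ‖iteratedFDeriv ℝ j u y‖ ≤ C * κ) ∧
        ∀ y ∈ Metric.ball (0 : Euc m) 32, Msys u y = 0 := by
  obtain ⟨κ₁, C, hκ₁, H⟩ := IntReg_971.intReg m n K hm
  obtain ⟨p₀, hp₀, HP⟩ := Mx12_397.exists_smooth (Euc m) (Euc n)
  refine ⟨min κ₁ (p₀ / 2), max C 0, by positivity, le_max_right _ _, ?_⟩
  intro v κ hκ hκκ hv hb hM
  have hCD : ContDiffOn ℝ ∞ v (Metric.ball 0 34) := by
    refine HP _ v Metric.isOpen_ball hv (fun y hy => by rw [msop_eq_Msys]; exact hM y hy) ?_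
    intro y hy
    have h1 := hb 1 (by norm_num) y hy
    rw [norm_iteratedFDeriv_one] at h1
    have h2 : κ ≤ p₀ / 2 := hκκ.trans (min_le_right _ _)
    linarith
  let B : ContDiffBump (0 : Euc m) := ⟨33, 67 / 2, by norm_num, by norm_num⟩
  set u : Euc m → Euc n := fun y => B y • v y with hu
  have hzero : ∀ y, 67 / 2 ≤ ‖y‖ → B y = 0 := by
    intro y hy
    refine B.zero_of_le_dist ?_
    rw [dist_zero_right]
    exact hy
  have hone : ∀ y ∈ Metric.closedBall (0 : Euc m) 33, B y = 1 := fun y hy =>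
    B.one_of_mem_closedBall hy
  have hsm : ContDiff ℝ ∞ u := by
    rw [contDiff_iff_contDiffAt]
    intro y
    rcases lt_or_ge ‖y‖ 34 with hy | hy
    · exact B.contDiff.contDiffAt.smul (hCD.contDiffAt (Metric.isOpen_ball.mem_nhds
        (mem_ball_zero_iff.2 hy)))
    · have h3 : u =ᶠ[𝓝 y] fun _ => (0 : Euc n) := by
        have h4 : 67 / 2 < ‖y‖ := by linarith
        filter_upwards [(isOpen_lt continuous_const continuous_norm).mem_nhds h4] with z hz
        rw [hu]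
        simp only
        rw [hzero z hz.le, zero_smul]
      exact contDiffAt_const.congr_of_eventuallyEq h3
  have heq : ∀ y ∈ Metric.ball (0 : Euc m) 33, u =ᶠ[𝓝 y] v := by
    intro y hy
    filter_upwards [Metric.isOpen_ball.mem_nhds hy] with z hz
    rw [hu]
    simp only
    rw [hone z (Metric.ball_subset_closedBall hz), one_smul]
  have hit : ∀ j ≤ 2, ∀ y ∈ Metric.ball (0 : Euc m) 33, ‖iteratedFDeriv ℝ j u y‖ ≤ κ := by
    intro j hj y hy
    rw [(Filter.EventuallyEq.iteratedFDeriv ℝ (heq y hy) j).self_of_nhds]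
    exact hb j hj y (Metric.ball_subset_ball (by norm_num) hy)
  have hMu : ∀ y ∈ Metric.ball (0 : Euc m) 33, Msys u y = 0 := by
    intro y hy
    rw [Msys_congr (heq y hy)]
    exact hM y (Metric.ball_subset_ball (by norm_num) hy)
  refine ⟨u, hsm, fun y hy => (heq y hy).self_of_nhds, ?_,
    fun y hy => hMu y (Metric.ball_subset_ball (by norm_num) hy)⟩
  intro j hj y hy
  have hsub : ∀ z ∈ Metric.ball (0 : Euc m) 1, z + y ∈ Metric.ball (0 : Euc m) 33 := by
    intro z hz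
    rw [mem_ball_zero_iff] at hz hy ⊢
    have := norm_add_le z y
    linarith
  have h1 := H (fun z => u (z + y)) (hsm.comp (contDiff_id.add contDiff_const)) κ hκ
    (hκκ.trans (min_le_left _ _)) (fun i hi z hz => by
      rw [iteratedFDeriv_comp_add_right]
      exact hit i hi _ (hsub z hz)) (fun z hz => by
      rw [Msys_translate]
      exact hMu _ (hsub z hz)) j hj 0 (Metric.mem_ball_self (by norm_num))
  rw [iteratedFDeriv_comp_add_right, zero_add] at h1
  refine h1.trans ?_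
  gcongr
  exact le_max_left _ _

/-! ### shift and scale -/

/-- the reference `w` (base point `q`) seen from the centre `x` at the scale `r`:
`X₀ = π (x - q)`, `b = ρ (x - q)`. -/
def sh (r : ℝ) (w : Euc m → Euc n) (X₀ : Euc m) (b : Euc n) (y : Euc m) : Euc n :=
  r⁻¹ • (w (r • y + X₀) - b)

theorem hgt_sh {π : Euc k →L[ℝ] Euc m} {ρ : Euc k →L[ℝ] Euc n} {x q z : Euc k} {r : ℝ}
    (hr : r ≠ 0) (w : Euc m → Euc n) :
    hgt π ρ x r (sh r w (π (x - q)) (ρ (x - q))) z = ρ (z - q) - w (π (z - q)) := by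
  unfold hgt sh
  rw [smul_smul, smul_smul, mul_inv_cancel₀ hr, one_smul, one_smul, ← map_add,
    sub_add_sub_cancel]
  have : ρ (z - q) = ρ (z - x) + ρ (x - q) := by rw [← map_add, sub_add_sub_cancel]
  rw [this]
  abel

theorem sh_eq (r : ℝ) (w : Euc m → Euc n) (X₀ : Euc m) (b : Euc n) :
    sh r w X₀ b = fun y => r⁻¹ • (fun X => w (X + X₀) - b) (r • y) := rfl

theorem Msys_sub_const (u : Euc m → Euc n) (b : Euc n) (x : Euc m) :
    Msys (fun X => u X - b) x = Msys u x := by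
  unfold Msys
  have h1 : fderiv ℝ (fun X => u X - b) = fderiv ℝ u := by
    funext y
    rw [fderiv_sub_const]
  rw [h1]

theorem Msys_sh {r : ℝ} (hr : r ≠ 0) (w : Euc m → Euc n) (X₀ : Euc m) (b : Euc n) (y : Euc m) :
    Msys (sh r w X₀ b) y = r • Msys w (r • y + X₀) := by
  have h1 := Msys_scale hr (fun X => w (X + X₀) - b) y
  rw [Msys_sub_const (fun X => w (X + X₀)), Msys_translate] at h1
  exact h1

theorem fderiv_sh {r : ℝ} (hr : r ≠ 0) (w : Euc m → Euc n) (X₀ : Euc m) (b : Euc n) :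
    fderiv ℝ (sh r w X₀ b) = fun y => fderiv ℝ w (r • y + X₀) := by
  have h1 := Mx13_397.fderiv_scale1 hr (fun X => w (X + X₀) - b)
  refine h1.trans ?_
  funext y
  rw [fderiv_sub_const, fderiv_comp_add_right]

theorem fderiv2_sh {r : ℝ} (hr : r ≠ 0) (w : Euc m → Euc n) (X₀ : Euc m) (b : Euc n) (y : Euc m) :
    fderiv ℝ (fderiv ℝ (sh r w X₀ b)) y = r • fderiv ℝ (fderiv ℝ w) (r • y + X₀) := by
  rw [fderiv_sh hr]
  have h1 := Mx13_397.fderiv_scale hr (fun X => fderiv ℝ w (X + X₀)) y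
  rw [fderiv_comp_add_right] at h1
  exact h1

/-- **graph part of `Ref`**, from the block data. -/
theorem ref_graph_sh (m n K : ℕ) (hm : 1 ≤ m) : ∃ κ₀ C : ℝ, 0 < κ₀ ∧ 0 ≤ C ∧
    ∀ (w : Euc m → Euc n) (κ r R : ℝ) (X₀ : Euc m) (b : Euc n), 0 < r → 0 ≤ κ → κ ≤ κ₀ →
      34 * r + ‖X₀‖ ≤ R → ContDiffOn ℝ 2 w (Metric.ball 0 R) →
      (∀ X ∈ Metric.ball (0 : Euc m) R, ‖fderiv ℝ w X‖ ≤ κ) →
      (∀ X ∈ Metric.ball (0 : Euc m) R, r * ‖fderiv ℝ (fderiv ℝ w) X‖ ≤ κ) →
      (∀ X ∈ Metric.ball (0 : Euc m) R, Msys w X = 0) → ‖w X₀ - b‖ ≤ κ * r →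
      ∃ u : Euc m → Euc n, ContDiff ℝ ∞ u ∧
        (∀ y ∈ Metric.ball (0 : Euc m) 33, u y = sh r w X₀ b y) ∧
        (∀ j ≤ K, ∀ y ∈ Metric.ball (0 : Euc m) 32, ‖iteratedFDeriv ℝ j u y‖ ≤ C * κ) ∧
        ∀ y ∈ Metric.ball (0 : Euc m) 32, Msys u y = 0 := by
  obtain ⟨κ₁, C, hκ₁, hC, H⟩ := ref_graph m n K hm
  refine ⟨κ₁ / 35, C * 35, by positivity, by positivity, ?_⟩
  intro w κ r R X₀ b hr hκ hκκ hR hw h1 h2 h3 h4
  have hsub : ∀ y ∈ Metric.ball (0 : Euc m) 34, r • y + X₀ ∈ Metric.ball (0 : Euc m) R := by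
    intro y hy
    rw [mem_ball_zero_iff] at hy ⊢
    have h5 := norm_add_le (r • y) X₀
    rw [norm_smul, Real.norm_of_nonneg hr.le] at h5
    nlinarith
  have hcd : ContDiffOn ℝ 2 (sh r w X₀ b) (Metric.ball 0 34) := by
    have h5 : ContDiffOn ℝ 2 (fun y => w (r • y + X₀)) (Metric.ball 0 34) :=
      hw.comp ((contDiff_id.const_smul r).add contDiff_const).contDiffOn hsub
    exact (h5.sub contDiffOn_const).const_smul r⁻¹
  have hd1 : ∀ y ∈ Metric.ball (0 : Euc m) 34, ‖fderiv ℝ (sh r w X₀ b) y‖ ≤ κ := by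
    intro y hy
    rw [fderiv_sh hr.ne']
    exact h1 _ (hsub y hy)
  have h0 : ‖sh r w X₀ b 0‖ ≤ κ := by
    unfold sh
    rw [smul_zero, zero_add, norm_smul, norm_inv, Real.norm_of_nonneg hr.le,
      inv_mul_le_iff₀ hr, mul_comm]
    exact h4
  have hz : ∀ y ∈ Metric.ball (0 : Euc m) 34, ‖sh r w X₀ b y‖ ≤ 35 * κ := by
    intro y hy
    have h5 := (convex_ball (0 : Euc m) 34).norm_image_sub_le_of_norm_fderiv_le
      (fun z hz => ((hcd.contDiffAt (Metric.isOpen_ball.mem_nhds hz)).differentiableAt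
        (by norm_num))) hd1 (Metric.mem_ball_self (by norm_num : (0:ℝ) < 34)) hy
    rw [sub_zero] at h5
    have h6 := norm_le_norm_add_norm_sub' (sh r w X₀ b y) (sh r w X₀ b 0)
    rw [mem_ball_zero_iff] at hy
    nlinarith [norm_nonneg y]
  obtain ⟨u, g1, g2, g3, g4⟩ := H (sh r w X₀ b) (35 * κ) (by positivity) (by
    rw [le_div_iff₀ (by norm_num)] at hκκ; linarith) hcd (fun j hj y hy => by
      interval_cases j
      · rw [norm_iteratedFDeriv_zero]; exact hz y hy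
      · rw [norm_iteratedFDeriv_one]
        exact (hd1 y hy).trans (by linarith)
      · rw [← norm_iteratedFDeriv_fderiv, norm_iteratedFDeriv_one, fderiv2_sh hr.ne', norm_smul,
          Real.norm_of_nonneg hr.le]
        exact (h2 _ (hsub y hy)).trans (by linarith)) (fun y hy => by
      rw [Msys_sh hr.ne', h3 _ (hsub y hy), smul_zero])
  refine ⟨u, g1, g2, fun j hj y hy => (g3 j hj y hy).trans (le_of_eq (by ring)), g4⟩

end Crest.Agent.R234.End_395
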