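import Crest.Agent.R234.In1_947

/-!
Row 234, VF-INT (helper947), file 2: the radial kernel
`g(t) = ∫_σ^R ρ^{-(m+1)} ξ(t/ρ²) dρ`, with `m g + 2 t g' = σ^{-m} ξ(t/σ²) - R^{-m} ξ(t/R²)`, and the
slab mass inequality.
-/

set_option autoImplicit false

open MeasureTheory Crest.GeometryTopology.Submanifold Filter Topology
open scoped ENNReal InnerProductSpace

noncomputable section

namespace Crest.Agent.R234.In_947

open Crest.Agent.R234.Vf_884

/-- smooth cut-offs: `1` on `t ≤ a`, `0` for `t ≥ 1`, non-increasing, with derivative bounded by `C`. -/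
structure Cut (a C : ℝ) (ξ : ℝ → ℝ) : Prop where
  cd : ContDiff ℝ 1 ξ
  anti : ∀ t, deriv ξ t ≤ 0
  nonneg : ∀ t, 0 ≤ ξ t
  le_one : ∀ t, ξ t ≤ 1
  one : ∀ t, t ≤ a → ξ t = 1
  zero : ∀ t, 1 ≤ t → ξ t = 0
  der : ∀ t, |deriv ξ t| ≤ C

theorem Cut.deriv_zero {a C : ℝ} {ξ : ℝ → ℝ} (h : Cut a C ξ) {t : ℝ} (ht : 1 ≤ t) :
    deriv ξ t = 0 := by
  have h2 : ∀ s, 1 < s → deriv ξ s = 0 := by
    intro s hs
    have h1 : ξ =ᶠ[𝓝 s] fun _ => 0 := by
      filter_upwards [lt_mem_nhds hs] with s hs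
      exact h.zero s hs.le
    rw [h1.deriv_eq, deriv_const]
  rcases ht.lt_or_eq with h3 | h3
  · exact h2 t h3
  · subst h3
    have hc : Continuous (deriv ξ) := h.cd.continuous_deriv le_rfl
    have h4 : Tendsto (deriv ξ) (𝓝[>] 1) (𝓝 (deriv ξ 1)) := hc.continuousAt.continuousWithinAt
    have h5 : Tendsto (deriv ξ) (𝓝[>] 1) (𝓝 0) := by
      refine (tendsto_const_nhds (x := (0 : ℝ))).congr' ?_
      filter_upwards [self_mem_nhdsWithin] with s hs
      exact (h2 s hs).symm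
    exact tendsto_nhds_unique h4 h5

theorem exists_cut {a : ℝ} (ha : a < 1) : ∃ C : ℝ, 0 ≤ C ∧ ∃ ξ : ℝ → ℝ, Cut a C ξ := by
  set b : ℝ := 1 - a with hb
  have hb0 : 0 < b := by rw [hb]; linarith
  set ξ : ℝ → ℝ := fun t => Real.smoothTransition ((1 - t) / b) with hξ
  have hcd : ContDiff ℝ 1 ξ := by
    have h1 : ContDiff ℝ 1 (fun t : ℝ => (1 - t) / b) := (contDiff_const.sub contDiff_id).div_const b
    exact (Real.smoothTransition.contDiff (n := 1)).comp h1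
  have hone : ∀ t, t ≤ a → ξ t = 1 := by
    intro t ht
    refine Real.smoothTransition.one_of_one_le ?_
    rw [le_div_iff₀ hb0, hb]
    linarith
  have hzero : ∀ t, 1 ≤ t → ξ t = 0 := by
    intro t ht
    refine Real.smoothTransition.zero_of_nonpos ?_
    exact div_nonpos_of_nonpos_of_nonneg (by linarith) hb0.le
  have hanti : Antitone ξ := by
    intro s t hst
    refine Real.smoothTransition.monotone ?_
    gcongr
  have hdc : Continuous (deriv ξ) := hcd.continuous_deriv le_rfl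
  obtain ⟨C, hC⟩ := (isCompact_Icc (a := a) (b := (1 : ℝ))).exists_bound_of_continuousOn
    hdc.continuousOn
  refine ⟨max C 0, le_max_right _ _, ξ, hcd, fun t => hanti.deriv_nonpos,
    fun t => Real.smoothTransition.nonneg _, fun t => Real.smoothTransition.le_one _, hone, hzero, ?_⟩
  intro t
  by_cases h1 : t < a
  · have h2 : ξ =ᶠ[𝓝 t] fun _ => 1 := by
      filter_upwards [gt_mem_nhds h1] with s hs
      exact hone s hs.le
    rw [h2.deriv_eq, deriv_const, abs_zero]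
    exact le_max_right _ _
  · by_cases h2 : 1 < t
    · have h3 : ξ =ᶠ[𝓝 t] fun _ => 0 := by
        filter_upwards [lt_mem_nhds h2] with s hs
        exact hzero s hs.le
      rw [h3.deriv_eq, deriv_const, abs_zero]
      exact le_max_right _ _
    · exact (hC t ⟨not_lt.1 h1, not_lt.1 h2⟩).trans (le_max_left _ _)

/-- the kernel. -/
def ker (m : ℕ) (ξ : ℝ → ℝ) (σ R t : ℝ) : ℝ :=
  ∫ ρ in σ..R, ((max ρ σ) ^ (m + 1))⁻¹ * ξ (t / (max ρ σ) ^ 2)

/-- its derivative. -/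
def ker' (m : ℕ) (ξ : ℝ → ℝ) (σ R t : ℝ) : ℝ :=
  ∫ ρ in σ..R, ((max ρ σ) ^ (m + 1))⁻¹ * (((max ρ σ) ^ 2)⁻¹ * deriv ξ (t / (max ρ σ) ^ 2))

section ker

variable {m : ℕ} {ξ : ℝ → ℝ} {σ R a C : ℝ}

theorem continuous_ker'_integrand (hξ : ContDiff ℝ 1 ξ) (hσ : 0 < σ) :
    Continuous (fun p : ℝ × ℝ => ((max p.2 σ) ^ (m + 1))⁻¹ *
      (((max p.2 σ) ^ 2)⁻¹ * deriv ξ (p.1 / (max p.2 σ) ^ 2))) := by
  have hc : Continuous (deriv ξ) := hξ.continuous_deriv le_rfl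
  have h0 : ∀ p : ℝ × ℝ, max p.2 σ ≠ 0 := fun p => (lt_max_of_lt_right hσ).ne'
  have h1 : Continuous (fun p : ℝ × ℝ => max p.2 σ) := continuous_snd.max continuous_const
  have h2 : Continuous (fun p : ℝ × ℝ => p.1 / (max p.2 σ) ^ 2) :=
    continuous_fst.div (h1.pow 2) fun p => pow_ne_zero _ (h0 p)
  exact ((h1.pow _).inv₀ fun p => pow_ne_zero _ (h0 p)).mul
    (((h1.pow 2).inv₀ fun p => pow_ne_zero _ (h0 p)).mul (hc.comp h2))

theorem continuous_ker_integrand (hξ : Continuous ξ) (hσ : 0 < σ) :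
    Continuous (fun p : ℝ × ℝ => ((max p.2 σ) ^ (m + 1))⁻¹ * ξ (p.1 / (max p.2 σ) ^ 2)) := by
  have h0 : ∀ p : ℝ × ℝ, max p.2 σ ≠ 0 := fun p => (lt_max_of_lt_right hσ).ne'
  have h1 : Continuous (fun p : ℝ × ℝ => max p.2 σ) := continuous_snd.max continuous_const
  have h2 : Continuous (fun p : ℝ × ℝ => p.1 / (max p.2 σ) ^ 2) :=
    continuous_fst.div (h1.pow 2) fun p => pow_ne_zero _ (h0 p)
  exact ((h1.pow _).inv₀ fun p => pow_ne_zero _ (h0 p)).mul (hξ.comp h2)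

theorem hasDerivAt_ker (h : Cut a C ξ) (hσ : 0 < σ) (t : ℝ) :
    HasDerivAt (ker m ξ σ R) (ker' m ξ σ R t) t := by
  have hc1 := continuous_ker_integrand (m := m) h.cd.continuous hσ
  have hc2 := continuous_ker'_integrand (m := m) h.cd hσ
  have hl1 : ∀ t : ℝ, Continuous (fun ρ : ℝ => ((max ρ σ) ^ (m + 1))⁻¹ * ξ (t / (max ρ σ) ^ 2)) :=
    fun t => hc1.comp (Continuous.prodMk_right t)
  have hl2 : ∀ t : ℝ, Continuous (fun ρ : ℝ => ((max ρ σ) ^ (m + 1))⁻¹ *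
      (((max ρ σ) ^ 2)⁻¹ * deriv ξ (t / (max ρ σ) ^ 2))) :=
    fun t => hc2.comp (Continuous.prodMk_right t)
  refine (intervalIntegral.hasDerivAt_integral_of_dominated_loc_of_deriv_le
    (F := fun t ρ => ((max ρ σ) ^ (m + 1))⁻¹ * ξ (t / (max ρ σ) ^ 2))
    (F' := fun t ρ => ((max ρ σ) ^ (m + 1))⁻¹ * (((max ρ σ) ^ 2)⁻¹ * deriv ξ (t / (max ρ σ) ^ 2)))
    (bound := fun _ => (σ ^ (m + 1))⁻¹ * ((σ ^ 2)⁻¹ * C)) Filter.univ_mem
    (Eventually.of_forall fun t => (hl1 t).aestronglyMeasurable) ((hl1 t).intervalIntegrable _ _)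
    (hl2 t).aestronglyMeasurable (Eventually.of_forall fun ρ _ t _ => ?_)
    (continuous_const.intervalIntegrable _ _) (Eventually.of_forall fun ρ _ t _ => ?_)).2
  · have h1 : σ ≤ max ρ σ := le_max_right _ _
    have h2 : 0 < max ρ σ := lt_of_lt_of_le hσ h1
    rw [norm_mul, norm_mul, Real.norm_eq_abs, Real.norm_eq_abs, Real.norm_eq_abs,
      abs_of_pos (by positivity), abs_of_pos (by positivity)]
    have h3 := h.der (t / (max ρ σ) ^ 2)
    have hC : 0 ≤ C := (abs_nonneg _).trans h3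
    gcongr
  · have h1 : σ ≤ max ρ σ := le_max_right _ _
    have h2 : 0 < max ρ σ := lt_of_lt_of_le hσ h1
    have h3 : HasDerivAt (fun t : ℝ => t / (max ρ σ) ^ 2) (((max ρ σ) ^ 2)⁻¹) t := by
      have := (hasDerivAt_id t).div_const ((max ρ σ) ^ 2)
      simpa [one_div] using this
    have h4 : HasDerivAt ξ (deriv ξ (t / (max ρ σ) ^ 2)) (t / (max ρ σ) ^ 2) :=
      (h.cd.differentiable one_ne_zero _).hasDerivAt
    have h5 := (h4.comp t h3).const_mul (((max ρ σ) ^ (m + 1))⁻¹)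
    have h6 : ((max ρ σ) ^ (m + 1))⁻¹ * (((max ρ σ) ^ 2)⁻¹ * deriv ξ (t / (max ρ σ) ^ 2))
      = ((max ρ σ) ^ (m + 1))⁻¹ * (deriv ξ (t / (max ρ σ) ^ 2) * ((max ρ σ) ^ 2)⁻¹) := by ring
    rw [h6]
    exact h5

theorem deriv_ker (h : Cut a C ξ) (hσ : 0 < σ) : deriv (ker m ξ σ R) = ker' m ξ σ R :=
  funext fun t => (hasDerivAt_ker h hσ t).deriv

theorem contDiff_ker (h : Cut a C ξ) (hσ : 0 < σ) : ContDiff ℝ 1 (ker m ξ σ R) := by
  rw [contDiff_one_iff_deriv, deriv_ker h hσ]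
  refine ⟨fun t => (hasDerivAt_ker h hσ t).differentiableAt, ?_⟩
  exact intervalIntegral.continuous_parametric_intervalIntegral_of_continuous'
    (f := fun t ρ => ((max ρ σ) ^ (m + 1))⁻¹ * (((max ρ σ) ^ 2)⁻¹ * deriv ξ (t / (max ρ σ) ^ 2)))
    (continuous_ker'_integrand h.cd hσ) σ R

theorem ker_nonneg (h : Cut a C ξ) (hσ : 0 < σ) (hR : σ ≤ R) (t : ℝ) : 0 ≤ ker m ξ σ R t := by
  refine intervalIntegral.integral_nonneg hR fun ρ _ => ?_
  have h2 : 0 < max ρ σ := lt_of_lt_of_le hσ (le_max_right _ _)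
  exact mul_nonneg (by positivity) (h.nonneg _)

theorem ker'_nonpos (h : Cut a C ξ) (hσ : 0 < σ) (hR : σ ≤ R) (t : ℝ) : ker' m ξ σ R t ≤ 0 := by
  have h1 : 0 ≤ -ker' m ξ σ R t := by
    rw [ker', ← intervalIntegral.integral_neg]
    refine intervalIntegral.integral_nonneg hR fun ρ _ => ?_
    have h2 : 0 < max ρ σ := lt_of_lt_of_le hσ (le_max_right _ _)
    have h3 := h.anti (t / (max ρ σ) ^ 2)
    have h4 : 0 ≤ ((max ρ σ) ^ (m + 1))⁻¹ * (((max ρ σ) ^ 2)⁻¹ * (-deriv ξ (t / (max ρ σ) ^ 2))) :=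
      mul_nonneg (by positivity) (mul_nonneg (by positivity) (by linarith))
    linarith
  linarith

theorem ker_le (h : Cut a C ξ) (hσ : 0 < σ) (hR : σ ≤ R) (t : ℝ) :
    ker m ξ σ R t ≤ R * (σ ^ (m + 1))⁻¹ := by
  have hc1 := continuous_ker_integrand (m := m) h.cd.continuous hσ
  have h1 : ker m ξ σ R t ≤ ∫ _ρ in σ..R, (σ ^ (m + 1))⁻¹ := by
    refine intervalIntegral.integral_mono_on hR
      ((hc1.comp (Continuous.prodMk_right t)).intervalIntegrable _ _)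
      (continuous_const.intervalIntegrable _ _) fun ρ _ => ?_
    have h1 : σ ≤ max ρ σ := le_max_right _ _
    have h2 : 0 < max ρ σ := lt_of_lt_of_le hσ h1
    calc ((max ρ σ) ^ (m + 1))⁻¹ * ξ (t / (max ρ σ) ^ 2)
        ≤ (σ ^ (m + 1))⁻¹ * 1 := by
          gcongr
          · exact h.nonneg _
          · exact h.le_one _
      _ = _ := mul_one _
  refine h1.trans ?_
  rw [intervalIntegral.integral_const, smul_eq_mul]
  gcongr
  linarith

theorem ker_zero (h : Cut a C ξ) (hσ : 0 < σ) (hR : σ ≤ R) {t : ℝ} (ht : R ^ 2 ≤ t) :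
    ker m ξ σ R t = 0 := by
  rw [ker]
  have h1 : ∀ ρ ∈ Set.uIcc σ R,
      ((max ρ σ) ^ (m + 1))⁻¹ * ξ (t / (max ρ σ) ^ 2) = 0 := by
    intro ρ hρ
    rw [Set.uIcc_of_le hR] at hρ
    have h2 : 0 < max ρ σ := lt_of_lt_of_le hσ (le_max_right _ _)
    rw [h.zero, mul_zero]
    rw [one_le_div (by positivity)]
    refine le_trans ?_ ht
    have : max ρ σ ≤ R := max_le hρ.2 hR
    gcongr
  rw [intervalIntegral.integral_congr h1]
  simp

theorem ker_identity (h : Cut a C ξ) (hσ : 0 < σ) (hR : σ ≤ R) (t : ℝ) :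
    m * ker m ξ σ R t + 2 * t * ker' m ξ σ R t
      = (σ ^ m)⁻¹ * ξ (t / σ ^ 2) - (R ^ m)⁻¹ * ξ (t / R ^ 2) := by
  have hc1 : Continuous (fun ρ : ℝ => ((max ρ σ) ^ (m + 1))⁻¹ * ξ (t / (max ρ σ) ^ 2)) :=
    (continuous_ker_integrand (m := m) h.cd.continuous hσ).comp (Continuous.prodMk_right t)
  have hc2 : Continuous (fun ρ : ℝ => ((max ρ σ) ^ (m + 1))⁻¹ *
      (((max ρ σ) ^ 2)⁻¹ * deriv ξ (t / (max ρ σ) ^ 2))) :=
    (continuous_ker'_integrand (m := m) h.cd hσ).comp (Continuous.prodMk_right t)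
  have hi1 := (hc1.const_mul (-(m : ℝ))).intervalIntegrable (μ := volume) σ R
  have hi2 := (hc2.const_mul (-(2 * t))).intervalIntegrable (μ := volume) σ R
  have hd : ∀ ρ ∈ Set.uIcc σ R, HasDerivAt (fun ρ : ℝ => (ρ ^ m)⁻¹ * ξ (t / ρ ^ 2))
      (-(m : ℝ) * (((max ρ σ) ^ (m + 1))⁻¹ * ξ (t / (max ρ σ) ^ 2))
        + -(2 * t) * (((max ρ σ) ^ (m + 1))⁻¹ *
          (((max ρ σ) ^ 2)⁻¹ * deriv ξ (t / (max ρ σ) ^ 2)))) ρ := by
    intro ρ hρ
    rw [Set.uIcc_of_le hR] at hρ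
    have hρ0 : 0 < ρ := lt_of_lt_of_le hσ hρ.1
    rw [max_eq_left hρ.1]
    have e1 : HasDerivAt (fun ρ : ℝ => (ρ ^ m)⁻¹) (-(m : ℝ) * (ρ ^ (m + 1))⁻¹) ρ := by
      refine ((hasDerivAt_pow m ρ).fun_inv (pow_ne_zero m hρ0.ne')).congr_deriv ?_
      rcases m with _ | m
      · simp
      · simp only [Nat.add_sub_cancel]
        field_simp
        ring
    have e2 : HasDerivAt (fun ρ : ℝ => t / ρ ^ 2) (-(2 * t) * (ρ ^ 3)⁻¹) ρ := by
      refine (((hasDerivAt_pow 2 ρ).fun_inv (pow_ne_zero 2 hρ0.ne')).const_mul t).congr_deriv ?_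
      simp only [Nat.cast_ofNat, Nat.add_one_sub_one, pow_one]
      field_simp
    have e3 : HasDerivAt ξ (deriv ξ (t / ρ ^ 2)) (t / ρ ^ 2) :=
      (h.cd.differentiable one_ne_zero _).hasDerivAt
    have e4 := e1.fun_mul (e3.comp ρ e2)
    refine e4.congr_deriv ?_
    simp only [Function.comp]
    field_simp
    ring
  have h1 := intervalIntegral.integral_eq_sub_of_hasDerivAt hd (hi1.add hi2)
  rw [intervalIntegral.integral_add hi1 hi2, intervalIntegral.integral_const_mul,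
    intervalIntegral.integral_const_mul] at h1
  have h2 : (∫ ρ in σ..R, ((max ρ σ) ^ (m + 1))⁻¹ * ξ (t / (max ρ σ) ^ 2)) = ker m ξ σ R t := rfl
  have h3 : (∫ ρ in σ..R, ((max ρ σ) ^ (m + 1))⁻¹ *
    (((max ρ σ) ^ 2)⁻¹ * deriv ξ (t / (max ρ σ) ^ 2))) = ker' m ξ σ R t := rfl
  rw [h2, h3] at h1
  linarith

end ker

/-! ### the slab mass inequality -/

variable {m k : ℕ} {U : Set (Euc k)} {V : Measure (Euc k × L k)}

/-- mass of a set of points. -/
def ms (V : Measure (Euc k × L k)) (A : Set (Euc k)) : ℝ := (V (A ×ˢ Set.univ)).toReal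

/-- total tilt over a set of points. -/
def tl (P : L k) (V : Measure (Euc k × L k)) (A : Set (Euc k)) : ℝ :=
  ∫ p in A ×ˢ Set.univ, tilt P p.2 ∂V

/-- open cylinder. -/
def cyl (P : L k) (c : Euc k) (R W : ℝ) : Set (Euc k) := {x | ‖hz P c x‖ < R ∧ ‖vt P c x‖ < W}

theorem continuous_hz (P : L k) (c : Euc k) : Continuous (hz P c) :=
  P.continuous.comp (continuous_id.sub continuous_const)

theorem continuous_vt (P : L k) (c : Euc k) : Continuous (vt P c) :=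
  (continuous_id.sub continuous_const).sub (continuous_hz P c)

theorem isOpen_cyl (P : L k) (c : Euc k) (R W : ℝ) : IsOpen (cyl P c R W) :=
  (isOpen_lt (continuous_hz P c).norm continuous_const).inter
    (isOpen_lt (continuous_vt P c).norm continuous_const)

theorem cyl_subset {P : L k} {j : ℕ} (hP : P ∈ G j k) {c : Euc k} {R W : ℝ} (hR : 0 ≤ R)
    (hW : 0 ≤ W) : cyl P c R W ⊆ Metric.closedBall c (R + W) := fun _x hx =>
  mem_of_slab hP hR hW (by have := hx.1; gcongr) (by have := hx.2; gcongr)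

theorem ms_nonneg (V : Measure (Euc k × L k)) (A : Set (Euc k)) : 0 ≤ ms V A :=
  ENNReal.toReal_nonneg

theorem tl_nonneg (hc : ∀ᵐ p ∂V, p.2 ∈ G m k) {P : L k} {j : ℕ} (hP : P ∈ G j k)
    (A : Set (Euc k)) : 0 ≤ tl P V A := by
  refine integral_nonneg_of_ae ?_
  filter_upwards [ae_restrict_of_ae hc] with p hp
  exact tilt_nonneg hP hp

theorem slab_mass : ∃ C : ℝ, 0 ≤ C ∧ ∀ {m k : ℕ} {U : Set (Euc k)} {V : Measure (Euc k × L k)}
    (_hV : Stat m k U V) {P : L k} (_hP : P ∈ G m k) {c : Euc k} {R W s α lam : ℝ} (_hα : 0 < α)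
    (_hα1 : α < 1) (_hs : 0 < s) (_hsR : s ≤ α * R) (_hsW : 2 * s ≤ W) (_hlam : 0 < lam)
    (_hU : Metric.closedBall c (R + W) ⊆ U),
    (α / s) ^ m * ms V (Metric.closedBall c s) ≤ (R ^ m)⁻¹ * ms V (cyl P c R W)
      + R * (α / s) ^ (m + 1) * ((1 + C * R / (lam * W)) * tl P V (Metric.closedBall c (R + W))
        + C * R * lam / W * ms V (Metric.closedBall c (R + W))) := by
  obtain ⟨C, hC, ξ₀, hξ₀⟩ := exists_cut (a := 1 / 4) (by norm_num)
  refine ⟨C, hC, ?_⟩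
  intro m k U V hV P hP c R W s α lam hα hα1 hs hsR hsW hlam hU
  obtain ⟨C', hC', ξ, hξ⟩ := exists_cut (a := α ^ 2) (by nlinarith)
  have hW : 0 < W := by linarith
  have hR : 0 < R := by
    by_contra hcon
    have : α * R ≤ 0 := mul_nonpos_of_nonneg_of_nonpos hα.le (not_lt.1 hcon)
    linarith
  set σ : ℝ := s / α with hσ
  have hσ0 : 0 < σ := div_pos hs hα
  have hσR : σ ≤ R := by rw [hσ, div_le_iff₀ hα]; linarith
  set κ : ℝ → ℝ := fun t => ξ₀ (t / W ^ 2) with hκdef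
  have hκ : ContDiff ℝ 1 κ := hξ₀.cd.comp (contDiff_id.div_const _)
  have hκd : ∀ t, deriv κ t = deriv ξ₀ (t / W ^ 2) * (W ^ 2)⁻¹ := by
    intro t
    have h1 : HasDerivAt (fun t : ℝ => t / W ^ 2) ((W ^ 2)⁻¹) t := by
      have := (hasDerivAt_id t).div_const (W ^ 2)
      simpa [one_div] using this
    have h2 : HasDerivAt ξ₀ (deriv ξ₀ (t / W ^ 2)) (t / W ^ 2) :=
      (hξ₀.cd.differentiable one_ne_zero _).hasDerivAt
    exact (h2.comp t h1).deriv
  have h1W : ∀ t, W ^ 2 ≤ t → 1 ≤ t / W ^ 2 := by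
    intro t ht
    rw [one_le_div (by positivity)]
    exact ht
  set g : ℝ → ℝ := ker m ξ σ R with hg
  have hgd : deriv g = ker' m ξ σ R := deriv_ker hξ hσ0
  have hσs : (σ ^ (m + 1))⁻¹ = (α / s) ^ (m + 1) := by
    rw [hσ, ← inv_pow, inv_div]
  have hmain := slab_le hV hP (c := c) (R := R) (W := W) (B := 2 * C / W)
    (Γ := R * (σ ^ (m + 1))⁻¹) (lam := lam) hR.le hW.le (by positivity) (by positivity) hlam hU
    (κ := κ) (g := g) hκ (contDiff_ker hξ hσ0) (fun t ht => hξ₀.zero _ (h1W t ht))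
    (fun t ht => by rw [hκd, hξ₀.deriv_zero (h1W t ht), zero_mul])
    (fun t => hξ₀.nonneg _) (fun t => hξ₀.le_one _)
    (fun t ht => by
      by_cases htW : t ≤ W
      · rw [hκd, abs_mul, abs_of_pos (show (0 : ℝ) < (W ^ 2)⁻¹ by positivity)]
        have h1 := hξ₀.der (t ^ 2 / W ^ 2)
        calc 2 * (|deriv ξ₀ (t ^ 2 / W ^ 2)| * (W ^ 2)⁻¹) * t ≤ 2 * (C * (W ^ 2)⁻¹) * W := by
              gcongr
          _ = 2 * C / W := by field_simp
      · have h2 : W ^ 2 ≤ t ^ 2 := by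
          have := (not_le.1 htW).le
          gcongr
        rw [hκd, hξ₀.deriv_zero (h1W _ h2), zero_mul, abs_zero, mul_zero, zero_mul]
        positivity)
    (fun t ht => ker_zero hξ hσ0 hσR ht) (fun t => ker_nonneg hξ hσ0 hσR t)
    (fun t => ker_le hξ hσ0 hσR t) (fun t _ => by rw [hgd]; exact ker'_nonpos hξ hσ0 hσR t)
  set D := Metric.closedBall c (R + W) with hD
  have hDc : IsCompact D := isCompact_closedBall _ _
  have hDV : V (D ×ˢ Set.univ) < ⊤ := hV.fin D hDc hU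
  have hzc : Continuous fun p : Euc k × L k => hz P c p.1 := (continuous_hz P c).comp continuous_fst
  have hvc : Continuous fun p : Euc k × L k => vt P c p.1 := (continuous_vt P c).comp continuous_fst
  have hκc := hκ.continuous
  have hξc := hξ.cd.continuous
  -- the two weights
  have hout : ∀ ρ : ℝ, 0 < ρ → ρ ≤ R → ∀ p : Euc k × L k, p.1 ∉ D →
      κ (‖vt P c p.1‖ ^ 2) * ξ (‖hz P c p.1‖ ^ 2 / ρ ^ 2) = 0 := by
    intro ρ hρ hρR p hp
    by_cases h1 : ‖hz P c p.1‖ ^ 2 ≤ ρ ^ 2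
    · by_cases h2 : ‖vt P c p.1‖ ^ 2 ≤ W ^ 2
      · refine absurd (mem_of_slab hP hR.le hW.le (h1.trans (by gcongr)) h2) hp
      · have : κ (‖vt P c p.1‖ ^ 2) = 0 := hξ₀.zero _ (h1W _ (not_le.1 h2).le)
        rw [this, zero_mul]
    · have : ξ (‖hz P c p.1‖ ^ 2 / ρ ^ 2) = 0 := by
        refine hξ.zero _ ?_
        rw [one_le_div (by positivity)]
        exact (not_le.1 h1).le
      rw [this, mul_zero]
  have hint : ∀ ρ : ℝ, 0 < ρ → ρ ≤ R → Integrable (fun p : Euc k × L k =>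
      κ (‖vt P c p.1‖ ^ 2) * ξ (‖hz P c p.1‖ ^ 2 / ρ ^ 2)) V := fun ρ hρ hρR =>
    integrable_of_cont hV.conc hDc hDV (by fun_prop) (hout ρ hρ hρR)
  have hid : ∫ p, κ (‖vt P c p.1‖ ^ 2) *
        (m * g (‖hz P c p.1‖ ^ 2) + 2 * ‖hz P c p.1‖ ^ 2 * deriv g (‖hz P c p.1‖ ^ 2)) ∂V
      = (σ ^ m)⁻¹ * (∫ p, κ (‖vt P c p.1‖ ^ 2) * ξ (‖hz P c p.1‖ ^ 2 / σ ^ 2) ∂V)
        - (R ^ m)⁻¹ * (∫ p, κ (‖vt P c p.1‖ ^ 2) * ξ (‖hz P c p.1‖ ^ 2 / R ^ 2) ∂V) := by
    rw [← integral_const_mul, ← integral_const_mul,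
      ← integral_sub ((hint σ hσ0 hσR).const_mul _) ((hint R hR le_rfl).const_mul _)]
    refine integral_congr_ae (Eventually.of_forall fun p => ?_)
    have := ker_identity (m := m) hξ hσ0 hσR (‖hz P c p.1‖ ^ 2)
    simp only [hgd]
    rw [this]
    ring
  have hlow : ms V (Metric.closedBall c s) ≤
      ∫ p, κ (‖vt P c p.1‖ ^ 2) * ξ (‖hz P c p.1‖ ^ 2 / σ ^ 2) ∂V := by
    have hBm : MeasurableSet (Metric.closedBall c s ×ˢ (Set.univ : Set (L k))) :=
      Metric.isClosed_closedBall.measurableSet.prod MeasurableSet.univ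
    have hBV : V (Metric.closedBall c s ×ˢ (Set.univ : Set (L k))) < ⊤ := by
      refine hV.fin _ (isCompact_closedBall c s) (subset_trans ?_ hU)
      exact Metric.closedBall_subset_closedBall (by nlinarith)
    have h1 : ms V (Metric.closedBall c s) =
        ∫ p, (Metric.closedBall c s ×ˢ (Set.univ : Set (L k))).indicator (fun _ => (1 : ℝ)) p ∂V := by
      rw [integral_indicator hBm, setIntegral_const, smul_eq_mul, mul_one]
      rfl
    rw [h1]
    refine integral_mono_ae ?_ (hint σ hσ0 hσR) (Eventually.of_forall fun p => ?_)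
    · exact (integrableOn_const hBV.ne).integrable_indicator hBm
    · by_cases hp : p ∈ Metric.closedBall c s ×ˢ (Set.univ : Set (L k))
      · simp only [Set.indicator_of_mem hp]
        have h2 : ‖p.1 - c‖ ≤ s := by
          have := hp.1
          rwa [Metric.mem_closedBall, dist_eq_norm] at this
        have h3 := hz_vt_sq hP c p.1
        have h4 : ‖p.1 - c‖ ^ 2 ≤ s ^ 2 := by gcongr
        have h5 : κ (‖vt P c p.1‖ ^ 2) = 1 := by
          refine hξ₀.one _ ?_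
          rw [div_le_iff₀ (by positivity)]
          nlinarith [sq_nonneg ‖hz P c p.1‖]
        have h6 : ξ (‖hz P c p.1‖ ^ 2 / σ ^ 2) = 1 := by
          refine hξ.one _ ?_
          rw [div_le_iff₀ (by positivity)]
          have : α ^ 2 * σ ^ 2 = s ^ 2 := by rw [hσ]; field_simp
          rw [this]
          nlinarith [sq_nonneg ‖vt P c p.1‖]
        rw [h5, h6, one_mul]
      · simp only [Set.indicator_of_notMem hp]
        exact mul_nonneg (hξ₀.nonneg _) (hξ.nonneg _)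
  have hup : (∫ p, κ (‖vt P c p.1‖ ^ 2) * ξ (‖hz P c p.1‖ ^ 2 / R ^ 2) ∂V) ≤
      ms V (cyl P c R W) := by
    have hBm : MeasurableSet (cyl P c R W ×ˢ (Set.univ : Set (L k))) :=
      (isOpen_cyl P c R W).measurableSet.prod MeasurableSet.univ
    have hBV : V (cyl P c R W ×ˢ (Set.univ : Set (L k))) < ⊤ :=
      (measure_mono (Set.prod_mono (cyl_subset hP hR.le hW.le) subset_rfl)).trans_lt hDV
    have h1 : ms V (cyl P c R W) =
        ∫ p, (cyl P c R W ×ˢ (Set.univ : Set (L k))).indicator (fun _ => (1 : ℝ)) p ∂V := by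
      rw [integral_indicator hBm, setIntegral_const, smul_eq_mul, mul_one]
      rfl
    rw [h1]
    refine integral_mono_ae (hint R hR le_rfl) ?_ (Eventually.of_forall fun p => ?_)
    · exact (integrableOn_const hBV.ne).integrable_indicator hBm
    · by_cases hp : p ∈ cyl P c R W ×ˢ (Set.univ : Set (L k))
      · simp only [Set.indicator_of_mem hp]
        exact mul_le_one₀ (hξ₀.le_one _) (hξ.nonneg _) (hξ.le_one _)
      · simp only [Set.indicator_of_notMem hp]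
        have hp' : ¬ (‖hz P c p.1‖ < R ∧ ‖vt P c p.1‖ < W) := fun h => hp ⟨h, trivial⟩
        rw [not_and_or, not_lt, not_lt] at hp'
        refine le_of_eq ?_
        rcases hp' with h | h
        · rw [hξ.zero, mul_zero]
          rw [one_le_div (by positivity)]
          gcongr
        · have : κ (‖vt P c p.1‖ ^ 2) = 0 := hξ₀.zero _ (h1W _ (by gcongr))
          rw [this, zero_mul]
  rw [hid] at hmain
  have e1 : (α / s) ^ m = (σ ^ m)⁻¹ := by rw [hσ, ← inv_pow, inv_div]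
  have e2 : (1 + 2 * C / W * R / (2 * lam)) = 1 + C * R / (lam * W) := by
    field_simp
  have e3 : 2 * C / W * R * lam / 2 = C * R * lam / W := by
    field_simp
  rw [e2, e3, hσs] at hmain
  rw [e1]
  have h1 : (σ ^ m)⁻¹ * ms V (Metric.closedBall c s) ≤
      (σ ^ m)⁻¹ * ∫ p, κ (‖vt P c p.1‖ ^ 2) * ξ (‖hz P c p.1‖ ^ 2 / σ ^ 2) ∂V := by
    gcongr
  have h2 : (R ^ m)⁻¹ * (∫ p, κ (‖vt P c p.1‖ ^ 2) * ξ (‖hz P c p.1‖ ^ 2 / R ^ 2) ∂V) ≤
      (R ^ m)⁻¹ * ms V (cyl P c R W) := by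
    gcongr
  have h3 : tl P V D = ∫ p in D ×ˢ Set.univ, tilt P p.2 ∂V := rfl
  have h4 : ms V D = (V (D ×ˢ Set.univ)).toReal := rfl
  rw [h3, h4]
  linarith

end Crest.Agent.R234.In_947
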