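import Crest.Agent.R234.Top3_395
import Crest.Agent.R234.Main2_456

/-!
Row 234 (helper395), file 4 of VF-TOP: node (F9) of #6174, cone-like case, for the references of
`Main2_456` (graphs in a frame).
-/

set_option autoImplicit false
set_option linter.unusedSectionVars false

open MeasureTheory Crest.GeometryTopology.Submanifold Filter Topology
open scoped ENNReal InnerProductSpace

noncomputable section

namespace Crest.Agent.R234.Top_395

open Crest.Agent.R234.Vf_884 Crest.Agent.R234.Main_456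

variable {m n k : ℕ} {U : Set (Euc k)} {V : Measure (Euc k × L k)}

/-! ### algebra of a frame -/

section frame

variable {π : Euc k →L[ℝ] Euc m} {ρ : Euc k →L[ℝ] Euc n}

theorem fr_pp (h : Frame π ρ) (v : Euc m) : π (ContinuousLinearMap.adjoint π v) = v :=
  congrArg (fun A : Euc m →L[ℝ] Euc m => A v) h.coπ

theorem fr_rr (h : Frame π ρ) (v : Euc n) : ρ (ContinuousLinearMap.adjoint ρ v) = v :=
  congrArg (fun A : Euc n →L[ℝ] Euc n => A v) h.coρ

theorem fr_pr (h : Frame π ρ) (v : Euc n) : π (ContinuousLinearMap.adjoint ρ v) = 0 :=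
  congrArg (fun A : Euc n →L[ℝ] Euc m => A v) h.orth

theorem fr_rp (h : Frame π ρ) (v : Euc m) : ρ (ContinuousLinearMap.adjoint π v) = 0 := by
  refine ext_inner_left ℝ fun w => ?_
  rw [← ContinuousLinearMap.adjoint_inner_left, ContinuousLinearMap.adjoint_inner_right, fr_pr h,
    inner_zero_left, inner_zero_right]

theorem fr_sum (h : Frame π ρ) (v : Euc k) :
    ContinuousLinearMap.adjoint π (π v) + ContinuousLinearMap.adjoint ρ (ρ v) = v :=
  congrArg (fun A : Euc k →L[ℝ] Euc k => A v) h.full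

theorem fr_norm_sq (h : Frame π ρ) (v : Euc k) : ‖v‖ ^ 2 = ‖π v‖ ^ 2 + ‖ρ v‖ ^ 2 := by
  have h1 : ⟪v, v⟫_ℝ = ⟪π v, π v⟫_ℝ + ⟪ρ v, ρ v⟫_ℝ := by
    conv_lhs => rw [← fr_sum h v]
    rw [inner_add_left, ContinuousLinearMap.adjoint_inner_left,
      ContinuousLinearMap.adjoint_inner_left, fr_sum h v]
  rw [real_inner_self_eq_norm_sq, real_inner_self_eq_norm_sq, real_inner_self_eq_norm_sq] at h1
  exact h1

theorem fr_norm_p (h : Frame π ρ) (v : Euc k) : ‖π v‖ ≤ ‖v‖ := by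
  have := fr_norm_sq h v
  exact le_of_sq_le_sq (by nlinarith [sq_nonneg ‖ρ v‖]) (norm_nonneg _)

theorem fr_norm_r (h : Frame π ρ) (v : Euc k) : ‖ρ v‖ ≤ ‖v‖ := by
  have := fr_norm_sq h v
  exact le_of_sq_le_sq (by nlinarith [sq_nonneg ‖π v‖]) (norm_nonneg _)

/-- the tangent plane of a graph. -/
def gpl (π : Euc k →L[ℝ] Euc m) (ρ : Euc k →L[ℝ] Euc n) (B : Euc m →L[ℝ] Euc n) :
    Submodule ℝ (Euc k) :=
  LinearMap.range (ContinuousLinearMap.adjoint π + ContinuousLinearMap.adjoint ρ ∘L B).toLinearMap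

theorem finrank_gpl (h : Frame π ρ) (B : Euc m →L[ℝ] Euc n) :
    Module.finrank ℝ (gpl π ρ B) = m := by
  unfold gpl
  rw [LinearMap.finrank_range_of_inj, finrank_euclideanSpace, Fintype.card_fin]
  intro v w hvw
  have h1 := congrArg π hvw
  simpa [fr_pp h, fr_pr h] using h1

/-- the projection onto the tangent plane of the graph of `B`. -/
def gpr (π : Euc k →L[ℝ] Euc m) (ρ : Euc k →L[ℝ] Euc n) (B : Euc m →L[ℝ] Euc n) : L k :=
  (gpl π ρ B).starProjection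

theorem gpr_mem (h : Frame π ρ) (B : Euc m →L[ℝ] Euc n) : gpr π ρ B ∈ G m k :=
  starProjection_mem_G _ (finrank_gpl h B)

theorem lin_gpr (h : Frame π ρ) (B : Euc m →L[ℝ] Euc n) (v : Euc k) :
    (ρ - B ∘L π) (gpr π ρ B v) = 0 := by
  have h1 : gpr π ρ B v ∈ gpl π ρ B := Submodule.starProjection_apply_mem _ v
  obtain ⟨ξ, hξ⟩ := h1
  rw [← hξ]
  simp [fr_pp h, fr_rr h, fr_pr h, fr_rp h]

/-- a vector normal to a plane of dimension `m` killed by `ρ - B π` is controlled by its height. -/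
theorem norm_normal_le (h : Frame π ρ) (B : Euc m →L[ℝ] Euc n) {w : Euc k}
    (hw : ∀ ξ : Euc m, ⟪w, ContinuousLinearMap.adjoint π ξ +
      ContinuousLinearMap.adjoint ρ (B ξ)⟫_ℝ = 0) :
    ‖w‖ ^ 2 ≤ (1 + ‖B‖ ^ 2) * ‖(ρ - B ∘L π) w‖ ^ 2 := by
  have h1 : π w = -(ContinuousLinearMap.adjoint B (ρ w)) := by
    refine ext_inner_right ℝ fun ξ => ?_
    have h2 := hw ξ
    rw [inner_add_right, ContinuousLinearMap.adjoint_inner_right,
      ContinuousLinearMap.adjoint_inner_right] at h2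
    rw [inner_neg_left, ContinuousLinearMap.adjoint_inner_left]
    linarith
  have h2 : ‖ρ w‖ ≤ ‖(ρ - B ∘L π) w‖ := by
    have h3 : (ρ - B ∘L π) w = ρ w + B (ContinuousLinearMap.adjoint B (ρ w)) := by
      simp [h1]
    have h4 : ‖ρ w‖ ^ 2 ≤ ⟪ρ w, (ρ - B ∘L π) w⟫_ℝ := by
      rw [h3, inner_add_right, real_inner_self_eq_norm_sq,
        ← ContinuousLinearMap.adjoint_inner_left, real_inner_self_eq_norm_sq]
      nlinarith [sq_nonneg ‖ContinuousLinearMap.adjoint B (ρ w)‖]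
    have h5 : ⟪ρ w, (ρ - B ∘L π) w⟫_ℝ ≤ ‖ρ w‖ * ‖(ρ - B ∘L π) w‖ := real_inner_le_norm _ _
    rcases (norm_nonneg (ρ w)).eq_or_lt with h0 | h0
    · rw [← h0]; exact norm_nonneg _
    · nlinarith
  have h3 : ‖π w‖ ≤ ‖B‖ * ‖ρ w‖ := by
    rw [h1, norm_neg]
    refine (ContinuousLinearMap.le_opNorm _ _).trans (le_of_eq ?_)
    rw [LinearIsometryEquiv.norm_map]
  rw [fr_norm_sq h w]
  have h4 : ‖π w‖ ^ 2 ≤ ‖B‖ ^ 2 * ‖ρ w‖ ^ 2 := by
    rw [← mul_pow]; gcongr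
  have h5 : ‖ρ w‖ ^ 2 ≤ ‖(ρ - B ∘L π) w‖ ^ 2 := by gcongr
  nlinarith [sq_nonneg ‖B‖]

theorem norm_sub_gpr_le (h : Frame π ρ) (B : Euc m →L[ℝ] Euc n) (v : Euc k) :
    ‖v - gpr π ρ B v‖ ^ 2 ≤ (1 + ‖B‖ ^ 2) * ‖(ρ - B ∘L π) v‖ ^ 2 := by
  have h1 := norm_normal_le h B (w := v - gpr π ρ B v) (fun ξ => by
    have h2 : v - gpr π ρ B v ∈ (gpl π ρ B)ᗮ := Submodule.sub_starProjection_mem_orthogonal v
    have h3 := (Submodule.mem_orthogonal' _ _).1 h2
      (ContinuousLinearMap.adjoint π ξ + ContinuousLinearMap.adjoint ρ (B ξ)) ⟨ξ, rfl⟩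
    exact h3)
  rwa [map_sub, lin_gpr h B, sub_zero] at h1

theorem norm_lin_le (h : Frame π ρ) (B : Euc m →L[ℝ] Euc n) : ‖ρ - B ∘L π‖ ≤ 1 + ‖B‖ := by
  refine ContinuousLinearMap.opNorm_le_bound _ (by positivity) fun v => ?_
  calc ‖(ρ - B ∘L π) v‖ = ‖ρ v - B (π v)‖ := rfl
    _ ≤ ‖ρ v‖ + ‖B (π v)‖ := norm_sub_le _ _
    _ ≤ ‖v‖ + ‖B‖ * ‖v‖ := by
      refine add_le_add (fr_norm_r h v) ((B.le_opNorm _).trans ?_)
      gcongr
      exact fr_norm_p h v
    _ = _ := by ring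

end frame

/-! ### planes -/

theorem norm_one_sub_le {P : L k} (hP : P ∈ G m k) :
    ‖ContinuousLinearMap.id ℝ (Euc k) - P‖ ≤ 1 := by
  refine ContinuousLinearMap.opNorm_le_bound _ zero_le_one fun v => ?_
  have := G_norm_sq_add hP v
  rw [one_mul]
  exact le_of_sq_le_sq (by
    change ‖v - P v‖ ^ 2 ≤ _
    nlinarith [sq_nonneg ‖P v‖]) (norm_nonneg _)

/-- planar height excess w.r.t. the plane `x + range P`. -/
def pex (m : ℕ) (V : Measure (Euc k × L k)) (P : L k) (x : Euc k) (r : ℝ) : ℝ :=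
  ex m V (ContinuousLinearMap.id ℝ (Euc k) - P) x r

/-- `V` is not `ω`-flat at scale `r` (w.r.t. any plane through `x`). -/
def NotFlat (m : ℕ) (V : Measure (Euc k × L k)) (x : Euc k) (ω r : ℝ) : Prop :=
  ∀ P ∈ G m k, ω < pex m V P x r

/-- lower bound of the separation from every graph. -/
theorem sep_low (m n : ℕ) (hm : 1 ≤ m) {ω κ a₁ θ₁ Λ : ℝ} (hω : 0 < ω) (hκ : 0 ≤ κ) (ha₁ : 0 < a₁)
    (hθ₁ : 0 < θ₁) (hΛ : 0 < Λ) :
    ∃ c : ℝ, 0 < c ∧ ∃ g₀ : ℝ, 0 < g₀ ∧ g₀ ≤ 1 ∧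
      ∀ {U : Set (Euc k)} {V : Measure (Euc k × L k)},
      Stat m k U V → ∀ {x : Euc k} {r a θ : ℝ}, 0 < r → 0 < a → a ≤ a₁ →
      Metric.closedBall x (a * r) ⊆ U → θ₁ ≤ θ → θ + g₀ ≤ Λ →
      (∀ s ∈ Set.Ioo 0 (a * r), θ * s ^ m ≤ (mass V).real (Metric.closedBall x s)) →
      (mass V).real (Metric.ball x (a * r)) ≤ (θ + g₀) * (a * r) ^ m →
      NotFlat m V x ω (a * r) →
      ∀ (π : Euc k →L[ℝ] Euc m) (ρ : Euc k →L[ℝ] Euc n), Frame π ρ → ∀ (u : Euc m → Euc n)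
        (B : Euc m →L[ℝ] Euc n),
      ContinuousOn u (Metric.closedBall 0 a) → ‖B‖ ≤ κ →
      (∀ w ∈ Metric.closedBall (0 : Euc m) a, ‖u w - u 0 - B w‖ ≤ κ * ‖w‖ ^ 2) →
      c * (a * r) ^ (m + 2) <
        ∫ p in Prod.fst ⁻¹' (Metric.ball x (a * r)), ‖hgt π ρ x r u p.1‖ ^ 2 ∂V := by
  have hδ : 0 < ω / (1 + κ ^ 2) := by positivity
  obtain ⟨c, hc, g₀, hg₀, hg₁, H⟩ := flat_of_sep (k := k) (F := Euc n) m hm (θ₁ := θ₁) (Λ := Λ)
    (K₀ := max (1 + κ) (κ * a₁)) (δ := ω / (1 + κ ^ 2)) hθ₁ hΛ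
    (le_trans (by positivity) (le_max_left _ _)) hδ
  refine ⟨c, hc, g₀, hg₀, hg₁, ?_⟩
  intro U V hV x r a θ hr ha haa hU hθ1 hθΛ hθ hM hnf π ρ hF u B hu hB hu2
  have har : 0 < a * r := by positivity
  by_contra hcon
  rw [not_lt] at hcon
  have hmaps : ∀ z ∈ Metric.closedBall x (a * r), r⁻¹ • π (z - x) ∈
      Metric.closedBall (0 : Euc m) a := by
    intro z hz
    rw [mem_closedBall_zero_iff, norm_smul, Real.norm_of_nonneg (by positivity),
      inv_mul_le_iff₀ hr]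
    have := fr_norm_p hF (z - x)
    rw [mem_closedBall_iff_norm] at hz
    linarith [mul_comm r a]
  have hpc : Continuous fun z : Euc k => r⁻¹ • π (z - x) :=
    (π.continuous.comp (continuous_id.sub continuous_const)).const_smul r⁻¹
  have hG : ContinuousOn (hgt π ρ x r u) (Metric.closedBall x (a * r)) := by
    unfold hgt
    have h1 : ContinuousOn (fun z : Euc k => u (r⁻¹ • π (z - x))) (Metric.closedBall x (a * r)) :=
      hu.comp hpc.continuousOn hmaps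
    have h2 : Continuous fun z : Euc k => ρ (z - x) :=
      ρ.continuous.comp (continuous_id.sub continuous_const)
    exact h2.continuousOn.sub (h1.const_smul r)
  have hx0 : hgt π ρ x r u x = -(r • u 0) := by simp [hgt]
  have hGA : ∀ z ∈ Metric.closedBall x (a * r),
      ‖hgt π ρ x r u z - hgt π ρ x r u x - (ρ - B ∘L π) (z - x)‖ ≤
        max (1 + κ) (κ * a₁) * ‖z - x‖ ^ 2 / (a * r) := by
    intro z hz
    have h1 := hu2 _ (hmaps z hz)
    have e1 : hgt π ρ x r u z - hgt π ρ x r u x - (ρ - B ∘L π) (z - x) =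
        -(r • (u (r⁻¹ • π (z - x)) - u 0 - B (r⁻¹ • π (z - x)))) := by
      rw [hx0]
      have e2 : (ρ - B ∘L π) (z - x) = ρ (z - x) - B (π (z - x)) := rfl
      rw [e2]
      unfold hgt
      rw [map_smul, smul_sub, smul_sub, smul_smul, mul_inv_cancel₀ hr.ne', one_smul]
      abel
    rw [e1, norm_neg, norm_smul, Real.norm_of_nonneg hr.le]
    have h2 : ‖r⁻¹ • π (z - x)‖ ≤ ‖z - x‖ / r := by
      rw [norm_smul, Real.norm_of_nonneg (by positivity), div_eq_inv_mul]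
      gcongr
      exact fr_norm_p hF _
    calc r * ‖u (r⁻¹ • π (z - x)) - u 0 - B (r⁻¹ • π (z - x))‖
        ≤ r * (κ * (‖z - x‖ / r) ^ 2) := by
          gcongr
          exact h1.trans (by gcongr)
      _ = (κ * a) * ‖z - x‖ ^ 2 / (a * r) := by
          field_simp
      _ ≤ max (1 + κ) (κ * a₁) * ‖z - x‖ ^ 2 / (a * r) := by
          gcongr
          refine le_trans ?_ (le_max_right _ _)
          gcongr
  have hAn : ‖ρ - B ∘L π‖ ≤ max (1 + κ) (κ * a₁) :=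
    (norm_lin_le hF B).trans (le_trans (by gcongr) (le_max_left _ _))
  have hsep : Top_395.sep m V (hgt π ρ x r u) x (a * r) ≤ c := by
    unfold Top_395.sep
    rw [inv_mul_le_iff₀ (by positivity)]
    linarith [mul_comm c ((a * r) ^ (m + 2))]
  have h3 := (H hV (ρ - B ∘L π) (hgt π ρ x r u) har hU hθ1 hθΛ hθ hM hAn hG hGA hsep).2
  have h4 := hnf _ (gpr_mem hF B)
  have h5 : pex m V (gpr π ρ B) x (a * r) ≤
      (1 + ‖B‖ ^ 2) * ex m V (ρ - B ∘L π) x (a * r) := by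
    unfold pex ex
    rw [← mul_assoc, mul_comm (1 + ‖B‖ ^ 2), mul_assoc]
    refine mul_le_mul_of_nonneg_left ?_ (by positivity)
    rw [← integral_const_mul]
    have hb : ∀ A : Euc k →L[ℝ] Euc n, IntegrableOn (fun p : Euc k × L k => ‖A (p.1 - x)‖ ^ 2)
        (Prod.fst ⁻¹' (Metric.ball x (a * r))) V := fun A =>
      intOn hV hU measurableSet_ball Metric.ball_subset_closedBall
        (continuous_quad A x).aestronglyMeasurable (C := ‖A‖ ^ 2 * (a * r) ^ 2) fun p hp _ => by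
          rw [Real.norm_of_nonneg (sq_nonneg _)]
          exact quad_le A (Metric.ball_subset_closedBall hp)
    have hb' : ∀ A : Euc k →L[ℝ] Euc k, IntegrableOn (fun p : Euc k × L k => ‖A (p.1 - x)‖ ^ 2)
        (Prod.fst ⁻¹' (Metric.ball x (a * r))) V := fun A =>
      intOn hV hU measurableSet_ball Metric.ball_subset_closedBall
        (continuous_quad A x).aestronglyMeasurable (C := ‖A‖ ^ 2 * (a * r) ^ 2) fun p hp _ => by
          rw [Real.norm_of_nonneg (sq_nonneg _)]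
          exact quad_le A (Metric.ball_subset_closedBall hp)
    refine setIntegral_mono_on (hb' _) ((hb _).const_mul _) (measS measurableSet_ball) ?_
    intro p _
    exact norm_sub_gpr_le hF B (p.1 - x)
  have hex0 := ex_nonneg (m := m) (V := V) (ρ - B ∘L π) x har.le
  have h6 : (1 + ‖B‖ ^ 2) * ex m V (ρ - B ∘L π) x (a * r) ≤
      (1 + κ ^ 2) * (ω / (1 + κ ^ 2)) := by gcongr
  rw [mul_div_cancel₀ _ (by positivity)] at h6
  linarith

end Crest.Agent.R234.Top_395
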