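import Crest.Agent.R234.Main2_456
import Crest.Agent.R234.Al7_182
import Crest.Agent.R234.Top4_395
import Crest.Agent.R234.In2_947

/-!
Row 234 (helper884): the field `near` of `Main_456.Ref`.

* `cacc_ball`: Caccioppoli inequality between concentric balls;
* `hp_mem`: the base projection of a frame is in the Grassmannian;
* `nearRot`: closeness to a plane `P` in `ball x (128 r)` and to the graph of a small `u` over the frame
  `π, ρ` in `box (8 r)` give closeness to the plane `hp π` in `ball x (64 r)`.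
-/

set_option autoImplicit false

open MeasureTheory Filter Topology Set Metric
open scoped ENNReal NNReal ContDiff InnerProductSpace
open Crest.GeometryTopology.Submanifold Crest.Agent.R234.Vf_884
open Crest.Agent.R234.Strat3_842 (tilt height)
open Crest.Agent.R234.AS_456 (hp vp)
open Crest.Agent.R234.Main_456

noncomputable section

namespace Crest.Agent.R234.Nr_884

variable {m n k : ℕ} {U : Set (Euc k)} {V : Measure (Euc k × L k)}

/-- **Caccioppoli inequality between concentric balls.** -/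
theorem cacc_ball : ∃ C : ℝ, 0 ≤ C ∧ ∀ (m k : ℕ) (U : Set (Euc k)) (V : Measure (Euc k × L k)),
    Stat m k U V → ∀ (q : L k), Cacc_113.IsPr q → ∀ (x : Euc k) (R : ℝ), 0 < R →
    closedBall x R ⊆ U →
    ∫ z in ball x (R / 2) ×ˢ univ, tr (q ∘L z.2) ∂V ≤
      C * (R ^ 2)⁻¹ * ∫ z in closedBall x R ×ˢ univ, ‖q (z.1 - x)‖ ^ 2 ∂V := by
  obtain ⟨C, hC, ξ, hξ⟩ := In_947.exists_cut (a := 1 / 4) (by norm_num)
  refine ⟨4 * (2 * C) ^ 2, by positivity, ?_⟩
  intro m k U V hV q hq x R hR hRU
  set η : Euc k → ℝ := fun z => ξ (‖z - x‖ ^ 2 / R ^ 2) with hη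
  have hη1 : ContDiff ℝ 1 η := by
    refine hξ.cd.comp ?_
    exact ((contDiff_id.sub contDiff_const).norm_sq ℝ).div_const _
  have hsupp : Function.support η ⊆ closedBall x R := by
    intro z hz
    by_contra hcon
    rw [mem_closedBall, dist_eq_norm, not_le] at hcon
    refine hz (hξ.zero _ ?_)
    rw [one_le_div (by positivity)]
    gcongr
  have hts : tsupport η ⊆ closedBall x R :=
    closure_minimal hsupp isClosed_closedBall
  have hcs : HasCompactSupport η :=
    HasCompactSupport.intro (isCompact_closedBall x R) fun z hz => by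
      by_contra hcon
      exact hz (hsupp hcon)
  have hcac := (Al7_182.st_of_stat hV).caccioppoli hη1 hcs (hts.trans hRU) hq x
  have hder : ∀ z, ‖fderiv ℝ η z‖ ^ 2 ≤ (closedBall x R).indicator (fun _ => (2 * C) ^ 2 * (R ^ 2)⁻¹) z := by
    intro z
    by_cases hz : z ∈ closedBall x R
    · rw [indicator_of_mem hz]
      have h1 : HasFDerivAt η ((deriv ξ (‖z - x‖ ^ 2 / R ^ 2)) •
          ((R ^ 2)⁻¹ • (2 • (innerSL ℝ (z - x))))) z := by
        have h2 : HasFDerivAt (fun z : Euc k => ‖z - x‖ ^ 2) (2 • (innerSL ℝ (z - x))) z := by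
          have h3 := ((hasFDerivAt_id z).sub_const x).norm_sq
          refine h3.congr_fderiv ?_
          ext v
          simp
        have h5 : HasFDerivAt (fun z : Euc k => ‖z - x‖ ^ 2 / R ^ 2)
            ((R ^ 2)⁻¹ • (2 • (innerSL ℝ (z - x)))) z := by
          have := h2.const_mul (R ^ 2)⁻¹
          refine this.congr_of_eventuallyEq ?_
          filter_upwards with y
          rw [div_eq_inv_mul]
        have h6 : HasDerivAt ξ (deriv ξ (‖z - x‖ ^ 2 / R ^ 2)) (‖z - x‖ ^ 2 / R ^ 2) :=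
          (hξ.cd.differentiable one_ne_zero _).hasDerivAt
        exact h6.comp_hasFDerivAt z h5
      rw [h1.fderiv]
      have h7 : ‖(deriv ξ (‖z - x‖ ^ 2 / R ^ 2)) • ((R ^ 2)⁻¹ • (2 • (innerSL ℝ (z - x))))‖ ≤
          C * ((R ^ 2)⁻¹ * (2 * R)) := by
        rw [norm_smul, norm_smul]
        have h8 : ‖(2 : ℕ) • (innerSL ℝ (z - x))‖ ≤ 2 * R := by
          rw [two_nsmul]
          refine (norm_add_le _ _).trans ?_
          rw [innerSL_apply_norm]
          rw [mem_closedBall, dist_eq_norm] at hz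
          linarith
        have h9 : ‖(R ^ 2)⁻¹‖ = (R ^ 2)⁻¹ := by
          rw [Real.norm_eq_abs, abs_of_pos (by positivity)]
        rw [h9]
        refine mul_le_mul (hξ.der _) ?_ (by positivity) hC
        gcongr
      calc _ ≤ (C * ((R ^ 2)⁻¹ * (2 * R))) ^ 2 := by gcongr
        _ = (2 * C) ^ 2 * (R ^ 2)⁻¹ := by field_simp
    · rw [indicator_of_notMem hz]
      have h1 : fderiv ℝ η z = 0 := by
        by_contra hcon
        exact hz (hts (support_fderiv_subset ℝ hcon))
      rw [h1]; simp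
  have hfin : V (closedBall x R ×ˢ univ) < ⊤ := hV.fin _ (isCompact_closedBall x R) hRU
  have hsub : ball x (R / 2) ×ˢ (univ : Set (L k)) ⊆ closedBall x R ×ˢ univ :=
    Set.prod_mono ((ball_subset_ball (by linarith)).trans ball_subset_closedBall) Subset.rfl
  -- left side
  have hL : ∫ z in ball x (R / 2) ×ˢ univ, tr (q ∘L z.2) ∂V ≤
      ∫ z, η z.1 ^ 2 * tr (q ∘L z.2) ∂V := by
    have hi : Integrable (fun z : Euc k × L k => η z.1 ^ 2 * tr (q ∘L z.2)) V := by
      refine integrable_of_cont (K := closedBall x R) hV.conc (isCompact_closedBall x R) hfin ?_ ?_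
      · exact (((hη1.continuous.comp continuous_fst).pow 2)).mul
          (tr.continuous.comp (continuous_const.clm_comp continuous_snd))
      · intro z hz
        have : η z.1 = 0 := by
          by_contra hcon
          exact hz (hsupp hcon)
        simp [this]
    rw [← integral_indicator ((measurableSet_ball).prod MeasurableSet.univ)]
    refine integral_mono_ae ?_ hi ?_
    · refine (IntegrableOn.integrable_indicator ?_ ((measurableSet_ball).prod MeasurableSet.univ))
      exact Strat3_842.integrableOn_of_bdd hV.conc ((measure_mono hsub).trans_lt hfin)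
        (tr.continuous.comp (continuous_const.clm_comp continuous_snd))
    · filter_upwards [hV.conc] with z hz
      have hpr : 0 ≤ tr (q ∘L z.2) :=
        Cacc_113.IsPr.tr_nonneg_conj (Al7_182.isPr_of_G hz) hq
      by_cases hzb : z ∈ ball x (R / 2) ×ˢ (univ : Set (L k))
      · rw [indicator_of_mem hzb]
        have h1 : η z.1 = 1 := by
          refine hξ.one _ ?_
          have h2 := hzb.1
          rw [mem_ball, dist_eq_norm] at h2
          rw [div_le_iff₀ (by positivity)]
          nlinarith [norm_nonneg (z.1 - x)]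
        rw [h1, one_pow, one_mul]
      · rw [indicator_of_notMem hzb]
        positivity
  -- right side
  have hRt : ∫ z, ‖fderiv ℝ η z.1‖ ^ 2 * ‖q (z.1 - x)‖ ^ 2 ∂V ≤
      (2 * C) ^ 2 * (R ^ 2)⁻¹ * ∫ z in closedBall x R ×ˢ univ, ‖q (z.1 - x)‖ ^ 2 ∂V := by
    rw [← integral_const_mul, ← integral_indicator ((measurableSet_closedBall).prod
      MeasurableSet.univ)]
    have hcq : Continuous fun z : Euc k × L k => ‖q (z.1 - x)‖ ^ 2 := by fun_prop
    refine integral_mono_ae ?_ ?_ ?_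
    · refine integrable_of_cont (K := closedBall x R) hV.conc (isCompact_closedBall x R) hfin ?_ ?_
      · exact ((((hη1.continuous_fderiv one_ne_zero).comp continuous_fst).norm).pow 2).mul hcq
      · intro z hz
        have h1 := hder z.1
        rw [indicator_of_notMem hz] at h1
        have h2 : ‖fderiv ℝ η z.1‖ ^ 2 = 0 := le_antisymm h1 (sq_nonneg _)
        rw [h2, zero_mul]
    · refine (IntegrableOn.integrable_indicator ?_ ((measurableSet_closedBall).prod
        MeasurableSet.univ))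
      refine Integrable.const_mul ?_ _
      refine Measure.integrableOn_of_bounded (M := (‖q‖ * R) ^ 2) hfin.ne hcq.aestronglyMeasurable ?_
      filter_upwards [ae_restrict_mem (measurableSet_closedBall.prod MeasurableSet.univ)] with z hz
      have h1 := hz.1
      rw [mem_closedBall, dist_eq_norm] at h1
      rw [Real.norm_eq_abs, abs_of_nonneg (by positivity)]
      have h2 : ‖q (z.1 - x)‖ ≤ ‖q‖ * R := (q.le_opNorm _).trans (by gcongr)
      gcongr
    · filter_upwards with z
      have h1 := hder z.1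
      by_cases hz : z.1 ∈ closedBall x R
      · rw [indicator_of_mem hz] at h1
        rw [indicator_of_mem (show z ∈ closedBall x R ×ˢ (univ : Set (L k)) from ⟨hz, mem_univ _⟩)]
        gcongr
      · rw [indicator_of_notMem hz] at h1
        rw [indicator_of_notMem (fun h => hz h.1)]
        have h2 : ‖fderiv ℝ η z.1‖ ^ 2 = 0 := le_antisymm h1 (sq_nonneg _)
        rw [h2, zero_mul]
  calc _ ≤ ∫ z, η z.1 ^ 2 * tr (q ∘L z.2) ∂V := hL
    _ ≤ 4 * ∫ z, ‖fderiv ℝ η z.1‖ ^ 2 * ‖q (z.1 - x)‖ ^ 2 ∂V := hcac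
    _ ≤ 4 * ((2 * C) ^ 2 * (R ^ 2)⁻¹ * ∫ z in closedBall x R ×ˢ univ, ‖q (z.1 - x)‖ ^ 2 ∂V) := by
        gcongr
    _ = _ := by ring

/-- the base projection of a frame is an `m`-plane. -/
theorem hp_mem {π : Euc k →L[ℝ] Euc m} {ρ : Euc k →L[ℝ] Euc n} (h : Frame π ρ) : hp π ∈ G m k := by
  have hmem : (1 : Euc m →L[ℝ] Euc m) ∈ G m m := by
    refine ⟨by ext x; simp, ?_, ?_⟩
    · exact IsSelfAdjoint.one _
    · have : tr (1 : L m) = (m : ℝ) := by
        rw [tr_eq_sum]; simp [stdVec]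
      exact this
  refine ⟨?_, ?_, ?_⟩
  · ext1 v
    simp only [hp, ContinuousLinearMap.comp_apply, Top_395.fr_pp h]
  · rw [hp, IsSelfAdjoint, ContinuousLinearMap.star_eq_adjoint, ContinuousLinearMap.adjoint_comp,
      ContinuousLinearMap.adjoint_adjoint]
  · have h1 : (LinearMap.trace ℝ (Euc k)) ((ContinuousLinearMap.adjoint π).toLinearMap ∘ₗ
        π.toLinearMap) = (LinearMap.trace ℝ (Euc m)) (π.toLinearMap ∘ₗ
        (ContinuousLinearMap.adjoint π).toLinearMap) := LinearMap.trace_comp_comm' _ _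
    have h2 : π.toLinearMap ∘ₗ (ContinuousLinearMap.adjoint π).toLinearMap = LinearMap.id := by
      ext1 v
      exact Top_395.fr_pp h v
    rw [h2, LinearMap.trace_id] at h1
    have h3 : Cacc_113.tr (hp π) = (m : ℝ) := by
      rw [Cacc_113.tr, hp, ContinuousLinearMap.toLinearMap_comp, h1]
      simp
    exact h3

theorem norm_compl_hp {π : Euc k →L[ℝ] Euc m} {ρ : Euc k →L[ℝ] Euc n} (h : Frame π ρ) (w : Euc k) :
    ‖w - hp π w‖ = ‖ρ w‖ := by
  have h1 : w - hp π w = ContinuousLinearMap.adjoint ρ (ρ w) := by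
    have := Top_395.fr_sum h w
    have h2 : hp π w = ContinuousLinearMap.adjoint π (π w) := rfl
    rw [h2]
    exact sub_eq_of_eq_add' this.symm
  have h3 : ‖ContinuousLinearMap.adjoint ρ (ρ w)‖ ^ 2 = ‖ρ w‖ ^ 2 := by
    rw [← real_inner_self_eq_norm_sq, ContinuousLinearMap.adjoint_inner_left, Top_395.fr_rr h,
      real_inner_self_eq_norm_sq]
  rw [h1]
  exact (sq_eq_sq₀ (norm_nonneg _) (norm_nonneg _)).1 h3

theorem hs_triangle {S P P' : L k} (hS : S ∈ G m k) (hP : P ∈ G m k) (hP' : P' ∈ G m k) :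
    tr ((P' - P) ∘L (P' - P)) ≤
      2 * tr ((S - P') ∘L (S - P')) + 2 * tr ((S - P) ∘L (S - P)) := by
  simp only [tr_eq_sum, Finset.mul_sum]
  rw [← Finset.sum_add_distrib]
  refine Finset.sum_le_sum fun i _ => ?_
  simp only [ContinuousLinearMap.comp_apply]
  rw [← Strat3_842.sub_symm hP' hP, ← Strat3_842.sub_symm hS hP', ← Strat3_842.sub_symm hS hP]
  simp only [real_inner_self_eq_norm_sq]
  have e : (P' - P) (stdVec k i) = (S - P) (stdVec k i) - (S - P') (stdVec k i) := by
    simp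
  rw [e]
  have h1 := norm_sub_le ((S - P) (stdVec k i)) ((S - P') (stdVec k i))
  have h2 := norm_nonneg ((S - P) (stdVec k i) - (S - P') (stdVec k i))
  nlinarith [sq_nonneg (‖(S - P) (stdVec k i)‖ - ‖(S - P') (stdVec k i)‖)]

theorem tilt_triangle {S P P' : L k} {z : Euc k} (hS : S ∈ G m k) (hP : P ∈ G m k)
    (hP' : P' ∈ G m k) : tilt P' (z, S) ≤ 2 * tilt P (z, S) + 2 * tilt P (z, P') := by
  have h1 := hs_triangle (S := P) (P := S) (P' := P') hP hS hP'
  have h2 := Strat3_842.tr_sub_sq hP' hS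
  have h3 := Strat3_842.tr_sub_sq hP hP'
  have h4 := Strat3_842.tr_sub_sq hP hS
  have h5 := Strat3_842.tr_perp_symm hP' hS
  have h6 := Strat3_842.tr_perp_symm hP hP'
  have h7 := Strat3_842.tr_perp_symm hP hS
  unfold tilt
  simp only
  rw [h2, h3, h4] at h1
  linarith

theorem T0_le {S P P' : L k} {z : Euc k} (hS : S ∈ G m k) (hP : P ∈ G m k) (hP' : P' ∈ G m k) :
    tilt P (z, P') ≤ 2 * tilt P' (z, S) + 2 * tilt P (z, S) := by
  have h1 := hs_triangle hS hP hP'
  rw [Strat3_842.tr_sub_sq hP' hP, Strat3_842.tr_sub_sq hS hP', Strat3_842.tr_sub_sq hS hP] at h1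
  unfold tilt
  simp only
  linarith

theorem opNorm_sq_le {P P' : L k} {z : Euc k} (hP : P ∈ G m k) (hP' : P' ∈ G m k) :
    ‖P' - P‖ ^ 2 ≤ 2 * tilt P (z, P') := by
  have h1 := Cacc_113.opNorm_sq_le_tr_sq (A := P' - P) (Strat3_842.sub_symm hP' hP)
  have h2 := Strat3_842.tr_sub_sq hP' hP
  have h3 : Cacc_113.tr ((P' - P) ∘L (P' - P)) = 2 * tilt P (z, P') := h2
  rw [h3] at h1
  exact h1

theorem height_le {P P' : L k} {z : Euc k} {S : L k} (hP : P ∈ G m k) (hP' : P' ∈ G m k) (x : Euc k)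
    {R : ℝ} (hR : ‖z - x‖ ≤ R) :
    height P' x (z, S) ≤ 2 * height P x (z, S) + 4 * tilt P (z, P') * R ^ 2 := by
  unfold height
  simp only
  have e : (z - x) - P' (z - x) = ((z - x) - P (z - x)) - (P' - P) (z - x) := by
    simp
  have h1 := norm_sub_le ((z - x) - P (z - x)) ((P' - P) (z - x))
  have h2 : ‖(P' - P) (z - x)‖ ^ 2 ≤ 2 * tilt P (z, P') * R ^ 2 := by
    have h3 := (P' - P).le_opNorm (z - x)
    have h4 := opNorm_sq_le (z := z) hP hP'
    calc ‖(P' - P) (z - x)‖ ^ 2 ≤ (‖P' - P‖ * ‖z - x‖) ^ 2 := by gcongr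
      _ = ‖P' - P‖ ^ 2 * ‖z - x‖ ^ 2 := by ring
      _ ≤ _ := by
        have h5 : 0 ≤ tilt P (z, P') := Strat3_842.tr_perp_nonneg hP' hP
        gcongr
  rw [e]
  have h5 := norm_nonneg ((z - x) - P (z - x) - (P' - P) (z - x))
  have h6 : ‖(z - x) - P (z - x) - (P' - P) (z - x)‖ ^ 2 ≤
      2 * ‖(z - x) - P (z - x)‖ ^ 2 + 2 * ‖(P' - P) (z - x)‖ ^ 2 := by
    nlinarith [sq_nonneg (‖(z - x) - P (z - x)‖ - ‖(P' - P) (z - x)‖)]
  linarith

theorem box_subset {π : Euc k →L[ℝ] Euc m} {ρ : Euc k →L[ℝ] Euc n} (h : Frame π ρ) (x : Euc k)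
    {r : ℝ} (hr : 0 < r) : box π ρ x r ⊆ ball x (2 * r) := by
  rintro z ⟨h1, h2⟩
  rw [mem_ball, dist_eq_norm]
  have h3 := Top_395.fr_norm_sq h (z - x)
  have h4 : ‖z - x‖ ^ 2 < (2 * r) ^ 2 := by
    nlinarith [norm_nonneg (π (z - x)), norm_nonneg (ρ (z - x))]
  exact lt_of_pow_lt_pow_left₀ 2 (by positivity) h4

theorem measurableSet_box (π : Euc k →L[ℝ] Euc m) (ρ : Euc k →L[ℝ] Euc n) (x : Euc k) (r : ℝ) :
    MeasurableSet (box π ρ x r) := by
  have h1 : IsOpen {z : Euc k | ‖π (z - x)‖ < r} :=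
    isOpen_lt (by fun_prop) continuous_const
  have h2 : IsOpen {z : Euc k | ‖ρ (z - x)‖ < r} :=
    isOpen_lt (by fun_prop) continuous_const
  exact (h1.inter h2).measurableSet

/-- mass from the third clause of `NearQ`. -/
theorem mass_of_near {Q : ℕ} {x : Euc k} {R ε : ℝ} (hR : 0 < R) (hε1 : ε ≤ 1)
    (h : rat m V x R ≤ (Q : ℝ≥0∞) + ENNReal.ofReal ε) :
    V.real (ball x R ×ˢ univ) ≤ (Q + 1) * (ome m * R ^ m) := by
  have h1 : rat m V x R ≤ ENNReal.ofReal (Q + 1) := by
    refine h.trans ?_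
    rw [ENNReal.ofReal_add (by positivity) zero_le_one, ENNReal.ofReal_natCast]
    gcongr
  unfold rat at h1
  have hd := den_pos m hR
  rw [ENNReal.div_le_iff (by rw [ne_eq, ENNReal.ofReal_eq_zero, not_le]; exact hd)
    ENNReal.ofReal_ne_top, ← ENNReal.ofReal_mul (by positivity), mass_apply V measurableSet_ball,
    ← prod_univ_eq] at h1
  exact ENNReal.toReal_le_of_le_ofReal (by positivity) h1

set_option maxHeartbeats 1600000 in
/-- **the field `near` of a reference at a scale of a selection.** -/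
theorem nearRot (m n k Q : ℕ) (hm : 1 ≤ m) : ∃ C : ℝ, 1 ≤ C ∧
    ∀ (U : Set (Euc k)) (V : Measure (Euc k × L k)), Stat m k U V → ∀ (x : Euc k) (r : ℝ), 0 < r →
      closedBall x (128 * r) ⊆ U → 1 ≤ Th m V x → ∀ (P : L k) (ε : ℝ), 0 ≤ ε → ε ≤ 1 →
      NearQ m V Q x (128 * r) ε P → ∀ (π : Euc k →L[ℝ] Euc m) (ρ : Euc k →L[ℝ] Euc n), Frame π ρ →
      ∀ (u : Euc m → Euc n) (κ ε' : ℝ), Continuous u → 0 ≤ κ → 0 ≤ ε' →
      (∀ z ∈ ball (0 : Euc m) 8, ‖u z‖ ≤ κ) → sep V π ρ x r u 8 ≤ ε' * r ^ (m + 2) →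
      ‖hp π - P‖ ^ 2 ≤ C * (ε + ε' + κ ^ 2) ∧
        NearQ m V Q x (64 * r) (C * (ε + ε' + κ ^ 2)) (hp π) := by
  obtain ⟨C₁, hC₁, HC⟩ := cacc_ball
  have home := ome_pos m
  set K₁ : ℝ := (C₁ * (1 + (Q + 1) * (ome m * 128 ^ m)) + 2 * 128 ^ m) / (ome m * 2 ^ m) with hK₁
  have hK₁0 : 0 ≤ K₁ := by positivity
  set K₂ : ℝ := 2 ^ (m + 2) * (2 + 6 * (Q + 1) * ome m * K₁) with hK₂
  have hK₂0 : 0 ≤ K₂ := by positivity
  refine ⟨1 + 2 * K₁ + K₂, by linarith, ?_⟩
  intro U V hV x r hr hU hTh P ε hε hε1 hN π ρ hf u κ ε' hu hκ hε' huκ hsep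
  obtain ⟨hP, hI, hrat⟩ := hN
  have hP' : hp π ∈ G m k := hp_mem hf
  have hM := mass_of_near (by positivity : (0:ℝ) < 128 * r) hε1 hrat
  set e : ℝ := ε + ε' + κ ^ 2 with he
  have he0 : 0 ≤ e := by positivity
  set T0 : ℝ := tilt P (x, hp π) with hT0
  have hT00 : 0 ≤ T0 := Strat3_842.tr_perp_nonneg hP' hP
  have hbU : closedBall x (128 * r) ×ˢ (univ : Set (L k)) ⊆ U ×ˢ univ := Set.prod_mono hU Subset.rfl
  have hfinc : V (closedBall x (128 * r) ×ˢ univ) < ⊤ := hV.fin _ (isCompact_closedBall _ _) hU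
  have hsubset : ∀ s : ℝ, s ≤ 128 * r → ball x s ×ˢ (univ : Set (L k)) ⊆
      closedBall x (128 * r) ×ˢ univ := fun s hs =>
    Set.prod_mono ((ball_subset_ball hs).trans ball_subset_closedBall) Subset.rfl
  have hfin : ∀ s : ℝ, s ≤ 128 * r → V (ball x s ×ˢ univ) < ⊤ := fun s hs =>
    (measure_mono (hsubset s hs)).trans_lt hfinc
  have hint : ∀ s : ℝ, s ≤ 128 * r → ∀ f : Euc k × L k → ℝ, Continuous f →
      IntegrableOn f (ball x s ×ˢ univ) V := fun s hs f hf =>
    Strat3_842.integrableOn_of_bdd hV.conc (hfin s hs) hf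
  have hmono : ∀ s s' : ℝ, s ≤ s' → s' ≤ 128 * r → ∀ f : Euc k × L k → ℝ, Continuous f →
      (∀ z : Euc k × L k, z.2 ∈ G m k → 0 ≤ f z) →
      ∫ z in ball x s ×ˢ univ, f z ∂V ≤ ∫ z in ball x s' ×ˢ univ, f z ∂V := by
    intro s s' hs hs' f hf hf0
    refine setIntegral_mono_set (hint s' hs' f hf) ?_ ?_
    · filter_upwards [ae_restrict_of_ae hV.conc] with z hz using hf0 z hz
    · exact (Set.prod_mono (ball_subset_ball hs) Subset.rfl).eventuallyLE
  have hct : ∀ A : L k, Continuous (tilt A) := Strat3_842.continuous_tilt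
  have hch : ∀ A : L k, Continuous (height A x) := fun A => Strat3_842.continuous_height A x
  have hc1 : ∀ (c : ℝ) (A : L k), Continuous fun p : Euc k × L k => c ^ 2 * tilt A p :=
    fun c A => continuous_const.mul (hct A)
  have hc2 : ∀ (c : ℝ) (A : L k), Continuous fun p : Euc k × L k =>
      c ^ 2 * tilt A p + height A x p := fun c A => (hc1 c A).add (hch A)
  have hc3 : ∀ (A : L k), Continuous fun p : Euc k × L k => 2 * tilt A p :=
    fun A => continuous_const.mul (hct A)
  -- tilt relative to `P`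
  have htP : ∫ z in ball x (2 * r) ×ˢ univ, tilt P z ∂V ≤ ε * (128 * r) ^ m := by
    have h1 : ∫ z in ball x (2 * r) ×ˢ univ, (128 * r) ^ 2 * tilt P z ∂V ≤
        ε * (128 * r) ^ (m + 2) := by
      refine le_trans ?_ hI
      refine (hmono (2 * r) (128 * r) (by linarith) le_rfl _ (hc1 (128 * r) P)
        fun z hz => mul_nonneg (sq_nonneg _) (Strat3_842.tr_perp_nonneg hz hP)).trans ?_
      refine integral_mono_ae (hint _ le_rfl _ (hc1 (128 * r) P))
        (hint _ le_rfl _ (hc2 (128 * r) P)) ?_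
      filter_upwards with z
      have : 0 ≤ height P x z := by unfold height; positivity
      change (128 * r) ^ 2 * tilt P z ≤ (128 * r) ^ 2 * tilt P z + height P x z
      linarith
    rw [integral_const_mul] at h1
    have h2 : (0:ℝ) < (128 * r) ^ 2 := by positivity
    refine le_of_mul_le_mul_left ?_ h2
    calc _ ≤ ε * (128 * r) ^ (m + 2) := h1
      _ = _ := by ring
  -- heights relative to `hp π`
  have hsub8 : closedBall x (4 * r) ⊆ box π ρ x (8 * r) := by
    intro z hz
    rw [mem_closedBall, dist_eq_norm] at hz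
    exact ⟨((Top_395.fr_norm_p hf _).trans hz).trans_lt (by linarith),
      ((Top_395.fr_norm_r hf _).trans hz).trans_lt (by linarith)⟩
  have hchgt : Continuous fun z : Euc k × L k => ‖hgt π ρ x r u z.1‖ ^ 2 := by
    unfold hgt
    fun_prop
  have hbox : box π ρ x (8 * r) ⊆ ball x (16 * r) := by
    have := box_subset hf x (by positivity : (0:ℝ) < 8 * r)
    rwa [show 2 * (8 * r) = 16 * r by ring] at this
  have hhP' : ∫ z in closedBall x (4 * r) ×ˢ univ,
      ‖((1 : L k) - hp π) (z.1 - x)‖ ^ 2 ∂V ≤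
        2 * (ε' * r ^ (m + 2)) + 2 * (r * κ) ^ 2 * ((Q + 1) * (ome m * (128 * r) ^ m)) := by
    have hpt : ∀ z : Euc k × L k, z.1 ∈ closedBall x (4 * r) →
        ‖((1 : L k) - hp π) (z.1 - x)‖ ^ 2 ≤ 2 * ‖hgt π ρ x r u z.1‖ ^ 2 + 2 * (r * κ) ^ 2 := by
      intro z hz
      have h1 : ‖((1 : L k) - hp π) (z.1 - x)‖ = ‖ρ (z.1 - x)‖ := norm_compl_hp hf _
      rw [h1]
      have h2 : ρ (z.1 - x) = hgt π ρ x r u z.1 + r • u (r⁻¹ • π (z.1 - x)) := by
        unfold hgt; abel
      have h3 : ‖r • u (r⁻¹ • π (z.1 - x))‖ ≤ r * κ := by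
        rw [norm_smul, Real.norm_of_nonneg hr.le]
        refine mul_le_mul_of_nonneg_left (huκ _ ?_) hr.le
        rw [mem_ball_zero_iff, norm_smul, norm_inv, Real.norm_of_nonneg hr.le,
          inv_mul_lt_iff₀ hr]
        have := (hsub8 hz).1
        linarith
      rw [h2]
      have h4 := norm_add_le (hgt π ρ x r u z.1) (r • u (r⁻¹ • π (z.1 - x)))
      have h5 := norm_nonneg (hgt π ρ x r u z.1 + r • u (r⁻¹ • π (z.1 - x)))
      have h6 := norm_nonneg (hgt π ρ x r u z.1)
      have h7 : ‖hgt π ρ x r u z.1 + r • u (r⁻¹ • π (z.1 - x))‖ ≤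
        ‖hgt π ρ x r u z.1‖ + r * κ := h4.trans (by linarith)
      have h8 : 0 ≤ r * κ := by positivity
      nlinarith [sq_nonneg (‖hgt π ρ x r u z.1‖ - r * κ)]
    have hchgt1 : Continuous fun z : Euc k × L k => 2 * ‖hgt π ρ x r u z.1‖ ^ 2 :=
      continuous_const.mul hchgt
    have hchgt2 : Continuous fun z : Euc k × L k =>
        2 * ‖hgt π ρ x r u z.1‖ ^ 2 + 2 * (r * κ) ^ 2 := hchgt1.add continuous_const
    have hfin4 : V (closedBall x (4 * r) ×ˢ univ) < ⊤ :=
      (measure_mono (Set.prod_mono (closedBall_subset_closedBall (by linarith)) Subset.rfl)).trans_lt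
        hfinc
    have hi4 : ∀ f : Euc k × L k → ℝ, Continuous f →
        IntegrableOn f (closedBall x (4 * r) ×ˢ univ) V := fun f hf =>
      (hint (16 * r) (by linarith) f hf).mono_set
        (Set.prod_mono (closedBall_subset_ball (by linarith)) Subset.rfl)
    calc _ ≤ ∫ z in closedBall x (4 * r) ×ˢ univ,
          (2 * ‖hgt π ρ x r u z.1‖ ^ 2 + 2 * (r * κ) ^ 2) ∂V := by
          refine setIntegral_mono_on (hi4 _ (by fun_prop))
            (hi4 _ hchgt2)
            (measurableSet_closedBall.prod MeasurableSet.univ) fun z hz => hpt z hz.1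
      _ = 2 * ∫ z in closedBall x (4 * r) ×ˢ univ, ‖hgt π ρ x r u z.1‖ ^ 2 ∂V +
          2 * (r * κ) ^ 2 * V.real (closedBall x (4 * r) ×ˢ univ) := by
          rw [integral_add (hi4 _ hchgt1) (hi4 _ continuous_const),
            integral_const_mul, setIntegral_const, smul_eq_mul]
          ring
      _ ≤ _ := by
          have h1 : ∫ z in closedBall x (4 * r) ×ˢ univ, ‖hgt π ρ x r u z.1‖ ^ 2 ∂V ≤
              ε' * r ^ (m + 2) := by
            refine le_trans ?_ hsep
            unfold sep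
            refine setIntegral_mono_set ((hint (16 * r) (by linarith) _ hchgt).mono_set
              (Set.prod_mono hbox Subset.rfl)) ?_ ?_
            · filter_upwards with z
              positivity
            · exact (Set.prod_mono hsub8 Subset.rfl).eventuallyLE
          have h2 : V.real (closedBall x (4 * r) ×ˢ univ) ≤ (Q + 1) * (ome m * (128 * r) ^ m) := by
            refine le_trans ?_ hM
            exact measureReal_mono (Set.prod_mono (closedBall_subset_ball (by linarith)) Subset.rfl)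
              (hfin _ le_rfl).ne
          gcongr
  -- tilt relative to `hp π`
  have htP' : ∫ z in ball x (2 * r) ×ˢ univ, tilt (hp π) z ∂V ≤
      C₁ * (1 + (Q + 1) * (ome m * 128 ^ m)) * e * r ^ m / 2 := by
    have h1 := HC m k U V hV ((1 : L k) - hp π) (Al7_182.isPr_of_G hP').compl x (4 * r)
      (by positivity) ((closedBall_subset_closedBall (by linarith)).trans hU)
    rw [show 4 * r / 2 = 2 * r by ring] at h1
    have h2 : ∫ z in ball x (2 * r) ×ˢ univ, tilt (hp π) z ∂V =
        ∫ z in ball x (2 * r) ×ˢ univ, tr (((1 : L k) - hp π) ∘L z.2) ∂V := rfl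
    rw [h2]
    refine h1.trans ?_
    calc _ ≤ C₁ * ((4 * r) ^ 2)⁻¹ * (2 * (ε' * r ^ (m + 2)) +
          2 * (r * κ) ^ 2 * ((Q + 1) * (ome m * (128 * r) ^ m))) := by gcongr
      _ = C₁ * (ε' + κ ^ 2 * ((Q + 1) * (ome m * 128 ^ m))) * r ^ m / 8 := by
          field_simp
          ring
      _ ≤ C₁ * (e + e * ((Q + 1) * (ome m * 128 ^ m))) * r ^ m / 8 := by
          have h3 : ε' ≤ e := by rw [he]; linarith [sq_nonneg κ]
          have h4 : κ ^ 2 ≤ e := by rw [he]; linarith
          gcongr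
      _ ≤ _ := by
          have : 0 ≤ C₁ * (e + e * ((Q + 1) * (ome m * 128 ^ m))) * r ^ m := by positivity
          nlinarith
  -- distance of the planes
  have hlow : ome m * (2 * r) ^ m ≤ V.real (ball x (2 * r) ×ˢ univ) := by
    have h1 := mul_le_mass hV hm (by positivity : (0:ℝ) < 2 * r)
      ((ball_subset_closedBall.trans (closedBall_subset_closedBall (by linarith))).trans hU) hTh
    rw [one_mul, mass_apply V measurableSet_ball, ← prod_univ_eq] at h1
    exact (ENNReal.ofReal_le_iff_le_toReal (hfin _ (by linarith)).ne).1 h1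
  have hT0K : T0 ≤ K₁ * e := by
    have h1 : T0 * V.real (ball x (2 * r) ×ˢ univ) ≤
        2 * (∫ z in ball x (2 * r) ×ˢ univ, tilt (hp π) z ∂V) +
          2 * ∫ z in ball x (2 * r) ×ˢ univ, tilt P z ∂V := by
      have h2 : ∫ _z in ball x (2 * r) ×ˢ univ, T0 ∂V = T0 * V.real (ball x (2 * r) ×ˢ univ) := by
        rw [setIntegral_const, smul_eq_mul, mul_comm]
      rw [← h2, ← integral_const_mul, ← integral_const_mul, ← integral_add
        (hint _ (by linarith) _ (hc3 _))
        (hint _ (by linarith) _ (hc3 _))]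
      refine integral_mono_ae (hint _ (by linarith) _ continuous_const)
        (hint _ (by linarith) _ ((hc3 _).add (hc3 _))) ?_
      filter_upwards [ae_restrict_of_ae hV.conc] with z hz
      exact T0_le (z := z.1) hz hP hP'
    have h3 : T0 * (ome m * (2 * r) ^ m) ≤ (C₁ * (1 + (Q + 1) * (ome m * 128 ^ m)) + 2 * 128 ^ m) *
        e * r ^ m := by
      calc T0 * (ome m * (2 * r) ^ m) ≤ T0 * V.real (ball x (2 * r) ×ˢ univ) := by gcongr
        _ ≤ 2 * (C₁ * (1 + (Q + 1) * (ome m * 128 ^ m)) * e * r ^ m / 2) +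
            2 * (ε * (128 * r) ^ m) := by linarith
        _ ≤ 2 * (C₁ * (1 + (Q + 1) * (ome m * 128 ^ m)) * e * r ^ m / 2) +
            2 * (e * (128 * r) ^ m) := by
            have : ε ≤ e := by rw [he]; linarith [sq_nonneg κ]
            gcongr
        _ = _ := by rw [mul_pow]; ring
    have h4 : 0 < ome m * 2 ^ m * r ^ m := by positivity
    refine le_of_mul_le_mul_right ?_ h4
    calc T0 * (ome m * 2 ^ m * r ^ m) = T0 * (ome m * (2 * r) ^ m) := by rw [mul_pow]; ring
      _ ≤ _ := h3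
      _ = K₁ * e * (ome m * 2 ^ m * r ^ m) := by
          rw [hK₁]; field_simp
  refine ⟨?_, hP', ?_, ?_⟩
  · have h1 := opNorm_sq_le (z := x) hP hP'
    calc _ ≤ 2 * T0 := h1
      _ ≤ 2 * (K₁ * e) := by gcongr
      _ ≤ _ := by nlinarith [mul_nonneg hK₁0 he0, mul_nonneg hK₂0 he0]
  · have hpt : ∀ z : Euc k × L k, z.2 ∈ G m k → z.1 ∈ ball x (64 * r) →
        (64 * r) ^ 2 * tilt (hp π) z + height (hp π) x z ≤
          2 * ((128 * r) ^ 2 * tilt P z + height P x z) + 6 * T0 * (64 * r) ^ 2 := by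
      intro z hz hzb
      have h1 := tilt_triangle (z := z.1) hz hP hP'
      rw [mem_ball, dist_eq_norm] at hzb
      have h2 := height_le (z := z.1) (S := z.2) hP hP' x hzb.le
      have h3 : 0 ≤ tilt P z := Strat3_842.tr_perp_nonneg hz hP
      have h4 : tilt P (z.1, hp π) = T0 := rfl
      rw [h4] at h1 h2
      have h5 : tilt (hp π) z ≤ 2 * tilt P z + 2 * T0 := h1
      have h6 : height (hp π) x z ≤ 2 * height P x z + 4 * T0 * (64 * r) ^ 2 := h2
      nlinarith [mul_nonneg (sq_nonneg r) h3, mul_le_mul_of_nonneg_left h5 (sq_nonneg (64 * r))]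
    have hc4 : Continuous fun p : Euc k × L k => 2 * ((128 * r) ^ 2 * tilt P p + height P x p) :=
      continuous_const.mul (hc2 (128 * r) P)
    calc ∫ p in ball x (64 * r) ×ˢ univ, ((64 * r) ^ 2 * tilt (hp π) p + height (hp π) x p) ∂V
        ≤ ∫ p in ball x (64 * r) ×ˢ univ,
          (2 * ((128 * r) ^ 2 * tilt P p + height P x p) + 6 * T0 * (64 * r) ^ 2) ∂V := by
          refine integral_mono_ae (hint _ (by linarith) _ (hc2 _ _))
            (hint _ (by linarith) _ (hc4.add continuous_const)) ?_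
          filter_upwards [ae_restrict_of_ae hV.conc,
            ae_restrict_mem (measurableSet_ball.prod MeasurableSet.univ)] with z hz hz2
          exact hpt z hz hz2.1
      _ = 2 * ∫ p in ball x (64 * r) ×ˢ univ, ((128 * r) ^ 2 * tilt P p + height P x p) ∂V +
          6 * T0 * (64 * r) ^ 2 * V.real (ball x (64 * r) ×ˢ univ) := by
          rw [integral_add (hint _ (by linarith) _ hc4) (hint _ (by linarith) _
              continuous_const), integral_const_mul, setIntegral_const, smul_eq_mul]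
          ring
      _ ≤ 2 * (ε * (128 * r) ^ (m + 2)) + 6 * (K₁ * e) * (64 * r) ^ 2 *
          ((Q + 1) * (ome m * (128 * r) ^ m)) := by
          have h1 := (hmono (64 * r) (128 * r) (by linarith) le_rfl
            (fun p => (128 * r) ^ 2 * tilt P p + height P x p)
            (hc2 _ _) fun z hz => by
              have h3 : 0 ≤ tilt P z := Strat3_842.tr_perp_nonneg hz hP
              have : 0 ≤ height P x z := by unfold height; positivity
              positivity).trans hI
          have h2 : V.real (ball x (64 * r) ×ˢ univ) ≤ (Q + 1) * (ome m * (128 * r) ^ m) := by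
            refine le_trans ?_ hM
            exact measureReal_mono (Set.prod_mono (ball_subset_ball (by linarith)) Subset.rfl)
              (hfin _ le_rfl).ne
          gcongr
      _ ≤ 2 * (e * (128 * r) ^ (m + 2)) + 6 * (K₁ * e) * (128 * r) ^ 2 *
          ((Q + 1) * (ome m * (128 * r) ^ m)) := by
          have : ε ≤ e := by rw [he]; linarith [sq_nonneg κ]
          have h64 : (64 * r) ^ 2 ≤ (128 * r) ^ 2 := by gcongr; norm_num
          gcongr
      _ = K₂ * e * (64 * r) ^ (m + 2) := by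
          rw [hK₂, show (128 * r) = 2 * (64 * r) by ring, mul_pow 2 (64 * r) (m + 2),
            mul_pow 2 (64 * r) m, mul_pow 2 (64 * r) 2, pow_add 2 m 2, pow_add (64 * r) m 2]
          ring
      _ ≤ _ := by
          have h3 : K₂ * e ≤ (1 + 2 * K₁ + K₂) * e := by nlinarith [mul_nonneg hK₁0 he0]
          gcongr
  · refine (rat_mono hV hm (by positivity : (0:ℝ) < 64 * r) (by linarith : 64 * r ≤ 128 * r)
      (ball_subset_closedBall.trans hU)).trans (hrat.trans ?_)
    gcongr
    have h3 : ε ≤ e := by rw [he]; linarith [sq_nonneg κ]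
    nlinarith [mul_nonneg hK₁0 he0, mul_nonneg hK₂0 he0]

end Crest.Agent.R234.Nr_884
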