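import Crest.Agent.R234.Supm3_685
import Crest.Agent.R234.Main2_456
import Crest.Agent.R234.Al7_182

/-!
R234 (helper685), VF-SUPM part 4: the height bound and the energy inequality over a minimal graph in
the language of `Main2_456` (`Frame`, `hgt`, `Msys`, `box`, `sep`) for stationary general varifolds
`Stat m k U V`.
-/

set_option autoImplicit false
set_option linter.unusedSectionVars false

open MeasureTheory Metric Set Filter Topology
open scoped InnerProductSpace ContDiff ENNReal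

namespace Crest.Agent.R234.Supm_685

open Crest.GeometryTopology.Submanifold Crest.Agent.R234.Vf_884
open Crest.Agent.R234.Main_456

noncomputable section

variable {m n k : ℕ} {U : Set (Euc k)} {V : Measure (Euc k × L k)}
  {π : Euc k →L[ℝ] Euc m} {ρ : Euc k →L[ℝ] Euc n} {x z0 : Euc k} {r s κ : ℝ} {u : Euc m → Euc n}

theorem fr_of_frame (h : Frame π ρ) : Fr π ρ where
  pp a := by
    have := congrArg (fun A : Euc m →L[ℝ] Euc m => A a) h.coπ
    simpa using this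
  rr b := by
    have := congrArg (fun A : Euc n →L[ℝ] Euc n => A b) h.coρ
    simpa using this
  pr b := by
    have := congrArg (fun A : Euc n →L[ℝ] Euc m => A b) h.orth
    simpa using this
  full z := by
    have := congrArg (fun A : Euc k →L[ℝ] Euc k => A z) h.full
    simpa using this

theorem minAt_of {z : Euc k} (h2 : ‖iteratedFDeriv ℝ 2 u (r⁻¹ • π (z - x))‖ ≤ κ)
    (h3 : Msys u (r⁻¹ • π (z - x)) = 0) :
    MinAt (EuclideanSpace.basisFun (Fin m) ℝ) π x r u κ z := by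
  refine ⟨?_, ?_⟩
  · rw [← norm_iteratedFDeriv_fderiv, norm_iteratedFDeriv_one] at h2
    exact h2
  · have h4 : ∀ i, (EuclideanSpace.basisFun (Fin m) ℝ) i = stdVec m i := fun i => by
      simp [stdVec]
    simp only [h4]
    exact h3

theorem dens_of_Th (hV : Stat m k U V) (hm : 1 ≤ m) (hs : 0 < s) (hU : closedBall z0 s ⊆ U)
    {A : ℝ} (hA0 : 0 ≤ A) (hA : ENNReal.ofReal A ≤ Th m V z0) :
    ∃ᶠ t in 𝓝[>] (0 : ℝ), A * ome m * t ^ m ≤ (V (Prod.fst ⁻¹' ball z0 t)).toReal := by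
  refine Eventually.frequently ?_
  filter_upwards [Ioo_mem_nhdsGT hs] with t ht
  have hsub : closedBall z0 t ⊆ U := (closedBall_subset_closedBall ht.2.le).trans hU
  have h1 := mul_le_mass hV hm ht.1 (ball_subset_closedBall.trans hsub) hA
  rw [mass_apply V measurableSet_ball, ← ENNReal.ofReal_mul hA0] at h1
  have h2 : V (Prod.fst ⁻¹' ball z0 t) < ⊤ := by
    refine lt_of_le_of_lt (measure_mono ?_) (hV.fin _ (isCompact_closedBall z0 t) hsub)
    intro p hp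
    exact ⟨ball_subset_closedBall hp, mem_univ _⟩
  have h3 := ENNReal.toReal_mono h2.ne h1
  have := ome_pos m
  have ht0 := ht.1
  rw [ENNReal.toReal_ofReal (by positivity)] at h3
  rw [mul_assoc]
  exact h3

/-- **height bound over a minimal graph** (`Stat`, `hgt`, `Msys`): `A` = lower bound of the density
at `z0`. -/
theorem height_hgt (hV : Stat m k U V) (hm : 1 ≤ m) (hf : Frame π ρ) (hr : 0 < r)
    (hu : ContDiff ℝ 2 u) (hs : 0 < s) (hU : closedBall z0 s ⊆ U)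
    (hz : ∀ z ∈ ball z0 s, ‖iteratedFDeriv ℝ 2 u (r⁻¹ • π (z - x))‖ ≤ κ ∧
      Msys u (r⁻¹ • π (z - x)) = 0)
    (hsr : 64 * m * κ ^ 2 * s ^ 2 ≤ r ^ 2) {A : ℝ} (hA0 : 0 ≤ A)
    (hA : ENNReal.ofReal A ≤ Th m V z0) :
    A * ome m * ‖hgt π ρ x r u z0‖ ^ 2 ≤ 33 / 32 * ((s ^ m)⁻¹ *
      ∫ z in Prod.fst ⁻¹' ball z0 s, ‖hgt π ρ x r u z.1‖ ^ 2 ∂V) := by
  refine height_graph (Al7_182.st_of_stat hV) (Al7_182.tr_ae hV) (by simp) (fr_of_frame hf) hr hu
    hs hU (Eventually.of_forall fun z hzb => minAt_of (hz z.1 hzb).1 (hz z.1 hzb).2) hsr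
    (mul_nonneg hA0 (ome_pos m).le) (dens_of_Th hV hm hs hU hA0 hA)

/-- the relative tilt of `P` at `z`: `∑ ‖(ρ - Du π) P b_j‖²` -/
abbrev rtl (π : Euc k →L[ℝ] Euc m) (ρ : Euc k →L[ℝ] Euc n) (x : Euc k) (r : ℝ) (u : Euc m → Euc n)
    (p : Euc k × L k) : ℝ := tau (nz π ρ x r u p.1) p.2

/-- **energy inequality over a minimal graph** (`Stat`, `hgt`, `Msys`). -/
theorem cacc_hgt (hV : Stat m k U V) (hf : Frame π ρ) (hr : 0 < r)
    (hu : ContDiff ℝ 2 u) {φ : Euc k → ℝ} (hφ : ContDiff ℝ 1 φ)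
    (hc : HasCompactSupport φ) (hs : tsupport φ ⊆ U)
    (hz : ∀ z ∈ tsupport φ, ‖iteratedFDeriv ℝ 2 u (r⁻¹ • π (z - x))‖ ≤ κ ∧
      Msys u (r⁻¹ • π (z - x)) = 0) :
    ∫ p, φ p.1 ^ 2 * rtl π ρ x r u p ∂V ≤
      16 * ∫ p, ‖fderiv ℝ φ p.1‖ ^ 2 * ‖hgt π ρ x r u p.1‖ ^ 2 ∂V +
      4 * (m * κ / r) ^ 2 * ∫ p, φ p.1 ^ 2 * ‖hgt π ρ x r u p.1‖ ^ 2 ∂V :=
  cacc_graph (Al7_182.st_of_stat hV) (Al7_182.tr_ae hV) (by simp) (fr_of_frame hf) hr hu hφ hc hs
    (Eventually.of_forall fun z hzb => minAt_of (hz z.1 hzb).1 (hz z.1 hzb).2)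

theorem norm_lt_of_box (hf : Frame π ρ) {a : ℝ} {z : Euc k} (hz : z ∈ box π ρ x a) :
    ‖z - x‖ < 2 * a := by
  have h1 := (fr_of_frame hf).norm_sq (z - x)
  have h2 := hz.1
  have h3 := hz.2
  have h4 := norm_nonneg (π (z - x))
  have h5 := norm_nonneg (ρ (z - x))
  refine lt_of_pow_lt_pow_left₀ 2 (by linarith) ?_
  nlinarith

theorem ball_subset_box (hf : Frame π ρ) {a b : ℝ} {z : Euc k} (hz : z ∈ box π ρ x a) :
    ball z b ⊆ box π ρ x (a + b) := by
  intro y hy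
  have h1 : y - x = (y - z) + (z - x) := by abel
  have hy' : ‖y - z‖ < b := by rwa [mem_ball, dist_eq_norm] at hy
  refine ⟨?_, ?_⟩
  · rw [h1, map_add]
    have := (fr_of_frame hf).norm_p_le (y - z)
    have := hz.1
    have := norm_add_le (π (y - z)) (π (z - x))
    linarith
  · rw [h1, map_add]
    have := (fr_of_frame hf).norm_r_le (y - z)
    have := hz.2
    have := norm_add_le (ρ (y - z)) (ρ (z - x))
    linarith

theorem integrableOn_box (hV : Stat m k U V) (hf : Frame π ρ) {a : ℝ}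
    (hU : closedBall x (2 * a) ⊆ U) {g : Euc k → ℝ} (hg : Continuous g) :
    IntegrableOn (fun p : Euc k × L k => g p.1) (box π ρ x a ×ˢ univ) V := by
  have h1 := (Al7_182.st_of_stat hV).integrableOn (f := g) hU hg.continuousOn
  refine h1.mono_set ?_
  rintro p ⟨hp, -⟩
  have := norm_lt_of_box hf hp
  rwa [mem_preimage, mem_ball, dist_eq_norm]

/-- **sup by `sep`**: the height over the minimal graph of `u` on the inner box. -/
theorem height_sep (hV : Stat m k U V) (hm : 1 ≤ m) (hf : Frame π ρ) (hr : 0 < r)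
    (hu : ContDiff ℝ 2 u) {a b : ℝ} (hb : 0 < b) (hba : b ≤ a) (hU : closedBall x (2 * (a * r)) ⊆ U)
    (hz : ∀ y ∈ ball (0 : Euc m) a, ‖iteratedFDeriv ℝ 2 u y‖ ≤ κ ∧ Msys u y = 0)
    (hκ : 64 * m * κ ^ 2 * b ^ 2 ≤ 1) (hz0 : z0 ∈ box π ρ x ((a - b) * r)) {A : ℝ} (hA0 : 0 ≤ A)
    (hA : ENNReal.ofReal A ≤ Th m V z0) :
    A * ome m * ‖hgt π ρ x r u z0‖ ^ 2 ≤ 33 / 32 * (((b * r) ^ m)⁻¹ * sep V π ρ x r u a) := by
  have hbr : 0 < b * r := by positivity
  have hsub : ball z0 (b * r) ⊆ box π ρ x (a * r) := by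
    have := ball_subset_box hf hz0 (b := b * r)
    rwa [show (a - b) * r + b * r = a * r by ring] at this
  have hcl : closedBall z0 (b * r) ⊆ U := by
    intro y hy
    refine hU ?_
    rw [mem_closedBall, dist_eq_norm] at hy ⊢
    have h1 := norm_lt_of_box hf hz0
    have h2 : y - x = (y - z0) + (z0 - x) := by abel
    have h3 := norm_add_le (y - z0) (z0 - x)
    rw [h2]
    nlinarith
  have h1 := height_hgt hV hm hf hr hu hbr hcl (κ := κ) (fun z hzb => hz _ (by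
    rw [mem_ball_zero_iff, norm_smul, norm_inv, Real.norm_eq_abs, abs_of_pos hr,
      inv_mul_lt_iff₀ hr, mul_comm]
    exact (hsub hzb).1)) (by
      calc 64 * m * κ ^ 2 * (b * r) ^ 2 = (64 * m * κ ^ 2 * b ^ 2) * r ^ 2 := by ring
        _ ≤ 1 * r ^ 2 := by gcongr
        _ = _ := one_mul _) hA0 hA
  refine h1.trans ?_
  gcongr
  unfold sep
  refine setIntegral_mono_set (integrableOn_box hV hf hU
    (g := fun z => ‖hgt π ρ x r u z‖ ^ 2) (contDiff_nsq hu).continuous)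
    (Eventually.of_forall fun z => by positivity) ?_
  refine LE.le.eventuallyLE ?_
  intro p hp
  exact ⟨hsub hp, mem_univ _⟩

/-- shifting the graph. -/
theorem hgt_shift (hr : 0 < r) (c : Euc n) (z : Euc k) :
    hgt π ρ x r (fun y => u y + r⁻¹ • c) z = hgt π ρ x r u z - c := by
  simp only [hgt, smul_add, smul_smul, mul_inv_cancel₀ hr.ne', one_smul]
  abel

theorem fderiv_shift (c : Euc n) : fderiv ℝ (fun y => u y + c) = fderiv ℝ u := by
  ext1 y
  rw [fderiv_add_const]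

theorem Msys_shift (c : Euc n) (y : Euc m) : Msys (fun y => u y + c) y = Msys u y := by
  unfold Msys
  rw [fderiv_shift]

theorem iteratedFDeriv_shift (c : Euc n) (y : Euc m) :
    ‖iteratedFDeriv ℝ 2 (fun y => u y + c) y‖ = ‖iteratedFDeriv ℝ 2 u y‖ := by
  rw [← norm_iteratedFDeriv_fderiv, fderiv_shift, norm_iteratedFDeriv_fderiv]

/-- **height bound, shifted**: `‖hgt - c‖`. -/
theorem height_hgt_sub (hV : Stat m k U V) (hm : 1 ≤ m) (hf : Frame π ρ) (hr : 0 < r)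
    (hu : ContDiff ℝ 2 u) (hs : 0 < s) (hU : closedBall z0 s ⊆ U)
    (hz : ∀ z ∈ ball z0 s, ‖iteratedFDeriv ℝ 2 u (r⁻¹ • π (z - x))‖ ≤ κ ∧
      Msys u (r⁻¹ • π (z - x)) = 0)
    (hsr : 64 * m * κ ^ 2 * s ^ 2 ≤ r ^ 2) {A : ℝ} (hA0 : 0 ≤ A)
    (hA : ENNReal.ofReal A ≤ Th m V z0) (c : Euc n) :
    A * ome m * ‖hgt π ρ x r u z0 - c‖ ^ 2 ≤ 33 / 32 * ((s ^ m)⁻¹ *
      ∫ z in Prod.fst ⁻¹' ball z0 s, ‖hgt π ρ x r u z.1 - c‖ ^ 2 ∂V) := by
  have h1 := height_hgt (u := fun y => u y + r⁻¹ • c) hV hm hf hr (hu.add contDiff_const) hs hU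
    (κ := κ) (x := x) (fun z hzb => by
      rw [iteratedFDeriv_shift, Msys_shift]; exact hz z hzb) hsr hA0 hA
  simpa only [hgt_shift hr] using h1

section VDS

variable {D : VarifoldData m k}

/-- **height bound on the support of an integral stationary varifold**. -/
theorem height_supp (hU0 : IsOpen U) (hD : IsIntegralVarifoldIn U D) (hst : IsStationaryIn U D)
    (hm : 1 ≤ m) (hf : Frame π ρ) (hr : 0 < r) (hu : ContDiff ℝ 2 u) {a b : ℝ} (hb : 0 < b)
    (hba : b ≤ a) (hU : closedBall x (2 * (a * r)) ⊆ U)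
    (hz : ∀ y ∈ ball (0 : Euc m) a, ‖iteratedFDeriv ℝ 2 u y‖ ≤ κ ∧ Msys u y = 0)
    (hκ : 64 * m * κ ^ 2 * b ^ 2 ≤ 1) (hz0 : z0 ∈ box π ρ x ((a - b) * r))
    (hzs : z0 ∈ support D) :
    ome m * ‖hgt π ρ x r u z0‖ ^ 2 ≤ 33 / 32 * (((b * r) ^ m)⁻¹ * sep (VD D) π ρ x r u a) := by
  have hzU : z0 ∈ U := by
    refine hU ?_
    rw [mem_closedBall, dist_eq_norm]
    have h1 := norm_lt_of_box hf hz0
    nlinarith
  have h1 := height_sep (stat_VD hD hst) hm hf hr hu hb hba hU hz hκ hz0 zero_le_one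
    (by rw [ENNReal.ofReal_one]; exact one_le_Th hD hst hm hU0 hzU hzs)
  rwa [one_mul] at h1

end VDS

end

end Crest.Agent.R234.Supm_685
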