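import Mathlib

/-!
Row 234, core (helper534): Vitali content package, (3) and (5)(a) of 504 #5124.
`content`   : Vitali: disjoint balls, 5r-covering, sum of r^d against a finite measure.
`proj_le`   : Lebesgue measure of the image of the centres under a 1-Lipschitz map into a d-dimensional space.
`compare`   : comparison of two measures at points where one ball of one is dominated by one ball of the other.
-/

set_option autoImplicit false

open Set Filter Topology MeasureTheory Metric Module Function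
open scoped ENNReal NNReal

namespace Crest.Agent.R234.Vit_534

section content

variable {X : Type*} [PseudoMetricSpace X] [MeasurableSpace X] [OpensMeasurableSpace X]

omit [MeasurableSpace X] [OpensMeasurableSpace X] in
/-- (V0) Vitali selection: disjoint balls whose 5-fold enlargements cover the centres. -/
theorem select (A : Set X) (ρ : X → ℝ) (s : ℝ) (hρ : ∀ x ∈ A, ρ x ≤ s) (hρ0 : ∀ x ∈ A, 0 ≤ ρ x) :
    ∃ u ⊆ A, u.PairwiseDisjoint (fun x => closedBall x (ρ x)) ∧
      A ⊆ ⋃ x ∈ u, closedBall x (5 * ρ x) := by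
  obtain ⟨u, hu, hd, hc⟩ := Vitali.exists_disjoint_subfamily_covering_enlargement_closedBall
    A (fun x => x) ρ s hρ 5 (by norm_num)
  refine ⟨u, hu, hd, fun x hx => ?_⟩
  obtain ⟨b, hb, hsub⟩ := hc x hx
  simp only [mem_iUnion]
  exact ⟨b, hb, hsub (mem_closedBall_self (hρ0 x hx))⟩

/-- sum of the measures of disjoint balls -/
theorem tsum_le (f : Measure X) (u : Set X) (ρ : X → ℝ)
    (hd : u.PairwiseDisjoint (fun x => closedBall x (ρ x))) (B : Set X)
    (hB : ∀ x ∈ u, closedBall x (ρ x) ⊆ B) :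
    ∑' x : u, f (closedBall (x : X) (ρ x)) ≤ f B := by
  refine (tsum_meas_le_meas_iUnion_of_disjoint f (fun x : u => measurableSet_closedBall) ?_).trans
    (measure_mono (iUnion_subset fun x => hB x x.2))
  intro x y hxy
  exact hd x.2 y.2 (fun h => hxy (Subtype.ext h))

/-- (V1) content estimate -/
theorem content (f : Measure X) (A B : Set X) (ρ : X → ℝ) (s : ℝ) (hρ : ∀ x ∈ A, ρ x ≤ s)
    (hρ0 : ∀ x ∈ A, 0 ≤ ρ x) (φ : X → ℝ≥0∞) (h : ∀ x ∈ A, φ x ≤ f (closedBall x (ρ x)))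
    (hB : ∀ x ∈ A, closedBall x (ρ x) ⊆ B) :
    ∃ u ⊆ A, u.PairwiseDisjoint (fun x => closedBall x (ρ x)) ∧
      (A ⊆ ⋃ x ∈ u, closedBall x (5 * ρ x)) ∧ ∑' x : u, φ x ≤ f B := by
  obtain ⟨u, hu, hd, hc⟩ := select A ρ s hρ hρ0
  refine ⟨u, hu, hd, hc, ?_⟩
  exact (ENNReal.tsum_le_tsum fun x : u => h x (hu x.2)).trans
    (tsum_le f u ρ hd B fun x hx => hB x (hu hx))

/-- a disjoint family of balls charged by a finite measure is countable -/
theorem countable_of (f : Measure X) (u B : Set X) (ρ : X → ℝ)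
    (hd : u.PairwiseDisjoint (fun x => closedBall x (ρ x)))
    (hB : ∀ x ∈ u, closedBall x (ρ x) ⊆ B) (hfin : f B ≠ ∞)
    (hpos : ∀ x ∈ u, f (closedBall x (ρ x)) ≠ 0) : u.Countable := by
  have h1 : ∑' x : u, f (closedBall (x : X) (ρ x)) ≠ ∞ :=
    ne_top_of_le_ne_top hfin (tsum_le f u ρ hd B hB)
  have h2 := Summable.countable_support_ennreal h1
  have h3 : support (fun x : u => f (closedBall (x : X) (ρ x))) = univ := by
    ext x
    simp only [mem_support, mem_univ, iff_true]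
    exact hpos x x.2
  rw [h3, countable_univ_iff] at h2
  exact countable_coe_iff.1 h2

/-- (V3) comparison: if every point of `A` has a ball with `g (ball r) ≥ κ e (ball 5r)` then `κ e A ≤ g B`. -/
theorem compare (e g : Measure X) (A B : Set X) (ρ : X → ℝ) (s : ℝ) (hρ : ∀ x ∈ A, ρ x ≤ s)
    (hρ0 : ∀ x ∈ A, 0 ≤ ρ x) (κ : ℝ≥0∞)
    (h : ∀ x ∈ A, κ * e (closedBall x (5 * ρ x)) ≤ g (closedBall x (ρ x)))
    (hg : ∀ x ∈ A, g (closedBall x (ρ x)) ≠ 0)
    (hB : ∀ x ∈ A, closedBall x (ρ x) ⊆ B) (hfin : g B ≠ ∞) : κ * e A ≤ g B := by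
  obtain ⟨u, hu, hd, hc⟩ := select A ρ s hρ hρ0
  have hcount : u.Countable := countable_of g u B ρ hd (fun x hx => hB x (hu hx)) hfin
    (fun x hx => hg x (hu hx))
  have : Countable u := hcount.to_subtype
  calc κ * e A ≤ κ * e (⋃ x ∈ u, closedBall x (5 * ρ x)) := by gcongr
    _ ≤ κ * ∑' x : u, e (closedBall (x : X) (5 * ρ x)) := by
        gcongr
        exact measure_biUnion_le e hcount _
    _ = ∑' x : u, κ * e (closedBall (x : X) (5 * ρ x)) := ENNReal.tsum_mul_left.symm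
    _ ≤ ∑' x : u, g (closedBall (x : X) (ρ x)) := ENNReal.tsum_le_tsum fun x => h x (hu x.2)
    _ ≤ g B := tsum_le g u ρ hd B fun x hx => hB x (hu hx)

/-- (V3) without positivity, in a second countable space. -/
theorem compare' [SecondCountableTopology X] (e g : Measure X) (A B : Set X) (ρ : X → ℝ) (s : ℝ)
    (hρ : ∀ x ∈ A, ρ x ≤ s) (hρ0 : ∀ x ∈ A, 0 < ρ x) (κ : ℝ≥0∞)
    (h : ∀ x ∈ A, κ * e (closedBall x (5 * ρ x)) ≤ g (closedBall x (ρ x)))
    (hB : ∀ x ∈ A, closedBall x (ρ x) ⊆ B) : κ * e A ≤ g B := by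
  rcases eq_or_ne (g B) ∞ with hfin | hfin
  · rw [hfin]; exact le_top
  rcases eq_or_ne κ 0 with rfl | hκ
  · simp
  set A0 : Set X := {x ∈ A | g (closedBall x (ρ x)) = 0} with hA0
  set A1 : Set X := {x ∈ A | g (closedBall x (ρ x)) ≠ 0} with hA1
  have hsplit : A ⊆ A1 ∪ A0 := by
    intro x hx
    by_cases hx0 : g (closedBall x (ρ x)) = 0
    · exact Or.inr ⟨hx, hx0⟩
    · exact Or.inl ⟨hx, hx0⟩
  have h0 : e A0 = 0 := by
    refine measure_null_of_locally_null A0 fun x hx => ?_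
    refine ⟨ball x (5 * ρ x), mem_nhdsWithin_of_mem_nhds (ball_mem_nhds x ?_), ?_⟩
    · have := hρ0 x hx.1; positivity
    · have h1 := h x hx.1
      rw [hx.2] at h1
      have h2 : κ * e (closedBall x (5 * ρ x)) = 0 := le_antisymm h1 (zero_le)
      have h3 : e (closedBall x (5 * ρ x)) = 0 := by
        rcases mul_eq_zero.1 h2 with h | h
        · exact absurd h hκ
        · exact h
      exact measure_mono_null ball_subset_closedBall h3
  have h1 : κ * e A1 ≤ g B := compare e g A1 B ρ s (fun x hx => hρ x hx.1)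
    (fun x hx => (hρ0 x hx.1).le) κ (fun x hx => h x hx.1) (fun x hx => hx.2)
    (fun x hx => hB x hx.1) hfin
  calc κ * e A ≤ κ * (e A1 + e A0) := by
        gcongr
        exact (measure_mono hsplit).trans (measure_union_le _ _)
    _ = κ * e A1 := by rw [h0, add_zero]
    _ ≤ g B := h1

variable {L : Type*} [NormedAddCommGroup L] [NormedSpace ℝ L] [FiniteDimensional ℝ L]
  [MeasurableSpace L] [BorelSpace L]

/-- (V2) Lebesgue measure of a Lipschitz image of the set of centres. -/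
theorem proj_le (ν : Measure L) [ν.IsAddHaarMeasure] (f : Measure X) (A B : Set X) (ρ : X → ℝ) (s : ℝ)
    (hρ : ∀ x ∈ A, ρ x ≤ s) (hρ0 : ∀ x ∈ A, 0 < ρ x) (lam : ℝ≥0∞)
    (h : ∀ x ∈ A, lam * ENNReal.ofReal (ρ x ^ finrank ℝ L) ≤ f (closedBall x (ρ x)))
    (hB : ∀ x ∈ A, closedBall x (ρ x) ⊆ B) (K : ℝ≥0) (π : X → L) (hπ : LipschitzWith K π) :
    lam * ν (π '' A) ≤ ENNReal.ofReal ((5 * K) ^ finrank ℝ L) * ν (ball 0 1) * f B := by
  rcases eq_or_ne lam 0 with rfl | hlam
  · simp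
  set d := finrank ℝ L with hd'
  rcases eq_or_ne (f B) ∞ with hfin | hfin
  · rcases eq_or_ne K 0 with hK | hK
    · -- constant map
      rcases eq_or_ne d 0 with hd0 | hd0
      · rw [hfin, ENNReal.mul_top]
        · exact le_top
        · refine mul_ne_zero ?_ (measure_ball_pos ν 0 one_pos).ne'
          rw [hd0]; simp
      · have hc : (π '' A).Subsingleton := by
          rintro _ ⟨x, -, rfl⟩ _ ⟨y, -, rfl⟩
          have := hπ x y
          rw [hK] at this
          simpa using this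
        have : Nontrivial L := Module.nontrivial_of_finrank_pos (R := ℝ) (Nat.pos_of_ne_zero hd0)
        have hz : ν (π '' A) = 0 := hc.measure_zero ν
        rw [hz]; simp
    · rw [hfin, ENNReal.mul_top]
      · exact le_top
      · refine mul_ne_zero ?_ (measure_ball_pos ν 0 one_pos).ne'
        have : (0:ℝ) < K := by positivity
        simp only [ne_eq, ENNReal.ofReal_eq_zero, not_le]
        positivity
  obtain ⟨u, hu, hd, hc⟩ := select A ρ s hρ (fun x hx => (hρ0 x hx).le)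
  have hcount : u.Countable := countable_of f u B ρ hd (fun x hx => hB x (hu hx)) hfin (by
    intro x hx h0
    have h1 := h x (hu hx)
    rw [h0] at h1
    have h2 : lam * ENNReal.ofReal (ρ x ^ d) = 0 := le_antisymm h1 (zero_le)
    rcases mul_eq_zero.1 h2 with h | h
    · exact hlam h
    · have := hρ0 x (hu hx)
      rw [ENNReal.ofReal_eq_zero] at h
      have : 0 < ρ x ^ d := by positivity
      linarith)
  have : Countable u := hcount.to_subtype
  have hb : ∀ x : u, lam * ν (π '' closedBall (x : X) (5 * ρ x)) ≤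
      ENNReal.ofReal ((5 * K) ^ d) * ν (ball 0 1) * f (closedBall (x : X) (ρ x)) := by
    intro x
    have hx0 := (hρ0 x (hu x.2)).le
    have h1 : π '' closedBall (x : X) (5 * ρ x) ⊆ closedBall (π x) (K * (5 * ρ x)) := by
      rintro _ ⟨y, hy, rfl⟩
      exact (hπ.dist_le_mul y x).trans (by gcongr; exact hy)
    calc lam * ν (π '' closedBall (x : X) (5 * ρ x))
        ≤ lam * ν (closedBall (π x) (K * (5 * ρ x))) := by gcongr
      _ = lam * (ENNReal.ofReal ((K * (5 * ρ x)) ^ d) * ν (ball 0 1)) := by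
          rw [Measure.addHaar_closedBall ν _ (by positivity)]
      _ = ENNReal.ofReal ((5 * K) ^ d) * ν (ball 0 1) * (lam * ENNReal.ofReal (ρ x ^ d)) := by
          have : (K * (5 * ρ x)) ^ d = (5 * K) ^ d * ρ x ^ d := by rw [← mul_pow]; ring
          rw [this, ENNReal.ofReal_mul (by positivity)]
          ring
      _ ≤ _ := by gcongr; exact h x (hu x.2)
  calc lam * ν (π '' A) ≤ lam * ν (⋃ x ∈ u, π '' closedBall x (5 * ρ x)) := by
        gcongr
        rw [← image_iUnion₂]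
        exact image_mono hc
    _ ≤ lam * ∑' x : u, ν (π '' closedBall (x : X) (5 * ρ x)) := by
        gcongr
        exact measure_biUnion_le ν hcount _
    _ = ∑' x : u, lam * ν (π '' closedBall (x : X) (5 * ρ x)) := ENNReal.tsum_mul_left.symm
    _ ≤ ∑' x : u, ENNReal.ofReal ((5 * K) ^ d) * ν (ball 0 1) * f (closedBall (x : X) (ρ x)) :=
        ENNReal.tsum_le_tsum hb
    _ = ENNReal.ofReal ((5 * K) ^ d) * ν (ball 0 1) * ∑' x : u, f (closedBall (x : X) (ρ x)) :=
        ENNReal.tsum_mul_left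
    _ ≤ _ := by gcongr; exact tsum_le f u ρ hd B fun x hx => hB x (hu hx)

end content

/-- (V4) a scale at which the density `p` of `P` is small compared with `E`. -/
theorem exists_slow (p P E : ℝ → ℝ) (l0 c δ D0 D1 : ℝ) (N : ℕ) (hc : 0 < c) (hδ : 0 < δ)
    (hint : ∀ a b, l0 ≤ a → a ≤ b → b ≤ l0 + 2 * c * (N + 1) →
      IntervalIntegrable p volume a b ∧ P b - P a = ∫ t in a..b, p t)
    (hp0 : ∀ t ∈ Icc l0 (l0 + 2 * c * (N + 1)), 0 ≤ p t) (h0 : 0 ≤ P l0)
    (hPE : ∀ l ∈ Icc l0 (l0 + 2 * c * (N + 1)), P l ≤ E l)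
    (hD0 : ∀ l ∈ Icc l0 (l0 + 2 * c * (N + 1)), D0 ≤ E l)
    (hD1 : E (l0 + 2 * c * (N + 1)) ≤ D1)
    (hbig : D1 < (1 + c * δ) ^ N * (c * δ * D0)) :
    ∃ l, l0 ≤ l ∧ l + c ≤ l0 + 2 * c * (N + 1) ∧ p (l + c) ≤ δ * E l := by
  by_contra hcon
  push Not at hcon
  have hmono : ∀ a b, l0 ≤ a → a ≤ b → b ≤ l0 + 2 * c * (N + 1) → P a ≤ P b := by
    intro a b ha hab hb
    have h1 := (hint a b ha hab hb).2
    have h2 : 0 ≤ ∫ t in a..b, p t := intervalIntegral.integral_nonneg hab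
      fun t ht => hp0 t ⟨ha.trans ht.1, ht.2.trans hb⟩
    linarith
  -- one step
  have hstep : ∀ L κ : ℝ, l0 ≤ L → L + 2 * c ≤ l0 + 2 * c * (N + 1) →
      (∀ l, L ≤ l → l ≤ L + c → κ ≤ E l) → P (L + c) + c * (δ * κ) ≤ P (L + 2 * c) := by
    intro L κ hL hL2 hκ
    have h1 := hint (L + c) (L + 2 * c) (by linarith) (by linarith) hL2
    have h2 : c * (δ * κ) ≤ ∫ t in (L + c)..(L + 2 * c), p t := by
      have h3 : (∫ _ in (L + c)..(L + 2 * c), δ * κ) = c * (δ * κ) := by
        rw [intervalIntegral.integral_const, smul_eq_mul]; ring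
      rw [← h3]
      refine intervalIntegral.integral_mono_on (by linarith) (by simp) h1.1 fun t ht => ?_
      have h4 := hcon (t - c) (by linarith [ht.1]) (by linarith [ht.2])
      have h5 := hκ (t - c) (by linarith [ht.1]) (by linarith [ht.2])
      rw [sub_add_cancel] at h4
      have := mul_le_mul_of_nonneg_left h5 hδ.le
      linarith
    linarith [h1.2]
  have key : ∀ k : ℕ, k ≤ N → (1 + c * δ) ^ k * (c * δ * D0) ≤ P (l0 + 2 * c * (k + 1)) := by
    intro k
    induction k with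
    | zero =>
      intro _
      have hN : (0:ℝ) ≤ N := Nat.cast_nonneg N
      have h1 : l0 + 2 * c ≤ l0 + 2 * c * (N + 1) := by nlinarith
      have h2 := hstep l0 D0 le_rfl h1 (fun l hl hl' => hD0 l ⟨hl, by linarith⟩)
      have h3 := hmono l0 (l0 + c) le_rfl (by linarith) (by linarith)
      have h4 : l0 + 2 * c * ((0:ℕ) + 1) = l0 + 2 * c := by simp
      rw [h4, pow_zero, one_mul]
      nlinarith
    | succ k ih =>
      intro hk
      have ih := ih (by omega)
      have hkN : (k:ℝ) + 1 ≤ N := by exact_mod_cast hk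
      set L := l0 + 2 * c * (k + 1) with hL
      have hL0 : l0 ≤ L := by rw [hL]; have : (0:ℝ) ≤ k := Nat.cast_nonneg k; nlinarith
      have hL2 : L + 2 * c ≤ l0 + 2 * c * (N + 1) := by rw [hL]; nlinarith
      have h2 := hstep L (P L) hL0 hL2 (fun l hl hl' => (hmono L l hL0 hl (by linarith)).trans
        (hPE l ⟨by linarith, by linarith⟩))
      have h3 := hmono L (L + c) hL0 (by linarith) (by linarith)
      have h4 : l0 + 2 * c * (((k + 1 : ℕ) : ℝ) + 1) = L + 2 * c := by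
        rw [hL]; push_cast; ring
      rw [h4, pow_succ]
      have h5 : 0 < c * δ := by positivity
      have h6 := mul_le_mul_of_nonneg_left ih (by linarith : (0:ℝ) ≤ 1 + c * δ)
      nlinarith
  have h1 := key N le_rfl
  have h2 : P (l0 + 2 * c * (N + 1)) ≤ D1 :=
    (hPE _ ⟨by have : (0:ℝ) ≤ N := Nat.cast_nonneg N; nlinarith, le_rfl⟩).trans hD1
  linarith

/-- (V4) THE SIMPLE BOUND, (2) of #4733, abstract form. `p x l` = normalised density of `ε` at `x` and scale
`exp l`, `P x l = ∫^l p x`, `E x l` = normalised energy. If `P ≤ E` at all scales of the window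
`[l0, l0 + 2c(N+1)]` and `D0 ≤ E`, `E ≤ D1`, then `ε Z ≤ (δ / c0) a(B)` as soon as `D1 < (1+cδ)^N cδ D0`. -/
theorem simple_bound {X : Type*} [PseudoMetricSpace X] [MeasurableSpace X] [OpensMeasurableSpace X]
    [SecondCountableTopology X] (ε a : Measure X) (Z B : Set X) (n : ℝ)
    (p P E : X → ℝ → ℝ) (l0 c δ D0 D1 : ℝ) (N : ℕ) (hc : 0 < c) (hδ : 0 < δ)
    (hint : ∀ x ∈ Z, ∀ u v, l0 ≤ u → u ≤ v → v ≤ l0 + 2 * c * (N + 1) →
      IntervalIntegrable (p x) volume u v ∧ P x v - P x u = ∫ t in u..v, p x t)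
    (hp0 : ∀ x ∈ Z, ∀ t ∈ Icc l0 (l0 + 2 * c * (N + 1)), 0 ≤ p x t) (h0 : ∀ x ∈ Z, 0 ≤ P x l0)
    (hPE : ∀ x ∈ Z, ∀ l ∈ Icc l0 (l0 + 2 * c * (N + 1)), P x l ≤ E x l)
    (hD0 : ∀ x ∈ Z, ∀ l ∈ Icc l0 (l0 + 2 * c * (N + 1)), D0 ≤ E x l)
    (hD1 : ∀ x ∈ Z, E x (l0 + 2 * c * (N + 1)) ≤ D1)
    (hbig : D1 < (1 + c * δ) ^ N * (c * δ * D0))
    (c0 : ℝ≥0∞)
    (hlow : ∀ x ∈ Z, ∀ l, l0 ≤ l → l + c ≤ l0 + 2 * c * (N + 1) →
      c0 * ε (closedBall x (5 * Real.exp l)) ≤ ENNReal.ofReal (Real.exp (n * l) * p x (l + c)))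
    (hup : ∀ x ∈ Z, ∀ l, l0 ≤ l → l + c ≤ l0 + 2 * c * (N + 1) →
      ENNReal.ofReal (Real.exp (n * l) * E x l) ≤ a (closedBall x (Real.exp l)))
    (hB : ∀ x ∈ Z, closedBall x (Real.exp (l0 + 2 * c * (N + 1) - c)) ⊆ B) :
    c0 * ε Z ≤ ENNReal.ofReal δ * a B := by
  have key : ∀ x ∈ Z, ∃ l, l0 ≤ l ∧ l + c ≤ l0 + 2 * c * (N + 1) ∧
      c0 * ε (closedBall x (5 * Real.exp l)) ≤ ENNReal.ofReal δ * a (closedBall x (Real.exp l)) := by
    intro x hx
    obtain ⟨l, h1, h2, h3⟩ := exists_slow (p x) (P x) (E x) l0 c δ D0 D1 N hc hδ (hint x hx) (hp0 x hx)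
      (h0 x hx) (hPE x hx) (hD0 x hx) (hD1 x hx) hbig
    refine ⟨l, h1, h2, (hlow x hx l h1 h2).trans ?_⟩
    calc ENNReal.ofReal (Real.exp (n * l) * p x (l + c))
        ≤ ENNReal.ofReal (δ * (Real.exp (n * l) * E x l)) := by
          apply ENNReal.ofReal_le_ofReal
          have := mul_le_mul_of_nonneg_left h3 (Real.exp_pos (n * l)).le
          linarith
      _ = ENNReal.ofReal δ * ENNReal.ofReal (Real.exp (n * l) * E x l) := ENNReal.ofReal_mul hδ.le
      _ ≤ _ := by gcongr; exact hup x hx l h1 h2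
  choose! ℓ h1 h2 h3 using key
  have hmain := compare' ε ((ENNReal.ofReal δ) • a) Z B (fun x => Real.exp (ℓ x))
    (Real.exp (l0 + 2 * c * (N + 1) - c))
    (fun x hx => Real.exp_le_exp.2 (by linarith [h2 x hx])) (fun x hx => Real.exp_pos _) c0
    (fun x hx => by
      have := h3 x hx
      simpa [Measure.smul_apply, smul_eq_mul] using this)
    (fun x hx => (closedBall_subset_closedBall (Real.exp_le_exp.2 (by linarith [h2 x hx]))).trans
      (hB x hx))
  simpa [Measure.smul_apply, smul_eq_mul] using hmain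

end Crest.Agent.R234.Vit_534
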