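import Crest.Agent.R234.In3_947
import Crest.Agent.R234.Ar5_870
import Crest.Agent.R234.Vf8_884
import Crest.Agent.R234.Vit1_534

/-!
Row 234, VF-INT (helper947), file 4: coisometries, densities on sheets, the bad set (Vitali), the
bound of the number of good sheets.
-/

set_option autoImplicit false

open MeasureTheory Crest.GeometryTopology.Submanifold Filter Topology
open scoped ENNReal InnerProductSpace

noncomputable section

namespace Crest.Agent.R234.In_947

open Crest.Agent.R234.Vf_884

variable {m k : ℕ} {U : Set (Euc k)} {V : Measure (Euc k × L k)}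

/-! ### coisometries -/

theorem exists_co {P : L k} (hP : P ∈ G m k) : ∃ π : Euc k →L[ℝ] Euc m, Ar_870.IsCo π ∧
    ContinuousLinearMap.adjoint π ∘L π = P := by
  have h1 : IsStarProjection P := ⟨hP.1, hP.2.1⟩
  obtain ⟨T, hT, hPT⟩ := isStarProjection_iff_eq_starProjection.1 h1
  have hfr : Module.finrank ℝ T = m := by
    have h2 := (starProjection_mem_G T rfl).2.2
    rw [← hPT, hP.2.2] at h2
    exact_mod_cast h2.symm
  let b : OrthonormalBasis (Fin m) ℝ T := (stdOrthonormalBasis ℝ T).reindex (finCongr hfr)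
  let e : T ≃ₗᵢ[ℝ] Euc m := b.repr
  let π : Euc k →L[ℝ] Euc m := (e : T →L[ℝ] Euc m) ∘L T.orthogonalProjectionOnto
  have hadj : ContinuousLinearMap.adjoint π = T.subtypeL ∘L (e.symm : Euc m →L[ℝ] T) := by
    rw [ContinuousLinearMap.adjoint_comp, LinearIsometryEquiv.adjoint_eq_symm]
    congr 1
    rw [← T.adjoint_subtypeL, ContinuousLinearMap.adjoint_adjoint]
  refine ⟨π, ?_, ?_⟩
  · rw [Ar_870.IsCo, hadj]
    ext1 x
    simp [π]
  · rw [hadj, hPT]
    ext1 x
    simp [π]

theorem tilt_eq_tl {P : L k} {π : Euc k →L[ℝ] Euc m}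
    (h : ContinuousLinearMap.adjoint π ∘L π = P) {S : L k} (hS : S ∈ G m k) :
    tilt P S = Ar_870.tl π S := by
  rw [tilt, Ar_870.tl, hS.2.2, ← h, tr_apply]
  congr 1
  exact (LinearMap.trace_comp_comm' (R := ℝ) (π ∘L S : Euc k →L[ℝ] Euc m).toLinearMap
    (ContinuousLinearMap.adjoint π).toLinearMap).trans rfl

theorem co_norm_le {P : L k} (hP : P ∈ G m k) {π : Euc k →L[ℝ] Euc m}
    (h : ContinuousLinearMap.adjoint π ∘L π = P) (v : Euc k) : ‖π v‖ ≤ ‖v‖ := by
  have h1 : ‖π v‖ ^ 2 = ‖P v‖ ^ 2 := by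
    rw [← G_inner_self hP, ← h, ContinuousLinearMap.comp_apply,
      ContinuousLinearMap.adjoint_inner_left, real_inner_self_eq_norm_sq]
  have h2 : ‖π v‖ = ‖P v‖ := by
    rw [← abs_of_nonneg (norm_nonneg (π v)), ← abs_of_nonneg (norm_nonneg (P v)), ← sq_eq_sq_iff_abs_eq_abs]
    exact h1
  rw [h2]
  exact G_norm_apply_le hP v

/-! ### real mass ratios -/

theorem ms_eq (V : Measure (Euc k × L k)) {A : Set (Euc k)} (hA : MeasurableSet A) :
    ms V A = (mass V A).toReal := by
  rw [ms, mass_apply V hA, prod_univ_eq]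

theorem ratio_mono (hV : Stat m k U V) (hm : 1 ≤ m) {z : Euc k} {r s : ℝ} (hr : 0 < r)
    (hrs : r ≤ s) (hU : Metric.closedBall z s ⊆ U) :
    (r ^ m)⁻¹ * ms V (Metric.closedBall z r) ≤ (s ^ m)⁻¹ * ms V (Metric.closedBall z s) := by
  rcases hrs.eq_or_lt with h | h
  · rw [h]
  · have h1 := mono_real hV hm hr h hU
    rw [ms_eq V Metric.isClosed_closedBall.measurableSet,
      ms_eq V Metric.isClosed_closedBall.measurableSet]
    refine h1.trans ?_
    rw [measureReal_def]
    have h2 : mass V (Metric.closedBall z s) ≠ ⊤ :=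
      (mass_lt_top hV (isCompact_closedBall z s) hU).ne
    have h3 : 0 < s := hr.trans h
    gcongr
    exact Metric.ball_subset_closedBall

theorem low_ratio (hV : Stat m k U V) (hm : 1 ≤ m) {z : Euc k} {r : ℝ} (hr : 0 < r)
    (hU : Metric.closedBall z r ⊆ U) {q : ℕ} (hq : (q : ℝ≥0∞) ≤ Th m V z) :
    ome m * q ≤ (r ^ m)⁻¹ * ms V (Metric.closedBall z r) := by
  have h1 := mul_le_mass hV hm hr (Metric.ball_subset_closedBall.trans hU) hq
  have h2 := h1.trans (measure_mono Metric.ball_subset_closedBall)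
  have h3 : mass V (Metric.closedBall z r) ≠ ⊤ :=
    (mass_lt_top hV (isCompact_closedBall z r) hU).ne
  have h4 := ENNReal.toReal_mono h3 h2
  rw [← ms_eq V Metric.isClosed_closedBall.measurableSet, ENNReal.toReal_mul,
    ENNReal.toReal_natCast, ENNReal.toReal_ofReal (den_pos m hr).le] at h4
  rw [le_inv_mul_iff₀ (by positivity)]
  linarith

/-! ### densities on sheets -/

variable {D : VarifoldData m k} {π : Euc k →L[ℝ] Euc m}

theorem ae_sheet_Th (hD : IsIntegralVarifoldIn U D) (hs : IsStationaryIn U D) (hm : 1 ≤ m)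
    (hU : IsOpen U) (S : Ar_870.Sheets D π) :
    ∀ᵐ x : Euc m, ∀ j, x ∈ S.B j → Th m (VD D) (S.s j x) = (S.q j : ℝ≥0∞) := by
  -- the exceptional set in the charts
  have h1 : ∀ i, ∃ T : Set (Euc m), MeasurableSet T ∧ volume T = 0 ∧ ∀ a ∈ D.dom i, a ∉ T →
      Th m (VD D) (D.chart i a) = (D.mult i a : ℝ≥0∞) := by
    intro i
    have h2 := Th_VD_ae hD hs hm hU i
    rw [ae_restrict_iff' (hD.measurableSet i), ae_iff] at h2
    obtain ⟨T, hT1, hT2, hT3⟩ := exists_measurable_superset_of_null h2
    refine ⟨T, hT2, hT3, fun a ha haT => ?_⟩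
    by_contra hcon
    exact haT (hT1 fun h => hcon (h ha))
  choose T hTm hT0 hTh using h1
  set Z : Set (Euc k) := ⋃ i, D.chart i '' (D.dom i ∩ T i) with hZ
  have hZm : MeasurableSet Z := MeasurableSet.iUnion fun i =>
    measurableSet_image hD ((hD.measurableSet i).inter (hTm i)) Set.inter_subset_left
  have hZ0 : VD D (Z ×ˢ Set.univ) = 0 := by
    have h2 : mass (VD D) Z = 0 := by
      rw [mass_VD hD]
      refine measure_iUnion_null fun i => ?_
      have h3 := weight_restrict hD (i := i) ((hD.measurableSet i).inter (hTm i))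
        Set.inter_subset_left
      have h4 : weight D (D.chart i '' (D.dom i ∩ T i)) =
          (weight D).restrict (D.chart i '' (D.dom i ∩ T i)) Set.univ := by
        rw [Measure.restrict_apply_univ]
      rw [h4, h3, Measure.map_apply (hD.contDiff i).continuous.measurable MeasurableSet.univ,
        Set.preimage_univ, Measure.restrict_apply_univ]
      refine (base_ac D i) (le_antisymm ((Measure.restrict_apply_le _ _).trans
        ((measure_mono Set.inter_subset_right).trans_eq (hT0 i))) zero_le)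
    rw [mass_apply _ hZm, ← prod_univ_eq] at h2
    exact h2
  have h5 := S.area ((Z ×ˢ (Set.univ : Set (L k))).indicator 1)
    (measurable_one.indicator (hZm.prod MeasurableSet.univ))
  have h6 : ∫⁻ p, ENNReal.ofReal (Ar_870.Jh π p.2) *
      (Z ×ˢ (Set.univ : Set (L k))).indicator 1 p ∂(VD D) = 0 := by
    rw [lintegral_eq_zero_iff']
    · have h7 : ∀ᵐ p ∂(VD D), p ∉ Z ×ˢ (Set.univ : Set (L k)) :=
        measure_eq_zero_iff_ae_notMem.1 hZ0
      filter_upwards [h7] with p hp
      simp [Set.indicator_of_notMem hp]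
    · refine Measurable.aemeasurable ?_
      exact (((Ar_870.continuous_Jh π).measurable.comp measurable_snd).ennreal_ofReal).mul
        (measurable_one.indicator (hZm.prod MeasurableSet.univ))
  rw [h6, eq_comm, ENNReal.tsum_eq_zero] at h5
  rw [ae_all_iff]
  intro j
  have h8 := h5 j
  by_cases hqj : S.q j = 0
  · refine Eventually.of_forall fun x hx => ?_
    have := S.qpos j x hx
    omega
  · rw [mul_eq_zero, Nat.cast_eq_zero, or_iff_right hqj, lintegral_eq_zero_iff'] at h8
    · rw [Filter.EventuallyEq, ae_restrict_iff' (S.measB j)] at h8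
      filter_upwards [h8] with x hx hxB
      have h9 := hx hxB
      have h10 : S.s j x ∉ Z := by
        intro hcon
        rw [Set.indicator_of_mem (show (S.s j x, S.Q j x) ∈ Z ×ˢ (Set.univ : Set (L k)) from
          ⟨hcon, trivial⟩)] at h9
        simp at h9
      obtain ⟨i, a, ha, h11, h12, -⟩ := S.memD j x hxB
      have h13 : a ∉ T i := fun h => h10 (Set.mem_iUnion.2 ⟨i, a, ⟨ha, h⟩, h11⟩)
      rw [← h11, hTh i a ha h13, h12]
    · refine Measurable.aemeasurable ?_
      exact (measurable_one.indicator (hZm.prod MeasurableSet.univ)).comp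
        ((S.measS j).prodMk (S.measQ j))

end Crest.Agent.R234.In_947
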