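import Crest.Agent.R234.Mx2_397

/-!
# Row 234, VF-MINEX part 4 (helper397): matrices over the Wiener algebra, the fixed point

`qi h` solves `K = -h - hK` (so `1 + K = (1+h)⁻¹`), small `h`;
`Bf e u = Σ K_ij ∂_i∂_j u`, `M(u) = Δu + Bf u`;
`exists_X`: fixed point of `f = -R - Z (Bf(w + G f) - Bf w)`.
-/

set_option autoImplicit false
set_option linter.unusedSectionVars false

open MeasureTheory Complex Filter Real
open scoped ContDiff Topology InnerProductSpace NNReal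

noncomputable section

namespace Crest.Agent.R234.Mx4_397

/-- a contraction of a ball -/
theorem exists_fix {E : Type*} [NormedAddCommGroup E] [CompleteSpace E] (T : E → E) {r : ℝ}
    (hr : 0 ≤ r) (hT : ∀ x y, ‖x‖ ≤ r → ‖y‖ ≤ r → ‖T x - T y‖ ≤ ‖x - y‖ / 2)
    (h0 : ‖T 0‖ ≤ r / 2) :
    ∃ x, ‖x‖ ≤ r ∧ ‖x‖ ≤ 2 * ‖T 0‖ ∧ T x = x ∧ ∀ y, ‖y‖ ≤ r → T y = y → y = x := by
  have hm : Set.MapsTo T (Metric.closedBall (0 : E) r) (Metric.closedBall 0 r) := fun x hx => by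
    rw [mem_closedBall_zero_iff] at hx ⊢
    have h1 := hT x 0 hx (by rw [norm_zero]; exact hr)
    rw [sub_zero] at h1
    have h2 : ‖T x‖ ≤ ‖T x - T 0‖ + ‖T 0‖ := by
      have := norm_add_le (T x - T 0) (T 0)
      rwa [sub_add_cancel] at this
    linarith
  have hc : ContractingWith (1 / 2 : ℝ≥0) (hm.restrict T _ _) := by
    refine ⟨by rw [← NNReal.coe_lt_coe]; norm_num, LipschitzWith.of_dist_le_mul fun x y => ?_⟩
    rw [Subtype.dist_eq, Subtype.dist_eq, dist_eq_norm, dist_eq_norm]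
    have h1 := hT x y (mem_closedBall_zero_iff.1 x.2) (mem_closedBall_zero_iff.1 y.2)
    have h2 : ((1 / 2 : ℝ≥0) : ℝ) = 1 / 2 := by norm_num
    rw [h2]
    show ‖T x - T y‖ ≤ _
    linarith
  obtain ⟨x, hx, hfix, _⟩ := ContractingWith.exists_fixedPoint' Metric.isClosed_closedBall.isComplete
    hm hc (x := 0) (by simpa using hr) (edist_ne_top _ _)
  have hx' := mem_closedBall_zero_iff.1 hx
  have h1 := hT x 0 hx' (by rw [norm_zero]; exact hr)
  rw [sub_zero, show T x = x from hfix] at h1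
  have h3 : ‖x‖ ≤ ‖x - T 0‖ + ‖T 0‖ := by
    have := norm_add_le (x - T 0) (T 0)
    rwa [sub_add_cancel] at this
  refine ⟨x, hx', by linarith, hfix, fun y hy hyf => ?_⟩
  have h2 := hT y x hy hx'
  rw [hyf, show T x = x from hfix] at h2
  have h4 : ‖y - x‖ = 0 := by linarith [norm_nonneg (y - x)]
  exact sub_eq_zero.1 (norm_eq_zero.1 h4)

section qi

variable {A : Type*} [NonUnitalNormedCommRing A] {ι : Type*} [Fintype ι]

/-- matrix product -/
def mm (h K : ι → ι → A) : ι → ι → A := fun i j => ∑ l, h i l * K l j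

theorem norm_ent (h : ι → ι → A) (i j : ι) : ‖h i j‖ ≤ ‖h‖ :=
  (norm_le_pi_norm (h i) j).trans (norm_le_pi_norm h i)

theorem norm_mm_le (h K : ι → ι → A) : ‖mm h K‖ ≤ Fintype.card ι * ‖h‖ * ‖K‖ := by
  refine (pi_norm_le_iff_of_nonneg (by positivity)).2 fun i =>
    (pi_norm_le_iff_of_nonneg (by positivity)).2 fun j => ?_
  unfold mm
  calc ‖∑ l, h i l * K l j‖ ≤ ∑ l, ‖h i l * K l j‖ := norm_sum_le _ _
    _ ≤ ∑ _l : ι, ‖h‖ * ‖K‖ := Finset.sum_le_sum fun l _ => (norm_mul_le _ _).trans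
        (mul_le_mul (norm_ent h i l) (norm_ent K l j) (norm_nonneg _) (norm_nonneg _))
    _ = _ := by rw [Finset.sum_const, Finset.card_univ, nsmul_eq_mul]; ring

theorem mm_sub_left (h h' K : ι → ι → A) : mm (h - h') K = mm h K - mm h' K := by
  funext i j
  simp only [mm, Pi.sub_apply, sub_mul, Finset.sum_sub_distrib]

theorem mm_sub_right (h K K' : ι → ι → A) : mm h (K - K') = mm h K - mm h K' := by
  funext i j
  simp only [mm, Pi.sub_apply, mul_sub, Finset.sum_sub_distrib]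

variable [CompleteSpace A]

theorem exists_qi (h : ι → ι → A) (hh : Fintype.card ι * ‖h‖ ≤ 1 / 2) :
    ∃ K, K = -h - mm h K ∧ ‖K‖ ≤ 2 * ‖h‖ := by
  obtain ⟨K, _, h1, h2, _⟩ := exists_fix (fun K => -h - mm h K) (r := 2 * ‖h‖) (by positivity)
    (fun x y _ _ => by
      have e : (-h - mm h x) - (-h - mm h y) = -(mm h (x - y)) := by
        rw [mm_sub_right]; abel
      rw [e, norm_neg]
      refine (norm_mm_le h (x - y)).trans ?_
      nlinarith [norm_nonneg (x - y)])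
    (by
      have e : mm h (0 : ι → ι → A) = 0 := by
        funext i j; simp [mm]
      rw [e, sub_zero, norm_neg]; linarith)
  have e : mm h (0 : ι → ι → A) = 0 := by
    funext i j; simp [mm]
  rw [e, sub_zero, norm_neg] at h1
  exact ⟨K, h2.symm, h1⟩

open Classical in
/-- the quasi-inverse -/
def qi (h : ι → ι → A) : ι → ι → A :=
  if hh : ∃ K, K = -h - mm h K ∧ ‖K‖ ≤ 2 * ‖h‖ then hh.choose else 0

theorem qi_eq {h : ι → ι → A} (hh : Fintype.card ι * ‖h‖ ≤ 1 / 2) :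
    qi h = -h - mm h (qi h) := by
  have := exists_qi h hh
  unfold qi
  rw [dif_pos this]
  exact this.choose_spec.1

theorem norm_qi_le {h : ι → ι → A} (hh : Fintype.card ι * ‖h‖ ≤ 1 / 2) : ‖qi h‖ ≤ 2 * ‖h‖ := by
  have := exists_qi h hh
  unfold qi
  rw [dif_pos this]
  exact this.choose_spec.2

theorem qi_unique {h K : ι → ι → A} (hh : Fintype.card ι * ‖h‖ ≤ 1 / 2) (hK : K = -h - mm h K) :
    K = qi h := by
  have h1 : K - qi h = -(mm h (K - qi h)) := by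
    rw [mm_sub_right]
    nth_rewrite 1 [hK, qi_eq hh]
    abel
  have h2 := norm_mm_le h (K - qi h)
  have h3 : ‖K - qi h‖ ≤ Fintype.card ι * ‖h‖ * ‖K - qi h‖ := by
    calc ‖K - qi h‖ = ‖mm h (K - qi h)‖ := by
          nth_rewrite 1 [h1]
          rw [norm_neg]
      _ ≤ _ := h2
  have h4 : ‖K - qi h‖ = 0 := by nlinarith [norm_nonneg (K - qi h)]
  exact sub_eq_zero.1 (norm_eq_zero.1 h4)

theorem norm_qi_sub_le {h h' : ι → ι → A} (hh : Fintype.card ι * ‖h‖ ≤ 1 / 2)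
    (hh' : Fintype.card ι * ‖h'‖ ≤ 1 / 2) : ‖qi h - qi h'‖ ≤ 4 * ‖h - h'‖ := by
  have h1 : qi h - qi h' = -(h - h') - mm (h - h') (qi h) - mm h' (qi h - qi h') := by
    rw [mm_sub_left, mm_sub_right]
    nth_rewrite 1 [qi_eq hh, qi_eq hh']
    abel
  have h2 : ‖qi h - qi h'‖ ≤ ‖h - h'‖ + Fintype.card ι * ‖h - h'‖ * ‖qi h‖
      + Fintype.card ι * ‖h'‖ * ‖qi h - qi h'‖ := by
    calc ‖qi h - qi h'‖ = ‖-(h - h') - mm (h - h') (qi h) - mm h' (qi h - qi h')‖ := by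
          rw [← h1]
      _ ≤ ‖-(h - h')‖ + ‖mm (h - h') (qi h)‖ + ‖mm h' (qi h - qi h')‖ :=
          (norm_sub_le _ _).trans (add_le_add_left (norm_sub_le _ _) _)
      _ ≤ _ := by
          rw [norm_neg]
          exact add_le_add (add_le_add le_rfl (norm_mm_le _ _)) (norm_mm_le _ _)
  have h3 := norm_qi_le hh
  have h4 : (Fintype.card ι : ℝ) * ‖h - h'‖ * ‖qi h‖ ≤ ‖h - h'‖ := by
    calc (Fintype.card ι : ℝ) * ‖h - h'‖ * ‖qi h‖
        ≤ Fintype.card ι * ‖h - h'‖ * (2 * ‖h‖) := by gcongr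
      _ = 2 * (Fintype.card ι * ‖h‖) * ‖h - h'‖ := by ring
      _ ≤ 2 * (1 / 2) * ‖h - h'‖ := by gcongr
      _ = _ := by ring
  have h5 : (Fintype.card ι : ℝ) * ‖h'‖ * ‖qi h - qi h'‖ ≤ 1 / 2 * ‖qi h - qi h'‖ :=
    mul_le_mul_of_nonneg_right hh' (norm_nonneg _)
  linarith

theorem star_qi [StarRing A] [NormedStarGroup A] {h : ι → ι → A}
    (hh : Fintype.card ι * ‖h‖ ≤ 1 / 2) (hs : ∀ i j, star (h i j) = h i j) (i j : ι) :
    star (qi h i j) = qi h i j := by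
  have h1 : (fun i j => star (qi h i j)) = qi h := by
    refine qi_unique hh ?_
    funext i j
    have h2 := congrFun (congrFun (qi_eq hh) i) j
    show star (qi h i j) = -h i j - ∑ l, h i l * star (qi h l j)
    rw [h2]
    show star (-h i j - ∑ l, h i l * qi h l j) = _
    rw [star_sub, star_neg, hs, star_sum]
    congr 1
    refine Finset.sum_congr rfl fun l _ => ?_
    rw [star_mul, hs, mul_comm]
  exact congrFun (congrFun h1 i) j

end qi

open Crest.Agent.R086.Wie Crest.Agent.R234.Mx1_397 Crest.Agent.R234.Mx2_397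

variable {F : Type*} [NormedAddCommGroup F] [InnerProductSpace ℝ F] [FiniteDimensional ℝ F]
  [MeasurableSpace F] [BorelSpace F]
variable {ι κ : Type*} [Fintype ι] [Fintype κ]

instance instCompleteX (N : ℕ) : CompleteSpace (XG (volume : Measure F) (wtV F N)) := inferInstance

theorem den_inclV {M N : ℕ} (h : M ≤ N) (a : X F N) :
    XG.den (inclV h a) =ᵐ[volume] XG.den a :=
  XG.den_incl (W := wtV F N) (W' := wtV F M) (wt_mono h) a

theorem star_inclV {M N : ℕ} (h : M ≤ N) (a : X F N) : star (inclV h a) = inclV h (star a) := by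
  refine XG.ext ?_
  filter_upwards [XG.den_star (inclV h a), XG.ae_neg (den_inclV h a),
    den_inclV h (star a), XG.den_star a] with ξ h1 h2 h3 h4
  rw [h1, h2, h3, h4]

theorem ev_inclV {M N : ℕ} (h : M ≤ N) (a : X F N) (x : F) : ev (inclV h a) x = ev a x :=
  ev_congr (den_inclV h a) x

theorem norm_inclV_le {M N : ℕ} (h : M ≤ N) (a : X F N) : ‖inclV h a‖ ≤ ‖a‖ :=
  XG.norm_incl_le (W := wtV F N) (W' := wtV F M) (wt_mono h) a

/-- first derivatives -/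
def Pd {N : ℕ} (e : OrthonormalBasis ι ℝ F) (u : κ → X F (N + 2)) (i : ι) (α : κ) : X F N :=
  inclV (Nat.le_succ N) (D (e i) (u α))

/-- second derivatives -/
def Qd {N : ℕ} (e : OrthonormalBasis ι ℝ F) (u : κ → X F (N + 2)) (i j : ι) (α : κ) : X F N :=
  D (e i) (D (e j) (u α))

/-- the Gram matrix of the gradient -/
def Hm {N : ℕ} (e : OrthonormalBasis ι ℝ F) (u : κ → X F (N + 2)) : ι → ι → X F N :=
  fun i j => ∑ α, Pd e u i α * Pd e u j α

/-- the nonlinear part of the minimal surface operator -/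
def Bf {N : ℕ} (e : OrthonormalBasis ι ℝ F) (u : κ → X F (N + 2)) : κ → X F N :=
  fun α => ∑ i, ∑ j, qi (Hm e u) i j * Qd e u i j α

theorem Pd_sub {N : ℕ} (e : OrthonormalBasis ι ℝ F) (u v : κ → X F (N + 2)) (i : ι) (α : κ) :
    Pd e (u - v) i α = Pd e u i α - Pd e v i α := by
  unfold Pd
  rw [Pi.sub_apply, map_sub, map_sub]

theorem Qd_sub {N : ℕ} (e : OrthonormalBasis ι ℝ F) (u v : κ → X F (N + 2)) (i j : ι) (α : κ) :
    Qd e (u - v) i j α = Qd e u i j α - Qd e v i j α := by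
  unfold Qd
  rw [Pi.sub_apply, map_sub, map_sub]

theorem norm_Pd_le {N : ℕ} (e : OrthonormalBasis ι ℝ F) (u : κ → X F (N + 2)) (i : ι) (α : κ) :
    ‖Pd e u i α‖ ≤ 2 * π * ‖u‖ := by
  unfold Pd
  refine (norm_inclV_le _ _).trans ((norm_D_le (e i) (u α)).trans ?_)
  rw [e.norm_eq_one, mul_one]
  have := Real.pi_pos
  exact mul_le_mul_of_nonneg_left (norm_le_pi_norm u α) (by positivity)

theorem norm_Qd_le {N : ℕ} (e : OrthonormalBasis ι ℝ F) (u : κ → X F (N + 2)) (i j : ι) (α : κ) :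
    ‖Qd e u i j α‖ ≤ (2 * π) ^ 2 * ‖u‖ := by
  unfold Qd
  have hp := Real.pi_pos
  have h1 := norm_D_le (e j) (u α)
  have h2 := norm_D_le (e i) (D (e j) (u α))
  rw [e.norm_eq_one, mul_one] at h1 h2
  have h3 := norm_le_pi_norm u α
  calc ‖D (e i) (D (e j) (u α))‖ ≤ 2 * π * (2 * π * ‖u‖) := by
        refine h2.trans ?_
        gcongr
        exact h1.trans (by gcongr)
    _ = _ := by ring

/-- the constant of the quadratic form -/
def cH (κ : Type*) [Fintype κ] : ℝ := Fintype.card κ * (2 * π) ^ 2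

theorem cH_nonneg : 0 ≤ cH κ := by unfold cH; positivity

theorem norm_Hm_sub_le {N : ℕ} (e : OrthonormalBasis ι ℝ F) (u v : κ → X F (N + 2)) :
    ‖Hm e u - Hm e v‖ ≤ cH κ * ((‖u‖ + ‖v‖) * ‖u - v‖) := by
  have hp := Real.pi_pos
  have hc := cH_nonneg (κ := κ)
  refine (pi_norm_le_iff_of_nonneg (by positivity)).2 fun i =>
    (pi_norm_le_iff_of_nonneg (by positivity)).2 fun j => ?_
  have e1 : (Hm e u - Hm e v) i j = ∑ α, (Pd e (u - v) i α * Pd e u j α
      + Pd e v i α * Pd e (u - v) j α) := by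
    show (∑ α, Pd e u i α * Pd e u j α) - (∑ α, Pd e v i α * Pd e v j α) = _
    rw [← Finset.sum_sub_distrib]
    refine Finset.sum_congr rfl fun α _ => ?_
    rw [Pd_sub, Pd_sub, sub_mul, mul_sub]
    abel
  rw [e1]
  calc ‖∑ α, (Pd e (u - v) i α * Pd e u j α + Pd e v i α * Pd e (u - v) j α)‖
      ≤ ∑ α : κ, (2 * π) ^ 2 * ((‖u‖ + ‖v‖) * ‖u - v‖) := by
        refine (norm_sum_le _ _).trans (Finset.sum_le_sum fun α _ => ?_)
        have a1 := norm_Pd_le e (u - v) i α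
        have a2 := norm_Pd_le e u j α
        have a3 := norm_Pd_le e v i α
        have a4 := norm_Pd_le e (u - v) j α
        calc ‖Pd e (u - v) i α * Pd e u j α + Pd e v i α * Pd e (u - v) j α‖
            ≤ ‖Pd e (u - v) i α‖ * ‖Pd e u j α‖ + ‖Pd e v i α‖ * ‖Pd e (u - v) j α‖ :=
              (norm_add_le _ _).trans (add_le_add (norm_mul_le _ _) (norm_mul_le _ _))
          _ ≤ (2 * π * ‖u - v‖) * (2 * π * ‖u‖) + (2 * π * ‖v‖) * (2 * π * ‖u - v‖) := by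
              gcongr
          _ = _ := by ring
    _ = _ := by
        rw [Finset.sum_const, Finset.card_univ, nsmul_eq_mul]
        unfold cH
        ring

theorem Hm_zero {N : ℕ} (e : OrthonormalBasis ι ℝ F) : Hm e (0 : κ → X F (N + 2)) = 0 := by
  funext i j
  show ∑ α, Pd e 0 i α * Pd e 0 j α = 0
  refine Finset.sum_eq_zero fun α _ => ?_
  have h : Pd e (0 : κ → X F (N + 2)) i α = 0 := by
    unfold Pd
    rw [Pi.zero_apply, map_zero, map_zero]
  rw [h, zero_mul]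

theorem norm_Hm_le {N : ℕ} (e : OrthonormalBasis ι ℝ F) (u : κ → X F (N + 2)) :
    ‖Hm e u‖ ≤ cH κ * ‖u‖ ^ 2 := by
  have h := norm_Hm_sub_le e u 0
  rw [Hm_zero, sub_zero, sub_zero, norm_zero, add_zero] at h
  calc _ ≤ _ := h
    _ = _ := by ring

/-- smallness of `u` for the inversion of `1 + Hm u` -/
def Sm (ι κ : Type*) [Fintype ι] [Fintype κ] (r : ℝ) : Prop :=
  Fintype.card ι * (cH κ * r ^ 2) ≤ 1 / 2

theorem Sm.card_le {r : ℝ} (hr : Sm ι κ r) {N : ℕ} (e : OrthonormalBasis ι ℝ F)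
    {u : κ → X F (N + 2)} (hu : ‖u‖ ≤ r) : Fintype.card ι * ‖Hm e u‖ ≤ 1 / 2 := by
  have hc := cH_nonneg (κ := κ)
  refine le_trans ?_ hr
  refine mul_le_mul_of_nonneg_left ((norm_Hm_le e u).trans ?_) (by positivity)
  gcongr

/-- the constant of `Bf` -/
def cB (ι κ : Type*) [Fintype ι] [Fintype κ] : ℝ :=
  (Fintype.card ι) ^ 2 * (6 * cH κ * (2 * π) ^ 2)

theorem cB_nonneg : 0 ≤ cB ι κ := by
  have hc := cH_nonneg (κ := κ)
  unfold cB; positivity

theorem norm_Bf_sub_le {r : ℝ} (hr : Sm ι κ r) {N : ℕ} (e : OrthonormalBasis ι ℝ F)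
    {u v : κ → X F (N + 2)} (hu : ‖u‖ ≤ r) (hv : ‖v‖ ≤ r) :
    ‖Bf e u - Bf e v‖ ≤ cB ι κ * ((‖u‖ + ‖v‖) ^ 2 * ‖u - v‖) := by
  have hp := Real.pi_pos
  have hc := cH_nonneg (κ := κ)
  have hcB := cB_nonneg (ι := ι) (κ := κ)
  have hHu := hr.card_le e hu
  have hHv := hr.card_le e hv
  refine (pi_norm_le_iff_of_nonneg (by positivity)).2 fun α => ?_
  have e1 : (Bf e u - Bf e v) α = ∑ i, ∑ j, ((qi (Hm e u) i j - qi (Hm e v) i j) * Qd e u i j α
      + qi (Hm e v) i j * Qd e (u - v) i j α) := by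
    show (∑ i, ∑ j, qi (Hm e u) i j * Qd e u i j α) - (∑ i, ∑ j, qi (Hm e v) i j * Qd e v i j α) = _
    rw [← Finset.sum_sub_distrib]
    refine Finset.sum_congr rfl fun i _ => ?_
    rw [← Finset.sum_sub_distrib]
    refine Finset.sum_congr rfl fun j _ => ?_
    rw [Qd_sub, sub_mul, mul_sub]
    abel
  rw [e1]
  have key : ∀ i j, ‖(qi (Hm e u) i j - qi (Hm e v) i j) * Qd e u i j α
      + qi (Hm e v) i j * Qd e (u - v) i j α‖
      ≤ 6 * cH κ * (2 * π) ^ 2 * ((‖u‖ + ‖v‖) ^ 2 * ‖u - v‖) := fun i j => by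
    have a1 : ‖qi (Hm e u) i j - qi (Hm e v) i j‖ ≤ 4 * (cH κ * ((‖u‖ + ‖v‖) * ‖u - v‖)) := by
      have := norm_ent (qi (Hm e u) - qi (Hm e v)) i j
      refine this.trans ((norm_qi_sub_le hHu hHv).trans ?_)
      exact mul_le_mul_of_nonneg_left (norm_Hm_sub_le e u v) (by norm_num)
    have a2 := norm_Qd_le e u i j α
    have a3 : ‖qi (Hm e v) i j‖ ≤ 2 * (cH κ * ‖v‖ ^ 2) :=
      (norm_ent _ i j).trans ((norm_qi_le hHv).trans
        (mul_le_mul_of_nonneg_left (norm_Hm_le e v) (by norm_num)))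
    have a4 := norm_Qd_le e (u - v) i j α
    calc _ ≤ ‖qi (Hm e u) i j - qi (Hm e v) i j‖ * ‖Qd e u i j α‖
          + ‖qi (Hm e v) i j‖ * ‖Qd e (u - v) i j α‖ :=
          (norm_add_le _ _).trans (add_le_add (norm_mul_le _ _) (norm_mul_le _ _))
      _ ≤ (4 * (cH κ * ((‖u‖ + ‖v‖) * ‖u - v‖))) * ((2 * π) ^ 2 * ‖u‖)
          + (2 * (cH κ * ‖v‖ ^ 2)) * ((2 * π) ^ 2 * ‖u - v‖) := by gcongr
      _ = cH κ * (2 * π) ^ 2 * ‖u - v‖ * (4 * (‖u‖ + ‖v‖) * ‖u‖ + 2 * ‖v‖ ^ 2) := by ring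
      _ ≤ cH κ * (2 * π) ^ 2 * ‖u - v‖ * (6 * (‖u‖ + ‖v‖) ^ 2) := by
          refine mul_le_mul_of_nonneg_left ?_ (by positivity)
          nlinarith [norm_nonneg u, norm_nonneg v, mul_nonneg (norm_nonneg u) (norm_nonneg v)]
      _ = _ := by ring
  calc _ ≤ ∑ i : ι, ∑ j : ι, 6 * cH κ * (2 * π) ^ 2 * ((‖u‖ + ‖v‖) ^ 2 * ‖u - v‖) :=
        (norm_sum_le _ _).trans (Finset.sum_le_sum fun i _ =>
          (norm_sum_le _ _).trans (Finset.sum_le_sum fun j _ => key i j))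
    _ = _ := by
        simp only [Finset.sum_const, Finset.card_univ, nsmul_eq_mul]
        unfold cB
        ring

theorem Bf_zero {N : ℕ} (e : OrthonormalBasis ι ℝ F) : Bf e (0 : κ → X F (N + 2)) = 0 := by
  funext α
  show ∑ i, ∑ j, qi (Hm e 0) i j * Qd e 0 i j α = 0
  refine Finset.sum_eq_zero fun i _ => Finset.sum_eq_zero fun j _ => ?_
  have h : Qd e (0 : κ → X F (N + 2)) i j α = 0 := by
    unfold Qd
    rw [Pi.zero_apply, map_zero, map_zero]
  rw [h, mul_zero]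

theorem norm_Bf_le {r : ℝ} (hr : Sm ι κ r) {N : ℕ} (e : OrthonormalBasis ι ℝ F)
    {u : κ → X F (N + 2)} (hu : ‖u‖ ≤ r) : ‖Bf e u‖ ≤ cB ι κ * ‖u‖ ^ 3 := by
  have h := norm_Bf_sub_le hr e hu (v := 0) (by rw [norm_zero]; exact (norm_nonneg _).trans hu)
  rw [Bf_zero, sub_zero, sub_zero, norm_zero, add_zero] at h
  calc _ ≤ _ := h
    _ = _ := by ring

/-! ### real elements -/

theorem star_Pd {N : ℕ} (e : OrthonormalBasis ι ℝ F) {u : κ → X F (N + 2)}
    (hu : ∀ α, star (u α) = u α) (i : ι) (α : κ) : star (Pd e u i α) = Pd e u i α := by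
  unfold Pd
  rw [star_inclV, D_star, hu]

theorem star_Qd {N : ℕ} (e : OrthonormalBasis ι ℝ F) {u : κ → X F (N + 2)}
    (hu : ∀ α, star (u α) = u α) (i j : ι) (α : κ) : star (Qd e u i j α) = Qd e u i j α := by
  unfold Qd
  rw [D_star, D_star, hu]

theorem star_Hm {N : ℕ} (e : OrthonormalBasis ι ℝ F) {u : κ → X F (N + 2)}
    (hu : ∀ α, star (u α) = u α) (i j : ι) : star (Hm e u i j) = Hm e u i j := by
  unfold Hm
  rw [star_sum]
  refine Finset.sum_congr rfl fun α _ => ?_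
  rw [star_mul, star_Pd e hu, star_Pd e hu, mul_comm]

theorem star_Bf {r : ℝ} (hr : Sm ι κ r) {N : ℕ} (e : OrthonormalBasis ι ℝ F)
    {u : κ → X F (N + 2)} (hu1 : ‖u‖ ≤ r) (hu : ∀ α, star (u α) = u α) (α : κ) :
    star (Bf e u α) = Bf e u α := by
  unfold Bf
  rw [star_sum]
  refine Finset.sum_congr rfl fun i _ => ?_
  rw [star_sum]
  refine Finset.sum_congr rfl fun j _ => ?_
  rw [star_mul, star_Qd e hu, star_qi (hr.card_le e hu1) (star_Hm e hu), mul_comm]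

theorem Hm_star {N : ℕ} (e : OrthonormalBasis ι ℝ F) (u : κ → X F (N + 2)) (i j : ι) :
    Hm e (fun α => star (u α)) i j = star (Hm e u i j) := by
  unfold Hm
  rw [star_sum]
  refine Finset.sum_congr rfl fun α _ => ?_
  unfold Pd
  rw [star_mul, ← D_star, ← D_star, ← star_inclV, ← star_inclV, mul_comm]

theorem Bf_star {r : ℝ} (hr : Sm ι κ r) {N : ℕ} (e : OrthonormalBasis ι ℝ F)
    {u : κ → X F (N + 2)} (hu1 : ‖u‖ ≤ r) (α : κ) :
    Bf e (fun α => star (u α)) α = star (Bf e u α) := by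
  have hn : ‖(fun α => star (u α))‖ ≤ r := by
    have h0 : 0 ≤ r := (norm_nonneg _).trans hu1
    refine (pi_norm_le_iff_of_nonneg h0).2 fun α => ?_
    rw [norm_star]
    exact (norm_le_pi_norm u α).trans hu1
  have h1 : (fun i j => star (qi (Hm e u) i j)) = qi (Hm e (fun α => star (u α))) := by
    refine qi_unique (hr.card_le e hn) ?_
    funext i j
    have h2 := congrFun (congrFun (qi_eq (hr.card_le e hu1)) i) j
    show star (qi (Hm e u) i j) = -Hm e (fun α => star (u α)) i j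
      - ∑ l, Hm e (fun α => star (u α)) i l * star (qi (Hm e u) l j)
    rw [h2]
    show star (-Hm e u i j - ∑ l, Hm e u i l * qi (Hm e u) l j) = _
    rw [star_sub, star_neg, star_sum, Hm_star]
    congr 1
    refine Finset.sum_congr rfl fun l _ => ?_
    rw [star_mul, Hm_star, mul_comm]
  unfold Bf
  rw [← h1, star_sum]
  refine Finset.sum_congr rfl fun i _ => ?_
  rw [star_sum]
  refine Finset.sum_congr rfl fun j _ => ?_
  rw [star_mul]
  unfold Qd
  rw [← D_star, ← D_star, mul_comm]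

/-! ### the fixed point -/

theorem exists_small {a C : ℝ} (ha : 0 < a) (hC : 0 ≤ C) :
    ∃ ε : ℝ, 0 < ε ∧ ε ≤ a ∧ ε ≤ 1 ∧ C * ε ^ 2 ≤ 1 / 2 := by
  refine ⟨min a (min 1 (1 / (2 * (C + 1)))), by positivity, min_le_left _ _,
    (min_le_right _ _).trans (min_le_left _ _), ?_⟩
  set ε := min a (min 1 (1 / (2 * (C + 1)))) with hε
  have h0 : 0 < ε := by positivity
  have h1 : ε ≤ 1 := (min_le_right _ _).trans (min_le_left _ _)
  have h2 : ε ≤ 1 / (2 * (C + 1)) := (min_le_right _ _).trans (min_le_right _ _)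
  rw [le_div_iff₀ (by positivity)] at h2
  nlinarith

theorem exists_Sm (ι κ : Type*) [Fintype ι] [Fintype κ] : ∃ r : ℝ, 0 < r ∧ r ≤ 1 ∧ Sm ι κ r := by
  have hc := cH_nonneg (κ := κ)
  obtain ⟨ε, h1, _, h2, h3⟩ := exists_small (a := 1) (C := Fintype.card ι * cH κ) one_pos
    (by positivity)
  exact ⟨ε, h1, h2, by unfold Sm; linarith⟩

/-- the contraction -/
def TT {c : F} (hc : ‖c‖ = 11 / 2) (e : OrthonormalBasis ι ℝ F) {N : ℕ} (w : κ → X F (N + 2))
    (Z : X F N) (R f : κ → X F N) : κ → X F N :=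
  fun α => -R α - Z * (Bf e (fun β => w β + G hc (f β)) α - Bf e w α)

theorem TT_zero {c : F} (hc : ‖c‖ = 11 / 2) (e : OrthonormalBasis ι ℝ F) {N : ℕ}
    (w : κ → X F (N + 2)) (Z : X F N) (R : κ → X F N) : TT hc e w Z R 0 = -R := by
  have h : (fun β => w β + G hc ((0 : κ → X F N) β)) = w := by
    funext β
    rw [Pi.zero_apply, map_zero, add_zero]
  funext α
  unfold TT
  rw [h, sub_self, mul_zero, sub_zero, Pi.neg_apply]

theorem norm_wG_le {c : F} (hc : ‖c‖ = 11 / 2) {N : ℕ} {w : κ → X F (N + 2)} {f : κ → X F N}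
    {ε : ℝ} (hw : ‖w‖ ≤ ε) (hf : ‖f‖ ≤ 2 * ε) :
    ‖(fun β => w β + G hc (f β))‖ ≤ 145 * ε := by
  have he0 : 0 ≤ ε := (norm_nonneg _).trans hw
  refine (pi_norm_le_iff_of_nonneg (by positivity)).2 fun β => ?_
  have h1 := norm_G_le hc (f β)
  have h2 := norm_le_pi_norm f β
  have h3 := norm_le_pi_norm w β
  have h4 := norm_add_le (w β) (G hc (f β))
  linarith

theorem norm_wG_sub_le {c : F} (hc : ‖c‖ = 11 / 2) {N : ℕ} (w : κ → X F (N + 2))
    (f g : κ → X F N) :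
    ‖(fun β => w β + G hc (f β)) - (fun β => w β + G hc (g β))‖ ≤ 72 * ‖f - g‖ := by
  refine (pi_norm_le_iff_of_nonneg (by positivity)).2 fun β => ?_
  have e2 : ((fun β => w β + G hc (f β)) - (fun β => w β + G hc (g β))) β
      = G hc ((f - g) β) := by
    rw [Pi.sub_apply, Pi.sub_apply, map_sub]
    abel
  rw [e2]
  exact (norm_G_le hc _).trans (mul_le_mul_of_nonneg_left (norm_le_pi_norm (f - g) β)
    (by norm_num))

theorem aux_lip {cb a b d D ε : ℝ} (hcb : 0 ≤ cb) (ha : 0 ≤ a) (hb : 0 ≤ b) (hd : 0 ≤ d)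
    (h1 : a ≤ 145 * ε) (h2 : b ≤ 145 * ε) (h3 : d ≤ 72 * D) :
    cb * ((a + b) ^ 2 * d) ≤ cb * ((290 * ε) ^ 2 * (72 * D)) := by
  have h4 : a + b ≤ 290 * ε := by linarith
  refine mul_le_mul_of_nonneg_left ?_ hcb
  exact mul_le_mul (pow_le_pow_left₀ (by positivity) h4 2) h3 hd (by positivity)

theorem TT_lip {c : F} (hc : ‖c‖ = 11 / 2) (e : OrthonormalBasis ι ℝ F) {N : ℕ} {ε BZ : ℝ}
    (hr : Sm ι κ (145 * ε)) (hBZ : 0 ≤ BZ) (he3 : BZ * cB ι κ * 290 ^ 2 * 72 * ε ^ 2 ≤ 1 / 2)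
    {w : κ → X F (N + 2)} {Z : X F N} (R : κ → X F N) (hZ : ‖Z‖ ≤ BZ) (hw : ‖w‖ ≤ ε)
    (f g : κ → X F N) (hf : ‖f‖ ≤ 2 * ε) (hg : ‖g‖ ≤ 2 * ε) :
    ‖TT hc e w Z R f - TT hc e w Z R g‖ ≤ ‖f - g‖ / 2 := by
  have hd0 : 0 ≤ ‖f - g‖ := norm_nonneg _
  have hcB := cB_nonneg (ι := ι) (κ := κ)
  have he0 : 0 ≤ ε := (norm_nonneg _).trans hw
  refine (pi_norm_le_iff_of_nonneg (by positivity)).2 fun α => ?_
  have e1 : (TT hc e w Z R f - TT hc e w Z R g) α
      = -(Z * (Bf e (fun β => w β + G hc (f β)) - Bf e (fun β => w β + G hc (g β))) α) := by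
    rw [Pi.sub_apply, Pi.sub_apply]
    unfold TT
    rw [mul_sub, mul_sub, mul_sub]
    abel
  rw [e1, norm_neg]
  have h4 := norm_wG_le hc hw hf
  have h5 := norm_wG_le hc hw hg
  have h1 := norm_Bf_sub_le hr e h4 h5
  have h2 := norm_wG_sub_le hc w f g
  have h3 : ‖(Bf e (fun β => w β + G hc (f β)) - Bf e (fun β => w β + G hc (g β))) α‖
      ≤ cB ι κ * ((290 * ε) ^ 2 * (72 * ‖f - g‖)) := by
    refine (norm_le_pi_norm _ α).trans (h1.trans ?_)
    exact aux_lip hcB (norm_nonneg _) (norm_nonneg _) (norm_nonneg _) h4 h5 h2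
  calc ‖Z * (Bf e (fun β => w β + G hc (f β)) - Bf e (fun β => w β + G hc (g β))) α‖
      ≤ BZ * (cB ι κ * ((290 * ε) ^ 2 * (72 * ‖f - g‖))) :=
        (norm_mul_le _ _).trans (mul_le_mul hZ h3 (norm_nonneg _) hBZ)
    _ = (BZ * cB ι κ * 290 ^ 2 * 72 * ε ^ 2) * ‖f - g‖ := by ring
    _ ≤ 1 / 2 * ‖f - g‖ := mul_le_mul_of_nonneg_right he3 hd0
    _ = _ := by ring

theorem TT_star {c : F} (hc : ‖c‖ = 11 / 2) (e : OrthonormalBasis ι ℝ F) {N : ℕ} {ε : ℝ}
    (hr : Sm ι κ (145 * ε)) {w : κ → X F (N + 2)} {Z : X F N} {R : κ → X F N}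
    (hZs : star Z = Z) (hws : ∀ α, star (w α) = w α) (hRs : ∀ α, star (R α) = R α)
    (hw : ‖w‖ ≤ ε) {f : κ → X F N} (hf : ‖f‖ ≤ 2 * ε) :
    TT hc e w Z R (fun α => star (f α)) = fun α => star (TT hc e w Z R f α) := by
  have he0 : 0 ≤ ε := (norm_nonneg _).trans hw
  have h2 : (fun β => w β + G hc (star (f β))) = fun β => star (w β + G hc (f β)) := by
    funext β
    rw [star_add, hws, G_star]
  funext α
  unfold TT
  have h4 : star (Bf e w α) = Bf e w α := star_Bf hr e (hw.trans (by linarith)) hws α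
  have h5 := Bf_star hr e (norm_wG_le hc hw hf) α
  rw [h2, h5, star_sub, star_neg, hRs, star_mul, hZs, star_sub, h4, mul_comm]

theorem exists_X {c : F} (hc : ‖c‖ = 11 / 2) (ι κ : Type*) [Fintype ι] [Fintype κ]
    (e : OrthonormalBasis ι ℝ F) (N : ℕ) {BZ : ℝ} (hBZ : 0 ≤ BZ) :
    ∃ ε : ℝ, 0 < ε ∧ Sm ι κ (145 * ε) ∧ ∀ (w : κ → X F (N + 2)) (Z : X F N) (R : κ → X F N),
      ‖Z‖ ≤ BZ → star Z = Z → (∀ α, star (w α) = w α) → (∀ α, star (R α) = R α) → ‖w‖ ≤ ε →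
      ‖R‖ ≤ ε → ∃ f : κ → X F N, (∀ α, star (f α) = f α) ∧ ‖f‖ ≤ 2 * ‖R‖ ∧
        ‖(fun β => w β + G hc (f β))‖ ≤ 145 * ε ∧
        ∀ α, f α = -R α - Z * (Bf e (fun β => w β + G hc (f β)) α - Bf e w α) := by
  obtain ⟨r, hr0, hr1, hr⟩ := exists_Sm ι κ
  have hcB := cB_nonneg (ι := ι) (κ := κ)
  obtain ⟨ε, he0, he1, he2, he3⟩ := exists_small (a := r / 145)
    (C := BZ * cB ι κ * 290 ^ 2 * 72) (by positivity) (by positivity)
  have her : 145 * ε ≤ r := by linarith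
  have hcH := cH_nonneg (κ := κ)
  have hrε : Sm ι κ (145 * ε) := by
    refine le_trans ?_ hr
    gcongr
  refine ⟨ε, he0, hrε, fun w Z R hZ hZs hws hRs hw hR => ?_⟩
  obtain ⟨f, hf1, hf2, hf3, hf4⟩ := exists_fix (TT hc e w Z R)
    (r := 2 * ε) (by positivity) (TT_lip hc e hrε hBZ he3 R hZ hw)
    (by rw [TT_zero, norm_neg]; linarith)
  rw [TT_zero, norm_neg] at hf2
  have hreal : (fun α => star (f α)) = f := by
    refine hf4 _ ?_ ?_
    · refine (pi_norm_le_iff_of_nonneg (by positivity)).2 fun α => ?_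
      rw [norm_star]
      exact (norm_le_pi_norm f α).trans hf1
    · rw [TT_star hc e hrε hZs hws hRs hw hf1, hf3]
  exact ⟨f, fun α => congrFun hreal α, hf2, norm_wG_le hc hw hf1,
    fun α => (congrFun hf3 α).symm⟩

end Crest.Agent.R234.Mx4_397
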