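import Crest.Agent.R234.Main2_456
import Crest.Agent.R234.Mx4_397
import Crest.Agent.R234.Cy5_870

/-!
# Row 234, node F2 (helper570): the class `MG` of reference minimal graphs, and the frozen Props

* `MG N κ r u` : `u = ev a` on all of `ℝ^m`, `a` real in 397's Wiener space `X (N+2)`, `‖a‖ ≤ κ`,
  `u` solves the minimal surface system on `ball 0 r` only.
* `SelP`    : selection (one Newton step), loss `ε^{-p}` only, no loss of derivatives.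
* `RescP`   : change of block (rotation to the tangent plane + zoom by `t`), the norm drops.
* `NewtonP`, `RegP` : sub-nodes.
-/

set_option autoImplicit false
set_option linter.unusedVariables false

open MeasureTheory Filter Topology Set
open scoped ENNReal NNReal ContDiff
open Crest.GeometryTopology.Submanifold Crest.Agent.R234.Vf_884
open Crest.Agent.R234.Main_456 (Frame Msys)
open Crest.Agent.R086.Wie Crest.Agent.R234.Mx1_397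

noncomputable section

namespace Crest.Agent.R234.MG_570

variable {m n k : ℕ}

/-- vectors of Wiener functions. -/
abbrev XV (m n N : ℕ) : Type := Fin n → X (Euc m) N

/-- real vectors of Wiener functions. -/
def IsReal {N : ℕ} (a : XV m n N) : Prop := ∀ α, star (a α) = a α

/-- `u` is the function represented by `a`. -/
def Rep {N : ℕ} (a : XV m n N) (u : Euc m → Euc n) : Prop :=
  ∀ x α, ((u x α : ℝ) : ℂ) = ev (a α) x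

/-- **class MG**. -/
def MG (N : ℕ) (κ r : ℝ) (u : Euc m → Euc n) : Prop :=
  ∃ a : XV m n (N + 2), IsReal a ∧ ‖a‖ ≤ κ ∧ Rep a u ∧
    ∀ z ∈ Metric.ball (0 : Euc m) r, Msys u z = 0

theorem MG.mono {N : ℕ} {κ κ' r r' : ℝ} {u : Euc m → Euc n} (h : MG N κ r u) (hκ : κ ≤ κ')
    (hr : r' ≤ r) : MG N κ' r' u := by
  obtain ⟨a, h1, h2, h3, h4⟩ := h
  exact ⟨a, h1, h2.trans hκ, h3, fun z hz => h4 z (Metric.ball_subset_ball hr hz)⟩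

/-- node (i): derivatives. -/
def BdP : Prop := ∀ (m n N : ℕ), ∃ C : ℝ, 0 ≤ C ∧ ∀ (κ r : ℝ) (u : Euc m → Euc n), MG N κ r u →
  ContDiff ℝ ((N + 2 : ℕ) : ℕ∞) u ∧
    ∀ j ≤ N + 2, ∀ x, ‖iteratedFDeriv ℝ j u x‖ ≤ C * κ

/-- mean functional of the heights over the graph of `u` (unit scale). -/
def bar (W : Measure (Euc k × L k)) (π : Euc k →L[ℝ] Euc m) (ρ : Euc k →L[ℝ] Euc n)
    (u : Euc m → Euc n) (ζ : Euc m → ℝ) : Euc n :=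
  ∫ p, ζ (π p.1) • (ρ p.1 - u (π p.1)) ∂W

/-- node (ii): **SELECTION**. `K` does not depend on `N`. -/
def SelP : Prop := ∀ (m n : ℕ), 1 ≤ m → ∃ K : ℕ, ∀ N : ℕ, 2 ≤ N → ∃ κ₀ : ℝ, 0 < κ₀ ∧ ∃ p : ℕ,
  ∀ Λ : ℝ, ∃ C : ℝ, 0 < C ∧ ∀ (k : ℕ) (W : Measure (Euc k × L k)) (π : Euc k →L[ℝ] Euc m)
    (ρ : Euc k →L[ℝ] Euc n) (κ h ε r : ℝ) (u : Euc m → Euc n),
    κ ≤ κ₀ → 0 < ε → ε ≤ 1 / 2 → 1 / 8 ≤ r → r ≤ 1 → 0 ≤ h →
    Cy_870.CylStat W π ρ 0 (r * (1 + ε)) 1 → W univ ≤ ENNReal.ofReal Λ →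
    ENNReal.ofReal Λ⁻¹ ≤ W ((fun p => π p.1) ⁻¹' Metric.ball 0 (1 / 16)) →
    MG N κ (r * (1 + ε)) u → (∀ᵐ q ∂W, ‖ρ q.1 - u (π q.1)‖ ≤ h) → C * h ≤ ε ^ p →
    ∃ u' : Euc m → Euc n, MG N (κ + C * h / ε ^ p) r u' ∧
      MG N (C * h / ε ^ p) 0 (fun x => u' x - u x) ∧
      ∀ ζ : Euc m → ℝ, ContDiff ℝ ∞ ζ → tsupport ζ ⊆ Metric.ball 0 r →
        (∀ j ≤ K, ∀ z, ‖iteratedFDeriv ℝ j ζ z‖ ≤ 1) →
        ‖bar W π ρ u' ζ‖ ≤ C * h ^ 2 / ε ^ p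

/-- node (iii): **CHANGE OF BLOCK**: rotation to the tangent plane at `q = (x₀, u x₀)`, zoom `t`. -/
def RescP : Prop := ∀ (m n : ℕ), 1 ≤ m → ∀ N : ℕ, 2 ≤ N → ∃ κ₀ : ℝ, 0 < κ₀ ∧ ∃ C : ℝ, 0 < C ∧
  ∀ θ : ℝ, 0 < θ → ∃ t₀ : ℝ, 0 < t₀ ∧ t₀ < 1 ∧ ∀ (t κ : ℝ) (k : ℕ) (π : Euc k →L[ℝ] Euc m)
    (ρ : Euc k →L[ℝ] Euc n) (u : Euc m → Euc n) (x₀ : Euc m),
    0 < t → t ≤ t₀ → κ ≤ κ₀ → Frame π ρ → MG N κ (1 / 8) u → ‖x₀‖ ≤ 1 / 64 →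
    ∃ (π' : Euc k →L[ℝ] Euc m) (ρ' : Euc k →L[ℝ] Euc n) (u' : Euc m → Euc n),
      Frame π' ρ' ∧ ‖π' - π‖ ≤ C * κ ∧ ‖ρ' - ρ‖ ≤ C * κ ∧ MG N (θ * κ) 1 u' ∧
      u' 0 = 0 ∧ fderiv ℝ u' 0 = 0 ∧
      ∀ z : Euc k, ‖π' (z - (ContinuousLinearMap.adjoint π x₀ +
            ContinuousLinearMap.adjoint ρ (u x₀)))‖ < 4 * t →
        ‖ρ' (z - (ContinuousLinearMap.adjoint π x₀ +
            ContinuousLinearMap.adjoint ρ (u x₀)))‖ < 4 * t →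
        (ρ z = u (π z) ↔ ρ' (z - (ContinuousLinearMap.adjoint π x₀ +
            ContinuousLinearMap.adjoint ρ (u x₀))) =
          t • u' (t⁻¹ • π' (z - (ContinuousLinearMap.adjoint π x₀ +
            ContinuousLinearMap.adjoint ρ (u x₀)))))

/-- the linearised minimal surface operator at `u` in direction `j`. -/
def DMsys (u j : Euc m → Euc n) (z : Euc m) : Euc n :=
  deriv (fun t : ℝ => Msys (fun x => u x + t • j x) z) 0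

/-- sub-node (ii-a): **NEWTON STEP**: `b` an approximate Jacobi field on `ball 0 r`. -/
def NewtonP : Prop := ∀ (m n N : ℕ), ∃ κ₀ : ℝ, 0 < κ₀ ∧ ∃ C : ℝ, 0 < C ∧
  ∀ (r P δ : ℝ) (a b : XV m n (N + 2)) (u v : Euc m → Euc n) (η : Euc m → ℝ)
    (cX : X (Euc m) N) (dX : XV m n N),
    0 < r → r ≤ 1 → IsReal a → IsReal b → Rep a u → Rep b v → ‖a‖ ≤ κ₀ → ‖b‖ ≤ κ₀ →
    star cX = cX → (∀ x, ((η x : ℝ) : ℂ) = ev cX x) → ‖cX‖ ≤ P →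
    (∀ x ∈ Metric.ball (0 : Euc m) r, η x = 1) → (∀ x, 2 ≤ ‖x‖ → η x = 0) →
    IsReal dX → Rep dX (fun z => η z • (Msys u z + DMsys u v z)) → ‖dX‖ ≤ δ →
    P * ‖b‖ ^ 2 + δ ≤ κ₀ →
    ∃ a' : XV m n (N + 2), IsReal a' ∧ ‖a' - a - b‖ ≤ C * (P * ‖b‖ ^ 2 + δ) ∧
      ∀ u' : Euc m → Euc n, Rep a' u' → ∀ z ∈ Metric.ball (0 : Euc m) r, Msys u' z = 0

/-- sub-node (ii-b): interior regularity with collar, no loss in the power of `κ`. -/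
def RegP : Prop := ∀ (m n N : ℕ), 2 ≤ N → ∃ κ₀ : ℝ, 0 < κ₀ ∧ ∀ J : ℕ, ∃ C : ℝ, 0 < C ∧ ∃ p : ℕ,
  ∀ (κ r ε : ℝ) (u : Euc m → Euc n), κ ≤ κ₀ → 0 < ε → ε ≤ 1 → ε ≤ r → r ≤ 2 → MG N κ r u →
    ContDiffOn ℝ ∞ u (Metric.ball 0 r) ∧
    ∀ x ∈ Metric.ball (0 : Euc m) (r - ε), ∀ j ≤ J, ‖iteratedFDeriv ℝ j u x‖ ≤ C * κ / ε ^ p

end Crest.Agent.R234.MG_570
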