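import Crest.Agent.R234.Top6_395
import Crest.Agent.R234.MgDefs_570
import Crest.Agent.R234.In4_947

/-!
Row 234 (helper395), file 7 of VF-TOP: bridges.

* `C11.of_iter`, `C11.of_MG` : the `C^{1,1}` bounds of a reference from `iteratedFDeriv` bounds / from
  570's class `MG` (`BdP`).
* `exists_frame` : a frame of a given plane.
* `flatAt_of_near` : `NearQ` (field of `Sel`) gives `FlatAt`.
* `flatAt_mono_scale`, `pos_log` : the stopping level in logarithmic scale.
-/

set_option autoImplicit false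
set_option linter.unusedSectionVars false

open MeasureTheory Crest.GeometryTopology.Submanifold Filter Topology Set
open scoped ENNReal InnerProductSpace ContDiff

noncomputable section

namespace Crest.Agent.R234.Top_395

open Crest.Agent.R234.Vf_884 Crest.Agent.R234.Main_456
open Crest.Agent.R234.Strat3_842 (tilt height)
open Crest.Agent.R234.AS_456 (hp vp)

variable {m n k : ℕ}

theorem C11.of_iter {κ A : ℝ} (hA : 0 < A) {u : Euc m → Euc n} (hu : ContDiff ℝ 2 u)
    (hb : ∀ j ≤ 2, ∀ z ∈ Metric.ball (0 : Euc m) A, ‖iteratedFDeriv ℝ j u z‖ ≤ κ) :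
    C11 κ A u (fderiv ℝ u) where
  der w _ := (hu.differentiable (by norm_num) w).hasFDerivAt
  zero := by
    have h := hb 0 (by norm_num) 0 (Metric.mem_ball_self hA)
    rwa [norm_iteratedFDeriv_zero] at h
  bd w hw := by
    have h := hb 1 (by norm_num) w hw
    rwa [norm_iteratedFDeriv_one] at h
  lip w hw w' hw' := by
    have hd : Differentiable ℝ (fderiv ℝ u) :=
      (hu.fderiv_right (m := 1) (by norm_num)).differentiable (by norm_num)
    have h1 : ∀ z ∈ Metric.ball (0 : Euc m) A, ‖fderiv ℝ (fderiv ℝ u) z‖ ≤ κ := by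
      intro z hz
      have h := hb 2 le_rfl z hz
      rwa [← norm_iteratedFDeriv_fderiv, norm_iteratedFDeriv_one] at h
    exact (convex_ball (0 : Euc m) A).norm_image_sub_le_of_norm_fderiv_le
      (fun z _ => hd z) h1 hw' hw

/-- references of 570's class. -/
theorem C11.of_MG (hB : MG_570.BdP) (m n N : ℕ) : ∃ C : ℝ, 0 ≤ C ∧
    ∀ (κ r A : ℝ) (u : Euc m → Euc n), 0 < A → MG_570.MG N κ r u →
      C11 (C * κ) A u (fderiv ℝ u) := by
  obtain ⟨C, hC, H⟩ := hB m n N
  refine ⟨C, hC, ?_⟩
  intro κ r A u hA hu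
  obtain ⟨h1, h2⟩ := H κ r u hu
  have h3 : (2 : ℕ∞) ≤ ((N + 2 : ℕ) : ℕ∞) := by exact_mod_cast Nat.le_add_left 2 N
  have h4 : (2 : WithTop ℕ∞) ≤ (((N + 2 : ℕ) : ℕ∞) : WithTop ℕ∞) := by
    rw [show (2 : WithTop ℕ∞) = ((2 : ℕ∞) : WithTop ℕ∞) from rfl]
    exact WithTop.coe_le_coe.2 h3
  exact C11.of_iter hA (h1.of_le h4) fun j hj z _ =>
    h2 j (hj.trans (Nat.le_add_left 2 N)) z

theorem C11.mono {κ κ' A : ℝ} {u : Euc m → Euc n} {g : Euc m → Euc m →L[ℝ] Euc n}
    (h : C11 κ A u g) (hκ : κ ≤ κ') : C11 κ' A u g where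
  der := h.der
  zero := h.zero.trans hκ
  bd w hw := (h.bd w hw).trans hκ
  lip w hw w' hw' := (h.lip w hw w' hw').trans
    (mul_le_mul_of_nonneg_right hκ (norm_nonneg _))

/-- a frame whose horizontal plane is `P`. -/
theorem exists_frame (hk : k = m + n) {P : L k} (hP : P ∈ G m k) :
    ∃ (π : Euc k →L[ℝ] Euc m) (ρ : Euc k →L[ℝ] Euc n), Frame π ρ ∧ hp π = P := by
  obtain ⟨π, h1, h2⟩ := In_947.exists_co hP
  have hP' : ContinuousLinearMap.id ℝ (Euc k) - P ∈ G n k := by
    refine ⟨?_, ?_, ?_⟩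
    · ext1 v
      have := G_idem_apply hP v
      simp [this]
    · have e1 : ContinuousLinearMap.adjoint P = P := hP.2.1
      change ContinuousLinearMap.adjoint (ContinuousLinearMap.id ℝ (Euc k) - P) = _
      rw [map_sub, ContinuousLinearMap.adjoint_id, e1]
    · rw [map_sub, hP.2.2]
      have : tr (ContinuousLinearMap.id ℝ (Euc k)) = (k : ℝ) := by
        rw [tr_apply]
        have h3 := LinearMap.trace_id ℝ (Euc k)
        rw [finrank_euclideanSpace, Fintype.card_fin] at h3
        exact h3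
      rw [this, hk]
      push_cast
      ring
  obtain ⟨ρ, h3, h4⟩ := In_947.exists_co hP'
  refine ⟨π, ρ, ⟨h1, h3, ?_, ?_⟩, h2⟩
  · have e1 : ∀ v, P (ContinuousLinearMap.adjoint ρ v) = 0 := by
      intro v
      have e2 : ρ (ContinuousLinearMap.adjoint ρ v) = v := by
        have := congrArg (fun A : Euc n →L[ℝ] Euc n => A v) h3
        simpa using this
      have e3 := congrArg (fun A : L k => A (ContinuousLinearMap.adjoint ρ v)) h4
      simp only [ContinuousLinearMap.comp_apply, e2, sub_apply,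
        ContinuousLinearMap.id_apply] at e3
      have e4 : ContinuousLinearMap.adjoint ρ v - ContinuousLinearMap.adjoint ρ v =
          P (ContinuousLinearMap.adjoint ρ v) := by
        nth_rewrite 2 [e3]
        abel
      rw [← e4, sub_self]
    ext1 v
    have e5 : ∀ w, π (ContinuousLinearMap.adjoint π w) = w := by
      intro w
      have := congrArg (fun A : Euc m →L[ℝ] Euc m => A w) h1
      simpa using this
    have e6 : ContinuousLinearMap.adjoint π (π (ContinuousLinearMap.adjoint ρ v)) = 0 := by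
      have := congrArg (fun A : L k => A (ContinuousLinearMap.adjoint ρ v)) h2
      simp only [ContinuousLinearMap.comp_apply] at this
      rw [this, e1]
    simp only [ContinuousLinearMap.comp_apply, zero_apply]
    rw [← e5 (π (ContinuousLinearMap.adjoint ρ v)), e6, map_zero]
  · rw [h2, h4]
    abel

theorem prod_eq (S : Set (Euc k)) : S ×ˢ (univ : Set (L k)) = Prod.fst ⁻¹' S := by
  ext p; simp

/-- height excess as a set integral of `height`. -/
theorem pex_eq {V : Measure (Euc k × L k)} {P : L k} {x : Euc k} {r : ℝ} :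
    pex m V P x r = (r ^ (m + 2))⁻¹ * ∫ p in Metric.ball x r ×ˢ univ, height P x p ∂V := by
  unfold pex ex height
  rw [prod_eq]
  simp only [sub_apply, ContinuousLinearMap.id_apply]

/-- `Flat` in 842's sense gives `FlatAt`. -/
theorem flatAt_of_int {V : Measure (Euc k × L k)} (hc : ∀ᵐ p ∂V, p.2 ∈ G m k) {P : L k}
    (hP : P ∈ G m k) {x : Euc k} {r ε : ℝ} (hr : 0 < r) (hfin : V (Metric.ball x r ×ˢ univ) < ⊤)
    (h : ∫ p in Metric.ball x r ×ˢ univ, (r ^ 2 * tilt P p + height P x p) ∂V ≤
      ε * r ^ (m + 2)) : pex m V P x r ≤ ε := by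
  have i1 : IntegrableOn (fun p => r ^ 2 * tilt P p) (Metric.ball x r ×ˢ univ) V :=
    Strat3_842.integrableOn_of_bdd hc hfin (continuous_const.mul (Strat3_842.continuous_tilt P))
  have i2 : IntegrableOn (fun p => height P x p) (Metric.ball x r ×ˢ univ) V :=
    Strat3_842.integrableOn_of_bdd hc hfin (Strat3_842.continuous_height P x)
  rw [integral_add i1 i2] at h
  have h0 : 0 ≤ ∫ p in Metric.ball x r ×ˢ univ, r ^ 2 * tilt P p ∂V := by
    refine setIntegral_nonneg_ae (measurableSet_ball.prod MeasurableSet.univ) ?_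
    filter_upwards [hc] with p hp _
    have : 0 ≤ tilt P p := Strat3_842.tr_perp_nonneg hp hP
    positivity
  rw [pex_eq, inv_mul_le_iff₀ (by positivity)]
  linarith

theorem flatAt_of_near {U : Set (Euc k)} {V : Measure (Euc k × L k)} (hV : Stat m k U V) {Q : ℕ}
    {x : Euc k} {r ε : ℝ} {P : L k} (hr : 0 < r) (hU : Metric.closedBall x r ⊆ U)
    (h : NearQ m V Q x r ε P) : FlatAt m V x ε r := by
  refine ⟨P, h.1, flatAt_of_int hV.conc h.1 hr ?_ h.2.1⟩
  rw [prod_eq]
  exact fin_ball hV hU Metric.ball_subset_closedBall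

end Crest.Agent.R234.Top_395
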