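import Crest.Agent.R234.End1_395
import Crest.Agent.R234.End2_395
import Crest.Agent.R234.Nr1_884
import Crest.Agent.R234.Supm4_685
import Crest.Agent.R234.Top7_395

/-!
# Row 234, (END) (helper395), part 3: `Ref` from the data of a state

`StD` : the data of a state around `x` at the scale `r` (graph `w` with base point `q`, chart `c` on the
compact set `Kc`, comparison, doubling of `II`, small mean).  `ref_of_std` : `StD` gives `Ref`.
-/

set_option autoImplicit false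
set_option linter.unusedSectionVars false

open MeasureTheory Set Filter Topology
open Crest.GeometryTopology.Submanifold Crest.Agent.R234.Vf_884
open Crest.Agent.R234.Main_456 Crest.Agent.R234.GL_394
open Crest.Agent.R234.AS_456 (hp vp)
open scoped ENNReal NNReal InnerProductSpace ContDiff

noncomputable section

namespace Crest.Agent.R234.End_395

variable {m n k : ℕ}

/-- data of a state at `x`, scale `r`; `κ` = all small quantities, `G` = growth constant. -/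
structure StD (U : Set (Euc k)) (V : Measure (Euc k × L k)) (x : Euc k) (r : ℝ)
    (π : Euc k →L[ℝ] Euc m) (ρ : Euc k →L[ℝ] Euc n) (q : Euc k) (w : Euc m → Euc n)
    (c : Ch m k) (Kc : Set (Euc k)) (D : Set (Euc m)) (g1 : ℝ → ℝ) (R κ G : ℝ) (K : ℕ) : Prop where
  frame : Frame π ρ
  hR : 34 * r + ‖π (x - q)‖ ≤ R
  cd : ContDiffOn ℝ 2 w (Metric.ball 0 R)
  d1 : ∀ X ∈ Metric.ball (0 : Euc m) R, ‖fderiv ℝ w X‖ ≤ κ
  d2 : ∀ X ∈ Metric.ball (0 : Euc m) R, r * ‖fderiv ℝ (fderiv ℝ w) X‖ ≤ κ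
  ms : ∀ X ∈ Metric.ball (0 : Euc m) R, Msys w X = 0
  near0 : ‖w (π (x - q)) - ρ (x - q)‖ ≤ κ * r
  ok : Ok c Kc D
  on : On (V.restrict (Kc ×ˢ univ)) m Kc
  cmp : Cmp c Kc (fun z => ρ (z - q) - w (π (z - q))) (fun z => π (z - x)) (Real.log (12 * r))
  hh : ContinuousOn (fun z => ρ (z - q) - w (π (z - q))) Kc
  mem : ∀ᵐ p ∂V, p.1 ∈ box π ρ x (8 * r) → p.1 ∈ Kc
  sup : ∀ z ∈ Kc, ‖ρ (z - q) - w (π (z - q))‖ ≤ κ * r
  pos : 0 < II c (V.restrict (Kc ×ˢ univ)) g1 (Real.log (r / 8))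
  dbl : II c (V.restrict (Kc ×ˢ univ)) g1 (Real.log (12 * r)) ≤
    Real.exp G * II c (V.restrict (Kc ×ˢ univ)) g1 (Real.log (r / 8))
  sml : II c (V.restrict (Kc ×ˢ univ)) g1 (Real.log (12 * r)) ≤ κ * r ^ 2
  mean : ∀ ζ : Euc m → ℝ, ContDiff ℝ ∞ ζ → tsupport ζ ⊆ Metric.ball 0 8 →
    (∀ j ≤ K, ∀ z, ‖iteratedFDeriv ℝ j ζ z‖ ≤ 1) →
    ‖∫ p in box π ρ x (8 * r) ×ˢ univ, ζ (r⁻¹ • π (p.1 - x)) •
      (ρ (p.1 - q) - w (π (p.1 - q))) ∂V‖ ^ 2 ≤
      κ ^ 2 * (r ^ m * (r ^ m * II c (V.restrict (Kc ×ˢ univ)) g1 (Real.log (r / 8))))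

theorem isOpen_box (π : Euc k →L[ℝ] Euc m) (ρ : Euc k →L[ℝ] Euc n) (x : Euc k) (a : ℝ) :
    IsOpen (box π ρ x a) := by
  have h1 : box π ρ x a = {z | ‖π (z - x)‖ < a} ∩ {z | ‖ρ (z - x)‖ < a} := rfl
  rw [h1]
  exact (isOpen_lt (by fun_prop) continuous_const).inter (isOpen_lt (by fun_prop) continuous_const)

theorem exp_neg_log (m : ℕ) {a : ℝ} (ha : 0 < a) : Real.exp (-m * Real.log a) = (a ^ m)⁻¹ := by
  rw [neg_mul, Real.exp_neg, Real.exp_nat_mul, Real.exp_log ha]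

set_option maxHeartbeats 1600000 in
/-- **(END)**: `Ref` from the data of a state. -/
theorem ref_of_std (m n k Q K : ℕ) (hm : 1 ≤ m) {g g1 g2 : ℝ → ℝ} {B b : ℝ} (hg : Pf g g1 g2 B)
    (hB : 0 < B) (hb : 0 < b) (hgb : ∀ t, 0 ≤ t → t ≤ (3 / 4) ^ 2 → b ≤ -g1 t) :
    ∀ G : ℝ, ∃ C : ℝ, ∀ ε : ℝ, 0 < ε → ∃ δ : ℝ, 0 < δ ∧
      ∀ (U : Set (Euc k)) (V : Measure (Euc k × L k)), Stat m k U V → ∀ (x : Euc k) (r : ℝ), 0 < r →
        Metric.closedBall x (128 * r) ⊆ U → 1 ≤ Th m V x → ∀ P : L k,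
        NearQ m V Q x (128 * r) δ P →
        ∀ (π : Euc k →L[ℝ] Euc m) (ρ : Euc k →L[ℝ] Euc n) (q : Euc k) (w : Euc m → Euc n)
          (c : Ch m k) (Kc : Set (Euc k)) (D : Set (Euc m)) (R : ℝ),
          StD U V x r π ρ q w c Kc D g1 R δ G K →
          ∃ u : Euc m → Euc n, Ref V Q x r π ρ u K ε C := by
  intro G
  obtain ⟨κ₀, C₁, hκ₀, hC₁, HG⟩ := ref_graph_sh m n K hm
  obtain ⟨C₂, hC₂, HN⟩ := Nr_884.nearRot m n k Q hm
  set C : ℝ := 3 / (2 * b) * 12 ^ m * (Real.exp G * (9 / 2 * B * 8 ^ m)) with hC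
  have hC0 : 0 < C := by positivity
  refine ⟨C, ?_⟩
  intro ε hε
  -- the small constant
  set A₃ : ℝ := 3 / (2 * b) * 12 ^ m with hA₃
  have hA₃0 : 0 < A₃ := by positivity
  set A₄ : ℝ := C₂ * (1 + A₃ + C₁ ^ 2) with hA₄
  have hA₄0 : 0 < A₄ := by positivity
  set A₅ : ℝ := 9 / 2 * B * 8 ^ m with hA₅
  have hA₅0 : 0 < A₅ := by positivity
  obtain ⟨δ, hδ0, hδ1, hδκ, hδε, hδA, hδ5⟩ : ∃ δ : ℝ, 0 < δ ∧ δ ≤ 1 / 64 ∧ δ ≤ κ₀ ∧ C₁ * δ ≤ ε ∧
      A₄ * δ ≤ ε ∧ δ ^ 2 * A₅ ≤ ε ^ 2 := by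
    refine ⟨min (min (1 / 64) κ₀) (min (ε / (C₁ + 1)) (min (ε / A₄) (ε ^ 2 / A₅))), by positivity,
      (min_le_left _ _).trans (min_le_left _ _), (min_le_left _ _).trans (min_le_right _ _), ?_, ?_,
      ?_⟩
    · set δ := min (min (1 / 64) κ₀) (min (ε / (C₁ + 1)) (min (ε / A₄) (ε ^ 2 / A₅))) with hδ
      have h0 : 0 ≤ δ := by positivity
      have h1 : δ ≤ ε / (C₁ + 1) := (min_le_right _ _).trans (min_le_left _ _)
      rw [le_div_iff₀ (by positivity)] at h1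
      nlinarith
    · set δ := min (min (1 / 64) κ₀) (min (ε / (C₁ + 1)) (min (ε / A₄) (ε ^ 2 / A₅))) with hδ
      have h1 : δ ≤ ε / A₄ := (min_le_right _ _).trans ((min_le_right _ _).trans (min_le_left _ _))
      rw [le_div_iff₀ (by positivity)] at h1
      linarith
    · set δ := min (min (1 / 64) κ₀) (min (ε / (C₁ + 1)) (min (ε / A₄) (ε ^ 2 / A₅))) with hδ
      have h0 : 0 < δ := by positivity
      have h1 : δ ≤ ε ^ 2 / A₅ :=
        (min_le_right _ _).trans ((min_le_right _ _).trans (min_le_right _ _))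
      have h2 : δ ≤ 1 / 64 := (min_le_left _ _).trans (min_le_left _ _)
      rw [le_div_iff₀ (by positivity)] at h1
      have h3 : δ ^ 2 * A₅ ≤ δ * A₅ := by
        have : 0 < δ * A₅ := by positivity
        nlinarith
      linarith
  refine ⟨δ, hδ0, ?_⟩
  intro U V hV x r hr hU hTh P hnear π ρ q w c Kc D R h
  set X₀ := π (x - q) with hX₀
  set b₀ := ρ (x - q) with hb₀
  obtain ⟨u, hu1, hu2, hu3, hu4⟩ := HG w δ r R X₀ b₀ hr hδ0.le hδκ h.hR h.cd h.d1 h.d2 h.ms h.near0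
  set V' := V.restrict (Kc ×ˢ univ) with hV'
  set hz : Euc k → Euc n := fun z => ρ (z - q) - w (π (z - q)) with hhz
  have hf := h.frame
  -- heights
  have hhgt : ∀ z, ‖π (z - x)‖ < 33 * r → hgt π ρ x r u z = hz z := by
    intro z hzb
    have h0 := hgt_sh (x := x) (q := q) (z := z) (π := π) (ρ := ρ) hr.ne' w
    refine Eq.trans ?_ h0
    unfold hgt
    rw [hu2]
    rw [mem_ball_zero_iff, norm_smul, norm_inv, Real.norm_of_nonneg hr.le, inv_mul_lt_iff₀ hr]
    linarith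
  have hbox : ∀ {a : ℝ}, a ≤ 8 → ∀ z ∈ box π ρ x (a * r), hgt π ρ x r u z = hz z := by
    intro a ha z hzb
    refine hhgt z (hzb.1.trans_le ?_)
    nlinarith
  have hbm : ∀ a : ℝ, MeasurableSet (box π ρ x a) := fun a => (isOpen_box π ρ x a).measurableSet
  have hsep : ∀ {a : ℝ}, a ≤ 8 → sep V π ρ x r u a =
      ∫ p in Prod.fst ⁻¹' (box π ρ x (a * r)), ‖hz p.1‖ ^ 2 ∂V := by
    intro a ha
    unfold sep
    rw [Top_395.prod_eq]
    refine setIntegral_congr_fun (measurable_fst (hbm _)) ?_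
    intro p hp
    simp only
    rw [hbox ha p.1 hp]
  have hucont : Continuous u := hu1.continuous
  have hint8 : IntegrableOn (fun p : Euc k × L k => ‖hgt π ρ x r u p.1‖ ^ 2)
      (box π ρ x (8 * r) ×ˢ univ) V := by
    refine Supm_685.integrableOn_box hV hf ?_ (g := fun z => ‖hgt π ρ x r u z‖ ^ 2) ?_
    · exact (Metric.closedBall_subset_closedBall (by linarith)).trans hU
    · unfold hgt
      fun_prop
  have hbsub : ∀ {a : ℝ}, a ≤ 8 → box π ρ x (a * r) ⊆ box π ρ x (8 * r) := by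
    intro a ha z hzb
    have : a * r ≤ 8 * r := by nlinarith
    exact ⟨hzb.1.trans_le this, hzb.2.trans_le this⟩
  -- the integral over the box 8 r seen by `V'`
  have hV'8 : ∫ p in Prod.fst ⁻¹' (box π ρ x (8 * r)), ‖hz p.1‖ ^ 2 ∂V' =
      ∫ p in Prod.fst ⁻¹' (box π ρ x (8 * r)), ‖hz p.1‖ ^ 2 ∂V := by
    rw [hV', Measure.restrict_restrict (measurable_fst (hbm _))]
    refine setIntegral_congr_set ?_
    filter_upwards [h.mem] with p hp
    refine propext ⟨fun h1 => h1.1, fun h1 => ⟨h1, hp h1, mem_univ _⟩⟩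
  have hl1 : Real.exp (Real.log (12 * r)) = 12 * r := Real.exp_log (by positivity)
  have hl2 : Real.exp (Real.log (r / 8)) = r / 8 := Real.exp_log (by positivity)
  -- sep 8 ≤ A₃ r^m II(l₁)
  have hS8 : sep V π ρ x r u 8 ≤ A₃ * (r ^ m * II c V' g1 (Real.log (12 * r))) := by
    have h1 := le_II (S := box π ρ x (8 * r)) (a := 3 / 4) (b := b) h.ok h.on h.cmp hg h.hh
      (by norm_num) hb.le hgb (hbm _) (by
        intro z hzK hzS
        have h2 := h.sup z hzK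
        rw [hl1]
        have h3 := hzS.1
        have h4 : δ * r ≤ 1 / 64 * r := by gcongr
        linarith)
    rw [hV'8, exp_neg_log m (by positivity : (0:ℝ) < 12 * r), ← hsep le_rfl] at h1
    have h5 : sep V π ρ x r u 8 = 3 / (2 * b) * (12 * r) ^ m *
        (2 / 3 * b * (((12 * r) ^ m)⁻¹ * sep V π ρ x r u 8)) := by
      field_simp
    rw [h5]
    calc 3 / (2 * b) * (12 * r) ^ m * (2 / 3 * b * (((12 * r) ^ m)⁻¹ * sep V π ρ x r u 8))
        ≤ 3 / (2 * b) * (12 * r) ^ m * II c V' g1 (Real.log (12 * r)) := by gcongr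
      _ = A₃ * (r ^ m * II c V' g1 (Real.log (12 * r))) := by
          rw [hA₃, mul_pow]; ring
  -- II(l₂) ≤ A₅ r^{-m} sep (1/4)
  have hS4 : r ^ m * II c V' g1 (Real.log (r / 8)) ≤ A₅ * sep V π ρ x r u (1 / 4) := by
    have hsubK : ∀ z ∈ Kc, ‖π (z - x)‖ ≤ Real.exp (Real.log (r / 8)) + δ * r →
        z ∈ box π ρ x (1 / 4 * r) := by
      intro z hzK hzp
      rw [hl2] at hzp
      have h4 : δ * r ≤ 1 / 64 * r := by gcongr
      have h5 : ‖π (z - x)‖ < 1 / 4 * r := by linarith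
      refine ⟨h5, ?_⟩
      have h6 : ρ (z - x) = hz z + ((w (π (z - q)) - w X₀) + (w X₀ - b₀)) := by
        have : ρ (z - q) = ρ (z - x) + ρ (x - q) := by rw [← map_add, sub_add_sub_cancel]
        rw [hhz]
        simp only
        rw [this, hb₀]
        abel
      have h7 : π (z - q) - X₀ = π (z - x) := by
        rw [hX₀, ← map_sub, sub_sub_sub_cancel_right]
      have hXR : X₀ ∈ Metric.ball (0 : Euc m) R := by
        rw [mem_ball_zero_iff]
        have := h.hR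
        linarith
      have hzR : π (z - q) ∈ Metric.ball (0 : Euc m) R := by
        rw [mem_ball_zero_iff]
        have h8 : π (z - q) = π (z - x) + X₀ := by rw [← h7]; abel
        rw [h8]
        have := norm_add_le (π (z - x)) X₀
        have := h.hR
        linarith
      have h8 : ‖w (π (z - q)) - w X₀‖ ≤ δ * ‖π (z - x)‖ := by
        have h9 := (convex_ball (0 : Euc m) R).norm_image_sub_le_of_norm_fderiv_le
          (fun X hX => ((h.cd.contDiffAt (Metric.isOpen_ball.mem_nhds hX)).differentiableAt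
            (by norm_num))) h.d1 hXR hzR
        rwa [h7] at h9
      have h9 := h.sup z hzK
      have h10 := h.near0
      rw [h6]
      have h11 := norm_add_le (hz z) ((w (π (z - q)) - w X₀) + (w X₀ - b₀))
      have h12 := norm_add_le (w (π (z - q)) - w X₀) (w X₀ - b₀)
      have h13 : δ * ‖π (z - x)‖ ≤ 1 / 64 * (1 / 4 * r) := by gcongr
      have h14 : ‖hz z‖ ≤ δ * r := h9
      linarith
    have h1 := II_le (S := box π ρ x (1 / 4 * r)) (η := δ * r) h.on h.ok.cpt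
      (l := Real.log (r / 8)) (p := fun z => π (z - x)) (h := hz)
      ⟨h.cmp.f1, h.cmp.f2, h.cmp.x1, h.cmp.x2, fun z hz1 hz2 => h.cmp.mu z hz1 (hz2.trans (by
        rw [hl1, hl2]; linarith))⟩ hg hB.le h.hh h.sup (hbm _) hsubK
    rw [exp_neg_log m (by positivity : (0:ℝ) < r / 8)] at h1
    have h2 : ∫ p in Prod.fst ⁻¹' (box π ρ x (1 / 4 * r)), ‖hz p.1‖ ^ 2 ∂V' ≤
        sep V π ρ x r u (1 / 4) := by
      rw [hsep (by norm_num)]
      refine integral_mono_measure ?_ (Eventually.of_forall fun p => by positivity) ?_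
      · exact Measure.restrict_mono_measure Measure.restrict_le_self _
      · have h3 : IntegrableOn (fun p : Euc k × L k => ‖hgt π ρ x r u p.1‖ ^ 2)
            (Prod.fst ⁻¹' (box π ρ x (1 / 4 * r))) V := by
          rw [← Top_395.prod_eq]
          exact hint8.mono_set (Set.prod_mono (hbsub (by norm_num)) Subset.rfl)
        refine h3.congr_fun (fun p hp => ?_) (measurable_fst (hbm _))
        simp only
        rw [hbox (by norm_num : (1:ℝ) / 4 ≤ 8) p.1 hp]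
    calc r ^ m * II c V' g1 (Real.log (r / 8))
        ≤ r ^ m * (9 / 2 * B * (((r / 8) ^ m)⁻¹ *
          ∫ p in Prod.fst ⁻¹' (box π ρ x (1 / 4 * r)), ‖hz p.1‖ ^ 2 ∂V')) := by gcongr
      _ ≤ r ^ m * (9 / 2 * B * (((r / 8) ^ m)⁻¹ * sep V π ρ x r u (1 / 4))) := by gcongr
      _ = A₅ * sep V π ρ x r u (1 / 4) := by
          rw [hA₅, div_pow]
          field_simp
  have hpos : 0 < sep V π ρ x r u (1 / 4) := by
    have h1 : 0 < r ^ m * II c V' g1 (Real.log (r / 8)) := mul_pos (by positivity) h.pos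
    have h2 := h1.trans_le hS4
    exact pos_of_mul_pos_right h2 hA₅0.le
  have hdbl : sep V π ρ x r u 8 ≤ C * sep V π ρ x r u (1 / 4) := by
    calc sep V π ρ x r u 8 ≤ A₃ * (r ^ m * II c V' g1 (Real.log (12 * r))) := hS8
      _ ≤ A₃ * (r ^ m * (Real.exp G * II c V' g1 (Real.log (r / 8)))) := by
          have := h.dbl
          gcongr
      _ = A₃ * (Real.exp G * (r ^ m * II c V' g1 (Real.log (r / 8)))) := by ring
      _ ≤ A₃ * (Real.exp G * (A₅ * sep V π ρ x r u (1 / 4))) := by gcongr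
      _ = C * sep V π ρ x r u (1 / 4) := by rw [hC, hA₃, hA₅]; ring
  have h4le8 : sep V π ρ x r u (1 / 4) ≤ sep V π ρ x r u 8 := by
    unfold sep
    refine setIntegral_mono_set hint8 (Eventually.of_forall fun p => by positivity) ?_
    exact (Set.prod_mono (hbsub (by norm_num)) Subset.rfl).eventuallyLE
  have hsml : sep V π ρ x r u 8 ≤ A₃ * δ * r ^ (m + 2) := by
    calc sep V π ρ x r u 8 ≤ A₃ * (r ^ m * II c V' g1 (Real.log (12 * r))) := hS8
      _ ≤ A₃ * (r ^ m * (δ * r ^ 2)) := by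
          have := h.sml
          gcongr
      _ = A₃ * δ * r ^ (m + 2) := by ring
  have hu8 : ∀ z ∈ Metric.ball (0 : Euc m) 8, ‖u z‖ ≤ C₁ * δ := by
    intro z hz1
    have h1 := hu3 0 (Nat.zero_le K) z (Metric.ball_subset_ball (by norm_num) hz1)
    rwa [norm_iteratedFDeriv_zero] at h1
  obtain ⟨-, hNe⟩ := HN U V hV x r hr hU hTh P δ hδ0.le (by linarith) hnear π ρ hf u (C₁ * δ)
    (A₃ * δ) hucont (by positivity) (by positivity) hu8 hsml
  have hsmall : C₂ * (δ + A₃ * δ + (C₁ * δ) ^ 2) ≤ ε := by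
    refine le_trans ?_ hδA
    rw [hA₄]
    have h1 : (C₁ * δ) ^ 2 ≤ C₁ ^ 2 * δ := by
      rw [mul_pow]
      have : δ ^ 2 ≤ δ := by nlinarith
      gcongr
    nlinarith
  refine ⟨u, ?_⟩
  refine { frame := hf, near := ?_, smooth := hu1, small := ?_, minimal := hu4, pos := hpos,
           dbl := hdbl, mean := ?_ }
  · obtain ⟨h1, h2, h3⟩ := hNe
    refine ⟨h1, h2.trans ?_, h3.trans ?_⟩
    · gcongr
    · gcongr
  · intro j hj z hz1
    exact (hu3 j hj z hz1).trans hδε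
  · intro ζ hζ1 hζ2 hζ3
    have h1 := h.mean ζ hζ1 hζ2 hζ3
    have h2 : ∫ p in box π ρ x (8 * r) ×ˢ univ, ζ (r⁻¹ • π (p.1 - x)) • hgt π ρ x r u p.1 ∂V =
        ∫ p in box π ρ x (8 * r) ×ˢ univ, ζ (r⁻¹ • π (p.1 - x)) •
          (ρ (p.1 - q) - w (π (p.1 - q))) ∂V := by
      refine setIntegral_congr_fun ((hbm _).prod MeasurableSet.univ) ?_
      intro p hp
      simp only
      rw [hbox le_rfl p.1 hp.1]
    rw [h2]
    refine h1.trans ?_
    calc δ ^ 2 * (r ^ m * (r ^ m * II c V' g1 (Real.log (r / 8))))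
        ≤ δ ^ 2 * (r ^ m * (A₅ * sep V π ρ x r u (1 / 4))) := by gcongr
      _ = (δ ^ 2 * A₅) * r ^ m * sep V π ρ x r u (1 / 4) := by ring
      _ ≤ ε ^ 2 * r ^ m * sep V π ρ x r u 8 := by
          have : 0 ≤ sep V π ρ x r u 8 := hpos.le.trans h4le8
          gcongr

end Crest.Agent.R234.End_395
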