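import Crest.Agent.R234.GLK2_128
import Crest.Agent.R234.Ell1_3
import Crest.Agent.R247.Mcs1_816

/-!
# Row 234, node GL-K (helper128), file 3: the coefficients of the chart of the graph of `u`

`Yop u x y a = (D²u(x) a)ᵀ y`, `Kop u x y v a = (D³u(x) v a)ᵀ y`.
* `trc_gi_Yop` : `tr (g⁻¹ Y) = ⟪y, Σ D²u (g⁻¹ b_i) b_i⟫`
* `hmin_of` : hypothesis `hmin` of `abs_k3` from the minimal surface system in a neighbourhood
* `hasFDerivAt_detg`, `hasFDerivAt_sqrt_detg` : derivative of `sqrt (det g)`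
* `hasFDerivAt_AAv` : derivative of the frame field `A(·) v`.
-/

set_option autoImplicit false
set_option maxSynthPendingDepth 3

open Function Set Filter Topology Crest.Agent.R234.Fm_209
open Crest.Agent.R234.Ell1_3 (adjL gop ginv)
open scoped InnerProductSpace ContDiff

noncomputable section

namespace Crest.Agent.R234.GLK_128

variable {E F V : Type} [NormedAddCommGroup E] [InnerProductSpace ℝ E] [FiniteDimensional ℝ E]
  [NormedAddCommGroup F] [InnerProductSpace ℝ F] [FiniteDimensional ℝ F]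
  [NormedAddCommGroup V] [InnerProductSpace ℝ V] [FiniteDimensional ℝ V]

local notation "adj" => ContinuousLinearMap.adjoint

/-- `a ↦ (H a)ᵀ y` -/
def Yof (H : F →L[ℝ] F →L[ℝ] V) (y : V) : F →L[ℝ] F :=
  (ContinuousLinearMap.apply ℝ F y) ∘L (adjL (F := F) (V := V)) ∘L H

theorem Yof_apply (H : F →L[ℝ] F →L[ℝ] V) (y : V) (a : F) : Yof H y a = adj (H a) y := rfl

theorem Yof_inner (H : F →L[ℝ] F →L[ℝ] V) (y : V) (a b : F) :
    ⟪Yof H y a, b⟫_ℝ = ⟪y, H a b⟫_ℝ := by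
  rw [Yof_apply, ContinuousLinearMap.adjoint_inner_left]

theorem Yof_adj {H : F →L[ℝ] F →L[ℝ] V} (hs : ∀ a b, H a b = H b a) (y : V) :
    adj (Yof H y) = Yof H y := by
  ext1 a
  refine ext_inner_right ℝ fun b => ?_
  rw [ContinuousLinearMap.adjoint_inner_left, Yof_inner, real_inner_comm, Yof_inner, hs]

theorem norm_Yof_le (H : F →L[ℝ] F →L[ℝ] V) (y : V) : ‖Yof H y‖ ≤ ‖H‖ * ‖y‖ := by
  refine ContinuousLinearMap.opNorm_le_bound _ (by positivity) fun a => ?_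
  rw [Yof_apply]
  calc ‖adj (H a) y‖ ≤ ‖adj (H a)‖ * ‖y‖ := ContinuousLinearMap.le_opNorm _ _
    _ = ‖H a‖ * ‖y‖ := by rw [LinearIsometryEquiv.norm_map]
    _ ≤ ‖H‖ * ‖a‖ * ‖y‖ := mul_le_mul_of_nonneg_right (H.le_opNorm a) (norm_nonneg _)
    _ = ‖H‖ * ‖y‖ * ‖a‖ := by ring

theorem trc_Yof {ι : Type*} [Fintype ι] (b : OrthonormalBasis ι ℝ F)
    {H : F →L[ℝ] F →L[ℝ] V} (hs : ∀ a b, H a b = H b a) (y : V) {gi : F →L[ℝ] F}
    (hgi : adj gi = gi) :
    trc F (gi ∘L Yof H y) = ⟪y, ∑ k, H (gi (b k)) (b k)⟫_ℝ := by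
  rw [trc_sum b, inner_sum]
  refine Finset.sum_congr rfl fun k _ => ?_
  rw [ContinuousLinearMap.comp_apply]
  nth_rewrite 1 [← hgi]
  rw [ContinuousLinearMap.adjoint_inner_right, real_inner_comm, Yof_inner, hs]

theorem gg_eq_gop (q : F →L[ℝ] V) : gg q = gop q := rfl

theorem ginv_gg (q : F →L[ℝ] V) : ginv q ∘L gg q = ContinuousLinearMap.id ℝ F :=
  Ell1_3.ginv_gop q

theorem gg_ginv (q : F →L[ℝ] V) : gg q ∘L ginv q = ContinuousLinearMap.id ℝ F :=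
  Ell1_3.gop_ginv q

theorem Inv.gi_eq {q : F →L[ℝ] V} {Y gi Li : F →L[ℝ] F} {hi : V →L[ℝ] V} (H : Inv q Y gi hi Li) :
    gi = ginv q := by
  calc gi = gi ∘L (gg q ∘L ginv q) := by rw [gg_ginv, ContinuousLinearMap.comp_id]
    _ = (gi ∘L gg q) ∘L ginv q := rfl
    _ = ginv q := by rw [H.g1, ContinuousLinearMap.id_comp]

theorem ginv_adj (q : F →L[ℝ] V) : adj (ginv q) = ginv q := by
  have h1 : gg q ∘L adj (ginv q) = ContinuousLinearMap.id ℝ F := by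
    have := congrArg (fun T => adj T) (ginv_gg q)
    simpa [ContinuousLinearMap.adjoint_comp, gg_adj] using this
  calc adj (ginv q) = (ginv q ∘L gg q) ∘L adj (ginv q) := by
        rw [ginv_gg, ContinuousLinearMap.id_comp]
    _ = ginv q := by rw [ContinuousLinearMap.comp_assoc, h1, ContinuousLinearMap.comp_id]

/-- derivative of `g` in the direction `S` -/
def dgg (q S : F →L[ℝ] V) : F →L[ℝ] F := adj S ∘L q + adj q ∘L S

theorem hasDerivAt_gop {q : ℝ → F →L[ℝ] V} {S : F →L[ℝ] V} {t : ℝ} (h : HasDerivAt q S t) :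
    HasDerivAt (fun t => gop (q t)) (dgg (q t) S) t := by
  have h1 : HasDerivAt (fun t => adjL (F := F) (V := V) (q t)) (adjL S) t :=
    (adjL (F := F) (V := V)).hasFDerivAt.comp_hasDerivAt t h
  have h2 := h1.clm_comp h
  have h3 := h2.const_add (ContinuousLinearMap.id ℝ F)
  exact h3

theorem hasDerivAt_ginv {q : ℝ → F →L[ℝ] V} {S : F →L[ℝ] V} {t : ℝ} (h : HasDerivAt q S t) :
    HasDerivAt (fun t => ginv (q t)) (-(ginv (q t) ∘L dgg (q t) S ∘L ginv (q t))) t := by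
  obtain ⟨w, hw⟩ := Ell1_3.gop_isUnit (q t)
  have h1 := hasFDerivAt_ringInverse (𝕜 := ℝ) w
  rw [hw] at h1
  have h2 := h1.comp_hasDerivAt t (hasDerivAt_gop h)
  have e : ((w⁻¹ : (F →L[ℝ] F)ˣ) : F →L[ℝ] F) = ginv (q t) := by
    rw [ginv, ← hw, Ring.inverse_unit]
  refine h2.congr_deriv ?_
  simp only [ContinuousLinearMap.neg_apply, ContinuousLinearMap.mulLeftRight_apply, e]
  rfl

/-- **`hmin`** : the derivative of `tr (g⁻¹ Y) = 0` -/
theorem hmin_line {q : ℝ → F →L[ℝ] V} {H : ℝ → F →L[ℝ] F →L[ℝ] V} {S : F →L[ℝ] V}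
    {K : F →L[ℝ] F →L[ℝ] V} {y : V} (hq : HasDerivAt q S 0) (hH : HasDerivAt H K 0)
    (h0 : ∀ᶠ t in 𝓝 (0 : ℝ), trc F (ginv (q t) ∘L Yof (H t) y) = 0) :
    trc F (ginv (q 0) ∘L Yof K y) =
      trc F ((ginv (q 0) ∘L Yof (H 0) y ∘L ginv (q 0)) ∘L dgg (q 0) S) := by
  set Φ : (F →L[ℝ] F →L[ℝ] V) →L[ℝ] (F →L[ℝ] F) :=
    ((ContinuousLinearMap.compL ℝ F (V →L[ℝ] F) F) (ContinuousLinearMap.apply ℝ F y)) ∘L
      ((ContinuousLinearMap.compL ℝ F (F →L[ℝ] V) (V →L[ℝ] F)) (adjL (F := F) (V := V))) with hΦ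
  have e1 : ∀ H : F →L[ℝ] F →L[ℝ] V, Φ H = Yof H y := fun H => rfl
  have h1 : HasDerivAt (fun t => Yof (H t) y) (Yof K y) 0 := by
    have := Φ.hasFDerivAt.comp_hasDerivAt (0 : ℝ) hH
    exact this
  have h2 := (hasDerivAt_ginv hq).clm_comp h1
  have h3 := (trc F).hasFDerivAt.comp_hasDerivAt (0 : ℝ) h2
  have h4 : HasDerivAt (fun t => trc F (ginv (q t) ∘L Yof (H t) y)) 0 0 :=
    (hasDerivAt_const (0 : ℝ) (0 : ℝ)).congr_of_eventuallyEq h0
  have h5 := h3.unique h4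
  rw [map_add, ContinuousLinearMap.neg_comp, map_neg] at h5
  have h6 : trc F ((ginv (q 0) ∘L dgg (q 0) S ∘L ginv (q 0)) ∘L Yof (H 0) y) =
      trc F ((ginv (q 0) ∘L Yof (H 0) y ∘L ginv (q 0)) ∘L dgg (q 0) S) := by
    have a1 : (ginv (q 0) ∘L dgg (q 0) S ∘L ginv (q 0)) ∘L Yof (H 0) y =
      (ginv (q 0) ∘L dgg (q 0) S) ∘L (ginv (q 0) ∘L Yof (H 0) y) := rfl
    have a2 : (ginv (q 0) ∘L Yof (H 0) y) ∘L (ginv (q 0) ∘L dgg (q 0) S) =
      (ginv (q 0) ∘L Yof (H 0) y ∘L ginv (q 0)) ∘L dgg (q 0) S := rfl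
    rw [a1, trc_comp_comm, a2]
  rw [h6] at h5
  linarith

/-! ### the graph of `u` -/

/-- `Y` of the graph of `u` -/
def Yop (u : F → V) (x : F) (y : V) : F →L[ℝ] F := Yof (fderiv ℝ (fderiv ℝ u) x) y

/-- `Kt` of the graph of `u`, direction `v` -/
def Kop (u : F → V) (x : F) (y : V) (v : F) : F →L[ℝ] F :=
  Yof (fderiv ℝ (fderiv ℝ (fderiv ℝ u)) x v) y

/-- the mean curvature system of `u` at `x` in an orthonormal basis -/
def msb {ι : Type*} [Fintype ι] (b : OrthonormalBasis ι ℝ F) (u : F → V) (x : F) : V :=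
  ∑ k, fderiv ℝ (fderiv ℝ u) x (ginv (fderiv ℝ u x) (b k)) (b k)

theorem symm2 {W : Type} [NormedAddCommGroup W] [NormedSpace ℝ W] {u : F → W} {x : F}
    (hu : ContDiffAt ℝ 2 u x) (a b : F) :
    fderiv ℝ (fderiv ℝ u) x a b = fderiv ℝ (fderiv ℝ u) x b a :=
  (hu.isSymmSndFDerivAt (by simp)) a b

theorem symm3 {u : F → V} {x : F} (hu : ContDiffAt ℝ 3 u x) (a b c : F) :
    fderiv ℝ (fderiv ℝ (fderiv ℝ u)) x a b c = fderiv ℝ (fderiv ℝ (fderiv ℝ u)) x b a c := by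
  have h1 : ContDiffAt ℝ 2 (fderiv ℝ u) x := hu.fderiv_right (by norm_num)
  have := symm2 h1 a b
  rw [this]

/-- symmetry in the last two arguments -/
theorem symm3' {u : F → V} {x : F} (hu : ContDiffAt ℝ 3 u x) (a b c : F) :
    fderiv ℝ (fderiv ℝ (fderiv ℝ u)) x a b c = fderiv ℝ (fderiv ℝ (fderiv ℝ u)) x a c b := by
  have h1 : ContDiffAt ℝ 1 (fderiv ℝ (fderiv ℝ u)) x :=
    (hu.fderiv_right (m := 2) (by norm_num)).fderiv_right (by norm_num)
  have h2 : HasFDerivAt (fderiv ℝ (fderiv ℝ u)) (fderiv ℝ (fderiv ℝ (fderiv ℝ u)) x) x :=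
    (h1.differentiableAt (by norm_num)).hasFDerivAt
  have h3 : HasFDerivAt (fun z => fderiv ℝ (fderiv ℝ u) z b c) _ x :=
    (h2.clm_apply (hasFDerivAt_const b x)).clm_apply (hasFDerivAt_const c x)
  have h4 : HasFDerivAt (fun z => fderiv ℝ (fderiv ℝ u) z c b) _ x :=
    (h2.clm_apply (hasFDerivAt_const c x)).clm_apply (hasFDerivAt_const b x)
  have h5 : (fun z => fderiv ℝ (fderiv ℝ u) z b c) =ᶠ[𝓝 x]
      fun z => fderiv ℝ (fderiv ℝ u) z c b := by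
    have h6 : ∀ᶠ z in 𝓝 x, ContDiffAt ℝ 2 u z :=
      (hu.of_le (by norm_num)).eventually (by simp)
    filter_upwards [h6] with z hz
    exact symm2 hz b c
  have h7 := congrArg (fun T : F →L[ℝ] V => T a) (h3.unique (h4.congr_of_eventuallyEq h5))
  simpa using h7

theorem Yop_adj {u : F → V} {x : F} (hu : ContDiffAt ℝ 2 u x) (y : V) :
    adj (Yop u x y) = Yop u x y := Yof_adj (symm2 hu) y

theorem norm_Yop_le (u : F → V) (x : F) (y : V) :
    ‖Yop u x y‖ ≤ ‖fderiv ℝ (fderiv ℝ u) x‖ * ‖y‖ := norm_Yof_le _ _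

theorem norm_Kop_le (u : F → V) (x : F) (y : V) (v : F) :
    ‖Kop u x y v‖ ≤ ‖fderiv ℝ (fderiv ℝ (fderiv ℝ u)) x‖ * ‖v‖ * ‖y‖ :=
  (norm_Yof_le _ _).trans (mul_le_mul_of_nonneg_right (ContinuousLinearMap.le_opNorm _ _)
    (norm_nonneg _))

theorem trc_gi_Yop {ι : Type*} [Fintype ι] (b : OrthonormalBasis ι ℝ F) {u : F → V} {x : F}
    (hu : ContDiffAt ℝ 2 u x) (y : V) :
    trc F (ginv (fderiv ℝ u x) ∘L Yop u x y) = ⟪y, msb b u x⟫_ℝ :=
  trc_Yof b (symm2 hu) y (ginv_adj _)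

/-- `tr (g⁻¹ Y) = 0` on a minimal graph -/
theorem trc_gi_Yop_zero {ι : Type*} [Fintype ι] (b : OrthonormalBasis ι ℝ F) {u : F → V} {x : F}
    (hu : ContDiffAt ℝ 2 u x) (hM : msb b u x = 0) (y : V) :
    trc F (ginv (fderiv ℝ u x) ∘L Yop u x y) = 0 := by
  rw [trc_gi_Yop b hu, hM, inner_zero_right]

/-- **`hmin` of `abs_k3` on a minimal graph** -/
theorem hmin_of {ι : Type*} [Fintype ι] (b : OrthonormalBasis ι ℝ F) {u : F → V} {x : F}
    (hu : ContDiffAt ℝ 3 u x) (hM : ∀ᶠ z in 𝓝 x, msb b u z = 0) (y : V) (v : F) :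
    trc F (ginv (fderiv ℝ u x) ∘L Kop u x y v) =
      trc F ((ginv (fderiv ℝ u x) ∘L Yop u x y ∘L ginv (fderiv ℝ u x)) ∘L
        (adj (fderiv ℝ (fderiv ℝ u) x v) ∘L fderiv ℝ u x +
          adj (fderiv ℝ u x) ∘L fderiv ℝ (fderiv ℝ u) x v)) := by
  have hl : HasDerivAt (fun t : ℝ => x + t • v) v 0 := by
    simpa using ((hasDerivAt_id (0 : ℝ)).smul_const v).const_add x
  have e0 : x + (0 : ℝ) • v = x := by simp
  have h1 : ContDiffAt ℝ 2 (fderiv ℝ u) x := hu.fderiv_right (by norm_num)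
  have h2 : ContDiffAt ℝ 1 (fderiv ℝ (fderiv ℝ u)) x := h1.fderiv_right (by norm_num)
  have hq : HasDerivAt (fun t : ℝ => fderiv ℝ u (x + t • v)) (fderiv ℝ (fderiv ℝ u) x v) 0 := by
    have a := (h1.differentiableAt (by norm_num)).hasFDerivAt
    rw [← e0] at a
    have b := a.comp_hasDerivAt (0 : ℝ) hl
    rw [e0] at b
    exact b
  have hH : HasDerivAt (fun t : ℝ => fderiv ℝ (fderiv ℝ u) (x + t • v))
      (fderiv ℝ (fderiv ℝ (fderiv ℝ u)) x v) 0 := by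
    have a := (h2.differentiableAt (by norm_num)).hasFDerivAt
    rw [← e0] at a
    have b := a.comp_hasDerivAt (0 : ℝ) hl
    rw [e0] at b
    exact b
  have hc : Tendsto (fun t : ℝ => x + t • v) (𝓝 0) (𝓝 x) := by
    have := hl.continuousAt.tendsto
    rwa [e0] at this
  have h6 : ∀ᶠ z in 𝓝 x, ContDiffAt ℝ 2 u z := (hu.of_le (by norm_num)).eventually (by simp)
  have h0 : ∀ᶠ t in 𝓝 (0 : ℝ), trc F (ginv (fderiv ℝ u (x + t • v)) ∘L
      Yof (fderiv ℝ (fderiv ℝ u) (x + t • v)) y) = 0 := by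
    filter_upwards [hc.eventually (hM.and h6)] with t ht
    exact trc_gi_Yop_zero b ht.2 ht.1 y
  have := hmin_line hq hH h0
  simp only [e0] at this
  exact this

/-! ### determinant of the metric -/

/-- derivative of the determinant at an invertible operator -/
theorem hasFDerivAt_det {G X : F →L[ℝ] F} (h1 : X ∘L G = ContinuousLinearMap.id ℝ F)
    (h2 : G ∘L X = ContinuousLinearMap.id ℝ F) :
    HasFDerivAt (fun L : F →L[ℝ] F => L.det)
      (G.det • ((trc F) ∘L (ContinuousLinearMap.compL ℝ F F F X))) G := by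
  have e : (fun L : F →L[ℝ] F => L.det) = fun L => G.det * (X ∘L L).det := by
    funext L
    have : L = G ∘L (X ∘L L) := by
      rw [← ContinuousLinearMap.comp_assoc, h2, ContinuousLinearMap.id_comp]
    conv_lhs => rw [this]
    exact LinearMap.det_comp _ _
  rw [e]
  have hd : HasFDerivAt (fun L : F →L[ℝ] F => L.det) (trc F) (ContinuousLinearMap.id ℝ F) := by
    have a := ((Crest.Agent.R247.Mcs816.contDiff_det (E := F)).differentiable
      (by simp)).differentiableAt (x := ContinuousLinearMap.id ℝ F)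
    have b := a.hasFDerivAt
    have c : fderiv ℝ (fun L : F →L[ℝ] F => L.det) (ContinuousLinearMap.id ℝ F) = trc F := by
      ext1 L
      rw [Crest.Agent.R247.Mcs816.fderiv_det_id]
      rfl
    rwa [c] at b
  have hX : HasFDerivAt (fun L : F →L[ℝ] F => X ∘L L) (ContinuousLinearMap.compL ℝ F F F X) G :=
    (ContinuousLinearMap.compL ℝ F F F X).hasFDerivAt
  rw [← h1] at hd
  have h3 := (hd.comp G hX).const_mul G.det
  exact h3

/-- `tr (g⁻¹ (Sᵀ q + qᵀ S)) = 2 tr (g⁻¹ qᵀ S)` -/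
theorem trc_gi_dgg (q S : F →L[ℝ] V) {gi : F →L[ℝ] F} (hgi : adj gi = gi) :
    trc F (gi ∘L dgg q S) = 2 * trc F (gi ∘L adj q ∘L S) := by
  rw [dgg, ContinuousLinearMap.comp_add, map_add]
  have : trc F (gi ∘L adj S ∘L q) = trc F (gi ∘L adj q ∘L S) := by
    rw [← trc_adjoint]
    have e : adj (gi ∘L adj S ∘L q) = (adj q ∘L S) ∘L gi := by
      simp [ContinuousLinearMap.adjoint_comp, hgi]
    rw [e, trc_comp_comm]
  rw [this]; ring

/-- `v ↦ tr (g⁻¹ qᵀ H v)` : the derivative of `log sqrt (det g)` -/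
def lamf (q : F →L[ℝ] V) (H : F →L[ℝ] F →L[ℝ] V) : F →L[ℝ] ℝ :=
  (trc F) ∘L (ContinuousLinearMap.compL ℝ F V F (ginv q ∘L adj q)) ∘L H

theorem lamf_apply (q : F →L[ℝ] V) (H : F →L[ℝ] F →L[ℝ] V) (v : F) :
    lamf q H v = trc F (ginv q ∘L adj q ∘L H v) := rfl

theorem abs_lamf_le (q : F →L[ℝ] V) (H : F →L[ℝ] F →L[ℝ] V) (v : F) (hg : ‖ginv q‖ ≤ 1) :
    |lamf q H v| ≤ Module.finrank ℝ F * (‖q‖ * ‖H‖ * ‖v‖) := by
  rw [lamf_apply]
  refine (abs_trc_le' _).trans (mul_le_mul_of_nonneg_left ?_ (Nat.cast_nonneg _))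
  have h1 : ‖ginv q ∘L adj q ∘L H v‖ ≤ 1 * (‖q‖ * (‖H‖ * ‖v‖)) :=
    ncomp hg (ncomp (le_of_eq (LinearIsometryEquiv.norm_map _ _)) (H.le_opNorm v))
  linarith [h1]

theorem det_gg_pos (q : F →L[ℝ] V) : 0 < (gg q).det := Ell1_3.gdet_pos q

/-- derivative of `det g` -/
theorem hasFDerivAt_detg {u : F → V} {x : F} (hu : ContDiffAt ℝ 2 u x) :
    HasFDerivAt (fun z => (gg (fderiv ℝ u z)).det)
      ((2 * (gg (fderiv ℝ u x)).det) • lamf (fderiv ℝ u x) (fderiv ℝ (fderiv ℝ u) x)) x := by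
  set q := fderiv ℝ u x with hq
  set H := fderiv ℝ (fderiv ℝ u) x with hH
  have h1 : ContDiffAt ℝ 1 (fderiv ℝ u) x := hu.fderiv_right (by norm_num)
  have h2 : HasFDerivAt (fderiv ℝ u) H x := (h1.differentiableAt (by norm_num)).hasFDerivAt
  have h3 : HasFDerivAt (fun z => adjL (F := F) (V := V) (fderiv ℝ u z)) ((adjL (F := F) (V := V)) ∘L H) x :=
    (adjL (F := F) (V := V)).hasFDerivAt.comp x h2
  have h4 := h3.clm_comp h2
  have h5 := h4.const_add (ContinuousLinearMap.id ℝ F)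
  have h6 : HasFDerivAt (fun z => gg (fderiv ℝ u z)) _ x := h5
  have h7 := (hasFDerivAt_det (ginv_gg q) (gg_ginv q)).comp x h6
  refine h7.congr_fderiv ?_
  ext1 v
  have e : (((ContinuousLinearMap.compL ℝ F V F) (adjL (fderiv ℝ u x))).comp H +
      ((ContinuousLinearMap.compL ℝ F V F).flip (fderiv ℝ u x)).comp
        ((adjL (F := F) (V := V)) ∘L H)) v = dgg q (H v) := by
    rw [add_comm]
    rfl
  simp only [ContinuousLinearMap.comp_apply, ContinuousLinearMap.smul_apply]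
  rw [lamf_apply, e]
  change (gg q).det • trc F (ginv q ∘L dgg q (H v)) = _
  rw [trc_gi_dgg q (H v) (ginv_adj q), smul_eq_mul, smul_eq_mul]
  ring

/-- derivative of `sqrt (det g)` -/
theorem hasFDerivAt_sqrt_detg {u : F → V} {x : F} (hu : ContDiffAt ℝ 2 u x) :
    HasFDerivAt (fun z => Real.sqrt (gg (fderiv ℝ u z)).det)
      (Real.sqrt (gg (fderiv ℝ u x)).det • lamf (fderiv ℝ u x) (fderiv ℝ (fderiv ℝ u) x)) x := by
  have h1 := hasFDerivAt_detg hu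
  have h2 := h1.sqrt (det_gg_pos _).ne'
  refine h2.congr_fderiv ?_
  rw [smul_smul]
  congr 1
  have h3 : 0 < Real.sqrt (gg (fderiv ℝ u x)).det := Real.sqrt_pos.2 (det_gg_pos _)
  have h4 := Real.mul_self_sqrt (det_gg_pos (fderiv ℝ u x)).le
  field_simp
  nlinarith

end Crest.Agent.R234.GLK_128
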