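import Crest.Agent.R234.Gi4_456
import Crest.Agent.R234.GLK3_128

/-!
# Row 234, node GL-INST (helper456), file 5: the coefficients of `ch` in closed form

* `dyt_eq_DY`, `Gr.hasFDerivAt_Atv`, `Gr.dA_flip` : `(dA z).flip v = DAv …` (helper128's form)
* `Gr.inner_lam` : `⟪lam v, u⟫ = lamf …`
* `Gr.norm_dgi`, `Gr.norm_gi_sub`, `Gr.pt_of` : base data
-/

set_option autoImplicit false

open MeasureTheory Filter Topology Set Function
open scoped ENNReal NNReal ContDiff InnerProductSpace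
open Crest.GeometryTopology.Submanifold Crest.Agent.R234.Vf_884
open Crest.Agent.R234.Main_456
open Crest.Agent.R234.Ell1_3 (adjL ginv gop dns dns_pos dns_contDiff ginv_contDiff)
open Crest.Agent.R234.GLK_128 (A0 AA BB gg hh Fr Inv exists_Inv exists_inv_of_le norm_adj NN DX DY
  DAv Yof Yop Kop lamf)

noncomputable section

namespace Crest.Agent.R234.Gi_456

variable {m n k : ℕ}

local notation "adj" => ContinuousLinearMap.adjoint

variable {π : Euc k →L[ℝ] Euc m} {ρ : Euc k →L[ℝ] Euc n} {x : Euc k} {r : ℝ} {w : Euc m → Euc n}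
  {X0 : Euc m}

theorem Yo_eq_Yop (w : Euc m → Euc n) (X : Euc m) (Y : Euc n) : Yo w X Y = Yop w X Y := rfl

theorem dft_eq_DX (z : Euc k) : dft π ρ x r w z = DX (adj π) (adj ρ)
    (fderiv ℝ w (foot π ρ x r w z)) (Li w (foot π ρ x r w z) (yy π ρ x r w z)) := rfl

/-- decomposition of `Euc k` by the frame -/
theorem exists_frame (h : Gr r w) (hf : Frame π ρ) (X : Euc m) {Y : Euc n} (hY : ‖Y‖ ≤ 2 * r)
    (u : Euc k) : ∃ (a : Euc m) (b : Euc n), At π ρ w X Y a + Bt π ρ w X b = u := by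
  refine ⟨((eqv h hf X hY).symm u).1, ((eqv h hf X hY).symm u).2, ?_⟩
  have h1 := (eqv h hf X hY).apply_symm_apply u
  have h2 : (eqv h hf X hY : (Euc m × Euc n) →L[ℝ] Euc k) ((eqv h hf X hY).symm u) = u := h1
  rw [coe_eqv] at h2
  exact h2

theorem dyt_eq_DY (h : Gr r w) (hf : Frame π ρ) {z : Euc k} (hz : z ∈ tube π ρ x r w) :
    dyt π ρ x r w z = DY (adj π) (adj ρ) (fderiv ℝ w (foot π ρ x r w z))
      (Yop w (foot π ρ x r w z) (yy π ρ x r w z))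
      (Li w (foot π ρ x r w z) (yy π ρ x r w z)) (hinv (fderiv ℝ w (foot π ρ x r w z))) := by
  set X := foot π ρ x r w z with hX
  set Y := yy π ρ x r w z with hYd
  have hY : ‖Y‖ ≤ 2 * r := (h.norm_yy_lt hz).le
  have H := h.inv X hY
  have a1 := GLK_128.DY_AA (frame_fr hf) H
  have a2 := GLK_128.DY_BB (frame_fr hf) H
  ext1 u
  obtain ⟨a, b, rfl⟩ := exists_frame h hf X hY u
  have b1 : dyt π ρ x r w z (At π ρ w X Y a) = 0 := by
    have c1 : ρ (At π ρ w X Y a) = fderiv ℝ w X a :=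
      congrArg (fun T : Euc m →L[ℝ] Euc n => T a) (rho_At (w := w) hf X Y)
    have c2 : dft π ρ x r w z (At π ρ w X Y a) = a :=
      congrArg (fun T : Euc m →L[ℝ] Euc m => T a) (dfx_A h hf X hY)
    rw [dyt, _root_.sub_apply, ContinuousLinearMap.comp_apply, c1, c2, sub_self]
  have b2 : dyt π ρ x r w z (Bt π ρ w X b) = b := by
    have c1 : ρ (Bt π ρ w X b) = b :=
      congrArg (fun T : Euc n →L[ℝ] Euc n => T b) (rho_Bt (w := w) hf X)
    have c2 : dft π ρ x r w z (Bt π ρ w X b) = 0 :=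
      congrArg (fun T : Euc n →L[ℝ] Euc m => T b) (dfx_B h hf X Y)
    rw [dyt, _root_.sub_apply, ContinuousLinearMap.comp_apply, c1, c2, map_zero, sub_zero]
  have b3 : DY (adj π) (adj ρ) (fderiv ℝ w X) (Yop w X Y) (Li w X Y) (hinv (fderiv ℝ w X))
      (At π ρ w X Y a) = 0 := congrArg (fun T : Euc m →L[ℝ] Euc n => T a) a1
  have b4 : DY (adj π) (adj ρ) (fderiv ℝ w X) (Yop w X Y) (Li w X Y) (hinv (fderiv ℝ w X))
      (Bt π ρ w X b) = b := congrArg (fun T : Euc n →L[ℝ] Euc n => T b) a2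
  rw [map_add, map_add, b1, b2, b3, b4]

/-- derivative of the frame field -/
theorem Gr.hasFDerivAt_Atv (h : Gr r w) (hf : Frame π ρ) {z : Euc k} (hz : z ∈ tube π ρ x r w)
    (v : Euc m) :
    HasFDerivAt (fun z => At π ρ w (foot π ρ x r w z) (yy π ρ x r w z) v)
      (DAv (adj π) (adj ρ) (fderiv ℝ w (foot π ρ x r w z))
        (Yop w (foot π ρ x r w z) (yy π ρ x r w z))
        (Li w (foot π ρ x r w z) (yy π ρ x r w z)) (hinv (fderiv ℝ w (foot π ρ x r w z)))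
        (Kop w (foot π ρ x r w z) (yy π ρ x r w z) v)
        (fderiv ℝ (fderiv ℝ w) (foot π ρ x r w z) v)) z := by
  have hX := h.hasFDerivAt_foot hf hz
  have hY := h.hasFDerivAt_yy hf hz
  have eX := dft_eq_DX (π := π) (ρ := ρ) (x := x) (r := r) (w := w) z
  have eY := dyt_eq_DY h hf hz
  set X := foot π ρ x r w z with hXd
  set Y := yy π ρ x r w z with hYd
  have h0 : HasFDerivAt (fderiv ℝ w) (fderiv ℝ (fderiv ℝ w) X) X := (h.differentiable' X).hasFDerivAt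
  have h0' : HasFDerivAt (fderiv ℝ (fderiv ℝ w)) (fderiv ℝ (fderiv ℝ (fderiv ℝ w)) X) X :=
    ((h.cd2.differentiable (by norm_num)) X).hasFDerivAt
  have h1 : HasFDerivAt (fun X => fderiv ℝ w X v) (fderiv ℝ (fderiv ℝ w) X v) X := by
    refine (h0.clm_apply (hasFDerivAt_const v X)).congr_fderiv
      (ContinuousLinearMap.ext fun d => ?_)
    simp [h.symm X d v]
  have hc3 : ContDiffAt ℝ 3 w X := h.cd.contDiffAt.of_le (by norm_num)
  have h2 : HasFDerivAt (fun X => fderiv ℝ (fderiv ℝ w) X v)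
      (fderiv ℝ (fderiv ℝ (fderiv ℝ w)) X v) X := by
    refine (h0'.clm_apply (hasFDerivAt_const v X)).congr_fderiv
      (ContinuousLinearMap.ext fun d => ?_)
    ext1 e
    simp [GLK_128.symm3 hc3 d v e]
  have h3 : HasFDerivAt (fun z => fderiv ℝ w (foot π ρ x r w z) v)
      (fderiv ℝ (fderiv ℝ w) X v ∘L dft π ρ x r w z) z :=
    HasFDerivAt.comp (g := fun X => fderiv ℝ w X v) z h1 hX
  have h4 : HasFDerivAt (fun z => adjL (fderiv ℝ (fderiv ℝ w) (foot π ρ x r w z) v))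
      ((adjL (F := Euc m) (V := Euc n)) ∘L
        (fderiv ℝ (fderiv ℝ (fderiv ℝ w)) X v ∘L dft π ρ x r w z)) z :=
    (adjL (F := Euc m) (V := Euc n)).hasFDerivAt.comp z
      (HasFDerivAt.comp (g := fun X => fderiv ℝ (fderiv ℝ w) X v) z h2 hX)
  have h5 := h4.clm_apply hY
  have h6 : HasFDerivAt (fun z => adj π v + adj ρ (fderiv ℝ w (foot π ρ x r w z) v) -
      adj π (adjL (fderiv ℝ (fderiv ℝ w) (foot π ρ x r w z) v) (yy π ρ x r w z))) _ z :=
    ((hasFDerivAt_const (adj π v) z).add ((adj ρ).hasFDerivAt.comp z h3)).sub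
      ((adj π).hasFDerivAt.comp z h5)
  refine h6.congr_fderiv (ContinuousLinearMap.ext fun d => ?_)
  simp only [DAv, ← eX, ← eY, _root_.sub_apply, _root_.add_apply, ContinuousLinearMap.comp_apply,
    zero_add, map_add, ContinuousLinearMap.flip_apply]
  have e1 : Kop w X Y v (dft π ρ x r w z d) =
      adjL (fderiv ℝ (fderiv ℝ (fderiv ℝ w)) X v (dft π ρ x r w z d)) Y := rfl
  have e2 : adjL (fderiv ℝ (fderiv ℝ w) X v) (dyt π ρ x r w z d) =
      adj (fderiv ℝ (fderiv ℝ w) X v) (dyt π ρ x r w z d) := rfl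
  rw [e1, e2]
  abel

/-- **(ii)** the derivative of the frame field in helper128's form -/
theorem Gr.dA_flip (h : Gr r w) (hf : Frame π ρ) {z : Euc k} (hz : z ∈ tube π ρ x r w)
    (v : Euc m) :
    ((ch π ρ x r w X0).dA z).flip v =
      DAv (adj π) (adj ρ) (fderiv ℝ w (foot π ρ x r w z))
        (Yop w (foot π ρ x r w z) (yy π ρ x r w z))
        (Li w (foot π ρ x r w z) (yy π ρ x r w z)) (hinv (fderiv ℝ w (foot π ρ x r w z)))
        (Kop w (foot π ρ x r w z) (yy π ρ x r w z) (Loi (fderiv ℝ w X0) v))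
        (fderiv ℝ (fderiv ℝ w) (foot π ρ x r w z) (Loi (fderiv ℝ w X0) v)) := by
  have h1 : HasFDerivAt (ch π ρ x r w X0).A ((ch π ρ x r w X0).dA z) z :=
    (h.reg hf X0).hA z hz
  have h2 : HasFDerivAt (fun z => (ch π ρ x r w X0).A z v) (((ch π ρ x r w X0).dA z).flip v) z := by
    refine (h1.clm_apply (hasFDerivAt_const v z)).congr_fderiv
      (ContinuousLinearMap.ext fun d => ?_)
    simp
  exact h2.unique (h.hasFDerivAt_Atv hf hz (Loi (fderiv ℝ w X0) v))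

/-! ### base data -/

theorem dns_eq (q : Euc m →L[ℝ] Euc n) : dns q = Real.sqrt (gg q).det := rfl

theorem Gr.hasFDerivAt_dwpt (h : Gr r w) (X0 v : Euc m) :
    HasFDerivAt (fun v => fderiv ℝ w (pt w X0 v))
      (fderiv ℝ (fderiv ℝ w) (pt w X0 v) ∘L Loi (fderiv ℝ w X0)) v := by
  have h0 : HasFDerivAt (fderiv ℝ w) (fderiv ℝ (fderiv ℝ w) (pt w X0 v)) (pt w X0 v) :=
    (h.differentiable' _).hasFDerivAt
  exact h0.comp v ((Loi (fderiv ℝ w X0)).hasFDerivAt.const_add X0)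

theorem Gr.hasFDerivAt_jB (h : Gr r w) (X0 v : Euc m) :
    HasFDerivAt (jB w X0) (jB w X0 v • (lamf (fderiv ℝ w (pt w X0 v))
      (fderiv ℝ (fderiv ℝ w) (pt w X0 v)) ∘L Loi (fderiv ℝ w X0))) v := by
  have h1 := GLK_128.hasFDerivAt_sqrt_detg (u := w) (x := pt w X0 v)
    (h.cd.contDiffAt.of_le (by norm_num))
  have h2 : HasFDerivAt (pt w X0) (Loi (fderiv ℝ w X0)) v :=
    (Loi (fderiv ℝ w X0)).hasFDerivAt.const_add X0
  have h3 := (h1.comp v h2).mul_const ((Lo (fderiv ℝ w X0)).det)⁻¹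
  have h4 : HasFDerivAt (jB w X0) _ v := h3
  refine h4.congr_fderiv (ContinuousLinearMap.ext fun u => ?_)
  simp only [_root_.smul_apply, ContinuousLinearMap.comp_apply, smul_eq_mul, jB, dns_eq]
  ring

/-- **(iii)** -/
theorem Gr.inner_lam (h : Gr r w) (X0 v u : Euc m) :
    ⟪lamB w X0 v, u⟫_ℝ = lamf (fderiv ℝ w (pt w X0 v))
      (fderiv ℝ (fderiv ℝ w) (pt w X0 v)) (Loi (fderiv ℝ w X0) u) := by
  rw [lamB, ← InnerProductSpace.toDual_apply_apply (𝕜 := ℝ), LinearIsometryEquiv.apply_symm_apply,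
    (h.hasFDerivAt_jB X0 v).fderiv]
  simp only [_root_.smul_apply, ContinuousLinearMap.comp_apply, smul_eq_mul]
  rw [← mul_assoc, inv_mul_cancel₀ (jB_pos w X0 v).ne', one_mul]

theorem pt_x (w : Euc m → Euc n) (X0 X : Euc m) :
    pt w X0 (Lo (fderiv ℝ w X0) (X - X0)) = X := by
  rw [pt, Loi_Lo]; abel

theorem norm_ginv_le (q : Euc m →L[ℝ] Euc n) : ‖ginv q‖ ≤ 1 :=
  ContinuousLinearMap.opNorm_le_bound _ zero_le_one fun v => by
    have h1 := GLK_128.le_gg q (ginv q v)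
    have h2 : gg q (ginv q v) = v := congrArg (fun T : L m => T v) (GLK_128.gg_ginv q)
    rw [h2] at h1
    rwa [one_mul]

theorem norm_Lo_op {q : Euc m →L[ℝ] Euc n} (hq : ‖q‖ ≤ 1 / 8) : ‖Lo q‖ ≤ 65 / 64 :=
  ContinuousLinearMap.opNorm_le_bound _ (by norm_num) fun v => norm_Lo_le hq v

/-- derivative of `ginv` along a map -/
theorem hasFDerivAt_ginv (q : Euc m →L[ℝ] Euc n) :
    ∃ T : (Euc m →L[ℝ] Euc n) →L[ℝ] L m, HasFDerivAt ginv T q ∧
      ∀ S, T S = -(ginv q ∘L GLK_128.dgg q S ∘L ginv q) := by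
  have h1 : DifferentiableAt ℝ (ginv : (Euc m →L[ℝ] Euc n) → L m) q :=
    (ginv_contDiff.differentiable (by simp)) q
  refine ⟨fderiv ℝ ginv q, h1.hasFDerivAt, fun S => ?_⟩
  have hl : HasDerivAt (fun t : ℝ => q + t • S) S 0 := by
    simpa using ((hasDerivAt_id (0 : ℝ)).smul_const S).const_add q
  have e0 : q + (0 : ℝ) • S = q := by
    ext1 u
    rw [_root_.add_apply, _root_.smul_apply]
    exact (congrArg (fun y => q u + y) (zero_smul ℝ (S u))).trans (add_zero _)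
  have h2 : HasDerivAt (fun t : ℝ => (ginv (q + t • S) : L m)) (fderiv ℝ ginv q S) 0 := by
    have h3 : HasFDerivAt (ginv : (Euc m →L[ℝ] Euc n) → L m) (fderiv ℝ ginv q)
        (q + (0 : ℝ) • S) := by
      rw [e0]; exact h1.hasFDerivAt
    exact h3.comp_hasDerivAt (0 : ℝ) hl
  have h4 := GLK_128.hasDerivAt_ginv hl
  rw [e0] at h4
  exact h2.unique h4

theorem norm_dginv (q S : Euc m →L[ℝ] Euc n) :
    ‖ginv q ∘L GLK_128.dgg q S ∘L ginv q‖ ≤ 2 * (‖q‖ * ‖S‖) := by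
  have h1 : ‖GLK_128.dgg q S‖ ≤ 2 * (‖q‖ * ‖S‖) := by
    refine (norm_add_le _ _).trans ?_
    have a1 : ‖adj S ∘L q‖ ≤ ‖S‖ * ‖q‖ := by
      refine (ContinuousLinearMap.opNorm_comp_le _ _).trans (le_of_eq ?_)
      rw [show ‖adj S‖ = ‖S‖ from LinearIsometryEquiv.norm_map _ _]
    have a2 : ‖adj q ∘L S‖ ≤ ‖q‖ * ‖S‖ := by
      refine (ContinuousLinearMap.opNorm_comp_le _ _).trans (le_of_eq ?_)
      rw [show ‖adj q‖ = ‖q‖ from LinearIsometryEquiv.norm_map _ _]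
    linarith
  have h0 : 0 ≤ 2 * (‖q‖ * ‖S‖) := by positivity
  calc ‖ginv q ∘L GLK_128.dgg q S ∘L ginv q‖ ≤ 1 * ((2 * (‖q‖ * ‖S‖)) * 1) :=
        GLK_128.ncomp (norm_ginv_le q) (GLK_128.ncomp h1 (norm_ginv_le q))
    _ = 2 * (‖q‖ * ‖S‖) := by ring

/-- **(iv)** derivative of the base metric -/
theorem Gr.norm_dgi (h : Gr r w) (X0 v : Euc m) :
    ‖fderiv ℝ (giB w X0) v‖ ≤
      3 * (‖fderiv ℝ w (pt w X0 v)‖ * ‖fderiv ℝ (fderiv ℝ w) (pt w X0 v)‖) := by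
  obtain ⟨T, hT, hT2⟩ := hasFDerivAt_ginv (fderiv ℝ w (pt w X0 v))
  have h1 := hT.comp v (h.hasFDerivAt_dwpt X0 v)
  set q0 := fderiv ℝ w X0 with hq0
  set q := fderiv ℝ w (pt w X0 v) with hq
  set H := fderiv ℝ (fderiv ℝ w) (pt w X0 v) with hH
  have hL := norm_Lo_op (h.d1 X0)
  rw [← hq0] at hL
  have hL' : ‖adj (Lo q0)‖ ≤ 65 / 64 := by
    rw [show ‖adj (Lo q0)‖ = ‖Lo q0‖ from LinearIsometryEquiv.norm_map _ _]; exact hL
  refine ContinuousLinearMap.opNorm_le_bound _ (by positivity) fun u => ?_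
  -- derivative along the line
  have hl : HasDerivAt (fun t : ℝ => v + t • u) u 0 := by
    simpa using ((hasDerivAt_id (0 : ℝ)).smul_const u).const_add v
  have e0 : v + (0 : ℝ) • u = v := by simp
  have h2 : HasDerivAt (fun t : ℝ => giB w X0 (v + t • u)) (fderiv ℝ (giB w X0) v u) 0 := by
    have h3 : HasFDerivAt (giB w X0) (fderiv ℝ (giB w X0) v) (v + (0 : ℝ) • u) := by
      rw [e0]; exact (((h.contDiff_gi X0).differentiable (by norm_num)) v).hasFDerivAt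
    exact h3.comp_hasDerivAt (0 : ℝ) hl
  have h4 : HasDerivAt (fun t : ℝ => (ginv (fderiv ℝ w (pt w X0 (v + t • u))) : L m))
      (T (H (Loi q0 u))) 0 := by
    have h3 : HasFDerivAt (fun v => (ginv (fderiv ℝ w (pt w X0 v)) : L m))
        (T ∘L (H ∘L Loi q0)) (v + (0 : ℝ) • u) := by
      rw [e0]; exact h1
    exact h3.comp_hasDerivAt (0 : ℝ) hl
  have h5 : HasDerivAt (fun t : ℝ => Lo q0 ∘L ((ginv (fderiv ℝ w (pt w X0 (v + t • u))) : L m) ∘L
      adj (Lo q0))) (Lo q0 ∘L (T (H (Loi q0 u)) ∘L adj (Lo q0))) 0 := by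
    have a1 := h4.clm_comp (hasDerivAt_const (0 : ℝ) (adj (Lo q0)))
    have a2 := (hasDerivAt_const (0 : ℝ) (Lo q0)).clm_comp a1
    refine a2.congr_deriv ?_
    simp
  have h6 : fderiv ℝ (giB w X0) v u = Lo q0 ∘L (T (H (Loi q0 u)) ∘L adj (Lo q0)) := h2.unique h5
  rw [h6, hT2]
  have h7 : ‖-(ginv q ∘L GLK_128.dgg q (H (Loi q0 u)) ∘L ginv q)‖ ≤ 2 * (‖q‖ * (‖H‖ * ‖u‖)) := by
    rw [norm_neg]
    refine (norm_dginv _ _).trans ?_
    have : ‖H (Loi q0 u)‖ ≤ ‖H‖ * ‖u‖ := by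
      refine (H.le_opNorm _).trans (mul_le_mul_of_nonneg_left ?_ (norm_nonneg _))
      calc ‖Loi q0 u‖ ≤ ‖Loi q0‖ * ‖u‖ := ContinuousLinearMap.le_opNorm _ _
        _ ≤ 1 * ‖u‖ := by gcongr; exact (Loi_spec q0).2.2
        _ = ‖u‖ := one_mul _
    gcongr
  have h8 : 0 ≤ ‖q‖ * (‖H‖ * ‖u‖) := by positivity
  calc _ ≤ 65 / 64 * ((2 * (‖q‖ * (‖H‖ * ‖u‖))) * (65 / 64)) :=
        GLK_128.ncomp hL (GLK_128.ncomp h7 hL')
    _ ≤ 3 * (‖q‖ * ‖H‖) * ‖u‖ := by nlinarith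

/-- the base metric near the centre -/
theorem Gr.norm_gi_sub (h : Gr r w) (X0 : Euc m) {c : ℝ} {v : Euc m}
    (hc : ∀ u, ‖u‖ ≤ ‖v‖ →
      3 * (‖fderiv ℝ w (pt w X0 u)‖ * ‖fderiv ℝ (fderiv ℝ w) (pt w X0 u)‖) ≤ c) :
    ‖giB w X0 v - ContinuousLinearMap.id ℝ (Euc m)‖ ≤ c * ‖v‖ := by
  have h1 := Convex.norm_image_sub_le_of_norm_fderiv_le (𝕜 := ℝ) (f := giB w X0) (C := c)
    (s := Metric.closedBall (0 : Euc m) ‖v‖) (x := 0) (y := v)
    (fun u _ => ((h.contDiff_gi X0).differentiable (by norm_num)) u)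
    (fun u hu => (h.norm_dgi X0 u).trans (hc u (mem_closedBall_zero_iff.1 hu)))
    (convex_closedBall _ _) (by simp) (by simp)
  rwa [giB_zero, sub_zero] at h1

/-- **`Pt`** : all estimates of file 3 hold with `c = 3 |Dw| |D²w|` -/
theorem Gr.pt_of (h : Gr r w) (X0 : Euc m) {c : ℝ} {v : Euc m} (hs : c * ‖v‖ ≤ 1 / 4)
    (hc : ∀ u, ‖u‖ ≤ ‖v‖ →
      3 * (‖fderiv ℝ w (pt w X0 u)‖ * ‖fderiv ℝ (fderiv ℝ w) (pt w X0 u)‖) ≤ c) :
    Pt (giB w X0) c v (fderiv ℝ (giB w X0) v) where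
  der := (((h.contDiff_gi X0).differentiable (by norm_num)) v).hasFDerivAt
  c0 := le_trans (by positivity) (hc 0 (by simp))
  bd := (h.norm_dgi X0 v).trans (hc v le_rfl)
  sub := h.norm_gi_sub X0 hc
  small := hs

theorem norm_inner_lam (h : Gr r w) (X0 v u : Euc m) :
    |⟪lamB w X0 v, u⟫_ℝ| ≤
      m * (‖fderiv ℝ w (pt w X0 v)‖ * ‖fderiv ℝ (fderiv ℝ w) (pt w X0 v)‖ * ‖u‖) := by
  rw [h.inner_lam]
  refine (GLK_128.abs_lamf_le _ _ _ (norm_ginv_le _)).trans ?_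
  rw [finrank_euclideanSpace, Fintype.card_fin]
  have : ‖Loi (fderiv ℝ w X0) u‖ ≤ ‖u‖ := by
    calc ‖Loi (fderiv ℝ w X0) u‖ ≤ ‖Loi (fderiv ℝ w X0)‖ * ‖u‖ :=
          ContinuousLinearMap.le_opNorm _ _
      _ ≤ 1 * ‖u‖ := by gcongr; exact (Loi_spec _).2.2
      _ = ‖u‖ := one_mul _
  gcongr

theorem Gr.norm_lam (h : Gr r w) (X0 v : Euc m) :
    ‖lamB w X0 v‖ ≤
      m * (‖fderiv ℝ w (pt w X0 v)‖ * ‖fderiv ℝ (fderiv ℝ w) (pt w X0 v)‖) := by
  have h1 := norm_inner_lam h X0 v (lamB w X0 v)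
  rw [real_inner_self_eq_norm_sq, abs_of_nonneg (by positivity)] at h1
  by_cases h0 : ‖lamB w X0 v‖ = 0
  · rw [h0]; positivity
  · have h2 : 0 < ‖lamB w X0 v‖ := lt_of_le_of_ne (norm_nonneg _) (Ne.symm h0)
    have h3 : ‖lamB w X0 v‖ * ‖lamB w X0 v‖ ≤
      (m * (‖fderiv ℝ w (pt w X0 v)‖ * ‖fderiv ℝ (fderiv ℝ w) (pt w X0 v)‖)) *
        ‖lamB w X0 v‖ := by nlinarith
    exact le_of_mul_le_mul_right h3 h2

end Crest.Agent.R234.Gi_456
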