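import Crest.Agent.R234.Gi5_456

/-!
# Row 234, node GL-INST (helper456), file 6: base data of `ch` at all `‖v‖ ≤ s`
-/

set_option autoImplicit false

open MeasureTheory Filter Topology Set Function
open scoped ENNReal NNReal ContDiff InnerProductSpace
open Crest.GeometryTopology.Submanifold Crest.Agent.R234.Vf_884
open Crest.Agent.R234.Main_456

noncomputable section

namespace Crest.Agent.R234.Gi_456

variable {m n k : ℕ}

variable {π : Euc k →L[ℝ] Euc m} {ρ : Euc k →L[ℝ] Euc n} {x : Euc k} {r : ℝ} {w : Euc m → Euc n}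
  {X0 : Euc m}

theorem tr_id' : tr (ContinuousLinearMap.id ℝ (Euc m)) = m := tr_one

/-- hypotheses of the base estimates on the ball of radius `s` -/
structure Bs (w : Euc m → Euc n) (X0 : Euc m) (c s : ℝ) : Prop where
  small : c * s ≤ 1 / 4
  bd : ∀ u : Euc m, ‖u‖ ≤ s →
    3 * (‖fderiv ℝ w (pt w X0 u)‖ * ‖fderiv ℝ (fderiv ℝ w) (pt w X0 u)‖) ≤ c

variable {c s : ℝ} {v : Euc m}

theorem Bs.c0 (b : Bs w X0 c s) (hs : 0 ≤ s) : 0 ≤ c :=
  le_trans (by positivity) (b.bd 0 (by simpa using hs))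

theorem Bs.pt (b : Bs w X0 c s) (h : Gr r w) (hv : ‖v‖ ≤ s) :
    Pt (giB w X0) c v (fderiv ℝ (giB w X0) v) :=
  h.pt_of X0 ((mul_le_mul_of_nonneg_left hv (b.c0 ((norm_nonneg _).trans hv))).trans b.small)
    fun u hu => b.bd u (hu.trans hv)

theorem Bs.norm_dbe (b : Bs w X0 c s) (h : Gr r w) (hv : ‖v‖ ≤ s) :
    ‖fderiv ℝ (beG (giB w X0)) v - ContinuousLinearMap.id ℝ (Euc m)‖ ≤ 17 * c * ‖v‖ := by
  by_cases h0 : v = 0
  · have h1 := hasFDerivAt_be_zero (G := giB w X0) ((h.contDiff_gi X0).of_le (by norm_num))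
      (giB_zero w X0)
    rw [h0, h1.fderiv]
    simp
  · have hp := b.pt h hv
    have h1 := hasFDerivAt_be_of_ne hp.der h0
      (muG_pos (G := giB w X0) (fun v u hu => giB_pos w X0 v u hu) v).ne'
    rw [h1.fderiv]
    exact hp.norm_dbe_sub h0

theorem Bs.norm_lam (b : Bs w X0 c s) (h : Gr r w) (hv : ‖v‖ ≤ s) :
    ‖lamB w X0 v‖ ≤ m * (c / 3) := by
  refine (h.norm_lam X0 v).trans (mul_le_mul_of_nonneg_left ?_ (Nat.cast_nonneg m))
  have := b.bd v hv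
  linarith

theorem Bs.abs_th (b : Bs w X0 c s) (h : Gr r w) (hv : ‖v‖ ≤ s) :
    |GL_394.th (ch π ρ x r w X0) v| ≤ 18 * m * c * ‖v‖ := by
  have hc := b.c0 ((norm_nonneg _).trans hv)
  have hp := b.pt h hv
  have h1 : GL_394.th (ch π ρ x r w X0) v =
      tr (fderiv ℝ (beG (giB w X0)) v - ContinuousLinearMap.id ℝ (Euc m)) +
        ⟪lamB w X0 v, beG (giB w X0) v⟫_ℝ := by
    rw [map_sub, tr_id']
    show tr (fderiv ℝ (beG (giB w X0)) v) + ⟪lamB w X0 v, beG (giB w X0) v⟫_ℝ - m = _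
    ring
  rw [h1]
  refine (abs_add_le _ _).trans ?_
  have h2 := (GL_394.abs_tr_le (fderiv ℝ (beG (giB w X0)) v -
    ContinuousLinearMap.id ℝ (Euc m))).trans
    (mul_le_mul_of_nonneg_left (b.norm_dbe h hv) (Nat.cast_nonneg m))
  have h3 : |⟪lamB w X0 v, beG (giB w X0) v⟫_ℝ| ≤ m * (c / 3) * (2 * ‖v‖) :=
    (abs_real_inner_le_norm _ _).trans (mul_le_mul (b.norm_lam h hv) hp.norm_be_le
      (norm_nonneg _) (by positivity))
  have h4 : 0 ≤ m * (c * ‖v‖) := by positivity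
  nlinarith

theorem Bs.norm_dgv (b : Bs w X0 c s) (h : Gr r w) (hv : ‖v‖ ≤ s) :
    ‖GL_394.dgv (ch π ρ x r w X0) v - ContinuousLinearMap.id ℝ (Euc m)‖ ≤ 2 * c * ‖v‖ := by
  have hp := b.pt h hv
  have h1 : GL_394.dgv (ch π ρ x r w X0) v - ContinuousLinearMap.id ℝ (Euc m) =
      (giB w X0 v - ContinuousLinearMap.id ℝ (Euc m)) + (fderiv ℝ (giB w X0) v).flip v := by
    show giB w X0 v + (fderiv ℝ (giB w X0) v).flip v - ContinuousLinearMap.id ℝ (Euc m) = _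
    abel
  rw [h1]
  refine (norm_add_le _ _).trans ?_
  have h2 : ‖(fderiv ℝ (giB w X0) v).flip v‖ ≤ c * ‖v‖ := by
    calc ‖(fderiv ℝ (giB w X0) v).flip v‖ ≤ ‖(fderiv ℝ (giB w X0) v).flip‖ * ‖v‖ :=
          ContinuousLinearMap.le_opNorm _ _
      _ = ‖fderiv ℝ (giB w X0) v‖ * ‖v‖ := by rw [ContinuousLinearMap.opNorm_flip]
      _ ≤ c * ‖v‖ := by gcongr; exact hp.bd
  linarith [hp.sub]

theorem Bs.abs_th3 (b : Bs w X0 c s) (h : Gr r w) (hv : ‖v‖ ≤ s) :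
    |GL_394.th3 (ch π ρ x r w X0) v| ≤ 4 * m * c * ‖v‖ := by
  have hc := b.c0 ((norm_nonneg _).trans hv)
  have hp := b.pt h hv
  have h1 : GL_394.th3 (ch π ρ x r w X0) v =
      tr (GL_394.dgv (ch π ρ x r w X0) v - ContinuousLinearMap.id ℝ (Euc m)) +
        ⟪lamB w X0 v, giB w X0 v v⟫_ℝ + -(m * (muG (giB w X0) v - 1)) := by
    rw [map_sub, tr_id']
    show tr (GL_394.dgv (ch π ρ x r w X0) v) + ⟪lamB w X0 v, giB w X0 v v⟫_ℝ -
      m * muG (giB w X0) v = _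
    ring
  rw [h1]
  refine (abs_add_le _ _).trans (add_le_add (abs_add_le _ _) le_rfl |>.trans ?_)
  have h2 := (GL_394.abs_tr_le (GL_394.dgv (ch π ρ x r w X0) v -
    ContinuousLinearMap.id ℝ (Euc m))).trans
    (mul_le_mul_of_nonneg_left (b.norm_dgv h hv) (Nat.cast_nonneg m))
  have h3 : |⟪lamB w X0 v, giB w X0 v v⟫_ℝ| ≤ m * (c / 3) * (5 / 4 * ‖v‖) :=
    (abs_real_inner_le_norm _ _).trans (mul_le_mul (b.norm_lam h hv) (hp.norm_Gv v)
      (norm_nonneg _) (by positivity))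
  have h5 : |-(m * (muG (giB w X0) v - 1))| ≤ m * (c * ‖v‖) := by
    rw [abs_neg, abs_mul, Nat.abs_cast]
    exact mul_le_mul_of_nonneg_left hp.abs_mu_sub (Nat.cast_nonneg m)
  have h4 : 0 ≤ m * (c * ‖v‖) := by positivity
  nlinarith

/-- **base fields of `KB`** -/
theorem Bs.all (b : Bs w X0 c s) (h : Gr r w) (hv : ‖v‖ ≤ s) :
    |GL_394.th (ch π ρ x r w X0) v| ≤ 18 * (m + 1) * (c * s) ∧
    |GL_394.th3 (ch π ρ x r w X0) v| ≤ 18 * (m + 1) * (c * s) ∧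
    ‖(ch π ρ x r w X0).dbe v - ContinuousLinearMap.id ℝ (Euc m)‖ ≤ 18 * (m + 1) * (c * s) ∧
    3 / 4 ≤ (ch π ρ x r w X0).mu v ∧ ‖(ch π ρ x r w X0).gi v‖ ≤ 2 ∧
    ‖GL_394.dgv (ch π ρ x r w X0) v‖ ≤ 2 := by
  have hs : 0 ≤ s := (norm_nonneg _).trans hv
  have hc := b.c0 hs
  have hp := b.pt h hv
  have hcs : c * ‖v‖ ≤ c * s := mul_le_mul_of_nonneg_left hv hc
  have h0 : 0 ≤ c * ‖v‖ := by positivity
  have hm : (0 : ℝ) ≤ m := Nat.cast_nonneg m
  have hid : ‖ContinuousLinearMap.id ℝ (Euc m)‖ ≤ 1 := ContinuousLinearMap.norm_id_le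
  refine ⟨?_, ?_, ?_, hp.mu_ge, ?_, ?_⟩
  · refine (b.abs_th h hv).trans ?_
    nlinarith [mul_le_mul_of_nonneg_left hcs hm]
  · refine (b.abs_th3 h hv).trans ?_
    nlinarith [mul_le_mul_of_nonneg_left hcs hm, mul_nonneg hm h0]
  · refine (b.norm_dbe h hv).trans ?_
    nlinarith [mul_nonneg hm (h0.trans hcs)]
  · have h1 := norm_le_norm_add_norm_sub' (giB w X0 v) (ContinuousLinearMap.id ℝ (Euc m))
    have h2 := hp.sub
    have h3 := hp.small
    show ‖giB w X0 v‖ ≤ 2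
    linarith
  · have h1 := norm_le_norm_add_norm_sub' (GL_394.dgv (ch π ρ x r w X0) v)
      (ContinuousLinearMap.id ℝ (Euc m))
    have h2 := b.norm_dgv (π := π) (ρ := ρ) (x := x) h hv
    have h3 := hp.small
    linarith

end Crest.Agent.R234.Gi_456
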