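import Crest.Agent.R234.Ng1_290

/-!
# Row 234, node F7-GL, part 2 (helper290)

Window `[lo, cT - 1/K]` for one reference: heights and energies below the collar are controlled by
the height `II` at the top level `cT` (`Sup` = 685's (S1), (S2)); transfer between the compact sets
`Kt` (top, crude heights) and `Kh` (heights controlled by the excess).
-/

set_option autoImplicit false

open MeasureTheory Set Function Filter Topology
open Crest.GeometryTopology.Submanifold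
open Crest.Agent.R234.Vf_884 Crest.Agent.R234.Ar_870
open Crest.Agent.R234.GL_394
open scoped ENNReal NNReal InnerProductSpace

noncomputable section

namespace Crest.Agent.R234.Ng_290

variable {m k : ℕ} {c : Ch m k} {K Kt Kh W U : Set (Euc k)} {D : Set (Euc m)}
  {V : Measure (Euc k × L k)} {g g1 g2 : ℝ → ℝ} {Q c0 d0 hh C0 C1 B l : ℝ} {zN : Euc k → Euc k}

/-- the sharp region `{|x| ≤ t}` -/
def Sr (c : Ch m k) (t : ℝ) : Set (Euc k × L k) := {p | ‖c.x p.1‖ ≤ t}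

/-- sharp height excess `∫_{|x| ≤ t} |nu|²` -/
def HH (c : Ch m k) (V : Measure (Euc k × L k)) (t : ℝ) : ℝ := ∫ p in Sr c t, 2 * c.f p.1 ∂V

/-- 685's (S1), (S2) with outer radius `e^(cT - 1/(2N))` -/
structure Sup (c : Ch m k) (V : Measure (Euc k × L k)) (cT N C1 : ℝ) : Prop where
  C1n : 0 ≤ C1
  s1 : ∀ᵐ p ∂V, ‖c.x p.1‖ ≤ Real.exp (cT - 3 / (4 * N)) → 2 * c.f p.1 ≤
    C1 * ((Real.exp (cT - 1 / (2 * N)) - Real.exp (cT - 3 / (4 * N)))⁻¹) ^ m *
      HH c V (Real.exp (cT - 1 / (2 * N)))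
  s2 : ∀ s, 0 < s → s ≤ Real.exp (cT - 3 / (4 * N)) →
    ∫ p in Sr c s, c.tau p.1 p.2 ∂V ≤ C1 * ((Real.exp (cT - 1 / (2 * N)) - s)⁻¹) ^ 2 *
      HH c V (Real.exp (cT - 1 / (2 * N)))

/-! ### transfer between compact sets -/

/-- `Kh ⊆ Kt` carries everything in `{|x| ≤ e^L}` -/
structure Sub (c : Ch m k) (V : Measure (Euc k × L k)) (Kt Kh : Set (Euc k)) (L : ℝ) : Prop where
  cpt : IsCompact Kt
  cph : IsCompact Kh
  sub : Kh ⊆ Kt
  cx : ContinuousOn c.x Kt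
  ae : ∀ᵐ p ∂V, p.1 ∈ Kt → ‖c.x p.1‖ ≤ Real.exp L → p.1 ∈ Kh

theorem res_aux (hK : IsCompact K) (hc : ContinuousOn c.x K) (t : ℝ) :
    (VK V K).restrict (Sr c t) = V.restrict ((K ×ˢ univ) ∩ Sr c t) := by
  have hcl : IsClosed ((K ×ˢ (univ : Set (Vf_884.L k))) ∩ Sr c t) := by
    have h1 : IsClosed (K ×ˢ (univ : Set (Vf_884.L k))) := hK.isClosed.prod isClosed_univ
    have h2 : ContinuousOn (fun p : Euc k × Vf_884.L k => ‖c.x p.1‖) (K ×ˢ univ) :=
      (hc.comp continuousOn_fst (fun p hp => hp.1)).norm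
    exact h2.preimage_isClosed_of_isClosed h1 isClosed_Iic
  have hm : MeasurableSet (K ×ˢ (univ : Set (Vf_884.L k))) :=
    (hK.isClosed.prod isClosed_univ).measurableSet
  have h3 : (VK V K).restrict (Sr c t) = (VK V K).restrict ((K ×ˢ univ) ∩ Sr c t) := by
    refine Measure.restrict_congr_set ?_
    unfold VK
    filter_upwards [ae_restrict_mem hm] with p hp
    exact propext ⟨fun h1 => ⟨hp, h1⟩, fun h1 => h1.2⟩
  rw [h3]
  unfold VK
  rw [Measure.restrict_restrict hcl.measurableSet]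
  congr 1
  ext p
  constructor
  · exact fun h => h.1
  · exact fun h => ⟨h, h.1⟩

theorem Sub.res {L : ℝ} (h : Sub c V Kt Kh L) {t : ℝ} (ht : t ≤ Real.exp L) :
    (VK V Kh).restrict (Sr c t) = (VK V Kt).restrict (Sr c t) := by
  rw [res_aux h.cph (h.cx.mono h.sub), res_aux h.cpt h.cx]
  refine Measure.restrict_congr_set ?_
  filter_upwards [h.ae] with p hp
  refine propext ⟨fun h1 => ⟨⟨h.sub h1.1.1, h1.1.2⟩, h1.2⟩, fun h1 => ⟨⟨?_, h1.1.2⟩, h1.2⟩⟩
  exact hp h1.1.1 (le_trans h1.2 ht)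

theorem Sub.int_eq {L : ℝ} (h : Sub c V Kt Kh L) {t : ℝ} (ht : t ≤ Real.exp L)
    {F : Euc k × Vf_884.L k → ℝ} (hF : ∀ p, ¬ ‖c.x p.1‖ ≤ t → F p = 0) :
    ∫ p, F p ∂(VK V Kh) = ∫ p, F p ∂(VK V Kt) := by
  have h1 : ∀ p, p ∉ Sr c t → F p = 0 := fun p hp => hF p hp
  rw [← setIntegral_eq_integral_of_forall_compl_eq_zero (μ := VK V Kh) h1,
    h.res ht, setIntegral_eq_integral_of_forall_compl_eq_zero h1]

theorem Sub.int_ker {L : ℝ} (h : Sub c V Kt Kh L) (hl : l ≤ L) {q : ℝ → ℝ}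
    (hq : ∀ t, 1 ≤ t → q t = 0) (F : Euc k × Vf_884.L k → ℝ) :
    ∫ p, F p * q (Real.exp (-2 * l) * ‖c.x p.1‖ ^ 2) ∂(VK V Kh) =
      ∫ p, F p * q (Real.exp (-2 * l) * ‖c.x p.1‖ ^ 2) ∂(VK V Kt) := by
  refine h.int_eq (t := Real.exp l) (Real.exp_le_exp.2 hl) fun p hp => ?_
  rw [hq _ (t_ge hp), mul_zero]

section
variable {L : ℝ} (h : Sub c V Kt Kh L) (hp : Pf g g1 g2 B) (hl : l ≤ L)
include h hp hl

theorem Sub.EE_eq : EE c (VK V Kh) g Q l = EE c (VK V Kt) g Q l := by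
  unfold EE
  rw [h.int_ker hl hp.pr.k0.zero]

theorem Sub.ee_eq' : ee c (VK V Kh) g l = ee c (VK V Kt) g l := by
  unfold ee
  rw [h.int_ker hl hp.pr.k0.zero]

theorem Sub.bb_eq : bb c (VK V Kh) g Q l = bb c (VK V Kt) g Q l := by
  unfold bb
  rw [h.EE_eq hp hl, h.ee_eq' hp hl]

theorem Sub.II_eq' : II c (VK V Kh) g1 l = II c (VK V Kt) g1 l := by
  unfold II
  rw [h.int_ker hl (q := fun t => -4 * g1 t) (fun t ht => by rw [hp.pr.k1.zero t ht]; ring)]

theorem Sub.RT_eq : RT c (VK V Kh) g1 l = RT c (VK V Kt) g1 l := by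
  unfold RT
  rw [h.int_ker hl (q := fun t => -2 * g1 t) (fun t ht => by rw [hp.pr.k1.zero t ht]; ring)]

theorem Sub.er1a_eq : er1a c (VK V Kh) g Q l = er1a c (VK V Kt) g Q l := by
  unfold er1a
  rw [h.int_ker hl hp.pr.k0.zero]

omit hp in
theorem Sub.OO_eq : OO c (VK V Kh) l = OO c (VK V Kt) l := by
  have h1 := h.res (Real.exp_le_exp.2 hl)
  unfold Sr at h1
  unfold OO
  rw [h1]

theorem Sub.RF_eq : RF c (VK V Kh) g1 B c0 d0 l = RF c (VK V Kt) g1 B c0 d0 l := by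
  unfold RF
  rw [h.RT_eq hp hl, h.II_eq' hp hl, h.OO_eq hl]

end

theorem Sub.out {L : ℝ} (h : Sub c V Kt Kh L) (hp : Pf g g1 g2 B) (hl : l < L)
    {C₁ δ ω : ℝ}
    (ho : Out1 C₁ δ ω (II c (VK V Kh) g1) (EE c (VK V Kh) g Q) (ee c (VK V Kh) g)
      (bb c (VK V Kh) g Q) (RF c (VK V Kh) g1 B c0 d0) l) :
    Out1 C₁ δ ω (II c (VK V Kt) g1) (EE c (VK V Kt) g Q) (ee c (VK V Kt) g)
      (bb c (VK V Kt) g Q) (RF c (VK V Kt) g1 B c0 d0) l := by
  refine ho.congr ?_ ?_ (h.ee_eq' hp hl.le).symm (h.bb_eq hp hl.le).symm (h.RF_eq hp hl.le).symm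
  · filter_upwards [Iio_mem_nhds hl] with l' hl'
    exact (h.II_eq' hp (le_of_lt hl')).symm
  · filter_upwards [Iio_mem_nhds hl] with l' hl'
    exact (h.EE_eq hp (le_of_lt hl')).symm

/-! ### heights below the collar -/

/-- points of `Kt` with `|nu|² ≤ h2` and `|x| ≤ e^L` -/
def Kc (c : Ch m k) (Kt : Set (Euc k)) (h2 L : ℝ) : Set (Euc k) :=
  {z | z ∈ Kt ∧ 2 * c.f z ≤ h2 ∧ ‖c.x z‖ ≤ Real.exp L}

theorem Kc_compact (h : Ok c Kt D) (h2 L : ℝ) : IsCompact (Kc c Kt h2 L) := by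
  have e1 : IsClosed {z | z ∈ Kt ∧ 2 * c.f z ∈ Iic h2} :=
    (continuousOn_const.mul h.cf).preimage_isClosed_of_isClosed h.cpt.isClosed isClosed_Iic
  have e2 : IsClosed {z | z ∈ Kt ∧ ‖c.x z‖ ∈ Iic (Real.exp L)} :=
    h.cx.norm.preimage_isClosed_of_isClosed h.cpt.isClosed isClosed_Iic
  refine h.cpt.of_isClosed_subset (?_ : IsClosed (Kc c Kt h2 L)) (fun z hz => hz.1)
  have e3 : Kc c Kt h2 L = {z | z ∈ Kt ∧ 2 * c.f z ∈ Iic h2} ∩
      {z | z ∈ Kt ∧ ‖c.x z‖ ∈ Iic (Real.exp L)} := by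
    ext z
    simp only [Kc, mem_ofPred_eq, mem_inter_iff, mem_Iic]
    tauto
  rw [e3]
  exact e1.inter e2

theorem loc_Kc {LT L h2 : ℝ} (hr : Reg c W D) (h : Loc c U W Kt V LT) (hL : L ≤ LT)
    (hae : ∀ᵐ p ∂(VK V Kt), ‖c.x p.1‖ ≤ Real.exp L → 2 * c.f p.1 ≤ h2) :
    Loc c U W (Kc c Kt h2 L) V L ∧ Sub c V Kt (Kc c Kt h2 L) L := by
  have hok : Ok c Kt D := hr.ok h.cpt (h.sub.trans inter_subset_left)
  have hm : MeasurableSet (Kt ×ˢ (univ : Set (Vf_884.L k))) :=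
    (h.cpt.isClosed.prod isClosed_univ).measurableSet
  have hae' : ∀ᵐ p ∂V, p.1 ∈ Kt → ‖c.x p.1‖ ≤ Real.exp L → p.1 ∈ Kc c Kt h2 L := by
    unfold VK at hae
    rw [ae_restrict_iff' hm] at hae
    filter_upwards [hae] with p hp h1 h3
    exact ⟨h1, hp ⟨h1, trivial⟩ h3, h3⟩
  refine ⟨⟨h.st, h.opU, Kc_compact hok h2 L, fun z hz => h.sub hz.1, ?_⟩,
    ⟨h.cpt, Kc_compact hok h2 L, fun z hz => hz.1, hok.cx, hae'⟩⟩
  filter_upwards [h.gap, hae'] with p h1 h3 hW hx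
  exact h3 (h1 hW (hx.trans (Real.exp_le_exp.2 hL))) hx

/-! ### everything below the collar by the height at the top -/

theorem one_sub_exp_ge {u : ℝ} (hu : 0 ≤ u) (hu1 : u ≤ 1) : u / 2 ≤ 1 - Real.exp (-u) := by
  have h1 : Real.exp (-u) ≤ 1 / (1 + u) := by
    rw [Real.exp_neg, le_div_iff₀ (by linarith), inv_mul_le_iff₀ (Real.exp_pos _), mul_one]
    linarith [Real.add_one_le_exp u]
  have h2 : 1 / (1 + u) ≤ 1 - u / 2 := by
    rw [div_le_iff₀ (by linarith)]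
    nlinarith
  linarith

theorem HH_le_II (h : Ok c Kt D) (hV : On V m Kt) (hp : Pf g g1 g2 B) {bl : ℝ} (hbl : 0 < bl)
    (hlow : ∀ a t, 0 ≤ t → t ≤ a → a ≤ 1 → bl * (1 - a) ^ 2 ≤ -g1 t) {cT N : ℝ} (hN : 1 ≤ N)
    (hmu : ∀ v : Euc m, ‖v‖ ≤ Real.exp cT → 1 / 2 ≤ c.mu v) :
    HH c V (Real.exp (cT - 1 / (2 * N))) ≤
      4 * N ^ 2 / bl * (Real.exp (m * cT) * II c V g1 cT) := by
  have hN0 : 0 < N := by linarith
  set S : Set (Euc k × Vf_884.L k) := (Kt ×ˢ G m k) ∩ Sr c (Real.exp (cT - 1 / (2 * N))) with hS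
  have hSm : MeasurableSet S := (region_closed h (cT - 1 / (2 * N))).measurableSet
  have hres : V.restrict (Sr c (Real.exp (cT - 1 / (2 * N)))) = V.restrict S :=
    region_eq h hV (cT - 1 / (2 * N))
  have i1 : Integrable (fun p : Euc k × Vf_884.L k => 2 * c.f p.1) V :=
    hV.integrable h.cpt (continuousOn_const.mul (lift h.cf))
  have i2 : Integrable (fun p : Euc k × Vf_884.L k => (c.f p.1 * c.mu (c.x p.1)) *
      (-4 * g1 (Real.exp (-2 * cT) * ‖c.x p.1‖ ^ 2))) V :=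
    h.int hV h.cfmu (q := fun t => -4 * g1 t) (continuous_const.mul hp.pr.k1.continuous) cT
  have hnn : ∀ p ∈ Kt ×ˢ G m k, 0 ≤ (c.f p.1 * c.mu (c.x p.1)) *
      (-4 * g1 (Real.exp (-2 * cT) * ‖c.x p.1‖ ^ 2)) := by
    intro p hpm
    have h1 := h.f_nonneg hpm.1
    have h2 := h.mupos _ (h.mem _ hpm.1)
    have h3 := hp.pr.anti (Real.exp (-2 * cT) * ‖c.x p.1‖ ^ 2) (by positivity)
    exact mul_nonneg (mul_nonneg h1 h2.le) (by linarith)
  have hpt : ∀ p ∈ S, 2 * c.f p.1 * (bl / (4 * N ^ 2)) ≤ (c.f p.1 * c.mu (c.x p.1)) *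
      (-4 * g1 (Real.exp (-2 * cT) * ‖c.x p.1‖ ^ 2)) := by
    intro p hpS
    have hr : ‖c.x p.1‖ ≤ Real.exp (cT - 1 / (2 * N)) := hpS.2
    have hf := h.f_nonneg hpS.1.1
    have hle : Real.exp (cT - 1 / (2 * N)) ≤ Real.exp cT := by
      refine Real.exp_le_exp.2 ?_
      have : 0 < 1 / (2 * N) := by positivity
      linarith
    have hmu' := hmu _ (hr.trans hle)
    have ht : Real.exp (-2 * cT) * ‖c.x p.1‖ ^ 2 ≤ Real.exp (-(1 / N)) := by
      have h1 : ‖c.x p.1‖ ^ 2 ≤ Real.exp (cT - 1 / (2 * N)) ^ 2 :=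
        pow_le_pow_left₀ (norm_nonneg _) hr 2
      calc _ ≤ Real.exp (-2 * cT) * Real.exp (cT - 1 / (2 * N)) ^ 2 :=
            mul_le_mul_of_nonneg_left h1 (Real.exp_pos _).le
        _ = Real.exp (-(1 / N)) := by
            rw [← Real.exp_nat_mul, ← Real.exp_add]
            congr 1
            push_cast
            field_simp
            ring
    have h3 := hlow (Real.exp (-(1 / N))) (Real.exp (-2 * cT) * ‖c.x p.1‖ ^ 2) (by positivity) ht
      (Real.exp_le_one_iff.2 (by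
        have : 0 < 1 / N := by positivity
        linarith))
    have h4 : 1 / N / 2 ≤ 1 - Real.exp (-(1 / N)) :=
      one_sub_exp_ge (by positivity) (by rw [div_le_one hN0]; exact hN)
    have h5 : (1 / N / 2) ^ 2 ≤ (1 - Real.exp (-(1 / N))) ^ 2 :=
      pow_le_pow_left₀ (by positivity) h4 2
    have h6 : bl / (4 * N ^ 2) ≤ -g1 (Real.exp (-2 * cT) * ‖c.x p.1‖ ^ 2) := by
      refine le_trans ?_ h3
      have h7 : bl / (4 * N ^ 2) = bl * (1 / N / 2) ^ 2 := by field_simp; ring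
      rw [h7]
      exact mul_le_mul_of_nonneg_left h5 hbl.le
    have h8 : 0 ≤ bl / (4 * N ^ 2) := by positivity
    calc 2 * c.f p.1 * (bl / (4 * N ^ 2)) = (c.f p.1 * (1 / 2)) * (4 * (bl / (4 * N ^ 2))) := by ring
      _ ≤ (c.f p.1 * c.mu (c.x p.1)) * (-4 * g1 (Real.exp (-2 * cT) * ‖c.x p.1‖ ^ 2)) := by
        refine mul_le_mul (mul_le_mul_of_nonneg_left hmu' hf) (by linarith) (by positivity) ?_
        exact mul_nonneg hf (by linarith)
  have h1 : (∫ p in S, 2 * c.f p.1 ∂V) * (bl / (4 * N ^ 2)) ≤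
      ∫ p in S, (c.f p.1 * c.mu (c.x p.1)) *
        (-4 * g1 (Real.exp (-2 * cT) * ‖c.x p.1‖ ^ 2)) ∂V := by
    rw [← integral_mul_const]
    exact setIntegral_mono_on (i1.mul_const _).integrableOn i2.integrableOn hSm hpt
  have h2 : ∫ p in S, (c.f p.1 * c.mu (c.x p.1)) *
        (-4 * g1 (Real.exp (-2 * cT) * ‖c.x p.1‖ ^ 2)) ∂V ≤
      ∫ p, (c.f p.1 * c.mu (c.x p.1)) *
        (-4 * g1 (Real.exp (-2 * cT) * ‖c.x p.1‖ ^ 2)) ∂V := by
    refine setIntegral_le_integral i2 ?_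
    filter_upwards [hV.mem] with p hpm
    exact hnn p hpm
  have h3 : Real.exp (m * cT) * II c V g1 cT = ∫ p, (c.f p.1 * c.mu (c.x p.1)) *
        (-4 * g1 (Real.exp (-2 * cT) * ‖c.x p.1‖ ^ 2)) ∂V := by
    unfold II
    rw [← mul_assoc, ← Real.exp_add]
    have : (m:ℝ) * cT + -m * cT = 0 := by ring
    rw [this, Real.exp_zero, one_mul]
  rw [h3]
  unfold HH
  rw [hres]
  have h4 := h1.trans h2
  have h5 : 0 < bl / (4 * N ^ 2) := by positivity
  rw [← le_div_iff₀ h5] at h4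
  refine h4.trans (le_of_eq ?_)
  rw [div_eq_mul_inv, mul_comm, inv_div]

theorem gap_ge {N l t : ℝ} (hN : 0 < N) (ht : l + 1 / N ≤ t) :
    0 < Real.exp t - Real.exp l ∧ (Real.exp t - Real.exp l)⁻¹ ≤ N * Real.exp (-l) := by
  have h1 : Real.exp l * (1 + 1 / N) ≤ Real.exp t := by
    calc Real.exp l * (1 + 1 / N) ≤ Real.exp l * Real.exp (1 / N) := by
          refine mul_le_mul_of_nonneg_left ?_ (Real.exp_pos _).le
          linarith [Real.add_one_le_exp (1 / N)]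
      _ = Real.exp (l + 1 / N) := by rw [Real.exp_add]
      _ ≤ _ := Real.exp_le_exp.2 ht
  have h2 : 0 < Real.exp l * (1 / N) := by positivity
  have h3 : Real.exp l * (1 / N) ≤ Real.exp t - Real.exp l := by linarith
  refine ⟨by linarith, ?_⟩
  calc (Real.exp t - Real.exp l)⁻¹ ≤ (Real.exp l * (1 / N))⁻¹ := inv_anti₀ h2 h3
    _ = N * Real.exp (-l) := by
      rw [mul_inv, Real.exp_neg]; field_simp

/-- `OO(l) ≤ (4 N² C1 + 1) e^{-ml} HH(e^{cT - 1/(2N)})` for `l ≤ cT - 1/N` -/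
theorem OO_le (h : Ok c Kt D) (hV : On V m Kt) {cT N : ℝ} (hN : 1 ≤ N)
    (hS : Sup c V cT N C1) (hl : l ≤ cT - 1 / N) :
    OO c V l ≤ (4 * N ^ 2 * C1 + 1) *
      (Real.exp (-m * l) * HH c V (Real.exp (cT - 1 / (2 * N)))) := by
  have hN0 : 0 < N := by linarith
  have hN2 : 0 < 1 / (2 * N) := by positivity
  have hNN : 1 / N = 1 / (2 * N) + 1 / (2 * N) := by field_simp; ring
  obtain ⟨hg1, hg2⟩ := gap_ge (N := 2 * N) (l := l) (t := cT - 1 / (2 * N)) (by positivity)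
    (by linarith)
  set H' := HH c V (Real.exp (cT - 1 / (2 * N))) with hH'
  have hcl := (region_closed (m := m) h l).measurableSet
  have i1 : Integrable (fun p : Euc k × Vf_884.L k => c.tau p.1 p.2) V :=
    hV.integrable h.cpt h.ctau
  have i2 : Integrable (fun p : Euc k × Vf_884.L k => qq c l p.1) V :=
    hV.integrable h.cpt (h.cqq l)
  have i3 : Integrable (fun p : Euc k × Vf_884.L k => 2 * c.f p.1) V :=
    hV.integrable h.cpt (continuousOn_const.mul (lift h.cf))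
  have hH0 : 0 ≤ H' := by
    rw [hH']
    unfold HH
    have hres : V.restrict (Sr c (Real.exp (cT - 1 / (2 * N)))) =
        V.restrict ((Kt ×ˢ G m k) ∩ Sr c (Real.exp (cT - 1 / (2 * N)))) :=
      region_eq h hV (cT - 1 / (2 * N))
    rw [hres]
    refine setIntegral_nonneg (region_closed h _).measurableSet fun p hp => ?_
    have := h.f_nonneg hp.1.1
    linarith
  have hlt : Real.exp l < Real.exp (cT - 1 / (2 * N)) := by linarith
  have e1 : ∫ p in Sr c (Real.exp l), c.tau p.1 p.2 ∂V ≤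
      C1 * ((Real.exp (cT - 1 / (2 * N)) - Real.exp l)⁻¹) ^ 2 * H' :=
    hS.s2 _ (Real.exp_pos _) (Real.exp_le_exp.2 (by
      have h1 : 1 / N = 3 / (4 * N) + 1 / (4 * N) := by field_simp; ring
      have h2 : 0 < 1 / (4 * N) := by positivity
      linarith))
  have e2 : ∫ p in Sr c (Real.exp l), qq c l p.1 ∂V ≤ Real.exp (-2 * l) * H' := by
    have e3 : ∫ p in Sr c (Real.exp l), qq c l p.1 ∂V =
        Real.exp (-2 * l) * ∫ p in Sr c (Real.exp l), 2 * c.f p.1 ∂V := by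
      rw [← integral_const_mul]
      rfl
    rw [e3]
    refine mul_le_mul_of_nonneg_left ?_ (Real.exp_pos _).le
    rw [hH']
    unfold HH
    have hres1 : V.restrict (Sr c (Real.exp (cT - 1 / (2 * N)))) =
        V.restrict ((Kt ×ˢ G m k) ∩ Sr c (Real.exp (cT - 1 / (2 * N)))) :=
      region_eq h hV (cT - 1 / (2 * N))
    have hres2 : V.restrict (Sr c (Real.exp l)) =
        V.restrict ((Kt ×ˢ G m k) ∩ Sr c (Real.exp l)) := region_eq h hV l
    rw [hres1, hres2]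
    refine setIntegral_mono_set i3.integrableOn ?_ ?_
    · filter_upwards [ae_restrict_mem (region_closed (m := m) h (cT - 1 / (2 * N))).measurableSet]
        with p hp
      have := h.f_nonneg hp.1.1
      simp only [Pi.zero_apply]
      linarith
    · refine LE.le.eventuallyLE ?_
      intro p hp
      exact ⟨hp.1, le_trans hp.2 hlt.le⟩
  have e4 : ((Real.exp (cT - 1 / (2 * N)) - Real.exp l)⁻¹) ^ 2 ≤
      (2 * N * Real.exp (-l)) ^ 2 := pow_le_pow_left₀ (inv_nonneg.2 hg1.le) hg2 2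
  have e5 : (2 * N * Real.exp (-l)) ^ 2 = 4 * N ^ 2 * Real.exp (-2 * l) := by
    have : Real.exp (-2 * l) = Real.exp (-l) ^ 2 := by
      rw [← Real.exp_nat_mul]; congr 1; push_cast; ring
    rw [this]; ring
  rw [e5] at e4
  have e6 : C1 * ((Real.exp (cT - 1 / (2 * N)) - Real.exp l)⁻¹) ^ 2 * H' ≤
      C1 * (4 * N ^ 2 * Real.exp (-2 * l)) * H' :=
    mul_le_mul_of_nonneg_right (mul_le_mul_of_nonneg_left e4 hS.C1n) hH0
  have e7 : OO c V l = Real.exp ((2 - m) * l) *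
      (∫ p in Sr c (Real.exp l), c.tau p.1 p.2 ∂V + ∫ p in Sr c (Real.exp l), qq c l p.1 ∂V) := by
    unfold OO
    rw [← integral_add i1.integrableOn i2.integrableOn]
    rfl
  rw [e7]
  calc _ ≤ Real.exp ((2 - m) * l) * (C1 * (4 * N ^ 2 * Real.exp (-2 * l)) * H' +
        Real.exp (-2 * l) * H') :=
        mul_le_mul_of_nonneg_left (add_le_add (e1.trans e6) e2) (Real.exp_pos _).le
    _ = (4 * N ^ 2 * C1 + 1) * (Real.exp ((2 - m) * l) * Real.exp (-2 * l) * H') := by ring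
    _ = _ := by rw [← exp_m2]

/-- bound of the sharp energy on the window -/
def OB (m : ℕ) (C1 bl N A I : ℝ) : ℝ :=
  (4 * N ^ 2 * C1 + 1) * (4 * N ^ 2 / bl) * Real.exp (m * A) * I

/-- heights below the collar -/
theorem height_le {cT N h2 : ℝ} (hN : 0 < N) (hS : Sup c V cT N C1)
    (hH : 0 ≤ HH c V (Real.exp (cT - 1 / (2 * N))))
    (hh2 : C1 * (4 * N * Real.exp (-(cT - 3 / (4 * N)))) ^ m *
      HH c V (Real.exp (cT - 1 / (2 * N))) ≤ h2) :
    ∀ᵐ p ∂V, ‖c.x p.1‖ ≤ Real.exp (cT - 3 / (4 * N)) → 2 * c.f p.1 ≤ h2 := by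
  have hN2 : 0 < 1 / (2 * N) := by positivity
  have e0 : cT - 3 / (4 * N) + 1 / (4 * N) ≤ cT - 1 / (2 * N) := by
    have : 3 / (4 * N) = 1 / (2 * N) + 1 / (4 * N) := by field_simp; ring
    linarith
  obtain ⟨h1, h3⟩ := gap_ge (N := 4 * N) (by positivity) e0
  have h4 := hS.s1
  filter_upwards [h4] with p hp hx
  refine (hp hx).trans (le_trans ?_ hh2)
  refine mul_le_mul_of_nonneg_right (mul_le_mul_of_nonneg_left ?_ hS.C1n) hH
  exact pow_le_pow_left₀ (inv_nonneg.2 h1.le) h3 m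

theorem HH_nonneg (h : Ok c Kt D) (hV : On V m Kt) (t : ℝ) : 0 ≤ HH c V (Real.exp t) := by
  unfold HH
  have hres : V.restrict (Sr c (Real.exp t)) =
      V.restrict ((Kt ×ˢ G m k) ∩ Sr c (Real.exp t)) := region_eq h hV t
  rw [hres]
  refine setIntegral_nonneg (region_closed h _).measurableSet fun p hp => ?_
  have := h.f_nonneg hp.1.1
  linarith

/-- **F7-GL: the data of the frequency lemma on the window `[lo, cT - 1/N]`** for one reference,
all errors explicit; `II(cT)` = height at the top level. -/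
theorem stepW_win {LT cT N lo h2 bl C₂ ω₂ δb ωb : ℝ} (hr : Reg c W D) (h : Loc c U W Kt V LT)
    (hcT : cT - 1 / (2 * N) ≤ LT) (hD : Metric.closedBall 0 (Real.exp cT) ⊆ D)
    (hp : Pf g g1 g2 B)
    (hbl : 0 < bl) (hlow : ∀ a t, 0 ≤ t → t ≤ a → a ≤ 1 → bl * (1 - a) ^ 2 ≤ -g1 t)
    (hmu : ∀ v : Euc m, ‖v‖ ≤ Real.exp cT → 1 / 2 ≤ c.mu v) (hN : 1 ≤ N)
    (hS : Sup c (VK V Kt) cT N C1)
    (hh2 : C1 * (4 * N * Real.exp (-(cT - 3 / (4 * N)))) ^ m *
      HH c (VK V Kt) (Real.exp (cT - 1 / (2 * N))) ≤ h2)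
    (hKB : ∀ l ∈ Icc lo (cT - 1 / N), KB c (Kc c Kt h2 (cT - 3 / (4 * N))) l c0 d0 hh C0 zN)
    (hc1 : c0 ≤ 1) (hC₂ : 0 ≤ C₂) (hω₂ : 0 ≤ ω₂)
    (T0 : ∀ l ∈ Icc lo (cT - 1 / N), |bb c (VK V Kt) g Q l| ≤
      C₂ * (ee c (VK V Kt) g l + II c (VK V Kt) g1 l) + ω₂)
    (T1 : ∀ l ∈ Icc lo (cT - 1 / N), Real.exp ((2 - m) * l) * |er1a c (VK V Kt) g Q l| ≤
      c0 * (C₂ * (ee c (VK V Kt) g l + II c (VK V Kt) g1 l) + ω₂))
    (hδb : 0 ≤ δb) (hωb : 0 ≤ ωb)
    (hb : ∀ l ∈ Icc lo (cT - 1 / N), bb c (VK V Kt) g Q l ≤ δb * II c (VK V Kt) g1 l + ωb) :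
    Nb_290.StepW C₂ lo (cT - 1 / N) ((Cg m B C0 + C₂) * (c0 + d0) + δb)
      (Cg m B C0 * ((hh ^ 2 + d0) * OB m C1 bl N (cT - lo) (II c (VK V Kt) g1 cT)) + ω₂ + ωb)
      (II c (VK V Kt) g1) (EE c (VK V Kt) g Q) (ee c (VK V Kt) g) (bb c (VK V Kt) g Q)
      (RF c (VK V Kt) g1 B c0 d0) := by
  have hN0 : 0 < N := by linarith
  have hok : Ok c Kt D := hr.ok h.cpt (h.sub.trans inter_subset_left)
  have hOn := h.toOn
  have hN4 : 0 < 1 / (4 * N) := by positivity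
  have h34 : 1 / N = 3 / (4 * N) + 1 / (4 * N) := by field_simp; ring
  have hH := HH_nonneg hok hOn (cT - 1 / (2 * N))
  have hae := height_le hN0 hS hH hh2
  obtain ⟨hloc, hsub⟩ := loc_Kc (L := cT - 3 / (4 * N)) (h2 := h2) hr h (by
    have h1 : 3 / (4 * N) = 1 / (2 * N) + 1 / (4 * N) := by field_simp; ring
    linarith) hae
  have hII : 0 ≤ II c (VK V Kt) g1 cT := II_nonneg hok hOn hp.pr.anti cT
  have hB : 0 ≤ B := (hp.nn 0 le_rfl).trans (hp.b0 0 le_rfl)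
  have hL' : Metric.closedBall 0 (Real.exp (cT - 3 / (4 * N))) ⊆ D := by
    refine (Metric.closedBall_subset_closedBall (Real.exp_le_exp.2 ?_)).trans hD
    have : 0 < 3 / (4 * N) := by positivity
    linarith
  have hout : ∀ l ∈ Icc lo (cT - 1 / N), Out1 C₂ ((Cg m B C0 + C₂) * (c0 + d0) + δb)
      (Cg m B C0 * ((hh ^ 2 + d0) * OB m C1 bl N (cT - lo) (II c (VK V Kt) g1 cT)) + ω₂ + ωb)
      (II c (VK V Kt) g1) (EE c (VK V Kt) g Q) (ee c (VK V Kt) g) (bb c (VK V Kt) g Q)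
      (RF c (VK V Kt) g1 B c0 d0) l := by
    intro l hl
    have hlL : l < cT - 3 / (4 * N) := by linarith [hl.2]
    have hk := hKB l hl
    have hCg : 0 ≤ Cg m B C0 := Cg_nonneg hB (by linarith [hk.C0n])
    have h1 := out_of_gl (Q := Q) hr hloc hp hk hc1 hlL hL' hC₂ hω₂
      (by rw [hsub.bb_eq hp hlL.le, hsub.ee_eq' hp hlL.le, hsub.II_eq' hp hlL.le]; exact T0 l hl)
      (by rw [hsub.er1a_eq hp hlL.le, hsub.ee_eq' hp hlL.le, hsub.II_eq' hp hlL.le]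
          exact T1 l hl)
    have h3 := hsub.out hp hlL h1
    refine h3.mono le_rfl (by linarith) ?_
    have h4 : OO c (VK V (Kc c Kt h2 (cT - 3 / (4 * N)))) l ≤
        OB m C1 bl N (cT - lo) (II c (VK V Kt) g1 cT) := by
      rw [hsub.OO_eq hlL.le]
      refine (OO_le hok hOn hN hS hl.2).trans ?_
      have h5 := HH_le_II hok hOn hp hbl hlow hN hmu
      have h6 : Real.exp (-m * l) * HH c (VK V Kt) (Real.exp (cT - 1 / (2 * N))) ≤
          4 * N ^ 2 / bl * (Real.exp (m * (cT - lo)) * II c (VK V Kt) g1 cT) := by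
        calc _ ≤ Real.exp (-m * l) * (4 * N ^ 2 / bl * (Real.exp (m * cT) *
              II c (VK V Kt) g1 cT)) := mul_le_mul_of_nonneg_left h5 (Real.exp_pos _).le
          _ = 4 * N ^ 2 / bl * (Real.exp (-m * l) * Real.exp (m * cT) *
              II c (VK V Kt) g1 cT) := by ring
          _ ≤ _ := by
              refine mul_le_mul_of_nonneg_left (mul_le_mul_of_nonneg_right ?_ hII)
                (by positivity)
              rw [← Real.exp_add]
              refine Real.exp_le_exp.2 ?_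
              have : (0:ℝ) ≤ m := Nat.cast_nonneg m
              nlinarith [hl.1]
      have hC1 := hS.C1n
      calc _ ≤ (4 * N ^ 2 * C1 + 1) * (4 * N ^ 2 / bl * (Real.exp (m * (cT - lo)) *
            II c (VK V Kt) g1 cT)) := mul_le_mul_of_nonneg_left h6 (by positivity)
        _ = _ := by unfold OB; ring
    have h7 : 0 ≤ hh ^ 2 + d0 := add_nonneg (sq_nonneg _) hk.d0n
    have h8 := mul_le_mul_of_nonneg_left (mul_le_mul_of_nonneg_left h4 h7) hCg
    linarith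
  refine stepW_of_out hout ?_
  intro l hl
  have hk := hKB l hl
  have hCg : 0 ≤ Cg m B C0 := Cg_nonneg hB (by linarith [hk.C0n])
  have h1 := hb l hl
  have h3 := (hout l hl).I0
  have h4 : 0 ≤ (Cg m B C0 + C₂) * (c0 + d0) * II c (VK V Kt) g1 l := by
    have := hk.c0n
    have := hk.d0n
    positivity
  have h5 : 0 ≤ Cg m B C0 * ((hh ^ 2 + d0) * OB m C1 bl N (cT - lo)
      (II c (VK V Kt) g1 cT)) := by
    have := hk.d0n
    have := hS.C1n
    unfold OB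
    positivity
  have h6 : ((Cg m B C0 + C₂) * (c0 + d0) + δb) * II c (VK V Kt) g1 l =
      (Cg m B C0 + C₂) * (c0 + d0) * II c (VK V Kt) g1 l + δb * II c (VK V Kt) g1 l := by ring
  linarith

end Crest.Agent.R234.Ng_290
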