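import Crest.Agent.R234.End3_395
import Crest.Agent.R234.Gi5_456
import Crest.Agent.R234.Gi6_456
import Crest.Agent.R234.Ng2_290

/-!
# Row 234, (END) (helper395), part 4: the chart of a block

`cmp_ch` : the chart `ch` of a graph satisfies `Cmp`.  `Blk` : data of a block with base point `x`,
centre `0`.  `std_of_blk` : `Blk` gives `StD`.
-/

set_option autoImplicit false
set_option linter.unusedSectionVars false

open MeasureTheory Set Filter Topology
open Crest.GeometryTopology.Submanifold Crest.Agent.R234.Vf_884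
open Crest.Agent.R234.Main_456 Crest.Agent.R234.GL_394 Crest.Agent.R234.Gi_456
open Crest.Agent.R234.AS_456 (hp vp)
open scoped ENNReal NNReal InnerProductSpace ContDiff

noncomputable section

namespace Crest.Agent.R234.End_395

variable {m n k : ℕ} {π : Euc k →L[ℝ] Euc m} {ρ : Euc k →L[ℝ] Euc n} {x : Euc k} {S : ℝ}
  {w : Euc m → Euc n} {X0 : Euc m}

local notation "adj" => ContinuousLinearMap.adjoint

/-- `|nu|² = |y|² + |Dw† y|²` -/
theorem nu_sq (hf : Frame π ρ) (z : Euc k) : ‖(ch π ρ x S w X0).nu z‖ ^ 2 =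
    ‖yy π ρ x S w z‖ ^ 2 + ‖adj (fderiv ℝ w (foot π ρ x S w z)) (yy π ρ x S w z)‖ ^ 2 := by
  show ‖Bt π ρ w (foot π ρ x S w z) (yy π ρ x S w z)‖ ^ 2 = _
  have e := GLK_128.hh_inner (fderiv ℝ w (foot π ρ x S w z)) (yy π ρ x S w z)
  rw [← e, ← GLK_128.BB_BB (frame_fr hf), ContinuousLinearMap.comp_apply,
    ContinuousLinearMap.adjoint_inner_left, real_inner_self_eq_norm_sq]
  rfl

theorem two_f (z : Euc k) : 2 * (ch π ρ x S w X0).f z = ‖(ch π ρ x S w X0).nu z‖ ^ 2 := by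
  show 2 * (‖Bt π ρ w (foot π ρ x S w z) (yy π ρ x S w z)‖ ^ 2 / 2) = _
  have : (ch π ρ x S w X0).nu z = Bt π ρ w (foot π ρ x S w z) (yy π ρ x S w z) := rfl
  rw [this]
  ring

theorem adj_le (h : Gr S w) (X : Euc m) (y : Euc n) : ‖adj (fderiv ℝ w X) y‖ ≤ 1 / 8 * ‖y‖ := by
  refine (ContinuousLinearMap.le_opNorm _ _).trans ?_
  rw [GLK_128.norm_adj]
  have := h.d1 X
  gcongr

theorem x_eq (z : Euc k) : (ch π ρ x S w 0).x z = Lo (fderiv ℝ w 0) (foot π ρ x S w z) := by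
  show Lo (fderiv ℝ w 0) (foot π ρ x S w z - 0) = _
  rw [sub_zero]

theorem norm_x_le (h : Gr S w) (z : Euc k) :
    ‖(ch π ρ x S w 0).x z‖ ≤ 65 / 64 * ‖foot π ρ x S w z‖ := by
  rw [x_eq]
  exact norm_Lo_le (h.d1 0) (foot π ρ x S w z)

theorem le_norm_x (z : Euc k) : ‖foot π ρ x S w z‖ ≤ ‖(ch π ρ x S w 0).x z‖ := by
  rw [x_eq]
  exact le_norm_Lo (fderiv ℝ w 0) (foot π ρ x S w z)

/-- **comparison of the chart of a graph** with height and base coordinate. -/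
theorem cmp_ch (h : Gr S w) (hf : Frame π ρ) {κ l : ℝ} (hκ : 0 ≤ κ)
    (h1 : ∀ X, ‖fderiv ℝ w X‖ ≤ κ) (h2 : ∀ X, S * ‖fderiv ℝ (fderiv ℝ w) X‖ ≤ κ)
    (hl : Real.exp l ≤ S) (hκ8 : κ ≤ 1 / 8) {K : Set (Euc k)} (hK : K ⊆ tube π ρ x S w) :
    Cmp (ch π ρ x S w 0) K (fun z => ρ (z - x) - w (π (z - x))) (fun z => π (z - x)) l where
  f1 := by
    intro z hz
    have e1 := nu_sq (x := x) (S := S) (w := w) (X0 := 0) hf z
    have e2 := h.norm_yy_sub (hK hz)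
    have e3 := adj_le h (foot π ρ x S w z) (yy π ρ x S w z)
    have e4 := norm_le_norm_add_norm_sub' (yy π ρ x S w z) (ρ (z - x) - w (π (z - x)))
    rw [two_f, e1]
    set Y := ‖yy π ρ x S w z‖ with hY
    set Z := ‖ρ (z - x) - w (π (z - x))‖ with hZ
    have hY0 : 0 ≤ Y := norm_nonneg _
    have hZ0 : 0 ≤ Z := norm_nonneg _
    have e5 : ‖adj (fderiv ℝ w (foot π ρ x S w z)) (yy π ρ x S w z)‖ ^ 2 ≤ (1 / 8 * Y) ^ 2 :=
      pow_le_pow_left₀ (norm_nonneg _) e3 2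
    have e6 : Y ^ 2 ≤ (33 / 32 * Z) ^ 2 := pow_le_pow_left₀ hY0 (by linarith) 2
    nlinarith [sq_nonneg Z]
  f2 := by
    intro z hz
    have e1 := nu_sq (x := x) (S := S) (w := w) (X0 := 0) hf z
    have e2 := h.norm_yy_sub (hK hz)
    have e4 := norm_le_norm_add_norm_sub (yy π ρ x S w z) (ρ (z - x) - w (π (z - x)))
    rw [two_f, e1]
    set Y := ‖yy π ρ x S w z‖ with hY
    set Z := ‖ρ (z - x) - w (π (z - x))‖ with hZ
    have hY0 : 0 ≤ Y := norm_nonneg _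
    have hZ0 : 0 ≤ Z := norm_nonneg _
    have e6 : Z ^ 2 ≤ (32 / 31 * Y) ^ 2 := pow_le_pow_left₀ hZ0 (by linarith) 2
    have e7 := sq_nonneg ‖adj (fderiv ℝ w (foot π ρ x S w z)) (yy π ρ x S w z)‖
    nlinarith [sq_nonneg Y]
  x1 := by
    intro z hz
    have e1 := norm_x_le (π := π) (ρ := ρ) (x := x) h z
    have e2 := h.norm_foot_sub (hK hz)
    have e3 := norm_le_norm_add_norm_sub' (foot π ρ x S w z) (π (z - x))
    have e4 := norm_nonneg (ρ (z - x) - w (π (z - x)))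
    have e5 := norm_nonneg (π (z - x))
    linarith
  x2 := by
    intro z hz
    have e1 := le_norm_x (π := π) (ρ := ρ) (x := x) (S := S) (w := w) z
    have e2 := h.norm_foot_sub (hK hz)
    have e3 := norm_le_norm_add_norm_sub (foot π ρ x S w z) (π (z - x))
    have e4 := norm_nonneg (ρ (z - x) - w (π (z - x)))
    linarith
  mu := by
    intro z hz hx
    have hS := h.pos
    set c := 3 * (κ * (κ / S)) with hc
    have hc0 : 0 ≤ c := by positivity
    have hcS : c * S = 3 * κ ^ 2 := by rw [hc]; field_simp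
    have hd2 : ∀ X, ‖fderiv ℝ (fderiv ℝ w) X‖ ≤ κ / S := by
      intro X
      rw [le_div_iff₀ hS, mul_comm]
      exact h2 X
    have hsm : c * ‖(ch π ρ x S w 0).x z‖ ≤ 1 / 4 := by
      calc c * ‖(ch π ρ x S w 0).x z‖ ≤ c * S := mul_le_mul_of_nonneg_left (hx.trans hl) hc0
        _ = 3 * κ ^ 2 := hcS
        _ ≤ 1 / 4 := by nlinarith
    have hp := h.pt_of 0 (v := (ch π ρ x S w 0).x z) hsm (fun u _ => by
      rw [hc]
      gcongr
      · exact h1 _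
      · exact hd2 _)
    have e1 := hp.abs_mu_sub
    have e2 : (ch π ρ x S w 0).mu ((ch π ρ x S w 0).x z) =
        muG (giB w 0) ((ch π ρ x S w 0).x z) := rfl
    rw [e2]
    obtain ⟨e3, e4⟩ := abs_le.1 e1
    constructor <;> linarith

/-- data of a block (base point `x`, centre `0`), `κ` = all small quantities; `l` = the level of the
state. -/
structure Blk (U : Set (Euc k)) (V : Measure (Euc k × L k)) (x : Euc k) (r : ℝ)
    (π : Euc k →L[ℝ] Euc m) (ρ : Euc k →L[ℝ] Euc n) (S : ℝ) (w : Euc m → Euc n)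
    (Kt : Set (Euc k)) (g1 : ℝ → ℝ) (l κ G : ℝ) (K : ℕ) : Prop where
  frame : Frame π ρ
  gr : Gr S w
  d1 : ∀ X, ‖fderiv ℝ w X‖ ≤ κ
  d2 : ∀ X, S * ‖fderiv ℝ (fderiv ℝ w) X‖ ≤ κ
  w0 : ‖w 0‖ ≤ κ * r
  ms : ∀ X ∈ Metric.ball (0 : Euc m) (Real.exp l), Msys w X = 0
  lS : Real.exp l ≤ S
  ll : Real.log r + 4 ≤ l
  lu : l ≤ Real.log r + 5
  loc : Loc (ch π ρ x S w 0) U (tube π ρ x S w) Kt V l
  sup : ∀ᵐ p ∂(VK V Kt), ‖(ch π ρ x S w 0).x p.1‖ ≤ 12 * r →
    2 * (ch π ρ x S w 0).f p.1 ≤ κ ^ 2 * r ^ 2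
  pos : 0 < II (ch π ρ x S w 0) (VK V Kt) g1 (Real.log (r / 8))
  dbl : II (ch π ρ x S w 0) (VK V Kt) g1 l ≤
    Real.exp G * II (ch π ρ x S w 0) (VK V Kt) g1 (Real.log (r / 8))
  mon : II (ch π ρ x S w 0) (VK V Kt) g1 (Real.log (12 * r)) ≤
    Real.exp G * II (ch π ρ x S w 0) (VK V Kt) g1 l
  sml : II (ch π ρ x S w 0) (VK V Kt) g1 l ≤ κ ^ 2 * r ^ 2
  mean : ∀ ζ : Euc m → ℝ, ContDiff ℝ ∞ ζ → tsupport ζ ⊆ Metric.ball 0 8 →
    (∀ j ≤ K, ∀ z, ‖iteratedFDeriv ℝ j ζ z‖ ≤ 1) →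
    ‖∫ p in box π ρ x (8 * r) ×ˢ univ, ζ (r⁻¹ • π (p.1 - x)) •
      (ρ (p.1 - x) - w (π (p.1 - x))) ∂V‖ ^ 2 ≤
      κ ^ 2 * (r ^ m * (r ^ m * II (ch π ρ x S w 0) (VK V Kt) g1 (Real.log (r / 8))))

/-- **`Blk` gives `StD`**. -/
theorem std_of_blk {U : Set (Euc k)} {V : Measure (Euc k × L k)} {r : ℝ}
    {Kt : Set (Euc k)} {g g1 g2 : ℝ → ℝ} {B l κ G κ' : ℝ} {K : ℕ}
    (hU : Metric.closedBall x (128 * r) ⊆ U) (hr : 0 < r) (hp : Pf g g1 g2 B)
    (h : Blk U V x r π ρ S w Kt g1 l κ G K) (hκ : 0 ≤ κ) (hκ8 : κ ≤ 1 / 8)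
    (hκ2 : 2 * κ ≤ κ') (hG : Real.exp G * κ ^ 2 ≤ κ') :
    StD U V x r π ρ x w (ch π ρ x S w 0)
      (Ng_290.Kc (ch π ρ x S w 0) Kt (κ ^ 2 * r ^ 2) (Real.log (12 * r))) univ g1
      (34 * r) κ' (2 * G) K := by
  set c := ch π ρ x S w 0 with hc
  set h2 := κ ^ 2 * r ^ 2 with hh2
  have hf := h.frame
  have hκ' : κ ≤ κ' := by linarith
  have hel : Real.exp (Real.log r + 4) ≤ Real.exp l := Real.exp_le_exp.2 h.ll
  have hel' : Real.exp l ≤ Real.exp (Real.log r + 5) := Real.exp_le_exp.2 h.lu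
  rw [Real.exp_add, Real.exp_log hr] at hel hel'
  have he4 : (54 : ℝ) ≤ Real.exp 4 := by
    have h1 : Real.exp 4 = Real.exp 1 ^ 4 := by rw [← Real.exp_nat_mul]; norm_num
    rw [h1]
    have h2 : (2.7182818283 : ℝ) < Real.exp 1 := Real.exp_one_gt_d9
    calc (54 : ℝ) ≤ 2.7182818283 ^ 4 := by norm_num
      _ ≤ Real.exp 1 ^ 4 := pow_le_pow_left₀ (by norm_num) h2.le 4
  have h54 : 54 * r ≤ Real.exp l := by nlinarith
  have hSr : 54 * r ≤ S := h54.trans h.lS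
  have hl12 : Real.exp (Real.log (12 * r)) = 12 * r := Real.exp_log (by positivity)
  have hl12l : Real.log (12 * r) ≤ l := by
    rw [← Real.exp_le_exp, hl12]
    linarith
  have hreg := h.gr.reg hf (0 : Euc m) (x := x)
  have hok : Ok c Kt univ := hreg.ok h.loc.cpt (h.loc.sub.trans inter_subset_left)
  have hOn := h.loc.toOn
  have hIl : 0 ≤ II c (VK V Kt) g1 l := II_nonneg hok hOn hp.pr.anti l
  have hcmpt : Cmp c Kt (fun z => ρ (z - x) - w (π (z - x))) (fun z => π (z - x)) l :=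
    cmp_ch h.gr hf hκ h.d1 h.d2 h.lS hκ8 (h.loc.sub.trans inter_subset_left)
  -- heights
  have hae : ∀ᵐ p ∂(VK V Kt), ‖c.x p.1‖ ≤ Real.exp (Real.log (12 * r)) → 2 * c.f p.1 ≤ h2 := by
    rw [hl12]
    exact h.sup
  obtain ⟨hloc, hsub⟩ := Ng_290.loc_Kc (L := Real.log (12 * r)) (h2 := h2) hreg h.loc hl12l hae
  set Kc := Ng_290.Kc c Kt h2 (Real.log (12 * r)) with hKc
  have hKsub : Kc ⊆ Kt := fun z hz => hz.1
  have hKt : Kt ⊆ tube π ρ x S w := h.loc.sub.trans inter_subset_left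
  have hI1 : ∀ {a : ℝ}, a ≤ Real.log (12 * r) →
      II c (V.restrict (Kc ×ˢ univ)) g1 a = II c (VK V Kt) g1 a := fun ha => hsub.II_eq' hp ha
  have hl8 : Real.log (r / 8) ≤ Real.log (12 * r) := Real.log_le_log (by positivity) (by linarith)
  have hcd : ContDiff ℝ 2 w := h.gr.cd.of_le (by norm_num)
  refine
    { frame := hf, hR := by simp, cd := hcd.contDiffOn, d1 := fun X _ => (h.d1 X).trans hκ'
      d2 := ?_, ms := ?_, near0 := ?_, ok := hreg.ok hloc.cpt (hloc.sub.trans inter_subset_left)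
      on := hloc.toOn, cmp := ?_, hh := ?_, mem := ?_, sup := ?_, pos := ?_, dbl := ?_
      sml := ?_, mean := ?_ }
  · intro X _
    refine le_trans ?_ ((h.d2 X).trans hκ')
    have := norm_nonneg (fderiv ℝ (fderiv ℝ w) X)
    nlinarith
  · intro X hX
    exact h.ms X (Metric.ball_subset_ball (by linarith) hX)
  · rw [sub_self, map_zero, map_zero, sub_zero]
    exact h.w0.trans (by gcongr)
  · exact ⟨fun z hz => hcmpt.f1 z (hKsub hz), fun z hz => hcmpt.f2 z (hKsub hz),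
      fun z hz => hcmpt.x1 z (hKsub hz), fun z hz => hcmpt.x2 z (hKsub hz),
      fun z hz hx => hcmpt.mu z (hKsub hz) (hx.trans (Real.exp_le_exp.2 hl12l))⟩
  · have hw : Continuous w := hcd.continuous
    fun_prop
  · -- the box is in `Kc`
    filter_upwards [h.loc.gap, hsub.ae] with p hp1 hp2 hpb
    have hb1 : ‖π (p.1 - x)‖ < 8 * r := hpb.1
    have hb2 : ‖ρ (p.1 - x)‖ < 8 * r := hpb.2
    have hw1 : ‖w (π (p.1 - x))‖ ≤ 2 * r := by
      have e1 := h.gr.lip (π (p.1 - x)) 0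
      rw [sub_zero] at e1
      have e2 := norm_le_norm_add_norm_sub' (w (π (p.1 - x))) (w 0)
      have e3 := h.w0
      nlinarith
    have hz : ‖ρ (p.1 - x) - w (π (p.1 - x))‖ ≤ 10 * r := by
      have := norm_sub_le (ρ (p.1 - x)) (w (π (p.1 - x)))
      linarith
    have ht : p.1 ∈ tube π ρ x S w := by
      show ‖ρ (p.1 - x) - w (π (p.1 - x))‖ < S
      linarith
    have hpU : p.1 ∈ U := by
      refine hU ?_
      rw [mem_closedBall_iff_norm]
      have e1 := Gi_456.Frame.full_apply hf (p.1 - x)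
      have e2 : ‖p.1 - x‖ ≤ ‖π (p.1 - x)‖ + ‖ρ (p.1 - x)‖ := by
        rw [← e1]
        refine (norm_add_le _ _).trans (add_le_add ?_ ?_)
        · rw [e1]
          refine (ContinuousLinearMap.le_opNorm _ _).trans ?_
          have := (frame_fr hf).norm_i_le
          have := norm_nonneg (π (p.1 - x))
          nlinarith
        · rw [e1]
          refine (ContinuousLinearMap.le_opNorm _ _).trans ?_
          have := (frame_fr hf).norm_j_le
          have := norm_nonneg (ρ (p.1 - x))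
          nlinarith
      linarith
    have hx1 : ‖c.x p.1‖ ≤ 12 * r := by
      have e1 := norm_x_le (π := π) (ρ := ρ) (x := x) h.gr p.1
      have e2 := h.gr.norm_foot_sub ht
      have e3 := norm_le_norm_add_norm_sub' (foot π ρ x S w p.1) (π (p.1 - x))
      rw [hc]
      linarith
    exact hp2 (hp1 ⟨ht, hpU⟩ (hx1.trans (by linarith))) (hx1.trans hl12.ge)
  · intro z hz
    have e1 := hcmpt.f2 z (hKsub hz)
    have e2 : 2 * c.f z ≤ h2 := hz.2.1
    have hκ'0 : 0 ≤ κ' := hκ.trans hκ'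
    refine le_of_sq_le_sq (a := ‖ρ (z - x) - w (π (z - x))‖) ?_ (by positivity)
    calc ‖ρ (z - x) - w (π (z - x))‖ ^ 2 ≤ 3 / 2 * (2 * c.f z) := e1
      _ ≤ 3 / 2 * h2 := by gcongr
      _ ≤ (2 * κ) ^ 2 * r ^ 2 := by rw [hh2]; nlinarith [sq_nonneg (κ * r)]
      _ ≤ κ' ^ 2 * r ^ 2 := by gcongr
      _ = (κ' * r) ^ 2 := by ring
  · rw [hI1 hl8]
    exact h.pos
  · rw [hI1 hl8, hI1 le_rfl]
    calc II c (VK V Kt) g1 (Real.log (12 * r)) ≤ Real.exp G * II c (VK V Kt) g1 l := h.mon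
      _ ≤ Real.exp G * (Real.exp G * II c (VK V Kt) g1 (Real.log (r / 8))) := by
          have := h.dbl
          gcongr
      _ = Real.exp (2 * G) * II c (VK V Kt) g1 (Real.log (r / 8)) := by
          rw [two_mul, Real.exp_add]; ring
  · rw [hI1 le_rfl]
    calc II c (VK V Kt) g1 (Real.log (12 * r)) ≤ Real.exp G * II c (VK V Kt) g1 l := h.mon
      _ ≤ Real.exp G * (κ ^ 2 * r ^ 2) := by
          have := h.sml
          gcongr
      _ = (Real.exp G * κ ^ 2) * r ^ 2 := by ring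
      _ ≤ κ' * r ^ 2 := by gcongr
  · intro ζ hζ1 hζ2 hζ3
    rw [hI1 hl8]
    refine (h.mean ζ hζ1 hζ2 hζ3).trans ?_
    have := h.pos
    gcongr

end Crest.Agent.R234.End_395
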