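import Crest.Agent.R234.End5_395

/-!
# Row 234, (END) / (V6) (helper395), part 6: lower bound of `II` of a block, rescaling of the means

* `ball_in` : a.e. point of a small ball about the base point lies in the compact of the block.
* `lowr_int` : normalised height over the ball of radius `e^(l-2)` is at most `C e^(-2l) II(l)`.
* `mean_scale` : mean estimate at the unit of the block gives the mean estimate at the scale `r`.
-/

set_option autoImplicit false
set_option linter.unusedSectionVars false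

open MeasureTheory Set Filter Topology
open Crest.GeometryTopology.Submanifold Crest.Agent.R234.Vf_884
open Crest.Agent.R234.Main_456 Crest.Agent.R234.GL_394 Crest.Agent.R234.Gi_456
open Crest.Agent.R234.AS_456 (hp vp)
open scoped ENNReal NNReal InnerProductSpace ContDiff

noncomputable section

namespace Crest.Agent.R234.End_395

variable {m n k : ℕ} {π : Euc k →L[ℝ] Euc m} {ρ : Euc k →L[ℝ] Euc n} {x : Euc k} {S : ℝ}
  {w : Euc m → Euc n}

/-- a point at distance `< a` of `x` -/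
theorem ball_in {l a : ℝ} (h : Gr S w) (hf : Frame π ρ) (hl : Real.exp l ≤ S)
    (hw0 : ‖w 0‖ ≤ 1 / 16 * Real.exp l) (ha : a ≤ 1 / 4 * Real.exp l) {z : Euc k}
    (hz : ‖z - x‖ ≤ a) :
    z ∈ tube π ρ x S w ∧ ‖(ch π ρ x S w 0).x z‖ ≤ Real.exp l ∧
      33 / 32 * (‖π (z - x)‖ + ‖ρ (z - x) - w (π (z - x))‖) ≤ 3 / 4 * Real.exp l := by
  have h1 : ‖π (z - x)‖ ≤ a := (norm_pi_le' hf _).trans hz
  have h2 : ‖ρ (z - x)‖ ≤ a := (norm_rho_le' hf _).trans hz
  have e1 := h.lip (π (z - x)) 0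
  rw [sub_zero] at e1
  have e2 := norm_le_norm_add_norm_sub' (w (π (z - x))) (w 0)
  have e3 := norm_sub_le (ρ (z - x)) (w (π (z - x)))
  have hE := Real.exp_pos l
  have ht : z ∈ tube π ρ x S w := by
    show ‖ρ (z - x) - w (π (z - x))‖ < S
    linarith
  refine ⟨ht, ?_, by linarith⟩
  have e4 := norm_x_le (π := π) (ρ := ρ) (x := x) h z
  have e5 := h.norm_foot_sub ht
  have e6 := norm_le_norm_add_norm_sub' (foot π ρ x S w z) (π (z - x))
  linarith

/-- **normalised height of a block by `II`**. -/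
theorem lowr_int {U : Set (Euc k)} {V : Measure (Euc k × L k)} {Kt : Set (Euc k)}
    {g g1 g2 : ℝ → ℝ} {B bl l κ : ℝ} (hp : Pf g g1 g2 B) (hbl : 0 < bl)
    (hlow : ∀ a t, 0 ≤ t → t ≤ a → a ≤ 1 → bl * (1 - a) ^ 2 ≤ -g1 t)
    (h : Gr S w) (hf : Frame π ρ) (hκ : 0 ≤ κ) (h1 : ∀ X, ‖fderiv ℝ w X‖ ≤ κ)
    (h2 : ∀ X, S * ‖fderiv ℝ (fderiv ℝ w) X‖ ≤ κ) (hκ8 : κ ≤ 1 / 8)
    (hl : Real.exp l ≤ S) (hw0 : ‖w 0‖ ≤ 1 / 16 * Real.exp l)
    (hU : Metric.ball x (Real.exp (l - 2)) ⊆ U)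
    (hloc : Loc (ch π ρ x S w 0) U (tube π ρ x S w) Kt V l) :
    Real.exp (-((m + 2) * (l - 2))) *
        ∫ p in Prod.fst ⁻¹' (Metric.ball x (Real.exp (l - 2))),
          ‖ρ (p.1 - x) - w (π (p.1 - x))‖ ^ 2 ∂V ≤
      Real.exp ((m + 2) * 2) * (8 / bl) *
        (Real.exp (-2 * l) * II (ch π ρ x S w 0) (VK V Kt) g1 l) := by
  set c := ch π ρ x S w 0 with hc
  have hreg := h.reg hf (0 : Euc m) (x := x)
  have hok : Ok c Kt univ := hreg.ok hloc.cpt (hloc.sub.trans inter_subset_left)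
  have hcmp : Cmp c Kt (fun z => ρ (z - x) - w (π (z - x))) (fun z => π (z - x)) l :=
    cmp_ch h hf hκ h1 h2 hl hκ8 (hloc.sub.trans inter_subset_left)
  have he2 : Real.exp (l - 2) ≤ 1 / 4 * Real.exp l := by
    rw [Real.exp_sub, div_eq_inv_mul]
    refine mul_le_mul_of_nonneg_right ?_ (Real.exp_pos l).le
    rw [inv_le_comm₀ (Real.exp_pos 2) (by norm_num)]
    have e1 : Real.exp 2 = Real.exp 1 ^ 2 := by rw [← Real.exp_nat_mul]; norm_num
    have e2 := Real.exp_one_gt_d9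
    rw [e1]
    norm_num
    nlinarith
  have hSm : MeasurableSet (Metric.ball x (Real.exp (l - 2))) := Metric.isOpen_ball.measurableSet
  have hwc : Continuous w := h.differentiable.continuous
  have hle := le_II (S := Metric.ball x (Real.exp (l - 2))) (a := 3 / 4)
    (b := bl * (1 - (3 / 4) ^ 2) ^ 2) hok hloc.toOn hcmp hp (by fun_prop) (by norm_num)
    (by positivity) (fun t h0 h1 => hlow _ t h0 h1 (by norm_num)) hSm (by
      intro z hzK hzS
      rw [mem_ball_iff_norm] at hzS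
      exact (ball_in h hf hl hw0 he2 hzS.le).2.2)
  have hV8 : ∫ p in Prod.fst ⁻¹' (Metric.ball x (Real.exp (l - 2))),
      ‖ρ (p.1 - x) - w (π (p.1 - x))‖ ^ 2 ∂(VK V Kt) =
      ∫ p in Prod.fst ⁻¹' (Metric.ball x (Real.exp (l - 2))),
        ‖ρ (p.1 - x) - w (π (p.1 - x))‖ ^ 2 ∂V := by
    unfold VK
    rw [Measure.restrict_restrict (measurable_fst hSm)]
    refine setIntegral_congr_set ?_
    filter_upwards [hloc.gap] with p hp
    refine propext ⟨fun h1 => h1.1, fun h1 => ⟨h1, ?_, mem_univ _⟩⟩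
    have h3 : ‖p.1 - x‖ < Real.exp (l - 2) := by
      have : p.1 ∈ Metric.ball x (Real.exp (l - 2)) := h1
      rwa [mem_ball_iff_norm] at this
    obtain ⟨e1, e2, -⟩ := ball_in h hf hl hw0 he2 h3.le
    exact hp ⟨e1, hU h1⟩ e2
  rw [hV8] at hle
  set J := ∫ p in Prod.fst ⁻¹' (Metric.ball x (Real.exp (l - 2))),
        ‖ρ (p.1 - x) - w (π (p.1 - x))‖ ^ 2 ∂V with hJ
  have hJ0 : 0 ≤ J := integral_nonneg fun p => by positivity
  have e1 : Real.exp (-((m + 2) * (l - 2))) =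
      Real.exp ((m + 2) * 2) * (Real.exp (-2 * l) * Real.exp (-m * l)) := by
    rw [← Real.exp_add, ← Real.exp_add]
    congr 1
    ring
  have e3 : Real.exp (-m * l) * J ≤ 8 / bl * II c (VK V Kt) g1 l := by
    have e4 : 2 / 3 * (bl * (1 - (3 / 4) ^ 2) ^ 2) * (Real.exp (-m * l) * J) * (8 / bl) ≤
        II c (VK V Kt) g1 l * (8 / bl) := mul_le_mul_of_nonneg_right hle (by positivity)
    have e5 : 2 / 3 * (bl * (1 - (3 / 4) ^ 2) ^ 2) * (Real.exp (-m * l) * J) * (8 / bl) =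
        (16 / 3 * (1 - (3 / 4) ^ 2) ^ 2) * (Real.exp (-m * l) * J) := by
      field_simp
      ring
    have e6 : 0 ≤ Real.exp (-m * l) * J := by positivity
    rw [e5] at e4
    nlinarith
  rw [e1]
  calc Real.exp ((m + 2) * 2) * (Real.exp (-2 * l) * Real.exp (-m * l)) * J
      = Real.exp ((m + 2) * 2) * Real.exp (-2 * l) * (Real.exp (-m * l) * J) := by ring
    _ ≤ Real.exp ((m + 2) * 2) * Real.exp (-2 * l) * (8 / bl * II c (VK V Kt) g1 l) := by gcongr
    _ = _ := by ring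

theorem iter_scale {ζ : Euc m → ℝ} (hζ : ContDiff ℝ ∞ ζ) {a t : ℝ} (ht : 0 ≤ t) (ha : 0 ≤ a)
    (j : ℕ) (y : Euc m) :
    ‖iteratedFDeriv ℝ j (fun y => a * ζ (t • y)) y‖ ≤ a * (t ^ j * ‖iteratedFDeriv ℝ j ζ (t • y)‖) := by
  set g : Euc m →L[ℝ] Euc m := t • ContinuousLinearMap.id ℝ (Euc m) with hg
  have hgn : ‖g‖ ≤ t := by
    rw [hg, norm_smul, Real.norm_of_nonneg ht]
    have := ContinuousLinearMap.norm_id_le (𝕜 := ℝ) (E := Euc m)
    nlinarith
  have h1 : (fun y => a * ζ (t • y)) = fun y => a • (ζ ∘ g) y := by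
    funext y
    simp [hg]
  have h3 : ((j : ℕ∞) : WithTop ℕ∞) ≤ ((⊤ : ℕ∞) : WithTop ℕ∞) := WithTop.coe_le_coe.2 le_top
  have hc : ContDiff ℝ j (ζ ∘ g) := (hζ.of_le h3).comp g.contDiff
  rw [h1, iteratedFDeriv_const_smul_apply' hc.contDiffAt, norm_smul, Real.norm_of_nonneg ha]
  refine mul_le_mul_of_nonneg_left ?_ ha
  rw [g.iteratedFDeriv_comp_right (hζ.of_le h3) y le_rfl]
  refine (ContinuousMultilinearMap.norm_compContinuousLinearMap_le _ _).trans ?_
  have h4 : g y = t • y := by simp [hg]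
  rw [h4, Finset.prod_const, Finset.card_univ, Fintype.card_fin, mul_comm]
  exact mul_le_mul_of_nonneg_right (pow_le_pow_left₀ (norm_nonneg _) hgn j) (norm_nonneg _)

/-- **rescaling of the mean**: from the unit `S` of the block to the scale `r ≤ S`. -/
theorem mean_scale {V : Measure (Euc k × L k)} {A : Set (Euc k × L k)} {r μ l : ℝ} {Ks K : ℕ}
    (hr : 0 < r) (hrS : r ≤ S) (hK : Ks ≤ K) (h8 : 8 * r ≤ Real.exp l) (hAm : MeasurableSet A)
    {hz : Euc k → Euc n}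
    (hA : ∀ᵐ p ∂V, ‖π (p.1 - x)‖ < 8 * r → (p ∈ A ↔ p ∈ box π ρ x (8 * r) ×ˢ (univ : Set (L k))))
    (hmean : ∀ ζ : Euc m → ℝ, ContDiff ℝ ∞ ζ → tsupport ζ ⊆ Metric.ball 0 (Real.exp l / S) →
      (∀ j ≤ Ks, ∀ z, ‖iteratedFDeriv ℝ j ζ z‖ ≤ 1) →
      ‖∫ p in A, ζ (S⁻¹ • π (p.1 - x)) • hz p.1 ∂V‖ ≤ μ) :
    ∀ ζ : Euc m → ℝ, ContDiff ℝ ∞ ζ → tsupport ζ ⊆ Metric.ball 0 8 →
      (∀ j ≤ K, ∀ z, ‖iteratedFDeriv ℝ j ζ z‖ ≤ 1) →
      ‖∫ p in box π ρ x (8 * r) ×ˢ univ, ζ (r⁻¹ • π (p.1 - x)) • hz p.1 ∂V‖ ≤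
        (S / r) ^ Ks * μ := by
  intro ζ hζ1 hζ2 hζ3
  have hS : 0 < S := hr.trans_le hrS
  set a := (r / S) ^ Ks with ha
  have ha0 : 0 < a := by positivity
  set t := S / r with ht
  have ht0 : 0 < t := by positivity
  have ht1 : 1 ≤ t := by rw [ht, one_le_div hr]; exact hrS
  have hat : a * t ^ Ks = 1 := by
    rw [ha, ht, ← mul_pow]
    have : r / S * (S / r) = 1 := by field_simp
    rw [this, one_pow]
  set ζ' : Euc m → ℝ := fun y => a * ζ (t • y) with hζ'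
  have h1 : ContDiff ℝ ∞ ζ' := contDiff_const.mul (hζ1.comp (contDiff_const_smul t))
  have h2 : tsupport ζ' ⊆ Metric.ball 0 (Real.exp l / S) := by
    have e1 : tsupport ζ' ⊆ (fun y : Euc m => t • y) ⁻¹' (tsupport ζ) := by
      refine closure_minimal ?_ ((isClosed_tsupport ζ).preimage (continuous_const_smul t))
      intro y hy
      refine subset_tsupport ζ ?_
      intro h0
      exact hy (by rw [hζ']; simp only [h0, mul_zero])
    intro y hy
    have e2 := hζ2 (e1 hy)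
    rw [mem_ball_zero_iff, norm_smul, Real.norm_of_nonneg ht0.le] at e2
    rw [mem_ball_zero_iff, lt_div_iff₀ hS]
    have e3 : ‖y‖ * S = (t * ‖y‖) * r := by rw [ht]; field_simp
    rw [e3]
    nlinarith
  have h3 : ∀ j ≤ Ks, ∀ z, ‖iteratedFDeriv ℝ j ζ' z‖ ≤ 1 := by
    intro j hj z
    refine (iter_scale hζ1 ht0.le ha0.le j z).trans ?_
    calc a * (t ^ j * ‖iteratedFDeriv ℝ j ζ (t • z)‖) ≤ a * (t ^ Ks * 1) := by
          refine mul_le_mul_of_nonneg_left ?_ ha0.le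
          exact mul_le_mul (pow_le_pow_right₀ ht1 hj) (hζ3 j (hj.trans hK) _) (norm_nonneg _)
            (by positivity)
      _ = 1 := by rw [mul_one, hat]
  have h4 := hmean ζ' h1 h2 h3
  have hbox : MeasurableSet (box π ρ x (8 * r) ×ˢ (univ : Set (L k))) :=
    (isOpen_box π ρ x _).measurableSet.prod MeasurableSet.univ
  have h5 : ∫ p in A, ζ' (S⁻¹ • π (p.1 - x)) • hz p.1 ∂V =
      a • ∫ p in box π ρ x (8 * r) ×ˢ univ, ζ (r⁻¹ • π (p.1 - x)) • hz p.1 ∂V := by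
    have e0 : ∀ p : Euc k × L k, ζ' (S⁻¹ • π (p.1 - x)) = a * ζ (r⁻¹ • π (p.1 - x)) := by
      intro p
      rw [hζ']
      simp only
      rw [smul_smul]
      congr 3
      rw [ht]
      field_simp
    rw [← integral_smul, ← integral_indicator hAm, ← integral_indicator hbox]
    refine integral_congr_ae ?_
    filter_upwards [hA] with p hp
    by_cases hπ : ‖π (p.1 - x)‖ < 8 * r
    · have e1 := hp hπ
      by_cases hpA : p ∈ A
      · rw [indicator_of_mem hpA, indicator_of_mem (e1.1 hpA), e0, mul_smul]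
      · rw [indicator_of_notMem hpA, indicator_of_notMem (fun h => hpA (e1.2 h))]
    · have e1 : ζ (r⁻¹ • π (p.1 - x)) = 0 := by
        by_contra hne
        have e2 := hζ2 (subset_tsupport ζ hne)
        rw [mem_ball_zero_iff, norm_smul, norm_inv, Real.norm_of_nonneg hr.le,
          inv_mul_lt_iff₀ hr] at e2
        exact hπ (by linarith)
      have e3 : A.indicator (fun p => ζ' (S⁻¹ • π (p.1 - x)) • hz p.1) p = 0 := by
        refine indicator_apply_eq_zero.2 fun _ => ?_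
        rw [e0, e1, mul_zero, zero_smul]
      have e4 : (box π ρ x (8 * r) ×ˢ (univ : Set (L k))).indicator
          (fun p => a • ζ (r⁻¹ • π (p.1 - x)) • hz p.1) p = 0 := by
        refine indicator_apply_eq_zero.2 fun _ => ?_
        rw [e1, zero_smul, smul_zero]
      rw [e3, e4]
  rw [h5, norm_smul, Real.norm_of_nonneg ha0.le] at h4
  calc ‖∫ p in box π ρ x (8 * r) ×ˢ univ, ζ (r⁻¹ • π (p.1 - x)) • hz p.1 ∂V‖
      = t ^ Ks * (a * ‖∫ p in box π ρ x (8 * r) ×ˢ univ, ζ (r⁻¹ • π (p.1 - x)) • hz p.1 ∂V‖) := by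
        rw [← mul_assoc, mul_comm (t ^ Ks) a, hat, one_mul]
    _ ≤ t ^ Ks * μ := by gcongr

end Crest.Agent.R234.End_395
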