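import Crest.Agent.R234.Top9_395

/-!
# Row 234 (helper395): a frame with small heights at a smaller scale is flat at the larger scale

* `pex_le_of_sup` : small heights give a small planar excess.
* `pex_near` : change of plane.
* `frame_flat` : `V` flat (any plane) at the scale `R`, heights over the frame `≤ h` on `ball x a`,
  `a ≤ R`; then the frame is flat at the scale `R`.
-/

set_option autoImplicit false
set_option linter.unusedSectionVars false

open MeasureTheory Set Filter Topology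
open scoped ENNReal NNReal
open Crest.GeometryTopology.Submanifold Crest.Agent.R234.Vf_884
open Crest.Agent.R234.Strat3_842 (tilt height)
open Crest.Agent.R234.AS_456 (hp vp)
open Crest.Agent.R234.Main_456 Crest.Agent.R234.Top_395

noncomputable section

namespace Crest.Agent.R234.End_395

variable {m n k : ℕ} {π : Euc k →L[ℝ] Euc m} {ρ : Euc k →L[ℝ] Euc n} {x : Euc k}
  {U : Set (Euc k)} {V : Measure (Euc k × L k)} {P : L k}

theorem mass_real_le {a q : ℝ} (ha : 0 < a) (hq : 0 ≤ q)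
    (h : rat m V x a ≤ ENNReal.ofReal q) :
    V.real (Prod.fst ⁻¹' Metric.ball x a) ≤ q * (ome m * a ^ m) := by
  have h1 : 0 < ome m * a ^ m := den_pos m ha
  unfold rat at h
  rw [ENNReal.div_le_iff (by simpa using h1) ENNReal.ofReal_ne_top,
    ← ENNReal.ofReal_mul hq] at h
  have hm : mass V (Metric.ball x a) = V (Prod.fst ⁻¹' Metric.ball x a) :=
    Measure.map_apply measurable_fst Metric.isOpen_ball.measurableSet
  rw [hm] at h
  exact ENNReal.toReal_le_of_le_ofReal (by positivity) h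

theorem pex_le_of_sup (hV : Stat m k U V) (hf : Frame π ρ) {a q h : ℝ} (ha : 0 < a) (hq : 0 ≤ q)
    (hU : Metric.closedBall x a ⊆ U) (hrat : rat m V x a ≤ ENNReal.ofReal q) (hh : 0 ≤ h)
    (hae : ∀ᵐ p ∂V, p.1 ∈ Metric.ball x a → ‖ρ (p.1 - x)‖ ≤ h) :
    pex m V (hp π) x a ≤ q * ome m * (h / a) ^ 2 := by
  have hfin : V ((Prod.fst : Euc k × L k → Euc k) ⁻¹' Metric.ball x a) < ⊤ :=
    fin_ball hV hU Metric.ball_subset_closedBall
  rw [pex_frame hf, inv_mul_le_iff₀ (by positivity)]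
  have h1 : ∫ p in Prod.fst ⁻¹' (Metric.ball x a), ‖ρ (p.1 - x)‖ ^ 2 ∂V ≤
      ∫ p in (Prod.fst : Euc k × L k → Euc k) ⁻¹' (Metric.ball x a), h ^ 2 ∂V := by
    refine integral_mono_of_nonneg (Eventually.of_forall fun p => by positivity) ?_ ?_
    · exact integrableOn_const hfin.ne
    · rw [Filter.EventuallyLE, ae_restrict_iff' (measurable_fst Metric.isOpen_ball.measurableSet)]
      filter_upwards [hae] with p hp1 hp2
      exact pow_le_pow_left₀ (norm_nonneg _) (hp1 hp2) 2
  rw [setIntegral_const, smul_eq_mul] at h1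
  refine h1.trans ?_
  have h2 := mass_real_le (m := m) ha hq hrat
  calc V.real (Prod.fst ⁻¹' Metric.ball x a) * h ^ 2 ≤ (q * (ome m * a ^ m)) * h ^ 2 := by gcongr
    _ = a ^ (m + 2) * (q * ome m * (h / a) ^ 2) := by rw [div_pow, pow_add]; field_simp

theorem pex_near (hV : Stat m k U V) {a q : ℝ} {P' : L k} (ha : 0 < a) (hq : 0 ≤ q)
    (hU : Metric.closedBall x a ⊆ U) (hrat : rat m V x a ≤ ENNReal.ofReal q) :
    pex m V P' x a ≤ 2 * pex m V P x a + 2 * (q * ome m) * ‖P - P'‖ ^ 2 := by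
  have hfin : V ((Prod.fst : Euc k × L k → Euc k) ⁻¹' Metric.ball x a) < ⊤ :=
    fin_ball hV hU Metric.ball_subset_closedBall
  have hbm : MeasurableSet ((Prod.fst : Euc k × L k → Euc k) ⁻¹' Metric.ball x a) :=
    measurable_fst Metric.isOpen_ball.measurableSet
  set N := ‖P - P'‖ with hN
  have i1 : IntegrableOn (fun p : Euc k × L k =>
      ‖(ContinuousLinearMap.id ℝ (Euc k) - P) (p.1 - x)‖ ^ 2)
      (Prod.fst ⁻¹' Metric.ball x a) V := by
    have := Strat3_842.integrableOn_of_bdd hV.conc (x := x) (r := a)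
      (f := fun p : Euc k × L k => ‖(ContinuousLinearMap.id ℝ (Euc k) - P) (p.1 - x)‖ ^ 2)
      (by rw [Top_395.prod_eq]; exact hfin) (by fun_prop)
    rwa [Top_395.prod_eq] at this
  have h1 : ∫ p in Prod.fst ⁻¹' (Metric.ball x a),
        ‖(ContinuousLinearMap.id ℝ (Euc k) - P') (p.1 - x)‖ ^ 2 ∂V ≤
      ∫ p in Prod.fst ⁻¹' (Metric.ball x a),
        (2 * ‖(ContinuousLinearMap.id ℝ (Euc k) - P) (p.1 - x)‖ ^ 2 + 2 * (N ^ 2 * a ^ 2)) ∂V := by
    refine integral_mono_of_nonneg (Eventually.of_forall fun p => by positivity) ?_ ?_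
    · exact (i1.const_mul 2).add (integrableOn_const hfin.ne)
    · rw [Filter.EventuallyLE, ae_restrict_iff' hbm]
      refine Eventually.of_forall fun p hp => ?_
      have hpa : ‖p.1 - x‖ ≤ a := by
        have : p.1 ∈ Metric.ball x a := hp
        rw [mem_ball_iff_norm] at this
        exact this.le
      have e1 : (ContinuousLinearMap.id ℝ (Euc k) - P') (p.1 - x) =
          (ContinuousLinearMap.id ℝ (Euc k) - P) (p.1 - x) + (P - P') (p.1 - x) := by
        simp only [_root_.sub_apply, ContinuousLinearMap.id_apply]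
        abel
      rw [e1]
      have e2 : ‖(P - P') (p.1 - x)‖ ≤ N * a :=
        ((P - P').le_opNorm _).trans (by gcongr)
      have e3 := norm_add_le ((ContinuousLinearMap.id ℝ (Euc k) - P) (p.1 - x))
        ((P - P') (p.1 - x))
      set A := ‖(ContinuousLinearMap.id ℝ (Euc k) - P) (p.1 - x)‖ with hA
      have hA0 : 0 ≤ A := norm_nonneg _
      have e4 : ‖(ContinuousLinearMap.id ℝ (Euc k) - P) (p.1 - x) + (P - P') (p.1 - x)‖ ^ 2 ≤
          (A + N * a) ^ 2 := pow_le_pow_left₀ (norm_nonneg _) (by linarith) 2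
      nlinarith [sq_nonneg (A - N * a)]
  rw [integral_add (i1.const_mul 2) (integrableOn_const hfin.ne), integral_const_mul,
    setIntegral_const, smul_eq_mul] at h1
  have h2 := mass_real_le (m := m) ha hq hrat
  unfold pex ex
  calc (a ^ (m + 2))⁻¹ * ∫ p in Prod.fst ⁻¹' (Metric.ball x a),
        ‖(ContinuousLinearMap.id ℝ (Euc k) - P') (p.1 - x)‖ ^ 2 ∂V
      ≤ (a ^ (m + 2))⁻¹ * (2 * ∫ p in Prod.fst ⁻¹' (Metric.ball x a),
        ‖(ContinuousLinearMap.id ℝ (Euc k) - P) (p.1 - x)‖ ^ 2 ∂V +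
        (q * (ome m * a ^ m)) * (2 * (N ^ 2 * a ^ 2))) := by
        refine mul_le_mul_of_nonneg_left (h1.trans ?_) (by positivity)
        gcongr
    _ = _ := by
        rw [pow_add]
        field_simp

/-- constant of `frame_flat` -/
def Cff (m : ℕ) (q A : ℝ) : ℝ := 2 + 2 * q * (1024 * 2 ^ m * (A ^ (m + 2) + q * ome m))

/-- **flatness of the frame**. -/
theorem frame_flat (hV : Stat m k U V) (hm : 1 ≤ m) (hf : Frame π ρ) {a R q h ω A : ℝ}
    (ha : 0 < a) (haR : a ≤ R) (hRA : R ≤ A * a) (hq : 0 ≤ q)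
    (hU : Metric.closedBall x R ⊆ U) (hTh : 1 ≤ Th m V x)
    (hrat : rat m V x R ≤ ENNReal.ofReal q) (hP : P ∈ G m k) (hω : pex m V P x R ≤ ω)
    (hh : 0 ≤ h) (hae : ∀ᵐ p ∂V, p.1 ∈ Metric.ball x a → ‖ρ (p.1 - x)‖ ≤ h) :
    pex m V (hp π) x R ≤ Cff m q A * (ω + (h / a) ^ 2) := by
  have hR : 0 < R := ha.trans_le haR
  have ho := ome_pos m
  have hUa : Metric.closedBall x a ⊆ U := (Metric.closedBall_subset_closedBall haR).trans hU
  have hrata : rat m V x a ≤ ENNReal.ofReal q :=
    (rat_mono hV hm ha haR (Metric.ball_subset_closedBall.trans hU)).trans hrat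
  have hω0 : 0 ≤ ω := by
    refine le_trans ?_ hω
    unfold pex ex
    positivity
  have hA0 : 0 ≤ A := by
    by_contra hneg
    push Not at hneg
    nlinarith
  -- excess of `P` at `a`
  have h1 : pex m V P x a ≤ A ^ (m + 2) * ω := by
    have e1 := pex_mono (P := P) (m := m) hV ha haR hU
    have e2 : R ^ (m + 2) * pex m V P x R ≤ (A * a) ^ (m + 2) * ω :=
      mul_le_mul (pow_le_pow_left₀ hR.le hRA _) hω (by unfold pex ex; positivity) (by positivity)
    have e3 : a ^ (m + 2) * pex m V P x a ≤ a ^ (m + 2) * (A ^ (m + 2) * ω) := by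
      refine (e1.trans e2).trans (le_of_eq ?_)
      rw [mul_pow]; ring
    exact le_of_mul_le_mul_left e3 (by positivity)
  have h2 := pex_le_of_sup (m := m) hV hf ha hq hUa hrata hh hae
  -- tilt
  have h3 := int_tilt_le (m := m) (P := P) hV ha hUa hP
  have h4 := int_tilt_le (m := m) (P := hp π) hV ha hUa (hp_mem hf)
  have ha2 : 0 < a / 2 := by positivity
  have e5 : ∀ {c : ℝ}, 256 * a ^ m * c = (256 * 2 ^ m * c) * (a / 2) ^ m := by
    intro c
    rw [div_pow]; field_simp
  have h5 := plane_close (m := m) (a := 256 * 2 ^ m * (A ^ (m + 2) * ω))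
    (b := 256 * 2 ^ m * (q * ome m * (h / a) ^ 2)) hV hm hP (hp_mem hf) ha2
    ((Metric.closedBall_subset_closedBall (by linarith)).trans hUa) hTh (by
      rw [← e5]
      refine h3.trans ?_
      gcongr) (by
      rw [← e5]
      refine h4.trans ?_
      gcongr)
  have h6 := pex_near (m := m) (P := P) (P' := hp π) hV hR hq hU hrat
  calc pex m V (hp π) x R ≤ 2 * pex m V P x R + 2 * (q * ome m) * ‖P - hp π‖ ^ 2 := h6
    _ = 2 * pex m V P x R + 2 * q * (ome m * ‖P - hp π‖ ^ 2) := by ring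
    _ ≤ 2 * ω + 2 * q * (4 * (256 * 2 ^ m * (A ^ (m + 2) * ω) +
        256 * 2 ^ m * (q * ome m * (h / a) ^ 2))) := by gcongr
    _ = 2 * ω + 2 * q * (1024 * 2 ^ m * (A ^ (m + 2) * ω + q * ome m * (h / a) ^ 2)) := by ring
    _ ≤ 2 * (ω + (h / a) ^ 2) + 2 * q * (1024 * 2 ^ m * ((A ^ (m + 2) + q * ome m) *
        (ω + (h / a) ^ 2))) := by
        have e6 : 0 ≤ (h / a) ^ 2 := sq_nonneg _
        have e7 : 0 ≤ A ^ (m + 2) := by positivity
        have e8 : 0 ≤ q * ome m := by positivity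
        have e9 : A ^ (m + 2) * ω + q * ome m * (h / a) ^ 2 ≤
            (A ^ (m + 2) + q * ome m) * (ω + (h / a) ^ 2) := by
          nlinarith [mul_nonneg e7 e6, mul_nonneg e8 hω0]
        gcongr
        linarith
    _ = Cff m q A * (ω + (h / a) ^ 2) := by unfold Cff; ring

end Crest.Agent.R234.End_395
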