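import Crest.Agent.R234.Mx16_397

/-!
# Row 234, VF-MINEX part 17 (helper397): node F2-BD (`BdP`)
-/

set_option autoImplicit false
set_option linter.unusedSectionVars false

open MeasureTheory Complex Filter Real
open scoped ContDiff Topology InnerProductSpace

noncomputable section

namespace Crest.Agent.R234.Mx17_397

open Crest.Agent.R086.Wie Crest.Agent.R234.Mx1_397 Crest.Agent.R234.Mx5_397
  Crest.Agent.R234.Mx6_397 Crest.Agent.R234.Mx16_397
open Crest.GeometryTopology.Submanifold Crest.Agent.R234.MG_570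

/-- **node F2-BD** -/
theorem bdP : BdP := by
  intro m n N
  refine ⟨Fintype.card (Fin n) * (2 * π) ^ (N + 2), by positivity, fun κ r u h => ?_⟩
  obtain ⟨a, _, ha, hrep, _⟩ := h
  rw [rep_syn hrep]
  refine ⟨(contDiff_syn _ a).of_le (by norm_cast), fun j hj x => ?_⟩
  refine (norm_iteratedFDeriv_syn_le _ a hj x).trans ?_
  have hpi := Real.pi_gt_three
  have h1 : (2 * π) ^ j ≤ (2 * π) ^ (N + 2) := pow_le_pow_right₀ (by linarith) hj
  rw [mul_assoc]
  gcongr

end Crest.Agent.R234.Mx17_397
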