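import Crest.Agent.R234.Top4_395

/-!
Row 234 (helper395), file 5 of VF-TOP: node F9B.  At a singular point and a fixed scale the
separation from ALL references (graphs in arbitrary frames with bounded `C^{1,1}` norm) is bounded
from below; compactness along an ultrafilter, the regularity at the limit (`C^{1,1}` zero set) is the
node F9C, here a hypothesis.
-/

set_option autoImplicit false
set_option linter.unusedSectionVars false

open MeasureTheory Crest.GeometryTopology.Submanifold Filter Topology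
open scoped ENNReal InnerProductSpace

noncomputable section

namespace Crest.Agent.R234.Top_395

open Crest.Agent.R234.Vf_884 Crest.Agent.R234.Main_456

variable {m n k : ℕ}

/-- node F9C (947): support in the zero set of a `C^{1,1}` submersion ==> regular. -/
def F9C (m n k : ℕ) : Prop :=
  ∀ (U : Set (Euc k)) (D : VarifoldData m k), IsOpen U → IsIntegralVarifoldIn U D →
    IsStationaryIn U D → ∀ x ∈ support D, x ∈ U → ∀ Q : ℕ, 1 ≤ Q → Th m (VD D) x = (Q : ℝ≥0∞) →
    ∀ R : ℝ, 0 < R → Metric.ball x R ⊆ U →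
    ∀ (h : Euc k → Euc n) (h' : Euc k → Euc k →L[ℝ] Euc n),
    (∀ z ∈ Metric.ball x R, HasFDerivAt h (h' z) z) →
    (∃ K : ℝ, ∀ z ∈ Metric.ball x R, ∀ z' ∈ Metric.ball x R, ‖h' z - h' z'‖ ≤ K * ‖z - z'‖) →
    (∀ z ∈ support D, z ∈ Metric.ball x R → h z = 0) →
    (∃ C : ℝ, ∀ z ∈ Metric.ball x R, ∀ S ∈ G m k, h' z ∘L S = 0 →
      ∀ v, S v = 0 → ‖v‖ ≤ C * ‖h' z v‖) →
    x ∉ singularSet m k U D

/-- limits along an ultrafilter. -/
theorem ulim {E : Type*} [NormedAddCommGroup E] [ProperSpace E] (𝓤 : Ultrafilter ℕ) {a : ℕ → E}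
    {C : ℝ} (h : ∀ j, ‖a j‖ ≤ C) : ∃ l, Tendsto a 𝓤 (𝓝 l) := by
  have hc : IsCompact (Metric.closedBall (0 : E) C) := isCompact_closedBall 0 C
  have h1 : Metric.closedBall (0 : E) C ∈ (𝓤.map a : Filter E) := by
    refine Filter.mem_map.2 (Filter.univ_mem' fun j => ?_)
    simpa using h j
  obtain ⟨l, _, hl⟩ := hc.ultrafilter_le_nhds (𝓤.map a) (Filter.le_principal_iff.2 h1)
  exact ⟨l, hl⟩

/-- a frame splits the dimension. -/
theorem dim_frame {π : Euc k →L[ℝ] Euc m} {ρ : Euc k →L[ℝ] Euc n} (h : Frame π ρ) :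
    k = m + n := by
  let e : Euc k ≃ₗ[ℝ] (Euc m × Euc n) :=
    { toFun := fun v => (π v, ρ v)
      map_add' := fun v w => by simp
      map_smul' := fun c v => by simp
      invFun := fun p => ContinuousLinearMap.adjoint π p.1 + ContinuousLinearMap.adjoint ρ p.2
      left_inv := fun v => fr_sum h v
      right_inv := fun p => by
        simp [fr_pp h, fr_rr h, fr_pr h, fr_rp h] }
  have h1 := e.finrank_eq
  simpa using h1

/-- coercivity of the adjoint controls normal vectors. -/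
theorem normal_of_coercive (hk : k = m + n) (T : Euc k →L[ℝ] Euc n)
    (hT : ∀ y, ‖y‖ ≤ ‖ContinuousLinearMap.adjoint T y‖) {S : L k} (hS : S ∈ G m k)
    (hTS : T ∘L S = 0) {v : Euc k} (hv : S v = 0) : ‖v‖ ≤ 1 * ‖T v‖ := by
  -- the adjoint is injective, its range is the orthogonal complement of the range of `S`
  have hinj : Function.Injective (ContinuousLinearMap.adjoint T) := by
    refine (injective_iff_map_eq_zero _).2 fun y hy => ?_
    have := hT y
    rw [hy, norm_zero] at this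
    exact norm_le_zero_iff.1 this
  have hTS' : ∀ w, T (S w) = 0 := fun w => congrArg (fun A : Euc k →L[ℝ] Euc n => A w) hTS
  set R : Submodule ℝ (Euc k) := LinearMap.range (ContinuousLinearMap.adjoint T).toLinearMap with hR
  set W : Submodule ℝ (Euc k) := LinearMap.range S.toLinearMap with hW
  have hRn : Module.finrank ℝ R = n := by
    rw [hR, LinearMap.finrank_range_of_inj hinj, finrank_euclideanSpace, Fintype.card_fin]
  have hWm : Module.finrank ℝ W = m := by
    have h1 : LinearMap.IsProj W S.toLinearMap := by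
      refine ⟨fun x => ⟨x, rfl⟩, fun x hx => ?_⟩
      obtain ⟨y, rfl⟩ := hx
      exact G_idem_apply hS y
    have h2 := h1.trace
    have h3 : LinearMap.trace ℝ (Euc k) S.toLinearMap = m := by rw [← tr_apply]; exact hS.2.2
    rw [h3] at h2
    exact_mod_cast h2.symm
  have hRW : R ≤ Wᗮ := by
    rintro _ ⟨y, rfl⟩
    rw [Submodule.mem_orthogonal]
    rintro _ ⟨w, rfl⟩
    change ⟪S w, ContinuousLinearMap.adjoint T y⟫_ℝ = 0
    rw [ContinuousLinearMap.adjoint_inner_right, hTS', inner_zero_left]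
  have hdim : Module.finrank ℝ Wᗮ = n := by
    have h1 := W.finrank_add_finrank_orthogonal
    rw [hWm, finrank_euclideanSpace, Fintype.card_fin] at h1
    omega
  have hReq : R = Wᗮ := Submodule.eq_of_le_of_finrank_eq hRW (by rw [hRn, hdim])
  have hvW : v ∈ Wᗮ := by
    rw [Submodule.mem_orthogonal]
    rintro _ ⟨w, rfl⟩
    change ⟪S w, v⟫_ℝ = 0
    rw [G_symm hS, hv, inner_zero_right]
  rw [← hReq] at hvW
  obtain ⟨y, rfl⟩ := hvW
  set v : Euc k := ContinuousLinearMap.adjoint T y with hvdef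
  change ‖v‖ ≤ 1 * ‖T v‖
  have h1 : ‖v‖ * ‖v‖ ≤ ‖v‖ * ‖T v‖ := by
    calc ‖v‖ * ‖v‖ = ⟪v, v⟫_ℝ := (real_inner_self_eq_norm_mul_norm v).symm
      _ = ⟪y, T v⟫_ℝ := by
        nth_rewrite 1 [hvdef]
        rw [ContinuousLinearMap.adjoint_inner_left]
      _ ≤ ‖y‖ * ‖T v‖ := real_inner_le_norm _ _
      _ ≤ ‖v‖ * ‖T v‖ := by gcongr; exact hT y
  rw [one_mul]
  rcases (norm_nonneg v).eq_or_lt with h0 | h0
  · rw [← h0]; exact norm_nonneg _
  · exact le_of_mul_le_mul_left h1 h0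

theorem coercive_frame {π : Euc k →L[ℝ] Euc m} {ρ : Euc k →L[ℝ] Euc n} (h : Frame π ρ)
    (B : Euc m →L[ℝ] Euc n) (y : Euc n) :
    ‖y‖ ≤ ‖ContinuousLinearMap.adjoint (ρ - B ∘L π) y‖ := by
  have h1 : ContinuousLinearMap.adjoint (ρ - B ∘L π) y =
      ContinuousLinearMap.adjoint ρ y -
        ContinuousLinearMap.adjoint π (ContinuousLinearMap.adjoint B y) := by
    rw [map_sub, ContinuousLinearMap.adjoint_comp]
    rfl
  have h2 : ρ (ContinuousLinearMap.adjoint (ρ - B ∘L π) y) = y := by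
    rw [h1, map_sub, fr_rr h, fr_rp h, sub_zero]
  calc ‖y‖ = ‖ρ (ContinuousLinearMap.adjoint (ρ - B ∘L π) y)‖ := by rw [h2]
    _ ≤ _ := fr_norm_r h _

/-- quadratic estimate from a Lipschitz derivative. -/
theorem quad_of_lip {E F : Type*} [NormedAddCommGroup E] [NormedSpace ℝ E]
    [NormedAddCommGroup F] [NormedSpace ℝ F] {h : E → F} {h' : E → E →L[ℝ] F} {x : E} {r K : ℝ}
    (hd : ∀ z ∈ Metric.ball x r, HasFDerivAt h (h' z) z) (hK : 0 ≤ K)
    (hl : ∀ z ∈ Metric.ball x r, ∀ z' ∈ Metric.ball x r, ‖h' z - h' z'‖ ≤ K * ‖z - z'‖)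
    {z z' : E} (hz : z ∈ Metric.ball x r) (hz' : z' ∈ Metric.ball x r) :
    ‖h z' - h z - h' z (z' - z)‖ ≤ K * ‖z' - z‖ ^ 2 := by
  have hconv : Convex ℝ (Metric.ball x r ∩ Metric.closedBall z ‖z' - z‖) :=
    (convex_ball x r).inter (convex_closedBall z _)
  have h1 : ∀ w ∈ Metric.ball x r ∩ Metric.closedBall z ‖z' - z‖,
      HasFDerivWithinAt h (h' w) (Metric.ball x r ∩ Metric.closedBall z ‖z' - z‖) w :=
    fun w hw => (hd w hw.1).hasFDerivWithinAt
  have h2 : ∀ w ∈ Metric.ball x r ∩ Metric.closedBall z ‖z' - z‖,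
      ‖h' w - h' z‖ ≤ K * ‖z' - z‖ := by
    intro w hw
    refine (hl w hw.1 z hz).trans ?_
    have := mem_closedBall_iff_norm.1 hw.2
    gcongr
  have h3 := hconv.norm_image_sub_le_of_norm_hasFDerivWithin_le' h1 h2
    (x := z) (y := z') ⟨hz, by simp⟩ ⟨hz', by rw [mem_closedBall_iff_norm]⟩
  calc _ ≤ K * ‖z' - z‖ * ‖z' - z‖ := h3
    _ = _ := by ring

theorem hasFDerivAt_of_quad {E F : Type*} [NormedAddCommGroup E] [NormedSpace ℝ E]
    [NormedAddCommGroup F] [NormedSpace ℝ F] {h : E → F} {T : E →L[ℝ] F} {x z : E} {r K : ℝ}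
    (hz : z ∈ Metric.ball x r)
    (hq : ∀ z' ∈ Metric.ball x r, ‖h z' - h z - T (z' - z)‖ ≤ K * ‖z' - z‖ ^ 2) :
    HasFDerivAt h T z := by
  refine HasFDerivAt.of_isLittleO ?_
  have h1 : (fun z' => h z' - h z - T (z' - z)) =O[𝓝 z] fun z' => ‖z' - z‖ ^ 2 := by
    refine Asymptotics.IsBigO.of_bound K ?_
    filter_upwards [Metric.isOpen_ball.mem_nhds hz] with z' hz'
    rw [norm_pow, norm_norm]
    exact hq z' hz'
  have h2 : (fun z' : E => ‖z' - z‖ ^ 2) =o[𝓝 z] fun z' => z' - z := by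
    have h3 : Tendsto (fun z' : E => z' - z) (𝓝 z) (𝓝 0) := by
      have : Tendsto (fun z' : E => z' - z) (𝓝 z) (𝓝 (z - z)) :=
        (continuous_id.sub continuous_const).tendsto z
      rwa [sub_self] at this
    have h4 := (Asymptotics.isLittleO_norm_pow_id (E' := E) one_lt_two).comp_tendsto h3
    exact h4
  exact h1.trans_isLittleO h2

/-- **F9B**: at a singular point the separation from all references is bounded from below. -/
theorem sep_pos (hC : F9C m n k) {U : Set (Euc k)} {D : VarifoldData m k} (hU : IsOpen U)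
    (hm : 1 ≤ m) (hD : IsIntegralVarifoldIn U D) (hst : IsStationaryIn U D) {x : Euc k}
    (hx : x ∈ singularSet m k U D) {Q : ℕ} (hQ : 1 ≤ Q) (hTh : Th m (VD D) x = (Q : ℝ≥0∞))
    {r : ℝ} (hr : 0 < r) (hball : Metric.closedBall x r ⊆ U) {κ : ℝ} (hκ : 0 ≤ κ) :
    ∃ c : ℝ, 0 < c ∧ ∀ (π : Euc k →L[ℝ] Euc m) (ρ : Euc k →L[ℝ] Euc n), Frame π ρ →
      ∀ (u : Euc m → Euc n) (g : Euc m → Euc m →L[ℝ] Euc n),
      (∀ w ∈ Metric.ball (0 : Euc m) 1, HasFDerivAt u (g w) w) → ‖u 0‖ ≤ κ →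
      (∀ w ∈ Metric.ball (0 : Euc m) 1, ‖g w‖ ≤ κ) →
      (∀ w ∈ Metric.ball (0 : Euc m) 1, ∀ w' ∈ Metric.ball (0 : Euc m) 1,
        ‖g w - g w'‖ ≤ κ * ‖w - w'‖) →
      c ≤ ∫ p in Prod.fst ⁻¹' (Metric.ball x r), ‖hgt π ρ x r u p.1‖ ^ 2 ∂(VD D) := by
  have hV := stat_VD hD hst
  have hxU : x ∈ U := hball (Metric.mem_closedBall_self hr.le)
  have hxs : x ∈ support D := hx.2.1
  by_contra hcon
  push Not at hcon
  have hseq : ∀ j : ℕ, ∃ (h : Euc k → Euc n) (h' : Euc k → Euc k →L[ℝ] Euc n),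
      k = m + n ∧ (∀ z ∈ Metric.ball x r, HasFDerivAt h (h' z) z) ∧
      (∀ z ∈ Metric.ball x r, ‖h' z‖ ≤ 1 + κ) ∧
      (∀ z ∈ Metric.ball x r, ∀ z' ∈ Metric.ball x r, ‖h' z - h' z'‖ ≤ κ / r * ‖z - z'‖) ∧
      (∀ z ∈ Metric.ball x r, ∀ y, ‖y‖ ≤ ‖ContinuousLinearMap.adjoint (h' z) y‖) ∧
      ‖h x‖ ≤ r * κ ∧
      ∫ p in Prod.fst ⁻¹' (Metric.ball x r), ‖h p.1‖ ^ 2 ∂(VD D) < 1 / ((j : ℝ) + 1) := by
    intro j
    obtain ⟨π, ρ, hF, u, g, hu, hu0, hg, hgl, hint⟩ := hcon (1 / ((j : ℝ) + 1)) (by positivity)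
    have hmaps : ∀ z ∈ Metric.ball x r, r⁻¹ • π (z - x) ∈ Metric.ball (0 : Euc m) 1 := by
      intro z hz
      rw [mem_ball_zero_iff, norm_smul, Real.norm_of_nonneg (by positivity),
        inv_mul_lt_iff₀ hr, mul_one]
      rw [mem_ball_iff_norm] at hz
      exact (fr_norm_p hF _).trans_lt hz
    refine ⟨hgt π ρ x r u, fun z => ρ - g (r⁻¹ • π (z - x)) ∘L π, dim_frame hF, ?_, ?_, ?_, ?_,
      ?_, hint⟩
    · intro z hz
      have h1 : HasFDerivAt (fun z : Euc k => r⁻¹ • π (z - x)) (r⁻¹ • π) z := by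
        have h2 := (π.hasFDerivAt (x := z - x)).comp z ((hasFDerivAt_id z).sub_const x)
        rw [ContinuousLinearMap.comp_id] at h2
        exact h2.const_smul r⁻¹
      have h2 := ((hu _ (hmaps z hz)).comp z h1).const_smul r
      have h3 : HasFDerivAt (fun z : Euc k => ρ (z - x)) ρ z := by
        have h4 := (ρ.hasFDerivAt (x := z - x)).comp z ((hasFDerivAt_id z).sub_const x)
        rw [ContinuousLinearMap.comp_id] at h4
        exact h4
      have h4 := h3.sub h2
      refine h4.congr_fderiv ?_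
      rw [ContinuousLinearMap.comp_smul, smul_smul, mul_inv_cancel₀ hr.ne', one_smul]
    · intro z hz
      exact (norm_lin_le hF _).trans (by gcongr; exact hg _ (hmaps z hz))
    · intro z hz z' hz'
      have e1 : (ρ - g (r⁻¹ • π (z - x)) ∘L π) - (ρ - g (r⁻¹ • π (z' - x)) ∘L π) =
          (g (r⁻¹ • π (z' - x)) - g (r⁻¹ • π (z - x))) ∘L π := by
        rw [ContinuousLinearMap.sub_comp]; abel
      change ‖(ρ - g (r⁻¹ • π (z - x)) ∘L π) - (ρ - g (r⁻¹ • π (z' - x)) ∘L π)‖ ≤ _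
      rw [e1]
      have hπ : ‖π‖ ≤ 1 := ContinuousLinearMap.opNorm_le_bound _ zero_le_one fun v => by
        rw [one_mul]; exact fr_norm_p hF v
      refine (ContinuousLinearMap.opNorm_comp_le _ _).trans ?_
      calc ‖g (r⁻¹ • π (z' - x)) - g (r⁻¹ • π (z - x))‖ * ‖π‖
          ≤ (κ * ‖r⁻¹ • π (z' - x) - r⁻¹ • π (z - x)‖) * 1 := by
            gcongr
            exact hgl _ (hmaps z' hz') _ (hmaps z hz)
        _ = κ * (r⁻¹ * ‖π (z' - z)‖) := by
            rw [mul_one, ← smul_sub, ← map_sub, norm_smul, Real.norm_of_nonneg (by positivity),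
              sub_sub_sub_cancel_right]
        _ ≤ κ * (r⁻¹ * ‖z - z'‖) := by
            gcongr
            rw [norm_sub_rev z z']
            exact fr_norm_p hF _
        _ = κ / r * ‖z - z'‖ := by rw [div_eq_mul_inv]; ring
    · intro z hz y
      exact coercive_frame hF _ y
    · simp only [hgt, sub_self, map_zero, smul_zero, zero_sub, norm_neg, norm_smul,
        Real.norm_of_nonneg hr.le]
      gcongr
  choose h h' hk hd hb hl hco hx0 hint using hseq
  have hk0 := hk 0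
  set 𝓤 : Ultrafilter ℕ := Filter.hyperfilter ℕ with h𝓤
  have h𝓤le : (𝓤 : Filter ℕ) ≤ atTop := by
    rw [← Nat.cofinite_eq_atTop]
    exact Filter.hyperfilter_le_cofinite
  have hκr : 0 ≤ κ / r := by positivity
  -- Lipschitz bound of the heights
  have hlip : ∀ j, ∀ z ∈ Metric.ball x r, ∀ z' ∈ Metric.ball x r,
      ‖h j z' - h j z‖ ≤ (1 + κ) * ‖z' - z‖ := fun j z hz z' hz' =>
    (convex_ball x r).norm_image_sub_le_of_norm_hasFDerivWithin_le
      (fun w hw => (hd j w hw).hasFDerivWithinAt) (hb j) hz hz'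
  have hxb : x ∈ Metric.ball x r := Metric.mem_ball_self hr
  have hbd : ∀ j, ∀ z ∈ Metric.ball x r, ‖h j z‖ ≤ r * κ + (1 + κ) * r := by
    intro j z hz
    have h1 := hlip j x hxb z hz
    have h2 := mem_ball_iff_norm.1 hz
    calc ‖h j z‖ = ‖h j x + (h j z - h j x)‖ := by congr 1; abel
      _ ≤ ‖h j x‖ + ‖h j z - h j x‖ := norm_add_le _ _
      _ ≤ r * κ + (1 + κ) * r := add_le_add (hx0 j) (h1.trans (by gcongr))
  have hlim : ∀ z : Euc k, ∃ l : Euc n, z ∈ Metric.ball x r →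
      Tendsto (fun j => h j z) 𝓤 (𝓝 l) := by
    intro z
    by_cases hz : z ∈ Metric.ball x r
    · obtain ⟨l, hl'⟩ := ulim 𝓤 (a := fun j => h j z) (fun j => hbd j z hz)
      exact ⟨l, fun _ => hl'⟩
    · exact ⟨0, fun hz' => absurd hz' hz⟩
  have hlim' : ∀ z : Euc k, ∃ l : Euc k →L[ℝ] Euc n, z ∈ Metric.ball x r →
      Tendsto (fun j => h' j z) 𝓤 (𝓝 l) := by
    intro z
    by_cases hz : z ∈ Metric.ball x r
    · obtain ⟨l, hl'⟩ := ulim 𝓤 (a := fun j => h' j z) (fun j => hb j z hz)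
      exact ⟨l, fun _ => hl'⟩
    · exact ⟨0, fun hz' => absurd hz' hz⟩
  choose f hf using hlim
  choose f' hf' using hlim'
  have hquad : ∀ z ∈ Metric.ball x r, ∀ z' ∈ Metric.ball x r,
      ‖f z' - f z - f' z (z' - z)‖ ≤ κ / r * ‖z' - z‖ ^ 2 := by
    intro z hz z' hz'
    have h1 : Tendsto (fun j => ‖h j z' - h j z - h' j z (z' - z)‖) 𝓤
        (𝓝 ‖f z' - f z - f' z (z' - z)‖) := by
      refine (((hf z' hz').sub (hf z hz)).sub ?_).norm
      exact ((ContinuousLinearMap.apply ℝ (Euc n) (z' - z)).continuous.tendsto _).comp (hf' z hz)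
    refine le_of_tendsto h1 (Filter.Eventually.of_forall fun j => ?_)
    exact quad_of_lip (hd j) hκr (hl j) hz hz'
  have hfd : ∀ z ∈ Metric.ball x r, HasFDerivAt f (f' z) z := fun z hz =>
    hasFDerivAt_of_quad hz (hquad z hz)
  have hfl : ∀ z ∈ Metric.ball x r, ∀ z' ∈ Metric.ball x r,
      ‖f' z - f' z'‖ ≤ κ / r * ‖z - z'‖ := by
    intro z hz z' hz'
    refine le_of_tendsto ((hf' z hz).sub (hf' z' hz')).norm
      (Filter.Eventually.of_forall fun j => ?_)
    exact hl j z hz z' hz'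
  have hfc : ∀ z ∈ Metric.ball x r, ∀ y, ‖y‖ ≤ ‖ContinuousLinearMap.adjoint (f' z) y‖ := by
    intro z hz y
    have h1 : Tendsto (fun j => ‖ContinuousLinearMap.adjoint (h' j z) y‖) 𝓤
        (𝓝 ‖ContinuousLinearMap.adjoint (f' z) y‖) := by
      have h2 : Continuous fun T : Euc k →L[ℝ] Euc n => ContinuousLinearMap.adjoint T y :=
        (ContinuousLinearMap.apply ℝ (Euc k) y).continuous.comp
          (ContinuousLinearMap.adjoint (𝕜 := ℝ) (E := Euc k) (F := Euc n)).continuous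
      exact ((h2.tendsto (f' z)).comp (hf' z hz)).norm
    refine ge_of_tendsto h1 (Filter.Eventually.of_forall fun j => ?_)
    exact hco j z hz y
  -- the support lies in the zero set
  have hzero : ∀ z ∈ support D, z ∈ Metric.ball x r → f z = 0 := by
    intro z hzs hz
    by_contra hne
    have hη : 0 < ‖f z‖ := norm_pos_iff.2 hne
    set η : ℝ := ‖f z‖ with hηdef
    obtain ⟨δ₀, hδ₀, hδb⟩ := Metric.isOpen_iff.1 Metric.isOpen_ball z hz
    set δ : ℝ := min δ₀ (η / (4 * (1 + κ))) with hδ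
    have hδpos : 0 < δ := lt_min hδ₀ (by positivity)
    have hsub : Metric.ball z δ ⊆ Metric.ball x r :=
      (Metric.ball_subset_ball (min_le_left _ _)).trans hδb
    have hev : ∀ᶠ j : ℕ in (𝓤 : Filter ℕ), η / 2 < ‖h j z‖ :=
      (hf z hz).norm.eventually_const_lt (by linarith)
    -- lower bound of the integrals
    have hmass : 0 < (VD D).real ((Prod.fst : Euc k × L k → Euc k) ⁻¹' (Metric.ball z δ)) := by
      rw [← mass_real_apply (VD D) measurableSet_ball, mass_VD hD]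
      have h1 : 0 < weight D (Metric.ball z δ) := hzs δ hδpos
      have h2 : weight D (Metric.ball z δ) < ⊤ := by
        rw [← mass_VD hD]
        exact (measure_mono (hsub.trans Metric.ball_subset_closedBall)).trans_lt
          (mass_lt_top hV (isCompact_closedBall x r) hball)
      exact ENNReal.toReal_pos h1.ne' h2.ne
    set M : ℝ := (VD D).real ((Prod.fst : Euc k × L k → Euc k) ⁻¹' (Metric.ball z δ)) with hM
    have hlow : ∀ᶠ j : ℕ in (𝓤 : Filter ℕ), (η / 4) ^ 2 * M < 1 / ((j : ℝ) + 1) := by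
      filter_upwards [hev] with j hj
      refine lt_of_le_of_lt ?_ (hint j)
      have hcont : ContinuousOn (fun w => ‖h j w‖ ^ 2) (Metric.ball x r) := by
        have h1 : ContinuousOn (h j) (Metric.ball x r) := fun w hw =>
          (hd j w hw).continuousAt.continuousWithinAt
        exact h1.norm.pow 2
      have hi : IntegrableOn (fun p : Euc k × L k => ‖h j p.1‖ ^ 2)
          (Prod.fst ⁻¹' (Metric.ball x r)) (VD D) := by
        refine intOn hV hball measurableSet_ball Metric.ball_subset_closedBall ?_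
          (C := (r * κ + (1 + κ) * r) ^ 2) fun p hp _ => ?_
        · exact (hcont.comp continuousOn_fst fun p hp => hp).aestronglyMeasurable
            (measS measurableSet_ball)
        · rw [Real.norm_of_nonneg (sq_nonneg _)]
          have := hbd j p.1 hp
          gcongr
      have hpt : ∀ p ∈ (Prod.fst : Euc k × L k → Euc k) ⁻¹' (Metric.ball z δ),
          (η / 4) ^ 2 ≤ ‖h j p.1‖ ^ 2 := by
        intro p hp
        have h1 := hlip j z hz p.1 (hsub hp)
        have h2 : ‖p.1 - z‖ < δ := mem_ball_iff_norm.1 hp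
        have h3 : (1 + κ) * ‖p.1 - z‖ ≤ η / 4 := by
          have h4 : δ ≤ η / (4 * (1 + κ)) := min_le_right _ _
          calc (1 + κ) * ‖p.1 - z‖ ≤ (1 + κ) * (η / (4 * (1 + κ))) := by
                gcongr
                exact h2.le.trans h4
            _ = η / 4 := by field_simp
        have h5 : ‖h j z‖ ≤ ‖h j p.1‖ + ‖h j p.1 - h j z‖ := by
          calc ‖h j z‖ = ‖h j p.1 - (h j p.1 - h j z)‖ := by congr 1; abel
            _ ≤ _ := norm_sub_le _ _
        have h6 : η / 4 ≤ ‖h j p.1‖ := by linarith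
        gcongr
      calc (η / 4) ^ 2 * M
          = ∫ _p in (Prod.fst : Euc k × L k → Euc k) ⁻¹' (Metric.ball z δ), (η / 4) ^ 2
              ∂(VD D) := by
            rw [setIntegral_const, smul_eq_mul, mul_comm]
        _ ≤ ∫ p in Prod.fst ⁻¹' (Metric.ball z δ), ‖h j p.1‖ ^ 2 ∂(VD D) :=
            setIntegral_mono_on (integrableOn_const
              (fin_ball hV hball (hsub.trans Metric.ball_subset_closedBall)).ne)
              (hi.mono_set (Set.preimage_mono hsub)) (measS measurableSet_ball) hpt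
        _ ≤ ∫ p in Prod.fst ⁻¹' (Metric.ball x r), ‖h j p.1‖ ^ 2 ∂(VD D) :=
            setIntegral_mono_set hi (ae_of_all _ fun p => sq_nonneg _)
              (LE.le.eventuallyLE (Set.preimage_mono hsub))
    have hto : Tendsto (fun j : ℕ => 1 / ((j : ℝ) + 1)) (𝓤 : Filter ℕ) (𝓝 0) :=
      tendsto_one_div_add_atTop_nhds_zero_nat.mono_left h𝓤le
    have h1 : (η / 4) ^ 2 * M ≤ 0 := ge_of_tendsto hto (hlow.mono fun j hj => hj.le)
    have h2 : 0 < (η / 4) ^ 2 * M := by positivity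
    linarith
  refine hC U D hU hD hst x hxs hxU Q hQ hTh r hr (Metric.ball_subset_closedBall.trans hball) f f'
    hfd ⟨κ / r, hfl⟩ hzero ⟨1, fun z hz S hS hzS v hv => ?_⟩ hx
  exact normal_of_coercive hk0 (f' z) (hfc z hz) hS hzS hv

end Crest.Agent.R234.Top_395
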