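import Crest.Agent.R234.F9c4_947
import Crest.Agent.R234.Top5_395

/-!
Row 234, node F9C (helper947), file 5: 395's literal statement `Top_395.F9C`.
-/

set_option autoImplicit false

open MeasureTheory Crest.GeometryTopology.Submanifold Filter Topology Metric Module
open scoped ENNReal NNReal InnerProductSpace

noncomputable section

namespace Crest.Agent.R234.F9c_947

open Crest.Agent.R234.Vf_884

/-- **F9C**, literally as in `Top5_395`. -/
theorem f9c {m n k : ℕ} (hm : 1 ≤ m) : Top_395.F9C m n k := by
  intro U D hU hD hst x hx hxU Q hQ hThQ R hR hRU h h' hder ⟨K, hK⟩ hzero ⟨C, hC⟩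
  have hZ : Zero U D x R h h' (max K 0) (max C 0) :=
    { hr := hR
      ball := hRU
      der := hder
      K0 := le_max_right _ _
      C0 := le_max_right _ _
      lip := fun p hp q hq => (hK p hp q hq).trans
        (mul_le_mul_of_nonneg_right (le_max_left _ _) (norm_nonneg _))
      zero := hzero
      coer := fun q hq S hS hSq v hv => (hC q hq S hS hSq v hv).trans
        (mul_le_mul_of_nonneg_right (le_max_left _ _) (norm_nonneg _)) }
  exact hZ.regular hD hst hm hU hx

end Crest.Agent.R234.F9c_947
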