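import Crest.Agent.R234.Top8_395
import Crest.Agent.R234.F9c5_947

/-!
Row 234 (helper395), file 9 of VF-TOP: node F9 unconditional (with 947's `f9c`), logarithmic form,
and the combined flat package `FlatPack` / `flatPack_of` / `flatV`.
-/

set_option autoImplicit false
set_option linter.unusedSectionVars false

open MeasureTheory Crest.GeometryTopology.Submanifold Filter Topology Set
open scoped ENNReal InnerProductSpace

noncomputable section

namespace Crest.Agent.R234.Top_395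

open Crest.Agent.R234.Vf_884 Crest.Agent.R234.Main_456
open Crest.Agent.R234.Strat3_842 (tilt height)
open Crest.Agent.R234.AS_456 (hp vp)

variable {m n k : ℕ} {U : Set (Euc k)} {V : Measure (Euc k × L k)}
  {π : Euc k →L[ℝ] Euc m} {ρ : Euc k →L[ℝ] Euc n} {x z : Euc k} {R ω : ℝ} {P : L k}

/-- **node F9**, logarithmic scale, unconditional. -/
theorem pos_log' {D : VarifoldData m k} (n : ℕ) (hU : IsOpen U)
    (hm : 1 ≤ m) (hD : IsIntegralVarifoldIn U D) (hst : IsStationaryIn U D)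
    (hx : x ∈ singularSet m k U D) {Q : ℕ} (hQ : 1 ≤ Q) (hTh : Th m (VD D) x = (Q : ℝ≥0∞))
    {κ A B : ℝ} (hω : 0 < ω) (hκ : 0 ≤ κ) (hA : 0 ≤ A) (hB : 0 ≤ B)
    (l₁ : ℝ) : ∃ c l₀ : ℝ, 0 < c ∧ l₀ ≤ l₁ ∧ Metric.closedBall x (Real.exp l₀) ⊆ U ∧
      ∀ t, t ≤ l₀ → FlatAt m (VD D) x ω (Real.exp t) →
        ∃ S, t ≤ S ∧ S ≤ l₀ ∧ (∀ l ∈ Icc t S, FlatAt m (VD D) x ω (Real.exp l)) ∧
          ∀ l s : ℝ, S - B ≤ l → l ≤ S → |l - s| ≤ A →
            ∀ (π : Euc k →L[ℝ] Euc m) (ρ : Euc k →L[ℝ] Euc n), Frame π ρ →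
            ∀ (u : Euc m → Euc n) (g : Euc m → Euc m →L[ℝ] Euc n) (A' : ℝ),
              Real.exp (l - s) < A' → C11 κ A' u g →
                c ≤ Real.exp (-((m + 2) * l)) *
                  ∫ p in Prod.fst ⁻¹' (Metric.ball x (Real.exp l)),
                    ‖hgt π ρ x (Real.exp s) u p.1‖ ^ 2 ∂(VD D) := by
  obtain ⟨c, r₀, hc, hr₀, hr₀r₁, hr₀U, H⟩ := pos' (n := n) (F9c_947.f9c hm) hU hm hD hst hx hQ hTh
    (ω := ω) (κ := κ) (b := Real.exp B) (a₀ := Real.exp (-A)) (a₁ := Real.exp A) hω hκ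
    (Real.one_le_exp hB) (Real.exp_pos _) (Real.exp_le_exp.2 (by linarith)) (r₁ := Real.exp l₁) (Real.exp_pos _)
  refine ⟨c, Real.log r₀, hc, (Real.log_le_iff_le_exp hr₀).2 hr₀r₁, by rwa [Real.exp_log hr₀], ?_⟩
  intro t ht hflat
  obtain ⟨R, h1, h2, h3, h4⟩ := H (Real.exp t) (Real.exp_pos t)
    ((Real.le_log_iff_exp_le hr₀).1 ht) hflat
  have hR : 0 < R := (Real.exp_pos t).trans_le h1
  refine ⟨Real.log R, (Real.le_log_iff_exp_le hR).2 h1, Real.log_le_log hR h2, ?_, ?_⟩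
  · intro l hl
    exact h3 _ ⟨Real.exp_le_exp.2 hl.1, (Real.le_log_iff_exp_le hR).1 hl.2⟩
  · intro l s hl1 hl2 hls π ρ hf u g A' hA' hu
    have e1 : Real.exp (l - s) * Real.exp s = Real.exp l := by
      rw [← Real.exp_add]; congr 1; ring
    have h5 := h4 (Real.exp s) (Real.exp (l - s)) (Real.exp_pos s)
      (Real.exp_le_exp.2 (by have := abs_le.1 hls; linarith))
      (Real.exp_le_exp.2 (abs_le.1 hls).2) (by
        rw [e1, div_le_iff₀ (Real.exp_pos B), ← Real.exp_add, ← Real.log_le_iff_le_exp hR]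
        linarith) (by rw [e1]; exact (Real.le_log_iff_exp_le hR).1 hl2) π ρ hf u g A' hA' hu
    rw [e1] at h5
    have e2 : Real.exp l ^ (m + 2) = Real.exp ((m + 2) * l) := by
      rw [← Real.exp_nat_mul]
      push_cast
      rfl
    rw [e2] at h5
    rw [Real.exp_neg, ← div_eq_inv_mul, le_div_iff₀ (Real.exp_pos _)]
    exact h5

/-- the same without prescribed top level. -/
theorem pos_log {D : VarifoldData m k} (n : ℕ) (hU : IsOpen U)
    (hm : 1 ≤ m) (hD : IsIntegralVarifoldIn U D) (hst : IsStationaryIn U D)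
    (hx : x ∈ singularSet m k U D) {Q : ℕ} (hQ : 1 ≤ Q) (hTh : Th m (VD D) x = (Q : ℝ≥0∞))
    {κ A B : ℝ} (hω : 0 < ω) (hκ : 0 ≤ κ) (hA : 0 ≤ A) (hB : 0 ≤ B) :
    ∃ c l₀ : ℝ, 0 < c ∧ Metric.closedBall x (Real.exp l₀) ⊆ U ∧
      ∀ t, t ≤ l₀ → FlatAt m (VD D) x ω (Real.exp t) →
        ∃ S, t ≤ S ∧ S ≤ l₀ ∧ (∀ l ∈ Icc t S, FlatAt m (VD D) x ω (Real.exp l)) ∧
          ∀ l s : ℝ, S - B ≤ l → l ≤ S → |l - s| ≤ A →
            ∀ (π : Euc k →L[ℝ] Euc m) (ρ : Euc k →L[ℝ] Euc n), Frame π ρ →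
            ∀ (u : Euc m → Euc n) (g : Euc m → Euc m →L[ℝ] Euc n) (A' : ℝ),
              Real.exp (l - s) < A' → C11 κ A' u g →
                c ≤ Real.exp (-((m + 2) * l)) *
                  ∫ p in Prod.fst ⁻¹' (Metric.ball x (Real.exp l)),
                    ‖hgt π ρ x (Real.exp s) u p.1‖ ^ 2 ∂(VD D) := by
  obtain ⟨c, l₀, h1, -, h2, h3⟩ := pos_log' n hU hm hD hst hx hQ hTh hω hκ hA hB 0
  exact ⟨c, l₀, h1, h2, h3⟩

/-- the zoomed varifold in the cylinder of base radius `A`, height one. -/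
def wz (m : ℕ) {k n : ℕ} (V : Measure (Euc k × L k)) (x : Euc k) (t : ℝ)
    (π : Euc k →L[ℝ] Euc m) (ρ : Euc k →L[ℝ] Euc n) (A : ℝ) : Measure (Euc k × L k) :=
  (Vc_164.resc m x t V).restrict (Cy_870.cyl π ρ 0 A 1 ×ˢ univ)

/-- what flatness at the scale `8 t` gives at the scale `t`. -/
structure FlatPack (D : VarifoldData m k) (x : Euc k) (Q : ℕ) (t ε Λ : ℝ)
    (π : Euc k →L[ℝ] Euc m) (ρ : Euc k →L[ℝ] Euc n) : Prop where
  frame : Frame π ρ
  sup : ∀ z ∈ support D, z ∈ Metric.ball x (4 * t) → ‖ρ (z - x)‖ ≤ ε * t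
  supae : ∀ᵐ p ∂(VD D), p.1 ∈ Metric.ball x (4 * t) → ‖ρ (p.1 - x)‖ ≤ ε * t
  near : NearQ m (VD D) Q x (4 * t) ε (hp π)
  cyl : ∀ A ≤ 2, Cy_870.CylStat (wz m (VD D) x t π ρ A) π ρ 0 A ε
  mass_le : ∀ A ≤ 2, wz m (VD D) x t π ρ A univ ≤ ENNReal.ofReal Λ
  le_mass : ∀ A, 1 / 16 ≤ A → ENNReal.ofReal Λ⁻¹ ≤
    wz m (VD D) x t π ρ A ((fun p => π p.1) ⁻¹' Metric.ball 0 (1 / 16))

theorem flatPack_of {m n k : ℕ} (hm : 1 ≤ m) (Q : ℕ) (hQ : 1 ≤ Q) : ∃ Λ : ℝ, 1 ≤ Λ ∧ ∀ ε : ℝ, 0 < ε → ε < 1 →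
    ∃ ω : ℝ, 0 < ω ∧ ω ≤ 1 ∧ ∀ {U : Set (Euc k)} {D : VarifoldData m k}, IsOpen U →
      IsIntegralVarifoldIn U D → IsStationaryIn U D → ∀ {x : Euc k} {t : ℝ}, 0 < t →
        Metric.closedBall x (8 * t) ⊆ U → Th m (VD D) x = (Q : ℝ≥0∞) →
        rat m (VD D) x (8 * t) ≤ (Q : ℝ≥0∞) + ENNReal.ofReal ω →
        ∀ (π : Euc k →L[ℝ] Euc m) (ρ : Euc k →L[ℝ] Euc n), Frame π ρ →
          pex m (VD D) (hp π) x (8 * t) ≤ ω → FlatPack D x Q t ε Λ π ρ := by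
  have ho := ome_pos m
  have hQ1 : (1:ℝ) ≤ Q := by exact_mod_cast hQ
  set Λ : ℝ := max 1 (max ((Q + 1) * (ome m * 3 ^ m)) (ome m * (1 / 16) ^ m)⁻¹) with hΛ
  have hΛ1 : 1 ≤ Λ := le_max_left _ _
  refine ⟨Λ, hΛ1, ?_⟩
  intro ε hε hε1
  set C : ℝ := 65 * 2 ^ (m + 2) + 2 ^ (m + 1) * 64 / ome m with hC
  have hC1 : 1 ≤ C := by
    have h1 : (1:ℝ) ≤ 2 ^ (m + 2) := one_le_pow₀ (by norm_num)
    have h2 : 0 ≤ 2 ^ (m + 1) * 64 / ome m := by positivity
    nlinarith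
  refine ⟨ε ^ 2 / C, by positivity, ?_, ?_⟩
  · rw [div_le_one (by positivity)]
    nlinarith
  intro U D hU hD hst x t ht hUx hTh hrat π ρ hf hpex
  have hV := stat_VD hD hst
  have hC0 : 0 < C := by linarith
  set ω := ε ^ 2 / C with hω
  have hω0 : 0 < ω := by positivity
  have hCω : C * ω = ε ^ 2 := by rw [hω]; field_simp
  have h8 : 0 < 8 * t := by positivity
  have hsup : ∀ z ∈ support D, z ∈ Metric.ball x (4 * t) → ‖ρ (z - x)‖ ≤ ε * t := by
    intro z hz hzb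
    have hzU : z ∈ U := hUx (Metric.ball_subset_closedBall
      (Metric.ball_subset_ball (by linarith) hzb))
    have h1 := sup_height hV hm hf h8 hUx hpex (z := z) (by
      rwa [show 8 * t / 2 = 4 * t by ring]) (one_le_Th hD hst hm hU hzU hz)
    have h2 : 2 ^ (m + 1) * 64 / ome m * ω ≤ ε ^ 2 := by
      rw [← hCω]
      refine mul_le_mul_of_nonneg_right ?_ hω0.le
      rw [hC]
      have : (0:ℝ) ≤ 65 * 2 ^ (m + 2) := by positivity
      linarith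
    have h3 : ‖ρ (z - x)‖ ^ 2 ≤ (ε * t) ^ 2 := by
      rw [← mul_le_mul_iff_right₀ ho]
      refine h1.trans ?_
      have h4 : 2 ^ (m + 1) * 64 * ω ≤ ε ^ 2 * ome m := by
        rw [div_mul_eq_mul_div, div_le_iff₀ ho] at h2
        exact h2
      nlinarith [sq_nonneg t]
    exact le_of_sq_le_sq h3 (by positivity)
  have hsupae : ∀ᵐ p ∂(VD D), p.1 ∈ Metric.ball x (4 * t) → ‖ρ (p.1 - x)‖ ≤ ε * t := by
    filter_upwards [Al9_182.ae_mem_support hD] with p hp hpb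
    exact hsup _ hp hpb
  have hU3 : Metric.closedBall x (3 * t) ⊆ U :=
    (Metric.closedBall_subset_closedBall (by linarith)).trans hUx
  have hωε : ω ≤ ε := by
    rw [hω, div_le_iff₀ hC0]
    nlinarith
  refine ⟨hf, hsup, hsupae, ?_, ?_, ?_, ?_⟩
  · have h1 := near_of_flat (P := hp π) (Q := Q) hV hm h8 hUx (hp_mem hf) hpex (ε := ε) (by
      have h2 : 65 * 2 ^ (m + 2) * ω ≤ C * ω := by
        refine mul_le_mul_of_nonneg_right ?_ hω0.le
        rw [hC]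
        have : 0 ≤ 2 ^ (m + 1) * 64 / ome m := by positivity
        linarith
      rw [hCω] at h2
      nlinarith) (hrat.trans (by gcongr))
    rwa [show 8 * t / 2 = 4 * t by ring] at h1
  · intro A hA
    exact cylStat_zoom hV hf ht hU3 hA hε1 hsupae
  · intro A hA
    have h1 : rat m (VD D) x (3 * t) ≤ (Q : ℝ≥0∞) + 1 := by
      refine (rat_mono hV hm (by positivity) (by linarith)
        (Metric.ball_subset_closedBall.trans hUx)).trans (hrat.trans ?_)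
      gcongr
      rw [ENNReal.ofReal_le_one]
      exact hωε.trans hε1.le
    refine (zoom_mass_le hf ht hA h1).trans ?_
    have e1 : ((Q : ℝ≥0∞) + 1) = ENNReal.ofReal (Q + 1) := by
      rw [ENNReal.ofReal_add (by positivity) zero_le_one, ENNReal.ofReal_natCast,
        ENNReal.ofReal_one]
    rw [e1, ← ENNReal.ofReal_mul (by positivity)]
    exact ENNReal.ofReal_le_ofReal ((le_max_left _ _).trans (le_max_right _ _))
  · intro A hA
    have h1 : (1 : ℝ≥0∞) ≤ Th m (VD D) x := by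
      rw [hTh]; exact_mod_cast hQ
    have h2 := le_zoom_mass hV hm hf ht hU3 (A := A) (σ := 1 / 16) (by norm_num) (by norm_num) hA h1
    refine le_trans ?_ h2
    rw [one_mul]
    refine ENNReal.ofReal_le_ofReal ?_
    rw [inv_le_comm₀ (by linarith) (by positivity)]
    exact (le_max_right _ _).trans (le_max_right _ _)

/-- **the flat package**: `FlatAt` and a small drop at the scale `8 t`. -/
theorem flatV {m n : ℕ} (hm : 1 ≤ m) (Q : ℕ) (hQ : 1 ≤ Q) : ∃ Λ : ℝ, 1 ≤ Λ ∧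
    ∀ ε : ℝ, 0 < ε → ε < 1 →
    ∃ ω : ℝ, 0 < ω ∧ ω ≤ 1 ∧ ∀ {U : Set (Euc (m + n))} {D : VarifoldData m (m + n)}, IsOpen U →
      IsIntegralVarifoldIn U D → IsStationaryIn U D → ∀ {x : Euc (m + n)} {t : ℝ}, 0 < t →
        Metric.closedBall x (8 * t) ⊆ U → Th m (VD D) x = (Q : ℝ≥0∞) →
        rat m (VD D) x (8 * t) ≤ (Q : ℝ≥0∞) + ENNReal.ofReal ω →
        FlatAt m (VD D) x ω (8 * t) →
        ∃ (π : Euc (m + n) →L[ℝ] Euc m) (ρ : Euc (m + n) →L[ℝ] Euc n),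
          FlatPack D x Q t ε Λ π ρ := by
  obtain ⟨Λ, hΛ, H⟩ := flatPack_of (n := n) (k := m + n) hm Q hQ
  refine ⟨Λ, hΛ, ?_⟩
  intro ε hε hε1
  obtain ⟨ω, h1, h2, h3⟩ := H ε hε hε1
  refine ⟨ω, h1, h2, ?_⟩
  intro U D hU hD hst x t ht hUx hTh hrat ⟨P, hP, hex⟩
  obtain ⟨π, ρ, hf, rfl⟩ := exists_frame rfl hP
  exact ⟨π, ρ, h3 hU hD hst ht hUx hTh hrat π ρ hf hex⟩

/-- `NearQ` for two planes at the same scale. -/
theorem near_close (hV : Stat m k U V) (hm : 1 ≤ m) {Q : ℕ} {P' : L k} (hR : 0 < R)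
    (hU : Metric.closedBall x R ⊆ U) (hTh : 1 ≤ Th m V x) {a b : ℝ}
    (h1 : NearQ m V Q x R a P) (h2 : NearQ m V Q x R b P') :
    ome m * ‖P - P'‖ ^ 2 ≤ 4 * (a + b) := by
  have hfin : V (Metric.ball x R ×ˢ univ) < ⊤ := by
    rw [prod_eq]; exact fin_ball hV hU Metric.ball_subset_closedBall
  have key : ∀ {T : L k} {c : ℝ}, NearQ m V Q x R c T →
      ∫ p in Metric.ball x R ×ˢ univ, tilt T p ∂V ≤ c * R ^ m := by
    intro T c hT
    have i1 : IntegrableOn (fun p => R ^ 2 * tilt T p) (Metric.ball x R ×ˢ univ) V :=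
      Strat3_842.integrableOn_of_bdd hV.conc hfin
        (continuous_const.mul (Strat3_842.continuous_tilt T))
    have i2 : IntegrableOn (fun p => height T x p) (Metric.ball x R ×ˢ univ) V :=
      Strat3_842.integrableOn_of_bdd hV.conc hfin (Strat3_842.continuous_height T x)
    have h3 := hT.2.1
    rw [integral_add i1 i2, integral_const_mul] at h3
    have h4 : 0 ≤ ∫ p in Metric.ball x R ×ˢ univ, height T x p ∂V :=
      integral_nonneg fun p => by unfold height; positivity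
    have h5 : R ^ 2 * ∫ p in Metric.ball x R ×ˢ univ, tilt T p ∂V ≤ R ^ 2 * (c * R ^ m) := by
      rw [pow_add] at h3
      linarith
    exact le_of_mul_le_mul_left h5 (by positivity)
  exact plane_close hV hm h1.1 h2.1 hR hU hTh (key h1) (key h2)

/-- the stopping level gives `FlatAt` for all scales; the drop is small from some scale on. -/
theorem drop_small (hV : Stat m k U V) (hm : 1 ≤ m) (hU : IsOpen U) (hx : x ∈ U) {Q : ℕ}
    (hTh : Th m V x = (Q : ℝ≥0∞)) {g : ℝ} (hg : 0 < g) : ∃ r₀ : ℝ, 0 < r₀ ∧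
      Metric.closedBall x r₀ ⊆ U ∧ ∀ r, 0 < r → r ≤ r₀ →
        rat m V x r ≤ (Q : ℝ≥0∞) + ENNReal.ofReal g := by
  obtain ⟨r₁, hr₁, hr₁U⟩ := Metric.isOpen_iff.1 hU x hx
  have h1 := tendsto_rat hV hm hr₁ hr₁U
  rw [hTh] at h1
  have h2 : (Q : ℝ≥0∞) < (Q : ℝ≥0∞) + ENNReal.ofReal g :=
    ENNReal.lt_add_right (ENNReal.natCast_ne_top Q) (by
      rw [ne_eq, ENNReal.ofReal_eq_zero, not_le]; exact hg)
  have h3 := h1.eventually (gt_mem_nhds h2)
  rw [eventually_nhdsWithin_iff, Metric.eventually_nhds_iff] at h3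
  obtain ⟨δ, hδ, h4⟩ := h3
  refine ⟨min (δ / 2) (r₁ / 2), by positivity, ?_, ?_⟩
  · refine (Metric.closedBall_subset_ball ?_).trans hr₁U
    have := min_le_right (δ / 2) (r₁ / 2)
    linarith
  · intro r hr hrr
    refine (h4 (y := r) ?_ hr).le
    rw [Real.dist_eq, sub_zero, abs_of_pos hr]
    have := min_le_left (δ / 2) (r₁ / 2)
    linarith

end Crest.Agent.R234.Top_395
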