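import Crest.Agent.R234.F10b_188
import Crest.Agent.R234.Top9_395

/-!
# Row 234, (F10), part d (helper188): `Dbl` from a chain theory at every point

`Thy m n D Q x K` = all V-level inputs of (F-c) at the singular point `x`, in the language of the
abstract world of `F10b_188` (states, steps, start, flatness, comparison of heights, final step).
`dbl_of_thy` : if every singular point of density `Q ≥ 2` has such a theory, then `Main_456.Dbl`.
-/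

set_option autoImplicit false

open MeasureTheory Filter Topology Set
open scoped ENNReal NNReal
open Crest.GeometryTopology.Submanifold Crest.Agent.R234.Vf_884
open Crest.Agent.R234.Strat3_842 (tilt height)
open Crest.Agent.R234.AS_456 (hp vp)
open Crest.Agent.R234.F10a_188 Crest.Agent.R234.F10b_188 Crest.Agent.R234.Main_456
open Crest.Agent.R234.Top_395

noncomputable section

namespace Crest.Agent.R234.F10d_188

/-- flatness at the level `l`. -/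
def flatL (m : ℕ) {k : ℕ} (V : Measure (Euc k × L k)) (x : Euc k) (ω c₀ r₁ l : ℝ) : Prop :=
  Real.exp (l + c₀) ≤ r₁ ∧ FlatAt m V x ω (Real.exp (l + c₀))

/-- `exp (-Λ)` dominates the normalised height over some reference in the ball of radius
`exp (l - c₁)`. -/
def Lowr (m n : ℕ) (V : Measure (Euc (m + n) × Crest.Agent.R234.Vf_884.L (m + n)))
    (x : Euc (m + n)) (κ A c₁ Cc l Λ : ℝ) : Prop :=
  ∃ (π : Euc (m + n) →L[ℝ] Euc m) (ρ : Euc (m + n) →L[ℝ] Euc n), Frame π ρ ∧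
    ∃ (u : Euc m → Euc n) (g : Euc m → Euc m →L[ℝ] Euc n) (s A' : ℝ), |l - c₁ - s| ≤ A ∧
      Real.exp (l - c₁ - s) < A' ∧ C11 κ A' u g ∧
      Real.exp (-((m + 2) * (l - c₁))) *
        ∫ p in Prod.fst ⁻¹' (Metric.ball x (Real.exp (l - c₁))),
          ‖hgt π ρ x (Real.exp s) u p.1‖ ^ 2 ∂V ≤ Cc * Real.exp (-Λ)

/-- **the chain theory at a singular point.** -/
structure Thy (m n : ℕ) (D : VarifoldData m (m + n)) (Q : ℕ) (x : Euc (m + n)) (K : ℕ) where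
  R : Type
  W : World R
  /-- pre-states of the start at the level `S` -/
  Wp : ℝ → Pre R
  k : Cst
  (Λ₀ κm P K₀ δ γ p c₀ ω r₁ : ℝ)
  hΛ₀ : 0 < Λ₀
  hP : 0 < P
  hK₀ : 0 ≤ K₀
  hκm : 2 * k.a / Λ₀ ^ 2 ≤ κm
  hκ0 : 0 ≤ κm
  hB : P * Real.exp (k.base Λ₀ κm) ≤ Λ₀ ^ 2
  hδ : 0 ≤ δ
  hγ : 0 < γ
  hp : 1 < p
  hlen : δ * Λ₀ ^ (-γ) ≤ 1 - p ^ (-γ)
  hκm' : 1 / Λ₀ ≤ κm / 2 * (1 - p⁻¹)
  hc₀ : 0 ≤ c₀
  hω : 0 < ω
  hr₁ : 0 < r₁
  /-- (F7) -/
  step : StepH W k (flatL m (VD D) x ω c₀ r₁) Λ₀ κm P K₀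
  /-- (FL) -/
  fl : FlatH W (flatL m (VD D) x ω c₀ r₁) Λ₀ κm
  /-- (F8) -/
  start : ∀ S, StartH W (Wp S) (flatL m (VD D) x ω c₀ r₁) Λ₀ κm
    (P * Real.exp (2 * k.b * κm + 4 * k.A / Λ₀)) δ γ p S
  /-- the plane as a pre-state -/
  top : ∀ S, flatL m (VD D) x ω c₀ r₁ S → ∃ M, (Wp S).pre M S ∧ Λ₀ ≤ (Wp S).L M S ∧
    (Wp S).κ M S ≤ κm / 2
  (κ A c₁ Cc : ℝ)
  hκ : 0 ≤ κ
  hA : 0 ≤ A
  hc₁ : 0 ≤ c₁
  hCc : 0 < Cc
  /-- comparison with the heights -/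
  cmp : ∀ M l, flatL m (VD D) x ω c₀ r₁ l → W.st M l → Lowr m n (VD D) x κ A c₁ Cc l (W.L M l)
  cmp' : ∀ S M l, S - 1 ≤ l → l ≤ S → flatL m (VD D) x ω c₀ r₁ l → (Wp S).pre M l →
    (Wp S).κ M l ≤ κm → Lowr m n (VD D) x κ A c₁ Cc l ((Wp S).L M l)
  /-- (FL) again, with small flatness -/
  large : ∀ mu : ℝ, ∃ ω' : ℝ, 0 < ω' ∧ ∀ M l, W.st M l → flatL m (VD D) x ω' c₀ r₁ l →
    W.κ M l ≤ κm → mu ≤ W.L M l
  (c₂ Rb : ℝ)
  hRb : 0 < Rb
  /-- (END) -/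
  fin : ∀ F : ℝ, ∃ C : ℝ, ∀ ε : ℝ, 0 < ε → ∃ mu κ₁ ε' : ℝ, 0 < κ₁ ∧ 0 < ε' ∧
    ∀ (r : ℝ) (P' : Crest.Agent.R234.Vf_884.L (m + n)), 0 < r → r ≤ r₁ →
      NearQ m (VD D) Q x (Rb * r) ε' P' →
      ∀ M l, Real.log r + c₂ ≤ l → l ≤ Real.log r + c₂ + 1 → W.st M l → 1 + W.f M l ≤ F →
        W.κ M l ≤ κ₁ → mu ≤ W.L M l →
        ∃ (π : Euc (m + n) →L[ℝ] Euc m) (ρ : Euc (m + n) →L[ℝ] Euc n) (u : Euc m → Euc n),
          Ref (VD D) Q x r π ρ u K ε C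

/-- flatness at smaller scales from `NearQ`. -/
theorem flat_of_near {m k : ℕ} {U : Set (Euc k)} {V : Measure (Euc k × Crest.Agent.R234.Vf_884.L k)}
    (hV : Stat m k U V) {Q : ℕ} {x : Euc k} {R ε : ℝ} {P : Crest.Agent.R234.Vf_884.L k}
    (hU : Metric.closedBall x R ⊆ U) (h : NearQ m V Q x R ε P) {σ : ℝ} (hσ : 0 < σ) (hσR : σ ≤ R) :
    FlatAt m V x ((R / σ) ^ (m + 2) * ε) σ := by
  have hR : 0 < R := hσ.trans_le hσR
  have hfin : V (Metric.ball x R ×ˢ univ) < ⊤ := by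
    rw [Top_395.prod_eq]; exact fin_ball hV hU Metric.ball_subset_closedBall
  have h1 := flatAt_of_int hV.conc h.1 hR hfin h.2.1
  refine ⟨P, h.1, ?_⟩
  rw [pex_eq] at h1 ⊢
  have i1 : IntegrableOn (fun p => height P x p) (Metric.ball x R ×ˢ univ) V :=
    Strat3_842.integrableOn_of_bdd hV.conc hfin (Strat3_842.continuous_height P x)
  have h2 : ∫ p in Metric.ball x σ ×ˢ univ, height P x p ∂V ≤
      ∫ p in Metric.ball x R ×ˢ univ, height P x p ∂V := by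
    refine setIntegral_mono_set i1 (Eventually.of_forall fun p => ?_)
      (Set.prod_mono (Metric.ball_subset_ball hσR) Subset.rfl).eventuallyLE
    unfold height
    positivity
  rw [inv_mul_le_iff₀ (by positivity)] at h1 ⊢
  calc ∫ p in Metric.ball x σ ×ˢ univ, height P x p ∂V ≤ R ^ (m + 2) * ε := h2.trans h1
    _ = σ ^ (m + 2) * ((R / σ) ^ (m + 2) * ε) := by rw [div_pow]; field_simp

theorem FlatAt.mono {m k : ℕ} {V : Measure (Euc k × Crest.Agent.R234.Vf_884.L k)} {x : Euc k}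
    {ω ω' r : ℝ} (h : FlatAt m V x ω r) (hω : ω ≤ ω') : FlatAt m V x ω' r := by
  obtain ⟨P, hP, h1⟩ := h
  exact ⟨P, hP, h1.trans hω⟩

theorem le_lam {c Cc Λ X : ℝ} (hc : 0 < c) (hCc : 0 < Cc) (h1 : c ≤ X)
    (h2 : X ≤ Cc * Real.exp (-Λ)) : Λ ≤ Real.log (Cc / c) := by
  rw [Real.le_log_iff_exp_le (by positivity), le_div_iff₀ hc]
  have h3 : c ≤ Cc * Real.exp (-Λ) := h1.trans h2
  have h4 : Real.exp Λ * c ≤ Real.exp Λ * (Cc * Real.exp (-Λ)) :=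
    mul_le_mul_of_nonneg_left h3 (Real.exp_pos _).le
  have h5 : Real.exp Λ * (Cc * Real.exp (-Λ)) = Cc := by
    rw [mul_comm Cc, ← mul_assoc, ← Real.exp_add]; simp
  linarith

/-- **`Dbl` at one selection.** -/
theorem dbl_at {m n : ℕ} (hm : 1 ≤ m) {U : Set (Euc (m + n))} (hU : IsOpen U)
    {D : VarifoldData m (m + n)} (hD : IsIntegralVarifoldIn U D) (hst : IsStationaryIn U D)
    {s : ℝ} {Q : ℕ} {c : ℝ} {x : Euc (m + n)} {r : ℕ → ℝ}
    {P : ℕ → Crest.Agent.R234.Vf_884.L (m + n)} (hS : Sel m (m + n) U D s Q c x r P) {K : ℕ}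
    (T : Thy m n D Q x K) :
    ∃ C : ℝ, ∀ ε : ℝ, 0 < ε → ∃ᶠ i in atTop,
      ∃ (π : Euc (m + n) →L[ℝ] Euc m) (ρ : Euc (m + n) →L[ℝ] Euc n) (u : Euc m → Euc n),
        Ref (VD D) Q x (r i) π ρ u K ε C := by
  have hV := stat_VD hD hst
  -- positivity
  obtain ⟨cp, l₀, hcp, hl₀, hl₀U, hpos⟩ := pos_log' n hU hm hD hst hS.mem.1 (by have := hS.hQ; omega)
    hS.mem.2 (κ := T.κ) (A := T.A) (B := T.c₀ + T.c₁ + 1) T.hω T.hκ T.hA
    (by have := T.hc₀; have := T.hc₁; linarith) (Real.log T.r₁)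
  set lam := Real.log (T.Cc / cp) with hlam
  set F := Fb T.k T.Λ₀ T.κm T.P lam with hF
  obtain ⟨C, hC⟩ := T.fin F
  refine ⟨C, ?_⟩
  intro ε hε
  obtain ⟨mu₀, κ₁, ε', hκ₁, hε', hfin⟩ := hC ε hε
  have ha := T.k.ha
  -- the length
  obtain ⟨A, hA0, hA⟩ : ∃ A : ℝ, 0 ≤ A ∧ Real.exp (-(A - 1) / 2) * T.κm ≤ κ₁ / 2 := by
    have h1 : Tendsto (fun A : ℝ => Real.exp (-(A - 1) / 2) * T.κm) atTop (𝓝 (0 * T.κm)) := by
      refine Tendsto.mul_const _ ?_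
      refine Real.tendsto_exp_atBot.comp ?_
      have h2 : Tendsto (fun A : ℝ => (A - 1) / 2) atTop atTop :=
        (tendsto_atTop_add_const_right atTop (-1) tendsto_id).atTop_div_const (by norm_num)
      have h3 := tendsto_neg_atTop_atBot.comp h2
      refine h3.congr ?_
      intro A
      simp only [Function.comp]
      ring
    rw [zero_mul] at h1
    obtain ⟨A, hA1, hA2⟩ := ((h1.eventually (gt_mem_nhds (show (0:ℝ) < κ₁ / 2 by positivity))).and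
      (eventually_ge_atTop 0)).exists
    exact ⟨A, hA2, hA1.le⟩
  obtain ⟨mu, hmu1, hmu2, hmu3⟩ : ∃ mu : ℝ, 0 < mu ∧ mu₀ ≤ mu ∧ 2 * T.k.a / mu ^ 2 ≤ κ₁ / 2 := by
    refine ⟨max 1 (max mu₀ (4 * T.k.a / κ₁)), by positivity, (le_max_left _ _).trans
      (le_max_right _ _), ?_⟩
    set mu := max 1 (max mu₀ (4 * T.k.a / κ₁)) with hmu
    have h1 : 1 ≤ mu := le_max_left _ _
    have h2 : 4 * T.k.a / κ₁ ≤ mu := (le_max_right _ _).trans (le_max_right _ _)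
    rw [div_le_iff₀ hκ₁] at h2
    rw [div_le_iff₀ (by positivity)]
    nlinarith
  obtain ⟨ω', hω', hlarge⟩ := T.large mu
  -- the scale
  set E := T.c₀ + A + 4 with hE
  set RR := Real.exp (T.c₂ + E) with hRR
  have hRR0 : 0 < RR := Real.exp_pos _
  set ω₂ := min T.ω ω' with hω₂
  have hω₂0 : 0 < ω₂ := lt_min T.hω hω'
  set ε₂ := ω₂ * Real.exp (-((m + 2) * (A + 4))) with hε₂
  have hε₂0 : 0 < ε₂ := by positivity
  have e1 := hS.near RR hRR0 ε₂ hε₂0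
  have e2 := hS.near T.Rb T.hRb ε' hε'
  have hlim := hS.lim
  have e3 : ∀ᶠ i in atTop, r i ≤ T.r₁ := hlim.eventually (ge_mem_nhds T.hr₁)
  have e4 : ∀ᶠ i in atTop, RR * r i ≤ Real.exp l₀ := by
    have h := hlim.const_mul RR
    rw [mul_zero] at h
    exact h.eventually (ge_mem_nhds (Real.exp_pos l₀))
  refine Eventually.frequently ?_
  filter_upwards [e1, e2, e3, e4] with i h1 h2 h3 h4
  have hr := hS.pos i
  set t := Real.log (r i) + T.c₂ with ht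
  have hRt : RR * r i = Real.exp (t + E) := by
    rw [hRR, ht, show Real.log (r i) + T.c₂ + E = (T.c₂ + E) + Real.log (r i) by ring,
      Real.exp_add (T.c₂ + E), Real.exp_log hr]
  have hte : t + E ≤ l₀ := by
    rw [hRt] at h4
    exact Real.exp_le_exp.1 h4
  have hUR : Metric.closedBall x (RR * r i) ⊆ U :=
    (Metric.closedBall_subset_closedBall h4).trans hl₀U
  -- flatness on the lower part
  have hfl1 : ∀ l, t ≤ l → l ≤ t + A + 4 → FlatAt m (VD D) x ω₂ (Real.exp (l + T.c₀)) := by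
    intro l hl1 hl2
    have h5 : Real.exp (l + T.c₀) ≤ RR * r i := by
      rw [hRt]
      exact Real.exp_le_exp.2 (by rw [hE]; linarith)
    refine FlatAt.mono (flat_of_near hV hUR h1 (Real.exp_pos _) h5) ?_
    have h6 : RR * r i / Real.exp (l + T.c₀) ≤ Real.exp (A + 4) := by
      rw [hRt, ← Real.exp_sub]
      exact Real.exp_le_exp.2 (by rw [hE]; linarith)
    have h7 : (RR * r i / Real.exp (l + T.c₀)) ^ (m + 2) ≤ Real.exp ((m + 2) * (A + 4)) := by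
      calc (RR * r i / Real.exp (l + T.c₀)) ^ (m + 2) ≤ Real.exp (A + 4) ^ (m + 2) :=
            pow_le_pow_left₀ (by positivity) h6 _
        _ = Real.exp ((m + 2) * (A + 4)) := by
            rw [← Real.exp_nat_mul]; push_cast; rfl
    calc (RR * r i / Real.exp (l + T.c₀)) ^ (m + 2) * ε₂ ≤ Real.exp ((m + 2) * (A + 4)) * ε₂ :=
          mul_le_mul_of_nonneg_right h7 hε₂0.le
      _ = ω₂ := by
          rw [hε₂, mul_comm ω₂, ← mul_assoc, ← Real.exp_add]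
          simp
  -- the stopping level
  obtain ⟨Sp, hS1, hS2, hS3, hS4⟩ := hpos (t + E) hte (by
    have h5 := hfl1 (t + A + 4) (by linarith) le_rfl
    rw [show t + A + 4 + T.c₀ = t + E by rw [hE]; ring] at h5
    exact FlatAt.mono h5 (min_le_left _ _))
  set S := Sp - T.c₀ with hSdef
  have hr₁S : ∀ l, l ≤ S → Real.exp (l + T.c₀) ≤ T.r₁ := by
    intro l hl
    rw [← Real.exp_log T.hr₁]
    exact Real.exp_le_exp.2 (by rw [hSdef] at hl; linarith)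
  have hflat : ∀ l, t ≤ l → l ≤ S → flatL m (VD D) x T.ω T.c₀ T.r₁ l := by
    intro l hl1 hl2
    refine ⟨hr₁S l hl2, ?_⟩
    rcases le_total l (t + A + 4) with h | h
    · exact FlatAt.mono (hfl1 l hl1 h) (min_le_left _ _)
    · exact hS3 _ ⟨by rw [hE]; linarith, by rw [hSdef] at hl2; linarith⟩
  have hpos2 : ∀ l Λ, S - 1 ≤ l → l ≤ S → Lowr m n (VD D) x T.κ T.A T.c₁ T.Cc l Λ → Λ ≤ lam := by
    rintro l Λ hl1 hl2 ⟨π, ρ, hf, u, g, s', A', g1, g2, g3, g4⟩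
    have hc₀ := T.hc₀
    have hc₁ := T.hc₁
    have h5 := hS4 (l - T.c₁) s' (by rw [hSdef] at hl1; linarith) (by rw [hSdef] at hl2; linarith)
      g1 π ρ hf u g A' g2 g3
    exact le_lam hcp T.hCc h5 g4
  have htS : t + A + 4 ≤ S := by rw [hSdef]; linarith
  obtain ⟨M₀, hM1, hM2, hM3⟩ := T.top S (hflat S (by linarith) le_rfl)
  obtain ⟨M, l, b1, b2, b3, b4, b5, b6⟩ := final (W := T.W) (Wp := T.Wp S) (k := T.k)
    (mu := mu) (A := A) (lam := lam) T.hΛ₀ T.hP T.hK₀ T.hκm T.hκ0 T.hB T.hδ T.hγ T.hp T.hlen T.hκm'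
    T.step T.fl (T.start S) (S := S) (t := t) hmu1 hA0 (by linarith) hflat
    (fun M l h5 h6 h7 h8 =>
      hpos2 l _ h5 h6 (T.cmp' S M l h5 h6 (hflat l (by linarith) h6) h7 h8))
    (fun M l h5 h6 h7 => hpos2 l _ h5 h6 (T.cmp M l (hflat l (by linarith) h6) h7))
    (fun M l h5 h6 h7 h8 => hlarge M l h7
      ⟨hr₁S l (by linarith), FlatAt.mono (hfl1 l h5 (by linarith)) (min_le_right _ _)⟩ h8)
    hM1 hM2 hM3
  exact hfin (r i) (P i) hr h3 h2 M l b1 b2 b3 b5 (by linarith) (hmu2.trans b4)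

/-- **`Main_456.Dbl` from the chain theories.** -/
theorem dbl_of_thy
    (H : ∀ (m n : ℕ), 3 ≤ m → 1 ≤ n → ∀ (U : Set (Euc (m + n))), IsOpen U →
      ∀ D : VarifoldData m (m + n), IsIntegralVarifoldIn U D → IsStationaryIn U D →
        ∀ (Q : ℕ) (x : Euc (m + n)), 2 ≤ Q → x ∈ SingQ m (m + n) U D Q → ∀ K : ℕ,
          Nonempty (Thy m n D Q x K)) : Dbl := by
  intro m n hm hn U hU D hD hst s Q c x r P hS K
  obtain ⟨T⟩ := H m n hm hn U hU D hD hst Q x hS.hQ hS.mem K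
  exact dbl_at (by omega) hU hD hst hS T

end Crest.Agent.R234.F10d_188
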