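import Crest.Agent.R234.GL3_394

/-!
# Row 234, F3-GI (helper640): the cubic profile and `∫ g 2f ≤ C I`

* `g3 t = (1 - t)₊³`, `g31 = g3'`, `g32 = g3''`: `Cy_870.Prof g3 g31 g32`, `g3 ≤ (1/3) (-g31)` on
  `[0, ∞)`, all numerical bounds.
* `int_g_f_le`: `s^{-m} ∫ g (2 f) dV ≤ Cg II` for every kernel with `g ≤ Cg (-g1)`.
-/

set_option autoImplicit false

open MeasureTheory Set Function Filter Topology
open Crest.GeometryTopology.Submanifold
open Crest.Agent.R234.Vf_884 Crest.Agent.R234.Ar_870 Crest.Agent.R234.Cy_870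
open scoped ENNReal NNReal InnerProductSpace

noncomputable section

namespace Crest.Agent.R234.GI_640

open Crest.Agent.R234.GL_394

/-! ### the cubic profile -/

/-- `(1 - t)₊³` -/
def g3 (t : ℝ) : ℝ := max 0 (1 - t) ^ 3
/-- its derivative -/
def g31 (t : ℝ) : ℝ := -(3 * max 0 (1 - t) ^ 2)
/-- its second derivative -/
def g32 (t : ℝ) : ℝ := 6 * max 0 (1 - t)

theorem hasDerivAt_pow_max (n : ℕ) (t : ℝ) :
    HasDerivAt (fun t : ℝ => max 0 (1 - t) ^ (n + 2)) (-((n + 2 : ℝ) * max 0 (1 - t) ^ (n + 1))) t := by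
  rcases lt_trichotomy t 1 with h | h | h
  · have h1 : HasDerivAt (fun t : ℝ => (1 - t) ^ (n + 2))
        (-((n + 2 : ℝ) * (1 - t) ^ (n + 1))) t := by
      have h2 : HasDerivAt (fun t : ℝ => 1 - t) (-1) t := by
        simpa using (hasDerivAt_id t).const_sub 1
      have h3 := h2.pow (n + 2)
      refine h3.congr_deriv ?_
      have e : n + 2 - 1 = n + 1 := by omega
      rw [e]
      push_cast
      ring
    have h4 : max 0 (1 - t) = 1 - t := max_eq_right (by linarith)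
    rw [h4]
    refine h1.congr_of_eventuallyEq ?_
    filter_upwards [gt_mem_nhds h] with s hs
    have hs' : s < 1 := hs
    rw [max_eq_right (by linarith : (0:ℝ) ≤ 1 - s)]
  · subst h
    have h0 : -((n + 2 : ℝ) * max 0 ((1:ℝ) - 1) ^ (n + 1)) = 0 := by simp
    rw [h0, hasDerivAt_iff_isLittleO_nhds_zero]
    refine Asymptotics.IsLittleO.of_bound ?_
    intro c hc
    have h5 : ∀ᶠ h : ℝ in 𝓝 0, |h| < min c 1 := by
      have h6 : |(0:ℝ)| < min c 1 := by rw [abs_zero]; exact lt_min hc one_pos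
      exact (continuous_abs.tendsto (0:ℝ)).eventually (gt_mem_nhds h6)
    filter_upwards [h5] with h hh
    have e1 : max (0:ℝ) (1 - (1 + h)) ≤ |h| := by
      refine max_le (abs_nonneg _) ?_
      have := neg_le_abs h
      linarith
    have e0 : (0:ℝ) ≤ max (0:ℝ) (1 - (1 + h)) := le_max_left _ _
    have hc1 : |h| < c := lt_of_lt_of_le hh (min_le_left _ _)
    have hc2 : |h| ≤ 1 := (lt_of_lt_of_le hh (min_le_right _ _)).le
    have e2 : max (0:ℝ) (1 - (1 + h)) ^ (n + 2) ≤ c * |h| := by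
      calc max (0:ℝ) (1 - (1 + h)) ^ (n + 2) ≤ |h| ^ (n + 2) := pow_le_pow_left₀ e0 e1 _
        _ = |h| ^ n * |h| * |h| := by ring
        _ ≤ 1 * c * |h| := by
          gcongr
          exact pow_le_one₀ (abs_nonneg _) hc2
        _ = c * |h| := by ring
    simp only [sub_self, max_self, smul_zero, sub_zero]
    rw [zero_pow (by omega), sub_zero, Real.norm_eq_abs, Real.norm_eq_abs, abs_of_nonneg (by positivity)]
    exact e2
  · have h4 : max 0 (1 - t) = 0 := max_eq_left (by linarith)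
    rw [h4]
    have h0 : -((n + 2 : ℝ) * 0 ^ (n + 1)) = 0 := by simp
    rw [h0]
    refine (hasDerivAt_const t (0:ℝ)).congr_of_eventuallyEq ?_
    filter_upwards [lt_mem_nhds h] with s hs
    have hs' : 1 < s := hs
    rw [max_eq_left (by linarith : (1:ℝ) - s ≤ 0)]
    simp

theorem hasDerivAt_g3 (t : ℝ) : HasDerivAt g3 (g31 t) t := by
  have h := hasDerivAt_pow_max 1 t
  refine h.congr_deriv ?_
  unfold g31
  norm_num

theorem hasDerivAt_g31 (t : ℝ) : HasDerivAt g31 (g32 t) t := by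
  have h := (hasDerivAt_pow_max 0 t).const_mul (-3)
  have h1 : g31 = fun t => -3 * max 0 (1 - t) ^ (0 + 2) := by
    funext t; unfold g31; ring
  rw [h1]
  refine h.congr_deriv ?_
  unfold g32
  norm_num
  ring

theorem continuous_g3 : Continuous g3 := by unfold g3; fun_prop
theorem continuous_g31 : Continuous g31 := by unfold g31; fun_prop
theorem continuous_g32 : Continuous g32 := by unfold g32; fun_prop

theorem ker3 : Ker g3 g31 :=
  ⟨hasDerivAt_g3, continuous_g31, fun t ht => by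
    unfold g3; rw [max_eq_left (by linarith)]; simp⟩

theorem ker31 : Ker g31 g32 :=
  ⟨hasDerivAt_g31, continuous_g32, fun t ht => by
    unfold g31; rw [max_eq_left (by linarith)]; simp⟩

theorem g31_nonpos (t : ℝ) : g31 t ≤ 0 := by unfold g31; have := sq_nonneg (max 0 (1 - t)); linarith

/-- the cubic profile is a profile -/
theorem prof : Prof g3 g31 g32 := ⟨ker3, ker31, fun t _ => g31_nonpos t⟩

theorem g3_nonneg (t : ℝ) : 0 ≤ g3 t := pow_nonneg (le_max_left _ _) _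

theorem g32_nonneg (t : ℝ) : 0 ≤ g32 t := mul_nonneg (by norm_num) (le_max_left _ _)

theorem m_le {t : ℝ} (ht : 0 ≤ t) : max 0 (1 - t) ≤ 1 := max_le zero_le_one (by linarith)

/-- **`g ≤ (1/3) (-g')`** -/
theorem g3_le {t : ℝ} (ht : 0 ≤ t) : g3 t ≤ 1 / 3 * -g31 t := by
  unfold g3 g31
  have h0 : (0:ℝ) ≤ max 0 (1 - t) := le_max_left _ _
  have h1 := m_le ht
  nlinarith [sq_nonneg (max 0 (1 - t))]

theorem g3_le_one {t : ℝ} (ht : 0 ≤ t) : g3 t ≤ 1 :=
  pow_le_one₀ (le_max_left _ _) (m_le ht)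

theorem abs_g31_le {t : ℝ} (ht : 0 ≤ t) : |g31 t| ≤ 3 := by
  unfold g31
  have h0 : (0:ℝ) ≤ max 0 (1 - t) := le_max_left _ _
  have h1 := m_le ht
  rw [abs_neg, abs_of_nonneg (by positivity)]
  nlinarith

theorem abs_g32_le {t : ℝ} (ht : 0 ≤ t) : |g32 t| ≤ 6 := by
  rw [abs_of_nonneg (g32_nonneg t)]
  unfold g32
  have h1 := m_le ht
  linarith

/-- `|t g'| ≤ 3` -/
theorem abs_t_g31_le {t : ℝ} (ht : 0 ≤ t) : |t * g31 t| ≤ 3 := by
  rcases le_total t 1 with h | h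
  · rw [abs_mul, abs_of_nonneg ht]
    have h1 := abs_g31_le ht
    nlinarith [abs_nonneg (g31 t)]
  · rw [ker31.zero t h]; simp

theorem abs_t_g32_le {t : ℝ} (ht : 0 ≤ t) : |t * g32 t| ≤ 6 := by
  rcases le_total t 1 with h | h
  · rw [abs_mul, abs_of_nonneg ht]
    have h1 := abs_g32_le ht
    nlinarith [abs_nonneg (g32 t)]
  · have : g32 t = 0 := by unfold g32; rw [max_eq_left (by linarith)]; simp
    rw [this]; simp

/-- `-g' ≥ 27/16` on `[0,1/4]` -/
theorem g31_lower {t : ℝ} (ht : t ≤ 1 / 4) : 27 / 16 ≤ -g31 t := by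
  unfold g31
  have h1 : (3:ℝ) / 4 ≤ max 0 (1 - t) := le_max_of_le_right (by linarith)
  nlinarith

/-- `-g' ≥ 3 (1-a)²` on `[0,a]` -/
theorem g31_lower' {a t : ℝ} (ha : a ≤ 1) (ht : t ≤ a) : 3 * (1 - a) ^ 2 ≤ -g31 t := by
  unfold g31
  have h1 : 1 - a ≤ max 0 (1 - t) := le_max_of_le_right (by linarith)
  have h2 : 0 ≤ 1 - a := by linarith
  nlinarith [pow_le_pow_left₀ h2 h1 2]

theorem g3_lower {a t : ℝ} (ha : a ≤ 1) (ht : t ≤ a) : (1 - a) ^ 3 ≤ g3 t := by
  unfold g3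
  exact pow_le_pow_left₀ (by linarith) (le_max_of_le_right (by linarith)) 3

/-! ### `∫ g 2f ≤ C I` -/

variable {m k : ℕ} {c : Ch m k} {K : Set (Euc k)} {D : Set (Euc m)}
  {V : Measure (Euc k × L k)} {g g1 : ℝ → ℝ}

/-- **F3-GI**: for a kernel with `g ≤ Cg (-g1)` the `g`-weighted height is controlled by `II`. -/
theorem int_g_f_le (h : Ok c K D) (hV : On V m K) (hg : Continuous g) (hg1 : Continuous g1)
    (ha : ∀ t, 0 ≤ t → g1 t ≤ 0) {Cg : ℝ} (hCg : 0 ≤ Cg)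
    (hle : ∀ t, 0 ≤ t → g t ≤ Cg * -g1 t) {l μ₀ : ℝ} (hμ₀ : 0 < μ₀)
    (hμ : ∀ z ∈ K, ‖c.x z‖ < Real.exp l → μ₀ ≤ c.mu (c.x z))
    (hz : ∀ t, 1 ≤ t → g t = 0) :
    Real.exp (-m * l) * ∫ p, g (Real.exp (-2 * l) * ‖c.x p.1‖ ^ 2) * (2 * c.f p.1) ∂V ≤
      Cg / (2 * μ₀) * II c V g1 l := by
  have e1 : Cg / (2 * μ₀) * II c V g1 l = Real.exp (-m * l) *
      ∫ p, (Cg / (2 * μ₀) * (c.f p.1 * c.mu (c.x p.1))) *
        (-4 * g1 (Real.exp (-2 * l) * ‖c.x p.1‖ ^ 2)) ∂V := by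
    unfold II
    rw [← mul_assoc, mul_comm (Cg / (2 * μ₀)) (Real.exp (-m * l)), mul_assoc,
      ← integral_const_mul]
    congr 1
    refine integral_congr_ae (Eventually.of_forall fun p => ?_)
    simp only
    ring
  rw [e1]
  refine mul_le_mul_of_nonneg_left ?_ (Real.exp_pos _).le
  have i1 : Integrable (fun p : Euc k × L k =>
      g (Real.exp (-2 * l) * ‖c.x p.1‖ ^ 2) * (2 * c.f p.1)) V := by
    have := h.int hV (continuousOn_const.mul (lift h.cf)) hg l (F := fun p => 2 * c.f p.1)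
    refine this.congr (Eventually.of_forall fun p => ?_)
    simp only
    ring
  have i2 : Integrable (fun p : Euc k × L k => (Cg / (2 * μ₀) * (c.f p.1 * c.mu (c.x p.1))) *
        (-4 * g1 (Real.exp (-2 * l) * ‖c.x p.1‖ ^ 2))) V :=
    h.int hV (continuousOn_const.mul h.cfmu) (q := fun t => -4 * g1 t)
      (continuous_const.mul hg1) l (F := fun p => Cg / (2 * μ₀) * (c.f p.1 * c.mu (c.x p.1)))
  refine integral_mono_ae i1 i2 ?_
  filter_upwards [hV.mem] with p hp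
  have hf := h.f_nonneg hp.1
  have ht : 0 ≤ Real.exp (-2 * l) * ‖c.x p.1‖ ^ 2 := by positivity
  have hmu := h.mupos _ (h.mem _ hp.1)
  have hn : 0 ≤ Cg * -g1 (Real.exp (-2 * l) * ‖c.x p.1‖ ^ 2) :=
    mul_nonneg hCg (by have := ha _ ht; linarith)
  have e2 : (Cg / (2 * μ₀) * (c.f p.1 * c.mu (c.x p.1))) *
      (-4 * g1 (Real.exp (-2 * l) * ‖c.x p.1‖ ^ 2)) =
      (Cg * -g1 (Real.exp (-2 * l) * ‖c.x p.1‖ ^ 2)) *
        ((2 / μ₀) * (c.f p.1 * c.mu (c.x p.1))) := by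
    field_simp; ring
  rw [e2]
  rcases le_or_gt 1 (Real.exp (-2 * l) * ‖c.x p.1‖ ^ 2) with h1 | h1
  · rw [hz _ h1, zero_mul]
    positivity
  · have hx : ‖c.x p.1‖ < Real.exp l := by
      have h2 : ‖c.x p.1‖ ^ 2 < Real.exp l ^ 2 := by
        have h4 : Real.exp (-2 * l) * Real.exp l ^ 2 = 1 := by
          rw [← Real.exp_nat_mul, ← Real.exp_add]
          have : -2 * l + ((2:ℕ):ℝ) * l = 0 := by push_cast; ring
          rw [this, Real.exp_zero]
        have h3 : Real.exp (-2 * l) * ‖c.x p.1‖ ^ 2 < Real.exp (-2 * l) * Real.exp l ^ 2 := by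
          rw [h4]; exact h1
        exact lt_of_mul_lt_mul_left h3 (Real.exp_pos _).le
      exact lt_of_pow_lt_pow_left₀ 2 (Real.exp_pos _).le h2
    have hmu0 := hμ _ hp.1 hx
    calc _ ≤ (Cg * -g1 (Real.exp (-2 * l) * ‖c.x p.1‖ ^ 2)) * (2 * c.f p.1) :=
          mul_le_mul_of_nonneg_right (hle _ ht) (by positivity)
      _ ≤ _ := by
          refine mul_le_mul_of_nonneg_left ?_ hn
          rw [div_mul_eq_mul_div, le_div_iff₀ hμ₀]
          nlinarith

/-- the same for the cubic profile -/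
theorem int_g3_f_le (h : Ok c K D) (hV : On V m K) {l μ₀ : ℝ} (hμ₀ : 0 < μ₀)
    (hμ : ∀ z ∈ K, ‖c.x z‖ < Real.exp l → μ₀ ≤ c.mu (c.x z)) :
    Real.exp (-m * l) * ∫ p, g3 (Real.exp (-2 * l) * ‖c.x p.1‖ ^ 2) * (2 * c.f p.1) ∂V ≤
      1 / 3 / (2 * μ₀) * II c V g31 l :=
  int_g_f_le h hV continuous_g3 continuous_g31 (fun t _ => g31_nonpos t) (by norm_num)
    (fun _ ht => g3_le ht) hμ₀ hμ ker3.zero

end Crest.Agent.R234.GI_640
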