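import Crest.Agent.R234.Gi7_456

/-!
# Row 234 (helper456): `GL_394.Loc` for the chart of a graph, on the compact pieces `Kc`
-/

set_option autoImplicit false

open MeasureTheory Filter Topology Set Function
open scoped ENNReal NNReal ContDiff InnerProductSpace
open Crest.GeometryTopology.Submanifold Crest.Agent.R234.Vf_884
open Crest.Agent.R234.Main_456

noncomputable section

namespace Crest.Agent.R234.Gi_456

variable {m n k : ℕ}

local notation "adj" => ContinuousLinearMap.adjoint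

variable {π : Euc k →L[ℝ] Euc m} {ρ : Euc k →L[ℝ] Euc n} {x : Euc k} {r : ℝ} {w : Euc m → Euc n}
  {X0 : Euc m} {U : Set (Euc k)} {V : Measure (Euc k × L k)} {R t Lv : ℝ}

/-- points of `Kc` are near the centre -/
theorem Gr.norm_sub_pm_le (h : Gr r w) (hf : Frame π ρ) {z : Euc k} (hz : z ∈ tube π ρ x r w)
    (X0 : Euc m) :
    ‖z - pm π ρ x w X0‖ ≤
      65 / 64 * (‖foot π ρ x r w z - X0‖ + ‖yy π ρ x r w z‖) := by
  rw [h.sub_pm hf hz]
  refine (norm_add_le _ _).trans ?_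
  set X := foot π ρ x r w z with hX
  have h1 := norm_sq_frame hf (X - X0) (w X - w X0)
  have h2 := h.lip X X0
  have h4 : ‖adj π (X - X0) + adj ρ (w X - w X0)‖ ≤ 65 / 64 * ‖X - X0‖ := by
    refine abs_le_of_sq_le_sq' ?_ (by positivity) |>.2
    rw [h1]
    nlinarith [norm_nonneg (X - X0), norm_nonneg (w X - w X0)]
  have h5 := h.norm_nu_le_yy hf X (yy π ρ x r w z)
  linarith

theorem Gr.Kc_subset_closedBall (h : Gr r w) (hf : Frame π ρ) (X0 : Euc m) (ht : 65 / 64 * t < r) :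
    Kc π ρ x w X0 R t ⊆ Metric.closedBall (pm π ρ x w X0) (65 / 64 * (R + t)) := by
  intro z hz
  obtain ⟨h1, h2, h3⟩ := (h.mem_Kc hf ht).1 hz
  rw [mem_closedBall_iff_norm]
  refine (h.norm_sub_pm_le hf h1 X0).trans ?_
  gcongr

/-- **`Loc`** -/
theorem Gr.loc (h : Gr r w) (hf : Frame π ρ) (hV : Stat m k U V) (hU : IsOpen U)
    (ht : 65 / 64 * t < r) (hKU : Kc π ρ x w X0 R t ⊆ U) (hL : Real.exp Lv ≤ R)
    (hh : ∀ᵐ p ∂V, p.1 ∈ U → p.1 ∈ tube π ρ x r w → ‖foot π ρ x r w p.1 - X0‖ ≤ R →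
      ‖yy π ρ x r w p.1‖ ≤ t) :
    GL_394.Loc (ch π ρ x r w X0) U (tube π ρ x r w) (Kc π ρ x w X0 R t) V Lv where
  st := hV
  opU := hU
  cpt := h.isCompact_Kc X0 R t
  sub := fun _ hz => ⟨h.Kc_subset hf X0 ht hz, hKU hz⟩
  gap := by
    filter_upwards [hh] with p hp h1 h2
    have h3 : ‖foot π ρ x r w p.1 - X0‖ ≤ R :=
      ((le_norm_Lo (fderiv ℝ w X0) (foot π ρ x r w p.1 - X0)).trans h2).trans hL
    exact (h.mem_Kc hf ht).2 ⟨h1.1, h3, hp h1.2 h1.1 h3⟩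

/-- **`Loc` from a bound of the heights on a cylinder** -/
theorem Gr.loc' (h : Gr r w) (hf : Frame π ρ) (hV : Stat m k U V) (hU : IsOpen U)
    (ht : 65 / 64 * t < r)
    (hKU : Metric.closedBall (pm π ρ x w X0) (65 / 64 * (R + t)) ⊆ U) (hL : Real.exp Lv ≤ R)
    (hh : ∀ᵐ p ∂V, p.1 ∈ U → p.1 ∈ tube π ρ x r w → ‖π (p.1 - x) - X0‖ ≤ R + r / 4 →
      ‖ρ (p.1 - x) - w (π (p.1 - x))‖ ≤ 8 / 9 * t) :
    GL_394.Loc (ch π ρ x r w X0) U (tube π ρ x r w) (Kc π ρ x w X0 R t) V Lv := by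
  refine h.loc hf hV hU ht ((h.Kc_subset_closedBall hf X0 ht).trans hKU) hL ?_
  filter_upwards [hh] with p hp h1 h2 h3
  have h4 := h.norm_foot_sub h2
  have h5 : ‖ρ (p.1 - x) - w (π (p.1 - x))‖ < r := h2
  have h6 : ‖π (p.1 - x) - X0‖ ≤ R + r / 4 := by
    have : π (p.1 - x) - X0 = (foot π ρ x r w p.1 - X0) -
      (foot π ρ x r w p.1 - π (p.1 - x)) := by abel
    rw [this]
    refine (norm_sub_le _ _).trans ?_
    linarith
  have h7 := hp h1 h2 h6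
  have h8 := h.norm_yy_le h2
  linarith

/-- balls about points of the graph lie in the tube -/
theorem Gr.ball_subset_tube (h : Gr r w) (hf : Frame π ρ) (X0 : Euc m) {s : ℝ}
    (hs : 9 / 8 * s ≤ r) : Metric.ball (pm π ρ x w X0) s ⊆ tube π ρ x r w := by
  intro z hz
  rw [mem_ball_iff_norm] at hz
  show ‖ρ (z - x) - w (π (z - x))‖ < r
  have e1 : ρ (z - x) = ρ (z - pm π ρ x w X0) + w X0 := by
    have : z - x = (z - pm π ρ x w X0) + (adj π X0 + adj ρ (w X0)) := by rw [pm]; abel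
    rw [this, map_add, map_add, rho_adj_pi hf, rho_adj hf, zero_add]
  have e2 : π (z - x) = π (z - pm π ρ x w X0) + X0 := by
    have : z - x = (z - pm π ρ x w X0) + (adj π X0 + adj ρ (w X0)) := by rw [pm]; abel
    rw [this, map_add, map_add, pi_adj_rho hf, pi_adj hf, add_zero]
  have h1 := h.lip X0 (π (z - x))
  have h2 : ‖X0 - π (z - x)‖ ≤ ‖z - pm π ρ x w X0‖ := by
    have : X0 - π (z - x) = -π (z - pm π ρ x w X0) := by rw [e2]; abel
    rw [this, norm_neg]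
    exact norm_pi_le' hf _
  have h3 : ρ (z - x) - w (π (z - x)) = ρ (z - pm π ρ x w X0) + (w X0 - w (π (z - x))) := by
    rw [e1]; abel
  rw [h3]
  have h4 := norm_rho_le' hf (z - pm π ρ x w X0)
  have h5 := norm_add_le (ρ (z - pm π ρ x w X0)) (w X0 - w (π (z - x)))
  linarith

/-- foot points of a ball about a point of the graph -/
theorem Gr.foot_near (h : Gr r w) (hf : Frame π ρ) {X0 : Euc m} {z : Euc k}
    (hz : z ∈ tube π ρ x r w) (hs : ‖z - pm π ρ x w X0‖ ≤ r) :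
    ‖foot π ρ x r w z - X0‖ ≤ 7 / 6 * ‖z - pm π ρ x w X0‖ := by
  have e := h.norm_sq_sub_pm hf hz X0
  set X := foot π ρ x r w z with hX
  set ν := Bt π ρ w X (yy π ρ x r w z) with hν
  have hr := h.pos
  have n2 := h.taylor (X := X) (X' := X0) (K2 := 1 / (8 * r)) (fun a _ => h.d2 a)
  have n3 : ‖ν‖ ≤ ‖z - pm π ρ x w X0‖ := h.norm_nu_le (X0 := X0) hf hz X0
  have h4 : |⟪adj ρ (w X - w X0 - fderiv ℝ w X (X - X0)), ν⟫_ℝ| ≤
      1 / (8 * r) * ‖X - X0‖ ^ 2 * r := by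
    refine (abs_real_inner_le_norm _ _).trans ?_
    rw [norm_adj_rho hf]
    have e : w X - w X0 - fderiv ℝ w X (X - X0) = -(w X0 - w X - fderiv ℝ w X (X0 - X)) := by
      rw [map_sub, map_sub]; abel
    rw [e, norm_neg]
    refine mul_le_mul ?_ (by linarith) (norm_nonneg _) (by positivity)
    rwa [norm_sub_rev X X0]
  have h5 : 1 / (8 * r) * ‖X - X0‖ ^ 2 * r = 1 / 8 * ‖X - X0‖ ^ 2 := by
    field_simp
  rw [h5] at h4
  have h6 := (abs_le.1 h4).1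
  refine abs_le_of_sq_le_sq' ?_ (by positivity) |>.2
  nlinarith [sq_nonneg ‖ν‖, sq_nonneg ‖w X - w X0‖, sq_nonneg ‖z - pm π ρ x w X0‖]

/-- **a.e. point of `V` in a ball about a point of the graph lies in `Kc`** -/
theorem Gr.cov (h : Gr r w) (hf : Frame π ρ) (ht : 65 / 64 * t < r)
    {s : ℝ} (hs : 9 / 8 * s ≤ r) (hU : Metric.ball (pm π ρ x w X0) s ⊆ U)
    (hsR : 7 / 6 * s ≤ R)
    (hh : ∀ᵐ p ∂V, p.1 ∈ U → p.1 ∈ tube π ρ x r w → ‖foot π ρ x r w p.1 - X0‖ ≤ R →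
      ‖yy π ρ x r w p.1‖ ≤ t) :
    ∀ᵐ p ∂V, p.1 ∈ Metric.ball (pm π ρ x w X0) s → p.1 ∈ Kc π ρ x w X0 R t := by
  filter_upwards [hh] with p hp h1
  have h2 := h.ball_subset_tube hf X0 hs h1
  have h3 : ‖p.1 - pm π ρ x w X0‖ < s := by rwa [mem_ball_iff_norm] at h1
  have hr := h.pos
  have h0 := norm_nonneg (p.1 - pm π ρ x w X0)
  have h4 := h.foot_near hf h2 (X0 := X0) (by linarith)
  have h5 : ‖foot π ρ x r w p.1 - X0‖ ≤ R := by linarith
  exact (h.mem_Kc hf ht).2 ⟨h2, h5, hp (hU h1) h2 h5⟩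

end Crest.Agent.R234.Gi_456
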