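import Crest.Agent.R234.Sel3_570

/-!
Row 234, VF-SEL (helper570), file 4: the Caccioppoli inequality relative to a minimal graph and the
weak Jacobi inequality, in the language `HStat m H K V`, `GD H w`.
-/

set_option autoImplicit false

open MeasureTheory Crest.GeometryTopology.Submanifold Filter Topology
open Crest.Agent.R234.Vf_884 Crest.Agent.R234.Sel1_570 Crest.Agent.R234.Pt_615
open scoped ENNReal InnerProductSpace

noncomputable section

namespace Crest.Agent.R234.Sel2_570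

variable {m k : ℕ} {H : L k} {w : Euc k → Euc k}

/-- the weighted normal frame. -/
def NN (H : L k) (w : Euc k → Euc k) (z : Euc k) : L k := nu H (Bz w z) * KK (Bz w z)

theorem GD.contDiff_NN (h : GD H w) : ContDiff ℝ 2 (NN H w) := h.contDiff_nu.mul h.contDiff_KK

/-- minimality at `z`. -/
def Min (H : L k) (w : Euc k → Euc k) (z : Euc k) : Prop :=
  ∀ e : Euc k, tr (AA w z e * TZ H w z) = 0

theorem GD.TZ_NN (h : GD H w) (z : Euc k) : TZ H w z * NN H w z = 0 := by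
  rw [NN, ← mul_assoc, (h.gb z).T_nu, zero_mul]

/-- the derivative of `N` against the tangent plane vanishes on minimal graphs. -/
theorem GD.DNN_tan (h : GD H w) {z : Euc k} (hz : Min H w z) (f : Euc k) :
    tr ((fderiv ℝ (NN H w) z).flip f * TZ H w z) = 0 := by
  have h1 : HasFDerivAt (fun z => nu H (Bz w z)) (-(DBs w z)) z :=
    ((hasFDerivAt_const (1 - H : L k) z).sub (h.hasFDerivAt_Bs z)).congr_fderiv (by simp)
  have h2 : HasFDerivAt (fun z => KK (Bz w z)) (fderiv ℝ (fun z => KK (Bz w z)) z) z :=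
    (h.contDiff_KK.differentiable (by norm_num) z).hasFDerivAt
  have h3 : HasFDerivAt (NN H w) _ z := h1.mul' h2
  have h4 : (fderiv ℝ (NN H w) z).flip f
      = nu H (Bz w z) * (fderiv ℝ (fun z => KK (Bz w z)) z).flip f
        - AA w z (KK (Bz w z) f) := by
    rw [h3.fderiv]
    ext1 v
    simp only [ContinuousLinearMap.flip_apply, add_apply, sub_apply, mul_apply_eq_comp,
      smul_apply, smul_eq_mul, AA_apply, neg_apply]
    simp only [MulOpposite.smul_eq_mul_unop,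
      MulOpposite.unop_op, neg_apply, mul_apply_eq_comp]
    abel
  rw [h4, sub_mul, map_sub, hz, sub_zero, mul_assoc, tr_mul_comm, mul_assoc, (h.gb z).T_nu,
    mul_zero, map_zero]

variable {K : Set (Euc k)} {η : Euc k → ℝ} {G : Euc k → Euc k}

/-- cut-off data (`C¹` only). -/
structure CF (H : L k) (K : Set (Euc k)) (η : Euc k → ℝ) (G : Euc k → Euc k) : Prop where
  der : ∀ z, HasFDerivAt η (innerSL ℝ (G z)) z
  smooth : ContDiff ℝ 1 η
  zero : ∀ z, H z ∉ K → η z = 0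
  contG : Continuous G

/-- the Caccioppoli field, pointwise. -/
theorem GD.cacc_pt (h : GD H w) (hη : CF H K η G) (z : Euc k) (S : L k) :
    tr ((fderiv ℝ (fun z => ((η z) ^ 2 • NN H w z) (ht H w z)) z) ∘L S)
      = 2 * η z * ⟪G z, S (NN H w z (ht H w z))⟫_ℝ
        + η z ^ 2 * tr ((fderiv ℝ (NN H w) z).flip (ht H w z) * S)
        + η z ^ 2 * tau (TZ H w z) S := by
  have hc : ContDiff ℝ 1 fun z => (η z) ^ 2 • NN H w z :=
    (hη.smooth.pow 2).smul (h.contDiff_NN.of_le (by norm_num))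
  rw [h.X3 hc z S]
  have h2 : HasFDerivAt (fun z => (η z) ^ 2) ((2 * η z) • innerSL ℝ (G z)) z := by
    refine ((hη.der z).pow 2).congr_fderiv ?_
    simp
  have h3 : HasFDerivAt (NN H w) (fderiv ℝ (NN H w) z) z :=
    (h.contDiff_NN.differentiable (by norm_num) z).hasFDerivAt
  have h4 := h2.smul h3
  have e1 : (fderiv ℝ (fun z => (η z) ^ 2 • NN H w z) z).flip (ht H w z)
      = η z ^ 2 • (fderiv ℝ (NN H w) z).flip (ht H w z)
        + ((innerSL ℝ ((2 * η z) • G z)).smulRight (NN H w z (ht H w z))) := by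
    have : fderiv ℝ (fun z => (η z) ^ 2 • NN H w z) z = _ := h4.fderiv
    rw [this]
    ext1 v
    simp
  have e2 : ((η z) ^ 2 • NN H w z) * star (nu H (Bz w z)) = η z ^ 2 • (1 - TZ H w z) := by
    rw [smul_mul', NN]
    congr 1
    rw [← (h.gb z).TT_add]
    abel
  have e3 : tr (((innerSL ℝ ((2 * η z) • G z)).smulRight (NN H w z (ht H w z))) * S)
      = 2 * η z * ⟪G z, S (NN H w z (ht H w z))⟫_ℝ := by
    have := tr_rank ((2 * η z) • G z) (NN H w z (ht H w z)) S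
    rw [inner_smul_left] at this
    exact this
  generalize ((innerSL ℝ ((2 * η z) • G z)).smulRight (NN H w z (ht H w z))) = R at e1 e3
  rw [e1, e2, add_mul, map_add, smul_mul', map_smul, smul_mul', map_smul, tau, e3]
  simp only [smul_eq_mul]
  ring

theorem norm_one_sub_mul_le {S T : L k} (hS : S ∈ Vf_884.G m k) (hT : T ∈ Vf_884.G m k) :
    ‖S * (1 - T)‖ ≤ Real.sqrt (2 * tau T S) := by
  have e : S * (1 - T) = (S - T) * (1 - T) := by
    have h1 : T * (1 - T) = 0 := by rw [mul_sub, mul_one, show T * T = T from hT.1, sub_self]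
    rw [sub_mul, h1, sub_zero]
  rw [e]
  calc ‖(S - T) * (1 - T)‖ ≤ ‖S - T‖ * ‖1 - T‖ := norm_mul_le _ _
    _ ≤ Real.sqrt (2 * tau T S) * 1 := by
        gcongr
        · exact Sel1_570.norm_sub_le hS hT
        · exact norm_one_sub_le hT
    _ = _ := mul_one _

/-- absorbing form of the error terms in the Caccioppoli inequality. -/
theorem GD.cacc_bound (h : GD H w) (hm : tr H = m) {z : Euc k}
    (hz : η z ≠ 0 → Min H w z) {S : L k} (hS : S ∈ Vf_884.G m k) :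
    |2 * η z * ⟪G z, S (NN H w z (ht H w z))⟫_ℝ
        + η z ^ 2 * tr ((fderiv ℝ (NN H w) z).flip (ht H w z) * S)|
      ≤ 1 / 2 * (η z ^ 2 * tau (TZ H w z) S)
        + (8 * ‖G z‖ ^ 2 * ‖NN H w z‖ ^ 2 + 2 * η z ^ 2 * k ^ 2 * ‖fderiv ℝ (NN H w) z‖ ^ 2)
          * ‖ht H w z‖ ^ 2 := by
  have hT : TZ H w z ∈ Vf_884.G m k := (h.gb z).TT_mem hm
  have hτ : 0 ≤ tau (TZ H w z) S := tau_nonneg hS hT
  set τ := tau (TZ H w z) S with hτd
  set s := Real.sqrt (2 * τ) with hs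
  have hs0 : 0 ≤ s := Real.sqrt_nonneg _
  have hss : s ^ 2 = 2 * τ := Real.sq_sqrt (by linarith)
  set f := ht H w z with hf
  have a1 : |⟪G z, S (NN H w z f)⟫_ℝ| ≤ ‖G z‖ * (s * (‖NN H w z‖ * ‖f‖)) := by
    have e1 : S (NN H w z f) = (S * (1 - TZ H w z)) (NN H w z f) := by
      have e2 : (S * (1 - TZ H w z)) (NN H w z f)
          = S (NN H w z f) - S ((TZ H w z * NN H w z) f) := by
        simp only [mul_apply_eq_comp, sub_apply, map_sub, one_apply_eq_self]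
      rw [e2, h.TZ_NN]
      simp
    rw [e1]
    refine (abs_real_inner_le_norm _ _).trans ?_
    gcongr
    refine (ContinuousLinearMap.le_opNorm _ _).trans ?_
    gcongr
    · exact norm_one_sub_mul_le hS hT
    · exact ContinuousLinearMap.le_opNorm _ _
  have a2 : η z ^ 2 * |tr ((fderiv ℝ (NN H w) z).flip f * S)|
      ≤ η z ^ 2 * (k * (‖fderiv ℝ (NN H w) z‖ * ‖f‖) * s) := by
    by_cases h0 : η z = 0
    · rw [h0]; simp
    · have h1 := tr_lin_le hS hT ((fderiv ℝ (NN H w) z).flip f)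
      rw [h.DNN_tan (hz h0), sub_zero] at h1
      refine mul_le_mul_of_nonneg_left (h1.trans ?_) (sq_nonneg _)
      gcongr
      refine (ContinuousLinearMap.le_opNorm _ _).trans ?_
      rw [ContinuousLinearMap.opNorm_flip]
  have b1 : 2 * |η z| * (‖G z‖ * (s * (‖NN H w z‖ * ‖f‖)))
      ≤ 1 / 4 * (η z ^ 2 * τ) + 8 * ‖G z‖ ^ 2 * ‖NN H w z‖ ^ 2 * ‖f‖ ^ 2 := by
    have h1 : 0 ≤ (|η z| * s - 8 * (‖G z‖ * (‖NN H w z‖ * ‖f‖))) ^ 2 := sq_nonneg _
    have h2 : |η z| ^ 2 = η z ^ 2 := sq_abs _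
    have h3 : (|η z| * s) ^ 2 = η z ^ 2 * (2 * τ) := by rw [mul_pow, h2, hss]
    nlinarith [h1, h3]
  have b2 : η z ^ 2 * (k * (‖fderiv ℝ (NN H w) z‖ * ‖f‖) * s)
      ≤ 1 / 4 * (η z ^ 2 * τ) + 2 * η z ^ 2 * k ^ 2 * ‖fderiv ℝ (NN H w) z‖ ^ 2 * ‖f‖ ^ 2 := by
    have h1 : 0 ≤ (s - 4 * (k * (‖fderiv ℝ (NN H w) z‖ * ‖f‖))) ^ 2 := sq_nonneg _
    have h3 : k * (‖fderiv ℝ (NN H w) z‖ * ‖f‖) * s
        ≤ 1 / 4 * τ + 2 * (k * (‖fderiv ℝ (NN H w) z‖ * ‖f‖)) ^ 2 := by nlinarith [h1, hss]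
    have h4 := mul_le_mul_of_nonneg_left h3 (sq_nonneg (η z))
    refine h4.trans (le_of_eq ?_)
    ring
  calc |2 * η z * ⟪G z, S (NN H w z f)⟫_ℝ
        + η z ^ 2 * tr ((fderiv ℝ (NN H w) z).flip f * S)|
      ≤ |2 * η z * ⟪G z, S (NN H w z f)⟫_ℝ|
        + |η z ^ 2 * tr ((fderiv ℝ (NN H w) z).flip f * S)| := abs_add_le _ _
    _ = 2 * |η z| * |⟪G z, S (NN H w z f)⟫_ℝ|
        + η z ^ 2 * |tr ((fderiv ℝ (NN H w) z).flip f * S)| := by
        rw [abs_mul, abs_mul, abs_two, abs_mul, abs_of_nonneg (sq_nonneg (η z))]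
    _ ≤ 2 * |η z| * (‖G z‖ * (s * (‖NN H w z‖ * ‖f‖)))
        + η z ^ 2 * (k * (‖fderiv ℝ (NN H w) z‖ * ‖f‖) * s) := by
        gcongr
    _ ≤ _ := by
        refine (add_le_add b1 b2).trans (le_of_eq ?_)
        ring

variable {V : Measure (Euc k × L k)} [IsFiniteMeasure V]

theorem GD.continuous_ht (h : GD H w) : Continuous (ht H w) := h.contDiff_ht.continuous

theorem GD.continuous_tau (h : GD H w) :
    Continuous fun p : Euc k × L k => tau (TZ H w p.1) p.2 := by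
  have h1 : Continuous fun p : Euc k × L k => (1 - TZ H w p.1) * p.2 :=
    (continuous_const.sub (h.contDiff_TT.continuous.comp continuous_fst)).mul continuous_snd
  exact tr.continuous.comp h1

theorem GD.continuous_DNN (h : GD H w) : Continuous fun z => fderiv ℝ (NN H w) z :=
  h.contDiff_NN.continuous_fderiv (by norm_num)

/-- **CACCIOPPOLI relative to a minimal graph.** -/
theorem GD.cacc (h : GD H w) (hm : tr H = m) (hV : HStat m H K V) (hη : CF H K η G)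
    (hz : ∀ z, η z ≠ 0 → Min H w z) :
    ∫ p, η p.1 ^ 2 * tau (TZ H w p.1) p.2 ∂V
      ≤ ∫ p, (16 * ‖G p.1‖ ^ 2 * ‖NN H w p.1‖ ^ 2
        + 4 * η p.1 ^ 2 * k ^ 2 * ‖fderiv ℝ (NN H w) p.1‖ ^ 2) * ‖ht H w p.1‖ ^ 2 ∂V := by
  have hc : ContDiff ℝ 1 fun z => ((η z) ^ 2 • NN H w z) (ht H w z) :=
    ((hη.smooth.pow 2).smul (h.contDiff_NN.of_le (by norm_num))).clm_apply h.contDiff_ht
  have e1 : FV V (fun z => ((η z) ^ 2 • NN H w z) (ht H w z)) = 0 :=
    hV.stat _ hc fun z hz => by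
      show ((η z) ^ 2 • NN H w z) (ht H w z) = 0
      rw [hη.zero z hz]
      simp
  have i1 := integrable_of_cont' hV.toHBase (continuous_tr_field hc)
  have cη : Continuous fun p : Euc k × L k => η p.1 := hη.smooth.continuous.comp continuous_fst
  have cG : Continuous fun p : Euc k × L k => G p.1 := hη.contG.comp continuous_fst
  have cN : Continuous fun p : Euc k × L k => NN H w p.1 :=
    h.contDiff_NN.continuous.comp continuous_fst
  have cD : Continuous fun p : Euc k × L k => fderiv ℝ (NN H w) p.1 :=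
    h.continuous_DNN.comp continuous_fst
  have cf : Continuous fun p : Euc k × L k => ht H w p.1 := h.continuous_ht.comp continuous_fst
  have cDn : Continuous fun p : Euc k × L k => ‖fderiv ℝ (NN H w) p.1‖ :=
    (continuous_norm (E := Euc k →L[ℝ] L k)).comp cD
  have i2 : Integrable (fun p : Euc k × L k => η p.1 ^ 2 * tau (TZ H w p.1) p.2) V :=
    integrable_of_cont' hV.toHBase ((cη.pow 2).mul h.continuous_tau)
  have i3 : Integrable (fun p : Euc k × L k => (8 * ‖G p.1‖ ^ 2 * ‖NN H w p.1‖ ^ 2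
        + 2 * η p.1 ^ 2 * k ^ 2 * ‖fderiv ℝ (NN H w) p.1‖ ^ 2) * ‖ht H w p.1‖ ^ 2) V := by
    refine integrable_of_cont' hV.toHBase ?_
    exact (((continuous_const.mul (cG.norm.pow 2)).mul (cN.norm.pow 2)).add
      (((continuous_const.mul (cη.pow 2)).mul continuous_const).mul (cDn.pow 2))).mul
      (cf.norm.pow 2)
  have key : (0 : ℝ) = ∫ p, tr ((fderiv ℝ (fun z => ((η z) ^ 2 • NN H w z) (ht H w z)) p.1)
      ∘L p.2) ∂V := e1.symm
  have h1 : ∫ p, (1 / 2 * (η p.1 ^ 2 * tau (TZ H w p.1) p.2)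
      - (8 * ‖G p.1‖ ^ 2 * ‖NN H w p.1‖ ^ 2
        + 2 * η p.1 ^ 2 * k ^ 2 * ‖fderiv ℝ (NN H w) p.1‖ ^ 2) * ‖ht H w p.1‖ ^ 2) ∂V ≤ 0 := by
    rw [key]
    refine integral_mono_ae ((i2.const_mul _).sub i3) i1 ?_
    filter_upwards [hV.conc] with p hp
    show _ ≤ tr _
    rw [h.cacc_pt hη p.1 p.2]
    have := h.cacc_bound hm (G := G) (η := η) (hz p.1) hp
    have := neg_abs_le (2 * η p.1 * ⟪G p.1, p.2 (NN H w p.1 (ht H w p.1))⟫_ℝ
        + η p.1 ^ 2 * tr ((fderiv ℝ (NN H w) p.1).flip (ht H w p.1) * p.2))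
    linarith
  rw [integral_sub (i2.const_mul _) i3, integral_const_mul] at h1
  have h2 : ∫ p, (16 * ‖G p.1‖ ^ 2 * ‖NN H w p.1‖ ^ 2
        + 4 * η p.1 ^ 2 * k ^ 2 * ‖fderiv ℝ (NN H w) p.1‖ ^ 2) * ‖ht H w p.1‖ ^ 2 ∂V
      = 2 * ∫ p, (8 * ‖G p.1‖ ^ 2 * ‖NN H w p.1‖ ^ 2
        + 2 * η p.1 ^ 2 * k ^ 2 * ‖fderiv ℝ (NN H w) p.1‖ ^ 2) * ‖ht H w p.1‖ ^ 2 ∂V := by
    rw [← integral_const_mul]
    refine integral_congr_ae (Eventually.of_forall fun p => ?_)
    simp only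
    ring
  rw [h2]
  linarith

/-- **WEAK JACOBI INEQUALITY.** -/
theorem GD.weak_jacobi (h : GD H w) (hm : tr H = m) (hV : HStat m H K V) {φ : Euc k → ℝ}
    {Gφ : Euc k → Euc k} (hφ : TF H K φ Gφ) (e : Euc k) (hz : ∀ z, φ z ≠ 0 → Min H w z)
    {D1 D2 D3 : ℝ} (hη : Continuous η)
    (h1 : ∀ z, ‖e‖ * ‖fderiv ℝ Gφ z‖ ≤ D1 * η z ^ 2)
    (h2 : ∀ z, ‖fderiv ℝ (fun z => φ z • QQ w z e) z‖ ≤ D2 * η z ^ 2)
    (h3 : ∀ z, |φ z| * ‖AA w z e‖ ≤ D3 * η z ^ 2) :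
    |∫ p, (⟪ht H w p.1, e⟫_ℝ * tr (fderiv ℝ Gφ p.1 * TZ H w p.1)
      + 2 * tr ((fderiv ℝ (fun z => φ z • QQ w z e) p.1).flip (ht H w p.1) * TZ H w p.1)) ∂V|
    ≤ ∫ p, η p.1 ^ 2 * (k * (D1 + 2 * D2) * ‖ht H w p.1‖ ^ 2
        + (k * (D1 + 2 * D2) + 4 * k * D3) * tau (TZ H w p.1) p.2) ∂V := by
  have hex := h.jacobi_exact hV hφ e
  have cf : Continuous fun p : Euc k × L k => ht H w p.1 := h.continuous_ht.comp continuous_fst
  have cDG : Continuous fun p : Euc k × L k => fderiv ℝ Gφ p.1 :=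
    (hφ.smoothG.continuous_fderiv (by norm_num)).comp continuous_fst
  have cY : Continuous fun p : Euc k × L k => fderiv ℝ (fun z => φ z • QQ w z e) p.1 :=
    ((hφ.smooth.smul (h.contDiff_QQ e)).continuous_fderiv (by norm_num)).comp continuous_fst
  have cT : Continuous fun p : Euc k × L k => TZ H w p.1 :=
    h.contDiff_TT.continuous.comp continuous_fst
  have cφ : Continuous fun p : Euc k × L k => φ p.1 := hφ.smooth.continuous.comp continuous_fst
  have cA : Continuous fun p : Euc k × L k => AA w p.1 e :=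
    (h.contDiff_AA e).continuous.comp continuous_fst
  have cη : Continuous fun p : Euc k × L k => η p.1 := hη.comp continuous_fst
  have cS : Continuous fun p : Euc k × L k => p.2 := continuous_snd
  have cflip : Continuous fun p : Euc k × L k =>
      (fderiv ℝ (fun z => φ z • QQ w z e) p.1).flip (ht H w p.1) :=
    ((ContinuousLinearMap.flipₗᵢ ℝ (Euc k) (Euc k) (Euc k)).continuous.comp cY).clm_apply cf
  have ce : Continuous fun p : Euc k × L k => ⟪ht H w p.1, e⟫_ℝ := cf.inner continuous_const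
  -- the two integrands
  have iT : Integrable (fun p : Euc k × L k =>
      ⟪ht H w p.1, e⟫_ℝ * tr (fderiv ℝ Gφ p.1 * TZ H w p.1)
      + 2 * tr ((fderiv ℝ (fun z => φ z • QQ w z e) p.1).flip (ht H w p.1) * TZ H w p.1)) V := by
    refine integrable_of_cont' hV.toHBase ?_
    exact (ce.mul (tr.continuous.comp (cDG.mul cT))).add
      (continuous_const.mul (tr.continuous.comp (cflip.mul cT)))
  have cqd : Continuous fun p : Euc k × L k => qd (AA w p.1 e) (TZ H w p.1) p.2 := by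
    unfold qd
    exact (tr.continuous.comp (cA.mul ((cT.mul (continuous_const.sub cS)).mul cT))).add
      (tr.continuous.comp (cA.mul (((continuous_const.sub cT).mul cS).mul
        (continuous_const.sub cT))))
  have iS : Integrable (fun p : Euc k × L k =>
      ⟪ht H w p.1, e⟫_ℝ * tr (fderiv ℝ Gφ p.1 * p.2)
      + 2 * tr ((fderiv ℝ (fun z => φ z • QQ w z e) p.1).flip (ht H w p.1) * p.2)
      + φ p.1 * tr (AA w p.1 e * TZ H w p.1)
      - φ p.1 * qd (AA w p.1 e) (TZ H w p.1) p.2) V := by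
    refine integrable_of_cont' hV.toHBase ?_
    exact (((ce.mul (tr.continuous.comp (cDG.mul cS))).add
      (continuous_const.mul (tr.continuous.comp (cflip.mul cS)))).add
      (cφ.mul (tr.continuous.comp (cA.mul cT)))).sub (cφ.mul cqd)
  have e1 : ∫ p, (⟪ht H w p.1, e⟫_ℝ * tr (fderiv ℝ Gφ p.1 * TZ H w p.1)
      + 2 * tr ((fderiv ℝ (fun z => φ z • QQ w z e) p.1).flip (ht H w p.1) * TZ H w p.1)) ∂V
      = ∫ p, ((⟪ht H w p.1, e⟫_ℝ * tr (fderiv ℝ Gφ p.1 * TZ H w p.1)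
      + 2 * tr ((fderiv ℝ (fun z => φ z • QQ w z e) p.1).flip (ht H w p.1) * TZ H w p.1))
      - (⟪ht H w p.1, e⟫_ℝ * tr (fderiv ℝ Gφ p.1 * p.2)
      + 2 * tr ((fderiv ℝ (fun z => φ z • QQ w z e) p.1).flip (ht H w p.1) * p.2)
      + φ p.1 * tr (AA w p.1 e * TZ H w p.1)
      - φ p.1 * qd (AA w p.1 e) (TZ H w p.1) p.2)) ∂V := by
    rw [integral_sub iT iS, hex, sub_zero]
  rw [e1]
  have iR : Integrable (fun p : Euc k × L k => η p.1 ^ 2 * (k * (D1 + 2 * D2) * ‖ht H w p.1‖ ^ 2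
        + (k * (D1 + 2 * D2) + 4 * k * D3) * tau (TZ H w p.1) p.2)) V := by
    refine integrable_of_cont' hV.toHBase ?_
    exact (cη.pow 2).mul ((continuous_const.mul (cf.norm.pow 2)).add
      (continuous_const.mul h.continuous_tau))
  rw [← Real.norm_eq_abs]
  refine norm_integral_le_of_norm_le iR ?_
  filter_upwards [hV.conc] with p hp
  rw [Real.norm_eq_abs]
  have hT : TZ H w p.1 ∈ Vf_884.G m k := (h.gb p.1).TT_mem hm
  have hτ : 0 ≤ tau (TZ H w p.1) p.2 := tau_nonneg hp hT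
  set τ := tau (TZ H w p.1) p.2 with hτd
  set s := Real.sqrt (2 * τ) with hs
  have hs0 : 0 ≤ s := Real.sqrt_nonneg _
  have hss : s ^ 2 = 2 * τ := Real.sq_sqrt (by linarith)
  set f := ht H w p.1 with hf
  have hmin : φ p.1 * tr (AA w p.1 e * TZ H w p.1) = 0 := by
    by_cases h0 : φ p.1 = 0
    · rw [h0, zero_mul]
    · rw [hz p.1 h0 e, mul_zero]
  have t1 := tr_lin_le hp hT (fderiv ℝ Gφ p.1)
  have t2 := tr_lin_le hp hT ((fderiv ℝ (fun z => φ z • QQ w z e) p.1).flip f)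
  have t3 := quad_le hp hT (AA w p.1 e)
  have t2' : ‖(fderiv ℝ (fun z => φ z • QQ w z e) p.1).flip f‖
      ≤ ‖fderiv ℝ (fun z => φ z • QQ w z e) p.1‖ * ‖f‖ := by
    refine (ContinuousLinearMap.le_opNorm
      (fderiv ℝ (fun z => φ z • QQ w z e) p.1).flip f).trans ?_
    rw [ContinuousLinearMap.opNorm_flip]
  have k0 : (0 : ℝ) ≤ k := Nat.cast_nonneg k
  have u1 : |⟪f, e⟫_ℝ * (tr (fderiv ℝ Gφ p.1 * TZ H w p.1) - tr (fderiv ℝ Gφ p.1 * p.2))|
      ≤ ‖f‖ * ‖e‖ * (k * ‖fderiv ℝ Gφ p.1‖ * s) := by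
    rw [abs_mul, abs_sub_comm (tr (fderiv ℝ Gφ p.1 * TZ H w p.1))]
    exact mul_le_mul (abs_real_inner_le_norm _ _) t1 (abs_nonneg _) (by positivity)
  have u2 : |2 * (tr ((fderiv ℝ (fun z => φ z • QQ w z e) p.1).flip f * TZ H w p.1)
      - tr ((fderiv ℝ (fun z => φ z • QQ w z e) p.1).flip f * p.2))|
      ≤ 2 * (k * (‖fderiv ℝ (fun z => φ z • QQ w z e) p.1‖ * ‖f‖) * s) := by
    rw [abs_mul, abs_two,
      abs_sub_comm (tr ((fderiv ℝ (fun z => φ z • QQ w z e) p.1).flip f * TZ H w p.1))]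
    have : k * ‖(fderiv ℝ (fun z => φ z • QQ w z e) p.1).flip f‖ * s
        ≤ k * (‖fderiv ℝ (fun z => φ z • QQ w z e) p.1‖ * ‖f‖) * s := by gcongr
    linarith
  have u3 : |φ p.1 * qd (AA w p.1 e) (TZ H w p.1) p.2| ≤ |φ p.1| * (4 * k * ‖AA w p.1 e‖ * τ) := by
    rw [abs_mul]
    exact mul_le_mul_of_nonneg_left t3 (abs_nonneg _)
  have fs : ‖f‖ * s ≤ ‖f‖ ^ 2 + τ := by nlinarith [sq_nonneg (‖f‖ - s), sq_nonneg ‖f‖]
  have ff : 0 ≤ ‖f‖ * s := by positivity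
  have v1 : ‖f‖ * ‖e‖ * (k * ‖fderiv ℝ Gφ p.1‖ * s) ≤ η p.1 ^ 2 * (k * D1 * (‖f‖ ^ 2 + τ)) := by
    have a := mul_le_mul (mul_le_mul_of_nonneg_left (h1 p.1) k0) fs ff
      (by have : 0 ≤ D1 * η p.1 ^ 2 := le_trans (by positivity) (h1 p.1)
          positivity)
    calc _ = k * (‖e‖ * ‖fderiv ℝ Gφ p.1‖) * (‖f‖ * s) := by ring
      _ ≤ _ := a
      _ = _ := by ring
  have v2 : 2 * (k * (‖fderiv ℝ (fun z => φ z • QQ w z e) p.1‖ * ‖f‖) * s)
      ≤ η p.1 ^ 2 * (k * (2 * D2) * (‖f‖ ^ 2 + τ)) := by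
    have a := mul_le_mul (mul_le_mul_of_nonneg_left (h2 p.1) k0) fs ff
      (by have : 0 ≤ D2 * η p.1 ^ 2 :=
            le_trans (ContinuousLinearMap.opNorm_nonneg _) (h2 p.1)
          positivity)
    calc _ = 2 * (k * ‖fderiv ℝ (fun z => φ z • QQ w z e) p.1‖ * (‖f‖ * s)) := by ring
      _ ≤ 2 * (k * (D2 * η p.1 ^ 2) * (‖f‖ ^ 2 + τ)) := by linarith
      _ = _ := by ring
  have v3 : |φ p.1| * (4 * k * ‖AA w p.1 e‖ * τ) ≤ η p.1 ^ 2 * (4 * k * D3 * τ) := by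
    have a := mul_le_mul_of_nonneg_right (h3 p.1) (show 0 ≤ 4 * k * τ by positivity)
    calc _ = |φ p.1| * ‖AA w p.1 e‖ * (4 * k * τ) := by ring
      _ ≤ _ := a
      _ = _ := by ring
  have split : (⟪f, e⟫_ℝ * tr (fderiv ℝ Gφ p.1 * TZ H w p.1)
      + 2 * tr ((fderiv ℝ (fun z => φ z • QQ w z e) p.1).flip f * TZ H w p.1))
      - (⟪f, e⟫_ℝ * tr (fderiv ℝ Gφ p.1 * p.2)
      + 2 * tr ((fderiv ℝ (fun z => φ z • QQ w z e) p.1).flip f * p.2)
      + φ p.1 * tr (AA w p.1 e * TZ H w p.1)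
      - φ p.1 * qd (AA w p.1 e) (TZ H w p.1) p.2)
      = ⟪f, e⟫_ℝ * (tr (fderiv ℝ Gφ p.1 * TZ H w p.1) - tr (fderiv ℝ Gφ p.1 * p.2))
      + 2 * (tr ((fderiv ℝ (fun z => φ z • QQ w z e) p.1).flip f * TZ H w p.1)
      - tr ((fderiv ℝ (fun z => φ z • QQ w z e) p.1).flip f * p.2))
      + φ p.1 * qd (AA w p.1 e) (TZ H w p.1) p.2 := by
    rw [hmin]; ring
  rw [split]
  refine (abs_add_le _ _).trans ?_
  refine (add_le_add (abs_add_le _ _) le_rfl).trans ?_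
  calc _ ≤ ‖f‖ * ‖e‖ * (k * ‖fderiv ℝ Gφ p.1‖ * s)
        + 2 * (k * (‖fderiv ℝ (fun z => φ z • QQ w z e) p.1‖ * ‖f‖) * s)
        + |φ p.1| * (4 * k * ‖AA w p.1 e‖ * τ) := by gcongr
    _ ≤ η p.1 ^ 2 * (k * D1 * (‖f‖ ^ 2 + τ)) + η p.1 ^ 2 * (k * (2 * D2) * (‖f‖ ^ 2 + τ))
        + η p.1 ^ 2 * (4 * k * D3 * τ) := by gcongr
    _ = _ := by ring

end Crest.Agent.R234.Sel2_570
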