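import Crest.Agent.R234.Mx6_397

/-!
Row 234, VF-SEL (helper570), file 5: seminorms of integer order on honest elements of the Wiener
spaces, Leibniz rule, the resolvent `(1 - Δ)⁻¹`.
-/

set_option autoImplicit false
set_option linter.unusedSectionVars false

open MeasureTheory Complex Filter Real
open scoped ContDiff Topology InnerProductSpace ENNReal NNReal

noncomputable section

namespace Crest.Agent.R234.Sel5_570

open Crest.Agent.R086.Wie Crest.Agent.R234.Mx1_397 Crest.Agent.R234.Mx2_397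
  Crest.Agent.R234.Mx3_397 Crest.Agent.R234.Mx4_397 Crest.Agent.R234.Mx6_397

variable {F : Type*} [NormedAddCommGroup F] [InnerProductSpace ℝ F] [FiniteDimensional ℝ F]
  [MeasurableSpace F] [BorelSpace F]

/-! ### weights -/

/-- weight with integer exponent. -/
def wz (s : ℤ) (ξ : F) : ℝ := (1 + ‖ξ‖) ^ s

theorem one_add_pos (ξ : F) : 0 < 1 + ‖ξ‖ := by positivity

theorem wz_pos (s : ℤ) (ξ : F) : 0 < wz s ξ := zpow_pos (one_add_pos ξ) s

theorem wz_nonneg (s : ℤ) (ξ : F) : 0 ≤ wz s ξ := (wz_pos s ξ).le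

theorem continuous_wz (s : ℤ) : Continuous (wz s : F → ℝ) :=
  (continuous_const.add continuous_norm).zpow₀ s fun ξ => Or.inl (one_add_pos ξ).ne'

theorem wz_nat (N : ℕ) (ξ : F) : wz (N : ℤ) ξ = wt N ξ := by
  unfold wz wt
  rw [zpow_natCast]

theorem wz_le {s t : ℤ} (h : s ≤ t) (ξ : F) : wz s ξ ≤ wz t ξ :=
  zpow_le_zpow_right₀ (by linarith [norm_nonneg ξ]) h

theorem wz_add (s t : ℤ) (ξ : F) : wz (s + t) ξ = wz s ξ * wz t ξ :=
  zpow_add₀ (one_add_pos ξ).ne' s t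

/-- Peetre's inequality. -/
theorem wz_peetre {s : ℤ} {N : ℕ} (h : s.natAbs ≤ N) (x t : F) :
    wz s x ≤ wt N t * wz s (x - t) := by
  have h1 : 1 + ‖x‖ ≤ (1 + ‖t‖) * (1 + ‖x - t‖) := by
    have : ‖x‖ ≤ ‖t‖ + ‖x - t‖ := by
      have := norm_add_le t (x - t)
      rwa [add_sub_cancel] at this
    nlinarith [norm_nonneg t, norm_nonneg (x - t), mul_nonneg (norm_nonneg t) (norm_nonneg (x - t))]
  have h2 : 1 + ‖x - t‖ ≤ (1 + ‖t‖) * (1 + ‖x‖) := by
    have : ‖x - t‖ ≤ ‖x‖ + ‖t‖ := norm_sub_le _ _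
    nlinarith [norm_nonneg t, norm_nonneg x, mul_nonneg (norm_nonneg t) (norm_nonneg x)]
  have hN : wz (s.natAbs : ℤ) t ≤ wt N t := by
    rw [← wz_nat]
    exact wz_le (by exact_mod_cast h) t
  rcases Int.natAbs_eq s with hs | hs
  · refine le_trans ?_ (mul_le_mul_of_nonneg_right hN (wz_nonneg _ _))
    rw [hs]
    unfold wz
    simp only [Int.natAbs_natCast, zpow_natCast]
    rw [← mul_pow]
    exact pow_le_pow_left₀ (one_add_pos x).le h1 _
  · refine le_trans ?_ (mul_le_mul_of_nonneg_right hN (wz_nonneg _ _))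
    set n := s.natAbs with hn
    rw [hs]
    unfold wz
    rw [zpow_neg, zpow_neg, zpow_natCast, zpow_natCast, zpow_natCast]
    rw [← div_eq_mul_inv, le_div_iff₀ (pow_pos (one_add_pos _) n), inv_mul_le_iff₀
      (pow_pos (one_add_pos _) n), mul_comm]
    calc (1 + ‖x - t‖) ^ n ≤ ((1 + ‖t‖) * (1 + ‖x‖)) ^ n :=
          pow_le_pow_left₀ (one_add_pos _).le h2 n
      _ = _ := by rw [mul_pow]

/-! ### the seminorms -/

theorem meas_den {N : ℕ} (a : X F N) : Measurable (XG.den a) :=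
  (Lp.stronglyMeasurable (XG.toLp a)).measurable

/-- seminorm of order `s`. -/
def ns {N : ℕ} (s : ℤ) (a : X F N) : ℝ≥0∞ := ∫⁻ ξ, ‖XG.den a ξ‖ₑ * ENNReal.ofReal (wz s ξ)

theorem meas_ns {N : ℕ} (s : ℤ) (a : X F N) :
    Measurable fun ξ : F => ‖XG.den a ξ‖ₑ * ENNReal.ofReal (wz s ξ) :=
  (meas_den a).enorm.mul (continuous_wz s).measurable.ennreal_ofReal

theorem ns_congr {N M : ℕ} {s : ℤ} {a : X F N} {b : X F M}
    (h : XG.den a =ᵐ[volume] XG.den b) : ns s a = ns s b :=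
  lintegral_congr_ae (h.mono fun ξ hξ => by simp only [hξ])

theorem ns_nat {N : ℕ} (a : X F N) : ns (N : ℤ) a = ENNReal.ofReal ‖a‖ := by
  rw [XG.norm_eq, ofReal_integral_eq_lintegral_ofReal (XG.gint_den a).norm_int
    (Eventually.of_forall fun ξ => mul_nonneg ((wtV F N).nonneg ξ) (norm_nonneg _))]
  refine lintegral_congr fun ξ => ?_
  rw [wz_nat, wtV_apply, mul_comm, ENNReal.ofReal_mul (wt_nonneg N ξ), ofReal_norm]

theorem ns_mono {N : ℕ} {s t : ℤ} (h : s ≤ t) (a : X F N) : ns s a ≤ ns t a :=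
  lintegral_mono fun ξ => by
    gcongr
    exact wz_le h ξ

theorem ns_le_norm {N : ℕ} {s : ℤ} (h : s ≤ N) (a : X F N) : ns s a ≤ ENNReal.ofReal ‖a‖ :=
  (ns_mono h a).trans (ns_nat a).le

theorem ns_ne_top {N : ℕ} {s : ℤ} (h : s ≤ N) (a : X F N) : ns s a ≠ ⊤ :=
  ne_top_of_le_ne_top ENNReal.ofReal_ne_top (ns_le_norm h a)

theorem ns_zero {N : ℕ} (s : ℤ) : ns s (0 : X F N) = 0 := by
  unfold ns
  rw [lintegral_eq_zero_iff (meas_ns s 0)]
  filter_upwards [XG.den_zero (μ := (volume : Measure F)) (W := wtV F N)] with ξ hξ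
  simp [hξ]

theorem ns_add_le {N : ℕ} (s : ℤ) (a b : X F N) : ns s (a + b) ≤ ns s a + ns s b := by
  unfold ns
  rw [← lintegral_add_left (meas_ns s a)]
  refine lintegral_mono_ae ?_
  filter_upwards [XG.den_add a b] with ξ hξ
  rw [hξ, ← add_mul]
  gcongr
  exact enorm_add_le _ _

theorem ns_sum_le {N : ℕ} (s : ℤ) {ι : Type*} (S : Finset ι) (a : ι → X F N) :
    ns s (∑ i ∈ S, a i) ≤ ∑ i ∈ S, ns s (a i) := by
  classical
  induction S using Finset.induction_on with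
  | empty => rw [Finset.sum_empty, Finset.sum_empty, ns_zero]
  | insert i S hi ih =>
    rw [Finset.sum_insert hi, Finset.sum_insert hi]
    exact (ns_add_le s _ _).trans (add_le_add le_rfl ih)

theorem ns_neg {N : ℕ} (s : ℤ) (a : X F N) : ns s (-a) = ns s a := by
  unfold ns
  refine lintegral_congr_ae ?_
  filter_upwards [XG.den_neg a] with ξ hξ
  rw [hξ, enorm_neg]

theorem ns_sub_le {N : ℕ} (s : ℤ) (a b : X F N) : ns s (a - b) ≤ ns s a + ns s b := by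
  rw [sub_eq_add_neg, ← ns_neg s b]
  exact ns_add_le s a (-b)

theorem ns_inclV {N M : ℕ} (h : M ≤ N) (s : ℤ) (a : X F N) : ns s (inclV h a) = ns s a :=
  ns_congr (den_inclV h a)

theorem ns_mlt {M N : ℕ} {φ : F → ℂ} (hφ : Measurable φ) {C : ℝ}
    (hC : ∀ ξ, ‖φ ξ‖ * wt M ξ ≤ C * wt N ξ) {s s' : ℤ} {K : ℝ}
    (hK : ∀ ξ, ‖φ ξ‖ * wz s ξ ≤ K * wz s' ξ) (hK0 : 0 ≤ K) (a : X F N) :
    ns s (mlt φ hφ C hC a) ≤ ENNReal.ofReal K * ns s' a := by
  unfold ns
  rw [← lintegral_const_mul _ (meas_ns s' a)]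
  refine lintegral_mono_ae ?_
  filter_upwards [den_mlt hφ hC a] with ξ hξ
  rw [hξ, enorm_mul]
  have h1 : ‖φ ξ‖ₑ * ENNReal.ofReal (wz s ξ) ≤ ENNReal.ofReal K * ENNReal.ofReal (wz s' ξ) := by
    rw [← ofReal_norm, ← ENNReal.ofReal_mul (norm_nonneg _), ← ENNReal.ofReal_mul hK0]
    exact ENNReal.ofReal_le_ofReal (hK ξ)
  calc ‖φ ξ‖ₑ * ‖XG.den a ξ‖ₑ * ENNReal.ofReal (wz s ξ)
      = ‖XG.den a ξ‖ₑ * (‖φ ξ‖ₑ * ENNReal.ofReal (wz s ξ)) := by ring
    _ ≤ ‖XG.den a ξ‖ₑ * (ENNReal.ofReal K * ENNReal.ofReal (wz s' ξ)) := by gcongr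
    _ = _ := by ring

theorem ns_D {N : ℕ} (s : ℤ) (v : F) (a : X F (N + 1)) :
    ns s (D v a) ≤ ENNReal.ofReal (2 * π * ‖v‖) * ns (s + 1) a := by
  refine ns_mlt _ _ (fun ξ => ?_) (by positivity) a
  have h1 := norm_dsym_le v ξ
  rw [wz_add]
  have h2 : wz (1 : ℤ) ξ = 1 + ‖ξ‖ := by unfold wz; rw [zpow_one]
  rw [h2]
  have h3 := wz_nonneg s ξ
  have h4 : (0 : ℝ) ≤ 2 * π * ‖v‖ := by positivity
  calc ‖dsym v ξ‖ * wz s ξ ≤ (2 * π * ‖v‖ * ‖ξ‖) * wz s ξ := by gcongr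
    _ ≤ (2 * π * ‖v‖ * (1 + ‖ξ‖)) * wz s ξ := by
        gcongr
        linarith
    _ = _ := by ring

/-- **multiplication** by an element of higher regularity. -/
theorem ns_mul {s : ℤ} {N : ℕ} (hs : s.natAbs ≤ N) (c : X F N) (a : X F 0) :
    ns s (inclV (Nat.zero_le N) c * a) ≤ ENNReal.ofReal ‖c‖ * ns s a := by
  set c' : X F 0 := inclV (Nat.zero_le N) c with hc'
  have hmc : Measurable (XG.den c) := meas_den c
  have hma : Measurable (XG.den a) := meas_den a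
  have h0 : XG.den (c' * a) =ᵐ[volume] cv volume (XG.den c) (XG.den a) := by
    rw [← XG.cv_congr (den_inclV (Nat.zero_le N) c) (EventuallyEq.refl _ (XG.den a))]
    exact XG.den_mul c' a
  have h1 : ns s (c' * a) ≤ ∫⁻ x, ∫⁻ t, (‖XG.den c t‖ₑ * ENNReal.ofReal (wt N t))
      * (‖XG.den a (x - t)‖ₑ * ENNReal.ofReal (wz s (x - t))) := by
    unfold ns
    refine lintegral_mono_ae ?_
    filter_upwards [h0] with x hx
    rw [hx]
    have h2 : ‖cv volume (XG.den c) (XG.den a) x‖ₑ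
        ≤ ∫⁻ t, ‖XG.den c t‖ₑ * ‖XG.den a (x - t)‖ₑ := by
      unfold cv
      refine (enorm_integral_le_lintegral_enorm _).trans (le_of_eq ?_)
      refine lintegral_congr fun t => ?_
      rw [enorm_mul]
    have hm2 : Measurable fun t => ‖XG.den c t‖ₑ * ‖XG.den a (x - t)‖ₑ :=
      hmc.enorm.mul (hma.comp (measurable_const.sub measurable_id)).enorm
    calc ‖cv volume (XG.den c) (XG.den a) x‖ₑ * ENNReal.ofReal (wz s x)
        ≤ (∫⁻ t, ‖XG.den c t‖ₑ * ‖XG.den a (x - t)‖ₑ) * ENNReal.ofReal (wz s x) := by gcongr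
      _ = ∫⁻ t, ‖XG.den c t‖ₑ * ‖XG.den a (x - t)‖ₑ * ENNReal.ofReal (wz s x) := by
          rw [lintegral_mul_const _ hm2]
      _ ≤ _ := by
          refine lintegral_mono fun t => ?_
          have h3 : ENNReal.ofReal (wz s x)
              ≤ ENNReal.ofReal (wt N t) * ENNReal.ofReal (wz s (x - t)) := by
            rw [← ENNReal.ofReal_mul (wt_nonneg N t)]
            exact ENNReal.ofReal_le_ofReal (wz_peetre hs x t)
          calc ‖XG.den c t‖ₑ * ‖XG.den a (x - t)‖ₑ * ENNReal.ofReal (wz s x)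
              ≤ ‖XG.den c t‖ₑ * ‖XG.den a (x - t)‖ₑ
                * (ENNReal.ofReal (wt N t) * ENNReal.ofReal (wz s (x - t))) := by gcongr
            _ = _ := by ring
  refine h1.trans (le_of_eq ?_)
  have hm3 : Measurable (Function.uncurry fun x t : F =>
      (‖XG.den c t‖ₑ * ENNReal.ofReal (wt N t))
      * (‖XG.den a (x - t)‖ₑ * ENNReal.ofReal (wz s (x - t)))) := by
    have hd : Measurable fun z : F × F => z.1 - z.2 := measurable_fst.sub measurable_snd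
    exact ((hmc.comp measurable_snd).enorm.mul
      ((measurable_wt N).comp measurable_snd).ennreal_ofReal).mul
      ((hma.comp hd).enorm.mul (((continuous_wz s).measurable).comp hd).ennreal_ofReal)
  rw [lintegral_lintegral_swap hm3.aemeasurable]
  have h4 : ∀ t : F, ∫⁻ x, (‖XG.den c t‖ₑ * ENNReal.ofReal (wt N t))
      * (‖XG.den a (x - t)‖ₑ * ENNReal.ofReal (wz s (x - t)))
      = (‖XG.den c t‖ₑ * ENNReal.ofReal (wt N t)) * ns s a := fun t => by
    have hd : Measurable fun x : F => x - t := measurable_id.sub measurable_const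
    have hm4 : Measurable fun x : F => ‖XG.den a (x - t)‖ₑ * ENNReal.ofReal (wz s (x - t)) :=
      (hma.comp hd).enorm.mul (((continuous_wz s).measurable).comp hd).ennreal_ofReal
    rw [lintegral_const_mul _ hm4]
    congr 1
    exact lintegral_sub_right_eq_self (fun x => ‖XG.den a x‖ₑ * ENNReal.ofReal (wz s x)) t
  have hm5 : Measurable fun t : F => ‖XG.den c t‖ₑ * ENNReal.ofReal (wt N t) :=
    hmc.enorm.mul (measurable_wt N).ennreal_ofReal
  rw [lintegral_congr h4, lintegral_mul_const _ hm5, ← ns_nat]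
  congr 1

/-! ### Leibniz -/

theorem ev_D_mul {N : ℕ} (v : F) (a b : X F (N + 1)) (x : F) :
    ev (D v (a * b)) x = ev (D v a) x * ev b x + ev a x * ev (D v b) x := by
  obtain ⟨L, hL, h1⟩ := hasFDerivAt_ev a x
  obtain ⟨M, hM, h2⟩ := hasFDerivAt_ev b x
  have h3 : HasFDerivAt (fun x => ev (a * b) x) (ev a x • M + ev b x • L) x := by
    have := hL.mul hM
    refine this.congr_of_eventuallyEq (Eventually.of_forall fun y => ?_)
    exact ev_mul a b y
  rw [← fderiv_ev, h3.fderiv, add_apply, smul_apply, smul_apply, h1, h2, smul_eq_mul, smul_eq_mul]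
  ring

theorem D_mul {N : ℕ} (v : F) (a b : X F (N + 1)) :
    D v (a * b) = D v a * inclV (Nat.le_succ N) b + inclV (Nat.le_succ N) a * D v b :=
  ev_inj fun x => by
    rw [ev_D_mul, ev_add, ev_mul, ev_mul, ev_inclV, ev_inclV]

theorem D_inclV {M N : ℕ} (h : M ≤ N) (v : F) (a : X F (N + 1)) :
    D v (inclV (Nat.succ_le_succ h) a) = inclV h (D v a) :=
  ev_inj fun x => by
    have h1 : ev (inclV (Nat.succ_le_succ h) a) = ev a := funext fun y => ev_inclV _ a y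
    rw [← fderiv_ev, ev_inclV, ← fderiv_ev, h1]

theorem inclV_mul {M N : ℕ} (h : M ≤ N) (a b : X F N) :
    inclV h (a * b) = inclV h a * inclV h b :=
  ev_inj fun x => by rw [ev_inclV, ev_mul, ev_mul, ev_inclV, ev_inclV]

theorem inclV_inclV {K M N : ℕ} (h : K ≤ M) (h' : M ≤ N) (a : X F N) :
    inclV h (inclV h' a) = inclV (h.trans h') a :=
  ev_inj fun x => by rw [ev_inclV, ev_inclV, ev_inclV]

theorem ev_DD_mul {N : ℕ} (u v : F) (a b : X F (N + 2)) (x : F) :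
    ev (D u (D v (a * b))) x = ev (D u (D v a)) x * ev b x + ev (D v a) x * ev (D u b) x
      + ev (D u a) x * ev (D v b) x + ev a x * ev (D u (D v b)) x := by
  have h1 : D v (a * b) = D v a * inclV (Nat.le_succ (N + 1)) b
      + inclV (Nat.le_succ (N + 1)) a * D v b := D_mul v a b
  rw [h1, map_add, ev_add, ev_D_mul, ev_D_mul, ev_inclV, ev_inclV]
  have h2 : ∀ c : X F (N + 2), ev (D u (inclV (Nat.le_succ (N + 1)) c)) x = ev (D u c) x :=
    fun c => by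
      have := D_inclV (Nat.le_succ N) u c
      rw [this, ev_inclV]
  rw [h2, h2]
  ring

/-! ### the resolvent -/

/-- symbol of `(1 - Δ)⁻¹`. -/
def rsym (ξ : F) : ℂ := ((1 / (1 + 4 * π ^ 2 * ‖ξ‖ ^ 2) : ℝ) : ℂ)

theorem measurable_rsym : Measurable (rsym : F → ℂ) := by
  unfold rsym
  refine Complex.measurable_ofReal.comp ?_
  exact measurable_const.div (measurable_const.add (measurable_const.mul
    (measurable_norm.pow_const 2)))

theorem norm_rsym_mul_le (ξ : F) : ‖rsym ξ‖ * (1 + ‖ξ‖) ^ 2 ≤ 2 := by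
  unfold rsym
  have hp : (1 : ℝ) ≤ π ^ 2 := by nlinarith [Real.pi_gt_three]
  rw [Complex.norm_real, Real.norm_eq_abs, abs_of_nonneg (by positivity), one_div,
    inv_mul_le_iff₀ (by positivity)]
  nlinarith [sq_nonneg (‖ξ‖ - 1), sq_nonneg ‖ξ‖, norm_nonneg ξ]

theorem rsym_hC {N : ℕ} (ξ : F) : ‖rsym ξ‖ * wt (N + 2) ξ ≤ 2 * wt N ξ := by
  unfold wt
  rw [pow_add]
  have h1 := norm_rsym_mul_le ξ
  have h2 : 0 ≤ (1 + ‖ξ‖) ^ N := by positivity
  calc ‖rsym ξ‖ * ((1 + ‖ξ‖) ^ N * (1 + ‖ξ‖) ^ 2)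
      = (‖rsym ξ‖ * (1 + ‖ξ‖) ^ 2) * (1 + ‖ξ‖) ^ N := by ring
    _ ≤ _ := by gcongr

/-- the resolvent `(1 - Δ)⁻¹`. -/
def Rs {N : ℕ} : X F N →L[ℂ] X F (N + 2) := mlt rsym measurable_rsym 2 rsym_hC

theorem norm_Rs_le {N : ℕ} (a : X F N) : ‖Rs a‖ ≤ 2 * ‖a‖ := norm_mlt_le _ _ (by norm_num) a

theorem ns_Rs {N : ℕ} (s : ℤ) (a : X F N) : ns (s + 2) (Rs a) ≤ 2 * ns s a := by
  have h : ns (s + 2) (Rs a) ≤ ENNReal.ofReal 2 * ns s a := by
    refine ns_mlt _ _ (fun ξ => ?_) (by norm_num) a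
    rw [wz_add]
    have h2 : wz (2 : ℤ) ξ = (1 + ‖ξ‖) ^ 2 := by unfold wz; norm_cast
    rw [h2]
    have h1 := norm_rsym_mul_le ξ
    calc ‖rsym ξ‖ * (wz s ξ * (1 + ‖ξ‖) ^ 2) = (‖rsym ξ‖ * (1 + ‖ξ‖) ^ 2) * wz s ξ := by ring
      _ ≤ _ := mul_le_mul_of_nonneg_right h1 (wz_nonneg _ _)
  refine h.trans (le_of_eq ?_)
  norm_num

theorem Rs_star {N : ℕ} (a : X F N) : star (Rs a) = Rs (star a) :=
  mlt_star _ _ (fun ξ => by unfold rsym; rw [Complex.conj_ofReal, norm_neg]) a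

variable {ι : Type*} [Fintype ι]

/-- `(1 - Δ) Rs a = a`. -/
theorem Rs_eq {N : ℕ} (e : OrthonormalBasis ι ℝ F) (a : X F N) :
    inclV (Nat.le_add_right N 2) (Rs a) - ∑ i, D (e i) (D (e i) (Rs a)) = a := by
  classical
  refine XG.ext ?_
  have hsum : ∀ S : Finset ι, XG.den (∑ i ∈ S, D (e i) (D (e i) (Rs a))) =ᵐ[volume]
      fun ξ => ∑ i ∈ S, dsym (e i) ξ * (dsym (e i) ξ * XG.den (Rs a) ξ) := by
    intro S
    induction S using Finset.induction_on with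
    | empty =>
      simp only [Finset.sum_empty]
      exact XG.den_zero
    | insert i S hi ih =>
      rw [Finset.sum_insert hi]
      filter_upwards [XG.den_add (D (e i) (D (e i) (Rs a))) (∑ i ∈ S, D (e i) (D (e i) (Rs a))),
        ih, den_DD (e i) (e i) (Rs a)] with ξ h1 h2 h3
      rw [h1, h2, h3, Finset.sum_insert hi]
  filter_upwards [XG.den_sub (inclV (Nat.le_add_right N 2) (Rs a))
    (∑ i, D (e i) (D (e i) (Rs a))), hsum Finset.univ, den_inclV (Nat.le_add_right N 2) (Rs a),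
    den_mlt measurable_rsym rsym_hC a] with ξ h1 h2 h3 h4
  have h5 : XG.den (Rs a) ξ = rsym ξ * XG.den a ξ := h4
  rw [h1, h2, h3, h5]
  have h6 : ∑ i, dsym (e i) ξ * (dsym (e i) ξ * (rsym ξ * XG.den a ξ))
      = (∑ i, dsym (e i) ξ * dsym (e i) ξ) * (rsym ξ * XG.den a ξ) := by
    rw [Finset.sum_mul]
    exact Finset.sum_congr rfl fun i _ => by ring
  rw [h6, sum_dsym_sq]
  have h7 : (1 + ((4 * π ^ 2 * ‖ξ‖ ^ 2 : ℝ) : ℂ)) * rsym ξ = 1 := by
    unfold rsym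
    rw [← Complex.ofReal_one, ← Complex.ofReal_add, ← Complex.ofReal_mul]
    congr 1
    have : (0 : ℝ) < 1 + 4 * π ^ 2 * ‖ξ‖ ^ 2 := by positivity
    field_simp
  calc rsym ξ * XG.den a ξ - -((4 * π ^ 2 * ‖ξ‖ ^ 2 : ℝ) : ℂ) * (rsym ξ * XG.den a ξ)
      = ((1 + ((4 * π ^ 2 * ‖ξ‖ ^ 2 : ℝ) : ℂ)) * rsym ξ) * XG.den a ξ := by ring
    _ = XG.den a ξ := by rw [h7, one_mul]

end Crest.Agent.R234.Sel5_570
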