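import Crest.Agent.R234.MgDefs2_570
import Crest.Agent.R234.Sel4_570
import Crest.Agent.R234.Sel5_570

/-!
# Row 234, node F2 (helper570): final SEL statement (all radii) and three more OPEN sub-nodes

* `SelP3` : the SELECTION, `r₀ ≤ r ≤ 1`, any `r₀ > 0`.
* `Cf`, `Lop` : second order operators with coefficients in the Wiener spaces.
* `LTP`  (F2-LT)  : `lopT u` is such an operator, coefficients `O(‖a‖)` in `X t`, `a ∈ X (t+3)`.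
* `RepP` (F2-REP) : a functional on `X 0` with decay is integration against an element of `X s`.
* `ThP`  (F2-TH)  : `π_# W = θ dns(Du) dx + O(∫ |S - T| dW)` for a stationary varifold `W`.
-/

set_option autoImplicit false
set_option linter.unusedVariables false

open MeasureTheory Filter Topology Set
open scoped ENNReal NNReal ContDiff InnerProductSpace SchwartzMap
open Crest.GeometryTopology.Submanifold Crest.Agent.R234.Vf_884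
open Crest.Agent.R234.Main_456 (Frame Msys)
open Crest.Agent.R234.Ell1_3 (gop ginv dns)
open Crest.Agent.R234.Mx5_397 (msop)
open Crest.Agent.R234.Mx9_397 (lop)
open Crest.Agent.R086.Wie Crest.Agent.R234.Mx1_397 Crest.Agent.R234.Mx3_397
open Crest.Agent.R234.Sel5_570

noncomputable section

namespace Crest.Agent.R234.MG_570

variable {m n k : ℕ}

/-- node (ii), **FINAL FORM**: all radii `r₀ ≤ r ≤ 1`; lower mass over `ball 0 (r/16)`. -/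
def SelP3 : Prop := ∀ (m n : ℕ), 1 ≤ m → ∃ K N₀ : ℕ, ∀ N : ℕ, N₀ ≤ N → ∃ κ₀ : ℝ, 0 < κ₀ ∧ ∃ p : ℕ,
  ∀ Λ r₀ : ℝ, 0 < Λ → 0 < r₀ → ∃ C : ℝ, 0 < C ∧ ∀ (k : ℕ) (W : Measure (Euc k × L k))
    (π : Euc k →L[ℝ] Euc m) (ρ : Euc k →L[ℝ] Euc n) (κ h ε r : ℝ) (u : Euc m → Euc n),
    κ ≤ κ₀ → 0 < ε → ε ≤ 1 / 2 → r₀ ≤ r → r ≤ 1 → 0 ≤ h →
    Cy_870.CylStat W π ρ 0 (r * (1 + ε)) 1 → W univ ≤ ENNReal.ofReal Λ →
    ENNReal.ofReal Λ⁻¹ ≤ W ((fun p => π p.1) ⁻¹' Metric.ball 0 (r / 16)) →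
    MG N κ (r * (1 + ε)) u → (∀ᵐ q ∂W, ‖ρ q.1 - u (π q.1)‖ ≤ h) → C * h ≤ ε ^ p →
    ∃ u' : Euc m → Euc n, MG N (κ + C * h / ε ^ p) r u' ∧
      MG N (C * h / ε ^ p) 0 (fun x => u' x - u x) ∧
      ∀ ζ : Euc m → ℝ, ContDiff ℝ ∞ ζ → tsupport ζ ⊆ Metric.ball 0 r →
        (∀ j ≤ K, ∀ z, ‖iteratedFDeriv ℝ j ζ z‖ ≤ 1) →
        ‖bar W π ρ u' ζ‖ ≤ C * h ^ 2 / ε ^ p

section ops

variable {F : Type*} [NormedAddCommGroup F] [InnerProductSpace ℝ F] [FiniteDimensional ℝ F]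
  [MeasurableSpace F] [BorelSpace F] {ι κ : Type*} [Fintype ι] [Fintype κ]

/-- inclusion into `X 0`. -/
abbrev i0 {N : ℕ} (a : X F N) : X F 0 := inclV (Nat.zero_le N) a

/-- coefficients of a second order operator (perturbation of the Laplacian), in `X t`. -/
structure Cf (F ι κ : Type*) [NormedAddCommGroup F] [InnerProductSpace ℝ F]
    [FiniteDimensional ℝ F] [MeasurableSpace F] [BorelSpace F] (t : ℕ) where
  A : ι → ι → X F t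
  B : ι → κ → κ → X F t
  Z : κ → κ → X F t

/-- size of the coefficients. -/
def Cf.sz {t : ℕ} (c : Cf F ι κ t) : ℝ :=
  ∑ i, ∑ j, ‖c.A i j‖ + ∑ i, ∑ β, ∑ α, ‖c.B i β α‖ + ∑ β, ∑ α, ‖c.Z β α‖

/-- real coefficients. -/
structure Cf.Real {t : ℕ} (c : Cf F ι κ t) : Prop where
  A : ∀ i j, star (c.A i j) = c.A i j
  B : ∀ i β α, star (c.B i β α) = c.B i β α
  Z : ∀ β α, star (c.Z β α) = c.Z β α

/-- `(L b)_β = Δ b_β + A_ij ∂_i∂_j b_β + B_iβα ∂_i b_α + Z_βα b_α`. -/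
def Lop {t : ℕ} (e : OrthonormalBasis ι ℝ F) (c : Cf F ι κ t) (b : κ → X F 2) : κ → X F 0 :=
  fun β => ∑ i, D (e i) (D (e i) (b β)) + ∑ i, ∑ j, i0 (c.A i j) * D (e i) (D (e j) (b β))
    + ∑ i, ∑ α, i0 (c.B i β α) * i0 (D (e i) (b α)) + ∑ α, i0 (c.Z β α) * i0 (b α)

end ops

/-- **F2-LT**: the transposed Jacobi operator in the Wiener spaces. -/
def LTP : Prop := ∀ (m n t : ℕ), ∃ κ₀ C : ℝ, 0 < κ₀ ∧ 0 < C ∧
  ∀ (a : XV m n (t + 3)) (u : Euc m → Euc n), IsReal a → ‖a‖ ≤ κ₀ → Rep a u →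
    ∃ c : Cf (Euc m) (Fin (Module.finrank ℝ (Euc m))) (Fin n) t, c.Real ∧ c.sz ≤ C * ‖a‖ ∧
      ∀ (b : XV m n 2) (φ : Euc m → Euc n), IsReal b → Rep b φ → ∀ (x : Euc m) (β : Fin n),
        ev (Lop (stdOrthonormalBasis ℝ (Euc m)) c b β) x
          = ((lopT u φ x (EuclideanSpace.single β 1) : ℝ) : ℂ)

/-- **F2-REP**: representation of functionals with decay. -/
def RepP : Prop := ∀ (m s : ℕ), ∃ C : ℝ, 0 < C ∧
  ∀ (T : X (Euc m) 0 →L[ℂ] ℂ) (g : 𝓢(Euc m, ℂ)) (K : ℝ), 0 ≤ K →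
    (∀ a : X (Euc m) 0, T (toX 0 g * a) = T a) →
    (∀ a : X (Euc m) 0, ENNReal.ofReal ‖T a‖
      ≤ ENNReal.ofReal K * ns (-((s + m + 1 : ℕ) : ℤ)) a) →
    ∃ J : X (Euc m) s, ‖J‖ ≤ C * K * ‖toX (s + m + 1) g‖ ∧
      ∀ a : X (Euc m) 0, Integrable (ev a) → T a = ∫ x, ev J x * ev a x

/-- the tangent plane of the graph of `u` over `x`, as a projection of `Euc k`. -/
def TG (π : Euc k →L[ℝ] Euc m) (ρ : Euc k →L[ℝ] Euc n) (u : Euc m → Euc n) (x : Euc m) : L k :=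
  Sel1_570.TT (ContinuousLinearMap.adjoint π ∘L π)
    (ContinuousLinearMap.adjoint ρ ∘L fderiv ℝ u x ∘L π)

/-- **F2-TH**: the projected measure is a constant times the area of the graph, up to the tilt.
Fields: `X z = π† Y + ρ† (Du Y)`, `Y = ψ(π z)`; `tr(DX T) = (dns Du)⁻¹ div (dns(Du) ψ)`. -/
def ThP : Prop := ∀ (m n : ℕ), 1 ≤ m → ∀ r₀ : ℝ, 0 < r₀ → ∃ C : ℝ, 0 < C ∧
  ∀ (k : ℕ) (W : Measure (Euc k × L k)) (π : Euc k →L[ℝ] Euc m) (ρ : Euc k →L[ℝ] Euc n)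
    (u : Euc m → Euc n) (r R E : ℝ), r₀ ≤ r → r ≤ R → r ≤ 2 → Cy_870.CylStat W π ρ 0 R 1 →
    ContDiff ℝ 2 u → (∀ x, ‖fderiv ℝ u x‖ ≤ 1) → (∀ x, ‖fderiv ℝ (fderiv ℝ u) x‖ ≤ 1) →
    (∫ p in {p : Euc k × L k | ‖π p.1‖ < r}, ‖p.2 - TG π ρ u (π p.1)‖ ∂W ≤ E) →
    ∃ θ : ℝ, ∀ ζ : Euc m → ℝ, ContDiff ℝ 1 ζ → (∀ x, r ≤ ‖x‖ → ζ x = 0) → (∀ x, |ζ x| ≤ 1) →
      (∀ x, ‖fderiv ℝ ζ x‖ ≤ 1) →
      |∫ p, ζ (π p.1) ∂W - θ * ∫ x, ζ x * dns (fderiv ℝ u x)| ≤ C * E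

end Crest.Agent.R234.MG_570
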