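import Crest.Agent.R234.Stp0_518
import Crest.Agent.R234.Lk1_456
import Crest.Agent.R234.GI1_640
import Crest.Agent.R234.F10d_188
import Crest.Agent.R234.MgDefs3_570

/-!
# Row 234, F7-STEPV (helper518), part 1: DEFINITIONS (references, functionals, states, the world)

* `Mo m n k` : a reference `M` = the graph of `M.w = e^lb u(e^{-lb} ·)` over the frame `(π, ρ)` based
  at the singular point `x` (the base point of every block is `x`), with the norm bound `κ` of the
  class `MG`, the inverse step `K` and the record `Lb, Kb, Pb` of the block.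
* `M.ch x`, `M.reg x`, `M.VM V x` : 456's chart, the region of the functionals (compact part of the
  tube), the varifold over it; `M.I, M.E, M.e, M.b` : 394's functionals with the cubic profile.
* `M.mean` : mean of the heights against a test function.
* `Cn` : constants, `Cls` : class conditions at the level `c`, `Sta` : the states.
* `world` : the world of `F10b_188`.
-/

set_option autoImplicit false
set_option linter.unusedVariables false

open MeasureTheory Filter Topology Set
open scoped ENNReal NNReal ContDiff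
open Crest.GeometryTopology.Submanifold Crest.Agent.R234.Vf_884
open Crest.Agent.R234.Main_456 (Frame Msys hgt)
open Crest.Agent.R234.AS_456 (hp vp)
open Crest.Agent.R234.F10a_188 Crest.Agent.R234.F10b_188
open Crest.Agent.R234.MG_570 (MG)

noncomputable section

namespace Crest.Agent.R234.Stp_518

variable {m n k : ℕ}

/-- a reference. -/
structure Mo (m n k : ℕ) where
  /-- base coordinates -/
  π : Euc k →L[ℝ] Euc m
  /-- height coordinates -/
  ρ : Euc k →L[ℝ] Euc n
  /-- logarithm of the unit of the block -/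
  lb : ℝ
  /-- graph function in block units -/
  u : Euc m → Euc n
  /-- bound of the norm in the class `MG` -/
  κ : ℝ
  /-- inverse step length -/
  K : ℝ
  /-- record of the block: `Λ`, `K`, potential -/
  Lb : ℝ
  Kb : ℝ
  Pb : ℝ

namespace Mo

variable (M : Mo m n k) (x : Euc k) (V : Measure (Euc k × L k))

/-- the unit of the block. -/
def S : ℝ := Real.exp M.lb

/-- the graph function in physical units. -/
def w : Euc m → Euc n := fun X => M.S • M.u (M.S⁻¹ • X)

/-- 456's chart, centre `0`, base point `x`. -/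
def ch : GL_394.Ch m k := Gi_456.ch M.π M.ρ x M.S M.w 0

/-- the region of the functionals: `|foot z| ≤ 2 S`, `|yy z| ≤ S / 2` (456's compact `Kc`). -/
def reg : Set (Euc k) := Gi_456.Kc M.π M.ρ x M.w 0 (2 * M.S) (M.S / 2)

/-- the varifold over the region. -/
def VM : Measure (Euc k × L k) := GL_394.VK V (M.reg x)

/-- height functional. -/
def I (l : ℝ) : ℝ := GL_394.II (M.ch x) (M.VM x V) GI_640.g31 l

/-- mass excess. -/
def E (Q : ℝ) (l : ℝ) : ℝ := GL_394.EE (M.ch x) (M.VM x V) GI_640.g3 Q l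

/-- tilt energy. -/
def e (l : ℝ) : ℝ := GL_394.ee (M.ch x) (M.VM x V) GI_640.g3 l

/-- anomaly. -/
def b (Q : ℝ) (l : ℝ) : ℝ := GL_394.bb (M.ch x) (M.VM x V) GI_640.g3 Q l

/-- mean of the heights against a test function (block units in the base, physical heights). -/
def mean (ζ : Euc m → ℝ) : Euc n :=
  ∫ p in M.reg x ×ˢ univ, ζ (M.S⁻¹ • M.π (p.1 - x)) • hgt M.π M.ρ x M.S M.u p.1 ∂V

/-- the normalised curvature at the level `l`. -/
def kap (l : ℝ) : ℝ := M.κ * Real.exp (-(4 / 5 * (M.lb - l)))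

/-- the radius (block units) on which the reference of a state at the level `l` is minimal. -/
def rad (l : ℝ) : ℝ := Real.exp (l + 1 / M.K - M.lb) * (1 + 1 / (8 * M.K))

end Mo

/-- constants of the class of states. -/
structure Cn where
  /-- order of the class `MG` -/
  N : ℕ
  /-- number of derivatives of the test functions of the mean -/
  Ks : ℕ
  /-- length of the blocks -/
  T : ℝ
  /-- smallness of the class -/
  κ₀ : ℝ
  /-- a priori lower bound of `Λ` -/
  L₁ : ℝ
  /-- growth constant -/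
  G : ℝ
  /-- constant of the record: `Kb ≤ CK Lb ^ 2` -/
  CK : ℝ

/-- class conditions for the reference at the level `c`, radius `R` (block units), slope `θ` at the
centre. -/
structure Cls (c : Cn) (M : Mo m n k) (R θ : ℝ) : Prop where
  frame : Frame M.π M.ρ
  κ0 : 0 ≤ M.κ
  κ1 : M.κ ≤ c.κ₀
  mg : MG c.N M.κ R M.u
  du : ‖fderiv ℝ M.u 0‖ ≤ θ

/-- mean error `≤ τ` (relative to the volume of the block) on the ball of radius `R`. -/
def MeanLe (c : Cn) (M : Mo m n k) (x : Euc k) (V : Measure (Euc k × L k)) (R τ : ℝ) : Prop :=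
  ∀ ζ : Euc m → ℝ, ContDiff ℝ ∞ ζ → tsupport ζ ⊆ Metric.ball 0 R →
    (∀ j ≤ c.Ks, ∀ z, ‖iteratedFDeriv ℝ j ζ z‖ ≤ 1) → ‖M.mean x V ζ‖ ≤ M.S ^ m * τ

/-- crude bound `η S` of the heights over the ball of radius `R` (block units). -/
def SupLe (M : Mo m n k) (x : Euc k) (V : Measure (Euc k × L k)) (R η : ℝ) : Prop :=
  ∀ᵐ p ∂V, ‖M.π (p.1 - x)‖ ≤ M.S * R → ‖M.ρ (p.1 - x)‖ ≤ M.S →
    ‖hgt M.π M.ρ x M.S M.u p.1‖ ≤ M.S * η

/-- the point `x` with its multiplicity, drop `≤ om` on all scales `≤ r₁`. -/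
structure Env (m : ℕ) {k : ℕ} (U : Set (Euc k)) (D : VarifoldData m k) (Q : ℕ) (x : Euc k)
    (om r₁ : ℝ) : Prop where
  opn : IsOpen U
  int : IsIntegralVarifoldIn U D
  st : IsStationaryIn U D
  Q1 : 1 ≤ Q
  Th : Th m (VD D) x = (Q : ℝ≥0∞)
  r0 : 0 < r₁
  sub : Metric.closedBall x r₁ ⊆ U
  drop : ∀ r, 0 < r → r ≤ r₁ → rat m (VD D) x r ≤ (Q : ℝ≥0∞) + ENNReal.ofReal om

/-- **the states** at the level `l` (top of the domain `l + 1 / K`). -/
structure Sta (c : Cn) (C : Cst) (κm : ℝ) (V : Measure (Euc k × L k)) (Q : ℝ) (x : Euc k)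
    (M : Mo m n k) (l : ℝ) : Prop where
  cls : Cls c M (M.rad l) (Real.exp (-M.Lb / 4) * (M.lb - l))
  lo : M.lb - c.T ≤ l
  pos : 0 < M.I x V l
  mean : MeanLe c M x V (M.rad l) (Real.exp (-(lam (M.I x V) l / 4)) * Real.sqrt (M.I x V l))
  sup : SupLe M x V (M.rad l) (Real.exp (-(lam (M.I x V) l / 4)))
  grow : Real.log (M.I x V (l + 1 / M.K)) ≤ Real.log (M.I x V l) + c.G
  K32 : 32 ≤ M.K
  KL : M.K ≤ 2 * lam (M.I x V) l ^ 2
  KN : 8 * fr (M.E x V Q) (M.I x V) l ≤ M.K
  L1 : c.L₁ ≤ lam (M.I x V) l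
  KbL : M.Kb ≤ c.CK * M.Lb ^ 2
  rcd : Rec C c.L₁ κm c.G (M.lb - 1 / 8) M.Lb M.Kb M.Pb l (lam (M.I x V) l)
    (fx (M.E x V Q) (M.I x V) l) (M.kap l) M.K

/-- **the world** of the chain at the point `x`. -/
def world (c : Cn) (C : Cst) (κm : ℝ) (V : Measure (Euc k × L k)) (Q : ℝ) (x : Euc k) :
    World (Mo m n k) where
  st := Sta c C κm V Q x
  L := fun M l => lam (M.I x V) l
  f := fun M l => fx (M.E x V Q) (M.I x V) l
  κ := fun M l => M.kap l
  K := fun M _ => M.K
  f_gt := fun M l _ => lt_of_lt_of_le (by norm_num) (fx_nonneg _ _ _)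
  κ_nonneg := fun M l h => mul_nonneg h.cls.κ0 (Real.exp_pos _).le
  K_pos := fun M l h => by have := h.K32; linarith

/-! ### first properties -/

namespace Mo

variable (M : Mo m n k)

theorem S_pos : 0 < M.S := Real.exp_pos _

theorem kap_nonneg (h : 0 ≤ M.κ) (l : ℝ) : 0 ≤ M.kap l := mul_nonneg h (Real.exp_pos _).le

theorem hgt_eq (x z : Euc k) :
    hgt M.π M.ρ x M.S M.u z = M.ρ (z - x) - M.w (M.π (z - x)) := rfl

end Mo

end Crest.Agent.R234.Stp_518
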