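import Crest.Agent.R234.End7_395
import Crest.Agent.R234.Stp1_518
import Crest.Agent.R234.Mx17_397

/-!
# Row 234 (helper395): the frame of a reference with small heights is flat, on 518's objects

* `flat_mo` : `SupLe` on the radius `exp (l - lb)` and `FlatAt` at `8 S` give `pex (hp M.π)` small.
* `pack_mo` : hence the flat package for the frame of `M`.
-/

set_option autoImplicit false
set_option linter.unusedSectionVars false

open MeasureTheory Set Filter Topology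
open scoped ENNReal NNReal
open Crest.GeometryTopology.Submanifold Crest.Agent.R234.Vf_884
open Crest.Agent.R234.AS_456 (hp vp)
open Crest.Agent.R234.Main_456 Crest.Agent.R234.Top_395 Crest.Agent.R234.Stp_518
open Crest.Agent.R234.MG_570 (MG)

noncomputable section

namespace Crest.Agent.R234.End_395

variable {m n k : ℕ}

/-- the reference is small everywhere -/
theorem mg_sup (m n N : ℕ) : ∃ C : ℝ, 0 ≤ C ∧ ∀ (κ r : ℝ) (u : Euc m → Euc n), MG N κ r u →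
    ∀ x, ‖u x‖ ≤ C * κ := by
  obtain ⟨C, hC, H⟩ := Mx17_397.bdP m n N
  refine ⟨C, hC, ?_⟩
  intro κ r u hu x
  have h := (H κ r u hu).2 0 (Nat.zero_le _) x
  rwa [norm_iteratedFDeriv_zero] at h

/-- **the frame of a reference is flat**. -/
theorem flat_mo (m n k N Q : ℕ) (hm : 1 ≤ m) (T : ℝ) (hT : 0 ≤ T) : ∀ ε : ℝ, 0 < ε →
    ∃ ω κ₀ η : ℝ, 0 < ω ∧ 0 < κ₀ ∧ 0 < η ∧
      ∀ (U : Set (Euc k)) (V : Measure (Euc k × L k)) (x : Euc k) (M : Mo m n k) (l R : ℝ),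
        Stat m k U V → Metric.closedBall x (8 * M.S) ⊆ U → 1 ≤ Th m V x →
        rat m V x (8 * M.S) ≤ (Q : ℝ≥0∞) + 1 → Frame M.π M.ρ → 0 ≤ M.κ → M.κ ≤ κ₀ →
        MG N M.κ R M.u → M.lb - T ≤ l → SupLe M x V (Real.exp (l - M.lb)) η →
        FlatAt m V x ω (8 * M.S) → pex m V (hp M.π) x (8 * M.S) ≤ ε := by
  intro ε hε
  obtain ⟨C, hC, HC⟩ := mg_sup m n N
  set Cf : ℝ := Cff m (Q + 1) (8 * Real.exp T) with hCf
  have ho := ome_pos m
  have hCf0 : 0 < Cf := by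
    rw [hCf]
    unfold Cff
    positivity
  have hE : 0 < Real.exp T := Real.exp_pos T
  -- constants
  obtain ⟨δ, hδ0, hδ1⟩ : ∃ δ : ℝ, 0 < δ ∧ Cf * (Real.exp T * δ) ^ 2 ≤ ε / 2 := by
    have h1 : Tendsto (fun δ : ℝ => Cf * (Real.exp T * δ) ^ 2) (𝓝[>] 0) (𝓝 0) := by
      refine tendsto_nhdsWithin_of_tendsto_nhds ?_
      have : Continuous fun δ : ℝ => Cf * (Real.exp T * δ) ^ 2 := by fun_prop
      simpa using this.tendsto 0
    obtain ⟨δ, h2, h3⟩ := ((h1.eventually (gt_mem_nhds (show (0:ℝ) < ε / 2 by positivity))).and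
      (self_mem_nhdsWithin (s := Ioi (0:ℝ)) (a := 0))).exists
    exact ⟨δ, h3, h2.le⟩
  refine ⟨ε / (2 * Cf), δ / (2 * (C + 1)), δ / 2, by positivity, by positivity, by positivity, ?_⟩
  intro U V x M l R hV hU hTh hrat hf hκ hκ0 hmg hl hsup ⟨P, hP, hPe⟩
  have hS := M.S_pos
  set a := M.S * Real.exp (-T) with ha
  have ha0 : 0 < a := by positivity
  have hE1 : Real.exp (-T) ≤ 1 := Real.exp_le_one_iff.2 (by linarith)
  have haS : a ≤ M.S := by
    rw [ha]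
    nlinarith
  have hal : a ≤ M.S * Real.exp (l - M.lb) := by
    rw [ha]
    exact mul_le_mul_of_nonneg_left (Real.exp_le_exp.2 (by linarith)) hS.le
  have hrat' : rat m V x (8 * M.S) ≤ ENNReal.ofReal (Q + 1) := by
    rw [ENNReal.ofReal_add (by positivity) zero_le_one, ENNReal.ofReal_natCast, ENNReal.ofReal_one]
    exact hrat
  have hae : ∀ᵐ p ∂V, p.1 ∈ Metric.ball x a → ‖M.ρ (p.1 - x)‖ ≤ M.S * δ := by
    filter_upwards [hsup] with p hp hpb
    rw [mem_ball_iff_norm] at hpb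
    have h1 : ‖M.π (p.1 - x)‖ ≤ a := (Gi_456.norm_pi_le' hf _).trans hpb.le
    have h2 : ‖M.ρ (p.1 - x)‖ ≤ a := (Gi_456.norm_rho_le' hf _).trans hpb.le
    have h3 := hp (h1.trans hal) (h2.trans haS)
    have h4 : ‖M.w (M.π (p.1 - x))‖ ≤ M.S * (δ / 2) := by
      unfold Mo.w
      rw [norm_smul, Real.norm_of_nonneg hS.le]
      refine mul_le_mul_of_nonneg_left ?_ hS.le
      refine (HC _ _ _ hmg _).trans ?_
      calc C * M.κ ≤ C * (δ / (2 * (C + 1))) := by gcongr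
        _ = (C / (C + 1)) * (δ / 2) := by field_simp
        _ ≤ 1 * (δ / 2) := by
            refine mul_le_mul_of_nonneg_right ?_ (by positivity)
            rw [div_le_one (by positivity)]
            linarith
        _ = δ / 2 := one_mul _
    rw [Mo.hgt_eq] at h3
    have h5 := norm_le_norm_add_norm_sub' (M.ρ (p.1 - x)) (M.w (M.π (p.1 - x)))
    linarith
  have hRA : 8 * M.S ≤ 8 * Real.exp T * a := by
    rw [ha]
    have : Real.exp T * Real.exp (-T) = 1 := by rw [← Real.exp_add]; simp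
    calc 8 * M.S = 8 * M.S * (Real.exp T * Real.exp (-T)) := by rw [this, mul_one]
      _ ≤ _ := le_of_eq (by ring)
  have h6 := frame_flat hV hm hf (a := a) (R := 8 * M.S) (q := Q + 1) (h := M.S * δ)
    (A := 8 * Real.exp T) ha0 (by linarith) hRA (by positivity) hU hTh hrat' hP hPe
    (by positivity) hae
  refine h6.trans ?_
  have h7 : M.S * δ / a = Real.exp T * δ := by
    rw [ha, Real.exp_neg]
    field_simp
  rw [h7, mul_add]
  have h8 : Cf * (ε / (2 * Cf)) = ε / 2 := by field_simp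
  rw [← hCf, h8]
  linarith

/-- **the flat package for the frame of a reference**. -/
theorem pack_mo (m n k N Q : ℕ) (hm : 1 ≤ m) (hQ : 1 ≤ Q) (T : ℝ) (hT : 0 ≤ T) :
    ∃ Λ : ℝ, 1 ≤ Λ ∧ ∀ ε : ℝ, 0 < ε → ε < 1 →
    ∃ ω κ₀ η : ℝ, 0 < ω ∧ ω ≤ 1 ∧ 0 < κ₀ ∧ 0 < η ∧
      ∀ (U : Set (Euc k)) (D : VarifoldData m k) (x : Euc k) (M : Mo m n k) (l R : ℝ),
        IsOpen U → IsIntegralVarifoldIn U D → IsStationaryIn U D →
        Th m (VD D) x = (Q : ℝ≥0∞) → Metric.closedBall x (8 * M.S) ⊆ U →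
        rat m (VD D) x (8 * M.S) ≤ (Q : ℝ≥0∞) + ENNReal.ofReal ω → Frame M.π M.ρ →
        0 ≤ M.κ → M.κ ≤ κ₀ → MG N M.κ R M.u → M.lb - T ≤ l →
        SupLe M x (VD D) (Real.exp (l - M.lb)) η → FlatAt m (VD D) x ω (8 * M.S) →
        FlatPack D x Q M.S ε Λ M.π M.ρ := by
  obtain ⟨Λ, hΛ, H⟩ := flatPack_of (n := n) (k := k) hm Q hQ
  refine ⟨Λ, hΛ, ?_⟩
  intro ε hε hε1
  obtain ⟨ω₁, h1, h2, h3⟩ := H ε hε hε1
  obtain ⟨ω₂, κ₀, η, g1, g2, g3, g4⟩ := flat_mo m n k N Q hm T hT ω₁ h1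
  refine ⟨min ω₁ ω₂, κ₀, η, lt_min h1 g1, (min_le_left _ _).trans h2, g2, g3, ?_⟩
  intro U D x M l R hU hD hst hTh hsub hrat hf hκ hκ0 hmg hl hsup hfl
  have hω : ENNReal.ofReal (min ω₁ ω₂) ≤ ENNReal.ofReal ω₁ :=
    ENNReal.ofReal_le_ofReal (min_le_left _ _)
  have hrat1 : rat m (VD D) x (8 * M.S) ≤ (Q : ℝ≥0∞) + ENNReal.ofReal ω₁ :=
    hrat.trans (by gcongr)
  refine h3 hU hD hst M.S_pos hsub hTh hrat1 M.π M.ρ hf ?_
  refine g4 U (VD D) x M l R (stat_VD hD hst) hsub ?_ ?_ hf hκ hκ0 hmg hl hsup ?_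
  · rw [hTh]
    exact_mod_cast hQ
  · refine hrat1.trans ?_
    gcongr
    rw [ENNReal.ofReal_le_one]
    exact h2
  · obtain ⟨P, hP, hPe⟩ := hfl
    exact ⟨P, hP, hPe.trans (min_le_right _ _)⟩

end Crest.Agent.R234.End_395
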