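import Crest.Agent.R234.GL2_394

/-!
# Row 234, VF-GL, part 3 (helper394)

(G2), `Phi² ≤ I R`, (G3) and the comparison of `R~` with `R`.
-/

set_option autoImplicit false

open MeasureTheory Set Function Filter Topology
open Crest.GeometryTopology.Submanifold
open Crest.Agent.R234.Vf_884 Crest.Agent.R234.Ar_870 Crest.Agent.R234.Cy_870
open scoped ENNReal NNReal InnerProductSpace

noncomputable section

namespace Crest.Agent.R234.GL_394

variable {m k : ℕ} {c : Ch m k} {K : Set (Euc k)} {D : Set (Euc m)}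
  {V : Measure (Euc k × L k)} {g g1 g2 : ℝ → ℝ} {Q l : ℝ}

/-! ### (G2) -/

theorem int3 {Ω : Type*} [MeasurableSpace Ω] {V : Measure Ω} {A B C : Ω → ℝ}
    (hA : Integrable A V) (hB : Integrable B V) (hC : Integrable C V) (a b c : ℝ) :
    ∫ p, (a * A p + b * B p + c * C p) ∂V =
      a * ∫ p, A p ∂V + b * ∫ p, B p ∂V + c * ∫ p, C p ∂V := by
  have h1 : Integrable (fun p => a * A p + b * B p) V := (hA.const_mul a).add (hB.const_mul b)
  rw [integral_add h1 (hC.const_mul c),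
    integral_add (hA.const_mul a) (hB.const_mul b), integral_const_mul, integral_const_mul,
    integral_const_mul]

theorem FV_X2 (h : Ok c K D) (hV : On V m K) (hg : Ker g g1) (l : ℝ) :
    FV V (X2 c g l) =
      1 * (∫ p, c.tau p.1 p.2 * g (Real.exp (-2 * l) * ‖c.x p.1‖ ^ 2) ∂V)
      + 1 * er2 c V g l
      + (-Real.exp (-2 * l)) * (∫ p, ph c p *
            (-2 * g1 (Real.exp (-2 * l) * ‖c.x p.1‖ ^ 2)) ∂V) := by
  have i2 := h.int hV h.ctau hg.continuous l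
  have i4 := h.int hV h.cep2 hg.continuous l
  have i6 := h.int hV h.cph (q := fun t => -2 * g1 t) (continuous_const.mul hg.cont) l
  have h0 := int3 i2 i4 i6 1 1 (-Real.exp (-2 * l))
  unfold er2
  rw [← h0]
  unfold FV
  refine integral_congr_ae ?_
  filter_upwards [hV.mem] with p hp
  have h1 : tr (fderiv ℝ (X2 c g l) p.1 ∘L p.2) = _ :=
    tr_X2 (h.hx _ hp.1) (h.hnu _ hp.1) hg.der l p.2
  rw [h1]
  unfold ep2
  ring

/-- **(G2)** -/
theorem ee_eq (h : Ok c K D) (hV : On V m K) (hg : Ker g g1) (l : ℝ) :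
    ee c V g l = Ph c V g1 l + Real.exp ((2 - m) * l) * (FV V (X2 c g l) - er2 c V g l) := by
  rw [FV_X2 h hV hg l]
  unfold ee Ph
  have h6 : Real.exp (-m * l) = Real.exp ((2 - m) * l) * Real.exp (-2 * l) := by
    rw [← Real.exp_add]; congr 1; ring
  rw [h6]
  ring

/-! ### Cauchy-Schwarz -/

theorem quad_nonneg {a b c : ℝ} (ha : 0 ≤ a) (hc : 0 ≤ c) (hb : b ^ 2 ≤ a * c) (t : ℝ) :
    0 ≤ a * (t * t) + 2 * b * t + c := by
  rcases ha.eq_or_lt with h0 | h0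
  · rw [← h0] at hb ⊢
    have : b = 0 := by
      have : b ^ 2 ≤ 0 := by linarith
      nlinarith [sq_nonneg b]
    rw [this]; linarith
  · have h1 : 0 ≤ a * (a * (t * t) + 2 * b * t + c) := by
      nlinarith [sq_nonneg (a * t + b)]
    exact nonneg_of_mul_nonneg_right h1 h0

theorem cs_int {Ω : Type*} [MeasurableSpace Ω] {V : Measure Ω} {a b c : Ω → ℝ}
    (ia : Integrable a V) (ib : Integrable b V) (ic : Integrable c V)
    (ha : ∀ᵐ p ∂V, 0 ≤ a p) (hc : ∀ᵐ p ∂V, 0 ≤ c p) (hb : ∀ᵐ p ∂V, b p ^ 2 ≤ a p * c p) :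
    (∫ p, b p ∂V) ^ 2 ≤ (∫ p, a p ∂V) * ∫ p, c p ∂V := by
  have key : ∀ t : ℝ, 0 ≤ (∫ p, a p ∂V) * (t * t) + (2 * ∫ p, b p ∂V) * t + ∫ p, c p ∂V := by
    intro t
    have h1 := int3 ia ib ic (t * t) (2 * t) 1
    have h2 : (∫ p, a p ∂V) * (t * t) + (2 * ∫ p, b p ∂V) * t + ∫ p, c p ∂V =
        ∫ p, (t * t * a p + 2 * t * b p + 1 * c p) ∂V := by rw [h1]; ring
    rw [h2]
    refine integral_nonneg_of_ae ?_
    filter_upwards [ha, hc, hb] with p ha hc hb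
    have := quad_nonneg ha hc hb t
    simp only [Pi.zero_apply]
    linarith
  have hd := discrim_le_zero key
  unfold discrim at hd
  nlinarith

theorem inner_xi (z u : Euc k) : ⟪xi c z, u⟫_ℝ = ⟪c.x z, c.dx z u⟫_ℝ := by
  unfold xi
  exact ContinuousLinearMap.adjoint_inner_left _ _ _

theorem ph_eq (h : Ok c K D) {p : Euc k × L k} (hp : p ∈ K ×ˢ G m k) :
    ph c p = -⟪xi c p.1 - p.2 (xi c p.1), c.nu p.1⟫_ℝ := by
  unfold ph
  rw [inner_sub_left, inner_xi, h.dxnu _ hp.1, inner_zero_right, ← inner_xi, G_symm hp.2]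
  ring

theorem ph_sq_le (h : Ok c K D) {p : Euc k × L k} (hp : p ∈ K ×ˢ G m k) :
    ph c p ^ 2 ≤ rr c p * (2 * (c.f p.1 * c.mu (c.x p.1))) := by
  rw [ph_eq h hp, neg_sq]
  have h1 := real_inner_mul_inner_self_le (xi c p.1 - p.2 (xi c p.1)) (c.nu p.1)
  rw [real_inner_self_eq_norm_sq, real_inner_self_eq_norm_sq, h.nusq _ hp.1, ← pow_two] at h1
  have hmu := h.mupos _ (h.mem _ hp.1)
  unfold rr
  calc _ ≤ ‖xi c p.1 - p.2 (xi c p.1)‖ ^ 2 * (2 * c.f p.1) := h1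
    _ = _ := by field_simp

theorem rr_nonneg (h : Ok c K D) {p : Euc k × L k} (hp : p ∈ K ×ˢ G m k) : 0 ≤ rr c p := by
  unfold rr
  have hmu := h.mupos _ (h.mem _ hp.1)
  positivity

theorem w_nonneg (hg : ∀ t, 0 ≤ t → g1 t ≤ 0) (l : ℝ) (z : Euc m) :
    0 ≤ -2 * g1 (Real.exp (-2 * l) * ‖z‖ ^ 2) := by
  have := hg (Real.exp (-2 * l) * ‖z‖ ^ 2) (by positivity)
  linarith

theorem RR_nonneg (h : Ok c K D) (hV : On V m K) (hg : ∀ t, 0 ≤ t → g1 t ≤ 0) (l : ℝ) :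
    0 ≤ RR c V g1 l := by
  unfold RR
  refine mul_nonneg (Real.exp_pos _).le (integral_nonneg_of_ae ?_)
  filter_upwards [hV.mem] with p hp
  exact mul_nonneg (rr_nonneg h hp) (w_nonneg hg l _)

theorem II_eq (c : Ch m k) (V : Measure (Euc k × L k)) (g1 : ℝ → ℝ) (l : ℝ) :
    II c V g1 l = Real.exp (-m * l) * ∫ p, (2 * (c.f p.1 * c.mu (c.x p.1))) *
      (-2 * g1 (Real.exp (-2 * l) * ‖c.x p.1‖ ^ 2)) ∂V := by
  unfold II
  congr 1
  refine integral_congr_ae (Eventually.of_forall fun p => ?_)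
  simp only
  ring

theorem II_nonneg (h : Ok c K D) (hV : On V m K) (hg : ∀ t, 0 ≤ t → g1 t ≤ 0) (l : ℝ) :
    0 ≤ II c V g1 l := by
  rw [II_eq]
  refine mul_nonneg (Real.exp_pos _).le (integral_nonneg_of_ae ?_)
  filter_upwards [hV.mem] with p hp
  exact mul_nonneg (mul_nonneg zero_le_two (mul_nonneg (h.f_nonneg hp.1)
    (h.mupos _ (h.mem _ hp.1)).le)) (w_nonneg hg l _)

theorem Ok.cfmu (h : Ok c K D) :
    ContinuousOn (fun p : Euc k × L k => c.f p.1 * c.mu (c.x p.1)) (K ×ˢ G m k) :=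
  (lift h.cf).mul (h.liftD h.cmu)

/-- **`Phi² ≤ R I`** -/
theorem Ph_sq_le (h : Ok c K D) (hV : On V m K) (hc : Continuous g1)
    (hg : ∀ t, 0 ≤ t → g1 t ≤ 0) (l : ℝ) :
    Ph c V g1 l ^ 2 ≤ RR c V g1 l * II c V g1 l := by
  rw [II_eq]
  unfold Ph RR
  have hq : Continuous fun t => -2 * g1 t := continuous_const.mul hc
  have h1 := cs_int (h.int hV h.crr hq l) (h.int hV h.cph hq l)
    (h.int hV (continuousOn_const.mul h.cfmu) hq l (F := fun p => 2 * (c.f p.1 * c.mu (c.x p.1))))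
    (by filter_upwards [hV.mem] with p hp
        exact mul_nonneg (rr_nonneg h hp) (w_nonneg hg l _))
    (by filter_upwards [hV.mem] with p hp
        exact mul_nonneg (mul_nonneg zero_le_two (mul_nonneg (h.f_nonneg hp.1)
          (h.mupos _ (h.mem _ hp.1)).le)) (w_nonneg hg l _))
    (by filter_upwards [hV.mem] with p hp
        have h2 := ph_sq_le h hp
        have h3 := w_nonneg hg l (c.x p.1)
        calc _ = ph c p ^ 2 * (-2 * g1 (Real.exp (-2 * l) * ‖c.x p.1‖ ^ 2)) ^ 2 := by ring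
          _ ≤ (rr c p * (2 * (c.f p.1 * c.mu (c.x p.1)))) *
              (-2 * g1 (Real.exp (-2 * l) * ‖c.x p.1‖ ^ 2)) ^ 2 :=
            mul_le_mul_of_nonneg_right h2 (by positivity)
          _ = _ := by ring)
  have h4 : 0 ≤ Real.exp (-m * l) ^ 2 := by positivity
  calc _ = Real.exp (-m * l) ^ 2 *
        (∫ p, ph c p * (-2 * g1 (Real.exp (-2 * l) * ‖c.x p.1‖ ^ 2)) ∂V) ^ 2 := by ring
    _ ≤ Real.exp (-m * l) ^ 2 * _ := mul_le_mul_of_nonneg_left h1 h4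
    _ = _ := by ring

/-! ### `R~` and `R` -/

/-- `mu⁻¹ ⟪(1 - P) xi, zeta⟫` -/
def zz (c : Ch m k) (p : Euc k × L k) : ℝ :=
  (c.mu (c.x p.1))⁻¹ * ⟪xi c p.1 - p.2 (xi c p.1), zeta c p.1⟫_ℝ

/-- `s^{-m} ∫ mu⁻¹ |zeta|² (-2 g1)` -/
def ZZ (c : Ch m k) (V : Measure (Euc k × L k)) (g1 : ℝ → ℝ) (l : ℝ) : ℝ :=
  Real.exp (-m * l) * ∫ p, ((c.mu (c.x p.1))⁻¹ * ‖zeta c p.1‖ ^ 2) *
    (-2 * g1 (Real.exp (-2 * l) * ‖c.x p.1‖ ^ 2)) ∂V

theorem rt_eq' (h : Ok c K D) {p : Euc k × L k} (hp : p ∈ K ×ˢ G m k) :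
    rt c p = rr c p - zz c p := by
  have hD := h.mem _ hp.1
  have hA : c.A p.1 (c.be (c.x p.1)) = (c.mu (c.x p.1))⁻¹ • (xi c p.1 - zeta c p.1) := by
    rw [h.hbe _ hD, map_smul]
    unfold zeta
    rw [sub_sub_cancel]
  have h1 : (ContinuousLinearMap.id ℝ (Euc m) - T c p) (c.be (c.x p.1)) =
      c.dx p.1 ((c.mu (c.x p.1))⁻¹ • ((xi c p.1 - zeta c p.1) - p.2 (xi c p.1 - zeta c p.1))) := by
    rw [smul_sub, ← map_smul p.2, ← hA, map_sub]
    have h2 : c.dx p.1 (c.A p.1 (c.be (c.x p.1))) = c.be (c.x p.1) :=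
      congrArg (fun B : L m => B (c.be (c.x p.1))) (h.dxA _ hp.1)
    rw [h2]
    rfl
  unfold rt
  rw [h1, ← inner_xi, inner_smul_right]
  have hs : ∀ u w : Euc k, ⟪u - p.2 u, w⟫_ℝ = ⟪u, w - p.2 w⟫_ℝ := fun u w => by
    rw [inner_sub_left, inner_sub_right, G_symm hp.2]
  have h3 : ⟪xi c p.1, xi c p.1 - zeta c p.1 - p.2 (xi c p.1 - zeta c p.1)⟫_ℝ =
      ‖xi c p.1 - p.2 (xi c p.1)‖ ^ 2 - ⟪xi c p.1 - p.2 (xi c p.1), zeta c p.1⟫_ℝ := by
    rw [← hs, inner_sub_right]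
    congr 1
    rw [← real_inner_self_eq_norm_sq, inner_sub_right]
    have h4 : ⟪xi c p.1 - p.2 (xi c p.1), p.2 (xi c p.1)⟫_ℝ = 0 := by
      rw [← G_symm hp.2, map_sub, G_idem_apply hp.2, sub_self, inner_zero_left]
    rw [h4, sub_zero]
  rw [h3]
  unfold rr zz
  ring

theorem Ok.czz (h : Ok c K D) : ContinuousOn (zz c) (K ×ˢ G m k) := by
  unfold zz
  have h1 : ContinuousOn (fun p : Euc k × L k => (c.mu (c.x p.1))⁻¹) (K ×ˢ G m k) :=
    (h.liftD h.cmu).inv₀ fun p hp => (h.mupos _ (h.mem _ hp.1)).ne'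
  exact h1.mul (((lift h.cxi).sub (cP.clm_apply (lift h.cxi))).inner (lift h.czeta))

theorem Ok.cZ (h : Ok c K D) :
    ContinuousOn (fun p : Euc k × L k => (c.mu (c.x p.1))⁻¹ * ‖zeta c p.1‖ ^ 2)
      (K ×ˢ G m k) := by
  have h1 : ContinuousOn (fun p : Euc k × L k => (c.mu (c.x p.1))⁻¹) (K ×ˢ G m k) :=
    (h.liftD h.cmu).inv₀ fun p hp => (h.mupos _ (h.mem _ hp.1)).ne'
  exact h1.mul ((lift h.czeta).norm.pow 2)

/-- `(R - R~)² ≤ R Z` -/
theorem RR_sub_RT_sq_le (h : Ok c K D) (hV : On V m K) (hc : Continuous g1)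
    (hg : ∀ t, 0 ≤ t → g1 t ≤ 0) (l : ℝ) :
    (RR c V g1 l - RT c V g1 l) ^ 2 ≤ RR c V g1 l * ZZ c V g1 l := by
  have hq : Continuous fun t => -2 * g1 t := continuous_const.mul hc
  have i1 := h.int hV h.crr hq l
  have i2 := h.int hV h.crt hq l
  have i3 := h.int hV h.czz hq l
  have i4 := h.int hV h.cZ hq l
  have e1 : RR c V g1 l - RT c V g1 l = Real.exp (-m * l) *
      ∫ p, zz c p * (-2 * g1 (Real.exp (-2 * l) * ‖c.x p.1‖ ^ 2)) ∂V := by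
    unfold RR RT
    rw [← mul_sub, ← integral_sub i1 i2]
    congr 1
    refine integral_congr_ae ?_
    filter_upwards [hV.mem] with p hp
    rw [rt_eq' h hp]
    ring
  rw [e1]
  unfold RR ZZ
  have h1 := cs_int i1 i3 i4
    (by filter_upwards [hV.mem] with p hp
        exact mul_nonneg (rr_nonneg h hp) (w_nonneg hg l _))
    (by filter_upwards [hV.mem] with p hp
        have hmu := h.mupos _ (h.mem _ hp.1)
        exact mul_nonneg (by positivity) (w_nonneg hg l _))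
    (by filter_upwards [hV.mem] with p hp
        have hmu := h.mupos _ (h.mem _ hp.1)
        have h2 : zz c p ^ 2 ≤ rr c p * ((c.mu (c.x p.1))⁻¹ * ‖zeta c p.1‖ ^ 2) := by
          unfold zz rr
          have h3 := real_inner_mul_inner_self_le (xi c p.1 - p.2 (xi c p.1)) (zeta c p.1)
          rw [real_inner_self_eq_norm_sq, real_inner_self_eq_norm_sq, ← pow_two] at h3
          calc _ = (c.mu (c.x p.1))⁻¹ ^ 2 * ⟪xi c p.1 - p.2 (xi c p.1), zeta c p.1⟫_ℝ ^ 2 := by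
                ring
            _ ≤ (c.mu (c.x p.1))⁻¹ ^ 2 * (‖xi c p.1 - p.2 (xi c p.1)‖ ^ 2 *
                ‖zeta c p.1‖ ^ 2) := mul_le_mul_of_nonneg_left h3 (by positivity)
            _ = _ := by ring
        calc _ = zz c p ^ 2 * (-2 * g1 (Real.exp (-2 * l) * ‖c.x p.1‖ ^ 2)) ^ 2 := by ring
          _ ≤ (rr c p * ((c.mu (c.x p.1))⁻¹ * ‖zeta c p.1‖ ^ 2)) *
              (-2 * g1 (Real.exp (-2 * l) * ‖c.x p.1‖ ^ 2)) ^ 2 :=
            mul_le_mul_of_nonneg_right h2 (by positivity)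
          _ = _ := by ring)
  have h4 : 0 ≤ Real.exp (-m * l) ^ 2 := by positivity
  calc _ = Real.exp (-m * l) ^ 2 *
        (∫ p, zz c p * (-2 * g1 (Real.exp (-2 * l) * ‖c.x p.1‖ ^ 2)) ∂V) ^ 2 := by ring
    _ ≤ Real.exp (-m * l) ^ 2 * _ := mul_le_mul_of_nonneg_left h1 h4
    _ = _ := by ring

theorem ZZ_nonneg (h : Ok c K D) (hV : On V m K) (hg : ∀ t, 0 ≤ t → g1 t ≤ 0) (l : ℝ) :
    0 ≤ ZZ c V g1 l := by
  unfold ZZ
  refine mul_nonneg (Real.exp_pos _).le (integral_nonneg_of_ae ?_)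
  filter_upwards [hV.mem] with p hp
  have hmu := h.mupos _ (h.mem _ hp.1)
  exact mul_nonneg (by positivity) (w_nonneg hg l _)

/-! ### (G3) -/

/-- the field `g1 gi v` on the base -/
def eta (c : Ch m k) (g1 : ℝ → ℝ) (l : ℝ) (v : Euc m) : Euc m :=
  g1 (Real.exp (-2 * l) * ‖v‖ ^ 2) • c.gi v v

/-- its derivative -/
def deta (c : Ch m k) (g1 g2 : ℝ → ℝ) (l : ℝ) (v : Euc m) : L m :=
  g1 (Real.exp (-2 * l) * ‖v‖ ^ 2) • dgv c v +
    (innerSL ℝ ((2 * Real.exp (-2 * l) * g2 (Real.exp (-2 * l) * ‖v‖ ^ 2)) • v)).smulRight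
      (c.gi v v)

/-- pointwise error of (G3) -/
def ep3 (c : Ch m k) (g1 g2 : ℝ → ℝ) (l : ℝ) (p : Euc k × L k) : ℝ :=
  c.f p.1 * (g1 (Real.exp (-2 * l) * ‖c.x p.1‖ ^ 2) * th3 c (c.x p.1)
    - tr (deta c g1 g2 l (c.x p.1) ∘L (ContinuousLinearMap.id ℝ (Euc m) - T c p))
    + (Gam c p (eta c g1 l (c.x p.1)) - ⟪c.lam (c.x p.1), eta c g1 l (c.x p.1)⟫_ℝ))
  - g1 (Real.exp (-2 * l) * ‖c.x p.1‖ ^ 2) * ⟪c.nu p.1, p.2 (zeta c p.1)⟫_ℝ

def er3 (c : Ch m k) (V : Measure (Euc k × L k)) (g1 g2 : ℝ → ℝ) (l : ℝ) : ℝ :=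
  ∫ p, ep3 c g1 g2 l p ∂V

theorem Ok.ceta (h : Ok c K D) (hg : Ker g1 g2) (l : ℝ) : ContinuousOn (eta c g1 l) D := by
  unfold eta
  exact (cker_v hg.continuous l).continuousOn.smul h.cgv

theorem Ok.cdeta (h : Ok c K D) (hg : Ker g1 g2) (l : ℝ) : ContinuousOn (deta c g1 g2 l) D := by
  unfold deta
  refine ((cker_v hg.continuous l).continuousOn.smul h.cdgv).add ?_
  have h1 : Continuous fun v : Euc m =>
      (2 * Real.exp (-2 * l) * g2 (Real.exp (-2 * l) * ‖v‖ ^ 2)) • v :=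
    (continuous_const.mul (cker_v hg.cont l)).smul continuous_id
  have h2 : ContinuousOn (fun v : Euc m => (ContinuousLinearMap.smulRightL ℝ (Euc m) (Euc m)
      (innerSL ℝ ((2 * Real.exp (-2 * l) * g2 (Real.exp (-2 * l) * ‖v‖ ^ 2)) • v)))
        (c.gi v v)) D :=
    ((ContinuousLinearMap.smulRightL ℝ (Euc m) (Euc m)).continuous.comp_continuousOn
      ((innerSL ℝ).continuous.comp h1).continuousOn).clm_apply h.cgv
  exact h2

theorem Ok.cep3 (h : Ok c K D) (hg : Ker g1 g2) (l : ℝ) :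
    ContinuousOn (ep3 c g1 g2 l) (K ×ˢ G m k) := by
  unfold ep3
  have ck := h.cker hg.continuous l
  refine ((lift h.cf).mul (((ck.mul (h.liftD h.cth3)).sub (ctr ?_)).add
    ((h.cGam (h.liftD (h.ceta hg l))).sub ((h.liftD h.clam).inner
      (h.liftD (h.ceta hg l)))))).sub (ck.mul ((lift h.cnu).inner (cP.clm_apply (lift h.czeta))))
  exact (h.liftD (h.cdeta hg l)).clm_comp (continuousOn_const.sub h.cT)

theorem hasFDerivAt_gv (h : Ok c K D) {v : Euc m} (hv : v ∈ D) :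
    HasFDerivAt (fun v => c.gi v v) (dgv c v) v := by
  have h1 := (h.hgi v hv).clm_apply (hasFDerivAt_id v)
  refine h1.congr_fderiv ?_
  unfold dgv
  ext u : 1
  simp

theorem hasFDerivAt_eta (h : Ok c K D) (hg : ∀ t, HasDerivAt g1 (g2 t) t) (l : ℝ) {v : Euc m}
    (hv : v ∈ D) : HasFDerivAt (eta c g1 l) (deta c g1 g2 l v) v := by
  have h1 := hasFDerivAt_rad hg l 0 v
  simp only [sub_zero] at h1
  exact h1.smul (hasFDerivAt_gv h hv)

theorem tr_X3 (h : Ok c K D) (hg : ∀ t, HasDerivAt g1 (g2 t) t) (l : ℝ) {p : Euc k × L k}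
    (hp : p ∈ K ×ˢ G m k) :
    tr (fderiv ℝ (X3 c g1 l) p.1 ∘L p.2) =
      1 * ep3 c g1 g2 l p +
      (m : ℝ) * ((c.f p.1 * c.mu (c.x p.1)) * g1 (Real.exp (-2 * l) * ‖c.x p.1‖ ^ 2)) +
      2 * ((c.f p.1 * c.mu (c.x p.1)) * (Real.exp (-2 * l) * ‖c.x p.1‖ ^ 2 *
        g2 (Real.exp (-2 * l) * ‖c.x p.1‖ ^ 2))) +
      1 * (ph c p * g1 (Real.exp (-2 * l) * ‖c.x p.1‖ ^ 2)) := by
  have hz := hp.1
  have hD := h.mem _ hz
  have h3 : tr (fderiv ℝ (X3 c g1 l) p.1 ∘L p.2) = _ :=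
    tr_fAxi (h.hx _ hz) (h.hf _ hz) (h.hA _ hz) (hasFDerivAt_eta h hg l hD) p.2
  rw [h3]
  have h4 : tr (deta c g1 g2 l (c.x p.1) ∘L (ContinuousLinearMap.id ℝ (Euc m) - T c p)) =
      g1 (Real.exp (-2 * l) * ‖c.x p.1‖ ^ 2) * tr (dgv c (c.x p.1)) +
      2 * (c.mu (c.x p.1) * (Real.exp (-2 * l) * ‖c.x p.1‖ ^ 2 *
        g2 (Real.exp (-2 * l) * ‖c.x p.1‖ ^ 2))) -
      tr (deta c g1 g2 l (c.x p.1) ∘L T c p) := by
    rw [ContinuousLinearMap.comp_sub, ContinuousLinearMap.comp_id, map_sub]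
    congr 1
    unfold deta
    rw [map_add, map_smul, smul_eq_mul]
    congr 1
    have h1 := tr_smulRight_comp (innerSL ℝ ((2 * Real.exp (-2 * l) *
      g2 (Real.exp (-2 * l) * ‖c.x p.1‖ ^ 2)) • c.x p.1)) (c.gi (c.x p.1) (c.x p.1))
      (ContinuousLinearMap.id ℝ (Euc m))
    rw [ContinuousLinearMap.comp_id] at h1
    rw [h1, ContinuousLinearMap.id_apply, innerSL_apply_apply, inner_smul_left, h.hmu _ hD]
    simp only [RCLike.conj_to_real]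
    ring
  have h5 : ⟪c.nu p.1, p.2 (c.A p.1 (eta c g1 l (c.x p.1)))⟫_ℝ =
      g1 (Real.exp (-2 * l) * ‖c.x p.1‖ ^ 2) * (ph c p - ⟪c.nu p.1, p.2 (zeta c p.1)⟫_ℝ) := by
    unfold eta
    rw [map_smul, map_smul, inner_smul_right]
    congr 1
    have h6 : c.A p.1 (c.gi (c.x p.1) (c.x p.1)) = xi c p.1 - zeta c p.1 := by
      unfold zeta; rw [sub_sub_cancel]
    rw [h6, map_sub, inner_sub_right]
    congr 1
    unfold ph
    rw [← inner_xi, ← G_symm hp.2, real_inner_comm]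
  have h7 : ⟪c.lam (c.x p.1), eta c g1 l (c.x p.1)⟫_ℝ = g1 (Real.exp (-2 * l) * ‖c.x p.1‖ ^ 2) *
      ⟪c.lam (c.x p.1), c.gi (c.x p.1) (c.x p.1)⟫_ℝ := by
    unfold eta
    rw [inner_smul_right]
  have h9 : T c (p.1, p.2) = T c p := rfl
  have h10 : Gam c (p.1, p.2) (eta c g1 l (c.x p.1)) = Gam c p (eta c g1 l (c.x p.1)) := rfl
  unfold ep3 th3
  rw [h4, h5, h7, h9, h10]
  ring

theorem FV_X3 (h : Ok c K D) (hV : On V m K) (hg : Ker g1 g2) (l : ℝ) :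
    FV V (X3 c g1 l) =
      1 * er3 c V g1 g2 l
      + m * (∫ p, (c.f p.1 * c.mu (c.x p.1)) * g1 (Real.exp (-2 * l) * ‖c.x p.1‖ ^ 2) ∂V)
      + 2 * (∫ p, (c.f p.1 * c.mu (c.x p.1)) * (Real.exp (-2 * l) * ‖c.x p.1‖ ^ 2 *
            g2 (Real.exp (-2 * l) * ‖c.x p.1‖ ^ 2)) ∂V)
      + 1 * (∫ p, ph c p * g1 (Real.exp (-2 * l) * ‖c.x p.1‖ ^ 2) ∂V) := by
  have i1 := hV.integrable h.cpt (h.cep3 hg l)
  have i2 := h.int hV h.cfmu hg.continuous l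
  have i3 := h.int hV h.cfmu (q := fun t => t * g2 t) (continuous_id.mul hg.cont) l
  have i4 := h.int hV h.cph hg.continuous l
  have h0 := int4 i1 i2 i3 i4 1 (m:ℝ) 2 1
  unfold er3
  rw [← h0]
  unfold FV
  refine integral_congr_ae ?_
  filter_upwards [hV.mem] with p hp
  exact tr_X3 h hg.der l hp

/-- **(G3)** -/
theorem hasDerivAt_II (h : Ok c K D) (hV : On V m K) (hg : Ker g1 g2) (l : ℝ) :
    HasDerivAt (II c V g1)
      (2 * Ph c V g1 l + 4 * Real.exp (-m * l) * (FV V (X3 c g1 l) - er3 c V g1 g2 l)) l := by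
  have h1 := hV.hasDerivAt h.cpt h.cx h.cfmu hg l
  have h3 : HasDerivAt (fun l : ℝ => Real.exp (-m * l)) (Real.exp (-m * l) * (-m)) l := by
    have h4 : HasDerivAt (fun l : ℝ => (-m : ℝ) * l) (-m) l := by
      simpa using (hasDerivAt_id l).const_mul (-m : ℝ)
    exact h4.exp
  have h5 := h3.mul (h1.const_mul (-4))
  have hfun : II c V g1 = (fun l : ℝ => Real.exp (-m * l)) * (fun l =>
      -4 * ∫ p, (c.f p.1 * c.mu (c.x p.1)) * g1 (Real.exp (-2 * l) * ‖c.x p.1‖ ^ 2) ∂V) := by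
    funext l
    unfold II
    simp only [Pi.mul_apply]
    rw [int_c4 V (fun p => c.f p.1 * c.mu (c.x p.1))
      (fun p => g1 (Real.exp (-2 * l) * ‖c.x p.1‖ ^ 2)) (-4)]
  rw [hfun]
  refine h5.congr_deriv ?_
  rw [FV_X3 h hV hg l]
  have h7 : ∫ p, (c.f p.1 * c.mu (c.x p.1)) * (-2 * (Real.exp (-2 * l) * ‖c.x p.1‖ ^ 2 *
      g2 (Real.exp (-2 * l) * ‖c.x p.1‖ ^ 2))) ∂V =
      -2 * ∫ p, (c.f p.1 * c.mu (c.x p.1)) * (Real.exp (-2 * l) * ‖c.x p.1‖ ^ 2 *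
      g2 (Real.exp (-2 * l) * ‖c.x p.1‖ ^ 2)) ∂V :=
    int_c4 V (fun p => c.f p.1 * c.mu (c.x p.1)) (fun p => Real.exp (-2 * l) * ‖c.x p.1‖ ^ 2 *
      g2 (Real.exp (-2 * l) * ‖c.x p.1‖ ^ 2)) (-2)
  have h8 : Ph c V g1 l = Real.exp (-m * l) * (-2 *
      ∫ p, ph c p * g1 (Real.exp (-2 * l) * ‖c.x p.1‖ ^ 2) ∂V) := by
    unfold Ph
    rw [int_c4 V (ph c) (fun p => g1 (Real.exp (-2 * l) * ‖c.x p.1‖ ^ 2)) (-2)]
  rw [h7, h8]
  ring

end Crest.Agent.R234.GL_394
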