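import Crest.Agent.R234.Dbl3_534
import Crest.Agent.R234.GL3_394

/-!
# Row 234, VF-F11 node, part 1 (helper534)

* `fd_of_step2` : `fd_of_step` with the crude bounds only at the top scale `t₁`.
* monotonicity in the scale of 394's `ee` and `II`.
-/

set_option autoImplicit false

open MeasureTheory Set Real

namespace Crest.Agent.R234.Fd_534

open Crest.Agent.R234.Nb_290 (StepData)
open Crest.Agent.R234.Pin1_3 (FD NN)
open Crest.Agent.R234.Dbl_534

/-- thresholds of the version with bounds at the top scale only. -/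
structure Thr3 (q Cp Lw hw et k0 c0 C2 : ℝ) : Prop where
  k : 0 < k0
  c : 0 < c0
  C : 1 ≤ C2
  main : ∀ (I E e b R : ℝ → ℝ) (lo t0 t1 del w : ℝ), lo ≤ t0 → t1 - lo ≤ Lw →
    t0 + hw ≤ t1 → 0 ≤ del → del ≤ k0 → 0 ≤ w → w ≤ k0 * I t0 →
    StepData lo t1 del w I E e b R →
    (∀ l ∈ Icc lo t1, (1 - et) * I l ≤ 2 * E l) →
    (∀ l ∈ Icc lo t1, e l ≤ exp (q * (t1 - l)) * e t1) →
    (∀ l ∈ Icc lo t1, I l ≤ exp (q * (t1 - l)) * I t1) →
    I t1 ≤ Cp * I t0 → e t1 ≤ Cp * I t0 →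
    ∃ R' : ℝ → ℝ, (∀ l ∈ Icc lo t0, R l ≤ R' l) ∧ FD E I e b R' et lo t0 ∧
      (∀ l ∈ Icc lo t0, NN E I l ≤ C2) ∧ ∀ l ∈ Icc lo t0, c0 * I t0 ≤ I l

theorem fd_of_step2 {q Cp Lw hw et : ℝ} (hq : 0 ≤ q) (hCp : 1 ≤ Cp) (hLw : 0 ≤ Lw) (hhw : 0 < hw)
    (het : 0 < et) (het1 : et ≤ 1 / 2) : ∃ k0 c0 C2 : ℝ, Thr3 q Cp Lw hw et k0 c0 C2 := by
  set X : ℝ := exp (q * Lw) with hX
  have hX1 : 1 ≤ X := one_le_exp (by positivity)
  set Ce : ℝ := 2 * X * Cp with hCe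
  have hCe1 : 1 ≤ Ce := by rw [hCe]; nlinarith
  obtain ⟨k0, c0, hT⟩ := fd_of_step (C1 := 3 * Ce) (Ce := Ce) (by linarith) hCe1 hLw hhw het het1
  refine ⟨min k0 1, c0, 8 * (3 * Ce), lt_min hT.k one_pos, hT.c, by linarith, ?_⟩
  intro I E e b R lo t0 t1 del w hlo ht1 htw hdel hdelk hw hwk h hlow he hI hI1 he1
  have ht0 : t0 ∈ Icc lo t1 := ⟨hlo, by linarith⟩
  have hIt0 := h.hI t0 ht0
  have hk1 : min k0 1 * I t0 ≤ k0 * I t0 := by gcongr; exact min_le_left _ _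
  have hXl : ∀ l ∈ Icc lo t1, exp (q * (t1 - l)) ≤ X := by
    intro l hl
    apply exp_le_exp.2
    apply mul_le_mul_of_nonneg_left _ hq
    linarith [hl.1]
  have heI : ∀ l ∈ Icc lo t1, e l ≤ X * Cp * I t0 ∧ I l ≤ X * Cp * I t0 := by
    intro l hl
    have h1 := he l hl
    have h2 := hI l hl
    have h3 := hXl l hl
    have h4 := h.he t1 ⟨hlo.trans ht0.2, le_rfl⟩
    have h5 := (h.hI t1 ⟨hlo.trans ht0.2, le_rfl⟩).le
    constructor
    · calc e l ≤ exp (q * (t1 - l)) * e t1 := h1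
        _ ≤ X * (Cp * I t0) := by gcongr
        _ = X * Cp * I t0 := by ring
    · calc I l ≤ exp (q * (t1 - l)) * I t1 := h2
        _ ≤ X * (Cp * I t0) := by gcongr
        _ = X * Cp * I t0 := by ring
  have hsum : ∀ l ∈ Icc lo t1, e l + I l ≤ Ce * I t0 := by
    intro l hl
    have := heI l hl
    have h2 : Ce * I t0 = X * Cp * I t0 + X * Cp * I t0 := by rw [hCe]; ring
    linarith [this.1, this.2]
  obtain ⟨R', h1, h2, h3, h4⟩ := hT.main I E e b R lo t0 t1 del w hlo ht1 htw hdel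
    (hdelk.trans (min_le_left _ _)) hw (hwk.trans hk1) h hlow hsum (by
      intro l hl
      have hl' : l ∈ Icc lo t1 := ⟨hlo.trans hl.1, hl.2⟩
      have h1 := h.hE l hl'
      have h2 := h.hb l hl'
      have h3 := hsum l hl'
      have h4 := h.he l hl'
      have h5 := (h.hI l hl').le
      have h6 : del * I l ≤ 1 * I l := by
        gcongr
        exact hdelk.trans (min_le_right _ _)
      have h7 : w ≤ 1 * I t0 := hwk.trans (by gcongr; exact min_le_right _ _)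
      have h8 : 1 * I t0 ≤ Ce * I t0 := by gcongr
      have h9 : 3 * Ce * I t0 = Ce * I t0 + Ce * I t0 + Ce * I t0 := by ring
      have h10 : 0 ≤ Ce * I t0 := by positivity
      linarith)
  exact ⟨R', h1, h2, h3, h4⟩

/-- the bound of the frequency: independent of the length of the window and of the accuracy. -/
noncomputable def Ctop (q Cp H1 : ℝ) : ℝ := 48 * exp (q * H1) * Cp

/-- **final form**: the frequency bound `Ctop q Cp H1` depends neither on the length `Lw` of the window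
nor on the accuracy `et`. -/
theorem fd_of_step3 {q Cp Lw H1 hw et : ℝ} (hq : 0 ≤ q) (hCp : 1 ≤ Cp) (hLw : 0 ≤ Lw) (hhw : 0 < hw)
    (hH1 : 0 ≤ H1) (het : 0 < et) (het1 : et ≤ 1 / 2) : ∃ k0 c0 : ℝ, 0 < k0 ∧ 0 < c0 ∧
    ∀ (I E e b R : ℝ → ℝ) (lo t0 t1 del w : ℝ), lo ≤ t0 → t1 - lo ≤ Lw →
    t0 + hw ≤ t1 → t1 ≤ t0 + H1 → 0 ≤ del → del ≤ k0 → 0 ≤ w → w ≤ k0 * I t0 →
    StepData lo t1 del w I E e b R →
    (∀ l ∈ Icc lo t1, (1 - et) * I l ≤ 2 * E l) →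
    (∀ l ∈ Icc lo t1, e l ≤ exp (q * (t1 - l)) * e t1) →
    (∀ l ∈ Icc lo t1, I l ≤ exp (q * (t1 - l)) * I t1) →
    I t1 ≤ Cp * I t0 → e t1 ≤ Cp * I t0 →
    ∃ R' : ℝ → ℝ, (∀ l ∈ Icc lo t0, R l ≤ R' l) ∧ FD E I e b R' et lo t0 ∧
      (∀ l ∈ Icc lo t0, NN E I l ≤ Ctop q Cp H1) ∧ ∀ l ∈ Icc lo t0, c0 * I t0 ≤ I l := by
  set X : ℝ := exp (q * Lw) with hX
  have hX1 : 1 ≤ X := one_le_exp (by positivity)
  set Y : ℝ := exp (q * H1) with hY
  have hY1 : 1 ≤ Y := one_le_exp (by positivity)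
  have hYC : 1 ≤ Y * Cp := by nlinarith
  set Ce : ℝ := 2 * X * Cp with hCe
  have hCe1 : 1 ≤ Ce := by rw [hCe]; nlinarith
  set C1 : ℝ := 6 * (Y * Cp) with hC1
  obtain ⟨k0, c0, hT⟩ := fd_of_step (C1 := C1) (Ce := Ce) (by rw [hC1]; linarith) hCe1 hLw hhw het het1
  refine ⟨min k0 1, c0, lt_min hT.k one_pos, hT.c, ?_⟩
  intro I E e b R lo t0 t1 del w hlo ht1 htw htH hdel hdelk hw hwk h hlow he hI hI1 he1
  have ht0 : t0 ∈ Icc lo t1 := ⟨hlo, by linarith⟩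
  have hIt0 := h.hI t0 ht0
  have hk1 : min k0 1 * I t0 ≤ k0 * I t0 := by gcongr; exact min_le_left _ _
  have h4 := h.he t1 ⟨hlo.trans ht0.2, le_rfl⟩
  have h5 := (h.hI t1 ⟨hlo.trans ht0.2, le_rfl⟩).le
  -- bounds with a general factor
  have gen : ∀ Z l, l ∈ Icc lo t1 → exp (q * (t1 - l)) ≤ Z → 0 ≤ Z →
      e l ≤ Z * Cp * I t0 ∧ I l ≤ Z * Cp * I t0 := by
    intro Z l hl hZ hZ0
    constructor
    · calc e l ≤ exp (q * (t1 - l)) * e t1 := he l hl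
        _ ≤ Z * (Cp * I t0) := by gcongr
        _ = Z * Cp * I t0 := by ring
    · calc I l ≤ exp (q * (t1 - l)) * I t1 := hI l hl
        _ ≤ Z * (Cp * I t0) := by gcongr
        _ = Z * Cp * I t0 := by ring
  have hsum : ∀ l ∈ Icc lo t1, e l + I l ≤ Ce * I t0 := by
    intro l hl
    have := gen X l hl (by
      apply exp_le_exp.2
      apply mul_le_mul_of_nonneg_left _ hq
      linarith [hl.1]) (by linarith)
    have h2 : Ce * I t0 = X * Cp * I t0 + X * Cp * I t0 := by rw [hCe]; ring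
    linarith [this.1, this.2]
  have hC8 : Ctop q Cp H1 = 8 * C1 := by
    rw [hC1, hY]; unfold Ctop; ring
  rw [hC8]
  refine hT.main I E e b R lo t0 t1 del w hlo ht1 htw hdel
    (hdelk.trans (min_le_left _ _)) hw (hwk.trans hk1) h hlow hsum ?_
  intro l hl
  have hl' : l ∈ Icc lo t1 := ⟨hlo.trans hl.1, hl.2⟩
  have h1 := h.hE l hl'
  have h2 := h.hb l hl'
  have h3 := gen Y l hl' (by
      apply exp_le_exp.2
      apply mul_le_mul_of_nonneg_left _ hq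
      linarith [hl.1]) (by linarith)
  have h5 := (h.hI l hl').le
  have h6 : del * I l ≤ 1 * I l := by
    gcongr
    exact hdelk.trans (min_le_right _ _)
  have h7 : w ≤ 1 * I t0 := hwk.trans (by gcongr; exact min_le_right _ _)
  have h8 : 1 * I t0 ≤ Y * Cp * I t0 := by gcongr
  have h9 : C1 * I t0 = 6 * (Y * Cp * I t0) := by rw [hC1]; ring
  have h10 : 0 ≤ Y * Cp * I t0 := by positivity
  linarith [h3.1, h3.2]

/-! ### monotonicity in the scale -/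

section GLm

open Crest.Agent.R234.Vf_884 Crest.Agent.R234.GL_394
open Crest.Agent.R234.Cy_870 (Ker Prof)
open Crest.GeometryTopology.Submanifold

variable {m k : ℕ} {c : Ch m k} {K : Set (Euc k)} {D : Set (Euc m)} {V : Measure (Euc k × L k)}

/-- a kernel which is antitone on `[0, ∞)`. -/
theorem ker_anti {q q' : ℝ → ℝ} (hq : Ker q q') (h : ∀ t, 0 ≤ t → q' t ≤ 0) {s t : ℝ} (hs : 0 ≤ s)
    (hst : s ≤ t) : q t ≤ q s := by
  have : AntitoneOn q (Ici 0) := by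
    apply antitoneOn_of_deriv_nonpos (convex_Ici 0) hq.continuous.continuousOn
    · intro x _
      exact (hq.der x).differentiableAt.differentiableWithinAt
    · intro x hx
      rw [interior_Ici] at hx
      rw [(hq.der x).deriv]
      exact h x (le_of_lt hx)
  exact this hs (hs.trans hst) hst

theorem int_ker_mono (hc : Ok c K D) (hV : On V m K) {q q' : ℝ → ℝ} (hq : Ker q q')
    (h : ∀ t, 0 ≤ t → q' t ≤ 0) {F : Euc k × L k → ℝ} (hF : ContinuousOn F (K ×ˢ G m k))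
    (hF0 : ∀ p ∈ K ×ˢ G m k, 0 ≤ F p) {l l' : ℝ} (hl : l ≤ l') :
    ∫ p, F p * q (Real.exp (-2 * l) * ‖c.x p.1‖ ^ 2) ∂V ≤
      ∫ p, F p * q (Real.exp (-2 * l') * ‖c.x p.1‖ ^ 2) ∂V := by
  have hx : ContinuousOn c.x K := fun z hz => (hc.hx z hz).continuousAt.continuousWithinAt
  have hcont : ∀ l, ContinuousOn
      (fun p : Euc k × L k => F p * q (Real.exp (-2 * l) * ‖c.x p.1‖ ^ 2)) (K ×ˢ G m k) := by
    intro l
    refine hF.mul (hq.continuous.comp_continuousOn ?_)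
    exact continuousOn_const.mul ((hx.comp continuousOn_fst (fun p hp => hp.1)).norm.pow 2)
  refine integral_mono_ae (hV.integrable hc.cpt (hcont l)) (hV.integrable hc.cpt (hcont l')) ?_
  filter_upwards [hV.mem] with p hp
  apply mul_le_mul_of_nonneg_left _ (hF0 p hp)
  apply ker_anti hq h (by positivity)
  have h1 : Real.exp (-2 * l') ≤ Real.exp (-2 * l) := Real.exp_le_exp.2 (by linarith)
  exact mul_le_mul_of_nonneg_right h1 (by positivity)

/-- `s^{m-2} e(s)` is nondecreasing. -/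
theorem ee_mono (hc : Ok c K D) (hV : On V m K) {g g1 g2 : ℝ → ℝ} (hg : Prof g g1 g2)
    (ht : ∀ p ∈ K ×ˢ G m k, 0 ≤ c.tau p.1 p.2) {l l' : ℝ} (hl : l ≤ l') :
    ee c V g l ≤ exp ((m - 2) * (l' - l)) * ee c V g l' := by
  have h := int_ker_mono hc hV hg.k0 hg.anti (F := fun p => c.tau p.1 p.2) hc.ctau ht hl
  unfold ee
  calc exp ((2 - m) * l) * ∫ p, c.tau p.1 p.2 * g (exp (-2 * l) * ‖c.x p.1‖ ^ 2) ∂V ≤
      exp ((2 - m) * l) * ∫ p, c.tau p.1 p.2 * g (exp (-2 * l') * ‖c.x p.1‖ ^ 2) ∂V := by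
        gcongr
    _ = exp ((m - 2) * (l' - l)) * (exp ((2 - m) * l') *
        ∫ p, c.tau p.1 p.2 * g (exp (-2 * l') * ‖c.x p.1‖ ^ 2) ∂V) := by
        rw [← mul_assoc, ← exp_add]; congr 2; ring

theorem ee_nonneg (hV : On V m K) {g g1 g2 : ℝ → ℝ} (hg : Prof g g1 g2)
    (ht : ∀ p ∈ K ×ˢ G m k, 0 ≤ c.tau p.1 p.2) (l : ℝ) : 0 ≤ ee c V g l := by
  unfold ee
  apply mul_nonneg (exp_pos _).le
  apply integral_nonneg_of_ae
  filter_upwards [hV.mem] with p hp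
  apply mul_nonneg (ht p hp)
  have h1 := ker_anti hg.k0 hg.anti (s := exp (-2 * l) * ‖c.x p.1‖ ^ 2)
    (t := max 1 (exp (-2 * l) * ‖c.x p.1‖ ^ 2)) (by positivity) (le_max_right _ _)
  rw [hg.k0.zero _ (le_max_left _ _)] at h1
  exact h1

/-- `s^m I(s)` is nondecreasing (convex profile). -/
theorem II_mono (hc : Ok c K D) (hV : On V m K) {g g1 g2 : ℝ → ℝ} (hg : Prof g g1 g2)
    (hconv : ∀ t, 0 ≤ t → 0 ≤ g2 t) {l l' : ℝ} (hl : l ≤ l') :
    II c V g1 l ≤ exp (m * (l' - l)) * II c V g1 l' := by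
  have hx : ContinuousOn c.x K := fun z hz => (hc.hx z hz).continuousAt.continuousWithinAt
  have hF : ContinuousOn (fun p : Euc k × L k => 4 * (c.f p.1 * c.mu (c.x p.1))) (K ×ˢ G m k) := by
    have h1 : ContinuousOn c.f K := fun z hz => (hc.hf z hz).continuousAt.continuousWithinAt
    have h2 : ContinuousOn (fun z => c.mu (c.x z)) K := hc.cmu.comp hx hc.mem
    exact continuousOn_const.mul ((h1.mul h2).comp continuousOn_fst (fun p hp => hp.1))
  have hq : Ker (fun t => -g1 t) (fun t => -g2 t) :=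
    ⟨fun t => (hg.k1.der t).neg, hg.k1.cont.neg, fun t ht => by simp [hg.k1.zero t ht]⟩
  have h := int_ker_mono hc hV hq (fun t ht => neg_nonpos.2 (hconv t ht)) hF (fun p hp => by
    have h1 := hc.nusq p.1 hp.1
    have h2 := hc.mupos _ (hc.mem p.1 hp.1)
    have h3 : 0 ≤ c.f p.1 := by
      have := sq_nonneg ‖c.nu p.1‖
      linarith
    positivity) hl
  have e : ∀ l, ∫ p, (c.f p.1 * c.mu (c.x p.1)) * (-4 * g1 (exp (-2 * l) * ‖c.x p.1‖ ^ 2)) ∂V =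
      ∫ p, 4 * (c.f p.1 * c.mu (c.x p.1)) * -g1 (exp (-2 * l) * ‖c.x p.1‖ ^ 2) ∂V := by
    intro l
    congr 1
    funext p
    ring
  unfold II
  rw [e l, e l']
  calc exp (-m * l) * ∫ p, 4 * (c.f p.1 * c.mu (c.x p.1)) * -g1 (exp (-2 * l) * ‖c.x p.1‖ ^ 2) ∂V ≤
      exp (-m * l) * ∫ p, 4 * (c.f p.1 * c.mu (c.x p.1)) *
        -g1 (exp (-2 * l') * ‖c.x p.1‖ ^ 2) ∂V := by
        gcongr
    _ = exp (m * (l' - l)) * (exp (-m * l') *
        ∫ p, 4 * (c.f p.1 * c.mu (c.x p.1)) * -g1 (exp (-2 * l') * ‖c.x p.1‖ ^ 2) ∂V) := by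
        rw [← mul_assoc, ← exp_add]; congr 2; ring

end GLm

end Crest.Agent.R234.Fd_534
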