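import Crest.Agent.R234.GL6_394
import Crest.Agent.R234.GI1_640

/-!
# Row 234, VF-GL, part 7 (helper394)

The cubic profile as an instance of `Pf`; the anomaly error `er1a` from a total variation measure.
-/

set_option autoImplicit false

open MeasureTheory Set Function Filter Topology
open Crest.GeometryTopology.Submanifold
open Crest.Agent.R234.Vf_884 Crest.Agent.R234.Ar_870 Crest.Agent.R234.Cy_870
open scoped ENNReal NNReal InnerProductSpace

noncomputable section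

namespace Crest.Agent.R234.GL_394

open Crest.Agent.R234.GI_640 in
/-- **the cubic profile** -/
theorem pf_cubic : Pf g3 g31 g32 6 where
  pr := prof
  nn := fun t _ => g3_nonneg t
  dom := fun t ht => by
    have h1 := g3_le ht
    have h2 := prof.anti t ht
    linarith
  b0 := fun t ht => by
    have := g3_le_one ht
    linarith
  b1 := fun t ht => by
    have := abs_g31_le ht
    rw [abs_le] at this
    linarith
  b2 := fun t ht => abs_t_g32_le ht

variable {m k : ℕ} {c : Ch m k} {K : Set (Euc k)} {D : Set (Euc m)}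
  {V : Measure (Euc k × L k)} {g g1 g2 : ℝ → ℝ} {Q l : ℝ}
  {c0 d0 hh C0 B : ℝ} {zN : Euc k → Euc k}

/-- **`er1a` from the total variation of `b`**: if `|∫ f(x)(1 - τ/2) dV - Q ∫ f j| ≤ ∫ |f| dμ` for the
test function `f = g θ` then `s^{2-m} |er1a| ≤ c0 (e / 2 + s^{2-m} ∫ g dμ)` -/
theorem er1a_le (h : Ok c K D) (hV : On V m K) (hp : Pf g g1 g2 B)
    (hk : KB c K l c0 d0 hh C0 zN) (Q : ℝ) {μ : Measure (Euc m)}
    (hμ : |∫ p, (th c (c.x p.1) * g (Real.exp (-2 * l) * ‖c.x p.1‖ ^ 2)) *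
          (1 - c.tau p.1 p.2 / 2) ∂V -
        Q * ∫ v : Euc m, (th c v * g (Real.exp (-2 * l) * ‖v‖ ^ 2)) * c.j v| ≤
      ∫ v, |th c v * g (Real.exp (-2 * l) * ‖v‖ ^ 2)| ∂μ)
    (hμi : Integrable (fun v : Euc m => g (Real.exp (-2 * l) * ‖v‖ ^ 2)) μ) :
    Real.exp ((2 - m) * l) * |er1a c V g Q l| ≤
      c0 * (ee c V g l / 2 + Real.exp ((2 - m) * l) *
        ∫ v, g (Real.exp (-2 * l) * ‖v‖ ^ 2) ∂μ) := by
  have hc0 := hk.c0n
  have i1 := h.int hV (h.liftD h.cth) hp.pr.k0.continuous l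
  have i2 := h.int hV h.ctau hp.pr.k0.continuous l
  have i3 : Integrable (fun p => (th c (c.x p.1) * c.tau p.1 p.2) *
      g (Real.exp (-2 * l) * ‖c.x p.1‖ ^ 2)) V :=
    h.int hV ((h.liftD h.cth).mul h.ctau) hp.pr.k0.continuous l
  have e1 : er1a c V g Q l =
      (∫ p, (th c (c.x p.1) * g (Real.exp (-2 * l) * ‖c.x p.1‖ ^ 2)) *
          (1 - c.tau p.1 p.2 / 2) ∂V -
        Q * ∫ v : Euc m, (th c v * g (Real.exp (-2 * l) * ‖v‖ ^ 2)) * c.j v) +
      1 / 2 * ∫ p, (th c (c.x p.1) * c.tau p.1 p.2) *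
        g (Real.exp (-2 * l) * ‖c.x p.1‖ ^ 2) ∂V := by
    unfold er1a
    have e2 : ∫ p, (th c (c.x p.1) * g (Real.exp (-2 * l) * ‖c.x p.1‖ ^ 2)) *
          (1 - c.tau p.1 p.2 / 2) ∂V =
        ∫ p, th c (c.x p.1) * g (Real.exp (-2 * l) * ‖c.x p.1‖ ^ 2) ∂V -
        1 / 2 * ∫ p, (th c (c.x p.1) * c.tau p.1 p.2) *
        g (Real.exp (-2 * l) * ‖c.x p.1‖ ^ 2) ∂V := by
      rw [← integral_const_mul, ← integral_sub i1 (i3.const_mul _)]
      refine integral_congr_ae (Eventually.of_forall fun p => ?_)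
      simp only
      ring
    have e3 : ∫ v : Euc m, (th c v * g (Real.exp (-2 * l) * ‖v‖ ^ 2)) * c.j v =
        ∫ v : Euc m, th c v * c.j v * g (Real.exp (-2 * l) * ‖v‖ ^ 2) :=
      integral_congr_ae (Eventually.of_forall fun v => by simp only; ring)
    rw [e2, e3]
    ring
  have b1 : |∫ p, (th c (c.x p.1) * c.tau p.1 p.2) *
        g (Real.exp (-2 * l) * ‖c.x p.1‖ ^ 2) ∂V| ≤
      c0 * ∫ p, c.tau p.1 p.2 * g (Real.exp (-2 * l) * ‖c.x p.1‖ ^ 2) ∂V := by
    rw [← integral_const_mul, ← Real.norm_eq_abs]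
    refine norm_integral_le_of_norm_le (i2.const_mul _) ?_
    filter_upwards [hV.mem] with p hpm
    rw [Real.norm_eq_abs, abs_mul, abs_mul]
    by_cases hr : ‖c.x p.1‖ ≤ Real.exp l
    · have hg0 := hp.nn (Real.exp (-2 * l) * ‖c.x p.1‖ ^ 2) (by positivity)
      have ht := hk.tau0 p hpm hr
      rw [abs_of_nonneg hg0, abs_of_nonneg ht]
      calc _ ≤ c0 * c.tau p.1 p.2 * g (Real.exp (-2 * l) * ‖c.x p.1‖ ^ 2) :=
            mul_le_mul_of_nonneg_right (mul_le_mul_of_nonneg_right (hk.hth _ hr) ht) hg0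
        _ = _ := by ring
    · rw [hp.pr.k0.zero _ (t_ge hr)]
      simp
  have b2 : ∫ v, |th c v * g (Real.exp (-2 * l) * ‖v‖ ^ 2)| ∂μ ≤
      c0 * ∫ v, g (Real.exp (-2 * l) * ‖v‖ ^ 2) ∂μ := by
    rw [← integral_const_mul]
    refine integral_mono_of_nonneg (Eventually.of_forall fun v => abs_nonneg _)
      (hμi.const_mul _) (Eventually.of_forall fun v => ?_)
    simp only
    rw [abs_mul]
    by_cases hr : ‖v‖ ≤ Real.exp l
    · have hg0 := hp.nn (Real.exp (-2 * l) * ‖v‖ ^ 2) (by positivity)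
      rw [abs_of_nonneg hg0]
      exact mul_le_mul_of_nonneg_right (hk.hth _ hr) hg0
    · rw [hp.pr.k0.zero _ (t_ge hr)]
      simp
  have hE := Real.exp_pos ((2 - m) * l)
  have b3 : |er1a c V g Q l| ≤ c0 * (∫ v, g (Real.exp (-2 * l) * ‖v‖ ^ 2) ∂μ) +
      1 / 2 * (c0 * ∫ p, c.tau p.1 p.2 * g (Real.exp (-2 * l) * ‖c.x p.1‖ ^ 2) ∂V) := by
    rw [e1]
    refine (abs_add_le _ _).trans (add_le_add (hμ.trans b2) ?_)
    rw [abs_mul, abs_of_pos (by norm_num : (0:ℝ) < 1 / 2)]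
    exact mul_le_mul_of_nonneg_left b1 (by norm_num)
  unfold ee
  calc _ ≤ Real.exp ((2 - m) * l) * _ := mul_le_mul_of_nonneg_left b3 hE.le
    _ = _ := by ring

end Crest.Agent.R234.GL_394
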