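import Crest.Agent.R234.Lk1_456
import Crest.Agent.R234.Top9_395

/-!
# Row 234 (helper456): the region of a block (helper518's `Mo.reg`) for the chart of a graph

* `Kr π ρ x S w` = `{|π(z-x)| ≤ 2S, |ρ(z-x) - w(π(z-x))| ≤ S/2}`
* `Gr.isCompact_Kr`, `Gr.Kr_subset_tube`, `Gr.Kr_subset_closedBall`
* **`Gr.loc_reg`** : `Loc (ch π ρ x S w 0) U (tube π ρ x S w) (Kr π ρ x S w) V (log S)`
* `Gr.two_sided` : `| |z - x| - |ch.x z| | ≤ (2 ε + 4 κ) S` for the points of small height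
-/

set_option autoImplicit false

open MeasureTheory Filter Topology Set Function
open scoped ENNReal NNReal ContDiff InnerProductSpace
open Crest.GeometryTopology.Submanifold Crest.Agent.R234.Vf_884
open Crest.Agent.R234.Main_456

noncomputable section

namespace Crest.Agent.R234.Gi_456

variable {m n k : ℕ}

local notation "adj" => ContinuousLinearMap.adjoint

variable {π : Euc k →L[ℝ] Euc m} {ρ : Euc k →L[ℝ] Euc n} {x : Euc k} {S : ℝ} {w : Euc m → Euc n}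
  {U : Set (Euc k)} {V : Measure (Euc k × L k)} {ε η κ : ℝ}

/-- the region of a block -/
def Kr (π : Euc k →L[ℝ] Euc m) (ρ : Euc k →L[ℝ] Euc n) (x : Euc k) (S : ℝ) (w : Euc m → Euc n) :
    Set (Euc k) := {z | ‖π (z - x)‖ ≤ 2 * S ∧ ‖ρ (z - x) - w (π (z - x))‖ ≤ S / 2}

theorem norm_le_add (hf : Frame π ρ) (v : Euc k) : ‖v‖ ≤ ‖π v‖ + ‖ρ v‖ := by
  have h1 : ‖v‖ ^ 2 = ‖π v‖ ^ 2 + ‖ρ v‖ ^ 2 := by
    rw [← norm_sq_frame hf, Frame.full_apply hf]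
  refine abs_le_of_sq_le_sq' ?_ (by positivity) |>.2
  rw [h1]
  nlinarith [norm_nonneg (π v), norm_nonneg (ρ v)]

theorem Gr.Kr_subset_tube (h : Gr S w) : Kr π ρ x S w ⊆ tube π ρ x S w := by
  intro z hz
  have := h.pos
  exact lt_of_le_of_lt hz.2 (by linarith)

theorem Gr.Kr_subset_closedBall (h : Gr S w) (hf : Frame π ρ)
    (hw : ∀ X : Euc m, ‖X‖ ≤ 3 * S → ‖w X‖ ≤ S / 8) :
    Kr π ρ x S w ⊆ Metric.closedBall x (21 / 8 * S) := by
  intro z hz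
  have hS := h.pos
  rw [mem_closedBall_iff_norm]
  refine (norm_le_add hf (z - x)).trans ?_
  have h1 := hw (π (z - x)) (hz.1.trans (by linarith))
  have h2 := norm_le_norm_add_norm_sub' (ρ (z - x)) (w (π (z - x)))
  have h3 := hz.1
  have h4 := hz.2
  linarith

theorem Gr.isCompact_Kr (h : Gr S w) (hf : Frame π ρ)
    (hw : ∀ X : Euc m, ‖X‖ ≤ 3 * S → ‖w X‖ ≤ S / 8) : IsCompact (Kr π ρ x S w) := by
  have hc : Continuous w := h.cd.continuous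
  refine Metric.isCompact_of_isClosed_isBounded ?_
    (Metric.isBounded_closedBall.subset (h.Kr_subset_closedBall hf hw))
  have c1 : Continuous fun z : Euc k => ‖π (z - x)‖ := by fun_prop
  have c2 : Continuous fun z : Euc k => ‖ρ (z - x) - w (π (z - x))‖ := by fun_prop
  exact (isClosed_le c1 continuous_const).inter (isClosed_le c2 continuous_const)

/-- points of the tube over `{|ch.x| ≤ S}` lie in the ball of radius `4 S` -/
theorem Gr.foot_le_x (z : Euc k) :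
    ‖foot π ρ x S w z‖ ≤ ‖(ch π ρ x S w 0).x z‖ := by
  have h1 := le_norm_Lo (fderiv ℝ w 0) (foot π ρ x S w z - 0)
  have h2 : ‖foot π ρ x S w z‖ = ‖foot π ρ x S w z - 0‖ := by rw [sub_zero]
  rw [h2]
  exact h1

theorem Gr.x_le_foot (hκ : ‖fderiv ℝ w 0‖ ≤ κ) (z : Euc k) :
    ‖(ch π ρ x S w 0).x z‖ ≤ (1 + κ) * ‖foot π ρ x S w z‖ := by
  have hκ0 : 0 ≤ κ := (norm_nonneg _).trans hκ
  show ‖Lo (fderiv ℝ w 0) (foot π ρ x S w z - 0)‖ ≤ _
  rw [sub_zero]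
  set X := foot π ρ x S w z
  have h1 := norm_Lo_sq (fderiv ℝ w 0) X
  have h2 : ‖fderiv ℝ w 0 X‖ ≤ κ * ‖X‖ :=
    (ContinuousLinearMap.le_opNorm _ _).trans (by gcongr)
  have h3 : ‖fderiv ℝ w 0 X‖ ^ 2 ≤ (κ * ‖X‖) ^ 2 := pow_le_pow_left₀ (norm_nonneg _) h2 2
  refine abs_le_of_sq_le_sq' ?_ (by positivity) |>.2
  nlinarith [mul_nonneg hκ0 (sq_nonneg ‖X‖)]

theorem Gr.near_x (h : Gr S w) (hf : Frame π ρ)
    (hw : ∀ X : Euc m, ‖X‖ ≤ 3 * S → ‖w X‖ ≤ S / 8) {z : Euc k}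
    (hz : z ∈ tube π ρ x S w) (hx : ‖foot π ρ x S w z‖ ≤ S) : ‖z - x‖ < 4 * S := by
  have hS := h.pos
  have h1 := h.norm_foot_sub hz
  have h2 : ‖ρ (z - x) - w (π (z - x))‖ < S := hz
  have h3 : ‖π (z - x)‖ ≤ 5 / 4 * S := by
    have := norm_le_norm_add_norm_sub (foot π ρ x S w z) (π (z - x))
    linarith
  have h4 := hw (π (z - x)) (by linarith)
  have h5 := norm_le_norm_add_norm_sub' (ρ (z - x)) (w (π (z - x)))
  have h6 := norm_le_add hf (z - x)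
  linarith

/-- heights of the points of small vertical coordinate -/
theorem Gr.hgt_le
    (hw : ∀ X : Euc m, ‖X‖ ≤ 3 * S → ‖w X‖ ≤ η * S) {z : Euc k}
    (hz : ‖ρ (z - x)‖ ≤ ε * S) (hx : ‖π (z - x)‖ ≤ 3 * S) :
    ‖ρ (z - x) - w (π (z - x))‖ ≤ (ε + η) * S := by
  have h1 := hw (π (z - x)) hx
  have h2 := norm_sub_le (ρ (z - x)) (w (π (z - x)))
  linarith

/-- **(L1)** -/
theorem Gr.loc_reg (h : Gr S w) (hf : Frame π ρ) (hV : Stat m k U V) (hU : IsOpen U)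
    (hxU : Metric.closedBall x (8 * S) ⊆ U)
    (hsup : ∀ᵐ p ∂V, p.1 ∈ Metric.ball x (4 * S) → ‖ρ (p.1 - x)‖ ≤ ε * S) (hε : ε ≤ 1 / 8)
    (hw : ∀ X : Euc m, ‖X‖ ≤ 3 * S → ‖w X‖ ≤ S / 8) :
    GL_394.Loc (ch π ρ x S w 0) U (tube π ρ x S w) (Kr π ρ x S w) V (Real.log S) where
  st := hV
  opU := hU
  cpt := h.isCompact_Kr hf hw
  sub := fun z hz => ⟨h.Kr_subset_tube hz, hxU (Metric.closedBall_subset_closedBall
    (by have := h.pos; linarith) (h.Kr_subset_closedBall hf hw hz))⟩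
  gap := by
    have hS := h.pos
    filter_upwards [hsup] with p hp h1 h2
    rw [Real.exp_log hS] at h2
    have h3 : ‖foot π ρ x S w p.1‖ ≤ S := (Gr.foot_le_x p.1).trans h2
    have h4 := h.near_x hf hw h1.1 h3
    have h5 := hp (mem_ball_iff_norm.2 h4)
    have h6 : ‖ρ (p.1 - x) - w (π (p.1 - x))‖ < S := h1.1
    have h7 := h.norm_foot_sub h1.1
    have h8 : ‖π (p.1 - x)‖ ≤ 5 / 4 * S := by
      have := norm_le_norm_add_norm_sub (foot π ρ x S w p.1) (π (p.1 - x))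
      linarith
    have h9 := Gr.hgt_le (η := 1 / 8) (fun X hX => (hw X hX).trans (by linarith)) h5
      (by linarith)
    refine ⟨by linarith, h9.trans ?_⟩
    have : (ε + 1 / 8) * S ≤ (1 / 8 + 1 / 8) * S := by gcongr
    linarith

/-- a.e. heights over the region -/
theorem Gr.ae_hgt (h : Gr S w) (hf : Frame π ρ)
    (hsup : ∀ᵐ p ∂V, p.1 ∈ Metric.ball x (4 * S) → ‖ρ (p.1 - x)‖ ≤ ε * S)
    (hw8 : ∀ X : Euc m, ‖X‖ ≤ 3 * S → ‖w X‖ ≤ S / 8)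
    (hw : ∀ X : Euc m, ‖X‖ ≤ 3 * S → ‖w X‖ ≤ η * S) :
    ∀ᵐ p ∂V, p.1 ∈ Kr π ρ x S w →
      ‖ρ (p.1 - x)‖ ≤ ε * S ∧ ‖ρ (p.1 - x) - w (π (p.1 - x))‖ ≤ (ε + η) * S ∧
        ‖yy π ρ x S w p.1‖ ≤ 9 / 8 * ((ε + η) * S) := by
  have hS := h.pos
  filter_upwards [hsup] with p hp h1
  have h2 := h.Kr_subset_closedBall hf hw8 h1
  rw [mem_closedBall_iff_norm] at h2
  have h3 := hp (mem_ball_iff_norm.2 (by linarith))
  have h4 := Gr.hgt_le hw h3 (h1.1.trans (by linarith))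
  refine ⟨h3, h4, (h.norm_yy_le (h.Kr_subset_tube h1)).trans ?_⟩
  linarith

/-- **the two distances** -/
theorem Gr.two_sided (h : Gr S w) (hf : Frame π ρ) (hκ : κ ≤ 1 / 8) (hε0 : 0 ≤ ε)
    (hd : ∀ X : Euc m, ‖X‖ ≤ 3 * S → ‖fderiv ℝ w X‖ ≤ κ) (h0 : ‖w 0‖ ≤ κ * S) {z : Euc k}
    (hz : z ∈ tube π ρ x S w) (hρ : ‖ρ (z - x)‖ ≤ ε * S) (hε : ε ≤ 1 / 16)
    (hπ : ‖π (z - x)‖ ≤ 2 * S) :
    |‖z - x‖ - ‖(ch π ρ x S w 0).x z‖| ≤ (2 * ε + 4 * κ) * S := by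
  have hS := h.pos
  have hκ0 : 0 ≤ κ := (norm_nonneg _).trans (hd 0 (by simp; positivity))
  -- `|w X| ≤ κ S + κ |X|`
  have hw : ∀ X : Euc m, ‖X‖ ≤ 3 * S → ‖w X‖ ≤ κ * S + κ * ‖X‖ := by
    intro X hX
    have h1 := (convex_closedBall (0 : Euc m) (3 * S)).norm_image_sub_le_of_norm_fderiv_le
      (𝕜 := ℝ) (f := w) (C := κ) (fun y _ => h.differentiable y)
      (fun y hy => hd y (mem_closedBall_zero_iff.1 hy))
      (Metric.mem_closedBall_self (by positivity)) (mem_closedBall_zero_iff.2 hX)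
    rw [sub_zero] at h1
    have h2 := norm_le_norm_add_norm_sub' (w X) (w 0)
    linarith
  have e1 := hw (π (z - x)) (by linarith)
  have e2 : ‖ρ (z - x) - w (π (z - x))‖ ≤ (ε + 3 * κ) * S := by
    have h2 := norm_sub_le (ρ (z - x)) (w (π (z - x)))
    nlinarith
  have e3 := h.norm_yy_le hz
  have e4 := h.norm_foot_sub' hz
  have e5 := h.norm_foot_sub hz
  set X := foot π ρ x S w z with hX
  have e2' : (ε + 3 * κ) * S ≤ S := by nlinarith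
  have e6 : ‖X‖ ≤ 9 / 4 * S := by
    have := norm_le_norm_add_norm_sub' X (π (z - x))
    linarith
  have e7 : ‖X - π (z - x)‖ ≤ κ * (9 / 8 * ((ε + 3 * κ) * S)) := by
    refine e4.trans ?_
    have h1 := hd X (by linarith)
    have h2 : ‖yy π ρ x S w z‖ ≤ 9 / 8 * ((ε + 3 * κ) * S) := by linarith
    exact mul_le_mul h1 h2 (norm_nonneg _) hκ0
  have e8 := Gr.foot_le_x (π := π) (ρ := ρ) (x := x) (S := S) (w := w) z
  have e9 := Gr.x_le_foot (π := π) (ρ := ρ) (x := x) (S := S) (κ := κ) (hd 0 (by simp; positivity)) z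
  rw [← hX] at e8 e9
  have e10 := norm_le_add hf (z - x)
  have e11 := norm_pi_le' hf (z - x)
  have e12 := norm_le_norm_add_norm_sub' X (π (z - x))
  have e13 := norm_le_norm_add_norm_sub X (π (z - x))
  have e14 : κ * ‖X‖ ≤ κ * (9 / 4 * S) := by gcongr
  have e15 : κ * (9 / 8 * ((ε + 3 * κ) * S)) ≤ 1 / 8 * (9 / 8 * ((ε + 3 * κ) * S)) := by
    gcongr
  have e16 : 0 ≤ κ * S := by positivity
  have e17 : 0 ≤ ε * S := by positivity
  rw [abs_le]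
  constructor <;> nlinarith

end Crest.Agent.R234.Gi_456
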