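import Crest.Agent.R234.Pers1_540

/-!
Row 234, VF-PERS (helper540), file 2: boxes, support points, slabs: a measure with a lower density
which is invariant under horizontal translations has finitely many heights.
-/

set_option autoImplicit false

open MeasureTheory Set Filter Topology Crest.GeometryTopology.Submanifold Metric
open scoped ENNReal InnerProductSpace NNReal

noncomputable section

namespace Crest.Agent.R234.Pers_540

open Vf_884 Strat3_842

variable {m k : ℕ} {U : Set (Euc k)} {V : Measure (Euc k × L k)} {P : L k}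

/-! ### tilt -/

theorem continuous_tilt (P : L k) : Continuous fun p : Euc k × L k => tilt P p := by
  unfold tilt
  exact tr.continuous.comp (continuous_const.clm_comp continuous_snd)

theorem tilt_nonneg {p : Euc k × L k} (hp : p.2 ∈ G m k) (hP : P ∈ G m k) : 0 ≤ tilt P p :=
  tr_perp_nonneg hp hP

theorem sub_sq_le_tilt {S : L k} (hS : S ∈ G m k) (hP : P ∈ G m k) (x w : Euc k) :
    ‖S w - P w‖ ^ 2 ≤ 2 * tilt P (x, S) * ‖w‖ ^ 2 := by
  have h := norm_sq_le_tr (A := S - P) (sub_symm hS hP) w
  rw [tr_sub_sq hS hP] at h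
  simpa [tilt] using h

theorem eq_of_tilt {p : Euc k × L k} (hp : p.2 ∈ G m k) (hP : P ∈ G m k) (h : tilt P p = 0) :
    p.2 = P := by
  ext1 w
  have h1 := sub_sq_le_tilt hp hP p.1 w
  have h2 : tilt P (p.1, p.2) = 0 := h
  rw [h2, mul_zero, zero_mul] at h1
  have h3 : ‖p.2 w - P w‖ = 0 := by
    have := sq_nonneg ‖p.2 w - P w‖
    exact pow_eq_zero_iff (two_ne_zero) |>.1 (le_antisymm h1 this)
  exact sub_eq_zero.1 (norm_eq_zero.1 h3)

theorem tilt_le {p : Euc k × L k} (hp : p.2 ∈ G m k) (hP : P ∈ G m k) : tilt P p ≤ m := by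
  have h1 : tilt P p = tr p.2 - tr (P ∘L p.2) := by
    have e : (ContinuousLinearMap.id ℝ (Euc k) - P) ∘L p.2 = p.2 - P ∘L p.2 := by
      ext1 x; simp
    unfold tilt
    rw [e, map_sub]
  have h2 : 0 ≤ tr (P ∘L p.2) := by
    have e2 : tr (P ∘L p.2) = tr ((p.2 ∘L P) ∘L p.2) := by
      rw [tr_comm (p.2 ∘L P) p.2, ← ContinuousLinearMap.comp_assoc, hp.1, tr_comm]
    rw [e2, tr_eq_sum]
    refine Finset.sum_nonneg fun i _ => ?_
    simp only [ContinuousLinearMap.comp_apply]
    rw [← G_symm hp, ← G_idem_apply hP, ← G_symm hP, real_inner_self_eq_norm_sq]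
    positivity
  rw [h1, hp.2.2]; linarith

/-! ### boxes -/

/-- open box. -/
def Bx (P : L k) (r : ℝ) : Set (Euc k) := {x | ‖P x‖ < r ∧ ‖x - P x‖ < r}

/-- closed box. -/
def Bc (P : L k) (r : ℝ) : Set (Euc k) := {x | ‖P x‖ ≤ r ∧ ‖x - P x‖ ≤ r}

theorem isOpen_Bx (P : L k) (r : ℝ) : IsOpen (Bx P r) :=
  (isOpen_lt P.continuous.norm continuous_const).inter
    (isOpen_lt (continuous_id.sub P.continuous).norm continuous_const)

theorem isCompact_Bc (P : L k) (r : ℝ) : IsCompact (Bc P r) := by
  have hc : IsClosed (Bc P r) :=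
    (isClosed_le P.continuous.norm continuous_const).inter
      (isClosed_le (continuous_id.sub P.continuous).norm continuous_const)
  refine Metric.isCompact_of_isClosed_isBounded hc ?_
  refine (Metric.isBounded_closedBall (x := (0 : Euc k)) (r := 2 * r)).subset fun x hx => ?_
  rw [mem_closedBall_zero_iff]
  calc ‖x‖ = ‖P x + (x - P x)‖ := by congr 1; abel
    _ ≤ ‖P x‖ + ‖x - P x‖ := norm_add_le _ _
    _ ≤ r + r := add_le_add hx.1 hx.2
    _ = 2 * r := by ring

theorem Bc_subset_Bx {r s : ℝ} (h : r < s) : Bc P r ⊆ Bx P s :=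
  fun _ hx => ⟨hx.1.trans_lt h, hx.2.trans_lt h⟩

theorem Bc_mono {r s : ℝ} (h : r ≤ s) : Bc P r ⊆ Bc P s :=
  fun _ hx => ⟨hx.1.trans h, hx.2.trans h⟩

theorem Bx_subset_Bc {r : ℝ} : Bx P r ⊆ Bc P r := fun _ hx => ⟨hx.1.le, hx.2.le⟩

theorem convex_Bx (P : L k) (r : ℝ) : Convex ℝ (Bx P r) := by
  intro x hx y hy a b ha hb hab
  have e1 : P (a • x + b • y) = a • P x + b • P y := by simp
  have e2 : a • x + b • y - P (a • x + b • y) = a • (x - P x) + b • (y - P y) := by
    rw [e1, smul_sub, smul_sub]; abel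
  have key : ∀ u v : Euc k, ‖u‖ < r → ‖v‖ < r → ‖a • u + b • v‖ < r := by
    intro u v hu hv
    have : ‖a • u + b • v‖ ≤ a * ‖u‖ + b * ‖v‖ := by
      refine (norm_add_le _ _).trans ?_
      rw [norm_smul, norm_smul, Real.norm_of_nonneg ha, Real.norm_of_nonneg hb]
    refine this.trans_lt ?_
    rcases ha.eq_or_lt with h0 | h0
    · rw [← h0, zero_add] at hab
      rw [← h0, hab]; simpa using hv
    · have : a * ‖u‖ < a * r := mul_lt_mul_of_pos_left hu h0
      have h2 : b * ‖v‖ ≤ b * r := mul_le_mul_of_nonneg_left hv.le hb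
      calc a * ‖u‖ + b * ‖v‖ < a * r + b * r := add_lt_add_of_lt_of_le this h2
        _ = r := by rw [← add_mul, hab, one_mul]
  refine ⟨?_, ?_⟩
  · rw [e1]; exact key _ _ hx.1 hy.1
  · rw [e2]; exact key _ _ hx.2 hy.2

theorem sub_proj_norm_le (hP : P ∈ G m k) (x : Euc k) : ‖x - P x‖ ≤ ‖x‖ := by
  have := G_norm_sq_add hP x
  have h2 := sq_nonneg ‖P x‖
  nlinarith [norm_nonneg x, norm_nonneg (x - P x), norm_nonneg (P x)]

theorem ball_subset_Bx (hP : P ∈ G m k) {x : Euc k} {a s r : ℝ} (hx : x ∈ Bc P a)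
    (h : a + s ≤ r) : ball x s ⊆ Bx P r := by
  intro y hy
  rw [mem_ball, dist_eq_norm] at hy
  have e1 : P y = P x + P (y - x) := by simp
  have e2 : y - P y = (x - P x) + ((y - x) - P (y - x)) := by
    rw [map_sub]; abel
  refine ⟨?_, ?_⟩
  · rw [e1]
    refine (norm_add_le _ _).trans_lt ?_
    have := G_norm_apply_le hP (y - x)
    linarith [hx.1]
  · rw [e2]
    refine (norm_add_le _ _).trans_lt ?_
    have := sub_proj_norm_le hP (y - x)
    linarith [hx.2]

/-! ### support points -/

/-- support points of the mass. -/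
def Sp (V : Measure (Euc k × L k)) (x : Euc k) : Prop := ∀ s > 0, 0 < V (ball x s ×ˢ univ)

theorem map_fst_apply (V : Measure (Euc k × L k)) {S : Set (Euc k)} (hS : MeasurableSet S) :
    V.map Prod.fst S = V (S ×ˢ univ) := by
  rw [Measure.map_apply measurable_fst hS]
  congr 1; ext; simp

theorem exists_sp {S : Set (Euc k)} (h : V (S ×ˢ univ) ≠ 0) : ∃ x ∈ S, Sp V x := by
  by_contra hcon
  push Not at hcon
  apply h
  have h1 : ∀ x ∈ S, ∃ u ∈ 𝓝[S] x, V.map Prod.fst u = 0 := by
    intro x hx
    have h2 := hcon x hx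
    unfold Sp at h2
    push Not at h2
    obtain ⟨s, hs, h3⟩ := h2
    refine ⟨ball x s, mem_nhdsWithin_of_mem_nhds (ball_mem_nhds x hs), ?_⟩
    rw [map_fst_apply V measurableSet_ball]
    exact le_antisymm h3 bot_le
  have h2 := measure_null_of_locally_null S h1
  refine le_antisymm ?_ bot_le
  calc V (S ×ˢ univ) ≤ V (Prod.fst ⁻¹' (toMeasurable (V.map Prod.fst) S)) := by
        refine measure_mono fun p hp => ?_
        exact subset_toMeasurable _ _ hp.1
    _ = V.map Prod.fst (toMeasurable (V.map Prod.fst) S) :=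
        (Measure.map_apply measurable_fst (measurableSet_toMeasurable _ _)).symm
    _ = 0 := by rw [measure_toMeasurable, h2]

theorem ae_sp (V : Measure (Euc k × L k)) : ∀ᵐ p ∂V, Sp V p.1 := by
  rw [ae_iff]
  by_contra h
  have h1 : {p : Euc k × L k | ¬ Sp V p.1} = {x | ¬ Sp V x} ×ˢ univ := by ext; simp
  rw [h1] at h
  obtain ⟨x, hx, hx2⟩ := exists_sp h
  exact hx hx2

/-! ### the range of a projection -/

theorem finrank_range (hP : P ∈ G m k) :
    Module.finrank ℝ (LinearMap.range P.toLinearMap) = m := by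
  have h1 : LinearMap.IsProj (LinearMap.range P.toLinearMap) P.toLinearMap := by
    refine ⟨fun x => ⟨x, rfl⟩, fun x hx => ?_⟩
    obtain ⟨y, rfl⟩ := hx
    exact G_idem_apply hP y
  have h2 := h1.trace
  have h3 := hP.2.2
  rw [tr_apply] at h3
  have h4 : ((Module.finrank ℝ (LinearMap.range P.toLinearMap) : ℕ) : ℝ) = (m : ℝ) := by
    rw [← h2]; exact h3
  exact_mod_cast h4

/-- mass of a slab over the disc, from the lower density on the disc. -/
theorem slab_mass (hP : P ∈ G m k) (ν : Measure (Euc k)) [IsFiniteMeasure ν] {y : Euc k}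
    (hy : P y = 0) {r c a : ℝ} (hr : 0 < r) (hc : 0 ≤ c) (ha : 0 < a)
    (h : ∀ z, P z = z → ‖z‖ < a → ENNReal.ofReal (c * r ^ m) ≤ ν (ball (z + y) r)) :
    ENNReal.ofReal (c * a ^ m) ≤ ν {x | ‖x - P x - y‖ < r} := by
  set T := LinearMap.range P.toLinearMap with hT
  have hfr : Module.finrank ℝ T = m := finrank_range hP
  have hTP : ∀ z : T, P (z : Euc k) = z := by
    rintro ⟨z, w, rfl⟩
    exact G_idem_apply hP w
  set v1 := (volume : Measure T) (ball 0 1) with hv1
  have hv0 : v1 ≠ 0 := (measure_ball_pos _ _ one_pos).ne'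
  have hvt : v1 ≠ ⊤ := measure_ball_lt_top.ne
  have hball : ∀ (x : T) (s : ℝ), 0 < s → (volume : Measure T) (ball x s) =
      ENNReal.ofReal (s ^ m) * v1 := by
    intro x s hs
    have := Measure.addHaar_ball_mul_of_pos (volume : Measure T) x hs 1
    rw [mul_one] at this
    rw [this, hfr]
  set S : Set (Euc k) := {x | ‖x - P x - y‖ < r} with hS
  have hSm : MeasurableSet S :=
    (isOpen_lt ((continuous_id.sub P.continuous).sub continuous_const).norm
      continuous_const).measurableSet
  have hL : ENNReal.ofReal (c * r ^ m) * (ENNReal.ofReal (a ^ m) * v1) ≤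
      ∫⁻ z in ball (0 : T) a, ν (ball ((z : Euc k) + y) r) := by
    rw [← hball 0 a ha]
    rw [← setLIntegral_const]
    refine setLIntegral_mono' measurableSet_ball fun z hz => ?_
    refine h z (hTP z) ?_
    rw [mem_ball_zero_iff] at hz
    exact hz
  set J : Set (T × Euc k) := {q | dist q.2 ((q.1 : Euc k) + y) < r} with hJdef
  have hJ : MeasurableSet J := by
    have : IsOpen {q : T × Euc k | dist q.2 ((q.1 : Euc k) + y) < r} :=
      isOpen_lt (continuous_snd.dist ((continuous_subtype_val.comp continuous_fst).add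
        continuous_const)) continuous_const
    exact this.measurableSet
  have hJm : ∀ (z : T) (x : Euc k), (z, x) ∈ J ↔ x ∈ ball ((z : Euc k) + y) r := fun z x => Iff.rfl
  have hR : ∫⁻ z in ball (0 : T) a, ν (ball ((z : Euc k) + y) r) ≤
      ENNReal.ofReal (r ^ m) * v1 * ν S := by
    calc ∫⁻ z in ball (0 : T) a, ν (ball ((z : Euc k) + y) r)
        = ∫⁻ z in ball (0 : T) a, ∫⁻ x, J.indicator
            (fun _ => (1:ℝ≥0∞)) (z, x) ∂ν := by
          refine lintegral_congr fun z => ?_
          have e : (fun x => J.indicator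
              (fun _ => (1:ℝ≥0∞)) (z, x)) = (ball ((z : Euc k) + y) r).indicator 1 := by
            ext x
            by_cases hx : x ∈ ball ((z : Euc k) + y) r
            · rw [indicator_of_mem hx, indicator_of_mem ((hJm z x).2 hx)]; rfl
            · rw [indicator_of_notMem hx, indicator_of_notMem fun h => hx ((hJm z x).1 h)]
          rw [e, lintegral_indicator_one measurableSet_ball]
      _ = ∫⁻ x, (∫⁻ z in ball (0 : T) a, J.indicator
            (fun _ => (1:ℝ≥0∞)) (z, x)) ∂ν := by
          rw [lintegral_lintegral_swap]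
          exact (measurable_const.indicator hJ).aemeasurable
      _ ≤ ∫⁻ x, S.indicator (fun _ => ENNReal.ofReal (r ^ m) * v1) x ∂ν := by
          refine lintegral_mono fun x => ?_
          have hx0 : P x ∈ T := ⟨x, rfl⟩
          have hsub : ∀ z : T, x ∈ ball ((z : Euc k) + y) r →
              z ∈ ball (⟨P x, hx0⟩ : T) r ∧ x ∈ S := by
            intro z hz
            rw [mem_ball, dist_eq_norm] at hz
            have e1 : P (x - ((z : Euc k) + y)) = P x - z := by
              rw [map_sub, map_add, hTP, hy, add_zero]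
            have e2 : (x - ((z : Euc k) + y)) - P (x - ((z : Euc k) + y)) = x - P x - y := by
              rw [e1]; abel
            constructor
            · rw [mem_ball, dist_comm, dist_eq_norm]
              have : ‖P x - z‖ < r := by
                rw [← e1]; exact (G_norm_apply_le hP _).trans_lt hz
              simpa using this
            · change ‖x - P x - y‖ < r
              rw [← e2]
              exact (sub_proj_norm_le hP _).trans_lt hz
          by_cases hxS : x ∈ S
          · rw [indicator_of_mem hxS, ← hball ⟨P x, hx0⟩ r hr]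
            calc ∫⁻ z in ball (0 : T) a, J.indicator
                  (fun _ => (1:ℝ≥0∞)) (z, x)
                ≤ ∫⁻ z, (ball (⟨P x, hx0⟩ : T) r).indicator 1 z := by
                  refine (setLIntegral_le_lintegral _ _).trans (lintegral_mono fun z => ?_)
                  by_cases hz : x ∈ ball ((z : Euc k) + y) r
                  · rw [indicator_of_mem (hsub z hz).1]
                    exact indicator_le_self' (fun _ _ => zero_le_one) _
                  · rw [indicator_of_notMem fun h => hz ((hJm z x).1 h)]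
                    exact bot_le
              _ = volume (ball (⟨P x, hx0⟩ : T) r) := lintegral_indicator_one measurableSet_ball
          · rw [indicator_of_notMem hxS]
            refine le_of_eq ?_
            have : ∀ z : T, J.indicator
                  (fun _ => (1:ℝ≥0∞)) (z, x) = 0 := by
              intro z
              rw [indicator_of_notMem]
              intro hz
              exact hxS (hsub z hz).2
            simp only [this, lintegral_zero]
      _ = ENNReal.ofReal (r ^ m) * v1 * ν S := by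
          rw [lintegral_indicator hSm, setLIntegral_const]
  have hfin := hL.trans hR
  have hrm : 0 < r ^ m := pow_pos hr m
  have e1 : ENNReal.ofReal (c * r ^ m) * (ENNReal.ofReal (a ^ m) * v1) =
      (ENNReal.ofReal (r ^ m) * v1) * ENNReal.ofReal (c * a ^ m) := by
    rw [ENNReal.ofReal_mul hc, ENNReal.ofReal_mul hc]; ring
  rw [e1] at hfin
  refine (ENNReal.mul_le_mul_iff_right ?_ ?_).1 hfin
  · exact mul_ne_zero (ENNReal.ofReal_pos.2 hrm).ne' hv0
  · exact ENNReal.mul_ne_top ENNReal.ofReal_ne_top hvt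

/-- finitely many heights. -/
theorem finite_heights (hP : P ∈ G m k) (ν : Measure (Euc k)) [IsFiniteMeasure ν] {H : Set (Euc k)}
    (hH0 : ∀ y ∈ H, P y = 0) {c a r₀ : ℝ} (hc : 0 < c) (ha : 0 < a) (hr₀ : 0 < r₀)
    (h : ∀ y ∈ H, ∀ z, P z = z → ‖z‖ < a → ∀ r, 0 < r → r < r₀ →
      ENNReal.ofReal (c * r ^ m) ≤ ν (ball (z + y) r)) : H.Finite := by
  by_contra hinf
  have hinf : H.Infinite := hinf
  obtain ⟨N, hN⟩ := exists_nat_gt ((ν univ).toReal / (c * a ^ m))
  obtain ⟨t, htH, htN⟩ := hinf.exists_subset_card_eq N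
  -- minimal distance
  obtain ⟨δ, hδ, hδt⟩ : ∃ δ > 0, ∀ x ∈ t, ∀ y ∈ t, x ≠ y → δ ≤ ‖x - y‖ := by
    by_cases hne : (t.offDiag).Nonempty
    · obtain ⟨q, hq, hqm⟩ := (t.offDiag).exists_min_image (fun q => ‖q.1 - q.2‖) hne
      refine ⟨‖q.1 - q.2‖, ?_, fun x hx y hy hxy => hqm (x, y) ?_⟩
      · rw [Finset.mem_offDiag] at hq
        exact norm_pos_iff.2 (sub_ne_zero.2 hq.2.2)
      · rw [Finset.mem_offDiag]; exact ⟨hx, hy, hxy⟩
    · refine ⟨1, one_pos, fun x hx y hy hxy => (hne ⟨(x, y), ?_⟩).elim⟩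
      rw [Finset.mem_offDiag]; exact ⟨hx, hy, hxy⟩
  set r := min (r₀ / 2) (δ / 2) with hr
  have hr0 : 0 < r := by positivity
  have hr1 : r < r₀ := (min_le_left _ _).trans_lt (by linarith)
  have hr2 : r ≤ δ / 2 := min_le_right _ _
  set S : Euc k → Set (Euc k) := fun y => {x | ‖x - P x - y‖ < r} with hS
  have hSm : ∀ y, MeasurableSet (S y) := fun y =>
    (isOpen_lt ((continuous_id.sub P.continuous).sub continuous_const).norm
      continuous_const).measurableSet
  have hdis : Set.PairwiseDisjoint (t : Set (Euc k)) S := by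
    intro x hx y hy hxy
    rw [Function.onFun, Set.disjoint_left]
    intro w hw1 hw2
    have h1 := hδt x hx y hy hxy
    have hw1' : ‖w - P w - x‖ < r := hw1
    have hw2' : ‖w - P w - y‖ < r := hw2
    have h2 : ‖x - y‖ ≤ ‖w - P w - y‖ + ‖w - P w - x‖ := by
      calc ‖x - y‖ = ‖(w - P w - y) - (w - P w - x)‖ := by congr 1; abel
        _ ≤ _ := norm_sub_le _ _
    linarith
  have h1 : ∑ y ∈ t, ENNReal.ofReal (c * a ^ m) ≤ ν univ := by
    calc ∑ y ∈ t, ENNReal.ofReal (c * a ^ m) ≤ ∑ y ∈ t, ν (S y) := by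
          refine Finset.sum_le_sum fun y hy => ?_
          exact slab_mass hP ν (hH0 y (htH hy)) hr0 hc.le ha
            fun z hz hza => h y (htH hy) z hz hza r hr0 hr1
      _ = ν (⋃ y ∈ t, S y) := (measure_biUnion_finset hdis fun y _ => hSm y).symm
      _ ≤ ν univ := measure_mono (subset_univ _)
  rw [Finset.sum_const, htN, nsmul_eq_mul] at h1
  have hcam : 0 < c * a ^ m := by positivity
  have h2 : (N : ℝ) * (c * a ^ m) ≤ (ν univ).toReal := by
    have := ENNReal.toReal_mono (measure_ne_top ν univ) h1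
    rw [ENNReal.toReal_mul, ENNReal.toReal_natCast, ENNReal.toReal_ofReal hcam.le] at this
    exact this
  rw [div_lt_iff₀ hcam] at hN
  linarith

end Crest.Agent.R234.Pers_540
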