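import Crest.Agent.R234.Stp1_518
import Crest.Agent.R234.Nb5_290

/-!
# Row 234, F7-STEPV (helper518), part 2: the V-level inputs of the step, literal Props

* `Sit` : the point `x`, the flat package at the unit of the block in the frame of `M`.
* `GLP`  (290) : `StepW` of one reference on a window below its domain.
* `SupP` (685) : sharp bound of the heights over the cylinder.
* `SwP`  (733) : the functionals change little under a selection (same frame).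
* `BlkP` (159, 842, 182) : rotation of the reference to its tangent plane + new unit.
-/

set_option autoImplicit false
set_option linter.unusedVariables false

open MeasureTheory Filter Topology Set
open scoped ENNReal NNReal ContDiff
open Crest.GeometryTopology.Submanifold Crest.Agent.R234.Vf_884
open Crest.Agent.R234.Main_456 (Frame Msys hgt)
open Crest.Agent.R234.MG_570 (MG)
open Crest.Agent.R234.F10d_188 (flatL)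

noncomputable section

namespace Crest.Agent.R234.Stp_518

variable {m n k : ℕ}

/-- the situation of a reference at `x`: everything that does not involve the level. -/
structure Sit (U : Set (Euc k)) (D : VarifoldData m k) (Q : ℕ) (x : Euc k) (M : Mo m n k)
    (ε Λ : ℝ) : Prop where
  opn : IsOpen U
  int : IsIntegralVarifoldIn U D
  st : IsStationaryIn U D
  Q1 : 1 ≤ Q
  Th : Th m (VD D) x = (Q : ℝ≥0∞)
  sub : Metric.closedBall x (8 * M.S) ⊆ U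
  pack : Top_395.FlatPack D x Q M.S ε Λ M.π M.ρ

/-- mean error with the number of derivatives explicit. -/
def MeanK (Ks : ℕ) (M : Mo m n k) (x : Euc k) (V : Measure (Euc k × L k)) (R τ : ℝ) : Prop :=
  ∀ ζ : Euc m → ℝ, ContDiff ℝ ∞ ζ → tsupport ζ ⊆ Metric.ball 0 R →
    (∀ j ≤ Ks, ∀ z, ‖iteratedFDeriv ℝ j ζ z‖ ≤ 1) → ‖M.mean x V ζ‖ ≤ M.S ^ m * τ

/-- **F7-GL** (owner 290). -/
def GLP : Prop := ∀ (m n Q : ℕ), 3 ≤ m → 1 ≤ n → 1 ≤ Q → ∃ N₀ : ℕ, ∀ N : ℕ, N₀ ≤ N →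
  ∀ T Λ : ℝ, ∃ C₀ Cδ : ℝ, 1 ≤ C₀ ∧ 0 ≤ Cδ ∧ ∀ q : ℕ, ∃ κ₀ ε L₁ : ℝ, 0 < κ₀ ∧ 0 < ε ∧
    ∀ (U : Set (Euc (m + n))) (D : VarifoldData m (m + n)) (x : Euc (m + n))
      (M : Mo m n (m + n)) (a cT K : ℝ),
      Sit U D Q x M ε Λ → 0 ≤ M.κ → M.κ ≤ κ₀ → MG N M.κ (Real.exp (cT - M.lb)) M.u →
      4 ≤ K → a ≤ cT - 1 / K → M.lb - T ≤ a → cT ≤ M.lb → 0 < M.I x (VD D) cT →
      L₁ ≤ lam (M.I x (VD D)) cT → K ≤ lam (M.I x (VD D)) cT ^ 3 →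
      ∃ (R : ℝ → ℝ) (w : ℝ), 0 ≤ w ∧
        w ≤ (lam (M.I x (VD D)) cT ^ q)⁻¹ * M.I x (VD D) cT ∧
        Nb_290.StepW C₀ a (cT - 1 / K) (Cδ * (M.κ * Real.exp (cT - M.lb) + ‖fderiv ℝ M.u 0‖)) w
          (M.I x (VD D)) (M.E x (VD D) Q) (M.e x (VD D)) (M.b x (VD D) Q) R

/-- **sharp bound of the heights** (owner 685). -/
def SupP : Prop := ∀ (m n Q : ℕ), 3 ≤ m → 1 ≤ n → 1 ≤ Q → ∃ N₀ : ℕ, ∀ N : ℕ, N₀ ≤ N →
  ∀ T Λ : ℝ, ∃ C κ₀ ε : ℝ, 0 < C ∧ 0 < κ₀ ∧ 0 < ε ∧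
    ∀ (U : Set (Euc (m + n))) (D : VarifoldData m (m + n)) (x : Euc (m + n))
      (M : Mo m n (m + n)) (cT K : ℝ),
      Sit U D Q x M ε Λ → 0 ≤ M.κ → M.κ ≤ κ₀ → MG N M.κ (Real.exp (cT - M.lb)) M.u →
      4 ≤ K → M.lb - T ≤ cT - 1 → cT ≤ M.lb → ‖fderiv ℝ M.u 0‖ ≤ κ₀ / K →
      SupLe M x (VD D) (Real.exp (cT - 1 / K - M.lb)) (κ₀ / K) →
      ∀ᵐ p ∂(VD D), ‖M.π (p.1 - x)‖ ≤ Real.exp (cT - 1 / K) → ‖M.ρ (p.1 - x)‖ ≤ M.S →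
        ‖hgt M.π M.ρ x M.S M.u p.1‖ ^ 2 ≤ C * K ^ (m + 2) * M.I x (VD D) cT

/-- **SWITCH** (owner 733): `M`, `M'` in the same frame and unit, both minimal above `e^l`, close in
the class, both means small. -/
def SwP : Prop := ∀ (m n Q : ℕ), 3 ≤ m → 1 ≤ n → 1 ≤ Q → ∃ N₀ : ℕ, ∀ N : ℕ, N₀ ≤ N →
  ∀ (Ks p₀ q : ℕ) (T Λ G : ℝ), ∃ q₁ : ℕ, ∃ κ₀ ε L₁ : ℝ, 0 < κ₀ ∧ 0 < ε ∧
    ∀ (U : Set (Euc (m + n))) (D : VarifoldData m (m + n)) (x : Euc (m + n))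
      (M M' : Mo m n (m + n)) (l K A : ℝ),
      Sit U D Q x M ε Λ → M'.π = M.π → M'.ρ = M.ρ → M'.lb = M.lb →
      0 ≤ M.κ → M.κ ≤ κ₀ → 0 ≤ M'.κ → M'.κ ≤ κ₀ →
      MG N M.κ (Real.exp (l + 1 / K - M.lb)) M.u →
      MG N M'.κ (Real.exp (l - M.lb) * (1 + 1 / (8 * K))) M'.u →
      MG N A 0 (fun y => M'.u y - M.u y) →
      A ≤ lam (M.I x (VD D)) l ^ p₀ * Real.exp (-(lam (M.I x (VD D)) l / 2)) →
      32 ≤ K → K ≤ 4 * lam (M.I x (VD D)) l ^ 2 → M.lb - T ≤ l → l + 1 / K ≤ M.lb →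
      0 < M.I x (VD D) l → L₁ ≤ lam (M.I x (VD D)) l →
      Real.log (M.I x (VD D) (l + 3 / (4 * K))) ≤ Real.log (M.I x (VD D) l) + G →
      (∀ y ∈ Icc (l - 2 / K) l, M.I x (VD D) l ≤ Real.exp G * M.I x (VD D) y) →
      ‖fderiv ℝ M.u 0‖ ≤ κ₀ / K →
      SupLe M x (VD D) (Real.exp (l + 1 / (2 * K) - M.lb))
        (Real.exp (-(lam (M.I x (VD D)) l / 8))) →
      MeanK Ks M x (VD D) (Real.exp (l - M.lb) * (1 + 1 / (8 * K)))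
        ((lam (M.I x (VD D)) l ^ q₁)⁻¹ * √(M.I x (VD D) l)) →
      MeanK Ks M' x (VD D) (Real.exp (l - M.lb) * (1 + 1 / (8 * K)))
        ((lam (M.I x (VD D)) l ^ q₁)⁻¹ * √(M.I x (VD D) l)) →
      Near (M.I x (VD D)) (M.E x (VD D) Q) (M'.I x (VD D)) (M'.E x (VD D) Q) l K
        (lam (M.I x (VD D)) l ^ q)⁻¹

/-- **BLOCK CHANGE** (owners 159, 842, 182): rotation to the tangent plane at the foot of `x`, new
unit `lb' = l - 2 / K + 1 / 8`; the surface is unchanged. -/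
def BlkP : Prop := ∀ (m n Q : ℕ), 3 ≤ m → 1 ≤ n → 1 ≤ Q → ∃ N₀ : ℕ, ∀ N : ℕ, N₀ ≤ N →
  ∃ C₁ T₀ : ℝ, 1 ≤ C₁ ∧ ∀ (Ks q : ℕ) (T Λ G : ℝ), 1 ≤ Ks → T₀ ≤ T → ∃ q₁ : ℕ, ∃ κ₀ ε L₁ : ℝ,
    0 < κ₀ ∧ 0 < ε ∧
    ∀ (U : Set (Euc (m + n))) (D : VarifoldData m (m + n)) (x : Euc (m + n))
      (M : Mo m n (m + n)) (l K : ℝ),
      Sit U D Q x M ε Λ → 0 ≤ M.κ → M.κ ≤ κ₀ →
      MG N M.κ (Real.exp (l + 1 / K - M.lb) * (1 + 1 / (8 * K))) M.u →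
      ‖fderiv ℝ M.u 0‖ ≤ (lam (M.I x (VD D)) l ^ q₁)⁻¹ →
      32 ≤ K → K ≤ 2 * lam (M.I x (VD D)) l ^ 2 → M.lb - T ≤ l → l ≤ M.lb - T + 1 →
      0 < M.I x (VD D) l → L₁ ≤ lam (M.I x (VD D)) l →
      Real.log (M.I x (VD D) (l + 1 / K)) ≤ Real.log (M.I x (VD D) l) + G →
      (∀ y ∈ Icc (l - 2 / K) l, M.I x (VD D) l ≤ Real.exp G * M.I x (VD D) y) →
      SupLe M x (VD D) (Real.exp (l + 1 / K - M.lb) * (1 + 1 / (8 * K)))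
        (Real.exp (-(lam (M.I x (VD D)) l / 4))) →
      MeanK Ks M x (VD D) (Real.exp (l + 1 / K - M.lb) * (1 + 1 / (8 * K)))
        ((lam (M.I x (VD D)) l ^ q₁)⁻¹ * √(M.I x (VD D) l)) →
      ∃ M' : Mo m n (m + n), M'.lb = l - 2 / K + 1 / 8 ∧ Frame M'.π M'.ρ ∧
        0 ≤ M'.κ ∧ M'.κ ≤ C₁ * Real.exp (M'.lb - M.lb) * M.κ + (lam (M.I x (VD D)) l ^ q)⁻¹ ∧
        MG N M'.κ (Real.exp (l + 1 / K - M'.lb) * (1 + 1 / (16 * K))) M'.u ∧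
        fderiv ℝ M'.u 0 = 0 ∧
        Near (M.I x (VD D)) (M.E x (VD D) Q) (M'.I x (VD D)) (M'.E x (VD D) Q) l K
          (lam (M.I x (VD D)) l ^ q)⁻¹ ∧
        M'.I x (VD D) (l + 3 / (4 * K)) ≤ 2 * Real.exp m * M.I x (VD D) (l + 1 / K) ∧
        SupLe M' x (VD D) (Real.exp (l + 3 / (4 * K) - M'.lb))
          (Real.exp (-(lam (M.I x (VD D)) l / 5))) ∧
        MeanK Ks M' x (VD D) (Real.exp (l + 3 / (4 * K) - M'.lb))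
          ((lam (M.I x (VD D)) l ^ q)⁻¹ * √(M.I x (VD D) l))

end Crest.Agent.R234.Stp_518
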