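import Crest.Agent.R234.End8_395
import Crest.Agent.R234.End6_395
import Crest.Agent.R234.Stp2_518
import Crest.Agent.R234.Fd1_534
import Crest.Agent.R234.Lr1_456
import Crest.Agent.R234.GL7_394
import Crest.Agent.R234.Pers2_540

/-!
# Row 234 (helper395), (END), part 9: facts on 518's references `Mo`

* `FlatPack.mono`, `near_sub` : smaller accuracy, smaller ball.
* `mo_gr` : class bounds of `M.w`; `mo_ms` : minimality of `M.w`.
* `mo_loc` : `Loc` for `M.ch x`, `M.reg x`; `mo_mono` : growth of `I` from below.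
* `mo_in` : the points of `M.reg` with small foot.
-/

set_option autoImplicit false
set_option linter.unusedSectionVars false

open MeasureTheory Set Filter Topology
open scoped ENNReal NNReal ContDiff
open Crest.GeometryTopology.Submanifold Crest.Agent.R234.Vf_884
open Crest.Agent.R234.Strat3_842 (tilt height)
open Crest.Agent.R234.AS_456 (hp vp)
open Crest.Agent.R234.Main_456 Crest.Agent.R234.Top_395 Crest.Agent.R234.Stp_518
open Crest.Agent.R234.Gi_456
open Crest.Agent.R234.MG_570 (MG)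

noncomputable section

namespace Crest.Agent.R234.End_395

variable {m n k : ℕ}

theorem FlatPack.mono {D : VarifoldData m k} {x : Euc k} {Q : ℕ} {t ε ε' Λ : ℝ}
    {π : Euc k →L[ℝ] Euc m} {ρ : Euc k →L[ℝ] Euc n} (h : FlatPack D x Q t ε Λ π ρ)
    (ht : 0 ≤ t) (hε : ε ≤ ε') : FlatPack D x Q t ε' Λ π ρ where
  frame := h.frame
  sup := fun z h1 h2 => (h.sup z h1 h2).trans (by gcongr)
  supae := by
    filter_upwards [h.supae] with p hp h1
    exact (hp h1).trans (by gcongr)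
  near := ⟨h.near.1, h.near.2.1.trans (by gcongr), h.near.2.2.trans (by gcongr)⟩
  cyl := by
    intro A hA
    obtain ⟨h1, h2, h3, h4, h5, h6⟩ := h.cyl A hA
    refine ⟨h1, h2, h3, h4, ?_, h6⟩
    filter_upwards [h5] with p hp
    exact hp.trans hε
  mass_le := h.mass_le
  le_mass := h.le_mass

/-- `NearQ` on a smaller ball. -/
theorem near_sub {U : Set (Euc k)} {V : Measure (Euc k × L k)} {x : Euc k} {P : L k} {Q : ℕ}
    (hV : Stat m k U V) (hm : 1 ≤ m) {R r A ε : ℝ} (hr : 0 < r) (hrR : r ≤ R) (hRA : R ≤ A * r)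
    (hU : Metric.closedBall x R ⊆ U) (hε : 0 ≤ ε) (h : NearQ m V Q x R ε P) {ε' : ℝ}
    (h1 : ε ≤ ε') (h2 : A ^ (m + 2) * ε ≤ ε') : NearQ m V Q x r ε' P := by
  have hR : 0 < R := hr.trans_le hrR
  have hfin : V (Metric.ball x R ×ˢ univ) < ⊤ := by
    rw [Top_395.prod_eq]; exact fin_ball hV hU Metric.ball_subset_closedBall
  refine ⟨h.1, ?_, ?_⟩
  · have i1 : IntegrableOn (fun p => R ^ 2 * tilt P p) (Metric.ball x R ×ˢ univ) V :=
      Strat3_842.integrableOn_of_bdd hV.conc hfin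
        (continuous_const.mul (Strat3_842.continuous_tilt P))
    have i2 : IntegrableOn (fun p => height P x p) (Metric.ball x R ×ˢ univ) V :=
      Strat3_842.integrableOn_of_bdd hV.conc hfin (Strat3_842.continuous_height P x)
    have i3 : IntegrableOn (fun p => r ^ 2 * tilt P p) (Metric.ball x R ×ˢ univ) V :=
      Strat3_842.integrableOn_of_bdd hV.conc hfin
        (continuous_const.mul (Strat3_842.continuous_tilt P))
    have ht : ∀ᵐ p ∂V, 0 ≤ tilt P p := by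
      filter_upwards [hV.conc] with p hp using Pers_540.tilt_nonneg hp h.1
    have hh : ∀ p : Euc k × L k, 0 ≤ height P x p := fun p => by unfold height; positivity
    have e1 : ∫ p in Metric.ball x r ×ˢ univ, (r ^ 2 * tilt P p + height P x p) ∂V ≤
        ∫ p in Metric.ball x R ×ˢ univ, (r ^ 2 * tilt P p + height P x p) ∂V := by
      refine setIntegral_mono_set (i3.add i2) ?_
        (Set.prod_mono (Metric.ball_subset_ball hrR) Subset.rfl).eventuallyLE
      filter_upwards [ae_restrict_of_ae ht] with p hp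
      have := hh p
      simp only [Pi.zero_apply]
      positivity
    have e2 : ∫ p in Metric.ball x R ×ˢ univ, (r ^ 2 * tilt P p + height P x p) ∂V ≤
        ∫ p in Metric.ball x R ×ˢ univ, (R ^ 2 * tilt P p + height P x p) ∂V := by
      refine integral_mono_of_nonneg ?_ (i1.add i2) ?_
      · filter_upwards [ae_restrict_of_ae ht] with p hp
        have := hh p
        simp only [Pi.zero_apply]
        positivity
      · filter_upwards [ae_restrict_of_ae ht] with p hp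
        gcongr
    calc ∫ p in Metric.ball x r ×ˢ univ, (r ^ 2 * tilt P p + height P x p) ∂V
        ≤ ε * R ^ (m + 2) := (e1.trans e2).trans h.2.1
      _ ≤ ε * (A * r) ^ (m + 2) := by gcongr
      _ = (A ^ (m + 2) * ε) * r ^ (m + 2) := by rw [mul_pow]; ring
      _ ≤ ε' * r ^ (m + 2) := by gcongr
  · refine (rat_mono hV hm hr hrR (Metric.ball_subset_closedBall.trans hU)).trans
      (h.2.2.trans ?_)
    gcongr

/-! ### class bounds in physical units -/

theorem mo_w_eq (M : Mo m n k) : M.w = fun X => (M.S⁻¹)⁻¹ • M.u (M.S⁻¹ • X) := by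
  funext X
  rw [inv_inv]
  rfl

set_option maxSynthPendingDepth 3 in
theorem mo_gr (m n N : ℕ) (hN : 2 ≤ N) : ∃ C : ℝ, 1 ≤ C ∧ ∀ (k : ℕ) (M : Mo m n k) (R : ℝ),
    0 ≤ M.κ → MG N M.κ R M.u → C * M.κ ≤ 1 / 8 →
    Gr M.S M.w ∧ (∀ X, ‖fderiv ℝ M.w X‖ ≤ C * M.κ) ∧
      (∀ X, M.S * ‖fderiv ℝ (fderiv ℝ M.w) X‖ ≤ C * M.κ) ∧
      (∀ X, ‖M.w X‖ ≤ M.S * (C * M.κ)) ∧ ∀ X, ‖fderiv ℝ M.u X‖ ≤ C * M.κ := by
  obtain ⟨C, hC, H⟩ := Mx17_397.bdP m n N
  refine ⟨max C 1, le_max_right _ _, ?_⟩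
  intro k M R hκ hmg h8
  have hS := M.S_pos
  have hSi : M.S⁻¹ ≠ 0 := inv_ne_zero hS.ne'
  obtain ⟨hcd, hb⟩ := H M.κ R M.u hmg
  have hCκ : C * M.κ ≤ max C 1 * M.κ := mul_le_mul_of_nonneg_right (le_max_left _ _) hκ
  have h4 : (4 : WithTop ℕ∞) ≤ (((N + 2 : ℕ) : ℕ∞) : WithTop ℕ∞) := by
    rw [show (4 : WithTop ℕ∞) = ((4 : ℕ∞) : WithTop ℕ∞) from rfl]
    refine WithTop.coe_le_coe.2 ?_
    exact_mod_cast (by omega : 4 ≤ N + 2)
  have hu4 : ContDiff ℝ 4 M.u := hcd.of_le h4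
  have hb0 : ∀ X, ‖M.u X‖ ≤ C * M.κ := by
    intro X
    have h := hb 0 (Nat.zero_le _) X
    rwa [norm_iteratedFDeriv_zero] at h
  have hb1 : ∀ X, ‖fderiv ℝ M.u X‖ ≤ C * M.κ := by
    intro X
    have h := hb 1 (by omega) X
    rwa [norm_iteratedFDeriv_one] at h
  have hb2 : ∀ X, ‖fderiv ℝ (fderiv ℝ M.u) X‖ ≤ C * M.κ := by
    intro X
    have h := hb 2 (by omega) X
    rwa [← norm_iteratedFDeriv_fderiv, norm_iteratedFDeriv_one] at h
  have hw1 : fderiv ℝ M.w = fun X => fderiv ℝ M.u (M.S⁻¹ • X) := by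
    rw [mo_w_eq]
    exact Mx13_397.fderiv_scale1 hSi M.u
  have hw2 : ∀ X, fderiv ℝ (fderiv ℝ M.w) X = M.S⁻¹ • fderiv ℝ (fderiv ℝ M.u) (M.S⁻¹ • X) := by
    intro X
    rw [hw1]
    exact Mx13_397.fderiv_scale hSi (fderiv ℝ M.u) X
  have hd1 : ∀ X, ‖fderiv ℝ M.w X‖ ≤ max C 1 * M.κ := by
    intro X
    rw [hw1]
    exact (hb1 _).trans hCκ
  have hd2 : ∀ X, M.S * ‖fderiv ℝ (fderiv ℝ M.w) X‖ ≤ max C 1 * M.κ := by
    intro X
    rw [hw2, norm_smul, norm_inv, Real.norm_of_nonneg hS.le, ← mul_assoc,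
      mul_inv_cancel₀ hS.ne', one_mul]
    exact (hb2 _).trans hCκ
  refine ⟨⟨hS, ?_, fun X => (hd1 X).trans h8, fun X => ?_⟩, hd1, hd2, ?_, ?_⟩
  · exact (hu4.comp (contDiff_const_smul M.S⁻¹)).const_smul M.S
  · rw [le_div_iff₀ (by positivity)]
    have := hd2 X
    linarith
  · intro X
    show ‖M.S • M.u (M.S⁻¹ • X)‖ ≤ _
    rw [norm_smul, Real.norm_of_nonneg hS.le]
    exact mul_le_mul_of_nonneg_left ((hb0 _).trans hCκ) hS.le
  · intro X
    exact (hb1 X).trans hCκ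

theorem mo_ms {N : ℕ} {M : Mo m n k} {R κ : ℝ} (h : MG N κ R M.u) :
    ∀ X ∈ Metric.ball (0 : Euc m) (M.S * R), Msys M.w X = 0 := by
  obtain ⟨a, -, -, -, h4⟩ := h
  intro X hX
  have hS := M.S_pos
  rw [mo_w_eq, Msys_scale (inv_ne_zero hS.ne'), h4, smul_zero]
  rw [mem_ball_zero_iff] at hX ⊢
  rw [norm_smul, norm_inv, Real.norm_of_nonneg hS.le, inv_mul_lt_iff₀ hS]
  exact hX

/-- **`Loc` of a reference** at the level `log (2 S)`, hence at every smaller level. -/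
theorem mo_loc {U : Set (Euc k)} {V : Measure (Euc k × L k)} {x : Euc k} {M : Mo m n k}
    (hV : Stat m k U V) (hU : IsOpen U) (hf : Frame M.π M.ρ) (hg : Gr M.S M.w)
    (hw : ∀ X, ‖M.w X‖ ≤ M.S * (1 / 8)) (hsub : Metric.closedBall x (8 * M.S) ⊆ U)
    (hsup : ∀ᵐ p ∂V, p.1 ∈ Metric.ball x (4 * M.S) → ‖M.ρ (p.1 - x)‖ ≤ 1 / 16 * M.S) {L : ℝ}
    (hL : Real.exp L ≤ 2 * M.S) :
    GL_394.Loc (M.ch x) U (tube M.π M.ρ x M.S M.w) (M.reg x) V L := by
  have hS := M.S_pos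
  refine hg.loc' hf hV hU (by linarith) ?_ hL ?_
  · refine Subset.trans ?_ hsub
    refine Metric.closedBall_subset_closedBall' ?_
    have h1 : dist (pm M.π M.ρ x M.w 0) x ≤ M.S * (1 / 8) := by
      rw [dist_eq_norm]
      have e1 : pm M.π M.ρ x M.w 0 - x = ContinuousLinearMap.adjoint M.ρ (M.w 0) := by
        unfold pm
        rw [map_zero]
        abel
      rw [e1]
      refine (ContinuousLinearMap.le_opNorm _ _).trans ?_
      have e2 := (frame_fr hf).norm_j_le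
      have e3 := hw 0
      have e4 := norm_nonneg (M.w 0)
      nlinarith
    linarith
  · filter_upwards [hsup] with p hp _ ht hX
    rw [sub_zero] at hX
    have h1 : ‖M.ρ (p.1 - x) - M.w (M.π (p.1 - x))‖ < M.S := ht
    have h2 := hw (M.π (p.1 - x))
    have h3 : ‖M.ρ (p.1 - x)‖ ≤ M.S * (9 / 8) := by
      have := norm_le_norm_add_norm_sub' (M.ρ (p.1 - x)) (M.w (M.π (p.1 - x)))
      linarith
    have h4 : ‖p.1 - x‖ < 4 * M.S := by
      have := Gi_456.norm_le_add hf (p.1 - x)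
      linarith
    have h5 := hp (by rwa [mem_ball_iff_norm])
    have h6 := norm_sub_le (M.ρ (p.1 - x)) (M.w (M.π (p.1 - x)))
    linarith

/-- growth of `I` from below. -/
theorem mo_mono {U : Set (Euc k)} {V : Measure (Euc k × L k)} {x : Euc k} {M : Mo m n k} {L : ℝ}
    (hf : Frame M.π M.ρ) (hg : Gr M.S M.w)
    (h : GL_394.Loc (M.ch x) U (tube M.π M.ρ x M.S M.w) (M.reg x) V L) {l l' : ℝ} (hl : l ≤ l') :
    M.I x V l ≤ Real.exp (m * (l' - l)) * M.I x V l' :=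
  Fd_534.II_mono (hg.ok hf 0 h.cpt (h.sub.trans inter_subset_left)) h.toOn GL_394.pf_cubic.pr
    (fun t ht => by
      unfold GI_640.g32
      positivity) hl

theorem mo_nonneg {U : Set (Euc k)} {V : Measure (Euc k × L k)} {x : Euc k} {M : Mo m n k} {L : ℝ}
    (hf : Frame M.π M.ρ) (hg : Gr M.S M.w)
    (h : GL_394.Loc (M.ch x) U (tube M.π M.ρ x M.S M.w) (M.reg x) V L) (l : ℝ) :
    0 ≤ M.I x V l :=
  GL_394.II_nonneg (hg.ok hf 0 h.cpt (h.sub.trans inter_subset_left)) h.toOn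
    GL_394.pf_cubic.pr.anti l

theorem hlow_cubic : ∀ a t : ℝ, 0 ≤ t → t ≤ a → a ≤ 1 → 3 * (1 - a) ^ 2 ≤ -GI_640.g31 t := by
  intro a t _ h1 h2
  unfold GI_640.g31
  rw [max_eq_right (by linarith)]
  have : (1 - a) ^ 2 ≤ (1 - t) ^ 2 := pow_le_pow_left₀ (by linarith) (by linarith) 2
  linarith

end Crest.Agent.R234.End_395
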