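import Crest.Agent.R234.Ex1_46

/-!
# Row 234, VF-EXT, file 6 (helper46): restriction of frozen data to an open set
-/

set_option autoImplicit false

open MeasureTheory Filter Topology Set Metric
open scoped ENNReal InnerProductSpace
open Crest.GeometryTopology.Submanifold Crest.Agent.R234.Vf_884

noncomputable section

namespace Crest.Agent.R234.Ex_46

variable {m k : ℕ} {U W : Set (Euc k)} {D : VarifoldData m k}

/-- restricted data -/
def restr (W : Set (Euc k)) (D : VarifoldData m k) : VarifoldData m k where
  chart := D.chart
  dom i := D.dom i ∩ D.chart i ⁻¹' W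
  mult := D.mult

theorem trans_restr {T T' : Euc k → Euc k} (h : Dif T T') (W : Set (Euc k))
    (D : VarifoldData m k) : trans T (restr W D) = restr (T' ⁻¹' W) (trans T D) := by
  unfold trans restr
  congr 1
  funext i
  ext a
  simp only [mem_inter_iff, mem_preimage, Function.comp_apply, h.left]

theorem weight_restr (hD : IsIntegralVarifoldIn U D) (hW : MeasurableSet W) :
    weight (restr W D) = (weight D).restrict W := by
  unfold weight
  rw [Measure.restrict_sum _ hW]
  congr 1
  funext i
  have hfm : Measurable (D.chart i) := (hD.contDiff i).continuous.measurable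
  rw [Measure.restrict_map hfm hW, restrict_withDensity (hfm hW),
    Measure.restrict_restrict (hfm hW), inter_comm]
  rfl

theorem VD_restr (hD : IsIntegralVarifoldIn U D) (hW : MeasurableSet W) :
    VD (restr W D) = (VD D).restrict (W ×ˢ univ) := by
  have hWm : MeasurableSet (W ×ˢ (univ : Set (L k))) := hW.prod MeasurableSet.univ
  unfold VD
  rw [Measure.restrict_sum _ hWm]
  congr 1
  funext i
  have hfm : Measurable (D.chart i) := (hD.contDiff i).continuous.measurable
  have h1 : lift D i ⁻¹' (W ×ˢ (univ : Set (L k))) = D.chart i ⁻¹' W := by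
    ext a; simp [lift]
  rw [Measure.restrict_map_of_aemeasurable (aemeasurable_lift hD i) hWm, h1]
  have h2 : (base D i).restrict (D.chart i ⁻¹' W) = base (restr W D) i := by
    unfold base
    rw [restrict_withDensity (hfm hW), Measure.restrict_restrict (hfm hW), inter_comm]
    rfl
  rw [h2]
  rfl

theorem integral_restr (hD : IsIntegralVarifoldIn U D) (hW : MeasurableSet W) (hWU : W ⊆ U) :
    IsIntegralVarifoldIn W (restr W D) where
  measurableSet i :=
    (hD.measurableSet i).inter ((hD.contDiff i).continuous.measurable hW)
  contDiff := hD.contDiff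
  injOn i := (hD.injOn i).mono inter_subset_left
  injective_fderiv i a ha := hD.injective_fderiv i a ha.1
  disjoint i j hij := (hD.disjoint i j hij).mono (image_mono inter_subset_left)
    (image_mono inter_subset_left)
  subset i := by
    rintro _ ⟨a, ha, rfl⟩
    exact ha.2
  measurable_mult := hD.measurable_mult
  mult_pos i a ha := hD.mult_pos i a ha.1
  locallyFinite K hK hKW := by
    rw [weight_restr hD hW]
    exact (Measure.restrict_apply_le _ _).trans_lt (hD.locallyFinite K hK (hKW.trans hWU))

theorem stationary_restr (hD : IsIntegralVarifoldIn U D) (hs : IsStationaryIn U D)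
    (hW : MeasurableSet W) (hWU : W ⊆ U) : IsStationaryIn W (restr W D) := by
  intro X hX hXc hXW
  rw [firstVariation_eq (integral_restr hD hW hWU) hX hXc hXW, VD_restr hD hW,
    ← (stat_VD hD hs).stat X hX hXc (hXW.trans hWU)]
  refine setIntegral_eq_integral_of_forall_compl_eq_zero fun p hp => ?_
  have h1 : p.1 ∉ tsupport X := fun h => hp ⟨hXW h, mem_univ _⟩
  have h2 : fderiv ℝ X p.1 = 0 := by
    by_contra h
    exact h1 (support_fderiv_subset ℝ h)
  rw [h2, ContinuousLinearMap.zero_comp, map_zero]

theorem support_restr (hD : IsIntegralVarifoldIn U D) (hW : MeasurableSet W) :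
    support (restr W D) ⊆ support D := by
  intro z hz r hr
  have h1 := hz r hr
  rw [weight_restr hD hW] at h1
  exact h1.trans_le (Measure.restrict_apply_le _ _)

end Crest.Agent.R234.Ex_46
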