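import Crest.Agent.R234.Asl2_214

/-!
# Row 234, node F3-CLS, part 2 (helper46): Caccioppoli inequality in `CylAS`, general cut-off
-/

set_option autoImplicit false

open MeasureTheory Filter Topology Set Metric
open scoped ENNReal InnerProductSpace ContDiff
open Crest.GeometryTopology.Submanifold Crest.Agent.R234.Vf_884 Crest.Agent.R234.Cy_870
open Crest.Agent.R234.Ar_870 Crest.Agent.R234.Asl_214 Crest.Agent.R234.AS_456

noncomputable section

namespace Crest.Agent.R234.Ex_46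

variable {m n k : ℕ} {π : Euc k →L[ℝ] Euc m} {κ : Euc k →L[ℝ] Euc n}

/-- `|π P κ† w| ≤ √tl |w|` -/
theorem norm_hv_le (sp : Split π κ) {P : L k} (hP : P ∈ G m k) (w : Euc n) :
    ‖π (P (ContinuousLinearMap.adjoint κ w))‖ ≤ √(tl π P) * ‖w‖ := by
  set v := π (P (ContinuousLinearMap.adjoint κ w)) with hv
  have hPr := isPr_of_G hP
  have ht := tl_nonneg sp.hh hPr
  have h1 : ‖v‖ ^ 2 = ⟪w, Svh π κ P v⟫_ℝ := by
    have e1 : ⟪w, Svh π κ P v⟫_ℝ =
        ⟪w, κ (P (ContinuousLinearMap.adjoint π v))⟫_ℝ := rfl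
    rw [e1, ← ContinuousLinearMap.adjoint_inner_left κ, ← G_symm hP,
      ContinuousLinearMap.adjoint_inner_right, ← real_inner_self_eq_norm_sq]
  have h2 : ‖Svh π κ P v‖ ≤ √(tl π P) * ‖v‖ := by
    have h3 := (norm_Svh_sq_le sp hPr v).trans (qf_le_tl sp hP v)
    have h4 : ‖Svh π κ P v‖ ^ 2 ≤ (√(tl π P) * ‖v‖) ^ 2 := by
      rw [mul_pow, Real.sq_sqrt ht]
      linarith
    exact le_of_sq_le_sq h4 (by positivity)
  rcases (norm_nonneg v).eq_or_lt with h0 | h0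
  · rw [← h0]; positivity
  · have h3 : ‖v‖ ^ 2 ≤ ‖w‖ * (√(tl π P) * ‖v‖) := by
      rw [h1]
      exact (real_inner_le_norm _ _).trans (mul_le_mul_of_nonneg_left h2 (norm_nonneg _))
    have h4 : ‖v‖ * ‖v‖ ≤ (√(tl π P) * ‖w‖) * ‖v‖ := by nlinarith
    exact le_of_mul_le_mul_right h4 h0

theorem real_cacc {f g a T s δ h q : ℝ} (hf : 0 ≤ f) (hg : 0 ≤ g) (ha : 0 ≤ a) (ha1 : a ≤ h)
    (hT : 0 ≤ T) (hs : s = √T) (hδ : 0 ≤ δ) (hδ1 : δ ≤ 1 / 32) (hh : h ≤ 1 / 2)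
    (hq : q = √δ) :
    δ * (s + a) * (2 * f * g * a + f ^ 2 * a) + δ * (T + a * s) * (f ^ 2 * 1) +
      q * T * (f ^ 2 * a) + 2 * f * g * s * a ≤
      1 / 2 * (f ^ 2 * T) + 5 * ((f ^ 2 + g ^ 2) * a ^ 2) := by
  have hs0 : 0 ≤ s := by rw [hs]; exact Real.sqrt_nonneg _
  have hss : s ^ 2 = T := by rw [hs]; exact Real.sq_sqrt hT
  have hq0 : 0 ≤ q := by rw [hq]; exact Real.sqrt_nonneg _
  have hqq : q ^ 2 = δ := by rw [hq]; exact Real.sq_sqrt hδ
  have hq1 : q ≤ 1 / 4 := by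
    by_contra hcon
    push Not at hcon
    nlinarith
  rw [← hss]
  have e1 : 2 * f * g * s * a ≤ 1 / 4 * (f ^ 2 * s ^ 2) + 4 * (g ^ 2 * a ^ 2) := by
    nlinarith [sq_nonneg (1 / 2 * (f * s) - 2 * (g * a))]
  have e2 : q * s ^ 2 * (f ^ 2 * a) ≤ 1 / 8 * (f ^ 2 * s ^ 2) := by
    have h1 : q * a ≤ 1 / 4 * (1 / 2) := mul_le_mul hq1 (ha1.trans hh) ha (by norm_num)
    have h2 : 0 ≤ f ^ 2 * s ^ 2 := by positivity
    nlinarith [mul_le_mul_of_nonneg_right h1 h2]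
  have e3 : (s + a) * (2 * f * g * a + f ^ 2 * a) + (s ^ 2 + a * s) * (f ^ 2 * 1) ≤
      4 * (f ^ 2 * s ^ 2) + 5 * ((f ^ 2 + g ^ 2) * a ^ 2) := by
    nlinarith [sq_nonneg (f * s - g * a), sq_nonneg (f * s - f * a), sq_nonneg (f * a - g * a),
      mul_nonneg (mul_nonneg hf hg) (sq_nonneg a), sq_nonneg (g * a), sq_nonneg (f * s)]
  have e4 : δ * ((s + a) * (2 * f * g * a + f ^ 2 * a) + (s ^ 2 + a * s) * (f ^ 2 * 1)) ≤
      1 / 32 * (4 * (f ^ 2 * s ^ 2) + 5 * ((f ^ 2 + g ^ 2) * a ^ 2)) := by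
    have h0 : 0 ≤ 4 * (f ^ 2 * s ^ 2) + 5 * ((f ^ 2 + g ^ 2) * a ^ 2) := by positivity
    exact (mul_le_mul_of_nonneg_left e3 hδ).trans (mul_le_mul_of_nonneg_right hδ1 h0)
  nlinarith [sq_nonneg (f * a), sq_nonneg (g * a)]

/-- **Caccioppoli inequality in `CylAS`** -/
theorem cacc_cylAS {W : Measure (Euc k × L k)} {x₀ : Euc m} {R h₀ δ : ℝ}
    (h : CylAS W π κ x₀ R h₀ δ) (hδ : 0 ≤ δ) (hδ1 : δ ≤ 1 / 32) (hh : h₀ ≤ 1 / 2)
    {φ : Euc m → ℝ} (hφ : ContDiff ℝ 1 φ) (hφ0 : ∀ v, R ≤ ‖v - x₀‖ → φ v = 0) :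
    ∫ p, φ (π p.1) ^ 2 * tl π p.2 ∂W ≤
      10 * ∫ p, (φ (π p.1) ^ 2 + ‖fderiv ℝ φ (π p.1)‖ ^ 2) * ‖κ p.1‖ ^ 2 ∂W := by
  have sp := h.sp
  have hφd : Differentiable ℝ φ := hφ.differentiable one_ne_zero
  have hφc := hφ.continuous
  have hdφ := hφ.continuous_fderiv one_ne_zero
  set f : Euc m → ℝ := fun v => φ v ^ 2 with hf
  set df : Euc m → Euc m →L[ℝ] ℝ := fun v => (2 * φ v) • fderiv ℝ φ v with hdf
  have hfd : ∀ v, HasFDerivAt f (df v) v := by
    intro v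
    have h1 := (hφd v).hasFDerivAt.pow 2
    refine h1.congr_fderiv ?_
    simp [hdf]
  have hdfc : Continuous df := (continuous_const.mul hφc).smul hdφ
  have hψd : ∀ v : Euc n, HasFDerivAt (fun v : Euc n => v) (ContinuousLinearMap.id ℝ (Euc n)) v :=
    fun v => hasFDerivAt_id v
  have h1 := h.fv_ver hδ hfd hdfc (ψ := fun v : Euc n => v)
    (dψ := fun _ => ContinuousLinearMap.id ℝ (Euc n)) hψd continuous_const
    (fun v hv => by simp only [hf]; rw [hφ0 v hv]; ring)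
  -- continuity
  have cT := CylAS.continuous_tl (k := k) π
  have cπ : Continuous fun p : Euc k × L k => π p.1 := π.continuous.comp continuous_fst
  have cκ : Continuous fun p : Euc k × L k => κ p.1 := κ.continuous.comp continuous_fst
  have cφ : Continuous fun p : Euc k × L k => φ (π p.1) := hφc.comp cπ
  have cdφ : Continuous fun p : Euc k × L k => fderiv ℝ φ (π p.1) := hdφ.comp cπ
  have cadj : Continuous fun p : Euc k × L k =>
      ContinuousLinearMap.adjoint κ (κ p.1) := (ContinuousLinearMap.adjoint κ).continuous.comp cκ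
  have cmix : Continuous fun p : Euc k × L k =>
      π (p.2 (ContinuousLinearMap.adjoint κ (κ p.1))) :=
    π.continuous.comp (continuous_snd.clm_apply cadj)
  -- the first variation
  have h2 : FV W (fun p => f (π p) • ContinuousLinearMap.adjoint κ (κ p)) =
      (∫ p, φ (π p.1) ^ 2 * tl π p.2 ∂W) + ∫ p, 2 * φ (π p.1) * fderiv ℝ φ (π p.1)
        (π (p.2 (ContinuousLinearMap.adjoint κ (κ p.1)))) ∂W := by
    have j1 : Integrable (fun p : Euc k × L k => φ (π p.1) ^ 2 * tl π p.2) W :=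
      h.integrable_continuous ((cφ.pow 2).mul cT)
    have j2 : Integrable (fun p : Euc k × L k => 2 * φ (π p.1) * fderiv ℝ φ (π p.1)
        (π (p.2 (ContinuousLinearMap.adjoint κ (κ p.1))))) W :=
      h.integrable_continuous ((continuous_const.mul cφ).mul (cdφ.clm_apply cmix))
    rw [← integral_add j1 j2]
    unfold FV
    refine integral_congr_ae ?_
    filter_upwards [h.conc] with p hp
    have e1 := tr_field κ π (F := f) (ξ := fun v : Euc n => v) p.1 p.2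
      (hfd _).differentiableAt differentiableAt_id
    have e2 : fderiv ℝ (fun v : Euc n => v) (κ p.1) = ContinuousLinearMap.id ℝ (Euc n) :=
      (hψd _).fderiv
    rw [e2, ContinuousLinearMap.id_comp, tr_Svv sp hp, (hfd _).fderiv] at e1
    rw [e1]
    simp only [hf, hdf, ContinuousLinearMap.smul_apply, smul_eq_mul]
  have h3 : ∫ p, φ (π p.1) ^ 2 * tl π p.2 ∂W ≤
      |FV W (fun p => f (π p) • ContinuousLinearMap.adjoint κ (κ p))| +
      ∫ p, 2 * |φ (π p.1)| * ‖fderiv ℝ φ (π p.1)‖ * √(tl π p.2) * ‖κ p.1‖ ∂W := by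
    have e1 : -(∫ p, 2 * φ (π p.1) * fderiv ℝ φ (π p.1)
        (π (p.2 (ContinuousLinearMap.adjoint κ (κ p.1)))) ∂W) ≤
        ∫ p, 2 * |φ (π p.1)| * ‖fderiv ℝ φ (π p.1)‖ * √(tl π p.2) * ‖κ p.1‖ ∂W := by
      rw [← integral_neg]
      refine integral_mono_ae (h.integrable_continuous
        ((continuous_const.mul cφ).mul (cdφ.clm_apply cmix)).neg) (h.integrable_continuous
        ((((continuous_const.mul cφ.abs).mul cdφ.norm).mul cT.sqrt).mul cκ.norm)) ?_
      filter_upwards [h.conc] with p hp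
      have e2 := norm_hv_le sp hp (κ p.1)
      have e3 := (fderiv ℝ φ (π p.1)).le_opNorm
        (π (p.2 (ContinuousLinearMap.adjoint κ (κ p.1))))
      rw [Real.norm_eq_abs] at e3
      calc _ ≤ |2 * φ (π p.1) * fderiv ℝ φ (π p.1)
            (π (p.2 (ContinuousLinearMap.adjoint κ (κ p.1))))| := neg_le_abs _
        _ = 2 * |φ (π p.1)| * |fderiv ℝ φ (π p.1)
            (π (p.2 (ContinuousLinearMap.adjoint κ (κ p.1))))| := by
            rw [abs_mul, abs_mul, abs_of_pos (two_pos : (0:ℝ) < 2)]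
        _ ≤ 2 * |φ (π p.1)| * (‖fderiv ℝ φ (π p.1)‖ * (√(tl π p.2) * ‖κ p.1‖)) :=
            mul_le_mul_of_nonneg_left (e3.trans (mul_le_mul_of_nonneg_left e2 (norm_nonneg _)))
              (by positivity)
        _ = _ := by ring
    have e4 := le_abs_self (FV W (fun p => f (π p) • ContinuousLinearMap.adjoint κ (κ p)))
    linarith
  have h4 : ∫ p, φ (π p.1) ^ 2 * tl π p.2 ∂W ≤
      ∫ p, (1 / 2 * (φ (π p.1) ^ 2 * tl π p.2) +
        5 * ((φ (π p.1) ^ 2 + ‖fderiv ℝ φ (π p.1)‖ ^ 2) * ‖κ p.1‖ ^ 2)) ∂W := by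
    refine h3.trans ((add_le_add_left h1 _).trans ?_)
    have cA : Continuous fun p : Euc k × L k =>
        (δ * (√(tl π p.2) + ‖κ p.1‖) *
          (‖df (π p.1)‖ * ‖κ p.1‖ + |f (π p.1)| * ‖κ p.1‖) +
        δ * (tl π p.2 + ‖κ p.1‖ * √(tl π p.2)) *
          (|f (π p.1)| * ‖ContinuousLinearMap.id ℝ (Euc n)‖) +
        √δ * tl π p.2 * (|f (π p.1)| * ‖κ p.1‖)) := by
      have c1 : Continuous fun p : Euc k × L k => ‖df (π p.1)‖ := (hdfc.comp cπ).norm
      have c2 : Continuous fun p : Euc k × L k => |f (π p.1)| := (cφ.pow 2).abs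
      exact (((continuous_const.mul (cT.sqrt.add cκ.norm)).mul
        ((c1.mul cκ.norm).add (c2.mul cκ.norm))).add
        ((continuous_const.mul (cT.add (cκ.norm.mul cT.sqrt))).mul (c2.mul continuous_const))).add
        ((continuous_const.mul cT).mul (c2.mul cκ.norm))
    have cB : Continuous fun p : Euc k × L k =>
        2 * |φ (π p.1)| * ‖fderiv ℝ φ (π p.1)‖ * √(tl π p.2) * ‖κ p.1‖ :=
      (((continuous_const.mul cφ.abs).mul cdφ.norm).mul cT.sqrt).mul cκ.norm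
    rw [← integral_add (h.integrable_continuous cA) (h.integrable_continuous cB)]
    refine integral_mono_ae (h.integrable_continuous (cA.add cB)) (h.integrable_continuous
      ((continuous_const.mul ((cφ.pow 2).mul cT)).add (continuous_const.mul
        (((cφ.pow 2).add (cdφ.norm.pow 2)).mul (cκ.norm.pow 2))))) ?_
    filter_upwards [h.conc, h.hgt] with p hp hhp
    have hT := tl_nonneg sp.hh (isPr_of_G hp)
    have e1 := real_cacc (f := |φ (π p.1)|) (g := ‖fderiv ℝ φ (π p.1)‖) (a := ‖κ p.1‖)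
      (T := tl π p.2) (s := √(tl π p.2)) (δ := δ) (h := h₀) (q := √δ) (abs_nonneg _)
      (norm_nonneg _) (norm_nonneg _) hhp hT rfl hδ hδ1 hh rfl
    have e2 : ‖df (π p.1)‖ = 2 * |φ (π p.1)| * ‖fderiv ℝ φ (π p.1)‖ := by
      simp only [hdf]
      rw [norm_smul, Real.norm_eq_abs, abs_mul, abs_of_pos (two_pos : (0:ℝ) < 2)]
    have e3 : |f (π p.1)| = |φ (π p.1)| ^ 2 := by
      simp only [hf]
      rw [abs_pow]
    have e4 : ‖ContinuousLinearMap.id ℝ (Euc n)‖ ≤ 1 := ContinuousLinearMap.norm_id_le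
    have e5 : δ * (tl π p.2 + ‖κ p.1‖ * √(tl π p.2)) *
          (|φ (π p.1)| ^ 2 * ‖ContinuousLinearMap.id ℝ (Euc n)‖) ≤
        δ * (tl π p.2 + ‖κ p.1‖ * √(tl π p.2)) * (|φ (π p.1)| ^ 2 * 1) := by
      refine mul_le_mul_of_nonneg_left (mul_le_mul_of_nonneg_left e4 (by positivity)) ?_
      exact mul_nonneg hδ (add_nonneg hT (by positivity))
    rw [e2, e3]
    simp only [sq_abs] at e1 e5 ⊢
    linarith
  have i1 : Integrable (fun p : Euc k × L k => φ (π p.1) ^ 2 * tl π p.2) W :=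
    h.integrable_continuous ((cφ.pow 2).mul cT)
  have i2 : Integrable (fun p : Euc k × L k =>
      (φ (π p.1) ^ 2 + ‖fderiv ℝ φ (π p.1)‖ ^ 2) * ‖κ p.1‖ ^ 2) W :=
    h.integrable_continuous (((cφ.pow 2).add (cdφ.norm.pow 2)).mul (cκ.norm.pow 2))
  rw [integral_add (i1.const_mul _) (i2.const_mul _), integral_const_mul,
    integral_const_mul] at h4
  linarith

end Crest.Agent.R234.Ex_46
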