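import Crest.Agent.R234.Ex5_46
import Crest.Agent.R234.Ex6_46
import Crest.Agent.R234.Ex7_46

/-!
# Row 234, node F3-CLS, part 3 (helper46): masses under the chart, cut-off, and the class

`cls_of`: the restricted, transported, zoomed data `DD` belong to the class of the core, given the
almost stationarity (281) and the masses of the two solid cylinders.
-/

set_option autoImplicit false

open MeasureTheory Filter Topology Set Metric
open scoped ENNReal InnerProductSpace ContDiff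
open Crest.GeometryTopology.Submanifold Crest.Agent.R234.Vf_884 Crest.Agent.R234.Cy_870
open Crest.Agent.R234.Ar_870
open Crest.Agent.R234.Main_456 (Frame Msys hgt sep box)

noncomputable section

namespace Crest.Agent.R234.Ex_46

variable {m n k : ℕ} {U : Set (Euc k)} {D : VarifoldData m k}
  {π : Euc k →L[ℝ] Euc m} {κ : Euc k →L[ℝ] Euc n} {T T' : Euc k → Euc k}
  {u : Euc m → Euc n} {e : ℝ} {Φ Ψ : Euc k → Euc k} {lam : ℝ}

theorem norm_fderiv_le' {e : ℝ} (hg : ∀ z, ‖fderiv ℝ T z - 1‖ ≤ e) (z : Euc k) :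
    ‖fderiv ℝ T z‖ ≤ 1 + e := by
  have h1 : fderiv ℝ T z = (fderiv ℝ T z - 1) + 1 := by abel
  have h2 : ‖(1 : Euc k →L[ℝ] Euc k)‖ ≤ 1 := ContinuousLinearMap.norm_id_le
  rw [h1]
  exact (norm_add_le _ _).trans (by linarith [hg z])

theorem norm_fderiv_inv_le' (h : Dif T T') {e : ℝ} (he : e < 1)
    (hg : ∀ z, ‖fderiv ℝ T z - 1‖ ≤ e) (z : Euc k) :
    ‖fderiv ℝ T' z‖ ≤ (1 - e)⁻¹ := by
  have h0 : 0 < 1 - e := by linarith
  have h1 : LipschitzWith (Real.toNNReal (1 - e)⁻¹) T' := by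
    refine LipschitzWith.of_dist_le_mul fun x y => ?_
    rw [dist_eq_norm, dist_eq_norm, Real.coe_toNNReal _ (by positivity)]
    have h1 := near h convex_univ (fun z _ => hg z) (mem_univ (T' x)) (mem_univ (T' y))
    rw [h.right, h.right] at h1
    have h2 := norm_sub_norm_le (T' x - T' y) (x - y)
    rw [norm_sub_rev (T' x - T' y)] at h2
    rw [inv_mul_eq_div, le_div_iff₀ h0]
    linarith
  have h2 := norm_fderiv_le_of_lipschitz ℝ h1 (x₀ := z)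
  rwa [Real.coe_toNNReal _ (by positivity)] at h2

theorem exists_small (m : ℕ) {η : ℝ} (hη : 0 < η) : ∃ c : ℝ, 0 < c ∧ c ≤ 1 / 16 ∧
    ∀ e, e ≤ c → ((1 - e)⁻¹) ^ m ≤ 1 + η ∧ (0 ≤ e → (1 + e) ^ m ≤ 1 + η) := by
  have h1 : Tendsto (fun e : ℝ => ((1 - e)⁻¹) ^ m) (𝓝 0) (𝓝 (((1 - 0 : ℝ)⁻¹) ^ m)) := by
    refine Tendsto.pow (Tendsto.inv₀ (tendsto_const_nhds.sub tendsto_id) ?_) m
    norm_num
  have h2 : Tendsto (fun e : ℝ => (1 + e) ^ m) (𝓝 0) (𝓝 ((1 + 0 : ℝ) ^ m)) :=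
    Tendsto.pow (tendsto_const_nhds.add tendsto_id) m
  have e1 : ((1 - 0 : ℝ)⁻¹) ^ m < 1 + η := by simp; exact hη
  have e2 : ((1 + 0 : ℝ)) ^ m < 1 + η := by simp; exact hη
  obtain ⟨c, hc, hcc⟩ := Metric.eventually_nhds_iff.1
    ((h1.eventually_lt_const e1).and (h2.eventually_lt_const e2))
  refine ⟨min (c / 2) (1 / 16), by positivity, min_le_right _ _, fun e he => ?_⟩
  have hec : e ≤ c / 2 := he.trans (min_le_left _ _)
  have he16 : e ≤ 1 / 16 := he.trans (min_le_right _ _)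
  have key : ∀ x : ℝ, 0 ≤ x → x ≤ c / 2 → ((1 - x)⁻¹) ^ m < 1 + η ∧ (1 + x) ^ m < 1 + η := by
    intro x hx hxc
    refine hcc ?_
    rw [Real.dist_eq, sub_zero, abs_of_nonneg hx]
    linarith
  constructor
  · rcases le_or_gt 0 e with h0 | h0
    · exact (key e h0 hec).1.le
    · have h3 : (1 - e)⁻¹ ≤ 1 := inv_le_one_of_one_le₀ (by linarith)
      have h4 : ((1 - e)⁻¹) ^ m ≤ 1 := pow_le_one₀ (by
        have : 0 < 1 - e := by linarith
        positivity) h3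
      linarith
  · intro h0
    exact (key e h0 hec).2.le

/-- the open set of the class -/
def UU (π : Euc k →L[ℝ] Euc m) (κ : Euc k →L[ℝ] Euc n) (Φ : Euc k → Euc k) (z₀ : Euc k) (ρ : ℝ)
    (U : Set (Euc k)) : Set (Euc k) := {z | ‖π z‖ < 6 ∧ ‖κ z‖ < 3 ∧ hmt' z₀ ρ (Φ z) ∈ U}

/-- the data of the class -/
def DD (π : Euc k →L[ℝ] Euc m) (κ : Euc k →L[ℝ] Euc n) (Φ Ψ : Euc k → Euc k) (z₀ : Euc k)
    (ρ : ℝ) (U : Set (Euc k)) (D : VarifoldData m k) : VarifoldData m k :=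
  restr (UU π κ Φ z₀ ρ U) (trans Ψ (zoom z₀ ρ D))

theorem isOpen_UU (hΦ : Continuous Φ) (z₀ : Euc k) (ρ : ℝ) (hU : IsOpen U) :
    IsOpen (UU π κ Φ z₀ ρ U) := by
  have h1 : IsOpen {z : Euc k | ‖π z‖ < 6} := isOpen_lt (by fun_prop) continuous_const
  have h2 : IsOpen {z : Euc k | ‖κ z‖ < 3} := isOpen_lt (by fun_prop) continuous_const
  have h3 : IsOpen {z : Euc k | hmt' z₀ ρ (Φ z) ∈ U} := by
    refine hU.preimage ?_
    unfold hmt'
    fun_prop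
  exact h1.inter (h2.inter h3)

theorem UU_subset (z₀ : Euc k) (ρ : ℝ) :
    UU π κ Φ z₀ ρ U ⊆ Φ ⁻¹' (hmt' z₀ ρ ⁻¹' U) := fun _ hz => hz.2.2

theorem cyl_subset_UU (h : Cht π κ u e Φ Ψ) (sp : Split π κ)
    (hu0 : ∀ v, ‖u v‖ ≤ lam) (hu1 : ∀ v, ‖fderiv ℝ u v‖ ≤ lam) (hl2 : lam ≤ 1 / 4)
    {z₀ : Euc k} {ρ : ℝ} (hρ : 0 < ρ) (hb : closedBall z₀ (14 * ρ) ⊆ U) :
    cyl π κ 0 5 2 ⊆ UU π κ Φ z₀ ρ U := by
  intro z hz
  obtain ⟨h1, h2⟩ := hz
  rw [sub_zero] at h1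
  refine ⟨by linarith, by linarith, hb ?_⟩
  rw [mem_closedBall, dist_eq_norm]
  have e1 : hmt' z₀ ρ (Φ z) - z₀ = ρ • Φ z := by unfold hmt'; abel
  rw [e1, norm_smul, Real.norm_of_nonneg hρ.le, mul_comm]
  refine mul_le_mul_of_nonneg_right ?_ hρ.le
  have h3 : ‖π (Φ z)‖ ≤ 6 := by
    rw [h.pi_eq sp (by linarith)]
    refine (norm_sub_le _ _).trans ?_
    have := norm_adj_le (hu1 (π z)) (κ z)
    nlinarith [norm_nonneg (κ z)]
  have h4 : ‖κ (Φ z)‖ ≤ 6 := by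
    rw [h.ka_eq sp (by linarith)]
    refine (norm_add_le _ _).trans ?_
    have := hu0 (π z)
    linarith
  have h5 := sp.norm_sq (Φ z)
  nlinarith [norm_nonneg (Φ z), norm_nonneg (π (Φ z)), norm_nonneg (κ (Φ z))]

theorem integral_DD (hD : IsIntegralVarifoldIn U D) (hU : IsOpen U) (h : Dif Φ Ψ) (z₀ : Euc k)
    {ρ : ℝ} (hρ : 0 < ρ) :
    IsIntegralVarifoldIn (UU π κ Φ z₀ ρ U) (DD π κ Φ Ψ z₀ ρ U D) :=
  integral_restr (integral_trans (integral_zoom hD z₀ hρ) h.symm)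
    (isOpen_UU h.cd.continuous z₀ ρ hU).measurableSet (UU_subset z₀ ρ)

theorem weight_DD (hD : IsIntegralVarifoldIn U D) (hU : IsOpen U) (h : Dif Φ Ψ) (z₀ : Euc k)
    {ρ : ℝ} (hρ : 0 < ρ) {B : Set (Euc k)} (hB : MeasurableSet B)
    (hBU : B ⊆ UU π κ Φ z₀ ρ U) :
    weight (DD π κ Φ Ψ z₀ ρ U D) B = weight (trans Ψ (zoom z₀ ρ D)) B := by
  unfold DD
  rw [weight_restr (integral_trans (integral_zoom hD z₀ hρ) h.symm)
    (isOpen_UU h.cd.continuous z₀ ρ hU).measurableSet, Measure.restrict_apply hB,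
    inter_eq_left.2 hBU]

/-- two-sided comparison of the mass of `B` with the mass of the image in the original varifold -/
theorem weight_cht (hD : IsIntegralVarifoldIn U D) (h : Dif Φ Ψ)
    (hg : ∀ z, ‖fderiv ℝ Φ z - 1‖ ≤ e) (he0 : 0 ≤ e) (he : e < 1) (z₀ : Euc k) {ρ : ℝ}
    (hρ : 0 < ρ) {B : Set (Euc k)} (hB : MeasurableSet B) :
    weight (trans Ψ (zoom z₀ ρ D)) B ≤ ENNReal.ofReal (((1 - e)⁻¹) ^ m) *
      (ENNReal.ofReal ((ρ ^ m)⁻¹) * weight D (hmt' z₀ ρ '' (Φ '' B))) ∧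
    ENNReal.ofReal ((ρ ^ m)⁻¹) * weight D (hmt' z₀ ρ '' (Φ '' B)) ≤
      ENNReal.ofReal ((1 + e) ^ m) * weight (trans Ψ (zoom z₀ ρ D)) B := by
  have hz := integral_zoom hD z₀ hρ
  have hB' : MeasurableSet (Φ '' B) := by
    rw [h.image_eq]; exact h.symm.meas hB
  have h1 := weight_trans_le hz h.symm (L := (1 - e)⁻¹) (by
    have : 0 < 1 - e := by linarith
    positivity) hB (fun z _ => norm_fderiv_inv_le' h he hg z)
  have h2 := weight_trans_le (integral_trans hz h.symm) h (L := 1 + e) (by linarith) hB'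
    (fun z _ => norm_fderiv_le' hg z)
  rw [trans_trans h.right] at h2
  have h3 : Φ ⁻¹' (Φ '' B) = B := preimage_image_eq _ h.inj
  rw [← h.image_eq, weight_zoom hD z₀ hρ hB'] at h1
  rw [h3, weight_zoom hD z₀ hρ hB'] at h2
  exact ⟨h1, h2⟩

end Crest.Agent.R234.Ex_46
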