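import Crest.Agent.R234.Fm10_281
import Crest.Agent.R234.Ex8_46

/-!
# Row 234, VF-FERMI (helper281), file 11: the Fermi chart in the language of F3-CLS (helper46)

`fermi_set` : arbitrary set `W` of the chart; `fermi_restr`, `fermi_DD`: zoomed, transported,
restricted data.
-/

set_option autoImplicit false

open MeasureTheory Filter Topology Set
open Crest.GeometryTopology.Submanifold
open Crest.Agent.R234.Vf_884
open Crest.Agent.R234.Ar_870 (IsCo tl)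
open Crest.Agent.R234.AS_456 (hp vp errA err AS)
open Crest.Agent.R234.Ft_209 (Dif)
open Crest.Agent.R234.Cy_870 (Split)
open Crest.Agent.R234.Fc_209 (IsChart Bd)
open Crest.Agent.R234.Main_456 (Msys)
open Crest.Agent.R234.Ex_46 (trans zoom hmt' restr UU DD)
open scoped InnerProductSpace

noncomputable section

namespace Crest.Agent.R234.Fm_281

variable {m n k : ℕ}

theorem Cht.mono {T : Dif k} {π : Euc k →L[ℝ] Euc m} {W W' : Set (Euc k)} {l : ℝ}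
    {P : Euc k → L k} {P' : Euc k → (Euc k →L[ℝ] L k)} {h : Euc k → L k}
    {h1 : Euc k → Euc k → L k} (hT : Cht m T π W l P P' h h1) (hW : W' ⊆ W) :
    Cht m T π W' l P P' h h1 :=
  ⟨hT.co, hT.cP', hT.dP, fun z hz => hT.g z (hW hz), fun z hz => hT.dg z (hW hz),
    fun z hz => hT.pt z (hW hz)⟩

/-- the class is stable under restriction to the set. -/
theorem AS_restrict {π : Euc k →L[ℝ] Euc m} {W : Set (Euc k)} {δ : ℝ}
    {V : Measure (Euc k × L k)} (h : AS π W δ V) :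
    AS π W δ (V.restrict (W ×ˢ univ)) where
  conc := ae_restrict_of_ae h.conc
  fin K hK hKW := (Measure.restrict_apply_le _ _).trans_lt (h.fin K hK hKW)
  fv X hX hXc hXW := by
    have h1 := h.fv X hX hXc hXW
    have key : ∀ f : Euc k × L k → ℝ, (∀ p : Euc k × L k, p.1 ∉ tsupport X → f p = 0) →
        ∫ p, f p ∂(V.restrict (W ×ˢ univ)) = ∫ p, f p ∂V := by
      intro f hf
      refine setIntegral_eq_integral_of_forall_compl_eq_zero fun p hp => hf p fun hc => ?_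
      exact hp ⟨hXW hc, mem_univ _⟩
    rw [key _ fun p hp => ?_, key _ fun p hp => AS_456.err_eq_zero hp δ]
    · exact h1
    · have h2 : fderiv ℝ X p.1 = 0 := by
        by_contra h
        exact hp (support_fderiv_subset ℝ h)
      rw [h2, ContinuousLinearMap.zero_comp, map_zero]

/-- **FERMI on an arbitrary set of the chart** -/
theorem fermi_set (m n k : ℕ) : ∃ c C : ℝ, 0 < c ∧ 0 < C ∧
    ∀ (π : Euc k →L[ℝ] Euc m) (κ : Euc k →L[ℝ] Euc n) (u : Euc m → Euc n) (l : ℝ),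
      Split π κ → ContDiff ℝ 3 u → 0 ≤ l → l ≤ c → Bd u l →
      ∃ T : Dif k, IsChart T π κ u (C * l) ∧
        ∀ r : ℝ, (∀ x ∈ Metric.ball (0 : Euc m) r, Msys u x = 0) →
        ∀ (W U : Set (Euc k)) (V : Measure (Euc k × L k)) (h0 : ℝ),
          (∀ z ∈ W, ‖π z‖ < r ∧ ‖κ z‖ < 3 ∧ T.Φ z ∈ U) → Stat m k U V → 0 ≤ h0 → h0 ≤ 1 →
          (∀ᵐ p ∂(T.push V), p.1 ∈ W → ‖vp π p.1‖ ≤ h0) →
          AS π W (C * (l * (l + h0))) (T.push V) := by
  obtain ⟨c, C, hc, -, hC, hAS⟩ := exists_AS m k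
  obtain ⟨c', C', hc', hC', hch⟩ := Fc_209.exists_chart n
  refine ⟨min c c', max C C', lt_min hc hc', lt_max_of_lt_left hC, ?_⟩
  intro π κ u l hs hu hl hlc hb
  obtain ⟨T, hT⟩ := hch m k π κ u l hs hu hl (hlc.trans (min_le_right _ _)) hb
  have hT' : IsChart T π κ u (max C C' * l) :=
    { Φ_eq := hT.Φ_eq
      near := fun z => (hT.near z).trans
        (by gcongr; exact le_max_right _ _)
      nA := fun z => (hT.nA z).trans (mul_le_mul_of_nonneg_right (le_max_right _ _) hl)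
      A_eq := hT.A_eq
      dA_eq := hT.dA_eq
      gm_eq := hT.gm_eq
      dGm_eq := hT.dGm_eq }
  refine ⟨T, hT', fun r hM W U V h0 hW hV h00 hh hy => ?_⟩
  have hWU : W ∩ T.Φ ⁻¹' U = W := inter_eq_left.2 fun z hz => (hW z hz).2.2
  have h1 := hAS T π W U l h0 _ _ _ _ V
    ((cht_of hs hu hl hb hM hT).mono fun z hz => ⟨(hW z hz).1, (hW z hz).2.1⟩)
    (hlc.trans (min_le_left _ _)) hh hV (by rw [hWU]; exact hy)
  rw [hWU] at h1
  exact h1.mono hs.hh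
    (mul_le_mul_of_nonneg_right (le_max_left _ _) (mul_nonneg hl (by linarith)))

theorem cht_46 {π : Euc k →L[ℝ] Euc m} {κ : Euc k →L[ℝ] Euc n} {u : Euc m → Euc n} {e : ℝ}
    {T : Dif k} (hu : ContDiff ℝ 3 u) (hT : IsChart T π κ u e) :
    Ex_46.Cht π κ u e T.Φ T.Ψ where
  dif := ⟨T.cΦ.of_le one_le_two, T.cΨ.of_le one_le_two, T.left, T.right⟩
  der := hT.nA
  eq z hz := hT.Φ_eq' hu (by linarith)

/-- **FERMI for zoomed, transported and restricted data**: `T.data = trans T.Ψ`. -/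
theorem fermi_restr (m n k : ℕ) : ∃ c C : ℝ, 0 < c ∧ 0 < C ∧
    ∀ (π : Euc k →L[ℝ] Euc m) (κ : Euc k →L[ℝ] Euc n) (u : Euc m → Euc n) (l : ℝ),
      Split π κ → ContDiff ℝ 3 u → 0 ≤ l → l ≤ c → Bd u l →
      ∃ T : Dif k, IsChart T π κ u (C * l) ∧ Ex_46.Cht π κ u (C * l) T.Φ T.Ψ ∧
        ∀ r : ℝ, (∀ x ∈ Metric.ball (0 : Euc m) r, Msys u x = 0) →
        ∀ (W U : Set (Euc k)) (D : VarifoldData m k) (z₀ : Euc k) (ρ h0 : ℝ),
          IsIntegralVarifoldIn U D → IsStationaryIn U D → 0 < ρ → MeasurableSet W →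
          (∀ z ∈ W, ‖π z‖ < r ∧ ‖κ z‖ < 3 ∧ hmt' z₀ ρ (T.Φ z) ∈ U) → 0 ≤ h0 → h0 ≤ 1 →
          (∀ z ∈ support (trans T.Ψ (zoom z₀ ρ D)), z ∈ W → ‖κ z‖ ≤ h0) →
          AS π W (C * (l * (l + h0))) (VD (trans T.Ψ (zoom z₀ ρ D))) ∧
          AS π W (C * (l * (l + h0))) (VD (restr W (trans T.Ψ (zoom z₀ ρ D)))) := by
  obtain ⟨c, C, hc, hC, h⟩ := fermi_set m n k
  refine ⟨c, C, hc, hC, ?_⟩
  intro π κ u l hs hu hl hlc hb
  obtain ⟨T, hT, hT2⟩ := h π κ u l hs hu hl hlc hb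
  refine ⟨T, hT, cht_46 hu hT, fun r hM W U D z₀ ρ h0 hD hst hρ hWm hW h00 hh hy => ?_⟩
  have hz := Ex_46.integral_zoom hD z₀ hρ
  have hzs := Ex_46.stationary_zoom hD hst z₀ hρ
  have hi := T.isIntegral hz
  have e1 : T.data (zoom z₀ ρ D) = trans T.Ψ (zoom z₀ ρ D) := rfl
  have h1 : AS π W (C * (l * (l + h0))) (VD (trans T.Ψ (zoom z₀ ρ D))) := by
    rw [← e1, T.VD_data hz]
    refine hT2 r hM W (hmt' z₀ ρ ⁻¹' U) _ h0 hW (stat_VD hz hzs) h00 hh ?_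
    rw [← T.VD_data hz, e1]
    filter_upwards [Al9_182.ae_mem_support hi] with p hp hpW
    rw [Fc_209.norm_vp hs]
    exact hy p.1 hp hpW
  refine ⟨h1, ?_⟩
  have h2 := Ex_46.VD_restr hi hWm
  rw [e1] at h2
  rw [h2]
  exact AS_restrict h1

/-- **FERMI for the data of the class of the core** -/
theorem fermi_DD (m n k : ℕ) : ∃ c C : ℝ, 0 < c ∧ 0 < C ∧
    ∀ (π : Euc k →L[ℝ] Euc m) (κ : Euc k →L[ℝ] Euc n) (u : Euc m → Euc n) (l : ℝ),
      Split π κ → ContDiff ℝ 3 u → 0 ≤ l → l ≤ c → Bd u l →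
      (∀ x ∈ Metric.ball (0 : Euc m) 6, Msys u x = 0) →
      ∃ T : Dif k, IsChart T π κ u (C * l) ∧ Ex_46.Cht π κ u (C * l) T.Φ T.Ψ ∧
        ∀ (U : Set (Euc k)) (D : VarifoldData m k) (z₀ : Euc k) (ρ h0 : ℝ), IsOpen U →
          IsIntegralVarifoldIn U D → IsStationaryIn U D → 0 < ρ → 0 ≤ h0 → h0 ≤ 1 →
          (∀ z ∈ support (trans T.Ψ (zoom z₀ ρ D)), z ∈ UU π κ T.Φ z₀ ρ U → ‖κ z‖ ≤ h0) →
          AS π (UU π κ T.Φ z₀ ρ U) (C * (l * (l + h0))) (VD (DD π κ T.Φ T.Ψ z₀ ρ U D)) := by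
  obtain ⟨c, C, hc, hC, h⟩ := fermi_restr m n k
  refine ⟨c, C, hc, hC, ?_⟩
  intro π κ u l hs hu hl hlc hb hM
  obtain ⟨T, hT, hT', hT2⟩ := h π κ u l hs hu hl hlc hb
  refine ⟨T, hT, hT', fun U D z₀ ρ h0 hU hD hst hρ h00 hh hy => ?_⟩
  exact (hT2 6 hM _ U D z₀ ρ h0 hD hst hρ (Ex_46.isOpen_UU T.continuousΦ z₀ ρ hU).measurableSet
    (fun z hz => hz) h00 hh hy).2

end Crest.Agent.R234.Fm_281
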