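import Crest.Agent.R234.Ex9_46
import Crest.Agent.R234.Fm11_281

/-!
# Row 234, node F3-CLS, part 5 (helper46): the class in the Fermi chart, literal form

`cls_chart`: `cls_of` with the chart of 209 and the almost stationarity of 281.
-/

set_option autoImplicit false

open MeasureTheory Filter Topology Set Metric
open scoped ENNReal InnerProductSpace ContDiff
open Crest.GeometryTopology.Submanifold Crest.Agent.R234.Vf_884 Crest.Agent.R234.Cy_870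
open Crest.Agent.R234.Ar_870
open Crest.Agent.R234.Main_456 (Frame Msys hgt sep box)

noncomputable section

namespace Crest.Agent.R234.Ex_46

variable {m n k : ℕ}

/-- heights of the transported data on the whole open set of the class -/
theorem hgt_UU {π : Euc k →L[ℝ] Euc m} {κ : Euc k →L[ℝ] Euc n} {u : Euc m → Euc n}
    {Φ Ψ : Euc k → Euc k} {U : Set (Euc k)} {D : VarifoldData m k} {z₀ : Euc k} {ρ e lam d : ℝ}
    (hm : 1 ≤ m) (sp : Split π κ) (ch : Cht π κ u e Φ Ψ) (he16 : e ≤ 1 / 16)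
    (hu : ContDiff ℝ 2 u) (hu0 : ∀ v, ‖u v‖ ≤ lam) (hu1 : ∀ v, ‖fderiv ℝ u v‖ ≤ lam)
    (hu2 : ∀ v ∈ ball (0 : Euc m) 7, ‖iteratedFDeriv ℝ 2 u v‖ ≤ lam ∧ Msys u v = 0)
    (hl4 : lam ≤ 1 / 4) (hlm : 64 * m * lam ^ 2 ≤ 1)
    (hU : IsOpen U) (hD : IsIntegralVarifoldIn U D) (hs : IsStationaryIn U D) (hρ : 0 < ρ)
    (hb : closedBall z₀ (14 * ρ) ⊆ U)
    (hsep : sep (VD D) π κ z₀ ρ u 7 ≤ d * ρ ^ (m + 2)) :
    ∀ z ∈ support (trans Ψ (zoom z₀ ρ D)), z ∈ UU π κ Φ z₀ ρ U →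
      ‖κ z‖ ≤ √(5 * 4 ^ m / ome m * d) := by
  intro z hz hzU
  exact Real.le_sqrt_of_sq_le (hgt_cht hU hD hs hm sp ch he16 hu hu0 hu1 hu2 hl4 hlm hρ hb hsep
    hz hzU.1 hzU.2.1)

/-- **F3-CLS**: for small `lam` and small `d`, the chart of 209 exists and the zoomed, transported
and restricted data are in the class of the core with `δ = C lam (lam + √d)` and `D = C d`. -/
theorem cls_chart (m n k Q : ℕ) (hm : 1 ≤ m) : ∃ c C : ℝ, 0 < c ∧ 0 < C ∧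
    ∀ (π : Euc k →L[ℝ] Euc m) (κ : Euc k →L[ℝ] Euc n) (u : Euc m → Euc n) (lam : ℝ),
      Split π κ → ContDiff ℝ 3 u → lam ≤ c → (∀ v, ‖u v‖ ≤ lam) → Fc_209.Bd u lam →
      (∀ v ∈ ball (0 : Euc m) 7, ‖iteratedFDeriv ℝ 2 u v‖ ≤ lam ∧ Msys u v = 0) →
      ∃ T : Ft_209.Dif k, Fc_209.IsChart T π κ u (C * lam) ∧ Cht π κ u (C * lam) T.Φ T.Ψ ∧
        ∀ (U : Set (Euc k)) (D : VarifoldData m k) (z₀ : Euc k) (ρ d δ D' : ℝ),
          IsOpen U → IsIntegralVarifoldIn U D → IsStationaryIn U D → 0 < ρ →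
          closedBall z₀ (14 * ρ) ⊆ U → d ≤ c →
          sep (VD D) π κ z₀ ρ u 7 ≤ d * ρ ^ (m + 2) →
          |(ρ ^ m)⁻¹ * (weight D).real (hmt' z₀ ρ '' (T.Φ '' cyl π κ 0 4 1)) -
            Q * (ome m * 4 ^ m)| ≤ 1 / 8 * (ome m * 4 ^ m) →
          (ρ ^ m)⁻¹ * (weight D).real (hmt' z₀ ρ '' (T.Φ '' cyl π κ 0 5 2)) ≤
            (Q + 1 / 2) * (ome m * 5 ^ m) →
          C * (lam * (lam + √d)) ≤ δ → δ ≤ 1 / 32 → C * d ≤ D' →
          Core_809.Cls Q δ D' π κ (UU π κ T.Φ z₀ ρ U) (DD π κ T.Φ T.Ψ z₀ ρ U D) := by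
  obtain ⟨c, C, hc, hC, hcls⟩ := cls_of m n k Q hm
  obtain ⟨c', C', hc', hC', hfer⟩ := Fm_281.fermi_restr m n k
  have hom := ome_pos m
  obtain ⟨A, hA⟩ : ∃ A : ℝ, A = 5 * 4 ^ m / ome m := ⟨_, rfl⟩
  have hA0 : 0 < A := by rw [hA]; positivity
  have hm0 : (0:ℝ) < m := by exact_mod_cast hm
  have hm1 : (1:ℝ) ≤ m := by exact_mod_cast hm
  obtain ⟨c₀, hc₀, h1, h2, h3, h4, h5⟩ : ∃ c₀ : ℝ, 0 < c₀ ∧ c₀ ≤ c ∧ c₀ ≤ c' ∧ c₀ ≤ 1 / (64 * m) ∧
      C' * c₀ ≤ min c (1 / 16) ∧ A * c₀ ≤ 1 := by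
    refine ⟨min (min c c') (min (1 / (64 * m)) (min (C'⁻¹ * min c (1 / 16)) A⁻¹)),
      by positivity, ?_, ?_, ?_, ?_, ?_⟩
    · exact (min_le_left _ _).trans (min_le_left _ _)
    · exact (min_le_left _ _).trans (min_le_right _ _)
    · exact (min_le_right _ _).trans (min_le_left _ _)
    · have e1 : min (min c c') (min (1 / (64 * m)) (min (C'⁻¹ * min c (1 / 16)) A⁻¹)) ≤
          C'⁻¹ * min c (1 / 16) :=
        (min_le_right _ _).trans ((min_le_right _ _).trans (min_le_left _ _))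
      calc _ ≤ C' * (C'⁻¹ * min c (1 / 16)) := mul_le_mul_of_nonneg_left e1 hC'.le
        _ = _ := by rw [← mul_assoc, mul_inv_cancel₀ hC'.ne', one_mul]
    · have e1 : min (min c c') (min (1 / (64 * m)) (min (C'⁻¹ * min c (1 / 16)) A⁻¹)) ≤ A⁻¹ :=
        (min_le_right _ _).trans ((min_le_right _ _).trans (min_le_right _ _))
      calc _ ≤ A * A⁻¹ := mul_le_mul_of_nonneg_left e1 hA0.le
        _ = _ := mul_inv_cancel₀ hA0.ne'
  obtain ⟨C₁, hC₁, h6, h7, h8⟩ : ∃ C₁ : ℝ, 0 < C₁ ∧ C ≤ C₁ ∧ C' ≤ C₁ ∧ C' * (1 + √A) ≤ C₁ := by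
    refine ⟨C + C' * (1 + √A), by positivity, ?_, ?_, ?_⟩
    · have : 0 ≤ C' * (1 + √A) := by positivity
      linarith
    · have : 0 ≤ C' * √A := by positivity
      linarith
    · linarith
  refine ⟨c₀, C₁, hc₀, hC₁, ?_⟩
  intro π κ u lam sp hu hlc hu0 hbd hu2
  have hl0 : 0 ≤ lam := (norm_nonneg _).trans (hu0 0)
  obtain ⟨T, hT, hch, hAS⟩ := hfer π κ u lam sp hu hl0 (hlc.trans h2) hbd
  have hle : C' * lam ≤ C₁ * lam := mul_le_mul_of_nonneg_right h7 hl0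
  have hT1 : Fc_209.IsChart T π κ u (C₁ * lam) :=
    { Φ_eq := hT.Φ_eq
      near := fun z => (hT.near z).trans (by gcongr)
      nA := fun z => (hT.nA z).trans hle
      A_eq := hT.A_eq
      dA_eq := hT.dA_eq
      gm_eq := hT.gm_eq
      dGm_eq := hT.dGm_eq }
  have hch1 : Cht π κ u (C₁ * lam) T.Φ T.Ψ := ⟨hch.dif, fun z => (hch.der z).trans hle, hch.eq⟩
  refine ⟨T, hT1, hch1, ?_⟩
  intro U D z₀ ρ d δ D' hU hD hs hρ hb hdc hsep hm4 hm5 hδ hδ1 hD'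
  have hu1 : ∀ v, ‖fderiv ℝ u v‖ ≤ lam := fun v =>
    ContinuousLinearMap.opNorm_le_bound _ hl0 fun a => hbd.d1 v a
  have he : C' * lam ≤ c ∧ C' * lam ≤ 1 / 16 := by
    have := (mul_le_mul_of_nonneg_left hlc hC'.le).trans h4
    exact ⟨this.trans (min_le_left _ _), this.trans (min_le_right _ _)⟩
  have hlm1 : lam ≤ 1 / (64 * m) := hlc.trans h3
  have hlm2 : 64 * m * lam ≤ 1 := by
    rw [le_div_iff₀ (by positivity)] at hlm1
    linarith
  have hl64 : lam ≤ 1 / 64 := by nlinarith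
  have hlm : 64 * m * lam ^ 2 ≤ 1 := by nlinarith
  have hd0 : 0 ≤ d := by
    have h1 : 0 ≤ sep (VD D) π κ z₀ ρ u 7 := integral_nonneg fun _ => by positivity
    have h2 : 0 ≤ d * ρ ^ (m + 2) := h1.trans hsep
    exact nonneg_of_mul_nonneg_left h2 (by positivity)
  have hhgt := hgt_UU hm sp hch he.2 (hu.of_le (by norm_num)) hu0 hu1 hu2 (by linarith) hlm hU hD
    hs hρ hb hsep
  rw [← hA] at hhgt
  have hAd : √(A * d) ≤ 1 := by
    rw [Real.sqrt_le_one]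
    exact (mul_le_mul_of_nonneg_left hdc hA0.le).trans h5
  have has := (hAS 7 (fun v hv => (hu2 v hv).2) (UU π κ T.Φ z₀ ρ U) U D z₀ ρ (√(A * d)) hD hs hρ
    (isOpen_UU hch.dif.cd.continuous z₀ ρ hU).measurableSet
    (fun z hz => ⟨hz.1.trans (by norm_num), hz.2.1, hz.2.2⟩) (Real.sqrt_nonneg _) hAd hhgt).2
  have hδ2 : C' * (lam * (lam + √(A * d))) ≤ δ := by
    refine le_trans ?_ hδ
    rw [Real.sqrt_mul hA0.le]
    have e1 : 0 ≤ √A := Real.sqrt_nonneg _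
    have e2 : 0 ≤ √d := Real.sqrt_nonneg _
    calc C' * (lam * (lam + √A * √d)) ≤ C' * (lam * ((1 + √A) * (lam + √d))) := by
          refine mul_le_mul_of_nonneg_left (mul_le_mul_of_nonneg_left ?_ hl0) hC'.le
          nlinarith [mul_nonneg e1 hl0]
      _ = C' * (1 + √A) * (lam * (lam + √d)) := by ring
      _ ≤ C₁ * (lam * (lam + √d)) := mul_le_mul_of_nonneg_right h8 (by positivity)
  have has2 : AS_456.AS π (UU π κ T.Φ z₀ ρ U) δ (VD (DD π κ T.Φ T.Ψ z₀ ρ U D)) :=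
    has.mono sp.hh hδ2
  have hδ0 : 0 ≤ δ := le_trans (by positivity) hδ
  have hfin := hcls π κ u T.Φ T.Ψ U D z₀ ρ lam (C' * lam) δ d sp hch (by positivity) he.1
    (hu.of_le (by norm_num)) hu0 hu1 hu2 (hlc.trans h1) hU hD hs hρ hb hδ0 hδ1 (hdc.trans h1)
    hsep hm4 hm5 has2
  have hCd : C * d ≤ D' := (mul_le_mul_of_nonneg_right h6 hd0).trans hD'
  exact
    { sp := hfin.sp
      isOpen := hfin.isOpen
      int := hfin.int
      as := hfin.as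
      dom' := hfin.dom'
      hgt := hfin.hgt.mono fun p hp hpc => (hp hpc).trans hCd
      en := hfin.en.trans hCd
      mass := hfin.mass
      big := hfin.big
      ex := hfin.ex }

end Crest.Agent.R234.Ex_46
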