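import Crest.Agent.R234.F37_354

/-!
# Row 234, F3-LE (helper46): the two masses of the cylinders of the adapted chart

`masses`: from the total variation bound of the anomaly (618), 842's area formula and the smallness
of the tilt, the two mass hypotheses of `Ex_46.cls_chart`.
-/

set_option autoImplicit false

open MeasureTheory Filter Topology Set Metric
open scoped ENNReal NNReal ContDiff InnerProductSpace
open Crest.GeometryTopology.Submanifold Crest.Agent.R234.Vf_884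

noncomputable section

namespace Crest.Agent.R234.Ms_46

open Crest.Agent.R234.Main_456 (Frame Msys hgt sep box)
open Crest.Agent.R234.Gi_456 (Gr tube foot ch Lo Loi IsFoot jB)
open Crest.Agent.R234.GL_394 (VK On Ok)
open Crest.Agent.R234.Cy_870 (Split cyl)
open Crest.Agent.R234.Foot_842 (pt)
open Crest.Agent.R234.Nrm_842 (Zm zc)
open Crest.Agent.R234.Grot_842 (rπ rρ)
open Crest.Agent.R234.Fm_281 (zy)
open Crest.Agent.R234.Ex_46 (hmt')
open Crest.Agent.R234.F35_354 (Bp)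
open Crest.Agent.R234.F37_354 (Rg Am)
open Crest.Agent.R234.Ell1_3 (dns dns_pos dns_contDiff)

variable {m n k : ℕ}

/-- feet of the cylinder of radius `R` -/
def FR (t : ℝ) (q : Euc m →L[ℝ] Euc n) (H : Euc m →L[ℝ] Euc m) (w : Euc m → Euc n) (X : Euc m)
    (R : ℝ) : Set (Euc m) := {Y | ‖Y - X‖ ≤ 6 * t ∧ ‖zc t q H w X Y‖ ≤ R}

section Area

variable {w w' u : Euc m → Euc n} {X : Euc m} {K : ℕ} {C κ t : ℝ} {q : Euc m →L[ℝ] Euc n}
  {H : Euc m →L[ℝ] Euc m} {H' : Euc n →L[ℝ] Euc n} {R : ℝ}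

theorem isClosed_FR (h : Zm w X K C κ t q H H' w' u) : IsClosed (FR t q H w X R) := by
  have h1 : Continuous (zc t q H w X) :=
    continuous_iff_continuousAt.2 fun Y => (h.hasFDerivAt_zc Y).continuousAt
  have h2 : IsClosed {Y : Euc m | ‖Y - X‖ ≤ 6 * t} :=
    isClosed_le (continuous_id.sub continuous_const).norm continuous_const
  exact h2.inter (isClosed_le h1.norm continuous_const)

theorem FR_lt (h : Zm w X K C κ t q H H' w' u) (hR : R ≤ 5) {Y : Euc m}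
    (hY : Y ∈ FR t q H w X R) : ‖Y - X‖ ≤ 11 / 2 * t := by
  have ht := h.t0
  have h1 := h.le_norm_zc hY.1
  have h2 := hY.2
  nlinarith

/-- the area of the feet -/
theorem area_FR (h : Zm w X K C κ t q H H' w' u) (hR : R ≤ 5) :
    ∫ Y, (FR t q H w X R).indicator (fun _ => (1:ℝ)) Y * dns (fderiv ℝ w Y) =
      t ^ m * ∫ x in closedBall (0 : Euc m) R, dns (fderiv ℝ u x) := by
  have ht := h.t0
  have h1 := h.area (f := (closedBall (0 : Euc m) R).indicator fun _ => (1:ℝ)) fun x hx => by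
    refine indicator_of_notMem ?_ _
    rw [mem_closedBall_zero_iff, not_le]
    linarith
  have h2 : ∫ x, (closedBall (0 : Euc m) R).indicator (fun _ => (1:ℝ)) x * dns (fderiv ℝ u x) =
      ∫ x in closedBall (0 : Euc m) R, dns (fderiv ℝ u x) := by
    rw [← integral_indicator measurableSet_closedBall]
    refine integral_congr_ae (Eventually.of_forall fun x => ?_)
    by_cases hx : x ∈ closedBall (0 : Euc m) R
    · simp only [indicator_of_mem hx, one_mul]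
    · simp only [indicator_of_notMem hx, zero_mul]
  rw [← h2, ← h1, ← integral_indicator measurableSet_ball]
  refine integral_congr_ae (Eventually.of_forall fun Y => ?_)
  by_cases hY : Y ∈ FR t q H w X R
  · have h3 : Y ∈ ball X (6 * t) := by
      rw [mem_ball, dist_eq_norm]
      have := FR_lt h hR hY
      linarith
    have h4 : zc t q H w X Y ∈ closedBall (0 : Euc m) R := by
      rw [mem_closedBall_zero_iff]
      exact hY.2
    simp only [indicator_of_mem hY, indicator_of_mem h3, indicator_of_mem h4]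
  · by_cases h3 : Y ∈ ball X (6 * t)
    · have h4 : zc t q H w X Y ∉ closedBall (0 : Euc m) R := by
        rw [mem_closedBall_zero_iff]
        intro h5
        rw [mem_ball, dist_eq_norm] at h3
        exact hY ⟨h3.le, h5⟩
      simp only [indicator_of_notMem hY, indicator_of_mem h3, indicator_of_notMem h4]
    · simp only [indicator_of_notMem hY, indicator_of_notMem h3, zero_mul]

theorem continuous_dns (h : Zm w X K C κ t q H H' w' u) :
    Continuous fun x => dns (fderiv ℝ u x) := by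
  have h1 : Continuous (fderiv ℝ u) := h.sm.continuous_fderiv (by simp)
  exact dns_contDiff.continuous.comp h1

theorem int_dns (h : Zm w X K C κ t q H H' w' u) {C2 : ℝ} (hC2 : 0 ≤ C2)
    (hd : ∀ q : Euc m →L[ℝ] Euc n, ‖q‖ ≤ 1 / 4 → dns q ≤ 1 + C2 * ‖q‖ ^ 2) (hR : 0 ≤ R) :
    ome m * R ^ m ≤ ∫ x in closedBall (0 : Euc m) R, dns (fderiv ℝ u x) ∧
      ∫ x in closedBall (0 : Euc m) R, dns (fderiv ℝ u x) ≤
        (1 + C2 * (C * κ * t) ^ 2) * (ome m * R ^ m) := by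
  have hvol : (volume : Measure (Euc m)).real (closedBall 0 R) = ome m * R ^ m := by
    rw [Measure.addHaar_real_closedBall volume (0 : Euc m) hR, finrank_euclideanSpace,
      Fintype.card_fin, mul_comm]
    rfl
  have hfin : (volume : Measure (Euc m)) (closedBall 0 R) ≠ ⊤ := measure_closedBall_lt_top.ne
  have i1 : IntegrableOn (fun x => dns (fderiv ℝ u x)) (closedBall (0 : Euc m) R) volume :=
    (continuous_dns h).continuousOn.integrableOn_compact (isCompact_closedBall _ _)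
  have i2 : ∀ a : ℝ, IntegrableOn (fun _ : Euc m => a) (closedBall (0 : Euc m) R) volume :=
    fun a => integrableOn_const hfin
  have e1 : ∀ a : ℝ, ∫ _ in closedBall (0 : Euc m) R, a = a * (ome m * R ^ m) := by
    intro a
    rw [setIntegral_const, hvol, smul_eq_mul, mul_comm]
  constructor
  · have h1 := setIntegral_mono_on (i2 1) i1 measurableSet_closedBall
      fun x _ => Nrm_842.one_le_dns (fderiv ℝ u x)
    rwa [e1, one_mul] at h1
  · have h1 := setIntegral_mono_on i1 (i2 (1 + C2 * (C * κ * t) ^ 2)) measurableSet_closedBall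
      fun x _ => by
        have h2 := h.norm_dU x
        have h3 := h.Cκt
        have h4 := hd (fderiv ℝ u x) (by linarith)
        have h5 : ‖fderiv ℝ u x‖ ^ 2 ≤ (C * κ * t) ^ 2 := pow_le_pow_left₀ (norm_nonneg _) h2 2
        have h6 := mul_le_mul_of_nonneg_left h5 hC2
        linarith
    rwa [e1] at h1

/-- the integral in the coordinate of the chart -/
theorem int_F (Xc : Euc m) :
    ∫ v, (FR t q H w X R).indicator (fun _ => (1:ℝ)) (Gi_456.pt w Xc v) * jB w Xc v =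
      ∫ Y, (FR t q H w X R).indicator (fun _ => (1:ℝ)) Y * dns (fderiv ℝ w Y) := by
  have hd1 := F35k_433.abs_det_Loi (fderiv ℝ w Xc)
  have hpos := dns_pos (fderiv ℝ w Xc)
  have hdet : (Loi (fderiv ℝ w Xc)).det ≠ 0 := by
    intro h0
    rw [h0, abs_zero] at hd1
    exact (inv_pos.2 hpos).ne hd1
  have h1 := F35k_433.integral_comp_lin (vol := (volume : Measure (Euc m))) hdet
    (fun Y => (FR t q H w X R).indicator (fun _ => (1:ℝ)) Y * dns (fderiv ℝ w Y)) Xc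
  rw [← h1, hd1, ← integral_const_mul]
  refine integral_congr_ae (Eventually.of_forall fun v => ?_)
  simp only
  rw [jB, Gi_456.det_Lo, Gi_456.pt]
  ring

end Area

variable {π : Euc k →L[ℝ] Euc m} {ρ : Euc k →L[ℝ] Euc n} {x : Euc k} {w w' u : Euc m → Euc n}
  {Xc X : Euc m} {t C κ e : ℝ} {U K : Set (Euc k)} {Dd : VarifoldData m k}
  {q : Euc m →L[ℝ] Euc n} {H : Euc m →L[ℝ] Euc m} {H' : Euc n →L[ℝ] Euc n} {T : Ft_209.Dif k}
  {R : ℝ}

/-- points of `K` with feet in `FR` -/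
def BR (π : Euc k →L[ℝ] Euc m) (ρ : Euc k →L[ℝ] Euc n) (x : Euc k) (w : Euc m → Euc n)
    (K : Set (Euc k)) (X : Euc m) (t : ℝ) (q : Euc m →L[ℝ] Euc n) (H : Euc m →L[ℝ] Euc m)
    (R : ℝ) : Set (Euc k) := {z | z ∈ K ∧ foot π ρ x 1 w z ∈ FR t q H w X R}

theorem isClosed_BR (h : Am π ρ x w Xc X t U K Dd) (hB : Bp π ρ x w X C κ t q H H' w' u T e) :
    IsClosed (BR π ρ x w K X t q H R) := by
  have h1 : ContinuousOn (foot π ρ x 1 w) K := (h.gr.continuousOn_foot h.fr).mono h.kt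
  exact h1.preimage_isClosed_of_isClosed h.cpt.isClosed (isClosed_FR hB.zm)

theorem BR_sub (hB : Bp π ρ x w X C κ t q H H' w' u T e) :
    BR π ρ x w K X t q H R ⊆ Rg π ρ x w K X (14 * t) := by
  have ht := hB.zm.t0
  rintro z ⟨h1, h2⟩
  exact ⟨h1, h2.1.trans (by linarith)⟩

theorem tau_nonneg (h : Am π ρ x w Xc X t U K Dd) :
    ∀ᵐ p ∂(VD Dd), 0 ≤ (ch π ρ x 1 w Xc).tau p.1 p.2 := by
  filter_upwards [VD_conc h.int] with p hp
  exact Fm_281.tau0_nonneg' (Fm_281.split_of_frame' h.fr) _ hp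

/-- the mass of the points with feet in `FR` -/
theorem mass_BR (h : Am π ρ x w Xc X t U K Dd) (hB : Bp π ρ x w X C κ t q H H' w' u T e)
    {E : Measure (Euc m)} (hE : IsFiniteMeasure E) (Q : ℕ) {c : ℝ}
    (hτ : ∫ p in Rg π ρ x w K X (14 * t) ×ˢ univ, (ch π ρ x 1 w Xc).tau p.1 p.2 ∂(VD Dd) ≤
      c * t ^ m)
    (hE1 : E.real (closedBall (Lo (fderiv ℝ w Xc) (X - Xc)) (6 * t)) ≤ c * t ^ m)
    (habs : ∀ F : Euc m → ℝ, Measurable F → (∃ b : ℝ, ∀ v, |F v| ≤ b) →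
      (∀ v, v ∉ closedBall (Lo (fderiv ℝ w Xc) (X - Xc)) (6 * t) → F v = 0) →
      |∫ p, F ((ch π ρ x 1 w Xc).x p.1) * (1 - (ch π ρ x 1 w Xc).tau p.1 p.2 / 2)
        ∂(VK (VD Dd) K) - Q * ∫ v, F v * (ch π ρ x 1 w Xc).j v| ≤ ∫ v, |F v| ∂E)
    (hR : R ≤ 5) :
    |(VD Dd).real (BR π ρ x w K X t q H R ×ˢ univ) -
      Q * (t ^ m * ∫ x in closedBall (0 : Euc m) R, dns (fderiv ℝ u x))| ≤
      3 / 2 * c * t ^ m := by
  have ht := hB.zm.t0
  set F : Euc m → ℝ := fun v => (FR t q H w X R).indicator (fun _ => (1:ℝ)) (Gi_456.pt w Xc v)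
    with hF
  have hpt : Continuous (Gi_456.pt w Xc) := by
    unfold Gi_456.pt
    fun_prop
  have hFR : MeasurableSet (FR t q H w X R) := (isClosed_FR hB.zm).measurableSet
  have hFm : Measurable F := (measurable_const.indicator hFR).comp hpt.measurable
  have hF1 : ∀ v, |F v| ≤ 1 := by
    intro v
    simp only [hF]
    by_cases hv : Gi_456.pt w Xc v ∈ FR t q H w X R
    · rw [indicator_of_mem hv, abs_one]
    · rw [indicator_of_notMem hv, abs_zero]
      exact zero_le_one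
  have hF0 : ∀ v, v ∉ closedBall (Lo (fderiv ℝ w Xc) (X - Xc)) (6 * t) → F v = 0 := by
    intro v hv
    simp only [hF]
    refine indicator_of_notMem (fun hv2 => hv ?_) _
    rw [mem_closedBall, dist_eq_norm]
    have h1 := FR_lt hB.zm hR hv2
    have h2 : v - Lo (fderiv ℝ w Xc) (X - Xc) =
        Lo (fderiv ℝ w Xc) (Gi_456.pt w Xc v - X) := by
      have h3 : Gi_456.pt w Xc v - X = Loi (fderiv ℝ w Xc) v - (X - Xc) := by
        unfold Gi_456.pt
        abel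
      rw [h3]
      exact ((map_sub (Lo (fderiv ℝ w Xc)) (Loi (fderiv ℝ w Xc) v) (X - Xc)).trans
        (by rw [Gi_456.Lo_Loi])).symm
    rw [h2]
    refine (Gi_456.norm_Lo_le (h.gr.d1 Xc) _).trans ?_
    linarith
  have h1 := habs F hFm ⟨1, hF1⟩ hF0
  -- the variation
  have h2 : ∫ v, |F v| ∂E ≤ c * t ^ m := by
    refine le_trans ?_ hE1
    rw [← integral_indicator_one measurableSet_closedBall]
    refine integral_mono_of_nonneg (Eventually.of_forall fun v => abs_nonneg _)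
      ((integrable_const (1:ℝ)).indicator measurableSet_closedBall)
      (Eventually.of_forall fun v => ?_)
    by_cases hv : v ∈ closedBall (Lo (fderiv ℝ w Xc) (X - Xc)) (6 * t)
    · rw [indicator_of_mem hv]
      exact hF1 v
    · simp only [hF0 v hv, abs_zero]
      exact indicator_nonneg (fun _ _ => zero_le_one) _
  -- the area
  have h3 : ∫ v, F v * (ch π ρ x 1 w Xc).j v =
      t ^ m * ∫ x in closedBall (0 : Euc m) R, dns (fderiv ℝ u x) := by
    rw [← area_FR hB.zm hR, ← int_F Xc]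
    rfl
  -- the mass
  have hBm : MeasurableSet (BR π ρ x w K X t q H R ×ˢ (univ : Set (L k))) :=
    (isClosed_BR h hB).measurableSet.prod .univ
  have hBK : BR π ρ x w K X t q H R ×ˢ (univ : Set (L k)) ⊆ K ×ˢ univ :=
    prod_mono (fun _ hz => hz.1) subset_rfl
  have hBfin : VD Dd (BR π ρ x w K X t q H R ×ˢ univ) ≠ ⊤ :=
    ((measure_mono hBK).trans_lt (VD_fin h.int h.cpt h.ku)).ne
  have h4 : ∫ p, F ((ch π ρ x 1 w Xc).x p.1) * (1 - (ch π ρ x 1 w Xc).tau p.1 p.2 / 2)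
        ∂(VK (VD Dd) K) =
      ∫ p in BR π ρ x w K X t q H R ×ˢ univ, (1 - (ch π ρ x 1 w Xc).tau p.1 p.2 / 2)
        ∂(VD Dd) := by
    have hKm : MeasurableSet (K ×ˢ (univ : Set (L k))) := h.cpt.isClosed.measurableSet.prod .univ
    have e1 : ∫ p, F ((ch π ρ x 1 w Xc).x p.1) * (1 - (ch π ρ x 1 w Xc).tau p.1 p.2 / 2)
          ∂(VK (VD Dd) K) =
        ∫ p in K ×ˢ univ, (BR π ρ x w K X t q H R ×ˢ (univ : Set (L k))).indicator
          (fun p => 1 - (ch π ρ x 1 w Xc).tau p.1 p.2 / 2) p ∂(VD Dd) := by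
      unfold GL_394.VK
      refine setIntegral_congr_fun hKm fun p hp => ?_
      simp only [hF]
      rw [F35k_433.pt_ch_x]
      by_cases hq : foot π ρ x 1 w p.1 ∈ FR t q H w X R
      · have hq2 : p ∈ BR π ρ x w K X t q H R ×ˢ (univ : Set (L k)) := ⟨⟨hp.1, hq⟩, mem_univ _⟩
        rw [indicator_of_mem hq, indicator_of_mem hq2, one_mul]
      · have hq2 : p ∉ BR π ρ x w K X t q H R ×ˢ (univ : Set (L k)) := fun h5 => hq h5.1.2
        rw [indicator_of_notMem hq, indicator_of_notMem hq2, zero_mul]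
    rw [e1, setIntegral_indicator hBm, inter_eq_self_of_subset_right hBK]
  have hτi : IntegrableOn (fun p : Euc k × L k => (ch π ρ x 1 w Xc).tau p.1 p.2)
      (BR π ρ x w K X t q H R ×ˢ univ) (VD Dd) := h.int_tau.mono_set hBK
  have h5 : ∫ p in BR π ρ x w K X t q H R ×ˢ univ, (1 - (ch π ρ x 1 w Xc).tau p.1 p.2 / 2)
        ∂(VD Dd) = (VD Dd).real (BR π ρ x w K X t q H R ×ˢ univ) -
      (∫ p in BR π ρ x w K X t q H R ×ˢ univ, (ch π ρ x 1 w Xc).tau p.1 p.2 ∂(VD Dd)) / 2 := by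
    have i1 : Integrable (fun _ : Euc k × L k => (1:ℝ))
        ((VD Dd).restrict (BR π ρ x w K X t q H R ×ˢ univ)) :=
      (integrableOn_const hBfin : IntegrableOn (fun _ : Euc k × L k => (1:ℝ))
        (BR π ρ x w K X t q H R ×ˢ univ) (VD Dd))
    have i2 : Integrable (fun p : Euc k × L k => (ch π ρ x 1 w Xc).tau p.1 p.2 / 2)
        ((VD Dd).restrict (BR π ρ x w K X t q H R ×ˢ univ)) := hτi.div_const 2
    rw [integral_sub i1 i2, setIntegral_const, smul_eq_mul, mul_one, integral_div]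
  have h6 : 0 ≤ ∫ p in BR π ρ x w K X t q H R ×ˢ univ,
      (ch π ρ x 1 w Xc).tau p.1 p.2 ∂(VD Dd) :=
    integral_nonneg_of_ae (ae_restrict_of_ae (tau_nonneg h))
  have h7 : ∫ p in BR π ρ x w K X t q H R ×ˢ univ,
      (ch π ρ x 1 w Xc).tau p.1 p.2 ∂(VD Dd) ≤ c * t ^ m := by
    refine le_trans ?_ hτ
    exact setIntegral_mono_set (h.int_tau.mono_set (Am.Rg_sub _))
      (ae_restrict_of_ae (tau_nonneg h))
      (Eventually.of_forall (prod_mono (BR_sub hB) subset_rfl))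
  rw [h3, h4, h5] at h1
  have h8 := abs_le.1 (h1.trans h2)
  rw [abs_le]
  constructor
  · linarith [h8.1]
  · linarith [h8.2]

theorem isClosed_cyl_img (hB : Bp π ρ x w X C κ t q H H' w' u T e) (R h : ℝ) :
    IsClosed (hmt' (pt π ρ x w X) t '' (T.Φ '' cyl (rπ π ρ q H) (rρ π ρ q H') 0 R h)) := by
  have e1 : hmt' (pt π ρ x w X) t '' (T.Φ '' cyl (rπ π ρ q H) (rρ π ρ q H') 0 R h) =
      (fun z => T.Ψ (zy π ρ x w X t z)) ⁻¹' cyl (rπ π ρ q H) (rρ π ρ q H') 0 R h := by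
    ext z
    exact Am.mem_img hB.zm.t0 _ z
  rw [e1]
  have h1 : Continuous fun z : Euc k => T.Ψ (zy π ρ x w X t z) := by
    refine T.continuousΨ.comp ?_
    unfold Fm_281.zy
    fun_prop
  have h2 : IsClosed (cyl (rπ π ρ q H) (rρ π ρ q H') 0 R h) := by
    have e2 : cyl (rπ π ρ q H) (rρ π ρ q H') 0 R h =
        {z | ‖rπ π ρ q H z - 0‖ ≤ R} ∩ {z | ‖rρ π ρ q H' z‖ ≤ h} := rfl
    rw [e2]
    exact (isClosed_le (((rπ π ρ q H).continuous.sub continuous_const).norm)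
      continuous_const).inter (isClosed_le (rρ π ρ q H').continuous.norm continuous_const)
  exact h2.preimage h1

theorem cyl_le (h : Am π ρ x w Xc X t U K Dd) (hB : Bp π ρ x w X C κ t q H H' w' u T e)
    {R h₁ : ℝ} (hR : R ≤ 5) (hh : h₁ ≤ 2) :
    (weight Dd).real (hmt' (pt π ρ x w X) t '' (T.Φ '' cyl (rπ π ρ q H) (rρ π ρ q H') 0 R h₁)) ≤
      (VD Dd).real (BR π ρ x w K X t q H R ×ˢ univ) := by
  have hBK : BR π ρ x w K X t q H R ×ˢ (univ : Set (L k)) ⊆ K ×ˢ univ :=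
    prod_mono (fun _ hz => hz.1) subset_rfl
  have hBfin : VD Dd (BR π ρ x w K X t q H R ×ˢ univ) ≠ ⊤ :=
    ((measure_mono hBK).trans_lt (VD_fin h.int h.cpt h.ku)).ne
  rw [measureReal_def, measureReal_def,
    ← VD_prod_univ h.int (isClosed_cyl_img hB R h₁).measurableSet]
  refine ENNReal.toReal_mono hBfin (measure_mono_ae ?_)
  filter_upwards [h.sub1 hB] with p h1 hp
  have h2 : T.Ψ (zy π ρ x w X t p.1) ∈ cyl (rπ π ρ q H) (rρ π ρ q H') 0 R h₁ :=
    (Am.mem_img hB.zm.t0 _ _).1 hp.1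
  have h3 : T.Ψ (zy π ρ x w X t p.1) ∈ cyl (rπ π ρ q H) (rρ π ρ q H') 0 5 2 :=
    ⟨h2.1.trans hR, h2.2.trans hh⟩
  obtain ⟨-, h4, h5, -⟩ := Am.foot_of_cyl hB h3
  refine ⟨⟨h1 h3, h4.le, ?_⟩, mem_univ _⟩
  rw [h5]
  have h6 := h2.1
  rwa [sub_zero] at h6

theorem le_cyl (h : Am π ρ x w Xc X t U K Dd) (hB : Bp π ρ x w X C κ t q H H' w' u T e)
    {R h₁ : ℝ} (hR : R ≤ 5) (hh1 : 1 ≤ h₁) (hh : h₁ ≤ 2) :
    (VD Dd).real (BR π ρ x w K X t q H R ×ˢ univ) ≤ (weight Dd).real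
      (hmt' (pt π ρ x w X) t '' (T.Φ '' cyl (rπ π ρ q H) (rρ π ρ q H') 0 R h₁)) := by
  have ht := hB.zm.t0
  have hBK : BR π ρ x w K X t q H R ×ˢ (univ : Set (L k)) ⊆ K ×ˢ univ :=
    prod_mono (fun _ hz => hz.1) subset_rfl
  have hKfin : VD Dd (K ×ˢ univ) ≠ ⊤ := (VD_fin h.int h.cpt h.ku).ne
  rw [measureReal_def, measureReal_def,
    ← VD_prod_univ h.int (isClosed_cyl_img hB R h₁).measurableSet]
  refine ENNReal.toReal_mono ?_ (measure_mono_ae ?_)
  · refine ne_top_of_le_ne_top hKfin (measure_mono_ae ?_)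
    filter_upwards [h.sub1 hB] with p h1 hp
    have h2 := (Am.mem_img hB.zm.t0 _ _).1 hp.1
    exact ⟨h1 ⟨h2.1.trans hR, h2.2.trans hh⟩, mem_univ _⟩
  · filter_upwards [h.sub2 hB] with p h1 hp
    obtain ⟨h2, h3, h4⟩ := h1 hp.1.1 hp.1.2.1
    refine ⟨(Am.mem_img hB.zm.t0 _ _).2 ⟨?_, ?_⟩, mem_univ _⟩
    · rw [sub_zero, h2]
      exact hp.1.2.2
    · refine h3.trans (le_trans ?_ hh1)
      rw [div_le_one ht]
      exact h4

theorem real_fin {b Q T I V0 C2 s c : ℝ} (hT : 0 < T) (hQ : 0 ≤ Q) (hC2 : 0 ≤ C2) (hs : 0 ≤ s)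
    (hsc : s ≤ c) (hc1 : c ≤ 1) (hV : 0 ≤ V0) (hI1 : V0 ≤ I) (hI2 : I ≤ (1 + C2 * s ^ 2) * V0)
    (hQC : Q * C2 * c ≤ 1 / 16) (hcV : c ≤ V0 / 32) (hb : |b - Q * (T * I)| ≤ 3 / 2 * c * T) :
    |T⁻¹ * b - Q * V0| ≤ 1 / 8 * V0 := by
  have hc0 : 0 ≤ c := hs.trans hsc
  have h1 := abs_le.1 hb
  have h2 : Q * (I - V0) ≤ 1 / 16 * V0 := by
    have e1 : I - V0 ≤ C2 * c * V0 := by
      have e2 : s ^ 2 ≤ c := by nlinarith
      have e3 : C2 * s ^ 2 * V0 ≤ C2 * c * V0 :=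
        mul_le_mul_of_nonneg_right (mul_le_mul_of_nonneg_left e2 hC2) hV
      linarith
    calc Q * (I - V0) ≤ Q * (C2 * c * V0) := mul_le_mul_of_nonneg_left e1 hQ
      _ = Q * C2 * c * V0 := by ring
      _ ≤ _ := mul_le_mul_of_nonneg_right hQC hV
  have h3 : 0 ≤ Q * (I - V0) := mul_nonneg hQ (by linarith)
  have e4 : T⁻¹ * b = T⁻¹ * (b - Q * (T * I)) + Q * I := by
    field_simp
    ring
  have h5 : |T⁻¹ * (b - Q * (T * I))| ≤ 3 / 2 * c := by
    rw [abs_mul, abs_of_pos (inv_pos.2 hT), inv_mul_le_iff₀ hT]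
    linarith
  have h6 := abs_le.1 h5
  rw [e4, abs_le]
  constructor
  · linarith [h6.1]
  · linarith [h6.2]

/-- **the two masses of the cylinders of the adapted chart** -/
theorem masses (m n Q : ℕ) : ∃ c : ℝ, 0 < c ∧ ∀ {k : ℕ} {π : Euc k →L[ℝ] Euc m}
    {ρ : Euc k →L[ℝ] Euc n} {x : Euc k} {w w' u : Euc m → Euc n} {Xc X : Euc m} {t C κ e : ℝ}
    {U K : Set (Euc k)} {Dd : VarifoldData m k} {q : Euc m →L[ℝ] Euc n}
    {H : Euc m →L[ℝ] Euc m} {H' : Euc n →L[ℝ] Euc n} {T : Ft_209.Dif k} {E : Measure (Euc m)},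
    Am π ρ x w Xc X t U K Dd → Bp π ρ x w X C κ t q H H' w' u T e → IsFiniteMeasure E →
    C * κ * t ≤ c →
    ∫ p in Rg π ρ x w K X (14 * t) ×ˢ univ, (ch π ρ x 1 w Xc).tau p.1 p.2 ∂(VD Dd) ≤ c * t ^ m →
    E.real (closedBall (Lo (fderiv ℝ w Xc) (X - Xc)) (6 * t)) ≤ c * t ^ m →
    (∀ F : Euc m → ℝ, Measurable F → (∃ b : ℝ, ∀ v, |F v| ≤ b) →
      (∀ v, v ∉ closedBall (Lo (fderiv ℝ w Xc) (X - Xc)) (6 * t) → F v = 0) →
      |∫ p, F ((ch π ρ x 1 w Xc).x p.1) * (1 - (ch π ρ x 1 w Xc).tau p.1 p.2 / 2)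
        ∂(VK (VD Dd) K) - Q * ∫ v, F v * (ch π ρ x 1 w Xc).j v| ≤ ∫ v, |F v| ∂E) →
    |(t ^ m)⁻¹ * (weight Dd).real (hmt' (pt π ρ x w X) t ''
        (T.Φ '' cyl (rπ π ρ q H) (rρ π ρ q H') 0 4 1)) - Q * (ome m * 4 ^ m)| ≤
      1 / 8 * (ome m * 4 ^ m) ∧
    (t ^ m)⁻¹ * (weight Dd).real (hmt' (pt π ρ x w X) t ''
        (T.Φ '' cyl (rπ π ρ q H) (rρ π ρ q H') 0 5 2)) ≤ (Q + 1 / 2) * (ome m * 5 ^ m) := by
  obtain ⟨C2, hC2, hd⟩ := Nrm_842.exists_dns_le m n
  have hom := ome_pos m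
  have hC20 : 0 ≤ C2 := by linarith
  have hQ0 : (0:ℝ) ≤ Q := Nat.cast_nonneg _
  obtain ⟨c, hc, hc1, hc2, hc3⟩ : ∃ c : ℝ, 0 < c ∧ c ≤ 1 ∧ Q * C2 * c ≤ 1 / 16 ∧
      c ≤ ome m * 4 ^ m / 32 := by
    have hA : (0:ℝ) < Q * C2 + 1 := by positivity
    refine ⟨min (min 1 (1 / 16 / (Q * C2 + 1))) (ome m * 4 ^ m / 32), by positivity,
      (min_le_left _ _).trans (min_le_left _ _), ?_, min_le_right _ _⟩
    have e1 : min (min 1 (1 / 16 / (Q * C2 + 1))) (ome m * 4 ^ m / 32) ≤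
        1 / 16 / (Q * C2 + 1) := (min_le_left _ _).trans (min_le_right _ _)
    have e2 : (0:ℝ) ≤ 1 / 16 / (Q * C2 + 1) := by positivity
    have e3 : (Q * C2 + 1) * (1 / 16 / (Q * C2 + 1)) = 1 / 16 := by
      field_simp
    calc Q * C2 * min (min 1 (1 / 16 / (Q * C2 + 1))) (ome m * 4 ^ m / 32)
        ≤ Q * C2 * (1 / 16 / (Q * C2 + 1)) := mul_le_mul_of_nonneg_left e1 (by positivity)
      _ ≤ 1 / 16 := by linarith
  refine ⟨c, hc, ?_⟩
  intro k π ρ x w w' u Xc X t C κ e U K Dd q H H' T E h hB hE hκ hτ hE1 habs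
  have ht := hB.zm.t0
  have hT : (0:ℝ) < t ^ m := by positivity
  have hs : 0 ≤ C * κ * t := by
    have := hB.zm.C1
    have := hB.zm.κ0
    positivity
  have hV45 : ome m * (4:ℝ) ^ m ≤ ome m * 5 ^ m :=
    mul_le_mul_of_nonneg_left (pow_le_pow_left₀ (by norm_num) (by norm_num) m) hom.le
  have hI4 := int_dns hB.zm hC20 hd (R := 4) (by norm_num)
  have hI5 := int_dns hB.zm hC20 hd (R := 5) (by norm_num)
  have hb4 := mass_BR h hB hE Q hτ hE1 habs (R := 4) (by norm_num)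
  have hb5 := mass_BR h hB hE Q hτ hE1 habs (R := 5) le_rfl
  have e4 : (weight Dd).real (hmt' (pt π ρ x w X) t ''
        (T.Φ '' cyl (rπ π ρ q H) (rρ π ρ q H') 0 4 1)) =
      (VD Dd).real (BR π ρ x w K X t q H 4 ×ˢ univ) :=
    le_antisymm (cyl_le h hB (by norm_num) (by norm_num))
      (le_cyl h hB (by norm_num) le_rfl (by norm_num))
  have e5 := cyl_le h hB (R := 5) (h₁ := 2) le_rfl le_rfl
  constructor
  · rw [e4]
    exact real_fin hT hQ0 hC20 hs hκ hc1 (by positivity) hI4.1 hI4.2 hc2 hc3 hb4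
  · have h1 := real_fin hT hQ0 hC20 hs hκ hc1 (by positivity) hI5.1 hI5.2 hc2
      (hc3.trans (div_le_div_of_nonneg_right hV45 (by norm_num))) hb5
    have h2 := (abs_le.1 h1).2
    have h3 : (t ^ m)⁻¹ * (weight Dd).real (hmt' (pt π ρ x w X) t ''
        (T.Φ '' cyl (rπ π ρ q H) (rρ π ρ q H') 0 5 2)) ≤
        (t ^ m)⁻¹ * (VD Dd).real (BR π ρ x w K X t q H 5 ×ˢ univ) :=
      mul_le_mul_of_nonneg_left e5 (by positivity)
    have h4 : 0 ≤ ome m * (5:ℝ) ^ m := by positivity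
    linarith

end Crest.Agent.R234.Ms_46
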