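import Crest.Agent.R234.Vf8_884

/-!
# Row 234, VF-EXT, file 1 (helper46): transport of frozen data by a diffeomorphism

`trans T D` = the data `D` with charts composed with `T`; comparison of Jacobians and weights.
-/

set_option autoImplicit false

open MeasureTheory Filter Topology Set
open scoped ENNReal InnerProductSpace
open Crest.GeometryTopology.Submanifold Crest.Agent.R234.Vf_884

noncomputable section

namespace Crest.Agent.R234.Ex_46

variable {m n k : ℕ}

/-- transported data -/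
def trans (T : Euc k → Euc k) (D : VarifoldData m k) : VarifoldData m k where
  chart i := T ∘ D.chart i
  dom := D.dom
  mult := D.mult

theorem trans_trans {T T' : Euc k → Euc k} (h : ∀ z, T' (T z) = z) (D : VarifoldData m k) :
    trans T' (trans T D) = D := by
  unfold trans
  congr 1
  funext i z
  exact h _

/-- `|det|` of an operator of norm `≤ L` -/
theorem abs_det_le {A : Euc m →L[ℝ] Euc m} {L : ℝ} (hL : 0 ≤ L) (hA : ∀ v, ‖A v‖ ≤ L * ‖v‖) :
    |LinearMap.det (A : Euc m →ₗ[ℝ] Euc m)| ≤ L ^ m := by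
  have h1 : volume ((A : Euc m →ₗ[ℝ] Euc m) '' Metric.closedBall 0 1) =
      ENNReal.ofReal |LinearMap.det (A : Euc m →ₗ[ℝ] Euc m)| *
        volume (Metric.closedBall (0 : Euc m) 1) :=
    Measure.addHaar_image_linearMap _ _ _
  have h2 : (A : Euc m →ₗ[ℝ] Euc m) '' Metric.closedBall 0 1 ⊆ Metric.closedBall 0 L := by
    rintro _ ⟨v, hv, rfl⟩
    rw [mem_closedBall_zero_iff] at hv ⊢
    exact (hA v).trans ((mul_le_mul_of_nonneg_left hv hL).trans (mul_one L).le)
  have h3 : volume (Metric.closedBall (0 : Euc m) L) =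
      ENNReal.ofReal (L ^ m) * volume (Metric.closedBall (0 : Euc m) 1) := by
    have := Measure.addHaar_closedBall' (volume : Measure (Euc m)) (0 : Euc m) hL
    rw [this]
    simp
  have h4 : ENNReal.ofReal |LinearMap.det (A : Euc m →ₗ[ℝ] Euc m)| *
      volume (Metric.closedBall (0 : Euc m) 1) ≤
      ENNReal.ofReal (L ^ m) * volume (Metric.closedBall (0 : Euc m) 1) := by
    rw [← h1, ← h3]
    exact measure_mono h2
  have h5 : ENNReal.ofReal |LinearMap.det (A : Euc m →ₗ[ℝ] Euc m)| ≤ ENNReal.ofReal (L ^ m) := by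
    refine (ENNReal.mul_le_mul_iff_left ?_ ?_).1 h4
    · exact (Metric.measure_closedBall_pos volume _ one_pos).ne'
    · exact measure_closedBall_lt_top.ne
  exact (ENNReal.ofReal_le_ofReal_iff (by positivity)).1 h5

theorem jac_comp_le {T : Euc k → Euc k} {f : Euc m → Euc k} {a : Euc m} {L : ℝ} (hL : 0 ≤ L)
    (hT : DifferentiableAt ℝ T (f a)) (hf : DifferentiableAt ℝ f a)
    (hi : Function.Injective (fderiv ℝ f a)) (hn : ‖fderiv ℝ T (f a)‖ ≤ L)
    (hTi : Function.Injective (fderiv ℝ T (f a))) :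
    jac (T ∘ f) a ≤ L ^ m * jac f a := by
  have hc : fderiv ℝ (T ∘ f) a = (fderiv ℝ T (f a)) ∘L (fderiv ℝ f a) :=
    fderiv_comp a hT hf
  have hi' : Function.Injective (fderiv ℝ (T ∘ f) a) := by
    rw [hc]; exact hTi.comp hi
  obtain ⟨M, hM⟩ := exists_sq (fderiv ℝ f a) hi
  obtain ⟨N, hN⟩ := exists_sq (fderiv ℝ (T ∘ f) a) hi'
  have e1 := jac_eq_abs_det hM
  have e2 := jac_eq_abs_det hN
  have hMn : ∀ v, ‖M v‖ = ‖fderiv ℝ f a v‖ := fun v => by
    rw [← sq_eq_sq₀ (norm_nonneg _) (norm_nonneg _), ← real_inner_self_eq_norm_sq,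
      ← real_inner_self_eq_norm_sq, hM]
  have hNn : ∀ v, ‖N v‖ = ‖fderiv ℝ (T ∘ f) a v‖ := fun v => by
    rw [← sq_eq_sq₀ (norm_nonneg _) (norm_nonneg _), ← real_inner_self_eq_norm_sq,
      ← real_inner_self_eq_norm_sq, hN]
  have hMd : LinearMap.det M ≠ 0 := by
    have := jac_pos hi
    rw [e1] at this
    exact abs_pos.1 this
  let Me : Euc m ≃ₗ[ℝ] Euc m := LinearMap.equivOfDetNeZero M hMd
  have hMe : ∀ v, M (Me.symm v) = v := fun v => Me.apply_symm_apply v
  let A : Euc m →L[ℝ] Euc m := LinearMap.toContinuousLinearMap (N ∘ₗ (Me.symm : Euc m →ₗ[ℝ] Euc m))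
  have hA : ∀ v, ‖A v‖ ≤ L * ‖v‖ := by
    intro v
    have h1 : A v = N (Me.symm v) := rfl
    rw [h1, hNn, hc]
    have h2 : ‖v‖ = ‖fderiv ℝ f a (Me.symm v)‖ := by rw [← hMn, hMe]
    rw [h2]
    exact ((fderiv ℝ T (f a)).le_opNorm _).trans
      (mul_le_mul_of_nonneg_right hn (norm_nonneg _))
  have hd := abs_det_le hL hA
  have h3 : N = (A : Euc m →ₗ[ℝ] Euc m) ∘ₗ M := by
    ext1 v
    change N v = N (Me.symm (M v))
    congr 1
    exact (Me.symm_apply_apply v).symm
  rw [e1, e2, h3, LinearMap.det_comp, abs_mul]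
  exact mul_le_mul_of_nonneg_right hd (abs_nonneg _)

/-- a global `C¹` diffeomorphism with its inverse -/
structure Dif (T T' : Euc k → Euc k) : Prop where
  cd : ContDiff ℝ 1 T
  cd' : ContDiff ℝ 1 T'
  left : ∀ z, T' (T z) = z
  right : ∀ z, T (T' z) = z

namespace Dif

variable {T T' : Euc k → Euc k}

theorem symm (h : Dif T T') : Dif T' T := ⟨h.cd', h.cd, h.right, h.left⟩

theorem inj (h : Dif T T') : Function.Injective T := Function.LeftInverse.injective h.left

theorem fderiv_comp_eq (h : Dif T T') (z : Euc k) :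
    (fderiv ℝ T' (T z)) ∘L (fderiv ℝ T z) = ContinuousLinearMap.id ℝ (Euc k) := by
  have h1 : fderiv ℝ (T' ∘ T) z = (fderiv ℝ T' (T z)) ∘L (fderiv ℝ T z) :=
    fderiv_comp z (h.cd'.differentiable one_ne_zero _) (h.cd.differentiable one_ne_zero _)
  rw [← h1]
  have h2 : T' ∘ T = id := funext h.left
  rw [h2, fderiv_id]

theorem fderiv_inj (h : Dif T T') (z : Euc k) : Function.Injective (fderiv ℝ T z) := by
  intro x y hxy
  have h1 := h.fderiv_comp_eq z
  have h2 : ∀ v, (fderiv ℝ T' (T z)) (fderiv ℝ T z v) = v := fun v =>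
    congrArg (fun A : Euc k →L[ℝ] Euc k => A v) h1
  rw [← h2 x, ← h2 y, hxy]

theorem meas (h : Dif T T') : Measurable T := h.cd.continuous.measurable

theorem preimage_symm (h : Dif T T') (S : Set (Euc k)) : T' ⁻¹' (T ⁻¹' S) = S := by
  ext z
  simp [h.right]

theorem image_eq (h : Dif T T') (S : Set (Euc k)) : T '' S = T' ⁻¹' S := by
  ext z
  constructor
  · rintro ⟨x, hx, rfl⟩
    rw [mem_preimage, h.left]
    exact hx
  · intro hz
    exact ⟨T' z, hz, h.right z⟩

end Dif

variable {T T' : Euc k → Euc k} {U : Set (Euc k)} {D : VarifoldData m k}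

/-- comparison of weights -/
theorem weight_trans_le (hD : IsIntegralVarifoldIn U D) (h : Dif T T') {L : ℝ} (hL : 0 ≤ L)
    {B : Set (Euc k)} (hB : MeasurableSet B) (hn : ∀ z, T z ∈ B → ‖fderiv ℝ T z‖ ≤ L) :
    weight (trans T D) B ≤ ENNReal.ofReal (L ^ m) * weight D (T ⁻¹' B) := by
  have hfm : ∀ j, Measurable (D.chart j) := fun j => (hD.contDiff j).continuous.measurable
  have hB' : MeasurableSet (T ⁻¹' B) := h.meas hB
  unfold weight
  rw [Measure.sum_apply _ hB, Measure.sum_apply _ hB', ← ENNReal.tsum_mul_left]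
  refine ENNReal.tsum_le_tsum fun i => ?_
  have hm1 : Measurable (T ∘ D.chart i) := h.meas.comp (hfm i)
  change ((volume.restrict (D.dom i)).withDensity fun a =>
      ENNReal.ofReal ((D.mult i a : ℝ) * jac (T ∘ D.chart i) a)).map (T ∘ D.chart i) B ≤ _
  rw [Measure.map_apply hm1 hB, Measure.map_apply (hfm i) hB',
    withDensity_apply _ (hm1 hB), withDensity_apply _ ((hfm i) hB')]
  change ∫⁻ a in (T ∘ D.chart i) ⁻¹' B, ENNReal.ofReal ((D.mult i a : ℝ) *
      jac (T ∘ D.chart i) a) ∂(volume.restrict (D.dom i)) ≤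
    ENNReal.ofReal (L ^ m) * ∫⁻ a in (T ∘ D.chart i) ⁻¹' B, ENNReal.ofReal ((D.mult i a : ℝ) *
      jac (D.chart i) a) ∂(volume.restrict (D.dom i))
  rw [← lintegral_const_mul' _ _ ENNReal.ofReal_ne_top]
  rw [Measure.restrict_restrict (hm1 hB)]
  refine lintegral_mono_ae ?_
  filter_upwards [ae_restrict_mem ((hm1 hB).inter (hD.measurableSet i))] with a ha
  rw [← ENNReal.ofReal_mul (by positivity)]
  refine ENNReal.ofReal_le_ofReal ?_
  have h1 := jac_comp_le (f := D.chart i) (a := a) hL (h.cd.differentiable one_ne_zero _)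
    ((hD.contDiff i).differentiable one_ne_zero _) (hD.injective_fderiv i a ha.2)
    (hn _ ha.1) (h.fderiv_inj _)
  calc (D.mult i a : ℝ) * jac (T ∘ D.chart i) a ≤ (D.mult i a : ℝ) *
        (L ^ m * jac (D.chart i) a) := mul_le_mul_of_nonneg_left h1 (Nat.cast_nonneg _)
    _ = _ := by ring

/-- the transported data are integral in the image of `U` -/
theorem integral_trans (hD : IsIntegralVarifoldIn U D) (h : Dif T T') :
    IsIntegralVarifoldIn (T' ⁻¹' U) (trans T D) where
  measurableSet := hD.measurableSet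
  contDiff i := h.cd.comp (hD.contDiff i)
  injOn i := fun a ha b hb hab => hD.injOn i ha hb (h.inj hab)
  injective_fderiv i a ha := by
    have hc : fderiv ℝ (T ∘ D.chart i) a =
        (fderiv ℝ T (D.chart i a)) ∘L (fderiv ℝ (D.chart i) a) :=
      fderiv_comp a (h.cd.differentiable one_ne_zero _)
        ((hD.contDiff i).differentiable one_ne_zero _)
    change Function.Injective (fderiv ℝ (T ∘ D.chart i) a)
    rw [hc]
    exact (h.fderiv_inj _).comp (hD.injective_fderiv i a ha)
  disjoint i j hij := by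
    rw [Set.disjoint_left]
    rintro _ ⟨a, ha, rfl⟩ ⟨b, hb, hab⟩
    have h1 : D.chart j b = D.chart i a := h.inj hab
    exact Set.disjoint_left.1 (hD.disjoint i j hij) ⟨a, ha, rfl⟩ ⟨b, hb, h1⟩
  subset i := by
    rintro _ ⟨a, ha, rfl⟩
    change T' (T (D.chart i a)) ∈ U
    rw [h.left]
    exact hD.subset i ⟨a, ha, rfl⟩
  measurable_mult := hD.measurable_mult
  mult_pos := hD.mult_pos
  locallyFinite K hK hKU := by
    have hK' : IsCompact (T ⁻¹' K) := by
      rw [← h.symm.image_eq]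
      exact hK.image h.cd'.continuous
    have hK'U : T ⁻¹' K ⊆ U := by
      intro z hz
      have := hKU hz
      rwa [mem_preimage, h.left] at this
    obtain ⟨L, hL⟩ := hK'.exists_bound_of_continuousOn
      (h.cd.continuous_fderiv one_ne_zero).continuousOn
    have h1 := weight_trans_le hD h (L := max L 0) (le_max_right _ _) hK.measurableSet
      (fun z hz => (hL z hz).trans (le_max_left _ _))
    exact h1.trans_lt (ENNReal.mul_lt_top ENNReal.ofReal_lt_top
      (hD.locallyFinite _ hK' hK'U))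

end Crest.Agent.R234.Ex_46
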