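import Crest.Agent.R234.Ex1_46
import Crest.Agent.R234.Cy7_870

/-!
# Row 234, VF-EXT, file 2 (helper46): mass bounds of images of stationary varifolds

`D` integral, `trans T D` stationary, `‖DT - 1‖ ≤ 1/16`: lower and upper mass bounds of `D` in balls.
-/

set_option autoImplicit false

open MeasureTheory Filter Topology Set Metric
open scoped ENNReal InnerProductSpace
open Crest.GeometryTopology.Submanifold Crest.Agent.R234.Vf_884

noncomputable section

namespace Crest.Agent.R234.Ex_46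

variable {m n k : ℕ} {T T' : Euc k → Euc k} {U : Set (Euc k)} {D : VarifoldData m k}

theorem norm_fderiv_le (hg : ∀ z, ‖fderiv ℝ T z - 1‖ ≤ 1 / 16) (z : Euc k) :
    ‖fderiv ℝ T z‖ ≤ 17 / 16 := by
  have h1 : fderiv ℝ T z = (fderiv ℝ T z - 1) + 1 := by abel
  have h2 : ‖(1 : Euc k →L[ℝ] Euc k)‖ ≤ 1 := ContinuousLinearMap.norm_id_le
  rw [h1]
  exact (norm_add_le _ _).trans (by linarith [hg z])

theorem near (h : Dif T T') {K : Set (Euc k)} (hK : Convex ℝ K) {θ : ℝ}
    (hg : ∀ z ∈ K, ‖fderiv ℝ T z - 1‖ ≤ θ) {z w : Euc k} (hz : z ∈ K) (hw : w ∈ K) :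
    ‖T z - T w - (z - w)‖ ≤ θ * ‖z - w‖ := by
  have h1 : ∀ x ∈ K, HasFDerivWithinAt (fun x => T x - x) (fderiv ℝ T x - 1) K x := fun x _ =>
    (((h.cd.differentiable one_ne_zero x).hasFDerivAt).sub (hasFDerivAt_id x)).hasFDerivWithinAt
  have h2 := hK.norm_image_sub_le_of_norm_hasFDerivWithin_le h1 hg hw hz
  have h3 : T z - T w - (z - w) = (T z - z) - (T w - w) := by abel
  rw [h3]
  exact h2

theorem near' (h : Dif T T') (hg : ∀ z, ‖fderiv ℝ T z - 1‖ ≤ 1 / 16) (z w : Euc k) :
    ‖T z - T w - (z - w)‖ ≤ 1 / 16 * ‖z - w‖ :=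
  near h convex_univ (fun z _ => hg z) (mem_univ z) (mem_univ w)

theorem lip (h : Dif T T') (hg : ∀ z, ‖fderiv ℝ T z - 1‖ ≤ 1 / 16) (z w : Euc k) :
    ‖T z - T w‖ ≤ 17 / 16 * ‖z - w‖ := by
  have h1 := near' h hg z w
  have h2 := norm_sub_norm_le (T z - T w) (z - w)
  linarith

theorem lip' (h : Dif T T') (hg : ∀ z, ‖fderiv ℝ T z - 1‖ ≤ 1 / 16) (z w : Euc k) :
    ‖T' z - T' w‖ ≤ 16 / 15 * ‖z - w‖ := by
  have h1 := near' h hg (T' z) (T' w)
  rw [h.right, h.right] at h1
  have h2 := norm_sub_norm_le (T' z - T' w) (z - w)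
  rw [norm_sub_rev (T' z - T' w)] at h2
  linarith

theorem norm_fderiv_inv_le (h : Dif T T') (hg : ∀ z, ‖fderiv ℝ T z - 1‖ ≤ 1 / 16) (z : Euc k) :
    ‖fderiv ℝ T' z‖ ≤ 16 / 15 := by
  have h1 : LipschitzWith (16 / 15 : NNReal) T' := by
    refine LipschitzWith.of_dist_le_mul fun x y => ?_
    rw [dist_eq_norm, dist_eq_norm]
    have := lip' h hg x y
    simpa using this
  have h2 := norm_fderiv_le_of_lipschitz ℝ h1 (x₀ := z)
  simpa using h2

/-- weight of a set and of its image -/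
theorem weight_le_image (hD : IsIntegralVarifoldIn U D) (h : Dif T T')
    (hg : ∀ z, ‖fderiv ℝ T z - 1‖ ≤ 1 / 16) {B : Set (Euc k)} (hB : MeasurableSet B) :
    weight D B ≤ ENNReal.ofReal ((16 / 15) ^ m) * weight (trans T D) (T' ⁻¹' B) := by
  have h1 := weight_trans_le (integral_trans hD h) h.symm (L := 16 / 15) (by norm_num) hB
    (fun z _ => norm_fderiv_inv_le h hg z)
  rwa [trans_trans h.left] at h1

theorem weight_image_le (hD : IsIntegralVarifoldIn U D) (h : Dif T T')
    (hg : ∀ z, ‖fderiv ℝ T z - 1‖ ≤ 1 / 16) {B : Set (Euc k)} (hB : MeasurableSet B) :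
    weight (trans T D) B ≤ ENNReal.ofReal ((17 / 16) ^ m) * weight D (T ⁻¹' B) :=
  weight_trans_le hD h (by norm_num) hB (fun z _ => norm_fderiv_le hg z)

theorem preimage_ball (h : Dif T T') (hg : ∀ z, ‖fderiv ℝ T z - 1‖ ≤ 1 / 16) (z : Euc k) (r : ℝ) :
    T ⁻¹' ball (T z) (15 / 16 * r) ⊆ ball z r := by
  intro w hw
  rw [mem_preimage, mem_ball, dist_eq_norm] at hw
  rw [mem_ball, dist_eq_norm]
  have h1 := lip' h hg (T w) (T z)
  rw [h.left, h.left] at h1
  linarith

theorem preimage_closedBall' (h : Dif T T') (hg : ∀ z, ‖fderiv ℝ T z - 1‖ ≤ 1 / 16) (z : Euc k)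
    (r : ℝ) : T' ⁻¹' closedBall z r ⊆ closedBall (T z) (17 / 16 * r) := by
  intro w hw
  rw [mem_preimage, mem_closedBall, dist_eq_norm] at hw
  rw [mem_closedBall, dist_eq_norm]
  have h1 := lip h hg (T' w) z
  rw [h.right] at h1
  linarith

theorem preimage_ball' (h : Dif T T') (hg : ∀ z, ‖fderiv ℝ T z - 1‖ ≤ 1 / 16) (z : Euc k)
    (r : ℝ) : T' ⁻¹' ball z r ⊆ ball (T z) (17 / 16 * r) := by
  intro w hw
  rw [mem_preimage, mem_ball, dist_eq_norm] at hw
  rw [mem_ball, dist_eq_norm]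
  have h1 := lip h hg (T' w) z
  rw [h.right] at h1
  linarith

theorem ball_subset_preimage (h : Dif T T') (hg : ∀ z, ‖fderiv ℝ T z - 1‖ ≤ 1 / 16) {z : Euc k}
    {r : ℝ} (hb : ball z r ⊆ U) : ball (T z) (15 / 16 * r) ⊆ T' ⁻¹' U := by
  intro w hw
  apply hb
  rw [mem_ball, dist_eq_norm] at hw ⊢
  have h1 := lip' h hg w (T z)
  rw [h.left] at h1
  linarith

theorem support_image (hD : IsIntegralVarifoldIn U D) (h : Dif T T')
    (hg : ∀ z, ‖fderiv ℝ T z - 1‖ ≤ 1 / 16) {z : Euc k} (hz : z ∈ support D) :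
    T z ∈ support (trans T D) := by
  intro s hs
  have h1 : 0 < weight D (ball z (16 / 17 * s)) := hz _ (by positivity)
  have h2 := weight_le_image hD h hg (B := ball z (16 / 17 * s)) measurableSet_ball
  have h3 := preimage_ball' h hg z (16 / 17 * s)
  have h4 : 17 / 16 * (16 / 17 * s) = s := by ring
  rw [h4] at h3
  by_contra hcon
  have h5 : weight (trans T D) (ball (T z) s) = 0 := by simpa using hcon
  have h6 : weight (trans T D) (T' ⁻¹' ball z (16 / 17 * s)) = 0 := measure_mono_null h3 h5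
  rw [h6, mul_zero] at h2
  exact absurd h1 (not_lt.2 h2)

/-- **lower mass bound** -/
theorem low_mass (hD : IsIntegralVarifoldIn U D) (hU : IsOpen U) (h : Dif T T')
    (hg : ∀ z, ‖fderiv ℝ T z - 1‖ ≤ 1 / 16) (hs : IsStationaryIn (T' ⁻¹' U) (trans T D))
    (hm : 1 ≤ m) {z : Euc k} (hz : z ∈ support D) {r : ℝ} (hr : 0 < r) (hb : ball z r ⊆ U) :
    ENNReal.ofReal (ome m / 2 ^ m * r ^ m) ≤ weight D (ball z r) := by
  have hU' : IsOpen (T' ⁻¹' U) := hU.preimage h.cd'.continuous
  have hr' : (0:ℝ) < 15 / 16 * r := by positivity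
  have h1 := le_weight_ball (integral_trans hD h) hs hm hU' hr'
    (ball_subset_preimage h hg hb) (support_image hD h hg hz)
  have h2 := weight_image_le hD h hg (B := ball (T z) (15 / 16 * r)) measurableSet_ball
  have h3 := measure_mono (μ := weight D) (preimage_ball h hg z r)
  have h4 : ENNReal.ofReal (ome m * (15 / 16 * r) ^ m) ≤
      ENNReal.ofReal ((17 / 16) ^ m) * weight D (ball z r) :=
    h1.trans (h2.trans (mul_le_mul_right h3 _))
  have h5 : ENNReal.ofReal ((17 / 16) ^ m) * ENNReal.ofReal (ome m / 2 ^ m * r ^ m) ≤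
      ENNReal.ofReal ((17 / 16) ^ m) * weight D (ball z r) := by
    refine le_trans ?_ h4
    rw [← ENNReal.ofReal_mul (by positivity)]
    refine ENNReal.ofReal_le_ofReal ?_
    have h7 : (17 / 16 : ℝ) ^ m / 2 ^ m = (17 / 32) ^ m := by
      rw [← div_pow]; norm_num
    have h6 : (17 / 16 : ℝ) ^ m * (ome m / 2 ^ m * r ^ m) = ome m * (17 / 32 * r) ^ m := by
      rw [mul_pow, ← h7]
      field_simp
    rw [h6]
    refine mul_le_mul_of_nonneg_left ?_ (ome_pos m).le
    refine pow_le_pow_left₀ (by positivity) ?_ m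
    linarith
  refine (ENNReal.mul_le_mul_iff_right ?_ ENNReal.ofReal_ne_top).1 h5
  rw [ne_eq, ENNReal.ofReal_eq_zero, not_le]
  positivity

/-- **upper mass bound**: almost monotonicity -/
theorem up_mass (hD : IsIntegralVarifoldIn U D) (h : Dif T T')
    (hg : ∀ z, ‖fderiv ℝ T z - 1‖ ≤ 1 / 16) (hs : IsStationaryIn (T' ⁻¹' U) (trans T D))
    (hm : 1 ≤ m) {z : Euc k} {r R : ℝ} (hr : 0 < r) (hrR : r < R) (hb : ball z R ⊆ U) :
    weight D (closedBall z r) ≤
      ENNReal.ofReal (((17 / 15) ^ 2 * (r / R)) ^ m) * weight D (ball z R) := by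
  have hR : 0 < R := hr.trans hrR
  rcases le_or_gt (15 / 17 * R) r with h0 | h0
  · have h1 : weight D (closedBall z r) ≤ weight D (ball z R) :=
      measure_mono (closedBall_subset_ball hrR)
    refine h1.trans ?_
    have h2 : (1 : ℝ≥0∞) ≤ ENNReal.ofReal (((17 / 15) ^ 2 * (r / R)) ^ m) := by
      rw [← ENNReal.ofReal_one]
      refine ENNReal.ofReal_le_ofReal (one_le_pow₀ ?_)
      have h3 : 15 / 17 ≤ r / R := by
        rw [le_div_iff₀ hR]; linarith
      nlinarith
    calc weight D (ball z R) = 1 * weight D (ball z R) := (one_mul _).symm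
      _ ≤ _ := mul_le_mul_left h2 _
  · have hσ : (0:ℝ) < 17 / 16 * r := by positivity
    have hρ : (0:ℝ) < 15 / 16 * R := by positivity
    have hσρ : 17 / 16 * r < 15 / 16 * R := by linarith
    have hI := integral_trans hD h
    have hst := stat_VD hI hs
    have h1 := rat_closed_le hst hm hσ hσρ (ball_subset_preimage h hg hb)
    unfold rat at h1
    rw [mass_VD hI] at h1
    have h2 : weight (trans T D) (closedBall (T z) (17 / 16 * r)) ≤
        ENNReal.ofReal ((17 / 15 * (r / R)) ^ m) *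
          weight (trans T D) (ball (T z) (15 / 16 * R)) := by
      have e1 : ENNReal.ofReal (ome m * (17 / 16 * r) ^ m) ≠ 0 := by
        rw [ne_eq, ENNReal.ofReal_eq_zero, not_le]; exact den_pos m hσ
      have e2 : ENNReal.ofReal (ome m * (17 / 16 * r) ^ m) ≠ ⊤ := ENNReal.ofReal_ne_top
      rw [ENNReal.div_le_iff e1 e2] at h1
      refine h1.trans (le_of_eq ?_)
      have e3 : (17 / 15 * (r / R)) ^ m = (ome m * (17 / 16 * r) ^ m) /
          (ome m * (15 / 16 * R) ^ m) := by
        rw [mul_div_mul_left _ _ (ome_pos m).ne', ← div_pow]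
        congr 1
        field_simp
      rw [e3, ENNReal.ofReal_div_of_pos (den_pos m hρ), ENNReal.div_eq_inv_mul,
        ENNReal.div_eq_inv_mul, mul_right_comm]
    have h3 := weight_le_image hD h hg (B := closedBall z r) measurableSet_closedBall
    have h4 := measure_mono (μ := weight (trans T D)) (preimage_closedBall' h hg z r)
    have h5 := weight_image_le hD h hg (B := ball (T z) (15 / 16 * R)) measurableSet_ball
    have h6 := measure_mono (μ := weight D) (preimage_ball h hg z R)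
    calc weight D (closedBall z r)
        ≤ ENNReal.ofReal ((16 / 15) ^ m) * (ENNReal.ofReal ((17 / 15 * (r / R)) ^ m) *
          (ENNReal.ofReal ((17 / 16) ^ m) * weight D (ball z R))) := by
          refine h3.trans (mul_le_mul_right (h4.trans (h2.trans
            (mul_le_mul_right (h5.trans (mul_le_mul_right h6 _)) _))) _)
      _ = _ := by
          rw [← mul_assoc, ← mul_assoc, ← ENNReal.ofReal_mul (by positivity),
            ← ENNReal.ofReal_mul (by positivity), ← mul_pow, ← mul_pow]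
          congr 3
          ring

/-! ### the class interface -/

open Crest.Agent.R234.Cy_870

variable {π : Euc k →L[ℝ] Euc m} {κ : Euc k →L[ℝ] Euc n}

/-- the field `ex` of the class (`Core_809.Cls`, version 3): the data are the image of an exactly
stationary varifold under a `C¹` diffeomorphism `1/16`-close to the identity -/
def HasExt (U : Set (Euc k)) (D : VarifoldData m k) : Prop :=
  ∃ T T' : Euc k → Euc k, Dif T T' ∧
    (∀ z, ‖fderiv ℝ T z - ContinuousLinearMap.id ℝ (Euc k)‖ ≤ 1 / 16) ∧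
    IsStationaryIn (T' ⁻¹' U) (trans T D)

theorem norm_base_le (h : Split π κ) (z : Euc k) : ‖π z‖ ≤ ‖z‖ := by
  have h1 := h.norm_sq z
  nlinarith [norm_nonneg (π z), norm_nonneg z, sq_nonneg ‖κ z‖]

end Crest.Agent.R234.Ex_46
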