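import Crest.Agent.R234.Ex1_46
import Crest.Agent.R234.Vc5_164

/-!
# Row 234, VF-EXT, file 4 (helper46): zoom of frozen data

`zoom z₀ ρ D = trans (Z ↦ ρ⁻¹ (Z - z₀)) D`, `VD (zoom z₀ ρ D) = resc m z₀ ρ (VD D)`.
-/

set_option autoImplicit false

open MeasureTheory Filter Topology Set Metric
open scoped ENNReal InnerProductSpace
open Crest.GeometryTopology.Submanifold Crest.Agent.R234.Vf_884 Crest.Agent.R234.Vc_164

noncomputable section

namespace Crest.Agent.R234.Ex_46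

variable {m k : ℕ}

/-- the homothety `Z ↦ ρ⁻¹ (Z - z₀)` -/
def hmt (z₀ : Euc k) (ρ : ℝ) (Z : Euc k) : Euc k := ρ⁻¹ • (Z - z₀)

/-- its inverse -/
def hmt' (z₀ : Euc k) (ρ : ℝ) (z : Euc k) : Euc k := z₀ + ρ • z

theorem dif_hmt (z₀ : Euc k) {ρ : ℝ} (hρ : 0 < ρ) : Dif (hmt z₀ ρ) (hmt' z₀ ρ) where
  cd := by unfold hmt; fun_prop
  cd' := by unfold hmt'; fun_prop
  left z := by
    unfold hmt hmt'
    rw [smul_smul, mul_inv_cancel₀ hρ.ne', one_smul]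
    abel
  right z := by
    unfold hmt hmt'
    rw [add_sub_cancel_left, smul_smul, inv_mul_cancel₀ hρ.ne', one_smul]

/-- zoomed data -/
def zoom (z₀ : Euc k) (ρ : ℝ) (D : VarifoldData m k) : VarifoldData m k := trans (hmt z₀ ρ) D

theorem fderiv_hmt_comp (z₀ : Euc k) (ρ : ℝ) {f : Euc m → Euc k} {a : Euc m}
    (hf : DifferentiableAt ℝ f a) :
    fderiv ℝ (hmt z₀ ρ ∘ f) a = ρ⁻¹ • fderiv ℝ f a := by
  have h1 : HasFDerivAt (fun a => ρ⁻¹ • (f a - z₀)) (ρ⁻¹ • fderiv ℝ f a) a :=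
    (hf.hasFDerivAt.sub_const z₀).const_smul ρ⁻¹
  exact h1.fderiv

theorem pd_hmt_comp (z₀ : Euc k) (ρ : ℝ) {f : Euc m → Euc k} {a : Euc m}
    (hf : DifferentiableAt ℝ f a) (i : Fin m) :
    pd (hmt z₀ ρ ∘ f) a i = ρ⁻¹ • pd f a i := by
  unfold pd
  rw [fderiv_hmt_comp z₀ ρ hf]
  rfl

theorem jac_hmt_comp (z₀ : Euc k) {ρ : ℝ} (hρ : 0 < ρ) {f : Euc m → Euc k} {a : Euc m}
    (hf : DifferentiableAt ℝ f a) :
    jac (hmt z₀ ρ ∘ f) a = (ρ ^ m)⁻¹ * jac f a := by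
  have h1 : metricMat (hmt z₀ ρ ∘ f) a = (ρ⁻¹ ^ 2) • metricMat f a := by
    ext i j
    simp only [metricMat, Matrix.of_apply, Matrix.smul_apply, pd_hmt_comp z₀ ρ hf,
      inner_smul_left, inner_smul_right, smul_eq_mul, conj_trivial]
    ring
  unfold jac
  rw [h1, Matrix.det_smul, Fintype.card_fin, Real.sqrt_mul (by positivity)]
  congr 1
  rw [← pow_mul, mul_comm 2 m, pow_mul, Real.sqrt_sq (by positivity), inv_pow]

theorem projF_hmt_comp (z₀ : Euc k) {ρ : ℝ} (hρ : 0 < ρ) {f : Euc m → Euc k} {a : Euc m}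
    (hf : DifferentiableAt ℝ f a) : projF (hmt z₀ ρ ∘ f) a = projF f a := by
  unfold projF
  have h1 : tangentAt (hmt z₀ ρ ∘ f) a = tangentAt f a := by
    rw [tangentAt_eq_range, tangentAt_eq_range, fderiv_hmt_comp z₀ ρ hf]
    ext v
    constructor
    · rintro ⟨c, rfl⟩
      exact ⟨ρ⁻¹ • c, by
        change fderiv ℝ f a (ρ⁻¹ • c) = ρ⁻¹ • fderiv ℝ f a c
        rw [map_smul]⟩
    · rintro ⟨c, rfl⟩
      exact ⟨ρ • c, by
        change ρ⁻¹ • fderiv ℝ f a (ρ • c) = fderiv ℝ f a c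
        rw [map_smul, smul_smul, inv_mul_cancel₀ hρ.ne', one_smul]⟩
  simp only [h1]

variable {U : Set (Euc k)} {D : VarifoldData m k}

theorem integral_zoom (hD : IsIntegralVarifoldIn U D) (z₀ : Euc k) {ρ : ℝ} (hρ : 0 < ρ) :
    IsIntegralVarifoldIn (hmt' z₀ ρ ⁻¹' U) (zoom z₀ ρ D) := integral_trans hD (dif_hmt z₀ hρ)

theorem lift_zoom (hD : IsIntegralVarifoldIn U D) (z₀ : Euc k) {ρ : ℝ} (hρ : 0 < ρ) (i : ℕ) :
    lift (zoom z₀ ρ D) i = hom z₀ ρ ∘ lift D i := by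
  funext a
  have hf := (hD.contDiff i).differentiable one_ne_zero a
  exact Prod.ext rfl (projF_hmt_comp z₀ hρ hf)

theorem base_zoom (hD : IsIntegralVarifoldIn U D) (z₀ : Euc k) {ρ : ℝ} (hρ : 0 < ρ) (i : ℕ) :
    base (zoom z₀ ρ D) i = ENNReal.ofReal ((ρ ^ m)⁻¹) • base D i := by
  have h1 : dens (zoom z₀ ρ D) i = ENNReal.ofReal ((ρ ^ m)⁻¹) • dens D i := by
    funext a
    have hf := (hD.contDiff i).differentiable one_ne_zero a
    change ENNReal.ofReal ((D.mult i a : ℝ) * jac (hmt z₀ ρ ∘ D.chart i) a) = _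
    rw [jac_hmt_comp z₀ hρ hf, Pi.smul_apply, smul_eq_mul]
    unfold dens
    rw [← ENNReal.ofReal_mul (by positivity)]
    congr 1
    ring
  unfold base
  rw [h1]
  exact withDensity_smul' _ _ ENNReal.ofReal_ne_top

theorem smul_sum' {α : Type*} [MeasurableSpace α] (c : ℝ≥0∞) (f : ℕ → Measure α) :
    c • Measure.sum f = Measure.sum fun i => c • f i := by
  refine Measure.ext fun s hs => ?_
  rw [Measure.smul_apply, Measure.sum_apply _ hs, Measure.sum_apply _ hs, smul_eq_mul,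
    ← ENNReal.tsum_mul_left]
  rfl

theorem VD_zoom (hD : IsIntegralVarifoldIn U D) (z₀ : Euc k) {ρ : ℝ} (hρ : 0 < ρ) :
    VD (zoom z₀ ρ D) = resc m z₀ ρ (VD D) := by
  unfold VD resc
  rw [Measure.map_sum (measurable_hom z₀ ρ).aemeasurable, smul_sum']
  congr 1
  funext i
  rw [lift_zoom hD z₀ hρ i, base_zoom hD z₀ hρ i, Measure.map_smul]
  congr 1
  exact (AEMeasurable.map_map_of_aemeasurable (measurable_hom z₀ ρ).aemeasurable
    (aemeasurable_lift hD i)).symm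

theorem stationary_zoom (hD : IsIntegralVarifoldIn U D) (hs : IsStationaryIn U D) (z₀ : Euc k)
    {ρ : ℝ} (hρ : 0 < ρ) : IsStationaryIn (hmt' z₀ ρ ⁻¹' U) (zoom z₀ ρ D) := by
  intro X hX hXc hXU
  rw [firstVariation_eq (integral_zoom hD z₀ hρ) hX hXc hXU, VD_zoom hD z₀ hρ]
  exact (resc_stat z₀ hρ (stat_VD hD hs)).stat X hX hXc hXU

theorem weight_zoom (hD : IsIntegralVarifoldIn U D) (z₀ : Euc k) {ρ : ℝ} (hρ : 0 < ρ)
    {B : Set (Euc k)} (hB : MeasurableSet B) :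
    weight (zoom z₀ ρ D) B = ENNReal.ofReal ((ρ ^ m)⁻¹) * weight D (hmt' z₀ ρ '' B) := by
  have him : MeasurableSet (hmt' z₀ ρ '' B) := by
    rw [(dif_hmt z₀ hρ).symm.image_eq]
    exact (dif_hmt z₀ hρ).meas hB
  rw [← VD_prod_univ (integral_zoom hD z₀ hρ) hB, VD_zoom hD z₀ hρ,
    resc_prod_univ m z₀ hρ _ hB, ← VD_prod_univ hD him]
  rfl

end Crest.Agent.R234.Ex_46
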