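import Crest.Agent.R234.Ex3_46
import Crest.Agent.R234.Ex4_46
import Crest.Agent.R234.Supm4_685
import Crest.Agent.R234.Ct2_914

/-!
# Row 234, node F3-CLS, part 1 (helper46): heights

`Φ` the chart of the graph of `u`: heights `‖κ z‖` of the transported varifold are controlled by the
heights over the graph; sup bound from 685's height bound.
-/

set_option autoImplicit false

open MeasureTheory Filter Topology Set Metric
open scoped ENNReal InnerProductSpace ContDiff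
open Crest.GeometryTopology.Submanifold Crest.Agent.R234.Vf_884 Crest.Agent.R234.Cy_870
open Crest.Agent.R234.Main_456 (Frame Msys hgt sep box)

noncomputable section

namespace Crest.Agent.R234.Ex_46

variable {m n k : ℕ} {U : Set (Euc k)} {D : VarifoldData m k}
  {π : Euc k →L[ℝ] Euc m} {κ : Euc k →L[ℝ] Euc n}

theorem split_orth (h : Split π κ) : π ∘L ContinuousLinearMap.adjoint κ = 0 := by
  ext1 y
  have h1 : ContinuousLinearMap.adjoint π (π (ContinuousLinearMap.adjoint κ y)) +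
      ContinuousLinearMap.adjoint κ (κ (ContinuousLinearMap.adjoint κ y)) =
      ContinuousLinearMap.adjoint κ y :=
    congrArg (fun T : L k => T (ContinuousLinearMap.adjoint κ y)) h.sum
  have h2 : κ (ContinuousLinearMap.adjoint κ y) = y :=
    congrArg (fun T : Euc n →L[ℝ] Euc n => T y) h.vv
  rw [h2] at h1
  have h3 : ContinuousLinearMap.adjoint π (π (ContinuousLinearMap.adjoint κ y)) = 0 := by
    simpa using h1
  have h4 : π (ContinuousLinearMap.adjoint π (π (ContinuousLinearMap.adjoint κ y))) =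
      π (ContinuousLinearMap.adjoint κ y) :=
    congrArg (fun T : Euc m →L[ℝ] Euc m => T (π (ContinuousLinearMap.adjoint κ y))) h.hh
  rw [h3, map_zero] at h4
  exact h4.symm

theorem frame_of_split (h : Split π κ) : Frame π κ where
  coπ := h.hh
  coρ := h.vv
  orth := split_orth h
  full := h.sum

theorem split_of_frame (h : Frame π κ) : Split π κ := ⟨h.coπ, h.coρ, h.full⟩

theorem pi_adj (h : Split π κ) (v : Euc m) : π (ContinuousLinearMap.adjoint π v) = v :=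
  congrArg (fun T : Euc m →L[ℝ] Euc m => T v) h.hh

theorem ka_adj (h : Split π κ) (y : Euc n) : κ (ContinuousLinearMap.adjoint κ y) = y :=
  congrArg (fun T : Euc n →L[ℝ] Euc n => T y) h.vv

theorem pi_adj_ka (h : Split π κ) (y : Euc n) : π (ContinuousLinearMap.adjoint κ y) = 0 :=
  congrArg (fun T : Euc n →L[ℝ] Euc m => T y) (split_orth h)

theorem ka_adj_pi (h : Split π κ) (v : Euc m) : κ (ContinuousLinearMap.adjoint π v) = 0 := by
  have h1 := h.norm_sq (ContinuousLinearMap.adjoint π v)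
  have h2 : ‖ContinuousLinearMap.adjoint π v‖ ^ 2 = ‖v‖ ^ 2 := by
    rw [← real_inner_self_eq_norm_sq, ContinuousLinearMap.adjoint_inner_left, pi_adj h,
      real_inner_self_eq_norm_sq]
  rw [h2, pi_adj h] at h1
  have h3 : ‖κ (ContinuousLinearMap.adjoint π v)‖ ^ 2 = 0 := by linarith
  simpa using h3

/-- the chart adapted to the graph of `u`: `Φ z = z + κ† u(π z) - π† (Du(π z)† κ z)` on a strip;
`e`-close to the identity everywhere. -/
structure Cht (π : Euc k →L[ℝ] Euc m) (κ : Euc k →L[ℝ] Euc n) (u : Euc m → Euc n) (e : ℝ)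
    (Φ Ψ : Euc k → Euc k) : Prop where
  dif : Dif Φ Ψ
  der : ∀ z, ‖fderiv ℝ Φ z - 1‖ ≤ e
  eq : ∀ z, ‖κ z‖ < 3 → Φ z = z + ContinuousLinearMap.adjoint κ (u (π z)) -
    ContinuousLinearMap.adjoint π (ContinuousLinearMap.adjoint (fderiv ℝ u (π z)) (κ z))

variable {u : Euc m → Euc n} {e : ℝ} {Φ Ψ : Euc k → Euc k} {lam : ℝ}

theorem Cht.pi_eq (h : Cht π κ u e Φ Ψ) (sp : Split π κ) {z : Euc k} (hz : ‖κ z‖ < 3) :
    π (Φ z) = π z - ContinuousLinearMap.adjoint (fderiv ℝ u (π z)) (κ z) := by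
  rw [h.eq z hz, map_sub, map_add, pi_adj_ka sp, pi_adj sp, add_zero]

theorem Cht.ka_eq (h : Cht π κ u e Φ Ψ) (sp : Split π κ) {z : Euc k} (hz : ‖κ z‖ < 3) :
    κ (Φ z) = κ z + u (π z) := by
  rw [h.eq z hz, map_sub, map_add, ka_adj sp, ka_adj_pi sp, sub_zero]

theorem norm_adj_le {A : Euc m →L[ℝ] Euc n} (hA : ‖A‖ ≤ lam) (y : Euc n) :
    ‖ContinuousLinearMap.adjoint A y‖ ≤ lam * ‖y‖ := by
  refine ((ContinuousLinearMap.adjoint A).le_opNorm y).trans ?_
  rw [LinearIsometryEquiv.norm_map]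
  exact mul_le_mul_of_nonneg_right hA (norm_nonneg _)

/-- normal height versus height over the graph -/
theorem Cht.height_le (h : Cht π κ u e Φ Ψ) (sp : Split π κ) (hu : Differentiable ℝ u)
    (hl : ∀ v, ‖fderiv ℝ u v‖ ≤ lam) (hl2 : lam ≤ 1 / 2) {z : Euc k} (hz : ‖κ z‖ < 3)
    (z₀ : Euc k) {ρ : ℝ} (hρ : 0 < ρ) :
    ρ * ‖κ z‖ ≤ 2 * ‖hgt π κ z₀ ρ u (hmt' z₀ ρ (Φ z))‖ := by
  have hl0 : 0 ≤ lam := (norm_nonneg _).trans (hl 0)
  set w := ContinuousLinearMap.adjoint (fderiv ℝ u (π z)) (κ z) with hw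
  have h1 : hgt π κ z₀ ρ u (hmt' z₀ ρ (Φ z)) = ρ • (κ z + (u (π z) - u (π z - w))) := by
    unfold hgt hmt'
    rw [add_sub_cancel_left, map_smul, map_smul, smul_smul, inv_mul_cancel₀ hρ.ne', one_smul,
      h.pi_eq sp hz, h.ka_eq sp hz, ← hw, ← smul_sub]
    congr 1
    abel
  have h2 : ‖w‖ ≤ lam * ‖κ z‖ := norm_adj_le (hl _) _
  have h3 : ‖u (π z) - u (π z - w)‖ ≤ lam * ‖π z - (π z - w)‖ :=
    convex_univ.norm_image_sub_le_of_norm_fderiv_le (fun x _ => hu x) (fun x _ => hl x)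
      (mem_univ _) (mem_univ _)
  rw [sub_sub_cancel] at h3
  have h4 : ‖u (π z) - u (π z - w)‖ ≤ 1 / 4 * ‖κ z‖ := by
    refine h3.trans ((mul_le_mul_of_nonneg_left h2 hl0).trans ?_)
    rw [← mul_assoc]
    refine mul_le_mul_of_nonneg_right ?_ (norm_nonneg _)
    nlinarith
  rw [h1, norm_smul, Real.norm_of_nonneg hρ.le]
  have h5 : ‖κ z‖ ≤ ‖κ z + (u (π z) - u (π z - w))‖ + ‖u (π z) - u (π z - w)‖ := by
    have := norm_sub_le (κ z + (u (π z) - u (π z - w))) (u (π z) - u (π z - w))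
    rwa [add_sub_cancel_right] at this
  nlinarith [norm_nonneg (κ z)]

/-- support points of the zoomed data -/
theorem support_zoom (hD : IsIntegralVarifoldIn U D) (z₀ : Euc k) {ρ : ℝ} (hρ : 0 < ρ) {z : Euc k}
    (hz : z ∈ support (zoom z₀ ρ D)) : hmt' z₀ ρ z ∈ support D := by
  intro s hs
  have h1 : 0 < weight (zoom z₀ ρ D) (ball z (ρ⁻¹ * s)) := hz _ (by positivity)
  rw [weight_zoom hD z₀ hρ measurableSet_ball] at h1
  have h2 : hmt' z₀ ρ '' ball z (ρ⁻¹ * s) ⊆ ball (hmt' z₀ ρ z) s := by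
    rintro _ ⟨w, hw, rfl⟩
    rw [mem_ball, dist_eq_norm] at hw ⊢
    unfold hmt'
    rw [add_sub_add_left_eq_sub, ← smul_sub, norm_smul, Real.norm_of_nonneg hρ.le]
    calc ρ * ‖w - z‖ < ρ * (ρ⁻¹ * s) := mul_lt_mul_of_pos_left hw hρ
      _ = s := by rw [← mul_assoc, mul_inv_cancel₀ hρ.ne', one_mul]
  have h3 : weight D (hmt' z₀ ρ '' ball z (ρ⁻¹ * s)) ≠ 0 := by
    intro h0
    rw [h0, mul_zero] at h1
    exact lt_irrefl _ h1
  exact (pos_iff_ne_zero.2 h3).trans_le (measure_mono h2)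

/-- support points of the transported data -/
theorem support_cht (hD : IsIntegralVarifoldIn U D) (h : Cht π κ u e Φ Ψ) (he : e ≤ 1 / 16)
    {z : Euc k} (hz : z ∈ support (trans Ψ D)) : Φ z ∈ support D := by
  have h1 := support_image (integral_trans hD h.dif.symm) h.dif
    (fun z => (h.der z).trans he) hz
  rwa [trans_trans h.dif.right] at h1

/-- **heights of the transported varifold** -/
theorem hgt_cht (hU : IsOpen U) (hD : IsIntegralVarifoldIn U D) (hs : IsStationaryIn U D)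
    (hm : 1 ≤ m) (sp : Split π κ) (h : Cht π κ u e Φ Ψ) (he : e ≤ 1 / 16) (hu : ContDiff ℝ 2 u)
    (hu0 : ∀ v, ‖u v‖ ≤ lam) (hu1 : ∀ v, ‖fderiv ℝ u v‖ ≤ lam)
    (hu2 : ∀ v ∈ ball (0 : Euc m) 7, ‖iteratedFDeriv ℝ 2 u v‖ ≤ lam ∧ Msys u v = 0)
    (hl2 : lam ≤ 1 / 4) (hlm : 64 * m * lam ^ 2 ≤ 1) {z₀ : Euc k} {ρ : ℝ} (hρ : 0 < ρ)
    (hb : closedBall z₀ (14 * ρ) ⊆ U) {d : ℝ}
    (hd : sep (VD D) π κ z₀ ρ u 7 ≤ d * ρ ^ (m + 2)) {z : Euc k}
    (hz : z ∈ support (trans Ψ (zoom z₀ ρ D))) (hzc : ‖π z‖ < 6) (hzk : ‖κ z‖ < 3) :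
    ‖κ z‖ ^ 2 ≤ 5 * 4 ^ m / ome m * d := by
  have hom := ome_pos m
  have hl0 : 0 ≤ lam := (norm_nonneg _).trans (hu0 0)
  have h1 : hmt' z₀ ρ (Φ z) ∈ support D :=
    support_zoom hD z₀ hρ (support_cht (integral_zoom hD z₀ hρ) h he hz)
  have hbox : hmt' z₀ ρ (Φ z) ∈ box π κ z₀ ((7 - 1 / 4) * ρ) := by
    have e1 : hmt' z₀ ρ (Φ z) - z₀ = ρ • Φ z := by unfold hmt'; abel
    have h2 : ‖π (Φ z)‖ < 7 - 1 / 4 := by
      rw [h.pi_eq sp hzk]
      refine (norm_sub_le _ _).trans_lt ?_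
      have := norm_adj_le (hu1 (π z)) (κ z)
      nlinarith [norm_nonneg (κ z)]
    have h3 : ‖κ (Φ z)‖ < 7 - 1 / 4 := by
      rw [h.ka_eq sp hzk]
      refine (norm_add_le _ _).trans_lt ?_
      have := hu0 (π z)
      linarith
    constructor
    · rw [e1, map_smul, norm_smul, Real.norm_of_nonneg hρ.le, mul_comm]
      exact mul_lt_mul_of_pos_right h2 hρ
    · rw [e1, map_smul, norm_smul, Real.norm_of_nonneg hρ.le, mul_comm]
      exact mul_lt_mul_of_pos_right h3 hρ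
  have h4 := Supm_685.height_supp hU hD hs hm (frame_of_split sp) hρ hu (a := 7) (b := 1 / 4)
    (by norm_num) (by norm_num) (by rw [show (2 * (7 * ρ) : ℝ) = 14 * ρ by ring]; exact hb) hu2
    (by nlinarith) hbox h1
  have h5 := h.height_le sp (hu.differentiable two_ne_zero) hu1 (by linarith) hzk z₀ hρ
  set a := ‖hgt π κ z₀ ρ u (hmt' z₀ ρ (Φ z))‖ with ha
  have h6 : ome m * a ^ 2 ≤ 33 / 32 * (4 ^ m * d * ρ ^ 2) := by
    refine h4.trans ?_
    have e1 : ((1 / 4 * ρ) ^ m)⁻¹ * (d * ρ ^ (m + 2)) = 4 ^ m * d * ρ ^ 2 := by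
      rw [pow_add, mul_pow, div_pow, one_pow]
      have : ρ ^ m ≠ 0 := by positivity
      have h44 : (4:ℝ) ^ m ≠ 0 := by positivity
      field_simp
    rw [← e1]
    refine mul_le_mul_of_nonneg_left ?_ (by norm_num)
    exact mul_le_mul_of_nonneg_left hd (by positivity)
  have h7 : (ρ * ‖κ z‖) ^ 2 ≤ 4 * a ^ 2 := by
    have := pow_le_pow_left₀ (by positivity) h5 2
    linarith [this, mul_pow (2:ℝ) a 2]
  have hρ2 : 0 < ρ ^ 2 := by positivity
  have h8 : ome m * ‖κ z‖ ^ 2 * ρ ^ 2 ≤ 5 * (4 ^ m * d) * ρ ^ 2 := by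
    have e2 : 0 ≤ 4 ^ m * d * ρ ^ 2 := by nlinarith [mul_nonneg hom.le (sq_nonneg a)]
    nlinarith
  have h9 : ome m * ‖κ z‖ ^ 2 ≤ 5 * (4 ^ m * d) := le_of_mul_le_mul_right h8 hρ2
  rw [div_mul_eq_mul_div, le_div_iff₀ hom]
  linarith

end Crest.Agent.R234.Ex_46
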