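import Crest.Agent.R234.Ex8_46

/-!
# Row 234, node F3-CLS, part 4 (helper46): the class
-/

set_option autoImplicit false

open MeasureTheory Filter Topology Set Metric
open scoped ENNReal InnerProductSpace ContDiff
open Crest.GeometryTopology.Submanifold Crest.Agent.R234.Vf_884 Crest.Agent.R234.Cy_870
open Crest.Agent.R234.Ar_870
open Crest.Agent.R234.Main_456 (Frame Msys hgt sep box)

noncomputable section

namespace Crest.Agent.R234.Ex_46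

variable {m n k : ℕ}

theorem exists_cutoff (m : ℕ) : ∃ (φ : Euc m → ℝ) (K : ℝ), 0 ≤ K ∧ ContDiff ℝ 1 φ ∧
    (∀ v, 0 ≤ φ v ∧ φ v ≤ 1) ∧ (∀ v, ‖v‖ ≤ 4 → φ v = 1) ∧ (∀ v, 5 ≤ ‖v‖ → φ v = 0) ∧
    ∀ v, ‖fderiv ℝ φ v‖ ≤ K := by
  let b : ContDiffBump (0 : Euc m) := ⟨4, 5, by norm_num, by norm_num⟩
  have hb : ContDiff ℝ 1 (b : Euc m → ℝ) := b.contDiff
  obtain ⟨K, hK⟩ := (b.hasCompactSupport.fderiv (𝕜 := ℝ)).exists_bound_of_continuous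
    (hb.continuous_fderiv one_ne_zero)
  refine ⟨b, max K 0, le_max_right _ _, hb, fun v => ⟨b.nonneg, b.le_one⟩, fun v hv => ?_,
    fun v hv => ?_, fun v => (hK v).trans (le_max_left _ _)⟩
  · refine b.one_of_mem_closedBall ?_
    rw [mem_closedBall_zero_iff]
    exact hv
  · refine b.zero_of_le_dist ?_
    rw [dist_zero_right]
    exact hv

theorem real_masses {w w1 η A q a b : ℝ} (hη0 : 0 ≤ η) (hw : 0 ≤ w)
    (hw1 : 0 ≤ w1) (ha : a ≤ 1 + η) (hb : b ≤ 1 + η) (h1 : w1 ≤ a * w) (h2 : w ≤ b * w1)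
    (hA : 0 ≤ A) (hqη : η * (q + 1) ≤ 1 / 8)
    (h3 : |w - q * A| ≤ 1 / 8 * A) : |w1 - q * A| ≤ 1 / 4 * A := by
  have e1 : w1 ≤ (1 + η) * w := h1.trans (mul_le_mul_of_nonneg_right ha hw)
  have e2 : w ≤ (1 + η) * w1 := h2.trans (mul_le_mul_of_nonneg_right hb hw1)
  have e3 := abs_le.1 h3
  have e4 : w ≤ (q + 1 / 8) * A := by linarith [e3.2]
  have e5 : η * w ≤ η * ((q + 1) * A) := by
    refine mul_le_mul_of_nonneg_left ?_ hη0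
    nlinarith
  have e6 : η * ((q + 1) * A) ≤ 1 / 8 * A := by
    rw [← mul_assoc]
    exact mul_le_mul_of_nonneg_right hqη hA
  rw [abs_le]
  constructor
  · -- w1 ≥ w - η w
    have e7 : w - η * w ≤ w1 := by
      by_contra hcon
      push Not at hcon
      have e8 : (1 + η) * w1 < (1 + η) * (w - η * w) := mul_lt_mul_of_pos_left hcon (by linarith)
      nlinarith [mul_nonneg (mul_nonneg hη0 hη0) hw]
    linarith [e3.1]
  · linarith [e3.2]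


/-- masses of the transported data over small cylinders -/
theorem mass_cht {π : Euc k →L[ℝ] Euc m} {κ : Euc k →L[ℝ] Euc n} {u : Euc m → Euc n}
    {Φ Ψ : Euc k → Euc k} {U : Set (Euc k)} {D : VarifoldData m k} {z₀ : Euc k} {ρ e : ℝ}
    (sp : Split π κ) (ch : Cht π κ u e Φ Ψ) (he0 : 0 ≤ e) (he1 : e < 1)
    (hU : IsOpen U) (hD : IsIntegralVarifoldIn U D) (hρ : 0 < ρ)
    (hdom : cyl π κ 0 5 2 ⊆ UU π κ Φ z₀ ρ U) {R h : ℝ} (hR : R ≤ 5) (hh : h ≤ 2) :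
    (weight (DD π κ Φ Ψ z₀ ρ U D)).real (cyl π κ 0 R h) ≤ ((1 - e)⁻¹) ^ m *
        ((ρ ^ m)⁻¹ * (weight D).real (hmt' z₀ ρ '' (Φ '' cyl π κ 0 R h))) ∧
      (ρ ^ m)⁻¹ * (weight D).real (hmt' z₀ ρ '' (Φ '' cyl π κ 0 R h)) ≤
        (1 + e) ^ m * (weight (DD π κ Φ Ψ z₀ ρ U D)).real (cyl π κ 0 R h) := by
  have hsub : cyl π κ 0 R h ⊆ cyl π κ 0 5 2 := fun z hz => ⟨hz.1.trans hR, hz.2.trans hh⟩
  have hXi : IsIntegralVarifoldIn (UU π κ Φ z₀ ρ U) (DD π κ Φ Ψ z₀ ρ U D) :=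
    integral_DD hD hU ch.dif z₀ hρ
  have hcm := measurableSet_cyl π κ 0 R h
  have h1 := weight_cht hD ch.dif ch.der he0 he1 z₀ hρ hcm
  rw [← weight_DD hD hU ch.dif z₀ hρ hcm (hsub.trans hdom)] at h1
  have hf1 : weight (DD π κ Φ Ψ z₀ ρ U D) (cyl π κ 0 R h) < ⊤ :=
    hXi.locallyFinite _ (isCompact_cyl sp 0 R h) (hsub.trans hdom)
  generalize weight (DD π κ Φ Ψ z₀ ρ U D) = X at h1 hf1 ⊢
  have hρm : (0:ℝ) < (ρ ^ m)⁻¹ := by positivity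
  have hf2 : ENNReal.ofReal ((ρ ^ m)⁻¹) * weight D (hmt' z₀ ρ '' (Φ '' cyl π κ 0 R h)) < ⊤ :=
    h1.2.trans_lt (ENNReal.mul_lt_top ENNReal.ofReal_lt_top hf1)
  have h0 : (0:ℝ) < 1 - e := by linarith
  have h0' : (0:ℝ) ≤ ((1 - e)⁻¹) ^ m := by positivity
  have h0'' : (0:ℝ) ≤ (1 + e) ^ m := by positivity
  constructor
  · have h3 := ENNReal.toReal_mono (ENNReal.mul_lt_top ENNReal.ofReal_lt_top hf2).ne h1.1
    rw [ENNReal.toReal_mul, ENNReal.toReal_mul, ENNReal.toReal_ofReal h0',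
      ENNReal.toReal_ofReal hρm.le] at h3
    exact h3
  · have h3 := ENNReal.toReal_mono (ENNReal.mul_lt_top ENNReal.ofReal_lt_top hf1).ne h1.2
    rw [ENNReal.toReal_mul, ENNReal.toReal_mul, ENNReal.toReal_ofReal hρm.le,
      ENNReal.toReal_ofReal h0''] at h3
    exact h3

/-- heights of the transported data -/
theorem hgt_DD {π : Euc k →L[ℝ] Euc m} {κ : Euc k →L[ℝ] Euc n} {u : Euc m → Euc n}
    {Φ Ψ : Euc k → Euc k} {U : Set (Euc k)} {D : VarifoldData m k} {z₀ : Euc k} {ρ e lam d : ℝ}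
    (hm : 1 ≤ m) (sp : Split π κ) (ch : Cht π κ u e Φ Ψ) (he16 : e ≤ 1 / 16)
    (hu : ContDiff ℝ 2 u) (hu0 : ∀ v, ‖u v‖ ≤ lam) (hu1 : ∀ v, ‖fderiv ℝ u v‖ ≤ lam)
    (hu2 : ∀ v ∈ ball (0 : Euc m) 7, ‖iteratedFDeriv ℝ 2 u v‖ ≤ lam ∧ Msys u v = 0)
    (hl4 : lam ≤ 1 / 4) (hlm : 64 * m * lam ^ 2 ≤ 1)
    (hU : IsOpen U) (hD : IsIntegralVarifoldIn U D) (hs : IsStationaryIn U D) (hρ : 0 < ρ)
    (hb : closedBall z₀ (14 * ρ) ⊆ U)
    (hsep : sep (VD D) π κ z₀ ρ u 7 ≤ d * ρ ^ (m + 2)) :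
    ∀ᵐ p ∂(VD (DD π κ Φ Ψ z₀ ρ U D)), p.1 ∈ cyl π κ 0 5 2 →
      ‖κ p.1‖ ^ 2 ≤ 5 * 4 ^ m / ome m * d := by
  have hXi : IsIntegralVarifoldIn (UU π κ Φ z₀ ρ U) (DD π κ Φ Ψ z₀ ρ U D) :=
    integral_DD hD hU ch.dif z₀ hρ
  have hOo : IsOpen (UU π κ Φ z₀ ρ U) := isOpen_UU ch.dif.cd.continuous z₀ ρ hU
  have hti := integral_trans (integral_zoom hD z₀ hρ) ch.dif.symm
  have hsupp : ∀ᵐ p ∂(VD (DD π κ Φ Ψ z₀ ρ U D)), p.1 ∈ support (DD π κ Φ Ψ z₀ ρ U D) := by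
    have h2 : ∀ᵐ x ∂(weight (DD π κ Φ Ψ z₀ ρ U D)), x ∈ support (DD π κ Φ Ψ z₀ ρ U D) := by
      rw [ae_iff]
      exact Ct914.weight_compl_support _
    rw [← VD_fst hXi] at h2
    exact ae_of_ae_map measurable_fst.aemeasurable h2
  filter_upwards [hsupp] with p hp hpc
  have h1 : p.1 ∈ support (trans Ψ (zoom z₀ ρ D)) := support_restr hti hOo.measurableSet hp
  have h2 := hpc.1
  rw [sub_zero] at h2
  exact hgt_cht hU hD hs hm sp ch he16 hu hu0 hu1 hu2 hl4 hlm hρ hb hsep h1 (by linarith)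
    (by linarith [hpc.2])

/-- energy from heights in the class `AS` -/
theorem energy_of {π : Euc k →L[ℝ] Euc m} {κ : Euc k →L[ℝ] Euc n} {O : Set (Euc k)}
    {X : VarifoldData m k} {δ A M K : ℝ} {φ : Euc m → ℝ} (hφ : ContDiff ℝ 1 φ)
    (hφ01 : ∀ v, 0 ≤ φ v ∧ φ v ≤ 1) (hφ1 : ∀ v, ‖v‖ ≤ 4 → φ v = 1)
    (hφ0 : ∀ v, 5 ≤ ‖v‖ → φ v = 0) (hφK : ∀ v, ‖fderiv ℝ φ v‖ ≤ K)
    (sp : Split π κ) (hXi : IsIntegralVarifoldIn O X) (hdom : cyl π κ 0 5 2 ⊆ O)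
    (has : AS_456.AS π O δ (VD X)) (hδ0 : 0 ≤ δ) (hδ1 : δ ≤ 1 / 32)
    (hhgt : ∀ᵐ p ∂(VD X), p.1 ∈ cyl π κ 0 5 2 → ‖κ p.1‖ ^ 2 ≤ A) (hA0 : 0 ≤ A) (hA : A ≤ 1 / 4)
    (hM : (VD X).real (cyl π κ 0 5 2 ×ˢ univ) ≤ M) :
    ∫ p, tl π p.2 ∂(Core_809.part π κ X) ≤ 10 * (M * ((1 + K ^ 2) * A)) := by
  have hcyl : ∀ {R h : ℝ}, R ≤ 5 → h ≤ 2 → cyl π κ 0 R h ⊆ cyl π κ 0 5 2 := fun hR hh z hz =>
    ⟨hz.1.trans hR, hz.2.trans hh⟩
  have hfin5 : VD X (cyl π κ 0 5 2 ×ˢ univ) < ⊤ :=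
    VD_fin hXi (isCompact_cyl sp 0 5 2) hdom
  have hh₀2 : √A ≤ 1 / 2 := by
    rw [show (1 / 2 : ℝ) = √(1 / 4) by
      rw [show (1 / 4 : ℝ) = (1 / 2) ^ 2 by norm_num, Real.sqrt_sq (by norm_num)]]
    exact Real.sqrt_le_sqrt hA
  have hgap : ∀ᵐ p ∂(VD X), p.1 ∈ cyl π κ 0 5 1 → ‖κ p.1‖ ≤ √A := by
    filter_upwards [hhgt] with p hp hpc
    exact Real.le_sqrt_of_sq_le (hp (hcyl le_rfl (by norm_num) hpc))
  have hW := Asl_214.cylAS_of_AS has sp (h₀ := √A) (h₁ := 1) (by linarith) one_pos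
    ((hcyl le_rfl (by norm_num)).trans hdom) hgap
  have hcacc := cacc_cylAS hW hδ0 hδ1 hh₀2 hφ (fun v hv => hφ0 v (by rwa [sub_zero] at hv))
  have hWf : IsFiniteMeasure ((VD X).restrict (cyl π κ 0 5 1 ×ˢ univ)) := ⟨hW.fin⟩
  have hSm : ∀ R h : ℝ, MeasurableSet (cyl π κ 0 R h ×ˢ (univ : Set (L k))) := fun R h =>
    (measurableSet_cyl π κ 0 R h).prod MeasurableSet.univ
  have hWreal : ((VD X).restrict (cyl π κ 0 5 1 ×ˢ univ)).real univ ≤ M := by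
    refine le_trans ?_ hM
    rw [measureReal_def, Measure.restrict_apply MeasurableSet.univ, univ_inter,
      measureReal_def]
    exact ENNReal.toReal_mono hfin5.ne
      (measure_mono (prod_mono (hcyl le_rfl (by norm_num)) (Subset.refl _)))
  have cT := Asl_214.CylAS.continuous_tl (k := k) π
  have cφ : Continuous fun p : Euc k × L k => φ (π p.1) :=
    hφ.continuous.comp (π.continuous.comp continuous_fst)
  have i1 : Integrable (fun p : Euc k × L k => φ (π p.1) ^ 2 * tl π p.2)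
      ((VD X).restrict (cyl π κ 0 5 1 ×ˢ univ)) :=
    hW.integrable_continuous ((cφ.pow 2).mul cT)
  have h1 : ∫ p, tl π p.2 ∂(Core_809.part π κ X) =
      ∫ p in cyl π κ 0 4 1 ×ˢ univ, φ (π p.1) ^ 2 * tl π p.2 ∂(VD X) := by
    unfold Core_809.part
    refine setIntegral_congr_fun (hSm 4 1) fun p hp => ?_
    have h2 := hp.1.1
    rw [sub_zero] at h2
    simp only [hφ1 _ h2]
    ring
  have h2 : ∫ p in cyl π κ 0 4 1 ×ˢ univ, φ (π p.1) ^ 2 * tl π p.2 ∂(VD X) ≤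
      ∫ p, φ (π p.1) ^ 2 * tl π p.2 ∂((VD X).restrict (cyl π κ 0 5 1 ×ˢ univ)) := by
    refine setIntegral_mono_set i1 ?_ ?_
    · filter_upwards [hW.conc] with p hp
      exact mul_nonneg (sq_nonneg _) (tl_nonneg sp.hh (isPr_of_G hp))
    · exact Eventually.of_forall fun p hp =>
        ⟨⟨hp.1.1.trans (by norm_num), hp.1.2⟩, mem_univ _⟩
  have h3 : ∫ p, (φ (π p.1) ^ 2 + ‖fderiv ℝ φ (π p.1)‖ ^ 2) * ‖κ p.1‖ ^ 2
        ∂((VD X).restrict (cyl π κ 0 5 1 ×ˢ univ)) ≤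
      ∫ _, (1 + K ^ 2) * A ∂((VD X).restrict (cyl π κ 0 5 1 ×ˢ univ)) := by
    refine integral_mono_ae ?_ (integrable_const _) ?_
    · refine hW.integrable_continuous ?_
      have cdφ : Continuous fun p : Euc k × L k => fderiv ℝ φ (π p.1) :=
        (hφ.continuous_fderiv one_ne_zero).comp (π.continuous.comp continuous_fst)
      exact ((cφ.pow 2).add (cdφ.norm.pow 2)).mul
        ((κ.continuous.comp continuous_fst).norm.pow 2)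
    · have h4 : ∀ᵐ p ∂((VD X).restrict (cyl π κ 0 5 1 ×ˢ univ)),
          p ∈ cyl π κ 0 5 1 ×ˢ (univ : Set (L k)) := ae_restrict_mem (hSm 5 1)
      have h5 : ∀ᵐ p ∂((VD X).restrict (cyl π κ 0 5 1 ×ˢ univ)),
          p.1 ∈ cyl π κ 0 5 2 → ‖κ p.1‖ ^ 2 ≤ A := ae_restrict_of_ae hhgt
      filter_upwards [h4, h5] with p hp hp5
      have h6 := hp5 (hcyl le_rfl (by norm_num) hp.1)
      have h7 := hφ01 (π p.1)
      have h8 := hφK (π p.1)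
      refine mul_le_mul ?_ h6 (by positivity) (by positivity)
      have h9 : φ (π p.1) ^ 2 ≤ 1 := pow_le_one₀ h7.1 h7.2
      have h10 : ‖fderiv ℝ φ (π p.1)‖ ^ 2 ≤ K ^ 2 := pow_le_pow_left₀ (norm_nonneg _) h8 2
      linarith
  rw [integral_const, smul_eq_mul] at h3
  rw [h1]
  refine h2.trans (hcacc.trans ?_)
  have h11 : 0 ≤ (1 + K ^ 2) * A := by positivity
  have h12 := mul_le_mul_of_nonneg_right hWreal h11
  have h13 := h3.trans h12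
  linarith

theorem real_en {o Q5 K d : ℝ} (ho : 0 < o) :
    10 * ((Q5 * (o * 5 ^ m)) * ((1 + K ^ 2) * (5 * 4 ^ m / o * d))) =
      50 * (1 + K ^ 2) * (Q5 * (5 ^ m * 4 ^ m)) * d := by
  have h1 : (5 * 4 ^ m / o) * o = 5 * 4 ^ m := div_mul_cancel₀ _ ho.ne'
  calc 10 * ((Q5 * (o * 5 ^ m)) * ((1 + K ^ 2) * (5 * 4 ^ m / o * d)))
      = 10 * (Q5 * 5 ^ m * ((1 + K ^ 2) * d)) * (5 * 4 ^ m / o * o) := by ring
    _ = _ := by rw [h1]; ring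

theorem real_big {η q A w w1 a : ℝ} (hη0 : 0 ≤ η) (hηQ : η * (q + 1) ≤ 1 / 8) (ha : a ≤ 1 + η)
    (hA : 0 ≤ A) (hw : 0 ≤ w)
    (h1 : w1 ≤ a * w) (h2 : w ≤ (q + 1 / 2) * A) : w1 ≤ (q + 1) * A := by
  have h3 : w1 ≤ (1 + η) * w := h1.trans (mul_le_mul_of_nonneg_right ha hw)
  have h4 : η * w ≤ η * ((q + 1) * A) := by
    refine mul_le_mul_of_nonneg_left ?_ hη0
    nlinarith
  have h5 : η * ((q + 1) * A) ≤ 1 / 8 * A := by
    rw [← mul_assoc]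
    exact mul_le_mul_of_nonneg_right hηQ hA
  nlinarith

theorem ex_DD1 {O : Set (Euc k)}
    {Φ Ψ : Euc k → Euc k} {U : Set (Euc k)} {D : VarifoldData m k} {z₀ : Euc k} {ρ : ℝ}
    (ch : Dif Φ Ψ) (hOo : IsOpen O) (hO : O ⊆ Φ ⁻¹' (hmt' z₀ ρ ⁻¹' U))
    (hD : IsIntegralVarifoldIn U D) (hs : IsStationaryIn U D) (hρ : 0 < ρ) :
    IsStationaryIn (Ψ ⁻¹' O) (trans Φ (restr O (trans Ψ (zoom z₀ ρ D)))) := by
  have hzi := integral_zoom hD z₀ hρ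
  have h2 := stationary_zoom hD hs z₀ hρ
  have h3 : MeasurableSet (Ψ ⁻¹' O) := (hOo.preimage ch.cd'.continuous).measurableSet
  have h4 : Ψ ⁻¹' O ⊆ (hmt' z₀ ρ ⁻¹' U) := by
    intro z hz
    have h1 := hO hz
    rwa [mem_preimage, ch.right] at h1
  have h5 := stationary_restr hzi h2 h3 h4
  rw [trans_restr ch, trans_trans ch.right]
  exact h5

/-- the field `ex` -/
theorem ex_DD {π : Euc k →L[ℝ] Euc m} {κ : Euc k →L[ℝ] Euc n} {u : Euc m → Euc n}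
    {Φ Ψ : Euc k → Euc k} {U : Set (Euc k)} {D : VarifoldData m k} {z₀ : Euc k} {ρ e : ℝ}
    (ch : Cht π κ u e Φ Ψ) (he16 : e ≤ 1 / 16)
    (hU : IsOpen U) (hD : IsIntegralVarifoldIn U D) (hs : IsStationaryIn U D) (hρ : 0 < ρ) :
    HasExt (UU π κ Φ z₀ ρ U) (DD π κ Φ Ψ z₀ ρ U D) := by
  have hOo : IsOpen (UU π κ Φ z₀ ρ U) := isOpen_UU ch.dif.cd.continuous z₀ ρ hU
  have h0 : ∀ z, ‖fderiv ℝ Φ z - ContinuousLinearMap.id ℝ (Euc k)‖ ≤ 1 / 16 := by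
    intro z
    have h := ch.der z
    exact h.trans he16
  exact ⟨Φ, Ψ, ch.dif, h0, ex_DD1 ch.dif hOo (UU_subset z₀ ρ) hD hs hρ⟩

/-- **the class of the core for the zoomed adapted chart** -/
theorem cls_of (m n k Q : ℕ) (hm : 1 ≤ m) : ∃ c C : ℝ, 0 < c ∧ 0 < C ∧
    ∀ (π : Euc k →L[ℝ] Euc m) (κ : Euc k →L[ℝ] Euc n) (u : Euc m → Euc n)
      (Φ Ψ : Euc k → Euc k) (U : Set (Euc k)) (D : VarifoldData m k) (z₀ : Euc k)
      (ρ lam e δ d : ℝ),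
      Split π κ → Cht π κ u e Φ Ψ → 0 ≤ e → e ≤ c → ContDiff ℝ 2 u →
      (∀ v, ‖u v‖ ≤ lam) → (∀ v, ‖fderiv ℝ u v‖ ≤ lam) →
      (∀ v ∈ ball (0 : Euc m) 7, ‖iteratedFDeriv ℝ 2 u v‖ ≤ lam ∧ Msys u v = 0) → lam ≤ c →
      IsOpen U → IsIntegralVarifoldIn U D → IsStationaryIn U D → 0 < ρ →
      closedBall z₀ (14 * ρ) ⊆ U → 0 ≤ δ → δ ≤ 1 / 32 → d ≤ c →
      sep (VD D) π κ z₀ ρ u 7 ≤ d * ρ ^ (m + 2) →
      |(ρ ^ m)⁻¹ * (weight D).real (hmt' z₀ ρ '' (Φ '' cyl π κ 0 4 1)) - Q * (ome m * 4 ^ m)| ≤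
        1 / 8 * (ome m * 4 ^ m) →
      (ρ ^ m)⁻¹ * (weight D).real (hmt' z₀ ρ '' (Φ '' cyl π κ 0 5 2)) ≤
        (Q + 1 / 2) * (ome m * 5 ^ m) →
      AS_456.AS π (UU π κ Φ z₀ ρ U) δ (VD (DD π κ Φ Ψ z₀ ρ U D)) →
      Core_809.Cls Q δ (C * d) π κ (UU π κ Φ z₀ ρ U) (DD π κ Φ Ψ z₀ ρ U D) := by
  obtain ⟨φ, K, hK, hφ, hφ01, hφ1, hφ0, hφK⟩ := exists_cutoff m
  have hom := ome_pos m
  obtain ⟨η, hη0, hηQ⟩ : ∃ η : ℝ, 0 < η ∧ η * (Q + 1) = 1 / 8 := by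
    have hQ1 : (0:ℝ) < Q + 1 := by positivity
    exact ⟨1 / (8 * (Q + 1)), by positivity, by field_simp⟩
  obtain ⟨c1, hc1, hc116, hc1e⟩ := exists_small m hη0
  have hm0 : (0:ℝ) < m := by exact_mod_cast hm
  have hm1 : (1:ℝ) ≤ m := by exact_mod_cast hm
  obtain ⟨c, hc0, hcc1, hcom, hcm⟩ : ∃ c : ℝ, 0 < c ∧ c ≤ c1 ∧ c ≤ ome m / (20 * 4 ^ m) ∧
      c ≤ 1 / (64 * m) :=
    ⟨min (min c1 (ome m / (20 * 4 ^ m))) (1 / (64 * m)), by positivity,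
      (min_le_left _ _).trans (min_le_left _ _), (min_le_left _ _).trans (min_le_right _ _),
      min_le_right _ _⟩
  obtain ⟨C, hC⟩ : ∃ C : ℝ, C = 5 * 4 ^ m / ome m +
      50 * (1 + K ^ 2) * ((Q + 1) * (5 ^ m * 4 ^ m)) := ⟨_, rfl⟩
  have hC1 : 0 ≤ 50 * (1 + K ^ 2) * ((Q + 1) * (5 ^ m * 4 ^ m) : ℝ) := by positivity
  have hC2 : 0 < 5 * 4 ^ m / ome m := by positivity
  have hc16 : c ≤ 1 / 16 := hcc1.trans hc116
  refine ⟨c, C, hc0, by rw [hC]; linarith, ?_⟩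
  intro π κ u Φ Ψ U D z₀ ρ lam e δ d sp ch he0 hec hu hu0 hu1 hu2 hlc hU hD hs hρ hb hδ0 hδ1
    hdc hsep hm4 hm5 has
  have hl0 : 0 ≤ lam := (norm_nonneg _).trans (hu0 0)
  have he16 : e ≤ 1 / 16 := hec.trans hc16
  have hl4 : lam ≤ 1 / 4 := by linarith
  have hlm : 64 * m * lam ^ 2 ≤ 1 := by
    have h1 : lam ≤ 1 / (64 * m) := hlc.trans hcm
    have h2 : 64 * m * lam ≤ 1 := by
      rw [le_div_iff₀ (by positivity)] at h1
      linarith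
    nlinarith
  have hd0 : 0 ≤ d := by
    have h1 : 0 ≤ sep (VD D) π κ z₀ ρ u 7 := integral_nonneg fun _ => by positivity
    have h2 : 0 ≤ d * ρ ^ (m + 2) := h1.trans hsep
    exact nonneg_of_mul_nonneg_left h2 (by positivity)
  have hOo : IsOpen (UU π κ Φ z₀ ρ U) := isOpen_UU ch.dif.cd.continuous z₀ ρ hU
  have hXi : IsIntegralVarifoldIn (UU π κ Φ z₀ ρ U) (DD π κ Φ Ψ z₀ ρ U D) :=
    integral_DD hD hU ch.dif z₀ hρ
  have hdom : cyl π κ 0 5 2 ⊆ UU π κ Φ z₀ ρ U := cyl_subset_UU ch sp hu0 hu1 hl4 hρ hb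
  have hhgt := hgt_DD hm sp ch he16 hu hu0 hu1 hu2 hl4 hlm hU hD hs hρ hb hsep
  have hce := hc1e e (hec.trans hcc1)
  have hm5' := mass_cht sp ch he0 (by linarith) hU hD hρ hdom (R := 5) (h := 2) le_rfl le_rfl
  have hm4' := mass_cht sp ch he0 (by linarith) hU hD hρ hdom (R := 4) (h := 1) (by norm_num)
    (by norm_num)
  have hext := ex_DD (z₀ := z₀) ch he16 hU hD hs hρ
  generalize DD π κ Φ Ψ z₀ ρ U D = X at *
  generalize UU π κ Φ z₀ ρ U = O at *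
  have hbig : (VD X).real (cyl π κ 0 5 2 ×ˢ univ) ≤ (Q + 1) * (ome m * 5 ^ m) := by
    rw [measureReal_def, VD_prod_univ hXi (measurableSet_cyl π κ 0 5 2), ← measureReal_def]
    exact real_big hη0.le hηQ.le hce.1 (by positivity) (by positivity) hm5'.1 hm5
  have hd5 : 5 * 4 ^ m / ome m * d ≤ 1 / 4 := by
    have h1 : d ≤ ome m / (20 * 4 ^ m) := hdc.trans hcom
    rw [le_div_iff₀ (by positivity)] at h1
    rw [div_mul_eq_mul_div, div_le_iff₀ hom]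
    linarith
  have hA0 : 0 ≤ 5 * 4 ^ m / ome m * d := by positivity
  have hen := energy_of (K := K) hφ hφ01 hφ1 hφ0 hφK sp hXi hdom has hδ0 hδ1 hhgt hA0 hd5 hbig
  rw [real_en hom] at hen
  have hCd : C * d = 5 * 4 ^ m / ome m * d +
      50 * (1 + K ^ 2) * ((Q + 1) * (5 ^ m * 4 ^ m)) * d := by
    rw [hC, add_mul]
  have hB0 : 0 ≤ 50 * (1 + K ^ 2) * ((Q + 1) * (5 ^ m * 4 ^ m) : ℝ) * d := mul_nonneg hC1 hd0
  refine
    { sp := sp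
      isOpen := hOo
      int := hXi
      as := has
      dom' := hdom
      hgt := ?_
      en := ?_
      mass := ?_
      big := hbig
      ex := hext }
  · filter_upwards [hhgt] with p hp hpc
    refine (hp ⟨hpc.1.trans (by norm_num), hpc.2.trans (by norm_num)⟩).trans ?_
    rw [hCd]
    linarith
  · refine hen.trans ?_
    rw [hCd]
    linarith
  · unfold Core_809.part
    rw [measureReal_def, Measure.restrict_apply MeasurableSet.univ, univ_inter,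
      VD_prod_univ hXi (measurableSet_cyl π κ 0 4 1), ← measureReal_def]
    exact real_masses hη0.le (by positivity) (by positivity) hce.1 (hce.2 he0) hm4'.1 hm4'.2
      (by positivity) hηQ.le hm4

end Crest.Agent.R234.Ex_46
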