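import Mathlib

/-!
# Row 234, (F10), part a (helper188): the invariant of the frequency chain

One step of the chain of references (going *down* in scale by `h` in logarithmic scale):
`L = Λ` (log of the inverse separation excess), `f` = frequency excess (`N - 1` or `(N - 1)⁺`),
`κ` = normalised curvature of the reference.

* (H1) `c ≤ f' → log (1 + f') ≤ log (1 + f) + a / L ^ 2 * ((L' - L)⁺ + h) + b * h * κ`
* (H2) `c ≤ f' → d * h ≤ L' - L`
* (HK) `κ' ≤ (1 - h / 2) * κ + a * h / L ^ 2`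

The potential `P = log (1 + f) + 2 b κ + 4 A / L`, `A = a (1 + 1 / d + 2 b / d)`, does not increase
where `c ≤ f'`, elsewhere it is bounded by a constant. Step lengths are arbitrary, so is the number
of steps. `κ` stays below `κm`, and `M exp P ≤ L ^ 2` (the step length `1 / L ^ 2` is permitted for
ever) is invariant as well.
-/

set_option autoImplicit false

namespace Crest.Agent.R234.F10a_188

open Real

/-- constants of the step: `a` errors, `b` curvature errors, `c` threshold, `d` gain. -/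
structure Cst where
  a : ℝ
  b : ℝ
  c : ℝ
  d : ℝ
  ha : 0 ≤ a
  hb : 0 ≤ b
  hc : 0 ≤ c
  hd : 0 < d

namespace Cst

variable (k : Cst)

/-- the constant of the `1 / Λ` term of the potential. -/
noncomputable def A : ℝ := k.a * (1 + 1 / k.d + 2 * k.b / k.d)

theorem A_nonneg : 0 ≤ k.A := by
  have := k.ha; have := k.hb; have := k.hd
  unfold A; positivity

/-- the potential. -/
noncomputable def pot (L f κ : ℝ) : ℝ := log (1 + f) + 2 * k.b * κ + 4 * k.A / L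

/-- the value of the potential in the flat regime. -/
noncomputable def base (Λ₀ κm : ℝ) : ℝ := log (1 + k.c) + 2 * k.b * κm + 4 * k.A / Λ₀

/-- the relation between two consecutive references. -/
structure Rel (h L f κ L' f' κ' : ℝ) : Prop where
  step : L' ≤ 2 * L
  H1 : k.c ≤ f' →
    log (1 + f') ≤ log (1 + f) + k.a / L ^ 2 * (max (L' - L) 0 + h) + k.b * h * κ
  H2 : k.c ≤ f' → k.d * h ≤ L' - L
  HK : κ' ≤ (1 - h / 2) * κ + k.a * h / L ^ 2

variable {k}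

/-- where the frequency excess is `≥ c` the potential does not increase and `Λ` does not decrease. -/
theorem pot_le {h L f κ L' f' κ' : ℝ} (hh : 0 ≤ h) (hL : 0 < L)
    (hr : k.Rel h L f κ L' f' κ') (hf : k.c ≤ f') :
    k.pot L' f' κ' ≤ k.pot L f κ ∧ L ≤ L' := by
  have ha := k.ha
  have hb := k.hb
  have hd := k.hd
  have hD := hr.H2 hf
  have h1 := hr.H1 hf
  have h2 := hr.step
  have h3 := hr.HK
  have hA0 := k.A_nonneg
  have hA : k.A = k.a * (1 + 1 / k.d + 2 * k.b / k.d) := rfl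
  set a := k.a
  set b := k.b
  set d := k.d
  set A := k.A
  set D := L' - L with hDdef
  have hL' : L' = L + D := by rw [hDdef]; ring
  have hD0 : 0 ≤ D := le_trans (by positivity) hD
  have hhD : h ≤ D / d := by
    rw [le_div_iff₀ hd]; linarith
  rw [max_eq_left hD0] at h1
  refine ⟨?_, by linarith⟩
  change log (1 + f') + 2 * b * κ' + 4 * A / L' ≤ log (1 + f) + 2 * b * κ + 4 * A / L
  -- the gain
  have hgain : 4 * A / L' ≤ 4 * A / L - 2 * A * D / L ^ 2 := by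
    rw [hL']
    have h4 : D ≤ L := by linarith
    rw [div_le_iff₀ (by linarith)]
    have h5 : (4 * A / L - 2 * A * D / L ^ 2) * (L + D) =
        4 * A + 2 * A * D * (L - D) / L ^ 2 := by
      field_simp
      ring
    rw [h5]
    have : 0 ≤ 2 * A * D * (L - D) / L ^ 2 := by
      apply div_nonneg _ (by positivity)
      apply mul_nonneg (by positivity) (by linarith)
    linarith
  -- the costs
  have hL2 : 0 < L ^ 2 := by positivity
  have e1 : a / L ^ 2 * (D + h) ≤ a / L ^ 2 * (D + D / d) :=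
    mul_le_mul_of_nonneg_left (by linarith) (by positivity)
  have e2 : 2 * b * (a * h / L ^ 2) ≤ 2 * b * (a * (D / d) / L ^ 2) := by gcongr
  have e3 : a / L ^ 2 * (D + D / d) + 2 * b * (a * (D / d) / L ^ 2) = A * D / L ^ 2 := by
    rw [hA]; field_simp
  have e4 : 2 * b * κ' ≤ 2 * b * ((1 - h / 2) * κ + a * h / L ^ 2) :=
    mul_le_mul_of_nonneg_left h3 (by positivity)
  have e5 : 0 ≤ A * D / L ^ 2 := by positivity
  have e6 : 2 * A * D / L ^ 2 = A * D / L ^ 2 + A * D / L ^ 2 := by ring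
  have e7 : 2 * b * ((1 - h / 2) * κ + a * h / L ^ 2) =
      2 * b * κ - b * h * κ + 2 * b * (a * h / L ^ 2) := by ring
  linarith

/-- where the frequency excess is `≤ c` the potential is below `base`. -/
theorem pot_le_base {Λ₀ κm L' f' κ' : ℝ} (hΛ₀ : 0 < Λ₀) (hL' : Λ₀ ≤ L') (hκ' : κ' ≤ κm)
    (hf1 : -1 < f') (hf : f' ≤ k.c) : k.pot L' f' κ' ≤ k.base Λ₀ κm := by
  unfold pot base
  have hA0 := k.A_nonneg
  have hb := k.hb
  have h1 : log (1 + f') ≤ log (1 + k.c) := log_le_log (by linarith) (by linarith)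
  have h2 : 2 * k.b * κ' ≤ 2 * k.b * κm := mul_le_mul_of_nonneg_left hκ' (by positivity)
  have h3 : 4 * k.A / L' ≤ 4 * k.A / Λ₀ := div_le_div_of_nonneg_left (by positivity) hΛ₀ hL'
  linarith

variable (k)

/-- the invariant. -/
structure Inv (Λ₀ κm B M L f κ : ℝ) : Prop where
  hL : Λ₀ ≤ L
  hκ0 : 0 ≤ κ
  hκ : κ ≤ κm
  hf : -1 < f
  hP : k.pot L f κ ≤ max B (k.base Λ₀ κm)
  hM : M * exp (k.pot L f κ) ≤ L ^ 2

variable {k}

/-- the curvature stays below `κm`. -/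
theorem Inv.kappa_le {Λ₀ κm B M h L f κ L' f' κ' : ℝ} (hh : 0 ≤ h) (hh1 : h ≤ 2) (hΛ₀ : 0 < Λ₀)
    (hκm : 2 * k.a / Λ₀ ^ 2 ≤ κm) (hi : k.Inv Λ₀ κm B M L f κ)
    (hr : k.Rel h L f κ L' f' κ') : κ' ≤ κm := by
  have hLpos : 0 < L := hΛ₀.trans_le hi.hL
  have ha := k.ha
  have h1 := hr.HK
  have h2 : (1 - h / 2) * κ ≤ (1 - h / 2) * κm :=
    mul_le_mul_of_nonneg_left hi.hκ (by linarith)
  have h3 : k.a * h / L ^ 2 ≤ k.a * h / Λ₀ ^ 2 :=
    div_le_div_of_nonneg_left (by positivity) (by positivity)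
      (pow_le_pow_left₀ hΛ₀.le hi.hL 2)
  have h4 : k.a * h / Λ₀ ^ 2 = h / 2 * (2 * k.a / Λ₀ ^ 2) := by ring
  have h5 : h / 2 * (2 * k.a / Λ₀ ^ 2) ≤ h / 2 * κm :=
    mul_le_mul_of_nonneg_left hκm (by linarith)
  nlinarith

/-- **one step preserves the invariant.** -/
theorem Inv.next {Λ₀ κm B M h L f κ L' f' κ' : ℝ} (hh : 0 ≤ h) (hh1 : h ≤ 2) (hΛ₀ : 0 < Λ₀)
    (hM : 0 ≤ M) (hκm : 2 * k.a / Λ₀ ^ 2 ≤ κm) (hB : M * exp (k.base Λ₀ κm) ≤ Λ₀ ^ 2)
    (hi : k.Inv Λ₀ κm B M L f κ) (hr : k.Rel h L f κ L' f' κ') (hL' : Λ₀ ≤ L') (hκ' : 0 ≤ κ')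
    (hf' : -1 < f') : k.Inv Λ₀ κm B M L' f' κ' := by
  have hLpos : 0 < L := hΛ₀.trans_le hi.hL
  have hκ1 : κ' ≤ κm := hi.kappa_le hh hh1 hΛ₀ hκm hr
  rcases le_or_gt k.c f' with hf | hf
  · obtain ⟨h1, h2⟩ := pot_le hh hLpos hr hf
    refine ⟨hL', hκ', hκ1, hf', h1.trans hi.hP, ?_⟩
    calc M * exp (k.pot L' f' κ') ≤ M * exp (k.pot L f κ) :=
          mul_le_mul_of_nonneg_left (exp_le_exp.2 h1) hM
      _ ≤ L ^ 2 := hi.hM
      _ ≤ L' ^ 2 := pow_le_pow_left₀ hLpos.le h2 2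
  · have h1 := pot_le_base (k := k) hΛ₀ hL' hκ1 hf' hf.le
    refine ⟨hL', hκ', hκ1, hf', h1.trans (le_max_right _ _), ?_⟩
    calc M * exp (k.pot L' f' κ') ≤ M * exp (k.base Λ₀ κm) :=
          mul_le_mul_of_nonneg_left (exp_le_exp.2 h1) hM
      _ ≤ Λ₀ ^ 2 := hB
      _ ≤ L' ^ 2 := pow_le_pow_left₀ hΛ₀.le hL' 2

/-- `1 + f ≤ exp P`. -/
theorem one_add_le {L f κ : ℝ} (hL : 0 < L) (hκ : 0 ≤ κ) (hf : -1 < f) :
    1 + f ≤ exp (k.pot L f κ) := by
  have hb := k.hb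
  have hA0 := k.A_nonneg
  have h1 : 0 < 1 + f := by linarith
  rw [← log_le_iff_le_exp h1]
  unfold pot
  have h2 : 0 ≤ 2 * k.b * κ := by positivity
  have h3 : 0 ≤ 4 * k.A / L := by positivity
  linarith

/-- the frequency bound in the invariant. -/
theorem Inv.freq {Λ₀ κm B M L f κ : ℝ} (hΛ₀ : 0 < Λ₀) (hi : k.Inv Λ₀ κm B M L f κ) :
    1 + f ≤ exp (max B (k.base Λ₀ κm)) :=
  (one_add_le (hΛ₀.trans_le hi.hL) hi.hκ0 hi.hf).trans (exp_le_exp.2 hi.hP)

/-- the step length `1 / L ^ 2` is permitted: `M (1 + f) ≤ L ^ 2`. -/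
theorem Inv.perm {Λ₀ κm B M L f κ : ℝ} (hΛ₀ : 0 < Λ₀) (hM : 0 ≤ M)
    (hi : k.Inv Λ₀ κm B M L f κ) : M * (1 + f) ≤ L ^ 2 :=
  (mul_le_mul_of_nonneg_left (one_add_le (hΛ₀.trans_le hi.hL) hi.hκ0 hi.hf) hM).trans hi.hM

/-- the invariant at the start: `C (1 + f) ≤ L ^ 2` with room. -/
theorem Inv.start {Λ₀ κm M L f κ : ℝ} (hΛ₀ : 0 < Λ₀) (hM : 0 ≤ M) (hL : Λ₀ ≤ L) (hκ0 : 0 ≤ κ)
    (hκ : κ ≤ κm) (hf : -1 < f)
    (h : M * exp (2 * k.b * κm + 4 * k.A / Λ₀) * (1 + f) ≤ L ^ 2) :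
    k.Inv Λ₀ κm (log (1 + f) + (2 * k.b * κm + 4 * k.A / Λ₀)) M L f κ := by
  have hb := k.hb
  have hA0 := k.A_nonneg
  have h2 : 2 * k.b * κ ≤ 2 * k.b * κm := mul_le_mul_of_nonneg_left hκ (by positivity)
  have h3 : 4 * k.A / L ≤ 4 * k.A / Λ₀ := div_le_div_of_nonneg_left (by positivity) hΛ₀ hL
  have h4 : k.pot L f κ ≤ log (1 + f) + (2 * k.b * κm + 4 * k.A / Λ₀) := by
    unfold pot; linarith
  refine ⟨hL, hκ0, hκ, hf, h4.trans (le_max_left _ _), ?_⟩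
  calc M * exp (k.pot L f κ) ≤ M * exp (log (1 + f) + (2 * k.b * κm + 4 * k.A / Λ₀)) :=
        mul_le_mul_of_nonneg_left (exp_le_exp.2 h4) hM
    _ = M * exp (2 * k.b * κm + 4 * k.A / Λ₀) * (1 + f) := by
        rw [exp_add, exp_log (by linarith)]; ring
    _ ≤ L ^ 2 := h

end Cst

end Crest.Agent.R234.F10a_188
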