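import Crest.Agent.R234.F10a_188

/-!
# Row 234, (F10), part b (helper188): the chain of references in an abstract world

`R` = references, `l` = logarithmic scale. `st M l` = "`M` is a state at level `l`" (selected minimal
graph, small mean error, doubling on the collar), `L M l` = `Λ`, `f M l` = frequency excess,
`κ M l` = normalised curvature, `K M l` = inverse step length, `flat l` = flatness of the varifold at
level `l`.

* `StepH` (F7): from a state with permitted frequency one can go down by `h ∈ [1 / K, 1]`, the new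
  `K` is at most `max K (K₀ (1 + f'))`.
* `FlatH` (FL): flatness at level `l` gives `Λ₀ ≤ L M l`.
* `reach` : from a state with the invariant `Inv` one reaches every lower level of flatness, with
  the invariant, hence with a frequency bound independent of the number of steps.
* `reach_kappa` : if moreover `λ ≤ L` on the last part of length `t₁ - t`, the curvature at the end
  is at most `exp (-(t₁ - t) / 2) κm + 2 a / λ ^ 2`.
-/

set_option autoImplicit false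

namespace Crest.Agent.R234.F10b_188

open Real Crest.Agent.R234.F10a_188

variable {R : Type*}

/-- the data of the chain at one point. -/
structure World (R : Type*) where
  st : R → ℝ → Prop
  L : R → ℝ → ℝ
  f : R → ℝ → ℝ
  κ : R → ℝ → ℝ
  K : R → ℝ → ℝ
  f_gt : ∀ M l, st M l → -1 < f M l
  κ_nonneg : ∀ M l, st M l → 0 ≤ κ M l
  K_pos : ∀ M l, st M l → 0 < K M l

variable (W : World R) (k : Cst)

/-- the relation of one step. -/
structure Nx (K₀ : ℝ) (M : R) (l : ℝ) (M' : R) (h : ℝ) : Prop where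
  lo : 1 / W.K M l ≤ h
  hi : h ≤ 1
  st : W.st M' (l - h)
  rel : k.Rel h (W.L M l) (W.f M l) (W.κ M l) (W.L M' (l - h)) (W.f M' (l - h)) (W.κ M' (l - h))
  hK : W.K M' (l - h) ≤ max (W.K M l) (K₀ * (1 + W.f M' (l - h)))

/-- (F7) the step. -/
def StepH (flat : ℝ → Prop) (Λ₀ κm P K₀ : ℝ) : Prop :=
  ∀ M l, W.st M l → flat l → Λ₀ ≤ W.L M l → W.κ M l ≤ κm → P * (1 + W.f M l) ≤ W.L M l ^ 2 →
    ∃ M' h, Nx W k K₀ M l M' h

/-- (FL) flatness bounds `Λ` from below. -/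
def FlatH (flat : ℝ → Prop) (Λ₀ κm : ℝ) : Prop :=
  ∀ M l, W.st M l → flat l → W.κ M l ≤ κm → Λ₀ ≤ W.L M l

/-- the invariant at a state. -/
def InvW (Λ₀ κm B P : ℝ) (M : R) (l : ℝ) : Prop :=
  k.Inv Λ₀ κm B P (W.L M l) (W.f M l) (W.κ M l)

variable {W k}

/-- general induction: every property which contains the invariant and is preserved by the steps
can be transported down to the bottom of the range of flatness. -/
theorem reach_gen {flat : ℝ → Prop} {Λ₀ κm B P K₀ : ℝ} (hΛ₀ : 0 < Λ₀) (hP : 0 ≤ P)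
    (hK₀ : 0 ≤ K₀) (hκm : 2 * k.a / Λ₀ ^ 2 ≤ κm)
    (hB : P * exp (k.base Λ₀ κm) ≤ Λ₀ ^ 2)
    (hstep : StepH W k flat Λ₀ κm P K₀) (hfl : FlatH W flat Λ₀ κm)
    (Φ : R → ℝ → Prop) {M₀ : R} {l₀ t : ℝ}
    (hΦ : ∀ M l M' h, l ≤ l₀ → t ≤ l - h → W.st M l → InvW W k Λ₀ κm B P M l → Φ M l →
      Nx W k K₀ M l M' h → Φ M' (l - h))
    (htl : t ≤ l₀) (hflat : ∀ l, t ≤ l → l ≤ l₀ → flat l)
    (h0 : W.st M₀ l₀) (hi0 : InvW W k Λ₀ κm B P M₀ l₀) (hΦ0 : Φ M₀ l₀) :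
    ∃ M l, t ≤ l ∧ l ≤ t + 1 ∧ l ≤ l₀ ∧ W.st M l ∧ InvW W k Λ₀ κm B P M l ∧ Φ M l := by
  set F := exp (max B (k.base Λ₀ κm)) with hF
  have hF0 : 0 < F := exp_pos _
  set Km := max (W.K M₀ l₀) (K₀ * F) with hKm
  have hKm0 : 0 < Km := (W.K_pos _ _ h0).trans_le (le_max_left _ _)
  set hm := 1 / Km with hhm
  have hhm0 : 0 < hm := by positivity
  -- the induction
  have key : ∀ n : ℕ, (∃ M l, t ≤ l ∧ l ≤ t + 1 ∧ l ≤ l₀ ∧ W.st M l ∧
        InvW W k Λ₀ κm B P M l ∧ Φ M l) ∨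
      (∃ M l, t ≤ l ∧ l ≤ l₀ - n * hm ∧ l ≤ l₀ ∧ W.st M l ∧ InvW W k Λ₀ κm B P M l ∧ Φ M l ∧
        W.K M l ≤ Km) := by
    intro n
    induction n with
    | zero =>
      exact Or.inr ⟨M₀, l₀, htl, by simp, le_refl _, h0, hi0, hΦ0, le_max_left _ _⟩
    | succ n ih =>
      rcases ih with ih | ⟨M, l, h1, h2, h3, h4, h5, h6, h7⟩
      · exact Or.inl ih
      rcases le_or_gt l (t + 1) with hl | hl
      · exact Or.inl ⟨M, l, h1, hl, h3, h4, h5, h6⟩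
      obtain ⟨M', h, hn⟩ := hstep M l h4 (hflat l h1 h3) h5.hL h5.hκ (h5.perm hΛ₀ hP)
      have hh : hm ≤ h := by
        refine le_trans ?_ hn.lo
        exact one_div_le_one_div_of_le (W.K_pos _ _ h4) h7
      have hh0 : 0 < h := hhm0.trans_le hh
      have hh1 : h ≤ 1 := hn.hi
      have hfl' : flat (l - h) := hflat _ (by linarith) (by linarith)
      have hκ' := Cst.Inv.kappa_le hh0.le (by linarith) hΛ₀ hκm h5 hn.rel
      have hinv : InvW W k Λ₀ κm B P M' (l - h) :=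
        Cst.Inv.next hh0.le (by linarith) hΛ₀ hP hκm hB h5 hn.rel (hfl M' _ hn.st hfl' hκ')
          (W.κ_nonneg _ _ hn.st) (W.f_gt _ _ hn.st)
      refine Or.inr ⟨M', l - h, by linarith, ?_, by linarith, hn.st, hinv,
        hΦ M l M' h h3 (by linarith) h4 h5 h6 hn, ?_⟩
      · push_cast
        nlinarith
      · refine hn.hK.trans (max_le h7 ?_)
        have h9 : 1 + W.f M' (l - h) ≤ F := hinv.freq hΛ₀
        exact (mul_le_mul_of_nonneg_left h9 hK₀).trans (le_max_right _ _)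
  obtain ⟨n, hn⟩ := exists_nat_gt ((l₀ - t) / hm)
  rcases key n with h | ⟨M, l, h1, h2, -⟩
  · exact h
  · exfalso
    rw [div_lt_iff₀ hhm0] at hn
    linarith

/-- the chain reaches every lower level of flatness, the invariant is preserved. -/
theorem reach {flat : ℝ → Prop} {Λ₀ κm B P K₀ : ℝ} (hΛ₀ : 0 < Λ₀) (hP : 0 ≤ P)
    (hK₀ : 0 ≤ K₀) (hκm : 2 * k.a / Λ₀ ^ 2 ≤ κm)
    (hB : P * exp (k.base Λ₀ κm) ≤ Λ₀ ^ 2)
    (hstep : StepH W k flat Λ₀ κm P K₀) (hfl : FlatH W flat Λ₀ κm)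
    {M₀ : R} {l₀ t : ℝ} (htl : t ≤ l₀) (hflat : ∀ l, t ≤ l → l ≤ l₀ → flat l)
    (h0 : W.st M₀ l₀) (hi0 : InvW W k Λ₀ κm B P M₀ l₀) :
    ∃ M l, t ≤ l ∧ l ≤ t + 1 ∧ l ≤ l₀ ∧ W.st M l ∧ InvW W k Λ₀ κm B P M l := by
  obtain ⟨M, l, h1, h2, h3, h4, h5, -⟩ := reach_gen hΛ₀ hP hK₀ hκm hB hstep hfl
    (fun _ _ => True) (fun _ _ _ _ _ _ _ _ _ _ => trivial) htl hflat h0 hi0 trivial
  exact ⟨M, l, h1, h2, h3, h4, h5⟩

/-- the curvature at the end of a stretch where `λ ≤ Λ`. -/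
theorem reach_kappa {flat : ℝ → Prop} {Λ₀ κm B P K₀ lam : ℝ} (hΛ₀ : 0 < Λ₀) (hP : 0 ≤ P)
    (hK₀ : 0 ≤ K₀) (hκm : 2 * k.a / Λ₀ ^ 2 ≤ κm) (hκ0 : 0 ≤ κm)
    (hB : P * exp (k.base Λ₀ κm) ≤ Λ₀ ^ 2)
    (hstep : StepH W k flat Λ₀ κm P K₀) (hfl : FlatH W flat Λ₀ κm) (hlam : 0 < lam)
    {M₀ : R} {l₀ t : ℝ} (htl : t ≤ l₀) (hflat : ∀ l, t ≤ l → l ≤ l₀ → flat l)
    (hlarge : ∀ M l, t ≤ l → l ≤ l₀ → W.st M l → W.κ M l ≤ κm → lam ≤ W.L M l)
    (h0 : W.st M₀ l₀) (hi0 : InvW W k Λ₀ κm B P M₀ l₀) :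
    ∃ M l, t ≤ l ∧ l ≤ t + 1 ∧ l ≤ l₀ ∧ W.st M l ∧ InvW W k Λ₀ κm B P M l ∧
      W.κ M l ≤ exp (-(l₀ - l) / 2) * κm + 2 * k.a / lam ^ 2 := by
  have ha := k.ha
  refine reach_gen hΛ₀ hP hK₀ hκm hB hstep hfl
    (fun M l => W.κ M l ≤ exp (-(l₀ - l) / 2) * κm + 2 * k.a / lam ^ 2) ?_ htl hflat h0 hi0 ?_
  · intro M l M' h hl hth hst hinv hΦ hn
    have hh0 : 0 < h := (one_div_pos.2 (W.K_pos _ _ hst)).trans_le hn.lo
    have hh1 : h ≤ 1 := hn.hi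
    have h9 := hn.rel.HK
    have h10 : lam ≤ W.L M l := hlarge M l (by linarith) hl hst hinv.hκ
    have h11 : k.a * h / W.L M l ^ 2 ≤ k.a * h / lam ^ 2 :=
      div_le_div_of_nonneg_left (by positivity) (by positivity)
        (pow_le_pow_left₀ hlam.le h10 2)
    have h12 : 1 - h / 2 ≤ exp (-h / 2) := by
      have := add_one_le_exp (-h / 2)
      linarith
    have h13 : exp (-(l₀ - (l - h)) / 2) = exp (-h / 2) * exp (-(l₀ - l) / 2) := by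
      rw [← exp_add]; congr 1; ring
    have h14 : (1 - h / 2) * (exp (-(l₀ - l) / 2) * κm) ≤
        exp (-(l₀ - (l - h)) / 2) * κm := by
      rw [h13, mul_assoc]
      exact mul_le_mul_of_nonneg_right h12 (by positivity)
    have h15 : (1 - h / 2) * W.κ M l ≤
        (1 - h / 2) * (exp (-(l₀ - l) / 2) * κm + 2 * k.a / lam ^ 2) :=
      mul_le_mul_of_nonneg_left hΦ (by linarith)
    have h16 : (1 - h / 2) * (2 * k.a / lam ^ 2) + k.a * h / lam ^ 2 = 2 * k.a / lam ^ 2 := by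
      ring
    calc W.κ M' (l - h) ≤ (1 - h / 2) * W.κ M l + k.a * h / W.L M l ^ 2 := h9
      _ ≤ (1 - h / 2) * (exp (-(l₀ - l) / 2) * κm + 2 * k.a / lam ^ 2) + k.a * h / lam ^ 2 := by
          linarith
      _ ≤ exp (-(l₀ - (l - h)) / 2) * κm + 2 * k.a / lam ^ 2 := by linarith
  · have := hi0.hκ
    have h7 : 0 ≤ 2 * k.a / lam ^ 2 := by positivity
    simp only [sub_self, neg_zero, zero_div, exp_zero, one_mul]
    linarith

/-! ### the start -/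

/-- pre-states: references without selection property; `Lp` = their `Λ`, `κp` = their curvature. -/
structure Pre (R : Type*) where
  pre : R → ℝ → Prop
  L : R → ℝ → ℝ
  κ : R → ℝ → ℝ

/-- (F8) the start step: from a pre-state at level `l` either a state with permitted frequency in
`[l - δ Λ^(-γ), l]` or a pre-state there whose `Λ` has grown by the factor `p`
(for levels in the window `[S - 1, S]`). -/
def StartH (W : World R) (Wp : Pre R) (flat : ℝ → Prop) (Λ₀ κm P δ γ p S : ℝ) : Prop :=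
  ∀ M l, S - 1 ≤ l → l ≤ S → Wp.pre M l → flat l → Λ₀ ≤ Wp.L M l → Wp.κ M l ≤ κm →
    ∃ M' l', l - δ * Wp.L M l ^ (-γ) ≤ l' ∧ l' ≤ l ∧
      ((W.st M' l' ∧ Λ₀ ≤ W.L M' l' ∧ P * (1 + W.f M' l') ≤ W.L M' l' ^ 2 ∧
        W.κ M' l' ≤ Wp.κ M l + 1 / Wp.L M l) ∨
      (Wp.pre M' l' ∧ p * Wp.L M l ≤ Wp.L M' l' ∧ Wp.κ M' l' ≤ Wp.κ M l + 1 / Wp.L M l))

/-- the start: from a pre-state at the level `S` one finds a state in `[S - 1, S]`, provided the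
excess is bounded from below there. -/
theorem start {W : World R} {Wp : Pre R} {flat : ℝ → Prop} {Λ₀ κm P δ γ p lam S : ℝ}
    (hΛ₀ : 0 < Λ₀) (hδ : 0 ≤ δ) (hγ : 0 < γ) (hp : 1 < p)
    (hlen : δ * Λ₀ ^ (-γ) ≤ 1 - p ^ (-γ))
    (hκm : 1 / Λ₀ ≤ κm / 2 * (1 - p⁻¹))
    (hst : StartH W Wp flat Λ₀ κm P δ γ p S) (hflat : ∀ l, S - 1 ≤ l → l ≤ S → flat l)
    (hpos : ∀ M l, S - 1 ≤ l → l ≤ S → Wp.pre M l → Wp.κ M l ≤ κm → Wp.L M l ≤ lam)
    {M₀ : R} (h0 : Wp.pre M₀ S) (hL0 : Λ₀ ≤ Wp.L M₀ S) (hκ : Wp.κ M₀ S ≤ κm / 2) :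
    ∃ M l, S - 1 ≤ l ∧ l ≤ S ∧ W.st M l ∧ Λ₀ ≤ W.L M l ∧ P * (1 + W.f M l) ≤ W.L M l ^ 2 ∧
      W.κ M l ≤ κm := by
  set q := p ^ (-γ) with hq
  have hp0 : 0 < p := by linarith
  have hq0 : 0 < q := rpow_pos_of_pos hp0 _
  have hq1 : q < 1 := rpow_lt_one_of_one_lt_of_neg hp (by linarith)
  have hpi : 0 < p⁻¹ := inv_pos.2 hp0
  have hpi1 : p⁻¹ < 1 := inv_lt_one_of_one_lt₀ hp
  have hd : δ * Λ₀ ^ (-γ) / (1 - q) ≤ 1 := by
    rw [div_le_one (by linarith)]; exact hlen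
  have hk : 1 / Λ₀ / (1 - p⁻¹) ≤ κm / 2 := by
    rw [div_le_iff₀ (by linarith)]; exact hκm
  set A := δ * Λ₀ ^ (-γ) / (1 - q) with hA
  set B := 1 / Λ₀ / (1 - p⁻¹) with hB
  have hA0 : 0 ≤ A := by positivity
  have hB0 : 0 ≤ B := by
    have : 0 < 1 - p⁻¹ := by linarith
    positivity
  have key : ∀ n : ℕ, (∃ M l, S - 1 ≤ l ∧ l ≤ S ∧ W.st M l ∧ Λ₀ ≤ W.L M l ∧
        P * (1 + W.f M l) ≤ W.L M l ^ 2 ∧ W.κ M l ≤ κm) ∨
      (∃ M l, S - A * (1 - q ^ n) ≤ l ∧ l ≤ S ∧ Wp.pre M l ∧ p ^ n * Λ₀ ≤ Wp.L M l ∧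
        Wp.κ M l ≤ κm / 2 + B * (1 - p⁻¹ ^ n)) := by
    intro n
    induction n with
    | zero => exact Or.inr ⟨M₀, S, by simp, le_refl _, h0, by simpa using hL0, by simpa using hκ⟩
    | succ n ih =>
      rcases ih with ih | ⟨M, l, h1, h2, h3, h4, h5⟩
      · exact Or.inl ih
      have hpn : 1 ≤ p ^ n := one_le_pow₀ hp.le
      have hpnΛ : Λ₀ ≤ p ^ n * Λ₀ := le_mul_of_one_le_left hΛ₀.le hpn
      have hLL : Λ₀ ≤ Wp.L M l := hpnΛ.trans h4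
      have hLpos : 0 < Wp.L M l := hΛ₀.trans_le hLL
      have hA1 : A * (1 - q ^ n) ≤ 1 := by
        have : A * (1 - q ^ n) ≤ A * 1 :=
          mul_le_mul_of_nonneg_left (by linarith [pow_pos hq0 n]) hA0
        linarith
      have hB1 : B * (1 - p⁻¹ ^ n) ≤ B * 1 :=
        mul_le_mul_of_nonneg_left (by linarith [pow_pos hpi n]) hB0
      obtain ⟨M', l', e1, e2, e3⟩ :=
        hst M l (by linarith) h2 h3 (hflat l (by linarith) h2) hLL (by linarith)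
      -- length of the step
      have hlen' : δ * Wp.L M l ^ (-γ) ≤ A * (q ^ n * (1 - q)) := by
        have g1 : Wp.L M l ^ (-γ) ≤ (p ^ n * Λ₀) ^ (-γ) :=
          rpow_le_rpow_of_nonpos (by positivity) h4 (by linarith)
        have g2 : (p ^ n * Λ₀) ^ (-γ) = q ^ n * Λ₀ ^ (-γ) := by
          rw [mul_rpow (by positivity) hΛ₀.le, hq, ← rpow_natCast p n, ← rpow_mul hp0.le,
            mul_comm (n : ℝ) (-γ), rpow_mul hp0.le, rpow_natCast]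
        have hq1' : 1 - q ≠ 0 := by linarith
        have g3 : A * (q ^ n * (1 - q)) = δ * (q ^ n * Λ₀ ^ (-γ)) := by
          rw [hA]; field_simp
        rw [g3, ← g2]
        exact mul_le_mul_of_nonneg_left g1 hδ
      have hgA : A * (1 - q ^ (n + 1)) = A * (1 - q ^ n) + A * (q ^ n * (1 - q)) := by
        rw [pow_succ]; ring
      have hA2 : A * (1 - q ^ (n + 1)) ≤ 1 := by
        have : A * (1 - q ^ (n + 1)) ≤ A * 1 :=
          mul_le_mul_of_nonneg_left (by linarith [pow_pos hq0 (n + 1)]) hA0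
        linarith
      -- curvature
      have hcur : 1 / Wp.L M l ≤ B * (p⁻¹ ^ n * (1 - p⁻¹)) := by
        have hpi1' : 1 - p⁻¹ ≠ 0 := by linarith
        have g3 : B * (p⁻¹ ^ n * (1 - p⁻¹)) = 1 / (p ^ n * Λ₀) := by
          rw [hB, inv_pow, div_mul_eq_mul_div, div_eq_iff hpi1', one_div, one_div, mul_inv]
          ring
        rw [g3]
        exact one_div_le_one_div_of_le (by positivity) h4
      have hgB : B * (1 - p⁻¹ ^ (n + 1)) = B * (1 - p⁻¹ ^ n) + B * (p⁻¹ ^ n * (1 - p⁻¹)) := by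
        rw [pow_succ]; ring
      have hB2 : B * (1 - p⁻¹ ^ (n + 1)) ≤ B * 1 :=
        mul_le_mul_of_nonneg_left (by linarith [pow_pos hpi (n + 1)]) hB0
      rcases e3 with ⟨f1, f2, f3, f4⟩ | ⟨f1, f2, f3⟩
      · exact Or.inl ⟨M', l', by linarith, by linarith, f1, f2, f3, by linarith⟩
      · refine Or.inr ⟨M', l', by linarith, by linarith, f1, ?_, by linarith⟩
        calc p ^ (n + 1) * Λ₀ = p * (p ^ n * Λ₀) := by ring
          _ ≤ p * Wp.L M l := mul_le_mul_of_nonneg_left h4 hp0.le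
          _ ≤ Wp.L M' l' := f2
  obtain ⟨n, hn⟩ := ((tendsto_pow_atTop_atTop_of_one_lt hp).eventually_gt_atTop
    (lam / Λ₀)).exists
  rcases key n with h | ⟨M, l, h1, h2, h3, h4, h6⟩
  · exact h
  · exfalso
    have hA1 : A * (1 - q ^ n) ≤ A * 1 :=
      mul_le_mul_of_nonneg_left (by linarith [pow_pos hq0 n]) hA0
    have hB1 : B * (1 - p⁻¹ ^ n) ≤ B * 1 :=
      mul_le_mul_of_nonneg_left (by linarith [pow_pos hpi n]) hB0
    have h5 := hpos M l (by linarith) h2 h3 (by linarith)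
    rw [div_lt_iff₀ hΛ₀] at hn
    linarith

/-! ### the conclusion of (F10) in the abstract world -/

/-- the frequency bound at the end of the chain. -/
noncomputable def Fb (k : Cst) (Λ₀ κm P lam : ℝ) : ℝ :=
  exp (max (log (lam ^ 2 / P) + (2 * k.b * κm + 4 * k.A / Λ₀)) (k.base Λ₀ κm))

/-- **(F10), abstract form.** From the pre-state at the stopping level `S` down to the level `t`:
flatness on `[t, S]`, `Λ ≤ lam` on `[S - 1, S]` (positivity), `mu ≤ Λ` on `[t, t + A]`. -/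
theorem final {W : World R} {Wp : Pre R} {flat : ℝ → Prop}
    {Λ₀ κm P K₀ δ γ p lam mu A S t : ℝ}
    (hΛ₀ : 0 < Λ₀) (hP : 0 < P) (hK₀ : 0 ≤ K₀)
    (hκm : 2 * k.a / Λ₀ ^ 2 ≤ κm) (hκ0 : 0 ≤ κm) (hB : P * exp (k.base Λ₀ κm) ≤ Λ₀ ^ 2)
    (hδ : 0 ≤ δ) (hγ : 0 < γ) (hp : 1 < p) (hlen : δ * Λ₀ ^ (-γ) ≤ 1 - p ^ (-γ))
    (hκm' : 1 / Λ₀ ≤ κm / 2 * (1 - p⁻¹))
    (hstep : StepH W k flat Λ₀ κm P K₀) (hfl : FlatH W flat Λ₀ κm)
    (hst : StartH W Wp flat Λ₀ κm (P * exp (2 * k.b * κm + 4 * k.A / Λ₀)) δ γ p S)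
    (hmu : 0 < mu) (hA : 0 ≤ A) (htS : t + A + 3 ≤ S)
    (hflat : ∀ l, t ≤ l → l ≤ S → flat l)
    (hpos : ∀ M l, S - 1 ≤ l → l ≤ S → Wp.pre M l → Wp.κ M l ≤ κm → Wp.L M l ≤ lam)
    (hpos' : ∀ M l, S - 1 ≤ l → l ≤ S → W.st M l → W.L M l ≤ lam)
    (hlarge : ∀ M l, t ≤ l → l ≤ t + A + 1 → W.st M l → W.κ M l ≤ κm → mu ≤ W.L M l)
    {M₀ : R} (h0 : Wp.pre M₀ S) (hL0 : Λ₀ ≤ Wp.L M₀ S) (hκ : Wp.κ M₀ S ≤ κm / 2) :
    ∃ M l, t ≤ l ∧ l ≤ t + 1 ∧ W.st M l ∧ mu ≤ W.L M l ∧ 1 + W.f M l ≤ Fb k Λ₀ κm P lam ∧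
      W.κ M l ≤ exp (-(A - 1) / 2) * κm + 2 * k.a / mu ^ 2 := by
  have ha := k.ha
  obtain ⟨M₁, l₁, a1, a2, a3, a4, a5, a6⟩ := start hΛ₀ hδ hγ hp hlen hκm' hst
    (fun l hl hl' => hflat l (by linarith) hl') hpos h0 hL0 hκ
  have hf1 := W.f_gt M₁ l₁ a3
  -- the invariant at the start
  have hi1 : InvW W k Λ₀ κm (log (1 + W.f M₁ l₁) + (2 * k.b * κm + 4 * k.A / Λ₀)) P M₁ l₁ :=
    Cst.Inv.start hΛ₀ hP.le a4 (W.κ_nonneg _ _ a3) a6 hf1 a5
  have hL1 : W.L M₁ l₁ ≤ lam := hpos' M₁ l₁ a1 a2 a3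
  have hL1pos : 0 < W.L M₁ l₁ := hΛ₀.trans_le a4
  have hE : 1 ≤ exp (2 * k.b * κm + 4 * k.A / Λ₀) := by
    have hb := k.hb
    have hA0 := k.A_nonneg
    exact one_le_exp (by positivity)
  have hB1 : log (1 + W.f M₁ l₁) ≤ log (lam ^ 2 / P) := by
    refine log_le_log (by linarith) ?_
    rw [le_div_iff₀ hP]
    have h1 : P * (1 + W.f M₁ l₁) ≤ P * exp (2 * k.b * κm + 4 * k.A / Λ₀) * (1 + W.f M₁ l₁) := by
      refine mul_le_mul_of_nonneg_right ?_ (by linarith)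
      exact le_mul_of_one_le_right hP.le hE
    have h2 : W.L M₁ l₁ ^ 2 ≤ lam ^ 2 := pow_le_pow_left₀ hL1pos.le hL1 2
    linarith
  have hi1' : InvW W k Λ₀ κm (log (lam ^ 2 / P) + (2 * k.b * κm + 4 * k.A / Λ₀)) P M₁ l₁ := by
    refine ⟨hi1.hL, hi1.hκ0, hi1.hκ, hi1.hf, hi1.hP.trans ?_, hi1.hM⟩
    exact max_le_max (by linarith) le_rfl
  -- first part
  obtain ⟨M₂, l₂, b1, b2, b3, b4, b5⟩ := reach (t := t + A) hΛ₀ hP.le hK₀ hκm hB hstep
    hfl (by linarith) (fun l hl hl' => hflat l (by linarith) (by linarith)) a3 hi1'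
  -- second part
  obtain ⟨M₃, l₃, c1, c2, c3, c4, c5, c6⟩ := reach_kappa (t := t) (lam := mu) hΛ₀ hP.le hK₀
    hκm hκ0 hB hstep hfl hmu (by linarith)
    (fun l hl hl' => hflat l hl (by linarith))
    (fun M l hl hl' h h' => hlarge M l hl (by linarith) h h') b4 b5
  refine ⟨M₃, l₃, c1, c2, c4, hlarge M₃ l₃ c1 (by linarith) c4 c5.hκ, c5.freq hΛ₀, c6.trans ?_⟩
  have h1 : exp (-(l₂ - l₃) / 2) ≤ exp (-(A - 1) / 2) := exp_le_exp.2 (by linarith)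
  have h2 := mul_le_mul_of_nonneg_right h1 hκ0
  linarith

end Crest.Agent.R234.F10b_188
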