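import Mathlib

/-!
# Row 234, (F8) StartV, real-variable part (helper188)

If `log I` grows by at most `G` on a window of length `n · 4 q`, there is a piece of length `4 q` on
which it grows by at most `G / n ≤ 1`; on this piece the energy is at most `C I / q` by the mean value
theorem and the monotonicity of `e`, hence `N ≤ 13 / q` at its midpoint.
-/

set_option autoImplicit false

open Set Filter
open scoped Topology

namespace Crest.Agent.R234.F10s_188

/-- pigeonhole. -/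
theorem pigeon (F : ℝ → ℝ) {t q G : ℝ} {n : ℕ} (hn : 0 < n) (h : F (t + n * q) - F t ≤ G) :
    ∃ i < n, F (t + (i + 1 : ℕ) * q) - F (t + (i : ℕ) * q) ≤ G / n := by
  by_contra hcon
  push Not at hcon
  have hn0 : (0:ℝ) < n := by exact_mod_cast hn
  have key : ∀ j ≤ n, (j : ℝ) * (G / n) ≤ F (t + j * q) - F t := by
    intro j
    induction j with
    | zero => intro _; simp
    | succ j ih =>
      intro hj
      have h1 := ih (by omega)
      have h2 := hcon j (by omega)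
      push_cast at h2 ⊢
      linarith
  have hlt : ∀ j, 0 < j → j ≤ n → (j : ℝ) * (G / n) < F (t + j * q) - F t := by
    intro j hj0 hj
    obtain ⟨i, rfl⟩ : ∃ i, j = i + 1 := ⟨j - 1, by omega⟩
    have h1 := key i (by omega)
    have h2 := hcon i (by omega)
    push_cast at h2 ⊢
    linarith
  have h3 := hlt n hn le_rfl
  have h4 : (n : ℝ) * (G / n) = G := by field_simp
  linarith

/-- numeric part. -/
theorem arith {It Il el eξ Iξ I3 I' bl El q δ w : ℝ} (hq : 0 < q) (hq1 : q ≤ 1) (hIt : 0 < It)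
    (hIl0 : 0 < Il) (hIl : It ≤ 1.05 * Il) (hIl' : Il ≤ 2.9 * It) (hI3 : I3 ≤ 2.9 * It)
    (hIξ : Iξ ≤ 2.9 * It) (hIξ0 : 0 < Iξ) (hslope : I' = (I3 - Il) / q)
    (h1 : 2 * eξ ≤ I' + (δ * Iξ + w)) (hel : el ≤ 1.05 * eξ) (hE : El = el / 2 + bl)
    (hb : bl ≤ δ * Il + w) (hδ : δ ≤ 1 / 100) (hw : w ≤ It / 100) :
    2 * El / Il ≤ 13 / q := by
  have a1 : δ * Iξ ≤ 1 / 100 * (2.9 * It) := mul_le_mul hδ hIξ hIξ0.le (by norm_num)
  have a2 : δ * Il ≤ 1 / 100 * (2.9 * It) := mul_le_mul hδ hIl' hIl0.le (by norm_num)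
  have a3 : I' ≤ 2.9 * It / q := by
    rw [hslope]
    apply div_le_div_of_nonneg_right _ hq.le
    linarith
  have a4 : It ≤ It / q := by
    rw [le_div_iff₀ hq]
    exact mul_le_of_le_one_right hIt.le hq1
  have a5 : 2.9 * It / q = 2.9 * (It / q) := by ring
  rw [a5] at a3
  set J := It / q with hJ
  have a6 : 2 * eξ ≤ 2.94 * J := by linarith
  have a7 : 2 * El ≤ 2 * J := by linarith
  rw [div_le_iff₀ hIl0]
  have a8 : J ≤ 1.05 * Il / q := div_le_div_of_nonneg_right hIl hq.le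
  have a9 : 13 / q * Il = 13 * (Il / q) := by ring
  have a10 : 1.05 * Il / q = 1.05 * (Il / q) := by ring
  have a11 : 0 < Il / q := by positivity
  rw [a9]
  linarith

theorem exps {x : ℝ} (hx : x ≤ 4 / 100) : Real.exp x ≤ 1.05 := by
  have h1 : Real.exp x ≤ Real.exp (4 / 100) := Real.exp_le_exp.2 hx
  have h2 : 1 - 4 / 100 ≤ Real.exp (-(4 / 100)) := by
    have := Real.add_one_le_exp (-(4 / 100 : ℝ))
    linarith
  have h3 : Real.exp (4 / 100) * Real.exp (-(4 / 100)) = 1 := by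
    rw [← Real.exp_add]; simp
  have h4 := Real.exp_pos (4 / 100 : ℝ)
  nlinarith

theorem exp_two : (3.05 : ℝ) ≤ Real.exp 2 := by
  have h4 : Real.exp 2 = Real.exp 1 * Real.exp 1 := by rw [← Real.exp_add]; norm_num
  have h5 := Real.exp_one_gt_d9
  rw [h4]; nlinarith

/-- bounds of `I` on a piece where it grows by at most a factor `e`. -/
theorem bounds {I : ℝ → ℝ} {t q m : ℝ} (hm : 0 ≤ m) (hmq : m * q ≤ 1 / 100)
    (hIt : 0 < I t) (hI4 : 0 < I (t + 4 * q))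
    (hgrow : Real.log (I (t + 4 * q)) ≤ Real.log (I t) + 1)
    (hIm : ∀ l l', t ≤ l → l ≤ l' → l' ≤ t + 4 * q → I l ≤ Real.exp (m * (l' - l)) * I l')
    {s : ℝ} (hs : t ≤ s) (hs' : s ≤ t + 4 * q) :
    0 < I s ∧ I s ≤ 2.9 * I t ∧ I t ≤ 1.05 * I s := by
  have hgrow' : I (t + 4 * q) ≤ 2.72 * I t := by
    have h1 : I (t + 4 * q) ≤ Real.exp (Real.log (I t) + 1) := by
      rw [← Real.log_le_iff_le_exp hI4]; exact hgrow
    rw [Real.exp_add, Real.exp_log hIt] at h1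
    have h1' : I (t + 4 * q) ≤ Real.exp 1 * I t := by linarith [mul_comm (I t) (Real.exp 1)]
    have hexp1 : Real.exp 1 ≤ 2.72 := by
      have := Real.exp_one_lt_d9
      linarith
    exact h1'.trans (mul_le_mul_of_nonneg_right hexp1 hIt.le)
  have e1 : m * (t + 4 * q - s) ≤ 4 / 100 := by
    have : m * (t + 4 * q - s) ≤ m * (4 * q) := mul_le_mul_of_nonneg_left (by linarith) hm
    linarith
  have e2 : m * (s - t) ≤ 4 / 100 := by
    have : m * (s - t) ≤ m * (4 * q) := mul_le_mul_of_nonneg_left (by linarith) hm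
    linarith
  have h1 := hIm s (t + 4 * q) hs hs' le_rfl
  have h2 := hIm t s le_rfl hs hs'
  have h3 : 0 < I s := by
    by_contra h
    push Not at h
    have := mul_nonpos_of_nonneg_of_nonpos (Real.exp_pos (m * (s - t))).le h
    linarith
  refine ⟨h3, ?_, h2.trans (mul_le_mul_of_nonneg_right (exps e2) h3.le)⟩
  have h4 := h1.trans (mul_le_mul_of_nonneg_right (exps e1) hI4.le)
  linarith

/-- the state in the middle of a piece of length `4 q` where `I` grows by at most a factor `e`. -/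
theorem mid {I E e b : ℝ → ℝ} {t q δ w m : ℝ} (hm : 0 ≤ m) (hq : 0 < q) (hmq : m * q ≤ 1 / 100)
    (hq1 : q ≤ 1) (hIt : 0 < I t) (hI4 : 0 < I (t + 4 * q))
    (he : ∀ l ∈ Icc (t + 2 * q) (t + 3 * q), 0 ≤ e l)
    (hE : E (t + 2 * q) = e (t + 2 * q) / 2 + b (t + 2 * q))
    (hdI : ∀ l ∈ Icc (t + 2 * q) (t + 3 * q), ∃ I', HasDerivAt I I' l ∧
      |I' - 2 * e l| ≤ δ * I l + w)
    (hb : b (t + 2 * q) ≤ δ * I (t + 2 * q) + w)
    (hgrow : Real.log (I (t + 4 * q)) ≤ Real.log (I t) + 1)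
    (hIm : ∀ l l', t ≤ l → l ≤ l' → l' ≤ t + 4 * q → I l ≤ Real.exp (m * (l' - l)) * I l')
    (hem : ∀ l l', t ≤ l → l ≤ l' → l' ≤ t + 3 * q → e l ≤ Real.exp (m * (l' - l)) * e l')
    (hδ : δ ≤ 1 / 100) (hw : w ≤ I t / 100) :
    2 * E (t + 2 * q) / I (t + 2 * q) ≤ 13 / q ∧
      ∀ s, t ≤ s → s ≤ t + 4 * q → Real.log (I s) ≤ Real.log (I (t + 2 * q)) + 2 := by
  have hB : ∀ s, t ≤ s → s ≤ t + 4 * q → 0 < I s ∧ I s ≤ 2.9 * I t ∧ I t ≤ 1.05 * I s :=
    fun s hs hs' => bounds hm hmq hIt hI4 hgrow hIm hs hs'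
  obtain ⟨hIl0, hIl', hIl⟩ := hB (t + 2 * q) (by linarith) (by linarith)
  refine ⟨?_, ?_⟩
  · -- mean value theorem on `[t + 2 q, t + 3 q]`
    have hder := hdI
    obtain ⟨ξ, hξ, hξ'⟩ := exists_hasDerivAt_eq_slope I (fun l => deriv I l)
      (show t + 2 * q < t + 3 * q by linarith)
      (fun l hl => (hder l hl).choose_spec.1.continuousAt.continuousWithinAt)
      (fun l hl => (hder l ⟨hl.1.le, hl.2.le⟩).choose_spec.1.differentiableAt.hasDerivAt)
    have hξ1 := hξ.1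
    have hξ2 := hξ.2
    obtain ⟨I', hI', hI''⟩ := hder ξ ⟨hξ1.le, hξ2.le⟩
    have hd : deriv I ξ = I' := hI'.deriv
    have hslope : I' = (I (t + 3 * q) - I (t + 2 * q)) / q := by
      rw [← hd, hξ']
      congr 1
      ring
    have hI3 := (hB (t + 3 * q) (by linarith) (by linarith)).2.1
    obtain ⟨hIξ0, hIξ, -⟩ := hB ξ (by linarith) (by linarith)
    have h1 : 2 * e ξ ≤ I' + (δ * I ξ + w) := by
      have := (abs_le.mp hI'').1
      linarith
    have heξ := he ξ ⟨hξ1.le, hξ2.le⟩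
    have e3 : m * (ξ - (t + 2 * q)) ≤ 4 / 100 := by
      have : m * (ξ - (t + 2 * q)) ≤ m * (1 * q) :=
        mul_le_mul_of_nonneg_left (by linarith) hm
      linarith
    have h6 : e (t + 2 * q) ≤ 1.05 * e ξ :=
      (hem (t + 2 * q) ξ (by linarith) hξ1.le hξ2.le).trans
        (mul_le_mul_of_nonneg_right (exps e3) heξ)
    exact arith hq hq1 hIt hIl0 hIl hIl' hI3 hIξ hIξ0 hslope h1 h6 hE hb hδ hw
  · intro s hs hs'
    obtain ⟨h0, h1, -⟩ := hB s hs hs'
    have h2 : I s ≤ Real.exp 2 * I (t + 2 * q) := by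
      have h3 := mul_le_mul_of_nonneg_right exp_two hIl0.le
      linarith
    have h3 := Real.log_le_log h0 h2
    rw [Real.log_mul (Real.exp_pos _).ne' hIl0.ne', Real.log_exp] at h3
    linarith

/-- **the search for a state**: on the window `[t₀, t₀ + n · 4 q]` with growth of `log I` at most
`n`, there is `l` with `N ≤ 13 / q` and bounded growth on `[l - 2 q, l + 2 q]`. The errors at `l` are
relative to `I c`, any `c ≥ l + q`. -/
theorem find {I E e b : ℝ → ℝ} {t₀ q δ θ m : ℝ} {n : ℕ} (hn : 0 < n) (hm : 0 ≤ m) (hq : 0 < q)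
    (hmq : m * q ≤ 1 / 100) (hq1 : q ≤ 1)
    (hI : ∀ l, t₀ ≤ l → l ≤ t₀ + n * (4 * q) → 0 < I l)
    (hgrow : Real.log (I (t₀ + n * (4 * q))) - Real.log (I t₀) ≤ n)
    (he : ∀ l, t₀ ≤ l → l ≤ t₀ + n * (4 * q) → 0 ≤ e l)
    (hE : ∀ l, t₀ ≤ l → l ≤ t₀ + n * (4 * q) → E l = e l / 2 + b l)
    (hdI : ∀ l c, t₀ ≤ l → l + q ≤ c → c ≤ t₀ + n * (4 * q) → ∃ I', HasDerivAt I I' l ∧
      |I' - 2 * e l| ≤ δ * I l + θ * I c)
    (hb : ∀ l c, t₀ ≤ l → l + q ≤ c → c ≤ t₀ + n * (4 * q) → b l ≤ δ * I l + θ * I c)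
    (hIm : ∀ l l', t₀ ≤ l → l ≤ l' → l' ≤ t₀ + n * (4 * q) →
      I l ≤ Real.exp (m * (l' - l)) * I l')
    (hem : ∀ l l', t₀ ≤ l → l ≤ l' → l' ≤ t₀ + n * (4 * q) →
      e l ≤ Real.exp (m * (l' - l)) * e l')
    (hδ : δ ≤ 1 / 100) (hθ : θ ≤ 1 / 300) :
    ∃ l, t₀ + 2 * q ≤ l ∧ l + 2 * q ≤ t₀ + n * (4 * q) ∧ 2 * E l / I l ≤ 13 / q ∧
      ∀ s, l - 2 * q ≤ s → s ≤ l + 2 * q → Real.log (I s) ≤ Real.log (I l) + 2 := by
  obtain ⟨i, hi, h1⟩ := pigeon (fun l => Real.log (I l)) (t := t₀) (q := 4 * q) (G := n) hn hgrow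
  have hn0 : (0:ℝ) < n := by exact_mod_cast hn
  rw [div_self hn0.ne'] at h1
  set t := t₀ + (i : ℕ) * (4 * q) with ht
  have ht4 : t₀ + ((i + 1 : ℕ) : ℝ) * (4 * q) = t + 4 * q := by
    rw [ht]; push_cast; ring
  rw [ht4] at h1
  have hi0 : (0:ℝ) ≤ i := Nat.cast_nonneg i
  have hi1 : ((i : ℕ) : ℝ) + 1 ≤ n := by exact_mod_cast hi
  have hq4 : 0 < 4 * q := by positivity
  have hlo : t₀ ≤ t := by
    have : 0 ≤ (i : ℝ) * (4 * q) := by positivity
    linarith
  have hhi : t + 4 * q ≤ t₀ + n * (4 * q) := by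
    have : ((i : ℝ) + 1) * (4 * q) ≤ n * (4 * q) := mul_le_mul_of_nonneg_right hi1 hq4.le
    rw [ht]
    linarith
  have hIt := hI t hlo (by linarith)
  have hI4 := hI (t + 4 * q) (by linarith) hhi
  have hgr : Real.log (I (t + 4 * q)) ≤ Real.log (I t) + 1 := by linarith
  have hB := bounds (I := I) (t := t) (q := q) hm hmq hIt hI4 hgr
    (fun l l' h h' h'' => hIm l l' (by linarith) h' (by linarith)) (s := t + 4 * q) (by linarith)
    le_rfl
  have hw : θ * I (t + 4 * q) ≤ I t / 100 := by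
    have h2 : θ * I (t + 4 * q) ≤ 1 / 300 * (2.9 * I t) :=
      mul_le_mul hθ hB.2.1 hI4.le (by norm_num)
    linarith
  obtain ⟨g1, g2⟩ := mid (I := I) (E := E) (e := e) (b := b) (t := t) (q := q) (δ := δ)
    (w := θ * I (t + 4 * q)) hm hq hmq hq1 hIt hI4
    (fun l hl => he l (by linarith [hl.1]) (by linarith [hl.2]))
    (hE _ (by linarith) (by linarith))
    (fun l hl => hdI l (t + 4 * q) (by linarith [hl.1]) (by linarith [hl.2]) hhi)
    (hb _ _ (by linarith) (by linarith) hhi) hgr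
    (fun l l' h h' h'' => hIm l l' (by linarith) h' (by linarith))
    (fun l l' h h' h'' => hem l l' (by linarith) h' (by linarith)) hδ hw
  exact ⟨t + 2 * q, by linarith, by linarith, g1, fun s hs hs' => g2 s (by linarith) (by linarith)⟩

end Crest.Agent.R234.F10s_188
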