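import Crest.Agent.R234.F10a_188

/-!
# Row 234, F7-STEPV (helper518), part 0: the real-variable part of the V-level step

`Out` = conclusions of 290's one-step theorem for ONE reference on `[l - 2/K, l]`,
`Cls` = closeness of the functionals of the new reference on the same interval.
Conclusions: 188's `Cst.Rel` with `h = 2/K`, the new inverse step `K' = max (K/2) (max 32 (8 N'))`,
growth at the new level, and the block record `Rec` (bounds inside one block of `T` e-folds).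
-/

set_option autoImplicit false

open Set Real

namespace Crest.Agent.R234.Stp_518

open Crest.Agent.R234.F10a_188

/-- frequency -/
noncomputable def fr (E I : ℝ → ℝ) (l : ℝ) : ℝ := 2 * E l / I l

/-- `Λ` -/
noncomputable def lam (I : ℝ → ℝ) (l : ℝ) : ℝ := 2 * l - log (I l)

/-- frequency excess -/
noncomputable def fx (E I : ℝ → ℝ) (l : ℝ) : ℝ := max (fr E I l) 1 - 1

/-- outcome of the one-step theorem on `[l - 2/K, l]` -/
structure Out (I E : ℝ → ℝ) (l K y G : ℝ) : Prop where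
  pos : ∀ x ∈ Icc (l - 2 / K) l, 0 < I x
  o1 : max (fr E I (l - 2 / K)) 1 ≤ max (fr E I l) 1 * exp (22 * y * (2 / K))
  o2 : ∀ x ∈ Icc (l - 2 / K) l, I l ≤ exp G * I x
  o3 : 19 / 10 ≤ fr E I (l - 2 / K) → 2 / K ≤ lam I (l - 2 / K) - lam I l
  o4 : -(3 * (2 / K)) ≤ lam I (l - 2 / K) - lam I l
  o5 : ∀ x ∈ Icc (l - 2 / K) l, I x ≤ exp (1 / 100) * I l

/-- closeness of the functionals of the new reference -/
def Near (I E I' E' : ℝ → ℝ) (l K θ : ℝ) : Prop :=
  ∀ x ∈ Icc (l - 2 / K) l, |I' x - I x| ≤ θ * I x ∧ |E' x - E x| ≤ θ * I x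

/-- the new inverse step length -/
noncomputable def newK (E' I' : ℝ → ℝ) (l K : ℝ) : ℝ :=
  max (K / 2) (max 32 (8 * fr E' I' (l - 2 / K)))

variable {I E I' E' : ℝ → ℝ} {l K y G θ : ℝ}

theorem one_add_fx (E I : ℝ → ℝ) (l : ℝ) : 1 + fx E I l = max (fr E I l) 1 := by
  unfold fx; ring

theorem fx_nonneg (E I : ℝ → ℝ) (l : ℝ) : 0 ≤ fx E I l := by
  have := le_max_right (fr E I l) 1
  unfold fx; linarith

theorem Near.pos' (hn : Near I E I' E' l K θ) (ho : Out I E l K y G) (hθ : θ ≤ 1 / 100)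
    {x : ℝ} (hx : x ∈ Icc (l - 2 / K) l) : 0 < I' x ∧ (1 - θ) * I x ≤ I' x ∧
      I' x ≤ (1 + θ) * I x := by
  have h1 := ho.pos x hx
  obtain ⟨h2, -⟩ := hn x hx
  obtain ⟨h3, h4⟩ := abs_le.1 h2
  refine ⟨?_, by linarith, by linarith⟩
  nlinarith

theorem log_bounds {a b θ : ℝ} (ha : 0 < a) (hθ0 : 0 ≤ θ) (hθ : θ ≤ 1 / 100)
    (h1 : (1 - θ) * a ≤ b) (h2 : b ≤ (1 + θ) * a) :
    log b ≤ log a + θ ∧ log a - 2 * θ ≤ log b := by
  have h5 : 0 < 1 - θ := by linarith
  have hb : 0 < b := (mul_pos h5 ha).trans_le h1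
  constructor
  · have h3 := log_le_log hb h2
    rw [log_mul (by linarith) ha.ne'] at h3
    have h4 : log (1 + θ) ≤ θ := by
      have := log_le_sub_one_of_pos (show (0:ℝ) < 1 + θ by linarith)
      linarith
    linarith
  · have h3 := log_le_log (mul_pos h5 ha) h1
    rw [log_mul h5.ne' ha.ne'] at h3
    have h4 : -(2 * θ) ≤ log (1 - θ) := by
      rw [← log_exp (-(2 * θ))]
      refine log_le_log (exp_pos _) ?_
      -- `exp (-2θ) ≤ 1 - θ`
      have h6 : exp (-(2 * θ)) = (exp (2 * θ))⁻¹ := exp_neg _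
      have h7 : 1 + 2 * θ ≤ exp (2 * θ) := by
        have := add_one_le_exp (2 * θ); linarith
      rw [h6]
      have h8 : (exp (2 * θ))⁻¹ ≤ (1 + 2 * θ)⁻¹ := inv_anti₀ (by linarith) h7
      refine h8.trans ?_
      rw [inv_le_comm₀ (by linarith) h5, inv_le_iff_one_le_mul₀ h5]
      nlinarith
    linarith

/-- frequency of the new reference from above and from below -/
theorem fr_close {x : ℝ} (hI : 0 < I x) (hθ0 : 0 ≤ θ) (hθ : θ ≤ 1 / 100)
    (h1 : |I' x - I x| ≤ θ * I x) (h2 : |E' x - E x| ≤ θ * I x) :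
    max (fr E' I' x) 1 ≤ max (fr E I x) 1 * exp (4 * θ) ∧
      (2 ≤ fr E' I' x → 19 / 10 ≤ fr E I x) := by
  obtain ⟨h3, h4⟩ := abs_le.1 h1
  obtain ⟨h5, h6⟩ := abs_le.1 h2
  have hI' : 0 < I' x := by nlinarith
  have hexp : 1 ≤ exp (4 * θ) := one_le_exp (by linarith)
  have hN : fr E I x * I x = 2 * E x := by unfold fr; field_simp
  have hN' : fr E' I' x * I' x = 2 * E' x := by unfold fr; field_simp
  set N := fr E I x with hNd
  set N' := fr E' I' x with hNd'
  constructor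
  · refine max_le ?_ ?_
    · rcases le_or_gt N' 1 with h7 | h7
      · refine h7.trans ?_
        have := le_max_right N 1
        nlinarith
      · -- `N' (1 - θ) ≤ N + 2θ`
        have h8 : N' * ((1 - θ) * I x) ≤ (N + 2 * θ) * I x := by
          have e1 : N' * ((1 - θ) * I x) ≤ N' * I' x :=
            mul_le_mul_of_nonneg_left (by linarith) (by linarith)
          have e2 : (N + 2 * θ) * I x = 2 * E x + 2 * θ * I x := by rw [add_mul, hN]
          rw [e2]
          linarith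
        have h9 : N' * (1 - θ) ≤ N + 2 * θ := by
          have h10 : N' * (1 - θ) * I x ≤ (N + 2 * θ) * I x := by linarith
          exact le_of_mul_le_mul_right h10 hI
        have hm1 : N ≤ max N 1 := le_max_left _ _
        have hm2 : 1 ≤ max N 1 := le_max_right _ _
        have h11 : N' * (1 - θ) ≤ max N 1 * (1 + 2 * θ) := by nlinarith
        have h12 : (1 + 2 * θ) ≤ exp (4 * θ) * (1 - θ) := by
          have e3 : 1 + 4 * θ ≤ exp (4 * θ) := by
            have := add_one_le_exp (4 * θ); linarith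
          have e4 : (1 + 4 * θ) * (1 - θ) ≤ exp (4 * θ) * (1 - θ) :=
            mul_le_mul_of_nonneg_right e3 (by linarith)
          nlinarith
        have h13 : N' * (1 - θ) ≤ (max N 1 * exp (4 * θ)) * (1 - θ) := by
          have : max N 1 * (1 + 2 * θ) ≤ max N 1 * (exp (4 * θ) * (1 - θ)) :=
            mul_le_mul_of_nonneg_left h12 (by linarith)
          linarith
        exact le_of_mul_le_mul_right h13 (by linarith)
    · have := le_max_right N 1
      nlinarith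
  · intro h7
    -- `N I ≥ N' I' - 2 θ I ≥ (N' (1 - θ) - 2 θ) I`
    have h8 : (N' * (1 - θ) - 2 * θ) * I x ≤ N * I x := by
      have e1 : N' * ((1 - θ) * I x) ≤ N' * I' x :=
        mul_le_mul_of_nonneg_left (by linarith) (by linarith)
      rw [hN]
      have e2 : (N' * (1 - θ) - 2 * θ) * I x = N' * ((1 - θ) * I x) - 2 * θ * I x := by ring
      rw [e2]
      linarith
    have h9 := le_of_mul_le_mul_right h8 hI
    nlinarith

/-- **the real-variable outcome of one step.** -/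
theorem step_out (ho : Out I E l K y G) (hn : Near I E I' E' l K θ) (hK : 32 ≤ K)
    (hθ0 : 0 ≤ θ) (hθ : θ ≤ 1 / 100) :
    log (1 + fx E' I' (l - 2 / K)) ≤ log (1 + fx E I l) + 22 * y * (2 / K) + 4 * θ ∧
    (1 ≤ fx E' I' (l - 2 / K) → 2 / K - θ ≤ lam I' (l - 2 / K) - lam I l) ∧
    -(3 * (2 / K)) - θ ≤ lam I' (l - 2 / K) - lam I l ∧
    lam I' (l - 2 / K) - lam I l ≤ G + 2 * θ ∧
    (∀ x ∈ Icc (l - 2 / K) l, log (I' x) ≤ log (I' (l - 2 / K)) + G + 1 / 100 + 3 * θ) ∧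
    (∀ x ∈ Icc (l - 2 / K) l, 0 < I' x) := by
  have hK0 : 0 < K := by linarith
  set a := l - 2 / K with ha
  have h2K : 0 < 2 / K := by positivity
  have haI : a ∈ Icc a l := ⟨le_refl _, by linarith⟩
  have hlI : l ∈ Icc a l := ⟨by linarith, le_refl _⟩
  have hIa := ho.pos a haI
  have hIl := ho.pos l hlI
  obtain ⟨hn1, hn2⟩ := hn a haI
  obtain ⟨hI'a, hlo, hup⟩ := hn.pos' ho hθ haI
  obtain ⟨hlog1, hlog2⟩ := log_bounds hIa hθ0 hθ hlo hup
  obtain ⟨hf1, hf2⟩ := fr_close (E := E) (E' := E') hIa hθ0 hθ hn1 hn2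
  refine ⟨?_, ?_, ?_, ?_, ?_, fun x hx => (hn.pos' ho hθ hx).1⟩
  · rw [one_add_fx, one_add_fx]
    have h1 : max (fr E' I' a) 1 ≤ max (fr E I l) 1 * exp (22 * y * (2 / K) + 4 * θ) := by
      refine hf1.trans ?_
      rw [exp_add, ← mul_assoc]
      exact mul_le_mul_of_nonneg_right ho.o1 (exp_pos _).le
    have hp' : 0 < max (fr E' I' a) 1 := lt_of_lt_of_le one_pos (le_max_right _ _)
    have hp : 0 < max (fr E I l) 1 := lt_of_lt_of_le one_pos (le_max_right _ _)
    have h2 := log_le_log hp' h1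
    rw [log_mul hp.ne' (exp_pos _).ne', log_exp] at h2
    linarith
  · intro h1
    have h2 : 2 ≤ fr E' I' a := by
      unfold fx at h1
      rcases le_or_gt (fr E' I' a) 1 with h3 | h3
      · rw [max_eq_right h3] at h1; linarith
      · rw [max_eq_left h3.le] at h1; linarith
    have h3 := ho.o3 (hf2 h2)
    unfold lam at h3 ⊢
    linarith
  · have h3 := ho.o4
    unfold lam at h3 ⊢
    linarith
  · have h3 := ho.o2 a haI
    have h4 := log_le_log hIl h3
    rw [log_mul (exp_pos _).ne' hIa.ne', log_exp] at h4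
    unfold lam
    have h5 : l - a = 2 / K := by rw [ha]; ring
    linarith
  · intro x hx
    have hIx := ho.pos x hx
    obtain ⟨-, hlo', hup'⟩ := hn.pos' ho hθ hx
    obtain ⟨hx1, -⟩ := log_bounds hIx hθ0 hθ hlo' hup'
    have h3 := log_le_log hIx (ho.o5 x hx)
    rw [log_mul (exp_pos _).ne' hIl.ne', log_exp] at h3
    have h4 := log_le_log hIl (ho.o2 a haI)
    rw [log_mul (exp_pos _).ne' hIa.ne', log_exp] at h4
    linarith

/-! ### the new step length -/

theorem newK_props (E' I' : ℝ → ℝ) {l K : ℝ} (hK : 32 ≤ K) :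
    32 ≤ newK E' I' l K ∧ 8 * fr E' I' (l - 2 / K) ≤ newK E' I' l K ∧ K / 2 ≤ newK E' I' l K ∧
      1 / newK E' I' l K ≤ 2 / K ∧
      newK E' I' l K ≤ max K (32 * (1 + fx E' I' (l - 2 / K))) := by
  have h1 : K / 2 ≤ newK E' I' l K := le_max_left _ _
  have h2 : 32 ≤ newK E' I' l K := (le_max_left _ _).trans (le_max_right _ _)
  have h3 : 8 * fr E' I' (l - 2 / K) ≤ newK E' I' l K := (le_max_right _ _).trans (le_max_right _ _)
  refine ⟨h2, h3, h1, ?_, ?_⟩
  · rw [div_le_div_iff₀ (by linarith) (by linarith)]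
    linarith
  · rw [one_add_fx]
    unfold newK
    have h4 := le_max_right (fr E' I' (l - 2 / K)) 1
    have h5 := le_max_left (fr E' I' (l - 2 / K)) 1
    refine max_le ?_ (max_le ?_ ?_)
    · exact (by linarith : K / 2 ≤ K).trans (le_max_left _ _)
    · exact le_trans (by linarith) (le_max_right _ _)
    · exact le_trans (by linarith) (le_max_right _ _)

theorem newK_le {L L' f f' K N' : ℝ} (hL : 40 ≤ L) (hL' : L - 1 ≤ L') (hK : K ≤ 2 * L ^ 2)
    (hP : 32 * (1 + f) ≤ L ^ 2) (hf : 0 ≤ f) (hf' : 0 ≤ f') (hN : N' ≤ 1 + f')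
    (e2 : log (1 + f') ≤ log (1 + f) + 1 / 2) :
    max (K / 2) (max 32 (8 * N')) ≤ 2 * L' ^ 2 := by
  have hL'a : (L - 1) ^ 2 ≤ L' ^ 2 := pow_le_pow_left₀ (by linarith) hL' 2
  have hL'b : L ^ 2 / 2 + L ^ 2 / 4 ≤ (L - 1) ^ 2 := by nlinarith
  have hL'2 : L ^ 2 / 2 + L ^ 2 / 4 ≤ L' ^ 2 := hL'b.trans hL'a
  have hL0 : 1600 ≤ L ^ 2 := by nlinarith
  have e4 : 1 + f' ≤ (1 + f) * exp (1 / 2) := by
    rw [← log_le_log_iff (by linarith) (by positivity), log_mul (by linarith) (exp_pos _).ne',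
      log_exp]
    exact e2
  have e5 : exp (1 / 2 : ℝ) ≤ 2 := by
    have h1 : exp (1 / 2 : ℝ) * exp (1 / 2) = exp 1 := by rw [← exp_add]; norm_num
    have h2 := exp_one_lt_d9
    have h3 := exp_pos (1 / 2 : ℝ)
    nlinarith
  have e6 : (1 + f) * exp (1 / 2) ≤ (1 + f) * 2 := mul_le_mul_of_nonneg_left e5 (by linarith)
  exact max_le (by linarith) (max_le (by linarith) (by linarith))

/-- **one step, consumed form.** `k` with `k.c = 1`, `k.d ≤ 1/4`, `26 ≤ k.a`, `22 * Cδ ≤ k.b`. -/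
theorem step_rel {k : Cst} {Cδ κ κ' : ℝ} (hkc : k.c = 1) (hkd : k.d ≤ 1 / 4) (hka : 26 ≤ k.a)
    (hkb : 22 * Cδ ≤ k.b) (hκ : 0 ≤ κ)
    (ho : Out I E l K y G) (hn : Near I E I' E' l K θ) (hK : 32 ≤ K)
    (hKL : K ≤ 2 * lam I l ^ 2) (hL : 40 ≤ lam I l) (hGL : G + 1 ≤ lam I l)
    (hP : 32 * (1 + fx E I l) ≤ lam I l ^ 2)
    (hy : y ≤ Cδ * κ + 1 / lam I l ^ 2) (hy1 : y ≤ 1 / 100)
    (hθ0 : 0 ≤ θ) (hθ : θ ≤ (2 / K) / lam I l ^ 2)
    (hκ' : κ' ≤ (1 - (2 / K) / 2) * κ + k.a * (2 / K) / lam I l ^ 2) :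
    k.Rel (2 / K) (lam I l) (fx E I l) κ (lam I' (l - 2 / K)) (fx E' I' (l - 2 / K)) κ' ∧
      newK E' I' l K ≤ 2 * lam I' (l - 2 / K) ^ 2 ∧
      (∀ x ∈ Icc (l - 2 / K) l, 0 < I' x) ∧
      (∀ x ∈ Icc (l - 2 / K) l, log (I' x) ≤ log (I' (l - 2 / K)) + (G + 1)) ∧
      lam I l - 4 * (2 / K) ≤ lam I' (l - 2 / K) ∧
      lam I' (l - 2 / K) ≤ lam I l + (G + 1) := by
  have hK0 : 0 < K := by linarith
  set h := 2 / K with hh
  have hh0 : 0 < h := by positivity
  have hh1 : h ≤ 1 / 16 := by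
    rw [hh, div_le_iff₀ hK0]; linarith
  set L := lam I l with hLd
  have hL0 : 0 < L := by linarith
  have hL2 : 1600 ≤ L ^ 2 := by nlinarith
  have hL2i : 1 / L ^ 2 ≤ 1 / 1600 := one_div_le_one_div_of_le (by norm_num) hL2
  have hθh : θ ≤ h * (1 / 1600) := by
    refine hθ.trans ?_
    rw [div_eq_mul_one_div]
    exact mul_le_mul_of_nonneg_left hL2i hh0.le
  have hθ1 : θ ≤ 1 / 100 := by nlinarith
  obtain ⟨r1, r2, r3, r4, r5, r6⟩ := step_out ho hn hK hθ0 hθ1
  have e22 : log (1 + fx E' I' (l - h)) ≤ log (1 + fx E I l) + 1 / 2 := by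
    have e3 : 22 * y * h ≤ 22 * (1 / 100) * (1 / 16) :=
      mul_le_mul (by linarith) hh1 hh0.le (by norm_num)
    linarith
  set L' := lam I' (l - h) with hL'd
  set f := fx E I l with hf
  set f' := fx E' I' (l - h) with hf'
  have hLL' : L - 4 * h ≤ L' := by nlinarith
  have hL'1 : L - 1 ≤ L' := by nlinarith
  refine ⟨?_, ?_, r6, fun x hx => (r5 x hx).trans (by linarith), hLL', by linarith⟩
  · refine ⟨by linarith, ?_, ?_, hκ'⟩
    · intro hc
      rw [hkc] at hc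
      have e1 : 22 * y * h ≤ 22 * (Cδ * κ + 1 / L ^ 2) * h := by gcongr
      have e2 : 4 * θ ≤ 4 * (h / L ^ 2) := by linarith
      have e3 : 22 * (Cδ * κ) * h ≤ k.b * h * κ := by
        have : 22 * Cδ * (κ * h) ≤ k.b * (κ * h) := mul_le_mul_of_nonneg_right hkb (by positivity)
        nlinarith
      have e4 : 26 * (h / L ^ 2) ≤ k.a / L ^ 2 * (max (L' - L) 0 + h) := by
        have e5 : 26 * (h / L ^ 2) = 26 / L ^ 2 * h := by ring
        rw [e5]
        have e6 : 26 / L ^ 2 ≤ k.a / L ^ 2 := by gcongr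
        have e7 : h ≤ max (L' - L) 0 + h := by linarith [le_max_right (L' - L) 0]
        have e8 : 0 ≤ k.a / L ^ 2 := div_nonneg k.ha (by positivity)
        calc 26 / L ^ 2 * h ≤ k.a / L ^ 2 * h := mul_le_mul_of_nonneg_right e6 hh0.le
          _ ≤ k.a / L ^ 2 * (max (L' - L) 0 + h) := mul_le_mul_of_nonneg_left e7 e8
      have e9 : 22 * (Cδ * κ + 1 / L ^ 2) * h = 22 * (Cδ * κ) * h + 22 * (h / L ^ 2) := by ring
      linarith
    · intro hc
      rw [hkc] at hc
      have e1 := r2 hc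
      have e2 : k.d * h ≤ 1 / 4 * h := mul_le_mul_of_nonneg_right hkd hh0.le
      nlinarith
  · exact newK_le hL hL'1 hKL hP (fx_nonneg _ _ _) (fx_nonneg _ _ _)
      ((le_max_left _ _).trans (one_add_fx E' I' (l - h)).ge) e22

/-! ### the block record -/

/-- record of a block with top level `lb`: `Lb`, `Kb`, `Pb` = bounds from the top of the block. -/
structure Rec (k : Cst) (L₁ κm G : ℝ) (lb Lb Kb Pb l L f κ K : ℝ) : Prop where
  hl : l ≤ lb
  hLb : L₁ ≤ Lb
  hK : K ≤ Kb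
  hP : k.pot L f κ ≤ Pb
  hbase : k.base L₁ κm ≤ Pb
  hPK : 32 * exp Pb ≤ Kb
  lo : Lb - 4 * (lb - l) ≤ L
  up : L ≤ Lb + (G + 1) * Kb * (lb - l)

/-- one step inside a block -/
theorem Rec.next {k : Cst} {L₁ κm G lb Lb Kb Pb l L f κ K L' f' κ' K' : ℝ}
    (hr : Rec k L₁ κm G lb Lb Kb Pb l L f κ K) (hG : 0 ≤ G) (hK : 0 < K) (hL₁ : 0 < L₁)
    (hL : 0 < L) (hL' : L₁ ≤ L') (hκ' : κ' ≤ κm) (hf' : -1 < f')
    (hκ'0 : 0 ≤ κ')
    (hrel : k.Rel (2 / K) L f κ L' f' κ') (hlo : L - 4 * (2 / K) ≤ L') (hup : L' ≤ L + (G + 1))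
    (hK' : K' ≤ max K (32 * (1 + f'))) :
    Rec k L₁ κm G lb Lb Kb Pb (l - 2 / K) L' f' κ' K' := by
  have h2K : 0 < 2 / K := by positivity
  have hpot : k.pot L' f' κ' ≤ Pb := by
    rcases le_or_gt k.c f' with h1 | h1
    · exact (Cst.pot_le h2K.le hL hrel h1).1.trans hr.hP
    · exact (Cst.pot_le_base hL₁ hL' hκ' hf' h1.le).trans hr.hbase
  have hKb : 0 < Kb := hK.trans_le hr.hK
  refine ⟨by linarith [hr.hl], hr.hLb, ?_, hpot, hr.hbase, hr.hPK, ?_, ?_⟩
  · refine hK'.trans (max_le hr.hK ?_)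
    have h1 : 1 + f' ≤ exp (k.pot L' f' κ') := Cst.one_add_le (hL₁.trans_le hL') hκ'0 hf'
    have h2 : exp (k.pot L' f' κ') ≤ exp Pb := exp_le_exp.2 hpot
    have h3 := hr.hPK
    linarith
  · have h1 := hr.lo
    linarith
  · have h1 := hr.up
    -- `G + 1 ≤ (G + 1) Kb (2/K)`
    have h2 : 1 ≤ Kb * (2 / K) := by
      have h3 : 1 ≤ Kb / K := by rw [le_div_iff₀ hK]; linarith [hr.hK]
      have h4 : Kb * (2 / K) = 2 * (Kb / K) := by ring
      linarith
    have h5 : (G + 1) * 1 ≤ (G + 1) * (Kb * (2 / K)) := mul_le_mul_of_nonneg_left h2 (by linarith)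
    have h6 : (G + 1) * Kb * (lb - (l - 2 / K)) =
        (G + 1) * Kb * (lb - l) + (G + 1) * (Kb * (2 / K)) := by ring
    linarith

/-- the record at the top of a new block -/
theorem Rec.start {k : Cst} {L₁ κm G l L f κ K : ℝ} (hL₁ : 0 < L₁) (hL : L₁ ≤ L) (hκm : κ ≤ κm)
    (hf : -1 < f) (hK : K ≤ 2 * L ^ 2) (hP : 32 * (1 + f) ≤ L ^ 2)
    (hb : 32 * exp (k.base L₁ κm) ≤ L₁ ^ 2) :
    Rec k L₁ κm G l L (max K (max (32 * exp (k.pot L f κ)) (L ^ 2)))
      (max (k.pot L f κ) (k.base L₁ κm)) l L f κ K ∧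
      max K (max (32 * exp (k.pot L f κ)) (L ^ 2)) ≤
        (2 + exp (2 * k.b * κm + 4 * k.A / L₁)) * L ^ 2 := by
  have hL0 : 0 < L := hL₁.trans_le hL
  have hb0 := k.hb
  have hA0 := k.A_nonneg
  constructor
  · refine ⟨le_refl _, hL, le_max_left _ _, le_max_left _ _, le_max_right _ _, ?_, by simp,
      by simp⟩
    rcases le_total (k.pot L f κ) (k.base L₁ κm) with h1 | h1
    · rw [max_eq_right h1]
      refine hb.trans ?_
      have : L₁ ^ 2 ≤ L ^ 2 := pow_le_pow_left₀ hL₁.le hL 2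
      exact this.trans ((le_max_right _ _).trans (le_max_right _ _))
    · rw [max_eq_left h1]
      exact (le_max_left _ _).trans (le_max_right _ _)
  · have hE : 0 < exp (2 * k.b * κm + 4 * k.A / L₁) := exp_pos _
    have hL2 : 0 < L ^ 2 := by positivity
    refine max_le ?_ (max_le ?_ ?_)
    · nlinarith
    · have h1 : k.pot L f κ ≤ log (1 + f) + (2 * k.b * κm + 4 * k.A / L₁) := by
        unfold Cst.pot
        have h2 : 2 * k.b * κ ≤ 2 * k.b * κm := mul_le_mul_of_nonneg_left hκm (by positivity)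
        have h3 : 4 * k.A / L ≤ 4 * k.A / L₁ := div_le_div_of_nonneg_left (by positivity) hL₁ hL
        linarith
      have h4 : exp (k.pot L f κ) ≤ (1 + f) * exp (2 * k.b * κm + 4 * k.A / L₁) := by
        refine (exp_le_exp.2 h1).trans ?_
        rw [exp_add, exp_log (by linarith)]
      have h5 : 32 * exp (k.pot L f κ) ≤ L ^ 2 * exp (2 * k.b * κm + 4 * k.A / L₁) := by
        calc 32 * exp (k.pot L f κ) ≤ 32 * ((1 + f) * exp (2 * k.b * κm + 4 * k.A / L₁)) := by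
              linarith
          _ = (32 * (1 + f)) * exp (2 * k.b * κm + 4 * k.A / L₁) := by ring
          _ ≤ L ^ 2 * exp (2 * k.b * κm + 4 * k.A / L₁) := mul_le_mul_of_nonneg_right hP hE.le
      nlinarith
    · nlinarith

end Crest.Agent.R234.Stp_518
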