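import Crest.Agent.R234.F10s_188
import Crest.Agent.R234.Stp0_518

/-!
# Row 234, (F8) START, part t (helper188): real-variable content of one START step

`M'` = the reference selected at the level `l₁ ∈ [l - w, l]`, `w = L ^ (-1/2)`, where `L` is the `Λ`
of the old reference at `l`. Either `Λ` has grown by the factor `6/5` on `[l₁ - w, l₁]` (new
pre-state), or there is a level `l'` there with frequency at most `20 L ^ (3/2)` and growth at most `2`
on the collar `[l' - 2 q, l' + 2 q]`, `q ≥ (4/5) L ^ (-3/2)` (state).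
-/

set_option autoImplicit false

namespace Crest.Agent.R234.F10t_188

open Real Crest.Agent.R234.Stp_518 Filter Topology

/-- number of pieces of the window. -/
noncomputable def nn (L : ℝ) : ℕ := ⌈3 / 10 * L⌉₊

/-- length of the window. -/
noncomputable def ww (L : ℝ) : ℝ := L ^ (-(1 / 2) : ℝ)

/-- a quarter of a piece. -/
noncomputable def qq (L : ℝ) : ℝ := ww L / (4 * nn L)

/-- the functionals of one reference on the window `[t₀, t₁]`, error relative to the value at a level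
higher by `q`. -/
structure GLw (I e E b : ℝ → ℝ) (t₀ t₁ q δ θ m : ℝ) : Prop where
  pos : ∀ l, t₀ ≤ l → l ≤ t₁ → 0 < I l
  he : ∀ l, t₀ ≤ l → l ≤ t₁ → 0 ≤ e l
  hE : ∀ l, t₀ ≤ l → l ≤ t₁ → E l = e l / 2 + b l
  hdI : ∀ l c, t₀ ≤ l → l + q ≤ c → c ≤ t₁ → ∃ I', HasDerivAt I I' l ∧
    |I' - 2 * e l| ≤ δ * I l + θ * I c
  hb : ∀ l c, t₀ ≤ l → l + q ≤ c → c ≤ t₁ → b l ≤ δ * I l + θ * I c
  hIm : ∀ l l', t₀ ≤ l → l ≤ l' → l' ≤ t₁ → I l ≤ exp (m * (l' - l)) * I l'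
  hem : ∀ l l', t₀ ≤ l → l ≤ l' → l' ≤ t₁ → e l ≤ exp (m * (l' - l)) * e l'

theorem ww_pos {L : ℝ} (hL : 0 < L) : 0 < ww L := rpow_pos_of_pos hL _

theorem ww_le_one {L : ℝ} (hL : 1 ≤ L) : ww L ≤ 1 := rpow_le_one_of_one_le_of_nonpos hL (by norm_num)

theorem nn_lo (L : ℝ) : 3 / 10 * L ≤ nn L := Nat.le_ceil _

theorem nn_hi {L : ℝ} (hL : 100 ≤ L) : (nn L : ℝ) ≤ 31 / 100 * L := by
  have h := Nat.ceil_lt_add_one (show (0:ℝ) ≤ 3 / 10 * L by linarith)
  unfold nn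
  linarith

theorem nn_pos {L : ℝ} (hL : 0 < L) : 0 < nn L := Nat.ceil_pos.2 (by linarith)

theorem qq_pos {L : ℝ} (hL : 0 < L) : 0 < qq L := by
  have h1 := ww_pos hL
  have h2 : (0:ℝ) < nn L := by exact_mod_cast nn_pos hL
  unfold qq; positivity

theorem nn_qq {L : ℝ} (hL : 0 < L) : nn L * (4 * qq L) = ww L := by
  have h2 : (nn L : ℝ) ≠ 0 := by exact_mod_cast (nn_pos hL).ne'
  unfold qq; field_simp

theorem qq_lo {L : ℝ} (hL : 100 ≤ L) : 4 / 5 * L ^ (-(3 / 2) : ℝ) ≤ qq L := by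
  have hL0 : 0 < L := by linarith
  have h1 := ww_pos hL0
  have h2 : (0:ℝ) < nn L := by exact_mod_cast nn_pos hL0
  have h3 := nn_hi hL
  have h4 : L ^ (-(3 / 2) : ℝ) = ww L / L := by
    unfold ww
    rw [show (-(3 / 2) : ℝ) = -(1 / 2) + (-1) by norm_num, rpow_add hL0, rpow_neg_one]
    rfl
  unfold qq
  rw [h4, mul_div_assoc', div_le_div_iff₀ hL0 (by positivity)]
  nlinarith

theorem qq_hi {L : ℝ} (hL : 100 ≤ L) : qq L ≤ 1 / L := by
  have hL0 : 0 < L := by linarith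
  have h1 := ww_pos hL0
  have h1' := ww_le_one (show 1 ≤ L by linarith)
  have h2 : (0:ℝ) < nn L := by exact_mod_cast nn_pos hL0
  have h3 := nn_lo L
  unfold qq
  rw [div_le_div_iff₀ (by positivity) hL0]
  nlinarith

theorem inv_qq {L : ℝ} (hL : 100 ≤ L) : 13 / qq L ≤ 20 * L ^ (3 / 2 : ℝ) := by
  have hL0 : 0 < L := by linarith
  have h1 := qq_lo hL
  have h2 : 0 < L ^ (3 / 2 : ℝ) := rpow_pos_of_pos hL0 _
  have h3 : L ^ (-(3 / 2) : ℝ) * L ^ (3 / 2 : ℝ) = 1 := by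
    rw [← rpow_add hL0]; norm_num
  rw [div_le_iff₀ (qq_pos hL0)]
  have h4 : 20 * L ^ (3 / 2 : ℝ) * (4 / 5 * L ^ (-(3 / 2) : ℝ)) = 16 := by
    linear_combination 16 * h3
  have h5 : 20 * L ^ (3 / 2 : ℝ) * (4 / 5 * L ^ (-(3 / 2) : ℝ)) ≤ 20 * L ^ (3 / 2 : ℝ) * qq L :=
    mul_le_mul_of_nonneg_left h1 (by positivity)
  linarith

/-- **one START step, real-variable part.** -/
theorem step_case (m : ℝ) (hm : 0 ≤ m) : ∃ L₂ : ℝ, 100 ≤ L₂ ∧ ∀ L, L₂ ≤ L →
    ∀ (I e E b : ℝ → ℝ) (l l₁ δ θ : ℝ), l - ww L ≤ l₁ → l₁ ≤ l → δ ≤ 1 / 100 → θ ≤ 1 / 300 →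
      log (I l₁) ≤ 2 * l - 99 / 100 * L →
      GLw I e E b (l₁ - ww L) l₁ (qq L) δ θ m →
      6 / 5 * L ≤ lam I (l₁ - ww L) ∨
      ∃ l', l₁ - ww L + 2 * qq L ≤ l' ∧ l' + 2 * qq L ≤ l₁ ∧ fr E I l' ≤ 20 * L ^ (3 / 2 : ℝ) ∧
        (∀ s, l' - 2 * qq L ≤ s → s ≤ l' + 2 * qq L → log (I s) ≤ log (I l') + 2) ∧
        49 / 50 * L ≤ lam I l' ∧ lam I l' ≤ 61 / 50 * L := by
  refine ⟨max (1000 * (m + 4)) 1000, by norm_num, ?_⟩
  intro L hL I e E b l l₁ δ θ hl1 hl2 hδ hθ htop hg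
  have hL1000 : 1000 ≤ L := (le_max_right _ _).trans hL
  have hLm : 1000 * (m + 4) ≤ L := (le_max_left _ _).trans hL
  have hL0 : 0 < L := by linarith
  have hw := ww_pos hL0
  have hw1 := ww_le_one (show 1 ≤ L by linarith)
  have hq := qq_pos hL0
  have hq1 := qq_hi (show 100 ≤ L by linarith)
  have hqL : qq L * L ≤ 1 := by
    rw [le_div_iff₀ hL0] at hq1; exact hq1
  have hn := nn_pos hL0
  have hn1 := nn_lo L
  have hnq := nn_qq hL0
  set t₀ := l₁ - ww L with ht₀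
  have htop' : t₀ + nn L * (4 * qq L) = l₁ := by rw [hnq, ht₀]; ring
  rcases le_or_gt (6 / 5 * L) (lam I t₀) with h1 | h1
  · exact Or.inl h1
  right
  have h2 : log (I t₀) = 2 * t₀ - lam I t₀ := by unfold lam; ring
  have hgrow : log (I (t₀ + nn L * (4 * qq L))) - log (I t₀) ≤ nn L := by
    rw [htop', h2]
    linarith
  have hmq : m * qq L ≤ 1 / 100 := by
    have h3 : (m * qq L) * L ≤ 1 / 100 * L := by
      have : m * (qq L * L) ≤ m * 1 := mul_le_mul_of_nonneg_left hqL hm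
      nlinarith
    exact le_of_mul_le_mul_right h3 hL0
  have hq1' : qq L ≤ 1 := hq1.trans (by rw [div_le_one hL0]; linarith)
  obtain ⟨l', g1, g2, g3, g4⟩ := F10s_188.find (I := I) (E := E) (e := e) (b := b) (t₀ := t₀)
    (q := qq L) (δ := δ) (θ := θ) (m := m) (n := nn L) hn hm hq hmq hq1'
    (fun s hs hs' => hg.pos s hs (by rwa [htop'] at hs')) hgrow
    (fun s hs hs' => hg.he s hs (by rwa [htop'] at hs'))
    (fun s hs hs' => hg.hE s hs (by rwa [htop'] at hs'))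
    (fun s c hs hs' hs'' => hg.hdI s c hs hs' (by rwa [htop'] at hs''))
    (fun s c hs hs' hs'' => hg.hb s c hs hs' (by rwa [htop'] at hs''))
    (fun s s' hs hs' hs'' => hg.hIm s s' hs hs' (by rwa [htop'] at hs''))
    (fun s s' hs hs' hs'' => hg.hem s s' hs hs' (by rwa [htop'] at hs'')) hδ hθ
  rw [htop'] at g2
  refine ⟨l', g1, g2, ?_, g4, ?_, ?_⟩
  · exact g3.trans (inv_qq (by linarith))
  · have h5 := hg.hIm l' l₁ (by linarith) (by linarith) le_rfl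
    have hp := hg.pos l' (by linarith) (by linarith)
    have hp1 := hg.pos l₁ (by linarith) le_rfl
    have h6 := log_le_log hp h5
    rw [log_mul (exp_pos _).ne' hp1.ne', log_exp] at h6
    have h7 : m * (l₁ - l') ≤ m * 1 := mul_le_mul_of_nonneg_left (by linarith) hm
    unfold lam
    linarith
  · have h5 := hg.hIm t₀ l' le_rfl (by linarith) (by linarith)
    have hp := hg.pos l' (by linarith) (by linarith)
    have hp1 := hg.pos t₀ le_rfl (by linarith)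
    have h6 := log_le_log hp1 h5
    rw [log_mul (exp_pos _).ne' hp.ne', log_exp] at h6
    have h7 : m * (l' - t₀) ≤ m * 1 := mul_le_mul_of_nonneg_left (by linarith) hm
    unfold lam at h1 ⊢
    linarith

/-- the collar. -/
noncomputable def eps (L : ℝ) : ℝ := ww L / 8

theorem eps_pos {L : ℝ} (hL : 0 < L) : 0 < eps L := by have := ww_pos hL; unfold eps; positivity

theorem eps_le {L : ℝ} (hL : 100 ≤ L) : eps L ≤ 1 / 80 := by
  have hL0 : 0 < L := by linarith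
  have h1 : ww L ≤ 1 / 10 := by
    unfold ww
    rw [rpow_neg hL0.le, inv_le_comm₀ (rpow_pos_of_pos hL0 _) (by norm_num)]
    have h2 : (1 / 10 : ℝ)⁻¹ = (100:ℝ) ^ (1 / 2 : ℝ) := by
      rw [← sqrt_eq_rpow, show (100:ℝ) = 10 ^ 2 by norm_num, sqrt_sq (by norm_num)]; norm_num
    rw [h2]
    exact rpow_le_rpow (by norm_num) hL (by norm_num)
  unfold eps; linarith

/-- powers of the collar are subexponential. -/
theorem poly (C : ℝ) (p : ℕ) {η : ℝ} (hη : 0 < η) : ∃ L₂ : ℝ, 100 ≤ L₂ ∧ ∀ L, L₂ ≤ L →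
    C / eps L ^ p ≤ exp (η * L) := by
  have h1 : Tendsto (fun L : ℝ => (|C| * (8 / η) ^ p) * ((η * L) ^ p * exp (-(η * L)))) atTop
      (𝓝 ((|C| * (8 / η) ^ p) * 0)) := by
    refine Tendsto.const_mul _ ?_
    exact (Real.tendsto_pow_mul_exp_neg_atTop_nhds_zero p).comp
      (tendsto_id.const_mul_atTop hη)
  rw [mul_zero] at h1
  obtain ⟨L₂, hL₂⟩ := (h1.eventually (gt_mem_nhds (show (0:ℝ) < 1 by norm_num))).exists_forall_of_atTop
  refine ⟨max L₂ 100, le_max_right _ _, ?_⟩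
  intro L hL
  have h2 := hL₂ L ((le_max_left _ _).trans hL)
  have hL1 : 100 ≤ L := (le_max_right _ _).trans hL
  have hL0 : 0 < L := by linarith
  have h3 : (8 * L)⁻¹ ≤ eps L := by
    unfold eps ww
    have h4 : L⁻¹ ≤ L ^ (-(1 / 2) : ℝ) := by
      rw [← rpow_neg_one]
      exact rpow_le_rpow_of_exponent_le (by linarith) (by norm_num)
    rw [mul_inv]
    linarith
  have h5 : |C| / eps L ^ p ≤ |C| * (8 * L) ^ p := by
    rw [div_eq_mul_inv, ← inv_pow]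
    refine mul_le_mul_of_nonneg_left (pow_le_pow_left₀ (inv_nonneg.2 (eps_pos hL0).le) ?_ p)
      (abs_nonneg _)
    rw [inv_le_comm₀ (eps_pos hL0) (by positivity)]
    exact h3
  have h6 : (|C| * (8 / η) ^ p) * ((η * L) ^ p * exp (-(η * L))) =
      |C| * (8 * L) ^ p * exp (-(η * L)) := by
    have : (8 / η) ^ p * (η * L) ^ p = (8 * L) ^ p := by
      rw [← mul_pow]; congr 1; field_simp
    rw [← this]; ring
  rw [h6, exp_neg, ← div_eq_mul_inv, div_lt_one (exp_pos _)] at h2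
  calc C / eps L ^ p ≤ |C| / eps L ^ p :=
        div_le_div_of_nonneg_right (le_abs_self C) (pow_nonneg (eps_pos hL0).le p)
    _ ≤ |C| * (8 * L) ^ p := h5
    _ ≤ exp (η * L) := h2.le

end Crest.Agent.R234.F10t_188
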