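import Crest.Agent.R234.MgDefs3_570
import Crest.Agent.R234.Top9_395
import Crest.Agent.R234.Mx17_397

/-!
# Row 234, (F8) START / (F7), part u (helper188): SELECTION in physical units

`selV` : 570's `SelP3` + 395's flat package `FlatPack` at the scale `t`.
-/

set_option autoImplicit false
set_option linter.unusedVariables false

open MeasureTheory Filter Topology Set
open scoped ENNReal NNReal ContDiff
open Crest.GeometryTopology.Submanifold Crest.Agent.R234.Vf_884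
open Crest.Agent.R234.Main_456 (Frame Msys hgt)
open Crest.Agent.R234.MG_570 Crest.Agent.R234.Top_395

noncomputable section

namespace Crest.Agent.R234.F10u_188

variable {m n k : ℕ} {V : Measure (Euc k × L k)} {π : Euc k →L[ℝ] Euc m}
  {ρ : Euc k →L[ℝ] Euc n} {x : Euc k} {t A B : ℝ}

/-- cylinder in physical units. -/
def Cyl (π : Euc k →L[ℝ] Euc m) (ρ : Euc k →L[ℝ] Euc n) (x : Euc k) (A B : ℝ) : Set (Euc k) :=
  {z | ‖π (z - x)‖ ≤ A ∧ ‖ρ (z - x)‖ ≤ B}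

theorem isClosed_Cyl : IsClosed (Cyl π ρ x A B) := by
  have h1 : Continuous fun z : Euc k => ‖π (z - x)‖ := by fun_prop
  have h2 : Continuous fun z : Euc k => ‖ρ (z - x)‖ := by fun_prop
  exact (isClosed_le h1 continuous_const).inter (isClosed_le h2 continuous_const)

theorem measurableSet_Cyl : MeasurableSet (Cyl π ρ x A B ×ˢ (univ : Set (L k))) :=
  isClosed_Cyl.measurableSet.prod MeasurableSet.univ

theorem hom_preimage_cyl (ht : 0 < t) :
    Vc_164.hom x t ⁻¹' (Cy_870.cyl π ρ 0 A 1 ×ˢ univ) =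
      Cyl π ρ x (A * t) t ×ˢ (univ : Set (L k)) := by
  ext p
  simp only [mem_preimage, Vc_164.hom, mem_prod, mem_univ, and_true, Cy_870.cyl, Cyl,
    mem_ofPred_eq, sub_zero, map_smul, norm_smul, norm_inv, Real.norm_of_nonneg ht.le]
  rw [inv_mul_le_iff₀ ht, inv_mul_le_iff₀ ht, mul_one, mul_comm t A]

theorem wz_eq (ht : 0 < t) : wz m V x t π ρ A =
    ENNReal.ofReal ((t ^ m)⁻¹) •
      (V.restrict (Cyl π ρ x (A * t) t ×ˢ univ)).map (Vc_164.hom x t) := by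
  have hS : MeasurableSet (Cy_870.cyl π ρ (0 : Euc m) A 1 ×ˢ (univ : Set (L k))) :=
    (Cy_870.isClosed_cyl π ρ 0 A 1).measurableSet.prod MeasurableSet.univ
  rw [wz, Vc_164.resc, Measure.restrict_smul, Measure.restrict_map (Vc_164.measurable_hom x t) hS,
    hom_preimage_cyl ht]

theorem int_wz {F : Type*} [NormedAddCommGroup F] [NormedSpace ℝ F] (ht : 0 < t)
    {f : Euc k × L k → F} (hf : Continuous f) [SecondCountableTopologyEither (Euc k × L k) F] :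
    ∫ p, f p ∂(wz m V x t π ρ A) =
      (t ^ m)⁻¹ • ∫ p in Cyl π ρ x (A * t) t ×ˢ univ, f (Vc_164.hom x t p) ∂V := by
  rw [wz_eq ht, integral_smul_measure, ENNReal.toReal_ofReal (by positivity),
    integral_map (Vc_164.measurable_hom x t).aemeasurable hf.aestronglyMeasurable]

theorem ae_wz (ht : 0 < t) {P : Euc k × L k → Prop} (hP : MeasurableSet {p | P p})
    (h : ∀ᵐ p ∂V, p.1 ∈ Cyl π ρ x (A * t) t → P (Vc_164.hom x t p)) :
    ∀ᵐ p ∂(wz m V x t π ρ A), P p := by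
  rw [wz_eq ht]
  refine Measure.ae_smul_measure ?_ _
  rw [ae_map_iff (Vc_164.measurable_hom x t).aemeasurable hP, ae_restrict_iff' measurableSet_Cyl]
  filter_upwards [h] with p hp hp2
  exact hp hp2.1

theorem cylStat_mono {W : Measure (Euc k × L k)} {x₀ : Euc m} {R h₀ h₁ : ℝ}
    (h : Cy_870.CylStat W π ρ x₀ R h₀) (h01 : h₀ ≤ h₁) : Cy_870.CylStat W π ρ x₀ R h₁ :=
  ⟨h.sp, h.conc, h.fin, h.base, by filter_upwards [h.hgt] with p hp using hp.trans h01, h.stat⟩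

theorem continuous_of_MG {N : ℕ} {κ r : ℝ} {u : Euc m → Euc n} (h : MG N κ r u) : Continuous u := by
  obtain ⟨C, hC, hb⟩ := Mx17_397.bdP m n N
  exact (hb κ r u h).1.continuous

/-- the mean functional in physical units. -/
def mean (V : Measure (Euc k × L k)) (π : Euc k →L[ℝ] Euc m) (ρ : Euc k →L[ℝ] Euc n) (x : Euc k)
    (t : ℝ) (u : Euc m → Euc n) (S : Set (Euc k)) (ζ : Euc m → ℝ) : Euc n :=
  ∫ p in S ×ˢ univ, ζ (t⁻¹ • π (p.1 - x)) • hgt π ρ x t u p.1 ∂V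

theorem bar_wz (ht : 0 < t) {u : Euc m → Euc n} (hu : Continuous u) {ζ : Euc m → ℝ}
    (hζ : Continuous ζ) :
    bar (wz m V x t π ρ A) π ρ u ζ =
      (t ^ (m + 1))⁻¹ • mean V π ρ x t u (Cyl π ρ x (A * t) t) ζ := by
  unfold bar mean
  rw [int_wz ht (by fun_prop)]
  have e1 : ∀ p : Euc k × L k, ζ (π (Vc_164.hom x t p).1) •
      (ρ (Vc_164.hom x t p).1 - u (π (Vc_164.hom x t p).1)) =
      t⁻¹ • (ζ (t⁻¹ • π (p.1 - x)) • hgt π ρ x t u p.1) := by
    intro p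
    simp only [Vc_164.hom, map_smul, hgt]
    rw [smul_comm t⁻¹, smul_sub t⁻¹, smul_smul, inv_mul_cancel₀ ht.ne', one_smul]
  simp only [e1]
  rw [integral_smul, smul_smul, pow_succ, mul_inv]

/-- **selection in physical units.** -/
theorem selV (hS : SelP3) {m : ℕ} (hm : 1 ≤ m) (n : ℕ) : ∃ Ks N₀ : ℕ, ∀ N : ℕ, N₀ ≤ N →
    ∃ κ₀ : ℝ, 0 < κ₀ ∧ ∃ p : ℕ, ∀ Λ r₀ : ℝ, 1 ≤ Λ → 0 < r₀ → r₀ ≤ 1 → ∃ C : ℝ, 0 < C ∧
      ∀ {k : ℕ} {U : Set (Euc k)} {D : VarifoldData m k}, IsOpen U → IsIntegralVarifoldIn U D →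
        IsStationaryIn U D → ∀ {x : Euc k} {t : ℝ} {Q : ℕ} {ε₀ : ℝ} {π : Euc k →L[ℝ] Euc m}
        {ρ : Euc k →L[ℝ] Euc n}, 0 < t → ε₀ ≤ 1 → Metric.closedBall x (3 * t) ⊆ U →
        1 ≤ Th m (VD D) x → FlatPack D x Q t ε₀ Λ π ρ →
        ∀ (κ h ε r : ℝ) (u : Euc m → Euc n), κ ≤ κ₀ → 0 < ε → ε ≤ 1 / 2 → r₀ ≤ r → r ≤ 1 → 0 ≤ h →
          MG N κ (r * (1 + ε)) u →
          (∀ᵐ p ∂(VD D), p.1 ∈ Cyl π ρ x (r * (1 + ε) * t) t → ‖hgt π ρ x t u p.1‖ ≤ h * t) →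
          C * h ≤ ε ^ p →
          ∃ u' : Euc m → Euc n, MG N (κ + C * h / ε ^ p) r u' ∧
            MG N (C * h / ε ^ p) 0 (fun x => u' x - u x) ∧
            ∀ ζ : Euc m → ℝ, ContDiff ℝ ∞ ζ → tsupport ζ ⊆ Metric.ball 0 r →
              (∀ j ≤ Ks, ∀ z, ‖iteratedFDeriv ℝ j ζ z‖ ≤ 1) →
              ‖mean (VD D) π ρ x t u' (Cyl π ρ x (r * (1 + ε) * t) t) ζ‖ ≤
                C * h ^ 2 / ε ^ p * t ^ (m + 1) := by
  obtain ⟨Ks, N₀, H⟩ := hS m n hm
  refine ⟨Ks, N₀, ?_⟩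
  intro N hN
  obtain ⟨κ₀, hκ₀, p, H⟩ := H N hN
  refine ⟨κ₀, hκ₀, p, ?_⟩
  intro Λ r₀ hΛ hr₀ hr₀1
  set Λ' := max Λ (ome m * (r₀ / 16) ^ m)⁻¹ with hΛ'
  have ho := ome_pos m
  have hΛ'0 : 0 < Λ' := lt_of_lt_of_le (by linarith) (le_max_left _ _)
  obtain ⟨C, hC, H⟩ := H Λ' r₀ hΛ'0 hr₀
  refine ⟨C, hC, ?_⟩
  intro k U D hU hD hst x t Q ε₀ π ρ ht hε₀ hUx hTh hF κ h ε r u hκ hε hε2 hr0 hr1 hh hMG hhgt hCh
  have hV := stat_VD hD hst
  have hA2 : r * (1 + ε) ≤ 2 := by nlinarith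
  have hr : 0 < r := hr₀.trans_le hr0
  have hu : Continuous u := continuous_of_MG hMG
  obtain ⟨u', h1, h2, h3⟩ := H k (wz m (VD D) x t π ρ (r * (1 + ε))) π ρ κ h ε r u hκ hε hε2 hr0 hr1
    hh (cylStat_mono (hF.cyl _ hA2) hε₀)
    ((hF.mass_le _ hA2).trans (ENNReal.ofReal_le_ofReal (le_max_left _ _))) (by
      have h5 := le_zoom_mass hV hm hF.frame ht hUx (A := r * (1 + ε)) (σ := r / 16)
        (by positivity) (by linarith) (by nlinarith) hTh
      refine le_trans ?_ h5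
      rw [one_mul]
      refine ENNReal.ofReal_le_ofReal ?_
      rw [inv_le_comm₀ hΛ'0 (by positivity)]
      refine le_trans ?_ (le_max_right _ _)
      refine inv_anti₀ (by positivity) ?_
      gcongr) hMG (by
      refine ae_wz ht ?_ ?_
      · exact (isClosed_le (by fun_prop) continuous_const).measurableSet
      · filter_upwards [hhgt] with q hq hq2
        have h6 := hq hq2
        have e1 : ρ (Vc_164.hom x t q).1 - u (π (Vc_164.hom x t q).1) =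
            t⁻¹ • hgt π ρ x t u q.1 := by
          simp only [Vc_164.hom, map_smul, hgt]
          rw [smul_sub t⁻¹, smul_smul, inv_mul_cancel₀ ht.ne', one_smul]
        rw [e1, norm_smul, norm_inv, Real.norm_of_nonneg ht.le, inv_mul_le_iff₀ ht]
        linarith) hCh
  refine ⟨u', h1, h2, ?_⟩
  intro ζ hζ hζs hζb
  have h4 := h3 ζ hζ hζs hζb
  rw [bar_wz ht (continuous_of_MG h1) hζ.continuous, norm_smul, norm_inv,
    Real.norm_of_nonneg (by positivity : (0:ℝ) ≤ t ^ (m + 1)), inv_mul_le_iff₀ (by positivity)] at h4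
  linarith

/-- change of the region of integration of the mean. -/
theorem mean_congr {u : Euc m → Euc n} {S S' : Set (Euc k)} {ζ : Euc m → ℝ} {r : ℝ} (ht : 0 < t)
    (hS : MeasurableSet S) (hS' : MeasurableSet S') (hζ : ∀ z, r ≤ ‖z‖ → ζ z = 0)
    (h : ∀ᵐ p ∂V, ‖π (p.1 - x)‖ < r * t → (p.1 ∈ S ↔ p.1 ∈ S')) :
    mean V π ρ x t u S ζ = mean V π ρ x t u S' ζ := by
  unfold mean
  rw [← integral_indicator (hS.prod MeasurableSet.univ),
    ← integral_indicator (hS'.prod MeasurableSet.univ)]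
  refine integral_congr_ae ?_
  filter_upwards [h] with p hp
  by_cases h1 : ‖π (p.1 - x)‖ < r * t
  · have h2 := hp h1
    by_cases h3 : p.1 ∈ S
    · rw [indicator_of_mem (show p ∈ S ×ˢ univ from ⟨h3, mem_univ _⟩),
        indicator_of_mem (show p ∈ S' ×ˢ univ from ⟨h2.1 h3, mem_univ _⟩)]
    · rw [indicator_of_notMem (show p ∉ S ×ˢ univ from fun h => h3 h.1),
        indicator_of_notMem (show p ∉ S' ×ˢ univ from fun h => h3 (h2.2 h.1))]
  · have h2 : ζ (t⁻¹ • π (p.1 - x)) = 0 := by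
      refine hζ _ ?_
      rw [norm_smul, norm_inv, Real.norm_of_nonneg ht.le, le_inv_mul_iff₀ ht]
      linarith
    simp only [indicator, h2, zero_smul, ite_self]

end Crest.Agent.R234.F10u_188
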