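import Crest.Agent.R234.Cy4_870

/-!
# Row 234, VF-GL, part 1 (helper394)

The exact weighted frame relative to a curved (minimal) graph `M` at a centre `p`, with the first
variation functional and all error integrals kept. Frame-free data: `x` = coordinate of the foot
point, `f` = half of the squared distance to `M`, `nu = grad f`, `H = D nu`, `A` = a `C¹` frame with
`dx A = 1`, `tau` = a tilt coefficient; `gi = g⁻¹`, `j = sqrt (det g)`, `lam = grad log j`, `mu`,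
`be = mu⁻¹ gi v`.
-/

set_option autoImplicit false

open MeasureTheory Set Function Filter Topology
open Crest.GeometryTopology.Submanifold
open Crest.Agent.R234.Vf_884 Crest.Agent.R234.Ar_870 Crest.Agent.R234.Cy_870
open scoped ENNReal NNReal InnerProductSpace

noncomputable section

namespace Crest.Agent.R234.GL_394

variable {m k : ℕ}

/-- chart data -/
structure Ch (m k : ℕ) where
  x : Euc k → Euc m
  dx : Euc k → Euc k →L[ℝ] Euc m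
  f : Euc k → ℝ
  nu : Euc k → Euc k
  H : Euc k → L k
  A : Euc k → Euc m →L[ℝ] Euc k
  dA : Euc k → Euc k →L[ℝ] Euc m →L[ℝ] Euc k
  tau : Euc k → L k → ℝ
  gi : Euc m → L m
  dgi : Euc m → Euc m →L[ℝ] L m
  j : Euc m → ℝ
  lam : Euc m → Euc m
  mu : Euc m → ℝ
  be : Euc m → Euc m
  dbe : Euc m → L m

/-- the chart data are what they should be, on `K` (ambient) and `D` (base) -/
structure Ok (c : Ch m k) (K : Set (Euc k)) (D : Set (Euc m)) : Prop where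
  cpt : IsCompact K
  opn : IsOpen D
  mem : ∀ z ∈ K, c.x z ∈ D
  hx : ∀ z ∈ K, HasFDerivAt c.x (c.dx z) z
  hf : ∀ z ∈ K, HasFDerivAt c.f (innerSL ℝ (c.nu z)) z
  hnu : ∀ z ∈ K, HasFDerivAt c.nu (c.H z) z
  hA : ∀ z ∈ K, HasFDerivAt c.A (c.dA z) z
  cdx : ContinuousOn c.dx K
  cH : ContinuousOn c.H K
  cdA : ContinuousOn c.dA K
  ctau : ContinuousOn (fun p : Euc k × L k => c.tau p.1 p.2) (K ×ˢ G m k)
  dxA : ∀ z ∈ K, c.dx z ∘L c.A z = ContinuousLinearMap.id ℝ (Euc m)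
  dxnu : ∀ z ∈ K, c.dx z (c.nu z) = 0
  nusq : ∀ z ∈ K, ‖c.nu z‖ ^ 2 = 2 * c.f z
  hgi : ∀ v ∈ D, HasFDerivAt c.gi (c.dgi v) v
  cdgi : ContinuousOn c.dgi D
  hj : ∀ v ∈ D, HasFDerivAt c.j (c.j v • innerSL ℝ (c.lam v)) v
  clam : ContinuousOn c.lam D
  cmu : ContinuousOn c.mu D
  mupos : ∀ v ∈ D, 0 < c.mu v
  hmu : ∀ v ∈ D, ⟪v, c.gi v v⟫_ℝ = c.mu v * ‖v‖ ^ 2
  hbe : ∀ v ∈ D, c.be v = (c.mu v)⁻¹ • c.gi v v
  hdbe : ∀ v ∈ D, HasFDerivAt c.be (c.dbe v) v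
  cdbe : ContinuousOn c.dbe D

/-- the measure lives over `K` -/
structure On (V : Measure (Euc k × L k)) (m : ℕ) (K : Set (Euc k)) : Prop where
  fin : IsFiniteMeasure V
  mem : ∀ᵐ p ∂V, p ∈ K ×ˢ G m k

theorem On.integrable {V : Measure (Euc k × L k)} {K : Set (Euc k)} (hV : On V m K)
    (hK : IsCompact K) {F : Euc k × L k → ℝ} (hF : ContinuousOn F (K ×ˢ G m k)) :
    Integrable F V := by
  have := hV.fin
  have hS : MeasurableSet (K ×ˢ G m k) := hK.isClosed.measurableSet.prod (measurableSet_G m k)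
  obtain ⟨C, hC⟩ := (hK.prod (isCompact_G m k)).exists_bound_of_continuousOn hF
  have h1 : AEStronglyMeasurable F V := by
    rw [← Measure.restrict_eq_self_of_ae_mem hV.mem]
    exact hF.aestronglyMeasurable hS
  refine Integrable.mono' (integrable_const C) h1 ?_
  filter_upwards [hV.mem] with p hp
  exact hC p hp

theorem On.aesm {V : Measure (Euc k × L k)} {K : Set (Euc k)} (hV : On V m K)
    (hK : IsCompact K) {F : Euc k × L k → ℝ} (hF : ContinuousOn F (K ×ˢ G m k)) :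
    AEStronglyMeasurable F V := by
  have hS : MeasurableSet (K ×ˢ G m k) := hK.isClosed.measurableSet.prod (measurableSet_G m k)
  rw [← Measure.restrict_eq_self_of_ae_mem hV.mem]
  exact hF.aestronglyMeasurable hS

theorem On.bdd {K : Set (Euc k)} (m : ℕ)
    (hK : IsCompact K) {F : Euc k × L k → ℝ} (hF : ContinuousOn F (K ×ˢ G m k)) :
    ∃ C : ℝ, ∀ p ∈ K ×ˢ G m k, |F p| ≤ C := by
  obtain ⟨C, hC⟩ := (hK.prod (isCompact_G m k)).exists_bound_of_continuousOn hF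
  exact ⟨C, fun p hp => hC p hp⟩

/-- logarithmic derivative of kernel integrals -/
theorem On.hasDerivAt {V : Measure (Euc k × L k)} {K : Set (Euc k)} (hV : On V m K)
    (hK : IsCompact K) {X : Euc k → Euc m} (hX : ContinuousOn X K)
    {F : Euc k × L k → ℝ} (hF : ContinuousOn F (K ×ˢ G m k)) {q q' : ℝ → ℝ} (hq : Ker q q')
    (l : ℝ) :
    HasDerivAt (fun l => ∫ p, F p * q (Real.exp (-2 * l) * ‖X p.1‖ ^ 2) ∂V)
      (∫ p, F p * (-2 * (Real.exp (-2 * l) * ‖X p.1‖ ^ 2 *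
        q' (Real.exp (-2 * l) * ‖X p.1‖ ^ 2))) ∂V) l := by
  have := hV.fin
  obtain ⟨C, hC⟩ := On.bdd m hK hF
  obtain ⟨Kq, -, hKq, -, hKq'⟩ := hq.exists_bound
  have hX0 : ContinuousOn (fun p : Euc k × L k => X p.1) (K ×ˢ G m k) :=
    hX.comp continuousOn_fst (fun p hp => hp.1)
  have hX' : ContinuousOn (fun p : Euc k × L k => ‖X p.1‖ ^ 2) (K ×ˢ G m k) := hX0.norm.pow 2
  have h1 : AEMeasurable (fun p : Euc k × L k => ‖X p.1‖ ^ 2) V := (hV.aesm hK hX').aemeasurable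
  have h2 : ∀ p : Euc k × L k, 0 ≤ ‖X p.1‖ ^ 2 := fun p => by positivity
  have h3 : ∀ᵐ p ∂V, |F p| ≤ C := by
    filter_upwards [hV.mem] with p hp
    exact hC p hp
  exact hasDerivAt_ker_fin h1 h2 (hV.aesm hK hF) h3 hq.der hq.cont hKq hKq' l

/-! ### the coefficients -/

/-- the horizontal block as a `(1,1)` tensor -/
def T (c : Ch m k) (p : Euc k × L k) : L m := c.dx p.1 ∘L p.2 ∘L c.A p.1

/-- `tr ((DA · v) P)` -/
def Gam (c : Ch m k) (p : Euc k × L k) (v : Euc m) : ℝ := tr ((c.dA p.1).flip v ∘L p.2)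

/-- `dx† x` -/
def xi (c : Ch m k) (z : Euc k) : Euc k := ContinuousLinearMap.adjoint (c.dx z) (c.x z)

/-- `dx† x - A gi x` -/
def zeta (c : Ch m k) (z : Euc k) : Euc k := xi c z - c.A z (c.gi (c.x z) (c.x z))

/-- the scaled squared distance -/
def tt (c : Ch m k) (l : ℝ) (z : Euc k) : ℝ := Real.exp (-2 * l) * ‖c.x z‖ ^ 2

/-- divergence of a field with derivative `B` at `v` w.r.t. the density `j`: `tr B + ⟪lam, ξ⟫` -/
def th (c : Ch m k) (v : Euc m) : ℝ := tr (c.dbe v) + ⟪c.lam v, c.be v⟫_ℝ - m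

/-- derivative of `v ↦ gi v v` -/
def dgv (c : Ch m k) (v : Euc m) : L m := c.gi v + (c.dgi v).flip v

def th3 (c : Ch m k) (v : Euc m) : ℝ :=
  tr (dgv c v) + ⟪c.lam v, c.gi v v⟫_ℝ - m * c.mu v

/-- pointwise error of (G1) -/
def ep1 (c : Ch m k) (p : Euc k × L k) : ℝ :=
  (c.tau p.1 p.2 - (m - tr (T c p)))
    - tr ((c.dbe (c.x p.1) - ContinuousLinearMap.id ℝ (Euc m)) ∘L
        (ContinuousLinearMap.id ℝ (Euc m) - T c p))
    + (Gam c p (c.be (c.x p.1)) - ⟪c.lam (c.x p.1), c.be (c.x p.1)⟫_ℝ)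

/-- pointwise error of (G2) -/
def ep2 (c : Ch m k) (p : Euc k × L k) : ℝ := tr (c.H p.1 ∘L p.2) - c.tau p.1 p.2

/-- `⟪x, (1 - T) be⟫` -/
def rt (c : Ch m k) (p : Euc k × L k) : ℝ :=
  ⟪c.x p.1, (ContinuousLinearMap.id ℝ (Euc m) - T c p) (c.be (c.x p.1))⟫_ℝ

/-- `mu⁻¹ |(1 - P) dx† x|²` -/
def rr (c : Ch m k) (p : Euc k × L k) : ℝ :=
  (c.mu (c.x p.1))⁻¹ * ‖xi c p.1 - p.2 (xi c p.1)‖ ^ 2

/-- `⟪x, dx P nu⟫` -/
def ph (c : Ch m k) (p : Euc k × L k) : ℝ := ⟪c.x p.1, c.dx p.1 (p.2 (c.nu p.1))⟫_ℝ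

/-! ### the frame functions of `l = log s` -/

/-- mass excess relative to `Q M` -/
def EE (c : Ch m k) (V : Measure (Euc k × L k)) (g : ℝ → ℝ) (Q l : ℝ) : ℝ :=
  Real.exp ((2 - m) * l) *
    (∫ p, 1 * g (Real.exp (-2 * l) * ‖c.x p.1‖ ^ 2) ∂V -
      Q * ∫ v : Euc m, c.j v * g (Real.exp (-2 * l) * ‖v‖ ^ 2))

/-- tilt energy -/
def ee (c : Ch m k) (V : Measure (Euc k × L k)) (g : ℝ → ℝ) (l : ℝ) : ℝ :=
  Real.exp ((2 - m) * l) * ∫ p, c.tau p.1 p.2 * g (Real.exp (-2 * l) * ‖c.x p.1‖ ^ 2) ∂V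

/-- anomaly -/
def bb (c : Ch m k) (V : Measure (Euc k × L k)) (g : ℝ → ℝ) (Q l : ℝ) : ℝ :=
  EE c V g Q l - ee c V g l / 2

/-- height -/
def II (c : Ch m k) (V : Measure (Euc k × L k)) (g1 : ℝ → ℝ) (l : ℝ) : ℝ :=
  Real.exp (-m * l) * ∫ p, (c.f p.1 * c.mu (c.x p.1)) *
    (-4 * g1 (Real.exp (-2 * l) * ‖c.x p.1‖ ^ 2)) ∂V

/-- radial energy -/
def RR (c : Ch m k) (V : Measure (Euc k × L k)) (g1 : ℝ → ℝ) (l : ℝ) : ℝ :=
  Real.exp (-m * l) * ∫ p, rr c p * (-2 * g1 (Real.exp (-2 * l) * ‖c.x p.1‖ ^ 2)) ∂V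

/-- radial energy as it appears in (G1) -/
def RT (c : Ch m k) (V : Measure (Euc k × L k)) (g1 : ℝ → ℝ) (l : ℝ) : ℝ :=
  Real.exp (-m * l) * ∫ p, rt c p * (-2 * g1 (Real.exp (-2 * l) * ‖c.x p.1‖ ^ 2)) ∂V

/-- flux -/
def Ph (c : Ch m k) (V : Measure (Euc k × L k)) (g1 : ℝ → ℝ) (l : ℝ) : ℝ :=
  Real.exp (-m * l) * ∫ p, ph c p * (-2 * g1 (Real.exp (-2 * l) * ‖c.x p.1‖ ^ 2)) ∂V

/-- anomaly error of (G1): `(x_# V - Q j Leb)(g θ)` -/
def er1a (c : Ch m k) (V : Measure (Euc k × L k)) (g : ℝ → ℝ) (Q l : ℝ) : ℝ :=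
  ∫ p, th c (c.x p.1) * g (Real.exp (-2 * l) * ‖c.x p.1‖ ^ 2) ∂V -
    Q * ∫ v : Euc m, th c v * c.j v * g (Real.exp (-2 * l) * ‖v‖ ^ 2)

def er1 (c : Ch m k) (V : Measure (Euc k × L k)) (g : ℝ → ℝ) (l : ℝ) : ℝ :=
  ∫ p, ep1 c p * g (Real.exp (-2 * l) * ‖c.x p.1‖ ^ 2) ∂V

def er2 (c : Ch m k) (V : Measure (Euc k × L k)) (g : ℝ → ℝ) (l : ℝ) : ℝ :=
  ∫ p, ep2 c p * g (Real.exp (-2 * l) * ‖c.x p.1‖ ^ 2) ∂V

/-- the field `g A be` -/
def X1 (c : Ch m k) (g : ℝ → ℝ) (l : ℝ) (z : Euc k) : Euc k :=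
  c.A z (g (Real.exp (-2 * l) * ‖c.x z‖ ^ 2) • c.be (c.x z))

/-- the field `g nu` -/
def X2 (c : Ch m k) (g : ℝ → ℝ) (l : ℝ) (z : Euc k) : Euc k :=
  g (Real.exp (-2 * l) * ‖c.x z‖ ^ 2) • c.nu z

/-- the field `f g1 A gi x` -/
def X3 (c : Ch m k) (g1 : ℝ → ℝ) (l : ℝ) (z : Euc k) : Euc k :=
  c.f z • c.A z (g1 (Real.exp (-2 * l) * ‖c.x z‖ ^ 2) • c.gi (c.x z) (c.x z))

/-! ### traces of derivatives of fields -/

/-- `Z ↦ A Z (ξ (x Z))` -/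
theorem hasFDerivAt_Axi {c : Ch m k} {z : Euc k} (hx : HasFDerivAt c.x (c.dx z) z)
    (hA : HasFDerivAt c.A (c.dA z) z) {ξ : Euc m → Euc m} {ξ' : L m}
    (hξ : HasFDerivAt ξ ξ' (c.x z)) :
    HasFDerivAt (fun z => c.A z (ξ (c.x z)))
      ((c.A z) ∘L (ξ' ∘L c.dx z) + (c.dA z).flip (ξ (c.x z))) z :=
  hA.clm_apply (hξ.comp z hx)

theorem tr_Axi {c : Ch m k} {z : Euc k} (hx : HasFDerivAt c.x (c.dx z) z)
    (hA : HasFDerivAt c.A (c.dA z) z) {ξ : Euc m → Euc m} {ξ' : L m}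
    (hξ : HasFDerivAt ξ ξ' (c.x z)) (P : L k) :
    tr (fderiv ℝ (fun z => c.A z (ξ (c.x z))) z ∘L P) =
      tr (ξ' ∘L T c (z, P)) + Gam c (z, P) (ξ (c.x z)) := by
  rw [(hasFDerivAt_Axi hx hA hξ).fderiv, ContinuousLinearMap.add_comp, map_add]
  congr 1
  have h1 : (c.A z ∘L (ξ' ∘L c.dx z)) ∘L P = c.A z ∘L (ξ' ∘L c.dx z ∘L P) := rfl
  rw [h1, tr_cyc]
  rfl

theorem tr_fAxi {c : Ch m k} {z : Euc k} (hx : HasFDerivAt c.x (c.dx z) z)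
    (hf : HasFDerivAt c.f (innerSL ℝ (c.nu z)) z)
    (hA : HasFDerivAt c.A (c.dA z) z) {ξ : Euc m → Euc m} {ξ' : L m}
    (hξ : HasFDerivAt ξ ξ' (c.x z)) (P : L k) :
    tr (fderiv ℝ (fun z => c.f z • c.A z (ξ (c.x z))) z ∘L P) =
      c.f z * (tr (ξ' ∘L T c (z, P)) + Gam c (z, P) (ξ (c.x z))) +
        ⟪c.nu z, P (c.A z (ξ (c.x z)))⟫_ℝ := by
  have h1 := hasFDerivAt_Axi hx hA hξ
  have h2 := tr_Axi hx hA hξ P
  rw [h1.fderiv] at h2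
  have h5 : HasFDerivAt (fun z => c.f z • c.A z (ξ (c.x z))) _ z := hf.smul h1
  rw [h5.fderiv, ContinuousLinearMap.add_comp, map_add, tr_smulRight_comp]
  have h3 : (c.f z • ((c.A z) ∘L (ξ' ∘L c.dx z) + (c.dA z).flip (ξ (c.x z)))) ∘L P =
      c.f z • (((c.A z) ∘L (ξ' ∘L c.dx z) + (c.dA z).flip (ξ (c.x z))) ∘L P) := by
    ext v; simp
  rw [h3, map_smul, h2, smul_eq_mul]
  rfl

theorem tr_X2 {c : Ch m k} {z : Euc k} (hx : HasFDerivAt c.x (c.dx z) z)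
    (hnu : HasFDerivAt c.nu (c.H z) z) {g g1 : ℝ → ℝ} (hg : ∀ t, HasDerivAt g (g1 t) t) (l : ℝ)
    (P : L k) :
    tr (fderiv ℝ (X2 c g l) z ∘L P) =
      g (Real.exp (-2 * l) * ‖c.x z‖ ^ 2) * tr (c.H z ∘L P) +
        2 * Real.exp (-2 * l) * g1 (Real.exp (-2 * l) * ‖c.x z‖ ^ 2) * ph c (z, P) := by
  have h1 := (hasFDerivAt_rad hg l 0 (c.x z)).comp z hx
  simp only [sub_zero] at h1
  have h2 := h1.smul hnu
  have h3 : HasFDerivAt (X2 c g l) _ z := h2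
  rw [h3.fderiv, ContinuousLinearMap.add_comp, map_add, tr_smulRight_comp]
  congr 1
  · have h4 : ∀ a : ℝ, (a • c.H z) ∘L P = a • (c.H z ∘L P) := fun a => by ext v; simp
    change tr ((g (Real.exp (-2 * l) * ‖c.x z‖ ^ 2) • c.H z) ∘L P) = _
    rw [h4, map_smul, smul_eq_mul]
  · change innerSL ℝ ((2 * Real.exp (-2 * l) * g1 (Real.exp (-2 * l) * ‖c.x z‖ ^ 2)) • c.x z)
      (c.dx z (P (c.nu z))) = _
    rw [innerSL_apply_apply, inner_smul_left]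
    rfl

end Crest.Agent.R234.GL_394
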