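import Crest.Agent.R234.Fm1_209

/-!
# Row 234, node GL-K (helper128), file 1: the chart `Φ(x,y) = (x - Du(x)ᵀ y, u(x) + y)` at one point,
# linear algebra

`F` base space, `V` fibre space, `E` ambient space, `i : F → E`, `j : V → E` orthogonal isometries,
`q = Du(x)`, `Y = (D²u(x)[·])ᵀ y`, tangent frame `A = i + j q - i Y`, normal frame `B = j - i qᵀ`,
`A0 = i + j q`, `g = 1 + qᵀ q = A0ᵀ A0`, `h = 1 + q qᵀ = Bᵀ B`, dual frame `dx`, `dy`.
`tau0 = tr (P N)`, `N` the projection onto the normal space.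
-/

set_option autoImplicit false

open Function Set Crest.Agent.R234.Fm_209
open scoped InnerProductSpace

noncomputable section

namespace Crest.Agent.R234.GLK_128

variable {E F V : Type*} [NormedAddCommGroup E] [InnerProductSpace ℝ E] [FiniteDimensional ℝ E]
  [NormedAddCommGroup F] [InnerProductSpace ℝ F] [FiniteDimensional ℝ F]
  [NormedAddCommGroup V] [InnerProductSpace ℝ V] [FiniteDimensional ℝ V]

local notation "adj" => ContinuousLinearMap.adjoint

/-! ### trace lemmas -/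

theorem trc_sum {ι : Type*} [Fintype ι] (b : OrthonormalBasis ι ℝ E) (A : E →L[ℝ] E) :
    trc E A = ∑ k, ⟪b k, A (b k)⟫_ℝ := by
  rw [trc_apply, LinearMap.trace_eq_sum_inner _ b]
  rfl

theorem trc_adjoint (A : E →L[ℝ] E) : trc E (adj A) = trc E A := by
  rw [trc_sum (stdOrthonormalBasis ℝ E), trc_sum (stdOrthonormalBasis ℝ E)]
  refine Finset.sum_congr rfl fun k _ => ?_
  rw [ContinuousLinearMap.adjoint_inner_right, real_inner_comm]

theorem trc_id : trc E (ContinuousLinearMap.id ℝ E) = Module.finrank ℝ E := by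
  rw [trc_sum (stdOrthonormalBasis ℝ E)]
  simp

/-- the operator norm is bounded by the Hilbert-Schmidt norm -/
theorem norm_sq_le_trc (X : E →L[ℝ] F) : ‖X‖ ^ 2 ≤ trc E (adj X ∘L X) := by
  set b := stdOrthonormalBasis ℝ E with hb
  have h1 : trc E (adj X ∘L X) = ∑ k, ‖X (b k)‖ ^ 2 := by
    rw [trc_sum b]
    refine Finset.sum_congr rfl fun k _ => ?_
    rw [ContinuousLinearMap.comp_apply, ContinuousLinearMap.adjoint_inner_right,
      real_inner_self_eq_norm_sq]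
  rw [h1]
  set S := ∑ k, ‖X (b k)‖ ^ 2 with hS
  have hS0 : 0 ≤ S := Finset.sum_nonneg fun k _ => sq_nonneg _
  have h2 : ‖X‖ ≤ Real.sqrt S := by
    refine ContinuousLinearMap.opNorm_le_bound _ (Real.sqrt_nonneg _) fun v => ?_
    have e1 : X v = ∑ k, ⟪b k, v⟫_ℝ • X (b k) := by
      conv_lhs => rw [← b.sum_repr' v]
      rw [map_sum]
      simp
    have e2 : ‖v‖ ^ 2 = ∑ k, ‖⟪b k, v⟫_ℝ‖ ^ 2 := (b.sum_sq_norm_inner_right v).symm
    calc ‖X v‖ ≤ ∑ k, ‖⟪b k, v⟫_ℝ‖ * ‖X (b k)‖ := by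
          rw [e1]
          refine (norm_sum_le _ _).trans (Finset.sum_le_sum fun k _ => ?_)
          rw [norm_smul]
      _ ≤ Real.sqrt (∑ k, ‖⟪b k, v⟫_ℝ‖ ^ 2) * Real.sqrt (∑ k, ‖X (b k)‖ ^ 2) :=
          Real.sum_mul_le_sqrt_mul_sqrt _ _ _
      _ = Real.sqrt S * ‖v‖ := by
          rw [← e2, Real.sqrt_sq (norm_nonneg _), mul_comm]
  calc ‖X‖ ^ 2 ≤ Real.sqrt S ^ 2 := pow_le_pow_left₀ (norm_nonneg _) h2 2
    _ = S := Real.sq_sqrt hS0

theorem abs_trc_le' (A : E →L[ℝ] E) : |trc E A| ≤ Module.finrank ℝ E * ‖A‖ := by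
  set b := stdOrthonormalBasis ℝ E with hb
  rw [trc_sum b]
  refine (Finset.abs_sum_le_sum_abs _ _).trans ?_
  calc ∑ k, |⟪b k, A (b k)⟫_ℝ| ≤ ∑ _k : Fin (Module.finrank ℝ E), ‖A‖ := by
        refine Finset.sum_le_sum fun k _ => ?_
        refine (abs_real_inner_le_norm _ _).trans ?_
        rw [b.norm_eq_one, one_mul]
        refine (A.le_opNorm _).trans ?_
        rw [b.norm_eq_one, mul_one]
    _ = Module.finrank ℝ E * ‖A‖ := by simp

/-! ### frames -/

/-- orthogonal isometric embeddings of the base and the fibre -/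
structure Fr (i : F →L[ℝ] E) (j : V →L[ℝ] E) : Prop where
  ii : adj i ∘L i = ContinuousLinearMap.id ℝ F
  jj : adj j ∘L j = ContinuousLinearMap.id ℝ V
  ij : adj i ∘L j = 0
  full : i ∘L adj i + j ∘L adj j = ContinuousLinearMap.id ℝ E

variable {i : F →L[ℝ] E} {j : V →L[ℝ] E}

theorem Fr.ji (h : Fr i j) : adj j ∘L i = 0 := by
  have h1 := congrArg (fun T => adj T) h.ij
  simpa [ContinuousLinearMap.adjoint_comp] using h1

theorem Fr.norm_i (h : Fr i j) (v : F) : ‖i v‖ = ‖v‖ := by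
  have h1 : ‖i v‖ ^ 2 = ‖v‖ ^ 2 := by
    rw [← real_inner_self_eq_norm_sq, ← ContinuousLinearMap.adjoint_inner_right,
      ← real_inner_self_eq_norm_sq]
    congr 1
    exact congrArg (fun T : F →L[ℝ] F => T v) h.ii
  exact (sq_eq_sq₀ (norm_nonneg _) (norm_nonneg _)).1 h1

theorem Fr.norm_j (h : Fr i j) (v : V) : ‖j v‖ = ‖v‖ := by
  have h1 : ‖j v‖ ^ 2 = ‖v‖ ^ 2 := by
    rw [← real_inner_self_eq_norm_sq, ← ContinuousLinearMap.adjoint_inner_right,
      ← real_inner_self_eq_norm_sq]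
    congr 1
    exact congrArg (fun T : V →L[ℝ] V => T v) h.jj
  exact (sq_eq_sq₀ (norm_nonneg _) (norm_nonneg _)).1 h1

theorem Fr.norm_i_le (h : Fr i j) : ‖i‖ ≤ 1 :=
  ContinuousLinearMap.opNorm_le_bound _ zero_le_one fun v => by rw [h.norm_i, one_mul]

theorem Fr.norm_j_le (h : Fr i j) : ‖j‖ ≤ 1 :=
  ContinuousLinearMap.opNorm_le_bound _ zero_le_one fun v => by rw [h.norm_j, one_mul]

theorem norm_adj (T : E →L[ℝ] F) : ‖adj T‖ = ‖T‖ := LinearIsometryEquiv.norm_map _ _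

/-- tangent frame at `y = 0` -/
def A0 (i : F →L[ℝ] E) (j : V →L[ℝ] E) (q : F →L[ℝ] V) : F →L[ℝ] E := i + j ∘L q

/-- normal frame -/
def BB (i : F →L[ℝ] E) (j : V →L[ℝ] E) (q : F →L[ℝ] V) : V →L[ℝ] E := j - i ∘L adj q

/-- tangent frame -/
def AA (i : F →L[ℝ] E) (j : V →L[ℝ] E) (q : F →L[ℝ] V) (Y : F →L[ℝ] F) : F →L[ℝ] E :=
  i + j ∘L q - i ∘L Y

/-- metric of the base -/
def gg (q : F →L[ℝ] V) : F →L[ℝ] F := ContinuousLinearMap.id ℝ F + adj q ∘L q

/-- metric of the fibre -/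
def hh (q : F →L[ℝ] V) : V →L[ℝ] V := ContinuousLinearMap.id ℝ V + q ∘L adj q

variable {q : F →L[ℝ] V} {Y : F →L[ℝ] F}

theorem AA_eq : AA i j q Y = A0 i j q - i ∘L Y := rfl

theorem adj_A0_apply (v : E) : adj (A0 i j q) v = adj i v + adj q (adj j v) := by
  simp [A0, ContinuousLinearMap.adjoint_comp]

theorem adj_BB_apply (v : E) : adj (BB i j q) v = adj j v - q (adj i v) := by
  simp [BB, ContinuousLinearMap.adjoint_comp]

theorem Fr.ii_apply (h : Fr i j) (v : F) : adj i (i v) = v :=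
  congrArg (fun T : F →L[ℝ] F => T v) h.ii
theorem Fr.jj_apply (h : Fr i j) (v : V) : adj j (j v) = v :=
  congrArg (fun T : V →L[ℝ] V => T v) h.jj
theorem Fr.ij_apply (h : Fr i j) (v : V) : adj i (j v) = 0 :=
  congrArg (fun T : V →L[ℝ] F => T v) h.ij
theorem Fr.ji_apply (h : Fr i j) (v : F) : adj j (i v) = 0 :=
  congrArg (fun T : F →L[ℝ] V => T v) h.ji
theorem Fr.full_apply (h : Fr i j) (v : E) : i (adj i v) + j (adj j v) = v :=
  congrArg (fun T : E →L[ℝ] E => T v) h.full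

theorem A0A0 (h : Fr i j) : adj (A0 i j q) ∘L A0 i j q = gg q := by
  ext1 v
  rw [ContinuousLinearMap.comp_apply, adj_A0_apply]
  simp [A0, gg, h.ii_apply, h.jj_apply, h.ij_apply, h.ji_apply]

theorem BB_BB (h : Fr i j) : adj (BB i j q) ∘L BB i j q = hh q := by
  ext1 v
  rw [ContinuousLinearMap.comp_apply, adj_BB_apply]
  simp [BB, hh, h.ii_apply, h.jj_apply, h.ij_apply, h.ji_apply]

theorem A0_BB (h : Fr i j) : adj (A0 i j q) ∘L BB i j q = 0 := by
  ext1 v
  rw [ContinuousLinearMap.comp_apply, adj_A0_apply]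
  simp [BB, h.ii_apply, h.jj_apply, h.ij_apply, h.ji_apply]

theorem BB_A0 (h : Fr i j) : adj (BB i j q) ∘L A0 i j q = 0 := by
  ext1 v
  rw [ContinuousLinearMap.comp_apply, adj_BB_apply]
  simp [A0, h.ii_apply, h.jj_apply, h.ij_apply, h.ji_apply]

theorem A0_i (h : Fr i j) : adj (A0 i j q) ∘L i = ContinuousLinearMap.id ℝ F := by
  ext1 v
  rw [ContinuousLinearMap.comp_apply, adj_A0_apply]
  simp [h.ii_apply, h.ji_apply]

theorem BB_i (h : Fr i j) : adj (BB i j q) ∘L i = -q := by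
  ext1 v
  rw [ContinuousLinearMap.comp_apply, adj_BB_apply]
  simp [h.ii_apply, h.ji_apply]

theorem BB_AA (h : Fr i j) : adj (BB i j q) ∘L AA i j q Y = q ∘L Y := by
  rw [AA_eq, ContinuousLinearMap.comp_sub, BB_A0 h, ← ContinuousLinearMap.comp_assoc, BB_i h]
  simp

theorem A0_AA (h : Fr i j) : adj (A0 i j q) ∘L AA i j q Y = gg q - Y := by
  rw [AA_eq, ContinuousLinearMap.comp_sub, A0A0 h, ← ContinuousLinearMap.comp_assoc, A0_i h,
    ContinuousLinearMap.id_comp]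

/-- the inverse operators -/
structure Inv (q : F →L[ℝ] V) (Y : F →L[ℝ] F) (gi : F →L[ℝ] F) (hi : V →L[ℝ] V)
    (Li : F →L[ℝ] F) : Prop where
  g1 : gi ∘L gg q = ContinuousLinearMap.id ℝ F
  g2 : gg q ∘L gi = ContinuousLinearMap.id ℝ F
  h1 : hi ∘L hh q = ContinuousLinearMap.id ℝ V
  h2 : hh q ∘L hi = ContinuousLinearMap.id ℝ V
  l1 : Li ∘L (gg q - Y) = ContinuousLinearMap.id ℝ F
  l2 : (gg q - Y) ∘L Li = ContinuousLinearMap.id ℝ F

variable {gi : F →L[ℝ] F} {hi : V →L[ℝ] V} {Li : F →L[ℝ] F}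

theorem gg_adj (q : F →L[ℝ] V) : adj (gg q) = gg q := by
  simp [gg, ContinuousLinearMap.adjoint_comp]

theorem hh_adj (q : F →L[ℝ] V) : adj (hh q) = hh q := by
  simp [hh, ContinuousLinearMap.adjoint_comp]

theorem gg_inner (q : F →L[ℝ] V) (v : F) : ⟪gg q v, v⟫_ℝ = ‖v‖ ^ 2 + ‖q v‖ ^ 2 := by
  simp [gg, inner_add_left, ContinuousLinearMap.adjoint_inner_left, real_inner_self_eq_norm_sq]

theorem hh_inner (q : F →L[ℝ] V) (v : V) : ⟪hh q v, v⟫_ℝ = ‖v‖ ^ 2 + ‖adj q v‖ ^ 2 := by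
  simp only [hh, ContinuousLinearMap.add_apply, ContinuousLinearMap.id_apply,
    ContinuousLinearMap.comp_apply, inner_add_left, real_inner_self_eq_norm_sq]
  rw [← ContinuousLinearMap.adjoint_inner_right, real_inner_self_eq_norm_sq]

theorem le_gg (q : F →L[ℝ] V) (v : F) : ‖v‖ ≤ ‖gg q v‖ := by
  have h1 := gg_inner q v
  have h2 := real_inner_le_norm (gg q v) v
  rcases eq_or_lt_of_le (norm_nonneg v) with h0 | h0
  · rw [← h0]; exact norm_nonneg _
  · nlinarith [sq_nonneg ‖q v‖]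

theorem le_hh (q : F →L[ℝ] V) (v : V) : ‖v‖ ≤ ‖hh q v‖ := by
  have h1 := hh_inner q v
  have h2 := real_inner_le_norm (hh q v) v
  rcases eq_or_lt_of_le (norm_nonneg v) with h0 | h0
  · rw [← h0]; exact norm_nonneg _
  · nlinarith [sq_nonneg ‖adj q v‖]

theorem le_gg_sub (q : F →L[ℝ] V) {Y : F →L[ℝ] F} (hY : ‖Y‖ ≤ 1 / 2) (v : F) :
    ‖v‖ / 2 ≤ ‖(gg q - Y) v‖ := by
  have h1 := le_gg q v
  have h2 : ‖Y v‖ ≤ 1 / 2 * ‖v‖ := (Y.le_opNorm v).trans
    (mul_le_mul_of_nonneg_right hY (norm_nonneg _))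
  have h3 : ‖gg q v‖ ≤ ‖(gg q - Y) v‖ + ‖Y v‖ := by
    have : gg q v = (gg q - Y) v + Y v := by simp
    calc ‖gg q v‖ = ‖(gg q - Y) v + Y v‖ := by rw [← this]
      _ ≤ _ := norm_add_le _ _
  linarith

theorem exists_inv_of_le {T : E →L[ℝ] E} {c : ℝ} (hc : 0 < c) (h : ∀ v, c * ‖v‖ ≤ ‖T v‖) :
    ∃ X : E →L[ℝ] E, X ∘L T = ContinuousLinearMap.id ℝ E ∧ T ∘L X = ContinuousLinearMap.id ℝ E ∧
      ‖X‖ ≤ c⁻¹ := by
  have hinj : Injective (T : E →ₗ[ℝ] E) := by
    rw [injective_iff_map_eq_zero]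
    intro v hv
    have h1 := h v
    have h2 : T v = 0 := hv
    rw [h2, norm_zero] at h1
    have h3 : ‖v‖ = 0 := le_antisymm (by nlinarith) (norm_nonneg _)
    exact norm_eq_zero.1 h3
  set e := (LinearEquiv.ofInjectiveEndo (T : E →ₗ[ℝ] E) hinj).toContinuousLinearEquiv with he
  have het : ∀ v, e v = T v := fun v => rfl
  refine ⟨(e.symm : E →L[ℝ] E), ?_, ?_, ?_⟩
  · ext1 v
    change e.symm (T v) = v
    rw [← het]; exact e.symm_apply_apply v
  · ext1 v
    change T (e.symm v) = v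
    rw [← het]; exact e.apply_symm_apply v
  · refine ContinuousLinearMap.opNorm_le_bound _ (inv_nonneg.2 hc.le) fun v => ?_
    have h1 := h (e.symm v)
    rw [← het, e.apply_symm_apply] at h1
    change ‖e.symm v‖ ≤ _
    rw [inv_mul_eq_div, le_div_iff₀ hc, mul_comm]
    exact h1

theorem exists_Inv (q : F →L[ℝ] V) {Y : F →L[ℝ] F} (hY : ‖Y‖ ≤ 1 / 2) :
    ∃ gi hi Li, Inv q Y gi hi Li := by
  obtain ⟨gi, a1, a2, _⟩ := exists_inv_of_le (T := gg q) one_pos (fun v => by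
    rw [one_mul]; exact le_gg q v)
  obtain ⟨hi, b1, b2, _⟩ := exists_inv_of_le (T := hh q) one_pos (fun v => by
    rw [one_mul]; exact le_hh q v)
  obtain ⟨Li, c1, c2, _⟩ := exists_inv_of_le (T := gg q - Y) (c := 1 / 2) (by norm_num) (fun v => by
    have := le_gg_sub q hY v
    linarith)
  exact ⟨gi, hi, Li, a1, a2, b1, b2, c1, c2⟩

namespace Inv

variable (H : Inv q Y gi hi Li)
include H

theorem g1a (v : F) : gi (gg q v) = v := congrArg (fun T : F →L[ℝ] F => T v) H.g1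
theorem g2a (v : F) : gg q (gi v) = v := congrArg (fun T : F →L[ℝ] F => T v) H.g2
theorem h1a (v : V) : hi (hh q v) = v := congrArg (fun T : V →L[ℝ] V => T v) H.h1
theorem h2a (v : V) : hh q (hi v) = v := congrArg (fun T : V →L[ℝ] V => T v) H.h2
theorem l1a (v : F) : Li (gg q v - Y v) = v := congrArg (fun T : F →L[ℝ] F => T v) H.l1
theorem l2a (v : F) : gg q (Li v) - Y (Li v) = v := congrArg (fun T : F →L[ℝ] F => T v) H.l2

theorem norm_gi : ‖gi‖ ≤ 1 :=
  ContinuousLinearMap.opNorm_le_bound _ zero_le_one fun v => by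
    have := le_gg q (gi v)
    rw [H.g2a] at this
    linarith

theorem norm_hi : ‖hi‖ ≤ 1 :=
  ContinuousLinearMap.opNorm_le_bound _ zero_le_one fun v => by
    have := le_hh q (hi v)
    rw [H.h2a] at this
    linarith

theorem norm_Li (hY : ‖Y‖ ≤ 1 / 2) : ‖Li‖ ≤ 2 :=
  ContinuousLinearMap.opNorm_le_bound _ zero_le_two fun v => by
    have h1 := le_gg_sub q hY (Li v)
    have h2 : (gg q - Y) (Li v) = v := H.l2a v
    rw [h2] at h1
    linarith

theorem gi_adj : adj gi = gi := by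
  have h1 : gg q ∘L adj gi = ContinuousLinearMap.id ℝ F := by
    have := congrArg (fun T => adj T) H.g1
    simpa [ContinuousLinearMap.adjoint_comp, gg_adj] using this
  calc adj gi = (gi ∘L gg q) ∘L adj gi := by rw [H.g1, ContinuousLinearMap.id_comp]
    _ = gi := by rw [ContinuousLinearMap.comp_assoc, h1, ContinuousLinearMap.comp_id]

theorem hi_adj : adj hi = hi := by
  have h1 : hh q ∘L adj hi = ContinuousLinearMap.id ℝ V := by
    have := congrArg (fun T => adj T) H.h1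
    simpa [ContinuousLinearMap.adjoint_comp, hh_adj] using this
  calc adj hi = (hi ∘L hh q) ∘L adj hi := by rw [H.h1, ContinuousLinearMap.id_comp]
    _ = hi := by rw [ContinuousLinearMap.comp_assoc, h1, ContinuousLinearMap.comp_id]

theorem Li_adj (hYs : adj Y = Y) : adj Li = Li := by
  have h1 : (gg q - Y) ∘L adj Li = ContinuousLinearMap.id ℝ F := by
    have := congrArg (fun T => adj T) H.l1
    simpa [ContinuousLinearMap.adjoint_comp, gg_adj, hYs] using this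
  calc adj Li = (Li ∘L (gg q - Y)) ∘L adj Li := by rw [H.l1, ContinuousLinearMap.id_comp]
    _ = Li := by rw [ContinuousLinearMap.comp_assoc, h1, ContinuousLinearMap.comp_id]

/-- `h⁻¹ q = q g⁻¹` -/
theorem hi_q : hi ∘L q = q ∘L gi := by
  have h1 : hh q ∘L q = q ∘L gg q := by
    ext1 v; simp [hh, gg]
  calc hi ∘L q = hi ∘L (q ∘L gg q) ∘L gi := by
        rw [ContinuousLinearMap.comp_assoc, H.g2, ContinuousLinearMap.comp_id]
    _ = (hi ∘L hh q) ∘L q ∘L gi := by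
        rw [← h1]; rfl
    _ = q ∘L gi := by rw [H.h1, ContinuousLinearMap.id_comp]

theorem hi_q_apply (v : F) : hi (q v) = q (gi v) :=
  congrArg (fun T : F →L[ℝ] V => T v) H.hi_q

theorem gi_qt : gi ∘L adj q = adj q ∘L hi := by
  have := congrArg (fun T => adj T) H.hi_q
  simpa [ContinuousLinearMap.adjoint_comp, H.gi_adj, H.hi_adj] using this.symm

theorem gi_qt_apply (v : V) : gi (adj q v) = adj q (hi v) :=
  congrArg (fun T : V →L[ℝ] F => T v) H.gi_qt

/-- `L - g⁻¹ = L Y g⁻¹` -/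
theorem Li_sub : Li - gi = Li ∘L Y ∘L gi := by
  have h1 : Li ∘L gg q - Li ∘L Y = ContinuousLinearMap.id ℝ F := by
    rw [← ContinuousLinearMap.comp_sub]; exact H.l1
  calc Li - gi = (Li ∘L gg q) ∘L gi - ContinuousLinearMap.id ℝ F ∘L gi := by
        rw [ContinuousLinearMap.comp_assoc, H.g2, ContinuousLinearMap.comp_id,
          ContinuousLinearMap.id_comp]
    _ = (Li ∘L gg q - ContinuousLinearMap.id ℝ F) ∘L gi := by
        rw [ContinuousLinearMap.sub_comp]
    _ = (Li ∘L Y) ∘L gi := by rw [← h1]; congr 1; abel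
    _ = _ := by rw [ContinuousLinearMap.comp_assoc]

/-- `i = A0 g⁻¹ - B h⁻¹ q` -/
theorem i_eq : i = A0 i j q ∘L gi - BB i j q ∘L hi ∘L q := by
  ext1 v
  have h1 := H.hi_q_apply v
  have h2 : gi v + adj q (q (gi v)) = v := by
    have := H.g2a v
    simpa [gg] using this
  simp only [A0, BB, ContinuousLinearMap.sub_apply, ContinuousLinearMap.comp_apply,
    ContinuousLinearMap.add_apply, h1]
  conv_lhs => rw [← h2]
  rw [map_add]
  abel

/-- `j = B h⁻¹ + A0 g⁻¹ qᵀ` -/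
theorem j_eq : j = BB i j q ∘L hi + A0 i j q ∘L gi ∘L adj q := by
  ext1 v
  have h1 := H.gi_qt_apply v
  have h2 : hi v + q (adj q (hi v)) = v := by
    have := H.h2a v
    simpa [hh] using this
  simp only [A0, BB, ContinuousLinearMap.sub_apply, ContinuousLinearMap.comp_apply,
    ContinuousLinearMap.add_apply, h1]
  conv_lhs => rw [← h2]
  rw [map_add]
  abel

/-- decomposition of the identity: `A0 g⁻¹ A0ᵀ + B h⁻¹ Bᵀ = 1` -/
theorem decomp (h : Fr i j) : A0 i j q ∘L gi ∘L adj (A0 i j q) + BB i j q ∘L hi ∘L adj (BB i j q) =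
    ContinuousLinearMap.id ℝ E := by
  ext1 v
  have hi1 := congrArg (fun T : F →L[ℝ] E => T (adj i v)) (H.i_eq (i := i) (j := j))
  have hj1 := congrArg (fun T : V →L[ℝ] E => T (adj j v)) (H.j_eq (i := i) (j := j))
  have hf := h.full_apply v
  simp only [ContinuousLinearMap.sub_apply, ContinuousLinearMap.comp_apply,
    ContinuousLinearMap.add_apply] at hi1 hj1
  simp only [ContinuousLinearMap.add_apply, ContinuousLinearMap.comp_apply, adj_A0_apply,
    adj_BB_apply, map_add, map_sub, ContinuousLinearMap.id_apply]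
  conv_rhs => rw [← hf, hi1, hj1]
  abel

end Inv

end Crest.Agent.R234.GLK_128
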