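import Crest.Agent.R234.Main2_456
import Crest.Agent.R234.GLK1_128
import Crest.Agent.R234.GL1_394

/-!
# Row 234, node GL-INST (helper456), file 1: the foot map of a graph

`Φ(X,Y) = x + πᵀ (X - Dw(X)ᵀ Y) + ρᵀ (w X + Y)`, `foot z` = the `X` of `z`, `yy z` = the `Y` of `z`,
defined on the tube `|ρ(z-x) - w(π(z-x))| < r`.
-/

set_option autoImplicit false

open MeasureTheory Filter Topology Set Function
open scoped ENNReal NNReal ContDiff InnerProductSpace
open Crest.GeometryTopology.Submanifold Crest.Agent.R234.Vf_884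
open Crest.Agent.R234.Main_456
open Crest.Agent.R234.GLK_128 (A0 AA BB gg hh Fr Inv exists_Inv exists_inv_of_le norm_adj)

noncomputable section

namespace Crest.Agent.R234.Gi_456

variable {m n k : ℕ}

local notation "adj" => ContinuousLinearMap.adjoint

/-- the class of graph functions (scale `r`) -/
structure Gr (r : ℝ) (w : Euc m → Euc n) : Prop where
  pos : 0 < r
  cd : ContDiff ℝ 4 w
  d1 : ∀ X, ‖fderiv ℝ w X‖ ≤ 1 / 8
  d2 : ∀ X, ‖fderiv ℝ (fderiv ℝ w) X‖ ≤ 1 / (8 * r)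

/-- the tube around the graph -/
def tube (π : Euc k →L[ℝ] Euc m) (ρ : Euc k →L[ℝ] Euc n) (x : Euc k) (r : ℝ) (w : Euc m → Euc n) :
    Set (Euc k) := {z | ‖ρ (z - x) - w (π (z - x))‖ < r}

def IsFoot (π : Euc k →L[ℝ] Euc m) (ρ : Euc k →L[ℝ] Euc n) (x : Euc k) (r : ℝ) (w : Euc m → Euc n)
    (z : Euc k) (X : Euc m) : Prop :=
  X = π (z - x) + adj (fderiv ℝ w X) (ρ (z - x) - w X) ∧ ‖ρ (z - x) - w X‖ ≤ 2 * r

/-- base coordinate of the foot point -/
def foot (π : Euc k →L[ℝ] Euc m) (ρ : Euc k →L[ℝ] Euc n) (x : Euc k) (r : ℝ) (w : Euc m → Euc n)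
    (z : Euc k) : Euc m := Classical.epsilon (IsFoot π ρ x r w z)

/-- fibre coordinate -/
def yy (π : Euc k →L[ℝ] Euc m) (ρ : Euc k →L[ℝ] Euc n) (x : Euc k) (r : ℝ) (w : Euc m → Euc n)
    (z : Euc k) : Euc n := ρ (z - x) - w (foot π ρ x r w z)

/-- the chart -/
def Phi (π : Euc k →L[ℝ] Euc m) (ρ : Euc k →L[ℝ] Euc n) (x : Euc k) (w : Euc m → Euc n)
    (q : Euc m × Euc n) : Euc k :=
  x + adj π (q.1 - adj (fderiv ℝ w q.1) q.2) + adj ρ (w q.1 + q.2)

variable {π : Euc k →L[ℝ] Euc m} {ρ : Euc k →L[ℝ] Euc n} {x : Euc k} {r : ℝ} {w : Euc m → Euc n}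

/-! ### the class -/

theorem Gr.differentiable (h : Gr r w) : Differentiable ℝ w := h.cd.differentiable (by norm_num)

theorem Gr.cd1 (h : Gr r w) : ContDiff ℝ 3 (fderiv ℝ w) := h.cd.fderiv_right (by norm_num)

theorem Gr.cd2 (h : Gr r w) : ContDiff ℝ 2 (fderiv ℝ (fderiv ℝ w)) :=
  h.cd1.fderiv_right (by norm_num)

theorem Gr.differentiable' (h : Gr r w) : Differentiable ℝ (fderiv ℝ w) :=
  h.cd1.differentiable (by norm_num)

theorem Gr.lip (h : Gr r w) (X X' : Euc m) : ‖w X - w X'‖ ≤ 1 / 8 * ‖X - X'‖ :=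
  convex_univ.norm_image_sub_le_of_norm_fderiv_le (𝕜 := ℝ) (fun z _ => h.differentiable z)
    (fun z _ => h.d1 z) (mem_univ X') (mem_univ X)

theorem Gr.lip' (h : Gr r w) (X X' : Euc m) :
    ‖fderiv ℝ w X - fderiv ℝ w X'‖ ≤ 1 / (8 * r) * ‖X - X'‖ :=
  convex_univ.norm_image_sub_le_of_norm_fderiv_le (𝕜 := ℝ) (fun z _ => h.differentiable' z)
    (fun z _ => h.d2 z) (mem_univ X') (mem_univ X)

/-- Lipschitz bound of the fixed point map -/
theorem Gr.fix_lip (h : Gr r w) {b b' : Euc n} {X X' : Euc m} {t : ℝ} (ht : ‖b - w X‖ ≤ t) :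
    ‖adj (fderiv ℝ w X) (b - w X) - adj (fderiv ℝ w X') (b' - w X')‖ ≤
      (t / (8 * r) + 1 / 64) * ‖X - X'‖ + 1 / 8 * ‖b - b'‖ := by
  have hr := h.pos
  have e : adj (fderiv ℝ w X) (b - w X) - adj (fderiv ℝ w X') (b' - w X') =
      adj (fderiv ℝ w X - fderiv ℝ w X') (b - w X)
        + adj (fderiv ℝ w X') ((b - b') - (w X - w X')) := by
    have h0 : adj (fderiv ℝ w X - fderiv ℝ w X') = adj (fderiv ℝ w X) - adj (fderiv ℝ w X') :=
      map_sub _ _ _
    rw [h0]
    simp only [map_sub, _root_.sub_apply]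
    abel
  rw [e]
  have h1 : ‖adj (fderiv ℝ w X - fderiv ℝ w X') (b - w X)‖ ≤ 1 / (8 * r) * ‖X - X'‖ * t := by
    refine (ContinuousLinearMap.le_opNorm _ _).trans ?_
    rw [norm_adj]
    exact mul_le_mul (h.lip' X X') ht (norm_nonneg _) (by positivity)
  have h2 : ‖adj (fderiv ℝ w X') ((b - b') - (w X - w X'))‖ ≤
      1 / 8 * (‖b - b'‖ + 1 / 8 * ‖X - X'‖) := by
    refine (ContinuousLinearMap.le_opNorm _ _).trans ?_
    rw [norm_adj]
    refine mul_le_mul (h.d1 X') ?_ (norm_nonneg _) (by norm_num)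
    exact (norm_sub_le _ _).trans (by gcongr; exact h.lip X X')
  refine (norm_add_le _ _).trans ?_
  have h3 : 1 / (8 * r) * ‖X - X'‖ * t = t / (8 * r) * ‖X - X'‖ := by ring
  rw [h3] at h1
  linarith

/-! ### existence and uniqueness of the foot -/

theorem Gr.foot_unique (h : Gr r w) {z : Euc k} {X X' : Euc m} (h1 : IsFoot π ρ x r w z X)
    (h2 : IsFoot π ρ x r w z X') : X = X' := by
  have hr := h.pos
  have h3 := h.fix_lip (b := ρ (z - x)) (b' := ρ (z - x)) (X := X) (X' := X') h1.2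
  have h4 : X - X' = adj (fderiv ℝ w X) (ρ (z - x) - w X) - adj (fderiv ℝ w X') (ρ (z - x) - w X') := by
    have e4 : X - X' = (π (z - x) + adj (fderiv ℝ w X) (ρ (z - x) - w X)) -
        (π (z - x) + adj (fderiv ℝ w X') (ρ (z - x) - w X')) := by rw [← h1.1, ← h2.1]
    rw [e4]
    abel
  rw [← h4, sub_self, norm_zero, mul_zero, add_zero] at h3
  have h5 : 2 * r / (8 * r) = 1 / 4 := by field_simp; norm_num
  rw [h5] at h3
  have h6 : ‖X - X'‖ ≤ 0 := by
    have := norm_nonneg (X - X')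
    nlinarith
  exact sub_eq_zero.1 (norm_le_zero_iff.1 h6)

theorem Gr.exists_foot (h : Gr r w) {z : Euc k} (hz : z ∈ tube π ρ x r w) :
    ∃ X, IsFoot π ρ x r w z X ∧
      ‖X - π (z - x)‖ ≤ 1 / 4 * ‖ρ (z - x) - w (π (z - x))‖ := by
  have hr := h.pos
  set a := π (z - x) with ha
  set b := ρ (z - x) with hb
  set t := ‖b - w a‖ with ht
  have htr : t < r := hz
  have ht0 : 0 ≤ t := norm_nonneg _
  set F : Euc m → Euc m := fun X => a + adj (fderiv ℝ w X) (b - w X) with hF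
  have hb1 : ∀ X ∈ Metric.closedBall a (t / 4), ‖b - w X‖ ≤ 9 / 8 * t := by
    intro X hX
    have h1 : ‖w a - w X‖ ≤ 1 / 8 * ‖a - X‖ := h.lip a X
    have h2 : ‖a - X‖ ≤ t / 4 := by rw [norm_sub_rev]; exact mem_closedBall_iff_norm.1 hX
    have h3 : b - w X = (b - w a) + (w a - w X) := by abel
    rw [h3]
    refine (norm_add_le _ _).trans ?_
    linarith
  have hmaps : MapsTo F (Metric.closedBall a (t / 4)) (Metric.closedBall a (t / 4)) := by
    intro X hX
    rw [mem_closedBall_iff_norm]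
    have h1 : F X - a = adj (fderiv ℝ w X) (b - w X) := by simp [hF]
    rw [h1]
    refine (ContinuousLinearMap.le_opNorm _ _).trans ?_
    rw [norm_adj]
    have := mul_le_mul (h.d1 X) (hb1 X hX) (norm_nonneg _) (by norm_num)
    linarith
  have hcon : ∀ X ∈ Metric.closedBall a (t / 4), ∀ X' ∈ Metric.closedBall a (t / 4),
      dist (F X) (F X') ≤ 1 / 2 * dist X X' := by
    intro X hX X' _
    rw [dist_eq_norm, dist_eq_norm]
    have h1 := h.fix_lip (b := b) (b' := b) (X := X) (X' := X') (hb1 X hX)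
    rw [sub_self, norm_zero, mul_zero, add_zero] at h1
    have h2 : F X - F X' = adj (fderiv ℝ w X) (b - w X) - adj (fderiv ℝ w X') (b - w X') := by
      simp [hF]
    rw [h2]
    refine h1.trans (mul_le_mul_of_nonneg_right ?_ (norm_nonneg _))
    have h3 : 9 / 8 * t / (8 * r) ≤ 9 / 64 := by
      rw [div_le_iff₀ (by positivity)]
      nlinarith
    linarith
  have hK : ContractingWith (1 / 2 : ℝ≥0) (hmaps.restrict F _ _) := by
    refine ⟨by norm_num, LipschitzWith.of_dist_le_mul fun X X' => ?_⟩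
    have := hcon X X.2 X' X'.2
    show dist (F X) (F X') ≤ _
    rw [Subtype.dist_eq]
    simpa using this
  have hcomp : IsComplete (Metric.closedBall a (t / 4)) := Metric.isClosed_closedBall.isComplete
  obtain ⟨X, hX, hfix, -, -⟩ := ContractingWith.exists_fixedPoint' hcomp hmaps hK
    (Metric.mem_closedBall_self (by positivity)) (edist_ne_top _ _)
  have hfix' : F X = X := hfix
  refine ⟨X, ⟨hfix'.symm, ?_⟩, ?_⟩
  · exact (hb1 X hX).trans (by linarith)
  · have := mem_closedBall_iff_norm.1 hX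
    linarith

theorem Gr.foot_spec (h : Gr r w) {z : Euc k} (hz : z ∈ tube π ρ x r w) :
    IsFoot π ρ x r w z (foot π ρ x r w z) := by
  obtain ⟨X, hX, -⟩ := h.exists_foot hz
  exact Classical.epsilon_spec ⟨X, hX⟩

theorem Gr.foot_eq (h : Gr r w) {z : Euc k} {X : Euc m} (h1 : IsFoot π ρ x r w z X) :
    foot π ρ x r w z = X :=
  h.foot_unique (Classical.epsilon_spec ⟨X, h1⟩) h1

/-- `|foot z - π(z-x)| ≤ |height| / 4` -/
theorem Gr.norm_foot_sub (h : Gr r w) {z : Euc k} (hz : z ∈ tube π ρ x r w) :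
    ‖foot π ρ x r w z - π (z - x)‖ ≤ 1 / 4 * ‖ρ (z - x) - w (π (z - x))‖ := by
  obtain ⟨X, hX, h1⟩ := h.exists_foot hz
  rwa [h.foot_eq hX]

theorem Gr.norm_yy_sub (h : Gr r w) {z : Euc k} (hz : z ∈ tube π ρ x r w) :
    ‖yy π ρ x r w z - (ρ (z - x) - w (π (z - x)))‖ ≤
      1 / 32 * ‖ρ (z - x) - w (π (z - x))‖ := by
  have h1 : yy π ρ x r w z - (ρ (z - x) - w (π (z - x))) =
      w (π (z - x)) - w (foot π ρ x r w z) := by
    simp [yy]
  rw [h1]
  have h2 := h.lip (π (z - x)) (foot π ρ x r w z)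
  have h3 := h.norm_foot_sub hz
  rw [norm_sub_rev] at h3
  linarith

theorem Gr.norm_yy_le (h : Gr r w) {z : Euc k} (hz : z ∈ tube π ρ x r w) :
    ‖yy π ρ x r w z‖ ≤ 9 / 8 * ‖ρ (z - x) - w (π (z - x))‖ := by
  have h1 := h.norm_yy_sub hz
  have h2 := norm_le_norm_add_norm_sub' (yy π ρ x r w z) (ρ (z - x) - w (π (z - x)))
  have := norm_nonneg (ρ (z - x) - w (π (z - x)))
  linarith

theorem Gr.le_norm_yy (h : Gr r w) {z : Euc k} (hz : z ∈ tube π ρ x r w) :
    ‖ρ (z - x) - w (π (z - x))‖ ≤ 9 / 8 * ‖yy π ρ x r w z‖ := by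
  have h1 := h.norm_yy_sub hz
  have h2 := norm_le_norm_add_norm_sub (yy π ρ x r w z) (ρ (z - x) - w (π (z - x)))
  have := norm_nonneg (ρ (z - x) - w (π (z - x)))
  linarith

theorem Gr.norm_yy_lt (h : Gr r w) {z : Euc k} (hz : z ∈ tube π ρ x r w) :
    ‖yy π ρ x r w z‖ < 2 * r := by
  have h1 := h.norm_yy_le hz
  have h2 : ‖ρ (z - x) - w (π (z - x))‖ < r := hz
  have := h.pos
  linarith

theorem Gr.foot_fix (h : Gr r w) {z : Euc k} (hz : z ∈ tube π ρ x r w) :
    foot π ρ x r w z = π (z - x) +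
      adj (fderiv ℝ w (foot π ρ x r w z)) (yy π ρ x r w z) := (h.foot_spec hz).1

/-! ### coordinates of the frame -/

theorem frame_fr (hf : Frame π ρ) : Fr (adj π) (adj ρ) where
  ii := by
    have h := hf.coπ
    rw [ContinuousLinearMap.adjoint_adjoint]
    exact h
  jj := by
    have h := hf.coρ
    rw [ContinuousLinearMap.adjoint_adjoint]
    exact h
  ij := by
    rw [ContinuousLinearMap.adjoint_adjoint]
    exact hf.orth
  full := by
    rw [ContinuousLinearMap.adjoint_adjoint, ContinuousLinearMap.adjoint_adjoint]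
    exact hf.full

theorem Frame.full_apply (hf : Frame π ρ) (v : Euc k) : adj π (π v) + adj ρ (ρ v) = v :=
  congrArg (fun T : Euc k →L[ℝ] Euc k => T v) hf.full

theorem pi_adj (hf : Frame π ρ) (a : Euc m) : π (adj π a) = a :=
  congrArg (fun T : Euc m →L[ℝ] Euc m => T a) hf.coπ

theorem rho_adj (hf : Frame π ρ) (a : Euc n) : ρ (adj ρ a) = a :=
  congrArg (fun T : Euc n →L[ℝ] Euc n => T a) hf.coρ

theorem pi_adj_rho (hf : Frame π ρ) (a : Euc n) : π (adj ρ a) = 0 :=
  congrArg (fun T : Euc n →L[ℝ] Euc m => T a) hf.orth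

theorem rho_adj_pi (hf : Frame π ρ) (a : Euc m) : ρ (adj π a) = 0 := by
  have h := (frame_fr hf).ji_apply a
  rwa [ContinuousLinearMap.adjoint_adjoint] at h

theorem pi_Phi (hf : Frame π ρ) (q : Euc m × Euc n) :
    π (Phi π ρ x w q - x) = q.1 - adj (fderiv ℝ w q.1) q.2 := by
  have e : Phi π ρ x w q - x = adj π (q.1 - adj (fderiv ℝ w q.1) q.2) + adj ρ (w q.1 + q.2) := by
    simp only [Phi]; abel
  rw [e, map_add, pi_adj hf, pi_adj_rho hf, add_zero]

theorem rho_Phi (hf : Frame π ρ) (q : Euc m × Euc n) :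
    ρ (Phi π ρ x w q - x) = w q.1 + q.2 := by
  have e : Phi π ρ x w q - x = adj π (q.1 - adj (fderiv ℝ w q.1) q.2) + adj ρ (w q.1 + q.2) := by
    simp only [Phi]; abel
  rw [e, map_add, rho_adj_pi hf, rho_adj hf, zero_add]

/-- the chart and the coordinates are inverse to each other -/
theorem Gr.Phi_coord (h : Gr r w) (hf : Frame π ρ) {z : Euc k} (hz : z ∈ tube π ρ x r w) :
    Phi π ρ x w (foot π ρ x r w z, yy π ρ x r w z) = z := by
  have h1 := h.foot_fix hz
  have h2 : foot π ρ x r w z - adj (fderiv ℝ w (foot π ρ x r w z)) (yy π ρ x r w z) =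
      π (z - x) := by
    nth_rewrite 1 [h1]
    abel
  have h3 : w (foot π ρ x r w z) + yy π ρ x r w z = ρ (z - x) := by simp [yy]
  show x + adj π (foot π ρ x r w z - adj (fderiv ℝ w (foot π ρ x r w z)) (yy π ρ x r w z)) +
    adj ρ (w (foot π ρ x r w z) + yy π ρ x r w z) = z
  rw [h2, h3, add_assoc, Frame.full_apply hf]
  abel

theorem Gr.foot_Phi (h : Gr r w) (hf : Frame π ρ) {q : Euc m × Euc n} (hq : ‖q.2‖ ≤ 2 * r) :
    foot π ρ x r w (Phi π ρ x w q) = q.1 := by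
  refine h.foot_eq ⟨?_, ?_⟩
  · rw [pi_Phi hf, rho_Phi hf]
    simp
  · rw [rho_Phi hf]
    simpa using hq

theorem Gr.yy_Phi (h : Gr r w) (hf : Frame π ρ) {q : Euc m × Euc n} (hq : ‖q.2‖ ≤ 2 * r) :
    yy π ρ x r w (Phi π ρ x w q) = q.2 := by
  rw [yy, h.foot_Phi hf hq, rho_Phi hf]
  simp

/-! ### openness and continuity -/

theorem Gr.isOpen_tube (h : Gr r w) : IsOpen (tube π ρ x r w) := by
  have hc : Continuous w := h.differentiable.continuous
  exact isOpen_lt (by fun_prop) continuous_const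

theorem norm_pi_le' (hf : Frame π ρ) (v : Euc k) : ‖π v‖ ≤ ‖v‖ := by
  have h1 : ‖π‖ ≤ 1 := by
    have := (frame_fr hf).norm_i_le
    rwa [norm_adj] at this
  exact (π.le_opNorm v).trans (by nlinarith [norm_nonneg v])

theorem norm_rho_le' (hf : Frame π ρ) (v : Euc k) : ‖ρ v‖ ≤ ‖v‖ := by
  have h1 : ‖ρ‖ ≤ 1 := by
    have := (frame_fr hf).norm_j_le
    rwa [norm_adj] at this
  exact (ρ.le_opNorm v).trans (by nlinarith [norm_nonneg v])

/-- the foot map is Lipschitz -/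
theorem Gr.foot_lip (h : Gr r w) (hf : Frame π ρ) {z z' : Euc k} (hz : z ∈ tube π ρ x r w)
    (hz' : z' ∈ tube π ρ x r w) :
    ‖foot π ρ x r w z - foot π ρ x r w z'‖ ≤ 2 * ‖z - z'‖ := by
  have hr := h.pos
  set X := foot π ρ x r w z with hX
  set X' := foot π ρ x r w z' with hX'
  have h1 := h.fix_lip (b := ρ (z - x)) (b' := ρ (z' - x)) (X := X) (X' := X') (h.foot_spec hz).2
  have h2 : X - X' = π (z - z') + (adj (fderiv ℝ w X) (ρ (z - x) - w X)
      - adj (fderiv ℝ w X') (ρ (z' - x) - w X')) := by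
    have e1 : X = π (z - x) + adj (fderiv ℝ w X) (ρ (z - x) - w X) := (h.foot_spec hz).1
    have e2 : X' = π (z' - x) + adj (fderiv ℝ w X') (ρ (z' - x) - w X') := (h.foot_spec hz').1
    have e3 : π (z - z') = π (z - x) - π (z' - x) := by rw [← map_sub]; congr 1; abel
    have e4 : X - X' = (π (z - x) + adj (fderiv ℝ w X) (ρ (z - x) - w X)) -
        (π (z' - x) + adj (fderiv ℝ w X') (ρ (z' - x) - w X')) := by rw [← e1, ← e2]
    rw [e3, e4]
    abel
  have h3 : ‖π (z - z')‖ ≤ ‖z - z'‖ := norm_pi_le' hf _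
  have h4 : ‖ρ (z - x) - ρ (z' - x)‖ ≤ ‖z - z'‖ := by
    rw [← map_sub]
    have : z - x - (z' - x) = z - z' := by abel
    rw [this]
    exact norm_rho_le' hf _
  have h5 : 2 * r / (8 * r) = 1 / 4 := by field_simp; norm_num
  rw [h5] at h1
  have h6 : ‖X - X'‖ ≤ ‖z - z'‖ + ((1 / 4 + 1 / 64) * ‖X - X'‖ + 1 / 8 * ‖z - z'‖) := by
    nth_rewrite 1 [h2]
    refine (norm_add_le _ _).trans ?_
    linarith
  have := norm_nonneg (z - z')
  linarith

theorem Gr.continuousOn_foot (h : Gr r w) (hf : Frame π ρ) :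
    ContinuousOn (foot π ρ x r w) (tube π ρ x r w) := by
  have : LipschitzOnWith 2 (foot π ρ x r w) (tube π ρ x r w) :=
    LipschitzOnWith.of_dist_le_mul fun z hz z' hz' => by
      rw [dist_eq_norm, dist_eq_norm]
      exact_mod_cast h.foot_lip hf hz hz'
  exact this.continuousOn

theorem Gr.continuousOn_yy (h : Gr r w) (hf : Frame π ρ) :
    ContinuousOn (yy π ρ x r w) (tube π ρ x r w) := by
  have hc : Continuous w := h.differentiable.continuous
  have h1 : Continuous fun z : Euc k => ρ (z - x) := by fun_prop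
  exact h1.continuousOn.sub (hc.comp_continuousOn (h.continuousOn_foot hf))

/-! ### the chart as a partial homeomorphism -/

theorem Gr.contDiff_Phi (h : Gr r w) : ContDiff ℝ 3 (Phi π ρ x w) := by
  have h1 : ContDiff ℝ 3 fun q : Euc m × Euc n => fderiv ℝ w q.1 := h.cd1.comp contDiff_fst
  have h2 : ContDiff ℝ 3 fun q : Euc m × Euc n => adj (fderiv ℝ w q.1) :=
    ((ContinuousLinearMap.adjoint (𝕜 := ℝ) (E := Euc m)
      (F := Euc n)).toContinuousLinearEquiv.toContinuousLinearMap).contDiff.comp h1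
  have h3 : ContDiff ℝ 3 fun q : Euc m × Euc n => adj (fderiv ℝ w q.1) q.2 :=
    h2.clm_apply contDiff_snd
  have h4 : ContDiff ℝ 3 fun q : Euc m × Euc n => w q.1 :=
    (h.cd.of_le (by norm_num)).comp contDiff_fst
  have h5 : ContDiff ℝ 3 fun q : Euc m × Euc n => adj π (q.1 - adj (fderiv ℝ w q.1) q.2) :=
    (adj π).contDiff.comp (contDiff_fst.sub h3)
  have h6 : ContDiff ℝ 3 fun q : Euc m × Euc n => adj ρ (w q.1 + q.2) :=
    (adj ρ).contDiff.comp (h4.add contDiff_snd)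
  exact (contDiff_const.add h5).add h6

end Crest.Agent.R234.Gi_456
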