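import Crest.Agent.R234.Grot7_842

/-!
# Row 234, node GROT (helper842), part 8: scaling, heights, frame level statements
-/

set_option autoImplicit false
set_option linter.unusedSectionVars false

open Set Metric Filter Topology
open scoped ContDiff NNReal RealInnerProductSpace
open Crest.GeometryTopology.Submanifold

noncomputable section

namespace Crest.Agent.R234.Grot_842

open Crest.Agent.R234.Ell1_3 Crest.Agent.R234.Main_456

/-! ### scaling -/

section Scale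

variable {m n k : ℕ}

/-- `u` at scale `t` -/
def sc (t : ℝ) (u : Euc m → Euc n) : Euc m → Euc n := fun x => t⁻¹ • u (t • x)

theorem sc_apply (t : ℝ) (u : Euc m → Euc n) (x : Euc m) : sc t u x = t⁻¹ • u (t • x) := rfl

theorem hgt_sc (π : Euc k →L[ℝ] Euc m) (ρ : Euc k →L[ℝ] Euc n) (z : Euc k) {r t : ℝ} (ht : t ≠ 0)
    (u : Euc m → Euc n) (p : Euc k) : hgt π ρ z (t * r) (sc t u) p = hgt π ρ z r u p := by
  unfold hgt sc
  rw [smul_smul, smul_smul]
  have e1 : t * r * t⁻¹ = r := by field_simp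
  have e2 : t * (t * r)⁻¹ = r⁻¹ := by
    rw [mul_inv]; field_simp
  rw [e1, e2]

theorem sc_contDiffOn {t R : ℝ} (ht : 0 < t) {u : Euc m → Euc n}
    (hu : ContDiffOn ℝ ∞ u (ball 0 (t * R))) : ContDiffOn ℝ ∞ (sc t u) (ball 0 R) := by
  refine (ContDiffOn.comp hu (contDiff_const_smul t).contDiffOn ?_).const_smul t⁻¹
  intro x hx
  rw [mem_ball_zero_iff] at hx ⊢
  rw [norm_smul, Real.norm_of_nonneg ht.le]
  exact mul_lt_mul_of_pos_left hx ht

theorem sc_contDiff {t : ℝ} {u : Euc m → Euc n} (hu : ContDiff ℝ ∞ u) : ContDiff ℝ ∞ (sc t u) :=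
  (hu.comp (contDiff_const_smul t)).const_smul t⁻¹

/-- derivatives of the rescaled function -/
theorem iter_comp_smul {E G : Type} [NormedAddCommGroup E] [NormedSpace ℝ E]
    [NormedAddCommGroup G] [NormedSpace ℝ G] (t : ℝ) {f : E → G} {s : Set E} (hs : IsOpen s)
    (hf : ContDiffOn ℝ ∞ f s) (j : ℕ) {x : E} (hx : t • x ∈ s) :
    ‖iteratedFDeriv ℝ j (fun x => f (t • x)) x‖ ≤ ‖iteratedFDeriv ℝ j f (t • x)‖ * |t| ^ j := by
  let g : E →L[ℝ] E := t • ContinuousLinearMap.id ℝ E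
  have hg : ∀ y, g y = t • y := fun y => rfl
  have hs' : IsOpen (g ⁻¹' s) := hs.preimage g.continuous
  have h := g.iteratedFDerivWithin_comp_right (f := f) (n := ∞) hf hs.uniqueDiffOn
    hs'.uniqueDiffOn (x := x) hx (i := j) (by exact_mod_cast le_top)
  rw [iteratedFDerivWithin_of_isOpen j hs' hx, hg, iteratedFDerivWithin_of_isOpen j hs hx] at h
  have e : (f ∘ g) = fun x => f (t • x) := rfl
  rw [e] at h
  rw [h]
  refine (ContinuousMultilinearMap.norm_compContinuousLinearMap_le _ _).trans ?_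
  rw [Finset.prod_const, Finset.card_univ, Fintype.card_fin]
  have h1 : ‖g‖ ≤ |t| := by
    refine g.opNorm_le_bound (abs_nonneg _) fun y => ?_
    rw [hg, norm_smul, Real.norm_eq_abs]
  gcongr

theorem iter_sc {t R : ℝ} (ht : 0 < t) {u : Euc m → Euc n}
    (hu : ContDiffOn ℝ ∞ u (ball 0 (t * R))) {j : ℕ} (hj : 1 ≤ j) {x : Euc m}
    (hx : x ∈ ball (0 : Euc m) R) :
    ‖iteratedFDeriv ℝ j (sc t u) x‖ ≤ t ^ (j - 1) * ‖iteratedFDeriv ℝ j u (t • x)‖ := by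
  have hx' : t • x ∈ ball (0 : Euc m) (t * R) := by
    rw [mem_ball_zero_iff] at hx ⊢
    rw [norm_smul, Real.norm_of_nonneg ht.le]
    exact mul_lt_mul_of_pos_left hx ht
  have h1 : ContDiffOn ℝ ∞ (fun x => u (t • x)) (ball (0 : Euc m) R) := by
    refine ContDiffOn.comp hu (contDiff_const_smul t).contDiffOn ?_
    intro y hy
    rw [mem_ball_zero_iff] at hy ⊢
    rw [norm_smul, Real.norm_of_nonneg ht.le]
    exact mul_lt_mul_of_pos_left hy ht
  have h2 : iteratedFDeriv ℝ j (sc t u) x = t⁻¹ • iteratedFDeriv ℝ j (fun x => u (t • x)) x :=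
    iteratedFDeriv_const_smul_apply (a := t⁻¹) (f := fun x => u (t • x))
      ((h1.contDiffAt (isOpen_ball.mem_nhds hx)).of_le (by exact_mod_cast le_top))
  rw [h2, norm_smul, norm_inv, Real.norm_of_nonneg ht.le]
  have h3 := iter_comp_smul t isOpen_ball hu j hx'
  rw [abs_of_pos ht] at h3
  calc t⁻¹ * ‖iteratedFDeriv ℝ j (fun x => u (t • x)) x‖
      ≤ t⁻¹ * (‖iteratedFDeriv ℝ j u (t • x)‖ * t ^ j) := by gcongr
    _ = t ^ (j - 1) * ‖iteratedFDeriv ℝ j u (t • x)‖ := by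
        obtain ⟨i, rfl⟩ : ∃ i, j = i + 1 := ⟨j - 1, by omega⟩
        rw [Nat.add_sub_cancel, pow_succ]; field_simp

theorem fderiv_sc {t : ℝ} (ht : t ≠ 0) (u : Euc m → Euc n) (x : Euc m) :
    fderiv ℝ (sc t u) x = fderiv ℝ u (t • x) := by
  unfold sc
  have h1 : fderiv ℝ (fun x => t⁻¹ • u (t • x)) x = t⁻¹ • fderiv ℝ (fun x => u (t • x)) x :=
    congrFun (fderiv_const_smul_field (R := ℝ) (f := fun x => u (t • x)) t⁻¹) x
  rw [h1, fderiv_comp_smul, smul_smul, inv_mul_cancel₀ ht, one_smul]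

theorem Msys_sc {t : ℝ} (ht : t ≠ 0) (u : Euc m → Euc n) (x : Euc m) :
    Msys (sc t u) x = t • Msys u (t • x) := by
  unfold Msys
  have h1 : fderiv ℝ (sc t u) = fun x => fderiv ℝ u (t • x) := funext (fderiv_sc ht u)
  rw [h1]
  have h2 : fderiv ℝ (fun x => fderiv ℝ u (t • x)) x = t • fderiv ℝ (fderiv ℝ u) (t • x) :=
    fderiv_comp_smul (f := fderiv ℝ u) (x := x) t
  rw [h2, Finset.smul_sum]
  rfl

end Scale

/-! ### the rotated graph in a frame -/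

section

variable {m n k : ℕ} {π : Euc k →L[ℝ] Euc m} {ρ : Euc k →L[ℝ] Euc n}

theorem fr_norm_sq (hf : Frame π ρ) (z : Euc k) : ‖π z‖ ^ 2 + ‖ρ z‖ ^ 2 = ‖z‖ ^ 2 := by
  have h := congrArg (fun w => ⟪w, z⟫) (fr_full hf z)
  simp only [inner_add_left, ContinuousLinearMap.adjoint_inner_left,
    real_inner_self_eq_norm_sq] at h
  exact h

theorem fr_norm_π (hf : Frame π ρ) (z : Euc k) : ‖π z‖ ≤ ‖z‖ := by
  refine (sq_le_sq₀ (norm_nonneg _) (norm_nonneg _)).1 ?_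
  rw [← fr_norm_sq hf]; nlinarith [sq_nonneg ‖ρ z‖]

theorem fr_norm_ρ (hf : Frame π ρ) (z : Euc k) : ‖ρ z‖ ≤ ‖z‖ := by
  refine (sq_le_sq₀ (norm_nonneg _) (norm_nonneg _)).1 ?_
  rw [← fr_norm_sq hf]; nlinarith [sq_nonneg ‖π z‖]

variable {q : Euc m →L[ℝ] Euc n} {H : Euc m →L[ℝ] Euc m} {H' : Euc n →L[ℝ] Euc n}

theorem norm_rπ_sub (hf : Frame π ρ) (h : Rt q H H') (z : Euc k) :
    ‖rπ π ρ q H z - π z‖ ≤ (‖q‖ ^ 2 + ‖q‖) * ‖z‖ := by
  rw [rπ_apply, map_add]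
  have e : H (π z) + H (ContinuousLinearMap.adjoint q (ρ z)) - π z =
      (H (π z) - π z) + H (ContinuousLinearMap.adjoint q (ρ z)) := by abel
  rw [e]
  have h1 := (h.near (π z)).trans (mul_le_mul_of_nonneg_left (fr_norm_π hf z) (by positivity))
  have h2 : ‖H (ContinuousLinearMap.adjoint q (ρ z))‖ ≤ ‖q‖ * ‖z‖ := by
    refine (h.le _).trans ((ContinuousLinearMap.le_opNorm _ _).trans ?_)
    rw [LinearIsometryEquiv.norm_map]
    have := fr_norm_ρ hf z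
    gcongr
  calc _ ≤ ‖q‖ ^ 2 * ‖z‖ + ‖q‖ * ‖z‖ := (norm_add_le _ _).trans (add_le_add h1 h2)
    _ = _ := by ring

theorem norm_rρ_sub (hf : Frame π ρ) (h : Rt q H H') (z : Euc k) :
    ‖rρ π ρ q H' z - ρ z‖ ≤ (‖q‖ ^ 2 + ‖q‖) * ‖z‖ := by
  rw [rρ_apply, map_sub]
  have e : H' (ρ z) - H' (q (π z)) - ρ z = (H' (ρ z) - ρ z) - H' (q (π z)) := by abel
  rw [e]
  have h1 := (h.near' (ρ z)).trans (mul_le_mul_of_nonneg_left (fr_norm_ρ hf z) (by positivity))
  have h2 : ‖H' (q (π z))‖ ≤ ‖q‖ * ‖z‖ := by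
    refine (h.le' _).trans ((ContinuousLinearMap.le_opNorm _ _).trans ?_)
    have := fr_norm_π hf z
    gcongr
  calc _ ≤ ‖q‖ ^ 2 * ‖z‖ + ‖q‖ * ‖z‖ := (norm_sub_le _ _).trans (add_le_add h1 h2)
    _ = _ := by ring

/-- the plane `ker ρ'` is the tangent plane of the graph -/
theorem rρ_tangent (hf : Frame π ρ) (a : Euc m) :
    rρ π ρ q H' (ContinuousLinearMap.adjoint π a + ContinuousLinearMap.adjoint ρ (q a)) = 0 := by
  rw [rρ_apply]
  simp only [map_add, fr_ππ hf, fr_ρρ hf, fr_πρ hf, fr_ρπ hf, add_zero, zero_add, sub_self,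
    map_zero]

variable {K : ℕ} {C κ : ℝ} {v w : Euc m → Euc n}

theorem Rot.frame (hf : Frame π ρ) (h : Rot q H H' K C κ v w) :
    Frame (rπ π ρ q H) (rρ π ρ q H') := frame_rot hf h.rt

/-- the exact relation of the coordinates -/
theorem Rot.hgt_eq (h : Rot q H H' K C κ v w) (z p : Euc k) {r : ℝ} (hr : 0 < r)
    (hp : ‖π (p - z)‖ ≤ 15 / 16 * r) :
    hgt (rπ π ρ q H) (rρ π ρ q H') z r w p = H' (hgt π ρ z r v p) -
      r • (w (H (r⁻¹ • π (p - z) + ContinuousLinearMap.adjoint q (v (r⁻¹ • π (p - z)))) +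
        H (ContinuousLinearMap.adjoint q (r⁻¹ • hgt π ρ z r v p))) -
        w (H (r⁻¹ • π (p - z) + ContinuousLinearMap.adjoint q (v (r⁻¹ • π (p - z)))))) := by
  set a : Euc m := r⁻¹ • π (p - z) with ha
  have ha1 : a ∈ closedBall (0 : Euc m) (15 / 16) := by
    rw [mem_closedBall_zero_iff, ha, norm_smul, norm_inv, Real.norm_of_nonneg hr.le]
    rw [inv_mul_le_iff₀ hr]; linarith
  have hg := h.graph a ha1
  have hra : r • a = π (p - z) := by rw [ha, smul_smul, mul_inv_cancel₀ hr.ne', one_smul]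
  have hρ : ρ (p - z) = hgt π ρ z r v p + r • v a := by
    unfold hgt; rw [← ha]; abel
  have e1 : r⁻¹ • rπ π ρ q H (p - z) = H (a + ContinuousLinearMap.adjoint q (v a)) +
      H (ContinuousLinearMap.adjoint q (r⁻¹ • hgt π ρ z r v p)) := by
    rw [rπ_apply, hρ, ← hra]
    simp only [map_add, map_smul, smul_add, smul_smul, inv_mul_cancel₀ hr.ne', one_smul]
    abel
  rw [hg]
  have e0 : hgt (rπ π ρ q H) (rρ π ρ q H') z r w p = rρ π ρ q H' (p - z) -
      r • w (r⁻¹ • rπ π ρ q H (p - z)) := rfl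
  rw [e0, e1, rρ_apply, hρ, ← hra]
  simp only [map_add, map_sub, map_smul, smul_sub]
  abel

theorem Rot.lip (h : Rot q H H' K C κ v w) (x y : Euc m) : ‖w x - w y‖ ≤ C * κ * ‖x - y‖ := by
  refine Convex.norm_image_sub_le_of_norm_hasFDerivWithin_le (𝕜 := ℝ)
    (f := w) (f' := fun z => fderiv ℝ w z) (s := univ) (C := C * κ)
    (fun z _ => ((h.smooth.differentiable (by simp)) z).hasFDerivAt.hasFDerivWithinAt)
    (fun z _ => ?_) convex_univ (mem_univ y) (mem_univ x)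
  have h1 := h.bound 1 le_rfl (by omega) z
  rwa [← norm_iteratedFDeriv_fderiv, norm_iteratedFDeriv_zero] at h1

/-- **comparison of heights** -/
theorem Rot.hgt_sub (h : Rot q H H' K C κ v w) (hC : 1 ≤ C) (z p : Euc k) {r : ℝ}
    (hr : 0 < r) (hp : ‖π (p - z)‖ ≤ 15 / 16 * r) :
    ‖hgt (rπ π ρ q H) (rρ π ρ q H') z r w p - hgt π ρ z r v p‖ ≤
      2 * C * κ ^ 2 * ‖hgt π ρ z r v p‖ := by
  have hκ0 : 0 ≤ κ := (norm_nonneg _).trans h.q_le
  rw [h.hgt_eq z p hr hp]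
  set t := hgt π ρ z r v p with ht
  set X := H (r⁻¹ • π (p - z) + ContinuousLinearMap.adjoint q (v (r⁻¹ • π (p - z)))) with hX
  set Y := H (ContinuousLinearMap.adjoint q (r⁻¹ • t)) with hY
  have h1 : ‖Y‖ ≤ κ * (r⁻¹ * ‖t‖) := by
    refine (h.rt.le _).trans ((ContinuousLinearMap.le_opNorm _ _).trans ?_)
    rw [LinearIsometryEquiv.norm_map, norm_smul, norm_inv, Real.norm_of_nonneg hr.le]
    have := h.q_le
    gcongr
  have h2 : ‖w (X + Y) - w X‖ ≤ C * κ * (κ * (r⁻¹ * ‖t‖)) := by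
    refine (h.lip _ _).trans ?_
    rw [add_sub_cancel_left]
    gcongr
  have h3 : ‖H' t - t‖ ≤ κ ^ 2 * ‖t‖ := by
    refine (h.rt.near' t).trans ?_
    have := h.q_le
    gcongr
  have e : H' t - r • (w (X + Y) - w X) - t = (H' t - t) - r • (w (X + Y) - w X) := by abel
  rw [e]
  calc ‖(H' t - t) - r • (w (X + Y) - w X)‖ ≤ κ ^ 2 * ‖t‖ + r * (C * κ * (κ * (r⁻¹ * ‖t‖))) := by
        refine (norm_sub_le _ _).trans (add_le_add h3 ?_)
        rw [norm_smul, Real.norm_of_nonneg hr.le]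
        gcongr
    _ = κ ^ 2 * ‖t‖ + C * κ ^ 2 * ‖t‖ := by field_simp
    _ ≤ C * κ ^ 2 * ‖t‖ + C * κ ^ 2 * ‖t‖ := by
        have : 1 * (κ ^ 2 * ‖t‖) ≤ C * (κ ^ 2 * ‖t‖) := by gcongr
        linarith
    _ = _ := by ring

theorem two_le_inf : (2 : WithTop ℕ∞) ≤ ∞ := by
  have h : ((2 : ℕ∞) : WithTop ℕ∞) ≤ ((⊤ : ℕ∞) : WithTop ℕ∞) := WithTop.coe_le_coe.2 le_top
  exact h

/-- **the rotated graph is minimal** -/
theorem Rot.msys (h : Rot q H H' K C κ v w) (hv : ContDiffOn ℝ ∞ v (ball 0 1))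
    (hM : ∀ x ∈ ball (0 : Euc m) 1, Msys v x = 0) : ∀ y ∈ ball (0 : Euc m) (7 / 8), Msys w y = 0 := by
  intro y hy
  obtain ⟨a, ha, rfl⟩ := h.surj y hy
  have ha1 : a ∈ ball (0 : Euc m) 1 := by
    rw [mem_ball_zero_iff] at ha ⊢; linarith
  have h1 := ms_rot (EuclideanSpace.basisFun (Fin m) ℝ) h.rt (v := v) (w := w) (a := a)
    ((hv.contDiffAt (isOpen_ball.mem_nhds ha1)).of_le two_le_inf)
    (h.smooth.contDiffAt.of_le two_le_inf) ?_
  · rw [ms_std, ms_std, hM a ha1] at h1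
    simpa using h1
  · filter_upwards [isOpen_ball.mem_nhds ha] with x hx
    exact h.graph x (ball_subset_closedBall hx)

end

end Crest.Agent.R234.Grot_842
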