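import Crest.Agent.R234.F10u_188
import Crest.Agent.R234.Grot8_842
import Crest.Agent.R234.Gi1_456

/-!
# Row 234, (F8) START, part v (helper188): heights under the rotation of the frame about the foot of `x`

`M` = graph of `u` in the frame `(π, ρ)`, unit `t`, base point `x`; `X0` = foot of `x` on `M`
(`X0 = - q† (u X0)`, `q = Du(X0)`); new frame `(rπ, rρ)`, the base point stays `x`, the new function
`u'` with `u' 0 = c = H' (u X0 - q X0)`.
-/

set_option autoImplicit false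
set_option linter.unusedVariables false

open MeasureTheory Filter Topology Set
open scoped ENNReal NNReal ContDiff
open Crest.GeometryTopology.Submanifold Crest.Agent.R234.Vf_884
open Crest.Agent.R234.Main_456 (Frame Msys hgt)
open Crest.Agent.R234.MG_570 Crest.Agent.R234.Top_395 Crest.Agent.R234.F10u_188
open Crest.Agent.R234.Grot_842

noncomputable section

namespace Crest.Agent.R234.F10v_188

variable {m n k : ℕ} {V : Measure (Euc k × L k)} {π : Euc k →L[ℝ] Euc m}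
  {ρ : Euc k →L[ℝ] Euc n} {x : Euc k} {t : ℝ} {q : Euc m →L[ℝ] Euc n} {H : Euc m →L[ℝ] Euc m}
  {H' : Euc n →L[ℝ] Euc n} {u u' : Euc m → Euc n} {X0 : Euc m} {c : Euc n}

/-- coordinates of a point in the two frames. -/
theorem coords (h : Rt q H H') (ht : 0 < t)
    (hX : X0 + ContinuousLinearMap.adjoint q (u X0) = 0) (p : Euc k) {a y : Euc m}
    (ha : X0 + a = t⁻¹ • π (p - x))
    (hy : y = H (a + ContinuousLinearMap.adjoint q (u (X0 + a) - u X0))) :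
    ∃ η : Euc n, hgt π ρ x t u p = t • η ∧ ρ (p - x) = t • (u (X0 + a) + η) ∧
      rπ π ρ q H (p - x) = t • (y + H (ContinuousLinearMap.adjoint q η)) ∧
      ‖H (ContinuousLinearMap.adjoint q η)‖ ≤ ‖q‖ * ‖η‖ := by
  obtain ⟨η, hη⟩ : ∃ η, η = t⁻¹ • ρ (p - x) - u (X0 + a) := ⟨_, rfl⟩
  have ht' := ht.ne'
  have e1 : π (p - x) = t • (X0 + a) := by
    rw [ha, smul_smul, mul_inv_cancel₀ ht', one_smul]
  have e2 : ρ (p - x) = t • (u (X0 + a) + η) := by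
    rw [hη, add_sub_cancel, smul_smul, mul_inv_cancel₀ ht', one_smul]
  refine ⟨η, ?_, e2, ?_, ?_⟩
  · unfold hgt
    rw [← ha, e2, smul_add]
    abel
  · rw [rπ_apply, e1, e2, map_smul, ← smul_add, map_smul, hy, ← map_add]
    congr 2
    rw [map_add, map_sub]
    have : a + (ContinuousLinearMap.adjoint q (u (X0 + a)) - ContinuousLinearMap.adjoint q (u X0)) +
        ContinuousLinearMap.adjoint q η =
        (X0 + a + (ContinuousLinearMap.adjoint q (u (X0 + a)) + ContinuousLinearMap.adjoint q η)) -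
          (X0 + ContinuousLinearMap.adjoint q (u X0)) := by abel
    rw [this, hX, sub_zero]
  · refine (h.le _).trans ((ContinuousLinearMap.le_opNorm _ _).trans ?_)
    rw [LinearIsometryEquiv.norm_map]

/-- base coordinates in the two frames. -/
theorem base_rot (h : Rt q H H') (ht : 0 < t)
    (hX : X0 + ContinuousLinearMap.adjoint q (u X0) = 0) (p : Euc k) {a y : Euc m}
    (ha : X0 + a = t⁻¹ • π (p - x))
    (hy : y = H (a + ContinuousLinearMap.adjoint q (u (X0 + a) - u X0))) :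
    ‖t⁻¹ • rπ π ρ q H (p - x) - y‖ ≤ ‖q‖ * (t⁻¹ * ‖hgt π ρ x t u p‖) := by
  obtain ⟨η, e3, -, e4, hηn⟩ := coords (ρ := ρ) h ht hX p ha hy
  have ht' := ht.ne'
  rw [e4, smul_smul, inv_mul_cancel₀ ht', one_smul, add_sub_cancel_left, e3, norm_smul,
    Real.norm_of_nonneg ht.le, ← mul_assoc t⁻¹, inv_mul_cancel₀ ht', one_mul]
  exact hηn

/-- heights over the rotated graph, at one point. -/
theorem hgt_rot (h : Rt q H H') (ht : 0 < t)
    (hX : X0 + ContinuousLinearMap.adjoint q (u X0) = 0) (hc : c = H' (u X0 - q X0))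
    (hlip : ∀ y y', ‖u' y - u' y'‖ ≤ ‖y - y'‖) (hq : ‖q‖ ≤ 1) (p : Euc k) {a y : Euc m}
    (ha : X0 + a = t⁻¹ • π (p - x))
    (hy : y = H (a + ContinuousLinearMap.adjoint q (u (X0 + a) - u X0)))
    (hrel : u' y - c = H' (u (X0 + a) - u X0 - q a)) :
    ‖hgt (rπ π ρ q H) (rρ π ρ q H') x t u' p‖ ≤ 2 * ‖hgt π ρ x t u p‖ := by
  obtain ⟨η, e3, e2, e4, hηn⟩ := coords (ρ := ρ) h ht hX p ha hy
  have ht' := ht.ne'
  have e1 : π (p - x) = t • (X0 + a) := by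
    rw [ha, smul_smul, mul_inv_cancel₀ ht', one_smul]
  have e5 : rρ π ρ q H' (p - x) = t • (u' y + H' η) := by
    rw [rρ_apply, e1, e2, map_smul, ← smul_sub, map_smul]
    congr 1
    have e6 : u (X0 + a) + η - q (X0 + a) =
        (u (X0 + a) - u X0 - q a) + (u X0 - q X0) + η := by
      rw [map_add]; abel
    rw [e6, map_add, map_add, ← hrel, ← hc]
    abel
  have e7 : hgt (rπ π ρ q H) (rρ π ρ q H') x t u' p =
      t • (H' η - (u' (y + H (ContinuousLinearMap.adjoint q η)) - u' y)) := by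
    unfold hgt
    rw [e4, e5, smul_smul, inv_mul_cancel₀ ht', one_smul, ← smul_sub]
    congr 1
    abel
  rw [e7, e3, norm_smul, norm_smul, Real.norm_of_nonneg ht.le]
  have h1 : ‖H' η - (u' (y + H (ContinuousLinearMap.adjoint q η)) - u' y)‖ ≤ ‖η‖ + ‖q‖ * ‖η‖ := by
    refine (norm_sub_le _ _).trans (add_le_add (h.le' _) ?_)
    refine (hlip _ _).trans ?_
    rw [add_sub_cancel_left]
    exact hηn
  have h2 : ‖q‖ * ‖η‖ ≤ ‖η‖ := mul_le_of_le_one_left (norm_nonneg _) hq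
  calc t * ‖H' η - (u' (y + H (ContinuousLinearMap.adjoint q η)) - u' y)‖
      ≤ t * (2 * ‖η‖) := mul_le_mul_of_nonneg_left (by linarith) ht.le
    _ = 2 * (t * ‖η‖) := by ring

/-- comparison of the cylinders of the two frames. -/
theorem norm_π_le (hf : Frame π ρ) (h : Rt q H H') (hq : ‖q‖ ≤ 1) (z : Euc k) :
    ‖π z‖ ≤ ‖rπ π ρ q H z‖ + 2 * ‖q‖ * ‖z‖ := by
  have h1 := norm_rπ_sub hf h z
  have h2 : ‖π z‖ ≤ ‖rπ π ρ q H z‖ + ‖rπ π ρ q H z - π z‖ := by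
    have := norm_sub_norm_le (π z) (rπ π ρ q H z)
    rw [norm_sub_rev] at this
    linarith
  have h3 : (‖q‖ ^ 2 + ‖q‖) * ‖z‖ ≤ 2 * ‖q‖ * ‖z‖ := by
    refine mul_le_mul_of_nonneg_right ?_ (norm_nonneg _)
    nlinarith [norm_nonneg q]
  linarith

theorem norm_of_Cyl (hf : Frame π ρ) {A : ℝ} (hA : A ≤ 2) (hA0 : 0 ≤ A) (ht : 0 < t) {z : Euc k}
    (hz : z ∈ Cyl π ρ x (A * t) t) : ‖z - x‖ ≤ 5 / 2 * t := by
  have h1 := Grot_842.fr_norm_sq hf (z - x)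
  obtain ⟨h2, h3⟩ := hz
  refine (sq_le_sq₀ (norm_nonneg _) (by positivity)).1 ?_
  rw [← h1]
  have h4 : ‖π (z - x)‖ ^ 2 ≤ (A * t) ^ 2 := by gcongr
  have h5 : ‖ρ (z - x)‖ ^ 2 ≤ t ^ 2 := by gcongr
  have h6 : (A * t) ^ 2 ≤ 4 * t ^ 2 := by
    rw [mul_pow]
    exact mul_le_mul_of_nonneg_right (by nlinarith) (sq_nonneg t)
  nlinarith

/-- **sup of the heights under rotation.** -/
theorem rot_sup (hf : Frame π ρ) (h : Rt q H H') (ht : 0 < t)
    (hX : X0 + ContinuousLinearMap.adjoint q (u X0) = 0) (hc : c = H' (u X0 - q X0))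
    (hlip : ∀ y y', ‖u' y - u' y'‖ ≤ ‖y - y'‖) (hq : ‖q‖ ≤ 1) {r R' r' hh : ℝ}
    (hfwd : ∀ a ∈ Metric.ball (0 : Euc m) r, ∀ y ∈ Metric.ball (0 : Euc m) R',
      H (a + ContinuousLinearMap.adjoint q (u (X0 + a) - u X0)) = y →
        u' y - c = H' (u (X0 + a) - u X0 - q a))
    (hr2 : r ≤ 2) (hr'0 : 0 ≤ r') (hr' : r' + 5 * ‖q‖ + ‖X0‖ < r) (hR' : r' + ‖q‖ * hh < R')
    (hsup : ∀ᵐ p ∂V, p.1 ∈ Metric.ball x (4 * t) → ‖ρ (p.1 - x)‖ ≤ t)
    (hhgt : ∀ᵐ p ∂V, p.1 ∈ Cyl π ρ x (r * t) t → ‖hgt π ρ x t u p.1‖ ≤ hh * t) :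
    ∀ᵐ p ∂V, p.1 ∈ Cyl (rπ π ρ q H) (rρ π ρ q H') x (r' * t) t →
      ‖hgt (rπ π ρ q H) (rρ π ρ q H') x t u' p.1‖ ≤ 2 * hh * t := by
  filter_upwards [hsup, hhgt] with p h1 h2 hp
  have hq0 := norm_nonneg q
  have hX0 := norm_nonneg X0
  have hz : ‖p.1 - x‖ ≤ 5 / 2 * t :=
    norm_of_Cyl (frame_rot hf h) (by linarith) hr'0 ht hp
  have hb : p.1 ∈ Metric.ball x (4 * t) := by
    rw [Metric.mem_ball, dist_eq_norm]; linarith
  have hρ := h1 hb
  have hπ : ‖π (p.1 - x)‖ ≤ (r' + 5 * ‖q‖) * t := by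
    have h3 := norm_π_le hf h hq (p.1 - x)
    have h4 : 2 * ‖q‖ * ‖p.1 - x‖ ≤ 2 * ‖q‖ * (5 / 2 * t) :=
      mul_le_mul_of_nonneg_left hz (by positivity)
    have h5 := hp.1
    linarith
  have hcyl : p.1 ∈ Cyl π ρ x (r * t) t := by
    refine ⟨hπ.trans ?_, hρ⟩
    exact mul_le_mul_of_nonneg_right (by linarith) ht.le
  have hη := h2 hcyl
  set a := t⁻¹ • π (p.1 - x) - X0 with ha
  have ha' : X0 + a = t⁻¹ • π (p.1 - x) := by rw [ha]; abel
  have han : ‖a‖ < r := by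
    have h6 : ‖t⁻¹ • π (p.1 - x)‖ ≤ r' + 5 * ‖q‖ := by
      rw [norm_smul, norm_inv, Real.norm_of_nonneg ht.le, inv_mul_le_iff₀ ht]
      linarith
    calc ‖a‖ ≤ ‖t⁻¹ • π (p.1 - x)‖ + ‖X0‖ := norm_sub_le _ _
      _ < r := by linarith
  set y := H (a + ContinuousLinearMap.adjoint q (u (X0 + a) - u X0)) with hy
  have key := base_rot (π := π) (ρ := ρ) (x := x) h ht hX p.1 ha' hy
  have hyn : ‖y‖ < R' := by
    have h6 : ‖t⁻¹ • rπ π ρ q H (p.1 - x)‖ ≤ r' := by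
      rw [norm_smul, norm_inv, Real.norm_of_nonneg ht.le, inv_mul_le_iff₀ ht]
      have := hp.1
      linarith
    have h7 : ‖q‖ * (t⁻¹ * ‖hgt π ρ x t u p.1‖) ≤ ‖q‖ * hh := by
      refine mul_le_mul_of_nonneg_left ?_ hq0
      rw [inv_mul_le_iff₀ ht]; linarith
    have h8 : ‖y‖ ≤ ‖t⁻¹ • rπ π ρ q H (p.1 - x)‖ + ‖t⁻¹ • rπ π ρ q H (p.1 - x) - y‖ := by
      have := norm_sub_norm_le y (t⁻¹ • rπ π ρ q H (p.1 - x))
      rw [norm_sub_rev] at this
      linarith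
    linarith
  have hrel := hfwd a (by rwa [mem_ball_zero_iff]) y (by rwa [mem_ball_zero_iff]) rfl
  have h9 := hgt_rot (π := π) (ρ := ρ) (x := x) h ht hX hc hlip hq p.1 ha' hy hrel
  linarith

/-- the foot of the base point. -/
theorem exists_foot0 (hf : Frame π ρ) (hu : Gi_456.Gr 1 u) (h0 : ‖u 0‖ < 1) :
    ∃ X0 : Euc m, X0 + ContinuousLinearMap.adjoint (fderiv ℝ u X0) (u X0) = 0 ∧
      ‖X0‖ ≤ 1 / 4 * ‖u 0‖ ∧ ‖u X0‖ ≤ 2 * ‖u 0‖ := by
  obtain ⟨X, h1, h2⟩ := hu.exists_foot (π := π) (ρ := ρ) (x := (0 : Euc k)) (z := (0 : Euc k)) (by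
    show ‖ρ ((0 : Euc k) - 0) - u (π ((0 : Euc k) - 0))‖ < 1
    rw [sub_self, map_zero, map_zero, zero_sub, norm_neg]; exact h0)
  have h3 := h1.1
  rw [sub_self, map_zero, map_zero, zero_add, zero_sub] at h3
  rw [sub_self, map_zero, map_zero, sub_zero, zero_sub, norm_neg] at h2
  refine ⟨X, ?_, h2, ?_⟩
  · have h4 : ContinuousLinearMap.adjoint (fderiv ℝ u X) (u X) = -X := by
      rw [← neg_eq_iff_eq_neg, ← map_neg]; exact h3.symm
    rw [h4, add_neg_cancel]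
  · have h4 := hu.lip X 0
    rw [sub_zero] at h4
    have h5 := norm_sub_norm_le (u X) (u 0)
    have := norm_nonneg (u 0)
    linarith

end Crest.Agent.R234.F10v_188
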