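import Crest.Agent.R234.Stp1_518
import Crest.Agent.R234.F10v_188
import Crest.Agent.R234.F10t_188

/-!
# Row 234, (F8) START, part w (helper188): DEFINITIONS (pre-states) and the literal open inputs

* `Bk N U D Q x ε₀ Λ M l` : the reference `M` (518's `Mo`) with the flat package of its block, class
  `MG` on the ball of radius `e^l`.
* `Pst c V x M l` : pre-state of the start (exactly tangent frame, `M.Lb` = book-keeping `Λ`).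
* `SupV`, `UpV`, `LowV`, `PosV`, `MonV`, `RotI` : open V-level inputs of the start.
-/

set_option autoImplicit false
set_option linter.unusedVariables false

open MeasureTheory Filter Topology Set
open scoped ENNReal NNReal ContDiff
open Crest.GeometryTopology.Submanifold Crest.Agent.R234.Vf_884
open Crest.Agent.R234.Main_456 (Frame Msys hgt)
open Crest.Agent.R234.AS_456 (hp vp)
open Crest.Agent.R234.F10a_188 Crest.Agent.R234.F10b_188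
open Crest.Agent.R234.MG_570 (MG)
open Crest.Agent.R234.Top_395 Crest.Agent.R234.Stp_518
open Crest.Agent.R234.Grot_842 (Rt rπ rρ)

noncomputable section

namespace Crest.Agent.R234.F10w_188

variable {m n k : ℕ}

/-- a reference with its block: minimal on the ball of radius `e^l` about `0`. -/
structure Bk (N : ℕ) (U : Set (Euc k)) (D : VarifoldData m k) (Q : ℕ) (x : Euc k) (ε₀ Λ : ℝ)
    (M : Mo m n k) (l : ℝ) : Prop where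
  opn : IsOpen U
  int : IsIntegralVarifoldIn U D
  st : IsStationaryIn U D
  Q1 : 1 ≤ Q
  Th : Th m (VD D) x = (Q : ℝ≥0∞)
  sub : Metric.closedBall x (8 * M.S) ⊆ U
  pack : FlatPack D x Q M.S ε₀ Λ M.π M.ρ
  κ0 : 0 ≤ M.κ
  mg : MG N M.κ (Real.exp (l - M.lb)) M.u
  lo : M.lb - 3 ≤ l
  hi : l ≤ M.lb - 1 / 16

theorem Bk.mono {N : ℕ} {U : Set (Euc k)} {D : VarifoldData m k} {Q : ℕ} {x : Euc k} {ε₀ Λ : ℝ}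
    {M : Mo m n k} {l l' : ℝ} (h : Bk N U D Q x ε₀ Λ M l) (h1 : M.lb - 3 ≤ l') (h2 : l' ≤ l) :
    Bk N U D Q x ε₀ Λ M l' :=
  ⟨h.opn, h.int, h.st, h.Q1, h.Th, h.sub, h.pack, h.κ0,
    h.mg.mono le_rfl (Real.exp_le_exp.2 (by linarith)), h1, h2.trans h.hi⟩

/-- **sup of the heights over the smaller cylinder** (crude bound `ε/8 e^l` and slope `≤ ε/64` at
the centre given). -/
def SupV : Prop := ∀ (m n k N Q : ℕ) (Λ : ℝ), 1 ≤ m → 2 ≤ N → ∃ κ₁ ε₁ C : ℝ, 0 < κ₁ ∧ 0 < ε₁ ∧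
  0 < C ∧ ∃ pw : ℕ, ∀ (U : Set (Euc k)) (D : VarifoldData m k) (x : Euc k) (ε₀ : ℝ) (M : Mo m n k)
    (l : ℝ), Bk N U D Q x ε₀ Λ M l → M.κ ≤ κ₁ → ε₀ ≤ ε₁ → ∀ ε : ℝ, 0 < ε → ε ≤ 1 / 4 →
      64 * ‖fderiv ℝ M.u 0‖ ≤ ε →
      (∀ᵐ p ∂(VD D), ‖M.π (p.1 - x)‖ ≤ Real.exp l → ‖M.ρ (p.1 - x)‖ ≤ M.S →
        ‖hgt M.π M.ρ x M.S M.u p.1‖ ≤ ε / 8 * Real.exp l) →
      ∀ᵐ p ∂(VD D), ‖M.π (p.1 - x)‖ ≤ Real.exp (l - ε) → ‖M.ρ (p.1 - x)‖ ≤ M.S →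
        ‖hgt M.π M.ρ x M.S M.u p.1‖ ^ 2 ≤ C / ε ^ pw * M.I x (VD D) l

/-- **two references in the same frame**: `I_{M'}(l₁) ≤ C ε^{-2} (I_M(l) + τ² S²)`, `l₁ ≤ l - ε`. -/
def UpV : Prop := ∀ (m n k N Q : ℕ) (Λ : ℝ), 1 ≤ m → 2 ≤ N → ∃ κ₁ ε₁ C : ℝ, 0 < κ₁ ∧ 0 < ε₁ ∧
  0 < C ∧ ∀ (U : Set (Euc k)) (D : VarifoldData m k) (x : Euc k) (ε₀ : ℝ) (M M' : Mo m n k)
    (l l₁ ε τ : ℝ), Bk N U D Q x ε₀ Λ M l → M.κ ≤ κ₁ → ε₀ ≤ ε₁ → M'.π = M.π → M'.ρ = M.ρ →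
      M'.lb = M.lb → MG N κ₁ 0 M'.u → 0 < ε → ε ≤ 1 / 4 → l₁ ≤ l - ε → M.lb - 3 ≤ l₁ →
      (∀ X, ‖M'.u X - M.u X‖ ≤ τ) → (∀ X, ‖fderiv ℝ M'.u X - fderiv ℝ M.u X‖ ≤ τ) →
      10000 * τ ≤ ε →
      M'.I x (VD D) l₁ ≤ C / ε ^ 2 * (M.I x (VD D) l + τ ^ 2 * M.S ^ 2)

/-- **lower bound of `I`** by the heights in a smaller ball (easy half of the comparison). -/
def LowV : Prop := ∀ (m n k N : ℕ) (T : ℝ), 1 ≤ m → 2 ≤ N → ∃ κ₁ C : ℝ, 0 < κ₁ ∧ 0 < C ∧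
  ∀ (V : Measure (Euc k × L k)) (x : Euc k) (M : Mo m n k) (l : ℝ), Frame M.π M.ρ → 0 ≤ M.κ →
    M.κ ≤ κ₁ → MG N M.κ 0 M.u → M.lb - T ≤ l → l ≤ M.lb →
    V (Metric.closedBall x (8 * M.S) ×ˢ univ) < ⊤ →
    Real.exp (-((m + 2) * (l - 3))) *
      ∫ p in Prod.fst ⁻¹' (Metric.ball x (Real.exp (l - 3))), ‖hgt M.π M.ρ x M.S M.u p.1‖ ^ 2 ∂V ≤
        C * (Real.exp (-2 * l) * M.I x V l)

/-- **positivity** at singular points. -/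
def PosV : Prop := ∀ (m n k N Q : ℕ) (Λ : ℝ), 1 ≤ m → 2 ≤ N → ∃ κ₁ ε₁ : ℝ, 0 < κ₁ ∧ 0 < ε₁ ∧
  ∀ (U : Set (Euc k)) (D : VarifoldData m k) (x : Euc k) (ε₀ : ℝ) (M : Mo m n k) (l : ℝ),
    Bk N U D Q x ε₀ Λ M l → M.κ ≤ κ₁ → ε₀ ≤ ε₁ → x ∈ singularSet m k U D → 0 < M.I x (VD D) l

/-- **monotonicity** of `e^{ml} I` and `e^{ml} e`. -/
def MonV : Prop := ∀ (m n k N Q : ℕ) (Λ : ℝ), 3 ≤ m → 2 ≤ N → ∃ κ₁ ε₁ : ℝ, 0 < κ₁ ∧ 0 < ε₁ ∧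
  ∀ (U : Set (Euc k)) (D : VarifoldData m k) (x : Euc k) (ε₀ : ℝ) (M : Mo m n k) (l : ℝ),
    Bk N U D Q x ε₀ Λ M l → M.κ ≤ κ₁ → ε₀ ≤ ε₁ → ∀ l₁ l₂ : ℝ, l₁ ≤ l₂ → l₂ ≤ l →
      M.I x (VD D) l₁ ≤ Real.exp (m * (l₂ - l₁)) * M.I x (VD D) l₂ ∧
      M.e x (VD D) l₁ ≤ Real.exp (m * (l₂ - l₁)) * M.e x (VD D) l₂ ∧ 0 ≤ M.e x (VD D) l₁

/-- **the same surface in two frames** (`159`): `I_{M'}(l - ε) ≤ C ε^{-2} I_M(l)`. -/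
def RotI : Prop := ∀ (m n k N Q : ℕ) (Λ : ℝ), 1 ≤ m → 2 ≤ N → ∃ κ₁ ε₁ C : ℝ, 0 < κ₁ ∧ 0 < ε₁ ∧
  0 < C ∧ ∀ (U : Set (Euc k)) (D : VarifoldData m k) (x : Euc k) (ε₀ : ℝ) (M M' : Mo m n k)
    (l ε τ : ℝ) (q : Euc m →L[ℝ] Euc n) (H : Euc m →L[ℝ] Euc m) (H' : Euc n →L[ℝ] Euc n),
    Bk N U D Q x ε₀ Λ M l → M.κ ≤ κ₁ → ε₀ ≤ ε₁ → Rt q H H' → M'.π = rπ M.π M.ρ q H →
      M'.ρ = rρ M.π M.ρ q H' → M'.lb = M.lb → FlatPack D x Q M.S ε₀ Λ M'.π M'.ρ →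
      MG N κ₁ 0 M'.u → 0 < ε → ε ≤ 1 / 4 → 1000 * ‖q‖ ≤ ε → 64 * ‖fderiv ℝ M.u 0‖ ≤ ε →
      64 * ‖fderiv ℝ M'.u 0‖ ≤ ε → M.lb - 3 ≤ l - ε →
      (∀ a ∈ Metric.ball (0 : Euc m) (Real.exp (l - ε / 2 - M.lb)),
        M'.u (H (a + ContinuousLinearMap.adjoint q (M.u a))) = H' (M.u a - q a)) →
      (∀ X, ‖M'.u X - M.u X‖ ≤ τ) → (∀ X, ‖fderiv ℝ M'.u X - fderiv ℝ M.u X‖ ≤ τ) →
      10000 * τ ≤ ε →
      (∀ᵐ p ∂(VD D), ‖M.π (p.1 - x)‖ ≤ Real.exp l → ‖M.ρ (p.1 - x)‖ ≤ M.S →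
        ‖hgt M.π M.ρ x M.S M.u p.1‖ ≤ ε / 8 * Real.exp l) →
      M'.I x (VD D) (l - ε) ≤ C / ε ^ 2 * M.I x (VD D) l

/-- **pre-states** of the start. -/
structure Pst (c : Cn) (V : Measure (Euc k × L k)) (x : Euc k) (M : Mo m n k) (l : ℝ) : Prop where
  cls : Cls c M (Real.exp (l - M.lb)) 0
  I_le : M.I x V l ≤ Real.exp (2 * l - M.Lb)
  /-- crude bound of the heights: cone condition outside the ball of radius `e^l` -/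
  cone : ∀ᵐ p ∂V, ‖M.π (p.1 - x)‖ ≤ 3 * M.S → ‖M.ρ (p.1 - x)‖ ≤ M.S →
    ‖hgt M.π M.ρ x M.S M.u p.1‖ ≤ M.S * Real.exp (-(M.Lb / 4)) +
      1 / 8 * max 0 (‖M.π (p.1 - x)‖ - Real.exp l)

/-- the plane chosen at the radius `r`. -/
def plS (m : ℕ) {k : ℕ} (V : Measure (Euc k × L k)) (x : Euc k) (om r : ℝ) : L k :=
  open Classical in if h : ∃ P ∈ G m k, pex m V P x r ≤ om then h.choose else 0

/-- the pre-world at the starting level `S`. -/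
def preW (c : Cn) (V : Measure (Euc k × L k)) (x : Euc k) (om S : ℝ) : Pre (Mo m n k) where
  pre := fun M l => M.lb = S + 1 / 8 ∧ Pst c V x M l
  L := fun M _ => M.Lb
  κ := fun M _ => M.κ + ‖hp M.π - plS m V x om (8 * Real.exp (S + 1 / 8))‖

end Crest.Agent.R234.F10w_188
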