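import Crest.Agent.R234.Top9_395
import Crest.Agent.R234.Nr1_884

/-!
# Row 234, (F8) START, part x (helper188): the flat package for a frame close to the flat plane

`fp_near` : `pex P0 (8 t) ≤ ω`, `‖hp π - P0‖ ≤ ω` ⟹ `FlatPack D x Q t ε₀ Λ π ρ`.
-/

set_option autoImplicit false
set_option linter.unusedVariables false

open MeasureTheory Filter Topology Set
open scoped ENNReal NNReal
open Crest.GeometryTopology.Submanifold Crest.Agent.R234.Vf_884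
open Crest.Agent.R234.Main_456 (Frame Msys hgt)
open Crest.Agent.R234.AS_456 (hp vp)
open Crest.Agent.R234.Top_395

noncomputable section

namespace Crest.Agent.R234.F10x_188

variable {m n k : ℕ} {U : Set (Euc k)} {V : Measure (Euc k × L k)} {x : Euc k} {R : ℝ} {P P' : L k}

/-- planar excess of a nearby plane. -/
theorem pex_near (hV : Stat m k U V) (hR : 0 < R) (hU : Metric.closedBall x R ⊆ U) {Q : ℕ} {ε : ℝ}
    (hε : ε ≤ 1) (hrat : rat m V x R ≤ (Q : ℝ≥0∞) + ENNReal.ofReal ε) :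
    pex m V P' x R ≤ 2 * pex m V P x R + 2 * ‖P' - P‖ ^ 2 * ((Q + 1) * ome m) := by
  have hfin : V (Metric.ball x R ×ˢ univ) < ⊤ := by
    rw [Top_395.prod_eq]; exact fin_ball hV hU Metric.ball_subset_closedBall
  have hm := Nr_884.mass_of_near hR hε hrat
  have i1 : ∀ A : L k, IntegrableOn (fun p : Euc k × L k => ‖A (p.1 - x)‖ ^ 2)
      (Metric.ball x R ×ˢ univ) V := fun A =>
    Strat3_842.integrableOn_of_bdd hV.conc hfin (by fun_prop)
  unfold pex ex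
  rw [← Top_395.prod_eq]
  have h1 : ∫ p in Metric.ball x R ×ˢ univ,
      ‖(ContinuousLinearMap.id ℝ (Euc k) - P') (p.1 - x)‖ ^ 2 ∂V ≤
      ∫ p in Metric.ball x R ×ˢ univ,
        (2 * ‖(ContinuousLinearMap.id ℝ (Euc k) - P) (p.1 - x)‖ ^ 2 +
          2 * ‖P' - P‖ ^ 2 * R ^ 2) ∂V := by
    refine setIntegral_mono_on (i1 _) (((i1 _).const_mul 2).add
      (integrableOn_const hfin.ne)) (measurableSet_ball.prod MeasurableSet.univ) ?_
    rintro p ⟨hp, -⟩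
    rw [Metric.mem_ball, dist_eq_norm] at hp
    have e1 : (ContinuousLinearMap.id ℝ (Euc k) - P') (p.1 - x) =
        (ContinuousLinearMap.id ℝ (Euc k) - P) (p.1 - x) - (P' - P) (p.1 - x) := by
      simp
    have h2 : ‖(P' - P) (p.1 - x)‖ ≤ ‖P' - P‖ * R :=
      ((P' - P).le_opNorm _).trans (mul_le_mul_of_nonneg_left hp.le (norm_nonneg _))
    have h3 := norm_sub_le ((ContinuousLinearMap.id ℝ (Euc k) - P) (p.1 - x)) ((P' - P) (p.1 - x))
    rw [← e1] at h3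
    have h4 := norm_nonneg ((ContinuousLinearMap.id ℝ (Euc k) - P') (p.1 - x))
    have h5 := norm_nonneg ((ContinuousLinearMap.id ℝ (Euc k) - P) (p.1 - x))
    have h6 : 0 ≤ ‖P' - P‖ * R := by positivity
    set A := ‖(ContinuousLinearMap.id ℝ (Euc k) - P) (p.1 - x)‖
    set B := ‖P' - P‖ * R with hB
    have h7 : ‖(ContinuousLinearMap.id ℝ (Euc k) - P') (p.1 - x)‖ ≤ A + B := by linarith
    have h8 : ‖(ContinuousLinearMap.id ℝ (Euc k) - P') (p.1 - x)‖ ^ 2 ≤ (A + B) ^ 2 :=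
      pow_le_pow_left₀ h4 h7 2
    have h9 : 2 * ‖P' - P‖ ^ 2 * R ^ 2 = 2 * B ^ 2 := by rw [hB]; ring
    show _ ≤ 2 * A ^ 2 + 2 * ‖P' - P‖ ^ 2 * R ^ 2
    rw [h9]
    nlinarith [sq_nonneg (A - B)]
  rw [integral_add ((i1 _).const_mul 2) (integrableOn_const hfin.ne), integral_const_mul,
    setIntegral_const, smul_eq_mul] at h1
  rw [inv_mul_le_iff₀ (by positivity)]
  have h2 : V.real (Metric.ball x R ×ˢ univ) * (2 * ‖P' - P‖ ^ 2 * R ^ 2) ≤
      (Q + 1) * (ome m * R ^ m) * (2 * ‖P' - P‖ ^ 2 * R ^ 2) :=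
    mul_le_mul_of_nonneg_right hm (by positivity)
  calc _ ≤ 2 * (∫ p in Metric.ball x R ×ˢ univ,
        ‖(ContinuousLinearMap.id ℝ (Euc k) - P) (p.1 - x)‖ ^ 2 ∂V) +
          V.real (Metric.ball x R ×ˢ univ) * (2 * ‖P' - P‖ ^ 2 * R ^ 2) := h1
    _ ≤ 2 * (∫ p in Metric.ball x R ×ˢ univ,
        ‖(ContinuousLinearMap.id ℝ (Euc k) - P) (p.1 - x)‖ ^ 2 ∂V) +
          (Q + 1) * (ome m * R ^ m) * (2 * ‖P' - P‖ ^ 2 * R ^ 2) := by linarith
    _ = _ := by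
      rw [pow_add]
      field_simp

/-- **the flat package for frames close to the flat plane.** -/
theorem fp_near {m n k : ℕ} (hm : 1 ≤ m) (Q : ℕ) (hQ : 1 ≤ Q) : ∃ Λ : ℝ, 1 ≤ Λ ∧
    ∀ ε : ℝ, 0 < ε → ε < 1 → ∃ ω : ℝ, 0 < ω ∧ ω ≤ 1 ∧
      ∀ {U : Set (Euc k)} {D : VarifoldData m k}, IsOpen U →
        IsIntegralVarifoldIn U D → IsStationaryIn U D → ∀ {x : Euc k} {t : ℝ}, 0 < t →
          Metric.closedBall x (8 * t) ⊆ U → Th m (VD D) x = (Q : ℝ≥0∞) →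
          rat m (VD D) x (8 * t) ≤ (Q : ℝ≥0∞) + ENNReal.ofReal ω →
          ∀ (π : Euc k →L[ℝ] Euc m) (ρ : Euc k →L[ℝ] Euc n), Frame π ρ →
            ∀ P0 : L k, pex m (VD D) P0 x (8 * t) ≤ ω → ‖hp π - P0‖ ≤ ω →
              FlatPack D x Q t ε Λ π ρ := by
  obtain ⟨Λ, hΛ, H⟩ := flatPack_of (n := n) (k := k) hm Q hQ
  refine ⟨Λ, hΛ, ?_⟩
  intro ε hε hε1
  obtain ⟨ω, hω, hω1, H⟩ := H ε hε hε1
  have ho := ome_pos m
  have hden : (0:ℝ) < 2 + 2 * ((Q + 1) * ome m) := by positivity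
  refine ⟨ω / (2 + 2 * ((Q + 1) * ome m)), by positivity, ?_, ?_⟩
  · rw [div_le_one hden]
    have : (0:ℝ) < (Q + 1) * ome m := by positivity
    linarith
  intro U D hU hD hst x t ht hUx hTh hrat π ρ hf P0 h1 h2
  have hV := stat_VD hD hst
  set ω' := ω / (2 + 2 * ((Q + 1) * ome m)) with hω'
  have hω'0 : 0 < ω' := by positivity
  have hω'1 : ω' ≤ 1 := by
    rw [hω', div_le_one hden]
    have : (0:ℝ) < (Q + 1) * ome m := by positivity
    linarith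
  have hω'ω : ω' ≤ ω := by
    rw [hω', div_le_iff₀ hden]
    have : (0:ℝ) < (Q + 1) * ome m := by positivity
    nlinarith
  refine H hU hD hst ht hUx hTh (hrat.trans (by gcongr)) π ρ hf ?_
  have h3 := pex_near (P := P0) (P' := hp π) hV (by positivity : (0:ℝ) < 8 * t) hUx hω'1 hrat
  have h4 : ‖hp π - P0‖ ^ 2 ≤ ω' := by
    calc ‖hp π - P0‖ ^ 2 ≤ ω' ^ 2 := pow_le_pow_left₀ (norm_nonneg _) h2 2
      _ ≤ ω' := by nlinarith
  have h5 : 2 * ‖hp π - P0‖ ^ 2 * ((Q + 1) * ome m) ≤ 2 * ω' * ((Q + 1) * ome m) := by gcongr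
  have h6 : 2 * ω' + 2 * ω' * ((Q + 1) * ome m) = ω := by
    rw [hω']; field_simp
  linarith

end Crest.Agent.R234.F10x_188
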