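import Crest.Agent.R234.Stp2_518
import Crest.Agent.R234.Mx17_397

/-!
# Row 234, F7-STEPV (helper518), part 3: the selection at the level of a reference

* `gr_of` : `Gr` of the physical graph function from the class `MG` (`Mx17_397.bdP`).
* `mean_eq_bar` : the mean functional of `M` is 570's `bar` of the zoomed varifold.
* `sel_step` : `SelP3` for a reference.
-/

set_option autoImplicit false
set_option linter.unusedVariables false

open MeasureTheory Filter Topology Set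
open scoped ENNReal NNReal ContDiff
open Crest.GeometryTopology.Submanifold Crest.Agent.R234.Vf_884
open Crest.Agent.R234.Main_456 (Frame Msys hgt)
open Crest.Agent.R234.MG_570 (MG SelP3 bar)

noncomputable section

namespace Crest.Agent.R234.Stp_518

variable {m n k : ℕ}

/-! ### class bounds -/

/-- bounds of the graph function and `Gr` in physical units. -/
structure GrB (M : Mo m n k) (b : ℝ) : Prop where
  gr : Gi_456.Gr M.S M.w
  cu : ContDiff ℝ 4 M.u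
  b0 : ∀ X, ‖M.u X‖ ≤ b
  b1 : ∀ X, ‖fderiv ℝ M.u X‖ ≤ b
  b2 : ∀ X, ‖fderiv ℝ (fderiv ℝ M.u) X‖ ≤ b
  dw : ∀ X, fderiv ℝ M.w X = fderiv ℝ M.u (M.S⁻¹ • X)
  w0 : ∀ X, ‖M.w X‖ ≤ M.S * b

set_option maxSynthPendingDepth 3 in
theorem gr_of (m n N : ℕ) (hN : 2 ≤ N) : ∃ κ₀ C : ℝ, 0 < κ₀ ∧ 0 < C ∧ C * κ₀ ≤ 1 / 8 ∧
    ∀ (k : ℕ) (M : Mo m n k) (R : ℝ), 0 ≤ M.κ → M.κ ≤ κ₀ → MG N M.κ R M.u →
      GrB M (C * M.κ) := by
  obtain ⟨C, hC, hb⟩ := Mx17_397.bdP m n N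
  refine ⟨1 / (8 * (C + 1)), C + 1, by positivity, by positivity, ?_, ?_⟩
  · have : C + 1 ≠ 0 := by positivity
    have e : (C + 1) * (1 / (8 * (C + 1))) = 1 / 8 := by field_simp
    exact e.le
  intro k M R hκ0 hκ hMG
  obtain ⟨h1, h2⟩ := hb _ _ _ hMG
  have hcd : ContDiff ℝ 4 M.u := h1.of_le (by
    have : (4 : WithTop ℕ∞) = ((4 : ℕ) : ℕ∞) := rfl
    rw [this]
    exact_mod_cast (show 4 ≤ N + 2 by omega))
  have hS := M.S_pos
  have hS0 : M.S ≠ 0 := hS.ne'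
  have hbd : C * M.κ ≤ (C + 1) * M.κ := mul_le_mul_of_nonneg_right (by linarith) hκ0
  have hbs : (C + 1) * M.κ ≤ 1 / 8 := by
    have : (C + 1) * M.κ ≤ (C + 1) * (1 / (8 * (C + 1))) :=
      mul_le_mul_of_nonneg_left hκ (by positivity)
    have e : (C + 1) * (1 / (8 * (C + 1))) = 1 / 8 := by
      have : C + 1 ≠ 0 := by positivity
      field_simp
    linarith
  have b0 : ∀ X, ‖M.u X‖ ≤ (C + 1) * M.κ := fun X => by
    have := h2 0 (by omega) X
    rw [norm_iteratedFDeriv_zero] at this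
    exact this.trans hbd
  have b1 : ∀ X, ‖fderiv ℝ M.u X‖ ≤ (C + 1) * M.κ := fun X => by
    have := h2 1 (by omega) X
    rw [norm_iteratedFDeriv_one] at this
    exact this.trans hbd
  have b2 : ∀ X, ‖fderiv ℝ (fderiv ℝ M.u) X‖ ≤ (C + 1) * M.κ := fun X => by
    have := h2 2 (by omega) X
    rw [← norm_iteratedFDeriv_fderiv, norm_iteratedFDeriv_one] at this
    exact this.trans hbd
  have hdu : Differentiable ℝ M.u := hcd.differentiable (by norm_num)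
  have hdu1 : ContDiff ℝ 3 (fderiv ℝ M.u) := hcd.fderiv_right (by norm_num)
  have hdw : ∀ X, HasFDerivAt M.w (fderiv ℝ M.u (M.S⁻¹ • X)) X := fun X => by
    have h3 : HasFDerivAt (fun X : Euc m => M.S⁻¹ • X) (M.S⁻¹ • ContinuousLinearMap.id ℝ (Euc m)) X :=
      (hasFDerivAt_id X).const_smul M.S⁻¹
    have h4 := ((hdu (M.S⁻¹ • X)).hasFDerivAt.comp X h3).const_smul M.S
    refine h4.congr_fderiv ?_
    ext1 v
    simp only [_root_.smul_apply, ContinuousLinearMap.comp_apply,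
      ContinuousLinearMap.id_apply, map_smul, smul_smul]
    rw [mul_inv_cancel₀ hS0, one_smul]
  have edw : fderiv ℝ M.w = fun X => fderiv ℝ M.u (M.S⁻¹ • X) := funext fun X => (hdw X).fderiv
  refine ⟨⟨hS, ?_, ?_, ?_⟩, hcd, b0, b1, b2, fun X => (hdw X).fderiv, ?_⟩
  · have h3 : ContDiff ℝ 4 (fun X : Euc m => M.S • M.u (M.S⁻¹ • X)) :=
      (hcd.comp (contDiff_const_smul M.S⁻¹)).const_smul M.S
    exact h3
  · intro X
    rw [edw]
    exact (b1 _).trans hbs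
  · intro X
    rw [edw]
    have h3 : HasFDerivAt (fun X : Euc m => M.S⁻¹ • X) (M.S⁻¹ • ContinuousLinearMap.id ℝ (Euc m)) X :=
      (hasFDerivAt_id X).const_smul M.S⁻¹
    have h4 := ((hdu1.differentiable (by norm_num)) (M.S⁻¹ • X)).hasFDerivAt.comp X h3
    have h5 : HasFDerivAt (fun X => fderiv ℝ M.u (M.S⁻¹ • X)) _ X := h4
    rw [h5.fderiv]
    have h6 : fderiv ℝ (fderiv ℝ M.u) (M.S⁻¹ • X) ∘L (M.S⁻¹ • ContinuousLinearMap.id ℝ (Euc m)) =
        M.S⁻¹ • fderiv ℝ (fderiv ℝ M.u) (M.S⁻¹ • X) := by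
      ext v w
      simp
    rw [h6, norm_smul, norm_inv, Real.norm_of_nonneg hS.le]
    calc M.S⁻¹ * ‖fderiv ℝ (fderiv ℝ M.u) (M.S⁻¹ • X)‖ ≤ M.S⁻¹ * (1 / 8) := by
          gcongr
          exact (b2 _).trans hbs
      _ = 1 / (8 * M.S) := by field_simp
  · intro X
    show ‖M.S • M.u (M.S⁻¹ • X)‖ ≤ _
    rw [norm_smul, Real.norm_of_nonneg hS.le]
    exact mul_le_mul_of_nonneg_left (b0 _) hS.le

/-! ### the region and the cylinder -/

section reg

variable {U : Set (Euc k)} {D : VarifoldData m k} {Q : ℕ} {x : Euc k} {M : Mo m n k} {ε Λ b : ℝ}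

theorem norm_vec (hf : Frame M.π M.ρ) (v : Euc k) : ‖v‖ ^ 2 = ‖M.π v‖ ^ 2 + ‖M.ρ v‖ ^ 2 :=
  Top_395.fr_norm_sq hf v

/-- in the cylinder of base radius `2 S` and height `S`, a.e. point lies in the region. -/
theorem mem_reg (hg : GrB M b) (hb : b ≤ 1 / 8) (hf : Frame M.π M.ρ) {z : Euc k}
    (h1 : ‖M.π (z - x)‖ ≤ M.S * (3 / 2)) (h2 : ‖M.ρ (z - x)‖ ≤ M.S / 8) : z ∈ M.reg x := by
  have hS := M.S_pos
  have hw := hg.w0 (M.π (z - x))
  have hbS : M.S * b ≤ M.S / 8 := by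
    have := mul_le_mul_of_nonneg_left hb hS.le
    linarith
  have h3 : ‖M.ρ (z - x) - M.w (M.π (z - x))‖ ≤ M.S / 4 := by
    refine (norm_sub_le _ _).trans ?_
    linarith
  have ht : z ∈ Gi_456.tube M.π M.ρ x M.S M.w := by
    show ‖M.ρ (z - x) - M.w (M.π (z - x))‖ < M.S
    linarith
  unfold Mo.reg
  rw [hg.gr.mem_Kc hf (by linarith)]
  refine ⟨ht, ?_, ?_⟩
  · rw [sub_zero]
    have h4 := hg.gr.norm_foot_sub ht
    have h5 := norm_le_norm_add_norm_sub' (Gi_456.foot M.π M.ρ x M.S M.w z) (M.π (z - x))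
    linarith
  · have := hg.gr.norm_yy_le ht
    linarith

/-- in the region the heights are at most `S`. -/
theorem rho_le_of_reg (hg : GrB M b) (hb : b ≤ 1 / 8) (hf : Frame M.π M.ρ) {z : Euc k}
    (hz : z ∈ M.reg x) : ‖M.ρ (z - x)‖ ≤ M.S := by
  have hS := M.S_pos
  unfold Mo.reg at hz
  rw [hg.gr.mem_Kc hf (by linarith)] at hz
  obtain ⟨ht, -, h2⟩ := hz
  have h3 := hg.gr.le_norm_yy ht
  have hw := hg.w0 (M.π (z - x))
  have hbS : M.S * b ≤ M.S / 8 := by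
    have := mul_le_mul_of_nonneg_left hb hS.le
    linarith
  have h4 := norm_le_norm_add_norm_sub' (M.ρ (z - x)) (M.w (M.π (z - x)))
  linarith

/-- 570's mean functional of the zoomed varifold. -/
theorem mean_eq_bar (hg : GrB M b) (hb : b ≤ 1 / 8) (hs : Sit U D Q x M ε Λ) (hε : ε ≤ 1 / 8)
    {A : ℝ} (hA : A ≤ 3 / 2) {ζ : Euc m → ℝ} (hζc : Continuous ζ)
    (hζ : ∀ y, A < ‖y‖ → ζ y = 0) :
    M.mean x (VD D) ζ =
      M.S ^ (m + 1) • bar (Top_395.wz m (VD D) x M.S M.π M.ρ A) M.π M.ρ M.u ζ := by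
  have hS := M.S_pos
  have hS0 : M.S ≠ 0 := hS.ne'
  have hf := hs.pack.frame
  have hcu : Continuous M.u := hg.cu.continuous
  set C := Cy_870.cyl M.π M.ρ (0 : Euc m) A 1 with hC
  have hCm : MeasurableSet (C ×ˢ (univ : Set (Vf_884.L k))) :=
    (Cy_870.isClosed_cyl M.π M.ρ 0 A 1).measurableSet.prod MeasurableSet.univ
  set F : Euc k × Vf_884.L k → Euc n := fun p => ζ (M.π p.1) • (M.ρ p.1 - M.u (M.π p.1)) with hF
  have hFc : Continuous F := by
    rw [hF]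
    fun_prop
  have e1 : bar (Top_395.wz m (VD D) x M.S M.π M.ρ A) M.π M.ρ M.u ζ =
      (M.S ^ m)⁻¹ • ∫ p in Vc_164.hom x M.S ⁻¹' (C ×ˢ univ), F (Vc_164.hom x M.S p) ∂(VD D) := by
    have h0 : bar (Top_395.wz m (VD D) x M.S M.π M.ρ A) M.π M.ρ M.u ζ =
        ∫ p in C ×ˢ univ, F p ∂(Vc_164.resc m x M.S (VD D)) := rfl
    rw [h0, Vc_164.resc, Measure.restrict_smul, integral_smul_measure,
      setIntegral_map hCm hFc.aestronglyMeasurable (Vc_164.measurable_hom x M.S).aemeasurable,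
      ENNReal.toReal_ofReal (by positivity)]
  have e2 : ∀ p : Euc k × Vf_884.L k, F (Vc_164.hom x M.S p) =
      M.S⁻¹ • (ζ (M.S⁻¹ • M.π (p.1 - x)) • hgt M.π M.ρ x M.S M.u p.1) := by
    intro p
    have h1 : (Vc_164.hom x M.S p).1 = M.S⁻¹ • (p.1 - x) := rfl
    rw [hF]
    simp only [h1, map_smul]
    unfold Main_456.hgt
    rw [smul_comm M.S⁻¹ (ζ _), smul_sub M.S⁻¹, inv_smul_smul₀ hS0]
  have e3 : ∫ p in Vc_164.hom x M.S ⁻¹' (C ×ˢ univ), F (Vc_164.hom x M.S p) ∂(VD D) =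
      M.S⁻¹ • M.mean x (VD D) ζ := by
    simp only [e2]
    rw [integral_smul]
    congr 1
    unfold Mo.mean
    have hm1 : MeasurableSet (Vc_164.hom x M.S ⁻¹' (C ×ˢ (univ : Set (Vf_884.L k)))) :=
      (Vc_164.measurable_hom x M.S) hCm
    have hm2 : MeasurableSet (M.reg x ×ˢ (univ : Set (Vf_884.L k))) :=
      (hg.gr.isCompact_Kc 0 _ _).isClosed.measurableSet.prod MeasurableSet.univ
    rw [← integral_indicator hm1, ← integral_indicator hm2]
    refine integral_congr_ae ?_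
    filter_upwards [hs.pack.supae] with p hp
    by_cases hz : ζ (M.S⁻¹ • M.π (p.1 - x)) = 0
    · simp only [indicator, hz, zero_smul, ite_self]
    · have h1 : ‖M.π (p.1 - x)‖ ≤ M.S * A := by
        by_contra hc
        push Not at hc
        apply hz
        apply hζ
        rw [norm_smul, norm_inv, Real.norm_of_nonneg hS.le, lt_inv_mul_iff₀ hS]
        exact hc
      have hiff : p ∈ Vc_164.hom x M.S ⁻¹' (C ×ˢ univ) ↔ p ∈ M.reg x ×ˢ univ := by
        have hcyl : p ∈ Vc_164.hom x M.S ⁻¹' (C ×ˢ univ) ↔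
            ‖M.π (p.1 - x)‖ ≤ M.S * A ∧ ‖M.ρ (p.1 - x)‖ ≤ M.S := by
          have g1 : p ∈ Vc_164.hom x M.S ⁻¹' (C ×ˢ univ) ↔
              ‖M.π (M.S⁻¹ • (p.1 - x)) - 0‖ ≤ A ∧ ‖M.ρ (M.S⁻¹ • (p.1 - x))‖ ≤ 1 := by
            rw [mem_preimage, mem_prod]
            exact ⟨fun h => h.1, fun h => ⟨h, mem_univ _⟩⟩
          rw [g1, sub_zero, map_smul, map_smul, norm_smul, norm_smul, norm_inv,
            Real.norm_of_nonneg hS.le, inv_mul_le_iff₀ hS, inv_mul_le_iff₀ hS, mul_one]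
        rw [hcyl, mem_prod]
        constructor
        · rintro ⟨-, h2⟩
          refine ⟨?_, mem_univ _⟩
          have h3 : p.1 ∈ Metric.ball x (4 * M.S) := by
            rw [Metric.mem_ball, dist_eq_norm]
            have h4 := norm_vec (M := M) hf (p.1 - x)
            have h5 : M.S * A ≤ M.S * (3 / 2) := mul_le_mul_of_nonneg_left hA hS.le
            have h6 := norm_nonneg (M.π (p.1 - x))
            have h7 := norm_nonneg (M.ρ (p.1 - x))
            nlinarith [norm_nonneg (p.1 - x)]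
          have h8 := hp h3
          refine mem_reg hg hb hf (h1.trans (mul_le_mul_of_nonneg_left hA hS.le)) ?_
          have : ε * M.S ≤ 1 / 8 * M.S := mul_le_mul_of_nonneg_right hε hS.le
          linarith
        · rintro ⟨h2, -⟩
          exact ⟨h1, rho_le_of_reg hg hb hf h2⟩
      by_cases hin : p ∈ Vc_164.hom x M.S ⁻¹' (C ×ˢ univ)
      · rw [indicator_of_mem hin, indicator_of_mem (hiff.1 hin)]
      · rw [indicator_of_notMem hin, indicator_of_notMem (fun h => hin (hiff.2 h))]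
  rw [e1, e3, smul_smul, smul_smul]
  have e4 : M.S ^ (m + 1) * (M.S ^ m)⁻¹ * M.S⁻¹ = 1 := by
    rw [pow_succ]
    field_simp
  rw [e4, one_smul]

end reg

/-! ### the selection -/

/-- radius of the selected graph. -/
def rsel (lb l K : ℝ) : ℝ := Real.exp (l - lb) * (1 + 1 / (4 * K))

theorem rsel_mul {lb l K : ℝ} (hK : 4 ≤ K) :
    rsel lb l K * (1 + 1 / (8 * K)) ≤ Real.exp (l + 1 / (2 * K) - lb) := by
  have hK0 : 0 < K := by linarith
  have e1 : l + 1 / (2 * K) - lb = (l - lb) + 1 / (2 * K) := by ring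
  rw [e1, Real.exp_add]
  unfold rsel
  rw [mul_assoc]
  refine mul_le_mul_of_nonneg_left ?_ (Real.exp_pos _).le
  have h1 := Real.add_one_le_exp (1 / (2 * K))
  have h2 : 0 < 1 / K := by positivity
  have h3 : 1 / K ≤ 1 / 4 := one_div_le_one_div_of_le (by norm_num) hK
  have e2 : 1 / (4 * K) = 1 / K / 4 := by field_simp
  have e3 : 1 / (8 * K) = 1 / K / 8 := by field_simp
  have e4 : 1 / (2 * K) = 1 / K / 2 := by field_simp
  rw [e4] at h1 ⊢
  rw [e2, e3]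
  nlinarith

theorem rsel_pos (lb l K : ℝ) (hK : 4 ≤ K) : 0 < rsel lb l K := by
  unfold rsel
  have : 0 < 1 / (4 * K) := by positivity
  positivity

/-- only the frame and the unit matter. -/
theorem Sit.congr {U : Set (Euc k)} {D : VarifoldData m k} {Q : ℕ} {x : Euc k} {M M' : Mo m n k}
    {ε Λ : ℝ} (h : Sit U D Q x M ε Λ) (h1 : M'.π = M.π) (h2 : M'.ρ = M.ρ) (h3 : M'.lb = M.lb) :
    Sit U D Q x M' ε Λ := by
  have h4 : M'.S = M.S := by unfold Mo.S; rw [h3]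
  refine ⟨h.opn, h.int, h.st, h.Q1, h.Th, ?_, ?_⟩
  · rw [h4]; exact h.sub
  · rw [h4, h1, h2]; exact h.pack

set_option maxHeartbeats 400000 in
/-- **the selection for a reference.** -/
theorem sel_step (hSel : SelP3) (m n : ℕ) (hm : 1 ≤ m) : ∃ Ks N₀ : ℕ, 2 ≤ N₀ ∧ ∀ N : ℕ, N₀ ≤ N →
    ∃ κ₀ : ℝ, 0 < κ₀ ∧ ∃ p : ℕ, ∀ Λ T : ℝ, ∃ C : ℝ, 0 < C ∧
    ∀ (k : ℕ) (U : Set (Euc k)) (D : VarifoldData m k) (Q : ℕ) (x : Euc k) (M : Mo m n k)
      (l K h ε : ℝ), Sit U D Q x M ε Λ → ε ≤ 1 / 8 → 0 ≤ M.κ → M.κ ≤ κ₀ →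
      MG N M.κ (Real.exp (l + 1 / (2 * K) - M.lb)) M.u → 4 ≤ K → M.lb - T ≤ l →
      l + 1 / (2 * K) ≤ M.lb → 0 ≤ h →
      (∀ᵐ p ∂(VD D), ‖M.π (p.1 - x)‖ ≤ Real.exp (l + 1 / (2 * K)) → ‖M.ρ (p.1 - x)‖ ≤ M.S →
        ‖hgt M.π M.ρ x M.S M.u p.1‖ ≤ M.S * h) →
      C * h * (8 * K) ^ p ≤ 1 → C * h * (8 * K) ^ p ≤ κ₀ →
      ∃ u' : Euc m → Euc n, MG N (M.κ + C * h * (8 * K) ^ p) (rsel M.lb l K) u' ∧
        MG N (C * h * (8 * K) ^ p) 0 (fun y => u' y - M.u y) ∧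
        ∀ M' : Mo m n k, M'.π = M.π → M'.ρ = M.ρ → M'.lb = M.lb → M'.u = u' →
          MeanK Ks M' x (VD D) (rsel M.lb l K) (M.S * (C * h ^ 2 * (8 * K) ^ p)) := by
  obtain ⟨Ks, N₀, H⟩ := hSel m n hm
  refine ⟨Ks, max 2 N₀, le_max_left _ _, ?_⟩
  intro N hN
  obtain ⟨κ₁, hκ₁, p, H1⟩ := H N ((le_max_right _ _).trans hN)
  obtain ⟨κ₂, C₂, hκ₂, hC₂, hCκ₂, Hgr⟩ := gr_of m n N ((le_max_left _ _).trans hN)
  refine ⟨min κ₁ (κ₂ / 2), by positivity, p, ?_⟩
  intro Λ T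
  set r₀ := Real.exp (-T) with hr₀
  have hr₀0 : 0 < r₀ := Real.exp_pos _
  set Λ' := max (max Λ 1) (ome m * (r₀ / 16) ^ m)⁻¹ with hΛ'
  have hΛ'1 : 1 ≤ Λ' := (le_max_right _ _).trans (le_max_left _ _)
  obtain ⟨C, hC, H2⟩ := H1 Λ' r₀ (by linarith) hr₀0
  refine ⟨C, hC, ?_⟩
  intro k U D Q x M l K h ε hs hε hκ0 hκ hMG hK hT hlb hh hsup hsm1 hsm2
  have hS := M.S_pos
  have hS0 : M.S ≠ 0 := hS.ne'
  have hK0 : 0 < K := by linarith
  have hf := hs.pack.frame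
  have hgr := Hgr k M _ hκ0 (hκ.trans ((min_le_right _ _).trans (by linarith))) hMG
  have hcu : Continuous M.u := hgr.cu.continuous
  set r := rsel M.lb l K with hr
  set εs := 1 / (8 * K) with hεs
  have hεs0 : 0 < εs := by positivity
  have hεs1 : εs ≤ 1 / 2 := by
    rw [hεs, div_le_div_iff₀ (by positivity) (by norm_num)]; linarith
  have hr0 : 0 < r := rsel_pos _ _ _ hK
  have hrm : r * (1 + εs) ≤ Real.exp (l + 1 / (2 * K) - M.lb) := rsel_mul hK
  have hexp1 : Real.exp (l + 1 / (2 * K) - M.lb) ≤ 1 := Real.exp_le_one_iff.2 (by linarith)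
  have hA1 : r * (1 + εs) ≤ 1 := hrm.trans hexp1
  have hrA : r ≤ r * (1 + εs) := by nlinarith
  have hr1 : r ≤ 1 := hrA.trans hA1
  have hrr₀ : r₀ ≤ r := by
    rw [hr, hr₀]
    unfold rsel
    have h1 : Real.exp (-T) ≤ Real.exp (l - M.lb) := Real.exp_le_exp.2 (by linarith)
    have h2 : 0 < 1 / (4 * K) := by positivity
    nlinarith [Real.exp_pos (l - M.lb)]
  have hstat : Stat m k U (VD D) := stat_VD hs.int hs.st
  set A := r * (1 + εs) with hA
  set W := Top_395.wz m (VD D) x M.S M.π M.ρ A with hW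
  have hcyl := hs.pack.cyl A (by linarith)
  have e1 : ε ≤ 1 := by linarith
  have hcyl1 : Cy_870.CylStat W M.π M.ρ 0 A 1 := by
    refine ⟨hcyl.sp, hcyl.conc, hcyl.fin, hcyl.base, ?_, hcyl.stat⟩
    filter_upwards [hcyl.hgt] with q hq
    exact hq.trans e1
  have hmass : W univ ≤ ENNReal.ofReal Λ' :=
    (hs.pack.mass_le A (by linarith)).trans
      (ENNReal.ofReal_le_ofReal ((le_max_left _ _).trans (le_max_left _ _)))
  have hlow : ENNReal.ofReal Λ'⁻¹ ≤ W ((fun p => M.π p.1) ⁻¹' Metric.ball 0 (r / 16)) := by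
    have hTh : (1 : ℝ≥0∞) ≤ Vf_884.Th m (VD D) x := by
      rw [hs.Th]; exact_mod_cast hs.Q1
    have h1 := Top_395.le_zoom_mass (n := n) hstat hm hf hS
      ((Metric.closedBall_subset_closedBall (by linarith)).trans hs.sub) (A := A)
      (σ := r / 16) (by positivity) (by linarith) (by linarith) hTh
    refine le_trans ?_ h1
    rw [one_mul]
    refine ENNReal.ofReal_le_ofReal ?_
    rw [inv_le_comm₀ (by linarith) (by have := ome_pos m; positivity)]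
    refine le_trans ?_ (le_max_right _ _)
    have ho := ome_pos m
    gcongr
  have hMGA : MG N M.κ (r * (1 + εs)) M.u := hMG.mono le_rfl hrm
  have hsupW : ∀ᵐ q ∂W, ‖M.ρ q.1 - M.u (M.π q.1)‖ ≤ h := by
    have hcm : MeasurableSet (Cy_870.cyl M.π M.ρ (0 : Euc m) A 1 ×ˢ (univ : Set (Vf_884.L k))) :=
      (Cy_870.isClosed_cyl M.π M.ρ 0 A 1).measurableSet.prod MeasurableSet.univ
    rw [hW]
    unfold Top_395.wz
    rw [ae_restrict_iff' hcm]
    refine Measure.ae_smul_measure ?_ _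
    rw [ae_map_iff (Vc_164.measurable_hom x M.S).aemeasurable]
    · filter_upwards [hsup] with q hq hcq
      have h1 : (Vc_164.hom x M.S q).1 = M.S⁻¹ • (q.1 - x) := rfl
      have h2 : ‖M.π (M.S⁻¹ • (q.1 - x)) - 0‖ ≤ A ∧ ‖M.ρ (M.S⁻¹ • (q.1 - x))‖ ≤ 1 := by
        have := hcq.1
        rw [h1] at this
        exact this
      rw [sub_zero, map_smul, map_smul, norm_smul, norm_smul, norm_inv,
        Real.norm_of_nonneg hS.le, inv_mul_le_iff₀ hS, inv_mul_le_iff₀ hS, mul_one] at h2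
      have h3 : ‖M.π (q.1 - x)‖ ≤ Real.exp (l + 1 / (2 * K)) := by
        refine h2.1.trans ?_
        have h4 : M.S * A ≤ M.S * Real.exp (l + 1 / (2 * K) - M.lb) :=
          mul_le_mul_of_nonneg_left hrm hS.le
        have h5 : M.S * Real.exp (l + 1 / (2 * K) - M.lb) = Real.exp (l + 1 / (2 * K)) := by
          unfold Mo.S
          rw [← Real.exp_add]; congr 1; ring
        linarith
      have h6 := hq h3 h2.2
      rw [h1, map_smul, map_smul]
      have h7 : M.S⁻¹ • M.ρ (q.1 - x) - M.u (M.S⁻¹ • M.π (q.1 - x)) =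
          M.S⁻¹ • hgt M.π M.ρ x M.S M.u q.1 := by
        unfold Main_456.hgt
        rw [smul_sub, inv_smul_smul₀ hS0]
      rw [h7, norm_smul, norm_inv, Real.norm_of_nonneg hS.le, inv_mul_le_iff₀ hS]
      exact h6
    · have e : {q : Euc k × Vf_884.L k | q ∈ Cy_870.cyl M.π M.ρ (0 : Euc m) A 1 ×ˢ univ →
          ‖M.ρ q.1 - M.u (M.π q.1)‖ ≤ h} = (Cy_870.cyl M.π M.ρ (0 : Euc m) A 1 ×ˢ univ)ᶜ ∪
          {q | ‖M.ρ q.1 - M.u (M.π q.1)‖ ≤ h} := by
        ext q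
        simp only [mem_ofPred_eq, mem_union, mem_compl_iff]
        tauto
      rw [e]
      exact hcm.compl.union (isClosed_le (by fun_prop) continuous_const).measurableSet
  have hpow : C * h ≤ εs ^ p := by
    have e : εs ^ p = ((8 * K) ^ p)⁻¹ := by rw [hεs, one_div, inv_pow]
    rw [e, ← one_div, le_div_iff₀ (by positivity)]
    exact hsm1
  obtain ⟨u', g1, g2, g3⟩ := H2 k W M.π M.ρ M.κ h εs r M.u (hκ.trans (min_le_left _ _)) hεs0 hεs1
    hrr₀ hr1 hh hcyl1 hmass hlow hMGA hsupW hpow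
  have ediv : C * h / εs ^ p = C * h * (8 * K) ^ p := by
    have e : εs ^ p = ((8 * K) ^ p)⁻¹ := by rw [hεs, one_div, inv_pow]
    rw [e, div_inv_eq_mul]
  have ediv2 : C * h ^ 2 / εs ^ p = C * h ^ 2 * (8 * K) ^ p := by
    have e : εs ^ p = ((8 * K) ^ p)⁻¹ := by rw [hεs, one_div, inv_pow]
    rw [e, div_inv_eq_mul]
  rw [ediv] at g1 g2
  refine ⟨u', g1, g2, ?_⟩
  intro M' h1 h2 h3 h4 ζ hζ hζs hζb
  have hS' : M'.S = M.S := by unfold Mo.S; rw [h3]
  have hs' : Sit U D Q x M' ε Λ := hs.congr h1 h2 h3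
  -- class of `M'`
  set M'' : Mo m n k := { M' with κ := M.κ + C * h * (8 * K) ^ p } with hM''
  have hκ'' : M''.κ = M.κ + C * h * (8 * K) ^ p := rfl
  have hgr' : GrB M'' (C₂ * M''.κ) := by
    refine Hgr k M'' r ?_ ?_ ?_
    · rw [hκ'']; positivity
    · rw [hκ'']
      have i1 : M.κ ≤ κ₂ / 2 := hκ.trans (min_le_right _ _)
      have i2 : C * h * (8 * K) ^ p ≤ κ₂ / 2 := hsm2.trans (min_le_right _ _)
      linarith
    · have : M''.u = u' := h4
      rw [this]; exact g1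
  have hb : C₂ * M''.κ ≤ 1 / 8 := by
    rw [hκ'']
    have i1 : M.κ ≤ κ₂ / 2 := hκ.trans (min_le_right _ _)
    have i2 : C * h * (8 * K) ^ p ≤ κ₂ / 2 := hsm2.trans (min_le_right _ _)
    have i3 : C₂ * (M.κ + C * h * (8 * K) ^ p) ≤ C₂ * κ₂ :=
      mul_le_mul_of_nonneg_left (by linarith) hC₂.le
    linarith
  have hs'' : Sit U D Q x M'' ε Λ := hs'.congr rfl rfl rfl
  have hmean := mean_eq_bar (A := A) hgr' hb hs'' hε (by linarith) hζ.continuous (by
    intro y hy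
    refine image_eq_zero_of_notMem_tsupport fun hc => ?_
    have := hζs hc
    rw [mem_ball_zero_iff] at this
    linarith)
  have hm1 : M'.mean x (VD D) ζ = M''.mean x (VD D) ζ := rfl
  rw [hm1, hmean]
  have e5 : M''.S = M.S := hS'
  have e6 : M''.π = M.π := h1
  have e7 : M''.ρ = M.ρ := h2
  have e8 : M''.u = u' := h4
  rw [e5, e6, e7, e8, norm_smul, Real.norm_of_nonneg (by positivity), hS']
  have g4 := g3 ζ hζ hζs hζb
  rw [ediv2] at g4
  calc M.S ^ (m + 1) * ‖bar W M.π M.ρ u' ζ‖ ≤ M.S ^ (m + 1) * (C * h ^ 2 * (8 * K) ^ p) :=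
        mul_le_mul_of_nonneg_left g4 (by positivity)
    _ = M.S ^ m * (M.S * (C * h ^ 2 * (8 * K) ^ p)) := by ring

end Crest.Agent.R234.Stp_518
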