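import Crest.Agent.R234.F10w_188
import Crest.Agent.R234.Stp3_518

/-!
# Row 234, (F8) START, part y (helper188): sup + selection

`selA` : a reference with `I ≤ e^{2l - L}` and crude sup bound `e^{-L/4}`: the selected reference is
`e^{-0.49875 L}`-close, has sup error `e^{-0.49875 L}` and mean error `e^{-0.99 L}`.
-/

set_option autoImplicit false
set_option linter.unusedVariables false

open MeasureTheory Filter Topology Set
open scoped ENNReal NNReal ContDiff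
open Crest.GeometryTopology.Submanifold Crest.Agent.R234.Vf_884
open Crest.Agent.R234.Main_456 (Frame Msys hgt)
open Crest.Agent.R234.MG_570 (MG SelP3)
open Crest.Agent.R234.Top_395 Crest.Agent.R234.Stp_518
open Crest.Agent.R234.F10t_188 Crest.Agent.R234.F10w_188

noncomputable section

namespace Crest.Agent.R234.F10y_188

variable {m n k : ℕ}

/-- outcome of sup + selection. -/
structure Sel1 (N Ks : ℕ) (D : VarifoldData m k) (x : Euc k) (M M' : Mo m n k) (l L : ℝ) : Prop where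
  hπ : M'.π = M.π
  hρ : M'.ρ = M.ρ
  hlb : M'.lb = M.lb
  hκ : M'.κ = M.κ + Real.exp (-(399 / 800 * L))
  mg : MG N M'.κ (Real.exp (l - 2 * eps L - M.lb)) M'.u
  d0 : ∀ X, ‖M'.u X - M.u X‖ ≤ Real.exp (-(399 / 800 * L))
  d1 : ∀ X, ‖fderiv ℝ M'.u X - fderiv ℝ M.u X‖ ≤ Real.exp (-(399 / 800 * L))
  mean : MeanK Ks M' x (VD D) (Real.exp (l - 2 * eps L - M.lb)) (Real.exp (l - 99 / 100 * L))
  sup : ∀ᵐ p ∂(VD D), ‖M.π (p.1 - x)‖ ≤ Real.exp (l - eps L) → ‖M.ρ (p.1 - x)‖ ≤ M.S →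
    ‖hgt M.π M.ρ x M.S M'.u p.1‖ ≤ M.S * Real.exp (-(399 / 800 * L))

theorem MeanK.mono {Ks : ℕ} {M : Mo m n k} {x : Euc k} {V : Measure (Euc k × L k)} {R R' τ τ' : ℝ}
    (h : MeanK Ks M x V R τ) (hR : R' ≤ R) (hτ : τ ≤ τ') : MeanK Ks M x V R' τ' := by
  intro ζ h1 h2 h3
  refine (h ζ h1 (h2.trans (Metric.ball_subset_ball hR)) h3).trans ?_
  exact mul_le_mul_of_nonneg_left hτ (pow_nonneg M.S_pos.le _)

theorem Bk.sit {N : ℕ} {U : Set (Euc k)} {D : VarifoldData m k} {Q : ℕ} {x : Euc k} {ε₀ Λ : ℝ}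
    {M : Mo m n k} {l : ℝ} (h : Bk N U D Q x ε₀ Λ M l) : Sit U D Q x M ε₀ Λ :=
  ⟨h.opn, h.int, h.st, h.Q1, h.Th, h.sub, h.pack⟩

theorem S_mul_exp (M : Mo m n k) (l : ℝ) : M.S * Real.exp (l - M.lb) = Real.exp l := by
  unfold Mo.S
  rw [← Real.exp_add]; congr 1; ring

set_option maxHeartbeats 800000 in
theorem selA (hSel : SelP3) (hSup : SupV) (m n : ℕ) (hm : 1 ≤ m) : ∃ Ks N₀ : ℕ, 2 ≤ N₀ ∧
    ∀ N : ℕ, N₀ ≤ N → ∀ (k Q : ℕ) (Λ : ℝ), ∃ κ₁ ε₁ L₂ : ℝ, 0 < κ₁ ∧ 0 < ε₁ ∧ 100 ≤ L₂ ∧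
      ∀ (U : Set (Euc k)) (D : VarifoldData m k) (x : Euc k) (ε₀ : ℝ) (M : Mo m n k) (l L : ℝ),
        Bk N U D Q x ε₀ Λ M l → M.κ ≤ κ₁ → ε₀ ≤ ε₁ → L₂ ≤ L → M.lb - 5 / 4 ≤ l →
        ‖fderiv ℝ M.u 0‖ ≤ 0 → M.I x (VD D) l ≤ Real.exp (2 * l - L) →
        SupLe M x (VD D) (Real.exp (l - M.lb)) (Real.exp (-(L / 4))) →
        ∃ M' : Mo m n k, Sel1 N Ks D x M M' l L := by
  obtain ⟨Ks, N₀, hN₀, H⟩ := sel_step hSel m n hm
  refine ⟨Ks, N₀, hN₀, fun N hN k Q Λ => ?_⟩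
  obtain ⟨κs, hκs, p, H⟩ := H N hN
  obtain ⟨C, hC, H⟩ := H Λ 2
  obtain ⟨κu, εu, Cu, hκu, hεu, hCu, pw, HU⟩ := hSup m n k N Q Λ hm (hN₀.trans hN)
  obtain ⟨Cb, hCb, hbd⟩ := Mx17_397.bdP m n N
  obtain ⟨L1, hL1, p1⟩ := poly Cu pw (show (0:ℝ) < 1 / 800 by norm_num)
  obtain ⟨L2, hL2, p2⟩ := poly (8 * Real.exp (5 / 4)) 1 (show (0:ℝ) < 1 / 4 by norm_num)
  obtain ⟨L3, hL3, p3⟩ := poly (C * 4 ^ p * Real.exp (5 / 4)) p (show (0:ℝ) < 7 / 800 by norm_num)
  obtain ⟨L4, hL4, p4⟩ := poly (2 * (1 + Cb) * C * 4 ^ p) p (show (0:ℝ) < 1 / 1600 by norm_num)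
  obtain ⟨L5, hL5, p5⟩ := poly (1 / κs) 0 (show (0:ℝ) < 399 / 800 by norm_num)
  obtain ⟨L6, hL6, p6⟩ := poly 2 0 (show (0:ℝ) < 1 / 1600 by norm_num)
  refine ⟨min κs κu, min (1 / 8) εu, max (max L1 L2) (max (max L3 L4) (max L5 L6)),
    by positivity, by positivity, ?_, ?_⟩
  · exact hL1.trans ((le_max_left _ _).trans (le_max_left _ _))
  intro U D x ε₀ M l L hB hκ hε hL hl hdu hI hsup
  simp only [max_le_iff] at hL
  obtain ⟨⟨l1, l2⟩, ⟨l3, l4⟩, l5, l6⟩ := hL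
  have q1 := p1 L l1
  have q2 := p2 L l2
  have q3 := p3 L l3
  have q4 := p4 L l4
  have q5 := p5 L l5
  have q6 := p6 L l6
  have hL100 : 100 ≤ L := hL1.trans l1
  have hL0 : 0 < L := by linarith
  have he := eps_pos hL0
  have he1 := eps_le hL100
  have hS := M.S_pos
  have hlb := hB.hi
  rw [pow_one] at q2
  rw [pow_zero, div_one] at q5 q6
  have hSl : M.S ≤ Real.exp (5 / 4) * Real.exp l := by
    unfold Mo.S
    rw [← Real.exp_add]
    exact Real.exp_le_exp.2 (by linarith)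
  have hlS : Real.exp l ≤ M.S := by
    unfold Mo.S
    exact Real.exp_le_exp.2 (by linarith)
  set e := eps L with hedef
  set h := Real.exp (-(799 / 1600 * L)) with hh
  set τ := Real.exp (-(399 / 800 * L)) with hτ
  have hh0 : 0 < h := Real.exp_pos _
  have hτ0 : 0 < τ := Real.exp_pos _
  have hτ4 : τ = h * Real.exp (1 / 1600 * L) := by
    rw [hτ, hh, ← Real.exp_add]; congr 1; ring
  have hh2 : h * h * Real.exp (7 / 800 * L) = Real.exp (-(99 / 100 * L)) := by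
    rw [hh, ← Real.exp_add, ← Real.exp_add]; congr 1; ring
  -- sup
  have hsup1 : ∀ᵐ p ∂(VD D), ‖M.π (p.1 - x)‖ ≤ Real.exp (l - e) → ‖M.ρ (p.1 - x)‖ ≤ M.S →
      ‖hgt M.π M.ρ x M.S M.u p.1‖ ≤ M.S * h := by
    have h1 := HU U D x ε₀ M l hB (hκ.trans (min_le_right _ _)) (hε.trans (min_le_right _ _)) e he
      (by linarith) (by linarith) (by
        filter_upwards [hsup] with p hp g1 g2
        refine (hp (by rw [S_mul_exp]; exact g1) g2).trans ?_
        have h3 : 8 * Real.exp (5 / 4) * Real.exp (-(L / 4)) ≤ e := by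
          rw [div_le_iff₀ he] at q2
          calc 8 * Real.exp (5 / 4) * Real.exp (-(L / 4)) ≤
              (Real.exp (1 / 4 * L) * e) * Real.exp (-(L / 4)) := by gcongr
            _ = e * (Real.exp (1 / 4 * L) * Real.exp (-(L / 4))) := by ring
            _ = e := by
              rw [← Real.exp_add, show 1 / 4 * L + -(L / 4) = 0 by ring, Real.exp_zero, mul_one]
        have h4 := Real.exp_pos l
        have h5 := Real.exp_pos (-(L / 4))
        calc M.S * Real.exp (-(L / 4)) ≤ Real.exp (5 / 4) * Real.exp l * Real.exp (-(L / 4)) := by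
              gcongr
          _ = (8 * Real.exp (5 / 4) * Real.exp (-(L / 4))) / 8 * Real.exp l := by ring
          _ ≤ e / 8 * Real.exp l := by gcongr)
    filter_upwards [h1] with p hp g1 g2
    have h2 := hp g1 g2
    have h3 : Cu / e ^ pw * M.I x (VD D) l ≤ (M.S * h) ^ 2 := by
      calc Cu / e ^ pw * M.I x (VD D) l ≤ Cu / e ^ pw * Real.exp (2 * l - L) := by gcongr
        _ ≤ Real.exp (1 / 800 * L) * Real.exp (2 * l - L) := by gcongr
        _ = (Real.exp l * h) ^ 2 := by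
          rw [mul_pow, hh, ← Real.exp_nat_mul, ← Real.exp_nat_mul, ← Real.exp_add, ← Real.exp_add]
          congr 1; push_cast; ring
        _ ≤ (M.S * h) ^ 2 := by gcongr
    exact (pow_le_pow_iff_left₀ (norm_nonneg _) (by positivity) two_ne_zero).1 (h2.trans h3)
  -- selection
  set K := 1 / (2 * e) with hK
  have hK0 : 0 < K := by positivity
  have hK4 : 4 ≤ K := by
    rw [hK, le_div_iff₀ (by positivity)]; linarith
  have hKe : 1 / (2 * K) = e := by rw [hK]; field_simp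
  have h8K : (8 * K) ^ p = 4 ^ p / e ^ p := by
    rw [← div_pow]; congr 1; rw [hK]; field_simp; norm_num
  have hle : l - 2 * e + 1 / (2 * K) = l - e := by rw [hKe]; ring
  have hsm : C * h * (8 * K) ^ p * (2 * (1 + Cb)) ≤ τ := by
    rw [h8K, hτ4]
    calc C * h * (4 ^ p / e ^ p) * (2 * (1 + Cb)) = h * (2 * (1 + Cb) * C * 4 ^ p / e ^ p) := by
          ring
      _ ≤ h * Real.exp (1 / 1600 * L) := by gcongr
  have hx0 : 0 ≤ C * h * (8 * K) ^ p := by positivity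
  have hsm1 : C * h * (8 * K) ^ p ≤ τ := by nlinarith
  have hsm2 : Cb * (C * h * (8 * K) ^ p) ≤ τ / 2 := by nlinarith
  have hτκ : τ ≤ κs := by
    rw [hτ, Real.exp_neg, inv_le_comm₀ (Real.exp_pos _) hκs]
    rwa [one_div] at q5
  have hτ1 : τ ≤ 1 := Real.exp_le_one_iff.2 (by linarith)
  have hmg : MG N M.κ (Real.exp (l - 2 * e + 1 / (2 * K) - M.lb)) M.u :=
    hB.mg.mono le_rfl (Real.exp_le_exp.2 (by rw [hle]; linarith))
  obtain ⟨u', g1, g2, g3⟩ := H k U D Q x M (l - 2 * e) K h ε₀ (Bk.sit hB)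
    (hε.trans (min_le_left _ _)) hB.κ0
    (hκ.trans (min_le_left _ _)) hmg hK4 (by linarith) (by rw [hle]; linarith) hh0.le
    (by rw [hle]; exact hsup1) (hsm1.trans hτ1) (hsm1.trans hτκ)
  set M' : Mo m n k := { M with u := u', κ := M.κ + τ } with hM'
  have hrs : Real.exp (l - 2 * e - M.lb) ≤ rsel M.lb (l - 2 * e) K := by
    unfold rsel
    have h2 : 0 < 1 / (4 * K) := by positivity
    nlinarith [Real.exp_pos (l - 2 * e - M.lb)]
  have hcu := (hbd _ _ _ hB.mg).1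
  have hcu' := (hbd _ _ _ g1).1
  have hD : ∀ X, ‖u' X - M.u X‖ ≤ τ / 2 := fun X => by
    have := (hbd _ _ _ g2).2 0 (by omega) X
    rw [norm_iteratedFDeriv_zero] at this
    exact this.trans hsm2
  refine ⟨M', rfl, rfl, rfl, rfl, ?_, ?_, ?_, ?_, ?_⟩
  · exact g1.mono (by linarith) hrs
  · intro X
    exact (hD X).trans (by linarith)
  · intro X
    have h1 := (hbd _ _ _ g2).2 1 (by omega) X
    rw [norm_iteratedFDeriv_one] at h1
    have h2 : fderiv ℝ (fun y => u' y - M.u y) X = fderiv ℝ u' X - fderiv ℝ M.u X :=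
      fderiv_fun_sub (hcu'.differentiable (by norm_cast) X)
        (hcu.differentiable (by norm_cast) X)
    rw [h2] at h1
    exact h1.trans (hsm2.trans (by linarith))
  · refine MeanK.mono (g3 M' rfl rfl rfl rfl) hrs ?_
    calc M.S * (C * h ^ 2 * (8 * K) ^ p) ≤
        (Real.exp (5 / 4) * Real.exp l) * (C * h ^ 2 * (8 * K) ^ p) := by gcongr
      _ = Real.exp l * (h * h * (C * 4 ^ p * Real.exp (5 / 4) / e ^ p)) := by rw [h8K]; ring
      _ ≤ Real.exp l * (h * h * Real.exp (7 / 800 * L)) := by gcongr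
      _ = Real.exp (l - 99 / 100 * L) := by
        rw [hh2, ← Real.exp_add]; congr 1
  · filter_upwards [hsup1] with p hp g4 g5
    have h1 := hp g4 g5
    have h2 : hgt M.π M.ρ x M.S u' p.1 = hgt M.π M.ρ x M.S M.u p.1 -
        M.S • (u' (M.S⁻¹ • M.π (p.1 - x)) - M.u (M.S⁻¹ • M.π (p.1 - x))) := by
      unfold Main_456.hgt
      rw [smul_sub]; abel
    show ‖hgt M.π M.ρ x M.S u' p.1‖ ≤ M.S * τ
    rw [h2]
    refine (norm_sub_le _ _).trans ?_
    rw [norm_smul, Real.norm_of_nonneg hS.le]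
    have h3 := mul_le_mul_of_nonneg_left (hD (M.S⁻¹ • M.π (p.1 - x))) hS.le
    have h4 : M.S * h ≤ M.S * (τ / 2) := by
      refine mul_le_mul_of_nonneg_left ?_ hS.le
      rw [hτ4]
      nlinarith
    linarith

end Crest.Agent.R234.F10y_188
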