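import Crest.Agent.R234.F10y_188

/-!
# Row 234, (F8) START, part z (helper188): the window

`window` : below the level of the selection either `Λ` of the selected reference has grown by the
factor `6/5`, or there is a level with frequency `≤ 20 L^{3/2}` and bounded growth.
-/

set_option autoImplicit false
set_option linter.unusedVariables false

open MeasureTheory Filter Topology Set
open scoped ENNReal NNReal ContDiff
open Crest.GeometryTopology.Submanifold Crest.Agent.R234.Vf_884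
open Crest.Agent.R234.Main_456 (Frame Msys hgt NearQ)
open Crest.Agent.R234.MG_570 (MG SelP3)
open Crest.Agent.R234.Top_395 Crest.Agent.R234.Stp_518
open Crest.Agent.R234.F10t_188 Crest.Agent.R234.F10w_188 Crest.Agent.R234.F10y_188

noncomputable section

namespace Crest.Agent.R234.F10z_188

variable {m n k : ℕ}

theorem FlatPack.mono {D : VarifoldData m k} {x : Euc k} {Q : ℕ} {t ε ε' Λ : ℝ}
    {π : Euc k →L[ℝ] Euc m} {ρ : Euc k →L[ℝ] Euc n} (h : FlatPack D x Q t ε Λ π ρ) (ht : 0 < t)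
    (hε : ε ≤ ε') : FlatPack D x Q t ε' Λ π ρ where
  frame := h.frame
  sup := fun z hz hzb => (h.sup z hz hzb).trans (mul_le_mul_of_nonneg_right hε ht.le)
  supae := by
    filter_upwards [h.supae] with p hp h1
    exact (hp h1).trans (mul_le_mul_of_nonneg_right hε ht.le)
  near := by
    obtain ⟨h1, h2, h3⟩ := h.near
    refine ⟨h1, h2.trans ?_, h3.trans ?_⟩
    · exact mul_le_mul_of_nonneg_right hε (by positivity)
    · gcongr
  cyl := fun A hA => F10u_188.cylStat_mono (h.cyl A hA) hε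
  mass_le := h.mass_le
  le_mass := h.le_mass

theorem Bk.mono_eps {N : ℕ} {U : Set (Euc k)} {D : VarifoldData m k} {Q : ℕ} {x : Euc k}
    {ε₀ ε₁ Λ : ℝ} {M : Mo m n k} {l : ℝ} (h : Bk N U D Q x ε₀ Λ M l) (hε : ε₀ ≤ ε₁) :
    Bk N U D Q x ε₁ Λ M l :=
  ⟨h.opn, h.int, h.st, h.Q1, h.Th, h.sub, FlatPack.mono h.pack M.S_pos hε, h.κ0, h.mg, h.lo, h.hi⟩

/-- the selected reference is again a reference with its block. -/
theorem Sel1.bk {N Ks : ℕ} {U : Set (Euc k)} {D : VarifoldData m k} {Q : ℕ} {x : Euc k}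
    {ε₀ Λ : ℝ} {M M' : Mo m n k} {l L s : ℝ} (h : Sel1 N Ks D x M M' l L)
    (hB : Bk N U D Q x ε₀ Λ M l) (he : 0 ≤ eps L) (h1 : M.lb - 3 ≤ s) (h2 : s ≤ l - 2 * eps L) :
    Bk N U D Q x ε₀ Λ M' s := by
  have hS : M'.S = M.S := by unfold Mo.S; rw [h.hlb]
  refine ⟨hB.opn, hB.int, hB.st, hB.Q1, hB.Th, ?_, ?_, ?_, ?_, ?_, ?_⟩
  · rw [hS]; exact hB.sub
  · rw [hS, h.hπ, h.hρ]; exact hB.pack
  · rw [h.hκ]; exact add_nonneg hB.κ0 (Real.exp_pos _).le
  · exact h.mg.mono le_rfl (Real.exp_le_exp.2 (by rw [h.hlb]; linarith))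
  · rw [h.hlb]; exact h1
  · rw [h.hlb]; linarith [hB.hi]

theorem Sel1.du {N Ks : ℕ} {D : VarifoldData m k} {x : Euc k} {M M' : Mo m n k} {l L : ℝ}
    (h : Sel1 N Ks D x M M' l L) (hdu : ‖fderiv ℝ M.u 0‖ ≤ 0) :
    ‖fderiv ℝ M'.u 0‖ ≤ Real.exp (-(399 / 800 * L)) := by
  have h1 := h.d1 0
  have h2 := norm_le_norm_add_norm_sub' (fderiv ℝ M'.u 0) (fderiv ℝ M.u 0)
  linarith

theorem exp_small {a x c L : ℝ} (hx : 0 < x) (h : a / x ≤ Real.exp (c * L)) :
    a * Real.exp (-(c * L)) ≤ x := by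
  rw [div_le_iff₀ hx] at h
  have h1 := Real.exp_pos (-(c * L))
  calc a * Real.exp (-(c * L)) ≤ Real.exp (c * L) * x * Real.exp (-(c * L)) := by gcongr
    _ = x * (Real.exp (c * L) * Real.exp (-(c * L))) := by ring
    _ = x := by rw [← Real.exp_add, add_neg_cancel, Real.exp_zero, mul_one]

theorem qq_le_eps {L : ℝ} (hL : 100 ≤ L) : qq L ≤ eps L := by
  have hL0 : 0 < L := by linarith
  have h1 := qq_hi hL
  have h2 : 1 / L ≤ eps L := by
    unfold eps ww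
    have h3 : L ^ (-(1 / 2) : ℝ) = L ^ (1 / 2 : ℝ) / L := by
      rw [← Real.rpow_sub_one hL0.ne']; norm_num
    rw [h3, div_le_iff₀ hL0]
    have h4 : (8 : ℝ) ≤ L ^ (1 / 2 : ℝ) := by
      have h5 : (8 : ℝ) = (64 : ℝ) ^ (1 / 2 : ℝ) := by
        rw [← Real.sqrt_eq_rpow, show (64:ℝ) = 8 ^ 2 by norm_num, Real.sqrt_sq (by norm_num)]
      rw [h5]
      exact Real.rpow_le_rpow (by norm_num) (by linarith) (by norm_num)
    have h6 : L ^ (1 / 2 : ℝ) / L / 8 * L = L ^ (1 / 2 : ℝ) / 8 := by field_simp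
    rw [h6]; linarith
  exact h1.trans h2

theorem inv_qq_le {L : ℝ} (hL : 100 ≤ L) : 1 / qq L ≤ 2 * L ^ 2 := by
  have hL0 : 0 < L := by linarith
  have h1 := inv_qq hL
  have h2 : L ^ (3 / 2 : ℝ) ≤ L ^ 2 := by
    rw [← Real.rpow_natCast L 2]
    exact Real.rpow_le_rpow_of_exponent_le (by linarith) (by norm_num)
  have h3 : 13 / qq L = 13 * (1 / qq L) := by ring
  rw [h3] at h1
  nlinarith [sq_nonneg L]

set_option maxHeartbeats 1000000 in
theorem window (hUp : UpV) (hPos : PosV) (hMon : MonV) (hGL : GLP) (m n Q : ℕ) (hm : 3 ≤ m)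
    (hn : 1 ≤ n) (hQ : 1 ≤ Q) : ∃ N₀ : ℕ, 2 ≤ N₀ ∧ ∀ N : ℕ, N₀ ≤ N → ∀ Λ : ℝ, ∃ κ₁ ε₁ L₂ : ℝ,
      0 < κ₁ ∧ 0 < ε₁ ∧ 100 ≤ L₂ ∧
      ∀ (Ks : ℕ) (U : Set (Euc (m + n))) (D : VarifoldData m (m + n)) (x : Euc (m + n)) (ε₀ : ℝ)
        (M M' : Mo m n (m + n)) (l L : ℝ), Bk N U D Q x ε₀ Λ M l → M.κ ≤ κ₁ → ε₀ ≤ ε₁ →
        L₂ ≤ L → M.lb - 5 / 4 ≤ l → M.I x (VD D) l ≤ Real.exp (2 * l - L) →
        ‖fderiv ℝ M.u 0‖ ≤ 0 → x ∈ singularSet m (m + n) U D → Sel1 N Ks D x M M' l L →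
        (6 / 5 * L ≤ lam (M'.I x (VD D)) (l - 11 * eps L) ∧
          0 < M'.I x (VD D) (l - 11 * eps L)) ∨
        ∃ l', l - 11 * eps L + 2 * qq L ≤ l' ∧ l' + 2 * qq L ≤ l - 3 * eps L ∧
          0 < M'.I x (VD D) l' ∧
          fr (M'.E x (VD D) Q) (M'.I x (VD D)) l' ≤ 20 * L ^ (3 / 2 : ℝ) ∧
          (∀ s, l' - 2 * qq L ≤ s → s ≤ l' + 2 * qq L →
            Real.log (M'.I x (VD D) s) ≤ Real.log (M'.I x (VD D) l') + 2) ∧
          49 / 50 * L ≤ lam (M'.I x (VD D)) l' ∧ lam (M'.I x (VD D)) l' ≤ 61 / 50 * L := by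
  obtain ⟨NG, HG⟩ := hGL m n Q hm hn hQ
  refine ⟨max 2 NG, le_max_left _ _, fun N hN Λ => ?_⟩
  have hN2 : 2 ≤ N := (le_max_left _ _).trans hN
  obtain ⟨C₀, Cδ, hC₀, hCδ, HG⟩ := HG N ((le_max_right _ _).trans hN) 3 Λ
  obtain ⟨κg, εg, Lg, hκg, hεg, HG⟩ := HG 1
  obtain ⟨κu, εu, Cu, hκu, hεu, hCu, HU⟩ := hUp m n (m + n) N Q Λ (by omega) hN2
  obtain ⟨κp, εp, hκp, hεp, HP⟩ := hPos m n (m + n) N Q Λ (by omega) hN2
  obtain ⟨κm, εm, hκm, hεm, HM⟩ := hMon m n (m + n) N Q Λ hm hN2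
  obtain ⟨Ls, hLs, hstep⟩ := step_case m (Nat.cast_nonneg m)
  obtain ⟨κq, hκq⟩ : ∃ κq : ℝ, κq = 1 / (200 * (Cδ + 1)) := ⟨_, rfl⟩
  have hκq0 : 0 < κq := by rw [hκq]; positivity
  obtain ⟨κn, hκn⟩ : ∃ κn : ℝ, κn = min (min κg κu) (min (min κp κm) κq) := ⟨_, rfl⟩
  have hκn0 : 0 < κn := by
    rw [hκn]
    exact lt_min (lt_min hκg hκu) (lt_min (lt_min hκp hκm) hκq0)
  have k1 : κn ≤ κg := by rw [hκn]; exact (min_le_left _ _).trans (min_le_left _ _)
  have k2 : κn ≤ κu := by rw [hκn]; exact (min_le_left _ _).trans (min_le_right _ _)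
  have k3 : κn ≤ κp := by
    rw [hκn]; exact (min_le_right _ _).trans ((min_le_left _ _).trans (min_le_left _ _))
  have k4 : κn ≤ κm := by
    rw [hκn]; exact (min_le_right _ _).trans ((min_le_left _ _).trans (min_le_right _ _))
  have k5 : κn ≤ κq := by rw [hκn]; exact (min_le_right _ _).trans (min_le_right _ _)
  obtain ⟨L1, hL1, p1⟩ := poly (Cu * (1 + Real.exp (5 / 2))) 2 (show (0:ℝ) < 3 / 400 by norm_num)
  obtain ⟨L2, hL2, p2⟩ := poly 10000 1 (show (0:ℝ) < 399 / 800 by norm_num)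
  obtain ⟨L3, hL3, p3⟩ := poly (2 / κn) 0 (show (0:ℝ) < 399 / 800 by norm_num)
  refine ⟨κn / 2, min (min εg εu) (min εp εm),
    max (max (max L1 L2) (max L3 Ls)) (max (2 * |Lg|) 1000),
    by positivity, lt_min (lt_min hεg hεu) (lt_min hεp hεm), ?_, ?_⟩
  · exact hL1.trans (((le_max_left _ _).trans (le_max_left _ _)).trans (le_max_left _ _))
  intro Ks U D x ε₀ M M' l L hB hκ hε hL hl hI hdu hx hsel
  simp only [max_le_iff] at hL
  obtain ⟨⟨⟨l1, l2⟩, l3, l4⟩, l5, l6⟩ := hL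
  simp only [le_min_iff] at hε
  obtain ⟨⟨e1, e2⟩, e3, e4⟩ := hε
  have hL100 : 100 ≤ L := hL1.trans l1
  have hL0 : 0 < L := by linarith
  have he := eps_pos hL0
  have he1 := eps_le hL100
  have q1 := p1 L l1
  have q2 := p2 L l2
  have q3 := p3 L l3
  rw [pow_one] at q2
  rw [pow_zero, div_one] at q3
  have hw8 : ww L = 8 * eps L := by unfold eps; ring
  have hqe := qq_le_eps hL100
  have hq0 := qq_pos hL0
  have hqi := inv_qq_le hL100
  set e := eps L with hedef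
  set q := qq L with hqdef
  set τ := Real.exp (-(399 / 800 * L)) with hτ
  have hτ0 : 0 < τ := Real.exp_pos _
  have hτκ : τ ≤ κn / 2 := by
    have h1 := exp_small (a := 1) (x := κn / 2) (c := 399 / 800) (L := L) (by positivity) (by
      refine le_trans (le_of_eq ?_) q3
      field_simp)
    rwa [one_mul] at h1
  have hτe : 10000 * τ ≤ e := exp_small he q2
  have hS := M.S_pos
  have hlb := hB.hi
  have hκ' : M'.κ ≤ κn := by rw [hsel.hκ]; linarith
  have hκ'0 : 0 ≤ M'.κ := by rw [hsel.hκ]; exact add_nonneg hB.κ0 hτ0.le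
  have hdu' := Sel1.du hsel hdu
  have hlb' : M'.lb = M.lb := hsel.hlb
  have hbk : ∀ s, M.lb - 3 ≤ s → s ≤ l - 2 * e → Bk N U D Q x ε₀ Λ M' s := fun s h1 h2 =>
    Sel1.bk hsel hB he.le h1 h2
  -- upper bound of `I'`
  have hSl : M.S ^ 2 ≤ Real.exp (5 / 2) * Real.exp (2 * l) := by
    unfold Mo.S
    rw [← Real.exp_nat_mul, ← Real.exp_add]
    exact Real.exp_le_exp.2 (by push_cast; linarith)
  have hτ2 : τ ^ 2 = Real.exp (-(399 / 400 * L)) := by
    rw [hτ, ← Real.exp_nat_mul]; congr 1; push_cast; ring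
  have hup : ∀ s, M.lb - 3 ≤ s → s ≤ l - e → M'.I x (VD D) s ≤ Real.exp (2 * l - 99 / 100 * L) := by
    intro s h1 h2
    have h3 := HU U D x ε₀ M M' l s e τ hB (by linarith) e2 hsel.hπ hsel.hρ hsel.hlb
      (hsel.mg.mono (by linarith) (Real.exp_pos _).le) he (by linarith) h2 h1 hsel.d0 hsel.d1 hτe
    refine h3.trans ?_
    have h4 : M.I x (VD D) l ≤ Real.exp (2 * l) * Real.exp (-(399 / 400 * L)) := by
      refine hI.trans ?_
      rw [← Real.exp_add]
      exact Real.exp_le_exp.2 (by linarith)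
    have h5 : τ ^ 2 * M.S ^ 2 ≤ Real.exp (-(399 / 400 * L)) * (Real.exp (5 / 2) * Real.exp (2 * l)) := by
      rw [hτ2]; gcongr
    calc Cu / e ^ 2 * (M.I x (VD D) l + τ ^ 2 * M.S ^ 2) ≤
        Cu / e ^ 2 * (Real.exp (2 * l) * Real.exp (-(399 / 400 * L)) +
          Real.exp (-(399 / 400 * L)) * (Real.exp (5 / 2) * Real.exp (2 * l))) := by gcongr
      _ = (Cu * (1 + Real.exp (5 / 2)) / e ^ 2) *
          (Real.exp (2 * l) * Real.exp (-(399 / 400 * L))) := by ring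
      _ ≤ Real.exp (3 / 400 * L) * (Real.exp (2 * l) * Real.exp (-(399 / 400 * L))) := by gcongr
      _ = Real.exp (2 * l - 99 / 100 * L) := by
        rw [← Real.exp_add, ← Real.exp_add]; congr 1; ring
  have hpos : ∀ s, M.lb - 3 ≤ s → s ≤ l - 2 * e → 0 < M'.I x (VD D) s := fun s h1 h2 =>
    HP U D x ε₀ M' s (hbk s h1 h2) (by linarith) e3 hx
  have hlam : ∀ s, l - 11 * e ≤ s → s ≤ l - 2 * e → 97 / 100 * L ≤ lam (M'.I x (VD D)) s := by
    intro s h1 h2
    have h3 := hup s (by linarith) (by linarith)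
    have h4 := Real.log_le_log (hpos s (by linarith) h2) h3
    rw [Real.log_exp] at h4
    unfold lam
    linarith
  have hmon : ∀ s t, s ≤ t → t ≤ l - 2 * e → M.lb - 3 ≤ t →
      M'.I x (VD D) s ≤ Real.exp (m * (t - s)) * M'.I x (VD D) t ∧
      M'.e x (VD D) s ≤ Real.exp (m * (t - s)) * M'.e x (VD D) t ∧ 0 ≤ M'.e x (VD D) s := by
    intro s t h1 h2 h3
    exact HM U D x ε₀ M' t (hbk t h3 h2) (by linarith) e4 s t h1 le_rfl
  -- GL
  have hK4 : 4 ≤ 1 / q := by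
    rw [le_div_iff₀ hq0]; linarith
  have hgl : ∀ c, l - 11 * e + q ≤ c → c ≤ l - 2 * e → ∃ (R : ℝ → ℝ),
      Nb_290.StepW C₀ (l - 11 * e) (c - q) (1 / 100) (1 / 300 * M'.I x (VD D) c)
          (M'.I x (VD D)) (M'.E x (VD D) Q) (M'.e x (VD D)) (M'.b x (VD D) Q) R := by
    intro c h1 h2
    have hlc := hlam c (by linarith) h2
    have hIc := hpos c (by linarith) h2
    have h1q : 1 / (1 / q) = q := by rw [one_div_one_div]
    have hlam1 : 1 ≤ lam (M'.I x (VD D)) c := by linarith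
    obtain ⟨R, w, hw0, hw, hst⟩ := HG U D x M' (l - 11 * e) c (1 / q)
      (Bk.sit (Bk.mono_eps (hbk c (by linarith) h2) e1)) hκ'0 (by linarith)
      (hbk c (by linarith) h2).mg hK4 (by rw [h1q]; linarith) (by rw [hlb']; linarith)
      (by rw [hlb']; linarith) hIc (by
        have := le_abs_self Lg
        linarith) (by
        refine hqi.trans ?_
        have h5 : (97 / 100 * L) ^ 3 ≤ lam (M'.I x (VD D)) c ^ 3 := by gcongr
        refine le_trans ?_ h5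
        have h6 : (97 / 100 * L) ^ 3 = (97 / 100) ^ 3 * L * L ^ 2 := by ring
        rw [h6]
        gcongr
        norm_num
        linarith)
    rw [h1q] at hst
    refine ⟨R, hst.weaken le_rfl ?_ (hw.trans ?_)⟩
    · have h5 : Real.exp (c - M'.lb) ≤ 1 := Real.exp_le_one_iff.2 (by rw [hlb']; linarith)
      have h6 : M'.κ * Real.exp (c - M'.lb) ≤ κn * 1 := mul_le_mul hκ' h5 (Real.exp_pos _).le hκn0.le
      have h7 : M'.κ * Real.exp (c - M'.lb) + ‖fderiv ℝ M'.u 0‖ ≤ 3 / 2 * κq := by linarith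
      calc Cδ * (M'.κ * Real.exp (c - M'.lb) + ‖fderiv ℝ M'.u 0‖) ≤ Cδ * (3 / 2 * κq) := by gcongr
        _ ≤ (Cδ + 1) * (3 / 2 * κq) := by gcongr; linarith
        _ ≤ 1 / 100 := by
          rw [hκq]
          have : (Cδ + 1) * (3 / 2 * (1 / (200 * (Cδ + 1)))) = 3 / 400 := by field_simp; norm_num
          rw [this]; norm_num
    · rw [pow_one]
      refine mul_le_mul_of_nonneg_right ?_ hIc.le
      rw [one_div]
      refine inv_anti₀ (by norm_num) ?_
      linarith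
  have hgw : GLw (M'.I x (VD D)) (M'.e x (VD D)) (M'.E x (VD D) Q) (M'.b x (VD D) Q)
      (l - 3 * e - ww L) (l - 3 * e) (qq L) (1 / 100) (1 / 300) m := by
    rw [hw8, show l - 3 * e - 8 * e = l - 11 * e by ring]
    refine ⟨fun s h1 h2 => hpos s (by linarith) (by linarith),
      fun s h1 h2 => (hmon s s le_rfl (by linarith) (by linarith)).2.2, ?_, ?_, ?_, ?_, ?_⟩
    · intro s h1 h2
      obtain ⟨R, hst⟩ := hgl (l - 3 * e + q) (by linarith) (by linarith)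
      exact hst.hE s ⟨h1, by linarith⟩
    · intro s c h1 h2 h3
      obtain ⟨R, hst⟩ := hgl c (by linarith) (by linarith)
      exact hst.dI s ⟨h1, by linarith⟩
    · intro s c h1 h2 h3
      obtain ⟨R, hst⟩ := hgl c (by linarith) (by linarith)
      exact hst.hb s ⟨h1, by linarith⟩
    · intro s t h1 h2 h3
      exact (hmon s t h2 (by linarith) (by linarith)).1
    · intro s t h1 h2 h3
      exact (hmon s t h2 (by linarith) (by linarith)).2.1
  have hfin := hstep L l4 (M'.I x (VD D)) (M'.e x (VD D)) (M'.E x (VD D) Q) (M'.b x (VD D) Q)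
    l (l - 3 * e) (1 / 100) (1 / 300) (by rw [hw8]; linarith) (by linarith) le_rfl le_rfl (by
      have h4 := Real.log_le_log (hpos (l - 3 * e) (by linarith) (by linarith))
        (hup (l - 3 * e) (by linarith) (by linarith))
      rwa [Real.log_exp] at h4) hgw
  rw [hw8, show l - 3 * e - 8 * e = l - 11 * e by ring] at hfin
  rcases hfin with h | ⟨l', g1, g2, g3, g4, g5, g6⟩
  · exact Or.inl ⟨h, hpos _ (by linarith) (by linarith)⟩
  · exact Or.inr ⟨l', g1, g2, hpos _ (by linarith) (by linarith), g3, g4, g5, g6⟩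

end Crest.Agent.R234.F10z_188
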