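import Crest.Agent.R234.F10z_188

/-!
# Row 234, (F8) START, F11a (helper188): the state case

`mkState` : at a level found by `window` the selected reference is a state (`Stp_518.Sta`).
-/

set_option autoImplicit false
set_option linter.unusedVariables false

open MeasureTheory Filter Topology Set
open scoped ENNReal NNReal ContDiff
open Crest.GeometryTopology.Submanifold Crest.Agent.R234.Vf_884
open Crest.Agent.R234.Main_456 (Frame Msys hgt NearQ)
open Crest.Agent.R234.MG_570 (MG SelP3)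
open Crest.Agent.R234.F10a_188 Crest.Agent.R234.F10b_188
open Crest.Agent.R234.Top_395 Crest.Agent.R234.Stp_518
open Crest.Agent.R234.F10t_188 Crest.Agent.R234.F10w_188 Crest.Agent.R234.F10y_188
open Crest.Agent.R234.F10z_188

noncomputable section

namespace Crest.Agent.R234.F11a_188

theorem pow32 {A L : ℝ} (hL : 0 < L) (h : A ^ 2 ≤ L) : A * L ^ (3 / 2 : ℝ) ≤ L ^ 2 := by
  have h1 : L ^ 2 = L ^ (1 / 2 : ℝ) * L ^ (3 / 2 : ℝ) := by
    rw [← Real.rpow_add hL, ← Real.rpow_natCast]; norm_num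
  have h2 : A ≤ L ^ (1 / 2 : ℝ) := by
    rw [← Real.sqrt_eq_rpow]
    exact Real.le_sqrt_of_sq_le h
  rw [h1]
  exact mul_le_mul_of_nonneg_right h2 (Real.rpow_nonneg hL.le _)

theorem Rec.raise {k : Cst} {L₁ κm G Kb Pb l lb L f κ K : ℝ}
    (h : Rec k L₁ κm G l L Kb Pb l L f κ K) (hl : l ≤ lb) (hG : 0 ≤ G) (hK : 0 ≤ Kb) :
    Rec k L₁ κm G lb L Kb Pb l L f κ K := by
  refine ⟨hl, h.hLb, h.hK, h.hP, h.hbase, h.hPK, by linarith, ?_⟩
  have : 0 ≤ (G + 1) * Kb * (lb - l) :=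
    mul_nonneg (mul_nonneg (by linarith) hK) (by linarith)
  linarith

theorem tau_le {L : ℝ} (hL : 100 ≤ L) : Real.exp (-(399 / 800 * L)) ≤ 1 / L := by
  have hL0 : 0 < L := by linarith
  rw [Real.exp_neg, one_div]
  refine inv_anti₀ hL0 ?_
  have h1 := Real.add_one_le_exp (399 / 1600 * L)
  have h2 : Real.exp (399 / 800 * L) = Real.exp (399 / 1600 * L) ^ 2 := by
    rw [← Real.exp_nat_mul]; congr 1; push_cast; ring
  rw [h2]
  have h3 : 399 / 1600 * L ≤ Real.exp (399 / 1600 * L) := by linarith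
  have h4 : (399 / 1600 * L) ^ 2 ≤ Real.exp (399 / 1600 * L) ^ 2 :=
    pow_le_pow_left₀ (by positivity) h3 2
  nlinarith

variable {m n k : ℕ}

theorem I_eq_exp {I : ℝ → ℝ} {l : ℝ} (h : 0 < I l) : I l = Real.exp (2 * l - lam I l) := by
  unfold lam
  rw [sub_sub_cancel, Real.exp_log h]

theorem sqrt_I {I : ℝ → ℝ} {l : ℝ} (h : 0 < I l) : √(I l) = Real.exp (l - lam I l / 2) := by
  rw [I_eq_exp h, ← Real.exp_half]
  congr 1
  have : lam I l = lam I l := rfl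
  ring

/-- numbers of the state case. -/
theorem numb {P κm L₁ : ℝ} (hκm : 0 < κm) (hP : 0 ≤ P) (hL₁ : 0 < L₁) : ∃ L₂ : ℝ, 100 ≤ L₂ ∧
    ∀ L Lm F : ℝ, L₂ ≤ L → 49 / 50 * L ≤ Lm → F ≤ 20 * L ^ (3 / 2 : ℝ) →
      ∃ K : ℝ, 32 ≤ K ∧ 8 * F ≤ K ∧ 1 / K ≤ qq L ∧ K ≤ 2 * Lm ^ 2 ∧
        32 * max F 1 ≤ Lm ^ 2 ∧ P * max F 1 ≤ Lm ^ 2 ∧
        Real.exp (-(399 / 800 * L)) ≤ κm / 20 ∧ Real.exp (-(399 / 800 * L)) ≤ 1 / L ∧ L₁ ≤ Lm := by
  obtain ⟨L3, hL3, p3⟩ := poly (20 / κm) 0 (show (0:ℝ) < 399 / 800 by norm_num)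
  refine ⟨max (max L3 (2 * L₁)) (max ((22 * P) ^ 2) (704 ^ 2)), ?_, ?_⟩
  · exact hL3.trans ((le_max_left _ _).trans (le_max_left _ _))
  intro L Lm F hL hlo hfr
  simp only [max_le_iff] at hL
  obtain ⟨⟨l3, l4⟩, l5, l6⟩ := hL
  have hL100 : 100 ≤ L := hL3.trans l3
  have hL0 : 0 < L := by linarith
  have q3 := p3 L l3
  rw [pow_zero, div_one] at q3
  have hq0 := qq_pos hL0
  have hqi := inv_qq hL100
  have r1 := pow32 (A := 22 * P) hL0 l5
  have r2 := pow32 (A := 704) hL0 l6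
  have hr1 : 1 ≤ L ^ (3 / 2 : ℝ) := Real.one_le_rpow (by linarith) (by norm_num)
  generalize L ^ (3 / 2 : ℝ) = r at *
  generalize qq L = q at *
  have hLm2 : 24 / 25 * L ^ 2 ≤ Lm ^ 2 := by
    have h1 : (49 / 50 * L) ^ 2 ≤ Lm ^ 2 := pow_le_pow_left₀ (by positivity) hlo 2
    have h2 : (49 / 50 * L) ^ 2 = 2401 / 2500 * L ^ 2 := by ring
    have h3 : 0 ≤ L ^ 2 := sq_nonneg L
    linarith
  have hF : max F 1 ≤ 21 * r := max_le (by linarith) (by linarith)
  refine ⟨max 32 (160 * r), le_max_left _ _, le_trans (by linarith) (le_max_right _ _), ?_, ?_, ?_,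
    ?_, ?_, tau_le hL100, by linarith⟩
  · have h1 : 160 * r ≤ max 32 (160 * r) := le_max_right _ _
    have h2 : 1 / q ≤ max 32 (160 * r) := by
      have h3 : 13 / q = 13 * (1 / q) := by ring
      rw [h3] at hqi
      linarith
    rw [div_le_iff₀ hq0] at h2
    rw [div_le_iff₀ (by linarith)]
    linarith
  · exact max_le (by linarith) (by linarith)
  · linarith
  · have h3 : P * max F 1 ≤ P * (21 * r) := mul_le_mul_of_nonneg_left hF hP
    have h4 : P * (21 * r) = 21 / 22 * (22 * P * r) := by ring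
    linarith [sq_nonneg L]
  · have h1 := exp_small (a := 1) (x := κm / 20) (c := 399 / 800) (L := L) (by positivity) (by
      refine le_trans (le_of_eq ?_) q3
      field_simp)
    rwa [one_mul] at h1

set_option maxHeartbeats 1000000 in
theorem mkState (c : Cn) (C : Cst) {κm P : ℝ} (hT : 3 ≤ c.T) (hG : 2 ≤ c.G) (hκm : 0 < κm)
    (hκ₀ : 2 * κm ≤ c.κ₀) (hL₁ : 0 < c.L₁)
    (hCK : 2 + Real.exp (2 * C.b * κm + 4 * C.A / c.L₁) ≤ c.CK)
    (hb : 32 * Real.exp (C.base c.L₁ κm) ≤ c.L₁ ^ 2) (hP : 0 ≤ P) :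
    ∃ L₂ : ℝ, 100 ≤ L₂ ∧ ∀ (D : VarifoldData m k) (x : Euc k) (Q : ℝ) (M M' : Mo m n k)
      (l L l' : ℝ), L₂ ≤ L → Frame M.π M.ρ → 0 ≤ M.κ → M.κ ≤ κm → l ≤ M.lb - 1 / 8 →
      M.lb - 5 / 4 ≤ l → ‖fderiv ℝ M.u 0‖ ≤ 0 → Sel1 c.N c.Ks D x M M' l L →
      l - 11 * eps L + 2 * qq L ≤ l' → l' + 2 * qq L ≤ l - 3 * eps L →
      0 < M'.I x (VD D) l' →
      fr (M'.E x (VD D) Q) (M'.I x (VD D)) l' ≤ 20 * L ^ (3 / 2 : ℝ) →
      (∀ s, l' - 2 * qq L ≤ s → s ≤ l' + 2 * qq L →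
        Real.log (M'.I x (VD D) s) ≤ Real.log (M'.I x (VD D) l') + 2) →
      49 / 50 * L ≤ lam (M'.I x (VD D)) l' → lam (M'.I x (VD D)) l' ≤ 61 / 50 * L →
      ∃ M'' : Mo m n k, Sta c C κm (VD D) Q x M'' l' ∧
        P * (1 + (world c C κm (VD D) Q x).f M'' l') ≤ (world c C κm (VD D) Q x).L M'' l' ^ 2 ∧
        (world c C κm (VD D) Q x).κ M'' l' ≤ M.κ + 1 / L ∧
        (world c C κm (VD D) Q x).κ M'' l' ≤ κm := by
  obtain ⟨L₂, hL₂, H⟩ := numb (L₁ := c.L₁) hκm hP hL₁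
  refine ⟨L₂, hL₂, ?_⟩
  intro D x Q M M' l L l' hL hf hκ0 hκ hl8 hl hdu hsel h1 h2 hpos hfr hgr hlo hhi
  obtain ⟨K, hK32, hKN, hKq, hKL, hf32, hPf, hτκ, hτL, hLL⟩ := H L _ _ hL hlo hfr
  have hL100 : 100 ≤ L := hL₂.trans hL
  have hL0 : 0 < L := by linarith
  have he := eps_pos hL0
  have he1 := eps_le hL100
  have hq0 := qq_pos hL0
  have hdu' := Sel1.du hsel hdu
  have hlb' : M'.lb = M.lb := hsel.hlb
  have hS := M.S_pos
  have hS' : M'.S = M.S := by unfold Mo.S; rw [hlb']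
  have hK0 : 0 < K := by linarith
  have hκ' : M'.κ = M.κ + Real.exp (-(399 / 800 * L)) := hsel.hκ
  have hτ0 : 0 < Real.exp (-(399 / 800 * L)) := Real.exp_pos _
  have hsq := sqrt_I hpos
  obtain ⟨Lm, hLm⟩ : ∃ Lm : ℝ, Lm = lam (M'.I x (VD D)) l' := ⟨_, rfl⟩
  obtain ⟨f, hfdef⟩ : ∃ f : ℝ, f = fx (M'.E x (VD D) Q) (M'.I x (VD D)) l' := ⟨_, rfl⟩
  rw [← hLm] at hlo hhi hKL hf32 hPf hLL hsq
  have hf1 : 1 + f = max (fr (M'.E x (VD D) Q) (M'.I x (VD D)) l') 1 := by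
    rw [hfdef]; unfold fx; ring
  rw [← hf1] at hf32 hPf
  have hf0 : 0 ≤ f := by rw [hfdef]; exact fx_nonneg _ _ _
  -- curvature
  have hkap : M'.kap l' ≤ κm := by
    unfold Mo.kap
    have h3 : Real.exp (-(4 / 5 * (M'.lb - l'))) ≤ 10 / 11 := by
      have h4 : Real.exp (-(4 / 5 * (M'.lb - l'))) ≤ Real.exp (-(1 / 10)) :=
        Real.exp_le_exp.2 (by rw [hlb']; linarith)
      refine h4.trans ?_
      rw [Real.exp_neg, inv_le_comm₀ (Real.exp_pos _) (by norm_num)]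
      have := Real.add_one_le_exp (1 / 10 : ℝ)
      linarith
    calc M'.κ * Real.exp (-(4 / 5 * (M'.lb - l'))) ≤ (κm + κm / 20) * (10 / 11) := by
          rw [hκ']
          exact mul_le_mul (by linarith) h3 (Real.exp_pos _).le (by linarith)
      _ ≤ κm := by linarith
  have hkap2 : M'.kap l' ≤ M.κ + 1 / L := by
    unfold Mo.kap
    have h3 : Real.exp (-(4 / 5 * (M'.lb - l'))) ≤ 1 := by
      refine Real.exp_le_one_iff.2 ?_
      rw [hlb']; linarith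
    calc M'.κ * Real.exp (-(4 / 5 * (M'.lb - l'))) ≤ M'.κ * 1 :=
          mul_le_mul_of_nonneg_left h3 (by rw [hκ']; linarith)
      _ ≤ M.κ + 1 / L := by rw [hκ']; linarith
  -- the record
  obtain ⟨hrec, hKb⟩ := Rec.start (k := C) (G := c.G) (l := l') (L := Lm) (f := f)
    (κ := M'.kap l') (K := K) hL₁ hLL hkap (by linarith) hKL hf32 hb
  obtain ⟨Kb, hKbdef⟩ : ∃ Kb : ℝ, Kb = max K (max (32 * Real.exp (C.pot Lm f (M'.kap l'))) (Lm ^ 2)) :=
    ⟨_, rfl⟩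
  obtain ⟨Pb, hPbdef⟩ : ∃ Pb : ℝ, Pb = max (C.pot Lm f (M'.kap l')) (C.base c.L₁ κm) := ⟨_, rfl⟩
  rw [← hKbdef, ← hPbdef] at hrec
  rw [← hKbdef] at hKb
  have hKb0 : 0 ≤ Kb := by rw [hKbdef]; exact hK0.le.trans (le_max_left _ _)
  have hrec' : Rec C c.L₁ κm c.G (M'.lb - 1 / 8) Lm Kb Pb l' Lm f (M'.kap l') K :=
    Rec.raise hrec (by rw [hlb']; linarith) (by linarith) hKb0
  have hKb' : Kb ≤ c.CK * Lm ^ 2 := by
    refine hKb.trans ?_
    exact mul_le_mul_of_nonneg_right hCK (sq_nonneg _)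
  -- the radius
  have hrad : Real.exp (l' + 1 / K - M'.lb) * (1 + 1 / (8 * K)) ≤
      Real.exp (l - 2 * eps L - M.lb) := by
    have h3 : 1 + 1 / (8 * K) ≤ Real.exp (1 / (8 * K)) := by
      have := Real.add_one_le_exp (1 / (8 * K)); linarith
    refine (mul_le_mul_of_nonneg_left h3 (Real.exp_pos _).le).trans ?_
    rw [← Real.exp_add]
    refine Real.exp_le_exp.2 ?_
    have h4 : 1 / (8 * K) = 1 / K / 8 := by field_simp
    rw [h4, hlb']
    linarith
  have hexp2 : Real.exp (-(399 / 800 * L)) ≤ Real.exp (-(Lm / 4)) :=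
    Real.exp_le_exp.2 (by linarith)
  have hduF : ‖fderiv ℝ M'.u 0‖ ≤ Real.exp (-Lm / 4) * (M'.lb - l') := by
    refine hdu'.trans ?_
    rw [hlb']
    have h3 : 1 / 8 ≤ M.lb - l' := by linarith
    have h4 : Real.exp (-(399 / 800 * L)) ≤ Real.exp (-Lm / 4) * (1 / 8) := by
      have h6 : (8:ℝ) ≤ Real.exp 7 := by
        have := Real.add_one_le_exp (7:ℝ); linarith
      have h7 : Real.exp (-(399 / 800 * L)) * Real.exp 7 ≤ Real.exp (-Lm / 4) := by
        rw [← Real.exp_add]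
        exact Real.exp_le_exp.2 (by linarith)
      have h8 := mul_le_mul_of_nonneg_left h6 hτ0.le
      linarith
    exact h4.trans (mul_le_mul_of_nonneg_left h3 (Real.exp_pos _).le)
  have hmean : Real.exp (l - 99 / 100 * L) ≤ Real.exp (-(Lm / 4)) * √(M'.I x (VD D) l') := by
    rw [hsq, ← Real.exp_add]
    exact Real.exp_le_exp.2 (by linarith)
  have hsup : ∀ᵐ p ∂(VD D), ‖M'.π (p.1 - x)‖ ≤
      M'.S * (Real.exp (l' + 1 / K - M'.lb) * (1 + 1 / (8 * K))) → ‖M'.ρ (p.1 - x)‖ ≤ M'.S →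
      ‖hgt M'.π M'.ρ x M'.S M'.u p.1‖ ≤ M'.S * Real.exp (-(Lm / 4)) := by
    rw [hS', hsel.hπ, hsel.hρ]
    filter_upwards [hsel.sup] with p hp g1 g2
    have h3 : M.S * (Real.exp (l' + 1 / K - M'.lb) * (1 + 1 / (8 * K))) ≤
        Real.exp (l - eps L) := by
      refine (mul_le_mul_of_nonneg_left hrad hS.le).trans ?_
      have h5 : M.S * Real.exp (l - 2 * eps L - M.lb) = Real.exp (l - 2 * eps L) := S_mul_exp M _
      rw [h5]
      exact Real.exp_le_exp.2 (by linarith)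
    exact (hp (g1.trans h3) g2).trans (mul_le_mul_of_nonneg_left hexp2 hS.le)
  have hgrow : Real.log (M'.I x (VD D) (l' + 1 / K)) ≤ Real.log (M'.I x (VD D) l') + c.G := by
    have hK1 : 0 < 1 / K := by positivity
    have := hgr (l' + 1 / K) (by linarith) (by linarith)
    linarith
  refine ⟨{ M' with K := K, Lb := Lm, Kb := Kb, Pb := Pb }, ?_, ?_, hkap2, hkap⟩
  · exact {
      cls := {
        frame := by
          show Frame M'.π M'.ρ
          rw [hsel.hπ, hsel.hρ]; exact hf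
        κ0 := by
          show 0 ≤ M'.κ
          rw [hκ']; linarith
        κ1 := by
          show M'.κ ≤ c.κ₀
          rw [hκ']; linarith
        mg := hsel.mg.mono le_rfl hrad
        du := hduF }
      lo := by
        show M'.lb - c.T ≤ l'
        rw [hlb']; linarith
      pos := hpos
      mean := by
        intro ζ hζ hζs hζb
        have h3 := hsel.mean ζ hζ (hζs.trans (Metric.ball_subset_ball hrad)) hζb
        refine h3.trans ?_
        have h4 := mul_le_mul_of_nonneg_left hmean (pow_nonneg M'.S_pos.le m)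
        rw [hLm] at h4
        exact h4
      sup := by
        rw [hLm] at hsup
        exact hsup
      grow := hgrow
      K32 := hK32
      KL := by rw [hLm] at hKL; exact hKL
      KN := hKN
      L1 := by rw [hLm] at hLL; exact hLL
      KbL := hKb'
      rcd := by
        have h3 := hrec'
        rw [hfdef] at h3
        rw [hLm] at h3 ⊢
        exact h3 }
  · show P * (1 + fx (M'.E x (VD D) Q) (M'.I x (VD D)) l') ≤ lam (M'.I x (VD D)) l' ^ 2
    rw [← hfdef, ← hLm]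
    exact hPf

end Crest.Agent.R234.F11a_188
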