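import Crest.Agent.R234.Main2_456

/-!
# Row 234, VF-F11 (helper435), part 1: from `Ref` at `x` to every other centre `z`, in graph heights

`hgt` is the height over the graph of `u`; the translated graph through `z` has the height function
`hgt p - hgt z` exactly.  Change of centre, translation of the reference graph, doubling at `z`.
-/

set_option autoImplicit false
set_option linter.unusedVariables false

open MeasureTheory Filter Topology Set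
open scoped ENNReal NNReal ContDiff InnerProductSpace
open Crest.GeometryTopology.Submanifold Crest.Agent.R234.Vf_884
open Crest.Agent.R234.Main_456
open Crest.Agent.R234.AS_456 (hp vp)

noncomputable section

namespace Crest.Agent.R234.F11_435

variable {m n k : ℕ} {V : Measure (Euc k × L k)} {π : Euc k →L[ℝ] Euc m} {ρ : Euc k →L[ℝ] Euc n}
  {x z : Euc k} {r : ℝ} {u : Euc m → Euc n}

theorem frame_norm_sq (h : Frame π ρ) (v : Euc k) : ‖v‖ ^ 2 = ‖π v‖ ^ 2 + ‖ρ v‖ ^ 2 := by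
  have h1 : ContinuousLinearMap.adjoint π (π v) + ContinuousLinearMap.adjoint ρ (ρ v) = v :=
    congrArg (fun T : Euc k →L[ℝ] Euc k => T v) h.full
  rw [← real_inner_self_eq_norm_sq v]
  nth_rewrite 2 [← h1]
  rw [inner_add_right, ContinuousLinearMap.adjoint_inner_right,
    ContinuousLinearMap.adjoint_inner_right, real_inner_self_eq_norm_sq,
    real_inner_self_eq_norm_sq]

theorem norm_pi_le (h : Frame π ρ) (v : Euc k) : ‖π v‖ ≤ ‖v‖ := by
  have h1 := frame_norm_sq h v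
  exact (sq_le_sq₀ (norm_nonneg _) (norm_nonneg _)).1 (by nlinarith [sq_nonneg ‖ρ v‖])

theorem norm_rho_le (h : Frame π ρ) (v : Euc k) : ‖ρ v‖ ≤ ‖v‖ := by
  have h1 := frame_norm_sq h v
  exact (sq_le_sq₀ (norm_nonneg _) (norm_nonneg _)).1 (by nlinarith [sq_nonneg ‖π v‖])

/-- the reference graph at scale `r` about `z`, translated so that it passes through `z`. -/
def uz (π : Euc k →L[ℝ] Euc m) (x z : Euc k) (r : ℝ) (u : Euc m → Euc n) (ξ : Euc m) : Euc n :=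
  u (ξ + r⁻¹ • π (z - x)) - u (r⁻¹ • π (z - x))

/-- heights over the translated graph, exactly. -/
theorem hgt_uz (π : Euc k →L[ℝ] Euc m) (ρ : Euc k →L[ℝ] Euc n) (x z : Euc k) (r : ℝ)
    (u : Euc m → Euc n) (p : Euc k) :
    hgt π ρ z r (uz π x z r u) p = hgt π ρ x r u p - hgt π ρ x r u z := by
  unfold hgt uz
  have h1 : r⁻¹ • π (p - z) + r⁻¹ • π (z - x) = r⁻¹ • π (p - x) := by
    rw [← smul_add, ← map_add, sub_add_sub_cancel]
  rw [h1, smul_sub]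
  have h2 : ρ (p - z) = ρ (p - x) - ρ (z - x) := by rw [← map_sub, sub_sub_sub_cancel_right]
  rw [h2]
  abel

theorem uz_zero (π : Euc k →L[ℝ] Euc m) (x z : Euc k) (r : ℝ) (u : Euc m → Euc n) :
    uz π x z r u 0 = 0 := by simp [uz]

theorem contDiff_uz (hu : ContDiff ℝ ∞ u) : ContDiff ℝ ∞ (uz π x z r u) :=
  (hu.comp (contDiff_id.add contDiff_const)).sub contDiff_const

theorem norm_xi_le (h : Frame π ρ) (hr : 0 < r) (hz : z ∈ Metric.closedBall x r) :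
    ‖r⁻¹ • π (z - x)‖ ≤ 1 := by
  rw [norm_smul, norm_inv, Real.norm_of_nonneg hr.le, inv_mul_le_iff₀ hr, mul_one]
  exact (norm_pi_le h _).trans (by simpa [dist_eq_norm] using hz)

theorem fderiv_uz (hu : ContDiff ℝ ∞ u) (ξ : Euc m) :
    fderiv ℝ (uz π x z r u) ξ = fderiv ℝ u (ξ + r⁻¹ • π (z - x)) := by
  unfold uz
  rw [fderiv_sub_const, fderiv_comp_add_right]

theorem Msys_uz (hu : ContDiff ℝ ∞ u) (ξ : Euc m) :
    Msys (uz π x z r u) ξ = Msys u (ξ + r⁻¹ • π (z - x)) := by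
  unfold Msys
  have h1 : fderiv ℝ (uz π x z r u) = fun ξ => fderiv ℝ u (ξ + r⁻¹ • π (z - x)) :=
    funext (fderiv_uz hu)
  rw [h1]
  have h2 : fderiv ℝ (fun ξ => fderiv ℝ u (ξ + r⁻¹ • π (z - x))) ξ =
      fderiv ℝ (fderiv ℝ u) (ξ + r⁻¹ • π (z - x)) := by
    rw [fderiv_comp_add_right]
  rw [h2]

theorem iter_uz (hu : ContDiff ℝ ∞ u) {j : ℕ} (hj : 1 ≤ j) (ξ : Euc m) :
    iteratedFDeriv ℝ j (uz π x z r u) ξ = iteratedFDeriv ℝ j u (ξ + r⁻¹ • π (z - x)) := by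
  have h0 : uz π x z r u = (fun ξ => u (ξ + r⁻¹ • π (z - x))) - fun _ => u (r⁻¹ • π (z - x)) := rfl
  have hj' : ((j : ℕ∞) : WithTop ℕ∞) ≤ ((⊤ : ℕ∞) : WithTop ℕ∞) := by exact_mod_cast le_top
  have hc : ContDiff ℝ ((j : ℕ∞) : WithTop ℕ∞) (fun ξ => u (ξ + r⁻¹ • π (z - x))) :=
    (hu.comp (contDiff_id.add contDiff_const)).of_le hj'
  rw [h0, iteratedFDeriv_sub hc contDiff_const]
  rw [Pi.sub_apply, iteratedFDeriv_const_of_ne (by omega)]
  simp [iteratedFDeriv_comp_add_right]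

/-- the part of the box of `x` over the ball of radius `a r` about `π z`. -/
def cyz (π : Euc k →L[ℝ] Euc m) (ρ : Euc k →L[ℝ] Euc n) (x : Euc k) (r : ℝ) (z : Euc k) (a : ℝ) :
    Set (Euc k) := {p | ‖π (p - z)‖ < a * r ∧ ‖ρ (p - x)‖ < 8 * r}

/-- height excess over the translated graph through `z` (not normalised). -/
def sepz (V : Measure (Euc k × L k)) (π : Euc k →L[ℝ] Euc m) (ρ : Euc k →L[ℝ] Euc n) (x : Euc k)
    (r : ℝ) (u : Euc m → Euc n) (z : Euc k) (a : ℝ) : ℝ :=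
  ∫ p in cyz π ρ x r z a ×ˢ univ, ‖hgt π ρ x r u p.1 - hgt π ρ x r u z‖ ^ 2 ∂V

theorem cyz_subset (h : Frame π ρ) (hr : 0 < r) (hz : z ∈ Metric.closedBall x r) {a : ℝ}
    (ha : a ≤ 7) : cyz π ρ x r z a ⊆ box π ρ x (8 * r) := by
  rintro p ⟨h1, h2⟩
  refine ⟨?_, h2⟩
  have h3 : π (p - x) = π (p - z) + π (z - x) := by rw [← map_add, sub_add_sub_cancel]
  have h4 : ‖π (z - x)‖ ≤ r := (norm_pi_le h _).trans (by simpa [dist_eq_norm] using hz)
  calc ‖π (p - x)‖ ≤ ‖π (p - z)‖ + ‖π (z - x)‖ := by rw [h3]; exact norm_add_le _ _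
    _ < a * r + r := add_lt_add_of_lt_of_le h1 h4
    _ ≤ 8 * r := by nlinarith

theorem box_subset_cyz (h : Frame π ρ) (hr : 0 < r) (hz : z ∈ Metric.closedBall x r) :
    box π ρ x (1 / 4 * r) ⊆ cyz π ρ x r z (5 / 4) := by
  rintro p ⟨h1, h2⟩
  refine ⟨?_, h2.trans_le (by nlinarith)⟩
  have h3 : π (p - z) = π (p - x) - π (z - x) := by rw [← map_sub, sub_sub_sub_cancel_right]
  have h4 : ‖π (z - x)‖ ≤ r := (norm_pi_le h _).trans (by simpa [dist_eq_norm] using hz)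
  calc ‖π (p - z)‖ ≤ ‖π (p - x)‖ + ‖π (z - x)‖ := by rw [h3]; exact norm_sub_le _ _
    _ < 1 / 4 * r + r := add_lt_add_of_lt_of_le h1 h4
    _ = 5 / 4 * r := by ring

theorem box_subset_ball (h : Frame π ρ) (hr : 0 < r) : box π ρ x (8 * r) ⊆ Metric.ball x (64 * r) := by
  rintro p ⟨h1, h2⟩
  rw [Metric.mem_ball, dist_eq_norm]
  have h3 := frame_norm_sq h (p - x)
  have h4 : ‖π (p - x)‖ ^ 2 < (8 * r) ^ 2 := pow_lt_pow_left₀ h1 (norm_nonneg _) two_ne_zero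
  have h5 : ‖ρ (p - x)‖ ^ 2 < (8 * r) ^ 2 := pow_lt_pow_left₀ h2 (norm_nonneg _) two_ne_zero
  refine lt_of_pow_lt_pow_left₀ 2 (by positivity) ?_
  nlinarith [sq_nonneg r]

theorem isOpen_box (π : Euc k →L[ℝ] Euc m) (ρ : Euc k →L[ℝ] Euc n) (x : Euc k) (s : ℝ) :
    IsOpen (box π ρ x s) := by
  have h1 : Continuous fun p : Euc k => ‖π (p - x)‖ := by fun_prop
  have h2 : Continuous fun p : Euc k => ‖ρ (p - x)‖ := by fun_prop
  exact (isOpen_lt h1 continuous_const).inter (isOpen_lt h2 continuous_const)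

theorem isOpen_cyz (π : Euc k →L[ℝ] Euc m) (ρ : Euc k →L[ℝ] Euc n) (x : Euc k) (r : ℝ) (z : Euc k)
    (a : ℝ) : IsOpen (cyz π ρ x r z a) := by
  have h1 : Continuous fun p : Euc k => ‖π (p - z)‖ := by fun_prop
  have h2 : Continuous fun p : Euc k => ‖ρ (p - x)‖ := by fun_prop
  exact (isOpen_lt h1 continuous_const).inter (isOpen_lt h2 continuous_const)

theorem continuous_hgt (hu : Continuous u) : Continuous (hgt π ρ x r u) := by
  unfold hgt
  fun_prop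

/-- a fixed smooth bump -/
theorem exists_bump (m K : ℕ) : ∃ (η : Euc m → ℝ) (B : ℝ), 1 ≤ B ∧ ContDiff ℝ ∞ η ∧
    tsupport η ⊆ Metric.closedBall 0 (3 / 2) ∧ (∀ ξ, 0 ≤ η ξ) ∧ (∀ ξ, η ξ ≤ 1) ∧
    (∀ ξ, ‖ξ‖ ≤ 5 / 4 → η ξ = 1) ∧ ∀ j ≤ K, ∀ ξ, ‖iteratedFDeriv ℝ j η ξ‖ ≤ B := by
  let b : ContDiffBump (0 : Euc m) := ⟨5 / 4, 3 / 2, by norm_num, by norm_num⟩
  have hb : ∀ j : ℕ, ∃ C : ℝ, ∀ ξ, ‖iteratedFDeriv ℝ j (b : Euc m → ℝ) ξ‖ ≤ C := by
    intro j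
    have h1 : Continuous (iteratedFDeriv ℝ j (b : Euc m → ℝ)) :=
      (b.contDiff (n := (⊤ : ℕ∞))).continuous_iteratedFDeriv (m := j) (by exact_mod_cast le_top)
    have h2 : HasCompactSupport (iteratedFDeriv ℝ j (b : Euc m → ℝ)) :=
      b.hasCompactSupport.iteratedFDeriv j
    obtain ⟨C, hC⟩ := h1.bounded_above_of_compact_support h2
    exact ⟨C, hC⟩
  choose C hC using hb
  refine ⟨b, 1 + ∑ j ∈ Finset.range (K + 1), |C j|, ?_, b.contDiff, ?_, fun ξ => b.nonneg,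
    fun ξ => b.le_one, ?_, ?_⟩
  · have : 0 ≤ ∑ j ∈ Finset.range (K + 1), |C j| := Finset.sum_nonneg fun _ _ => abs_nonneg _
    linarith
  · exact b.tsupport_eq.subset
  · intro ξ hξ
    exact b.one_of_mem_closedBall (by simpa using hξ)
  · intro j hj ξ
    have h1 : |C j| ≤ ∑ j ∈ Finset.range (K + 1), |C j| :=
      Finset.single_le_sum (f := fun j => |C j|) (fun _ _ => abs_nonneg _)
        (Finset.mem_range.2 (by omega))
    linarith [hC j ξ, le_abs_self (C j)]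

/-- standing hypotheses on `V` near `x`: finite mass in the box with an explicit bound. -/
theorem mass_box {Q : ℕ} {ε : ℝ} (hε : 0 ≤ ε) (hε1 : ε ≤ 1) {P : L k} (h : Frame π ρ) (hr : 0 < r)
    (hn : NearQ m V Q x (64 * r) ε P) :
    V (box π ρ x (8 * r) ×ˢ univ) ≤ ENNReal.ofReal ((Q + 1) * (ome m * (64 * r) ^ m)) := by
  have h1 : mass V (Metric.ball x (64 * r)) ≤
      ((Q : ℝ≥0∞) + ENNReal.ofReal ε) * ENNReal.ofReal (ome m * (64 * r) ^ m) := by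
    have h2 := hn.2.2
    unfold rat at h2
    rwa [ENNReal.div_le_iff (by
      rw [Ne, ENNReal.ofReal_eq_zero, not_le]; exact den_pos m (by positivity))
      ENNReal.ofReal_ne_top] at h2
  have h3 : V (box π ρ x (8 * r) ×ˢ univ) ≤ mass V (Metric.ball x (64 * r)) := by
    unfold mass
    rw [Measure.map_apply measurable_fst Metric.isOpen_ball.measurableSet]
    refine measure_mono ?_
    rintro ⟨p, P⟩ ⟨hp, -⟩
    exact box_subset_ball h hr hp
  refine h3.trans (h1.trans ?_)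
  rw [ENNReal.ofReal_mul (by positivity : (0:ℝ) ≤ Q + 1)]
  gcongr
  rw [ENNReal.ofReal_add (by positivity) zero_le_one, ENNReal.ofReal_natCast]
  gcongr

/-- bound of the heights in the box -/
theorem norm_hgt_le (hr : 0 < r) {ε : ℝ} (hε1 : ε ≤ 1)
    (hu : ∀ ξ ∈ Metric.ball (0 : Euc m) 32, ‖u ξ‖ ≤ ε) {p : Euc k} (hp : p ∈ box π ρ x (8 * r)) :
    ‖hgt π ρ x r u p‖ ≤ 9 * r := by
  unfold hgt
  have h1 : ‖r⁻¹ • π (p - x)‖ < 32 := by
    rw [norm_smul, norm_inv, Real.norm_of_nonneg hr.le, inv_mul_lt_iff₀ hr]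
    linarith [hp.1]
  have h2 := hu (r⁻¹ • π (p - x)) (by simpa using h1)
  have h3 : ‖r • u (r⁻¹ • π (p - x))‖ ≤ r := by
    rw [norm_smul, Real.norm_of_nonneg hr.le]
    nlinarith
  calc _ ≤ ‖ρ (p - x)‖ + ‖r • u (r⁻¹ • π (p - x))‖ := norm_sub_le _ _
    _ ≤ 9 * r := by linarith [hp.2]

theorem integrableOn_box {F : Type*} [NormedAddCommGroup F] (hfin : V (box π ρ x (8 * r) ×ˢ univ) < ⊤)
    {f : Euc k → F} (hf : Continuous f) {M : ℝ} (hM : ∀ p ∈ box π ρ x (8 * r), ‖f p‖ ≤ M) :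
    IntegrableOn (fun p : Euc k × L k => f p.1) (box π ρ x (8 * r) ×ˢ univ) V := by
  refine Measure.integrableOn_of_bounded (M := M) hfin.ne
    (hf.comp continuous_fst).aestronglyMeasurable ?_
  refine (ae_restrict_iff' ((isOpen_box π ρ x _).measurableSet.prod MeasurableSet.univ)).2
    (ae_of_all _ ?_)
  rintro ⟨p, P⟩ ⟨hp, -⟩
  exact hM p hp

/-- mean condition with test functions centred at `z` -/
theorem mean_z {Q K : ℕ} {ε C : ℝ} (href : Ref V Q x r π ρ u K ε C) (hr : 0 < r)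
    (hz : z ∈ Metric.closedBall x r) {η : Euc m → ℝ} (hη : ContDiff ℝ ∞ η)
    (hs : tsupport η ⊆ Metric.ball 0 7) {B : ℝ} (hB0 : 0 < B)
    (hB : ∀ j ≤ K, ∀ ξ, ‖iteratedFDeriv ℝ j η ξ‖ ≤ B) :
    ‖∫ p in box π ρ x (8 * r) ×ˢ univ, η (r⁻¹ • π (p.1 - z)) • hgt π ρ x r u p.1 ∂V‖ ^ 2 ≤
      B ^ 2 * (ε ^ 2 * r ^ m * sep V π ρ x r u 8) := by
  set a : Euc m := r⁻¹ • π (z - x) with ha
  have ha1 : ‖a‖ ≤ 1 := norm_xi_le href.frame hr hz
  set ζ : Euc m → ℝ := fun ξ => B⁻¹ • η (ξ + (-a)) with hζ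
  have h1 : ContDiff ℝ ∞ ζ := (hη.comp (contDiff_id.add contDiff_const)).const_smul B⁻¹
  have h2 : tsupport ζ ⊆ Metric.ball 0 8 := by
    have h3 : Function.support ζ ⊆ (fun ξ => ξ + (-a)) ⁻¹' tsupport η := by
      intro ξ hξ
      refine subset_tsupport _ ?_
      rw [Function.mem_support]
      intro h0
      exact hξ (by simp [hζ, h0])
    have h4 : tsupport ζ ⊆ (fun ξ => ξ + (-a)) ⁻¹' tsupport η :=
      closure_minimal h3 ((isClosed_tsupport η).preimage (by fun_prop))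
    intro ξ hξ
    have h5 := hs (h4 hξ)
    rw [Metric.mem_ball, dist_zero_right] at h5 ⊢
    calc ‖ξ‖ = ‖(ξ + (-a)) + a‖ := by rw [neg_add_cancel_right]
      _ ≤ ‖ξ + (-a)‖ + ‖a‖ := norm_add_le _ _
      _ < 8 := by linarith
  have h3 : ∀ j ≤ K, ∀ ξ, ‖iteratedFDeriv ℝ j ζ ξ‖ ≤ 1 := by
    intro j hj ξ
    have hc : ContDiff ℝ (j : WithTop ℕ∞) (fun ξ => η (ξ + (-a))) :=
      (hη.comp (contDiff_id.add contDiff_const)).of_le (by exact_mod_cast le_top)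
    have h4 : iteratedFDeriv ℝ j ζ ξ = B⁻¹ • iteratedFDeriv ℝ j η (ξ + (-a)) := by
      rw [hζ, iteratedFDeriv_const_smul_apply' hc.contDiffAt, iteratedFDeriv_comp_add_right]
    rw [h4, norm_smul, norm_inv, Real.norm_of_nonneg hB0.le, inv_mul_le_iff₀ hB0, mul_one]
    exact hB j hj _
  have h4 := href.mean ζ h1 h2 h3
  have h5 : ∀ p : Euc k × L k, ζ (r⁻¹ • π (p.1 - x)) • hgt π ρ x r u p.1 =
      B⁻¹ • (η (r⁻¹ • π (p.1 - z)) • hgt π ρ x r u p.1) := by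
    intro p
    have h6 : r⁻¹ • π (p.1 - x) + (-a) = r⁻¹ • π (p.1 - z) := by
      rw [← sub_eq_add_neg, ha, ← smul_sub, ← map_sub, sub_sub_sub_cancel_right]
    simp only [hζ]
    rw [h6, smul_assoc]
  simp only [h5] at h4
  rw [integral_smul, norm_smul, norm_inv, Real.norm_of_nonneg hB0.le, mul_pow, inv_pow,
    inv_mul_le_iff₀ (by positivity)] at h4
  exact h4

/-- expansion of the height excess over the translated graph, weight `η` -/
theorem expand {η : Euc m → ℝ} (hη : Continuous η) {b : ℝ} (hb : ∀ ξ, |η ξ| ≤ b)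
    (hu : Continuous u) (hfin : V (box π ρ x (8 * r) ×ˢ univ) < ⊤) {M : ℝ}
    (hM : ∀ p ∈ box π ρ x (8 * r), ‖hgt π ρ x r u p‖ ≤ M) (c : Euc n) :
    ∫ p in box π ρ x (8 * r) ×ˢ univ, η (r⁻¹ • π (p.1 - z)) * ‖hgt π ρ x r u p.1 - c‖ ^ 2 ∂V =
      ∫ p in box π ρ x (8 * r) ×ˢ univ, η (r⁻¹ • π (p.1 - z)) * ‖hgt π ρ x r u p.1‖ ^ 2 ∂V
      - 2 * ⟪c, ∫ p in box π ρ x (8 * r) ×ˢ univ, η (r⁻¹ • π (p.1 - z)) • hgt π ρ x r u p.1 ∂V⟫_ℝ
      + ‖c‖ ^ 2 * ∫ p in box π ρ x (8 * r) ×ˢ univ, η (r⁻¹ • π (p.1 - z)) ∂V := by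
  have hh := continuous_hgt (π := π) (ρ := ρ) (x := x) (r := r) hu
  have hb0 : 0 ≤ b := (abs_nonneg _).trans (hb 0)
  have hη' : Continuous fun p : Euc k => η (r⁻¹ • π (p - z)) := by fun_prop
  have i1 : IntegrableOn (fun p : Euc k × L k => η (r⁻¹ • π (p.1 - z)) * ‖hgt π ρ x r u p.1‖ ^ 2)
      (box π ρ x (8 * r) ×ˢ univ) V := by
    refine integrableOn_box (f := fun p => η (r⁻¹ • π (p - z)) * ‖hgt π ρ x r u p‖ ^ 2) hfin
      (by fun_prop) (M := b * M ^ 2) ?_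
    intro p hp
    rw [norm_mul, norm_pow, norm_norm]
    have := hM p hp
    gcongr
    exact hb _
  have i2 : IntegrableOn (fun p : Euc k × L k => η (r⁻¹ • π (p.1 - z)) • hgt π ρ x r u p.1)
      (box π ρ x (8 * r) ×ˢ univ) V := by
    refine integrableOn_box (f := fun p => η (r⁻¹ • π (p - z)) • hgt π ρ x r u p) hfin
      (by fun_prop) (M := b * M) ?_
    intro p hp
    rw [norm_smul]
    have := hM p hp
    gcongr
    exact hb _
  have i3 : IntegrableOn (fun p : Euc k × L k => η (r⁻¹ • π (p.1 - z)))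
      (box π ρ x (8 * r) ×ˢ univ) V :=
    integrableOn_box (f := fun p => η (r⁻¹ • π (p - z))) hfin (by fun_prop) (M := b)
      fun p _ => hb _
  have i2' := i2.const_inner (𝕜 := ℝ) c
  have i4 : Integrable (fun p : Euc k × L k => 2 * ⟪c, η (r⁻¹ • π (p.1 - z)) • hgt π ρ x r u p.1⟫_ℝ)
      (V.restrict (box π ρ x (8 * r) ×ˢ univ)) := i2'.const_mul 2
  have i5 : Integrable (fun p : Euc k × L k => η (r⁻¹ • π (p.1 - z)) * ‖hgt π ρ x r u p.1‖ ^ 2 -
      2 * ⟪c, η (r⁻¹ • π (p.1 - z)) • hgt π ρ x r u p.1⟫_ℝ)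
      (V.restrict (box π ρ x (8 * r) ×ˢ univ)) := i1.sub i4
  have i6 : Integrable (fun p : Euc k × L k => ‖c‖ ^ 2 * η (r⁻¹ • π (p.1 - z)))
      (V.restrict (box π ρ x (8 * r) ×ˢ univ)) := i3.const_mul _
  rw [← integral_inner i2, ← integral_const_mul, ← integral_const_mul, ← integral_sub i1 i4,
    ← integral_add i5 i6]
  refine integral_congr_ae (ae_of_all _ fun p => ?_)
  change η (r⁻¹ • π (p.1 - z)) * ‖hgt π ρ x r u p.1 - c‖ ^ 2 =
    η (r⁻¹ • π (p.1 - z)) * ‖hgt π ρ x r u p.1‖ ^ 2 -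
      2 * ⟪c, η (r⁻¹ • π (p.1 - z)) • hgt π ρ x r u p.1⟫_ℝ + ‖c‖ ^ 2 * η (r⁻¹ • π (p.1 - z))
  rw [@norm_sub_sq_real, inner_smul_right, real_inner_comm]
  ring

/-- **doubling at every centre `z`** for the height over the translated graph through `z`. -/
theorem dbl_z (m Q K : ℕ) {C A : ℝ} (hC : 1 ≤ C) (hA : 0 ≤ A) :
    ∃ ε₁ : ℝ, 0 < ε₁ ∧ ε₁ ≤ 1 ∧ ∃ C₂ : ℝ, 1 ≤ C₂ ∧ ∀ {n k : ℕ} {V : Measure (Euc k × L k)}
      {π : Euc k →L[ℝ] Euc m} {ρ : Euc k →L[ℝ] Euc n} {x z : Euc k} {r ε : ℝ} {u : Euc m → Euc n},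
      Ref V Q x r π ρ u K ε C → 0 < r → 0 ≤ ε → ε ≤ ε₁ → z ∈ Metric.closedBall x r →
      ‖hgt π ρ x r u z‖ ^ 2 * r ^ m ≤ A * sep V π ρ x r u 8 →
        0 < sepz V π ρ x r u z (7 / 4) ∧
        sep V π ρ x r u (1 / 4) ≤ 2 * sepz V π ρ x r u z (7 / 4) ∧
        sepz V π ρ x r u z 7 ≤ C₂ * sep V π ρ x r u (1 / 4) ∧
        sepz V π ρ x r u z 7 ≤ 2 * C₂ * sepz V π ρ x r u z (7 / 4) := by
  obtain ⟨η, B, hB1, hη, hηs, hη0, hη1, hηone, hηB⟩ := exists_bump m K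
  set W : ℝ := (Q + 1) * (ome m * 64 ^ m) with hW
  have hW0 : 0 < W := by
    have := ome_pos m
    positivity
  refine ⟨min 1 (1 / (4 * (B * (√A + 1) * C))), by positivity, min_le_left _ _,
    2 * (1 + A * W) * C, ?_, ?_⟩
  · have : 0 ≤ A * W := by positivity
    nlinarith
  intro n k V π ρ x z r ε u href hr hε0 hε hz hsup
  have hε1 : ε ≤ 1 := hε.trans (min_le_left _ _)
  have hε2 : ε * (B * (√A + 1) * C) ≤ 1 / 4 := by
    have h1 := hε.trans (min_le_right _ _)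
    rw [le_div_iff₀ (by positivity)] at h1
    linarith
  have hbox := (isOpen_box π ρ x (8 * r)).measurableSet
  have hmass := mass_box hε0 hε1 href.frame hr href.near
  have hfin : V (box π ρ x (8 * r) ×ˢ univ) < ⊤ := hmass.trans_lt ENNReal.ofReal_lt_top
  have hu0 : ∀ ξ ∈ Metric.ball (0 : Euc m) 32, ‖u ξ‖ ≤ ε := by
    intro ξ hξ
    simpa using href.small 0 (Nat.zero_le _) ξ hξ
  have hM : ∀ p ∈ box π ρ x (8 * r), ‖hgt π ρ x r u p‖ ≤ 9 * r := fun p hp =>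
    norm_hgt_le hr hε1 hu0 hp
  have hcu := href.smooth.continuous
  have hh := continuous_hgt (π := π) (ρ := ρ) (x := x) (r := r) hcu
  set c : Euc n := hgt π ρ x r u z with hc
  set S4 : ℝ := sep V π ρ x r u 8 with hS4
  set S1 : ℝ := sep V π ρ x r u (1 / 4) with hS1
  have hS1pos : 0 < S1 := href.pos
  have hS41 : S4 ≤ C * S1 := href.dbl
  have hS40 : 0 ≤ S4 := integral_nonneg fun _ => by positivity
  -- the weighted integral
  set J : ℝ := ∫ p in box π ρ x (8 * r) ×ˢ univ,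
    η (r⁻¹ • π (p.1 - z)) * ‖hgt π ρ x r u p.1 - c‖ ^ 2 ∂V with hJ
  have hηc : Continuous fun p : Euc k => η (r⁻¹ • π (p - z)) := by
    have := hη.continuous
    fun_prop
  have hint : ∀ (f : Euc k → ℝ), Continuous f → ∀ M : ℝ, (∀ p ∈ box π ρ x (8 * r), ‖f p‖ ≤ M) →
      IntegrableOn (fun p : Euc k × L k => f p.1) (box π ρ x (8 * r) ×ˢ univ) V :=
    fun f hf M h => integrableOn_box hfin hf h
  have hηabs : ∀ ξ, |η ξ| ≤ 1 := fun ξ => by rw [abs_of_nonneg (hη0 ξ)]; exact hη1 ξ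
  have i1 : IntegrableOn (fun p : Euc k × L k => ‖hgt π ρ x r u p.1‖ ^ 2)
      (box π ρ x (8 * r) ×ˢ univ) V := hint (fun p => ‖hgt π ρ x r u p‖ ^ 2) (by fun_prop)
      ((9 * r) ^ 2) fun p hp => by
        rw [norm_pow, norm_norm]; have := hM p hp; gcongr
  have i2 : IntegrableOn (fun p : Euc k × L k => ‖hgt π ρ x r u p.1 - c‖ ^ 2)
      (box π ρ x (8 * r) ×ˢ univ) V := hint (fun p => ‖hgt π ρ x r u p - c‖ ^ 2) (by fun_prop)
      ((9 * r + ‖c‖) ^ 2) fun p hp => by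
        rw [norm_pow, norm_norm]
        have h1 : ‖hgt π ρ x r u p - c‖ ≤ 9 * r + ‖c‖ :=
          (norm_sub_le _ _).trans (add_le_add_left (hM p hp) _)
        gcongr
  have i3 : IntegrableOn (fun p : Euc k × L k => η (r⁻¹ • π (p.1 - z)) *
      ‖hgt π ρ x r u p.1 - c‖ ^ 2) (box π ρ x (8 * r) ×ˢ univ) V :=
    hint (fun p => η (r⁻¹ • π (p - z)) * ‖hgt π ρ x r u p - c‖ ^ 2) (by fun_prop)
      (1 * (9 * r + ‖c‖) ^ 2) fun p hp => by
        rw [norm_mul, norm_pow, norm_norm]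
        have h1 : ‖hgt π ρ x r u p - c‖ ≤ 9 * r + ‖c‖ :=
          (norm_sub_le _ _).trans (add_le_add_left (hM p hp) _)
        gcongr
        exact hηabs _
  have i4 : IntegrableOn (fun p : Euc k × L k => η (r⁻¹ • π (p.1 - z)) *
      ‖hgt π ρ x r u p.1‖ ^ 2) (box π ρ x (8 * r) ×ˢ univ) V :=
    hint (fun p => η (r⁻¹ • π (p - z)) * ‖hgt π ρ x r u p‖ ^ 2) (by fun_prop)
      (1 * (9 * r) ^ 2) fun p hp => by
        rw [norm_mul, norm_pow, norm_norm]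
        have h1 := hM p hp
        gcongr
        exact hηabs _
  -- J ≤ sepz (7/4)
  have hJup : J ≤ sepz V π ρ x r u z (7 / 4) := by
    have hsub : cyz π ρ x r z (7 / 4) ×ˢ (univ : Set (L k)) ⊆ box π ρ x (8 * r) ×ˢ univ :=
      prod_mono (cyz_subset href.frame hr hz (by norm_num)) subset_rfl
    have hms : MeasurableSet (cyz π ρ x r z (7 / 4) ×ˢ (univ : Set (L k))) :=
      (isOpen_cyz π ρ x r z _).measurableSet.prod MeasurableSet.univ
    have h1 : J = ∫ p in cyz π ρ x r z (7 / 4) ×ˢ univ,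
        η (r⁻¹ • π (p.1 - z)) * ‖hgt π ρ x r u p.1 - c‖ ^ 2 ∂V := by
      rw [hJ]
      refine (setIntegral_eq_of_subset_of_forall_sdiff_eq_zero (hbox.prod MeasurableSet.univ) hsub
        ?_)
      rintro ⟨p, P⟩ ⟨⟨hp, -⟩, hp2⟩
      have h2 : η (r⁻¹ • π (p - z)) = 0 := by
        by_contra h0
        have h3 := hηs (subset_tsupport _ (Function.mem_support.2 h0))
        rw [mem_closedBall_zero_iff, norm_smul, norm_inv, Real.norm_of_nonneg hr.le,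
          inv_mul_le_iff₀ hr] at h3
        exact hp2 ⟨⟨by linarith, hp.2⟩, mem_univ _⟩
      change η (r⁻¹ • π (p - z)) * ‖hgt π ρ x r u p - c‖ ^ 2 = 0
      rw [h2, zero_mul]
    rw [h1]
    refine setIntegral_mono (i3.mono_set hsub) (i2.mono_set hsub) fun p => ?_
    calc η (r⁻¹ • π (p.1 - z)) * ‖hgt π ρ x r u p.1 - c‖ ^ 2
        ≤ 1 * ‖hgt π ρ x r u p.1 - c‖ ^ 2 := by gcongr; exact hη1 _
      _ = _ := one_mul _
  -- lower bound of J
  have hJlow : S1 / 2 ≤ J := by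
    have hexp := expand (π := π) (ρ := ρ) (x := x) (z := z) (r := r) (u := u) (V := V)
      hη.continuous hηabs hcu hfin hM c
    have h1 : S1 ≤ ∫ p in box π ρ x (8 * r) ×ˢ univ,
        η (r⁻¹ • π (p.1 - z)) * ‖hgt π ρ x r u p.1‖ ^ 2 ∂V := by
      have hsub : box π ρ x (1 / 4 * r) ×ˢ (univ : Set (L k)) ⊆ box π ρ x (8 * r) ×ˢ univ :=
        prod_mono (fun p hp => ⟨hp.1.trans_le (by nlinarith), hp.2.trans_le (by nlinarith)⟩)
          subset_rfl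
      have h2 : S1 = ∫ p in box π ρ x (1 / 4 * r) ×ˢ univ,
          η (r⁻¹ • π (p.1 - z)) * ‖hgt π ρ x r u p.1‖ ^ 2 ∂V := by
        rw [hS1]
        unfold sep
        refine setIntegral_congr_fun
          ((isOpen_box π ρ x _).measurableSet.prod MeasurableSet.univ) ?_
        rintro ⟨p, P⟩ ⟨hp, -⟩
        have h3 := (box_subset_cyz href.frame hr hz hp).1
        have h4 : η (r⁻¹ • π (p - z)) = 1 := by
          refine hηone _ ?_
          rw [norm_smul, norm_inv, Real.norm_of_nonneg hr.le, inv_mul_le_iff₀ hr]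
          linarith
        change ‖hgt π ρ x r u p‖ ^ 2 = η (r⁻¹ • π (p - z)) * ‖hgt π ρ x r u p‖ ^ 2
        rw [h4, one_mul]
      rw [h2]
      exact setIntegral_mono_set i4 (ae_of_all _ fun p => mul_nonneg (hη0 _) (by positivity))
        (Filter.Eventually.of_forall hsub)
    have h2 := mean_z href hr hz hη (hηs.trans (Metric.closedBall_subset_ball (by norm_num)))
      (by linarith : (0:ℝ) < B) hηB
    set v : Euc n := ∫ p in box π ρ x (8 * r) ×ˢ univ,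
      η (r⁻¹ • π (p.1 - z)) • hgt π ρ x r u p.1 ∂V with hv
    have h3 : ‖c‖ * ‖v‖ ≤ √A * B * ε * S4 := by
      refine le_of_sq_le_sq ?_ (by positivity)
      have h4 : (√A * B * ε * S4) ^ 2 = A * B ^ 2 * ε ^ 2 * S4 ^ 2 := by
        rw [mul_pow, mul_pow, mul_pow, Real.sq_sqrt hA]
      rw [h4, mul_pow]
      have h5 : 0 < r ^ m := by positivity
      have h6 : ‖c‖ ^ 2 * ‖v‖ ^ 2 * r ^ m ≤ A * B ^ 2 * ε ^ 2 * S4 ^ 2 * r ^ m := by
        calc ‖c‖ ^ 2 * ‖v‖ ^ 2 * r ^ m = (‖c‖ ^ 2 * r ^ m) * ‖v‖ ^ 2 := by ring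
          _ ≤ (A * S4) * (B ^ 2 * (ε ^ 2 * r ^ m * S4)) := by gcongr
          _ = _ := by ring
      exact le_of_mul_le_mul_right h6 h5
    have h4 : ⟪c, v⟫_ℝ ≤ S1 / 4 := by
      calc ⟪c, v⟫_ℝ ≤ ‖c‖ * ‖v‖ := real_inner_le_norm _ _
        _ ≤ √A * B * ε * S4 := h3
        _ ≤ √A * B * ε * (C * S1) := by gcongr
        _ ≤ (√A + 1) * B * ε * (C * S1) := by gcongr; linarith
        _ = ε * (B * (√A + 1) * C) * S1 := by ring
        _ ≤ 1 / 4 * S1 := by gcongr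
        _ = _ := by ring
    have h5 : 0 ≤ ‖c‖ ^ 2 * ∫ p in box π ρ x (8 * r) ×ˢ univ, η (r⁻¹ • π (p.1 - z)) ∂V :=
      mul_nonneg (by positivity) (integral_nonneg fun _ => hη0 _)
    rw [hJ, hexp]
    linarith
  -- upper bound
  have hup : sepz V π ρ x r u z 7 ≤ 2 * (1 + A * W) * C * S1 := by
    have hsub : cyz π ρ x r z 7 ×ˢ (univ : Set (L k)) ⊆ box π ρ x (8 * r) ×ˢ univ :=
      prod_mono (cyz_subset href.frame hr hz le_rfl) subset_rfl
    have h1 : sepz V π ρ x r u z 7 ≤ ∫ p in box π ρ x (8 * r) ×ˢ univ,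
        ‖hgt π ρ x r u p.1 - c‖ ^ 2 ∂V :=
      setIntegral_mono_set i2 (ae_of_all _ fun p => by positivity)
        (Filter.Eventually.of_forall hsub)
    have hconst : IntegrableOn (fun _ : Euc k × L k => ‖c‖ ^ 2) (box π ρ x (8 * r) ×ˢ univ) V :=
      integrableOn_const hfin.ne
    have h2 : ∫ p in box π ρ x (8 * r) ×ˢ univ, ‖hgt π ρ x r u p.1 - c‖ ^ 2 ∂V ≤
        ∫ p in box π ρ x (8 * r) ×ˢ univ, (2 * ‖hgt π ρ x r u p.1‖ ^ 2 + 2 * ‖c‖ ^ 2) ∂V := by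
      refine setIntegral_mono i2 ((i1.const_mul 2).add (hconst.const_mul 2)) fun p => ?_
      have h3 := norm_sub_le (hgt π ρ x r u p.1) c
      have h4 : ‖hgt π ρ x r u p.1 - c‖ ^ 2 ≤ (‖hgt π ρ x r u p.1‖ + ‖c‖) ^ 2 := by gcongr
      have h5 := sq_nonneg (‖hgt π ρ x r u p.1‖ - ‖c‖)
      change ‖hgt π ρ x r u p.1 - c‖ ^ 2 ≤ 2 * ‖hgt π ρ x r u p.1‖ ^ 2 + 2 * ‖c‖ ^ 2
      nlinarith
    have h3 : ∫ p in box π ρ x (8 * r) ×ˢ univ, (2 * ‖hgt π ρ x r u p.1‖ ^ 2 + 2 * ‖c‖ ^ 2) ∂V =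
        2 * S4 + V.real (box π ρ x (8 * r) ×ˢ univ) * (2 * ‖c‖ ^ 2) := by
      rw [integral_add (i1.const_mul 2) (hconst.const_mul 2), integral_const_mul,
        setIntegral_const, smul_eq_mul]
      rfl
    have h4 : V.real (box π ρ x (8 * r) ×ˢ univ) ≤ W * r ^ m := by
      rw [measureReal_def]
      refine ENNReal.toReal_le_of_le_ofReal (by positivity) (hmass.trans (le_of_eq ?_))
      rw [hW, mul_pow]
      ring_nf
    have h5 : V.real (box π ρ x (8 * r) ×ˢ univ) * (2 * ‖c‖ ^ 2) ≤ 2 * (A * W) * S4 := by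
      calc _ ≤ (W * r ^ m) * (2 * ‖c‖ ^ 2) := by gcongr
        _ = 2 * W * (‖c‖ ^ 2 * r ^ m) := by ring
        _ ≤ 2 * W * (A * S4) := by gcongr
        _ = _ := by ring
    calc sepz V π ρ x r u z 7 ≤ 2 * S4 + 2 * (A * W) * S4 := by linarith
      _ = 2 * (1 + A * W) * S4 := by ring
      _ ≤ 2 * (1 + A * W) * (C * S1) := by gcongr
      _ = _ := by ring
  have hlow : S1 ≤ 2 * sepz V π ρ x r u z (7 / 4) := by linarith
  refine ⟨by linarith, hlow, hup, hup.trans ?_⟩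
  have h0 : 0 ≤ 2 * (1 + A * W) * C := by positivity
  nlinarith

end Crest.Agent.R234.F11_435
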