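import Crest.Agent.R234.Rs6_182

/-!
# Row 234, node RESCALE (helper182), part 7: the same with global closeness

* `rescale'` : `4 t ≤ 1`; in addition `u' y = t⁻¹ (u (X₀ + t y) - u X₀ - q (t y)) + c + d y` for
  `‖y‖ ≤ 6` with `d` small in the class.
* `rotate'`  : in addition all derivatives of `u' - u` are small on the whole space.
-/

set_option autoImplicit false
set_option linter.unusedSectionVars false

open MeasureTheory Set Metric Filter Topology
open scoped ContDiff NNReal RealInnerProductSpace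
open Crest.GeometryTopology.Submanifold

noncomputable section

namespace Crest.Agent.R234.Rs_182

open Crest.Agent.R086.Wie Crest.Agent.R234.Mx1_397 Crest.Agent.R234.Mx2_397
  Crest.Agent.R234.Mx3_397 Crest.Agent.R234.Mx4_397 Crest.Agent.R234.Mx5_397
  Crest.Agent.R234.Mx6_397 Crest.Agent.R234.Mx10_397 Crest.Agent.R234.Mx13_397
  Crest.Agent.R234.Mx16_397
  Crest.Agent.R234.Zm_161 Crest.Agent.R234.MG_570
  Crest.Agent.R234.Ell1_3 Crest.Agent.R234.Grot_842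
open Crest.Agent.R234.Main_456 (Msys)

variable {m n : ℕ}

/-- adding a constant on the ball -/
theorem RotG.add_const {u u₀ u' : Euc m → Euc n} {X₀ : Euc m} {c : Euc n} {q : Euc m →L[ℝ] Euc n}
    {H : Euc m →L[ℝ] Euc m} {H' : Euc n →L[ℝ] Euc n} {t R R' σ : ℝ}
    (h : RotG u u₀ X₀ 0 q H H' t R R' σ) (hR : 0 < R') (he : ∀ y, ‖y‖ < R' → u' y = u₀ y + c) :
    RotG u u' X₀ c q H H' t R R' σ := by
  refine ⟨h.rt, ?_, ?_, fun y hy => ?_, h.inj, fun a ha y hy hay => ?_⟩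
  · rw [he 0 (by rwa [norm_zero]), h.val, zero_add]
  · have h1 : u' =ᶠ[𝓝 0] fun y => u₀ y + c := by
      filter_upwards [(isOpen_lt continuous_norm continuous_const).mem_nhds
        (show ‖(0 : Euc m)‖ < R' by rwa [norm_zero])] with y hy
      exact he y hy
    rw [h1.fderiv_eq, fderiv_add_const, h.der]
  · obtain ⟨a, h1, h2, h3, h4⟩ := h.bwd y hy
    refine ⟨a, h1, h2, ?_, h4⟩
    rw [he y (mem_ball_zero_iff.1 hy), ← h3]
    simp
  · rw [he y (mem_ball_zero_iff.1 hy), ← h.fwd a ha y hy hay]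
    simp

/-- the constant `c`, cut off outside `ball 0 6` -/
def kX (m : ℕ) {n : ℕ} (N : ℕ) (c : Euc n) : XV m n N := fun α =>
  ((c α : ℝ) : ℂ) • dil N (1 / 4) (by norm_num) (by norm_num) (cs N (chi0_isCut (F := Euc m)))

theorem star_kX (N : ℕ) (c : Euc n) : IsReal (kX m N c) := fun α => by
  unfold kX
  rw [star_smul, star_dil, star_cs]
  simp only [RCLike.star_def, Complex.conj_ofReal]

theorem syn_kX (N : ℕ) (c : Euc n) (x : Euc m) :
    syn (EuclideanSpace.basisFun (Fin n) ℝ) (kX m N c) x = (chi0 ((1 / 4 : ℝ) • x) : ℝ) • c := by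
  refine onb_ext (EuclideanSpace.basisFun (Fin n) ℝ) fun α => ?_
  rw [inner_syn, inner_smul_right]
  unfold kX
  rw [ev_smul, ev_dil, ev_cs, Complex.re_ofReal_mul, Complex.ofReal_re, mul_comm]
  rw [EuclideanSpace.basisFun_apply, EuclideanSpace.inner_single_left]
  simp

theorem norm_kX_le (m n N : ℕ) : ∃ C : ℝ, 0 ≤ C ∧ ∀ c : Euc n, ‖kX m N c‖ ≤ C * ‖c‖ := by
  refine ⟨‖dil N (1 / 4) (by norm_num) (by norm_num) (cs N (chi0_isCut (F := Euc m)))‖,
    norm_nonneg _, fun c => ?_⟩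
  refine (pi_norm_le_iff_of_nonneg (by positivity)).2 fun α => ?_
  unfold kX
  rw [norm_smul, Complex.norm_real, mul_comm]
  gcongr
  exact EuclideanSpace.norm_eq c ▸ (by
    rw [Real.norm_eq_abs]
    refine Real.abs_le_sqrt ?_
    have := Finset.single_le_sum (f := fun i => ‖c i‖ ^ 2) (fun i _ => by positivity)
      (Finset.mem_univ α)
    simpa using this)

theorem chi0_quarter {x : Euc m} (hx : ‖x‖ ≤ 6) : chi0 ((1 / 4 : ℝ) • x) = 1 := by
  refine chi0_one ?_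
  rw [norm_smul, Real.norm_of_nonneg (by norm_num : (0:ℝ) ≤ 1 / 4)]
  linarith

theorem MG_zero {N : ℕ} {e' : XV m n (N + 2)} (h : IsReal e') {δ : ℝ} (hn : ‖e'‖ ≤ δ) :
    MG N δ 0 (syn (EuclideanSpace.basisFun (Fin n) ℝ) e') :=
  ⟨e', h, hn, syn_rep h, fun z hz => by simp at hz⟩

theorem msys_add_const' {R : ℝ} {u₀ u' : Euc m → Euc n} {c : Euc n}
    (h : ∀ z ∈ ball (0 : Euc m) R, Msys u₀ z = 0) (he : ∀ y, ‖y‖ < R → u' y = u₀ y + c) :
    ∀ z ∈ ball (0 : Euc m) R, Msys u' z = 0 := by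
  intro z hz
  have hz' : ‖z‖ < R := mem_ball_zero_iff.1 hz
  have h1 : u' =ᶠ[𝓝 z] fun y => u₀ y + c := by
    filter_upwards [(isOpen_lt continuous_norm continuous_const).mem_nhds hz'] with y hy
    exact he y hy
  rw [Msys_eq, msop_congr h1, msop_add_const, ← Msys_eq]
  exact h z hz

/-- **RESCALE with global closeness** -/
theorem rescale' (m n N : ℕ) (hm : 1 ≤ m) (r₀ : ℝ) (hr0 : 0 < r₀) (hr1 : r₀ ≤ 1) :
    ∃ (κ₀ C : ℝ) (p J : ℕ), 0 < κ₀ ∧ 1 ≤ C ∧
    ∀ (t ε R κ th : ℝ) (u : Euc m → Euc n) (X₀ : Euc m) (c : Euc n),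
      0 < t → 4 * t ≤ 1 → 0 < ε → ε ≤ 1 / 4 → r₀ ≤ R → R ≤ 3 / 2 → κ ≤ κ₀ → MG N κ (t * R) u →
      ‖X₀‖ ≤ ε * (t * R) / 8 → ‖fderiv ℝ u X₀‖ ≤ th → 0 < th → th ≤ 1 →
      C * (ε⁻¹) ^ p * th ^ ((1 / 2 : ℝ) ^ J) ≤ 1 →
      ∃ (H : Euc m →L[ℝ] Euc m) (H' : Euc n →L[ℝ] Euc n) (u' d : Euc m → Euc n),
        MG N (C * t * κ + C * (ε⁻¹) ^ p * th ^ ((1 / 2 : ℝ) ^ J) * κ + C * ‖c‖) ((1 - ε) * R) u' ∧
        RotG u u' X₀ c (fderiv ℝ u X₀) H H' t R ((1 - ε) * R) (C * κ * ‖fderiv ℝ u X₀‖) ∧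
        MG N (C * (ε⁻¹) ^ p * th ^ ((1 / 2 : ℝ) ^ J) * κ) 0 d ∧
        ∀ y, ‖y‖ ≤ 6 → u' y =
          t⁻¹ • (u (X₀ + t • y) - u X₀ - fderiv ℝ u X₀ (t • y)) + c + d y := by
  set b := EuclideanSpace.basisFun (Fin n) ℝ with hb
  obtain ⟨Cz, hCz, hz⟩ := zoomV (F := Euc m) N b chi0_isCut
  obtain ⟨κ₀, C, p, J, hκ₀, hC, hcore⟩ := core m n N hm r₀ hr0 hr1 (16 * Cz) (by linarith)
  obtain ⟨Ck, hCk, hk⟩ := norm_kX_le m n (N + 2)
  set D : ℝ := C + 16 * Cz + Ck with hD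
  have hDC : C ≤ D := by linarith
  have hDz : 16 * Cz ≤ D := by linarith
  have hDk : Ck ≤ D := by linarith
  refine ⟨κ₀, D, p, J, hκ₀, hC.trans hDC, ?_⟩
  intro t ε R κ th u X₀ c ht ht1 hε hε1 hR1 hR2 hκ hMG hX₀ hqth hth hth1 hsm
  obtain ⟨a, ha, haκ, hrep, hM⟩ := hMG
  have hκ0 : 0 ≤ κ := (norm_nonneg _).trans haκ
  have hR0 : 0 < R := hr0.trans_le hR1
  have hu : u = syn b a := rep_syn hrep
  obtain ⟨⟨e₁, he₁, hen₁, hev₁⟩, -⟩ := hz X₀ (4 * t) (by positivity) ht1 a ha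
  set e : XV m n (N + 2) := fun α =>
    ((4 : ℝ) : ℂ) • dil (N + 2) (1 / 4) (by norm_num) (by norm_num) (e₁ α) with he
  have her : IsReal e := fun α => by
    rw [he]
    simp only
    rw [star_smul, star_dil, he₁ α]
    simp only [RCLike.star_def, Complex.conj_ofReal]
  have hen : ‖e‖ ≤ 16 * Cz * t * ‖a‖ := by
    refine (pi_norm_le_iff_of_nonneg (by positivity)).2 fun α => ?_
    rw [he]
    simp only
    rw [norm_smul, Complex.norm_real, Real.norm_of_nonneg (by norm_num : (0:ℝ) ≤ 4)]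
    calc 4 * ‖dil (N + 2) (1 / 4) (by norm_num) (by norm_num) (e₁ α)‖ ≤ 4 * ‖e₁‖ := by
          gcongr
          exact (norm_dil_le _ _ _).trans (norm_le_pi_norm e₁ α)
      _ ≤ 4 * (Cz * (4 * t) * ‖a‖) := by gcongr
      _ = _ := by ring
  have hes : ∀ x, syn b e x = (4 : ℝ) • syn b e₁ ((1 / 4 : ℝ) • x) := fun x => by
    unfold syn
    rw [Finset.smul_sum]
    refine Finset.sum_congr rfl fun α _ => ?_
    rw [he]
    simp only
    rw [ev_smul, ev_dil, Complex.re_ofReal_mul, smul_smul]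
  have hev : ∀ x, ‖x‖ ≤ 6 → syn b e x =
      t⁻¹ • (u (X₀ + t • x) - u X₀ - fderiv ℝ u X₀ (t • x)) := fun x hx => by
    rw [hes, hev₁, chi0_quarter hx, one_smul, ← hu, smul_smul, smul_smul]
    have e1 : (4 : ℝ) * (4 * t)⁻¹ = t⁻¹ := by field_simp
    have e2 : 4 * t * (1 / 4) = t := by ring
    rw [e1, e2]
  have hT0 : 0 ≤ (ε⁻¹) ^ p * th ^ ((1 / 2 : ℝ) ^ J) := by positivity
  obtain ⟨H, H', u₀, e', he', hen', hrep', hM', hRot⟩ := hcore t ε R κ th u X₀ 0 a e ht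
    (by linarith) hε hε1 hR1 hR2 hκ ha haκ hrep hM hX₀ hqth hth hth1 (by
      refine le_trans ?_ hsm
      rw [mul_assoc, mul_assoc]
      gcongr) her (by
      refine hen.trans ?_
      calc 16 * Cz * t * ‖a‖ ≤ 16 * Cz * 1 * κ := by
            have : t ≤ 1 := by linarith
            gcongr
        _ = 16 * Cz * κ := by ring) (fun x hx => by
      rw [hev x (by linarith), smul_sub, map_smul, smul_smul, inv_mul_cancel₀ ht.ne', one_smul])
  rw [norm_zero, mul_zero, add_zero] at hen'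
  have hu₀ : u₀ = syn b (e + e') := rep_syn hrep'
  set u' : Euc m → Euc n := syn b (e + e' + kX m (N + 2) c) with hu'
  have hu'e : ∀ x, ‖x‖ ≤ 6 → u' x = u₀ x + c := fun x hx => by
    have e1 : u' x = syn b (e + e') x + syn b (kX m (N + 2) c) x := syn_add b (e + e') _ x
    rw [e1, syn_kX, chi0_quarter hx, one_smul, hu₀]
  have hRR : (1 - ε) * R ≤ R := by nlinarith
  have hRR0 : 0 < (1 - ε) * R := mul_pos (by linarith) hR0
  refine ⟨H, H', u', syn b e', ⟨e + e' + kX m (N + 2) c, fun α => ?_, ?_, syn_rep fun α => ?_,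
    msys_add_const' hM' fun y hy => hu'e y (by linarith)⟩, ?_, ?_, ?_⟩
  · show star (e α + e' α + kX m (N + 2) c α) = e α + e' α + kX m (N + 2) c α
    rw [star_add, star_add, her α, he' α, star_kX]
  · calc ‖e + e' + kX m (N + 2) c‖ ≤ 16 * Cz * t * ‖a‖ +
          C * (ε⁻¹) ^ p * th ^ ((1 / 2 : ℝ) ^ J) * κ + Ck * ‖c‖ :=
          (norm_add_le _ _).trans (add_le_add ((norm_add_le _ _).trans (add_le_add hen hen'))
            (hk c))
      _ ≤ D * t * κ + D * (ε⁻¹) ^ p * th ^ ((1 / 2 : ℝ) ^ J) * κ + D * ‖c‖ := by gcongr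
  · show star (e α + e' α + kX m (N + 2) c α) = e α + e' α + kX m (N + 2) c α
    rw [star_add, star_add, her α, he' α, star_kX]
  · have h1 := hRot.add_const hRR0 (c := c) (u' := u') fun y hy => hu'e y (by linarith)
    refine ⟨h1.rt, h1.val, h1.der, fun y hy => ?_, h1.inj, h1.fwd⟩
    obtain ⟨x, h2, h3, h4, h5⟩ := h1.bwd y hy
    refine ⟨x, h2, h3, h4, h5.trans ?_⟩
    gcongr
  · refine MG_zero he' (hen'.trans ?_)
    gcongr
  · intro y hy
    rw [hu'e y hy, hu₀]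
    have e1 : syn b (e + e') y = syn b e y + syn b e' y := syn_add b e e' y
    rw [e1, hev y hy]
    abel

/-- shifts in the class -/
theorem shift_bound {N : ℕ} (a : XV m n (N + 2)) (X₀ : Euc m) {j : ℕ} (hj : j ≤ N + 1) (y : Euc m) :
    ‖iteratedFDeriv ℝ j (fun y => syn (EuclideanSpace.basisFun (Fin n) ℝ) a (X₀ + y) -
      syn (EuclideanSpace.basisFun (Fin n) ℝ) a y) y‖ ≤
      Fintype.card (Fin n) * ((2 * Real.pi) ^ (N + 2) * ‖a‖) * ‖X₀‖ := by
  set b := EuclideanSpace.basisFun (Fin n) ℝ with hb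
  have hs : ContDiff ℝ ((N + 2 : ℕ) : WithTop ℕ∞) (syn b a) := contDiff_syn b a
  have hj' : ((j : ℕ) : WithTop ℕ∞) ≤ ((N + 2 : ℕ) : WithTop ℕ∞) := by
    norm_cast; omega
  have hs1 : ContDiff ℝ ((N + 2 : ℕ) : WithTop ℕ∞) (fun y => syn b a (X₀ + y)) :=
    hs.comp (contDiff_const.add contDiff_id)
  have e1 : iteratedFDeriv ℝ j (fun y => syn b a (X₀ + y) - syn b a y) y =
      iteratedFDeriv ℝ j (fun y => syn b a (X₀ + y)) y - iteratedFDeriv ℝ j (syn b a) y :=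
    iteratedFDeriv_sub_apply (f := fun y => syn b a (X₀ + y)) (g := syn b a)
      (hs1.contDiffAt.of_le hj') (hs.contDiffAt.of_le hj')
  rw [e1, iteratedFDeriv_comp_add_left]
  have hd : Differentiable ℝ (iteratedFDeriv ℝ j (syn b a)) :=
    hs.differentiable_iteratedFDeriv (by norm_cast; omega)
  have h1 := Convex.norm_image_sub_le_of_norm_fderiv_le (𝕜 := ℝ) (s := univ)
    (f := iteratedFDeriv ℝ j (syn b a))
    (C := Fintype.card (Fin n) * ((2 * Real.pi) ^ (N + 2) * ‖a‖)) (fun x _ => hd x)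
    (fun x _ => by
      rw [norm_fderiv_iteratedFDeriv]
      exact norm_iteratedFDeriv_syn_le b a (by omega) x) convex_univ (mem_univ y)
    (mem_univ (X₀ + y))
  rwa [add_sub_cancel_right] at h1

set_option maxHeartbeats 1600000 in
/-- **ROTATE with global closeness** -/
theorem rotate' (m n N : ℕ) (hm : 1 ≤ m) (r₀ : ℝ) (hr0 : 0 < r₀) (hr1 : r₀ ≤ 1) :
    ∃ (κ₀ C : ℝ) (p J : ℕ), 0 < κ₀ ∧ 1 ≤ C ∧
    ∀ (ε R κ th : ℝ) (u : Euc m → Euc n) (X₀ : Euc m) (c : Euc n),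
      0 < ε → ε ≤ 1 / 4 → r₀ ≤ R → R ≤ 3 / 2 → κ ≤ κ₀ → MG N κ R u →
      ‖X₀‖ ≤ ε * R / 8 → ‖fderiv ℝ u X₀‖ ≤ th → 0 < th → th ≤ 1 →
      C * (ε⁻¹) ^ p * th ^ ((1 / 2 : ℝ) ^ J) ≤ 1 →
      ∃ (H : Euc m →L[ℝ] Euc m) (H' : Euc n →L[ℝ] Euc n) (u' : Euc m → Euc n),
        MG N (κ + C * ‖u X₀‖ + C * ‖fderiv ℝ u X₀‖ +
          C * (ε⁻¹) ^ p * th ^ ((1 / 2 : ℝ) ^ J) * κ + C * ‖c‖) ((1 - ε) * R) u' ∧
        RotG u u' X₀ c (fderiv ℝ u X₀) H H' 1 R ((1 - ε) * R) (C * κ * ‖fderiv ℝ u X₀‖) ∧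
        ∀ j ≤ N + 1, ∀ y, ‖iteratedFDeriv ℝ j (fun y => u' y - u y) y‖ ≤
          C * (κ * ‖X₀‖ + ‖u X₀‖ + ‖fderiv ℝ u X₀‖ +
            (ε⁻¹) ^ p * th ^ ((1 / 2 : ℝ) ^ J) * κ + ‖c‖) := by
  set b := EuclideanSpace.basisFun (Fin n) ℝ with hb
  obtain ⟨K, Cw, hCw, hw⟩ := exists_wX_bound (F := Euc m) b (N + 2)
  have hpi := Real.pi_pos
  set Cg : ℝ := Fintype.card (Fin n) * (2 * Real.pi) ^ (N + 2) with hCg
  have hCg0 : 0 ≤ Cg := by positivity
  obtain ⟨κ₀, C, p, J, hκ₀, hC, hcore⟩ := core m n N hm r₀ hr0 hr1 (1 + 3 * Cw * Cg) (by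
    have : 0 ≤ 3 * Cw * Cg := by positivity
    linarith)
  obtain ⟨Ck, hCk, hk⟩ := norm_kX_le m n (N + 2)
  set D : ℝ := (1 + Cg) * (C + 2 * Cw + Ck + 1) with hD
  have hC0 : 0 ≤ C := zero_le_one.trans hC
  have hD1 : C + 2 * Cw + Ck + 1 ≤ D := le_mul_of_one_le_left (by positivity) (by linarith)
  have hD2 : Cg * (C + 2 * Cw + Ck + 1) ≤ D := by
    rw [hD]
    exact mul_le_mul_of_nonneg_right (by linarith) (by positivity)
  have hDC : C ≤ D := by linarith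
  have hDw : 2 * Cw ≤ D := by linarith
  have hDw' : Cw ≤ D := by linarith
  have hDk : Ck ≤ D := by linarith
  have hgD : Cg ≤ D := by
    refine le_trans ?_ hD2
    exact le_mul_of_one_le_right hCg0 (by linarith)
  have hgC : Cg * C ≤ D := le_trans (by gcongr; linarith) hD2
  have hgw : Cg * (2 * Cw) ≤ D := le_trans (by gcongr; linarith) hD2
  have hgk : Cg * Ck ≤ D := le_trans (by gcongr; linarith) hD2
  have hD0 : 0 ≤ D := by linarith
  refine ⟨κ₀, D, p, J, hκ₀, by linarith, ?_⟩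
  intro ε R κ th u X₀ c hε hε1 hR1 hR2 hκ hMG hX₀ hqth hth hth1 hsm
  obtain ⟨a, ha, haκ, hrep, hM⟩ := hMG
  have hκ0 : 0 ≤ κ := (norm_nonneg _).trans haκ
  have hR0 : 0 < R := hr0.trans_le hR1
  have hu : u = syn b a := rep_syn hrep
  set q : Euc m →L[ℝ] Euc n := fderiv ℝ u X₀ with hq
  have hsyn : ∀ (f : XV m n (N + 2)) (j : ℕ), j ≤ N + 2 → ∀ x : Euc m,
      ‖iteratedFDeriv ℝ j (syn b f) x‖ ≤ Cg * ‖f‖ := fun f j hj x => by
    refine (norm_iteratedFDeriv_syn_le b f hj x).trans (le_of_eq ?_)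
    rw [hCg]; ring
  have hqn : ‖q‖ ≤ Cg * κ := by
    have h3 := hsyn a 1 (by omega) X₀
    rw [norm_iteratedFDeriv_one, ← hu] at h3
    exact h3.trans (by gcongr)
  have hun : ‖u X₀‖ ≤ Cg * κ := by
    have h3 := hsyn a 0 (by omega) X₀
    rw [norm_iteratedFDeriv_zero, ← hu] at h3
    exact h3.trans (by gcongr)
  -- the affine part
  have haf : ContDiff ℝ ∞ (fun x : Euc m => u X₀ + q x) := contDiff_const.add q.contDiff
  set ea : XV m n (N + 2) := wX b (N + 2) haf.contDiffOn with hea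
  have hean : ‖ea‖ ≤ Cw * (‖u X₀‖ + 2 * ‖q‖) := by
    refine hw _ haf.contDiffOn _ (by positivity) fun j hj x hx => ?_
    rcases Nat.eq_zero_or_pos j with h0 | h0
    · subst h0
      rw [norm_iteratedFDeriv_zero]
      refine (norm_add_le _ _).trans (add_le_add le_rfl ((q.le_opNorm x).trans ?_))
      have := (mem_ball_zero_iff.1 hx).le
      nlinarith [norm_nonneg q]
    · have e1 : iteratedFDeriv ℝ j (fun x : Euc m => u X₀ + q x) x =
          iteratedFDeriv ℝ j (fun _ : Euc m => u X₀) x + iteratedFDeriv ℝ j q x :=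
        iteratedFDeriv_add_apply (f := fun _ : Euc m => u X₀) (g := fun x => q x)
          contDiffAt_const q.contDiff.contDiffAt
      rw [e1, iteratedFDeriv_const_of_ne (by omega), Pi.zero_apply, zero_add]
      have := norm_iter_clm q x h0
      linarith [norm_nonneg (u X₀), norm_nonneg q]
  set et : XV m n (N + 2) := fun α => tw (N + 2) X₀ (a α) with het
  have hetn : ‖et‖ ≤ κ := by
    refine le_trans ?_ haκ
    refine (pi_norm_le_iff_of_nonneg (norm_nonneg _)).2 fun α => ?_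
    exact (norm_tw_le X₀ (a α)).trans (norm_le_pi_norm a α)
  have hets : ∀ x, syn b et x = u (X₀ + x) := fun x => by
    rw [hu]
    unfold syn
    refine Finset.sum_congr rfl fun α _ => ?_
    rw [het]
    simp only [ev_tw]
  set en : XV m n (N + 2) := -ea with hendef
  have hens : ∀ x, syn b en x = - syn b ea x := fun x => by
    unfold syn
    rw [← Finset.sum_neg_distrib]
    refine Finset.sum_congr rfl fun α _ => ?_
    have e3 : ev (-ea α) x = - ev (ea α) x := by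
      have e4 := ev_add (-ea α) (ea α) x
      rw [neg_add_cancel] at e4
      have e5 : ev (0 : X (Euc m) (N + 2)) x = 0 := by
        have e6 := ev_add (0 : X (Euc m) (N + 2)) 0 x
        rw [add_zero] at e6
        exact left_eq_add.1 e6
      rw [e5] at e4
      exact eq_neg_of_add_eq_zero_left e4.symm
    show (ev (-ea α) x).re • b α = _
    rw [e3, Complex.neg_re, neg_smul]
  have henr : IsReal en := fun α => by
    show star (-ea α) = -ea α
    rw [star_neg, hea, star_wX]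
  have henn : ‖en‖ ≤ Cw * (‖u X₀‖ + 2 * ‖q‖) := by rw [hendef, norm_neg]; exact hean
  set e : XV m n (N + 2) := et + en with hedef
  have hsn : ∀ x, syn b e x = u (X₀ + x) - syn b ea x := fun x => by
    have e1 : syn b e x = syn b et x + syn b en x := syn_add b et en x
    rw [e1, hens, hets, sub_eq_add_neg]
  have he : IsReal e := fun α => by
    show star (tw (N + 2) X₀ (a α) + en α) = tw (N + 2) X₀ (a α) + en α
    rw [star_add, star_tw, ha α, henr α]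
  have hen : ‖e‖ ≤ κ + Cw * (‖u X₀‖ + 2 * ‖q‖) :=
    (norm_add_le _ _).trans (add_le_add hetn henn)
  have hT0 : 0 ≤ (ε⁻¹) ^ p * th ^ ((1 / 2 : ℝ) ^ J) := by positivity
  obtain ⟨H, H', u₀, e', he', hen', hrep', hM', hRot⟩ := hcore 1 ε R κ th u X₀ 0 a e one_pos le_rfl
    hε hε1 hR1 hR2 hκ ha haκ hrep (by rwa [one_mul]) (by rwa [one_mul]) hqth hth hth1 (by
      refine le_trans ?_ hsm
      rw [mul_assoc, mul_assoc]
      gcongr) he (by
      refine hen.trans ?_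
      calc κ + Cw * (‖u X₀‖ + 2 * ‖q‖) ≤ κ + Cw * (Cg * κ + 2 * (Cg * κ)) := by gcongr
        _ = (1 + 3 * Cw * Cg) * κ := by ring) (fun x hx => by
      rw [hsn, hea, syn_wX, nb_one (by linarith), one_smul, inv_one, one_smul, one_smul]
      abel)
  rw [norm_zero, mul_zero, add_zero] at hen'
  have hu₀ : u₀ = syn b (e + e') := rep_syn hrep'
  set u' : Euc m → Euc n := syn b (e + e' + kX m (N + 2) c) with hu'
  have hu'e : ∀ x, ‖x‖ ≤ 6 → u' x = u₀ x + c := fun x hx => by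
    have e1 : u' x = syn b (e + e') x + syn b (kX m (N + 2) c) x := syn_add b (e + e') _ x
    rw [e1, syn_kX, chi0_quarter hx, one_smul, hu₀]
  have hRR : (1 - ε) * R ≤ R := by nlinarith
  have hRR0 : 0 < (1 - ε) * R := mul_pos (by linarith) hR0
  refine ⟨H, H', u', ⟨e + e' + kX m (N + 2) c, fun α => ?_, ?_, syn_rep fun α => ?_,
    msys_add_const' hM' fun y hy => hu'e y (by linarith)⟩, ?_, ?_⟩
  · show star (e α + e' α + kX m (N + 2) c α) = e α + e' α + kX m (N + 2) c α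
    rw [star_add, star_add, he α, he' α, star_kX]
  · calc ‖e + e' + kX m (N + 2) c‖ ≤ (κ + Cw * (‖u X₀‖ + 2 * ‖q‖)) +
          C * (ε⁻¹) ^ p * th ^ ((1 / 2 : ℝ) ^ J) * κ + Ck * ‖c‖ :=
          (norm_add_le _ _).trans (add_le_add ((norm_add_le _ _).trans (add_le_add hen hen'))
            (hk c))
      _ = (κ + Cw * ‖u X₀‖ + (2 * Cw) * ‖q‖) +
          C * (ε⁻¹) ^ p * th ^ ((1 / 2 : ℝ) ^ J) * κ + Ck * ‖c‖ := by ring
      _ ≤ (κ + D * ‖u X₀‖ + D * ‖q‖) + D * (ε⁻¹) ^ p * th ^ ((1 / 2 : ℝ) ^ J) * κ + D * ‖c‖ := by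
          gcongr
      _ = _ := by ring
  · show star (e α + e' α + kX m (N + 2) c α) = e α + e' α + kX m (N + 2) c α
    rw [star_add, star_add, he α, he' α, star_kX]
  · have h1 := hRot.add_const hRR0 (c := c) (u' := u') fun y hy => hu'e y (by linarith)
    refine ⟨h1.rt, h1.val, h1.der, fun y hy => ?_, h1.inj, h1.fwd⟩
    obtain ⟨x, h2, h3, h4, h5⟩ := h1.bwd y hy
    refine ⟨x, h2, h3, h4, h5.trans ?_⟩
    gcongr
  · intro j hj y
    set f : XV m n (N + 2) := en + (e' + kX m (N + 2) c) with hf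
    have hfun : (fun y => u' y - u y) = fun y => (syn b a (X₀ + y) - syn b a y) + syn b f y := by
      funext y
      have e1 : u' y = syn b (e + e') y + syn b (kX m (N + 2) c) y := syn_add b (e + e') _ y
      have e2 : syn b (e + e') y = syn b e y + syn b e' y := syn_add b e e' y
      have e3 : syn b f y = syn b en y + syn b (e' + kX m (N + 2) c) y := syn_add b en _ y
      have e4 : syn b (e' + kX m (N + 2) c) y = syn b e' y + syn b (kX m (N + 2) c) y :=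
        syn_add b e' _ y
      have e5 : syn b e y = syn b et y + syn b en y := syn_add b et en y
      rw [e1, e2, e3, e4, e5, hets, hu]
      abel
    have hj' : ((j : ℕ) : WithTop ℕ∞) ≤ ((N + 2 : ℕ) : WithTop ℕ∞) := by
      norm_cast; omega
    have hs : ContDiff ℝ ((N + 2 : ℕ) : WithTop ℕ∞) (syn b a) := contDiff_syn b a
    have hs1 : ContDiff ℝ ((N + 2 : ℕ) : WithTop ℕ∞) (fun y => syn b a (X₀ + y)) :=
      hs.comp (contDiff_const.add contDiff_id)
    have hs2 : ContDiff ℝ ((N + 2 : ℕ) : WithTop ℕ∞) (syn b f) := contDiff_syn b f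
    have e6 : iteratedFDeriv ℝ j (fun y => (syn b a (X₀ + y) - syn b a y) + syn b f y) y =
        iteratedFDeriv ℝ j (fun y => syn b a (X₀ + y) - syn b a y) y +
          iteratedFDeriv ℝ j (syn b f) y :=
      iteratedFDeriv_add_apply (f := fun y => syn b a (X₀ + y) - syn b a y) (g := syn b f)
        ((hs1.sub hs).contDiffAt.of_le hj') (hs2.contDiffAt.of_le hj')
    rw [hfun, e6]
    have h1 := shift_bound a X₀ hj y
    have h2 := hsyn f j (by omega) y
    have h3 : ‖f‖ ≤ Cw * (‖u X₀‖ + 2 * ‖q‖) +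
        (C * (ε⁻¹) ^ p * th ^ ((1 / 2 : ℝ) ^ J) * κ + Ck * ‖c‖) :=
      (norm_add_le _ _).trans (add_le_add henn ((norm_add_le _ _).trans (add_le_add hen' (hk c))))
    have h4 : Fintype.card (Fin n) * ((2 * Real.pi) ^ (N + 2) * ‖a‖) * ‖X₀‖ ≤
        Cg * κ * ‖X₀‖ := by
      rw [← mul_assoc, ← hCg]
      gcongr
    set T : ℝ := (ε⁻¹) ^ p * th ^ ((1 / 2 : ℝ) ^ J) * κ with hT
    have hT1 : 0 ≤ T := by positivity
    have e7 : C * (ε⁻¹) ^ p * th ^ ((1 / 2 : ℝ) ^ J) * κ = C * T := by rw [hT]; ring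
    rw [e7] at h3
    calc _ ≤ Cg * κ * ‖X₀‖ + Cg * (Cw * (‖u X₀‖ + 2 * ‖q‖) + (C * T + Ck * ‖c‖)) :=
          (norm_add_le _ _).trans (add_le_add (h1.trans h4) (h2.trans (by gcongr)))
      _ = Cg * (κ * ‖X₀‖) + (Cg * Cw) * ‖u X₀‖ + (Cg * (2 * Cw)) * ‖q‖ + (Cg * C) * T +
          (Cg * Ck) * ‖c‖ := by ring
      _ ≤ D * (κ * ‖X₀‖) + D * ‖u X₀‖ + D * ‖q‖ + D * T + D * ‖c‖ := by
          have h5 : Cg * Cw ≤ D := le_trans (by gcongr; linarith) hgw
          gcongr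
      _ = _ := by ring

end Crest.Agent.R234.Rs_182
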