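import Crest.Agent.R234.F11a_188
import Crest.Agent.R234.Rs7_182

/-!
# Row 234, (F8) START, F11b (helper188): preparations for the pre-state case

* `Rt_uniq'` : uniqueness of the inverse square root.
* `u0_le` : the reference passes near the base point.
* `Rot0` : data of the rotation of the reference to its tangent plane at the foot of the base point.
-/

set_option autoImplicit false
set_option linter.unusedVariables false

open MeasureTheory Filter Topology Set
open scoped ENNReal NNReal ContDiff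
open Crest.GeometryTopology.Submanifold Crest.Agent.R234.Vf_884
open Crest.Agent.R234.Main_456 (Frame Msys hgt NearQ)
open Crest.Agent.R234.AS_456 (hp vp)
open Crest.Agent.R234.MG_570 (MG SelP3)
open Crest.Agent.R234.F10a_188 Crest.Agent.R234.F10b_188
open Crest.Agent.R234.Top_395 Crest.Agent.R234.Stp_518
open Crest.Agent.R234.F10t_188 Crest.Agent.R234.F10w_188 Crest.Agent.R234.F10y_188
open Crest.Agent.R234.F10z_188 Crest.Agent.R234.F11a_188
open Crest.Agent.R234.Grot_842 (Rt rπ rρ)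

noncomputable section

namespace Crest.Agent.R234.F11b_188

variable {m n k : ℕ}

/-- uniqueness of the inverse square root close to the identity. -/
theorem Rt_uniq' {q : Euc m →L[ℝ] Euc n} {H G : Euc m →L[ℝ] Euc m} {H' G' : Euc n →L[ℝ] Euc n}
    (h : Rt q H H') (h2 : Rt q G G') (hq : ‖q‖ ^ 2 < 1) : H' = G' := by
  have hsq : ∀ y, H' (H' y) = G' (G' y) := by
    intro y
    have e1 := h.sq_gop' (G' (G' y))
    rw [h2.gop_sq'] at e1
    exact e1
  have e2 : (2 : ℝ) • (H' - G') = (1 - H') * (H' - G') + (H' - G') * (1 - G') := by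
    ext1 y
    simp only [_root_.smul_apply, _root_.add_apply, ContinuousLinearMap.mul_apply,
      _root_.sub_apply, ContinuousLinearMap.one_apply, map_sub]
    rw [hsq y, two_smul]
    abel
  have h3 := h.norm_sub'
  have h4 := h2.norm_sub'
  have h5 : ‖(1 : Euc n →L[ℝ] Euc n) - H'‖ ≤ ‖q‖ ^ 2 := by rwa [norm_sub_rev]
  have h6 : ‖(1 : Euc n →L[ℝ] Euc n) - G'‖ ≤ ‖q‖ ^ 2 := by rwa [norm_sub_rev]
  have h7 : 2 * ‖H' - G'‖ ≤ ‖q‖ ^ 2 * ‖H' - G'‖ + ‖H' - G'‖ * ‖q‖ ^ 2 := by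
    have e3 : 2 * ‖H' - G'‖ = ‖(2 : ℝ) • (H' - G')‖ := by
      rw [norm_smul]; norm_num
    rw [e3, e2]
    refine (norm_add_le _ _).trans (add_le_add ?_ ?_)
    · exact (norm_mul_le _ _).trans (mul_le_mul_of_nonneg_right h5 (norm_nonneg _))
    · exact (norm_mul_le _ _).trans (mul_le_mul_of_nonneg_left h6 (norm_nonneg _))
  have h8 : ‖H' - G'‖ = 0 := by
    by_contra hne
    have hpos : 0 < ‖H' - G'‖ := lt_of_le_of_ne (norm_nonneg _) (Ne.symm hne)
    nlinarith
  exact sub_eq_zero.1 (norm_eq_zero.1 h8)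

/-- the angle of the rotated frame. -/
theorem hp_rot_le {π : Euc k →L[ℝ] Euc m} {ρ : Euc k →L[ℝ] Euc n} {q : Euc m →L[ℝ] Euc n}
    {H : Euc m →L[ℝ] Euc m} {H' : Euc n →L[ℝ] Euc n} (hf : Frame π ρ) (h : Rt q H H')
    (hq : ‖q‖ ≤ 1) : ‖hp (rπ π ρ q H) - hp π‖ ≤ 4 * ‖q‖ := by
  have h0 := norm_nonneg q
  have h1 : ‖rπ π ρ q H - π‖ ≤ 2 * ‖q‖ := by
    refine ContinuousLinearMap.opNorm_le_bound _ (by positivity) fun z => ?_
    rw [_root_.sub_apply]
    refine (Grot_842.norm_rπ_sub hf h z).trans ?_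
    refine mul_le_mul_of_nonneg_right ?_ (norm_nonneg _)
    nlinarith
  have hπ1 : ‖π‖ ≤ 1 := ContinuousLinearMap.opNorm_le_bound _ zero_le_one fun z => by
    rw [one_mul]; exact Grot_842.fr_norm_π hf z
  have hπ2 : ‖rπ π ρ q H‖ ≤ 1 := ContinuousLinearMap.opNorm_le_bound _ zero_le_one fun z => by
    rw [one_mul]; exact Grot_842.fr_norm_π (Grot_842.frame_rot hf h) z
  have e1 : hp (rπ π ρ q H) - hp π =
      ContinuousLinearMap.adjoint (rπ π ρ q H) ∘L (rπ π ρ q H - π) +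
        ContinuousLinearMap.adjoint (rπ π ρ q H - π) ∘L π := by
    unfold AS_456.hp
    ext1 z
    simp only [_root_.sub_apply, _root_.add_apply, ContinuousLinearMap.comp_apply, map_sub]
    abel
  rw [e1]
  refine (norm_add_le _ _).trans ?_
  have h2 : ‖ContinuousLinearMap.adjoint (rπ π ρ q H) ∘L (rπ π ρ q H - π)‖ ≤ 1 * (2 * ‖q‖) := by
    refine (ContinuousLinearMap.opNorm_comp_le _ _).trans ?_
    rw [LinearIsometryEquiv.norm_map]
    exact mul_le_mul hπ2 h1 (norm_nonneg _) zero_le_one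
  have h3 : ‖ContinuousLinearMap.adjoint (rπ π ρ q H - π) ∘L π‖ ≤ (2 * ‖q‖) * 1 := by
    refine (ContinuousLinearMap.opNorm_comp_le _ _).trans ?_
    rw [LinearIsometryEquiv.norm_map]
    exact mul_le_mul h1 hπ1 (norm_nonneg _) (by positivity)
  linarith

/-- the support point has mass around it. -/
theorem pos_ball {U : Set (Euc k)} {V : Measure (Euc k × L k)} {x : Euc k} {r : ℝ}
    (hV : Stat m k U V) (hm : 1 ≤ m) (hr : 0 < r) (hU : Metric.ball x r ⊆ U)
    (hTh : 1 ≤ Th m V x) : V (Metric.ball x r ×ˢ univ) ≠ 0 := by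
  have h1 := mul_le_mass hV hm hr hU hTh
  rw [mass_apply V measurableSet_ball] at h1
  rw [Top_395.prod_eq]
  intro h0
  rw [h0, one_mul, nonpos_iff_eq_zero, ENNReal.ofReal_eq_zero] at h1
  have h2 := ome_pos m
  have h3 : 0 < ome m * r ^ m := by positivity
  linarith

/-- the reference passes near the base point. -/
theorem u0_le {U : Set (Euc k)} {D : VarifoldData m k} {x : Euc k} {π : Euc k →L[ℝ] Euc m}
    {ρ : Euc k →L[ℝ] Euc n} {S A τ : ℝ} {u : Euc m → Euc n} (hV : Stat m k U (VD D)) (hm : 1 ≤ m)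
    (hS : 0 < S) (hA : 0 < A) (hU : Metric.closedBall x S ⊆ U) (hTh : 1 ≤ Th m (VD D) x)
    (hu : Continuous u)
    (hsup : ∀ᵐ p ∂(VD D), ‖π (p.1 - x)‖ ≤ A → ‖ρ (p.1 - x)‖ ≤ S →
      ‖hgt π ρ x S u p.1‖ ≤ S * τ) : ‖u 0‖ ≤ τ := by
  by_contra hc
  push Not at hc
  have hx0 : ‖hgt π ρ x S u x‖ = S * ‖u 0‖ := by
    unfold Main_456.hgt
    rw [sub_self, map_zero, map_zero, smul_zero, zero_sub, norm_neg, norm_smul,
      Real.norm_of_nonneg hS.le]
  have hcont : Continuous fun z : Euc k => ‖hgt π ρ x S u z‖ := by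
    unfold Main_456.hgt
    fun_prop
  have h1 : ∀ᶠ z in 𝓝 x, S * τ < ‖hgt π ρ x S u z‖ := by
    refine (hcont.tendsto x).eventually (lt_mem_nhds ?_)
    rw [hx0]
    exact mul_lt_mul_of_pos_left hc hS
  have h2 : ∀ᶠ z in 𝓝 x, ‖π (z - x)‖ < A := by
    have hc2 : Continuous fun z : Euc k => ‖π (z - x)‖ := by fun_prop
    refine (hc2.tendsto x).eventually (gt_mem_nhds ?_)
    simpa using hA
  have h3 : ∀ᶠ z in 𝓝 x, ‖ρ (z - x)‖ < S := by
    have hc2 : Continuous fun z : Euc k => ‖ρ (z - x)‖ := by fun_prop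
    refine (hc2.tendsto x).eventually (gt_mem_nhds ?_)
    simpa using hS
  obtain ⟨δ, hδ, h4⟩ := Metric.eventually_nhds_iff_ball.1 (h1.and (h2.and h3))
  have h5 : (VD D) (Metric.ball x (min δ S) ×ˢ univ) = 0 := by
    refine measure_mono_null ?_ (ae_iff.1 hsup)
    rintro p ⟨hp, -⟩
    obtain ⟨g1, g2, g3⟩ := h4 p.1 (Metric.ball_subset_ball (min_le_left _ _) hp)
    simp only [mem_ofPred_eq, Classical.not_imp, not_le]
    exact ⟨g2.le, g3.le, g1⟩
  refine pos_ball hV hm (lt_min hδ hS) ?_ hTh h5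
  exact (Metric.ball_subset_ball (min_le_right _ _)).trans (Metric.ball_subset_closedBall.trans hU)

theorem GrB.gr1 {M : Mo m n k} {b : ℝ} (h : GrB M b) (hb : b ≤ 1 / 8) : Gi_456.Gr 1 M.u :=
  ⟨one_pos, h.cu, fun X => (h.b1 X).trans hb, fun X => (h.b2 X).trans (by rw [mul_one]; exact hb)⟩

theorem eps_sq {L : ℝ} (hL : 0 < L) : eps L ^ 2 = 1 / (64 * L) := by
  unfold eps ww
  rw [div_pow, ← Real.rpow_natCast (L ^ (-(1 / 2) : ℝ)) 2, ← Real.rpow_mul hL.le]
  norm_num
  rw [Real.rpow_neg_one]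
  field_simp

/-- radii. -/
theorem radii {s e : ℝ} (he : 0 < e) (he1 : e ≤ 1 / 80) (hs : -(5 / 4) ≤ s) :
    Real.exp (s - 23 / 2 * e) + e ≤ Real.exp (s - 4 * e) ∧
      Real.exp (s - 4 * e) ≤ (1 - e) * Real.exp (s - 2 * e) ∧
      Real.exp (-3) ≤ Real.exp (s - 2 * e) := by
  refine ⟨?_, ?_, Real.exp_le_exp.2 (by linarith)⟩
  · have e1 : Real.exp (s - 4 * e) = Real.exp (s - 23 / 2 * e) * Real.exp (15 / 2 * e) := by
      rw [← Real.exp_add]; congr 1; ring
    have h1 := Real.add_one_le_exp (15 / 2 * e)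
    have h2 : Real.exp (-2) ≤ Real.exp (s - 23 / 2 * e) := Real.exp_le_exp.2 (by linarith)
    have h3 : (1 : ℝ) / (15 / 2) ≤ Real.exp (-2) := by
      rw [Real.exp_neg, one_div]
      refine inv_anti₀ (Real.exp_pos _) ?_
      have h4 := Real.exp_one_lt_d9
      have h5 : Real.exp 2 = Real.exp 1 * Real.exp 1 := by rw [← Real.exp_add]; norm_num
      rw [h5]
      have h6 := Real.exp_pos (1:ℝ)
      nlinarith
    rw [e1]
    have h7 : 1 / (15 / 2) ≤ Real.exp (s - 23 / 2 * e) := h3.trans h2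
    have h8 := Real.exp_pos (s - 23 / 2 * e)
    nlinarith
  · have e1 : Real.exp (s - 4 * e) = Real.exp (-(2 * e)) * Real.exp (s - 2 * e) := by
      rw [← Real.exp_add]; congr 1; ring
    rw [e1]
    refine mul_le_mul_of_nonneg_right ?_ (Real.exp_pos _).le
    rw [Real.exp_neg, inv_le_comm₀ (Real.exp_pos _) (by linarith)]
    have h1 := Real.add_one_le_exp (2 * e)
    refine le_trans ?_ h1
    rw [inv_le_comm₀ (by linarith) (by linarith), ← one_div, div_le_iff₀ (by linarith)]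
    nlinarith

end Crest.Agent.R234.F11b_188
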