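import Crest.Agent.R234.F11a_435

/-!
# Row 234, VF-F11 (helper435), part 2: foot points over a graph with small slope

`q` on the graph of `u` (frame `π, ρ`, centre `z`, scale `r`), `ν = p - q` normal to the graph at `q`.
Comparison of the distance `|ν|` and the graph height of `p`, of the foot coordinate and of `π (p - z)`.
-/

set_option autoImplicit false
set_option linter.unusedVariables false

open MeasureTheory Filter Topology Set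
open scoped ENNReal NNReal ContDiff InnerProductSpace
open Crest.GeometryTopology.Submanifold Crest.Agent.R234.Vf_884
open Crest.Agent.R234.Main_456

noncomputable section

namespace Crest.Agent.R234.F11_435

variable {m n k : ℕ} {π : Euc k →L[ℝ] Euc m} {ρ : Euc k →L[ℝ] Euc n}
  {z : Euc k} {r κ : ℝ} {u : Euc m → Euc n}

/-- `q` is a foot point of `p`: on the graph, and `p - q` is normal to the graph at `q`. -/
structure Foot (π : Euc k →L[ℝ] Euc m) (ρ : Euc k →L[ℝ] Euc n) (z : Euc k) (r : ℝ)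
    (u : Euc m → Euc n) (p q : Euc k) : Prop where
  on : hgt π ρ z r u q = 0
  nrm : ∀ v : Euc m, ⟪π (p - q), v⟫_ℝ + ⟪ρ (p - q), fderiv ℝ u (r⁻¹ • π (q - z)) v⟫_ℝ = 0

variable {p q : Euc k}

theorem Foot.norm_pi_le (h : Foot π ρ z r u p q) (hκ : ‖fderiv ℝ u (r⁻¹ • π (q - z))‖ ≤ κ) :
    ‖π (p - q)‖ ≤ κ * ‖ρ (p - q)‖ := by
  have h1 := h.nrm (π (p - q))
  rw [real_inner_self_eq_norm_sq] at h1
  have h2 : |⟪ρ (p - q), fderiv ℝ u (r⁻¹ • π (q - z)) (π (p - q))⟫_ℝ| ≤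
      ‖ρ (p - q)‖ * (κ * ‖π (p - q)‖) := by
    refine (abs_real_inner_le_norm _ _).trans ?_
    gcongr
    exact (ContinuousLinearMap.le_opNorm _ _).trans (by gcongr)
  have h3 := abs_le.1 h2
  have h4 : ‖π (p - q)‖ * ‖π (p - q)‖ ≤ (κ * ‖ρ (p - q)‖) * ‖π (p - q)‖ := by nlinarith [h3.1]
  rcases (norm_nonneg (π (p - q))).eq_or_lt with h5 | h5
  · rw [← h5]
    have : 0 ≤ κ := (norm_nonneg _).trans hκ
    positivity
  · exact le_of_mul_le_mul_right h4 h5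

/-- graph height of `p` in terms of the normal vector -/
theorem Foot.hgt_eq (h : Foot π ρ z r u p q) :
    hgt π ρ z r u p = ρ (p - q) -
      r • (u (r⁻¹ • π (q - z) + r⁻¹ • π (p - q)) - u (r⁻¹ • π (q - z))) := by
  have h1 := h.on
  unfold hgt at h1 ⊢
  have h2 : r⁻¹ • π (q - z) + r⁻¹ • π (p - q) = r⁻¹ • π (p - z) := by
    rw [← smul_add, ← map_add, add_comm, sub_add_sub_cancel]
  rw [h2]
  have h3 : ρ (p - z) = ρ (p - q) + ρ (q - z) := by rw [← map_add, sub_add_sub_cancel]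
  rw [h3, smul_sub, sub_eq_zero.1 h1]
  abel

theorem Foot.abs_hgt (h : Foot π ρ z r u p q) (hr : 0 < r) {S : Set (Euc m)} (hS : Convex ℝ S)
    (hu : ∀ ξ ∈ S, DifferentiableAt ℝ u ξ) (hκ : ∀ ξ ∈ S, ‖fderiv ℝ u ξ‖ ≤ κ)
    (hq : r⁻¹ • π (q - z) ∈ S) (hp : r⁻¹ • π (p - z) ∈ S) :
    ‖hgt π ρ z r u p - ρ (p - q)‖ ≤ κ ^ 2 * ‖ρ (p - q)‖ := by
  have hκ0 : 0 ≤ κ := (norm_nonneg _).trans (hκ _ hq)
  have h2 : r⁻¹ • π (q - z) + r⁻¹ • π (p - q) = r⁻¹ • π (p - z) := by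
    rw [← smul_add, ← map_add, add_comm, sub_add_sub_cancel]
  rw [h.hgt_eq, sub_sub_cancel_left, norm_neg, norm_smul, Real.norm_of_nonneg hr.le, h2]
  have h3 := hS.norm_image_sub_le_of_norm_fderiv_le hu hκ hq hp
  have h4 : r⁻¹ • π (p - z) - r⁻¹ • π (q - z) = r⁻¹ • π (p - q) := by rw [← h2]; abel
  rw [h4, norm_smul, norm_inv, Real.norm_of_nonneg hr.le] at h3
  have h5 := h.norm_pi_le (hκ _ hq)
  calc r * ‖u (r⁻¹ • π (p - z)) - u (r⁻¹ • π (q - z))‖ ≤ r * (κ * (r⁻¹ * ‖π (p - q)‖)) := by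
        gcongr
    _ = κ * ‖π (p - q)‖ := by field_simp
    _ ≤ κ * (κ * ‖ρ (p - q)‖) := by gcongr
    _ = _ := by ring

/-- the graph height and the distance to the foot are comparable -/
theorem Foot.hgt_le (h : Foot π ρ z r u p q) (hf : Frame π ρ) (hr : 0 < r) {S : Set (Euc m)}
    (hS : Convex ℝ S) (hu : ∀ ξ ∈ S, DifferentiableAt ℝ u ξ) (hκ : ∀ ξ ∈ S, ‖fderiv ℝ u ξ‖ ≤ κ)
    (hq : r⁻¹ • π (q - z) ∈ S) (hp : r⁻¹ • π (p - z) ∈ S) :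
    ‖hgt π ρ z r u p‖ ≤ (1 + κ ^ 2) * ‖p - q‖ := by
  have h1 := h.abs_hgt hr hS hu hκ hq hp
  have h2 := norm_rho_le hf (p - q)
  calc ‖hgt π ρ z r u p‖ ≤ ‖hgt π ρ z r u p - ρ (p - q)‖ + ‖ρ (p - q)‖ := by
        simpa using norm_add_le (hgt π ρ z r u p - ρ (p - q)) (ρ (p - q))
    _ ≤ κ ^ 2 * ‖ρ (p - q)‖ + ‖ρ (p - q)‖ := by gcongr
    _ = (1 + κ ^ 2) * ‖ρ (p - q)‖ := by ring
    _ ≤ _ := by gcongr

theorem Foot.le_hgt (h : Foot π ρ z r u p q) (hf : Frame π ρ) (hr : 0 < r) {S : Set (Euc m)}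
    (hS : Convex ℝ S) (hu : ∀ ξ ∈ S, DifferentiableAt ℝ u ξ) (hκ : ∀ ξ ∈ S, ‖fderiv ℝ u ξ‖ ≤ κ)
    (hκ1 : κ ≤ 1) (hq : r⁻¹ • π (q - z) ∈ S) (hp : r⁻¹ • π (p - z) ∈ S) :
    (1 - 2 * κ ^ 2) * ‖p - q‖ ≤ ‖hgt π ρ z r u p‖ := by
  have hκ0 : 0 ≤ κ := (norm_nonneg _).trans (hκ _ hq)
  have h1 := h.abs_hgt hr hS hu hκ hq hp
  have h2 := h.norm_pi_le (hκ _ hq)
  have h3 := frame_norm_sq hf (p - q)
  have h4 : ‖p - q‖ ≤ (1 + κ ^ 2) * ‖ρ (p - q)‖ := by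
    refine le_of_sq_le_sq ?_ (by positivity)
    have h5 : ‖π (p - q)‖ ^ 2 ≤ (κ * ‖ρ (p - q)‖) ^ 2 := by gcongr
    nlinarith [sq_nonneg (κ * ‖ρ (p - q)‖), sq_nonneg (κ ^ 2 * ‖ρ (p - q)‖)]
  have h5 : ‖ρ (p - q)‖ - κ ^ 2 * ‖ρ (p - q)‖ ≤ ‖hgt π ρ z r u p‖ := by
    have h6 : ‖ρ (p - q)‖ ≤ ‖hgt π ρ z r u p‖ + ‖hgt π ρ z r u p - ρ (p - q)‖ := by
      have := norm_sub_norm_le (ρ (p - q)) (hgt π ρ z r u p)
      rw [norm_sub_rev] at this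
      linarith
    linarith
  have h7 : 0 ≤ 1 - κ ^ 2 := by nlinarith
  have h8 : (1 - 2 * κ ^ 2) * ‖p - q‖ ≤ (1 - κ ^ 2) * ‖ρ (p - q)‖ := by
    by_cases h9 : 0 ≤ 1 - 2 * κ ^ 2
    · calc (1 - 2 * κ ^ 2) * ‖p - q‖ ≤ (1 - 2 * κ ^ 2) * ((1 + κ ^ 2) * ‖ρ (p - q)‖) := by gcongr
        _ ≤ (1 - κ ^ 2) * ‖ρ (p - q)‖ := by
          have : (1 - 2 * κ ^ 2) * (1 + κ ^ 2) ≤ 1 - κ ^ 2 := by nlinarith [sq_nonneg (κ ^ 2)]
          nlinarith [norm_nonneg (ρ (p - q))]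
    · have h10 : (1 - 2 * κ ^ 2) * ‖p - q‖ ≤ 0 :=
        mul_nonpos_of_nonpos_of_nonneg (not_le.1 h9).le (norm_nonneg _)
      exact h10.trans (by positivity)
  linarith

/-- the base coordinate of `p` and of its foot -/
theorem Foot.base (h : Foot π ρ z r u p q) (hf : Frame π ρ)
    (hκ : ‖fderiv ℝ u (r⁻¹ • π (q - z))‖ ≤ κ) : ‖π (p - z) - π (q - z)‖ ≤ κ * ‖p - q‖ := by
  have hκ0 : 0 ≤ κ := (norm_nonneg _).trans hκ
  have h1 : π (p - z) - π (q - z) = π (p - q) := by rw [← map_sub, sub_sub_sub_cancel_right]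
  rw [h1]
  exact (h.norm_pi_le hκ).trans (by gcongr; exact norm_rho_le hf _)

end Crest.Agent.R234.F11_435
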