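import Crest.Agent.R234.F11b_188

/-!
# Row 234, (F8) START, F11c (helper188): the pre-state case

`mkPre` : if `Λ` of the selected reference has grown by `6/5`, its rotation to the tangent plane at
the foot of the base point is a pre-state with `Λ = 23/20 L`.
-/

set_option autoImplicit false
set_option linter.unusedVariables false

open MeasureTheory Filter Topology Set
open scoped ENNReal NNReal ContDiff
open Crest.GeometryTopology.Submanifold Crest.Agent.R234.Vf_884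
open Crest.Agent.R234.Main_456 (Frame Msys hgt NearQ)
open Crest.Agent.R234.AS_456 (hp vp)
open Crest.Agent.R234.MG_570 (MG SelP3)
open Crest.Agent.R234.F10a_188 Crest.Agent.R234.F10b_188
open Crest.Agent.R234.Top_395 Crest.Agent.R234.Stp_518
open Crest.Agent.R234.F10t_188 Crest.Agent.R234.F10w_188 Crest.Agent.R234.F10y_188
open Crest.Agent.R234.F10z_188 Crest.Agent.R234.F11a_188 Crest.Agent.R234.F11b_188
open Crest.Agent.R234.Grot_842 (Rt rπ rρ)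

noncomputable section

namespace Crest.Agent.R234.F11c_188

variable {m n k : ℕ}

/-- **pre-states** of the start. -/
structure Ps (c : Cn) (V : Measure (Euc k × L k)) (x : Euc k) (M : Mo m n k) (l : ℝ) : Prop where
  cls : Cls c M (Real.exp (l - M.lb)) 0
  I_le : M.I x V l ≤ Real.exp (2 * l - M.Lb)
  sup : SupLe M x V (Real.exp (l - M.lb)) (Real.exp (-(M.Lb / 4)))

/-- rotation of a graph function to the tangent plane at the foot of the base point. -/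
structure RotO (N : ℕ) (u u' : Euc m → Euc n) (X0 : Euc m) (q : Euc m →L[ℝ] Euc n)
    (H : Euc m →L[ℝ] Euc m) (H' : Euc n →L[ℝ] Euc n) (κ' R e B : ℝ) : Prop where
  rt : Rt q H H'
  foot : X0 + ContinuousLinearMap.adjoint q (u X0) = 0
  mg : MG N κ' ((1 - e) * R) u'
  der : fderiv ℝ u' 0 = 0
  fwd : ∀ a ∈ Metric.ball (0 : Euc m) R, ∀ y ∈ Metric.ball (0 : Euc m) ((1 - e) * R),
    H (a + ContinuousLinearMap.adjoint q (u (X0 + a) - u X0)) = y →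
      u' y - H' (u X0 - q X0) = H' (u (X0 + a) - u X0 - q a)
  d0 : ∀ X, ‖u' X - u X‖ ≤ B
  d1 : ∀ X, ‖fderiv ℝ u' X - fderiv ℝ u X‖ ≤ B
  q_le : ‖q‖ ≤ B
  X_le : ‖X0‖ ≤ B

theorem exp_neg_three : (1:ℝ) / 32 ≤ Real.exp (-3) := by
  rw [Real.exp_neg, one_div]
  refine inv_anti₀ (Real.exp_pos _) ?_
  have h4 := Real.exp_one_lt_d9
  have h5 : Real.exp 3 = Real.exp 1 * Real.exp 1 * Real.exp 1 := by
    rw [← Real.exp_add, ← Real.exp_add]; norm_num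
  rw [h5]
  have h6 := Real.exp_pos (1:ℝ)
  have h7 : Real.exp 1 * Real.exp 1 ≤ 8 := by nlinarith
  nlinarith

set_option maxHeartbeats 2000000 in
/-- **the rotation, all constants.** `τ` = size of `u` at `0`, `s ∈ (0, 1]` a small exponent. -/
theorem rotO (m n N : ℕ) (hm : 1 ≤ m) (hN : 2 ≤ N) : ∃ κ₁ : ℝ, 0 < κ₁ ∧ κ₁ ≤ 1 ∧
    ∀ A : ℝ, 1 ≤ A → ∃ L₂ : ℝ, 100 ≤ L₂ ∧
    ∀ (L R κ : ℝ) (u : Euc m → Euc n) (k : ℕ) (π : Euc k →L[ℝ] Euc m) (ρ : Euc k →L[ℝ] Euc n),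
      L₂ ≤ L → Frame π ρ → Real.exp (-3) ≤ R → R ≤ 1 → 0 ≤ κ → κ ≤ κ₁ → MG N κ R u →
      Gi_456.Gr 1 u →
      ‖u 0‖ ≤ Real.exp (-(399 / 800 * L)) → ‖fderiv ℝ u 0‖ ≤ Real.exp (-(399 / 800 * L)) →
      ∃ (B : ℝ) (u' : Euc m → Euc n) (X0 : Euc m) (q : Euc m →L[ℝ] Euc n)
        (H : Euc m →L[ℝ] Euc m) (H' : Euc n →L[ℝ] Euc n), 0 ≤ B ∧ A * B ≤ eps L ^ 2 ∧
          RotO N u u' X0 q H H' (κ + B) R (eps L) B := by
  obtain ⟨κr, C, p, J, hκr, hC, hrot⟩ := Rs_182.rotate' m n N hm (Real.exp (-3)) (Real.exp_pos _)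
    (Real.exp_le_one_iff.2 (by norm_num))
  refine ⟨min 1 κr, by positivity, min_le_left _ _, fun A hA => ?_⟩
  obtain ⟨s, hs⟩ : ∃ s : ℝ, s = (1 / 2 : ℝ) ^ J := ⟨_, rfl⟩
  have hs0 : 0 < s := by rw [hs]; positivity
  have hs1 : s ≤ 1 := by rw [hs]; exact pow_le_one₀ (by norm_num) (by norm_num)
  obtain ⟨L1, hL1, p1⟩ := poly (2 * C) p (show (0:ℝ) < 399 / 1600 * s by positivity)
  obtain ⟨L2, hL2, p2⟩ := poly (A * (11 * C)) 2 (show (0:ℝ) < 399 / 1600 * s by positivity)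
  obtain ⟨L3, hL3, p3⟩ := poly 10000 2 (show (0:ℝ) < 399 / 800 by positivity)
  refine ⟨max L1 (max L2 L3), hL1.trans (le_max_left _ _), ?_⟩
  intro L R κ u k π ρ hL hf hR hR1 hκ0 hκ hMG hgr hu0 hdu0
  simp only [max_le_iff] at hL
  obtain ⟨l1, l2, l3⟩ := hL
  have q1 := p1 L l1
  have q2 := p2 L l2
  have q3 := p3 L l3
  have hL100 : 100 ≤ L := hL1.trans l1
  have hL0 : 0 < L := by linarith
  have he := eps_pos hL0
  have he1 := eps_le hL100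
  obtain ⟨e, hedef⟩ : ∃ e, e = eps L := ⟨_, rfl⟩
  rw [← hedef] at q1 q2 q3 he he1 ⊢
  obtain ⟨τ, hτ⟩ : ∃ τ, τ = Real.exp (-(399 / 800 * L)) := ⟨_, rfl⟩
  rw [← hτ] at hu0 hdu0
  have hτ0 : 0 < τ := by rw [hτ]; exact Real.exp_pos _
  obtain ⟨σ, hσ⟩ : ∃ σ, σ = Real.exp (-(399 / 1600 * s * L)) := ⟨_, rfl⟩
  have hσ0 : 0 < σ := by rw [hσ]; exact Real.exp_pos _
  have hτσ : τ ≤ σ := by
    rw [hτ, hσ]
    refine Real.exp_le_exp.2 ?_
    nlinarith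
  have he2 : 0 < e ^ 2 := by positivity
  have hτe : 10000 * τ ≤ e ^ 2 := by
    rw [hτ]; exact exp_small he2 q3
  have hσe : A * (11 * C) * σ ≤ e ^ 2 := by
    rw [hσ]; exact exp_small he2 q2
  have hee : e ^ 2 ≤ e := by nlinarith
  have hτ1 : τ ≤ 1 / 10000 := by nlinarith
  -- the foot
  obtain ⟨X0, hX0, hX1, hX2⟩ := F10v_188.exists_foot0 hf hgr (by linarith)
  obtain ⟨q, hq⟩ : ∃ q, q = fderiv ℝ u X0 := ⟨_, rfl⟩
  rw [← hq] at hX0
  have hXτ : ‖X0‖ ≤ τ / 4 := by linarith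
  have huX : ‖u X0‖ ≤ 2 * τ := by linarith
  have hqτ : ‖q‖ ≤ 2 * τ := by
    have h1 := hgr.lip' X0 0
    rw [sub_zero] at h1
    have h2 := norm_le_norm_add_norm_sub' (fderiv ℝ u X0) (fderiv ℝ u 0)
    rw [← hq] at h1 h2
    have h3 : ‖q - fderiv ℝ u 0‖ ≤ 1 / 8 * ‖X0‖ := by
      refine h1.trans (le_of_eq ?_)
      norm_num
    linarith
  obtain ⟨H₁, H₁', hRt₁⟩ := Grot_842.exists_Rt q
  obtain ⟨cc, hcc⟩ : ∃ cc, cc = H₁' (u X0 - q X0) := ⟨_, rfl⟩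
  have hccτ : ‖cc‖ ≤ 3 * τ := by
    rw [hcc]
    refine (hRt₁.le' _).trans ((norm_sub_le _ _).trans ?_)
    have h1 : ‖q X0‖ ≤ 2 * τ * (τ / 4) :=
      (q.le_opNorm X0).trans (mul_le_mul hqτ hXτ (norm_nonneg _) (by positivity))
    nlinarith
  have hth : (2 * τ) ^ s ≤ 2 * σ ^ 2 := by
    rw [Real.mul_rpow (by norm_num) hτ0.le]
    have h1 : (2:ℝ) ^ s ≤ 2 := by
      calc (2:ℝ) ^ s ≤ (2:ℝ) ^ (1:ℝ) := Real.rpow_le_rpow_of_exponent_le (by norm_num) hs1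
        _ = 2 := Real.rpow_one 2
    have h2 : τ ^ s = σ ^ 2 := by
      rw [hτ, hσ, ← Real.exp_mul, ← Real.exp_nat_mul]
      congr 1; push_cast; ring
    rw [h2]
    gcongr
  have hsmall : C * e⁻¹ ^ p * (2 * τ) ^ s ≤ σ := by
    have h1 : 2 * C * σ ≤ e ^ p := by
      rw [hσ]; exact exp_small (by positivity) q1
    calc C * e⁻¹ ^ p * (2 * τ) ^ s ≤ C * e⁻¹ ^ p * (2 * σ ^ 2) := by gcongr
      _ = (2 * C * σ) * (e⁻¹ ^ p * σ) := by ring
      _ ≤ e ^ p * (e⁻¹ ^ p * σ) := by gcongr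
      _ = σ := by rw [inv_pow]; field_simp
  have hσ1 : σ ≤ 1 := by
    rw [hσ]
    refine Real.exp_le_one_iff.2 ?_
    have : 0 ≤ 399 / 1600 * s * L := by positivity
    linarith
  have hκ1 : κ ≤ 1 := hκ.trans (min_le_left _ _)
  obtain ⟨H, H', u', g1, g2, g3⟩ := hrot e R κ (2 * τ) u X0 cc he (by linarith) hR (by linarith)
    (hκ.trans (min_le_right _ _)) hMG (by
      have h2 : e * (1 / 32) ≤ e * R := mul_le_mul_of_nonneg_left (exp_neg_three.trans hR) he.le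
      linarith) (by rw [← hq]; exact hqτ) (by positivity) (by linarith) (by
      rw [← hs]; exact hsmall.trans hσ1)
  have hB : C * (κ * ‖X0‖ + ‖u X0‖ + ‖fderiv ℝ u X0‖ + e⁻¹ ^ p * (2 * τ) ^ ((1 / 2 : ℝ) ^ J) * κ +
      ‖cc‖) ≤ 9 * C * σ := by
    rw [← hq, ← hs]
    have h1 : κ * ‖X0‖ ≤ 1 * (τ / 4) := mul_le_mul hκ1 hXτ (norm_nonneg _) zero_le_one
    have h2 : C * (e⁻¹ ^ p * (2 * τ) ^ s * κ) ≤ σ := by
      calc C * (e⁻¹ ^ p * (2 * τ) ^ s * κ) = (C * e⁻¹ ^ p * (2 * τ) ^ s) * κ := by ring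
        _ ≤ σ * 1 := mul_le_mul hsmall hκ1 hκ0 hσ0.le
        _ = σ := mul_one _
    have h3 : C * (κ * ‖X0‖ + ‖u X0‖ + ‖q‖ + ‖cc‖) ≤ C * (29 / 4 * σ) := by
      refine mul_le_mul_of_nonneg_left ?_ (by linarith)
      linarith
    calc _ = C * (κ * ‖X0‖ + ‖u X0‖ + ‖q‖ + ‖cc‖) + C * (e⁻¹ ^ p * (2 * τ) ^ s * κ) := by ring
      _ ≤ C * (29 / 4 * σ) + σ := add_le_add h3 h2
      _ ≤ 9 * C * σ := by nlinarith
  have hσC : σ ≤ C * σ := by nlinarith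
  have hH : H' = H₁' := Rt_uniq' (hq ▸ g2.rt) hRt₁ (by
    have := norm_nonneg q
    nlinarith)
  refine ⟨11 * C * σ, u', X0, q, H, H', by positivity, by linarith, hq ▸ g2.rt, hX0, ?_, g2.der, ?_,
    ?_, ?_, ?_, ?_⟩
  · refine g1.mono ?_ le_rfl
    have h2 : C * e⁻¹ ^ p * (2 * τ) ^ ((1 / 2 : ℝ) ^ J) * κ ≤ σ := by
      rw [← hs]
      calc C * e⁻¹ ^ p * (2 * τ) ^ s * κ ≤ σ * 1 := mul_le_mul hsmall hκ1 hκ0 hσ0.le
        _ = σ := mul_one _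
    rw [← hq]
    have h3 : C * ‖u X0‖ + C * ‖q‖ + C * ‖cc‖ ≤ C * (7 * σ) := by
      have : C * ‖u X0‖ + C * ‖q‖ + C * ‖cc‖ = C * (‖u X0‖ + ‖q‖ + ‖cc‖) := by ring
      rw [this]
      refine mul_le_mul_of_nonneg_left ?_ (by linarith)
      linarith
    nlinarith
  · intro a ha y hy hay
    have h1 := g2.fwd a ha y hy (by rw [one_smul, one_smul, ← hq]; exact hay)
    rw [one_smul, inv_one, one_smul, ← hq] at h1
    rw [hH, ← hcc, h1, hH]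
  · intro X
    have h1 := g3 0 (by omega) X
    rw [norm_iteratedFDeriv_zero] at h1
    refine (h1.trans hB).trans ?_
    nlinarith
  · intro X
    have h1 := g3 1 (by omega) X
    rw [norm_iteratedFDeriv_one] at h1
    obtain ⟨Cb, hCb, hbd⟩ := Mx17_397.bdP m n N
    have hcu := (hbd _ _ _ hMG).1
    have hcu' := (hbd _ _ _ g1).1
    have h2 : fderiv ℝ (fun y => u' y - u y) X = fderiv ℝ u' X - fderiv ℝ u X :=
      fderiv_fun_sub (hcu'.differentiable (by norm_cast) X)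
        (hcu.differentiable (by norm_cast) X)
    rw [h2] at h1
    refine (h1.trans hB).trans ?_
    nlinarith
  · nlinarith
  · nlinarith

end Crest.Agent.R234.F11c_188
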