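import Crest.Agent.R234.GL1_394

/-!
# Row 234, VF-F11 (helper435), part 3: the pinching inequality (J)

For 394's frame at one centre: `RR - 2 α Ph + α² II` is a perfect square integral and dominates
`e^{-ml} ∫_S |Dh P w - α h|²`, where `h` is any height function, `Dh` its derivative and
`w` a horizontal vector close to `dx† x`.
-/

set_option autoImplicit false
set_option linter.unusedVariables false

open MeasureTheory Set Function Filter Topology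
open Crest.GeometryTopology.Submanifold
open Crest.Agent.R234.Vf_884 Crest.Agent.R234.Ar_870 Crest.Agent.R234.Cy_870
open Crest.Agent.R234.GL_394
open scoped ENNReal NNReal InnerProductSpace

noncomputable section

namespace Crest.Agent.R234.F11_435

variable {m n k : ℕ} {c : Ch m k} {K : Set (Euc k)} {D : Set (Euc m)}
  {V : Measure (Euc k × L k)} {g g1 g2 : ℝ → ℝ}

theorem cont_x (h : Ok c K D) : ContinuousOn c.x K := fun z hz => (h.hx z hz).continuousAt.continuousWithinAt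

theorem cont_f (h : Ok c K D) : ContinuousOn c.f K := fun z hz => (h.hf z hz).continuousAt.continuousWithinAt

theorem cont_nu (h : Ok c K D) : ContinuousOn c.nu K := fun z hz => (h.hnu z hz).continuousAt.continuousWithinAt

theorem cont_mu (h : Ok c K D) : ContinuousOn (fun z => c.mu (c.x z)) K :=
  h.cmu.comp (cont_x h) h.mem

theorem cont_xi (h : Ok c K D) : ContinuousOn (xi c) K := by
  have h1 : ContinuousOn (fun z => ContinuousLinearMap.adjoint (c.dx z)) K :=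
    (ContinuousLinearMap.adjoint (𝕜 := ℝ) (E := Euc k) (F := Euc m)).continuous.comp_continuousOn h.cdx
  exact h1.clm_apply (cont_x h)

/-- the square `μ⁻¹ |(1 - P) dx† x + α μ ν|²` -/
def sq (c : Ch m k) (α : ℝ) (p : Euc k × L k) : ℝ :=
  (c.mu (c.x p.1))⁻¹ * ‖(xi c p.1 - p.2 (xi c p.1)) + (α * c.mu (c.x p.1)) • c.nu p.1‖ ^ 2

theorem inner_xi_nu (h : Ok c K D) {z : Euc k} (hz : z ∈ K) : ⟪xi c z, c.nu z⟫_ℝ = 0 := by
  unfold xi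
  rw [ContinuousLinearMap.adjoint_inner_left, h.dxnu z hz, inner_zero_right]

theorem sq_eq (h : Ok c K D) (α : ℝ) {p : Euc k × L k} (hp : p ∈ K ×ˢ G m k) :
    sq c α p = rr c p - 2 * α * ph c p + α ^ 2 * (2 * (c.f p.1 * c.mu (c.x p.1))) := by
  have hμ : 0 < c.mu (c.x p.1) := h.mupos _ (h.mem _ hp.1)
  have hP := isPr_of_G hp.2
  have h1 : ⟪xi c p.1 - p.2 (xi c p.1), c.nu p.1⟫_ℝ = -ph c p := by
    rw [inner_sub_left, inner_xi_nu h hp.1, zero_sub]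
    congr 1
    unfold ph
    rw [← ContinuousLinearMap.adjoint_inner_left]
    change ⟪p.2 (xi c p.1), c.nu p.1⟫_ℝ = ⟪xi c p.1, p.2 (c.nu p.1)⟫_ℝ
    nth_rewrite 1 [← hP.2]
    rw [ContinuousLinearMap.adjoint_inner_left]
  unfold sq rr
  rw [@norm_add_sq_real, inner_smul_right, h1, norm_smul, mul_pow, h.nusq _ hp.1, Real.norm_eq_abs,
    sq_abs]
  field_simp
  ring

theorem sq_nonneg' (h : Ok c K D) (α : ℝ) {p : Euc k × L k} (hp : p ∈ K ×ˢ G m k) : 0 ≤ sq c α p := by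
  have hμ : 0 < c.mu (c.x p.1) := h.mupos _ (h.mem _ hp.1)
  unfold sq
  positivity

theorem fst_mapsTo : MapsTo (Prod.fst : Euc k × L k → Euc k) (K ×ˢ G m k) K := fun _ hp => hp.1

theorem cont_tt (h : Ok c K D) (l : ℝ) : ContinuousOn (fun p : Euc k × L k =>
    Real.exp (-2 * l) * ‖c.x p.1‖ ^ 2) (K ×ˢ G m k) :=
  continuousOn_const.mul (((cont_x h).comp continuousOn_fst fst_mapsTo).norm.pow 2)

theorem cont_rr (h : Ok c K D) : ContinuousOn (rr c) (K ×ˢ G m k) := by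
  have h1 : ContinuousOn (fun p : Euc k × L k => xi c p.1) (K ×ˢ G m k) :=
    (cont_xi h).comp continuousOn_fst fst_mapsTo
  have h2 : ContinuousOn (fun p : Euc k × L k => c.mu (c.x p.1)) (K ×ˢ G m k) :=
    (cont_mu h).comp continuousOn_fst fst_mapsTo
  have h3 : ContinuousOn (fun p : Euc k × L k => p.2 (xi c p.1)) (K ×ˢ G m k) :=
    continuousOn_snd.clm_apply h1
  unfold rr
  exact (h2.inv₀ fun p hp => (h.mupos _ (h.mem _ hp.1)).ne').mul ((h1.sub h3).norm.pow 2)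

theorem cont_ph (h : Ok c K D) : ContinuousOn (ph c) (K ×ˢ G m k) := by
  have h1 : ContinuousOn (fun p : Euc k × L k => c.nu p.1) (K ×ˢ G m k) :=
    (cont_nu h).comp continuousOn_fst fst_mapsTo
  have h2 : ContinuousOn (fun p : Euc k × L k => c.dx p.1) (K ×ˢ G m k) :=
    h.cdx.comp continuousOn_fst fst_mapsTo
  have h3 : ContinuousOn (fun p : Euc k × L k => c.x p.1) (K ×ˢ G m k) :=
    (cont_x h).comp continuousOn_fst fst_mapsTo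
  unfold ph
  exact h3.inner (𝕜 := ℝ) (h2.clm_apply (continuousOn_snd.clm_apply h1))

theorem cont_fmu (h : Ok c K D) : ContinuousOn (fun p : Euc k × L k => c.f p.1 * c.mu (c.x p.1))
    (K ×ˢ G m k) :=
  ((cont_f h).comp continuousOn_fst fst_mapsTo).mul ((cont_mu h).comp continuousOn_fst fst_mapsTo)

theorem cont_q (h : Ok c K D) {q : ℝ → ℝ} (hq : Continuous q) (l : ℝ) :
    ContinuousOn (fun p : Euc k × L k => q (Real.exp (-2 * l) * ‖c.x p.1‖ ^ 2)) (K ×ˢ G m k) :=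
  hq.comp_continuousOn (cont_tt h l)

/-- **`RR - 2 α Ph + α² II` is a perfect square integral.** -/
theorem square_eq (h : Ok c K D) (hV : On V m K) (hg : Prof g g1 g2) (α l : ℝ) :
    GL_394.RR c V g1 l - 2 * α * Ph c V g1 l + α ^ 2 * II c V g1 l =
      Real.exp (-m * l) * ∫ p, sq c α p * (-2 * g1 (Real.exp (-2 * l) * ‖c.x p.1‖ ^ 2)) ∂V := by
  have hc1 := hg.k1.continuous
  have i1 : Integrable (fun p : Euc k × L k => rr c p *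
      (-2 * g1 (Real.exp (-2 * l) * ‖c.x p.1‖ ^ 2))) V :=
    hV.integrable h.cpt ((cont_rr h).mul (continuousOn_const.mul (cont_q h hc1 l)))
  have i2 : Integrable (fun p : Euc k × L k => ph c p *
      (-2 * g1 (Real.exp (-2 * l) * ‖c.x p.1‖ ^ 2))) V :=
    hV.integrable h.cpt ((cont_ph h).mul (continuousOn_const.mul (cont_q h hc1 l)))
  have i3 : Integrable (fun p : Euc k × L k => (c.f p.1 * c.mu (c.x p.1)) *
      (-4 * g1 (Real.exp (-2 * l) * ‖c.x p.1‖ ^ 2))) V :=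
    hV.integrable h.cpt ((cont_fmu h).mul (continuousOn_const.mul (cont_q h hc1 l)))
  unfold GL_394.RR Ph II
  have i4 : Integrable (fun p : Euc k × L k => 2 * α * (ph c p *
      (-2 * g1 (Real.exp (-2 * l) * ‖c.x p.1‖ ^ 2)))) V := i2.const_mul _
  have i5 : Integrable (fun p : Euc k × L k => α ^ 2 * ((c.f p.1 * c.mu (c.x p.1)) *
      (-4 * g1 (Real.exp (-2 * l) * ‖c.x p.1‖ ^ 2)))) V := i3.const_mul _
  have i6 : Integrable (fun p : Euc k × L k => rr c p *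
      (-2 * g1 (Real.exp (-2 * l) * ‖c.x p.1‖ ^ 2)) - 2 * α * (ph c p *
      (-2 * g1 (Real.exp (-2 * l) * ‖c.x p.1‖ ^ 2)))) V := i1.sub i4
  have h1 : ∫ p, sq c α p * (-2 * g1 (Real.exp (-2 * l) * ‖c.x p.1‖ ^ 2)) ∂V =
      ∫ p, (rr c p * (-2 * g1 (Real.exp (-2 * l) * ‖c.x p.1‖ ^ 2)) - 2 * α * (ph c p *
        (-2 * g1 (Real.exp (-2 * l) * ‖c.x p.1‖ ^ 2))) + α ^ 2 * ((c.f p.1 * c.mu (c.x p.1)) *
        (-4 * g1 (Real.exp (-2 * l) * ‖c.x p.1‖ ^ 2)))) ∂V := by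
    refine integral_congr_ae ?_
    filter_upwards [hV.mem] with p hp
    rw [sq_eq h α hp]
    ring
  rw [h1, integral_add i6 i5, integral_sub i1 i4, integral_const_mul, integral_const_mul]
  ring

theorem square_nonneg (h : Ok c K D) (hV : On V m K) (hg : Prof g g1 g2) (α l : ℝ) :
    0 ≤ GL_394.RR c V g1 l - 2 * α * Ph c V g1 l + α ^ 2 * II c V g1 l := by
  rw [square_eq h hV hg]
  refine mul_nonneg (Real.exp_pos _).le (integral_nonneg_of_ae ?_)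
  filter_upwards [hV.mem] with p hp
  have h1 := hg.anti (Real.exp (-2 * l) * ‖c.x p.1‖ ^ 2) (by positivity)
  exact mul_nonneg (sq_nonneg' h α hp) (by linarith)

theorem cont_sq (h : Ok c K D) (α : ℝ) : ContinuousOn (sq c α) (K ×ˢ G m k) := by
  have h1 : ContinuousOn (fun p : Euc k × L k => rr c p - 2 * α * ph c p +
      α ^ 2 * (2 * (c.f p.1 * c.mu (c.x p.1)))) (K ×ˢ G m k) :=
    ((cont_rr h).sub (continuousOn_const.mul (cont_ph h))).add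
      (continuousOn_const.mul (continuousOn_const.mul (cont_fmu h)))
  exact h1.congr fun p hp => sq_eq h α hp

theorem five {F : Type*} [NormedAddCommGroup F] (a b c d e : F) : ‖a - b + c + d + e‖ ^ 2 ≤
    5 * (‖a‖ ^ 2 + ‖b‖ ^ 2 + ‖c‖ ^ 2 + ‖d‖ ^ 2 + ‖e‖ ^ 2) := by
  have e1 : ‖a - b + c + d + e‖ ≤ ‖a‖ + ‖b‖ + ‖c‖ + ‖d‖ + ‖e‖ := by
    have h1 := norm_add_le (a - b + c + d) e
    have h2 := norm_add_le (a - b + c) d
    have h3 := norm_add_le (a - b) c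
    have h4 := norm_sub_le a b
    linarith
  have e2 : ‖a - b + c + d + e‖ ^ 2 ≤ (‖a‖ + ‖b‖ + ‖c‖ + ‖d‖ + ‖e‖) ^ 2 :=
    pow_le_pow_left₀ (norm_nonneg _) e1 2
  refine e2.trans ?_
  generalize ‖a‖ = x1
  generalize ‖b‖ = x2
  generalize ‖c‖ = x3
  generalize ‖d‖ = x4
  generalize ‖e‖ = x5
  linarith [sq_nonneg (x1 - x2), sq_nonneg (x1 - x3), sq_nonneg (x1 - x4), sq_nonneg (x1 - x5),
    sq_nonneg (x2 - x3), sq_nonneg (x2 - x4), sq_nonneg (x2 - x5), sq_nonneg (x3 - x4),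
    sq_nonneg (x3 - x5), sq_nonneg (x4 - x5)]

/-- pointwise form of (J) -/
theorem ptw (h : Ok c K D) {p : Euc k × L k} (hp : p ∈ K ×ˢ G m k) {s ε C₁ α : ℝ} (hs : 0 < s)
    (hε0 : 0 ≤ ε) (hε1 : ε ≤ 1) (hC1 : 0 ≤ C₁) {w : Euc k} {y : Euc n} {Dh : Euc k →L[ℝ] Euc n}
    (j1 : ‖xi c p.1 - w‖ ≤ ε * s)
    (j2 : ∀ v, ‖Dh (p.2 v)‖ ^ 2 ≤ C₁ * (c.tau p.1 p.2 + ε ^ 2 * (‖c.nu p.1‖ ^ 2 / s ^ 2)) * ‖v‖ ^ 2)
    (j3 : ‖Dh (xi c p.1)‖ ≤ ε * ‖c.nu p.1‖) (j4 : ‖y - Dh (c.nu p.1)‖ ≤ ε * ‖c.nu p.1‖)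
    (j5 : ‖Dh‖ ≤ 2) (j6 : |c.mu (c.x p.1) - 1| ≤ ε) (j7 : 1 / 2 ≤ c.mu (c.x p.1))
    (j8 : c.mu (c.x p.1) ≤ 3 / 2) (j9 : 0 ≤ c.tau p.1 p.2) :
    ‖Dh (p.2 w) - α • y‖ ^ 2 ≤ 30 * sq c α p + 5 * C₁ * ε ^ 2 * s ^ 2 * c.tau p.1 p.2 +
      20 * ε ^ 2 * (C₁ + 1 + 5 * α ^ 2) * (c.f p.1 * c.mu (c.x p.1)) := by
  set μ := c.mu (c.x p.1) with hμ
  set ν := c.nu p.1 with hν
  set ξ := xi c p.1 with hξ
  set τ := c.tau p.1 p.2 with hτ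
  have hμ0 : 0 < μ := by linarith
  have hnusq := h.nusq _ hp.1
  rw [← hν] at hnusq
  -- the five terms
  set a1 := Dh (p.2 (w - ξ)) with ha1
  set a2 := Dh ((ξ - p.2 ξ) + (α * μ) • ν) with ha2
  set a3 := Dh ξ with ha3
  set a4 := (α * (μ - 1)) • Dh ν with ha4
  set a5 := α • (Dh ν - y) with ha5
  have hsum : Dh (p.2 w) - α • y = a1 - a2 + a3 + a4 + a5 := by
    rw [ha1, ha2, ha3, ha4, ha5]
    simp only [map_sub, map_add, map_smul, smul_sub, mul_sub, sub_smul, mul_one]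
    abel
  have b1 : ‖a1‖ ^ 2 ≤ C₁ * ε ^ 2 * s ^ 2 * τ + C₁ * ε ^ 2 * ‖ν‖ ^ 2 := by
    have e1 : ‖w - ξ‖ ^ 2 ≤ ε ^ 2 * s ^ 2 := by
      rw [norm_sub_rev, ← mul_pow]
      gcongr
    calc ‖a1‖ ^ 2 ≤ C₁ * (τ + ε ^ 2 * (‖ν‖ ^ 2 / s ^ 2)) * ‖w - ξ‖ ^ 2 := j2 _
      _ ≤ C₁ * (τ + ε ^ 2 * (‖ν‖ ^ 2 / s ^ 2)) * (ε ^ 2 * s ^ 2) := by gcongr
      _ = C₁ * ε ^ 2 * s ^ 2 * τ + C₁ * ε ^ 2 * (ε ^ 2 * ‖ν‖ ^ 2) := by field_simp
      _ ≤ C₁ * ε ^ 2 * s ^ 2 * τ + C₁ * ε ^ 2 * (1 * ‖ν‖ ^ 2) := by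
          have : ε ^ 2 ≤ 1 := pow_le_one₀ hε0 hε1
          gcongr
      _ = _ := by ring
  have b2 : ‖a2‖ ^ 2 ≤ 6 * sq c α p := by
    have e1 : ‖a2‖ ≤ 2 * ‖(ξ - p.2 ξ) + (α * μ) • ν‖ :=
      (Dh.le_opNorm _).trans (by gcongr)
    have e2 : ‖a2‖ ^ 2 ≤ 4 * ‖(ξ - p.2 ξ) + (α * μ) • ν‖ ^ 2 := by
      calc ‖a2‖ ^ 2 ≤ (2 * ‖(ξ - p.2 ξ) + (α * μ) • ν‖) ^ 2 := by gcongr
        _ = _ := by ring
    have e3 : ‖(ξ - p.2 ξ) + (α * μ) • ν‖ ^ 2 = μ * sq c α p := by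
      unfold sq
      rw [← hμ, ← hξ, ← hν]
      field_simp
    have e4 : 0 ≤ sq c α p := sq_nonneg' h α hp
    rw [e3] at e2
    nlinarith
  have b3 : ‖a3‖ ^ 2 ≤ ε ^ 2 * ‖ν‖ ^ 2 := by
    rw [← mul_pow]; gcongr
  have b4 : ‖a4‖ ^ 2 ≤ 4 * α ^ 2 * ε ^ 2 * ‖ν‖ ^ 2 := by
    have e1 : ‖Dh ν‖ ≤ 2 * ‖ν‖ := (Dh.le_opNorm _).trans (by gcongr)
    have e2 : ‖a4‖ ≤ |α| * ε * (2 * ‖ν‖) := by
      rw [ha4, norm_smul, Real.norm_eq_abs, abs_mul]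
      gcongr
    calc ‖a4‖ ^ 2 ≤ (|α| * ε * (2 * ‖ν‖)) ^ 2 := by gcongr
      _ = 4 * |α| ^ 2 * ε ^ 2 * ‖ν‖ ^ 2 := by ring
      _ = _ := by rw [sq_abs]
  have b5 : ‖a5‖ ^ 2 ≤ α ^ 2 * ε ^ 2 * ‖ν‖ ^ 2 := by
    have e2 : ‖a5‖ ≤ |α| * (ε * ‖ν‖) := by
      rw [ha5, norm_smul, Real.norm_eq_abs, norm_sub_rev]
      gcongr
    calc ‖a5‖ ^ 2 ≤ (|α| * (ε * ‖ν‖)) ^ 2 := by gcongr
      _ = |α| ^ 2 * ε ^ 2 * ‖ν‖ ^ 2 := by ring
      _ = _ := by rw [sq_abs]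
  have htot : ‖Dh (p.2 w) - α • y‖ ^ 2 ≤
      5 * (‖a1‖ ^ 2 + ‖a2‖ ^ 2 + ‖a3‖ ^ 2 + ‖a4‖ ^ 2 + ‖a5‖ ^ 2) := by
    rw [hsum]
    exact five _ _ _ _ _
  have hf0 : 0 ≤ c.f p.1 := by nlinarith [sq_nonneg ‖ν‖]
  have hν2 : ‖ν‖ ^ 2 ≤ 4 * (c.f p.1 * μ) := by
    rw [hnusq]; nlinarith
  have hα : 0 ≤ α ^ 2 := sq_nonneg α
  have hε2 : 0 ≤ ε ^ 2 := sq_nonneg ε
  calc ‖Dh (p.2 w) - α • y‖ ^ 2
      ≤ 5 * ((C₁ * ε ^ 2 * s ^ 2 * τ + C₁ * ε ^ 2 * ‖ν‖ ^ 2) + 6 * sq c α p + ε ^ 2 * ‖ν‖ ^ 2 +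
        4 * α ^ 2 * ε ^ 2 * ‖ν‖ ^ 2 + α ^ 2 * ε ^ 2 * ‖ν‖ ^ 2) := by linarith
    _ = 30 * sq c α p + 5 * C₁ * ε ^ 2 * s ^ 2 * τ +
        5 * (ε ^ 2 * (C₁ + 1 + 5 * α ^ 2)) * ‖ν‖ ^ 2 := by ring
    _ ≤ 30 * sq c α p + 5 * C₁ * ε ^ 2 * s ^ 2 * τ +
        5 * (ε ^ 2 * (C₁ + 1 + 5 * α ^ 2)) * (4 * (c.f p.1 * μ)) := by gcongr
    _ = _ := by ring

/-- the profile is nonnegative -/
theorem prof_nonneg (hg : Prof g g1 g2) {t : ℝ} (ht : 0 ≤ t) : 0 ≤ g t := by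
  by_contra hcon
  push Not at hcon
  have ht1 : t < 1 := by
    by_contra h1
    rw [hg.k0.zero t (not_lt.1 h1)] at hcon
    exact lt_irrefl _ hcon
  obtain ⟨u, hu, hu'⟩ := exists_hasDerivAt_eq_slope g g1 ht1
    (hg.k0.continuous.continuousOn) fun x _ => hg.k0.der x
  have h2 := hg.anti u (ht.trans hu.1.le)
  rw [hu', hg.k0.zero 1 le_rfl, zero_sub] at h2
  have h3 : 0 < -g t / (1 - t) := div_pos (by linarith) (by linarith)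
  linarith

/-- **(J), integrated.** On a set `S` where the profile is not small. -/
theorem jint (h : Ok c K D) (hV : On V m K) (hg : Prof g g1 g2) {l ε C₁ α cg : ℝ}
    (hε0 : 0 ≤ ε) (hε1 : ε ≤ 1) (hC1 : 0 ≤ C₁) (hcg : 0 < cg)
    (htau : ∀ p ∈ K ×ˢ G m k, 0 ≤ c.tau p.1 p.2)
    {S : Set (Euc k × L k)} (hS : MeasurableSet S)
    {w : Euc k × L k → Euc k} {y : Euc k × L k → Euc n} {Dh : Euc k × L k → Euc k →L[ℝ] Euc n}
    (hSg : ∀ p ∈ S, p ∈ K ×ˢ G m k → cg ≤ g (Real.exp (-2 * l) * ‖c.x p.1‖ ^ 2) ∧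
      cg ≤ -2 * g1 (Real.exp (-2 * l) * ‖c.x p.1‖ ^ 2))
    (j1 : ∀ p ∈ S, p ∈ K ×ˢ G m k → ‖xi c p.1 - w p‖ ≤ ε * Real.exp l)
    (j2 : ∀ p ∈ S, p ∈ K ×ˢ G m k → ∀ v, ‖Dh p (p.2 v)‖ ^ 2 ≤
      C₁ * (c.tau p.1 p.2 + ε ^ 2 * (‖c.nu p.1‖ ^ 2 / Real.exp l ^ 2)) * ‖v‖ ^ 2)
    (j3 : ∀ p ∈ S, p ∈ K ×ˢ G m k → ‖Dh p (xi c p.1)‖ ≤ ε * ‖c.nu p.1‖)
    (j4 : ∀ p ∈ S, p ∈ K ×ˢ G m k → ‖y p - Dh p (c.nu p.1)‖ ≤ ε * ‖c.nu p.1‖)
    (j5 : ∀ p ∈ S, p ∈ K ×ˢ G m k → ‖Dh p‖ ≤ 2)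
    (j6 : ∀ p ∈ S, p ∈ K ×ˢ G m k → |c.mu (c.x p.1) - 1| ≤ ε)
    (j7 : ∀ p ∈ S, p ∈ K ×ˢ G m k → 1 / 2 ≤ c.mu (c.x p.1))
    (j8 : ∀ p ∈ S, p ∈ K ×ˢ G m k → c.mu (c.x p.1) ≤ 3 / 2) :
    Real.exp (-m * l) * ∫ p in S, ‖Dh p (p.2 (w p)) - α • y p‖ ^ 2 ∂V ≤
      cg⁻¹ * (30 * (GL_394.RR c V g1 l - 2 * α * Ph c V g1 l + α ^ 2 * II c V g1 l) +
        5 * C₁ * ε ^ 2 * ee c V g l + 10 * ε ^ 2 * (C₁ + 1 + 5 * α ^ 2) * II c V g1 l) := by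
  have hc1 := hg.k1.continuous
  have hc0 := hg.k0.continuous
  have i1 : Integrable (fun p : Euc k × L k => sq c α p *
      (-2 * g1 (Real.exp (-2 * l) * ‖c.x p.1‖ ^ 2))) V :=
    hV.integrable h.cpt ((cont_sq h α).mul (continuousOn_const.mul (cont_q h hc1 l)))
  have i2 : Integrable (fun p : Euc k × L k => c.tau p.1 p.2 *
      g (Real.exp (-2 * l) * ‖c.x p.1‖ ^ 2)) V :=
    hV.integrable h.cpt (h.ctau.mul (cont_q h hc0 l))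
  have i3 : Integrable (fun p : Euc k × L k => (c.f p.1 * c.mu (c.x p.1)) *
      (-4 * g1 (Real.exp (-2 * l) * ‖c.x p.1‖ ^ 2))) V :=
    hV.integrable h.cpt ((cont_fmu h).mul (continuousOn_const.mul (cont_q h hc1 l)))
  set A1 : Euc k × L k → ℝ := fun p => sq c α p *
      (-2 * g1 (Real.exp (-2 * l) * ‖c.x p.1‖ ^ 2)) with hA1
  set A2 : Euc k × L k → ℝ := fun p => c.tau p.1 p.2 *
      g (Real.exp (-2 * l) * ‖c.x p.1‖ ^ 2) with hA2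
  set A3 : Euc k × L k → ℝ := fun p => (c.f p.1 * c.mu (c.x p.1)) *
      (-4 * g1 (Real.exp (-2 * l) * ‖c.x p.1‖ ^ 2)) with hA3
  set k1 := 30 * cg⁻¹ with hk1
  set k2 := 5 * C₁ * ε ^ 2 * Real.exp l ^ 2 * cg⁻¹ with hk2
  set k3 := 10 * ε ^ 2 * (C₁ + 1 + 5 * α ^ 2) * cg⁻¹ with hk3
  have iB : Integrable (fun p => k1 * A1 p + k2 * A2 p + k3 * A3 p) V :=
    ((i1.const_mul k1).add (i2.const_mul k2)).add (i3.const_mul k3)
  have hcgi : 0 < cg⁻¹ := inv_pos.2 hcg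
  have hf0 : ∀ p ∈ K ×ˢ G m k, 0 ≤ c.f p.1 * c.mu (c.x p.1) := by
    intro p hp
    have h1 := h.nusq _ hp.1
    have h2 := h.mupos _ (h.mem _ hp.1)
    have h3 : 0 ≤ c.f p.1 := by nlinarith [sq_nonneg ‖c.nu p.1‖]
    positivity
  have hB0 : ∀ᵐ p ∂V, 0 ≤ k1 * A1 p + k2 * A2 p + k3 * A3 p := by
    filter_upwards [hV.mem] with p hp
    have ht : 0 ≤ Real.exp (-2 * l) * ‖c.x p.1‖ ^ 2 := by positivity
    have h1 := hg.anti _ ht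
    have h2 := prof_nonneg hg ht
    have h3 := htau p hp
    have h4 := hf0 p hp
    have h5 := sq_nonneg' h α hp
    have e1 : 0 ≤ A1 p := mul_nonneg h5 (by linarith)
    have e2 : 0 ≤ A2 p := mul_nonneg h3 h2
    have e3 : 0 ≤ A3 p := mul_nonneg h4 (by linarith)
    positivity
  have hmono : ∫ p in S, ‖Dh p (p.2 (w p)) - α • y p‖ ^ 2 ∂V ≤
      ∫ p in S, (k1 * A1 p + k2 * A2 p + k3 * A3 p) ∂V := by
    refine integral_mono_of_nonneg (Filter.Eventually.of_forall fun p => by positivity)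
      iB.integrableOn ?_
    filter_upwards [ae_restrict_of_ae hV.mem, ae_restrict_mem hS] with p hp hpS
    have hpt := ptw (α := α) h hp (Real.exp_pos l) hε0 hε1 hC1 (j1 p hpS hp) (j2 p hpS hp)
      (j3 p hpS hp) (j4 p hpS hp) (j5 p hpS hp) (j6 p hpS hp) (j7 p hpS hp) (j8 p hpS hp)
      (htau p hp)
    refine hpt.trans ?_
    obtain ⟨hg0, hg1⟩ := hSg p hpS hp
    have h3 := htau p hp
    have h4 := hf0 p hp
    have h5 := sq_nonneg' h α hp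
    have e1 : sq c α p ≤ cg⁻¹ * A1 p := by
      rw [← div_eq_inv_mul, le_div_iff₀ hcg]
      exact mul_le_mul_of_nonneg_left hg1 h5
    have e2 : c.tau p.1 p.2 ≤ cg⁻¹ * A2 p := by
      rw [← div_eq_inv_mul, le_div_iff₀ hcg]
      exact mul_le_mul_of_nonneg_left hg0 h3
    have e3 : 2 * (c.f p.1 * c.mu (c.x p.1)) ≤ cg⁻¹ * A3 p := by
      rw [← div_eq_inv_mul, le_div_iff₀ hcg]
      have := mul_le_mul_of_nonneg_left hg1 h4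
      simp only [hA3]
      linarith
    have c2 : 0 ≤ 5 * C₁ * ε ^ 2 * Real.exp l ^ 2 := by positivity
    have c3 : 0 ≤ 10 * ε ^ 2 * (C₁ + 1 + 5 * α ^ 2) := by positivity
    calc 30 * sq c α p + 5 * C₁ * ε ^ 2 * Real.exp l ^ 2 * c.tau p.1 p.2 +
          20 * ε ^ 2 * (C₁ + 1 + 5 * α ^ 2) * (c.f p.1 * c.mu (c.x p.1))
        = 30 * sq c α p + (5 * C₁ * ε ^ 2 * Real.exp l ^ 2) * c.tau p.1 p.2 +
          (10 * ε ^ 2 * (C₁ + 1 + 5 * α ^ 2)) * (2 * (c.f p.1 * c.mu (c.x p.1))) := by ring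
      _ ≤ 30 * (cg⁻¹ * A1 p) + (5 * C₁ * ε ^ 2 * Real.exp l ^ 2) * (cg⁻¹ * A2 p) +
          (10 * ε ^ 2 * (C₁ + 1 + 5 * α ^ 2)) * (cg⁻¹ * A3 p) := by gcongr
      _ = _ := by rw [hk1, hk2, hk3]; ring
  have hset : ∫ p in S, (k1 * A1 p + k2 * A2 p + k3 * A3 p) ∂V ≤
      ∫ p, (k1 * A1 p + k2 * A2 p + k3 * A3 p) ∂V := setIntegral_le_integral iB hB0
  have hsum : ∫ p, (k1 * A1 p + k2 * A2 p + k3 * A3 p) ∂V =
      k1 * ∫ p, A1 p ∂V + k2 * ∫ p, A2 p ∂V + k3 * ∫ p, A3 p ∂V := by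
    have i12 : Integrable (fun p => k1 * A1 p + k2 * A2 p) V :=
      (i1.const_mul k1).add (i2.const_mul k2)
    rw [integral_add i12 (i3.const_mul k3), integral_add (i1.const_mul k1) (i2.const_mul k2),
      integral_const_mul, integral_const_mul, integral_const_mul]
  have hexp : Real.exp (-m * l) * Real.exp l ^ 2 = Real.exp ((2 - m) * l) := by
    rw [← Real.exp_nat_mul, ← Real.exp_add]
    congr 1
    push_cast
    ring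
  calc Real.exp (-m * l) * ∫ p in S, ‖Dh p (p.2 (w p)) - α • y p‖ ^ 2 ∂V
      ≤ Real.exp (-m * l) * (k1 * ∫ p, A1 p ∂V + k2 * ∫ p, A2 p ∂V + k3 * ∫ p, A3 p ∂V) := by
        gcongr
        rw [← hsum]
        exact hmono.trans hset
    _ = cg⁻¹ * (30 * (Real.exp (-m * l) * ∫ p, A1 p ∂V) +
        5 * C₁ * ε ^ 2 * (Real.exp (-m * l) * Real.exp l ^ 2 * ∫ p, A2 p ∂V) +
        10 * ε ^ 2 * (C₁ + 1 + 5 * α ^ 2) * (Real.exp (-m * l) * ∫ p, A3 p ∂V)) := by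
        rw [hk1, hk2, hk3]; ring
    _ = _ := by
        rw [hexp, square_eq h hV hg]
        rfl

end Crest.Agent.R234.F11_435
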