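import Crest.Agent.R234.F11c_188

/-!
# Row 234, (F8) START, F11d (helper188): the pre-state case

`mkPre` : if `Λ` of the selected reference has grown by `6/5`, its rotation to the tangent plane at
the foot of the base point is a pre-state with `Λ = 23/20 L`.
-/

set_option autoImplicit false
set_option linter.unusedVariables false

open MeasureTheory Filter Topology Set
open scoped ENNReal NNReal ContDiff
open Crest.GeometryTopology.Submanifold Crest.Agent.R234.Vf_884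
open Crest.Agent.R234.Main_456 (Frame Msys hgt NearQ)
open Crest.Agent.R234.AS_456 (hp vp)
open Crest.Agent.R234.MG_570 (MG SelP3)
open Crest.Agent.R234.F10a_188 Crest.Agent.R234.F10b_188
open Crest.Agent.R234.Top_395 Crest.Agent.R234.Stp_518
open Crest.Agent.R234.F10t_188 Crest.Agent.R234.F10w_188 Crest.Agent.R234.F10y_188
open Crest.Agent.R234.F10z_188 Crest.Agent.R234.F11a_188 Crest.Agent.R234.F11b_188
open Crest.Agent.R234.F11c_188
open Crest.Agent.R234.Grot_842 (Rt rπ rρ)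

noncomputable section

namespace Crest.Agent.R234.F11d_188

variable {m n k : ℕ}

/-- the rotated reference. -/
def rotM (M' : Mo m n k) (u' : Euc m → Euc n) (q : Euc m →L[ℝ] Euc n) (H : Euc m →L[ℝ] Euc m)
    (H' : Euc n →L[ℝ] Euc n) (B Lb : ℝ) : Mo m n k :=
  { π := rπ M'.π M'.ρ q H, ρ := rρ M'.π M'.ρ q H', lb := M'.lb, u := u', κ := M'.κ + B, K := M'.K,
    Lb := Lb, Kb := M'.Kb, Pb := M'.Pb }

/-- the relation in the form of `RotI`. -/
theorem rel_of {N : ℕ} {u u' : Euc m → Euc n} {X0 : Euc m} {q : Euc m →L[ℝ] Euc n}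
    {H : Euc m →L[ℝ] Euc m} {H' : Euc n →L[ℝ] Euc n} {κ' R e B r : ℝ}
    (h : RotO N u u' X0 q H H' κ' R e B) (hu : ∀ X, ‖u X‖ ≤ 1) (hr : r + B < R)
    (hr' : r + B < (1 - e) * R) : ∀ a ∈ Metric.ball (0 : Euc m) r,
      u' (H (a + ContinuousLinearMap.adjoint q (u a))) = H' (u a - q a) := by
  intro a ha
  rw [mem_ball_zero_iff] at ha
  have hq := h.q_le
  have hX := h.X_le
  have e1 : X0 + (a - X0) = a := by abel
  have e2 : a - X0 + ContinuousLinearMap.adjoint q (u (X0 + (a - X0)) - u X0) =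
      a + ContinuousLinearMap.adjoint q (u a) := by
    rw [e1, map_sub]
    have := h.foot
    have e3 : a - X0 + (ContinuousLinearMap.adjoint q (u a) - ContinuousLinearMap.adjoint q (u X0)) =
        a + ContinuousLinearMap.adjoint q (u a) - (X0 + ContinuousLinearMap.adjoint q (u X0)) := by
      abel
    rw [e3, this, sub_zero]
  have h1 := h.fwd (a - X0) (by
    rw [mem_ball_zero_iff]
    refine (norm_sub_le _ _).trans_lt ?_
    linarith) (H (a + ContinuousLinearMap.adjoint q (u a))) (by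
    rw [mem_ball_zero_iff]
    refine (h.rt.le _).trans_lt ((norm_add_le _ _).trans_lt ?_)
    have h2 : ‖ContinuousLinearMap.adjoint q (u a)‖ ≤ B * 1 := by
      refine (ContinuousLinearMap.le_opNorm _ _).trans ?_
      rw [LinearIsometryEquiv.norm_map]
      exact mul_le_mul hq (hu a) (norm_nonneg _) ((norm_nonneg _).trans hq)
    linarith) (by rw [e2])
  rw [e1, sub_eq_iff_eq_add] at h1
  rw [h1, ← map_add]
  congr 1
  rw [map_sub]
  abel

theorem I_num {I' I'' : ℝ → ℝ} {l e L CR : ℝ} (he : 0 < e) (he1 : e ≤ 1 / 80) (hCR : 0 < CR)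
    (hIpos : 0 < I' (l - 11 * e)) (hlam : 6 / 5 * L ≤ lam I' (l - 11 * e))
    (q2 : 3 * CR / e ^ 2 ≤ Real.exp (1 / 20 * L))
    (hI : I'' (l - 11 * e - e) ≤ CR / e ^ 2 * I' (l - 11 * e)) :
    I'' (l - 12 * e) ≤ Real.exp (2 * (l - 12 * e) - 23 / 20 * L) := by
  have he2 : 0 < e ^ 2 := by positivity
  have e12 : l - 11 * e - e = l - 12 * e := by ring
  rw [e12, I_eq_exp hIpos] at hI
  refine hI.trans ?_
  have h1 : Real.exp (2 * (l - 11 * e) - lam I' (l - 11 * e)) ≤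
      Real.exp (2 * (l - 12 * e) - 23 / 20 * L) * (Real.exp (2 * e) * Real.exp (-(1 / 20 * L))) := by
    rw [← Real.exp_add, ← Real.exp_add]
    exact Real.exp_le_exp.2 (by linarith)
  have h2 : Real.exp (2 * e) ≤ 3 := by
    have h3 : Real.exp (2 * e) ≤ Real.exp 1 := Real.exp_le_exp.2 (by linarith)
    have h4 := Real.exp_one_lt_d9
    linarith
  have h3 : 3 * CR * Real.exp (-(1 / 20 * L)) ≤ e ^ 2 := exp_small he2 q2
  have h4 : CR / e ^ 2 * (Real.exp (2 * e) * Real.exp (-(1 / 20 * L))) ≤ 1 := by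
    rw [div_mul_eq_mul_div, div_le_one he2]
    refine le_trans ?_ h3
    have h5 := Real.exp_pos (-(1 / 20 * L))
    calc CR * (Real.exp (2 * e) * Real.exp (-(1 / 20 * L))) ≤
        CR * (3 * Real.exp (-(1 / 20 * L))) := by gcongr
      _ = 3 * CR * Real.exp (-(1 / 20 * L)) := by ring
  calc CR / e ^ 2 * Real.exp (2 * (l - 11 * e) - lam I' (l - 11 * e)) ≤
      CR / e ^ 2 * (Real.exp (2 * (l - 12 * e) - 23 / 20 * L) *
        (Real.exp (2 * e) * Real.exp (-(1 / 20 * L)))) := by gcongr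
    _ = Real.exp (2 * (l - 12 * e) - 23 / 20 * L) *
        (CR / e ^ 2 * (Real.exp (2 * e) * Real.exp (-(1 / 20 * L)))) := by ring
    _ ≤ Real.exp (2 * (l - 12 * e) - 23 / 20 * L) * 1 :=
        mul_le_mul_of_nonneg_left h4 (Real.exp_pos _).le
    _ = _ := mul_one _

theorem S_le8 {lb l e : ℝ} (h : lb ≤ l - 11 * e + 2) :
    Real.exp lb ≤ 8 * Real.exp (l - 11 * e) := by
  have h1 : Real.exp lb ≤ Real.exp 2 * Real.exp (l - 11 * e) := by
    rw [← Real.exp_add]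
    exact Real.exp_le_exp.2 (by linarith)
  have h2 : Real.exp 2 ≤ 8 := by
    have h4 := Real.exp_one_lt_d9
    have h5 : Real.exp 2 = Real.exp 1 * Real.exp 1 := by rw [← Real.exp_add]; norm_num
    rw [h5]
    have h6 := Real.exp_pos (1:ℝ)
    nlinarith
  exact h1.trans (mul_le_mul_of_nonneg_right h2 (Real.exp_pos _).le)

/-- small numbers. -/
theorem small_num {A κm e b : ℝ} (hκm : 0 < κm) (hA : A = 10000 * (1 + 1 / κm)) (he : 0 < e)
    (he1 : e ≤ 1 / 80) (hb : 0 ≤ b) (h : A * b ≤ e ^ 2) :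
    10000 * b ≤ e ^ 2 ∧ 10000 * b ≤ κm ∧ 10000 * b ≤ e := by
  have hi : 0 < 1 / κm := by positivity
  have hAκ : A * κm = 10000 * κm + 10000 := by rw [hA]; field_simp
  have h1 : 10000 * b ≤ A * b := mul_le_mul_of_nonneg_right (by rw [hA]; linarith) hb
  have h2 : e ^ 2 ≤ e * (1 / 80) := by nlinarith
  have h3 : A * κm * b = A * b * κm := by ring
  have h4 : A * b * κm ≤ e ^ 2 * κm := mul_le_mul_of_nonneg_right h hκm.le
  have h5 : e ^ 2 * κm ≤ 1 * κm := mul_le_mul_of_nonneg_right (by nlinarith) hκm.le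
  refine ⟨h1.trans h, ?_, by linarith⟩
  have h6 : 0 ≤ κm * b := by positivity
  rw [hAκ] at h3
  nlinarith

theorem two_tau {L : ℝ} (hL : 100 ≤ L) :
    2 * Real.exp (-(399 / 800 * L)) ≤ Real.exp (-(23 / 20 * L / 4)) := by
  have h3 : (2:ℝ) ≤ Real.exp 1 := by have := Real.add_one_le_exp (1:ℝ); linarith
  calc 2 * Real.exp (-(399 / 800 * L)) ≤ Real.exp 1 * Real.exp (-(399 / 800 * L)) :=
        mul_le_mul_of_nonneg_right h3 (Real.exp_pos _).le
    _ = Real.exp (1 + -(399 / 800 * L)) := by rw [Real.exp_add]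
    _ ≤ _ := Real.exp_le_exp.2 (by linarith)

theorem supLe_of {M M'' : Mo m n k} {x : Euc k} {V : Measure (Euc k × L k)} {R R' η τ : ℝ}
    (hS : M''.S = M.S) (hR : M''.S * R = R' * M.S) (h2 : 2 * τ ≤ η)
    (h : ∀ᵐ p ∂V, p.1 ∈ F10u_188.Cyl M''.π M''.ρ x (R' * M.S) M.S →
      ‖hgt M''.π M''.ρ x M.S M''.u p.1‖ ≤ 2 * τ * M.S) : SupLe M'' x V R η := by
  unfold SupLe
  rw [hR, hS]
  filter_upwards [h] with p hp g1 g2
  refine (hp ⟨g1, g2⟩).trans ?_
  rw [mul_comm]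
  exact mul_le_mul_of_nonneg_left h2 M.S_pos.le

set_option maxHeartbeats 2000000 in
theorem mkPre (hRot : RotI) (m n N Q k : ℕ) (Λ : ℝ) (hm : 1 ≤ m) (hN : 2 ≤ N) : ∃ κ₁ ε₁ : ℝ,
    0 < κ₁ ∧ 0 < ε₁ ∧ ∀ (c : Cn) (κm : ℝ), c.N = N → 0 < κm → κm ≤ κ₁ → 2 * κm ≤ c.κ₀ →
    ∃ L₂ : ℝ, 100 ≤ L₂ ∧ ∀ (Ks : ℕ) (U : Set (Euc k)) (D : VarifoldData m k) (x : Euc k) (ε₀ : ℝ)
      (M M' : Mo m n k) (l L : ℝ), Bk N U D Q x ε₀ Λ M l → M.κ ≤ κm → ε₀ ≤ ε₁ → L₂ ≤ L →
      M.lb - 5 / 4 ≤ l → ‖fderiv ℝ M.u 0‖ ≤ 0 → Sel1 N Ks D x M M' l L →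
      (∀ (π' : Euc k →L[ℝ] Euc m) (ρ' : Euc k →L[ℝ] Euc n), Frame π' ρ' →
        ‖hp π' - hp M.π‖ ≤ 1 / L → FlatPack D x Q M.S ε₀ Λ π' ρ') →
      0 < M'.I x (VD D) (l - 11 * eps L) →
      6 / 5 * L ≤ lam (M'.I x (VD D)) (l - 11 * eps L) →
      ∃ M'' : Mo m n k, M''.lb = M.lb ∧ M''.Lb = 23 / 20 * L ∧
        Ps c (VD D) x M'' (l - 12 * eps L) ∧ M''.κ + ‖hp M''.π - hp M.π‖ ≤ M.κ + 1 / L := by
  obtain ⟨κR, εR, CR, hκR, hεR, hCR, HR⟩ := hRot m n k N Q Λ hm hN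
  obtain ⟨κo, hκo, hκo1, HO⟩ := rotO m n N hm hN
  obtain ⟨κg, Cg, hκg, hCg, hCκg, Hgr⟩ := gr_of m n N hN
  refine ⟨min (min κR κo) κg / 2, min 1 εR, by positivity, by positivity, ?_⟩
  intro c κm hcN hκm hκ₁ hcκ
  have k1 : 2 * κm ≤ κR := by
    have := (min_le_left (min κR κo) κg).trans (min_le_left _ _)
    linarith
  have k2 : 2 * κm ≤ κo := by
    have := (min_le_left (min κR κo) κg).trans (min_le_right _ _)
    linarith
  have k3 : 2 * κm ≤ κg := by
    have := min_le_right (min κR κo) κg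
    linarith
  obtain ⟨A, hA⟩ : ∃ A : ℝ, A = 10000 * (1 + 1 / κm) := ⟨_, rfl⟩
  have hA1 : 10000 ≤ A := by
    rw [hA]
    have : 0 < 1 / κm := by positivity
    linarith
  obtain ⟨Lo, hLo, HO⟩ := HO A (by linarith)
  obtain ⟨L1, hL1, p1⟩ := poly A 2 (show (0:ℝ) < 399 / 800 by norm_num)
  obtain ⟨L2, hL2, p2⟩ := poly (3 * CR) 2 (show (0:ℝ) < 1 / 20 by norm_num)
  refine ⟨max Lo (max L1 L2), hLo.trans (le_max_left _ _), ?_⟩
  intro Ks U D x ε₀ M M' l L hB hκ hε hL hl hdu hsel hFP hIpos hlam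
  simp only [max_le_iff] at hL
  obtain ⟨lo, l1, l2⟩ := hL
  have q1 := p1 L l1
  have q2 := p2 L l2
  have hL100 : 100 ≤ L := hLo.trans lo
  have hL0 : 0 < L := by linarith
  have he := eps_pos hL0
  have he1 := eps_le hL100
  have hesq := eps_sq hL0
  have hmg := hsel.mg
  have hsupS := hsel.sup
  have hbk := Sel1.bk hsel hB he.le (s := l - 11 * eps L) (by linarith) (by linarith)
  obtain ⟨e, hedef⟩ : ∃ e, e = eps L := ⟨_, rfl⟩
  rw [← hedef] at q1 q2 he he1 hesq hmg hsupS hbk hIpos hlam ⊢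
  have hlb := hB.hi
  have hS := M.S_pos
  have hlb' : M'.lb = M.lb := hsel.hlb
  have hS' : M'.S = M.S := by unfold Mo.S; rw [hlb']
  have hdu' := Sel1.du hsel hdu
  obtain ⟨τ, hτ⟩ : ∃ τ, τ = Real.exp (-(399 / 800 * L)) := ⟨_, rfl⟩
  have hκ' : M'.κ = M.κ + τ := by rw [hτ]; exact hsel.hκ
  rw [← hτ] at hdu' hsupS
  have hτ0 : 0 < τ := by rw [hτ]; exact Real.exp_pos _
  have he2 : 0 < e ^ 2 := by positivity
  have hAτ : A * τ ≤ e ^ 2 := by rw [hτ]; exact exp_small he2 q1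
  obtain ⟨hτe, hτκ, hτe1⟩ := small_num hκm hA he he1 hτ0.le hAτ
  have hκ'0 : 0 ≤ M'.κ := by rw [hκ']; linarith [hB.κ0]
  have hκ'1 : M'.κ ≤ 2 * κm := by rw [hκ']; linarith
  have hgr' := Hgr k M' _ hκ'0 (hκ'1.trans k3) hmg
  have hb' : Cg * M'.κ ≤ 1 / 8 :=
    (mul_le_mul_of_nonneg_left (hκ'1.trans k3) hCg.le).trans hCκg
  have hgr1 := GrB.gr1 hgr' hb'
  have hV := stat_VD hB.int hB.st
  have hTh : 1 ≤ Th m (VD D) x := by rw [hB.Th]; exact_mod_cast hB.Q1
  have hu0 : ‖M'.u 0‖ ≤ τ := by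
    refine u0_le (A := Real.exp (l - e)) hV hm hS (Real.exp_pos _)
      ((Metric.closedBall_subset_closedBall (by linarith)).trans hB.sub) hTh hgr'.cu.continuous hsupS
  obtain ⟨r1, r2, r3⟩ := radii (s := l - M.lb) he he1 (by linarith)
  have eR : l - 2 * e - M.lb = l - M.lb - 2 * e := by ring
  rw [eR] at hmg
  obtain ⟨R, hR⟩ : ∃ R, R = Real.exp (l - M.lb - 2 * e) := ⟨_, rfl⟩
  rw [← hR] at hmg r2 r3
  have hR1 : R ≤ 1 := by rw [hR]; exact Real.exp_le_one_iff.2 (by linarith)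
  have hf : Frame M'.π M'.ρ := by rw [hsel.hπ, hsel.hρ]; exact hB.pack.frame
  obtain ⟨B, u', X0, q, H, H', hB0, hAB, hO⟩ := HO L R M'.κ M'.u k M'.π M'.ρ lo hf r3 hR1 hκ'0
    (hκ'1.trans k2) hmg hgr1 (by rw [← hτ]; exact hu0) (by rw [← hτ]; exact hdu')
  rw [← hedef] at hAB hO
  obtain ⟨hBe, hBκ, hBe1⟩ := small_num hκm hA he he1 hB0 hAB
  have hBL : 100 * (τ + B) ≤ 1 / L := by
    have h1 : 1 / (64 * L) = 1 / L / 64 := by field_simp
    have h2 : 0 < 1 / L := by positivity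
    rw [hesq, h1] at hBe hτe
    linarith
  have hq := hO.q_le
  have hX := hO.X_le
  have hq0 := norm_nonneg q
  have hq1 : ‖q‖ ≤ 1 := by nlinarith
  have hRp : (1 - e) * R ≤ R := by
    have : 0 ≤ R := by rw [hR]; positivity
    nlinarith
  obtain ⟨M'', hM''⟩ : ∃ M'' : Mo m n k, M'' = rotM M' u' q H H' B (23 / 20 * L) := ⟨_, rfl⟩
  have f1 : M''.π = rπ M'.π M'.ρ q H := by rw [hM'']; rfl
  have f2 : M''.ρ = rρ M'.π M'.ρ q H' := by rw [hM'']; rfl
  have f3 : M''.lb = M'.lb := by rw [hM'']; rfl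
  have f4 : M''.u = u' := by rw [hM'']; rfl
  have f5 : M''.κ = M'.κ + B := by rw [hM'']; rfl
  have f6 : M''.Lb = 23 / 20 * L := by rw [hM'']; rfl
  have f7 : M''.S = M.S := by unfold Mo.S; rw [f3, hlb']
  have hf'' : Frame M''.π M''.ρ := by rw [f1, f2]; exact Grot_842.frame_rot hf hO.rt
  have hang : ‖hp M''.π - hp M.π‖ ≤ 4 * B := by
    rw [← hsel.hπ, f1]
    exact (hp_rot_le hf hO.rt hq1).trans (by linarith)
  have hκ''0 : 0 ≤ M''.κ := by rw [f5]; linarith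
  have hκ''1 : M''.κ ≤ 2 * κm := by rw [f5, hκ']; linarith
  have hmg'' : MG N M''.κ ((1 - e) * R) M''.u := by rw [f4, f5]; exact hO.mg
  have hgr'' := Hgr k M'' _ hκ''0 (hκ''1.trans k3) hmg''
  have hb'' : Cg * M''.κ ≤ 1 / 8 :=
    (mul_le_mul_of_nonneg_left (hκ''1.trans k3) hCg.le).trans hCκg
  have hgr1'' := GrB.gr1 hgr'' hb''
  have hFP'' : FlatPack D x Q M'.S ε₀ Λ M''.π M''.ρ := by
    rw [hS']
    exact hFP _ _ hf'' (hang.trans (by linarith))
  have hder : fderiv ℝ M''.u 0 = 0 := by rw [f4]; exact hO.der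
  have hr12 : Real.exp (l - M.lb - 12 * e) ≤ Real.exp (l - M.lb - 23 / 2 * e) :=
    Real.exp_le_exp.2 (by linarith)
  -- `I`
  have hS8 : M.S ≤ 8 * Real.exp (l - 11 * e) := S_le8 (by linarith)
  have hsupM' : ∀ᵐ p ∂(VD D), ‖M'.π (p.1 - x)‖ ≤ Real.exp (l - 11 * e) →
      ‖M'.ρ (p.1 - x)‖ ≤ M'.S →
      ‖hgt M'.π M'.ρ x M'.S M'.u p.1‖ ≤ e / 8 * Real.exp (l - 11 * e) := by
    rw [hS', hsel.hπ, hsel.hρ]
    filter_upwards [hsupS] with p hp g1 g2
    refine (hp (g1.trans (Real.exp_le_exp.2 (by linarith))) g2).trans ?_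
    have h1 := mul_le_mul_of_nonneg_right hS8 hτ0.le
    have h2 := Real.exp_pos (l - 11 * e)
    have h3 : 8 * Real.exp (l - 11 * e) * τ = (8 * τ) * Real.exp (l - 11 * e) := by ring
    rw [h3] at h1
    refine h1.trans (mul_le_mul_of_nonneg_right ?_ h2.le)
    linarith
  have hI := HR U D x ε₀ M' M'' (l - 11 * e) e B q H H' hbk (hκ'1.trans k1)
    (hε.trans (min_le_right _ _)) hO.rt f1 f2 f3 hFP''
    (hmg''.mono (hκ''1.trans k1) (by
      have : 0 ≤ R := by rw [hR]; positivity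
      exact mul_nonneg (by linarith) this)) he (by linarith) (by linarith) (by linarith) (by
      rw [hder, norm_zero]; linarith) (by rw [hlb']; linarith) (by
      rw [f4]
      refine rel_of hO (fun X => (hgr'.b0 X).trans (by linarith)) ?_ ?_
      · have e3 : l - 11 * e - e / 2 - M'.lb = l - M.lb - 23 / 2 * e := by rw [hlb']; ring
        rw [e3]
        linarith
      · have e3 : l - 11 * e - e / 2 - M'.lb = l - M.lb - 23 / 2 * e := by rw [hlb']; ring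
        rw [e3]
        linarith) (by rw [f4]; exact hO.d0) (by rw [f4]; exact hO.d1) (by linarith) hsupM'
  have hI2 := I_num he he1 hCR hIpos hlam q2 hI
  -- sup
  have hsup2 := F10v_188.rot_sup (V := VD D) (t := M.S) (x := x) (u := M'.u) (u' := u')
    (r := R) (R' := (1 - e) * R) (r' := Real.exp (l - M.lb - 12 * e)) (hh := τ)
    (c := H' (M'.u X0 - q X0)) hf hO.rt hS hO.foot rfl (fun y y' => by
      have h1 := hgr1''.lip y y'
      rw [f4] at h1
      have := norm_nonneg (y - y')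
      linarith) hq1 hO.fwd (by linarith) (Real.exp_pos _).le (by linarith) (by
      have h1 : ‖q‖ * τ ≤ 1 * τ := mul_le_mul_of_nonneg_right hq1 hτ0.le
      linarith) (by
      rw [hsel.hρ]
      filter_upwards [hB.pack.supae] with p hp g1
      refine (hp g1).trans ?_
      have : ε₀ * M.S ≤ 1 * M.S :=
        mul_le_mul_of_nonneg_right (hε.trans (min_le_left _ _)) hS.le
      linarith) (by
      rw [hsel.hπ, hsel.hρ]
      filter_upwards [hsupS] with p hp g1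
      rw [mul_comm τ M.S]
      refine hp (g1.1.trans ?_) g1.2
      have h1 : R * M.S = Real.exp (l - 2 * e) := by
        rw [hR, mul_comm]
        unfold Mo.S
        rw [← Real.exp_add]; congr 1; ring
      rw [h1]
      exact Real.exp_le_exp.2 (by linarith))
  rw [← f1, ← f2, ← f4] at hsup2
  have hsup3 : SupLe M'' x (VD D) (Real.exp (l - 12 * e - M''.lb)) (Real.exp (-(M''.Lb / 4))) := by
    refine supLe_of f7 ?_ ?_ hsup2
    · rw [f7, f3, hlb', mul_comm]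
      congr 2
      ring
    · rw [f6, hτ]
      exact two_tau hL100
  refine ⟨M'', by rw [f3, hlb'], f6, ⟨⟨hf'', hκ''0, hκ''1.trans hcκ, ?_, ?_⟩, ?_, ?_⟩, ?_⟩
  · rw [hcN]
    refine hmg''.mono le_rfl ?_
    have e3 : l - 12 * e - M''.lb = l - M.lb - 12 * e := by rw [f3, hlb']; ring
    rw [e3]
    linarith
  · rw [hder, norm_zero]
  · rw [f6]; exact hI2
  · exact hsup3
  · rw [f5, hκ']
    linarith

end Crest.Agent.R234.F11d_188
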