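import Crest.Agent.R234.GLK3_128

/-!
# Row 234, node GL-K (helper128), file 4: second list of pointwise estimates

* `zeta_eq` : `(dx† - A g⁻¹) x = A0 W x - B h⁻¹ q Y g⁻¹ x`, `W = L Y g⁻¹ + g⁻¹ Y g⁻¹`
* `abs_k5a`, `abs_k5b`
* `le_DX` : `dx dx† ≥ 1/2`; `exists_c2` : `|det g det (dx dx†) - 1| ≤ C |Y|²`
-/

set_option autoImplicit false
set_option maxSynthPendingDepth 3

open Function Set Filter Topology Crest.Agent.R234.Fm_209
open scoped InnerProductSpace ContDiff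

noncomputable section

namespace Crest.Agent.R234.GLK_128

variable {E F V : Type} [NormedAddCommGroup E] [InnerProductSpace ℝ E] [FiniteDimensional ℝ E]
  [NormedAddCommGroup F] [InnerProductSpace ℝ F] [FiniteDimensional ℝ F]
  [NormedAddCommGroup V] [InnerProductSpace ℝ V] [FiniteDimensional ℝ V]

local notation "adj" => ContinuousLinearMap.adjoint

variable {i : F →L[ℝ] E} {j : V →L[ℝ] E} {q : F →L[ℝ] V} {Y gi Li : F →L[ℝ] F} {hi : V →L[ℝ] V}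
  {P : E →L[ℝ] E}

/-- tangential part of `dx† - A g⁻¹` -/
def Wz (Y gi Li : F →L[ℝ] F) : F →L[ℝ] F := Li ∘L Y ∘L gi + gi ∘L Y ∘L gi

/-- normal part of `dx† - A g⁻¹` -/
def Nz (i : F →L[ℝ] E) (j : V →L[ℝ] E) (q : F →L[ℝ] V) (hi : V →L[ℝ] V) (Y gi : F →L[ℝ] F) :
    F →L[ℝ] E := -(BB i j q ∘L hi ∘L q ∘L Y ∘L gi)

theorem adj_DX (H : Inv q Y gi hi Li) (hYs : adj Y = Y) :
    adj (DX i j q Li) = A0 i j q ∘L Li := by
  rw [DX, ContinuousLinearMap.adjoint_comp, H.Li_adj hYs, ContinuousLinearMap.adjoint_adjoint]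

theorem zeta_eq (H : Inv q Y gi hi Li) (hYs : adj Y = Y) :
    adj (DX i j q Li) - AA i j q Y ∘L gi = A0 i j q ∘L Wz Y gi Li + Nz i j q hi Y gi := by
  have e1 : (i ∘L Y) ∘L gi = A0 i j q ∘L gi ∘L Y ∘L gi + Nz i j q hi Y gi := by
    have a : i ∘L (Y ∘L gi) = (A0 i j q ∘L gi - BB i j q ∘L hi ∘L q) ∘L (Y ∘L gi) :=
      congrArg (fun T => T ∘L (Y ∘L gi)) (H.i_eq (i := i) (j := j))
    rw [ContinuousLinearMap.sub_comp] at a
    rw [show (i ∘L Y) ∘L gi = i ∘L (Y ∘L gi) from rfl, a, Nz]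
    have b : (BB i j q ∘L hi ∘L q) ∘L (Y ∘L gi) = BB i j q ∘L hi ∘L q ∘L Y ∘L gi := rfl
    have c : (A0 i j q ∘L gi) ∘L (Y ∘L gi) = A0 i j q ∘L gi ∘L Y ∘L gi := rfl
    rw [b, c]
    abel
  rw [adj_DX H hYs, AA_eq, ContinuousLinearMap.sub_comp, e1, Wz, ContinuousLinearMap.comp_add,
    ← H.Li_sub, ContinuousLinearMap.comp_sub]
  abel

theorem norm_Wz (H : Inv q Y gi hi Li) (hY : ‖Y‖ ≤ 1 / 4) : ‖Wz Y gi Li‖ ≤ 7 / 3 * ‖Y‖ := by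
  have n1 : ‖Li ∘L Y ∘L gi‖ ≤ 4 / 3 * (‖Y‖ * 1) :=
    ncomp (H.norm_Li' hY) (ncomp le_rfl H.norm_gi)
  have n2 : ‖gi ∘L Y ∘L gi‖ ≤ 1 * (‖Y‖ * 1) := ncomp H.norm_gi (ncomp le_rfl H.norm_gi)
  refine (norm_add_le _ _).trans ?_
  linarith

theorem norm_Nz (h : Fr i j) (H : Inv q Y gi hi Li) (hq : ‖q‖ ≤ 1 / 4) :
    ‖Nz i j q hi Y gi‖ ≤ 5 / 4 * (‖q‖ * ‖Y‖) := by
  rw [Nz, norm_neg]
  have n1 : ‖BB i j q ∘L hi ∘L q ∘L Y ∘L gi‖ ≤ 5 / 4 * (1 * (‖q‖ * (‖Y‖ * 1))) :=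
    ncomp (norm_BB h hq) (ncomp H.norm_hi (ncomp le_rfl (ncomp le_rfl H.norm_gi)))
  linarith

/-- (k5a) -/
theorem abs_k5a (h : Fr i j) (H : Inv q Y gi hi Li) (hYs : adj Y = Y) (hP : Pj F P)
    (hq : ‖q‖ ≤ 1 / 4) (hY : ‖Y‖ ≤ 1 / 4) (x : F) :
    |⟪adj (DX i j q Li) x - P (adj (DX i j q Li) x), A0 i j q (Wz Y gi Li x)⟫_ℝ| ≤
      7 * (tau0 i j q hi P * ‖Y‖ * ‖x‖ ^ 2) := by
  have e : ⟪adj (DX i j q Li) x - P (adj (DX i j q Li) x), A0 i j q (Wz Y gi Li x)⟫_ℝ =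
      ⟪Th i j q P (Li x), Wz Y gi Li x⟫_ℝ := by
    rw [← ContinuousLinearMap.adjoint_inner_left, adj_DX H hYs, Th]
    rfl
  rw [e]
  have t0 := tau0_nonneg h H hP
  have n1 : ‖Th i j q P (Li x)‖ ≤ 2 * tau0 i j q hi P * (4 / 3 * ‖x‖) := by
    refine (ContinuousLinearMap.le_opNorm _ _).trans ?_
    refine mul_le_mul (norm_Th h H hP hq) ?_ (norm_nonneg _) (by positivity)
    exact (Li.le_opNorm x).trans (mul_le_mul_of_nonneg_right (H.norm_Li' hY) (norm_nonneg _))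
  have n2 : ‖Wz Y gi Li x‖ ≤ 7 / 3 * ‖Y‖ * ‖x‖ :=
    (ContinuousLinearMap.le_opNorm _ _).trans
      (mul_le_mul_of_nonneg_right (norm_Wz H hY) (norm_nonneg _))
  refine (abs_real_inner_le_norm _ _).trans ?_
  calc _ ≤ 2 * tau0 i j q hi P * (4 / 3 * ‖x‖) * (7 / 3 * ‖Y‖ * ‖x‖) :=
        mul_le_mul n1 n2 (norm_nonneg _) (by positivity)
    _ = 56 / 9 * (tau0 i j q hi P * ‖Y‖ * ‖x‖ ^ 2) := by ring
    _ ≤ _ := by
        have : 0 ≤ tau0 i j q hi P * ‖Y‖ * ‖x‖ ^ 2 := by positivity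
        linarith

theorem Pj.norm_le (hP : Pj F P) : ‖P‖ ≤ 1 := by
  refine ContinuousLinearMap.opNorm_le_bound _ zero_le_one fun v => ?_
  have h1 : ‖P v‖ ^ 2 ≤ ‖P v‖ * ‖v‖ := by
    rw [← real_inner_self_eq_norm_sq, ← ContinuousLinearMap.adjoint_inner_right, hP.sa]
    have : P (P v) = P v := congrArg (fun T : E →L[ℝ] E => T v) hP.idem
    rw [this, real_inner_comm]
    exact real_inner_le_norm _ _
  rcases eq_or_lt_of_le (norm_nonneg (P v)) with h0 | h0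
  · rw [← h0]; positivity
  · rw [one_mul]
    by_contra hc
    push Not at hc
    nlinarith

/-- (k5b) -/
theorem abs_k5b (h : Fr i j) (H : Inv q Y gi hi Li) (hYs : adj Y = Y) (hP : Pj F P)
    (hq : ‖q‖ ≤ 1 / 4) (hY : ‖Y‖ ≤ 1 / 4) (x : F) (y : V) :
    |⟪BB i j q y, P ((adj (DX i j q Li) - AA i j q Y ∘L gi) x)⟫_ℝ| ≤
      5 * (‖y‖ * Real.sqrt (tau0 i j q hi P) * ‖Y‖ * ‖x‖) +
        5 / 4 * (‖BB i j q y‖ * (‖q‖ * ‖Y‖) * ‖x‖) := by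
  have t0 := tau0_nonneg h H hP
  have st0 := Real.sqrt_nonneg (tau0 i j q hi P)
  rw [zeta_eq H hYs]
  have e : ⟪BB i j q y, P ((A0 i j q ∘L Wz Y gi Li + Nz i j q hi Y gi) x)⟫_ℝ =
      ⟪y, adj (Rb i j q P) (Wz Y gi Li x)⟫_ℝ + ⟪BB i j q y, P (Nz i j q hi Y gi x)⟫_ℝ := by
    rw [ContinuousLinearMap.add_apply, map_add, inner_add_right, Rb_adj hP]
    congr 1
    rw [← ContinuousLinearMap.adjoint_inner_right]
    rfl
  rw [e]
  have n1 : ‖adj (Rb i j q P) (Wz Y gi Li x)‖ ≤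
      2 * Real.sqrt (tau0 i j q hi P) * (7 / 3 * ‖Y‖ * ‖x‖) := by
    refine (ContinuousLinearMap.le_opNorm _ _).trans ?_
    refine mul_le_mul ?_ ?_ (norm_nonneg _) (by positivity)
    · rw [LinearIsometryEquiv.norm_map]; exact norm_Rb h H hP hq
    · exact (ContinuousLinearMap.le_opNorm _ _).trans
        (mul_le_mul_of_nonneg_right (norm_Wz H hY) (norm_nonneg _))
  have n2 : ‖P (Nz i j q hi Y gi x)‖ ≤ 5 / 4 * (‖q‖ * ‖Y‖) * ‖x‖ := by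
    refine (P.le_opNorm _).trans ?_
    have a := (ContinuousLinearMap.le_opNorm (Nz i j q hi Y gi) x).trans
      (mul_le_mul_of_nonneg_right (norm_Nz h H hq) (norm_nonneg _))
    calc ‖P‖ * ‖Nz i j q hi Y gi x‖ ≤ 1 * (5 / 4 * (‖q‖ * ‖Y‖) * ‖x‖) :=
          mul_le_mul hP.norm_le a (norm_nonneg _) zero_le_one
      _ = _ := one_mul _
  refine (abs_add_le _ _).trans (add_le_add ?_ ?_)
  · refine (abs_real_inner_le_norm _ _).trans ?_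
    calc _ ≤ ‖y‖ * (2 * Real.sqrt (tau0 i j q hi P) * (7 / 3 * ‖Y‖ * ‖x‖)) :=
          mul_le_mul_of_nonneg_left n1 (norm_nonneg _)
      _ = 14 / 3 * (‖y‖ * Real.sqrt (tau0 i j q hi P) * ‖Y‖ * ‖x‖) := by ring
      _ ≤ _ := by
          have : 0 ≤ ‖y‖ * Real.sqrt (tau0 i j q hi P) * ‖Y‖ * ‖x‖ := by positivity
          linarith
  · refine (abs_real_inner_le_norm _ _).trans ?_
    calc _ ≤ ‖BB i j q y‖ * (5 / 4 * (‖q‖ * ‖Y‖) * ‖x‖) :=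
          mul_le_mul_of_nonneg_left n2 (norm_nonneg _)
      _ = _ := by ring

/-- `|B y|² = ⟪h y, y⟫ ≥ |y|²` -/
theorem norm_BB_sq (h : Fr i j) (y : V) : ‖BB i j q y‖ ^ 2 = ‖y‖ ^ 2 + ‖adj q y‖ ^ 2 := by
  rw [← real_inner_self_eq_norm_sq, ← ContinuousLinearMap.adjoint_inner_left]
  have : adj (BB i j q) (BB i j q y) = hh q y :=
    congrArg (fun T : V →L[ℝ] V => T y) (BB_BB h)
  rw [this, hh_inner]

theorem norm_le_BB (h : Fr i j) (y : V) : ‖y‖ ≤ ‖BB i j q y‖ := by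
  have h1 := norm_BB_sq (q := q) h y
  have h2 := norm_nonneg (BB i j q y)
  by_contra hc
  push Not at hc
  nlinarith [sq_nonneg ‖adj q y‖, norm_nonneg y]

/-- `dx dx† ≥ 1/2` -/
theorem le_DX (h : Fr i j) (H : Inv q Y gi hi Li) (hYs : adj Y = Y) (hq : ‖q‖ ≤ 1 / 4)
    (hY : ‖Y‖ ≤ 1 / 4) (v : F) :
    1 / 2 * ‖v‖ ^ 2 ≤ ‖adj (DX i j q Li) v‖ ^ 2 := by
  have e1 : ‖adj (DX i j q Li) v‖ ^ 2 = ‖Li v‖ ^ 2 + ‖q (Li v)‖ ^ 2 := by
    rw [adj_DX H hYs, ← real_inner_self_eq_norm_sq, ContinuousLinearMap.comp_apply,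
      ← ContinuousLinearMap.adjoint_inner_left]
    have : adj (A0 i j q) (A0 i j q (Li v)) = gg q (Li v) :=
      congrArg (fun T : F →L[ℝ] F => T (Li v)) (A0A0 h)
    rw [this, gg_inner]
  have e2 : v = gg q (Li v) - Y (Li v) := (H.l2a v).symm
  have n0 : ‖gg q (Li v)‖ ≤ ‖Li v‖ + 1 / 4 * (1 / 4 * ‖Li v‖) := by
    have : gg q (Li v) = Li v + adj q (q (Li v)) := by simp [gg]
    rw [this]
    refine (norm_add_le _ _).trans (add_le_add le_rfl ?_)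
    refine ((adj q).le_opNorm _).trans ?_
    rw [LinearIsometryEquiv.norm_map]
    exact mul_le_mul hq ((q.le_opNorm _).trans (mul_le_mul_of_nonneg_right hq (norm_nonneg _)))
      (norm_nonneg _) (by norm_num)
  have n1 : ‖Y (Li v)‖ ≤ 1 / 4 * ‖Li v‖ := (Y.le_opNorm _).trans
    (mul_le_mul_of_nonneg_right hY (norm_nonneg _))
  have n2 : ‖v‖ ≤ ‖gg q (Li v)‖ + ‖Y (Li v)‖ := by
    conv_lhs => rw [e2]
    exact norm_sub_le _ _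
  have n3 : ‖v‖ ≤ 21 / 16 * ‖Li v‖ := by linarith
  have l0 := norm_nonneg (Li v)
  have v0 := norm_nonneg v
  rw [e1]
  nlinarith [sq_nonneg ‖q (Li v)‖]

variable (F) in
/-- (c2) of 618: `j² det (dx dx†) = 1 + O(|Y|²)` -/
theorem exists_c2 : ∃ C : ℝ, 0 ≤ C ∧ ∀ {E V : Type} [NormedAddCommGroup E] [InnerProductSpace ℝ E]
    [FiniteDimensional ℝ E] [NormedAddCommGroup V] [InnerProductSpace ℝ V]
    [FiniteDimensional ℝ V] {i : F →L[ℝ] E} {j : V →L[ℝ] E} {q : F →L[ℝ] V}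
    {Y gi Li : F →L[ℝ] F} {hi : V →L[ℝ] V} (_ : Fr i j) (_ : Inv q Y gi hi Li) (_ : adj Y = Y)
    (_ : ‖Y‖ ≤ 1 / 4) (_ : trc F (gi ∘L Y) = 0),
    |(gg q).det * (DX i j q Li ∘L adj (DX i j q Li)).det - 1| ≤ C * ‖Y‖ ^ 2 := by
  obtain ⟨K, hK0, hK⟩ := Crest.Agent.R247.Mcs816.exists_det_bound F
  set d : ℝ := (Module.finrank ℝ F : ℝ) with hd
  have hd0 : 0 ≤ d := Nat.cast_nonneg _
  set C1 : ℝ := 2 * K + 2 * d with hC1
  have hC10 : 0 ≤ C1 := by positivity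
  refine ⟨C1 * (C1 + 2), by positivity, ?_⟩
  intro E V _ _ _ _ _ _ i j q Y gi Li hi h H hYs hY h0
  have y0 := norm_nonneg Y
  have e1 : (gg q).det * (DX i j q Li ∘L adj (DX i j q Li)).det =
      (ContinuousLinearMap.id ℝ F + Li ∘L Y).det ^ 2 := by
    have a1 : DX i j q Li ∘L adj (DX i j q Li) = Li ∘L gg q ∘L Li := by
      rw [adj_DX H hYs, DX]
      have : (Li ∘L adj (A0 i j q)) ∘L A0 i j q ∘L Li =
        Li ∘L (adj (A0 i j q) ∘L A0 i j q) ∘L Li := rfl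
      rw [this, A0A0 h]
    have a2 : Li ∘L gg q = ContinuousLinearMap.id ℝ F + Li ∘L Y := by
      have := H.l1
      rw [ContinuousLinearMap.comp_sub] at this
      rw [← this]; abel
    have a3 : (Li ∘L gg q ∘L Li).det = Li.det * (gg q).det * Li.det := by
      have b1 : (Li ∘L gg q ∘L Li).det = Li.det * (gg q ∘L Li).det := LinearMap.det_comp _ _
      have b2 : (gg q ∘L Li).det = (gg q).det * Li.det := LinearMap.det_comp _ _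
      rw [b1, b2]; ring
    have a4 : (Li ∘L gg q).det = Li.det * (gg q).det := LinearMap.det_comp _ _
    rw [a1, a3, ← a2, a4]
    ring
  have n1 : ‖Li ∘L Y‖ ≤ 4 / 3 * ‖Y‖ := ncomp (H.norm_Li' hY) le_rfl
  have n2 : ‖Li ∘L Y‖ ≤ 1 := by linarith
  have h1 := hK (Li ∘L Y) n2
  have h2 : |trc F (Li ∘L Y)| ≤ d * (4 / 3 * ‖Y‖ ^ 2) := by
    have e : trc F (Li ∘L Y) = trc F ((Li ∘L Y ∘L gi) ∘L Y) := by
      rw [← H.Li_sub, ContinuousLinearMap.sub_comp, map_sub, h0, sub_zero]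
    rw [e]
    refine (abs_trc_le' _).trans (mul_le_mul_of_nonneg_left ?_ hd0)
    have : ‖(Li ∘L Y ∘L gi) ∘L Y‖ ≤ 4 / 3 * (‖Y‖ * 1) * ‖Y‖ :=
      ncomp (ncomp (H.norm_Li' hY) (ncomp le_rfl H.norm_gi)) le_rfl
    nlinarith
  have e3 : Crest.Agent.R247.Mcs816.trL F (Li ∘L Y) = trc F (Li ∘L Y) := rfl
  rw [e3] at h1
  set D := (ContinuousLinearMap.id ℝ F + Li ∘L Y).det with hD
  have h3 : |D - 1| ≤ C1 * ‖Y‖ ^ 2 := by
    have n3 : ‖Li ∘L Y‖ ^ 2 ≤ 16 / 9 * ‖Y‖ ^ 2 := by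
      have := pow_le_pow_left₀ (norm_nonneg (Li ∘L Y)) n1 2
      calc _ ≤ (4 / 3 * ‖Y‖) ^ 2 := this
        _ = _ := by ring
    have n4 : K * ‖Li ∘L Y‖ ^ 2 ≤ K * (16 / 9 * ‖Y‖ ^ 2) := mul_le_mul_of_nonneg_left n3 hK0
    have t1 : |D - 1| ≤ |D - 1 - trc F (Li ∘L Y)| + |trc F (Li ∘L Y)| := by
      have : D - 1 = (D - 1 - trc F (Li ∘L Y)) + trc F (Li ∘L Y) := by ring
      conv_lhs => rw [this]
      exact abs_add_le _ _
    have p1 : 0 ≤ K * ‖Y‖ ^ 2 := by positivity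
    have p2 : 0 ≤ d * ‖Y‖ ^ 2 := by positivity
    rw [hC1]
    nlinarith
  have n5 : ‖Y‖ ^ 2 ≤ 1 := by nlinarith
  rw [e1]
  have e4 : D ^ 2 - 1 = (D - 1) * (D - 1 + 2) := by ring
  rw [e4, abs_mul]
  have n6 : |D - 1 + 2| ≤ C1 + 2 := by
    refine (abs_add_le _ _).trans ?_
    have : C1 * ‖Y‖ ^ 2 ≤ C1 * 1 := mul_le_mul_of_nonneg_left n5 hC10
    have e5 : |(2 : ℝ)| = 2 := abs_of_pos (by norm_num)
    rw [e5]
    linarith
  calc |D - 1| * |D - 1 + 2| ≤ C1 * ‖Y‖ ^ 2 * (C1 + 2) :=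
        mul_le_mul h3 n6 (abs_nonneg _) (by positivity)
    _ = _ := by ring

end Crest.Agent.R234.GLK_128
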