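import Crest.Agent.R234.GLK4_128

/-!
# Row 234, node GL-KB (helper128), file 5: the arithmetic of the fields of `GL_394.KB`

`η = |ν|/s`, `K1 ≥ |Dw|`, `a2 ≥ |D²w| s`, `a3 ≥ |D³w| s²`, `t = τ`.
-/

set_option autoImplicit false

open Function Set Filter Topology

noncomputable section

namespace Crest.Agent.R234.GLK_128

/-- coefficient of the `(τ + q)`-terms, up to the dimensional constant -/
def cc (K1 a2 a3 : ℝ) : ℝ := K1 * a2 + a2 ^ 2 + a2 * a3 + K1 * a3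

/-- coefficient of the `d`-terms, up to the dimensional constant -/
def dd (a2 a3 hh : ℝ) : ℝ := (a2 + a3) * hh

theorem cc_nonneg {K1 a2 a3 : ℝ} (h1 : 0 ≤ K1) (h2 : 0 ≤ a2) (h3 : 0 ≤ a3) : 0 ≤ cc K1 a2 a3 := by
  unfold cc; positivity

theorem dd_nonneg {a2 a3 hh : ℝ} (h2 : 0 ≤ a2) (h3 : 0 ≤ a3) (h4 : 0 ≤ hh) : 0 ≤ dd a2 a3 hh := by
  unfold dd; positivity

theorem K1a2_le {K1 a2 a3 : ℝ} (h1 : 0 ≤ K1) (h2 : 0 ≤ a2) (h3 : 0 ≤ a3) :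
    K1 * a2 ≤ cc K1 a2 a3 := by
  unfold cc
  have : 0 ≤ a2 ^ 2 + a2 * a3 + K1 * a3 := by positivity
  linarith

theorem a2sq_le {K1 a2 a3 : ℝ} (h1 : 0 ≤ K1) (h2 : 0 ≤ a2) (h3 : 0 ≤ a3) :
    a2 ^ 2 ≤ cc K1 a2 a3 := by
  unfold cc
  have : 0 ≤ K1 * a2 + a2 * a3 + K1 * a3 := by positivity
  linarith

/-- `√τ η ≤ (τ + η²)/2` -/
theorem am_gm {t st η : ℝ} (hst : st ^ 2 = t) : st * η ≤ (t + η ^ 2) / 2 := by
  nlinarith [sq_nonneg (st - η)]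

theorem kb1 {N K1 a2 a3 Y t st η qn x : ℝ} (hN : 0 ≤ N) (h1 : 0 ≤ K1) (h2 : 0 ≤ a2) (h3 : 0 ≤ a3)
    (hη : 0 ≤ η) (hst0 : 0 ≤ st) (hst : st ^ 2 = t) (hq0 : 0 ≤ qn) (hq : qn ≤ K1) (hY0 : 0 ≤ Y)
    (hY : Y ≤ a2 * η) (hx : x ≤ 3 * N * (qn * Y * st)) :
    x ≤ 2 * N * cc K1 a2 a3 * (t + η ^ 2) := by
  have e1 : qn * Y * st ≤ K1 * (a2 * η) * st :=
    mul_le_mul_of_nonneg_right (mul_le_mul hq hY hY0 h1) hst0
  have e2 : K1 * (a2 * η) * st = K1 * a2 * (st * η) := by ring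
  have e3 : K1 * a2 * (st * η) ≤ K1 * a2 * ((t + η ^ 2) / 2) :=
    mul_le_mul_of_nonneg_left (am_gm hst) (by positivity)
  have t0 : 0 ≤ t := by rw [← hst]; positivity
  have e4 : K1 * a2 * ((t + η ^ 2) / 2) ≤ cc K1 a2 a3 * ((t + η ^ 2) / 2) :=
    mul_le_mul_of_nonneg_right (K1a2_le h1 h2 h3) (by positivity)
  have e5 : qn * Y * st ≤ cc K1 a2 a3 * ((t + η ^ 2) / 2) := by linarith
  have e6 : 3 * N * (qn * Y * st) ≤ 3 * N * (cc K1 a2 a3 * ((t + η ^ 2) / 2)) :=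
    mul_le_mul_of_nonneg_left e5 (by positivity)
  have e7 : 0 ≤ N * cc K1 a2 a3 * (t + η ^ 2) := by
    have := cc_nonneg h1 h2 h3
    positivity
  nlinarith

theorem kb2 {M a2 Y t η x : ℝ} (h2 : 0 ≤ a2) (h2' : a2 ≤ 1) (hη : 0 ≤ η) (ht : 0 ≤ t)
    (hY0 : 0 ≤ Y) (hY : Y ≤ a2 * η) (hM0 : 0 ≤ M) (hM : M ≤ 2) (hx : x ≤ M * (4 * (t + Y ^ 2))) :
    x ≤ 8 * (t + η ^ 2) := by
  have e1 : Y ≤ η := hY.trans (by nlinarith)
  have e2 : Y ^ 2 ≤ η ^ 2 := pow_le_pow_left₀ hY0 e1 2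
  have e3 : M * (4 * (t + Y ^ 2)) ≤ 2 * (4 * (t + Y ^ 2)) :=
    mul_le_mul_of_nonneg_right hM (by positivity)
  linarith

theorem kb3 {N K1 a2 a3 hh Y t st η qn Kt S b x : ℝ} (hN : 0 ≤ N) (h1 : 0 ≤ K1) (h1' : K1 ≤ 1)
    (h2 : 0 ≤ a2) (h2' : a2 ≤ 1) (h3 : 0 ≤ a3) (hη : 0 ≤ η) (hhη : η ≤ hh) (hst0 : 0 ≤ st)
    (hst : st ^ 2 = t) (hq0 : 0 ≤ qn) (hq : qn ≤ K1) (hY0 : 0 ≤ Y) (hY : Y ≤ a2 * η)
    (hb : 0 ≤ b) (hKt0 : 0 ≤ Kt) (hKt : Kt ≤ a3 * η * b) (hS0 : 0 ≤ S) (hS : S ≤ a2 * b)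
    (hx : x ≤ 8 * N * (Kt * (Y + t + qn * st) + S * (qn * Y ^ 2 + qn * t + Y * st))) :
    x ≤ (16 * N * cc K1 a2 a3 + 16 * N * dd a2 a3 hh) * b * (t + η ^ 2) := by
  have t0 : 0 ≤ t := by rw [← hst]; positivity
  have hh0 : 0 ≤ hh := hη.trans hhη
  set Z := t + η ^ 2 with hZ
  have Z0 : 0 ≤ Z := by positivity
  have am := am_gm (η := η) hst
  have tZ : t ≤ Z := by rw [hZ]; nlinarith [sq_nonneg η]
  have ηZ : η ^ 2 ≤ Z := by rw [hZ]; linarith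
  have u1 : Kt * (Y + t + qn * st) ≤ a3 * η * b * (a2 * η + t + K1 * st) := by
    refine mul_le_mul hKt ?_ (by positivity) (by positivity)
    have : qn * st ≤ K1 * st := mul_le_mul_of_nonneg_right hq hst0
    linarith
  have u2 : S * (qn * Y ^ 2 + qn * t + Y * st) ≤
      a2 * b * (K1 * (a2 * η) ^ 2 + K1 * t + a2 * η * st) := by
    refine mul_le_mul hS ?_ (by positivity) (by positivity)
    have v1 : qn * Y ^ 2 ≤ K1 * (a2 * η) ^ 2 :=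
      mul_le_mul hq (pow_le_pow_left₀ hY0 hY 2) (by positivity) h1
    have v2 : qn * t ≤ K1 * t := mul_le_mul_of_nonneg_right hq t0
    have v3 : Y * st ≤ a2 * η * st := mul_le_mul_of_nonneg_right hY hst0
    linarith
  -- monomials
  have w1 : a3 * a2 * η ^ 2 ≤ a3 * a2 * Z := mul_le_mul_of_nonneg_left ηZ (by positivity)
  have w2 : a3 * (η * t) ≤ a3 * (hh * Z) :=
    mul_le_mul_of_nonneg_left (mul_le_mul hhη tZ t0 hh0) h3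
  have w3 : a3 * K1 * (st * η) ≤ a3 * K1 * Z :=
    mul_le_mul_of_nonneg_left (am.trans (by linarith)) (by positivity)
  have w4 : a2 * K1 * (a2 ^ 2 * η ^ 2) ≤ a2 * K1 * Z := by
    refine mul_le_mul_of_nonneg_left ?_ (by positivity)
    have : a2 ^ 2 ≤ 1 := by nlinarith
    calc a2 ^ 2 * η ^ 2 ≤ 1 * η ^ 2 := mul_le_mul_of_nonneg_right this (by positivity)
      _ ≤ Z := by linarith
  have w5 : a2 * K1 * t ≤ a2 * K1 * Z := mul_le_mul_of_nonneg_left tZ (by positivity)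
  have w6 : a2 ^ 2 * (st * η) ≤ a2 ^ 2 * Z :=
    mul_le_mul_of_nonneg_left (am.trans (by linarith)) (by positivity)
  have w7 : 0 ≤ a2 * (hh * Z) := by positivity
  have w8 : 0 ≤ a2 ^ 2 * Z := by positivity
  have w9 : 0 ≤ a2 * K1 * Z := by positivity
  have w10 : 0 ≤ a3 * a2 * Z := by positivity
  have w11 : 0 ≤ a3 * K1 * Z := by positivity
  have w12 : 0 ≤ a3 * (hh * Z) := by positivity
  have s1 : a3 * η * b * (a2 * η + t + K1 * st) + a2 * b * (K1 * (a2 * η) ^ 2 + K1 * t +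
      a2 * η * st) = b * (a3 * a2 * η ^ 2 + a3 * (η * t) + a3 * K1 * (st * η) +
        a2 * K1 * (a2 ^ 2 * η ^ 2) + a2 * K1 * t + a2 ^ 2 * (st * η)) := by ring
  have s2 : a3 * a2 * η ^ 2 + a3 * (η * t) + a3 * K1 * (st * η) +
        a2 * K1 * (a2 ^ 2 * η ^ 2) + a2 * K1 * t + a2 ^ 2 * (st * η) ≤
        2 * (cc K1 a2 a3 + dd a2 a3 hh) * Z := by
    have : 2 * (cc K1 a2 a3 + dd a2 a3 hh) * Z = 2 * (a2 * K1 * Z) + 2 * (a2 ^ 2 * Z) +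
        2 * (a3 * a2 * Z) + 2 * (a3 * K1 * Z) + 2 * (a2 * (hh * Z)) + 2 * (a3 * (hh * Z)) := by
      unfold cc dd; ring
    rw [this]
    linarith
  have s3 : Kt * (Y + t + qn * st) + S * (qn * Y ^ 2 + qn * t + Y * st) ≤
      b * (2 * (cc K1 a2 a3 + dd a2 a3 hh) * Z) := by
    refine (add_le_add u1 u2).trans ?_
    rw [s1]
    exact mul_le_mul_of_nonneg_left s2 hb
  have s4 := mul_le_mul_of_nonneg_left s3 (show 0 ≤ 8 * N by positivity)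
  calc x ≤ _ := hx
    _ ≤ 8 * N * (b * (2 * (cc K1 a2 a3 + dd a2 a3 hh) * Z)) := s4
    _ = _ := by ring

theorem kb4 {M K1 a2 a3 hh Y t η x : ℝ} (hM : 0 ≤ M) (h1 : 0 ≤ K1) (h2 : 0 ≤ a2) (h3 : 0 ≤ a3)
    (hη : 0 ≤ η) (hhη : η ≤ hh) (ht : 0 ≤ t) (hY0 : 0 ≤ Y) (hY : Y ≤ a2 * η)
    (hx : x ≤ M * (2 * Y ^ 2 + 3 * (Y * t))) :
    x ≤ 3 * M * cc K1 a2 a3 * η ^ 2 + 3 * M * dd a2 a3 hh * t := by
  have hh0 : 0 ≤ hh := hη.trans hhη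
  have e1 : Y ^ 2 ≤ a2 ^ 2 * η ^ 2 := by
    have := pow_le_pow_left₀ hY0 hY 2
    calc _ ≤ (a2 * η) ^ 2 := this
      _ = _ := by ring
  have e2 : a2 ^ 2 * η ^ 2 ≤ cc K1 a2 a3 * η ^ 2 :=
    mul_le_mul_of_nonneg_right (a2sq_le h1 h2 h3) (by positivity)
  have e3 : Y * t ≤ dd a2 a3 hh * t := by
    refine mul_le_mul_of_nonneg_right (hY.trans ?_) ht
    unfold dd
    have : a2 * η ≤ a2 * hh := mul_le_mul_of_nonneg_left hhη h2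
    have : 0 ≤ a3 * hh := by positivity
    linarith
  have e4 : 2 * Y ^ 2 + 3 * (Y * t) ≤ 3 * (cc K1 a2 a3 * η ^ 2) + 3 * (dd a2 a3 hh * t) := by
    have : 0 ≤ cc K1 a2 a3 * η ^ 2 := by
      have := cc_nonneg h1 h2 h3
      positivity
    linarith
  calc x ≤ _ := hx
    _ ≤ M * (3 * (cc K1 a2 a3 * η ^ 2) + 3 * (dd a2 a3 hh * t)) := mul_le_mul_of_nonneg_left e4 hM
    _ = _ := by ring

/-- `s` scale, `X = |x'|`, `ν = η s` -/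
theorem kb5 {K1 a2 a3 Y η qn s X nu x : ℝ} (h1 : 0 ≤ K1) (h2 : 0 ≤ a2) (h3 : 0 ≤ a3)
    (hs : 0 < s) (hη : 0 ≤ η) (hq0 : 0 ≤ qn) (hq : qn ≤ K1) (hY0 : 0 ≤ Y) (hY : Y ≤ a2 * η)
    (hX0 : 0 ≤ X) (hX : X ≤ 2 * s) (hnu : nu = η * s) (hx : x ≤ 5 / 4 * (qn * Y) * X) :
    x ≤ 3 * cc K1 a2 a3 * nu := by
  have e1 : qn * Y ≤ K1 * (a2 * η) := mul_le_mul hq hY hY0 h1
  have e2 : 5 / 4 * (qn * Y) * X ≤ 5 / 4 * (K1 * (a2 * η)) * (2 * s) := by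
    refine mul_le_mul ?_ hX hX0 (by positivity)
    linarith
  have e3 : 5 / 4 * (K1 * (a2 * η)) * (2 * s) = 5 / 2 * (K1 * a2) * (η * s) := by ring
  have e4 : K1 * a2 * (η * s) ≤ cc K1 a2 a3 * (η * s) :=
    mul_le_mul_of_nonneg_right (K1a2_le h1 h2 h3) (by positivity)
  have e5 : 0 ≤ cc K1 a2 a3 * (η * s) := by
    have := cc_nonneg h1 h2 h3
    positivity
  rw [hnu]
  nlinarith

theorem kb5a {a2 a3 hh Y η t s X x : ℝ} (h2 : 0 ≤ a2) (h3 : 0 ≤ a3) (hs : 0 < s)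
    (hη : 0 ≤ η) (hhη : η ≤ hh) (ht : 0 ≤ t) (hY0 : 0 ≤ Y) (hY : Y ≤ a2 * η)
    (hX0 : 0 ≤ X) (hX : X ≤ 2 * s) (hx : x ≤ 7 * (t * Y * X ^ 2)) :
    x ≤ 28 * dd a2 a3 hh * (s ^ 2 * t) := by
  have hh0 : 0 ≤ hh := hη.trans hhη
  have e1 : Y ≤ dd a2 a3 hh := by
    refine hY.trans ?_
    unfold dd
    have : a2 * η ≤ a2 * hh := mul_le_mul_of_nonneg_left hhη h2
    have : 0 ≤ a3 * hh := by positivity
    linarith
  have e2 : X ^ 2 ≤ 4 * s ^ 2 := by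
    have := pow_le_pow_left₀ hX0 hX 2
    calc _ ≤ (2 * s) ^ 2 := this
      _ = _ := by ring
  have e3 : t * Y * X ^ 2 ≤ t * dd a2 a3 hh * (4 * s ^ 2) :=
    mul_le_mul (mul_le_mul_of_nonneg_left e1 ht) e2 (by positivity)
      (mul_nonneg ht (dd_nonneg h2 h3 hh0))
  calc x ≤ _ := hx
    _ ≤ 7 * (t * dd a2 a3 hh * (4 * s ^ 2)) := by linarith
    _ = _ := by ring

theorem kb5b {K1 a2 a3 hh Y η t st s X qn y nu x : ℝ} (h1 : 0 ≤ K1) (h2 : 0 ≤ a2) (h3 : 0 ≤ a3)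
    (hs : 0 < s) (hη : 0 ≤ η) (hhη : η ≤ hh) (hst0 : 0 ≤ st) (hst : st ^ 2 = t)
    (hq0 : 0 ≤ qn) (hq : qn ≤ K1) (hY0 : 0 ≤ Y) (hY : Y ≤ a2 * η)
    (hX0 : 0 ≤ X) (hX : X ≤ 2 * s) (hy0 : 0 ≤ y) (hy : y ≤ η * s) (hnu : nu = η * s)
    (hx : x ≤ 5 * (y * st * Y * X) + 5 / 4 * (nu * (qn * Y) * X)) :
    x ≤ s ^ 2 * (3 * cc K1 a2 a3 * η ^ 2 + 5 * dd a2 a3 hh * (t + η ^ 2)) := by
  have t0 : 0 ≤ t := by rw [← hst]; positivity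
  have hh0 : 0 ≤ hh := hη.trans hhη
  have am := am_gm (η := η) hst
  have e1 : Y ≤ dd a2 a3 hh := by
    refine hY.trans ?_
    unfold dd
    have : a2 * η ≤ a2 * hh := mul_le_mul_of_nonneg_left hhη h2
    have : 0 ≤ a3 * hh := by positivity
    linarith
  have d0 := dd_nonneg (hh := hh) h2 h3 hh0
  have f1 : y * st * Y * X ≤ η * s * st * dd a2 a3 hh * (2 * s) := by
    refine mul_le_mul ?_ hX hX0 (by positivity)
    refine mul_le_mul ?_ e1 hY0 (by positivity)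
    exact mul_le_mul_of_nonneg_right hy hst0
  have f2 : η * s * st * dd a2 a3 hh * (2 * s) = 2 * s ^ 2 * dd a2 a3 hh * (st * η) := by ring
  have f3 : 2 * s ^ 2 * dd a2 a3 hh * (st * η) ≤
      2 * s ^ 2 * dd a2 a3 hh * ((t + η ^ 2) / 2) :=
    mul_le_mul_of_nonneg_left am (by positivity)
  have g1 : qn * Y ≤ K1 * (a2 * η) := mul_le_mul hq hY hY0 h1
  have g2 : nu * (qn * Y) * X ≤ η * s * (K1 * (a2 * η)) * (2 * s) := by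
    rw [hnu]
    refine mul_le_mul ?_ hX hX0 (by positivity)
    exact mul_le_mul_of_nonneg_left g1 (by positivity)
  have g3 : η * s * (K1 * (a2 * η)) * (2 * s) = 2 * s ^ 2 * (K1 * a2 * η ^ 2) := by ring
  have g4 : K1 * a2 * η ^ 2 ≤ cc K1 a2 a3 * η ^ 2 :=
    mul_le_mul_of_nonneg_right (K1a2_le h1 h2 h3) (by positivity)
  have g5 : 2 * s ^ 2 * (K1 * a2 * η ^ 2) ≤ 2 * s ^ 2 * (cc K1 a2 a3 * η ^ 2) :=
    mul_le_mul_of_nonneg_left g4 (by positivity)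
  have g6 : 0 ≤ s ^ 2 * (cc K1 a2 a3 * η ^ 2) := by
    have := cc_nonneg h1 h2 h3
    positivity
  have e : s ^ 2 * (3 * cc K1 a2 a3 * η ^ 2 + 5 * dd a2 a3 hh * (t + η ^ 2)) =
      3 * (s ^ 2 * (cc K1 a2 a3 * η ^ 2)) + 5 * (2 * s ^ 2 * dd a2 a3 hh * ((t + η ^ 2) / 2)) := by
    ring
  rw [e]
  linarith

end Crest.Agent.R234.GLK_128
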