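import Crest.Agent.R234.Gi4_456
import Crest.Agent.R234.GLK3_128
import Crest.Agent.R234.GLK4_128
import Crest.Agent.R234.GLK5_128

/-!
# Row 234, node GL-KB (helper128), file 6: the pointwise bounds `KB` of 394 for the chart `ch` of 456

Part A: hypotheses `Hy`, the fields `tau0 .. k2, k4 .. k5b` of `GL_394.KB`.
-/

set_option autoImplicit false
set_option maxSynthPendingDepth 3

open MeasureTheory Filter Topology Set Function
open scoped ENNReal NNReal ContDiff InnerProductSpace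
open Crest.GeometryTopology.Submanifold Crest.Agent.R234.Vf_884
open Crest.Agent.R234.Main_456
open Crest.Agent.R234.Fm_209 (trc trc_apply trc_comp_comm)
open Crest.Agent.R234.Ell1_3 (adjL ginv gop dns)
open Crest.Agent.R234.Gi_456 (Gr tube foot yy frame_fr Yo Li hinv At A0t Bt dft dyt Lo Loi ch giB jB
  lamB muG beG pt)

noncomputable section

namespace Crest.Agent.R234.GLK_128

variable {m n k : ℕ}

local notation "adj" => ContinuousLinearMap.adjoint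

theorem tr_eq_trc (A : L k) : tr A = trc (Euc k) A := rfl

theorem pj_of_mem {P : L k} (hP : P ∈ G m k) : Pj (Euc m) P where
  idem := hP.1
  sa := hP.2.1.adjoint_eq
  tr := by
    have h1 := hP.2.2
    rw [tr_eq_trc] at h1
    rw [h1]
    simp

/-- hypotheses of the bounds at the scale `s = e^l`, centre `X0`. -/
structure Hy (π : Euc k →L[ℝ] Euc m) (ρ : Euc k →L[ℝ] Euc n) (x : Euc k) (r : ℝ)
    (w : Euc m → Euc n) (X0 : Euc m) (K : Set (Euc k)) (l K1 K2 K3 hb : ℝ) : Prop where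
  gr : Gr r w
  fr : Frame π ρ
  sub : K ⊆ tube π ρ x r w
  k1 : ∀ X, ‖X - X0‖ ≤ Real.exp l → ‖fderiv ℝ w X‖ ≤ K1
  k2 : ∀ X, ‖X - X0‖ ≤ Real.exp l → ‖fderiv ℝ (fderiv ℝ w) X‖ ≤ K2
  k3 : ∀ X, ‖X - X0‖ ≤ Real.exp l → ‖fderiv ℝ (fderiv ℝ (fderiv ℝ w)) X‖ ≤ K3
  k1le : K1 ≤ 1
  k2s : K2 * Real.exp l ≤ 1 / 2
  hb0 : 0 ≤ hb
  hb1 : hb ≤ 1
  min : ∀ X, ‖X - X0‖ ≤ Real.exp l → ∀ᶠ X' in 𝓝 X, Msys w X' = 0
  nu : ∀ z ∈ K, ‖(ch π ρ x r w X0).x z‖ ≤ Real.exp l →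
    ‖(ch π ρ x r w X0).nu z‖ ≤ hb * Real.exp l

/-- the dimensional constant -/
def Ck (m n : ℕ) : ℝ := 64 * (m + n + 1)

/-- normal part of `zeta` -/
def zN (π : Euc k →L[ℝ] Euc m) (ρ : Euc k →L[ℝ] Euc n) (x : Euc k) (r : ℝ)
    (w : Euc m → Euc n) (X0 : Euc m) (z : Euc k) : Euc k :=
  Nz (adj π) (adj ρ) (fderiv ℝ w (foot π ρ x r w z)) (hinv (fderiv ℝ w (foot π ρ x r w z)))
    (Yo w (foot π ρ x r w z) (yy π ρ x r w z)) (ginv (fderiv ℝ w (foot π ρ x r w z)))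
    (adj (Lo (fderiv ℝ w X0)) (Lo (fderiv ℝ w X0) (foot π ρ x r w z - X0)))

variable {π : Euc k →L[ℝ] Euc m} {ρ : Euc k →L[ℝ] Euc n} {x : Euc k} {r : ℝ} {w : Euc m → Euc n}
  {X0 : Euc m} {K : Set (Euc k)} {l K1 K2 K3 hb : ℝ}

theorem Ck_nonneg (m n : ℕ) : 0 ≤ Ck m n := by unfold Ck; positivity

theorem le_Ck (m n : ℕ) {a : ℝ} (h : a ≤ 64 * (m + n + 1)) : a ≤ Ck m n := h

theorem Hy.K1n (h : Hy π ρ x r w X0 K l K1 K2 K3 hb) : 0 ≤ K1 :=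
  (norm_nonneg _).trans (h.k1 X0 (by simpa using (Real.exp_pos l).le))

theorem Hy.K2n (h : Hy π ρ x r w X0 K l K1 K2 K3 hb) : 0 ≤ K2 :=
  (norm_nonneg (fderiv ℝ (fderiv ℝ w) X0)).trans (h.k2 X0 (by simpa using (Real.exp_pos l).le))

theorem Hy.K3n (h : Hy π ρ x r w X0 K l K1 K2 K3 hb) : 0 ≤ K3 :=
  (norm_nonneg (fderiv ℝ (fderiv ℝ (fderiv ℝ w)) X0)).trans
    (h.k3 X0 (by simpa using (Real.exp_pos l).le))

theorem Hy.a2n (h : Hy π ρ x r w X0 K l K1 K2 K3 hb) : 0 ≤ K2 * Real.exp l :=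
  mul_nonneg h.K2n (Real.exp_pos l).le

theorem Hy.a3n (h : Hy π ρ x r w X0 K l K1 K2 K3 hb) : 0 ≤ K3 * Real.exp (2 * l) :=
  mul_nonneg h.K3n (Real.exp_pos _).le

theorem Hy.a2le (h : Hy π ρ x r w X0 K l K1 K2 K3 hb) : K2 * Real.exp l ≤ 1 :=
  h.k2s.trans (by norm_num)

theorem Hy.q0 (h : Hy π ρ x r w X0 K l K1 K2 K3 hb) : ‖fderiv ℝ w X0‖ ≤ 1 / 8 := h.gr.d1 X0

theorem norm_Lo (h : Hy π ρ x r w X0 K l K1 K2 K3 hb) : ‖Lo (fderiv ℝ w X0)‖ ≤ 65 / 64 :=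
  ContinuousLinearMap.opNorm_le_bound _ (by norm_num) fun v => Gi_456.norm_Lo_le h.q0 v

theorem norm_adj_Lo (h : Hy π ρ x r w X0 K l K1 K2 K3 hb) : ‖adj (Lo (fderiv ℝ w X0))‖ ≤ 65 / 64 := by
  rw [norm_adj]; exact norm_Lo h

theorem norm_Loi (q : Euc m →L[ℝ] Euc n) : ‖Loi q‖ ≤ 1 := (Gi_456.Loi_spec q).2.2

theorem Hy.foot_le (_h : Hy π ρ x r w X0 K l K1 K2 K3 hb) {z : Euc k}
    (hr : ‖(ch π ρ x r w X0).x z‖ ≤ Real.exp l) : ‖foot π ρ x r w z - X0‖ ≤ Real.exp l :=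
  (Gi_456.le_norm_Lo _ _).trans hr

theorem Hy.yyle (h : Hy π ρ x r w X0 K l K1 K2 K3 hb) {z : Euc k} (hz : z ∈ K) :
    ‖yy π ρ x r w z‖ ≤ 2 * r := (h.gr.norm_yy_lt (h.sub hz)).le

theorem Hy.inv (h : Hy π ρ x r w X0 K l K1 K2 K3 hb) {z : Euc k} (hz : z ∈ K) :
    Inv (fderiv ℝ w (foot π ρ x r w z)) (Yo w (foot π ρ x r w z) (yy π ρ x r w z))
      (ginv (fderiv ℝ w (foot π ρ x r w z))) (hinv (fderiv ℝ w (foot π ρ x r w z)))
      (Li w (foot π ρ x r w z) (yy π ρ x r w z)) := h.gr.inv _ (h.yyle hz)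

theorem Hy.q4 (h : Hy π ρ x r w X0 K l K1 K2 K3 hb) (z : Euc k) :
    ‖fderiv ℝ w (foot π ρ x r w z)‖ ≤ 1 / 4 := (h.gr.d1 _).trans (by norm_num)

theorem Hy.qK (h : Hy π ρ x r w X0 K l K1 K2 K3 hb) {z : Euc k}
    (hr : ‖(ch π ρ x r w X0).x z‖ ≤ Real.exp l) : ‖fderiv ℝ w (foot π ρ x r w z)‖ ≤ K1 :=
  h.k1 _ (h.foot_le hr)

theorem Hy.Y4 (h : Hy π ρ x r w X0 K l K1 K2 K3 hb) {z : Euc k} (hz : z ∈ K) :
    ‖Yo w (foot π ρ x r w z) (yy π ρ x r w z)‖ ≤ 1 / 4 := h.gr.norm_Yo_le _ (h.yyle hz)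

theorem Hy.Ys (h : Hy π ρ x r w X0 K l K1 K2 K3 hb) (z : Euc k) :
    adj (Yo w (foot π ρ x r w z) (yy π ρ x r w z)) = Yo w (foot π ρ x r w z) (yy π ρ x r w z) :=
  h.gr.Yo_adj _ _

/-- normalised height -/
def et (π : Euc k →L[ℝ] Euc m) (ρ : Euc k →L[ℝ] Euc n) (x : Euc k) (r : ℝ)
    (w : Euc m → Euc n) (X0 : Euc m) (l : ℝ) (z : Euc k) : ℝ :=
  ‖(ch π ρ x r w X0).nu z‖ * Real.exp (-l)

theorem et_nonneg (z : Euc k) : 0 ≤ et π ρ x r w X0 l z := by unfold et; positivity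

theorem exp_neg_mul (l : ℝ) : Real.exp (-l) * Real.exp l = 1 := by
  rw [← Real.exp_add]; simp

theorem et_mul (z : Euc k) : ‖(ch π ρ x r w X0).nu z‖ = et π ρ x r w X0 l z * Real.exp l := by
  rw [et, mul_assoc, exp_neg_mul, mul_one]

theorem et_le (h : Hy π ρ x r w X0 K l K1 K2 K3 hb) {z : Euc k} (hz : z ∈ K)
    (hr : ‖(ch π ρ x r w X0).x z‖ ≤ Real.exp l) : et π ρ x r w X0 l z ≤ hb := by
  have h1 := h.nu z hz hr
  rw [et_mul (l := l)] at h1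
  exact le_of_mul_le_mul_right h1 (Real.exp_pos l)

theorem qq_eq (z : Euc k) : GL_394.qq (ch π ρ x r w X0) l z = et π ρ x r w X0 l z ^ 2 := by
  have h1 : (ch π ρ x r w X0).f z = ‖(ch π ρ x r w X0).nu z‖ ^ 2 / 2 := rfl
  have h2 : Real.exp (-2 * l) = Real.exp (-l) ^ 2 := by
    rw [← Real.exp_nat_mul]; congr 1; push_cast; ring
  rw [GL_394.qq, h1, et, h2]
  ring

theorem norm_yy_le_nu (h : Hy π ρ x r w X0 K l K1 K2 K3 hb) (z : Euc k) :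
    ‖yy π ρ x r w z‖ ≤ et π ρ x r w X0 l z * Real.exp l := by
  rw [← et_mul]
  exact norm_le_BB (frame_fr h.fr) _

theorem Hy.YK (h : Hy π ρ x r w X0 K l K1 K2 K3 hb) {z : Euc k}
    (hr : ‖(ch π ρ x r w X0).x z‖ ≤ Real.exp l) :
    ‖Yo w (foot π ρ x r w z) (yy π ρ x r w z)‖ ≤ K2 * Real.exp l * et π ρ x r w X0 l z := by
  refine (Gi_456.norm_Yo_le w _ _).trans ?_
  calc _ ≤ K2 * (et π ρ x r w X0 l z * Real.exp l) :=
        mul_le_mul (h.k2 _ (h.foot_le hr)) (norm_yy_le_nu h z) (norm_nonneg _) h.K2n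
    _ = _ := by ring

theorem tau_eq (z : Euc k) (P : L k) : (ch π ρ x r w X0).tau z P =
    tau0 (adj π) (adj ρ) (fderiv ℝ w (foot π ρ x r w z)) (hinv (fderiv ℝ w (foot π ρ x r w z))) P :=
  rfl

theorem T_eq (p : Euc k × L k) : GL_394.T (ch π ρ x r w X0) p = Lo (fderiv ℝ w X0) ∘L
    (DX (adj π) (adj ρ) (fderiv ℝ w (foot π ρ x r w p.1)) (Li w (foot π ρ x r w p.1)
      (yy π ρ x r w p.1)) ∘L p.2 ∘L AA (adj π) (adj ρ) (fderiv ℝ w (foot π ρ x r w p.1))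
        (Yo w (foot π ρ x r w p.1) (yy π ρ x r w p.1))) ∘L Loi (fderiv ℝ w X0) := rfl

theorem trc_conj (q : Euc m →L[ℝ] Euc n) (A : L m) :
    trc (Euc m) (Lo q ∘L A ∘L Loi q) = trc (Euc m) A := by
  rw [trc_comp_comm, ContinuousLinearMap.comp_assoc, (Gi_456.Loi_spec q).1,
    ContinuousLinearMap.comp_id]

theorem cast_fin (m : ℕ) : (Module.finrank ℝ (Euc m) : ℝ) = m := by simp

theorem Hy.tau_nonneg (h : Hy π ρ x r w X0 K l K1 K2 K3 hb) {p : Euc k × L k}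
    (hp : p ∈ K ×ˢ G m k) : 0 ≤ (ch π ρ x r w X0).tau p.1 p.2 :=
  tau0_nonneg (frame_fr h.fr) (h.inv hp.1) (pj_of_mem hp.2)

theorem Hy.tau_le (h : Hy π ρ x r w X0 K l K1 K2 K3 hb) {p : Euc k × L k}
    (hp : p ∈ K ×ˢ G m k) : (ch π ρ x r w X0).tau p.1 p.2 ≤ m := by
  have := tau0_le (frame_fr h.fr) (h.inv hp.1) (pj_of_mem hp.2)
  rwa [cast_fin] at this

theorem Hy.f1 (h : Hy π ρ x r w X0 K l K1 K2 K3 hb) {p : Euc k × L k}
    (hp : p ∈ K ×ˢ G m k) (hr : ‖(ch π ρ x r w X0).x p.1‖ ≤ Real.exp l) :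
    |(ch π ρ x r w X0).tau p.1 p.2 - (m - tr (GL_394.T (ch π ρ x r w X0) p))| ≤
      2 * n * cc K1 (K2 * Real.exp l) (K3 * Real.exp (2 * l)) *
        ((ch π ρ x r w X0).tau p.1 p.2 + GL_394.qq (ch π ρ x r w X0) l p.1) := by
  have h1 := abs_k1 (frame_fr h.fr) (h.inv hp.1) (pj_of_mem hp.2) (h.q4 p.1) (h.Y4 hp.1)
  rw [cast_fin, cast_fin] at h1
  have e : tr (GL_394.T (ch π ρ x r w X0) p) = trc (Euc m)
      (DX (adj π) (adj ρ) (fderiv ℝ w (foot π ρ x r w p.1)) (Li w (foot π ρ x r w p.1)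
      (yy π ρ x r w p.1)) ∘L p.2 ∘L AA (adj π) (adj ρ) (fderiv ℝ w (foot π ρ x r w p.1))
        (Yo w (foot π ρ x r w p.1) (yy π ρ x r w p.1))) := by
    rw [T_eq, tr_eq_trc, trc_conj]
  rw [e, tau_eq, qq_eq]
  exact kb1 (Nat.cast_nonneg n) h.K1n h.a2n h.a3n (et_nonneg _) (Real.sqrt_nonneg _)
    (Real.sq_sqrt (h.tau_nonneg hp)) (norm_nonneg _) (h.qK hr) (norm_nonneg _) (h.YK hr) h1

theorem Hy.f2 (h : Hy π ρ x r w X0 K l K1 K2 K3 hb) {p : Euc k × L k}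
    (hp : p ∈ K ×ˢ G m k) (hr : ‖(ch π ρ x r w X0).x p.1‖ ≤ Real.exp l) :
    ‖ContinuousLinearMap.id ℝ (Euc m) - GL_394.T (ch π ρ x r w X0) p‖ ≤
      8 * ((ch π ρ x r w X0).tau p.1 p.2 + GL_394.qq (ch π ρ x r w X0) l p.1) := by
  have h1 := norm_k2 (frame_fr h.fr) (h.inv hp.1) (pj_of_mem hp.2) (h.q4 p.1) (h.Y4 hp.1)
  set T0 := DX (adj π) (adj ρ) (fderiv ℝ w (foot π ρ x r w p.1)) (Li w (foot π ρ x r w p.1)
      (yy π ρ x r w p.1)) ∘L p.2 ∘L AA (adj π) (adj ρ) (fderiv ℝ w (foot π ρ x r w p.1))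
        (Yo w (foot π ρ x r w p.1) (yy π ρ x r w p.1)) with hT0
  have e : ContinuousLinearMap.id ℝ (Euc m) - GL_394.T (ch π ρ x r w X0) p =
      Lo (fderiv ℝ w X0) ∘L (ContinuousLinearMap.id ℝ (Euc m) - T0) ∘L Loi (fderiv ℝ w X0) := by
    rw [T_eq, ← hT0, ContinuousLinearMap.sub_comp, ContinuousLinearMap.comp_sub,
      ContinuousLinearMap.id_comp, (Gi_456.Loi_spec _).2.1]
  have h2 : ‖ContinuousLinearMap.id ℝ (Euc m) - GL_394.T (ch π ρ x r w X0) p‖ ≤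
      65 / 64 * (4 * ((ch π ρ x r w X0).tau p.1 p.2 +
        ‖Yo w (foot π ρ x r w p.1) (yy π ρ x r w p.1)‖ ^ 2)) := by
    rw [e]
    have h3 := ncomp (norm_Lo h) (ncomp h1 (norm_Loi (fderiv ℝ w X0)))
    rw [mul_one] at h3
    exact h3
  rw [qq_eq]
  exact kb2 h.a2n h.a2le (et_nonneg _) (h.tau_nonneg hp) (norm_nonneg _) (h.YK hr) (by norm_num)
    (by norm_num) h2

theorem msb_eq (X : Euc m) : msb (EuclideanSpace.basisFun (Fin m) ℝ) w X = Msys w X := by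
  simp [msb, Msys, stdVec]

theorem Hy.min' (h : Hy π ρ x r w X0 K l K1 K2 K3 hb) {X : Euc m} (hX : ‖X - X0‖ ≤ Real.exp l) :
    ∀ᶠ X' in 𝓝 X, msb (EuclideanSpace.basisFun (Fin m) ℝ) w X' = 0 := by
  filter_upwards [h.min X hX] with X' hX'
  rw [msb_eq, hX']

theorem Hy.trY (h : Hy π ρ x r w X0 K l K1 K2 K3 hb) {X : Euc m} (hX : ‖X - X0‖ ≤ Real.exp l)
    (y : Euc n) : trc (Euc m) (ginv (fderiv ℝ w X) ∘L Yo w X y) = 0 :=
  trc_gi_Yop_zero (EuclideanSpace.basisFun (Fin m) ℝ)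
    (h.gr.cd.contDiffAt.of_le (by norm_num)) (h.min' hX).self_of_nhds y

theorem Hy.f4 (h : Hy π ρ x r w X0 K l K1 K2 K3 hb) {p : Euc k × L k}
    (hp : p ∈ K ×ˢ G m k) (hr : ‖(ch π ρ x r w X0).x p.1‖ ≤ Real.exp l) :
    |tr ((ch π ρ x r w X0).H p.1 ∘L p.2) - (ch π ρ x r w X0).tau p.1 p.2| ≤
      3 * m * cc K1 (K2 * Real.exp l) (K3 * Real.exp (2 * l)) *
        GL_394.qq (ch π ρ x r w X0) l p.1 +
      3 * m * dd (K2 * Real.exp l) (K3 * Real.exp (2 * l)) hb *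
        (ch π ρ x r w X0).tau p.1 p.2 := by
  have h1 := abs_k4 (frame_fr h.fr) (h.inv hp.1) (pj_of_mem hp.2) (h.q4 p.1) (h.Y4 hp.1)
    (h.trY (h.foot_le hr) _)
  rw [cast_fin] at h1
  rw [qq_eq]
  exact kb4 (Nat.cast_nonneg m) h.K1n h.a2n h.a3n (et_nonneg _) (et_le h hp.1 hr)
    (h.tau_nonneg hp) (norm_nonneg _) (h.YK hr) h1

/-- the vector `Lo† x` -/
def xa (π : Euc k →L[ℝ] Euc m) (ρ : Euc k →L[ℝ] Euc n) (x : Euc k) (r : ℝ)
    (w : Euc m → Euc n) (X0 : Euc m) (z : Euc k) : Euc m :=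
  adj (Lo (fderiv ℝ w X0)) (Lo (fderiv ℝ w X0) (foot π ρ x r w z - X0))

theorem norm_xa (h : Hy π ρ x r w X0 K l K1 K2 K3 hb) {z : Euc k}
    (hr : ‖(ch π ρ x r w X0).x z‖ ≤ Real.exp l) : ‖xa π ρ x r w X0 z‖ ≤ 2 * Real.exp l := by
  refine (ContinuousLinearMap.le_opNorm _ _).trans ?_
  calc _ ≤ 65 / 64 * Real.exp l :=
        mul_le_mul (norm_adj_Lo h) hr (norm_nonneg _) (by norm_num)
    _ ≤ _ := by have := Real.exp_pos l; linarith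

theorem xi_eq (z : Euc k) : GL_394.xi (ch π ρ x r w X0) z =
    adj (DX (adj π) (adj ρ) (fderiv ℝ w (foot π ρ x r w z)) (Li w (foot π ρ x r w z)
      (yy π ρ x r w z))) (xa π ρ x r w X0 z) := by
  show adj (Lo (fderiv ℝ w X0) ∘L dft π ρ x r w z)
    (Lo (fderiv ℝ w X0) (foot π ρ x r w z - X0)) = _
  rw [ContinuousLinearMap.adjoint_comp]
  rfl

theorem zeta_eq0 (z : Euc k) : GL_394.zeta (ch π ρ x r w X0) z =
    (adj (DX (adj π) (adj ρ) (fderiv ℝ w (foot π ρ x r w z)) (Li w (foot π ρ x r w z)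
      (yy π ρ x r w z))) - AA (adj π) (adj ρ) (fderiv ℝ w (foot π ρ x r w z))
        (Yo w (foot π ρ x r w z) (yy π ρ x r w z)) ∘L ginv (fderiv ℝ w (foot π ρ x r w z)))
      (xa π ρ x r w X0 z) := by
  rw [GL_394.zeta, xi_eq, _root_.sub_apply]
  congr 1
  have e1 : (ch π ρ x r w X0).gi ((ch π ρ x r w X0).x z) ((ch π ρ x r w X0).x z) =
      Lo (fderiv ℝ w X0) (ginv (fderiv ℝ w (foot π ρ x r w z)) (xa π ρ x r w X0 z)) := by
    have e2 : pt w X0 ((ch π ρ x r w X0).x z) = foot π ρ x r w z := by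
      show X0 + Loi (fderiv ℝ w X0) (Lo (fderiv ℝ w X0) (foot π ρ x r w z - X0)) = _
      rw [Gi_456.Loi_Lo]; abel
    show Lo (fderiv ℝ w X0) (ginv (fderiv ℝ w (pt w X0 ((ch π ρ x r w X0).x z)))
      (adj (Lo (fderiv ℝ w X0)) ((ch π ρ x r w X0).x z))) = _
    rw [e2]
    rfl
  rw [e1]
  show At π ρ w (foot π ρ x r w z) (yy π ρ x r w z) (Loi (fderiv ℝ w X0)
    (Lo (fderiv ℝ w X0) (ginv (fderiv ℝ w (foot π ρ x r w z)) (xa π ρ x r w X0 z)))) = _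
  rw [Gi_456.Loi_Lo]
  rfl

theorem zN_eq (z : Euc k) : zN π ρ x r w X0 z =
    Nz (adj π) (adj ρ) (fderiv ℝ w (foot π ρ x r w z)) (hinv (fderiv ℝ w (foot π ρ x r w z)))
    (Yo w (foot π ρ x r w z) (yy π ρ x r w z)) (ginv (fderiv ℝ w (foot π ρ x r w z)))
    (xa π ρ x r w X0 z) := rfl

theorem zeta_sub (h : Hy π ρ x r w X0 K l K1 K2 K3 hb) {z : Euc k} (hz : z ∈ K) :
    GL_394.zeta (ch π ρ x r w X0) z - zN π ρ x r w X0 z =
      A0 (adj π) (adj ρ) (fderiv ℝ w (foot π ρ x r w z))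
        (Wz (Yo w (foot π ρ x r w z) (yy π ρ x r w z)) (ginv (fderiv ℝ w (foot π ρ x r w z)))
          (Li w (foot π ρ x r w z) (yy π ρ x r w z)) (xa π ρ x r w X0 z)) := by
  rw [zeta_eq0, zeta_eq (h.inv hz) (h.Ys z), zN_eq, _root_.add_apply, add_sub_cancel_right]
  rfl

theorem Hy.f5 (h : Hy π ρ x r w X0 K l K1 K2 K3 hb) {z : Euc k}
    (hz : z ∈ K) (hr : ‖(ch π ρ x r w X0).x z‖ ≤ Real.exp l) :
    ‖zN π ρ x r w X0 z‖ ≤ 3 * cc K1 (K2 * Real.exp l) (K3 * Real.exp (2 * l)) *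
      ‖(ch π ρ x r w X0).nu z‖ := by
  have h1 : ‖zN π ρ x r w X0 z‖ ≤ 5 / 4 * (‖fderiv ℝ w (foot π ρ x r w z)‖ *
      ‖Yo w (foot π ρ x r w z) (yy π ρ x r w z)‖) * ‖xa π ρ x r w X0 z‖ := by
    rw [zN_eq]
    refine (ContinuousLinearMap.le_opNorm _ _).trans ?_
    gcongr
    exact norm_Nz (frame_fr h.fr) (h.inv hz) (h.q4 z)
  exact kb5 h.K1n h.a2n h.a3n (Real.exp_pos l) (et_nonneg _) (norm_nonneg _) (h.qK hr)
    (norm_nonneg _) (h.YK hr) (norm_nonneg _) (norm_xa h hr) (et_mul z) h1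

theorem exp_sq (l : ℝ) : Real.exp l ^ 2 = Real.exp (2 * l) := by
  rw [← Real.exp_nat_mul]; norm_num

theorem Hy.f5a (h : Hy π ρ x r w X0 K l K1 K2 K3 hb) {p : Euc k × L k}
    (hp : p ∈ K ×ˢ G m k) (hr : ‖(ch π ρ x r w X0).x p.1‖ ≤ Real.exp l) :
    |⟪GL_394.xi (ch π ρ x r w X0) p.1 - p.2 (GL_394.xi (ch π ρ x r w X0) p.1),
      GL_394.zeta (ch π ρ x r w X0) p.1 - zN π ρ x r w X0 p.1⟫_ℝ| ≤
      28 * dd (K2 * Real.exp l) (K3 * Real.exp (2 * l)) hb *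
        (Real.exp (2 * l) * (ch π ρ x r w X0).tau p.1 p.2) := by
  rw [zeta_sub h hp.1, xi_eq]
  have h1 := abs_k5a (frame_fr h.fr) (h.inv hp.1) (h.Ys p.1) (pj_of_mem hp.2) (h.q4 p.1)
    (h.Y4 hp.1) (xa π ρ x r w X0 p.1)
  have h2 := kb5a h.a2n h.a3n (Real.exp_pos l) (et_nonneg _) (et_le h hp.1 hr)
    (h.tau_nonneg hp) (norm_nonneg _) (h.YK hr) (norm_nonneg _) (norm_xa h hr) h1
  rw [exp_sq] at h2
  exact h2

theorem Hy.f5b (h : Hy π ρ x r w X0 K l K1 K2 K3 hb) {p : Euc k × L k}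
    (hp : p ∈ K ×ˢ G m k) (hr : ‖(ch π ρ x r w X0).x p.1‖ ≤ Real.exp l) :
    |⟪(ch π ρ x r w X0).nu p.1, p.2 (GL_394.zeta (ch π ρ x r w X0) p.1)⟫_ℝ| ≤
      Real.exp (2 * l) * (3 * cc K1 (K2 * Real.exp l) (K3 * Real.exp (2 * l)) *
        GL_394.qq (ch π ρ x r w X0) l p.1 +
      5 * dd (K2 * Real.exp l) (K3 * Real.exp (2 * l)) hb *
        ((ch π ρ x r w X0).tau p.1 p.2 + GL_394.qq (ch π ρ x r w X0) l p.1)) := by
  rw [zeta_eq0, qq_eq]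
  have h1 := abs_k5b (frame_fr h.fr) (h.inv hp.1) (h.Ys p.1) (pj_of_mem hp.2) (h.q4 p.1)
    (h.Y4 hp.1) (xa π ρ x r w X0 p.1) (yy π ρ x r w p.1)
  have h2 := kb5b h.K1n h.a2n h.a3n (Real.exp_pos l) (et_nonneg _) (et_le h hp.1 hr)
    (Real.sqrt_nonneg _) (Real.sq_sqrt (h.tau_nonneg hp)) (norm_nonneg _) (h.qK hr)
    (norm_nonneg _) (h.YK hr) (norm_nonneg _) (norm_xa h hr) (norm_nonneg _)
    (norm_yy_le_nu h p.1) (et_mul p.1) h1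
  rw [exp_sq] at h2
  exact h2

/-! ### continuity of `zN` -/

theorem continuousAt_hinv (q : Euc m →L[ℝ] Euc n) :
    ContinuousAt (hinv : (Euc m →L[ℝ] Euc n) → (Euc n →L[ℝ] Euc n)) q := by
  obtain ⟨X, h1, h2, -⟩ := exists_inv_of_le (T := hh q) one_pos (fun v => by
    rw [one_mul]; exact le_hh q v)
  have e : (hh q : Euc n →L[ℝ] Euc n) = ((⟨hh q, X, h2, h1⟩ : (Euc n →L[ℝ] Euc n)ˣ) :
      Euc n →L[ℝ] Euc n) := rfl
  have h3 : ContinuousAt (Ring.inverse : (Euc n →L[ℝ] Euc n) → (Euc n →L[ℝ] Euc n)) (hh q) := by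
    rw [e]
    exact NormedRing.inverse_continuousAt _
  have h4 : ContinuousAt (hh : (Euc m →L[ℝ] Euc n) → (Euc n →L[ℝ] Euc n)) q := by
    have h5 : Continuous (hh : (Euc m →L[ℝ] Euc n) → (Euc n →L[ℝ] Euc n)) := by
      have h6 : Continuous fun q : Euc m →L[ℝ] Euc n => adj q := by
        exact (ContinuousLinearMap.adjoint (𝕜 := ℝ) (E := Euc m) (F := Euc n)).continuous
      exact continuous_const.add (continuous_id.clm_comp h6)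
    exact h5.continuousAt
  exact h3.comp h4

theorem Hy.continuousOn_zN (h : Hy π ρ x r w X0 K l K1 K2 K3 hb) :
    ContinuousOn (zN π ρ x r w X0) K := by
  intro z hz
  refine ContinuousAt.continuousWithinAt ?_
  have hz' := h.sub hz
  have c1 : ContinuousAt (fun z => fderiv ℝ w (foot π ρ x r w z)) z :=
    (h.gr.contDiffAt_dw h.fr hz').continuousAt
  have c2 : ContinuousAt (fun z => Bt π ρ w (foot π ρ x r w z)) z :=
    (h.gr.contDiffAt_Bt h.fr hz').continuousAt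
  have c3 : ContinuousAt (fun z => Yo w (foot π ρ x r w z) (yy π ρ x r w z)) z :=
    (h.gr.contDiffAt_Yo h.fr hz').continuousAt
  have c4 : ContinuousAt (fun z => hinv (fderiv ℝ w (foot π ρ x r w z))) z :=
    (continuousAt_hinv _).comp (f := fun z => fderiv ℝ w (foot π ρ x r w z)) c1
  have c5 : ContinuousAt (fun z => ginv (fderiv ℝ w (foot π ρ x r w z))) z :=
    (Ell1_3.ginv_contDiff (F := Euc m) (V := Euc n)).continuous.continuousAt.comp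
      (f := fun z => fderiv ℝ w (foot π ρ x r w z)) c1
  have c6 : ContinuousAt (fun z => foot π ρ x r w z - X0) z :=
    (h.gr.contDiffAt_foot h.fr hz').continuousAt.sub continuousAt_const
  have c7 : ContinuousAt (fun z => adj (Lo (fderiv ℝ w X0)) (Lo (fderiv ℝ w X0)
      (foot π ρ x r w z - X0))) z :=
    ((adj (Lo (fderiv ℝ w X0))).continuous.comp (Lo (fderiv ℝ w X0)).continuous).continuousAt.comp
      (f := fun z => foot π ρ x r w z - X0) c6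
  have c8 := ((c2.clm_comp (c4.clm_comp (c1.clm_comp (c3.clm_comp c5)))).neg).clm_apply c7
  exact c8

end Crest.Agent.R234.GLK_128
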