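import Crest.Agent.R234.F10w_188
import Crest.Agent.R234.Fd1_534
import Crest.Agent.R234.End6_395
import Crest.Agent.R234.Mx17_397
import Crest.Agent.R234.Lk1_456
import Crest.Agent.R234.Swb7_159
import Crest.Agent.R234.GLK6_128
import Crest.Agent.R234.GL7_394

/-!
# R234 / Mv1_504 : monotonicity (`MonV`) of the functionals of a
reference (inputs of the START of 188)
-/

set_option autoImplicit false

open MeasureTheory Filter Topology Set
open scoped ENNReal NNReal ContDiff InnerProductSpace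
open Crest.GeometryTopology.Submanifold Crest.Agent.R234.Vf_884
open Crest.Agent.R234.Main_456 (Frame Msys hgt)
open Crest.Agent.R234.MG_570 (MG)
open Crest.Agent.R234.Stp_518 Crest.Agent.R234.Gi_456 Crest.Agent.R234.GL_394
open Crest.Agent.R234.GI_640 (g3 g31 g32)

noncomputable section

namespace Crest.Agent.R234.Mv_504

variable {m n k : ℕ}

/-! ### the graph of a reference of the class `MG` -/

/-- second derivative in ambient scale -/
theorem fderiv2_amb {S : ℝ} (hS : 0 < S) {u : Euc m → Euc n} (hu : ContDiff ℝ 2 u)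
    (X : Euc m) : ‖fderiv ℝ (fderiv ℝ (fun X => S • u (S⁻¹ • X))) X‖ ≤
      S⁻¹ * ‖fderiv ℝ (fderiv ℝ u) (S⁻¹ • X)‖ := by
  have hu1 : Differentiable ℝ u := hu.differentiable (by norm_num)
  have hu2 : Differentiable ℝ (fderiv ℝ u) :=
    (hu.fderiv_right (m := 1) (by norm_num)).differentiable (by norm_num)
  have h1 : fderiv ℝ (fun X => S • u (S⁻¹ • X)) = fun X => fderiv ℝ u (S⁻¹ • X) :=
    funext fun X => Swb_159.fderiv_amb hS.ne' hu1 X
  rw [h1]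
  have h2 : HasFDerivAt (fun X : Euc m => S⁻¹ • X) (S⁻¹ • ContinuousLinearMap.id ℝ (Euc m)) X :=
    (hasFDerivAt_id X).const_smul S⁻¹
  have h3 : HasFDerivAt (fun X => fderiv ℝ u (S⁻¹ • X))
      ((fderiv ℝ (fderiv ℝ u) (S⁻¹ • X)) ∘L (S⁻¹ • ContinuousLinearMap.id ℝ (Euc m))) X :=
    (hu2 (S⁻¹ • X)).hasFDerivAt.comp X h2
  rw [h3.fderiv]
  refine (ContinuousLinearMap.opNorm_comp_le _ _).trans ?_
  rw [norm_smul, Real.norm_of_nonneg (by positivity), mul_comm]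
  apply mul_le_mul_of_nonneg_right _ (norm_nonneg _)
  have := ContinuousLinearMap.norm_id_le (𝕜 := ℝ) (E := Euc m)
  have hS' : 0 ≤ S⁻¹ := by positivity
  nlinarith

/-- **class `MG` gives `Gr`**, with the bounds of the derivatives. -/
theorem exists_gr (m n N : ℕ) (hN : 2 ≤ N) : ∃ C : ℝ, 1 ≤ C ∧
    ∀ (κ r S : ℝ) (u : Euc m → Euc n), 0 < S → 0 ≤ κ → C * κ ≤ 1 / 8 → MG N κ r u →
      Gr S (fun X => S • u (S⁻¹ • X)) ∧
      (∀ X, ‖u X‖ ≤ C * κ) ∧ (∀ X, ‖fderiv ℝ u X‖ ≤ C * κ) ∧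
      (∀ X, ‖fderiv ℝ (fun X => S • u (S⁻¹ • X)) X‖ ≤ C * κ) ∧
      (∀ X, S * ‖fderiv ℝ (fderiv ℝ (fun X => S • u (S⁻¹ • X))) X‖ ≤ C * κ) := by
  obtain ⟨C, hC, h⟩ := Mx17_397.bdP m n N
  refine ⟨max C 1, le_max_right _ _, fun κ r S u hS hκ hκ8 hu => ?_⟩
  obtain ⟨hcd, hb⟩ := h κ r u hu
  have hcd4 : ContDiff ℝ 4 u := hcd.of_le (by
    have h4 : (4 : ℕ) ≤ N + 2 := by lia
    have h5 : ((4 : ℕ) : ℕ∞) ≤ ((N + 2 : ℕ) : ℕ∞) := by exact_mod_cast h4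
    have h6 : (((4 : ℕ) : ℕ∞) : WithTop ℕ∞) ≤ (((N + 2 : ℕ) : ℕ∞) : WithTop ℕ∞) :=
      WithTop.coe_le_coe.2 h5
    simpa using h6)
  have hCκ : C * κ ≤ max C 1 * κ := mul_le_mul_of_nonneg_right (le_max_left _ _) hκ
  have hS' : 0 < S⁻¹ := by positivity
  have b0 : ∀ X, ‖u X‖ ≤ max C 1 * κ := fun X => by
    have := hb 0 (by lia) X
    rw [norm_iteratedFDeriv_zero] at this
    exact this.trans hCκ
  have b1 : ∀ X, ‖fderiv ℝ u X‖ ≤ max C 1 * κ := fun X => by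
    have := hb 1 (by lia) X
    rw [norm_iteratedFDeriv_one] at this
    exact this.trans hCκ
  have b2 : ∀ X, ‖fderiv ℝ (fderiv ℝ u) X‖ ≤ max C 1 * κ := fun X => by
    have h1 := hb 2 (by lia) X
    have h2 : ‖fderiv ℝ (fderiv ℝ u) X‖ = ‖iteratedFDeriv ℝ 2 u X‖ := by
      rw [← norm_iteratedFDeriv_one (f := fderiv ℝ u), norm_iteratedFDeriv_fderiv]
    rw [h2]
    exact h1.trans hCκ
  have hu1 : Differentiable ℝ u := hcd4.differentiable (by norm_num)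
  have d1 : ∀ X, ‖fderiv ℝ (fun X => S • u (S⁻¹ • X)) X‖ ≤ max C 1 * κ := fun X => by
    have e := Swb_159.fderiv_amb hS.ne' hu1 X
    have e' : fderiv ℝ (fun X => S • u (S⁻¹ • X)) X = fderiv ℝ u (S⁻¹ • X) := e
    rw [e']
    exact b1 _
  have d2 : ∀ X, ‖fderiv ℝ (fderiv ℝ (fun X => S • u (S⁻¹ • X))) X‖ ≤ S⁻¹ * (max C 1 * κ) :=
    fun X => (fderiv2_amb hS (hcd4.of_le (by norm_num)) X).trans
      (mul_le_mul_of_nonneg_left (b2 _) hS'.le)
  refine ⟨⟨hS, ?_, fun X => (d1 X).trans hκ8, fun X => (d2 X).trans ?_⟩, b0, b1, d1, fun X => ?_⟩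
  · exact (hcd4.comp (contDiff_const_smul S⁻¹)).const_smul S
  · calc S⁻¹ * (max C 1 * κ) ≤ S⁻¹ * (1 / 8) := mul_le_mul_of_nonneg_left hκ8 hS'.le
      _ = 1 / (8 * S) := by field_simp
  · calc S * ‖fderiv ℝ (fderiv ℝ (fun X => S • u (S⁻¹ • X))) X‖ ≤ S * (S⁻¹ * (max C 1 * κ)) :=
        mul_le_mul_of_nonneg_left (d2 X) hS.le
      _ = max C 1 * κ := by field_simp

/-! ### monotonicity -/

section mono
variable {M : Mo m n k} {x : Euc k} {V : Measure (Euc k × L k)} {U : Set (Euc k)}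

theorem half_lt {S : ℝ} (hS : 0 < S) : 65 / 64 * (S / 2) < S := by linarith

theorem ok_reg (hf : Frame M.π M.ρ) (hg : Gr M.S M.w) : Ok (M.ch x) (M.reg x) univ :=
  hg.ok hf 0 (hg.isCompact_Kc 0 _ _) (hg.Kc_subset hf 0 (half_lt M.S_pos))

theorem reg_subset (hf : Frame M.π M.ρ) (hg : Gr M.S M.w) (h0 : ‖M.u 0‖ ≤ 1) :
    M.reg x ⊆ Metric.closedBall x (4 * M.S) := by
  refine (hg.Kc_subset_closedBall hf 0 (half_lt M.S_pos)).trans ?_
  refine Metric.closedBall_subset_closedBall' ?_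
  have hS := M.S_pos
  have h1 : dist (pm M.π M.ρ x M.w 0) x ≤ M.S := by
    have h2 : pm M.π M.ρ x M.w 0 - x = ContinuousLinearMap.adjoint M.ρ (M.w 0) := by
      unfold pm
      rw [map_zero]
      abel
    rw [dist_eq_norm, h2, norm_adj_rho hf]
    have h3 : M.w 0 = M.S • M.u 0 := by simp [Mo.w]
    rw [h3, norm_smul, Real.norm_of_nonneg hS.le]
    nlinarith
  linarith

theorem on_reg (hf : Frame M.π M.ρ) (hg : Gr M.S M.w) (h0 : ‖M.u 0‖ ≤ 1) (hV : Stat m k U V)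
    (hU : Metric.closedBall x (4 * M.S) ⊆ U) : On (M.VM x V) m (M.reg x) where
  fin := by
    refine ⟨?_⟩
    rw [Mo.VM, VK, Measure.restrict_apply_univ]
    exact hV.fin _ (hg.isCompact_Kc 0 _ _) ((reg_subset hf hg h0).trans hU)
  mem := by
    have hm : MeasurableSet (M.reg x ×ˢ (univ : Set (L k))) :=
      (hg.isCompact_Kc 0 _ _).isClosed.measurableSet.prod MeasurableSet.univ
    rw [Mo.VM, VK]
    filter_upwards [ae_restrict_mem hm, ae_restrict_of_ae hV.conc] with p h1 h2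
    exact ⟨h1.1, h2⟩

theorem tau_nonneg (hf : Frame M.π M.ρ) (hg : Gr M.S M.w) {p : Euc k × L k}
    (hp : p ∈ M.reg x ×ˢ G m k) : 0 ≤ (M.ch x).tau p.1 p.2 := by
  have h1 : p.1 ∈ tube M.π M.ρ x M.S M.w := hg.Kc_subset hf 0 (half_lt M.S_pos) hp.1
  have H := hg.inv (foot M.π M.ρ x M.S M.w p.1) (Y := yy M.π M.ρ x M.S M.w p.1)
    (hg.norm_yy_lt h1).le
  exact GLK_128.tau0_nonneg (frame_fr hf) H (GLK_128.pj_of_mem hp.2)

theorem I_nonneg (hf : Frame M.π M.ρ) (hg : Gr M.S M.w) (ho : On (M.VM x V) m (M.reg x)) (l : ℝ) :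
    0 ≤ M.I x V l :=
  GL_394.II_nonneg (ok_reg hf hg) ho GL_394.pf_cubic.pr.anti l

theorem I_mono (hf : Frame M.π M.ρ) (hg : Gr M.S M.w) (ho : On (M.VM x V) m (M.reg x)) {l l' : ℝ}
    (hl : l ≤ l') : M.I x V l ≤ Real.exp (m * (l' - l)) * M.I x V l' :=
  Fd_534.II_mono (ok_reg hf hg) ho GL_394.pf_cubic.pr (fun t ht => by
    unfold g32
    positivity) hl

theorem e_nonneg (hf : Frame M.π M.ρ) (hg : Gr M.S M.w) (ho : On (M.VM x V) m (M.reg x)) (l : ℝ) :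
    0 ≤ M.e x V l :=
  Fd_534.ee_nonneg ho GL_394.pf_cubic.pr (fun _ hp => tau_nonneg hf hg hp) l

theorem e_mono' (hf : Frame M.π M.ρ) (hg : Gr M.S M.w) (ho : On (M.VM x V) m (M.reg x)) {l l' : ℝ}
    (hl : l ≤ l') : M.e x V l ≤ Real.exp ((m - 2) * (l' - l)) * M.e x V l' :=
  Fd_534.ee_mono (ok_reg hf hg) ho GL_394.pf_cubic.pr (fun _ hp => tau_nonneg hf hg hp) hl

theorem e_mono (hf : Frame M.π M.ρ) (hg : Gr M.S M.w) (ho : On (M.VM x V) m (M.reg x)) {l l' : ℝ}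
    (hl : l ≤ l') : M.e x V l ≤ Real.exp (m * (l' - l)) * M.e x V l' := by
  refine (e_mono' hf hg ho hl).trans ?_
  refine mul_le_mul_of_nonneg_right (Real.exp_le_exp.2 ?_) (e_nonneg hf hg ho l')
  exact mul_le_mul_of_nonneg_right (by linarith) (by linarith)

/-- **MONO-I** (518): positivity propagates upwards. -/
theorem I_pos (hf : Frame M.π M.ρ) (hg : Gr M.S M.w) (ho : On (M.VM x V) m (M.reg x)) {l l' : ℝ}
    (hl : l ≤ l') (h : 0 < M.I x V l) : 0 < M.I x V l' := by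
  have h1 := I_mono hf hg ho hl
  by_contra h2
  push Not at h2
  have := mul_nonpos_of_nonneg_of_nonpos (Real.exp_pos (m * (l' - l))).le h2
  linarith

end mono

/-- **everything about a reference of the class `MG` with small norm**: `κ₁ = κ₁(m, n, N)`. -/
theorem exists_mo (m n N : ℕ) (hN : 2 ≤ N) : ∃ κ₁ : ℝ, 0 < κ₁ ∧ κ₁ ≤ 1 ∧
    ∀ {k : ℕ} (M : Mo m n k) (r : ℝ), 0 ≤ M.κ → M.κ ≤ κ₁ → MG N M.κ r M.u →
      Gr M.S M.w ∧ ‖M.u 0‖ ≤ 1 / 8 := by
  obtain ⟨C, hC, h⟩ := exists_gr m n N hN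
  refine ⟨1 / (8 * C), by positivity, ?_, fun M r h0 h1 hu => ?_⟩
  · rw [div_le_one (by positivity)]
    linarith
  · have h2 : C * M.κ ≤ 1 / 8 := by
      rw [le_div_iff₀ (by positivity)] at h1
      linarith
    obtain ⟨e1, e2, -⟩ := h M.κ r M.S M.u M.S_pos h0 h2 hu
    exact ⟨e1, (e2 0).trans h2⟩

/-- **`MonV`** (188) -/
theorem monV : F10w_188.MonV := by
  intro m n k N Q Λ hm hN
  obtain ⟨κ₁, hκ₁, hκ1, h⟩ := exists_mo m n N hN
  refine ⟨κ₁, 1, hκ₁, one_pos, fun U D x ε₀ M l hb hκ _ l₁ l₂ h12 _ => ?_⟩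
  obtain ⟨hg, h0⟩ := h M _ hb.κ0 hκ hb.mg
  have hf := hb.pack.frame
  have hst : Stat m k U (VD D) := stat_VD hb.int hb.st
  have ho : On (M.VM x (VD D)) m (M.reg x) := on_reg hf hg (h0.trans (by norm_num)) hst
    ((Metric.closedBall_subset_closedBall (by
      have := M.S_pos
      linarith)).trans hb.sub)
  exact ⟨I_mono hf hg ho h12, e_mono hf hg ho h12, e_nonneg hf hg ho l₁⟩

end Crest.Agent.R234.Mv_504
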