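import Crest.Agent.R234.Skel3_884
import Crest.Agent.R234.F10w_188

/-!
R234 (helper685): ASSEMBLY of `Skel3_884.ThyAll` = choice of all constants of the frequency chain.

Order of the constants: `m n`, `Ks` (tests), `K ≥ Ks` (order of `Ref`), `Q`, `N` (class), `T`
(blocks), `c₀` (flatness collar), `G CK P K₀ k` (given by the STEP, arbitrary for the others), `κ₀`
small, `L₁` large, `Λ₀` large, `om` small; then `U D x r₁` with `Env m U D Q x om r₁`.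
-/

set_option autoImplicit false

open MeasureTheory Filter Topology Set
open scoped ENNReal NNReal

namespace Crest.Agent.R234.Thya_685

open Crest.GeometryTopology.Submanifold Crest.Agent.R234.Vf_884
open Crest.Agent.R234.Main_456
open Crest.Agent.R234.F10a_188 Crest.Agent.R234.F10b_188 Crest.Agent.R234.F10d_188
open Crest.Agent.R234.Stp_518

noncomputable section

/-- all constants of the chain -/
structure Dt where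
  N : ℕ
  Ks : ℕ
  T : ℝ
  c₀ : ℝ
  G : ℝ
  CK : ℝ
  P : ℝ
  K₀ : ℝ
  k : Cst
  κ₀ : ℝ
  L₁ : ℝ
  Λ₀ : ℝ
  om : ℝ

namespace Dt

/-- constants of the class of states -/
def c (d : Dt) : Cn := ⟨d.N, d.Ks, d.T, d.κ₀, d.L₁, d.G, d.CK⟩

/-- bound of the normalised curvature -/
def κm (d : Dt) : ℝ := d.κ₀ * Real.exp (-(4 / 5 * (d.T + 1)))

variable {m n : ℕ}

/-- the world -/
def W (d : Dt) (D : VarifoldData m (m + n)) (Q : ℕ) (x : Euc (m + n)) : World (Mo m n (m + n)) :=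
  world d.c d.k d.κm (VD D) Q x

/-- flatness -/
def fl (d : Dt) (D : VarifoldData m (m + n)) (x : Euc (m + n)) (r₁ : ℝ) : ℝ → Prop :=
  flatL m (VD D) x d.om d.c₀ r₁

/-- the constant `P` of the start -/
def P' (d : Dt) : ℝ := d.P * Real.exp (2 * d.k.b * d.κm + 4 * d.k.A / d.Λ₀)

end Dt

/-- `Φ` (arguments: `K Q d`) holds for all constants, in the order of the header (everything given). -/
def Ev (Φ : ℕ → ℕ → Dt → Prop) : Prop :=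
  ∃ Ks₀ : ℕ, ∀ Ks : ℕ, Ks₀ ≤ Ks → ∀ K : ℕ, Ks ≤ K → ∀ Q : ℕ, 2 ≤ Q →
    ∃ N₀ : ℕ, ∀ N : ℕ, N₀ ≤ N → ∃ T₀ : ℝ, ∀ T : ℝ, T₀ ≤ T → ∀ c₀ : ℝ, T + 4 ≤ c₀ →
      ∀ (G CK P K₀ : ℝ) (k : Cst), 3 ≤ G → 5 ≤ CK → 0 < P → 0 ≤ K₀ →
        ∃ κs : ℝ, 0 < κs ∧ ∀ κ₀ : ℝ, 0 < κ₀ → κ₀ ≤ κs → ∃ Ls : ℝ, ∀ L₁ : ℝ, Ls ≤ L₁ →
          ∃ Λs : ℝ, ∀ Λ₀ : ℝ, Λs ≤ Λ₀ → ∃ oms : ℝ, 0 < oms ∧ ∀ om : ℝ, 0 < om → om ≤ oms →
            Φ K Q ⟨N, Ks, T, c₀, G, CK, P, K₀, k, κ₀, L₁, Λ₀, om⟩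

/-- the same with `G CK P K₀ k` chosen by `Φ`. -/
def EvS (Φ : ℕ → ℕ → Dt → Prop) : Prop :=
  ∃ Ks₀ : ℕ, ∀ Ks : ℕ, Ks₀ ≤ Ks → ∀ K : ℕ, Ks ≤ K → ∀ Q : ℕ, 2 ≤ Q →
    ∃ N₀ : ℕ, ∀ N : ℕ, N₀ ≤ N → ∃ T₀ : ℝ, ∀ T : ℝ, T₀ ≤ T → ∀ c₀ : ℝ, T + 4 ≤ c₀ →
      ∃ (G CK P K₀ : ℝ) (k : Cst), 3 ≤ G ∧ 5 ≤ CK ∧ 0 < P ∧ 0 ≤ K₀ ∧
        ∃ κs : ℝ, 0 < κs ∧ ∀ κ₀ : ℝ, 0 < κ₀ → κ₀ ≤ κs → ∃ Ls : ℝ, ∀ L₁ : ℝ, Ls ≤ L₁ →
          ∃ Λs : ℝ, ∀ Λ₀ : ℝ, Λs ≤ Λ₀ → ∃ oms : ℝ, 0 < oms ∧ ∀ om : ℝ, 0 < om → om ≤ oms →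
            Φ K Q ⟨N, Ks, T, c₀, G, CK, P, K₀, k, κ₀, L₁, Λ₀, om⟩

theorem EvS.and {Φ Ψ : ℕ → ℕ → Dt → Prop} (h1 : EvS Φ) (h2 : Ev Ψ) :
    EvS fun K Q d => Φ K Q d ∧ Ψ K Q d := by
  obtain ⟨Ka, h1⟩ := h1
  obtain ⟨Kb, h2⟩ := h2
  refine ⟨max Ka Kb, fun Ks hKs K hK Q hQ => ?_⟩
  obtain ⟨Na, h1⟩ := h1 Ks ((le_max_left _ _).trans hKs) K hK Q hQ
  obtain ⟨Nb, h2⟩ := h2 Ks ((le_max_right _ _).trans hKs) K hK Q hQ
  refine ⟨max Na Nb, fun N hN => ?_⟩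
  obtain ⟨Ta, h1⟩ := h1 N ((le_max_left _ _).trans hN)
  obtain ⟨Tb, h2⟩ := h2 N ((le_max_right _ _).trans hN)
  refine ⟨max Ta Tb, fun T hT c₀ hc₀ => ?_⟩
  obtain ⟨G, CK, P, K₀, k, a1, a2, a3, a4, κa, hκa, h1⟩ := h1 T ((le_max_left _ _).trans hT) c₀ hc₀
  obtain ⟨κb, hκb, h2⟩ := h2 T ((le_max_right _ _).trans hT) c₀ hc₀ G CK P K₀ k a1 a2 a3 a4
  refine ⟨G, CK, P, K₀, k, a1, a2, a3, a4, min κa κb, lt_min hκa hκb, fun κ₀ h0 hκ => ?_⟩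
  obtain ⟨La, h1⟩ := h1 κ₀ h0 (hκ.trans (min_le_left _ _))
  obtain ⟨Lb, h2⟩ := h2 κ₀ h0 (hκ.trans (min_le_right _ _))
  refine ⟨max La Lb, fun L₁ hL₁ => ?_⟩
  obtain ⟨Λa, h1⟩ := h1 L₁ ((le_max_left _ _).trans hL₁)
  obtain ⟨Λb, h2⟩ := h2 L₁ ((le_max_right _ _).trans hL₁)
  refine ⟨max Λa Λb, fun Λ₀ hΛ => ?_⟩
  obtain ⟨oa, hoa, h1⟩ := h1 Λ₀ ((le_max_left _ _).trans hΛ)
  obtain ⟨ob, hob, h2⟩ := h2 Λ₀ ((le_max_right _ _).trans hΛ)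
  exact ⟨min oa ob, lt_min hoa hob, fun om h0 ho =>
    ⟨h1 om h0 (ho.trans (min_le_left _ _)), h2 om h0 (ho.trans (min_le_right _ _))⟩⟩

/-- conjunction of two components of the second kind -/
theorem Ev.and {Φ Ψ : ℕ → ℕ → Dt → Prop} (h1 : Ev Φ) (h2 : Ev Ψ) :
    Ev fun K Q d => Φ K Q d ∧ Ψ K Q d := by
  obtain ⟨Ka, h1⟩ := h1
  obtain ⟨Kb, h2⟩ := h2
  refine ⟨max Ka Kb, fun Ks hKs K hK Q hQ => ?_⟩
  obtain ⟨Na, h1⟩ := h1 Ks ((le_max_left _ _).trans hKs) K hK Q hQ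
  obtain ⟨Nb, h2⟩ := h2 Ks ((le_max_right _ _).trans hKs) K hK Q hQ
  refine ⟨max Na Nb, fun N hN => ?_⟩
  obtain ⟨Ta, h1⟩ := h1 N ((le_max_left _ _).trans hN)
  obtain ⟨Tb, h2⟩ := h2 N ((le_max_right _ _).trans hN)
  refine ⟨max Ta Tb, fun T hT c₀ hc₀ G CK P K₀ k a1 a2 a3 a4 => ?_⟩
  obtain ⟨κa, hκa, h1⟩ := h1 T ((le_max_left _ _).trans hT) c₀ hc₀ G CK P K₀ k a1 a2 a3 a4
  obtain ⟨κb, hκb, h2⟩ := h2 T ((le_max_right _ _).trans hT) c₀ hc₀ G CK P K₀ k a1 a2 a3 a4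
  refine ⟨min κa κb, lt_min hκa hκb, fun κ₀ h0 hκ => ?_⟩
  obtain ⟨La, h1⟩ := h1 κ₀ h0 (hκ.trans (min_le_left _ _))
  obtain ⟨Lb, h2⟩ := h2 κ₀ h0 (hκ.trans (min_le_right _ _))
  refine ⟨max La Lb, fun L₁ hL₁ => ?_⟩
  obtain ⟨Λa, h1⟩ := h1 L₁ ((le_max_left _ _).trans hL₁)
  obtain ⟨Λb, h2⟩ := h2 L₁ ((le_max_right _ _).trans hL₁)
  refine ⟨max Λa Λb, fun Λ₀ hΛ => ?_⟩
  obtain ⟨oa, hoa, h1⟩ := h1 Λ₀ ((le_max_left _ _).trans hΛ)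
  obtain ⟨ob, hob, h2⟩ := h2 Λ₀ ((le_max_right _ _).trans hΛ)
  exact ⟨min oa ob, lt_min hoa hob, fun om h0 ho =>
    ⟨h1 om h0 (ho.trans (min_le_left _ _)), h2 om h0 (ho.trans (min_le_right _ _))⟩⟩

variable (m n : ℕ)

/-- **(F7) STEP** (518). -/
def StepAll : Prop := EvS fun _ Q d =>
  ∀ (U : Set (Euc (m + n))) (D : VarifoldData m (m + n)) (x : Euc (m + n)) (r₁ : ℝ),
    Env m U D Q x d.om r₁ →
      StepH (d.W D Q x) d.k (d.fl D x r₁) d.Λ₀ d.κm d.P d.K₀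

/-- **(FL)** (567). -/
def FlAll : Prop := Ev fun _ Q d =>
  ∀ (U : Set (Euc (m + n))) (D : VarifoldData m (m + n)) (x : Euc (m + n)) (r₁ : ℝ),
    Env m U D Q x d.om r₁ →
      FlatH (d.W D Q x) (d.fl D x r₁) d.Λ₀ d.κm ∧
      ∀ mu : ℝ, ∃ ω' : ℝ, 0 < ω' ∧ ∀ M l, (d.W D Q x).st M l →
        flatL m (VD D) x ω' d.c₀ r₁ l → (d.W D Q x).κ M l ≤ d.κm → mu ≤ (d.W D Q x).L M l

/-- **(F8) START** with the comparison of the heights (188). -/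
def StartAll : Prop := ∃ δ γ p : ℝ, 0 ≤ δ ∧ 0 < γ ∧ 1 < p ∧ Ev fun _ Q d =>
  ∀ (U : Set (Euc (m + n))) (D : VarifoldData m (m + n)) (x : Euc (m + n)) (r₁ : ℝ),
    Env m U D Q x d.om r₁ → x ∈ singularSet m (m + n) U D →
      ∃ (Wp : ℝ → Pre (Mo m n (m + n))) (κ A c₁ Cc : ℝ), 0 ≤ κ ∧ 0 ≤ A ∧ 0 ≤ c₁ ∧ 0 < Cc ∧
        (∀ S, StartH (d.W D Q x) (Wp S) (d.fl D x r₁) d.Λ₀ d.κm d.P' δ γ p S) ∧
        (∀ S, d.fl D x r₁ S → ∃ M, (Wp S).pre M S ∧ d.Λ₀ ≤ (Wp S).L M S ∧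
          (Wp S).κ M S ≤ d.κm / 2) ∧
        (∀ M l, d.fl D x r₁ l → (d.W D Q x).st M l →
          Lowr m n (VD D) x κ A c₁ Cc l ((d.W D Q x).L M l)) ∧
        (∀ S M l, S - 1 ≤ l → l ≤ S → d.fl D x r₁ l → (Wp S).pre M l → (Wp S).κ M l ≤ d.κm →
          Lowr m n (VD D) x κ A c₁ Cc l ((Wp S).L M l))

/-- **(END)** (395). -/
def FinAll : Prop := Ev fun K Q d => ∃ c₂ Rb : ℝ, 0 < Rb ∧
  ∀ (U : Set (Euc (m + n))) (D : VarifoldData m (m + n)) (x : Euc (m + n)) (r₁ : ℝ),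
    Env m U D Q x d.om r₁ → Metric.closedBall x (Rb * r₁) ⊆ U → x ∈ singularSet m (m + n) U D →
      ∀ F : ℝ, ∃ C : ℝ, ∀ ε : ℝ, 0 < ε → ∃ mu κ₁ ε' : ℝ, 0 < κ₁ ∧ 0 < ε' ∧
        ∀ (r : ℝ) (P' : Crest.Agent.R234.Vf_884.L (m + n)), 0 < r → r ≤ r₁ →
          NearQ m (VD D) Q x (Rb * r) ε' P' →
          ∀ M l, Real.log r + c₂ ≤ l → l ≤ Real.log r + c₂ + 1 → (d.W D Q x).st M l →
            1 + (d.W D Q x).f M l ≤ F → (d.W D Q x).κ M l ≤ κ₁ → mu ≤ (d.W D Q x).L M l →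
            ∃ (π : Euc (m + n) →L[ℝ] Euc m) (ρ : Euc (m + n) →L[ℝ] Euc n) (u : Euc m → Euc n),
              Ref (VD D) Q x r π ρ u K ε C

variable {m n}

/-- the environment at a small accuracy -/
theorem exists_env {k : ℕ} (hm : 1 ≤ m) {U : Set (Euc k)} (hU : IsOpen U) {D : VarifoldData m k}
    (hD : IsIntegralVarifoldIn U D) (hst : IsStationaryIn U D) {Q : ℕ} (hQ : 1 ≤ Q) {x : Euc k}
    (hx : x ∈ SingQ m k U D Q) {om : ℝ} (hom : 0 < om) : ∃ r₁ : ℝ, Env m U D Q x om r₁ := by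
  have hV := stat_VD hD hst
  obtain ⟨R, hR, hRU⟩ := Metric.isOpen_iff.1 hU x hx.1.1
  have h1 := tendsto_rat hV hm hR hRU
  rw [hx.2] at h1
  have h2 : (Q : ℝ≥0∞) < (Q : ℝ≥0∞) + ENNReal.ofReal om :=
    ENNReal.lt_add_right (ENNReal.natCast_ne_top Q) (by simpa using hom)
  have h3 := h1.eventually (gt_mem_nhds h2)
  obtain ⟨r₀, hr₀, h4⟩ := mem_nhdsGT_iff_exists_Ioo_subset.1 h3
  have hr₀' : (0:ℝ) < r₀ := hr₀
  refine ⟨min (R / 2) (r₀ / 2), hU, hD, hst, hQ, hx.2, lt_min (by positivity) (by positivity),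
    ?_, fun r h0 hr => ?_⟩
  · refine (Metric.closedBall_subset_ball ?_).trans hRU
    exact (min_le_left _ _).trans_lt (by linarith)
  · have h5 : r ∈ Ioo (0:ℝ) r₀ := ⟨h0, lt_of_le_of_lt (hr.trans (min_le_right _ _)) (by linarith)⟩
    exact (h4 h5 : rat m (VD D) x r < _).le

/-- the environment at a smaller radius -/
theorem env_mono {k : ℕ} {U : Set (Euc k)} {D : VarifoldData m k} {Q : ℕ} {x : Euc k}
    {om r₁ r : ℝ} (h : Env m U D Q x om r₁) (h0 : 0 < r) (hr : r ≤ r₁) : Env m U D Q x om r :=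
  ⟨h.opn, h.int, h.st, h.Q1, h.Th, h0, (Metric.closedBall_subset_closedBall hr).trans h.sub,
    fun s hs0 hs => h.drop s hs0 (hs.trans hr)⟩

/-- the numerical conditions of `Thy` for large `Λ₀` -/
theorem numbers (k : Cst) {P κm γ δ p : ℝ} (hκm : 0 < κm) (hγ : 0 < γ) (hp : 1 < p) :
    ∃ Λs : ℝ, ∀ Λ₀ : ℝ, Λs ≤ Λ₀ → 0 < Λ₀ ∧ 2 * k.a / Λ₀ ^ 2 ≤ κm ∧
      P * Real.exp (k.base Λ₀ κm) ≤ Λ₀ ^ 2 ∧ δ * Λ₀ ^ (-γ) ≤ 1 - p ^ (-γ) ∧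
      1 / Λ₀ ≤ κm / 2 * (1 - p⁻¹) := by
  have hpγ : p ^ (-γ) < 1 := Real.rpow_lt_one_of_one_lt_of_neg hp (by linarith)
  have hpi : p⁻¹ < 1 := inv_lt_one_of_one_lt₀ hp
  have hev : ∀ᶠ Λ₀ : ℝ in atTop, 0 < Λ₀ ∧ 2 * k.a / Λ₀ ^ 2 ≤ κm ∧
      P * Real.exp (k.base Λ₀ κm) ≤ Λ₀ ^ 2 ∧ δ * Λ₀ ^ (-γ) ≤ 1 - p ^ (-γ) ∧
      1 / Λ₀ ≤ κm / 2 * (1 - p⁻¹) := by
    have t2 : Tendsto (fun Λ : ℝ => Λ ^ 2) atTop atTop := tendsto_pow_atTop (by norm_num)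
    have e1 : Tendsto (fun Λ : ℝ => 2 * k.a / Λ ^ 2) atTop (𝓝 0) := t2.const_div_atTop _
    have e2 : Tendsto (fun Λ : ℝ => δ * Λ ^ (-γ)) atTop (𝓝 (δ * 0)) :=
      (tendsto_rpow_neg_atTop hγ).const_mul δ
    rw [mul_zero] at e2
    have e3 : Tendsto (fun Λ : ℝ => 1 / Λ) atTop (𝓝 0) := tendsto_id.const_div_atTop _
    have e4 : Tendsto (fun Λ : ℝ => P * Real.exp (k.base Λ κm)) atTop
        (𝓝 (P * Real.exp (Real.log (1 + k.c) + 2 * k.b * κm + 0))) := by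
      have : Tendsto (fun Λ : ℝ => 4 * k.A / Λ) atTop (𝓝 0) := tendsto_id.const_div_atTop _
      exact ((Real.continuous_exp.tendsto _).comp (this.const_add _)).const_mul P
    have e5 := e4.eventually (gt_mem_nhds (lt_add_one _))
    have e6 := t2.eventually_ge_atTop (P * Real.exp (Real.log (1 + k.c) + 2 * k.b * κm + 0) + 1)
    filter_upwards [eventually_gt_atTop 0, e1.eventually (gt_mem_nhds hκm),
      e2.eventually (gt_mem_nhds (sub_pos.2 hpγ)),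
      e3.eventually (gt_mem_nhds (show 0 < κm / 2 * (1 - p⁻¹) by
        have : 0 < 1 - p⁻¹ := by linarith
        positivity)), e5, e6] with Λ a1 a2 a3 a4 a5 a6
    exact ⟨a1, a2.le, a5.le.trans a6, a3.le, a4.le⟩
  obtain ⟨Λs, h⟩ := eventually_atTop.1 hev
  exact ⟨Λs, fun Λ hΛ => h Λ hΛ⟩

/-- **ASSEMBLY**: the chain theory at every point from the four components. -/
theorem thyAll_of (h1 : ∀ m n : ℕ, 3 ≤ m → 1 ≤ n → StepAll m n)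
    (h2 : ∀ m n : ℕ, 3 ≤ m → 1 ≤ n → FlAll m n) (h3 : ∀ m n : ℕ, 3 ≤ m → 1 ≤ n → StartAll m n)
    (h4 : ∀ m n : ℕ, 3 ≤ m → 1 ≤ n → FinAll m n) : Skel3_884.ThyAll := by
  intro m n hm hn
  obtain ⟨δ, γ, p, hδ, hγ, hp, h3⟩ := h3 m n hm hn
  obtain ⟨Ks₀, H⟩ := (((h1 m n hm hn).and (h2 m n hm hn)).and h3).and (h4 m n hm hn)
  refine ⟨Ks₀, fun K hK U hU D hD hst Q x hQ hx => ?_⟩
  obtain ⟨N₀, H⟩ := H Ks₀ le_rfl K hK Q hQ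
  obtain ⟨T₀, H⟩ := H N₀ le_rfl
  obtain ⟨G, CK, P, K₀, k, -, -, hP, hK₀, κs, hκs, H⟩ :=
    H (max T₀ 0) (le_max_left _ _) (max T₀ 0 + 4) le_rfl
  obtain ⟨Ls, H⟩ := H κs hκs le_rfl
  obtain ⟨Λs, H⟩ := H Ls le_rfl
  have hκm : 0 < κs * Real.exp (-(4 / 5 * (max T₀ 0 + 1))) := by positivity
  obtain ⟨Λn, hnum⟩ := numbers k (P := P) (δ := δ) hκm hγ hp
  obtain ⟨n1, n2, n3, n4, n5⟩ := hnum (max Λs Λn) (le_max_right _ _)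
  obtain ⟨oms, homs, H⟩ := H (max Λs Λn) (le_max_left _ _)
  obtain ⟨⟨⟨g1, g2⟩, g3⟩, g4⟩ := H oms homs le_rfl
  obtain ⟨c₂, Rb, hRb, g4⟩ := g4
  obtain ⟨r₂, hE₂⟩ := exists_env (by omega) hU hD hst (by omega) hx homs
  have hr₂ := hE₂.r0
  obtain ⟨r₁, hr₁, hr₁₂, hRr⟩ : ∃ r₁ : ℝ, 0 < r₁ ∧ r₁ ≤ r₂ ∧ Rb * r₁ ≤ r₂ := by
    refine ⟨min r₂ (r₂ / Rb), lt_min hr₂ (by positivity), min_le_left _ _, ?_⟩
    calc Rb * min r₂ (r₂ / Rb) ≤ Rb * (r₂ / Rb) := by gcongr; exact min_le_right _ _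
      _ = r₂ := by field_simp
  have hE := env_mono hE₂ hr₁ hr₁₂
  have hRU : Metric.closedBall x (Rb * r₁) ⊆ U :=
    (Metric.closedBall_subset_closedBall hRr).trans hE₂.sub
  obtain ⟨Wp, κ, A, c₁, Cc, b1, b2, b3, b4, start, top, cmp, cmp'⟩ := g3 U D x r₁ hE hx.1
  obtain ⟨fl, large⟩ := g2 U D x r₁ hE
  have hfin := g4 U D x r₁ hE hRU hx.1
  set d : Dt := ⟨N₀, Ks₀, max T₀ 0, max T₀ 0 + 4, G, CK, P, K₀, k, κs, Ls,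
    max Λs Λn, oms⟩ with hd
  exact ⟨{ R := Mo m n (m + n)
           W := d.W D Q x
           Wp := Wp
           k := k
           Λ₀ := max Λs Λn
           κm := d.κm
           P := P
           K₀ := K₀
           δ := δ
           γ := γ
           p := p
           c₀ := max T₀ 0 + 4
           ω := oms
           r₁ := r₁
           hΛ₀ := n1
           hP := hP
           hK₀ := hK₀
           hκm := n2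
           hκ0 := hκm.le
           hB := n3
           hδ := hδ
           hγ := hγ
           hp := hp
           hlen := n4
           hκm' := n5
           hc₀ := by have := le_max_right T₀ 0; linarith
           hω := homs
           hr₁ := hE.r0
           step := g1 U D x r₁ hE
           fl := fl
           start := start
           top := top
           κ := κ
           A := A
           c₁ := c₁
           Cc := Cc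
           hκ := b1
           hA := b2
           hc₁ := b3
           hCc := b4
           cmp := cmp
           cmp' := cmp'
           large := large
           c₂ := c₂
           Rb := Rb
           hRb := hRb
           fin := hfin }⟩

end

end Crest.Agent.R234.Thya_685
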