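import Crest.Agent.R234.Up1_456

/-!
# Row 234, (F8) START (helper456): `UpV`, part 2

* `reg_sub_ball4`, `mass_reg4` : the region and its mass
* **`upV : F10w_188.UpV`**
-/

set_option autoImplicit false
set_option linter.unusedVariables false

open MeasureTheory Filter Topology Set
open scoped ENNReal NNReal ContDiff InnerProductSpace
open Crest.GeometryTopology.Submanifold Crest.Agent.R234.Vf_884
open Crest.Agent.R234.Main_456 (Frame Msys hgt)
open Crest.Agent.R234.MG_570 (MG)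
open Crest.Agent.R234.Gi_456
open Crest.Agent.R234.GL_394 (Ok On VK II)
open Crest.Agent.R234.GI_640 (g3 g31)
open Crest.Agent.R234.Stp_518
open Crest.Agent.R234.Lvs_214
open Crest.Agent.R234.End_395 (Cmp cmp_ch ig norm_x_le le_norm_x x_eq)

noncomputable section

namespace Crest.Agent.R234.Up_456

variable {m n k : ℕ}

local notation "adj" => ContinuousLinearMap.adjoint

theorem reg_sub_ball4 {M : Mo m n k} {a : ℝ} (h : Wb M a) {x : Euc k} (hf : Frame M.π M.ρ) :
    M.reg x ⊆ Metric.ball x (4 * M.S) := by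
  have hS := M.S_pos
  intro z hz
  have h1 := h.gr.Kc_subset_closedBall hf (x := x) (0 : Euc m) (R := 2 * M.S) (t := M.S / 2)
    (by linarith) hz
  rw [mem_closedBall_iff_norm] at h1
  rw [mem_ball_iff_norm]
  have e : z - x = (z - pm M.π M.ρ x M.w 0) + adj M.ρ (M.w 0) := by
    rw [pm, map_zero]; abel
  have h2 : ‖adj M.ρ (M.w 0)‖ = ‖M.w 0‖ := norm_adj_rho hf _
  have h3 := h.w_le 0
  have h4 : a * M.S ≤ 1 / 8 * M.S := mul_le_mul_of_nonneg_right h.a8 hS.le
  have h5 := norm_add_le (z - pm M.π M.ρ x M.w 0) (adj M.ρ (M.w 0))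
  rw [e]
  linarith

/-- mass of a ball from the ratio -/
theorem real_ball_le {V : Measure (Euc k × L k)} {x : Euc k} {q r : ℝ} (hr : 0 < r) (hq : 0 ≤ q)
    (h1 : rat m V x r ≤ ENNReal.ofReal q) :
    V.real (Metric.ball x r ×ˢ univ) ≤ q * (ome m * r ^ m) := by
  unfold rat at h1
  rw [ENNReal.div_le_iff_le_mul (Or.inl (by
    rw [ne_eq, ENNReal.ofReal_eq_zero, not_le]; exact den_pos m hr))
    (Or.inl ENNReal.ofReal_ne_top), mass_apply V Metric.isOpen_ball.measurableSet,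
    ← prod_univ_eq, ← ENNReal.ofReal_mul hq] at h1
  have h2 := ENNReal.toReal_mono ENNReal.ofReal_ne_top h1
  rwa [ENNReal.toReal_ofReal (by
    have := den_pos m hr; positivity)] at h2

/-- integral comparison -/
theorem int_cmp {V : Measure (Euc k × L k)} {E E' : Set (Euc k × L k)} (hE : MeasurableSet E)
    (hE' : MeasurableSet E') {F F' : Euc k × L k → ℝ} (hF : IntegrableOn F E V)
    (hF' : IntegrableOn F' E' V) (hF0 : ∀ p, 0 ≤ F p) {a b : ℝ} (ha : 0 ≤ a)
    (hfin : V E' ≠ ⊤)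
    (hle : ∀ᵐ p ∂(V.restrict E'), F' p ≤ a * E.indicator F p + b) :
    ∫ p in E', F' p ∂V ≤ a * ∫ p in E, F p ∂V + b * V.real E' := by
  have hi : Integrable (E.indicator F) V := (integrable_indicator_iff hE).2 hF
  have hi' : Integrable (E.indicator F) (V.restrict E') := hi.integrableOn
  have hfm : IsFiniteMeasure (V.restrict E') := ⟨by
    rw [Measure.restrict_apply_univ]; exact lt_top_iff_ne_top.2 hfin⟩
  have h0 : ∀ p, 0 ≤ E.indicator F p := fun p => indicator_nonneg (fun p _ => hF0 p) p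
  calc ∫ p in E', F' p ∂V ≤ ∫ p in E', (a * E.indicator F p + b) ∂V :=
        integral_mono_ae hF' ((hi'.const_mul a).add (integrable_const b)) hle
    _ = a * ∫ p in E', E.indicator F p ∂V + b * V.real E' := by
        rw [integral_add (hi'.const_mul a) (integrable_const b), integral_const_mul,
          integral_const, smul_eq_mul, measureReal_restrict_apply_univ, mul_comm b]
    _ ≤ a * ∫ p, E.indicator F p ∂V + b * V.real E' := by
        have := setIntegral_le_integral (s := E') hi (Eventually.of_forall h0)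
        gcongr
    _ = a * ∫ p in E, F p ∂V + b * V.real E' := by rw [integral_indicator hE]

/-- outside the ball the integrand vanishes -/
theorem ig_zero (c : GL_394.Ch m k) {l : ℝ} {p : Euc k × L k} (h : ¬ ‖c.x p.1‖ ≤ Real.exp l) :
    ig c g31 l p = 0 := by
  have h1 := GI_640.prof.k1.zero _ (GL_394.t_ge h)
  show (c.f p.1 * c.mu (c.x p.1)) * (-4 * g31 (Real.exp (-2 * l) * ‖c.x p.1‖ ^ 2)) = 0
  rw [h1]; ring

/-- final arithmetic -/
theorem fin_ar {m : ℕ} {l l₁ lb ε J J' T Cq : ℝ} (hε : 0 < ε) (hε4 : ε ≤ 1 / 4) (hJ : 0 ≤ J)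
    (hT : 0 ≤ T) (hCq : 0 ≤ Cq) (h1 : lb - 3 ≤ l₁) (h2 : l ≤ lb)
    (h : J' ≤ 54 / ε ^ 2 * J + 27 * T * (Cq * Real.exp lb ^ m)) :
    Real.exp (-m * l₁) * J' ≤ Real.exp (3 * m) * (54 + 27 * Cq) / ε ^ 2 *
      (Real.exp (-m * l) * J + T) := by
  have hm0 : (0 : ℝ) ≤ m := Nat.cast_nonneg m
  have e1 : Real.exp (-m * l₁) * J ≤ Real.exp (3 * m) * (Real.exp (-m * l) * J) := by
    rw [← mul_assoc, ← Real.exp_add]
    refine mul_le_mul_of_nonneg_right (Real.exp_le_exp.2 ?_) hJ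
    nlinarith
  have e2 : Real.exp (-m * l₁) * Real.exp lb ^ m ≤ Real.exp (3 * m) := by
    rw [← Real.exp_nat_mul, ← Real.exp_add]
    refine Real.exp_le_exp.2 ?_
    nlinarith
  have e3 : 1 ≤ 1 / ε ^ 2 := by
    rw [le_div_iff₀ (by positivity)]
    nlinarith
  have e4 : Real.exp (-m * l₁) * J' ≤ 54 / ε ^ 2 * (Real.exp (-m * l₁) * J) +
      27 * T * Cq * (Real.exp (-m * l₁) * Real.exp lb ^ m) := by
    calc Real.exp (-m * l₁) * J' ≤ Real.exp (-m * l₁) *
        (54 / ε ^ 2 * J + 27 * T * (Cq * Real.exp lb ^ m)) :=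
          mul_le_mul_of_nonneg_left h (Real.exp_pos _).le
      _ = _ := by ring
  have e5 : 54 / ε ^ 2 * (Real.exp (-m * l₁) * J) ≤
      54 / ε ^ 2 * (Real.exp (3 * m) * (Real.exp (-m * l) * J)) :=
    mul_le_mul_of_nonneg_left e1 (by positivity)
  have e6 : 27 * T * Cq * (Real.exp (-m * l₁) * Real.exp lb ^ m) ≤
      27 * T * Cq * Real.exp (3 * m) * (1 / ε ^ 2) := by
    calc _ ≤ 27 * T * Cq * Real.exp (3 * m) := mul_le_mul_of_nonneg_left e2 (by positivity)
      _ ≤ _ := le_mul_of_one_le_right (by positivity) e3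
  have hA : 0 ≤ Real.exp (-m * l) * J := by positivity
  have e7 : Real.exp (3 * m) * (54 + 27 * Cq) / ε ^ 2 * (Real.exp (-m * l) * J + T) =
      54 / ε ^ 2 * (Real.exp (3 * m) * (Real.exp (-m * l) * J)) +
      27 * T * Cq * Real.exp (3 * m) * (1 / ε ^ 2) +
      (27 * Cq * Real.exp (3 * m) / ε ^ 2 * (Real.exp (-m * l) * J) +
        54 * Real.exp (3 * m) / ε ^ 2 * T) := by
    ring
  have e8 : 0 ≤ 27 * Cq * Real.exp (3 * m) / ε ^ 2 * (Real.exp (-m * l) * J) +
        54 * Real.exp (3 * m) / ε ^ 2 * T := by positivity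
  rw [e7]
  linarith

/-- **`UpV`** -/
theorem upV : F10w_188.UpV := by
  intro m n k N Q Λ hm hN
  obtain ⟨C, hC1, HC⟩ := exists_wb m n hN
  have hC0 : 0 < C := by linarith
  have ho := ome_pos m
  refine ⟨1 / (8 * C), 1 / 16, Real.exp (3 * m) * (54 + 27 * ((Q + 1) * (ome m * 4 ^ m))),
    by positivity, by norm_num, by positivity, ?_⟩
  intro U D x ε₀ M M' l l₁ ε τ hB hκ hε₀ hπ hρ hlb hmg' hε hε4 hl1 hlb1 hτ0 hτ1 hτ
  obtain ⟨π', ρ', lb', u', κ', K', Lb', Kb', Pb'⟩ := M'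
  simp only at hπ hρ hlb hmg' hτ0 hτ1
  subst hπ hρ hlb
  set M' : Mo m n k := ⟨M.π, M.ρ, M.lb, u', κ', K', Lb', Kb', Pb'⟩ with hM'
  have hS := M.S_pos
  have h : Wb M (C * M.κ) := HC hB.κ0 (by
    rw [le_div_iff₀ (by positivity)] at hκ
    linarith) hB.mg
  have h' : Wb M' (C * (1 / (8 * C))) := HC (M := M') (κ := 1 / (8 * C)) (by positivity)
    (by field_simp; norm_num) hmg'
  have hf : Frame M.π M.ρ := hB.pack.frame
  have hf' : Frame M'.π M'.ρ := hf
  have hV := stat_VD hB.int hB.st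
  have hfin8 : (VD D) (Metric.closedBall x (8 * M.S) ×ˢ univ) < ⊤ :=
    hV.fin _ (isCompact_closedBall _ _) hB.sub
  have hreg4 : M'.reg x ⊆ Metric.ball x (4 * M.S) := reg_sub_ball4 h' hf'
  have hfin : (VD D) (M.reg x ×ˢ univ) < ⊤ :=
    lt_of_le_of_lt (measure_mono (Set.prod_mono (h.reg_sub_ball hf) le_rfl)) hfin8
  have hfin' : (VD D) (M'.reg x ×ˢ univ) < ⊤ :=
    lt_of_le_of_lt (measure_mono (Set.prod_mono (h'.reg_sub_ball hf') le_rfl)) hfin8
  have hint := int_ig (h.ok hf (x := x)) hfin l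
  have hint' := int_ig (h'.ok hf' (x := x)) hfin' l₁
  have hm1 : MeasurableSet (M.reg x ×ˢ (univ : Set (L k))) :=
    (h.measurableSet_reg x).prod MeasurableSet.univ
  have hm2 : MeasurableSet (M'.reg x ×ˢ (univ : Set (L k))) :=
    (h'.measurableSet_reg x).prod MeasurableSet.univ
  -- closeness of the graphs
  have g0 : ∀ X, ‖M'.w X - M.w X‖ ≤ τ * M.S := by
    intro X
    have e : M'.w X - M.w X = M.S • (u' (M.S⁻¹ • X) - M.u (M.S⁻¹ • X)) := by
      rw [smul_sub]; rfl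
    rw [e, norm_smul, Real.norm_of_nonneg hS.le, mul_comm]
    exact mul_le_mul_of_nonneg_right (hτ0 _) hS.le
  have g1 : ∀ X, ‖fderiv ℝ M'.w X - fderiv ℝ M.w X‖ ≤ τ := by
    intro X
    rw [h.dw, h'.dw]
    exact hτ1 _
  have hl : l ≤ M.lb := hB.hi.trans (by linarith)
  have hl' : l₁ ≤ M.lb := by linarith
  have hcM := h.cmp hf hl (x := x)
  have hcM' := h'.cmp hf' (l := l₁) hl' (x := x)
  have hw : ∀ X, ‖M.w X‖ ≤ 1 / 8 * M.S := fun X =>
    (h.w_le X).trans (mul_le_mul_of_nonneg_right h.a8 hS.le)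
  have key := int_cmp (V := VD D) hm1 hm2 (F := ig (M.ch x) g31 l) (F' := ig (M'.ch x) g31 l₁)
    hint hint' (fun p => Wb.ig_nonneg M x l p) (a := 54 / ε ^ 2) (b := 27 * (τ ^ 2 * M.S ^ 2))
    (by positivity) hfin'.ne (by
      filter_upwards [ae_restrict_of_ae hB.pack.supae, ae_restrict_mem hm2] with p hp1 hp2
      by_cases hx : ‖(M'.ch x).x p.1‖ ≤ Real.exp l₁
      · have hρ := hp1 (hreg4 hp2.1)
        have hρ' : ‖M.ρ (p.1 - x)‖ ≤ 1 / 16 * M.S :=
          hρ.trans (mul_le_mul_of_nonneg_right hε₀ hS.le)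
        obtain ⟨k1, k2⟩ := up_pt (lb := M.lb) (S := M.S) rfl h.gr h'.gr hf g0 g1 hw hcM hcM' hε hε4
          hl1 hlb1 hl hτ hp2.1 hρ' hx
        rw [indicator_of_mem (show p ∈ M.reg x ×ˢ univ from ⟨k1, mem_univ _⟩)]
        exact k2 p.2
      · rw [ig_zero (M'.ch x) hx]
        have : 0 ≤ (M.reg x ×ˢ univ).indicator (ig (M.ch x) g31 l) p :=
          indicator_nonneg (fun p _ => Wb.ig_nonneg M x l p) p
        positivity)
  have hQ0 : (0 : ℝ) ≤ Q + 1 := by positivity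
  have hmass : (VD D).real (M'.reg x ×ˢ univ) ≤ (Q + 1) * (ome m * (4 * M.S) ^ m) := by
    have h1 : rat m (VD D) x (4 * M.S) ≤ ENNReal.ofReal (Q + 1) := by
      refine hB.pack.near.2.2.trans ?_
      rw [ENNReal.ofReal_add (by positivity) (by norm_num), ENNReal.ofReal_natCast]
      exact add_le_add le_rfl (ENNReal.ofReal_le_ofReal (by linarith))
    refine le_trans ?_ (real_ball_le (V := VD D) (x := x) (by positivity) hQ0 h1)
    refine ENNReal.toReal_mono ?_ (measure_mono (Set.prod_mono hreg4 le_rfl))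
    refine (lt_of_le_of_lt (measure_mono (Set.prod_mono ?_ le_rfl)) hfin8).ne
    exact Metric.ball_subset_closedBall.trans (Metric.closedBall_subset_closedBall (by linarith))
  have key2 : ∫ p in M'.reg x ×ˢ univ, ig (M'.ch x) g31 l₁ p ∂(VD D) ≤
      54 / ε ^ 2 * ∫ p in M.reg x ×ˢ univ, ig (M.ch x) g31 l p ∂(VD D) +
        27 * (τ ^ 2 * M.S ^ 2) * ((Q + 1) * (ome m * 4 ^ m) * Real.exp M.lb ^ m) := by
    refine key.trans (add_le_add le_rfl (mul_le_mul_of_nonneg_left (hmass.trans (le_of_eq ?_))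
      (by positivity)))
    rw [mul_pow]
    show _ = (Q + 1) * (ome m * 4 ^ m) * M.S ^ m
    ring
  exact fin_ar hε hε4 (integral_nonneg fun p => Wb.ig_nonneg M x l p) (by positivity)
    (by positivity) hlb1 hl key2

end Crest.Agent.R234.Up_456
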