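import Crest.Agent.R234.FL9_567
import Crest.Agent.R234.Thya1_685
import Crest.Agent.R234.Mv1_504
import Crest.Agent.R234.Up2_456

/-!
# R234 (helper567), fields `fl`, `large` of `F10d_188.Thy`, part 4: the world

* `sd_of` : a state of `Stp_518.world` at a flat level gives the data `SD`;
* `fl_world` : at a flat level `Λ₀ ≤ Λ`;
* `flAll : Thya_685.FlAll m n`.
-/

set_option autoImplicit false
set_option linter.unusedVariables false
set_option linter.unusedSectionVars false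

open MeasureTheory Filter Topology Set
open scoped ENNReal NNReal ContDiff
open Crest.GeometryTopology.Submanifold Crest.Agent.R234.Vf_884
open Crest.Agent.R234.Strat3_842 (tilt height)
open Crest.Agent.R234.Main_456 (Frame hgt box)
open Crest.Agent.R234.AS_456 (hp vp)
open Crest.Agent.R234.F10a_188 Crest.Agent.R234.F10b_188 Crest.Agent.R234.F10d_188
open Crest.Agent.R234.Stp_518
open Crest.Agent.R234.Top_395
open Crest.Agent.R234.Gi_456 (Gr tube foot yy ch Kc pm)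
open Crest.Agent.R234.GL_394 (Ch VK II Pf)
open Crest.Agent.R234.FL9_567

noncomputable section

namespace Crest.Agent.R234.FL10_567

/-! ### numbers -/

/-- thresholds for `Λ`. -/
theorem exists_large {η₀ ε₁ : ℝ} (hη : 0 < η₀) (hε : 0 < ε₁) : ∃ Lm : ℝ, 0 ≤ Lm ∧ ∀ Λ : ℝ, Lm ≤ Λ →
    Real.exp (-(Λ / 4)) ≤ η₀ ∧ 2 * Λ ^ 2 * Real.exp (-(Λ / 4)) ^ 2 ≤ ε₁ := by
  have h1 : Tendsto (fun Λ : ℝ => Real.exp (-(Λ / 4))) atTop (𝓝 0) := by
    refine Real.tendsto_exp_neg_atTop_nhds_zero.comp ?_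
    exact tendsto_id.atTop_div_const (by norm_num)
  have h2 : Tendsto (fun Λ : ℝ => 2 * Λ ^ 2 * Real.exp (-(Λ / 4)) ^ 2) atTop (𝓝 0) := by
    have h3 : Tendsto (fun Λ : ℝ => (Λ / 2) ^ 2 * Real.exp (-(Λ / 2))) atTop (𝓝 0) :=
      (Real.tendsto_pow_mul_exp_neg_atTop_nhds_zero 2).comp
        (tendsto_id.atTop_div_const (by norm_num))
    have h4 := h3.const_mul 8
    rw [mul_zero] at h4
    refine h4.congr fun Λ => ?_
    have e : Real.exp (-(Λ / 4)) ^ 2 = Real.exp (-(Λ / 2)) := by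
      rw [← Real.exp_nat_mul]
      congr 1
      push_cast
      ring
    rw [e]
    ring
  have h5 := (h1.eventually (gt_mem_nhds hη)).and (h2.eventually (gt_mem_nhds hε))
  obtain ⟨L, hL⟩ := eventually_atTop.1 h5
  exact ⟨max L 0, le_max_right _ _, fun Λ hΛ =>
    ⟨(hL Λ ((le_max_left _ _).trans hΛ)).1.le, (hL Λ ((le_max_left _ _).trans hΛ)).2.le⟩⟩

/-- threshold for the flatness. -/
theorem exists_om (A C : ℝ) {ε₁ d : ℝ} (hε : 0 < ε₁) (hd : 0 < d) :
    ∃ om₀ : ℝ, 0 < om₀ ∧ om₀ ≤ 1 ∧ ∀ om : ℝ, 0 < om → om ≤ om₀ →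
      A * om ^ (1 / 4 : ℝ) ≤ ε₁ ∧ C * om ^ (9 / 10 : ℝ) ≤ d := by
  have c1 : Tendsto (fun om : ℝ => A * om ^ (1 / 4 : ℝ)) (𝓝 0) (𝓝 0) := by
    have h := ((Real.continuous_rpow_const (by norm_num : (0:ℝ) ≤ 1 / 4)).tendsto 0).const_mul A
    rwa [Real.zero_rpow (by norm_num), mul_zero] at h
  have c2 : Tendsto (fun om : ℝ => C * om ^ (9 / 10 : ℝ)) (𝓝 0) (𝓝 0) := by
    have h := ((Real.continuous_rpow_const (by norm_num : (0:ℝ) ≤ 9 / 10)).tendsto 0).const_mul C
    rwa [Real.zero_rpow (by norm_num), mul_zero] at h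
  obtain ⟨δ, hδ, h⟩ := Metric.eventually_nhds_iff.1
    ((c1.eventually (gt_mem_nhds hε)).and (c2.eventually (gt_mem_nhds hd)))
  refine ⟨min (δ / 2) 1, lt_min (by positivity) one_pos, min_le_right _ _, fun om h0 h1 => ?_⟩
  have h2 := h (y := om) (by
    rw [Real.dist_eq, sub_zero, abs_of_pos h0]
    have := h1.trans (min_le_left _ _)
    linarith)
  exact ⟨h2.1.le, h2.2.le⟩

/-- numbers of the radius. -/
theorem rad_numbers {K l lb : ℝ} (hK : 32 ≤ K) (hl : l ≤ lb - 1 / 8) :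
    0 < Real.exp (l + 1 / K - lb) * (1 + 1 / (8 * K)) ∧
    Real.exp (l + 1 / K - lb) * (1 + 1 / (8 * K)) ≤ 1 ∧
    Real.exp (l - lb) ≤ Real.exp (l + 1 / K - lb) * (1 + 1 / (8 * K)) ∧
    Real.exp l * (1 + 1 / K) ≤ Real.exp lb * (Real.exp (l + 1 / K - lb) * (1 + 1 / (8 * K))) ∧
    Real.exp lb * (Real.exp (l + 1 / K - lb) * (1 + 1 / (8 * K))) ≤ 2 * Real.exp l := by
  have hK0 : 0 < K := by linarith
  have hi0 : 0 < 1 / K := by positivity
  have hi : 1 / K ≤ 1 / 32 := one_div_le_one_div_of_le (by norm_num) hK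
  have hi8 : 1 / (8 * K) = 1 / K / 8 := by field_simp
  rw [hi8]
  set i : ℝ := 1 / K with hidef
  have e0 : Real.exp (l + i - lb) = Real.exp (l - lb) * Real.exp i := by
    rw [← Real.exp_add]
    congr 1
    ring
  have e1 : Real.exp lb * (Real.exp (l + i - lb) * (1 + i / 8)) =
      Real.exp l * (Real.exp i * (1 + i / 8)) := by
    have : Real.exp lb * Real.exp (l - lb) = Real.exp l := by
      rw [← Real.exp_add]
      congr 1
      ring
    rw [e0, ← this]
    ring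
  have h1 : 1 + i ≤ Real.exp i := by
    have := Real.add_one_le_exp i
    linarith
  have h2 : Real.exp i * (1 - i) ≤ 1 := by
    have h3 := Real.add_one_le_exp (-i)
    have h4 : Real.exp i * Real.exp (-i) = 1 := by rw [← Real.exp_add]; simp
    have h5 := Real.exp_pos i
    nlinarith
  have h3 : Real.exp i ≤ 32 / 31 := by
    have h5 := Real.exp_pos i
    nlinarith
  have hE := Real.exp_pos i
  have hl0 := Real.exp_pos l
  refine ⟨by positivity, ?_, ?_, ?_, ?_⟩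
  · have h4 : 1 + i / 8 ≤ Real.exp (i / 8) := by
      have := Real.add_one_le_exp (i / 8)
      linarith
    calc Real.exp (l + i - lb) * (1 + i / 8) ≤ Real.exp (l + i - lb) * Real.exp (i / 8) := by gcongr
      _ = Real.exp (l + i - lb + i / 8) := by rw [← Real.exp_add]
      _ ≤ Real.exp 0 := Real.exp_le_exp.2 (by linarith)
      _ = 1 := Real.exp_zero
  · rw [e0]
    have h5 := Real.exp_pos (l - lb)
    have h6 : 1 ≤ Real.exp i * (1 + i / 8) := by nlinarith
    nlinarith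
  · rw [e1]
    refine mul_le_mul_of_nonneg_left ?_ hl0.le
    nlinarith
  · rw [e1, mul_comm 2]
    refine mul_le_mul_of_nonneg_left ?_ hl0.le
    nlinarith

variable {m n k : ℕ}

/-! ### the flat plane -/

/-- what the flatness at the scale `e^(l+c₀)` gives near the block. -/
theorem flat_data (hm : 1 ≤ m) (hk : k = m + n) {U : Set (Euc k)} {D : VarifoldData m k}
    (hU : IsOpen U) (hD : IsIntegralVarifoldIn U D) (hst : IsStationaryIn U D) {x : Euc k}
    {R om : ℝ} (hR : 0 < R) (hsub : Metric.closedBall x R ⊆ U) (hom : 0 < om)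
    (hf : FlatAt m (VD D) x om R) :
    ∃ P ∈ G m k, (∀ s, 0 < s → s < R →
        ∫ p in Metric.closedBall x s ×ˢ univ, height P x p ∂(VD D) ≤ om * R ^ (m + 2)) ∧
      ∀ᵐ p ∂(VD D), p.1 ∈ Metric.ball x (R / 2) →
        ‖(p.1 - x) - P (p.1 - x)‖ ≤ Real.sqrt (2 ^ (m + 1) / ome m) * Real.sqrt om * R := by
  obtain ⟨P, hP, hex⟩ := hf
  have hV := stat_VD hD hst
  have ho := ome_pos m
  refine ⟨P, hP, fun s hs hsR => ?_, ?_⟩
  · rw [pex_eq] at hex
    have hR2 : 0 < R ^ (m + 2) := by positivity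
    have h1 : ∫ p in Metric.ball x R ×ˢ univ, height P x p ∂(VD D) ≤ om * R ^ (m + 2) := by
      rw [inv_mul_le_iff₀ hR2] at hex
      linarith
    refine le_trans ?_ h1
    refine setIntegral_mono_set ?_ ?_ ?_
    · refine Strat3_842.integrableOn_of_bdd hV.conc ?_ (Strat3_842.continuous_height P x)
      rw [Top_395.prod_eq]
      exact fin_ball hV hsub Metric.ball_subset_closedBall
    · exact Filter.Eventually.of_forall fun p => by
        change 0 ≤ height P x p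
        unfold height
        positivity
    · exact (prod_mono (Metric.closedBall_subset_ball hsR) subset_rfl).eventuallyLE
  · obtain ⟨π', ρ', hf', rfl⟩ := exists_frame hk hP
    filter_upwards [Al9_182.ae_mem_support hD] with p hps hpb
    have hpU : p.1 ∈ U := hsub (Metric.ball_subset_closedBall
      (Metric.ball_subset_ball (by linarith) hpb))
    have h1 := sup_height hV hm hf' hR hsub hex hpb (one_le_Th hD hst hm hU hpU hps)
    have h2 : ‖(p.1 - x) - hp π' (p.1 - x)‖ = ‖ρ' (p.1 - x)‖ := by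
      have := norm_vert hf' (p.1 - x)
      simpa using this
    rw [h2]
    have h3 : ‖ρ' (p.1 - x)‖ ^ 2 ≤ (Real.sqrt (2 ^ (m + 1) / ome m) * Real.sqrt om * R) ^ 2 := by
      rw [mul_pow, mul_pow, Real.sq_sqrt (by positivity), Real.sq_sqrt hom.le]
      rw [← mul_le_mul_iff_right₀ ho]
      refine h1.trans (le_of_eq ?_)
      field_simp
    exact le_of_sq_le_sq h3 (by positivity)

/-! ### a state at a flat level -/

/-- the constant of the flatness. -/
def Cf (m : ℕ) (c₀ : ℝ) : ℝ :=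
  max 1 (max (Real.exp c₀ ^ (m + 2)) (Real.sqrt (2 ^ (m + 1) / ome m) * Real.exp c₀))

theorem one_le_Cf (m : ℕ) (c₀ : ℝ) : 1 ≤ Cf m c₀ := le_max_left _ _

theorem Cf_ge1 (m : ℕ) (c₀ : ℝ) : Real.exp c₀ ^ (m + 2) ≤ Cf m c₀ :=
  (le_max_left _ _).trans (le_max_right _ _)

theorem Cf_ge2 (m : ℕ) (c₀ : ℝ) : Real.sqrt (2 ^ (m + 1) / ome m) * Real.exp c₀ ≤ Cf m c₀ :=
  (le_max_right _ _).trans (le_max_right _ _)

/-- **a state at a flat level gives `SD`**. -/
theorem sd_of (hm : 1 ≤ m) (hk : k = m + n) {c : Cn} {C : Cst} {κm : ℝ} {U : Set (Euc k)}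
    {D : VarifoldData m k} {Q : ℕ} {x : Euc k} {om₁ om r₁ c₀ B l : ℝ} {J : ℕ} {M : Mo m n k}
    (hB : ∀ (κ r : ℝ) (u : Euc m → Euc n), MG_570.MG c.N κ r u →
      ContDiff ℝ ((c.N + 2 : ℕ) : ℕ∞) u ∧ ∀ j ≤ c.N + 2, ∀ x, ‖iteratedFDeriv ℝ j u x‖ ≤ B * κ)
    (hB0 : 0 ≤ B) (hκ : B * c.κ₀ ≤ 1 / 8) (hJ4 : 4 ≤ J) (hJ : J ≤ c.N + 2) (hT : 0 ≤ c.T)
    (hc₀ : c.T + 4 ≤ c₀) (hE : Env m U D Q x om₁ r₁) (hom₁ : om₁ ≤ 1)
    (hst : Sta c C κm (VD D) Q x M l) (hom : 0 < om) (hom1 : om ≤ 1)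
    (hfl : flatL m (VD D) x om c₀ r₁ l) :
    ∃ P : L k, SD m n k c.Ks J (((Q : ℝ) + 1) * (ome m * 8 ^ m)) (ome m * Q) (Real.exp c.T)
      (Cf m c₀) U (VD D) M.π M.ρ x M.S (M.rad l) l M.K (Real.exp (-(lam (M.I x (VD D)) l / 4))) om
      M.u P := by
  have hV := stat_VD hE.int hE.st
  have ho := ome_pos m
  have hQ1 : (1:ℝ) ≤ Q := by exact_mod_cast hE.Q1
  have hR : 0 < Real.exp (l + c₀) := Real.exp_pos _
  have hsub : Metric.closedBall x (Real.exp (l + c₀)) ⊆ U :=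
    (Metric.closedBall_subset_closedBall hfl.1).trans hE.sub
  obtain ⟨P, hP, hflat, hnear⟩ := flat_data hm hk hE.opn hE.int hE.st hR hsub hom hfl.2
  obtain ⟨n1, n2, n3, n4, n5⟩ := rad_numbers hst.K32 hst.rcd.hl
  have hSd : M.S = Real.exp M.lb := rfl
  have hrd : M.rad l = Real.exp (l + 1 / M.K - M.lb) * (1 + 1 / (8 * M.K)) := rfl
  rw [← hrd] at n1 n2 n3 n4 n5
  rw [← hSd] at n4 n5
  have hS := M.S_pos
  have hl0 := Real.exp_pos l
  have hc₀e : 54 ≤ Real.exp c₀ := by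
    have h1 : (2.718 : ℝ) < Real.exp 1 := by
      have := Real.exp_one_gt_d9
      linarith
    have h2 : Real.exp 4 = Real.exp 1 ^ 4 := by
      rw [← Real.exp_nat_mul]
      norm_num
    have h3 : Real.exp 4 ≤ Real.exp c₀ := Real.exp_le_exp.2 (by linarith)
    have h4 : (2.718 : ℝ) ^ 4 ≤ Real.exp 1 ^ 4 := by gcongr
    rw [h2] at h3
    norm_num at h4 ⊢
    linarith
  have hRe : Real.exp (l + c₀) = Real.exp l * Real.exp c₀ := Real.exp_add _ _
  have hr : 0 < M.S * M.rad l := mul_pos hS n1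
  have hlr : Real.exp l ≤ M.S * M.rad l := by
    refine le_trans ?_ n4
    have : 0 ≤ Real.exp l * (1 / M.K) := by
      have := hst.K32
      positivity
    linarith
  have h16 : 8 * (M.S * M.rad l) < Real.exp (l + c₀) := by
    rw [hRe]
    nlinarith
  have hSR : 8 * M.S ≤ Real.exp (l + c₀) := by
    have h1 : M.S * Real.exp 4 ≤ Real.exp (l + c₀) := by
      rw [hSd, ← Real.exp_add]
      exact Real.exp_le_exp.2 (by linarith [hst.lo])
    have h2 : (5:ℝ) ≤ Real.exp 4 := by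
      have := Real.add_one_le_exp (4:ℝ)
      linarith
    have h3 : (8:ℝ) ≤ Real.exp 4 := by
      have h4 : (2 : ℝ) ≤ Real.exp 1 := by
        have := Real.add_one_le_exp (1:ℝ)
        linarith
      have h5 : Real.exp 4 = Real.exp 1 ^ 4 := by
        rw [← Real.exp_nat_mul]
        norm_num
      have h6 : (2 : ℝ) ^ 4 ≤ Real.exp 1 ^ 4 := by gcongr
      rw [h5]
      norm_num at h6
      linarith
    nlinarith
  have hRr : Real.exp (l + c₀) ≤ Real.exp c₀ * (M.S * M.rad l) := by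
    rw [hRe, mul_comm]
    gcongr
  -- class
  obtain ⟨hcd, hbd⟩ := hB M.κ (M.rad l) M.u hst.cls.mg
  have hκ8 : B * M.κ ≤ 1 / 8 := (mul_le_mul_of_nonneg_left hst.cls.κ1 hB0).trans hκ
  have hcdJ : ContDiff ℝ J M.u := by
    refine hcd.of_le ?_
    exact_mod_cast hJ
  have hbdJ : ∀ j ≤ J, ∀ y, ‖iteratedFDeriv ℝ j M.u y‖ ≤ 1 / 8 := fun j hj y =>
    (hbd j (hj.trans hJ) y).trans hκ8
  have hgr : Gr M.S M.w := (FL7_567.gr_of_bd hS le_rfl (hcdJ.of_le (by exact_mod_cast hJ4))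
    (fun y => hbdJ 1 (by omega) y) (fun y => hbdJ 2 (by omega) y)).1
  have hu0 : ‖M.u 0‖ ≤ 1 := by
    have := hbdJ 0 (by omega) 0
    rw [norm_iteratedFDeriv_zero] at this
    linarith
  have hreg := Mv_504.reg_subset (x := x) hst.cls.frame hgr hu0
  refine ⟨P, ?_⟩
  have hI := hst.pos
  set Λ := lam (M.I x (VD D)) l with hΛ
  have hIη : M.I x (VD D) l = Real.exp (2 * l) * Real.exp (-(Λ / 4)) ^ 4 := by
    rw [← Real.exp_nat_mul, ← Real.exp_add]
    rw [show 2 * l + ((4:ℕ):ℝ) * -(Λ / 4) = Real.log (M.I x (VD D) l) by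
      rw [hΛ]
      unfold lam
      push_cast
      ring, Real.exp_log hI]
  have hsq : Real.sqrt (M.I x (VD D) l) = Real.exp l * Real.exp (-(Λ / 4)) ^ 2 := by
    rw [hIη, show Real.exp (2 * l) * Real.exp (-(Λ / 4)) ^ 4 =
      (Real.exp l * Real.exp (-(Λ / 4)) ^ 2) ^ 2 by
        rw [mul_pow, ← pow_mul, ← Real.exp_nat_mul l 2]
        norm_num, Real.sqrt_sq (by positivity)]
  exact
  { st := hV
    fr := hst.cls.frame
    S0 := hS
    rad0 := n1
    rad1 := n2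
    radT := by
      rw [inv_le_comm₀ n1 (Real.exp_pos _), ← Real.exp_neg]
      exact (Real.exp_le_exp.2 (by linarith [hst.lo])).trans n3
    el1 := n4
    el2 := n5
    K1 := by linarith [hst.K32]
    cd := hcdJ
    bd := hbdJ
    η0 := Real.exp_pos _
    Iη := hIη
    sup := hst.sup
    mean := fun ζ h1 h2 h3 => by
      have h4 := hst.mean ζ h1 h2 h3
      rw [hsq] at h4
      refine h4.trans (le_of_eq ?_)
      ring
    dom := (Metric.closedBall_subset_closedBall h16.le).trans hsub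
    up := by
      have h1 : rat m (VD D) x (8 * (M.S * M.rad l)) ≤ ENNReal.ofReal ((Q:ℝ) + 1) := by
        refine (hE.drop _ (by positivity) (h16.le.trans hfl.1)).trans ?_
        rw [ENNReal.ofReal_add (by positivity) zero_le_one, ENNReal.ofReal_natCast]
        gcongr
      have h2 := Up_456.real_ball_le (V := VD D) (by positivity) (by positivity) h1
      have h3 : (VD D).real (Metric.closedBall x (4 * (M.S * M.rad l)) ×ˢ univ) ≤
          (VD D).real (Metric.ball x (8 * (M.S * M.rad l)) ×ˢ univ) := by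
        refine measureReal_mono (prod_mono (Metric.closedBall_subset_ball (by linarith))
          subset_rfl) ?_
        rw [Top_395.prod_eq]
        exact (fin_ball hV hsub ((Metric.ball_subset_ball h16.le).trans
          Metric.ball_subset_closedBall)).ne
      refine (h3.trans h2).trans (le_of_eq ?_)
      rw [mul_pow]
      ring
    low := fun s hs hsr => by
      have h1 := mass_low hV hm (Q := Q) hE.Th.ge hsub hs (by linarith)
      refine h1.trans (le_of_eq ?_)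
      rw [measureReal_def, measureReal_def, mass_apply _ Metric.isClosed_closedBall.measurableSet,
        Top_395.prod_eq]
    pl := hP
    wf0 := hom.le
    wf1 := hom1
    flat := by
      refine (hflat _ (by positivity) h16).trans ?_
      calc om * Real.exp (l + c₀) ^ (m + 2)
          ≤ om * (Real.exp c₀ * (M.S * M.rad l)) ^ (m + 2) := by gcongr
        _ = (Real.exp c₀ ^ (m + 2) * om) * (M.S * M.rad l) ^ (m + 2) := by
            rw [mul_pow]
            ring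
        _ ≤ (Cf m c₀ * om) * (M.S * M.rad l) ^ (m + 2) := by
            gcongr
            exact Cf_ge1 m c₀
    near := by
      filter_upwards [hnear] with p h1 h2
      have h3 : p.1 ∈ Metric.ball x (Real.exp (l + c₀) / 2) := by
        refine Metric.closedBall_subset_ball ?_ (hreg h2)
        have h4 : M.S * Real.exp 4 ≤ Real.exp (l + c₀) := by
          rw [hSd, ← Real.exp_add]
          exact Real.exp_le_exp.2 (by linarith [hst.lo])
        have h5 : (8:ℝ) < Real.exp 4 := by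
          have h4 : (2 : ℝ) ≤ Real.exp 1 := by
            have := Real.add_one_le_exp (1:ℝ)
            linarith
          have h5 : Real.exp 4 = Real.exp 1 ^ 4 := by
            rw [← Real.exp_nat_mul]
            norm_num
          have h6 : (2 : ℝ) ^ 4 ≤ Real.exp 1 ^ 4 := by gcongr
          rw [h5]
          norm_num at h6
          linarith
        nlinarith
      refine (h1 h3).trans ?_
      calc Real.sqrt (2 ^ (m + 1) / ome m) * Real.sqrt om * Real.exp (l + c₀)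
          ≤ Real.sqrt (2 ^ (m + 1) / ome m) * Real.sqrt om *
              (Real.exp c₀ * (M.S * M.rad l)) := by gcongr
        _ = (Real.sqrt (2 ^ (m + 1) / ome m) * Real.exp c₀) * Real.sqrt om *
              (M.S * M.rad l) := by ring
        _ ≤ Cf m c₀ * Real.sqrt om * (M.S * M.rad l) := by
            gcongr
            exact Cf_ge2 m c₀ }

/-! ### the field -/

/-- number of derivatives used. -/
def Jn (m Ks : ℕ) : ℕ := 9 * (Ks + m) + 4

/-- **flat ⇒ `Λ` large**, all constants. -/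
theorem fl_world (m n : ℕ) (hm : 1 ≤ m) (Q : ℕ) (hQ : 1 ≤ Q) (Ks N : ℕ)
    (hN : Jn m Ks ≤ N + 2) (T c₀ : ℝ) (hT : 0 ≤ T) (hc₀ : T + 4 ≤ c₀) :
    ∃ κs : ℝ, 0 < κs ∧ ∃ Lm : ℝ, 0 ≤ Lm ∧ ∀ Λ₀ : ℝ, ∃ om₀ : ℝ, 0 < om₀ ∧ om₀ ≤ 1 ∧
      ∀ (c : Cn) (C : Cst) (κm : ℝ), c.N = N → c.Ks = Ks → c.T = T → c.κ₀ ≤ κs → Lm ≤ c.L₁ →
      ∀ {U : Set (Euc (m + n))} {D : VarifoldData m (m + n)} {x : Euc (m + n)} {om₁ r₁ : ℝ},
        Env m U D Q x om₁ r₁ → om₁ ≤ 1 → ∀ {M : Mo m n (m + n)} {l om : ℝ},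
          Sta c C κm (VD D) Q x M l → 0 < om → om ≤ om₀ → flatL m (VD D) x om c₀ r₁ l →
            Λ₀ ≤ lam (M.I x (VD D)) l := by
  obtain ⟨B, hB0, hB⟩ := Mx17_397.bdP m n N
  have ho := ome_pos m
  have hQ0 : (0:ℝ) < Q := by exact_mod_cast hQ
  obtain ⟨η₀, ε₁, C₁, hη₀, hε₁, hC₁, hcore⟩ := core m n (m + n) Ks (Jn m Ks) (by unfold Jn; omega)
    (by unfold Jn; omega) (by unfold Jn; omega) (Λm := ((Q : ℝ) + 1) * (ome m * 8 ^ m))
    (c := ome m * Q) (Tr := Real.exp T) (Cf := Cf m c₀) (by positivity) (by positivity)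
    (Real.one_le_exp hT) (one_le_Cf m c₀)
  obtain ⟨Lm, hLm0, hLm⟩ := exists_large hη₀ hε₁
  refine ⟨1 / (8 * (B + 1)), by positivity, Lm, hLm0, fun Λ₀ => ?_⟩
  obtain ⟨om₀, hom₀, hom₀1, hom₀'⟩ := exists_om (2 * Λ₀ ^ 2) C₁ hε₁ (Real.exp_pos (-Λ₀))
  refine ⟨om₀, hom₀, hom₀1, ?_⟩
  rintro c C κm rfl rfl rfl hκ hL₁ U D x om₁ r₁ hE hom₁ M l om hst hom homle hfl
  by_contra hcon
  push Not at hcon
  have hκ8 : B * c.κ₀ ≤ 1 / 8 := by
    calc B * c.κ₀ ≤ B * (1 / (8 * (B + 1))) := mul_le_mul_of_nonneg_left hκ hB0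
      _ = B / (B + 1) / 8 := by field_simp
      _ ≤ 1 / 8 := by
        gcongr
        rw [div_le_one (by positivity)]
        linarith
  obtain ⟨P, hSD⟩ := sd_of hm rfl hB hB0 hκ8 (by unfold Jn; omega) hN hT hc₀ hE hom₁ hst hom
    (homle.trans hom₀1) hfl
  have hΛL : Lm ≤ lam (M.I x (VD D)) l := hL₁.trans hst.L1
  set Λ := lam (M.I x (VD D)) l with hΛ
  have hΛ0 : 0 ≤ Λ := hLm0.trans hΛL
  obtain ⟨a1, a2⟩ := hLm Λ hΛL
  obtain ⟨b1, b2⟩ := hom₀' om hom homle
  have hKL : M.K ≤ 2 * Λ ^ 2 := hst.KL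
  have h1 := hcore hSD a1
    ((mul_le_mul_of_nonneg_right hKL (by positivity)).trans a2)
    (le_trans (mul_le_mul_of_nonneg_right (hKL.trans (by nlinarith)) (by positivity)) b1)
  have h2 : Real.exp (-(Λ / 4)) ^ 4 = Real.exp (-Λ) := by
    rw [← Real.exp_nat_mul]
    congr 1
    push_cast
    ring
  rw [h2] at h1
  have h3 := Real.exp_le_exp.1 (h1.trans b2)
  linarith

/-- **fields `fl`, `large` for all constants** (685's literal target). -/
theorem flAll (m n : ℕ) (hm : 1 ≤ m) : Thya_685.FlAll m n := by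
  refine ⟨0, fun Ks _ K _ Q hQ => ⟨Jn m Ks, fun N hN => ⟨0, fun T hT c₀ hc₀ G CK P K₀ k _ _ _ _ => ?_⟩⟩⟩
  obtain ⟨κs, hκs, Lm, hLm, H⟩ := fl_world m n hm Q (by omega) Ks N (by omega) T c₀ hT hc₀
  refine ⟨κs, hκs, fun κ₀ _ hκ₀ => ⟨Lm, fun L₁ hL₁ => ⟨0, fun Λ₀ _ => ?_⟩⟩⟩
  obtain ⟨om₀, h0, h1, h2⟩ := H Λ₀
  refine ⟨om₀, h0, fun om hom homle U D x r₁ hE => ⟨fun M l hst hfl _ => ?_, fun mu => ?_⟩⟩
  · exact h2 _ _ _ rfl rfl rfl hκ₀ hL₁ hE (homle.trans h1) hst hom homle hfl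
  · obtain ⟨om₂, g0, g1, g2⟩ := H mu
    exact ⟨om₂, g0, fun M l hst hfl _ =>
      g2 _ _ _ rfl rfl rfl hκ₀ hL₁ hE (homle.trans h1) hst g0 le_rfl hfl⟩

end Crest.Agent.R234.FL10_567
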