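import Crest.Agent.R234.Top1_456

/-!
# Row 234, (F8) START (helper456): `cmp`, `cmp'` = comparison of `exp (-Λ)` with the heights

* `Wb.c11`, `lowr_core`
* **`cmpAll`** : fields `cmp` and `cmp'` of `Thy` in the prefix `Ev` of `Thya1_685`
-/

set_option autoImplicit false
set_option linter.unusedVariables false

open MeasureTheory Filter Topology Set
open scoped ENNReal NNReal ContDiff InnerProductSpace
open Crest.GeometryTopology.Submanifold Crest.Agent.R234.Vf_884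
open Crest.Agent.R234.Main_456 (Frame Msys hgt)
open Crest.Agent.R234.AS_456 (hp vp)
open Crest.Agent.R234.MG_570 (MG)
open Crest.Agent.R234.Stp_518 Crest.Agent.R234.F10w_188
open Crest.Agent.R234.F10a_188 Crest.Agent.R234.F10b_188 Crest.Agent.R234.F10d_188
open Crest.Agent.R234.Top_395
open Crest.Agent.R234.Lvs_214

noncomputable section

namespace Crest.Agent.R234.Up_456

variable {m n k : ℕ}

theorem c11_of_wb {M : Mo m n k} {a : ℝ} (h : Wb M a) (A : ℝ) :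
    C11 (1 / 8) A M.u (fderiv ℝ M.u) where
  der := fun w _ => (h.cd.differentiable (by norm_num) w).hasFDerivAt
  zero := (h.b0 0).trans h.a8
  bd := fun w _ => (h.b1 w).trans h.a8
  lip := by
    intro w _ w' _
    have h0 : ContDiff ℝ 1 (fderiv ℝ M.u) := h.cd.fderiv_right (by norm_num)
    have h1 := convex_univ.norm_image_sub_le_of_norm_fderiv_le (𝕜 := ℝ) (f := fderiv ℝ M.u)
      (C := 1 / 8) (fun y _ => h0.differentiable (by norm_num) y)
      (fun y _ => (h.b2 y).trans h.a8) (mem_univ w') (mem_univ w)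
    exact h1

/-- `Lowr` from `LowV` -/
theorem lowr_core (m n N : ℕ) (T : ℝ) (hm : 1 ≤ m) (hN : 2 ≤ N) (hT : 0 ≤ T) : ∃ κ₁ C : ℝ,
    0 < κ₁ ∧ 0 < C ∧ ∀ (V : Measure (Euc (m + n) × L (m + n))) (x : Euc (m + n))
      (M : Mo m n (m + n)) (l Λ : ℝ), Frame M.π M.ρ → 0 ≤ M.κ → M.κ ≤ κ₁ → MG N M.κ 0 M.u →
        M.lb - T ≤ l → l ≤ M.lb → V (Metric.closedBall x (8 * M.S) ×ˢ univ) < ⊤ →
        Real.exp (-2 * l) * M.I x V l ≤ Real.exp (-Λ) →
        Lowr m n V x (1 / 8) (T + 3) 3 C l Λ := by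
  obtain ⟨Cw, hCw, HC⟩ := exists_wb m n hN
  obtain ⟨κ₁, C, hκ₁, hC, H⟩ := lowV m n (m + n) N T hm hN
  have hCw0 : 0 < Cw := by linarith
  refine ⟨min κ₁ (1 / (8 * Cw)), C, lt_min hκ₁ (by positivity), hC, ?_⟩
  intro V x M l Λ hf hκ0 hκ hmg h1 h2 h3 h4
  have hW : Wb M (Cw * M.κ) := HC hκ0 (by
    have := hκ.trans (min_le_right _ _)
    rw [le_div_iff₀ (by positivity)] at this
    linarith) hmg
  have h5 := H V x M l hf hκ0 (hκ.trans (min_le_left _ _)) hmg h1 h2 h3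
  refine ⟨M.π, M.ρ, hf, M.u, fderiv ℝ M.u, M.lb, 2, ?_, ?_, c11_of_wb hW 2, ?_⟩
  · rw [abs_le]; constructor <;> linarith
  · have e1 : Real.exp (l - 3 - M.lb) ≤ 1 := Real.exp_le_one_iff.2 (by linarith)
    linarith
  · exact h5.trans (mul_le_mul_of_nonneg_left h4 hC.le)

/-- the ball of the block lies in the environment -/
theorem block_le {l c₀ r₁ T lb : ℝ} (h : Real.exp (l + c₀) ≤ r₁) (hc₀ : T + 4 ≤ c₀)
    (hl : lb - T ≤ l) : 8 * Real.exp lb ≤ r₁ := by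
  have e8 : (8 : ℝ) ≤ Real.exp 3 := by
    have h1 : Real.exp 3 = Real.exp 1 ^ 3 := by rw [← Real.exp_nat_mul]; norm_num
    rw [h1]
    have h2 : (2.7182818283 : ℝ) < Real.exp 1 := Real.exp_one_gt_d9
    calc (8 : ℝ) ≤ 2.7182818283 ^ 3 := by norm_num
      _ ≤ Real.exp 1 ^ 3 := pow_le_pow_left₀ (by norm_num) h2.le 3
  calc 8 * Real.exp lb ≤ Real.exp 3 * Real.exp lb :=
        mul_le_mul_of_nonneg_right e8 (Real.exp_pos _).le
    _ = Real.exp (3 + lb) := by rw [← Real.exp_add]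
    _ ≤ Real.exp (l + c₀) := Real.exp_le_exp.2 (by linarith)
    _ ≤ r₁ := h

/-- **fields `cmp`, `cmp'`** -/
theorem cmpAll (m n : ℕ) (hm : 1 ≤ m) : Thya_685.Ev fun _ Q d => ∃ Cc : ℝ, 0 < Cc ∧
    ∀ (U : Set (Euc (m + n))) (D : VarifoldData m (m + n)) (x : Euc (m + n)) (r₁ : ℝ),
      Env m U D Q x d.om r₁ →
        (∀ M l, d.fl D x r₁ l → (d.W D Q x).st M l →
          Lowr m n (VD D) x (1 / 8) (d.T + 3) 3 Cc l ((d.W D Q x).L M l)) ∧
        ∀ (om' S : ℝ) (M : Mo m n (m + n)) (l : ℝ), S - 1 ≤ l → l ≤ S → d.fl D x r₁ l →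
          (preW d.c (VD D) x om' S).pre M l →
          Lowr m n (VD D) x (1 / 8) (d.T + 3) 3 Cc l ((preW d.c (VD D) x om' S).L M l) := by
  refine ⟨0, fun Ks _ K _ Q hQ => ⟨2, fun N hN => ⟨2, fun T hT c₀ hc₀ G CK P K₀ k _ _ _ _ => ?_⟩⟩⟩
  obtain ⟨κ₁, C, hκ₁, hC, H⟩ := lowr_core m n N T hm hN (by linarith)
  refine ⟨κ₁, hκ₁, fun κ₀ hκ0 hκ1 => ⟨0, fun L₁ hL₁ => ⟨0, fun Λ₀ hΛ₀ =>
    ⟨1, one_pos, fun om hom0 hom => ⟨C, hC, ?_⟩⟩⟩⟩⟩
  intro U D x r₁ hE
  have hV := stat_VD hE.int hE.st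
  have hfin : ∀ {s : ℝ}, s ≤ r₁ → (VD D) (Metric.closedBall x s ×ˢ univ) < ⊤ := fun hs =>
    hV.fin _ (isCompact_closedBall _ _) ((Metric.closedBall_subset_closedBall hs).trans hE.sub)
  constructor
  · intro M l hl hst
    have hl1 : M.lb - T ≤ l := hst.lo
    have hl2 : l ≤ M.lb := by have := hst.rcd.hl; linarith
    have hrad : 0 ≤ M.rad l := by
      have h1 := hst.K32
      unfold Mo.rad
      positivity
    refine H (VD D) x M l _ hst.cls.frame hst.cls.κ0 (hst.cls.κ1.trans hκ1)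
      (hst.cls.mg.mono le_rfl hrad) hl1 hl2 (hfin (block_le hl.1 hc₀ hl1)) (le_of_eq ?_)
    show Real.exp (-2 * l) * M.I x (VD D) l = Real.exp (-(2 * l - Real.log (M.I x (VD D) l)))
    rw [show -(2 * l - Real.log (M.I x (VD D) l)) = -2 * l + Real.log (M.I x (VD D) l) by ring,
      Real.exp_add, Real.exp_log hst.pos]
  · rintro om' S M l h1 h2 hl ⟨h3, h4⟩
    have hl1 : M.lb - T ≤ l := by rw [h3]; linarith
    have hl2 : l ≤ M.lb := by rw [h3]; linarith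
    refine H (VD D) x M l _ h4.cls.frame h4.cls.κ0 (h4.cls.κ1.trans hκ1)
      (h4.cls.mg.mono le_rfl (Real.exp_pos _).le) hl1 hl2 (hfin (block_le hl.1 hc₀ hl1)) ?_
    show _ ≤ Real.exp (-M.Lb)
    calc Real.exp (-2 * l) * M.I x (VD D) l ≤ Real.exp (-2 * l) * Real.exp (2 * l - M.Lb) :=
          mul_le_mul_of_nonneg_left h4.I_le (Real.exp_pos _).le
      _ = Real.exp (-M.Lb) := by rw [← Real.exp_add]; congr 1; ring

end Crest.Agent.R234.Up_456
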