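import Crest.Agent.R234.F11d_188
import Crest.Agent.R234.Top2_456
import Crest.Agent.R234.FL10_567

/-!
# Row 234, (F8) START, F11e (helper188): the pre-world and its first properties

* `preP` : the pre-world of the start (pre-states `Ps`).
* `topP`, `cmpP` : fields `top`, `cmp`, `cmp'` of `Thy` for it.
* `flat_shrink`, `plane_at` : flatness at nearby levels.
-/

set_option autoImplicit false
set_option linter.unusedVariables false

open MeasureTheory Filter Topology Set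
open scoped ENNReal NNReal ContDiff
open Crest.GeometryTopology.Submanifold Crest.Agent.R234.Vf_884
open Crest.Agent.R234.Main_456 (Frame Msys hgt NearQ)
open Crest.Agent.R234.AS_456 (hp vp)
open Crest.Agent.R234.MG_570 (MG SelP3)
open Crest.Agent.R234.F10a_188 Crest.Agent.R234.F10b_188 Crest.Agent.R234.F10d_188
open Crest.Agent.R234.Top_395 Crest.Agent.R234.Stp_518
open Crest.Agent.R234.F10t_188 Crest.Agent.R234.F10w_188 Crest.Agent.R234.F10y_188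
open Crest.Agent.R234.F10z_188 Crest.Agent.R234.F11a_188 Crest.Agent.R234.F11b_188
open Crest.Agent.R234.F11c_188 Crest.Agent.R234.F11d_188
open Crest.Agent.R234.Up_456 (om2 topAll cmpAll lowr_core block_le plS_spec)

noncomputable section

namespace Crest.Agent.R234.F11e_188

variable {m n k : ℕ}

/-- the pre-world at the starting level `S`. -/
def preP (c : Cn) (V : Measure (Euc k × L k)) (x : Euc k) (om S : ℝ) : Pre (Mo m n k) where
  pre := fun M l => M.lb = S + 1 / 8 ∧ Ps c V x M l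
  L := fun M _ => M.Lb
  κ := fun M _ => M.κ + ‖hp M.π - plS m V x om (8 * Real.exp (S + 1 / 8))‖

theorem Ps.of_Pst {c : Cn} {V : Measure (Euc k × L k)} {x : Euc k} {M : Mo m n k} {l : ℝ}
    (h : Pst c V x M l) (hl : l ≤ M.lb) : Ps c V x M l := by
  refine ⟨h.cls, h.I_le, ?_⟩
  unfold SupLe
  rw [S_mul_exp]
  filter_upwards [h.cone] with p hp g1 g2
  have hS := M.S_pos
  have h1 : Real.exp l ≤ M.S := Real.exp_le_exp.2 hl
  have h2 := hp (g1.trans (by linarith)) g2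
  have h3 : max 0 (‖M.π (p.1 - x)‖ - Real.exp l) = 0 := max_eq_left (by linarith)
  rwa [h3, mul_zero, add_zero] at h2

theorem Sel1.mono_Ks {N Ks Ks' : ℕ} {D : VarifoldData m k} {x : Euc k} {M M' : Mo m n k} {l L : ℝ}
    (h : Sel1 N Ks D x M M' l L) (hK : Ks ≤ Ks') : Sel1 N Ks' D x M M' l L :=
  ⟨h.hπ, h.hρ, h.hlb, h.hκ, h.mg, h.d0, h.d1,
    fun ζ h1 h2 h3 => h.mean ζ h1 h2 fun j hj => h3 j (hj.trans hK), h.sup⟩

theorem pex_at {U : Set (Euc k)} {V : Measure (Euc k × L k)} {x : Euc k} {P : L k} {σ R om : ℝ}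
    (hV : Stat m k U V) (hU : Metric.closedBall x R ⊆ U) (hσ : 0 < σ) (hσR : σ ≤ R)
    (h : pex m V P x R ≤ om) : pex m V P x σ ≤ (R / σ) ^ (m + 2) * om := by
  have h4 := pex_mono (P := P) hV hσ hσR hU
  have hR : 0 < R := hσ.trans_le hσR
  have h5 : R ^ (m + 2) * pex m V P x R ≤ R ^ (m + 2) * om :=
    mul_le_mul_of_nonneg_left h (by positivity)
  have h6 : σ ^ (m + 2) * pex m V P x σ ≤ σ ^ (m + 2) * ((R / σ) ^ (m + 2) * om) := by
    refine (h4.trans h5).trans (le_of_eq ?_)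
    rw [div_pow]; field_simp
  exact le_of_mul_le_mul_left h6 (by positivity)

theorem flat_shrink {U : Set (Euc k)} {V : Measure (Euc k × L k)} {x : Euc k} {om c₀ r₁ l l' : ℝ}
    (hV : Stat m k U V) (hU : Metric.closedBall x r₁ ⊆ U) (hom : 0 ≤ om)
    (h : flatL m V x om c₀ r₁ l) (h1 : l - 1 ≤ l') (h2 : l' ≤ l) :
    flatL m V x (Real.exp (m + 2) * om) c₀ r₁ l' := by
  obtain ⟨h3, P, hP, h4⟩ := h
  have h5 : Real.exp (l' + c₀) ≤ Real.exp (l + c₀) := Real.exp_le_exp.2 (by linarith)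
  refine ⟨h5.trans h3, P, hP, ?_⟩
  refine (pex_at hV ((Metric.closedBall_subset_closedBall h3).trans hU) (Real.exp_pos _) h5
    h4).trans ?_
  refine mul_le_mul_of_nonneg_right ?_ hom
  rw [← Real.exp_sub, ← Real.exp_nat_mul]
  refine Real.exp_le_exp.2 ?_
  push_cast
  have : (0:ℝ) ≤ (m:ℝ) + 2 := by positivity
  nlinarith

theorem plane_at {U : Set (Euc k)} {V : Measure (Euc k × L k)} {x : Euc k}
    {om c₀ r₁ l S : ℝ} (hV : Stat m k U V) (hU : Metric.closedBall x r₁ ⊆ U) (hc₀ : 5 ≤ c₀)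
    (hom : 0 ≤ om) (h : flatL m V x om c₀ r₁ l) (h1 : S - 1 ≤ l) (h2 : l ≤ S) :
    8 * Real.exp (S + 1 / 8) ≤ r₁ ∧
      ∃ P ∈ G m k, pex m V P x (8 * Real.exp (S + 1 / 8)) ≤ om * Real.exp ((m + 2) * c₀) := by
  obtain ⟨h3, P, hP, h4⟩ := h
  have e8 : (8 : ℝ) ≤ Real.exp 3 := by
    have h1 : Real.exp 3 = Real.exp 1 ^ 3 := by rw [← Real.exp_nat_mul]; norm_num
    rw [h1]
    have h2 : (2.7182818283 : ℝ) < Real.exp 1 := Real.exp_one_gt_d9
    calc (8 : ℝ) ≤ 2.7182818283 ^ 3 := by norm_num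
      _ ≤ Real.exp 1 ^ 3 := pow_le_pow_left₀ (by norm_num) h2.le 3
  have h5 : 8 * Real.exp (S + 1 / 8) ≤ Real.exp (l + c₀) := by
    calc 8 * Real.exp (S + 1 / 8) ≤ Real.exp 3 * Real.exp (S + 1 / 8) :=
          mul_le_mul_of_nonneg_right e8 (Real.exp_pos _).le
      _ = Real.exp (S + 1 / 8 + 3) := by rw [← Real.exp_add]; congr 1; ring
      _ ≤ Real.exp (l + c₀) := Real.exp_le_exp.2 (by linarith)
  refine ⟨h5.trans h3, P, hP, ?_⟩
  refine (pex_at hV ((Metric.closedBall_subset_closedBall h3).trans hU) (by positivity) h5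
    h4).trans ?_
  rw [mul_comm]
  refine mul_le_mul_of_nonneg_left ?_ hom
  have e1 : Real.exp ((m + 2) * c₀) = Real.exp c₀ ^ (m + 2) := by
    rw [← Real.exp_nat_mul]; push_cast; rfl
  rw [e1]
  refine pow_le_pow_left₀ (by positivity) ?_ _
  rw [div_le_iff₀ (by positivity)]
  have h6 : Real.exp (l + c₀) ≤ Real.exp c₀ * Real.exp (S + 1 / 8) := by
    rw [← Real.exp_add]
    exact Real.exp_le_exp.2 (by linarith)
  have h7 : 0 < Real.exp c₀ * Real.exp (S + 1 / 8) := by positivity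
  linarith

theorem topP (m n : ℕ) (hm : 1 ≤ m) : Thya_685.Ev fun _ Q d =>
    ∀ (U : Set (Euc (m + n))) (D : VarifoldData m (m + n)) (x : Euc (m + n)) (r₁ : ℝ),
      Env m U D Q x d.om r₁ → ∀ S, d.fl D x r₁ S →
        ∃ M : Mo m n (m + n), (preP d.c (VD D) x (om2 m d) S).pre M S ∧
          d.Λ₀ ≤ (preP (n := n) d.c (VD D) x (om2 m d) S).L M S ∧
          (preP d.c (VD D) x (om2 m d) S).κ M S ≤ d.κm / 2 := by
  obtain ⟨Ks₀, H⟩ := topAll m n hm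
  refine ⟨Ks₀, fun Ks hKs K hK Q hQ => ?_⟩
  obtain ⟨N₀, H⟩ := H Ks hKs K hK Q hQ
  refine ⟨N₀, fun N hN => ?_⟩
  obtain ⟨T₀, H⟩ := H N hN
  refine ⟨T₀, fun T hT c₀ hc₀ G CK P K₀ k a1 a2 a3 a4 => ?_⟩
  obtain ⟨κs, hκs, H⟩ := H T hT c₀ hc₀ G CK P K₀ k a1 a2 a3 a4
  refine ⟨κs, hκs, fun κ₀ h0 hκ => ?_⟩
  obtain ⟨Ls, H⟩ := H κ₀ h0 hκ
  refine ⟨Ls, fun L₁ hL₁ => ?_⟩
  obtain ⟨Λs, H⟩ := H L₁ hL₁
  refine ⟨Λs, fun Λ₀ hΛ => ?_⟩
  obtain ⟨oms, homs, H⟩ := H Λ₀ hΛ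
  refine ⟨oms, homs, fun om ho1 ho2 U D x r₁ hE S hS => ?_⟩
  obtain ⟨M, ⟨g1, g2⟩, g3, g4⟩ := H om ho1 ho2 U D x r₁ hE S hS
  exact ⟨M, ⟨g1, Ps.of_Pst g2 (by rw [g1]; linarith)⟩, g3, g4⟩

theorem cmpP (m n : ℕ) (hm : 1 ≤ m) : Thya_685.Ev fun _ Q d => ∃ Cc : ℝ, 0 < Cc ∧
    ∀ (U : Set (Euc (m + n))) (D : VarifoldData m (m + n)) (x : Euc (m + n)) (r₁ : ℝ),
      Env m U D Q x d.om r₁ →
        ∀ (om' S : ℝ) (M : Mo m n (m + n)) (l : ℝ), S - 1 ≤ l → l ≤ S → d.fl D x r₁ l →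
          (preP d.c (VD D) x om' S).pre M l →
          Lowr m n (VD D) x (1 / 8) (d.T + 3) 3 Cc l ((preP d.c (VD D) x om' S).L M l) := by
  refine ⟨0, fun Ks _ K _ Q hQ => ⟨2, fun N hN => ⟨2, fun T hT c₀ hc₀ G CK P K₀ k _ _ _ _ => ?_⟩⟩⟩
  obtain ⟨κ₁, C, hκ₁, hC, H⟩ := lowr_core m n N T hm hN (by linarith)
  refine ⟨κ₁, hκ₁, fun κ₀ hκ0 hκ1 => ⟨0, fun L₁ hL₁ => ⟨0, fun Λ₀ hΛ₀ =>
    ⟨1, one_pos, fun om hom0 hom => ⟨C, hC, ?_⟩⟩⟩⟩⟩
  intro U D x r₁ hE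
  have hV := stat_VD hE.int hE.st
  have hfin : ∀ {s : ℝ}, s ≤ r₁ → (VD D) (Metric.closedBall x s ×ˢ univ) < ⊤ := fun hs =>
    hV.fin _ (isCompact_closedBall _ _) ((Metric.closedBall_subset_closedBall hs).trans hE.sub)
  rintro om' S M l h1 h2 hl ⟨h3, h4⟩
  have hl1 : M.lb - T ≤ l := by rw [h3]; linarith
  have hl2 : l ≤ M.lb := by rw [h3]; linarith
  refine H (VD D) x M l _ h4.cls.frame h4.cls.κ0 (h4.cls.κ1.trans hκ1)
    (h4.cls.mg.mono le_rfl (Real.exp_pos _).le) hl1 hl2 (hfin (block_le hl.1 hc₀ hl1)) ?_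
  show _ ≤ Real.exp (-M.Lb)
  calc Real.exp (-2 * l) * M.I x (VD D) l ≤ Real.exp (-2 * l) * Real.exp (2 * l - M.Lb) :=
        mul_le_mul_of_nonneg_left h4.I_le (Real.exp_pos _).le
    _ = Real.exp (-M.Lb) := by rw [← Real.exp_add]; congr 1; ring

end Crest.Agent.R234.F11e_188
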