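import Crest.Agent.R234.F10w_188
import Crest.Agent.R234.F9c5_947
import Crest.Agent.R234.Top7_395
import Crest.Agent.R234.Mx17_397

/-!
# Row 234 (helper395): `PosV` of the START from `LowV`

At a singular point the heights over a reference are not all zero (`Top_395.sep_pos`, 947's `f9c`),
so `LowV` gives `0 < I`.
-/

set_option autoImplicit false

open MeasureTheory Filter Topology Set
open scoped ENNReal NNReal
open Crest.GeometryTopology.Submanifold Crest.Agent.R234.Vf_884
open Crest.Agent.R234.Main_456 Crest.Agent.R234.Top_395 Crest.Agent.R234.Stp_518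
open Crest.Agent.R234.F10w_188

noncomputable section

namespace Crest.Agent.R234.End_395

/-- **`PosV`**. -/
theorem posV_of (hL : LowV) : PosV := by
  intro m n k N Q Λ hm hN
  obtain ⟨κ₁, C, hκ₁, hC, H⟩ := hL m n k N 3 hm hN
  obtain ⟨C', hC', HC⟩ := C11.of_MG Mx17_397.bdP m n N
  refine ⟨κ₁, 1, hκ₁, one_pos, ?_⟩
  intro U D x ε₀ M l hB hκ _ hx
  have hS := M.S_pos
  have hV := stat_VD hB.int hB.st
  have hcb : IsCompact (Metric.closedBall x (8 * M.S)) := isCompact_closedBall x _
  have hlS : Real.exp l ≤ M.S := Real.exp_le_exp.2 (by linarith [hB.hi])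
  have h1 := H (VD D) x M l hB.pack.frame hB.κ0 hκ (hB.mg.mono le_rfl (Real.exp_pos _).le)
    hB.lo (by linarith [hB.hi]) (hV.fin _ hcb hB.sub)
  set r := Real.exp (l - 3) with hr
  have hr0 : 0 < r := Real.exp_pos _
  have hrS : r ≤ M.S := (Real.exp_le_exp.2 (by linarith)).trans hlS
  set t := r / M.S with ht
  have ht0 : 0 < t := by positivity
  have ht1 : t ≤ 1 := by rw [ht, div_le_one hS]; exact hrS
  have hMC := HC M.κ (Real.exp (l - M.lb)) 1 M.u one_pos hB.mg
  have hCκ : 0 ≤ C' * M.κ := mul_nonneg hC' hB.κ0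
  have hle : C' * M.κ ≤ C' * M.κ / t := by
    rw [le_div_iff₀ ht0]
    nlinarith
  have hMC' := hMC.rescale hCκ ht0 ht1 (κ' := C' * M.κ / t) hle (by nlinarith) le_rfl
  have hball : Metric.closedBall x r ⊆ U :=
    (Metric.closedBall_subset_closedBall (by linarith)).trans hB.sub
  obtain ⟨c, hc, Hc⟩ := sep_pos (F9c_947.f9c hm) (n := n) hB.opn hm hB.int hB.st hx hB.Q1 hB.Th
    hr0 hball (κ := C' * M.κ / t) (by positivity)
  have h2 := Hc M.π M.ρ hB.pack.frame _ _ hMC'.der hMC'.zero hMC'.bd hMC'.lip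
  have h3 : hgt M.π M.ρ x r (fun w => t⁻¹ • M.u (t • w)) = hgt M.π M.ρ x M.S M.u := by
    have h4 : r = M.S * t := by rw [ht]; field_simp
    have h5 := hgt_rescale (π := M.π) (ρ := M.ρ) (x := x) hS.ne' ht0.ne' M.u
    rw [← h4] at h5
    exact h5
  rw [h3] at h2
  have h4 : 0 < C * (Real.exp (-2 * l) * M.I x (VD D) l) := by
    refine lt_of_lt_of_le ?_ h1
    exact mul_pos (Real.exp_pos _) (hc.trans_le h2)
  have h5 : 0 < Real.exp (-2 * l) * M.I x (VD D) l := pos_of_mul_pos_right h4 hC.le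
  exact pos_of_mul_pos_right h5 (Real.exp_pos _).le

end Crest.Agent.R234.End_395
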