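import Crest.Agent.R234.MgDefs3_570

/-!
# Row 234, node F2 (helper570): last four OPEN sub-nodes of SEL

* `S2P`  : abstract selection step (Hahn-Banach + decay + representation) (570).
* `WJP`  : weak Jacobi inequality and tilt bound in the Wiener class (open).
* `DnsP` : `1 / dns (Du)` on a smaller ball as an element of `X 2` (open).
* `JacP` : the represented functional is a Jacobi field (open).
-/

set_option autoImplicit false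
set_option linter.unusedVariables false

open MeasureTheory Filter Topology Set
open scoped ENNReal NNReal ContDiff InnerProductSpace SchwartzMap
open Crest.GeometryTopology.Submanifold Crest.Agent.R234.Vf_884
open Crest.Agent.R234.Main_456 (Frame Msys)
open Crest.Agent.R234.Ell1_3 (gop ginv dns)
open Crest.Agent.R234.Mx5_397 (msop)
open Crest.Agent.R234.Mx9_397 (lop)
open Crest.Agent.R086.Wie Crest.Agent.R234.Mx1_397 Crest.Agent.R234.Mx3_397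
open Crest.Agent.R234.Sel5_570

noncomputable section

namespace Crest.Agent.R234.MG_570

/-- **S2**: the abstract selection step. -/
def S2P : Prop := ∀ (m n s : ℕ), 1 ≤ m → ∃ κ₁ C : ℝ, 0 < κ₁ ∧ 0 < C ∧ ∃ p : ℕ,
  ∀ (c : Cf (Euc m) (Fin (Module.finrank ℝ (Euc m))) (Fin n) (s + m + 1)), c.sz ≤ κ₁ →
  ∀ (β : (Fin n → X (Euc m) 0) →L[ℂ] ℂ) (r R H η : ℝ), 0 < r → r < R → R ≤ 7 / 4 → 0 ≤ H →
    0 ≤ η → ‖β‖ ≤ H →
    (∀ φ : Fin n → X (Euc m) 2, (∀ γ x, R ≤ ‖x‖ → ev (φ γ) x = 0) →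
      ‖β (Lop (stdOrthonormalBasis ℝ (Euc m)) c φ)‖ ≤ η * ‖φ‖) →
    ∃ J : Fin n → X (Euc m) s, ‖J‖ ≤ C * (H + η) / (R - r) ^ p ∧
      (∀ φ : Fin n → X (Euc m) 2, (∀ γ x, r ≤ ‖x‖ → ev (φ γ) x = 0) →
        ∑ γ, ∫ x, ev (J γ) x * ev (Lop (stdOrthonormalBasis ℝ (Euc m)) c φ γ) x = 0) ∧
      ∀ ζ : Fin n → X (Euc m) 0, (∀ γ x, r ≤ ‖x‖ → ev (ζ γ) x = 0) →
        ‖β ζ - ∑ γ, ∫ x, ev (J γ) x * ev (ζ γ) x‖ ≤ C * η * ‖ζ‖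

/-- **F2-WJ**: tilt bound and weak Jacobi inequality (from `GD.cacc`, `GD.weak_jacobi` of
Sel4_570, with `H = π†π`, `w = ρ† ∘ u ∘ π`). -/
def WJP : Prop := ∀ (m n : ℕ), 1 ≤ m → ∃ κ₀ C : ℝ, 0 < κ₀ ∧ 0 < C ∧
  ∀ (k : ℕ) (W : Measure (Euc k × L k)) (π : Euc k →L[ℝ] Euc m) (ρ : Euc k →L[ℝ] Euc n)
    (h Λ r R : ℝ) (a : XV m n 3) (u : Euc m → Euc n), 0 < r → r < R → R ≤ 7 / 4 → 0 ≤ h →
    Cy_870.CylStat W π ρ 0 R 1 → W univ ≤ ENNReal.ofReal Λ → 0 ≤ Λ →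
    IsReal a → ‖a‖ ≤ κ₀ → Rep a u → (∀ x ∈ Metric.ball (0 : Euc m) R, msop u x = 0) →
    (∀ᵐ q ∂W, ‖ρ q.1 - u (π q.1)‖ ≤ h) →
    (∫ p in {p : Euc k × L k | ‖π p.1‖ < r}, ‖p.2 - TG π ρ u (π p.1)‖ ∂W
      ≤ C * (1 + Λ) * h / (R - r) ^ 2) ∧
    ∀ (b : XV m n 2) (φ : Euc m → Euc n), IsReal b → Rep b φ → (∀ x, r ≤ ‖x‖ → φ x = 0) →
      |∫ p, lopT u φ (π p.1) (ρ p.1 - u (π p.1)) ∂W| ≤ C * Λ * h ^ 2 / (R - r) ^ 2 * ‖b‖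

/-- **F2-DNS**: `1 / dns (Du)` as an element of `X 2`. -/
def DnsP : Prop := ∀ (m n : ℕ), ∃ N₀ : ℕ, ∀ N ≥ N₀, ∃ κ₀ C : ℝ, 0 < κ₀ ∧ 0 < C ∧ ∃ p : ℕ,
  ∀ (κ r ε : ℝ) (u : Euc m → Euc n), κ ≤ κ₀ → 0 < ε → ε ≤ 1 → ε ≤ r → r ≤ 7 / 4 → MG N κ r u →
    ∃ D : X (Euc m) 2, star D = D ∧ ‖D‖ ≤ C / ε ^ p ∧
      ∀ x ∈ Metric.ball (0 : Euc m) (r - ε), ev D x = (((dns (fderiv ℝ u x))⁻¹ : ℝ) : ℂ)

/-- **F2-JAC**: a real field `J` orthogonal to all `Lop φ`, divided by the area density, is a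
Jacobi field (from `IbpP`: `Ibp2_937.ibpP`, and the fundamental lemma). -/
def JacP : Prop := ∀ (m n t : ℕ) (a : XV m n (t + 3)) (u : Euc m → Euc n)
    (c : Cf (Euc m) (Fin (Module.finrank ℝ (Euc m))) (Fin n) t) (J : XV m n 2) (D : X (Euc m) 2)
    (j : Euc m → Euc n) (r : ℝ), IsReal a → Rep a u → IsReal J → star D = D → r ≤ 7 / 4 →
  (∀ x ∈ Metric.ball (0 : Euc m) r, msop u x = 0) →
  (∀ (b : XV m n 2) (φ : Euc m → Euc n), IsReal b → Rep b φ → ∀ (x : Euc m) (γ : Fin n),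
    ev (Lop (stdOrthonormalBasis ℝ (Euc m)) c b γ) x
      = ((lopT u φ x (EuclideanSpace.single γ 1) : ℝ) : ℂ)) →
  (∀ x ∈ Metric.ball (0 : Euc m) r, ev D x = (((dns (fderiv ℝ u x))⁻¹ : ℝ) : ℂ)) →
  (∀ φ : XV m n 2, (∀ γ x, r ≤ ‖x‖ → ev (φ γ) x = 0) →
    ∑ γ, ∫ x, ev (J γ) x * ev (Lop (stdOrthonormalBasis ℝ (Euc m)) c φ γ) x = 0) →
  Rep (fun γ => J γ * D) j → ∀ x ∈ Metric.ball (0 : Euc m) r, lop u j x = 0

end Crest.Agent.R234.MG_570
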