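import Crest.Agent.R234.Mx17_397
import Crest.Agent.R234.MgDefs4_570

/-!
# Row 234, VF-MINEX part 18 (helper397): node F2-DNS

`exists_comp`: a smooth function of `Du`, `u` in the class `MG`, is on `closedBall 0 (7/4)` an
element of the Wiener space `X M` of bounded norm; `dnsP : DnsP`.
-/

set_option autoImplicit false
set_option linter.unusedSectionVars false

open MeasureTheory Complex Filter Real
open scoped ContDiff Topology InnerProductSpace

noncomputable section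

namespace Crest.Agent.R234.Mx18_397

open Crest.Agent.R086.Wie Crest.Agent.R234.Mx1_397 Crest.Agent.R234.Mx3_397
  Crest.Agent.R234.Mx5_397
  Crest.Agent.R234.Mx6_397 Crest.Agent.R234.Mx11_397 Crest.Agent.R234.Mx15_397
  Crest.Agent.R234.Mx16_397 Crest.Agent.R234.Mx17_397 Crest.Agent.R234.Ell1_3
open Crest.GeometryTopology.Submanifold Crest.Agent.R234.MG_570

/-- bounds of the derivatives of a smooth function on a compact set -/
theorem exists_bound_comp {E F : Type*} [NormedAddCommGroup E] [NormedSpace ℝ E]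
    [NormedAddCommGroup F] [NormedSpace ℝ F] {G : E → F} (hG : ContDiff ℝ ∞ G) {S : Set E}
    (hS : IsCompact S) (K : ℕ) :
    ∃ B : ℝ, 0 ≤ B ∧ ∀ i ≤ K, ∀ q ∈ S, ‖iteratedFDeriv ℝ i G q‖ ≤ B := by
  have h1 : ∀ i : ℕ, ∃ B : ℝ, 0 ≤ B ∧ ∀ q ∈ S, ‖iteratedFDeriv ℝ i G q‖ ≤ B := by
    intro i
    obtain ⟨B, hB⟩ := hS.exists_bound_of_continuousOn
      (hG.continuous_iteratedFDeriv (m := i) (by exact_mod_cast le_top)).continuousOn
    exact ⟨max B 0, le_max_right _ _, fun q hq => (hB q hq).trans (le_max_left _ _)⟩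
  choose B hB0 hB using h1
  refine ⟨∑ i ∈ Finset.range (K + 1), B i, Finset.sum_nonneg fun i _ => hB0 i,
    fun i hi q hq => (hB i q hq).trans ?_⟩
  exact Finset.single_le_sum (f := B) (fun i _ => hB0 i) (Finset.mem_range.2 (by omega))

/-- smooth functions of `Du` as elements of the Wiener space -/
theorem exists_comp (m n M N : ℕ) (hN : M + m ≤ N) {G : (Euc m →L[ℝ] Euc n) → ℝ}
    (hG : ContDiff ℝ ∞ G) : ∃ C : ℝ, 0 < C ∧ ∀ (κ r : ℝ) (u : Euc m → Euc n), κ ≤ 1 →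
      MG N κ r u → ∃ D : X (Euc m) M, star D = D ∧ ‖D‖ ≤ C ∧
        ∀ x, ‖x‖ ≤ 7 / 4 → ev D x = ((G (fderiv ℝ u x) : ℝ) : ℂ) := by
  obtain ⟨C1, hC1, h1⟩ := bdP m n N
  obtain ⟨χ, hχ, hχ1, -⟩ := exists_cut (F := Euc m) (r' := 7 / 4) (r := 2) (by norm_num)
    (by norm_num) le_rfl
  obtain ⟨C2, hC2, h2⟩ := exists_CK (F := Euc m) M
  set K := M + Module.finrank ℝ (Euc m) + 1 with hK
  have hfr : Module.finrank ℝ (Euc m) = m := finrank_euclideanSpace_fin
  have hKN : K ≤ N + 1 := by omega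
  obtain ⟨C3, hC3, h3⟩ := IsCut.exists_mul_boundK hχ K
  obtain ⟨B, hB0, hB⟩ := exists_bound_comp hG
    (isCompact_closedBall (0 : Euc m →L[ℝ] Euc n) C1) K
  set D0 := max 1 C1 with hD0
  have hD1 : 1 ≤ D0 := le_max_left _ _
  set A : ℝ := K.factorial * B * D0 ^ K with hA
  have hA0 : 0 ≤ A := by positivity
  refine ⟨C2 * (C3 * A) + 1, by positivity, fun κ r u hκ hMG => ?_⟩
  obtain ⟨hu, hub⟩ := h1 κ r u hMG
  have hκb : ∀ j ≤ N + 2, ∀ x, ‖iteratedFDeriv ℝ j u x‖ ≤ C1 := fun j hj x =>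
    (hub j hj x).trans (by nlinarith)
  have hdu : ContDiff ℝ K (fderiv ℝ u) :=
    (hu.fderiv_right (m := (K : ℕ)) (by norm_cast; omega))
  have hdub : ∀ i, 1 ≤ i → i ≤ K → ∀ x, ‖iteratedFDeriv ℝ i (fderiv ℝ u) x‖ ≤ D0 ^ i := by
    intro i hi1 hiK x
    rw [norm_iteratedFDeriv_fderiv]
    exact (hκb (i + 1) (by omega) x).trans ((le_max_right _ _).trans
      (le_self_pow₀ hD1 (by omega)))
  have hw : ContDiff ℝ K (G ∘ fderiv ℝ u) := (hG.of_le (by exact_mod_cast le_top)).comp hdu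
  have hwb : ∀ j ≤ K, ∀ x, ‖iteratedFDeriv ℝ j (G ∘ fderiv ℝ u) x‖ ≤ A := by
    intro j hj x
    refine (norm_iteratedFDeriv_comp_le (N := (K : ℕ)) (hG.of_le (by exact_mod_cast le_top)) hdu
      (by exact_mod_cast hj) x (C := B) (D := D0) (fun i hi => hB i (hi.trans hj) _ ?_)
      (fun i hi1 hi => hdub i hi1 (hi.trans hj) x)).trans ?_
    · rw [mem_closedBall_zero_iff, ← norm_iteratedFDeriv_one]
      exact hκb 1 (by omega) x
    · rw [hA]
      have h4 : (j.factorial : ℝ) ≤ K.factorial := by exact_mod_cast Nat.factorial_le hj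
      have h5 : D0 ^ j ≤ D0 ^ K := pow_le_pow_right₀ hD1 hj
      gcongr
  obtain ⟨D, hDs, hDev, hDn⟩ := h2 (fun x => χ x * (G ∘ fderiv ℝ u) x) (C3 * A) (by positivity)
    ((hχ.smooth.of_le (by exact_mod_cast le_top)).mul hw)
    (fun x hx => by rw [hχ.zero hx.le, zero_mul])
    (h3 _ A hA0 hw fun j hj x _ => hwb j hj x)
  refine ⟨D, hDs, by linarith, fun x hx => ?_⟩
  rw [hDev, hχ1 x hx, one_mul]
  rfl

/-- **node F2-DNS** -/
theorem dnsP : DnsP := by
  intro m n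
  refine ⟨m + 2, fun N hN => ?_⟩
  obtain ⟨C, hC, h⟩ := exists_comp m n 2 N (by omega)
    (G := fun q => (dns q)⁻¹) (dns_contDiff.inv fun q => (dns_pos q).ne')
  refine ⟨1, C, one_pos, hC, 0, fun κ r ε u hκ hε _ _ hr hMG => ?_⟩
  obtain ⟨D, h1, h2, h3⟩ := h κ r u hκ hMG
  refine ⟨D, h1, by simpa using h2, fun x hx => h3 x ?_⟩
  have := mem_ball_zero_iff.1 hx
  linarith

end Crest.Agent.R234.Mx18_397
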