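import Crest.Agent.R234.Jr1_186

/-!
# Row 234, node F2-JREG part 2 (helper186)

`gainL`: gain of one derivative for Jacobi fields: `w ∈ (X F (N+2))^κ`, `U ∈ (X F (N+3))^κ` small,
`lop (ev U) (ev w) = 0` where `χ ≠ 0` ⟹ `χ w = z ∈ (X F (N+3))^κ`, `‖z‖ ≤ C (‖χ‖+1) ‖w‖`.
-/

set_option autoImplicit false
set_option linter.unusedSectionVars false

open MeasureTheory Complex Filter Real
open scoped ContDiff Topology InnerProductSpace

noncomputable section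

namespace Crest.Agent.R234.Jr_186

open Crest.Agent.R086.Wie Crest.Agent.R234.Mx1_397 Crest.Agent.R234.Mx2_397
  Crest.Agent.R234.Mx3_397 Crest.Agent.R234.Mx4_397 Crest.Agent.R234.Mx5_397
  Crest.Agent.R234.Mx6_397 Crest.Agent.R234.Mx8_397 Crest.Agent.R234.Mx9_397
  Crest.Agent.R234.Mx10_397 Crest.Agent.R234.Mx11_397 Crest.Agent.R234.Ell1_3

section lin

variable {F : Type*} [NormedAddCommGroup F] [InnerProductSpace ℝ F] [FiniteDimensional ℝ F]
  [MeasurableSpace F] [BorelSpace F]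
variable {ι κ : Type*} [Fintype ι] [Fintype κ]

/-- derivative of the Gram matrix, one level up -/
def Hp1 {N : ℕ} (e : OrthonormalBasis ι ℝ F) (u w : κ → X F (N + 2)) : ι → ι → X F (N + 1) :=
  fun i j => ∑ α, (D (e i) (w α) * D (e j) (u α) + D (e i) (u α) * D (e j) (w α))

theorem incl_Hp1 {N : ℕ} (e : OrthonormalBasis ι ℝ F) (u w : κ → X F (N + 2)) (i j : ι) :
    inclV (Nat.le_succ N) (Hp1 e u w i j) = Hp e u w i j := by
  unfold Hp1 Hp
  rw [map_sum]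
  refine Finset.sum_congr rfl fun α _ => ?_
  rw [map_add, inclV_mul, inclV_mul]
  rfl

theorem norm_D_u_le {N : ℕ} (e : OrthonormalBasis ι ℝ F) (u : κ → X F (N + 1)) (i : ι) (α : κ) :
    ‖D (e i) (u α)‖ ≤ 2 * π * ‖u‖ := by
  have hp := Real.pi_pos
  refine (norm_D_le (e i) (u α)).trans ?_
  rw [e.norm_eq_one, mul_one]
  exact mul_le_mul_of_nonneg_left (norm_le_pi_norm u α) (by positivity)

theorem norm_Hp1_le {N : ℕ} (e : OrthonormalBasis ι ℝ F) (u w : κ → X F (N + 2)) :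
    ‖Hp1 e u w‖ ≤ 2 * cH κ * (‖u‖ * ‖w‖) := by
  have hp := Real.pi_pos
  have hc := cH_nonneg (κ := κ)
  refine (pi_norm_le_iff_of_nonneg (by positivity)).2 fun i =>
    (pi_norm_le_iff_of_nonneg (by positivity)).2 fun j => ?_
  unfold Hp1
  calc _ ≤ ∑ _α : κ, 2 * (2 * π) ^ 2 * (‖u‖ * ‖w‖) := by
        refine (norm_sum_le _ _).trans (Finset.sum_le_sum fun α _ => ?_)
        have a1 := norm_D_u_le e w i α
        have a2 := norm_D_u_le e u j α
        have a3 := norm_D_u_le e u i α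
        have a4 := norm_D_u_le e w j α
        calc _ ≤ ‖D (e i) (w α)‖ * ‖D (e j) (u α)‖ + ‖D (e i) (u α)‖ * ‖D (e j) (w α)‖ :=
              (norm_add_le _ _).trans (add_le_add (norm_mul_le _ _) (norm_mul_le _ _))
          _ ≤ (2 * π * ‖w‖) * (2 * π * ‖u‖) + (2 * π * ‖u‖) * (2 * π * ‖w‖) := by gcongr
          _ = _ := by ring
    _ = _ := by
        rw [Finset.sum_const, Finset.card_univ, nsmul_eq_mul]
        unfold cH
        ring

theorem incl_mm {M N : ℕ} (h : M ≤ N) (a c : ι → ι → X F N) (i j : ι) :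
    inclV h (mm a c i j) = mm (fun i j => inclV h (a i j)) (fun i j => inclV h (c i j)) i j := by
  unfold mm
  rw [map_sum]
  exact Finset.sum_congr rfl fun l _ => inclV_mul h _ _

theorem incl_Kp {r : ℝ} (hr : Sm ι κ r) {N : ℕ} (e : OrthonormalBasis ι ℝ F)
    {u : κ → X F (N + 2)} (hu : ‖u‖ ≤ r) (w : κ → X F (N + 2)) (i j : ι) :
    inclV (Nat.le_succ N) (Kp (H1 e u) (Hp1 e u w) i j) = Kp (Hm e u) (Hp e u w) i j := by
  have h1 : (fun i j => inclV (Nat.le_succ N) (qi (H1 e u) i j)) = qi (Hm e u) := by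
    funext i j
    exact incl_qi hr e hu i j
  have h2 : (fun i j => inclV (Nat.le_succ N) (Hp1 e u w i j)) = Hp e u w := by
    funext i j
    exact incl_Hp1 e u w i j
  have h3 : (fun i j => inclV (Nat.le_succ N) (opR (qi (H1 e u)) (Hp1 e u w) i j))
      = opR (qi (Hm e u)) (Hp e u w) := by
    funext i j
    show inclV (Nat.le_succ N) (Hp1 e u w i j + mm (Hp1 e u w) (qi (H1 e u)) i j) = _
    rw [map_add, incl_mm, h1, h2, incl_Hp1]
    rfl
  show inclV (Nat.le_succ N) (-(opR (qi (H1 e u)) (Hp1 e u w) i j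
    + mm (qi (H1 e u)) (opR (qi (H1 e u)) (Hp1 e u w)) i j)) = _
  rw [map_neg, map_add, incl_mm, h1, h3]
  show -(inclV (Nat.le_succ N) (opR (qi (H1 e u)) (Hp1 e u w) i j) + _) = _
  have h4 : inclV (Nat.le_succ N) (opR (qi (H1 e u)) (Hp1 e u w) i j)
      = opR (qi (Hm e u)) (Hp e u w) i j := congrFun (congrFun h3 i) j
  rw [h4]
  rfl

theorem norm_Kp_le {r : ℝ} (hr : Sm ι κ r) {N : ℕ} (e : OrthonormalBasis ι ℝ F)
    {u : κ → X F (N + 2)} (hu : ‖u‖ ≤ r) (w : κ → X F (N + 2)) :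
    ‖Kp (H1 e u) (Hp1 e u w)‖ ≤ 8 * cH κ * (‖u‖ * ‖w‖) := by
  have h1 := card_norm_qi_le (Sm.card_le1 hr e hu)
  unfold Kp
  rw [norm_neg]
  refine (norm_opL_le h1 _).trans ?_
  have h2 := norm_opR_le h1 (Hp1 e u w)
  have h3 := norm_Hp1_le e u w
  linarith

end lin

section step

variable {F V : Type} [NormedAddCommGroup F] [InnerProductSpace ℝ F] [FiniteDimensional ℝ F]
  [MeasurableSpace F] [BorelSpace F]
  [NormedAddCommGroup V] [InnerProductSpace ℝ V] [FiniteDimensional ℝ V]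
variable {ι κ : Type*} [Fintype ι] [Fintype κ]

theorem star_mm {N : ℕ} {a c : ι → ι → X F N} (ha : ∀ i j, star (a i j) = a i j)
    (hc : ∀ i j, star (c i j) = c i j) (i j : ι) : star (mm a c i j) = mm a c i j := by
  unfold mm
  rw [star_sum]
  refine Finset.sum_congr rfl fun l _ => ?_
  rw [star_mul, ha, hc, mul_comm]

theorem star_Kp {N : ℕ} {h d : ι → ι → X F N} (hh : Fintype.card ι * ‖h‖ ≤ 1 / 2)
    (hs : ∀ i j, star (h i j) = h i j) (ds : ∀ i j, star (d i j) = d i j) (i j : ι) :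
    star (Kp h d i j) = Kp h d i j := by
  have h1 : ∀ i j, star (opR (qi h) d i j) = opR (qi h) d i j := fun i j => by
    show star (d i j + mm d (qi h) i j) = d i j + mm d (qi h) i j
    rw [star_add, ds, star_mm ds (star_qi hh hs)]
  show star (-(opR (qi h) d i j + mm (qi h) (opR (qi h) d) i j))
    = -(opR (qi h) d i j + mm (qi h) (opR (qi h) d) i j)
  rw [star_neg, star_add, h1, star_mm (star_qi hh hs) h1]

theorem star_LX {r : ℝ} (hr : Sm ι κ r) {N : ℕ} (e : OrthonormalBasis ι ℝ F)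
    {u w : κ → X F (N + 2)} (hu1 : ‖u‖ ≤ r) (hu : ∀ α, star (u α) = u α)
    (hw : ∀ α, star (w α) = w α) (α : κ) : star (LX e u w α) = LX e u w α := by
  unfold LX
  rw [star_add, star_sum, star_sum]
  congr 1
  · exact Finset.sum_congr rfl fun i _ => star_Qd e hw i i α
  · refine Finset.sum_congr rfl fun i _ => ?_
    rw [star_sum]
    refine Finset.sum_congr rfl fun j _ => ?_
    rw [star_add, star_mul, star_mul, star_Qd e hw, star_Qd e hu,
      star_qi (hr.card_le e hu1) (star_Hm e hu),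
      star_Kp (hr.card_le e hu1) (star_Hm e hu) (star_Hp e hu hw), mul_comm,
      mul_comm (Qd e u i j α)]

local notation "eF" => stdOrthonormalBasis ℝ F

/-- right side of the equation of `χ w`, level `N+1` -/
def FL {N : ℕ} {χ : F → ℝ} (hχ : IsCut χ) (U : κ → X F (N + 1 + 2)) (u w : κ → X F (N + 2)) :
    κ → X F (N + 1) := fun α =>
  ∑ i, ((2 : ℂ) • (D (eF i) (cs (N + 2) hχ) * D (eF i) (w α))
      + inclV (Nat.le_succ (N + 1)) (w α) * D (eF i) (D (eF i) (cs (N + 3) hχ)))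
    + ∑ i, ∑ j, qi (H1 (eF) u) i j * (D (eF i) (cs (N + 2) hχ) * D (eF j) (w α)
      + D (eF j) (cs (N + 2) hχ) * D (eF i) (w α)
      + inclV (Nat.le_succ (N + 1)) (w α) * D (eF i) (D (eF j) (cs (N + 3) hχ)))
    - ∑ i, ∑ j, cs (N + 1) hχ * Kp (H1 (eF) u) (Hp1 (eF) u w) i j * Qd (eF) U i j α

/-- the cut-off unknown -/
def vL {N : ℕ} {χ : F → ℝ} (hχ : IsCut χ) (w : κ → X F (N + 2)) : κ → X F (N + 2) :=
  fun α => cs (N + 2) hχ * w α

theorem eq_vL (b : OrthonormalBasis κ ℝ V) {r : ℝ} (hr : Sm (Fin (Module.finrank ℝ F)) κ r)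
    {N : ℕ} {χ : F → ℝ} (hχ : IsCut χ) {U : κ → X F (N + 1 + 2)} {u w : κ → X F (N + 2)}
    (hU : ∀ α, inclV (Nat.le_succ (N + 2)) (U α) = u α) (hu1 : ‖u‖ ≤ r)
    (hu : ∀ α, star (u α) = u α) (hw : ∀ α, star (w α) = w α)
    (hM : ∀ x, χ x ≠ 0 → lop (syn b u) (syn b w) x = 0) (α : κ) :
    ∑ i, D (eF i) (D (eF i) (vL hχ w α)) = inclV (Nat.le_succ N) (FL hχ U u w α)
      - ∑ i, ∑ j, inclV (Nat.le_succ N) (qi (H1 (eF) u) i j) * Qd (eF) (vL hχ w) i j α := by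
  refine ev_inj fun x => ?_
  have hreal := ev_real (star_LX hr (eF) hu1 hu hw α) x
  have hzero : (χ x : ℂ) * ev (LX (eF) u w α) x = 0 := by
    rw [← hreal, ev_LX b hr hu1 hu hw]
    by_cases h : χ x = 0
    · rw [h, Complex.ofReal_zero, zero_mul]
    · rw [hM x h, inner_zero_right, Complex.ofReal_zero, mul_zero]
  have hv : ∀ i j, ev (D (eF i) (D (eF j) (vL hχ w α))) x
      = ev (D (eF i) (D (eF j) (cs (N + 2) hχ))) x * ev (w α) x
        + ev (D (eF j) (cs (N + 2) hχ)) x * ev (D (eF i) (w α)) x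
        + ev (D (eF i) (cs (N + 2) hχ)) x * ev (D (eF j) (w α)) x
        + ev (cs (N + 2) hχ) x * ev (D (eF i) (D (eF j) (w α))) x := fun i j =>
    ev_DD_mul _ _ _ _ x
  have hc3 : ∀ i j, ev (D (eF i) (D (eF j) (cs (N + 3) hχ))) x
      = ev (D (eF i) (D (eF j) (cs (N + 2) hχ))) x := fun i j => by
    rw [← inclV_cs (Nat.le_succ (N + 2)) hχ, ← inclV_D (Nat.le_succ (N + 1)),
      ← inclV_D (Nat.le_succ N), ev_inclV]
  have hU3 : ∀ i j, ev (Qd (eF) U i j α) x = ev (Qd (eF) u i j α) x := fun i j => by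
    unfold Qd
    rw [← hU α, ← inclV_D (Nat.le_succ (N + 1)), ← inclV_D (Nat.le_succ N), ev_inclV]
  have hKp : ∀ i j, ev (Kp (H1 (eF) u) (Hp1 (eF) u w) i j) x
      = ev (Kp (Hm (eF) u) (Hp (eF) u w) i j) x := fun i j => by
    rw [← incl_Kp hr (eF) hu1, ev_inclV]
  have hk : ∀ i j, ev (qi (H1 (eF) u) i j) x = ev (qi (Hm (eF) u) i j) x := fun i j => by
    rw [← incl_qi hr (eF) hu1, ev_inclV]
  rw [ev_sum, ev_sub, ev_inclV]
  unfold FL
  rw [ev_sub, ev_add, ev_sum, ev_sum, ev_sum, ev_sum]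
  have e1 : ∑ i, ev (D (eF i) (D (eF i) (vL hχ w α))) x
      = ∑ i, ev ((2 : ℂ) • (D (eF i) (cs (N + 2) hχ) * D (eF i) (w α))
        + inclV (Nat.le_succ (N + 1)) (w α) * D (eF i) (D (eF i) (cs (N + 3) hχ))) x
        + (χ x : ℂ) * ∑ i, ev (Qd (eF) w i i α) x := by
    rw [Finset.mul_sum, ← Finset.sum_add_distrib]
    refine Finset.sum_congr rfl fun i _ => ?_
    rw [hv, ev_add, ev_smul, ev_mul, ev_mul, ev_inclV, hc3, ev_cs]
    unfold Qd
    ring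
  have e2 : ∑ i, ev (∑ j, qi (H1 (eF) u) i j * (D (eF i) (cs (N + 2) hχ) * D (eF j) (w α)
        + D (eF j) (cs (N + 2) hχ) * D (eF i) (w α)
        + inclV (Nat.le_succ (N + 1)) (w α) * D (eF i) (D (eF j) (cs (N + 3) hχ)))) x
      = ∑ i, ev (∑ j, inclV (Nat.le_succ N) (qi (H1 (eF) u) i j) * Qd (eF) (vL hχ w) i j α) x
        - (χ x : ℂ) * ∑ i, ∑ j, ev (qi (Hm (eF) u) i j) x * ev (Qd (eF) w i j α) x := by
    rw [Finset.mul_sum, ← Finset.sum_sub_distrib]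
    refine Finset.sum_congr rfl fun i _ => ?_
    rw [ev_sum, ev_sum, Finset.mul_sum, ← Finset.sum_sub_distrib]
    refine Finset.sum_congr rfl fun j _ => ?_
    rw [ev_mul, ev_add, ev_add, ev_mul, ev_mul, ev_mul, ev_inclV, hc3, hk, ev_mul, ev_inclV, hk]
    show _ = ev (qi (Hm (eF) u) i j) x * ev (D (eF i) (D (eF j) (vL hχ w α))) x
      - (χ x : ℂ) * (ev (qi (Hm (eF) u) i j) x * ev (D (eF i) (D (eF j) (w α))) x)
    rw [hv, ev_cs]
    ring
  have e4 : ∑ i, ev (∑ j, cs (N + 1) hχ * Kp (H1 (eF) u) (Hp1 (eF) u w) i j * Qd (eF) U i j α) x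
      = (χ x : ℂ) * ∑ i, ∑ j, ev (Kp (Hm (eF) u) (Hp (eF) u w) i j) x * ev (Qd (eF) u i j α) x := by
    rw [Finset.mul_sum]
    refine Finset.sum_congr rfl fun i _ => ?_
    rw [ev_sum, Finset.mul_sum]
    refine Finset.sum_congr rfl fun j _ => ?_
    rw [ev_mul, ev_mul, ev_cs, hKp, hU3]
    ring
  have e3 : (χ x : ℂ) * ∑ i, ev (Qd (eF) w i i α) x
      + (χ x : ℂ) * ∑ i, ∑ j, ev (qi (Hm (eF) u) i j) x * ev (Qd (eF) w i j α) x
      + (χ x : ℂ) * ∑ i, ∑ j, ev (Kp (Hm (eF) u) (Hp (eF) u w) i j) x * ev (Qd (eF) u i j α) x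
      = 0 := by
    rw [← mul_add, ← mul_add]
    refine Eq.trans ?_ hzero
    congr 1
    unfold LX
    rw [ev_add, ev_sum, ev_sum, add_assoc, ← Finset.sum_add_distrib]
    congr 1
    refine Finset.sum_congr rfl fun i _ => ?_
    rw [ev_sum, ← Finset.sum_add_distrib]
    exact Finset.sum_congr rfl fun j _ => by rw [ev_add, ev_mul, ev_mul]
  rw [e1, e2, e4]
  linear_combination e3

/-- the constant of `FL` -/
def cFL (F κ : Type*) [NormedAddCommGroup F] [InnerProductSpace ℝ F] [Fintype κ] : ℝ :=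
  (Module.finrank ℝ F + (Module.finrank ℝ F) ^ 2 * 1) * (3 * (2 * π) ^ 2)
    + (Module.finrank ℝ F) ^ 2 * (8 * cH κ * (2 * π) ^ 2)

theorem cFL_nonneg : 0 ≤ cFL F κ := by
  have hc := cH_nonneg (κ := κ)
  unfold cFL; positivity

theorem norm_cs_mono {M N : ℕ} (h : M ≤ N) {χ : F → ℝ} (hχ : IsCut χ) :
    ‖cs M hχ‖ ≤ ‖cs N hχ‖ := by
  rw [← inclV_cs h hχ]
  exact norm_inclV_le _ _

theorem norm_FL_le {r : ℝ} (hr : Sm (Fin (Module.finrank ℝ F)) κ r) (hr1 : r ≤ 1) {N : ℕ}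
    {χ : F → ℝ} (hχ : IsCut χ) {U : κ → X F (N + 1 + 2)} {u : κ → X F (N + 2)}
    (w : κ → X F (N + 2)) (hU : ‖U‖ ≤ r) (hu : ‖u‖ ≤ r) :
    ‖FL hχ U u w‖ ≤ cFL F κ * ‖cs (N + 3) hχ‖ * ‖w‖ := by
  have hp := Real.pi_pos
  have hcH := cH_nonneg (κ := κ)
  have hcF := cFL_nonneg (F := F) (κ := κ)
  have hc2 : ‖cs (N + 2) hχ‖ ≤ ‖cs (N + 3) hχ‖ := norm_cs_mono (by omega) hχ
  have hc1 : ‖cs (N + 1) hχ‖ ≤ ‖cs (N + 3) hχ‖ := norm_cs_mono (by omega) hχ
  set L := ‖cs (N + 3) hχ‖ with hL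
  have hL0 : 0 ≤ L := norm_nonneg _
  set A := 3 * (2 * π) ^ 2 * L with hA
  have hA0 : 0 ≤ A := by positivity
  refine (pi_norm_le_iff_of_nonneg (by positivity)).2 fun α => ?_
  have h1 : ∀ i, ‖D (eF i) (cs (N + 2) hχ)‖ ≤ 2 * π * L := fun i => by
    refine (norm_D_le _ _).trans ?_
    rw [(eF).norm_eq_one, mul_one]
    gcongr
  have h2 : ∀ i, ‖D (eF i) (w α)‖ ≤ 2 * π * ‖w‖ := fun i => norm_D_u_le (eF) w i α
  have h3 : ∀ i j, ‖D (eF i) (D (eF j) (cs (N + 3) hχ))‖ ≤ (2 * π) ^ 2 * L :=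
    fun i j => by
      refine (norm_D_le _ _).trans ?_
      rw [(eF).norm_eq_one, mul_one]
      have := norm_D_le (eF j) (cs (N + 3) hχ)
      rw [(eF).norm_eq_one, mul_one] at this
      calc _ ≤ 2 * π * (2 * π * L) := mul_le_mul_of_nonneg_left this (by positivity)
        _ = _ := by ring
  have h4 : ‖inclV (Nat.le_succ (N + 1)) (w α)‖ ≤ ‖w‖ :=
    (norm_inclV_le _ _).trans (norm_le_pi_norm w α)
  have h5 : ∀ i j, ‖D (eF i) (cs (N + 2) hχ) * D (eF j) (w α)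
      + D (eF j) (cs (N + 2) hχ) * D (eF i) (w α)
      + inclV (Nat.le_succ (N + 1)) (w α) * D (eF i) (D (eF j) (cs (N + 3) hχ))‖ ≤ A * ‖w‖ :=
    fun i j => by
      calc _ ≤ ‖D (eF i) (cs (N + 2) hχ)‖ * ‖D (eF j) (w α)‖
            + ‖D (eF j) (cs (N + 2) hχ)‖ * ‖D (eF i) (w α)‖
            + ‖inclV (Nat.le_succ (N + 1)) (w α)‖ * ‖D (eF i) (D (eF j) (cs (N + 3) hχ))‖ :=
            (norm_add_le _ _).trans (add_le_add ((norm_add_le _ _).trans
              (add_le_add (norm_mul_le _ _) (norm_mul_le _ _))) (norm_mul_le _ _))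
        _ ≤ (2 * π * L) * (2 * π * ‖w‖) + (2 * π * L) * (2 * π * ‖w‖)
            + ‖w‖ * ((2 * π) ^ 2 * L) :=
            add_le_add (add_le_add (mul_le_mul (h1 i) (h2 j) (norm_nonneg _) (by positivity))
              (mul_le_mul (h1 j) (h2 i) (norm_nonneg _) (by positivity)))
              (mul_le_mul h4 (h3 i j) (norm_nonneg _) (by positivity))
        _ = _ := by rw [hA]; ring
  have h6 : ∀ i, ‖(2 : ℂ) • (D (eF i) (cs (N + 2) hχ) * D (eF i) (w α))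
      + inclV (Nat.le_succ (N + 1)) (w α) * D (eF i) (D (eF i) (cs (N + 3) hχ))‖ ≤ A * ‖w‖ :=
    fun i => by
      calc _ ≤ 2 * (‖D (eF i) (cs (N + 2) hχ)‖ * ‖D (eF i) (w α)‖)
            + ‖inclV (Nat.le_succ (N + 1)) (w α)‖ * ‖D (eF i) (D (eF i) (cs (N + 3) hχ))‖ := by
            refine (norm_add_le _ _).trans (add_le_add ?_ (norm_mul_le _ _))
            rw [norm_smul, Complex.norm_two]
            exact mul_le_mul_of_nonneg_left (norm_mul_le _ _) (by norm_num)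
        _ ≤ 2 * ((2 * π * L) * (2 * π * ‖w‖)) + ‖w‖ * ((2 * π) ^ 2 * L) :=
            add_le_add (mul_le_mul_of_nonneg_left
              (mul_le_mul (h1 i) (h2 i) (norm_nonneg _) (by positivity)) (by norm_num))
              (mul_le_mul h4 (h3 i i) (norm_nonneg _) (by positivity))
        _ = _ := by rw [hA]; ring
  have hn : (Module.finrank ℝ F : ℝ) = 0 ∨ (1 : ℝ) ≤ Module.finrank ℝ F := by
    rcases Nat.eq_zero_or_pos (Module.finrank ℝ F) with h | h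
    · left; exact_mod_cast h
    · right; exact_mod_cast h
  have h7 : (Module.finrank ℝ F : ℝ) * ‖qi (H1 (eF) u)‖ ≤ 1 := by
    have := card_norm_qi_le (Sm.card_le1 hr (eF) hu)
    rwa [Fintype.card_fin] at this
  have h9 : ∀ i j, ‖cs (N + 1) hχ * Kp (H1 (eF) u) (Hp1 (eF) u w) i j * Qd (eF) U i j α‖
      ≤ 8 * cH κ * (2 * π) ^ 2 * L * ‖w‖ := fun i j => by
    have a1 : ‖Kp (H1 (eF) u) (Hp1 (eF) u w) i j‖ ≤ 8 * cH κ * (1 * ‖w‖) := by
      refine (norm_ent _ i j).trans ((norm_Kp_le hr (eF) hu w).trans ?_)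
      have := hu.trans hr1
      gcongr
    have a2 : ‖Qd (eF) U i j α‖ ≤ (2 * π) ^ 2 * 1 := by
      refine (norm_Qd_le (eF) U i j α).trans ?_
      have := hU.trans hr1
      gcongr
    calc _ ≤ ‖cs (N + 1) hχ * Kp (H1 (eF) u) (Hp1 (eF) u w) i j‖ * ‖Qd (eF) U i j α‖ :=
          norm_mul_le _ _
      _ ≤ (L * (8 * cH κ * (1 * ‖w‖))) * ((2 * π) ^ 2 * 1) := by
          refine mul_le_mul ((norm_mul_le _ _).trans ?_) a2 (norm_nonneg _) (by positivity)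
          exact mul_le_mul hc1 a1 (norm_nonneg _) hL0
      _ = _ := by ring
  unfold FL
  calc _ ≤ (∑ i : Fin (Module.finrank ℝ F), A * ‖w‖
        + ∑ i : Fin (Module.finrank ℝ F), ∑ j : Fin (Module.finrank ℝ F),
          ‖qi (H1 (eF) u)‖ * (A * ‖w‖))
        + ∑ i : Fin (Module.finrank ℝ F), ∑ j : Fin (Module.finrank ℝ F),
          8 * cH κ * (2 * π) ^ 2 * L * ‖w‖ := by
        refine (norm_sub_le _ _).trans (add_le_add ((norm_add_le _ _).trans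
          (add_le_add ((norm_sum_le _ _).trans
          (Finset.sum_le_sum fun i _ => h6 i)) ((norm_sum_le _ _).trans
          (Finset.sum_le_sum fun i _ => (norm_sum_le _ _).trans
          (Finset.sum_le_sum fun j _ => ?_))))) ?_)
        · exact (norm_mul_le _ _).trans (mul_le_mul (norm_ent _ i j) (h5 i j) (norm_nonneg _)
            (norm_nonneg _))
        · exact (norm_sum_le _ _).trans (Finset.sum_le_sum fun i _ => (norm_sum_le _ _).trans
            (Finset.sum_le_sum fun j _ => h9 i j))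
    _ = (Module.finrank ℝ F) * (A * ‖w‖) + (Module.finrank ℝ F) *
          ((Module.finrank ℝ F * ‖qi (H1 (eF) u)‖) * (A * ‖w‖))
          + (Module.finrank ℝ F) ^ 2 * (8 * cH κ * (2 * π) ^ 2 * L * ‖w‖) := by
        simp only [Finset.sum_const, Finset.card_univ, Fintype.card_fin, nsmul_eq_mul]
        ring
    _ ≤ (Module.finrank ℝ F) * (A * ‖w‖) + (Module.finrank ℝ F) ^ 2 * (1 * (A * ‖w‖))
          + (Module.finrank ℝ F) ^ 2 * (8 * cH κ * (2 * π) ^ 2 * L * ‖w‖) := by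
        have h8 : 0 ≤ A * ‖w‖ := by positivity
        have h9 : (Module.finrank ℝ F : ℝ) ≤ (Module.finrank ℝ F : ℝ) ^ 2 := by
          rcases hn with h | h
          · rw [h]; norm_num
          · nlinarith
        refine add_le_add (add_le_add le_rfl ?_) le_rfl
        calc _ ≤ (Module.finrank ℝ F : ℝ) * (1 * (A * ‖w‖)) := by gcongr
          _ ≤ _ := by gcongr
    _ = _ := by rw [hA]; unfold cFL; ring

theorem norm_vL_le {N : ℕ} {χ : F → ℝ} (hχ : IsCut χ) (w : κ → X F (N + 2)) :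
    ‖vL hχ w‖ ≤ ‖cs (N + 3) hχ‖ * ‖w‖ := by
  have h1 : ‖cs (N + 2) hχ‖ ≤ ‖cs (N + 3) hχ‖ := norm_cs_mono (Nat.le_succ _) hχ
  refine (pi_norm_le_iff_of_nonneg (by positivity)).2 fun α => ?_
  unfold vL
  exact (norm_mul_le _ _).trans (mul_le_mul h1 (norm_le_pi_norm w α) (norm_nonneg _)
    (norm_nonneg _))

theorem fin_aux {a f v B P L W : ℝ} (hP : 0 ≤ P) (h1 : f ≤ B * L * W)
    (h2 : v ≤ L * W) (h3 : a ≤ 2 * (72 * f + P * v)) : a ≤ 2 * (72 * B + P) * L * W := by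
  have h4 : P * v ≤ P * (L * W) := mul_le_mul_of_nonneg_left h2 hP
  have h5 : 2 * (72 * B + P) * L * W = 2 * (72 * (B * L * W) + P * (L * W)) := by ring
  rw [h5]
  linarith

theorem norm_K1_le {r : ℝ} (hr : Sm (Fin (Module.finrank ℝ F)) κ r) {N : ℕ} {ε : ℝ}
    (he1 : ε ≤ r)
    (he3 : 72 * ((Module.finrank ℝ F : ℝ) ^ 2 * (2 * π) ^ 2 * (2 * cH κ)) * ε ^ 2 ≤ 1 / 2)
    {u : κ → X F (N + 2)} (hu : ‖u‖ ≤ ε) :
    72 * ((Fintype.card (Fin (Module.finrank ℝ F)) : ℝ) ^ 2 * (2 * π) ^ 2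
      * ‖qi (H1 (eF) u)‖) ≤ 1 / 2 := by
  have hcH := cH_nonneg (κ := κ)
  have hp := Real.pi_pos
  refine le_trans ?_ he3
  rw [Fintype.card_fin]
  have h1 : ‖qi (H1 (eF) u)‖ ≤ 2 * (cH κ * ε ^ 2) := by
    refine (norm_qi_le (Sm.card_le1 hr (eF) (hu.trans he1))).trans
      (mul_le_mul_of_nonneg_left ?_ (by norm_num))
    refine (norm_H1_le (eF) u).trans ?_
    gcongr
  calc _ ≤ 72 * ((Module.finrank ℝ F : ℝ) ^ 2 * (2 * π) ^ 2 * (2 * (cH κ * ε ^ 2))) := by gcongr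
    _ = _ := by ring

/-- gain of one derivative, explicit coefficients -/
theorem gainL0 {c : F} (hc : ‖c‖ = 11 / 2) (b : OrthonormalBasis κ ℝ V) {r : ℝ}
    (hr : Sm (Fin (Module.finrank ℝ F)) κ r) (hr1 : r ≤ 1) {ε : ℝ} (he1 : ε ≤ r)
    (he3 : 72 * ((Module.finrank ℝ F : ℝ) ^ 2 * (2 * π) ^ 2 * (2 * cH κ)) * ε ^ 2 ≤ 1 / 2)
    {N : ℕ} {χ : F → ℝ} (hχ : IsCut χ) {U : κ → X F (N + 1 + 2)} {u w : κ → X F (N + 2)}
    (hUu : ∀ α, inclV (Nat.le_succ (N + 2)) (U α) = u α) (hu : ‖u‖ ≤ ε) (hU : ‖U‖ ≤ ε)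
    (hus : ∀ α, star (u α) = u α) (hws : ∀ α, star (w α) = w α)
    (hM : ∀ x, χ x ≠ 0 → lop (syn b u) (syn b w) x = 0) :
    ∃ z : κ → X F (N + 1 + 2), (∀ α, star (z α) = z α) ∧
        ‖z‖ ≤ 2 * (72 * cFL F κ + cPs c (N + 1 + 2)) * ‖cs (N + 3) hχ‖ * ‖w‖ ∧
        ∀ α x, ev (z α) x = (χ x : ℂ) * ev (w α) x := by
  obtain ⟨z, hz, hzn⟩ := gainA hc (eF) (qi (H1 (eF) u)) (norm_K1_le hr he1 he3 hu)
    (FL hχ U u w) (vL hχ w) (eq_vL b hr hχ hUu (hu.trans he1) hus hws hM)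
  have h8 : ∀ α x, ev (z α) x = (χ x : ℂ) * ev (w α) x := fun α x => by
    rw [← ev_inclV (Nat.le_succ (N + 2)), hz α]
    unfold vL
    rw [ev_mul, ev_cs]
  refine ⟨z, fun α => ev_inj fun x => ?_, ?_, h8⟩
  · rw [ev_star, h8, map_mul, Complex.conj_ofReal, ← ev_star, hws]
  · exact fin_aux (cPs_nonneg c _) (norm_FL_le hr hr1 hχ w (hU.trans he1) (hu.trans he1))
      (norm_vL_le hχ w) hzn

/-- **gain of one derivative for Jacobi fields** -/
theorem gainL {c : F} (hc : ‖c‖ = 11 / 2) (b : OrthonormalBasis κ ℝ V) (N : ℕ) :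
    ∃ ε C : ℝ, 0 < ε ∧ 0 ≤ C ∧ ∀ (χ : F → ℝ) (hχ : IsCut χ) (U : κ → X F (N + 1 + 2))
      (w : κ → X F (N + 2)), (∀ α, star (U α) = U α) → (∀ α, star (w α) = w α) → ‖U‖ ≤ ε →
      (∀ x, χ x ≠ 0 → lop (syn b U) (syn b w) x = 0) →
      ∃ z : κ → X F (N + 1 + 2), (∀ α, star (z α) = z α) ∧
        ‖z‖ ≤ C * ‖cs (N + 3) hχ‖ * ‖w‖ ∧ ∀ α x, ev (z α) x = (χ x : ℂ) * ev (w α) x := by
  obtain ⟨r, hr0, hr1, hr⟩ := exists_Sm (Fin (Module.finrank ℝ F)) κ
  have hcH := cH_nonneg (κ := κ)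
  have hp := Real.pi_pos
  obtain ⟨ε, he0, he1, he2, he3⟩ := exists_small (a := r)
    (C := 72 * ((Module.finrank ℝ F : ℝ) ^ 2 * (2 * π) ^ 2 * (2 * cH κ))) hr0 (by positivity)
  have hcF := cFL_nonneg (F := F) (κ := κ)
  have hPs := cPs_nonneg c (N + 1 + 2)
  refine ⟨ε, 2 * (72 * cFL F κ + cPs c (N + 1 + 2)), he0, by positivity,
    fun χ hχ U w hUs hws hU hM => ?_⟩
  have huU : ‖fun α => inclV (Nat.le_succ (N + 2)) (U α)‖ ≤ ‖U‖ := by
    refine (pi_norm_le_iff_of_nonneg (norm_nonneg _)).2 fun α => ?_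
    exact (norm_inclV_le _ _).trans (norm_le_pi_norm U α)
  have hsyn : syn b (fun α => inclV (Nat.le_succ (N + 2)) (U α)) = syn b U := by
    funext x
    unfold syn
    exact Finset.sum_congr rfl fun α _ => by rw [ev_inclV]
  exact gainL0 hc b hr hr1 he1 he3 hχ (U := U)
    (u := fun α => inclV (Nat.le_succ (N + 2)) (U α)) (w := w) (fun α => rfl) (huU.trans hU) hU
    (fun α => by rw [star_inclV, hUs]) hws (by rw [hsyn]; exact hM)

end step

end Crest.Agent.R234.Jr_186
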