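import Crest.Agent.R234.MgDefs4_570

/-!
# Row 234, node F2 (helper570): two more OPEN sub-nodes of the final assembly of SEL

* `NwP` (F2-NW) : the Newton step in `MG` form (from 397's `Mx8_397.newton`).
* `TlP` (F2-TL) : lower bound of the constant `θ` of `ThP`.
-/

set_option autoImplicit false
set_option linter.unusedVariables false

open MeasureTheory Filter Topology Set
open scoped ENNReal NNReal ContDiff InnerProductSpace SchwartzMap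
open Crest.GeometryTopology.Submanifold Crest.Agent.R234.Vf_884
open Crest.Agent.R234.Main_456 (Frame Msys)
open Crest.Agent.R234.Ell1_3 (gop ginv dns)
open Crest.Agent.R234.Mx5_397 (msop)
open Crest.Agent.R234.Mx9_397 (lop)
open Crest.Agent.R086.Wie Crest.Agent.R234.Mx1_397 Crest.Agent.R234.Mx3_397
open Crest.Agent.R234.Sel5_570

noncomputable section

namespace Crest.Agent.R234.MG_570

/-- **F2-NW**: Newton step: `u` minimal and `v` a Jacobi field on `ball 0 (r + ε)`, then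
`u + v + w` is minimal on `ball 0 r`, `‖w‖ ≤ C h² ε^{-p}` (cut-off `Cto_161.cX` between `r` and
`r + ε`, `Mx8_397.newton` with `δ = 0`). -/
def NwP : Prop := ∀ (m n N : ℕ), ∃ κ₀ C : ℝ, 0 < κ₀ ∧ 0 < C ∧ ∃ p : ℕ,
  ∀ (κ h r ε : ℝ) (u v : Euc m → Euc n) (b : XV m n (N + 2)),
    κ ≤ κ₀ → 0 < r → r ≤ 1 → 0 < ε → ε ≤ 1 / 2 → MG N κ (r + ε) u →
    IsReal b → Rep b v → ‖b‖ ≤ h → C * h ≤ ε ^ p →
    (∀ x ∈ Metric.ball (0 : Euc m) (r + ε), lop u v x = 0) →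
    ∃ (w : Euc m → Euc n) (c : XV m n (N + 2)), IsReal c ∧ Rep c w ∧ ‖c‖ ≤ C * h ^ 2 / ε ^ p ∧
      MG N (κ + 2 * h) r (fun x => u x + v x + w x)

/-- **F2-TL**: lower bound of `θ` (test function: cut-off `= 1` on `ball 0 (r/16)`, `= 0` off
`ball 0 (r/8)`, multiplied by a constant depending on `r₀` so that it is admissible). -/
def TlP : Prop := ∀ m : ℕ, 1 ≤ m → ∀ Λ r₀ : ℝ, 0 < Λ → 0 < r₀ → ∃ c e₀ : ℝ, 0 < c ∧ 0 < e₀ ∧
  ∀ (k : ℕ) (W : Measure (Euc k × L k)) (π : Euc k →L[ℝ] Euc m) (g : Euc m → ℝ) (r θ E : ℝ),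
    r₀ ≤ r → r ≤ 2 → W univ < ⊤ →
    ENNReal.ofReal Λ⁻¹ ≤ W ((fun p => π p.1) ⁻¹' Metric.ball 0 (r / 16)) →
    Continuous g → (∀ x, 0 ≤ g x) → (∀ x, g x ≤ 2) → E ≤ e₀ →
    (∀ ζ : Euc m → ℝ, ContDiff ℝ 1 ζ → (∀ x, r ≤ ‖x‖ → ζ x = 0) → (∀ x, |ζ x| ≤ 1) →
      (∀ x, ‖fderiv ℝ ζ x‖ ≤ 1) → |∫ p, ζ (π p.1) ∂W - θ * ∫ x, ζ x * g x| ≤ E) → c ≤ θ

end Crest.Agent.R234.MG_570
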