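import Crest.Agent.R234.Mx17_397
import Crest.Agent.R234.Jr2_186
import Crest.Agent.R234.Cto_161
import Crest.Agent.R234.MgDefs5_570

/-!
# Row 234, VF-MINEX part 19 (helper397): node F2-NW, the Newton step in `MG` form
-/

set_option autoImplicit false
set_option linter.unusedSectionVars false

open MeasureTheory Complex Filter Real
open scoped ContDiff Topology InnerProductSpace

noncomputable section

namespace Crest.Agent.R234.Mx19_397

open Crest.Agent.R086.Wie Crest.Agent.R234.Mx1_397 Crest.Agent.R234.Mx3_397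
  Crest.Agent.R234.Mx4_397 Crest.Agent.R234.Mx5_397
  Crest.Agent.R234.Mx6_397 Crest.Agent.R234.Mx8_397 Crest.Agent.R234.Mx9_397
  Crest.Agent.R234.Mx16_397 Crest.Agent.R234.Mx17_397
open Crest.GeometryTopology.Submanifold Crest.Agent.R234.MG_570
open Crest.Agent.R234.Main_456 (Msys)

theorem rep_add {m n N : ℕ} {a b : XV m n N} {u v : Euc m → Euc n} (ha : Rep a u)
    (hb : Rep b v) : Rep (a + b) (fun x => u x + v x) := fun x α => by
  rw [Pi.add_apply, ev_add, ← ha x α, ← hb x α, PiLp.add_apply, Complex.ofReal_add]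

theorem isReal_add {m n N : ℕ} {a b : XV m n N} (ha : IsReal a) (hb : IsReal b) :
    IsReal (a + b) := fun α => by
  rw [Pi.add_apply, star_add, ha, hb]

theorem isReal_sub {m n N : ℕ} {a b : XV m n N} (ha : IsReal a) (hb : IsReal b) :
    IsReal (a - b) := fun α => by
  rw [Pi.sub_apply, star_sub, ha, hb]

/-- **node F2-NW** -/
theorem nwP : NwP := by
  intro m n N
  rcases Nat.eq_zero_or_pos m with rfl | hm
  · refine ⟨1, 1, one_pos, one_pos, 0, fun κ h r ε u v b _ _ _ _ _ hMG hb hrep hbh _ _ => ?_⟩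
    obtain ⟨a, har, ha, hrepa, _⟩ := hMG
    have hh : 0 ≤ h := (norm_nonneg _).trans hbh
    refine ⟨fun _ => 0, 0, fun α => star_zero _, fun x α => ?_, ?_, a + b, isReal_add har hb, ?_, ?_,
      fun z _ => ?_⟩
    · rw [Pi.zero_apply, ev_zero]; simp
    · rw [norm_zero]; positivity
    · exact (norm_add_le _ _).trans (by linarith)
    · have := rep_add hrepa hrep
      simpa using this
    · unfold Msys
      simp
  -- `m ≥ 1`
  have : Nonempty (Fin m) := ⟨⟨0, hm⟩⟩
  have hnt : Nontrivial (Euc m) := inferInstanceAs (Nontrivial (EuclideanSpace ℝ (Fin m)))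
  obtain ⟨c₀, hc₀⟩ := exists_norm_eq (Euc m) (show (0 : ℝ) ≤ 11 / 2 by norm_num)
  set B := EuclideanSpace.basisFun (Fin n) ℝ with hB
  obtain ⟨e0, he0, hr, H⟩ := newton hc₀ B N
  obtain ⟨C1, hC1, p, hC⟩ := Cto_161.cX_bound (F := Euc m) N
  have hcT := cT_nonneg (ι := Fin (Module.finrank ℝ (Euc m))) (κ := Fin n)
  set cc := cT (Fin (Module.finrank ℝ (Euc m))) (Fin n) with hcc
  set C : ℝ := 2 / e0 + 144 * cc * C1 + 1 with hCdef
  have hCpos : 0 < C := by positivity
  have h144 : 144 * cc * C1 ≤ C := by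
    rw [hCdef]
    have : 0 ≤ 2 / e0 := by positivity
    linarith
  have h2e : 2 / e0 ≤ C := by
    rw [hCdef]
    have : 0 ≤ 144 * cc * C1 := by positivity
    linarith
  refine ⟨e0 / 2, C, by positivity, hCpos, p, fun κ h r ε u v b hκ hr0 hr1 hε hε1 hMG hb hrep hbh
    hsm hlop => ?_⟩
  obtain ⟨a, har, ha, hrepa, hM⟩ := hMG
  have hh : 0 ≤ h := (norm_nonneg _).trans hbh
  have hεp : 0 < ε ^ p := by positivity
  have hεp1 : ε ^ p ≤ 1 := pow_le_one₀ hε.le (by linarith)
  have hhe : h ≤ e0 / 2 := by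
    have h1 : 2 / e0 * h ≤ 1 := by nlinarith
    rw [div_mul_eq_mul_div, div_le_one he0] at h1
    linarith
  have hhp : C * h / ε ^ p ≤ 1 := (div_le_one hεp).2 hsm
  have hu : u = syn B a := rep_syn hrepa
  have hv : v = syn B b := rep_syn hrep
  have hae : ‖a‖ ≤ e0 / 2 := ha.trans hκ
  have hab : ‖a + b‖ ≤ κ + h := (norm_add_le _ _).trans (by linarith)
  set χ : X (Euc m) N := Cto_161.cX N hr0.le (by linarith : r < r + ε) (by linarith) with hχ
  have hχs : star χ = χ := Cto_161.star_cX N _ _ _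
  have hχn : ‖χ‖ ≤ C1 / ε ^ p := by
    refine (hC r (r + ε) hr0.le _ _).trans (le_of_eq ?_)
    rw [add_sub_cancel_left]
  have hχe : ∀ x, (ev χ x).re = Cto_161.ct r (r + ε) x := fun x => by
    rw [hχ, Cto_161.ev_cX, Complex.ofReal_re]
  have hχ0 : ∀ x, (ev χ x).re ≠ 0 → ‖x‖ < r + ε := fun x hx => by
    by_contra h1
    exact hx (by rw [hχe, Cto_161.ct_zero hr0.le (by linarith) (not_lt.1 h1)])
  have hSm : Sm (Fin (Module.finrank ℝ (Euc m))) (Fin n) e0 := by
    refine le_trans ?_ hr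
    have : e0 ≤ 145 * e0 := by linarith
    have hcH := cH_nonneg (κ := Fin n)
    gcongr
  have hLX : ∀ α, χ * LX (stdOrthonormalBasis ℝ (Euc m)) a b α = 0 := fun α => by
    refine ev_inj_re ?_ (star_zero _) fun x => ?_
    · rw [star_mul, hχs, Jr_186.star_LX hSm _ (hae.trans (by linarith)) har hb, mul_comm]
    · rw [re_ev_mul hχs, ev_LX B hSm (hae.trans (by linarith)) har hb, ev_zero, Complex.zero_re]
      by_cases h1 : (ev χ x).re = 0
      · rw [h1, zero_mul]
      · rw [← hu, ← hv, hlop x (mem_ball_zero_iff.2 (hχ0 x h1)), inner_zero_right, mul_zero]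
  have hdef : cc * ‖χ‖ * ‖b‖ ^ 2 ≤ cc * (C1 / ε ^ p) * h ^ 2 := by gcongr
  have hdef2 : 144 * (cc * (C1 / ε ^ p) * h ^ 2) ≤ C * h ^ 2 / ε ^ p := by
    have : 144 * (cc * (C1 / ε ^ p) * h ^ 2) = 144 * cc * C1 * h ^ 2 / ε ^ p := by ring
    rw [this]
    gcongr
  have hq : C * h ^ 2 / ε ^ p ≤ h := by
    have : C * h ^ 2 / ε ^ p = C * h / ε ^ p * h := by ring
    rw [this]
    nlinarith
  obtain ⟨w₁, hw1, hw2, _, hw4⟩ := H a b χ (Metric.ball 0 r) 0 har hb hχs le_rfl
    (hae.trans (by linarith)) (hab.trans (by linarith))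
    (fun x hx => by
      by_contra h1
      have := hχ0 x h1
      linarith)
    (fun x hx => by
      rw [← hu, ← Msys_eq]
      exact hM x (mem_ball_zero_iff.2 (hχ0 x hx)))
    (fun x hx => by
      have := mem_ball_zero_iff.1 hx
      exact ⟨by linarith, by rw [hχe, Cto_161.ct_one hr0.le (by linarith) this.le]⟩)
    (fun α => by rw [hLX α, norm_zero])
    (by rw [zero_add]; linarith)
  rw [zero_add] at hw2
  have hwn : ‖w₁ - (a + b)‖ ≤ C * h ^ 2 / ε ^ p := hw2.trans (by linarith)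
  have hcr : IsReal (w₁ - (a + b)) := isReal_sub hw1 (isReal_add har hb)
  have hrepc := syn_rep (m := m) (n := n) (N := N + 2) hcr
  refine ⟨syn B (w₁ - (a + b)), w₁ - (a + b), hcr, hrepc, hwn, w₁, hw1, ?_, ?_, fun z hz => ?_⟩
  · have : w₁ = (a + b) + (w₁ - (a + b)) := by abel
    rw [this]
    exact (norm_add_le _ _).trans (by linarith)
  · have := rep_add (rep_add hrepa hrep) hrepc
    rwa [add_sub_cancel] at this
  · have h1 := rep_syn (rep_add (rep_add hrepa hrep) hrepc)
    rw [add_sub_cancel] at h1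
    have h2 : (fun x => u x + v x + syn B (w₁ - (a + b)) x) = syn B w₁ := h1
    rw [h2, Msys_eq]
    exact hw4 z hz

end Crest.Agent.R234.Mx19_397
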