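import Crest.Agent.R234.Mx8_397

/-!
# Row 234, VF-MINEX part 9 (helper397): the linearised operator at function level

`lop u v = Σ g^{ij} ∂_i∂_j v - 2 Σ D²u(g⁻¹ Duᵀ Dv g⁻¹ e_i, e_i)`; `ev_LX`: `LX` synthesises `lop`.
-/

set_option autoImplicit false
set_option linter.unusedSectionVars false

open MeasureTheory Complex Filter Real
open scoped ContDiff Topology InnerProductSpace

noncomputable section

namespace Crest.Agent.R234.Mx9_397

open Crest.Agent.R086.Wie Crest.Agent.R234.Mx1_397 Crest.Agent.R234.Mx2_397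
  Crest.Agent.R234.Mx3_397 Crest.Agent.R234.Mx4_397 Crest.Agent.R234.Mx5_397
  Crest.Agent.R234.Mx6_397 Crest.Agent.R234.Mx8_397 Crest.Agent.R234.Ell1_3

section fn

variable {F V : Type} [NormedAddCommGroup F] [InnerProductSpace ℝ F] [FiniteDimensional ℝ F]
  [NormedAddCommGroup V] [InnerProductSpace ℝ V] [FiniteDimensional ℝ V]

/-- the linearised minimal surface operator `DM(u) v` -/
def lop (u v : F → V) (x : F) : V :=
  ∑ i, fderiv ℝ (fderiv ℝ v) x (ginv (fderiv ℝ u x) (stdOrthonormalBasis ℝ F i))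
      (stdOrthonormalBasis ℝ F i)
    - (2 : ℝ) • ∑ i, fderiv ℝ (fderiv ℝ u) x (ginv (fderiv ℝ u x)
        (ContinuousLinearMap.adjoint (fderiv ℝ u x)
          (fderiv ℝ v x (ginv (fderiv ℝ u x) (stdOrthonormalBasis ℝ F i)))))
        (stdOrthonormalBasis ℝ F i)

theorem lop_congr {u u' v v' : F → V} {x : F} (h : u =ᶠ[𝓝 x] u') (h' : v =ᶠ[𝓝 x] v') :
    lop u v x = lop u' v' x := by
  unfold lop
  rw [h.fderiv.fderiv_eq, h.fderiv_eq, h'.fderiv.fderiv_eq, h'.fderiv_eq]

theorem lop_contDiffOn {u v : F → V} {s : Set F} (hs : IsOpen s) (hu : ContDiffOn ℝ ∞ u s)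
    (hv : ContDiffOn ℝ ∞ v s) : ContDiffOn ℝ ∞ (lop u v) s := by
  have h1 : ContDiffOn ℝ ∞ (fderiv ℝ u) s := hu.fderiv_of_isOpen hs (by exact le_rfl)
  have h2 : ContDiffOn ℝ ∞ (fderiv ℝ (fderiv ℝ u)) s := h1.fderiv_of_isOpen hs (by exact le_rfl)
  have h3 : ContDiffOn ℝ ∞ (fderiv ℝ v) s := hv.fderiv_of_isOpen hs (by exact le_rfl)
  have h4 : ContDiffOn ℝ ∞ (fderiv ℝ (fderiv ℝ v)) s := h3.fderiv_of_isOpen hs (by exact le_rfl)
  have h5 : ContDiffOn ℝ ∞ (fun x => ginv (fderiv ℝ u x)) s := ginv_contDiff.comp_contDiffOn h1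
  have h6 : ContDiffOn ℝ ∞ (fun x => ContinuousLinearMap.adjoint (fderiv ℝ u x)) s :=
    (adjL (F := F) (V := V)).contDiff.comp_contDiffOn h1
  unfold lop
  refine ContDiffOn.sub (ContDiffOn.sum fun i _ => ?_)
    (ContDiffOn.const_smul _ (ContDiffOn.sum fun i _ => ?_))
  · exact (h4.clm_apply (h5.clm_apply contDiffOn_const)).clm_apply contDiffOn_const
  · refine (h2.clm_apply (h5.clm_apply (h6.clm_apply (h3.clm_apply
      (h5.clm_apply contDiffOn_const))))).clm_apply contDiffOn_const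

variable {κ : Type*} [Fintype κ]

local notation "eF" => stdOrthonormalBasis ℝ F

theorem lop_inner (b : OrthonormalBasis κ ℝ V) (u v : F → V) (x : F)
    (k : Matrix (Fin (Module.finrank ℝ F)) (Fin (Module.finrank ℝ F)) ℝ)
    (hk : ∀ i j, k i j = -(∑ α, ⟪b α, fderiv ℝ u x (eF i)⟫_ℝ * ⟪b α, fderiv ℝ u x (eF j)⟫_ℝ)
      - ∑ l, (∑ α, ⟪b α, fderiv ℝ u x (eF i)⟫_ℝ * ⟪b α, fderiv ℝ u x (eF l)⟫_ℝ) * k l j)
    (ks : k.transpose = k) (hs : ∀ a c, fderiv ℝ (fderiv ℝ u) x a c = fderiv ℝ (fderiv ℝ u) x c a)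
    (h' : Matrix (Fin (Module.finrank ℝ F)) (Fin (Module.finrank ℝ F)) ℝ)
    (hh' : ∀ i j, h' i j = ∑ α, (⟪b α, fderiv ℝ v x (eF i)⟫_ℝ * ⟪b α, fderiv ℝ u x (eF j)⟫_ℝ
      + ⟪b α, fderiv ℝ u x (eF i)⟫_ℝ * ⟪b α, fderiv ℝ v x (eF j)⟫_ℝ)) (α : κ) :
    ⟪b α, lop u v x⟫_ℝ
      = ∑ i, ⟪b α, fderiv ℝ (fderiv ℝ v) x (eF i) (eF i)⟫_ℝ
        + ∑ i, ∑ j, (k i j * ⟪b α, fderiv ℝ (fderiv ℝ v) x (eF i) (eF j)⟫_ℝ
          + (-((1 + k) * h' * (1 + k))) i j * ⟪b α, fderiv ℝ (fderiv ℝ u) x (eF i) (eF j)⟫_ℝ) := by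
  classical
  set A : Matrix (Fin (Module.finrank ℝ F)) (Fin (Module.finrank ℝ F)) ℝ :=
    Matrix.of fun i j => ∑ α, ⟪b α, fderiv ℝ v x (eF i)⟫_ℝ * ⟪b α, fderiv ℝ u x (eF j)⟫_ℝ with hA
  set Q : Matrix (Fin (Module.finrank ℝ F)) (Fin (Module.finrank ℝ F)) ℝ :=
    Matrix.of fun i j => ⟪b α, fderiv ℝ (fderiv ℝ u) x (eF i) (eF j)⟫_ℝ with hQ
  have hQs : Q.transpose = Q := by
    ext i j
    rw [Matrix.transpose_apply, hQ, Matrix.of_apply, Matrix.of_apply, hs]
  have hA' : h' = A + A.transpose := by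
    ext i j
    rw [hh', Matrix.add_apply, Matrix.transpose_apply, hA, Matrix.of_apply, Matrix.of_apply,
      ← Finset.sum_add_distrib]
    exact Finset.sum_congr rfl fun β _ => by ring
  set Gm : Matrix (Fin (Module.finrank ℝ F)) (Fin (Module.finrank ℝ F)) ℝ := 1 + k with hG
  have hGs : Gm.transpose = Gm := by
    rw [hG, Matrix.transpose_add, Matrix.transpose_one, ks]
  have hgi : ∀ j, ginv (fderiv ℝ u x) (eF j) = ∑ i, Gm i j • eF i := fun j => by
    rw [ginv_basis (eF) b (fderiv ℝ u x) (fun i j => k i j) hk j]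
    have : ∀ i, Gm i j • eF i = (if i = j then eF i else 0) + k i j • eF i := fun i => by
      rw [hG, Matrix.add_apply, Matrix.one_apply, add_smul]
      congr 1
      split_ifs <;> simp
    rw [Finset.sum_congr rfl fun i _ => this i, Finset.sum_add_distrib]
    simp
  clear_value Gm
  have hadj : ∀ i, ContinuousLinearMap.adjoint (fderiv ℝ u x) (fderiv ℝ v x (eF i))
      = ∑ l, A i l • eF l := fun i => by
    refine onb_ext (eF) fun l => ?_
    rw [ContinuousLinearMap.adjoint_inner_right]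
    have ho : ∀ n, ⟪eF l, eF n⟫_ℝ = if l = n then 1 else 0 :=
      fun n => (orthonormal_iff_ite.1 (eF).orthonormal) l n
    rw [inner_sum]
    simp only [inner_smul_right, ho]
    simp only [mul_ite, mul_one, mul_zero, Finset.sum_ite_eq, Finset.mem_univ, if_true]
    rw [hA, Matrix.of_apply, ← b.sum_inner_mul_inner (fderiv ℝ u x (eF l)) (fderiv ℝ v x (eF i))]
    exact Finset.sum_congr rfl fun β _ => by rw [real_inner_comm (b β)]; ring
  have hy : ∀ i, ginv (fderiv ℝ u x) (ContinuousLinearMap.adjoint (fderiv ℝ u x)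
      (fderiv ℝ v x (ginv (fderiv ℝ u x) (eF i)))) = ∑ j, (Gm * A.transpose * Gm) j i • eF j :=
    fun i => by
      rw [hgi]
      simp only [map_sum, map_smul, hadj, hgi]
      simp only [Finset.smul_sum, smul_smul]
      have : ∀ j, (Gm * A.transpose * Gm) j i • eF j
          = ∑ n, ∑ l, (Gm n i * (A n l * Gm j l)) • eF j := fun j => by
        rw [Matrix.mul_apply, Finset.sum_smul]
        refine Finset.sum_congr rfl fun n _ => ?_
        rw [Matrix.mul_apply, Finset.sum_mul, Finset.sum_smul]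
        refine Finset.sum_congr rfl fun l _ => ?_
        rw [Matrix.transpose_apply]
        congr 1; ring
      rw [Finset.sum_congr rfl fun j _ => this j]
      exact (Finset.sum_comm.trans (Finset.sum_congr rfl fun n _ => Finset.sum_comm)).symm
  have hT1 : ∑ i, ⟪b α, fderiv ℝ (fderiv ℝ v) x (ginv (fderiv ℝ u x) (eF i)) (eF i)⟫_ℝ
      = ∑ i, ⟪b α, fderiv ℝ (fderiv ℝ v) x (eF i) (eF i)⟫_ℝ
        + ∑ i, ∑ j, k i j * ⟪b α, fderiv ℝ (fderiv ℝ v) x (eF i) (eF j)⟫_ℝ := by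
    have h1 : ∀ j, ⟪b α, fderiv ℝ (fderiv ℝ v) x (ginv (fderiv ℝ u x) (eF j)) (eF j)⟫_ℝ
        = ⟪b α, fderiv ℝ (fderiv ℝ v) x (eF j) (eF j)⟫_ℝ
          + ∑ i, k i j * ⟪b α, fderiv ℝ (fderiv ℝ v) x (eF i) (eF j)⟫_ℝ := fun j => by
      rw [ginv_basis (eF) b (fderiv ℝ u x) (fun i j => k i j) hk j, map_add, map_sum,
        add_apply, inner_add_right]
      congr 1
      rw [sum_apply, inner_sum]
      refine Finset.sum_congr rfl fun i _ => ?_
      rw [map_smul, smul_apply, inner_smul_right]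
    rw [Finset.sum_congr rfl fun j _ => h1 j, Finset.sum_add_distrib]
    congr 1
    exact Finset.sum_comm
  have hT2 : ∑ i, ⟪b α, fderiv ℝ (fderiv ℝ u) x (ginv (fderiv ℝ u x)
        (ContinuousLinearMap.adjoint (fderiv ℝ u x)
          (fderiv ℝ v x (ginv (fderiv ℝ u x) (eF i))))) (eF i)⟫_ℝ
      = (Gm * A.transpose * Gm * Q).trace := by
    rw [Matrix.trace]
    have h1 : ∀ i, ⟪b α, fderiv ℝ (fderiv ℝ u) x (ginv (fderiv ℝ u x)
        (ContinuousLinearMap.adjoint (fderiv ℝ u x)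
          (fderiv ℝ v x (ginv (fderiv ℝ u x) (eF i))))) (eF i)⟫_ℝ
        = ∑ j, (Gm * A.transpose * Gm) j i * Q i j := fun i => by
      rw [hy, map_sum, sum_apply, inner_sum]
      refine Finset.sum_congr rfl fun j _ => ?_
      rw [map_smul, smul_apply, inner_smul_right, hs]
      rfl
    rw [Finset.sum_congr rfl fun i _ => h1 i, Finset.sum_comm]
    refine Finset.sum_congr rfl fun j _ => ?_
    rw [Matrix.diag_apply, Matrix.mul_apply]
  have hT3 : ∑ i, ∑ j, (-(Gm * h' * Gm)) i j * Q i j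
      = -2 * (Gm * A.transpose * Gm * Q).trace := by
    have h1 : ∑ i, ∑ j, (-(Gm * h' * Gm)) i j * Q i j = -((Gm * h' * Gm) * Q).trace := by
      rw [Matrix.trace, ← Finset.sum_neg_distrib]
      refine Finset.sum_congr rfl fun i _ => ?_
      rw [Matrix.diag_apply, Matrix.mul_apply, ← Finset.sum_neg_distrib]
      refine Finset.sum_congr rfl fun j _ => ?_
      rw [Matrix.neg_apply, neg_mul]
      have : Q j i = Q i j := by
        conv_lhs => rw [← hQs]
        rfl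
      rw [this]
    have h2 : (Gm * A * Gm * Q).trace = (Gm * A.transpose * Gm * Q).trace := by
      rw [← Matrix.trace_transpose, Matrix.transpose_mul, Matrix.transpose_mul,
        Matrix.transpose_mul, hGs, hQs, ← Matrix.mul_assoc, ← Matrix.mul_assoc,
        Matrix.mul_assoc Q, Matrix.mul_assoc Q, Matrix.trace_mul_comm]
    rw [h1, hA', Matrix.mul_add, Matrix.add_mul, Matrix.add_mul, Matrix.trace_add, h2]
    ring
  have hsum : ∑ i, ∑ j, (k i j * ⟪b α, fderiv ℝ (fderiv ℝ v) x (eF i) (eF j)⟫_ℝ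
        + (-(Gm * h' * Gm)) i j * ⟪b α, fderiv ℝ (fderiv ℝ u) x (eF i) (eF j)⟫_ℝ)
      = ∑ i, ∑ j, k i j * ⟪b α, fderiv ℝ (fderiv ℝ v) x (eF i) (eF j)⟫_ℝ
        + ∑ i, ∑ j, (-(Gm * h' * Gm)) i j * Q i j := by
    rw [← Finset.sum_add_distrib]
    refine Finset.sum_congr rfl fun i _ => ?_
    rw [← Finset.sum_add_distrib]
    rfl
  rw [hsum, hT3, ← add_assoc, ← hT1, ← hT2]
  unfold lop
  rw [inner_sub_right, inner_sum, inner_smul_right, inner_sum]
  ring

end fn

section syn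

variable {F V : Type} [NormedAddCommGroup F] [InnerProductSpace ℝ F] [FiniteDimensional ℝ F]
  [MeasurableSpace F] [BorelSpace F]
  [NormedAddCommGroup V] [InnerProductSpace ℝ V] [FiniteDimensional ℝ V]
variable {ι κ : Type*} [Fintype ι] [Fintype κ]

theorem D_comm {N : ℕ} (v w : F) (a : X F (N + 2)) : D v (D w a) = D w (D v a) := by
  refine XG.ext ?_
  filter_upwards [den_DD v w a, den_DD w v a] with ξ h1 h2
  rw [h1, h2]; ring

theorem Qd_symm {N : ℕ} (e : OrthonormalBasis ι ℝ F) (u : κ → X F (N + 2)) (i j : ι) (α : κ) :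
    Qd e u i j α = Qd e u j i α := D_comm _ _ _

theorem Hm_symm {N : ℕ} (e : OrthonormalBasis ι ℝ F) (u : κ → X F (N + 2)) (i j : ι) :
    Hm e u i j = Hm e u j i := by
  unfold Hm
  exact Finset.sum_congr rfl fun α _ => mul_comm _ _

theorem star_Hp {N : ℕ} (e : OrthonormalBasis ι ℝ F) {u v : κ → X F (N + 2)}
    (hu : ∀ α, star (u α) = u α) (hv : ∀ α, star (v α) = v α) (i j : ι) :
    star (Hp e u v i j) = Hp e u v i j := by
  unfold Hp
  rw [star_sum]
  refine Finset.sum_congr rfl fun α _ => ?_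
  rw [star_add, star_mul, star_mul, star_Pd e hu, star_Pd e hv, star_Pd e hu, star_Pd e hv,
    mul_comm (Pd e u j α), mul_comm (Pd e v j α)]

/-- evaluation of a matrix -/
def evm {N : ℕ} (a : ι → ι → X F N) (x : F) : Matrix ι ι ℝ := Matrix.of fun i j => (ev (a i j) x).re

theorem evm_mm {N : ℕ} {a : ι → ι → X F N} (ha : ∀ i j, star (a i j) = a i j)
    (c : ι → ι → X F N) (x : F) : evm (mm a c) x = evm a x * evm c x := by
  ext i j
  rw [Matrix.mul_apply]
  show (ev (∑ l, a i l * c l j) x).re = _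
  rw [re_ev_sum]
  exact Finset.sum_congr rfl fun l _ => re_ev_mul (ha i l) _ x

theorem evm_add {N : ℕ} (a c : ι → ι → X F N) (x : F) : evm (a + c) x = evm a x + evm c x := by
  ext i j
  show (ev (a i j + c i j) x).re = _
  rw [ev_add, Complex.add_re]
  rfl

theorem evm_neg {N : ℕ} (a : ι → ι → X F N) (x : F) : evm (-a) x = -evm a x := by
  ext i j
  show (ev (-(a i j)) x).re = _
  rw [ev_neg, Complex.neg_re]
  rfl

/-- **the linearisation synthesises `lop`** -/
theorem ev_LX (b : OrthonormalBasis κ ℝ V) {N : ℕ} {r : ℝ}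
    (hr : Sm (Fin (Module.finrank ℝ F)) κ r) {u v : κ → X F (N + 2)} (hu1 : ‖u‖ ≤ r)
    (hu : ∀ α, star (u α) = u α) (hv : ∀ α, star (v α) = v α) (x : F) (α : κ) :
    (ev (LX (stdOrthonormalBasis ℝ F) u v α) x).re = ⟪b α, lop (syn b u) (syn b v) x⟫_ℝ := by
  classical
  set e := stdOrthonormalBasis ℝ F with he
  have hp : ∀ (w : κ → X F (N + 2)) i α, ⟪b α, fderiv ℝ (syn b w) x (e i)⟫_ℝ
      = (ev (Pd e w i α) x).re := fun w i α => by
    rw [fderiv_syn, inner_syn]
    unfold Pd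
    rw [ev_inclV]
  have hq : ∀ (w : κ → X F (N + 2)) i j α, ⟪b α, fderiv ℝ (fderiv ℝ (syn b w)) x (e i) (e j)⟫_ℝ
      = (ev (Qd e w i j α) x).re := fun w i j α => by
    rw [fderiv2_syn, inner_syn]
    rfl
  have hcard := hr.card_le e hu1
  have hKs := star_qi hcard (star_Hm e hu)
  set K := qi (Hm e u) with hK
  set k := evm K x with hk
  have hH : ∀ i j, (ev (Hm e u i j) x).re = ∑ α, ⟪b α, fderiv ℝ (syn b u) x (e i)⟫_ℝ
      * ⟪b α, fderiv ℝ (syn b u) x (e j)⟫_ℝ := fun i j => by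
    unfold Hm
    rw [re_ev_sum]
    refine Finset.sum_congr rfl fun α _ => ?_
    rw [re_ev_mul (star_Pd e hu i α), hp, hp]
  have hk1 : ∀ i j, k i j = -(∑ α, ⟪b α, fderiv ℝ (syn b u) x (e i)⟫_ℝ
        * ⟪b α, fderiv ℝ (syn b u) x (e j)⟫_ℝ)
      - ∑ l, (∑ α, ⟪b α, fderiv ℝ (syn b u) x (e i)⟫_ℝ
        * ⟪b α, fderiv ℝ (syn b u) x (e l)⟫_ℝ) * k l j := fun i j => by
    have h2 : K i j = -Hm e u i j - ∑ l, Hm e u i l * K l j :=
      congrFun (congrFun (qi_eq hcard) i) j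
    show (ev (K i j) x).re = _
    conv_lhs => rw [h2]
    rw [ev_sub, Complex.sub_re, ev_neg, Complex.neg_re, hH, re_ev_sum]
    congr 1
    refine Finset.sum_congr rfl fun l _ => ?_
    rw [re_ev_mul (star_Hm e hu i l), hH]
    rfl
  have hks : k.transpose = k := by
    ext i j
    rw [Matrix.transpose_apply]
    show (ev (K j i) x).re = (ev (K i j) x).re
    exact congrArg (fun z => (ev z x).re) (qi_symm hcard (Hm_symm e u) j i)
  have hsym : ∀ a c, fderiv ℝ (fderiv ℝ (syn b u)) x a c = fderiv ℝ (fderiv ℝ (syn b u)) x c a :=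
    fun a c => by
      rw [fderiv2_syn, fderiv2_syn]
      have : (fun α => D a (D c (u α))) = fun α => D c (D a (u α)) := by
        funext β
        exact D_comm a c (u β)
      rw [this]
  have hKp : evm (Kp (Hm e u) (Hp e u v)) x = -((1 + k) * evm (Hp e u v) x * (1 + k)) := by
    unfold Kp opL opR
    rw [evm_neg, evm_add, evm_add, evm_mm (star_Hp e hu hv), evm_mm hKs, evm_add,
      evm_mm (star_Hp e hu hv)]
    rw [← hK, ← hk]
    congr 1
    noncomm_ring
  rw [lop_inner b (syn b u) (syn b v) x k hk1 hks hsym (evm (Hp e u v) x) (fun i j => ?_) α]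
  · rw [← hKp]
    unfold LX
    rw [ev_add, Complex.add_re, re_ev_sum, re_ev_sum]
    congr 1
    · exact Finset.sum_congr rfl fun i _ => (hq v i i α).symm
    · refine Finset.sum_congr rfl fun i _ => ?_
      rw [re_ev_sum]
      refine Finset.sum_congr rfl fun j _ => ?_
      rw [ev_add, Complex.add_re, re_ev_mul (hKs i j), hq, hq]
      have hKps : star (Kp (Hm e u) (Hp e u v) i j) = Kp (Hm e u) (Hp e u v) i j := by
        have h1 : ∀ i j, star (opR K (Hp e u v) i j) = opR K (Hp e u v) i j := fun i j => by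
          show star (Hp e u v i j + ∑ l, Hp e u v i l * K l j) = _
          rw [star_add, star_sum, star_Hp e hu hv]
          show _ = Hp e u v i j + ∑ l, Hp e u v i l * K l j
          congr 1
          refine Finset.sum_congr rfl fun l _ => ?_
          rw [star_mul, star_Hp e hu hv, hKs, mul_comm]
        show star (-(opR K (Hp e u v) i j + ∑ l, K i l * opR K (Hp e u v) l j)) = _
        rw [star_neg, star_add, star_sum, h1]
        show _ = -(opR K (Hp e u v) i j + ∑ l, K i l * opR K (Hp e u v) l j)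
        congr 2
        refine Finset.sum_congr rfl fun l _ => ?_
        rw [star_mul, h1, hKs, mul_comm]
      rw [re_ev_mul hKps]
      rfl
  · show (ev (Hp e u v i j) x).re = _
    unfold Hp
    rw [re_ev_sum]
    refine Finset.sum_congr rfl fun α _ => ?_
    rw [ev_add, Complex.add_re, re_ev_mul (star_Pd e hv i α), re_ev_mul (star_Pd e hu i α),
      hp, hp, hp, hp]

end syn

end Crest.Agent.R234.Mx9_397
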