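import Crest.Agent.R234.MgDefs_570
import Crest.Agent.R234.Mx9_397

/-!
# Row 234, node F2 (helper570): literal texts of the OPEN sub-nodes of SEL

* `NuP`   (F2-NU)   : pure real analysis, Mathlib only: a measure with small divergence is `θ dx`.
* `IbpP`  (F2-IBP)  : the transposed Jacobi operator of a minimal graph (`∂_i(√g g^{ij}) = 0`).
* `JRegP` (F2-JREG) : Jacobi fields over a small `X (N+2)` minimal graph are in `X (N+2)`.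
* `RegP2` (F2-REG)  : interior regularity for the minimal graph itself (only for RESC).
* `RescP` (F2-RESC) is in `MgDefs_570`.
-/

set_option autoImplicit false
set_option linter.unusedVariables false

open MeasureTheory Filter Topology Set
open scoped ENNReal NNReal ContDiff InnerProductSpace
open Crest.GeometryTopology.Submanifold Crest.Agent.R234.Vf_884
open Crest.Agent.R234.Main_456 (Frame Msys)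
open Crest.Agent.R234.Ell1_3 (gop ginv dns)
open Crest.Agent.R234.Mx5_397 (msop)
open Crest.Agent.R234.Mx9_397 (lop)
open Crest.Agent.R086.Wie Crest.Agent.R234.Mx1_397

noncomputable section

namespace Crest.Agent.R234.MG_570

variable {m n k : ℕ}

/-- **F2-NU**: a finite measure whose divergence is small against `C¹` fields supported in
`ball 0 r` is a constant multiple of Lebesgue there. -/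
def NuP : Prop := ∀ m : ℕ, 1 ≤ m → ∃ C : ℝ, 0 < C ∧ ∃ b : Euc m → ℝ, ContDiff ℝ ∞ b ∧
  (∀ x, 0 ≤ b x) ∧ (∀ x, 1 / 16 ≤ ‖x‖ → b x = 0) ∧ (∀ x, b x ≤ C) ∧ ∫ x, b x = 1 ∧
  ∀ (ν : Measure (Euc m)) (r δ : ℝ), ν univ < ⊤ → 1 / 8 ≤ r → r ≤ 2 → 0 ≤ δ →
    (∀ Y : Euc m → Euc m, ContDiff ℝ 1 Y → (∀ x, r ≤ ‖x‖ → Y x = 0) → (∀ x, ‖Y x‖ ≤ 1) →
      (∀ x, ‖fderiv ℝ Y x‖ ≤ 1) →
      |∫ x, LinearMap.trace ℝ (Euc m) (fderiv ℝ Y x : Euc m →ₗ[ℝ] Euc m) ∂ν| ≤ δ) →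
    ∀ ζ : Euc m → ℝ, ContDiff ℝ 1 ζ → (∀ x, r ≤ ‖x‖ → ζ x = 0) → (∀ x, |ζ x| ≤ 1) →
      (∀ x, ‖fderiv ℝ ζ x‖ ≤ 1) →
      |∫ x, ζ x ∂ν - (∫ x, ζ x) * ∫ x, b x ∂ν| ≤ C * δ

/-- the transposed first order part: `(D²u(g⁻¹ Duᵀ y, ·))ᵀ φ`. -/
def Psi (u φ : Euc m → Euc n) (x : Euc m) (y : Euc n) : Euc m :=
  ContinuousLinearMap.adjoint (fderiv ℝ (fderiv ℝ u) x (ginv (fderiv ℝ u x)
    (ContinuousLinearMap.adjoint (fderiv ℝ u x) y))) (φ x)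

/-- the transposed linearised operator (tested against `y`). -/
def lopT (u φ : Euc m → Euc n) (x : Euc m) (y : Euc n) : ℝ :=
  ∑ i, ⟪fderiv ℝ (fderiv ℝ φ) x (ginv (fderiv ℝ u x) (stdOrthonormalBasis ℝ (Euc m) i))
      (stdOrthonormalBasis ℝ (Euc m) i), y⟫_ℝ
    + 2 * ∑ i, ⟪fderiv ℝ (fun x => Psi u φ x y) x
        (ginv (fderiv ℝ u x) (stdOrthonormalBasis ℝ (Euc m) i)),
        stdOrthonormalBasis ℝ (Euc m) i⟫_ℝ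

/-- **F2-IBP**: `lopT` is the transpose of `lop u` with respect to the area `dns (Du) dx`. -/
def IbpP : Prop := ∀ (m n : ℕ) (u j φ : Euc m → Euc n) (R : ℝ), ContDiff ℝ 3 u →
  (∀ x ∈ Metric.ball (0 : Euc m) R, msop u x = 0) → ContDiff ℝ 2 j → ContDiff ℝ 2 φ →
  tsupport φ ⊆ Metric.ball 0 R →
  ∫ x, dns (fderiv ℝ u x) * lopT u φ x (j x) = ∫ x, dns (fderiv ℝ u x) * ⟪lop u j x, φ x⟫_ℝ

/-- **F2-JREG**: a Jacobi field in `X 2` is, on a smaller ball, in `X (N+2)`; loss `ε^{-p}`. -/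
def JRegP : Prop := ∀ (m n N : ℕ), ∃ κ₀ : ℝ, 0 < κ₀ ∧ ∃ C : ℝ, 0 < C ∧ ∃ p : ℕ,
  ∀ (r ε : ℝ) (u j : Euc m → Euc n) (a : XV m n (N + 2)) (a₂ : XV m n 2),
    0 < r → 0 < ε → ε ≤ 1 → r + ε ≤ 2 → IsReal a → ‖a‖ ≤ κ₀ → Rep a u → IsReal a₂ → Rep a₂ j →
    (∀ x ∈ Metric.ball (0 : Euc m) (r + ε), lop u j x = 0) →
    ∃ (b : XV m n (N + 2)) (v : Euc m → Euc n), IsReal b ∧ Rep b v ∧ ‖b‖ ≤ C * ‖a₂‖ / ε ^ p ∧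
      ∀ x ∈ Metric.ball (0 : Euc m) r, v x = j x

/-- **F2-REG**: interior regularity of the minimal graph itself (weak form, only for RESC). -/
def RegP2 : Prop := ∀ (m n : ℕ), ∃ N₀ : ℕ, ∀ N ≥ N₀, ∀ J : ℕ, ∃ κ₀ : ℝ, 0 < κ₀ ∧
  ∃ C : ℝ, 0 < C ∧ ∃ p : ℕ, ∀ (κ r ε : ℝ) (u : Euc m → Euc n), κ ≤ κ₀ → 0 < ε → ε ≤ 1 →
    ε ≤ r → r ≤ 2 → MG N κ r u →
    ContDiffOn ℝ J u (Metric.ball 0 r) ∧
    ∀ x ∈ Metric.ball (0 : Euc m) (r - ε), ∀ j ≤ J, ‖iteratedFDeriv ℝ j u x‖ ≤ C * κ / ε ^ p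

/-- node (ii), final form: as `SelP`, but for `N ≥ N₀(m, n)` (`K` is still independent of `N`). -/
def SelP2 : Prop := ∀ (m n : ℕ), 1 ≤ m → ∃ K N₀ : ℕ, ∀ N : ℕ, N₀ ≤ N → ∃ κ₀ : ℝ, 0 < κ₀ ∧ ∃ p : ℕ,
  ∀ Λ : ℝ, ∃ C : ℝ, 0 < C ∧ ∀ (k : ℕ) (W : Measure (Euc k × L k)) (π : Euc k →L[ℝ] Euc m)
    (ρ : Euc k →L[ℝ] Euc n) (κ h ε r : ℝ) (u : Euc m → Euc n),
    κ ≤ κ₀ → 0 < ε → ε ≤ 1 / 2 → 1 / 8 ≤ r → r ≤ 1 → 0 ≤ h →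
    Cy_870.CylStat W π ρ 0 (r * (1 + ε)) 1 → W univ ≤ ENNReal.ofReal Λ →
    ENNReal.ofReal Λ⁻¹ ≤ W ((fun p => π p.1) ⁻¹' Metric.ball 0 (1 / 16)) →
    MG N κ (r * (1 + ε)) u → (∀ᵐ q ∂W, ‖ρ q.1 - u (π q.1)‖ ≤ h) → C * h ≤ ε ^ p →
    ∃ u' : Euc m → Euc n, MG N (κ + C * h / ε ^ p) r u' ∧
      MG N (C * h / ε ^ p) 0 (fun x => u' x - u x) ∧
      ∀ ζ : Euc m → ℝ, ContDiff ℝ ∞ ζ → tsupport ζ ⊆ Metric.ball 0 r →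
        (∀ j ≤ K, ∀ z, ‖iteratedFDeriv ℝ j ζ z‖ ≤ 1) →
        ‖bar W π ρ u' ζ‖ ≤ C * h ^ 2 / ε ^ p

/-- node (iii), final form: `N ≥ N₀(m, n)`, two-sided comparison of the heights. -/
def RescP2 : Prop := ∀ (m n : ℕ), 1 ≤ m → ∃ N₀ : ℕ, ∀ N : ℕ, N₀ ≤ N → ∃ κ₀ : ℝ, 0 < κ₀ ∧
  ∃ C : ℝ, 0 < C ∧ ∀ θ : ℝ, 0 < θ → ∃ t₀ : ℝ, 0 < t₀ ∧ t₀ < 1 ∧ ∀ (t κ : ℝ) (k : ℕ)
    (π : Euc k →L[ℝ] Euc m) (ρ : Euc k →L[ℝ] Euc n) (u : Euc m → Euc n) (x₀ : Euc m),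
    0 < t → t ≤ t₀ → κ ≤ κ₀ → Frame π ρ → MG N κ (1 / 8) u → ‖x₀‖ ≤ 1 / 64 →
    ∃ (π' : Euc k →L[ℝ] Euc m) (ρ' : Euc k →L[ℝ] Euc n) (u' : Euc m → Euc n),
      Frame π' ρ' ∧ ‖π' - π‖ ≤ C * κ ∧ ‖ρ' - ρ‖ ≤ C * κ ∧ MG N (θ * κ) 1 u' ∧
      u' 0 = 0 ∧ fderiv ℝ u' 0 = 0 ∧
      ∀ z q : Euc k, q = ContinuousLinearMap.adjoint π x₀ + ContinuousLinearMap.adjoint ρ (u x₀) →
        ‖π' (z - q)‖ < 4 * t → ‖ρ' (z - q)‖ < 4 * t →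
        ‖ρ' (z - q) - t • u' (t⁻¹ • π' (z - q))‖ ≤ (1 + C * κ) * ‖ρ z - u (π z)‖ ∧
        ‖ρ z - u (π z)‖ ≤ (1 + C * κ) * ‖ρ' (z - q) - t • u' (t⁻¹ • π' (z - q))‖

end Crest.Agent.R234.MG_570
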