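import Crest.Agent.R234.Ibp1_937
import Crest.Agent.R234.MgDefs2_570

/-!
# Row 234, node F2-IBP (helper937), file 2: the transpose identity `IbpP` of `MgDefs2_570`
-/

set_option autoImplicit false

open MeasureTheory Filter Topology Set
open scoped ContDiff InnerProductSpace
open Crest.GeometryTopology.Submanifold Crest.Agent.R234.Vf_884
open Crest.Agent.R234.Ell1_3 (gop ginv dns adjL gdet)
open Crest.Agent.R234.Mx5_397 (msop)
open Crest.Agent.R234.Mx9_397 (lop)
open Crest.Agent.R234.MG_570 (Psi lopT IbpP)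

noncomputable section

namespace Crest.Agent.R234.Ibp_937

variable {m n : ℕ}

local notation "eb" => stdOrthonormalBasis ℝ (Euc m)

theorem integral_fderiv_zero {g : Euc m → ℝ} (hg : ContDiff ℝ 1 g) (hc : HasCompactSupport g)
    (v : Euc m) : ∫ x, fderiv ℝ g x v = 0 := by
  have h1 : Continuous (fun x => fderiv ℝ g x v) :=
    (hg.continuous_fderiv one_ne_zero).clm_apply continuous_const
  have h2 : HasCompactSupport (fun x => fderiv ℝ g x v) := by
    refine (hc.fderiv (𝕜 := ℝ)).mono fun x hx => ?_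
    intro h; exact hx (by simp [h])
  have h := integral_mul_fderiv_eq_neg_fderiv_mul_of_integrable (μ := (volume : Measure (Euc m)))
    (f := fun _ => (1:ℝ)) (g := g) (v := v) (by simp)
    (by simpa using h1.integrable_of_hasCompactSupport h2)
    (by simpa using hg.continuous.integrable_of_hasCompactSupport hc)
    (fun x _ => differentiableAt_const _) (fun x _ => hg.differentiable one_ne_zero x)
  simpa using h

/-- the divergence theorem for the area measure of a minimal graph -/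
theorem integral_T_zero {u : Euc m → Euc n} (hu : ContDiff ℝ 3 u) {R : ℝ}
    (hM : ∀ x ∈ Metric.ball (0 : Euc m) R, msop u x = 0) {Z : Euc m → Euc m}
    (hZ : ContDiff ℝ 1 Z) (hs : tsupport Z ⊆ Metric.ball 0 R) :
    ∫ x, ∑ i, ⟪fderiv ℝ Z x (T u x (eb i)), eb i⟫_ℝ = 0 := by
  have hc : HasCompactSupport Z :=
    Metric.isCompact_of_isClosed_isBounded (isClosed_tsupport _) (Metric.isBounded_ball.subset hs)
  have hT : ContDiff ℝ 1 (T u) := (contDiff_T hu).of_le (by norm_num)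
  have hW : ContDiff ℝ 1 (fun x => T u x (Z x)) := hT.clm_apply hZ
  have e1 : ∀ x, ∑ i, ⟪fderiv ℝ Z x (T u x (eb i)), eb i⟫_ℝ
      = ∑ i, fderiv ℝ (fun x => ⟪T u x (Z x), eb i⟫_ℝ) x (eb i) := by
    intro x
    have h1 : ∀ i, fderiv ℝ (fun x => ⟪T u x (Z x), eb i⟫_ℝ) x (eb i)
        = ⟪fderiv ℝ (T u) x (eb i) (Z x), eb i⟫_ℝ + ⟪T u x (fderiv ℝ Z x (eb i)), eb i⟫_ℝ := by
      intro i
      have h2 := ((hT.differentiable one_ne_zero) x).hasFDerivAt.clm_apply
        ((hZ.differentiable one_ne_zero) x).hasFDerivAt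
      have h3 := h2.inner ℝ (hasFDerivAt_const (eb i) x)
      rw [h3.fderiv]
      simp [inner_add_left, add_comm]
    simp only [h1, Finset.sum_add_distrib]
    have h4 : ∑ i, ⟪fderiv ℝ (T u) x (eb i) (Z x), eb i⟫_ℝ = 0 := by
      rw [div_T (hu.of_le (by norm_num))]
      by_cases hx : x ∈ tsupport Z
      · rw [hM x (hs hx)]; simp
      · rw [image_eq_zero_of_notMem_tsupport hx]; simp
    have h5 : ∑ i, ⟪T u x (fderiv ℝ Z x (eb i)), eb i⟫_ℝ
        = ∑ i, ⟪fderiv ℝ Z x (T u x (eb i)), eb i⟫_ℝ := by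
      have e2 : ∀ i, ⟪T u x (fderiv ℝ Z x (eb i)), eb i⟫_ℝ
          = ⟪eb i, (T u x ∘L fderiv ℝ Z x) (eb i)⟫_ℝ := fun i => by
        rw [real_inner_comm]; rfl
      have e3 : ∀ i, ⟪fderiv ℝ Z x (T u x (eb i)), eb i⟫_ℝ
          = ⟪eb i, (fderiv ℝ Z x ∘L T u x) (eb i)⟫_ℝ := fun i => by
        rw [real_inner_comm]; rfl
      simp only [e2, e3]
      rw [← tr_eb, ← tr_eb, tr_comm]
    rw [h4, h5, zero_add]
  simp only [e1]
  have hg : ∀ i, ContDiff ℝ 1 (fun x => ⟪T u x (Z x), eb i⟫_ℝ) := fun i =>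
    hW.inner ℝ contDiff_const
  have hgc : ∀ i, HasCompactSupport (fun x => ⟪T u x (Z x), eb i⟫_ℝ) := fun i => by
    refine hc.mono fun x hx => ?_
    intro h; exact hx (by simp [h])
  rw [integral_finsetSum]
  · exact Finset.sum_eq_zero fun i _ => integral_fderiv_zero (hg i) (hgc i) _
  · intro i _
    have h1 : Continuous (fun x => fderiv ℝ (fun x => ⟪T u x (Z x), eb i⟫_ℝ) x (eb i)) :=
      ((hg i).continuous_fderiv one_ne_zero).clm_apply continuous_const
    refine h1.integrable_of_hasCompactSupport (((hgc i).fderiv (𝕜 := ℝ)).mono fun x hx => ?_)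
    intro h; exact hx (by simp [h])

/-- the coefficient operator `y ↦ (D²u(g⁻¹ Duᵀ y, ·))ᵀ` -/
def Aop (u : Euc m → Euc n) (x : Euc m) : Euc n →L[ℝ] (Euc n →L[ℝ] Euc m) :=
  adjL ∘L ((fderiv ℝ (fderiv ℝ u) x) ∘L (ginv (fderiv ℝ u x) ∘L adjL (fderiv ℝ u x)))

theorem Psi_eq (u φ : Euc m → Euc n) (x : Euc m) (y : Euc n) : Psi u φ x y = Aop u x y (φ x) := rfl

theorem contDiff_Aop {u : Euc m → Euc n} (hu : ContDiff ℝ 3 u) : ContDiff ℝ 1 (Aop u) := by
  have h1 : ContDiff ℝ 2 (fderiv ℝ u) := hu.fderiv_right (by norm_num)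
  have h2 : ContDiff ℝ 1 (fderiv ℝ (fderiv ℝ u)) := h1.fderiv_right (by norm_num)
  have h3 : ContDiff ℝ 1 (fun x => ginv (fderiv ℝ u x)) :=
    (Ell1_3.ginv_contDiff.of_le (WithTop.coe_le_coe.2 le_top)).comp (h1.of_le (by norm_num))
  have h4 : ContDiff ℝ 1 (fun x => adjL (fderiv ℝ u x)) :=
    (adjL (F := Euc m) (V := Euc n)).contDiff.comp (h1.of_le (by norm_num))
  exact contDiff_const.clm_comp (h2.clm_comp (h3.clm_comp h4))

/-- the field of the second Green identity -/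
def ZZ (u j φ : Euc m → Euc n) (x : Euc m) : Euc m :=
  adjL (fderiv ℝ j x) (φ x) - adjL (fderiv ℝ φ x) (j x) - (2 : ℝ) • Aop u x (j x) (φ x)

theorem contDiff_ZZ {u j φ : Euc m → Euc n} (hu : ContDiff ℝ 3 u) (hj : ContDiff ℝ 2 j)
    (hφ : ContDiff ℝ 2 φ) : ContDiff ℝ 1 (ZZ u j φ) := by
  have h1 : ContDiff ℝ 1 (fun x => adjL (fderiv ℝ j x)) :=
    (adjL (F := Euc m) (V := Euc n)).contDiff.comp (hj.fderiv_right (by norm_num))
  have h2 : ContDiff ℝ 1 (fun x => adjL (fderiv ℝ φ x)) :=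
    (adjL (F := Euc m) (V := Euc n)).contDiff.comp (hφ.fderiv_right (by norm_num))
  have hj1 : ContDiff ℝ 1 j := hj.of_le (by norm_num)
  have hφ1 : ContDiff ℝ 1 φ := hφ.of_le (by norm_num)
  exact ((h1.clm_apply hφ1).sub (h2.clm_apply hj1)).sub
    ((((contDiff_Aop hu).clm_apply hj1).clm_apply hφ1).const_smul (2:ℝ))

/-- pointwise identity -/
theorem div_ZZ {u j φ : Euc m → Euc n} (hu : ContDiff ℝ 3 u) (hj : ContDiff ℝ 2 j)
    (hφ : ContDiff ℝ 2 φ) (x : Euc m) :
    ∑ i, ⟪fderiv ℝ (ZZ u j φ) x (T u x (eb i)), eb i⟫_ℝ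
      = dns (fderiv ℝ u x) * ⟪lop u j x, φ x⟫_ℝ - dns (fderiv ℝ u x) * lopT u φ x (j x) := by
  have hj1 : ContDiff ℝ 1 (fderiv ℝ j) := hj.fderiv_right (by norm_num)
  have hφ1 : ContDiff ℝ 1 (fderiv ℝ φ) := hφ.fderiv_right (by norm_num)
  have dj : HasFDerivAt j (fderiv ℝ j x) x := ((hj.differentiable two_ne_zero) x).hasFDerivAt
  have dφ : HasFDerivAt φ (fderiv ℝ φ x) x := ((hφ.differentiable two_ne_zero) x).hasFDerivAt
  have dj2 : HasFDerivAt (fun x => adjL (fderiv ℝ j x)) (adjL ∘L fderiv ℝ (fderiv ℝ j) x) x :=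
    (adjL (F := Euc m) (V := Euc n)).hasFDerivAt.comp x
      ((hj1.differentiable one_ne_zero) x).hasFDerivAt
  have dφ2 : HasFDerivAt (fun x => adjL (fderiv ℝ φ x)) (adjL ∘L fderiv ℝ (fderiv ℝ φ) x) x :=
    (adjL (F := Euc m) (V := Euc n)).hasFDerivAt.comp x
      ((hφ1.differentiable one_ne_zero) x).hasFDerivAt
  have dA : HasFDerivAt (Aop u) (fderiv ℝ (Aop u) x) x :=
    (((contDiff_Aop hu).differentiable one_ne_zero) x).hasFDerivAt
  have dZ := ((dj2.clm_apply dφ).sub (dφ2.clm_apply dj)).sub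
    ((((dA.clm_apply dj).clm_apply dφ)).const_smul (2:ℝ))
  have dP : ∀ y, HasFDerivAt (fun x => Psi u φ x y) _ x := fun y =>
    (dA.clm_apply (hasFDerivAt_const y x)).clm_apply dφ
  set w := dns (fderiv ℝ u x) with hw
  set q := fderiv ℝ u x with hq
  have hT : ∀ i, T u x (eb i) = w • ginv q (eb i) := fun i => rfl
  have e1 : ∀ i, ⟪fderiv ℝ (ZZ u j φ) x (T u x (eb i)), eb i⟫_ℝ
      = w * ⟪fderiv ℝ (fderiv ℝ j) x (ginv q (eb i)) (eb i), φ x⟫_ℝ
        + ⟪fderiv ℝ φ x (T u x (eb i)), fderiv ℝ j x (eb i)⟫_ℝ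
        - (w * ⟪fderiv ℝ (fderiv ℝ φ) x (ginv q (eb i)) (eb i), j x⟫_ℝ
        + ⟪fderiv ℝ j x (T u x (eb i)), fderiv ℝ φ x (eb i)⟫_ℝ)
        - 2 * (w * ⟪fderiv ℝ (fun x => Psi u φ x (j x)) x (ginv q (eb i)), eb i⟫_ℝ) := by
    intro i
    have hZ : fderiv ℝ (ZZ u j φ) x = _ := dZ.fderiv
    have hP2 : fderiv ℝ (fun x => Psi u φ x (j x)) x = _ :=
      ((dA.clm_apply dj).clm_apply dφ).fderiv
    rw [hZ, hP2, hT]
    simp only [map_smul, sub_apply, add_apply, smul_apply,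
      ContinuousLinearMap.comp_apply, ContinuousLinearMap.flip_apply, inner_sub_left,
      inner_add_left, inner_smul_left, Ell1_3.adjL_apply, ContinuousLinearMap.adjoint_inner_left]
    simp only [real_inner_comm (φ x), real_inner_comm (j x)]
    simp
    ring
  have e2 : ∀ v, fderiv ℝ (fun x => Psi u φ x (j x)) x v
      = fderiv ℝ (fun z => Psi u φ z (j x)) x v + Psi u φ x (fderiv ℝ j x v) := by
    intro v
    have hP2 : fderiv ℝ (fun x => Psi u φ x (j x)) x = _ :=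
      ((dA.clm_apply dj).clm_apply dφ).fderiv
    rw [hP2, (dP (j x)).fderiv, Psi_eq]
    simp only [add_apply, ContinuousLinearMap.comp_apply, ContinuousLinearMap.flip_apply,
      zero_apply, map_zero]
    abel
  have e3 : ∀ i, ⟪Psi u φ x (fderiv ℝ j x (ginv q (eb i))), eb i⟫_ℝ
      = ⟪fderiv ℝ (fderiv ℝ u) x (ginv q (ContinuousLinearMap.adjoint q
          (fderiv ℝ j x (ginv q (eb i))))) (eb i), φ x⟫_ℝ := fun i => by
    unfold Psi
    rw [ContinuousLinearMap.adjoint_inner_left, real_inner_comm]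
  have e4 : ∑ i, ⟪fderiv ℝ φ x (T u x (eb i)), fderiv ℝ j x (eb i)⟫_ℝ
      = ∑ i, ⟪fderiv ℝ j x (T u x (eb i)), fderiv ℝ φ x (eb i)⟫_ℝ := by
    have f1 : ∀ i, ⟪fderiv ℝ φ x (T u x (eb i)), fderiv ℝ j x (eb i)⟫_ℝ
        = ⟪eb i, ((adjL (fderiv ℝ j x) ∘L fderiv ℝ φ x) ∘L T u x) (eb i)⟫_ℝ := fun i => by
      rw [ContinuousLinearMap.comp_apply, ContinuousLinearMap.comp_apply, Ell1_3.adjL_apply,
        ContinuousLinearMap.adjoint_inner_right, real_inner_comm]
    have f2 : ∀ i, ⟪fderiv ℝ j x (T u x (eb i)), fderiv ℝ φ x (eb i)⟫_ℝ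
        = ⟪eb i, (T u x ∘L (adjL (fderiv ℝ j x) ∘L fderiv ℝ φ x)) (eb i)⟫_ℝ := fun i => by
      rw [ContinuousLinearMap.comp_apply, ContinuousLinearMap.comp_apply, Ell1_3.adjL_apply,
        ← T_symm, ContinuousLinearMap.adjoint_inner_right]
    simp only [f1, f2]
    rw [← tr_eb, ← tr_eb, tr_comm]
  simp only [e1, e2, inner_add_left, e3]
  simp only [Finset.sum_sub_distrib, Finset.sum_add_distrib, e4, ← Finset.mul_sum]
  simp only [lop, lopT, inner_sub_left, inner_smul_left, sum_inner, RCLike.conj_to_real]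
  ring

theorem ZZ_tsupport {u j φ : Euc m → Euc n} : tsupport (ZZ u j φ) ⊆ tsupport φ := by
  refine closure_minimal (fun x hx => ?_) (isClosed_tsupport _)
  by_contra h
  refine hx ?_
  have h1 : φ x = 0 := image_eq_zero_of_notMem_tsupport h
  have h2 : fderiv ℝ φ x = 0 := by
    have : fderiv ℝ φ x = fderiv ℝ (fun _ => (0 : Euc n)) x :=
      Filter.EventuallyEq.fderiv_eq (notMem_tsupport_iff_eventuallyEq.1 h)
    rw [this]; simp
  simp [ZZ, h1, h2]

theorem continuous_lop {u j : Euc m → Euc n} (hu : ContDiff ℝ 3 u) (hj : ContDiff ℝ 2 j) :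
    Continuous (lop u j) := by
  have h1 : Continuous (fderiv ℝ u) := hu.continuous_fderiv (by norm_num)
  have hu1 : ContDiff ℝ 2 (fderiv ℝ u) := hu.fderiv_right (by norm_num)
  have h2 : Continuous (fderiv ℝ (fderiv ℝ u)) := hu1.continuous_fderiv (by norm_num)
  have hj1 : ContDiff ℝ 1 (fderiv ℝ j) := hj.fderiv_right (by norm_num)
  have h3 : Continuous (fderiv ℝ j) := hj1.continuous
  have h4 : Continuous (fderiv ℝ (fderiv ℝ j)) := hj1.continuous_fderiv (by norm_num)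
  have h5 : Continuous (fun x => ginv (fderiv ℝ u x)) := Ell1_3.ginv_contDiff.continuous.comp h1
  have h6 : Continuous (fun x => adjL (fderiv ℝ u x)) :=
    (adjL (F := Euc m) (V := Euc n)).continuous.comp h1
  unfold lop
  refine (continuous_finsetSum _ fun i _ => ?_).sub
    ((continuous_finsetSum _ fun i _ => ?_).const_smul (2:ℝ))
  · exact (h4.clm_apply (h5.clm_apply continuous_const)).clm_apply continuous_const
  · exact (h2.clm_apply (h5.clm_apply (h6.clm_apply (h3.clm_apply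
      (h5.clm_apply continuous_const))))).clm_apply continuous_const

/-- **F2-IBP** (literal text of `MgDefs2_570`). -/
theorem ibpP : IbpP := by
  intro m n u j φ R hu hM hj hφ hs
  have hc : HasCompactSupport φ :=
    Metric.isCompact_of_isClosed_isBounded (isClosed_tsupport _) (Metric.isBounded_ball.subset hs)
  have hZ := contDiff_ZZ hu hj hφ
  have hZs : tsupport (ZZ u j φ) ⊆ Metric.ball 0 R := ZZ_tsupport.trans hs
  have h0 := integral_T_zero hu hM hZ hZs
  have hw : Continuous (fun x => dns (fderiv ℝ u x)) :=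
    Ell1_3.dns_contDiff.continuous.comp (hu.continuous_fderiv (by norm_num))
  have hi : Integrable (fun x => dns (fderiv ℝ u x) * ⟪lop u j x, φ x⟫_ℝ) := by
    refine (hw.mul ((continuous_lop hu hj).inner hφ.continuous)).integrable_of_hasCompactSupport
      (hc.mono fun x hx => ?_)
    intro h; exact hx (by simp [h])
  have hd : Integrable (fun x => ∑ i, ⟪fderiv ℝ (ZZ u j φ) x
      (T u x (stdOrthonormalBasis ℝ (Euc m) i)), stdOrthonormalBasis ℝ (Euc m) i⟫_ℝ) := by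
    refine integrable_finsetSum _ fun i _ => ?_
    have h1 : Continuous (fun x => ⟪fderiv ℝ (ZZ u j φ) x
      (T u x (stdOrthonormalBasis ℝ (Euc m) i)), stdOrthonormalBasis ℝ (Euc m) i⟫_ℝ) :=
      ((hZ.continuous_fderiv one_ne_zero).clm_apply
        ((contDiff_T hu).continuous.clm_apply continuous_const)).inner continuous_const
    have h2 : HasCompactSupport (ZZ u j φ) :=
      hc.mono' (subset_closure.trans ZZ_tsupport)
    refine h1.integrable_of_hasCompactSupport ((h2.fderiv (𝕜 := ℝ)).mono fun x hx => ?_)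
    intro h; exact hx (by simp [h])
  have e : ∀ x, dns (fderiv ℝ u x) * lopT u φ x (j x)
      = dns (fderiv ℝ u x) * ⟪lop u j x, φ x⟫_ℝ - ∑ i, ⟪fderiv ℝ (ZZ u j φ) x
      (T u x (stdOrthonormalBasis ℝ (Euc m) i)), stdOrthonormalBasis ℝ (Euc m) i⟫_ℝ := fun x => by
    rw [div_ZZ hu hj hφ]; ring
  simp only [e]
  rw [integral_sub hi hd, h0, sub_zero]

end Crest.Agent.R234.Ibp_937
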