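import Crest.Agent.R234.Mx16_397
import Crest.Agent.R234.Ibp2_937
import Crest.Agent.R234.MgDefs4_570

/-!
# Row 234, VF-MINEX part 20 (helper397): node F2-JAC (`JacP`)
-/

set_option autoImplicit false
set_option linter.unusedSectionVars false

open MeasureTheory Complex Filter Real
open scoped ContDiff Topology InnerProductSpace

noncomputable section

namespace Crest.Agent.R234.Mx20_397

open Crest.Agent.R086.Wie Crest.Agent.R234.Mx1_397 Crest.Agent.R234.Mx3_397
  Crest.Agent.R234.Mx5_397 Crest.Agent.R234.Mx6_397 Crest.Agent.R234.Mx9_397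
  Crest.Agent.R234.Mx16_397 Crest.Agent.R234.Ibp_937
open Crest.Agent.R234.Ell1_3 (gop ginv dns adjL)
open Crest.GeometryTopology.Submanifold Crest.Agent.R234.MG_570

variable {m n : ℕ}

theorem lopT_zero_of_notMem {u φ : Euc m → Euc n} {x : Euc m} (h : x ∉ tsupport φ) (y : Euc n) :
    lopT u φ x y = 0 := by
  have h1 : φ =ᶠ[𝓝 x] fun _ => 0 := notMem_tsupport_iff_eventuallyEq.1 h
  have h2 : fderiv ℝ (fderiv ℝ φ) x = 0 := by
    rw [h1.fderiv.fderiv_eq]; simp
  have h3 : (fun z => Psi u φ z y) =ᶠ[𝓝 x] fun _ => 0 := by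
    filter_upwards [h1] with z hz
    unfold Psi
    rw [hz, map_zero]
  unfold lopT
  rw [h2, h3.fderiv_eq]
  simp

/-- `lopT` is linear in the test vector. -/
theorem lopT_sum {u φ : Euc m → Euc n} (hu : ContDiff ℝ 3 u) (hφ : ContDiff ℝ 2 φ) (x : Euc m)
    (y : Euc n) : lopT u φ x y = ∑ γ, y γ * lopT u φ x (EuclideanSpace.single γ 1) := by
  have dφ : HasFDerivAt φ (fderiv ℝ φ x) x := ((hφ.differentiable two_ne_zero) x).hasFDerivAt
  have dA : HasFDerivAt (Aop u) (fderiv ℝ (Aop u) x) x :=
    (((contDiff_Aop hu).differentiable one_ne_zero) x).hasFDerivAt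
  have dP : ∀ y v, fderiv ℝ (fun x => Psi u φ x y) x v
      = (fderiv ℝ (Aop u) x v) y (φ x) + Aop u x y (fderiv ℝ φ x v) := fun y v => by
    have h : HasFDerivAt (fun x => Psi u φ x y) _ x :=
      (dA.clm_apply (hasFDerivAt_const y x)).clm_apply dφ
    rw [h.fderiv]
    simp [add_comm]
  have hlin : IsLinearMap ℝ (lopT u φ x) := by
    constructor
    · intro y z
      unfold lopT
      simp only [dP, map_add, add_apply, inner_add_right, inner_add_left,
        Finset.sum_add_distrib]
      ring
    · intro c y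
      unfold lopT
      simp only [dP, map_smul, smul_apply, ← smul_add, inner_smul_right,
        real_inner_smul_left, ← Finset.mul_sum, smul_eq_mul]
      ring
  have hy : y = ∑ γ, y γ • EuclideanSpace.single γ (1 : ℝ) := by
    have := (EuclideanSpace.basisFun (Fin n) ℝ).sum_repr y
    simpa [EuclideanSpace.basisFun_apply] using this.symm
  have h1 := congrArg (hlin.mk' (lopT u φ x)) hy
  rw [map_sum] at h1
  rw [show lopT u φ x y = hlin.mk' (lopT u φ x) y from rfl, h1]
  refine Finset.sum_congr rfl fun γ _ => ?_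
  rw [map_smul, smul_eq_mul]
  rfl

/-- **node F2-JAC** -/
theorem jacP : JacP := by
  intro m n t a u c J D j r har hrepa hJ hD hr hM hL hDe horth hj
  set B := EuclideanSpace.basisFun (Fin n) ℝ with hB
  have hu : ContDiff ℝ 3 u := by
    rw [rep_syn hrepa]
    exact (contDiff_syn _ a).of_le (by norm_cast; omega)
  have hj2 : ContDiff ℝ 2 j := by
    rw [rep_syn hj]
    exact contDiff_syn _ _
  have hw : Continuous (fun x => dns (fderiv ℝ u x)) :=
    Ell1_3.dns_contDiff.continuous.comp (hu.continuous_fderiv (by norm_num))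
  have hlc := continuous_lop hu hj2
  set U := Metric.ball (0 : Euc m) r with hU
  -- values of `j`
  have hjv : ∀ x ∈ U, ∀ γ, dns (fderiv ℝ u x) * j x γ = (ev (J γ) x).re := fun x hx γ => by
    have h1 := hj x γ
    rw [ev_mul, hDe x hx, ← ev_real (hJ γ) x] at h1
    have h2 : j x γ = (ev (J γ) x).re * (dns (fderiv ℝ u x))⁻¹ := by exact_mod_cast h1
    have h3 := (Ell1_3.dns_pos (fderiv ℝ u x)).ne'
    rw [h2]
    field_simp
  -- the test identity
  have key : ∀ β : Fin n, ∀ ζ : Euc m → ℝ, ContDiff ℝ ∞ ζ → HasCompactSupport ζ →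
      tsupport ζ ⊆ U → ∫ x, ζ x • (dns (fderiv ℝ u x) * lop u j x β) = 0 := by
    intro β ζ hζ hζc hζs
    set φ : Euc m → Euc n := fun x => ζ x • EuclideanSpace.single β (1 : ℝ) with hφdef
    set b : XV m n 2 := Pi.single β (toX 2 (toS ζ hζc hζ)) with hb
    have hbγ : ∀ γ x, ev (b γ) x = ((if γ = β then ζ x else 0 : ℝ) : ℂ) := fun γ x => by
      by_cases h : γ = β
      · subst h
        rw [hb, Pi.single_eq_same, ev_toX, toS_apply, if_pos rfl]
      · rw [hb, Pi.single_eq_of_ne h, ev_zero, if_neg h, Complex.ofReal_zero]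
    have hbr : IsReal b := fun γ => by
      by_cases h : γ = β
      · subst h
        rw [hb, Pi.single_eq_same, star_toX_toS]
      · rw [hb, Pi.single_eq_of_ne h, star_zero]
    have hbrep : Rep b φ := fun x γ => by
      rw [hbγ]
      congr 1
      simp [hφdef, PiLp.smul_apply]
    have hφ2 : ContDiff ℝ 2 φ := by
      have : ContDiff ℝ ∞ φ := hζ.smul contDiff_const
      exact this.of_le (WithTop.coe_le_coe.2 le_top)
    have hφs : tsupport φ ⊆ U := (closure_mono (fun x hx => by
      rw [Function.mem_support] at hx ⊢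
      exact fun h => hx (by simp [hφdef, h]))).trans hζs
    have hφc : HasCompactSupport φ := hζc.smul_right
    have h0 := horth b fun γ x hx => by
      have : ζ x = 0 := by
        by_contra h
        have := mem_ball_zero_iff.1 (hζs (subset_tsupport ζ h))
        linarith
      rw [hbγ, this]
      simp
    -- real form
    have hcont : ∀ γ, Continuous fun x => (ev (J γ) x).re *
        lopT u φ x (EuclideanSpace.single γ 1) := fun γ => by
      have h1 : (fun x => lopT u φ x (EuclideanSpace.single γ 1))
          = fun x => (ev (Lop (stdOrthonormalBasis ℝ (Euc m)) c b γ) x).re := by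
        funext x
        rw [hL b φ hbr hbrep x γ, Complex.ofReal_re]
      have h2 : ∀ {N : ℕ} (z : X (Euc m) N), Continuous fun x => (ev z x).re := fun z =>
        Complex.continuous_re.comp (contDiff_ev z).continuous
      rw [show (fun x => (ev (J γ) x).re * lopT u φ x (EuclideanSpace.single γ 1))
        = fun x => (ev (J γ) x).re * (ev (Lop (stdOrthonormalBasis ℝ (Euc m)) c b γ) x).re from
        by funext x; rw [congrFun h1 x]]
      exact (h2 _).mul (h2 _)
    have hint : ∀ γ, Integrable fun x => (ev (J γ) x).re *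
        lopT u φ x (EuclideanSpace.single γ 1) := fun γ => by
      refine (hcont γ).integrable_of_hasCompactSupport
        (HasCompactSupport.of_support_subset_isCompact hφc fun x hx => ?_)
      by_contra h
      exact hx (by simp only [lopT_zero_of_notMem h, mul_zero])
    have h1 : ∑ γ, ∫ x, (ev (J γ) x).re * lopT u φ x (EuclideanSpace.single γ 1) = 0 := by
      have h2 : ∀ γ, (∫ x, ev (J γ) x * ev (Lop (stdOrthonormalBasis ℝ (Euc m)) c b γ) x)
          = ((∫ x, (ev (J γ) x).re * lopT u φ x (EuclideanSpace.single γ 1) : ℝ) : ℂ) :=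
        fun γ => by
        rw [← integral_complex_ofReal]
        refine integral_congr_ae (Eventually.of_forall fun x => ?_)
        beta_reduce
        rw [hL b φ hbr hbrep x γ, Complex.ofReal_mul, ev_real (hJ γ) x]
      simp only [h2] at h0
      exact_mod_cast h0
    rw [← integral_finsetSum _ fun γ _ => hint γ] at h1
    have h2 := ibpP m n u j φ r hu hM hj2 hφ2 hφs
    have h3 : ∀ x, dns (fderiv ℝ u x) * lopT u φ x (j x)
        = ∑ γ, (ev (J γ) x).re * lopT u φ x (EuclideanSpace.single γ 1) := fun x => by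
      by_cases hx : x ∈ U
      · rw [lopT_sum hu hφ2 x (j x), Finset.mul_sum]
        refine Finset.sum_congr rfl fun γ _ => ?_
        rw [← mul_assoc, hjv x hx γ]
      · have hx' : x ∉ tsupport φ := fun h => hx (hφs h)
        simp only [lopT_zero_of_notMem hx', mul_zero, Finset.sum_const_zero]
    have h4 : ∀ x, dns (fderiv ℝ u x) * ⟪lop u j x, φ x⟫_ℝ
        = ζ x • (dns (fderiv ℝ u x) * lop u j x β) := fun x => by
      rw [hφdef, inner_smul_right, EuclideanSpace.inner_single_right, smul_eq_mul]
      simp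
      ring
    simp only [h3, h4] at h2
    rw [← h2]
    exact h1
  -- conclusion
  have hfin : ∀ β : Fin n, ∀ x ∈ U, dns (fderiv ℝ u x) * lop u j x β = 0 := fun β => by
    have hc : Continuous fun x => dns (fderiv ℝ u x) * lop u j x β := by
      refine hw.mul ?_
      exact (EuclideanSpace.proj (𝕜 := ℝ) β).continuous.comp hlc
    have h1 := IsOpen.ae_eq_zero_of_integral_contDiff_smul_eq_zero (μ := volume)
      (Metric.isOpen_ball (x := (0 : Euc m)) (ε := r))
      (f := fun x => dns (fderiv ℝ u x) * lop u j x β)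
      (hc.locallyIntegrable.locallyIntegrableOn _) (key β)
    have h2 := Measure.eqOn_open_of_ae_eq (μ := (volume : Measure (Euc m)))
      (f := fun x => dns (fderiv ℝ u x) * lop u j x β) (g := fun _ => 0)
      ((ae_restrict_iff' Metric.isOpen_ball.measurableSet).2 h1) Metric.isOpen_ball
      hc.continuousOn continuousOn_const
    exact fun x hx => h2 hx
  intro x hx
  ext β
  have h1 := hfin β x hx
  have h3 := (Ell1_3.dns_pos (fderiv ℝ u x)).ne'
  simpa [h3] using h1

end Crest.Agent.R234.Mx20_397
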