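import Crest.Agent.R234.MgDefs5_570

/-!
# Row 234, node F2-TL (helper164): lower bound of the constant `θ`

`tlP : MG_570.TlP`.  Test function `ζ x = s * χ (r⁻¹ • x)` with a fixed bump function `χ` on
`Euc m` (`= 1` on `closedBall 0 (1/16)`, `= 0` off `ball 0 (1/8)`), `s = min 1 (r₀ / K)`.
-/

set_option autoImplicit false
set_option linter.unusedVariables false

open MeasureTheory Filter Topology Set
open scoped ENNReal NNReal ContDiff InnerProductSpace
open Crest.GeometryTopology.Submanifold Crest.Agent.R234.Vf_884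

noncomputable section

namespace Crest.Agent.R234.Tl_164

/-- A bump function with bounded derivative. -/
theorem exists_bump (m : ℕ) : ∃ (χ : Euc m → ℝ) (K : ℝ), 0 < K ∧ ContDiff ℝ 1 χ ∧
    (∀ x, 0 ≤ χ x) ∧ (∀ x, χ x ≤ 1) ∧ (∀ x, ‖x‖ < 1 / 16 → χ x = 1) ∧
    (∀ x, 1 / 8 ≤ ‖x‖ → χ x = 0) ∧ ∀ x, ‖fderiv ℝ χ x‖ ≤ K := by
  let f : ContDiffBump (0 : Euc m) := ⟨1 / 16, 1 / 8, by norm_num, by norm_num⟩
  have hf : ContDiff ℝ 1 (f : Euc m → ℝ) := f.contDiff
  have hc : HasCompactSupport (f : Euc m → ℝ) := f.hasCompactSupport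
  obtain ⟨K, hK⟩ := (hf.continuous_fderiv (by norm_num)).bounded_above_of_compact_support
    (hc.fderiv ℝ)
  refine ⟨f, max K 1, by positivity, hf, fun x => f.nonneg, fun x => f.le_one, fun x hx => ?_,
    fun x hx => ?_, fun x => (hK x).trans (le_max_left _ _)⟩
  · apply f.one_of_mem_closedBall
    rw [Metric.mem_closedBall, dist_zero_right]
    exact hx.le
  · apply f.zero_of_le_dist
    rw [dist_zero_right]
    exact hx

theorem tlP : MG_570.TlP := by
  intro m hm Λ r₀ hΛ hr₀
  obtain ⟨χ, K, hK, hχ, h0, h1, hin, hout, hd⟩ := exists_bump m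
  set s : ℝ := min 1 (r₀ / K) with hs
  have hs0 : 0 < s := lt_min one_pos (div_pos hr₀ hK)
  have hs1 : s ≤ 1 := min_le_left _ _
  have hsK : s * K ≤ r₀ := by
    have := min_le_right 1 (r₀ / K)
    rw [le_div_iff₀ hK] at this
    exact this
  set V : ℝ := 2 * (volume : Measure (Euc m)).real (Metric.ball 0 1) + 1 with hV
  have hV0 : 0 < V := by positivity
  refine ⟨Λ⁻¹ / (2 * V), s * Λ⁻¹ / 2, by positivity, by positivity, ?_⟩
  intro k W π g r θ E hr hr2 hW hWb hg hg0 hg2 hE hmean
  have hr0 : 0 < r := hr₀.trans_le hr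
  have : IsFiniteMeasure W := ⟨hW⟩
  set ζ : Euc m → ℝ := fun x => s * χ (r⁻¹ • x) with hζ
  have hζc : ContDiff ℝ 1 ζ := contDiff_const.mul (hχ.comp (contDiff_const_smul r⁻¹))
  have hζ0 : ∀ x, 0 ≤ ζ x := fun x => mul_nonneg hs0.le (h0 _)
  have hζs : ∀ x, ζ x ≤ s := fun x => by
    have := mul_le_mul_of_nonneg_left (h1 (r⁻¹ • x)) hs0.le
    simpa [hζ] using this
  have hnorm : ∀ x : Euc m, ‖r⁻¹ • x‖ = ‖x‖ / r := fun x => by
    rw [norm_smul, Real.norm_eq_abs, abs_of_pos (inv_pos.2 hr0)]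
    ring
  have hζout : ∀ x, r / 8 ≤ ‖x‖ → ζ x = 0 := fun x hx => by
    have : χ (r⁻¹ • x) = 0 := hout _ (by
      rw [hnorm, le_div_iff₀ hr0]; linarith)
    simp [hζ, this]
  have hζin : ∀ x, ‖x‖ < r / 16 → ζ x = s := fun x hx => by
    have : χ (r⁻¹ • x) = 1 := hin _ (by
      rw [hnorm, div_lt_iff₀ hr0]; linarith)
    simp [hζ, this]
  have hζd : ∀ x, ‖fderiv ℝ ζ x‖ ≤ 1 := fun x => by
    have hh : HasFDerivAt ζ (s • ((fderiv ℝ χ (r⁻¹ • x)).comp
        (r⁻¹ • ContinuousLinearMap.id ℝ (Euc m)))) x := by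
      have h3 : HasFDerivAt (fun x : Euc m => r⁻¹ • x) (r⁻¹ • ContinuousLinearMap.id ℝ (Euc m)) x :=
        (hasFDerivAt_id x).const_smul r⁻¹
      have h4 := ((hχ.differentiable (by norm_num)) (r⁻¹ • x)).hasFDerivAt
      exact (h4.comp x h3).const_mul s
    rw [hh.fderiv]
    have e : (fderiv ℝ χ (r⁻¹ • x)).comp (r⁻¹ • ContinuousLinearMap.id ℝ (Euc m))
        = r⁻¹ • fderiv ℝ χ (r⁻¹ • x) := by
      ext y; simp
    rw [e, smul_smul, norm_smul, Real.norm_eq_abs,
      abs_of_pos (mul_pos hs0 (inv_pos.2 hr0))]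
    calc s * r⁻¹ * ‖fderiv ℝ χ (r⁻¹ • x)‖ ≤ s * r⁻¹ * K :=
          mul_le_mul_of_nonneg_left (hd _) (by positivity)
      _ = (s * K) / r := by ring
      _ ≤ 1 := by
        rw [div_le_one hr0]; exact hsK.trans hr
  have key := hmean ζ hζc (fun x hx => hζout x (by linarith))
    (fun x => by rw [abs_of_nonneg (hζ0 x)]; exact (hζs x).trans hs1) hζd
  -- lower bound of the measure side
  have hcW : Continuous fun p : Euc k × L k => ζ (π p.1) :=
    hζc.continuous.comp (π.continuous.comp continuous_fst)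
  have hiW : Integrable (fun p : Euc k × L k => ζ (π p.1)) W := by
    refine Integrable.mono' (integrable_const s) hcW.aestronglyMeasurable
      (Eventually.of_forall fun p => ?_)
    rw [Real.norm_eq_abs, abs_of_nonneg (hζ0 _)]; exact hζs _
  have hlow : s * Λ⁻¹ ≤ ∫ p, ζ (π p.1) ∂W := by
    set S : Set (Euc k × L k) := (fun p => π p.1) ⁻¹' Metric.ball 0 (r / 16) with hS
    have hSm : MeasurableSet S :=
      (Metric.isOpen_ball.preimage (π.continuous.comp continuous_fst)).measurableSet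
    have hSl : Λ⁻¹ ≤ W.real S := by
      have := ENNReal.toReal_mono (measure_ne_top W S) hWb
      rwa [ENNReal.toReal_ofReal (by positivity)] at this
    calc s * Λ⁻¹ ≤ s * W.real S := mul_le_mul_of_nonneg_left hSl hs0.le
      _ = ∫ p in S, s ∂W := by
        rw [setIntegral_const, smul_eq_mul, mul_comm]
      _ = ∫ p in S, ζ (π p.1) ∂W := by
        refine setIntegral_congr_fun hSm fun p hp => ?_
        have : ‖π p.1‖ < r / 16 := by
          simpa [hS, Metric.mem_ball, dist_zero_right] using hp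
        exact (hζin _ this).symm
      _ ≤ ∫ p, ζ (π p.1) ∂W :=
        setIntegral_le_integral hiW (Eventually.of_forall fun p => hζ0 _)
  -- upper bound of the volume side
  have hI0 : 0 ≤ ∫ x, ζ x * g x := integral_nonneg fun x => mul_nonneg (hζ0 x) (hg0 x)
  have hI1 : ∫ x, ζ x * g x ≤ s * V := by
    have hle : ∀ x, ζ x * g x ≤ (Metric.ball (0 : Euc m) 1).indicator (fun _ => s * 2) x := by
      intro x
      by_cases hx : x ∈ Metric.ball (0 : Euc m) 1
      · rw [indicator_of_mem hx]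
        exact mul_le_mul (hζs x) (hg2 x) (hg0 x) hs0.le
      · rw [indicator_of_notMem hx]
        have : 1 ≤ ‖x‖ := by simpa [Metric.mem_ball, dist_zero_right] using hx
        rw [hζout x (by linarith), zero_mul]
    have hi : Integrable ((Metric.ball (0 : Euc m) 1).indicator fun _ => s * 2) volume := by
      rw [integrable_indicator_iff measurableSet_ball]
      exact integrableOn_const (measure_ball_lt_top.ne)
    calc ∫ x, ζ x * g x ≤ ∫ x, (Metric.ball (0 : Euc m) 1).indicator (fun _ => s * 2) x :=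
          integral_mono_of_nonneg
            (Eventually.of_forall fun x => mul_nonneg (hζ0 x) (hg0 x)) hi
            (Eventually.of_forall hle)
      _ = (volume : Measure (Euc m)).real (Metric.ball 0 1) * (s * 2) := by
        rw [integral_indicator measurableSet_ball, setIntegral_const, smul_eq_mul]
      _ ≤ s * V := by
        rw [hV]; nlinarith [hs0]
  have hkey : s * Λ⁻¹ / 2 ≤ θ * ∫ x, ζ x * g x := by
    have := (abs_le.1 key).2
    linarith
  have hpos : 0 < s * Λ⁻¹ / 2 := by positivity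
  have hθ : 0 < θ := by
    by_contra hneg
    push Not at hneg
    have := mul_nonpos_of_nonpos_of_nonneg hneg hI0
    linarith
  have h5 : s * Λ⁻¹ / 2 ≤ θ * (s * V) := hkey.trans (mul_le_mul_of_nonneg_left hI1 hθ.le)
  rw [div_le_iff₀ (by positivity)]
  have h6 : s * Λ⁻¹ ≤ s * (θ * (2 * V)) := by linarith
  exact le_of_mul_le_mul_left h6 hs0

end Crest.Agent.R234.Tl_164
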