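import Crest.Agent.R234.Th2_186

/-!
# Row 234, node F2-TH (helper186), file 3: `thP : MG_570.ThP`
-/

set_option autoImplicit false

open MeasureTheory Filter Topology Set
open scoped ENNReal NNReal ContDiff InnerProductSpace
open Crest.GeometryTopology.Submanifold Crest.Agent.R234.Vf_884
open Crest.Agent.R234.Ell1_3 (gop ginv dns)
open Crest.Agent.R234.Cy_870 (Split tr_cyc CylStat)
open Crest.Agent.R234.Ibp_937 (dG tr_half tr_eb)
open Crest.Agent.R234.MG_570 (TG)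
open Crest.Agent.R234.Nu_681 (dv Small)

noncomputable section

namespace Crest.Agent.R234.Th_186

variable {m n k : ℕ} {π : Euc k →L[ℝ] Euc m} {ρ : Euc k →L[ℝ] Euc n}

local notation "adj" => ContinuousLinearMap.adjoint

/-- the density is pinched -/
theorem exists_dns (m n : ℕ) : ∃ D : ℝ, 1 ≤ D ∧ ∀ q : Euc m →L[ℝ] Euc n, ‖q‖ ≤ 1 →
    D⁻¹ ≤ dns q ∧ dns q ≤ D := by
  have hc : Continuous (dns : (Euc m →L[ℝ] Euc n) → ℝ) := Ell1_3.dns_contDiff.continuous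
  have hK : IsCompact (Metric.closedBall (0 : Euc m →L[ℝ] Euc n) 1) :=
    isCompact_closedBall _ _
  have hne : (Metric.closedBall (0 : Euc m →L[ℝ] Euc n) 1).Nonempty :=
    ⟨0, Metric.mem_closedBall_self zero_le_one⟩
  obtain ⟨q0, -, h0⟩ := hK.exists_isMinOn hne hc.continuousOn
  obtain ⟨q1, -, h1⟩ := hK.exists_isMaxOn hne hc.continuousOn
  have hp := Ell1_3.dns_pos q0
  refine ⟨max 1 (max (dns q0)⁻¹ (dns q1)), le_max_left _ _, fun q hq => ?_⟩
  have hq' : q ∈ Metric.closedBall (0 : Euc m →L[ℝ] Euc n) 1 := by simpa using hq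
  refine ⟨?_, (h1 hq').trans ((le_max_right _ _).trans (le_max_right _ _))⟩
  refine le_trans ?_ (h0 hq')
  rw [inv_le_comm₀ (lt_max_of_lt_left one_pos) hp]
  exact (le_max_left _ _).trans (le_max_right _ _)

/-- the density along the graph -/
def ww (u : Euc m → Euc n) (x : Euc m) : ℝ := dns (fderiv ℝ u x)

theorem ww_pos (u : Euc m → Euc n) (x : Euc m) : 0 < ww u x := Ell1_3.dns_pos _

theorem contDiff_ww {u : Euc m → Euc n} (hu : ContDiff ℝ 2 u) : ContDiff ℝ 1 (ww u) := by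
  have h1 : ContDiff ℝ 1 (fderiv ℝ u) := hu.fderiv_right (by norm_num)
  have h2 : (1 : WithTop ℕ∞) ≤ ((⊤ : ℕ∞) : WithTop ℕ∞) := WithTop.coe_le_coe.2 le_top
  exact (Ell1_3.dns_contDiff.of_le h2).comp h1

theorem ww_deriv {u : Euc m → Euc n} (hu : ContDiff ℝ 2 u) (x : Euc m) :
    ∃ w' : Euc m →L[ℝ] ℝ, HasFDerivAt (ww u) w' x ∧ ∀ v, w' v = ww u x * (1 / 2 *
      tr (ginv (fderiv ℝ u x) ∘L dG (fderiv ℝ u x) (fderiv ℝ (fderiv ℝ u) x) v)) := by
  have h1 : ContDiff ℝ 1 (fderiv ℝ u) := hu.fderiv_right (by norm_num)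
  have hD : HasFDerivAt (fderiv ℝ u) (fderiv ℝ (fderiv ℝ u) x) x :=
    ((h1.differentiable one_ne_zero) x).hasFDerivAt
  obtain ⟨w', hw, hw'⟩ := Ibp_937.hasFDerivAt_dns hD
  exact ⟨w', hw, fun v => by rw [hw', ww]; ring⟩

theorem norm_ww_deriv_le {u : Euc m → Euc n} (hu : ContDiff ℝ 2 u) {x : Euc m}
    (h1 : ‖fderiv ℝ u x‖ ≤ 1) (h2 : ‖fderiv ℝ (fderiv ℝ u) x‖ ≤ 1) :
    ‖fderiv ℝ (ww u) x‖ ≤ m * ww u x := by
  obtain ⟨w', hw, hw'⟩ := ww_deriv hu x
  have hp := (ww_pos u x).le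
  rw [hw.fderiv]
  refine ContinuousLinearMap.opNorm_le_bound _ (by positivity) fun v => ?_
  rw [hw', Real.norm_eq_abs, abs_mul, abs_of_nonneg hp]
  calc ww u x * |1 / 2 * tr (ginv (fderiv ℝ u x) ∘L dG (fderiv ℝ u x) (fderiv ℝ (fderiv ℝ u) x) v)|
      ≤ ww u x * (m * ‖v‖) := by gcongr; exact abs_half_tr_le h1 h2 v
    _ = _ := by ring

/-- `ψ = Y / √g` -/
def ps (u : Euc m → Euc n) (Y : Euc m → Euc m) (x : Euc m) : Euc m := (ww u x)⁻¹ • Y x

theorem contDiff_ps {u : Euc m → Euc n} (hu : ContDiff ℝ 2 u) {Y : Euc m → Euc m}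
    (hY : ContDiff ℝ 1 Y) : ContDiff ℝ 1 (ps u Y) :=
  ((contDiff_ww hu).inv fun x => (ww_pos u x).ne').smul hY

theorem hasFDerivAt_ps {u : Euc m → Euc n} (hu : ContDiff ℝ 2 u) {Y : Euc m → Euc m}
    (hY : ContDiff ℝ 1 Y) (x : Euc m) : HasFDerivAt (ps u Y)
      ((ww u x)⁻¹ • fderiv ℝ Y x + (-(ww u x ^ 2)⁻¹ • fderiv ℝ (ww u) x).smulRight (Y x)) x := by
  have h1 : HasFDerivAt (ww u) (fderiv ℝ (ww u) x) x :=
    ((contDiff_ww hu).differentiable one_ne_zero x).hasFDerivAt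
  have h2 : HasFDerivAt (fun z => (ww u z)⁻¹) (-(ww u x ^ 2)⁻¹ • fderiv ℝ (ww u) x) x :=
    (hasDerivAt_inv (ww_pos u x).ne').comp_hasFDerivAt x h1
  exact h2.smul (hY.differentiable one_ne_zero x).hasFDerivAt

/-- **pointwise identity** -/
theorem tr_fld (h : Split π ρ) {u : Euc m → Euc n} (hu : ContDiff ℝ 2 u) {Y : Euc m → Euc m}
    (hY : ContDiff ℝ 1 Y) (z : Euc k) :
    tr (fderiv ℝ (fld π ρ u (ps u Y)) z ∘L TG π ρ u (π z)) = (ww u (π z))⁻¹ * dv Y (π z) := by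
  rw [(hasFDerivAt_fld hu (hasFDerivAt_ps hu hY (π z))).fderiv, TG_eq h, tr_Tq h _ _
    (fun a b => (hu.contDiffAt.isSymmSndFDerivAt (by simp)).eq a b)]
  obtain ⟨w', hw, hw'⟩ := ww_deriv hu (π z)
  rw [hw.fderiv]
  set x := π z with hx
  have hp := (ww_pos u x).ne'
  have e1 : tr ((ww u x)⁻¹ • fderiv ℝ Y x + (-(ww u x ^ 2)⁻¹ • w').smulRight (Y x))
      = (ww u x)⁻¹ * dv Y x - (ww u x ^ 2)⁻¹ * w' (Y x) := by
    rw [map_add, map_smul, smul_eq_mul]
    have e2 : tr ((-(ww u x ^ 2)⁻¹ • w').smulRight (Y x)) = -(ww u x ^ 2)⁻¹ * w' (Y x) := by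
      rw [tr_apply]
      exact LinearMap.trace_smulRight ((-(ww u x ^ 2)⁻¹ • w' : Euc m →L[ℝ] ℝ) : Euc m →ₗ[ℝ] ℝ) (Y x)
    rw [e2]
    have e3 : tr (fderiv ℝ Y x) = dv Y x := rfl
    rw [e3]
    ring
  have e4 : 1 / 2 * tr (ginv (fderiv ℝ u x) ∘L dG (fderiv ℝ u x) (fderiv ℝ (fderiv ℝ u) x)
      (ps u Y x)) = (ww u x ^ 2)⁻¹ * w' (Y x) := by
    rw [hw', ps, map_smul, ContinuousLinearMap.comp_smul, map_smul, smul_eq_mul]
    field_simp
  rw [e1, e4]
  ring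

theorem fderiv_zero_of {r : ℝ} (hr : 0 < r) {Y : Euc m → Euc m} (hY : ContDiff ℝ 1 Y)
    (h0 : ∀ x, r ≤ ‖x‖ → Y x = 0) {x : Euc m} (hx : r ≤ ‖x‖) : fderiv ℝ Y x = 0 := by
  have hgt : ∀ y : Euc m, r < ‖y‖ → fderiv ℝ Y y = 0 := by
    intro y hy
    have : Y =ᶠ[𝓝 y] fun _ => 0 := by
      have ho : IsOpen {y : Euc m | r < ‖y‖} := isOpen_lt continuous_const continuous_norm
      filter_upwards [ho.mem_nhds hy] with z hz
      exact h0 z (le_of_lt hz)
    rw [this.fderiv_eq]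
    exact fderiv_const_apply (0 : Euc m)
  have hc : Continuous fun t : ℝ => fderiv ℝ Y (t • x) :=
    (hY.continuous_fderiv one_ne_zero).comp (continuous_id.smul continuous_const)
  have h1 : Tendsto (fun t : ℝ => fderiv ℝ Y (t • x)) (𝓝[>] 1) (𝓝 (fderiv ℝ Y x)) := by
    have := (hc.tendsto 1).mono_left (nhdsWithin_le_nhds (s := Ioi 1))
    simpa using this
  have h2 : Tendsto (fun t : ℝ => fderiv ℝ Y (t • x)) (𝓝[>] 1) (𝓝 0) := by
    refine tendsto_const_nhds.congr' ?_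
    filter_upwards [self_mem_nhdsWithin] with t ht
    rw [hgt]
    have ht' : (1 : ℝ) < t := ht
    rw [norm_smul, Real.norm_eq_abs, abs_of_pos (by linarith)]
    have : 0 < ‖x‖ := hr.trans_le hx
    nlinarith
  exact tendsto_nhds_unique h1 h2

/-- bound of the error term -/
theorem err_le (h : Split π ρ) {u : Euc m → Euc n} (hu : ContDiff ℝ 2 u)
    (h1 : ∀ x, ‖fderiv ℝ u x‖ ≤ 1) (h2 : ∀ x, ‖fderiv ℝ (fderiv ℝ u) x‖ ≤ 1) {D : ℝ}
    (hD : ∀ x, D⁻¹ ≤ ww u x) (hD0 : 0 < D) {Y : Euc m → Euc m}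
    (hY : ContDiff ℝ 1 Y) (h3 : ∀ x, ‖Y x‖ ≤ 1) (h4 : ∀ x, ‖fderiv ℝ Y x‖ ≤ 1) (z : Euc k)
    (A : L k) :
    |tr (fderiv ℝ (fld π ρ u (ps u Y)) z ∘L A)| ≤ m * ((2 * m + 3) * D) * ‖A‖ := by
  rw [(hasFDerivAt_fld hu (hasFDerivAt_ps hu hY (π z))).fderiv]
  refine (abs_tr_le h _ A).trans ?_
  rw [← mul_assoc]
  gcongr
  set x := π z with hx
  have hp := ww_pos u x
  have hi : (ww u x)⁻¹ ≤ D := by
    rw [inv_le_comm₀ hp hD0]; exact hD x
  refine (norm_Jx_le h (h1 x) (h2 x) _ _).trans ?_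
  have b1 : ‖ps u Y x‖ ≤ D := by
    rw [ps, norm_smul, norm_inv, Real.norm_eq_abs, abs_of_pos hp]
    calc (ww u x)⁻¹ * ‖Y x‖ ≤ D * 1 := by gcongr; exact h3 x
      _ = D := mul_one _
  have b2 : ‖(ww u x)⁻¹ • fderiv ℝ Y x + (-(ww u x ^ 2)⁻¹ • fderiv ℝ (ww u) x).smulRight (Y x)‖
      ≤ D + m * D := by
    refine (norm_add_le _ _).trans ?_
    gcongr
    · rw [norm_smul, norm_inv, Real.norm_eq_abs, abs_of_pos hp]
      calc (ww u x)⁻¹ * ‖fderiv ℝ Y x‖ ≤ D * 1 := by gcongr; exact h4 x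
        _ = D := mul_one _
    · rw [ContinuousLinearMap.norm_smulRight_apply, norm_smul, norm_neg, norm_inv, norm_pow,
        Real.norm_eq_abs, abs_of_pos hp]
      calc (ww u x ^ 2)⁻¹ * ‖fderiv ℝ (ww u) x‖ * ‖Y x‖
          ≤ (ww u x ^ 2)⁻¹ * (m * ww u x) * 1 := by
            gcongr
            · exact norm_ww_deriv_le hu (h1 x) (h2 x)
            · exact h3 x
        _ = m * (ww u x)⁻¹ := by field_simp
        _ ≤ m * D := by gcongr
  calc 2 * ‖(ww u x)⁻¹ • fderiv ℝ Y x + (-(ww u x ^ 2)⁻¹ • fderiv ℝ (ww u) x).smulRight (Y x)‖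
        + ‖ps u Y x‖ ≤ 2 * (D + m * D) + D := by gcongr
    _ = _ := by ring

theorem continuous_TG (h : Split π ρ) {u : Euc m → Euc n} (hu : ContDiff ℝ 2 u) :
    Continuous fun p : Euc k × L k => TG π ρ u (π p.1) := by
  have h1 : ContDiff ℝ 1 (fderiv ℝ u) := hu.fderiv_right (by norm_num)
  have hq : Continuous fun p : Euc k × L k => fderiv ℝ u (π p.1) :=
    h1.continuous.comp (π.continuous.comp continuous_fst)
  have e : (fun p : Euc k × L k => TG π ρ u (π p.1))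
      = fun p => Tq π ρ (fderiv ℝ u (π p.1)) := by
    funext p; exact TG_eq h u _
  rw [e]
  have hF : Continuous fun p : Euc k × L k => Fq π ρ (fderiv ℝ u (π p.1)) :=
    continuous_const.add (continuous_const.clm_comp hq)
  have hg : Continuous fun p : Euc k × L k => ginv (fderiv ℝ u (π p.1)) :=
    Ell1_3.ginv_contDiff.continuous.comp hq
  have ha : Continuous fun p : Euc k × L k => adj (Fq π ρ (fderiv ℝ u (π p.1))) :=
    (ContinuousLinearMap.adjoint (𝕜 := ℝ) (E := Euc m) (F := Euc k)).continuous.comp hF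
  exact hF.clm_comp (hg.clm_comp ha)

theorem norm_Tq_le (h : Split π ρ) {q : Euc m →L[ℝ] Euc n} (hq : ‖q‖ ≤ 1) :
    ‖Tq π ρ q‖ ≤ 4 := by
  have hF : ‖Fq π ρ q‖ ≤ 2 := by
    refine ContinuousLinearMap.opNorm_le_bound _ (by norm_num) fun v => ?_
    rw [Fq_apply]
    calc ‖adj π v + adj ρ (q v)‖ ≤ ‖adj π v‖ + ‖adj ρ (q v)‖ := norm_add_le _ _
      _ ≤ ‖v‖ + 1 * ‖v‖ := by
          rw [norm_adj_pi h, norm_adj_rho h]; gcongr
          exact (q.le_opNorm v).trans (by gcongr)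
      _ = 2 * ‖v‖ := by ring
  have ha : ‖adj (Fq π ρ q)‖ = ‖Fq π ρ q‖ :=
    LinearIsometryEquiv.norm_map _ _
  calc ‖Tq π ρ q‖ ≤ ‖Fq π ρ q‖ * (‖ginv q‖ * ‖adj (Fq π ρ q)‖) :=
        (ContinuousLinearMap.opNorm_comp_le _ _).trans (by
          gcongr; exact ContinuousLinearMap.opNorm_comp_le _ _)
    _ ≤ 2 * (1 * 2) := by
        rw [ha]; gcongr; exact Sw_733.norm_ginv_le q
    _ = 4 := by norm_num

/-- the weighted projected measure -/
def nuW (W : Measure (Euc k × L k)) (π : Euc k →L[ℝ] Euc m) (u : Euc m → Euc n) :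
    Measure (Euc m) :=
  (W.withDensity fun p => ENNReal.ofReal (ww u (π p.1))⁻¹).map fun p => π p.1

theorem meas_pi (π : Euc k →L[ℝ] Euc m) : Measurable fun p : Euc k × L k => π p.1 :=
  (π.continuous.comp continuous_fst).measurable

theorem cont_wi {u : Euc m → Euc n} (hu : ContDiff ℝ 2 u) :
    Continuous fun x => (ww u x)⁻¹ :=
  (contDiff_ww hu).continuous.inv₀ fun x => (ww_pos u x).ne'

theorem integral_nuW (W : Measure (Euc k × L k)) {u : Euc m → Euc n} (hu : ContDiff ℝ 2 u)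
    {f : Euc m → ℝ} (hf : Continuous f) :
    ∫ x, f x ∂(nuW W π u) = ∫ p, (ww u (π p.1))⁻¹ * f (π p.1) ∂W := by
  have hw : Measurable fun p : Euc k × L k => ENNReal.ofReal (ww u (π p.1))⁻¹ :=
    ((cont_wi hu).measurable.comp (meas_pi π)).ennreal_ofReal
  rw [nuW, integral_map (meas_pi π).aemeasurable hf.aestronglyMeasurable,
    integral_withDensity_eq_integral_toReal_smul hw
      (Eventually.of_forall fun _ => ENNReal.ofReal_lt_top)]
  refine integral_congr_ae (Eventually.of_forall fun p => ?_)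
  simp only [smul_eq_mul]
  rw [ENNReal.toReal_ofReal (inv_nonneg.2 (ww_pos u _).le)]

theorem nuW_fin {W : Measure (Euc k × L k)} (hW : W univ < ⊤) {u : Euc m → Euc n} {D : ℝ}
    (hD : ∀ x, D⁻¹ ≤ ww u x) (hD0 : 0 < D) : nuW W π u univ < ⊤ := by
  rw [nuW, Measure.map_apply (meas_pi π) MeasurableSet.univ, preimage_univ,
    withDensity_apply _ MeasurableSet.univ, setLIntegral_univ]
  calc ∫⁻ p, ENNReal.ofReal (ww u (π p.1))⁻¹ ∂W ≤ ∫⁻ _p, ENNReal.ofReal D ∂W := by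
        refine lintegral_mono fun p => ENNReal.ofReal_le_ofReal ?_
        rw [inv_le_comm₀ (ww_pos u _) hD0]; exact hD _
    _ = ENNReal.ofReal D * W univ := by simp
    _ < ⊤ := ENNReal.mul_lt_top ENNReal.ofReal_lt_top hW

theorem small_nuW {W : Measure (Euc k × L k)} {r R E D : ℝ} {u : Euc m → Euc n}
    (hr : 0 < r) (hrR : r ≤ R) (hW : CylStat W π ρ 0 R 1) (hu : ContDiff ℝ 2 u)
    (h1 : ∀ x, ‖fderiv ℝ u x‖ ≤ 1) (h2 : ∀ x, ‖fderiv ℝ (fderiv ℝ u) x‖ ≤ 1)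
    (hD : ∀ x, D⁻¹ ≤ ww u x) (hD0 : 0 < D)
    (hE : ∫ p in {p : Euc k × L k | ‖π p.1‖ < r}, ‖p.2 - TG π ρ u (π p.1)‖ ∂W ≤ E) :
    Small (nuW W π u) r (m * ((2 * m + 3) * D) * E) := by
  intro Y hY h0 h3 h4
  have : IsFiniteMeasure W := ⟨hW.fin⟩
  set X := fld π ρ u (ps u Y) with hX
  have hXc : ContDiff ℝ 1 X := contDiff_fld hu (contDiff_ps hu hY)
  have hst : ∫ p, tr (fderiv ℝ X p.1 ∘L p.2) ∂W = 0 := by
    refine hW.stat X hXc fun p hp => ?_
    rw [sub_zero] at hp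
    have hz : ps u Y (π p) = 0 := by rw [ps, h0 _ (hrR.trans hp), smul_zero]
    rw [hX, fld, hz, map_zero, map_zero, map_zero, add_zero]
  have hdv : Continuous (fun x => dv Y x) := by
    have : Continuous (fun x => fderiv ℝ Y x) := hY.continuous_fderiv one_ne_zero
    exact (LinearMap.continuous_of_finiteDimensional
      ((LinearMap.trace ℝ (Euc m)) ∘ₗ (ContinuousLinearMap.coeLM ℝ))).comp this
  rw [integral_nuW W hu hdv]
  -- the two integrands
  have hc2 : Continuous fun p : Euc k × L k =>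
      tr (fderiv ℝ X p.1 ∘L (p.2 - TG π ρ u (π p.1))) :=
    tr.continuous.comp (((hXc.continuous_fderiv one_ne_zero).comp continuous_fst).clm_comp
      (continuous_snd.sub (continuous_TG hW.sp hu)))
  have hc1 : Continuous fun p : Euc k × L k => (ww u (π p.1))⁻¹ * dv Y (π p.1) :=
    (((cont_wi hu).mul hdv).comp π.continuous).comp continuous_fst
  set Kc : ℝ := m * ((2 * m + 3) * D) with hKc
  have hKc0 : 0 ≤ Kc := by positivity
  have hpt : ∀ p : Euc k × L k, |tr (fderiv ℝ X p.1 ∘L (p.2 - TG π ρ u (π p.1)))|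
      ≤ {p : Euc k × L k | ‖π p.1‖ < r}.indicator
        (fun p => Kc * ‖p.2 - TG π ρ u (π p.1)‖) p := by
    intro p
    by_cases hp : p ∈ {p : Euc k × L k | ‖π p.1‖ < r}
    · rw [indicator_of_mem hp]
      exact err_le hW.sp hu h1 h2 hD hD0 hY h3 h4 p.1 _
    · rw [indicator_of_notMem hp]
      have hp' : r ≤ ‖π p.1‖ := not_lt.1 hp
      have hz : fderiv ℝ X p.1 = 0 := by
        rw [hX, (hasFDerivAt_fld hu (hasFDerivAt_ps hu hY (π p.1))).fderiv]
        have e1 : Y (π p.1) = 0 := h0 _ hp'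
        have e2 : fderiv ℝ Y (π p.1) = 0 := fderiv_zero_of hr hY h0 hp'
        ext1 v
        rw [ContinuousLinearMap.comp_apply, Jx_apply, ps, e1, e2]
        simp
      rw [hz, ContinuousLinearMap.zero_comp, map_zero, abs_zero]
  have hbd : ∀ᵐ p ∂W, ‖p.2 - TG π ρ u (π p.1)‖ ≤ 5 := by
    filter_upwards [hW.conc] with p hp
    rw [TG_eq hW.sp]
    refine (norm_sub_le _ _).trans ?_
    have a1 := G_norm_le hp
    have a2 := norm_Tq_le hW.sp (h1 (π p.1))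
    linarith
  have hcn : Continuous fun p : Euc k × L k => ‖p.2 - TG π ρ u (π p.1)‖ :=
    (continuous_snd.sub (continuous_TG hW.sp hu)).norm
  have hin : Integrable (fun p : Euc k × L k => ‖p.2 - TG π ρ u (π p.1)‖) W :=
    Integrable.of_bound hcn.aestronglyMeasurable 5 (by
      filter_upwards [hbd] with p hp
      rwa [norm_norm])
  have hms : MeasurableSet {p : Euc k × L k | ‖π p.1‖ < r} :=
    (isOpen_lt (π.continuous.comp continuous_fst).norm continuous_const).measurableSet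
  have hiI : Integrable ({p : Euc k × L k | ‖π p.1‖ < r}.indicator
      (fun p => Kc * ‖p.2 - TG π ρ u (π p.1)‖)) W := (hin.const_mul Kc).indicator hms
  have hi2 : Integrable (fun p : Euc k × L k =>
      tr (fderiv ℝ X p.1 ∘L (p.2 - TG π ρ u (π p.1)))) W :=
    hiI.mono' hc2.aestronglyMeasurable (Eventually.of_forall hpt)
  have hdb : ∀ x, |(ww u x)⁻¹ * dv Y x| ≤ D * m := by
    intro x
    have hi : (ww u x)⁻¹ ≤ D := by
      rw [inv_le_comm₀ (ww_pos u x) hD0]; exact hD x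
    have hd : |dv Y x| ≤ m := by
      have e : |tr (fderiv ℝ Y x)| ≤ m * ‖fderiv ℝ Y x‖ := Sel1_570.abs_tr_le _
      have e2 : tr (fderiv ℝ Y x) = dv Y x := rfl
      rw [e2] at e
      refine e.trans ?_
      calc (m : ℝ) * ‖fderiv ℝ Y x‖ ≤ m * 1 := by gcongr; exact h4 x
        _ = m := mul_one _
    rw [abs_mul, abs_of_pos (inv_pos.2 (ww_pos u x))]
    gcongr
  have hi1 : Integrable (fun p : Euc k × L k => (ww u (π p.1))⁻¹ * dv Y (π p.1)) W :=
    Integrable.of_bound hc1.aestronglyMeasurable (D * m)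
      (Eventually.of_forall fun p => hdb _)
  have hsplit : ∀ p : Euc k × L k, tr (fderiv ℝ X p.1 ∘L p.2)
      = (ww u (π p.1))⁻¹ * dv Y (π p.1) + tr (fderiv ℝ X p.1 ∘L (p.2 - TG π ρ u (π p.1))) := by
    intro p
    rw [← tr_fld hW.sp hu hY p.1, ← hX, ← map_add, ← ContinuousLinearMap.comp_add]
    congr 2
    abel
  simp_rw [hsplit] at hst
  rw [integral_add hi1 hi2] at hst
  have e1 : ∫ p, (ww u (π p.1))⁻¹ * dv Y (π p.1) ∂W
      = -∫ p, tr (fderiv ℝ X p.1 ∘L (p.2 - TG π ρ u (π p.1))) ∂W := by linarith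
  rw [e1, abs_neg]
  calc |∫ p, tr (fderiv ℝ X p.1 ∘L (p.2 - TG π ρ u (π p.1))) ∂W|
      ≤ ∫ p, |tr (fderiv ℝ X p.1 ∘L (p.2 - TG π ρ u (π p.1)))| ∂W := abs_integral_le_integral_abs
    _ ≤ ∫ p, {p : Euc k × L k | ‖π p.1‖ < r}.indicator
        (fun p => Kc * ‖p.2 - TG π ρ u (π p.1)‖) p ∂W :=
        integral_mono hi2.abs hiI hpt
    _ = Kc * ∫ p in {p : Euc k × L k | ‖π p.1‖ < r}, ‖p.2 - TG π ρ u (π p.1)‖ ∂W := by
        rw [integral_indicator hms, integral_const_mul]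
    _ ≤ Kc * E := by gcongr

/-- **F2-TH**. -/
theorem thP : MG_570.ThP := by
  intro m n hm r₀ hr₀
  obtain ⟨D, hD1, hD⟩ := exists_dns m n
  have hD0 : 0 < D := by linarith
  obtain ⟨C, hC, hnu⟩ := nu_all m
  set K : ℝ := D * (1 + m) with hK
  have hK0 : 0 < K := by positivity
  have hm0 : (0 : ℝ) < m := by exact_mod_cast hm
  refine ⟨K * (C * (m * ((2 * m + 3) * D))), by positivity, ?_⟩
  intro k W π ρ u r R E hr hrR hr2 hW hu h1 h2 hE
  have hr0 : 0 < r := hr₀.trans_le hr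
  have hDl : ∀ x, D⁻¹ ≤ ww u x := fun x => (hD _ (h1 x)).1
  have hDu : ∀ x, ww u x ≤ D := fun x => (hD _ (h1 x)).2
  have hE0 : 0 ≤ E := le_trans (integral_nonneg fun p => norm_nonneg _) hE
  have hs := small_nuW hr0 hrR hW hu h1 h2 hDl hD0 hE
  obtain ⟨θ, -, hθ⟩ := hnu (nuW W π u) r _ (nuW_fin hW.fin hDl hD0) hr0 hr2 (by positivity) hs
  refine ⟨θ, fun ζ hζ h0 h3 h4 => ?_⟩
  have hwc := contDiff_ww hu
  have hd : ∀ x, fderiv ℝ (fun z => K⁻¹ * (ζ z * ww u z)) x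
      = K⁻¹ • (ζ x • fderiv ℝ (ww u) x + ww u x • fderiv ℝ ζ x) := fun x =>
    (((hζ.differentiable one_ne_zero x).hasFDerivAt.mul
      (hwc.differentiable one_ne_zero x).hasFDerivAt).const_mul K⁻¹).fderiv
  have key := hθ (fun z => K⁻¹ * (ζ z * ww u z)) (contDiff_const.mul (hζ.mul hwc))
    (fun x hx => by rw [h0 x hx]; simp)
    (fun x => by
      rw [abs_mul, abs_mul, abs_inv, abs_of_pos hK0, abs_of_pos (ww_pos u x)]
      calc K⁻¹ * (|ζ x| * ww u x) ≤ K⁻¹ * (1 * D) := by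
            gcongr
            · exact (ww_pos u x).le
            · exact h3 x
            · exact hDu x
        _ ≤ K⁻¹ * K := by
            gcongr
            rw [one_mul, hK]
            nlinarith
        _ = 1 := inv_mul_cancel₀ hK0.ne')
    (fun x => by
      rw [hd, norm_smul, norm_inv, Real.norm_eq_abs, abs_of_pos hK0]
      have a1 : ‖ζ x • fderiv ℝ (ww u) x + ww u x • fderiv ℝ ζ x‖ ≤ K := by
        refine (norm_add_le _ _).trans ?_
        rw [norm_smul, norm_smul, Real.norm_eq_abs, Real.norm_eq_abs, abs_of_pos (ww_pos u x)]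
        calc |ζ x| * ‖fderiv ℝ (ww u) x‖ + ww u x * ‖fderiv ℝ ζ x‖
            ≤ 1 * (m * D) + D * 1 := by
              gcongr
              · exact h3 x
              · exact (norm_ww_deriv_le hu (h1 x) (h2 x)).trans (by gcongr; exact hDu x)
              · exact hDu x
              · exact h4 x
          _ = K := by rw [hK]; ring
      calc K⁻¹ * ‖ζ x • fderiv ℝ (ww u) x + ww u x • fderiv ℝ ζ x‖ ≤ K⁻¹ * K := by gcongr
        _ = 1 := inv_mul_cancel₀ hK0.ne')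
  have e1 : ∫ x, K⁻¹ * (ζ x * ww u x) ∂(nuW W π u) = K⁻¹ * ∫ p, ζ (π p.1) ∂W := by
    have hc : Continuous fun x => K⁻¹ * (ζ x * ww u x) :=
      continuous_const.mul (hζ.continuous.mul hwc.continuous)
    rw [integral_nuW W hu hc, ← integral_const_mul]
    refine integral_congr_ae (Eventually.of_forall fun p => ?_)
    have := (ww_pos u (π p.1)).ne'
    simp only
    field_simp
  have e2 : ∫ x, K⁻¹ * (ζ x * ww u x) = K⁻¹ * ∫ x, ζ x * dns (fderiv ℝ u x) := by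
    rw [integral_const_mul]; rfl
  rw [e1, e2] at key
  have e3 : ∫ p, ζ (π p.1) ∂W - θ * ∫ x, ζ x * dns (fderiv ℝ u x)
      = K * (K⁻¹ * ∫ p, ζ (π p.1) ∂W - θ * (K⁻¹ * ∫ x, ζ x * dns (fderiv ℝ u x))) := by
    field_simp
  rw [e3, abs_mul, abs_of_pos hK0]
  calc K * |K⁻¹ * ∫ p, ζ (π p.1) ∂W - θ * (K⁻¹ * ∫ x, ζ x * dns (fderiv ℝ u x))|
      ≤ K * (C * (m * ((2 * m + 3) * D) * E)) := by gcongr
    _ = K * (C * (m * ((2 * m + 3) * D))) * E := by ring

end Crest.Agent.R234.Th_186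

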