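import Crest.Agent.R234.Wj4_186
import Crest.Agent.R234.Mx17_397

/-!
# Row 234, node F2-WJ (helper186), file 5: bounds of represented functions
-/

set_option autoImplicit false
set_option maxSynthPendingDepth 3

open MeasureTheory Filter Topology Set
open scoped ENNReal NNReal ContDiff InnerProductSpace
open Crest.GeometryTopology.Submanifold Crest.Agent.R234.Vf_884
open Crest.Agent.R234.Mx5_397 (msop syn contDiff_syn)
open Crest.Agent.R234.MG_570 (XV IsReal Rep)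
open Crest.Agent.R234.Mx16_397 (rep_syn)
open Crest.Agent.R234.Mx6_397 (norm_iteratedFDeriv_syn_le)

noncomputable section

namespace Crest.Agent.R234.Wj_186

variable {m n k : ℕ} {u φ : Euc m → Euc n}

theorem norm_fderiv_eq1 {G : Type*} [NormedAddCommGroup G] [NormedSpace ℝ G] (f : Euc m → G)
    (x : Euc m) : ‖fderiv ℝ f x‖ = ‖iteratedFDeriv ℝ 1 f x‖ := by
  rw [← norm_iteratedFDeriv_fderiv (n := 0), norm_iteratedFDeriv_zero]

theorem norm_fderiv_eq2 {G : Type*} [NormedAddCommGroup G] [NormedSpace ℝ G] (f : Euc m → G)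
    (x : Euc m) : ‖fderiv ℝ (fderiv ℝ f) x‖ = ‖iteratedFDeriv ℝ 2 f x‖ := by
  rw [← norm_iteratedFDeriv_fderiv (n := 1), norm_fderiv_eq1]

theorem norm_fderiv_eq3 (f : Euc m → Euc n) (x : Euc m) :
    ‖fderiv ℝ (fderiv ℝ (fderiv ℝ f)) x‖ = ‖iteratedFDeriv ℝ 3 f x‖ := by
  rw [← norm_iteratedFDeriv_fderiv (n := 2), norm_fderiv_eq2]

/-- the bound of the derivatives of a represented function -/
def Kb (n N : ℕ) : ℝ := (n + 1) * (2 * Real.pi) ^ N

theorem Kb_pos (n N : ℕ) : 0 < Kb n N := by unfold Kb; positivity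

theorem rep_bound {N : ℕ} {a : XV m n N} (h : Rep a u) {j : ℕ} (hj : j ≤ N) (x : Euc m) :
    ‖iteratedFDeriv ℝ j u x‖ ≤ Kb n N * ‖a‖ := by
  rw [rep_syn h]
  refine (norm_iteratedFDeriv_syn_le _ a hj x).trans ?_
  rw [Fintype.card_fin, Kb, ← mul_assoc]
  gcongr
  linarith

theorem rep_smooth {N : ℕ} {a : XV m n N} (h : Rep a u) : ContDiff ℝ N u := by
  rw [rep_syn h]
  exact contDiff_syn _ a

theorem u3_of {a : XV m n 3} (h : Rep a u) (ha : ‖a‖ ≤ (Kb n 3)⁻¹) : U3 u := by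
  have hb : ∀ j ≤ 3, ∀ x, ‖iteratedFDeriv ℝ j u x‖ ≤ 1 := fun j hj x => by
    refine (rep_bound h hj x).trans ?_
    calc Kb n 3 * ‖a‖ ≤ Kb n 3 * (Kb n 3)⁻¹ := by gcongr; exact (Kb_pos n 3).le
      _ = 1 := mul_inv_cancel₀ (Kb_pos n 3).ne'
  exact
  { sm := rep_smooth h
    d1 := fun x => by rw [norm_fderiv_eq1]; exact hb 1 (by norm_num) x
    d2 := fun x => by rw [norm_fderiv_eq2]; exact hb 2 (by norm_num) x
    d3 := fun x => by rw [norm_fderiv_eq3]; exact hb 3 (by norm_num) x }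

theorem p2_of {b : XV m n 2} (h : Rep b φ) {r : ℝ} (hz : ∀ x, r ≤ ‖x‖ → φ x = 0) :
    P2 φ r (Kb n 2 * ‖b‖) where
  sm := rep_smooth h
  b0 x := by
    have := rep_bound h (j := 0) (by norm_num) x
    rwa [norm_iteratedFDeriv_zero] at this
  b1 x := by rw [norm_fderiv_eq1]; exact rep_bound h (by norm_num) x
  b2 x := by rw [norm_fderiv_eq2]; exact rep_bound h (by norm_num) x
  z := hz

end Crest.Agent.R234.Wj_186
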