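import Crest.Agent.R234.Wj2_186
import Crest.Agent.R234.Wj5_186
import Crest.Agent.R234.Th3_186

/-!
# Row 234, node F2-WJ (helper186), file 6: `wjP : MG_570.WJP`
-/

set_option autoImplicit false
set_option maxSynthPendingDepth 3

open MeasureTheory Filter Topology Set
open scoped ENNReal NNReal ContDiff InnerProductSpace
open Crest.GeometryTopology.Submanifold Crest.Agent.R234.Vf_884
open Crest.Agent.R234.Cy_870 (Split tr_cyc CylStat)
open Crest.Agent.R234.MG_570 (TG XV IsReal Rep lopT WJP)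
open Crest.Agent.R234.Mx5_397 (msop)
open Crest.Agent.R234.Sel1_570 Crest.Agent.R234.Sel2_570 Crest.Agent.R234.Th_186

noncomputable section

namespace Crest.Agent.R234.Wj_186

variable {m n k : ℕ} {π : Euc k →L[ℝ] Euc m} {ρ : Euc k →L[ℝ] Euc n} {u φ : Euc m → Euc n}

/-- tilt, `h > 0` -/
theorem tilt_pos {W : Measure (Euc k × L k)} {C h Λ r R : ℝ} (hC : 0 ≤ C) (hR : r < R)
    (hR7 : R ≤ 7 / 4) (hr : 0 < r) (hh0 : 0 < h) (hW : CylStat W π ρ 0 R 1)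
    (hΛ : W univ ≤ ENNReal.ofReal Λ) (hΛ0 : 0 ≤ Λ) (hu : U3 u) {et : Euc m → ℝ}
    (hc : Continuous et) (h1 : ∀ x, ‖x‖ ≤ r → et x = 1)
    (hE : ∫ p, et (π p.1) ^ 2 * tau (TG π ρ u (π p.1)) p.2 ∂W ≤ C * Λ * h ^ 2 / (R - r) ^ 2) :
    ∫ p in {p : Euc k × L k | ‖π p.1‖ < r}, ‖p.2 - TG π ρ u (π p.1)‖ ∂W
      ≤ (C + 2) * (1 + Λ) * h / (R - r) ^ 2 := by
  have : IsFiniteMeasure W := ⟨hW.fin⟩
  have hs := hW.sp
  have hbase := (hstat hW).toHBase
  have hd : 0 < R - r := sub_pos.2 hR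
  have hd2 : (R - r) ^ 2 ≤ 4 := by nlinarith
  have hWr : W.real univ ≤ Λ := by
    rw [Measure.real]
    exact ENNReal.toReal_le_of_le_ofReal hΛ0 hΛ
  have hms : MeasurableSet {p : Euc k × L k | ‖π p.1‖ < r} :=
    (isOpen_lt (π.continuous.comp continuous_fst).norm continuous_const).measurableSet
  have hcn : Continuous fun p : Euc k × L k => ‖p.2 - TG π ρ u (π p.1)‖ :=
    (continuous_snd.sub (continuous_TG hs (hu.sm.of_le (by norm_num)))).norm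
  have i1 : Integrable (fun p : Euc k × L k => ‖p.2 - TG π ρ u (π p.1)‖) W :=
    integrable_of_cont' hbase hcn
  have i2 : Integrable (fun p : Euc k × L k =>
      et (π p.1) ^ 2 * tau (TG π ρ u (π p.1)) p.2) W := by
    have := integrable_of_cont' hbase ((((hc.comp π.continuous).comp continuous_fst).pow 2).mul
      (gd hs hu.sm).continuous_tau)
    refine this.congr (Eventually.of_forall fun p => ?_)
    show et (π p.1) ^ 2 * tau (TZ (Hp π) (wg π ρ u) p.1) p.2 = _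
    rw [TZ_eq hu.sm]
  have hpt : ∀ᵐ p ∂W, ({p : Euc k × L k | ‖π p.1‖ < r}.indicator
      (fun p => ‖p.2 - TG π ρ u (π p.1)‖)) p
      ≤ h⁻¹ * (et (π p.1) ^ 2 * tau (TG π ρ u (π p.1)) p.2) + h / 2 := by
    filter_upwards [hW.conc] with p hp
    have hT : TG π ρ u (π p.1) ∈ Vf_884.G m k := by
      rw [← TZ_eq hu.sm]
      exact ((gd hs hu.sm).gb p.1).TT_mem (tr_H hs)
    have hτ : 0 ≤ tau (TG π ρ u (π p.1)) p.2 := tau_nonneg hp hT
    by_cases hz : p ∈ {p : Euc k × L k | ‖π p.1‖ < r}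
    · rw [indicator_of_mem hz]
      have hz' : ‖π p.1‖ < r := hz
      rw [h1 _ hz'.le, one_pow, one_mul]
      have a1 : ‖p.2 - TG π ρ u (π p.1)‖ ^ 2 ≤ 2 * tau (TG π ρ u (π p.1)) p.2 :=
        norm_sub_sq_le hp hT
      have a2 : ‖p.2 - TG π ρ u (π p.1)‖ * h ≤ tau (TG π ρ u (π p.1)) p.2 + h ^ 2 / 2 := by
        nlinarith [sq_nonneg (‖p.2 - TG π ρ u (π p.1)‖ - h)]
      rw [← mul_le_mul_iff_left₀ hh0]
      calc ‖p.2 - TG π ρ u (π p.1)‖ * h ≤ tau (TG π ρ u (π p.1)) p.2 + h ^ 2 / 2 := a2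
        _ = (h⁻¹ * tau (TG π ρ u (π p.1)) p.2 + h / 2) * h := by field_simp
    · rw [indicator_of_notMem hz]
      positivity
  rw [← integral_indicator hms]
  calc ∫ p, ({p : Euc k × L k | ‖π p.1‖ < r}.indicator
      (fun p => ‖p.2 - TG π ρ u (π p.1)‖)) p ∂W
      ≤ ∫ p, (h⁻¹ * (et (π p.1) ^ 2 * tau (TG π ρ u (π p.1)) p.2) + h / 2) ∂W :=
        integral_mono_ae (i1.indicator hms) ((i2.const_mul _).add (integrable_const _)) hpt
    _ = h⁻¹ * ∫ p, et (π p.1) ^ 2 * tau (TG π ρ u (π p.1)) p.2 ∂W + W.real univ * (h / 2) := by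
        rw [integral_add (i2.const_mul _) (integrable_const _), integral_const_mul,
          integral_const, smul_eq_mul]
    _ ≤ h⁻¹ * (C * Λ * h ^ 2 / (R - r) ^ 2) + Λ * (h / 2) := by gcongr
    _ ≤ (C + 2) * (1 + Λ) * h / (R - r) ^ 2 := by
        rw [le_div_iff₀ (by positivity)]
        have e : (h⁻¹ * (C * Λ * h ^ 2 / (R - r) ^ 2) + Λ * (h / 2)) * (R - r) ^ 2
            = C * Λ * h + Λ * h / 2 * (R - r) ^ 2 := by field_simp
        rw [e]
        have b1 : 0 ≤ Λ * h := by positivity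
        have b2 : 0 ≤ C * h := by positivity
        nlinarith

/-- **F2-WJ** -/
theorem wjP : WJP := by
  intro m n hm
  obtain ⟨C1, hC1, hcacc⟩ := cacc_tau m n
  set C2 : ℝ := n * (15 * (m + n) * Kb n 2 * (4 + C1)) with hC2
  have hK2 := Kb_pos n 2
  have hC2n : 0 ≤ C2 := by positivity
  refine ⟨(Kb n 3)⁻¹, (C1 + 2) + C2, inv_pos.2 (Kb_pos n 3), by positivity, ?_⟩
  intro k W π ρ h Λ r R a u hr hR hR7 hh0 hW hΛ hΛ0 ha han hrep hmin hh
  have hu := u3_of hrep han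
  have hd : 0 < R - r := sub_pos.2 hR
  have hd2 : (R - r) ^ 2 ≤ 4 := by nlinarith
  refine ⟨?_, fun b φ hb hbφ hφz => ?_⟩
  · -- the tilt, by `h' → 0`
    have hall : ∀ h' : ℝ, 0 < h' → h ≤ h' →
        ∫ p in {p : Euc k × L k | ‖π p.1‖ < r}, ‖p.2 - TG π ρ u (π p.1)‖ ∂W
          ≤ (C1 + 2) * (1 + Λ) * h' / (R - r) ^ 2 := by
      intro h' hh' hle
      obtain ⟨et, hc, h1, -, hE⟩ := hcacc k W π ρ h' Λ r R u hr hR hR7 hh'.le hW hΛ hΛ0 hu hmin
        (hh.mono fun q hq => hq.trans hle)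
      exact tilt_pos hC1.le hR hR7 hr hh' hW hΛ hΛ0 hu hc h1 hE
    have hlim : ∫ p in {p : Euc k × L k | ‖π p.1‖ < r}, ‖p.2 - TG π ρ u (π p.1)‖ ∂W
        ≤ (C1 + 2) * (1 + Λ) * h / (R - r) ^ 2 := by
      have ht : Tendsto (fun h' : ℝ => (C1 + 2) * (1 + Λ) * h' / (R - r) ^ 2) (𝓝[>] h)
          (𝓝 ((C1 + 2) * (1 + Λ) * h / (R - r) ^ 2)) := by
        have : Continuous fun h' : ℝ => (C1 + 2) * (1 + Λ) * h' / (R - r) ^ 2 := by fun_prop
        exact (this.tendsto h).mono_left nhdsWithin_le_nhds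
      refine ge_of_tendsto ht ?_
      filter_upwards [self_mem_nhdsWithin] with h' hh'
      have hh'' : h < h' := hh'
      exact hall h' (hh0.trans_lt hh'') hh''.le
    refine hlim.trans (div_le_div_of_nonneg_right (mul_le_mul_of_nonneg_right
      (mul_le_mul_of_nonneg_right (by linarith) (by positivity)) hh0) (by positivity))
  · obtain ⟨et, hc, h1, h01, hE⟩ := hcacc k W π ρ h Λ r R u hr hR hR7 hh0 hW hΛ hΛ0 hu hmin hh
    have hφ := p2_of hbφ hφz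
    refine (weak_lopT hr hR hW hΛ hΛ0 hu hφ hmin hh hc h1 h01 hE).trans ?_
    rw [k_eq hW.sp]
    have b1 : Λ * h ^ 2 + C1 * Λ * h ^ 2 / (R - r) ^ 2 ≤ (4 + C1) * (Λ * h ^ 2 / (R - r) ^ 2) := by
      have c1 : Λ * h ^ 2 ≤ 4 * (Λ * h ^ 2 / (R - r) ^ 2) := by
        rw [mul_div_assoc', le_div_iff₀ (by positivity)]
        have : 0 ≤ Λ * h ^ 2 := by positivity
        nlinarith
      calc Λ * h ^ 2 + C1 * Λ * h ^ 2 / (R - r) ^ 2
          ≤ 4 * (Λ * h ^ 2 / (R - r) ^ 2) + C1 * Λ * h ^ 2 / (R - r) ^ 2 := by gcongr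
        _ = _ := by ring
    calc (n : ℝ) * (15 * (m + n) * (Kb n 2 * ‖b‖) *
          (Λ * h ^ 2 + C1 * Λ * h ^ 2 / (R - r) ^ 2))
        ≤ n * (15 * (m + n) * (Kb n 2 * ‖b‖) * ((4 + C1) * (Λ * h ^ 2 / (R - r) ^ 2))) := by
          gcongr
      _ = C2 * Λ * h ^ 2 / (R - r) ^ 2 * ‖b‖ := by rw [hC2]; ring
      _ ≤ ((C1 + 2) + C2) * Λ * h ^ 2 / (R - r) ^ 2 * ‖b‖ := by
          gcongr
          linarith

end Crest.Agent.R234.Wj_186

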