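import Crest.Agent.R234.Sel20_570
import Crest.Agent.R234.Wj6_186
import Crest.Agent.R234.Mx18_397
import Crest.Agent.R234.Mx19_397
import Crest.Agent.R234.Mx20_397
import Crest.Agent.R234.Tl_164

/-!
Row 234, node F2-SEL (helper570): **SELECTION**, `SelP3`.
Leaves: `WJP` (helper186), `DnsP`, `NwP`, `JacP` (helper397), `TlP` (helper164).
-/

set_option autoImplicit false

namespace Crest.Agent.R234.MG_570

/-- **F2-SEL**. -/
theorem selP3 : SelP3 :=
  Sel11_570.selP3_of
    (Sel11_570.fldP_of Wj_186.wjP Mx18_397.dnsP Mx20_397.jacP Tl_164.tlP) Mx19_397.nwP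

end Crest.Agent.R234.MG_570
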