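import Crest.Agent.R234.Sp1_685
import Crest.Agent.R234.Stp2_518
import Crest.Agent.R234.F10w_188
import Crest.Agent.R234.Mx17_397
import Crest.Agent.R234.End2_395
import Crest.Agent.R234.Lr1_456

/-!
R234 (helper685): block objects (518's `Mo`): bounds of the graph function in physical units from the
class `MG`, `Loc` for the region `M.reg`, and the two sharp sup bounds `SupP'` (518), `SupV` (188).
-/

set_option autoImplicit false
set_option linter.unusedSectionVars false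

open MeasureTheory Metric Set Filter Topology
open scoped InnerProductSpace ContDiff ENNReal NNReal

namespace Crest.Agent.R234.Sp_685

open Crest.GeometryTopology.Submanifold Crest.Agent.R234.Vf_884
open Crest.Agent.R234.Main_456 Crest.Agent.R234.Gi_456
open Crest.Agent.R234.GL_394 (Loc VK On II)
open Crest.Agent.R234.GI_640 (g31)
open Crest.Agent.R234.MG_570 (MG)
open Crest.Agent.R234.Stp_518

noncomputable section

variable {m n k : ℕ} {U : Set (Euc k)} {V : Measure (Euc k × L k)} {x : Euc k} {M : Mo m n k}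
  {κ ε l : ℝ}

/-! ### scaling -/

theorem fderiv_w (M : Mo m n k) (X : Euc m) (hd : Differentiable ℝ M.u) :
    fderiv ℝ M.w X = fderiv ℝ M.u (M.S⁻¹ • X) := by
  have hS := M.S_pos
  have h1 : HasFDerivAt (fun X : Euc m => M.S⁻¹ • X)
      (M.S⁻¹ • ContinuousLinearMap.id ℝ (Euc m)) X :=
    (M.S⁻¹ • ContinuousLinearMap.id ℝ (Euc m)).hasFDerivAt
  have h2 : HasFDerivAt M.w (M.S • ((fderiv ℝ M.u (M.S⁻¹ • X)).comp
      (M.S⁻¹ • ContinuousLinearMap.id ℝ (Euc m)))) X :=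
    (((hd _).hasFDerivAt).comp X h1).const_smul M.S
  rw [h2.fderiv]
  ext1 v
  simp only [_root_.smul_apply, ContinuousLinearMap.comp_apply, ContinuousLinearMap.id_apply,
    map_smul]
  rw [smul_smul, mul_inv_cancel₀ hS.ne', one_smul]

/-- bounds of the graph function in physical units -/
structure Wb (M : Mo m n k) (κ : ℝ) : Prop where
  cd : ContDiff ℝ 4 M.w
  d0 : ∀ X, ‖M.w X‖ ≤ κ * M.S
  d1 : ∀ X, ‖fderiv ℝ M.w X‖ ≤ κ
  d2 : ∀ X, ‖fderiv ℝ (fderiv ℝ M.w) X‖ ≤ κ / M.S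
  z1 : fderiv ℝ M.w 0 = fderiv ℝ M.u 0

theorem Wb.gr (h : Wb M κ) (hκ : κ ≤ 1 / 8) : Gr M.S M.w where
  pos := M.S_pos
  cd := h.cd
  d1 := fun X => (h.d1 X).trans hκ
  d2 := fun X => (h.d2 X).trans (by
    have hS := M.S_pos
    rw [div_le_div_iff₀ hS (by positivity)]
    nlinarith)

theorem Wb.nonneg (h : Wb M κ) : 0 ≤ κ := (norm_nonneg _).trans (h.d1 0)

/-- **`MG` gives `Wb`** -/
theorem exists_wb (m n N : ℕ) (hN : 2 ≤ N) : ∃ C : ℝ, 1 ≤ C ∧ ∀ {k : ℕ} (M : Mo m n k) (κ R : ℝ),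
    0 ≤ κ → MG N κ R M.u → Wb M (C * κ) := by
  obtain ⟨C, hC, H⟩ := Mx17_397.bdP m n N
  refine ⟨max C 1, le_max_right _ _, fun {k} M κ R hκ0 hM => ?_⟩
  obtain ⟨h1, h2⟩ := H κ R M.u hM
  have hS := M.S_pos
  have hCC : C * κ ≤ max C 1 * κ := mul_le_mul_of_nonneg_right (le_max_left _ _) hκ0
  have hcd : ContDiff ℝ 4 M.u := h1.of_le (by
    have h4 : ((4 : ℕ) : ℕ∞) ≤ ((N + 2 : ℕ) : ℕ∞) := Nat.cast_le.2 (by omega)
    exact WithTop.coe_le_coe.2 h4)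
  have hdiff : Differentiable ℝ M.u := hcd.differentiable (by norm_num)
  have hf1 : ∀ y, ‖fderiv ℝ M.u y‖ ≤ max C 1 * κ := fun y => by
    have e := h2 1 (by omega) y
    rw [← norm_iteratedFDeriv_fderiv, norm_iteratedFDeriv_zero] at e
    exact e.trans hCC
  have hdf : Differentiable ℝ (fderiv ℝ M.u) :=
    (hcd.fderiv_right (m := 3) (by norm_num)).differentiable (by norm_num)
  have hf2 : ∀ y, ‖fderiv ℝ (fderiv ℝ M.u) y‖ ≤ max C 1 * κ := fun y => by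
    have e := h2 2 (by omega) y
    rw [← norm_iteratedFDeriv_fderiv, ← norm_iteratedFDeriv_fderiv, norm_iteratedFDeriv_zero] at e
    exact e.trans hCC
  have hw1 : fderiv ℝ M.w = fun X => fderiv ℝ M.u (M.S⁻¹ • X) :=
    funext fun X => fderiv_w M X hdiff
  refine ⟨?_, fun X => ?_, fun X => ?_, fun X => ?_, ?_⟩
  · show ContDiff ℝ 4 fun X => M.S • M.u (M.S⁻¹ • X)
    exact (hcd.comp (contDiff_const_smul M.S⁻¹)).const_smul M.S
  · have e := h2 0 (by omega) (M.S⁻¹ • X)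
    rw [norm_iteratedFDeriv_zero] at e
    show ‖M.S • M.u (M.S⁻¹ • X)‖ ≤ _
    rw [norm_smul, Real.norm_of_nonneg hS.le, mul_comm]
    exact mul_le_mul_of_nonneg_right (e.trans hCC) hS.le
  · rw [hw1]; exact hf1 _
  · rw [hw1]
    have h3 : HasFDerivAt (fun X : Euc m => M.S⁻¹ • X)
      (M.S⁻¹ • ContinuousLinearMap.id ℝ (Euc m)) X :=
    (M.S⁻¹ • ContinuousLinearMap.id ℝ (Euc m)).hasFDerivAt
    have h4 : HasFDerivAt (fun X => fderiv ℝ M.u (M.S⁻¹ • X))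
        ((fderiv ℝ (fderiv ℝ M.u) (M.S⁻¹ • X)).comp
          (M.S⁻¹ • ContinuousLinearMap.id ℝ (Euc m))) X :=
      ((hdf _).hasFDerivAt).comp X h3
    rw [h4.fderiv]
    refine (ContinuousLinearMap.opNorm_comp_le _ _).trans ?_
    have h5 : ‖M.S⁻¹ • ContinuousLinearMap.id ℝ (Euc m)‖ ≤ M.S⁻¹ := by
      refine ContinuousLinearMap.opNorm_le_bound _ (inv_nonneg.2 hS.le) fun v => ?_
      rw [_root_.smul_apply, ContinuousLinearMap.id_apply, norm_smul,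
        Real.norm_of_nonneg (inv_nonneg.2 hS.le)]
    rw [div_eq_mul_inv]
    exact mul_le_mul (hf2 _) h5 (norm_nonneg _) (mul_nonneg (by positivity) hκ0)
  · rw [fderiv_w M 0 hdiff, smul_zero]

/-- minimality in physical units -/
theorem msys_w (M : Mo m n k) {κ : ℝ} {N : ℕ} (hM : MG N κ (Real.exp (l - M.lb)) M.u) :
    ∀ X ∈ ball (0 : Euc m) (Real.exp l), Msys M.w X = 0 := by
  intro X hX
  obtain ⟨a, -, -, -, h4⟩ := hM
  have hS := M.S_pos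
  have h1 := End_395.Msys_scale (r := M.S⁻¹) (inv_ne_zero hS.ne') M.u X
  rw [inv_inv] at h1
  have h2 : Msys M.w X = M.S⁻¹ • Msys M.u (M.S⁻¹ • X) := h1
  rw [h2, h4 (M.S⁻¹ • X), smul_zero]
  rw [mem_ball_zero_iff] at hX ⊢
  rw [norm_smul, Real.norm_of_nonneg (inv_nonneg.2 hS.le), Real.exp_sub, ← Mo.S, div_eq_inv_mul]
  exact mul_lt_mul_of_pos_left hX (inv_pos.2 hS)

/-- `mu ≥ 1/2` -/
theorem mu_ge (h : Wb M κ) (hκ : κ ≤ 1 / 8) (x : Euc k) {v : Euc m} (hv : ‖v‖ ≤ M.S) :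
    1 / 2 ≤ (ch M.π M.ρ x M.S M.w 0).mu v := by
  have hS := M.S_pos
  have hκ0 := h.nonneg
  set c := 3 * (κ * (κ / M.S)) with hc
  have hc0 : 0 ≤ c := by positivity
  have hcS : c * M.S = 3 * κ ^ 2 := by rw [hc]; field_simp
  have hsm : c * ‖v‖ ≤ 1 / 4 := by
    calc c * ‖v‖ ≤ c * M.S := mul_le_mul_of_nonneg_left hv hc0
      _ = 3 * κ ^ 2 := hcS
      _ ≤ 1 / 4 := by nlinarith
  have hp := (h.gr hκ).pt_of 0 (v := v) hsm (fun u _ => by
    rw [hc]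
    gcongr
    · exact h.d1 _
    · exact h.d2 _)
  have e1 := hp.mu_ge
  show 1 / 2 ≤ muG (giB M.w 0) v
  linarith

/-- **`Loc` for the region of a block** -/
theorem loc_reg (hf : Frame M.π M.ρ) (h : Wb M κ) (hκ : κ ≤ 1 / 8) (hV : Stat m k U V)
    (hU : IsOpen U) (hxU : closedBall x (8 * M.S) ⊆ U)
    (hsup : ∀ᵐ p ∂V, p.1 ∈ ball x (4 * M.S) → ‖M.ρ (p.1 - x)‖ ≤ ε * M.S) (hε : ε ≤ 1 / 8) :
    Loc (M.ch x) U (tube M.π M.ρ x M.S M.w) (M.reg x) V M.lb := by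
  have hS := M.S_pos
  have hw8 : ∀ X, ‖M.w X‖ ≤ 1 / 8 * M.S := fun X => (h.d0 X).trans (by gcongr)
  refine (h.gr hκ).loc' hf hV hU (R := 2 * M.S) (t := M.S / 2) (by linarith) ?_ ?_ ?_
  · refine (closedBall_subset_closedBall' ?_).trans hxU
    have e1 : dist (pm M.π M.ρ x M.w 0) x ≤ 1 / 8 * M.S := by
      rw [dist_eq_norm, pm, map_zero, add_zero, add_sub_cancel_left]
      refine (ContinuousLinearMap.le_opNorm _ _).trans ?_
      have e2 : ‖ContinuousLinearMap.adjoint M.ρ‖ ≤ 1 := by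
        rw [show ‖ContinuousLinearMap.adjoint M.ρ‖ = ‖M.ρ‖ from LinearIsometryEquiv.norm_map _ _]
        exact ContinuousLinearMap.opNorm_le_bound _ zero_le_one fun v => by
          rw [one_mul]; exact norm_rho_le' hf v
      calc ‖ContinuousLinearMap.adjoint M.ρ‖ * ‖M.w 0‖ ≤ 1 * (1 / 8 * M.S) := by
            gcongr; exact hw8 0
        _ = _ := one_mul _
    linarith
  · show Real.exp M.lb ≤ 2 * M.S
    have : Real.exp M.lb = M.S := rfl
    linarith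
  · filter_upwards [hsup] with p hp _ h2 h3
    rw [sub_zero] at h3
    have h4 : ‖M.ρ (p.1 - x) - M.w (M.π (p.1 - x))‖ < M.S := h2
    have h5 := hw8 (M.π (p.1 - x))
    have h6 : ‖M.ρ (p.1 - x)‖ ≤ 9 / 8 * M.S := by
      have := norm_le_norm_add_norm_sub' (M.ρ (p.1 - x)) (M.w (M.π (p.1 - x)))
      linarith
    have h7 := norm_le_add hf (p.1 - x)
    have h8 := hp (mem_ball_iff_norm.2 (by linarith))
    have h9 := norm_sub_le (M.ρ (p.1 - x)) (M.w (M.π (p.1 - x)))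
    have h10 : ε * M.S ≤ 1 / 8 * M.S := by gcongr
    linarith

/-- the constant -/
def Cp (m : ℕ) : ℝ := 8 * (32 * m) ^ m / ome m

theorem Cp_nonneg (m : ℕ) : 0 ≤ Cp m := by
  have := ome_pos m
  unfold Cp
  positivity

/-- points over the cylinder `|π| ≤ S`, of small height, are in the region of the block -/
theorem mem_reg (hf : Frame M.π M.ρ) (h : Wb M κ) (hκ : κ ≤ 1 / 8) (hε : ε ≤ 1 / 8) {z : Euc k}
    (h1 : ‖M.π (z - x)‖ ≤ M.S) (h2 : ‖M.ρ (z - x)‖ ≤ ε * M.S) : z ∈ M.reg x := by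
  have hS := M.S_pos
  have hw8 : ∀ X, ‖M.w X‖ ≤ 1 / 8 * M.S := fun X => (h.d0 X).trans (by gcongr)
  have h3 := norm_sub_le (M.ρ (z - x)) (M.w (M.π (z - x)))
  have h4 : ε * M.S ≤ 1 / 8 * M.S := by gcongr
  have h5 := hw8 (M.π (z - x))
  have h6 : z ∈ tube M.π M.ρ x M.S M.w := by
    show ‖M.ρ (z - x) - M.w (M.π (z - x))‖ < M.S
    linarith
  have h7 := (h.gr hκ).norm_foot_sub h6
  have h8 := (h.gr hκ).norm_yy_le h6
  have h9 := norm_le_norm_add_norm_sub' (foot M.π M.ρ x M.S M.w z) (M.π (z - x))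
  refine ((h.gr hκ).mem_Kc hf (by linarith)).2 ⟨h6, ?_, ?_⟩
  · rw [sub_zero]; linarith
  · linarith

/-- **the sharp sup bound over the smaller cylinder**, block form, a.e. -/
theorem sup_blk {D : VarifoldData m k} {δ : ℝ} (hm : 1 ≤ m) (hU : IsOpen U)
    (hD : IsIntegralVarifoldIn U D) (hst : IsStationaryIn U D)
    (hf : Frame M.π M.ρ) (h : Wb M κ) (hκ : κ ≤ 1 / 8) (hxU : closedBall x (8 * M.S) ⊆ U)
    (hsup : ∀ᵐ p ∂(VD D), p.1 ∈ ball x (4 * M.S) → ‖M.ρ (p.1 - x)‖ ≤ ε * M.S) (hε : ε ≤ 1 / 8)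
    (h0 : 0 < δ) (h1 : δ ≤ 1 / 4) (hl : l ≤ M.lb) (hq : ‖fderiv ℝ M.u 0‖ ≤ δ / 64)
    (hmn : ∀ X ∈ ball (0 : Euc m) (Real.exp l), Msys M.w X = 0)
    (hh : ∀ᵐ p ∂(VD D), ‖M.π (p.1 - x)‖ ≤ Real.exp (l - δ) → ‖M.ρ (p.1 - x)‖ ≤ M.S →
      ‖hgt M.π M.ρ x M.S M.u p.1‖ ≤ δ / 8 * Real.exp l) :
    ∀ᵐ p ∂(VD D), ‖M.π (p.1 - x)‖ ≤ Real.exp (l - δ) → ‖M.ρ (p.1 - x)‖ ≤ M.S →
      ‖hgt M.π M.ρ x M.S M.u p.1‖ ^ 2 ≤ Cp m * (δ⁻¹ ^ (m + 2) * M.I x (VD D) l) := by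
  have hS := M.S_pos
  have hV := stat_VD hD hst
  have hloc := loc_reg hf h hκ hV hU hxU hsup hε
  have hlS : Real.exp l ≤ M.S := Real.exp_le_exp.2 hl
  have hlS' : Real.exp (l - δ) ≤ M.S := (Real.exp_le_exp.2 (by linarith)).trans hlS
  filter_upwards [hsup, Gu_685.ae_one_le hU hD hst hm, hh] with p hp1 hp2 hp3 hπ hρ
  have e1 := norm_le_add hf (p.1 - x)
  have e2 : p.1 ∈ ball x (4 * M.S) := mem_ball_iff_norm.2 (by linarith)
  have e3 := hp1 e2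
  have e4 : p.1 ∈ M.reg x := mem_reg hf h hκ hε (by linarith) e3
  have e5 : closedBall p.1 (M.S / 64) ⊆ U := by
    refine (closedBall_subset_closedBall' ?_).trans hxU
    rw [dist_eq_norm]
    linarith
  have e6 : p.1 ∈ U := e5 (mem_closedBall_self (by positivity))
  have e7 : ‖M.ρ (p.1 - x) - M.w (M.π (p.1 - x))‖ ≤ δ / 8 * Real.exp l := hp3 hπ hρ
  have e8 : ‖fderiv ℝ M.w 0‖ ≤ δ / 64 := by rw [h.z1]; exact hq
  have e9 : l - δ / 2 ≤ M.lb := by linarith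
  have key := sup_cyl hf (h.gr hκ) hloc hm h0 h1 hlS e9 e8 e4 e5 hπ e7 hmn
    (fun v hv => mu_ge h hκ x (hv.trans hlS)) (hp2 e6).2
  exact key

/-- **188's `SupV`** -/
theorem supV : F10w_188.SupV := by
  intro m n k N Q Λ hm hN
  obtain ⟨C, hC, HC⟩ := exists_wb m n N hN
  have hom := ome_pos m
  have hm0 : (0:ℝ) < m := by exact_mod_cast hm
  refine ⟨1 / (8 * C), 1 / 8, Cp m, by positivity, by norm_num, by unfold Cp; positivity,
    m + 2, ?_⟩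
  intro U D x ε₀ M l hB hκ hε₀ ε hε hε4 hdu hh
  have hb := HC M M.κ _ hB.κ0 hB.mg
  have hκ8 : C * M.κ ≤ 1 / 8 := by
    calc C * M.κ ≤ C * (1 / (8 * C)) := by gcongr
      _ = 1 / 8 := by field_simp
  have key := sup_blk hm hB.opn hB.int hB.st hB.pack.frame hb hκ8 hB.sub hB.pack.supae hε₀ hε hε4
    (l := l) (by linarith [hB.hi]) (by linarith) (msys_w M hB.mg) (hh.mono fun p hp h1 h2 =>
      hp (h1.trans (Real.exp_le_exp.2 (by linarith))) h2)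
  filter_upwards [key] with p hp h1 h2
  refine (hp h1 h2).trans (le_of_eq ?_)
  rw [inv_pow, div_eq_mul_inv, mul_assoc]

/-- 518's `SupP` with the missing line `‖Du(0)‖ ≤ κ₀ / K` -/
def SupP' : Prop := ∀ (m n Q : ℕ), 3 ≤ m → 1 ≤ n → 1 ≤ Q → ∃ N₀ : ℕ, ∀ N : ℕ, N₀ ≤ N →
  ∀ T Λ : ℝ, ∃ C κ₀ ε : ℝ, 0 < C ∧ 0 < κ₀ ∧ 0 < ε ∧
    ∀ (U : Set (Euc (m + n))) (D : VarifoldData m (m + n)) (x : Euc (m + n))
      (M : Mo m n (m + n)) (cT K : ℝ),
      Sit U D Q x M ε Λ → 0 ≤ M.κ → M.κ ≤ κ₀ → MG N M.κ (Real.exp (cT - M.lb)) M.u →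
      4 ≤ K → M.lb - T ≤ cT - 1 → cT ≤ M.lb → ‖fderiv ℝ M.u 0‖ ≤ κ₀ / K →
      SupLe M x (VD D) (Real.exp (cT - 1 / K - M.lb)) (κ₀ / K) →
      ∀ᵐ p ∂(VD D), ‖M.π (p.1 - x)‖ ≤ Real.exp (cT - 1 / K) → ‖M.ρ (p.1 - x)‖ ≤ M.S →
        ‖hgt M.π M.ρ x M.S M.u p.1‖ ^ 2 ≤ C * K ^ (m + 2) * M.I x (VD D) cT

theorem supP' : SupP' := by
  intro m n Q hm hn hQ
  refine ⟨2, fun N hN T Λ => ?_⟩
  obtain ⟨C, hC, HC⟩ := exists_wb m n N hN
  have hom := ome_pos m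
  have hm1 : 1 ≤ m := by omega
  have hm0 : (0:ℝ) < m := by exact_mod_cast hm1
  set κ₀ : ℝ := min (1 / (8 * C)) (min (1 / 64) (Real.exp (-T) / 8)) with hκ₀
  have k0 : 0 < κ₀ := by rw [hκ₀]; positivity
  have k1 : κ₀ ≤ 1 / (8 * C) := min_le_left _ _
  have k2 : κ₀ ≤ 1 / 64 := (min_le_right _ _).trans (min_le_left _ _)
  have k3 : κ₀ ≤ Real.exp (-T) / 8 := (min_le_right _ _).trans (min_le_right _ _)
  refine ⟨Cp m, κ₀, 1 / 8, by unfold Cp; positivity, k0, by norm_num, ?_⟩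
  intro U D x M cT K hS hκ0 hκ hmg hK hT hcT hdu hsl
  have hb := HC M M.κ _ hκ0 hmg
  have hK0 : 0 < K := by linarith
  have hSp := M.S_pos
  have hκ8 : C * M.κ ≤ 1 / 8 := by
    calc C * M.κ ≤ C * (1 / (8 * C)) := by gcongr; exact hκ.trans k1
      _ = 1 / 8 := by field_simp
  have hsc : M.S * Real.exp (cT - 1 / K - M.lb) = Real.exp (cT - 1 / K) := by
    show Real.exp M.lb * _ = _
    rw [← Real.exp_add]; congr 1; ring
  have hSκ : M.S * κ₀ ≤ Real.exp cT / 8 := by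
    have e1 : M.S ≤ Real.exp (cT + T) := Real.exp_le_exp.2 (by linarith)
    calc M.S * κ₀ ≤ Real.exp (cT + T) * (Real.exp (-T) / 8) := by gcongr
      _ = Real.exp cT / 8 := by
        rw [← mul_div_assoc, ← Real.exp_add]; congr 2; ring
  have key := sup_blk hm1 hS.opn hS.int hS.st hS.pack.frame hb hκ8 hS.sub hS.pack.supae le_rfl
    (δ := 1 / K) (l := cT) (by positivity) (by
      rw [div_le_div_iff₀ hK0 (by norm_num)]; linarith) hcT
    (hdu.trans (by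
      rw [div_div, div_le_div_iff₀ hK0 (by positivity)]
      nlinarith)) (msys_w M hmg) (by
      filter_upwards [hsl] with p hp h1 h2
      refine (hp (by rw [hsc]; exact h1) h2).trans ?_
      rw [← mul_div_assoc, div_le_iff₀ hK0]
      refine hSκ.trans (le_of_eq ?_)
      field_simp)
  filter_upwards [key] with p hp h1 h2
  refine (hp h1 h2).trans (le_of_eq ?_)
  rw [one_div, inv_inv, mul_assoc]

/-- **518's `SupP`** (Stp2_518, text of 07:00Z) -/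
theorem supP : Stp_518.SupP := supP'

end

end Crest.Agent.R234.Sp_685
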