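import Crest.Agent.R234.Swb10_159
import Crest.Agent.R234.F10w_188

/-!
# Row 234, F6-BLOCK / START (helper159), part 11: `rotI : F10w_188.RotI`
-/

set_option autoImplicit false
set_option linter.unusedSectionVars false

open MeasureTheory Set Metric Filter Topology
open Crest.GeometryTopology.Submanifold
open scoped ENNReal NNReal ContDiff RealInnerProductSpace

noncomputable section

namespace Crest.Agent.R234.Swb_159

open Crest.Agent.R234.Vf_884 (L G Stat VD)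
open Crest.Agent.R234.Cy_870 (Ker)
open Crest.Agent.R234.Ell1_3 Crest.Agent.R234.Main_456 Crest.Agent.R234.Grot_842
open Crest.Agent.R234.GL_394 (Ch Ok On VK)
open Crest.Agent.R234.Gi_456 (Gr tube IsFoot foot yy Bt Lo Loi ch Kc giB muG)
open Crest.Agent.R234.GI_640 (g3 g31 g32)
open Crest.Agent.R234.Stp_518 (Mo GrB gr_of)
open Crest.Agent.R234.MG_570 (MG)

local notation "adj" => ContinuousLinearMap.adjoint

variable {m n k : ℕ} {w : Euc m → Euc n} {π : Euc k →L[ℝ] Euc m} {ρ : Euc k →L[ℝ] Euc n}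
  {x : Euc k} {r : ℝ} {V : Measure (Euc k × L k)}

theorem abs_g31_le (t : ℝ) (ht : 0 ≤ t) : |g31 t| ≤ 3 := by
  have h3 : max 0 (1 - t) ≤ 1 := max_le (by norm_num) (by linarith)
  have h4 := pow_le_pow_left₀ (le_max_left _ _) h3 2
  have h5 : 0 ≤ max 0 (1 - t) ^ 2 := sq_nonneg _
  rw [abs_le]
  unfold GI_640.g31
  constructor <;> linarith

theorem abs_g32_le (t : ℝ) (ht : 0 ≤ t) : |g32 t| ≤ 6 := by
  have h3 : max 0 (1 - t) ≤ 1 := max_le (by norm_num) (by linarith)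
  have h5 : 0 ≤ max 0 (1 - t) := le_max_left _ _
  rw [abs_le]
  unfold GI_640.g32
  constructor <;> linarith

theorem rgn_subset_ball (h : Gr r w) (hf : Frame π ρ) (ws : ∀ X, ‖w X‖ ≤ r / 16) :
    rgn π ρ x r w ⊆ Metric.ball x (4 * r) := by
  intro z hz
  have hr := h.pos
  obtain ⟨h1, h2, h3⟩ := (h.mem_Kc hf (by linarith)).1 hz
  rw [sub_zero] at h2
  have h4 : ‖π (z - x)‖ ≤ ‖foot π ρ x r w z‖ + 1 / 8 * ‖yy π ρ x r w z‖ :=
    norm_pi_le_foot h (h.foot_spec h1)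
  have h5 : ‖ρ (z - x)‖ ≤ ‖yy π ρ x r w z‖ + ‖w (foot π ρ x r w z)‖ := by
    have : ρ (z - x) = yy π ρ x r w z + w (foot π ρ x r w z) := by unfold yy; abel
    rw [this]
    exact norm_add_le _ _
  have h6 := ws (foot π ρ x r w z)
  have h7 := fr_norm_le hf (z - x)
  rw [mem_ball_iff_norm]
  linarith

theorem rgn_fin (h : Gr r w) (hf : Frame π ρ) (ws : ∀ X, ‖w X‖ ≤ r / 16) {U : Set (Euc k)}
    (hV : Stat m k U V) (hU : closedBall x (8 * r) ⊆ U) :
    V (rgn π ρ x r w ×ˢ univ) < ⊤ := by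
  have hr := h.pos
  refine hV.fin _ (h.isCompact_Kc 0 _ _) (fun z hz => hU ?_)
  have h1 := rgn_subset_ball (x := x) h hf ws hz
  rw [Metric.mem_ball] at h1
  rw [mem_closedBall]
  linarith

theorem rgn_subset_tube (h : Gr r w) (hf : Frame π ρ) : rgn π ρ x r w ⊆ tube π ρ x r w :=
  h.Kc_subset hf 0 (by have := h.pos; linarith)

set_option maxHeartbeats 2000000 in
/-- **ROTI** (188's `F10w_188.RotI`) -/
theorem rotI : F10w_188.RotI := by
  intro m n k N Q Λ hm hN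
  obtain ⟨κg, Cg, hκg, hCg, hCκ, hgr⟩ := gr_of m n N hN
  refine ⟨min κg (1 / (16 * Cg)), 1 / 16, 4 * Real.exp m, by positivity, by norm_num,
    by positivity, ?_⟩
  intro U D x ε₀ M M' l ε τ q H H' hB hMκ hε₀ rt hπ hρ hlb hpack' hmg' hε hε4 hq hd hd' hlo hrel
    _ _ _ _
  have hS := M.S_pos
  have hS0 := hS.ne'
  have hSS : M'.S = M.S := by show Real.exp M'.lb = Real.exp M.lb; rw [hlb]
  have hf : Frame M.π M.ρ := hB.pack.frame
  have hg : GrB M (Cg * M.κ) := hgr k M _ hB.κ0 (hMκ.trans (min_le_left _ _)) hB.mg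
  have hg' : GrB { M' with κ := min κg (1 / (16 * Cg)) } (Cg * min κg (1 / (16 * Cg))) :=
    hgr k { M' with κ := min κg (1 / (16 * Cg)) } 0 (by positivity) (min_le_left _ _) hmg'
  have hC16 : Cg * min κg (1 / (16 * Cg)) ≤ 1 / 16 := by
    calc Cg * min κg (1 / (16 * Cg)) ≤ Cg * (1 / (16 * Cg)) :=
          mul_le_mul_of_nonneg_left (min_le_right _ _) hCg.le
      _ = 1 / 16 := by field_simp
  have hgr' : Gr M.S M'.w := by
    have : Gr M'.S M'.w := hg'.gr
    rwa [hSS] at this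
  have hws : ∀ X, ‖M.w X‖ ≤ M.S / 16 := fun X => by
    have h1 := hg.w0 X
    have h2 : Cg * M.κ ≤ 1 / 16 :=
      (mul_le_mul_of_nonneg_left hMκ hCg.le).trans hC16
    have h3 := mul_le_mul_of_nonneg_left h2 hS.le
    linarith
  have hws' : ∀ X, ‖M'.w X‖ ≤ M.S / 16 := fun X => by
    have h1 : ‖M'.w X‖ ≤ M'.S * (Cg * min κg (1 / (16 * Cg))) := hg'.w0 X
    rw [hSS] at h1
    have h3 := mul_le_mul_of_nonneg_left hC16 hS.le
    linarith
  have hdw0 : fderiv ℝ M.w 0 = fderiv ℝ M.u 0 := by rw [hg.dw, smul_zero]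
  have hdw0' : fderiv ℝ M'.w 0 = fderiv ℝ M'.u 0 := by
    have : fderiv ℝ M'.w 0 = fderiv ℝ M'.u (M'.S⁻¹ • 0) := hg'.dw 0
    rw [this, smul_zero]
  have hstat : Stat m k U (VD D) := Vf_884.stat_VD hB.int hB.st
  have hllb : l ≤ M.lb := by linarith [hB.hi]
  have hel : Real.exp l ≤ M.S := Real.exp_le_exp.2 hllb
  have hq0 := norm_nonneg q
  have hp0 := norm_nonneg (fderiv ℝ M.u 0)
  have hp0' := norm_nonneg (fderiv ℝ M'.u 0)
  set R : ℝ := Real.exp (l - 3 / 4 * ε) with hR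
  have hR0 : 0 < R := Real.exp_pos _
  have hRS : R ≤ M.S := Real.exp_le_exp.2 (by linarith)
  have hsame : Same q H H' M.w M'.w (Metric.ball 0 (Real.exp (l - ε / 2))) := by
    refine ⟨rt, Metric.isOpen_ball, hg.gr.differentiable, hgr'.differentiable, ?_⟩
    intro X hX
    set a := M.S⁻¹ • X with ha
    have hXa : X = M.S • a := by rw [ha, smul_smul, mul_inv_cancel₀ hS0, one_smul]
    have haB : a ∈ Metric.ball (0 : Euc m) (Real.exp (l - ε / 2 - M.lb)) := by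
      rw [mem_ball_zero_iff] at hX ⊢
      rw [ha, norm_smul, norm_inv, Real.norm_of_nonneg hS.le, inv_mul_lt_iff₀ hS]
      have : M.S * Real.exp (l - ε / 2 - M.lb) = Real.exp (l - ε / 2) := by
        show Real.exp M.lb * _ = _
        rw [← Real.exp_add]; congr 1; ring
      rwa [this]
    have h1 : psi q H M.w X = M.S • H (a + adj q (M.u a)) := by
      have h0 : X + adj q (M.S • M.u a) = M.S • (a + adj q (M.u a)) := by
        rw [smul_add, ← hXa, map_smul]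
      show H (X + adj q (M.S • M.u (M.S⁻¹ • X))) = _
      rw [← ha, h0, map_smul]
    have h2 : M'.w (psi q H M.w X) = M.S • M'.u (H (a + adj q (M.u a))) := by
      show M'.S • M'.u (M'.S⁻¹ • psi q H M.w X) = _
      rw [hSS, h1, smul_smul, inv_mul_cancel₀ hS0, one_smul]
    rw [h2, hrel a haB, ← map_smul, smul_sub, ← map_smul, ← hXa]
    rfl
  set σ : ℝ := ε / 100 with hσ
  have hreg : Reg M.π M.ρ x q H H' M.S M.S M.w M'.w (Metric.ball 0 (Real.exp (l - ε / 2))) R σ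
      (VD D) := by
    refine ⟨⟨hf, hg.gr, hgr', hsame, by linarith, hR0, ?_, by linarith, ?_, by linarith⟩, hws,
      hws', le_rfl, by linarith, ?_, rgn_fin hg.gr hf hws hstat hB.sub, ?_⟩
    · exact closedBall_subset_ball (Real.exp_lt_exp.2 (by linarith))
    · rw [hdw0, hdw0']
      have h1 : ‖fderiv ℝ M.u 0‖ ^ 2 ≤ (ε / 64) ^ 2 := pow_le_pow_left₀ hp0 (by linarith) 2
      have h2 : ‖fderiv ℝ M'.u 0‖ ^ 2 ≤ (ε / 64) ^ 2 := pow_le_pow_left₀ hp0' (by linarith) 2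
      rw [hσ]
      nlinarith
    · filter_upwards [hB.pack.supae] with p hp h1
      refine (hp h1).trans ?_
      have := mul_le_mul_of_nonneg_right hε₀ hS.le
      linarith
    · filter_upwards [hstat.conc] with p hp _
      exact hp
  have he3 : M.S ≤ 21 * Real.exp (l - ε) := by
    have h1 : M.S ≤ Real.exp 3 * Real.exp (l - ε) := by
      rw [← Real.exp_add]
      exact Real.exp_le_exp.2 (by linarith)
    have h2 : Real.exp 3 ≤ 21 := by
      have h3 : Real.exp 3 = Real.exp 1 ^ 3 := by rw [← Real.exp_nat_mul]; norm_num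
      have h4 := Real.exp_one_lt_d9
      have h5 := Real.exp_pos 1
      rw [h3]
      calc Real.exp 1 ^ 3 ≤ 2.7182818286 ^ 3 := pow_le_pow_left₀ h5.le h4.le 3
        _ ≤ 21 := by norm_num
    exact h1.trans (mul_le_mul_of_nonneg_right h2 (Real.exp_pos _).le)
  have hE0 := Real.exp_pos (l - ε)
  have hRE : (1 + ε / 4) * Real.exp (l - ε) ≤ R := by
    have h1 : R = Real.exp (ε / 4) * Real.exp (l - ε) := by
      rw [hR, ← Real.exp_add]; congr 1; ring
    rw [h1]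
    refine mul_le_mul_of_nonneg_right ?_ hE0.le
    have := Real.add_one_le_exp (ε / 4)
    linarith
  have hb : 2 * ‖psi q H M.w 0‖ ≤ σ * Real.exp (l - ε) := by
    have h1 := norm_psi_zero rt M.w
    have h2 : ‖q‖ * ‖M.w 0‖ ≤ ε / 1000 * (M.S / 16) :=
      mul_le_mul (by linarith) (hws 0) (norm_nonneg _) (by linarith)
    have h3 : ε / 1000 * (M.S / 16) ≤ ε / 1000 * (21 * Real.exp (l - ε) / 16) :=
      mul_le_mul_of_nonneg_left (by linarith) (by linarith)
    have h4 : 0 < ε * Real.exp (l - ε) := by positivity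
    rw [hσ]
    nlinarith
  have hl1 : (1 + 3 * σ) * Real.exp (l - ε) ≤ R := by
    refine le_trans (mul_le_mul_of_nonneg_right ?_ hE0.le) hRE
    rw [hσ]; linarith
  have hfd : ‖fderiv ℝ M.w 0‖ ^ 2 ≤ ε / 1000 := by
    rw [hdw0]
    have h1 : ‖fderiv ℝ M.u 0‖ ^ 2 ≤ (ε / 64) ^ 2 := pow_le_pow_left₀ hp0 (by linarith) 2
    nlinarith
  have hq2 : ‖q‖ ^ 2 ≤ ε / 1000 := by
    have h1 : ‖q‖ ≤ ε / 1000 := by linarith
    nlinarith
  have he : (1 + ‖fderiv ℝ M.w 0‖ ^ 2) * ((1 + ‖q‖ ^ 2) * Real.exp (l - ε) +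
      ‖q‖ * (M.S / 16)) ≤ R := by
    refine le_trans ?_ hRE
    have h2 : ‖q‖ * (M.S / 16) ≤ ε / 1000 * (21 * Real.exp (l - ε) / 16) :=
      mul_le_mul (by linarith) (by linarith) (by linarith) (by linarith)
    have h3 : (1 + ‖q‖ ^ 2) * Real.exp (l - ε) ≤ (1 + ε / 1000) * Real.exp (l - ε) :=
      mul_le_mul_of_nonneg_right (by linarith) hE0.le
    have h4 : (1 + ‖q‖ ^ 2) * Real.exp (l - ε) + ‖q‖ * (M.S / 16) ≤
        (1 + ε / 100) * Real.exp (l - ε) := by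
      have h5 : 0 < ε * Real.exp (l - ε) := by positivity
      nlinarith
    have h6 : 0 ≤ (1 + ‖q‖ ^ 2) * Real.exp (l - ε) + ‖q‖ * (M.S / 16) := by positivity
    calc _ ≤ (1 + ε / 1000) * ((1 + ε / 100) * Real.exp (l - ε)) :=
          mul_le_mul (by linarith) h4 h6 (by linarith)
      _ = ((1 + ε / 1000) * (1 + ε / 100)) * Real.exp (l - ε) := by ring
      _ ≤ (1 + ε / 4) * Real.exp (l - ε) := by
          refine mul_le_mul_of_nonneg_right ?_ hE0.le
          nlinarith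
  have key := hreg.II_two GI_640.ker31 abs_g31_le abs_g32_le hb hl1 he
  have hI' : M'.I x (VD D) (l - ε) = GL_394.II (ch (rπ M.π M.ρ q H) (rρ M.π M.ρ q H') x M.S M'.w 0)
      (VK (VD D) (rgn (rπ M.π M.ρ q H) (rρ M.π M.ρ q H') x M.S M'.w)) g31 (l - ε) := by
    show GL_394.II (ch M'.π M'.ρ x M'.S M'.w 0)
      (VK (VD D) (Kc M'.π M'.ρ x M'.w 0 (2 * M'.S) (M'.S / 2))) g31 (l - ε) = _
    rw [hπ, hρ, hSS]
    rfl
  have hI : ∀ t, M.I x (VD D) t = GL_394.II (ch M.π M.ρ x M.S M.w 0)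
      (VK (VD D) (rgn M.π M.ρ x M.S M.w)) g31 t := fun t => rfl
  rw [hI', hI]
  have on1 := hreg.on1
  have ht := rgn_subset_tube (x := x) hg.gr hf
  set J := ∫ p in {p | ‖(ch M.π M.ρ x M.S M.w 0).x p.1‖ ≤ R}, (ch M.π M.ρ x M.S M.w 0).f p.1
    ∂(VK (VD D) (rgn M.π M.ρ x M.S M.w)) with hJ
  have hJ0 : 0 ≤ J := int_f_nonneg R
  have hEl : Real.exp (l - ε) ≤ R := le_trans (by nlinarith) hRE
  have hup := II_le_int_f (X0 := 0) hg.gr hf hreg.cK1 ht on1 (l := l - ε) (s := R)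
    (by linarith) hEl
  have hmono := int_f_mono (X0 := 0) hg.gr hf hreg.cK1 ht on1 hl1
  have hlow := int_f_le_II (X0 := 0) hg.gr hf hreg.cK1 ht on1 (l := l) (s := R) (δ := ε)
    (by linarith) hε.le (by linarith) (by
      have h1 : Real.exp (-2 * l) * R ^ 2 = Real.exp (-(3 / 2 * ε)) := by
        rw [hR, ← Real.exp_nat_mul, ← Real.exp_add]; congr 1; push_cast; ring
      rw [h1, Real.exp_neg]
      have h2 := Real.add_one_le_exp (3 / 2 * ε)
      have h3 : (Real.exp (3 / 2 * ε))⁻¹ ≤ (3 / 2 * ε + 1)⁻¹ := inv_anti₀ (by linarith) h2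
      have h4 : (3 / 2 * ε + 1)⁻¹ ≤ 1 - ε := by
        rw [inv_le_iff_one_le_mul₀ (by linarith)]
        nlinarith
      linarith) hR0.le
  have hE2 : Real.exp (-m * (l - ε)) ≤ Real.exp m * Real.exp (-m * l) := by
    rw [← Real.exp_add]
    refine Real.exp_le_exp.2 ?_
    have hm0 : (0:ℝ) ≤ m := Nat.cast_nonneg m
    nlinarith
  have h20 : GL_394.II (ch (rπ M.π M.ρ q H) (rρ M.π M.ρ q H') x M.S M'.w 0)
      (VK (VD D) (rgn (rπ M.π M.ρ q H) (rρ M.π M.ρ q H') x M.S M'.w)) g31 (l - ε) ≤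
      20 * (Real.exp (-m * (l - ε)) * J) := by
    have h1 := (abs_le.1 key).2
    have hE3 : 0 ≤ Real.exp (-m * (l - ε)) := (Real.exp_pos _).le
    have h2 : (64 * 3 + 72 * 6) * σ * (Real.exp (-m * (l - ε)) *
        ∫ p in {p | ‖(ch M.π M.ρ x M.S M.w 0).x p.1‖ ≤ (1 + 3 * σ) * Real.exp (l - ε)},
          (ch M.π M.ρ x M.S M.w 0).f p.1 ∂(VK (VD D) (rgn M.π M.ρ x M.S M.w))) ≤
        2 * (Real.exp (-m * (l - ε)) * J) := by
      have h3 : (64 * 3 + 72 * 6) * σ ≤ 2 := by rw [hσ]; linarith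
      have h4 : 0 ≤ ∫ p in {p | ‖(ch M.π M.ρ x M.S M.w 0).x p.1‖ ≤
        (1 + 3 * σ) * Real.exp (l - ε)}, (ch M.π M.ρ x M.S M.w 0).f p.1
          ∂(VK (VD D) (rgn M.π M.ρ x M.S M.w)) := int_f_nonneg _
      exact mul_le_mul h3 (mul_le_mul_of_nonneg_left hmono hE3) (mul_nonneg hE3 h4) (by norm_num)
    linarith
  refine h20.trans ?_
  have h6 : Real.exp (-m * (l - ε)) * J ≤ Real.exp m * (Real.exp (-m * l) * J) := by
    calc _ ≤ (Real.exp m * Real.exp (-m * l)) * J := mul_le_mul_of_nonneg_right hE2 hJ0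
      _ = _ := by ring
  set I := GL_394.II (ch M.π M.ρ x M.S M.w 0) (VK (VD D) (rgn M.π M.ρ x M.S M.w)) g31 l with hIdef
  have h7 : Real.exp (-m * l) * J ≤ I / (6 * ε ^ 2) := by
    rw [le_div_iff₀ (by positivity)]
    linarith
  have hI0 : 0 ≤ I := le_trans (by positivity) hlow
  calc 20 * (Real.exp (-m * (l - ε)) * J) ≤ 20 * (Real.exp m * (I / (6 * ε ^ 2))) := by
        refine mul_le_mul_of_nonneg_left (h6.trans ?_) (by norm_num)
        exact mul_le_mul_of_nonneg_left h7 (Real.exp_pos _).le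
    _ ≤ 4 * Real.exp m / ε ^ 2 * I := by
        have e1 : 20 * (Real.exp m * (I / (6 * ε ^ 2))) = (20 / 6) * (Real.exp m / ε ^ 2 * I) := by
          field_simp
        have e2 : 4 * Real.exp m / ε ^ 2 * I = 4 * (Real.exp m / ε ^ 2 * I) := by ring
        rw [e1, e2]
        refine mul_le_mul_of_nonneg_right (by norm_num) ?_
        positivity

end Crest.Agent.R234.Swb_159
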