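import Crest.Agent.R234.F11e_188
import Crest.Agent.R234.F10x_188
import Crest.Agent.R234.Swb11_159
import Crest.Agent.R234.Mv1_504
import Crest.Agent.R234.Pos1_395
import Crest.Agent.R234.Sel21_570
import Crest.Agent.R234.Sp2_685
import Crest.Agent.R234.Up2_456

/-!
# Row 234, (F8) START, F11f (helper188): the start step and `StartAll`

* `startP` : field `start` of `Thy` with `Wp := preP`, for all constants.
* `startAll` : `Thya_685.StartAll`, from 290's `GLP`.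
-/

set_option autoImplicit false
set_option linter.unusedVariables false

open MeasureTheory Filter Topology Set
open scoped ENNReal NNReal ContDiff
open Crest.GeometryTopology.Submanifold Crest.Agent.R234.Vf_884
open Crest.Agent.R234.Main_456 (Frame Msys hgt NearQ)
open Crest.Agent.R234.AS_456 (hp vp)
open Crest.Agent.R234.MG_570 (MG SelP3)
open Crest.Agent.R234.F10a_188 Crest.Agent.R234.F10b_188 Crest.Agent.R234.F10d_188
open Crest.Agent.R234.Top_395 Crest.Agent.R234.Stp_518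
open Crest.Agent.R234.F10t_188 Crest.Agent.R234.F10w_188 Crest.Agent.R234.F10y_188
open Crest.Agent.R234.F10z_188 Crest.Agent.R234.F11a_188 Crest.Agent.R234.F11b_188
open Crest.Agent.R234.F11c_188 Crest.Agent.R234.F11d_188 Crest.Agent.R234.F11e_188
open Crest.Agent.R234.Up_456 (om2 topAll cmpAll lowr_core block_le plS_spec)

noncomputable section

namespace Crest.Agent.R234.F11f_188

variable {m n : ℕ}

/-- bound of the new normalised curvature. -/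
theorem km_le {T κ₀ : ℝ} (hT : 3 ≤ T) (h0 : 0 < κ₀) :
    2 * (κ₀ * Real.exp (-(4 / 5 * (T + 1)))) ≤ κ₀ := by
  have h1 : Real.exp (-(4 / 5 * (T + 1))) ≤ 1 / 2 := by
    rw [Real.exp_neg, inv_le_comm₀ (Real.exp_pos _) (by norm_num)]
    have := Real.add_one_le_exp (4 / 5 * (T + 1))
    linarith
  nlinarith

/-- the conditions on the record. -/
theorem rec_num (k : Cst) {κm L₁ CK : ℝ} (hκm : 0 < κm) (hCK : 5 ≤ CK)
    (hb : 4 * (k.b + 1) * κm ≤ 1) (hL1 : 8 * k.A ≤ L₁) (hL2 : 96 * (1 + k.c) ≤ L₁) (hL3 : 1 ≤ L₁) :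
    2 + Real.exp (2 * k.b * κm + 4 * k.A / L₁) ≤ CK ∧
      32 * Real.exp (k.base L₁ κm) ≤ L₁ ^ 2 := by
  have hL0 : 0 < L₁ := by linarith
  have hb0 := k.hb
  have hA0 := k.A_nonneg
  have h1 : 4 * k.A / L₁ ≤ 1 / 2 := by
    rw [div_le_iff₀ hL0]; linarith
  have h2 : 2 * k.b * κm + 4 * k.A / L₁ ≤ 1 := by nlinarith
  have h3 : Real.exp (2 * k.b * κm + 4 * k.A / L₁) ≤ 3 := by
    have h4 := Real.exp_le_exp.2 h2
    have h5 := Real.exp_one_lt_d9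
    linarith
  refine ⟨by linarith, ?_⟩
  have hc : 0 < 1 + k.c := by have := k.hc; linarith
  have h4 : Real.exp (k.base L₁ κm) ≤ (1 + k.c) * 3 := by
    have e1 : k.base L₁ κm = Real.log (1 + k.c) + (2 * k.b * κm + 4 * k.A / L₁) := by
      unfold Cst.base; ring
    rw [e1, Real.exp_add, Real.exp_log hc]
    gcongr
  nlinarith

set_option maxHeartbeats 2000000 in
/-- **field `start`.** -/
theorem startP (hG : GLP) (m n : ℕ) (hm : 3 ≤ m) (hn : 1 ≤ n) : Thya_685.Ev fun _ Q d =>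
    ∀ (U : Set (Euc (m + n))) (D : VarifoldData m (m + n)) (x : Euc (m + n)) (r₁ : ℝ),
      Env m U D Q x d.om r₁ → x ∈ singularSet m (m + n) U D →
        ∀ S, StartH (d.W (n := n) D Q x) (preP d.c (VD D) x (om2 m d) S) (d.fl D x r₁) d.Λ₀ d.κm
          d.P' (3 / 2) (1 / 2) (23 / 20) S := by
  obtain ⟨Ks₀, NA, hNA2, HA⟩ := selA MG_570.selP3 Sp_685.supV m n (by omega)
  obtain ⟨KF, HF⟩ := FL10_567.flAll m n (by omega)
  refine ⟨max Ks₀ KF, fun Ks hKs K hK Q hQ => ?_⟩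
  have hKs0 : Ks₀ ≤ Ks := (le_max_left _ _).trans hKs
  obtain ⟨NF, HF⟩ := HF Ks ((le_max_right _ _).trans hKs) K hK Q hQ
  obtain ⟨Nw, hNw2, HW⟩ := window Up_456.upV (End_395.posV_of Lvs_214.lowV) Mv_504.monV hG m n Q
    hm hn (by omega)
  refine ⟨max (max NA NF) Nw, fun N hN => ?_⟩
  have hN1 : NA ≤ N := ((le_max_left _ _).trans (le_max_left _ _)).trans hN
  have hN2 : NF ≤ N := ((le_max_right _ _).trans (le_max_left _ _)).trans hN
  have hN3 : Nw ≤ N := (le_max_right _ _).trans hN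
  have hN22 : 2 ≤ N := hNw2.trans hN3
  obtain ⟨TF, HF⟩ := HF N hN2
  refine ⟨max TF 3, fun T hT c₀ hc₀ G CK P K₀ k hG3 hCK hP hK₀ => ?_⟩
  have hT3 : 3 ≤ T := (le_max_right _ _).trans hT
  obtain ⟨Λ, hΛ1, HFP⟩ := F10x_188.fp_near (n := n) (k := m + n) (show 1 ≤ m by omega) Q
    (show 1 ≤ Q by omega)
  obtain ⟨κA, εA, LA, hκA, hεA, hLA, HA⟩ := HA N hN1 (m + n) Q Λ
  obtain ⟨κw, εw, Lw, hκw, hεw, hLw, HW⟩ := HW N hN3 Λ
  obtain ⟨κp, εp, hκp, hεp, HP⟩ := mkPre Swb_159.rotI m n N Q (m + n) Λ (by omega) hN22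
  obtain ⟨ε₀, hε₀, e1, e2, e3, e4⟩ : ∃ ε₀ : ℝ, 0 < ε₀ ∧ ε₀ < 1 ∧ ε₀ ≤ εA ∧ ε₀ ≤ εw ∧ ε₀ ≤ εp := by
    refine ⟨min (1 / 2) (min εA (min εw εp)), by positivity, ?_, ?_, ?_, ?_⟩
    · exact (min_le_left _ _).trans_lt (by norm_num)
    · exact (min_le_right _ _).trans (min_le_left _ _)
    · exact (min_le_right _ _).trans ((min_le_right _ _).trans (min_le_left _ _))
    · exact (min_le_right _ _).trans ((min_le_right _ _).trans (min_le_right _ _))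
  obtain ⟨wz, hwz0, hwz1, HFP⟩ := HFP ε₀ hε₀ e1
  obtain ⟨κF, hκF, HF⟩ := HF T ((le_max_left _ _).trans hT) c₀ hc₀ G CK P K₀ k hG3 hCK hP hK₀
  have hkb := k.hb
  obtain ⟨κs, hκs, s1, s2, s3, s4, s5, s6⟩ : ∃ κs : ℝ, 0 < κs ∧ κs ≤ κF ∧ κs ≤ κA ∧ κs ≤ κw ∧
      κs ≤ κp ∧ κs ≤ wz / 2 ∧ 4 * (k.b + 1) * κs ≤ 1 := by
    refine ⟨min (min κF κA) (min (min κw κp) (min (wz / 2) (1 / (4 * (k.b + 1))))), ?_, ?_, ?_, ?_,
      ?_, ?_, ?_⟩
    · positivity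
    · exact (min_le_left _ _).trans (min_le_left _ _)
    · exact (min_le_left _ _).trans (min_le_right _ _)
    · exact (min_le_right _ _).trans ((min_le_left _ _).trans (min_le_left _ _))
    · exact (min_le_right _ _).trans ((min_le_left _ _).trans (min_le_right _ _))
    · exact (min_le_right _ _).trans ((min_le_right _ _).trans (min_le_left _ _))
    · have h1 : min (min κF κA) (min (min κw κp) (min (wz / 2) (1 / (4 * (k.b + 1))))) ≤
          1 / (4 * (k.b + 1)) :=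
        (min_le_right _ _).trans ((min_le_right _ _).trans (min_le_right _ _))
      rwa [le_div_iff₀ (by positivity), mul_comm] at h1
  refine ⟨κs, hκs, fun κ₀ h0 hκ => ?_⟩
  obtain ⟨LF, HF⟩ := HF κ₀ h0 (hκ.trans s1)
  obtain ⟨κm, hκmdef⟩ : ∃ κm : ℝ, κm = κ₀ * Real.exp (-(4 / 5 * (T + 1))) := ⟨_, rfl⟩
  have hκm0 : 0 < κm := by rw [hκmdef]; positivity
  have hκm2 : 2 * κm ≤ κ₀ := by rw [hκmdef]; exact km_le hT3 h0
  have hκms : κm ≤ κs := by linarith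
  refine ⟨max LF (max 1 (max (8 * k.A) (96 * (1 + k.c)))), fun L₁ hL₁ => ?_⟩
  simp only [max_le_iff] at hL₁
  obtain ⟨hLF, hL1, hL8, hL96⟩ := hL₁
  obtain ⟨hCK2, hb2⟩ := rec_num k hκm0 hCK (by
    have : 4 * (k.b + 1) * κm ≤ 4 * (k.b + 1) * κs :=
      mul_le_mul_of_nonneg_left hκms (by positivity)
    linarith) hL8 hL96 hL1
  obtain ⟨ΛF, HF⟩ := HF L₁ hLF
  obtain ⟨c, hc⟩ : ∃ c : Cn, c = ⟨N, Ks, T, κ₀, L₁, G, CK⟩ := ⟨_, rfl⟩
  have c1 : c.N = N := by rw [hc]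
  have c2 : c.Ks = Ks := by rw [hc]
  have c3 : c.T = T := by rw [hc]
  have c4 : c.κ₀ = κ₀ := by rw [hc]
  have c5 : c.L₁ = L₁ := by rw [hc]
  have c6 : c.G = G := by rw [hc]
  have c7 : c.CK = CK := by rw [hc]
  obtain ⟨LS, hLS, HS⟩ := mkState (m := m) (n := n) (k := m + n) c k (κm := κm) (P := 3 * P)
    (by rw [c3]; exact hT3) (by rw [c6]; linarith) hκm0 (by rw [c4]; exact hκm2)
    (by rw [c5]; linarith) (by rw [c5, c7]; exact hCK2) (by rw [c5]; exact hb2) (by positivity)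
  obtain ⟨LP, hLP, HP⟩ := HP c κm c1 hκm0 (hκms.trans s4) (by rw [c4]; exact hκm2)
  refine ⟨max (max ΛF (max LA Lw)) (max (max LS LP) (max (2 / wz) (8 * k.A))), fun Λ₀ hΛ₀ => ?_⟩
  simp only [max_le_iff] at hΛ₀
  obtain ⟨⟨l1, l2, l3⟩, ⟨l4, l5⟩, l6, l7⟩ := hΛ₀
  have hΛ100 : 100 ≤ Λ₀ := hLA.trans l2
  obtain ⟨oF, hoF, HF⟩ := HF Λ₀ l1
  obtain ⟨oms, homs, o1, o2, o3⟩ : ∃ oms : ℝ, 0 < oms ∧ oms ≤ wz ∧
      oms * Real.exp ((m + 2) * c₀) ≤ wz ∧ Real.exp (m + 2) * oms ≤ oF := by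
    refine ⟨min wz (min (wz * Real.exp (-((m + 2) * c₀))) (oF * Real.exp (-((m:ℝ) + 2)))),
      by positivity, min_le_left _ _, ?_, ?_⟩
    · have h1 : min wz (min (wz * Real.exp (-((m + 2) * c₀))) (oF * Real.exp (-((m:ℝ) + 2)))) ≤
          wz * Real.exp (-((m + 2) * c₀)) := (min_le_right _ _).trans (min_le_left _ _)
      have h2 := mul_le_mul_of_nonneg_right h1 (Real.exp_pos ((m + 2) * c₀)).le
      rwa [mul_assoc wz, ← Real.exp_add, neg_add_cancel, Real.exp_zero, mul_one] at h2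
    · have h1 : min wz (min (wz * Real.exp (-((m + 2) * c₀))) (oF * Real.exp (-((m:ℝ) + 2)))) ≤
          oF * Real.exp (-((m:ℝ) + 2)) := (min_le_right _ _).trans (min_le_right _ _)
      have h2 := mul_le_mul_of_nonneg_left h1 (Real.exp_pos ((m:ℝ) + 2)).le
      have h3 : Real.exp ((m:ℝ) + 2) * (oF * Real.exp (-((m:ℝ) + 2))) =
          oF * (Real.exp ((m:ℝ) + 2) * Real.exp (-((m:ℝ) + 2))) := by ring
      rwa [h3, ← Real.exp_add, add_neg_cancel, Real.exp_zero, mul_one] at h2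
  refine ⟨oms, homs, fun om hom0 hom U D x r₁ hE hx S => ?_⟩
  have hV := stat_VD hE.int hE.st
  -- flatness bounds `Λ`
  have hE' : Env m U D Q x (Real.exp (m + 2) * om) r₁ := by
    refine ⟨hE.opn, hE.int, hE.st, hE.Q1, hE.Th, hE.r0, hE.sub, fun r h1 h2 => ?_⟩
    refine (hE.drop r h1 h2).trans (add_le_add le_rfl (ENNReal.ofReal_le_ofReal ?_))
    have h3 : (1:ℝ) ≤ Real.exp ((m:ℝ) + 2) := Real.one_le_exp (by positivity)
    exact le_mul_of_one_le_left hom0.le h3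
  have hfl : FlatH (world (m := m) (n := n) c k κm (VD D) Q x)
      (flatL m (VD D) x (Real.exp (m + 2) * om) c₀ r₁) Λ₀ κm := by
    rw [hc, hκmdef]
    exact (HF (Real.exp (m + 2) * om) (by positivity)
      ((mul_le_mul_of_nonneg_left hom (Real.exp_pos _).le).trans o3) U D x r₁ hE').1
  -- the step
  show StartH (world (m := m) (n := n) ⟨N, Ks, T, κ₀, L₁, G, CK⟩ k (κ₀ * Real.exp (-(4 / 5 * (T + 1)))) (VD D) Q x)
    (preP ⟨N, Ks, T, κ₀, L₁, G, CK⟩ (VD D) x (om * Real.exp ((m + 2) * c₀)) S)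
    (flatL m (VD D) x om c₀ r₁) Λ₀ (κ₀ * Real.exp (-(4 / 5 * (T + 1))))
    (P * Real.exp (2 * k.b * (κ₀ * Real.exp (-(4 / 5 * (T + 1)))) + 4 * k.A / Λ₀)) (3 / 2) (1 / 2)
    (23 / 20) S
  rw [← hc, ← hκmdef]
  rintro M l hl1 hl2 ⟨hMlb, hPs⟩ hflat hL hκ'
  change Λ₀ ≤ M.Lb at hL
  change M.κ + ‖hp M.π - plS m (VD D) x (om * Real.exp ((m + 2) * c₀))
    (8 * Real.exp (S + 1 / 8))‖ ≤ κm at hκ'
  obtain ⟨hr8, hpl⟩ := plane_at hV hE.sub (by linarith) hom0.le hflat hl1 hl2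
  obtain ⟨hP0G, hP0x⟩ := plS_spec hpl
  obtain ⟨P0, hP0⟩ : ∃ P0, P0 = plS m (VD D) x (om * Real.exp ((m + 2) * c₀))
    (8 * Real.exp (S + 1 / 8)) := ⟨_, rfl⟩
  rw [← hP0] at hκ' hP0G hP0x
  have hMS : M.S = Real.exp (S + 1 / 8) := by unfold Mo.S; rw [hMlb]
  have hsub8 : Metric.closedBall x (8 * Real.exp (S + 1 / 8)) ⊆ U :=
    (Metric.closedBall_subset_closedBall hr8).trans hE.sub
  have hrat := (hE.drop (8 * Real.exp (S + 1 / 8)) (by positivity) hr8).trans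
    (add_le_add le_rfl (ENNReal.ofReal_le_ofReal (hom.trans o1)))
  have ho2 : om * Real.exp ((m + 2) * c₀) ≤ wz :=
    (mul_le_mul_of_nonneg_right hom (Real.exp_pos _).le).trans o2
  have hFPall : ∀ (π' : Euc (m + n) →L[ℝ] Euc m) (ρ' : Euc (m + n) →L[ℝ] Euc n), Frame π' ρ' →
      ‖hp π' - P0‖ ≤ wz → FlatPack D x Q M.S ε₀ Λ π' ρ' := by
    intro π' ρ' hf' h1
    rw [hMS]
    exact HFP hE.opn hE.int hE.st (Real.exp_pos _) hsub8 hE.Th hrat π' ρ' hf' P0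
      (hP0x.trans ho2) h1
  have hn0 := norm_nonneg (hp M.π - P0)
  have hκ0 := hPs.cls.κ0
  have hMκ : M.κ ≤ κm := by linarith
  have hang : ‖hp M.π - P0‖ ≤ wz / 2 := by linarith
  have hmg := hPs.cls.mg
  rw [c1] at hmg
  have hbk : Bk N U D Q x ε₀ Λ M l :=
    ⟨hE.opn, hE.int, hE.st, hE.Q1, hE.Th, by rw [hMS]; exact hsub8,
      hFPall _ _ hPs.cls.frame (by linarith), hκ0, hmg, by linarith, by linarith⟩
  have hL0 : 0 < M.Lb := by linarith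
  have hLinv : 1 / M.Lb ≤ wz / 2 := by
    rw [div_le_iff₀ hwz0] at l6
    rw [div_le_iff₀ hL0]
    have : wz * Λ₀ ≤ wz * M.Lb := mul_le_mul_of_nonneg_left hL hwz0.le
    linarith
  have he := eps_pos hL0
  have he1 := eps_le (show 100 ≤ M.Lb by linarith)
  obtain ⟨M', hsel⟩ := HA U D x ε₀ M l M.Lb hbk (by linarith) e2 (by linarith) (by linarith)
    hPs.cls.du hPs.I_le hPs.sup
  have e8 : 12 * eps M.Lb = 3 / 2 * M.Lb ^ (-(1 / 2) : ℝ) := by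
    unfold eps ww; ring
  rcases HW Ks₀ U D x ε₀ M M' l M.Lb hbk (by linarith) e3 (by linarith) (by linarith) hPs.I_le
    hPs.cls.du hx hsel with ⟨g1, g2⟩ | ⟨l', g1, g2, g3, g4, g5, g6, g7⟩
  · obtain ⟨M'', q1, q2, q3, q4⟩ := HP Ks₀ U D x ε₀ M M' l M.Lb hbk hMκ e4 (by linarith)
      (by linarith) hPs.cls.du hsel (fun π' ρ' hf' h => hFPall π' ρ' hf' (by
        have h5 : ‖hp π' - P0‖ ≤ ‖hp π' - hp M.π‖ + ‖hp M.π - P0‖ := norm_sub_le_norm_sub_add_norm_sub _ _ _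
        linarith)) g2 g1
    refine ⟨M'', l - 12 * eps M.Lb, ?_, by linarith, Or.inr ⟨⟨q1.trans hMlb, q3⟩, ?_, ?_⟩⟩
    · show l - 3 / 2 * M.Lb ^ (-(1 / 2) : ℝ) ≤ _
      rw [e8]
    · show 23 / 20 * M.Lb ≤ M''.Lb
      rw [q2]
    · show M''.κ + ‖hp M''.π - plS m (VD D) x (om * Real.exp ((m + 2) * c₀))
        (8 * Real.exp (S + 1 / 8))‖ ≤ (M.κ + ‖hp M.π - plS m (VD D) x
          (om * Real.exp ((m + 2) * c₀)) (8 * Real.exp (S + 1 / 8))‖) + 1 / M.Lb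
      rw [← hP0]
      have h5 : ‖hp M''.π - P0‖ ≤ ‖hp M''.π - hp M.π‖ + ‖hp M.π - P0‖ :=
        norm_sub_le_norm_sub_add_norm_sub _ _ _
      linarith
  · obtain ⟨M'', q1, q2, q3, q4⟩ := HS D x Q M M' l M.Lb l' (by linarith) hPs.cls.frame hκ0 hMκ
      (by rw [hMlb]; linarith) (by rw [hMlb]; linarith) hPs.cls.du
      (by rw [c1, c2]; exact Sel1.mono_Ks hsel hKs0) g1 g2 g3 g4 g5 g6 g7
    have hqq := qq_pos hL0
    refine ⟨M'', l', ?_, by linarith, Or.inl ⟨q1, hfl M'' l' q1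
      (flat_shrink hV hE.sub hom0.le hflat (by linarith) (by linarith)) q4, ?_, ?_⟩⟩
    · show l - 3 / 2 * M.Lb ^ (-(1 / 2) : ℝ) ≤ _
      rw [← e8]; linarith
    · refine le_trans (mul_le_mul_of_nonneg_right ?_ ?_) q2
      · have h5 : Real.exp (2 * k.b * κm + 4 * k.A / Λ₀) ≤ 3 := by
          have h6 : 4 * k.A / Λ₀ ≤ 1 / 2 := by
            rw [div_le_iff₀ (by linarith)]; linarith
          have h7 : 4 * (k.b + 1) * κm ≤ 1 := by
            have : 4 * (k.b + 1) * κm ≤ 4 * (k.b + 1) * κs :=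
              mul_le_mul_of_nonneg_left hκms (by positivity)
            linarith
          have h8 : 2 * k.b * κm + 4 * k.A / Λ₀ ≤ 1 := by nlinarith
          have h9 := Real.exp_le_exp.2 h8
          have h10 := Real.exp_one_lt_d9
          linarith
        have h6 := mul_le_mul_of_nonneg_left h5 hP.le
        linarith
      · have := (world (m := m) (n := n) c k κm (VD D) Q x).f_gt M'' l' q1
        linarith
    · refine q3.trans ?_
      show M.κ + 1 / M.Lb ≤ (M.κ + ‖hp M.π - plS m (VD D) x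
          (om * Real.exp ((m + 2) * c₀)) (8 * Real.exp (S + 1 / 8))‖) + 1 / M.Lb
      rw [← hP0]
      linarith

theorem lowr_mono {V : Measure (Euc (m + n) × L (m + n))} {x : Euc (m + n)}
    {κ A c₁ Cc Cc' l Λ : ℝ} (hC : Cc ≤ Cc') (h : Lowr m n V x κ A c₁ Cc l Λ) :
    Lowr m n V x κ A c₁ Cc' l Λ := by
  obtain ⟨π, ρ, hf, u, g, s, A', h1, h2, h3, h4⟩ := h
  exact ⟨π, ρ, hf, u, g, s, A', h1, h2, h3,
    h4.trans (mul_le_mul_of_nonneg_right hC (Real.exp_pos _).le)⟩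

/-- **`StartAll`** from `GLP`. -/
theorem startAll (hG : GLP) (m n : ℕ) (hm : 3 ≤ m) (hn : 1 ≤ n) : Thya_685.StartAll m n := by
  refine ⟨3 / 2, 1 / 2, 23 / 20, by norm_num, by norm_num, by norm_num, ?_⟩
  obtain ⟨Ks₀, H⟩ := (((startP hG m n hm hn).and (topP m n (by omega))).and
    (cmpP m n (by omega))).and (cmpAll m n (by omega))
  refine ⟨Ks₀, fun Ks hKs K hK Q hQ => ?_⟩
  obtain ⟨N₀, H⟩ := H Ks hKs K hK Q hQ
  refine ⟨N₀, fun N hN => ?_⟩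
  obtain ⟨T₀, H⟩ := H N hN
  refine ⟨max T₀ 0, fun T hT c₀ hc₀ G CK P K₀ k a1 a2 a3 a4 => ?_⟩
  have hT0 : 0 ≤ T := (le_max_right _ _).trans hT
  obtain ⟨κs, hκs, H⟩ := H T ((le_max_left _ _).trans hT) c₀ hc₀ G CK P K₀ k a1 a2 a3 a4
  refine ⟨κs, hκs, fun κ₀ h0 hκ => ?_⟩
  obtain ⟨Ls, H⟩ := H κ₀ h0 hκ
  refine ⟨Ls, fun L₁ hL₁ => ?_⟩
  obtain ⟨Λs, H⟩ := H L₁ hL₁
  refine ⟨Λs, fun Λ₀ hΛ => ?_⟩
  obtain ⟨oms, homs, H⟩ := H Λ₀ hΛ
  refine ⟨oms, homs, fun om ho1 ho2 => ?_⟩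
  obtain ⟨⟨⟨H1, H2⟩, Cp, hCp, H3⟩, Cc, hCc, H4⟩ := H om ho1 ho2
  intro U D x r₁ hE hx
  have H3 := H3 U D x r₁ hE
  obtain ⟨H4, -⟩ := H4 U D x r₁ hE
  refine ⟨preP _ (VD D) x (om2 m _), 1 / 8, T + 3, 3, max Cp Cc, by norm_num, by linarith,
    by norm_num, lt_max_of_lt_left hCp, H1 U D x r₁ hE hx, fun S hS => H2 U D x r₁ hE S hS, ?_, ?_⟩
  · intro M l h1 h2
    exact lowr_mono (le_max_right _ _) (H4 M l h1 h2)
  · intro S M l h1 h2 h3 h4 _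
    exact lowr_mono (le_max_left _ _) (H3 _ S M l h1 h2 h3 h4)

end Crest.Agent.R234.F11f_188
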