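import Crest.Agent.R234.Loc1_290

/-!
# R234 (helper354), VF-F3 = (F3) of 518 #6174: the sloppy localisation lemma

`b = b₁ - b₂` a signed datum on a finite dimensional inner product space `F`, dominated by a positive
measure `e`; `β x y` a kernel supported in `‖y - x‖ ≤ 2ρ`, `w ≥ 0` a bounded weight with
`∫ w x β x y dx = 1 + O(θ)`; `φ` Lipschitz with values in `[0,1]`.  If `b(β x ·) ≤ A` for all `x` in the
support of `φ`, then `b(φ) ≤ W vol(B_R) A + (θ + 8 L ρ) e(B_{R+2ρ})`.
First order accuracy only: no symmetry of the kernel is used.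
-/

set_option linter.unusedSectionVars false

open MeasureTheory Set Metric Function
open scoped ENNReal NNReal Topology

namespace Crest.Agent.R234.F31_354

variable {F : Type*} [NormedAddCommGroup F] [InnerProductSpace ℝ F] [FiniteDimensional ℝ F]
  [MeasurableSpace F] [BorelSpace F]

/-- kernel data for the localisation lemma. -/
structure Kern (vol : Measure F) (β : F → F → ℝ) (w : F → ℝ) (ρ θ W R : ℝ) : Prop where
  meas : Measurable (uncurry β)
  nonneg : ∀ x y, 0 ≤ β x y
  le_one : ∀ x y, β x y ≤ 1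
  supp : ∀ x y, 2 * ρ < ‖y - x‖ → β x y = 0
  wmeas : Measurable w
  wnonneg : ∀ x, 0 ≤ w x
  wle : ∀ x, w x ≤ W
  mass : ∀ y ∈ closedBall (0 : F) (R + 2 * ρ), |∫ x, w x * β x y ∂vol - 1| ≤ θ

variable {vol : Measure F} [vol.IsAddHaarMeasure] {β : F → F → ℝ} {w : F → ℝ} {ρ θ W R : ℝ}

theorem Kern.integrable (h : Kern vol β w ρ θ W R) (y : F) :
    Integrable (fun x => w x * β x y) vol := by
  have hm : Measurable fun x => w x * β x y :=
    h.wmeas.mul (h.meas.comp (measurable_id.prodMk measurable_const))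
  refine Integrable.mono' (g := indicator (closedBall y (2 * ρ)) fun _ => |W|) ?_
    hm.aestronglyMeasurable ?_
  · refine (integrable_indicator_iff measurableSet_closedBall).2 ?_
    exact integrableOn_const (measure_closedBall_lt_top.ne)
  · refine Filter.Eventually.of_forall fun x => ?_
    by_cases hx : x ∈ closedBall y (2 * ρ)
    · rw [indicator_of_mem hx, Real.norm_eq_abs, abs_mul]
      have h1 : |w x| ≤ |W| := by
        rw [abs_of_nonneg (h.wnonneg x)]
        exact (h.wle x).trans (le_abs_self W)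
      have h2 : |β x y| ≤ 1 := by
        rw [abs_of_nonneg (h.nonneg x y)]
        exact h.le_one x y
      calc |w x| * |β x y| ≤ |W| * 1 := mul_le_mul h1 h2 (abs_nonneg _) (abs_nonneg _)
        _ = |W| := mul_one _
    · rw [indicator_of_notMem hx]
      have h1 : β x y = 0 := by
        apply h.supp
        rw [mem_closedBall, dist_eq_norm, not_le] at hx
        rwa [norm_sub_rev]
      simp [h1]

/-- pointwise error of the averages. -/
theorem Kern.err (h : Kern vol β w ρ θ W R) (hρ : 0 ≤ ρ) (hθ : θ ≤ 1) {φ : F → ℝ} {Lp : ℝ≥0}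
    (hφ : LipschitzWith Lp φ) (hφ0 : ∀ x, 0 ≤ φ x) (hφ1 : ∀ x, φ x ≤ 1) {y : F}
    (hy : y ∈ closedBall (0 : F) (R + 2 * ρ)) :
    |φ y - ∫ x, (w x * φ x) * β x y ∂vol| ≤ θ + 4 * Lp * ρ := by
  have hi := h.integrable y
  have hφm : Measurable φ := hφ.continuous.measurable
  have hi2 : Integrable (fun x => (w x * φ x) * β x y) vol := by
    have := hi.bdd_mul (c := 1) hφm.aestronglyMeasurable
      (Filter.Eventually.of_forall fun x => by
        rw [Real.norm_eq_abs, abs_of_nonneg (hφ0 x)]
        exact hφ1 x)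
    refine this.congr (Filter.Eventually.of_forall fun x => ?_)
    simp only
    ring
  have h1 : φ y - ∫ x, (w x * φ x) * β x y ∂vol =
      φ y * (1 - ∫ x, w x * β x y ∂vol) + ∫ x, (w x * β x y) * (φ y - φ x) ∂vol := by
    have e1 : ∀ x, (w x * β x y) * (φ y - φ x) = φ y * (w x * β x y) - (w x * φ x) * β x y := by
      intro x
      ring
    simp_rw [e1]
    rw [integral_sub (hi.const_mul _) hi2, integral_const_mul]
    ring
  have hmass := h.mass y hy
  have hI1 : ∫ x, w x * β x y ∂vol ≤ 2 := by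
    have := (abs_le.1 hmass).2
    linarith
  have h2 : |φ y * (1 - ∫ x, w x * β x y ∂vol)| ≤ θ := by
    rw [abs_mul, abs_of_nonneg (hφ0 y), abs_sub_comm]
    calc φ y * |∫ x, w x * β x y ∂vol - 1| ≤ 1 * |∫ x, w x * β x y ∂vol - 1| :=
          mul_le_mul_of_nonneg_right (hφ1 y) (abs_nonneg _)
      _ ≤ θ := by rwa [one_mul]
  have h3 : |∫ x, (w x * β x y) * (φ y - φ x) ∂vol| ≤ 2 * (Lp * (2 * ρ)) := by
    calc |∫ x, (w x * β x y) * (φ y - φ x) ∂vol|
        ≤ ∫ x, (w x * β x y) * (Lp * (2 * ρ)) ∂vol := by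
          rw [← Real.norm_eq_abs]
          refine norm_integral_le_of_norm_le (hi.mul_const _) (Filter.Eventually.of_forall fun x => ?_)
          have hw : 0 ≤ w x * β x y := mul_nonneg (h.wnonneg x) (h.nonneg x y)
          rw [norm_mul, Real.norm_of_nonneg hw]
          by_cases hx : 2 * ρ < ‖y - x‖
          · rw [h.supp x y hx]
            simp
          · refine mul_le_mul_of_nonneg_left ?_ hw
            have := hφ.dist_le_mul y x
            rw [Real.dist_eq, dist_eq_norm] at this
            refine this.trans ?_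
            exact mul_le_mul_of_nonneg_left (not_lt.1 hx) Lp.2
      _ = (∫ x, w x * β x y ∂vol) * (Lp * (2 * ρ)) := integral_mul_const _ _
      _ ≤ 2 * (Lp * (2 * ρ)) := by
          refine mul_le_mul_of_nonneg_right hI1 ?_
          positivity
  rw [h1]
  refine (abs_add_le _ _).trans ?_
  linarith

/-- **sloppy localisation lemma** -/
theorem loc_sloppy (h : Kern vol β w ρ θ W R) (hρ : 0 ≤ ρ) (hθ : θ ≤ 1) (hW : 0 ≤ W)
    (b₁ b₂ e : Measure F) [IsFiniteMeasure b₁] [IsFiniteMeasure b₂] [IsFiniteMeasure e]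
    {φ : F → ℝ} {Lp : ℝ≥0}
    (hφ : LipschitzWith Lp φ) (hφ0 : ∀ x, 0 ≤ φ x) (hφ1 : ∀ x, φ x ≤ 1)
    (hφR : ∀ x, R < ‖x‖ → φ x = 0) {A : ℝ} (hA0 : 0 ≤ A)
    (hA : ∀ x, φ x ≠ 0 → ∫ y, β x y ∂b₁ - ∫ y, β x y ∂b₂ ≤ A)
    (habs : ∀ f : F → ℝ, Measurable f → (∃ C, ∀ y, |f y| ≤ C) →
      (∀ y, y ∉ closedBall (0 : F) (R + 2 * ρ) → f y = 0) →
      ∫ y, f y ∂b₁ - ∫ y, f y ∂b₂ ≤ ∫ y, |f y| ∂e) :
    ∫ y, φ y ∂b₁ - ∫ y, φ y ∂b₂ ≤
      W * vol.real (closedBall 0 R) * A +
        (θ + 4 * Lp * ρ) * e.real (closedBall 0 (R + 2 * ρ)) := by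
  have hφm : Measurable φ := hφ.continuous.measurable
  have hφi : ∀ (μ : Measure F) [IsFiniteMeasure μ], Integrable φ μ := by
    intro μ _
    refine Integrable.mono' (integrable_const 1) hφm.aestronglyMeasurable
      (Filter.Eventually.of_forall fun x => ?_)
    rw [Real.norm_eq_abs, abs_of_nonneg (hφ0 x)]
    exact hφ1 x
  set g : F → ℝ := fun x => w x * φ x with hg
  have hgm : Measurable g := h.wmeas.mul hφm
  have hg0 : ∀ x, 0 ≤ g x := fun x => mul_nonneg (h.wnonneg x) (hφ0 x)
  have hgle : ∀ x, g x ≤ indicator (closedBall (0 : F) R) (fun _ => W) x := by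
    intro x
    by_cases hx : x ∈ closedBall (0 : F) R
    · rw [indicator_of_mem hx]
      calc w x * φ x ≤ W * 1 := mul_le_mul (h.wle x) (hφ1 x) (hφ0 x) hW
        _ = W := mul_one _
    · rw [indicator_of_notMem hx]
      have : φ x = 0 := by
        apply hφR
        rw [mem_closedBall, dist_zero_right, not_le] at hx
        exact hx
      simp [hg, this]
  have hind : Integrable (indicator (closedBall (0 : F) R) (fun _ => W)) vol :=
    (integrable_indicator_iff measurableSet_closedBall).2
      (integrableOn_const (measure_closedBall_lt_top.ne))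
  have hgi : Integrable g vol := by
    refine Integrable.mono' hind hgm.aestronglyMeasurable (Filter.Eventually.of_forall fun x => ?_)
    rw [Real.norm_of_nonneg (hg0 x)]
    exact hgle x
  have hgA : ∫ x, g x * A ∂vol ≤ W * vol.real (closedBall 0 R) * A := by
    rw [integral_mul_const]
    refine mul_le_mul_of_nonneg_right ?_ hA0
    calc ∫ x, g x ∂vol ≤ ∫ x, indicator (closedBall (0 : F) R) (fun _ => W) x ∂vol :=
          integral_mono hgi hind hgle
      _ = W * vol.real (closedBall 0 R) := by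
          rw [integral_indicator measurableSet_closedBall, setIntegral_const, smul_eq_mul, mul_comm]
  set f : F → ℝ := fun y => φ y - ∫ x, g x * β x y ∂vol with hf
  have hfm : Measurable f := by
    refine hφm.sub ?_
    have h1 : StronglyMeasurable (uncurry fun y x : F => g x * β x y) := by
      refine Measurable.stronglyMeasurable ?_
      exact (hgm.comp measurable_snd).mul (h.meas.comp measurable_swap)
    exact (h1.integral_prod_right (ν := vol)).measurable
  have hf0 : ∀ y, y ∉ closedBall (0 : F) (R + 2 * ρ) → f y = 0 := by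
    intro y hy
    rw [mem_closedBall, dist_zero_right, not_le] at hy
    have h1 : φ y = 0 := hφR y (by linarith)
    have h2 : ∀ x, g x * β x y = 0 := by
      intro x
      by_cases hx : R < ‖x‖
      · simp [hg, hφR x hx]
      · have : 2 * ρ < ‖y - x‖ := by
          have h3 : ‖y‖ ≤ ‖y - x‖ + ‖x‖ := by
            calc ‖y‖ = ‖(y - x) + x‖ := by rw [sub_add_cancel]
              _ ≤ _ := norm_add_le _ _
          have := not_lt.1 hx
          linarith
        rw [h.supp x y this, mul_zero]
    simp only [hf, h1]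
    simp_rw [h2]
    simp
  have hfle : ∀ y, |f y| ≤ indicator (closedBall (0 : F) (R + 2 * ρ)) (fun _ => θ + 4 * Lp * ρ) y := by
    intro y
    by_cases hy : y ∈ closedBall (0 : F) (R + 2 * ρ)
    · rw [indicator_of_mem hy]
      exact h.err hρ hθ hφ hφ0 hφ1 hy
    · rw [indicator_of_notMem hy, hf0 y hy, abs_zero]
  have hbd : ∃ C, ∀ y, |f y| ≤ C := by
    refine ⟨|θ + 4 * Lp * ρ|, fun y => (hfle y).trans ?_⟩
    by_cases hy : y ∈ closedBall (0 : F) (R + 2 * ρ)
    · rw [indicator_of_mem hy]
      exact le_abs_self _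
    · rw [indicator_of_notMem hy]
      exact abs_nonneg _
  have hmain := Loc1_290.loc_abstract vol b₁ b₂ e β h.meas
    (fun x y => by rw [abs_of_nonneg (h.nonneg x y)]; exact h.le_one x y) g hgi hg0 φ (hφi b₁) (hφi b₂)
    (fun _ => A) (fun x hx => hA x (fun hφx => hx (by simp [hg, hφx]))) (hgi.mul_const A)
    (habs f hfm hbd hf0)
  refine hmain.trans (add_le_add hgA ?_)
  calc ∫ y, |f y| ∂e ≤ ∫ y, indicator (closedBall (0 : F) (R + 2 * ρ)) (fun _ => θ + 4 * Lp * ρ) y ∂e := by
        refine integral_mono ?_ ?_ hfle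
        · obtain ⟨C, hC⟩ := hbd
          exact Integrable.mono' (integrable_const C) hfm.abs.aestronglyMeasurable
            (Filter.Eventually.of_forall fun y => by rw [Real.norm_eq_abs, abs_abs]; exact hC y)
        · exact (integrable_const _).indicator measurableSet_closedBall
    _ = (θ + 4 * Lp * ρ) * e.real (closedBall 0 (R + 2 * ρ)) := by
        rw [integral_indicator measurableSet_closedBall, setIntegral_const, smul_eq_mul, mul_comm]

end Crest.Agent.R234.F31_354
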