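import Crest.Agent.R234.Fm4_281

/-!
# Row 234 (helper354), node F3-MAT: the covariant tilt and the area factor in a metric `1 + g`

`H`, `S` orthogonal projections of rank `m`, `g` small with blocks `θ`, `o` (`Blk H g θ o`).
`tNP g H S = tr (R_V R_S)`, `R_S = Sg g S (1 + g)` the `(1+g)`-orthogonal projection onto `S`, `R_V`
the one onto the vertical space.  If `1 + g = Aᵀ A` this is `tr (N P)`, `N` the orthogonal projection
onto `A (1 - H)`, `P` the one onto `A S`.  Then

  `|Jc g S (1 - tNP/2) - Jc g H (1 - tau H S / 2)| ≤ C ((θ + o) tau + o²)`: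

no term `o √tau`.  Proof: `Jc g S / Jc g H = 1 + ℓ/2 + O(E)`, `tNP = tau + ℓ + O(E)`,
`ℓ = tr (g_hv S_vh) + tr (g_vh S_hv)`, `E = (θ + o) tau + o²`.
-/

set_option autoImplicit false

open Crest.GeometryTopology.Submanifold
open Crest.Agent.R234.Vf_884
open scoped InnerProductSpace

noncomputable section

namespace Crest.Agent.R234.F32_354

open Crest.Agent.R234.Fm_281

variable {m k : ℕ}

/-- expansion in a noncommutative ring -/
local macro "nr" : tactic => `(tactic| (simp only [mul_sub, sub_mul, mul_add, add_mul, mul_one,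
  one_mul, mul_assoc, mul_neg, neg_mul] <;> abel))

theorem aux1 {a b c : L k} (h : a = b - c) : a - b = -c := by
  rw [h]; abel

theorem aux2 {a b c : L k} (h : a = b - c) : a + c = b := by
  conv_lhs => rw [h]
  abel

theorem tr_sub_mul (A A' B : L k) : tr ((A - A') * B) = tr (A * B) - tr (A' * B) := by
  rw [sub_mul, map_sub]

/-- covariant tilt: trace of the product of the two `(1+g)`-orthogonal projections -/
def tNP (g H S : L k) : ℝ := tr ((Sg g (1 - H) * (1 + g)) * (Sg g S * (1 + g)))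

/-- first order term -/
def ell (g H S : L k) : ℝ :=
  tr ((H * g * (1 - H)) * ((1 - H) * S * H)) + tr (((1 - H) * g * H) * (H * S * (1 - H)))

/-- the error -/
def EE (θ o τ : ℝ) : ℝ := (θ + o) * τ + o ^ 2

/-- the elementary inequalities for the error -/
theorem EE_facts {θ o τ t : ℝ} (hθ : 0 ≤ θ) (hθ1 : θ ≤ 1) (ho : 0 ≤ o)
    (ht : 0 ≤ t) (hτ : t * t = τ) :
    0 ≤ EE θ o τ ∧ θ * τ ≤ EE θ o τ ∧ o * τ ≤ EE θ o τ ∧ o ^ 2 ≤ EE θ o τ ∧
      θ * o * t ≤ EE θ o τ := by
  have hτ0 : 0 ≤ τ := by rw [← hτ]; positivity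
  have h1 : 0 ≤ θ * τ := by positivity
  have h2 : 0 ≤ o * τ := by positivity
  have h3 : 0 ≤ o ^ 2 := by positivity
  unfold EE
  refine ⟨by nlinarith, by nlinarith, by nlinarith, by nlinarith, ?_⟩
  have h4 : 0 ≤ (θ * t - o) ^ 2 := sq_nonneg _
  have h5 : θ * θ * τ ≤ θ * τ := by
    have : θ * θ ≤ θ := by nlinarith
    exact mul_le_mul_of_nonneg_right this hτ0
  nlinarith [h4, h5, hτ]

section

variable {H S g : L k} {θ o : ℝ}

theorem norm_blk_le (hH : H ∈ G m k) (hb : Blk H g θ o) : ‖g‖ ≤ 2 * (θ + o) := by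
  have hH' := isStar_of_G hH
  have hH1 : ‖H‖ ≤ 1 := hH'.norm_le
  have hN1 : ‖1 - H‖ ≤ 1 := hH'.one_sub.norm_le
  have e : g = (H * g * H + H * g * (1 - H)) + (1 - H) * g * H + (1 - H) * g * (1 - H) := by nr
  have h1 := norm_add_le (H * g * H + H * g * (1 - H) + (1 - H) * g * H) ((1 - H) * g * (1 - H))
  have h2 := norm_add₃_le (a := H * g * H) (b := H * g * (1 - H)) (c := (1 - H) * g * H)
  rw [← e] at h1
  linarith [hb.hh, hb.hv, hb.vh, hb.vv]

theorem norm_SsubH_le (hH : H ∈ G m k) (hS : S ∈ G m k) : ‖S - H‖ ≤ 2 * Real.sqrt (tau H S) := by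
  have e : S - H = S * (1 - H) - (1 - S) * H := by nr
  rw [e]
  have := norm_sub_le (S * (1 - H)) ((1 - S) * H)
  linarith [norm_SN hH hS, norm_TH hH hS]

/-- all block bounds of the off diagonal parts of `S` -/
theorem blkS (hH : H ∈ G m k) (hS : S ∈ G m k) :
    ‖(1 - H) * S * H‖ ≤ Real.sqrt (tau H S) ∧ ‖H * S * (1 - H)‖ ≤ Real.sqrt (tau H S) ∧
      ‖(1 - H) * S * (1 - H)‖ ≤ tau H S ∧ ‖H * (S - H) * H‖ ≤ tau H S := by
  have hH' := isStar_of_G hH
  have hH1 : ‖H‖ ≤ 1 := hH'.norm_le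
  refine ⟨?_, ?_, norm_NSN hH hS, ?_⟩
  · have := nm2 (norm_NS hH hS) hH1; linarith
  · rw [mul_assoc]
    have := nm2 hH1 (norm_SN hH hS); linarith
  · have hHH : H * H = H := hH'.1
    have e : H * (S - H) * H = -(H * (1 - S) * H) := by
      have e1 : H * (S - H) * H = H * S * H - (H * H) * H := by nr
      have e2 : H * (1 - S) * H = H * H - H * S * H := by nr
      rw [e1, e2, hHH, hHH]; abel
    rw [e, norm_neg]
    exact norm_HTH hH hS

theorem abs_ell_le (hH : H ∈ G m k) (hS : S ∈ G m k) (hb : Blk H g θ o) :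
    |ell g H S| ≤ 2 * k * (o * Real.sqrt (tau H S)) := by
  obtain ⟨s1, s2, s3, s4⟩ := blkS hH hS
  unfold ell
  have h1 := abs_tr_mul_le (H * g * (1 - H)) ((1 - H) * S * H)
  have h2 := abs_tr_mul_le ((1 - H) * g * H) (H * S * (1 - H))
  have h3 := abs_add_le (tr ((H * g * (1 - H)) * ((1 - H) * S * H)))
    (tr (((1 - H) * g * H) * (H * S * (1 - H))))
  have hk : (0:ℝ) ≤ k := Nat.cast_nonneg _
  have h4 : ‖H * g * (1 - H)‖ * ‖(1 - H) * S * H‖ ≤ o * Real.sqrt (tau H S) :=
    mul_le_mul hb.hv s1 (norm_nonneg _) hb.o_nonneg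
  have h5 : ‖(1 - H) * g * H‖ * ‖H * S * (1 - H)‖ ≤ o * Real.sqrt (tau H S) :=
    mul_le_mul hb.vh s2 (norm_nonneg _) hb.o_nonneg
  have h6 := mul_le_mul_of_nonneg_left h4 hk
  have h7 := mul_le_mul_of_nonneg_left h5 hk
  linarith

set_option maxHeartbeats 1000000 in
/-- ratio of the determinants -/
theorem exists_ratio (k : ℕ) : ∃ C : ℝ, 0 ≤ C ∧
    ∀ (m : ℕ) (H S g : L k) (θ o : ℝ), H ∈ G m k → S ∈ G m k → ‖g‖ ≤ 1 / 4 → Blk H g θ o →
      θ ≤ 1 → o ≤ 1 →
      ∃ r : ℝ, |r| ≤ C * EE θ o (tau H S) ∧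
        (1 + S * (g * S)).det = (1 + H * (g * H)).det * (1 + ell g H S + r) := by
  obtain ⟨C, hC, hT⟩ := exists_taylor k
  refine ⟨C * 128 + 10 * k, by positivity, ?_⟩
  intro m H S g θ o hH hS hg hb hθ1 ho1
  have hH' := isStar_of_G hH
  have hS' := isStar_of_G hS
  have hH1 : ‖H‖ ≤ 1 := hH'.norm_le
  have hN1 : ‖1 - H‖ ≤ 1 := hH'.one_sub.norm_le
  have hS1 : ‖S‖ ≤ 1 := hS'.norm_le
  have hHH : H * H = H := hH'.1
  have hSS : S * S = S := hS'.1
  have hNN : (1 - H) * (1 - H) = 1 - H := hH'.one_sub.1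
  have hθ0 := hb.θ_nonneg
  have ho0 := hb.o_nonneg
  have hsq := sq_sqrt_tau hH hS
  have hτ0 := tau_nonneg hH hS
  obtain ⟨s1, s2, s3, s4⟩ := blkS hH hS
  have hSH := norm_SsubH_le hH hS
  set t := Real.sqrt (tau H S) with ht
  have ht0 : 0 ≤ t := Real.sqrt_nonneg _
  obtain ⟨E0, E1, E2, E3, E4⟩ := EE_facts hθ0 hθ1 ho0 ht0 hsq
  have hk : (0:ℝ) ≤ k := Nat.cast_nonneg _
  -- `1 + g H` is invertible
  have hgH : ‖g * H‖ ≤ 1 / 2 := by
    have := nm2 hg hH1; linarith
  obtain ⟨Z, hZ1, hZ2, hZ3, -⟩ := Fm_209.exists_inv hgH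
  set W := Z * g with hW
  have hWeq : W = g - g * H * W := by
    have e : (1 + g * H) * W = g := by rw [hW, ← mul_assoc, hZ2, one_mul]
    have e2 : (1 + g * H) * W = W + g * H * W := by nr
    rw [e2] at e
    rw [eq_sub_iff_add_eq]; exact e
  have hWeq2 : W = g - g * (H * H) * W := by rw [hHH]; exact hWeq
  -- blocks of `W`
  have hM : ‖H * (g * H)‖ ≤ 1 / 2 := (norm_conj_le hH').trans (by linarith)
  obtain ⟨X, hX1, hX2, hX3, -⟩ := Fm_209.exists_inv hM
  have blk : ∀ B : L k, H * W * B = X * (H * g * B) := by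
    intro B
    have e1 : H * W * B = H * g * B - (H * g * H) * (H * W * B) := by
      conv_lhs => rw [hWeq2]
      nr
    have e2 : (1 + H * (g * H)) * (H * W * B) = H * g * B := by
      have e3 : (1 + H * (g * H)) * (H * W * B) = H * W * B + (H * g * H) * (H * W * B) := by nr
      rw [e3]
      exact aux2 e1
    calc H * W * B = X * (1 + H * (g * H)) * (H * W * B) := by rw [hX1, one_mul]
      _ = X * ((1 + H * (g * H)) * (H * W * B)) := by rw [mul_assoc]
      _ = _ := by rw [e2]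
  have w1 : ‖H * W * H‖ ≤ 2 * θ := by
    rw [blk H]; exact nm2 hX3 hb.hh
  have w2 : ‖H * W * (1 - H)‖ ≤ 2 * o := by
    rw [blk (1 - H)]; exact nm2 hX3 hb.hv
  have w2' : ‖H * W * (1 - H) - H * g * (1 - H)‖ ≤ 2 * (θ * o) := by
    have e : H * W * (1 - H) - H * g * (1 - H) = - ((H * g * H) * (H * W * (1 - H))) := by
      have e1 : H * W * (1 - H) = H * g * (1 - H) - (H * g * H) * (H * W * (1 - H)) := by
        conv_lhs => rw [hWeq2]
        nr
      exact aux1 e1
    rw [e, norm_neg]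
    have := nm2 hb.hh w2
    linarith
  have w3 : ‖(1 - H) * W * H - (1 - H) * g * H‖ ≤ 2 * (θ * o) := by
    have e : (1 - H) * W * H - (1 - H) * g * H = - (((1 - H) * g * H) * (H * W * H)) := by
      have e1 : (1 - H) * W * H = (1 - H) * g * H - ((1 - H) * g * H) * (H * W * H) := by
        conv_lhs => rw [hWeq2]
        nr
      exact aux1 e1
    rw [e, norm_neg]
    have := nm2 hb.vh w1
    linarith
  have w4 : ‖(1 - H) * W * (1 - H)‖ ≤ θ + 2 * o ^ 2 := by
    have e1 : (1 - H) * W * (1 - H) = (1 - H) * g * (1 - H)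
        - ((1 - H) * g * H) * (H * W * (1 - H)) := by
      conv_lhs => rw [hWeq2]
      nr
    rw [e1]
    have h1 := norm_sub_le ((1 - H) * g * (1 - H)) (((1 - H) * g * H) * (H * W * (1 - H)))
    have h2 := nm2 hb.vh w2
    have h3 := hb.vv
    nlinarith
  -- the operator `Y`
  set Y := W * (S - H) with hY
  have hdet : (1 + S * (g * S)).det = (1 + H * (g * H)).det * (1 + Y).det := by
    have e1 : (1 + S * (g * S)).det = (1 + g * S).det := by
      rw [show (1 + S * (g * S)).det = (1 + (g * S) * S).det from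
        Fm_209.det_one_add_comm S (g * S), mul_assoc, hSS]
    have e2 : (1 + H * (g * H)).det = (1 + g * H).det := by
      rw [show (1 + H * (g * H)).det = (1 + (g * H) * H).det from
        Fm_209.det_one_add_comm H (g * H), mul_assoc, hHH]
    rw [e1, e2, ← det_mulL]
    congr 1
    have e3 : (1 + g * H) * (1 + Y) = 1 + g * H + ((1 + g * H) * Z) * g * (S - H) := by
      rw [hY, hW]; nr
    rw [e3, hZ2]
    nr
  have hgn := norm_blk_le hH hb
  have hYn : ‖Y‖ ≤ 8 * ((θ + o) * t) := by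
    have := nm2 (nm2 hZ3 hgn) hSH
    rw [hY, hW]
    linarith
  have hYn1 : ‖Y‖ ≤ 1 := by
    have h2 : ‖S - H‖ ≤ 2 := by
      have := norm_sub_le S H; linarith
    have := nm2 (nm2 hZ3 hg) h2
    rw [hY, hW]
    linarith
  have hTY := hT Y hYn1
  have hY2 : ‖Y‖ ^ 2 ≤ 128 * EE θ o (tau H S) := by
    have h1 : ‖Y‖ ^ 2 ≤ (8 * ((θ + o) * t)) ^ 2 := pow_le_pow_left₀ (norm_nonneg _) hYn 2
    have h2 : (8 * ((θ + o) * t)) ^ 2 = 64 * ((θ + o) * ((θ + o) * tau H S)) := by
      rw [← hsq]; ring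
    have h3 : (θ + o) * ((θ + o) * tau H S) ≤ 2 * ((θ + o) * tau H S) :=
      mul_le_mul_of_nonneg_right (by linarith) (by positivity)
    have h4 : (θ + o) * tau H S ≤ EE θ o (tau H S) := le_add_of_nonneg_right (sq_nonneg o)
    linarith
  -- the trace of `Y`
  have htrY : |tr Y - ell g H S| ≤ 10 * k * EE θ o (tau H S) := by
    have e1 : tr Y = tr ((H * W * H) * (H * (S - H) * H)) +
        tr ((H * W * (1 - H)) * ((1 - H) * (S - H) * H)) +
        tr (((1 - H) * W * H) * (H * (S - H) * (1 - H))) +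
        tr (((1 - H) * W * (1 - H)) * ((1 - H) * (S - H) * (1 - H))) := tr_blocks hH' W (S - H)
    have hNH : (1 - H) * H = 0 := by rw [sub_mul, one_mul, hHH, sub_self]
    have hHN : H * (1 - H) = 0 := by rw [mul_sub, mul_one, hHH, sub_self]
    have e2 : (1 - H) * (S - H) * H = (1 - H) * S * H := by
      have : (1 - H) * (S - H) * H = (1 - H) * S * H - ((1 - H) * H) * H := by nr
      rw [this, hNH, zero_mul, sub_zero]
    have e3 : H * (S - H) * (1 - H) = H * S * (1 - H) := by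
      have : H * (S - H) * (1 - H) = H * S * (1 - H) - H * (H * (1 - H)) := by nr
      rw [this, hHN, mul_zero, sub_zero]
    have e4 : (1 - H) * (S - H) * (1 - H) = (1 - H) * S * (1 - H) := by
      have : (1 - H) * (S - H) * (1 - H) = (1 - H) * S * (1 - H) - (1 - H) * (H * (1 - H)) := by nr
      rw [this, hHN, mul_zero, sub_zero]
    rw [e2, e3, e4] at e1
    have e5 : tr Y - ell g H S = tr ((H * W * H) * (H * (S - H) * H)) +
        tr ((H * W * (1 - H) - H * g * (1 - H)) * ((1 - H) * S * H)) +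
        tr (((1 - H) * W * H - (1 - H) * g * H) * (H * S * (1 - H))) +
        tr (((1 - H) * W * (1 - H)) * ((1 - H) * S * (1 - H))) := by
      rw [e1]; unfold ell
      rw [tr_sub_mul (H * W * (1 - H)), tr_sub_mul ((1 - H) * W * H)]; ring
    rw [e5]
    have key : ∀ (A B : L k) (a b : ℝ), ‖A‖ ≤ a → ‖B‖ ≤ b → |tr (A * B)| ≤ k * (a * b) := by
      intro A B a b hA hB
      exact (abs_tr_mul_le A B).trans (mul_le_mul_of_nonneg_left (mul_le_mul hA hB (norm_nonneg _)
        ((norm_nonneg _).trans hA)) hk)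
    have b1 := key _ _ _ _ w1 s4
    have b2 := key _ _ _ _ w2' s1
    have b3 := key _ _ _ _ w3 s2
    have b4 := key _ _ _ _ w4 s3
    have t1 := abs_add_le (tr ((H * W * H) * (H * (S - H) * H)) +
        tr ((H * W * (1 - H) - H * g * (1 - H)) * ((1 - H) * S * H)) +
        tr (((1 - H) * W * H - (1 - H) * g * H) * (H * S * (1 - H))))
        (tr (((1 - H) * W * (1 - H)) * ((1 - H) * S * (1 - H))))
    have t2 := abs_add_le (tr ((H * W * H) * (H * (S - H) * H)) +
        tr ((H * W * (1 - H) - H * g * (1 - H)) * ((1 - H) * S * H)))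
        (tr (((1 - H) * W * H - (1 - H) * g * H) * (H * S * (1 - H))))
    have t3 := abs_add_le (tr ((H * W * H) * (H * (S - H) * H)))
        (tr ((H * W * (1 - H) - H * g * (1 - H)) * ((1 - H) * S * H)))
    have c1 : (k:ℝ) * (2 * θ * tau H S) ≤ 2 * (k * EE θ o (tau H S)) := by
      have := mul_le_mul_of_nonneg_left E1 hk; linarith
    have c2 : (k:ℝ) * (2 * (θ * o) * t) ≤ 2 * (k * EE θ o (tau H S)) := by
      have := mul_le_mul_of_nonneg_left E4 hk; linarith
    have c4 : (k:ℝ) * ((θ + 2 * o ^ 2) * tau H S) ≤ 3 * (k * EE θ o (tau H S)) := by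
      have h1 : o ^ 2 * tau H S ≤ o * tau H S := by
        refine mul_le_mul_of_nonneg_right ?_ hτ0
        nlinarith
      have h2 : (θ + 2 * o ^ 2) * tau H S ≤ 3 * EE θ o (tau H S) := by
        have : (θ + 2 * o ^ 2) * tau H S = θ * tau H S + 2 * (o ^ 2 * tau H S) := by ring
        linarith
      have := mul_le_mul_of_nonneg_left h2 hk; linarith
    have c5 : 0 ≤ (k:ℝ) * EE θ o (tau H S) := mul_nonneg hk E0
    linarith
  refine ⟨(1 + Y).det - 1 - ell g H S, ?_, ?_⟩
  · have e : (1 + Y).det - 1 - ell g H S = ((1 + Y).det - 1 - tr Y) + (tr Y - ell g H S) := by ring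
    rw [e]
    refine (abs_add_le _ _).trans ?_
    have : C * ‖Y‖ ^ 2 ≤ C * (128 * EE θ o (tau H S)) := mul_le_mul_of_nonneg_left hY2 hC
    nlinarith
  · rw [hdet]; ring

end

end Crest.Agent.R234.F32_354
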