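import Crest.Agent.R234.F32_354

/-!
# Row 234 (helper354), node F3-MAT, part 2: expansion of the covariant tilt, the main inequality
-/

set_option autoImplicit false

open Crest.GeometryTopology.Submanifold
open Crest.Agent.R234.Vf_884
open scoped InnerProductSpace

noncomputable section

namespace Crest.Agent.R234.F32_354

open Crest.Agent.R234.Fm_281

variable {m k : ℕ}

/-- expansion in a noncommutative ring -/
local macro "nr" : tactic => `(tactic| (simp only [mul_sub, sub_mul, mul_add, add_mul, mul_one,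
  one_mul, mul_assoc, mul_neg, neg_mul] <;> abel))

theorem abs_tr_key {k : ℕ} (A B : L k) (a b : ℝ) (hA : ‖A‖ ≤ a) (hB : ‖B‖ ≤ b) :
    |tr (A * B)| ≤ k * (a * b) :=
  (abs_tr_mul_le A B).trans (mul_le_mul_of_nonneg_left (mul_le_mul hA hB (norm_nonneg _)
    ((norm_nonneg _).trans hA)) (Nat.cast_nonneg _))

theorem aux3 {k : ℕ} {a b c d e : L k} (h1 : a = b - c) (h2 : b = d - e) : a - d = -e - c := by
  rw [h1, h2]; abel

theorem real_sqrt_ratio {D D' l r t o E k : ℝ} (hD : 1 / 4 ≤ D)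
    (hD' : 0 ≤ D') (h : D' = D * (1 + l + r)) (hl : |l| ≤ 2 * k * (o * t)) (hE : 0 ≤ E)
    (hot : o * t * (o * t) ≤ E) {C : ℝ} (hC : 0 ≤ C) (hr : |r| ≤ C * E) {B : ℝ} (hB : E ≤ B) :
    ∃ r', |r'| ≤ (C + (4 * k ^ 2 + C ^ 2 * B)) * E ∧ √D' = √D * (1 + l / 2 + r') := by
  have hD0 : 0 < D := by linarith
  have ha : 0 ≤ 1 + l + r := by
    by_contra hneg
    push Not at hneg
    nlinarith
  set a := 1 + l + r with hadef
  have hs : √D' = √D * √a := by rw [h, Real.sqrt_mul hD0.le]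
  refine ⟨√a - 1 - l / 2, ?_, by rw [hs]; ring⟩
  have hsa : √a * √a = a := Real.mul_self_sqrt ha
  have hs0 : 0 ≤ √a := Real.sqrt_nonneg a
  -- √a - 1 - (a-1)/2 = -(√a - 1)²/2
  have e1 : √a - 1 - l / 2 = r / 2 - (√a - 1) ^ 2 / 2 := by
    have : (√a - 1) ^ 2 = a - 2 * √a + 1 := by nlinarith [hsa]
    rw [this, hadef]; ring
  have e2 : (√a - 1) ^ 2 ≤ (l + r) ^ 2 := by
    have h1 : (√a - 1) * (√a + 1) = l + r := by
      have : (√a - 1) * (√a + 1) = √a * √a - 1 := by ring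
      rw [this, hsa, hadef]; ring
    have h2 : (l + r) ^ 2 = (√a - 1) ^ 2 * (√a + 1) ^ 2 := by rw [← h1]; ring
    rw [h2]
    refine le_mul_of_one_le_right (sq_nonneg _) ?_
    nlinarith
  have e3 : (l + r) ^ 2 ≤ 2 * l ^ 2 + 2 * r ^ 2 := by nlinarith [sq_nonneg (l - r)]
  have e4 : l ^ 2 ≤ 4 * k ^ 2 * E := by
    have h1 : l ^ 2 ≤ (2 * k * (o * t)) ^ 2 := by
      rw [← sq_abs l]
      exact pow_le_pow_left₀ (abs_nonneg _) hl 2
    have h2 : (2 * k * (o * t)) ^ 2 = 4 * k ^ 2 * (o * t * (o * t)) := by ring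
    have h3 : 4 * k ^ 2 * (o * t * (o * t)) ≤ 4 * k ^ 2 * E :=
      mul_le_mul_of_nonneg_left hot (by positivity)
    linarith
  have e5 : r ^ 2 ≤ C ^ 2 * B * E := by
    have h1 : r ^ 2 ≤ (C * E) ^ 2 := by
      rw [← sq_abs r]
      exact pow_le_pow_left₀ (abs_nonneg _) hr 2
    have h2 : (C * E) ^ 2 = C ^ 2 * E * E := by ring
    have h3 : C ^ 2 * E * E ≤ C ^ 2 * B * E :=
      mul_le_mul_of_nonneg_right (mul_le_mul_of_nonneg_left hB (sq_nonneg C)) hE
    linarith
  rw [e1]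
  have h6 : |r / 2 - (√a - 1) ^ 2 / 2| ≤ |r| / 2 + (√a - 1) ^ 2 / 2 := by
    refine (abs_sub _ _).trans ?_
    rw [abs_div, abs_div, abs_two, abs_of_nonneg (sq_nonneg (√a - 1))]
  have h7 : 0 ≤ C * E := mul_nonneg hC hE
  have h8 : (C + (4 * k ^ 2 + C ^ 2 * B)) * E = C * E + 4 * k ^ 2 * E + C ^ 2 * B * E := by ring
  rw [h8]
  linarith

/-- **the area factor**: `Jc g S = Jc g H (1 + ℓ/2 + O(E))` -/
theorem exists_Jc2 (k : ℕ) : ∃ c C : ℝ, 0 < c ∧ c ≤ 1 / 4 ∧ 0 ≤ C ∧
    ∀ (m : ℕ) (H S g : L k) (θ o : ℝ), H ∈ G m k → S ∈ G m k → ‖g‖ ≤ c → Blk H g θ o →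
      θ ≤ 1 → o ≤ 1 →
      ∃ r : ℝ, |r| ≤ C * EE θ o (tau H S) ∧ Jc g S = Jc g H * (1 + ell g H S / 2 + r) := by
  obtain ⟨C, hC, h⟩ := exists_ratio k
  obtain ⟨c, -, hc, hc2, -, hdet, -⟩ := Fm_209.exists_det (Euc k)
  refine ⟨c / 2, C + (4 * k ^ 2 + C ^ 2 * (2 * k + 1)), by linarith, by linarith, by positivity, ?_⟩
  intro m H S g θ o hH hS hg hb hθ1 ho1
  obtain ⟨r, hr, hr2⟩ := h m H S g θ o hH hS (by linarith) hb hθ1 ho1
  have hH' := isStar_of_G hH
  have hS' := isStar_of_G hS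
  have hθ0 := hb.θ_nonneg
  have ho0 := hb.o_nonneg
  have hsq := sq_sqrt_tau hH hS
  have ht0 : 0 ≤ Real.sqrt (tau H S) := Real.sqrt_nonneg _
  have hτ0 := tau_nonneg hH hS
  have hτk := tau_le hH hS
  obtain ⟨E0, E1, E2, E3, E4⟩ := EE_facts hθ0 hθ1 ho0 ht0 hsq
  have d1 := hdet (H * (g * H)) ((norm_conj_le hH').trans (by linarith))
  have d2 := hdet (S * (g * S)) ((norm_conj_le hS').trans (by linarith))
  have hot : o * Real.sqrt (tau H S) * (o * Real.sqrt (tau H S)) ≤ EE θ o (tau H S) := by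
    have e : o * Real.sqrt (tau H S) * (o * Real.sqrt (tau H S)) = o * (o * tau H S) := by
      have e0 : o * Real.sqrt (tau H S) * (o * Real.sqrt (tau H S)) =
        o * (o * (Real.sqrt (tau H S) * Real.sqrt (tau H S))) := by ring
      rw [e0, hsq]
    rw [e]
    have h1 : o * (o * tau H S) ≤ 1 * (o * tau H S) :=
      mul_le_mul_of_nonneg_right ho1 (by positivity)
    linarith
  have hEB : EE θ o (tau H S) ≤ 2 * k + 1 := by
    unfold EE
    have h1 : (θ + o) * tau H S ≤ 2 * k := mul_le_mul (by linarith) hτk hτ0 (by norm_num)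
    nlinarith
  exact real_sqrt_ratio d1.1 (by linarith [d2.1]) hr2
    (abs_ell_le hH hS hb) E0 hot hC hr hEB

set_option maxHeartbeats 1000000 in
/-- **the covariant tilt**: `tNP = tau + ℓ + O(E)` -/
theorem exists_tNP (k : ℕ) : ∃ C : ℝ, 0 ≤ C ∧
    ∀ (m : ℕ) (H S g : L k) (θ o : ℝ), H ∈ G m k → S ∈ G m k → ‖g‖ ≤ 1 / 4 → Blk H g θ o →
      θ ≤ 1 → o ≤ 1 →
      |tNP g H S - tau H S - ell g H S| ≤ C * EE θ o (tau H S) := by
  refine ⟨k * (60 + 20 * k), by positivity, ?_⟩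
  intro m H S g θ o hH hS hg hb hθ1 ho1
  have hH' := isStar_of_G hH
  have hS' := isStar_of_G hS
  have hH1 : ‖H‖ ≤ 1 := hH'.norm_le
  have hN1 : ‖1 - H‖ ≤ 1 := hH'.one_sub.norm_le
  have hS1 : ‖S‖ ≤ 1 := hS'.norm_le
  have hHH : H * H = H := hH'.1
  have hSS : S * S = S := hS'.1
  have hNN : (1 - H) * (1 - H) = 1 - H := hH'.one_sub.1
  have hTT : (1 - S) * (1 - S) = 1 - S := hS'.one_sub.1
  have hθ0 := hb.θ_nonneg
  have ho0 := hb.o_nonneg
  have hsq := sq_sqrt_tau hH hS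
  have hτ0 := tau_nonneg hH hS
  have hτk := tau_le hH hS
  have hg2 : ‖g‖ ≤ 1 / 2 := by linarith
  obtain ⟨s1, s2, s3, s4⟩ := blkS hH hS
  obtain ⟨d1, d2, d3, d4⟩ := Dg_blocks hH hS hg2 hb
  obtain ⟨q1, q2, q3⟩ := Sg_blocks hH hS hg2
  have qn := norm_Sg_le hS' hg2
  obtain ⟨-, -, -, -, -, -, y6, -⟩ := exists_Sg hS' hg2
  obtain ⟨-, -, -, -, -, -, z6, -⟩ := exists_Sg hH'.one_sub hg2
  have zn := norm_Sg_le hH'.one_sub hg2
  set t := Real.sqrt (tau H S) with ht
  have ht0 : 0 ≤ t := Real.sqrt_nonneg _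
  obtain ⟨E0, E1, E2, E3, E4⟩ := EE_facts hθ0 hθ1 ho0 ht0 hsq
  have hk : (0:ℝ) ≤ k := Nat.cast_nonneg _
  have htk : t ≤ 1 + k := by
    by_contra hcon
    push Not at hcon
    have : (1 + k : ℝ) * (1 + k) < t * t := mul_self_lt_mul_self (by linarith) hcon
    nlinarith
  set E := EE θ o (tau H S) with hE
  -- elementary consequences
  have f1 : o * (t * tau H S) ≤ (1 + k) * E := by
    have h1 : t * (o * tau H S) ≤ (1 + k) * (o * tau H S) :=
      mul_le_mul_of_nonneg_right htk (by positivity)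
    have h2 : (1 + k : ℝ) * (o * tau H S) ≤ (1 + k) * E := mul_le_mul_of_nonneg_left E2 (by linarith)
    linarith
  have f2 : o * (θ * (t * tau H S)) ≤ (1 + k) * E := by
    have h1 : θ * (o * (t * tau H S)) ≤ 1 * (o * (t * tau H S)) :=
      mul_le_mul_of_nonneg_right hθ1 (by positivity)
    linarith
  have f3 : o * (o * tau H S) ≤ E := by
    have h1 : o * (o * tau H S) ≤ 1 * (o * tau H S) :=
      mul_le_mul_of_nonneg_right ho1 (by positivity)
    linarith
  -- names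
  set Q := Sg g S with hQ
  set Z := Sg g (1 - H) with hZ
  have vS := Sg_mul_eq hS' hg2
  have vV := Sg_mul_eq hH'.one_sub hg2
  rw [← hQ] at vS
  rw [← hZ] at vV
  have hDV : Dg g (1 - H) = Z * g * H := by
    unfold Dg
    rw [sub_sub_cancel]
  have hZl : (1 - H) * Z = Z := Sg_left hH'.one_sub
  have hZr : Z * (1 - H) = Z := Sg_right hH'.one_sub
  -- (i)
  have hi : |tr ((1 - H) * Dg g S) - tr ((H * g * (1 - H)) * ((1 - H) * S * H))| ≤
      k * ((16 + 6 * k) * E) := by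
    set A := (1 - S) * (1 - H) * Q with hA
    have e1 : tr ((1 - H) * Dg g S) = tr (A * g) := by
      have e0 : (1 - H) * Dg g S = ((1 - H) * Q * g) * (1 - S) := by
        unfold Dg; rw [← hQ]; simp only [mul_assoc]
      rw [e0, tr_mul_comm]
      rw [hA]; simp only [mul_assoc]
    have e2 := tr_blocks hH' A g
    have hNH : (1 - H) * H = 0 := by rw [sub_mul, one_mul, hHH, sub_self]
    have hHN : H * (1 - H) = 0 := by rw [mul_sub, mul_one, hHH, sub_self]
    have hTn : ‖H * (1 - S) * (1 - H)‖ ≤ t := by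
      have : H * (1 - S) * (1 - H) = -(H * S * (1 - H)) := by
        have e : H * (1 - S) * (1 - H) = H * (1 - H) - H * S * (1 - H) := by nr
        rw [e, hHN, zero_sub]
      rw [this, norm_neg]; exact s2
    have a1 : H * A * H = (H * (1 - S) * (1 - H)) * ((1 - H) * Q * H) := by
      have : (H * (1 - S) * (1 - H)) * ((1 - H) * Q * H) =
          H * (1 - S) * ((1 - H) * (1 - H)) * Q * H := by simp only [mul_assoc]
      rw [this, hNN, hA]; simp only [mul_assoc]
    have a2 : H * A * (1 - H) = (H * (1 - S) * (1 - H)) * ((1 - H) * Q * (1 - H)) := by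
      have : (H * (1 - S) * (1 - H)) * ((1 - H) * Q * (1 - H)) =
          H * (1 - S) * ((1 - H) * (1 - H)) * Q * (1 - H) := by simp only [mul_assoc]
      rw [this, hNN, hA]; simp only [mul_assoc]
    have a4 : (1 - H) * A * (1 - H) = ((1 - H) * (1 - S) * (1 - H)) * ((1 - H) * Q * (1 - H)) := by
      have : ((1 - H) * (1 - S) * (1 - H)) * ((1 - H) * Q * (1 - H)) =
          (1 - H) * (1 - S) * ((1 - H) * (1 - H)) * Q * (1 - H) := by simp only [mul_assoc]
      rw [this, hNN, hA]; simp only [mul_assoc]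
    have qNH : ‖(1 - H) * Q * H‖ ≤ 2 * t := by
      have := nm2 q1 hH1; linarith
    have qHH : ‖H * Q * H‖ ≤ 2 := by
      have := nm3 hH1 qn hH1; linarith
    have n1 : ‖H * A * H‖ ≤ 2 * tau H S := by
      rw [a1]
      have := nm2 hTn qNH
      have e : t * (2 * t) = 2 * tau H S := by rw [← hsq]; ring
      rwa [e] at this
    have n2 : ‖H * A * (1 - H)‖ ≤ 2 * (t * tau H S) := by
      rw [a2]
      have := nm2 hTn q3
      linarith
    have n4 : ‖(1 - H) * A * (1 - H)‖ ≤ 2 * tau H S := by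
      rw [a4]
      have h1 : ‖(1 - H) * (1 - S) * (1 - H)‖ ≤ 1 := by
        have := nm3 hN1 hS'.one_sub.norm_le hN1; linarith
      have := nm2 h1 q3
      linarith
    have n3 : ‖(1 - H) * A * H - (1 - H) * S * H‖ ≤
        2 * (θ * t) + 4 * (o * tau H S) + 2 * (θ * (t * tau H S)) + 2 * (t * tau H S) := by
      have e3 : (1 - H) * A * H = (1 - H) * Q * H - ((1 - H) * S * (1 - H)) * ((1 - H) * Q * H) := by
        have g1 : (1 - H) * A * H = ((1 - H) * (1 - H)) * Q * H - (1 - H) * S * (1 - H) * Q * H := by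
          rw [hA]; nr
        have g2 : ((1 - H) * S * (1 - H)) * ((1 - H) * Q * H) =
            (1 - H) * S * ((1 - H) * (1 - H)) * Q * H := by simp only [mul_assoc]
        rw [g1, g2, hNN]
      have e4 : (1 - H) * Q * H = (1 - H) * S * H - ((1 - H) * S) * g * (Q * H) := by
        conv_lhs => rw [y6]
        nr
      have e5 : (1 - H) * A * H - (1 - H) * S * H =
          -(((1 - H) * S) * g * (Q * H)) - ((1 - H) * S * (1 - H)) * ((1 - H) * Q * H) := by
        exact aux3 e3 e4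
      rw [e5, split4 hH' ((1 - H) * S) g (Q * H)]
      have g1 : H * (Q * H) = H * Q * H := by rw [mul_assoc]
      have g2 : (1 - H) * (Q * H) = (1 - H) * Q * H := by rw [mul_assoc]
      rw [g1, g2]
      have b1 := nm3 s1 hb.hh qHH
      have b2 := nm3 s1 hb.hv qNH
      have b3 := nm3 s3 hb.vh qHH
      have b4 := nm3 s3 hb.vv qNH
      have b5 := nm2 s3 qNH
      have c1 := norm_sub_le (-((1 - H) * S * H * (H * g * H) * (H * Q * H) +
        (1 - H) * S * H * (H * g * (1 - H)) * ((1 - H) * Q * H) +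
        (1 - H) * S * (1 - H) * ((1 - H) * g * H) * (H * Q * H) +
        (1 - H) * S * (1 - H) * ((1 - H) * g * (1 - H)) * ((1 - H) * Q * H)))
        ((1 - H) * S * (1 - H) * ((1 - H) * Q * H))
      have c2 := norm_add_le ((1 - H) * S * H * (H * g * H) * (H * Q * H) +
        (1 - H) * S * H * (H * g * (1 - H)) * ((1 - H) * Q * H) +
        (1 - H) * S * (1 - H) * ((1 - H) * g * H) * (H * Q * H))
        ((1 - H) * S * (1 - H) * ((1 - H) * g * (1 - H)) * ((1 - H) * Q * H))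
      have c3 := norm_add₃_le (a := (1 - H) * S * H * (H * g * H) * (H * Q * H))
        (b := (1 - H) * S * H * (H * g * (1 - H)) * ((1 - H) * Q * H))
        (c := (1 - H) * S * (1 - H) * ((1 - H) * g * H) * (H * Q * H))
      rw [norm_neg] at c1
      have r2 : t * o * (2 * t) = 2 * (o * tau H S) := by rw [← hsq]; ring
      rw [r2] at b2
      linarith
    have k1 := abs_tr_key _ _ _ _ n1 hb.hh
    have k2 := abs_tr_key _ _ _ _ n2 hb.vh
    have k3 := abs_tr_key _ _ _ _ n3 hb.hv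
    have k4 := abs_tr_key _ _ _ _ n4 hb.vv
    have e6 : tr ((1 - H) * Dg g S) - tr ((H * g * (1 - H)) * ((1 - H) * S * H)) =
        tr ((H * A * H) * (H * g * H)) + tr ((H * A * (1 - H)) * ((1 - H) * g * H)) +
        tr (((1 - H) * A * H - (1 - H) * S * H) * (H * g * (1 - H))) +
        tr (((1 - H) * A * (1 - H)) * ((1 - H) * g * (1 - H))) := by
      rw [e1, e2, tr_mul_comm (H * g * (1 - H)), tr_sub_mul]; ring
    rw [e6]
    have t1 := abs_add_le (tr ((H * A * H) * (H * g * H)) +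
        tr ((H * A * (1 - H)) * ((1 - H) * g * H)) +
        tr (((1 - H) * A * H - (1 - H) * S * H) * (H * g * (1 - H))))
        (tr (((1 - H) * A * (1 - H)) * ((1 - H) * g * (1 - H))))
    have t2 := abs_add_three (tr ((H * A * H) * (H * g * H)))
        (tr ((H * A * (1 - H)) * ((1 - H) * g * H)))
        (tr (((1 - H) * A * H - (1 - H) * S * H) * (H * g * (1 - H))))
    have hsum : 2 * tau H S * θ + 2 * (t * tau H S) * o + (2 * (θ * t) + 4 * (o * tau H S) +
        2 * (θ * (t * tau H S)) + 2 * (t * tau H S)) * o + 2 * tau H S * θ ≤ (16 + 6 * k) * E := by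
      have e : 2 * tau H S * θ + 2 * (t * tau H S) * o + (2 * (θ * t) + 4 * (o * tau H S) +
        2 * (θ * (t * tau H S)) + 2 * (t * tau H S)) * o + 2 * tau H S * θ =
        4 * (θ * tau H S) + 4 * (o * (t * tau H S)) + 2 * (θ * o * t) + 4 * (o * (o * tau H S)) +
          2 * (o * (θ * (t * tau H S))) := by ring
      rw [e]
      have : (16 + 6 * k) * E = 16 * E + 6 * (k * E) := by ring
      have e7 : (1 + (k:ℝ)) * E = E + k * E := by ring
      rw [e7] at f1 f2
      linarith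
    have := mul_le_mul_of_nonneg_left hsum hk
    linarith
  -- (ii)
  have hii : |tr (Dg g (1 - H) * S) - tr (((1 - H) * g * H) * (H * S * (1 - H)))| ≤
      k * (2 * E) := by
    have hZe : Dg g (1 - H) * S = Z * (((1 - H) * g * H) * (H * S)) := by
      rw [hDV]
      have : Z * (((1 - H) * g * H) * (H * S)) = (Z * (1 - H)) * g * (H * H) * S := by
        simp only [mul_assoc]
      rw [this, hZr, hHH]
    have e1 : tr (Dg g (1 - H) * S) = tr (Z * (((1 - H) * g * H) * (H * S * (1 - H)))) := by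
      rw [hZe]
      conv_lhs => rw [← hZl]
      rw [mul_assoc, tr_mul_comm]
      simp only [mul_assoc]
    have e2 : Z * (((1 - H) * g * H) * (H * S * (1 - H))) =
        ((1 - H) * g * H) * (H * S * (1 - H)) -
          ((1 - H) * g * (1 - H) * Z) * (((1 - H) * g * H) * (H * S * (1 - H))) := by
      have g1 : Z = (1 - H) - (1 - H) * g * (1 - H) * Z := by
        rw [mul_assoc ((1 - H) * g), hZl]; exact z6
      have g2 : (1 - H) * (((1 - H) * g * H) * (H * S * (1 - H))) =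
          ((1 - H) * g * H) * (H * S * (1 - H)) := by
        have : (1 - H) * (((1 - H) * g * H) * (H * S * (1 - H))) =
          (((1 - H) * (1 - H)) * g * H) * (H * S * (1 - H)) := by simp only [mul_assoc]
        rw [this, hNN]
      conv_lhs => rw [g1]
      rw [sub_mul, g2]
    rw [e1, e2, map_sub]
    have b1 := nm2 hb.vv zn
    have b2 := nm2 hb.vh s2
    have b3 := abs_tr_key _ _ _ _ b1 b2
    have e3 : ∀ a b : ℝ, |a - b - a| = |b| := fun a b => by
      rw [show a - b - a = -b by ring, abs_neg]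
    rw [e3]
    refine b3.trans (mul_le_mul_of_nonneg_left ?_ hk)
    have : θ * 2 * (o * t) = 2 * (θ * o * t) := by ring
    linarith
  -- (iii)
  have hiii : |tr (Dg g (1 - H) * Dg g S)| ≤ k * (16 * E) := by
    have e0 : Dg g (1 - H) = (1 - H) * Dg g (1 - H) * H := by
      rw [hDV]
      have : (1 - H) * (Z * g * H) * H = ((1 - H) * Z) * g * (H * H) := by simp only [mul_assoc]
      rw [this, hZl, hHH]
    have e1 : tr (Dg g (1 - H) * Dg g S) = tr (Dg g (1 - H) * (H * Dg g S * (1 - H))) := by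
      conv_lhs => rw [e0]
      have e2 : (1 - H) * Dg g (1 - H) * H * Dg g S = (1 - H) * (Dg g (1 - H) * (H * Dg g S)) := by
        simp only [mul_assoc]
      rw [e2, tr_mul_comm]
      simp only [mul_assoc]
    have b1 : ‖Dg g (1 - H)‖ ≤ 2 * o := by
      rw [hDV]
      have e2 : Z * g * H = Z * ((1 - H) * g * H) := by
        have : Z * ((1 - H) * g * H) = (Z * (1 - H)) * g * H := by simp only [mul_assoc]
        rw [this, hZr]
      rw [e2]
      exact nm2 zn hb.vh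
    rw [e1]
    have b3 := abs_tr_key _ _ _ _ b1 d2
    refine b3.trans (mul_le_mul_of_nonneg_left ?_ hk)
    have : 2 * o * (4 * (θ * t + o)) = 8 * (θ * o * t) + 8 * o ^ 2 := by ring
    linarith
  have htot : tNP g H S - tau H S - ell g H S =
      (tr ((1 - H) * Dg g S) - tr ((H * g * (1 - H)) * ((1 - H) * S * H))) +
      (tr (Dg g (1 - H) * S) - tr (((1 - H) * g * H) * (H * S * (1 - H)))) +
      tr (Dg g (1 - H) * Dg g S) := by
    unfold tNP ell tau
    rw [← hQ, ← hZ, vS, vV]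
    have : ((1 - H) + Dg g (1 - H)) * (S + Dg g S) = (1 - H) * S + (1 - H) * Dg g S +
        Dg g (1 - H) * S + Dg g (1 - H) * Dg g S := by
      rw [add_mul, mul_add, mul_add, ← add_assoc]
    rw [this, map_add, map_add, map_add]
    ring
  rw [htot]
  refine (abs_add_three _ _ _).trans ?_
  have hkE : 0 ≤ (k:ℝ) * E := mul_nonneg hk E0
  have hkkE : 0 ≤ (k:ℝ) * (k * E) := mul_nonneg hk hkE
  have e1 : (k:ℝ) * ((16 + 6 * k) * E) = 16 * (k * E) + 6 * (k * (k * E)) := by ring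
  have e2 : (k:ℝ) * (60 + 20 * k) * E = 60 * (k * E) + 20 * (k * (k * E)) := by ring
  rw [e1] at hi
  rw [e2]
  linarith

/-- **F3-MAT**: the main inequality -/
theorem exists_mat (k : ℕ) : ∃ c C : ℝ, 0 < c ∧ c ≤ 1 / 4 ∧ 0 ≤ C ∧
    ∀ (m : ℕ) (H S g : L k) (θ o : ℝ), H ∈ G m k → S ∈ G m k → ‖g‖ ≤ c → Blk H g θ o →
      θ ≤ 1 → o ≤ 1 →
      |Jc g S * (1 - tNP g H S / 2) - Jc g H * (1 - tau H S / 2)| ≤ C * EE θ o (tau H S) ∧
      |tNP g H S - tau H S| ≤ C * (EE θ o (tau H S) + o * Real.sqrt (tau H S)) ∧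
      1 / 2 ≤ Jc g S ∧ Jc g S ≤ 2 := by
  obtain ⟨c, C1, hc, hc4, hC1, h1⟩ := exists_Jc2 k
  obtain ⟨C2, hC2, h2⟩ := exists_tNP k
  obtain ⟨c', -, hc', -, -, hdet, -⟩ := Fm_209.exists_det (Euc k)
  have hk : (0:ℝ) ≤ k := Nat.cast_nonneg k
  refine ⟨min c c', max (2 * (C2 + k * (1 + k) + 2 * k ^ 2 + k * (1 + k) * C2 +
    C1 * (1 + k + k * (1 + k) + C2 * (2 * k + 1)))) (C2 + 2 * k), lt_min hc hc',
    (min_le_left _ _).trans hc4, le_max_of_le_right (by positivity), ?_⟩
  intro m H S g θ o hH hS hg hb hθ1 ho1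
  have hgc : ‖g‖ ≤ c := hg.trans (min_le_left _ _)
  have hgc' : ‖g‖ ≤ c' := hg.trans (min_le_right _ _)
  obtain ⟨r2, hr2, hJ⟩ := h1 m H S g θ o hH hS hgc hb hθ1 ho1
  have hr3 := h2 m H S g θ o hH hS (hgc.trans hc4) hb hθ1 ho1
  have hell := abs_ell_le hH hS hb
  have hH' := isStar_of_G hH
  have hS' := isStar_of_G hS
  have hθ0 := hb.θ_nonneg
  have ho0 := hb.o_nonneg
  have hsq := sq_sqrt_tau hH hS
  have hτ0 := tau_nonneg hH hS
  have hτk := tau_le hH hS
  have jac : ∀ T : L k, IsStarProjection T → 1 / 2 ≤ Jc g T ∧ Jc g T ≤ 2 := by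
    intro T hT
    obtain ⟨j1, j2⟩ := hdet (T * (g * T)) ((norm_conj_le hT).trans hgc')
    unfold Jc
    constructor
    · rw [show (1:ℝ) / 2 = Real.sqrt (1 / 4) by
        rw [show (1:ℝ) / 4 = (1 / 2) ^ 2 by norm_num, Real.sqrt_sq (by norm_num)]]
      exact Real.sqrt_le_sqrt j1
    · rw [show (2:ℝ) = Real.sqrt 4 by
        rw [show (4:ℝ) = 2 ^ 2 by norm_num, Real.sqrt_sq (by norm_num)]]
      exact Real.sqrt_le_sqrt j2
  obtain ⟨jS1, jS2⟩ := jac S hS'
  obtain ⟨jH1, jH2⟩ := jac H hH'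
  set t := Real.sqrt (tau H S) with ht
  have ht0 : 0 ≤ t := Real.sqrt_nonneg _
  obtain ⟨E0, E1, E2, E3, E4⟩ := EE_facts hθ0 hθ1 ho0 ht0 hsq
  have htk : t ≤ 1 + k := by
    by_contra hcon
    push Not at hcon
    have : (1 + k : ℝ) * (1 + k) < t * t := mul_self_lt_mul_self (by linarith) hcon
    nlinarith
  have hEB : EE θ o (tau H S) ≤ 2 * k + 1 := by
    unfold EE
    have h1 : (θ + o) * tau H S ≤ 2 * k := mul_le_mul (by linarith) hτk hτ0 (by norm_num)
    nlinarith
  have hot : o * t ≤ 1 + k := by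
    have := mul_le_mul ho1 htk ht0 zero_le_one
    linarith
  have hott : o * (t * tau H S) ≤ (1 + k) * EE θ o (tau H S) := by
    have h1 : t * (o * tau H S) ≤ (1 + k) * (o * tau H S) :=
      mul_le_mul_of_nonneg_right htk (by positivity)
    have h2 : (1 + k : ℝ) * (o * tau H S) ≤ (1 + k) * EE θ o (tau H S) :=
      mul_le_mul_of_nonneg_left E2 (by linarith)
    linarith
  have hot2 : (o * t) ^ 2 ≤ EE θ o (tau H S) := by
    have e : (o * t) ^ 2 = o * (o * (t * t)) := by ring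
    rw [e, hsq]
    have h1 : o * (o * tau H S) ≤ 1 * (o * tau H S) :=
      mul_le_mul_of_nonneg_right ho1 (by positivity)
    linarith
  set E := EE θ o (tau H S) with hE
  set a := ell g H S with ha
  set r3 := tNP g H S - tau H S - a with hr3d
  have htN : tNP g H S = tau H S + a + r3 := by rw [hr3d]; ring
  refine ⟨?_, ?_, jS1, jS2⟩
  · have e1 : Jc g S * (1 - tNP g H S / 2) - Jc g H * (1 - tau H S / 2) =
        Jc g H * (-(r3 / 2) - a * tau H S / 4 - a ^ 2 / 4 - a * r3 / 4 +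
          r2 * (1 - tau H S / 2 - a / 2 - r3 / 2)) := by
      rw [hJ, htN]; ring
    rw [e1, abs_mul, abs_of_nonneg (by linarith : (0:ℝ) ≤ Jc g H)]
    have b1 : |a * tau H S| ≤ 2 * k * ((1 + k) * E) := by
      rw [abs_mul, abs_of_nonneg hτ0]
      have h1 : |a| * tau H S ≤ 2 * k * (o * t) * tau H S := mul_le_mul_of_nonneg_right hell hτ0
      have h2 : 2 * k * (o * t) * tau H S = 2 * k * (o * (t * tau H S)) := by ring
      have h3 : 2 * (k:ℝ) * (o * (t * tau H S)) ≤ 2 * k * ((1 + k) * E) :=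
        mul_le_mul_of_nonneg_left hott (by positivity)
      linarith
    have b2 : a ^ 2 ≤ 4 * k ^ 2 * E := by
      have h1 : a ^ 2 ≤ (2 * k * (o * t)) ^ 2 := by
        rw [← sq_abs a]
        exact pow_le_pow_left₀ (abs_nonneg _) hell 2
      have h2 : (2 * k * (o * t)) ^ 2 = 4 * k ^ 2 * (o * t) ^ 2 := by ring
      have h3 : 4 * (k:ℝ) ^ 2 * (o * t) ^ 2 ≤ 4 * k ^ 2 * E :=
        mul_le_mul_of_nonneg_left hot2 (by positivity)
      linarith
    have ha1 : |a| ≤ 2 * k * (1 + k) := by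
      have : 2 * (k:ℝ) * (o * t) ≤ 2 * k * (1 + k) := mul_le_mul_of_nonneg_left hot (by positivity)
      linarith
    have b3 : |a * r3| ≤ 2 * k * (1 + k) * (C2 * E) := by
      rw [abs_mul]
      exact mul_le_mul ha1 hr3 (abs_nonneg _) (by positivity)
    have b4 : |r2 * (1 - tau H S / 2 - a / 2 - r3 / 2)| ≤
        C1 * E * (1 + k + k * (1 + k) + C2 * (2 * k + 1)) := by
      rw [abs_mul]
      refine mul_le_mul hr2 ?_ (abs_nonneg _) (by positivity)
      have h1 : |r3| ≤ C2 * (2 * k + 1) := hr3.trans (mul_le_mul_of_nonneg_left hEB hC2)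
      have h2 : |1 - tau H S / 2 - a / 2 - r3 / 2| ≤ 1 + tau H S / 2 + |a| / 2 + |r3| / 2 := by
        rw [abs_le]
        constructor <;>
          linarith [abs_le.1 (le_refl |a|), abs_le.1 (le_refl |r3|), neg_abs_le a, le_abs_self a,
            neg_abs_le r3, le_abs_self r3]
      have h3 : 0 ≤ C2 * (2 * (k:ℝ) + 1) := by positivity
      linarith
    have hin : |-(r3 / 2) - a * tau H S / 4 - a ^ 2 / 4 - a * r3 / 4 +
          r2 * (1 - tau H S / 2 - a / 2 - r3 / 2)| ≤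
        (C2 + k * (1 + k) + 2 * k ^ 2 + k * (1 + k) * C2 +
          C1 * (1 + k + k * (1 + k) + C2 * (2 * k + 1))) * E := by
      have h2 : |-(r3 / 2) - a * tau H S / 4 - a ^ 2 / 4 - a * r3 / 4 +
          r2 * (1 - tau H S / 2 - a / 2 - r3 / 2)| ≤ |r3| / 2 + |a * tau H S| / 4 + a ^ 2 / 4 +
          |a * r3| / 4 + |r2 * (1 - tau H S / 2 - a / 2 - r3 / 2)| := by
        rw [abs_le]
        constructor <;>
          linarith [neg_abs_le r3, le_abs_self r3, neg_abs_le (a * tau H S),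
            le_abs_self (a * tau H S), neg_abs_le (a * r3), le_abs_self (a * r3),
            neg_abs_le (r2 * (1 - tau H S / 2 - a / 2 - r3 / 2)),
            le_abs_self (r2 * (1 - tau H S / 2 - a / 2 - r3 / 2)), sq_nonneg a]
      have e2 : (C2 + k * (1 + k) + 2 * k ^ 2 + k * (1 + k) * C2 +
          C1 * (1 + k + k * (1 + k) + C2 * (2 * k + 1))) * E = C2 * E + k * ((1 + k) * E) +
          2 * k ^ 2 * E + k * (1 + k) * (C2 * E) +
          C1 * E * (1 + k + k * (1 + k) + C2 * (2 * k + 1)) := by ring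
      rw [e2]
      have p1 : 0 ≤ C2 * E := mul_nonneg hC2 E0
      have p2 : 0 ≤ (k:ℝ) * ((1 + k) * E) := by positivity
      have p3 : 0 ≤ (k:ℝ) ^ 2 * E := by positivity
      have p4 : 0 ≤ (k:ℝ) * (1 + k) * (C2 * E) := by positivity
      linarith
    have hfin := mul_le_mul jH2 hin (abs_nonneg _) (by norm_num)
    refine hfin.trans ?_
    have := mul_le_mul_of_nonneg_right (le_max_left (2 * (C2 + k * (1 + k) + 2 * k ^ 2 +
      k * (1 + k) * C2 + C1 * (1 + k + k * (1 + k) + C2 * (2 * k + 1)))) (C2 + 2 * (k:ℝ))) E0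
    linarith
  · have e1 : tNP g H S - tau H S = a + r3 := by rw [hr3d]; ring
    rw [e1]
    have h1 : |a + r3| ≤ 2 * k * (o * t) + C2 * E := (abs_add_le _ _).trans (add_le_add hell hr3)
    refine h1.trans ?_
    have hot0 : 0 ≤ o * t := by positivity
    have h2 : (C2 + 2 * k) * (E + o * t) ≤ max (2 * (C2 + k * (1 + k) + 2 * k ^ 2 +
      k * (1 + k) * C2 + C1 * (1 + k + k * (1 + k) + C2 * (2 * k + 1)))) (C2 + 2 * (k:ℝ)) *
        (E + o * t) := mul_le_mul_of_nonneg_right (le_max_right _ _) (by linarith)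
    refine le_trans ?_ h2
    have h3 : 0 ≤ C2 * (o * t) := mul_nonneg hC2 hot0
    have h4 : 0 ≤ 2 * (k:ℝ) * E := by positivity
    linarith

end Crest.Agent.R234.F32_354
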