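import Crest.Agent.R234.Fm5_281

/-!
# Row 234, VF-FERMI (helper281), file 6: use of minimality

`tr ((1 + P† P)⁻¹ h) = 0` and its derivative: the area factor of the horizontal plane in the chart is
`√det (1 + P† P) (1 + O(|y|²))`, with the corresponding bound for the derivative.
-/

set_option autoImplicit false

open Crest.GeometryTopology.Submanifold
open Crest.Agent.R234.Vf_884
open scoped InnerProductSpace

noncomputable section

namespace Crest.Agent.R234.Fm_281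

variable {m k : ℕ}

/-- the data of the chart at one point -/
structure Pt (m : ℕ) (H P P1 h h1 : L k) (l y ξ η : ℝ) : Prop where
  hH : H ∈ G m k
  l0 : 0 ≤ l
  y0 : 0 ≤ y
  y1 : y ≤ 1
  ξ0 : 0 ≤ ξ
  η0 : 0 ≤ η
  hP : HV H P
  hP1 : HV H P1
  hh : HH H h
  hh1 : HH H h1
  nP : ‖P‖ ≤ l
  nP1 : ‖P1‖ ≤ l * ξ
  nh : ‖h‖ ≤ l * y
  nh1 : ‖h1‖ ≤ l * η + l * y * ξ
  min0 : tr (Ring.inverse (1 + star P * P) * h) = 0
  min1 : tr (Ring.inverse (1 + star P * P) * h1) =
    tr (Ring.inverse (1 + star P * P) * (star P1 * P + star P * P1) *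
      (Ring.inverse (1 + star P * P) * h))

theorem abs_sqrt_sub_one_le {b : ℝ} (hb : 0 ≤ b) : |Real.sqrt b - 1| ≤ |b - 1| := by
  have h1 : b - 1 = (Real.sqrt b - 1) * (Real.sqrt b + 1) := by
    have := Real.mul_self_sqrt hb
    linear_combination (-1 : ℝ) * this
  rw [h1, abs_mul]
  refine le_mul_of_one_le_right (abs_nonneg _) ?_
  have := Real.sqrt_nonneg b
  rw [abs_of_nonneg (by linarith)]
  linarith

section Min

variable {H P P1 h h1 : L k} {l y ξ η : ℝ}

/-- `H γ H + 1` -/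
theorem one_add_hgh (D : Pt m H P P1 h h1 l y ξ η) :
    1 + H * (gm P h * H) = (1 + star P * P) + (-h - h + h * h) := by
  have := gm_hh (isStar_of_G D.hH) D.hP D.hh
  rw [mul_assoc] at this
  rw [this]
  abel

theorem norm_PP (D : Pt m H P P1 h h1 l y ξ η) : ‖star P * P‖ ≤ l * l :=
  nm2 (by rw [norm_star']; exact D.nP) D.nP

theorem norm_kk (D : Pt m H P P1 h h1 l y ξ η) (hl : l ≤ 1) :
    ‖-h - h + h * h‖ ≤ 3 * (l * y) := by
  have h1 := nm2 D.nh D.nh
  have h2 := norm_add_le (-h - h) (h * h)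
  have h3 := norm_sub_le (-h) h
  rw [norm_neg] at h3
  have h4 : l * y ≤ 1 := by
    have := mul_le_mul hl D.y1 D.y0 zero_le_one
    linarith
  have h5 : 0 ≤ l * y := mul_nonneg D.l0 D.y0
  have h6 := D.nh
  nlinarith

theorem norm_hgh (D : Pt m H P P1 h h1 l y ξ η) (hl : l ≤ 1) :
    ‖H * (gm P h * H)‖ ≤ 4 * l := by
  have e : H * (gm P h * H) = star P * P + (-h - h + h * h) := by
    have := one_add_hgh D
    have e1 : H * (gm P h * H) = (1 + H * (gm P h * H)) - 1 := by abel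
    rw [e1, this]; abel
  rw [e]
  have h1 := norm_add_le (star P * P) (-h - h + h * h)
  have h2 := norm_PP D
  have h3 := norm_kk D hl
  have h4 : l * l ≤ l * 1 := mul_le_mul_of_nonneg_left hl D.l0
  have h5 : l * y ≤ l * 1 := mul_le_mul_of_nonneg_left D.y1 D.l0
  linarith

set_option maxHeartbeats 1600000 in
/-- the area factor of the horizontal plane -/
theorem exists_JH (k : ℕ) : ∃ c C : ℝ, 0 < c ∧ c ≤ 1 / 8 ∧ 0 ≤ C ∧
    ∀ (m : ℕ) (H P P1 h h1 : L k) (l y ξ η : ℝ), Pt m H P P1 h h1 l y ξ η → l ≤ c →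
      1 / 2 ≤ Real.sqrt (1 + star P * P).det ∧ Real.sqrt (1 + star P * P).det ≤ 2 ∧
      0 < (1 + star P * P).det ∧
      |Jc (gm P h) H - Real.sqrt (1 + star P * P).det| ≤ C * (l ^ 2 * y ^ 2) ∧
      |1 / 2 * Jc (gm P h) H * tr (Sg (gm P h) H * dgm P P1 h h1) -
        1 / 2 * Real.sqrt (1 + star P * P).det *
          tr (Ring.inverse (1 + star P * P) * (star P1 * P + star P * P1))| ≤
        C * (l ^ 2 * (y * η + y ^ 2 * ξ)) := by
  obtain ⟨c, C0, hc, hc2, hC0, hdet, -⟩ := Fm_209.exists_det (Euc k)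
  obtain ⟨CT, hCT, hT⟩ := exists_taylor k
  refine ⟨c / 4, 2 * (2 * k + 36 * CT) * (1 + 2 * k) + 492 * k, by positivity, by linarith,
    by positivity, ?_⟩
  intro m H P P1 h h1 l y ξ η D hl
  have hH := isStar_of_G D.hH
  have hk : (0:ℝ) ≤ k := Nat.cast_nonneg _
  have l0 := D.l0
  have y0 := D.y0
  have y1 := D.y1
  have ξ0 := D.ξ0
  have η0 := D.η0
  have hl1 : l ≤ 1 := by linarith
  have hPP := norm_PP D
  have hll : l * l ≤ l * 1 := mul_le_mul_of_nonneg_left hl1 l0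
  have hly : l * y ≤ l * 1 := mul_le_mul_of_nonneg_left y1 l0
  have hly0 : 0 ≤ l * y := mul_nonneg l0 y0
  obtain ⟨d1, d2⟩ := hdet (star P * P) (by linarith)
  have hs1 : 1 / 2 ≤ Real.sqrt (1 + star P * P).det := by
    rw [show (1:ℝ) / 2 = Real.sqrt (1 / 4) by
      rw [show (1:ℝ) / 4 = (1 / 2) ^ 2 by norm_num, Real.sqrt_sq (by norm_num)]]
    exact Real.sqrt_le_sqrt d1
  have hs2 : Real.sqrt (1 + star P * P).det ≤ 2 := by
    rw [show (2:ℝ) = Real.sqrt 4 by
      rw [show (4:ℝ) = 2 ^ 2 by norm_num, Real.sqrt_sq (by norm_num)]]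
    exact Real.sqrt_le_sqrt d2
  have hdp : 0 < (1 + star P * P).det := by linarith
  obtain ⟨X, x1, x2, x3, x4⟩ := Fm_209.exists_inv (A := star P * P) (by linarith)
  have hg := norm_hgh D hl1
  obtain ⟨X2, w1, w2, w3, w4⟩ := Fm_209.exists_inv (A := H * (gm P h * H)) (by linarith)
  have hkk := norm_kk D hl1
  have hsum := one_add_hgh D
  have hmin0 := D.min0
  have hmin1 := D.min1
  rw [x4] at hmin0 hmin1 ⊢
  set gP := 1 + star P * P with hgP
  set kk := -h - h + h * h with hkk'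
  set g0 := Real.sqrt gP.det with hg0
  set g' := star P1 * P + star P * P1 with hg'
  set a := l * y with ha
  set b := l * η + l * y * ξ with hb
  have hb0 : 0 ≤ b := by positivity
  have ha1 : a ≤ 1 := by linarith
  have nh := D.nh
  have nh1 := D.nh1
  -- the determinant
  have hfac : gP + kk = gP * (1 + X * kk) := by
    rw [mul_add, mul_one, ← mul_assoc, x2, one_mul]
  have hJH : Jc (gm P h) H = g0 * Real.sqrt (1 + X * kk).det := by
    unfold Jc
    rw [hsum, hfac, det_mulL, Real.sqrt_mul hdp.le]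
  have hXk : ‖X * kk‖ ≤ 6 * a := by
    have := nm2 x3 hkk; linarith
  have htrk : tr (X * kk) = tr (X * (h * h)) := by
    have e : X * kk = X * (h * h) - X * h - X * h := by
      rw [hkk', mul_add, mul_sub, mul_neg]; abel
    rw [e, map_sub, map_sub, hmin0, sub_zero, sub_zero]
  have htr1 : |tr (X * kk)| ≤ k * (2 * (a * a)) := by
    rw [htrk]
    refine (abs_tr_le _).trans (mul_le_mul_of_nonneg_left ?_ hk)
    exact nm2 x3 (nm2 nh nh)
  have hT1 := hT (X * kk) (by linarith)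
  have hXk2 : ‖X * kk‖ ^ 2 ≤ (6 * a) ^ 2 := pow_le_pow_left₀ (norm_nonneg _) hXk 2
  have hb1 : |(1 + X * kk).det - 1| ≤ (2 * k + 36 * CT) * (l ^ 2 * y ^ 2) := by
    have e1 : |(1 + X * kk).det - 1| ≤ |(1 + X * kk).det - 1 - tr (X * kk)| + |tr (X * kk)| := by
      have := abs_add_le ((1 + X * kk).det - 1 - tr (X * kk)) (tr (X * kk))
      rwa [sub_add_cancel] at this
    have e2 : CT * ‖X * kk‖ ^ 2 ≤ CT * (6 * a) ^ 2 := mul_le_mul_of_nonneg_left hXk2 hCT
    have e3 : CT * (6 * a) ^ 2 + k * (2 * (a * a)) = (2 * k + 36 * CT) * (l ^ 2 * y ^ 2) := by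
      rw [ha]; ring
    linarith
  have hdpos : 0 ≤ (1 + X * kk).det := by
    have e1 : gP.det * (1 + X * kk).det = (1 + H * (gm P h * H)).det := by
      rw [hsum, hfac, det_mulL]
    have e2 := (hdet (H * (gm P h * H)) (by linarith)).1
    rw [← e1] at e2
    by_contra hcon
    push Not at hcon
    have := mul_neg_of_pos_of_neg hdp hcon
    linarith
  have hJg : |Jc (gm P h) H - g0| ≤ 2 * (2 * k + 36 * CT) * (l ^ 2 * y ^ 2) := by
    rw [hJH]
    have e : g0 * Real.sqrt (1 + X * kk).det - g0 = g0 * (Real.sqrt (1 + X * kk).det - 1) := by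
      ring
    rw [e, abs_mul, abs_of_nonneg (by linarith : 0 ≤ g0)]
    have e2 := abs_sqrt_sub_one_le hdpos
    have e3 := mul_le_mul hs2 (e2.trans hb1) (abs_nonneg _) (by norm_num)
    linarith
  have hJ2 : Jc (gm P h) H ≤ 2 := by
    have e2 := (hdet (H * (gm P h * H)) (by linarith)).2
    unfold Jc
    rw [show (2:ℝ) = Real.sqrt 4 by
      rw [show (4:ℝ) = 2 ^ 2 by norm_num, Real.sqrt_sq (by norm_num)]]
    exact Real.sqrt_le_sqrt e2
  have hJ0 : 0 ≤ Jc (gm P h) H := Real.sqrt_nonneg _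
  refine ⟨hs1, hs2, hdp, ?_, ?_⟩
  · refine hJg.trans ?_
    have e1 : 0 ≤ l ^ 2 * y ^ 2 := by positivity
    have e2 : 0 ≤ 2 * (2 * k + 36 * CT) * (2 * k) + 492 * k := by positivity
    have e3 := mul_nonneg e2 e1
    linarith
  -- the trace
  obtain ⟨k', hk'⟩ : ∃ k', k' = -h1 - h1 + (h1 * h + h * h1) := ⟨_, rfl⟩
  have hG' : H * dgm P P1 h h1 * H = g' + k' := by
    rw [dgm_hh hH D.hP D.hP1 D.hh D.hh1, hg', hk']; abel
  have htrS : tr (Sg (gm P h) H * dgm P P1 h h1) = tr (X2 * (g' + k')) := by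
    unfold Sg
    rw [w4]
    have e1 : H * (X2 * H) * dgm P P1 h h1 = H * (X2 * (H * dgm P P1 h h1)) := by
      simp only [mul_assoc]
    rw [e1, tr_mul_comm, mul_assoc, hG']
  rw [htrS]
  have hX2a : X2 = X - X2 * kk * X := by
    have e1 : X2 * (gP + kk) * X = X := by rw [← hsum, w1, one_mul]
    have e2 : X2 * (gP + kk) * X = X2 * (gP * X) + X2 * kk * X := by
      rw [mul_add, add_mul, mul_assoc X2 gP X]
    rw [x2, mul_one] at e2
    rw [eq_sub_iff_add_eq, ← e2, e1]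
  have hX2 : X2 = X - X * kk * X + X2 * kk * X * kk * X := by
    have e : X2 * kk * X = X * kk * X - X2 * kk * X * kk * X := by
      conv_lhs => rw [hX2a]
      rw [sub_mul, sub_mul]
    conv_lhs => rw [hX2a, e]
    abel
  have hdiff : tr (X2 * (g' + k')) - tr (X * g') = tr (X * (h1 * h + h * h1)) -
      tr (X * (h * h) * (X * g')) - tr (X * kk * (X * k')) +
      tr (X2 * kk * X * kk * X * (g' + k')) := by
    have e1 : X2 * (g' + k') = X * g' + X * k' - X * kk * (X * g') - X * kk * (X * k') +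
        X2 * kk * X * kk * X * (g' + k') := by
      conv_lhs => rw [hX2]
      simp only [add_mul, sub_mul, mul_add, mul_assoc]
      abel
    have e2 : X * k' = X * (h1 * h + h * h1) - X * h1 - X * h1 := by
      rw [hk', mul_add, mul_sub, mul_neg]; abel
    have e3 : X * kk * (X * g') = X * (h * h) * (X * g') - X * h * (X * g') -
        X * h * (X * g') := by
      rw [hkk']
      simp only [mul_add, mul_sub, mul_neg, add_mul, sub_mul, neg_mul]
      abel
    have e4 : tr (X * h * (X * g')) = tr (X * h1) := by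
      rw [hmin1, tr_mul_comm]
    rw [e1, map_add, map_sub, map_sub, map_add, e3, map_sub, map_sub, e4]
    have e5 : tr (X * k') = tr (X * (h1 * h + h * h1)) - tr (X * h1) - tr (X * h1) := by
      rw [e2, map_sub, map_sub]
    rw [e5]
    ring
  have ng' : ‖g'‖ ≤ 2 * (l * (l * ξ)) := by
    have e1 : ‖star P1 * P‖ ≤ (l * ξ) * l := nm2 (by rw [norm_star']; exact D.nP1) D.nP
    have e2 : ‖star P * P1‖ ≤ l * (l * ξ) := nm2 (by rw [norm_star']; exact D.nP) D.nP1
    have e3 := norm_add_le (star P1 * P) (star P * P1)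
    rw [hg']
    linarith
  obtain ⟨d, hd⟩ : ∃ d, d = 2 * (l * (l * ξ)) := ⟨_, rfl⟩
  rw [← hd] at ng'
  have hd0 : 0 ≤ d := by rw [hd]; positivity
  have nhh : ‖h1 * h + h * h1‖ ≤ 2 * (a * b) := by
    have e1 := nm2 nh1 nh
    have e2 := nm2 nh nh1
    have e3 := norm_add_le (h1 * h) (h * h1)
    linarith
  have hab : a * b ≤ 1 * b := mul_le_mul_of_nonneg_right ha1 hb0
  have hab0 : 0 ≤ a * b := mul_nonneg hly0 hb0
  have nk' : ‖k'‖ ≤ 4 * b := by
    have e1 := norm_add_le (-h1 - h1) (h1 * h + h * h1)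
    have e2 := norm_sub_le (-h1) h1
    rw [norm_neg] at e2
    rw [hk']
    linarith
  have ngk : ‖g' + k'‖ ≤ d + 4 * b := (norm_add_le _ _).trans (by linarith)
  have t1 : |tr (X * (h1 * h + h * h1))| ≤ k * (2 * (2 * (a * b))) :=
    (abs_tr_le _).trans (mul_le_mul_of_nonneg_left (nm2 x3 nhh) hk)
  have t2 : |tr (X * (h * h) * (X * g'))| ≤ k * (2 * (a * a) * (2 * d)) :=
    (abs_tr_le _).trans (mul_le_mul_of_nonneg_left (nm2 (nm2 x3 (nm2 nh nh)) (nm2 x3 ng')) hk)
  have t3 : |tr (X * kk * (X * k'))| ≤ k * (2 * (3 * a) * (2 * (4 * b))) :=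
    (abs_tr_le _).trans (mul_le_mul_of_nonneg_left (nm2 (nm2 x3 hkk) (nm2 x3 nk')) hk)
  have t4 : |tr (X2 * kk * X * kk * X * (g' + k'))| ≤
      k * (2 * (3 * a) * 2 * (3 * a) * 2 * (d + 4 * b)) :=
    (abs_tr_le _).trans (mul_le_mul_of_nonneg_left
      (nm2 (nm2 (nm2 (nm2 (nm2 w3 hkk) x3) hkk) x3) ngk) hk)
  have haa : a * a * b ≤ a * b := by
    have := mul_le_mul_of_nonneg_right ha1 hab0
    linarith
  have haad : a * a * d ≤ 2 * (l ^ 2 * (y * η + y ^ 2 * ξ)) := by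
    have e1 : a * a * d = 2 * (l ^ 2 * (y ^ 2 * ξ)) * (l * l) := by rw [ha, hd]; ring
    have e2 : 2 * (l ^ 2 * (y ^ 2 * ξ)) * (l * l) ≤ 2 * (l ^ 2 * (y ^ 2 * ξ)) * 1 :=
      mul_le_mul_of_nonneg_left (by linarith) (by positivity)
    have e3 : 0 ≤ l ^ 2 * (y * η) := by positivity
    rw [e1]
    nlinarith
  have habe : a * b = l ^ 2 * (y * η + y ^ 2 * ξ) := by rw [ha, hb]; ring
  have hsumb : |tr (X2 * (g' + k')) - tr (X * g')| ≤ 492 * k * (l ^ 2 * (y * η + y ^ 2 * ξ)) := by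
    rw [hdiff]
    have s1 := abs_add_le (tr (X * (h1 * h + h * h1)) - tr (X * (h * h) * (X * g')) -
      tr (X * kk * (X * k'))) (tr (X2 * kk * X * kk * X * (g' + k')))
    have s2 := abs_sub (tr (X * (h1 * h + h * h1)) - tr (X * (h * h) * (X * g')))
      (tr (X * kk * (X * k')))
    have s3 := abs_sub (tr (X * (h1 * h + h * h1))) (tr (X * (h * h) * (X * g')))
    have s4 : k * (2 * (2 * (a * b))) + k * (2 * (a * a) * (2 * d)) +
        k * (2 * (3 * a) * (2 * (4 * b))) + k * (2 * (3 * a) * 2 * (3 * a) * 2 * (d + 4 * b)) =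
        k * (52 * (a * b) + 76 * (a * a * d) + 288 * (a * a * b)) := by ring
    have s5 : k * (52 * (a * b) + 76 * (a * a * d) + 288 * (a * a * b)) ≤
        k * (492 * (l ^ 2 * (y * η + y ^ 2 * ξ))) :=
      mul_le_mul_of_nonneg_left (by rw [← habe] at haad ⊢; linarith) hk
    linarith
  have key : 1 / 2 * Jc (gm P h) H * tr (X2 * (g' + k')) - 1 / 2 * g0 * tr (X * g') =
      1 / 2 * Jc (gm P h) H * (tr (X2 * (g' + k')) - tr (X * g')) +
      1 / 2 * (Jc (gm P h) H - g0) * tr (X * g') := by ring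
  rw [key]
  have u1 : |1 / 2 * Jc (gm P h) H * (tr (X2 * (g' + k')) - tr (X * g'))| ≤
      492 * k * (l ^ 2 * (y * η + y ^ 2 * ξ)) := by
    rw [abs_mul, abs_of_nonneg (by positivity)]
    have := mul_le_mul (show 1 / 2 * Jc (gm P h) H ≤ 1 by linarith) hsumb (abs_nonneg _)
      zero_le_one
    linarith
  have u2 : |1 / 2 * (Jc (gm P h) H - g0) * tr (X * g')| ≤
      2 * (2 * k + 36 * CT) * (2 * k) * (l ^ 2 * (y * η + y ^ 2 * ξ)) := by
    rw [abs_mul, abs_mul, abs_of_pos (by norm_num : (0:ℝ) < 1 / 2)]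
    have v1 : |tr (X * g')| ≤ k * (2 * d) :=
      (abs_tr_le _).trans (mul_le_mul_of_nonneg_left (nm2 x3 ng') hk)
    have v2 : 1 / 2 * |Jc (gm P h) H - g0| * |tr (X * g')| ≤
        1 / 2 * (2 * (2 * k + 36 * CT) * (l ^ 2 * y ^ 2)) * (k * (2 * d)) :=
      mul_le_mul (mul_le_mul_of_nonneg_left hJg (by norm_num)) v1 (abs_nonneg _) (by positivity)
    refine v2.trans ?_
    have v3 : 1 / 2 * (2 * (2 * k + 36 * CT) * (l ^ 2 * y ^ 2)) * (k * (2 * d)) =
        2 * (2 * k + 36 * CT) * (2 * k) * ((l ^ 2 * (y ^ 2 * ξ)) * (l * l)) := by rw [hd]; ring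
    rw [v3]
    refine mul_le_mul_of_nonneg_left ?_ (by positivity)
    have v4 : (l ^ 2 * (y ^ 2 * ξ)) * (l * l) ≤ (l ^ 2 * (y ^ 2 * ξ)) * 1 :=
      mul_le_mul_of_nonneg_left (by linarith) (by positivity)
    have v5 : 0 ≤ l ^ 2 * (y * η) := by positivity
    nlinarith
  have u3 := abs_add_le (1 / 2 * Jc (gm P h) H * (tr (X2 * (g' + k')) - tr (X * g')))
    (1 / 2 * (Jc (gm P h) H - g0) * tr (X * g'))
  have u4 : 0 ≤ l ^ 2 * (y * η + y ^ 2 * ξ) := by positivity
  have u5 : 0 ≤ 2 * (2 * k + 36 * CT) := by positivity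
  have u6 := mul_nonneg u5 u4
  linarith

end Min

end Crest.Agent.R234.Fm_281
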