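import Crest.Agent.R234.F32b_354
import Crest.Agent.R234.Fm6_281

/-!
# Row 234 (helper354), node F3-TRANS, part 1: the pointwise comparison in the chart of a graph

`P = Du`, `h = ⟨y, D²u⟩` at one point of the chart (281's `Pt`), `gm P h` the metric minus identity.
-/

set_option autoImplicit false

open Crest.GeometryTopology.Submanifold
open Crest.Agent.R234.Vf_884
open scoped InnerProductSpace

noncomputable section

namespace Crest.Agent.R234.F33_354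

open Crest.Agent.R234.Fm_281 Crest.Agent.R234.F32_354

variable {m k : ℕ}

/-- the blocks of the metric -/
theorem blk_gm {H P h : L k} {l y : ℝ} (hH : H ∈ G m k) (hP : HV H P) (hh : HH H h)
    (nP : ‖P‖ ≤ l) (nh : ‖h‖ ≤ l * y) (hl : l ≤ 1) (hy0 : 0 ≤ y) (hy : y ≤ 1) :
    Blk H (gm P h) (l ^ 2 + 3 * (l * y)) (l ^ 2 * y) := by
  have hH' := isStar_of_G hH
  have l0 : 0 ≤ l := (norm_nonneg _).trans nP
  have hly : 0 ≤ l * y := mul_nonneg l0 hy0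
  have hsP : ‖star P‖ ≤ l := by rw [norm_star']; exact nP
  have hly1 : l * y ≤ 1 := by
    calc l * y ≤ 1 * 1 := mul_le_mul hl hy hy0 zero_le_one
      _ = 1 := one_mul 1
  refine ⟨?_, ?_, ?_, ?_⟩
  · rw [gm_hh hH' hP hh]
    have h1 := nm2 hsP nP
    have h2 := nm2 nh nh
    have t1 := norm_add_le (star P * P - h - h) (h * h)
    have t2 := norm_sub_le (star P * P - h) h
    have t3 := norm_sub_le (star P * P) h
    have h3 : l * y * (l * y) ≤ 1 * (l * y) := mul_le_mul_of_nonneg_right hly1 hly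
    nlinarith
  · rw [gm_vv hH' hP hh]
    have h1 := nm2 nP hsP
    nlinarith
  · rw [gm_hv hH' hP hh]
    have h1 := nm2 nh hsP
    nlinarith
  · rw [gm_vh hH' hP hh]
    have h1 := nm2 nP nh
    nlinarith

/-- norm of the metric -/
theorem norm_gm_le {P h : L k} {l y : ℝ} (nP : ‖P‖ ≤ l) (nh : ‖h‖ ≤ l * y) (hl : l ≤ 1)
    (hy : y ≤ 1) : ‖gm P h‖ ≤ 7 * l := by
  have l0 : 0 ≤ l := (norm_nonneg _).trans nP
  have hsP : ‖star P‖ ≤ l := by rw [norm_star']; exact nP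
  have nh' : ‖h‖ ≤ l := nh.trans (mul_le_of_le_one_right l0 hy)
  have a1 := nm2 hsP nP
  have a2 := nm2 nP hsP
  have a3 := nm2 nP nh'
  have a4 := nm2 nh' hsP
  have a5 := nm2 nh' nh'
  have hll : l * l ≤ l := mul_le_of_le_one_right l0 hl
  unfold gm
  have t1 := norm_add_le (star P * P + P * star P + P * h + h * star P - h - h) (h * h)
  have t2 := norm_sub_le (star P * P + P * star P + P * h + h * star P - h) h
  have t3 := norm_sub_le (star P * P + P * star P + P * h + h * star P) h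
  have t4 := norm_add_le (star P * P + P * star P + P * h) (h * star P)
  have t5 := norm_add_le (star P * P + P * star P) (P * h)
  have t6 := norm_add_le (star P * P) (P * star P)
  linarith

/-- the constant -/
def Cb (C1 C2 k : ℝ) : ℝ :=
  1 + 16 * (C1 + 1) ^ 2 + 100 * (C1 + 1) * (C1 + 1) ^ 2 + 8 * C1 + C2 * (1 + k)

set_option maxHeartbeats 1600000 in
theorem real_ptw {C1 C2 k l y T N θ o JS JH g0 t : ℝ} (hC1 : 0 ≤ C1) (hC2 : 0 ≤ C2) (hk : 0 ≤ k)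
    (l0 : 0 ≤ l) (y0 : 0 ≤ y) (y1 : y ≤ 1) (hlc : l * (48 * (C1 + 1)) ≤ 1) (hl8 : l ≤ 1 / 8)
    (hθ : θ = l ^ 2 + 3 * (l * y)) (ho : o = l ^ 2 * y) (hτ0 : 0 ≤ T) (hτk : T ≤ k)
    (htt : t * t = T) (hN0 : 0 ≤ N)
    (m1 : |JS * (1 - N / 2) - JH * (1 - T / 2)| ≤ C1 * EE θ o T)
    (m2 : |N - T| ≤ C1 * (EE θ o T + o * t)) (q4 : |JH - g0| ≤ C2 * (l ^ 2 * y ^ 2)) :
    |JS * (1 - N / 2) - g0 * (1 - T / 2)| ≤ Cb C1 C2 k * ((l ^ 2 + l * y) * N + l ^ 2 * y ^ 2) ∧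
      T ≤ 2 * N + Cb C1 C2 k * (l ^ 2 * y) ^ 2 ∧ N ≤ 2 * T + Cb C1 C2 k * (l ^ 2 * y) ^ 2 := by
  have hly : l * y ≤ l := mul_le_of_le_one_right l0 y1
  have hly0 : 0 ≤ l * y := mul_nonneg l0 y0
  have hll : l ^ 2 ≤ l := by nlinarith
  have hll0 : 0 ≤ l ^ 2 := sq_nonneg l
  have hoy : l ^ 2 * y ≤ l * y := mul_le_mul_of_nonneg_right hll y0
  have ho0 : 0 ≤ l ^ 2 * y := mul_nonneg hll0 y0
  rw [← ho] at hoy ho0 ⊢
  have hθ0 : 0 ≤ θ := by rw [hθ]; positivity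
  have hsmall : C1 * (θ + o) ≤ 1 / 8 := by
    have e1 : θ + o ≤ 5 * l := by linarith
    have e2 : C1 * (θ + o) ≤ C1 * (5 * l) := mul_le_mul_of_nonneg_left e1 hC1
    nlinarith
  have ho2 : 0 ≤ o ^ 2 := sq_nonneg o
  have hc : |N - T| ≤ 1 / 4 * T + (C1 + 4 * C1 ^ 2) * o ^ 2 := by
    refine m2.trans ?_
    have e1 : C1 * (EE θ o T + o * t) = C1 * (θ + o) * T + C1 * o ^ 2 + C1 * (o * t) := by
      unfold EE; ring
    rw [e1]
    have e2 : C1 * (θ + o) * T ≤ 1 / 8 * T := mul_le_mul_of_nonneg_right hsmall hτ0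
    have e3 : C1 * (o * t) ≤ 1 / 8 * T + 4 * C1 ^ 2 * o ^ 2 := by
      have := sq_nonneg (t - 4 * (C1 * o))
      have e5 : (t - 4 * (C1 * o)) ^ 2 = t * t - 8 * (C1 * (o * t)) + 16 * (C1 ^ 2 * o ^ 2) := by ring
      rw [e5, htt] at this
      have e6 : 0 ≤ C1 ^ 2 * o ^ 2 := by positivity
      linarith
    have e4 : (C1 + 4 * C1 ^ 2) * o ^ 2 = C1 * o ^ 2 + 4 * C1 ^ 2 * o ^ 2 := by ring
    rw [e4]
    linarith
  have hc' := abs_le.1 hc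
  clear hc m2
  have hTN : T ≤ 4 / 3 * N + 4 / 3 * (C1 + 4 * C1 ^ 2) * o ^ 2 := by linarith
  have hbig0 : (0:ℝ) ≤ 100 * (C1 + 1) * (C1 + 1) ^ 2 + 8 * C1 + C2 * (1 + k) := by positivity
  have hCle : 16 * (C1 + 1) ^ 2 ≤ Cb C1 C2 k := by unfold Cb; linarith
  have ho2l : o ^ 2 ≤ l ^ 2 * y ^ 2 := by
    have e1 : o ^ 2 = l ^ 2 * (l ^ 2 * y ^ 2) := by rw [ho]; ring
    rw [e1]
    refine mul_le_of_le_one_left (by positivity) ?_
    linarith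
  have hK0 : C1 + 4 * C1 ^ 2 ≤ 4 * (C1 + 1) ^ 2 := by nlinarith
  have hK : 4 / 3 * (C1 + 4 * C1 ^ 2) * o ^ 2 ≤ 16 * (C1 + 1) ^ 2 * o ^ 2 := by
    refine mul_le_mul_of_nonneg_right ?_ ho2
    nlinarith [sq_nonneg (C1 + 1)]
  have hKC : 16 * (C1 + 1) ^ 2 * o ^ 2 ≤ Cb C1 C2 k * o ^ 2 := mul_le_mul_of_nonneg_right hCle ho2
  have hK2 : (C1 + 4 * C1 ^ 2) * o ^ 2 ≤ 16 * (C1 + 1) ^ 2 * o ^ 2 := by
    refine mul_le_mul_of_nonneg_right ?_ ho2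
    nlinarith [sq_nonneg (C1 + 1)]
  refine ⟨?_, by linarith, by linarith⟩
  have e1 : JS * (1 - N / 2) - g0 * (1 - T / 2) =
      (JS * (1 - N / 2) - JH * (1 - T / 2)) + (JH - g0) * (1 - T / 2) := by ring
  rw [e1]
  refine (abs_add_le _ _).trans ?_
  have e2 : |(JH - g0) * (1 - T / 2)| ≤ C2 * (l ^ 2 * y ^ 2) * (1 + k) := by
    rw [abs_mul]
    refine mul_le_mul q4 ?_ (abs_nonneg _) (by positivity)
    rw [abs_le]
    constructor <;> linarith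
  have e3 : EE θ o T ≤ 5 * (l ^ 2 + l * y) * T + l ^ 2 * y ^ 2 := by
    unfold EE
    have f1 : (θ + o) * T ≤ 5 * (l ^ 2 + l * y) * T := by
      refine mul_le_mul_of_nonneg_right ?_ hτ0
      rw [hθ]
      linarith
    linarith
  have hs0 : 0 ≤ l ^ 2 + l * y := by positivity
  have hs1 : l ^ 2 + l * y ≤ 1 := by linarith
  have e4 : (l ^ 2 + l * y) * T ≤ 4 / 3 * ((l ^ 2 + l * y) * N) + 16 * (C1 + 1) ^ 2 * o ^ 2 := by
    have f1 : (l ^ 2 + l * y) * T ≤ (l ^ 2 + l * y) * (4 / 3 * N +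
        4 / 3 * (C1 + 4 * C1 ^ 2) * o ^ 2) := mul_le_mul_of_nonneg_left hTN hs0
    have f2 : (l ^ 2 + l * y) * (4 / 3 * (C1 + 4 * C1 ^ 2) * o ^ 2) ≤
        1 * (4 / 3 * (C1 + 4 * C1 ^ 2) * o ^ 2) :=
      mul_le_mul_of_nonneg_right hs1 (by positivity)
    have f3 : (l ^ 2 + l * y) * (4 / 3 * N + 4 / 3 * (C1 + 4 * C1 ^ 2) * o ^ 2) =
      4 / 3 * ((l ^ 2 + l * y) * N) + (l ^ 2 + l * y) * (4 / 3 * (C1 + 4 * C1 ^ 2) * o ^ 2) := by
      ring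
    linarith
  have e5 : C1 * EE θ o T ≤ C1 * (5 * (4 / 3 * ((l ^ 2 + l * y) * N) +
      16 * (C1 + 1) ^ 2 * o ^ 2) + l ^ 2 * y ^ 2) := by
    refine mul_le_mul_of_nonneg_left ?_ hC1
    have f1 : 5 * (l ^ 2 + l * y) * T = 5 * ((l ^ 2 + l * y) * T) := by ring
    linarith
  obtain ⟨X, hX⟩ : ∃ X, X = (l ^ 2 + l * y) * N := ⟨_, rfl⟩
  obtain ⟨Z, hZ⟩ : ∃ Z, Z = l ^ 2 * y ^ 2 := ⟨_, rfl⟩
  have hX0 : 0 ≤ X := by rw [hX]; exact mul_nonneg hs0 hN0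
  have hZ0 : 0 ≤ Z := by rw [hZ]; positivity
  rw [← hX, ← hZ] at e5
  rw [← hZ] at e2 ho2l
  rw [← hX, ← hZ]
  obtain ⟨W, hW⟩ : ∃ W, W = (C1 + 1) ^ 2 := ⟨_, rfl⟩
  have hW0 : 0 ≤ W := by rw [hW]; positivity
  have hW1 : 1 ≤ W := by rw [hW]; nlinarith
  rw [← hW] at e5
  have g5 : 0 ≤ C1 * W := mul_nonneg hC1 hW0
  have e6 : C1 * (5 * (4 / 3 * X + 16 * W * o ^ 2) + Z) ≤ 8 * C1 * X + (100 * (C1 + 1) * W) * Z := by
    have f1 : C1 * (5 * (16 * W * o ^ 2)) ≤ C1 * (5 * (16 * W * Z)) := by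
      refine mul_le_mul_of_nonneg_left ?_ hC1
      refine mul_le_mul_of_nonneg_left ?_ (by norm_num)
      exact mul_le_mul_of_nonneg_left ho2l (by positivity)
    have f2 : C1 * (5 * (16 * W * Z)) + C1 * Z ≤ (100 * (C1 + 1) * W) * Z := by
      have g1 : C1 * (5 * (16 * W * Z)) + C1 * Z = (C1 * (80 * W) + C1) * Z := by ring
      rw [g1]
      refine mul_le_mul_of_nonneg_right ?_ hZ0
      have g3 : C1 * 1 ≤ C1 * W := mul_le_mul_of_nonneg_left hW1 hC1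
      have g6 : 100 * (C1 + 1) * W = 100 * (C1 * W) + 100 * W := by ring
      have g7 : C1 * (80 * W) = 80 * (C1 * W) := by ring
      linarith
    have f3 : C1 * (5 * (4 / 3 * X + 16 * W * o ^ 2) + Z) =
      20 / 3 * (C1 * X) + C1 * (5 * (16 * W * o ^ 2)) + C1 * Z := by ring
    have f4 : 0 ≤ C1 * X := mul_nonneg hC1 hX0
    have f5 : 8 * C1 * X = 8 * (C1 * X) := by ring
    linarith
  have e7 : C2 * Z * (1 + k) = C2 * (1 + k) * Z := by ring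
  have e8 : Cb C1 C2 k * (X + Z) = (1 + 16 * W + 100 * (C1 + 1) * W + C2 * (1 + k)) * X +
      8 * C1 * X + (1 + 16 * W + 8 * C1) * Z + (100 * (C1 + 1) * W) * Z + C2 * (1 + k) * Z := by
    rw [Cb, ← hW]; ring
  have p1 : 0 ≤ (1 + 16 * W + 100 * (C1 + 1) * W + C2 * (1 + k)) * X := by positivity
  have p2 : 0 ≤ (1 + 16 * W + 8 * C1) * Z := by positivity
  rw [e8]
  rw [e7] at e2
  clear * - m1 e2 e5 e6 p1 p2
  linarith

/-- **pointwise comparison** in the chart of a minimal graph -/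
theorem exists_ptw (k : ℕ) : ∃ c C : ℝ, 0 < c ∧ c ≤ 1 / 8 ∧ 1 ≤ C ∧
    ∀ (m : ℕ) (H P P1 h h1 S : L k) (l y ξ η : ℝ), Pt m H P P1 h h1 l y ξ η → l ≤ c → S ∈ G m k →
      0 ≤ tNP (gm P h) H S →
      |Jc (gm P h) S * (1 - tNP (gm P h) H S / 2) -
        Real.sqrt (1 + star P * P).det * (1 - tau H S / 2)| ≤
          C * ((l ^ 2 + l * y) * tNP (gm P h) H S + l ^ 2 * y ^ 2) ∧
      tau H S ≤ 2 * tNP (gm P h) H S + C * (l ^ 2 * y) ^ 2 ∧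
      tNP (gm P h) H S ≤ 2 * tau H S + C * (l ^ 2 * y) ^ 2 ∧
      1 / 2 ≤ Jc (gm P h) S ∧ Jc (gm P h) S ≤ 2 ∧
      1 / 2 ≤ Real.sqrt (1 + star P * P).det ∧ Real.sqrt (1 + star P * P).det ≤ 2 := by
  obtain ⟨c1, C1, hc1, hc14, hC1, h1⟩ := exists_mat k
  obtain ⟨c2, C2, hc2, hc24, hC2, h2⟩ := exists_JH k
  have hk : (0:ℝ) ≤ k := Nat.cast_nonneg k
  set c : ℝ := min (min (c1 / 7) c2) (1 / (48 * (C1 + 1))) with hc
  have hcp : 0 < c := lt_min (lt_min (by positivity) hc2) (by positivity)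
  have hcc1 : 7 * c ≤ c1 := by
    have : c ≤ c1 / 7 := (min_le_left _ _).trans (min_le_left _ _)
    linarith
  have hcc2 : c ≤ c2 := (min_le_left _ _).trans (min_le_right _ _)
  have hcc3 : c * (48 * (C1 + 1)) ≤ 1 := by
    have h3 : c ≤ 1 / (48 * (C1 + 1)) := min_le_right _ _
    have h4 : (0:ℝ) < 48 * (C1 + 1) := by positivity
    calc c * (48 * (C1 + 1)) ≤ 1 / (48 * (C1 + 1)) * (48 * (C1 + 1)) :=
          mul_le_mul_of_nonneg_right h3 h4.le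
      _ = 1 := one_div_mul_cancel h4.ne'
  refine ⟨c, Cb C1 C2 k, hcp, hcc2.trans hc24, ?_, ?_⟩
  · have : (0:ℝ) ≤ 16 * (C1 + 1) ^ 2 + 100 * (C1 + 1) * (C1 + 1) ^ 2 + 8 * C1 + C2 * (1 + k) := by
      positivity
    unfold Cb
    linarith
  intro m H P P1 h h1' S l y ξ η D hl hS hN0
  have l0 := D.l0
  have y0 := D.y0
  have y1 := D.y1
  have hc8 : c ≤ 1 / 8 := hcc2.trans hc24
  have hl1 : l ≤ 1 := by linarith
  have hgn : ‖gm P h‖ ≤ c1 := (norm_gm_le D.nP D.nh hl1 y1).trans (by linarith)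
  have hB := blk_gm D.hH D.hP D.hh D.nP D.nh hl1 y0 y1
  have hly : l * y ≤ l := mul_le_of_le_one_right l0 y1
  have hly0 : 0 ≤ l * y := mul_nonneg l0 y0
  have hll : l ^ 2 ≤ l := by nlinarith
  have hoy : l ^ 2 * y ≤ l * y := mul_le_mul_of_nonneg_right hll y0
  have hll8 : l ^ 2 ≤ 1 / 8 := by linarith
  have hθ1 : l ^ 2 + 3 * (l * y) ≤ 1 := by linarith
  have ho1 : l ^ 2 * y ≤ 1 := by linarith
  obtain ⟨m1, m2, m3, m4⟩ := h1 m H S (gm P h) _ _ D.hH hS hgn hB hθ1 ho1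
  obtain ⟨q1, q2, q3, q4, -⟩ := h2 m H P P1 h h1' l y ξ η D (hl.trans hcc2)
  have hlc : l * (48 * (C1 + 1)) ≤ 1 :=
    (mul_le_mul_of_nonneg_right hl (by positivity)).trans hcc3
  obtain ⟨r1, r2, r3⟩ := real_ptw hC1 hC2 hk l0 y0 y1 hlc (hl.trans hc8) rfl rfl
    (tau_nonneg D.hH hS) (tau_le D.hH hS) (Real.mul_self_sqrt (tau_nonneg D.hH hS)) hN0 m1 m2 q4
  exact ⟨r1, r2, r3, m3, m4, q1, q2⟩

end Crest.Agent.R234.F33_354
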