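import Crest.Agent.R234.F31_354

/-!
# Row 234 (helper354), node F3-ASM, part 1: sloppy localisation with a local bound `A x`

`loc_fun`: as `F31_354.loc_sloppy`, with `A : F → ℝ`.
`asm0`: `A x = μ (closedBall x r₁) + c₃ e (closedBall x (2ρ)) + A₀`.
-/

set_option linter.unusedSectionVars false
set_option autoImplicit false

open MeasureTheory Set Metric Function
open scoped ENNReal NNReal Topology

namespace Crest.Agent.R234.F34_354

open Crest.Agent.R234.F31_354

variable {F : Type*} [NormedAddCommGroup F] [InnerProductSpace ℝ F] [FiniteDimensional ℝ F]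
  [MeasurableSpace F] [BorelSpace F]

variable {vol : Measure F} [vol.IsAddHaarMeasure] {β : F → F → ℝ} {w : F → ℝ} {ρ θ W R : ℝ}

/-- sloppy localisation lemma with a local bound depending on the point -/
theorem loc_fun (h : Kern vol β w ρ θ W R) (hρ : 0 ≤ ρ) (hθ : θ ≤ 1) (hW : 0 ≤ W)
    (b₁ b₂ e : Measure F) [IsFiniteMeasure b₁] [IsFiniteMeasure b₂] [IsFiniteMeasure e]
    {φ : F → ℝ} {Lp : ℝ≥0}
    (hφ : LipschitzWith Lp φ) (hφ0 : ∀ x, 0 ≤ φ x) (hφ1 : ∀ x, φ x ≤ 1)
    (hφR : ∀ x, R < ‖x‖ → φ x = 0) {A : F → ℝ}
    (hA : ∀ x, φ x ≠ 0 → ∫ y, β x y ∂b₁ - ∫ y, β x y ∂b₂ ≤ A x)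
    (hAi : Integrable (fun x => (w x * φ x) * A x) vol)
    (habs : ∀ f : F → ℝ, Measurable f → (∃ C, ∀ y, |f y| ≤ C) →
      (∀ y, y ∉ closedBall (0 : F) (R + 2 * ρ) → f y = 0) →
      ∫ y, f y ∂b₁ - ∫ y, f y ∂b₂ ≤ ∫ y, |f y| ∂e) :
    ∫ y, φ y ∂b₁ - ∫ y, φ y ∂b₂ ≤
      ∫ x, (w x * φ x) * A x ∂vol +
        (θ + 4 * Lp * ρ) * e.real (closedBall 0 (R + 2 * ρ)) := by
  have hφm : Measurable φ := hφ.continuous.measurable
  have hφi : ∀ (μ : Measure F) [IsFiniteMeasure μ], Integrable φ μ := by
    intro μ _
    refine Integrable.mono' (integrable_const 1) hφm.aestronglyMeasurable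
      (Filter.Eventually.of_forall fun x => ?_)
    rw [Real.norm_eq_abs, abs_of_nonneg (hφ0 x)]
    exact hφ1 x
  set g : F → ℝ := fun x => w x * φ x with hg
  have hgm : Measurable g := h.wmeas.mul hφm
  have hg0 : ∀ x, 0 ≤ g x := fun x => mul_nonneg (h.wnonneg x) (hφ0 x)
  have hgle : ∀ x, g x ≤ indicator (closedBall (0 : F) R) (fun _ => W) x := by
    intro x
    by_cases hx : x ∈ closedBall (0 : F) R
    · rw [indicator_of_mem hx]
      calc w x * φ x ≤ W * 1 := mul_le_mul (h.wle x) (hφ1 x) (hφ0 x) hW
        _ = W := mul_one _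
    · rw [indicator_of_notMem hx]
      have : φ x = 0 := by
        apply hφR
        rw [mem_closedBall, dist_zero_right, not_le] at hx
        exact hx
      simp [hg, this]
  have hind : Integrable (indicator (closedBall (0 : F) R) (fun _ => W)) vol :=
    (integrable_indicator_iff measurableSet_closedBall).2
      (integrableOn_const (measure_closedBall_lt_top.ne))
  have hgi : Integrable g vol := by
    refine Integrable.mono' hind hgm.aestronglyMeasurable (Filter.Eventually.of_forall fun x => ?_)
    rw [Real.norm_of_nonneg (hg0 x)]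
    exact hgle x
  set f : F → ℝ := fun y => φ y - ∫ x, g x * β x y ∂vol with hf
  have hfm : Measurable f := by
    refine hφm.sub ?_
    have h1 : StronglyMeasurable (uncurry fun y x : F => g x * β x y) := by
      refine Measurable.stronglyMeasurable ?_
      exact (hgm.comp measurable_snd).mul (h.meas.comp measurable_swap)
    exact (h1.integral_prod_right (ν := vol)).measurable
  have hf0 : ∀ y, y ∉ closedBall (0 : F) (R + 2 * ρ) → f y = 0 := by
    intro y hy
    rw [mem_closedBall, dist_zero_right, not_le] at hy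
    have h1 : φ y = 0 := hφR y (by linarith)
    have h2 : ∀ x, g x * β x y = 0 := by
      intro x
      by_cases hx : R < ‖x‖
      · simp [hg, hφR x hx]
      · have : 2 * ρ < ‖y - x‖ := by
          have h3 : ‖y‖ ≤ ‖y - x‖ + ‖x‖ := by
            calc ‖y‖ = ‖(y - x) + x‖ := by rw [sub_add_cancel]
              _ ≤ _ := norm_add_le _ _
          have := not_lt.1 hx
          linarith
        rw [h.supp x y this, mul_zero]
    simp only [hf, h1]
    simp_rw [h2]
    simp
  have hfle : ∀ y, |f y| ≤ indicator (closedBall (0 : F) (R + 2 * ρ)) (fun _ => θ + 4 * Lp * ρ) y := by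
    intro y
    by_cases hy : y ∈ closedBall (0 : F) (R + 2 * ρ)
    · rw [indicator_of_mem hy]
      exact h.err hρ hθ hφ hφ0 hφ1 hy
    · rw [indicator_of_notMem hy, hf0 y hy, abs_zero]
  have hbd : ∃ C, ∀ y, |f y| ≤ C := by
    refine ⟨|θ + 4 * Lp * ρ|, fun y => (hfle y).trans ?_⟩
    by_cases hy : y ∈ closedBall (0 : F) (R + 2 * ρ)
    · rw [indicator_of_mem hy]
      exact le_abs_self _
    · rw [indicator_of_notMem hy]
      exact abs_nonneg _
  have hmain := Loc1_290.loc_abstract vol b₁ b₂ e β h.meas
    (fun x y => by rw [abs_of_nonneg (h.nonneg x y)]; exact h.le_one x y) g hgi hg0 φ (hφi b₁) (hφi b₂)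
    A (fun x hx => hA x (fun hφx => hx (by simp [hg, hφx]))) hAi
    (habs f hfm hbd hf0)
  refine hmain.trans (add_le_add le_rfl ?_)
  calc ∫ y, |f y| ∂e ≤ ∫ y, indicator (closedBall (0 : F) (R + 2 * ρ)) (fun _ => θ + 4 * Lp * ρ) y ∂e := by
        refine integral_mono ?_ ?_ hfle
        · obtain ⟨C, hC⟩ := hbd
          exact Integrable.mono' (integrable_const C) hfm.abs.aestronglyMeasurable
            (Filter.Eventually.of_forall fun y => by rw [Real.norm_eq_abs, abs_abs]; exact hC y)
        · exact (integrable_const _).indicator measurableSet_closedBall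
    _ = (θ + 4 * Lp * ρ) * e.real (closedBall 0 (R + 2 * ρ)) := by
        rw [integral_indicator measurableSet_closedBall, setIntegral_const, smul_eq_mul, mul_comm]

/-- measurability of `x ↦ μ (closedBall x r)` -/
theorem meas_ball (μ : Measure F) [IsFiniteMeasure μ] (r : ℝ) :
    Measurable fun x => μ.real (closedBall x r) := by
  have hS : MeasurableSet {p : F × F | dist p.2 p.1 ≤ r} :=
    measurableSet_le (continuous_snd.dist continuous_fst).measurable measurable_const
  have h1 : Measurable fun x => μ (Prod.mk x ⁻¹' {p : F × F | dist p.2 p.1 ≤ r}) :=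
    measurable_measure_prodMk_left hS
  exact h1.ennreal_toReal

/-- averaging a local measure over balls -/
theorem avg_ball (μ : Measure F) [IsFiniteMeasure μ] {g φ : F → ℝ} {Lp : ℝ≥0} {r : ℝ} (hr : 0 ≤ r)
    (hW : 0 ≤ W) (hgm : Measurable g) (hg0 : ∀ x, 0 ≤ g x) (hgφ : ∀ x, g x ≤ W * φ x)
    (hφ : LipschitzWith Lp φ) (hφ0 : ∀ x, 0 ≤ φ x) (hφ1 : ∀ x, φ x ≤ 1)
    (hφR : ∀ x, R < ‖x‖ → φ x = 0) :
    Integrable (fun x => g x * μ.real (closedBall x r)) vol ∧
    ∫ x, g x * μ.real (closedBall x r) ∂vol ≤ W * vol.real (closedBall (0 : F) r) *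
      ∫ y in closedBall (0 : F) (R + r), (φ y + Lp * r) ∂μ := by
  have hφm : Measurable φ := hφ.continuous.measurable
  set S : Set (F × F) := {p | dist p.2 p.1 ≤ r} with hSdef
  have hS : MeasurableSet S :=
    measurableSet_le (continuous_snd.dist continuous_fst).measurable measurable_const
  set f : F → F → ℝ := fun x y => g x * S.indicator (fun _ => (1:ℝ)) (x, y) with hf
  have hfm : Measurable (uncurry f) := by
    have h1 : Measurable (S.indicator fun _ => (1:ℝ)) := measurable_const.indicator hS
    exact (hgm.comp measurable_fst).mul h1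
  have hgle : ∀ x, g x ≤ indicator (closedBall (0 : F) R) (fun _ => W) x := by
    intro x
    by_cases hx : x ∈ closedBall (0 : F) R
    · rw [indicator_of_mem hx]
      calc g x ≤ W * φ x := hgφ x
        _ ≤ W * 1 := mul_le_mul_of_nonneg_left (hφ1 x) hW
        _ = W := mul_one _
    · rw [indicator_of_notMem hx]
      have : φ x = 0 := by
        apply hφR
        rw [mem_closedBall, dist_zero_right, not_le] at hx
        exact hx
      have h2 := hgφ x
      rw [this, mul_zero] at h2
      exact h2
  have hind : Integrable (indicator (closedBall (0 : F) R) (fun _ => W)) vol :=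
    (integrable_indicator_iff measurableSet_closedBall).2
      (integrableOn_const (measure_closedBall_lt_top.ne))
  have hind2 : Integrable (fun p : F × F => indicator (closedBall (0 : F) R) (fun _ => W) p.1)
      (vol.prod μ) := hind.comp_fst μ
  have hfi : Integrable (uncurry f) (vol.prod μ) := by
    refine Integrable.mono' hind2 hfm.aestronglyMeasurable (Filter.Eventually.of_forall ?_)
    rintro ⟨x, y⟩
    have h1 : |S.indicator (fun _ => (1:ℝ)) (x, y)| ≤ 1 := by
      by_cases h : (x, y) ∈ S
      · rw [indicator_of_mem h, abs_one]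
      · rw [indicator_of_notMem h, abs_zero]; exact zero_le_one
    simp only [uncurry, hf, norm_mul, Real.norm_eq_abs, abs_of_nonneg (hg0 x)]
    calc g x * |S.indicator (fun _ => (1:ℝ)) (x, y)| ≤ g x * 1 :=
          mul_le_mul_of_nonneg_left h1 (hg0 x)
      _ = g x := mul_one _
      _ ≤ _ := hgle x
  have e1 : ∀ x, g x * μ.real (closedBall x r) = ∫ y, f x y ∂μ := by
    intro x
    have h1 : ∀ y, f x y = g x * (closedBall x r).indicator (fun _ => (1:ℝ)) y := by
      intro y
      simp only [hf]
      congr 1
    simp_rw [h1]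
    rw [integral_const_mul, integral_indicator measurableSet_closedBall, setIntegral_const,
      smul_eq_mul, mul_one]
  have hint : Integrable (fun x => g x * μ.real (closedBall x r)) vol := by
    have := hfi.integral_prod_left
    refine this.congr (Filter.Eventually.of_forall fun x => ?_)
    exact (e1 x).symm
  refine ⟨hint, ?_⟩
  have hLr : 0 ≤ (Lp : ℝ) * r := mul_nonneg Lp.2 hr
  calc ∫ x, g x * μ.real (closedBall x r) ∂vol = ∫ x, ∫ y, f x y ∂μ ∂vol := by
        simp_rw [e1]
    _ = ∫ y, ∫ x, f x y ∂vol ∂μ := integral_integral_swap hfi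
    _ ≤ ∫ y, (closedBall (0 : F) (R + r)).indicator
          (fun y => W * vol.real (closedBall (0 : F) r) * (φ y + Lp * r)) y ∂μ := by
        refine integral_mono_of_nonneg (Filter.Eventually.of_forall fun y => ?_) ?_
          (Filter.Eventually.of_forall fun y => ?_)
        · refine integral_nonneg fun x => mul_nonneg (hg0 x) ?_
          exact indicator_nonneg (fun _ _ => zero_le_one) _
        · refine Integrable.indicator ?_ measurableSet_closedBall
          refine Integrable.const_mul ?_ _
          refine Integrable.mono' (integrable_const (1 + Lp * r))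
            (hφm.add_const _).aestronglyMeasurable (Filter.Eventually.of_forall fun y => ?_)
          rw [Real.norm_of_nonneg (add_nonneg (hφ0 y) hLr)]
          linarith [hφ1 y]
        · have hpt : ∀ x, f x y ≤ (closedBall y r).indicator
              (fun _ => (closedBall (0 : F) (R + r)).indicator (fun y => W * (φ y + Lp * r)) y) x := by
            intro x
            by_cases hxy : x ∈ closedBall y r
            · have hxy' : (x, y) ∈ S := by
                show dist y x ≤ r
                rw [dist_comm]; exact hxy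
              rw [indicator_of_mem hxy]
              simp only [hf]
              rw [indicator_of_mem hxy', mul_one]
              have hd : dist x y ≤ r := hxy
              by_cases hx : R < ‖x‖
              · have h0 : g x ≤ 0 := by
                  have := hgφ x
                  rwa [hφR x hx, mul_zero] at this
                refine h0.trans (indicator_nonneg (fun y _ => ?_) _)
                exact mul_nonneg hW (add_nonneg (hφ0 y) hLr)
              · have hy : y ∈ closedBall (0 : F) (R + r) := by
                  rw [mem_closedBall, dist_zero_right]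
                  have h3 : ‖y‖ ≤ ‖y - x‖ + ‖x‖ := by
                    calc ‖y‖ = ‖(y - x) + x‖ := by rw [sub_add_cancel]
                      _ ≤ _ := norm_add_le _ _
                  rw [dist_comm, dist_eq_norm] at hd
                  have := not_lt.1 hx
                  linarith
                rw [indicator_of_mem hy]
                refine (hgφ x).trans (mul_le_mul_of_nonneg_left ?_ hW)
                have h4 := hφ.dist_le_mul x y
                rw [Real.dist_eq] at h4
                have h5 : (Lp : ℝ) * dist x y ≤ Lp * r := mul_le_mul_of_nonneg_left hd Lp.2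
                have h6 := le_abs_self (φ x - φ y)
                linarith
            · have hxy' : (x, y) ∉ S := by
                intro hmem
                apply hxy
                have hm : dist y x ≤ r := hmem
                rw [mem_closedBall, dist_comm]; exact hm
              rw [indicator_of_notMem hxy]
              simp only [hf]
              rw [indicator_of_notMem hxy', mul_zero]
          have hi2 : Integrable ((closedBall y r).indicator
              (fun _ => (closedBall (0 : F) (R + r)).indicator (fun y => W * (φ y + Lp * r)) y))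
              vol := (integrable_indicator_iff measurableSet_closedBall).2
            (integrableOn_const (measure_closedBall_lt_top.ne))
          have h9 : ∫ x, f x y ∂vol ≤ ∫ x, ((closedBall y r).indicator
              (fun _ => (closedBall (0 : F) (R + r)).indicator (fun y => W * (φ y + Lp * r)) y) x)
                ∂vol := by
            refine integral_mono_of_nonneg (Filter.Eventually.of_forall fun x => ?_) hi2
              (Filter.Eventually.of_forall hpt)
            exact mul_nonneg (hg0 x) (indicator_nonneg (fun _ _ => zero_le_one) _)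
          rw [integral_indicator measurableSet_closedBall, setIntegral_const, smul_eq_mul] at h9
          have hv : vol.real (closedBall y r) = vol.real (closedBall (0 : F) r) := by
            unfold Measure.real
            rw [Measure.addHaar_closedBall_center]
          rw [hv] at h9
          refine h9.trans (le_of_eq ?_)
          by_cases hy : y ∈ closedBall (0 : F) (R + r)
          · rw [indicator_of_mem hy, indicator_of_mem hy]; ring
          · rw [indicator_of_notMem hy, indicator_of_notMem hy, mul_zero]
    _ = W * vol.real (closedBall (0 : F) r) *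
      ∫ y in closedBall (0 : F) (R + r), (φ y + Lp * r) ∂μ := by
        rw [integral_indicator measurableSet_closedBall, integral_const_mul]

/-- **abstract assembly** -/
theorem asm0 (h : Kern vol β w ρ θ W R) (hρ : 0 ≤ ρ) (hθ : θ ≤ 1) (hW : 0 ≤ W)
    (b₁ b₂ e μ : Measure F) [IsFiniteMeasure b₁] [IsFiniteMeasure b₂] [IsFiniteMeasure e]
    [IsFiniteMeasure μ] {φ : F → ℝ} {Lp : ℝ≥0}
    (hφ : LipschitzWith Lp φ) (hφ0 : ∀ x, 0 ≤ φ x) (hφ1 : ∀ x, φ x ≤ 1)
    (hφR : ∀ x, R < ‖x‖ → φ x = 0) {r₁ c₃ A₀ : ℝ} (hr₁ : 0 ≤ r₁) (hc₃ : 0 ≤ c₃) (hA₀ : 0 ≤ A₀)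
    (hA : ∀ x, φ x ≠ 0 → ∫ y, β x y ∂b₁ - ∫ y, β x y ∂b₂ ≤
      μ.real (closedBall x r₁) + c₃ * e.real (closedBall x (2 * ρ)) + A₀)
    (habs : ∀ f : F → ℝ, Measurable f → (∃ C, ∀ y, |f y| ≤ C) →
      (∀ y, y ∉ closedBall (0 : F) (R + 2 * ρ) → f y = 0) →
      ∫ y, f y ∂b₁ - ∫ y, f y ∂b₂ ≤ ∫ y, |f y| ∂e) :
    ∫ y, φ y ∂b₁ - ∫ y, φ y ∂b₂ ≤
      W * vol.real (closedBall (0 : F) r₁) *
        ∫ y in closedBall (0 : F) (R + r₁), (φ y + Lp * r₁) ∂μ +
      c₃ * (W * vol.real (closedBall (0 : F) (2 * ρ))) * (1 + Lp * (2 * ρ)) *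
        e.real (closedBall (0 : F) (R + 2 * ρ)) +
      W * vol.real (closedBall (0 : F) R) * A₀ +
      (θ + 4 * Lp * ρ) * e.real (closedBall 0 (R + 2 * ρ)) := by
  have hφm : Measurable φ := hφ.continuous.measurable
  set g : F → ℝ := fun x => w x * φ x with hg
  have hgm : Measurable g := h.wmeas.mul hφm
  have hg0 : ∀ x, 0 ≤ g x := fun x => mul_nonneg (h.wnonneg x) (hφ0 x)
  have hgφ : ∀ x, g x ≤ W * φ x := fun x => mul_le_mul_of_nonneg_right (h.wle x) (hφ0 x)
  obtain ⟨i1, e1⟩ := avg_ball (vol := vol) μ hr₁ hW hgm hg0 hgφ hφ hφ0 hφ1 hφR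
  have h2ρ : 0 ≤ 2 * ρ := by positivity
  obtain ⟨i2, e2⟩ := avg_ball (vol := vol) e h2ρ hW hgm hg0 hgφ hφ hφ0 hφ1 hφR
  have hind : Integrable (indicator (closedBall (0 : F) R) (fun _ => W)) vol :=
    (integrable_indicator_iff measurableSet_closedBall).2
      (integrableOn_const (measure_closedBall_lt_top.ne))
  have hgle : ∀ x, g x ≤ indicator (closedBall (0 : F) R) (fun _ => W) x := by
    intro x
    by_cases hx : x ∈ closedBall (0 : F) R
    · rw [indicator_of_mem hx]
      calc g x ≤ W * φ x := hgφ x
        _ ≤ W * 1 := mul_le_mul_of_nonneg_left (hφ1 x) hW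
        _ = W := mul_one _
    · rw [indicator_of_notMem hx]
      have : φ x = 0 := by
        apply hφR
        rw [mem_closedBall, dist_zero_right, not_le] at hx
        exact hx
      have h2 := hgφ x
      rw [this, mul_zero] at h2
      exact h2
  have i3 : Integrable g vol := by
    refine Integrable.mono' hind hgm.aestronglyMeasurable (Filter.Eventually.of_forall fun x => ?_)
    rw [Real.norm_of_nonneg (hg0 x)]
    exact hgle x
  have e3 : ∫ x, g x ∂vol ≤ W * vol.real (closedBall (0 : F) R) := by
    calc ∫ x, g x ∂vol ≤ ∫ x, indicator (closedBall (0 : F) R) (fun _ => W) x ∂vol :=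
          integral_mono i3 hind hgle
      _ = W * vol.real (closedBall (0 : F) R) := by
          rw [integral_indicator measurableSet_closedBall, setIntegral_const, smul_eq_mul, mul_comm]
  have hsplit : ∀ x, (w x * φ x) * (μ.real (closedBall x r₁) + c₃ * e.real (closedBall x (2 * ρ)) +
      A₀) = g x * μ.real (closedBall x r₁) + c₃ * (g x * e.real (closedBall x (2 * ρ))) +
        g x * A₀ := by
    intro x
    simp only [hg]; ring
  have hAi : Integrable (fun x => (w x * φ x) * (μ.real (closedBall x r₁) +
      c₃ * e.real (closedBall x (2 * ρ)) + A₀)) vol := by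
    simp_rw [hsplit]
    exact (i1.add (i2.const_mul c₃)).add (i3.mul_const A₀)
  have hmain := loc_fun (vol := vol) h hρ hθ hW b₁ b₂ e hφ hφ0 hφ1 hφR hA hAi habs
  refine hmain.trans (add_le_add ?_ le_rfl)
  simp_rw [hsplit]
  have i12 : Integrable (fun x => g x * μ.real (closedBall x r₁) +
      c₃ * (g x * e.real (closedBall x (2 * ρ)))) vol := i1.add (i2.const_mul c₃)
  rw [integral_add i12 (i3.mul_const A₀), integral_add i1 (i2.const_mul c₃),
    integral_const_mul, integral_mul_const]
  refine add_le_add (add_le_add e1 ?_) ?_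
  · have h4 : ∫ y in closedBall (0 : F) (R + 2 * ρ), (φ y + Lp * (2 * ρ)) ∂e ≤
        (1 + Lp * (2 * ρ)) * e.real (closedBall (0 : F) (R + 2 * ρ)) := by
      calc ∫ y in closedBall (0 : F) (R + 2 * ρ), (φ y + Lp * (2 * ρ)) ∂e ≤
          ∫ _y in closedBall (0 : F) (R + 2 * ρ), (1 + Lp * (2 * ρ)) ∂e := by
            have hLr : 0 ≤ (Lp : ℝ) * (2 * ρ) := mul_nonneg Lp.2 h2ρ
            refine integral_mono_of_nonneg (Filter.Eventually.of_forall fun y =>
              add_nonneg (hφ0 y) hLr) (integrable_const _) (Filter.Eventually.of_forall fun y => ?_)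
            show φ y + Lp * (2 * ρ) ≤ 1 + Lp * (2 * ρ)
            linarith [hφ1 y]
        _ = _ := by rw [setIntegral_const, smul_eq_mul, mul_comm]
    have h5 : 0 ≤ W * vol.real (closedBall (0 : F) (2 * ρ)) := mul_nonneg hW measureReal_nonneg
    calc c₃ * ∫ x, g x * e.real (closedBall x (2 * ρ)) ∂vol
        ≤ c₃ * (W * vol.real (closedBall (0 : F) (2 * ρ)) *
          ∫ y in closedBall (0 : F) (R + 2 * ρ), (φ y + Lp * (2 * ρ)) ∂e) :=
          mul_le_mul_of_nonneg_left e2 hc₃
      _ ≤ c₃ * (W * vol.real (closedBall (0 : F) (2 * ρ)) *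
          ((1 + Lp * (2 * ρ)) * e.real (closedBall (0 : F) (R + 2 * ρ)))) :=
          mul_le_mul_of_nonneg_left (mul_le_mul_of_nonneg_left h4 h5) hc₃
      _ = _ := by ring
  · exact mul_le_mul_of_nonneg_right e3 hA₀

end Crest.Agent.R234.F34_354
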