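import Crest.Agent.R234.Fc7_209

/-!
# Row 234, node FERMI-CHART (helper209), file 8: bounds from `iteratedFDeriv`, cut-off of the graph
function
-/

set_option autoImplicit false

open Function Set Filter Topology Metric Crest.GeometryTopology.Submanifold
open Crest.Agent.R234.Vf_884 Crest.Agent.R234.Ar_870 Crest.Agent.R234.Fm_281
open Crest.Agent.R234.Cy_870 (Split)
open Crest.Agent.R234.AS_456 (hp vp)
open Crest.Agent.R234.Ft_209 (Dif)
open scoped InnerProductSpace ContDiff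

noncomputable section

namespace Crest.Agent.R234.Fc_209

variable {m n k : ℕ}

theorem Bd.of_iter {u : Euc m → Euc n} {l : ℝ}
    (h : ∀ j ≤ 3, ∀ z, ‖iteratedFDeriv ℝ j u z‖ ≤ l) : Bd u l where
  d1 x a := by
    have h1 := (iteratedFDeriv ℝ 1 u x).le_opNorm ![a]
    rw [iteratedFDeriv_one_apply] at h1
    simp only [Matrix.cons_val_zero, Fin.prod_univ_one] at h1
    exact h1.trans (mul_le_mul_of_nonneg_right (h 1 (by norm_num) x) (norm_nonneg _))
  d2 x a b := by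
    have h1 := (iteratedFDeriv ℝ 2 u x).le_opNorm ![a, b]
    rw [iteratedFDeriv_two_apply] at h1
    simp only [Matrix.cons_val_zero, Matrix.cons_val_one, Fin.prod_univ_two] at h1
    refine h1.trans ?_
    rw [mul_assoc l]
    exact mul_le_mul_of_nonneg_right (h 2 (by norm_num) x) (by positivity)
  d3 x a b c := by
    have h1 := (iteratedFDeriv ℝ 3 u x).le_opNorm ![a, b, c]
    rw [iteratedFDeriv_succ_apply_right, iteratedFDeriv_two_apply] at h1
    have e : ∏ i, ‖(![a, b, c] : Fin 3 → Euc m) i‖ = ‖a‖ * (‖b‖ * ‖c‖) := by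
      rw [Fin.prod_univ_three]
      simp [mul_assoc]
    rw [e] at h1
    have h2 : ‖fderiv ℝ (fderiv ℝ (fderiv ℝ u)) x a b c‖ ≤
      ‖iteratedFDeriv ℝ 3 u x‖ * (‖a‖ * (‖b‖ * ‖c‖)) := h1
    refine h2.trans ?_
    rw [mul_assoc l, mul_assoc l, mul_assoc ‖a‖]
    exact mul_le_mul_of_nonneg_right (h 3 le_rfl x) (by positivity)

/-- formula of the chart -/
theorem IsChart.Φ_eq' {T : Dif k} {π : Euc k →L[ℝ] Euc m} {κ : Euc k →L[ℝ] Euc n}
    {u : Euc m → Euc n} {e : ℝ} (h : IsChart T π κ u e) (hu : ContDiff ℝ 3 u) {z : Euc k}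
    (hz : ‖κ z‖ < 3) :
    T.Φ z = z + ContinuousLinearMap.adjoint κ (u (π z)) -
      ContinuousLinearMap.adjoint π (ContinuousLinearMap.adjoint (fderiv ℝ u (π z)) (κ z)) := by
  rw [h.Φ_eq z hz, P_eq hu, star_Th_apply]
  rfl

/-- **cut-off** -/
theorem exists_cut (m N : ℕ) {R₁ R₂ : ℝ} (h0 : 0 < R₁) (h12 : R₁ < R₂) : ∃ C : ℝ, 0 ≤ C ∧
    ∀ {F : Type} [NormedAddCommGroup F] [NormedSpace ℝ F] (u : Euc m → F) (l : ℝ) (r : ℕ∞),
      0 ≤ l → (N : WithTop ℕ∞) ≤ r → ContDiffOn ℝ r u (ball 0 R₂) →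
      (∀ j ≤ N, ∀ z ∈ ball (0 : Euc m) R₂, ‖iteratedFDeriv ℝ j u z‖ ≤ l) →
      ∃ u' : Euc m → F, ContDiff ℝ r u' ∧ (∀ z ∈ closedBall (0 : Euc m) R₁, u' z = u z) ∧
        HasCompactSupport u' ∧
        ∀ j ≤ N, ∀ z, ‖iteratedFDeriv ℝ j u' z‖ ≤ C * l := by
  obtain ⟨χ, hχ⟩ : ∃ χ : ContDiffBump (0 : Euc m), χ.rIn = R₁ ∧ χ.rOut = (R₁ + R₂) / 2 :=
    ⟨⟨R₁, (R₁ + R₂) / 2, h0, by linarith⟩, rfl, rfl⟩
  have hM : ∀ i : ℕ, ∃ M : ℝ, 0 ≤ M ∧ ∀ z, ‖iteratedFDeriv ℝ i (χ : Euc m → ℝ) z‖ ≤ M := by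
    intro i
    have hs : HasCompactSupport (iteratedFDeriv ℝ i (χ : Euc m → ℝ)) :=
      χ.hasCompactSupport.iteratedFDeriv i
    have hc : Continuous (iteratedFDeriv ℝ i (χ : Euc m → ℝ)) :=
      (χ.contDiff (n := (⊤ : ℕ∞))).continuous_iteratedFDeriv (by exact_mod_cast le_top)
    obtain ⟨M, hM⟩ := hs.exists_bound_of_continuous hc
    exact ⟨max 0 M, le_max_left _ _, fun z => (hM z).trans (le_max_right _ _)⟩
  choose M hM0 hM using hM
  obtain ⟨C0, hC0⟩ : ∃ C0 : ℕ → ℝ, ∀ j, C0 j = ∑ i ∈ Finset.range (j + 1), (j.choose i : ℝ) * M i :=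
    ⟨_, fun j => rfl⟩
  have hC00 : ∀ j, 0 ≤ C0 j := fun j => by
    rw [hC0]
    exact Finset.sum_nonneg fun i _ => mul_nonneg (Nat.cast_nonneg _) (hM0 i)
  refine ⟨∑ j ∈ Finset.range (N + 1), C0 j, Finset.sum_nonneg fun j _ => hC00 j, ?_⟩
  intro F _ _ u l r hl hNr hu hb
  obtain ⟨u', hu'⟩ : ∃ u' : Euc m → F, ∀ z, u' z = χ z • u z := ⟨_, fun z => rfl⟩
  have hu'f : u' = fun z => χ z • u z := funext hu'
  have hzero : ∀ z, z ∉ ball (0 : Euc m) R₂ → u' =ᶠ[𝓝 z] fun _ => 0 := by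
    intro z hz
    have hopen : IsOpen {z : Euc m | (R₁ + R₂) / 2 < ‖z‖} :=
      isOpen_lt continuous_const continuous_norm
    have hz2 : z ∈ {z : Euc m | (R₁ + R₂) / 2 < ‖z‖} := by
      rw [mem_ball_zero_iff, not_lt] at hz
      change (R₁ + R₂) / 2 < ‖z‖
      linarith
    filter_upwards [hopen.mem_nhds hz2] with x hx
    rw [hu']
    have : χ x = 0 := by
      apply χ.zero_of_le_dist
      rw [dist_zero_right, hχ.2]
      exact le_of_lt hx
    rw [this, zero_smul]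
  have hcd : ∀ z, ContDiffAt ℝ r u' z := by
    intro z
    by_cases hz : z ∈ ball (0 : Euc m) R₂
    · rw [hu'f]
      exact (χ.contDiff.contDiffAt).smul (hu.contDiffAt (isOpen_ball.mem_nhds hz))
    · exact contDiffAt_const.congr_of_eventuallyEq (hzero z hz)
  refine ⟨u', contDiff_iff_contDiffAt.2 hcd, fun z hz => ?_, ?_, fun j hj z => ?_⟩
  · rw [hu', χ.one_of_mem_closedBall (by rw [hχ.1]; exact hz), one_smul]
  · rw [hu'f]
    exact χ.hasCompactSupport.smul_right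
  · by_cases hz : z ∈ ball (0 : Euc m) R₂
    · have hopen : IsOpen (ball (0 : Euc m) R₂) := isOpen_ball
      have hjr : (j : WithTop ℕ∞) ≤ r := (by exact_mod_cast hj : (j : WithTop ℕ∞) ≤ N).trans hNr
      have h1 := norm_iteratedFDerivWithin_smul_le (𝕜 := ℝ) (𝕜' := ℝ)
        (f := (χ : Euc m → ℝ)) (g := u) (s := ball (0 : Euc m) R₂)
        (χ.contDiff (n := r)).contDiffOn hu hopen.uniqueDiffOn hz hjr
      rw [iteratedFDerivWithin_of_isOpen j hopen hz] at h1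
      rw [hu'f]
      refine h1.trans ?_
      have h2 : ∑ i ∈ Finset.range (j + 1), (j.choose i : ℝ) *
          ‖iteratedFDerivWithin ℝ i (χ : Euc m → ℝ) (ball (0 : Euc m) R₂) z‖ *
          ‖iteratedFDerivWithin ℝ (j - i) u (ball (0 : Euc m) R₂) z‖ ≤
          ∑ i ∈ Finset.range (j + 1), (j.choose i : ℝ) * M i * l := by
        refine Finset.sum_le_sum fun i _ => ?_
        rw [iteratedFDerivWithin_of_isOpen i hopen hz,
          iteratedFDerivWithin_of_isOpen (j - i) hopen hz]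
        exact mul_le_mul (mul_le_mul_of_nonneg_left (hM i z) (Nat.cast_nonneg _))
          (hb (j - i) ((Nat.sub_le _ _).trans hj) z hz) (norm_nonneg _)
          (mul_nonneg (Nat.cast_nonneg _) (hM0 i))
      refine h2.trans ?_
      rw [← Finset.sum_mul, ← hC0]
      exact mul_le_mul_of_nonneg_right
        (Finset.single_le_sum (f := C0) (fun j _ => hC00 j)
          (Finset.mem_range.2 (Nat.lt_succ_of_le hj))) hl
    · have h1 : iteratedFDeriv ℝ j u' z = iteratedFDeriv ℝ j (fun _ => (0 : F)) z :=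
        ((hzero z hz).iteratedFDeriv ℝ j).eq_of_nhds
      rw [h1]
      have h2 : iteratedFDeriv ℝ j (fun _ : Euc m => (0 : F)) z = 0 := by
        simp [iteratedFDeriv_fun_zero]
      rw [h2, norm_zero]
      exact mul_nonneg (Finset.sum_nonneg fun j _ => hC00 j) hl

theorem Msys_congr {u u' : Euc m → Euc n} {z : Euc m} (h : u' =ᶠ[𝓝 z] u) :
    Main_456.Msys u' z = Main_456.Msys u z := by
  unfold Main_456.Msys
  rw [h.fderiv_eq, (h.fderiv (𝕜 := ℝ)).fderiv_eq]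

end Crest.Agent.R234.Fc_209
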