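import Crest.Agent.R234.Nrm2_842
import Crest.Agent.R234.Fc8_209
import Crest.Agent.R234.Ex8_46

/-!
# Row 234, F3 (helper354), file 5: the situation at a base point (definition)

`Bp`: the graph of `w` (frame `π ρ` at `x`, unit scale) near its point over `Xb`: 842's rotated and
zoomed surface `u` (zoom `t`) and 209's adapted chart `T` of the graph of `u`.
-/

set_option autoImplicit false

open MeasureTheory Filter Topology Set Metric
open scoped ENNReal NNReal ContDiff InnerProductSpace
open Crest.GeometryTopology.Submanifold Crest.Agent.R234.Vf_884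

noncomputable section

namespace Crest.Agent.R234.F35_354

open Crest.Agent.R234.Main_456 (Frame Msys hgt sep box)
open Crest.Agent.R234.Grot_842 (rπ rρ)

variable {m n k : ℕ}

/-- the situation at a base point, unit scale -/
structure Bp (π : Euc k →L[ℝ] Euc m) (ρ : Euc k →L[ℝ] Euc n) (x : Euc k) (w : Euc m → Euc n)
    (Xb : Euc m) (C κ t : ℝ) (q : Euc m →L[ℝ] Euc n) (H : Euc m →L[ℝ] Euc m)
    (H' : Euc n →L[ℝ] Euc n) (w' u : Euc m → Euc n) (T : Ft_209.Dif k) (e : ℝ) : Prop where
  fr : Frame π ρ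
  gr : Gi_456.Gr 1 w
  zm : Nrm_842.Zm w Xb 2 C κ t q H H' w' u
  ct : Fc_209.IsChart T (rπ π ρ q H) (rρ π ρ q H') u e
  e0 : 0 ≤ e
  e1 : e ≤ 1 / 16
  t16 : t ≤ 1 / 16

end Crest.Agent.R234.F35_354
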