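import Crest.Agent.R234.GL7_394

/-!
# Row 234, VF-GL, part 8 (helper394)

Total variation conversion at one level: `|bb|` and `|er1a|` from helper618's measure `e2`.
-/

set_option autoImplicit false

open MeasureTheory Set Function Filter Topology
open Crest.GeometryTopology.Submanifold
open Crest.Agent.R234.Vf_884 Crest.Agent.R234.Ar_870 Crest.Agent.R234.Cy_870
open scoped ENNReal NNReal InnerProductSpace

noncomputable section

namespace Crest.Agent.R234.GL_394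

variable {m k : ℕ} {c : Ch m k} {K : Set (Euc k)} {D : Set (Euc m)}
  {V : Measure (Euc k × L k)} {g g1 g2 : ℝ → ℝ} {Q l : ℝ}
  {c0 d0 hh C0 B : ℝ} {zN : Euc k → Euc k}

/-- the radial test function is Lipschitz -/
theorem lip_rad (hp : Pf g g1 g2 B) (l : ℝ) :
    LipschitzWith (Real.toNNReal (2 * B * Real.exp (-l)))
      (fun v : Euc m => g (Real.exp (-2 * l) * ‖v‖ ^ 2)) := by
  have hB : 0 ≤ B := (hp.nn 0 le_rfl).trans (hp.b0 0 le_rfl)
  have hd : ∀ v : Euc m, HasFDerivAt (fun v : Euc m => g (Real.exp (-2 * l) * ‖v‖ ^ 2))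
      (innerSL ℝ ((2 * Real.exp (-2 * l) * g1 (Real.exp (-2 * l) * ‖v‖ ^ 2)) • v)) v := by
    intro v
    have h1 := hasFDerivAt_rad hp.pr.k0.der l 0 v
    simp only [sub_zero] at h1
    exact h1
  refine lipschitzWith_of_nnnorm_fderiv_le (𝕜 := ℝ) (fun v => (hd v).differentiableAt)
    (fun v => ?_)
  rw [(hd v).fderiv, ← NNReal.coe_le_coe, coe_nnnorm, Real.coe_toNNReal _ (by positivity),
    innerSL_apply_norm, norm_smul, Real.norm_eq_abs]
  by_cases hr : ‖v‖ ≤ Real.exp l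
  · have h1 := hp.pr.anti (Real.exp (-2 * l) * ‖v‖ ^ 2) (by positivity)
    have h2 := hp.b1 (Real.exp (-2 * l) * ‖v‖ ^ 2) (by positivity)
    rw [abs_mul, abs_of_pos (by positivity : 0 < 2 * Real.exp (-2 * l)), abs_of_nonpos h1]
    calc _ ≤ 2 * Real.exp (-2 * l) * B * Real.exp l :=
          mul_le_mul (mul_le_mul_of_nonneg_left h2 (by positivity)) hr (norm_nonneg _)
            (by positivity)
      _ = 2 * B * (Real.exp (-2 * l) * Real.exp l) := by ring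
      _ = _ := by rw [← Real.exp_add]; congr 2; ring
  · rw [hp.pr.k0.zero' _ (t_ge hr), mul_zero, abs_zero, zero_mul]
    positivity

/-- helper618's total variation measure at the radius `ρ` -/
structure TV (c : Ch m k) (V : Measure (Euc k × L k)) (Q ρ C1 kq sig : ℝ)
    (e2 : Measure (Euc m)) : Prop where
  fin : IsFiniteMeasure e2
  i : ∀ F : Euc m → ℝ, Measurable F → (∃ b : ℝ, ∀ v, |F v| ≤ b) →
    (∀ v, v ∉ Metric.closedBall (0 : Euc m) ρ → F v = 0) →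
    |∫ p, F (c.x p.1) * (1 - c.tau p.1 p.2 / 2) ∂V - Q * ∫ v, F v * c.j v| ≤ ∫ v, |F v| ∂e2
  iii : ∀ (F : Euc m → ℝ) (Lf : ℝ≥0), (∀ v, 0 ≤ F v) → LipschitzWith Lf F →
    (∀ v, v ∉ Metric.closedBall (0 : Euc m) ρ → F v = 0) →
    ∫ v, F v ∂e2 ≤ C1 * (∫ p, F (c.x p.1) * (c.tau p.1 p.2 + kq * (2 * c.f p.1)) ∂V) + Lf * sig

/-- the bound -/
def TVb (c : Ch m k) (V : Measure (Euc k × L k)) (g g1 : ℝ → ℝ) (B C1 kq sig l : ℝ) : ℝ :=
  C1 * (ee c V g l + kq * Real.exp (2 * l) * (B * II c V g1 l)) +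
    2 * B * Real.exp ((1 - m) * l) * sig

theorem rad_zero (hp : Pf g g1 g2 B) {ρ : ℝ} (hl : Real.exp l ≤ ρ) {v : Euc m}
    (hv : v ∉ Metric.closedBall (0 : Euc m) ρ) : g (Real.exp (-2 * l) * ‖v‖ ^ 2) = 0 := by
  refine hp.pr.k0.zero _ (t_ge fun h1 => hv ?_)
  rw [mem_closedBall_zero_iff]
  exact h1.trans hl

theorem int_e2_le (h : Ok c K D) (hV : On V m K) (hp : Pf g g1 g2 B)
    (hk : KB c K l c0 d0 hh C0 zN) {Q ρ C1 kq sig : ℝ} {e2 : Measure (Euc m)}
    (hC1 : 0 ≤ C1) (hkq : 0 ≤ kq) (hT : TV c V Q ρ C1 kq sig e2) (hl : Real.exp l ≤ ρ) :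
    Real.exp ((2 - m) * l) * ∫ v, g (Real.exp (-2 * l) * ‖v‖ ^ 2) ∂e2 ≤
      TVb c V g g1 B C1 kq sig l := by
  have hB : 0 ≤ B := (hp.nn 0 le_rfl).trans (hp.b0 0 le_rfl)
  have h1 := hT.iii (fun v => g (Real.exp (-2 * l) * ‖v‖ ^ 2)) _
    (fun v => hp.nn _ (by positivity)) (lip_rad hp l) (fun v hv => rad_zero hp hl hv)
  rw [Real.coe_toNNReal _ (by positivity)] at h1
  have i1 := h.int hV (h.cqq l) hp.pr.k0.continuous l
  have i2 := h.int hV h.ctau hp.pr.k0.continuous l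
  have e1 : ∫ p, g (Real.exp (-2 * l) * ‖c.x p.1‖ ^ 2) *
      (c.tau p.1 p.2 + kq * (2 * c.f p.1)) ∂V =
      (∫ p, c.tau p.1 p.2 * g (Real.exp (-2 * l) * ‖c.x p.1‖ ^ 2) ∂V) +
      (kq * Real.exp (2 * l)) *
        ∫ p, qq c l p.1 * g (Real.exp (-2 * l) * ‖c.x p.1‖ ^ 2) ∂V := by
    rw [← integral_const_mul, ← integral_add i2 (i1.const_mul _)]
    refine integral_congr_ae (Eventually.of_forall fun p => ?_)
    simp only [qq]
    have h3 : Real.exp (2 * l) * Real.exp (-2 * l) = 1 := by rw [← Real.exp_add]; simp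
    calc _ = c.tau p.1 p.2 * g (Real.exp (-2 * l) * ‖c.x p.1‖ ^ 2) +
          kq * 1 * ((2 * c.f p.1) * g (Real.exp (-2 * l) * ‖c.x p.1‖ ^ 2)) := by ring
      _ = _ := by rw [← h3]; ring
  rw [e1] at h1
  have h2 := int_q_le (l := l) h hV hp hk
  have hE := Real.exp_pos ((2 - m) * l)
  have h3 := mul_le_mul_of_nonneg_left h1 hE.le
  have h4 := mul_le_mul_of_nonneg_left h2 (by positivity : 0 ≤ C1 * (kq * Real.exp (2 * l)))
  have h5 : Real.exp ((2 - m) * l) * Real.exp (-l) = Real.exp ((1 - m) * l) := by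
    rw [← Real.exp_add]; congr 1; ring
  unfold TVb ee
  calc _ ≤ _ := h3
    _ = C1 * (Real.exp ((2 - m) * l) *
          ∫ p, c.tau p.1 p.2 * g (Real.exp (-2 * l) * ‖c.x p.1‖ ^ 2) ∂V) +
        C1 * (kq * Real.exp (2 * l)) * (Real.exp ((2 - m) * l) *
          ∫ p, qq c l p.1 * g (Real.exp (-2 * l) * ‖c.x p.1‖ ^ 2) ∂V) +
        2 * B * (Real.exp ((2 - m) * l) * Real.exp (-l)) * sig := by ring
    _ ≤ _ := by
        rw [h5]
        linarith

/-- **(T0)** -/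
theorem abs_bb_le (h : Ok c K D) (hV : On V m K) (hp : Pf g g1 g2 B)
    (hk : KB c K l c0 d0 hh C0 zN) {Q ρ C1 kq sig : ℝ} {e2 : Measure (Euc m)}
    (hC1 : 0 ≤ C1) (hkq : 0 ≤ kq) (hT : TV c V Q ρ C1 kq sig e2) (hl : Real.exp l ≤ ρ) :
    |bb c V g Q l| ≤ TVb c V g g1 B C1 kq sig l := by
  have h1 := hT.i (fun v => g (Real.exp (-2 * l) * ‖v‖ ^ 2))
    (cker_v hp.pr.k0.continuous l).measurable ⟨B, fun v => by
      rw [abs_of_nonneg (hp.nn _ (by positivity))]; exact hp.b0 _ (by positivity)⟩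
    (fun v hv => rad_zero hp hl hv)
  have e0 : ∫ v : Euc m, |g (Real.exp (-2 * l) * ‖v‖ ^ 2)| ∂e2 =
      ∫ v, g (Real.exp (-2 * l) * ‖v‖ ^ 2) ∂e2 :=
    integral_congr_ae (Eventually.of_forall fun v => abs_of_nonneg (hp.nn _ (by positivity)))
  rw [e0] at h1
  have i0 := h.int hV (F := fun _ => 1) continuousOn_const hp.pr.k0.continuous l
  have i2 := h.int hV h.ctau hp.pr.k0.continuous l
  have e1 : bb c V g Q l = Real.exp ((2 - m) * l) *
      (∫ p, g (Real.exp (-2 * l) * ‖c.x p.1‖ ^ 2) * (1 - c.tau p.1 p.2 / 2) ∂V -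
        Q * ∫ v : Euc m, g (Real.exp (-2 * l) * ‖v‖ ^ 2) * c.j v) := by
    have e2' : ∫ p, g (Real.exp (-2 * l) * ‖c.x p.1‖ ^ 2) * (1 - c.tau p.1 p.2 / 2) ∂V =
        (∫ p, 1 * g (Real.exp (-2 * l) * ‖c.x p.1‖ ^ 2) ∂V) -
        1 / 2 * ∫ p, c.tau p.1 p.2 * g (Real.exp (-2 * l) * ‖c.x p.1‖ ^ 2) ∂V := by
      rw [← integral_const_mul, ← integral_sub i0 (i2.const_mul _)]
      refine integral_congr_ae (Eventually.of_forall fun p => ?_)
      simp only
      ring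
    have e3 : ∫ v : Euc m, g (Real.exp (-2 * l) * ‖v‖ ^ 2) * c.j v =
        ∫ v : Euc m, c.j v * g (Real.exp (-2 * l) * ‖v‖ ^ 2) :=
      integral_congr_ae (Eventually.of_forall fun v => mul_comm _ _)
    unfold bb EE ee
    rw [e2', e3]
    ring
  have hE := Real.exp_pos ((2 - m) * l)
  rw [e1, abs_mul, abs_of_pos hE]
  exact (mul_le_mul_of_nonneg_left h1 hE.le).trans (int_e2_le h hV hp hk hC1 hkq hT hl)

/-- **(T1)** -/
theorem er1a_le_TV (h : Ok c K D) (hV : On V m K) (hp : Pf g g1 g2 B)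
    (hk : KB c K l c0 d0 hh C0 zN) {Q ρ C1 kq sig : ℝ} {e2 : Measure (Euc m)}
    (hC1 : 0 ≤ C1) (hkq : 0 ≤ kq) (hT : TV c V Q ρ C1 kq sig e2) (hl : Real.exp l ≤ ρ)
    (hlD : Metric.closedBall 0 (Real.exp l) ⊆ D) :
    Real.exp ((2 - m) * l) * |er1a c V g Q l| ≤
      c0 * (ee c V g l / 2 + TVb c V g g1 B C1 kq sig l) := by
  classical
  have hfin := hT.fin
  have hB : 0 ≤ B := (hp.nn 0 le_rfl).trans (hp.b0 0 le_rfl)
  have hc0 := hk.c0n
  -- the measurable version of `g th`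
  set S : Set (Euc m) := Metric.closedBall 0 (Real.exp l) with hS
  set F : Euc m → ℝ := S.piecewise (fun v => th c v * g (Real.exp (-2 * l) * ‖v‖ ^ 2))
    (fun _ => 0) with hF
  have hFeq : ∀ v, F v = th c v * g (Real.exp (-2 * l) * ‖v‖ ^ 2) := by
    intro v
    rw [hF]
    by_cases hv : v ∈ S
    · rw [piecewise_eq_of_mem _ _ _ hv]
    · rw [piecewise_eq_of_notMem _ _ _ hv]
      rw [hp.pr.k0.zero _ (one_le_t hv), mul_zero]
  have hFm : Measurable F := by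
    refine ContinuousOn.measurable_piecewise ?_ continuousOn_const
      Metric.isClosed_closedBall.measurableSet
    exact (h.cth.mono hlD).mul (cker_v hp.pr.k0.continuous l).continuousOn
  have hFb : ∀ v, |F v| ≤ c0 * B := by
    intro v
    rw [hFeq v, abs_mul]
    by_cases hr : ‖v‖ ≤ Real.exp l
    · refine mul_le_mul (hk.hth _ hr) ?_ (abs_nonneg _) hc0
      rw [abs_of_nonneg (hp.nn _ (by positivity))]
      exact hp.b0 _ (by positivity)
    · rw [hp.pr.k0.zero _ (t_ge hr), abs_zero, mul_zero]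
      positivity
  have h1 := hT.i F hFm ⟨_, hFb⟩ (fun v hv => by
    rw [hFeq v, rad_zero hp hl hv, mul_zero])
  simp only [hFeq] at h1
  have hi : Integrable (fun v : Euc m => g (Real.exp (-2 * l) * ‖v‖ ^ 2)) e2 := by
    refine Integrable.mono' (integrable_const B)
      (cker_v hp.pr.k0.continuous l).aestronglyMeasurable (Eventually.of_forall fun v => ?_)
    rw [Real.norm_eq_abs, abs_of_nonneg (hp.nn _ (by positivity))]
    exact hp.b0 _ (by positivity)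
  refine (er1a_le h hV hp hk Q h1 hi).trans ?_
  refine mul_le_mul_of_nonneg_left ?_ hc0
  have h2 := int_e2_le h hV hp hk hC1 hkq hT hl
  linarith

end Crest.Agent.R234.GL_394
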