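import Crest.Agent.R234.F35_354
import Crest.Agent.R234.F35k_433
import Crest.Agent.R234.GL8_394

/-!
# Row 234, F3 (helper354), file 6: literal statements

`LEP` : the local estimate at one base point (unit scale; from the core);
`F3P1` : F3 at the scale 1 in the tube of radius 1.
-/

set_option autoImplicit false

open MeasureTheory Filter Topology Set Metric
open scoped ENNReal NNReal ContDiff InnerProductSpace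
open Crest.GeometryTopology.Submanifold Crest.Agent.R234.Vf_884

noncomputable section

namespace Crest.Agent.R234.F36_354

open Crest.Agent.R234.Main_456 (Frame Msys)
open Crest.Agent.R234.Gi_456 (Gr tube foot ch Lo)
open Crest.Agent.R234.GL_394 (VK bb Loc)
open Crest.Agent.R234.F35k_433 (bv)

/-- **the local estimate** at the base point `X`, zoom `t` (chart centre `Xc`, `c = ch π ρ x 1 w Xc`,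
`v0 = c`-coordinate of `X`, `e` = total variation measure of the anomaly near `v0`) -/
def LEP (m n k Q : ℕ) : Prop :=
  ∃ c₀ C C₁ : ℝ, 0 < c₀ ∧ c₀ ≤ 1 / 16 ∧ 1 ≤ C ∧ 0 < C₁ ∧ ∀ Cs : ℝ, ∃ D₀ : ℝ, 0 < D₀ ∧ D₀ < 1 ∧
  ∀ (π : Euc k →L[ℝ] Euc m) (ρ : Euc k →L[ℝ] Euc n) (x : Euc k) (w : Euc m → Euc n)
    (Xc X : Euc m) (κ t D : ℝ) (U K : Set (Euc k)) (Dd : VarifoldData m k) (e : Measure (Euc m)),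
  Frame π ρ → IsOpen U → IsIntegralVarifoldIn U Dd → IsStationaryIn U Dd →
  Gr 1 w → ContDiff ℝ ∞ w → 0 ≤ κ → κ ≤ c₀ →
  (∀ j, 1 ≤ j → j ≤ 3 → ∀ Y ∈ ball X 1, ‖iteratedFDeriv ℝ j w Y‖ ≤ κ) →
  0 < t → t ≤ c₀ → (∀ Y ∈ ball X (8 * t), Msys w Y = 0) →
  closedBall (Foot_842.pt π ρ x w X) (16 * t) ⊆ U →
  IsCompact K → K ⊆ tube π ρ x 1 w → K ⊆ U →
  (∀ᵐ p ∂(VD Dd), p.1 ∈ U → p.1 ∈ tube π ρ x 1 w → ‖foot π ρ x 1 w p.1 - X‖ ≤ 14 * t →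
    p.1 ∈ K) →
  (∀ᵐ p ∂(VD Dd), p.1 ∈ K → ‖foot π ρ x 1 w p.1 - X‖ ≤ 14 * t →
    2 * (ch π ρ x 1 w Xc).f p.1 ≤ t ^ 2) →
  0 < D → D ≤ D₀ → t ≤ (Real.log (1 / D)) ^ (-C₁) →
  ∫ p in {z | z ∈ K ∧ ‖foot π ρ x 1 w z - X‖ ≤ 14 * t} ×ˢ univ,
    2 * (ch π ρ x 1 w Xc).f p.1 ∂(VD Dd) ≤ D * t ^ (m + 2) →
  ∫ p in {z | z ∈ K ∧ ‖foot π ρ x 1 w z - X‖ ≤ 14 * t} ×ˢ univ,
    (ch π ρ x 1 w Xc).tau p.1 p.2 ∂(VD Dd) ≤ c₀ * t ^ m →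
  IsFiniteMeasure e →
  e.real (closedBall (Lo (fderiv ℝ w Xc) (X - Xc)) (6 * t)) ≤ c₀ * t ^ m →
  (∀ F : Euc m → ℝ, Measurable F → (∃ b : ℝ, ∀ v, |F v| ≤ b) →
    (∀ v, v ∉ closedBall (Lo (fderiv ℝ w Xc) (X - Xc)) (6 * t) → F v = 0) →
    |∫ p, F ((ch π ρ x 1 w Xc).x p.1) * (1 - (ch π ρ x 1 w Xc).tau p.1 p.2 / 2)
      ∂(VK (VD Dd) K) - Q * ∫ v, F v * (ch π ρ x 1 w Xc).j v| ≤ ∫ v, |F v| ∂e) →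
  ∫ p, bv w Xc t (Lo (fderiv ℝ w Xc) (X - Xc)) ((ch π ρ x 1 w Xc).x p.1) *
      (1 - (ch π ρ x 1 w Xc).tau p.1 p.2 / 2) ∂(VK (VD Dd) K) -
    Q * ∫ v, bv w Xc t (Lo (fderiv ℝ w Xc) (X - Xc)) v * (ch π ρ x 1 w Xc).j v ≤
  C * (κ ^ 2 * ∫ p in {z | ‖(ch π ρ x 1 w Xc).x z - Lo (fderiv ℝ w Xc) (X - Xc)‖ ≤ 16 * t} ×ˢ univ,
      2 * (ch π ρ x 1 w Xc).f p.1 ∂(VK (VD Dd) K)) +
  C * (((κ * t) ^ 2 + κ * t * √D + D) *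
    ∫ p in {z | ‖(ch π ρ x 1 w Xc).x z - Lo (fderiv ℝ w Xc) (X - Xc)‖ ≤ 16 * t} ×ˢ univ,
      (ch π ρ x 1 w Xc).tau p.1 p.2 ∂(VK (VD Dd) K)) +
  C * (κ * t) ^ 2 * e.real (closedBall (Lo (fderiv ℝ w Xc) (X - Xc)) (2 * t)) +
  t ^ m * ((Real.log (1 / D)) ^ (-Cs) * D)

/-- **F3 at the scale 1 in the tube of radius 1** -/
def F3P1 (m n k Q : ℕ) : Prop :=
  ∀ Λ : ℝ, 0 ≤ Λ → ∃ C : ℝ, 1 ≤ C ∧ ∀ a C' : ℝ, 0 < a → 0 < C' →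
  ∃ κ₀ H₀ : ℝ, 0 < κ₀ ∧ 0 < H₀ ∧ H₀ < 1 ∧
  ∀ (π : Euc k →L[ℝ] Euc m) (ρ : Euc k →L[ℝ] Euc n) (x : Euc k) (w : Euc m → Euc n)
    (X0 : Euc m) (κ ε H : ℝ) (U K : Set (Euc k)) (Dd : VarifoldData m k) (g : ℝ → ℝ),
  Frame π ρ → IsOpen U → IsIntegralVarifoldIn U Dd → IsStationaryIn U Dd →
  Gr 1 w → ContDiff ℝ ∞ w → 0 ≤ κ → κ ≤ κ₀ →
  (∀ j, 1 ≤ j → j ≤ 3 → ∀ Y ∈ ball X0 2, ‖iteratedFDeriv ℝ j w Y‖ ≤ κ) →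
  0 < ε → ε ≤ 1 → (∀ Y ∈ ball X0 (1 + ε), Msys w Y = 0) →
  closedBall (Foot_842.pt π ρ x w X0) 4 ⊆ U →
  Loc (ch π ρ x 1 w X0) U (tube π ρ x 1 w) K (VD Dd) (Real.log (1 + ε)) →
  (∀ z ∈ K, ‖(ch π ρ x 1 w X0).nu z‖ ≤ 1 / 2) →
  (∀ᵐ p ∂(VD Dd), p.1 ∈ U → 1 ≤ Th m (VD Dd) p.1) →
  (VD Dd).real ({z | z ∈ K ∧ ‖(ch π ρ x 1 w X0).x z‖ < 1 + ε} ×ˢ univ) ≤ Λ →
  |(VD Dd).real ({z | z ∈ K ∧ ‖(ch π ρ x 1 w X0).x z‖ < 1 / 4} ×ˢ univ) -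
    Q * volume.real (ball (0 : Euc m) (1 / 4))| ≤ 1 / 4 * volume.real (ball (0 : Euc m) (1 / 4)) →
  0 < H → H ≤ H₀ → (Real.log (1 / H)) ^ (-a) ≤ ε →
  ∫ p in {z | ‖(ch π ρ x 1 w X0).x z‖ < 1 + ε} ×ˢ univ, 2 * (ch π ρ x 1 w X0).f p.1
    ∂(VK (VD Dd) K) ≤ H →
  (∀ s, 0 ≤ g s) → (∀ s, 0 ≤ s → g s ≤ 1) → (∀ s, 1 ≤ s → g s = 0) →
  LipschitzWith 6 (fun v : Euc m => g (‖v‖ ^ 2)) →
  bb (ch π ρ x 1 w X0) (VK (VD Dd) K) g Q 0 ≤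
    C * κ ^ 2 * ∫ p, g (‖(ch π ρ x 1 w X0).x p.1‖ ^ 2) * (2 * (ch π ρ x 1 w X0).f p.1)
      ∂(VK (VD Dd) K) + (Real.log (1 / H)) ^ (-C') * H

end Crest.Agent.R234.F36_354
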