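import Crest.Agent.R234.Nrm2_842

/-!
# Row 234, F3-NORM supplement (helper332): minimality of the normalised surface from minimality on
the small ball `ball X0 (8 t)` only (`Zm.ms` of 842 asks for the unit ball).
-/

set_option autoImplicit false

open MeasureTheory Set Metric Filter Topology
open scoped ContDiff NNReal ENNReal RealInnerProductSpace
open Crest.GeometryTopology.Submanifold

noncomputable section

namespace Crest.Agent.R234.Nrm_842

open Crest.Agent.R234.Ell1_3 Crest.Agent.R234.Main_456 Crest.Agent.R234.Grot_842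
open Crest.Agent.R234.Foot_842 Crest.Agent.R234.Swb_159

variable {m n k : ℕ}

/-- pointwise form of `Rot.msys` -/
theorem rot_msys_at {q : Euc m →L[ℝ] Euc n} {H : Euc m →L[ℝ] Euc m} {H' : Euc n →L[ℝ] Euc n}
    {K : ℕ} {C κ : ℝ} {v w : Euc m → Euc n} (h : Rot q H H' K C κ v w)
    (hv : ContDiffOn ℝ ∞ v (ball 0 1)) {a : Euc m} (ha : ‖a‖ < 15 / 16) (hM : Msys v a = 0) :
    Msys w (H (a + ContinuousLinearMap.adjoint q (v a))) = 0 := by
  have ha' : a ∈ ball (0 : Euc m) (15 / 16) := mem_ball_zero_iff.2 ha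
  have ha1 : a ∈ ball (0 : Euc m) 1 := by
    rw [mem_ball_zero_iff]; linarith
  have h1 := ms_rot (EuclideanSpace.basisFun (Fin m) ℝ) h.rt (v := v) (w := w) (a := a)
    ((hv.contDiffAt (isOpen_ball.mem_nhds ha1)).of_le two_le_inf)
    (h.smooth.contDiffAt.of_le two_le_inf) ?_
  · rw [ms_std, ms_std, hM] at h1
    simpa using h1
  · filter_upwards [isOpen_ball.mem_nhds ha'] with x hx
    exact h.graph x (ball_subset_closedBall hx)

namespace Zm

variable {w w' U : Euc m → Euc n} {X0 : Euc m} {K : ℕ} {C κ t : ℝ} {q : Euc m →L[ℝ] Euc n}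
  {H : Euc m →L[ℝ] Euc m} {H' : Euc n →L[ℝ] Euc n}

/-- **minimality of the normalised surface from the small ball** -/
theorem ms_near (h : Zm w X0 K C κ t q H H' w' U) (hw : ContDiff ℝ ∞ w)
    (hms : ∀ X ∈ ball X0 (8 * t), Msys w X = 0) : ∀ x ∈ ball (0 : Euc m) 7, Msys U x = 0 := by
  intro x hx
  have hx7 : ‖x‖ < 7 := mem_ball_zero_iff.1 hx
  have ht := h.t0
  have ht1 := h.t1
  have h1 : Msys U x = Msys (sc t w') x := by
    have h2 : U =ᶠ[𝓝 x] sc t w' := by
      filter_upwards [h.near hx7] with y hy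
      rw [hy]; rfl
    unfold Msys
    have h3 : fderiv ℝ U =ᶠ[𝓝 x] fderiv ℝ (sc t w') := h2.fderiv
    rw [h2.fderiv_eq, h3.fderiv_eq]
  rw [h1, Msys_sc ht.ne']
  have h2 : t • x ∈ ball (0 : Euc m) (7 / 8) := by
    rw [mem_ball_zero_iff, norm_smul, Real.norm_of_nonneg ht.le]
    calc t * ‖x‖ ≤ 1 / 8 * ‖x‖ := by gcongr
      _ < 7 / 8 := by linarith
  obtain ⟨a, ha, he⟩ := h.rot.surj _ h2
  have ha' : ‖a‖ < 15 / 16 := mem_ball_zero_iff.1 ha
  have hv : ContDiff ℝ ∞ (shf w X0) := shf_contDiff hw X0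
  have h3 : ‖a‖ ≤ 65 / 64 * ‖chg q H (shf w X0) a‖ := h.le_norm_chg ha'.le
  have h4 : chg q H (shf w X0) a = t • x := he
  have h5 : ‖a‖ < 8 * t := by
    rw [h4, norm_smul, Real.norm_of_nonneg ht.le] at h3
    have : t * ‖x‖ ≤ t * 7 := by gcongr
    nlinarith
  have h6 : Msys (shf w X0) a = 0 := by
    rw [Msys_shf]
    refine hms _ ?_
    rw [mem_ball_iff_norm, add_sub_cancel_left]
    exact h5
  have h7 := rot_msys_at h.rot hv.contDiffOn ha' h6
  rw [he] at h7
  rw [h7, smul_zero]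

end Zm

end Crest.Agent.R234.Nrm_842
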