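import Crest.Agent.R234.Fx4_281
import Crest.Agent.R234.Ex9_46
import Crest.Agent.R234.ZmL_332
import Crest.Agent.R234.Bp3_3
import Crest.Agent.R234.F36_354

/-!
# Row 234, F3 (helper354), file 7: the varifold near a base point

`Am` : ambient hypotheses of the local estimate. `Am.sep_le` : the height excess over the rotated
zoomed graph; `Am.sub1`, `Am.sub2` : cylinders of the adapted chart versus sets of feet.
-/

set_option autoImplicit false

open MeasureTheory Filter Topology Set Metric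
open scoped ENNReal NNReal ContDiff InnerProductSpace
open Crest.GeometryTopology.Submanifold Crest.Agent.R234.Vf_884

noncomputable section

namespace Crest.Agent.R234.F37_354

open Crest.Agent.R234.Main_456 (Frame Msys hgt sep box)
open Crest.Agent.R234.Gi_456 (Gr tube foot ch Lo IsFoot)
open Crest.Agent.R234.GL_394 (VK On Ok)
open Crest.Agent.R234.Cy_870 (Split cyl)
open Crest.Agent.R234.Fc_209 (IsChart Bd)
open Crest.Agent.R234.Foot_842 (pt)
open Crest.Agent.R234.Nrm_842 (Zm zc)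
open Crest.Agent.R234.Grot_842 (rπ rρ)
open Crest.Agent.R234.Fm_281 (zy)
open Crest.Agent.R234.Ex_46 (hmt')
open Crest.Agent.R234.F35_354 (Bp)

variable {m n k : ℕ}

/-- points of `K` with feet near `X` -/
def Rg (π : Euc k →L[ℝ] Euc m) (ρ : Euc k →L[ℝ] Euc n) (x : Euc k) (w : Euc m → Euc n)
    (K : Set (Euc k)) (X : Euc m) (s : ℝ) : Set (Euc k) :=
  {z | z ∈ K ∧ ‖foot π ρ x 1 w z - X‖ ≤ s}

/-- ambient hypotheses of the local estimate -/
structure Am (π : Euc k →L[ℝ] Euc m) (ρ : Euc k →L[ℝ] Euc n) (x : Euc k) (w : Euc m → Euc n)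
    (Xc X : Euc m) (t : ℝ) (U K : Set (Euc k)) (Dd : VarifoldData m k) : Prop where
  fr : Frame π ρ
  opn : IsOpen U
  int : IsIntegralVarifoldIn U Dd
  sta : IsStationaryIn U Dd
  gr : Gr 1 w
  cpt : IsCompact K
  kt : K ⊆ tube π ρ x 1 w
  ku : K ⊆ U
  ball : closedBall (pt π ρ x w X) (16 * t) ⊆ U
  gap : ∀ᵐ p ∂(VD Dd), p.1 ∈ U → p.1 ∈ tube π ρ x 1 w → ‖foot π ρ x 1 w p.1 - X‖ ≤ 14 * t →
    p.1 ∈ K
  small : ∀ᵐ p ∂(VD Dd), p.1 ∈ K → ‖foot π ρ x 1 w p.1 - X‖ ≤ 14 * t →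
    2 * (ch π ρ x 1 w Xc).f p.1 ≤ t ^ 2

variable {π : Euc k →L[ℝ] Euc m} {ρ : Euc k →L[ℝ] Euc n} {x : Euc k} {w : Euc m → Euc n}
  {Xc X : Euc m} {t : ℝ} {U K : Set (Euc k)} {Dd : VarifoldData m k}

/-- `2 f` is the squared distance to the foot point -/
theorem two_f (hf : Frame π ρ) (hw : Gr 1 w) (Xc : Euc m) {z : Euc k} (hz : z ∈ tube π ρ x 1 w) :
    2 * (ch π ρ x 1 w Xc).f z = ‖z - pt π ρ x w (foot π ρ x 1 w z)‖ ^ 2 := by
  have h1 := hw.nu_eq hf hz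
  change 2 * (‖Gi_456.Bt π ρ w (foot π ρ x 1 w z) (Gi_456.yy π ρ x 1 w z)‖ ^ 2 / 2) = _
  rw [h1]
  unfold Foot_842.pt
  ring

namespace Am

variable (h : Am π ρ x w Xc X t U K Dd)
include h

theorem ok : Ok (ch π ρ x 1 w Xc) K univ := h.gr.ok h.fr Xc h.cpt h.kt

theorem on : On (VK (VD Dd) K) m K where
  fin := ⟨by
    unfold GL_394.VK
    rw [Measure.restrict_apply_univ]
    exact VD_fin h.int h.cpt h.ku⟩
  mem := by
    unfold GL_394.VK
    have hmeas : MeasurableSet (K ×ˢ (univ : Set (Vf_884.L k))) :=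
      h.cpt.isClosed.measurableSet.prod MeasurableSet.univ
    filter_upwards [ae_restrict_of_ae (VD_conc h.int), ae_restrict_mem hmeas] with p hp hp2
    exact ⟨hp2.1, hp⟩

theorem closed_Rg (s : ℝ) : IsClosed (Rg π ρ x w K X s) := by
  have h1 : ContinuousOn (foot π ρ x 1 w) K := (h.gr.continuousOn_foot h.fr).mono h.kt
  have h2 := h1.preimage_isClosed_of_isClosed h.cpt.isClosed
    (isClosed_closedBall (x := X) (ε := s))
  convert h2 using 1
  ext z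
  simp [Rg, dist_eq_norm]

theorem meas_Rg (s : ℝ) : MeasurableSet (Rg π ρ x w K X s) := (h.closed_Rg s).measurableSet

theorem meas_Rg' (s : ℝ) : MeasurableSet (Rg π ρ x w K X s ×ˢ (univ : Set (L k))) :=
  (h.meas_Rg s).prod .univ

theorem int_f : IntegrableOn (fun p : Euc k × L k => 2 * (ch π ρ x 1 w Xc).f p.1)
    (K ×ˢ univ) (VD Dd) := by
  have h1 : ContinuousOn (fun p : Euc k × L k => 2 * (ch π ρ x 1 w Xc).f p.1) (K ×ˢ G m k) :=
    continuousOn_const.mul (h.ok.cf.comp continuousOn_fst (fun p hp => hp.1))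
  exact h.on.integrable h.cpt h1

theorem int_tau : IntegrableOn (fun p : Euc k × L k => (ch π ρ x 1 w Xc).tau p.1 p.2)
    (K ×ˢ univ) (VD Dd) := h.on.integrable h.cpt h.ok.ctau

omit h in
theorem Rg_sub (s : ℝ) : Rg π ρ x w K X s ×ˢ (univ : Set (L k)) ⊆ K ×ˢ univ :=
  prod_mono (fun _ hz => hz.1) subset_rfl

theorem VD_fin' (s : ℝ) : VD Dd (Rg π ρ x w K X s ×ˢ univ) < ⊤ :=
  (measure_mono (Rg_sub s)).trans_lt (VD_fin h.int h.cpt h.ku)

variable {C κ e : ℝ} {q : Euc m →L[ℝ] Euc n} {H : Euc m →L[ℝ] Euc m} {H' : Euc n →L[ℝ] Euc n}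
  {w' u : Euc m → Euc n} {T : Ft_209.Dif k}

/-- **the height excess over the rotated zoomed graph** -/
theorem sep_le (hB : Bp π ρ x w X C κ t q H H' w' u T e) {D : ℝ}
    (hD : ∫ p in Rg π ρ x w K X (14 * t) ×ˢ univ, 2 * (ch π ρ x 1 w Xc).f p.1 ∂(VD Dd) ≤
      D * t ^ (m + 2)) :
    sep (VD Dd) (rπ π ρ q H) (rρ π ρ q H') (pt π ρ x w X) t u 7 ≤
      25 / 16 * D * t ^ (m + 2) := by
  have ht := hB.zm.t0
  set S := box (rπ π ρ q H) (rρ π ρ q H') (pt π ρ x w X) (7 * t) with hS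
  have hae : (S ×ˢ (univ : Set (L k)) : Set (Euc k × L k)) ≤ᵐ[VD Dd]
      (Rg π ρ x w K X (14 * t) ×ˢ (univ : Set (L k)) : Set (Euc k × L k)) := by
    filter_upwards [h.gap] with p hp hpS
    have h1 : p.1 ∈ S := hpS.1
    obtain ⟨h2, h3, -⟩ := hB.sep_pt h1
    have h4 : p.1 ∈ U := by
      refine h.ball ?_
      rw [mem_closedBall_iff_norm]
      exact (hB.norm_le_of_box h1).trans (by linarith)
    have h5 : ‖foot π ρ x 1 w p.1 - X‖ ≤ 14 * t := h3.trans (by linarith)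
    exact ⟨⟨hp h4 h2 h5, h5⟩, mem_univ _⟩
  have hres := Measure.restrict_mono_ae hae
  have hSm : MeasurableSet S := by
    refine IsOpen.measurableSet ?_
    have c1 : Continuous fun z : Euc k => ‖rπ π ρ q H (z - pt π ρ x w X)‖ :=
      ((rπ π ρ q H).continuous.comp (continuous_id.sub continuous_const)).norm
    have c2 : Continuous fun z : Euc k => ‖rρ π ρ q H' (z - pt π ρ x w X)‖ :=
      ((rρ π ρ q H').continuous.comp (continuous_id.sub continuous_const)).norm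
    exact (isOpen_lt c1 continuous_const).inter (isOpen_lt c2 continuous_const)
  have i1 : Integrable (fun p : Euc k × L k => 25 / 16 * (2 * (ch π ρ x 1 w Xc).f p.1))
      ((VD Dd).restrict (Rg π ρ x w K X (14 * t) ×ˢ univ)) :=
    (h.int_f.mono_set (Rg_sub _)).const_mul _
  have i2 := i1.mono_measure hres
  unfold sep
  calc ∫ p in S ×ˢ univ, ‖hgt (rπ π ρ q H) (rρ π ρ q H') (pt π ρ x w X) t u p.1‖ ^ 2 ∂(VD Dd)
      ≤ ∫ p in S ×ˢ univ, 25 / 16 * (2 * (ch π ρ x 1 w Xc).f p.1) ∂(VD Dd) := by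
        refine integral_mono_of_nonneg (Eventually.of_forall fun p => by positivity) i2 ?_
        filter_upwards [ae_restrict_mem (hSm.prod MeasurableSet.univ)] with p hp
        obtain ⟨h2, -, h3⟩ := hB.sep_pt hp.1
        rw [two_f h.fr h.gr Xc h2]
        have h4 := pow_le_pow_left₀ (norm_nonneg _) h3 2
        refine h4.trans (le_of_eq ?_)
        ring
    _ ≤ ∫ p in Rg π ρ x w K X (14 * t) ×ˢ univ, 25 / 16 * (2 * (ch π ρ x 1 w Xc).f p.1)
          ∂(VD Dd) := by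
        refine integral_mono_measure hres ?_ i1
        filter_upwards [ae_restrict_mem (h.meas_Rg' _)] with p hp
        rw [two_f h.fr h.gr Xc (h.kt hp.1.1)]
        positivity
    _ = 25 / 16 * ∫ p in Rg π ρ x w K X (14 * t) ×ˢ univ, 2 * (ch π ρ x 1 w Xc).f p.1
          ∂(VD Dd) := integral_const_mul _ _
    _ ≤ 25 / 16 * (D * t ^ (m + 2)) := by gcongr
    _ = _ := by ring

omit h in
theorem zy_back (ht : 0 < t) (z' : Euc k) :
    zy π ρ x w X t (pt π ρ x w X + t • z') = z' := by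
  unfold Fm_281.zy
  rw [add_sub_cancel_left, smul_smul, inv_mul_cancel₀ ht.ne', one_smul]

omit h in
theorem zy_fwd (ht : 0 < t) (z : Euc k) : pt π ρ x w X + t • zy π ρ x w X t z = z := by
  unfold Fm_281.zy
  rw [smul_smul, mul_inv_cancel₀ ht.ne', one_smul, add_sub_cancel]

omit h in
theorem mem_img (ht : 0 < t) (S : Set (Euc k)) (z : Euc k) :
    z ∈ hmt' (pt π ρ x w X) t '' (T.Φ '' S) ↔ T.Ψ (zy π ρ x w X t z) ∈ S := by
  constructor
  · rintro ⟨_, ⟨a, ha, rfl⟩, rfl⟩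
    have h1 : hmt' (pt π ρ x w X) t (T.Φ a) = pt π ρ x w X + t • T.Φ a := rfl
    rw [h1, zy_back ht, T.left]
    exact ha
  · intro h1
    refine ⟨T.Φ (T.Ψ (zy π ρ x w X t z)), ⟨_, h1, rfl⟩, ?_⟩
    have h2 : hmt' (pt π ρ x w X) t (T.Φ (T.Ψ (zy π ρ x w X t z))) =
      pt π ρ x w X + t • T.Φ (T.Ψ (zy π ρ x w X t z)) := rfl
    rw [h2, T.right, zy_fwd ht]

omit h in
/-- points of the cylinder are near the base point -/
theorem near_of_cyl (hB : Bp π ρ x w X C κ t q H H' w' u T e) {z : Euc k}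
    (hz : T.Ψ (zy π ρ x w X t z) ∈ cyl (rπ π ρ q H) (rρ π ρ q H') 0 5 2) :
    ‖z - pt π ρ x w X‖ ≤ 6 * t := by
  have ht := hB.zm.t0
  set z' := T.Ψ (zy π ρ x w X t z) with hz'
  obtain ⟨h1, h2⟩ := hz
  rw [sub_zero] at h1
  have h3 : T.Φ z' = zy π ρ x w X t z := by rw [hz', T.right]
  have h4 := hB.ct.near z'
  have h5 : ‖u (rπ π ρ q H z')‖ ≤ 1 / 64 := by
    have := hB.zm.bd 0 (by norm_num) (rπ π ρ q H z')
    rw [norm_iteratedFDeriv_zero] at this
    exact this.trans hB.zm.Cκt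
  have h6 : ‖z'‖ ^ 2 ≤ 29 := by
    have h7 := (Fm_281.splitZ hB.zm hB.fr).norm_sq z'
    nlinarith [norm_nonneg (rπ π ρ q H z'), norm_nonneg (rρ π ρ q H' z')]
  have h8 : ‖z'‖ ≤ 11 / 2 := by nlinarith [norm_nonneg z']
  have h9 : ‖T.Φ z'‖ ≤ 6 := by
    have h10 : T.Φ z' = z' + (T.Φ z' - z') := by abel
    rw [h10]
    refine (norm_add_le _ _).trans ?_
    have := hB.e1
    linarith
  rw [h3] at h9
  have h10 : ‖z - pt π ρ x w X‖ = t * ‖zy π ρ x w X t z‖ := by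
    unfold Fm_281.zy
    rw [norm_smul, norm_inv, Real.norm_of_nonneg ht.le, ← mul_assoc, mul_inv_cancel₀ ht.ne',
      one_mul]
  rw [h10]
  nlinarith

omit h in
/-- feet of points of the cylinder -/
theorem foot_of_cyl (hB : Bp π ρ x w X C κ t q H H' w' u T e) {z : Euc k}
    (hz : T.Ψ (zy π ρ x w X t z) ∈ cyl (rπ π ρ q H) (rρ π ρ q H') 0 5 2) :
    z ∈ tube π ρ x 1 w ∧ ‖foot π ρ x 1 w z - X‖ < 6 * t ∧
      zc t q H w X (foot π ρ x 1 w z) = rπ π ρ q H (T.Ψ (zy π ρ x w X t z)) ∧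
      ‖z - pt π ρ x w (foot π ρ x 1 w z)‖ ≤
        33 / 32 * (t * ‖rρ π ρ q H' (T.Ψ (zy π ρ x w X t z))‖) := by
  have ht := hB.zm.t0
  have ht16 := hB.t16
  have h0 := near_of_cyl hB hz
  obtain ⟨h1, h2⟩ := hz
  rw [sub_zero] at h1
  obtain ⟨h3, -⟩ := hB.near_pt (a := 6) (by norm_num) h0
  obtain ⟨X', hX', h4, h5, h6⟩ := Fm_281.corr2 (r := 1) hB.zm hB.fr hB.ct (by linarith) h1 h2
  rw [hB.gr.foot_eq h5]
  exact ⟨h3, hX', h4, h6⟩

/-- **cylinders of the chart are made of points of `K`** -/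
theorem sub1 (hB : Bp π ρ x w X C κ t q H H' w' u T e) :
    ∀ᵐ p ∂(VD Dd), T.Ψ (zy π ρ x w X t p.1) ∈ cyl (rπ π ρ q H) (rρ π ρ q H') 0 5 2 →
      p.1 ∈ K := by
  have ht := hB.zm.t0
  filter_upwards [h.gap] with p hp h1
  have h0 := near_of_cyl hB h1
  obtain ⟨h3, h4, -, -⟩ := foot_of_cyl hB h1
  refine hp (h.ball ?_) h3 (by linarith)
  rw [mem_closedBall_iff_norm]
  linarith

/-- **points of `K` with near feet are in the cylinder of height `1`** -/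
theorem sub2 (hB : Bp π ρ x w X C κ t q H H' w' u T e) :
    ∀ᵐ p ∂(VD Dd), p.1 ∈ K → ‖foot π ρ x 1 w p.1 - X‖ ≤ 6 * t →
      rπ π ρ q H (T.Ψ (zy π ρ x w X t p.1)) = zc t q H w X (foot π ρ x 1 w p.1) ∧
      ‖rρ π ρ q H' (T.Ψ (zy π ρ x w X t p.1))‖ ≤
        ‖p.1 - pt π ρ x w (foot π ρ x 1 w p.1)‖ / t ∧
      ‖p.1 - pt π ρ x w (foot π ρ x 1 w p.1)‖ ≤ t := by
  have ht := hB.zm.t0
  filter_upwards [h.small] with p hp hK hX
  have h1 := hp hK (by linarith)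
  rw [two_f h.fr h.gr Xc (h.kt hK)] at h1
  have h2 : ‖p.1 - pt π ρ x w (foot π ρ x 1 w p.1)‖ ≤ t :=
    (sq_le_sq₀ (norm_nonneg _) ht.le).1 h1
  obtain ⟨h3, h4, h5⟩ := Fm_281.corr1 hB.zm hB.fr hB.ct (r := 1) hX (h.gr.foot_spec (h.kt hK))
    (by linarith)
  exact ⟨h3, h5, h2⟩

end Am

end Crest.Agent.R234.F37_354
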