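import Crest.Agent.R234.We10_822
import Crest.Agent.R234.Asl8_214

/-!
Row 234 (helper822), WELL-AS part 2: the instance of 761's `Flow` for almost stationary varifolds in
a cylinder (214's `CylAS`), explicit error `erAS`, and its bound `erAS ≤ C (√δ + b) q²`.
-/

set_option autoImplicit false

open MeasureTheory Set Function Filter Topology
open Crest.GeometryTopology.Submanifold
open Crest.Agent.R234.Vf_884 Crest.Agent.R234.Ar_870 Crest.Agent.R234.Cy_870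
open Crest.Agent.R234.Wi_870 Crest.Agent.R234.Asl_214
open scoped ENNReal NNReal InnerProductSpace

noncomputable section

namespace Crest.Agent.R234.We_822

variable {m n k : ℕ} {π : Euc k →L[ℝ] Euc m} {κ : Euc k →L[ℝ] Euc n} {x x₀ : Euc m}
  {W : Measure (Euc k × L k)} {g g1 g2 : ℝ → ℝ} {R h₀ δ K ρ₀ : ℝ}

/-- bound of the Hessian of the tests -/
def BB : ℝ := 1 + Well_761.etaC / 8

theorem BB_one : 1 ≤ BB := by
  have := Well_761.etaC_nonneg
  unfold BB; linarith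

/-- **the error of `Flow` in the class AS** -/
def erAS (W : Measure (Euc k × L k)) (π : Euc k →L[ℝ] Euc m) (K δ h₀ : ℝ) (x : Euc m)
    (l q : ℝ) : ℝ :=
  2 * (K * (3 + Real.exp l)) * δ * q ^ 2 *
      (Real.exp (-2 * l) * tb W π x l + h₀ ^ 2 * mb W π x l) +
    K * (4 + Real.exp l) * δ * q *
      (√(tb W π x l) * √(mb W π x l) + h₀ * Real.exp l * mb W π x l) +
    K * BB * δ * h₀ * Real.exp l * (√(tb W π x l) * √(mb W π x l)) +
    K * (δ * BB + √δ * q) * tb W π x l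

/-- the scaled first variation of `X2` -/
theorem x2_gen (h : CylAS W π κ x₀ R h₀ δ) (h0 : 0 ≤ δ) (hh : 0 ≤ h₀) (hg : Ker g g1)
    (hK : Bd g g1 K) {F : Euc n → ℝ} {dF : Euc n → Euc n} {H : Euc n → L n}
    (hF : C2F F dF H) {d₀ B₀ : ℝ} (hd₀ : ∀ y, ‖y‖ ≤ h₀ → ‖dF y‖ ≤ d₀)
    (hB₀ : ∀ y, ‖y‖ ≤ h₀ → ‖H y‖ ≤ B₀) {l : ℝ} (hl : ‖x - x₀‖ + Real.exp l ≤ R) :
    Real.exp ((2 - m) * l) * |FV W (X2 π κ x dF g l)| ≤
      K * (2 + Real.exp l) * δ * d₀ *
        (√(tb W π x l) * √(mb W π x l) + h₀ * Real.exp l * mb W π x l) +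
      K * B₀ * δ * h₀ * Real.exp l * (√(tb W π x l) * √(mb W π x l)) +
      K * (δ * B₀ + √δ * d₀) * tb W π x l := by
  have h1 := h.FV2_gen h0 hh hg hK hF hd₀ hB₀ hl
  rw [sqrt_TM h, TB_eq, MB_eq] at h1
  have e1 : Real.exp ((2 - m) * l) * Real.exp ((m - 2) * l) = 1 := by
    rw [← Real.exp_add]
    have : (2 - m : ℝ) * l + (m - 2) * l = 0 := by ring
    rw [this, Real.exp_zero]
  have e4 : Real.exp ((2 - m) * l) * Real.exp ((m - 1) * l) = Real.exp l := by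
    rw [← Real.exp_add]; congr 1; ring
  have e2 : Real.exp ((2 - m) * l) * (2 * Real.exp (-l) + 1) * Real.exp ((m - 1) * l) =
      2 + Real.exp l := by
    have a1 : Real.exp ((2 - m) * l) * Real.exp (-l) * Real.exp ((m - 1) * l) = 1 := by
      rw [← Real.exp_add, ← Real.exp_add]
      have : (2 - m : ℝ) * l + -l + (m - 1) * l = 0 := by ring
      rw [this, Real.exp_zero]
    linear_combination 2 * a1 + e4
  have e3 : Real.exp ((2 - m) * l) * (2 * Real.exp (-l) + 1) * Real.exp (m * l) =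
      (2 + Real.exp l) * Real.exp l := by
    have a1 : Real.exp ((2 - m) * l) * Real.exp (-l) * Real.exp (m * l) = Real.exp l := by
      rw [← Real.exp_add, ← Real.exp_add]; congr 1; ring
    have a2 : Real.exp ((2 - m) * l) * Real.exp (m * l) = Real.exp l * Real.exp l := by
      rw [← Real.exp_add, ← Real.exp_add]; congr 1; ring
    linear_combination 2 * a1 + a2
  calc Real.exp ((2 - m) * l) * |FV W (X2 π κ x dF g l)| ≤ Real.exp ((2 - m) * l) * _ :=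
        mul_le_mul_of_nonneg_left h1 (Real.exp_pos _).le
    _ = δ * d₀ * K * ((Real.exp ((2 - m) * l) * (2 * Real.exp (-l) + 1) *
            Real.exp ((m - 1) * l)) * (√(tb W π x l) * √(mb W π x l)) +
          (Real.exp ((2 - m) * l) * (2 * Real.exp (-l) + 1) * Real.exp (m * l)) *
            (h₀ * mb W π x l)) +
        K * δ * B₀ * h₀ * ((Real.exp ((2 - m) * l) * Real.exp ((m - 1) * l)) *
          (√(tb W π x l) * √(mb W π x l))) +
        K * (δ * B₀ + √δ * d₀) * ((Real.exp ((2 - m) * l) * Real.exp ((m - 2) * l)) *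
          tb W π x l) := by ring
    _ = _ := by
        rw [e1, e2, e3, e4]; ring

/-- the scaled first variation of `X3` -/
theorem x3_gen (h : CylAS W π κ x₀ R h₀ δ) (h0 : 0 ≤ δ) (hh : 0 ≤ h₀) (hg : Ker g1 g2)
    (hK : Bd g1 g2 K) {F : Euc n → ℝ} {dF : Euc n → Euc n} {H : Euc n → L n}
    (hF : C2F F dF H) {F₀ d₀ : ℝ} (hF₀ : ∀ y, ‖y‖ ≤ h₀ → |F y| ≤ F₀)
    (hd₀ : ∀ y, ‖y‖ ≤ h₀ → ‖dF y‖ ≤ d₀) {l : ℝ} (hl : ‖x - x₀‖ + Real.exp l ≤ R) :
    Real.exp (-m * l) * |FV W (X3 π κ x F g1 l)| ≤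
      K * (3 + Real.exp l) * δ * F₀ *
        (Real.exp (-2 * l) * tb W π x l + h₀ ^ 2 * mb W π x l) +
      K * δ * d₀ * (√(tb W π x l) * √(mb W π x l) + h₀ * Real.exp l * mb W π x l) := by
  have h1 := h.FV3_gen h0 hh hg hK hF hF₀ hd₀ hl
  rw [sqrt_TM h, TB_eq, MB_eq] at h1
  have e1 : Real.exp (-m * l) * Real.exp ((m - 2) * l) = Real.exp (-2 * l) := by
    rw [← Real.exp_add]; congr 1; ring
  have e2 : Real.exp (-m * l) * Real.exp (m * l) = 1 := by
    rw [← Real.exp_add]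
    have : (-m : ℝ) * l + m * l = 0 := by ring
    rw [this, Real.exp_zero]
  have e3 : Real.exp (-m * l) * Real.exp l * Real.exp ((m - 1) * l) = 1 := by
    rw [← Real.exp_add, ← Real.exp_add]
    have : (-m : ℝ) * l + l + (m - 1) * l = 0 := by ring
    rw [this, Real.exp_zero]
  have e4 : Real.exp (-m * l) * Real.exp l * Real.exp (m * l) = Real.exp l := by
    rw [← Real.exp_add, ← Real.exp_add]; congr 1; ring
  calc Real.exp (-m * l) * |FV W (X3 π κ x F g1 l)| ≤ Real.exp (-m * l) * _ :=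
        mul_le_mul_of_nonneg_left h1 (Real.exp_pos _).le
    _ = δ * F₀ * (K * (3 + Real.exp l)) * ((Real.exp (-m * l) * Real.exp ((m - 2) * l)) *
          tb W π x l + h₀ ^ 2 * ((Real.exp (-m * l) * Real.exp (m * l)) * mb W π x l)) +
        δ * d₀ * K * ((Real.exp (-m * l) * Real.exp l * Real.exp ((m - 1) * l)) *
          (√(tb W π x l) * √(mb W π x l)) +
          (Real.exp (-m * l) * Real.exp l * Real.exp (m * l)) * (h₀ * mb W π x l)) := by ring
    _ = _ := by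
        rw [e1, e2, e3, e4]; ring

theorem c2w_c2F {F : Euc n → ℝ} {dF : Euc n → Euc n} {H : Euc n → L n} (h : C2w F dF H) :
    C2F F dF H := ⟨h.hasF, h.hasdF, h.contH⟩

/-- the error is bounded by `erAS` for every test function -/
theorem er_le_erAS (h : CylAS W π κ x₀ R h₀ δ) (h0 : 0 ≤ δ) (hh : 0 ≤ h₀)
    (hg : Prof g g1 g2) (hK : Bd g g1 K) (hK' : Bd g1 g2 K) {F : Euc n → ℝ}
    {G : Euc n → Euc n} {A : Euc n → L n} {q : ℝ} (hT : Well_761.Test F G A q) {l : ℝ}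
    (hl : ‖x - x₀‖ + Real.exp l ≤ R) :
    2 * Real.exp (-m * l) * |FV W (X3 π κ x F g1 l)| +
      Real.exp ((2 - m) * l) * |FV W (X2 π κ x G g l)| ≤ erAS W π K δ h₀ x l q := by
  have hF := c2w_c2F (test_c2w hT)
  have h3 := x3_gen h h0 hh hg.k1 hK' hF (F₀ := q ^ 2) (d₀ := q) (fun y _ => hT.bF y)
    (fun y _ => hT.bG y) hl
  have h2 := x2_gen h h0 hh hg.k0 hK hF (d₀ := q) (B₀ := BB) (fun y _ => hT.bG y)
    (fun y _ => hT.bA y) hl
  have h4 := add_le_add (mul_le_mul_of_nonneg_left h3 (by norm_num : (0:ℝ) ≤ 2)) h2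
  refine le_trans (le_of_eq ?_) (h4.trans (le_of_eq ?_))
  · ring
  · unfold erAS; ring

/-- **the instance of `Flow` in the class AS** -/
theorem flow_as (h : CylAS W π κ x₀ R h₀ δ) (h0 : 0 ≤ δ) (hh : 0 ≤ h₀) (hρ : ρ₀ ≤ R)
    (hg : Prof g g1 g2) (hK : Bd g g1 K) (hK' : Bd g1 g2 K) (hg0 : ∀ t, 0 ≤ t → 0 ≤ g t) :
    Well_761.Flow m (kap g1) (muOf W π κ) (enOf W π κ) (fun x l => RR W π x g1 l)
      (erAS W π K δ h₀) (K * BB + 6 * K) x₀ ρ₀ := by
  refine flow_of (h₀ := h₀) (fun x L => h.fr x L) (fun x L => h.hgt' x L) hg hg0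
    (fun t ht => (le_abs_self _).trans (hK.b0 t ht)) (fun t ht => hK'.b0 t ht)
    (fun t ht => hK'.b2 t ht) ?_
  intro x l hx F G A q _ hT
  refine er_le_erAS h h0 hh hg hK hK' hT ?_
  rw [← dist_eq_norm]; exact hx.trans hρ

/-- `tb` and the energy of the solid cylinder -/
theorem tb_le_enR (h : CylAS W π κ x₀ R h₀ δ) (x : Euc m) (l : ℝ) :
    tb W π x l ≤ Real.exp ((2 - m) * l) * enR W π κ x l := by
  unfold tb
  refine mul_le_mul_of_nonneg_left ?_ (Real.exp_pos _).le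
  have h1 := tS_le_en (h.fr x (l + 1)) (κ := κ) (by linarith : l < l + 1)
    (S := (univ : Set (Euc n))) MeasurableSet.univ
  refine le_trans (le_of_eq ?_) h1
  unfold TB tS
  congr 2
  ext p
  simp only [ovr, mem_ofPred_eq, mem_univ, and_true]
  have h3 : Real.exp (2 * l) = Real.exp l ^ 2 := by
    rw [← Real.exp_nat_mul]; push_cast; rfl
  rw [h3]
  exact (sq_lt_sq₀ (norm_nonneg _) (Real.exp_pos _).le).symm

/-- `mb` and the mass of the solid cylinder -/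
theorem mb_le_muR (h : CylAS W π κ x₀ R h₀ δ) (x : Euc m) (l : ℝ) :
    mb W π x l ≤ Real.exp (-m * l) * muR W π κ x l := by
  unfold mb
  refine mul_le_mul_of_nonneg_left ?_ (Real.exp_pos _).le
  have h1 := base_le_muR (x := x) (κ := κ) (fun L₀ => h.fr x L₀) l
  refine le_trans (le_of_eq ?_) h1
  unfold MB
  congr 2
  ext p
  simp only [ovr, mem_ofPred_eq]
  have h3 : Real.exp (2 * l) = Real.exp l ^ 2 := by
    rw [← Real.exp_nat_mul]; push_cast; rfl
  rw [h3]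
  exact (sq_lt_sq₀ (norm_nonneg _) (Real.exp_pos _).le).symm

/-- the constant of `erAS_le` -/
def CAS (K a lam Cμ : ℝ) : ℝ :=
  K * (8 * (lam + Cμ) + 5 * (√(a * Cμ) + Cμ) + BB * √(a * Cμ) + (BB + 1) * a)

theorem CAS_nonneg {a lam Cμ : ℝ} (hK : 0 ≤ K) (ha : 0 ≤ a) (hlam : 0 ≤ lam) (hC : 0 ≤ Cμ) :
    0 ≤ CAS K a lam Cμ := by
  have := BB_one
  unfold CAS; positivity

/-- **bound of the error**, `s ≤ 1`: at a scale with energy `≤ a q²` (scaled), `≤ lam` (density),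
mass `≤ Cμ` and `δ h₀ s ≤ b q` -/
theorem erAS_le (h : CylAS W π κ x₀ R h₀ δ) (hK : 0 ≤ K) (h0 : 0 ≤ δ) (hδ : δ ≤ 1)
    (hh : 0 ≤ h₀) (hh1 : h₀ ≤ 1) {l q a b lam Cμ : ℝ} (hq : 0 < q) (hq1 : q ≤ 1) (hl0 : l ≤ 0)
    (ha : 0 ≤ a) (hb0 : 0 ≤ b) (hlam : 0 ≤ lam)
    (htb : tb W π x l ≤ a * q ^ 2) (htb2 : Real.exp (-2 * l) * tb W π x l ≤ lam)
    (hmb : mb W π x l ≤ Cμ) (hb : δ * h₀ * Real.exp l ≤ b * q) :
    erAS W π K δ h₀ x l q ≤ CAS K a lam Cμ * (√δ + b) * q ^ 2 := by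
  have hs : Real.exp l ≤ 1 := Real.exp_le_one_iff.2 hl0
  have hs0 := Real.exp_pos l
  have ht := h.tb_nonneg x l
  have hm := mb_nonneg (W := W) (π := π) x l
  have hCμ : 0 ≤ Cμ := hm.trans hmb
  have hBB := BB_one
  have hδ' : δ ≤ √δ := by
    have h1 : √δ ≤ 1 := by
      rw [show (1:ℝ) = √1 from Real.sqrt_one.symm]; exact Real.sqrt_le_sqrt hδ
    have h2 : √δ * √δ = δ := Real.mul_self_sqrt h0
    nlinarith [Real.sqrt_nonneg δ]
  have hsd := Real.sqrt_nonneg δ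
  set T := tb W π x l with hT
  set M := mb W π x l with hM
  set s := Real.exp l with hsdef
  -- the mixed term
  have hST : √T * √M ≤ √(a * Cμ) * q := by
    calc √T * √M ≤ √(a * q ^ 2) * √Cμ :=
          mul_le_mul (Real.sqrt_le_sqrt htb) (Real.sqrt_le_sqrt hmb) (Real.sqrt_nonneg _)
            (Real.sqrt_nonneg _)
      _ = √(a * Cμ) * q := by
          rw [Real.sqrt_mul ha, Real.sqrt_mul ha, Real.sqrt_sq hq.le]; ring
  have hST0 : 0 ≤ √T * √M := by positivity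
  have hh2 : h₀ ^ 2 ≤ 1 := by nlinarith
  have hq2 : 0 ≤ q ^ 2 := sq_nonneg q
  -- first
  have p1 : 2 * (K * (3 + s)) * δ * q ^ 2 * (Real.exp (-2 * l) * T + h₀ ^ 2 * M) ≤
      K * (8 * (lam + Cμ)) * √δ * q ^ 2 := by
    have e1 : Real.exp (-2 * l) * T + h₀ ^ 2 * M ≤ lam + Cμ := by
      have : h₀ ^ 2 * M ≤ 1 * Cμ := mul_le_mul hh2 hmb hm zero_le_one
      linarith
    have e2 : 0 ≤ Real.exp (-2 * l) * T + h₀ ^ 2 * M := by positivity
    calc 2 * (K * (3 + s)) * δ * q ^ 2 * (Real.exp (-2 * l) * T + h₀ ^ 2 * M)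
        ≤ 2 * (K * (3 + 1)) * √δ * q ^ 2 * (lam + Cμ) := by gcongr
      _ = _ := by ring
  -- second
  have p2 : K * (4 + s) * δ * q * (√T * √M + h₀ * s * M) ≤
      K * (5 * (√(a * Cμ) + Cμ)) * (√δ + b) * q ^ 2 := by
    have e1 : δ * (h₀ * s * M) ≤ b * q * Cμ := by
      calc δ * (h₀ * s * M) = δ * h₀ * s * M := by ring
        _ ≤ b * q * Cμ := mul_le_mul hb hmb hm (by positivity)
    have e2 : δ * (√T * √M) ≤ √δ * (√(a * Cμ) * q) := mul_le_mul hδ' hST hST0 hsd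
    calc K * (4 + s) * δ * q * (√T * √M + h₀ * s * M)
        = K * (4 + s) * q * (δ * (√T * √M) + δ * (h₀ * s * M)) := by ring
      _ ≤ K * (4 + 1) * q * (√δ * (√(a * Cμ) * q) + b * q * Cμ) := by gcongr
      _ = K * 5 * (√(a * Cμ) * √δ + Cμ * b) * q ^ 2 := by ring
      _ ≤ K * 5 * ((√(a * Cμ) + Cμ) * (√δ + b)) * q ^ 2 := by
          have : √(a * Cμ) * √δ + Cμ * b ≤ (√(a * Cμ) + Cμ) * (√δ + b) := by
            have h1 : 0 ≤ √(a * Cμ) * b := by positivity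
            have h2 : 0 ≤ Cμ * √δ := by positivity
            nlinarith
          gcongr
      _ = _ := by ring
  -- third
  have p3 : K * BB * δ * h₀ * s * (√T * √M) ≤ K * (BB * √(a * Cμ)) * b * q ^ 2 := by
    calc K * BB * δ * h₀ * s * (√T * √M) = K * BB * ((δ * h₀ * s) * (√T * √M)) := by ring
      _ ≤ K * BB * ((b * q) * (√(a * Cμ) * q)) := by
          have := mul_le_mul hb hST hST0 (by positivity : 0 ≤ b * q)
          gcongr
      _ = _ := by ring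
  -- fourth
  have p4 : K * (δ * BB + √δ * q) * T ≤ K * ((BB + 1) * a) * √δ * q ^ 2 := by
    calc K * (δ * BB + √δ * q) * T ≤ K * (√δ * BB + √δ * 1) * (a * q ^ 2) := by gcongr
      _ = _ := by ring
  have hbq : 0 ≤ b * q ^ 2 := by positivity
  have hdq : 0 ≤ √δ * q ^ 2 := by positivity
  have r1 : 0 ≤ K * (8 * (lam + Cμ)) * b * q ^ 2 := by positivity
  have r3 : 0 ≤ K * (BB * √(a * Cμ)) * √δ * q ^ 2 := by positivity
  have r4 : 0 ≤ K * ((BB + 1) * a) * b * q ^ 2 := by positivity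
  unfold erAS CAS
  rw [← hT, ← hM, ← hsdef]
  have e : K * (8 * (lam + Cμ) + 5 * (√(a * Cμ) + Cμ) + BB * √(a * Cμ) + (BB + 1) * a) *
      (√δ + b) * q ^ 2 = K * (8 * (lam + Cμ)) * √δ * q ^ 2 + K * (8 * (lam + Cμ)) * b * q ^ 2 +
      K * (5 * (√(a * Cμ) + Cμ)) * (√δ + b) * q ^ 2 +
      (K * (BB * √(a * Cμ)) * b * q ^ 2 + K * (BB * √(a * Cμ)) * √δ * q ^ 2) +
      (K * ((BB + 1) * a) * √δ * q ^ 2 + K * ((BB + 1) * a) * b * q ^ 2) := by ring
  rw [e]
  linarith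

end Crest.Agent.R234.We_822
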