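import Crest.Agent.R234.Sml2_870
import Crest.Agent.R234.We11_822
import Crest.Agent.R234.GI1_640
import Crest.Agent.R234.Core0_809
import Crest.Agent.R234.Ex2_46

/-!
# Row 234, N0-SMALL, part 3 (helper870): the class `CylAS` and the class `Cls` of the core

`small_as`: `CylAS`, one profile fixed (`(1-t)₊³`), explicit smallness.
`small_cls`: the part `part π κ Dd` of a varifold of the class `Cls`.
-/

set_option autoImplicit false

open MeasureTheory Set Function Filter Topology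
open Crest.GeometryTopology.Submanifold
open Crest.Agent.R234.Vf_884 Crest.Agent.R234.Ar_870 Crest.Agent.R234.Cy_870
open Crest.Agent.R234.Wi_870 Crest.Agent.R234.Asl_214
open Crest.Agent.R234.GI_640 (g3 g31 g32)
open Crest.Agent.R234.We_822 (BB BB_one erAS erAS_le CAS CAS_nonneg flow_as enR muR tb_le_enR mb_le_muR
  mass_good)
open scoped ENNReal NNReal InnerProductSpace ContDiff

noncomputable section

namespace Crest.Agent.R234.Sml_870

variable {m n k : ℕ} {π : Euc k →L[ℝ] Euc m} {κ : Euc k →L[ℝ] Euc n} {x₀ : Euc m}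
  {R h₀ δ : ℝ} {W : Measure (Euc k × L k)}

/-! ### the profile -/

theorem bd3 : Bd g3 g31 6 where
  b0 t ht := by
    rw [abs_of_nonneg (GI_640.g3_nonneg t)]
    exact (GI_640.g3_le_one ht).trans (by norm_num)
  b1 t ht := (GI_640.abs_g31_le ht).trans (by norm_num)
  b2 t ht := (GI_640.abs_t_g31_le ht).trans (by norm_num)

theorem bd31 : Bd g31 g32 6 where
  b0 t ht := (GI_640.abs_g31_le ht).trans (by norm_num)
  b1 t ht := GI_640.abs_g32_le ht
  b2 t ht := GI_640.abs_t_g32_le ht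

theorem ker3 : Well_761.Ker (kap g31) (2 * 3) (2 * (27 / 16)) :=
  ker_kap GI_640.prof (fun t ht => GI_640.abs_g31_le ht) (by norm_num)
    (fun t _ ht => by have := GI_640.g31_lower ht; linarith)

theorem exp_neg_two_le : Real.exp (-2 * 1) ≤ 1 / 4 := by
  have h1 : (2:ℝ) ≤ Real.exp 1 := by
    have := Real.add_one_le_exp (1:ℝ)
    linarith
  have h2 : Real.exp (-2 * 1) * (Real.exp 1 * Real.exp 1) = 1 := by
    rw [← Real.exp_add, ← Real.exp_add]
    norm_num
  have h3 : 4 ≤ Real.exp 1 * Real.exp 1 := by nlinarith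
  have h4 := mul_le_mul_of_nonneg_left h3 (Real.exp_pos (-2 * 1)).le
  rw [h2] at h4
  exact (le_div_iff₀ (by norm_num)).2 h4

theorem g3_low : ∀ t, 0 ≤ t → t ≤ Real.exp (-2 * 1) → ((3:ℝ) / 4) ^ 3 ≤ g3 t := by
  intro t _ ht
  have h1 := GI_640.g3_lower (a := 1 / 4) (t := t) (by norm_num) (ht.trans exp_neg_two_le)
  norm_num at h1 ⊢
  exact h1

/-! ### constants -/

/-- the small constant of `small_as` -/
def cs3 (m : ℕ) (c0 : ℝ) : ℝ := cS m (6 * BB + 6 * 6) (2 * 3) (2 * (27 / 16)) c0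

theorem cs3_pos (m : ℕ) {c0 : ℝ} (hc0 : 0 < c0) : 0 < cs3 m c0 :=
  cS_pos m (by have := BB_one; linarith) (by norm_num) (by norm_num) hc0

/-- the mass constant -/
def Cm3 (m : ℕ) (c0 Cm : ℝ) : ℝ :=
  2 * ((((3:ℝ) / 4) ^ 3)⁻¹ * Real.exp (m * 1) * (1 * Cm + 2 * cs3 m c0))

theorem Cm3_nonneg (m : ℕ) {c0 Cm : ℝ} (hc0 : 0 < c0) (hCm : 0 ≤ Cm) : 0 ≤ Cm3 m c0 Cm := by
  have := cs3_pos m hc0
  unfold Cm3; positivity

/-- the large constant of `small_as` -/
def CL3 (m : ℕ) (c0 Cm : ℝ) : ℝ :=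
  24 + 48 * ((((3:ℝ) / 4) ^ 3)⁻¹ * Real.exp (m * 1)) +
    2 * (CAS 6 (cs3 m c0 / 16) (cs3 m c0) (Cm3 m c0 Cm) / cs3 m c0)

theorem CL3_pos (m : ℕ) {c0 Cm : ℝ} (hc0 : 0 < c0) (hCm : 0 ≤ Cm) : 0 < CL3 m c0 Cm := by
  have h1 := cs3_pos m hc0
  have h2 := CAS_nonneg (K := 6) (a := cs3 m c0 / 16) (lam := cs3 m c0) (Cμ := Cm3 m c0 Cm)
    (by norm_num) (by positivity) h1.le (Cm3_nonneg m hc0 hCm)
  unfold CL3; positivity

set_option maxHeartbeats 1000000 in
/-- **N0-SMALL for `CylAS`** -/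
theorem small_as (h : CylAS W π κ x₀ R h₀ δ) (h0 : 0 ≤ δ) (hδ : δ ≤ 1) (hh : 0 ≤ h₀)
    (hh1 : h₀ ≤ 1) {c0 Cm h' t : ℝ} (hc0 : 0 < c0) (hCm : 0 ≤ Cm) (hp : 0 < h') (h4 : 4 * h' ≤ 1)
    (hht : h' ≤ t) (ht1 : t ≤ 1)
    (hs1 : √δ * (1 + Real.log (t / h')) ≤ (CL3 m c0 Cm)⁻¹)
    (hs2 : δ * h₀ * t * (1 + Real.log (t / h')) ≤ (CL3 m c0 Cm)⁻¹ * h')
    (hlow : ∀ᵐ z ∂W, ‖π z.1 - x₀‖ + h' / 4 ≤ R →
      ENNReal.ofReal (c0 * (h' / 4) ^ m) ≤ W (Metric.closedBall z.1 (h' / 4) ×ˢ univ)) :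
    ∀ᵐ z ∂W, ∀ x : Euc m, ‖π z.1 - x‖ ≤ h' / 4 → ‖x - x₀‖ + t ≤ R →
      W.real {p | ‖π p.1 - x‖ ≤ t} ≤ Cm * t ^ m →
      (∀ s ∈ Icc h' t, N5_372.eM W π (Metric.closedBall x s) ≤
        ENNReal.ofReal (cs3 m c0 * (h' / t) ^ 2 * s ^ m)) →
      cs3 m c0 * t ^ m ≤ W.real {p | ‖π (z.1 - p.1)‖ ≤ 2 * t ∧ ‖κ (z.1 - p.1)‖ ≤ h'} := by
  have hg0 : ∀ t, 0 ≤ t → 0 ≤ g3 t := fun t _ => GI_640.g3_nonneg t
  have hfl := flow_as (ρ₀ := R) h h0 hh le_rfl GI_640.prof bd3 bd31 hg0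
  have hcl := small_close (fun x L => h.fr x L) hfl ker3 hc0 hp hlow
  have ht0 : 0 < t := hp.trans_le hht
  have hcs := cs3_pos m hc0
  have hL0 : 0 ≤ Real.log (t / h') := Real.log_nonneg (by rw [le_div_iff₀ hp]; linarith)
  have hlt : Real.log t - Real.log h' = Real.log (t / h') := (Real.log_div ht0.ne' hp.ne').symm
  have hCL := CL3_pos m hc0 hCm
  have hCm3 := Cm3_nonneg m hc0 hCm
  have hsd := Real.sqrt_nonneg δ
  have hδs : δ ≤ √δ := by
    have h1 : √δ ≤ 1 := by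
      rw [show (1:ℝ) = √1 from Real.sqrt_one.symm]; exact Real.sqrt_le_sqrt hδ
    have h2 : √δ * √δ = δ := Real.mul_self_sqrt h0
    nlinarith
  have hCi : 0 < (CL3 m c0 Cm)⁻¹ := inv_pos.2 hCL
  have hCAS := CAS_nonneg (K := 6) (a := cs3 m c0 / 16) (lam := cs3 m c0) (Cμ := Cm3 m c0 Cm)
    (by norm_num) (by positivity) hcs.le hCm3
  have hce : 0 < (((3:ℝ) / 4) ^ 3)⁻¹ * Real.exp (m * 1) := by positivity
  have hX : 0 ≤ CAS 6 (cs3 m c0 / 16) (cs3 m c0) (Cm3 m c0 Cm) / cs3 m c0 := by positivity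
  -- consequences of the smallness
  have q0 : (CL3 m c0 Cm)⁻¹ * CL3 m c0 Cm = 1 := inv_mul_cancel₀ hCL.ne'
  have d1 : 24 ≤ CL3 m c0 Cm := by unfold CL3; linarith
  have d2 : 48 * ((((3:ℝ) / 4) ^ 3)⁻¹ * Real.exp (m * 1)) ≤ CL3 m c0 Cm := by
    unfold CL3; linarith
  have d3 : 2 * (CAS 6 (cs3 m c0 / 16) (cs3 m c0) (Cm3 m c0 Cm) / cs3 m c0) ≤ CL3 m c0 Cm := by
    unfold CL3; linarith
  set Li := (CL3 m c0 Cm)⁻¹ with hLi
  set Lg := 1 + Real.log (t / h') with hLg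
  have hLg1 : 1 ≤ Lg := by rw [hLg]; linarith
  have e2 : δ * Lg ≤ Li := (mul_le_mul_of_nonneg_right hδs (by linarith)).trans hs1
  have e3 : δ ≤ Li := (le_mul_of_one_le_right h0 hLg1).trans e2
  have e4 : 24 * δ ≤ 1 := by
    have h1 := mul_le_mul_of_nonneg_right d1 hCi.le
    have h9 : CL3 m c0 Cm * Li = 1 := by rw [mul_comm]; exact q0
    rw [h9] at h1
    linarith
  filter_upwards [hcl] with z hz x hx hdom hmass hen
  have hlogt : Real.exp (Real.log t) = t := Real.exp_log ht0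
  have hlogh : Real.exp (Real.log h') = h' := Real.exp_log hp
  have hll : Real.log h' ≤ Real.log t := Real.log_le_log hp hht
  have hr0 : 0 ≤ (h' / t) ^ 2 := sq_nonneg _
  have hr1 : h' / t ≤ 1 := by rw [div_le_one ht0]; exact hht
  have hrp : 0 < h' / t := by positivity
  have hen' : ∀ s ∈ Icc h' t, (enOf W π κ (Well_761.cyl x s univ)).toReal ≤
      cs3 m c0 * (h' / t) ^ 2 * s ^ m := by
    intro s hs
    rw [We_822.enOf_cyl]
    have hs0 : 0 < s := hp.trans_le hs.1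
    exact ENNReal.toReal_le_of_le_ofReal (by positivity) (hen s hs)
  have hexp : ∀ l ∈ Icc (Real.log h') (Real.log t), Real.exp l ∈ Icc h' t := by
    intro l hl
    constructor
    · rw [← hlogh]; exact Real.exp_le_exp.2 hl.1
    · rw [← hlogt]; exact Real.exp_le_exp.2 hl.2
  have hpow : ∀ l : ℝ, Real.exp l ^ m = Real.exp (m * l) := fun l => (Real.exp_nat_mul l m).symm
  have henR : ∀ l ∈ Icc (Real.log h') (Real.log t),
      enR W π κ x l ≤ cs3 m c0 * (h' / t) ^ 2 * Real.exp (m * l) := by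
    intro l hl
    rw [← hpow]
    exact hen' _ (hexp l hl)
  -- mass at all scales
  have hmu : ∀ l ∈ Icc (Real.log h') (Real.log t), muR W π κ x l ≤
      Cm3 m c0 Cm * Real.exp (m * l) := by
    have h1 := mass_good (V := W) (π := π) (κ := κ) (x := x) (fun L => h.fr x L) GI_640.prof hg0
      (Kg := 1) (fun t ht => GI_640.g3_le_one ht) (c := ((3:ℝ) / 4) ^ 3) (a := 1) (by positivity)
      zero_le_one g3_low (l0 := Real.log h') (l1 := Real.log t)
      (lam := cs3 m c0 * (h' / t) ^ 2) (η := 24 * δ) (C1 := Cm) (h := h₀) hll (by positivity)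
      (by positivity) hCm henR ?_ ?_ ?_
    · intro l hl
      refine (h1 l hl).trans (mul_le_mul_of_nonneg_right ?_ (Real.exp_pos _).le)
      unfold Cm3
      refine mul_le_mul_of_nonneg_left (mul_le_mul_of_nonneg_left ?_ hce.le) (by norm_num)
      rw [hlt]
      have h2 : (h' / t) ^ 2 * Real.log (t / h') ≤ 1 := by
        have h3 : Real.log (t / h') ≤ t / h' - 1 := Real.log_le_sub_one_of_pos (by positivity)
        have h4 : h' / t * (t / h') = 1 := by field_simp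
        have h5 : (h' / t) ^ 2 * Real.log (t / h') ≤ (h' / t) ^ 2 * (t / h') :=
          mul_le_mul_of_nonneg_left (by linarith) hr0
        have h6 : (h' / t) ^ 2 * (t / h') = h' / t := by
          rw [pow_two, mul_assoc, h4, mul_one]
        linarith
      have h2' : 0 ≤ (h' / t) ^ 2 * Real.log (t / h') := by positivity
      have h7 : (1 + 24 * δ) * (cs3 m c0 * (h' / t) ^ 2) * Real.log (t / h') =
          ((1 + 24 * δ) * cs3 m c0) * ((h' / t) ^ 2 * Real.log (t / h')) := by ring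
      have h8 : (1 + 24 * δ) * cs3 m c0 ≤ 2 * cs3 m c0 :=
        mul_le_mul_of_nonneg_right (by linarith) hcs.le
      have h9 : ((1 + 24 * δ) * cs3 m c0) * ((h' / t) ^ 2 * Real.log (t / h')) ≤
          (2 * cs3 m c0) * 1 := mul_le_mul h8 h2 h2' (by positivity)
      linarith
    · intro l hl
      have hs := hexp l hl
      have h2 := h.FV1_le h0 hh GI_640.prof.k0 bd3 (x := x) (l := l) (by linarith [hs.2])
      have h3 : TB W π x (Real.exp l) ≤ enR W π κ x l := by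
        have := tb_le_enR (κ := κ) h x l
        unfold tb at this
        exact le_of_mul_le_mul_left this (Real.exp_pos _)
      have h4 : MB W π x (Real.exp l) ≤ muR W π κ x l := by
        have := mb_le_muR (κ := κ) h x l
        unfold mb at this
        exact le_of_mul_le_mul_left this (Real.exp_pos _)
      have h5 : Real.exp l ≤ 1 := hs.2.trans ht1
      have h6 : 0 ≤ TB W π x (Real.exp l) := h.TB_nonneg x _
      have h7 := MB_nonneg (W := W) (π := π) x (Real.exp l)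
      refine h2.trans ?_
      have h8 : δ * (6 * (3 + Real.exp l)) ≤ 24 * δ := by
        have := mul_le_mul_of_nonneg_left h5 h0
        linarith
      refine mul_le_mul h8 ?_ (by positivity) (by positivity)
      have h9 : h₀ ^ 2 * MB W π x (Real.exp l) ≤ h₀ ^ 2 * muR W π κ x l :=
        mul_le_mul_of_nonneg_left h4 (sq_nonneg _)
      linarith
    · have h2 : muR W π κ x (Real.log t) = W.real {p | ‖π p.1 - x‖ ≤ t} := by
        have hcm : MeasurableSet (Well_761.cyl x t (univ : Set (Euc n))) :=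
          Metric.isClosed_closedBall.measurableSet.prod MeasurableSet.univ
        unfold muR muOf
        rw [hlogt, Measure.map_apply (measurable_bh π κ) hcm, Measure.real]
        congr 2
        ext p
        simp [Well_761.cyl, bh, dist_eq_norm]
      rw [h2, ← hpow, hlogt]
      exact hmass
    · rw [hlt]
      have h2 : h₀ ^ 2 ≤ 1 := pow_le_one₀ hh hh1
      have h3 : 24 * δ * h₀ ^ 2 * Real.log (t / h') ≤ 24 * Li := by
        have h4 : h₀ ^ 2 * Real.log (t / h') ≤ 1 * Lg :=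
          mul_le_mul h2 (by rw [hLg]; linarith) hL0 zero_le_one
        have h5 : δ * (h₀ ^ 2 * Real.log (t / h')) ≤ δ * (1 * Lg) :=
          mul_le_mul_of_nonneg_left h4 h0
        have h6 : 24 * δ * h₀ ^ 2 * Real.log (t / h') =
          24 * (δ * (h₀ ^ 2 * Real.log (t / h'))) := by ring
        rw [h6]
        rw [one_mul] at h5
        linarith
      have h6 : (((3:ℝ) / 4) ^ 3)⁻¹ * Real.exp (m * 1) * (24 * δ * h₀ ^ 2) *
          Real.log (t / h') = ((((3:ℝ) / 4) ^ 3)⁻¹ * Real.exp (m * 1)) *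
          (24 * δ * h₀ ^ 2 * Real.log (t / h')) := by ring
      rw [h6]
      have h7 := mul_le_mul_of_nonneg_left h3 hce.le
      have h8 := mul_le_mul_of_nonneg_right d2 hCi.le
      have h9 : CL3 m c0 Cm * Li = 1 := by rw [mul_comm]; exact q0
      rw [h9] at h8
      refine h7.trans ?_
      linarith
  refine hz x t (cs3 m c0 * (h' / t) ^ 2) hx hht hdom hen' le_rfl ?_
  intro l hl
  have hs := hexp l hl
  have hl0 : l ≤ 0 := by
    refine hl.2.trans ?_
    exact Real.log_nonpos ht0.le ht1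
  have hq : 0 < 4 * h' := by linarith
  have htb0 := h.tb_nonneg x l
  have hE := henR l hl
  have htbE : tb W π x l ≤ cs3 m c0 * (h' / t) ^ 2 * Real.exp (2 * l) := by
    refine (tb_le_enR (κ := κ) h x l).trans ?_
    refine (mul_le_mul_of_nonneg_left hE (Real.exp_pos _).le).trans (le_of_eq ?_)
    have : Real.exp ((2 - m) * l) * Real.exp (m * l) = Real.exp (2 * l) := by
      rw [← Real.exp_add]; congr 1; ring
    linear_combination cs3 m c0 * (h' / t) ^ 2 * this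
  have e2l : Real.exp (2 * l) = Real.exp l ^ 2 := by
    have := Real.exp_nat_mul l 2
    exact_mod_cast this
  have htb : tb W π x l ≤ cs3 m c0 / 16 * (4 * h') ^ 2 := by
    refine htbE.trans ?_
    rw [e2l]
    have h1 : Real.exp l ^ 2 ≤ t ^ 2 := pow_le_pow_left₀ (Real.exp_pos _).le hs.2 2
    have h2 : cs3 m c0 * (h' / t) ^ 2 * Real.exp l ^ 2 ≤ cs3 m c0 * (h' / t) ^ 2 * t ^ 2 :=
      mul_le_mul_of_nonneg_left h1 (by positivity)
    refine h2.trans (le_of_eq ?_)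
    field_simp
    ring
  have htb2 : Real.exp (-2 * l) * tb W π x l ≤ cs3 m c0 := by
    have h1 := mul_le_mul_of_nonneg_left htbE (Real.exp_pos (-2 * l)).le
    have h2 : Real.exp (-2 * l) * Real.exp (2 * l) = 1 := by
      rw [← Real.exp_add]
      have : -2 * l + 2 * l = 0 := by ring
      rw [this, Real.exp_zero]
    have h3 : Real.exp (-2 * l) * (cs3 m c0 * (h' / t) ^ 2 * Real.exp (2 * l)) =
        cs3 m c0 * (h' / t) ^ 2 := by linear_combination cs3 m c0 * (h' / t) ^ 2 * h2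
    have h4 : (h' / t) ^ 2 ≤ 1 := pow_le_one₀ hrp.le hr1
    rw [h3] at h1
    exact h1.trans (mul_le_of_le_one_right hcs.le h4)
  have hmb : mb W π x l ≤ Cm3 m c0 Cm := by
    refine (mb_le_muR (κ := κ) h x l).trans ?_
    have h1 := mul_le_mul_of_nonneg_left (hmu l hl) (Real.exp_pos (-m * l)).le
    refine h1.trans (le_of_eq ?_)
    have h2 : Real.exp (-m * l) * Real.exp (m * l) = 1 := by
      rw [← Real.exp_add]
      have : -m * l + m * l = 0 := by ring
      rw [this, Real.exp_zero]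
    linear_combination Cm3 m c0 Cm * h2
  have hb : δ * h₀ * Real.exp l ≤ (δ * h₀ * t / (4 * h')) * (4 * h') := by
    rw [div_mul_cancel₀ _ hq.ne']
    exact mul_le_mul_of_nonneg_left hs.2 (by positivity)
  have hfin := erAS_le (W := W) (π := π) (κ := κ) (x := x) h (by norm_num : (0:ℝ) ≤ 6) h0 hδ hh hh1
    (l := l) (q := 4 * h') (a := cs3 m c0 / 16) (b := δ * h₀ * t / (4 * h')) (lam := cs3 m c0)
    (Cμ := Cm3 m c0 Cm) hq h4 hl0 (by positivity) (by positivity) hcs.le htb htb2 hmb hb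
  refine hfin.trans (mul_le_mul_of_nonneg_right ?_ (sq_nonneg _))
  change _ ≤ cs3 m c0 / (1 + Real.log (t / h'))
  rw [← hLg, le_div_iff₀ (by linarith)]
  set A := CAS 6 (cs3 m c0 / 16) (cs3 m c0) (Cm3 m c0 Cm) with hA
  have f1 : δ * h₀ * t / (4 * h') * Lg ≤ Li := by
    rw [div_mul_eq_mul_div, div_le_iff₀ hq]
    refine hs2.trans ?_
    have := mul_pos hCi hp
    linarith
  have f2 : (√δ + δ * h₀ * t / (4 * h')) * Lg ≤ 2 * Li := by
    rw [add_mul]; linarith
  have f3 : A * (2 * Li) ≤ cs3 m c0 := by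
    have h1 : 2 * (A / cs3 m c0) * Li ≤ CL3 m c0 Cm * Li := mul_le_mul_of_nonneg_right d3 hCi.le
    have h2 : CL3 m c0 Cm * Li = 1 := by rw [mul_comm]; exact q0
    rw [h2] at h1
    have h3 : A * (2 * Li) = (2 * (A / cs3 m c0) * Li) * cs3 m c0 := by field_simp
    rw [h3]
    exact mul_le_of_le_one_left hcs.le h1
  calc A * (√δ + δ * h₀ * t / (4 * h')) * Lg = A * ((√δ + δ * h₀ * t / (4 * h')) * Lg) := by ring
    _ ≤ A * (2 * Li) := mul_le_mul_of_nonneg_left f2 hCAS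
    _ ≤ cs3 m c0 := f3

/-! ### the class `Cls` -/

open Crest.Agent.R234.Core_809 (Cls part)

/-- almost every point is in the support -/
theorem ae_mem_support {U : Set (Euc k)} {D : VarifoldData m k} (hD : IsIntegralVarifoldIn U D) :
    ∀ᵐ p ∂(VD D), p.1 ∈ Crest.GeometryTopology.Submanifold.support D := by
  have hcl : IsClosed (Crest.GeometryTopology.Submanifold.support D) := by
    rw [← isOpen_compl_iff, Metric.isOpen_iff]
    intro x hx
    simp only [Crest.GeometryTopology.Submanifold.support, mem_compl_iff, mem_ofPred_eq, not_forall, not_lt, nonpos_iff_eq_zero] at hx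
    obtain ⟨ρ, hρ, h0⟩ := hx
    refine ⟨ρ, hρ, fun y hy hy2 => ?_⟩
    have h1 := hy2 (ρ - dist y x) (by rw [Metric.mem_ball] at hy; linarith)
    refine h1.ne' (measure_mono_null (Metric.ball_subset_ball' (by linarith)) h0)
  have h1 : weight D (Crest.GeometryTopology.Submanifold.support D)ᶜ = 0 := by
    refine measure_null_of_locally_null _ fun x hx => ?_
    simp only [Crest.GeometryTopology.Submanifold.support, mem_compl_iff, mem_ofPred_eq, not_forall, not_lt,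
      nonpos_iff_eq_zero] at hx
    obtain ⟨ρ, hρ, h0⟩ := hx
    exact ⟨_, mem_nhdsWithin_of_mem_nhds (Metric.ball_mem_nhds x hρ), h0⟩
  rw [← VD_prod_univ hD hcl.measurableSet.compl] at h1
  rw [ae_iff]
  refine measure_mono_null ?_ h1
  rintro p hp
  exact ⟨hp, mem_univ _⟩

/-- the lower density bound of the part -/
theorem low_part {Q : ℕ} {D : ℝ} {U : Set (Euc k)} {Dd : VarifoldData m k}
    (h : Cls Q δ D π κ U Dd) (hm : 1 ≤ m) (hD1 : D ≤ 1 / 4) {r : ℝ} (hr : 0 < r)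
    (hr1 : r ≤ 1 / 2) :
    ∀ᵐ z ∂(part π κ Dd), ‖π z.1 - 0‖ + r ≤ 4 →
      ENNReal.ofReal (ome m / 2 ^ m * r ^ m) ≤ part π κ Dd (Metric.closedBall z.1 r ×ˢ univ) := by
  have hcm : MeasurableSet (Cy_870.cyl π κ 0 4 1 ×ˢ (univ : Set (L k))) :=
    (isClosed_cyl π κ 0 4 1).measurableSet.prod MeasurableSet.univ
  obtain ⟨T, T', hT, hg, hst⟩ := h.ex
  unfold part
  filter_upwards [ae_restrict_mem hcm, ae_restrict_of_ae h.hgt,
    ae_restrict_of_ae (ae_mem_support h.int)] with z hz hh hsup hdom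
  have hh' := hh hz.1
  have h1 : ‖κ z.1‖ ≤ 1 / 2 :=
    (sq_le_sq₀ (norm_nonneg _) (by norm_num)).1 (by linarith)
  have hsub : Metric.closedBall z.1 r ⊆ Cy_870.cyl π κ 0 4 1 := by
    intro w hw
    rw [Metric.mem_closedBall, dist_eq_norm] at hw
    have hn := h.sp.norm_sq (w - z.1)
    have h2 : ‖π (w - z.1)‖ ≤ r :=
      (sq_le_sq₀ (norm_nonneg _) hr.le).1 (by nlinarith [sq_nonneg ‖κ (w - z.1)‖, norm_nonneg (w - z.1)])
    have h3 : ‖κ (w - z.1)‖ ≤ r :=
      (sq_le_sq₀ (norm_nonneg _) hr.le).1 (by nlinarith [sq_nonneg ‖π (w - z.1)‖, norm_nonneg (w - z.1)])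
    have h4 : π w - 0 = (π z.1 - 0) + π (w - z.1) := by rw [map_sub]; abel
    have h5 : κ w = κ z.1 + κ (w - z.1) := by rw [map_sub]; abel
    refine ⟨?_, ?_⟩
    · rw [h4]; exact (norm_add_le _ _).trans (by linarith)
    · rw [h5]; exact (norm_add_le _ _).trans (by linarith)
  have h6 := Ex_46.low_mass h.int h.isOpen hT hg hst hm hsup hr
    (Metric.ball_subset_closedBall.trans (hsub.trans h.dom))
  rw [Measure.restrict_apply (Metric.isClosed_closedBall.measurableSet.prod MeasurableSet.univ),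
    Set.prod_inter_prod, univ_inter, inter_eq_left.2 hsub,
    VD_prod_univ h.int Metric.isClosed_closedBall.measurableSet]
  exact h6.trans (measure_mono Metric.ball_subset_closedBall)

theorem cylAS_cls {Q : ℕ} {D : ℝ} {U : Set (Euc k)} {Dd : VarifoldData m k}
    (h : Cls Q δ D π κ U Dd) (hD1 : D < 1) : CylAS (part π κ Dd) π κ 0 4 (√D) δ := by
  refine cylAS_of_AS h.as h.sp (h₁ := 1) ?_ one_pos h.dom ?_
  · rw [show (1:ℝ) = √1 from Real.sqrt_one.symm]
    exact Real.sqrt_lt_sqrt_iff_of_pos one_pos |>.2 hD1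
  · filter_upwards [h.hgt] with p hp hpc
    exact Real.le_sqrt_of_sq_le (hp hpc)

/-- **N0-SMALL for the class of the core** -/
theorem small_cls (m : ℕ) (hm : 1 ≤ m) {Cm : ℝ} (hCm : 0 ≤ Cm) :
    ∃ cs C : ℝ, 0 < cs ∧ 0 < C ∧ ∀ (n k Q : ℕ) (π : Euc k →L[ℝ] Euc m) (κ : Euc k →L[ℝ] Euc n)
      (U : Set (Euc k)) (Dd : VarifoldData m k) (δ D h t : ℝ), Cls Q δ D π κ U Dd →
      0 ≤ δ → δ ≤ 1 → D ≤ 1 / 4 → 0 < h → 4 * h ≤ 1 → h ≤ t → t ≤ 1 →
      √δ * (1 + Real.log (t / h)) ≤ C⁻¹ → δ * √D * t * (1 + Real.log (t / h)) ≤ C⁻¹ * h →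
      ∀ᵐ z ∂(part π κ Dd), ∀ x : Euc m, ‖π z.1 - x‖ ≤ h / 4 → ‖x‖ + t ≤ 4 →
        (part π κ Dd).real {p | ‖π p.1 - x‖ ≤ t} ≤ Cm * t ^ m →
        (∀ s ∈ Icc h t, N5_372.eM (part π κ Dd) π (Metric.closedBall x s) ≤
          ENNReal.ofReal (cs * (h / t) ^ 2 * s ^ m)) →
        cs * t ^ m ≤ (part π κ Dd).real {p | ‖π (z.1 - p.1)‖ ≤ 2 * t ∧ ‖κ (z.1 - p.1)‖ ≤ h} := by
  have hc0 : 0 < ome m / 2 ^ m := div_pos (ome_pos m) (by positivity)
  refine ⟨cs3 m (ome m / 2 ^ m), CL3 m (ome m / 2 ^ m) Cm, cs3_pos m hc0, CL3_pos m hc0 hCm, ?_⟩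
  intro n k Q π κ U Dd δ D h t hC h0 h1 hD1 hh h4 hht ht1 hs1 hs2
  have hlow := low_part hC hm hD1 (r := h / 4) (by positivity) (by linarith)
  have hsD : √D ≤ 1 := by
    rw [show (1:ℝ) = √1 from Real.sqrt_one.symm]
    exact Real.sqrt_le_sqrt (by linarith)
  have h5 := small_as (cylAS_cls hC (by linarith)) h0 h1 (Real.sqrt_nonneg D) hsD hc0 hCm hh h4
    hht ht1 hs1 hs2 hlow
  filter_upwards [h5] with z hz x hx hdom
  exact hz x hx (by rw [sub_zero]; exact hdom)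

end Crest.Agent.R234.Sml_870
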