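import Crest.Agent.R234.F37_354
import Crest.Agent.R234.Ex10_46
import Crest.Agent.R234.Sml3_870

/-!
# Row 234, F3 (helper354), file 8: heights over the surface near a base point; the kernel
-/

set_option autoImplicit false

open MeasureTheory Filter Topology Set Metric
open scoped ENNReal NNReal ContDiff InnerProductSpace
open Crest.GeometryTopology.Submanifold Crest.Agent.R234.Vf_884

noncomputable section

namespace Crest.Agent.R234.F37_354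

open Crest.Agent.R234.Main_456 (Frame Msys sep box)
open Crest.Agent.R234.Gi_456 (Gr tube foot ch Lo IsFoot)
open Crest.Agent.R234.GL_394 (VK On Ok)
open Crest.Agent.R234.Cy_870 (Split cyl)
open Crest.Agent.R234.Fc_209 (IsChart Bd)
open Crest.Agent.R234.Foot_842 (pt)
open Crest.Agent.R234.Nrm_842 (Zm zc)
open Crest.Agent.R234.Grot_842 (rπ rρ)
open Crest.Agent.R234.Fm_281 (zy)
open Crest.Agent.R234.Ex_46 (hmt')
open Crest.Agent.R234.F35_354 (Bp)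

variable {m n k : ℕ} {π : Euc k →L[ℝ] Euc m} {ρ : Euc k →L[ℝ] Euc n} {x : Euc k}
  {w : Euc m → Euc n} {Xc X : Euc m} {t : ℝ} {U K : Set (Euc k)} {Dd : VarifoldData m k}
  {C κ e : ℝ} {q : Euc m →L[ℝ] Euc n} {H : Euc m →L[ℝ] Euc m} {H' : Euc n →L[ℝ] Euc n}
  {w' u : Euc m → Euc n} {T : Ft_209.Dif k}

/-- the constant of the heights -/
def Kh (m : ℕ) : ℝ := 8 * 2 ^ m / ome m

theorem Kh_pos (m : ℕ) : 0 < Kh m := by
  have := ome_pos m
  unfold Kh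
  positivity

/-- **heights** -/
theorem heights (h : Am π ρ x w Xc X t U K Dd) (hB : Bp π ρ x w X C κ t q H H' w' u T e)
    (hC : Ex_46.Cht (rπ π ρ q H) (rρ π ρ q H') u e T.Φ T.Ψ) (hm : 1 ≤ m)
    (hms : ∀ v ∈ ball (0 : Euc m) 7, Msys u v = 0) (hlm : 64 * m * (C * κ * t) ^ 2 ≤ 1) {d : ℝ}
    (hd : sep (VD Dd) (rπ π ρ q H) (rρ π ρ q H') (pt π ρ x w X) t u 7 ≤ d * t ^ (m + 2)) :
    ∀ᵐ p ∂(VD Dd), p.1 ∈ K → ‖foot π ρ x 1 w p.1 - X‖ ≤ 6 * t →
      ‖p.1 - pt π ρ x w (foot π ρ x 1 w p.1)‖ ^ 2 ≤ Kh m * d * t ^ 2 := by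
  have ht := hB.zm.t0
  have ht16 := hB.t16
  have hom := ome_pos m
  have hs := Fm_281.splitZ hB.zm hB.fr
  have hu : ContDiff ℝ 3 u := Fm_281.cdU hB.zm
  have hu2 : ContDiff ℝ 2 u := hu.of_le (by norm_num)
  have hl := hB.zm.Cκt
  have hl1 : ∀ v, ‖fderiv ℝ u v‖ ≤ C * κ * t := hB.zm.norm_dU
  have hl0 : 0 ≤ C * κ * t := (norm_nonneg _).trans (hl1 0)
  have hu0 : ∀ v, ‖u v‖ ≤ C * κ * t := fun v => by
    have := hB.zm.bd 0 (by norm_num) v
    rwa [norm_iteratedFDeriv_zero] at this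
  have hu22 : ∀ v ∈ ball (0 : Euc m) 7, ‖iteratedFDeriv ℝ 2 u v‖ ≤ C * κ * t ∧ Msys u v = 0 :=
    fun v hv => ⟨hB.zm.bd 2 (by norm_num) v, hms v hv⟩
  have hsupp : ∀ᵐ p ∂(VD Dd), p.1 ∈ support Dd := Sml_870.ae_mem_support h.int
  filter_upwards [h.sub2 hB, hsupp] with p h1 hps hK hX
  obtain ⟨h2, h3, h4⟩ := h1 hK hX
  set z' := T.Ψ (zy π ρ x w X t p.1) with hz'
  have hΦ : T.Φ z' = zy π ρ x w X t p.1 := by rw [hz', T.right]
  have e0 : hmt' (pt π ρ x w X) t (T.Φ z') = p.1 := by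
    rw [hΦ]
    exact Am.zy_fwd ht p.1
  have h5 : ‖rρ π ρ q H' z'‖ ≤ 1 := h3.trans (by rw [div_le_one ht]; exact h4)
  have h6 : ‖rπ π ρ q H z'‖ ≤ 195 / 32 := by
    rw [h2]
    refine (hB.zm.norm_zc_le _).trans ?_
    have : ‖foot π ρ x 1 w p.1 - X‖ / t ≤ 6 := by rw [div_le_iff₀ ht]; exact hX
    linarith
  have h7 : ‖rρ π ρ q H' z'‖ < 3 := by linarith
  have hbox : p.1 ∈ box (rπ π ρ q H) (rρ π ρ q H') (pt π ρ x w X) ((7 - 1 / 2) * t) := by
    have e1 : p.1 - pt π ρ x w X = t • T.Φ z' := by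
      rw [hΦ]
      nth_rewrite 1 [← Am.zy_fwd (π := π) (ρ := ρ) (x := x) (w := w) (X := X) ht p.1]
      rw [add_sub_cancel_left]
    have h8 : ‖rπ π ρ q H (T.Φ z')‖ < 7 - 1 / 2 := by
      rw [hC.pi_eq hs h7]
      refine (norm_sub_le _ _).trans_lt ?_
      have := Ex_46.norm_adj_le (hl1 (rπ π ρ q H z')) (rρ π ρ q H' z')
      nlinarith [norm_nonneg (rρ π ρ q H' z')]
    have h9 : ‖rρ π ρ q H' (T.Φ z')‖ < 7 - 1 / 2 := by
      rw [hC.ka_eq hs h7]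
      refine (norm_add_le _ _).trans_lt ?_
      have := hu0 (rπ π ρ q H z')
      linarith
    constructor
    · rw [e1, map_smul, norm_smul, Real.norm_of_nonneg ht.le, mul_comm]
      exact mul_lt_mul_of_pos_right h8 ht
    · rw [e1, map_smul, norm_smul, Real.norm_of_nonneg ht.le, mul_comm]
      exact mul_lt_mul_of_pos_right h9 ht
  have h10 := Supm_685.height_supp h.opn h.int h.sta hm (hB.zm.rot.frame hB.fr) ht hu2
    (a := 7) (b := 1 / 2) (by norm_num) (by norm_num)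
    ((closedBall_subset_closedBall (by linarith)).trans h.ball) hu22 (by nlinarith) hbox hps
  have h11 := hC.height_le hs (hu.differentiable (by norm_num)) hl1 (by linarith) h7
    (pt π ρ x w X) ht
  rw [e0] at h11
  have h12 : ‖p.1 - pt π ρ x w (foot π ρ x 1 w p.1)‖ ≤ 33 / 32 * (t * ‖rρ π ρ q H' z'‖) := by
    obtain ⟨h13, h14⟩ := Fm_281.chart_normal (z := p.1) (x := x) hB.zm hB.fr hB.ct hX (by rw [← h2])
      (by rw [← hz']; exact h7)
    rw [← hz'] at h14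
    have h8 : ‖ContinuousLinearMap.adjoint (fderiv ℝ u (zc t q H w X (foot π ρ x 1 w p.1)))
        (rρ π ρ q H' z')‖ ≤ 1 / 64 * ‖rρ π ρ q H' z'‖ :=
      (Ex_46.norm_adj_le (hl1 _) _).trans (by gcongr)
    refine (sq_le_sq₀ (norm_nonneg _) (by positivity)).1 ?_
    rw [h14]
    have h9 := pow_le_pow_left₀ (norm_nonneg _) h8 2
    have : 0 ≤ t ^ 2 * ‖rρ π ρ q H' z'‖ ^ 2 := by positivity
    have : t ^ 2 * ‖ContinuousLinearMap.adjoint (fderiv ℝ u (zc t q H w X (foot π ρ x 1 w p.1)))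
        (rρ π ρ q H' z')‖ ^ 2 ≤ t ^ 2 * (1 / 64 * ‖rρ π ρ q H' z'‖) ^ 2 :=
      mul_le_mul_of_nonneg_left h9 (sq_nonneg t)
    nlinarith
  set a := ‖Main_456.hgt (rπ π ρ q H) (rρ π ρ q H') (pt π ρ x w X) t u p.1‖ with ha
  set b := ‖p.1 - pt π ρ x w (foot π ρ x 1 w p.1)‖ with hb
  have h13 : b ≤ 33 / 16 * a := by linarith
  have h14 : b ^ 2 ≤ (33 / 16 * a) ^ 2 := pow_le_pow_left₀ (norm_nonneg _) h13 2
  have h15 : ome m * a ^ 2 ≤ 33 / 32 * (2 ^ m * (d * t ^ 2)) := by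
    refine h10.trans ?_
    have e1 : ((1 / 2 * t) ^ m)⁻¹ * (d * t ^ (m + 2)) = 2 ^ m * (d * t ^ 2) := by
      rw [pow_add, mul_pow, one_div, inv_pow]
      have h7 : t ^ m ≠ 0 := by positivity
      field_simp
    rw [← e1]
    have : 0 ≤ ((1 / 2 * t) ^ m)⁻¹ := by positivity
    gcongr
  have h16 : ome m * b ^ 2 ≤ 8 * 2 ^ m * d * t ^ 2 := by
    have e1 : 0 ≤ ome m * a ^ 2 := by positivity
    have e2 : 0 ≤ 2 ^ m * (d * t ^ 2) := by nlinarith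
    nlinarith
  have h17 : b ^ 2 ≤ (8 * 2 ^ m * d * t ^ 2) / ome m := by
    rw [le_div_iff₀ hom]
    linarith
  refine h17.trans (le_of_eq ?_)
  unfold Kh
  ring

end Crest.Agent.R234.F37_354
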