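import Crest.Agent.R234.Fx8_281

/-!
# Row 234 (helper281), node F3-LE (local estimate), file 5: **LE-a**, the local estimate at a base
point from the anomaly bound of the core, in the physical space
-/

set_option autoImplicit false

open MeasureTheory Filter Topology Set Metric
open Crest.GeometryTopology.Submanifold
open Crest.Agent.R234.Vf_884
open Crest.Agent.R234.Vc_164 (hom resc measurable_hom continuous_hom integral_resc resc_conc)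
open Crest.Agent.R234.Ar_870 (IsCo tl)
open Crest.Agent.R234.Ft_209 (Dif IsPj)
open Crest.Agent.R234.Cy_870 (Split cyl isClosed_cyl)
open Crest.Agent.R234.Fc_209 (IsChart Bd)
open Crest.Agent.R234.Main_456 (Msys Frame)
open Crest.Agent.R234.Ell1_3 (dns gdet gop)
open Crest.Agent.R234.Gi_456 (hinv IsFoot foot tube Gr yy)
open Crest.Agent.R234.Foot_842 (pt)
open Crest.Agent.R234.Nrm_842 (Zm zc)
open Crest.Agent.R234.Grot_842 (rπ rρ)
open Crest.Agent.R234.F35_354 (Bp)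
open Crest.Agent.R234.Ex_46 (trans zoom hmt' restr UU DD)
open Crest.Agent.R234.Core_809 (part anom en Yh)
open Crest.Agent.R234.Loc1_290 (bump)
open scoped InnerProductSpace ENNReal

noncomputable section

namespace Crest.Agent.R234.Fm_281

variable {m n k : ℕ}

/-- the part of the class in terms of the transported varifold -/
theorem part_eq {P : Euc k →L[ℝ] Euc m} {R : Euc k →L[ℝ] Euc n} {T : Dif k} {z0 : Euc k} {t : ℝ}
    (ht : 0 < t) {U0 : Set (Euc k)} {D0 : VarifoldData m k} (hD : IsIntegralVarifoldIn U0 D0)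
    (hU0 : IsOpen U0) (hdom : cyl P R 0 4 1 ⊆ UU P R T.Φ z0 t U0) :
    part P R (DD P R T.Φ T.Ψ z0 t U0 D0) =
      (T.push (resc m z0 t (VD D0))).restrict (cyl P R 0 4 1 ×ˢ univ) := by
  have hz := Ex_46.integral_zoom hD z0 ht
  have hi := T.isIntegral hz
  have e1 : T.data (zoom z0 t D0) = trans T.Ψ (zoom z0 t D0) := rfl
  have hUm : MeasurableSet (UU P R T.Φ z0 t U0) :=
    (Ex_46.isOpen_UU T.continuousΦ z0 t hU0).measurableSet
  have e2 : VD (DD P R T.Φ T.Ψ z0 t U0 D0) =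
      (T.push (resc m z0 t (VD D0))).restrict (UU P R T.Φ z0 t U0 ×ˢ univ) := by
    unfold Ex_46.DD
    rw [← e1, Ex_46.VD_restr hi hUm, T.VD_data hz, Ex_46.VD_zoom hD z0 ht]
  have hcm : MeasurableSet (cyl P R 0 4 1 ×ˢ (univ : Set (L k))) :=
    (isClosed_cyl P R 0 4 1).measurableSet.prod .univ
  unfold Core_809.part
  rw [e2, Measure.restrict_restrict hcm, inter_eq_left.2 (prod_mono hdom Subset.rfl)]

/-- **LE-a: the local estimate** at a base point -/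
theorem exists_LEa (k : ℕ) : ∃ c C1 : ℝ, 0 < c ∧ c ≤ 1 / 8 ∧ 1 ≤ C1 ∧
    ∀ {m n : ℕ} {π : Euc k →L[ℝ] Euc m} {ρ : Euc k →L[ℝ] Euc n} {x : Euc k}
      {w w' U : Euc m → Euc n} {X0 : Euc m} {C κ t e : ℝ} {q : Euc m →L[ℝ] Euc n}
      {H : Euc m →L[ℝ] Euc m} {H' : Euc n →L[ℝ] Euc n} {T : Dif k},
      Bp π ρ x w X0 C κ t q H H' w' U T e → (∀ y ∈ ball (0 : Euc m) 7, Msys U y = 0) →
      C * κ * t ≤ c →
      ∀ {U0 : Set (Euc k)} {D0 : VarifoldData m k}, IsIntegralVarifoldIn U0 D0 → IsOpen U0 →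
      ∀ {K : Set (Euc k)} {h0 : ℝ}, Lk π ρ x w X0 t h0 (VD D0) K →
      ∀ {Q : ℕ} {δ A C0 Cd : ℝ}, 0 ≤ C0 → 0 ≤ Cd → 0 ≤ δ →
      δ ≤ Cd * (C * κ * t * (C * κ * t + h0 / t)) →
      cyl (rπ π ρ q H) (rρ π ρ q H') 0 4 1 ⊆
        UU (rπ π ρ q H) (rρ π ρ q H') T.Φ (pt π ρ x w X0) t U0 →
      anom Q (rπ π ρ q H) (rρ π ρ q H')
          (DD (rπ π ρ q H) (rρ π ρ q H') T.Φ T.Ψ (pt π ρ x w X0) t U0 D0) 1 0 ≤
        C0 * (δ * (en (rπ π ρ q H) (rρ π ρ q H')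
            (DD (rπ π ρ q H) (rρ π ρ q H') T.Φ T.Ψ (pt π ρ x w X0) t U0 D0) +
          √(en (rπ π ρ q H) (rρ π ρ q H')
            (DD (rπ π ρ q H) (rρ π ρ q H') T.Φ T.Ψ (pt π ρ x w X0) t U0 D0) *
            Yh (rπ π ρ q H) (rρ π ρ q H')
            (DD (rπ π ρ q H) (rρ π ρ q H') T.Φ T.Ψ (pt π ρ x w X0) t U0 D0))) +
          δ ^ 2 * Yh (rπ π ρ q H) (rρ π ρ q H')
            (DD (rπ π ρ q H) (rρ π ρ q H') T.Φ T.Ψ (pt π ρ x w X0) t U0 D0)) + A →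
      ∫ p in K ×ˢ univ, Bf t q H w U X0 (foot π ρ x 1 w p.1) *
          (1 - Nt π ρ w (foot π ρ x 1 w p.1) p.2 / 2) ∂(VD D0) -
        Q * ∫ X, Bf t q H w U X0 X * dns (fderiv ℝ w X) ≤
      CLE C0 C1 Cd * C ^ 2 * ∫ p in {p | p.1 ∈ K ∧ ‖foot π ρ x 1 w p.1 - X0‖ < 5 * t},
          Gp π ρ x w ((κ * t) ^ 2 + κ * h0 + (h0 / t) ^ 2) (κ ^ 2) p ∂(VD D0) + t ^ m * A := by
  obtain ⟨c, C1, hc, hc8, hC1, hint⟩ := chart_int k
  refine ⟨c, C1, hc, hc8, hC1, ?_⟩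
  intro m n π ρ x w w' U X0 C κ t e q H H' T h hM hlc U0 D0 hD hU0 K h0 hK Q δ A C0 Cd hC0 hCd
    hδ0 hδ hdom hcore
  have ht := h.zm.t0
  have hC := h.zm.C1
  have hκ := h.zm.κ0
  have hh := hyp_of h hM
  have hl := hh.hl
  have hy00 : 0 ≤ h0 / t := div_nonneg hK.hh ht.le
  have hy01 : h0 / t ≤ 1 := by rw [div_le_one ht]; exact hK.ht
  obtain ⟨V, hV⟩ : ∃ V, V = VD D0 := ⟨_, rfl⟩
  have hpart := part_eq (P := rπ π ρ q H) (R := rρ π ρ q H') (T := T) (z0 := pt π ρ x w X0) ht hD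
    hU0 hdom
  unfold Core_809.anom Core_809.en Core_809.Yh at hcore
  rw [hpart] at hcore
  rw [← hV] at hcore hK ⊢
  have hfin := resc_cyl h hK
  have hcI := hint hh hlc hy00 hy01 (Q := (Q : ℝ)) (resc_conc (pt π ρ x w X0) t hK.conc m) hfin
    (ae_height h hK) hC0 hCd hδ0 hδ hcore
  -- measurability
  have hs := hh.hs
  have hWm : MeasurableSet (cyl (rπ π ρ q H) (rρ π ρ q H') 0 4 1) :=
    (isClosed_cyl _ _ 0 4 1).measurableSet
  have hm := measurableSet_pre (k := k) T hWm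
  have hΨ : Measurable fun p : Euc k × L k => T.Ψ p.1 :=
    T.continuousΨ.measurable.comp measurable_fst
  have hyM : Measurable fun p : Euc k × L k => ‖rρ π ρ q H' (T.Ψ p.1)‖ :=
    ((rρ π ρ q H').continuous.measurable.comp hΨ).norm
  have hNm : Measurable fun p : Euc k × L k =>
      Nt (rπ π ρ q H) (rρ π ρ q H') U (rπ π ρ q H (T.Ψ p.1)) p.2 :=
    measurable_Nt hh.hu ((rπ π ρ q H).continuous.measurable.comp hΨ) measurable_snd
  have hfm : Measurable fun p : Euc k × L k => fB U (rπ π ρ q H (T.Ψ p.1)) :=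
    (measurable_fB hh.hu).comp ((rπ π ρ q H).continuous.measurable.comp hΨ)
  have hF1 : Measurable fun p : Euc k × L k => fB U (rπ π ρ q H (T.Ψ p.1)) *
      (1 - Nt (rπ π ρ q H) (rρ π ρ q H') U (rπ π ρ q H (T.Ψ p.1)) p.2 / 2) :=
    hfm.mul (measurable_const.sub (hNm.div_const 2))
  obtain ⟨l, hl'⟩ : ∃ l, l = C * κ * t := ⟨_, rfl⟩
  obtain ⟨y0, hy0'⟩ : ∃ y0, y0 = h0 / t := ⟨_, rfl⟩
  rw [← hl', ← hy0'] at hcI
  rw [← hl'] at hl
  rw [← hy0'] at hy00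
  have hF2 : Measurable fun p : Euc k × L k =>
      (l ^ 2 + l * y0 + y0 ^ 2) *
        Nt (rπ π ρ q H) (rρ π ρ q H') U (rπ π ρ q H (T.Ψ p.1)) p.2 +
      l ^ 2 * ‖rρ π ρ q H' (T.Ψ p.1)‖ ^ 2 :=
    (measurable_const.mul hNm).add (measurable_const.mul (hyM.pow_const 2))
  rw [setIntegral_resc T hWm ht hF1, setIntegral_resc T hWm ht hF2] at hcI
  -- rewrite the main term
  have e1 : ∫ p in {p : Euc k × L k | T.Ψ (t⁻¹ • (p.1 - pt π ρ x w X0)) ∈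
        cyl (rπ π ρ q H) (rρ π ρ q H') 0 4 1},
      (fun p : Euc k × L k => fB U (rπ π ρ q H (T.Ψ p.1)) *
      (1 - Nt (rπ π ρ q H) (rρ π ρ q H') U (rπ π ρ q H (T.Ψ p.1)) p.2 / 2))
        (hom (pt π ρ x w X0) t p) ∂V =
      ∫ p in K ×ˢ univ, Bf t q H w U X0 (foot π ρ x 1 w p.1) *
          (1 - Nt π ρ w (foot π ρ x 1 w p.1) p.2 / 2) ∂V := (main_eq h hK).symm
  rw [e1] at hcI
  -- the error term
  have e2 : ∫ p in {p : Euc k × L k | T.Ψ (t⁻¹ • (p.1 - pt π ρ x w X0)) ∈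
        cyl (rπ π ρ q H) (rρ π ρ q H') 0 4 1},
      (fun p : Euc k × L k => (l ^ 2 + l * y0 + y0 ^ 2) *
        Nt (rπ π ρ q H) (rρ π ρ q H') U (rπ π ρ q H (T.Ψ p.1)) p.2 +
      l ^ 2 * ‖rρ π ρ q H' (T.Ψ p.1)‖ ^ 2) (hom (pt π ρ x w X0) t p) ∂V ≤
      ∫ p in {p | p.1 ∈ K ∧ ‖foot π ρ x 1 w p.1 - X0‖ < 5 * t},
        Gp π ρ x w (C ^ 2 * ((κ * t) ^ 2 + κ * h0 + (h0 / t) ^ 2)) (C ^ 2 * κ ^ 2) p ∂V := by
    refine err_le h hK (by positivity) ?_ (sq_nonneg l) ?_ ?_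
    · rw [hl', hy0']
      have f1 : C * κ * t * (h0 / t) = C * (κ * h0) := by field_simp
      rw [f1]
      have f2 : (C * κ * t) ^ 2 = C ^ 2 * (κ * t) ^ 2 := by ring
      rw [f2]
      have f3 : 0 ≤ κ * h0 := mul_nonneg hκ hK.hh
      have f4 : C ≤ C ^ 2 := by nlinarith
      have f5 : 1 ≤ C ^ 2 := by nlinarith
      have f6 : C * (κ * h0) ≤ C ^ 2 * (κ * h0) := mul_le_mul_of_nonneg_right f4 f3
      have f7 : (h0 / t) ^ 2 ≤ C ^ 2 * (h0 / t) ^ 2 :=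
        le_mul_of_one_le_left (sq_nonneg _) f5
      calc _ ≤ C ^ 2 * (κ * t) ^ 2 + C ^ 2 * (κ * h0) + C ^ 2 * (h0 / t) ^ 2 := by linarith
        _ = _ := by ring
    · rw [hl']
      exact le_of_eq (by ring)
    · -- integrability
      have g1 := hh.hs
      have hmz : Measurable fun p : Euc k × L k => hom (pt π ρ x w X0) t p :=
        measurable_hom _ _
      have g2 := hF2.comp hmz
      refine intOn_bdd (fin_Sc h hK) g2
        (B := (l ^ 2 + l * y0 + y0 ^ 2) * (k * 1) + l ^ 2 * 1) ?_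
      filter_upwards [ae_restrict_of_ae hK.conc, ae_restrict_mem measurableSet_Sc] with p h1 h2
      have h3 : 0 ≤ Nt (rπ π ρ q H) (rρ π ρ q H') U
          (rπ π ρ q H (T.Ψ (zy π ρ x w X0 t p.1))) p.2 := tau0_nonneg' hs _ h1
      have h4 : Nt (rπ π ρ q H) (rρ π ρ q H') U
          (rπ π ρ q H (T.Ψ (zy π ρ x w X0 t p.1))) p.2 ≤ k * 1 := by
        unfold Nt GLK_128.tau0
        have h5 := abs_tr_mul_le (GLK_128.NN (ContinuousLinearMap.adjoint (rπ π ρ q H))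
          (ContinuousLinearMap.adjoint (rρ π ρ q H'))
          (fderiv ℝ U (rπ π ρ q H (T.Ψ (zy π ρ x w X0 t p.1))))
          (hinv (fderiv ℝ U (rπ π ρ q H (T.Ψ (zy π ρ x w X0 t p.1)))))) p.2
        have h6 : IsStarProjection (GLK_128.NN (ContinuousLinearMap.adjoint (rπ π ρ q H))
          (ContinuousLinearMap.adjoint (rρ π ρ q H'))
          (fderiv ℝ U (rπ π ρ q H (T.Ψ (zy π ρ x w X0 t p.1))))
          (hinv (fderiv ℝ U (rπ π ρ q H (T.Ψ (zy π ρ x w X0 t p.1)))))) :=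
          ⟨(NN_isPj hs _).mul, (NN_isPj hs _).star⟩
        have h7 := h6.norm_le
        have h8 := (isStar_of_G h1).norm_le
        refine (le_abs_self _).trans (h5.trans ?_)
        refine mul_le_mul_of_nonneg_left ?_ (Nat.cast_nonneg k)
        calc _ ≤ (1:ℝ) * 1 := mul_le_mul h7 h8 (norm_nonneg _) zero_le_one
          _ = 1 := one_mul 1
      have h5 : ‖rρ π ρ q H' (T.Ψ (zy π ρ x w X0 t p.1))‖ ≤ 1 := h2.2
      have h6 : 0 ≤ ‖rρ π ρ q H' (T.Ψ (zy π ρ x w X0 t p.1))‖ := norm_nonneg _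
      change ‖(l ^ 2 + l * y0 + y0 ^ 2) * Nt (rπ π ρ q H) (rρ π ρ q H') U
          (rπ π ρ q H (T.Ψ (zy π ρ x w X0 t p.1))) p.2 +
          l ^ 2 * ‖rρ π ρ q H' (T.Ψ (zy π ρ x w X0 t p.1))‖ ^ 2‖ ≤ _
      rw [Real.norm_of_nonneg (by positivity)]
      refine add_le_add (mul_le_mul_of_nonneg_left h4 (by positivity)) ?_
      exact mul_le_mul_of_nonneg_left (pow_le_one₀ h6 h5) (sq_nonneg l)
  have e3 : ∫ p in {p | p.1 ∈ K ∧ ‖foot π ρ x 1 w p.1 - X0‖ < 5 * t},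
        Gp π ρ x w (C ^ 2 * ((κ * t) ^ 2 + κ * h0 + (h0 / t) ^ 2)) (C ^ 2 * κ ^ 2) p ∂V =
      C ^ 2 * ∫ p in {p | p.1 ∈ K ∧ ‖foot π ρ x 1 w p.1 - X0‖ < 5 * t},
        Gp π ρ x w ((κ * t) ^ 2 + κ * h0 + (h0 / t) ^ 2) (κ ^ 2) p ∂V := by
    rw [← integral_const_mul]
    refine integral_congr_ae (Eventually.of_forall fun p => ?_)
    simp only [Gp]
    ring
  rw [e3] at e2
  rw [area_eq h]
  -- conclusion
  obtain ⟨M, hMd⟩ : ∃ M, M = ∫ p in K ×ˢ univ, Bf t q H w U X0 (foot π ρ x 1 w p.1) *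
          (1 - Nt π ρ w (foot π ρ x 1 w p.1) p.2 / 2) ∂V := ⟨_, rfl⟩
  obtain ⟨B, hB⟩ : ∃ B, B = ∫ v : Euc m, bump (1:ℝ) 0 v := ⟨_, rfl⟩
  obtain ⟨G1, hG1⟩ : ∃ G1, G1 = ∫ p in {p : Euc k × L k |
        T.Ψ (t⁻¹ • (p.1 - pt π ρ x w X0)) ∈ cyl (rπ π ρ q H) (rρ π ρ q H') 0 4 1},
      (fun p : Euc k × L k => (l ^ 2 + l * y0 + y0 ^ 2) *
        Nt (rπ π ρ q H) (rρ π ρ q H') U (rπ π ρ q H (T.Ψ p.1)) p.2 +
      l ^ 2 * ‖rρ π ρ q H' (T.Ψ p.1)‖ ^ 2) (hom (pt π ρ x w X0) t p) ∂V := ⟨_, rfl⟩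
  obtain ⟨G2, hG2⟩ : ∃ G2, G2 = ∫ p in {p | p.1 ∈ K ∧ ‖foot π ρ x 1 w p.1 - X0‖ < 5 * t},
        Gp π ρ x w ((κ * t) ^ 2 + κ * h0 + (h0 / t) ^ 2) (κ ^ 2) p ∂V := ⟨_, rfl⟩
  rw [← hG1, ← hG2] at e2
  rw [← hMd, ← hB, ← hG1] at hcI
  rw [← hMd, ← hB, ← hG2]
  have htm : 0 < t ^ m := by positivity
  have hCLE : 0 ≤ CLE C0 C1 Cd := by
    unfold CLE
    have : 0 ≤ C1 := by linarith
    positivity
  have f1 := mul_le_mul_of_nonneg_left hcI htm.le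
  have f2 : t ^ m * ((t ^ m)⁻¹ * M - Q * B) = M - Q * (t ^ m * B) := by
    field_simp
  have f3 : t ^ m * (CLE C0 C1 Cd * ((t ^ m)⁻¹ * G1) + A) = CLE C0 C1 Cd * G1 + t ^ m * A := by
    field_simp
  rw [f2, f3] at f1
  have f4 := mul_le_mul_of_nonneg_left e2 hCLE
  have f5 : CLE C0 C1 Cd * C ^ 2 * G2 = CLE C0 C1 Cd * (C ^ 2 * G2) := by ring
  rw [f5]
  linarith

end Crest.Agent.R234.Fm_281
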