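import Crest.Agent.R234.Gi6_456

/-!
# Row 234, node GL-INST (helper456), file 7: geometry of the chart

`pm π ρ x w X = x + πᵀ X + ρᵀ w X` = point of the graph above `X`.
* `Gr.sub_pm`, `Gr.norm_sq_sub_pm` : `z - pm X'` in the chart
* `Gr.dist_low`, `Gr.dist_up` : `|x|² + |ν|²` versus `|z - pm X0|²`
* `Gr.norm_nu_le` : nearest point
* `norm_nu_sq`, `Gr.norm_foot_sub'` … comparisons
* `Kc` : compact pieces of the tube
-/

set_option autoImplicit false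

open MeasureTheory Filter Topology Set Function
open scoped ENNReal NNReal ContDiff InnerProductSpace
open Crest.GeometryTopology.Submanifold Crest.Agent.R234.Vf_884
open Crest.Agent.R234.Main_456

noncomputable section

namespace Crest.Agent.R234.Gi_456

variable {m n k : ℕ}

local notation "adj" => ContinuousLinearMap.adjoint

variable {π : Euc k →L[ℝ] Euc m} {ρ : Euc k →L[ℝ] Euc n} {x : Euc k} {r : ℝ} {w : Euc m → Euc n}
  {X0 : Euc m}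

/-- the point of the graph above `X` -/
def pm (π : Euc k →L[ℝ] Euc m) (ρ : Euc k →L[ℝ] Euc n) (x : Euc k) (w : Euc m → Euc n)
    (X : Euc m) : Euc k := x + adj π X + adj ρ (w X)

theorem norm_sq_frame (hf : Frame π ρ) (a : Euc m) (b : Euc n) :
    ‖adj π a + adj ρ b‖ ^ 2 = ‖a‖ ^ 2 + ‖b‖ ^ 2 := by
  have h1 : ⟪adj π a, adj ρ b⟫_ℝ = 0 := by
    rw [ContinuousLinearMap.adjoint_inner_left, pi_adj_rho hf, inner_zero_right]
  have h2 : ‖adj π a‖ ^ 2 = ‖a‖ ^ 2 := by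
    rw [← real_inner_self_eq_norm_sq, ContinuousLinearMap.adjoint_inner_left, pi_adj hf,
      real_inner_self_eq_norm_sq]
  have h3 : ‖adj ρ b‖ ^ 2 = ‖b‖ ^ 2 := by
    rw [← real_inner_self_eq_norm_sq, ContinuousLinearMap.adjoint_inner_left, rho_adj hf,
      real_inner_self_eq_norm_sq]
  rw [norm_add_sq_real, h1, h2, h3]; ring

theorem norm_adj_rho (hf : Frame π ρ) (b : Euc n) : ‖adj ρ b‖ = ‖b‖ := by
  have h := norm_sq_frame hf 0 b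
  rw [map_zero, zero_add, norm_zero] at h
  have h1 : ‖adj ρ b‖ ^ 2 = ‖b‖ ^ 2 := by rw [h]; ring
  exact (sq_eq_sq₀ (norm_nonneg _) (norm_nonneg _)).1 h1

theorem Gr.sub_pm (h : Gr r w) (hf : Frame π ρ) {z : Euc k} (hz : z ∈ tube π ρ x r w)
    (X' : Euc m) :
    z - pm π ρ x w X' = (adj π (foot π ρ x r w z - X') + adj ρ (w (foot π ρ x r w z) - w X')) +
      Bt π ρ w (foot π ρ x r w z) (yy π ρ x r w z) := by
  rw [h.nu_eq hf hz, pm, map_sub, map_sub]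
  abel

theorem Gr.sub_pm_foot (h : Gr r w) (hf : Frame π ρ) {z : Euc k} (hz : z ∈ tube π ρ x r w) :
    z - pm π ρ x w (foot π ρ x r w z) = (ch π ρ x r w X0).nu z := by
  rw [h.sub_pm hf hz, sub_self, sub_self, map_zero, map_zero, zero_add, zero_add]
  rfl

/-- the normal vector against a secant -/
theorem inner_nu (hf : Frame π ρ) (X : Euc m) (Y : Euc n) (a : Euc m) (b : Euc n) :
    ⟪adj π a + adj ρ b, Bt π ρ w X Y⟫_ℝ = ⟪adj ρ (b - fderiv ℝ w X a), Bt π ρ w X Y⟫_ℝ := by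
  have h1 : adj π a + adj ρ b = A0t π ρ w X a + adj ρ (b - fderiv ℝ w X a) := by
    rw [map_sub]
    show _ = (adj π a + adj ρ (fderiv ℝ w X a)) + _
    abel
  have h2 : ⟪A0t π ρ w X a, Bt π ρ w X Y⟫_ℝ = 0 := by
    rw [← ContinuousLinearMap.adjoint_inner_right, Gr.A0t_nu hf, inner_zero_right]
  rw [h1, inner_add_left, h2, zero_add]

/-- **distance to a point of the graph** -/
theorem Gr.norm_sq_sub_pm (h : Gr r w) (hf : Frame π ρ) {z : Euc k} (hz : z ∈ tube π ρ x r w)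
    (X' : Euc m) :
    ‖z - pm π ρ x w X'‖ ^ 2 = ‖foot π ρ x r w z - X'‖ ^ 2 +
      ‖w (foot π ρ x r w z) - w X'‖ ^ 2 +
      2 * ⟪adj ρ (w (foot π ρ x r w z) - w X' -
        fderiv ℝ w (foot π ρ x r w z) (foot π ρ x r w z - X')),
        Bt π ρ w (foot π ρ x r w z) (yy π ρ x r w z)⟫_ℝ +
      ‖Bt π ρ w (foot π ρ x r w z) (yy π ρ x r w z)‖ ^ 2 := by
  rw [h.sub_pm hf hz, norm_add_sq_real, inner_nu hf, norm_sq_frame hf]

/-- Taylor -/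
theorem Gr.taylor (h : Gr r w) {X X' : Euc m} {K2 : ℝ}
    (hK : ∀ a ∈ segment ℝ X X', ‖fderiv ℝ (fderiv ℝ w) a‖ ≤ K2) :
    ‖w X' - w X - fderiv ℝ w X (X' - X)‖ ≤ K2 * ‖X' - X‖ ^ 2 := by
  have hK0 : 0 ≤ K2 := le_trans (norm_nonneg (fderiv ℝ (fderiv ℝ w) X))
    (hK X (left_mem_segment ℝ X X'))
  have h1 : ∀ a ∈ segment ℝ X X', ‖fderiv ℝ w a - fderiv ℝ w X‖ ≤ K2 * ‖X' - X‖ := by
    intro a ha
    have h2 := (convex_segment X X').norm_image_sub_le_of_norm_fderiv_le (𝕜 := ℝ)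
      (fun y _ => h.differentiable' y) hK (left_mem_segment ℝ X X') ha
    refine h2.trans (mul_le_mul_of_nonneg_left ?_ hK0)
    obtain ⟨s, t, hs, ht, hst, rfl⟩ := ha
    have e : s • X + t • X' - X = t • (X' - X) := by
      have : s = 1 - t := by linarith
      rw [this, sub_smul, one_smul, smul_sub]; abel
    rw [e, norm_smul, Real.norm_of_nonneg ht]
    have : t ≤ 1 := by linarith
    nlinarith [norm_nonneg (X' - X)]
  have h3 := (convex_segment X X').norm_image_sub_le_of_norm_fderiv_le' (𝕜 := ℝ)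
    (fun y _ => h.differentiable y) h1 (left_mem_segment ℝ X X') (right_mem_segment ℝ X X')
  refine h3.trans (le_of_eq ?_)
  ring

theorem norm_nu_sq (hf : Frame π ρ) (X : Euc m) (Y : Euc n) :
    ‖Bt π ρ w X Y‖ ^ 2 = ‖Y‖ ^ 2 + ‖adj (fderiv ℝ w X) Y‖ ^ 2 := by
  have h1 := GLK_128.BB_BB (q := fderiv ℝ w X) (frame_fr hf)
  rw [← real_inner_self_eq_norm_sq]
  show ⟪GLK_128.BB (adj π) (adj ρ) (fderiv ℝ w X) Y,
    GLK_128.BB (adj π) (adj ρ) (fderiv ℝ w X) Y⟫_ℝ = _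
  rw [← ContinuousLinearMap.adjoint_inner_left, ← ContinuousLinearMap.comp_apply, h1,
    GLK_128.hh_inner]

theorem le_norm_nu (hf : Frame π ρ) (X : Euc m) (Y : Euc n) : ‖Y‖ ≤ ‖Bt π ρ w X Y‖ := by
  have := norm_nu_sq (w := w) hf X Y
  refine abs_le_of_sq_le_sq' ?_ (norm_nonneg _) |>.2
  nlinarith [sq_nonneg ‖adj (fderiv ℝ w X) Y‖]

theorem Gr.norm_nu_le_yy (h : Gr r w) (hf : Frame π ρ) (X : Euc m) (Y : Euc n) :
    ‖Bt π ρ w X Y‖ ≤ 65 / 64 * ‖Y‖ := by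
  have h1 := norm_nu_sq (w := w) hf X Y
  have h2 : ‖adj (fderiv ℝ w X) Y‖ ≤ 1 / 8 * ‖Y‖ := by
    refine (ContinuousLinearMap.le_opNorm _ _).trans (mul_le_mul_of_nonneg_right ?_ (norm_nonneg _))
    rw [show ‖adj (fderiv ℝ w X)‖ = ‖fderiv ℝ w X‖ from LinearIsometryEquiv.norm_map _ _]
    exact h.d1 X
  refine abs_le_of_sq_le_sq' ?_ (by positivity) |>.2
  nlinarith [norm_nonneg (adj (fderiv ℝ w X) Y), norm_nonneg Y]

/-- **nearest point** -/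
theorem Gr.norm_nu_le (h : Gr r w) (hf : Frame π ρ) {z : Euc k} (hz : z ∈ tube π ρ x r w)
    (X' : Euc m) : ‖(ch π ρ x r w X0).nu z‖ ≤ ‖z - pm π ρ x w X'‖ := by
  show ‖Bt π ρ w (foot π ρ x r w z) (yy π ρ x r w z)‖ ≤ _
  have h1 := h.norm_sq_sub_pm hf hz X'
  set X := foot π ρ x r w z with hX
  set ν := Bt π ρ w X (yy π ρ x r w z) with hν
  have hr := h.pos
  have h2 := h.taylor (X := X) (X' := X') (K2 := 1 / (8 * r)) (fun a _ => h.d2 a)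
  have h3 : ‖ν‖ ≤ 65 / 32 * r := by
    have := h.norm_nu_le_yy hf X (yy π ρ x r w z)
    have h4 := h.norm_yy_lt hz
    rw [← hν] at this
    linarith
  have h4 : |⟪adj ρ (w X - w X' - fderiv ℝ w X (X - X')), ν⟫_ℝ| ≤
      1 / (8 * r) * ‖X - X'‖ ^ 2 * (65 / 32 * r) := by
    refine (abs_real_inner_le_norm _ _).trans ?_
    rw [norm_adj_rho hf]
    have e : w X - w X' - fderiv ℝ w X (X - X') = -(w X' - w X - fderiv ℝ w X (X' - X)) := by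
      rw [map_sub, map_sub]; abel
    rw [e, norm_neg]
    refine mul_le_mul ?_ h3 (norm_nonneg _) (by positivity)
    rwa [norm_sub_rev X X']
  have h5 : 1 / (8 * r) * ‖X - X'‖ ^ 2 * (65 / 32 * r) = 65 / 256 * ‖X - X'‖ ^ 2 := by
    field_simp; ring
  rw [h5] at h4
  have h6 := (abs_le.1 h4).1
  refine abs_le_of_sq_le_sq' ?_ (norm_nonneg _) |>.2
  rw [h1]
  nlinarith [sq_nonneg ‖X - X'‖, sq_nonneg ‖w X - w X'‖]

/-- **471's inequality** -/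
theorem Gr.dist_low (h : Gr r w) (hf : Frame π ρ) {z : Euc k} (hz : z ∈ tube π ρ x r w)
    {K2 : ℝ} (hK : ∀ a ∈ segment ℝ X0 (foot π ρ x r w z), ‖fderiv ℝ (fderiv ℝ w) a‖ ≤ K2) :
    (1 - K2 * ‖(ch π ρ x r w X0).x z‖) * ‖(ch π ρ x r w X0).x z‖ ^ 2 +
      ‖(ch π ρ x r w X0).nu z‖ ^ 2 -
      2 * K2 * ‖(ch π ρ x r w X0).x z‖ ^ 2 * ‖(ch π ρ x r w X0).nu z‖ ≤
      ‖z - pm π ρ x w X0‖ ^ 2 := by
  have h1 := h.norm_sq_sub_pm hf hz X0
  show (1 - K2 * ‖Lo (fderiv ℝ w X0) (foot π ρ x r w z - X0)‖) *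
      ‖Lo (fderiv ℝ w X0) (foot π ρ x r w z - X0)‖ ^ 2 +
      ‖Bt π ρ w (foot π ρ x r w z) (yy π ρ x r w z)‖ ^ 2 -
      2 * K2 * ‖Lo (fderiv ℝ w X0) (foot π ρ x r w z - X0)‖ ^ 2 *
        ‖Bt π ρ w (foot π ρ x r w z) (yy π ρ x r w z)‖ ≤ _
  have hK0 : 0 ≤ K2 := le_trans (norm_nonneg (fderiv ℝ (fderiv ℝ w) X0))
    (hK X0 (left_mem_segment ℝ _ _))
  set X := foot π ρ x r w z with hX
  set ν := Bt π ρ w X (yy π ρ x r w z) with hν
  set d := X - X0 with hd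
  have n1 := norm_Lo_sq (fderiv ℝ w X0) d
  have n2 := le_norm_Lo (fderiv ℝ w X0) d
  set a := ‖Lo (fderiv ℝ w X0) d‖ with ha
  have ha0 : 0 ≤ a := norm_nonneg _
  have hd0 := norm_nonneg d
  have t1 := h.taylor (X := X0) (X' := X) hK
  have t2 := h.taylor (X := X) (X' := X0) (by rwa [segment_symm])
  rw [← hd] at t1
  have i1 : |⟪adj ρ (w X - w X0 - fderiv ℝ w X d), ν⟫_ℝ| ≤ K2 * ‖d‖ ^ 2 * ‖ν‖ := by
    refine (abs_real_inner_le_norm _ _).trans ?_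
    rw [norm_adj_rho hf]
    have e : w X - w X0 - fderiv ℝ w X d = -(w X0 - w X - fderiv ℝ w X (X0 - X)) := by
      rw [hd, map_sub, map_sub]; abel
    rw [e, norm_neg]
    refine mul_le_mul_of_nonneg_right ?_ (norm_nonneg _)
    rwa [norm_sub_rev X0 X, ← hd] at t2
  have hd2 : ‖d‖ ^ 2 ≤ a ^ 2 := pow_le_pow_left₀ hd0 n2 2
  have i2 : K2 * ‖d‖ ^ 2 * ‖ν‖ ≤ K2 * a ^ 2 * ‖ν‖ := by gcongr
  have i3 := (abs_le.1 i1).1
  -- `|w X - w X0|² ≥ |q0 d|² - 2 |q0 d| |R|`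
  have i4 : ‖fderiv ℝ w X0 d‖ ^ 2 - K2 * a ^ 3 ≤ ‖w X - w X0‖ ^ 2 := by
    have e1 : ‖fderiv ℝ w X0 d‖ ≤ 1 / 8 * ‖d‖ :=
      (ContinuousLinearMap.le_opNorm _ _).trans (mul_le_mul_of_nonneg_right (h.d1 X0) hd0)
    have e2 : ‖fderiv ℝ w X0 d‖ ≤ ‖w X - w X0‖ + K2 * ‖d‖ ^ 2 := by
      have := norm_sub_norm_le (fderiv ℝ w X0 d) (w X - w X0)
      rw [norm_sub_rev (fderiv ℝ w X0 d)] at this
      linarith
    have e3 := norm_nonneg (fderiv ℝ w X0 d)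
    have e4 := norm_nonneg (w X - w X0)
    have e5 : K2 * ‖d‖ ^ 2 * ‖d‖ ≤ K2 * a ^ 3 := by
      calc K2 * ‖d‖ ^ 2 * ‖d‖ ≤ K2 * a ^ 2 * a := by gcongr
        _ = K2 * a ^ 3 := by ring
    have e6 : 0 ≤ K2 * ‖d‖ ^ 2 := by positivity
    by_cases hc : ‖fderiv ℝ w X0 d‖ ≤ ‖w X - w X0‖
    · have : ‖fderiv ℝ w X0 d‖ ^ 2 ≤ ‖w X - w X0‖ ^ 2 := pow_le_pow_left₀ e3 hc 2
      have : 0 ≤ K2 * a ^ 3 := by positivity
      linarith
    · have hc' := (not_le.1 hc).le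
      have : (‖fderiv ℝ w X0 d‖ - ‖w X - w X0‖) * (‖fderiv ℝ w X0 d‖ + ‖w X - w X0‖) ≤
          (K2 * ‖d‖ ^ 2) * (2 * (1 / 8 * ‖d‖)) :=
        mul_le_mul (by linarith) (by linarith) (by linarith) e6
      nlinarith
  rw [h1]
  nlinarith

/-- upper bound -/
theorem Gr.dist_up (h : Gr r w) (hf : Frame π ρ) {z : Euc k} (hz : z ∈ tube π ρ x r w)
    (X0 : Euc m) :
    ‖z - pm π ρ x w X0‖ ≤ 65 / 64 * ‖(ch π ρ x r w X0).x z‖ + ‖(ch π ρ x r w X0).nu z‖ := by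
  rw [h.sub_pm hf hz]
  refine (norm_add_le _ _).trans (add_le_add ?_ le_rfl)
  set X := foot π ρ x r w z with hX
  have h1 := norm_sq_frame hf (X - X0) (w X - w X0)
  have h2 := h.lip X X0
  have h3 := le_norm_Lo (fderiv ℝ w X0) (X - X0)
  have h4 : ‖adj π (X - X0) + adj ρ (w X - w X0)‖ ≤ 65 / 64 * ‖X - X0‖ := by
    refine abs_le_of_sq_le_sq' ?_ (by positivity) |>.2
    rw [h1]
    nlinarith [norm_nonneg (X - X0), norm_nonneg (w X - w X0)]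
  show _ ≤ 65 / 64 * ‖Lo (fderiv ℝ w X0) (X - X0)‖
  linarith

/-! ### comparison with the linear coordinates -/

theorem Gr.norm_foot_sub' (h : Gr r w) {z : Euc k} (hz : z ∈ tube π ρ x r w) :
    ‖foot π ρ x r w z - π (z - x)‖ ≤
      ‖fderiv ℝ w (foot π ρ x r w z)‖ * ‖yy π ρ x r w z‖ := by
  have h1 := h.foot_fix hz
  have h2 : foot π ρ x r w z - π (z - x) =
      adj (fderiv ℝ w (foot π ρ x r w z)) (yy π ρ x r w z) := sub_eq_iff_eq_add'.2 h1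
  rw [h2]
  refine (ContinuousLinearMap.le_opNorm _ _).trans (le_of_eq ?_)
  rw [show ‖adj (fderiv ℝ w (foot π ρ x r w z))‖ = ‖fderiv ℝ w (foot π ρ x r w z)‖ from
    LinearIsometryEquiv.norm_map _ _]

theorem Gr.norm_yy_sub' (h : Gr r w) {z : Euc k} (hz : z ∈ tube π ρ x r w) :
    ‖yy π ρ x r w z - (ρ (z - x) - w (π (z - x)))‖ ≤
      1 / 8 * (‖fderiv ℝ w (foot π ρ x r w z)‖ * ‖yy π ρ x r w z‖) := by
  have h1 : yy π ρ x r w z - (ρ (z - x) - w (π (z - x))) =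
      w (π (z - x)) - w (foot π ρ x r w z) := by
    simp [yy]
  rw [h1]
  have h2 := h.lip (π (z - x)) (foot π ρ x r w z)
  have h3 := h.norm_foot_sub' hz
  rw [norm_sub_rev] at h3
  linarith

/-! ### compact pieces of the tube -/

/-- `{|foot - X0| ≤ R, |yy| ≤ t}` -/
def Kc (π : Euc k →L[ℝ] Euc m) (ρ : Euc k →L[ℝ] Euc n) (x : Euc k) (w : Euc m → Euc n)
    (X0 : Euc m) (R t : ℝ) : Set (Euc k) :=
  Phi π ρ x w '' (Metric.closedBall X0 R ×ˢ Metric.closedBall 0 t)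

theorem Gr.isCompact_Kc (h : Gr r w) (X0 : Euc m) (R t : ℝ) : IsCompact (Kc π ρ x w X0 R t) :=
  ((isCompact_closedBall X0 R).prod (isCompact_closedBall (0 : Euc n) t)).image
    h.contDiff_Phi.continuous

theorem Gr.Phi_mem_tube (h : Gr r w) (hf : Frame π ρ) {q : Euc m × Euc n}
    (hq : 65 / 64 * ‖q.2‖ < r) : Phi π ρ x w q ∈ tube π ρ x r w := by
  show ‖ρ (Phi π ρ x w q - x) - w (π (Phi π ρ x w q - x))‖ < r
  rw [rho_Phi hf, pi_Phi hf]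
  have h1 := h.lip q.1 (q.1 - adj (fderiv ℝ w q.1) q.2)
  have h2 : ‖adj (fderiv ℝ w q.1) q.2‖ ≤ 1 / 8 * ‖q.2‖ := by
    refine (ContinuousLinearMap.le_opNorm _ _).trans (mul_le_mul_of_nonneg_right ?_ (norm_nonneg _))
    rw [show ‖adj (fderiv ℝ w q.1)‖ = ‖fderiv ℝ w q.1‖ from LinearIsometryEquiv.norm_map _ _]
    exact h.d1 q.1
  have h3 : w q.1 + q.2 - w (q.1 - adj (fderiv ℝ w q.1) q.2) =
      (w q.1 - w (q.1 - adj (fderiv ℝ w q.1) q.2)) + q.2 := by abel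
  rw [h3]
  rw [sub_sub_cancel] at h1
  have h4 := norm_add_le (w q.1 - w (q.1 - adj (fderiv ℝ w q.1) q.2)) q.2
  linarith

theorem Gr.Kc_subset (h : Gr r w) (hf : Frame π ρ) (X0 : Euc m) {R t : ℝ}
    (ht : 65 / 64 * t < r) : Kc π ρ x w X0 R t ⊆ tube π ρ x r w := by
  rintro _ ⟨q, hq, rfl⟩
  have h1 : ‖q.2‖ ≤ t := by simpa using hq.2
  exact h.Phi_mem_tube hf (by linarith)

theorem Gr.mem_Kc (h : Gr r w) (hf : Frame π ρ) {X0 : Euc m} {R t : ℝ} (ht : 65 / 64 * t < r)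
    {z : Euc k} : z ∈ Kc π ρ x w X0 R t ↔
      z ∈ tube π ρ x r w ∧ ‖foot π ρ x r w z - X0‖ ≤ R ∧ ‖yy π ρ x r w z‖ ≤ t := by
  constructor
  · intro hz
    have hz' := h.Kc_subset hf X0 ht hz
    obtain ⟨q, hq, rfl⟩ := hz
    have h1 : ‖q.2‖ ≤ t := by simpa using hq.2
    have h0 := norm_nonneg q.2
    have h2 : ‖q.2‖ ≤ 2 * r := by linarith
    rw [h.foot_Phi hf h2, h.yy_Phi hf h2]
    refine ⟨hz', ?_, h1⟩
    have := hq.1
    rwa [mem_closedBall_iff_norm] at this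
  · rintro ⟨h1, h2, h3⟩
    refine ⟨(foot π ρ x r w z, yy π ρ x r w z), ⟨?_, ?_⟩, h.Phi_coord hf h1⟩
    · rwa [mem_closedBall_iff_norm]
    · simpa using h3

end Crest.Agent.R234.Gi_456
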