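import Crest.Agent.R234.F38_354
import Crest.Agent.R234.Ex11_46
import Crest.Agent.R234.Fx9_281
import Crest.Agent.R234.Gi7_456

/-!
# Row 234, F3 (helper354), file 9: the local estimate from the core
-/

set_option autoImplicit false

open MeasureTheory Filter Topology Set Metric
open scoped ENNReal NNReal ContDiff InnerProductSpace
open Crest.GeometryTopology.Submanifold Crest.Agent.R234.Vf_884

noncomputable section

namespace Crest.Agent.R234.F37_354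

open Crest.Agent.R234.Main_456 (Frame Msys sep box)
open Crest.Agent.R234.Gi_456 (Gr tube foot ch Lo IsFoot)
open Crest.Agent.R234.GL_394 (VK On Ok)
open Crest.Agent.R234.Cy_870 (Split cyl)
open Crest.Agent.R234.Fc_209 (IsChart Bd)
open Crest.Agent.R234.Foot_842 (pt)
open Crest.Agent.R234.Nrm_842 (Zm zc)
open Crest.Agent.R234.Grot_842 (rπ rρ)
open Crest.Agent.R234.Fm_281 (zy Nt Gp Bf CLE Lk)
open Crest.Agent.R234.Ex_46 (hmt')
open Crest.Agent.R234.F35_354 (Bp)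
open Crest.Agent.R234.Ell1_3 (dns)

/-- logarithms -/
theorem real_log (C1 A B Cs : ℝ) (hA : 0 < A) (hC1 : 0 < C1) : ∃ L0 : ℝ, 1 ≤ L0 ∧
    ∀ L L' : ℝ, L0 ≤ L → L' = L - Real.log A → 0 < L' ∧
      B * L ^ (-(C1 + 1)) ≤ L' ^ (-C1) ∧ L' ^ (-(|Cs| + 1)) * A ≤ L ^ (-Cs) := by
  obtain ⟨a, ha⟩ : ∃ a, a = |Real.log A| := ⟨_, rfl⟩
  have ha0 : 0 ≤ a := by rw [ha]; exact abs_nonneg _
  have h2C : (0:ℝ) < 2 ^ C1 := by positivity
  have h2D : (0:ℝ) < 2 ^ (|Cs| + 1) := by positivity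
  refine ⟨1 + 2 * a + |B| * 2 ^ C1 + A * 2 ^ (|Cs| + 1), ?_, ?_⟩
  · have : 0 ≤ |B| * 2 ^ C1 := by positivity
    have : 0 ≤ A * 2 ^ (|Cs| + 1) := by positivity
    linarith
  intro L L' hL hL'
  have e1 : 0 ≤ |B| * 2 ^ C1 := by positivity
  have e2 : 0 ≤ A * 2 ^ (|Cs| + 1) := by positivity
  have hL1 : 1 ≤ L := by linarith
  have hL0 : 0 < L := by linarith
  have h1 := neg_abs_le (Real.log A)
  have h2 := le_abs_self (Real.log A)
  rw [← ha] at h1 h2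
  have h3 : L / 2 ≤ L' := by linarith
  have h4 : L' ≤ 2 * L := by linarith
  have h5 : 0 < L' := by linarith
  refine ⟨h5, ?_, ?_⟩
  · have e3 : (2 * L) ^ (-C1) ≤ L' ^ (-C1) :=
      Real.rpow_le_rpow_of_nonpos h5 h4 (by linarith)
    refine le_trans ?_ e3
    rw [Real.mul_rpow (by norm_num) hL0.le, neg_add, Real.rpow_add hL0, Real.rpow_neg_one,
      Real.rpow_neg (by norm_num : (0:ℝ) ≤ 2)]
    have e4 : 0 < L ^ (-C1) := by positivity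
    have e5 : B * L⁻¹ ≤ (2 ^ C1)⁻¹ := by
      have e6 : B * 2 ^ C1 ≤ L := by
        have : B * 2 ^ C1 ≤ |B| * 2 ^ C1 := mul_le_mul_of_nonneg_right (le_abs_self B) h2C.le
        linarith
      rw [← div_eq_mul_inv, div_le_iff₀ hL0, inv_mul_eq_div, le_div_iff₀ h2C]
      exact e6
    calc B * (L ^ (-C1) * L⁻¹) = (B * L⁻¹) * L ^ (-C1) := by ring
      _ ≤ (2 ^ C1)⁻¹ * L ^ (-C1) := mul_le_mul_of_nonneg_right e5 e4.le
  · have hc : 0 ≤ |Cs| + 1 := by positivity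
    have e3 : L' ^ (-(|Cs| + 1)) ≤ (L / 2) ^ (-(|Cs| + 1)) :=
      Real.rpow_le_rpow_of_nonpos (by linarith) h3 (by linarith)
    have e4 : (L / 2) ^ (-(|Cs| + 1)) = 2 ^ (|Cs| + 1) * L ^ (-(|Cs| + 1)) := by
      rw [Real.div_rpow hL0.le (by norm_num), Real.rpow_neg (by norm_num : (0:ℝ) ≤ 2)]
      field_simp
    have e5 : L ^ (-(|Cs| + 1)) ≤ L ^ (-Cs) * L⁻¹ := by
      rw [← Real.rpow_neg_one, ← Real.rpow_add hL0]
      refine Real.rpow_le_rpow_of_exponent_le hL1 ?_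
      have := le_abs_self Cs
      linarith
    have e6 : 0 < L ^ (-Cs) := by positivity
    calc L' ^ (-(|Cs| + 1)) * A ≤ (2 ^ (|Cs| + 1) * (L ^ (-Cs) * L⁻¹)) * A := by
          rw [e4] at e3
          refine mul_le_mul_of_nonneg_right (e3.trans ?_) hA.le
          exact mul_le_mul_of_nonneg_left e5 h2D.le
      _ = L ^ (-Cs) * ((A * 2 ^ (|Cs| + 1)) / L) := by
          rw [div_eq_mul_inv]; ring
      _ ≤ L ^ (-Cs) * 1 := by
          refine mul_le_mul_of_nonneg_left ?_ e6.le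
          rw [div_le_one hL0]
          linarith
      _ = _ := mul_one _

variable {m n k : ℕ} {π : Euc k →L[ℝ] Euc m} {ρ : Euc k →L[ℝ] Euc n} {x : Euc k}
  {w : Euc m → Euc n} {Xc X : Euc m} {t : ℝ} {U K : Set (Euc k)} {Dd : VarifoldData m k}
  {C κ e : ℝ} {q : Euc m →L[ℝ] Euc n} {H : Euc m →L[ℝ] Euc m} {H' : Euc n →L[ℝ] Euc n}
  {w' u : Euc m → Euc n} {T : Ft_209.Dif k}

/-- points of the surface -/
theorem norm_pt_sub (hf : Frame π ρ) (hw : Gr 1 w) (X' X : Euc m) :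
    ‖pt π ρ x w X' - pt π ρ x w X‖ ≤ 65 / 64 * ‖X' - X‖ := by
  have e1 : pt π ρ x w X' - pt π ρ x w X =
      ContinuousLinearMap.adjoint π (X' - X) + ContinuousLinearMap.adjoint ρ (w X' - w X) := by
    unfold Foot_842.pt
    simp only [map_sub]
    abel
  have h1 := Gi_456.norm_sq_frame hf (X' - X) (w X' - w X)
  have h2 := hw.lip X' X
  rw [e1]
  refine abs_le_of_sq_le_sq' ?_ (by positivity) |>.2
  rw [h1]
  nlinarith [norm_nonneg (X' - X), norm_nonneg (w X' - w X)]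

/-- `Lk` of 281 -/
theorem Am.lk (h : Am π ρ x w Xc X t U K Dd) (ht : 0 < t) {b : ℝ} (hb : 0 ≤ b) (hb1 : b ≤ 1)
    (hh : ∀ᵐ p ∂(VD Dd), p.1 ∈ K → ‖foot π ρ x 1 w p.1 - X‖ ≤ 6 * t →
      ‖p.1 - pt π ρ x w (foot π ρ x 1 w p.1)‖ ^ 2 ≤ b * t ^ 2) :
    Lk π ρ x w X t (t * √b) (VD Dd) K where
  conc := VD_conc h.int
  cpt := h.cpt
  sub := h.kt
  fin := VD_fin h.int h.cpt h.ku
  hh := by positivity
  ht := by
    have h1 : √b ≤ 1 := by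
      rw [← Real.sqrt_one]
      exact Real.sqrt_le_sqrt hb1
    nlinarith
  k1 := by
    filter_upwards [hh] with p hp hK hX
    have h1 := hp hK (by linarith)
    refine (sq_le_sq₀ (norm_nonneg _) (by positivity)).1 ?_
    rw [mul_pow, Real.sq_sqrt hb]
    linarith
  k2 := by
    filter_upwards [h.gap] with p hp h1 h2 h3
    refine hp (h.ball ?_) h1 (by linarith)
    rw [mem_closedBall_iff_norm]
    have e1 : p.1 - pt π ρ x w X = (p.1 - pt π ρ x w (foot π ρ x 1 w p.1)) +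
        (pt π ρ x w (foot π ρ x 1 w p.1) - pt π ρ x w X) := by abel
    rw [e1]
    refine (norm_add_le _ _).trans ?_
    have := norm_pt_sub (x := x) h.fr h.gr (foot π ρ x 1 w p.1) X
    linarith

/-- the physical integrals -/
theorem Am.gp_le (h : Am π ρ x w Xc X t U K Dd) (ht : 0 < t) {h0 : ℝ}
    (hL : Lk π ρ x w X t h0 (VD Dd) K) {a b : ℝ} (ha : 0 ≤ a) (hb : 0 ≤ b) :
    ∫ p in {p : Euc k × L k | p.1 ∈ K ∧ ‖foot π ρ x 1 w p.1 - X‖ < 5 * t},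
        Gp π ρ x w a b p ∂(VD Dd) ≤
      a * ∫ p in {z | ‖(ch π ρ x 1 w Xc).x z - Lo (fderiv ℝ w Xc) (X - Xc)‖ ≤ 16 * t} ×ˢ univ,
        (ch π ρ x 1 w Xc).tau p.1 p.2 ∂(VK (VD Dd) K) +
      b * ∫ p in {z | ‖(ch π ρ x 1 w Xc).x z - Lo (fderiv ℝ w Xc) (X - Xc)‖ ≤ 16 * t} ×ˢ univ,
        2 * (ch π ρ x 1 w Xc).f p.1 ∂(VK (VD Dd) K) := by
  set S2 : Set (Euc k × L k) :=
    {z | ‖(ch π ρ x 1 w Xc).x z - Lo (fderiv ℝ w Xc) (X - Xc)‖ ≤ 16 * t} ×ˢ univ with hS2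
  have hKm : MeasurableSet (K ×ˢ (univ : Set (L k))) := h.cpt.isClosed.measurableSet.prod .univ
  have hres : (VK (VD Dd) K).restrict S2 = (VD Dd).restrict (S2 ∩ K ×ˢ univ) := by
    unfold GL_394.VK
    exact Measure.restrict_restrict' hKm
  have hS2K : MeasurableSet (S2 ∩ (K ×ˢ (univ : Set (L k)))) := by
    have h1 : IsClosed (K ∩ (ch π ρ x 1 w Xc).x ⁻¹'
        (closedBall (Lo (fderiv ℝ w Xc) (X - Xc)) (16 * t))) :=
      h.ok.cx.preimage_isClosed_of_isClosed h.cpt.isClosed isClosed_closedBall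
    have h2 : S2 ∩ (K ×ˢ (univ : Set (L k))) = (K ∩ (ch π ρ x 1 w Xc).x ⁻¹'
        (closedBall (Lo (fderiv ℝ w Xc) (X - Xc)) (16 * t))) ×ˢ univ := by
      ext p
      simp only [hS2, mem_inter_iff, mem_prod, mem_ofPred_eq, mem_univ, and_true, mem_preimage,
        mem_closedBall_iff_norm]
      exact and_comm
    rw [h2]
    exact h1.measurableSet.prod .univ
  have hsub : S2 ∩ K ×ˢ univ ⊆ K ×ˢ (univ : Set (L k)) := inter_subset_right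
  have i1 : IntegrableOn (fun p : Euc k × L k => (ch π ρ x 1 w Xc).tau p.1 p.2)
      (S2 ∩ K ×ˢ univ) (VD Dd) := h.int_tau.mono_set hsub
  have i2 : IntegrableOn (fun p : Euc k × L k => 2 * (ch π ρ x 1 w Xc).f p.1)
      (S2 ∩ K ×ˢ univ) (VD Dd) := h.int_f.mono_set hsub
  rw [hres, ← integral_const_mul, ← integral_const_mul, ← integral_add (i1.const_mul _)
    (i2.const_mul _)]
  have hS1 : {p : Euc k × L k | p.1 ∈ K ∧ ‖foot π ρ x 1 w p.1 - X‖ < 5 * t} ⊆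
      S2 ∩ K ×ˢ univ := by
    rintro p ⟨h1, h2⟩
    refine ⟨⟨?_, mem_univ _⟩, h1, mem_univ _⟩
    change ‖Lo (fderiv ℝ w Xc) (foot π ρ x 1 w p.1 - Xc) - Lo (fderiv ℝ w Xc) (X - Xc)‖ ≤ 16 * t
    rw [← map_sub, sub_sub_sub_cancel_right]
    refine (Gi_456.norm_Lo_le (h.gr.d1 Xc) _).trans ?_
    linarith
  have iG := (Fm_281.integrable_Gp h.gr h.fr hL a b).mono_set hsub
  calc ∫ p in {p : Euc k × L k | p.1 ∈ K ∧ ‖foot π ρ x 1 w p.1 - X‖ < 5 * t},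
        Gp π ρ x w a b p ∂(VD Dd) ≤ ∫ p in S2 ∩ K ×ˢ univ, Gp π ρ x w a b p ∂(VD Dd) := by
        refine setIntegral_mono_set iG ?_ (Eventually.of_forall hS1)
        filter_upwards [ae_restrict_of_ae (VD_conc h.int)] with p hp
        have h3 : 0 ≤ Nt π ρ w (foot π ρ x 1 w p.1) p.2 :=
          Fm_281.tau0_nonneg' (Fm_281.split_of_frame' h.fr) _ hp
        exact add_nonneg (mul_nonneg ha h3) (mul_nonneg hb (sq_nonneg _))
    _ = ∫ p in S2 ∩ K ×ˢ univ, (a * (ch π ρ x 1 w Xc).tau p.1 p.2 +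
          b * (2 * (ch π ρ x 1 w Xc).f p.1)) ∂(VD Dd) := by
        refine setIntegral_congr_fun hS2K fun p hp => ?_
        simp only [Fm_281.Gp]
        rw [two_f h.fr h.gr Xc (h.kt hp.2.1)]
        rfl
    _ ≤ _ := le_rfl

/-- the step from 281's test function to the kernel (literal) -/
def B2P (m n k Q : ℕ) : Prop := ∃ C2 : ℝ, 0 ≤ C2 ∧
  ∀ (π : Euc k →L[ℝ] Euc m) (ρ : Euc k →L[ℝ] Euc n) (x : Euc k) (w : Euc m → Euc n)
    (Xc X : Euc m) (t : ℝ) (U K : Set (Euc k)) (Dd : VarifoldData m k) (C κ e : ℝ)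
    (q : Euc m →L[ℝ] Euc n) (H : Euc m →L[ℝ] Euc m) (H' : Euc n →L[ℝ] Euc n)
    (w' u : Euc m → Euc n) (T : Ft_209.Dif k) (E : Measure (Euc m)),
    Am π ρ x w Xc X t U K Dd → Bp π ρ x w X C κ t q H H' w' u T e → IsFiniteMeasure E →
    (∀ F : Euc m → ℝ, Measurable F → (∃ b : ℝ, ∀ v, |F v| ≤ b) →
      (∀ v, v ∉ closedBall (Lo (fderiv ℝ w Xc) (X - Xc)) (6 * t) → F v = 0) →
      |∫ p, F ((ch π ρ x 1 w Xc).x p.1) * (1 - (ch π ρ x 1 w Xc).tau p.1 p.2 / 2)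
        ∂(VK (VD Dd) K) - Q * ∫ v, F v * (ch π ρ x 1 w Xc).j v| ≤ ∫ v, |F v| ∂E) →
    ∫ p, F35k_433.bv w Xc t (Lo (fderiv ℝ w Xc) (X - Xc)) ((ch π ρ x 1 w Xc).x p.1) *
        (1 - (ch π ρ x 1 w Xc).tau p.1 p.2 / 2) ∂(VK (VD Dd) K) -
      Q * ∫ v, F35k_433.bv w Xc t (Lo (fderiv ℝ w Xc) (X - Xc)) v * (ch π ρ x 1 w Xc).j v ≤
    (∫ p in K ×ˢ univ, Bf t q H w u X (foot π ρ x 1 w p.1) *
        (1 - Nt π ρ w (foot π ρ x 1 w p.1) p.2 / 2) ∂(VD Dd) -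
      Q * ∫ X', Bf t q H w u X X' * dns (fderiv ℝ w X')) +
    C2 * (C * κ * t) ^ 2 * E.real (closedBall (Lo (fderiv ℝ w Xc) (X - Xc)) (2 * t))

/-- final arithmetic -/
theorem real_fin {L1 L2 a b y s κ t D Kd CL Cz C2 E A A' LHS LB : ℝ} (hκ : 0 ≤ κ) (ht : 0 ≤ t)
    (hD : 0 ≤ D) (hK : 1 ≤ Kd) (hs : s = √D) (hy : y = √(Kd * D)) (hCL : 0 ≤ CL)
    (hL1 : 0 ≤ L1) (hL2 : 0 ≤ L2) (hCz : 1 ≤ Cz) (hC2 : 0 ≤ C2) (hE : 0 ≤ E)
    (ha : a = (κ * t) ^ 2 + κ * (t * y) + y ^ 2) (hb : b = κ ^ 2)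
    (h1 : LHS ≤ LB + C2 * (Cz * κ * t) ^ 2 * E) (h2 : LB ≤ CL * Cz ^ 2 * (a * L1 + b * L2) + A)
    (h3 : A ≤ A') :
    LHS ≤ (CL * Cz ^ 2 * Kd + C2 * Cz ^ 2 + 1) * (κ ^ 2 * L2) +
      (CL * Cz ^ 2 * Kd + C2 * Cz ^ 2 + 1) * (((κ * t) ^ 2 + κ * t * s + D) * L1) +
      (CL * Cz ^ 2 * Kd + C2 * Cz ^ 2 + 1) * (κ * t) ^ 2 * E + A' := by
  have hs0 : 0 ≤ s := by rw [hs]; exact Real.sqrt_nonneg _
  have hK0 : 0 ≤ Kd := by linarith
  have hy0 : 0 ≤ y := by rw [hy]; exact Real.sqrt_nonneg _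
  have hyy : y ^ 2 = Kd * D := by rw [hy]; exact Real.sq_sqrt (by positivity)
  have hys : y ≤ Kd * s := by
    rw [hy, hs]
    refine Real.sqrt_le_iff.2 ⟨by positivity, ?_⟩
    rw [mul_pow, Real.sq_sqrt hD]
    have : Kd ≤ Kd ^ 2 := by nlinarith
    exact mul_le_mul_of_nonneg_right this hD
  have hG : 0 ≤ CL * Cz ^ 2 := by positivity
  have hκt : 0 ≤ κ * t := by positivity
  have e1 : a ≤ Kd * ((κ * t) ^ 2 + κ * t * s + D) := by
    rw [ha, hyy]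
    have f1 : κ * (t * y) ≤ κ * t * (Kd * s) := by
      rw [← mul_assoc]
      exact mul_le_mul_of_nonneg_left hys hκt
    nlinarith [sq_nonneg (κ * t)]
  have e2 : b ≤ Kd * κ ^ 2 := by rw [hb]; nlinarith [sq_nonneg κ]
  have f1 : CL * Cz ^ 2 * (a * L1) ≤ CL * Cz ^ 2 * Kd * (((κ * t) ^ 2 + κ * t * s + D) * L1) := by
    calc CL * Cz ^ 2 * (a * L1) ≤ CL * Cz ^ 2 *
          ((Kd * ((κ * t) ^ 2 + κ * t * s + D)) * L1) :=
          mul_le_mul_of_nonneg_left (mul_le_mul_of_nonneg_right e1 hL1) hG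
      _ = _ := by ring
  have f2 : CL * Cz ^ 2 * (b * L2) ≤ CL * Cz ^ 2 * Kd * (κ ^ 2 * L2) := by
    calc CL * Cz ^ 2 * (b * L2) ≤ CL * Cz ^ 2 * ((Kd * κ ^ 2) * L2) :=
          mul_le_mul_of_nonneg_left (mul_le_mul_of_nonneg_right e2 hL2) hG
      _ = _ := by ring
  have f3 : C2 * (Cz * κ * t) ^ 2 * E = C2 * Cz ^ 2 * ((κ * t) ^ 2 * E) := by ring
  have g1 : 0 ≤ ((κ * t) ^ 2 + κ * t * s + D) * L1 := by positivity
  have g2 : 0 ≤ κ ^ 2 * L2 := by positivity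
  have g3 : 0 ≤ (κ * t) ^ 2 * E := by positivity
  have g4 : 0 ≤ C2 * Cz ^ 2 := by positivity
  have g5 : 0 ≤ CL * Cz ^ 2 * Kd := by positivity
  nlinarith [mul_nonneg g4 g1, mul_nonneg g4 g2, mul_nonneg g5 g3]

end Crest.Agent.R234.F37_354
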