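import Crest.Agent.R234.GLK1_128

/-!
# Row 234, node GL-K (helper128), file 2: pointwise estimates of the chart coefficients

Notation of file 1.  `DX = L A0ᵀ` (derivative of the foot coordinate), `NN` = projection onto the
normal space at the foot, `tau0 = tr (NN P)`.
(k1) `abs_k1`, (k2) `norm_k2`, (k3) `abs_k3`, (k4) `abs_k4`, (k5) `norm_k5`, (k7) `tau0_nonneg`,
`tau0_le`, (c3) `norm_NN_AA`, `norm_DX`.
-/

set_option autoImplicit false

open Function Set Crest.Agent.R234.Fm_209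
open scoped InnerProductSpace

noncomputable section

namespace Crest.Agent.R234.GLK_128

variable {E F V : Type*} [NormedAddCommGroup E] [InnerProductSpace ℝ E] [FiniteDimensional ℝ E]
  [NormedAddCommGroup F] [InnerProductSpace ℝ F] [FiniteDimensional ℝ F]
  [NormedAddCommGroup V] [InnerProductSpace ℝ V] [FiniteDimensional ℝ V]

local notation "adj" => ContinuousLinearMap.adjoint

variable {i : F →L[ℝ] E} {j : V →L[ℝ] E} {q : F →L[ℝ] V} {Y gi Li : F →L[ℝ] F} {hi : V →L[ℝ] V}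

/-- derivative of the foot coordinate -/
def DX (i : F →L[ℝ] E) (j : V →L[ℝ] E) (q : F →L[ℝ] V) (Li : F →L[ℝ] F) : E →L[ℝ] F :=
  Li ∘L adj (A0 i j q)

/-- derivative of the fibre coordinate -/
def DY (i : F →L[ℝ] E) (j : V →L[ℝ] E) (q : F →L[ℝ] V) (Y Li : F →L[ℝ] F) (hi : V →L[ℝ] V) :
    E →L[ℝ] V := hi ∘L (adj (BB i j q) - q ∘L Y ∘L DX i j q Li)

/-- projection onto the normal space at the foot -/
def NN (i : F →L[ℝ] E) (j : V →L[ℝ] E) (q : F →L[ℝ] V) (hi : V →L[ℝ] V) : E →L[ℝ] E :=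
  BB i j q ∘L hi ∘L adj (BB i j q)

/-- projection onto the tangent space at the foot -/
def TT (i : F →L[ℝ] E) (j : V →L[ℝ] E) (q : F →L[ℝ] V) (gi : F →L[ℝ] F) : E →L[ℝ] E :=
  A0 i j q ∘L gi ∘L adj (A0 i j q)

theorem DX_AA (h : Fr i j) (H : Inv q Y gi hi Li) :
    DX i j q Li ∘L AA i j q Y = ContinuousLinearMap.id ℝ F := by
  rw [DX, ContinuousLinearMap.comp_assoc, A0_AA h, H.l1]

theorem DX_BB (h : Fr i j) : DX i j q Li ∘L BB i j q = 0 := by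
  rw [DX, ContinuousLinearMap.comp_assoc, A0_BB h, ContinuousLinearMap.comp_zero]

theorem DY_AA (h : Fr i j) (H : Inv q Y gi hi Li) : DY i j q Y Li hi ∘L AA i j q Y = 0 := by
  rw [DY, ContinuousLinearMap.comp_assoc, ContinuousLinearMap.sub_comp, BB_AA h,
    ContinuousLinearMap.comp_assoc, ContinuousLinearMap.comp_assoc, DX_AA h H]
  simp

theorem DY_BB (h : Fr i j) (H : Inv q Y gi hi Li) :
    DY i j q Y Li hi ∘L BB i j q = ContinuousLinearMap.id ℝ V := by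
  rw [DY, ContinuousLinearMap.comp_assoc, ContinuousLinearMap.sub_comp, BB_BB h,
    ContinuousLinearMap.comp_assoc, ContinuousLinearMap.comp_assoc, DX_BB h]
  simp [H.h1]

/-- uniqueness of the dual frame -/
theorem eq_DX (h : Fr i j) (H : Inv q Y gi hi Li) {dx : E →L[ℝ] F}
    (h1 : dx ∘L AA i j q Y = ContinuousLinearMap.id ℝ F) (h2 : dx ∘L BB i j q = 0) :
    dx = DX i j q Li := by
  have hd := H.decomp h
  have e1 : dx = (dx ∘L A0 i j q) ∘L gi ∘L adj (A0 i j q) := by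
    calc dx = dx ∘L (A0 i j q ∘L gi ∘L adj (A0 i j q) + BB i j q ∘L hi ∘L adj (BB i j q)) := by
          rw [hd, ContinuousLinearMap.comp_id]
      _ = (dx ∘L A0 i j q) ∘L gi ∘L adj (A0 i j q) +
            (dx ∘L BB i j q) ∘L hi ∘L adj (BB i j q) := by
          rw [ContinuousLinearMap.comp_add]; rfl
      _ = _ := by rw [h2, ContinuousLinearMap.zero_comp, add_zero]
  have e2 : dx ∘L i = (dx ∘L A0 i j q) ∘L gi := by
    conv_lhs => rw [H.i_eq (i := i) (j := j)]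
    rw [ContinuousLinearMap.comp_sub]
    have : dx ∘L BB i j q ∘L hi ∘L q = (dx ∘L BB i j q) ∘L hi ∘L q := rfl
    rw [this, h2, ContinuousLinearMap.zero_comp, sub_zero]
    rfl
  have e3 : (dx ∘L A0 i j q ∘L gi) ∘L (gg q - Y) = ContinuousLinearMap.id ℝ F := by
    rw [ContinuousLinearMap.comp_sub]
    have a1 : (dx ∘L A0 i j q ∘L gi) ∘L gg q = dx ∘L A0 i j q := by
      have : (dx ∘L A0 i j q ∘L gi) ∘L gg q = (dx ∘L A0 i j q) ∘L (gi ∘L gg q) := rfl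
      rw [this, H.g1, ContinuousLinearMap.comp_id]
    have a2 : (dx ∘L A0 i j q ∘L gi) ∘L Y = dx ∘L i ∘L Y := by
      have : dx ∘L i ∘L Y = (dx ∘L i) ∘L Y := rfl
      rw [this, e2]; rfl
    rw [a1, a2, ← h1, AA_eq, ContinuousLinearMap.comp_sub]
  have e4 : dx ∘L A0 i j q ∘L gi = Li := by
    calc dx ∘L A0 i j q ∘L gi = ((dx ∘L A0 i j q ∘L gi) ∘L (gg q - Y)) ∘L Li := by
          rw [ContinuousLinearMap.comp_assoc, H.l2, ContinuousLinearMap.comp_id]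
      _ = Li := by rw [e3, ContinuousLinearMap.id_comp]
  rw [e1, DX, ← e4]
  rfl

theorem NN_add_TT (h : Fr i j) (H : Inv q Y gi hi Li) :
    NN i j q hi + TT i j q gi = ContinuousLinearMap.id ℝ E := by
  rw [add_comm]; exact H.decomp h

theorem NN_adj (H : Inv q Y gi hi Li) : adj (NN i j q hi) = NN i j q hi := by
  simp [NN, ContinuousLinearMap.adjoint_comp, H.hi_adj, ContinuousLinearMap.comp_assoc]

theorem TT_adj (H : Inv q Y gi hi Li) : adj (TT i j q gi) = TT i j q gi := by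
  simp [TT, ContinuousLinearMap.adjoint_comp, H.gi_adj, ContinuousLinearMap.comp_assoc]

theorem NN_BB (h : Fr i j) (H : Inv q Y gi hi Li) : NN i j q hi ∘L BB i j q = BB i j q := by
  rw [NN, ContinuousLinearMap.comp_assoc, ContinuousLinearMap.comp_assoc, BB_BB h, H.h1,
    ContinuousLinearMap.comp_id]

theorem TT_A0 (h : Fr i j) (H : Inv q Y gi hi Li) : TT i j q gi ∘L A0 i j q = A0 i j q := by
  rw [TT, ContinuousLinearMap.comp_assoc, ContinuousLinearMap.comp_assoc, A0A0 h, H.g1,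
    ContinuousLinearMap.comp_id]

theorem NN_idem (h : Fr i j) (H : Inv q Y gi hi Li) :
    NN i j q hi ∘L NN i j q hi = NN i j q hi := by
  have : NN i j q hi ∘L NN i j q hi = (NN i j q hi ∘L BB i j q) ∘L hi ∘L adj (BB i j q) := rfl
  rw [this, NN_BB h H]; rfl

theorem TT_idem (h : Fr i j) (H : Inv q Y gi hi Li) :
    TT i j q gi ∘L TT i j q gi = TT i j q gi := by
  have : TT i j q gi ∘L TT i j q gi = (TT i j q gi ∘L A0 i j q) ∘L gi ∘L adj (A0 i j q) := rfl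
  rw [this, TT_A0 h H]; rfl

theorem trc_TT (h : Fr i j) (H : Inv q Y gi hi Li) :
    trc E (TT i j q gi) = Module.finrank ℝ F := by
  rw [TT, trc_comp_comm, ContinuousLinearMap.comp_assoc, A0A0 h, H.g1, trc_id]

/-- orthogonal projections of rank `dim F` -/
structure Pj (F : Type*) [NormedAddCommGroup F] [InnerProductSpace ℝ F] [FiniteDimensional ℝ F]
    (P : E →L[ℝ] E) : Prop where
  idem : P ∘L P = P
  sa : adj P = P
  tr : trc E P = Module.finrank ℝ F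

/-- tilt of `P` relative to the tangent space at the foot -/
def tau0 (i : F →L[ℝ] E) (j : V →L[ℝ] E) (q : F →L[ℝ] V) (hi : V →L[ℝ] V) (P : E →L[ℝ] E) : ℝ :=
  trc E (NN i j q hi ∘L P)

variable {P : E →L[ℝ] E}

theorem norm_PN_sq (h : Fr i j) (H : Inv q Y gi hi Li) (hP : Pj F P) :
    ‖P ∘L NN i j q hi‖ ^ 2 ≤ tau0 i j q hi P := by
  refine (norm_sq_le_trc _).trans (le_of_eq ?_)
  rw [ContinuousLinearMap.adjoint_comp, NN_adj H, hP.sa]
  have h1 : (NN i j q hi ∘L P) ∘L P ∘L NN i j q hi = (NN i j q hi ∘L P) ∘L NN i j q hi := by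
    have : (NN i j q hi ∘L P) ∘L P ∘L NN i j q hi =
      (NN i j q hi ∘L (P ∘L P)) ∘L NN i j q hi := rfl
    rw [this, hP.idem]
  rw [h1, trc_comp_comm, ← ContinuousLinearMap.comp_assoc, NN_idem h H]
  rfl

theorem tau0_nonneg (h : Fr i j) (H : Inv q Y gi hi Li) (hP : Pj F P) :
    0 ≤ tau0 i j q hi P := (sq_nonneg _).trans (norm_PN_sq h H hP)

theorem trc_TP (h : Fr i j) (H : Inv q Y gi hi Li) (hP : Pj F P) :
    trc E (TT i j q gi ∘L P) = Module.finrank ℝ F - tau0 i j q hi P := by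
  have h1 : trc E ((NN i j q hi + TT i j q gi) ∘L P) = Module.finrank ℝ F := by
    rw [NN_add_TT h H, ContinuousLinearMap.id_comp, hP.tr]
  rw [ContinuousLinearMap.add_comp, map_add] at h1
  rw [tau0]; linarith

theorem norm_QT_sq (h : Fr i j) (H : Inv q Y gi hi Li) (hP : Pj F P) :
    ‖(ContinuousLinearMap.id ℝ E - P) ∘L TT i j q gi‖ ^ 2 ≤ tau0 i j q hi P := by
  refine (norm_sq_le_trc _).trans (le_of_eq ?_)
  set Qp := ContinuousLinearMap.id ℝ E - P with hQ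
  have hQs : adj Qp = Qp := by
    rw [hQ, map_sub, hP.sa]; simp
  have hQi : Qp ∘L Qp = Qp := by
    rw [hQ]; ext1 v
    have := congrArg (fun T : E →L[ℝ] E => T v) hP.idem
    simp only [ContinuousLinearMap.comp_apply] at this
    simp [this]
  rw [ContinuousLinearMap.adjoint_comp, TT_adj H, hQs]
  have h1 : (TT i j q gi ∘L Qp) ∘L Qp ∘L TT i j q gi = (TT i j q gi ∘L Qp) ∘L TT i j q gi := by
    have : (TT i j q gi ∘L Qp) ∘L Qp ∘L TT i j q gi =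
      (TT i j q gi ∘L (Qp ∘L Qp)) ∘L TT i j q gi := rfl
    rw [this, hQi]
  rw [h1, trc_comp_comm, ← ContinuousLinearMap.comp_assoc, TT_idem h H, hQ,
    ContinuousLinearMap.comp_sub, map_sub, ContinuousLinearMap.comp_id, trc_TT h H,
    trc_TP h H hP]
  ring

theorem trc_TP_nonneg (h : Fr i j) (H : Inv q Y gi hi Li) (hP : Pj F P) :
    0 ≤ trc E (TT i j q gi ∘L P) := by
  have h0 : 0 ≤ trc E (adj (P ∘L TT i j q gi) ∘L (P ∘L TT i j q gi)) :=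
    (sq_nonneg _).trans (norm_sq_le_trc _)
  rw [ContinuousLinearMap.adjoint_comp, TT_adj H, hP.sa] at h0
  have h1 : (TT i j q gi ∘L P) ∘L P ∘L TT i j q gi = (TT i j q gi ∘L P) ∘L TT i j q gi := by
    have : (TT i j q gi ∘L P) ∘L P ∘L TT i j q gi =
      (TT i j q gi ∘L (P ∘L P)) ∘L TT i j q gi := rfl
    rw [this, hP.idem]
  rw [h1, trc_comp_comm, ← ContinuousLinearMap.comp_assoc, TT_idem h H] at h0
  exact h0

/-- (k7) -/
theorem tau0_le (h : Fr i j) (H : Inv q Y gi hi Li) (hP : Pj F P) :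
    tau0 i j q hi P ≤ Module.finrank ℝ F := by
  have h1 := trc_TP h H hP
  have h2 := trc_TP_nonneg h H hP
  linarith

theorem tau0_le_one_norm (h : Fr i j) (H : Inv q Y gi hi Li) (hP : Pj F P) :
    ‖P ∘L NN i j q hi‖ ≤ Real.sqrt (tau0 i j q hi P) :=
  Real.le_sqrt_of_sq_le (norm_PN_sq h H hP)

theorem norm_QT (h : Fr i j) (H : Inv q Y gi hi Li) (hP : Pj F P) :
    ‖(ContinuousLinearMap.id ℝ E - P) ∘L TT i j q gi‖ ≤ Real.sqrt (tau0 i j q hi P) :=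
  Real.le_sqrt_of_sq_le (norm_QT_sq h H hP)

/-! ### the blocks of `P` -/

theorem norm_A0 (h : Fr i j) (hq : ‖q‖ ≤ 1 / 4) : ‖A0 i j q‖ ≤ 5 / 4 := by
  calc ‖A0 i j q‖ ≤ ‖i‖ + ‖j ∘L q‖ := norm_add_le _ _
    _ ≤ 1 + 1 * (1 / 4) := add_le_add h.norm_i_le
        ((ContinuousLinearMap.opNorm_comp_le _ _).trans
          (mul_le_mul h.norm_j_le hq (norm_nonneg _) zero_le_one))
    _ = 5 / 4 := by norm_num

theorem norm_adj' (T : F →L[ℝ] E) : ‖adj T‖ = ‖T‖ := LinearIsometryEquiv.norm_map _ _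

theorem norm_BB (h : Fr i j) (hq : ‖q‖ ≤ 1 / 4) : ‖BB i j q‖ ≤ 5 / 4 := by
  have hq' : ‖adj q‖ ≤ 1 / 4 := by
    rw [show ‖adj q‖ = ‖q‖ from LinearIsometryEquiv.norm_map _ _]; exact hq
  calc ‖BB i j q‖ ≤ ‖j‖ + ‖i ∘L adj q‖ := norm_sub_le _ _
    _ ≤ 1 + 1 * (1 / 4) := add_le_add h.norm_j_le
        ((ContinuousLinearMap.opNorm_comp_le _ _).trans
          (mul_le_mul h.norm_i_le hq' (norm_nonneg _) zero_le_one))
    _ = 5 / 4 := by norm_num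

theorem Inv.norm_Li' (H : Inv q Y gi hi Li) (hY : ‖Y‖ ≤ 1 / 4) : ‖Li‖ ≤ 4 / 3 :=
  ContinuousLinearMap.opNorm_le_bound _ (by norm_num) fun v => by
    have h1 := le_gg q (Li v)
    have h2 : gg q (Li v) - Y (Li v) = v := H.l2a v
    have h3 : ‖gg q (Li v)‖ ≤ ‖v‖ + ‖Y (Li v)‖ := by
      have : gg q (Li v) = v + Y (Li v) := sub_eq_iff_eq_add.1 h2
      rw [this]; exact norm_add_le _ _
    have h4 : ‖Y (Li v)‖ ≤ 1 / 4 * ‖Li v‖ := (Y.le_opNorm _).trans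
      (mul_le_mul_of_nonneg_right hY (norm_nonneg _))
    linarith

theorem norm_DX (h : Fr i j) (H : Inv q Y gi hi Li) (hq : ‖q‖ ≤ 1 / 4) (hY : ‖Y‖ ≤ 1 / 4) :
    ‖DX i j q Li‖ ≤ 5 / 3 := by
  refine (ContinuousLinearMap.opNorm_comp_le _ _).trans ?_
  rw [norm_adj']
  calc ‖Li‖ * ‖A0 i j q‖ ≤ 4 / 3 * (5 / 4) :=
        mul_le_mul (H.norm_Li' hY) (norm_A0 h hq) (norm_nonneg _) (by norm_num)
    _ = 5 / 3 := by norm_num

/-- (c3) -/
theorem NN_AA (h : Fr i j) (H : Inv q Y gi hi Li) :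
    NN i j q hi ∘L AA i j q Y = BB i j q ∘L hi ∘L q ∘L Y := by
  rw [NN, ContinuousLinearMap.comp_assoc, ContinuousLinearMap.comp_assoc, BB_AA h]

theorem norm_NN_AA (h : Fr i j) (H : Inv q Y gi hi Li) (hq : ‖q‖ ≤ 1 / 4) :
    ‖NN i j q hi ∘L AA i j q Y‖ ≤ 2 * ‖q‖ * ‖Y‖ := by
  rw [NN_AA h H]
  calc ‖BB i j q ∘L hi ∘L q ∘L Y‖ ≤ ‖BB i j q‖ * (‖hi‖ * (‖q‖ * ‖Y‖)) := by
        refine (ContinuousLinearMap.opNorm_comp_le _ _).trans
          (mul_le_mul_of_nonneg_left ?_ (norm_nonneg _))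
        refine (ContinuousLinearMap.opNorm_comp_le _ _).trans
          (mul_le_mul_of_nonneg_left ?_ (norm_nonneg _))
        exact ContinuousLinearMap.opNorm_comp_le _ _
    _ ≤ 5 / 4 * (1 * (‖q‖ * ‖Y‖)) := by
        have := norm_BB h hq
        have := H.norm_hi
        gcongr
    _ ≤ 2 * ‖q‖ * ‖Y‖ := by
        have : 0 ≤ ‖q‖ * ‖Y‖ := by positivity
        linarith

/-- off-diagonal block -/
def Rb (i : F →L[ℝ] E) (j : V →L[ℝ] E) (q : F →L[ℝ] V) (P : E →L[ℝ] E) : V →L[ℝ] F :=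
  adj (A0 i j q) ∘L P ∘L BB i j q

/-- defect of the tangential block -/
def Th (i : F →L[ℝ] E) (j : V →L[ℝ] E) (q : F →L[ℝ] V) (P : E →L[ℝ] E) : F →L[ℝ] F :=
  adj (A0 i j q) ∘L (ContinuousLinearMap.id ℝ E - P) ∘L A0 i j q

/-- normal block -/
def Wb (i : F →L[ℝ] E) (j : V →L[ℝ] E) (q : F →L[ℝ] V) (P : E →L[ℝ] E) : V →L[ℝ] V :=
  adj (BB i j q) ∘L P ∘L BB i j q

theorem norm_Rb (h : Fr i j) (H : Inv q Y gi hi Li) (hP : Pj F P) (hq : ‖q‖ ≤ 1 / 4) :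
    ‖Rb i j q P‖ ≤ 2 * Real.sqrt (tau0 i j q hi P) := by
  have e : Rb i j q P = adj (A0 i j q) ∘L (P ∘L NN i j q hi) ∘L BB i j q := by
    have : (P ∘L NN i j q hi) ∘L BB i j q = P ∘L (NN i j q hi ∘L BB i j q) := rfl
    rw [Rb, this, NN_BB h H]
  rw [e]
  calc _ ≤ ‖adj (A0 i j q)‖ * (‖P ∘L NN i j q hi‖ * ‖BB i j q‖) := by
        refine (ContinuousLinearMap.opNorm_comp_le _ _).trans
          (mul_le_mul_of_nonneg_left ?_ (norm_nonneg _))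
        exact ContinuousLinearMap.opNorm_comp_le _ _
    _ ≤ 5 / 4 * (Real.sqrt (tau0 i j q hi P) * (5 / 4)) := by
        rw [norm_adj']
        have := norm_A0 h hq
        have := norm_BB h hq
        have := tau0_le_one_norm h H hP
        gcongr
    _ ≤ 2 * Real.sqrt (tau0 i j q hi P) := by
        have := Real.sqrt_nonneg (tau0 i j q hi P)
        linarith

theorem norm_Wb (h : Fr i j) (H : Inv q Y gi hi Li) (hP : Pj F P) (hq : ‖q‖ ≤ 1 / 4) :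
    ‖Wb i j q P‖ ≤ 2 * tau0 i j q hi P := by
  have e : Wb i j q P =
      adj ((P ∘L NN i j q hi) ∘L BB i j q) ∘L ((P ∘L NN i j q hi) ∘L BB i j q) := by
    have h1 : (P ∘L NN i j q hi) ∘L BB i j q = P ∘L BB i j q := by
      have : (P ∘L NN i j q hi) ∘L BB i j q = P ∘L (NN i j q hi ∘L BB i j q) := rfl
      rw [this, NN_BB h H]
    rw [h1, ContinuousLinearMap.adjoint_comp, hP.sa, Wb]
    have : (adj (BB i j q) ∘L P) ∘L P ∘L BB i j q = adj (BB i j q) ∘L (P ∘L P) ∘L BB i j q := rfl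
    rw [this, hP.idem]
  have h2 : ‖(P ∘L NN i j q hi) ∘L BB i j q‖ ≤ Real.sqrt (tau0 i j q hi P) * (5 / 4) := by
    refine (ContinuousLinearMap.opNorm_comp_le _ _).trans ?_
    have := norm_BB h hq
    have := tau0_le_one_norm h H hP
    gcongr
  rw [e]
  refine (ContinuousLinearMap.opNorm_comp_le _ _).trans ?_
  rw [show ‖adj ((P ∘L NN i j q hi) ∘L BB i j q)‖ = ‖(P ∘L NN i j q hi) ∘L BB i j q‖ from
    LinearIsometryEquiv.norm_map _ _]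
  have h3 := Real.sq_sqrt (tau0_nonneg h H hP)
  have h4 := Real.sqrt_nonneg (tau0 i j q hi P)
  nlinarith [norm_nonneg ((P ∘L NN i j q hi) ∘L BB i j q)]

theorem norm_Th (h : Fr i j) (H : Inv q Y gi hi Li) (hP : Pj F P) (hq : ‖q‖ ≤ 1 / 4) :
    ‖Th i j q P‖ ≤ 2 * tau0 i j q hi P := by
  set Qp := ContinuousLinearMap.id ℝ E - P with hQ
  have hQs : adj Qp = Qp := by
    rw [hQ, map_sub, hP.sa]; simp
  have hQi : Qp ∘L Qp = Qp := by
    rw [hQ]; ext1 v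
    have := congrArg (fun T : E →L[ℝ] E => T v) hP.idem
    simp only [ContinuousLinearMap.comp_apply] at this
    simp [this]
  have e : Th i j q P =
      adj ((Qp ∘L TT i j q gi) ∘L A0 i j q) ∘L ((Qp ∘L TT i j q gi) ∘L A0 i j q) := by
    have h1 : (Qp ∘L TT i j q gi) ∘L A0 i j q = Qp ∘L A0 i j q := by
      have : (Qp ∘L TT i j q gi) ∘L A0 i j q = Qp ∘L (TT i j q gi ∘L A0 i j q) := rfl
      rw [this, TT_A0 h H]
    rw [h1, ContinuousLinearMap.adjoint_comp, hQs, Th]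
    have : (adj (A0 i j q) ∘L Qp) ∘L Qp ∘L A0 i j q = adj (A0 i j q) ∘L (Qp ∘L Qp) ∘L A0 i j q := rfl
    rw [this, hQi]
  have h2 : ‖(Qp ∘L TT i j q gi) ∘L A0 i j q‖ ≤ Real.sqrt (tau0 i j q hi P) * (5 / 4) := by
    refine (ContinuousLinearMap.opNorm_comp_le _ _).trans ?_
    have := norm_A0 h hq
    have := norm_QT h H hP
    gcongr
  rw [e]
  refine (ContinuousLinearMap.opNorm_comp_le _ _).trans ?_
  rw [show ‖adj ((Qp ∘L TT i j q gi) ∘L A0 i j q)‖ = ‖(Qp ∘L TT i j q gi) ∘L A0 i j q‖ from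
    LinearIsometryEquiv.norm_map _ _]
  have h3 := Real.sq_sqrt (tau0_nonneg h H hP)
  have h4 := Real.sqrt_nonneg (tau0 i j q hi P)
  nlinarith [norm_nonneg ((Qp ∘L TT i j q gi) ∘L A0 i j q)]

/-- `dx P A0 = 1 + L Y - L Θ` -/
theorem al_eq (h : Fr i j) (H : Inv q Y gi hi Li) :
    DX i j q Li ∘L P ∘L A0 i j q =
      ContinuousLinearMap.id ℝ F + Li ∘L Y - Li ∘L Th i j q P := by
  have h1 : Th i j q P = gg q - adj (A0 i j q) ∘L P ∘L A0 i j q := by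
    rw [Th, ContinuousLinearMap.sub_comp, ContinuousLinearMap.comp_sub,
      ContinuousLinearMap.id_comp, A0A0 h]
  have h2 : Li ∘L gg q = ContinuousLinearMap.id ℝ F + Li ∘L Y := by
    have := H.l1
    rw [ContinuousLinearMap.comp_sub] at this
    rw [← this]; abel
  rw [h1, ContinuousLinearMap.comp_sub, h2, DX]
  have : (Li ∘L adj (A0 i j q)) ∘L P ∘L A0 i j q = Li ∘L (adj (A0 i j q) ∘L P ∘L A0 i j q) := rfl
  rw [this]
  abel

/-- `dx P B = L R` -/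
theorem be_eq : DX i j q Li ∘L P ∘L BB i j q = Li ∘L Rb i j q P := rfl

theorem Rb_adj (hP : Pj F P) : adj (Rb i j q P) = adj (BB i j q) ∘L P ∘L A0 i j q := by
  rw [Rb, ContinuousLinearMap.adjoint_comp, ContinuousLinearMap.adjoint_comp, hP.sa]
  simp [ContinuousLinearMap.comp_assoc]

/-- `dx P i = (dx P A0) g⁻¹ - L R h⁻¹ q` -/
theorem DXPi (H : Inv q Y gi hi Li) : DX i j q Li ∘L P ∘L i =
    (DX i j q Li ∘L P ∘L A0 i j q) ∘L gi - Li ∘L Rb i j q P ∘L hi ∘L q := by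
  have e : (DX i j q Li ∘L P) ∘L i =
      (DX i j q Li ∘L P) ∘L (A0 i j q ∘L gi - BB i j q ∘L hi ∘L q) :=
    congrArg (fun T => (DX i j q Li ∘L P) ∘L T) (H.i_eq (i := i) (j := j))
  rw [ContinuousLinearMap.comp_sub] at e
  exact e

theorem DXPj (H : Inv q Y gi hi Li) : DX i j q Li ∘L P ∘L j =
    Li ∘L Rb i j q P ∘L hi + (DX i j q Li ∘L P ∘L A0 i j q) ∘L gi ∘L adj q := by
  have e : (DX i j q Li ∘L P) ∘L j =
      (DX i j q Li ∘L P) ∘L (BB i j q ∘L hi + A0 i j q ∘L gi ∘L adj q) :=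
    congrArg (fun T => (DX i j q Li ∘L P) ∘L T) (H.j_eq (i := i) (j := j))
  rw [ContinuousLinearMap.comp_add] at e
  exact e

/-- `dy P A0 = h⁻¹ (Rᵀ - q Y (dx P A0))` -/
theorem ga_eq (hP : Pj F P) : DY i j q Y Li hi ∘L P ∘L A0 i j q =
    hi ∘L (adj (Rb i j q P) - q ∘L Y ∘L (DX i j q Li ∘L P ∘L A0 i j q)) := by
  rw [Rb_adj hP, DY]
  rfl

/-- `dy P B = h⁻¹ (W - q Y L R)` -/
theorem de_eq : DY i j q Y Li hi ∘L P ∘L BB i j q =
    hi ∘L (Wb i j q P - q ∘L Y ∘L Li ∘L Rb i j q P) := rfl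

theorem DYPi (H : Inv q Y gi hi Li) : DY i j q Y Li hi ∘L P ∘L i =
    (DY i j q Y Li hi ∘L P ∘L A0 i j q) ∘L gi -
      (DY i j q Y Li hi ∘L P ∘L BB i j q) ∘L hi ∘L q := by
  have e : (DY i j q Y Li hi ∘L P) ∘L i =
      (DY i j q Y Li hi ∘L P) ∘L (A0 i j q ∘L gi - BB i j q ∘L hi ∘L q) :=
    congrArg (fun T => (DY i j q Y Li hi ∘L P) ∘L T) (H.i_eq (i := i) (j := j))
  rw [ContinuousLinearMap.comp_sub] at e
  exact e

/-- norm of a composition of operators with bounds -/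
theorem ncomp {E₁ E₂ E₃ : Type*} [NormedAddCommGroup E₁] [NormedSpace ℝ E₁]
    [NormedAddCommGroup E₂] [NormedSpace ℝ E₂] [NormedAddCommGroup E₃] [NormedSpace ℝ E₃]
    {A : E₂ →L[ℝ] E₃} {B : E₁ →L[ℝ] E₂} {a b : ℝ} (hA : ‖A‖ ≤ a) (hB : ‖B‖ ≤ b) :
    ‖A ∘L B‖ ≤ a * b :=
  (ContinuousLinearMap.opNorm_comp_le _ _).trans
    (mul_le_mul hA hB (norm_nonneg _) ((norm_nonneg _).trans hA))

theorem norm_al_sub (h : Fr i j) (H : Inv q Y gi hi Li) (hP : Pj F P) (hq : ‖q‖ ≤ 1 / 4)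
    (hY : ‖Y‖ ≤ 1 / 4) :
    ‖DX i j q Li ∘L P ∘L A0 i j q - ContinuousLinearMap.id ℝ F‖ ≤
      2 * ‖Y‖ + 3 * tau0 i j q hi P := by
  have e : DX i j q Li ∘L P ∘L A0 i j q - ContinuousLinearMap.id ℝ F =
      Li ∘L Y - Li ∘L Th i j q P := by rw [al_eq h H]; abel
  rw [e]
  have h1 := ncomp (H.norm_Li' hY) (le_refl ‖Y‖)
  have h2 := ncomp (H.norm_Li' hY) (norm_Th h H hP hq)
  have h3 := tau0_nonneg h H hP
  have h4 := norm_nonneg Y
  calc _ ≤ ‖Li ∘L Y‖ + ‖Li ∘L Th i j q P‖ := norm_sub_le _ _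
    _ ≤ _ := by linarith

theorem trc_NP (h : Fr i j) (H : Inv q Y gi hi Li) :
    tau0 i j q hi P = trc V (hi ∘L Wb i j q P) := by
  rw [tau0, NN, Wb]
  have h1 : (BB i j q ∘L hi ∘L adj (BB i j q)) ∘L P = BB i j q ∘L (hi ∘L adj (BB i j q) ∘L P) := rfl
  rw [h1, trc_comp_comm]
  rfl

theorem tau0_eq_Th (h : Fr i j) (H : Inv q Y gi hi Li) (hP : Pj F P) :
    tau0 i j q hi P = trc F (gi ∘L Th i j q P) := by
  have h1 := trc_TP h H hP
  have h2 : trc E (TT i j q gi ∘L P) = trc F (gi ∘L (adj (A0 i j q) ∘L P ∘L A0 i j q)) := by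
    rw [TT]
    have : (A0 i j q ∘L gi ∘L adj (A0 i j q)) ∘L P =
      A0 i j q ∘L (gi ∘L adj (A0 i j q) ∘L P) := rfl
    rw [this, trc_comp_comm]
    rfl
  have h3 : Th i j q P = gg q - adj (A0 i j q) ∘L P ∘L A0 i j q := by
    rw [Th, ContinuousLinearMap.sub_comp, ContinuousLinearMap.comp_sub,
      ContinuousLinearMap.id_comp, A0A0 h]
  rw [h3, ContinuousLinearMap.comp_sub, map_sub, H.g1, trc_id, ← h2, h1]
  ring

theorem id_eq (h : Fr i j) (H : Inv q Y gi hi Li) :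
    AA i j q Y ∘L DX i j q Li + BB i j q ∘L DY i j q Y Li hi = ContinuousLinearMap.id ℝ E := by
  have hd := H.decomp h
  have e1 : BB i j q ∘L DY i j q Y Li hi = BB i j q ∘L hi ∘L adj (BB i j q) -
      (BB i j q ∘L hi ∘L q) ∘L Y ∘L DX i j q Li := by
    rw [DY, ContinuousLinearMap.comp_sub, ContinuousLinearMap.comp_sub]
    rfl
  have e2 : BB i j q ∘L hi ∘L q = A0 i j q ∘L gi - i := by
    have := eq_sub_iff_add_eq.1 (H.i_eq (i := i) (j := j))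
    rw [eq_sub_iff_add_eq, add_comm]
    exact this
  have e3 : A0 i j q ∘L gi ∘L adj (A0 i j q) =
      (A0 i j q ∘L gi ∘L (gg q - Y)) ∘L DX i j q Li := by
    have : (A0 i j q ∘L gi ∘L (gg q - Y)) ∘L DX i j q Li =
      (A0 i j q ∘L gi) ∘L ((gg q - Y) ∘L Li) ∘L adj (A0 i j q) := rfl
    rw [this, H.l2, ContinuousLinearMap.id_comp]
    rfl
  have e4 : A0 i j q ∘L gi ∘L (gg q - Y) = A0 i j q - A0 i j q ∘L gi ∘L Y := by
    rw [ContinuousLinearMap.comp_sub, H.g1, ContinuousLinearMap.comp_sub,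
      ContinuousLinearMap.comp_id]
  rw [← hd, e1, e2, e3, e4, AA_eq]
  simp only [ContinuousLinearMap.sub_comp]
  have a1 : (A0 i j q ∘L gi ∘L Y) ∘L DX i j q Li = (A0 i j q ∘L gi) ∘L Y ∘L DX i j q Li := rfl
  have a2 : (i ∘L Y) ∘L DX i j q Li = i ∘L Y ∘L DX i j q Li := rfl
  rw [a1, a2]
  abel

/-- (k1) -/
theorem abs_k1 (h : Fr i j) (H : Inv q Y gi hi Li) (hP : Pj F P) (hq : ‖q‖ ≤ 1 / 4)
    (hY : ‖Y‖ ≤ 1 / 4) :
    |tau0 i j q hi P - (Module.finrank ℝ F - trc F (DX i j q Li ∘L P ∘L AA i j q Y))| ≤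
      3 * Module.finrank ℝ V * (‖q‖ * ‖Y‖ * Real.sqrt (tau0 i j q hi P)) := by
  have h1 : (Module.finrank ℝ F : ℝ) - trc F (DX i j q Li ∘L P ∘L AA i j q Y) =
      trc V (DY i j q Y Li hi ∘L P ∘L BB i j q) := by
    have a1 : trc E (P ∘L (AA i j q Y ∘L DX i j q Li + BB i j q ∘L DY i j q Y Li hi)) =
        Module.finrank ℝ F := by rw [id_eq h H, ContinuousLinearMap.comp_id, hP.tr]
    rw [ContinuousLinearMap.comp_add, map_add] at a1
    have a2 : trc E (P ∘L AA i j q Y ∘L DX i j q Li) =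
        trc F (DX i j q Li ∘L P ∘L AA i j q Y) := by
      have : P ∘L AA i j q Y ∘L DX i j q Li = (P ∘L AA i j q Y) ∘L DX i j q Li := rfl
      rw [this, trc_comp_comm]
    have a3 : trc E (P ∘L BB i j q ∘L DY i j q Y Li hi) =
        trc V (DY i j q Y Li hi ∘L P ∘L BB i j q) := by
      have : P ∘L BB i j q ∘L DY i j q Y Li hi = (P ∘L BB i j q) ∘L DY i j q Y Li hi := rfl
      rw [this, trc_comp_comm]
    rw [a2, a3] at a1
    linarith
  have h2 : tau0 i j q hi P - trc V (DY i j q Y Li hi ∘L P ∘L BB i j q) =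
      trc V (hi ∘L q ∘L Y ∘L Li ∘L Rb i j q P) := by
    rw [trc_NP h H, de_eq, ContinuousLinearMap.comp_sub, map_sub]
    ring
  rw [h1, h2]
  have h3 : ‖hi ∘L q ∘L Y ∘L Li ∘L Rb i j q P‖ ≤
      1 * (‖q‖ * (‖Y‖ * (4 / 3 * (2 * Real.sqrt (tau0 i j q hi P))))) :=
    ncomp H.norm_hi (ncomp le_rfl (ncomp le_rfl (ncomp (H.norm_Li' hY) (norm_Rb h H hP hq))))
  have h4 : 0 ≤ ‖q‖ * ‖Y‖ * Real.sqrt (tau0 i j q hi P) := by positivity
  calc _ ≤ Module.finrank ℝ V * ‖hi ∘L q ∘L Y ∘L Li ∘L Rb i j q P‖ := abs_trc_le' _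
    _ ≤ Module.finrank ℝ V * (3 * (‖q‖ * ‖Y‖ * Real.sqrt (tau0 i j q hi P))) := by
        refine mul_le_mul_of_nonneg_left ?_ (Nat.cast_nonneg _)
        refine h3.trans ?_
        nlinarith
    _ = _ := by ring

/-- (k2) -/
theorem norm_k2 (h : Fr i j) (H : Inv q Y gi hi Li) (hP : Pj F P) (hq : ‖q‖ ≤ 1 / 4)
    (hY : ‖Y‖ ≤ 1 / 4) :
    ‖ContinuousLinearMap.id ℝ F - DX i j q Li ∘L P ∘L AA i j q Y‖ ≤
      4 * (tau0 i j q hi P + ‖Y‖ ^ 2) := by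
  set al := DX i j q Li ∘L P ∘L A0 i j q with hal
  have e1 : DX i j q Li ∘L P ∘L AA i j q Y = al - (al ∘L gi - Li ∘L Rb i j q P ∘L hi ∘L q) ∘L Y := by
    rw [hal, ← DXPi H, AA_eq, ContinuousLinearMap.comp_sub, ContinuousLinearMap.comp_sub]
    rfl
  have e2 := al_eq (P := P) h H
  rw [← hal] at e2
  have e3 : ContinuousLinearMap.id ℝ F - DX i j q Li ∘L P ∘L AA i j q Y =
      Li ∘L Th i j q P - (Li ∘L Y ∘L gi) ∘L Y + (al - ContinuousLinearMap.id ℝ F) ∘L gi ∘L Y -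
        Li ∘L Rb i j q P ∘L hi ∘L q ∘L Y := by
    rw [e1, ← H.Li_sub]
    simp only [ContinuousLinearMap.sub_comp, ContinuousLinearMap.id_comp]
    have a1 : (al ∘L gi) ∘L Y = al ∘L gi ∘L Y := rfl
    have a2 : (Li ∘L Rb i j q P ∘L hi ∘L q) ∘L Y = Li ∘L Rb i j q P ∘L hi ∘L q ∘L Y := rfl
    rw [a1, a2]
    nth_rewrite 1 [e2]
    abel
  rw [e3]
  have n1 : ‖Li ∘L Th i j q P‖ ≤ 4 / 3 * (2 * tau0 i j q hi P) :=
    ncomp (H.norm_Li' hY) (norm_Th h H hP hq)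
  have n2 : ‖(Li ∘L Y ∘L gi) ∘L Y‖ ≤ 4 / 3 * (‖Y‖ * 1) * ‖Y‖ :=
    ncomp (ncomp (H.norm_Li' hY) (ncomp le_rfl H.norm_gi)) le_rfl
  have n3 : ‖(al - ContinuousLinearMap.id ℝ F) ∘L gi ∘L Y‖ ≤
      (2 * ‖Y‖ + 3 * tau0 i j q hi P) * (1 * ‖Y‖) :=
    ncomp (norm_al_sub h H hP hq hY) (ncomp H.norm_gi le_rfl)
  have n4 : ‖Li ∘L Rb i j q P ∘L hi ∘L q ∘L Y‖ ≤
      4 / 3 * (2 * Real.sqrt (tau0 i j q hi P) * (1 * (1 / 4 * ‖Y‖))) :=
    ncomp (H.norm_Li' hY) (ncomp (norm_Rb h H hP hq) (ncomp H.norm_hi (ncomp hq le_rfl)))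
  have t0 := tau0_nonneg h H hP
  have s0 := Real.sqrt_nonneg (tau0 i j q hi P)
  have s1 := Real.sq_sqrt t0
  have y0 := norm_nonneg Y
  have am : Real.sqrt (tau0 i j q hi P) * ‖Y‖ ≤ (tau0 i j q hi P + ‖Y‖ ^ 2) / 2 := by
    nlinarith [sq_nonneg (Real.sqrt (tau0 i j q hi P) - ‖Y‖)]
  have tY : tau0 i j q hi P * ‖Y‖ ≤ tau0 i j q hi P * (1 / 4) :=
    mul_le_mul_of_nonneg_left hY t0
  calc _ ≤ ‖Li ∘L Th i j q P‖ + ‖(Li ∘L Y ∘L gi) ∘L Y‖ +
        ‖(al - ContinuousLinearMap.id ℝ F) ∘L gi ∘L Y‖ + ‖Li ∘L Rb i j q P ∘L hi ∘L q ∘L Y‖ := by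
        refine (norm_sub_le _ _).trans (add_le_add ?_ le_rfl)
        refine (norm_add_le _ _).trans (add_le_add ?_ le_rfl)
        exact norm_sub_le _ _
    _ ≤ _ := by nlinarith

/-- (k4): `tr (H P)` with `H = 1 - A0 dx` the derivative of `z - foot z` -/
theorem abs_k4 (h : Fr i j) (H : Inv q Y gi hi Li) (hP : Pj F P) (hq : ‖q‖ ≤ 1 / 4)
    (hY : ‖Y‖ ≤ 1 / 4) (hmin : trc F (gi ∘L Y) = 0) :
    |trc E ((ContinuousLinearMap.id ℝ E - A0 i j q ∘L DX i j q Li) ∘L P) - tau0 i j q hi P| ≤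
      Module.finrank ℝ F * (2 * ‖Y‖ ^ 2 + 3 * (‖Y‖ * tau0 i j q hi P)) := by
  have h1 : trc E ((ContinuousLinearMap.id ℝ E - A0 i j q ∘L DX i j q Li) ∘L P) =
      Module.finrank ℝ F - trc F (DX i j q Li ∘L P ∘L A0 i j q) := by
    rw [ContinuousLinearMap.sub_comp, map_sub, ContinuousLinearMap.id_comp, hP.tr]
    congr 1
    have : (A0 i j q ∘L DX i j q Li) ∘L P = A0 i j q ∘L (DX i j q Li ∘L P) := rfl
    rw [this, trc_comp_comm]
    rfl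
  have h2 : trc F (DX i j q Li ∘L P ∘L A0 i j q) =
      Module.finrank ℝ F + trc F (Li ∘L Y) - trc F (Li ∘L Th i j q P) := by
    rw [al_eq h H, map_sub, map_add, trc_id]
  have h3 := tau0_eq_Th h H hP
  have h4 : trc E ((ContinuousLinearMap.id ℝ E - A0 i j q ∘L DX i j q Li) ∘L P) -
      tau0 i j q hi P = trc F ((Li ∘L Y ∘L gi) ∘L Th i j q P - (Li ∘L Y ∘L gi) ∘L Y) := by
    rw [h1, h2, ← H.Li_sub, ContinuousLinearMap.sub_comp, ContinuousLinearMap.sub_comp, map_sub,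
      map_sub, map_sub, hmin]
    linarith
  rw [h4]
  have n1 : ‖(Li ∘L Y ∘L gi) ∘L Th i j q P‖ ≤ 4 / 3 * (‖Y‖ * 1) * (2 * tau0 i j q hi P) :=
    ncomp (ncomp (H.norm_Li' hY) (ncomp le_rfl H.norm_gi)) (norm_Th h H hP hq)
  have n2 : ‖(Li ∘L Y ∘L gi) ∘L Y‖ ≤ 4 / 3 * (‖Y‖ * 1) * ‖Y‖ :=
    ncomp (ncomp (H.norm_Li' hY) (ncomp le_rfl H.norm_gi)) le_rfl
  have t0 := tau0_nonneg h H hP
  have y0 := norm_nonneg Y
  refine (abs_trc_le' _).trans (mul_le_mul_of_nonneg_left ?_ (Nat.cast_nonneg _))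
  refine (norm_sub_le _ _).trans ?_
  nlinarith [mul_nonneg y0 t0]

/-- (k5) -/
theorem norm_k5 (h : Fr i j) (H : Inv q Y gi hi Li) (hYs : adj Y = Y) (hq : ‖q‖ ≤ 1 / 4)
    (hY : ‖Y‖ ≤ 1 / 4) :
    ‖adj (DX i j q Li) - AA i j q Y ∘L gi‖ ≤ 3 * ‖Y‖ := by
  have e : adj (DX i j q Li) - AA i j q Y ∘L gi = A0 i j q ∘L (Li ∘L Y ∘L gi) + i ∘L Y ∘L gi := by
    rw [DX, ContinuousLinearMap.adjoint_comp, H.Li_adj hYs, ContinuousLinearMap.adjoint_adjoint,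
      AA_eq, ContinuousLinearMap.sub_comp, ← H.Li_sub, ContinuousLinearMap.comp_sub]
    have : (i ∘L Y) ∘L gi = i ∘L Y ∘L gi := rfl
    rw [this]
    abel
  rw [e]
  have n1 : ‖A0 i j q ∘L (Li ∘L Y ∘L gi)‖ ≤ 5 / 4 * (4 / 3 * (‖Y‖ * 1)) :=
    ncomp (norm_A0 h hq) (ncomp (H.norm_Li' hY) (ncomp le_rfl H.norm_gi))
  have n2 : ‖i ∘L Y ∘L gi‖ ≤ 1 * (‖Y‖ * 1) := ncomp h.norm_i_le (ncomp le_rfl H.norm_gi)
  have y0 := norm_nonneg Y
  refine (norm_add_le _ _).trans ?_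
  linarith

/-- the derivative of the frame field `A(·) v`: `Kt = (∂_v Y)`, `S = D²u(v)` -/
def DAv (i : F →L[ℝ] E) (j : V →L[ℝ] E) (q : F →L[ℝ] V) (Y Li : F →L[ℝ] F) (hi : V →L[ℝ] V)
    (Kt : F →L[ℝ] F) (S : F →L[ℝ] V) : E →L[ℝ] E :=
  j ∘L S ∘L DX i j q Li - i ∘L Kt ∘L DX i j q Li - i ∘L adj S ∘L DY i j q Y Li hi

/-- (k3), identity -/
theorem key_k3 (h : Fr i j) (H : Inv q Y gi hi Li) (hP : Pj F P) {Kt : F →L[ℝ] F} {S : F →L[ℝ] V}
    (hmin : trc F (gi ∘L Kt) = trc F ((gi ∘L Y ∘L gi) ∘L (adj S ∘L q + adj q ∘L S)))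
    {al : F →L[ℝ] F} (hal : DX i j q Li ∘L P ∘L A0 i j q = al)
    {R : V →L[ℝ] F} (hR : Rb i j q P = R) {de : V →L[ℝ] V}
    (hde : DY i j q Y Li hi ∘L P ∘L BB i j q = de) {TH : F →L[ℝ] F} (hTH : Th i j q P = TH) :
    trc E (DAv i j q Y Li hi Kt S ∘L P) - trc F (gi ∘L adj q ∘L S) =
      trc V (S ∘L (Li ∘L Y ∘L gi) ∘L R ∘L hi)
      + trc V (S ∘L (Li ∘L Y ∘L gi) ∘L Y ∘L gi ∘L adj q)
      - trc V (S ∘L Li ∘L TH ∘L gi ∘L adj q)
      - trc F (Kt ∘L (al - ContinuousLinearMap.id ℝ F) ∘L gi)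
      + trc F (Kt ∘L (Li ∘L R ∘L hi ∘L q))
      + trc F (adj S ∘L hi ∘L q ∘L Y ∘L (al - ContinuousLinearMap.id ℝ F) ∘L gi)
      + trc F (adj S ∘L (de ∘L hi ∘L q)) := by
  have al1 : al = ContinuousLinearMap.id ℝ F + Li ∘L Y - Li ∘L TH := by
    rw [← hal, ← hTH]; exact al_eq h H
  have pi := DXPi (P := P) (i := i) (j := j) H
  have pj := DXPj (P := P) (i := i) (j := j) H
  have py := DYPi (P := P) (i := i) (j := j) H
  have pg := ga_eq (Y := Y) (Li := Li) (hi := hi) (i := i) (j := j) (q := q) hP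
  rw [hal, hR] at pi pj
  rw [hal, hR] at pg
  rw [hde, pg] at py
  clear pg
  have c1 : trc E ((j ∘L S ∘L DX i j q Li) ∘L P) =
      trc V (S ∘L (Li ∘L R ∘L hi)) + trc V (S ∘L (al ∘L gi ∘L adj q)) := by
    rw [show (j ∘L S ∘L DX i j q Li) ∘L P = j ∘L (S ∘L DX i j q Li ∘L P) from rfl, trc_comp_comm,
      show (S ∘L DX i j q Li ∘L P) ∘L j = S ∘L (DX i j q Li ∘L P ∘L j) from rfl, pj,
      ContinuousLinearMap.comp_add, map_add]
  have c2 : trc E ((i ∘L Kt ∘L DX i j q Li) ∘L P) =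
      trc F (Kt ∘L (al ∘L gi)) - trc F (Kt ∘L (Li ∘L R ∘L hi ∘L q)) := by
    rw [show (i ∘L Kt ∘L DX i j q Li) ∘L P = i ∘L (Kt ∘L DX i j q Li ∘L P) from rfl, trc_comp_comm,
      show (Kt ∘L DX i j q Li ∘L P) ∘L i = Kt ∘L (DX i j q Li ∘L P ∘L i) from rfl, pi,
      ContinuousLinearMap.comp_sub, map_sub]
  have c3 : trc E ((i ∘L adj S ∘L DY i j q Y Li hi) ∘L P) =
      trc F (adj S ∘L (hi ∘L adj R ∘L gi)) - trc F (adj S ∘L (hi ∘L q ∘L Y ∘L al ∘L gi)) -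
        trc F (adj S ∘L (de ∘L hi ∘L q)) := by
    rw [show (i ∘L adj S ∘L DY i j q Y Li hi) ∘L P = i ∘L (adj S ∘L DY i j q Y Li hi ∘L P) from rfl,
      trc_comp_comm,
      show (adj S ∘L DY i j q Y Li hi ∘L P) ∘L i = adj S ∘L (DY i j q Y Li hi ∘L P ∘L i) from rfl,
      py, ContinuousLinearMap.comp_sub, map_sub]
    congr 1
    rw [← map_sub, ← ContinuousLinearMap.comp_sub]
    congr 2
    rw [ContinuousLinearMap.comp_sub, ContinuousLinearMap.sub_comp]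
    rfl
  have c4 : trc F (adj S ∘L (hi ∘L adj R ∘L gi)) = trc V (S ∘L (gi ∘L R ∘L hi)) := by
    rw [← trc_adjoint]
    have : adj (adj S ∘L (hi ∘L adj R ∘L gi)) = (gi ∘L R ∘L hi) ∘L S := by
      simp [ContinuousLinearMap.adjoint_comp, H.gi_adj, H.hi_adj, ContinuousLinearMap.comp_assoc]
    rw [this, trc_comp_comm]
  have s1 : trc V (S ∘L (al ∘L gi ∘L adj q)) = trc F (gi ∘L adj q ∘L S) +
      trc V (S ∘L (Li ∘L Y ∘L gi) ∘L Y ∘L gi ∘L adj q) + trc V (S ∘L gi ∘L Y ∘L gi ∘L adj q) -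
        trc V (S ∘L Li ∘L TH ∘L gi ∘L adj q) := by
    have a1 : S ∘L (al ∘L gi ∘L adj q) = S ∘L (gi ∘L adj q) +
        S ∘L ((Li ∘L Y) ∘L gi ∘L adj q) - S ∘L Li ∘L TH ∘L gi ∘L adj q := by
      rw [al1, ContinuousLinearMap.sub_comp, ContinuousLinearMap.add_comp,
        ContinuousLinearMap.comp_sub, ContinuousLinearMap.comp_add, ContinuousLinearMap.id_comp]
      rfl
    have a2 : S ∘L ((Li ∘L Y) ∘L gi ∘L adj q) =
        S ∘L (Li ∘L Y ∘L gi) ∘L Y ∘L gi ∘L adj q + S ∘L gi ∘L Y ∘L gi ∘L adj q := by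
      rw [← H.Li_sub, ContinuousLinearMap.sub_comp, ContinuousLinearMap.comp_sub,
        show S ∘L ((Li ∘L Y) ∘L gi ∘L adj q) = S ∘L Li ∘L Y ∘L gi ∘L adj q from rfl]
      abel
    rw [a1, a2, map_sub, map_add, map_add, trc_comp_comm S (gi ∘L adj q),
      show (gi ∘L adj q) ∘L S = gi ∘L adj q ∘L S from rfl]
    ring
  have s2 : trc F (Kt ∘L (al ∘L gi)) = trc F (gi ∘L Kt) +
      trc F (Kt ∘L (al - ContinuousLinearMap.id ℝ F) ∘L gi) := by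
    have : Kt ∘L (al ∘L gi) = Kt ∘L gi + Kt ∘L (al - ContinuousLinearMap.id ℝ F) ∘L gi := by
      rw [ContinuousLinearMap.sub_comp, ContinuousLinearMap.comp_sub, ContinuousLinearMap.id_comp]
      abel
    rw [this, map_add, trc_comp_comm Kt gi]
  have s3 : trc F (adj S ∘L (hi ∘L q ∘L Y ∘L al ∘L gi)) =
      trc F ((gi ∘L Y ∘L gi) ∘L (adj S ∘L q)) +
        trc F (adj S ∘L hi ∘L q ∘L Y ∘L (al - ContinuousLinearMap.id ℝ F) ∘L gi) := by
    have a1 : adj S ∘L (hi ∘L q ∘L Y ∘L al ∘L gi) = adj S ∘L hi ∘L q ∘L Y ∘L gi +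
        adj S ∘L hi ∘L q ∘L Y ∘L (al - ContinuousLinearMap.id ℝ F) ∘L gi := by
      rw [ContinuousLinearMap.sub_comp, ContinuousLinearMap.id_comp]
      simp only [ContinuousLinearMap.comp_sub]
      abel
    have a2 : adj S ∘L hi ∘L q ∘L Y ∘L gi = (adj S ∘L q) ∘L (gi ∘L Y ∘L gi) := by
      rw [show adj S ∘L hi ∘L q ∘L Y ∘L gi = adj S ∘L (hi ∘L q) ∘L Y ∘L gi from rfl, H.hi_q]
      rfl
    rw [a1, map_add, a2, trc_comp_comm (adj S ∘L q)]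
  have s4 : trc V (S ∘L (Li ∘L R ∘L hi)) - trc V (S ∘L (gi ∘L R ∘L hi)) =
      trc V (S ∘L (Li ∘L Y ∘L gi) ∘L R ∘L hi) := by
    rw [← map_sub, ← ContinuousLinearMap.comp_sub, ← ContinuousLinearMap.sub_comp, H.Li_sub]
  have s5 : trc V (S ∘L gi ∘L Y ∘L gi ∘L adj q) = trc F ((gi ∘L Y ∘L gi) ∘L (adj q ∘L S)) := by
    rw [trc_comp_comm S (gi ∘L Y ∘L gi ∘L adj q)]
    rfl
  rw [ContinuousLinearMap.comp_add, map_add] at hmin
  rw [DAv, ContinuousLinearMap.sub_comp, ContinuousLinearMap.sub_comp, map_sub, map_sub, c1, c2,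
    c3, c4, s1, s2, s3, s5, hmin, ← s4]
  ring

theorem fin7 (a b c d e f g : ℝ) : |a + b - c - d + e + f + g| ≤
    |a| + |b| + |c| + |d| + |e| + |f| + |g| := by
  rw [abs_le]
  constructor <;>
    linarith [neg_abs_le a, le_abs_self a, neg_abs_le b, le_abs_self b, neg_abs_le c,
      le_abs_self c, neg_abs_le d, le_abs_self d, neg_abs_le e, le_abs_self e, neg_abs_le f,
      le_abs_self f, neg_abs_le g, le_abs_self g]

/-- the arithmetic of (k3) -/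
theorem arith_k3 {dF dV S K y q t st a1 a2 a3 a4 a5 a6 a7 : ℝ} (dF0 : 0 ≤ dF) (dV0 : 0 ≤ dV)
    (S0 : 0 ≤ S) (K0 : 0 ≤ K) (y0 : 0 ≤ y) (q0 : 0 ≤ q) (t0 : 0 ≤ t) (st0 : 0 ≤ st)
    (hq : q ≤ 1 / 4) (hy : y ≤ 1 / 4)
    (A1 : a1 ≤ dV * (S * (4 / 3 * (y * 1) * (2 * st * 1))))
    (A2 : a2 ≤ dV * (S * (4 / 3 * (y * 1) * (y * (1 * q)))))
    (A3 : a3 ≤ dV * (S * (4 / 3 * (2 * t * (1 * q)))))
    (A4 : a4 ≤ dF * (K * ((2 * y + 3 * t) * 1)))
    (A5 : a5 ≤ dF * (K * (4 / 3 * (2 * st * (1 * q)))))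
    (A6 : a6 ≤ dF * (S * (1 * (q * (y * ((2 * y + 3 * t) * 1))))))
    (A7 : a7 ≤ dF * (S * ((1 * (2 * t + q * (y * (4 / 3 * (2 * st))))) * (1 * q)))) :
    a1 + a2 + a3 + a4 + a5 + a6 + a7 ≤ 8 * (dF + dV) *
      (K * (y + t + q * st) + S * (q * y ^ 2 + q * t + y * st)) := by
  have u1 : 0 ≤ S * (q * y ^ 2) := by positivity
  have u2 : 0 ≤ S * (q * t) := by positivity
  have u3 : 0 ≤ S * (y * st) := by positivity
  have u4 : 0 ≤ K * y := by positivity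
  have u5 : 0 ≤ K * t := by positivity
  have u6 : 0 ≤ K * (q * st) := by positivity
  set U := K * (y + t + q * st) + S * (q * y ^ 2 + q * t + y * st) with hU
  have hUe : U = K * y + K * t + K * (q * st) + (S * (q * y ^ 2) + S * (q * t) + S * (y * st)) := by
    rw [hU]; ring
  have B1 : S * (4 / 3 * (y * 1) * (2 * st * 1)) ≤ 8 / 3 * U := by
    have : S * (4 / 3 * (y * 1) * (2 * st * 1)) = 8 / 3 * (S * (y * st)) := by ring
    rw [this]; linarith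
  have B2 : S * (4 / 3 * (y * 1) * (y * (1 * q))) ≤ 8 / 3 * U := by
    have : S * (4 / 3 * (y * 1) * (y * (1 * q))) = 4 / 3 * (S * (q * y ^ 2)) := by ring
    rw [this]; linarith
  have B3 : S * (4 / 3 * (2 * t * (1 * q))) ≤ 8 / 3 * U := by
    have : S * (4 / 3 * (2 * t * (1 * q))) = 8 / 3 * (S * (q * t)) := by ring
    rw [this]; linarith
  have B45 : K * ((2 * y + 3 * t) * 1) + K * (4 / 3 * (2 * st * (1 * q))) ≤ 3 * U := by
    have : K * ((2 * y + 3 * t) * 1) + K * (4 / 3 * (2 * st * (1 * q))) =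
      2 * (K * y) + 3 * (K * t) + 8 / 3 * (K * (q * st)) := by ring
    rw [this]; linarith
  have B6 : S * (1 * (q * (y * ((2 * y + 3 * t) * 1)))) ≤ 2 * U := by
    have e : S * (1 * (q * (y * ((2 * y + 3 * t) * 1)))) =
      2 * (S * (q * y ^ 2)) + 3 * (S * (q * t) * y) := by ring
    have f : S * (q * t) * y ≤ S * (q * t) * (1 / 4) := mul_le_mul_of_nonneg_left hy u2
    rw [e]; linarith
  have B7 : S * ((1 * (2 * t + q * (y * (4 / 3 * (2 * st))))) * (1 * q)) ≤ 2 * U := by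
    have e : S * ((1 * (2 * t + q * (y * (4 / 3 * (2 * st))))) * (1 * q)) =
      2 * (S * (q * t)) + 8 / 3 * (S * (y * st) * (q * q)) := by ring
    have hq2 : q * q ≤ 1 / 4 * (1 / 4) := mul_le_mul hq hq q0 (by norm_num)
    have f : S * (y * st) * (q * q) ≤ S * (y * st) * (1 / 4 * (1 / 4)) :=
      mul_le_mul_of_nonneg_left hq2 u3
    rw [e]; linarith
  have C1 := mul_le_mul_of_nonneg_left B1 dV0
  have C2 := mul_le_mul_of_nonneg_left B2 dV0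
  have C3 := mul_le_mul_of_nonneg_left B3 dV0
  have C45 := mul_le_mul_of_nonneg_left B45 dF0
  have C6 := mul_le_mul_of_nonneg_left B6 dF0
  have C7 := mul_le_mul_of_nonneg_left B7 dF0
  have U0 : 0 ≤ U := by linarith
  have v1 : 0 ≤ dF * U := mul_nonneg dF0 U0
  have v2 : 0 ≤ dV * U := mul_nonneg dV0 U0
  have e : 8 * (dF + dV) * U = 8 * (dF * U) + 8 * (dV * U) := by ring
  rw [e]
  rw [mul_add] at C45
  have w : ∀ c d : ℝ, d * (c * U) = c * (d * U) := fun c d => by ring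
  rw [w] at C1 C2 C3 C45 C6 C7
  linarith

/-- (k3) -/
theorem abs_k3 (h : Fr i j) (H : Inv q Y gi hi Li) (hP : Pj F P) (hq : ‖q‖ ≤ 1 / 4)
    (hY : ‖Y‖ ≤ 1 / 4) {Kt : F →L[ℝ] F} {S : F →L[ℝ] V}
    (hmin : trc F (gi ∘L Kt) = trc F ((gi ∘L Y ∘L gi) ∘L (adj S ∘L q + adj q ∘L S))) :
    |trc E (DAv i j q Y Li hi Kt S ∘L P) - trc F (gi ∘L adj q ∘L S)| ≤
      8 * (Module.finrank ℝ F + Module.finrank ℝ V) *
        (‖Kt‖ * (‖Y‖ + tau0 i j q hi P + ‖q‖ * Real.sqrt (tau0 i j q hi P)) +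
          ‖S‖ * (‖q‖ * ‖Y‖ ^ 2 + ‖q‖ * tau0 i j q hi P +
            ‖Y‖ * Real.sqrt (tau0 i j q hi P))) := by
  have t0 : 0 ≤ tau0 i j q hi P := tau0_nonneg h H hP
  have st0 : 0 ≤ Real.sqrt (tau0 i j q hi P) := Real.sqrt_nonneg _
  have nL := H.norm_Li' hY
  have nLY : ‖Li ∘L Y ∘L gi‖ ≤ 4 / 3 * (‖Y‖ * 1) := ncomp nL (ncomp le_rfl H.norm_gi)
  have nR := norm_Rb h H hP hq
  have nal := norm_al_sub h H hP hq hY
  have nTh := norm_Th h H hP hq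
  have nqt : ‖adj q‖ ≤ ‖q‖ := le_of_eq (LinearIsometryEquiv.norm_map _ _)
  have nSt : ‖adj S‖ ≤ ‖S‖ := le_of_eq (LinearIsometryEquiv.norm_map _ _)
  have nde : ‖DY i j q Y Li hi ∘L P ∘L BB i j q‖ ≤
      1 * (2 * tau0 i j q hi P +
        ‖q‖ * (‖Y‖ * (4 / 3 * (2 * Real.sqrt (tau0 i j q hi P))))) := by
    rw [de_eq]
    refine ncomp H.norm_hi ?_
    refine (norm_sub_le _ _).trans (add_le_add (norm_Wb h H hP hq) ?_)
    exact ncomp le_rfl (ncomp le_rfl (ncomp nL nR))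
  rw [key_k3 h H hP hmin rfl rfl rfl rfl]
  refine (fin7 _ _ _ _ _ _ _).trans ?_
  refine arith_k3 (Nat.cast_nonneg _) (Nat.cast_nonneg _) (norm_nonneg _) (norm_nonneg _)
    (norm_nonneg _) (norm_nonneg _) t0 st0 hq hY
    ((abs_trc_le' _).trans (mul_le_mul_of_nonneg_left ?_ (Nat.cast_nonneg _)))
    ((abs_trc_le' _).trans (mul_le_mul_of_nonneg_left ?_ (Nat.cast_nonneg _)))
    ((abs_trc_le' _).trans (mul_le_mul_of_nonneg_left ?_ (Nat.cast_nonneg _)))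
    ((abs_trc_le' _).trans (mul_le_mul_of_nonneg_left ?_ (Nat.cast_nonneg _)))
    ((abs_trc_le' _).trans (mul_le_mul_of_nonneg_left ?_ (Nat.cast_nonneg _)))
    ((abs_trc_le' _).trans (mul_le_mul_of_nonneg_left ?_ (Nat.cast_nonneg _)))
    ((abs_trc_le' _).trans (mul_le_mul_of_nonneg_left ?_ (Nat.cast_nonneg _)))
  · exact ncomp le_rfl (ncomp nLY (ncomp nR H.norm_hi))
  · exact ncomp le_rfl (ncomp nLY (ncomp le_rfl (ncomp H.norm_gi nqt)))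
  · exact ncomp le_rfl (ncomp nL (ncomp nTh (ncomp H.norm_gi nqt)))
  · exact ncomp le_rfl (ncomp nal H.norm_gi)
  · exact ncomp le_rfl (ncomp nL (ncomp nR (ncomp H.norm_hi le_rfl)))
  · exact ncomp nSt (ncomp H.norm_hi (ncomp le_rfl (ncomp le_rfl (ncomp nal H.norm_gi))))
  · exact ncomp nSt (ncomp nde (ncomp H.norm_hi le_rfl))

end Crest.Agent.R234.GLK_128
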