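import Crest.Agent.R234.F31_354

/-!
# R234 (helper567), node F3-KERN: the ellipsoidal bumps of a Lipschitz metric are a `Kern`

`g : F → (F →L F)` symmetric, `1/2 ≤ g ≤ 2`, `‖g x - g y‖ ≤ lg ‖x - y‖`, `0 ≤ lg ≤ 1`, `0 < ρ ≤ 1`:
the kernel `β x y = (1 - ⟪g x (y - x), y - x⟫ / ρ²)₊` with weight `√(det (g x)) / mass ρ` satisfies
`F31_354.Kern` with `θ = C lg ρ`, `W = C / mass ρ`, `C = CK (finrank F) = 16 * 48 ^ m`.
-/

set_option linter.unusedSectionVars false
set_option autoImplicit false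

open MeasureTheory Set Metric Function
open scoped ENNReal NNReal Topology

namespace Crest.Agent.R234.Kern_567

open Crest.Agent.R234.Loc1_290 Crest.Agent.R234.F31_354

variable {F : Type*} [NormedAddCommGroup F] [InnerProductSpace ℝ F] [FiniteDimensional ℝ F]
  [MeasurableSpace F] [BorelSpace F]

/-- a square root of a symmetric operator `≥ 1/2` -/
theorem exists_sqrt {G : F →L[ℝ] F} (hs : ∀ u v, inner ℝ (G u) v = inner ℝ u (G v))
    (hp : ∀ v, (1 / 2) * ‖v‖ ^ 2 ≤ inner ℝ (G v) v) :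
    ∃ S : F →ₗ[ℝ] F, (∀ v, ‖S v‖ ^ 2 = inner ℝ (G v) v) ∧ 0 < LinearMap.det S ∧
      LinearMap.det S = √(LinearMap.det (G : F →ₗ[ℝ] F)) := by
  have hsym : (G : F →ₗ[ℝ] F).IsSymmetric := fun u v => hs u v
  set b := hsym.eigenvectorBasis rfl with hb
  set lam := hsym.eigenvalues rfl with hlam
  have hGb : ∀ i, G (b i) = lam i • b i := fun i => hsym.apply_eigenvectorBasis rfl i
  have hlp : ∀ i, 1 / 2 ≤ lam i := by
    intro i
    have h1 := hp (b i)
    rw [hGb, inner_smul_left, real_inner_self_eq_norm_sq, b.norm_eq_one] at h1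
    simpa using h1
  have hl0 : ∀ i, 0 < lam i := fun i => by linarith [hlp i]
  refine ⟨Matrix.toLin b.toBasis b.toBasis (Matrix.diagonal fun i => √(lam i)), ?_, ?_, ?_⟩
  · intro v
    have hS : ∀ i, inner ℝ (b i)
        (Matrix.toLin b.toBasis b.toBasis (Matrix.diagonal fun i => √(lam i)) v) =
        √(lam i) * inner ℝ (b i) v := by
      intro i
      have h2 : inner ℝ (b i)
          (Matrix.toLin b.toBasis b.toBasis (Matrix.diagonal fun i => √(lam i)) v) =
          b.toBasis.repr (Matrix.toLin b.toBasis b.toBasis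
            (Matrix.diagonal fun i => √(lam i)) v) i := by
        rw [b.coe_toBasis_repr_apply, b.repr_apply_apply]
      rw [h2]
      rw [Matrix.toLin_apply]
      simp only [map_sum, map_smul, Finsupp.coe_finsetSum, Finset.sum_apply, Finsupp.coe_smul,
        Pi.smul_apply, Module.Basis.repr_self, smul_eq_mul, Matrix.mulVec_diagonal]
      rw [Finset.sum_eq_single i]
      · simp [b.repr_apply_apply]
      · intro j _ hj
        simp [hj]
      · simp
    rw [← b.sum_sq_norm_inner_right]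
    simp only [hS, Real.norm_eq_abs, abs_mul, mul_pow, sq_abs]
    have h3 : inner ℝ (G v) v = ∑ i, lam i * (inner ℝ (b i) v) ^ 2 := by
      rw [← b.sum_inner_mul_inner (G v) v]
      refine Finset.sum_congr rfl fun i _ => ?_
      rw [hs, hGb, inner_smul_right, real_inner_comm]
      ring
    rw [h3]
    refine Finset.sum_congr rfl fun i _ => ?_
    rw [Real.sq_sqrt (hl0 i).le]
  · rw [LinearMap.det_toLin, Matrix.det_diagonal]
    exact Finset.prod_pos fun i _ => Real.sqrt_pos.2 (hl0 i)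
  · rw [LinearMap.det_toLin, Matrix.det_diagonal, hsym.det_eq_prod_eigenvalues rfl]
    symm
    rw [Real.sqrt_eq_iff_mul_self_eq_of_pos (Finset.prod_pos fun i _ => Real.sqrt_pos.2 (hl0 i)),
      ← Finset.prod_mul_distrib]
    refine Finset.prod_congr rfl fun i _ => ?_
    rw [Real.mul_self_sqrt (hl0 i).le]
    simp [hlam]

variable (vol : Measure F) [vol.IsAddHaarMeasure]

/-- linear change of variables in the mass of the bump -/
theorem int_bump_comp {S : F →ₗ[ℝ] F} (hS : 0 < LinearMap.det S) (ρ : ℝ) :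
    ∫ v, bump ρ 0 (S v) ∂vol = (LinearMap.det S)⁻¹ * mass vol ρ := by
  have hc : Continuous S := S.continuous_of_finiteDimensional
  have h1 : ∫ v, bump ρ 0 (S v) ∂vol = ∫ h, bump ρ 0 h ∂(Measure.map S vol) := by
    rw [integral_map hc.measurable.aemeasurable]
    exact (continuous_bump_right ρ 0).aestronglyMeasurable
  rw [h1, Measure.map_linearMap_addHaar_eq_smul_addHaar vol hS.ne', integral_smul_measure]
  rw [ENNReal.toReal_ofReal (abs_nonneg _), abs_of_pos (inv_pos.2 hS)]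
  rfl

/-- the ellipsoidal bump -/
noncomputable def eb (G : F →L[ℝ] F) (ρ : ℝ) (v : F) : ℝ := max 0 (1 - inner ℝ (G v) v / ρ ^ 2)

theorem eb_nonneg (G : F →L[ℝ] F) (ρ : ℝ) (v : F) : 0 ≤ eb G ρ v := le_max_left _ _

theorem eb_le_one {G : F →L[ℝ] F} (hp : ∀ v, (1 / 2) * ‖v‖ ^ 2 ≤ inner ℝ (G v) v) (ρ : ℝ) (v : F) :
    eb G ρ v ≤ 1 := by
  unfold eb
  refine max_le zero_le_one ?_
  have h1 : 0 ≤ inner ℝ (G v) v := le_trans (by positivity) (hp v)
  have h2 : 0 ≤ inner ℝ (G v) v / ρ ^ 2 := by positivity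
  linarith

theorem eb_eq_zero {G : F →L[ℝ] F} (hp : ∀ v, (1 / 2) * ‖v‖ ^ 2 ≤ inner ℝ (G v) v) {ρ : ℝ}
    (hρ : 0 < ρ) {v : F} (hv : 2 * ρ < ‖v‖) : eb G ρ v = 0 := by
  unfold eb
  refine max_eq_left ?_
  have h1 := hp v
  have h2 : ρ ^ 2 ≤ inner ℝ (G v) v := by nlinarith
  have h3 : 1 ≤ inner ℝ (G v) v / ρ ^ 2 := by
    rw [le_div_iff₀ (by positivity)]
    linarith
  linarith

theorem continuous_eb (G : F →L[ℝ] F) (ρ : ℝ) : Continuous (eb G ρ) := by
  unfold eb
  exact continuous_const.max (continuous_const.sub (((G.continuous).inner continuous_id).div_const _))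

theorem integrable_eb {G : F →L[ℝ] F} (hp : ∀ v, (1 / 2) * ‖v‖ ^ 2 ≤ inner ℝ (G v) v) {ρ : ℝ}
    (hρ : 0 < ρ) : Integrable (eb G ρ) vol := by
  refine (continuous_eb G ρ).integrable_of_hasCompactSupport ?_
  refine HasCompactSupport.of_support_subset_isCompact (isCompact_closedBall (0 : F) (2 * ρ)) ?_
  intro v hv
  by_contra h
  apply hv
  apply eb_eq_zero hp hρ
  simpa [mem_closedBall, dist_zero_right, not_le] using h

theorem eb_sqrt {G : F →L[ℝ] F} {S : F →ₗ[ℝ] F} (hS : ∀ v, ‖S v‖ ^ 2 = inner ℝ (G v) v) (ρ : ℝ)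
    (v : F) : eb G ρ v = bump ρ 0 (S v) := by
  unfold eb bump
  rw [sub_zero, hS]

/-- the mass of the ellipsoidal bump -/
theorem sqrt_det_mul_int {G : F →L[ℝ] F} (hs : ∀ u v, inner ℝ (G u) v = inner ℝ u (G v))
    (hp : ∀ v, (1 / 2) * ‖v‖ ^ 2 ≤ inner ℝ (G v) v) (ρ : ℝ) :
    √(LinearMap.det (G : F →ₗ[ℝ] F)) * ∫ v, eb G ρ v ∂vol = mass vol ρ := by
  obtain ⟨S, h1, h2, h3⟩ := exists_sqrt hs hp
  simp_rw [eb_sqrt h1]
  rw [int_bump_comp vol h2, ← h3, ← mul_assoc, mul_inv_cancel₀ h2.ne', one_mul]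

theorem sqrt_det_pos {G : F →L[ℝ] F} (hs : ∀ u v, inner ℝ (G u) v = inner ℝ u (G v))
    (hp : ∀ v, (1 / 2) * ‖v‖ ^ 2 ≤ inner ℝ (G v) v) : 0 < √(LinearMap.det (G : F →ₗ[ℝ] F)) := by
  obtain ⟨S, h1, h2, h3⟩ := exists_sqrt hs hp
  rwa [← h3]

include vol in
/-- comparison of determinants -/
theorem sqrt_det_le {G H : F →L[ℝ] F} (hGs : ∀ u v, inner ℝ (G u) v = inner ℝ u (G v))
    (hGp : ∀ v, (1 / 2) * ‖v‖ ^ 2 ≤ inner ℝ (G v) v)
    (hHs : ∀ u v, inner ℝ (H u) v = inner ℝ u (H v))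
    (hHp : ∀ v, (1 / 2) * ‖v‖ ^ 2 ≤ inner ℝ (H v) v) {c : ℝ} (hc : 0 < c)
    (h : ∀ v, inner ℝ (G v) v ≤ c ^ 2 * inner ℝ (H v) v) :
    √(LinearMap.det (G : F →ₗ[ℝ] F)) ≤
      c ^ (Module.finrank ℝ F) * √(LinearMap.det (H : F →ₗ[ℝ] F)) := by
  obtain ⟨S, hS1, hS2, hS3⟩ := exists_sqrt hGs hGp
  obtain ⟨T, hT1, hT2, hT3⟩ := exists_sqrt hHs hHp
  have hm : 0 < mass vol 1 := mass_pos vol one_pos
  have hdet : LinearMap.det (c • T) = c ^ (Module.finrank ℝ F) * LinearMap.det T :=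
    LinearMap.det_smul c T
  have hd : 0 < LinearMap.det (c • T) := by
    rw [hdet]
    positivity
  have i1 : Integrable (fun v => bump (1 : ℝ) 0 (S v)) vol := by
    have := integrable_eb vol hGp one_pos
    exact this.congr (Filter.Eventually.of_forall fun v => eb_sqrt hS1 1 v)
  have hle : ∀ v, bump (1 : ℝ) 0 ((c • T) v) ≤ bump (1 : ℝ) 0 (S v) := by
    intro v
    unfold bump
    refine max_le_max le_rfl ?_
    have : ‖S v‖ ^ 2 ≤ ‖(c • T) v‖ ^ 2 := by
      rw [hS1, LinearMap.smul_apply, norm_smul, mul_pow, hT1, Real.norm_eq_abs, sq_abs]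
      exact h v
    simp only [sub_zero, one_pow, div_one]
    linarith
  have h1 : ∫ v, bump (1 : ℝ) 0 ((c • T) v) ∂vol ≤ ∫ v, bump (1 : ℝ) 0 (S v) ∂vol := by
    refine integral_mono_of_nonneg (Filter.Eventually.of_forall fun v => bump_nonneg _ _ _) i1
      (Filter.Eventually.of_forall hle)
  rw [int_bump_comp vol hd, int_bump_comp vol hS2] at h1
  rw [← hS3, ← hT3, ← hdet]
  have h2 : (LinearMap.det (c • T))⁻¹ ≤ (LinearMap.det S)⁻¹ := le_of_mul_le_mul_right h1 hm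
  exact (inv_le_inv₀ hd hS2).1 h2

include vol in
theorem sqrt_det_le_two {G : F →L[ℝ] F} (hGs : ∀ u v, inner ℝ (G u) v = inner ℝ u (G v))
    (hGp : ∀ v, (1 / 2) * ‖v‖ ^ 2 ≤ inner ℝ (G v) v) (hG : ‖G‖ ≤ 2) :
    √(LinearMap.det (G : F →ₗ[ℝ] F)) ≤ 2 ^ (Module.finrank ℝ F) := by
  have h := sqrt_det_le vol (G := G) (H := ContinuousLinearMap.id ℝ F) hGs hGp
    (fun u v => rfl) (fun v => by
      rw [ContinuousLinearMap.id_apply, real_inner_self_eq_norm_sq]
      nlinarith [sq_nonneg ‖v‖]) (c := 2) two_pos (fun v => by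
      rw [ContinuousLinearMap.id_apply, real_inner_self_eq_norm_sq]
      have h1 : inner ℝ (G v) v ≤ ‖G v‖ * ‖v‖ := real_inner_le_norm _ _
      have h2 : ‖G v‖ ≤ 2 * ‖v‖ := (G.le_opNorm v).trans (by gcongr)
      nlinarith [norm_nonneg v, norm_nonneg (G v)])
  simpa using h

include vol in
/-- the square root of the determinant is Lipschitz -/
theorem sqrt_det_sub_le {G H : F →L[ℝ] F} (hGs : ∀ u v, inner ℝ (G u) v = inner ℝ u (G v))
    (hGp : ∀ v, (1 / 2) * ‖v‖ ^ 2 ≤ inner ℝ (G v) v)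
    (hHs : ∀ u v, inner ℝ (H u) v = inner ℝ u (H v))
    (hHp : ∀ v, (1 / 2) * ‖v‖ ^ 2 ≤ inner ℝ (H v) v) (hH : ‖H‖ ≤ 2) {δ : ℝ} (hδ : δ ≤ 2)
    (h : ‖G - H‖ ≤ δ) :
    √(LinearMap.det (G : F →ₗ[ℝ] F)) - √(LinearMap.det (H : F →ₗ[ℝ] F)) ≤
      2 * δ * 12 ^ (Module.finrank ℝ F) := by
  have hδ0 : 0 ≤ δ := (norm_nonneg _).trans h
  have hm : ∀ m : ℕ, (1 + 2 * δ) ^ m ≤ 1 + 2 * δ * 6 ^ m := by
    intro m
    induction m with
    | zero => simp; linarith
    | succ k ih =>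
      have h6 : (1 : ℝ) ≤ 6 ^ k := one_le_pow₀ (by norm_num)
      calc (1 + 2 * δ) ^ (k + 1) = (1 + 2 * δ) ^ k * (1 + 2 * δ) := pow_succ _ _
        _ ≤ (1 + 2 * δ * 6 ^ k) * (1 + 2 * δ) := by gcongr
        _ ≤ 1 + 2 * δ * 6 ^ (k + 1) := by
          rw [pow_succ (6 : ℝ) k]
          nlinarith [mul_nonneg hδ0 (sub_nonneg.2 h6), mul_nonneg (mul_nonneg hδ0 (by positivity : (0:ℝ) ≤ 6 ^ k)) (by linarith : 0 ≤ 2 - δ)]
  have h1 : ∀ v, inner ℝ (G v) v ≤ (1 + 2 * δ) ^ 2 * inner ℝ (H v) v := by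
    intro v
    have e1 : inner ℝ (G v) v = inner ℝ (H v) v + inner ℝ ((G - H) v) v := by
      rw [_root_.sub_apply, inner_sub_left]
      ring
    have e2 : inner ℝ ((G - H) v) v ≤ δ * ‖v‖ ^ 2 := by
      have a1 : inner ℝ ((G - H) v) v ≤ ‖(G - H) v‖ * ‖v‖ := real_inner_le_norm _ _
      have a2 : ‖(G - H) v‖ ≤ δ * ‖v‖ := ((G - H).le_opNorm v).trans (by gcongr)
      nlinarith [norm_nonneg v]
    have e3 := hHp v
    have e4 : 0 ≤ inner ℝ (H v) v := le_trans (by positivity) e3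
    nlinarith [mul_nonneg hδ0 e4, mul_nonneg (mul_nonneg hδ0 hδ0) e4]
  have h2 := sqrt_det_le vol hGs hGp hHs hHp (c := 1 + 2 * δ) (by linarith) h1
  have h3 := sqrt_det_le_two vol hHs hHp hH
  have h4 := hm (Module.finrank ℝ F)
  have h5 := (sqrt_det_pos hHs hHp).le
  have e12 : (12 : ℝ) ^ (Module.finrank ℝ F) = 6 ^ (Module.finrank ℝ F) * 2 ^ (Module.finrank ℝ F) := by
    rw [← mul_pow]
    norm_num
  rw [e12]
  calc √(LinearMap.det (G : F →ₗ[ℝ] F)) - √(LinearMap.det (H : F →ₗ[ℝ] F))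
      ≤ ((1 + 2 * δ) ^ (Module.finrank ℝ F) - 1) * √(LinearMap.det (H : F →ₗ[ℝ] F)) := by linarith
    _ ≤ (2 * δ * 6 ^ (Module.finrank ℝ F)) * 2 ^ (Module.finrank ℝ F) := by
        have : (1 + 2 * δ) ^ (Module.finrank ℝ F) - 1 ≤ 2 * δ * 6 ^ (Module.finrank ℝ F) := by
          linarith
        exact mul_le_mul this h3 h5 (by positivity)
    _ = _ := by ring

/-- the constant -/
noncomputable def CK (m : ℕ) : ℝ := 16 * 48 ^ m

theorem CK_pos (m : ℕ) : 0 < CK m := by unfold CK; positivity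

/-- **node F3-KERN** with an explicit constant -/
theorem kern {g : F → F →L[ℝ] F} (hs : ∀ x u v, inner ℝ (g x u) v = inner ℝ u (g x v))
    (hp : ∀ x v, (1 / 2) * ‖v‖ ^ 2 ≤ inner ℝ (g x v) v) (hb : ∀ x, ‖g x‖ ≤ 2) {lg : ℝ}
    (hlg : ∀ x y, ‖g x - g y‖ ≤ lg * ‖x - y‖) (h0 : 0 ≤ lg) (h1 : lg ≤ 1) {ρ : ℝ} (hρ : 0 < ρ)
    (hρ1 : ρ ≤ 1) (R : ℝ) :
    Kern vol (fun x y => max 0 (1 - inner ℝ (g x (y - x)) (y - x) / ρ ^ 2))
      (fun x => √(LinearMap.det (g x : F →ₗ[ℝ] F)) / mass vol ρ) ρ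
      (CK (Module.finrank ℝ F) * lg * ρ) (CK (Module.finrank ℝ F) / mass vol ρ) R := by
  have hgc : Continuous g := by
    have : LipschitzWith ⟨lg, h0⟩ g := LipschitzWith.of_dist_le_mul fun x y => by
      rw [dist_eq_norm, dist_eq_norm]
      exact hlg x y
    exact this.continuous
  have hM := mass_pos vol hρ
  set m := Module.finrank ℝ F with hm
  have hcont : Continuous (uncurry fun x y : F => max 0 (1 - inner ℝ (g x (y - x)) (y - x) / ρ ^ 2)) := by
    have hc1 : Continuous fun p : F × F => g p.1 (p.2 - p.1) :=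
      (hgc.comp continuous_fst).clm_apply (continuous_snd.sub continuous_fst)
    exact continuous_const.max (continuous_const.sub
      ((hc1.inner (continuous_snd.sub continuous_fst)).div_const _))
  have hwc : Continuous fun x => √(LinearMap.det (g x : F →ₗ[ℝ] F)) / mass vol ρ :=
    (Real.continuous_sqrt.comp (ContinuousLinearMap.continuous_det.comp hgc)).div_const _
  have hw2 : ∀ x, √(LinearMap.det (g x : F →ₗ[ℝ] F)) ≤ 2 ^ m := fun x =>
    sqrt_det_le_two vol (hs x) (hp x) (hb x)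
  have h2CK : (2 : ℝ) ^ m ≤ CK m := by
    unfold CK
    have : (2 : ℝ) ^ m ≤ 48 ^ m := pow_le_pow_left₀ (by norm_num) (by norm_num) m
    have h48 : (0 : ℝ) < 48 ^ m := by positivity
    linarith
  refine ⟨hcont.measurable, fun x y => le_max_left _ _, fun x y => eb_le_one (hp x) ρ (y - x),
    fun x y hxy => eb_eq_zero (hp x) hρ hxy, hwc.measurable, fun x => by positivity, fun x => ?_,
    fun y _ => ?_⟩
  · gcongr
    exact (hw2 x).trans h2CK
  · -- the mass
    change |∫ x, √(LinearMap.det (g x : F →ₗ[ℝ] F)) / mass vol ρ * eb (g x) ρ (y - x) ∂vol - 1| ≤ _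
    have hone : ∫ x, √(LinearMap.det (g y : F →ₗ[ℝ] F)) / mass vol ρ * eb (g y) ρ (y - x) ∂vol = 1 := by
      rw [integral_const_mul, integral_sub_left_eq_self (fun v => eb (g y) ρ v) vol y,
        div_mul_eq_mul_div, sqrt_det_mul_int vol (hs y) (hp y), div_self hM.ne']
    set K : ℝ := 12 * 12 ^ m * lg * ρ with hK
    have hK0 : 0 ≤ K := by positivity
    have hpt : ∀ x, |√(LinearMap.det (g x : F →ₗ[ℝ] F)) / mass vol ρ * eb (g x) ρ (y - x) -
        √(LinearMap.det (g y : F →ₗ[ℝ] F)) / mass vol ρ * eb (g y) ρ (y - x)| ≤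
        indicator (closedBall y (2 * ρ)) (fun _ => K / mass vol ρ) x := by
      intro x
      by_cases hx : x ∈ closedBall y (2 * ρ)
      · rw [indicator_of_mem hx]
        rw [mem_closedBall, dist_eq_norm] at hx
        have hδ1 : ‖g x - g y‖ ≤ 2 * lg * ρ := (hlg x y).trans (by nlinarith)
        have hδ2 : ‖g y - g x‖ ≤ 2 * lg * ρ := by rwa [norm_sub_rev]
        have hle2 : 2 * lg * ρ ≤ 2 := by nlinarith
        have d1 := sqrt_det_sub_le vol (hs x) (hp x) (hs y) (hp y) (hb y) hle2 hδ1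
        have d2 := sqrt_det_sub_le vol (hs y) (hp y) (hs x) (hp x) (hb x) hle2 hδ2
        set a := √(LinearMap.det (g x : F →ₗ[ℝ] F)) with ha
        set b := √(LinearMap.det (g y : F →ₗ[ℝ] F)) with hb'
        have ha0 : 0 ≤ a := Real.sqrt_nonneg _
        have dab : |a - b| ≤ 4 * lg * ρ * 12 ^ m := by
          rw [abs_le]
          constructor <;> linarith
        have dβ : |eb (g x) ρ (y - x) - eb (g y) ρ (y - x)| ≤ 8 * lg * ρ := by
          unfold eb
          rw [max_comm 0 (1 - inner ℝ (g x (y - x)) (y - x) / ρ ^ 2),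
            max_comm 0 (1 - inner ℝ (g y (y - x)) (y - x) / ρ ^ 2)]
          refine (abs_max_sub_max_le_abs _ _ _).trans ?_
          have e1 : (1 - inner ℝ (g x (y - x)) (y - x) / ρ ^ 2) -
              (1 - inner ℝ (g y (y - x)) (y - x) / ρ ^ 2) =
              inner ℝ ((g y - g x) (y - x)) (y - x) / ρ ^ 2 := by
            rw [_root_.sub_apply, inner_sub_left]
            ring
          rw [e1, abs_div, abs_of_pos (by positivity : (0 : ℝ) < ρ ^ 2), div_le_iff₀ (by positivity)]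
          have a1 : |inner ℝ ((g y - g x) (y - x)) (y - x)| ≤ ‖(g y - g x) (y - x)‖ * ‖y - x‖ :=
            abs_real_inner_le_norm _ _
          have a2 : ‖(g y - g x) (y - x)‖ ≤ 2 * lg * ρ * ‖y - x‖ :=
            ((g y - g x).le_opNorm _).trans (by gcongr)
          have a3 : ‖y - x‖ ≤ 2 * ρ := by rwa [norm_sub_rev]
          calc |inner ℝ ((g y - g x) (y - x)) (y - x)| ≤ ‖(g y - g x) (y - x)‖ * ‖y - x‖ := a1
            _ ≤ (2 * lg * ρ * ‖y - x‖) * ‖y - x‖ := by gcongr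
            _ ≤ (2 * lg * ρ * (2 * ρ)) * (2 * ρ) := by gcongr
            _ = 8 * lg * ρ * ρ ^ 2 := by ring
        have hy1 : eb (g y) ρ (y - x) ≤ 1 := eb_le_one (hp y) ρ _
        have hy0 : 0 ≤ eb (g y) ρ (y - x) := eb_nonneg _ _ _
        have e2 : a / mass vol ρ * eb (g x) ρ (y - x) - b / mass vol ρ * eb (g y) ρ (y - x) =
            (a * (eb (g x) ρ (y - x) - eb (g y) ρ (y - x)) + (a - b) * eb (g y) ρ (y - x)) /
              mass vol ρ := by
          field_simp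
          ring
        rw [e2, abs_div, abs_of_pos hM]
        gcongr
        refine (abs_add_le _ _).trans ?_
        rw [abs_mul, abs_mul, abs_of_nonneg ha0, abs_of_nonneg hy0]
        have ha2 : a ≤ 2 ^ m := hw2 x
        have h212 : (2 : ℝ) ^ m ≤ 12 ^ m := pow_le_pow_left₀ (by norm_num) (by norm_num) m
        calc a * |eb (g x) ρ (y - x) - eb (g y) ρ (y - x)| + |a - b| * eb (g y) ρ (y - x)
            ≤ 12 ^ m * (8 * lg * ρ) + (4 * lg * ρ * 12 ^ m) * 1 := by
              gcongr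
              exact ha2.trans h212
          _ = K := by rw [hK]; ring
      · rw [indicator_of_notMem hx]
        rw [mem_closedBall, dist_eq_norm, not_le, norm_sub_rev] at hx
        rw [eb_eq_zero (hp x) hρ hx, eb_eq_zero (hp y) hρ hx]
        simp
    have hind : Integrable (indicator (closedBall y (2 * ρ)) fun _ => K / mass vol ρ) vol := by
      refine (integrable_indicator_iff measurableSet_closedBall).2 ?_
      exact integrableOn_const (measure_closedBall_lt_top.ne)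
    have hi2 : Integrable (fun x => √(LinearMap.det (g y : F →ₗ[ℝ] F)) / mass vol ρ *
        eb (g y) ρ (y - x)) vol :=
      ((integrable_eb vol (hp y) hρ).comp_sub_left y).const_mul _
    have hcx : Continuous fun x => √(LinearMap.det (g x : F →ₗ[ℝ] F)) / mass vol ρ *
        eb (g x) ρ (y - x) := by
      have := hcont.comp (continuous_id.prodMk (continuous_const (y := y)))
      exact hwc.mul this
    have hi12 : Integrable (fun x => √(LinearMap.det (g x : F →ₗ[ℝ] F)) / mass vol ρ *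
        eb (g x) ρ (y - x) - √(LinearMap.det (g y : F →ₗ[ℝ] F)) / mass vol ρ *
        eb (g y) ρ (y - x)) vol := by
      refine Integrable.mono' hind (hcx.aestronglyMeasurable.sub hi2.aestronglyMeasurable) ?_
      exact Filter.Eventually.of_forall fun x => hpt x
    have hi1 : Integrable (fun x => √(LinearMap.det (g x : F →ₗ[ℝ] F)) / mass vol ρ *
        eb (g x) ρ (y - x)) vol := by
      refine (hi12.add hi2).congr (Filter.Eventually.of_forall fun x => ?_)
      simp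
    have hval : vol.real (closedBall y (2 * ρ)) = vol.real (closedBall (0 : F) (2 * ρ)) := by
      unfold Measure.real
      rw [Measure.addHaar_closedBall_center]
    calc |∫ x, √(LinearMap.det (g x : F →ₗ[ℝ] F)) / mass vol ρ * eb (g x) ρ (y - x) ∂vol - 1|
        = ‖∫ x, (√(LinearMap.det (g x : F →ₗ[ℝ] F)) / mass vol ρ * eb (g x) ρ (y - x) -
            √(LinearMap.det (g y : F →ₗ[ℝ] F)) / mass vol ρ * eb (g y) ρ (y - x)) ∂vol‖ := by
          rw [integral_sub hi1 hi2, hone, Real.norm_eq_abs]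
      _ ≤ ∫ x, indicator (closedBall y (2 * ρ)) (fun _ => K / mass vol ρ) x ∂vol :=
          norm_integral_le_of_norm_le hind (Filter.Eventually.of_forall fun x => hpt x)
      _ = vol.real (closedBall (0 : F) (2 * ρ)) * (K / mass vol ρ) := by
          rw [integral_indicator measurableSet_closedBall, setIntegral_const, smul_eq_mul, hval]
      _ ≤ (4 / 3 * 4 ^ m * mass vol ρ) * (K / mass vol ρ) := by
          gcongr
          exact vol_le_mass vol hρ
      _ = CK m * lg * ρ := by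
          have e48 : (48 : ℝ) ^ m = 12 ^ m * 4 ^ m := by
            rw [← mul_pow]
            norm_num
          rw [hK]
          unfold CK
          rw [e48]
          field_simp
          ring

/-- **node F3-KERN**, literal form -/
theorem exists_kern : ∃ C : ℝ, 0 < C ∧ ∀ g : F → F →L[ℝ] F,
    (∀ x u v, inner ℝ (g x u) v = inner ℝ u (g x v)) →
    (∀ x v, (1 / 2) * ‖v‖ ^ 2 ≤ inner ℝ (g x v) v) → (∀ x, ‖g x‖ ≤ 2) → ∀ lg : ℝ,
    (∀ x y, ‖g x - g y‖ ≤ lg * ‖x - y‖) → 0 ≤ lg → lg ≤ 1 → ∀ ρ : ℝ, 0 < ρ → ρ ≤ 1 → ∀ R : ℝ,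
    Kern vol (fun x y => max 0 (1 - inner ℝ (g x (y - x)) (y - x) / ρ ^ 2))
      (fun x => √(LinearMap.det (g x : F →ₗ[ℝ] F)) / mass vol ρ) ρ (C * lg * ρ)
      (C / mass vol ρ) R :=
  ⟨CK (Module.finrank ℝ F), CK_pos _, fun _ hs hp hb _ hlg h0 h1 _ hρ hρ1 R =>
    kern vol hs hp hb hlg h0 h1 hρ hρ1 R⟩

end Crest.Agent.R234.Kern_567
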