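import Crest.Agent.R234.Gi3_456
import Crest.Agent.R234.GL6_394
import Crest.Agent.R234.GLK2_128
import Crest.Agent.R234.Kern_567

/-!
# Row 234, node GL-INST (helper456), file 4: the chart of a graph as `GL_394.Ch` data, `Ok`

Centre `X0 : Euc m`, linear normalisation `Lo q0`, `(Lo q0)ᵀ (Lo q0) = 1 + q0ᵀ q0`, `q0 = Dw(X0)`.
-/

set_option autoImplicit false

open MeasureTheory Filter Topology Set Function
open scoped ENNReal NNReal ContDiff InnerProductSpace
open Crest.GeometryTopology.Submanifold Crest.Agent.R234.Vf_884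
open Crest.Agent.R234.Main_456
open Crest.Agent.R234.Ell1_3 (adjL ginv gop dns dns_pos dns_contDiff ginv_contDiff)
open Crest.Agent.R234.GLK_128 (A0 AA BB gg hh Fr Inv exists_Inv exists_inv_of_le norm_adj NN)

noncomputable section

namespace Crest.Agent.R234.Gi_456

variable {m n k : ℕ}

local notation "adj" => ContinuousLinearMap.adjoint

/-! ### the linear normalisation -/

theorem exists_Lo (q : Euc m →L[ℝ] Euc n) :
    ∃ S : L m, adj S ∘L S = gg q ∧ 0 < S.det ∧ S.det = dns q := by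
  have hs : ∀ u v : Euc m, inner ℝ (gg q u) v = inner ℝ u (gg q v) := by
    intro u v
    nth_rewrite 1 [← GLK_128.gg_adj q]
    rw [ContinuousLinearMap.adjoint_inner_left]
  have hp : ∀ v : Euc m, (1 / 2) * ‖v‖ ^ 2 ≤ inner ℝ (gg q v) v := by
    intro v
    rw [GLK_128.gg_inner]
    nlinarith [sq_nonneg ‖v‖, sq_nonneg ‖q v‖]
  obtain ⟨S, h1, h2, h3⟩ := Kern_567.exists_sqrt hs hp
  refine ⟨LinearMap.toContinuousLinearMap S, ?_, h2, ?_⟩
  · set T : L m := adj (LinearMap.toContinuousLinearMap S) ∘L LinearMap.toContinuousLinearMap S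
      with hT
    have hsym : ((T - gg q : L m) : Euc m →ₗ[ℝ] Euc m).IsSymmetric := by
      intro u v
      show ⟪(T - gg q) u, v⟫_ℝ = ⟪u, (T - gg q) v⟫_ℝ
      rw [_root_.sub_apply, _root_.sub_apply, inner_sub_left, inner_sub_right, hs]
      congr 1
      rw [hT, ContinuousLinearMap.comp_apply, ContinuousLinearMap.comp_apply,
        ContinuousLinearMap.adjoint_inner_left, ContinuousLinearMap.adjoint_inner_right]
    have h0 : ((T - gg q : L m) : Euc m →ₗ[ℝ] Euc m) = 0 := by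
      rw [← hsym.inner_map_self_eq_zero]
      intro v
      show ⟪(T - gg q) v, v⟫_ℝ = 0
      rw [_root_.sub_apply, inner_sub_left, hT, ContinuousLinearMap.comp_apply,
        ContinuousLinearMap.adjoint_inner_left, real_inner_self_eq_norm_sq]
      have := h1 v
      have e : (LinearMap.toContinuousLinearMap S) v = S v := rfl
      rw [e, this, sub_self]
    have h4 : T - gg q = 0 := by
      ext1 v
      exact congrArg (fun T : Euc m →ₗ[ℝ] Euc m => T v) h0
    exact sub_eq_zero.1 h4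
  · exact h3

/-- linear normalisation at the centre -/
def Lo (q : Euc m →L[ℝ] Euc n) : L m := (exists_Lo q).choose

theorem adj_Lo_Lo (q : Euc m →L[ℝ] Euc n) : adj (Lo q) ∘L Lo q = gg q := (exists_Lo q).choose_spec.1

theorem det_Lo_pos (q : Euc m →L[ℝ] Euc n) : 0 < (Lo q).det := (exists_Lo q).choose_spec.2.1

theorem det_Lo (q : Euc m →L[ℝ] Euc n) : (Lo q).det = dns q := (exists_Lo q).choose_spec.2.2

theorem norm_Lo_sq (q : Euc m →L[ℝ] Euc n) (v : Euc m) : ‖Lo q v‖ ^ 2 = ‖v‖ ^ 2 + ‖q v‖ ^ 2 := by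
  rw [← GLK_128.gg_inner, ← adj_Lo_Lo q, ContinuousLinearMap.comp_apply,
    ContinuousLinearMap.adjoint_inner_left, real_inner_self_eq_norm_sq]

theorem le_norm_Lo (q : Euc m →L[ℝ] Euc n) (v : Euc m) : ‖v‖ ≤ ‖Lo q v‖ := by
  have := norm_Lo_sq q v
  refine abs_le_of_sq_le_sq' ?_ (norm_nonneg _) |>.2
  nlinarith [sq_nonneg ‖q v‖]

/-- the inverse of the normalisation -/
def Loi (q : Euc m →L[ℝ] Euc n) : L m := Ring.inverse (Lo q)

theorem Loi_spec (q : Euc m →L[ℝ] Euc n) :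
    Loi q ∘L Lo q = ContinuousLinearMap.id ℝ (Euc m) ∧
      Lo q ∘L Loi q = ContinuousLinearMap.id ℝ (Euc m) ∧ ‖Loi q‖ ≤ 1 := by
  obtain ⟨X, h1, h2, h3⟩ := exists_inv_of_le (T := Lo q) one_pos (fun v => by
    rw [one_mul]; exact le_norm_Lo q v)
  have h4 : Loi q = X := ring_inverse_eq h1 h2
  rw [h4]
  exact ⟨h1, h2, by simpa using h3⟩

theorem Loi_Lo (q : Euc m →L[ℝ] Euc n) (v : Euc m) : Loi q (Lo q v) = v :=
  congrArg (fun T : L m => T v) (Loi_spec q).1

theorem Lo_Loi (q : Euc m →L[ℝ] Euc n) (v : Euc m) : Lo q (Loi q v) = v :=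
  congrArg (fun T : L m => T v) (Loi_spec q).2.1

theorem norm_Lo_le {q : Euc m →L[ℝ] Euc n} (hq : ‖q‖ ≤ 1 / 8) (v : Euc m) :
    ‖Lo q v‖ ≤ 65 / 64 * ‖v‖ := by
  have h1 := norm_Lo_sq q v
  have h2 : ‖q v‖ ≤ 1 / 8 * ‖v‖ := (q.le_opNorm v).trans (by gcongr)
  refine abs_le_of_sq_le_sq' ?_ (by positivity) |>.2
  have := norm_nonneg (q v)
  nlinarith [norm_nonneg v]

/-! ### base data -/

/-- base point of the normalised coordinate -/
def pt (w : Euc m → Euc n) (X0 : Euc m) (v : Euc m) : Euc m := X0 + Loi (fderiv ℝ w X0) v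

def giB (w : Euc m → Euc n) (X0 : Euc m) (v : Euc m) : L m :=
  Lo (fderiv ℝ w X0) ∘L ginv (fderiv ℝ w (pt w X0 v)) ∘L adj (Lo (fderiv ℝ w X0))

def jB (w : Euc m → Euc n) (X0 : Euc m) (v : Euc m) : ℝ :=
  dns (fderiv ℝ w (pt w X0 v)) / (Lo (fderiv ℝ w X0)).det

def lamB (w : Euc m → Euc n) (X0 : Euc m) (v : Euc m) : Euc m :=
  (InnerProductSpace.toDual ℝ (Euc m)).symm ((jB w X0 v)⁻¹ • fderiv ℝ (jB w X0) v)

/-- **the chart of a graph** -/
def ch (π : Euc k →L[ℝ] Euc m) (ρ : Euc k →L[ℝ] Euc n) (x : Euc k) (r : ℝ) (w : Euc m → Euc n)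
    (X0 : Euc m) : GL_394.Ch m k where
  x := fun z => Lo (fderiv ℝ w X0) (foot π ρ x r w z - X0)
  dx := fun z => Lo (fderiv ℝ w X0) ∘L dft π ρ x r w z
  f := fun z => ‖Bt π ρ w (foot π ρ x r w z) (yy π ρ x r w z)‖ ^ 2 / 2
  nu := fun z => Bt π ρ w (foot π ρ x r w z) (yy π ρ x r w z)
  H := fun z => ContinuousLinearMap.id ℝ (Euc k) - A0t π ρ w (foot π ρ x r w z) ∘L dft π ρ x r w z
  A := fun z => At π ρ w (foot π ρ x r w z) (yy π ρ x r w z) ∘L Loi (fderiv ℝ w X0)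
  dA := fderiv ℝ fun z => At π ρ w (foot π ρ x r w z) (yy π ρ x r w z) ∘L Loi (fderiv ℝ w X0)
  tau := fun z P => tr (NN (adj π) (adj ρ) (fderiv ℝ w (foot π ρ x r w z))
    (hinv (fderiv ℝ w (foot π ρ x r w z))) ∘L P)
  gi := giB w X0
  dgi := fderiv ℝ (giB w X0)
  j := jB w X0
  lam := lamB w X0
  mu := muG (giB w X0)
  be := beG (giB w X0)
  dbe := fderiv ℝ (beG (giB w X0))

variable {π : Euc k →L[ℝ] Euc m} {ρ : Euc k →L[ℝ] Euc n} {x : Euc k} {r : ℝ} {w : Euc m → Euc n}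
  {X0 : Euc m}

theorem three_le_top : (3 : WithTop ℕ∞) ≤ ((⊤ : ℕ∞) : WithTop ℕ∞) := by
  exact WithTop.coe_le_coe.2 (le_top : (3 : ℕ∞) ≤ ⊤)

theorem Gr.contDiff_pt (w : Euc m → Euc n) (X0 : Euc m) : ContDiff ℝ ∞ (pt w X0) :=
  contDiff_const.add (Loi (fderiv ℝ w X0)).contDiff

theorem Gr.contDiff_dwpt (h : Gr r w) (X0 : Euc m) : ContDiff ℝ 3 fun v => fderiv ℝ w (pt w X0 v) :=
  h.cd1.comp ((Gr.contDiff_pt w X0).of_le three_le_top)

theorem Gr.contDiff_gi (h : Gr r w) (X0 : Euc m) : ContDiff ℝ 3 (giB w X0) := by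
  have h1 : ContDiff ℝ 3 fun v => ginv (fderiv ℝ w (pt w X0 v)) :=
    (ginv_contDiff.of_le three_le_top).comp (h.contDiff_dwpt X0)
  exact contDiff_const.clm_comp (h1.clm_comp contDiff_const)

theorem Gr.contDiff_j (h : Gr r w) (X0 : Euc m) : ContDiff ℝ 3 (jB w X0) := by
  have h1 : ContDiff ℝ 3 fun v => dns (fderiv ℝ w (pt w X0 v)) :=
    (dns_contDiff.of_le three_le_top).comp (h.contDiff_dwpt X0)
  exact h1.div_const _

theorem jB_pos (w : Euc m → Euc n) (X0 v : Euc m) : 0 < jB w X0 v :=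
  div_pos (dns_pos _) (det_Lo_pos _)

theorem pt_zero (w : Euc m → Euc n) (X0 : Euc m) : pt w X0 0 = X0 := by simp [pt]

theorem jB_zero (w : Euc m → Euc n) (X0 : Euc m) : jB w X0 0 = 1 := by
  rw [jB, pt_zero, det_Lo, div_self (dns_pos _).ne']

theorem giB_zero (w : Euc m → Euc n) (X0 : Euc m) :
    giB w X0 0 = ContinuousLinearMap.id ℝ (Euc m) := by
  rw [giB, pt_zero]
  set q := fderiv ℝ w X0 with hq
  -- `L g⁻¹ Lᵀ = L g⁻¹ Lᵀ L L⁻¹ = L L⁻¹ = 1`
  have h1 : ginv q ∘L gg q = ContinuousLinearMap.id ℝ (Euc m) := Ell1_3.ginv_gop q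
  have h2 : adj (Lo q) = gg q ∘L Loi q := by
    rw [← adj_Lo_Lo q, ContinuousLinearMap.comp_assoc, (Loi_spec q).2.1,
      ContinuousLinearMap.comp_id]
  rw [h2, ← ContinuousLinearMap.comp_assoc (ginv q), h1, ContinuousLinearMap.id_comp]
  exact (Loi_spec q).2.1

theorem giB_pos (w : Euc m → Euc n) (X0 v u : Euc m) (hu : u ≠ 0) : 0 < ⟪u, giB w X0 v u⟫_ℝ := by
  set q := fderiv ℝ w (pt w X0 v) with hq
  set Lq := Lo (fderiv ℝ w X0) with hL
  set a := adj Lq u with ha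
  have ha0 : a ≠ 0 := by
    intro h0
    have h1 : ⟪u, u⟫_ℝ = 0 := by
      have h2 : ⟪u, Lq (Loi (fderiv ℝ w X0) u)⟫_ℝ = 0 := by
        rw [← ContinuousLinearMap.adjoint_inner_left, ← ha, h0, inner_zero_left]
      rwa [hL, Lo_Loi] at h2
    exact hu (inner_self_eq_zero.1 h1)
  have h1 : ⟪u, giB w X0 v u⟫_ℝ = ⟪a, ginv q a⟫_ℝ := by
    show ⟪u, Lq (ginv q (adj Lq u))⟫_ℝ = _
    rw [← ContinuousLinearMap.adjoint_inner_left, ← ha]
  rw [h1]
  set b := ginv q a with hb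
  have hab : gg q b = a := congrArg (fun T : L m => T a) (Ell1_3.gop_ginv q)
  have hb0 : b ≠ 0 := by
    intro h0
    rw [h0, map_zero] at hab
    exact ha0 hab.symm
  rw [← hab, GLK_128.gg_inner]
  have : 0 < ‖b‖ := norm_pos_iff.2 hb0
  positivity

/-! ### ambient data -/

theorem Gr.nu_eq (h : Gr r w) (hf : Frame π ρ) {z : Euc k} (hz : z ∈ tube π ρ x r w) :
    Bt π ρ w (foot π ρ x r w z) (yy π ρ x r w z) =
      z - (x + adj π (foot π ρ x r w z) + adj ρ (w (foot π ρ x r w z))) := by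
  have e := h.Phi_coord hf hz
  set X := foot π ρ x r w z with hX
  set Y := yy π ρ x r w z with hY
  have e2 : z - (x + adj π X + adj ρ (w X)) = Phi π ρ x w (X, Y) - (x + adj π X + adj ρ (w X)) := by
    rw [e]
  rw [e2]
  simp only [Bt, BB, Phi, _root_.sub_apply, ContinuousLinearMap.comp_apply, map_sub, map_add]
  abel

theorem Gr.hasFDerivAt_nu (h : Gr r w) (hf : Frame π ρ) {z : Euc k} (hz : z ∈ tube π ρ x r w) :
    HasFDerivAt (fun z => Bt π ρ w (foot π ρ x r w z) (yy π ρ x r w z))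
      (ContinuousLinearMap.id ℝ (Euc k) - A0t π ρ w (foot π ρ x r w z) ∘L dft π ρ x r w z) z := by
  have h1 := h.hasFDerivAt_foot hf hz
  have h2 : HasFDerivAt (fun z => w (foot π ρ x r w z))
      (fderiv ℝ w (foot π ρ x r w z) ∘L dft π ρ x r w z) z :=
    (h.differentiable _).hasFDerivAt.comp z h1
  have h3 : HasFDerivAt
      (fun z => z - (x + adj π (foot π ρ x r w z) + adj ρ (w (foot π ρ x r w z))))
      (ContinuousLinearMap.id ℝ (Euc k) - (0 + adj π ∘L dft π ρ x r w z +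
        adj ρ ∘L (fderiv ℝ w (foot π ρ x r w z) ∘L dft π ρ x r w z))) z :=
    (hasFDerivAt_id z).sub (((hasFDerivAt_const x z).add ((adj π).hasFDerivAt.comp z h1)).add
      ((adj ρ).hasFDerivAt.comp z h2))
  have h4 := h3.congr_of_eventuallyEq
    (f₁ := fun z => Bt π ρ w (foot π ρ x r w z) (yy π ρ x r w z)) (by
      filter_upwards [h.isOpen_tube.mem_nhds hz] with u hu
      exact h.nu_eq hf hu)
  refine h4.congr_fderiv (ContinuousLinearMap.ext fun v => ?_)
  simp [A0t, A0]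

theorem Gr.A0t_nu (hf : Frame π ρ) (X : Euc m) (Y : Euc n) :
    adj (A0t π ρ w X) (Bt π ρ w X Y) = 0 :=
  congrArg (fun T : Euc n →L[ℝ] Euc m => T Y)
    (GLK_128.A0_BB (q := fderiv ℝ w X) (frame_fr hf))

theorem Gr.hasFDerivAt_f (h : Gr r w) (hf : Frame π ρ) {z : Euc k} (hz : z ∈ tube π ρ x r w) :
    HasFDerivAt (fun z => ‖Bt π ρ w (foot π ρ x r w z) (yy π ρ x r w z)‖ ^ 2 / 2)
      (innerSL ℝ (Bt π ρ w (foot π ρ x r w z) (yy π ρ x r w z))) z := by
  have h1 := h.hasFDerivAt_nu hf hz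
  have h2 := h1.norm_sq
  have h3 := h2.const_mul (1 / 2 : ℝ)
  have h4 : (fun z => ‖Bt π ρ w (foot π ρ x r w z) (yy π ρ x r w z)‖ ^ 2 / 2) =
      fun z => 1 / 2 * ‖Bt π ρ w (foot π ρ x r w z) (yy π ρ x r w z)‖ ^ 2 := by
    funext z; ring
  rw [h4]
  refine h3.congr_fderiv (ContinuousLinearMap.ext fun v => ?_)
  set ν := Bt π ρ w (foot π ρ x r w z) (yy π ρ x r w z) with hν
  have h5 : ⟪ν, A0t π ρ w (foot π ρ x r w z) (dft π ρ x r w z v)⟫_ℝ = 0 := by
    rw [← ContinuousLinearMap.adjoint_inner_left, hν, Gr.A0t_nu hf, inner_zero_left]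
  simp only [_root_.smul_apply, ContinuousLinearMap.comp_apply, innerSL_apply_apply,
    _root_.sub_apply, ContinuousLinearMap.id_apply, inner_sub_right, h5, sub_zero, smul_eq_mul,
    nsmul_eq_mul]
  push_cast
  ring

theorem contDiff_adj {E : Type*} [NormedAddCommGroup E] [NormedSpace ℝ E] {N : WithTop ℕ∞}
    {f : E → (Euc m →L[ℝ] Euc n)} {z : E} (hf : ContDiffAt ℝ N f z) :
    ContDiffAt ℝ N (fun z => adj (f z)) z := (adjL (F := Euc m) (V := Euc n)).contDiff.contDiffAt.comp z hf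

theorem contDiffAt_flip {E : Type*} [NormedAddCommGroup E] [NormedSpace ℝ E] {N : WithTop ℕ∞}
    {f : E → (Euc m →L[ℝ] Euc n →L[ℝ] Euc m)} {z : E} (hf : ContDiffAt ℝ N f z) :
    ContDiffAt ℝ N (fun z => (f z).flip) z := by
  have h2 : ContDiffAt ℝ N (fun y : Euc m →L[ℝ] Euc n →L[ℝ] Euc m =>
      (ContinuousLinearMap.flipₗᵢ ℝ (Euc m) (Euc n)
        (Euc m)).toContinuousLinearEquiv.toContinuousLinearMap y) (f z) :=
    (ContinuousLinearMap.contDiff _).contDiffAt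
  exact h2.comp z hf

theorem Gr.contDiffAt_dw (h : Gr r w) (hf : Frame π ρ) {z : Euc k} (hz : z ∈ tube π ρ x r w) :
    ContDiffAt ℝ 3 (fun z => fderiv ℝ w (foot π ρ x r w z)) z :=
  h.cd1.contDiffAt.comp z (h.contDiffAt_foot hf hz)

theorem Gr.contDiffAt_A0t (h : Gr r w) (hf : Frame π ρ) {z : Euc k} (hz : z ∈ tube π ρ x r w) :
    ContDiffAt ℝ 3 (fun z => A0t π ρ w (foot π ρ x r w z)) z :=
  contDiffAt_const.add (contDiffAt_const.clm_comp (h.contDiffAt_dw hf hz))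

theorem Gr.contDiffAt_Bt (h : Gr r w) (hf : Frame π ρ) {z : Euc k} (hz : z ∈ tube π ρ x r w) :
    ContDiffAt ℝ 3 (fun z => Bt π ρ w (foot π ρ x r w z)) z :=
  contDiffAt_const.sub (contDiffAt_const.clm_comp (contDiff_adj (h.contDiffAt_dw hf hz)))

theorem Gr.contDiffAt_Yo (h : Gr r w) (hf : Frame π ρ) {z : Euc k} (hz : z ∈ tube π ρ x r w) :
    ContDiffAt ℝ 2 (fun z => Yo w (foot π ρ x r w z) (yy π ρ x r w z)) z := by
  have h0 : ContDiffAt ℝ 2 (foot π ρ x r w) z := (h.contDiffAt_foot hf hz).of_le (by norm_num)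
  have h0' : ContDiffAt ℝ 2 (yy π ρ x r w) z := (h.contDiffAt_yy hf hz).of_le (by norm_num)
  have h1 : ContDiffAt ℝ 2 (fun z => fderiv ℝ (fderiv ℝ w) (foot π ρ x r w z)) z :=
    h.cd2.contDiffAt.comp z h0
  have h2 : ContDiffAt ℝ 2 (fun z => (adjL (F := Euc m) (V := Euc n)) ∘L
      fderiv ℝ (fderiv ℝ w) (foot π ρ x r w z)) z := contDiffAt_const.clm_comp h1
  have h3 : ContDiffAt ℝ 2 (fun z => ((adjL (F := Euc m) (V := Euc n)) ∘L
      fderiv ℝ (fderiv ℝ w) (foot π ρ x r w z)).flip) z :=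
    contDiffAt_flip h2
  exact h3.clm_apply h0'

theorem Gr.contDiffAt_At (h : Gr r w) (hf : Frame π ρ) {z : Euc k} (hz : z ∈ tube π ρ x r w) :
    ContDiffAt ℝ 2 (fun z => At π ρ w (foot π ρ x r w z) (yy π ρ x r w z)) z :=
  (contDiffAt_const.add (contDiffAt_const.clm_comp
    ((h.contDiffAt_dw hf hz).of_le (by norm_num)))).sub
    (contDiffAt_const.clm_comp (h.contDiffAt_Yo hf hz))

theorem Gr.contDiffAt_A (h : Gr r w) (hf : Frame π ρ) (X0 : Euc m) {z : Euc k}
    (hz : z ∈ tube π ρ x r w) :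
    ContDiffAt ℝ 2 (fun z => At π ρ w (foot π ρ x r w z) (yy π ρ x r w z) ∘L
      Loi (fderiv ℝ w X0)) z :=
  (h.contDiffAt_At hf hz).clm_comp contDiffAt_const

theorem continuousAt_of_fderiv_eq {E E' : Type*} [NormedAddCommGroup E] [NormedSpace ℝ E]
    [NormedAddCommGroup E'] [NormedSpace ℝ E'] {f : E → E'} {f' : E → E →L[ℝ] E'} {z : E}
    {N : WithTop ℕ∞} (hN : N ≠ 0)
    (h1 : ContDiffAt ℝ N f z) (h2 : ∀ᶠ y in 𝓝 z, HasFDerivAt f (f' y) y) : ContinuousAt f' z := by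
  have h3 := h1.continuousAt_fderiv hN
  refine h3.congr ?_
  filter_upwards [h2] with y hy
  exact hy.fderiv

/-- **`Reg`** -/
theorem Gr.reg (h : Gr r w) (hf : Frame π ρ) (X0 : Euc m) :
    GL_394.Reg (ch π ρ x r w X0) (tube π ρ x r w) univ := by
  set K := tube π ρ x r w with hK
  have hKt : K ⊆ tube π ρ x r w := le_rfl
  have hev : ∀ z ∈ K, ∀ᶠ y in 𝓝 z, y ∈ tube π ρ x r w := fun z hz =>
    h.isOpen_tube.mem_nhds (hKt hz)
  have hx : ∀ z ∈ tube π ρ x r w, HasFDerivAt (ch π ρ x r w X0).x ((ch π ρ x r w X0).dx z) z :=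
    fun z hz => (Lo (fderiv ℝ w X0)).hasFDerivAt.comp z ((h.hasFDerivAt_foot hf hz).sub_const X0)
  have hG1 : ContDiff ℝ 1 (giB w X0) := (h.contDiff_gi X0).of_le (by norm_num)
  have hbe := contDiff_be hG1 (giB_zero w X0) (fun v u hu => giB_pos w X0 v u hu)
  refine
    { opnW := h.isOpen_tube, opn := isOpen_univ, mem := fun z _ => mem_univ _,
      hx := fun z hz => hx z (hKt hz)
      hf := fun z hz => h.hasFDerivAt_f hf (hKt hz)
      hnu := fun z hz => h.hasFDerivAt_nu hf (hKt hz)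
      hA := fun z hz => ((h.contDiffAt_A hf X0 (hKt hz)).differentiableAt (by norm_num)).hasFDerivAt
      cdx := ?_, cH := ?_, cdA := ?_, ctau := ?_, dxA := ?_, dxnu := ?_, nusq := ?_
      hgi := fun v _ => (((h.contDiff_gi X0).differentiable (by norm_num)) v).hasFDerivAt
      cdgi := ((h.contDiff_gi X0).continuous_fderiv (by norm_num)).continuousOn
      hj := ?_, clam := ?_
      cmu := (continuous_muG hG1 (giB_zero w X0)).continuousOn
      mupos := fun v _ => muG_pos (fun v u hu => giB_pos w X0 v u hu) v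
      hmu := fun v _ => muG_mul v
      hbe := fun v _ => rfl
      hdbe := fun v _ => ((hbe.differentiable one_ne_zero) v).hasFDerivAt
      cdbe := (hbe.continuous_fderiv one_ne_zero).continuousOn }
  · intro z hz
    refine (continuousAt_of_fderiv_eq (f := (ch π ρ x r w X0).x) (N := 3) (by norm_num) ?_
      ?_).continuousWithinAt
    · exact (Lo (fderiv ℝ w X0)).contDiff.contDiffAt.comp z
        ((h.contDiffAt_foot hf (hKt hz)).sub contDiffAt_const)
    · filter_upwards [hev z hz] with y hy using hx y hy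
  · intro z hz
    refine (continuousAt_of_fderiv_eq (N := 3) (by norm_num)
      ((h.contDiffAt_Bt hf (hKt hz)).clm_apply (h.contDiffAt_yy hf (hKt hz))) ?_).continuousWithinAt
    filter_upwards [hev z hz] with y hy using h.hasFDerivAt_nu hf hy
  · intro z hz
    exact ((h.contDiffAt_A hf X0 (hKt hz)).continuousAt_fderiv (by norm_num)).continuousWithinAt
  · -- tilt coefficient
    have h1 : ContinuousOn (fun z => NN (adj π) (adj ρ) (fderiv ℝ w (foot π ρ x r w z))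
        (hinv (fderiv ℝ w (foot π ρ x r w z)))) K := by
      intro z hz
      have hz' := hKt hz
      -- NN = 1 - A0 ginv A0ᵀ
      have e : ∀ y ∈ tube π ρ x r w, NN (adj π) (adj ρ) (fderiv ℝ w (foot π ρ x r w y))
          (hinv (fderiv ℝ w (foot π ρ x r w y))) = ContinuousLinearMap.id ℝ (Euc k) -
          A0t π ρ w (foot π ρ x r w y) ∘L ginv (fderiv ℝ w (foot π ρ x r w y)) ∘L
            adj (A0t π ρ w (foot π ρ x r w y)) := by
        intro y hy
        have H := h.inv (foot π ρ x r w y) (Y := yy π ρ x r w y) (h.norm_yy_lt hy).le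
        have := GLK_128.NN_add_TT (i := adj π) (j := adj ρ) (frame_fr hf) H
        rw [← this]
        simp only [GLK_128.TT, A0t]
        abel
      have c1 : ContDiffAt ℝ 3 (fun y => A0t π ρ w (foot π ρ x r w y) ∘L
          ginv (fderiv ℝ w (foot π ρ x r w y)) ∘L adj (A0t π ρ w (foot π ρ x r w y))) z :=
        (h.contDiffAt_A0t hf hz').clm_comp
          (((ginv_contDiff.of_le three_le_top).contDiffAt.comp z
            (h.contDiffAt_dw hf hz')).clm_comp (contDiff_adj (h.contDiffAt_A0t hf hz')))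
      have c2 : ContinuousAt (fun y => ContinuousLinearMap.id ℝ (Euc k) -
          A0t π ρ w (foot π ρ x r w y) ∘L ginv (fderiv ℝ w (foot π ρ x r w y)) ∘L
            adj (A0t π ρ w (foot π ρ x r w y))) z := continuousAt_const.sub c1.continuousAt
      refine (c2.congr ?_).continuousWithinAt
      filter_upwards [hev z hz] with y hy using (e y hy).symm
    have h2 : ContinuousOn (fun p : Euc k × L k => NN (adj π) (adj ρ)
        (fderiv ℝ w (foot π ρ x r w p.1)) (hinv (fderiv ℝ w (foot π ρ x r w p.1))) ∘L p.2)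
        (K ×ˢ G m k) :=
      (h1.comp continuousOn_fst (fun p hp => hp.1)).clm_comp continuousOn_snd
    exact (Vf_884.tr (k := k)).continuous.comp_continuousOn h2
  · intro z hz
    have h1 := dfx_A h hf (foot π ρ x r w z) (Y := yy π ρ x r w z) (h.norm_yy_lt (hKt hz)).le
    show (Lo (fderiv ℝ w X0) ∘L dft π ρ x r w z) ∘L
      (At π ρ w (foot π ρ x r w z) (yy π ρ x r w z) ∘L Loi (fderiv ℝ w X0)) = _
    have h2 : (Lo (fderiv ℝ w X0) ∘L dft π ρ x r w z) ∘L
      (At π ρ w (foot π ρ x r w z) (yy π ρ x r w z) ∘L Loi (fderiv ℝ w X0)) =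
      Lo (fderiv ℝ w X0) ∘L ((Li w (foot π ρ x r w z) (yy π ρ x r w z) ∘L
        adj (A0t π ρ w (foot π ρ x r w z))) ∘L At π ρ w (foot π ρ x r w z) (yy π ρ x r w z)) ∘L
        Loi (fderiv ℝ w X0) := rfl
    rw [h2, h1, ContinuousLinearMap.id_comp]
    exact (Loi_spec _).2.1
  · intro z hz
    have h1 := congrArg (fun T : Euc n →L[ℝ] Euc m => T (yy π ρ x r w z))
      (dfx_B h hf (foot π ρ x r w z) (yy π ρ x r w z))
    show Lo (fderiv ℝ w X0) (dft π ρ x r w z
      (Bt π ρ w (foot π ρ x r w z) (yy π ρ x r w z))) = 0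
    have h2 : dft π ρ x r w z (Bt π ρ w (foot π ρ x r w z) (yy π ρ x r w z)) = 0 := h1
    rw [h2, map_zero]
  · intro z hz
    show ‖Bt π ρ w (foot π ρ x r w z) (yy π ρ x r w z)‖ ^ 2 =
      2 * (‖Bt π ρ w (foot π ρ x r w z) (yy π ρ x r w z)‖ ^ 2 / 2)
    ring
  · intro v _
    refine (((h.contDiff_j X0).differentiable (by norm_num)) v).hasFDerivAt.congr_fderiv ?_
    ext1 u
    show fderiv ℝ (jB w X0) v u = jB w X0 v * ⟪lamB w X0 v, u⟫_ℝ
    rw [lamB, ← InnerProductSpace.toDual_apply_apply (𝕜 := ℝ), LinearIsometryEquiv.apply_symm_apply,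
      _root_.smul_apply, smul_eq_mul, ← mul_assoc, mul_inv_cancel₀ (jB_pos w X0 v).ne', one_mul]
  · have h1 : Continuous fun v => (jB w X0 v)⁻¹ • fderiv ℝ (jB w X0) v :=
      (((h.contDiff_j X0).continuous).inv₀ (fun v => (jB_pos w X0 v).ne')).smul
        ((h.contDiff_j X0).continuous_fderiv (by norm_num))
    exact ((InnerProductSpace.toDual ℝ (Euc m)).symm.continuous.comp h1).continuousOn

/-- **`Ok`** -/
theorem Gr.ok (h : Gr r w) (hf : Frame π ρ) (X0 : Euc m) {K : Set (Euc k)} (hK : IsCompact K)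
    (hKt : K ⊆ tube π ρ x r w) : GL_394.Ok (ch π ρ x r w X0) K univ :=
  (h.reg hf X0).ok hK hKt

end Crest.Agent.R234.Gi_456
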