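import Crest.Agent.R234.Foot1_842
import Crest.Agent.R234.Gi4_456
import Crest.Agent.R234.GL6_394
import Crest.Agent.R234.Vf6_884

/-!
# Row 234 (helper433), F3: the general literal statement `F3P` and the smoothing input `SmP`

`F3P` : chart `ch π ρ x S w X0` of any size `S > s`, `w` of class `C⁵` (bounded), smooth on the ball
where it is minimal.
-/

set_option autoImplicit false

open MeasureTheory Filter Topology Set Metric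
open scoped ENNReal NNReal ContDiff InnerProductSpace
open Crest.GeometryTopology.Submanifold Crest.Agent.R234.Vf_884

noncomputable section

namespace Crest.Agent.R234.F3d_433

open Crest.Agent.R234.Main_456 (Frame Msys)
open Crest.Agent.R234.Gi_456 (Gr tube ch)
open Crest.Agent.R234.GL_394 (VK bb Loc)

/-- **smoothing outside a ball** -/
def SmP (m n : ℕ) : Prop :=
  ∀ (w : Euc m → Euc n) (X0 : Euc m) (R R' η : ℝ), 0 < R' → R' < R → 0 < η → ContDiff ℝ 5 w →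
  (∃ B : ℝ, ∀ j ≤ 5, ∀ Y, ‖iteratedFDeriv ℝ j w Y‖ ≤ B) → ContDiffOn ℝ ∞ w (ball X0 R) →
  ∃ w' : Euc m → Euc n, ContDiff ℝ ∞ w' ∧ (∀ Y ∈ ball X0 R', w' Y = w Y) ∧
    ∀ j ≤ 4, ∀ Y, ‖iteratedFDeriv ℝ j w' Y - iteratedFDeriv ℝ j w Y‖ ≤ η

/-- **F3, general form** -/
def F3P (m n k Q : ℕ) : Prop :=
  ∀ Λ : ℝ, 0 ≤ Λ → ∃ C : ℝ, 1 ≤ C ∧ ∀ a C' : ℝ, 0 < a → 0 < C' →
  ∃ κ₀ H₀ : ℝ, 0 < κ₀ ∧ 0 < H₀ ∧ H₀ < 1 ∧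
  ∀ (π : Euc k →L[ℝ] Euc m) (ρ : Euc k →L[ℝ] Euc n) (x : Euc k) (w : Euc m → Euc n)
    (X0 : Euc m) (S s κ ε H : ℝ) (U K : Set (Euc k)) (Dd : VarifoldData m k) (g : ℝ → ℝ),
  Frame π ρ → IsOpen U → IsIntegralVarifoldIn U Dd → IsStationaryIn U Dd →
  0 < s → s < S → Gr S w → (∀ X, ‖fderiv ℝ w X‖ ≤ 1 / 16) →
  (∀ X, ‖fderiv ℝ (fderiv ℝ w) X‖ ≤ 1 / (16 * S)) → ContDiff ℝ 5 w →
  (∃ B : ℝ, ∀ j ≤ 5, ∀ Y, ‖iteratedFDeriv ℝ j w Y‖ ≤ B) →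
  ContDiffOn ℝ ∞ w (ball X0 ((1 + ε) * s)) → 0 ≤ κ → κ ≤ κ₀ →
  (∀ j, 1 ≤ j → j ≤ 3 → ∀ Y ∈ ball X0 (2 * s), s ^ (j - 1) * ‖iteratedFDeriv ℝ j w Y‖ ≤ κ) →
  0 < ε → ε ≤ 1 → (∀ Y ∈ ball X0 ((1 + ε) * s), Msys w Y = 0) →
  closedBall (Foot_842.pt π ρ x w X0) (4 * s) ⊆ U →
  Loc (ch π ρ x S w X0) U (tube π ρ x S w) K (VD Dd) (Real.log ((1 + ε) * s)) →
  (∀ z ∈ K, ‖(ch π ρ x S w X0).x z‖ < (1 + ε) * s → ‖(ch π ρ x S w X0).nu z‖ ≤ s / 8) →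
  (VD Dd).real ({z | z ∈ K ∧ ‖(ch π ρ x S w X0).x z‖ < (1 + ε) * s} ×ˢ univ) ≤ Λ * s ^ m →
  |(VD Dd).real ({z | z ∈ K ∧ ‖(ch π ρ x S w X0).x z‖ < 1 / 4 * s} ×ˢ univ) -
    Q * volume.real (ball (0 : Euc m) (1 / 4 * s))| ≤
      1 / 4 * volume.real (ball (0 : Euc m) (1 / 4 * s)) →
  0 < H → H ≤ H₀ → (Real.log (1 / H)) ^ (-a) ≤ ε →
  ∫ p in {z | ‖(ch π ρ x S w X0).x z‖ < (1 + ε) * s} ×ˢ univ, 2 * (ch π ρ x S w X0).f p.1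
    ∂(VK (VD Dd) K) ≤ H * s ^ (m + 2) →
  (∀ s, 0 ≤ g s) → (∀ s, 0 ≤ s → g s ≤ 1) → (∀ s, 1 ≤ s → g s = 0) →
  LipschitzWith 6 (fun v : Euc m => g (‖v‖ ^ 2)) →
  bb (ch π ρ x S w X0) (VK (VD Dd) K) g Q (Real.log s) ≤
    s ^ 2 * (C * κ ^ 2 * ((s ^ (m + 2))⁻¹ *
      ∫ p, g (‖(ch π ρ x S w X0).x p.1‖ ^ 2 / s ^ 2) * (2 * (ch π ρ x S w X0).f p.1)
        ∂(VK (VD Dd) K)) + (Real.log (1 / H)) ^ (-C') * H)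

end Crest.Agent.R234.F3d_433
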