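import Crest.Agent.R234.Foot1_842
import Crest.Agent.R234.Gi4_456
import Crest.Agent.R234.Ex4_46
import Crest.Agent.R234.GL8_394

/-!
# Row 234 (helper433), node F3-RESC: the chart of a graph and its frame functions under rescaling

`s > 0`, `w' = s⁻¹ w(s ·)`, `X0' = s⁻¹ X0`, `V' = resc m x s V`, `K' = s⁻¹ (K - x)`:
`x' = x / s`, `nu' = nu / s`, `f' = f / s²`, `tau' = tau`, `j' v = j (s v)`;
`EE, ee, bb` at `log s + l` are `s²` times those of the rescaled chart at `l`.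
-/

set_option autoImplicit false
set_option linter.unusedSectionVars false

open MeasureTheory Set Metric Function Filter Topology
open scoped ENNReal NNReal ContDiff RealInnerProductSpace
open Crest.GeometryTopology.Submanifold

noncomputable section

namespace Crest.Agent.R234.F3r_433

open Crest.Agent.R234.Vf_884 Crest.Agent.R234.Main_456 Crest.Agent.R234.Grot_842
open Crest.Agent.R234.Vc_164 (hom resc measurable_hom continuous_hom hom_preimage_prod)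
open Crest.Agent.R234.Ex_46 (hmt hmt' zoom)
open Crest.Agent.R234.Gi_456 (Gr tube IsFoot foot yy Lo Loi ch jB Bt hinv)
open Crest.Agent.R234.GL_394 (Ch Reg Loc VK EE ee bb On)
open Crest.Agent.R234.Ell1_3 (dns)

local notation "adj" => ContinuousLinearMap.adjoint

variable {m n k : ℕ} {π : Euc k →L[ℝ] Euc m} {ρ : Euc k →L[ℝ] Euc n} {x : Euc k} {r s : ℝ}
  {w : Euc m → Euc n}

/-! ### the graph -/

theorem gr_sc (h : Gr (s * r) w) (hs : 0 < s) (hr : 0 < r) : Gr r (sc s w) where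
  pos := hr
  cd := (h.cd.comp (contDiff_const_smul s)).const_smul s⁻¹
  d1 := fun X => by rw [fderiv_sc hs.ne']; exact h.d1 _
  d2 := fun X => by
    have e1 : fderiv ℝ (sc s w) = fun x => fderiv ℝ w (s • x) := funext (fderiv_sc hs.ne' w)
    have e2 : fderiv ℝ (fun x => fderiv ℝ w (s • x)) X = s • fderiv ℝ (fderiv ℝ w) (s • X) :=
      fderiv_comp_smul s
    rw [e1, e2]
    have e3 : ‖s • fderiv ℝ (fderiv ℝ w) (s • X)‖ ≤ s * ‖fderiv ℝ (fderiv ℝ w) (s • X)‖ := by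
      refine ContinuousLinearMap.opNorm_le_bound _ (by positivity) fun v => ?_
      rw [smul_apply, norm_smul, Real.norm_of_nonneg hs.le, mul_assoc]
      exact mul_le_mul_of_nonneg_left (ContinuousLinearMap.le_opNorm _ _) hs.le
    calc _ ≤ s * ‖fderiv ℝ (fderiv ℝ w) (s • X)‖ := e3
      _ ≤ s * (1 / (8 * (s * r))) := mul_le_mul_of_nonneg_left (h.d2 _) hs.le
      _ = 1 / (8 * r) := by field_simp

theorem mem_tube_sc (hs : 0 < s) (z : Euc k) :
    s⁻¹ • (z - x) ∈ tube π ρ 0 r (sc s w) ↔ z ∈ tube π ρ x (s * r) w := by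
  have e : ρ (s⁻¹ • (z - x) - 0) - sc s w (π (s⁻¹ • (z - x) - 0)) =
      s⁻¹ • (ρ (z - x) - w (π (z - x))) := by
    rw [sub_zero, map_smul, map_smul, sc_apply, smul_smul, mul_inv_cancel₀ hs.ne', one_smul,
      smul_sub]
  show ‖_‖ < _ ↔ ‖_‖ < _
  rw [e, norm_smul, norm_inv, Real.norm_of_nonneg hs.le, inv_mul_lt_iff₀ hs]

theorem isFoot_sc (hs : 0 < s) {z : Euc k} {X : Euc m} (h : IsFoot π ρ x (s * r) w z X) :
    IsFoot π ρ 0 r (sc s w) (s⁻¹ • (z - x)) (s⁻¹ • X) :=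
  (Foot_842.isFoot_zoom hs (Eventually.of_forall fun _ => rfl) h (h.2.trans (le_of_eq (by ring)))).1

variable {z : Euc k} {X0 : Euc m}

theorem foot_sc (h : Gr (s * r) w) (hs : 0 < s) (hr : 0 < r) (hz : z ∈ tube π ρ x (s * r) w) :
    foot π ρ 0 r (sc s w) (s⁻¹ • (z - x)) = s⁻¹ • foot π ρ x (s * r) w z :=
  (gr_sc h hs hr).foot_eq (isFoot_sc hs (h.foot_spec hz))

theorem yy_sc (h : Gr (s * r) w) (hs : 0 < s) (hr : 0 < r) (hz : z ∈ tube π ρ x (s * r) w) :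
    yy π ρ 0 r (sc s w) (s⁻¹ • (z - x)) = s⁻¹ • yy π ρ x (s * r) w z := by
  unfold yy
  rw [foot_sc h hs hr hz, sub_zero, map_smul, sc_apply, smul_smul, mul_inv_cancel₀ hs.ne',
    one_smul, smul_sub]

/-! ### the chart -/

theorem fderiv_sc' (hs : 0 < s) (X : Euc m) : fderiv ℝ (sc s w) (s⁻¹ • X) = fderiv ℝ w X := by
  rw [fderiv_sc hs.ne', smul_smul, mul_inv_cancel₀ hs.ne', one_smul]

theorem ch_x_sc (h : Gr (s * r) w) (hs : 0 < s) (hr : 0 < r) (hz : z ∈ tube π ρ x (s * r) w) :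
    (ch π ρ 0 r (sc s w) (s⁻¹ • X0)).x (s⁻¹ • (z - x)) =
      s⁻¹ • (ch π ρ x (s * r) w X0).x z := by
  show Lo (fderiv ℝ (sc s w) (s⁻¹ • X0)) (foot π ρ 0 r (sc s w) (s⁻¹ • (z - x)) - s⁻¹ • X0) = _
  rw [foot_sc h hs hr hz, fderiv_sc' hs, ← smul_sub, map_smul]
  rfl

theorem ch_nu_sc (h : Gr (s * r) w) (hs : 0 < s) (hr : 0 < r) (hz : z ∈ tube π ρ x (s * r) w) :
    (ch π ρ 0 r (sc s w) (s⁻¹ • X0)).nu (s⁻¹ • (z - x)) =
      s⁻¹ • (ch π ρ x (s * r) w X0).nu z := by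
  show Bt π ρ (sc s w) (foot π ρ 0 r (sc s w) (s⁻¹ • (z - x)))
    (yy π ρ 0 r (sc s w) (s⁻¹ • (z - x))) = _
  rw [foot_sc h hs hr hz, yy_sc h hs hr hz, Bt, fderiv_sc' hs, map_smul]
  rfl

theorem ch_f_sc (h : Gr (s * r) w) (hs : 0 < s) (hr : 0 < r) (hz : z ∈ tube π ρ x (s * r) w) :
    (ch π ρ 0 r (sc s w) (s⁻¹ • X0)).f (s⁻¹ • (z - x)) =
      (s ^ 2)⁻¹ * (ch π ρ x (s * r) w X0).f z := by
  have h1 := ch_nu_sc (X0 := X0) h hs hr hz
  have e1 : (ch π ρ 0 r (sc s w) (s⁻¹ • X0)).f (s⁻¹ • (z - x)) =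
      ‖(ch π ρ 0 r (sc s w) (s⁻¹ • X0)).nu (s⁻¹ • (z - x))‖ ^ 2 / 2 := rfl
  have e2 : (ch π ρ x (s * r) w X0).f z = ‖(ch π ρ x (s * r) w X0).nu z‖ ^ 2 / 2 := rfl
  rw [e1, e2, h1, norm_smul, norm_inv, Real.norm_of_nonneg hs.le]
  ring

theorem ch_tau_sc (h : Gr (s * r) w) (hs : 0 < s) (hr : 0 < r) (hz : z ∈ tube π ρ x (s * r) w)
    (P : L k) :
    (ch π ρ 0 r (sc s w) (s⁻¹ • X0)).tau (s⁻¹ • (z - x)) P =
      (ch π ρ x (s * r) w X0).tau z P := by
  show tr (GLK_128.NN (adj π) (adj ρ) (fderiv ℝ (sc s w) (foot π ρ 0 r (sc s w) (s⁻¹ • (z - x))))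
    (hinv (fderiv ℝ (sc s w) (foot π ρ 0 r (sc s w) (s⁻¹ • (z - x))))) ∘L P) = _
  rw [foot_sc h hs hr hz, fderiv_sc' hs]
  rfl

theorem ch_j_sc (hs : 0 < s) (v : Euc m) :
    (ch π ρ 0 r (sc s w) (s⁻¹ • X0)).j v = (ch π ρ x (s * r) w X0).j (s • v) := by
  show jB (sc s w) (s⁻¹ • X0) v = jB w X0 (s • v)
  unfold jB
  have e : fderiv ℝ (sc s w) (Gi_456.pt (sc s w) (s⁻¹ • X0) v) =
      fderiv ℝ w (Gi_456.pt w X0 (s • v)) := by
    rw [fderiv_sc hs.ne']
    unfold Gi_456.pt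
    rw [fderiv_sc' hs, smul_add, smul_smul, mul_inv_cancel₀ hs.ne', one_smul, map_smul]
  rw [e, fderiv_sc' hs]

/-! ### the measures -/

/-- integrals of the rescaled measure, without measurability -/
theorem int_resc (z : Euc k) (hs : 0 < s) (V : Measure (Euc k × Vf_884.L k))
    (f : Euc k × Vf_884.L k → ℝ) :
    ∫ p, f p ∂(resc m z s V) = (s ^ m)⁻¹ * ∫ p, f (hom z s p) ∂V := by
  have he : MeasurableEmbedding (hom z s : Euc k × Vf_884.L k → Euc k × Vf_884.L k) := by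
    refine MeasurableEquiv.measurableEmbedding
      { toFun := hom z s, invFun := fun p => (z + s • p.1, p.2),
        left_inv := fun p => ?_, right_inv := fun p => ?_,
        measurable_toFun := measurable_hom z s, measurable_invFun := ?_ }
    · exact Prod.ext (by
        show z + s • (s⁻¹ • (p.1 - z)) = p.1
        rw [smul_smul, mul_inv_cancel₀ hs.ne', one_smul]; abel) rfl
    · exact Prod.ext (by
        show s⁻¹ • (z + s • p.1 - z) = p.1
        rw [add_sub_cancel_left, smul_smul, inv_mul_cancel₀ hs.ne', one_smul]) rfl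
    · exact (by fun_prop : Continuous fun p : Euc k × Vf_884.L k => (z + s • p.1, p.2)).measurable
  rw [resc, integral_smul_measure, he.integral_map, ENNReal.toReal_ofReal (by positivity),
    smul_eq_mul]

theorem VK_resc (z : Euc k) (hs : 0 < s) (V : Measure (Euc k × Vf_884.L k)) {K : Set (Euc k)}
    (hK : MeasurableSet K) :
    VK (resc m z s V) (hmt z s '' K) = resc m z s (VK V K) := by
  have himg : hmt z s '' K = hmt' z s ⁻¹' K := by
    ext y
    constructor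
    · rintro ⟨a, ha, rfl⟩
      show z + s • (s⁻¹ • (a - z)) ∈ K
      rwa [smul_smul, mul_inv_cancel₀ hs.ne', one_smul, add_sub_cancel]
    · intro hy
      refine ⟨z + s • y, hy, ?_⟩
      show s⁻¹ • (z + s • y - z) = y
      rw [add_sub_cancel_left, smul_smul, inv_mul_cancel₀ hs.ne', one_smul]
  have hm : MeasurableSet (hmt z s '' K) := by
    rw [himg]
    exact (by unfold hmt'; fun_prop : Continuous (hmt' z s)).measurable hK
  unfold VK resc
  rw [Measure.restrict_smul, Measure.restrict_map (measurable_hom z s) (hm.prod .univ)]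
  congr 3
  ext p
  show hmt z s p.1 ∈ hmt z s '' K ∧ _ ↔ p.1 ∈ K ∧ _
  rw [himg]
  show z + s • (s⁻¹ • (p.1 - z)) ∈ K ∧ _ ↔ _
  rw [smul_smul, mul_inv_cancel₀ hs.ne', one_smul, add_sub_cancel]
  exact ⟨fun h => ⟨h.1, trivial⟩, fun h => ⟨h.1, trivial⟩⟩

/-! ### the frame functions -/

/-- scaling of the Lebesgue integrals of the base -/
theorem int_base (hs : 0 < s) (F : Euc m → ℝ) :
    ∫ v, F (s • v) = (s ^ m)⁻¹ * ∫ v, F v := by
  rw [Measure.integral_comp_smul_of_nonneg (μ := (volume : Measure (Euc m))) (hR := hs.le),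
    finrank_euclideanSpace, Fintype.card_fin, smul_eq_mul]

theorem exp_log_add (hs : 0 < s) (l : ℝ) (v : Euc m) :
    Real.exp (-2 * (Real.log s + l)) * ‖v‖ ^ 2 = Real.exp (-2 * l) * ‖s⁻¹ • v‖ ^ 2 := by
  rw [norm_smul, norm_inv, Real.norm_of_nonneg hs.le, mul_add, Real.exp_add, mul_pow, inv_pow]
  have : Real.exp (-2 * Real.log s) = (s ^ 2)⁻¹ := by
    rw [show -2 * Real.log s = -(Real.log s + Real.log s) by ring, Real.exp_neg, Real.exp_add,
      Real.exp_log hs, sq]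
  rw [this]
  ring

theorem exp_pow (hs : 0 < s) (l : ℝ) :
    Real.exp ((2 - (m:ℝ)) * (Real.log s + l)) * s ^ m = s ^ 2 * Real.exp ((2 - (m:ℝ)) * l) := by
  have h1 : (s:ℝ) ^ m = Real.exp (m * Real.log s) := by
    rw [mul_comm, Real.exp_mul, Real.exp_log hs, Real.rpow_natCast]
  have h2 : (s:ℝ) ^ 2 = Real.exp (2 * Real.log s) := by
    rw [show (2:ℝ) * Real.log s = Real.log s + Real.log s by ring, Real.exp_add, Real.exp_log hs, sq]
  rw [h1, h2, ← Real.exp_add, ← Real.exp_add]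
  congr 1
  ring

variable {V : Measure (Euc k × Vf_884.L k)} {K : Set (Euc k)}

/-- integrals of the chart quantities -/
theorem int_ch (h : Gr (s * r) w) (hs : 0 < s) (hr : 0 < r)
    (hV : ∀ᵐ p ∂V, p.1 ∈ tube π ρ x (s * r) w)
    (F : Euc m → ℝ → ℝ → ℝ) :
    ∫ p, F ((ch π ρ 0 r (sc s w) (s⁻¹ • X0)).x p.1) ((ch π ρ 0 r (sc s w) (s⁻¹ • X0)).tau p.1 p.2)
        ((ch π ρ 0 r (sc s w) (s⁻¹ • X0)).f p.1) ∂(resc m x s V) =
      (s ^ m)⁻¹ * ∫ p, F (s⁻¹ • (ch π ρ x (s * r) w X0).x p.1)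
        ((ch π ρ x (s * r) w X0).tau p.1 p.2)
        ((s ^ 2)⁻¹ * (ch π ρ x (s * r) w X0).f p.1) ∂V := by
  rw [int_resc x hs]
  congr 1
  refine integral_congr_ae ?_
  filter_upwards [hV] with p hp
  have e1 : (hom x s p).1 = s⁻¹ • (p.1 - x) := rfl
  have e2 : (hom x s p).2 = p.2 := rfl
  simp only [e1, e2]
  rw [ch_x_sc h hs hr hp, ch_tau_sc h hs hr hp, ch_f_sc h hs hr hp]

theorem EE_sc (h : Gr (s * r) w) (hs : 0 < s) (hr : 0 < r)
    (hV : ∀ᵐ p ∂V, p.1 ∈ tube π ρ x (s * r) w) (g : ℝ → ℝ) (Q l : ℝ) :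
    EE (ch π ρ x (s * r) w X0) V g Q (Real.log s + l) =
      s ^ 2 * EE (ch π ρ 0 r (sc s w) (s⁻¹ • X0)) (resc m x s V) g Q l := by
  unfold EE
  have e1 := int_ch (X0 := X0) h hs hr hV (fun v _ _ => 1 * g (Real.exp (-2 * l) * ‖v‖ ^ 2))
  have e2 := int_base (m := m) hs (fun v => (ch π ρ x (s * r) w X0).j v *
    g (Real.exp (-2 * l) * ‖s⁻¹ • v‖ ^ 2))
  have e3 : ∀ v : Euc m, s⁻¹ • (s • v) = v := fun v => by
    rw [smul_smul, inv_mul_cancel₀ hs.ne', one_smul]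
  simp only [e3] at e2
  have e4 : ∀ v : Euc m, (ch π ρ 0 r (sc s w) (s⁻¹ • X0)).j v *
      g (Real.exp (-2 * l) * ‖v‖ ^ 2) = (ch π ρ x (s * r) w X0).j (s • v) *
      g (Real.exp (-2 * l) * ‖v‖ ^ 2) := fun v => by rw [ch_j_sc (x := x) hs]
  simp_rw [e4, exp_log_add hs]
  rw [e1, e2, ← mul_assoc (s ^ 2), ← exp_pow hs]
  have hsm : (s:ℝ) ^ m ≠ 0 := by positivity
  field_simp

theorem ee_sc (h : Gr (s * r) w) (hs : 0 < s) (hr : 0 < r)
    (hV : ∀ᵐ p ∂V, p.1 ∈ tube π ρ x (s * r) w) (g : ℝ → ℝ) (l : ℝ) :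
    ee (ch π ρ x (s * r) w X0) V g (Real.log s + l) =
      s ^ 2 * ee (ch π ρ 0 r (sc s w) (s⁻¹ • X0)) (resc m x s V) g l := by
  unfold ee
  have e1 := int_ch (X0 := X0) h hs hr hV (fun v t _ => t * g (Real.exp (-2 * l) * ‖v‖ ^ 2))
  simp_rw [exp_log_add hs]
  rw [e1, ← mul_assoc (s ^ 2), ← exp_pow hs]
  have hsm : (s:ℝ) ^ m ≠ 0 := by positivity
  field_simp

/-- **the anomaly under rescaling** -/
theorem bb_sc (h : Gr (s * r) w) (hs : 0 < s) (hr : 0 < r)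
    (hV : ∀ᵐ p ∂V, p.1 ∈ tube π ρ x (s * r) w) (g : ℝ → ℝ) (Q l : ℝ) :
    bb (ch π ρ x (s * r) w X0) V g Q (Real.log s + l) =
      s ^ 2 * bb (ch π ρ 0 r (sc s w) (s⁻¹ • X0)) (resc m x s V) g Q l := by
  unfold bb
  rw [EE_sc h hs hr hV, ee_sc h hs hr hV]
  ring

/-- heights -/
theorem f_sc (h : Gr (s * r) w) (hs : 0 < s) (hr : 0 < r)
    (hV : ∀ᵐ p ∂V, p.1 ∈ tube π ρ x (s * r) w) (φ : Euc m → ℝ) :
    ∫ p, φ ((ch π ρ 0 r (sc s w) (s⁻¹ • X0)).x p.1) *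
        (2 * (ch π ρ 0 r (sc s w) (s⁻¹ • X0)).f p.1) ∂(resc m x s V) =
      (s ^ (m + 2))⁻¹ * ∫ p, φ (s⁻¹ • (ch π ρ x (s * r) w X0).x p.1) *
        (2 * (ch π ρ x (s * r) w X0).f p.1) ∂V := by
  have e1 := int_ch (X0 := X0) h hs hr hV (fun v _ f => φ v * (2 * f))
  have e2 : ∫ p, φ (s⁻¹ • (ch π ρ x (s * r) w X0).x p.1) *
        (2 * ((s ^ 2)⁻¹ * (ch π ρ x (s * r) w X0).f p.1)) ∂V = (s ^ 2)⁻¹ *
      ∫ p, φ (s⁻¹ • (ch π ρ x (s * r) w X0).x p.1) *
        (2 * (ch π ρ x (s * r) w X0).f p.1) ∂V := by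
    rw [← integral_const_mul]
    refine integral_congr_ae (Eventually.of_forall fun p => ?_)
    show φ _ * (2 * ((s ^ 2)⁻¹ * _)) = _
    ring
  rw [e1, e2, pow_add, mul_inv, mul_assoc]

/-! ### localisation -/

theorem hmt_image (hs : 0 < s) (S : Set (Euc k)) (y : Euc k) : y ∈ hmt x s '' S ↔ x + s • y ∈ S := by
  constructor
  · rintro ⟨a, ha, rfl⟩
    show x + s • (s⁻¹ • (a - x)) ∈ S
    rwa [smul_smul, mul_inv_cancel₀ hs.ne', one_smul, add_sub_cancel]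
  · intro hy
    refine ⟨x + s • y, hy, ?_⟩
    show s⁻¹ • (x + s • y - x) = y
    rw [add_sub_cancel_left, smul_smul, inv_mul_cancel₀ hs.ne', one_smul]

theorem tube_image (hs : 0 < s) : hmt x s '' tube π ρ x (s * r) w = tube π ρ 0 r (sc s w) := by
  ext y
  rw [hmt_image hs, ← mem_tube_sc (r := r) hs, add_sub_cancel_left, smul_smul,
    inv_mul_cancel₀ hs.ne', one_smul]

theorem loc_sc (h : Gr (s * r) w) (hs : 0 < s) (hr : 0 < r) {U : Set (Euc k)} {l : ℝ}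
    (hL : Loc (ch π ρ x (s * r) w X0) U (tube π ρ x (s * r) w) K V (Real.log s + l)) :
    Loc (ch π ρ 0 r (sc s w) (s⁻¹ • X0)) (hmt' x s ⁻¹' U) (tube π ρ 0 r (sc s w)) (hmt x s '' K)
      (resc m x s V) l where
  st := Vc_164.resc_stat x hs hL.st
  opU := hL.opU.preimage (by unfold hmt'; fun_prop)
  cpt := hL.cpt.image (by unfold hmt; fun_prop)
  sub := by
    rintro y hy
    have h1 := hL.sub ((hmt_image hs K y).1 hy)
    refine ⟨?_, h1.2⟩
    rw [← tube_image (x := x) hs, hmt_image hs]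
    exact h1.1
  gap := by
    refine Measure.ae_smul_measure ?_ _
    have hme : MeasurableEmbedding (hom x s : Euc k × Vf_884.L k → Euc k × Vf_884.L k) := by
      refine MeasurableEquiv.measurableEmbedding
        { toFun := hom x s, invFun := fun p => (x + s • p.1, p.2),
          left_inv := fun p => ?_, right_inv := fun p => ?_,
          measurable_toFun := measurable_hom x s, measurable_invFun := ?_ }
      · exact Prod.ext (by
          show x + s • (s⁻¹ • (p.1 - x)) = p.1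
          rw [smul_smul, mul_inv_cancel₀ hs.ne', one_smul]; abel) rfl
      · exact Prod.ext (by
          show s⁻¹ • (x + s • p.1 - x) = p.1
          rw [add_sub_cancel_left, smul_smul, inv_mul_cancel₀ hs.ne', one_smul]) rfl
      · exact (by fun_prop : Continuous fun p : Euc k × Vf_884.L k => (x + s • p.1, p.2)).measurable
    rw [hme.ae_map_iff]
    filter_upwards [hL.gap] with p hp hpW hpl
    have e1 : (hom x s p).1 = s⁻¹ • (p.1 - x) := rfl
    rw [e1] at hpW hpl ⊢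
    have h1 : p.1 ∈ tube π ρ x (s * r) w := (mem_tube_sc hs p.1).1 hpW.1
    have h2 : p.1 ∈ U := by
      have := hpW.2
      have e2 : hmt' x s (s⁻¹ • (p.1 - x)) = p.1 := by
        show x + s • (s⁻¹ • (p.1 - x)) = p.1
        rw [smul_smul, mul_inv_cancel₀ hs.ne', one_smul, add_sub_cancel]
      rw [mem_preimage, e2] at this
      exact this
    refine ⟨p.1, hp ⟨h1, h2⟩ ?_, rfl⟩
    rw [ch_x_sc h hs hr h1, norm_smul, norm_inv, Real.norm_of_nonneg hs.le,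
      inv_mul_le_iff₀ hs] at hpl
    rw [Real.exp_add, Real.exp_log hs]
    exact hpl

end Crest.Agent.R234.F3r_433
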