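import Crest.Agent.R234.Gi1_456

/-!
# Row 234, node GL-INST (helper456), file 2: derivatives of the coordinates of the tube
-/

set_option autoImplicit false

open MeasureTheory Filter Topology Set Function
open scoped ENNReal NNReal ContDiff InnerProductSpace
open Crest.GeometryTopology.Submanifold Crest.Agent.R234.Vf_884
open Crest.Agent.R234.Main_456
open Crest.Agent.R234.Ell1_3 (adjL ginv gop)
open Crest.Agent.R234.GLK_128 (A0 AA BB gg hh Fr Inv exists_Inv exists_inv_of_le norm_adj)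

noncomputable section

namespace Crest.Agent.R234.Gi_456

variable {m n k : ℕ}

local notation "adj" => ContinuousLinearMap.adjoint

theorem ring_inverse_eq {E : Type*} [NormedAddCommGroup E] [NormedSpace ℝ E] {T X : E →L[ℝ] E}
    (h1 : X ∘L T = ContinuousLinearMap.id ℝ E) (h2 : T ∘L X = ContinuousLinearMap.id ℝ E) :
    Ring.inverse T = X := by
  have : T = ((⟨T, X, h2, h1⟩ : (E →L[ℝ] E)ˣ) : E →L[ℝ] E) := rfl
  rw [this, Ring.inverse_unit]
  rfl

/-- `v ↦ (D²w(X) v)ᵀ Y` -/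
def Yo (w : Euc m → Euc n) (X : Euc m) (Y : Euc n) : Euc m →L[ℝ] Euc m :=
  (ContinuousLinearMap.apply ℝ (Euc m) Y) ∘L adjL ∘L fderiv ℝ (fderiv ℝ w) X

theorem Yo_apply (w : Euc m → Euc n) (X : Euc m) (Y : Euc n) (v : Euc m) :
    Yo w X Y v = adj (fderiv ℝ (fderiv ℝ w) X v) Y := rfl

variable {π : Euc k →L[ℝ] Euc m} {ρ : Euc k →L[ℝ] Euc n} {x : Euc k} {r : ℝ} {w : Euc m → Euc n}

theorem norm_Yo_le (w : Euc m → Euc n) (X : Euc m) (Y : Euc n) :
    ‖Yo w X Y‖ ≤ ‖fderiv ℝ (fderiv ℝ w) X‖ * ‖Y‖ := by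
  refine ContinuousLinearMap.opNorm_le_bound _ (by positivity) fun v => ?_
  rw [Yo_apply]
  refine (ContinuousLinearMap.le_opNorm _ _).trans ?_
  rw [norm_adj]
  have := (fderiv ℝ (fderiv ℝ w) X).le_opNorm v
  calc ‖fderiv ℝ (fderiv ℝ w) X v‖ * ‖Y‖ ≤ ‖fderiv ℝ (fderiv ℝ w) X‖ * ‖v‖ * ‖Y‖ := by gcongr
    _ = _ := by ring

theorem Gr.norm_Yo_le (h : Gr r w) (X : Euc m) {Y : Euc n} (hY : ‖Y‖ ≤ 2 * r) :
    ‖Yo w X Y‖ ≤ 1 / 4 := by
  have hr := h.pos
  refine (Gi_456.norm_Yo_le w X Y).trans ?_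
  calc _ ≤ 1 / (8 * r) * (2 * r) := mul_le_mul (h.d2 X) hY (norm_nonneg _) (by positivity)
    _ = 1 / 4 := by field_simp; norm_num

/-- the second derivative is symmetric -/
theorem Gr.symm (h : Gr r w) (X v v' : Euc m) :
    fderiv ℝ (fderiv ℝ w) X v v' = fderiv ℝ (fderiv ℝ w) X v' v := by
  have h1 : ContDiffAt ℝ 4 w X := h.cd.contDiffAt
  exact h1.isSymmSndFDerivAt (by simp; norm_num) v v'

theorem Gr.Yo_adj (h : Gr r w) (X : Euc m) (Y : Euc n) : adj (Yo w X Y) = Yo w X Y := by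
  ext1 v
  refine ext_inner_right ℝ fun v' => ?_
  rw [ContinuousLinearMap.adjoint_inner_left, Yo_apply, Yo_apply,
    ContinuousLinearMap.adjoint_inner_left, ContinuousLinearMap.adjoint_inner_right, h.symm X v v',
    real_inner_comm]

/-- inverse of the horizontal block -/
def Li (w : Euc m → Euc n) (X : Euc m) (Y : Euc n) : Euc m →L[ℝ] Euc m :=
  Ring.inverse (gg (fderiv ℝ w X) - Yo w X Y)

/-- inverse of the fibre metric -/
def hinv (q : Euc m →L[ℝ] Euc n) : Euc n →L[ℝ] Euc n := Ring.inverse (hh q)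

theorem Gr.inv (h : Gr r w) (X : Euc m) {Y : Euc n} (hY : ‖Y‖ ≤ 2 * r) :
    Inv (fderiv ℝ w X) (Yo w X Y) (ginv (fderiv ℝ w X)) (hinv (fderiv ℝ w X)) (Li w X Y) := by
  obtain ⟨gi, hi, L, H⟩ := exists_Inv (fderiv ℝ w X) (Y := Yo w X Y)
    ((h.norm_Yo_le X hY).trans (by norm_num))
  have h1 : ginv (fderiv ℝ w X) = gi := ring_inverse_eq H.g1 H.g2
  have h2 : hinv (fderiv ℝ w X) = hi := ring_inverse_eq H.h1 H.h2
  have h3 : Li w X Y = L := ring_inverse_eq H.l1 H.l2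
  rw [h1, h2, h3]
  exact H

/-! ### the derivative of the chart -/

/-- tangent frame at `(X, Y)` -/
def At (π : Euc k →L[ℝ] Euc m) (ρ : Euc k →L[ℝ] Euc n) (w : Euc m → Euc n) (X : Euc m) (Y : Euc n) :
    Euc m →L[ℝ] Euc k := AA (adj π) (adj ρ) (fderiv ℝ w X) (Yo w X Y)

/-- tangent frame on `M` -/
def A0t (π : Euc k →L[ℝ] Euc m) (ρ : Euc k →L[ℝ] Euc n) (w : Euc m → Euc n) (X : Euc m) :
    Euc m →L[ℝ] Euc k := A0 (adj π) (adj ρ) (fderiv ℝ w X)

/-- normal frame -/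
def Bt (π : Euc k →L[ℝ] Euc m) (ρ : Euc k →L[ℝ] Euc n) (w : Euc m → Euc n) (X : Euc m) :
    Euc n →L[ℝ] Euc k := BB (adj π) (adj ρ) (fderiv ℝ w X)

theorem Gr.hasFDerivAt_Phi (h : Gr r w) (q : Euc m × Euc n) :
    HasFDerivAt (Phi π ρ x w) ((At π ρ w q.1 q.2) ∘L ContinuousLinearMap.fst ℝ (Euc m) (Euc n)
      + (Bt π ρ w q.1) ∘L ContinuousLinearMap.snd ℝ (Euc m) (Euc n)) q := by
  have h1 : HasFDerivAt (fun q : Euc m × Euc n => fderiv ℝ w q.1)
      (fderiv ℝ (fderiv ℝ w) q.1 ∘L ContinuousLinearMap.fst ℝ (Euc m) (Euc n)) q :=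
    (h.differentiable' q.1).hasFDerivAt.comp q hasFDerivAt_fst
  have h2 : HasFDerivAt (fun q : Euc m × Euc n => adjL (fderiv ℝ w q.1))
      (adjL ∘L fderiv ℝ (fderiv ℝ w) q.1 ∘L ContinuousLinearMap.fst ℝ (Euc m) (Euc n)) q :=
    (adjL (F := Euc m) (V := Euc n)).hasFDerivAt.comp q h1
  have h3 := h2.clm_apply (hasFDerivAt_snd (𝕜 := ℝ) (p := q))
  have h4 : HasFDerivAt (fun q : Euc m × Euc n => w q.1)
      (fderiv ℝ w q.1 ∘L ContinuousLinearMap.fst ℝ (Euc m) (Euc n)) q :=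
    (h.differentiable q.1).hasFDerivAt.comp q hasFDerivAt_fst
  have h5 := (adj π).hasFDerivAt.comp q ((hasFDerivAt_fst (𝕜 := ℝ) (p := q)).sub h3)
  have h6 := (adj ρ).hasFDerivAt.comp q (h4.add (hasFDerivAt_snd (𝕜 := ℝ) (p := q)))
  have h7 := ((hasFDerivAt_const x q).add h5).add h6
  refine h7.congr_fderiv (ContinuousLinearMap.ext fun v => ?_)
  simp [At, Bt, AA, BB, Yo]
  abel

/-- the differential of the foot map -/
def dft (π : Euc k →L[ℝ] Euc m) (ρ : Euc k →L[ℝ] Euc n) (x : Euc k) (r : ℝ) (w : Euc m → Euc n)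
    (z : Euc k) : Euc k →L[ℝ] Euc m :=
  Li w (foot π ρ x r w z) (yy π ρ x r w z) ∘L adj (A0t π ρ w (foot π ρ x r w z))

/-- the differential of the fibre coordinate -/
def dyt (π : Euc k →L[ℝ] Euc m) (ρ : Euc k →L[ℝ] Euc n) (x : Euc k) (r : ℝ) (w : Euc m → Euc n)
    (z : Euc k) : Euc k →L[ℝ] Euc n :=
  ρ - fderiv ℝ w (foot π ρ x r w z) ∘L dft π ρ x r w z

theorem dfx_A (h : Gr r w) (hf : Frame π ρ) (X : Euc m) {Y : Euc n} (hY : ‖Y‖ ≤ 2 * r) :
    (Li w X Y ∘L adj (A0t π ρ w X)) ∘L At π ρ w X Y = ContinuousLinearMap.id ℝ (Euc m) := by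
  rw [ContinuousLinearMap.comp_assoc]
  have h1 := GLK_128.A0_AA (q := fderiv ℝ w X) (Y := Yo w X Y) (frame_fr hf)
  rw [show adj (A0t π ρ w X) ∘L At π ρ w X Y = _ from h1]
  exact (h.inv X hY).l1

theorem dfx_B (h : Gr r w) (hf : Frame π ρ) (X : Euc m) (Y : Euc n) :
    (Li w X Y ∘L adj (A0t π ρ w X)) ∘L Bt π ρ w X = 0 := by
  rw [ContinuousLinearMap.comp_assoc]
  have h1 := GLK_128.A0_BB (q := fderiv ℝ w X) (frame_fr hf)
  rw [show adj (A0t π ρ w X) ∘L Bt π ρ w X = _ from h1]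
  simp

theorem rho_At (hf : Frame π ρ) (X : Euc m) (Y : Euc n) :
    ρ ∘L At π ρ w X Y = fderiv ℝ w X := by
  ext1 v
  simp [At, AA, rho_adj hf, rho_adj_pi hf]

theorem rho_Bt (hf : Frame π ρ) (X : Euc m) :
    ρ ∘L Bt π ρ w X = ContinuousLinearMap.id ℝ (Euc n) := by
  ext1 v
  simp [Bt, BB, rho_adj hf, rho_adj_pi hf]

/-- the derivative of the chart as an equivalence -/
def eqv (h : Gr r w) (hf : Frame π ρ) (X : Euc m) {Y : Euc n} (hY : ‖Y‖ ≤ 2 * r) :
    (Euc m × Euc n) ≃L[ℝ] Euc k :=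
  ContinuousLinearEquiv.equivOfInverse
    ((At π ρ w X Y) ∘L ContinuousLinearMap.fst ℝ (Euc m) (Euc n)
      + (Bt π ρ w X) ∘L ContinuousLinearMap.snd ℝ (Euc m) (Euc n))
    ((Li w X Y ∘L adj (A0t π ρ w X)).prod (ρ - fderiv ℝ w X ∘L (Li w X Y ∘L adj (A0t π ρ w X))))
    (by
      have h1 : ∀ v, (Li w X Y ∘L adj (A0t π ρ w X)) (At π ρ w X Y v) = v := fun v =>
        congrArg (fun T : Euc m →L[ℝ] Euc m => T v) (dfx_A h hf X hY)
      have h2 : ∀ v, (Li w X Y ∘L adj (A0t π ρ w X)) (Bt π ρ w X v) = 0 := fun v =>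
        congrArg (fun T : Euc n →L[ℝ] Euc m => T v) (dfx_B h hf X Y)
      have h3 : ∀ v, ρ (At π ρ w X Y v) = fderiv ℝ w X v := fun v =>
        congrArg (fun T : Euc m →L[ℝ] Euc n => T v) (rho_At (w := w) hf X Y)
      have h4 : ∀ v, ρ (Bt π ρ w X v) = v := fun v =>
        congrArg (fun T : Euc n →L[ℝ] Euc n => T v) (rho_Bt (w := w) hf X)
      rintro ⟨v, y⟩
      have e1 : (Li w X Y ∘L adj (A0t π ρ w X)) (At π ρ w X Y v + Bt π ρ w X y) = v := by
        rw [map_add, h1, h2, add_zero]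
      have e2 : (ρ - fderiv ℝ w X ∘L (Li w X Y ∘L adj (A0t π ρ w X)))
          (At π ρ w X Y v + Bt π ρ w X y) = y := by
        rw [_root_.sub_apply, ContinuousLinearMap.comp_apply, e1, map_add, h3, h4]
        abel
      exact Prod.ext e1 e2)
    (by
      intro z
      set d := (Li w X Y ∘L adj (A0t π ρ w X)) z with hd
      have H := h.inv X hY
      show At π ρ w X Y d + Bt π ρ w X (ρ z - fderiv ℝ w X d) = z
      -- the remainder is normal
      set u := z - At π ρ w X Y d with hu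
      have hA : adj (A0t π ρ w X) u = 0 := by
        have h1 : adj (A0t π ρ w X) (At π ρ w X Y d) = (gg (fderiv ℝ w X) - Yo w X Y) d :=
          congrArg (fun T : Euc m →L[ℝ] Euc m => T d)
            (GLK_128.A0_AA (q := fderiv ℝ w X) (Y := Yo w X Y) (frame_fr hf))
        have h2 : (gg (fderiv ℝ w X) - Yo w X Y) d = adj (A0t π ρ w X) z :=
          congrArg (fun T : Euc m →L[ℝ] Euc m => T (adj (A0t π ρ w X) z)) H.l2
        rw [hu, map_sub, h1, h2, sub_self]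
      have h5 := congrArg (fun T : Euc k →L[ℝ] Euc k => T u) (H.decomp (frame_fr hf))
      simp only [ContinuousLinearMap.add_apply, ContinuousLinearMap.comp_apply,
        ContinuousLinearMap.id_apply] at h5
      have hA' : adj (A0 (adj π) (adj ρ) (fderiv ℝ w X)) u = 0 := hA
      rw [hA', map_zero, map_zero, zero_add] at h5
      -- `u = B c`, `ρ u = c`
      set c := hinv (fderiv ℝ w X) (adj (BB (adj π) (adj ρ) (fderiv ℝ w X)) u) with hc
      have h6 : ρ u = c := by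
        have h7 : ρ (Bt π ρ w X c) = c :=
          congrArg (fun T : Euc n →L[ℝ] Euc n => T c) (rho_Bt (w := w) hf X)
        have h8 : Bt π ρ w X c = u := h5
        rw [← h8, h7]
      have h9 : ρ z - fderiv ℝ w X d = c := by
        have h3 : ρ (At π ρ w X Y d) = fderiv ℝ w X d :=
          congrArg (fun T : Euc m →L[ℝ] Euc n => T d) (rho_At (w := w) hf X Y)
        rw [← h6, hu, map_sub, h3]
      rw [h9]
      have h8 : Bt π ρ w X c = u := h5
      rw [h8, hu]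
      abel)

theorem coe_eqv (h : Gr r w) (hf : Frame π ρ) (X : Euc m) {Y : Euc n} (hY : ‖Y‖ ≤ 2 * r) :
    (eqv h hf X hY : (Euc m × Euc n) →L[ℝ] Euc k) =
      (At π ρ w X Y) ∘L ContinuousLinearMap.fst ℝ (Euc m) (Euc n)
      + (Bt π ρ w X) ∘L ContinuousLinearMap.snd ℝ (Euc m) (Euc n) := rfl

/-- the chart as a partial homeomorphism onto the tube -/
def chart (x : Euc k) (h : Gr r w) (hf : Frame π ρ) :
    OpenPartialHomeomorph (Euc m × Euc n) (Euc k) where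
  toFun := Phi π ρ x w
  invFun := fun z => (foot π ρ x r w z, yy π ρ x r w z)
  source := {q | Phi π ρ x w q ∈ tube π ρ x r w ∧ ‖q.2‖ < 2 * r}
  target := tube π ρ x r w
  map_source' := fun q hq => hq.1
  map_target' := fun z hz => ⟨by rw [h.Phi_coord hf hz]; exact hz, h.norm_yy_lt hz⟩
  left_inv' := fun q hq => Prod.ext (h.foot_Phi hf hq.2.le) (h.yy_Phi hf hq.2.le)
  right_inv' := fun z hz => h.Phi_coord hf hz
  open_source := (h.isOpen_tube.preimage h.contDiff_Phi.continuous).inter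
    (isOpen_lt continuous_snd.norm continuous_const)
  open_target := h.isOpen_tube
  continuousOn_toFun := h.contDiff_Phi.continuous.continuousOn
  continuousOn_invFun := (h.continuousOn_foot hf).prodMk (h.continuousOn_yy hf)

theorem Gr.contDiffAt_coord (h : Gr r w) (hf : Frame π ρ) {z : Euc k}
    (hz : z ∈ tube π ρ x r w) :
    ContDiffAt ℝ 3 (fun z => (foot π ρ x r w z, yy π ρ x r w z)) z := by
  have h1 := (chart x h hf).contDiffAt_symm (n := 3) (f₀' := eqv h hf (foot π ρ x r w z)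
    (Y := yy π ρ x r w z) (h.norm_yy_lt hz).le) (a := z) hz
    (by
      rw [coe_eqv]
      exact h.hasFDerivAt_Phi (foot π ρ x r w z, yy π ρ x r w z))
    h.contDiff_Phi.contDiffAt
  exact h1

theorem Gr.contDiffAt_foot (h : Gr r w) (hf : Frame π ρ) {z : Euc k}
    (hz : z ∈ tube π ρ x r w) : ContDiffAt ℝ 3 (foot π ρ x r w) z :=
  contDiffAt_fst.comp z (h.contDiffAt_coord hf hz)

theorem Gr.contDiffAt_yy (h : Gr r w) (hf : Frame π ρ) {z : Euc k}
    (hz : z ∈ tube π ρ x r w) : ContDiffAt ℝ 3 (yy π ρ x r w) z :=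
  contDiffAt_snd.comp z (h.contDiffAt_coord hf hz)

theorem Gr.hasFDerivAt_foot (h : Gr r w) (hf : Frame π ρ) {z : Euc k}
    (hz : z ∈ tube π ρ x r w) : HasFDerivAt (foot π ρ x r w) (dft π ρ x r w z) z := by
  have h1 := (chart x h hf).hasFDerivAt_symm (f' := eqv h hf (foot π ρ x r w z)
    (Y := yy π ρ x r w z) (h.norm_yy_lt hz).le) (a := z) hz
    (by
      rw [coe_eqv]
      exact h.hasFDerivAt_Phi (foot π ρ x r w z, yy π ρ x r w z))
  exact (hasFDerivAt_fst (𝕜 := ℝ)).comp z h1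

theorem Gr.hasFDerivAt_yy (h : Gr r w) (hf : Frame π ρ) {z : Euc k}
    (hz : z ∈ tube π ρ x r w) : HasFDerivAt (yy π ρ x r w) (dyt π ρ x r w z) z := by
  have h1 := (chart x h hf).hasFDerivAt_symm (f' := eqv h hf (foot π ρ x r w z)
    (Y := yy π ρ x r w z) (h.norm_yy_lt hz).le) (a := z) hz
    (by
      rw [coe_eqv]
      exact h.hasFDerivAt_Phi (foot π ρ x r w z, yy π ρ x r w z))
  exact (hasFDerivAt_snd (𝕜 := ℝ)).comp z h1

end Crest.Agent.R234.Gi_456
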