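import Crest.Agent.R234.Gs4_685
import Crest.Agent.R234.Supm4_685
import Crest.Agent.R234.Gi2_456
import Crest.Agent.R234.GLK2_128

/-!
R234 (helper685), GL-SUP part 5: (S1), (S2) in the language of 456's `GL-INST` (`Gr`, `tube`, `foot`,
`yy`, centre `X0`, normalisation `L0`) for `Stat m k U V` and for `VD D`.
-/

set_option autoImplicit false
set_option linter.unusedSectionVars false

open MeasureTheory Metric Set Filter Topology
open scoped InnerProductSpace ContDiff ENNReal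

namespace Crest.Agent.R234.Gu_685

open Crest.GeometryTopology.Submanifold Crest.Agent.R234.Vf_884
open Crest.Agent.R234.Main_456 Crest.Agent.R234.Gi_456
open Crest.Agent.R234.Supm_685 Crest.Agent.R234.Gs_685
open Crest.Agent.R234.Gt_685 (tcl Nm Nt Ket)
open Crest.Agent.R234.Ell1_3 (gop ginv)

noncomputable section

variable {m n k : ℕ} {U : Set (Euc k)} {V : Measure (Euc k × L k)}
  {π : Euc k →L[ℝ] Euc m} {ρ : Euc k →L[ℝ] Euc n} {x z0 : Euc k} {r : ℝ} {w : Euc m → Euc n}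
  {L0 : Euc m →L[ℝ] Euc m} {X0 : Euc m} {κ h t s : ℝ}

/-- the region `‖L0 (π(z - x) - X0)‖ ≤ t`, vertical height `≤ r` -/
def reg (π : Euc k →L[ℝ] Euc m) (ρ : Euc k →L[ℝ] Euc n) (x : Euc k) (w : Euc m → Euc n)
    (L0 : Euc m →L[ℝ] Euc m) (X0 : Euc m) (t r : ℝ) : Set (Euc k) :=
  {z | ‖L0 (π (z - x) - X0)‖ ≤ t ∧ ‖ρ (z - x) - w (π (z - x))‖ ≤ r}

theorem ht_eq (z : Euc k) : ht π ρ x 1 w z = ρ (z - x) - w (π (z - x)) := by simp [ht]

theorem reg_eq : reg π ρ x w L0 X0 t r = tcl π ρ x w L0 X0 t r := by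
  ext z
  simp only [reg, tcl, mem_ofPred_eq, ht_eq]

/-- squared distance to the graph, `2 f` -/
def dsq (π : Euc k →L[ℝ] Euc m) (ρ : Euc k →L[ℝ] Euc n) (x : Euc k) (r : ℝ) (w : Euc m → Euc n)
    (z : Euc k) : ℝ :=
  ‖yy π ρ x r w z‖ ^ 2 +
    ‖ContinuousLinearMap.adjoint (fderiv ℝ w (foot π ρ x r w z)) (yy π ρ x r w z)‖ ^ 2

theorem dsq_eq (z : Euc k) : dsq π ρ x r w z = tf w (foot π ρ x r w) (yy π ρ x r w) z := rfl

theorem dsq_nonneg (z : Euc k) : 0 ≤ dsq π ρ x r w z := by unfold dsq; positivity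

/-- `2 f = |B y|²` -/
theorem dsq_eq_norm (hf : Frame π ρ) (z : Euc k) :
    dsq π ρ x r w z = ‖Bt π ρ w (foot π ρ x r w z) (yy π ρ x r w z)‖ ^ 2 := by
  rw [dsq_eq, tf, ← norm_nv_sq (fr_of_frame hf)]
  congr 2

/-- tilt relative to the tangent plane of `M` at the foot, `∑ ‖(ρ - Dw π) P b_j‖²` -/
def tfoot (π : Euc k →L[ℝ] Euc m) (ρ : Euc k →L[ℝ] Euc n) (x : Euc k) (r : ℝ) (w : Euc m → Euc n)
    (p : Euc k × L k) : ℝ := tau (nf π ρ (fderiv ℝ w (foot π ρ x r w p.1))) p.2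

theorem tfoot_nonneg (p : Euc k × L k) : 0 ≤ tfoot π ρ x r w p := tau_nonneg _ _

/-- the standing hypotheses -/
structure Hy (V : Measure (Euc k × L k)) (π : Euc k →L[ℝ] Euc m) (ρ : Euc k →L[ℝ] Euc n)
    (x : Euc k) (r : ℝ) (w : Euc m → Euc n) (L0 : Euc m →L[ℝ] Euc m) (X0 : Euc m)
    (κ h t : ℝ) : Prop where
  frame : Frame π ρ
  gr : Gr r w
  le : ∀ v, ‖v‖ ≤ ‖L0 v‖
  norm : ‖L0‖ ≤ 2
  k0 : 0 ≤ κ
  h0 : 0 ≤ h
  kh : κ * h ≤ 1 / 2
  hr : 2 * h ≤ r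
  d2 : ∀ X, ‖L0 (X - X0)‖ ≤ t + h → ‖fderiv ℝ (fderiv ℝ w) X‖ ≤ κ
  mn : ∀ X, ‖L0 (X - X0)‖ ≤ t + h → Msys w X = 0
  ae : ∀ᵐ p ∂V, p.1 ∈ reg π ρ x w L0 X0 t r → ‖ρ (p.1 - x) - w (π (p.1 - x))‖ ≤ h

/-- the base domain -/
def dom (L0 : Euc m →L[ℝ] Euc m) (X0 : Euc m) (T : ℝ) : Set (Euc m) := {X | ‖L0 (X - X0)‖ ≤ T}

theorem convex_dom (T : ℝ) : Convex ℝ (dom L0 X0 T) := by
  intro a ha b hb c d hc hd hcd
  have h1 : c • a + d • b - X0 = c • (a - X0) + d • (b - X0) := by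
    have : X0 = c • X0 + d • X0 := by rw [← add_smul, hcd, one_smul]
    nth_rewrite 1 [this]
    simp only [smul_sub]
    abel
  change ‖L0 (c • a + d • b - X0)‖ ≤ T
  rw [h1, map_add, map_smul, map_smul]
  refine (norm_add_le _ _).trans ?_
  rw [norm_smul, norm_smul, Real.norm_of_nonneg hc, Real.norm_of_nonneg hd]
  have ha' : ‖L0 (a - X0)‖ ≤ T := ha
  have hb' : ‖L0 (b - X0)‖ ≤ T := hb
  calc c * ‖L0 (a - X0)‖ + d * ‖L0 (b - X0)‖ ≤ c * T + d * T := by gcongr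
    _ = T := by rw [← add_mul, hcd, one_mul]

namespace Hy

variable (H : Hy V π ρ x r w L0 X0 κ h t)
include H

theorem bd : Bd w (dom L0 X0 (t + h)) κ where
  smooth := H.gr.cd.of_le (by norm_num)
  conv := convex_dom _
  d1 v _ := (H.gr.d1 v).trans (by norm_num)
  d2 v hv := H.d2 v hv

theorem mem_tube {z : Euc k} (hz : ‖ρ (z - x) - w (π (z - x))‖ ≤ h) : z ∈ tube π ρ x r w := by
  have h1 := H.hr
  have h2 := H.gr.pos
  have h3 := H.h0
  change ‖ρ (z - x) - w (π (z - x))‖ < r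
  linarith

theorem foot' {z : Euc k} (hz : z ∈ tube π ρ x r w) :
    Foot π ρ x w z (foot π ρ x r w z) (yy π ρ x r w z) where
  hp := by
    have h1 := H.gr.foot_fix hz
    nth_rewrite 1 [h1]
    abel
  hr := by simp [yy]

theorem norm_yy {z : Euc k} (hz : ‖ρ (z - x) - w (π (z - x))‖ ≤ h) :
    ‖yy π ρ x r w z‖ ≤ 2 * h := by
  have h1 := H.gr.norm_yy_le (H.mem_tube hz)
  have h2 := H.h0
  linarith

theorem foot_mem {z : Euc k} (hz : ‖ρ (z - x) - w (π (z - x))‖ ≤ h)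
    (hz2 : ‖L0 (π (z - x) - X0)‖ ≤ t) : foot π ρ x r w z ∈ dom L0 X0 (t + h) := by
  have h1 := H.gr.norm_foot_sub (H.mem_tube hz)
  have h2 : foot π ρ x r w z - X0 = (foot π ρ x r w z - π (z - x)) + (π (z - x) - X0) := by abel
  change ‖L0 (foot π ρ x r w z - X0)‖ ≤ t + h
  rw [h2, map_add]
  refine (norm_add_le _ _).trans ?_
  have h3 : ‖L0 (foot π ρ x r w z - π (z - x))‖ ≤ 2 * (1 / 4 * h) :=
    (L0.le_opNorm _).trans (mul_le_mul H.norm (h1.trans (by gcongr)) (norm_nonneg _) (by norm_num))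
  have h4 := H.h0
  linarith

theorem isCompact_reg (t' r' : ℝ) : IsCompact (reg π ρ x w L0 X0 t' r') := by
  rw [reg_eq]
  exact Gt_685.isCompact_tcl (fr_of_frame H.frame) ⟨H.le, H.norm⟩ H.bd.smooth

theorem reg_subset_tube : reg π ρ x w L0 X0 t (r / 2) ⊆ tube π ρ x r w := by
  intro z hz
  have h1 := hz.2
  have h2 := H.gr.pos
  change ‖ρ (z - x) - w (π (z - x))‖ < r
  linarith

theorem continuousOn_dsq : ContinuousOn (dsq π ρ x r w) (tube π ρ x r w) := by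
  have h1 := H.gr.continuousOn_foot H.frame (x := x)
  have h2 := H.gr.continuousOn_yy H.frame (x := x)
  have h3 : Continuous fun q : Euc m →L[ℝ] Euc n => ContinuousLinearMap.adjoint q :=
    (ContinuousLinearMap.adjoint (𝕜 := ℝ) (E := Euc m) (F := Euc n)).continuous
  have h4 : ContinuousOn (fun z => ContinuousLinearMap.adjoint
      (fderiv ℝ w (foot π ρ x r w z))) (tube π ρ x r w) :=
    h3.comp_continuousOn (H.gr.cd1.continuous.comp_continuousOn h1)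
  exact (h2.norm.pow 2).add ((h4.clm_apply h2).norm.pow 2)

theorem reg_ae : (Prod.fst ⁻¹' reg π ρ x w L0 X0 t r : Set (Euc k × L k)) ≤ᵐ[V]
    (Prod.fst ⁻¹' reg π ρ x w L0 X0 t (r / 2) : Set (Euc k × L k)) := by
  filter_upwards [H.ae] with p hp hpr
  exact ⟨hpr.1, (hp hpr).trans (by linarith [H.hr])⟩

theorem int (hV : Stat m k U V) (hU : reg π ρ x w L0 X0 t r ⊆ U) :
    IntegrableOn (fun p : Euc k × L k => dsq π ρ x r w p.1)
      (Prod.fst ⁻¹' reg π ρ x w L0 X0 t r) V := by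
  have hr2 : r / 2 ≤ r := by have := H.gr.pos; linarith
  have hsub : reg π ρ x w L0 X0 t (r / 2) ⊆ reg π ρ x w L0 X0 t r := fun z hz =>
    ⟨hz.1, hz.2.trans hr2⟩
  have hK := H.isCompact_reg t (r / 2)
  have hc : ContinuousOn (dsq π ρ x r w) (reg π ρ x w L0 X0 t (r / 2)) :=
    H.continuousOn_dsq.mono H.reg_subset_tube
  obtain ⟨C, hC⟩ := hK.exists_bound_of_continuousOn hc
  have hS : MeasurableSet (Prod.fst ⁻¹' reg π ρ x w L0 X0 t (r / 2) : Set (Euc k × L k)) :=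
    (hK.isClosed.preimage continuous_fst).measurableSet
  have hlt : V (Prod.fst ⁻¹' reg π ρ x w L0 X0 t (r / 2)) < ⊤ := by
    have h1 := hV.fin _ hK (hsub.trans hU)
    have h2 : (Prod.fst ⁻¹' reg π ρ x w L0 X0 t (r / 2) : Set (Euc k × L k)) =
        reg π ρ x w L0 X0 t (r / 2) ×ˢ univ := by ext p; simp
    rw [h2]; exact h1
  refine IntegrableOn.mono_set_ae ?_ H.reg_ae
  have hfin : IsFiniteMeasure (V.restrict (Prod.fst ⁻¹' reg π ρ x w L0 X0 t (r / 2))) :=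
    ⟨by rw [Measure.restrict_apply_univ]; exact hlt⟩
  refine Integrable.mono' (integrable_const C) ?_ ?_
  · have h3 : ContinuousOn (fun p : Euc k × L k => dsq π ρ x r w p.1)
        (Prod.fst ⁻¹' reg π ρ x w L0 X0 t (r / 2)) :=
      hc.comp continuousOn_fst (fun p hp => hp)
    exact h3.aestronglyMeasurable hS
  · filter_upwards [ae_restrict_mem hS] with p hp
    exact hC p.1 hp

theorem nt (hV : Stat m k U V) (hU : reg π ρ x w L0 X0 t r ⊆ U) :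
    Nt V π ρ x w (foot π ρ x r w) (yy π ρ x r w) (EuclideanSpace.basisFun (Fin m) ℝ) L0 X0
      (dom L0 X0 (t + h)) κ (2 * h) t r where
  fr := fr_of_frame H.frame
  nm := ⟨H.le, H.norm⟩
  bd := H.bd
  k0 := H.k0
  kh := by have := H.kh; linarith
  dD v hv := hv.trans (by linarith [H.h0])
  mn v hv := by
    have h4 : ∀ i, (EuclideanSpace.basisFun (Fin m) ℝ) i = stdVec m i := fun i => by
      simp [stdVec]
    simp only [h4]
    exact H.mn v hv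
  ae := by
    filter_upwards [H.ae] with p hp hpt
    rw [← reg_eq] at hpt
    have h1 := hp hpt
    refine ⟨?_, H.foot' (H.mem_tube h1), H.foot_mem h1 hpt.1, H.norm_yy h1⟩
    rw [ht_eq]
    exact h1.trans (by linarith [H.hr])
  int := by
    rw [← reg_eq]
    exact H.int hV hU

/-- (S2) **energy bound**: over `{‖L0 (foot - X0)‖ ≤ s}`. -/
theorem energy (hV : Stat m k U V) (hU : reg π ρ x w L0 X0 t r ⊆ U) (hs : 0 ≤ s)
    (hst : s + 4 * h < t) :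
    ∫ p in {p | ‖L0 (foot π ρ x r w p.1 - X0)‖ ≤ s ∧ p.1 ∈ reg π ρ x w L0 X0 t r},
        tfoot π ρ x r w p ∂V ≤
      4 * Ket * (((t - s) ^ 2)⁻¹ + (m + 1) ^ 2 * κ ^ 2) *
        ∫ p in Prod.fst ⁻¹' reg π ρ x w L0 X0 t r, dsq π ρ x r w p.1 ∂V := by
  have h1 := Gt_685.energy_foot_x (Al7_182.st_of_stat hV) (Al7_182.tr_ae hV) (by simp) (H.nt hV hU)
    hs (by linarith) (by linarith [H.h0]) H.gr.pos (by rw [← reg_eq]; exact hU)
  rw [← reg_eq] at h1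
  exact h1

/-- (S1) **sup bound** at a point of density `≥ A`. -/
theorem sup (hV : Stat m k U V) (hm : 1 ≤ m) (hU : reg π ρ x w L0 X0 t r ⊆ U) {d : ℝ}
    (hd : 0 < d) (hU' : closedBall z0 d ⊆ U)
    (hz0 : ‖ρ (z0 - x) - w (π (z0 - x))‖ ≤ h)
    (hxs : ‖L0 (foot π ρ x r w z0 - X0)‖ + 2 * h + 2 * d ≤ t) (hρ : 4 * h + 2 * d ≤ r)
    (hκ : 64 * m * κ ^ 2 * d ^ 2 ≤ 1) {A : ℝ} (hA0 : 0 ≤ A) (hA : ENNReal.ofReal A ≤ Th m V z0) :
    A * ome m * dsq π ρ x r w z0 ≤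
      2 * ((d ^ m)⁻¹ * ∫ p in Prod.fst ⁻¹' reg π ρ x w L0 X0 t r, dsq π ρ x r w p.1 ∂V) := by
  have ht0 := H.mem_tube hz0
  have h1 := Gt_685.sup_foot_x (Al7_182.st_of_stat hV) (Al7_182.tr_ae hV) (by simp) (H.nt hV hU)
    (z0 := z0) hd hU' (H.foot' ht0) ?_ (H.norm_yy hz0) hxs (by linarith) hκ
    (mul_nonneg hA0 (ome_pos m).le) (dens_of_Th hV hm hd hU' hA0 hA)
  · rw [← reg_eq] at h1
    exact h1
  · change ‖L0 (foot π ρ x r w z0 - X0)‖ ≤ t + h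
    linarith [H.h0]

/-- the right hand side over `{‖L0 (foot - X0)‖ ≤ t + 2 h}` -/
theorem rhs_le (hV : Stat m k U V) (hU : reg π ρ x w L0 X0 t r ⊆ U) :
    ∫ p in Prod.fst ⁻¹' reg π ρ x w L0 X0 t r, dsq π ρ x r w p.1 ∂V ≤
      ∫ p in {p | ‖L0 (foot π ρ x r w p.1 - X0)‖ ≤ t + 2 * h ∧ p.1 ∈ reg π ρ x w L0 X0 t r},
        dsq π ρ x r w p.1 ∂V := by
  have h1 := (H.nt hV hU).rhs_le (by linarith [H.h0])
  rw [← reg_eq] at h1
  exact h1

end Hy

/-! ### comparison of the tilts -/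

/-- 128's normal projection is `1 - pg`. -/
theorem NN_eq (hf : Frame π ρ) {q : Euc m →L[ℝ] Euc n} {Y : Euc m →L[ℝ] Euc m}
    {hi : Euc n →L[ℝ] Euc n} {Li : Euc m →L[ℝ] Euc m} (H : GLK_128.Inv q Y (ginv q) hi Li) :
    GLK_128.NN (ContinuousLinearMap.adjoint π) (ContinuousLinearMap.adjoint ρ) q hi =
      1 - pg π ρ q := by
  have h1 := H.decomp (frame_fr hf)
  have h2 : pg π ρ q = GLK_128.A0 (ContinuousLinearMap.adjoint π)
    (ContinuousLinearMap.adjoint ρ) q ∘L ginv q ∘L ContinuousLinearMap.adjoint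
      (GLK_128.A0 (ContinuousLinearMap.adjoint π) (ContinuousLinearMap.adjoint ρ) q) := rfl
  rw [h2, eq_sub_iff_add_eq, add_comm]
  exact h1

theorem tau0_le_tfoot (hf : Frame π ρ) (hw : Gr r w) {p : Euc k × L k}
    (hp : p.1 ∈ tube π ρ x r w) (hP : p.2 ∈ G m k) :
    GLK_128.tau0 (ContinuousLinearMap.adjoint π) (ContinuousLinearMap.adjoint ρ)
      (fderiv ℝ w (foot π ρ x r w p.1)) (hinv (fderiv ℝ w (foot π ρ x r w p.1))) p.2 ≤
      tfoot π ρ x r w p := by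
  have h1 := hw.inv (foot π ρ x r w p.1) (Y := yy π ρ x r w p.1) (hw.norm_yy_lt hp).le
  rw [GLK_128.tau0, NN_eq hf h1]
  exact tr_compl_le (fr_of_frame hf) _ _ (Al7_182.isPr_of_G hP)

section VDS

variable {D : VarifoldData m k}

/-- a.e. point of an integral stationary varifold lies in its support and has density `≥ 1` -/
theorem ae_one_le (hU : IsOpen U) (hD : IsIntegralVarifoldIn U D) (hst : IsStationaryIn U D)
    (hm : 1 ≤ m) : ∀ᵐ p ∂(VD D), p.1 ∈ U → p.1 ∈ support D ∧ 1 ≤ Th m (VD D) p.1 := by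
  filter_upwards [Al7_182.ae_mem_spt (VD D)] with p hp hpU
  have h1 : p.1 ∈ support D := by
    intro ρ hρ
    have := hp ρ hρ
    rwa [mass_VD hD] at this
  exact ⟨h1, one_le_Th hD hst hm hU hpU h1⟩

/-- (S1) for an integral stationary varifold, a.e. (and on the support, `Hy.sup`). -/
theorem Hy.sup_ae (hU0 : IsOpen U) (hD : IsIntegralVarifoldIn U D) (hst : IsStationaryIn U D)
    (hm : 1 ≤ m) (H : Hy (VD D) π ρ x r w L0 X0 κ h t) {d : ℝ} (hd : 0 < d)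
    (hU : ∀ z ∈ reg π ρ x w L0 X0 t r, closedBall z d ⊆ U)
    (hρ : 4 * h + 2 * d ≤ r) (hκ : 64 * m * κ ^ 2 * d ^ 2 ≤ 1) :
    ∀ᵐ p ∂(VD D), p.1 ∈ reg π ρ x w L0 X0 t r →
      ‖L0 (foot π ρ x r w p.1 - X0)‖ + 2 * h + 2 * d ≤ t →
      ome m * dsq π ρ x r w p.1 ≤ 2 * ((d ^ m)⁻¹ *
        ∫ p in Prod.fst ⁻¹' reg π ρ x w L0 X0 t r, dsq π ρ x r w p.1 ∂(VD D)) := by
  have hUr : reg π ρ x w L0 X0 t r ⊆ U := fun z hz => hU z hz (mem_closedBall_self hd.le)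
  filter_upwards [ae_one_le hU0 hD hst hm, H.ae] with p h1 h2 hpr hps
  have h3 := H.sup (stat_VD hD hst) hm hUr hd (hU _ hpr) (h2 hpr) hps hρ hκ zero_le_one
    (by rw [ENNReal.ofReal_one]; exact (h1 (hUr hpr)).2)
  rwa [one_mul] at h3

end VDS

end

end Crest.Agent.R234.Gu_685
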