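import Crest.Agent.R234.F37_433
import Crest.Agent.R234.F3r_433
import Crest.Agent.R234.Gs5_685

/-!
# Row 234 (helper433), F3: from the scale 1 to the scale `s` (tube radius = scale = `s`)

`f3Qs_of : F3Q1 → F3Qs`.
-/

set_option autoImplicit false
set_option linter.unusedSectionVars false

open MeasureTheory Set Metric Function Filter Topology
open scoped ENNReal NNReal ContDiff RealInnerProductSpace
open Crest.GeometryTopology.Submanifold

noncomputable section

namespace Crest.Agent.R234.F3s_433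

open Crest.Agent.R234.Vf_884 Crest.Agent.R234.Main_456 Crest.Agent.R234.Grot_842
open Crest.Agent.R234.Vc_164 (hom resc measurable_hom continuous_hom hom_preimage_prod)
open Crest.Agent.R234.Ex_46 (hmt hmt' zoom)
open Crest.Agent.R234.Gi_456 (Gr tube ch)
open Crest.Agent.R234.GL_394 (Ch Loc VK bb)
open Crest.Agent.R234.F3r_433

local notation "adj" => ContinuousLinearMap.adjoint

variable {m n k : ℕ} {π : Euc k →L[ℝ] Euc m} {ρ : Euc k →L[ℝ] Euc n} {x : Euc k} {s : ℝ}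
  {w : Euc m → Euc n} {X0 : Euc m}

/-- the rescaling map is a measurable embedding -/
theorem emb_hom (x : Euc k) (hs : 0 < s) :
    MeasurableEmbedding (hom x s : Euc k × Vf_884.L k → Euc k × Vf_884.L k) := by
  refine MeasurableEquiv.measurableEmbedding
    { toFun := hom x s, invFun := fun p => (x + s • p.1, p.2),
      left_inv := fun p => ?_, right_inv := fun p => ?_,
      measurable_toFun := measurable_hom x s, measurable_invFun := ?_ }
  · exact Prod.ext (by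
      show x + s • (s⁻¹ • (p.1 - x)) = p.1
      rw [smul_smul, mul_inv_cancel₀ hs.ne', one_smul]; abel) rfl
  · exact Prod.ext (by
      show s⁻¹ • (x + s • p.1 - x) = p.1
      rw [add_sub_cancel_left, smul_smul, inv_mul_cancel₀ hs.ne', one_smul]) rfl
  · exact (by fun_prop : Continuous fun p : Euc k × Vf_884.L k => (x + s • p.1, p.2)).measurable

/-- measure of a set under the rescaling (no measurability) -/
theorem resc_real (x : Euc k) (hs : 0 < s) (V : Measure (Euc k × Vf_884.L k))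
    (A : Set (Euc k × Vf_884.L k)) :
    (resc m x s V).real A = (s ^ m)⁻¹ * V.real (hom x s ⁻¹' A) := by
  rw [Measure.real, resc, Measure.smul_apply, (emb_hom x hs).map_apply, smul_eq_mul,
    ENNReal.toReal_mul, ENNReal.toReal_ofReal (by positivity)]
  rfl

/-- set integrals under the rescaling (no measurability) -/
theorem setInt_resc (x : Euc k) (hs : 0 < s) (V : Measure (Euc k × Vf_884.L k))
    (A : Set (Euc k × Vf_884.L k)) (f : Euc k × Vf_884.L k → ℝ) :
    ∫ p in A, f p ∂(resc m x s V) = (s ^ m)⁻¹ * ∫ p in hom x s ⁻¹' A, f (hom x s p) ∂V := by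
  rw [resc, Measure.restrict_smul, integral_smul_measure, (emb_hom x hs).setIntegral_map,
    ENNReal.toReal_ofReal (by positivity), smul_eq_mul]

theorem pt_sc (π : Euc k →L[ℝ] Euc m) (ρ : Euc k →L[ℝ] Euc n) (x : Euc k) (w : Euc m → Euc n)
    (hs : 0 < s) (X : Euc m) :
    x + s • Foot_842.pt π ρ 0 (sc s w) (s⁻¹ • X) = Foot_842.pt π ρ x w X := by
  unfold Foot_842.pt
  rw [sc_apply, smul_smul s s⁻¹, mul_inv_cancel₀ hs.ne', one_smul, zero_add, smul_add,
    map_smul, map_smul, smul_smul, smul_smul, mul_inv_cancel₀ hs.ne', one_smul, one_smul]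
  abel

theorem iter_sc' (hs : 0 < s) (hw : ContDiff ℝ ∞ w) {j : ℕ} (hj : 1 ≤ j) (X : Euc m) :
    ‖iteratedFDeriv ℝ j (sc s w) X‖ ≤ s ^ (j - 1) * ‖iteratedFDeriv ℝ j w (s • X)‖ :=
  iter_sc (R := ‖X‖ + 1) hs hw.contDiffOn hj (mem_ball_zero_iff.2 (by linarith))

/-- **from the scale 1 to the scale `s`** -/
theorem f3Qs_of {Q : ℕ} (hm : 1 ≤ m) (h1 : F37_433.F3Q1 m n k Q) : F37_433.F3Qs m n k Q := by
  intro Λ hΛ
  obtain ⟨C, hC, h2⟩ := h1 Λ hΛ
  refine ⟨C, hC, fun a C' ha hC' => ?_⟩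
  obtain ⟨κ₀, H₀, hκ₀, hH₀, hH₁, hmain⟩ := h2 a C' ha hC'
  refine ⟨κ₀, H₀, hκ₀, hH₀, hH₁, ?_⟩
  intro π ρ x w X0 s κ ε H U K Dd g hf hU hD hst hs hgr hcd hκ hκle hbd hε hε1 hms hnb hloc hnu
    hm1 hm2 hH hHle hlog hHt hg0 hg1 hgz hgL
  have hgr' : Gr (s * 1) w := by rwa [mul_one]
  have hgr1 : Gr 1 (sc s w) := gr_sc hgr' hs one_pos
  set c : Ch m k := ch π ρ x s w X0 with hc
  set c' : Ch m k := ch π ρ 0 1 (sc s w) (s⁻¹ • X0) with hc'
  have hV' : VD (zoom x s Dd) = resc m x s (VD Dd) := Ex_46.VD_zoom hD x hs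
  have hKt : K ⊆ tube π ρ x s w := hloc.sub.trans inter_subset_left
  -- pointwise
  have ex : ∀ z ∈ tube π ρ x s w, c'.x (s⁻¹ • (z - x)) = s⁻¹ • c.x z := by
    intro z hz
    have := ch_x_sc (X0 := X0) (r := 1) hgr' hs one_pos (z := z) (π := π) (ρ := ρ) (x := x)
      (by rwa [mul_one])
    rwa [mul_one] at this
  have en : ∀ z ∈ tube π ρ x s w, c'.nu (s⁻¹ • (z - x)) = s⁻¹ • c.nu z := by
    intro z hz
    have := ch_nu_sc (X0 := X0) (r := 1) hgr' hs one_pos (z := z) (π := π) (ρ := ρ) (x := x)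
      (by rwa [mul_one])
    rwa [mul_one] at this
  have hnx : ∀ z ∈ tube π ρ x s w, ∀ R : ℝ,
      (‖c'.x (s⁻¹ • (z - x))‖ < R ↔ ‖c.x z‖ < R * s) := by
    intro z hz R
    rw [ex z hz, norm_smul, norm_inv, Real.norm_of_nonneg hs.le, inv_mul_lt_iff₀ hs, mul_comm]
  have hK' : ∀ z : Euc k, s⁻¹ • (z - x) ∈ hmt x s '' K ↔ z ∈ K := by
    intro z
    rw [hmt_image hs, smul_smul, mul_inv_cancel₀ hs.ne', one_smul, add_sub_cancel]
  have hpre : ∀ R : ℝ, hom x s ⁻¹' ({z | z ∈ hmt x s '' K ∧ ‖c'.x z‖ < R} ×ˢ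
      (univ : Set (Vf_884.L k))) = {z | z ∈ K ∧ ‖c.x z‖ < R * s} ×ˢ univ := by
    intro R
    ext p
    have e1 : (hom x s p).1 = s⁻¹ • (p.1 - x) := rfl
    simp only [mem_preimage, mem_prod, mem_ofPred_eq, mem_univ, and_true, e1, hK']
    constructor
    · rintro ⟨h1, h2⟩
      exact ⟨h1, (hnx _ (hKt h1) R).1 h2⟩
    · rintro ⟨h1, h2⟩
      exact ⟨h1, (hnx _ (hKt h1) R).2 h2⟩
  have hsm : (0:ℝ) < s ^ m := by positivity
  have hKm : MeasurableSet K := hloc.cpt.isClosed.measurableSet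
  have hVK : VK (VD (zoom x s Dd)) (hmt x s '' K) = resc m x s (VK (VD Dd) K) := by
    rw [hV', VK_resc x hs _ hKm]
  have haeK : ∀ᵐ p ∂(VK (VD Dd) K), p.1 ∈ tube π ρ x s w := by
    filter_upwards [ae_restrict_mem (hKm.prod MeasurableSet.univ)] with p hp
    exact hKt hp.1
  have haeK' : ∀ᵐ p ∂(VK (VD Dd) K), p.1 ∈ tube π ρ x (s * 1) w := by rwa [mul_one]
  have hmass : ∀ R : ℝ, (VD (zoom x s Dd)).real
      ({z | z ∈ hmt x s '' K ∧ ‖c'.x z‖ < R} ×ˢ univ) =
      (s ^ m)⁻¹ * (VD Dd).real ({z | z ∈ K ∧ ‖c.x z‖ < R * s} ×ˢ univ) := by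
    intro R
    rw [hV', resc_real x hs, hpre]
  -- the pull back of the statement
  have hmn := hmain π ρ 0 (sc s w) (s⁻¹ • X0) κ ε H (hmt' x s ⁻¹' U) (hmt x s '' K)
    (zoom x s Dd) g hf (hU.preimage (by unfold hmt'; fun_prop)) (Ex_46.integral_zoom hD x hs)
    (Ex_46.stationary_zoom hD hst x hs) hgr1 (sc_contDiff hcd) hκ hκle ?_ hε hε1 ?_ ?_ ?_ ?_ ?_ ?_ ?_
    hH hHle hlog ?_ hg0 hg1 hgz hgL
  · -- conclusion
    have hb := bb_sc (π := π) (ρ := ρ) (x := x) (X0 := X0) (r := 1) hgr' hs one_pos haeK' g (Q : ℝ) 0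
    rw [mul_one, add_zero] at hb
    have hf2 := f_sc (π := π) (ρ := ρ) (x := x) (X0 := X0) (r := 1) hgr' hs one_pos haeK'
      (fun v => g (‖v‖ ^ 2))
    rw [mul_one] at hf2
    rw [hVK] at hmn
    rw [hf2] at hmn
    rw [hb]
    have e3 : ∀ p : Euc k × Vf_884.L k, g (‖s⁻¹ • c.x p.1‖ ^ 2) = g (‖c.x p.1‖ ^ 2 / s ^ 2) := by
      intro p
      rw [norm_smul, norm_inv, Real.norm_of_nonneg hs.le, mul_pow, inv_pow, inv_mul_eq_div]
    simp only [← hc, e3] at hmn
    exact mul_le_mul_of_nonneg_left hmn (by positivity)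
  · -- derivatives
    intro j hj1 hj2 Y hY
    refine (iter_sc' hs hcd hj1 Y).trans (hbd j hj1 hj2 _ ?_)
    rw [mem_ball_iff_norm] at hY ⊢
    have e : s • Y - X0 = s • (Y - s⁻¹ • X0) := by
      rw [smul_sub, smul_smul, mul_inv_cancel₀ hs.ne', one_smul]
    rw [e, norm_smul, Real.norm_of_nonneg hs.le, mul_comm]
    exact mul_lt_mul_of_pos_right hY hs
  · -- minimality
    intro Y hY
    rw [Msys_sc hs.ne', hms, smul_zero]
    rw [mem_ball_iff_norm] at hY ⊢
    have e : s • Y - X0 = s • (Y - s⁻¹ • X0) := by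
      rw [smul_sub, smul_smul, mul_inv_cancel₀ hs.ne', one_smul]
    rw [e, norm_smul, Real.norm_of_nonneg hs.le, mul_comm]
    exact mul_lt_mul_of_pos_right hY hs
  · -- the neighbourhood
    intro X hX y hy
    have hX2 : ‖s • X - X0‖ < (1 + ε) * s := by
      have e : s • X - X0 = s • (X - s⁻¹ • X0) := by
        rw [smul_sub, smul_smul, mul_inv_cancel₀ hs.ne', one_smul]
      rw [e, norm_smul, Real.norm_of_nonneg hs.le, mul_comm]
      exact mul_lt_mul_of_pos_right hX hs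
    refine hnb _ hX2 ?_
    rw [mem_closedBall_iff_norm] at hy ⊢
    have e0 := pt_sc π ρ x w hs (s • X)
    rw [smul_smul, inv_mul_cancel₀ hs.ne', one_smul] at e0
    have e : hmt' x s y - Foot_842.pt π ρ x w (s • X) =
        s • (y - Foot_842.pt π ρ 0 (sc s w) X) := by
      rw [← e0]
      unfold hmt'
      rw [smul_sub]; abel
    rw [e, norm_smul, Real.norm_of_nonneg hs.le, mul_comm]
    exact mul_le_mul_of_nonneg_right hy hs.le
  · -- Loc
    rw [hV']
    have e : Real.log ((1 + ε) * s) = Real.log s + Real.log (1 + ε) := by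
      rw [Real.log_mul (by linarith) hs.ne', add_comm]
    rw [e] at hloc
    have := loc_sc (π := π) (ρ := ρ) (x := x) (X0 := X0) (r := 1) hgr' hs one_pos (U := U)
      (K := K) (V := VD Dd) (l := Real.log (1 + ε)) (by rw [mul_one]; exact hloc)
    exact this
  · -- heights
    rintro _ ⟨z, hz, rfl⟩
    show ‖c'.nu (s⁻¹ • (z - x))‖ ≤ _
    rw [en z (hKt hz), norm_smul, norm_inv, Real.norm_of_nonneg hs.le, inv_mul_le_iff₀ hs]
    have := hnu z hz
    linarith
  · -- density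
    filter_upwards [Gu_685.ae_one_le (hU.preimage (by unfold hmt'; fun_prop))
      (Ex_46.integral_zoom hD x hs) (Ex_46.stationary_zoom hD hst x hs) hm] with p hp hpU
    exact (hp hpU).2
  · -- mass 1
    rw [hmass, inv_mul_le_iff₀ hsm]
    exact hm1.trans (le_of_eq (mul_comm _ _))
  · -- mass 2
    rw [hmass]
    have hvol : volume.real (ball (0 : Euc m) (1 / 4 * s)) =
        s ^ m * volume.real (ball (0 : Euc m) (1 / 4)) := by
      have := Measure.addHaar_ball_mul_of_pos (volume : Measure (Euc m)) (0 : Euc m) hs (1 / 4)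
      rw [Measure.real, mul_comm (1 / 4 : ℝ) s, this, ENNReal.toReal_mul,
        ENNReal.toReal_ofReal (by positivity), finrank_euclideanSpace, Fintype.card_fin]
      rfl
    rw [hvol] at hm2
    set A := (VD Dd).real ({z | z ∈ K ∧ ‖c.x z‖ < 1 / 4 * s} ×ˢ univ) with hA
    set B := volume.real (ball (0 : Euc m) (1 / 4)) with hB
    have e : (s ^ m)⁻¹ * A - Q * B = (s ^ m)⁻¹ * (A - Q * (s ^ m * B)) := by
      field_simp
    rw [e, abs_mul, abs_of_pos (inv_pos.2 hsm), inv_mul_le_iff₀ hsm]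
    refine hm2.trans (le_of_eq ?_)
    ring
  · -- heights, integrated
    rw [hVK, setInt_resc x hs]
    have hset : hom x s ⁻¹' ({z | ‖c'.x z‖ < 1 + ε} ×ˢ (univ : Set (Vf_884.L k)))
        =ᵐ[VK (VD Dd) K] ({z | ‖c.x z‖ < (1 + ε) * s} ×ˢ (univ : Set (Vf_884.L k))) := by
      filter_upwards [haeK] with p hp
      refine propext ?_
      show (‖c'.x (s⁻¹ • (p.1 - x))‖ < 1 + ε ∧ _) ↔ (‖c.x p.1‖ < (1 + ε) * s ∧ _)
      rw [hnx p.1 hp]
      exact ⟨fun h => ⟨h.1, trivial⟩, fun h => ⟨h.1, trivial⟩⟩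
    rw [setIntegral_congr_set hset]
    have e2 : ∫ p in {z | ‖c.x z‖ < (1 + ε) * s} ×ˢ univ, 2 * c'.f (hom x s p).1
        ∂(VK (VD Dd) K) = (s ^ 2)⁻¹ * ∫ p in {z | ‖c.x z‖ < (1 + ε) * s} ×ˢ univ, 2 * c.f p.1
        ∂(VK (VD Dd) K) := by
      rw [← integral_const_mul]
      refine integral_congr_ae (ae_restrict_of_ae ?_)
      filter_upwards [haeK] with p hp
      have := ch_f_sc (X0 := X0) (r := 1) hgr' hs one_pos (z := p.1) (π := π) (ρ := ρ) (x := x)
        (by rwa [mul_one])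
      rw [mul_one] at this
      show 2 * c'.f (s⁻¹ • (p.1 - x)) = _
      rw [this]
      ring
    rw [e2, ← mul_assoc, ← mul_inv, ← pow_add, inv_mul_le_iff₀ (by positivity)]
    exact hHt.trans (le_of_eq (mul_comm _ _))

end Crest.Agent.R234.F3s_433
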