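import Crest.Agent.R234.F36_354
import Crest.Agent.R234.F3s_433

/-!
# Row 234 (helper433), F3: from the scale 1 to the scale `s` (tube radius = scale = `s`)

`F3Ps` : the statement at the scale `s`; `f3Ps_of : F36_354.F3P1 → F3Ps`.
-/

set_option autoImplicit false
set_option linter.unusedSectionVars false

open MeasureTheory Set Metric Function Filter Topology
open scoped ENNReal NNReal ContDiff RealInnerProductSpace
open Crest.GeometryTopology.Submanifold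

noncomputable section

namespace Crest.Agent.R234.F3t_433

open Crest.Agent.R234.Vf_884 Crest.Agent.R234.Main_456 Crest.Agent.R234.Grot_842
open Crest.Agent.R234.Vc_164 (hom resc measurable_hom continuous_hom hom_preimage_prod)
open Crest.Agent.R234.Ex_46 (hmt hmt' zoom)
open Crest.Agent.R234.Gi_456 (Gr tube ch)
open Crest.Agent.R234.GL_394 (Ch Loc VK bb)
open Crest.Agent.R234.F3r_433 Crest.Agent.R234.F3s_433

local notation "adj" => ContinuousLinearMap.adjoint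

/-- **F3 at the scale `s` in the tube of radius `s`** (from
`F36_354.F3P1`) -/
def F3Ps (m n k Q : ℕ) : Prop :=
  ∀ Λ : ℝ, 0 ≤ Λ → ∃ C : ℝ, 1 ≤ C ∧ ∀ a C' : ℝ, 0 < a → 0 < C' →
  ∃ κ₀ H₀ : ℝ, 0 < κ₀ ∧ 0 < H₀ ∧ H₀ < 1 ∧
  ∀ (π : Euc k →L[ℝ] Euc m) (ρ : Euc k →L[ℝ] Euc n) (x : Euc k) (w : Euc m → Euc n)
    (X0 : Euc m) (s κ ε H : ℝ) (U K : Set (Euc k)) (Dd : VarifoldData m k) (g : ℝ → ℝ),
  Frame π ρ → IsOpen U → IsIntegralVarifoldIn U Dd → IsStationaryIn U Dd →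
  0 < s → Gr s w → ContDiff ℝ ∞ w → 0 ≤ κ → κ ≤ κ₀ →
  (∀ j, 1 ≤ j → j ≤ 3 → ∀ Y ∈ ball X0 (2 * s), s ^ (j - 1) * ‖iteratedFDeriv ℝ j w Y‖ ≤ κ) →
  0 < ε → ε ≤ 1 → (∀ Y ∈ ball X0 ((1 + ε) * s), Msys w Y = 0) →
  closedBall (Foot_842.pt π ρ x w X0) (4 * s) ⊆ U →
  Loc (ch π ρ x s w X0) U (tube π ρ x s w) K (VD Dd) (Real.log ((1 + ε) * s)) →
  (∀ z ∈ K, ‖(ch π ρ x s w X0).nu z‖ ≤ s / 2) →
  (VD Dd).real ({z | z ∈ K ∧ ‖(ch π ρ x s w X0).x z‖ < (1 + ε) * s} ×ˢ univ) ≤ Λ * s ^ m →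
  |(VD Dd).real ({z | z ∈ K ∧ ‖(ch π ρ x s w X0).x z‖ < 1 / 4 * s} ×ˢ univ) -
    Q * volume.real (ball (0 : Euc m) (1 / 4 * s))| ≤
      1 / 4 * volume.real (ball (0 : Euc m) (1 / 4 * s)) →
  0 < H → H ≤ H₀ → (Real.log (1 / H)) ^ (-a) ≤ ε →
  ∫ p in {z | ‖(ch π ρ x s w X0).x z‖ < (1 + ε) * s} ×ˢ univ, 2 * (ch π ρ x s w X0).f p.1
    ∂(VK (VD Dd) K) ≤ H * s ^ (m + 2) →
  (∀ s, 0 ≤ g s) → (∀ s, 0 ≤ s → g s ≤ 1) → (∀ s, 1 ≤ s → g s = 0) →
  LipschitzWith 6 (fun v : Euc m => g (‖v‖ ^ 2)) →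
  bb (ch π ρ x s w X0) (VK (VD Dd) K) g Q (Real.log s) ≤
    s ^ 2 * (C * κ ^ 2 * ((s ^ (m + 2))⁻¹ *
      ∫ p, g (‖(ch π ρ x s w X0).x p.1‖ ^ 2 / s ^ 2) * (2 * (ch π ρ x s w X0).f p.1)
        ∂(VK (VD Dd) K)) + (Real.log (1 / H)) ^ (-C') * H)

variable {m n k : ℕ} {π : Euc k →L[ℝ] Euc m} {ρ : Euc k →L[ℝ] Euc n} {x : Euc k} {s : ℝ}
  {w : Euc m → Euc n} {X0 : Euc m}

/-- **from the scale 1 to the scale `s`** -/
theorem f3Ps_of {Q : ℕ} (hm : 1 ≤ m) (h1 : F36_354.F3P1 m n k Q) : F3Ps m n k Q := by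
  intro Λ hΛ
  obtain ⟨C, hC, h2⟩ := h1 Λ hΛ
  refine ⟨C, hC, fun a C' ha hC' => ?_⟩
  obtain ⟨κ₀, H₀, hκ₀, hH₀, hH₁, hmain⟩ := h2 a C' ha hC'
  refine ⟨κ₀, H₀, hκ₀, hH₀, hH₁, ?_⟩
  intro π ρ x w X0 s κ ε H U K Dd g hf hU hD hst hs hgr hcd hκ hκle hbd hε hε1 hms hnb hloc hnu
    hm1 hm2 hH hHle hlog hHt hg0 hg1 hgz hgL
  have hgr' : Gr (s * 1) w := by rwa [mul_one]
  have hgr1 : Gr 1 (sc s w) := gr_sc hgr' hs one_pos
  set c : Ch m k := ch π ρ x s w X0 with hc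
  set c' : Ch m k := ch π ρ 0 1 (sc s w) (s⁻¹ • X0) with hc'
  have hV' : VD (zoom x s Dd) = resc m x s (VD Dd) := Ex_46.VD_zoom hD x hs
  have hKt : K ⊆ tube π ρ x s w := hloc.sub.trans inter_subset_left
  -- pointwise
  have ex : ∀ z ∈ tube π ρ x s w, c'.x (s⁻¹ • (z - x)) = s⁻¹ • c.x z := by
    intro z hz
    have := ch_x_sc (X0 := X0) (r := 1) hgr' hs one_pos (z := z) (π := π) (ρ := ρ) (x := x)
      (by rwa [mul_one])
    rwa [mul_one] at this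
  have en : ∀ z ∈ tube π ρ x s w, c'.nu (s⁻¹ • (z - x)) = s⁻¹ • c.nu z := by
    intro z hz
    have := ch_nu_sc (X0 := X0) (r := 1) hgr' hs one_pos (z := z) (π := π) (ρ := ρ) (x := x)
      (by rwa [mul_one])
    rwa [mul_one] at this
  have hnx : ∀ z ∈ tube π ρ x s w, ∀ R : ℝ,
      (‖c'.x (s⁻¹ • (z - x))‖ < R ↔ ‖c.x z‖ < R * s) := by
    intro z hz R
    rw [ex z hz, norm_smul, norm_inv, Real.norm_of_nonneg hs.le, inv_mul_lt_iff₀ hs, mul_comm]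
  have hK' : ∀ z : Euc k, s⁻¹ • (z - x) ∈ hmt x s '' K ↔ z ∈ K := by
    intro z
    rw [hmt_image hs, smul_smul, mul_inv_cancel₀ hs.ne', one_smul, add_sub_cancel]
  have hpre : ∀ R : ℝ, hom x s ⁻¹' ({z | z ∈ hmt x s '' K ∧ ‖c'.x z‖ < R} ×ˢ
      (univ : Set (Vf_884.L k))) = {z | z ∈ K ∧ ‖c.x z‖ < R * s} ×ˢ univ := by
    intro R
    ext p
    have e1 : (hom x s p).1 = s⁻¹ • (p.1 - x) := rfl
    simp only [mem_preimage, mem_prod, mem_ofPred_eq, mem_univ, and_true, e1, hK']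
    constructor
    · rintro ⟨h1, h2⟩
      exact ⟨h1, (hnx _ (hKt h1) R).1 h2⟩
    · rintro ⟨h1, h2⟩
      exact ⟨h1, (hnx _ (hKt h1) R).2 h2⟩
  have hsm : (0:ℝ) < s ^ m := by positivity
  have hKm : MeasurableSet K := hloc.cpt.isClosed.measurableSet
  have hVK : VK (VD (zoom x s Dd)) (hmt x s '' K) = resc m x s (VK (VD Dd) K) := by
    rw [hV', VK_resc x hs _ hKm]
  have haeK : ∀ᵐ p ∂(VK (VD Dd) K), p.1 ∈ tube π ρ x s w := by
    filter_upwards [ae_restrict_mem (hKm.prod MeasurableSet.univ)] with p hp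
    exact hKt hp.1
  have haeK' : ∀ᵐ p ∂(VK (VD Dd) K), p.1 ∈ tube π ρ x (s * 1) w := by rwa [mul_one]
  have hmass : ∀ R : ℝ, (VD (zoom x s Dd)).real
      ({z | z ∈ hmt x s '' K ∧ ‖c'.x z‖ < R} ×ˢ univ) =
      (s ^ m)⁻¹ * (VD Dd).real ({z | z ∈ K ∧ ‖c.x z‖ < R * s} ×ˢ univ) := by
    intro R
    rw [hV', resc_real x hs, hpre]
  -- the pull back of the statement
  have hmn := hmain π ρ 0 (sc s w) (s⁻¹ • X0) κ ε H (hmt' x s ⁻¹' U) (hmt x s '' K)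
    (zoom x s Dd) g hf (hU.preimage (by unfold hmt'; fun_prop)) (Ex_46.integral_zoom hD x hs)
    (Ex_46.stationary_zoom hD hst x hs) hgr1 (sc_contDiff hcd) hκ hκle ?_ hε hε1 ?_ ?_ ?_ ?_ ?_ ?_ ?_
    hH hHle hlog ?_ hg0 hg1 hgz hgL
  · -- conclusion
    have hb := bb_sc (π := π) (ρ := ρ) (x := x) (X0 := X0) (r := 1) hgr' hs one_pos haeK' g (Q : ℝ) 0
    rw [mul_one, add_zero] at hb
    have hf2 := f_sc (π := π) (ρ := ρ) (x := x) (X0 := X0) (r := 1) hgr' hs one_pos haeK'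
      (fun v => g (‖v‖ ^ 2))
    rw [mul_one] at hf2
    rw [hVK] at hmn
    rw [hf2] at hmn
    rw [hb]
    have e3 : ∀ p : Euc k × Vf_884.L k, g (‖s⁻¹ • c.x p.1‖ ^ 2) = g (‖c.x p.1‖ ^ 2 / s ^ 2) := by
      intro p
      rw [norm_smul, norm_inv, Real.norm_of_nonneg hs.le, mul_pow, inv_pow, inv_mul_eq_div]
    simp only [← hc, e3] at hmn
    exact mul_le_mul_of_nonneg_left hmn (by positivity)
  · -- derivatives
    intro j hj1 hj2 Y hY
    refine (iter_sc' hs hcd hj1 Y).trans (hbd j hj1 hj2 _ ?_)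
    rw [mem_ball_iff_norm] at hY ⊢
    have e : s • Y - X0 = s • (Y - s⁻¹ • X0) := by
      rw [smul_sub, smul_smul, mul_inv_cancel₀ hs.ne', one_smul]
    rw [e, norm_smul, Real.norm_of_nonneg hs.le, mul_comm]
    exact mul_lt_mul_of_pos_right hY hs
  · -- minimality
    intro Y hY
    rw [Msys_sc hs.ne', hms, smul_zero]
    rw [mem_ball_iff_norm] at hY ⊢
    have e : s • Y - X0 = s • (Y - s⁻¹ • X0) := by
      rw [smul_sub, smul_smul, mul_inv_cancel₀ hs.ne', one_smul]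
    rw [e, norm_smul, Real.norm_of_nonneg hs.le, mul_comm]
    exact mul_lt_mul_of_pos_right hY hs
  · -- the ball
    intro y hy
    refine hnb ?_
    rw [mem_closedBall_iff_norm] at hy ⊢
    have e : hmt' x s y - Foot_842.pt π ρ x w X0 =
        s • (y - Foot_842.pt π ρ 0 (sc s w) (s⁻¹ • X0)) := by
      rw [← pt_sc π ρ x w hs X0]
      unfold hmt'
      rw [smul_sub]; abel
    rw [e, norm_smul, Real.norm_of_nonneg hs.le, mul_comm]
    exact mul_le_mul_of_nonneg_right hy hs.le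
  · -- Loc
    rw [hV']
    have e : Real.log ((1 + ε) * s) = Real.log s + Real.log (1 + ε) := by
      rw [Real.log_mul (by linarith) hs.ne', add_comm]
    rw [e] at hloc
    have := loc_sc (π := π) (ρ := ρ) (x := x) (X0 := X0) (r := 1) hgr' hs one_pos (U := U)
      (K := K) (V := VD Dd) (l := Real.log (1 + ε)) (by rw [mul_one]; exact hloc)
    exact this
  · -- heights
    rintro _ ⟨z, hz, rfl⟩
    show ‖c'.nu (s⁻¹ • (z - x))‖ ≤ _
    rw [en z (hKt hz), norm_smul, norm_inv, Real.norm_of_nonneg hs.le, inv_mul_le_iff₀ hs]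
    have := hnu z hz
    linarith
  · -- density
    filter_upwards [Gu_685.ae_one_le (hU.preimage (by unfold hmt'; fun_prop))
      (Ex_46.integral_zoom hD x hs) (Ex_46.stationary_zoom hD hst x hs) hm] with p hp hpU
    exact (hp hpU).2
  · -- mass 1
    rw [hmass, inv_mul_le_iff₀ hsm]
    exact hm1.trans (le_of_eq (mul_comm _ _))
  · -- mass 2
    rw [hmass]
    have hvol : volume.real (ball (0 : Euc m) (1 / 4 * s)) =
        s ^ m * volume.real (ball (0 : Euc m) (1 / 4)) := by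
      have := Measure.addHaar_ball_mul_of_pos (volume : Measure (Euc m)) (0 : Euc m) hs (1 / 4)
      rw [Measure.real, mul_comm (1 / 4 : ℝ) s, this, ENNReal.toReal_mul,
        ENNReal.toReal_ofReal (by positivity), finrank_euclideanSpace, Fintype.card_fin]
      rfl
    rw [hvol] at hm2
    set A := (VD Dd).real ({z | z ∈ K ∧ ‖c.x z‖ < 1 / 4 * s} ×ˢ univ) with hA
    set B := volume.real (ball (0 : Euc m) (1 / 4)) with hB
    have e : (s ^ m)⁻¹ * A - Q * B = (s ^ m)⁻¹ * (A - Q * (s ^ m * B)) := by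
      field_simp
    rw [e, abs_mul, abs_of_pos (inv_pos.2 hsm), inv_mul_le_iff₀ hsm]
    refine hm2.trans (le_of_eq ?_)
    ring
  · -- heights, integrated
    rw [hVK, setInt_resc x hs]
    have hset : hom x s ⁻¹' ({z | ‖c'.x z‖ < 1 + ε} ×ˢ (univ : Set (Vf_884.L k)))
        =ᵐ[VK (VD Dd) K] ({z | ‖c.x z‖ < (1 + ε) * s} ×ˢ (univ : Set (Vf_884.L k))) := by
      filter_upwards [haeK] with p hp
      refine propext ?_
      show (‖c'.x (s⁻¹ • (p.1 - x))‖ < 1 + ε ∧ _) ↔ (‖c.x p.1‖ < (1 + ε) * s ∧ _)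
      rw [hnx p.1 hp]
      exact ⟨fun h => ⟨h.1, trivial⟩, fun h => ⟨h.1, trivial⟩⟩
    rw [setIntegral_congr_set hset]
    have e2 : ∫ p in {z | ‖c.x z‖ < (1 + ε) * s} ×ˢ univ, 2 * c'.f (hom x s p).1
        ∂(VK (VD Dd) K) = (s ^ 2)⁻¹ * ∫ p in {z | ‖c.x z‖ < (1 + ε) * s} ×ˢ univ, 2 * c.f p.1
        ∂(VK (VD Dd) K) := by
      rw [← integral_const_mul]
      refine integral_congr_ae (ae_restrict_of_ae ?_)
      filter_upwards [haeK] with p hp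
      have := ch_f_sc (X0 := X0) (r := 1) hgr' hs one_pos (z := p.1) (π := π) (ρ := ρ) (x := x)
        (by rwa [mul_one])
      rw [mul_one] at this
      show 2 * c'.f (s⁻¹ • (p.1 - x)) = _
      rw [this]
      ring
    rw [e2, ← mul_assoc, ← mul_inv, ← pow_add, inv_mul_le_iff₀ (by positivity)]
    exact hHt.trans (le_of_eq (mul_comm _ _))

end Crest.Agent.R234.F3t_433
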