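import Crest.Agent.R234.F3d_433
import Crest.Agent.R234.F3t_433

/-!
# Row 234 (helper433), F3: comparison of the charts of two graphs which agree on a ball

`w' = w` on `ball X0 R'`, `Gr S w`, `Gr s w'`, `s ≤ S`, `|w' - w| ≤ S - s`.
-/

set_option autoImplicit false
set_option linter.unusedSectionVars false

open MeasureTheory Set Metric Function Filter Topology
open scoped ENNReal NNReal ContDiff RealInnerProductSpace
open Crest.GeometryTopology.Submanifold

noncomputable section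

namespace Crest.Agent.R234.F3e_433

open Crest.Agent.R234.Vf_884 Crest.Agent.R234.Main_456
open Crest.Agent.R234.Gi_456 (Gr tube ch foot yy IsFoot Lo Loi Loi_spec Bt jB hinv norm_rho_le')
open Crest.Agent.R234.GL_394 (Ch Loc VK bb EE ee On)

local notation "adj" => ContinuousLinearMap.adjoint

variable {m n k : ℕ} {π : Euc k →L[ℝ] Euc m} {ρ : Euc k →L[ℝ] Euc n} {x : Euc k}
  {w w' : Euc m → Euc n} {X0 : Euc m} {S s R' : ℝ}

/-- two graphs which agree on a ball -/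
structure Two (w w' : Euc m → Euc n) (X0 : Euc m) (S s R' : ℝ) : Prop where
  gr : Gr S w
  gr' : Gr s w'
  sS : s ≤ S
  cl : ∀ Y, ‖w' Y - w Y‖ ≤ S - s
  R0 : 0 < R'
  eq : ∀ Y ∈ ball X0 R', w' Y = w Y

namespace Two

variable (h : Two w w' X0 S s R')
include h

theorem ev {X : Euc m} (hX : X ∈ ball X0 R') : w' =ᶠ[𝓝 X] w :=
  eventually_of_mem (isOpen_ball.mem_nhds hX) h.eq

theorem dw {X : Euc m} (hX : X ∈ ball X0 R') : fderiv ℝ w' X = fderiv ℝ w X :=
  (h.ev hX).fderiv_eq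

theorem dw0 : fderiv ℝ w' X0 = fderiv ℝ w X0 := h.dw (mem_ball_self h.R0)

theorem msys {X : Euc m} (hX : X ∈ ball X0 R') : Msys w' X = Msys w X := by
  unfold Msys
  rw [h.dw hX, ((h.ev hX).fderiv (𝕜 := ℝ)).fderiv_eq]

/-- from the chart of `w` to the chart of `w'` -/
theorem fwd {z : Euc k} (hz : z ∈ tube π ρ x S w) (hX : foot π ρ x S w z ∈ ball X0 R')
    (hy : ‖yy π ρ x S w z‖ ≤ s / 8) :
    z ∈ tube π ρ x s w' ∧ foot π ρ x s w' z = foot π ρ x S w z := by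
  have hs := h.gr'.pos
  have h1 := h.gr.foot_spec hz
  set X := foot π ρ x S w z with hXdef
  have hyy : yy π ρ x S w z = ρ (z - x) - w X := rfl
  rw [hyy] at hy
  have h2 : IsFoot π ρ x s w' z X := by
    refine ⟨?_, ?_⟩
    · rw [h.dw hX, h.eq X hX]; exact h1.1
    · rw [h.eq X hX]; linarith
  refine ⟨?_, h.gr'.foot_eq h2⟩
  show ‖ρ (z - x) - w' (π (z - x))‖ < s
  have e1 : ρ (z - x) - w' (π (z - x)) = (ρ (z - x) - w X) + (w' X - w' (π (z - x))) := by
    rw [h.eq X hX]; abel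
  have e2 : X - π (z - x) = adj (fderiv ℝ w' X) (ρ (z - x) - w' X) := by
    have := h2.1
    rw [sub_eq_iff_eq_add']; exact this
  have h3 : ‖X - π (z - x)‖ ≤ 1 / 8 * (s / 8) := by
    rw [e2]
    refine (ContinuousLinearMap.le_opNorm _ _).trans ?_
    rw [LinearIsometryEquiv.norm_map, h.eq X hX]
    exact mul_le_mul (h.gr'.d1 X) hy (norm_nonneg _) (by norm_num)
  have h4 := h.gr'.lip X (π (z - x))
  rw [e1]
  refine lt_of_le_of_lt (norm_add_le _ _) ?_
  have h5 : 1 / 8 * ‖X - π (z - x)‖ ≤ 1 / 8 * (1 / 8 * (s / 8)) := by gcongr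
  linarith

/-- from the chart of `w'` to the chart of `w` -/
theorem bwd {z : Euc k} (hz : z ∈ tube π ρ x s w') (hX : foot π ρ x s w' z ∈ ball X0 R') :
    z ∈ tube π ρ x S w ∧ foot π ρ x S w z = foot π ρ x s w' z := by
  have hs := h.gr'.pos
  have hS := h.sS
  have h1 := h.gr'.foot_spec hz
  have hz' : ‖ρ (z - x) - w' (π (z - x))‖ < s := hz
  set X := foot π ρ x s w' z with hXdef
  have h2 : IsFoot π ρ x S w z X := by
    refine ⟨?_, ?_⟩
    · rw [← h.dw hX, ← h.eq X hX]; exact h1.1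
    · rw [← h.eq X hX]
      have := h1.2
      linarith
  refine ⟨?_, h.gr.foot_eq h2⟩
  show ‖ρ (z - x) - w (π (z - x))‖ < S
  have e1 : ρ (z - x) - w (π (z - x)) =
      (ρ (z - x) - w' (π (z - x))) + (w' (π (z - x)) - w (π (z - x))) := by abel
  rw [e1]
  refine lt_of_le_of_lt (norm_add_le _ _) ?_
  have := h.cl (π (z - x))
  linarith

/-- the chart quantities agree where the feet agree -/
theorem same {z : Euc k} (hX : foot π ρ x S w z ∈ ball X0 R')
    (he : foot π ρ x s w' z = foot π ρ x S w z) :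
    (ch π ρ x s w' X0).x z = (ch π ρ x S w X0).x z ∧
    (ch π ρ x s w' X0).nu z = (ch π ρ x S w X0).nu z ∧
    (ch π ρ x s w' X0).f z = (ch π ρ x S w X0).f z ∧
    ∀ P : Vf_884.L k, (ch π ρ x s w' X0).tau z P = (ch π ρ x S w X0).tau z P := by
  have hy : yy π ρ x s w' z = yy π ρ x S w z := by
    unfold yy
    rw [he, h.eq _ hX]
  have hn : (ch π ρ x s w' X0).nu z = (ch π ρ x S w X0).nu z := by
    show Bt π ρ w' (foot π ρ x s w' z) (yy π ρ x s w' z) =
      Bt π ρ w (foot π ρ x S w z) (yy π ρ x S w z)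
    rw [he, hy]
    unfold Bt
    rw [h.dw hX]
  refine ⟨?_, hn, ?_, fun P => ?_⟩
  · show Lo (fderiv ℝ w' X0) (foot π ρ x s w' z - X0) = Lo (fderiv ℝ w X0) (foot π ρ x S w z - X0)
    rw [he, h.dw0]
  · show ‖(ch π ρ x s w' X0).nu z‖ ^ 2 / 2 = ‖(ch π ρ x S w X0).nu z‖ ^ 2 / 2
    rw [hn]
  · show tr (GLK_128.NN (adj π) (adj ρ) (fderiv ℝ w' (foot π ρ x s w' z))
      (hinv (fderiv ℝ w' (foot π ρ x s w' z))) ∘L P) = tr (GLK_128.NN (adj π) (adj ρ)
      (fderiv ℝ w (foot π ρ x S w z)) (hinv (fderiv ℝ w (foot π ρ x S w z))) ∘L P)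
    rw [he, h.dw hX]

theorem j_eq {v : Euc m} (hv : ‖v‖ < R') : (ch π ρ x s w' X0).j v = (ch π ρ x S w X0).j v := by
  show jB w' X0 v = jB w X0 v
  have e1 : Gi_456.pt w' X0 v = Gi_456.pt w X0 v := by
    unfold Gi_456.pt
    rw [h.dw0]
  have e2 : Gi_456.pt w X0 v ∈ ball X0 R' := by
    rw [mem_ball_iff_norm]
    show ‖X0 + Loi (fderiv ℝ w X0) v - X0‖ < R'
    rw [add_sub_cancel_left]
    refine lt_of_le_of_lt ?_ hv
    exact (ContinuousLinearMap.le_opNorm _ _).trans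
      (mul_le_of_le_one_left (norm_nonneg _) (Loi_spec _).2.2)
  unfold jB
  rw [e1, h.dw e2, h.dw0]

omit h in
theorem foot_of_x {r : ℝ} {w : Euc m → Euc n} {z : Euc k} :
    ‖foot π ρ x r w z - X0‖ ≤ ‖(ch π ρ x r w X0).x z‖ :=
  Gi_456.le_norm_Lo _ _

/-- `|yy| ≤ |nu|` -/
theorem yy_le (hf : Frame π ρ) {z : Euc k} (hz : z ∈ tube π ρ x S w) :
    ‖yy π ρ x S w z‖ ≤ ‖(ch π ρ x S w X0).nu z‖ := by
  have h1 := (Foot_842.foot_normal hf (h.gr.foot_spec hz)).2.1
  have h2 : (ch π ρ x S w X0).nu z = z - Foot_842.pt π ρ x w (foot π ρ x S w z) :=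
    h.gr.nu_eq hf hz
  have e : yy π ρ x S w z = ρ ((ch π ρ x S w X0).nu z) := by
    rw [h2, h1]
    rfl
  rw [e]
  exact norm_rho_le' hf _

end Two

end Crest.Agent.R234.F3e_433
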