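import Crest.Agent.R234.F3e_433

/-!
# Row 234 (helper433), F3: `f3P_of : SmP → F3Ps → F3P`
-/

set_option autoImplicit false
set_option linter.unusedSectionVars false

open MeasureTheory Set Metric Function Filter Topology
open scoped ENNReal NNReal ContDiff RealInnerProductSpace
open Crest.GeometryTopology.Submanifold

noncomputable section

namespace Crest.Agent.R234.F3f_433

open Crest.Agent.R234.Vf_884 Crest.Agent.R234.Main_456
open Crest.Agent.R234.Gi_456 (Gr tube ch foot yy)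
open Crest.Agent.R234.GL_394 (Ch Loc VK bb EE ee On Reg)
open Crest.Agent.R234.F3e_433

variable {m n k : ℕ} {π : Euc k →L[ℝ] Euc m} {ρ : Euc k →L[ℝ] Euc n} {x : Euc k}
  {w w' : Euc m → Euc n} {X0 : Euc m} {S s R' : ℝ}

/-- restriction to a smaller compact set -/
theorem VK_sub (V : Measure (Euc k × Vf_884.L k)) {K K' : Set (Euc k)} (h : K' ⊆ K) :
    VK V K' = (VK V K).restrict (K' ×ˢ univ) := by
  unfold VK
  rw [Measure.restrict_restrict_of_subset (prod_mono h le_rfl)]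

/-- the situation: the part `K'` of `K` over `{|x| ≤ R₁}` -/
structure Cut (π : Euc k →L[ℝ] Euc m) (ρ : Euc k →L[ℝ] Euc n) (x : Euc k) (w w' : Euc m → Euc n)
    (X0 : Euc m) (S s R' R₁ : ℝ) (U K : Set (Euc k)) (V : Measure (Euc k × Vf_884.L k)) (L : ℝ) :
    Prop where
  two : Two w w' X0 S s R'
  fr : Frame π ρ
  loc : Loc (ch π ρ x S w X0) U (tube π ρ x S w) K V L
  R1 : s ≤ R₁
  RR : R₁ < R'
  RL : R₁ ≤ Real.exp L
  ht : ∀ z ∈ K, ‖(ch π ρ x S w X0).x z‖ ≤ R₁ → ‖(ch π ρ x S w X0).nu z‖ ≤ s / 8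

namespace Cut

variable {R₁ : ℝ} {U K : Set (Euc k)} {V : Measure (Euc k × Vf_884.L k)} {L : ℝ}
  (h : Cut π ρ x w w' X0 S s R' R₁ U K V L)

/-- the part of `K` over the closed ball of radius `R₁` -/
def K1 (π : Euc k →L[ℝ] Euc m) (ρ : Euc k →L[ℝ] Euc n) (x : Euc k) (w : Euc m → Euc n)
    (X0 : Euc m) (S R₁ : ℝ) (K : Set (Euc k)) : Set (Euc k) :=
  {z | z ∈ K ∧ ‖(ch π ρ x S w X0).x z‖ ≤ R₁}

include h

theorem sub : K1 π ρ x w X0 S R₁ K ⊆ K := fun _ hz => hz.1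

theorem subt : K ⊆ tube π ρ x S w := h.loc.sub.trans inter_subset_left

theorem cpt : IsCompact (K1 π ρ x w X0 S R₁ K) := by
  have hc : ContinuousOn (fun z => ‖(ch π ρ x S w X0).x z‖) K :=
    ((h.two.gr.reg h.fr X0).cx.mono h.subt).norm
  exact h.loc.cpt.of_isClosed_subset
    (hc.preimage_isClosed_of_isClosed h.loc.cpt.isClosed isClosed_Iic) h.sub

theorem footb {z : Euc k} (hz : z ∈ K1 π ρ x w X0 S R₁ K) :
    foot π ρ x S w z ∈ ball X0 R' := by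
  rw [mem_ball_iff_norm]
  exact (Two.foot_of_x.trans hz.2).trans_lt h.RR

theorem tub {z : Euc k} (hz : z ∈ K1 π ρ x w X0 S R₁ K) :
    z ∈ tube π ρ x s w' ∧ foot π ρ x s w' z = foot π ρ x S w z :=
  h.two.fwd (h.subt hz.1) (h.footb hz)
    ((h.two.yy_le h.fr (h.subt hz.1)).trans (h.ht z hz.1 hz.2))

theorem same {z : Euc k} (hz : z ∈ K1 π ρ x w X0 S R₁ K) :
    (ch π ρ x s w' X0).x z = (ch π ρ x S w X0).x z ∧
    (ch π ρ x s w' X0).nu z = (ch π ρ x S w X0).nu z ∧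
    (ch π ρ x s w' X0).f z = (ch π ρ x S w X0).f z ∧
    ∀ P : Vf_884.L k, (ch π ρ x s w' X0).tau z P = (ch π ρ x S w X0).tau z P :=
  h.two.same (h.footb hz) (h.tub hz).2

theorem meas : MeasurableSet (K1 π ρ x w X0 S R₁ K ×ˢ (univ : Set (Vf_884.L k))) :=
  h.cpt.isClosed.measurableSet.prod .univ

theorem measK : MeasurableSet (K ×ˢ (univ : Set (Vf_884.L k))) :=
  h.loc.cpt.isClosed.measurableSet.prod .univ

/-- localisation for the chart of `w'` -/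
theorem loc' {L' : ℝ} (hL' : Real.exp L' ≤ R₁) :
    Loc (ch π ρ x s w' X0) U (tube π ρ x s w') (K1 π ρ x w X0 S R₁ K) V L' where
  st := h.loc.st
  opU := h.loc.opU
  cpt := h.cpt
  sub := fun z hz => ⟨(h.tub hz).1, (h.loc.sub hz.1).2⟩
  gap := by
    filter_upwards [h.loc.gap] with p hp hpW hpL
    have h1 : ‖foot π ρ x s w' p.1 - X0‖ ≤ R₁ := (Two.foot_of_x.trans hpL).trans hL'
    have h2 : foot π ρ x s w' p.1 ∈ ball X0 R' := by
      rw [mem_ball_iff_norm]; exact h1.trans_lt h.RR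
    have h3 := h.two.bwd hpW.1 h2
    have h4 := (h.two.same (h3.2 ▸ h2) h3.2.symm).1
    rw [h4] at hpL
    exact ⟨hp ⟨h3.1, hpW.2⟩ ((hpL.trans hL').trans h.RL), hpL.trans hL'⟩

theorem ae_mem : ∀ᵐ p ∂(VK V (K1 π ρ x w X0 S R₁ K)), p.1 ∈ K1 π ρ x w X0 S R₁ K := by
  filter_upwards [ae_restrict_mem h.meas] with p hp
  exact hp.1

/-- integrals of the chart quantities supported in `{|x| < s}` -/
theorem int_eq (F : Euc m → ℝ → ℝ → ℝ) (hF : ∀ v a b, s ≤ ‖v‖ → F v a b = 0) :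
    ∫ p, F ((ch π ρ x s w' X0).x p.1) ((ch π ρ x s w' X0).tau p.1 p.2)
        ((ch π ρ x s w' X0).f p.1) ∂(VK V (K1 π ρ x w X0 S R₁ K)) =
      ∫ p, F ((ch π ρ x S w X0).x p.1) ((ch π ρ x S w X0).tau p.1 p.2)
        ((ch π ρ x S w X0).f p.1) ∂(VK V K) := by
  have e1 : ∫ p, F ((ch π ρ x s w' X0).x p.1) ((ch π ρ x s w' X0).tau p.1 p.2)
        ((ch π ρ x s w' X0).f p.1) ∂(VK V (K1 π ρ x w X0 S R₁ K)) =
      ∫ p, F ((ch π ρ x S w X0).x p.1) ((ch π ρ x S w X0).tau p.1 p.2)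
        ((ch π ρ x S w X0).f p.1) ∂(VK V (K1 π ρ x w X0 S R₁ K)) := by
    refine integral_congr_ae ?_
    filter_upwards [h.ae_mem] with p hp
    obtain ⟨h1, -, h3, h4⟩ := h.same hp
    rw [h1, h3, h4]
  rw [e1, VK_sub V h.sub]
  refine setIntegral_eq_integral_of_ae_compl_eq_zero ?_
  filter_upwards [ae_restrict_mem h.measK] with p hp hpn
  refine hF _ _ _ ?_
  by_contra hlt
  exact hpn ⟨⟨hp.1, (not_le.1 hlt).le.trans h.R1⟩, trivial⟩

theorem exp_log_sq (hs : 0 < s) (v : Euc m) :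
    Real.exp (-2 * Real.log s) * ‖v‖ ^ 2 = ‖v‖ ^ 2 / s ^ 2 := by
  have : Real.exp (-2 * Real.log s) = (s ^ 2)⁻¹ := by
    rw [show -2 * Real.log s = -(Real.log s + Real.log s) by ring, Real.exp_neg, Real.exp_add,
      Real.exp_log hs, sq]
  rw [this, inv_mul_eq_div]

theorem gz {g : ℝ → ℝ} (hg : ∀ t, 1 ≤ t → g t = 0) (v : Euc m) (hv : s ≤ ‖v‖) :
    g (‖v‖ ^ 2 / s ^ 2) = 0 := by
  have hs := h.two.gr'.pos
  refine hg _ ?_
  rw [le_div_iff₀ (by positivity), one_mul]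
  exact pow_le_pow_left₀ hs.le hv 2

/-- **the anomaly** -/
theorem bb_eq {g : ℝ → ℝ} (hg : ∀ t, 1 ≤ t → g t = 0) (Q : ℝ) :
    bb (ch π ρ x s w' X0) (VK V (K1 π ρ x w X0 S R₁ K)) g Q (Real.log s) =
      bb (ch π ρ x S w X0) (VK V K) g Q (Real.log s) := by
  have hs := h.two.gr'.pos
  have i1 := h.int_eq (fun v _ _ => 1 * g (‖v‖ ^ 2 / s ^ 2)) (fun v _ _ hv => by
    rw [h.gz hg v hv, mul_zero])
  have i2 := h.int_eq (fun v t _ => t * g (‖v‖ ^ 2 / s ^ 2)) (fun v _ _ hv => by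
    rw [h.gz hg v hv, mul_zero])
  have i3 : ∫ v : Euc m, (ch π ρ x s w' X0).j v * g (‖v‖ ^ 2 / s ^ 2) =
      ∫ v : Euc m, (ch π ρ x S w X0).j v * g (‖v‖ ^ 2 / s ^ 2) := by
    refine integral_congr_ae (Eventually.of_forall fun v => ?_)
    show (ch π ρ x s w' X0).j v * g (‖v‖ ^ 2 / s ^ 2) =
      (ch π ρ x S w X0).j v * g (‖v‖ ^ 2 / s ^ 2)
    rcases lt_or_ge ‖v‖ s with hv | hv
    · rw [h.two.j_eq (π := π) (ρ := ρ) (x := x) (hv.trans_le h.R1 |>.trans h.RR)]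
    · rw [h.gz hg v hv, mul_zero, mul_zero]
  unfold bb EE ee
  simp only [h.exp_log_sq hs]
  rw [i1, i2, i3]

theorem f_eq {g : ℝ → ℝ} (hg : ∀ t, 1 ≤ t → g t = 0) :
    ∫ p, g (‖(ch π ρ x s w' X0).x p.1‖ ^ 2 / s ^ 2) * (2 * (ch π ρ x s w' X0).f p.1)
      ∂(VK V (K1 π ρ x w X0 S R₁ K)) =
    ∫ p, g (‖(ch π ρ x S w X0).x p.1‖ ^ 2 / s ^ 2) * (2 * (ch π ρ x S w X0).f p.1)
      ∂(VK V K) :=
  h.int_eq (fun v _ f => g (‖v‖ ^ 2 / s ^ 2) * (2 * f)) (fun v _ _ hv => by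
    rw [h.gz hg v hv, zero_mul])

theorem fin : V (K ×ˢ univ) < ⊤ := h.loc.st.fin K h.loc.cpt (h.loc.sub.trans inter_subset_right)

theorem mass_le {R R₂ : ℝ} (hR : R ≤ R₂) :
    V.real ({z | z ∈ K1 π ρ x w X0 S R₁ K ∧ ‖(ch π ρ x s w' X0).x z‖ < R} ×ˢ univ) ≤
      V.real ({z | z ∈ K ∧ ‖(ch π ρ x S w X0).x z‖ < R₂} ×ˢ univ) := by
  refine measureReal_mono ?_ ?_
  · rintro p ⟨⟨h1, h2⟩, -⟩
    rw [(h.same h1).1] at h2
    exact ⟨⟨h1.1, h2.trans_le hR⟩, trivial⟩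
  · exact ((measure_mono (prod_mono (fun z hz => hz.1) le_rfl)).trans_lt h.fin).ne

theorem mass_eq {R : ℝ} (hR : R ≤ R₁) :
    {z | z ∈ K1 π ρ x w X0 S R₁ K ∧ ‖(ch π ρ x s w' X0).x z‖ < R} =
      {z | z ∈ K ∧ ‖(ch π ρ x S w X0).x z‖ < R} := by
  ext z
  constructor
  · rintro ⟨h1, h2⟩
    rw [(h.same h1).1] at h2
    exact ⟨h1.1, h2⟩
  · rintro ⟨h1, h2⟩
    have h3 : z ∈ K1 π ρ x w X0 S R₁ K := ⟨h1, h2.le.trans hR⟩
    refine ⟨h3, ?_⟩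
    show ‖(ch π ρ x s w' X0).x z‖ < R
    rw [(h.same h3).1]
    exact h2

/-- the heights -/
theorem H_le {R R₂ : ℝ} (hR : R ≤ R₂) :
    ∫ p in {z | ‖(ch π ρ x s w' X0).x z‖ < R} ×ˢ univ, 2 * (ch π ρ x s w' X0).f p.1
      ∂(VK V (K1 π ρ x w X0 S R₁ K)) ≤
    ∫ p in {z | ‖(ch π ρ x S w X0).x z‖ < R₂} ×ˢ univ, 2 * (ch π ρ x S w X0).f p.1
      ∂(VK V K) := by
  have e1 : ∫ p in {z | ‖(ch π ρ x s w' X0).x z‖ < R} ×ˢ univ, 2 * (ch π ρ x s w' X0).f p.1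
      ∂(VK V (K1 π ρ x w X0 S R₁ K)) =
      ∫ p in {z | ‖(ch π ρ x s w' X0).x z‖ < R} ×ˢ univ, 2 * (ch π ρ x S w X0).f p.1
      ∂(VK V (K1 π ρ x w X0 S R₁ K)) := by
    refine integral_congr_ae (ae_restrict_of_ae ?_)
    filter_upwards [h.ae_mem] with p hp
    rw [(h.same hp).2.2.1]
  rw [e1]
  have hm : (VK V (K1 π ρ x w X0 S R₁ K)).restrict
      ({z | ‖(ch π ρ x s w' X0).x z‖ < R} ×ˢ univ) ≤
      (VK V K).restrict ({z | ‖(ch π ρ x S w X0).x z‖ < R₂} ×ˢ univ) := by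
    unfold VK
    rw [Measure.restrict_restrict' h.meas, Measure.restrict_restrict' h.measK]
    refine Measure.restrict_mono ?_ le_rfl
    rintro p ⟨⟨h1, -⟩, ⟨h2, -⟩⟩
    have h1' : ‖(ch π ρ x s w' X0).x p.1‖ < R := h1
    rw [(h.same h2).1] at h1'
    exact ⟨⟨h1'.trans_le hR, trivial⟩, ⟨h2.1, trivial⟩⟩
  refine integral_mono_measure hm ?_ ?_
  · refine Eventually.of_forall fun p => ?_
    show 0 ≤ 2 * (‖_‖ ^ 2 / 2)
    positivity
  · have hcf : ContinuousOn (ch π ρ x S w X0).f K := fun z hz =>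
      ((h.two.gr.reg h.fr X0).hf z (h.subt hz)).continuousAt.continuousWithinAt
    have hint := h.loc.toOn.integrable h.loc.cpt
      (F := fun p => 2 * (ch π ρ x S w X0).f p.1)
      (continuousOn_const.mul (hcf.comp continuousOn_fst fun p hp => hp.1))
    exact hint.restrict

end Cut

end Crest.Agent.R234.F3f_433
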