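import Crest.Agent.R234.F3f_433

/-!
# Row 234 (helper433), F3: `f3P_of : SmP → F3Ps → F3P`
-/

set_option autoImplicit false
set_option linter.unusedSectionVars false

open MeasureTheory Set Metric Function Filter Topology
open scoped ENNReal NNReal ContDiff RealInnerProductSpace
open Crest.GeometryTopology.Submanifold

noncomputable section

namespace Crest.Agent.R234.F3g_433

open Crest.Agent.R234.Vf_884 Crest.Agent.R234.Main_456
open Crest.Agent.R234.Gi_456 (Gr tube ch foot yy)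
open Crest.Agent.R234.GL_394 (Ch Loc VK bb EE ee On Reg)
open Crest.Agent.R234.F3e_433 Crest.Agent.R234.F3f_433
open Crest.Agent.R234.F3d_433 (SmP F3P)
open Crest.Agent.R234.F3t_433 (F3Ps)

variable {m n k : ℕ} {w w' : Euc m → Euc n} {X0 : Euc m} {S s R' : ℝ}

/-- first derivatives -/
theorem d1_close (hw : ContDiff ℝ 5 w) (hw' : ContDiff ℝ ∞ w') {η : ℝ}
    (h : ∀ j ≤ 4, ∀ Y, ‖iteratedFDeriv ℝ j w' Y - iteratedFDeriv ℝ j w Y‖ ≤ η) (X : Euc m) :
    ‖fderiv ℝ w' X - fderiv ℝ w X‖ ≤ η := by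
  have hw5 : ContDiff ℝ 5 w' := hw'.of_le (WithTop.coe_le_coe.2 le_top)
  have h1 := h 1 (by norm_num) X
  have e1 : iteratedFDeriv ℝ 1 (w' - w) X = iteratedFDeriv ℝ 1 w' X - iteratedFDeriv ℝ 1 w X :=
    iteratedFDeriv_sub_apply ((hw5.of_le (by norm_num)).contDiffAt)
      ((hw.of_le (by norm_num)).contDiffAt)
  rw [← e1, ← norm_iteratedFDeriv_fderiv, norm_iteratedFDeriv_zero] at h1
  have e2 : fderiv ℝ (w' - w) X = fderiv ℝ w' X - fderiv ℝ w X :=
    fderiv_sub (hw5.differentiable (by norm_num) X) (hw.differentiable (by norm_num) X)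
  rwa [e2] at h1

/-- second derivatives -/
theorem d2_close (hw : ContDiff ℝ 5 w) (hw' : ContDiff ℝ ∞ w') {η : ℝ}
    (h : ∀ j ≤ 4, ∀ Y, ‖iteratedFDeriv ℝ j w' Y - iteratedFDeriv ℝ j w Y‖ ≤ η) (X : Euc m) :
    ‖fderiv ℝ (fderiv ℝ w') X - fderiv ℝ (fderiv ℝ w) X‖ ≤ η := by
  have hw5 : ContDiff ℝ 5 w' := hw'.of_le (WithTop.coe_le_coe.2 le_top)
  have h1 := h 2 (by norm_num) X
  have e1 : iteratedFDeriv ℝ 2 (w' - w) X = iteratedFDeriv ℝ 2 w' X - iteratedFDeriv ℝ 2 w X :=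
    iteratedFDeriv_sub_apply ((hw5.of_le (by norm_num)).contDiffAt)
      ((hw.of_le (by norm_num)).contDiffAt)
  rw [← e1, ← norm_iteratedFDeriv_fderiv, ← norm_iteratedFDeriv_fderiv,
    norm_iteratedFDeriv_zero] at h1
  have e2 : fderiv ℝ (w' - w) = fun X => fderiv ℝ w' X - fderiv ℝ w X := funext fun X =>
    fderiv_sub (hw5.differentiable (by norm_num) X) (hw.differentiable (by norm_num) X)
  have d1 : Differentiable ℝ (fderiv ℝ w') :=
    (hw5.fderiv_right (m := 4) (by norm_num)).differentiable (by norm_num)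
  have d2 : Differentiable ℝ (fderiv ℝ w) :=
    (hw.fderiv_right (m := 4) (by norm_num)).differentiable (by norm_num)
  have e3 : fderiv ℝ (fun X => fderiv ℝ w' X - fderiv ℝ w X) X =
      fderiv ℝ (fderiv ℝ w') X - fderiv ℝ (fderiv ℝ w) X := fderiv_sub (d1 X) (d2 X)
  rwa [e2, e3] at h1

/-- the graph class of the smoothed function -/
theorem gr_close (hw : ContDiff ℝ 5 w) (hw' : ContDiff ℝ ∞ w') {η : ℝ} (hs : 0 < s)
    (hS : s < S) (hd : ∀ X, ‖fderiv ℝ w X‖ ≤ 1 / 16)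
    (hdd : ∀ X, ‖fderiv ℝ (fderiv ℝ w) X‖ ≤ 1 / (16 * S)) (hη1 : η ≤ 1 / 16)
    (hη2 : η ≤ 1 / (16 * s))
    (h : ∀ j ≤ 4, ∀ Y, ‖iteratedFDeriv ℝ j w' Y - iteratedFDeriv ℝ j w Y‖ ≤ η) : Gr s w' where
  pos := hs
  cd := hw'.of_le (WithTop.coe_le_coe.2 le_top)
  d1 := fun X => by
    have h1 := d1_close hw hw' h X
    have h2 := norm_le_norm_add_norm_sub' (fderiv ℝ w' X) (fderiv ℝ w X)
    have h3 := hd X
    linarith
  d2 := fun X => by
    have h1 := d2_close hw hw' h X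
    have h2 : ‖fderiv ℝ (fderiv ℝ w') X‖ ≤ ‖fderiv ℝ (fderiv ℝ w) X‖ +
        ‖fderiv ℝ (fderiv ℝ w') X - fderiv ℝ (fderiv ℝ w) X‖ := by
      have e : fderiv ℝ (fderiv ℝ w') X = fderiv ℝ (fderiv ℝ w) X +
          (fderiv ℝ (fderiv ℝ w') X - fderiv ℝ (fderiv ℝ w) X) := by abel
      calc ‖fderiv ℝ (fderiv ℝ w') X‖ = ‖fderiv ℝ (fderiv ℝ w) X +
          (fderiv ℝ (fderiv ℝ w') X - fderiv ℝ (fderiv ℝ w) X)‖ := by rw [← e]
        _ ≤ _ := ContinuousLinearMap.opNorm_add_le _ _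
    have h3 := hdd X
    have h4 : 1 / (16 * S) ≤ 1 / (16 * s) :=
      one_div_le_one_div_of_le (by positivity) (by linarith)
    have h5 : 1 / (16 * s) + 1 / (16 * s) = 1 / (8 * s) := by field_simp; norm_num
    linarith

/-- the number part: the exponent `2 a` and the collar `ε / 2` -/
theorem rpow_half {L a ε : ℝ} (ha : 0 < a) (hL : (2:ℝ) ^ (1 / a) ≤ L) (h : L ^ (-a) ≤ ε) :
    L ^ (-(2 * a)) ≤ ε / 2 := by
  have h2 : (0:ℝ) < 2 ^ (1 / a) := by positivity
  have hL0 : 0 < L := h2.trans_le hL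
  have e : L ^ (-(2 * a)) = L ^ (-a) * L ^ (-a) := by
    rw [← Real.rpow_add hL0]; congr 1; ring
  have h3 : L ^ (-a) ≤ 1 / 2 := by
    rw [Real.rpow_neg hL0.le, ← one_div]
    refine one_div_le_one_div_of_le (by norm_num) ?_
    calc (2:ℝ) = (2 ^ (1 / a)) ^ a := by
          rw [← Real.rpow_mul (by norm_num), one_div, inv_mul_cancel₀ ha.ne', Real.rpow_one]
      _ ≤ L ^ a := Real.rpow_le_rpow h2.le hL ha.le
  have h4 : 0 ≤ L ^ (-a) := Real.rpow_nonneg hL0.le _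
  rw [e]
  nlinarith

/-- **F3 for a block chart** -/
theorem f3P_of {Q : ℕ} (hS : SmP m n) (hF : F3Ps m n k Q) : F3P m n k Q := by
  intro Λ hΛ
  obtain ⟨C, hC, h2⟩ := hF Λ hΛ
  refine ⟨C, hC, fun a C' ha hC' => ?_⟩
  obtain ⟨κ₀, H₀, hκ₀, hH₀, hH₁, hmain⟩ := h2 (2 * a) C' (by positivity) hC'
  refine ⟨κ₀ / 2, min H₀ (Real.exp (-((2:ℝ) ^ (1 / a)))), by positivity,
    lt_min hH₀ (Real.exp_pos _), (min_le_left _ _).trans_lt hH₁, ?_⟩
  intro π ρ x w X0 S s κ ε H U K Dd g hf hU hD hst hs hsS hgr hd1 hd2 hcd hB hsm hκ hκle hbd hε hε1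
    hms hnb hloc hnu hm1 hm2 hH hHle hlog hHt hg0 hg1 hgz hgL
  obtain ⟨hHle1, hHle2⟩ := le_min_iff.1 hHle
  -- the logarithm
  have hLog : (2:ℝ) ^ (1 / a) ≤ Real.log (1 / H) := by
    have h1 : Real.log (1 / H) = -Real.log H := by rw [one_div, Real.log_inv]
    have := Real.log_le_log hH hHle2
    rw [Real.log_exp] at this
    rw [h1]
    linarith
  have hlog2 := rpow_half ha hLog hlog
  set A : ℝ := (s ^ (m + 2))⁻¹ *
      ∫ p, g (‖(ch π ρ x S w X0).x p.1‖ ^ 2 / s ^ 2) * (2 * (ch π ρ x S w X0).f p.1)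
        ∂(VK (VD Dd) K) with hA
  set T : ℝ := (Real.log (1 / H)) ^ (-C') * H with hT
  -- the statement for every small `η`
  have key : ∀ η : ℝ, 0 < η → η ≤ κ₀ / 2 →
      bb (ch π ρ x S w X0) (VK (VD Dd) K) g Q (Real.log s) ≤
        s ^ 2 * (C * (κ + η) ^ 2 * A + T) := by
    intro η hη hηκ
    set η₁ : ℝ := min (min (η / (1 + s) ^ 2) (S - s)) (min (1 / 16) (1 / (16 * s))) with hη₁
    have hη₁0 : 0 < η₁ := lt_min (lt_min (by positivity) (by linarith))
      (lt_min (by norm_num) (by positivity))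
    have e1 : η₁ ≤ η / (1 + s) ^ 2 := (min_le_left _ _).trans (min_le_left _ _)
    have e1' : η₁ ≤ S - s := (min_le_left _ _).trans (min_le_right _ _)
    have e2 : η₁ ≤ 1 / 16 := (min_le_right _ _).trans (min_le_left _ _)
    have e3 : η₁ ≤ 1 / (16 * s) := (min_le_right _ _).trans (min_le_right _ _)
    set R' : ℝ := (1 + 3 / 4 * ε) * s with hR'
    have hR'0 : 0 < R' := by positivity
    have hR'R : R' < (1 + ε) * s := by
      rw [hR']
      exact mul_lt_mul_of_pos_right (by linarith) hs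
    obtain ⟨w', hw', hww, hcl⟩ := hS w X0 ((1 + ε) * s) R' η₁ hR'0 hR'R hη₁0 hcd hB hsm
    have hgr' : Gr s w' := gr_close hcd hw' hs hsS hd1 hd2 e2 e3 hcl
    have hcl0 : ∀ Y, ‖w' Y - w Y‖ ≤ S - s := by
      intro Y
      have h1 := hcl 0 (by norm_num) Y
      have hw5 : ContDiff ℝ 5 w' := hw'.of_le (WithTop.coe_le_coe.2 le_top)
      have e : iteratedFDeriv ℝ 0 (w' - w) Y =
          iteratedFDeriv ℝ 0 w' Y - iteratedFDeriv ℝ 0 w Y :=
        iteratedFDeriv_sub_apply ((hw5.of_le (by norm_num)).contDiffAt)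
          ((hcd.of_le (by norm_num)).contDiffAt)
      rw [← e, norm_iteratedFDeriv_zero] at h1
      exact h1.trans e1'
    have htwo : Two w w' X0 S s R' := ⟨hgr, hgr', hsS.le, hcl0, hR'0, hww⟩
    set R₁ : ℝ := (1 + ε / 2) * s with hR₁
    have hR₁R' : R₁ < R' := by
      rw [hR₁, hR']
      exact mul_lt_mul_of_pos_right (by linarith) hs
    have hexp : Real.exp (Real.log ((1 + ε) * s)) = (1 + ε) * s := Real.exp_log (by positivity)
    have hcut : Cut π ρ x w w' X0 S s R' R₁ U K (VD Dd) (Real.log ((1 + ε) * s)) :=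
      { two := htwo
        fr := hf
        loc := hloc
        R1 := by rw [hR₁]; nlinarith
        RR := hR₁R'
        RL := by rw [hexp]; exact (hR₁R'.trans hR'R).le
        ht := fun z hz hz2 => hnu z hz (hz2.trans_lt (hR₁R'.trans hR'R)) }
    have hε2 : (1 + ε / 2) * s = R₁ := rfl
    have hmn := hmain π ρ x w' X0 s (κ + η) (ε / 2) H U (Cut.K1 π ρ x w X0 S R₁ K) Dd g hf hU hD hst
      hs hgr' hw' (by positivity) (by linarith) ?_ (by positivity) (by linarith) ?_ ?_ ?_ ?_ ?_ ?_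
      hH hHle1 hlog2 ?_ hg0 hg1 hgz hgL
    · rw [hcut.bb_eq hgz, hcut.f_eq hgz] at hmn
      exact hmn
    · -- derivatives
      intro j hj1 hj2 Y hY
      have h1 := hcl j (by omega) Y
      have h3 := hbd j hj1 hj2 Y hY
      have h4 : ‖iteratedFDeriv ℝ j w' Y‖ ≤ ‖iteratedFDeriv ℝ j w Y‖ + η₁ :=
        (norm_le_norm_add_norm_sub' _ _).trans (by linarith)
      have h5 : s ^ (j - 1) ≤ (1 + s) ^ 2 := by
        calc s ^ (j - 1) ≤ (1 + s) ^ (j - 1) := pow_le_pow_left₀ hs.le (by linarith) _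
          _ ≤ (1 + s) ^ 2 := pow_le_pow_right₀ (by linarith) (by omega)
      have h6 : s ^ (j - 1) * η₁ ≤ η := by
        calc s ^ (j - 1) * η₁ ≤ (1 + s) ^ 2 * (η / (1 + s) ^ 2) :=
              mul_le_mul h5 e1 hη₁0.le (by positivity)
          _ = η := by field_simp
      calc s ^ (j - 1) * ‖iteratedFDeriv ℝ j w' Y‖
          ≤ s ^ (j - 1) * (‖iteratedFDeriv ℝ j w Y‖ + η₁) :=
            mul_le_mul_of_nonneg_left h4 (by positivity)
        _ ≤ κ + η := by rw [mul_add]; linarith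
    · -- minimality
      intro Y hY
      have hY2 : Y ∈ ball X0 R' := ball_subset_ball hR₁R'.le hY
      rw [htwo.msys hY2]
      exact hms Y (ball_subset_ball hR'R.le hY2)
    · -- the ball
      have e : Foot_842.pt π ρ x w' X0 = Foot_842.pt π ρ x w X0 := by
        unfold Foot_842.pt
        rw [hww X0 (mem_ball_self hR'0)]
      rw [e]
      exact hnb
    · -- Loc
      refine hcut.loc' ?_
      rw [hε2, Real.exp_log (by positivity)]
    · -- heights
      intro z hz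
      rw [(hcut.same hz).2.1]
      have := hcut.ht z hz.1 hz.2
      linarith
    · -- mass 1
      exact (hcut.mass_le (R := R₁) (R₂ := (1 + ε) * s) (hR₁R'.trans hR'R).le).trans hm1
    · -- mass 2
      rw [hcut.mass_eq (R := 1 / 4 * s) (by rw [hR₁]; nlinarith)]
      exact hm2
    · -- integrated heights
      exact (hcut.H_le (R := R₁) (R₂ := (1 + ε) * s) (hR₁R'.trans hR'R).le).trans hHt
  -- the limit
  have hlim : Tendsto (fun η : ℝ => s ^ 2 * (C * (κ + η) ^ 2 * A + T)) (𝓝[>] 0)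
      (𝓝 (s ^ 2 * (C * (κ + 0) ^ 2 * A + T))) := by
    refine Tendsto.mono_left (Continuous.tendsto ?_ 0) nhdsWithin_le_nhds
    fun_prop
  rw [add_zero] at hlim
  refine ge_of_tendsto hlim ?_
  have hmem : Ioc (0:ℝ) (κ₀ / 2) ∈ 𝓝[>] (0:ℝ) := Ioc_mem_nhdsGT (by positivity)
  filter_upwards [hmem] with η hη
  exact key η hη.1 hη.2

end Crest.Agent.R234.F3g_433
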