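import Crest.Agent.R234.Sme1_290
import Crest.Agent.R234.F3d_433

/-!
# Row 234 (helper433): `SmP` (smoothing outside a ball, difference form), from `Sme1_290`
-/

set_option autoImplicit false
set_option linter.unusedVariables false
set_option linter.unusedSectionVars false

open MeasureTheory Metric Set Function Filter Topology
open scoped ContDiff Convolution

noncomputable section

namespace Crest.Agent.R234.Sme_433

open Crest.Agent.R234.Sme_290

variable {E F : Type*} [NormedAddCommGroup E] [InnerProductSpace ℝ E] [FiniteDimensional ℝ E]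
  [MeasurableSpace E] [BorelSpace E] [NormedAddCommGroup F] [NormedSpace ℝ F] [CompleteSpace F]

/-- **smooth modification away from a ball**, difference form -/
theorem exists_smooth_ext' {w : E → F} {N : ℕ} (hw : ContDiff ℝ (N + 1 : ℕ) w) {b : ℕ → ℝ}
    (hb : ∀ j, 1 ≤ j → j ≤ N + 1 → ∀ Y, ‖iteratedFDeriv ℝ j w Y‖ ≤ b j) {X0 : E} {R R' : ℝ}
    (hR0 : 0 < R') (hR : R' < R) (hs : ContDiffOn ℝ ∞ w (ball X0 R)) {η : ℝ} (hη : 0 < η) :
    ∃ w' : E → F, ContDiff ℝ ∞ w' ∧ (∀ Y ∈ ball X0 R', w' Y = w Y) ∧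
      ∀ j ≤ N, ∀ Y, ‖iteratedFDeriv ℝ j w' Y - iteratedFDeriv ℝ j w Y‖ ≤ η := by
  classical
  let χ : ContDiffBump X0 := ⟨R', (R' + R) / 2, hR0, by linarith⟩
  have hχs : ContDiff ℝ ∞ (χ : E → ℝ) := χ.contDiff
  have hχb : ∀ i : ℕ, ∃ C : ℝ, ∀ y, ‖iteratedFDeriv ℝ i (χ : E → ℝ) y‖ ≤ C := fun i => by
    have h1 : Continuous (iteratedFDeriv ℝ i (χ : E → ℝ)) :=
      hχs.continuous_iteratedFDeriv (by exact_mod_cast le_top)
    exact h1.bounded_above_of_compact_support (χ.hasCompactSupport.iteratedFDeriv i)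
  choose C hC using hχb
  have hC0 : ∀ i, 0 ≤ C i := fun i => (norm_nonneg _).trans (hC i X0)
  set A : ℝ := 1 + ∑ i ∈ Finset.range (N + 1), C i with hA
  have hA1 : 1 ≤ A := by
    have : 0 ≤ ∑ i ∈ Finset.range (N + 1), C i := Finset.sum_nonneg fun i _ => hC0 i
    linarith
  have hAi : ∀ i ≤ N, ∀ y, ‖iteratedFDeriv ℝ i (χ : E → ℝ) y‖ ≤ A := fun i hi y => by
    have h1 : C i ≤ ∑ i ∈ Finset.range (N + 1), C i :=
      Finset.single_le_sum (fun i _ => hC0 i) (Finset.mem_range.2 (by omega))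
    linarith [hC i y]
  set B : ℝ := 1 + ∑ i ∈ Finset.range (N + 2), |b i| with hB
  have hB1 : 1 ≤ B := by
    have : 0 ≤ ∑ i ∈ Finset.range (N + 2), |b i| := Finset.sum_nonneg fun i _ => abs_nonneg _
    linarith
  have hBi : ∀ j, 1 ≤ j → j ≤ N + 1 → ∀ y, ‖iteratedFDeriv ℝ j w y‖ ≤ B := fun j h1 h2 y => by
    have h3 : |b j| ≤ ∑ i ∈ Finset.range (N + 2), |b i| :=
      Finset.single_le_sum (fun i _ => abs_nonneg (b i)) (Finset.mem_range.2 (by omega))
    linarith [hb j h1 h2 y, le_abs_self (b j)]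
  set δ : ℝ := η / (2 ^ N * (A + 1) * B) with hδ
  have hδ0 : 0 < δ := by positivity
  have hδe : 2 ^ N * (A + 1) * (δ * B) = η := by rw [hδ]; field_simp
  let φ : ContDiffBump (0 : E) := ⟨δ / 2, δ, by positivity, by linarith⟩
  have hφ : φ.rOut = δ := rfl
  have hwc : Continuous w := hw.continuous
  have hsm := contDiff_mo φ hwc
  have hcd : ∀ j ≤ N, ContDiff ℝ j w := fun j hj => hw.of_le (by exact_mod_cast (by omega))
  have hmo : ∀ j ≤ N, iteratedFDeriv ℝ j (mo φ w) = mo φ (iteratedFDeriv ℝ j w) := fun j hj =>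
    iter_mo φ j (hcd j hj) fun i h1 h2 => ⟨B, hBi i h1 (by omega)⟩
  set v : E → F := fun y => w y - mo φ w y with hv
  have hvc : ContDiff ℝ N v := (hcd N le_rfl).sub (hsm.of_le (by exact_mod_cast le_top))
  have hvj : ∀ j ≤ N, ∀ y, ‖iteratedFDeriv ℝ j v y‖ ≤ δ * B := fun j hj y => by
    have h1 : iteratedFDeriv ℝ j v y = iteratedFDeriv ℝ j w y - iteratedFDeriv ℝ j (mo φ w) y := by
      have := iteratedFDeriv_sub_apply (𝕜 := ℝ) (i := j) (f := w) (g := mo φ w) (x := y)
        (hcd j hj).contDiffAt (hsm.of_le (by exact_mod_cast le_top)).contDiffAt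
      rw [← this]
      rfl
    rw [h1, hmo j hj, ← hφ]
    have h2 : ContDiff ℝ 1 (iteratedFDeriv ℝ j w) :=
      hw.iteratedFDeriv_right (by norm_cast; omega)
    refine norm_sub_mo_le φ (h2.differentiable (by norm_num)) (fun z => ?_) y
    rw [norm_fderiv_iteratedFDeriv]
    exact hBi (j + 1) (by omega) (by omega) z
  have hχle : ∀ y, |χ y| ≤ 1 := fun y => by
    rw [abs_of_nonneg χ.nonneg]; exact χ.le_one
  refine ⟨fun y => mo φ w y + χ y • v y, ?_, ?_, ?_⟩
  · rw [contDiff_iff_contDiffAt]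
    intro y
    by_cases hy : y ∈ ball X0 R
    · have h1 : ContDiffAt ℝ ∞ w y := hs.contDiffAt (isOpen_ball.mem_nhds hy)
      exact hsm.contDiffAt.add (hχs.contDiffAt.smul (h1.sub hsm.contDiffAt))
    · have h2 : (fun y => mo φ w y + χ y • v y) =ᶠ[𝓝 y] mo φ w := by
        have h3 : y ∈ (closedBall X0 ((R' + R) / 2))ᶜ := by
          rw [mem_compl_iff, mem_closedBall]
          rw [mem_ball] at hy
          push Not at hy ⊢
          linarith
        filter_upwards [isClosed_closedBall.isOpen_compl.mem_nhds h3] with z hz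
        have h4 : χ z = 0 := by
          refine χ.zero_of_le_dist ?_
          rw [mem_compl_iff, mem_closedBall] at hz
          push Not at hz
          exact hz.le
        rw [h4, zero_smul, add_zero]
      exact hsm.contDiffAt.congr_of_eventuallyEq h2
  · intro y hy
    have h1 : χ y = 1 := χ.one_of_mem_closedBall (ball_subset_closedBall hy)
    show mo φ w y + χ y • (w y - mo φ w y) = w y
    rw [h1, one_smul]; abel
  · intro j hj y
    set θ : E → ℝ := fun y => χ y - 1 with hθ
    have hθs : ContDiff ℝ ∞ θ := hχs.sub contDiff_const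
    have hθi : ∀ i ≤ N, ∀ y, ‖iteratedFDeriv ℝ i θ y‖ ≤ A + 1 := by
      intro i hi y
      have h1 : iteratedFDeriv ℝ i θ y = iteratedFDeriv ℝ i (χ : E → ℝ) y -
          iteratedFDeriv ℝ i (fun _ : E => (1:ℝ)) y :=
        iteratedFDeriv_sub_apply (𝕜 := ℝ) (i := i) (f := (χ : E → ℝ)) (g := fun _ => (1:ℝ)) (x := y)
          (hχs.of_le (by exact_mod_cast le_top)).contDiffAt contDiffAt_const
      rw [h1]
      refine (norm_sub_le _ _).trans (add_le_add (hAi i hi y) ?_)
      rcases Nat.eq_zero_or_pos i with h0 | h0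
      · subst h0
        rw [norm_iteratedFDeriv_zero, norm_one]
      · rw [iteratedFDeriv_const_of_ne (by omega)]
        simp
    have h2 : (fun y => mo φ w y + χ y • v y) = fun y => w y + θ y • v y := by
      funext y
      show mo φ w y + χ y • (w y - mo φ w y) = w y + (χ y - 1) • (w y - mo φ w y)
      rw [sub_smul, one_smul]; abel
    have h3 : iteratedFDeriv ℝ j (fun y => w y + θ y • v y) y =
        iteratedFDeriv ℝ j w y + iteratedFDeriv ℝ j (fun y => θ y • v y) y := by
      have := iteratedFDeriv_add_apply (𝕜 := ℝ) (i := j) (f := w) (g := fun y => θ y • v y)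
        (x := y) (hcd j hj).contDiffAt
        ((hθs.of_le (by exact_mod_cast le_top)).smul
          (hvc.of_le (by exact_mod_cast hj))).contDiffAt
      rw [← this]
      rfl
    rw [h2, h3, add_sub_cancel_left]
    refine (norm_iteratedFDeriv_smul_le (N := (N : ℕ∞)) (hθs.of_le (by exact_mod_cast le_top))
        hvc y (n := j) (by exact_mod_cast hj)).trans ?_
    calc ∑ i ∈ Finset.range (j + 1), (j.choose i : ℝ) * ‖iteratedFDeriv ℝ i θ y‖ *
            ‖iteratedFDeriv ℝ (j - i) v y‖
          ≤ ∑ i ∈ Finset.range (j + 1), (j.choose i : ℝ) * ((A + 1) * (δ * B)) := by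
            refine Finset.sum_le_sum fun i hi => ?_
            have hi' := Finset.mem_range.1 hi
            rw [mul_assoc]
            refine mul_le_mul_of_nonneg_left ?_ (Nat.cast_nonneg _)
            exact mul_le_mul (hθi i (by omega) y) (hvj _ (by omega) y) (norm_nonneg _) (by linarith)
        _ = 2 ^ j * ((A + 1) * (δ * B)) := by
            rw [← Finset.sum_mul, ← Nat.cast_sum, Nat.sum_range_choose]
            push_cast; ring
        _ ≤ 2 ^ N * ((A + 1) * (δ * B)) := by
            refine mul_le_mul_of_nonneg_right ?_ (by positivity)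
            exact pow_le_pow_right₀ (by norm_num) hj
        _ = η := by rw [← hδe]; ring

/-- **`SmP`** -/
theorem smP (m n : ℕ) : F3d_433.SmP m n := by
  intro w X0 R R' η hR' hR hη hw hB hs
  obtain ⟨B, hB⟩ := hB
  exact exists_smooth_ext' (N := 4) (b := fun _ => B) (by exact_mod_cast hw)
    (fun j _ hj Y => hB j (by omega) Y) hR' hR hs hη

end Crest.Agent.R234.Sme_433
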