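import Crest.Agent.R234.F3g_433
import Crest.Agent.R234.Sme2_433

/-!
# Row 234 (helper433): `F36_354.F3P1 → F3d_433.F3P`
-/

namespace Crest.Agent.R234.F3h_433

/-- **F3 for a block chart, from 354's / 618's `F3P1`** -/
theorem f3P_of_F3P1 {m n k Q : ℕ} (hm : 1 ≤ m) (h : F36_354.F3P1 m n k Q) :
    F3d_433.F3P m n k Q :=
  F3g_433.f3P_of (Sme_433.smP m n) (F3t_433.f3Ps_of hm h)

end Crest.Agent.R234.F3h_433
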