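import Crest.Agent.R234.F39_354

/-!
# Row 234, F3 (helper354), file 10: the local estimate from the core (join)
-/

set_option autoImplicit false

open MeasureTheory Filter Topology Set Metric
open scoped ENNReal NNReal ContDiff InnerProductSpace
open Crest.GeometryTopology.Submanifold Crest.Agent.R234.Vf_884

noncomputable section

namespace Crest.Agent.R234.F40_354

open Crest.Agent.R234.Main_456 (Frame Msys sep box)
open Crest.Agent.R234.Gi_456 (Gr tube foot ch Lo IsFoot)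
open Crest.Agent.R234.GL_394 (VK On Ok)
open Crest.Agent.R234.Cy_870 (Split cyl)
open Crest.Agent.R234.Fc_209 (IsChart Bd)
open Crest.Agent.R234.Foot_842 (pt)
open Crest.Agent.R234.Nrm_842 (Zm zc)
open Crest.Agent.R234.Grot_842 (rπ rρ)
open Crest.Agent.R234.Fm_281 (zy Nt Gp Bf CLE Lk)
open Crest.Agent.R234.Ex_46 (hmt')
open Crest.Agent.R234.F35_354 (Bp)
open Crest.Agent.R234.F37_354 (Am Rg Kh Kh_pos B2P real_log real_fin)
open Crest.Agent.R234.Ell1_3 (dns)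

/-- constants -/
theorem ex_c0 {Cz Cc cM cc cT M : ℝ} (hCz : 0 < Cz) (hCc : 0 < Cc) (hcM : 0 < cM) (hcc : 0 < cc)
    (hcT : 0 < cT) (hM : 0 < M) : ∃ c₀ : ℝ, 0 < c₀ ∧ c₀ ≤ 1 / 16 ∧
      Cz * c₀ ≤ 1 / 8 ∧ c₀ ≤ cM ∧ c₀ ≤ cc ∧ c₀ ≤ cT ∧ Cc * c₀ ≤ 1 / 64 ∧ M * c₀ ≤ 1 := by
  refine ⟨min (min (1 / 16) (1 / (8 * Cz))) (min (min cM cc)
    (min cT (min (1 / (64 * Cc)) (1 / M)))), by positivity, ?_, ?_, ?_, ?_, ?_, ?_, ?_⟩
  · exact (min_le_left _ _).trans (min_le_left _ _)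
  · have e1 : min (min (1 / 16) (1 / (8 * Cz))) (min (min cM cc)
        (min cT (min (1 / (64 * Cc)) (1 / M)))) ≤ 1 / (8 * Cz) :=
      (min_le_left _ _).trans (min_le_right _ _)
    calc _ ≤ Cz * (1 / (8 * Cz)) := mul_le_mul_of_nonneg_left e1 hCz.le
      _ = 1 / 8 := by field_simp
  · exact (min_le_right _ _).trans ((min_le_left _ _).trans (min_le_left _ _))
  · exact (min_le_right _ _).trans ((min_le_left _ _).trans (min_le_right _ _))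
  · exact (min_le_right _ _).trans ((min_le_right _ _).trans (min_le_left _ _))
  · have e1 : min (min (1 / 16) (1 / (8 * Cz))) (min (min cM cc)
        (min cT (min (1 / (64 * Cc)) (1 / M)))) ≤ 1 / (64 * Cc) :=
      (min_le_right _ _).trans ((min_le_right _ _).trans ((min_le_right _ _).trans
        (min_le_left _ _)))
    calc _ ≤ Cc * (1 / (64 * Cc)) := mul_le_mul_of_nonneg_left e1 hCc.le
      _ = 1 / 64 := by field_simp
  · have e1 : min (min (1 / 16) (1 / (8 * Cz))) (min (min cM cc)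
        (min cT (min (1 / (64 * Cc)) (1 / M)))) ≤ 1 / M :=
      (min_le_right _ _).trans ((min_le_right _ _).trans ((min_le_right _ _).trans
        (min_le_right _ _)))
    calc _ ≤ M * (1 / M) := mul_le_mul_of_nonneg_left e1 hM.le
      _ = 1 := by field_simp

/-- constants -/
theorem ex_D0 {cc Kd Cc D1 L0 : ℝ} (hcc : 0 < cc) (hKd : 0 < Kd) (hCc : 0 < Cc) (hD1 : 0 < D1) :
    ∃ D₀ : ℝ, 0 < D₀ ∧ D₀ < 1 ∧ 25 / 16 * D₀ ≤ cc ∧
      Kd * D₀ ≤ 1 ∧ 25 / 16 * Cc * D₀ ≤ D1 ∧ D₀ ≤ Real.exp (-L0) := by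
  have hA : 0 < 25 / 16 * Cc := by positivity
  refine ⟨min (min (1 / 2) (16 / 25 * cc)) (min Kd⁻¹ (min (D1 / (25 / 16 * Cc))
    (Real.exp (-L0)))), by positivity, ?_, ?_, ?_, ?_, ?_⟩
  · exact ((min_le_left _ _).trans (min_le_left _ _)).trans_lt (by norm_num)
  · have e1 : min (min (1 / 2) (16 / 25 * cc)) (min Kd⁻¹ (min (D1 / (25 / 16 * Cc))
        (Real.exp (-L0)))) ≤ 16 / 25 * cc := (min_le_left _ _).trans (min_le_right _ _)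
    linarith
  · have e1 : min (min (1 / 2) (16 / 25 * cc)) (min Kd⁻¹ (min (D1 / (25 / 16 * Cc))
        (Real.exp (-L0)))) ≤ Kd⁻¹ := (min_le_right _ _).trans (min_le_left _ _)
    calc _ ≤ Kd * Kd⁻¹ := mul_le_mul_of_nonneg_left e1 hKd.le
      _ = 1 := mul_inv_cancel₀ hKd.ne'
  · have e1 : min (min (1 / 2) (16 / 25 * cc)) (min Kd⁻¹ (min (D1 / (25 / 16 * Cc))
        (Real.exp (-L0)))) ≤ D1 / (25 / 16 * Cc) :=
      (min_le_right _ _).trans ((min_le_right _ _).trans (min_le_left _ _))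
    calc _ ≤ 25 / 16 * Cc * (D1 / (25 / 16 * Cc)) := mul_le_mul_of_nonneg_left e1 hA.le
      _ = D1 := by field_simp
  · exact (min_le_right _ _).trans ((min_le_right _ _).trans (min_le_right _ _))

/-- numbers -/
theorem real_l {Cz κ c₀ t l Cc M : ℝ} (hκ0 : 0 ≤ κ) (hCz : 0 < Cz) (hκ : κ ≤ c₀) (ht : 0 < t)
    (htc : t ≤ c₀) (a1 : c₀ ≤ 1 / 16) (a2 : Cz * c₀ ≤ 1 / 8) (hCc : 0 < Cc)
    (a6 : Cc * c₀ ≤ 1 / 64) (hM : 0 < M) (a7 : M * c₀ ≤ 1) (hl : l = Cz * κ * t) :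
    0 ≤ l ∧ l ≤ t / 8 ∧ l ≤ c₀ ∧ Cc * l ≤ 1 / 16 ∧ 64 * M * l ^ 2 ≤ 1 := by
  have h1 : Cz * κ ≤ 1 / 8 := (mul_le_mul_of_nonneg_left hκ hCz.le).trans a2
  have h0 : 0 ≤ l := by rw [hl]; positivity
  have h2 : l ≤ t / 8 := by
    rw [hl]
    calc Cz * κ * t ≤ 1 / 8 * t := mul_le_mul_of_nonneg_right h1 ht.le
      _ = _ := by ring
  have h3 : l ≤ c₀ := by linarith
  refine ⟨h0, h2, h3, ?_, ?_⟩
  · have := mul_le_mul_of_nonneg_left h3 hCc.le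
    linarith
  · have e1 : l ≤ c₀ / 8 := by linarith
    have e2 : l ^ 2 ≤ (c₀ / 8) ^ 2 := pow_le_pow_left₀ h0 e1 2
    have e3 : M * l ^ 2 ≤ M * (c₀ / 8) ^ 2 := mul_le_mul_of_nonneg_left e2 hM.le
    have e4 : 64 * (M * (c₀ / 8) ^ 2) = M * c₀ * c₀ := by ring
    have e5 : M * c₀ * c₀ ≤ 1 * c₀ := mul_le_mul_of_nonneg_right a7 (by linarith)
    linarith

/-- numbers -/
theorem real_d {Kh D D₀ Kd d b cc : ℝ} (hKh : 0 < Kh) (hKd : Kd = (Kh + 1) * (25 / 16))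
    (hD : 0 < D) (hDD : D ≤ D₀) (b2 : 25 / 16 * D₀ ≤ cc) (b3 : Kd * D₀ ≤ 1)
    (hd : d = 25 / 16 * D) (hb : b = Kd * D) :
    0 < d ∧ d ≤ cc ∧ √d ≤ 1 ∧ 0 ≤ b ∧ b ≤ 1 ∧ √d ≤ √b ∧ Kh * d ≤ b := by
  have hKd0 : 0 < Kd := by rw [hKd]; positivity
  have e1 : b ≤ 1 := by rw [hb]; exact (mul_le_mul_of_nonneg_left hDD hKd0.le).trans b3
  have e3 : Kh * d ≤ b := by
    rw [hd, hb, hKd]
    have := mul_pos hKh hD
    linarith
  have e2 : d ≤ b := by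
    rw [hd, hb, hKd]
    have := mul_pos hKh hD
    linarith
  refine ⟨by rw [hd]; positivity, by rw [hd]; linarith, ?_, by rw [hb]; positivity, e1,
    Real.sqrt_le_sqrt e2, e3⟩
  rw [Real.sqrt_le_one]
  exact e2.trans e1

/-- numbers -/
theorem real_δ {Cc l d t c₀ δ : ℝ} (hCc : 0 < Cc) (hl0 : 0 ≤ l) (hl8 : l ≤ t / 8) (ht : 0 < t)
    (hsd : √d ≤ 1) (htc : t ≤ c₀) (a1 : c₀ ≤ 1 / 16) (a6 : Cc * c₀ ≤ 1 / 64)
    (hδ : δ = Cc * (l * (l + √d))) : 0 ≤ δ ∧ δ ≤ Cc / 4 * t ∧ δ ≤ 1 / 32 := by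
  have h0 := Real.sqrt_nonneg d
  have h1 : δ ≤ Cc / 4 * t := by
    have e1 : l * (l + √d) ≤ t / 8 * 2 := by
      refine mul_le_mul hl8 ?_ (by positivity) (by positivity)
      linarith
    rw [hδ]
    calc Cc * (l * (l + √d)) ≤ Cc * (t / 8 * 2) := mul_le_mul_of_nonneg_left e1 hCc.le
      _ = _ := by ring
  refine ⟨by rw [hδ]; positivity, h1, h1.trans ?_⟩
  have := mul_le_mul_of_nonneg_left htc hCc.le
  linarith

/-- logarithms -/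
theorem real_L {L0 D D₀ L Cc d : ℝ} (hD : 0 < D) (hDD : D ≤ D₀) (b5 : D₀ ≤ Real.exp (-L0))
    (hL : L = Real.log (1 / D)) (hCc : 0 < Cc) (hd : d = 25 / 16 * D) :
    L0 ≤ L ∧ Cc * d = 25 / 16 * Cc * D ∧
      Real.log (1 / (Cc * d)) = L - Real.log (25 / 16 * Cc) := by
  have hCd : Cc * d = 25 / 16 * Cc * D := by rw [hd]; ring
  refine ⟨?_, hCd, ?_⟩
  · have e1 : Real.log D ≤ -L0 := by
      rw [Real.log_le_iff_le_exp hD]
      exact hDD.trans b5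
    rw [hL, one_div, Real.log_inv]
    linarith
  · rw [hCd, hL, one_div, one_div, Real.log_inv, Real.log_inv,
      Real.log_mul (by positivity) hD.ne']
    ring

set_option maxHeartbeats 2000000 in
/-- **the local estimate from the core** -/
theorem le_of {m n k Q : ℕ} (hcore : Core_809.CoreProp) (hm : 3 ≤ m) (hn : 1 ≤ n) (hQ : 1 ≤ Q)
    (hB2 : B2P m n k Q) : F36_354.LEP m n k Q := by
  have hm1 : 1 ≤ m := by omega
  obtain ⟨Cz, hCz, hzm⟩ := Nrm_842.exists_zm m n 2 (by norm_num)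
  obtain ⟨cc, Cc, hcc, hCc, hcls⟩ := Ex_46.cls_chart m n k Q hm1
  obtain ⟨cM, hcM, hmass⟩ := Ms_46.masses m n Q
  obtain ⟨cT, CT, hcT, -, hCT, hLE⟩ := Fm_281.exists_LEa k
  obtain ⟨C1, C0, hC1, hC0, hco⟩ := hcore m n Q hm hn hQ
  obtain ⟨C2, hC2, hb2⟩ := hB2
  have hKh := Kh_pos m
  have hmR : (1:ℝ) ≤ m := by exact_mod_cast hm1
  have hmR0 : (0:ℝ) < m := by linarith
  obtain ⟨Kd, hKd⟩ : ∃ Kd, Kd = (Kh m + 1) * (25 / 16) := ⟨_, rfl⟩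
  have hKd1 : 1 ≤ Kd := by rw [hKd]; linarith
  have hKd0 : 0 < Kd := by linarith
  have hCz0 : 0 < Cz := by linarith
  have hCL : 0 ≤ CLE C0 CT Cc := by
    unfold CLE
    have : 0 ≤ CT := by linarith
    positivity
  obtain ⟨c₀, hc₀, a1, a2, a3, a4, a5, a6, a7⟩ := ex_c0 hCz0 hCc hcM hcc hcT hmR0
  refine ⟨c₀, CLE C0 CT Cc * Cz ^ 2 * Kd + C2 * Cz ^ 2 + 1, C1 + 1, hc₀, a1, ?_, by linarith, ?_⟩
  · have : 0 ≤ CLE C0 CT Cc * Cz ^ 2 * Kd + C2 * Cz ^ 2 := by positivity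
    linarith
  intro Cs
  obtain ⟨D1, hD1, hD11, hco2⟩ := hco (|Cs| + 1)
  obtain ⟨L0, hL0, hlog⟩ := real_log C1 (25 / 16 * Cc) (Cc / 4) Cs (by positivity) hC1
  obtain ⟨D₀, hD₀, b1, b2, b3, b4, b5⟩ := ex_D0 (L0 := L0) hcc hKd0 hCc hD1
  refine ⟨D₀, hD₀, b1, ?_⟩
  intro π ρ x w Xc X κ t D U K Dd E hf hU hint hsta hg hw hκ0 hκ hbd ht0 ht hms hball hK hKt hKU
    hgap hsmall hD hDD htL h2f hτ hE hE6 habs
  have hAm : Am π ρ x w Xc X t U K Dd :=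
    ⟨hf, hU, hint, hsta, hg, hK, hKt, hKU, hball, hgap, hsmall⟩
  have htm : (0:ℝ) < t ^ m := by positivity
  -- the normalisation
  have hCκ : Cz * κ ≤ 1 / 8 := (mul_le_mul_of_nonneg_left hκ hCz0.le).trans a2
  obtain ⟨H, H', w', -, hz⟩ := hzm w κ hκ0 hCκ hw hg.d1 X (fun j h1 h2 => hbd j h1 h2)
  obtain ⟨u, hzu⟩ := hz t ht0 (by linarith)
  have hms7 := hzu.ms_near hw hms
  have sp := Fm_281.splitZ hzu hf
  have hu3 : ContDiff ℝ 3 u := Fm_281.cdU hzu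
  obtain ⟨l, hl⟩ : ∃ l, l = Cz * κ * t := ⟨_, rfl⟩
  obtain ⟨hl0, hl8, hlc, hCl, hlm⟩ := real_l hκ0 hCz0 hκ ht0 ht a1 a2 hCc a6 hmR0 a7 hl
  have hu0 : ∀ v, ‖u v‖ ≤ l := fun v => by
    have := hzu.bd 0 (by norm_num) v
    rwa [norm_iteratedFDeriv_zero, ← hl] at this
  have hBd : Bd u l := Fc_209.Bd.of_iter fun j hj z => by
    rw [hl]; exact hzu.bd j (by omega) z
  obtain ⟨T, hT, hCht, hC⟩ := hcls (rπ π ρ (fderiv ℝ w X) H) (rρ π ρ (fderiv ℝ w X) H') u l sp hu3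
    (hlc.trans a4) hu0 hBd (fun v hv => ⟨by rw [hl]; exact hzu.bd 2 (by norm_num) v, hms7 v hv⟩)
  have hBp : Bp π ρ x w X Cz κ t (fderiv ℝ w X) H H' w' u T (Cc * l) :=
    ⟨hf, hg, hzu, hT, by positivity, hCl, by linarith⟩
  -- the excess
  obtain ⟨d, hd⟩ : ∃ d, d = 25 / 16 * D := ⟨_, rfl⟩
  obtain ⟨b, hb⟩ : ∃ b, b = Kd * D := ⟨_, rfl⟩
  obtain ⟨hd0, hdc, hsd, hb0, hb1, hdb, hKb⟩ := real_d hKh hKd hD hDD b2 b3 hd hb
  have hsep := hAm.sep_le hBp h2f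
  rw [← hd] at hsep
  obtain ⟨m1, m2⟩ := hmass hAm hBp hE (by rw [← hl]; exact hlc.trans a3)
    (hτ.trans (mul_le_mul_of_nonneg_right a3 htm.le))
    (hE6.trans (mul_le_mul_of_nonneg_right a3 htm.le)) habs
  obtain ⟨δ, hδ⟩ : ∃ δ, δ = Cc * (l * (l + √d)) := ⟨_, rfl⟩
  obtain ⟨hδ0, hδt, hδ1⟩ := real_δ hCc hl0 hl8 ht0 hsd ht a1 a6 hδ
  have hCls := hC U Dd (pt π ρ x w X) t d δ (Cc * d) hU hint hsta ht0
    ((closedBall_subset_closedBall (by linarith)).trans hball) hdc hsep m1 m2 hδ.ge hδ1 le_rfl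
  -- logarithms
  obtain ⟨L, hL⟩ : ∃ L, L = Real.log (1 / D) := ⟨_, rfl⟩
  obtain ⟨hLL, hCd, hL'⟩ := real_L hD hDD b5 hL hCc hd
  obtain ⟨-, l1, l2⟩ := hlog L _ hLL hL'
  have hδL : δ ≤ (Real.log (1 / (Cc * d))) ^ (-C1) := by
    refine le_trans ?_ l1
    rw [← hL] at htL
    exact hδt.trans (mul_le_mul_of_nonneg_left htL (by positivity))
  have hco3 := hco2 k _ _ _ _ δ (Cc * d) (by positivity)
    (by rw [hCd]; exact (mul_le_mul_of_nonneg_left hDD (by positivity)).trans b4) hδ0 hδL hCls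
  -- heights
  have hhei := F37_354.heights hAm hBp hCht hm1 hms7 (by rw [← hl]; exact hlm) hsep
  have hLk := hAm.lk ht0 hb0 hb1 (hhei.mono fun p hp h1 h2 => (hp h1 h2).trans
    (mul_le_mul_of_nonneg_right hKb (by positivity)))
  have hsb : t * √b / t = √b := by field_simp
  have hmain := hLE hBp hms7 (by rw [← hl]; exact hlc.trans a5) hint hU hLk hC0.le hCc.le hδ0
    (by
      rw [← hl, hsb, hδ]
      exact mul_le_mul_of_nonneg_left (mul_le_mul_of_nonneg_left (by linarith) hl0) hCc.le)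
    hCls.dom hco3
  rw [hsb] at hmain
  have hb2' := hb2 π ρ x w Xc X t U K Dd Cz κ (Cc * l) (fderiv ℝ w X) H H' w' u T E hAm hBp hE
    habs
  have hgp := hAm.gp_le ht0 hLk (a := (κ * t) ^ 2 + κ * (t * √b) + √b ^ 2) (b := κ ^ 2)
    (by positivity) (by positivity)
  have hg0 : 0 ≤ CLE C0 CT Cc * Cz ^ 2 := by positivity
  have hmain2 := hmain.trans (add_le_add_left (mul_le_mul_of_nonneg_left hgp hg0) _)
  -- signs
  have hτ0 : ∀ᵐ p ∂(VD Dd), 0 ≤ (ch π ρ x 1 w Xc).tau p.1 p.2 := Ms_46.tau_nonneg hAm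
  have hL1 : 0 ≤ ∫ p in {z | ‖(ch π ρ x 1 w Xc).x z - Lo (fderiv ℝ w Xc) (X - Xc)‖ ≤ 16 * t} ×ˢ
      univ, (ch π ρ x 1 w Xc).tau p.1 p.2 ∂(VK (VD Dd) K) :=
    integral_nonneg_of_ae (ae_restrict_of_ae (ae_restrict_of_ae hτ0))
  have hL2 : 0 ≤ ∫ p in {z | ‖(ch π ρ x 1 w Xc).x z - Lo (fderiv ℝ w Xc) (X - Xc)‖ ≤ 16 * t} ×ˢ
      univ, 2 * (ch π ρ x 1 w Xc).f p.1 ∂(VK (VD Dd) K) :=
    integral_nonneg fun p => by
      have : 0 ≤ (ch π ρ x 1 w Xc).f p.1 := by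
        change 0 ≤ ‖Gi_456.Bt π ρ w (foot π ρ x 1 w p.1) (Gi_456.yy π ρ x 1 w p.1)‖ ^ 2 / 2
        positivity
      exact mul_nonneg zero_le_two this
  refine real_fin hκ0 ht0.le hD.le hKd1 rfl (y := √b) (by rw [hb]) hCL hL1 hL2 hCz hC2
    measureReal_nonneg rfl rfl hb2' hmain2 ?_
  refine mul_le_mul_of_nonneg_left ?_ htm.le
  have h9 := mul_le_mul_of_nonneg_right l2 hD.le
  rw [hCd]
  rw [hCd] at h9
  rw [← hL]
  calc _ = Real.log (1 / (25 / 16 * Cc * D)) ^ (-(|Cs| + 1)) * (25 / 16 * Cc) * D := by ring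
    _ ≤ _ := h9

end Crest.Agent.R234.F40_354
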