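import Crest.Agent.R234.Fx10_281
import Crest.Agent.R234.F39_354

/-!
# Row 234 (helper281), node F3-LE, file 7: 354's literal `B2P`
-/

set_option autoImplicit false

open MeasureTheory Filter Topology Set Metric
open Crest.GeometryTopology.Submanifold
open Crest.Agent.R234.Vf_884

noncomputable section

namespace Crest.Agent.R234.Fm_281

/-- **the step from the test function to the kernel** -/
theorem b2P (m n k Q : ℕ) : F37_354.B2P m n k Q := by
  obtain ⟨C2, hC2, hd⟩ := Nrm_842.exists_dns_le m n
  refine ⟨C2, by linarith, ?_⟩
  intro π ρ x w Xc X t U K Dd C κ e q H H' w' u T E hA h hE habs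
  exact to_bv h hA hd (by linarith) habs le_rfl

end Crest.Agent.R234.Fm_281
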