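import Crest.Agent.R234.F40_354
import Crest.Agent.R234.Fx11_281
import Crest.Agent.R234.Core8_809

/-!
# Row 234, F3 (helper354), file 11: the local estimate is proved
-/

set_option autoImplicit false

namespace Crest.Agent.R234.F40_354

/-- **the local estimate** -/
theorem lep (m n k Q : ℕ) (hm : 3 ≤ m) (hn : 1 ≤ n) (hQ : 1 ≤ Q) : F36_354.LEP m n k Q :=
  le_of Core_809.coreProp hm hn hQ (Fm_281.b2P m n k Q)

end Crest.Agent.R234.F40_354
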