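import Crest.Agent.R234.F39_354

/-!
# Row 234, F3 (helper354), file 12: the local estimate at every base point of the unit ball
-/

set_option autoImplicit false

open MeasureTheory Filter Topology Set Metric
open scoped ENNReal NNReal ContDiff InnerProductSpace
open Crest.GeometryTopology.Submanifold Crest.Agent.R234.Vf_884

noncomputable section

namespace Crest.Agent.R234.F42_354

open Crest.Agent.R234.Main_456 (Frame Msys)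
open Crest.Agent.R234.Gi_456 (Gr tube foot ch Lo Loi)
open Crest.Agent.R234.GL_394 (VK bb Loc)
open Crest.Agent.R234.F35k_433 (bv)

variable {m n k : ℕ}

/-- `LEP` at every base point `v0` of the unit ball, from the hypotheses of `F3P1` -/
theorem le_at {Q : ℕ} (hLE : F36_354.LEP m n k Q) : ∃ c₀ C C₁ : ℝ, 0 < c₀ ∧ c₀ ≤ 1 / 16 ∧
    1 ≤ C ∧ 0 < C₁ ∧ ∀ Cs : ℝ, ∃ D₀ : ℝ, 0 < D₀ ∧ D₀ < 1 ∧
  ∀ (π : Euc k →L[ℝ] Euc m) (ρ : Euc k →L[ℝ] Euc n) (x : Euc k) (w : Euc m → Euc n)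
    (X0 : Euc m) (κ ε t D : ℝ) (U K : Set (Euc k)) (Dd : VarifoldData m k) (e : Measure (Euc m)),
  Frame π ρ → IsOpen U → IsIntegralVarifoldIn U Dd → IsStationaryIn U Dd →
  Gr 1 w → ContDiff ℝ ∞ w → 0 ≤ κ → κ ≤ c₀ →
  (∀ j, 1 ≤ j → j ≤ 3 → ∀ Y ∈ ball X0 2, ‖iteratedFDeriv ℝ j w Y‖ ≤ κ) →
  0 < ε → ε ≤ 1 → (∀ Y ∈ ball X0 (1 + ε), Msys w Y = 0) →
  closedBall (Foot_842.pt π ρ x w X0) 4 ⊆ U →
  Loc (ch π ρ x 1 w X0) U (tube π ρ x 1 w) K (VD Dd) (Real.log (1 + ε)) →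
  0 < t → t ≤ c₀ → 32 * t ≤ ε →
  (∀ᵐ p ∂(VD Dd), p.1 ∈ K → ‖(ch π ρ x 1 w X0).x p.1‖ ≤ 1 + 3 / 4 * ε →
    2 * (ch π ρ x 1 w X0).f p.1 ≤ t ^ 2) →
  0 < D → D ≤ D₀ → t ≤ (Real.log (1 / D)) ^ (-C₁) →
  ∫ p in {z | ‖(ch π ρ x 1 w X0).x z‖ < 1 + ε} ×ˢ univ, 2 * (ch π ρ x 1 w X0).f p.1
    ∂(VK (VD Dd) K) ≤ D * t ^ (m + 2) →
  ∫ p in {p : Euc k × L k | ‖(ch π ρ x 1 w X0).x p.1‖ ≤ 1 + 3 / 4 * ε},
    (ch π ρ x 1 w X0).tau p.1 p.2 ∂(VK (VD Dd) K) ≤ c₀ * t ^ m →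
  IsFiniteMeasure e → e.real (closedBall 0 (1 + ε / 2)) ≤ c₀ * t ^ m →
  (∀ F : Euc m → ℝ, Measurable F → (∃ b : ℝ, ∀ v, |F v| ≤ b) →
    (∀ v, v ∉ closedBall (0 : Euc m) (1 + ε / 2) → F v = 0) →
    |∫ p, F ((ch π ρ x 1 w X0).x p.1) * (1 - (ch π ρ x 1 w X0).tau p.1 p.2 / 2)
      ∂(VK (VD Dd) K) - Q * ∫ v, F v * (ch π ρ x 1 w X0).j v| ≤ ∫ v, |F v| ∂e) →
  ∀ v0 : Euc m, ‖v0‖ < 1 →
  ∫ p, bv w X0 t v0 ((ch π ρ x 1 w X0).x p.1) *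
      (1 - (ch π ρ x 1 w X0).tau p.1 p.2 / 2) ∂(VK (VD Dd) K) -
    Q * ∫ v, bv w X0 t v0 v * (ch π ρ x 1 w X0).j v ≤
  C * (κ ^ 2 * ∫ p in {z | ‖(ch π ρ x 1 w X0).x z - v0‖ ≤ 16 * t} ×ˢ univ,
      2 * (ch π ρ x 1 w X0).f p.1 ∂(VK (VD Dd) K)) +
  C * (((κ * t) ^ 2 + κ * t * √D + D) *
    ∫ p in {z | ‖(ch π ρ x 1 w X0).x z - v0‖ ≤ 16 * t} ×ˢ univ,
      (ch π ρ x 1 w X0).tau p.1 p.2 ∂(VK (VD Dd) K)) +
  C * (κ * t) ^ 2 * e.real (closedBall v0 (2 * t)) +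
  t ^ m * ((Real.log (1 / D)) ^ (-Cs) * D) := by
  obtain ⟨c₀, C, C₁, hc₀, hc16, hC, hC₁, hLE⟩ := hLE
  refine ⟨c₀, C, C₁, hc₀, hc16, hC, hC₁, fun Cs => ?_⟩
  obtain ⟨D₀, hD₀, hD1, hLE⟩ := hLE Cs
  refine ⟨D₀, hD₀, hD1, ?_⟩
  intro π ρ x w X0 κ ε t D U K Dd e hf hU hint hsta hg hw hκ0 hκ hbd hε hε1 hms hball hloc ht ht0
    htε hhei hD hDD htL h2f hτ he heb habs v0 hv0
  set q0 := fderiv ℝ w X0 with hq0
  obtain ⟨X, hX⟩ : ∃ X, X = X0 + Loi q0 v0 := ⟨_, rfl⟩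
  have hXX : X - X0 = Loi q0 v0 := by rw [hX]; abel
  have hv : Lo q0 (X - X0) = v0 := by rw [hXX]; exact Gi_456.Lo_Loi q0 v0
  have hXn : ‖X - X0‖ < 1 := by
    have := Gi_456.le_norm_Lo q0 (X - X0)
    rw [hv] at this
    exact this.trans_lt hv0
  have hcpt := hloc.cpt
  have hKt : K ⊆ tube π ρ x 1 w := hloc.sub.trans inter_subset_left
  have hKU : K ⊆ U := hloc.sub.trans inter_subset_right
  have hcx : ∀ z, ‖foot π ρ x 1 w z - X‖ ≤ 14 * t → ‖(ch π ρ x 1 w X0).x z‖ ≤ 1 + 15 * t := by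
    intro z hz
    have e1 : (ch π ρ x 1 w X0).x z = Lo q0 (foot π ρ x 1 w z - X) + v0 := by
      change Lo q0 (foot π ρ x 1 w z - X0) = _
      rw [← hv, ← map_add]
      congr 1
      abel
    rw [e1]
    refine (norm_add_le _ _).trans ?_
    have := Gi_456.norm_Lo_le (hg.d1 X0) (foot π ρ x 1 w z - X)
    linarith
  have hKm : MeasurableSet (K ×ˢ (univ : Set (L k))) := hcpt.isClosed.measurableSet.prod .univ
  have hlog : Real.exp (Real.log (1 + ε)) = 1 + ε := Real.exp_log (by linarith)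
  have hgap : ∀ᵐ p ∂(VD Dd), p.1 ∈ U → p.1 ∈ tube π ρ x 1 w →
      ‖foot π ρ x 1 w p.1 - X‖ ≤ 14 * t → p.1 ∈ K := by
    filter_upwards [hloc.gap] with p hp h1 h2 h3
    refine hp ⟨h2, h1⟩ ?_
    rw [hlog]
    exact (hcx _ h3).trans (by linarith)
  have hballX : closedBall (Foot_842.pt π ρ x w X) (16 * t) ⊆ U := by
    intro z hz
    refine hball ?_
    rw [mem_closedBall_iff_norm] at hz ⊢
    have e1 : z - Foot_842.pt π ρ x w X0 = (z - Foot_842.pt π ρ x w X) +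
        (Foot_842.pt π ρ x w X - Foot_842.pt π ρ x w X0) := by abel
    rw [e1]
    refine (norm_add_le _ _).trans ?_
    have := F37_354.norm_pt_sub (x := x) hf hg X X0
    linarith
  have hsmall : ∀ᵐ p ∂(VD Dd), p.1 ∈ K → ‖foot π ρ x 1 w p.1 - X‖ ≤ 14 * t →
      2 * (ch π ρ x 1 w X0).f p.1 ≤ t ^ 2 := by
    filter_upwards [hhei] with p hp h1 h2
    exact hp h1 ((hcx _ h2).trans (by linarith))
  have hAm : F37_354.Am π ρ x w X0 X t U K Dd :=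
    ⟨hf, hU, hint, hsta, hg, hcpt, hKt, hKU, hballX, hgap, hsmall⟩
  have hf0 : ∀ z, 0 ≤ 2 * (ch π ρ x 1 w X0).f z := by
    intro z
    have : 0 ≤ (ch π ρ x 1 w X0).f z := by
      change 0 ≤ ‖Gi_456.Bt π ρ w (foot π ρ x 1 w z) (Gi_456.yy π ρ x 1 w z)‖ ^ 2 / 2
      positivity
    exact mul_nonneg zero_le_two this
  have hτ0 : ∀ᵐ p ∂(VD Dd), 0 ≤ (ch π ρ x 1 w X0).tau p.1 p.2 := by
    filter_upwards [VD_conc hint] with p hp
    exact Fm_281.tau0_nonneg' (Fm_281.split_of_frame' hf) _ hp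
  have hV : (VK (VD Dd) K) = (VD Dd).restrict (K ×ˢ univ) := rfl
  have i1 : ∫ p in {z | z ∈ K ∧ ‖foot π ρ x 1 w z - X‖ ≤ 14 * t} ×ˢ univ,
      2 * (ch π ρ x 1 w X0).f p.1 ∂(VD Dd) ≤ D * t ^ (m + 2) := by
    refine le_trans ?_ h2f
    rw [hV, Measure.restrict_restrict' hKm]
    refine setIntegral_mono_set (hAm.int_f.mono_set inter_subset_right)
      (Eventually.of_forall fun p => hf0 p.1) (Eventually.of_forall ?_)
    rintro p ⟨⟨h1, h2⟩, -⟩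
    exact ⟨⟨(hcx _ h2).trans_lt (by linarith), mem_univ _⟩, h1, mem_univ _⟩
  have i2 : ∫ p in {z | z ∈ K ∧ ‖foot π ρ x 1 w z - X‖ ≤ 14 * t} ×ˢ univ,
      (ch π ρ x 1 w X0).tau p.1 p.2 ∂(VD Dd) ≤ c₀ * t ^ m := by
    refine le_trans ?_ hτ
    rw [hV, Measure.restrict_restrict' hKm]
    refine setIntegral_mono_set (hAm.int_tau.mono_set inter_subset_right)
      (ae_restrict_of_ae hτ0) (Eventually.of_forall ?_)
    rintro p ⟨⟨h1, h2⟩, -⟩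
    exact ⟨(hcx _ h2).trans (by linarith), h1, mem_univ _⟩
  have hsub : ∀ s : ℝ, s ≤ 6 * t →
      closedBall (Lo q0 (X - X0)) s ⊆ closedBall (0 : Euc m) (1 + ε / 2) := by
    intro s hs v hvv
    rw [hv, mem_closedBall_iff_norm] at hvv
    rw [mem_closedBall_zero_iff]
    have e1 : v = (v - v0) + v0 := by abel
    rw [e1]
    refine (norm_add_le _ _).trans ?_
    linarith
  have i3 : e.real (closedBall (Lo q0 (X - X0)) (6 * t)) ≤ c₀ * t ^ m :=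
    (measureReal_mono (hsub _ le_rfl)).trans heb
  have hfin := hLE π ρ x w X0 X κ t D U K Dd e hf hU hint hsta hg hw hκ0 hκ
    (fun j h1 h2 Y hY => hbd j h1 h2 Y (by
      rw [mem_ball_iff_norm] at hY ⊢
      have e1 : Y - X0 = (Y - X) + (X - X0) := by abel
      rw [e1]
      exact (norm_add_le _ _).trans_lt (by linarith)))
    ht ht0 (fun Y hY => hms Y (by
      rw [mem_ball_iff_norm] at hY ⊢
      have e1 : Y - X0 = (Y - X) + (X - X0) := by abel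
      rw [e1]
      exact (norm_add_le _ _).trans_lt (by linarith)))
    hballX hcpt hKt hKU hgap hsmall hD hDD htL i1 i2 he i3
    (fun F hF1 hF2 hF3 => habs F hF1 hF2 (fun v hvv => hF3 v fun h => hvv (hsub _ le_rfl h)))
  rw [hv] at hfin
  exact hfin

end Crest.Agent.R234.F42_354
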