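import Crest.Agent.R234.Al9_182
import Crest.Agent.R234.Ar2_870

/-!
Row 234, node F9C (helper947), file 1: if the support near a point lies in the zero set of a map `h`
with values in `ℝ^(k-m)`, then `Dh ∘ S = 0` a.e., and `S` is the projection onto `ker Dh`.
-/

set_option autoImplicit false

open MeasureTheory Crest.GeometryTopology.Submanifold Filter Topology Metric Module
open scoped ENNReal NNReal InnerProductSpace

noncomputable section

namespace Crest.Agent.R234.F9c_947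

open Crest.Agent.R234.Vf_884

variable {m k : ℕ} {F : Type*} [NormedAddCommGroup F] [InnerProductSpace ℝ F]
  [FiniteDimensional ℝ F]

/-! ### algebra -/

omit [FiniteDimensional ℝ F] in
/-- a projection of rank `m` killed by a surjective `B` is the projection onto `ker B`. -/
theorem fix_of_ker {B : Euc k →L[ℝ] F} {S : L k} (hS : S ∈ G m k) (hBS : ∀ v, B (S v) = 0)
    (hB : Function.Surjective B) (hdim : finrank ℝ F + m = k) {u : Euc k} (hu : B u = 0) :
    S u = u := by
  obtain ⟨T, hT, hTS⟩ := Al9_182.exists_plane hS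
  have hle : T ≤ LinearMap.ker B.toLinearMap := by
    intro v hv
    have h1 : S v = v := by
      rw [← hTS]
      exact Submodule.starProjection_eq_self_iff.2 hv
    rw [LinearMap.mem_ker]
    have := hBS v
    rwa [h1] at this
  have hfk : finrank ℝ (LinearMap.ker B.toLinearMap) = m := by
    have h1 := LinearMap.finrank_range_add_finrank_ker B.toLinearMap
    have h2 : LinearMap.range B.toLinearMap = ⊤ := LinearMap.range_eq_top.2 hB
    rw [h2, finrank_top, finrank_euclideanSpace_fin] at h1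
    omega
  have heq : T = LinearMap.ker B.toLinearMap :=
    Submodule.eq_of_le_of_finrank_eq hle (hT.trans hfk.symm)
  have h2 : u ∈ T := by
    rw [heq, LinearMap.mem_ker]
    exact hu
  rw [← hTS]
  exact Submodule.starProjection_eq_self_iff.2 h2

/-- near a surjection, the distance to the kernel plane is controlled. -/
theorem perp_le {A B : Euc k →L[ℝ] F} {R : F →L[ℝ] Euc k} (hAR : ∀ y, A (R y) = y)
    (hAB : ‖B - A‖ * ‖R‖ ≤ 1 / 2) {S : L k} (hS : S ∈ G m k) (hBS : ∀ v, B (S v) = 0)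
    (hdim : finrank ℝ F + m = k) (v : Euc k) : ‖v - S v‖ ≤ 2 * ‖R‖ * ‖B v‖ := by
  have h1 : ∀ y : F, ‖y‖ ≤ 2 * ‖B (R y)‖ := by
    intro y
    have h2 : y = B (R y) - (B - A) (R y) := by
      rw [sub_apply, hAR]
      abel
    have h3 : ‖(B - A) (R y)‖ ≤ 1 / 2 * ‖y‖ := by
      calc ‖(B - A) (R y)‖ ≤ ‖B - A‖ * ‖R y‖ := (B - A).le_opNorm _
        _ ≤ ‖B - A‖ * (‖R‖ * ‖y‖) := by gcongr; exact R.le_opNorm _
        _ = ‖B - A‖ * ‖R‖ * ‖y‖ := by ring
        _ ≤ _ := by gcongr
    have h4 : ‖y‖ ≤ ‖B (R y)‖ + ‖(B - A) (R y)‖ := by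
      conv_lhs => rw [h2]
      exact norm_sub_le _ _
    linarith
  have hinj : Function.Injective (B ∘L R : F →L[ℝ] F) := by
    rw [injective_iff_map_eq_zero]
    intro y hy
    have := h1 y
    rw [ContinuousLinearMap.comp_apply] at hy
    rw [hy, norm_zero, mul_zero] at this
    exact norm_le_zero_iff.1 this
  have hsurj : Function.Surjective (B ∘L R : F →L[ℝ] F) :=
    (LinearMap.injective_iff_surjective (f := (B ∘L R : F →L[ℝ] F).toLinearMap)).1 hinj
  have hBsurj : Function.Surjective B := fun y => by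
    obtain ⟨x, hx⟩ := hsurj y
    exact ⟨R x, hx⟩
  set w : Euc k := v - S v with hw
  have hBw : B w = B v := by rw [hw, map_sub, hBS, sub_zero]
  obtain ⟨y, hy⟩ := hsurj (B w)
  rw [ContinuousLinearMap.comp_apply] at hy
  have hu : B (w - R y) = 0 := by rw [map_sub, hy, sub_self]
  have hSu := fix_of_ker hS hBS hBsurj hdim hu
  have hSw : S w = 0 := by rw [hw, map_sub, G_idem_apply hS, sub_self]
  have h5 : ⟪w, w - R y⟫_ℝ = 0 := by
    rw [← hSu, ← G_symm hS, hSw, inner_zero_left]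
  have h6 : ‖w‖ ^ 2 = ⟪w, R y⟫_ℝ := by
    rw [← real_inner_self_eq_norm_sq]
    rw [inner_sub_right] at h5
    linarith
  have h7 : ‖y‖ ≤ 2 * ‖B v‖ := by
    have := h1 y
    rwa [hy, hBw] at this
  have h8 : ‖w‖ ^ 2 ≤ ‖w‖ * (2 * ‖R‖ * ‖B v‖) := by
    rw [h6]
    calc ⟪w, R y⟫_ℝ ≤ ‖w‖ * ‖R y‖ := real_inner_le_norm _ _
      _ ≤ ‖w‖ * (‖R‖ * (2 * ‖B v‖)) := by
          gcongr
          exact (R.le_opNorm _).trans (by gcongr)
      _ = _ := by ring
  by_cases hw0 : ‖w‖ = 0
  · rw [hw0]; positivity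
  · have hw1 : 0 < ‖w‖ := lt_of_le_of_ne (norm_nonneg _) (Ne.symm hw0)
    rw [sq] at h8
    exact le_of_mul_le_mul_left h8 hw1

/-! ### tangency -/

variable {U : Set (Euc k)} {D : VarifoldData m k}

/-- `D(h ∘ f) = 0` a.e. on the zero set. -/
theorem ae_deriv_zero {f : Euc m → Euc k} (hf : ContDiff ℝ 1 f) {s : Set (Euc m)}
    (hs : MeasurableSet s) {h : Euc k → F} {h' : Euc k → Euc k →L[ℝ] F}
    (hh : ∀ a ∈ s, HasFDerivAt h (h' (f a)) (f a)) (h0 : ∀ a ∈ s, h (f a) = 0) (hm : 1 ≤ m) :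
    ∀ᵐ a ∂(volume.restrict s), ∀ w, h' (f a) (fderiv ℝ f a w) = 0 := by
  let b := stdOrthonormalBasis ℝ F
  let v₀ : Euc m := EuclideanSpace.single ⟨0, hm⟩ 1
  have hv₀ : v₀ ≠ 0 := by
    intro h1
    have h2 : v₀ ⟨0, hm⟩ = 0 := by rw [h1]; rfl
    simp [v₀] at h2
  have key : ∀ j, ∀ᵐ a ∂(volume.restrict s), ∀ w, ⟪b j, h' (f a) (fderiv ℝ f a w)⟫_ℝ = 0 := by
    intro j
    let Λ : F →L[ℝ] Euc m := (innerSL ℝ (b j)).smulRight v₀
    have hder : ∀ a ∈ s, HasFDerivWithinAt (fun a => Λ (h (f a)))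
        (Λ ∘L (h' (f a) ∘L fderiv ℝ f a)) s a := by
      intro a ha
      have h1 : HasFDerivAt f (fderiv ℝ f a) a := (hf.differentiable one_ne_zero a).hasFDerivAt
      exact (Λ.hasFDerivAt.comp a ((hh a ha).comp a h1)).hasFDerivWithinAt
    have happ : ApproximatesLinearOn (fun a => Λ (h (f a))) (0 : Euc m →L[ℝ] Euc m) s 0 := by
      intro a ha c hc
      simp [h0 a ha, h0 c hc]
    have h2 := ApproximatesLinearOn.norm_fderiv_sub_le volume happ hs _ hder
    filter_upwards [h2] with a ha w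
    have h3 : Λ ∘L (h' (f a) ∘L fderiv ℝ f a) = 0 := by
      rw [sub_zero] at ha
      exact nnnorm_eq_zero.1 (le_antisymm ha (zero_le))
    have h4 := congrArg (fun A : Euc m →L[ℝ] Euc m => A w) h3
    simp only [ContinuousLinearMap.comp_apply, zero_apply] at h4
    have h5 : (⟪b j, h' (f a) (fderiv ℝ f a w)⟫_ℝ) • v₀ = 0 := h4
    exact (smul_eq_zero.1 h5).resolve_right hv₀
  rw [← ae_all_iff] at key
  filter_upwards [key] with a ha w
  exact InnerProductSpace.ext_inner_left_basis b.toBasis (fun j => by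
    rw [OrthonormalBasis.coe_toBasis, ha j w, inner_zero_right])

/-- **tangency**: if the support in a ball lies in `{h = 0}` then `Dh ∘ S = 0` almost everywhere. -/
theorem ae_tangent (hD : IsIntegralVarifoldIn U D) (hm : 1 ≤ m) {x : Euc k} {r : ℝ} {h : Euc k → F}
    {h' : Euc k → Euc k →L[ℝ] F} (hh : ∀ q ∈ ball x r, HasFDerivAt h (h' q) q)
    (hc : ContinuousOn h' (ball x r)) (h0 : ∀ q ∈ support D, q ∈ ball x r → h q = 0) :
    ∀ᵐ p ∂(VD D), p.1 ∈ ball x r → ∀ v, h' p.1 (p.2 v) = 0 := by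
  have hmeas : MeasurableSet {p : Euc k × L k | p.1 ∈ ball x r → ∀ v, h' p.1 (p.2 v) = 0} := by
    have hO : IsOpen (ball x r ×ˢ (Set.univ : Set (L k))) := isOpen_ball.prod isOpen_univ
    have hΦ : ContinuousOn (fun p : Euc k × L k => h' p.1 ∘L p.2) (ball x r ×ˢ Set.univ) :=
      (hc.comp continuousOn_fst fun p hp => hp.1).clm_comp continuousOn_snd
    have h1 : IsOpen (ball x r ×ˢ (Set.univ : Set (L k)) ∩
        (fun p : Euc k × L k => h' p.1 ∘L p.2) ⁻¹' {(0 : Euc k →L[ℝ] F)}ᶜ) :=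
      hΦ.isOpen_inter_preimage hO isOpen_compl_singleton
    have h2 : {p : Euc k × L k | p.1 ∈ ball x r → ∀ v, h' p.1 (p.2 v) = 0} =
        (ball x r ×ˢ (Set.univ : Set (L k)) ∩
        (fun p : Euc k × L k => h' p.1 ∘L p.2) ⁻¹' {(0 : Euc k →L[ℝ] F)}ᶜ)ᶜ := by
      ext p
      simp only [Set.mem_ofPred_eq, Set.mem_compl_iff, Set.mem_inter_iff, Set.mem_prod, Set.mem_univ,
        and_true, Set.mem_preimage, Set.mem_singleton_iff, not_and, not_not]
      refine imp_congr_right fun _ => ⟨fun h => ?_, fun h v => ?_⟩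
      · ext1 v
        exact h v
      · exact congrArg (fun A : Euc k →L[ℝ] F => A v) h
    rw [h2]
    exact h1.measurableSet.compl
  refine Measure.ae_sum_iff.2 fun i => ?_
  refine (ae_map_iff (aemeasurable_lift hD i) hmeas).2 ?_
  have hfc : Continuous (D.chart i) := (hD.contDiff i).continuous
  set s : Set (Euc m) := D.dom i ∩ D.chart i ⁻¹' (ball x r ∩ support D) with hs
  have hsm : MeasurableSet s := (hD.measurableSet i).inter
    (hfc.measurable (measurableSet_ball.inter (Al9_182.isClosed_support D).measurableSet))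
  have h3 := ae_deriv_zero (hD.contDiff i) hsm (h := h) (h' := h')
    (fun a ha => hh _ ha.2.1) (fun a ha => h0 _ ha.2.2 ha.2.1) hm
  rw [ae_restrict_iff' hsm] at h3
  have h4 := Ae1_3.chart_mem_support hD i
  rw [ae_restrict_iff' (hD.measurableSet i)] at h4
  have h7 : ∀ᵐ a ∂(volume.restrict (D.dom i)), (lift D i a).1 ∈ ball x r →
      ∀ v, h' (lift D i a).1 ((lift D i a).2 v) = 0 := by
    rw [ae_restrict_iff' (hD.measurableSet i)]
    filter_upwards [h3, h4] with a ha hb hai hball v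
    have h5 := ha ⟨hai, hball, hb hai⟩
    obtain ⟨w, hw⟩ := (Ar_870.tp_mem (D.chart i) a v)
    have h6 : (lift D i a).2 v = fderiv ℝ (D.chart i) a w := hw.symm
    change h' (D.chart i a) ((lift D i a).2 v) = 0
    rw [h6]
    exact h5 w
  exact (base_ac D i).ae_le h7

end Crest.Agent.R234.F9c_947
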