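import Crest.Agent.R234.Vf4_884

/-!
Row 234, base library (helper884), file 5: the mass measure, the exact monotonicity identity.
-/

set_option autoImplicit false

open MeasureTheory Crest.GeometryTopology.Submanifold Filter Topology
open scoped ENNReal InnerProductSpace

noncomputable section

namespace Crest.Agent.R234.Vf_884

variable {m k : ℕ}

/-- the mass measure of a varifold. -/
def mass (V : Measure (Euc k × L k)) : Measure (Euc k) := V.map Prod.fst

theorem mass_apply (V : Measure (Euc k × L k)) {S : Set (Euc k)} (hS : MeasurableSet S) :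
    mass V S = V (Prod.fst ⁻¹' S) := Measure.map_apply measurable_fst hS

theorem mass_VD {U : Set (Euc k)} {D : VarifoldData m k} (hD : IsIntegralVarifoldIn U D) :
    mass (VD D) = weight D := VD_fst hD

theorem prod_univ_eq (S : Set (Euc k)) :
    S ×ˢ (Set.univ : Set (L k)) = (Prod.fst : Euc k × L k → Euc k) ⁻¹' S := by
  ext p; simp

/-- the profile. -/
def cc (m : ℕ) (a u : ℝ) : ℝ := ((√(max u a)) ^ (m + 2))⁻¹

theorem continuous_cc (m : ℕ) {a : ℝ} (ha : 0 < a) : Continuous (cc m a) := by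
  unfold cc
  refine Continuous.inv₀ (by fun_prop) fun u => ?_
  have : 0 < √(max u a) := Real.sqrt_pos.2 (lt_max_of_lt_right ha)
  positivity

theorem hasDerivAt_H (m : ℕ) {t : ℝ} (ht : 0 < t) :
    HasDerivAt (fun t : ℝ => -((√t) ^ m)⁻¹) ((m / 2 : ℝ) * ((√t) ^ (m + 2))⁻¹) t := by
  have hs : 0 < √t := Real.sqrt_pos.2 ht
  have h1 := (Real.hasDerivAt_sqrt ht.ne').pow m
  have h2 := (h1.inv (pow_pos hs m).ne').neg
  refine h2.congr_deriv ?_
  rcases m with _ | n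
  · simp
  · simp only [Nat.add_sub_cancel]
    push_cast
    field_simp
    simp only [Pi.pow_apply]
    ring

theorem inner_eq (m : ℕ) {a b t : ℝ} (ha : 0 < a) (hab : a < b) :
    (m / 2 : ℝ) * ∫ u in t..b, (Set.Ioo a b).indicator (cc m a) u =
      if t < b then ((√(max t a)) ^ m)⁻¹ - ((√b) ^ m)⁻¹ else 0 := by
  split_ifs with htb
  · have hs : max t a < b := max_lt htb hab
    have h1 : ∫ u in t..b, (Set.Ioo a b).indicator (cc m a) u = ∫ u in (max t a)..b, cc m a u := by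
      rw [intervalIntegral.integral_of_le htb.le, intervalIntegral.integral_of_le hs.le,
        setIntegral_indicator measurableSet_Ioo, integral_Ioc_eq_integral_Ioo]
      congr 2
      ext u
      simp only [Set.mem_inter_iff, Set.mem_Ioc, Set.mem_Ioo, max_lt_iff]
      constructor
      · rintro ⟨⟨h1, _⟩, h2, h3⟩
        exact ⟨⟨h1, h2⟩, h3⟩
      · rintro ⟨⟨h1, h2⟩, h3⟩
        exact ⟨⟨h1, h3.le⟩, h2, h3⟩
    rw [h1, ← intervalIntegral.integral_const_mul]
    have h2 : ∀ u ∈ Set.uIcc (max t a) b,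
        HasDerivAt (fun t : ℝ => -((√t) ^ m)⁻¹) ((m / 2 : ℝ) * cc m a u) u := by
      intro u hu
      rw [Set.uIcc_of_le hs.le] at hu
      have hau : a ≤ u := (le_max_right _ _).trans hu.1
      unfold cc
      rw [max_eq_left hau]
      exact hasDerivAt_H m (ha.trans_le hau)
    rw [intervalIntegral.integral_eq_sub_of_hasDerivAt h2
      (((continuous_cc m ha).const_mul _).intervalIntegrable _ _)]
    ring
  · rw [not_lt] at htb
    rw [intervalIntegral.integral_symm, intervalIntegral.integral_congr (g := fun _ => (0:ℝ))]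
    · simp
    · intro u hu
      rw [Set.uIcc_of_le htb] at hu
      simp only
      rw [Set.indicator_of_notMem]
      exact fun h => absurd h.2 (not_lt.2 hu.1)

variable {U : Set (Euc k)} {V : Measure (Euc k × L k)}

/-- the integrand of the monotonicity identity. -/
def perpQ (m : ℕ) (z : Euc k) (p : Euc k × L k) : ℝ :=
  ‖(p.1 - z) - p.2 (p.1 - z)‖ ^ 2 / ‖p.1 - z‖ ^ (m + 2)

theorem perpQ_nonneg (m : ℕ) (z : Euc k) (p : Euc k × L k) : 0 ≤ perpQ m z p := by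
  unfold perpQ; positivity

theorem measurable_perpQ (m : ℕ) (z : Euc k) : Measurable (perpQ (k := k) m z) := by
  unfold perpQ
  have h1 : Continuous fun p : Euc k × L k => ‖(p.1 - z) - p.2 (p.1 - z)‖ ^ 2 :=
    (((continuous_fst.sub continuous_const)).sub
      (continuous_snd.clm_apply (continuous_fst.sub continuous_const))).norm.pow 2
  have h2 : Continuous fun p : Euc k × L k => ‖p.1 - z‖ ^ (m + 2) := by fun_prop
  exact h1.measurable.div h2.measurable

theorem perpQ_le (m : ℕ) {z : Euc k} {p : Euc k × L k} (hp : p.2 ∈ G m k) {σ : ℝ} (hσ : 0 < σ)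
    (h : σ ≤ ‖p.1 - z‖) : perpQ m z p ≤ (σ ^ m)⁻¹ := by
  unfold perpQ
  have h1 := G_norm_sq_add hp (p.1 - z)
  have h2 : ‖(p.1 - z) - p.2 (p.1 - z)‖ ^ 2 ≤ ‖p.1 - z‖ ^ 2 := by
    nlinarith [sq_nonneg ‖p.2 (p.1 - z)‖]
  have h3 : 0 < ‖p.1 - z‖ := hσ.trans_le h
  rw [div_le_iff₀ (by positivity), pow_add]
  have h4 : σ ^ m ≤ ‖p.1 - z‖ ^ m := by gcongr
  have h5 : 1 ≤ (σ ^ m)⁻¹ * ‖p.1 - z‖ ^ m := by
    rw [inv_mul_eq_div, one_le_div (by positivity)]
    exact h4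
  calc _ ≤ ‖p.1 - z‖ ^ 2 := h2
    _ ≤ ((σ ^ m)⁻¹ * ‖p.1 - z‖ ^ m) * ‖p.1 - z‖ ^ 2 :=
        le_mul_of_one_le_left (sq_nonneg _) h5
    _ = _ := by ring

/-- the algebra of the three zones. -/
theorem zones (m : ℕ) {z : Euc k} {p : Euc k × L k} (hp : p.2 ∈ G m k) {σ ρ : ℝ} (hσ : 0 < σ)
    (hσρ : σ < ρ) :
    (m / 2 : ℝ) * (∫ u in (‖p.1 - z‖ ^ 2)..(ρ ^ 2),
        (Set.Ioo (σ ^ 2) (ρ ^ 2)).indicator (cc m (σ ^ 2)) u)
      - (Set.Ioo (σ ^ 2) (ρ ^ 2)).indicator (cc m (σ ^ 2)) (‖p.1 - z‖ ^ 2) *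
        ‖p.2 (p.1 - z)‖ ^ 2 =
    (Prod.fst ⁻¹' (Metric.ball z ρ \ Metric.closedBall z σ)).indicator (perpQ m z) p
      + (σ ^ m)⁻¹ * (Prod.fst ⁻¹' (Metric.closedBall z σ)).indicator (fun _ => (1:ℝ)) p
      - (ρ ^ m)⁻¹ * (Prod.fst ⁻¹' (Metric.ball z ρ)).indicator (fun _ => (1:ℝ)) p := by
  have hρ : 0 < ρ := hσ.trans hσρ
  have hab : σ ^ 2 < ρ ^ 2 := by gcongr
  rw [inner_eq m (by positivity) hab]
  have hsσ : √(σ ^ 2) = σ := Real.sqrt_sq hσ.le
  have hsρ : √(ρ ^ 2) = ρ := Real.sqrt_sq hρ.le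
  have hsr : √(‖p.1 - z‖ ^ 2) = ‖p.1 - z‖ := Real.sqrt_sq (norm_nonneg _)
  rcases le_or_gt ρ ‖p.1 - z‖ with h1 | h1
  · have h2 : ¬ ‖p.1 - z‖ ^ 2 < ρ ^ 2 := by
      rw [not_lt]; gcongr
    rw [if_neg h2, Set.indicator_of_notMem (fun h => h2 h.2)]
    have h3 : p.1 ∉ Metric.ball z ρ := by
      rw [mem_ball_iff_norm]; exact not_lt.2 h1
    have h4 : p.1 ∉ Metric.closedBall z σ := by
      rw [mem_closedBall_iff_norm]; exact not_le.2 (hσρ.trans_le h1)
    rw [Set.indicator_of_notMem (fun h => h3 h.1),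
      Set.indicator_of_notMem (show p ∉ Prod.fst ⁻¹' Metric.closedBall z σ from h4),
      Set.indicator_of_notMem (show p ∉ Prod.fst ⁻¹' Metric.ball z ρ from h3)]
    simp
  · have h2 : ‖p.1 - z‖ ^ 2 < ρ ^ 2 := by gcongr
    have h3 : p.1 ∈ Metric.ball z ρ := by rwa [mem_ball_iff_norm]
    rw [if_pos h2, hsρ, Set.indicator_of_mem (s := Prod.fst ⁻¹' Metric.ball z ρ)
      (show p ∈ Prod.fst ⁻¹' Metric.ball z ρ from h3)]
    rcases le_or_gt ‖p.1 - z‖ σ with h4 | h4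
    · have h5 : p.1 ∈ Metric.closedBall z σ := by rwa [mem_closedBall_iff_norm]
      have h6 : ‖p.1 - z‖ ^ 2 ≤ σ ^ 2 := by gcongr
      rw [max_eq_right h6, hsσ, Set.indicator_of_notMem (fun h => absurd h.1 (not_lt.2 h6)),
        Set.indicator_of_notMem (fun h => h.2 h5),
        Set.indicator_of_mem (show p ∈ Prod.fst ⁻¹' Metric.closedBall z σ from h5)]
      ring
    · have h5 : p.1 ∉ Metric.closedBall z σ := by
        rw [mem_closedBall_iff_norm]; exact not_le.2 h4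
      have h6 : σ ^ 2 < ‖p.1 - z‖ ^ 2 := by gcongr
      rw [max_eq_left h6.le, hsr, Set.indicator_of_mem
          (show ‖p.1 - z‖ ^ 2 ∈ Set.Ioo (σ ^ 2) (ρ ^ 2) from ⟨h6, h2⟩),
        Set.indicator_of_mem (show p ∈ Prod.fst ⁻¹' (Metric.ball z ρ \ Metric.closedBall z σ) from
          ⟨h3, h5⟩),
        Set.indicator_of_notMem (show p ∉ Prod.fst ⁻¹' Metric.closedBall z σ from h5)]
      unfold cc perpQ
      rw [max_eq_left h6.le, hsr]
      have h7 : 0 < ‖p.1 - z‖ := hσ.trans h4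
      have h8 := G_norm_sq_add hp (p.1 - z)
      have h9 : ‖p.1 - z - p.2 (p.1 - z)‖ ^ 2 = ‖p.1 - z‖ ^ 2 - ‖p.2 (p.1 - z)‖ ^ 2 := by
        linarith
      rw [h9, pow_add]
      field_simp
      ring

theorem integrable_ball_ind (hV : Stat m k U V) {z : Euc k} {ρ : ℝ}
    (hU : Metric.closedBall z ρ ⊆ U) {F : Euc k × L k → ℝ} (hF : Measurable F)
    {S : Set (Euc k)} (hS : MeasurableSet S) (hSρ : S ⊆ Metric.closedBall z ρ) {C : ℝ}
    (hC : ∀ p : Euc k × L k, p.1 ∈ S → p.2 ∈ G m k → |F p| ≤ C) :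
    Integrable ((Prod.fst ⁻¹' S).indicator F) V := by
  have hm : MeasurableSet ((Prod.fst : Euc k × L k → Euc k) ⁻¹' S) := measurable_fst hS
  rw [integrable_indicator_iff hm]
  have hfin : V ((Prod.fst : Euc k × L k → Euc k) ⁻¹' S) < ⊤ := by
    refine (measure_mono ?_).trans_lt (hV.fin _ (isCompact_closedBall z ρ) hU)
    intro p hp
    exact ⟨hSρ hp, trivial⟩
  refine IntegrableOn.of_bound hfin hF.aestronglyMeasurable C ?_
  filter_upwards [ae_restrict_mem hm, ae_restrict_of_ae hV.conc] with p hp hp2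
  exact hC p hp hp2

/-- **the weighted monotonicity identity**. -/
theorem mono_identity_weighted (hV : Stat m k U V) (hm : 1 ≤ m) {h : Euc k → ℝ}
    (hh : ContDiff ℝ 1 h) {z : Euc k} {σ ρ : ℝ} (hσ : 0 < σ) (hσρ : σ < ρ)
    (hU : Metric.closedBall z ρ ⊆ U) :
    (ρ ^ m)⁻¹ * (∫ p in Prod.fst ⁻¹' (Metric.ball z ρ), h p.1 ∂V)
      - (σ ^ m)⁻¹ * (∫ p in Prod.fst ⁻¹' (Metric.closedBall z σ), h p.1 ∂V) =
    (∫ p in Prod.fst ⁻¹' (Metric.ball z ρ \ Metric.closedBall z σ), h p.1 * perpQ m z p ∂V)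
      + (m : ℝ)⁻¹ * ∫ p in Prod.fst ⁻¹' (Metric.ball z ρ),
        (((max ‖p.1 - z‖ σ) ^ m)⁻¹ - (ρ ^ m)⁻¹) * fderiv ℝ h p.1 (p.2 (p.1 - z)) ∂V := by
  have hρ : 0 < ρ := hσ.trans hσρ
  have hm0 : (m : ℝ) ≠ 0 := by positivity
  obtain ⟨C, hC⟩ := (isCompact_closedBall z ρ).exists_bound_of_continuousOn
    hh.continuous.continuousOn
  obtain ⟨C', hC'⟩ := (isCompact_closedBall z ρ).exists_bound_of_continuousOn
    (hh.continuous_fderiv one_ne_zero).continuousOn
  have key := radialh_ind hV (continuous_cc m (by positivity : 0 < σ ^ 2)) hh (a := σ ^ 2)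
    hρ.le hU
  set A : Euc k × L k → ℝ := (Prod.fst ⁻¹' (Metric.ball z ρ \ Metric.closedBall z σ)).indicator
    (fun p => h p.1 * perpQ m z p) with hA
  set B : Euc k × L k → ℝ := (Prod.fst ⁻¹' (Metric.closedBall z σ)).indicator
    (fun p => h p.1) with hB
  set D : Euc k × L k → ℝ := (Prod.fst ⁻¹' (Metric.ball z ρ)).indicator
    (fun p => h p.1) with hD
  set E : Euc k × L k → ℝ := (Prod.fst ⁻¹' (Metric.ball z ρ)).indicator
    (fun p => (((max ‖p.1 - z‖ σ) ^ m)⁻¹ - (ρ ^ m)⁻¹) * fderiv ℝ h p.1 (p.2 (p.1 - z))) with hE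
  have hmh : Measurable fun p : Euc k × L k => h p.1 := hh.continuous.measurable.comp measurable_fst
  have hmE : Continuous fun p : Euc k × L k =>
      (((max ‖p.1 - z‖ σ) ^ m)⁻¹ - (ρ ^ m)⁻¹) * fderiv ℝ h p.1 (p.2 (p.1 - z)) := by
    refine Continuous.mul ?_ ?_
    · refine Continuous.sub (Continuous.inv₀ (by fun_prop) fun p => ?_) continuous_const
      have : 0 < max ‖p.1 - z‖ σ := lt_max_of_lt_right hσ
      positivity
    · exact ((hh.continuous_fderiv one_ne_zero).comp continuous_fst).clm_apply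
        (continuous_snd.clm_apply (continuous_fst.sub continuous_const))
  have iA : Integrable A V := by
    refine integrable_ball_ind hV hU (hmh.mul (measurable_perpQ m z))
      (measurableSet_ball.diff measurableSet_closedBall)
      (Set.sdiff_subset.trans Metric.ball_subset_closedBall) (C := C * (σ ^ m)⁻¹) ?_
    intro p hp hp2
    have h1 : ‖h p.1‖ ≤ C := hC _ (Metric.ball_subset_closedBall hp.1)
    have h2 : perpQ m z p ≤ (σ ^ m)⁻¹ := perpQ_le m hp2 hσ (by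
      have := hp.2
      rw [mem_closedBall_iff_norm, not_le] at this
      exact this.le)
    change |h p.1 * perpQ m z p| ≤ _
    rw [abs_mul, abs_of_nonneg (perpQ_nonneg m z p)]
    exact mul_le_mul h1 h2 (perpQ_nonneg m z p) ((norm_nonneg _).trans h1)
  have iB : Integrable B V := integrable_ball_ind hV hU hmh measurableSet_closedBall
    (Metric.closedBall_subset_closedBall hσρ.le) (C := C) fun p hp _ =>
      hC _ (Metric.closedBall_subset_closedBall hσρ.le hp)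
  have iD : Integrable D V := integrable_ball_ind hV hU hmh measurableSet_ball
    Metric.ball_subset_closedBall (C := C) fun p hp _ =>
      hC _ (Metric.ball_subset_closedBall hp)
  have iE : Integrable E V := by
    refine integrable_ball_ind hV hU hmE.measurable measurableSet_ball
      Metric.ball_subset_closedBall (C := (σ ^ m)⁻¹ * (C' * ρ)) ?_
    intro p hp hp2
    have h1 : ‖fderiv ℝ h p.1‖ ≤ C' := hC' _ (Metric.ball_subset_closedBall hp)
    rw [mem_ball_iff_norm] at hp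
    have h0 : 0 < max ‖p.1 - z‖ σ := lt_max_of_lt_right hσ
    have h3 : max ‖p.1 - z‖ σ ≤ ρ := max_le hp.le hσρ.le
    have h4 : (ρ ^ m)⁻¹ ≤ ((max ‖p.1 - z‖ σ) ^ m)⁻¹ := by gcongr
    have h5 : ((max ‖p.1 - z‖ σ) ^ m)⁻¹ ≤ (σ ^ m)⁻¹ := by
      gcongr
      exact le_max_right _ _
    have h6 : |((max ‖p.1 - z‖ σ) ^ m)⁻¹ - (ρ ^ m)⁻¹| ≤ (σ ^ m)⁻¹ := by
      rw [abs_of_nonneg (by linarith)]
      have : 0 ≤ (ρ ^ m)⁻¹ := by positivity
      linarith
    have h7 : |fderiv ℝ h p.1 (p.2 (p.1 - z))| ≤ C' * ρ := by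
      refine (ContinuousLinearMap.le_opNorm (fderiv ℝ h p.1) _).trans ?_
      have := G_norm_apply_le hp2 (p.1 - z)
      exact mul_le_mul h1 (this.trans hp.le) (norm_nonneg _) ((norm_nonneg _).trans h1)
    rw [abs_mul]
    exact mul_le_mul h6 h7 (abs_nonneg _) (by positivity)
  have hid : (fun p : Euc k × L k => h p.1 * ((m / 2 : ℝ) *
        (∫ u in (‖p.1 - z‖ ^ 2)..(ρ ^ 2),
          (Set.Ioo (σ ^ 2) (ρ ^ 2)).indicator (cc m (σ ^ 2)) u)
      - (Set.Ioo (σ ^ 2) (ρ ^ 2)).indicator (cc m (σ ^ 2)) (‖p.1 - z‖ ^ 2) *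
        ‖p.2 (p.1 - z)‖ ^ 2)
      + (1 / 2 : ℝ) * (∫ u in (‖p.1 - z‖ ^ 2)..(ρ ^ 2),
          (Set.Ioo (σ ^ 2) (ρ ^ 2)).indicator (cc m (σ ^ 2)) u) *
        fderiv ℝ h p.1 (p.2 (p.1 - z)))
      =ᵐ[V] fun p => ((A p + (σ ^ m)⁻¹ * B p) - (ρ ^ m)⁻¹ * D p) + (m : ℝ)⁻¹ * E p := by
    filter_upwards [hV.conc] with p hp
    rw [zones m hp hσ hσρ]
    have hi := inner_eq m (t := ‖p.1 - z‖ ^ 2) (by positivity : 0 < σ ^ 2)
      (by gcongr : σ ^ 2 < ρ ^ 2)
    have hi2 : (1 / 2 : ℝ) * (∫ u in (‖p.1 - z‖ ^ 2)..(ρ ^ 2),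
          (Set.Ioo (σ ^ 2) (ρ ^ 2)).indicator (cc m (σ ^ 2)) u) = (m : ℝ)⁻¹ *
          (if ‖p.1 - z‖ ^ 2 < ρ ^ 2 then ((√(max (‖p.1 - z‖ ^ 2) (σ ^ 2))) ^ m)⁻¹
            - ((√(ρ ^ 2)) ^ m)⁻¹ else 0) := by
      rw [← hi]
      field_simp
    rw [hi2]
    have e1 : h p.1 * (Prod.fst ⁻¹' (Metric.ball z ρ \ Metric.closedBall z σ)).indicator
        (perpQ m z) p = A p := by
      simp only [hA, Set.indicator]
      split_ifs <;> simp
    have e2 : h p.1 * ((σ ^ m)⁻¹ *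
        (Prod.fst ⁻¹' (Metric.closedBall z σ)).indicator (fun _ => (1:ℝ)) p)
        = (σ ^ m)⁻¹ * B p := by
      simp only [hB, Set.indicator]
      split_ifs <;> ring
    have e3 : h p.1 * ((ρ ^ m)⁻¹ *
        (Prod.fst ⁻¹' (Metric.ball z ρ)).indicator (fun _ => (1:ℝ)) p)
        = (ρ ^ m)⁻¹ * D p := by
      simp only [hD, Set.indicator]
      split_ifs <;> ring
    have e4 : (m : ℝ)⁻¹ *
          (if ‖p.1 - z‖ ^ 2 < ρ ^ 2 then ((√(max (‖p.1 - z‖ ^ 2) (σ ^ 2))) ^ m)⁻¹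
            - ((√(ρ ^ 2)) ^ m)⁻¹ else 0) * fderiv ℝ h p.1 (p.2 (p.1 - z))
        = (m : ℝ)⁻¹ * E p := by
      rw [mul_assoc]
      congr 1
      simp only [hE, Set.indicator]
      have hiff : ‖p.1 - z‖ ^ 2 < ρ ^ 2 ↔ p ∈ Prod.fst ⁻¹' (Metric.ball z ρ) := by
        rw [Set.mem_preimage, mem_ball_iff_norm]
        exact pow_lt_pow_iff_left₀ (norm_nonneg _) hρ.le two_ne_zero
      have hmx : √(max (‖p.1 - z‖ ^ 2) (σ ^ 2)) = max ‖p.1 - z‖ σ := by
        rcases le_total ‖p.1 - z‖ σ with h | h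
        · rw [max_eq_right h, max_eq_right (by gcongr), Real.sqrt_sq hσ.le]
        · rw [max_eq_left h, max_eq_left (by gcongr), Real.sqrt_sq (norm_nonneg _)]
      rw [hmx, Real.sqrt_sq hρ.le]
      by_cases hc : ‖p.1 - z‖ ^ 2 < ρ ^ 2
      · rw [if_pos hc, if_pos (hiff.1 hc)]
      · rw [if_neg hc, if_neg (fun h => hc (hiff.2 h)), zero_mul]
    rw [mul_sub, mul_add, e1, e2, e3, e4]
  have j1 : Integrable (fun p => (σ ^ m)⁻¹ * B p) V := iB.const_mul _
  have j2 : Integrable (fun p => (ρ ^ m)⁻¹ * D p) V := iD.const_mul _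
  have j3 : Integrable (fun p => (m : ℝ)⁻¹ * E p) V := iE.const_mul _
  have j4 : Integrable (fun p => A p + (σ ^ m)⁻¹ * B p) V := iA.add j1
  have j5 : Integrable (fun p => A p + (σ ^ m)⁻¹ * B p - (ρ ^ m)⁻¹ * D p) V := j4.sub j2
  rw [integral_congr_ae hid, integral_add j5 j3, integral_sub j4 j2,
    integral_add iA j1, integral_const_mul, integral_const_mul, integral_const_mul] at key
  rw [← integral_indicator (measurable_fst measurableSet_ball),
    ← integral_indicator (measurable_fst measurableSet_closedBall),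
    ← integral_indicator (measurable_fst (measurableSet_ball.diff measurableSet_closedBall)),
    ← integral_indicator (measurable_fst measurableSet_ball)]
  linarith

end Crest.Agent.R234.Vf_884
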