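import Crest.Agent.R234.Strat4_842
import Crest.Agent.R234.Vf5_884

/-!
Row 234, VF-STRAT2 (helper842), part 3: for a stationary varifold the scaled defects tend to `0`,
hence the stratum of non-flat points has dimension `≤ m - 1`.
-/

set_option autoImplicit false

open Set Filter Topology MeasureTheory Metric Module Function
open Crest.GeometryTopology.Submanifold
open Crest.Agent.R234.Vf_884
open scoped ENNReal NNReal InnerProductSpace

noncomputable section

namespace Crest.Agent.R234.Strat3_842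

variable {m k : ℕ} {V : Measure (Euc k × L k)} {U : Set (Euc k)}

/-- the monotonicity identity (`h = 1`). -/
theorem ratio_identity (hV : Stat m k U V) (hm : 1 ≤ m) {z : Euc k} {σ ρ : ℝ} (hσ : 0 < σ)
    (hσρ : σ < ρ) (hU : closedBall z ρ ⊆ U) :
    (ρ ^ m)⁻¹ * V.real (Prod.fst ⁻¹' ball z ρ) - (σ ^ m)⁻¹ * V.real (Prod.fst ⁻¹' closedBall z σ) =
      ∫ p in Prod.fst ⁻¹' (ball z ρ \ closedBall z σ), perpQ m z p ∂V := by
  have h := mono_identity_weighted hV hm (h := fun _ => (1 : ℝ)) contDiff_const hσ hσρ hU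
  simpa using h

/-- ratio in closed balls. -/
def Nc (m : ℕ) (V : Measure (Euc k × L k)) (z : Euc k) (r : ℝ) : ℝ :=
  (r ^ m)⁻¹ * V.real (Prod.fst ⁻¹' closedBall z r)

theorem Nc_nonneg (z : Euc k) {r : ℝ} (hr : 0 < r) : 0 ≤ Nc m V z r := by
  unfold Nc; positivity

/-- defect in a ball by the ratios. -/
theorem dInt_le (hV : Stat m k U V) (hm : 1 ≤ m) {z : Euc k} {σ r : ℝ} (hσ : 0 < σ)
    (hσr : σ < r) (hU : closedBall z r ⊆ U) :
    dInt V z r ≤ r ^ (m + 2) * (Nc m V z r - Nc m V z σ) + σ ^ (m + 2) * Nc m V z σ := by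
  have hr : 0 < r := hσ.trans hσr
  have hfin : V (Prod.fst ⁻¹' closedBall z r) < ⊤ := by
    rw [← prod_univ_eq]
    exact hV.fin _ (isCompact_closedBall _ _) hU
  have hfinb : V (ball z r ×ˢ univ) < ⊤ := by
    refine (measure_mono ?_).trans_lt hfin
    rw [prod_univ_eq]
    exact preimage_mono ball_subset_closedBall
  have hid := ratio_identity hV hm hσ hσr hU
  have hint := integrableOn_of_bdd hV.conc hfinb (continuous_defect z)
  have hsplit : ball z r ×ˢ (univ : Set (L k)) =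
      Prod.fst ⁻¹' (ball z r \ closedBall z σ) ∪ Prod.fst ⁻¹' closedBall z σ := by
    rw [prod_univ_eq, ← preimage_union, sdiff_union_of_subset]
    exact closedBall_subset_ball hσr
  have hsub1 : (Prod.fst : Euc k × L k → Euc k) ⁻¹' (ball z r \ closedBall z σ) ⊆
      ball z r ×ˢ univ := by rw [hsplit]; exact subset_union_left
  have hsub2 : (Prod.fst : Euc k × L k → Euc k) ⁻¹' closedBall z σ ⊆
      ball z r ×ˢ univ := by rw [hsplit]; exact subset_union_right
  have hm1 : MeasurableSet ((Prod.fst : Euc k × L k → Euc k) ⁻¹' (ball z r \ closedBall z σ)) :=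
    measurable_fst (measurableSet_ball.diff measurableSet_closedBall)
  have hm2 : MeasurableSet ((Prod.fst : Euc k × L k → Euc k) ⁻¹' closedBall z σ) :=
    measurable_fst measurableSet_closedBall
  have h1 : dInt V z r = (∫ p in Prod.fst ⁻¹' (ball z r \ closedBall z σ), defect z p ∂V) +
      ∫ p in Prod.fst ⁻¹' closedBall z σ, defect z p ∂V := by
    unfold dInt
    rw [hsplit, setIntegral_union ?_ hm2 (hint.mono_set hsub1) (hint.mono_set hsub2)]
    refine Disjoint.preimage _ ?_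
    exact disjoint_sdiff_left
  have hperp : IntegrableOn (perpQ m z) (Prod.fst ⁻¹' (ball z r \ closedBall z σ)) V := by
    rw [← integrable_indicator_iff hm1]
    refine integrable_ball_ind hV hU (measurable_perpQ m z)
      (measurableSet_ball.diff measurableSet_closedBall)
      (Set.sdiff_subset.trans ball_subset_closedBall) (C := (σ ^ m)⁻¹) ?_
    intro p hp hp2
    rw [abs_of_nonneg (perpQ_nonneg m z p)]
    refine perpQ_le m hp2 hσ ?_
    have := hp.2
    rw [mem_closedBall, dist_eq_norm, not_le] at this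
    exact this.le
  have h2 : ∫ p in Prod.fst ⁻¹' (ball z r \ closedBall z σ), defect z p ∂V ≤
      r ^ (m + 2) * ∫ p in Prod.fst ⁻¹' (ball z r \ closedBall z σ), perpQ m z p ∂V := by
    rw [← integral_const_mul]
    refine setIntegral_mono_on (hint.mono_set hsub1) (hperp.const_mul _) hm1 fun p hp => ?_
    have hp1 := hp.1
    have hp2 := hp.2
    rw [mem_ball, dist_eq_norm] at hp1
    rw [mem_closedBall, dist_eq_norm, not_le] at hp2
    have h3 : 0 < ‖p.1 - z‖ := hσ.trans hp2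
    unfold defect perpQ
    rw [← mul_div_assoc, le_div_iff₀ (by positivity), mul_comm (r ^ (m + 2))]
    gcongr
  have h3 : ∫ p in Prod.fst ⁻¹' closedBall z σ, defect z p ∂V ≤
      σ ^ 2 * V.real (Prod.fst ⁻¹' closedBall z σ) := by
    have h4 : V (Prod.fst ⁻¹' closedBall z σ) ≠ ⊤ :=
      ((measure_mono (preimage_mono (closedBall_subset_closedBall hσr.le))).trans_lt hfin).ne
    calc ∫ p in Prod.fst ⁻¹' closedBall z σ, defect z p ∂V
        ≤ ∫ p in Prod.fst ⁻¹' closedBall z σ, σ ^ 2 ∂V := by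
          refine setIntegral_mono_ae_restrict (hint.mono_set hsub2)
            (integrableOn_const h4) ?_
          filter_upwards [ae_restrict_mem hm2, ae_restrict_of_ae hV.conc] with p hp hp2
          refine (defect_le hp2).trans ?_
          have : ‖p.1 - z‖ ≤ σ := by rw [← dist_eq_norm]; exact hp
          gcongr
      _ = _ := by rw [setIntegral_const, smul_eq_mul, mul_comm]
  have h4 : (r ^ m)⁻¹ * V.real (Prod.fst ⁻¹' ball z r) ≤ Nc m V z r := by
    unfold Nc
    refine mul_le_mul_of_nonneg_left ?_ (by positivity)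
    exact measureReal_mono (preimage_mono ball_subset_closedBall) hfin.ne
  have h5 : σ ^ 2 * V.real (Prod.fst ⁻¹' closedBall z σ) = σ ^ (m + 2) * Nc m V z σ := by
    unfold Nc
    rw [pow_add]
    field_simp
  have h6 : (∫ p in Prod.fst ⁻¹' (ball z r \ closedBall z σ), perpQ m z p ∂V) ≤
      Nc m V z r - Nc m V z σ := by
    rw [← hid]
    unfold Nc at h4 ⊢
    linarith
  rw [h1]
  have h7 := mul_le_mul_of_nonneg_left h6 (by positivity : 0 ≤ r ^ (m + 2))
  linarith

theorem Nc_mono (hV : Stat m k U V) (hm : 1 ≤ m) {z : Euc k} {σ r : ℝ} (hσ : 0 < σ)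
    (hσr : σ ≤ r) (hU : closedBall z r ⊆ U) : Nc m V z σ ≤ Nc m V z r := by
  rcases eq_or_lt_of_le hσr with h | h
  · rw [h]
  · have hid := ratio_identity hV hm hσ h hU
    have hfin : V (Prod.fst ⁻¹' closedBall z r) < ⊤ := by
      rw [← prod_univ_eq]
      exact hV.fin _ (isCompact_closedBall _ _) hU
    have hr : 0 < r := hσ.trans h
    have h4 : (r ^ m)⁻¹ * V.real (Prod.fst ⁻¹' ball z r) ≤ Nc m V z r := by
      unfold Nc
      refine mul_le_mul_of_nonneg_left ?_ (by positivity)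
      exact measureReal_mono (preimage_mono ball_subset_closedBall) hfin.ne
    have h5 : 0 ≤ ∫ p in Prod.fst ⁻¹' (ball z r \ closedBall z σ), perpQ m z p ∂V :=
      integral_nonneg fun p => perpQ_nonneg m z p
    unfold Nc at h4 ⊢
    linarith

/-- **the scaled defects tend to `0` at every point of `U`.** -/
theorem dInt_small (hU : IsOpen U) (hV : Stat m k U V) (hm : 1 ≤ m) {x : Euc k} (hx : x ∈ U)
    {η : ℝ} (hη : 0 < η) :
    ∃ r₀ : ℝ, 0 < r₀ ∧ ∀ r : ℝ, 0 < r → r ≤ r₀ → dInt V x r ≤ η * r ^ (m + 2) := by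
  obtain ⟨R, hR, hRU⟩ := Metric.isOpen_iff.1 hU x hx
  have hRU' : closedBall x (R / 2) ⊆ U := (closedBall_subset_ball (by linarith)).trans hRU
  set Θ : ℝ := sInf (Nc m V x '' Ioc 0 (R / 2)) with hΘ
  have hbdd : BddBelow (Nc m V x '' Ioc 0 (R / 2)) := by
    refine ⟨0, ?_⟩
    rintro _ ⟨r, hr, rfl⟩
    exact Nc_nonneg x hr.1
  have hne : (Nc m V x '' Ioc 0 (R / 2)).Nonempty := ⟨_, R / 2, ⟨by positivity, le_rfl⟩, rfl⟩
  obtain ⟨_, ⟨r₀, hr₀, rfl⟩, hlt⟩ := exists_lt_of_csInf_lt hne (lt_add_of_pos_right Θ (half_pos hη))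
  refine ⟨r₀, hr₀.1, fun r hr hrr₀ => ?_⟩
  have hrR : r ≤ R / 2 := hrr₀.trans hr₀.2
  have hru : closedBall x r ⊆ U := (closedBall_subset_closedBall hrR).trans hRU'
  set M : ℝ := Nc m V x r₀ with hM
  have hM0 : 0 ≤ M := Nc_nonneg x hr₀.1
  set t : ℝ := min (1 / 2) (η / (2 * (M + 1))) with ht
  have ht0 : 0 < t := by positivity
  have ht1 : t ≤ 1 / 2 := min_le_left _ _
  have ht2 : t * M ≤ η / 2 := by
    have h1 : t ≤ η / (2 * (M + 1)) := min_le_right _ _
    rw [le_div_iff₀ (by positivity)] at h1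
    nlinarith
  have hσ : 0 < t * r := by positivity
  have hσr : t * r < r := by nlinarith
  have h1 := dInt_le hV hm hσ hσr hru
  have h2 : Nc m V x r ≤ M := Nc_mono hV hm hr hrr₀ ((closedBall_subset_closedBall hr₀.2).trans hRU')
  have h3 : Θ ≤ Nc m V x (t * r) := csInf_le hbdd ⟨_, ⟨hσ, hσr.le.trans hrR⟩, rfl⟩
  have h4 : Nc m V x (t * r) ≤ M := (Nc_mono hV hm hσ hσr.le hru).trans h2
  have h5 : (t * r) ^ (m + 2) * Nc m V x (t * r) ≤ r ^ (m + 2) * (η / 2) := by
    calc (t * r) ^ (m + 2) * Nc m V x (t * r) ≤ (t * r) ^ (m + 2) * M := by gcongr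
      _ = r ^ (m + 2) * (t ^ (m + 2) * M) := by rw [mul_pow]; ring
      _ ≤ r ^ (m + 2) * (t * M) := by
        gcongr
        exact pow_le_of_le_one ht0.le (by linarith) (by omega)
      _ ≤ _ := by gcongr
  have h6 : r ^ (m + 2) * (Nc m V x r - Nc m V x (t * r)) ≤ r ^ (m + 2) * (η / 2) := by
    gcongr
    linarith
  calc dInt V x r ≤ _ := h1
    _ ≤ r ^ (m + 2) * (η / 2) + r ^ (m + 2) * (η / 2) := add_le_add h6 h5
    _ = _ := by ring

/-- **VF-STRAT2: the stratum of non-flat points of a stationary `m`-varifold has dimension at most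
`m - 1`.** -/
theorem dimH_NF_stat (hm : 1 ≤ m) (hU : IsOpen U) (hV : Stat m k U V) :
    dimH (NF m V ∩ U) ≤ ((m - 1 : ℕ) : ℝ≥0∞) :=
  dimH_NF hm hU hV fun _ hx _ hη => dInt_small hU hV hm hx hη

/-- flat scales on every piece of a decomposition of a set of dimension `> m - 1`. -/
theorem exists_flat_stat (hm : 1 ≤ m) (hU : IsOpen U) (hV : Stat m k U V) {A : Set (Euc k)}
    (hAU : A ⊆ U) (hA : ((m - 1 : ℕ) : ℝ≥0∞) < dimH A) {ε : ℝ} (hε : 0 < ε)
    (T : ℕ → Set (Euc k)) (hT : A ⊆ ⋃ n, T n) :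
    ∃ n, ∀ r₁ : ℝ, 0 < r₁ → ∃ x ∈ A ∩ T n, ∃ r : ℝ, 0 < r ∧ r ≤ r₁ ∧ Flat m V x r ε := by
  refine exists_flat hm hV.conc A hA (fun x hx => ?_)
    (fun x hx η hη => dInt_small hU hV hm (hAU hx) hη) hε T hT
  obtain ⟨r, hr, hrU⟩ := Metric.isOpen_iff.1 hU x (hAU hx)
  refine ⟨r / 2, by positivity, ?_⟩
  have h1 : closedBall x (r / 2) ⊆ U := (closedBall_subset_ball (by linarith)).trans hrU
  exact (measure_mono (Set.prod_mono ball_subset_closedBall Subset.rfl)).trans_lt
    (hV.fin _ (isCompact_closedBall _ _) h1)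

end Crest.Agent.R234.Strat3_842
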