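import Crest.Agent.R234.In5_947
import Crest.Agent.R234.Strat5_842

/-!
Row 234, VF-INT (helper947), file 6: **the density of a stationary integral varifold is an integer
at every point with arbitrarily flat scales.**
-/

set_option autoImplicit false

open MeasureTheory Crest.GeometryTopology.Submanifold Filter Topology
open scoped ENNReal InnerProductSpace

noncomputable section

namespace Crest.Agent.R234.In_947

open Crest.Agent.R234.Vf_884

variable {m k : ℕ} {U : Set (Euc k)} {D : VarifoldData m k}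

/-- small scales around a point of finite density. -/
theorem exists_scale_Th {V : Measure (Euc k × L k)} (hV : Stat m k U V) (hm : 1 ≤ m) (hU : IsOpen U)
    {x₀ : Euc k} (hx : x₀ ∈ U) {Θ g : ℝ} (hΘ : Th m V x₀ = ENNReal.ofReal Θ) (hΘ0 : 0 ≤ Θ)
    (hg : 0 < g) : ∃ r₁ : ℝ, 0 < r₁ ∧ Metric.closedBall x₀ r₁ ⊆ U ∧
      ∀ t, 0 < t → t < r₁ → ms V (Metric.closedBall x₀ t) ≤ (Θ + g) * (ome m * t ^ m) := by
  obtain ⟨R, hR, hRU⟩ := exists_closedBall hU hx
  have h1 := tendsto_rat hV hm hR (Metric.ball_subset_closedBall.trans hRU)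
  have h2 : Th m V x₀ < ENNReal.ofReal (Θ + g) := by
    rw [hΘ]
    exact (ENNReal.ofReal_lt_ofReal_iff (by positivity)).2 (by linarith)
  obtain ⟨r₁, h3, h4⟩ := ((h1.eventually_lt_const h2).and (Ioo_mem_nhdsGT hR)).exists
  have hcU : Metric.closedBall x₀ r₁ ⊆ U :=
    (Metric.closedBall_subset_closedBall h4.2.le).trans hRU
  refine ⟨r₁, h4.1, hcU, fun t ht htr => ?_⟩
  have h5 := (rat_closed_le hV hm ht htr (Metric.ball_subset_closedBall.trans hcU)).trans h3.le
  rw [ENNReal.div_le_iff (by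
    rw [ne_eq, ENNReal.ofReal_eq_zero, not_le]; exact den_pos m ht) ENNReal.ofReal_ne_top,
    ← ENNReal.ofReal_mul (by positivity)] at h5
  rw [ms_eq V Metric.isClosed_closedBall.measurableSet]
  have hd := den_pos m ht
  exact ENNReal.toReal_le_of_le_ofReal (by positivity) h5

theorem mass_split {P : L k} (hP : P ∈ G m k) {π : Euc k →L[ℝ] Euc m} (hπ : Ar_870.IsCo π)
    (hπP : ContinuousLinearMap.adjoint π ∘L π = P) (hD : IsIntegralVarifoldIn U D)
    (S : Ar_870.Sheets D π) {W B : Set (Euc k)} (hW : MeasurableSet W) (hB : MeasurableSet B)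
    (hWB : W ⊆ B) : VD D (W ×ˢ Set.univ) ≤ (∫⁻ x, S.N W x) + tm P (VD D) B := by
  have hWm : MeasurableSet (W ×ˢ (Set.univ : Set (L k))) := hW.prod MeasurableSet.univ
  have h1 := S.area_W hW (g := fun _ => 1) measurable_const
  simp only [mul_one] at h1
  rw [← h1, tm_apply P _ hB]
  have h2 : ∫⁻ p in W ×ˢ Set.univ, ENNReal.ofReal (tilt P p.2) ∂(VD D) ≤
      ∫⁻ p in B ×ˢ Set.univ, ENNReal.ofReal (tilt P p.2) ∂(VD D) :=
    lintegral_mono_set (Set.prod_mono hWB subset_rfl)
  refine le_trans ?_ (add_le_add_right h2 _)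
  rw [← lintegral_add_left]
  · rw [← setLIntegral_one]
    refine lintegral_mono_ae ?_
    filter_upwards [ae_restrict_of_ae (VD_conc hD)] with p hp
    rw [← ENNReal.ofReal_add (Ar_870.Jh_nonneg _ _) (tilt_nonneg hP hp), ENNReal.one_le_ofReal,
      tilt_eq_tl hπP hp]
    have := Ar_870.one_sub_Jh_le hπ (Ar_870.isPr_of_G hp)
    linarith
  · exact ((Ar_870.continuous_Jh π).measurable.comp measurable_snd).ennreal_ofReal

theorem lintegral_N_bound {P : L k} (hP : P ∈ G m k) {π : Euc k →L[ℝ] Euc m}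
    (hπP : ContinuousLinearMap.adjoint π ∘L π = P)
    (S : Ar_870.Sheets D π) {W : Set (Euc k)} {x₀ : Euc k} {ρ : ℝ} (hρ : 0 < ρ)
    (hWB : W ⊆ Metric.ball x₀ ρ) {n : ℕ} (hN : ∀ᵐ x, S.N W x ≤ n) :
    ∫⁻ x, S.N W x ≤ ENNReal.ofReal (n * (ome m * ρ ^ m)) := by
  have h1 : ∀ᵐ x, S.N W x ≤ (Metric.ball (π x₀) ρ).indicator (fun _ => (n : ℝ≥0∞)) x := by
    filter_upwards [hN] with x hx
    by_cases hxb : x ∈ Metric.ball (π x₀) ρ
    · rwa [Set.indicator_of_mem hxb]
    · rw [Set.indicator_of_notMem hxb]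
      refine le_of_eq ?_
      unfold Ar_870.Sheets.N
      rw [ENNReal.tsum_eq_zero]
      intro j
      refine Set.indicator_of_notMem (fun hj => hxb ?_) _
      have h2 := hWB hj.2
      rw [Metric.mem_ball, dist_eq_norm] at h2 ⊢
      have h3 : π (S.s j x) = x := S.sec j x hj.1
      calc ‖x - π x₀‖ = ‖π (S.s j x - x₀)‖ := by rw [map_sub, h3]
        _ ≤ ‖S.s j x - x₀‖ := co_norm_le hP hπP _
        _ < ρ := h2
  refine (lintegral_mono_ae h1).trans ?_
  have h2 : ENNReal.ofReal (n * (ome m * ρ ^ m)) = n * ENNReal.ofReal (ome m * ρ ^ m) := by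
    rw [ENNReal.ofReal_mul (Nat.cast_nonneg n), ENNReal.ofReal_natCast]
  rw [h2, lintegral_indicator measurableSet_ball, setLIntegral_const, volume_ball_eq m _ hρ]

/-- the quantitative core: if the density at `x₀` is at distance `≥ g` from the integers, small
scales cannot be flat. -/
theorem not_flat (hD : IsIntegralVarifoldIn U D) (hst : IsStationaryIn U D) (hm : 1 ≤ m)
    (hU : IsOpen U) {x₀ : Euc k} (hx : x₀ ∈ U) {Θ g : ℝ} {n : ℕ}
    (hΘ : Th m (VD D) x₀ = ENNReal.ofReal Θ) (hg : 0 < g) (h1 : n + g ≤ Θ) (h2 : Θ + g ≤ n + 1) :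
    ∃ ε : ℝ, 0 < ε ∧ ∃ r₀ : ℝ, 0 < r₀ ∧ Metric.closedBall x₀ r₀ ⊆ U ∧
      ∀ r, 0 < r → r < r₀ → ∀ P ∈ G m k,
      ε * r ^ m < tl P (VD D) (Metric.ball x₀ r) := by
  have hV : Stat m k U (VD D) := stat_VD hD hst
  set V := VD D with hVdef
  have ho := ome_pos m
  set o := ome m with hodef
  have hn0 : (0 : ℝ) ≤ n := Nat.cast_nonneg n
  have hΘ0 : 0 ≤ Θ := by linarith
  obtain ⟨r₁, hr₁, hr₁U, hup⟩ := exists_scale_Th hV hm hU hx hΘ hΘ0 (show 0 < g / 8 by positivity)
  obtain ⟨δ, hδ, hδ1, hδ2, hδM⟩ := exists_delta m (Θ + g / 8) (show 0 < g / 8 by positivity)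
  set M : ℝ := o * (Θ + g / 4) with hM
  have hM0 : 0 ≤ M := by positivity
  obtain ⟨η, hη, K, hK, hsheet⟩ := sheet_lemma m k (n + 1) M (o * (g / 8)) hM0 (by positivity)
  set K' : ℝ := max K (1 / δ) with hK'
  have hK'1 : 1 ≤ K' := hK.trans (le_max_left _ _)
  have hK'δ : 1 / δ ≤ K' := le_max_right _ _
  have hK'0 : 0 < K' := by linarith
  set C₁ : ℝ := 5 ^ m * (((r₁ / 2) ^ m)⁻¹ * ms V (Metric.closedBall x₀ r₁)) with hC₁
  have hC₁0 : 0 ≤ C₁ := mul_nonneg (by positivity) (mul_nonneg (by positivity) (ms_nonneg _ _))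
  set ε : ℝ := o * g / (2 * ((8 * K') ^ m * (1 + C₁ / η))) with hε
  have hε0 : 0 < ε := by positivity
  refine ⟨ε, hε0, r₁ / 4, by positivity,
    (Metric.closedBall_subset_closedBall (by linarith)).trans hr₁U, ?_⟩
  intro r hr hrr P hP
  by_contra hcon
  rw [not_lt] at hcon
  set R : ℝ := r / 4 with hR
  set ρ : ℝ := r / (8 * K') with hρ
  have hR0 : 0 < R := by positivity
  have hρ0 : 0 < ρ := by positivity
  have hρK : 2 * K' * ρ = R := by rw [hρ, hR]; field_simp; norm_num
  have hρR : 2 * ρ ≤ R := by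
    rw [← hρK]
    nlinarith
  have hρδ : ρ ≤ δ * R := by
    rw [← hρK]
    have : 1 ≤ δ * K' := by
      rw [div_le_iff₀ hδ] at hK'δ
      linarith
    nlinarith
  have hfin : ∀ A ⊆ Metric.closedBall x₀ r₁, V (A ×ˢ Set.univ) < ⊤ := fun A hA =>
    (measure_mono (Set.prod_mono hA subset_rfl)).trans_lt
      (hV.fin _ (isCompact_closedBall x₀ r₁) hr₁U)
  have hcb : ∀ z ∈ Metric.ball x₀ ρ, Metric.closedBall z (r₁ / 2) ⊆ Metric.closedBall x₀ r₁ := by
    intro z hz
    rw [Metric.mem_ball] at hz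
    exact Metric.closedBall_subset_closedBall' (by linarith)
  -- the bad set
  obtain ⟨T, hTm, hT, hTV⟩ := bad_cover hV hP (x₀ := x₀) (r := r) (ρ := ρ) (R := R) (η := η)
    (C₁ := C₁) hη hC₁0 (by linarith)
    ((Metric.closedBall_subset_closedBall (by linarith)).trans hr₁U) (by
      intro z hz s hs hsR
      have h5 : 5 * s ≤ r₁ / 2 := by linarith
      have h3 := ratio_mono hV hm (by positivity : 0 < 5 * s) h5 ((hcb z hz).trans hr₁U)
      have h4 : ms V (Metric.closedBall z (r₁ / 2)) ≤ ms V (Metric.closedBall x₀ r₁) :=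
        ms_mono (hcb z hz) (hfin _ subset_rfl)
      have h6 : ms V (Metric.closedBall z (5 * s)) ≤ C₁ * s ^ m := by
        rw [inv_mul_le_iff₀ (by positivity)] at h3
        refine h3.trans ?_
        calc (5 * s) ^ m * (((r₁ / 2) ^ m)⁻¹ * ms V (Metric.closedBall z (r₁ / 2)))
            ≤ (5 * s) ^ m * (((r₁ / 2) ^ m)⁻¹ * ms V (Metric.closedBall x₀ r₁)) := by gcongr
          _ = C₁ * s ^ m := by rw [hC₁, mul_pow]; ring
      rw [← ENNReal.ofReal_toReal (hfin _ ((Metric.closedBall_subset_closedBall h5).trans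
        (hcb z hz))).ne]
      exact ENNReal.ofReal_le_ofReal h6)
  obtain ⟨π, hπ, hπP⟩ := exists_co hP
  obtain ⟨S⟩ := Ar_870.exists_sheets_VD hD π
  set W : Set (Euc k) := Metric.ball x₀ ρ \ T with hW
  have hWm : MeasurableSet W := measurableSet_ball.diff hTm
  -- the covering number
  have hN : ∀ᵐ x, S.N W x ≤ n := by
    filter_upwards [ae_sheet_Th hD hst hm hU S] with x hTh
    refine N_le hπP S hTh ?_
    intro F hFc hFW q hq
    rcases F.eq_empty_or_nonempty with rfl | ⟨x₁, hx₁⟩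
    · simp
    have hmemB : ∀ z ∈ F, z ∈ Metric.ball x₀ ρ := fun z hz => (hFW z hz).1.1
    have hupz : ∀ z ∈ F, (R ^ m)⁻¹ * ms V (Metric.closedBall z R) ≤ M := by
      intro z hz
      have hz' := hmemB z hz
      rw [Metric.mem_ball] at hz'
      have h3 : ms V (Metric.closedBall z R) ≤ ms V (Metric.closedBall x₀ ((1 + δ) * R)) := by
        refine ms_mono (Metric.closedBall_subset_closedBall' ?_) (hfin _
          (Metric.closedBall_subset_closedBall ?_))
        · nlinarith
        · nlinarith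
      have h4 := hup ((1 + δ) * R) (by positivity) (by nlinarith)
      rw [inv_mul_le_iff₀ (by positivity)]
      refine h3.trans (h4.trans ?_)
      have h5 : (1 : ℝ) ≤ (1 + δ) ^ m := one_le_pow₀ (by linarith)
      have h6 : (Θ + g / 8) * (1 + δ) ^ m ≤ Θ + g / 4 := by
        have : (Θ + g / 8) * (1 + δ) ^ m ≤ (Θ + g / 8) * ((1 + δ) ^ m * (1 + δ) ^ m) := by
          gcongr
          nlinarith
        linarith
      calc (Θ + g / 8) * (o * ((1 + δ) * R) ^ m)
          = R ^ m * (o * ((Θ + g / 8) * (1 + δ) ^ m)) := by rw [mul_pow]; ring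
        _ ≤ R ^ m * M := by rw [hM]; gcongr
    have h3 := hsheet hV hP hR0 F hFc ?_ ?_ (fun z => o * q z) ?_ x₁ hx₁
    · have h4 := hupz x₁ hx₁
      rw [← Finset.mul_sum] at h3
      have h5 : o * ∑ z ∈ F, (q z : ℝ) < o * (n + 1) := by
        refine lt_of_le_of_lt (h3.trans (add_le_add_left h4 _)) ?_
        rw [hM]
        nlinarith
      have h6 : (∑ z ∈ F, (q z : ℝ)) < n + 1 := lt_of_mul_lt_mul_left h5 ho.le
      have h7 : (∑ z ∈ F, q z) < n + 1 := by exact_mod_cast h6
      omega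
    · intro z hz w hw
      have : π z = π w := (hFW z hz).2.trans (hFW w hw).2.symm
      rw [← hπP, ContinuousLinearMap.comp_apply, map_sub, this, sub_self, map_zero]
    · intro z hz w hw
      have h4 := hmemB z hz
      have h5 := hmemB w hw
      rw [Metric.mem_ball] at h4 h5
      have h6 := dist_triangle_right z w x₀
      calc K * dist z w ≤ K' * (2 * ρ) := by
            gcongr
            · exact le_max_left _ _
            · linarith
        _ = R := by rw [← hρK]; ring
    · intro z hz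
      have hz' := hmemB z hz
      have hzU : Metric.closedBall z R ⊆ U :=
        ((Metric.closedBall_subset_closedBall (by linarith)).trans (hcb z hz')).trans hr₁U
      exact
        { ball := hzU
          tilt := hT z hz' (hFW z hz).1.2
          mono := fun a b ha hab hb => ratio_mono hV hm ha hab
            ((Metric.closedBall_subset_closedBall hb).trans hzU)
          up := hupz z hz
          low := fun a ha haR => low_ratio hV hm ha
            ((Metric.closedBall_subset_closedBall haR).trans hzU) (hq z hz).ge }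
  -- the chain of inequalities
  have hA1 : ENNReal.ofReal (Θ * (o * ρ ^ m)) ≤ V (Metric.ball x₀ ρ ×ˢ Set.univ) := by
    have h3 := mul_le_mass hV hm hρ0 (z := x₀) (c := ENNReal.ofReal Θ)
      (Metric.ball_subset_closedBall.trans
        ((Metric.closedBall_subset_closedBall (by linarith)).trans hr₁U)) hΘ.ge
    rw [← ENNReal.ofReal_mul hΘ0, mass_apply V measurableSet_ball, ← prod_univ_eq] at h3
    exact h3
  have hA2 : V (Metric.ball x₀ ρ ×ˢ Set.univ) ≤ V (W ×ˢ Set.univ) + V (T ×ˢ Set.univ) := by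
    refine (measure_mono ?_).trans (measure_union_le _ _)
    rintro p ⟨hp, -⟩
    by_cases hpT : p.1 ∈ T
    · exact Or.inr ⟨hpT, trivial⟩
    · exact Or.inl ⟨⟨hp, hpT⟩, trivial⟩
  have hρr : ρ ≤ r := by linarith
  have hA3 := mass_split hP hπ hπP hD S hWm (B := Metric.ball x₀ r) measurableSet_ball
    (Set.sdiff_subset.trans (Metric.ball_subset_ball hρr))
  have hA4 := lintegral_N_bound hP hπP S hρ0 (W := W) (x₀ := x₀) Set.sdiff_subset hN
  have hA5 : tm P V (Metric.ball x₀ r) = ENNReal.ofReal (tl P V (Metric.ball x₀ r)) :=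
    tm_eq hV hP (isCompact_closedBall x₀ r)
      ((Metric.closedBall_subset_closedBall (by linarith)).trans hr₁U)
      Metric.ball_subset_closedBall measurableSet_ball
  set τ : ℝ := tl P V (Metric.ball x₀ r) with hτ
  have hτ0 : 0 ≤ τ := tl_nonneg hV.conc hP _
  have hfinal : ENNReal.ofReal (Θ * (o * ρ ^ m)) ≤
      ENNReal.ofReal (n * (o * ρ ^ m) + τ + C₁ / η * τ) := by
    rw [ENNReal.ofReal_add (by positivity) (by positivity), ENNReal.ofReal_add (by positivity) hτ0]
    refine hA1.trans (hA2.trans (add_le_add ?_ hTV))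
    refine hA3.trans ?_
    rw [← hA5]
    exact add_le_add_left hA4 _
  rw [ENNReal.ofReal_le_ofReal_iff (by positivity)] at hfinal
  have hrm : r ^ m = (8 * K') ^ m * ρ ^ m := by
    rw [← mul_pow, hρ]
    congr 1
    field_simp
  have h3 : τ + C₁ / η * τ ≤ o * g / 2 * ρ ^ m := by
    calc τ + C₁ / η * τ = (1 + C₁ / η) * τ := by ring
      _ ≤ (1 + C₁ / η) * (ε * r ^ m) := by gcongr
      _ = o * g / 2 * ρ ^ m := by
          rw [hrm, hε]
          field_simp
  have h4 : 0 < o * g / 2 * ρ ^ m := by positivity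
  have h5 : (n + g) * (o * ρ ^ m) ≤ Θ * (o * ρ ^ m) := by gcongr
  nlinarith

/-- **the density is an integer at every point with arbitrarily flat scales.** -/
theorem Th_integer (hD : IsIntegralVarifoldIn U D) (hst : IsStationaryIn U D) (hm : 1 ≤ m)
    (hU : IsOpen U) {x : Euc k} (hx : x ∈ U) (hn : x ∉ Strat3_842.NF m (VD D)) :
    ∃ Q : ℕ, Th m (VD D) x = Q := by
  have hV : Stat m k U (VD D) := stat_VD hD hst
  have hlt := Th_lt_top hV hm hU hx
  set Θ : ℝ := (Th m (VD D) x).toReal with hΘdef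
  have hΘ : Th m (VD D) x = ENNReal.ofReal Θ := (ENNReal.ofReal_toReal hlt.ne).symm
  have hΘ0 : 0 ≤ Θ := ENNReal.toReal_nonneg
  by_contra hcon
  set n : ℕ := ⌊Θ⌋₊ with hn0
  have h1 : (n : ℝ) < Θ := by
    refine lt_of_le_of_ne (Nat.floor_le hΘ0) fun h => hcon ⟨n, ?_⟩
    rw [hΘ, ← h, ENNReal.ofReal_natCast]
  have h2 : Θ < n + 1 := Nat.lt_floor_add_one Θ
  set g : ℝ := min (Θ - n) (n + 1 - Θ) with hg
  have hg0 : 0 < g := lt_min (by linarith) (by linarith)
  have hg1 : g ≤ Θ - n := min_le_left _ _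
  have hg2 : g ≤ n + 1 - Θ := min_le_right _ _
  obtain ⟨ε, hε, r₀, hr₀, hr₀U, h⟩ := not_flat hD hst hm hU hx hΘ hg0 (by linarith) (by linarith)
  refine hn ⟨ε, hε, r₀, hr₀, fun r hr hrr => ?_⟩
  rintro ⟨P, hP, hflat⟩
  have h3 := h r hr hrr P hP
  have hKU : Metric.closedBall x r ⊆ U :=
    (Metric.closedBall_subset_closedBall hrr.le).trans hr₀U
  have h4 : r ^ 2 * tl P (VD D) (Metric.ball x r) ≤
      ∫ p in Metric.ball x r ×ˢ Set.univ, (r ^ 2 * Strat3_842.tilt P p +
        Strat3_842.height P x p) ∂(VD D) := by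
    rw [tl, ← integral_const_mul]
    have hci := integrableOn_of_cont (F := fun p : Euc k × L k =>
        r ^ 2 * Strat3_842.tilt P p + Strat3_842.height P x p) hV.conc
      (isCompact_closedBall x r) (hV.fin _ (isCompact_closedBall x r) hKU) (by
        unfold Strat3_842.tilt Strat3_842.height
        have h5 : Continuous fun p : Euc k × L k =>
            tr ((ContinuousLinearMap.id ℝ (Euc k) - P) ∘L p.2) :=
          tr.continuous.comp (continuous_const.clm_comp continuous_snd)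
        fun_prop)
    refine integral_mono_ae ((integrableOn_tilt hV P (isCompact_closedBall x r) hKU
      Metric.ball_subset_closedBall).const_mul _)
      (hci.mono_set (Set.prod_mono Metric.ball_subset_closedBall subset_rfl))
      (Eventually.of_forall fun p => ?_)
    have h6 : Strat3_842.tilt P p = tilt P p.2 := tr_id_sub_comp P p.2
    have h7 : 0 ≤ Strat3_842.height P x p := sq_nonneg _
    simp only
    rw [h6]
    linarith
  have h5 : r ^ 2 * tl P (VD D) (Metric.ball x r) ≤ r ^ 2 * (ε * r ^ m) := by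
    refine (h4.trans hflat).trans (le_of_eq ?_)
    ring
  have h6 := le_of_mul_le_mul_left h5 (by positivity : (0 : ℝ) < r ^ 2)
  linarith

end Crest.Agent.R234.In_947
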