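import Crest.Agent.R234.F9c1_947
import Crest.Agent.R234.In6_947

/-!
Row 234, node F9C (helper947), file 2: **if the support near `x` lies in the zero set of a `C^{1,1}`
submersion with values in `ℝ^(k-m)`, then `x` is a regular point.**
-/

set_option autoImplicit false

open MeasureTheory Crest.GeometryTopology.Submanifold Filter Topology Metric Module
open scoped ENNReal NNReal InnerProductSpace

noncomputable section

namespace Crest.Agent.R234.F9c_947

open Crest.Agent.R234.Vf_884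

variable {m k : ℕ} {F : Type*} [NormedAddCommGroup F] [InnerProductSpace ℝ F]
  [FiniteDimensional ℝ F] {U : Set (Euc k)} {D : VarifoldData m k}

omit [FiniteDimensional ℝ F] in
/-- quadratic Taylor estimate. -/
theorem taylor {x : Euc k} {r C : ℝ} {h : Euc k → F} {h' : Euc k → Euc k →L[ℝ] F}
    (hh : ∀ q ∈ ball x r, HasFDerivAt h (h' q) q) (hC0 : 0 ≤ C)
    (hC : ∀ p ∈ ball x r, ∀ q ∈ ball x r, ‖h' p - h' q‖ ≤ C * ‖p - q‖) {p q : Euc k}
    (hp : p ∈ ball x r) (hq : q ∈ ball x r) : ‖h p - h q - h' q (p - q)‖ ≤ C * ‖p - q‖ ^ 2 := by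
  have hsub : segment ℝ q p ⊆ ball x r := (convex_ball x r).segment_subset hq hp
  have h1 := Convex.norm_image_sub_le_of_norm_hasFDerivWithin_le' (f := h) (f' := h')
    (φ := h' q) (C := C * ‖p - q‖) (s := segment ℝ q p) (x := q) (y := p)
    (fun z hz => (hh z (hsub hz)).hasFDerivWithinAt) (fun z hz => ?_) (convex_segment q p)
    (left_mem_segment ℝ q p) (right_mem_segment ℝ q p)
  · refine h1.trans (le_of_eq ?_)
    ring
  · refine (hC z (hsub hz) q hq).trans ?_
    gcongr
    have h2 : dist q z ≤ dist q p := by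
      have := dist_add_dist_of_mem_segment hz
      have := dist_nonneg (x := z) (y := p)
      linarith
    rw [dist_comm, dist_comm q p, dist_eq_norm, dist_eq_norm] at h2
    exact h2

/-- **quadratic defect** of the tangent planes along the support, near `x`. -/
structure Quad (U : Set (Euc k)) (D : VarifoldData m k) (x : Euc k) (r c : ℝ) : Prop where
  hr : 0 < r
  ball : ball x r ⊆ U
  c0 : 0 ≤ c
  defect : ∀ᵐ q ∂(VD D), q.1 ∈ Metric.ball x r → ∀ p ∈ support D, p ∈ Metric.ball x r →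
    ‖(q.1 - p) - q.2 (q.1 - p)‖ ≤ c * ‖q.1 - p‖ ^ 2

/-- the set-up. -/
structure Zero (U : Set (Euc k)) (D : VarifoldData m k) (x : Euc k) (r : ℝ) (h : Euc k → F)
    (h' : Euc k → Euc k →L[ℝ] F) (K C : ℝ) : Prop where
  hr : 0 < r
  ball : ball x r ⊆ U
  der : ∀ q ∈ Metric.ball x r, HasFDerivAt h (h' q) q
  K0 : 0 ≤ K
  C0 : 0 ≤ C
  lip : ∀ p ∈ Metric.ball x r, ∀ q ∈ Metric.ball x r, ‖h' p - h' q‖ ≤ K * ‖p - q‖
  zero : ∀ q ∈ support D, q ∈ Metric.ball x r → h q = 0
  coer : ∀ q ∈ Metric.ball x r, ∀ S ∈ G m k, h' q ∘L S = 0 → ∀ v, S v = 0 → ‖v‖ ≤ C * ‖h' q v‖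

/-- almost every point of `V` is in the support. -/
theorem ae_mem_support (hD : IsIntegralVarifoldIn U D) :
    ∀ᵐ p ∂(VD D), p.1 ∈ support D := by
  have h1 : mass (VD D) (support D)ᶜ = 0 := by
    rw [mass_VD hD]
    exact Ae1_3.weight_support_compl D
  rw [mass_apply _ (Al9_182.isClosed_support D).measurableSet.compl] at h1
  rw [ae_iff]
  exact h1

/-- **quadratic defect.** -/
theorem Zero.quad {x : Euc k} {r K C : ℝ} {h : Euc k → F} {h' : Euc k → Euc k →L[ℝ] F}
    (hZ : Zero U D x r h h' K C) (hD : IsIntegralVarifoldIn U D) (hm : 1 ≤ m) :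
    Quad U D x r (C * K) := by
  refine ⟨hZ.hr, hZ.ball, mul_nonneg hZ.C0 hZ.K0, ?_⟩
  have hc : ContinuousOn h' (Metric.ball x r) := by
    have : LipschitzOnWith ⟨K, hZ.K0⟩ h' (Metric.ball x r) :=
      LipschitzOnWith.of_dist_le_mul fun p hp q hq => by
        rw [dist_eq_norm, dist_eq_norm]
        exact hZ.lip p hp q hq
    exact this.continuousOn
  filter_upwards [ae_tangent hD hm hZ.der hc hZ.zero, VD_conc hD, ae_mem_support hD]
    with q hq hqG hqs hqb p hp hpb
  have h0 : h' q.1 ∘L q.2 = 0 := by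
    ext1 v
    exact hq hqb v
  have h4 := hZ.coer q.1 hqb q.2 hqG h0 ((q.1 - p) - q.2 (q.1 - p)) (by
    rw [map_sub, G_idem_apply hqG, sub_self])
  have h5 := taylor hZ.der hZ.K0 hZ.lip hpb hqb
  rw [hZ.zero p hp hpb, hZ.zero q.1 hqs hqb, sub_self, zero_sub, norm_neg] at h5
  have h6 : h' q.1 ((q.1 - p) - q.2 (q.1 - p)) = -h' q.1 (p - q.1) := by
    rw [map_sub, hq hqb, sub_zero, ← map_neg, neg_sub]
  rw [h6, norm_neg] at h4
  calc _ ≤ C * ‖h' q.1 (p - q.1)‖ := h4
    _ ≤ C * (K * ‖p - q.1‖ ^ 2) := mul_le_mul_of_nonneg_left h5 hZ.C0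
    _ = _ := by rw [norm_sub_rev p q.1]; ring

/-- open-ball ratio. -/
def No (m : ℕ) (V : Measure (Euc k × L k)) (z : Euc k) (r : ℝ) : ℝ :=
  (r ^ m)⁻¹ * (mass V).real (Metric.ball z r)

theorem No_eq (V : Measure (Euc k × L k)) (z : Euc k) {r : ℝ} (hr : 0 < r) :
    No m V z r = ome m * (rat m V z r).toReal := by
  have h1 := den_pos m hr
  have h2 := ome_pos m
  rw [No, rat, ENNReal.toReal_div, ENNReal.toReal_ofReal h1.le, measureReal_def]
  field_simp

theorem tendsto_No {V : Measure (Euc k × L k)} (hV : Stat m k U V) (hm : 1 ≤ m) (hU : IsOpen U)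
    {z : Euc k} (hz : z ∈ U) :
    Tendsto (No m V z) (𝓝[>] 0) (𝓝 (ome m * (Th m V z).toReal)) := by
  obtain ⟨R, hR, hRU⟩ := exists_closedBall hU hz
  have h1 := tendsto_rat hV hm hR (ball_subset_closedBall.trans hRU)
  have h2 := ((ENNReal.tendsto_toReal (Th_lt_top hV hm hU hz).ne).comp h1).const_mul (ome m)
  refine h2.congr' ?_
  filter_upwards [self_mem_nhdsWithin] with r hr
  exact (No_eq V z hr).symm

/-- decay of the ratio by one step. -/
theorem Quad.step {x : Euc k} {r c : ℝ} (hZ : Quad U D x r c) (hD : IsIntegralVarifoldIn U D)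
    (hst : IsStationaryIn U D) (hm : 1 ≤ m) {p : Euc k} (hp : p ∈ support D)
    {t M : ℝ} (ht : 0 < t) (hsub : Metric.closedBall p t ⊆ Metric.ball x r)
    (hM : No m (VD D) p t ≤ M) :
    No m (VD D) p t ≤ No m (VD D) p (3 / 4 * t) + c ^ 2 * 2 ^ (m + 2) * M * t ^ 2 := by
  have hV : Stat m k U (VD D) := stat_VD hD hst
  set V := VD D with hVdef
  have hcU : Metric.closedBall p t ⊆ U := hsub.trans hZ.ball
  have hid := mono_identity hV hm (z := p) (σ := t / 2) (ρ := t) (by positivity) (by linarith) hcU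
  have hfin : V (Metric.ball p t ×ˢ Set.univ) < ⊤ :=
    (measure_mono (Set.prod_mono ball_subset_closedBall subset_rfl)).trans_lt
      (hV.fin _ (isCompact_closedBall _ _) hcU)
  have hc0 : 0 ≤ c := hZ.c0
  set K : ℝ := c ^ 2 * t ^ 4 / (t / 2) ^ (m + 2) with hK
  have hK0 : 0 ≤ K := by positivity
  have hAm : MeasurableSet (Prod.fst ⁻¹' (Metric.ball p t \ Metric.closedBall p (t / 2)) :
      Set (Euc k × L k)) := measurable_fst (measurableSet_ball.diff measurableSet_closedBall)
  have hAsub : (Prod.fst ⁻¹' (Metric.ball p t \ Metric.closedBall p (t / 2)) :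
      Set (Euc k × L k)) ⊆ Metric.ball p t ×ˢ Set.univ := by
    rw [prod_univ_eq]
    exact Set.preimage_mono Set.sdiff_subset
  have hbd : ∫ q in Prod.fst ⁻¹' (Metric.ball p t \ Metric.closedBall p (t / 2)), perpQ m p q ∂V
      ≤ K * (mass V).real (Metric.ball p t) := by
    have h1 : ∫ q in Prod.fst ⁻¹' (Metric.ball p t \ Metric.closedBall p (t / 2)), perpQ m p q ∂V
        ≤ ∫ q in Prod.fst ⁻¹' (Metric.ball p t \ Metric.closedBall p (t / 2)), K ∂V := by
      refine integral_mono_of_nonneg (Eventually.of_forall fun q => perpQ_nonneg m p q)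
        (integrableOn_const ((measure_mono hAsub).trans_lt hfin).ne) ?_
      filter_upwards [ae_restrict_mem hAm, ae_restrict_of_ae hZ.defect] with q hq hdef
      have hq1 : q.1 ∈ Metric.ball p t := hq.1
      have hq2 : t / 2 < ‖q.1 - p‖ := by
        have := hq.2
        rw [Metric.mem_closedBall, not_le, dist_eq_norm] at this
        exact this
      have hq3 : ‖q.1 - p‖ < t := by rwa [mem_ball, dist_eq_norm] at hq1
      have h2 := hdef (hsub (ball_subset_closedBall hq1)) p hp (hsub (mem_closedBall_self ht.le))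
      unfold perpQ
      rw [hK]
      have h3 : ‖(q.1 - p) - q.2 (q.1 - p)‖ ^ 2 ≤ c ^ 2 * t ^ 4 := by
        calc ‖(q.1 - p) - q.2 (q.1 - p)‖ ^ 2 ≤ (c * ‖q.1 - p‖ ^ 2) ^ 2 := by gcongr
          _ = c ^ 2 * ‖q.1 - p‖ ^ 4 := by ring
          _ ≤ c ^ 2 * t ^ 4 := by gcongr
      gcongr
    refine h1.trans ?_
    rw [setIntegral_const, smul_eq_mul, mul_comm]
    have hle : V.real (Prod.fst ⁻¹' (Metric.ball p t \ Metric.closedBall p (t / 2))) ≤
        (mass V).real (Metric.ball p t) := by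
      rw [mass_real_apply V measurableSet_ball]
      rw [prod_univ_eq] at hfin
      exact ENNReal.toReal_mono hfin.ne (measure_mono (Set.preimage_mono Set.sdiff_subset))
    exact mul_le_mul_of_nonneg_left hle hK0
  have h5 : (t / 2) ^ m ≠ 0 := by positivity
  have h6 : ((t / 2) ^ m)⁻¹ * (mass V).real (Metric.closedBall p (t / 2)) ≤
      No m V p (3 / 4 * t) := by
    exact mono_real hV hm (by positivity) (by linarith)
      ((Metric.closedBall_subset_closedBall (by linarith)).trans hcU)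
  have h7 : K * (mass V).real (Metric.ball p t) = c ^ 2 * 2 ^ (m + 2) * No m V p t * t ^ 2 := by
    rw [hK, No, div_pow, pow_add t m 2]
    field_simp
  have h8 : c ^ 2 * 2 ^ (m + 2) * No m V p t * t ^ 2 ≤ c ^ 2 * 2 ^ (m + 2) * M * t ^ 2 := by
    gcongr
  have h9 : No m V p t = (t ^ m)⁻¹ * (mass V).real (Metric.ball p t) := rfl
  linarith

end Crest.Agent.R234.F9c_947
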