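import Crest.Agent.R234.F9c2_947

/-!
Row 234, node F9C (helper947), file 3: the density along the support under the quadratic defect.

Quadratic defect ⇒ the ratio at support points near `x` exceeds the density by at most `K t²`,
uniformly ⇒ the density is lower semicontinuous along the support near `x` ⇒ (it is an integer
almost everywhere) `Θ(x) = Q` is an integer and `Θ ≥ Q` on the support near `x` ⇒
`Al9_182.allard`.
-/

set_option autoImplicit false

open MeasureTheory Crest.GeometryTopology.Submanifold Filter Topology Metric Module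
open scoped ENNReal NNReal InnerProductSpace

noncomputable section

namespace Crest.Agent.R234.F9c_947

open Crest.Agent.R234.Vf_884

variable {m k : ℕ} {U : Set (Euc k)} {D : VarifoldData m k}

theorem No_mono {V : Measure (Euc k × L k)} (hV : Stat m k U V) (hm : 1 ≤ m) {z : Euc k}
    {σ ρ : ℝ} (hσ : 0 < σ) (hσρ : σ ≤ ρ) (hU : Metric.closedBall z ρ ⊆ U) :
    No m V z σ ≤ No m V z ρ := by
  rw [No_eq V z hσ, No_eq V z (hσ.trans_le hσρ)]
  have h1 := rat_mono hV hm hσ hσρ (ball_subset_closedBall.trans hU)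
  exact mul_le_mul_of_nonneg_left
    (ENNReal.toReal_mono (rat_lt_top hV (hσ.trans_le hσρ) hU).ne h1) (ome_pos m).le

theorem Th_le_No {V : Measure (Euc k × L k)} (hV : Stat m k U V) (hm : 1 ≤ m) {z : Euc k}
    {ρ : ℝ} (hρ : 0 < ρ) (hU : Metric.closedBall z ρ ⊆ U) :
    ome m * (Th m V z).toReal ≤ No m V z ρ := by
  rw [No_eq V z hρ]
  exact mul_le_mul_of_nonneg_left (ENNReal.toReal_mono (rat_lt_top hV hρ hU).ne
    (Th_le_rat hV hm hρ (ball_subset_closedBall.trans hU))) (ome_pos m).le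

theorem No_nonneg (V : Measure (Euc k × L k)) (z : Euc k) {r : ℝ} (hr : 0 < r) :
    0 ≤ No m V z r := by
  unfold No; positivity

/-- iteration of the step. -/
theorem Quad.iter {x : Euc k} {r c : ℝ} (hZ : Quad U D x r c) (hD : IsIntegralVarifoldIn U D)
    (hst : IsStationaryIn U D) (hm : 1 ≤ m) {p : Euc k} (hp : p ∈ support D)
    {t M : ℝ} (ht : 0 < t) (hsub : Metric.closedBall p t ⊆ Metric.ball x r)
    (hM : No m (VD D) p t ≤ M) (j : ℕ) :
    No m (VD D) p t ≤ No m (VD D) p ((3 / 4) ^ j * t) +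
      c ^ 2 * 2 ^ (m + 2) * M * t ^ 2 * (16 / 7 * (1 - (9 / 16) ^ j)) := by
  induction j with
  | zero => simp
  | succ j ih =>
    have hV : Stat m k U (VD D) := stat_VD hD hst
    have hj0 : (0 : ℝ) < (3 / 4) ^ j := by positivity
    have hj1 : ((3 : ℝ) / 4) ^ j ≤ 1 := pow_le_one₀ (by norm_num) (by norm_num)
    have htj : 0 < (3 / 4) ^ j * t := by positivity
    have htj1 : (3 / 4) ^ j * t ≤ t := by nlinarith
    have hsubj : Metric.closedBall p ((3 / 4) ^ j * t) ⊆ Metric.ball x r :=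
      (closedBall_subset_closedBall htj1).trans hsub
    have hMj : No m (VD D) p ((3 / 4) ^ j * t) ≤ M :=
      (No_mono hV hm htj htj1 (hsub.trans hZ.ball)).trans hM
    have h1 := hZ.step hD hst hm hp htj hsubj hMj
    have e1 : 3 / 4 * ((3 / 4 : ℝ) ^ j * t) = (3 / 4) ^ (j + 1) * t := by ring
    rw [e1] at h1
    have e2 : ((3 / 4 : ℝ) ^ j * t) ^ 2 = (9 / 16) ^ j * t ^ 2 := by
      rw [mul_pow, ← pow_mul, mul_comm j 2, pow_mul]
      norm_num
    rw [e2] at h1
    refine (ih.trans (add_le_add_left h1 _)).trans (le_of_eq ?_)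
    ring

/-- the uniform upper bound of the ratio by the density. -/
theorem Quad.upper {x : Euc k} {r c : ℝ} (hZ : Quad U D x r c) (hD : IsIntegralVarifoldIn U D)
    (hst : IsStationaryIn U D) (hm : 1 ≤ m) (hU : IsOpen U) {p : Euc k} (hp : p ∈ support D)
    {t M : ℝ} (ht : 0 < t) (hsub : Metric.closedBall p t ⊆ Metric.ball x r)
    (hM : No m (VD D) p t ≤ M) :
    No m (VD D) p t ≤ ome m * (Th m (VD D) p).toReal +
      c ^ 2 * 2 ^ (m + 2) * M * t ^ 2 * (16 / 7) := by
  have hV : Stat m k U (VD D) := stat_VD hD hst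
  have hpU : p ∈ U := hZ.ball (hsub (mem_closedBall_self ht.le))
  have hlim := tendsto_No hV hm hU hpU
  have h1 : Tendsto (fun j : ℕ => ((3 : ℝ) / 4) ^ j) atTop (𝓝 0) :=
    tendsto_pow_atTop_nhds_zero_of_lt_one (by norm_num) (by norm_num)
  have h2 : Tendsto (fun j : ℕ => ((3 : ℝ) / 4) ^ j * t) atTop (𝓝[>] 0) := by
    refine tendsto_nhdsWithin_iff.2 ⟨?_, Eventually.of_forall fun j => ?_⟩
    · simpa using h1.mul_const t
    · have : (0 : ℝ) < (3 / 4) ^ j * t := by positivity
      exact this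
  have h3 := (hlim.comp h2).add_const
    (c ^ 2 * 2 ^ (m + 2) * M * t ^ 2 * (16 / 7))
  refine ge_of_tendsto' h3 fun j => ?_
  have hM0 : 0 ≤ M := (No_nonneg _ _ ht).trans hM
  refine (hZ.iter hD hst hm hp ht hsub hM j).trans (add_le_add_right ?_ _)
  have h4 : (0 : ℝ) ≤ (9 / 16) ^ j := by positivity
  have h5 : (16 : ℝ) / 7 * (1 - (9 / 16) ^ j) ≤ 16 / 7 := by nlinarith
  have h6 := hZ.c0
  gcongr

/-- **lower semicontinuity of the density along the support.** -/
theorem Quad.lsc {x : Euc k} {r c : ℝ} (hZ : Quad U D x r c) (hD : IsIntegralVarifoldIn U D)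
    (hst : IsStationaryIn U D) (hm : 1 ≤ m) (hU : IsOpen U) {ε : ℝ} (hε : 0 < ε) :
    ∃ ρ > 0, ∀ p ∈ support D, p ∈ Metric.ball x ρ →
      (Th m (VD D) x).toReal ≤ (Th m (VD D) p).toReal + ε := by
  have hV : Stat m k U (VD D) := stat_VD hD hst
  set V := VD D with hVdef
  have hr := hZ.hr
  have home := ome_pos m
  have hc0 := hZ.c0
  set θ : ℝ := (Th m V x).toReal with hθ
  have hθ0 : 0 ≤ θ := ENNReal.toReal_nonneg
  set t₀ : ℝ := r / 4 with ht₀
  have ht₀0 : 0 < t₀ := by positivity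
  have hcx : Metric.closedBall x (2 * t₀) ⊆ U :=
    (closedBall_subset_ball (by rw [ht₀]; linarith)).trans hZ.ball
  set M : ℝ := (t₀ ^ m)⁻¹ * (mass V).real (Metric.closedBall x (2 * t₀)) with hM
  have hM0 : 0 ≤ M := by positivity
  set K : ℝ := c ^ 2 * 2 ^ (m + 2) * M * (16 / 7) with hK
  have hK0 : 0 ≤ K := by positivity
  -- the scale
  obtain ⟨t, ht, htt, hKt⟩ : ∃ t : ℝ, 0 < t ∧ t ≤ t₀ ∧ K * t ^ 2 ≤ ome m * ε / 2 := by
    refine ⟨min t₀ (min 1 (ome m * ε / (2 * (K + 1)))), by positivity, min_le_left _ _, ?_⟩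
    set t : ℝ := min t₀ (min 1 (ome m * ε / (2 * (K + 1))))
    have h1 : t ≤ 1 := (min_le_right _ _).trans (min_le_left _ _)
    have h2 : t ≤ ome m * ε / (2 * (K + 1)) := (min_le_right _ _).trans (min_le_right _ _)
    have h0 : 0 < t := by positivity
    have h3 : t ^ 2 ≤ ome m * ε / (2 * (K + 1)) := by nlinarith
    calc K * t ^ 2 ≤ (K + 1) * (ome m * ε / (2 * (K + 1))) := by gcongr; linarith
      _ = ome m * ε / 2 := by field_simp
  set ρ : ℝ := min (t / 2) (t * ε / (2 * (m * θ + 1))) with hρ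
  have hρ0 : 0 < ρ := by positivity
  refine ⟨ρ, hρ0, fun p hp hpx => ?_⟩
  have hρ1 : ρ ≤ t / 2 := min_le_left _ _
  have hρ2 : ρ ≤ t * ε / (2 * (m * θ + 1)) := min_le_right _ _
  set d : ℝ := dist p x with hd
  have hd0 : 0 ≤ d := dist_nonneg
  have hdρ : d < ρ := hpx
  have hpt : Metric.closedBall p t ⊆ Metric.ball x r := by
    refine closedBall_subset_ball' ?_
    rw [← hd]; linarith
  have hpt₀ : Metric.closedBall p t₀ ⊆ Metric.ball x r := by
    refine closedBall_subset_ball' ?_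
    rw [← hd]; linarith
  have hMp : No m V p t ≤ M := by
    refine (No_mono hV hm ht htt (hpt₀.trans hZ.ball)).trans ?_
    rw [hM]
    unfold No
    refine mul_le_mul_of_nonneg_left ?_ (by positivity)
    refine ENNReal.toReal_mono (mass_lt_top hV (isCompact_closedBall _ _) hcx).ne
      (measure_mono ?_)
    refine (ball_subset_ball' ?_).trans ball_subset_closedBall
    rw [← hd]; linarith
  have h1 := hZ.upper hD hst hm hU hp ht hpt hMp
  have h2 : c ^ 2 * 2 ^ (m + 2) * M * t ^ 2 * (16 / 7) = K * t ^ 2 := by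
    rw [hK]; ring
  rw [h2] at h1
  -- lower bound
  have htd : 0 < t - d := by linarith
  have hcxt : Metric.closedBall x (t - d) ⊆ U :=
    (closedBall_subset_closedBall (by linarith)).trans hcx
  have h3 := Th_le_No hV hm htd hcxt
  rw [← hθ] at h3
  have h4 : (mass V).real (Metric.ball x (t - d)) ≤ (mass V).real (Metric.ball p t) := by
    refine ENNReal.toReal_mono ?_ (measure_mono ?_)
    · exact ne_top_of_le_ne_top (mass_lt_top hV (isCompact_closedBall p t)
        (hpt.trans hZ.ball)).ne (measure_mono ball_subset_closedBall)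
    · refine ball_subset_ball' ?_
      rw [dist_comm, ← hd]; linarith
  have h5 : (t - d) ^ m * (ome m * θ) ≤ t ^ m * No m V p t := by
    have e1 : (t - d) ^ m * No m V x (t - d) = (mass V).real (Metric.ball x (t - d)) := by
      unfold No; field_simp
    have e2 : t ^ m * No m V p t = (mass V).real (Metric.ball p t) := by
      unfold No; field_simp
    rw [e2]
    refine le_trans ?_ h4
    rw [← e1]
    gcongr
  have h6 : 1 - m * (d / t) ≤ (1 - d / t) ^ m := by
    have h7 : (-2 : ℝ) ≤ -(d / t) := by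
      have : d / t ≤ 1 := (div_le_one ht).2 (by linarith)
      linarith
    have h8 := one_add_mul_le_pow h7 m
    rw [← sub_eq_add_neg] at h8
    linarith
  have h9 : (1 - d / t) ^ m * (ome m * θ) ≤ No m V p t := by
    have e3 : (t - d) ^ m = t ^ m * (1 - d / t) ^ m := by
      rw [← mul_pow]; congr 1; field_simp
    rw [e3, mul_assoc] at h5
    exact le_of_mul_le_mul_left h5 (by positivity)
  have h10 : (1 - m * (d / t)) * (ome m * θ) ≤ ome m * (Th m V p).toReal + ome m * ε / 2 := by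
    have : (1 - m * (d / t)) * (ome m * θ) ≤ (1 - d / t) ^ m * (ome m * θ) :=
      mul_le_mul_of_nonneg_right h6 (by positivity)
    linarith
  have h11 : m * (d / t) * θ ≤ ε / 2 := by
    have h12 : d / t ≤ ε / (2 * (m * θ + 1)) := by
      rw [div_le_iff₀ ht]
      calc d ≤ t * ε / (2 * (m * θ + 1)) := hdρ.le.trans hρ2
        _ = _ := by ring
    have h13 : (0 : ℝ) ≤ m * θ := by positivity
    calc m * (d / t) * θ = (m * θ) * (d / t) := by ring
      _ ≤ (m * θ + 1) * (ε / (2 * (m * θ + 1))) := by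
          refine mul_le_mul (by linarith) h12 (by positivity) (by positivity)
      _ = ε / 2 := by field_simp
  have h14 : ome m * θ ≤ ome m * ((Th m V p).toReal + ε) := by
    have : ome m * (m * (d / t) * θ) ≤ ome m * (ε / 2) :=
      mul_le_mul_of_nonneg_left h11 home.le
    nlinarith
  exact le_of_mul_le_mul_left h14 home

/-- support points of integer density arbitrarily near `x`. -/
theorem exists_int (hD : IsIntegralVarifoldIn U D) (hst : IsStationaryIn U D) (hm : 1 ≤ m)
    (hU : IsOpen U) {x : Euc k} (hx : x ∈ support D) {ρ : ℝ} (hρ : 0 < ρ) :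
    ∃ p ∈ support D, p ∈ Metric.ball x ρ ∧ ∃ N : ℕ, 1 ≤ N ∧ Th m (VD D) p = N := by
  by_contra hcon
  push Not at hcon
  have h1 := Th_weight_ae hD hst hm hU
  have h2 : ∀ᵐ p ∂(weight D), p ∈ support D := by
    rw [ae_iff]
    exact Ae1_3.weight_support_compl D
  have h3 : weight D (Metric.ball x ρ) = 0 := by
    refine measure_mono_null (fun p hp => ?_) (ae_iff.1 (h1.and h2))
    rintro ⟨⟨N, hN, hpN⟩, hps⟩
    exact hcon p hps hp N hN hpN
  exact (hx ρ hρ).ne' h3

theorem stat_anti {V : Measure (Euc k × L k)} {W : Set (Euc k)} (hV : Stat m k U V)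
    (h : W ⊆ U) : Stat m k W V :=
  ⟨hV.conc, fun K hK hKW => hV.fin K hK (hKW.trans h),
    fun X h1 h2 h3 => hV.stat X h1 h2 (h3.trans h)⟩

/-- **the density at `x` is an integer `Q ≥ 1`, and is at least `Q` on the support near `x`.** -/
theorem Quad.density {x : Euc k} {r c : ℝ} (hZ : Quad U D x r c) (hD : IsIntegralVarifoldIn U D)
    (hst : IsStationaryIn U D) (hm : 1 ≤ m) (hU : IsOpen U) (hx : x ∈ support D) :
    ∃ Q : ℕ, 1 ≤ Q ∧ Th m (VD D) x = Q ∧
      ∃ ρ > 0, ∀ p ∈ support D, p ∈ Metric.ball x ρ → (Q : ℝ≥0∞) ≤ Th m (VD D) p := by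
  have hV : Stat m k U (VD D) := stat_VD hD hst
  set V := VD D with hVdef
  have hxU : x ∈ U := hZ.ball (mem_ball_self hZ.hr)
  have hxt := Th_lt_top hV hm hU hxU
  set θ : ℝ := (Th m V x).toReal with hθ
  have hThθ : Th m V x = ENNReal.ofReal θ := (ENNReal.ofReal_toReal hxt.ne).symm
  have key : ∀ ε : ℝ, 0 < ε → ∃ N : ℕ, |θ - N| ≤ ε := by
    intro ε hε
    obtain ⟨ρ, hρ, h1⟩ := hZ.lsc hD hst hm hU hε
    have h2 := usc_Th hV hm hU hxU (Th m V x + ENNReal.ofReal ε)
      (ENNReal.lt_add_right hxt.ne (by simpa using hε))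
    obtain ⟨ρ', hρ', h3⟩ := Metric.eventually_nhds_iff_ball.1 h2
    obtain ⟨p, hps, hp, N, -, hN⟩ := exists_int hD hst hm hU hx (lt_min hρ hρ')
    refine ⟨N, ?_⟩
    have h4 := h1 p hps (ball_subset_ball (min_le_left _ _) hp)
    have h5 := h3 p (ball_subset_ball (min_le_right _ _) hp)
    rw [← hVdef, hN, ENNReal.toReal_natCast, ← hθ] at h4
    rw [← hVdef] at hN
    rw [hN, hThθ, ← ENNReal.ofReal_add ENNReal.toReal_nonneg hε.le,
      ← ENNReal.ofReal_natCast] at h5
    have h6 : (N : ℝ) < θ + ε := by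
      have hpos : 0 < θ + ε := by
        have : 0 ≤ θ := ENNReal.toReal_nonneg
        linarith
      exact (ENNReal.ofReal_lt_ofReal_iff hpos).1 h5
    rw [abs_le]
    constructor <;> linarith
  -- integrality
  obtain ⟨Q, hQ⟩ := key (1 / 4) (by norm_num)
  have hθQ : θ = Q := by
    have h1 : ∀ ε : ℝ, 0 < ε → |θ - Q| ≤ ε := by
      intro ε hε
      obtain ⟨N, hN⟩ := key (min ε (1 / 4)) (by positivity)
      have h2 : |θ - N| ≤ 1 / 4 := hN.trans (min_le_right _ _)
      have h3 : |(Q : ℝ) - N| < 1 := by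
        rw [abs_le] at hQ h2
        rw [abs_lt]
        constructor <;> linarith [hQ.1, hQ.2, h2.1, h2.2]
      have h4 : Q = N := by
        have h5 : |(Q : ℤ) - N| < 1 := by exact_mod_cast h3
        have h6 : (Q : ℤ) - N = 0 := Int.abs_lt_one_iff.1 h5
        omega
      rw [h4]
      exact hN.trans (min_le_left _ _)
    have h2 : |θ - Q| ≤ 0 := le_of_forall_pos_le_add fun ε hε => by
      simpa using h1 ε hε
    have h3 := abs_nonpos_iff.1 h2
    linarith
  have hThQ : Th m V x = Q := by rw [hThθ, hθQ, ENNReal.ofReal_natCast]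
  have hQ1 : 1 ≤ Q := by
    have h1 := one_le_Th hD hst hm hU hxU hx
    rw [← hVdef, hThQ] at h1
    exact_mod_cast h1
  refine ⟨Q, hQ1, hThQ, ?_⟩
  obtain ⟨ρ, hρ, h1⟩ := hZ.lsc hD hst hm hU (ε := 1 / 2) (by norm_num)
  have hW : Metric.ball x (min ρ r) ⊆ U :=
    (ball_subset_ball (min_le_right _ _)).trans hZ.ball
  have hρr : 0 < min ρ r := lt_min hρ hZ.hr
  refine ⟨min ρ r, hρr, fun p hp hpb => ?_⟩
  refine le_Th_of_ae (U := Metric.ball x (min ρ r)) (stat_anti hV hW) hm isOpen_ball ?_ hpb ?_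
  · rw [hVdef, mass_VD hD]
    have h2 : ∀ᵐ p ∂(weight D), p ∈ support D := by
      rw [ae_iff]
      exact Ae1_3.weight_support_compl D
    filter_upwards [Th_weight_ae hD hst hm hU, h2] with q hq hqs hqb
    obtain ⟨N, -, hN⟩ := hq
    have h3 := h1 q hqs (ball_subset_ball (min_le_left _ _) hqb)
    rw [← hVdef] at hN h3
    rw [← hVdef, hN]
    rw [hN, ← hθ, hθQ, ENNReal.toReal_natCast] at h3
    have h4 : (Q : ℝ) < (N : ℝ) + 1 := by linarith
    have h5 : Q < N + 1 := by exact_mod_cast h4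
    have h6 : Q ≤ N := by omega
    exact_mod_cast h6
  · intro s hs
    rw [hVdef, mass_VD hD]
    exact hp s hs

end Crest.Agent.R234.F9c_947
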