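import Crest.Agent.R234.F9c3_947
import Crest.Agent.R234.Al9_182

/-!
Row 234, node F9C (helper947), file 4.  `D` integral and stationary in the open set `U ⊆ ℝ^k`,
`1 ≤ m`, `x ∈ support D ∩ U`.

* `Quad.regular`: if near `x` the tangent planes satisfy
  `|(q - p) - S(q - p)| ≤ c |q - p|²` for `V`-a.e. `(q,S)` and all `p` in the support, then `x` is
  not a singular point;
* `Zero.regular`: the same if near `x` the support lies in the zero set of a map `h` with Lipschitz
  derivative, with `‖v‖ ≤ C‖h'(q) v‖` for `v ∈ ker S` whenever `S ∈ G m k`, `h'(q) ∘ S = 0`;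
* `regular_of_C11`: the same for a `C^{1,1}` submersion with values in a space of dimension `k - m`.
-/

set_option autoImplicit false

open MeasureTheory Crest.GeometryTopology.Submanifold Filter Topology Metric Module
open scoped ENNReal NNReal InnerProductSpace

noncomputable section

namespace Crest.Agent.R234.F9c_947

open Crest.Agent.R234.Vf_884

variable {m k : ℕ} {F : Type*} [NormedAddCommGroup F] [InnerProductSpace ℝ F]
  [FiniteDimensional ℝ F] {U : Set (Euc k)} {D : VarifoldData m k}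

/-- points of `V` near `x` with a given almost sure property. -/
theorem exists_near (hD : IsIntegralVarifoldIn U D) {x : Euc k} (hx : x ∈ support D)
    {P : Euc k × L k → Prop} (hP : ∀ᵐ q ∂(VD D), P q) {s : ℝ} (hs : 0 < s) :
    ∃ q, P q ∧ q.1 ∈ Metric.ball x s := by
  by_contra hcon
  push Not at hcon
  have h1 : mass (VD D) (Metric.ball x s) = 0 := by
    rw [mass_apply _ measurableSet_ball]
    refine measure_mono_null (fun q hq => ?_) (ae_iff.1 hP)
    exact fun h => hcon q h hq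
  rw [mass_VD hD] at h1
  exact (hx s hs).ne' h1

/-- **quadratic defect ⟹ regular point.** -/
theorem Quad.regular {x : Euc k} {r c : ℝ} (hZ : Quad U D x r c) (hD : IsIntegralVarifoldIn U D)
    (hst : IsStationaryIn U D) (hm : 1 ≤ m) (hU : IsOpen U) (hx : x ∈ support D) :
    x ∉ singularSet m k U D := by
  obtain ⟨Q, hQ, hThQ, ρ, hρ, hThρ⟩ := hZ.density hD hst hm hU hx
  have hV : Stat m k U (VD D) := stat_VD hD hst
  have hr := hZ.hr
  have hc0 := hZ.c0
  obtain ⟨ε, hε, H⟩ := Al9_182.allard m k hm Q hQ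
  have hlim := tendsto_rat hV hm hr hZ.ball
  have hlt : Th m (VD D) x < (Q : ℝ≥0∞) + ENNReal.ofReal ε := by
    rw [hThQ]
    refine ENNReal.lt_add_right (ENNReal.natCast_ne_top Q) ?_
    rw [ne_eq, ENNReal.ofReal_eq_zero, not_le]
    exact hε
  obtain ⟨r1, hr1, hr1'⟩ : ∃ r1 > 0, ∀ s, 0 < s → s < r1 →
      rat m (VD D) x s ≤ (Q : ℝ≥0∞) + ENNReal.ofReal ε := by
    have h1 := hlim.eventually_lt_const hlt
    obtain ⟨r1, hr1, h2⟩ := mem_nhdsGT_iff_exists_Ioo_subset.1 h1
    exact ⟨r1, hr1, fun s h3 h4 => (h2 ⟨h3, h4⟩).le⟩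
  set K : ℝ := 5 * c + 1 with hK
  have hK0 : 0 < K := by positivity
  set s : ℝ := min (min (r1 / 2) r) (min ρ (ε / K)) with hs
  have hs0 : 0 < s := by positivity
  have hs1 : s < r1 := by
    have : s ≤ r1 / 2 := (min_le_left _ _).trans (min_le_left _ _)
    linarith
  have hsr : s ≤ r := (min_le_left _ _).trans (min_le_right _ _)
  have hsρ : s ≤ ρ := (min_le_right _ _).trans (min_le_left _ _)
  have hsK : s ≤ ε / K := (min_le_right _ _).trans (min_le_right _ _)
  have hxb : x ∈ Metric.ball x r := mem_ball_self hr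
  obtain ⟨q, ⟨hq, hqG⟩, hqs⟩ := exists_near hD hx (hZ.defect.and (VD_conc hD)) hs0
  have hqb : q.1 ∈ Metric.ball x r := ball_subset_ball hsr hqs
  obtain ⟨T, hT, hTP⟩ := Al9_182.exists_plane hqG
  have hcompl : ∀ v, Tᗮ.starProjection v = v - q.2 v := by
    intro v
    rw [Al6_182.starProjection_compl, hTP]
    simp
  refine H U D hU hD hst x hx s hs0 ((ball_subset_ball hsr).trans hZ.ball) T hT ?_
    (fun y hy hyb => hThρ y hy (ball_subset_ball hsρ hyb)) (hr1' s hs0 hs1)
  intro y hy hyb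
  have hyr : y ∈ Metric.ball x r := ball_subset_ball hsr hyb
  have h1 := hq hqb y hy hyr
  have h2 := hq hqb x hx hxb
  have h3 : ‖q.1 - x‖ ≤ s := by rw [← dist_eq_norm]; exact (mem_ball.1 hqs).le
  have h4 : ‖y - x‖ ≤ s := by rw [← dist_eq_norm]; exact (mem_ball.1 hyb).le
  have h5 : ‖q.1 - y‖ ≤ 2 * s := by
    calc ‖q.1 - y‖ = ‖(q.1 - x) - (y - x)‖ := by congr 1; abel
      _ ≤ ‖q.1 - x‖ + ‖y - x‖ := norm_sub_le _ _
      _ ≤ 2 * s := by linarith
  have h6 : Tᗮ.starProjection (y - x) =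
      ((q.1 - x) - q.2 (q.1 - x)) - ((q.1 - y) - q.2 (q.1 - y)) := by
    rw [hcompl]
    have : y - x = (q.1 - x) - (q.1 - y) := by abel
    rw [this, map_sub]
    abel
  calc ‖Tᗮ.starProjection (y - x)‖
      ≤ ‖(q.1 - x) - q.2 (q.1 - x)‖ + ‖(q.1 - y) - q.2 (q.1 - y)‖ := by
        rw [h6]; exact norm_sub_le _ _
    _ ≤ c * ‖q.1 - x‖ ^ 2 + c * ‖q.1 - y‖ ^ 2 := add_le_add h2 h1
    _ ≤ c * s ^ 2 + c * (2 * s) ^ 2 := by gcongr
    _ = (5 * c) * s * s := by ring
    _ ≤ K * s * s := by gcongr; linarith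
    _ ≤ K * (ε / K) * s := by gcongr
    _ = ε * s := by field_simp

/-- **zero set of a `C^{1,1}` map, structured form.** -/
theorem Zero.regular {x : Euc k} {r K C : ℝ} {h : Euc k → F} {h' : Euc k → Euc k →L[ℝ] F}
    (hZ : Zero U D x r h h' K C) (hD : IsIntegralVarifoldIn U D)
    (hst : IsStationaryIn U D) (hm : 1 ≤ m) (hU : IsOpen U) (hx : x ∈ support D) :
    x ∉ singularSet m k U D :=
  (hZ.quad hD hm).regular hD hst hm hU hx

/-- **F9C for a submersion**: support near `x` inside the zero set of a `C^{1,1}` submersion with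
values in a space of dimension `k - m`  ⟹  `x` is a regular point. -/
theorem regular_of_C11 (hU : IsOpen U) (hm : 1 ≤ m) (hD : IsIntegralVarifoldIn U D)
    (hst : IsStationaryIn U D) {x : Euc k} (hxU : x ∈ U) (hx : x ∈ support D)
    {h : Euc k → F} {h' : Euc k → Euc k →L[ℝ] F} {r K : ℝ} (hr : 0 < r)
    (hder : ∀ q ∈ Metric.ball x r, HasFDerivAt h (h' q) q)
    (hlip : ∀ p ∈ Metric.ball x r, ∀ q ∈ Metric.ball x r, ‖h' p - h' q‖ ≤ K * ‖p - q‖)
    (hzero : ∀ q ∈ support D, q ∈ Metric.ball x r → h q = 0)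
    (hsurj : Function.Surjective (h' x)) (hdim : finrank ℝ F + m = k) :
    x ∉ singularSet m k U D := by
  obtain ⟨R₀, hR₀⟩ := (h' x).toLinearMap.exists_rightInverse_of_surjective
    (LinearMap.range_eq_top.2 hsurj)
  set R : F →L[ℝ] Euc k := LinearMap.toContinuousLinearMap R₀ with hR
  have hinv : ∀ y, h' x (R y) = y := fun y => LinearMap.congr_fun hR₀ y
  obtain ⟨r₀, hr₀, hr₀U⟩ := Metric.isOpen_iff.1 hU x hxU
  set K' : ℝ := max K 0 with hK'
  have hK'0 : 0 ≤ K' := le_max_right _ _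
  set s : ℝ := min (min r r₀) (1 / (2 * (K' * ‖R‖ + 1))) with hs
  have hs0 : 0 < s := by positivity
  have hsr : s ≤ r := (min_le_left _ _).trans (min_le_left _ _)
  have hsr₀ : s ≤ r₀ := (min_le_left _ _).trans (min_le_right _ _)
  have hs2 : s ≤ 1 / (2 * (K' * ‖R‖ + 1)) := min_le_right _ _
  have hsub : Metric.ball x s ⊆ Metric.ball x r := ball_subset_ball hsr
  have hlip' : ∀ p ∈ Metric.ball x s, ∀ q ∈ Metric.ball x s, ‖h' p - h' q‖ ≤ K' * ‖p - q‖ :=
    fun p hp q hq => (hlip p (hsub hp) q (hsub hq)).trans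
      (mul_le_mul_of_nonneg_right (le_max_left _ _) (norm_nonneg _))
  have hZ : Zero U D x s h h' K' (2 * ‖R‖) :=
    { hr := hs0
      ball := (ball_subset_ball hsr₀).trans hr₀U
      der := fun q hq => hder q (hsub hq)
      K0 := hK'0
      C0 := by positivity
      lip := hlip'
      zero := fun q hq hqb => hzero q hq (hsub hqb)
      coer := by
        intro q hq S hS hSq v hv
        have h1 : 0 ≤ K' * ‖R‖ := by positivity
        have h2 : K' * s * ‖R‖ ≤ 1 / 2 := by
          calc K' * s * ‖R‖ = (K' * ‖R‖) * s := by ring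
            _ ≤ (K' * ‖R‖ + 1) * (1 / (2 * (K' * ‖R‖ + 1))) :=
                mul_le_mul (by linarith) hs2 hs0.le (by positivity)
            _ = 1 / 2 := by field_simp
        have h3 : ‖h' q - h' x‖ * ‖R‖ ≤ 1 / 2 := by
          refine le_trans (mul_le_mul_of_nonneg_right ((hlip' q hq x (mem_ball_self hs0)).trans ?_)
            (norm_nonneg _)) h2
          refine mul_le_mul_of_nonneg_left ?_ hK'0
          rw [← dist_eq_norm]
          exact (mem_ball.1 hq).le
        have h4 := perp_le hinv h3 hS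
          (fun w => DFunLike.congr_fun hSq w) hdim v
        rwa [hv, sub_zero] at h4 }
  exact hZ.regular hD hst hm hU hx

end Crest.Agent.R234.F9c_947
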