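import Mathlib

/-!
# R234 (helper567), node F9-FL, part 1: a flat measure with small mean error has small height excess

Pure measure theory.  `h` = height over the reference graph, `h0` = height over a plane (in the same
coordinates), `h - h0 = a + L x + O(κ)` with `a + L x` affine.  If the weighted means of `h` are small
with respect to `‖h‖_{L²}` and the measure is not concentrated on hyperplanes (`low`), then
`∫ ‖h‖² ≤ C (om² + κ²)`, `om² = ∫ ‖h0‖²`.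
-/

set_option autoImplicit false
set_option linter.unusedVariables false
set_option linter.unusedSectionVars false

open MeasureTheory Set Metric Function
open scoped ENNReal NNReal Topology ContDiff

namespace Crest.Agent.R234.FL1_567

/-- Cauchy-Schwarz against the constant one -/
theorem sq_integral_le {X : Type*} [MeasurableSpace X] {μ : Measure X} [IsFiniteMeasure μ]
    {f : X → ℝ} (hf : MemLp f 2 μ) : (∫ p, f p ∂μ) ^ 2 ≤ μ.real univ * ∫ p, f p ^ 2 ∂μ := by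
  have hi : Integrable f μ := hf.integrable (by norm_num)
  have hi2 : Integrable (fun p => f p ^ 2) μ := hf.integrable_sq
  have key : ∀ t : ℝ, 0 ≤ μ.real univ * (t * t) + (-2 * ∫ p, f p ∂μ) * t + ∫ p, f p ^ 2 ∂μ := by
    intro t
    have h0 : 0 ≤ ∫ p, (f p - t) ^ 2 ∂μ := integral_nonneg fun p => sq_nonneg _
    have h1 : ∫ p, (f p - t) ^ 2 ∂μ = ∫ p, f p ^ 2 ∂μ - 2 * t * ∫ p, f p ∂μ + t ^ 2 * μ.real univ := by
      have e : ∀ p, (f p - t) ^ 2 = (f p ^ 2 - 2 * t * f p) + t ^ 2 := fun p => by ring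
      simp_rw [e]
      have a1 : Integrable (fun p => f p ^ 2 - 2 * t * f p) μ := hi2.sub (hi.const_mul _)
      have a2 : Integrable (fun p => 2 * t * f p) μ := hi.const_mul _
      rw [integral_add a1 (integrable_const _), integral_sub hi2 a2, integral_const_mul,
        integral_const, smul_eq_mul]
      ring
    linarith
  have := discrim_le_zero key
  unfold discrim at this
  nlinarith

variable (E F : Type*) [NormedAddCommGroup E] [InnerProductSpace ℝ E] [FiniteDimensional ℝ E]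
  [NormedAddCommGroup F] [InnerProductSpace ℝ F] [FiniteDimensional ℝ F]

/-- a fixed bump function: one on the unit ball, supported in the ball of radius two -/
theorem exists_bump : ∃ ζ : E → ℝ, ContDiff ℝ ∞ ζ ∧ HasCompactSupport ζ ∧ tsupport ζ ⊆ ball 0 4 ∧
    (∀ z, 0 ≤ ζ z) ∧ ∀ z, ‖z‖ < 1 → ζ z = 1 := by
  let f : ContDiffBump (0 : E) := ⟨1, 2, one_pos, one_lt_two⟩
  refine ⟨f, f.contDiff, f.hasCompactSupport, ?_, fun z => f.nonneg, fun z hz => ?_⟩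
  · rw [f.tsupport_eq]
    exact closedBall_subset_ball (by norm_num : (2 : ℝ) < 4)
  · exact f.one_of_mem_closedBall (by simpa using hz.le)

/-- the iterated derivatives of a smooth compactly supported function are bounded -/
theorem exists_bound {ζ : E → ℝ} (h1 : ContDiff ℝ ∞ ζ) (h2 : HasCompactSupport ζ) (K : ℕ) :
    ∃ B : ℝ, 0 < B ∧ ∀ j ≤ K, ∀ z, ‖iteratedFDeriv ℝ j ζ z‖ ≤ B := by
  have h : ∀ j : ℕ, ∃ B : ℝ, ∀ z, ‖iteratedFDeriv ℝ j ζ z‖ ≤ B := by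
    intro j
    have hc : Continuous (iteratedFDeriv ℝ j ζ) := h1.continuous_iteratedFDeriv (by exact_mod_cast le_top)
    obtain ⟨B, hB⟩ := (h2.iteratedFDeriv (𝕜 := ℝ) j).exists_bound_of_continuous hc
    exact ⟨B, hB⟩
  choose B hB using h
  refine ⟨∑ j ∈ Finset.range (K + 1), |B j| + 1, by positivity, fun j hj z => ?_⟩
  refine (hB j z).trans ((le_abs_self _).trans ?_)
  have : |B j| ≤ ∑ j ∈ Finset.range (K + 1), |B j| :=
    Finset.single_le_sum (f := fun j => |B j|) (fun _ _ => abs_nonneg _) (by simp; omega)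
  linarith

/-- finitely many test functions: `ζ` and `ζ ⟪b i, ·⟫` -/
theorem exists_tests (K : ℕ) : ∃ (ζ : E → ℝ) (B : ℝ), 0 < B ∧ Continuous ζ ∧
    (∀ z, 0 ≤ ζ z) ∧ (∀ z, ‖z‖ < 1 → ζ z = 1) ∧ (∀ z, ζ z ≤ B) ∧
    (∀ i z, |ζ z * inner ℝ (stdOrthonormalBasis ℝ E i) z| ≤ B) ∧
    (ContDiff ℝ ∞ (fun z => B⁻¹ * ζ z) ∧ tsupport (fun z => B⁻¹ * ζ z) ⊆ ball 0 4 ∧
      ∀ j ≤ K, ∀ z, ‖iteratedFDeriv ℝ j (fun z => B⁻¹ * ζ z) z‖ ≤ 1) ∧
    ∀ i, ContDiff ℝ ∞ (fun z => B⁻¹ * (ζ z * inner ℝ (stdOrthonormalBasis ℝ E i) z)) ∧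
      tsupport (fun z => B⁻¹ * (ζ z * inner ℝ (stdOrthonormalBasis ℝ E i) z)) ⊆ ball 0 4 ∧
      ∀ j ≤ K, ∀ z, ‖iteratedFDeriv ℝ j
        (fun z => B⁻¹ * (ζ z * inner ℝ (stdOrthonormalBasis ℝ E i) z)) z‖ ≤ 1 := by
  obtain ⟨ζ, h1, h2, h3, h4, h5⟩ := exists_bump E
  set b := stdOrthonormalBasis ℝ E with hb
  have hin : ∀ i, ContDiff ℝ ∞ fun z : E => inner ℝ (b i) z := fun i =>
    contDiff_const.inner ℝ contDiff_id
  have hc : ∀ i, ContDiff ℝ ∞ fun z : E => ζ z * inner ℝ (b i) z := fun i => h1.mul (hin i)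
  have hs : ∀ i, HasCompactSupport fun z : E => ζ z * inner ℝ (b i) z := fun i => h2.mul_right
  have hts : ∀ i, tsupport (fun z : E => ζ z * inner ℝ (b i) z) ⊆ ball 0 4 := fun i =>
    (closure_mono (support_mul_subset_left _ _)).trans h3
  obtain ⟨B0, hB0, hB0'⟩ := exists_bound E h1 h2 K
  have := fun i => exists_bound E (hc i) (hs i) K
  choose Bi hBi hBi' using this
  set B := B0 + ∑ i, Bi i with hB
  have hBpos : 0 < B := by
    have : 0 ≤ ∑ i, Bi i := Finset.sum_nonneg fun i _ => (hBi i).le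
    linarith
  have hB0B : B0 ≤ B := by
    have : 0 ≤ ∑ i, Bi i := Finset.sum_nonneg fun i _ => (hBi i).le
    linarith
  have hBiB : ∀ i, Bi i ≤ B := by
    intro i
    have : Bi i ≤ ∑ i, Bi i := Finset.single_le_sum (fun i _ => (hBi i).le) (Finset.mem_univ i)
    linarith
  have hscale : ∀ {φ : E → ℝ} {B' : ℝ}, ContDiff ℝ ∞ φ → B' ≤ B →
      (∀ j ≤ K, ∀ z, ‖iteratedFDeriv ℝ j φ z‖ ≤ B') →
      ∀ j ≤ K, ∀ z, ‖iteratedFDeriv ℝ j (fun z => B⁻¹ * φ z) z‖ ≤ 1 := by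
    intro φ B' hφ hBB h j hj z
    have e : (fun z => B⁻¹ * φ z) = B⁻¹ • φ := by ext z; simp
    rw [e, iteratedFDeriv_const_smul_apply ((hφ.of_le (by exact_mod_cast le_top)).contDiffAt),
      norm_smul, norm_inv, Real.norm_of_nonneg hBpos.le, inv_mul_le_iff₀ hBpos, mul_one]
    exact (h j hj z).trans hBB
  have hts' : ∀ {φ : E → ℝ}, tsupport φ ⊆ ball 0 4 → tsupport (fun z => B⁻¹ * φ z) ⊆ ball 0 4 :=
    fun {φ} h => (closure_mono (support_mul_subset_right _ _)).trans h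
  refine ⟨ζ, B, hBpos, h1.continuous, h4, h5, fun z => ?_, fun i z => ?_,
    ⟨contDiff_const.mul h1, hts' h3, hscale h1 hB0B hB0'⟩, fun i =>
    ⟨contDiff_const.mul (hc i), hts' (hts i), hscale (hc i) (hBiB i) (hBi' i)⟩⟩
  · have := hB0' 0 (Nat.zero_le _) z
    rw [norm_iteratedFDeriv_zero, Real.norm_of_nonneg (h4 z)] at this
    exact this.trans hB0B
  · have := hBi' i 0 (Nat.zero_le _) z
    rw [norm_iteratedFDeriv_zero] at this
    exact this.trans (hBiB i)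

variable {E F}

/-- the constants -/
theorem alg {c0 C1 B τ s om κ A M : ℝ} {m : ℕ} (hc0 : 0 < c0) (hC1 : 0 ≤ C1) (hB : 0 < B)
    (hA : 0 ≤ A) (hom : 0 ≤ om) (hκ : 0 ≤ κ) (hτ : 0 ≤ τ)
    (h1 : c0 * A ^ 2 ≤ (1 + m) * A * M) (h2 : M ≤ B * (τ + √C1 * om + κ * C1))
    (h3 : s ≤ 3 * (om ^ 2 + 16 * A ^ 2 * C1 + κ ^ 2 * C1)) :
    s ≤ (3 + 3 * C1 + 144 * C1 * ((1 + m) * B / c0) ^ 2 * (1 + C1 + C1 ^ 2)) *
      (om ^ 2 + κ ^ 2 + τ ^ 2) := by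
  set D := (1 + m) * B / c0 with hD
  have hD0 : 0 ≤ D := by positivity
  have hA2 : A ≤ D * (τ + √C1 * om + κ * C1) := by
    rcases hA.eq_or_lt with hA0 | hA0
    · rw [← hA0]
      positivity
    · have e1 : c0 * A ≤ (1 + m) * M := by
        have : c0 * A * A ≤ (1 + m) * M * A := by nlinarith
        exact le_of_mul_le_mul_right this hA0
      have e2 : (1 + (m : ℝ)) * M ≤ (1 + m) * (B * (τ + √C1 * om + κ * C1)) := by gcongr
      rw [hD, div_mul_eq_mul_div, le_div_iff₀ hc0]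
      linarith
  have h4 : A ^ 2 ≤ 3 * D ^ 2 * (τ ^ 2 + C1 * om ^ 2 + κ ^ 2 * C1 ^ 2) := by
    have e1 : A ^ 2 ≤ (D * (τ + √C1 * om + κ * C1)) ^ 2 := by gcongr
    have e2 : (√C1) ^ 2 = C1 := Real.sq_sqrt hC1
    have e3 : (τ + √C1 * om + κ * C1) ^ 2 ≤ 3 * (τ ^ 2 + (√C1 * om) ^ 2 + (κ * C1) ^ 2) := by
      nlinarith [sq_nonneg (τ - √C1 * om), sq_nonneg (τ - κ * C1), sq_nonneg (√C1 * om - κ * C1)]
    have e4 : D ^ 2 * (τ + √C1 * om + κ * C1) ^ 2 ≤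
        D ^ 2 * (3 * (τ ^ 2 + (√C1 * om) ^ 2 + (κ * C1) ^ 2)) := by gcongr
    calc A ^ 2 ≤ D ^ 2 * (τ + √C1 * om + κ * C1) ^ 2 := by rw [← mul_pow]; exact e1
      _ ≤ D ^ 2 * (3 * (τ ^ 2 + (√C1 * om) ^ 2 + (κ * C1) ^ 2)) := e4
      _ = 3 * D ^ 2 * (τ ^ 2 + C1 * om ^ 2 + κ ^ 2 * C1 ^ 2) := by
          rw [mul_pow (√C1), e2]
          ring
  have h5 : 48 * C1 * A ^ 2 ≤ 48 * C1 * (3 * D ^ 2 * (τ ^ 2 + C1 * om ^ 2 + κ ^ 2 * C1 ^ 2)) := by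
    gcongr
  have k1 : 0 ≤ C1 * D ^ 2 := by positivity
  have k2 : 0 ≤ C1 * D ^ 2 * C1 := by positivity
  have k3 : 0 ≤ C1 * D ^ 2 * C1 ^ 2 := by positivity
  have a1 : 0 ≤ om ^ 2 := sq_nonneg _
  have a2 : 0 ≤ κ ^ 2 := sq_nonneg _
  have a3 : 0 ≤ τ ^ 2 := sq_nonneg _
  have e : (3 + 3 * C1 + 144 * C1 * D ^ 2 * (1 + C1 + C1 ^ 2)) * (om ^ 2 + κ ^ 2 + τ ^ 2) =
      (3 * om ^ 2 + 3 * C1 * κ ^ 2 + 144 * (C1 * D ^ 2) * τ ^ 2 + 144 * (C1 * D ^ 2 * C1) * om ^ 2 +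
        144 * (C1 * D ^ 2 * C1 ^ 2) * κ ^ 2) +
      (3 * κ ^ 2 + 3 * τ ^ 2 + 3 * C1 * (om ^ 2 + τ ^ 2) + 144 * (C1 * D ^ 2) * (om ^ 2 + κ ^ 2) +
        144 * (C1 * D ^ 2 * C1) * (κ ^ 2 + τ ^ 2) + 144 * (C1 * D ^ 2 * C1 ^ 2) * (om ^ 2 + τ ^ 2)) := by
    ring
  have hpos : 0 ≤ 3 * κ ^ 2 + 3 * τ ^ 2 + 3 * C1 * (om ^ 2 + τ ^ 2) +
      144 * (C1 * D ^ 2) * (om ^ 2 + κ ^ 2) + 144 * (C1 * D ^ 2 * C1) * (κ ^ 2 + τ ^ 2) +
      144 * (C1 * D ^ 2 * C1 ^ 2) * (om ^ 2 + τ ^ 2) := by positivity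
  rw [e]
  linarith

theorem bdd_smul {X : Type*} [MeasurableSpace X] {μ : Measure X} {φ : X → ℝ} {g : X → F} {B : ℝ}
    (hg : Integrable g μ) (hφ : AEStronglyMeasurable φ μ) (hB : ∀ p, |φ p| ≤ B) :
    Integrable (fun p => φ p • g p) μ := by
  refine Integrable.mono' (hg.norm.const_mul B) (hφ.smul hg.aestronglyMeasurable)
    (Filter.Eventually.of_forall fun p => ?_)
  rw [norm_smul]
  exact mul_le_mul_of_nonneg_right (hB p) (norm_nonneg _)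

theorem sq3 (a b c : ℝ) : (a + b + c) ^ 2 ≤ 3 * (a ^ 2 + b ^ 2 + c ^ 2) := by
  nlinarith [sq_nonneg (a - b), sq_nonneg (a - c), sq_nonneg (b - c)]

theorem inv_aux {Z θ : ℝ} (hZ : 0 ≤ Z) (hθ : 0 ≤ θ) (h : θ ≤ (1 + Z)⁻¹) : Z * θ ^ 2 ≤ 1 := by
  have g1 : θ ^ 2 ≤ ((1 + Z)⁻¹) ^ 2 := by gcongr
  have g2 : Z * ((1 + Z)⁻¹) ^ 2 ≤ 1 := by
    rw [inv_pow, ← div_eq_mul_inv, div_le_one (by positivity)]
    nlinarith
  calc Z * θ ^ 2 ≤ Z * ((1 + Z)⁻¹) ^ 2 := by gcongr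
    _ ≤ 1 := g2

/-- **F9-FL, pure part** -/
theorem fl1t (K : ℕ) {C1 c0 : ℝ} (hC1 : 0 ≤ C1) (hc0 : 0 < c0) : ∃ C : ℝ, 0 < C ∧
    ∀ {X : Type*} [MeasurableSpace X] (μ : Measure X) [IsFiniteMeasure μ] (x : X → E) (h h0 : X → F)
      (a : F) (L : E →L[ℝ] F) (κ om τ : ℝ), AEStronglyMeasurable x μ → MemLp h 2 μ → MemLp h0 2 μ →
      μ.real univ ≤ C1 → (∀ᵐ p ∂μ, ‖x p‖ ≤ 4) → 0 ≤ κ → 0 ≤ om → 0 ≤ τ →
      (∀ᵐ p ∂μ, ‖h p - h0 p - (a + L (x p))‖ ≤ κ) → ∫ p, ‖h0 p‖ ^ 2 ∂μ ≤ om ^ 2 →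
      c0 * (‖a‖ + ‖L‖) ^ 2 ≤ ∫ p, indicator {p | ‖x p‖ < 1} (fun p => ‖a + L (x p)‖ ^ 2) p ∂μ →
      (∀ ζ : E → ℝ, ContDiff ℝ ∞ ζ → tsupport ζ ⊆ ball 0 4 →
        (∀ j ≤ K, ∀ z, ‖iteratedFDeriv ℝ j ζ z‖ ≤ 1) →
        ‖∫ p, ζ (x p) • h p ∂μ‖ ≤ τ) →
      ∫ p, ‖h p‖ ^ 2 ∂μ ≤ C * (om ^ 2 + κ ^ 2 + τ ^ 2) := by
  obtain ⟨ζ, B, hB, hζc, hζ0, hζ1, hζB, hζiB, hT0, hTi⟩ := exists_tests E K
  set b := stdOrthonormalBasis ℝ E with hb
  refine ⟨3 + 3 * C1 + 144 * C1 * ((1 + (Module.finrank ℝ E : ℝ)) * B / c0) ^ 2 *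
    (1 + C1 + C1 ^ 2), by positivity, ?_⟩
  intro X _ μ _ x h h0 a L κ om τ hx hh hh0 hμ hx4 hκ hom hτ he hflat hlow hmean
  set ℓ : X → F := fun p => a + L (x p) with hℓ
  have hℓm : AEStronglyMeasurable ℓ μ :=
    aestronglyMeasurable_const.add (L.continuous.comp_aestronglyMeasurable hx)
  set A := ‖a‖ + ‖L‖ with hA
  have hA0 : 0 ≤ A := by positivity
  have hℓb : ∀ᵐ p ∂μ, ‖ℓ p‖ ≤ 4 * A := by
    filter_upwards [hx4] with p hp
    calc ‖ℓ p‖ ≤ ‖a‖ + ‖L (x p)‖ := norm_add_le _ _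
      _ ≤ ‖a‖ + ‖L‖ * 4 := by
        gcongr
        exact (L.le_opNorm _).trans (by gcongr)
      _ ≤ 4 * A := by
        rw [hA]
        linarith [norm_nonneg a]
  have hℓL : MemLp ℓ 2 μ := MemLp.of_bound hℓm (4 * A) hℓb
  set e : X → F := fun p => h p - h0 p - ℓ p with hee
  have heL : MemLp e 2 μ := (hh.sub hh0).sub hℓL
  set S := ∫ p, ‖h p‖ ^ 2 ∂μ with hS
  -- the moments of `ℓ`
  have hmom : ∀ φ : E → ℝ, Continuous φ → (∀ z, |φ z| ≤ B) →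
      ‖∫ p, φ (x p) • h p ∂μ‖ ≤ B * τ →
      ‖∫ p, φ (x p) • ℓ p ∂μ‖ ≤ B * (τ + √C1 * om + κ * C1) := by
    intro φ hφc hφB hφh
    have hφm : AEStronglyMeasurable (fun p => φ (x p)) μ := hφc.comp_aestronglyMeasurable hx
    have hint : ∀ {g : X → F}, MemLp g 2 μ → Integrable (fun p => φ (x p) • g p) μ := by
      intro g hg
      exact bdd_smul (hg.integrable (by norm_num)) hφm fun p => hφB _
    have e1 : ∫ p, φ (x p) • ℓ p ∂μ = ∫ p, φ (x p) • h p ∂μ - ∫ p, φ (x p) • h0 p ∂μ -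
        ∫ p, φ (x p) • e p ∂μ := by
      have j1 : Integrable (fun p => φ (x p) • h p - φ (x p) • h0 p) μ := (hint hh).sub (hint hh0)
      rw [← integral_sub (hint hh) (hint hh0), ← integral_sub j1 (hint heL)]
      refine integral_congr_ae (Filter.Eventually.of_forall fun p => ?_)
      simp only [hee]
      rw [← smul_sub, ← smul_sub]
      congr 1
      abel
    have e2 : ‖∫ p, φ (x p) • h0 p ∂μ‖ ≤ B * (√C1 * om) := by
      have a1 : ‖∫ p, φ (x p) • h0 p ∂μ‖ ≤ ∫ p, B * ‖h0 p‖ ∂μ := by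
        refine norm_integral_le_of_norm_le ((hh0.norm.integrable (by norm_num)).const_mul B) ?_
        refine Filter.Eventually.of_forall fun p => ?_
        rw [norm_smul]
        exact mul_le_mul_of_nonneg_right (hφB _) (norm_nonneg _)
      rw [integral_const_mul] at a1
      have a2 : (∫ p, ‖h0 p‖ ∂μ) ^ 2 ≤ μ.real univ * ∫ p, ‖h0 p‖ ^ 2 ∂μ := sq_integral_le hh0.norm
      have a3 : (∫ p, ‖h0 p‖ ∂μ) ^ 2 ≤ C1 * om ^ 2 := a2.trans (by gcongr)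
      have a4 : ∫ p, ‖h0 p‖ ∂μ ≤ √C1 * om := by
        refine abs_le_of_sq_le_sq' (a := ∫ p, ‖h0 p‖ ∂μ) ?_ (by positivity) |>.2
        rw [mul_pow, Real.sq_sqrt hC1]
        exact a3
      exact a1.trans (by gcongr)
    have e3 : ‖∫ p, φ (x p) • e p ∂μ‖ ≤ B * (κ * C1) := by
      have a1 : ‖∫ p, φ (x p) • e p ∂μ‖ ≤ ∫ p, B * κ ∂μ := by
        refine norm_integral_le_of_norm_le (integrable_const _) ?_
        filter_upwards [he] with p hp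
        rw [norm_smul]
        exact mul_le_mul (hφB _) hp (norm_nonneg _) hB.le
      rw [integral_const, smul_eq_mul] at a1
      calc ‖∫ p, φ (x p) • e p ∂μ‖ ≤ μ.real univ * (B * κ) := a1
        _ ≤ C1 * (B * κ) := by gcongr
        _ = _ := by ring
    rw [e1]
    calc ‖∫ p, φ (x p) • h p ∂μ - ∫ p, φ (x p) • h0 p ∂μ - ∫ p, φ (x p) • e p ∂μ‖
        ≤ ‖∫ p, φ (x p) • h p ∂μ‖ + ‖∫ p, φ (x p) • h0 p ∂μ‖ + ‖∫ p, φ (x p) • e p ∂μ‖ :=
          (norm_sub_le _ _).trans (by gcongr; exact norm_sub_le _ _)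
      _ ≤ B * τ + B * (√C1 * om) + B * (κ * C1) := by gcongr
      _ = _ := by ring
  -- scaled test functions
  have hsc : ∀ φ : E → ℝ, ContDiff ℝ ∞ (fun z => B⁻¹ * φ z) →
      tsupport (fun z => B⁻¹ * φ z) ⊆ ball 0 4 →
      (∀ j ≤ K, ∀ z, ‖iteratedFDeriv ℝ j (fun z => B⁻¹ * φ z) z‖ ≤ 1) →
      ‖∫ p, φ (x p) • h p ∂μ‖ ≤ B * τ := by
    intro φ g1 g2 g3
    have g4 := hmean _ g1 g2 g3
    have g5 : ∫ p, (B⁻¹ * φ (x p)) • h p ∂μ = B⁻¹ • ∫ p, φ (x p) • h p ∂μ := by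
      rw [← integral_smul]
      refine integral_congr_ae (Filter.Eventually.of_forall fun p => ?_)
      simp only [mul_smul]
    rw [g5, norm_smul, norm_inv, Real.norm_of_nonneg hB.le] at g4
    rwa [inv_mul_le_iff₀ hB] at g4
  set M := B * (τ + √C1 * om + κ * C1) with hM
  have hM0 : ‖∫ p, ζ (x p) • ℓ p ∂μ‖ ≤ M :=
    hmom ζ hζc (fun z => by rw [abs_of_nonneg (hζ0 z)]; exact hζB z) (hsc ζ hT0.1 hT0.2.1 hT0.2.2)
  have hMi : ∀ i, ‖∫ p, (ζ (x p) * inner ℝ (b i) (x p)) • ℓ p ∂μ‖ ≤ M := fun i =>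
    hmom (fun z => ζ z * inner ℝ (b i) z) (hζc.mul (continuous_const.inner continuous_id))
      (hζiB i) (hsc _ (hTi i).1 (hTi i).2.1 (hTi i).2.2)
  -- the quadratic form
  have hquad : ∫ p, ζ (x p) * ‖ℓ p‖ ^ 2 ∂μ ≤ (1 + (Module.finrank ℝ E : ℝ)) * A * M := by
    have hζm : AEStronglyMeasurable (fun p => ζ (x p)) μ := hζc.comp_aestronglyMeasurable hx
    have i0 : Integrable (fun p => ζ (x p) • ℓ p) μ :=
      bdd_smul (hℓL.integrable (by norm_num)) hζm (B := B) fun p => by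
          rw [abs_of_nonneg (hζ0 _)]
          exact hζB _
    have ii : ∀ i, Integrable (fun p => (ζ (x p) * inner ℝ (b i) (x p)) • ℓ p) μ := fun i => by
      have hc : Continuous fun z : E => ζ z * inner ℝ (b i) z :=
        hζc.mul (continuous_const.inner continuous_id)
      exact bdd_smul (hℓL.integrable (by norm_num)) (hc.comp_aestronglyMeasurable hx) (B := B)
        fun p => hζiB i _
    have e1 : ∀ p, ζ (x p) * ‖ℓ p‖ ^ 2 = inner ℝ a (ζ (x p) • ℓ p) +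
        ∑ i, inner ℝ (L (b i)) ((ζ (x p) * inner ℝ (b i) (x p)) • ℓ p) := by
      intro p
      have e2 : L (x p) = ∑ i, (inner ℝ (b i) (x p)) • L (b i) := by
        conv_lhs => rw [← b.sum_repr' (x p)]
        rw [map_sum]
        simp
      have e3 : ‖ℓ p‖ ^ 2 = inner ℝ a (ℓ p) + ∑ i, inner ℝ (b i) (x p) * inner ℝ (L (b i)) (ℓ p) := by
        rw [← real_inner_self_eq_norm_sq]
        conv_lhs =>
          lhs
          rw [hℓ]
        simp only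
        rw [inner_add_left, e2, sum_inner]
        congr 1
        refine Finset.sum_congr rfl fun i _ => ?_
        rw [inner_smul_left]
        rfl
      rw [e3, mul_add, Finset.mul_sum]
      congr 1
      · rw [inner_smul_right]
      · refine Finset.sum_congr rfl fun i _ => ?_
        rw [inner_smul_right]
        ring
    have e4 : ∫ p, ζ (x p) * ‖ℓ p‖ ^ 2 ∂μ = inner ℝ a (∫ p, ζ (x p) • ℓ p ∂μ) +
        ∑ i, inner ℝ (L (b i)) (∫ p, (ζ (x p) * inner ℝ (b i) (x p)) • ℓ p ∂μ) := by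
      simp_rw [e1]
      rw [integral_add (i0.const_inner a) (integrable_finsetSum _ fun i _ => (ii i).const_inner _),
        integral_finsetSum _ fun i _ => (ii i).const_inner _]
      rw [integral_inner i0]
      congr 1
      refine Finset.sum_congr rfl fun i _ => ?_
      rw [integral_inner (ii i)]
    rw [e4]
    have e5 : inner ℝ a (∫ p, ζ (x p) • ℓ p ∂μ) ≤ ‖a‖ * M :=
      (real_inner_le_norm _ _).trans (by gcongr)
    have e6 : ∀ i, inner ℝ (L (b i)) (∫ p, (ζ (x p) * inner ℝ (b i) (x p)) • ℓ p ∂μ) ≤ ‖L‖ * M := by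
      intro i
      refine (real_inner_le_norm _ _).trans ?_
      have : ‖L (b i)‖ ≤ ‖L‖ := by
        have := L.le_opNorm (b i)
        rwa [b.norm_eq_one, mul_one] at this
      exact mul_le_mul this (hMi i) (norm_nonneg _) (norm_nonneg _)
    have e7 : ∑ i, inner ℝ (L (b i)) (∫ p, (ζ (x p) * inner ℝ (b i) (x p)) • ℓ p ∂μ) ≤
        (Module.finrank ℝ E : ℝ) * (‖L‖ * M) := by
      calc _ ≤ ∑ _i : Fin (Module.finrank ℝ E), ‖L‖ * M := Finset.sum_le_sum fun i _ => e6 i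
        _ = _ := by simp
    have hM00 : 0 ≤ M := (norm_nonneg _).trans hM0
    have : (1 + (Module.finrank ℝ E : ℝ)) * A * M = ‖a‖ * M + (Module.finrank ℝ E : ℝ) * (‖L‖ * M) +
        (‖L‖ * M + (Module.finrank ℝ E : ℝ) * (‖a‖ * M)) := by
      rw [hA]; ring
    rw [this]
    have h9 : 0 ≤ ‖L‖ * M + (Module.finrank ℝ E : ℝ) * (‖a‖ * M) := by positivity
    linarith
  have hlow2 : c0 * A ^ 2 ≤ (1 + (Module.finrank ℝ E : ℝ)) * A * M := by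
    refine hlow.trans (le_trans ?_ hquad)
    have hζm : AEStronglyMeasurable (fun p => ζ (x p)) μ := hζc.comp_aestronglyMeasurable hx
    have hsq : Integrable (fun p => ‖ℓ p‖ ^ 2) μ := hℓL.norm.integrable_sq
    refine integral_mono_of_nonneg ?_ ?_ ?_
    · exact Filter.Eventually.of_forall fun p => indicator_nonneg (fun p _ => by positivity) p
    · refine hsq.bdd_mul (c := B) hζm (Filter.Eventually.of_forall fun p => ?_)
      rw [Real.norm_of_nonneg (hζ0 _)]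
      exact hζB _
    · refine Filter.Eventually.of_forall fun p => ?_
      by_cases hp : ‖x p‖ < 1
      · simp only [indicator, mem_ofPred_eq, hp, if_true, hζ1 _ hp, one_mul]
        exact le_rfl
      · simp only [indicator, mem_ofPred_eq, hp, if_false]
        exact mul_nonneg (hζ0 _) (by positivity)
  have h3 : S ≤ 3 * (om ^ 2 + 16 * A ^ 2 * C1 + κ ^ 2 * C1) := by
    have a1 : ∀ p, ‖h p‖ ^ 2 ≤ 3 * (‖h0 p‖ ^ 2 + ‖ℓ p‖ ^ 2 + ‖e p‖ ^ 2) := by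
      intro p
      have e1 : h p = h0 p + ℓ p + e p := by
        simp only [hee]
        abel
      have e2 : ‖h p‖ ≤ ‖h0 p‖ + ‖ℓ p‖ + ‖e p‖ := by
        conv_lhs => rw [e1]
        exact norm_add₃_le
      have e3 : ‖h p‖ ^ 2 ≤ (‖h0 p‖ + ‖ℓ p‖ + ‖e p‖) ^ 2 := by gcongr
      exact e3.trans (sq3 _ _ _)
    have i1 := hh0.norm.integrable_sq
    have i2 := hℓL.norm.integrable_sq
    have i3 := heL.norm.integrable_sq
    have a2 : S ≤ ∫ p, 3 * (‖h0 p‖ ^ 2 + ‖ℓ p‖ ^ 2 + ‖e p‖ ^ 2) ∂μ :=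
      integral_mono hh.norm.integrable_sq (((i1.add i2).add i3).const_mul 3) a1
    have a3 : ∫ p, 3 * (‖h0 p‖ ^ 2 + ‖ℓ p‖ ^ 2 + ‖e p‖ ^ 2) ∂μ =
        3 * (∫ p, ‖h0 p‖ ^ 2 ∂μ + ∫ p, ‖ℓ p‖ ^ 2 ∂μ + ∫ p, ‖e p‖ ^ 2 ∂μ) := by
      have i12 : Integrable (fun p => ‖h0 p‖ ^ 2 + ‖ℓ p‖ ^ 2) μ := i1.add i2
      rw [integral_const_mul, integral_add i12 i3, integral_add i1 i2]
    have a4 : ∫ p, ‖ℓ p‖ ^ 2 ∂μ ≤ 16 * A ^ 2 * C1 := by
      calc ∫ p, ‖ℓ p‖ ^ 2 ∂μ ≤ ∫ _p, (4 * A) ^ 2 ∂μ := by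
            refine integral_mono_ae i2 (integrable_const _) ?_
            filter_upwards [hℓb] with p hp
            exact pow_le_pow_left₀ (norm_nonneg _) hp 2
        _ = μ.real univ * (4 * A) ^ 2 := by rw [integral_const, smul_eq_mul]
        _ ≤ C1 * (4 * A) ^ 2 := by gcongr
        _ = _ := by ring
    have a5 : ∫ p, ‖e p‖ ^ 2 ∂μ ≤ κ ^ 2 * C1 := by
      calc ∫ p, ‖e p‖ ^ 2 ∂μ ≤ ∫ _p, κ ^ 2 ∂μ := by
            refine integral_mono_ae i3 (integrable_const _) ?_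
            filter_upwards [he] with p hp
            exact pow_le_pow_left₀ (norm_nonneg _) hp 2
        _ = μ.real univ * κ ^ 2 := by rw [integral_const, smul_eq_mul]
        _ ≤ C1 * κ ^ 2 := by gcongr
        _ = _ := by ring
    rw [a3] at a2
    linarith
  exact alg hc0 hC1 hB hA0 hom hκ hτ hlow2 le_rfl h3

/-- **F9-FL, pure part**, mean error relative to the height excess -/
theorem fl1 (K : ℕ) {C1 c0 : ℝ} (hC1 : 0 ≤ C1) (hc0 : 0 < c0) : ∃ θ0 C : ℝ, 0 < θ0 ∧ 0 < C ∧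
    ∀ {X : Type*} [MeasurableSpace X] (μ : Measure X) [IsFiniteMeasure μ] (x : X → E) (h h0 : X → F)
      (a : F) (L : E →L[ℝ] F) (κ om θ : ℝ), AEStronglyMeasurable x μ → MemLp h 2 μ → MemLp h0 2 μ →
      μ.real univ ≤ C1 → (∀ᵐ p ∂μ, ‖x p‖ ≤ 4) → 0 ≤ κ → 0 ≤ om → 0 ≤ θ → θ ≤ θ0 →
      (∀ᵐ p ∂μ, ‖h p - h0 p - (a + L (x p))‖ ≤ κ) → ∫ p, ‖h0 p‖ ^ 2 ∂μ ≤ om ^ 2 →
      c0 * (‖a‖ + ‖L‖) ^ 2 ≤ ∫ p, indicator {p | ‖x p‖ < 1} (fun p => ‖a + L (x p)‖ ^ 2) p ∂μ →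
      (∀ ζ : E → ℝ, ContDiff ℝ ∞ ζ → tsupport ζ ⊆ ball 0 4 →
        (∀ j ≤ K, ∀ z, ‖iteratedFDeriv ℝ j ζ z‖ ≤ 1) →
        ‖∫ p, ζ (x p) • h p ∂μ‖ ^ 2 ≤ θ ^ 2 * ∫ p, ‖h p‖ ^ 2 ∂μ) →
      ∫ p, ‖h p‖ ^ 2 ∂μ ≤ C * (om ^ 2 + κ ^ 2) := by
  obtain ⟨C, hC, key⟩ := fl1t (E := E) (F := F) K hC1 hc0
  refine ⟨(1 + 2 * C)⁻¹, 2 * C, by positivity, by positivity, ?_⟩
  intro X _ μ _ x h h0 a L κ om θ hx hh hh0 hμ hx4 hκ hom hθ hθ0 he hflat hlow hmean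
  have hS0 : 0 ≤ ∫ p, ‖h p‖ ^ 2 ∂μ := integral_nonneg fun p => by positivity
  have h1 := key μ x h h0 a L κ om (θ * √(∫ p, ‖h p‖ ^ 2 ∂μ)) hx hh hh0 hμ hx4 hκ hom
    (by positivity) he hflat hlow (fun ζ g1 g2 g3 => by
      refine (abs_le_of_sq_le_sq' ?_ (by positivity)).2
      rw [mul_pow, Real.sq_sqrt hS0]
      exact hmean ζ g1 g2 g3)
  rw [mul_pow, Real.sq_sqrt hS0] at h1
  have h2 : 2 * C * θ ^ 2 ≤ 1 := inv_aux (by positivity) hθ hθ0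
  nlinarith

end Crest.Agent.R234.FL1_567
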