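import Crest.Agent.R234.FL1_567
import Crest.Agent.R234.Pers2_540
import Crest.Agent.R234.Main2_456
import Crest.Agent.R234.Al7_182

/-!
# R234 (helper567), node F9-FL, part 2: V level

* `cacc` : tilt in `closedBall x r` by height in `closedBall x (2r)`;
* `persist` : a flat stationary varifold has mass near every point `x + ξ` of the plane, `|ξ| ≤ r/2`;
* `lowP`, `lowπ` : no concentration on hyperplanes (second moments bounded below);
* `fl2` : flat + small mean error relative to the graph of `u` + `u` almost affine ⟹ small height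
  excess over the graph of `u`.
-/

set_option autoImplicit false
set_option linter.unusedVariables false
set_option linter.unusedSectionVars false

open MeasureTheory Filter Topology Set
open scoped ENNReal NNReal ContDiff
open Crest.GeometryTopology.Submanifold Crest.Agent.R234.Vf_884
open Crest.Agent.R234.Strat3_842 (tilt height)

noncomputable section

namespace Crest.Agent.R234.FL2_567

variable {m n k : ℕ} {U : Set (Euc k)} {V : Measure (Euc k × L k)}

/-- scaled bump functions: `1` on `closedBall x (a r)`, supported in `closedBall x (b r)`. -/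
theorem exists_cut (k : ℕ) {a b : ℝ} (ha : 0 < a) (hab : a < b) : ∃ M : ℝ, 0 < M ∧
    ∀ (x : Euc k) {r : ℝ}, 0 < r → ∃ f : Euc k → ℝ, ContDiff ℝ ∞ f ∧ HasCompactSupport f ∧
      tsupport f ⊆ Metric.closedBall x (b * r) ∧ (∀ z, 0 ≤ f z) ∧ (∀ z, f z ≤ 1) ∧
      (∀ z ∈ Metric.closedBall x (a * r), f z = 1) ∧ (∀ z, f z ≠ 0 → z ∈ Metric.ball x (b * r)) ∧
      ∀ z, ‖fderiv ℝ f z‖ ≤ M / r := by
  let g : ContDiffBump (0 : Euc k) := ⟨a, b, ha, hab⟩
  have hgc : ContDiff ℝ ∞ g := g.contDiff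
  have hg1 : Continuous (fderiv ℝ g) := hgc.continuous_fderiv (by norm_num)
  obtain ⟨M, hM⟩ := (g.hasCompactSupport.fderiv (𝕜 := ℝ)).exists_bound_of_continuous hg1
  refine ⟨max M 1, by positivity, fun x r hr => ?_⟩
  have hsub : ∀ z : Euc k, ‖r⁻¹ • (z - x)‖ = r⁻¹ * ‖z - x‖ := fun z => by
    rw [norm_smul, norm_inv, Real.norm_of_nonneg hr.le]
  have hsup : ∀ z, g (r⁻¹ • (z - x)) ≠ 0 → z ∈ Metric.ball x (b * r) := by
    intro z hz
    have h1 : r⁻¹ • (z - x) ∈ Metric.ball (0 : Euc k) b := by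
      have : r⁻¹ • (z - x) ∈ Function.support g := hz
      rwa [g.support_eq] at this
    rw [mem_ball_zero_iff, hsub, inv_mul_lt_iff₀ hr] at h1
    rw [Metric.mem_ball, dist_eq_norm]
    linarith
  have hts : tsupport (fun z => g (r⁻¹ • (z - x))) ⊆ Metric.closedBall x (b * r) := by
    refine closure_minimal (fun z hz => ?_) Metric.isClosed_closedBall
    exact Metric.ball_subset_closedBall (hsup z hz)
  refine ⟨fun z => g (r⁻¹ • (z - x)), ?_, ?_, hts, fun z => g.nonneg, fun z => g.le_one, ?_, hsup, ?_⟩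
  · exact hgc.comp ((contDiff_id.sub contDiff_const).const_smul r⁻¹)
  · exact HasCompactSupport.of_support_subset_isCompact (isCompact_closedBall x (b * r))
      (subset_closure.trans hts)
  · intro z hz
    refine g.one_of_mem_closedBall ?_
    rw [mem_closedBall_zero_iff, hsub, inv_mul_le_iff₀ hr]
    rw [Metric.mem_closedBall, dist_eq_norm] at hz
    change ‖z - x‖ ≤ r * a
    linarith
  · intro z
    have h1 : HasFDerivAt (fun z : Euc k => r⁻¹ • (z - x)) (r⁻¹ • ContinuousLinearMap.id ℝ (Euc k)) z :=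
      ((hasFDerivAt_id z).sub_const x).const_smul r⁻¹
    have h2 := ((hgc.differentiable (by norm_num)) (r⁻¹ • (z - x))).hasFDerivAt.comp z h1
    have h3 : fderiv ℝ (fun z => g (r⁻¹ • (z - x))) z = (fderiv ℝ g (r⁻¹ • (z - x))) ∘L
        (r⁻¹ • ContinuousLinearMap.id ℝ (Euc k)) := h2.fderiv
    rw [h3]
    calc ‖(fderiv ℝ g (r⁻¹ • (z - x))) ∘L (r⁻¹ • ContinuousLinearMap.id ℝ (Euc k))‖
        ≤ ‖fderiv ℝ g (r⁻¹ • (z - x))‖ * ‖r⁻¹ • ContinuousLinearMap.id ℝ (Euc k)‖ :=
          ContinuousLinearMap.opNorm_comp_le _ _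
      _ ≤ (max M 1) * (r⁻¹ * 1) := by
          gcongr
          · exact (hM _).trans (le_max_left _ _)
          · rw [norm_smul, norm_inv, Real.norm_of_nonneg hr.le]
            gcongr
            exact ContinuousLinearMap.norm_id_le
      _ = max M 1 / r := by rw [mul_one, div_eq_mul_inv]

theorem prod_univ (S : Set (Euc k)) : S ×ˢ (univ : Set (L k)) = Prod.fst ⁻¹' S := by
  ext p; simp

/-- the tilt excess by the height excess -/
theorem cacc (k : ℕ) : ∃ C : ℝ, 0 < C ∧ ∀ {m : ℕ} {U : Set (Euc k)} {V : Measure (Euc k × L k)},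
    Stat m k U V → ∀ {x : Euc k} {r : ℝ}, 0 < r → Metric.closedBall x (2 * r) ⊆ U →
    ∀ {P : L k}, P ∈ G m k →
      ∫ p in Metric.closedBall x r ×ˢ univ, tilt P p ∂V ≤
        C / r ^ 2 * ∫ p in Metric.closedBall x (2 * r) ×ˢ univ, height P x p ∂V := by
  obtain ⟨M, hM, hcut⟩ := exists_cut k (a := 1) (b := 2) one_pos one_lt_two
  refine ⟨4 * M ^ 2, by positivity, ?_⟩
  intro m U V hV x r hr hU P hP
  obtain ⟨η, h1, h2, h3, h4, h5, h6, h7, h8⟩ := hcut x hr
  have hq : Cacc_113.IsPr (1 - P) := (Al7_182.isPr_of_G hP).compl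
  have key := (Al7_182.st_of_stat hV).caccioppoli (h1.of_le (by exact_mod_cast le_top)) h2
    (h3.trans hU) hq x
  have hKm : MeasurableSet (Metric.closedBall x r ×ˢ (univ : Set (L k))) :=
    measurableSet_closedBall.prod MeasurableSet.univ
  have hKm2 : MeasurableSet (Metric.closedBall x (2 * r) ×ˢ (univ : Set (L k))) :=
    measurableSet_closedBall.prod MeasurableSet.univ
  have hc2 : IsCompact (Metric.closedBall x (2 * r)) := isCompact_closedBall _ _
  have hfin2 := hV.fin _ hc2 hU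
  -- left-hand side
  have hl : ∫ p in Metric.closedBall x r ×ˢ univ, tilt P p ∂V ≤
      ∫ z, η z.1 ^ 2 * Cacc_113.tr ((1 - P) ∘L z.2) ∂V := by
    rw [← integral_indicator hKm]
    refine integral_mono_of_nonneg ?_ ?_ ?_
    · filter_upwards [hV.conc] with p hp
      exact indicator_apply_nonneg fun _ => Pers_540.tilt_nonneg hp hP
    · refine (Al7_182.st_of_stat hV).integrable ?_ hc2 hU ?_
      · exact ((h1.continuous.comp continuous_fst).pow 2).mul
          (Pers_540.continuous_tilt P)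
      · intro z hz
        have : η z.1 = 0 := by
          by_contra h
          exact hz (Metric.ball_subset_closedBall (h7 z.1 h))
        rw [this]; simp
    · filter_upwards [hV.conc] with p hp
      have e : Cacc_113.tr ((1 - P) ∘L p.2) = tilt P p := rfl
      rw [e]
      have h0 : 0 ≤ tilt P p := Pers_540.tilt_nonneg hp hP
      by_cases hpK : p ∈ Metric.closedBall x r ×ˢ (univ : Set (L k))
      · rw [indicator_of_mem hpK, h6 p.1 (by rw [one_mul]; exact hpK.1)]
        simp
      · rw [indicator_of_notMem hpK]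
        positivity
  -- right-hand side
  have hr' : 4 * ∫ z, ‖fderiv ℝ η z.1‖ ^ 2 * ‖(1 - P) (z.1 - x)‖ ^ 2 ∂V ≤
      4 * M ^ 2 / r ^ 2 * ∫ p in Metric.closedBall x (2 * r) ×ˢ univ, height P x p ∂V := by
    rw [← integral_indicator hKm2]
    have hi : Integrable (indicator (Metric.closedBall x (2 * r) ×ˢ univ) (height P x)) V := by
      rw [integrable_indicator_iff hKm2]
      have hcont : Continuous (height P x) := by
        unfold height
        exact ((((continuous_fst.sub continuous_const).sub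
          (P.continuous.comp (continuous_fst.sub continuous_const))).norm).pow 2)
      obtain ⟨B, hB⟩ := hc2.exists_bound_of_continuousOn
        (f := fun z : Euc k => ‖(z - x) - P (z - x)‖ ^ 2) (by fun_prop)
      refine Measure.integrableOn_of_bounded (M := B) hfin2.ne hcont.aestronglyMeasurable ?_
      filter_upwards [ae_restrict_mem hKm2] with p hp
      exact hB p.1 hp.1
    have hle : ∫ z, ‖fderiv ℝ η z.1‖ ^ 2 * ‖(1 - P) (z.1 - x)‖ ^ 2 ∂V ≤
        ∫ z, M ^ 2 / r ^ 2 * indicator (Metric.closedBall x (2 * r) ×ˢ univ) (height P x) z ∂V := by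
      refine integral_mono_of_nonneg (Eventually.of_forall fun z => by positivity) (hi.const_mul _)
        (Eventually.of_forall fun z => ?_)
      beta_reduce
      by_cases hz : z ∈ Metric.closedBall x (2 * r) ×ˢ (univ : Set (L k))
      · rw [indicator_of_mem hz]
        have e1 : ‖(1 - P) (z.1 - x)‖ ^ 2 = height P x z := rfl
        rw [e1]
        have e2 : ‖fderiv ℝ η z.1‖ ^ 2 ≤ M ^ 2 / r ^ 2 := by
          rw [← div_pow]
          exact pow_le_pow_left₀ (norm_nonneg _) (h8 z.1) 2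
        have e3 : 0 ≤ height P x z := by unfold height; positivity
        exact mul_le_mul_of_nonneg_right e2 e3
      · rw [indicator_of_notMem hz, mul_zero]
        have : fderiv ℝ η z.1 = 0 := by
          by_contra h
          apply hz
          refine ⟨h3 ?_, mem_univ _⟩
          exact support_fderiv_subset ℝ h
        rw [this]
        simp
    rw [integral_const_mul] at hle
    calc 4 * ∫ z, ‖fderiv ℝ η z.1‖ ^ 2 * ‖(1 - P) (z.1 - x)‖ ^ 2 ∂V
        ≤ 4 * (M ^ 2 / r ^ 2 * ∫ z, indicator (Metric.closedBall x (2 * r) ×ˢ univ)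
            (height P x) z ∂V) := by gcongr
      _ = _ := by ring
  exact hl.trans (key.trans hr')

theorem norm_le_one_of_G {P : L k} (hP : P ∈ G m k) (v : Euc k) : ‖P v‖ ≤ ‖v‖ :=
  (Al7_182.isPr_of_G hP).norm_le v

/-- **persistence of mass along the plane** -/
theorem persist (m k : ℕ) {Λ c : ℝ} (hΛ : 0 ≤ Λ) (hc : 0 < c) : ∃ ε : ℝ, 0 < ε ∧
    ∀ {U : Set (Euc k)} {V : Measure (Euc k × L k)}, Stat m k U V → ∀ {x : Euc k} {r : ℝ}, 0 < r →
    Metric.closedBall x (2 * r) ⊆ U →
    V.real (Metric.closedBall x r ×ˢ univ) ≤ Λ * r ^ m →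
    c * r ^ m ≤ V.real (Metric.closedBall x (r / 32) ×ˢ univ) → ∀ {P : L k}, P ∈ G m k →
    ∫ p in Metric.closedBall x (2 * r) ×ˢ univ, height P x p ∂V ≤ ε * r ^ (m + 2) →
    ∀ ξ : Euc k, P ξ = ξ → ‖ξ‖ ≤ r / 2 →
      c / 2 * r ^ m ≤ V.real (Metric.ball (x + ξ) (r / 16) ×ˢ univ) := by
  obtain ⟨M, hM, hcut⟩ := exists_cut k (a := 1 / 32) (b := 1 / 16) (by norm_num) (by norm_num)
  obtain ⟨C, hC, hcacc⟩ := cacc k
  refine ⟨c ^ 2 / (2 * M ^ 2 * Λ * C + 1), by positivity, ?_⟩
  intro U V hV x r hr hU hup hlow P hP hflat ξ hξ hξr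
  set ε := c ^ 2 / (2 * M ^ 2 * Λ * C + 1) with hε
  obtain ⟨f, h1, h2, h3, h4, h5, h6, h7, h8⟩ := hcut x hr
  set K := Metric.closedBall x r with hK
  have hKc : IsCompact K := isCompact_closedBall _ _
  have hKU : K ⊆ U := (Metric.closedBall_subset_closedBall (by linarith)).trans hU
  have hKm : MeasurableSet (K ×ˢ (univ : Set (L k))) :=
    measurableSet_closedBall.prod MeasurableSet.univ
  have hKfin := hV.fin K hKc hKU
  have : IsFiniteMeasure (V.restrict (K ×ˢ (univ : Set (L k)))) := ⟨by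
    rw [Measure.restrict_apply_univ]; exact hKfin⟩
  have hfK : ∀ t ∈ Icc (0:ℝ) 1, ∀ z, f (z - t • ξ) ≠ 0 → z ∈ K := by
    intro t ht z hz
    have := h7 _ hz
    rw [Metric.mem_ball, dist_eq_norm] at this
    rw [hK, Metric.mem_closedBall, dist_eq_norm]
    have e : z - x = (z - t • ξ - x) + t • ξ := by abel
    rw [e]
    refine (norm_add_le _ _).trans ?_
    have : ‖t • ξ‖ ≤ r / 2 := by
      rw [norm_smul, Real.norm_of_nonneg ht.1]
      nlinarith [norm_nonneg ξ, ht.2]
    linarith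
  have htr := Pers_540.trans_close hV (h1.of_le (by exact_mod_cast le_top)) (M := M / r) h8 ξ hKc hKU hfK
  -- the tilt term
  have htilt : ∫ p in K ×ˢ univ, tilt P p ∂V ≤ C / r ^ 2 * (ε * r ^ (m + 2)) :=
    (hcacc hV hr hU hP).trans (by gcongr)
  have hb : Continuous fun p : Euc k × L k => ‖ξ - p.2 ξ‖ :=
    (continuous_const.sub (continuous_snd.clm_apply continuous_const)).norm
  have hmem : MemLp (fun p : Euc k × L k => ‖ξ - p.2 ξ‖) 2 (V.restrict (K ×ˢ univ)) := by
    refine MemLp.of_bound hb.aestronglyMeasurable (2 * ‖ξ‖) ?_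
    filter_upwards [ae_restrict_of_ae hV.conc] with p hp
    rw [norm_norm]
    refine (norm_sub_le _ _).trans ?_
    have := norm_le_one_of_G hp ξ
    linarith
  have hsq : (∫ p in K ×ˢ univ, ‖ξ - p.2 ξ‖ ∂V) ^ 2 ≤
      (Λ * r ^ m) * (2 * ‖ξ‖ ^ 2 * (C / r ^ 2 * (ε * r ^ (m + 2)))) := by
    have a1 := FL1_567.sq_integral_le hmem
    have a2 : (V.restrict (K ×ˢ univ)).real univ = V.real (K ×ˢ univ) := by
      rw [measureReal_restrict_apply_univ]
    rw [a2] at a1
    have a3 : ∫ p in K ×ˢ univ, ‖ξ - p.2 ξ‖ ^ 2 ∂V ≤ ∫ p in K ×ˢ univ, 2 * ‖ξ‖ ^ 2 * tilt P p ∂V := by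
      have i1 : IntegrableOn (fun p => tilt P p) (K ×ˢ univ) V := by
        refine Measure.integrableOn_of_bounded (M := (m : ℝ)) hKfin.ne
          (Pers_540.continuous_tilt P).aestronglyMeasurable ?_
        filter_upwards [ae_restrict_of_ae hV.conc] with p hp
        rw [Real.norm_of_nonneg (Pers_540.tilt_nonneg hp hP)]
        exact Pers_540.tilt_le hp hP
      refine integral_mono_ae hmem.integrable_sq (i1.const_mul _) ?_
      filter_upwards [ae_restrict_of_ae hV.conc] with p hp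
      have e1 := Pers_540.sub_sq_le_tilt hp hP p.1 ξ
      rw [hξ] at e1
      rw [norm_sub_rev]
      linarith
    rw [integral_const_mul] at a3
    calc (∫ p in K ×ˢ univ, ‖ξ - p.2 ξ‖ ∂V) ^ 2
        ≤ V.real (K ×ˢ univ) * ∫ p in K ×ˢ univ, ‖ξ - p.2 ξ‖ ^ 2 ∂V := a1
      _ ≤ (Λ * r ^ m) * (2 * ‖ξ‖ ^ 2 * (C / r ^ 2 * (ε * r ^ (m + 2)))) := by
          refine mul_le_mul hup (a3.trans ?_) (integral_nonneg fun p => by positivity) (by positivity)
          exact mul_le_mul_of_nonneg_left htilt (by positivity)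
  have hmain : M / r * ∫ p in K ×ˢ univ, ‖ξ - p.2 ξ‖ ∂V ≤ c / 2 * r ^ m := by
    have h0 : 0 ≤ ∫ p in K ×ˢ univ, ‖ξ - p.2 ξ‖ ∂V := integral_nonneg fun p => norm_nonneg _
    refine (abs_le_of_sq_le_sq' ?_ (by positivity)).2
    rw [mul_pow]
    calc (M / r) ^ 2 * (∫ p in K ×ˢ univ, ‖ξ - p.2 ξ‖ ∂V) ^ 2
        ≤ (M / r) ^ 2 * ((Λ * r ^ m) * (2 * (r / 2) ^ 2 * (C / r ^ 2 * (ε * r ^ (m + 2))))) := by
          refine mul_le_mul_of_nonneg_left (hsq.trans ?_) (by positivity)
          have : ‖ξ‖ ^ 2 ≤ (r / 2) ^ 2 := pow_le_pow_left₀ (norm_nonneg _) hξr 2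
          have hε0 : 0 < ε := by rw [hε]; positivity
          gcongr
      _ = (M ^ 2 * Λ * C * ε / 2) * (r ^ m) ^ 2 := by
          have hr2 : r ^ (m + 2) = r ^ m * r ^ 2 := pow_add _ _ _
          rw [hr2]
          field_simp
      _ ≤ (c ^ 2 / 4) * (r ^ m) ^ 2 := by
          refine mul_le_mul_of_nonneg_right ?_ (by positivity)
          have : M ^ 2 * Λ * C * ε ≤ c ^ 2 / 2 := by
            rw [hε, mul_div_assoc', div_le_iff₀ (by positivity)]
            nlinarith [sq_nonneg c]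
          linarith
      _ = (c / 2 * r ^ m) ^ 2 := by ring
  -- lower bound of the mass integral
  have hf1 : c * r ^ m ≤ ∫ p, f p.1 ∂V := by
    refine hlow.trans ?_
    have hm' : MeasurableSet (Metric.closedBall x (r / 32) ×ˢ (univ : Set (L k))) :=
      measurableSet_closedBall.prod MeasurableSet.univ
    rw [← integral_indicator_one hm']
    refine integral_mono_of_nonneg (Eventually.of_forall fun p => ?_) ?_
      (Eventually.of_forall fun p => ?_)
    · exact indicator_apply_nonneg fun _ => zero_le_one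
    · refine (Al7_182.st_of_stat hV).integrable (h1.continuous.comp continuous_fst) hKc hKU ?_
      intro z hz
      by_contra h
      exact hz (by simpa using hfK 0 (by simp) z.1 (by simpa using h))
    · by_cases hp : p ∈ Metric.closedBall x (r / 32) ×ˢ (univ : Set (L k))
      · rw [indicator_of_mem hp]
        simp only [Pi.one_apply]
        rw [h6 p.1 (by
          have := hp.1
          rwa [show (1 / 32 : ℝ) * r = r / 32 by ring])]
      · rw [indicator_of_notMem hp]
        exact h4 _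
  have hf2 : ∫ p, f (p.1 - ξ) ∂V ≤ V.real (Metric.ball (x + ξ) (r / 16) ×ˢ univ) := by
    have hm' : MeasurableSet (Metric.ball (x + ξ) (r / 16) ×ˢ (univ : Set (L k))) :=
      measurableSet_ball.prod MeasurableSet.univ
    rw [← integral_indicator_one hm']
    have hsubK : Metric.ball (x + ξ) (r / 16) ⊆ K := by
      intro z hz
      rw [Metric.mem_ball, dist_eq_norm] at hz
      rw [hK, Metric.mem_closedBall, dist_eq_norm]
      have e : z - x = (z - (x + ξ)) + ξ := by abel
      rw [e]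
      exact (norm_add_le _ _).trans (by linarith)
    refine integral_mono_of_nonneg (Eventually.of_forall fun p => h4 _) ?_
      (Eventually.of_forall fun p => ?_)
    · rw [integrable_indicator_iff hm']
      refine integrableOn_const ?_
      exact ((measure_mono (prod_mono hsubK Subset.rfl)).trans_lt hKfin).ne
    · by_cases hp : p ∈ Metric.ball (x + ξ) (r / 16) ×ˢ (univ : Set (L k))
      · rw [indicator_of_mem hp]
        exact h5 _
      · rw [indicator_of_notMem hp]
        refine le_of_eq ?_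
        by_contra h
        apply hp
        have := h7 _ h
        rw [Metric.mem_ball, dist_eq_norm] at this
        refine ⟨?_, mem_univ _⟩
        rw [Metric.mem_ball, dist_eq_norm]
        have e : p.1 - (x + ξ) = p.1 - ξ - x := by abel
        rw [e]
        linarith
  have h9 := (abs_le.1 htr).2
  linarith

/-- an affine map is large somewhere on every ball -/
theorem exists_dir {E F : Type*} [NormedAddCommGroup E] [NormedSpace ℝ E] [NormedAddCommGroup F]
    [NormedSpace ℝ F] (a : F) (T : E →L[ℝ] F) {s : ℝ} (hs : 0 < s) :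
    ∃ w : E, ‖w‖ ≤ 1 ∧ s / (2 + s) * (‖a‖ + ‖T‖) ≤ ‖a + s • T w‖ := by
  have key : ∃ v : E, ‖v‖ ≤ 1 ∧ ‖T‖ / 2 ≤ ‖T v‖ := by
    rcases (norm_nonneg T).eq_or_lt with h | h
    · exact ⟨0, by simp, by rw [← h]; simp⟩
    · obtain ⟨v, hv1, hv2⟩ := T.exists_lt_apply_of_lt_opNorm (r := ‖T‖ / 2) (by linarith)
      exact ⟨v, hv1.le, hv2.le⟩
  obtain ⟨v, hv, hTv⟩ := key
  set p := ‖a + s • T v‖ with hp
  set q := ‖a - s • T v‖ with hq
  have h1 : 2 * ‖a‖ ≤ p + q := by
    have e : (2 : ℝ) • a = (a + s • T v) + (a - s • T v) := by rw [two_smul]; abel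
    have := norm_add_le (a + s • T v) (a - s • T v)
    rw [← e, norm_smul] at this
    simpa using this
  have h2 : 2 * (s * ‖T v‖) ≤ p + q := by
    have e : (2 : ℝ) • (s • T v) = (a + s • T v) - (a - s • T v) := by rw [two_smul]; abel
    have := norm_sub_le (a + s • T v) (a - s • T v)
    rw [← e, norm_smul, norm_smul, Real.norm_of_nonneg hs.le] at this
    simpa using this
  have h3 : s * ‖T‖ ≤ p + q := by nlinarith
  have h4 : 2 * (s / (2 + s) * (‖a‖ + ‖T‖)) ≤ p + q := by
    rw [div_mul_eq_mul_div, mul_div_assoc', div_le_iff₀ (by positivity)]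
    nlinarith [norm_nonneg a, norm_nonneg T]
  rcases le_total q p with h | h
  · exact ⟨v, hv, by linarith⟩
  · refine ⟨-v, by rwa [norm_neg], ?_⟩
    have e : a + s • T (-v) = a - s • T v := by rw [map_neg, smul_neg, sub_eq_add_neg]
    rw [e]
    linarith

theorem low_of_ball {W : Set (Euc k)} {y : Euc k} {s b : ℝ} (hW : Metric.ball y s ⊆ W)
    {g : Euc k × L k → ℝ} (hg0 : ∀ p, 0 ≤ g p) (hgi : IntegrableOn g (W ×ˢ univ) V)
    (hfin : V (Metric.ball y s ×ˢ (univ : Set (L k))) ≠ ⊤)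
    (hg : ∀ p : Euc k × L k, p.1 ∈ Metric.ball y s → b ≤ g p) :
    V.real (Metric.ball y s ×ˢ univ) * b ≤ ∫ p in W ×ˢ univ, g p ∂V := by
  have hm' : MeasurableSet (Metric.ball y s ×ˢ (univ : Set (L k))) :=
    measurableSet_ball.prod MeasurableSet.univ
  have hsub : Metric.ball y s ×ˢ (univ : Set (L k)) ⊆ W ×ˢ univ := prod_mono hW Subset.rfl
  calc V.real (Metric.ball y s ×ˢ univ) * b = ∫ p in Metric.ball y s ×ˢ univ, b ∂V := by
        rw [setIntegral_const, smul_eq_mul]
    _ ≤ ∫ p in Metric.ball y s ×ˢ univ, g p ∂V := by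
        refine setIntegral_mono_on (integrableOn_const hfin) (hgi.mono_set hsub) hm' ?_
        exact fun p hp => hg p hp.1
    _ ≤ _ := setIntegral_mono_set hgi (Eventually.of_forall hg0) hsub.eventuallyLE

/-- mass near every point of the plane at distance at most `r / 2` -/
def Per (m : ℕ) (V : Measure (Euc k × L k)) (P : L k) (x : Euc k) (r c : ℝ) : Prop :=
  ∀ ξ : Euc k, P ξ = ξ → ‖ξ‖ ≤ r / 2 → c * r ^ m ≤ V.real (Metric.ball (x + ξ) (r / 16) ×ˢ univ)

theorem ball_sub {x ξ : Euc k} {r : ℝ} (hr : 0 < r) (hξ : ‖ξ‖ ≤ r / 2) :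
    Metric.ball (x + ξ) (r / 16) ⊆ Metric.closedBall x r := by
  intro z hz
  rw [Metric.mem_ball, dist_eq_norm] at hz
  rw [Metric.mem_closedBall, dist_eq_norm]
  have e : z - x = (z - (x + ξ)) + ξ := by abel
  rw [e]
  exact (norm_add_le _ _).trans (by linarith)

variable {F : Type*} [NormedAddCommGroup F] [NormedSpace ℝ F]

/-- second moments along the plane -/
theorem lowP (hV : Stat m k U V) {x : Euc k} {r c : ℝ} (hr : 0 < r)
    (hU : Metric.closedBall x r ⊆ U) {P : L k} (hP : P ∈ G m k) (hc : 0 ≤ c)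
    (hper : Per m V P x r c) (a : F) (T : Euc k →L[ℝ] F) :
    c / 64 * (‖a‖ + ‖T ∘L P‖) ^ 2 * r ^ m ≤
      ∫ p in Metric.closedBall x r ×ˢ univ, ‖a + r⁻¹ • T (P (p.1 - x))‖ ^ 2 ∂V := by
  obtain ⟨w, hw, hw2⟩ := exists_dir a (T ∘L P) (s := 1 / 2) (by norm_num)
  set ξ : Euc k := (r / 2) • P w with hξ
  have hPξ : P ξ = ξ := by rw [hξ, map_smul, G_idem_apply hP]
  have hξr : ‖ξ‖ ≤ r / 2 := by
    rw [hξ, norm_smul, Real.norm_of_nonneg (by positivity)]
    have := (norm_le_one_of_G hP w).trans hw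
    nlinarith
  have hKfin := hV.fin _ (isCompact_closedBall x r) hU
  have hsub := ball_sub (x := x) hr hξr
  set g : Euc k × L k → ℝ := fun p => ‖a + r⁻¹ • T (P (p.1 - x))‖ ^ 2 with hg
  have hgc : Continuous g := by
    refine Continuous.pow (Continuous.norm (continuous_const.add ?_)) 2
    exact ((T.continuous.comp (P.continuous.comp
      (continuous_fst.sub continuous_const))).const_smul r⁻¹)
  have hgi : IntegrableOn g (Metric.closedBall x r ×ˢ univ) V := by
    refine Measure.integrableOn_of_bounded (M := (‖a‖ + ‖T‖) ^ 2) hKfin.ne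
      hgc.aestronglyMeasurable ?_
    filter_upwards [ae_restrict_mem (measurableSet_closedBall.prod MeasurableSet.univ)] with p hp
    have h1 : ‖p.1 - x‖ ≤ r := by
      have := hp.1
      rwa [Metric.mem_closedBall, dist_eq_norm] at this
    rw [Real.norm_of_nonneg (by positivity)]
    have h2 : ‖r⁻¹ • T (P (p.1 - x))‖ ≤ ‖T‖ := by
      rw [norm_smul, norm_inv, Real.norm_of_nonneg hr.le, inv_mul_le_iff₀ hr]
      calc ‖T (P (p.1 - x))‖ ≤ ‖T‖ * ‖P (p.1 - x)‖ := T.le_opNorm _
        _ ≤ ‖T‖ * r := by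
          gcongr
          exact (norm_le_one_of_G hP _).trans h1
        _ = r * ‖T‖ := mul_comm _ _
    exact pow_le_pow_left₀ (norm_nonneg _) ((norm_add_le _ _).trans (by linarith)) 2
  have hlow := low_of_ball (V := V) hsub (g := g) (fun p => by positivity) hgi
    ((measure_mono (prod_mono hsub Subset.rfl)).trans_lt hKfin).ne
    (b := ((‖a‖ + ‖T ∘L P‖) / 8) ^ 2) (fun p hp => by
      have e1 : a + r⁻¹ • T (P (p.1 - x)) =
          (a + (1 / 2 : ℝ) • (T ∘L P) w) + r⁻¹ • (T ∘L P) (p.1 - (x + ξ)) := by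
        have e2 : p.1 - x = (p.1 - (x + ξ)) + ξ := by abel
        rw [e2, map_add, hPξ, map_add, smul_add, hξ, map_smul, smul_smul]
        have e3 : r⁻¹ * (r / 2) = 1 / 2 := by field_simp
        rw [e3]
        simp only [ContinuousLinearMap.comp_apply]
        abel
      have e4 : ‖r⁻¹ • (T ∘L P) (p.1 - (x + ξ))‖ ≤ ‖T ∘L P‖ / 16 := by
        rw [norm_smul, norm_inv, Real.norm_of_nonneg hr.le, inv_mul_le_iff₀ hr]
        rw [Metric.mem_ball, dist_eq_norm] at hp
        calc ‖(T ∘L P) (p.1 - (x + ξ))‖ ≤ ‖T ∘L P‖ * ‖p.1 - (x + ξ)‖ :=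
              ContinuousLinearMap.le_opNorm _ _
          _ ≤ ‖T ∘L P‖ * (r / 16) := by gcongr
          _ = _ := by ring
      have e5 : (‖a‖ + ‖T ∘L P‖) / 8 ≤ ‖a + r⁻¹ • T (P (p.1 - x))‖ := by
        rw [e1]
        have := norm_sub_le_norm_add (a + (1 / 2 : ℝ) • (T ∘L P) w) (r⁻¹ • (T ∘L P) (p.1 - (x + ξ)))
        have h0 := norm_nonneg a
        have h00 := norm_nonneg (T ∘L P)
        have e6 : (1 / 2 : ℝ) / (2 + 1 / 2) = 1 / 5 := by norm_num
        rw [e6] at hw2
        linarith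
      exact pow_le_pow_left₀ (by positivity) e5 2)
  refine le_trans ?_ hlow
  have hm1 := hper ξ hPξ hξr
  calc c / 64 * (‖a‖ + ‖T ∘L P‖) ^ 2 * r ^ m
      = (c * r ^ m) * ((‖a‖ + ‖T ∘L P‖) / 8) ^ 2 := by ring
    _ ≤ _ := mul_le_mul_of_nonneg_right hm1 (by positivity)

end Crest.Agent.R234.FL2_567
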