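import Crest.Agent.R234.Sw1_733

/-!
# R234 (helper567), node F9-FL, part 3: pure analysis

* `mkE`     : one-dimensional Markov / Landau inequality along a segment;
* `big_ball`: a function with a bounded `J`-th derivative is `≥ M/2` on a ball of radius `c ρ₀`
  inside the unit ball, `A ρ₀^J ≤ M = max f`;
* `tested`  : small tested averages with respect to a measure of lower density (pulled back by a
  map `X`) give a small sup-norm, exponent `J / (J + K + m)`.
-/

set_option autoImplicit false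
set_option linter.unusedVariables false
set_option linter.unusedSectionVars false

open MeasureTheory Set Metric Filter Topology
open scoped ENNReal NNReal ContDiff

noncomputable section

namespace Crest.Agent.R234.FL3_567

/-- coefficients by values. -/
theorem mk0 (J : ℕ) : ∃ C : ℝ, 1 ≤ C ∧ ∀ (a : Fin J → ℝ) (B : ℝ), 0 ≤ B →
    (∀ t ∈ Icc (0:ℝ) 1, |∑ i, a i * t ^ (i : ℕ)| ≤ B) → ∀ i, |a i| ≤ C * B := by
  let v : Fin J → ℝ := fun j => (j : ℝ) / J
  have hinj : Function.Injective v := by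
    intro i j hij
    have hJ : (0 : ℝ) < J := by
      have : 0 < J := Nat.pos_of_ne_zero (by rintro rfl; exact i.elim0)
      exact_mod_cast this
    have h1 : ((i : ℕ) : ℝ) = (j : ℕ) := by
      have : (i : ℝ) / J = (j : ℝ) / J := hij
      field_simp at this
      exact this
    exact Fin.ext (by exact_mod_cast h1)
  have hdet : (Matrix.vandermonde v).det ≠ 0 := Matrix.det_vandermonde_ne_zero_iff.2 hinj
  set W := (Matrix.vandermonde v)⁻¹ with hW
  refine ⟨1 + ∑ i, ∑ j, |W i j|, ?_, ?_⟩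
  · have : 0 ≤ ∑ i, ∑ j, |W i j| := Finset.sum_nonneg fun i _ => Finset.sum_nonneg fun j _ => abs_nonneg _
    linarith
  intro a B hB h i
  have e1 : a = W.mulVec ((Matrix.vandermonde v).mulVec a) := by
    rw [Matrix.mulVec_mulVec, hW, Matrix.nonsing_inv_mul _ (isUnit_iff_ne_zero.2 hdet),
      Matrix.one_mulVec]
  have e2 : ∀ j, |(Matrix.vandermonde v).mulVec a j| ≤ B := by
    intro j
    have hv : v j ∈ Icc (0:ℝ) 1 := by
      have hJ : (0 : ℝ) < J := by
        have : 0 < J := Nat.pos_of_ne_zero (by rintro rfl; exact j.elim0)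
        exact_mod_cast this
      refine ⟨by positivity, ?_⟩
      rw [div_le_one hJ]
      exact_mod_cast j.2.le
    have := h (v j) hv
    refine le_trans (le_of_eq ?_) this
    congr 1
    simp only [Matrix.mulVec, dotProduct, Matrix.vandermonde_apply]
    exact Finset.sum_congr rfl fun i _ => mul_comm _ _
  have e3 : |a i| ≤ ∑ j, |W i j| * B := by
    have : a i = ∑ j, W i j * ((Matrix.vandermonde v).mulVec a) j := by
      conv_lhs => rw [e1]
      rfl
    rw [this]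
    refine (Finset.abs_sum_le_sum_abs _ _).trans (Finset.sum_le_sum fun j _ => ?_)
    rw [abs_mul]
    exact mul_le_mul_of_nonneg_left (e2 j) (abs_nonneg _)
  refine e3.trans ?_
  rw [← Finset.sum_mul]
  refine mul_le_mul_of_nonneg_right ?_ hB
  have : ∑ j, |W i j| ≤ ∑ i, ∑ j, |W i j| := Finset.single_le_sum (f := fun i => ∑ j, |W i j|)
    (fun i _ => Finset.sum_nonneg fun j _ => abs_nonneg _) (Finset.mem_univ i)
  linarith

/-- one-dimensional inequality on the unit interval. -/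
theorem mk1 (J : ℕ) (hJ : 1 ≤ J) : ∃ C : ℝ, 1 ≤ C ∧ ∀ (g : ℝ → ℝ) (M A : ℝ), ContDiff ℝ J g →
    (∀ t ∈ Icc (0:ℝ) 1, |g t| ≤ M) → (∀ t ∈ Icc (0:ℝ) 1, |iteratedDeriv J g t| ≤ A) →
    ∀ t ∈ Icc (0:ℝ) 1, |g t - g 0| ≤ C * (M + A) * t := by
  obtain ⟨C0, hC0, hmk⟩ := mk0 J
  refine ⟨1 + J * C0, by nlinarith [(Nat.cast_nonneg J : (0:ℝ) ≤ J)], ?_⟩
  intro g M A hg hM hA t ht
  obtain ⟨n, rfl⟩ : ∃ n, J = n + 1 := ⟨J - 1, by omega⟩
  have h0 : (0:ℝ) ∈ Icc (0:ℝ) 1 := ⟨le_rfl, zero_le_one⟩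
  have hA0 : 0 ≤ A := (abs_nonneg _).trans (hA 0 h0)
  have hM0 : 0 ≤ M := (abs_nonneg _).trans (hM 0 h0)
  have hu : UniqueDiffOn ℝ (Icc (0:ℝ) 1) := uniqueDiffOn_Icc zero_lt_one
  have hrem : ∀ s ∈ Icc (0:ℝ) 1, |g s - taylorWithinEval g n (Icc 0 1) 0 s| ≤ A * s ^ (n + 1) := by
    intro s hs
    have := taylor_mean_remainder_bound (f := g) (a := 0) (b := 1) (C := A) (x := s) (n := n)
      zero_le_one (by exact_mod_cast hg.contDiffOn) hs (fun y hy => by
        rw [iteratedDerivWithin_eq_iteratedDeriv hu (by exact_mod_cast hg.contDiffAt) hy]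
        exact hA y hy)
    rw [Real.norm_eq_abs, sub_zero] at this
    refine this.trans ?_
    refine div_le_self (by have := hs.1; positivity) ?_
    exact_mod_cast Nat.factorial_pos n
  set a : Fin (n + 1) → ℝ := fun i => ((i : ℕ).factorial : ℝ)⁻¹ *
    iteratedDerivWithin i g (Icc 0 1) 0 with ha
  have hT : ∀ s, taylorWithinEval g n (Icc 0 1) 0 s = ∑ i, a i * s ^ (i : ℕ) := by
    intro s
    rw [taylor_within_apply, ← Fin.sum_univ_eq_sum_range
      (fun k => (((k.factorial : ℝ))⁻¹ * (s - 0) ^ k) • iteratedDerivWithin k g (Icc 0 1) 0) (n + 1)]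
    refine Finset.sum_congr rfl fun i _ => ?_
    rw [ha, sub_zero, smul_eq_mul]
    ring
  have ha0 : a 0 = g 0 := by
    rw [ha]
    simp
  have hai := hmk a (M + A) (by positivity) (fun s hs => by
    rw [← hT]
    have h1 := hrem s hs
    have h2 := hM s hs
    have h3 : A * s ^ (n + 1) ≤ A := mul_le_of_le_one_right hA0 (pow_le_one₀ hs.1 hs.2)
    calc |taylorWithinEval g n (Icc 0 1) 0 s|
        = |g s - (g s - taylorWithinEval g n (Icc 0 1) 0 s)| := by congr 1; ring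
      _ ≤ |g s| + |g s - taylorWithinEval g n (Icc 0 1) 0 s| := abs_sub _ _
      _ ≤ M + A := by linarith)
  have e1 : g t - g 0 = (g t - taylorWithinEval g n (Icc 0 1) 0 t) +
      ∑ i : Fin n, a i.succ * t ^ ((i : ℕ) + 1) := by
    rw [hT, Fin.sum_univ_succ, ha0]
    simp only [Fin.val_zero, pow_zero, mul_one, Fin.val_succ]
    ring
  rw [e1]
  have e2 : |∑ i : Fin n, a i.succ * t ^ ((i : ℕ) + 1)| ≤ n * (C0 * (M + A) * t) := by
    refine (Finset.abs_sum_le_sum_abs _ _).trans ?_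
    have : ∀ i ∈ (Finset.univ : Finset (Fin n)), |a i.succ * t ^ ((i : ℕ) + 1)| ≤ C0 * (M + A) * t := by
      intro i _
      rw [abs_mul, abs_of_nonneg (a := t ^ ((i : ℕ) + 1)) (by have := ht.1; positivity)]
      refine mul_le_mul (hai _) ?_ (by have := ht.1; positivity) (by positivity)
      rw [pow_succ]
      exact mul_le_of_le_one_left ht.1 (pow_le_one₀ ht.1 ht.2)
    refine (Finset.sum_le_card_nsmul _ _ _ this).trans (le_of_eq ?_)
    simp
  have e3 : |g t - taylorWithinEval g n (Icc 0 1) 0 t| ≤ A * t := by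
    refine (hrem t ht).trans (mul_le_mul_of_nonneg_left ?_ hA0)
    rw [pow_succ]
    exact mul_le_of_le_one_left ht.1 (pow_le_one₀ ht.1 ht.2)
  refine (abs_add_le _ _).trans ((add_le_add e3 e2).trans ?_)
  have ht0 := ht.1
  push_cast
  have h5 : A * t ≤ (M + A) * t := by nlinarith
  have h6 : 0 ≤ C0 * (M + A) * t := by positivity
  nlinarith

variable {E : Type*} [NormedAddCommGroup E] [NormedSpace ℝ E]

/-- **one-dimensional Markov / Landau inequality along a segment.** -/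
theorem mkE (J : ℕ) (hJ : 1 ≤ J) : ∃ C : ℝ, 1 ≤ C ∧ ∀ {E : Type*} [NormedAddCommGroup E]
    [NormedSpace ℝ E] (f : E → ℝ) (p v : E) (M A : ℝ), ContDiff ℝ J f →
    (∀ t ∈ Icc (0:ℝ) 1, |f (p + t • v)| ≤ M) →
    (∀ t ∈ Icc (0:ℝ) 1, ‖iteratedFDeriv ℝ J f (p + t • v)‖ ≤ A) →
    ∀ t ∈ Icc (0:ℝ) 1, |f (p + t • v) - f p| ≤ C * (M + A * ‖v‖ ^ J) * t := by
  obtain ⟨C, hC, h⟩ := mk1 J hJ
  refine ⟨C, hC, ?_⟩
  intro E _ _ f p v M A hf hM hA t ht
  have hA0 : 0 ≤ A := (norm_nonneg _).trans (hA 0 ⟨le_rfl, zero_le_one⟩)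
  have hg : ContDiff ℝ J (fun t : ℝ => f (p + t • v)) :=
    hf.comp (contDiff_const.add (contDiff_id.smul contDiff_const))
  have key := h (fun t => f (p + t • v)) M (A * ‖v‖ ^ J) hg hM (fun s hs => by
    have e1 : (fun t : ℝ => f (p + t • v)) =
        (fun z => f (p + z)) ∘ (ContinuousLinearMap.toSpanSingleton ℝ v : ℝ →L[ℝ] E) := by
      funext t
      simp
    have hf' : ContDiff ℝ J (fun z => f (p + z)) := hf.comp (contDiff_const.add contDiff_id)
    rw [← Real.norm_eq_abs, ← norm_iteratedFDeriv_eq_norm_iteratedDeriv, e1,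
      ContinuousLinearMap.iteratedFDeriv_comp_right _ hf' _ le_rfl]
    refine (ContinuousMultilinearMap.norm_compContinuousLinearMap_le _ _).trans ?_
    rw [iteratedFDeriv_comp_add_left, Finset.prod_const, Finset.card_univ, Fintype.card_fin]
    refine mul_le_mul ?_ ?_ (by positivity) hA0
    · simpa using hA s hs
    · refine pow_le_pow_left₀ (norm_nonneg _) ?_ J
      rw [ContinuousLinearMap.norm_toSpanSingleton]) t ht
  simpa using key

/-- **a function is large on a ball near a maximum point.** -/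
theorem big_ball (J : ℕ) (hJ : 1 ≤ J) : ∃ κ : ℝ, 0 < κ ∧ κ ≤ 1 ∧ ∀ {E : Type*}
    [NormedAddCommGroup E] [NormedSpace ℝ E] (f : E → ℝ) (y : E) (M A ρ₀ : ℝ), ContDiff ℝ J f →
    y ∈ closedBall (0:E) 1 → (∀ z ∈ closedBall (0:E) 1, |f z| ≤ M) → f y = M →
    (∀ z ∈ closedBall (0:E) 1, ‖iteratedFDeriv ℝ J f z‖ ≤ A) → 0 < ρ₀ → ρ₀ ≤ 1 →
    A * ρ₀ ^ J ≤ M →
    ∃ y₁ : E, ‖y₁‖ ≤ 1 - κ * ρ₀ ∧ ∀ z ∈ closedBall y₁ (κ * ρ₀), M / 2 ≤ f z := by
  obtain ⟨C, hC, hmk⟩ := mkE J hJ
  refine ⟨(1 / (8 * C)) ^ 2, by positivity, ?_, ?_⟩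
  · rw [sq_le_one_iff_abs_le_one, abs_of_pos (by positivity), div_le_one (by positivity)]
    linarith
  intro E _ _ f y M A ρ₀ hf hy hM hfy hA hρ hρ1 hAM
  have hM0 : 0 ≤ M := (abs_nonneg _).trans (hM 0 (mem_closedBall_self zero_le_one))
  have hA0 : 0 ≤ A := (norm_nonneg _).trans (hA 0 (mem_closedBall_self zero_le_one))
  rw [mem_closedBall_zero_iff] at hy
  set t := 1 / (8 * C) with ht
  have ht0 : 0 < t := by positivity
  have ht1 : t ≤ 1 := by rw [ht, div_le_one (by positivity)]; linarith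
  have htC : C * t = 1 / 8 := by rw [ht]; field_simp
  set a := t * ρ₀ with ha
  have ha0 : 0 < a := by positivity
  have haρ : a ≤ ρ₀ := mul_le_of_le_one_left hρ.le ht1
  have ha1 : a ≤ 1 := haρ.trans hρ1
  -- from `y` to `(1 - a) y`
  have s1 : |f (y + t • (-(ρ₀ • y))) - f y| ≤ M / 4 := by
    have := hmk f y (-(ρ₀ • y)) M A hf (fun s hs => hM _ ?_) (fun s hs => hA _ ?_) t ⟨ht0.le, ht1⟩
    · refine this.trans ?_
      have h1 : ‖-(ρ₀ • y)‖ ≤ ρ₀ := by
        rw [norm_neg, norm_smul, Real.norm_of_nonneg hρ.le]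
        exact mul_le_of_le_one_right hρ.le hy
      have h2 : A * ‖-(ρ₀ • y)‖ ^ J ≤ M :=
        (mul_le_mul_of_nonneg_left (pow_le_pow_left₀ (norm_nonneg _) h1 J) hA0).trans hAM
      have h3 : C * (M + A * ‖-(ρ₀ • y)‖ ^ J) * t = (C * t) * (M + A * ‖-(ρ₀ • y)‖ ^ J) := by ring
      rw [h3, htC]
      linarith
    all_goals
      rw [mem_closedBall_zero_iff]
      have e : y + s • (-(ρ₀ • y)) = (1 - s * ρ₀) • y := by
        rw [smul_neg, smul_smul, sub_smul, one_smul, sub_eq_add_neg]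
      rw [e, norm_smul, Real.norm_of_nonneg (by nlinarith [hs.1, hs.2])]
      have : 0 ≤ s * ρ₀ := mul_nonneg hs.1 hρ.le
      nlinarith [norm_nonneg y, hs.2]
  set y₁ := y + t • (-(ρ₀ • y)) with hy₁
  have ey₁ : y₁ = (1 - a) • y := by
    rw [hy₁, smul_neg, smul_smul, sub_smul, one_smul, sub_eq_add_neg, ha]
  have ny₁ : ‖y₁‖ ≤ 1 - a := by
    rw [ey₁, norm_smul, Real.norm_of_nonneg (by linarith)]
    exact mul_le_of_le_one_right (by linarith) hy
  have hκ : t ^ 2 * ρ₀ = t * a := by rw [ha]; ring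
  have hκa : t ^ 2 * ρ₀ ≤ a := by rw [hκ]; exact mul_le_of_le_one_left ha0.le ht1
  refine ⟨y₁, by linarith, fun z hz => ?_⟩
  rw [mem_closedBall, dist_eq_norm, hκ] at hz
  -- from `y₁` to `z`
  have s2 : |f (y₁ + t • (t⁻¹ • (z - y₁))) - f y₁| ≤ M / 4 := by
    have hv : ‖t⁻¹ • (z - y₁)‖ ≤ a := by
      rw [norm_smul, norm_inv, Real.norm_of_nonneg ht0.le, inv_mul_le_iff₀ ht0]
      exact hz
    have := hmk f y₁ (t⁻¹ • (z - y₁)) M A hf (fun s hs => hM _ ?_) (fun s hs => hA _ ?_) t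
      ⟨ht0.le, ht1⟩
    · refine this.trans ?_
      have h2 : A * ‖t⁻¹ • (z - y₁)‖ ^ J ≤ M :=
        (mul_le_mul_of_nonneg_left (pow_le_pow_left₀ (norm_nonneg _) (hv.trans haρ) J) hA0).trans hAM
      have h3 : C * (M + A * ‖t⁻¹ • (z - y₁)‖ ^ J) * t = (C * t) * (M + A * ‖t⁻¹ • (z - y₁)‖ ^ J) := by
        ring
      rw [h3, htC]
      linarith
    all_goals
      rw [mem_closedBall_zero_iff]
      refine (norm_add_le _ _).trans ?_
      rw [norm_smul, Real.norm_of_nonneg hs.1]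
      have : s * ‖t⁻¹ • (z - y₁)‖ ≤ 1 * a := mul_le_mul hs.2 hv (norm_nonneg _) zero_le_one
      linarith
  have e2 : y₁ + t • (t⁻¹ • (z - y₁)) = z := by
    rw [smul_smul, mul_inv_cancel₀ ht0.ne', one_smul]
    abel
  rw [e2] at s2
  have h1 := (abs_le.1 s1).1
  have h2 := (abs_le.1 s2).1
  rw [hfy] at h1
  linarith

open Crest.Agent.R234.Sw_733 (bs contDiff_bs bs_nonneg bs_le_one bs_eq_one bs_support bs_tsupport
  exists_bp_bound norm_iteratedFDeriv_bs_le)

/-- **small tested averages give a small sup-norm.** -/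
theorem tested (F : Type*) [NormedAddCommGroup F] [InnerProductSpace ℝ F] [FiniteDimensional ℝ F]
    [MeasurableSpace F] [BorelSpace F] (m J K : ℕ) (hJ : 1 ≤ J) {c₀ A : ℝ} (hc₀ : 0 < c₀)
    (hA1 : 1 ≤ A) : ∃ C : ℝ, 0 < C ∧ ∀ {Ω : Type*} [MeasurableSpace Ω] (μ : Measure Ω)
      [IsFiniteMeasure μ] (X : Ω → F) {G : Type*} [NormedAddCommGroup G] [InnerProductSpace ℝ G]
      [CompleteSpace G] (w : F → G) (τ s₀ N : ℝ), Measurable X → ContDiff ℝ J w →
      (∀ z ∈ closedBall (0 : F) 1, ‖w z‖ ≤ A) →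
      (∀ z ∈ closedBall (0 : F) 1, ‖iteratedFDeriv ℝ J w z‖ ≤ A) → 0 ≤ τ → 0 ≤ s₀ → 0 < N →
      (∀ (y : F) (δ : ℝ), s₀ ≤ δ → 0 < δ → δ ≤ 1 → ‖y‖ ≤ 1 - δ →
        c₀ * δ ^ m * N ≤ μ.real (X ⁻¹' closedBall y (δ / 2))) →
      (∀ ζ : F → ℝ, ContDiff ℝ ∞ ζ → tsupport ζ ⊆ ball 0 1 →
        (∀ j ≤ K, ∀ z, ‖iteratedFDeriv ℝ j ζ z‖ ≤ 1) → ‖∫ p, ζ (X p) • w (X p) ∂μ‖ ≤ τ * N) →
      ∀ z ∈ closedBall (0 : F) 1,
        ‖w z‖ ≤ C * (τ ^ ((J : ℝ) / ((J : ℝ) + K + m)) + s₀ ^ J) := by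
  obtain ⟨κ, hκ, hκ1, hbig⟩ := big_ball J hJ
  obtain ⟨Cη, hCη1, hCη⟩ := exists_bp_bound F K
  set C₁ : ℝ := 2 * Cη * (2 / κ) ^ (K + m) / c₀ with hC₁
  have hC₁0 : 0 < C₁ := by positivity
  set γ : ℝ := (J : ℝ) / ((J : ℝ) + K + m) with hγ
  have hJ0 : (0 : ℝ) < J := by exact_mod_cast hJ
  have hKm : (0 : ℝ) < (J : ℝ) + K + m := by positivity
  have hγ0 : 0 < γ := by positivity
  refine ⟨A * (C₁ ^ γ + (2 / κ) ^ J), by positivity, ?_⟩
  intro Ω _ μ _ X G _ _ _ w τ s₀ N hX hw hwA hwJ hτ hs₀ hN hlow htest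
  obtain ⟨y, hy, hmax⟩ := (isCompact_closedBall (0 : F) 1).exists_isMaxOn
    ⟨0, mem_closedBall_self zero_le_one⟩ (hw.continuous.norm.continuousOn)
  set M := ‖w y‖ with hM
  have hmax' : ∀ z ∈ closedBall (0 : F) 1, ‖w z‖ ≤ M := fun z hz => hmax hz
  suffices hfin : M ≤ A * (C₁ ^ γ + (2 / κ) ^ J) * (τ ^ γ + s₀ ^ J) from
    fun z hz => (hmax' z hz).trans hfin
  have hτγ : 0 ≤ τ ^ γ := Real.rpow_nonneg hτ γ
  have hsJ : 0 ≤ s₀ ^ J := by positivity
  have hC₁γ : 0 < C₁ ^ γ := Real.rpow_pos_of_pos hC₁0 γ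
  rcases (norm_nonneg (w y)).eq_or_lt with h0 | hMpos
  · rw [hM, ← h0]; positivity
  rw [← hM] at hMpos
  set e : G := M⁻¹ • w y with he
  have hen : ‖e‖ = 1 := by
    rw [he, norm_smul, norm_inv, Real.norm_of_nonneg hMpos.le, ← hM, inv_mul_cancel₀ hMpos.ne']
  set f : F → ℝ := fun z => innerSL ℝ e (w z) with hf
  have hfc : ContDiff ℝ J f := (innerSL ℝ e).contDiff.comp hw
  have hfle : ∀ z, |f z| ≤ ‖w z‖ := by
    intro z
    have := (innerSL ℝ e).le_opNorm (w z)
    rwa [innerSL_apply_norm, hen, one_mul, Real.norm_eq_abs] at this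
  have hfy : f y = M := by
    change inner ℝ e (w y) = M
    rw [he, real_inner_smul_left, real_inner_self_eq_norm_sq, ← hM]
    field_simp
  have hfJ : ∀ z ∈ closedBall (0 : F) 1, ‖iteratedFDeriv ℝ J f z‖ ≤ A := by
    intro z hz
    have e1 : f = (innerSL ℝ e) ∘ w := rfl
    rw [e1, ContinuousLinearMap.iteratedFDeriv_comp_left _ hw.contDiffAt le_rfl]
    refine (ContinuousLinearMap.norm_compContinuousMultilinearMap_le _ _).trans ?_
    rw [innerSL_apply_norm, hen, one_mul]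
    exact hwJ z hz
  -- the scale
  have hMA : M / A ≤ 1 := by rw [div_le_one (by linarith)]; exact hwA y hy
  have hMA0 : 0 < M / A := by positivity
  set ρ₀ : ℝ := (M / A) ^ ((J : ℝ)⁻¹) with hρ₀
  have hρ : 0 < ρ₀ := Real.rpow_pos_of_pos hMA0 _
  have hρ1 : ρ₀ ≤ 1 := Real.rpow_le_one hMA0.le hMA (by positivity)
  have hρJ : ρ₀ ^ J = M / A := by
    rw [hρ₀, ← Real.rpow_natCast, ← Real.rpow_mul hMA0.le, inv_mul_cancel₀ hJ0.ne', Real.rpow_one]
  have hAρ : A * ρ₀ ^ J = M := by rw [hρJ]; field_simp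
  obtain ⟨y₁, hy₁, hlarge⟩ := hbig f y M A ρ₀ hfc hy (fun z hz => (hfle z).trans (hmax' z hz)) hfy
    hfJ hρ hρ1 hAρ.le
  set δ := κ * ρ₀ / 2 with hδ
  have hδ0 : 0 < δ := by positivity
  have hδ1 : δ ≤ 1 := by
    have : κ * ρ₀ ≤ 1 := mul_le_one₀ hκ1 hρ.le hρ1
    linarith
  have hρδ : ρ₀ = 2 / κ * δ := by rw [hδ]; field_simp
  rcases lt_or_ge δ s₀ with hlt | hge
  · -- tiny
    have h1 : M ≤ A * ((2 / κ) ^ J * s₀ ^ J) := by
      rw [← hAρ, hρδ, mul_pow]
      gcongr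
    refine h1.trans ?_
    have h2 : 0 ≤ A * (C₁ ^ γ * (τ ^ γ + s₀ ^ J) + (2 / κ) ^ J * τ ^ γ) := by positivity
    have h3 : A * (C₁ ^ γ + (2 / κ) ^ J) * (τ ^ γ + s₀ ^ J) = A * ((2 / κ) ^ J * s₀ ^ J) +
      A * (C₁ ^ γ * (τ ^ γ + s₀ ^ J) + (2 / κ) ^ J * τ ^ γ) := by ring
    rw [h3]
    exact le_add_of_nonneg_right h2
  · -- test
    have hCp : 0 < Cη * (δ⁻¹) ^ K := by positivity
    set q : ℝ := (Cη * (δ⁻¹) ^ K)⁻¹ with hq
    have hq0 : 0 < q := inv_pos.2 hCp
    have hq' : q = δ ^ K / Cη := by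
      rw [hq, inv_pow]
      field_simp
    have hζ := htest (fun v => q * bs y₁ δ v) (contDiff_const.mul (contDiff_bs y₁ δ)) ?_ ?_
    · set g : Ω → G := fun p => (q * bs y₁ δ (X p)) • w (X p) with hg
      have hgm : AEStronglyMeasurable g μ := by
        refine StronglyMeasurable.aestronglyMeasurable ?_
        have hc : Continuous fun z : F => (q * bs y₁ δ z) • w z :=
          (continuous_const.mul (contDiff_bs y₁ δ).continuous).smul hw.continuous
        exact hc.comp_stronglyMeasurable hX.stronglyMeasurable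
      have hgb : ∀ p, ‖g p‖ ≤ q * M := by
        intro p
        rw [hg]
        simp only
        rw [norm_smul, Real.norm_of_nonneg (mul_nonneg hq0.le (bs_nonneg _ _ _))]
        by_cases hp : bs y₁ δ (X p) = 0
        · rw [hp]; simp; positivity
        · have h1 : X p ∈ ball y₁ δ := bs_support hδ0 hp
          have h2 : ‖w (X p)‖ ≤ M := by
            refine hmax' _ ?_
            rw [mem_ball, dist_eq_norm] at h1
            rw [mem_closedBall_zero_iff]
            have : ‖X p‖ ≤ ‖X p - y₁‖ + ‖y₁‖ := by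
              calc ‖X p‖ = ‖(X p - y₁) + y₁‖ := by congr 1; abel
                _ ≤ _ := norm_add_le _ _
            have : κ * ρ₀ = 2 * δ := by rw [hδ]; ring
            linarith
          calc q * bs y₁ δ (X p) * ‖w (X p)‖ ≤ q * 1 * M := by
                gcongr
                exact bs_le_one _ _ _
            _ = q * M := by ring
      have hgi : Integrable g μ := Integrable.of_bound hgm (q * M) (Eventually.of_forall hgb)
      have e1 : innerSL ℝ e (∫ p, g p ∂μ) = ∫ p, innerSL ℝ e (g p) ∂μ :=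
        ((innerSL ℝ e).integral_comp_comm hgi).symm
      have e2 : innerSL ℝ e (∫ p, g p ∂μ) ≤ τ * N := by
        refine (le_abs_self _).trans ?_
        have := (innerSL ℝ e).le_opNorm (∫ p, g p ∂μ)
        rw [innerSL_apply_norm, hen, one_mul, Real.norm_eq_abs] at this
        exact this.trans hζ
      have e3 : μ.real (X ⁻¹' closedBall y₁ (δ / 2)) * (q * (M / 2)) ≤ ∫ p, innerSL ℝ e (g p) ∂μ := by
        have hms : MeasurableSet (X ⁻¹' closedBall y₁ (δ / 2)) := hX measurableSet_closedBall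
        have e4 : μ.real (X ⁻¹' closedBall y₁ (δ / 2)) * (q * (M / 2)) =
            ∫ p, indicator (X ⁻¹' closedBall y₁ (δ / 2)) (fun _ => q * (M / 2)) p ∂μ := by
          rw [integral_indicator hms, setIntegral_const, smul_eq_mul]
        rw [e4]
        refine integral_mono_of_nonneg (Eventually.of_forall fun p => ?_)
          ((innerSL ℝ e).integrable_comp hgi) (Eventually.of_forall fun p => ?_)
        · exact indicator_nonneg (fun _ _ => by positivity) p
        · have e5 : innerSL ℝ e (g p) = q * bs y₁ δ (X p) * f (X p) := by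
            rw [hg]
            simp only [map_smul, smul_eq_mul]
            rfl
          simp only
          rw [e5]
          have hin : ∀ v ∈ closedBall y₁ δ, v ∈ closedBall y₁ (κ * ρ₀) := by
            intro v hv
            refine closedBall_subset_closedBall ?_ hv
            rw [hδ]
            nlinarith [mul_pos hκ hρ]
          by_cases hp : p ∈ X ⁻¹' closedBall y₁ (δ / 2)
          · rw [indicator_of_mem hp, bs_eq_one hδ0 hp, mul_one]
            refine mul_le_mul_of_nonneg_left (hlarge _ (hin _ ?_)) hq0.le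
            exact closedBall_subset_closedBall (by linarith) hp
          · rw [indicator_of_notMem hp]
            by_cases hp2 : bs y₁ δ (X p) = 0
            · rw [hp2]; simp
            · have h1 : X p ∈ closedBall y₁ δ := ball_subset_closedBall (bs_support hδ0 hp2)
              have h2 := hlarge _ (hin _ h1)
              have h3 : 0 ≤ f (X p) := le_trans (by positivity) h2
              exact mul_nonneg (mul_nonneg hq0.le (bs_nonneg _ _ _)) h3
      have e6 : c₀ * δ ^ m * N ≤ μ.real (X ⁻¹' closedBall y₁ (δ / 2)) := by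
        refine hlow y₁ δ hge hδ0 hδ1 ?_
        have : κ * ρ₀ = 2 * δ := by rw [hδ]; ring
        linarith
      have e7 : (c₀ * δ ^ m * N) * (q * (M / 2)) ≤ τ * N :=
        ((mul_le_mul_of_nonneg_right e6 (by positivity)).trans e3).trans (e1 ▸ e2)
      have e8 : (c₀ * δ ^ m) * (q * (M / 2)) ≤ τ := by
        have : (c₀ * δ ^ m * N) * (q * (M / 2)) = (c₀ * δ ^ m) * (q * (M / 2)) * N := by ring
        rw [this] at e7
        exact le_of_mul_le_mul_right e7 hN
      have e9 : ρ₀ ^ (J + K + m) ≤ C₁ * τ := by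
        have h1 : ρ₀ ^ (K + m) = (2 / κ) ^ (K + m) * (δ ^ K * δ ^ m) := by
          rw [hρδ, mul_pow, pow_add δ]
        have h2 : (c₀ * δ ^ m) * (δ ^ K / Cη * (ρ₀ ^ J / 2)) ≤ τ := by
          refine le_trans ?_ (hq' ▸ e8)
          have : ρ₀ ^ J ≤ M := by
            rw [← hAρ]
            exact le_mul_of_one_le_left (by positivity) hA1
          gcongr
        calc ρ₀ ^ (J + K + m) = ρ₀ ^ J * ρ₀ ^ (K + m) := by rw [← pow_add, add_assoc]
          _ = C₁ * ((c₀ * δ ^ m) * (δ ^ K / Cη * (ρ₀ ^ J / 2))) := by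
              rw [h1, hC₁]
              field_simp
          _ ≤ C₁ * τ := by gcongr
      have e10 : ρ₀ ^ J ≤ (C₁ * τ) ^ γ := by
        have h1 : (ρ₀ ^ (J + K + m)) ^ γ = ρ₀ ^ J := by
          rw [← Real.rpow_natCast, ← Real.rpow_mul hρ.le, ← Real.rpow_natCast ρ₀ J, hγ]
          congr 1
          push_cast
          field_simp
        rw [← h1]
        exact Real.rpow_le_rpow (by positivity) e9 hγ0.le
      rw [Real.mul_rpow hC₁0.le hτ] at e10
      have h1 : M ≤ A * (C₁ ^ γ * τ ^ γ) := by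
        rw [← hAρ]
        gcongr
      refine h1.trans ?_
      have h2 : 0 ≤ A * (C₁ ^ γ * s₀ ^ J + (2 / κ) ^ J * (τ ^ γ + s₀ ^ J)) := by positivity
      have h3 : A * (C₁ ^ γ + (2 / κ) ^ J) * (τ ^ γ + s₀ ^ J) = A * (C₁ ^ γ * τ ^ γ) +
        A * (C₁ ^ γ * s₀ ^ J + (2 / κ) ^ J * (τ ^ γ + s₀ ^ J)) := by ring
      rw [h3]
      exact le_add_of_nonneg_right h2
    · have h1 : tsupport (fun v => q * bs y₁ δ v) ⊆ tsupport (bs y₁ δ) :=
        closure_mono fun v hv => by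
          rw [Function.mem_support] at hv ⊢
          exact right_ne_zero_of_mul hv
      refine (h1.trans (bs_tsupport hδ0)).trans ?_
      intro v hv
      rw [mem_closedBall, dist_eq_norm] at hv
      rw [mem_ball_zero_iff]
      have h2 : ‖v‖ ≤ ‖v - y₁‖ + ‖y₁‖ := by
        calc ‖v‖ = ‖(v - y₁) + y₁‖ := by congr 1; abel
          _ ≤ _ := norm_add_le _ _
      have : κ * ρ₀ = 2 * δ := by rw [hδ]; ring
      linarith
    · intro j hj z
      have e1 : (fun v => q * bs y₁ δ v) = q • bs y₁ δ := by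
        funext v; simp
      have hcd : ContDiffAt ℝ j (bs y₁ δ) z :=
        ((contDiff_bs y₁ δ).of_le (by exact_mod_cast le_top)).contDiffAt
      rw [e1, iteratedFDeriv_const_smul_apply hcd, norm_smul, Real.norm_of_nonneg hq0.le]
      calc q * ‖iteratedFDeriv ℝ j (bs y₁ δ) z‖ ≤ q * (Cη * (δ⁻¹) ^ K) := by
            gcongr
            exact norm_iteratedFDeriv_bs_le hCη hCη1 y₁ hδ0 hδ1 hj z
        _ = 1 := by rw [hq, inv_mul_cancel₀ hCp.ne']

end Crest.Agent.R234.FL3_567
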