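import Crest.Agent.R234.FL2_567

/-!
# R234 (helper567), node F9-FL, part 4: V level

* `persist2` : persistence of the mass along the plane at small scales `s`;
* `graph_of_flat` : a plane `P` along which `V` has mass, `V` close in mean to the graph of `u`,
  `|Du| ≤ 1/4`, is a graph of slope `≤ 1/2` over the frame;
* `vert_le` : the vertical distance to the graph of the plane is controlled by the normal distance.
-/

set_option autoImplicit false
set_option linter.unusedVariables false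
set_option linter.unusedSectionVars false

open MeasureTheory Filter Topology Set
open scoped ENNReal NNReal ContDiff
open Crest.GeometryTopology.Submanifold Crest.Agent.R234.Vf_884
open Crest.Agent.R234.Strat3_842 (tilt height)
open Crest.Agent.R234.Main_456 (Frame hgt box)
open Crest.Agent.R234.FL2_567

noncomputable section

namespace Crest.Agent.R234.FL4_567

variable {m n k : ℕ} {U : Set (Euc k)} {V : Measure (Euc k × L k)}

/-- **persistence of mass along the plane, small scales.** -/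
theorem persist2 (m k : ℕ) {Λ c : ℝ} (hΛ : 0 ≤ Λ) (hc : 0 < c) : ∃ ε : ℝ, 0 < ε ∧ ε ≤ 1 ∧
    ∀ {U : Set (Euc k)} {V : Measure (Euc k × L k)}, Stat m k U V → ∀ {x : Euc k} {r s : ℝ},
    0 < r → 0 < s → s ≤ r → Metric.closedBall x (4 * r) ⊆ U →
    V.real (Metric.closedBall x (2 * r) ×ˢ univ) ≤ Λ * r ^ m →
    c * s ^ m ≤ V.real (Metric.closedBall x (s / 2) ×ˢ univ) → ∀ {P : L k}, P ∈ G m k →
    ∫ p in Metric.closedBall x (4 * r) ×ˢ univ, height P x p ∂V ≤
      ε * (s / r) ^ (2 * (m + 1)) * r ^ (m + 2) →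
    ∀ ξ : Euc k, P ξ = ξ → ‖ξ‖ ≤ r → c / 2 * s ^ m ≤ V.real (Metric.ball (x + ξ) s ×ˢ univ) := by
  obtain ⟨M, hM, hcut⟩ := exists_cut k (a := 1 / 2) (b := 1) (by norm_num) (by norm_num)
  obtain ⟨C, hC, hcacc⟩ := cacc k
  refine ⟨min 1 (c ^ 2 / (2 * M ^ 2 * Λ * C + 1)), by positivity, min_le_left _ _, ?_⟩
  intro U V hV x r s hr hs hsr hU hup hlow P hP hflat ξ hξ hξr
  set ε := min 1 (c ^ 2 / (2 * M ^ 2 * Λ * C + 1)) with hε
  have hε' : ε ≤ c ^ 2 / (2 * M ^ 2 * Λ * C + 1) := min_le_right _ _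
  have hε0 : 0 < ε := by positivity
  obtain ⟨f, h1, h2, h3, h4, h5, h6, h7, h8⟩ := hcut x hs
  set K := Metric.closedBall x (2 * r) with hK
  have hKc : IsCompact K := isCompact_closedBall _ _
  have hKU : K ⊆ U := (Metric.closedBall_subset_closedBall (by linarith)).trans hU
  have hKm : MeasurableSet (K ×ˢ (univ : Set (L k))) :=
    measurableSet_closedBall.prod MeasurableSet.univ
  have hKfin := hV.fin K hKc hKU
  have : IsFiniteMeasure (V.restrict (K ×ˢ (univ : Set (L k)))) := ⟨by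
    rw [Measure.restrict_apply_univ]; exact hKfin⟩
  have hfK : ∀ t ∈ Icc (0:ℝ) 1, ∀ z, f (z - t • ξ) ≠ 0 → z ∈ K := by
    intro t ht z hz
    have := h7 _ hz
    rw [Metric.mem_ball, dist_eq_norm] at this
    rw [hK, Metric.mem_closedBall, dist_eq_norm]
    have e : z - x = (z - t • ξ - x) + t • ξ := by abel
    rw [e]
    refine (norm_add_le _ _).trans ?_
    have : ‖t • ξ‖ ≤ r := by
      rw [norm_smul, Real.norm_of_nonneg ht.1]
      nlinarith [norm_nonneg ξ, ht.2]
    linarith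
  have htr := Pers_540.trans_close hV (h1.of_le (by exact_mod_cast le_top)) (M := M / s) h8 ξ hKc hKU hfK
  -- the tilt term
  have h4r : (2 : ℝ) * (2 * r) = 4 * r := by ring
  have htilt : ∫ p in K ×ˢ univ, tilt P p ∂V ≤
      C / (2 * r) ^ 2 * (ε * (s / r) ^ (2 * (m + 1)) * r ^ (m + 2)) := by
    have := hcacc hV (x := x) (r := 2 * r) (by positivity) (by rw [h4r]; exact hU) hP
    rw [h4r] at this
    exact this.trans (by gcongr)
  have hb : Continuous fun p : Euc k × L k => ‖ξ - p.2 ξ‖ :=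
    (continuous_const.sub (continuous_snd.clm_apply continuous_const)).norm
  have hmem : MemLp (fun p : Euc k × L k => ‖ξ - p.2 ξ‖) 2 (V.restrict (K ×ˢ univ)) := by
    refine MemLp.of_bound hb.aestronglyMeasurable (2 * ‖ξ‖) ?_
    filter_upwards [ae_restrict_of_ae hV.conc] with p hp
    rw [norm_norm]
    refine (norm_sub_le _ _).trans ?_
    have := norm_le_one_of_G hp ξ
    linarith
  have hsq : (∫ p in K ×ˢ univ, ‖ξ - p.2 ξ‖ ∂V) ^ 2 ≤
      (Λ * r ^ m) * (2 * ‖ξ‖ ^ 2 *
        (C / (2 * r) ^ 2 * (ε * (s / r) ^ (2 * (m + 1)) * r ^ (m + 2)))) := by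
    have a1 := FL1_567.sq_integral_le hmem
    have a2 : (V.restrict (K ×ˢ univ)).real univ = V.real (K ×ˢ univ) := by
      rw [measureReal_restrict_apply_univ]
    rw [a2] at a1
    have a3 : ∫ p in K ×ˢ univ, ‖ξ - p.2 ξ‖ ^ 2 ∂V ≤ ∫ p in K ×ˢ univ, 2 * ‖ξ‖ ^ 2 * tilt P p ∂V := by
      have i1 : IntegrableOn (fun p => tilt P p) (K ×ˢ univ) V := by
        refine Measure.integrableOn_of_bounded (M := (m : ℝ)) hKfin.ne
          (Pers_540.continuous_tilt P).aestronglyMeasurable ?_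
        filter_upwards [ae_restrict_of_ae hV.conc] with p hp
        rw [Real.norm_of_nonneg (Pers_540.tilt_nonneg hp hP)]
        exact Pers_540.tilt_le hp hP
      refine integral_mono_ae hmem.integrable_sq (i1.const_mul _) ?_
      filter_upwards [ae_restrict_of_ae hV.conc] with p hp
      have e1 := Pers_540.sub_sq_le_tilt hp hP p.1 ξ
      rw [hξ] at e1
      rw [norm_sub_rev]
      linarith
    rw [integral_const_mul] at a3
    calc (∫ p in K ×ˢ univ, ‖ξ - p.2 ξ‖ ∂V) ^ 2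
        ≤ V.real (K ×ˢ univ) * ∫ p in K ×ˢ univ, ‖ξ - p.2 ξ‖ ^ 2 ∂V := a1
      _ ≤ _ := by
          refine mul_le_mul hup (a3.trans ?_) (integral_nonneg fun p => by positivity) (by positivity)
          exact mul_le_mul_of_nonneg_left htilt (by positivity)
  have hmain : M / s * ∫ p in K ×ˢ univ, ‖ξ - p.2 ξ‖ ∂V ≤ c / 2 * s ^ m := by
    have h0 : 0 ≤ ∫ p in K ×ˢ univ, ‖ξ - p.2 ξ‖ ∂V := integral_nonneg fun p => norm_nonneg _
    refine (abs_le_of_sq_le_sq' ?_ (by positivity)).2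
    rw [mul_pow]
    calc (M / s) ^ 2 * (∫ p in K ×ˢ univ, ‖ξ - p.2 ξ‖ ∂V) ^ 2
        ≤ (M / s) ^ 2 * ((Λ * r ^ m) * (2 * r ^ 2 *
          (C / (2 * r) ^ 2 * (ε * (s / r) ^ (2 * (m + 1)) * r ^ (m + 2))))) := by
          refine mul_le_mul_of_nonneg_left (hsq.trans ?_) (by positivity)
          have : ‖ξ‖ ^ 2 ≤ r ^ 2 := pow_le_pow_left₀ (norm_nonneg _) hξr 2
          gcongr
      _ = (M ^ 2 * Λ * C * ε / 2) * (s ^ m) ^ 2 := by
          have hr2 : r ^ (m + 2) = r ^ m * r ^ 2 := pow_add _ _ _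
          have hs2 : (s / r) ^ (2 * (m + 1)) = (s ^ m) ^ 2 * s ^ 2 / ((r ^ m) ^ 2 * r ^ 2) := by
            rw [div_pow]
            ring
          rw [hr2, hs2]
          field_simp
          try ring
      _ ≤ (c ^ 2 / 4) * (s ^ m) ^ 2 := by
          refine mul_le_mul_of_nonneg_right ?_ (by positivity)
          have : M ^ 2 * Λ * C * ε ≤ c ^ 2 / 2 := by
            have h9 : M ^ 2 * Λ * C * ε ≤ M ^ 2 * Λ * C * (c ^ 2 / (2 * M ^ 2 * Λ * C + 1)) := by
              gcongr
            refine h9.trans ?_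
            rw [mul_div_assoc', div_le_iff₀ (by positivity)]
            nlinarith [sq_nonneg c]
          linarith
      _ = (c / 2 * s ^ m) ^ 2 := by ring
  -- lower bound of the mass integral
  have hf1 : c * s ^ m ≤ ∫ p, f p.1 ∂V := by
    refine hlow.trans ?_
    have hm' : MeasurableSet (Metric.closedBall x (s / 2) ×ˢ (univ : Set (L k))) :=
      measurableSet_closedBall.prod MeasurableSet.univ
    rw [← integral_indicator_one hm']
    refine integral_mono_of_nonneg (Eventually.of_forall fun p => ?_) ?_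
      (Eventually.of_forall fun p => ?_)
    · exact indicator_apply_nonneg fun _ => zero_le_one
    · refine (Al7_182.st_of_stat hV).integrable (h1.continuous.comp continuous_fst) hKc hKU ?_
      intro z hz
      by_contra h
      exact hz (by simpa using hfK 0 (by simp) z.1 (by simpa using h))
    · by_cases hp : p ∈ Metric.closedBall x (s / 2) ×ˢ (univ : Set (L k))
      · rw [indicator_of_mem hp]
        simp only [Pi.one_apply]
        rw [h6 p.1 (by
          have := hp.1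
          rwa [show (1 / 2 : ℝ) * s = s / 2 by ring])]
      · rw [indicator_of_notMem hp]
        exact h4 _
  have hf2 : ∫ p, f (p.1 - ξ) ∂V ≤ V.real (Metric.ball (x + ξ) s ×ˢ univ) := by
    have hm' : MeasurableSet (Metric.ball (x + ξ) s ×ˢ (univ : Set (L k))) :=
      measurableSet_ball.prod MeasurableSet.univ
    rw [← integral_indicator_one hm']
    have hsubK : Metric.ball (x + ξ) s ⊆ K := by
      intro z hz
      rw [Metric.mem_ball, dist_eq_norm] at hz
      rw [hK, Metric.mem_closedBall, dist_eq_norm]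
      have e : z - x = (z - (x + ξ)) + ξ := by abel
      rw [e]
      exact (norm_add_le _ _).trans (by linarith)
    refine integral_mono_of_nonneg (Eventually.of_forall fun p => h4 _) ?_
      (Eventually.of_forall fun p => ?_)
    · rw [integrable_indicator_iff hm']
      refine integrableOn_const ?_
      exact ((measure_mono (prod_mono hsubK Subset.rfl)).trans_lt hKfin).ne
    · by_cases hp : p ∈ Metric.ball (x + ξ) s ×ˢ (univ : Set (L k))
      · rw [indicator_of_mem hp]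
        exact h5 _
      · rw [indicator_of_notMem hp]
        refine le_of_eq ?_
        by_contra h
        apply hp
        have := h7 _ h
        rw [Metric.mem_ball, dist_eq_norm, one_mul] at this
        refine ⟨?_, mem_univ _⟩
        rw [Metric.mem_ball, dist_eq_norm]
        have e : p.1 - (x + ξ) = p.1 - ξ - x := by abel
        rw [e]
        exact this
  have h9 := (abs_le.1 htr).2
  linarith

/-! ### frames and planes -/

variable {π : Euc k →L[ℝ] Euc m} {ρ : Euc k →L[ℝ] Euc n}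

theorem frame_norm_sq (h : Frame π ρ) (v : Euc k) : ‖v‖ ^ 2 = ‖π v‖ ^ 2 + ‖ρ v‖ ^ 2 := by
  have h1 : ContinuousLinearMap.adjoint π (π v) + ContinuousLinearMap.adjoint ρ (ρ v) = v :=
    congrArg (fun T : Euc k →L[ℝ] Euc k => T v) h.full
  rw [← real_inner_self_eq_norm_sq v]
  nth_rewrite 2 [← h1]
  rw [inner_add_right, ContinuousLinearMap.adjoint_inner_right,
    ContinuousLinearMap.adjoint_inner_right, real_inner_self_eq_norm_sq,
    real_inner_self_eq_norm_sq]

theorem norm_pi_le (h : Frame π ρ) (v : Euc k) : ‖π v‖ ≤ ‖v‖ := by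
  have h1 := frame_norm_sq h v
  exact (sq_le_sq₀ (norm_nonneg _) (norm_nonneg _)).1 (by nlinarith [sq_nonneg ‖ρ v‖])

theorem norm_rho_le (h : Frame π ρ) (v : Euc k) : ‖ρ v‖ ≤ ‖v‖ := by
  have h1 := frame_norm_sq h v
  exact (sq_le_sq₀ (norm_nonneg _) (norm_nonneg _)).1 (by nlinarith [sq_nonneg ‖π v‖])

theorem norm_le_add (h : Frame π ρ) (v : Euc k) : ‖v‖ ≤ ‖π v‖ + ‖ρ v‖ := by
  have h1 := frame_norm_sq h v
  have h2 := norm_nonneg (π v)
  have h3 := norm_nonneg (ρ v)
  exact (sq_le_sq₀ (norm_nonneg _) (by positivity)).1 (by nlinarith)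

/-- a plane of slope `≤ 1/2` is a graph. -/
theorem exists_slope (hF : Frame π ρ) {P : L k} (hP : P ∈ G m k)
    (hsl : ∀ ξ : Euc k, P ξ = ξ → ‖ρ ξ‖ ≤ 1 / 2 * ‖π ξ‖) :
    ∃ A : Euc m →L[ℝ] Euc n, ‖A‖ ≤ 1 / 2 ∧ (∀ ξ : Euc k, P ξ = ξ → ρ ξ = A (π ξ)) ∧
      ∀ y : Euc m, ∃ ξ : Euc k, P ξ = ξ ∧ π ξ = y := by
  have hfix : ∀ ξ : LinearMap.range P.toLinearMap, P (ξ : Euc k) = ξ := by
    rintro ⟨_, v, rfl⟩
    exact G_idem_apply hP v
  let S : LinearMap.range P.toLinearMap →ₗ[ℝ] Euc m :=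
    π.toLinearMap ∘ₗ (LinearMap.range P.toLinearMap).subtype
  have hS : Function.Injective S := by
    rw [← LinearMap.ker_eq_bot, LinearMap.ker_eq_bot']
    intro ξ hξ
    have h0 : π (ξ : Euc k) = 0 := hξ
    have h1 := hsl ξ (hfix ξ)
    have h2 := norm_le_add hF (ξ : Euc k)
    rw [h0, norm_zero] at h1 h2
    have h3 : ‖(ξ : Euc k)‖ = 0 := le_antisymm (by linarith [norm_nonneg (ρ (ξ : Euc k))]) (norm_nonneg _)
    exact Subtype.ext (norm_eq_zero.1 h3)
  have hdim : Module.finrank ℝ (LinearMap.range P.toLinearMap) = Module.finrank ℝ (Euc m) := by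
    rw [Pers_540.finrank_range hP]
    simp
  let e := LinearMap.linearEquivOfInjective S hS hdim
  have he : ∀ ξ, e ξ = π (ξ : Euc k) := fun ξ => rfl
  let A0 : Euc m →ₗ[ℝ] Euc n :=
    ρ.toLinearMap ∘ₗ (LinearMap.range P.toLinearMap).subtype ∘ₗ e.symm.toLinearMap
  have hA0 : ∀ y, A0 y = ρ ((e.symm y : LinearMap.range P.toLinearMap) : Euc k) := fun y => rfl
  have hpi : ∀ y, π ((e.symm y : LinearMap.range P.toLinearMap) : Euc k) = y := by
    intro y
    rw [← he, LinearEquiv.apply_symm_apply]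
  refine ⟨LinearMap.toContinuousLinearMap A0, ?_, ?_, ?_⟩
  · refine ContinuousLinearMap.opNorm_le_bound _ (by norm_num) fun y => ?_
    have := hsl _ (hfix (e.symm y))
    rw [hpi] at this
    exact this
  · intro ξ hξ
    have hmem : ξ ∈ LinearMap.range P.toLinearMap := ⟨ξ, hξ⟩
    have h1 : e.symm (π ξ) = ⟨ξ, hmem⟩ := by
      rw [LinearEquiv.symm_apply_eq, he]
    change ρ ξ = A0 (π ξ)
    rw [hA0, h1]
  · intro y
    exact ⟨e.symm y, hfix _, hpi y⟩

/-- vertical distance to the plane by the normal distance. -/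
theorem vert_le (hF : Frame π ρ) {P : L k} (hP : P ∈ G m k) {A : Euc m →L[ℝ] Euc n}
    (hA : ‖A‖ ≤ 1 / 2) (hA2 : ∀ ξ : Euc k, P ξ = ξ → ρ ξ = A (π ξ)) (v : Euc k) :
    ‖ρ v - A (π v)‖ ≤ 3 / 2 * ‖v - P v‖ := by
  have h1 := hA2 (P v) (G_idem_apply hP v)
  have h2 : ρ v - A (π v) = ρ (v - P v) - A (π (v - P v)) := by
    rw [map_sub, map_sub, map_sub, h1]
    abel
  rw [h2]
  have h3 : ‖A (π (v - P v))‖ ≤ 1 / 2 * ‖v - P v‖ :=
    (A.le_opNorm _).trans (mul_le_mul hA (norm_pi_le hF _) (norm_nonneg _) (by norm_num))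
  have h4 := norm_rho_le hF (v - P v)
  exact (norm_sub_le _ _).trans (by linarith)

theorem continuous_hgt {x : Euc k} {r : ℝ} {u : Euc m → Euc n} (hu : Continuous u) :
    Continuous (hgt π ρ x r u) := by
  unfold hgt
  exact (ρ.continuous.comp (continuous_id.sub continuous_const)).sub
    ((hu.comp ((π.continuous.comp (continuous_id.sub continuous_const)).const_smul r⁻¹)).const_smul r)

/-- boundedness on bounded regions. -/
theorem memLp_of_cont (hV : Stat m k U V) {K : Set (Euc k)} (hK : IsCompact K) (hKU : K ⊆ U)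
    {W : Set (Euc k)} (hWm : MeasurableSet W) (hWK : W ⊆ K) {E : Type*} [NormedAddCommGroup E]
    {f : Euc k → E} (hf : Continuous f) :
    MemLp (fun p : Euc k × L k => f p.1) 2 (V.restrict (W ×ˢ univ)) := by
  obtain ⟨B, hB⟩ := hK.exists_bound_of_continuousOn hf.continuousOn
  have hfin : V (W ×ˢ (univ : Set (L k))) < ⊤ :=
    (measure_mono (prod_mono hWK Subset.rfl)).trans_lt (hV.fin K hK hKU)
  have : IsFiniteMeasure (V.restrict (W ×ˢ (univ : Set (L k)))) := ⟨by
    rw [Measure.restrict_apply_univ]; exact hfin⟩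
  refine MemLp.of_bound (hf.comp continuous_fst).aestronglyMeasurable B ?_
  filter_upwards [ae_restrict_mem (hWm.prod MeasurableSet.univ)] with p hp
  exact hB _ (hWK hp.1)

/-- **the plane is a graph of slope `≤ 1/2`.** -/
theorem slope_le (hV : Stat m k U V) (hF : Frame π ρ) {x : Euc k} {r c δ₀ : ℝ} (hr : 0 < r)
    (hU : Metric.closedBall x (4 * r) ⊆ U) {P : L k} (hP : P ∈ G m k)
    (hm : ∀ ξ : Euc k, P ξ = ξ → ‖ξ‖ ≤ r → c * (r / 128) ^ m ≤
      V.real (Metric.ball (x + ξ) (r / 128) ×ˢ univ))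
    {u : Euc m → Euc n} (huc : Continuous u)
    (hul : ∀ a ∈ Metric.closedBall (0 : Euc m) 1, ∀ b ∈ Metric.closedBall (0 : Euc m) 1,
      ‖u a - u b‖ ≤ 1 / 4 * ‖a - b‖)
    {W : Set (Euc k)} (hWm : MeasurableSet W) (hW1 : W ⊆ Metric.closedBall x (4 * r))
    (hW3 : ∀ z, ‖π (z - x)‖ < r → ‖ρ (z - x)‖ < r → z ∈ W)
    (hD : ∫ p in W ×ˢ univ, ‖hgt π ρ x r u p.1‖ ^ 2 ∂V ≤ δ₀ * r ^ (m + 2))
    (hδ : δ₀ < c * (1 / 128) ^ m * (1 / 100) ^ 2) :
    ∀ ξ : Euc k, P ξ = ξ → ‖ρ ξ‖ ≤ 1 / 2 * ‖π ξ‖ := by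
  have hWfin : V (W ×ˢ (univ : Set (L k))) < ⊤ :=
    (measure_mono (prod_mono hW1 Subset.rfl)).trans_lt (hV.fin _ (isCompact_closedBall _ _) hU)
  -- points with small height
  have key : ∀ ξ : Euc k, P ξ = ξ → ‖ξ‖ ≤ r / 4 → ∃ z ∈ Metric.ball (x + ξ) (r / 128),
      ‖hgt π ρ x r u z‖ < r / 100 := by
    intro ξ hPξ hξ
    by_contra hcon
    push Not at hcon
    have hsub : Metric.ball (x + ξ) (r / 128) ⊆ W := by
      intro z hz
      rw [Metric.mem_ball, dist_eq_norm] at hz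
      have h1 : ‖z - x‖ < r := by
        have e : z - x = (z - (x + ξ)) + ξ := by abel
        rw [e]
        exact (norm_add_le _ _).trans_lt (by linarith)
      exact hW3 z ((norm_pi_le hF _).trans_lt h1) ((norm_rho_le hF _).trans_lt h1)
    have hint : IntegrableOn (fun p : Euc k × L k => ‖hgt π ρ x r u p.1‖ ^ 2) (W ×ˢ univ) V :=
      (memLp_of_cont hV (isCompact_closedBall _ _) hU hWm hW1
        (continuous_hgt (π := π) (ρ := ρ) (x := x) (r := r) huc).norm).integrable_sq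
    have hlow := low_of_ball (V := V) hsub (g := fun p => ‖hgt π ρ x r u p.1‖ ^ 2)
      (fun p => by positivity) hint
      ((measure_mono (prod_mono hsub Subset.rfl)).trans_lt hWfin).ne (b := (r / 100) ^ 2)
      (fun p hp => pow_le_pow_left₀ (by positivity) (hcon p.1 hp) 2)
    have h1 := hm ξ hPξ (by linarith)
    have h2 : c * (r / 128) ^ m * (r / 100) ^ 2 ≤ δ₀ * r ^ (m + 2) :=
      ((mul_le_mul_of_nonneg_right h1 (by positivity)).trans hlow).trans hD
    have h3 : c * (r / 128) ^ m * (r / 100) ^ 2 = (c * (1 / 128) ^ m * (1 / 100) ^ 2) * r ^ (m + 2) := by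
      rw [div_eq_mul_inv r 128, mul_pow]
      ring
    rw [h3] at h2
    exact absurd (le_of_mul_le_mul_right h2 (by positivity)) (not_le.2 hδ)
  obtain ⟨z', hz', hz'2⟩ := key 0 (by simp) (by simp; positivity)
  rw [add_zero, Metric.mem_ball, dist_eq_norm] at hz'
  -- reduction to norm `r / 4`
  have main : ∀ ξ : Euc k, P ξ = ξ → ‖ξ‖ = r / 4 → ‖ρ ξ‖ ≤ 1 / 2 * ‖π ξ‖ := by
    intro ξ hPξ hξ
    obtain ⟨z, hz, hz2⟩ := key ξ hPξ hξ.le
    rw [Metric.mem_ball, dist_eq_norm] at hz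
    have hzx : ‖z - x‖ ≤ r := by
      have e : z - x = (z - (x + ξ)) + ξ := by abel
      rw [e]
      exact (norm_add_le _ _).trans (by linarith)
    have hin : ∀ w : Euc k, ‖w‖ ≤ r → r⁻¹ • π w ∈ Metric.closedBall (0 : Euc m) 1 := by
      intro w hw
      rw [mem_closedBall_zero_iff, norm_smul, norm_inv, Real.norm_of_nonneg hr.le,
        inv_mul_le_iff₀ hr, mul_one]
      exact (norm_pi_le hF w).trans hw
    have h1 := hul _ (hin (z - x) hzx) _ (hin (z' - x) (by linarith))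
    have h2 : ‖r • u (r⁻¹ • π (z - x)) - r • u (r⁻¹ • π (z' - x))‖ ≤ 1 / 4 * ‖π (z - z')‖ := by
      rw [← smul_sub, norm_smul, Real.norm_of_nonneg hr.le]
      have e1 : r⁻¹ • π (z - x) - r⁻¹ • π (z' - x) = r⁻¹ • π (z - z') := by
        rw [← smul_sub, ← map_sub]
        congr 2
        abel
      rw [e1, norm_smul, norm_inv, Real.norm_of_nonneg hr.le] at h1
      calc r * ‖u (r⁻¹ • π (z - x)) - u (r⁻¹ • π (z' - x))‖ ≤ r * (1 / 4 * (r⁻¹ * ‖π (z - z')‖)) := by
            gcongr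
        _ = 1 / 4 * ‖π (z - z')‖ := by field_simp
    have e2 : ρ (z - z') = hgt π ρ x r u z - hgt π ρ x r u z' +
        (r • u (r⁻¹ • π (z - x)) - r • u (r⁻¹ • π (z' - x))) := by
      unfold hgt
      have : ρ (z - z') = ρ (z - x) - ρ (z' - x) := by
        rw [← map_sub]
        congr 1
        abel
      rw [this]
      abel
    have h3 : ‖ρ (z - z')‖ ≤ r / 50 + 1 / 4 * ‖π (z - z')‖ := by
      rw [e2]
      refine (norm_add_le _ _).trans ?_
      have := norm_sub_le (hgt π ρ x r u z) (hgt π ρ x r u z')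
      linarith
    set w := (z - (x + ξ)) - (z' - x) with hw
    have hwn : ‖w‖ ≤ r / 64 := (norm_sub_le _ _).trans (by linarith)
    have e3 : z - z' = ξ + w := by rw [hw]; abel
    rw [e3, map_add, map_add] at h3
    have h4 := norm_pi_le hF w
    have h5 := norm_rho_le hF w
    have h6 : ‖ρ ξ‖ ≤ ‖ρ ξ + ρ w‖ + ‖ρ w‖ := by
      have := norm_sub_le (ρ ξ + ρ w) (ρ w)
      rwa [add_sub_cancel_right] at this
    have h7 := norm_add_le (π ξ) (π w)
    have h8 := norm_le_add hF ξ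
    rw [hξ] at h8
    linarith
  intro ξ hPξ
  rcases eq_or_ne ξ 0 with rfl | hne
  · simp
  have hn : 0 < ‖ξ‖ := norm_pos_iff.2 hne
  set t := r / 4 / ‖ξ‖ with ht
  have ht0 : 0 < t := by positivity
  have h1 := main (t • ξ) (by rw [map_smul, hPξ]) (by
    rw [norm_smul, Real.norm_of_nonneg ht0.le, ht]
    field_simp)
  rw [map_smul, map_smul, norm_smul, norm_smul, Real.norm_of_nonneg ht0.le] at h1
  refine le_of_mul_le_mul_left ?_ ht0
  linarith

end Crest.Agent.R234.FL4_567
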