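import Crest.Agent.R234.FL3_567
import Crest.Agent.R234.FL4_567

/-!
# R234 (helper567), node F9-FL, part 5: the theorem (form (V7) of helper188)

`fl` : `V` stationary, mass ratios of `x` bounded below by `c` and above by `Λ`, `V` flat relative to
a plane `P` (`∫ height ≤ om r^(m+2)`), `u` of class `C^J` with `|u| ≤ A`, `|Du| ≤ 1/4`, `|D^J u| ≤ A` on
the unit ball, mean error `mu` against `C^K` test functions supported in `ball 0 1`, a priori
`∫ |hgt|² ≤ δ₀ r^(m+2)`.  Then `∫ |hgt|² ≤ C ((mu + √om)^γ)² r^(m+2)`, `γ = J / (J + K + m)`.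
-/

set_option autoImplicit false
set_option linter.unusedVariables false
set_option linter.unusedSectionVars false

open MeasureTheory Filter Topology Set
open scoped ENNReal NNReal ContDiff
open Crest.GeometryTopology.Submanifold Crest.Agent.R234.Vf_884
open Crest.Agent.R234.Strat3_842 (tilt height)
open Crest.Agent.R234.Main_456 (Frame hgt box)
open Crest.Agent.R234.FL2_567 Crest.Agent.R234.FL4_567

noncomputable section

namespace Crest.Agent.R234.FL5_567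

variable {m n k : ℕ}

theorem iter_linear {E F : Type*} [NormedAddCommGroup E] [NormedSpace ℝ E] [NormedAddCommGroup F]
    [NormedSpace ℝ F] (T : E →L[ℝ] F) {J : ℕ} (hJ : 2 ≤ J) (y : E) :
    ‖iteratedFDeriv ℝ J T y‖ = 0 := by
  obtain ⟨j, rfl⟩ : ∃ j, J = j + 1 := ⟨J - 1, by omega⟩
  rw [← norm_iteratedFDeriv_fderiv]
  have h1 : fderiv ℝ T = fun _ => T := by
    funext z
    exact T.fderiv
  rw [h1, iteratedFDeriv_const_of_ne (by omega)]
  simp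

/-- the constants of the last step. -/
theorem pow_aux {J K m : ℕ} (hJ : m + 1 ≤ J) {om ε : ℝ} (hom : 0 ≤ om) (hom1 : om ≤ 1) (hε : 0 < ε) :
    (8 * Real.sqrt (om / ε) ^ (1 / ((m : ℝ) + 1))) ^ J ≤
      8 ^ J * (Real.sqrt ε ^ ((J : ℝ) / ((m : ℝ) + 1)))⁻¹ *
        Real.sqrt om ^ ((J : ℝ) / ((J : ℝ) + K + m)) := by
  have hm : (0 : ℝ) < (m : ℝ) + 1 := by positivity
  have hJm : (m : ℝ) + 1 ≤ J := by exact_mod_cast hJ
  have hJ0 : (0 : ℝ) < J := by linarith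
  have hs : 0 ≤ Real.sqrt om := Real.sqrt_nonneg _
  have hs1 : Real.sqrt om ≤ 1 := Real.sqrt_le_one.2 hom1
  have he : 0 < Real.sqrt ε := Real.sqrt_pos.2 hε
  have e1 : (Real.sqrt (om / ε) ^ (1 / ((m : ℝ) + 1))) ^ J =
      Real.sqrt om ^ ((J : ℝ) / ((m : ℝ) + 1)) * (Real.sqrt ε ^ ((J : ℝ) / ((m : ℝ) + 1)))⁻¹ := by
    have e0 : 1 / ((m : ℝ) + 1) * (J : ℝ) = (J : ℝ) / ((m : ℝ) + 1) := by ring
    rw [← Real.rpow_natCast, ← Real.rpow_mul (Real.sqrt_nonneg _), Real.sqrt_div hom,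
      Real.div_rpow hs he.le, div_eq_mul_inv, e0]
  rw [mul_pow, e1]
  have e2 : Real.sqrt om ^ ((J : ℝ) / ((m : ℝ) + 1)) ≤ Real.sqrt om ^ ((J : ℝ) / ((J : ℝ) + K + m)) := by
    refine Real.rpow_le_rpow_of_exponent_ge' hs hs1 (by positivity) ?_
    have h1 : (J : ℝ) / ((J : ℝ) + K + m) ≤ 1 := by
      rw [div_le_one (by positivity)]
      have : (0 : ℝ) ≤ K := Nat.cast_nonneg K
      have : (0 : ℝ) ≤ m := Nat.cast_nonneg m
      linarith
    have h2 : 1 ≤ (J : ℝ) / ((m : ℝ) + 1) := by rw [one_le_div hm]; exact hJm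
    exact h1.trans h2
  have e3 : 0 < (Real.sqrt ε ^ ((J : ℝ) / ((m : ℝ) + 1)))⁻¹ := by
    have := Real.rpow_pos_of_pos he ((J : ℝ) / ((m : ℝ) + 1))
    positivity
  calc 8 ^ J * (Real.sqrt om ^ ((J : ℝ) / ((m : ℝ) + 1)) * (Real.sqrt ε ^ ((J : ℝ) / ((m : ℝ) + 1)))⁻¹)
      ≤ 8 ^ J * (Real.sqrt om ^ ((J : ℝ) / ((J : ℝ) + K + m)) *
        (Real.sqrt ε ^ ((J : ℝ) / ((m : ℝ) + 1)))⁻¹) := by gcongr
    _ = _ := by ring

/-- the threshold: `s₀ ≤ δ` implies the smallness needed by `persist2`. -/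
theorem thr_aux {m : ℕ} {om ε δ : ℝ} (hom : 0 ≤ om) (hε : 0 < ε) (hδ : 0 < δ)
    (h : 8 * Real.sqrt (om / ε) ^ (1 / ((m : ℝ) + 1)) ≤ δ) : om ≤ ε * (δ / 8) ^ (2 * (m + 1)) := by
  have hm : (0 : ℝ) < (m : ℝ) + 1 := by positivity
  have hs : 0 ≤ Real.sqrt (om / ε) := Real.sqrt_nonneg _
  have h1 : Real.sqrt (om / ε) ^ (1 / ((m : ℝ) + 1)) ≤ δ / 8 := by linarith
  have h2 : (Real.sqrt (om / ε) ^ (1 / ((m : ℝ) + 1))) ^ (2 * (m + 1)) ≤ (δ / 8) ^ (2 * (m + 1)) :=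
    pow_le_pow_left₀ (Real.rpow_nonneg hs _) h1 _
  have h3 : (Real.sqrt (om / ε) ^ (1 / ((m : ℝ) + 1))) ^ (2 * (m + 1)) = om / ε := by
    rw [← Real.rpow_natCast, ← Real.rpow_mul hs]
    have : 1 / ((m : ℝ) + 1) * ((2 * (m + 1) : ℕ) : ℝ) = (2 : ℕ) := by
      push_cast
      field_simp
    rw [this, Real.rpow_natCast, Real.sq_sqrt (by positivity)]
  rw [h3, div_le_iff₀ hε] at h2
  linarith

/-- the data of node F9-FL. -/
structure Hyp (m n k J K : ℕ) (Λ c A : ℝ) (U : Set (Euc k)) (V : Measure (Euc k × L k))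
    (π : Euc k →L[ℝ] Euc m) (ρ : Euc k →L[ℝ] Euc n) (x : Euc k) (r : ℝ) (P : L k) (om : ℝ)
    (u : Euc m → Euc n) (W : Set (Euc k)) (mu : ℝ) : Prop where
  st : Stat m k U V
  fr : Frame π ρ
  r0 : 0 < r
  dom : Metric.closedBall x (8 * r) ⊆ U
  up : V.real (Metric.closedBall x (4 * r) ×ˢ univ) ≤ Λ * r ^ m
  low : ∀ s, 0 < s → s ≤ r → c * s ^ m ≤ V.real (Metric.closedBall x s ×ˢ univ)
  pl : P ∈ G m k
  om0 : 0 ≤ om
  flat : ∫ p in Metric.closedBall x (8 * r) ×ˢ univ, height P x p ∂V ≤ om * r ^ (m + 2)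
  cd : ContDiff ℝ J u
  bd0 : ∀ y ∈ Metric.closedBall (0 : Euc m) 1, ‖u y‖ ≤ A
  bd1 : ∀ y ∈ Metric.closedBall (0 : Euc m) 1, ‖fderiv ℝ u y‖ ≤ 1 / 4
  bdJ : ∀ y ∈ Metric.closedBall (0 : Euc m) 1, ‖iteratedFDeriv ℝ J u y‖ ≤ A
  Wm : MeasurableSet W
  W1 : W ⊆ Metric.closedBall x (4 * r)
  W2 : ∀ z ∈ W, ‖π (z - x)‖ ≤ r
  W3 : ∀ z, ‖π (z - x)‖ < r → ‖ρ (z - x)‖ < r → z ∈ W
  mu0 : 0 ≤ mu
  test : ∀ ζ : Euc m → ℝ, ContDiff ℝ ∞ ζ → tsupport ζ ⊆ Metric.ball 0 1 →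
      (∀ j ≤ K, ∀ y, ‖iteratedFDeriv ℝ j ζ y‖ ≤ 1) →
      ‖∫ p in W ×ˢ univ, ζ (r⁻¹ • π (p.1 - x)) • hgt π ρ x r u p.1 ∂V‖ ≤ mu * r ^ (m + 1)

variable {J K : ℕ} {Λ c A : ℝ} {U : Set (Euc k)} {V : Measure (Euc k × L k)}
    {π : Euc k →L[ℝ] Euc m} {ρ : Euc k →L[ℝ] Euc n} {x : Euc k} {r : ℝ} {P : L k} {om : ℝ}
    {u : Euc m → Euc n} {W : Set (Euc k)} {mu : ℝ}

/-- the base coordinate (unit scale). -/
def bX (π : Euc k →L[ℝ] Euc m) (x : Euc k) (r : ℝ) (p : Euc k × L k) : Euc m := r⁻¹ • π (p.1 - x)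

/-- vertical distance to the plane. -/
def h0 (π : Euc k →L[ℝ] Euc m) (ρ : Euc k →L[ℝ] Euc n) (T : Euc m →L[ℝ] Euc n) (x : Euc k)
    (p : Euc k × L k) : Euc n := ρ (p.1 - x) - T (π (p.1 - x))

theorem continuous_bX : Continuous (bX (k := k) π x r) := by
  unfold bX
  fun_prop

theorem continuous_h0 {T : Euc m →L[ℝ] Euc n} : Continuous (h0 (k := k) π ρ T x) := by
  unfold h0
  fun_prop

theorem h0_id (hr : 0 < r) (T : Euc m →L[ℝ] Euc n) (u : Euc m → Euc n) (p : Euc k × L k) :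
    r • (u - T) (bX π x r p) = h0 π ρ T x p - hgt π ρ x r u p.1 := by
  have e1 : r • T (bX π x r p) = T (π (p.1 - x)) := by
    unfold bX
    rw [map_smul, smul_smul, mul_inv_cancel₀ hr.ne', one_smul]
  change r • (u (bX π x r p) - T (bX π x r p)) = _
  rw [smul_sub, e1]
  unfold hgt h0 bX
  abel

namespace Hyp

variable (H : Hyp m n k J K Λ c A U V π ρ x r P om u W mu)
include H

theorem U4 : Metric.closedBall x (4 * r) ⊆ U :=
  (Metric.closedBall_subset_closedBall (by linarith [H.r0])).trans H.dom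

theorem fin4 : V (Metric.closedBall x (4 * r) ×ˢ (univ : Set (L k))) < ⊤ :=
  H.st.fin _ (isCompact_closedBall _ _) H.U4

theorem Wfin : V (W ×ˢ (univ : Set (L k))) < ⊤ :=
  (measure_mono (prod_mono H.W1 Subset.rfl)).trans_lt H.fin4

theorem finW : IsFiniteMeasure (V.restrict (W ×ˢ (univ : Set (L k)))) := ⟨by
  rw [Measure.restrict_apply_univ]; exact H.Wfin⟩

theorem Wreal : V.real (W ×ˢ (univ : Set (L k))) ≤ Λ * r ^ m :=
  (measureReal_mono (prod_mono H.W1 Subset.rfl) H.fin4.ne).trans H.up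

theorem memLp {E : Type*} [NormedAddCommGroup E] {f : Euc k → E} (hf : Continuous f) :
    MemLp (fun p : Euc k × L k => f p.1) 2 (V.restrict (W ×ˢ univ)) :=
  memLp_of_cont H.st (isCompact_closedBall _ _) H.U4 H.Wm H.W1 hf

theorem memLp_hgt : MemLp (fun p : Euc k × L k => ‖hgt π ρ x r u p.1‖) 2 (V.restrict (W ×ˢ univ)) :=
  H.memLp (continuous_hgt H.cd.continuous).norm

theorem memLp_h0 (T : Euc m →L[ℝ] Euc n) :
    MemLp (fun p : Euc k × L k => ‖h0 π ρ T x p‖) 2 (V.restrict (W ×ˢ univ)) :=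
  H.memLp (f := fun z : Euc k => ‖ρ (z - x) - T (π (z - x))‖) (by fun_prop)

/-- persistence at the scale `s`. -/
theorem per {ε : ℝ} (hε : 0 < ε)
    (hper : ∀ {U : Set (Euc k)} {V : Measure (Euc k × L k)}, Stat m k U V → ∀ {x : Euc k} {r s : ℝ},
    0 < r → 0 < s → s ≤ r → Metric.closedBall x (4 * r) ⊆ U →
    V.real (Metric.closedBall x (2 * r) ×ˢ univ) ≤ Λ * r ^ m →
    c / 2 ^ m * s ^ m ≤ V.real (Metric.closedBall x (s / 2) ×ˢ univ) → ∀ {P : L k}, P ∈ G m k →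
    ∫ p in Metric.closedBall x (4 * r) ×ˢ univ, height P x p ∂V ≤
      ε * (s / r) ^ (2 * (m + 1)) * r ^ (m + 2) →
    ∀ ξ : Euc k, P ξ = ξ → ‖ξ‖ ≤ r →
      c / 2 ^ m / 2 * s ^ m ≤ V.real (Metric.ball (x + ξ) s ×ˢ univ)) (hΛ : 0 ≤ Λ)
    {s : ℝ} (hs : 0 < s) (hsr : s ≤ r) (homs : om ≤ ε * (s / (2 * r)) ^ (2 * (m + 1)))
    {ξ : Euc k} (hPξ : P ξ = ξ) (hξ : ‖ξ‖ ≤ 2 * r) :
    c / 2 ^ m / 2 * s ^ m ≤ V.real (Metric.ball (x + ξ) s ×ˢ univ) := by
  have hr := H.r0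
  have hr2 : r ≤ 2 * r := by linarith
  have h4 : (4 : ℝ) * (2 * r) = 8 * r := by ring
  have h2 : (2 : ℝ) * (2 * r) = 4 * r := by ring
  refine hper H.st (r := 2 * r) (by positivity) hs (by linarith) (by rw [h4]; exact H.dom) ?_ ?_
    H.pl ?_ ξ hPξ hξ
  · rw [h2]
    exact H.up.trans (by gcongr)
  · refine le_trans (le_of_eq ?_) (H.low (s / 2) (by positivity) (by linarith))
    rw [div_pow]
    ring
  · rw [h4]
    exact H.flat.trans (by gcongr)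

theorem q0 {T : Euc m →L[ℝ] Euc n} (hT1 : ‖T‖ ≤ 1 / 2) (hT2 : ∀ ξ : Euc k, P ξ = ξ → ρ ξ = T (π ξ)) :
    ∫ p in W ×ˢ univ, ‖h0 π ρ T x p‖ ^ 2 ∂V ≤ 9 / 4 * (om * r ^ (m + 2)) := by
  have hr := H.r0
  have hsub : W ×ˢ (univ : Set (L k)) ⊆ Metric.closedBall x (8 * r) ×ˢ univ :=
    Set.prod_mono (H.W1.trans (Metric.closedBall_subset_closedBall (by linarith))) Subset.rfl
  have i1 : IntegrableOn (height P x) (Metric.closedBall x (8 * r) ×ˢ univ) V := by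
    have := memLp_of_cont H.st (isCompact_closedBall x (8 * r)) H.dom measurableSet_closedBall
      Subset.rfl (f := fun z : Euc k => ‖(z - x) - P (z - x)‖) (by fun_prop)
    exact this.integrable_sq
  calc ∫ p in W ×ˢ univ, ‖h0 π ρ T x p‖ ^ 2 ∂V ≤ ∫ p in W ×ˢ univ, 9 / 4 * height P x p ∂V := by
        refine setIntegral_mono_on (H.memLp_h0 T).integrable_sq ((i1.mono_set hsub).const_mul _)
          (H.Wm.prod MeasurableSet.univ) ?_
        intro p _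
        have h1 := vert_le H.fr H.pl hT1 hT2 (p.1 - x)
        have h2 := pow_le_pow_left₀ (norm_nonneg _) h1 2
        refine h2.trans (le_of_eq ?_)
        rw [mul_pow]
        have : height P x p = ‖(p.1 - x) - P (p.1 - x)‖ ^ 2 := rfl
        rw [this]
        norm_num
    _ = 9 / 4 * ∫ p in W ×ˢ univ, height P x p ∂V := integral_const_mul _ _
    _ ≤ 9 / 4 * (om * r ^ (m + 2)) := by
        refine mul_le_mul_of_nonneg_left (le_trans ?_ H.flat) (by norm_num)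
        refine setIntegral_mono_set i1 (Eventually.of_forall fun p => ?_) hsub.eventuallyLE
        change 0 ≤ height P x p
        unfold height
        positivity

theorem l0 (hΛ : 0 ≤ Λ) {T : Euc m →L[ℝ] Euc n} (hT1 : ‖T‖ ≤ 1 / 2)
    (hT2 : ∀ ξ : Euc k, P ξ = ξ → ρ ξ = T (π ξ)) :
    ∫ p in W ×ˢ univ, ‖h0 π ρ T x p‖ ∂V ≤ Real.sqrt (3 * Λ) * Real.sqrt om * r ^ (m + 1) := by
  have hr := H.r0
  have hom := H.om0
  have := H.finW
  have h1 := FL1_567.sq_integral_le (H.memLp_h0 T)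
  rw [measureReal_restrict_apply_univ] at h1
  refine (abs_le_of_sq_le_sq' ?_ (by positivity)).2
  refine h1.trans ((mul_le_mul H.Wreal (H.q0 hT1 hT2) (integral_nonneg fun p => by positivity)
    (by positivity)).trans ?_)
  rw [mul_pow, mul_pow, Real.sq_sqrt (by positivity), Real.sq_sqrt hom]
  have e1 : (r ^ (m + 1)) ^ 2 = r ^ m * r ^ (m + 2) := by ring
  rw [e1]
  have : 0 ≤ Λ * om * (r ^ m * r ^ (m + 2)) := by positivity
  nlinarith

/-- tested averages of the difference `u - T`. -/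
theorem tests (hΛ : 0 ≤ Λ) {T : Euc m →L[ℝ] Euc n} (hT1 : ‖T‖ ≤ 1 / 2)
    (hT2 : ∀ ξ : Euc k, P ξ = ξ → ρ ξ = T (π ξ)) (ζ : Euc m → ℝ) (h1 : ContDiff ℝ ∞ ζ)
    (h2 : tsupport ζ ⊆ Metric.ball 0 1) (h3 : ∀ j ≤ K, ∀ z, ‖iteratedFDeriv ℝ j ζ z‖ ≤ 1) :
    ‖∫ p in W ×ˢ univ, ζ (bX π x r p) • (u - T) (bX π x r p) ∂V‖ ≤
      (mu + Real.sqrt (3 * Λ) * Real.sqrt om) * r ^ m := by
  have hr := H.r0
  have h4 := H.test ζ h1 h2 h3
  have hζ : ∀ y, ‖ζ y‖ ≤ 1 := fun y => by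
    have := h3 0 (Nat.zero_le _) y
    rwa [norm_iteratedFDeriv_zero] at this
  have hle : ∀ (y : Euc m) (v : Euc n), ‖ζ y • v‖ ≤ ‖v‖ := fun y v => by
    rw [norm_smul]
    exact mul_le_of_le_one_left (norm_nonneg _) (hζ _)
  have hz : Continuous fun p : Euc k × L k => ζ (bX π x r p) := h1.continuous.comp continuous_bX
  have j0 : Integrable (fun p : Euc k × L k => ‖h0 π ρ T x p‖) (V.restrict (W ×ˢ univ)) := by
    have := H.finW
    exact (H.memLp_h0 T).integrable (by norm_num)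
  have j1 : Integrable (fun p : Euc k × L k => ‖hgt π ρ x r u p.1‖) (V.restrict (W ×ˢ univ)) := by
    have := H.finW
    exact H.memLp_hgt.integrable (by norm_num)
  have i0 : Integrable (fun p => ζ (bX π x r p) • h0 π ρ T x p) (V.restrict (W ×ˢ univ)) :=
    Integrable.mono' j0 (hz.smul continuous_h0).aestronglyMeasurable
      (Eventually.of_forall fun p => hle _ _)
  have i1 : Integrable (fun p : Euc k × L k => ζ (bX π x r p) • hgt π ρ x r u p.1)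
      (V.restrict (W ×ˢ univ)) :=
    Integrable.mono' j1 (hz.smul ((continuous_hgt H.cd.continuous).comp
      continuous_fst)).aestronglyMeasurable (Eventually.of_forall fun p => hle _ _)
  have e1 : r • ∫ p in W ×ˢ univ, ζ (bX π x r p) • (u - T) (bX π x r p) ∂V =
      (∫ p in W ×ˢ univ, ζ (bX π x r p) • h0 π ρ T x p ∂V) -
        ∫ p in W ×ˢ univ, ζ (bX π x r p) • hgt π ρ x r u p.1 ∂V := by
    rw [← integral_smul, ← integral_sub i0 i1]
    refine integral_congr_ae (Eventually.of_forall fun p => ?_)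
    simp only
    rw [← smul_sub, ← h0_id hr, smul_comm]
  have e2 : ‖∫ p in W ×ˢ univ, ζ (bX π x r p) • h0 π ρ T x p ∂V‖ ≤
      ∫ p in W ×ˢ univ, ‖h0 π ρ T x p‖ ∂V :=
    norm_integral_le_of_norm_le j0 (Eventually.of_forall fun p => hle _ _)
  have e3 : r * ‖∫ p in W ×ˢ univ, ζ (bX π x r p) • (u - T) (bX π x r p) ∂V‖ ≤
      r * ((mu + Real.sqrt (3 * Λ) * Real.sqrt om) * r ^ m) := by
    have : ‖r • ∫ p in W ×ˢ univ, ζ (bX π x r p) • (u - T) (bX π x r p) ∂V‖ =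
        r * ‖∫ p in W ×ˢ univ, ζ (bX π x r p) • (u - T) (bX π x r p) ∂V‖ := by
      rw [norm_smul, Real.norm_of_nonneg hr.le]
    rw [← this, e1]
    refine (norm_sub_le _ _).trans ((add_le_add (e2.trans (H.l0 hΛ hT1 hT2)) h4).trans (le_of_eq ?_))
    ring
  exact le_of_mul_le_mul_left e3 hr

/-- masses over small balls of the base. -/
theorem mass {T : Euc m →L[ℝ] Euc n} (hT1 : ‖T‖ ≤ 1 / 2)
    (hT2 : ∀ ξ : Euc k, P ξ = ξ → ρ ξ = T (π ξ)) {y : Euc m} {δ c' : ℝ} (hδ : 0 < δ) (hδ1 : δ ≤ 1)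
    (hy : ‖y‖ ≤ 1 - δ) {ξ : Euc k} (hPξ : P ξ = ξ) (hπξ : π ξ = y)
    (hm : c' * (r * δ / 4) ^ m ≤ V.real (Metric.ball (x + r • ξ) (r * δ / 4) ×ˢ univ)) :
    c' * (1 / 4) ^ m * δ ^ m * r ^ m ≤
      (V.restrict (W ×ˢ univ)).real (bX π x r ⁻¹' Metric.closedBall y (δ / 2)) := by
  have hr := H.r0
  have hρξ : ‖ρ ξ‖ ≤ 1 / 2 * ‖y‖ := by
    rw [hT2 ξ hPξ, hπξ]
    exact (T.le_opNorm y).trans (mul_le_mul_of_nonneg_right hT1 (norm_nonneg _))
  have hr' : r * δ ≤ r := mul_le_of_le_one_right hr.le hδ1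
  have hsub : Metric.ball (x + r • ξ) (r * δ / 4) ×ˢ (univ : Set (L k)) ⊆
      bX π x r ⁻¹' Metric.closedBall y (δ / 2) ∩ W ×ˢ univ := by
    rintro p ⟨hp, -⟩
    rw [Metric.mem_ball, dist_eq_norm] at hp
    have e1 : p.1 - x = (p.1 - (x + r • ξ)) + r • ξ := by abel
    have e2 : bX π x r p - y = r⁻¹ • π (p.1 - (x + r • ξ)) := by
      unfold bX
      rw [e1, map_add, smul_add, map_smul, smul_smul, inv_mul_cancel₀ hr.ne', one_smul, hπξ]
      abel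
    have e3 : ‖bX π x r p - y‖ ≤ δ / 4 := by
      rw [e2, norm_smul, norm_inv, Real.norm_of_nonneg hr.le, inv_mul_le_iff₀ hr]
      exact (norm_pi_le H.fr _).trans (by linarith)
    refine ⟨?_, ?_, mem_univ _⟩
    · rw [mem_preimage, Metric.mem_closedBall, dist_eq_norm]
      linarith
    · refine H.W3 p.1 ?_ ?_
      · have h5 : ‖π (p.1 - x)‖ = r * ‖bX π x r p‖ := by
          unfold bX
          rw [norm_smul, norm_inv, Real.norm_of_nonneg hr.le, mul_inv_cancel_left₀ hr.ne']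
        have h6 : ‖bX π x r p‖ ≤ ‖bX π x r p - y‖ + ‖y‖ := by
          calc ‖bX π x r p‖ = ‖(bX π x r p - y) + y‖ := by congr 1; abel
            _ ≤ _ := norm_add_le _ _
        rw [h5]
        have h7 : ‖bX π x r p‖ < 1 := by linarith
        exact mul_lt_of_lt_one_right hr h7
      · rw [e1, map_add, map_smul]
        refine (norm_add_le _ _).trans_lt ?_
        rw [norm_smul, Real.norm_of_nonneg hr.le]
        have h5 := norm_rho_le H.fr (p.1 - (x + r • ξ))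
        have h6 : r * ‖ρ ξ‖ ≤ r * (1 / 2) := by
          refine mul_le_mul_of_nonneg_left ?_ hr.le
          linarith [norm_nonneg y]
        linarith
  have hms : MeasurableSet (bX π x r ⁻¹' Metric.closedBall y (δ / 2)) :=
    (continuous_bX (k := k)).measurable measurableSet_closedBall
  rw [measureReal_restrict_apply hms]
  refine le_trans (le_of_eq ?_) (hm.trans (measureReal_mono hsub
    ((measure_mono inter_subset_right).trans_lt H.Wfin).ne))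
  have e4 : r * δ / 4 = r * δ * (1 / 4) := by ring
  rw [e4, mul_pow, mul_pow]
  ring

/-- conclusion from the sup bound. -/
theorem concl (hΛ : 0 ≤ Λ) {T : Euc m →L[ℝ] Euc n} (hT1 : ‖T‖ ≤ 1 / 2)
    (hT2 : ∀ ξ : Euc k, P ξ = ξ → ρ ξ = T (π ξ)) {B : ℝ}
    (hsup : ∀ z ∈ Metric.closedBall (0 : Euc m) 1, ‖(u - T) z‖ ≤ B) :
    ∫ p in W ×ˢ univ, ‖hgt π ρ x r u p.1‖ ^ 2 ∂V ≤ (9 / 2 * om + 2 * Λ * B ^ 2) * r ^ (m + 2) := by
  have hr := H.r0
  have hpt : ∀ p ∈ W ×ˢ (univ : Set (L k)), ‖hgt π ρ x r u p.1‖ ^ 2 ≤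
      2 * ‖h0 π ρ T x p‖ ^ 2 + 2 * r ^ 2 * B ^ 2 := by
    intro p hp
    have h1 : bX π x r p ∈ Metric.closedBall (0 : Euc m) 1 := by
      unfold bX
      rw [mem_closedBall_zero_iff, norm_smul, norm_inv, Real.norm_of_nonneg hr.le,
        inv_mul_le_iff₀ hr, mul_one]
      exact H.W2 p.1 hp.1
    have h2 := hsup _ h1
    have h3 : hgt π ρ x r u p.1 = h0 π ρ T x p - r • (u - T) (bX π x r p) := by
      rw [h0_id (ρ := ρ) hr]; abel
    have h4 : ‖hgt π ρ x r u p.1‖ ≤ ‖h0 π ρ T x p‖ + r * B := by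
      rw [h3]
      refine (norm_sub_le _ _).trans ?_
      rw [norm_smul, Real.norm_of_nonneg hr.le]
      gcongr
    have h5 := pow_le_pow_left₀ (norm_nonneg _) h4 2
    nlinarith [sq_nonneg (‖h0 π ρ T x p‖ - r * B)]
  have := H.finW
  have i5 : Integrable (fun p : Euc k × L k => 2 * ‖h0 π ρ T x p‖ ^ 2)
      (V.restrict (W ×ˢ univ)) := (H.memLp_h0 T).integrable_sq.const_mul 2
  have i6 : Integrable (fun _ : Euc k × L k => 2 * r ^ 2 * B ^ 2)
      (V.restrict (W ×ˢ univ)) := integrable_const _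
  have i7 : IntegrableOn (fun p : Euc k × L k => 2 * ‖h0 π ρ T x p‖ ^ 2 + 2 * r ^ 2 * B ^ 2)
      (W ×ˢ univ) V := i5.add i6
  have hfinal : ∫ p in W ×ˢ univ, ‖hgt π ρ x r u p.1‖ ^ 2 ∂V ≤
      2 * (9 / 4 * (om * r ^ (m + 2))) + 2 * r ^ 2 * B ^ 2 * (Λ * r ^ m) := by
    calc ∫ p in W ×ˢ univ, ‖hgt π ρ x r u p.1‖ ^ 2 ∂V
        ≤ ∫ p in W ×ˢ univ, (2 * ‖h0 π ρ T x p‖ ^ 2 + 2 * r ^ 2 * B ^ 2) ∂V :=
          setIntegral_mono_on H.memLp_hgt.integrable_sq i7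
            (H.Wm.prod MeasurableSet.univ) hpt
      _ = 2 * (∫ p in W ×ˢ univ, ‖h0 π ρ T x p‖ ^ 2 ∂V) +
          2 * r ^ 2 * B ^ 2 * V.real (W ×ˢ univ) := by
          rw [integral_add i5 i6, integral_const_mul, integral_const, measureReal_restrict_apply_univ, smul_eq_mul,
            mul_comm (V.real _)]
      _ ≤ _ := by
          have a1 := H.q0 hT1 hT2
          have a2 := H.Wreal
          gcongr
  refine hfinal.trans (le_of_eq ?_)
  ring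

end Hyp

end Crest.Agent.R234.FL5_567
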