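import Crest.Agent.R234.FL5_567

/-!
# R234 (helper567), node F9-FL, part 6: the theorem (form (V7) of helper188)

`fl`  : `Hyp` and `∫ |hgt|² ≤ δ₀ r^(m+2)` imply `∫ |hgt|² ≤ C ((mu + √om)^γ)² r^(m+2)`,
`γ = J / (J + K + m)`.
`fl'` : if moreover `mu ≤ B D^(3/4)`, `∫ |hgt|² = D r^(m+2)`, `J ≥ 9 (K + m)`: `D ≤ C om^γ`, `γ ≥ 9/10`.
-/

set_option autoImplicit false
set_option linter.unusedVariables false
set_option linter.unusedSectionVars false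

open MeasureTheory Filter Topology Set
open scoped ENNReal NNReal ContDiff
open Crest.GeometryTopology.Submanifold Crest.Agent.R234.Vf_884
open Crest.Agent.R234.Strat3_842 (tilt height)
open Crest.Agent.R234.Main_456 (Frame hgt box)
open Crest.Agent.R234.FL2_567 Crest.Agent.R234.FL4_567 Crest.Agent.R234.FL5_567

noncomputable section

namespace Crest.Agent.R234.FL6_567

variable {m n k : ℕ}

/-- the exponent. -/
def gam (m J K : ℕ) : ℝ := (J : ℝ) / ((J : ℝ) + K + m)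

theorem gam_pos {m J K : ℕ} (hJ : 1 ≤ J) : 0 < gam m J K := by
  unfold gam
  have hJ0 : (0 : ℝ) < J := by exact_mod_cast hJ
  positivity

theorem gam_le_one {m J K : ℕ} (hJ : 1 ≤ J) : gam m J K ≤ 1 := by
  unfold gam
  have hJ0 : (0 : ℝ) < J := by exact_mod_cast hJ
  have hK0 : (0 : ℝ) ≤ K := Nat.cast_nonneg K
  have hm0 : (0 : ℝ) ≤ m := Nat.cast_nonneg m
  rw [div_le_one (by positivity)]
  linarith

theorem le_gam {m J K : ℕ} (hJ : 1 ≤ J) (h : 9 * (K + m) ≤ J) : 9 / 10 ≤ gam m J K := by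
  unfold gam
  have hJ0 : (0 : ℝ) < J := by exact_mod_cast hJ
  have hK0 : (0 : ℝ) ≤ K := Nat.cast_nonneg K
  have hm0 : (0 : ℝ) ≤ m := Nat.cast_nonneg m
  have h1 : 9 * ((K : ℝ) + m) ≤ J := by exact_mod_cast h
  rw [le_div_iff₀ (by positivity)]
  linarith

/-- the difference of `u` and the plane is small on the whole unit ball. -/
theorem fl0 (m n k J K : ℕ) (hJ : m + 1 ≤ J) (hJ2 : 2 ≤ J) {Λ c A : ℝ} (hΛ : 0 ≤ Λ) (hc : 0 < c)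
    (hA : 0 ≤ A) : ∃ δ₀ om₀ C : ℝ, 0 < δ₀ ∧ 0 < om₀ ∧ om₀ ≤ 1 ∧ 0 < C ∧
    ∀ {U : Set (Euc k)} {V : Measure (Euc k × L k)} {π : Euc k →L[ℝ] Euc m}
      {ρ : Euc k →L[ℝ] Euc n} {x : Euc k} {r : ℝ} {P : L k} {om : ℝ} {u : Euc m → Euc n}
      {W : Set (Euc k)} {mu : ℝ}, Hyp m n k J K Λ c A U V π ρ x r P om u W mu →
    ∫ p in W ×ˢ univ, ‖hgt π ρ x r u p.1‖ ^ 2 ∂V ≤ δ₀ * r ^ (m + 2) → om ≤ om₀ →
    ∃ T : Euc m →L[ℝ] Euc n, ‖T‖ ≤ 1 / 2 ∧ (∀ ξ : Euc k, P ξ = ξ → ρ ξ = T (π ξ)) ∧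
      ∀ z ∈ Metric.closedBall (0 : Euc m) 1,
        ‖(u - ⇑T) z‖ ≤ C * (mu + Real.sqrt om) ^ gam m J K := by
  obtain ⟨ε, hε, hε1, hper⟩ := persist2 m k hΛ (c := c / 2 ^ m) (by positivity)
  have hγ0 : 0 < gam m J K := gam_pos (by omega)
  set γ : ℝ := gam m J K with hγ
  set c₀ : ℝ := c / 2 ^ m / 2 * (1 / 4) ^ m with hc₀
  have hc₀0 : 0 < c₀ := by positivity
  obtain ⟨C₁, hC₁, htested⟩ := FL3_567.tested (Euc m) m J K (by omega) hc₀0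
    (A := A + 1) (by linarith)
  set δ₀ : ℝ := (c / 2 ^ m / 2) * (1 / 128) ^ m * (1 / 100) ^ 2 / 2 with hδ₀
  have hδ₀0 : 0 < δ₀ := by positivity
  have hδ₀1 : δ₀ < (c / 2 ^ m / 2) * (1 / 128) ^ m * (1 / 100) ^ 2 := half_lt_self (by positivity)
  set om₀ : ℝ := ε * (1 / 256) ^ (2 * (m + 1)) with hom₀
  have hom₀0 : 0 < om₀ := by positivity
  have hom₀1 : om₀ ≤ 1 := mul_le_one₀ hε1 (by positivity) (pow_le_one₀ (by norm_num) (by norm_num))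
  set C₂ : ℝ := 8 ^ J * (Real.sqrt ε ^ ((J : ℝ) / ((m : ℝ) + 1)))⁻¹ with hC₂
  have hC₂0 : 0 < C₂ := by
    have := Real.rpow_pos_of_pos (Real.sqrt_pos.2 hε) ((J : ℝ) / ((m : ℝ) + 1))
    positivity
  set C₃ : ℝ := C₁ * ((1 + Real.sqrt (3 * Λ)) ^ γ + C₂) with hC₃
  have hC₃0 : 0 < C₃ := by
    have := Real.rpow_pos_of_pos (by positivity : 0 < 1 + Real.sqrt (3 * Λ)) γ
    positivity
  refine ⟨δ₀, om₀, C₃, hδ₀0, hom₀0, hom₀1, hC₃0, ?_⟩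
  intro U V π ρ x r P om u W mu H hD hsmall
  have hr := H.r0
  have hom := H.om0
  have hmu := H.mu0
  set S : ℝ := mu + Real.sqrt om with hS
  have hS0 : 0 ≤ S := by positivity
  have hSγ : 0 ≤ S ^ γ := Real.rpow_nonneg hS0 γ
  have hom1 : om ≤ 1 := hsmall.trans hom₀1
  have hsq0 : 0 ≤ Real.sqrt om := Real.sqrt_nonneg _
  have hsqS : Real.sqrt om ≤ S := by rw [hS]; linarith
  -- the slope
  obtain ⟨T, hT1, hT2, hT3⟩ := exists_slope H.fr H.pl (slope_le H.st H.fr (c := c / 2 ^ m / 2)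
    (δ₀ := δ₀) hr H.U4 H.pl (fun ξ hPξ hξ => H.per hε hper hΛ (s := r / 128) (by positivity)
      (by linarith) (by
        refine hsmall.trans (le_of_eq ?_)
        have : r / 128 / (2 * r) = 1 / 256 := by field_simp; norm_num
        rw [hom₀, this]) hPξ (by linarith)) H.cd.continuous (fun a ha b hb =>
      (convex_closedBall (0 : Euc m) 1).norm_image_sub_le_of_norm_fderiv_le (𝕜 := ℝ)
        (fun y _ => (H.cd.differentiable (by exact_mod_cast (by omega : J ≠ 0))) y) H.bd1 hb ha)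
      H.Wm H.W1 H.W3 hD hδ₀1)
  refine ⟨T, hT1, hT2, ?_⟩
  -- the difference
  have hwc : ContDiff ℝ J (u - ⇑T) := H.cd.sub T.contDiff
  have hwA : ∀ y ∈ Metric.closedBall (0 : Euc m) 1, ‖(u - T) y‖ ≤ A + 1 := by
    intro y hy
    have h1 : ‖T y‖ ≤ 1 / 2 * 1 := by
      refine (T.le_opNorm y).trans (mul_le_mul hT1 ?_ (norm_nonneg _) (by norm_num))
      rwa [mem_closedBall_zero_iff] at hy
    have h2 := norm_sub_le (u y) (T y)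
    have h3 := H.bd0 y hy
    change ‖u y - T y‖ ≤ A + 1
    linarith
  have hwJ : ∀ y ∈ Metric.closedBall (0 : Euc m) 1, ‖iteratedFDeriv ℝ J (u - ⇑T) y‖ ≤ A + 1 := by
    intro y hy
    rw [iteratedFDeriv_sub_apply H.cd.contDiffAt T.contDiff.contDiffAt]
    refine (norm_sub_le _ _).trans ?_
    rw [iter_linear T hJ2 y]
    linarith [H.bdJ y hy]
  -- the masses
  set s₀ : ℝ := 8 * Real.sqrt (om / ε) ^ (1 / ((m : ℝ) + 1)) with hs₀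
  have hs₀0 : 0 ≤ s₀ := mul_nonneg (by norm_num) (Real.rpow_nonneg (Real.sqrt_nonneg _) _)
  have hmass : ∀ (y : Euc m) (δ : ℝ), s₀ ≤ δ → 0 < δ → δ ≤ 1 → ‖y‖ ≤ 1 - δ →
      c₀ * δ ^ m * r ^ m ≤
        (V.restrict (W ×ˢ univ)).real (bX π x r ⁻¹' Metric.closedBall y (δ / 2)) := by
    intro y δ hsδ hδ hδ1 hy
    obtain ⟨ξ, hPξ, hπξ⟩ := hT3 y
    refine H.mass hT1 hT2 hδ hδ1 hy hPξ hπξ ?_
    have hρξ : ‖ρ ξ‖ ≤ 1 / 2 * ‖y‖ := by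
      rw [hT2 ξ hPξ, hπξ]
      exact (T.le_opNorm y).trans (mul_le_mul_of_nonneg_right hT1 (norm_nonneg _))
    have hξn : ‖r • ξ‖ ≤ 2 * r := by
      rw [norm_smul, Real.norm_of_nonneg hr.le, mul_comm]
      refine mul_le_mul_of_nonneg_right ?_ hr.le
      have := norm_le_add H.fr ξ
      rw [hπξ] at this
      linarith
    refine H.per hε hper hΛ (s := r * δ / 4) (by positivity) (by nlinarith) ?_
      (by rw [map_smul, hPξ]) hξn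
    have := thr_aux hom hε hδ hsδ
    have e : r * δ / 4 / (2 * r) = δ / 8 := by field_simp; norm_num
    rw [e]
    exact this
  have := H.finW
  -- the sup bound
  intro z hz
  have h1 := htested (V.restrict (W ×ˢ (univ : Set (L k)))) (bX π x r) (u - ⇑T)
    (mu + Real.sqrt (3 * Λ) * Real.sqrt om) s₀ (r ^ m) (continuous_bX (k := k)).measurable hwc
    hwA hwJ (by positivity) hs₀0 (by positivity) hmass (H.tests hΛ hT1 hT2) z hz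
  have h2 : (mu + Real.sqrt (3 * Λ) * Real.sqrt om) ^ γ ≤ (1 + Real.sqrt (3 * Λ)) ^ γ * S ^ γ := by
    rw [← Real.mul_rpow (by positivity) hS0]
    refine Real.rpow_le_rpow (by positivity) ?_ hγ0.le
    have : 0 ≤ Real.sqrt (3 * Λ) * mu := by positivity
    rw [hS]
    nlinarith
  have h3 : s₀ ^ J ≤ C₂ * S ^ γ := by
    refine (pow_aux (K := K) hJ hom hom1 hε).trans ?_
    exact mul_le_mul_of_nonneg_left (Real.rpow_le_rpow hsq0 hsqS hγ0.le) hC₂0.le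
  calc ‖(u - ⇑T) z‖ ≤ C₁ * ((mu + Real.sqrt (3 * Λ) * Real.sqrt om) ^ γ + s₀ ^ J) := h1
    _ ≤ C₁ * ((1 + Real.sqrt (3 * Λ)) ^ γ * S ^ γ + C₂ * S ^ γ) := by gcongr
    _ = C₃ * S ^ γ := by rw [hC₃]; ring

/-- **node F9-FL, form (V7).** -/
theorem fl (m n k J K : ℕ) (hJ : m + 1 ≤ J) (hJ2 : 2 ≤ J) {Λ c A : ℝ} (hΛ : 0 ≤ Λ) (hc : 0 < c)
    (hA : 0 ≤ A) : ∃ δ₀ C : ℝ, 0 < δ₀ ∧ 0 < C ∧
    ∀ {U : Set (Euc k)} {V : Measure (Euc k × L k)} {π : Euc k →L[ℝ] Euc m}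
      {ρ : Euc k →L[ℝ] Euc n} {x : Euc k} {r : ℝ} {P : L k} {om : ℝ} {u : Euc m → Euc n}
      {W : Set (Euc k)} {mu : ℝ}, Hyp m n k J K Λ c A U V π ρ x r P om u W mu →
    ∫ p in W ×ˢ univ, ‖hgt π ρ x r u p.1‖ ^ 2 ∂V ≤ δ₀ * r ^ (m + 2) →
    ∫ p in W ×ˢ univ, ‖hgt π ρ x r u p.1‖ ^ 2 ∂V ≤
      C * ((mu + Real.sqrt om) ^ gam m J K) ^ 2 * r ^ (m + 2) := by
  obtain ⟨δ₀, om₀, C₃, hδ₀0, hom₀0, hom₀1, hC₃0, hfl0⟩ := fl0 m n k J K hJ hJ2 hΛ hc hA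
  have hγ0 : 0 < gam m J K := gam_pos (by omega)
  have hγ1 : gam m J K ≤ 1 := gam_le_one (by omega)
  set γ : ℝ := gam m J K with hγ
  have hom₀γ : 0 < (Real.sqrt om₀ ^ γ) ^ 2 := by
    have := Real.rpow_pos_of_pos (Real.sqrt_pos.2 hom₀0) γ
    positivity
  refine ⟨δ₀, δ₀ / (Real.sqrt om₀ ^ γ) ^ 2 + (9 / 2 + 2 * Λ * C₃ ^ 2), hδ₀0, by positivity, ?_⟩
  intro U V π ρ x r P om u W mu H hD
  have hr := H.r0
  have hom := H.om0
  have hmu := H.mu0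
  set S : ℝ := mu + Real.sqrt om with hS
  have hS0 : 0 ≤ S := by positivity
  have hr2 : (0 : ℝ) < r ^ (m + 2) := by positivity
  have hSγ : 0 ≤ S ^ γ := Real.rpow_nonneg hS0 γ
  rcases lt_or_ge om₀ om with hbig | hsmall
  · -- trivial case
    have h1 : (Real.sqrt om₀ ^ γ) ^ 2 ≤ (S ^ γ) ^ 2 := by
      refine pow_le_pow_left₀ (Real.rpow_nonneg (Real.sqrt_nonneg _) _) ?_ 2
      refine Real.rpow_le_rpow (Real.sqrt_nonneg _) ?_ hγ0.le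
      have := Real.sqrt_le_sqrt hbig.le
      linarith
    refine hD.trans (mul_le_mul_of_nonneg_right ?_ hr2.le)
    have h2 : δ₀ ≤ δ₀ / (Real.sqrt om₀ ^ γ) ^ 2 * (S ^ γ) ^ 2 := by
      rw [div_mul_eq_mul_div, le_div_iff₀ hom₀γ]
      gcongr
    have h3 : 0 ≤ (9 / 2 + 2 * Λ * C₃ ^ 2) * (S ^ γ) ^ 2 := by positivity
    rw [add_mul]
    linarith
  have hom1 : om ≤ 1 := hsmall.trans hom₀1
  have hsq0 : 0 ≤ Real.sqrt om := Real.sqrt_nonneg _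
  have hsq1 : Real.sqrt om ≤ 1 := Real.sqrt_le_one.2 hom1
  have hsqS : Real.sqrt om ≤ S := by rw [hS]; linarith
  obtain ⟨T, hT1, hT2, hsup⟩ := hfl0 H hD hsmall
  have homS : om ≤ (S ^ γ) ^ 2 := by
    have h1 : Real.sqrt om ≤ S ^ γ := by
      have h2 : Real.sqrt om ≤ Real.sqrt om ^ γ := by
        have := Real.rpow_le_rpow_of_exponent_ge' hsq0 hsq1 hγ0.le hγ1
        rwa [Real.rpow_one] at this
      exact h2.trans (Real.rpow_le_rpow hsq0 hsqS hγ0.le)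
    calc om = Real.sqrt om ^ 2 := (Real.sq_sqrt hom).symm
      _ ≤ _ := pow_le_pow_left₀ hsq0 h1 2
  refine (H.concl hΛ hT1 hT2 hsup).trans (mul_le_mul_of_nonneg_right ?_ hr2.le)
  have h1 : 0 ≤ δ₀ / (Real.sqrt om₀ ^ γ) ^ 2 * (S ^ γ) ^ 2 := by positivity
  rw [mul_pow, add_mul, add_mul]
  linarith

/-- absorption. -/
theorem absorb {γ C B : ℝ} (hγ : 9 / 10 ≤ γ) (hγ1 : γ ≤ 1) (hC : 0 < C) (hB : 0 ≤ B) :
    ∃ δ : ℝ, 0 < δ ∧ δ ≤ 1 ∧ ∀ {D mu om : ℝ}, 0 ≤ D → D ≤ δ → 0 ≤ mu → mu ≤ B * D ^ (3 / 4 : ℝ) →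
      0 ≤ om → D ≤ C * ((mu + Real.sqrt om) ^ γ) ^ 2 → D ≤ 4 * C * om ^ γ := by
  set η : ℝ := (4 * C * (B + 1) ^ 2)⁻¹ with hη
  have hη0 : 0 < η := by positivity
  refine ⟨min 1 (η ^ (20 / 7 : ℝ)), by positivity, min_le_left _ _, ?_⟩
  intro D mu om hD hDδ hmu hmuD hom h
  have hD1 : D ≤ 1 := hDδ.trans (min_le_left _ _)
  have hDη : D ≤ η ^ (20 / 7 : ℝ) := hDδ.trans (min_le_right _ _)
  have hγ0 : 0 < γ := by linarith
  have hs : 0 ≤ Real.sqrt om := Real.sqrt_nonneg _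
  have h1 : (mu + Real.sqrt om) ^ γ ≤ mu ^ γ + Real.sqrt om ^ γ :=
    Real.rpow_add_le_add_rpow hmu hs hγ0.le hγ1
  have h2 : ((mu + Real.sqrt om) ^ γ) ^ 2 ≤ 2 * (mu ^ γ) ^ 2 + 2 * (Real.sqrt om ^ γ) ^ 2 := by
    have h3 := pow_le_pow_left₀ (Real.rpow_nonneg (by positivity) _) h1 2
    nlinarith [sq_nonneg (mu ^ γ - Real.sqrt om ^ γ)]
  have h3 : (Real.sqrt om ^ γ) ^ 2 = om ^ γ := by
    rw [← Real.rpow_natCast, ← Real.rpow_mul hs, Real.sqrt_eq_rpow, ← Real.rpow_mul hom]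
    congr 1
    push_cast
    ring
  have h4 : (mu ^ γ) ^ 2 ≤ (B + 1) ^ 2 * (D * η) := by
    have a1 : mu ^ γ ≤ (B + 1) * (D ^ (3 / 4 : ℝ)) ^ γ := by
      have hD34 : 0 ≤ D ^ (3 / 4 : ℝ) := Real.rpow_nonneg hD _
      have a2 : mu ≤ (B + 1) * D ^ (3 / 4 : ℝ) := by linarith
      refine (Real.rpow_le_rpow hmu a2 hγ0.le).trans ?_
      rw [Real.mul_rpow (by positivity) hD34]
      refine mul_le_mul_of_nonneg_right ?_ (Real.rpow_nonneg hD34 _)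
      have := Real.rpow_le_rpow_of_exponent_le (by linarith : (1:ℝ) ≤ B + 1) hγ1
      rwa [Real.rpow_one] at this
    have a3 : ((D ^ (3 / 4 : ℝ)) ^ γ) ^ 2 ≤ D * η := by
      rw [← Real.rpow_mul hD, ← Real.rpow_natCast, ← Real.rpow_mul hD]
      have a4 : D ^ (3 / 4 * γ * ((2 : ℕ) : ℝ)) ≤ D ^ (1 + 7 / 20 : ℝ) := by
        refine Real.rpow_le_rpow_of_exponent_ge' hD hD1 (by norm_num) ?_
        push_cast
        linarith
      refine a4.trans ?_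
      rw [Real.rpow_add_of_nonneg hD (by norm_num) (by norm_num), Real.rpow_one]
      refine mul_le_mul_of_nonneg_left ?_ hD
      refine (Real.rpow_le_rpow hD hDη (by norm_num)).trans (le_of_eq ?_)
      rw [← Real.rpow_mul hη0.le]
      norm_num
    calc (mu ^ γ) ^ 2 ≤ ((B + 1) * (D ^ (3 / 4 : ℝ)) ^ γ) ^ 2 :=
          pow_le_pow_left₀ (Real.rpow_nonneg hmu _) a1 2
      _ = (B + 1) ^ 2 * ((D ^ (3 / 4 : ℝ)) ^ γ) ^ 2 := by ring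
      _ ≤ _ := by gcongr
  have h5 : D ≤ C * (2 * ((B + 1) ^ 2 * (D * η)) + 2 * om ^ γ) := by
    refine h.trans (mul_le_mul_of_nonneg_left ?_ hC.le)
    rw [← h3]
    linarith
  have h6 : C * (2 * ((B + 1) ^ 2 * (D * η))) = D / 2 := by
    rw [hη]
    field_simp
    ring
  linarith

/-- **node F9-FL, closed form**: `mu ≤ B D^(3/4)` and `J ≥ 9 (K + m)` give `D ≤ C om^(9/10)`. -/
theorem fl' (m n k J K : ℕ) (hJ : m + 1 ≤ J) (hJ2 : 2 ≤ J) (hJ9 : 9 * (K + m) ≤ J) {Λ c A B : ℝ}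
    (hΛ : 0 ≤ Λ) (hc : 0 < c) (hA : 0 ≤ A) (hB : 0 ≤ B) : ∃ δ₀ C : ℝ, 0 < δ₀ ∧ 0 < C ∧
    ∀ {U : Set (Euc k)} {V : Measure (Euc k × L k)} {π : Euc k →L[ℝ] Euc m}
      {ρ : Euc k →L[ℝ] Euc n} {x : Euc k} {r : ℝ} {P : L k} {om : ℝ} {u : Euc m → Euc n}
      {W : Set (Euc k)} {mu D : ℝ}, Hyp m n k J K Λ c A U V π ρ x r P om u W mu →
    ∫ p in W ×ˢ univ, ‖hgt π ρ x r u p.1‖ ^ 2 ∂V = D * r ^ (m + 2) → D ≤ δ₀ →
    mu ≤ B * D ^ (3 / 4 : ℝ) → D ≤ C * om ^ gam m J K ∧ (om ≤ 1 → D ≤ C * om ^ (9 / 10 : ℝ)) := by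
  obtain ⟨δ₁, C₁, hδ₁, hC₁, h⟩ := fl m n k J K hJ hJ2 hΛ hc hA
  have hγ := le_gam (m := m) (J := J) (K := K) (by omega) hJ9
  have hγ1 := gam_le_one (m := m) (J := J) (K := K) (by omega)
  obtain ⟨δ₂, hδ₂, hδ₂1, habs⟩ := absorb hγ hγ1 hC₁ hB
  refine ⟨min δ₁ δ₂, 4 * C₁, by positivity, by positivity, ?_⟩
  intro U V π ρ x r P om u W mu D H hD hDδ hmu
  have hr : 0 < r := H.r0
  have hr2 : (0 : ℝ) < r ^ (m + 2) := by positivity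
  have hD0 : 0 ≤ D := by
    have h1 : 0 ≤ D * r ^ (m + 2) := by
      rw [← hD]
      exact integral_nonneg fun p => by positivity
    exact nonneg_of_mul_nonneg_left h1 hr2
  have h1 := h H (by
    rw [hD]
    exact mul_le_mul_of_nonneg_right (hDδ.trans (min_le_left _ _)) hr2.le)
  rw [hD] at h1
  have h2 : D ≤ C₁ * ((mu + Real.sqrt om) ^ gam m J K) ^ 2 := le_of_mul_le_mul_right h1 hr2
  have h3 := habs hD0 (hDδ.trans (min_le_right _ _)) H.mu0 hmu H.om0 h2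
  refine ⟨h3, fun hom1 => h3.trans ?_⟩
  refine mul_le_mul_of_nonneg_left ?_ (by positivity)
  exact Real.rpow_le_rpow_of_exponent_ge' H.om0 hom1 (by norm_num) hγ

end Crest.Agent.R234.FL6_567
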