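import Crest.Agent.R234.FL6_567
import Crest.Agent.R234.End4_395
import Crest.Agent.R234.Stp1_518
import Crest.Agent.R234.Top9_395

/-!
# R234 (helper567), fields `fl`, `large` of `F10d_188.Thy`, part 1: from block units to the scale `r`

* `zm t u` : the rescaled graph function `t⁻¹ u (t ·)` and its derivatives;
* `gr_of_bd` : `Gr S w`, `w = S u(S⁻¹ ·)`;
* `u0_le` : height of the centre;
* `reg_ae` : the region `Kc` and the box agree a.e. over the ball of radius `r`;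
* `test_scale` : tests in the unit of the block against tests at the scale `r`.
-/

set_option autoImplicit false
set_option linter.unusedVariables false
set_option linter.unusedSectionVars false

open MeasureTheory Filter Topology Set
open scoped ENNReal NNReal ContDiff
open Crest.GeometryTopology.Submanifold Crest.Agent.R234.Vf_884
open Crest.Agent.R234.Strat3_842 (tilt height)
open Crest.Agent.R234.Main_456 (Frame hgt box)
open Crest.Agent.R234.FL2_567 Crest.Agent.R234.FL4_567 Crest.Agent.R234.FL5_567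
open Crest.Agent.R234.Gi_456 (Gr tube foot yy ch Kc pm)

noncomputable section

namespace Crest.Agent.R234.FL7_567

variable {m n k : ℕ}

/-- the rescaled graph function. -/
def zm (t : ℝ) (u : Euc m → Euc n) (y : Euc m) : Euc n := t⁻¹ • u (t • y)

theorem zm_contDiff {J : ℕ} {t : ℝ} {u : Euc m → Euc n} (hu : ContDiff ℝ J u) :
    ContDiff ℝ J (zm t u) :=
  (hu.comp (contDiff_id.const_smul t)).const_smul t⁻¹

theorem zm_iter {J : ℕ} {t : ℝ} (ht : 0 < t) {u : Euc m → Euc n} (hu : ContDiff ℝ J u) (y : Euc m) :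
    ‖iteratedFDeriv ℝ J (zm t u) y‖ ≤ t⁻¹ * (t ^ J * ‖iteratedFDeriv ℝ J u (t • y)‖) := by
  set g : Euc m →L[ℝ] Euc m := t • ContinuousLinearMap.id ℝ (Euc m) with hg
  have hgn : ‖g‖ ≤ t := by
    rw [hg, norm_smul, Real.norm_of_nonneg ht.le]
    have := ContinuousLinearMap.norm_id_le (𝕜 := ℝ) (E := Euc m)
    nlinarith
  have h1 : zm t u = fun y => t⁻¹ • (u ∘ g) y := by
    funext y
    simp [hg, zm]
  have hc : ContDiff ℝ J (u ∘ g) := hu.comp g.contDiff
  rw [h1, iteratedFDeriv_const_smul_apply' hc.contDiffAt, norm_smul, norm_inv,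
    Real.norm_of_nonneg ht.le]
  refine mul_le_mul_of_nonneg_left ?_ (by positivity)
  rw [g.iteratedFDeriv_comp_right hu y le_rfl]
  refine (ContinuousMultilinearMap.norm_compContinuousLinearMap_le _ _).trans ?_
  have h4 : g y = t • y := by simp [hg]
  rw [h4, Finset.prod_const, Finset.card_univ, Fintype.card_fin, mul_comm]
  exact mul_le_mul_of_nonneg_right (pow_le_pow_left₀ (norm_nonneg _) hgn J) (norm_nonneg _)

theorem zm_fderiv {t : ℝ} (ht : 0 < t) {u : Euc m → Euc n} (hu : Differentiable ℝ u) (y : Euc m) :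
    fderiv ℝ (zm t u) y = fderiv ℝ u (t • y) := by
  have h4 : HasFDerivAt (fun w : Euc m => t • w) (t • ContinuousLinearMap.id ℝ (Euc m)) y :=
    (hasFDerivAt_id y).const_smul t
  have h5 := (((hu (t • y)).hasFDerivAt.comp y h4).const_smul t⁻¹).fderiv
  refine Eq.trans h5 ?_
  rw [ContinuousLinearMap.comp_smul, smul_smul, inv_mul_cancel₀ ht.ne', one_smul,
    ContinuousLinearMap.comp_id]

theorem hgt_zm (π : Euc k →L[ℝ] Euc m) (ρ : Euc k →L[ℝ] Euc n) (x : Euc k) {S t : ℝ} (hS : 0 < S)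
    (ht : 0 < t) (u : Euc m → Euc n) : hgt π ρ x (S * t) (zm t u) = hgt π ρ x S u :=
  Top_395.hgt_rescale hS.ne' ht.ne' u

/-- the graph function in physical units. -/
def ws (S : ℝ) (u : Euc m → Euc n) (X : Euc m) : Euc n := S • u (S⁻¹ • X)

theorem ws_eq_zm {S : ℝ} (u : Euc m → Euc n) : ws S u = zm S⁻¹ u := by
  funext X
  unfold ws zm
  rw [inv_inv]

/-- `Gr`. -/
theorem gr_of_bd {S κ : ℝ} (hS : 0 < S) (hκ : κ ≤ 1 / 8) {u : Euc m → Euc n} (hu : ContDiff ℝ 4 u)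
    (h1 : ∀ y, ‖iteratedFDeriv ℝ 1 u y‖ ≤ κ) (h2 : ∀ y, ‖iteratedFDeriv ℝ 2 u y‖ ≤ κ) :
    Gr S (ws S u) ∧ (∀ X, ‖fderiv ℝ (ws S u) X‖ ≤ κ) ∧
      ∀ X, S * ‖fderiv ℝ (fderiv ℝ (ws S u)) X‖ ≤ κ := by
  have hS' : 0 < S⁻¹ := inv_pos.2 hS
  have hd : Differentiable ℝ u := hu.differentiable (by norm_num)
  have e1 : ∀ X, ‖fderiv ℝ (ws S u) X‖ ≤ κ := by
    intro X
    rw [ws_eq_zm, zm_fderiv hS' hd]
    have := h1 (S⁻¹ • X)
    rwa [norm_iteratedFDeriv_one] at this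
  have e2 : ∀ X, S * ‖fderiv ℝ (fderiv ℝ (ws S u)) X‖ ≤ κ := by
    intro X
    have e3 : ‖fderiv ℝ (fderiv ℝ (ws S u)) X‖ = ‖iteratedFDeriv ℝ 2 (ws S u) X‖ := by
      rw [← norm_iteratedFDeriv_one, norm_iteratedFDeriv_fderiv]
    rw [e3, ws_eq_zm]
    have e4 := zm_iter (J := 2) hS' (hu.of_le (by norm_num)) X
    have e5 := h2 (S⁻¹ • X)
    rw [inv_inv] at e4
    calc S * ‖iteratedFDeriv ℝ 2 (zm S⁻¹ u) X‖
        ≤ S * (S * ((S⁻¹) ^ 2 * κ)) := by
          refine mul_le_mul_of_nonneg_left (e4.trans ?_) hS.le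
          gcongr
      _ = κ := by field_simp
  refine ⟨⟨hS, ?_, fun X => (e1 X).trans hκ, fun X => ?_⟩, e1, e2⟩
  · rw [ws_eq_zm]
    have := zm_contDiff (J := 4) (t := S⁻¹) hu
    exact_mod_cast this
  · have := e2 X
    rw [le_div_iff₀ (by positivity)]
    linarith

/-- height of the centre. -/
theorem u0_le {V : Measure (Euc k × L k)} {π : Euc k →L[ℝ] Euc m} {ρ : Euc k →L[ℝ] Euc n}
    (hf : Frame π ρ)
    {x : Euc k} {S R η c : ℝ} {u : Euc m → Euc n} (hu : Continuous u) (hS : 0 < S) (hR : 0 < R)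
    (hc : 0 < c) (hlow : ∀ s, 0 < s → s ≤ R → c * s ^ m ≤ V.real (Metric.closedBall x s ×ˢ univ))
    (hsup : ∀ᵐ p ∂V, ‖π (p.1 - x)‖ ≤ R → ‖ρ (p.1 - x)‖ ≤ S → ‖hgt π ρ x S u p.1‖ ≤ S * η) :
    ‖u 0‖ ≤ η := by
  by_contra hcon
  push Not at hcon
  have h0 : S * η < ‖hgt π ρ x S u x‖ := by
    unfold hgt
    simp only [sub_self, map_zero, smul_zero, zero_sub, norm_neg, norm_smul,
      Real.norm_of_nonneg hS.le]
    exact mul_lt_mul_of_pos_left hcon hS
  have hopen : IsOpen {z | S * η < ‖hgt π ρ x S u z‖} :=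
    isOpen_lt continuous_const (continuous_hgt hu).norm
  obtain ⟨s, hs, hsub⟩ := Metric.isOpen_iff.1 hopen x h0
  set t := min (s / 2) (min R S) with ht
  have ht0 : 0 < t := by positivity
  have htR : t ≤ R := (min_le_right _ _).trans (min_le_left _ _)
  have htS : t ≤ S := (min_le_right _ _).trans (min_le_right _ _)
  have hts : t ≤ s / 2 := min_le_left _ _
  have hnull : V (Metric.closedBall x t ×ˢ (univ : Set (L k))) = 0 := by
    rw [measure_eq_zero_iff_ae_notMem]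
    filter_upwards [hsup] with p hp hpm
    have h1 : ‖p.1 - x‖ ≤ t := by
      have := hpm.1
      rwa [Metric.mem_closedBall, dist_eq_norm] at this
    have h2 := hp ((norm_pi_le hf _).trans (h1.trans htR)) ((norm_rho_le hf _).trans (h1.trans htS))
    have h3 : p.1 ∈ Metric.ball x s := by
      rw [Metric.mem_ball, dist_eq_norm]
      linarith
    exact absurd h2 (not_le.2 (hsub h3))
  have h4 := hlow t ht0 htR
  rw [measureReal_def, hnull, ENNReal.toReal_zero] at h4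
  have : 0 < c * t ^ m := by positivity
  linarith

variable {V : Measure (Euc k × L k)} {π : Euc k →L[ℝ] Euc m} {ρ : Euc k →L[ℝ] Euc n} {x : Euc k}
  {S r η : ℝ} {u : Euc m → Euc n}

theorem hgt_ws (z : Euc k) : hgt π ρ x S u z = ρ (z - x) - ws S u (π (z - x)) := rfl

theorem ws_zero : ‖ws S u 0‖ = |S| * ‖u 0‖ := by
  unfold ws
  rw [smul_zero, norm_smul, Real.norm_eq_abs]

/-- the region and the box agree a.e. over the ball of radius `r`. -/
theorem reg_ae (hf : Frame π ρ) (hg : Gr S (ws S u)) (hr : 0 < r) (hrS : r ≤ S)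
    (hη : S * η ≤ r / 4) (hu0 : ‖u 0‖ ≤ η)
    (hsup : ∀ᵐ p ∂V, ‖π (p.1 - x)‖ ≤ r → ‖ρ (p.1 - x)‖ ≤ S → ‖hgt π ρ x S u p.1‖ ≤ S * η) :
    ∀ᵐ p ∂V, ‖π (p.1 - x)‖ < r →
      (p.1 ∈ Kc π ρ x (ws S u) 0 (2 * S) (S / 2) ↔ p.1 ∈ box π ρ x r) := by
  have hS := hg.pos
  have hS' : 65 / 64 * (S / 2) < S := by linarith
  have hw0 : ‖ws S u 0‖ ≤ r / 4 := by
    rw [ws_zero, abs_of_pos hS]
    exact (mul_le_mul_of_nonneg_left hu0 hS.le).trans hη
  filter_upwards [hsup] with p hp hπ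
  have hlip : ‖ws S u (π (p.1 - x))‖ ≤ r / 4 + 1 / 8 * r := by
    have h1 := hg.lip (π (p.1 - x)) 0
    rw [sub_zero] at h1
    have h2 := norm_le_norm_add_norm_sub' (ws S u (π (p.1 - x))) (ws S u 0)
    linarith
  constructor
  · intro hz
    obtain ⟨h1, h2, h3⟩ := (hg.mem_Kc hf hS').1 hz
    have h4 := hg.norm_yy_sub h1
    have h5 := norm_le_norm_add_norm_sub (yy π ρ x S (ws S u) p.1)
      (ρ (p.1 - x) - ws S u (π (p.1 - x)))
    have h6 : ‖ρ (p.1 - x)‖ ≤ ‖ρ (p.1 - x) - ws S u (π (p.1 - x))‖ + ‖ws S u (π (p.1 - x))‖ := by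
      have := norm_add_le (ρ (p.1 - x) - ws S u (π (p.1 - x))) (ws S u (π (p.1 - x)))
      rwa [sub_add_cancel] at this
    have h7 : ‖ρ (p.1 - x)‖ ≤ S := by linarith
    have h8 := hp hπ.le h7
    rw [hgt_ws] at h8
    exact ⟨hπ, by linarith⟩
  · rintro ⟨-, hρ⟩
    have h8 := hp hπ.le (hρ.le.trans hrS)
    rw [hgt_ws] at h8
    have h1 : p.1 ∈ tube π ρ x S (ws S u) := by
      show ‖ρ (p.1 - x) - ws S u (π (p.1 - x))‖ < S
      linarith
    refine (hg.mem_Kc hf hS').2 ⟨h1, ?_, ?_⟩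
    · rw [sub_zero]
      have h2 := hg.norm_foot_sub h1
      have h3 := norm_le_norm_add_norm_sub' (foot π ρ x S (ws S u) p.1) (π (p.1 - x))
      linarith
    · have h2 := hg.norm_yy_le h1
      linarith

/-- **tests at the scale `r = S rad`.** -/
theorem test_scale {Ks : ℕ} {rad τ : ℝ} (hS : 0 < S) (hrad : 0 < rad) (hrad1 : rad ≤ 1)
    {A : Set (Euc k × L k)} (hAm : MeasurableSet A)
    (hA : ∀ᵐ p ∂V, ‖π (p.1 - x)‖ < S * rad → (p ∈ A ↔ p ∈ box π ρ x (S * rad) ×ˢ (univ : Set (L k))))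
    (hmean : ∀ ζ : Euc m → ℝ, ContDiff ℝ ∞ ζ → tsupport ζ ⊆ Metric.ball 0 rad →
      (∀ j ≤ Ks, ∀ z, ‖iteratedFDeriv ℝ j ζ z‖ ≤ 1) →
      ‖∫ p in A, ζ (S⁻¹ • π (p.1 - x)) • hgt π ρ x S u p.1 ∂V‖ ≤ τ) :
    ∀ ζ : Euc m → ℝ, ContDiff ℝ ∞ ζ → tsupport ζ ⊆ Metric.ball 0 1 →
      (∀ j ≤ Ks, ∀ z, ‖iteratedFDeriv ℝ j ζ z‖ ≤ 1) →
      ‖∫ p in box π ρ x (S * rad) ×ˢ univ, ζ ((S * rad)⁻¹ • π (p.1 - x)) •
        hgt π ρ x (S * rad) (zm rad u) p.1 ∂V‖ ≤ (rad⁻¹) ^ Ks * τ := by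
  intro ζ hζ1 hζ2 hζ3
  have hr : 0 < S * rad := by positivity
  set a := rad ^ Ks with ha
  have ha0 : 0 < a := by positivity
  set t := rad⁻¹ with ht
  have ht0 : 0 < t := by positivity
  have ht1 : 1 ≤ t := (one_le_inv₀ hrad).2 hrad1
  have hat : a * t ^ Ks = 1 := by
    rw [ha, ht, ← mul_pow, mul_inv_cancel₀ hrad.ne', one_pow]
  set ζ' : Euc m → ℝ := fun y => a * ζ (t • y) with hζ'
  have h1 : ContDiff ℝ ∞ ζ' := contDiff_const.mul (hζ1.comp (contDiff_const_smul t))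
  have h2 : tsupport ζ' ⊆ Metric.ball 0 rad := by
    have e1 : tsupport ζ' ⊆ (fun y : Euc m => t • y) ⁻¹' (tsupport ζ) := by
      refine closure_minimal ?_ ((isClosed_tsupport ζ).preimage (continuous_const_smul t))
      intro y hy
      refine subset_tsupport ζ ?_
      intro h0
      exact hy (by rw [hζ']; simp only [h0, mul_zero])
    intro y hy
    have e2 := hζ2 (e1 hy)
    rw [mem_ball_zero_iff, norm_smul, Real.norm_of_nonneg ht0.le, ht, inv_mul_lt_iff₀ hrad,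
      mul_one] at e2
    rwa [mem_ball_zero_iff]
  have h3 : ∀ j ≤ Ks, ∀ z, ‖iteratedFDeriv ℝ j ζ' z‖ ≤ 1 := by
    intro j hj z
    have hcd : ContDiff ℝ j ζ := hζ1.of_le (by exact_mod_cast le_top)
    set g : Euc m →L[ℝ] Euc m := t • ContinuousLinearMap.id ℝ (Euc m) with hg
    have hgn : ‖g‖ ≤ t := by
      rw [hg, norm_smul, Real.norm_of_nonneg ht0.le]
      have := ContinuousLinearMap.norm_id_le (𝕜 := ℝ) (E := Euc m)
      nlinarith
    have e1 : ζ' = fun y => a • (ζ ∘ g) y := by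
      funext y
      simp [hg, hζ']
    have hc : ContDiff ℝ j (ζ ∘ g) := hcd.comp g.contDiff
    rw [e1, iteratedFDeriv_const_smul_apply' hc.contDiffAt, norm_smul, Real.norm_of_nonneg ha0.le,
      g.iteratedFDeriv_comp_right hcd z le_rfl]
    calc a * ‖(iteratedFDeriv ℝ j ζ (g z)).compContinuousLinearMap fun _ => g‖
        ≤ a * (1 * t ^ Ks) := by
          refine mul_le_mul_of_nonneg_left ?_ ha0.le
          refine (ContinuousMultilinearMap.norm_compContinuousLinearMap_le _ _).trans ?_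
          refine mul_le_mul (hζ3 j hj _) ?_ (Finset.prod_nonneg fun _ _ => norm_nonneg _) zero_le_one
          rw [Finset.prod_const, Finset.card_univ, Fintype.card_fin]
          exact (pow_le_pow_left₀ (norm_nonneg _) hgn j).trans (pow_le_pow_right₀ ht1 hj)
      _ = 1 := by rw [one_mul, hat]
  have h4 := hmean ζ' h1 h2 h3
  have hbox : MeasurableSet (box π ρ x (S * rad) ×ˢ (univ : Set (L k))) :=
    (End_395.isOpen_box π ρ x _).measurableSet.prod MeasurableSet.univ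
  have h5 : ∫ p in A, ζ' (S⁻¹ • π (p.1 - x)) • hgt π ρ x S u p.1 ∂V =
      a • ∫ p in box π ρ x (S * rad) ×ˢ univ, ζ ((S * rad)⁻¹ • π (p.1 - x)) •
        hgt π ρ x (S * rad) (zm rad u) p.1 ∂V := by
    have e0 : ∀ p : Euc k × L k, ζ' (S⁻¹ • π (p.1 - x)) = a * ζ ((S * rad)⁻¹ • π (p.1 - x)) := by
      intro p
      rw [hζ']
      simp only
      rw [smul_smul]
      congr 3
      rw [ht, mul_inv, mul_comm]
    rw [hgt_zm π ρ x hS hrad, ← integral_smul, ← integral_indicator hAm, ← integral_indicator hbox]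
    refine integral_congr_ae ?_
    filter_upwards [hA] with p hp
    by_cases hπ : ‖π (p.1 - x)‖ < S * rad
    · have e1 := hp hπ
      by_cases hpA : p ∈ A
      · rw [indicator_of_mem hpA, indicator_of_mem (e1.1 hpA), e0, mul_smul]
      · rw [indicator_of_notMem hpA, indicator_of_notMem (fun h => hpA (e1.2 h))]
    · have e1 : ζ ((S * rad)⁻¹ • π (p.1 - x)) = 0 := by
        by_contra hne
        have e2 := hζ2 (subset_tsupport ζ hne)
        rw [mem_ball_zero_iff, norm_smul, norm_inv, Real.norm_of_nonneg hr.le,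
          inv_mul_lt_iff₀ hr, mul_one] at e2
        exact hπ e2
      have e3 : A.indicator (fun p => ζ' (S⁻¹ • π (p.1 - x)) • hgt π ρ x S u p.1) p = 0 := by
        refine indicator_apply_eq_zero.2 fun _ => ?_
        rw [e0, e1, mul_zero, zero_smul]
      have e4 : (box π ρ x (S * rad) ×ˢ (univ : Set (L k))).indicator
          (fun p => a • ζ ((S * rad)⁻¹ • π (p.1 - x)) • hgt π ρ x S u p.1) p = 0 := by
        refine indicator_apply_eq_zero.2 fun _ => ?_
        rw [e1, zero_smul, smul_zero]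
      rw [e3, e4]
  rw [h5, norm_smul, Real.norm_of_nonneg ha0.le] at h4
  calc ‖∫ p in box π ρ x (S * rad) ×ˢ univ, ζ ((S * rad)⁻¹ • π (p.1 - x)) •
        hgt π ρ x (S * rad) (zm rad u) p.1 ∂V‖
      = t ^ Ks * (a * ‖∫ p in box π ρ x (S * rad) ×ˢ univ, ζ ((S * rad)⁻¹ • π (p.1 - x)) •
        hgt π ρ x (S * rad) (zm rad u) p.1 ∂V‖) := by
        rw [← mul_assoc, mul_comm (t ^ Ks) a, hat, one_mul]
    _ ≤ t ^ Ks * τ := by gcongr

end Crest.Agent.R234.FL7_567
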