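import Crest.Agent.R234.FL7_567
import Crest.Agent.R234.GL7_394

/-!
# R234 (helper567), fields `fl`, `large` of `F10d_188.Thy`, part 2: the functional `I` against the
height integral over the box

* `box_of_near` : points whose foot is in the ball `e` are over the ball of radius `r > e`;
* `II_le_box` : `II ≤ 27 B / 2 e^{-ml} ∫_W ‖hgt‖²`.
-/

set_option autoImplicit false
set_option linter.unusedVariables false
set_option linter.unusedSectionVars false

open MeasureTheory Filter Topology Set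
open scoped ENNReal NNReal ContDiff
open Crest.GeometryTopology.Submanifold Crest.Agent.R234.Vf_884
open Crest.Agent.R234.Strat3_842 (tilt height)
open Crest.Agent.R234.Main_456 (Frame hgt box)
open Crest.Agent.R234.FL2_567 Crest.Agent.R234.FL4_567 Crest.Agent.R234.FL5_567
open Crest.Agent.R234.Gi_456 (Gr tube foot yy ch Kc pm)
open Crest.Agent.R234.FL7_567

noncomputable section

namespace Crest.Agent.R234.FL8_567

variable {m n k : ℕ} {V : Measure (Euc k × L k)} {π : Euc k →L[ℝ] Euc m} {ρ : Euc k →L[ℝ] Euc n}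
  {x : Euc k} {S rad η : ℝ} {u : Euc m → Euc n}

theorem ws_zm (hS : 0 < S) (hrad : 0 < rad) (u : Euc m → Euc n) (X : Euc m) :
    ws S u X = (S * rad) • zm rad u ((S * rad)⁻¹ • X) := by
  unfold ws zm
  have e1 : rad • (S * rad)⁻¹ • X = S⁻¹ • X := by
    rw [smul_smul]
    congr 1
    field_simp
  rw [e1, smul_smul]
  congr 1
  field_simp

/-- points whose foot is in the ball of radius `e` are in the box of radius `r > e`. -/
theorem box_of_near (hf : Frame π ρ) (hg : Gr S (ws S u)) (hrad : 0 < rad) {P : L k}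
    (hP : P ∈ G m k) {T : Euc m →L[ℝ] Euc n} (hT1 : ‖T‖ ≤ 1 / 2)
    (hT2 : ∀ ξ : Euc k, P ξ = ξ → ρ ξ = T (π ξ)) {θ η₂ e : ℝ}
    (hsup : ∀ y ∈ Metric.closedBall (0 : Euc m) 1, ‖(zm rad u - ⇑T) y‖ ≤ θ)
    (her : e ≤ S * rad) (hgap : η₂ + S * rad * θ < S * rad - e) (h8 : η₂ + S * rad * θ ≤ S * rad / 8)
    (hw0 : ‖ws S u 0‖ ≤ S * rad / 4) {z : Euc k} (hz : z ∈ tube π ρ x S (ws S u))
    (hfoot : ‖foot π ρ x S (ws S u) z‖ ≤ e) (hnear : ‖(z - x) - P (z - x)‖ ≤ η₂) :
    z ∈ box π ρ x (S * rad) := by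
  have hS := hg.pos
  set r := S * rad with hr
  have hr0 : 0 < r := by positivity
  set F := foot π ρ x S (ws S u) z with hF
  set Y := yy π ρ x S (ws S u) z with hY
  have hfix := hg.foot_fix hz
  rw [← hF, ← hY] at hfix
  have h1 : ‖F - π (z - x)‖ ≤ 1 / 8 * ‖Y‖ := by
    have e1 : F - π (z - x) = ContinuousLinearMap.adjoint (fderiv ℝ (ws S u) F) Y := by
      nth_rewrite 1 [hfix]
      abel
    rw [e1]
    exact End_395.adj_le hg F Y
  have h2 : ‖ws S u F - T F‖ ≤ r * θ := by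
    have hF1 : r⁻¹ • F ∈ Metric.closedBall (0 : Euc m) 1 := by
      rw [mem_closedBall_zero_iff, norm_smul, norm_inv, Real.norm_of_nonneg hr0.le,
        inv_mul_le_iff₀ hr0, mul_one]
      exact hfoot.trans her
    have e1 : ws S u F - T F = r • (zm rad u - ⇑T) (r⁻¹ • F) := by
      rw [ws_zm hS hrad, ← hr]
      change r • zm rad u (r⁻¹ • F) - T F = r • (zm rad u (r⁻¹ • F) - T (r⁻¹ • F))
      rw [smul_sub, map_smul, smul_smul, mul_inv_cancel₀ hr0.ne', one_smul]
    rw [e1, norm_smul, Real.norm_of_nonneg hr0.le]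
    exact mul_le_mul_of_nonneg_left (hsup _ hF1) hr0.le
  have h3 := vert_le hf hP hT1 hT2 (z - x)
  have h4 : ‖Y‖ ≤ 3 / 2 * η₂ + 1 / 2 * (1 / 8 * ‖Y‖) + r * θ := by
    have e1 : Y = (ρ (z - x) - T (π (z - x))) - T (F - π (z - x)) - (ws S u F - T F) := by
      have e0 : T (F - π (z - x)) = T F - T (π (z - x)) := map_sub T _ _
      rw [hY, e0]
      change ρ (z - x) - ws S u F = _
      abel
    have e2 : ‖T (F - π (z - x))‖ ≤ 1 / 2 * (1 / 8 * ‖Y‖) :=
      (T.le_opNorm _).trans (mul_le_mul hT1 h1 (norm_nonneg _) (by norm_num))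
    have e3 : ‖ρ (z - x) - T (π (z - x))‖ ≤ 3 / 2 * η₂ := h3.trans (by gcongr)
    calc ‖Y‖ = ‖(ρ (z - x) - T (π (z - x))) - T (F - π (z - x)) - (ws S u F - T F)‖ := by rw [← e1]
      _ ≤ ‖(ρ (z - x) - T (π (z - x))) - T (F - π (z - x))‖ + ‖ws S u F - T F‖ := norm_sub_le _ _
      _ ≤ _ := add_le_add ((norm_sub_le _ _).trans (add_le_add e3 e2)) h2
  have hη₂ : 0 ≤ η₂ := (norm_nonneg _).trans hnear
  have hθ : 0 ≤ r * θ := (norm_nonneg _).trans h2
  have h5 : ‖Y‖ ≤ 2 * (η₂ + r * θ) := by linarith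
  have h6 : ‖π (z - x)‖ ≤ ‖F‖ + ‖F - π (z - x)‖ := norm_le_norm_add_norm_sub _ _
  refine ⟨by linarith, ?_⟩
  have h7 : ‖ws S u F‖ ≤ ‖ws S u 0‖ + 1 / 8 * r := by
    have e1 := hg.lip F 0
    rw [sub_zero] at e1
    have e2 := norm_le_norm_add_norm_sub' (ws S u F) (ws S u 0)
    have e3 : ‖F‖ ≤ r := hfoot.trans her
    linarith
  have h8' : ‖ρ (z - x)‖ ≤ ‖Y‖ + ‖ws S u F‖ := by
    have e1 : ρ (z - x) = Y + ws S u F := by
      rw [hY]
      change ρ (z - x) = (ρ (z - x) - ws S u F) + ws S u F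
      abel
    rw [e1]
    exact norm_add_le _ _
  linarith

open Crest.Agent.R234.End_395 (Cmp ig ig_nonneg II_eq sq_arg)
open Crest.Agent.R234.GL_394 (Ch VK II Pf)

/-- upper bound of `II` by the height integral over `W`. -/
theorem II_le_box {c : Ch m k} {K W : Set (Euc k)} {h : Euc k → Euc n} {p : Euc k → Euc m}
    {g g1 g2 : ℝ → ℝ} {B l : ℝ} (hc : Cmp c K h p l) (hg : Pf g g1 g2 B) (hB : 0 ≤ B)
    (hKm : MeasurableSet K) (hWm : MeasurableSet W)
    (hbox : ∀ᵐ q ∂V, q.1 ∈ K → ‖c.x q.1‖ ≤ Real.exp l → q.1 ∈ W)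
    (hint : IntegrableOn (fun q : Euc k × L k => ‖h q.1‖ ^ 2) (W ×ˢ univ) V) :
    II c (VK V K) g1 l ≤
      9 / 2 * B * (Real.exp (-m * l) * ∫ q in W ×ˢ univ, ‖h q.1‖ ^ 2 ∂V) := by
  rw [II_eq]
  have hWm' : MeasurableSet (W ×ˢ (univ : Set (L k))) := hWm.prod MeasurableSet.univ
  have hKm' : MeasurableSet (K ×ˢ (univ : Set (L k))) := hKm.prod MeasurableSet.univ
  set F : Euc k × L k → ℝ := fun q => 9 / 2 * B * ‖h q.1‖ ^ 2 with hF
  have hF0 : ∀ q, 0 ≤ F q := fun q => by rw [hF]; positivity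
  have hFi : IntegrableOn F (W ×ˢ univ) V := hint.const_mul _
  have hFi' : Integrable ((W ×ˢ univ).indicator F) V := (integrable_indicator_iff hWm').2 hFi
  have hmem : ∀ᵐ q ∂(VK V K), q.1 ∈ K := by
    filter_upwards [ae_restrict_mem hKm'] with q hq
    exact hq.1
  have h1 : ∫ q, ig c g1 l q ∂(VK V K) ≤ ∫ q, (W ×ˢ univ).indicator F q ∂(VK V K) := by
    refine integral_mono_of_nonneg ?_ (hFi'.mono_measure Measure.restrict_le_self) ?_
    · filter_upwards [hmem] with q hq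
      exact ig_nonneg hc hg hq
    · filter_upwards [hmem, (ae_restrict_of_ae hbox : ∀ᵐ q ∂(VK V K), _)] with q hq hqb
      have hf0 : 0 ≤ c.f q.1 := by
        have := hc.f2 q.1 hq
        nlinarith [sq_nonneg ‖h q.1‖]
      rcases le_or_gt ‖c.x q.1‖ (Real.exp l) with hx | hx
      · have hmem : q ∈ W ×ˢ (univ : Set (L k)) := ⟨hqb hq hx, mem_univ _⟩
        rw [indicator_of_mem hmem]
        unfold ig
        obtain ⟨h1, h2⟩ := hc.mu q.1 hq hx
        have h3 := hg.b1 (Real.exp (-2 * l) * ‖c.x q.1‖ ^ 2) (by positivity)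
        have h4 := hg.pr.anti (Real.exp (-2 * l) * ‖c.x q.1‖ ^ 2) (by positivity)
        have h5 := hc.f1 q.1 hq
        have h6 : c.f q.1 * c.mu (c.x q.1) ≤ 3 / 4 * ‖h q.1‖ ^ 2 * (3 / 2) := by
          refine mul_le_mul (by linarith) h2 (by linarith) (by positivity)
        have h7 : c.f q.1 * c.mu (c.x q.1) * (-4 * g1 (Real.exp (-2 * l) * ‖c.x q.1‖ ^ 2)) ≤
            3 / 4 * ‖h q.1‖ ^ 2 * (3 / 2) * (4 * B) := by
          refine mul_le_mul h6 (by linarith) (by linarith) (by positivity)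
        refine h7.trans (le_of_eq ?_)
        rw [hF]
        ring
      · have h2 : g1 (Real.exp (-2 * l) * ‖c.x q.1‖ ^ 2) = 0 := by
          refine hg.pr.k1.zero _ ?_
          rw [sq_arg]
          have : 1 ≤ Real.exp (-l) * ‖c.x q.1‖ := by
            rw [Real.exp_neg, ← div_eq_inv_mul, one_le_div (Real.exp_pos l)]
            exact hx.le
          nlinarith
        unfold ig
        rw [h2, mul_zero, mul_zero]
        exact indicator_nonneg (fun q _ => hF0 q) q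
  have h2 : ∫ q, (W ×ˢ univ).indicator F q ∂(VK V K) ≤ ∫ q in W ×ˢ univ, F q ∂V := by
    rw [← integral_indicator hWm']
    exact integral_mono_measure Measure.restrict_le_self
      (Eventually.of_forall fun q => indicator_nonneg (fun q _ => hF0 q) q) hFi'
  have h3 : ∫ q in W ×ˢ univ, F q ∂V = 9 / 2 * B * ∫ q in W ×ˢ univ, ‖h q.1‖ ^ 2 ∂V :=
    integral_const_mul _ _
  calc Real.exp (-m * l) * ∫ q, ig c g1 l q ∂(VK V K)
      ≤ Real.exp (-m * l) * (9 / 2 * B * ∫ q in W ×ˢ univ, ‖h q.1‖ ^ 2 ∂V) := by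
        refine mul_le_mul_of_nonneg_left ?_ (Real.exp_pos _).le
        rw [← h3]
        exact h1.trans h2
    _ = _ := by ring

end Crest.Agent.R234.FL8_567
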