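import Crest.Agent.R234.FL8_567

/-!
# R234 (helper567), fields `fl`, `large` of `F10d_188.Thy`, part 3: the abstract form

`SD` : data of a state (unit of the block `S`, relative radius `rad`, `η = e^{-Λ/4}`), flatness `wf`.
`core` : `η⁴ ≤ C wf^(9/10)`.
-/

set_option autoImplicit false
set_option linter.unusedVariables false
set_option linter.unusedSectionVars false

open MeasureTheory Filter Topology Set
open scoped ENNReal NNReal ContDiff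
open Crest.GeometryTopology.Submanifold Crest.Agent.R234.Vf_884
open Crest.Agent.R234.Strat3_842 (tilt height)
open Crest.Agent.R234.Main_456 (Frame hgt box)
open Crest.Agent.R234.FL2_567 Crest.Agent.R234.FL4_567 Crest.Agent.R234.FL5_567
open Crest.Agent.R234.FL6_567
open Crest.Agent.R234.Gi_456 (Gr tube foot yy ch Kc pm)
open Crest.Agent.R234.GL_394 (Ch VK II Pf)
open Crest.Agent.R234.FL7_567 Crest.Agent.R234.FL8_567

noncomputable section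

namespace Crest.Agent.R234.FL9_567

variable {m n k : ℕ}

/-- data of a state. -/
structure SD (m n k Ks J : ℕ) (Λm c Tr Cf : ℝ) (U : Set (Euc k)) (V : Measure (Euc k × L k))
    (π : Euc k →L[ℝ] Euc m) (ρ : Euc k →L[ℝ] Euc n) (x : Euc k) (S rad l K η wf : ℝ)
    (u : Euc m → Euc n) (P : L k) : Prop where
  st : Stat m k U V
  fr : Frame π ρ
  S0 : 0 < S
  rad0 : 0 < rad
  rad1 : rad ≤ 1
  radT : rad⁻¹ ≤ Tr
  el1 : Real.exp l * (1 + 1 / K) ≤ S * rad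
  el2 : S * rad ≤ 2 * Real.exp l
  K1 : 1 ≤ K
  cd : ContDiff ℝ J u
  bd : ∀ j ≤ J, ∀ y, ‖iteratedFDeriv ℝ j u y‖ ≤ 1 / 8
  η0 : 0 < η
  Iη : II (ch π ρ x S (ws S u) 0) (VK V (Kc π ρ x (ws S u) 0 (2 * S) (S / 2))) GI_640.g31 l =
    Real.exp (2 * l) * η ^ 4
  sup : ∀ᵐ p ∂V, ‖π (p.1 - x)‖ ≤ S * rad → ‖ρ (p.1 - x)‖ ≤ S → ‖hgt π ρ x S u p.1‖ ≤ S * η
  mean : ∀ ζ : Euc m → ℝ, ContDiff ℝ ∞ ζ → tsupport ζ ⊆ Metric.ball 0 rad →
      (∀ j ≤ Ks, ∀ z, ‖iteratedFDeriv ℝ j ζ z‖ ≤ 1) →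
      ‖∫ p in Kc π ρ x (ws S u) 0 (2 * S) (S / 2) ×ˢ univ, ζ (S⁻¹ • π (p.1 - x)) •
        hgt π ρ x S u p.1 ∂V‖ ≤ S ^ m * (Real.exp l * η ^ 3)
  dom : Metric.closedBall x (8 * (S * rad)) ⊆ U
  up : V.real (Metric.closedBall x (4 * (S * rad)) ×ˢ univ) ≤ Λm * (S * rad) ^ m
  low : ∀ s, 0 < s → s ≤ S * rad → c * s ^ m ≤ V.real (Metric.closedBall x s ×ˢ univ)
  pl : P ∈ G m k
  wf0 : 0 ≤ wf
  wf1 : wf ≤ 1
  flat : ∫ p in Metric.closedBall x (8 * (S * rad)) ×ˢ univ, height P x p ∂V ≤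
    (Cf * wf) * (S * rad) ^ (m + 2)
  near : ∀ᵐ p ∂V, p.1 ∈ Kc π ρ x (ws S u) 0 (2 * S) (S / 2) →
    ‖(p.1 - x) - P (p.1 - x)‖ ≤ Cf * Real.sqrt wf * (S * rad)

/-- the power estimate of the difference. -/
theorem pow_le {γ mu om η wf Tm Cf : ℝ} (hγ : 9 / 10 ≤ γ) (hγ1 : γ ≤ 1) (hη : 0 < η) (hη1 : η ≤ 1)
    (hwf : 0 ≤ wf) (hwf1 : wf ≤ 1) (hT : 1 ≤ Tm) (hCf : 1 ≤ Cf) (hmu : mu = Tm * η ^ 3)
    (hom : om = Cf * wf) :
    (mu + Real.sqrt om) ^ γ ≤ Tm * η ^ 2 + Cf * wf ^ (1 / 4 : ℝ) := by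
  have hγ0 : 0 < γ := by linarith
  have hmu0 : 0 ≤ mu := by rw [hmu]; positivity
  have h1 := Real.rpow_add_le_add_rpow hmu0 (Real.sqrt_nonneg om) hγ0.le hγ1
  have h2 : mu ^ γ ≤ Tm * η ^ 2 := by
    rw [hmu, Real.mul_rpow (by positivity) (by positivity)]
    refine mul_le_mul ?_ ?_ (Real.rpow_nonneg (by positivity) _) (by positivity)
    · have := Real.rpow_le_rpow_of_exponent_le hT hγ1
      rwa [Real.rpow_one] at this
    · rw [← Real.rpow_natCast η 3, ← Real.rpow_mul hη.le, ← Real.rpow_natCast η 2]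
      refine Real.rpow_le_rpow_of_exponent_ge hη hη1 ?_
      push_cast
      linarith
  have h3 : Real.sqrt om ^ γ ≤ Cf * wf ^ (1 / 4 : ℝ) := by
    rw [hom, Real.sqrt_eq_rpow, ← Real.rpow_mul (by positivity), Real.mul_rpow (by positivity) hwf]
    refine mul_le_mul ?_ ?_ (Real.rpow_nonneg hwf _) (by positivity)
    · have := Real.rpow_le_rpow_of_exponent_le hCf (by linarith : 1 / 2 * γ ≤ 1)
      rwa [Real.rpow_one] at this
    · exact Real.rpow_le_rpow_of_exponent_ge' hwf hwf1 (by norm_num) (by linarith)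
  linarith

namespace SD

variable {Ks J : ℕ} {Λm c Tr Cf : ℝ} {U : Set (Euc k)} {V : Measure (Euc k × L k)}
    {π : Euc k →L[ℝ] Euc m} {ρ : Euc k →L[ℝ] Euc n} {x : Euc k} {S rad l K η wf : ℝ}
    {u : Euc m → Euc n} {P : L k}
    (H : SD m n k Ks J Λm c Tr Cf U V π ρ x S rad l K η wf u P)
include H

theorem r0 : 0 < S * rad := mul_pos H.S0 H.rad0

theorem rS : S * rad ≤ S := mul_le_of_le_one_right H.S0.le H.rad1

theorem Sr : S ≤ Tr * (S * rad) := by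
  have hr := H.r0
  have hrad := H.rad0
  have : S = rad⁻¹ * (S * rad) := by field_simp
  nth_rewrite 1 [this]
  exact mul_le_mul_of_nonneg_right H.radT hr.le

theorem er : Real.exp l ≤ S * rad := by
  have h1 := H.el1
  have hK := H.K1
  have h2 : 0 < Real.exp l := Real.exp_pos l
  have h3 : 0 ≤ Real.exp l * (1 / K) := by positivity
  nlinarith

theorem gr (hJ4 : 4 ≤ J) : Gr S (ws S u) ∧ (∀ X, ‖fderiv ℝ (ws S u) X‖ ≤ 1 / 8) ∧
    ∀ X, S * ‖fderiv ℝ (fderiv ℝ (ws S u)) X‖ ≤ 1 / 8 :=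
  gr_of_bd H.S0 le_rfl (H.cd.of_le (by exact_mod_cast hJ4)) (fun y => H.bd 1 (by omega) y)
    (fun y => H.bd 2 (by omega) y)

theorem Sη (hTr : 1 ≤ Tr) (hη : η ≤ 1 / (8 * Tr)) : S * η ≤ S * rad / 8 := by
  have h1 := H.Sr
  have h2 := H.r0
  have h3 := H.η0
  calc S * η ≤ (Tr * (S * rad)) * (1 / (8 * Tr)) := by gcongr
    _ = S * rad / 8 := by field_simp

theorem u0 (hc : 0 < c) : ‖u 0‖ ≤ η := u0_le H.fr H.cd.continuous H.S0 H.r0 hc H.low H.sup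

theorem w0 (hc : 0 < c) (hTr : 1 ≤ Tr) (hη : η ≤ 1 / (8 * Tr)) : ‖ws S u 0‖ ≤ S * rad / 4 := by
  rw [ws_zero, abs_of_pos H.S0]
  have h1 := mul_le_mul_of_nonneg_left (H.u0 hc) H.S0.le
  have h2 := H.Sη hTr hη
  have h3 := H.r0
  linarith

theorem reg (hJ4 : 4 ≤ J) (hc : 0 < c) (hTr : 1 ≤ Tr) (hη : η ≤ 1 / (8 * Tr)) :
    ∀ᵐ p ∂V, ‖π (p.1 - x)‖ < S * rad →
      (p.1 ∈ Kc π ρ x (ws S u) 0 (2 * S) (S / 2) ↔ p.1 ∈ box π ρ x (S * rad)) :=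
  reg_ae H.fr (H.gr hJ4).1 H.r0 H.rS (by have := H.Sη hTr hη; have := H.r0; linarith) (H.u0 hc) H.sup

theorem tests (hJ4 : 4 ≤ J) (hc : 0 < c) (hTr : 1 ≤ Tr) (hη : η ≤ 1 / (8 * Tr)) (ζ : Euc m → ℝ)
    (h1 : ContDiff ℝ ∞ ζ) (h2 : tsupport ζ ⊆ Metric.ball 0 1)
    (h3 : ∀ j ≤ Ks, ∀ z, ‖iteratedFDeriv ℝ j ζ z‖ ≤ 1) :
    ‖∫ p in box π ρ x (S * rad) ×ˢ univ, ζ ((S * rad)⁻¹ • π (p.1 - x)) •
        hgt π ρ x (S * rad) (zm rad u) p.1 ∂V‖ ≤ Tr ^ (Ks + m) * η ^ 3 * (S * rad) ^ (m + 1) := by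
  have hS := H.S0
  have hrad := H.rad0
  have hr0 := H.r0
  have hη0 := H.η0
  have hKcm : MeasurableSet (Kc π ρ x (ws S u) 0 (2 * S) (S / 2)) :=
    ((H.gr hJ4).1.isCompact_Kc 0 (2 * S) (S / 2)).isClosed.measurableSet
  have htest := test_scale (V := V) hS hrad H.rad1 (hKcm.prod MeasurableSet.univ)
    (by
      filter_upwards [H.reg hJ4 hc hTr hη] with p hp hπ
      simp only [mem_prod, mem_univ, and_true]
      exact hp hπ) H.mean
  refine (htest ζ h1 h2 h3).trans ?_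
  have e1 : (rad⁻¹) ^ Ks ≤ Tr ^ Ks := pow_le_pow_left₀ (by positivity) H.radT _
  have e2 : S ^ m ≤ Tr ^ m * (S * rad) ^ m := by
    rw [← mul_pow]
    exact pow_le_pow_left₀ hS.le H.Sr m
  have e3 := H.er
  calc (rad⁻¹) ^ Ks * (S ^ m * (Real.exp l * η ^ 3))
      ≤ Tr ^ Ks * ((Tr ^ m * (S * rad) ^ m) * ((S * rad) * η ^ 3)) := by gcongr
    _ = Tr ^ (Ks + m) * η ^ 3 * (S * rad) ^ (m + 1) := by rw [pow_add Tr]; ring

theorem toHyp (hJ4 : 4 ≤ J) (hc : 0 < c) (hTr : 1 ≤ Tr) (hCf : 1 ≤ Cf) (hη : η ≤ 1 / (8 * Tr)) :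
    Hyp m n k J Ks Λm c Tr U V π ρ x (S * rad) P (Cf * wf) (zm rad u) (box π ρ x (S * rad))
      (Tr ^ (Ks + m) * η ^ 3) where
  st := H.st
  fr := H.fr
  r0 := H.r0
  dom := H.dom
  up := H.up
  low := H.low
  pl := H.pl
  om0 := by have := H.wf0; positivity
  flat := H.flat
  cd := zm_contDiff H.cd
  bd0 := by
    intro y _
    have hrad := H.rad0
    have h1 := H.bd 0 (by omega) (rad • y)
    rw [norm_iteratedFDeriv_zero] at h1
    unfold zm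
    rw [norm_smul, norm_inv, Real.norm_of_nonneg hrad.le]
    calc rad⁻¹ * ‖u (rad • y)‖ ≤ Tr * 1 := mul_le_mul H.radT (h1.trans (by norm_num))
          (norm_nonneg _) (by linarith)
      _ = Tr := mul_one _
  bd1 := by
    intro y _
    have hdiff : Differentiable ℝ u := H.cd.differentiable (by exact_mod_cast (by omega : J ≠ 0))
    rw [zm_fderiv H.rad0 hdiff]
    have := H.bd 1 (by omega) (rad • y)
    rw [norm_iteratedFDeriv_one] at this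
    linarith
  bdJ := by
    intro y _
    have hrad := H.rad0
    refine (zm_iter hrad H.cd y).trans ?_
    calc rad⁻¹ * (rad ^ J * ‖iteratedFDeriv ℝ J u (rad • y)‖) ≤ Tr * (1 * 1) := by
          refine mul_le_mul H.radT ?_ (by positivity) (by linarith)
          exact mul_le_mul (pow_le_one₀ hrad.le H.rad1) ((H.bd J le_rfl _).trans (by norm_num))
            (norm_nonneg _) zero_le_one
      _ = Tr := by ring
  Wm := (End_395.isOpen_box π ρ x (S * rad)).measurableSet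
  W1 := by
    rintro z ⟨h1, h2⟩
    rw [Metric.mem_closedBall, dist_eq_norm]
    have := norm_le_add H.fr (z - x)
    have := H.r0
    linarith
  W2 := fun z h => h.1.le
  W3 := fun z h1 h2 => ⟨h1, h2⟩
  mu0 := by
    have := H.η0
    have : 0 ≤ Tr := by linarith
    positivity
  test := H.tests hJ4 hc hTr hη

theorem heq (z : Euc k) : hgt π ρ x (S * rad) (zm rad u) z = hgt π ρ x S u z := by
  rw [hgt_zm π ρ x H.S0 H.rad0]

theorem apr (hJ4 : 4 ≤ J) (hc : 0 < c) (hTr : 1 ≤ Tr) (hCf : 1 ≤ Cf) (hΛm : 0 ≤ Λm)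
    (hη : η ≤ 1 / (8 * Tr)) :
    ∫ p in box π ρ x (S * rad) ×ˢ univ, ‖hgt π ρ x (S * rad) (zm rad u) p.1‖ ^ 2 ∂V ≤
      (η ^ 2 * (Tr ^ 2 * Λm)) * (S * rad) ^ (m + 2) := by
  have hHyp := H.toHyp hJ4 hc hTr hCf hη
  have := hHyp.finW
  have hη0 := H.η0
  have hS := H.S0
  have hr0 := H.r0
  have h1 : ∫ p in box π ρ x (S * rad) ×ˢ univ, ‖hgt π ρ x (S * rad) (zm rad u) p.1‖ ^ 2 ∂V ≤
      ∫ p in box π ρ x (S * rad) ×ˢ univ, (S * η) ^ 2 ∂V := by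
    refine setIntegral_mono_on_ae hHyp.memLp_hgt.integrable_sq (integrable_const _)
      (hHyp.Wm.prod MeasurableSet.univ) ?_
    filter_upwards [H.sup] with p hp hpm
    rw [H.heq]
    exact pow_le_pow_left₀ (norm_nonneg _) (hp hpm.1.1.le (hpm.1.2.le.trans H.rS)) 2
  refine h1.trans ?_
  rw [setIntegral_const, smul_eq_mul]
  have h2 := hHyp.Wreal
  have h3 := H.Sr
  calc V.real (box π ρ x (S * rad) ×ˢ univ) * (S * η) ^ 2
      ≤ (Λm * (S * rad) ^ m) * ((Tr * (S * rad)) * η) ^ 2 := by gcongr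
    _ = (η ^ 2 * (Tr ^ 2 * Λm)) * (S * rad) ^ (m + 2) := by ring

/-- the functional against the height integral over the box. -/
theorem eta_le (hJ4 : 4 ≤ J) (hc : 0 < c) (hTr : 1 ≤ Tr) (hCf : 1 ≤ Cf) (hη : η ≤ 1 / (8 * Tr))
    {T : Euc m →L[ℝ] Euc n} (hT1 : ‖T‖ ≤ 1 / 2) (hT2 : ∀ ξ : Euc k, P ξ = ξ → ρ ξ = T (π ξ)) {θ : ℝ}
    (hsup : ∀ y ∈ Metric.closedBall (0 : Euc m) 1, ‖(zm rad u - ⇑T) y‖ ≤ θ) (hθ0 : 0 ≤ θ)
    (hKθ : K * (Cf * Real.sqrt wf + θ) ≤ 1 / 16) :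
    η ^ 4 * (S * rad) ^ (m + 2) ≤ 27 * 2 ^ (m + 2) *
      ∫ p in box π ρ x (S * rad) ×ˢ univ, ‖hgt π ρ x (S * rad) (zm rad u) p.1‖ ^ 2 ∂V := by
  have hHyp := H.toHyp hJ4 hc hTr hCf hη
  obtain ⟨hg, hg1, hg2⟩ := H.gr hJ4
  have hS := H.S0
  have hrad := H.rad0
  have hK0 : 0 < K := by linarith [H.K1]
  have hr0 := H.r0
  have her := H.er
  have hel1 := H.el1
  have hel2 := H.el2
  set r := S * rad with hr
  have hθK : Cf * Real.sqrt wf + θ ≤ 1 / 16 / K := by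
    rw [le_div_iff₀ hK0]
    linarith
  have he0 : 0 < Real.exp l := Real.exp_pos l
  have hgap : Cf * Real.sqrt wf * r + r * θ < r - Real.exp l := by
    have h1 : Cf * Real.sqrt wf * r + r * θ ≤ 1 / 16 / K * r := by
      have := mul_le_mul_of_nonneg_right hθK hr0.le
      linarith
    have h2 : Real.exp l * (1 / K) ≤ r - Real.exp l := by linarith
    have h3 : 1 / 16 / K * r ≤ 1 / 8 * (Real.exp l * (1 / K)) := by
      have := mul_le_mul_of_nonneg_left hel2 (by positivity : 0 ≤ 1 / 16 / K)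
      calc 1 / 16 / K * r ≤ 1 / 16 / K * (2 * Real.exp l) := this
        _ = 1 / 8 * (Real.exp l * (1 / K)) := by ring
    have h4 : 0 < Real.exp l * (1 / K) := by positivity
    linarith
  have hgap8 : Cf * Real.sqrt wf * r + r * θ ≤ r / 8 := by
    have h1 : Cf * Real.sqrt wf + θ ≤ 1 / 16 := by
      refine hθK.trans ?_
      rw [div_le_iff₀ hK0]
      linarith [H.K1]
    have := mul_le_mul_of_nonneg_right h1 hr0.le
    linarith
  have hS' : 65 / 64 * (S / 2) < S := by linarith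
  have hKcm : MeasurableSet (Kc π ρ x (ws S u) 0 (2 * S) (S / 2)) :=
    (hg.isCompact_Kc 0 (2 * S) (S / 2)).isClosed.measurableSet
  have hKt : Kc π ρ x (ws S u) 0 (2 * S) (S / 2) ⊆ tube π ρ x S (ws S u) := hg.Kc_subset H.fr 0 hS'
  have hCmp := End_395.cmp_ch hg H.fr (κ := 1 / 8) (l := l) (x := x) (by norm_num) hg1 hg2
    (her.trans H.rS) le_rfl hKt
  have hw0 := H.w0 hc hTr hη
  have hbox : ∀ᵐ q ∂V, q.1 ∈ Kc π ρ x (ws S u) 0 (2 * S) (S / 2) →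
      ‖(ch π ρ x S (ws S u) 0).x q.1‖ ≤ Real.exp l → q.1 ∈ box π ρ x r := by
    filter_upwards [H.near] with p hp hpK hpx
    refine box_of_near H.fr hg hrad H.pl hT1 hT2 hsup (e := Real.exp l) her hgap hgap8 hw0
      (hKt hpK) ?_ (hp hpK)
    exact (End_395.le_norm_x p.1).trans hpx
  have hint : IntegrableOn (fun q : Euc k × L k => ‖ρ (q.1 - x) - ws S u (π (q.1 - x))‖ ^ 2)
      (box π ρ x r ×ˢ univ) V := by
    have h1 : IntegrableOn (fun p : Euc k × L k => ‖hgt π ρ x r (zm rad u) p.1‖ ^ 2)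
      (box π ρ x r ×ˢ univ) V := hHyp.memLp_hgt.integrable_sq
    refine h1.congr_fun (fun p _ => ?_) (hHyp.Wm.prod MeasurableSet.univ)
    simp only [hr, H.heq]
    rfl
  have hII := II_le_box (V := V) (W := box π ρ x r) hCmp GL_394.pf_cubic (by norm_num) hKcm
    hHyp.Wm hbox hint
  have hJ0' : ∫ q in box π ρ x r ×ˢ univ, ‖ρ (q.1 - x) - ws S u (π (q.1 - x))‖ ^ 2 ∂V =
      ∫ p in box π ρ x r ×ˢ univ, ‖hgt π ρ x r (zm rad u) p.1‖ ^ 2 ∂V := by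
    refine integral_congr_ae (Eventually.of_forall fun p => ?_)
    simp only [hr, H.heq]
    rfl
  rw [H.Iη, hJ0'] at hII
  set J0 := ∫ p in box π ρ x r ×ˢ univ, ‖hgt π ρ x r (zm rad u) p.1‖ ^ 2 ∂V with hJ0
  have hη0 := H.η0
  have h1 : r ^ (m + 2) ≤ 2 ^ (m + 2) * Real.exp l ^ (m + 2) := by
    rw [← mul_pow]
    exact pow_le_pow_left₀ hr0.le hel2 _
  have h2 : Real.exp l ^ m * Real.exp (-m * l) = 1 := by
    rw [← Real.exp_nat_mul, ← Real.exp_add]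
    simp
  have h3 : Real.exp (2 * l) = Real.exp l ^ 2 := by
    rw [← Real.exp_nat_mul]; push_cast; rfl
  calc η ^ 4 * r ^ (m + 2) ≤ η ^ 4 * (2 ^ (m + 2) * Real.exp l ^ (m + 2)) := by gcongr
    _ = 2 ^ (m + 2) * (Real.exp l ^ m * (Real.exp (2 * l) * η ^ 4)) := by rw [h3]; ring
    _ ≤ 2 ^ (m + 2) * (Real.exp l ^ m * (9 / 2 * 6 * (Real.exp (-m * l) * J0))) := by gcongr
    _ = 27 * 2 ^ (m + 2) * J0 * (Real.exp l ^ m * Real.exp (-m * l)) := by ring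
    _ = 27 * 2 ^ (m + 2) * J0 := by rw [h2, mul_one]

end SD

theorem core (m n k Ks J : ℕ) (hJ1 : m + 1 ≤ J) (hJ4 : 4 ≤ J) (hJ9 : 9 * (Ks + m) ≤ J)
    {Λm c Tr Cf : ℝ} (hΛm : 0 ≤ Λm) (hc : 0 < c) (hTr : 1 ≤ Tr) (hCf : 1 ≤ Cf) :
    ∃ η₀ ε₁ C : ℝ, 0 < η₀ ∧ 0 < ε₁ ∧ 0 < C ∧
    ∀ {U : Set (Euc k)} {V : Measure (Euc k × L k)} {π : Euc k →L[ℝ] Euc m}
      {ρ : Euc k →L[ℝ] Euc n} {x : Euc k} {S rad l K η wf : ℝ} {u : Euc m → Euc n} {P : L k},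
      SD m n k Ks J Λm c Tr Cf U V π ρ x S rad l K η wf u P → η ≤ η₀ → K * η ^ 2 ≤ ε₁ →
      K * wf ^ (1 / 4 : ℝ) ≤ ε₁ → η ^ 4 ≤ C * wf ^ (9 / 10 : ℝ) := by
  set Tm : ℝ := Tr ^ (Ks + m) with hTm
  have hTm1 : 1 ≤ Tm := one_le_pow₀ hTr
  set CI : ℝ := 27 * 2 ^ (m + 2) with hCI
  have hCI0 : 0 < CI := by positivity
  set B : ℝ := Tm * CI ^ (3 / 4 : ℝ) with hB
  have hB0 : 0 ≤ B := by positivity
  obtain ⟨δa, om₀, C₃, hδa, hom₀, hom₀1, hC₃, hfl0⟩ := fl0 m n k J Ks hJ1 (by omega) hΛm hc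
    (A := Tr) (by linarith)
  obtain ⟨δb, Cb, hδb, hCb, hfl'⟩ := fl' m n k J Ks hJ1 (by omega) hJ9 hΛm hc
    (A := Tr) (B := B) (by linarith) hB0
  have hγ := le_gam (m := m) (J := J) (K := Ks) (by omega) hJ9
  have hγ1 := gam_le_one (m := m) (J := J) (K := Ks) (by omega)
  set δ := min δa δb with hδ
  have hδ0 : 0 < δ := lt_min hδa hδb
  set η₀ : ℝ := min (1 / (8 * Tr)) (Real.sqrt (δ / (Tr ^ 2 * (Λm + 1)))) with hη₀
  have hη₀0 : 0 < η₀ := lt_min (by positivity) (Real.sqrt_pos.2 (by positivity))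
  set ε₁ : ℝ := min (om₀ / Cf) (1 / (32 * (Cf + C₃ * (Tm + Cf)))) with hε₁
  have hε₁0 : 0 < ε₁ := by positivity
  refine ⟨η₀, ε₁, CI * Cb * Cf ^ (9 / 10 : ℝ), hη₀0, hε₁0, by positivity, ?_⟩
  intro U V π ρ x S rad l K η wf u P H hη hKη hKwf
  have hη0 := H.η0
  have hwf := H.wf0
  have hwf1 := H.wf1
  have hK := H.K1
  have hη8 : η ≤ 1 / (8 * Tr) := hη.trans (min_le_left _ _)
  have hη1 : η ≤ 1 := by
    refine hη8.trans ?_
    rw [div_le_one (by positivity)]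
    linarith
  have hHyp := H.toHyp hJ4 hc hTr hCf hη8
  have hr2 : (0:ℝ) < (S * rad) ^ (m + 2) := by have := H.r0; positivity
  have hwf14 : wf ^ (1 / 4 : ℝ) ≤ ε₁ := by
    have h0 : 0 ≤ wf ^ (1 / 4 : ℝ) := Real.rpow_nonneg hwf _
    nlinarith
  have hwfε : wf ≤ ε₁ := by
    refine le_trans ?_ hwf14
    have := Real.rpow_le_rpow_of_exponent_ge' hwf hwf1 (by norm_num : (0:ℝ) ≤ 1 / 4)
      (by norm_num : (1 / 4 : ℝ) ≤ 1)
    rwa [Real.rpow_one] at this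
  have homle : Cf * wf ≤ om₀ := by
    have h1 : wf ≤ om₀ / Cf := hwfε.trans (min_le_left _ _)
    rw [le_div_iff₀ (by linarith)] at h1
    linarith
  -- a priori
  have hapr : ∫ p in box π ρ x (S * rad) ×ˢ univ, ‖hgt π ρ x (S * rad) (zm rad u) p.1‖ ^ 2 ∂V ≤
      δ * (S * rad) ^ (m + 2) := by
    refine (H.apr hJ4 hc hTr hCf hΛm hη8).trans (mul_le_mul_of_nonneg_right ?_ hr2.le)
    have h3 : η ^ 2 ≤ δ / (Tr ^ 2 * (Λm + 1)) := by
      have := pow_le_pow_left₀ hη0.le (hη.trans (min_le_right _ _)) 2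
      rwa [Real.sq_sqrt (by positivity)] at this
    rw [le_div_iff₀ (by positivity)] at h3
    refine le_trans ?_ h3
    gcongr
    linarith
  -- the plane
  obtain ⟨T, hT1, hT2, hsup⟩ := hfl0 hHyp
    (hapr.trans (mul_le_mul_of_nonneg_right (min_le_left _ _) hr2.le)) homle
  set θ := C₃ * (Tr ^ (Ks + m) * η ^ 3 + Real.sqrt (Cf * wf)) ^ gam m J Ks with hθ
  have hθ0 : 0 ≤ θ := by
    have : 0 ≤ (Tr ^ (Ks + m) * η ^ 3 + Real.sqrt (Cf * wf)) ^ gam m J Ks :=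
      Real.rpow_nonneg (by positivity) _
    positivity
  have hKθ : K * (Cf * Real.sqrt wf + θ) ≤ 1 / 16 := by
    have h1 := pow_le (mu := Tm * η ^ 3) (om := Cf * wf) (η := η) (wf := wf) (Tm := Tm) (Cf := Cf)
      hγ hγ1 hη0 hη1 hwf hwf1 hTm1 hCf rfl rfl
    have h2 : Real.sqrt wf ≤ wf ^ (1 / 4 : ℝ) := by
      rw [Real.sqrt_eq_rpow]
      exact Real.rpow_le_rpow_of_exponent_ge' hwf hwf1 (by norm_num) (by norm_num)
    have h3 : ε₁ * (Cf + C₃ * (Tm + Cf)) ≤ 1 / 32 := by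
      have : ε₁ ≤ 1 / (32 * (Cf + C₃ * (Tm + Cf))) := min_le_right _ _
      rw [le_div_iff₀ (by positivity)] at this
      linarith
    have hK0 : 0 < K := by linarith
    calc K * (Cf * Real.sqrt wf + θ)
        ≤ K * (Cf * wf ^ (1 / 4 : ℝ) + C₃ * (Tm * η ^ 2 + Cf * wf ^ (1 / 4 : ℝ))) := by
          rw [hθ]; gcongr
      _ = Cf * (K * wf ^ (1 / 4 : ℝ)) + C₃ * (Tm * (K * η ^ 2) + Cf * (K * wf ^ (1 / 4 : ℝ))) := by
          ring
      _ ≤ Cf * ε₁ + C₃ * (Tm * ε₁ + Cf * ε₁) := by gcongr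
      _ = ε₁ * (Cf + C₃ * (Tm + Cf)) := by ring
      _ ≤ 1 / 16 := by linarith
  have hηJ := H.eta_le hJ4 hc hTr hCf hη8 hT1 hT2 hsup hθ0 hKθ
  -- conclusion
  set J0 := ∫ p in box π ρ x (S * rad) ×ˢ univ, ‖hgt π ρ x (S * rad) (zm rad u) p.1‖ ^ 2 ∂V with hJ0
  set D := J0 / (S * rad) ^ (m + 2) with hD
  have hJD : J0 = D * (S * rad) ^ (m + 2) := by rw [hD]; field_simp
  have hD0 : 0 ≤ D := div_nonneg (integral_nonneg fun p => by positivity) hr2.le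
  have hDδ : D ≤ δb := by
    rw [hD, div_le_iff₀ hr2]
    exact hapr.trans (mul_le_mul_of_nonneg_right (min_le_right _ _) hr2.le)
  have hηD : η ^ 4 ≤ CI * D := by
    rw [hJD, ← mul_assoc] at hηJ
    exact le_of_mul_le_mul_right hηJ hr2
  have hmuD : Tr ^ (Ks + m) * η ^ 3 ≤ B * D ^ (3 / 4 : ℝ) := by
    have h1 : η ^ 3 ≤ (CI * D) ^ (3 / 4 : ℝ) := by
      have h2 : (η ^ 4) ^ (3 / 4 : ℝ) = η ^ 3 := by
        rw [← Real.rpow_natCast η 4, ← Real.rpow_mul hη0.le, ← Real.rpow_natCast η 3]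
        norm_num
      rw [← h2]
      exact Real.rpow_le_rpow (by positivity) hηD (by norm_num)
    rw [Real.mul_rpow hCI0.le hD0] at h1
    rw [hB, mul_assoc, ← hTm]
    exact mul_le_mul_of_nonneg_left h1 (by positivity)
  have hfin := (hfl' hHyp (D := D) hJD hDδ hmuD).2 (homle.trans hom₀1)
  calc η ^ 4 ≤ CI * D := hηD
    _ ≤ CI * (Cb * (Cf * wf) ^ (9 / 10 : ℝ)) := by gcongr
    _ = CI * Cb * Cf ^ (9 / 10 : ℝ) * wf ^ (9 / 10 : ℝ) := by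
        rw [Real.mul_rpow (by linarith) hwf]; ring

end Crest.Agent.R234.FL9_567
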