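import Mathlib

/-!
Row 234, VF-FA (helper694), file 1: Hausdorff content; the upper content density theorem for
ARBITRARY sets (no measurability, no Frostman measure).

`cont s A` : the `s`-dimensional Hausdorff content (countable covers by arbitrary sets).
`null_of_small` : `c < 1` and `cont s (A ∩ closedBall x r) ≤ c r ^ s` for all `x ∈ A`, `0 < r ≤ r₀`
  imply `μH[s] A = 0`.
`density_null` : for every set `A` in a separable metric space and `c < 1`, `s > 0` the set of points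
  `x ∈ A` with `cont s (A ∩ closedBall x r) ≤ c r ^ s` for all small `r` is `μH[s]`-null.
-/

set_option autoImplicit false

open Set Filter Topology MeasureTheory Metric
open scoped ENNReal NNReal

noncomputable section

namespace Crest.Agent.R234.Fa_694

variable {X : Type*} [MetricSpace X]

/-- the `s`-dimensional Hausdorff content. -/
def cont (s : ℝ) (A : Set X) : ℝ≥0∞ :=
  ⨅ (t : ℕ → Set X) (_ : A ⊆ ⋃ n, t n), ∑' n, ediam (t n) ^ s

theorem zero_rpow' {s : ℝ} (hs : 0 < s) : ediam (∅ : Set X) ^ s = 0 := by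
  rw [ediam_empty, ENNReal.zero_rpow_of_pos hs]

theorem cont_le {s : ℝ} (hs : 0 < s) {ι : Type*} [Countable ι] {A : Set X} (t : ι → Set X)
    (h : A ⊆ ⋃ i, t i) : cont s A ≤ ∑' i, ediam (t i) ^ s := by
  have := Encodable.ofCountable ι
  refine (iInf₂_le (fun n : ℕ => ⋃ b ∈ Encodable.decode₂ ι n, t b) ?_).trans ?_
  · rw [Encodable.iUnion_decode₂]; exact h
  · exact (tsum_iUnion_decode₂ (fun B : Set X => ediam B ^ s) (zero_rpow' hs) t).le

theorem exists_cover {s : ℝ} {A : Set X} {c : ℝ≥0∞} (h : cont s A < c) :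
    ∃ t : ℕ → Set X, A ⊆ ⋃ n, t n ∧ ∑' n, ediam (t n) ^ s < c := by
  simp only [cont, iInf_lt_iff] at h
  obtain ⟨t, ht, h⟩ := h
  exact ⟨t, ht, h⟩

/-- the covering sets may be taken inside `A`. -/
theorem exists_cover' {s : ℝ} (hs : 0 < s) {A : Set X} {c : ℝ≥0∞} (h : cont s A < c) :
    ∃ t : ℕ → Set X, A = ⋃ n, t n ∧ ∑' n, ediam (t n) ^ s < c := by
  obtain ⟨t, ht, h⟩ := exists_cover h
  refine ⟨fun n => A ∩ t n, ?_, ?_⟩
  · rw [← inter_iUnion]; exact (inter_eq_left.2 ht).symm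
  · refine lt_of_le_of_lt (ENNReal.tsum_le_tsum fun n => ?_) h
    exact ENNReal.rpow_le_rpow (ediam_mono inter_subset_right) hs.le

theorem cont_mono (s : ℝ) {A B : Set X} (h : A ⊆ B) : cont s A ≤ cont s B := by
  refine le_iInf₂ fun t ht => ?_
  exact iInf₂_le t (h.trans ht)

theorem cont_le_ediam {s : ℝ} (hs : 0 < s) (A : Set X) : cont s A ≤ ediam A ^ s := by
  refine (cont_le hs (fun _ : Unit => A) fun x hx => mem_iUnion.2 ⟨(), hx⟩).trans ?_
  simp

theorem cont_empty {s : ℝ} (hs : 0 < s) : cont s (∅ : Set X) = 0 := by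
  refine le_antisymm ((cont_le_ediam hs _).trans ?_) zero_le
  rw [zero_rpow' hs]

theorem cont_iUnion_le {s : ℝ} (hs : 0 < s) {ι : Type*} [Countable ι] (A : ι → Set X) :
    cont s (⋃ i, A i) ≤ ∑' i, cont s (A i) := by
  rcases eq_or_ne (∑' i, cont s (A i)) ⊤ with hT | hT
  · rw [hT]; exact le_top
  refine ENNReal.le_of_forall_pos_le_add fun ε hε _ => ?_
  obtain ⟨ε', hε', hsum⟩ := ENNReal.exists_pos_sum_of_countable (ENNReal.coe_pos.2 hε).ne' ι
  have h : ∀ i, ∃ t : ℕ → Set X, A i ⊆ ⋃ n, t n ∧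
      ∑' n, ediam (t n) ^ s < cont s (A i) + ε' i := fun i =>
    exists_cover (ENNReal.lt_add_right (ENNReal.ne_top_of_tsum_ne_top hT i)
      (ENNReal.coe_pos.2 (hε' i)).ne')
  choose t ht1 ht2 using h
  calc cont s (⋃ i, A i) ≤ ∑' p : ι × ℕ, ediam (t p.1 p.2) ^ s := by
        refine cont_le hs (fun p : ι × ℕ => t p.1 p.2) ?_
        refine iUnion_subset fun i x hx => ?_
        obtain ⟨n, hn⟩ := mem_iUnion.1 (ht1 i hx)
        exact mem_iUnion.2 ⟨(i, n), hn⟩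
    _ = ∑' i, ∑' n, ediam (t i n) ^ s := ENNReal.tsum_prod (f := fun i n => ediam (t i n) ^ s)
    _ ≤ ∑' i, (cont s (A i) + ε' i) := ENNReal.tsum_le_tsum fun i => (ht2 i).le
    _ = ∑' i, cont s (A i) + ∑' i, (ε' i : ℝ≥0∞) := ENNReal.tsum_add
    _ ≤ ∑' i, cont s (A i) + ε := by gcongr

theorem cont_union_le {s : ℝ} (hs : 0 < s) (A B : Set X) :
    cont s (A ∪ B) ≤ cont s A + cont s B := by
  have h := cont_iUnion_le hs (fun b : Bool => cond b A B)
  rw [← union_eq_iUnion] at h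
  refine h.trans (le_of_eq ?_)
  rw [tsum_fintype]
  simp

theorem cont_le_hausdorff [MeasurableSpace X] [BorelSpace X] {s : ℝ} (hs : 0 < s) (A : Set X) :
    cont s A ≤ μH[s] A := by
  rw [Measure.hausdorffMeasure_apply]
  refine le_trans ?_ (le_iSup₂_of_le (1 : ℝ≥0∞) one_pos le_rfl)
  refine le_iInf fun t => le_iInf fun ht => le_iInf fun _ => ?_
  refine (iInf₂_le t ht).trans (ENNReal.tsum_le_tsum fun n => ?_)
  rcases (t n).eq_empty_or_nonempty with h | h
  · rw [h, zero_rpow' hs]; exact zero_le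
  · exact le_iSup_of_le h le_rfl

theorem ediam_image_le' {Y : Type*} [MetricSpace Y] {f : X → Y} {K : ℝ≥0}
    {A B : Set X} (hf : LipschitzOnWith K f A) (hB : B ⊆ A) :
    ediam (f '' B) ≤ K * ediam B :=
  ediam_image_le_iff.2 fun _ hx _ hy => (hf (hB hx) (hB hy)).trans
    (by gcongr; exact edist_le_ediam_of_mem hx hy)

/-- images under Lipschitz maps. -/
theorem cont_image_le {Y : Type*} [MetricSpace Y] {s : ℝ} (hs : 0 < s) {f : X → Y} {K : ℝ≥0}
    {A : Set X} (hf : LipschitzOnWith K f A) : cont s (f '' A) ≤ (K : ℝ≥0∞) ^ s * cont s A := by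
  rcases eq_or_ne (cont s A) ⊤ with hT | hT
  · rcases eq_or_ne K 0 with hK | hK
    · -- constant map
      subst hK
      have h0 : ediam (f '' A) = 0 := by
        have := ediam_image_le' hf subset_rfl
        simpa using this
      refine (cont_le_ediam hs _).trans ?_
      rw [h0, ENNReal.zero_rpow_of_pos hs]; exact zero_le
    · rw [hT, ENNReal.mul_top]
      · exact le_top
      · have : (0:ℝ≥0∞) < (K : ℝ≥0∞) ^ s :=
          ENNReal.rpow_pos (ENNReal.coe_pos.2 (pos_iff_ne_zero.2 hK)) ENNReal.coe_ne_top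
        exact this.ne'
  refine ENNReal.le_of_forall_pos_le_add fun ε hε _ => ?_
  have hKt : (K : ℝ≥0∞) ^ s ≠ ⊤ := ENNReal.rpow_ne_top_of_nonneg hs.le ENNReal.coe_ne_top
  -- choose a good cover
  obtain ⟨η, hη, hηε⟩ : ∃ η : ℝ≥0∞, 0 < η ∧ (K : ℝ≥0∞) ^ s * η ≤ ε := by
    refine ⟨(ε : ℝ≥0∞) / ((K : ℝ≥0∞) ^ s + 1), ?_, ?_⟩
    · refine ENNReal.div_pos (ENNReal.coe_pos.2 hε).ne' ?_
      exact ENNReal.add_ne_top.2 ⟨hKt, ENNReal.one_ne_top⟩
    · rw [← mul_div_assoc]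
      refine ENNReal.div_le_of_le_mul ?_
      rw [mul_comm]
      gcongr
      exact le_self_add
  obtain ⟨t, ht, hts⟩ := exists_cover' hs (ENNReal.lt_add_right hT hη.ne')
  calc cont s (f '' A) ≤ ∑' n, ediam (f '' (t n)) ^ s := by
        refine cont_le hs _ ?_
        rw [← image_iUnion, ← ht]
    _ ≤ ∑' n, (K : ℝ≥0∞) ^ s * ediam (t n) ^ s := by
        refine ENNReal.tsum_le_tsum fun n => ?_
        rw [← ENNReal.mul_rpow_of_nonneg _ _ hs.le]
        refine ENNReal.rpow_le_rpow ?_ hs.le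
        exact ediam_image_le' hf (by rw [ht]; exact subset_iUnion t n)
    _ = (K : ℝ≥0∞) ^ s * ∑' n, ediam (t n) ^ s := ENNReal.tsum_mul_left
    _ ≤ (K : ℝ≥0∞) ^ s * (cont s A + η) := by gcongr
    _ = (K : ℝ≥0∞) ^ s * cont s A + (K : ℝ≥0∞) ^ s * η := mul_add _ _ _
    _ ≤ (K : ℝ≥0∞) ^ s * cont s A + ε := by gcongr

/-- one step of the improvement of covers. -/
theorem step {s : ℝ} (hs : 0 < s) {A : Set X} {c c' : ℝ≥0∞} (hcc : c < c') {r₀ : ℝ} (hA : ∀ x ∈ A, ∀ r : ℝ, 0 < r → r ≤ r₀ →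
      cont s (A ∩ closedBall x r) ≤ c * ENNReal.ofReal r ^ s)
    {ρ : ℝ≥0∞} (hρ : ρ ≤ ENNReal.ofReal r₀) {M : ℝ≥0∞} {t : ℕ → Set X} (ht : A = ⋃ n, t n)
    (htρ : ∀ n, ediam (t n) ≤ ρ) (htM : ∑' n, ediam (t n) ^ s ≤ M) :
    ∃ t' : ℕ → Set X, A = ⋃ n, t' n ∧ (∀ n, ediam (t' n) ≤ c' ^ s⁻¹ * ρ) ∧
      ∑' n, ediam (t' n) ^ s ≤ c' * M := by
  have key : ∀ n, ∃ u : ℕ → Set X, t n = ⋃ j, u j ∧ (∀ j, ediam (u j) ≤ c' ^ s⁻¹ * ρ) ∧
      ∑' j, ediam (u j) ^ s ≤ c' * ediam (t n) ^ s := by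
    intro n
    rcases eq_or_ne (ediam (t n)) 0 with h0 | h0
    · refine ⟨fun j => if j = 0 then t n else ∅, ?_, ?_, ?_⟩
      · ext x
        simp only [mem_iUnion]
        constructor
        · intro hx; exact ⟨0, by simpa using hx⟩
        · rintro ⟨j, hj⟩
          by_cases hj0 : j = 0
          · simpa [hj0] using hj
          · simp [hj0] at hj
      · intro j
        by_cases hj0 : j = 0
        · simp [hj0, h0]
        · simp [hj0]
      · rw [ENNReal.tsum_eq_zero.2]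
        · exact zero_le
        · intro j
          by_cases hj0 : j = 0
          · simp [hj0, h0, hs]
          · simp [hj0, hs]
    · have hne : (t n).Nonempty := by
        by_contra hcon
        rw [not_nonempty_iff_eq_empty] at hcon
        exact h0 (by rw [hcon, ediam_empty])
      obtain ⟨x, hx⟩ := hne
      have hxA : x ∈ A := by rw [ht]; exact mem_iUnion.2 ⟨n, hx⟩
      have hfin : ediam (t n) ≠ ⊤ := ((htρ n).trans hρ).trans_lt ENNReal.ofReal_lt_top |>.ne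
      set d : ℝ := (ediam (t n)).toReal with hd
      have hd0 : 0 < d := ENNReal.toReal_pos h0 hfin
      have hde : ENNReal.ofReal d = ediam (t n) := ENNReal.ofReal_toReal hfin
      have hdr : d ≤ r₀ := by
        have h1 : ENNReal.ofReal d ≤ ENNReal.ofReal r₀ := by rw [hde]; exact (htρ n).trans hρ
        by_contra hcon
        rw [not_le] at hcon
        exact absurd h1 (not_le.2 ((ENNReal.ofReal_lt_ofReal_iff hd0).2 hcon))
      have hsub : t n ⊆ A ∩ closedBall x d := by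
        intro y hy
        refine ⟨by rw [ht]; exact mem_iUnion.2 ⟨n, hy⟩, ?_⟩
        rw [mem_closedBall, dist_edist]
        exact ENNReal.toReal_mono hfin (edist_le_ediam_of_mem hy hx)
      have h1 : cont s (t n) ≤ c * ediam (t n) ^ s := by
        have := (cont_mono s hsub).trans (hA x hxA d hd0 hdr)
        rwa [hde] at this
      have hp : 0 < ediam (t n) ^ s := ENNReal.rpow_pos (pos_iff_ne_zero.2 h0) hfin
      have hpt : ediam (t n) ^ s ≠ ⊤ := ENNReal.rpow_ne_top_of_nonneg hs.le hfin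
      have h2 : cont s (t n) < c' * ediam (t n) ^ s :=
        h1.trans_lt ((ENNReal.mul_lt_mul_iff_left hp.ne' hpt).2 hcc)
      obtain ⟨u, hu1, hu2⟩ := exists_cover' hs h2
      refine ⟨u, hu1, fun j => ?_, hu2.le⟩
      have h3 : ediam (u j) ^ s ≤ c' * ediam (t n) ^ s :=
        (ENNReal.le_tsum j).trans hu2.le
      have h4 : (ediam (u j) ^ s) ^ s⁻¹ ≤ (c' * ediam (t n) ^ s) ^ s⁻¹ :=
        ENNReal.rpow_le_rpow h3 (inv_nonneg.2 hs.le)
      rw [ENNReal.rpow_rpow_inv hs.ne', ENNReal.mul_rpow_of_nonneg _ _ (inv_nonneg.2 hs.le),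
        ENNReal.rpow_rpow_inv hs.ne'] at h4
      exact h4.trans (by gcongr; exact htρ n)
  choose u hu1 hu2 hu3 using key
  refine ⟨fun p => u (Nat.unpair p).1 (Nat.unpair p).2, ?_, fun p => hu2 _ _, ?_⟩
  · rw [ht]
    ext x
    simp only [mem_iUnion]
    constructor
    · rintro ⟨n, hn⟩
      rw [hu1 n] at hn
      obtain ⟨j, hj⟩ := mem_iUnion.1 hn
      exact ⟨Nat.pair n j, by simpa using hj⟩
    · rintro ⟨p, hp⟩
      refine ⟨(Nat.unpair p).1, ?_⟩
      rw [hu1]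
      exact mem_iUnion.2 ⟨_, hp⟩
  · have h1 : ∑' p : ℕ, ediam (u (Nat.unpair p).1 (Nat.unpair p).2) ^ s
        = ∑' p : ℕ × ℕ, ediam (u p.1 p.2) ^ s :=
      Nat.pairEquiv.symm.tsum_eq (fun p : ℕ × ℕ => ediam (u p.1 p.2) ^ s)
    rw [h1, ENNReal.tsum_prod (f := fun i n => ediam (u i n) ^ s)]
    calc ∑' n, ∑' j, ediam (u n j) ^ s ≤ ∑' n, c' * ediam (t n) ^ s :=
          ENNReal.tsum_le_tsum hu3
      _ = c' * ∑' n, ediam (t n) ^ s := ENNReal.tsum_mul_left
      _ ≤ c' * M := by gcongr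

variable [MeasurableSpace X] [BorelSpace X]

/-- sets with uniformly small local content are null: small diameter version. -/
theorem null_of_small_diam {s : ℝ} (hs : 0 < s) {A : Set X} {c : ℝ≥0∞} (hc : c < 1) {r₀ : ℝ}
    (hA : ∀ x ∈ A, ∀ r : ℝ, 0 < r → r ≤ r₀ →
      cont s (A ∩ closedBall x r) ≤ c * ENNReal.ofReal r ^ s)
    (hd : ediam A ≤ ENNReal.ofReal r₀) : μH[s] A = 0 := by
  obtain ⟨c', hcc, hc'⟩ := exists_between hc
  have hc'0 : c' ≠ ⊤ := (hc'.trans ENNReal.one_lt_top).ne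
  set q : ℝ≥0∞ := c' ^ s⁻¹ with hq
  have hq1 : q < 1 := ENNReal.rpow_lt_one hc' (inv_pos.2 hs)
  set R : ℝ≥0∞ := ENNReal.ofReal r₀ with hR
  set M : ℝ≥0∞ := R ^ s with hM
  have hMt : M ≠ ⊤ := ENNReal.rpow_ne_top_of_nonneg hs.le ENNReal.ofReal_ne_top
  have hind : ∀ n : ℕ, ∃ t : ℕ → Set X, A = ⋃ i, t i ∧ (∀ i, ediam (t i) ≤ q ^ n * R) ∧
      ∑' i, ediam (t i) ^ s ≤ c' ^ n * M := by
    intro n
    induction n with
    | zero =>
      refine ⟨fun j => if j = 0 then A else ∅, ?_, ?_, ?_⟩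
      · ext x
        simp only [mem_iUnion]
        constructor
        · intro hx; exact ⟨0, by simpa using hx⟩
        · rintro ⟨j, hj⟩
          by_cases hj0 : j = 0
          · simpa [hj0] using hj
          · simp [hj0] at hj
      · intro j
        by_cases hj0 : j = 0
        · simpa [hj0] using hd
        · simp [hj0]
      · rw [tsum_eq_single 0]
        · simp only [if_true, pow_zero, one_mul]
          exact ENNReal.rpow_le_rpow hd hs.le
        · intro j hj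
          simp [hj, hs]
    | succ n ih =>
      obtain ⟨t, ht, htρ, htM⟩ := ih
      have hρ : q ^ n * R ≤ R := by
        calc q ^ n * R ≤ 1 * R := by gcongr; exact pow_le_one₀ zero_le hq1.le
          _ = R := one_mul R
      obtain ⟨t', h1, h2, h3⟩ := step hs hcc hA hρ ht htρ htM
      refine ⟨t', h1, fun i => (h2 i).trans (le_of_eq ?_), h3.trans (le_of_eq ?_)⟩
      · rw [pow_succ]; ring
      · rw [pow_succ]; ring
  choose t ht htρ htM using hind
  have hq0 : Tendsto (fun n : ℕ => q ^ n * R) atTop (𝓝 0) := by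
    have h1 := ENNReal.tendsto_pow_atTop_nhds_zero_of_lt_one hq1
    have h2 := ENNReal.Tendsto.mul_const h1 (Or.inr (ENNReal.ofReal_ne_top (r := r₀)))
    rwa [zero_mul] at h2
  have hM0 : Tendsto (fun n : ℕ => c' ^ n * M) atTop (𝓝 0) := by
    have h1 := ENNReal.tendsto_pow_atTop_nhds_zero_of_lt_one hc'
    have h2 := ENNReal.Tendsto.mul_const h1 (Or.inr hMt)
    rwa [zero_mul] at h2
  have h := Measure.hausdorffMeasure_le_liminf_tsum (ι := fun _ : ℕ => ℕ) s A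
    (l := atTop) (fun n : ℕ => q ^ n * R) hq0 t (Eventually.of_forall htρ)
    (Eventually.of_forall fun n => (ht n).subset)
  refine le_antisymm (h.trans ?_) zero_le
  calc liminf (fun n => ∑' i, ediam (t n i) ^ s) atTop ≤ liminf (fun n : ℕ => c' ^ n * M) atTop :=
        liminf_le_liminf (Eventually.of_forall htM)
    _ = 0 := hM0.liminf_eq

/-- **upper content density theorem**, arbitrary sets. -/
theorem density_null [SecondCountableTopology X] {s : ℝ} (hs : 0 < s) (A : Set X) {c : ℝ≥0∞}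
    (hc : c < 1) :
    μH[s] {x ∈ A | ∃ r₀ > (0:ℝ), ∀ r : ℝ, 0 < r → r ≤ r₀ →
      cont s (A ∩ closedBall x r) ≤ c * ENNReal.ofReal r ^ s} = 0 := by
  have hcov : ∀ j : ℕ, ∃ u : ℕ → Set X, (univ : Set X) ⊆ ⋃ i, u i ∧
      ∀ i, ediam (u i) ≤ ENNReal.ofReal (1 / (j + 1 : ℝ)) := by
    intro j
    rcases isEmpty_or_nonempty X with hX | hX
    · exact ⟨fun _ => ∅, fun x _ => (hX.false x).elim, by simp⟩
    · obtain ⟨u, hu⟩ := TopologicalSpace.exists_dense_seq X
      have hδ : (0:ℝ) < 1 / (j + 1 : ℝ) / 2 := by positivity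
      refine ⟨fun i => closedBall (u i) (1 / (j + 1 : ℝ) / 2), ?_, fun i => ?_⟩
      · intro x _
        obtain ⟨y, hy, ⟨i, rfl⟩⟩ := Metric.dense_iff.1 hu x _ hδ
        refine mem_iUnion.2 ⟨i, ?_⟩
        rw [mem_closedBall, dist_comm]
        rw [mem_ball] at hy
        exact hy.le
      · refine ediam_le_of_forall_dist_le fun y hy z hz => ?_
        rw [mem_closedBall] at hy hz
        have := dist_triangle_right y z (u i)
        linarith
  choose u hu1 hu2 using hcov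
  set B : ℕ → Set X := fun j => {x ∈ A | ∀ r : ℝ, 0 < r → r ≤ 1 / (j + 1 : ℝ) →
      cont s (A ∩ closedBall x r) ≤ c * ENNReal.ofReal r ^ s} with hB
  have hsub : {x ∈ A | ∃ r₀ > (0:ℝ), ∀ r : ℝ, 0 < r → r ≤ r₀ →
      cont s (A ∩ closedBall x r) ≤ c * ENNReal.ofReal r ^ s} ⊆
      ⋃ j : ℕ, ⋃ i : ℕ, (B j ∩ u j i) := by
    rintro x ⟨hxA, r₀, hr₀, hx⟩
    obtain ⟨j, hj⟩ := exists_nat_one_div_lt hr₀
    obtain ⟨i, hi⟩ := mem_iUnion.1 (hu1 j (mem_univ x))
    exact mem_iUnion.2 ⟨j, mem_iUnion.2 ⟨i, ⟨hxA, fun r h1 h2 => hx r h1 (h2.trans hj.le)⟩, hi⟩⟩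
  refine measure_mono_null hsub ?_
  refine measure_iUnion_null fun j => measure_iUnion_null fun i => ?_
  refine null_of_small_diam hs hc (r₀ := 1 / (j + 1 : ℝ)) ?_ ?_
  · rintro x ⟨⟨hxA, hx⟩, -⟩ r h1 h2
    refine (cont_mono s ?_).trans (hx r h1 h2)
    exact inter_subset_inter_left _ fun y hy => hy.1.1
  · exact (ediam_mono inter_subset_right).trans (hu2 j i)

/-- points of positive upper content density exist, and fill every set up to a null set. -/
theorem exists_dense_point [SecondCountableTopology X] {s : ℝ} (hs : 0 < s) {A : Set X}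
    (hA : μH[s] A ≠ 0) {N : Set X} (hN : μH[s] N = 0) {c : ℝ≥0∞} (hc : c < 1) :
    ∃ x ∈ A, x ∉ N ∧ ∀ r₀ > (0:ℝ), ∃ r : ℝ, 0 < r ∧ r ≤ r₀ ∧
      c * ENNReal.ofReal r ^ s < cont s (A ∩ closedBall x r) := by
  by_contra hcon
  refine hA (measure_mono_null (t := N ∪ {x ∈ A | ∃ r₀ > (0:ℝ), ∀ r : ℝ, 0 < r → r ≤ r₀ →
      cont s (A ∩ closedBall x r) ≤ c * ENNReal.ofReal r ^ s}) ?_
    (measure_union_null hN (density_null hs A hc)))
  intro x hx
  by_cases hxN : x ∈ N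
  · exact Or.inl hxN
  · refine Or.inr ⟨hx, ?_⟩
    by_contra h2
    push Not at h2
    refine hcon ⟨x, hx, hxN, fun r₀ hr₀ => ?_⟩
    obtain ⟨r, h3, h4, h5⟩ := h2 r₀ hr₀
    exact ⟨r, h3, h4, h5⟩

/-- countable partition form. -/
theorem exists_dense_piece [SecondCountableTopology X] {s : ℝ} (hs : 0 < s) {ι : Type*}
    [Countable ι] {A : Set X} (hA : μH[s] A ≠ 0) (P : ι → Set X) {N : Set X} (hN : μH[s] N = 0)
    (hP : A ⊆ N ∪ ⋃ i, P i) {c : ℝ≥0∞} (hc : c < 1) :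
    ∃ i, ∃ x ∈ A ∩ P i, x ∉ N ∧ ∀ r₀ > (0:ℝ), ∃ r : ℝ, 0 < r ∧ r ≤ r₀ ∧
      c * ENNReal.ofReal r ^ s < cont s ((A ∩ P i) ∩ closedBall x r) := by
  obtain ⟨i, hi⟩ : ∃ i, μH[s] (A ∩ P i) ≠ 0 := by
    by_contra hcon
    push Not at hcon
    refine hA (measure_mono_null (t := N ∪ ⋃ i, (A ∩ P i)) ?_
      (measure_union_null hN (measure_iUnion_null hcon)))
    intro x hx
    rcases hP hx with h | h
    · exact Or.inl h
    · obtain ⟨i, hi⟩ := mem_iUnion.1 h
      exact Or.inr (mem_iUnion.2 ⟨i, hx, hi⟩)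
  obtain ⟨x, hx, hxN, h⟩ := exists_dense_point hs hi hN hc
  exact ⟨i, x, hx, hxN, h⟩

/-- sequence form of the conclusion. -/
theorem exists_seq_of_forall {P : ℝ → Prop} (h : ∀ r₀ > (0:ℝ), ∃ r : ℝ, 0 < r ∧ r ≤ r₀ ∧ P r) :
    ∃ r : ℕ → ℝ, (∀ k, 0 < r k) ∧ Tendsto r atTop (𝓝 0) ∧ ∀ k, P (r k) := by
  choose r h1 h2 h3 using fun k : ℕ => h (1 / (k + 1 : ℝ)) (by positivity)
  refine ⟨r, h1, ?_, h3⟩
  exact squeeze_zero (fun k => (h1 k).le) h2 tendsto_one_div_add_atTop_nhds_zero_nat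

end Crest.Agent.R234.Fa_694
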