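import Crest.Agent.R234.Fa1_694
import Crest.Agent.R234.Sp1_643

/-!
Row 234, VF-FA (helper694), file 2: content and planes, upper semicontinuity, scaling.

`not_flat_of_cont` : `s > k`, `c > 0` : there is `δ₀ > 0` such that a set with
  `c r ^ s ≤ cont s (A ∩ closedBall x r)` is not `Flat k δ A x r` for `δ ≤ δ₀`.
`usc` : `K` compact, `cont s K < c` ==> `cont s (thickening ε K) < c` for some `ε > 0`.
`cont_homothety` : scaling.
-/

set_option autoImplicit false

open Set Filter Topology MeasureTheory Metric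
open scoped ENNReal NNReal

noncomputable section

namespace Crest.Agent.R234.Fa_694

open Sp1_643

theorem cont_finset {X : Type*} [MetricSpace X] {s : ℝ} (hs : 0 < s) {A : Set X}
    (T : Finset (Set X)) (h : A ⊆ ⋃ t ∈ T, t) : cont s A ≤ ∑ t ∈ T, ediam t ^ s := by
  refine (cont_le hs (fun t : T => (t : Set X)) ?_).trans (le_of_eq ?_)
  · intro x hx
    obtain ⟨t, ht, hxt⟩ := mem_iUnion₂.1 (h hx)
    exact mem_iUnion.2 ⟨⟨t, ht⟩, hxt⟩
  · rw [tsum_fintype]
    exact Finset.sum_coe_sort T (fun t : Set X => ediam t ^ s)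

section

variable {E : Type*} [NormedAddCommGroup E] [InnerProductSpace ℝ E]

omit [InnerProductSpace ℝ E] in
theorem cont_le_of_cov {s : ℝ} (hs : 0 < s) {S : Set E} {N ρ : ℝ} (h : Cov S N ρ) :
    cont s S ≤ ENNReal.ofReal N * ENNReal.ofReal ρ ^ s := by
  obtain ⟨T, h1, h2, h3⟩ := h
  calc cont s S ≤ ∑ t ∈ T, ediam t ^ s := by
        refine cont_finset hs T fun y hy => ?_
        obtain ⟨t, ht, hyt⟩ := h3 y hy
        exact mem_iUnion₂.2 ⟨t, ht, hyt⟩
    _ ≤ ∑ _t ∈ T, ENNReal.ofReal ρ ^ s := by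
        refine Finset.sum_le_sum fun t ht => ENNReal.rpow_le_rpow ?_ hs.le
        exact ediam_le_of_forall_dist_le (h2 t ht).2
    _ = ENNReal.ofReal T.card * ENNReal.ofReal ρ ^ s := by
        rw [Finset.sum_const, nsmul_eq_mul, ENNReal.ofReal_natCast]
    _ ≤ _ := by gcongr

variable [FiniteDimensional ℝ E]

/-- the covering of a flat piece. -/
theorem cov_of_flat {k : ℕ} {A : Set E} {x : E} {r δ : ℝ} (hr : 0 < r) (hδ : 0 < δ) (hδ1 : δ ≤ 1)
    (hfl : Flat k δ A x r) :
    Cov (A ∩ closedBall x r) (((2 * (Module.finrank ℝ E : ℝ) + 4) / δ) ^ k) (5 * δ * r) := by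
  set d := Module.finrank ℝ E with hd
  have hd0 : (0:ℝ) ≤ d := by positivity
  obtain ⟨W, hW, hWA⟩ := hfl
  set F := W.direction with hF
  have h1 := cov_grid F (S := A ∩ closedBall x r) (x := x) (ε := 4 * (δ * r)) hr hδ hδ1
    inter_subset_right (by
    intro y hy z hz
    obtain ⟨w, hw, hyw⟩ := hWA y hy
    obtain ⟨w', hw', hzw⟩ := hWA z hz
    have hww : w - w' ∈ F := by
      have := AffineSubspace.vsub_mem_direction hw hw'
      simpa using this
    have hPw : F.starProjection (w - w') = w - w' :=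
      Submodule.starProjection_eq_self_iff.mpr hww
    have e : (y - z) - F.starProjection (y - z)
        = ((y - w) - (z - w')) - F.starProjection ((y - w) - (z - w')) := by
      have e1 : y - z = ((y - w) - (z - w')) + (w - w') := by abel
      rw [e1, map_add, hPw]
      abel
    rw [e]
    have n1 : ‖(y - w) - (z - w')‖ ≤ 2 * (δ * r) := by
      calc ‖(y - w) - (z - w')‖ ≤ ‖y - w‖ + ‖z - w'‖ := norm_sub_le _ _
        _ ≤ δ * r + δ * r := by
            rw [← dist_eq_norm, ← dist_eq_norm]; exact add_le_add hyw hzw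
        _ = _ := by ring
    calc ‖((y - w) - (z - w')) - F.starProjection ((y - w) - (z - w'))‖
        ≤ ‖(y - w) - (z - w')‖ + ‖F.starProjection ((y - w) - (z - w'))‖ := norm_sub_le _ _
      _ ≤ ‖(y - w) - (z - w')‖ + ‖(y - w) - (z - w')‖ := by
          gcongr; exact F.norm_starProjection_apply_le _
      _ ≤ 4 * (δ * r) := by linarith)
  refine h1.mono ?_ (by linarith)
  have h2 : (1:ℝ) ≤ (2 * (d:ℝ) + 4) / δ := by
    rw [le_div_iff₀ hδ]; linarith
  exact pow_le_pow_right₀ h2 hW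

/-- flat pieces have small content. -/
theorem cont_le_of_flat {s : ℝ} (hs : 0 < s) {k : ℕ} {A : Set E} {x : E} {r δ : ℝ} (hr : 0 < r)
    (hδ : 0 < δ) (hδ1 : δ ≤ 1) (hfl : Flat k δ A x r) :
    cont s (A ∩ closedBall x r) ≤
      ENNReal.ofReal ((2 * (Module.finrank ℝ E : ℝ) + 4) ^ k * 5 ^ s * δ ^ (s - k)) *
        ENNReal.ofReal r ^ s := by
  refine (cont_le_of_cov hs (cov_of_flat hr hδ hδ1 hfl)).trans (le_of_eq ?_)
  have h5 : (0:ℝ) < 5 * δ := by positivity
  rw [ENNReal.ofReal_rpow_of_pos (by positivity), ENNReal.ofReal_rpow_of_pos hr,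
    ← ENNReal.ofReal_mul (by positivity), ← ENNReal.ofReal_mul (by positivity),
    Real.mul_rpow h5.le hr.le, Real.mul_rpow (by norm_num) hδ.le, Real.rpow_sub hδ,
    Real.rpow_natCast, div_pow]
  congr 1
  field_simp

/-- **content positive pieces are not flat**. -/
theorem not_flat_of_cont (E : Type*) [NormedAddCommGroup E] [InnerProductSpace ℝ E]
    [FiniteDimensional ℝ E] {k : ℕ} {s : ℝ} (hs : (k : ℝ) < s) {c : ℝ} (hc : 0 < c) :
    ∃ δ₀ > (0:ℝ), δ₀ ≤ 1 ∧ ∀ δ : ℝ, 0 < δ → δ ≤ δ₀ → ∀ (A : Set E) (x : E) (r : ℝ), 0 < r →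
      ENNReal.ofReal c * ENNReal.ofReal r ^ s ≤ cont s (A ∩ closedBall x r) →
      ¬ Flat k δ A x r := by
  have hs0 : 0 < s := lt_of_le_of_lt (Nat.cast_nonneg k) hs
  set C : ℝ := (2 * (Module.finrank ℝ E : ℝ) + 4) ^ k * 5 ^ s with hC
  have hC0 : 0 < C := by positivity
  have hlim : Tendsto (fun δ : ℝ => C * δ ^ (s - k)) (𝓝[>] 0) (𝓝 0) := by
    have h1 : Tendsto (fun δ : ℝ => δ ^ (s - k)) (𝓝[>] 0) (𝓝 0) := by
      have h2 := (Real.continuousAt_rpow_const 0 (s - k) (Or.inr (by linarith))).tendsto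
      rw [Real.zero_rpow (by linarith : s - k ≠ 0)] at h2
      exact h2.mono_left nhdsWithin_le_nhds
    simpa using h1.const_mul C
  obtain ⟨δ₀, hδ₀, h⟩ : ∃ δ₀ > (0:ℝ), ∀ δ, 0 < δ → δ ≤ δ₀ → C * δ ^ (s - k) < c := by
    have h1 := hlim.eventually (gt_mem_nhds hc)
    obtain ⟨δ₁, hδ₁, h2⟩ := mem_nhdsGT_iff_exists_Ioc_subset.1 h1
    exact ⟨δ₁, hδ₁, fun δ h3 h4 => h2 ⟨h3, h4⟩⟩
  refine ⟨min δ₀ 1, lt_min hδ₀ one_pos, min_le_right _ _, ?_⟩
  intro δ hδ hδ1 A x r hr hcont hfl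
  have h1 := hcont.trans (cont_le_of_flat hs0 hr hδ (hδ1.trans (min_le_right _ _)) hfl)
  have h2 := h δ hδ (hδ1.trans (min_le_left _ _))
  rw [← hC] at h1
  have hp : 0 < ENNReal.ofReal r ^ s :=
    ENNReal.rpow_pos (ENNReal.ofReal_pos.2 hr) ENNReal.ofReal_ne_top
  have hpt : ENNReal.ofReal r ^ s ≠ ⊤ := ENNReal.rpow_ne_top_of_nonneg hs0.le ENNReal.ofReal_ne_top
  rw [ENNReal.mul_le_mul_iff_left hp.ne' hpt] at h1
  exact absurd h1 (not_le.2 ((ENNReal.ofReal_lt_ofReal_iff hc).2 h2))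

/-- homotheties scale the content (upper bound). -/
theorem cont_affine_le {s : ℝ} (hs : 0 < s) (A : Set E) (z w : E) {a : ℝ} (ha : 0 ≤ a) :
    cont s ((fun y => a • (y - z) + w) '' A) ≤ ENNReal.ofReal a ^ s * cont s A := by
  have hf : LipschitzOnWith (Real.toNNReal a) (fun y : E => a • (y - z) + w) A := by
    refine LipschitzOnWith.of_dist_le_mul fun y _ y' _ => ?_
    rw [Real.coe_toNNReal a ha, dist_eq_norm, dist_eq_norm]
    have : a • (y - z) + w - (a • (y' - z) + w) = a • (y - y') := by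
      rw [add_sub_add_right_eq_sub, ← smul_sub, sub_sub_sub_cancel_right]
    rw [this, norm_smul, Real.norm_of_nonneg ha]
  exact cont_image_le hs hf

/-- homotheties scale the content. -/
theorem cont_affine {s : ℝ} (hs : 0 < s) (A : Set E) (z w : E) {a : ℝ} (ha : 0 < a) :
    cont s ((fun y => a • (y - z) + w) '' A) = ENNReal.ofReal a ^ s * cont s A := by
  refine le_antisymm (cont_affine_le hs A z w ha.le) ?_
  have h1 := cont_affine_le hs ((fun y => a • (y - z) + w) '' A) w z (a := a⁻¹) (by positivity)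
  have h2 : (fun y => a⁻¹ • (y - w) + z) '' ((fun y => a • (y - z) + w) '' A) = A := by
    rw [image_image]
    have : (fun y : E => a⁻¹ • (a • (y - z) + w - w) + z) = id := by
      funext y
      simp [smul_smul, inv_mul_cancel₀ ha.ne']
    rw [this, image_id]
  rw [h2] at h1
  calc ENNReal.ofReal a ^ s * cont s A
      ≤ ENNReal.ofReal a ^ s * (ENNReal.ofReal a⁻¹ ^ s *
          cont s ((fun y => a • (y - z) + w) '' A)) := by gcongr
    _ = cont s ((fun y => a • (y - z) + w) '' A) := by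
        rw [← mul_assoc, ← ENNReal.mul_rpow_of_nonneg _ _ hs.le, ← ENNReal.ofReal_mul ha.le,
          mul_inv_cancel₀ ha.ne', ENNReal.ofReal_one, ENNReal.one_rpow, one_mul]

end

/-- **upper semicontinuity of the content** on compact sets. -/
theorem usc {X : Type*} [MetricSpace X] {s : ℝ} (hs : 0 < s) {K : Set X} (hK : IsCompact K)
    {c : ℝ≥0∞} (h : cont s K < c) : ∃ ε > (0:ℝ), cont s (thickening ε K) < c := by
  obtain ⟨t, ht, hts⟩ := exists_cover h
  obtain ⟨c', h1, h2⟩ := exists_between hts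
  set η : ℝ≥0∞ := c' - ∑' n, ediam (t n) ^ s with hη
  have hη0 : 0 < η := tsub_pos_of_lt h1
  have hTt : ∑' n, ediam (t n) ^ s ≠ ⊤ := (h1.trans h2).ne_top
  obtain ⟨ε', hε', hsum⟩ := ENNReal.exists_pos_sum_of_countable hη0.ne' ℕ
  have hch : ∀ n, ∃ e > (0:ℝ), ediam (thickening e (t n)) ^ s ≤ ediam (t n) ^ s + ε' n := by
    intro n
    have hfin : ediam (t n) ≠ ⊤ := by
      intro hcon
      have h3 := ENNReal.ne_top_of_tsum_ne_top hTt n
      rw [hcon, ENNReal.top_rpow_of_pos hs] at h3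
      exact h3 rfl
    have hcontin : Tendsto (fun e : ℝ => (ediam (t n) + 2 * ENNReal.ofReal e) ^ s) (𝓝[>] 0)
        (𝓝 ((ediam (t n)) ^ s)) := by
      have h3 : Tendsto (fun e : ℝ => ediam (t n) + 2 * ENNReal.ofReal e) (𝓝[>] 0)
          (𝓝 (ediam (t n) + 2 * ENNReal.ofReal 0)) := by
        refine Tendsto.mono_left ?_ nhdsWithin_le_nhds
        refine tendsto_const_nhds.add ?_
        refine ENNReal.Tendsto.const_mul ?_ (Or.inr (by norm_num))
        exact (ENNReal.continuous_ofReal.tendsto 0)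
      rw [ENNReal.ofReal_zero, mul_zero, add_zero] at h3
      exact ((ENNReal.continuous_rpow_const (y := s)).tendsto _).comp h3
    have h4 : ediam (t n) ^ s < ediam (t n) ^ s + ε' n :=
      ENNReal.lt_add_right (ENNReal.rpow_ne_top_of_nonneg hs.le hfin)
        (ENNReal.coe_pos.2 (hε' n)).ne'
    obtain ⟨e, he1, he2⟩ := ((hcontin.eventually (gt_mem_nhds h4)).and self_mem_nhdsWithin).exists
    refine ⟨e, he2, le_trans (ENNReal.rpow_le_rpow ?_ hs.le) he1.le⟩
    have := ediam_thickening_le (s := t n) (Real.toNNReal e)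
    rw [Real.coe_toNNReal e (le_of_lt he2)] at this
    exact this
  choose e he0 he using hch
  have hopen : IsOpen (⋃ n, thickening (e n) (t n)) := isOpen_iUnion fun n => isOpen_thickening
  have hKU : K ⊆ ⋃ n, thickening (e n) (t n) := ht.trans
    (iUnion_mono fun n => self_subset_thickening (he0 n) _)
  obtain ⟨ε, hε, hsub⟩ := hK.exists_thickening_subset_open hopen hKU
  refine ⟨ε, hε, ?_⟩
  calc cont s (thickening ε K) ≤ ∑' n, ediam (thickening (e n) (t n)) ^ s := cont_le hs _ hsub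
    _ ≤ ∑' n, (ediam (t n) ^ s + ε' n) := ENNReal.tsum_le_tsum he
    _ = ∑' n, ediam (t n) ^ s + ∑' n, (ε' n : ℝ≥0∞) := ENNReal.tsum_add
    _ ≤ ∑' n, ediam (t n) ^ s + η := by gcongr
    _ = c' := add_tsub_cancel_of_le h1.le
    _ < c := h2

/-- sequences of sets converging into a compact set. -/
theorem le_cont_of_frequently {X : Type*} [MetricSpace X] {s : ℝ} (hs : 0 < s) {K : Set X}
    (hK : IsCompact K) {ι : Type*} {F : Filter ι} {A : ι → Set X}
    (hA : ∀ ε > (0:ℝ), ∀ᶠ i in F, A i ⊆ thickening ε K) {c : ℝ≥0∞}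
    (hc : ∃ᶠ i in F, c ≤ cont s (A i)) : c ≤ cont s K := by
  by_contra hcon
  rw [not_le] at hcon
  obtain ⟨ε, hε, h⟩ := usc hs hK hcon
  obtain ⟨i, h1, h2⟩ := (hc.and_eventually (hA ε hε)).exists
  exact absurd (h1.trans (cont_mono s h2)) (not_le.2 h)

end Crest.Agent.R234.Fa_694
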