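import Crest.Agent.R234.Fa2_694
import Crest.Agent.R234.Sp3_643
import Crest.Agent.R234.Strat5_842
import Crest.Agent.R234.Vf6_884

/-!
Row 234, VF-FA (helper694), file 3: content positive sets of points of maximal density force flatness.

`flat_of_cont` : `x ∈ A`, `Th x ≤ Th y` on `A`, `s > m - 1`, `c > 0`, `ε > 0` : at all small scales `r` with
`c r ^ s ≤ cont s (A ∩ closedBall x r)` the varifold is `ε`-flat (height and tilt) in `ball x (R r)`.
-/

set_option autoImplicit false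

open Set Filter Topology MeasureTheory Metric Module
open Crest.GeometryTopology.Submanifold
open Crest.Agent.R234.Vf_884 Crest.Agent.R234.Strat3_842
open scoped ENNReal NNReal InnerProductSpace

noncomputable section

namespace Crest.Agent.R234.Fa_694

variable {m k : ℕ} {V : Measure (Euc k × L k)} {U : Set (Euc k)}

/-- the density as a real number, normalised as the ratios `Nc`. -/
def thr (m : ℕ) (V : Measure (Euc k × L k)) (x : Euc k) : ℝ := (Th m V x).toReal * ome m

theorem Nc_eq (V : Measure (Euc k × L k)) (m : ℕ) (z : Euc k) {r : ℝ} (hr : 0 < r) :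
    Nc m V z r =
      (mass V (closedBall z r) / ENNReal.ofReal (ome m * r ^ m)).toReal * ome m := by
  unfold Nc
  rw [ENNReal.toReal_div, ENNReal.toReal_ofReal (den_pos m hr).le, ← measureReal_def,
    mass_real_apply V measurableSet_closedBall]
  have := (ome_pos m).ne'
  field_simp

theorem tendsto_Nc (hV : Stat m k U V) (hm : 1 ≤ m) (hU : IsOpen U) {x : Euc k} (hx : x ∈ U) :
    Tendsto (Nc m V x) (𝓝[>] 0) (𝓝 (thr m V x)) := by
  obtain ⟨R, hR, hRU⟩ := exists_closedBall hU hx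
  have h1 := tendsto_rat_closed hV hm hR (ball_subset_closedBall.trans hRU)
  have h2 := (ENNReal.tendsto_toReal (Th_lt_top hV hm hU hx).ne).comp h1
  refine (h2.mul_const (ome m)).congr' ?_
  filter_upwards [self_mem_nhdsWithin] with r hr
  exact (Nc_eq V m x hr).symm

theorem thr_le_Nc (hV : Stat m k U V) (hm : 1 ≤ m) (hU : IsOpen U) {x : Euc k} {r : ℝ}
    (hr : 0 < r) (hrU : closedBall x r ⊆ U) : thr m V x ≤ Nc m V x r := by
  refine le_of_tendsto (tendsto_Nc hV hm hU (hrU (mem_closedBall_self hr.le))) ?_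
  filter_upwards [Ioo_mem_nhdsGT hr] with σ hσ
  exact Nc_mono hV hm hσ.1 hσ.2.le hrU

theorem thr_le_thr (hV : Stat m k U V) (hm : 1 ≤ m) (hU : IsOpen U) {x y : Euc k} (hy : y ∈ U)
    (h : Th m V x ≤ Th m V y) : thr m V x ≤ thr m V y := by
  unfold thr
  exact mul_le_mul_of_nonneg_right
    (ENNReal.toReal_mono (Th_lt_top hV hm hU hy).ne h) (ome_pos m).le

/-- the defect is controlled by the excess of the ratio over the density. -/
theorem dInt_le_thr (hV : Stat m k U V) (hm : 1 ≤ m) (hU : IsOpen U) {y : Euc k} {r : ℝ}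
    (hr : 0 < r) (hrU : closedBall y r ⊆ U) :
    dInt V y r ≤ r ^ (m + 2) * (Nc m V y r - thr m V y) := by
  have h1 : Tendsto (fun σ : ℝ => r ^ (m + 2) * (Nc m V y r - thr m V y)
      + σ ^ (m + 2) * Nc m V y r) (𝓝[>] 0)
      (𝓝 (r ^ (m + 2) * (Nc m V y r - thr m V y) + 0 ^ (m + 2) * Nc m V y r)) := by
    refine Tendsto.mono_left ?_ nhdsWithin_le_nhds
    exact Continuous.tendsto (by fun_prop) 0
  rw [zero_pow (by omega), zero_mul, add_zero] at h1
  refine ge_of_tendsto h1 ?_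
  filter_upwards [Ioo_mem_nhdsGT hr] with σ hσ
  refine (dInt_le hV hm hσ.1 hσ.2 hrU).trans ?_
  have h2 : thr m V y ≤ Nc m V y σ :=
    thr_le_Nc hV hm hU hσ.1 ((closedBall_subset_closedBall hσ.2.le).trans hrU)
  have h3 : Nc m V y σ ≤ Nc m V y r := Nc_mono hV hm hσ.1 hσ.2.le hrU
  have h4 : (0:ℝ) < σ ^ (m + 2) := pow_pos hσ.1 _
  have h5 : (0:ℝ) < r ^ (m + 2) := pow_pos hr _
  nlinarith

/-- ratios at nearby points. -/
theorem Nc_shift (hV : Stat m k U V) {x y : Euc k} {a b : ℝ} (ha : 0 < a) (h : dist y x + a ≤ b)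
    (hU : closedBall x b ⊆ U) : Nc m V y a ≤ (b / a) ^ m * Nc m V x b := by
  have hb : 0 < b := by
    have := dist_nonneg (x := y) (y := x)
    linarith
  have hsub : closedBall y a ⊆ closedBall x b := closedBall_subset_closedBall' (by linarith)
  have hfin : V (Prod.fst ⁻¹' closedBall x b) ≠ ⊤ := by
    rw [← prod_univ_eq]
    exact (hV.fin _ (isCompact_closedBall _ _) hU).ne
  unfold Nc
  have h1 : V.real (Prod.fst ⁻¹' closedBall y a) ≤ V.real (Prod.fst ⁻¹' closedBall x b) :=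
    measureReal_mono (preimage_mono hsub) hfin
  calc (a ^ m)⁻¹ * V.real (Prod.fst ⁻¹' closedBall y a)
      ≤ (a ^ m)⁻¹ * V.real (Prod.fst ⁻¹' closedBall x b) := by gcongr
    _ = (b / a) ^ m * ((b ^ m)⁻¹ * V.real (Prod.fst ⁻¹' closedBall x b)) := by
        rw [div_pow]; field_simp

/-- **uniform pinching** at all points of density at least `Th x` near `x`. -/
theorem pinch (hV : Stat m k U V) (hm : 1 ≤ m) (hU : IsOpen U) {x : Euc k} (hx : x ∈ U) {η : ℝ}
    (hη : 0 < η) : ∃ r₀ > (0:ℝ), ∀ r : ℝ, 0 < r → r ≤ r₀ → ∀ y : Euc k, dist y x ≤ r →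
      Th m V x ≤ Th m V y → dInt V y (2 * r) ≤ η * r ^ (m + 2) := by
  obtain ⟨R, hR, hRU⟩ := exists_closedBall hU hx
  set θ : ℝ := thr m V x with hθ
  have hη' : 0 < η / 2 ^ (m + 2) := by positivity
  -- choose the big factor
  obtain ⟨M, hM2, hM⟩ : ∃ M : ℝ, 2 ≤ M ∧
      ((M + 1) / M) ^ m * (θ + 1 / M) - θ < η / 2 ^ (m + 2) := by
    have h1 : Tendsto (fun M : ℝ => ((M + 1) / M) ^ m * (θ + 1 / M) - θ) atTop
        (𝓝 ((1 + 0) ^ m * (θ + 0) - θ)) := by
      have h2 : Tendsto (fun M : ℝ => 1 / M) atTop (𝓝 0) := by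
        simpa using tendsto_inv_atTop_zero (𝕜 := ℝ)
      have h3 : Tendsto (fun M : ℝ => (1 + 1 / M)) atTop (𝓝 (1 + 0)) := tendsto_const_nhds.add h2
      have h4 := ((h3.pow m).mul (tendsto_const_nhds (x := θ) |>.add h2)).sub_const θ
      refine h4.congr' ?_
      filter_upwards [eventually_gt_atTop (0:ℝ)] with M hM
      have : (M + 1) / M = 1 + 1 / M := by field_simp
      rw [this]
    rw [add_zero, add_zero, one_pow, one_mul, sub_self] at h1
    obtain ⟨M, hM1, hM2⟩ := ((h1.eventually (gt_mem_nhds hη')).and (eventually_ge_atTop (2:ℝ))).exists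
    exact ⟨M, hM2, hM1⟩
  have hM0 : 0 < M := by linarith
  -- choose the small scale
  have h1 := (tendsto_Nc hV hm hU hx).eventually
    (gt_mem_nhds (show thr m V x < θ + 1 / M by rw [← hθ]; linarith [one_div_pos.2 hM0]))
  obtain ⟨ρ, hρ, hρ'⟩ := mem_nhdsGT_iff_exists_Ioc_subset.1 h1
  have hρ0 : 0 < ρ := hρ
  refine ⟨min ρ R / (M + 1), by positivity, fun r hr hrr y hy hTh => ?_⟩
  have hrr' : (M + 1) * r ≤ min ρ R := by
    rw [le_div_iff₀ (by positivity)] at hrr; linarith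
  have hbU : closedBall x ((M + 1) * r) ⊆ U :=
    (closedBall_subset_closedBall (hrr'.trans (min_le_right _ _))).trans hRU
  have hyU' : closedBall y (M * r) ⊆ U := (closedBall_subset_closedBall' (by linarith)).trans hbU
  have hyU : closedBall y (2 * r) ⊆ U := (closedBall_subset_closedBall (by nlinarith)).trans hyU'
  have hyin : y ∈ U := hyU (mem_closedBall_self (by positivity))
  have e1 : Nc m V y (2 * r) ≤ Nc m V y (M * r) :=
    Nc_mono hV hm (by positivity) (by nlinarith) hyU'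
  have e2 : Nc m V y (M * r) ≤ (((M + 1) * r) / (M * r)) ^ m * Nc m V x ((M + 1) * r) :=
    Nc_shift hV (by positivity) (by linarith) hbU
  have e3 : ((M + 1) * r) / (M * r) = (M + 1) / M := mul_div_mul_right _ _ hr.ne'
  have e4 : Nc m V x ((M + 1) * r) < θ + 1 / M :=
    hρ' ⟨by positivity, hrr'.trans (min_le_left _ _)⟩
  have e5 : Nc m V y (2 * r) ≤ ((M + 1) / M) ^ m * (θ + 1 / M) := by
    rw [e3] at e2
    exact (e1.trans e2).trans (by gcongr)
  have e6 : θ ≤ thr m V y := thr_le_thr hV hm hU hyin hTh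
  calc dInt V y (2 * r) ≤ (2 * r) ^ (m + 2) * (Nc m V y (2 * r) - thr m V y) :=
        dInt_le_thr hV hm hU (by positivity) hyU
    _ ≤ (2 * r) ^ (m + 2) * (η / 2 ^ (m + 2)) := by
        gcongr
        linarith
    _ = η * r ^ (m + 2) := by
        rw [mul_pow]; field_simp

/-- flatness from a fat simplex of points of density at least `Th x`. -/
theorem flat_of_not_flat (hV : Stat m k U V) (hm : 1 ≤ m) (hU : IsOpen U) {x : Euc k} (hx : x ∈ U)
    {δ : ℝ} (hδ : 0 < δ) {ε : ℝ} (hε : 0 < ε) :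
    ∃ r₀ > (0:ℝ), ∀ r : ℝ, 0 < r → r ≤ r₀ → ∀ A : Set (Euc k), x ∈ A →
      (∀ y ∈ A, Th m V x ≤ Th m V y) → ¬ Sp1_643.Flat (m - 1) δ A x r → Flat m V x r ε := by
  set K : ℝ := Sp3_643.Cf (m - 1) δ with hK
  have hK0 : 0 < K := by
    rw [hK]; unfold Sp3_643.Cf; positivity
  set C : ℝ := 2 + 20 * (m * K) ^ 2 * m with hC
  have hC0 : 0 < C := by positivity
  obtain ⟨R, hR, hRU⟩ := exists_closedBall hU hx
  obtain ⟨r₀, hr₀, hpin⟩ := pinch hV hm hU hx (η := ε / C) (by positivity)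
  refine ⟨min r₀ (R / 3), by positivity, fun r hr hrr A hxA hA hnf => ?_⟩
  have hrr0 : r ≤ r₀ := hrr.trans (min_le_left _ _)
  have hrR : 3 * r ≤ R := by have := hrr.trans (min_le_right _ _); linarith
  obtain ⟨w, hw1, hw2⟩ := Sp3_643.exists_fat hδ hr hxA hnf
  have hm1 : m - 1 + 1 = m := by omega
  let v : Fin m → Euc k := fun i => r⁻¹ • w (Fin.cast hm1.symm i)
  have hrv : ∀ i, r • v i = w (Fin.cast hm1.symm i) := fun i => by
    simp only [v]; rw [smul_smul, mul_inv_cancel₀ hr.ne', one_smul]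
  have hv1 : ∀ i, ‖v i‖ ≤ 1 := fun i => by
    simp only [v]
    rw [norm_smul, norm_inv, Real.norm_of_nonneg hr.le, inv_mul_le_iff₀ hr, mul_one]
    exact (hw1 _).2
  have hv2 : ∀ (c : Fin m → ℝ) (i : Fin m), |c i| ≤ K * ‖∑ i, c i • v i‖ := by
    intro c i
    have h1 := hw2 (fun j => c (Fin.cast hm1 j)) (Fin.cast hm1.symm i)
    have h2 : (∑ j, c (Fin.cast hm1 j) • w j) = r • ∑ i, c i • v i := by
      rw [Finset.smul_sum]
      have : ∀ i, r • c i • v i = c i • w (Fin.cast hm1.symm i) := fun i => by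
        rw [smul_comm, hrv]
      simp_rw [this]
      exact Fintype.sum_equiv (finCongr hm1) _ _ fun j => by simp
    rw [h2, norm_smul, Real.norm_of_nonneg hr.le] at h1
    have h3 : |c i| * r ≤ (K * ‖∑ i, c i • v i‖) * r := by
      calc |c i| * r = |c (Fin.cast hm1 (Fin.cast hm1.symm i))| * r := by simp
        _ ≤ _ := h1
        _ = _ := by rw [← hK]; ring
    exact le_of_mul_le_mul_right h3 hr
  have hdi : ∀ y ∈ A, dist y x ≤ r → dInt V y (2 * r) ≤ ε / C * r ^ (m + 2) := fun y hy hyx =>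
    hpin r hr hrr0 y hyx (hA y hy)
  have hfin : V (ball x (3 * r) ×ˢ univ) < ⊤ := by
    refine (measure_mono (Set.prod_mono (ball_subset_closedBall.trans
      (closedBall_subset_closedBall hrR)) Subset.rfl)).trans_lt
      (hV.fin _ (isCompact_closedBall x R) hRU)
  have key := excess_int hV.conc hK0.le hv1 hv2 hr hfin (κ := ε / C * r ^ (m + 2))
    (hdi x hxA (by rw [dist_self]; exact hr.le)) (fun i => by
      refine hdi _ ?_ ?_
      · rw [hrv]; exact (hw1 _).1
      · rw [dist_eq_norm, add_sub_cancel_left, hrv]; exact (hw1 _).2)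
  refine ⟨(plane v).starProjection, plane_mem_G hv2, key.trans (le_of_eq ?_)⟩
  rw [← hC]
  field_simp

/-- **content positive sets of points of maximal density force flatness.** -/
theorem flat_of_cont (hV : Stat m k U V) (hm : 1 ≤ m) (hU : IsOpen U) {x : Euc k} (hx : x ∈ U)
    {s : ℝ} (hs : ((m - 1 : ℕ) : ℝ) < s) {c : ℝ} (hc : 0 < c) {ε : ℝ} (hε : 0 < ε) {R : ℝ}
    (hR : 1 ≤ R) :
    ∃ r₀ > (0:ℝ), ∀ r : ℝ, 0 < r → r ≤ r₀ → ∀ A : Set (Euc k), x ∈ A →
      (∀ y ∈ A, Th m V x ≤ Th m V y) →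
      ENNReal.ofReal c * ENNReal.ofReal r ^ s ≤ cont s (A ∩ closedBall x r) →
      Flat m V x (R * r) ε := by
  have hs0 : 0 < s := lt_of_le_of_lt (Nat.cast_nonneg _) hs
  have hR0 : 0 < R := by linarith
  have hc' : 0 < c / R ^ s := by positivity
  obtain ⟨δ, hδ, -, hnf⟩ := not_flat_of_cont (Euc k) hs hc'
  obtain ⟨r₀, hr₀, h⟩ := flat_of_not_flat hV hm hU hx hδ hε
  refine ⟨r₀ / R, by positivity, fun r hr hrr A hxA hA hcont => ?_⟩
  have hRr : R * r ≤ r₀ := by rw [le_div_iff₀ hR0] at hrr; linarith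
  refine h (R * r) (by positivity) hRr A hxA hA ?_
  refine hnf δ hδ le_rfl A x (R * r) (by positivity) ?_
  calc ENNReal.ofReal (c / R ^ s) * ENNReal.ofReal (R * r) ^ s
      = ENNReal.ofReal c * ENNReal.ofReal r ^ s := by
        rw [ENNReal.ofReal_rpow_of_pos (by positivity), ENNReal.ofReal_rpow_of_pos hr,
          ← ENNReal.ofReal_mul hc'.le, ← ENNReal.ofReal_mul hc.le,
          Real.mul_rpow hR0.le hr.le]
        congr 1
        have : (0:ℝ) < R ^ s := by positivity
        field_simp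
    _ ≤ cont s (A ∩ closedBall x r) := hcont
    _ ≤ cont s (A ∩ closedBall x (R * r)) := by
        refine cont_mono s (inter_subset_inter_right _ (closedBall_subset_closedBall ?_))
        nlinarith

end Crest.Agent.R234.Fa_694
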