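import Crest.Agent.R234.Fa3_694

/-!
Row 234, VF-FA (helper694), file 4: selection of the blow-up scales, (F-a) of 518 #5411.

`select` : if `dimH (singularSet) > m - 1`, then there are `s > m - 1`, an integer `Q ≥ 2`, a singular point `x`
  with `Th x = Q` and arbitrarily small scales `r` at which the set `A` of singular points of density exactly
  `Q` has content `> c r ^ s` in `closedBall x r` (`c < 1` arbitrary), and at all such small scales the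
  varifold is `ε`-flat in `ball x (R r)` (`ε`, `R` arbitrary).
Inputs (hypotheses): integrality of the density at points with arbitrarily flat scales, Allard's theorem at
such points of density one.
-/

set_option autoImplicit false

open Set Filter Topology MeasureTheory Metric Module
open Crest.GeometryTopology.Submanifold
open Crest.Agent.R234.Vf_884 Crest.Agent.R234.Strat3_842
open scoped ENNReal NNReal InnerProductSpace

noncomputable section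

namespace Crest.Agent.R234.Fa_694

variable {m k : ℕ}

/-- The measure theoretic core of the selection, for an arbitrary set `S` (below: the singular set). -/
theorem select_set {V : Measure (Euc k × L k)} {U : Set (Euc k)} (hV : Stat m k U V) (hm : 1 ≤ m)
    (hU : IsOpen U) {S : Set (Euc k)} (hSU : S ⊆ U) (hS : ((m - 1 : ℕ) : ℝ≥0∞) < dimH S)
    (P : ℕ → Prop)
    (hint : ∀ x ∈ S, x ∉ NF m V → ∃ Q : ℕ, P Q ∧ Th m V x = Q) :
    ∃ s : ℝ, ((m - 1 : ℕ) : ℝ) < s ∧ ∃ Q : ℕ, P Q ∧ ∃ x ∈ S, Th m V x = Q ∧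
      (∀ c : ℝ, c < 1 → ∀ r₀ > (0:ℝ), ∃ r : ℝ, 0 < r ∧ r ≤ r₀ ∧
        ENNReal.ofReal c * ENNReal.ofReal r ^ s <
          cont s ({y ∈ S | Th m V y = Q} ∩ closedBall x r)) ∧
      (∀ c > (0:ℝ), ∀ ε > (0:ℝ), ∀ R : ℝ, 1 ≤ R → ∃ r₀ > (0:ℝ), ∀ r : ℝ, 0 < r → r ≤ r₀ →
        ENNReal.ofReal c * ENNReal.ofReal r ^ s ≤
          cont s ({y ∈ S | Th m V y = Q} ∩ closedBall x r) → Flat m V x (R * r) ε) := by
  obtain ⟨s', hs1, hs2⟩ := exists_between hS
  lift s' to ℝ≥0 using (hs2.trans_le le_top).ne with s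
  have hs : ((m - 1 : ℕ) : ℝ) < (s : ℝ) := by
    have : ((m - 1 : ℕ) : ℝ≥0∞) < (s : ℝ≥0∞) := hs1
    rw [← ENNReal.coe_natCast, ENNReal.coe_lt_coe] at this
    exact_mod_cast this
  have hs0 : (0:ℝ) < s := lt_of_le_of_lt (Nat.cast_nonneg _) hs
  have hμ : μH[(s : ℝ)] S = ⊤ := hausdorffMeasure_of_lt_dimH hs2
  have hN : μH[(s : ℝ)] (NF m V ∩ U) = 0 :=
    hausdorffMeasure_of_dimH_lt (lt_of_le_of_lt (dimH_NF_stat hm hU hV) hs1)
  -- one point for every c < 1: use a sequence c_n ↑ 1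
  set Pc : ℕ → Set (Euc k) := fun Q => {y | P Q ∧ Th m V y = Q} with hPc
  -- null set of bad points of every piece and every c_n
  set c : ℕ → ℝ≥0∞ := fun n => ENNReal.ofReal (1 - 1 / ((n : ℝ) + 2)) with hc
  have hc1 : ∀ n, c n < 1 := fun n => by
    rw [hc, ← ENNReal.ofReal_one]
    refine (ENNReal.ofReal_lt_ofReal_iff one_pos).2 ?_
    have : (0:ℝ) < 1 / ((n : ℝ) + 2) := by positivity
    linarith
  set Bad : Set (Euc k) := ⋃ Q : ℕ, ⋃ n : ℕ, {x ∈ S ∩ Pc Q | ∃ r₀ > (0:ℝ), ∀ r : ℝ, 0 < r →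
      r ≤ r₀ → cont (s : ℝ) ((S ∩ Pc Q) ∩ closedBall x r) ≤ c n * ENNReal.ofReal r ^ (s : ℝ)}
    with hBad
  have hBad0 : μH[(s : ℝ)] Bad = 0 :=
    measure_iUnion_null fun Q => measure_iUnion_null fun n => density_null hs0 _ (hc1 n)
  obtain ⟨x, hxS, hxB⟩ : ∃ x ∈ S, x ∉ Bad ∪ (NF m V ∩ U) := by
    by_contra hcon
    push Not at hcon
    have h0 : μH[(s : ℝ)] S = 0 := measure_mono_null hcon (measure_union_null hBad0 hN)
    rw [hμ] at h0
    exact ENNReal.top_ne_zero h0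
  have hx1 : x ∉ Bad := fun h => hxB (Or.inl h)
  have hx2 : x ∉ NF m V := fun h => hxB (Or.inr ⟨h, hSU hxS⟩)
  obtain ⟨Q, hQ, hTh⟩ := hint x hxS hx2
  have hset : {y ∈ S | Th m V y = Q} = S ∩ Pc Q := by
    ext y
    simp only [mem_ofPred_eq, mem_inter_iff, hPc]
    tauto
  refine ⟨s, hs, Q, hQ, x, hxS, hTh, ?_, ?_⟩
  · intro a ha1 r₀ hr₀
    obtain ⟨n, hn⟩ : ∃ n : ℕ, a ≤ 1 - 1 / ((n : ℝ) + 2) := by
      obtain ⟨n, hn⟩ := exists_nat_one_div_lt (show 0 < 1 - a by linarith)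
      refine ⟨n, ?_⟩
      have : 1 / ((n : ℝ) + 2) ≤ 1 / ((n : ℝ) + 1) := by gcongr; norm_num
      linarith
    by_contra hcon
    push Not at hcon
    refine hx1 ?_
    rw [hBad]
    refine mem_iUnion.2 ⟨Q, mem_iUnion.2 ⟨n, ⟨hxS, hQ, hTh⟩, r₀, hr₀, fun r h1 h2 => ?_⟩⟩
    have h3 := hcon r h1 h2
    rw [hset] at h3
    refine h3.trans ?_
    gcongr
    exact ENNReal.ofReal_le_ofReal hn
  · intro a ha ε hε R hR
    obtain ⟨r₀, hr₀, h⟩ := flat_of_cont hV hm hU (hSU hxS) hs ha hε hR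
    refine ⟨r₀, hr₀, fun r h1 h2 h3 =>
      h r h1 h2 {y ∈ S | Th m V y = Q} ⟨hxS, hTh⟩ (fun y hy => ?_) h3⟩
    rw [hTh, hy.2]

/-- **selection of the blow-up scales** for the frozen varifolds. -/
theorem select {U : Set (Euc k)} {D : VarifoldData m k} (hD : IsIntegralVarifoldIn U D)
    (hst : IsStationaryIn U D) (hm : 1 ≤ m) (hU : IsOpen U)
    (hdim : ((m - 1 : ℕ) : ℝ≥0∞) < dimH (singularSet m k U D))
    (hint : ∀ x ∈ U, x ∈ support D → x ∉ NF m (VD D) → ∃ Q : ℕ, Th m (VD D) x = Q)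
    (hone : ∀ x ∈ U, x ∈ support D → x ∉ NF m (VD D) → Th m (VD D) x ≤ 1 →
      x ∉ singularSet m k U D) :
    ∃ s : ℝ, ((m - 1 : ℕ) : ℝ) < s ∧ ∃ Q : ℕ, 2 ≤ Q ∧ ∃ x ∈ singularSet m k U D,
      Th m (VD D) x = Q ∧
      (∀ c : ℝ, c < 1 → ∀ r₀ > (0:ℝ), ∃ r : ℝ, 0 < r ∧ r ≤ r₀ ∧
        ENNReal.ofReal c * ENNReal.ofReal r ^ s <
          cont s ({y ∈ singularSet m k U D | Th m (VD D) y = Q} ∩ closedBall x r)) ∧
      (∀ c > (0:ℝ), ∀ ε > (0:ℝ), ∀ R : ℝ, 1 ≤ R → ∃ r₀ > (0:ℝ), ∀ r : ℝ, 0 < r → r ≤ r₀ →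
        ENNReal.ofReal c * ENNReal.ofReal r ^ s ≤
          cont s ({y ∈ singularSet m k U D | Th m (VD D) y = Q} ∩ closedBall x r) →
        Flat m (VD D) x (R * r) ε) := by
  refine select_set (stat_VD hD hst) hm hU (fun x hx => hx.1) hdim (fun Q => 2 ≤ Q) ?_
  intro x hx hn
  obtain ⟨Q, hQ⟩ := hint x hx.1 hx.2.1 hn
  refine ⟨Q, ?_, hQ⟩
  by_contra hlt
  refine hone x hx.1 hx.2.1 hn ?_ hx
  rw [hQ]
  have : Q ≤ 1 := by omega
  exact_mod_cast this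

end Crest.Agent.R234.Fa_694
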