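import Crest.Agent.R234.Strat5_842
import Crest.Agent.R234.Fa2_694
import Crest.Agent.R234.Vf8_884
import Crest.Agent.R234.Vc5_164
import Crest.Agent.R234.AS_456

/-!
# Row 234, VF-MAIN (helper456): the top-level interface of S0362, version 1

Nodes (every node is a frozen Prop; owners in brackets):
* `ProdStep`  (937, VF-PROD)   S0362 (m+1, n) ⟹ S0362 (m, n)
* `FA`        (694, VF-FA)     selection of the blow-up scales at a singular point of density `Q ≥ 2`
* `NoSel`     (SUCP stage)     no such selection exists (for `m ≥ 3`)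
`main` : the three nodes give S0362 for all m, n ≥ 1.
-/

set_option autoImplicit false
set_option linter.unusedVariables false

open MeasureTheory Filter Topology Set
open scoped ENNReal NNReal
open Crest.GeometryTopology.Submanifold Crest.Agent.R234.Vf_884
open Crest.Agent.R234.Strat3_842 (tilt height)

noncomputable section

namespace Crest.Agent.R234.Main_456

/-- the statement S0362 for given `m`, `n`. -/
def S (m n : ℕ) : Prop :=
  ∀ (U : Set (Euc (m + n))), IsOpen U → ∀ D : VarifoldData m (m + n),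
    IsIntegralVarifoldIn U D → IsStationaryIn U D →
      dimH (singularSet m (m + n) U D) ≤ (m : ℝ≥0∞) - 1

/-- node N0 (937). -/
def ProdStep : Prop := ∀ m n : ℕ, 1 ≤ m → 1 ≤ n → S (m + 1) n → S m n

variable {m k : ℕ}

/-- singular points of density `Q`. -/
def SingQ (m k : ℕ) (U : Set (Euc k)) (D : VarifoldData m k) (Q : ℕ) : Set (Euc k) :=
  {y | y ∈ singularSet m k U D ∧ Th m (VD D) y = (Q : ℝ≥0∞)}

/-- `V` is `ε`-close to `Q|x + range P|` in the ball of radius `r` about `x`. -/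
def NearQ (m : ℕ) (V : Measure (Euc k × L k)) (Q : ℕ) (x : Euc k) (r ε : ℝ) (P : L k) : Prop :=
  P ∈ G m k ∧
  ∫ p in Metric.ball x r ×ˢ univ, (r ^ 2 * tilt P p + height P x p) ∂V ≤ ε * r ^ (m + 2) ∧
  rat m V x r ≤ (Q : ℝ≥0∞) + ENNReal.ofReal ε

/-- the data selected at a singular point of density `Q`. -/
structure Sel (m k : ℕ) (U : Set (Euc k)) (D : VarifoldData m k) (s : ℝ) (Q : ℕ) (c : ℝ)
    (x : Euc k) (r : ℕ → ℝ) (P : ℕ → L k) : Prop where
  hs : (m : ℝ) - 1 < s
  hQ : 2 ≤ Q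
  hc : 0 < c
  mem : x ∈ SingQ m k U D Q
  pos : ∀ i, 0 < r i
  lim : Tendsto r atTop (𝓝 0)
  cont : ∀ i, ENNReal.ofReal c * ENNReal.ofReal (r i) ^ s ≤
    Fa_694.cont s (SingQ m k U D Q ∩ Metric.closedBall x (r i))
  near : ∀ R : ℝ, 0 < R → ∀ ε : ℝ, 0 < ε → ∀ᶠ i in atTop, NearQ m (VD D) Q x (R * r i) ε (P i)

/-- node N1 (694): selection of the blow-up scales. -/
def FA : Prop :=
  ∀ (m k : ℕ), 1 ≤ m → ∀ (U : Set (Euc k)), IsOpen U → ∀ D : VarifoldData m k,
    IsIntegralVarifoldIn U D → IsStationaryIn U D →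
      (m : ℝ≥0∞) - 1 < dimH (singularSet m k U D) →
        ∃ (s : ℝ) (Q : ℕ) (c : ℝ) (x : Euc k) (r : ℕ → ℝ) (P : ℕ → L k),
          Sel m k U D s Q c x r P

/-- node N2 (SUCP stage, 518's F-list): no selection exists. -/
def NoSel : Prop :=
  ∀ (m n : ℕ), 3 ≤ m → 1 ≤ n → ∀ (U : Set (Euc (m + n))), IsOpen U →
    ∀ D : VarifoldData m (m + n), IsIntegralVarifoldIn U D → IsStationaryIn U D →
      ∀ (s : ℝ) (Q : ℕ) (c : ℝ) (x : Euc (m + n)) (r : ℕ → ℝ) (P : ℕ → L (m + n)),
        ¬ Sel m (m + n) U D s Q c x r P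

/-- the large cases. -/
theorem large (h1 : FA) (h2 : NoSel) {m n : ℕ} (hm : 3 ≤ m) (hn : 1 ≤ n) : S m n := by
  intro U hU D hD hs
  by_contra hcon
  obtain ⟨s, Q, c, x, r, P, h⟩ := h1 m (m + n) (by omega) U hU D hD hs (not_le.1 hcon)
  exact h2 m n hm hn U hU D hD hs s Q c x r P h

/-- **the top level**: S0362 for all `m, n ≥ 1` from the three nodes. -/
theorem main (h0 : ProdStep) (h1 : FA) (h2 : NoSel) : ∀ m n : ℕ, 1 ≤ m → 1 ≤ n → S m n := by
  intro m n hm hn
  have key : ∀ j m : ℕ, 1 ≤ m → 3 ≤ m + j → S m n := by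
    intro j
    induction j with
    | zero => intro m _ hj; exact large h1 h2 hj hn
    | succ j ih => intro m hm hj; exact h0 m n hm hn (ih (m + 1) (by omega) (by omega))
  exact key 2 m hm (by omega)

end Crest.Agent.R234.Main_456
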