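import Crest.Agent.R234.Fa4_694
import Crest.Agent.R234.Main_456

/-!
Row 234, VF-FA (helper694), file 5: the node `FA` of helper456's interface from the two inputs
`HInt` (integral density at the points with arbitrarily flat scales) and `HOne` (Allard: no singular point of
density `≤ 1` with arbitrarily flat scales).
-/

set_option autoImplicit false

open Set Filter Topology MeasureTheory Metric Module
open Crest.GeometryTopology.Submanifold
open Crest.Agent.R234.Vf_884 Crest.Agent.R234.Strat3_842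
open scoped ENNReal NNReal InnerProductSpace

noncomputable section

namespace Crest.Agent.R234.Fa_694

variable {m k : ℕ} {V : Measure (Euc k × L k)} {U : Set (Euc k)}

theorem plane_smul (v : Fin m → Euc k) {a : ℝ} (ha : a ≠ 0) :
    plane (fun i => a • v i) = plane v := by
  unfold plane
  refine le_antisymm (Submodule.span_le.2 ?_) (Submodule.span_le.2 ?_)
  · rintro _ ⟨i, rfl⟩
    exact Submodule.smul_mem _ _ (Submodule.subset_span ⟨i, rfl⟩)
  · rintro _ ⟨i, rfl⟩
    have h : v i = a⁻¹ • (a • v i) := by rw [smul_smul, inv_mul_cancel₀ ha, one_smul]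
    rw [SetLike.mem_coe, h]
    exact Submodule.smul_mem _ _ (Submodule.subset_span ⟨i, rfl⟩)

/-- `v` is a `K`-fat simplex of points of density at least `Th x` at scale `r` about `x`. -/
structure Fat (m : ℕ) (V : Measure (Euc k × L k)) (K : ℝ) (x : Euc k) (r : ℝ)
    (v : Fin m → Euc k) : Prop where
  norm_le : ∀ i, ‖v i‖ ≤ 1
  fat : ∀ (c : Fin m → ℝ) (i : Fin m), |c i| ≤ K * ‖∑ i, c i • v i‖
  dens : ∀ i, Th m V x ≤ Th m V (x + r • v i)

/-- the excess with respect to the plane of a fat simplex, at every multiple of its scale. -/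
theorem Fat.excess (hV : Stat m k U V) (hm : 1 ≤ m) (hU : IsOpen U) {x : Euc k} (hx : x ∈ U)
    {K : ℝ} (hK : 0 < K) {R : ℝ} (hR : 1 ≤ R) {ε : ℝ} (hε : 0 < ε) :
    ∃ r₀ > (0:ℝ), ∀ r : ℝ, 0 < r → r ≤ r₀ → ∀ v : Fin m → Euc k, Fat m V K x r v →
      ∫ p in ball x (R * r) ×ˢ univ, ((R * r) ^ 2 * tilt (plane v).starProjection p +
        height (plane v).starProjection x p) ∂V ≤ ε * (R * r) ^ (m + 2) := by
  have hR0 : 0 < R := by linarith
  set K' : ℝ := K * R with hK'
  have hK'0 : 0 < K' := by positivity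
  set C : ℝ := 2 + 20 * (m * K') ^ 2 * m with hC
  have hC0 : 0 < C := by positivity
  obtain ⟨ρ, hρ, hρU⟩ := exists_closedBall hU hx
  obtain ⟨r₀, hr₀, hpin⟩ := pinch hV hm hU hx (η := ε / C) (by positivity)
  refine ⟨min r₀ (ρ / 3) / R, by positivity, fun r hr hrr v hv => ?_⟩
  have hRr : R * r ≤ min r₀ (ρ / 3) := by rw [le_div_iff₀ hR0] at hrr; linarith
  have hRr0 : 0 < R * r := by positivity
  have h1 : R * r ≤ r₀ := hRr.trans (min_le_left _ _)
  have h2 : 3 * (R * r) ≤ ρ := by have := hRr.trans (min_le_right _ _); linarith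
  set w : Fin m → Euc k := fun i => R⁻¹ • v i with hw
  have hpl : plane w = plane v := plane_smul v (by positivity)
  have hrw : ∀ i, (R * r) • w i = r • v i := fun i => by
    simp only [hw]; rw [smul_smul]; congr 1; field_simp
  have hw1 : ∀ i, ‖w i‖ ≤ 1 := fun i => by
    simp only [hw]
    rw [norm_smul, norm_inv, Real.norm_of_nonneg hR0.le, inv_mul_le_iff₀ hR0]
    have := hv.norm_le i
    linarith
  have hw2 : ∀ (c : Fin m → ℝ) (i : Fin m), |c i| ≤ K' * ‖∑ i, c i • w i‖ := by
    intro c i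
    have h3 := hv.fat c i
    have h4 : ∑ i, c i • w i = R⁻¹ • ∑ i, c i • v i := by
      rw [Finset.smul_sum]
      refine Finset.sum_congr rfl fun i _ => ?_
      simp only [hw]; rw [smul_comm]
    rw [h4, norm_smul, norm_inv, Real.norm_of_nonneg hR0.le, hK']
    refine h3.trans (le_of_eq ?_)
    field_simp
  have hfin : V (ball x (3 * (R * r)) ×ˢ univ) < ⊤ := by
    refine (measure_mono (Set.prod_mono (ball_subset_closedBall.trans
      (closedBall_subset_closedBall h2)) Subset.rfl)).trans_lt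
      (hV.fin _ (isCompact_closedBall x ρ) hρU)
  have key := excess_int hV.conc hK'0.le hw1 hw2 hRr0 hfin (κ := ε / C * (R * r) ^ (m + 2))
    (hpin _ hRr0 h1 x (by rw [dist_self]; positivity) le_rfl) (fun i => by
      refine hpin _ hRr0 h1 _ ?_ ?_
      · rw [dist_eq_norm, add_sub_cancel_left, norm_smul, Real.norm_of_nonneg hRr0.le]
        nlinarith [hw1 i]
      · rw [hrw]; exact hv.dens i)
  rw [hpl] at key
  refine key.trans (le_of_eq ?_)
  rw [← hC]
  field_simp

/-- content positive sets contain fat simplices. -/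
theorem exists_fat_of_cont {s : ℝ} (hm : 1 ≤ m) (hs : ((m - 1 : ℕ) : ℝ) < s) {c : ℝ}
    (hc : 0 < c) : ∃ K > (0:ℝ), ∀ (V : Measure (Euc k × L k)) (A : Set (Euc k)) (x : Euc k)
      (r : ℝ), 0 < r → x ∈ A → (∀ y ∈ A, Th m V x ≤ Th m V y) →
      ENNReal.ofReal c * ENNReal.ofReal r ^ s ≤ cont s (A ∩ closedBall x r) →
      ∃ v : Fin m → Euc k, Fat m V K x r v := by
  obtain ⟨δ, hδ, -, hnf⟩ := not_flat_of_cont (Euc k) hs hc
  set K : ℝ := Sp3_643.Cf (m - 1) δ with hK
  have hK0 : 0 < K := by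
    rw [hK]; unfold Sp3_643.Cf; positivity
  refine ⟨K, hK0, fun V A x r hr hxA hA hcont => ?_⟩
  obtain ⟨w, hw1, hw2⟩ := Sp3_643.exists_fat hδ hr hxA (hnf δ hδ le_rfl A x r hr hcont)
  have hm1 : m - 1 + 1 = m := by omega
  have hrv : ∀ i : Fin m, r • (r⁻¹ • w (Fin.cast hm1.symm i)) = w (Fin.cast hm1.symm i) :=
    fun i => by rw [smul_smul, mul_inv_cancel₀ hr.ne', one_smul]
  refine ⟨fun i => r⁻¹ • w (Fin.cast hm1.symm i), ?_, ?_, ?_⟩
  · intro i
    rw [norm_smul, norm_inv, Real.norm_of_nonneg hr.le, inv_mul_le_iff₀ hr, mul_one]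
    exact (hw1 _).2
  · intro c i
    have h1 := hw2 (fun j => c (Fin.cast hm1 j)) (Fin.cast hm1.symm i)
    have h2 : (∑ j, c (Fin.cast hm1 j) • w j) =
        r • ∑ i, c i • (r⁻¹ • w (Fin.cast hm1.symm i)) := by
      rw [Finset.smul_sum]
      have : ∀ i : Fin m, r • c i • (r⁻¹ • w (Fin.cast hm1.symm i)) =
          c i • w (Fin.cast hm1.symm i) := fun i => by
        rw [smul_comm, hrv]
      simp_rw [this]
      exact Fintype.sum_equiv (finCongr hm1) _ _ fun j => by simp
    rw [h2, norm_smul, Real.norm_of_nonneg hr.le] at h1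
    have h3 : |c i| * r ≤ (K * ‖∑ i, c i • (r⁻¹ • w (Fin.cast hm1.symm i))‖) * r := by
      calc |c i| * r = |c (Fin.cast hm1 (Fin.cast hm1.symm i))| * r := by simp
        _ ≤ _ := h1
        _ = _ := by rw [← hK]; ring
    exact le_of_mul_le_mul_right h3 hr
  · intro i
    refine hA _ ?_
    rw [hrv]
    exact (hw1 _).1

/-- input 1: integral density at the points with arbitrarily flat scales (947). -/
def HInt : Prop :=
  ∀ (m k : ℕ), 1 ≤ m → ∀ (U : Set (Euc k)), IsOpen U → ∀ D : VarifoldData m k,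
    IsIntegralVarifoldIn U D → IsStationaryIn U D →
      ∀ x ∈ U, x ∈ support D → x ∉ NF m (VD D) → ∃ Q : ℕ, Th m (VD D) x = Q

/-- input 2: Allard at the points of density `≤ 1` with arbitrarily flat scales. -/
def HOne : Prop :=
  ∀ (m k : ℕ), 1 ≤ m → ∀ (U : Set (Euc k)), IsOpen U → ∀ D : VarifoldData m k,
    IsIntegralVarifoldIn U D → IsStationaryIn U D →
      ∀ x ∈ U, x ∈ support D → x ∉ NF m (VD D) → Th m (VD D) x ≤ 1 → x ∉ singularSet m k U D

/-- **the node `FA`.** -/
theorem fa (h1 : HInt) (h2 : HOne) : Main_456.FA := by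
  intro m k hm U hU D hD hst hdim
  have hV := stat_VD hD hst
  have hcast : ((m - 1 : ℕ) : ℝ≥0∞) = (m : ℝ≥0∞) - 1 := by
    rw [ENNReal.natCast_sub, Nat.cast_one]
  rw [← hcast] at hdim
  obtain ⟨s, hs, Q, hQ, x, hx, hTh, hc, -⟩ := select hD hst hm hU hdim
    (h1 m k hm U hU D hD hst) (h2 m k hm U hU D hD hst)
  set A : Set (Euc k) := {y ∈ singularSet m k U D | Th m (VD D) y = Q} with hA
  have hxA : x ∈ A := ⟨hx, hTh⟩
  have hAd : ∀ y ∈ A, Th m (VD D) x ≤ Th m (VD D) y := fun y hy => by rw [hTh, hy.2]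
  obtain ⟨r, hr, hr0, hrc⟩ := exists_seq_of_forall (hc (1 / 2) (by norm_num))
  obtain ⟨K, hK, hfat⟩ := exists_fat_of_cont (k := k) hm hs (c := 1 / 2) (by norm_num)
  choose v hv using fun i => hfat (VD D) A x (r i) (hr i) hxA hAd (hrc i).le
  refine ⟨s, Q, 1 / 2, x, r, fun i => (plane (v i)).starProjection, ?_⟩
  refine ⟨?_, hQ, by norm_num, hxA, hr, hr0, fun i => (hrc i).le, ?_⟩
  · have : ((m - 1 : ℕ) : ℝ) = (m : ℝ) - 1 := by
      rw [Nat.cast_sub hm, Nat.cast_one]
    linarith
  · intro R hR ε hε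
    -- ratio
    obtain ⟨ρ, hρ, hρU⟩ := exists_closedBall hU hx.1
    have hrat : ∀ᶠ i in atTop, rat m (VD D) x (R * r i) ≤ (Q : ℝ≥0∞) + ENNReal.ofReal ε := by
      have t1 := tendsto_rat hV hm hρ (ball_subset_closedBall.trans hρU)
      rw [hTh] at t1
      have t2 : Tendsto (fun i => R * r i) atTop (𝓝[>] 0) := by
        refine tendsto_nhdsWithin_iff.2 ⟨?_, Eventually.of_forall fun i => ?_⟩
        · simpa using hr0.const_mul R
        · exact mul_pos hR (hr i)
      have t3 : (Q : ℝ≥0∞) < (Q : ℝ≥0∞) + ENNReal.ofReal ε :=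
        ENNReal.lt_add_right (ENNReal.natCast_ne_top Q) (ENNReal.ofReal_pos.2 hε).ne'
      filter_upwards [(t1.comp t2).eventually (gt_mem_nhds t3)] with i hi using hi.le
    -- excess at scale max 1 R
    have hR' : 1 ≤ max 1 R := le_max_left _ _
    have hR'0 : 0 < max 1 R := by positivity
    obtain ⟨r₀, hr₀, hex⟩ := Fat.excess hV hm hU hx.1 hK hR'
      (ε := ε * R ^ (m + 2) / (max 1 R) ^ (m + 2)) (by positivity)
    have hev : ∀ᶠ i in atTop, r i < min r₀ (ρ / max 1 R) :=
      hr0.eventually (gt_mem_nhds (by positivity))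
    filter_upwards [hrat, hev] with i hi1 hi2
    have hi3 : max 1 R * r i ≤ ρ := by
      have := (hi2.trans_le (min_le_right _ _)).le
      rw [le_div_iff₀ hR'0] at this; linarith
    refine ⟨plane_mem_G (hv i).fat, ?_, hi1⟩
    have h3 := hex (r i) (hr i) (hi2.trans_le (min_le_left _ _)).le (v i) (hv i)
    set P := (plane (v i)).starProjection with hP
    have hPG : P ∈ G m k := plane_mem_G (hv i).fat
    have hfin : (VD D) (ball x (max 1 R * r i) ×ˢ univ) < ⊤ :=
      (measure_mono (Set.prod_mono (ball_subset_closedBall.trans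
        (closedBall_subset_closedBall hi3)) Subset.rfl)).trans_lt
        (hV.fin _ (isCompact_closedBall x ρ) hρU)
    have hsub : ball x (R * r i) ⊆ ball x (max 1 R * r i) :=
      ball_subset_ball (mul_le_mul_of_nonneg_right (le_max_right _ _) (hr i).le)
    have hfin' : (VD D) (ball x (R * r i) ×ˢ univ) < ⊤ :=
      (measure_mono (Set.prod_mono hsub Subset.rfl)).trans_lt hfin
    have hpos : ∀ᵐ p ∂(VD D), 0 ≤ tilt P p := by
      filter_upwards [hV.conc] with p hp
      exact tr_perp_nonneg hp hPG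
    have hint1 : ∀ a : ℝ, IntegrableOn (fun p => a * tilt P p + height P x p)
        (ball x (max 1 R * r i) ×ˢ univ) (VD D) := fun a =>
      integrableOn_of_bdd hV.conc hfin
        ((continuous_const.mul (continuous_tilt P)).add (continuous_height P x))
    calc ∫ p in ball x (R * r i) ×ˢ univ, ((R * r i) ^ 2 * tilt P p + height P x p) ∂(VD D)
        ≤ ∫ p in ball x (max 1 R * r i) ×ˢ univ,
            ((R * r i) ^ 2 * tilt P p + height P x p) ∂(VD D) := by
          refine setIntegral_mono_set (hint1 _) ?_ (Set.prod_mono hsub Subset.rfl).eventuallyLE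
          filter_upwards [ae_restrict_of_ae hpos] with p hp
          have : 0 ≤ height P x p := by unfold height; positivity
          positivity
      _ ≤ ∫ p in ball x (max 1 R * r i) ×ˢ univ,
            ((max 1 R * r i) ^ 2 * tilt P p + height P x p) ∂(VD D) := by
          refine setIntegral_mono_ae_restrict (hint1 _) (hint1 _) ?_
          filter_upwards [ae_restrict_of_ae hpos] with p hp
          have h4 : (R * r i) ^ 2 ≤ (max 1 R * r i) ^ 2 := by
            have := hr i
            gcongr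
            exact le_max_right _ _
          gcongr
      _ ≤ ε * R ^ (m + 2) / (max 1 R) ^ (m + 2) * (max 1 R * r i) ^ (m + 2) := h3
      _ = ε * (R * r i) ^ (m + 2) := by
          rw [mul_pow, mul_pow]; field_simp

end Crest.Agent.R234.Fa_694
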