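import Crest.Agent.R234.Ft3_209

/-!
# Row 234, VF-FERMI, part (T) transport of a varifold by a diffeomorphism, file 6 (helper209)

Constructors of `Dif k`: composition, affine isomorphisms, small perturbations of the identity.
-/

set_option autoImplicit false

open Function Set MeasureTheory Crest.GeometryTopology.Submanifold
open scoped InnerProductSpace ENNReal NNReal

noncomputable section

namespace Crest.Agent.R234.Ft_209

open Crest.Agent.R234.Fm_209 Crest.Agent.R234.Vf_884 Crest.Agent.R234.Ar_870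

variable {k : ℕ}

namespace Dif

/-- composition: `Φ = S.Φ ∘ T.Φ` -/
def comp (S T : Dif k) : Dif k where
  Φ := S.Φ ∘ T.Φ
  Ψ := T.Ψ ∘ S.Ψ
  cΦ := S.cΦ.comp T.cΦ
  cΨ := T.cΨ.comp S.cΨ
  left z := by
    change T.Ψ (S.Ψ (S.Φ (T.Φ z))) = z
    rw [S.left, T.left]
  right q := by
    change S.Φ (T.Φ (T.Ψ (S.Ψ q))) = q
    rw [T.right, S.right]

theorem comp_A (S T : Dif k) (z : Euc k) : (comp S T).A z = S.A (T.Φ z) ∘L T.A z :=
  fderiv_comp z (S.dΦ _) (T.dΦ _)

/-- affine isomorphism `z ↦ e z + c` -/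
def affine (e : Euc k ≃L[ℝ] Euc k) (c : Euc k) : Dif k where
  Φ z := e z + c
  Ψ q := e.symm (q - c)
  cΦ := e.contDiff.add contDiff_const
  cΨ := e.symm.contDiff.comp (contDiff_id.sub contDiff_const)
  left z := by simp
  right q := by simp

theorem affine_A (e : Euc k ≃L[ℝ] Euc k) (c z : Euc k) : (affine e c).A z = e := by
  have h : HasFDerivAt (fun z => e z + c) (e : L k) z := e.hasFDerivAt.add_const c
  exact h.fderiv

/-- **perturbation of the identity** -/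
theorem exists_pert {f : Euc k → Euc k} (hf : ContDiff ℝ 2 f)
    (hb : ∀ z, ‖fderiv ℝ f z‖ ≤ 1 / 2) :
    ∃ T : Dif k, (∀ z, T.Φ z = z + f z) := by
  have hfd : Differentiable ℝ f := hf.differentiable two_ne_zero
  have hlip : ∀ x y, ‖f x - f y‖ ≤ 1 / 2 * ‖x - y‖ := fun x y =>
    convex_univ.norm_image_sub_le_of_norm_fderiv_le (fun z _ => hfd z) (fun z _ => hb z)
      (mem_univ y) (mem_univ x)
  have happ : ApproximatesLinearOn (fun z => z + f z)
      ((ContinuousLinearEquiv.refl ℝ (Euc k) : Euc k ≃L[ℝ] Euc k) : Euc k →L[ℝ] Euc k)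
      univ (1 / 2 : ℝ≥0) := by
    intro x _ y _
    have h1 : (x + f x) - (y + f y) - (x - y) = f x - f y := by abel
    change ‖(x + f x) - (y + f y) - (x - y)‖ ≤ _
    rw [h1]
    simpa using hlip x y
  have hinjA : ∀ z, Injective (1 + fderiv ℝ f z : L k) := by
    intro z x y hxy
    have h1 : x - y = -(fderiv ℝ f z (x - y)) := by
      have h2 : x + fderiv ℝ f z x = y + fderiv ℝ f z y := hxy
      rw [map_sub]
      have h3 : x - y = fderiv ℝ f z y - fderiv ℝ f z x := by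
        rw [sub_eq_sub_iff_add_eq_add]
        rw [h2, add_comm]
      rw [h3]
      abel
    have h2 : ‖x - y‖ ≤ 1 / 2 * ‖x - y‖ := by
      conv_lhs => rw [h1, norm_neg]
      exact ((fderiv ℝ f z).le_opNorm _).trans (mul_le_mul_of_nonneg_right (hb z) (norm_nonneg _))
    have h3 : ‖x - y‖ = 0 := by linarith [norm_nonneg (x - y)]
    exact sub_eq_zero.1 (norm_eq_zero.1 h3)
  have hder : ∀ z, HasFDerivAt (fun z => z + f z) (1 + fderiv ℝ f z : L k) z := fun z =>
    (hasFDerivAt_id z).add (hfd z).hasFDerivAt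
  rcases subsingleton_or_nontrivial (Euc k) with hs | hs
  · refine ⟨⟨id, id, contDiff_id, contDiff_id, fun z => rfl, fun q => rfl⟩, fun z => ?_⟩
    exact Subsingleton.elim _ _
  · have hN : (1 / 2 : ℝ≥0) < ‖((ContinuousLinearEquiv.refl ℝ (Euc k)).symm :
        Euc k →L[ℝ] Euc k)‖₊⁻¹ := by
      have h1 : ‖((ContinuousLinearEquiv.refl ℝ (Euc k)).symm : Euc k →L[ℝ] Euc k)‖₊ = 1 := by
        have : ‖(ContinuousLinearMap.id ℝ (Euc k))‖₊ = 1 := by
          ext
          simp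
        exact this
      rw [h1, inv_one]
      exact NNReal.half_lt_self one_ne_zero
    set H := happ.toHomeomorph (fun z => z + f z) (Or.inr hN) with hH
    have hHf : ∀ z, H z = z + f z := fun z => rfl
    let e : ∀ z : Euc k, Euc k ≃L[ℝ] Euc k := fun z =>
      (LinearEquiv.ofInjectiveEndo ((1 + fderiv ℝ f z : L k) : Euc k →ₗ[ℝ] Euc k)
        (hinjA z)).toContinuousLinearEquiv
    have he : ∀ z, ((e z : Euc k ≃L[ℝ] Euc k) : L k) = 1 + fderiv ℝ f z := by
      intro z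
      ext1 v
      rfl
    have hc : ContDiff ℝ 2 (fun z => z + f z) := contDiff_id.add hf
    have hsy : ContDiff ℝ 2 (H.symm : Euc k → Euc k) :=
      H.contDiff_symm (f₀' := e) (fun z => by rw [he]; exact hder z) hc
    exact ⟨⟨H, H.symm, hc, hsy, H.symm_apply_apply, H.apply_symm_apply⟩, fun z => rfl⟩

/-- `id + f` as a diffeomorphism -/
def ofPert (f : Euc k → Euc k) (hf : ContDiff ℝ 2 f) (hb : ∀ z, ‖fderiv ℝ f z‖ ≤ 1 / 2) : Dif k :=
  (exists_pert hf hb).choose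

theorem ofPert_Φ {f : Euc k → Euc k} (hf : ContDiff ℝ 2 f) (hb : ∀ z, ‖fderiv ℝ f z‖ ≤ 1 / 2)
    (z : Euc k) : (ofPert f hf hb).Φ z = z + f z := (exists_pert hf hb).choose_spec z

theorem ofPert_A {f : Euc k → Euc k} (hf : ContDiff ℝ 2 f) (hb : ∀ z, ‖fderiv ℝ f z‖ ≤ 1 / 2)
    (z : Euc k) : (ofPert f hf hb).A z = 1 + fderiv ℝ f z := by
  have h1 : (ofPert f hf hb).Φ = fun z => z + f z := funext (ofPert_Φ hf hb)
  have h2 : HasFDerivAt (fun z => z + f z) (1 + fderiv ℝ f z : L k) z :=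
    (hasFDerivAt_id z).add (hf.differentiable two_ne_zero z).hasFDerivAt
  unfold A
  rw [h1]
  exact h2.fderiv

/-- bounds of the inverse -/
theorem norm_B_le {T : Dif k} {ε : ℝ} (hε : ε < 1) (h : ∀ z, ‖T.A z - 1‖ ≤ ε) (q : Euc k) :
    ‖T.B q‖ ≤ (1 - ε)⁻¹ := by
  have hε1 : 0 < 1 - ε := by linarith
  refine ContinuousLinearMap.opNorm_le_bound _ (inv_nonneg.2 hε1.le) fun v => ?_
  have h1 : T.A (T.Ψ q) (T.B q v) = v := congrArg (fun A : L k => A v) (T.AB q)
  have h2 : ‖T.B q v‖ ≤ ‖v‖ + ε * ‖T.B q v‖ := by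
    have h3 : T.B q v = v - (T.A (T.Ψ q) - 1) (T.B q v) := by
      change T.B q v = v - (T.A (T.Ψ q) (T.B q v) - T.B q v)
      rw [h1]
      abel
    calc ‖T.B q v‖ = ‖v - (T.A (T.Ψ q) - 1) (T.B q v)‖ := by rw [← h3]
      _ ≤ ‖v‖ + ‖(T.A (T.Ψ q) - 1) (T.B q v)‖ := norm_sub_le _ _
      _ ≤ _ := by
        gcongr
        exact ((T.A (T.Ψ q) - 1).le_opNorm _).trans
          (mul_le_mul_of_nonneg_right (h _) (norm_nonneg _))
  rw [inv_mul_eq_div, le_div_iff₀ hε1]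
  linarith

theorem norm_B_sub_one_le {T : Dif k} {ε : ℝ} (hε : ε < 1) (h : ∀ z, ‖T.A z - 1‖ ≤ ε)
    (q : Euc k) : ‖T.B q - 1‖ ≤ ε * (1 - ε)⁻¹ := by
  have h1 : T.B q - 1 = -((T.A (T.Ψ q) - 1) * T.B q) := by
    rw [sub_mul, T.AB, one_mul]
    abel
  have h0 : 0 ≤ ε := (norm_nonneg _).trans (h 0)
  rw [h1, norm_neg]
  exact (norm_mul_le _ _).trans (mul_le_mul (h _) (norm_B_le hε h q) (norm_nonneg _) h0)

end Dif

end Crest.Agent.R234.Ft_209
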