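import Crest.Agent.R234.Fm6_281
import Crest.Agent.R234.Ft6_209
import Crest.Agent.R234.AS_456
import Crest.Agent.R234.Main2_456
import Crest.Agent.R234.Cy2_870

/-!
# Row 234, node FERMI-CHART (helper209), file 1: derivatives of the graph map

`uu z = κ† (u (π z))`, `P = D uu`, `P' = D P`, `P'' = D P'`, `hop z w v = (P' z v)† w`,
`h z = hop z z`, `h1 z ζ = D_ζ h`.
-/

set_option autoImplicit false

open Function Set Filter Topology Crest.GeometryTopology.Submanifold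
open Crest.Agent.R234.Vf_884 Crest.Agent.R234.Ar_870 Crest.Agent.R234.Fm_281
open Crest.Agent.R234.Cy_870 (Split)
open Crest.Agent.R234.AS_456 (hp vp)
open scoped InnerProductSpace

noncomputable section

namespace Crest.Agent.R234.Fc_209

variable {m n k : ℕ}

section Defs

variable (π : Euc k →L[ℝ] Euc m) (κ : Euc k →L[ℝ] Euc n) (u : Euc m → Euc n)

/-- extension of an operator `ℝ^m → ℝ^n` to the ambient space -/
def Th : (Euc m →L[ℝ] Euc n) →L[ℝ] L k :=
  (ContinuousLinearMap.compL ℝ (Euc k) (Euc n) (Euc k) (ContinuousLinearMap.adjoint κ)) ∘L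
    ((ContinuousLinearMap.compL ℝ (Euc k) (Euc m) (Euc n)).flip π)

theorem Th_apply (q : Euc m →L[ℝ] Euc n) (z : Euc k) :
    Th π κ q z = ContinuousLinearMap.adjoint κ (q (π z)) := rfl

/-- the graph map -/
def uu (z : Euc k) : Euc k := ContinuousLinearMap.adjoint κ (u (π z))

/-- its derivative -/
def P (z : Euc k) : L k := fderiv ℝ (uu π κ u) z

/-- second derivative -/
def P' (z : Euc k) : Euc k →L[ℝ] L k := fderiv ℝ (P π κ u) z

/-- third derivative -/
def P'' (z : Euc k) : Euc k →L[ℝ] Euc k →L[ℝ] L k := fderiv ℝ (P' π κ u) z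

/-- the adjoint as a continuous linear map -/
def adjL : L k →L[ℝ] L k :=
  (ContinuousLinearMap.adjoint (𝕜 := ℝ) (E := Euc k) (F := Euc k)).toContinuousLinearEquiv.toContinuousLinearMap

theorem adjL_apply (A : L k) : adjL A = star A := rfl

/-- `v ↦ (P' z v)† w` -/
def hop (z w : Euc k) : L k := (adjL ∘L P' π κ u z).flip w

/-- `v ↦ (P' z v)† z` -/
def h (z : Euc k) : L k := hop π κ u z z

/-- derivative of `h` along `ζ` -/
def h1 (z ζ : Euc k) : L k := hop π κ u z ζ + (adjL ∘L P'' π κ u z ζ).flip z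

theorem hop_apply (z w v : Euc k) : hop π κ u z w v = (star (P' π κ u z v)) w := rfl

theorem h1_apply (z ζ v : Euc k) :
    h1 π κ u z ζ v = (star (P' π κ u z v)) ζ + (star (P'' π κ u z ζ v)) z := rfl

end Defs

section Deriv

variable {π : Euc k →L[ℝ] Euc m} {κ : Euc k →L[ℝ] Euc n} {u : Euc m → Euc n}

theorem comp_aux {E F G : Type*} [NormedAddCommGroup E] [NormedSpace ℝ E] [NormedAddCommGroup F]
    [NormedSpace ℝ F] [NormedAddCommGroup G] [NormedSpace ℝ G] {f : F → G} {f' : F →L[ℝ] G}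
    {π : E →L[ℝ] F} {z : E} (h : HasFDerivAt f f' (π z)) :
    HasFDerivAt (fun z => f (π z)) (f' ∘L π) z := h.comp z π.hasFDerivAt

theorem contDiff_uu (hu : ContDiff ℝ 3 u) : ContDiff ℝ 3 (uu π κ u) :=
  (ContinuousLinearMap.adjoint κ).contDiff.comp (hu.comp π.contDiff)

theorem contDiff_P (hu : ContDiff ℝ 3 u) : ContDiff ℝ 2 (P π κ u) :=
  (contDiff_uu hu).fderiv_right (by norm_num)

theorem contDiff_P' (hu : ContDiff ℝ 3 u) : ContDiff ℝ 1 (P' π κ u) :=
  (contDiff_P hu).fderiv_right (by norm_num)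

theorem hasFDerivAt_P (hu : ContDiff ℝ 3 u) (z : Euc k) :
    HasFDerivAt (P π κ u) (P' π κ u z) z :=
  ((contDiff_P hu).differentiable (by norm_num) z).hasFDerivAt

theorem hasFDerivAt_P' (hu : ContDiff ℝ 3 u) (z : Euc k) :
    HasFDerivAt (P' π κ u) (P'' π κ u z) z :=
  ((contDiff_P' hu).differentiable (by norm_num) z).hasFDerivAt

theorem P_eq (hu : ContDiff ℝ 3 u) (z : Euc k) : P π κ u z = Th π κ (fderiv ℝ u (π z)) := by
  have h1 : HasFDerivAt u (fderiv ℝ u (π z)) (π z) :=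
    (hu.differentiable (by norm_num) (π z)).hasFDerivAt
  have h2 : HasFDerivAt (uu π κ u)
      (ContinuousLinearMap.adjoint κ ∘L (fderiv ℝ u (π z) ∘L π)) z :=
    (ContinuousLinearMap.adjoint κ).hasFDerivAt.comp z (h1.comp z π.hasFDerivAt)
  exact h2.fderiv

theorem P'_apply (hu : ContDiff ℝ 3 u) (z v : Euc k) :
    P' π κ u z v = Th π κ (fderiv ℝ (fderiv ℝ u) (π z) (π v)) := by
  have hu2 : ContDiff ℝ 2 (fderiv ℝ u) := hu.fderiv_right (by norm_num)
  have h1 : HasFDerivAt (fderiv ℝ u) (fderiv ℝ (fderiv ℝ u) (π z)) (π z) :=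
    (hu2.differentiable (by norm_num) (π z)).hasFDerivAt
  have h2 : HasFDerivAt (fun z => Th π κ (fderiv ℝ u (π z)))
      (Th π κ ∘L (fderiv ℝ (fderiv ℝ u) (π z) ∘L π)) z :=
    (Th π κ).hasFDerivAt.comp z (h1.comp z π.hasFDerivAt)
  have h3 : P π κ u = fun z => Th π κ (fderiv ℝ u (π z)) := funext fun z => P_eq hu z
  unfold P'
  rw [h3, h2.fderiv]
  rfl

theorem comp_aux3 {E F G H : Type*} [NormedAddCommGroup E] [NormedSpace ℝ E]
    [NormedAddCommGroup F]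
    [NormedSpace ℝ F] [NormedAddCommGroup G] [NormedSpace ℝ G] [NormedAddCommGroup H]
    [NormedSpace ℝ H] (D : F → (F →L[ℝ] G)) (T : G →L[ℝ] H) (π : E →L[ℝ] F)
    (hD : Differentiable ℝ D) {Q : E → (E →L[ℝ] H)} (hQ : ∀ z v, Q z v = T (D (π z) (π v)))
    (z ζ v : E) : fderiv ℝ Q z ζ v = T (fderiv ℝ D (π z) (π ζ) (π v)) := by
  obtain ⟨Ξ, hΞ⟩ : ∃ Ξ : (F →L[ℝ] G) →L[ℝ] (E →L[ℝ] H),
      ∀ B v, Ξ B v = T (B (π v)) :=
    ⟨(ContinuousLinearMap.compL ℝ E G H T) ∘L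
      ((ContinuousLinearMap.compL ℝ E F G).flip π), fun B v => rfl⟩
  have h2 : HasFDerivAt (fun z => Ξ (D (π z))) (Ξ ∘L (fderiv ℝ D (π z) ∘L π)) z :=
    Ξ.hasFDerivAt.comp z ((hD (π z)).hasFDerivAt.comp z π.hasFDerivAt)
  have h3 : Q = fun z => Ξ (D (π z)) := by
    funext z
    ext1 v
    rw [hΞ, hQ]
  rw [h3, h2.fderiv]
  exact hΞ _ _

theorem P''_apply (hu : ContDiff ℝ 3 u) (z ζ v : Euc k) :
    P'' π κ u z ζ v = Th π κ (fderiv ℝ (fderiv ℝ (fderiv ℝ u)) (π z) (π ζ) (π v)) := by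
  have hu2 : ContDiff ℝ 2 (fderiv ℝ u) := hu.fderiv_right (by norm_num)
  have hu1 : ContDiff ℝ 1 (fderiv ℝ (fderiv ℝ u)) := hu2.fderiv_right (by norm_num)
  exact comp_aux3 (fderiv ℝ (fderiv ℝ u)) (Th π κ) π (hu1.differentiable one_ne_zero)
    (fun z v => P'_apply hu z v) z ζ v

end Deriv

end Crest.Agent.R234.Fc_209
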