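import Crest.Agent.R234.Fc1_209

/-!
# Row 234, node FERMI-CHART (helper209), file 2: block structure, symmetry and bounds
-/

set_option autoImplicit false

open Function Set Filter Topology Crest.GeometryTopology.Submanifold
open Crest.Agent.R234.Vf_884 Crest.Agent.R234.Ar_870 Crest.Agent.R234.Fm_281
open Crest.Agent.R234.Cy_870 (Split)
open Crest.Agent.R234.AS_456 (hp vp)
open scoped InnerProductSpace

noncomputable section

namespace Crest.Agent.R234.Fc_209

variable {m n k : ℕ}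

section Basic

variable {π : Euc k →L[ℝ] Euc m} {κ : Euc k →L[ℝ] Euc n}

theorem hp_apply (z : Euc k) : hp π z = ContinuousLinearMap.adjoint π (π z) := rfl

theorem ππ' (hs : Split π κ) (x : Euc m) : π (ContinuousLinearMap.adjoint π x) = x :=
  congrArg (fun T : Euc m →L[ℝ] Euc m => T x) hs.hh

theorem κκ' (hs : Split π κ) (x : Euc n) : κ (ContinuousLinearMap.adjoint κ x) = x :=
  congrArg (fun T : Euc n →L[ℝ] Euc n => T x) hs.vv

theorem sum_apply (hs : Split π κ) (z : Euc k) :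
    ContinuousLinearMap.adjoint π (π z) + ContinuousLinearMap.adjoint κ (κ z) = z :=
  congrArg (fun T : L k => T z) hs.sum

theorem vp_apply (hs : Split π κ) (z : Euc k) : vp π z = ContinuousLinearMap.adjoint κ (κ z) := by
  change z - ContinuousLinearMap.adjoint π (π z) = _
  nth_rewrite 1 [← sum_apply hs z]
  abel

theorem norm_π_le (hs : Split π κ) (z : Euc k) : ‖π z‖ ≤ ‖z‖ := by
  have h := hs.norm_sq z
  refine abs_le_of_sq_le_sq' ?_ (norm_nonneg _) |>.2
  nlinarith [sq_nonneg ‖κ z‖]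

theorem norm_κ_le (hs : Split π κ) (z : Euc k) : ‖κ z‖ ≤ ‖z‖ := by
  have h := hs.norm_sq z
  refine abs_le_of_sq_le_sq' ?_ (norm_nonneg _) |>.2
  nlinarith [sq_nonneg ‖π z‖]

theorem norm_π' (hs : Split π κ) (x : Euc m) : ‖ContinuousLinearMap.adjoint π x‖ = ‖x‖ := by
  have h : ‖ContinuousLinearMap.adjoint π x‖ ^ 2 = ‖x‖ ^ 2 := by
    rw [← real_inner_self_eq_norm_sq, ContinuousLinearMap.adjoint_inner_left, ππ' hs,
      real_inner_self_eq_norm_sq]
  exact (sq_eq_sq₀ (norm_nonneg _) (norm_nonneg _)).1 h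

theorem norm_κ' (hs : Split π κ) (x : Euc n) : ‖ContinuousLinearMap.adjoint κ x‖ = ‖x‖ := by
  have h : ‖ContinuousLinearMap.adjoint κ x‖ ^ 2 = ‖x‖ ^ 2 := by
    rw [← real_inner_self_eq_norm_sq, ContinuousLinearMap.adjoint_inner_left, κκ' hs,
      real_inner_self_eq_norm_sq]
  exact (sq_eq_sq₀ (norm_nonneg _) (norm_nonneg _)).1 h

theorem norm_hp (hs : Split π κ) (z : Euc k) : ‖hp π z‖ = ‖π z‖ := norm_π' hs _

theorem norm_vp (hs : Split π κ) (z : Euc k) : ‖vp π z‖ = ‖κ z‖ := by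
  rw [vp_apply hs, norm_κ' hs]

/-- mixed products vanish -/
theorem πκ' (hs : Split π κ) (x : Euc n) : π (ContinuousLinearMap.adjoint κ x) = 0 := by
  have h := hs.norm_sq (ContinuousLinearMap.adjoint κ x)
  rw [norm_κ' hs, κκ' hs] at h
  have h2 : ‖π (ContinuousLinearMap.adjoint κ x)‖ ^ 2 = 0 := by linarith
  exact norm_eq_zero.1 (pow_eq_zero_iff two_ne_zero |>.1 h2)

theorem κπ' (hs : Split π κ) (x : Euc m) : κ (ContinuousLinearMap.adjoint π x) = 0 := by
  have h := hs.norm_sq (ContinuousLinearMap.adjoint π x)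
  rw [norm_π' hs, ππ' hs] at h
  have h2 : ‖κ (ContinuousLinearMap.adjoint π x)‖ ^ 2 = 0 := by linarith
  exact norm_eq_zero.1 (pow_eq_zero_iff two_ne_zero |>.1 h2)

theorem hp_mem_G (hs : Split π κ) : hp π ∈ G m k := by
  refine ⟨?_, ?_, ?_⟩
  · ext1 z
    change ContinuousLinearMap.adjoint π (π (ContinuousLinearMap.adjoint π (π z))) =
      ContinuousLinearMap.adjoint π (π z)
    rw [ππ' hs]
  · change star (hp π) = hp π
    rw [Fm_281.star_def]
    unfold hp
    rw [ContinuousLinearMap.adjoint_comp, ContinuousLinearMap.adjoint_adjoint]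
  · have h1 : Fm_209.trc (Euc k) (ContinuousLinearMap.adjoint π ∘L π) =
        Fm_209.trc (Euc m) (π ∘L ContinuousLinearMap.adjoint π) := Fm_209.trc_comp_comm _ _
    change Fm_209.trc (Euc k) (ContinuousLinearMap.adjoint π ∘L π) = m
    rw [h1, hs.hh]
    exact tr_one (k := m)

end Basic

end Crest.Agent.R234.Fc_209
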