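import Crest.Agent.R234.Fc2_209

/-!
# Row 234, node FERMI-CHART (helper209), file 3: block structure, symmetry and bounds of the
pointwise data `P, P', h, h1`
-/

set_option autoImplicit false

open Function Set Filter Topology Crest.GeometryTopology.Submanifold
open Crest.Agent.R234.Vf_884 Crest.Agent.R234.Ar_870 Crest.Agent.R234.Fm_281
open Crest.Agent.R234.Cy_870 (Split)
open Crest.Agent.R234.AS_456 (hp vp)
open scoped InnerProductSpace

noncomputable section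

namespace Crest.Agent.R234.Fc_209

variable {m n k : ℕ}

section Blocks

variable {π : Euc k →L[ℝ] Euc m} {κ : Euc k →L[ℝ] Euc n} {u : Euc m → Euc n}

theorem Th_HV (hs : Split π κ) (q : Euc m →L[ℝ] Euc n) : HV (hp π) (Th π κ q) := by
  constructor
  ext1 z
  change ContinuousLinearMap.adjoint κ (q (π (ContinuousLinearMap.adjoint π (π z)))) -
    ContinuousLinearMap.adjoint π (π (ContinuousLinearMap.adjoint κ
      (q (π (ContinuousLinearMap.adjoint π (π z)))))) = ContinuousLinearMap.adjoint κ (q (π z))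
  rw [πκ' hs, ππ' hs, map_zero, sub_zero]

theorem star_Th_apply (q : Euc m →L[ℝ] Euc n) (w : Euc k) :
    (star (Th π κ q)) w = ContinuousLinearMap.adjoint π (ContinuousLinearMap.adjoint q (κ w)) := by
  refine ext_inner_right ℝ fun y => ?_
  rw [Fm_281.star_def, ContinuousLinearMap.adjoint_inner_left, Th_apply,
    ContinuousLinearMap.adjoint_inner_right, ContinuousLinearMap.adjoint_inner_left,
    ContinuousLinearMap.adjoint_inner_left]

theorem norm_Th_le (hs : Split π κ) (q : Euc m →L[ℝ] Euc n) : ‖Th π κ q‖ ≤ ‖q‖ := by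
  refine ContinuousLinearMap.opNorm_le_bound _ (norm_nonneg _) fun v => ?_
  rw [Th_apply, norm_κ' hs]
  exact (q.le_opNorm _).trans (mul_le_mul_of_nonneg_left (norm_π_le hs v) (norm_nonneg _))

/-- `w ↦ (Θ q)† w` is bounded by the vertical part of `w` -/
theorem norm_star_Th_apply_le (hs : Split π κ) (q : Euc m →L[ℝ] Euc n) (w : Euc k) :
    ‖(star (Th π κ q)) w‖ ≤ ‖q‖ * ‖κ w‖ := by
  rw [star_Th_apply, norm_π' hs]
  refine ((ContinuousLinearMap.adjoint q).le_opNorm _).trans ?_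
  rw [LinearIsometryEquiv.norm_map]

theorem hop_eq (hu : ContDiff ℝ 3 u) (z w v : Euc k) :
    hop π κ u z w v = ContinuousLinearMap.adjoint π
      (ContinuousLinearMap.adjoint (fderiv ℝ (fderiv ℝ u) (π z) (π v)) (κ w)) := by
  rw [hop_apply, P'_apply hu, star_Th_apply]

theorem h1_eq (hu : ContDiff ℝ 3 u) (z ζ v : Euc k) :
    h1 π κ u z ζ v = ContinuousLinearMap.adjoint π
        (ContinuousLinearMap.adjoint (fderiv ℝ (fderiv ℝ u) (π z) (π v)) (κ ζ)) +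
      ContinuousLinearMap.adjoint π
        (ContinuousLinearMap.adjoint (fderiv ℝ (fderiv ℝ (fderiv ℝ u)) (π z) (π ζ) (π v)) (κ z)) := by
  rw [h1_apply, P'_apply hu, P''_apply hu, star_Th_apply, star_Th_apply]

theorem hop_HH (hs : Split π κ) (hu : ContDiff ℝ 3 u) (z w : Euc k) :
    HH (hp π) (hop π κ u z w) := by
  constructor
  ext1 v
  change ContinuousLinearMap.adjoint π (π (hop π κ u z w (ContinuousLinearMap.adjoint π (π v)))) =
    hop π κ u z w v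
  rw [hop_eq hu, hop_eq hu, ππ' hs, ππ' hs]

theorem h_HH (hs : Split π κ) (hu : ContDiff ℝ 3 u) (z : Euc k) : HH (hp π) (h π κ u z) :=
  hop_HH hs hu z z

theorem h1_HH (hs : Split π κ) (hu : ContDiff ℝ 3 u) (z ζ : Euc k) :
    HH (hp π) (h1 π κ u z ζ) := by
  constructor
  ext1 v
  change ContinuousLinearMap.adjoint π (π (h1 π κ u z ζ (ContinuousLinearMap.adjoint π (π v)))) =
    h1 π κ u z ζ v
  rw [h1_eq hu, h1_eq hu, map_add, map_add, ππ' hs, ππ' hs, ππ' hs]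

theorem P_HV (hs : Split π κ) (hu : ContDiff ℝ 3 u) (z : Euc k) : HV (hp π) (P π κ u z) := by
  rw [P_eq hu]
  exact Th_HV hs _

theorem P'_HV (hs : Split π κ) (hu : ContDiff ℝ 3 u) (z ζ : Euc k) :
    HV (hp π) (P' π κ u z ζ) := by
  rw [P'_apply hu]
  exact Th_HV hs _

/-! ### symmetry -/

theorem P'_symm (hu : ContDiff ℝ 3 u) (z x y : Euc k) : P' π κ u z x y = P' π κ u z y x := by
  have h : IsSymmSndFDerivAt ℝ (uu π κ u) z :=
    ((contDiff_uu (π := π) (κ := κ) hu).contDiffAt (x := z)).isSymmSndFDerivAt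
      (by simp only [minSmoothness_of_isRCLikeNormedField]; norm_num)
  exact h.eq x y

theorem symm_aux {E F G : Type*} [NormedAddCommGroup E] [NormedSpace ℝ E]
    [NormedAddCommGroup F] [NormedSpace ℝ F] [NormedAddCommGroup G] [NormedSpace ℝ G]
    {Q : E → G} {Q' : E →L[ℝ] G} {z : E} (hQ : HasFDerivAt Q Q' z) (e₁ e₂ : G →L[ℝ] F)
    (hs : ∀ z, e₁ (Q z) = e₂ (Q z)) (ζ : E) : e₁ (Q' ζ) = e₂ (Q' ζ) := by
  have h2 : HasFDerivAt (fun z => e₁ (Q z)) (e₁ ∘L Q') z := e₁.hasFDerivAt.comp z hQ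
  have h3 : HasFDerivAt (fun z => e₂ (Q z)) (e₂ ∘L Q') z := e₂.hasFDerivAt.comp z hQ
  have h4 : (fun z => e₁ (Q z)) = fun z => e₂ (Q z) := funext hs
  rw [h4] at h2
  exact congrArg (fun T : E →L[ℝ] F => T ζ) (h2.unique h3)

theorem P''_symm (hu : ContDiff ℝ 3 u) (z ζ x y : Euc k) :
    P'' π κ u z ζ x y = P'' π κ u z ζ y x := by
  obtain ⟨ev, hev⟩ : ∃ ev : Euc k → Euc k → ((Euc k →L[ℝ] L k) →L[ℝ] Euc k),
      ∀ x y B, ev x y B = B x y :=
    ⟨fun x y => (ContinuousLinearMap.apply ℝ (Euc k) y) ∘L (ContinuousLinearMap.apply ℝ (L k) x),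
      fun x y B => rfl⟩
  have h := symm_aux (G := Euc k →L[ℝ] L k) (hasFDerivAt_P' (π := π) (κ := κ) hu z) (ev x y)
    (ev y x) (fun z => by rw [hev, hev]; exact P'_symm hu z x y) ζ
  rwa [hev, hev] at h

theorem star_hop (hu : ContDiff ℝ 3 u) (z w : Euc k) : star (hop π κ u z w) = hop π κ u z w := by
  ext1 x
  refine ext_inner_right ℝ fun y => ?_
  rw [Fm_281.star_def, ContinuousLinearMap.adjoint_inner_left, hop_apply, hop_apply,
    Fm_281.star_def, Fm_281.star_def, ContinuousLinearMap.adjoint_inner_left,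
    ContinuousLinearMap.adjoint_inner_right, P'_symm hu z x y, real_inner_comm]

theorem star_h (hu : ContDiff ℝ 3 u) (z : Euc k) : star (h π κ u z) = h π κ u z :=
  star_hop hu z z

theorem star_h1 (hu : ContDiff ℝ 3 u) (z ζ : Euc k) : star (h1 π κ u z ζ) = h1 π κ u z ζ := by
  ext1 x
  refine ext_inner_right ℝ fun y => ?_
  rw [Fm_281.star_def, ContinuousLinearMap.adjoint_inner_left, h1_apply, h1_apply,
    inner_add_left, inner_add_right, Fm_281.star_def, Fm_281.star_def, Fm_281.star_def,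
    Fm_281.star_def, ContinuousLinearMap.adjoint_inner_left,
    ContinuousLinearMap.adjoint_inner_right, ContinuousLinearMap.adjoint_inner_left,
    ContinuousLinearMap.adjoint_inner_right, P'_symm hu z x y, P''_symm hu z ζ x y,
    real_inner_comm, real_inner_comm z]

/-! ### bounds -/

/-- bounds of the first three derivatives -/
structure Bd (u : Euc m → Euc n) (l : ℝ) : Prop where
  d1 : ∀ x a, ‖fderiv ℝ u x a‖ ≤ l * ‖a‖
  d2 : ∀ x a b, ‖fderiv ℝ (fderiv ℝ u) x a b‖ ≤ l * ‖a‖ * ‖b‖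
  d3 : ∀ x a b c, ‖fderiv ℝ (fderiv ℝ (fderiv ℝ u)) x a b c‖ ≤ l * ‖a‖ * ‖b‖ * ‖c‖

variable {l : ℝ}

theorem norm_P_le (hs : Split π κ) (hu : ContDiff ℝ 3 u) (hl : 0 ≤ l) (hb : Bd u l) (z : Euc k) :
    ‖P π κ u z‖ ≤ l := by
  rw [P_eq hu]
  exact (norm_Th_le hs _).trans (ContinuousLinearMap.opNorm_le_bound _ hl fun v => hb.d1 _ v)

theorem norm_P'_apply_le (hs : Split π κ) (hu : ContDiff ℝ 3 u) (hl : 0 ≤ l) (hb : Bd u l)
    (z ζ : Euc k) : ‖P' π κ u z ζ‖ ≤ l * ‖π ζ‖ := by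
  rw [P'_apply hu]
  exact (norm_Th_le hs _).trans
    (ContinuousLinearMap.opNorm_le_bound _ (by positivity) fun v => hb.d2 _ _ v)

theorem norm_hop_le (hs : Split π κ) (hu : ContDiff ℝ 3 u) (hl : 0 ≤ l) (hb : Bd u l)
    (z w : Euc k) : ‖hop π κ u z w‖ ≤ l * ‖κ w‖ := by
  refine ContinuousLinearMap.opNorm_le_bound _ (by positivity) fun v => ?_
  rw [hop_apply, P'_apply hu]
  refine (norm_star_Th_apply_le hs _ w).trans ?_
  have h1 : ‖fderiv ℝ (fderiv ℝ u) (π z) (π v)‖ ≤ l * ‖π v‖ :=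
    ContinuousLinearMap.opNorm_le_bound _ (by positivity) fun v => hb.d2 _ _ v
  have h2 : ‖fderiv ℝ (fderiv ℝ u) (π z) (π v)‖ ≤ l * ‖v‖ :=
    h1.trans (mul_le_mul_of_nonneg_left (norm_π_le hs v) hl)
  calc ‖fderiv ℝ (fderiv ℝ u) (π z) (π v)‖ * ‖κ w‖
      ≤ (l * ‖v‖) * ‖κ w‖ := mul_le_mul_of_nonneg_right h2 (norm_nonneg _)
    _ = l * ‖κ w‖ * ‖v‖ := by ring

theorem norm_h_le (hs : Split π κ) (hu : ContDiff ℝ 3 u) (hl : 0 ≤ l) (hb : Bd u l)
    (z : Euc k) : ‖h π κ u z‖ ≤ l * ‖κ z‖ := norm_hop_le hs hu hl hb z z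

theorem norm_h1_le (hs : Split π κ) (hu : ContDiff ℝ 3 u) (hl : 0 ≤ l) (hb : Bd u l)
    (z ζ : Euc k) : ‖h1 π κ u z ζ‖ ≤ l * ‖κ ζ‖ + l * ‖κ z‖ * ‖π ζ‖ := by
  refine (norm_add_le _ _).trans (add_le_add (norm_hop_le hs hu hl hb z ζ) ?_)
  refine ContinuousLinearMap.opNorm_le_bound _ (by positivity) fun v => ?_
  change ‖(star (P'' π κ u z ζ v)) z‖ ≤ _
  rw [P''_apply hu]
  refine (norm_star_Th_apply_le hs _ z).trans ?_
  have h1 : ‖fderiv ℝ (fderiv ℝ (fderiv ℝ u)) (π z) (π ζ) (π v)‖ ≤ l * ‖π ζ‖ * ‖π v‖ :=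
    ContinuousLinearMap.opNorm_le_bound _ (by positivity) fun v => hb.d3 _ _ _ v
  have h3 : ‖fderiv ℝ (fderiv ℝ (fderiv ℝ u)) (π z) (π ζ) (π v)‖ ≤ l * ‖π ζ‖ * ‖v‖ :=
    h1.trans (mul_le_mul_of_nonneg_left (norm_π_le hs v) (by positivity))
  calc ‖fderiv ℝ (fderiv ℝ (fderiv ℝ u)) (π z) (π ζ) (π v)‖ * ‖κ z‖
      ≤ (l * ‖π ζ‖ * ‖v‖) * ‖κ z‖ := mul_le_mul_of_nonneg_right h3 (norm_nonneg _)
    _ = l * ‖κ z‖ * ‖π ζ‖ * ‖v‖ := by ring

end Blocks

end Crest.Agent.R234.Fc_209
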