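import Crest.Agent.R234.Fc3_209

/-!
# Row 234, node FERMI-CHART (helper209), file 4: minimality in the chart, `tr (g⁻¹ h) = 0` and its
derivative
-/

set_option autoImplicit false

open Function Set Filter Topology Crest.GeometryTopology.Submanifold
open Crest.Agent.R234.Vf_884 Crest.Agent.R234.Ar_870 Crest.Agent.R234.Fm_281
open Crest.Agent.R234.Cy_870 (Split)
open Crest.Agent.R234.AS_456 (hp vp)
open scoped InnerProductSpace

noncomputable section

namespace Crest.Agent.R234.Fc_209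

variable {m n k : ℕ}

section Min

variable {π : Euc k →L[ℝ] Euc m} {κ : Euc k →L[ℝ] Euc n} {u : Euc m → Euc n}

theorem gop_apply (q : Euc m →L[ℝ] Euc n) (x : Euc m) :
    Ell1_3.gop q x = x + ContinuousLinearMap.adjoint q (q x) := rfl

theorem gop_ginv_apply (q : Euc m →L[ℝ] Euc n) (x : Euc m) :
    Ell1_3.gop q (Ell1_3.ginv q x) = x :=
  congrArg (fun T : Euc m →L[ℝ] Euc m => T x) (Ell1_3.gop_ginv q)

theorem ginv_gop_apply (q : Euc m →L[ℝ] Euc n) (x : Euc m) :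
    Ell1_3.ginv q (Ell1_3.gop q x) = x :=
  congrArg (fun T : Euc m →L[ℝ] Euc m => T x) (Ell1_3.ginv_gop q)

theorem ginv_inner (q : Euc m →L[ℝ] Euc n) (x y : Euc m) :
    ⟪Ell1_3.ginv q x, y⟫_ℝ = ⟪x, Ell1_3.ginv q y⟫_ℝ := by
  have h1 := Ell1_3.gop_inner q (Ell1_3.ginv q x) (Ell1_3.ginv q y)
  have h2 := Ell1_3.gop_inner q (Ell1_3.ginv q y) (Ell1_3.ginv q x)
  rw [gop_ginv_apply] at h1 h2
  have h3 : ⟪x, Ell1_3.ginv q y⟫_ℝ = ⟪Ell1_3.ginv q y, x⟫_ℝ := real_inner_comm _ _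
  have h4 : ⟪Ell1_3.ginv q y, Ell1_3.ginv q x⟫_ℝ = ⟪Ell1_3.ginv q x, Ell1_3.ginv q y⟫_ℝ :=
    real_inner_comm _ _
  have h5 : ⟪q (Ell1_3.ginv q y), q (Ell1_3.ginv q x)⟫_ℝ =
    ⟪q (Ell1_3.ginv q x), q (Ell1_3.ginv q y)⟫_ℝ := real_inner_comm _ _
  rw [h1, h3, h2, h4, h5]

/-- the inverse of `1 + P† P` -/
def Rop (π : Euc k →L[ℝ] Euc m) (q : Euc m →L[ℝ] Euc n) : L k :=
  ContinuousLinearMap.adjoint π ∘L Ell1_3.ginv q ∘L π + vp π

theorem Rop_apply (q : Euc m →L[ℝ] Euc n) (z : Euc k) :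
    Rop π q z = ContinuousLinearMap.adjoint π (Ell1_3.ginv q (π z)) + vp π z := rfl

theorem star_mul_Th_apply (hs : Split π κ) (q : Euc m →L[ℝ] Euc n) (z : Euc k) :
    (1 + star (Th π κ q) * Th π κ q) z = ContinuousLinearMap.adjoint π (Ell1_3.gop q (π z)) +
      vp π z := by
  change z + (star (Th π κ q)) (Th π κ q z) = _
  rw [star_Th_apply, Th_apply, κκ' hs, gop_apply, map_add]
  change _ = _ + (z - ContinuousLinearMap.adjoint π (π z))
  abel

theorem π_vp (hs : Split π κ) (z : Euc k) : π (vp π z) = 0 := by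
  rw [vp_apply hs, πκ' hs]

theorem vp_π' (hs : Split π κ) (x : Euc m) : vp π (ContinuousLinearMap.adjoint π x) = 0 := by
  rw [vp_apply hs, κπ' hs, map_zero]

theorem vp_vp (hs : Split π κ) (z : Euc k) : vp π (vp π z) = vp π z := by
  rw [vp_apply hs (vp π z), vp_apply hs z, κκ' hs]

theorem π_aux (hs : Split π κ) (a : Euc m) (z : Euc k) :
    π (ContinuousLinearMap.adjoint π a + vp π z) = a := by
  rw [map_add, ππ' hs, π_vp hs, add_zero]

theorem vp_aux (hs : Split π κ) (a : Euc m) (z : Euc k) :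
    vp π (ContinuousLinearMap.adjoint π a + vp π z) = vp π z := by
  rw [map_add, vp_π' hs, vp_vp hs, zero_add]

theorem mul_Rop (hs : Split π κ) (q : Euc m →L[ℝ] Euc n) :
    (1 + star (Th π κ q) * Th π κ q) * Rop π q = 1 := by
  ext1 z
  change (1 + star (Th π κ q) * Th π κ q) (Rop π q z) = z
  rw [star_mul_Th_apply hs, Rop_apply, π_aux hs, vp_aux hs, gop_ginv_apply]
  change ContinuousLinearMap.adjoint π (π z) + (z - ContinuousLinearMap.adjoint π (π z)) = z
  abel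

theorem Rop_mul (hs : Split π κ) (q : Euc m →L[ℝ] Euc n) :
    Rop π q * (1 + star (Th π κ q) * Th π κ q) = 1 := by
  ext1 z
  change Rop π q ((1 + star (Th π κ q) * Th π κ q) z) = z
  rw [star_mul_Th_apply hs, Rop_apply, π_aux hs, vp_aux hs, ginv_gop_apply]
  change ContinuousLinearMap.adjoint π (π z) + (z - ContinuousLinearMap.adjoint π (π z)) = z
  abel

/-- as a unit -/
def un (hs : Split π κ) (q : Euc m →L[ℝ] Euc n) : (L k)ˣ :=
  ⟨1 + star (Th π κ q) * Th π κ q, Rop π q, mul_Rop hs q, Rop_mul hs q⟩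

theorem inverse_eq (hs : Split π κ) (q : Euc m →L[ℝ] Euc n) :
    Ring.inverse (1 + star (Th π κ q) * Th π κ q) = Rop π q := Ring.inverse_unit (un hs q)

/-- trace against the inverse metric -/
theorem tr_Rop_mul (hs : Split π κ) (q : Euc m →L[ℝ] Euc n) {h : L k} (hh : HH (hp π) h) :
    tr (Rop π q * h) = tr (Ell1_3.ginv q ∘L (π ∘L h ∘L ContinuousLinearMap.adjoint π)) := by
  have e : Rop π q * h = ContinuousLinearMap.adjoint π ∘L (Ell1_3.ginv q ∘L (π ∘L h)) := by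
    ext1 z
    change Rop π q (h z) = ContinuousLinearMap.adjoint π (Ell1_3.ginv q (π (h z)))
    have h2 : vp π (h z) = 0 := by
      have h3 := congrArg (fun T : L k => T z) (hh.e1 (isStar_of_G (hp_mem_G hs)))
      change hp π (h z) = h z at h3
      change h z - hp π (h z) = 0
      rw [h3, sub_self]
    rw [Rop_apply, h2, add_zero]
  rw [e]
  exact Fm_209.trc_comp_comm (ContinuousLinearMap.adjoint π) (Ell1_3.ginv q ∘L (π ∘L h))

theorem D2_symm (hu : ContDiff ℝ 3 u) (x a b : Euc m) :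
    fderiv ℝ (fderiv ℝ u) x a b = fderiv ℝ (fderiv ℝ u) x b a := by
  have h : IsSymmSndFDerivAt ℝ u x := (hu.contDiffAt (x := x)).isSymmSndFDerivAt
      (by simp only [minSmoothness_of_isRCLikeNormedField]; norm_num)
  exact h.eq a b

theorem tr_Rop_hop (hs : Split π κ) (hu : ContDiff ℝ 3 u) (z w : Euc k) :
    tr (Rop π (fderiv ℝ u (π z)) * hop π κ u z w) = ⟪κ w, Main_456.Msys u (π z)⟫_ℝ := by
  rw [tr_Rop_mul hs _ (hop_HH hs hu z w), tr_eq_sum]
  unfold Main_456.Msys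
  rw [inner_sum]
  refine Finset.sum_congr rfl fun i _ => ?_
  change ⟪stdVec m i, Ell1_3.ginv (fderiv ℝ u (π z)) (π (hop π κ u z w
    (ContinuousLinearMap.adjoint π (stdVec m i))))⟫_ℝ = _
  rw [← ginv_inner, hop_eq hu, ππ' hs, ππ' hs, ContinuousLinearMap.adjoint_inner_right,
    D2_symm hu, real_inner_comm]

/-- minimality -/
theorem min0 (hs : Split π κ) (hu : ContDiff ℝ 3 u) {z : Euc k}
    (hM : Main_456.Msys u (π z) = 0) :
    tr (Ring.inverse (1 + star (P π κ u z) * P π κ u z) * h π κ u z) = 0 := by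
  rw [P_eq hu, inverse_eq hs]
  change tr (Rop π (fderiv ℝ u (π z)) * hop π κ u z z) = 0
  rw [tr_Rop_hop hs hu, hM, inner_zero_right]

end Min

end Crest.Agent.R234.Fc_209
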