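import Crest.Agent.R234.Fc4_209

/-!
# Row 234, node FERMI-CHART (helper209), file 5: the derivative of `tr (g⁻¹ h) = 0`
-/

set_option autoImplicit false

open Function Set Filter Topology Crest.GeometryTopology.Submanifold
open Crest.Agent.R234.Vf_884 Crest.Agent.R234.Ar_870 Crest.Agent.R234.Fm_281
open Crest.Agent.R234.Cy_870 (Split)
open Crest.Agent.R234.AS_456 (hp vp)
open scoped InnerProductSpace

noncomputable section

namespace Crest.Agent.R234.Fc_209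

variable {m n k : ℕ}

theorem chain (F E : Type*) [NormedAddCommGroup F] [NormedSpace ℝ F] [NormedAddCommGroup E]
    [NormedSpace ℝ E] {l : F → E} {l' : F →L[ℝ] E} {f : ℝ → F} {f' : F} {t : ℝ} {y : F}
    (hl : HasFDerivAt l l' y) (hf : HasDerivAt f f' t) (hy : f t = y) :
    HasDerivAt (fun t => l (f t)) (l' f') t := by
  rw [← hy] at hl
  exact hl.comp_hasDerivAt t hf

theorem hasDerivAt_flip {E : Type*} [NormedAddCommGroup E] [NormedSpace ℝ E]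
    (A : (E →L[ℝ] E) →L[ℝ] (E →L[ℝ] E)) {Q : ℝ → (E →L[ℝ] (E →L[ℝ] E))}
    {Q' : E →L[ℝ] (E →L[ℝ] E)} {γ : ℝ → E} {γ' : E} {t : ℝ} (hQ : HasDerivAt Q Q' t)
    (hγ : HasDerivAt γ γ' t) :
    HasDerivAt (fun t => (A ∘L Q t).flip (γ t))
      ((A ∘L Q t).flip γ' + (A ∘L Q').flip (γ t)) t := by
  obtain ⟨F, hF⟩ : ∃ F : (E →L[ℝ] (E →L[ℝ] E)) →L[ℝ] (E →L[ℝ] (E →L[ℝ] E)),
      ∀ B, F B = (A ∘L B).flip :=
    ⟨(ContinuousLinearMap.flipₗᵢ ℝ E E E).toContinuousLinearEquiv.toContinuousLinearMap ∘L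
      (ContinuousLinearMap.compL ℝ E (E →L[ℝ] E) (E →L[ℝ] E) A), fun B => rfl⟩
  have h1 : HasDerivAt (fun t => F (Q t)) (F Q') t :=
    chain (E →L[ℝ] (E →L[ℝ] E)) (E →L[ℝ] (E →L[ℝ] E)) F.hasFDerivAt hQ rfl
  have h2 := h1.clm_apply hγ
  simp only [hF] at h2
  rw [add_comm] at h2
  exact h2

theorem deriv_tr_aux {A : Type*} [NormedRing A] [NormedAlgebra ℝ A] [HasSummableGeomSeries A]
    (τ : A →L[ℝ] ℝ) (u₀ : Aˣ) {G H : ℝ → A} {G' H' : A} (hG : HasDerivAt G G' 0)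
    (hG0 : G 0 = u₀) (hH : HasDerivAt H H' 0)
    (h0 : ∀ᶠ t in 𝓝 (0:ℝ), τ (Ring.inverse (G t) * H t) = 0) :
    τ ((↑u₀⁻¹ : A) * H') = τ ((↑u₀⁻¹ : A) * G' * ((↑u₀⁻¹ : A) * H 0)) := by
  have h1 : HasFDerivAt Ring.inverse (-ContinuousLinearMap.mulLeftRight ℝ A ↑u₀⁻¹ ↑u₀⁻¹) (G 0) := by
    rw [hG0]
    exact hasFDerivAt_ringInverse u₀
  have h2 : HasDerivAt (fun t => Ring.inverse (G t))
      ((-ContinuousLinearMap.mulLeftRight ℝ A ↑u₀⁻¹ ↑u₀⁻¹) G') 0 := h1.comp_hasDerivAt 0 hG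
  have h3 := τ.hasFDerivAt.comp_hasDerivAt 0 (h2.mul hH)
  have h4 : HasDerivAt (fun _ : ℝ => (0:ℝ)) (0:ℝ) 0 := hasDerivAt_const _ _
  have h5 := h4.unique (h3.congr_of_eventuallyEq (by
    filter_upwards [h0] with t ht
    exact ht.symm))
  rw [map_add, hG0, Ring.inverse_unit] at h5
  have h6 : (-ContinuousLinearMap.mulLeftRight ℝ A ↑u₀⁻¹ ↑u₀⁻¹) G' = -(↑u₀⁻¹ * G' * ↑u₀⁻¹ : A) := rfl
  rw [h6, neg_mul, map_neg, mul_assoc (↑u₀⁻¹ * G' : A)] at h5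
  linarith

section Min

variable {π : Euc k →L[ℝ] Euc m} {κ : Euc k →L[ℝ] Euc n} {u : Euc m → Euc n}

/-- the derivative of the minimality relation -/
theorem min1 (hs : Split π κ) (hu : ContDiff ℝ 3 u) {r : ℝ}
    (hM : ∀ x ∈ Metric.ball (0 : Euc m) r, Main_456.Msys u x = 0) {z : Euc k}
    (hz : ‖π z‖ < r) (ζ : Euc k) :
    tr (Ring.inverse (1 + star (P π κ u z) * P π κ u z) * h1 π κ u z ζ) =
    tr (Ring.inverse (1 + star (P π κ u z) * P π κ u z) *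
      (star (P' π κ u z ζ) * P π κ u z + star (P π κ u z) * P' π κ u z ζ) *
      (Ring.inverse (1 + star (P π κ u z) * P π κ u z) * h π κ u z)) := by
  obtain ⟨γ, hγ⟩ : ∃ γ : ℝ → Euc k, γ = fun t => z + t • ζ := ⟨_, rfl⟩
  have hγ0 : γ 0 = z := by rw [hγ]; simp
  have hγd : HasDerivAt γ ζ 0 := by
    rw [hγ]
    have h1 : HasDerivAt (fun t : ℝ => t • ζ) ((1:ℝ) • ζ) 0 := (hasDerivAt_id (0:ℝ)).smul_const ζ
    rw [one_smul] at h1
    exact h1.const_add z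
  have hP : HasDerivAt (fun t => P π κ u (γ t)) (P' π κ u z ζ) 0 :=
    chain (Euc k) (L k) (hasFDerivAt_P hu z) hγd hγ0
  have hP' : HasDerivAt (fun t => P' π κ u (γ t)) (P'' π κ u z ζ) 0 :=
    chain (Euc k) (Euc k →L[ℝ] L k) (hasFDerivAt_P' hu z) hγd hγ0
  have hsP : HasDerivAt (fun t => star (P π κ u (γ t))) (star (P' π κ u z ζ)) 0 :=
    chain (L k) (L k) (adjL (k := k)).hasFDerivAt hP rfl
  have hG : HasDerivAt (fun t => 1 + star (P π κ u (γ t)) * P π κ u (γ t))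
      (star (P' π κ u z ζ) * P π κ u z + star (P π κ u z) * P' π κ u z ζ) 0 := by
    have h2 := (hsP.mul hP).const_add 1
    simp only [hγ0] at h2
    exact h2
  have hh : HasDerivAt (fun t => h π κ u (γ t)) (h1 π κ u z ζ) 0 := by
    have h2 := hasDerivAt_flip adjL hP' hγd
    rw [hγ0] at h2
    exact h2
  have hev : ∀ᶠ t in 𝓝 (0:ℝ), tr (Ring.inverse (1 + star (P π κ u (γ t)) * P π κ u (γ t)) *
      h π κ u (γ t)) = 0 := by
    have hc : ContinuousAt (fun t => ‖π (γ t)‖) 0 :=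
      (π.continuous.continuousAt.comp hγd.continuousAt).norm
    have h2 : ‖π (γ 0)‖ < r := by rw [hγ0]; exact hz
    filter_upwards [hc.eventually_lt_const h2] with t ht
    exact min0 hs hu (hM _ (mem_ball_zero_iff.2 ht))
  have hfin := deriv_tr_aux tr (un (π := π) (κ := κ) hs (fderiv ℝ u (π z))) hG (by
    rw [hγ0, P_eq hu]
    rfl) hh hev
  simp only [hγ0] at hfin
  have hun : (↑(un (π := π) (κ := κ) hs (fderiv ℝ u (π z)))⁻¹ : L k) =
      Ring.inverse (1 + star (P π κ u z) * P π κ u z) := by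
    rw [P_eq hu, inverse_eq hs]
    rfl
  rw [hun] at hfin
  exact hfin

/-- **the pointwise data of 281's estimates** -/
theorem pt {l : ℝ} (hs : Split π κ) (hu : ContDiff ℝ 3 u) (hl : 0 ≤ l) (hb : Bd u l) {r : ℝ}
    (hM : ∀ x ∈ Metric.ball (0 : Euc m) r, Main_456.Msys u x = 0) {z : Euc k}
    (hz : ‖π z‖ < r) (hz1 : ‖vp π z‖ ≤ 1) (ζ : Euc k) :
    Pt m (hp π) (P π κ u z) (P' π κ u z ζ) (h π κ u z) (h1 π κ u z ζ) l ‖vp π z‖ ‖hp π ζ‖
      ‖vp π ζ‖ where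
  hH := hp_mem_G hs
  l0 := hl
  y0 := norm_nonneg _
  y1 := hz1
  ξ0 := norm_nonneg _
  η0 := norm_nonneg _
  hP := P_HV hs hu z
  hP1 := P'_HV hs hu z ζ
  hh := h_HH hs hu z
  hh1 := h1_HH hs hu z ζ
  nP := norm_P_le hs hu hl hb z
  nP1 := by rw [norm_hp hs]; exact norm_P'_apply_le hs hu hl hb z ζ
  nh := by rw [norm_vp hs]; exact norm_h_le hs hu hl hb z
  nh1 := by rw [norm_hp hs, norm_vp hs, norm_vp hs]; exact norm_h1_le hs hu hl hb z ζ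
  min0 := min0 hs hu (hM _ (mem_ball_zero_iff.2 hz))
  min1 := min1 hs hu hM hz ζ

end Min

end Crest.Agent.R234.Fc_209
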