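import Crest.Agent.R234.Fc5_209

/-!
# Row 234, node FERMI-CHART (helper209), file 6: the global chart

`Φ z = z + κ† u(π z) - π† (Du(π z)† κ z)` for `‖κ z‖ < 3`, cut off in the vertical direction, as a
global `C²` diffeomorphism `T : Dif k`, `‖DΦ - 1‖ ≤ C l`.
-/

set_option autoImplicit false

open Function Set Filter Topology Crest.GeometryTopology.Submanifold
open Crest.Agent.R234.Vf_884 Crest.Agent.R234.Ar_870 Crest.Agent.R234.Fm_281
open Crest.Agent.R234.Cy_870 (Split)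
open Crest.Agent.R234.AS_456 (hp vp)
open Crest.Agent.R234.Ft_209 (Dif)
open scoped InnerProductSpace

noncomputable section

namespace Crest.Agent.R234.Fc_209

variable {m n k : ℕ}

/-- cut-off of the fibre -/
def bmp (n : ℕ) : ContDiffBump (0 : Euc n) := ⟨3, 4, by norm_num, by norm_num⟩

/-- `w` near the closed ball of radius `3`, compactly supported -/
def gb (w : Euc n) : Euc n := bmp n w • w

theorem contDiff_gb : ContDiff ℝ 2 (gb (n := n)) := (bmp n).contDiff.smul contDiff_id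

theorem gb_eq {w : Euc n} (hw : ‖w‖ ≤ 3) : gb w = w := by
  unfold gb
  rw [(bmp n).one_of_mem_closedBall (by simpa [bmp] using hw), one_smul]

theorem fderiv_gb {w : Euc n} (hw : ‖w‖ < 3) :
    fderiv ℝ gb w = ContinuousLinearMap.id ℝ (Euc n) := by
  have h1 : gb =ᶠ[𝓝 w] (fun w => w) := by
    have h2 : {w : Euc n | ‖w‖ < 3} ∈ 𝓝 w :=
      (isOpen_lt continuous_norm continuous_const).mem_nhds hw
    filter_upwards [h2] with x hx
    exact gb_eq (le_of_lt hx)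
  rw [h1.fderiv_eq]
  exact fderiv_fun_id

theorem exists_gb (n : ℕ) : ∃ C : ℝ, 0 ≤ C ∧ (∀ w : Euc n, ‖gb w‖ ≤ C) ∧
    ∀ w : Euc n, ‖fderiv ℝ gb w‖ ≤ C := by
  have hs : HasCompactSupport (gb (n := n)) := (bmp n).hasCompactSupport.smul_right
  obtain ⟨C1, h1⟩ := hs.exists_bound_of_continuous contDiff_gb.continuous
  obtain ⟨C2, h2⟩ := (hs.fderiv (𝕜 := ℝ)).exists_bound_of_continuous
    (contDiff_gb.continuous_fderiv two_ne_zero)
  refine ⟨max 0 (max C1 C2), le_max_left _ _, fun w => (h1 w).trans ?_, fun w => (h2 w).trans ?_⟩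
  · exact (le_max_left _ _).trans (le_max_right _ _)
  · exact (le_max_right _ _).trans (le_max_right _ _)

section Chart

variable {π : Euc k →L[ℝ] Euc m} {κ : Euc k →L[ℝ] Euc n} {u : Euc m → Euc n}

/-- cut-off vertical part -/
def θ (κ : Euc k →L[ℝ] Euc n) (z : Euc k) : Euc k := ContinuousLinearMap.adjoint κ (gb (κ z))

/-- displacement -/
def disp (π : Euc k →L[ℝ] Euc m) (κ : Euc k →L[ℝ] Euc n) (u : Euc m → Euc n) (z : Euc k) : Euc k :=
  uu π κ u z - (adjL (P π κ u z)) (θ κ z)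

theorem contDiff_θ : ContDiff ℝ 2 (θ (k := k) κ) :=
  (ContinuousLinearMap.adjoint κ).contDiff.comp (contDiff_gb.comp κ.contDiff)

theorem contDiff_disp (hu : ContDiff ℝ 3 u) : ContDiff ℝ 2 (disp π κ u) :=
  ((contDiff_uu hu).of_le (by norm_num)).sub
    (((adjL (k := k)).contDiff.comp (contDiff_P hu)).clm_apply contDiff_θ)

theorem hasFDerivAt_θ (z : Euc k) : HasFDerivAt (θ (k := k) κ)
    (ContinuousLinearMap.adjoint κ ∘L (fderiv ℝ gb (κ z) ∘L κ)) z :=
  (ContinuousLinearMap.adjoint κ).hasFDerivAt.comp z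
    (((contDiff_gb.differentiable two_ne_zero) (κ z)).hasFDerivAt.comp z κ.hasFDerivAt)

theorem fderiv_disp_apply (hu : ContDiff ℝ 3 u) (z ζ : Euc k) :
    fderiv ℝ (disp π κ u) z ζ = P π κ u z ζ - ((star (P' π κ u z ζ)) (θ κ z) +
      (star (P π κ u z)) (ContinuousLinearMap.adjoint κ (fderiv ℝ gb (κ z) (κ ζ)))) := by
  obtain ⟨γ, hγ⟩ : ∃ γ : ℝ → Euc k, γ = fun t => z + t • ζ := ⟨_, rfl⟩
  have hγ0 : γ 0 = z := by rw [hγ]; simp
  have hγd : HasDerivAt γ ζ 0 := by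
    rw [hγ]
    have h1 : HasDerivAt (fun t : ℝ => t • ζ) ((1:ℝ) • ζ) 0 := (hasDerivAt_id (0:ℝ)).smul_const ζ
    rw [one_smul] at h1
    exact h1.const_add z
  have hd : HasDerivAt (fun t => disp π κ u (γ t)) (fderiv ℝ (disp π κ u) z ζ) 0 :=
    chain (Euc k) (Euc k)
      (((contDiff_disp hu).differentiable two_ne_zero) z).hasFDerivAt hγd hγ0
  have hP : HasDerivAt (fun t => P π κ u (γ t)) (P' π κ u z ζ) 0 :=
    chain (Euc k) (L k) (hasFDerivAt_P hu z) hγd hγ0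
  have hsP : HasDerivAt (fun t => adjL (P π κ u (γ t))) (adjL (P' π κ u z ζ)) 0 :=
    chain (L k) (L k) (adjL (k := k)).hasFDerivAt hP rfl
  have hθ : HasDerivAt (fun t => θ κ (γ t))
      (ContinuousLinearMap.adjoint κ (fderiv ℝ gb (κ z) (κ ζ))) 0 :=
    chain (Euc k) (Euc k) (hasFDerivAt_θ z) hγd hγ0
  have huu : HasDerivAt (fun t => uu π κ u (γ t)) (P π κ u z ζ) 0 :=
    chain (Euc k) (Euc k) (((contDiff_uu hu).differentiable (by norm_num)) z).hasFDerivAt hγd hγ0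
  have h2 := huu.sub (hsP.clm_apply hθ)
  rw [hγ0] at h2
  exact hd.unique h2

theorem norm_fderiv_disp_le {C l : ℝ} (hs : Split π κ) (hu : ContDiff ℝ 3 u) (hl : 0 ≤ l)
    (hb : Bd u l) (hC : 0 ≤ C) (hC1 : ∀ w : Euc n, ‖gb w‖ ≤ C)
    (hC2 : ∀ w : Euc n, ‖fderiv ℝ gb w‖ ≤ C) (z : Euc k) :
    ‖fderiv ℝ (disp π κ u) z‖ ≤ (1 + 2 * C) * l := by
  refine ContinuousLinearMap.opNorm_le_bound _ (by positivity) fun ζ => ?_
  rw [fderiv_disp_apply hu]
  have a1 : ‖P π κ u z ζ‖ ≤ l * ‖ζ‖ := (ContinuousLinearMap.le_opNorm _ _).trans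
    (mul_le_mul_of_nonneg_right (norm_P_le hs hu hl hb z) (norm_nonneg _))
  have a2 : ‖(star (P' π κ u z ζ)) (θ κ z)‖ ≤ (l * ‖ζ‖) * C := by
    refine (ContinuousLinearMap.le_opNorm _ _).trans ?_
    rw [norm_star']
    refine mul_le_mul ((norm_P'_apply_le hs hu hl hb z ζ).trans
      (mul_le_mul_of_nonneg_left (norm_π_le hs ζ) hl)) ?_ (norm_nonneg _) (by positivity)
    unfold θ
    rw [norm_κ' hs]
    exact hC1 _
  have a3 : ‖(star (P π κ u z)) (ContinuousLinearMap.adjoint κ (fderiv ℝ gb (κ z) (κ ζ)))‖ ≤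
      l * (C * ‖ζ‖) := by
    refine (ContinuousLinearMap.le_opNorm _ _).trans ?_
    rw [norm_star', norm_κ' hs]
    refine mul_le_mul (norm_P_le hs hu hl hb z) ?_ (norm_nonneg _) hl
    exact (ContinuousLinearMap.le_opNorm _ _).trans
      (mul_le_mul (hC2 _) (norm_κ_le hs ζ) (norm_nonneg _) hC)
  have a4 := norm_sub_le (P π κ u z ζ) ((star (P' π κ u z ζ)) (θ κ z) +
      (star (P π κ u z)) (ContinuousLinearMap.adjoint κ (fderiv ℝ gb (κ z) (κ ζ))))
  have a5 := norm_add_le ((star (P' π κ u z ζ)) (θ κ z))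
      ((star (P π κ u z)) (ContinuousLinearMap.adjoint κ (fderiv ℝ gb (κ z) (κ ζ))))
  calc _ ≤ l * ‖ζ‖ + ((l * ‖ζ‖) * C + l * (C * ‖ζ‖)) := by linarith
    _ = (1 + 2 * C) * l * ‖ζ‖ := by ring

theorem star_P_vp (hs : Split π κ) (hu : ContDiff ℝ 3 u) (z w : Euc k) :
    (star (P π κ u z)) (vp π w) = (star (P π κ u z)) w := by
  rw [P_eq hu, star_Th_apply, star_Th_apply, vp_apply hs, κκ' hs]

theorem star_P'_vp (hs : Split π κ) (hu : ContDiff ℝ 3 u) (z ζ w : Euc k) :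
    (star (P' π κ u z ζ)) (vp π w) = (star (P' π κ u z ζ)) w := by
  rw [P'_apply hu, star_Th_apply, star_Th_apply, vp_apply hs, κκ' hs]

theorem θ_eq (hs : Split π κ) {z : Euc k} (hz : ‖κ z‖ < 3) : θ κ z = vp π z := by
  unfold θ
  rw [gb_eq hz.le, vp_apply hs]

theorem disp_eq (hs : Split π κ) (hu : ContDiff ℝ 3 u) {z : Euc k} (hz : ‖κ z‖ < 3) :
    disp π κ u z = uu π κ u z - (star (P π κ u z)) z := by
  unfold disp
  rw [adjL_apply, θ_eq hs hz, star_P_vp hs hu]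

theorem fderiv_disp (hs : Split π κ) (hu : ContDiff ℝ 3 u) {z : Euc k} (hz : ‖κ z‖ < 3) :
    fderiv ℝ (disp π κ u) z = P π κ u z - star (P π κ u z) - h π κ u z := by
  ext1 ζ
  rw [fderiv_disp_apply hu, fderiv_gb hz, θ_eq hs hz, star_P'_vp hs hu]
  change P π κ u z ζ - ((star (P' π κ u z ζ)) z +
    (star (P π κ u z)) (ContinuousLinearMap.adjoint κ (κ ζ))) =
      P π κ u z ζ - (star (P π κ u z)) ζ - (star (P' π κ u z ζ)) z
  rw [← vp_apply hs, star_P_vp hs hu]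
  abel

end Chart

end Crest.Agent.R234.Fc_209
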