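import Crest.Agent.R234.Fc6_209

/-!
# Row 234, node FERMI-CHART (helper209), file 7: existence of the chart

`exists_chart`: a global `C²` diffeomorphism with the Fermi formula for `‖κ z‖ < 3`.
-/

set_option autoImplicit false

open Function Set Filter Topology Crest.GeometryTopology.Submanifold
open Crest.Agent.R234.Vf_884 Crest.Agent.R234.Ar_870 Crest.Agent.R234.Fm_281
open Crest.Agent.R234.Cy_870 (Split)
open Crest.Agent.R234.AS_456 (hp vp)
open Crest.Agent.R234.Ft_209 (Dif)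
open scoped InnerProductSpace

noncomputable section

namespace Crest.Agent.R234.Fc_209

variable {m n k : ℕ}

/-- the properties of the chart -/
structure IsChart (T : Dif k) (π : Euc k →L[ℝ] Euc m) (κ : Euc k →L[ℝ] Euc n)
    (u : Euc m → Euc n) (e : ℝ) : Prop where
  Φ_eq : ∀ z, ‖κ z‖ < 3 → T.Φ z = z + uu π κ u z - (star (P π κ u z)) z
  near : ∀ z, ‖T.Φ z - z‖ ≤ ‖u (π z)‖ + e
  nA : ∀ z, ‖T.A z - 1‖ ≤ e
  A_eq : ∀ z, ‖κ z‖ < 3 → T.A z = 1 + P π κ u z - star (P π κ u z) - h π κ u z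
  dA_eq : ∀ z ζ, ‖κ z‖ < 3 →
    fderiv ℝ T.A z ζ = P' π κ u z ζ - star (P' π κ u z ζ) - h1 π κ u z ζ
  gm_eq : ∀ z, ‖κ z‖ < 3 → T.gm z = Fm_281.gm (P π κ u z) (h π κ u z)
  dGm_eq : ∀ z ζ, ‖κ z‖ < 3 → fderiv ℝ T.Gm z ζ =
    dgm (P π κ u z) (P' π κ u z ζ) (h π κ u z) (h1 π κ u z ζ)

/-- **the chart exists** -/
theorem exists_chart (n : ℕ) : ∃ c C : ℝ, 0 < c ∧ 0 ≤ C ∧ ∀ (m k : ℕ)
    (π : Euc k →L[ℝ] Euc m) (κ : Euc k →L[ℝ] Euc n) (u : Euc m → Euc n) (l : ℝ),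
    Split π κ → ContDiff ℝ 3 u → 0 ≤ l → l ≤ c → Bd u l →
      ∃ T : Dif k, IsChart T π κ u (C * l) := by
  obtain ⟨C, hC, hC1, hC2⟩ := exists_gb n
  refine ⟨1 / (2 * (1 + 2 * C)), 1 + 2 * C, by positivity, by positivity, ?_⟩
  intro m k π κ u l hs hu hl hlc hb
  have hlC : (1 + 2 * C) * l ≤ 1 / 2 := by
    have h1 : (1 + 2 * C) * l ≤ (1 + 2 * C) * (1 / (2 * (1 + 2 * C))) :=
      mul_le_mul_of_nonneg_left hlc (by positivity)
    have h2 : (1 + 2 * C) * (1 / (2 * (1 + 2 * C))) = 1 / 2 := by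
      have : (1 + 2 * C) ≠ 0 := by positivity
      field_simp
    linarith
  have hnd := norm_fderiv_disp_le (π := π) (κ := κ) hs hu hl hb hC hC1 hC2
  obtain ⟨f, hf⟩ : ∃ f, f = disp π κ u := ⟨_, rfl⟩
  have hfc : ContDiff ℝ 2 f := by rw [hf]; exact contDiff_disp hu
  have hfb : ∀ z, ‖fderiv ℝ f z‖ ≤ 1 / 2 := fun z => by rw [hf]; exact (hnd z).trans hlC
  obtain ⟨T, hT⟩ : ∃ T, T = Dif.ofPert f hfc hfb := ⟨_, rfl⟩
  have hTΦ : ∀ z, T.Φ z = z + f z := fun z => by rw [hT]; exact Dif.ofPert_Φ hfc hfb z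
  have hTA : ∀ z, T.A z = 1 + fderiv ℝ f z := fun z => by rw [hT]; exact Dif.ofPert_A hfc hfb z
  have hA : ∀ z, ‖κ z‖ < 3 →
      T.A z = 1 + P π κ u z - star (P π κ u z) - h π κ u z := by
    intro z hz
    rw [hTA, hf, fderiv_disp hs hu hz]
    ext1 v
    change v + (P π κ u z v - (star (P π κ u z)) v - h π κ u z v) =
      v + P π κ u z v - (star (P π κ u z)) v - h π κ u z v
    abel
  have hdA : ∀ z ζ, ‖κ z‖ < 3 →
      fderiv ℝ T.A z ζ = P' π κ u z ζ - star (P' π κ u z ζ) - h1 π κ u z ζ := by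
    intro z ζ hz
    obtain ⟨γ, hγ⟩ : ∃ γ : ℝ → Euc k, γ = fun t => z + t • ζ := ⟨_, rfl⟩
    have hγ0 : γ 0 = z := by rw [hγ]; simp
    have hγd : HasDerivAt γ ζ 0 := by
      rw [hγ]
      have h1 : HasDerivAt (fun t : ℝ => t • ζ) ((1:ℝ) • ζ) 0 :=
        (hasDerivAt_id (0:ℝ)).smul_const ζ
      rw [one_smul] at h1
      exact h1.const_add z
    have hd : HasDerivAt (fun t => T.A (γ t)) (fderiv ℝ T.A z ζ) 0 :=
      chain (Euc k) (L k) ((T.contA.differentiable one_ne_zero) z).hasFDerivAt hγd hγ0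
    have hP : HasDerivAt (fun t => P π κ u (γ t)) (P' π κ u z ζ) 0 :=
      chain (Euc k) (L k) (hasFDerivAt_P hu z) hγd hγ0
    have hP' : HasDerivAt (fun t => P' π κ u (γ t)) (P'' π κ u z ζ) 0 :=
      chain (Euc k) (Euc k →L[ℝ] L k) (hasFDerivAt_P' hu z) hγd hγ0
    have hsP : HasDerivAt (fun t => star (P π κ u (γ t))) (star (P' π κ u z ζ)) 0 :=
      chain (L k) (L k) (adjL (k := k)).hasFDerivAt hP rfl
    have hh : HasDerivAt (fun t => h π κ u (γ t)) (h1 π κ u z ζ) 0 := by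
      have h2 := hasDerivAt_flip adjL hP' hγd
      rw [hγ0] at h2
      exact h2
    have hall : HasDerivAt (fun t => 1 + P π κ u (γ t) - star (P π κ u (γ t)) - h π κ u (γ t))
        (P' π κ u z ζ - star (P' π κ u z ζ) - h1 π κ u z ζ) 0 :=
      ((hP.const_add 1).sub hsP).sub hh
    have hev : (fun t => T.A (γ t)) =ᶠ[𝓝 0]
        fun t => 1 + P π κ u (γ t) - star (P π κ u (γ t)) - h π κ u (γ t) := by
      have hc : ContinuousAt (fun t => ‖κ (γ t)‖) 0 :=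
        (κ.continuous.continuousAt.comp hγd.continuousAt).norm
      have h2 : ‖κ (γ 0)‖ < 3 := by rw [hγ0]; exact hz
      filter_upwards [hc.eventually_lt_const h2] with t ht
      exact hA _ ht
    exact hd.unique (hall.congr_of_eventuallyEq hev)
  have hH := isStar_of_G (hp_mem_G hs)
  refine ⟨T, ⟨fun z hz => ?_, fun z => ?_, fun z => ?_, hA, hdA, fun z hz => ?_, fun z ζ hz => ?_⟩⟩
  · rw [hTΦ, hf, disp_eq hs hu hz, add_sub_assoc]
  · rw [hTΦ, add_sub_cancel_left, hf]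
    unfold disp
    refine (norm_sub_le _ _).trans (add_le_add ?_ ?_)
    · unfold uu
      rw [norm_κ' hs]
    · refine (ContinuousLinearMap.le_opNorm _ _).trans ?_
      rw [adjL_apply, norm_star']
      unfold θ
      rw [norm_κ' hs]
      have a1 := mul_le_mul (norm_P_le (π := π) (κ := κ) hs hu hl hb z) (hC1 (κ z))
        (norm_nonneg _) hl
      have a2 : 0 ≤ C * l := mul_nonneg hC hl
      linarith
  · rw [hTA, add_sub_cancel_left, hf]
    exact hnd z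
  · unfold Dif.gm
    rw [hA z hz, Ft_209.gam_eq]
    exact Fm_281.gm_eq hH (P_HV hs hu z) (h_HH hs hu z) (star_h hu z)
  · rw [T.fderiv_Gm, hA z hz, hdA z ζ hz]
    exact Fm_281.dgm_eq hH (P_HV hs hu z) (P'_HV hs hu z ζ) (h_HH hs hu z) (h1_HH hs hu z ζ)
      (star_h hu z) (star_h1 hu z ζ)

end Crest.Agent.R234.Fc_209
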