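import Crest.Agent.R234.LowF7_471
import Crest.Agent.R234.Nb5_290

/-!
# Row 234, VF-F11 node, part 2 (helper534)

* `fd_of_pre3` : 471's full bootstrap (`Pre` + weak (F4)) with a frequency bound independent of the
  length of the window and of the accuracy.
* shift of the logarithmic scale and multiplication by a constant.
-/

set_option autoImplicit false

open Set Real Filter Topology

namespace Crest.Agent.R234.Fd_534

open Crest.Agent.R234.Nb_290 (StepData StepW)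
open Crest.Agent.R234.Pin1_3 (FD NN)
open Crest.Agent.R234.Dbl_534
open Crest.Agent.R234.LowF7_471 (Pre Thr4 fd_of_pre)

/-- **final real-variable form** of the frequency package at a `Q`-point. -/
structure Fin (q Cp Lw H1 hw et k0 c0 th : ℝ) : Prop where
  k : 0 < k0
  c : 0 < c0
  t : 0 < th
  main : ∀ (I E e b R : ℝ → ℝ) (lo t0 t1 del w : ℝ), lo ≤ t0 → t1 - lo ≤ Lw →
    t0 + hw ≤ t1 → t1 ≤ t0 + H1 → 0 ≤ del → del ≤ k0 → 0 ≤ w → w ≤ k0 * I t0 → 0 < I t0 →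
    Pre lo t1 del w I E e b R →
    (∀ l ∈ Icc lo t1, -(th * I t0) ≤ E l - I l / 2) →
    (∀ l ∈ Icc lo t1, e l ≤ exp (q * (t1 - l)) * e t1) →
    (∀ l ∈ Icc lo t1, I l ≤ exp (q * (t1 - l)) * I t1) →
    I t1 ≤ Cp * I t0 → e t1 ≤ Cp * I t0 →
    ∃ R' : ℝ → ℝ, (∀ l ∈ Icc lo t0, R l ≤ R' l) ∧ FD E I e b R' et lo t0 ∧
      (∀ l ∈ Icc lo t0, NN E I l ≤ Ctop q Cp H1) ∧ ∀ l ∈ Icc lo t0, c0 * I t0 ≤ I l

theorem fd_of_pre3 {q Cp Lw H1 hw et : ℝ} (hq : 0 ≤ q) (hCp : 1 ≤ Cp) (hLw : 0 ≤ Lw)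
    (hhw : 0 < hw) (hH1 : 0 ≤ H1) (het : 0 < et) (het1 : et ≤ 1 / 2) :
    ∃ k0 c0 th : ℝ, Fin q Cp Lw H1 hw et k0 c0 th := by
  set X : ℝ := exp (q * Lw) with hX
  have hX1 : 1 ≤ X := one_le_exp (by positivity)
  set Y : ℝ := exp (q * H1) with hY
  have hY1 : 1 ≤ Y := one_le_exp (by positivity)
  have hYC : 1 ≤ Y * Cp := by nlinarith
  set Ce : ℝ := 2 * X * Cp with hCe
  have hCe1 : 1 ≤ Ce := by rw [hCe]; nlinarith
  set C1 : ℝ := 6 * (Y * Cp) with hC1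
  obtain ⟨k0, c0, th, hT⟩ :=
    fd_of_pre (C1 := C1) (Ce := Ce) (by rw [hC1]; linarith) hCe1 hLw hhw het het1
  refine ⟨min k0 1, c0, th, lt_min hT.k one_pos, hT.c, hT.t, ?_⟩
  intro I E e b R lo t0 t1 del w hlo ht1 htw htH hdel hdelk hw hwk hIt0 h hlow he hI hI1 he1
  have ht0 : t0 ∈ Icc lo t1 := ⟨hlo, by linarith⟩
  have hk1 : min k0 1 * I t0 ≤ k0 * I t0 := by gcongr; exact min_le_left _ _
  have h4 := h.he t1 ⟨hlo.trans ht0.2, le_rfl⟩
  have h5 := h.hI t1 ⟨hlo.trans ht0.2, le_rfl⟩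
  -- bounds with a general factor
  have gen : ∀ Z l, l ∈ Icc lo t1 → exp (q * (t1 - l)) ≤ Z → 0 ≤ Z →
      e l ≤ Z * Cp * I t0 ∧ I l ≤ Z * Cp * I t0 := by
    intro Z l hl hZ hZ0
    constructor
    · calc e l ≤ exp (q * (t1 - l)) * e t1 := he l hl
        _ ≤ Z * (Cp * I t0) := by gcongr
        _ = Z * Cp * I t0 := by ring
    · calc I l ≤ exp (q * (t1 - l)) * I t1 := hI l hl
        _ ≤ Z * (Cp * I t0) := by gcongr
        _ = Z * Cp * I t0 := by ring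
  have hsum : ∀ l ∈ Icc lo t1, e l + I l ≤ Ce * I t0 := by
    intro l hl
    have := gen X l hl (by
      apply exp_le_exp.2
      apply mul_le_mul_of_nonneg_left _ hq
      linarith [hl.1]) (by linarith)
    have h2 : Ce * I t0 = X * Cp * I t0 + X * Cp * I t0 := by rw [hCe]; ring
    linarith [this.1, this.2]
  have hC8 : Ctop q Cp H1 = 8 * C1 := by
    rw [hC1, hY]; unfold Ctop; ring
  rw [hC8]
  refine (hT.main I E e b R lo t0 t1 del w hlo ht1 htw hdel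
    (hdelk.trans (min_le_left _ _)) hw (hwk.trans hk1) hIt0 h hlow hsum ?_).2.2
  intro l hl
  have hl' : l ∈ Icc lo t1 := ⟨hlo.trans hl.1, hl.2⟩
  have h1 := h.hE l hl'
  have h2 := h.hb l hl'
  have h3 := gen Y l hl' (by
      apply exp_le_exp.2
      apply mul_le_mul_of_nonneg_left _ hq
      linarith [hl.1]) (by linarith)
  have h5 := h.hI l hl'
  have h6 : del * I l ≤ 1 * I l := by
    gcongr
    exact hdelk.trans (min_le_right _ _)
  have h7 : w ≤ 1 * I t0 := hwk.trans (by gcongr; exact min_le_right _ _)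
  have h8 : 1 * I t0 ≤ Y * Cp * I t0 := by gcongr
  have h9 : C1 * I t0 = 6 * (Y * Cp * I t0) := by rw [hC1]; ring
  have h10 : 0 ≤ Y * Cp * I t0 := by positivity
  linarith [h3.1, h3.2]

/-- 290's `StepW` is a `Pre`. -/
theorem pre_of_stepW {C₀ a b₀ δ w : ℝ} {I E e b R : ℝ → ℝ} (h : StepW C₀ a b₀ δ w I E e b R) :
    Pre a b₀ δ w I E e b R :=
  ⟨h.hI, h.he, h.hR, h.hE, h.dI, h.dE, h.hCS, h.hb⟩

/-! ### shift and rescaling of `FD` -/

theorem FD.shift {E I e b R : ℝ → ℝ} {η l₀ l₁ : ℝ} (h : FD E I e b R η l₀ l₁) {κ : ℝ} (hκ : 0 < κ)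
    (s : ℝ) : FD (fun l => κ * E (l + s)) (fun l => κ * I (l + s)) (fun l => κ * e (l + s))
      (fun l => κ * b (l + s)) (fun l => κ * R (l + s)) η (l₀ - s) (l₁ - s) := by
  have hm : ∀ l ∈ Icc (l₀ - s) (l₁ - s), l + s ∈ Icc l₀ l₁ := fun l hl =>
    ⟨by linarith [hl.1], by linarith [hl.2]⟩
  have hsh : ∀ (f : ℝ → ℝ) (d l : ℝ), HasDerivAt f d (l + s) →
      HasDerivAt (fun l => κ * f (l + s)) (κ * d) l := by
    intro f d l hf
    have h1 : HasDerivAt (fun l : ℝ => l + s) 1 l := (hasDerivAt_id l).add_const s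
    have h2 := (hf.comp l h1).const_mul κ
    simpa using h2
  have hab : ∀ l ε : ℝ, |ε| ≤ η * (E (l + s) + |b (l + s)| + I (l + s)) →
      |κ * ε| ≤ η * (κ * E (l + s) + |κ * b (l + s)| + κ * I (l + s)) := by
    intro l ε hε
    rw [abs_mul, abs_mul, abs_of_pos hκ]
    calc κ * |ε| ≤ κ * (η * (E (l + s) + |b (l + s)| + I (l + s))) := by gcongr
      _ = _ := by ring
  refine ⟨?_, ?_, ?_, ?_, ?_, ?_, ?_⟩
  · intro l hl
    exact mul_pos hκ (h.pos _ (hm l hl))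
  · intro l hl
    obtain ⟨ε, h1, h2⟩ := h.dE _ (hm l hl)
    exact ⟨κ * ε, hab l ε h1, (hsh _ _ l h2).congr_deriv (by ring)⟩
  · intro l hl
    obtain ⟨ε, h1, h2⟩ := h.dI _ (hm l hl)
    exact ⟨κ * ε, hab l ε h1, (hsh _ _ l h2).congr_deriv (by ring)⟩
  · intro l hl
    have := h.eE _ (hm l hl)
    linear_combination κ * this
  · intro l hl
    obtain ⟨ε, h1, h2⟩ := h.cs _ (hm l hl)
    refine ⟨κ * ε, hab l ε h1, ?_⟩
    calc (κ * e (l + s) + κ * ε) ^ 2 = κ ^ 2 * (e (l + s) + ε) ^ 2 := by ring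
      _ ≤ κ ^ 2 * (I (l + s) * R (l + s)) := by gcongr
      _ = _ := by ring
  · intro l hl
    have := h.low _ (hm l hl)
    nlinarith
  · intro l hl
    have := h.bu _ (hm l hl)
    nlinarith

theorem NN_shift (E I : ℝ → ℝ) {κ : ℝ} (hκ : 0 < κ) (s l : ℝ) :
    NN (fun l => κ * E (l + s)) (fun l => κ * I (l + s)) l = NN E I (l + s) := by
  unfold NN
  have : κ ≠ 0 := hκ.ne'
  field_simp

end Crest.Agent.R234.Fd_534
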