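import Crest.Agent.R234.Fd2_534

/-!
# Row 234, VF-F11 node, part 3 (helper534): the real-variable assembly at a `Q`-point

290's `StepW` on the window (no lower bound of the frequency, no positivity), the top bounds
`e(b₀) ≤ C₁ I(b₀)`, `0 < I(b₀)`, and the weak form of (F4) on `[lo, t₁]` give
`I(b₀) ≤ e^G I(t₀)` and the pinching data `FD` on `[lo, t₀]` with a frequency bound `Cf` independent of the
length of the window and of the accuracy.
-/

set_option autoImplicit false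

open Set Real Filter Topology

namespace Crest.Agent.R234.Fd_534

open Crest.Agent.R234.Nb_290 (StepData StepW Fr)
open Crest.Agent.R234.Pin1_3 (FD NN)
open Crest.Agent.R234.Dbl_534
open Crest.Agent.R234.LowF7_471 (Pre)

/-- the collar constant of the top window. -/
noncomputable def KT (C1 : ℝ) : ℝ := 32 + 8 * (C1 + 1)

/-- the doubling exponent of the top window. -/
noncomputable def GT (C1 C2 H1 : ℝ) : ℝ := (KT C1 + (120 * C2 + 61)) * H1 + 5 / 4 + 40 * C2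

/-- the frequency bound of the whole window. -/
noncomputable def Cf (q C1 C2 H1 : ℝ) : ℝ := Ctop q (exp (q * H1 + GT C1 C2 H1) * C1) H1

theorem one_le_Cf {q C1 C2 H1 : ℝ} (hq : 0 ≤ q) (hC1 : 1 ≤ C1) (hC2 : 1 ≤ C2) (hH1 : 0 ≤ H1) :
    1 ≤ Cf q C1 C2 H1 := by
  have h1 : 1 ≤ exp (q * H1) := one_le_exp (by positivity)
  have hG : 0 ≤ GT C1 C2 H1 := by unfold GT KT; positivity
  have h2 : 1 ≤ exp (q * H1 + GT C1 C2 H1) := one_le_exp (by positivity)
  have h3 : 1 ≤ exp (q * H1 + GT C1 C2 H1) * C1 := one_le_mul_of_one_le_of_one_le h2 hC1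
  have h4 : 1 ≤ exp (q * H1) * (exp (q * H1 + GT C1 C2 H1) * C1) :=
    one_le_mul_of_one_le_of_one_le h1 h3
  unfold Cf Ctop
  linarith

/-- thresholds of the assembly. -/
structure Asm (q C1 C2 Lw H1 hw et k0 c0 th : ℝ) : Prop where
  k : 0 < k0
  c : 0 < c0
  t : 0 < th
  dbl : ∀ (I E e b R : ℝ → ℝ) (lo t0 b0 del w : ℝ), lo ≤ t0 → t0 ≤ b0 → b0 ≤ t0 + H1 →
    0 ≤ del → del ≤ k0 → 0 ≤ w → w ≤ k0 * I b0 → 0 < I b0 → e b0 ≤ C1 * I b0 →
    StepW C2 (lo - 1) b0 del w I E e b R → I b0 ≤ exp (GT C1 C2 H1) * I t0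
  main : ∀ (I E e b R : ℝ → ℝ) (lo t0 t1 b0 del w : ℝ), lo ≤ t0 → b0 - lo ≤ Lw →
    t0 + hw ≤ t1 → t1 ≤ b0 → b0 ≤ t0 + H1 →
    0 ≤ del → del ≤ k0 → 0 ≤ w → w ≤ k0 * I b0 → 0 < I b0 → e b0 ≤ C1 * I b0 →
    StepW C2 (lo - 1) b0 del w I E e b R →
    (∀ l l', lo ≤ l → l ≤ l' → l' ≤ b0 → e l ≤ exp (q * (l' - l)) * e l') →
    (∀ l l', lo ≤ l → l ≤ l' → l' ≤ b0 → I l ≤ exp (q * (l' - l)) * I l') →
    (∀ l ∈ Icc lo t1, -(th * I t0) ≤ E l - I l / 2) →
    I b0 ≤ exp (GT C1 C2 H1) * I t0 ∧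
    ∃ R' : ℝ → ℝ, (∀ l ∈ Icc lo t0, R l ≤ R' l) ∧ FD E I e b R' et lo t0 ∧
      (∀ l ∈ Icc lo t0, NN E I l ≤ Cf q C1 C2 H1) ∧ ∀ l ∈ Icc lo t0, c0 * I t0 ≤ I l

/-- **assembly**. -/
theorem asm {q C1 C2 Lw H1 hw et : ℝ} (hq : 0 ≤ q) (hC1 : 1 ≤ C1) (hC2 : 1 ≤ C2) (hLw : 0 ≤ Lw)
    (hH1 : 0 ≤ H1) (hhw : 0 < hw) (het : 0 < et) (het1 : et ≤ 1 / 2) :
    ∃ k0 c0 th : ℝ, Asm q C1 C2 Lw H1 hw et k0 c0 th := by
  set G : ℝ := GT C1 C2 H1 with hG
  have hG0 : 0 ≤ G := by rw [hG]; unfold GT KT; positivity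
  set Cp : ℝ := exp (q * H1 + G) * C1 with hCp
  have hE1 : 1 ≤ exp (q * H1 + G) := one_le_exp (by positivity)
  have hCp1 : 1 ≤ Cp := by rw [hCp]; exact one_le_mul_of_one_le_of_one_le hE1 hC1
  obtain ⟨k1, c1, th, hF⟩ := fd_of_pre3 (q := q) (Cp := Cp) (Lw := Lw) (H1 := H1) (hw := hw)
    (et := et) hq hCp1 hLw hhw hH1 het het1
  have hk1 := hF.k
  set Y : ℝ := min (1 / 100) (1 / (1100 * (H1 + 1))) with hY
  have hY0 : 0 < Y := lt_min (by norm_num) (by positivity)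
  have hYle : Y ≤ 1 / 100 := min_le_left _ _
  have hYH : Y * H1 ≤ 1 / 1100 := by
    have h1 : Y ≤ 1 / (1100 * (H1 + 1)) := min_le_right _ _
    calc Y * H1 ≤ 1 / (1100 * (H1 + 1)) * H1 := mul_le_mul_of_nonneg_right h1 hH1
      _ ≤ 1 / (1100 * (H1 + 1)) * (H1 + 1) := by gcongr; linarith
      _ = 1 / 1100 := by field_simp
  set k0 : ℝ := min (1 / 4) (min (k1 * exp (-G)) (Y / (1 + exp (G + 1)))) with hk0
  have hk0pos : 0 < k0 := lt_min (by norm_num) (lt_min (by positivity) (by positivity))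
  have hk04 : k0 ≤ 1 / 4 := min_le_left _ _
  have hk0k : k0 ≤ k1 * exp (-G) := (min_le_right _ _).trans (min_le_left _ _)
  have hk0k1 : k0 ≤ k1 := by
    refine hk0k.trans ?_
    have : exp (-G) ≤ 1 := exp_le_one_iff.2 (by linarith)
    nlinarith
  have hk0Y : k0 * (1 + exp (G + 1)) ≤ Y := by
    have : k0 ≤ Y / (1 + exp (G + 1)) := (min_le_right _ _).trans (min_le_right _ _)
    rwa [le_div_iff₀ (by positivity)] at this
  have hK32 : 32 ≤ KT C1 := by unfold KT; linarith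
  have hKpos : 0 < KT C1 := by linarith
  have hK1 : 1 / KT C1 ≤ 1 := by
    rw [div_le_one hKpos]; linarith
  have hdblall : ∀ (I E e b R : ℝ → ℝ) (lo t0 b0 del w : ℝ), lo ≤ t0 → t0 ≤ b0 → b0 ≤ t0 + H1 →
      0 ≤ del → del ≤ k0 → 0 ≤ w → w ≤ k0 * I b0 → 0 < I b0 → e b0 ≤ C1 * I b0 →
      StepW C2 (lo - 1) b0 del w I E e b R → I b0 ≤ exp (GT C1 C2 H1) * I t0 := by
    intro I E e b R lo t0 b0 del w hlo htb hbH hdel hdelk hw0 hwk hIb heb hS
    have hb0 : b0 ∈ Icc (lo - 1) b0 := ⟨by linarith, le_rfl⟩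
    -- frequency at the top
    have hN0 : 8 * Fr E I b0 ≤ KT C1 := by
      have h1 := hS.hE b0 hb0
      have h2 := hS.hb b0 hb0
      have h3 : Fr E I b0 ≤ C1 + 1 := by
        unfold Fr
        rw [div_le_iff₀ hIb]
        have h4 : del * I b0 ≤ 1 / 4 * I b0 := mul_le_mul_of_nonneg_right (hdelk.trans hk04) hIb.le
        have h5 : k0 * I b0 ≤ 1 / 4 * I b0 := mul_le_mul_of_nonneg_right hk04 hIb.le
        have h6 : (C1 + 1) * I b0 = C1 * I b0 + I b0 := by ring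
        linarith
      unfold KT
      linarith
    have hy : del + w * exp (G + 1) / I b0 ≤ Y := by
      have h1 : w * exp (G + 1) / I b0 ≤ k0 * exp (G + 1) := by
        rw [div_le_iff₀ hIb]
        calc w * exp (G + 1) ≤ (k0 * I b0) * exp (G + 1) :=
              mul_le_mul_of_nonneg_right hwk (exp_pos _).le
          _ = _ := by ring
      have h2 : k0 * (1 + exp (G + 1)) = k0 + k0 * exp (G + 1) := by ring
      linarith
    have hwin := hS.window6 (a := t0) hC2 hdel hw0 (y := Y) (K := KT C1) (G := G) hK32 hYle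
      (by linarith) htb (by
        calc Y * (b0 - t0) ≤ Y * H1 := mul_le_mul_of_nonneg_left (by linarith) hY0.le
          _ ≤ _ := hYH) (by
        rw [hG]
        unfold GT
        have h1 : (KT C1 + (120 * C2 + 61)) * (b0 - t0) ≤ (KT C1 + (120 * C2 + 61)) * H1 :=
          mul_le_mul_of_nonneg_left (by linarith) (by positivity)
        linarith) hy hN0 hIb
    exact hwin.2.1 t0 ⟨le_rfl, htb⟩
  refine ⟨k0, c1, th, hk0pos, hF.c, hF.t, hdblall, ?_⟩
  intro I E e b R lo t0 t1 b0 del w hlo hLw' ht1 ht1b hbH hdel hdelk hw0 hwk hIb heb hS hem hIm hF4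
  have htb : t0 ≤ b0 := by linarith
  have hb0 : b0 ∈ Icc (lo - 1) b0 := ⟨by linarith, le_rfl⟩
  have hdbl : I b0 ≤ exp G * I t0 :=
    hdblall I E e b R lo t0 b0 del w hlo htb hbH hdel hdelk hw0 hwk hIb heb hS
  have hIt0 : 0 < I t0 := by
    by_contra hcon
    have : exp G * I t0 ≤ 0 := mul_nonpos_of_nonneg_of_nonpos (exp_pos _).le (not_lt.1 hcon)
    linarith
  refine ⟨hdbl, ?_⟩
  have hIb0 : 0 ≤ I b0 := hIb.le
  have heb0 : 0 ≤ e b0 := hS.he b0 hb0
  refine hF.main I E e b R lo t0 t1 del w hlo (by linarith) ht1 (by linarith) hdel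
    (hdelk.trans hk0k1) hw0 ?_ hIt0 (pre_of_stepW (hS.mono (by linarith) ht1b)) hF4
    (fun l hl => hem l t1 hl.1 hl.2 ht1b) (fun l hl => hIm l t1 hl.1 hl.2 ht1b) ?_ ?_
  · calc w ≤ k0 * I b0 := hwk
      _ ≤ (k1 * exp (-G)) * (exp G * I t0) :=
        mul_le_mul hk0k hdbl hIb0 (by positivity)
      _ = k1 * (exp (-G) * exp G) * I t0 := by ring
      _ = k1 * I t0 := by rw [← exp_add]; simp
  · have h1 := hIm t1 b0 (by linarith) ht1b le_rfl
    calc I t1 ≤ exp (q * (b0 - t1)) * I b0 := h1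
      _ ≤ exp (q * H1) * (exp G * I t0) := by
        gcongr
        linarith
      _ = exp (q * H1 + G) * I t0 := by rw [exp_add]; ring
      _ ≤ exp (q * H1 + G) * C1 * I t0 := by
        have h2 : exp (q * H1 + G) * 1 ≤ exp (q * H1 + G) * C1 := by gcongr
        have h3 := mul_le_mul_of_nonneg_right h2 hIt0.le
        linarith
  · have h1 := hem t1 b0 (by linarith) ht1b le_rfl
    calc e t1 ≤ exp (q * (b0 - t1)) * e b0 := h1
      _ ≤ exp (q * H1) * (C1 * (exp G * I t0)) := by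
        refine mul_le_mul (exp_le_exp.2 (mul_le_mul_of_nonneg_left (by linarith) hq)) ?_ heb0
          (exp_pos _).le
        exact heb.trans (mul_le_mul_of_nonneg_left hdbl (by linarith))
      _ = exp (q * H1 + G) * C1 * I t0 := by rw [exp_add]; ring

end Crest.Agent.R234.Fd_534
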