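import Crest.Agent.R234.Fd3_534

/-!
# Row 234, VF-F11 node, part 4 (helper534): the window `[lm, -3]` of `Pin8_3.CtrK`

`fd_core` : functions `II, EE, ee, bb, RR` of the logarithmic scale with 290's `StepW` on
`[log r + lm - 2, log r + log 2]`, top bounds and the weak form of (F4) give the pinching data `FD` on
`[lm, -3]` for the functions `r⁻² f (l + log r - log (4/3))`.
-/

set_option autoImplicit false

open Set Real Filter Topology

namespace Crest.Agent.R234.Fd_534

open Crest.Agent.R234.Nb_290 (StepData StepW Fr)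
open Crest.Agent.R234.Pin1_3 (FD NN)
open Crest.Agent.R234.Dbl_534

/-- the shift `l ↦ l + log r - log (4/3)` -/
noncomputable def sh (r : ℝ) : ℝ := log r - log (4 / 3)

/-- the functions of the pinching data -/
noncomputable def rs (r : ℝ) (f : ℝ → ℝ) (l : ℝ) : ℝ := (r ^ 2)⁻¹ * f (l + sh r)

theorem FD.mono_eta {E I e b R : ℝ → ℝ} {η η' l₀ l₁ : ℝ} (h : FD E I e b R η l₀ l₁) (hη : η ≤ η')
    (hη0 : η ≤ 1) : FD E I e b R η' l₀ l₁ := by
  have hE : ∀ l ∈ Icc l₀ l₁, 0 ≤ E l := by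
    intro l hl
    have h1 := h.low l hl
    have h2 := h.pos l hl
    nlinarith
  have hS : ∀ l ∈ Icc l₀ l₁, 0 ≤ E l + |b l| + I l := by
    intro l hl
    have h1 := hE l hl
    have h2 := h.pos l hl
    have h3 := abs_nonneg (b l)
    linarith
  refine ⟨h.pos, ?_, ?_, h.eE, ?_, ?_, ?_⟩
  · intro l hl
    obtain ⟨ε, h1, h2⟩ := h.dE l hl
    exact ⟨ε, h1.trans (mul_le_mul_of_nonneg_right hη (hS l hl)), h2⟩
  · intro l hl
    obtain ⟨ε, h1, h2⟩ := h.dI l hl
    exact ⟨ε, h1.trans (mul_le_mul_of_nonneg_right hη (hS l hl)), h2⟩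
  · intro l hl
    obtain ⟨ε, h1, h2⟩ := h.cs l hl
    exact ⟨ε, h1.trans (mul_le_mul_of_nonneg_right hη (hS l hl)), h2⟩
  · intro l hl
    have h1 := h.low l hl
    have h2 := h.pos l hl
    nlinarith
  · intro l hl
    exact (h.bu l hl).trans (mul_le_mul_of_nonneg_right hη (hE l hl))

/-- **the per-centre frequency package**. -/
theorem fd_core (m : ℕ) {C1 C2 lm η : ℝ} (hC1 : 1 ≤ C1) (hC2 : 1 ≤ C2) (hlm : lm < -3)
    (hη : 0 < η) : ∃ k0 : ℝ, 0 < k0 ∧
    ∀ (I E e b R : ℝ → ℝ) (r del w : ℝ), 0 < r →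
    0 ≤ del → del ≤ k0 → 0 ≤ w → w ≤ k0 * I (log r + log 2) → 0 < I (log r + log 2) →
    e (log r + log 2) ≤ C1 * I (log r + log 2) →
    StepW C2 (log r + lm - 2) (log r + log 2) del w I E e b R →
    (∀ l l', log r + lm - 2 ≤ l → l ≤ l' → l' ≤ log r + log 2 → e l ≤ exp (m * (l' - l)) * e l') →
    (∀ l l', log r + lm - 2 ≤ l → l ≤ l' → l' ≤ log r + log 2 → I l ≤ exp (m * (l' - l)) * I l') →
    (∀ l ∈ Icc (log r + lm - 2) (log r - 3), -(k0 * I (log r + log 2)) ≤ E l - I l / 2) →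
    I (log r + log 2) ≤ exp (GT C1 C2 5) * I (-3 + sh r) ∧
    NN (rs r E) (rs r I) (-3) ≤ Cf m C1 C2 5 ∧
    ∃ R' : ℝ → ℝ, (∀ l ∈ Icc lm (-3), rs r R l ≤ R' l) ∧
      FD (rs r E) (rs r I) (rs r e) (rs r b) R' η lm (-3) := by
  have hl43 : 1 / 4 ≤ log (4 / 3) := by
    have := one_sub_inv_le_log_of_pos (show (0:ℝ) < 4 / 3 by norm_num)
    norm_num at this ⊢
    linarith
  have hl43' : log (4 / 3) ≤ 1 / 3 := by
    have := log_le_sub_one_of_pos (show (0:ℝ) < 4 / 3 by norm_num)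
    linarith
  have hl2 : 0 < log 2 := log_pos (by norm_num)
  have hl2' : log 2 ≤ 7 / 10 := by
    have := log_two_lt_d9
    linarith
  obtain ⟨k1, c1, th, hA⟩ := asm (q := (m : ℝ)) (C1 := C1) (C2 := C2) (Lw := 3 - lm) (H1 := 5)
    (hw := 1 / 16) (et := min η (1 / 2)) (Nat.cast_nonneg m) hC1 hC2 (by linarith) (by norm_num)
    (by norm_num) (lt_min hη (by norm_num)) (min_le_right _ _)
  set G : ℝ := GT C1 C2 5 with hG
  refine ⟨min k1 (th * exp (-G)), lt_min hA.k (mul_pos hA.t (exp_pos _)), ?_⟩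
  intro I E e b R r del w hr hdel hdelk hw hwk hIb heb hS hem hIm hF4
  set b0 : ℝ := log r + log 2 with hb0
  set t0 : ℝ := -3 + sh r with ht0
  have ht0' : t0 = log r - 3 - log (4 / 3) := by rw [ht0, sh]; ring
  set lo : ℝ := lm + sh r with hlo
  have hlo' : lo = log r + lm - log (4 / 3) := by rw [hlo, sh]; ring
  have hthI : ∀ l ∈ Icc lo (t0 + 1 / 16), -(th * exp (-G) * I b0) ≤ E l - I l / 2 := by
    intro l hl
    have h1 := hF4 l ⟨by rw [hlo'] at hl; linarith [hl.1], by rw [ht0'] at hl; linarith [hl.2]⟩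
    have h2 : min k1 (th * exp (-G)) * I b0 ≤ th * exp (-G) * I b0 :=
      mul_le_mul_of_nonneg_right (min_le_right _ _) hIb.le
    linarith
  have hS' : StepW C2 (lo - 1) b0 del w I E e b R := hS.mono (by rw [hlo']; linarith) le_rfl
  -- first pass: the doubling, with the (F4) input replaced through the window
  have hwk1 : w ≤ k1 * I b0 := hwk.trans (mul_le_mul_of_nonneg_right (min_le_left _ _) hIb.le)
  have key := hA.dbl I E e b R lo t0 b0 del w (by rw [hlo', ht0']; linarith)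
    (by rw [ht0']; linarith) (by rw [ht0']; linarith) hdel (hdelk.trans (min_le_left _ _)) hw hwk1
    hIb heb hS'
  have hmain := hA.main I E e b R lo t0 (t0 + 1 / 16) b0 del w (by rw [hlo', ht0']; linarith)
    (by rw [hlo']; linarith) le_rfl (by rw [ht0']; linarith) (by rw [ht0']; linarith) hdel
    (hdelk.trans (min_le_left _ _)) hw hwk1 hIb heb hS'
    (fun l l' h1 h2 h3 => hem l l' (by rw [hlo'] at h1; linarith) h2 h3)
    (fun l l' h1 h2 h3 => hIm l l' (by rw [hlo'] at h1; linarith) h2 h3) (by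
      intro l hl
      have h1 := hthI l hl
      have h2 : th * exp (-G) * I b0 ≤ th * exp (-G) * (exp G * I t0) :=
        mul_le_mul_of_nonneg_left key (mul_nonneg hA.t.le (exp_pos _).le)
      have h3 : th * exp (-G) * (exp G * I t0) = th * I t0 := by
        have : exp (-G) * exp G = 1 := by rw [← exp_add]; simp
        calc th * exp (-G) * (exp G * I t0) = th * (exp (-G) * exp G) * I t0 := by ring
          _ = _ := by rw [this, mul_one]
      linarith)
  obtain ⟨h1, R', h2, h3, h4, -⟩ := hmain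
  have hr2 : 0 < (r ^ 2)⁻¹ := by positivity
  refine ⟨h1, ?_, fun l => (r ^ 2)⁻¹ * R' (l + sh r), ?_, ?_⟩
  · have h5 : NN (rs r E) (rs r I) (-3) = NN E I (-3 + sh r) := NN_shift E I hr2 (sh r) (-3)
    rw [h5]
    exact h4 t0 ⟨by rw [hlo', ht0']; linarith, le_rfl⟩
  · intro l hl
    have h5 := h2 (l + sh r) ⟨by rw [hlo]; linarith [hl.1], by rw [ht0]; linarith [hl.2]⟩
    exact mul_le_mul_of_nonneg_left h5 hr2.le
  · have h5 := FD.shift h3 hr2 (sh r)
    have h6 : lo - sh r = lm := by rw [hlo]; ring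
    have h7 : t0 - sh r = -3 := by rw [ht0]; ring
    rw [h6, h7] at h5
    exact FD.mono_eta h5 (min_le_left _ _) ((min_le_right _ _).trans (by norm_num))

end Crest.Agent.R234.Fd_534
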