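import Crest.Agent.R234.Fm9_281
import Crest.Agent.R234.Main2_456
import Crest.Agent.R234.Cy2_870

/-!
# Row 234, VF-FERMI (helper281), chart file 1: minimality in operator form

`P = κ† ∘ Du(π z) ∘ π`, `h v = (D_v P)† z`: `Msys u = 0` gives `tr ((1 + P† P)⁻¹ h) = 0` and the
derivative of this identity.
-/

set_option autoImplicit false

open Filter Topology Set
open Crest.GeometryTopology.Submanifold
open Crest.Agent.R234.Vf_884
open Crest.Agent.R234.Ar_870 (IsCo tl)
open Crest.Agent.R234.AS_456 (hp vp errA err AS)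
open Crest.Agent.R234.Ell1_3 (gop ginv gop_ginv ginv_gop)
open Crest.Agent.R234.Main_456 (Msys)
open scoped InnerProductSpace

noncomputable section

namespace Crest.Agent.R234.Fm_281

variable {m n k : ℕ}

/-- trace in a horizontal block -/
theorem tr_conj {π : Euc k →L[ℝ] Euc m} (hπ : IsCo π) (A : L m) :
    tr ((ContinuousLinearMap.adjoint π) ∘L A ∘L π : L k) = tr A := by
  rw [tr_apply, tr_apply]
  have h1 := LinearMap.trace_comp_comm' ((ContinuousLinearMap.adjoint π : Euc m →L[ℝ] Euc k) :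
    Euc m →ₗ[ℝ] Euc k) ((A ∘L π : Euc k →L[ℝ] Euc m) : Euc k →ₗ[ℝ] Euc m)
  refine h1.symm.trans ?_
  congr 1
  ext v
  have h2 : π (ContinuousLinearMap.adjoint π v) = v := congrArg (fun T : L m => T v) hπ
  change (A (π (ContinuousLinearMap.adjoint π v))) _ = _
  rw [h2]
  rfl

theorem isUnit_PP (P : L k) : IsUnit (1 + star P * P) := by
  have h := (det_one_add_pos P).ne'
  exact Ft_209.isUnit_of_det h

theorem ginv_symm' (q : Euc m →L[ℝ] Euc n) (x y : Euc m) :
    ⟪ginv q x, y⟫_ℝ = ⟪x, ginv q y⟫_ℝ := by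
  have e1 : gop q (ginv q x) = x := congrArg (fun T : L m => T x) (gop_ginv q)
  have e2 : gop q (ginv q y) = y := congrArg (fun T : L m => T y) (gop_ginv q)
  have h1 := Ell1_3.gop_inner q (ginv q x) (ginv q y)
  have h2 := Ell1_3.gop_inner q (ginv q y) (ginv q x)
  rw [e2] at h1
  rw [e1] at h2
  rw [h1, real_inner_comm, real_inner_comm (ginv q y) x, h2, real_inner_comm (ginv q x),
    real_inner_comm (q (ginv q x))]

section Inv

variable {π : Euc k →L[ℝ] Euc m} {κ : Euc k →L[ℝ] Euc n}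

theorem star_P (q : Euc m →L[ℝ] Euc n) (w : Euc k) :
    star ((ContinuousLinearMap.adjoint κ) ∘L q ∘L π : L k) w =
      ContinuousLinearMap.adjoint π (ContinuousLinearMap.adjoint q (κ w)) := by
  rw [star_def, ContinuousLinearMap.adjoint_comp, ContinuousLinearMap.adjoint_comp,
    ContinuousLinearMap.adjoint_adjoint]
  rfl

theorem inverse_PP (hπ : IsCo π) (hκ : IsCo κ) (q : Euc m →L[ℝ] Euc n) {P : L k}
    (hP : P = (ContinuousLinearMap.adjoint κ) ∘L q ∘L π) :
    Ring.inverse (1 + star P * P) =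
      (1 - hp π) + (ContinuousLinearMap.adjoint π) ∘L ginv q ∘L π := by
  have c1 : ∀ v, π (ContinuousLinearMap.adjoint π v) = v := fun v =>
    congrArg (fun T : L m => T v) hπ
  have c2 : ∀ v, κ (ContinuousLinearMap.adjoint κ v) = v := fun v =>
    congrArg (fun T : L n => T v) hκ
  set Y : L k := (1 - hp π) + (ContinuousLinearMap.adjoint π) ∘L ginv q ∘L π with hY
  have hYa : ∀ v, Y v = v - ContinuousLinearMap.adjoint π (π v) +
      ContinuousLinearMap.adjoint π (ginv q (π v)) := fun v => rfl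
  have hPa : ∀ v, (1 + star P * P) v = v + ContinuousLinearMap.adjoint π
      (ContinuousLinearMap.adjoint q (q (π v))) := by
    intro v
    change v + star P (P v) = _
    rw [hP, star_P]
    change v + ContinuousLinearMap.adjoint π (ContinuousLinearMap.adjoint q
      (κ (ContinuousLinearMap.adjoint κ (q (π v))))) = _
    rw [c2]
  have h1 : (1 + star P * P) * Y = 1 := by
    ext1 v
    change (1 + star P * P) (Y v) = v
    have e1 : π (Y v) = ginv q (π v) := by
      rw [hYa, map_add, map_sub, c1, c1, sub_self, zero_add]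
    have e2 : gop q (ginv q (π v)) = π v := congrArg (fun T : L m => T (π v)) (gop_ginv q)
    have e3 : gop q (ginv q (π v)) = ginv q (π v) +
      ContinuousLinearMap.adjoint q (q (ginv q (π v))) := rfl
    rw [hPa, e1, hYa, add_assoc, ← map_add, ← e3, e2]
    abel
  have h2 := Ring.inverse_mul_cancel _ (isUnit_PP P)
  calc Ring.inverse (1 + star P * P) = Ring.inverse (1 + star P * P) * ((1 + star P * P) * Y) := by
        rw [h1, mul_one]
    _ = Y := by rw [← mul_assoc, h2, one_mul]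

end Inv

/-- `v ↦ (B v)† w` -/
def hop (B : Euc k →L[ℝ] L k) (w : Euc k) : L k := ((starL k) ∘L B).flip w

theorem hop_apply (B : Euc k →L[ℝ] L k) (w v : Euc k) : hop B w v = star (B v) w := rfl

theorem inner_hop (B : Euc k →L[ℝ] L k) (w v x : Euc k) : ⟪hop B w v, x⟫_ℝ = ⟪w, B v x⟫_ℝ := by
  rw [hop_apply]
  exact ContinuousLinearMap.adjoint_inner_left (B v) x w

theorem star_hop {B : Euc k →L[ℝ] L k} (hB : ∀ v w, B v w = B w v) (w : Euc k) :
    star (hop B w) = hop B w := by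
  symm
  refine (ContinuousLinearMap.eq_adjoint_iff _ _).2 fun v x => ?_
  calc ⟪hop B w v, x⟫_ℝ = ⟪w, B v x⟫_ℝ := inner_hop B w v x
    _ = ⟪w, B x v⟫_ℝ := by rw [hB]
    _ = ⟪hop B w x, v⟫_ℝ := (inner_hop B w x v).symm
    _ = ⟪v, hop B w x⟫_ℝ := real_inner_comm _ _

section Min

variable {π : Euc k →L[ℝ] Euc m} {κ : Euc k →L[ℝ] Euc n}

/-- **minimality in operator form** -/
theorem min0_of (hπ : IsCo π) (hκ : IsCo κ) {q : Euc m →L[ℝ] Euc n}
    {B : Euc m →L[ℝ] Euc m →L[ℝ] Euc n}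
    (hM : ∑ i, B (stdVec m i) (ginv q (stdVec m i)) = 0) {P : L k}
    (hP : P = (ContinuousLinearMap.adjoint κ) ∘L q ∘L π) {B' : Euc k →L[ℝ] L k}
    (hB' : ∀ v, B' v = (ContinuousLinearMap.adjoint κ) ∘L (B (π v)) ∘L π) (z : Euc k) :
    tr (Ring.inverse (1 + star P * P) * hop B' z) = 0 := by
  have c1 : ∀ v, π (ContinuousLinearMap.adjoint π v) = v := fun v =>
    congrArg (fun T : L m => T v) hπ
  -- the horizontal block of `hop B' z`
  set S : L m := (((Ell1_3.adjL (F := Euc m) (V := Euc n)) ∘L B).flip (κ z)) with hS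
  have hSa : ∀ x, S x = ContinuousLinearMap.adjoint (B x) (κ z) := fun x => rfl
  have hha : ∀ v, hop B' z v = ContinuousLinearMap.adjoint π (S (π v)) := by
    intro v
    rw [hop_apply, hB', star_P, hSa]
  have e1 : Ring.inverse (1 + star P * P) * hop B' z =
      (ContinuousLinearMap.adjoint π) ∘L (ginv q ∘L S) ∘L π := by
    rw [inverse_PP hπ hκ q hP]
    ext1 v
    change (hop B' z v - ContinuousLinearMap.adjoint π (π (hop B' z v))) +
      ContinuousLinearMap.adjoint π (ginv q (π (hop B' z v))) = _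
    rw [hha, c1, sub_self, zero_add]
    rfl
  rw [e1, tr_conj hπ, tr_eq_sum]
  have e2 : ∀ i, ⟪stdVec m i, (ginv q ∘L S) (stdVec m i)⟫_ℝ =
      ⟪B (stdVec m i) (ginv q (stdVec m i)), κ z⟫_ℝ := by
    intro i
    change ⟪stdVec m i, ginv q (S (stdVec m i))⟫_ℝ = _
    rw [← ginv_symm', hSa, ContinuousLinearMap.adjoint_inner_right]
  rw [Finset.sum_congr rfl fun i _ => e2 i, ← sum_inner, hM, inner_zero_left]

end Min

/-- `hop` as a continuous linear map -/
def hopL (k : ℕ) : (Euc k →L[ℝ] L k) →L[ℝ] (Euc k →L[ℝ] L k) :=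
  ((ContinuousLinearMap.flipₗᵢ ℝ (Euc k) (Euc k)
    (Euc k)).toContinuousLinearEquiv.toContinuousLinearMap) ∘L
      (ContinuousLinearMap.compL ℝ (Euc k) (L k) (L k) (starL k))

theorem hopL_apply (B : Euc k →L[ℝ] L k) (w : Euc k) : hopL k B w = hop B w := rfl

/-- derivative of `w ↦ hop (P' w) w` -/
def dhop (B : Euc k →L[ℝ] L k) (B' : Euc k →L[ℝ] (Euc k →L[ℝ] L k)) (z : Euc k) :
    Euc k →L[ℝ] L k := hopL k B + ((hopL k) ∘L B').flip z

theorem dhop_apply (B : Euc k →L[ℝ] L k) (B' : Euc k →L[ℝ] (Euc k →L[ℝ] L k)) (z ζ : Euc k) :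
    dhop B B' z ζ = hop B ζ + hop (B' ζ) z := rfl

theorem lin_der {X Y E : Type*} [NormedAddCommGroup X] [NormedSpace ℝ X] [NormedAddCommGroup Y]
    [NormedSpace ℝ Y] [NormedAddCommGroup E] [NormedSpace ℝ E]
    (A : X →L[ℝ] Y) {f : E → X} {f' : E →L[ℝ] X} {z : E} (h : HasFDerivAt f f' z) :
    HasFDerivAt (fun w => A (f w)) (A ∘L f') z := A.hasFDerivAt.comp z h

theorem comp_der {X Y E : Type*} [NormedAddCommGroup X] [NormedSpace ℝ X] [NormedAddCommGroup Y]
    [NormedSpace ℝ Y] [NormedAddCommGroup E] [NormedSpace ℝ E]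
    {g : X → Y} {g' : X →L[ℝ] Y} {f : E → X} {f' : E →L[ℝ] X} {z : E}
    (hg : HasFDerivAt g g' (f z)) (h : HasFDerivAt f f' z) :
    HasFDerivAt (fun w => g (f w)) (g' ∘L f') z := hg.comp z h

theorem hasFDerivAt_hop {P' : Euc k → Euc k →L[ℝ] L k} {P'' : Euc k →L[ℝ] (Euc k →L[ℝ] L k)}
    {z : Euc k} (dP' : HasFDerivAt P' P'' z) :
    HasFDerivAt (fun w => hop (P' w) w) (dhop (P' z) P'' z) z := by
  have h1 : HasFDerivAt (fun w => hopL k (P' w)) ((hopL k) ∘L P'') z :=
    lin_der (X := Euc k →L[ℝ] L k) (Y := Euc k →L[ℝ] L k) (E := Euc k) (hopL k) dP'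
  have h2 := h1.clm_apply (hasFDerivAt_id z)
  exact h2

section Gen

variable {F : Type*} [NormedAddCommGroup F] [InnerProductSpace ℝ F] [CompleteSpace F]

theorem exists_dinv (u : (F →L[ℝ] F)ˣ) : ∃ D : (F →L[ℝ] F) →L[ℝ] (F →L[ℝ] F),
    HasFDerivAt (Ring.inverse : (F →L[ℝ] F) → (F →L[ℝ] F)) D ↑u ∧
      ∀ B, D B = -(↑u⁻¹ * B * ↑u⁻¹) :=
  ⟨_, hasFDerivAt_ringInverse (𝕜 := ℝ) u, fun _ => rfl⟩

end Gen

/-- the derivative of the minimality identity -/
theorem min1_of {P : Euc k → L k} {P' : Euc k → Euc k →L[ℝ] L k}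
    {P'' : Euc k →L[ℝ] (Euc k →L[ℝ] L k)} {z : Euc k} (dP : HasFDerivAt P (P' z) z)
    (dP' : HasFDerivAt P' P'' z)
    (h0 : ∀ᶠ w in 𝓝 z, tr (Ring.inverse (1 + star (P w) * P w) * hop (P' w) w) = 0)
    (ζ : Euc k) : tr (Ring.inverse (1 + star (P z) * P z) * dhop (P' z) P'' z ζ) =
      tr (Ring.inverse (1 + star (P z) * P z) *
        (star (P' z ζ) * P z + star (P z) * P' z ζ) *
        (Ring.inverse (1 + star (P z) * P z) * hop (P' z) z)) := by
  obtain ⟨u, hu⟩ := isUnit_PP (P z)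
  obtain ⟨D, d1, hD⟩ := exists_dinv u
  rw [hu] at d1
  have d2 : HasFDerivAt (fun w => Ring.inverse (1 + star (P w) * P w))
      (D ∘L dPP (P z) (P' z)) z :=
    comp_der (X := L k) (Y := L k) (E := Euc k) d1 (hasFDerivAt_PP dP)
  have d3 := lin_der (X := L k) (Y := ℝ) (E := Euc k) tr (d2.clm_comp (hasFDerivAt_hop dP'))
  have d4 : HasFDerivAt (fun w => tr (Ring.inverse (1 + star (P w) * P w) * hop (P' w) w))
      (0 : Euc k →L[ℝ] ℝ) z := by
    refine (hasFDerivAt_const (0:ℝ) z).congr_of_eventuallyEq ?_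
    filter_upwards [h0] with w hw
    exact hw
  have h5 := congrArg (fun T : Euc k →L[ℝ] ℝ => T ζ) (d3.unique d4)
  have hui : Ring.inverse (1 + star (P z) * P z) = ↑u⁻¹ := by rw [← hu, Ring.inverse_unit]
  have h6 : tr (Ring.inverse (1 + star (P z) * P z) * dhop (P' z) P'' z ζ +
      (D (dPP (P z) (P' z) ζ)) * hop (P' z) z) = 0 := h5
  rw [hD, map_add, neg_mul, map_neg, ← hui, dPP_apply] at h6
  rw [← mul_assoc]
  linarith

end Crest.Agent.R234.Fm_281
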