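import Crest.Agent.R234.Fin9_618

/-!
# Row 234, F3 (helper618), (FIN), part 10: **`fin : LEP m n k Q → F3P1 m n k Q`**
-/

set_option autoImplicit false
set_option maxSynthPendingDepth 3

open Set Filter Topology MeasureTheory Metric Function
open Crest.GeometryTopology.Submanifold
open Crest.Agent.R234.Vf_884 Crest.Agent.R234.Ar_870 Crest.Agent.R234.GL_394
open Crest.Agent.R234.Main_456 (Frame Msys)
open Crest.Agent.R234.Gi_456 (Gr tube foot ch)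
open Crest.Agent.R234.F36_354 (LEP F3P1)
open scoped ENNReal NNReal ContDiff InnerProductSpace

noncomputable section

namespace Crest.Agent.R234.Fin_618

variable {m n k : ℕ}

/-- **(FIN)**: the integral estimate at the scale 1 from the local estimates -/
theorem fin (hm : 1 ≤ m) {Q : ℕ} (hLEP : LEP m n k Q) : F3P1 m n k Q := by
  intro Λ hΛ
  obtain ⟨c₀, CL, C₁, hc00, hc01, hCL, hC₁, hLE⟩ := lep_at hLEP
  obtain ⟨κ₁, hκ₁, hκ₁4, Ct, hCt, hTV⟩ := tv1 hm n Q hΛ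
  have home := ome_pos m
  have hmR : (1 : ℝ) ≤ m := by exact_mod_cast hm
  obtain ⟨cE1, cE2, cE3, cE4⟩ := CE_ge m
  have hCW := CW_pos m
  have hC2 := Kern2_332.C2_pos m
  have hX : 0 ≤ Ct * (CE m + 1) := by positivity
  obtain ⟨C, hC⟩ : ∃ C : ℝ, C = CL + CE m + Ct * (CE m + 1) + CW m + Kern2_332.C2 m +
    (2 * m + CE m) := ⟨_, rfl⟩
  have hC1 : 1 ≤ C := by linarith
  have hCCL : CL ≤ C := by linarith
  have hCCE : CE m ≤ C := by linarith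
  have hCCt : Ct * (CE m + 1) ≤ C := by linarith
  have hCCW : CW m ≤ C := by linarith
  have hCC2 : Kern2_332.C2 m ≤ C := by linarith
  have hCCm : 2 * m + CE m ≤ C := by linarith
  clear hC
  have hC3 := C3_ge (m := m) hC1
  refine ⟨C3 m C, hC3, ?_⟩
  intro a C' ha hC'
  obtain ⟨p, hp⟩ : ∃ p : ℝ, p = a * (C + 1) + C' + 2 + C₁ := ⟨_, rfl⟩
  have haC : 0 ≤ a * (C + 1) := by positivity
  have hpC₁ : C₁ ≤ p := by linarith
  obtain ⟨D₀, hD₀, hD₀1, hLE⟩ := hLE (p * (m + 2) + C' + 1)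
  obtain ⟨Kc, hKc⟩ : ∃ Kc : ℝ, Kc = C3 m C * (C + 1) := ⟨_, rfl⟩
  have hKc1 : 1 ≤ Kc := by rw [hKc]; nlinarith
  obtain ⟨δ, hδ⟩ : ∃ δ : ℝ, δ = min c₀ (min D₀ (ome m / (4096 * 64 ^ m))) := ⟨_, rfl⟩
  have hδ0 : 0 < δ := by rw [hδ]; exact lt_min hc00 (lt_min hD₀ (by positivity))
  have hδc : δ ≤ c₀ := by rw [hδ]; exact min_le_left _ _
  have hδD : δ ≤ D₀ := by rw [hδ]; exact (min_le_right _ _).trans (min_le_left _ _)
  have hδo : δ ≤ ome m / (4096 * 64 ^ m) := by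
    rw [hδ]; exact (min_le_right _ _).trans (min_le_right _ _)
  clear hδ
  obtain ⟨H0, hH0, hH01, hnum⟩ := num (C := C) (a := a) (C' := C') hC1 ha.le hC'.le m (K := Kc)
    (by linarith) (p := p) (Cs := p * (m + 2) + C' + 1) (by linarith) le_rfl hδ0
  refine ⟨min c₀ (min κ₁ (1 / (6 * m))), H0, lt_min hc00 (lt_min hκ₁ (by positivity)), hH0, hH01, ?_⟩
  intro π ρ x w X0 κ ε H U K Dd g hf hUo hD hst hw hwc hκ0 hκ hd hε0 hε1 hms hball hL hnu hTh hM1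
    hM2 hH hHH0 hεH hHint hg0 hg1 hgz hgL
  have hκc : κ ≤ c₀ := hκ.trans (min_le_left _ _)
  have hκ1 : κ ≤ κ₁ := hκ.trans ((min_le_right _ _).trans (min_le_left _ _))
  have hκ6 : 6 * m * κ ≤ 1 := by
    have h1 : κ ≤ 1 / (6 * m) := hκ.trans ((min_le_right _ _).trans (min_le_right _ _))
    rw [le_div_iff₀ (by positivity)] at h1
    linarith
  have hκ4 : κ ≤ 1 / 4 := hκ1.trans hκ₁4
  obtain ⟨L, hLd⟩ : ∃ L : ℝ, L = Real.log (1 / H) := ⟨_, rfl⟩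
  obtain ⟨t, ht⟩ : ∃ t : ℝ, t = L ^ (-p) := ⟨_, rfl⟩
  obtain ⟨D, hDd⟩ : ∃ D : ℝ, D = C * H / t ^ (m + 2) := ⟨_, rfl⟩
  obtain ⟨n1, n2, n3, n4, n5, n6, n7, n8, n9, -, n11, -, -, n14⟩ := hnum H hH hHH0 t D L hLd ht hDd
  rw [← hLd] at hεH ⊢
  have ht1 : t ≤ 1 := by linarith
  obtain ⟨hM3, hM4⟩ := num2 (m := m) hC1 hC'.le hKc1 hH n2 n1 hDd hεH n11
  obtain ⟨q1, q2, q3, q4⟩ := num4 hm hC1 hH n2 ht1 hDd n6 n8.le (n7.trans hδc) hM4
  have htΛ := num3 hC1 hC₁ hpC₁ hH n1 hLd ht hDd n2 ht1 n6 n8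
  have hCt2 : C * t ≤ ε / 100 := n5.trans (by gcongr)
  have hsH := small_H (m := m) hCCm hC1 hε0 hε1 hH q4 (n7.trans hδo)
  obtain ⟨hCM, hHC⟩ := CE_le (m := m) hCCE hε0 hε1 hH
  have hHM : H ≤ C * ε ^ (-C) * H := by
    refine le_trans ?_ hCM
    refine hHC.trans ?_
    rw [mul_assoc]
    exact le_mul_of_one_le_left (hH.le.trans hHC) cE4
  -- the chart
  have hsub : K ⊆ tube π ρ x 1 w := hL.sub.trans inter_subset_left
  have hOk : Ok (ch π ρ x 1 w X0) K univ := (hw.reg hf X0).ok hL.cpt hsub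
  have hOn : On (VK (VD Dd) K) m K := hL.toOn
  have hy := hy_of (b := 1) hf hw hκ0 hκ4 hd le_rfl (by linarith) hε1 hms hsub hnu
  have htau : ∀ p ∈ K ×ˢ G m k, 0 ≤ (ch π ρ x 1 w X0).tau p.1 p.2 := fun p hp => hy.tau_nonneg hp
  have hHs : Fin3_471.Hs U K (VD Dd) π ρ x w X0 ε H :=
    ⟨hm, hf, hw, hε0, hε1, hL, hms, hnu, hTh, hHint⟩
  obtain ⟨hgt, hen⟩ := h12 hHs hH hsH hκ0 hκ6 (hd 2 (by norm_num) (by norm_num)) htau
  have hint2 : ∫ p in {z | ‖(ch π ρ x 1 w X0).x z‖ ≤ 1 + ε / 2} ×ˢ univ,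
      2 * (ch π ρ x 1 w X0).f p.1 ∂(VK (VD Dd) K) ≤ H := by
    refine ((dn_f (m := m) hOk).mono hOk hOn (Eventually.of_forall fun p hp => ?_)).trans hHint
    refine ⟨?_, trivial⟩
    have h1 : ‖(ch π ρ x 1 w X0).x p.1‖ ≤ 1 + ε / 2 := hp.1
    show ‖(ch π ρ x 1 w X0).x p.1‖ < 1 + ε
    linarith
  obtain ⟨e, hefin, hei, hem⟩ := hTV hf hD hw hκ0 hκ1 hd hε0 hε1 hms hL hnu hM1 hM2
  have heM := hem.trans (e_mass hOk hOn htau hCt hCCt hCCm hε0 hε1 hH hen hint2)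
  have key := fin_at hLE hCL hCCL hCC2 hCCW hf hUo hD hst hw hwc hκ0 hκc (by linarith) hd n2 n4
    (n3.trans hδc) hCt2 hε1 hms hball hL htau
    (hgt.mono fun p hp hx => (hp hx).trans (hCM.trans q1)) n6 (n7.trans hδD) n9 htΛ
    (hint2.trans q3) (hint2.trans hHM) (hen.trans hCM) q2 hefin hei heM hg0 hg1 hgz hgL
  refine key.trans ?_
  exact num5 hKc hC3 hC1 hM3 (by rw [mul_comm]; exact n14)

end Crest.Agent.R234.Fin_618
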