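import Crest.Agent.R234.Top7_395
import Crest.Agent.R234.Nr1_884
import Crest.Agent.R234.F9c5_947

/-!
# Row 234 (helper395): at a singular point no plane has small height excess at a fixed scale
-/

set_option autoImplicit false

open MeasureTheory Filter Topology Set
open scoped ENNReal NNReal
open Crest.GeometryTopology.Submanifold Crest.Agent.R234.Vf_884
open Crest.Agent.R234.Strat3_842 (tilt height)
open Crest.Agent.R234.AS_456 (hp vp)
open Crest.Agent.R234.Main_456 Crest.Agent.R234.Top_395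

noncomputable section

namespace Crest.Agent.R234.End_395

theorem pex_low {m n : ℕ} (hm : 1 ≤ m) {U : Set (Euc (m + n))} {D : VarifoldData m (m + n)}
    (hU : IsOpen U) (hD : IsIntegralVarifoldIn U D) (hst : IsStationaryIn U D) {x : Euc (m + n)}
    (hx : x ∈ singularSet m (m + n) U D) {Q : ℕ} (hQ : 1 ≤ Q)
    (hTh : Th m (VD D) x = (Q : ℝ≥0∞)) {r : ℝ} (hr : 0 < r)
    (hball : Metric.closedBall x r ⊆ U) :
    ∃ c : ℝ, 0 < c ∧ ∀ P ∈ G m (m + n),
      c ≤ ∫ p in Metric.ball x r ×ˢ univ, height P x p ∂(VD D) := by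
  obtain ⟨c, hc, H⟩ := sep_pos (F9c_947.f9c hm) (n := n) hU hm hD hst hx hQ hTh hr hball
    (κ := 0) le_rfl
  refine ⟨c, hc, ?_⟩
  intro P hP
  obtain ⟨π, ρ, hf, rfl⟩ := exists_frame rfl hP
  have h1 := H π ρ hf (fun _ => 0) (fun _ => 0) (fun w _ => hasFDerivAt_const _ _) (by simp)
    (fun w _ => by simp) (fun w _ w' _ => by simp)
  rw [← Top_395.prod_eq] at h1
  refine h1.trans (le_of_eq (integral_congr_ae (Eventually.of_forall fun p => ?_)))
  show ‖hgt π ρ x r (fun _ => 0) p.1‖ ^ 2 = ‖(p.1 - x) - hp π (p.1 - x)‖ ^ 2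
  have h2 : ‖((1 : Vf_884.L (m + n)) - hp π) (p.1 - x)‖ = ‖ρ (p.1 - x)‖ :=
    Nr_884.norm_compl_hp hf _
  have h3 : (p.1 - x) - hp π (p.1 - x) = ((1 : Vf_884.L (m + n)) - hp π) (p.1 - x) := by
    simp
  rw [h3, h2]
  unfold hgt
  rw [smul_zero, sub_zero]

end Crest.Agent.R234.End_395
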