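import Crest.Agent.R234.Th4_164

/-!
Row 234, VF-THETA part 5 (helper164): summed inequalities, existence of the integer at one scale.
-/

set_option autoImplicit false

open Set Filter Topology MeasureTheory Metric
open scoped ENNReal NNReal ContDiff

noncomputable section

namespace Crest.Agent.R234.Th_164

variable {d : ℕ}

/-- Vitali: a measure which is at most `K (6ρ)^d` on `ball x (6ρ)` for one bad radius `ρ` at every bad point. -/
theorem measure_bad_le {δ₁ ρ₀ K : ℝ} (hδ : 0 < δ₁) (hK : 0 < K) {es ν : Measure (Eu d)} {B : Set (Eu d)}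
    (h : ∀ x ∈ Bad δ₁ ρ₀ es B, ∃ ρ, 0 < ρ ∧ ρ ≤ ρ₀ ∧ ENNReal.ofReal (δ₁ * ρ ^ d) < es (ball x ρ) ∧
      ν (ball x (6 * ρ)) ≤ ENNReal.ofReal (K * (6 * ρ) ^ d)) :
    ν (Bad δ₁ ρ₀ es B) ≤ ENNReal.ofReal (6 ^ d * K / δ₁) * es (⋃ x ∈ B, closedBall x ρ₀) := by
  classical
  choose! ρ h1 h2 h3 h4 using h
  have h5 : ENNReal.ofReal (δ₁ / (6 ^ d * K)) * ν (Bad δ₁ ρ₀ es B) ≤
      es (⋃ x ∈ B, closedBall x ρ₀) := by
    refine Vit_534.compare' ν es (Bad δ₁ ρ₀ es B) _ ρ ρ₀ h2 h1 _ ?_ ?_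
    · intro x hx
      have hsub : closedBall x (5 * ρ x) ⊆ ball x (6 * ρ x) :=
        closedBall_subset_ball (by linarith [h1 x hx])
      calc ENNReal.ofReal (δ₁ / (6 ^ d * K)) * ν (closedBall x (5 * ρ x))
          ≤ ENNReal.ofReal (δ₁ / (6 ^ d * K)) * ENNReal.ofReal (K * (6 * ρ x) ^ d) := by
            gcongr
            exact (measure_mono hsub).trans (h4 x hx)
        _ = ENNReal.ofReal (δ₁ * ρ x ^ d) := by
            rw [← ENNReal.ofReal_mul (by positivity), mul_pow]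
            congr 1
            field_simp
        _ ≤ es (ball x (ρ x)) := (h3 x hx).le
        _ ≤ es (closedBall x (ρ x)) := measure_mono ball_subset_closedBall
    · intro x hx
      refine (closedBall_subset_closedBall (h2 x hx)).trans ?_
      exact subset_biUnion_of_mem (u := fun x => closedBall x ρ₀) hx.1
  have h6 : ENNReal.ofReal (6 ^ d * K / δ₁) * ENNReal.ofReal (δ₁ / (6 ^ d * K)) = 1 := by
    rw [← ENNReal.ofReal_mul (by positivity)]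
    rw [show 6 ^ d * K / δ₁ * (δ₁ / (6 ^ d * K)) = 1 by field_simp, ENNReal.ofReal_one]
  calc ν (Bad δ₁ ρ₀ es B) = ENNReal.ofReal (6 ^ d * K / δ₁) *
        (ENNReal.ofReal (δ₁ / (6 ^ d * K)) * ν (Bad δ₁ ρ₀ es B)) := by
          rw [← mul_assoc, h6, one_mul]
    _ ≤ _ := by gcongr

/-- the summed inequalities from the conclusions of `cover`. -/
theorem sums {Q : ℕ} {ε δ₁ C₁ c₀ g : ℝ} (hε : 0 < ε) (hδ1 : 0 < δ₁) {R : Set (Eu d)} {N : Eu d → ℝ}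
    {μ e es G : Measure (Eu d)} (H : Hyp C₁ c₀ g R N μ e es G) {B : Set (Eu d)} {ρ₀ : ℝ}
    (hρ0 : 0 < ρ₀) (hBR : ∀ x ∈ B, ball x (8 * ρ₀) ⊆ R)
    (h1 : ∀ᵐ x, x ∈ B → x ∉ Bad δ₁ ρ₀ es B → N x = Q)
    (h2 : ∀ x ∈ Bad δ₁ ρ₀ es B, ∃ ρ, 0 < ρ ∧ ρ ≤ ρ₀ ∧ ENNReal.ofReal (δ₁ * ρ ^ d) < es (ball x ρ) ∧
            (∀ r, 3 * ρ ≤ r → r ≤ 8 * ρ₀ → es (ball x r) ≤ ENNReal.ofReal (δ₁ * r ^ d) ∧
              ∫ y in ball x r, |N y - Q| ≤ 4 ^ d * ε * r ^ d ∧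
              μ (ball x r) ≤ ENNReal.ofReal (2 * (Q * om d + 4 ^ d * ε + 1) * r ^ d))) :
    volume (Bad δ₁ ρ₀ es B) ≤
      ENNReal.ofReal (6 ^ d * om d / δ₁) * es (⋃ x ∈ B, closedBall x ρ₀) ∧
    μ (Bad δ₁ ρ₀ es B) ≤
      ENNReal.ofReal (6 ^ d * (2 * (Q * om d + 4 ^ d * ε + 1)) / δ₁) *
        es (⋃ x ∈ B, closedBall x ρ₀) ∧
    (MeasurableSet B → ∫⁻ y in B, ENNReal.ofReal |N y - Q| ≤
      ENNReal.ofReal (6 ^ d * (4 ^ d * ε) / δ₁) * es (⋃ x ∈ B, closedBall x ρ₀)) := by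
  have hom := om_pos d
  have hQn : (0 : ℝ) ≤ Q := Nat.cast_nonneg Q
  refine ⟨?_, ?_, ?_⟩
  · refine measure_bad_le hδ1 hom fun x hx => ?_
    obtain ⟨ρ, k1, k2, k3, -⟩ := h2 x hx
    refine ⟨ρ, k1, k2, k3, ?_⟩
    rw [← vol_ball x (by positivity : 0 < 6 * ρ), measureReal_def,
      ENNReal.ofReal_toReal measure_ball_lt_top.ne]
  · refine measure_bad_le hδ1 (by positivity) fun x hx => ?_
    obtain ⟨ρ, k1, k2, k3, k4⟩ := h2 x hx
    exact ⟨ρ, k1, k2, k3, (k4 (6 * ρ) (by linarith) (by linarith)).2.2⟩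
  · intro hB
    set ν : Measure (Eu d) := (volume.restrict R).withDensity fun y => ENNReal.ofReal |N y - Q| with hν
    have h3 : ν (Bad δ₁ ρ₀ es B) ≤
        ENNReal.ofReal (6 ^ d * (4 ^ d * ε) / δ₁) * es (⋃ x ∈ B, closedBall x ρ₀) := by
      refine measure_bad_le hδ1 (by positivity) fun x hx => ?_
      obtain ⟨ρ, k1, k2, k3, k4⟩ := h2 x hx
      refine ⟨ρ, k1, k2, k3, ?_⟩
      have hRr : ball x (6 * ρ) ⊆ R := (ball_subset_ball (by linarith)).trans (hBR x hx.1)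
      have hNb := H.int.mono_set hRr
      have hQi : IntegrableOn (fun _ : Eu d => (Q : ℝ)) (ball x (6 * ρ)) :=
        integrableOn_const measure_ball_lt_top.ne
      have hNQ : IntegrableOn (fun y => |N y - (Q : ℝ)|) (ball x (6 * ρ)) := (hNb.sub hQi).abs
      rw [hν, withDensity_apply _ measurableSet_ball, Measure.restrict_restrict measurableSet_ball,
        inter_eq_left.2 hRr, ← ofReal_integral_eq_lintegral_ofReal hNQ
          (Eventually.of_forall fun y => abs_nonneg _)]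
      exact ENNReal.ofReal_le_ofReal (k4 (6 * ρ) (by linarith) (by linarith)).2.1
    refine le_trans ?_ h3
    -- `N = Q` off the bad set
    have hsub : ∀ᵐ y ∂(volume : Measure (Eu d)), B.indicator (fun y => ENNReal.ofReal |N y - Q|) y ≤
        (toMeasurable ν (Bad δ₁ ρ₀ es B) ∩ R).indicator (fun y => ENNReal.ofReal |N y - Q|) y := by
      filter_upwards [h1] with y hy
      by_cases hyB : y ∈ B
      · have hyR : y ∈ R := hBR y hyB (mem_ball_self (by positivity))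
        rw [Set.indicator_of_mem hyB]
        by_cases hbad : y ∈ Bad δ₁ ρ₀ es B
        · have hmem : y ∈ toMeasurable ν (Bad δ₁ ρ₀ es B) ∩ R := ⟨subset_toMeasurable _ _ hbad, hyR⟩
          rw [Set.indicator_of_mem hmem]
        · rw [hy hyB hbad]
          simp
      · rw [Set.indicator_of_notMem hyB]
        exact bot_le
    calc ∫⁻ y in B, ENNReal.ofReal |N y - Q|
        = ∫⁻ y, B.indicator (fun y => ENNReal.ofReal |N y - Q|) y := (lintegral_indicator hB _).symm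
      _ ≤ ∫⁻ y, (toMeasurable ν (Bad δ₁ ρ₀ es B) ∩ R).indicator (fun y => ENNReal.ofReal |N y - Q|) y :=
          lintegral_mono_ae hsub
      _ = ∫⁻ y in toMeasurable ν (Bad δ₁ ρ₀ es B) ∩ R, ENNReal.ofReal |N y - Q| :=
          lintegral_indicator ((measurableSet_toMeasurable _ _).inter H.isOpen.measurableSet) _
      _ = ν (toMeasurable ν (Bad δ₁ ρ₀ es B)) := by
          rw [hν, withDensity_apply _ (measurableSet_toMeasurable _ _),
            Measure.restrict_restrict (measurableSet_toMeasurable _ _)]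
      _ = ν (Bad δ₁ ρ₀ es B) := measure_toMeasurable _

/-- **VF-THETA, summed form** -/
theorem summed {C : ℝ} (hSC : SC2 d C) (Q : ℕ) {C₁ : ℝ} (hC₁ : 0 ≤ C₁) {ε : ℝ} (hε : 0 < ε) (hε1 : ε ≤ 1)
    (hεω : ε * (1 + 4 ^ d) < om d) :
    ∃ c₁ : ℝ, 0 < c₁ ∧ c₁ ≤ 1 / 2 ∧ ∃ δ₁ : ℝ, 0 < δ₁ ∧ δ₁ ≤ 1 ∧
      ∀ (c₀ g : ℝ) (R : Set (Eu d)) (N : Eu d → ℝ) (μ e es G : Measure (Eu d)),
        0 ≤ c₀ → c₀ ≤ c₁ → 0 ≤ g → Hyp C₁ c₀ g R N μ e es G →
        ∀ (B : Set (Eu d)) (ρ₀ : ℝ), 0 < ρ₀ → g * (8 * ρ₀) ≤ δ₁ → (∀ x ∈ B, ball x (8 * ρ₀) ⊆ R) →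
          (∀ x ∈ B, ∫ y in ball x (8 * ρ₀), |N y - Q| ≤ ε * ρ₀ ^ d) →
          (∀ x ∈ B, es (ball x (8 * ρ₀)) ≤ ENNReal.ofReal (δ₁ * ρ₀ ^ d)) →
          volume (Bad δ₁ ρ₀ es B) ≤
            ENNReal.ofReal (6 ^ d * om d / δ₁) * es (⋃ x ∈ B, closedBall x ρ₀) ∧
          μ (Bad δ₁ ρ₀ es B) ≤
            ENNReal.ofReal (6 ^ d * (2 * (Q * om d + 4 ^ d * ε + 1)) / δ₁) *
              es (⋃ x ∈ B, closedBall x ρ₀) ∧
          (MeasurableSet B → ∫⁻ y in B, ENNReal.ofReal |N y - Q| ≤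
            ENNReal.ofReal (6 ^ d * (4 ^ d * ε) / δ₁) * es (⋃ x ∈ B, closedBall x ρ₀)) := by
  obtain ⟨c₁, hc1, hc1', δ₁, hδ1, hδ1', hT⟩ := cover hSC Q hC₁ hε hε1 hεω
  refine ⟨c₁, hc1, hc1', δ₁, hδ1, hδ1', ?_⟩
  intro c₀ g R N μ e es G hc0 hc01 hg0 H B ρ₀ hρ0 hgρ hBR hQ hes
  obtain ⟨h1, h2⟩ := hT c₀ g R N μ e es G hc0 hc01 hg0 H B ρ₀ hρ0 hgρ hBR hQ hes
  exact sums hε hδ1 H hρ0 hBR h1 h2

/-- at one scale with small tilt energy the multiplicity function is close to an integer (which replaces the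
integrality theorem for nearly flat varifolds). -/
theorem exists_integer {C : ℝ} (hSC : SC2 d C) {C₁ c₀ g : ℝ} (hC₁ : 0 ≤ C₁) {R : Set (Eu d)}
    {N : Eu d → ℝ} {μ e es G : Measure (Eu d)} (H : Hyp C₁ c₀ g R N μ e es G) {x : Eu d} {r M δ : ℝ}
    (hr : 0 < r) (hδ : 0 ≤ δ) (hδM : δ ≤ M) (hR : ball x (4 * r) ⊆ R)
    (hA : ∫ y in ball x (4 * r), N y ≤ M)
    (hE : ENNReal.ofReal C₁ * e (ball x (4 * r)) ≤ ENNReal.ofReal δ)
    (hG : G (ball x (4 * r)) ≤ ENNReal.ofReal (δ / r)) :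
    ∃ k : ℕ, ∫ y in ball x r, |N y - k| ≤ 4 * (C * Real.sqrt (M * δ)) := by
  obtain ⟨c, hc⟩ := H.constancy hSC hC₁ hr hδ hδM hR hA hE hG
  have hsub : ball x r ⊆ R := (ball_subset_ball (by linarith)).trans hR
  exact exists_nat_close measurableSet_ball H.meas (H.int.mono_set hsub) measure_ball_lt_top.ne
    (ae_mono (Measure.restrict_mono hsub le_rfl) H.nat) hc

end Crest.Agent.R234.Th_164
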