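import Crest.Agent.R234.F34_354
import Crest.Agent.R234.Th5_164

/-!
# Row 234, F3 (helper618), (FIN): from the local estimates to the integral estimate

`fin` : abstract form (measures on `Euc m`).
-/

set_option autoImplicit false

open Set Filter Topology MeasureTheory Metric Function
open scoped ENNReal NNReal

noncomputable section

namespace Crest.Agent.R234.Fin_618

open Crest.Agent.R234.F31_354 Crest.Agent.R234.F34_354
open Crest.Agent.R234.Th_164 (om vol_ball om_pos)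

variable {m : ℕ}

/-- powers beat by the exponential -/
theorem ev_exp (a b : ℝ) (hb : 0 < b) {δ : ℝ} (hδ : 0 < δ) :
    ∀ᶠ L : ℝ in atTop, L ^ a * Real.exp (-b * L) ≤ δ := by
  have h1 := tendsto_rpow_mul_exp_neg_mul_atTop_nhds_zero a b hb
  exact (h1.eventually (ge_mem_nhds hδ)).mono fun L hL => hL

/-- negative powers tend to zero -/
theorem ev_pow {a : ℝ} (ha : 0 < a) {δ : ℝ} (hδ : 0 < δ) : ∀ᶠ L : ℝ in atTop, L ^ (-a) ≤ δ :=
  ((tendsto_rpow_neg_atTop ha).eventually (ge_mem_nhds hδ)).mono fun L hL => hL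

/-- **numbers** -/
theorem num {C a C' : ℝ} (hC : 1 ≤ C) (ha : 0 ≤ a) (hC' : 0 ≤ C') (m : ℕ) {K : ℝ} (hK : 0 < K)
    {p Cs : ℝ} (hp : a * (C + 1) + C' + 2 ≤ p) (hCs : p * (m + 2) + C' + 1 ≤ Cs) {D0 : ℝ}
    (hD0 : 0 < D0) :
    ∃ H0 : ℝ, 0 < H0 ∧ H0 < 1 ∧ ∀ H, 0 < H → H ≤ H0 → ∀ t D L : ℝ, L = Real.log (1 / H) →
      t = L ^ (-p) → D = C * H / t ^ (m + 2) →
      1 ≤ L ∧ 0 < t ∧ t ≤ D0 ∧ t ≤ 1 / 100 ∧ C * t ≤ L ^ (-a) / 100 ∧ 0 < D ∧ D ≤ D0 ∧ D < 1 ∧
      D ≤ t ∧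
      C * (t ^ (-C) * H) ^ (1 / C) / t ≤ D0 ∧
      -- error terms
      (L ^ (-a)) ^ (-C) * t ≤ L ^ (-C') / K ∧
      (L ^ (-a)) ^ (-C) * (C * (t ^ (-C) * H) ^ (1 / C)) ≤ L ^ (-C') / K ∧
      (L ^ (-a)) ^ (-C) * (C * (t ^ (-C) * H) ^ (1 / C) / t) ^ 2 ≤ L ^ (-C') / K ∧
      D * Real.log (1 / D) ^ (-Cs) ≤ L ^ (-C') / K * H := by
  have hp0 : 0 < p := by nlinarith
  have hp2 : a + 1 ≤ p := by nlinarith
  have hC0 : 0 < C := by linarith
  -- the conditions, eventually in L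
  have ev : ∀ᶠ L : ℝ in atTop, 1 ≤ L ∧ L ^ (-p) ≤ D0 ∧ L ^ (-p) ≤ 1 / 100 ∧
      L ^ (-(1 : ℝ)) ≤ 1 / (100 * C) ∧
      L ^ (p * (m + 2)) * Real.exp (-(1 / 2) * L) ≤ 1 / C ∧
      L ^ (p * (m + 2)) * Real.exp (-1 * L) ≤ D0 / C ∧
      L ^ (2 * p) * Real.exp (-(1 / C) * L) ≤ D0 / C ∧
      L ^ (-(1 : ℝ)) ≤ 1 / K ∧
      L ^ (a * C + p + C') * Real.exp (-(1 / C) * L) ≤ 1 / (K * C) ∧
      L ^ (a * C + 4 * p + C') * Real.exp (-(2 / C) * L) ≤ 1 / (K * C ^ 2) ∧
      L ^ (-(1 : ℝ)) ≤ 1 / (K * C * (2 : ℝ) ^ Cs) ∧ Real.exp (-(1 / 2) * L) ≤ 1 / 2 ∧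
      L ^ p * Real.exp (-(1 / 2) * L) ≤ 1 := by
    refine (eventually_ge_atTop 1).and ((ev_pow hp0 hD0).and ((ev_pow hp0 (by norm_num)).and
      ((ev_pow one_pos (by positivity)).and ((ev_exp _ _ (by norm_num) (by positivity)).and
      ((ev_exp _ _ one_pos (by positivity)).and ((ev_exp _ _ (by positivity) (by positivity)).and
      ((ev_pow one_pos (by positivity)).and ((ev_exp _ _ (by positivity) (by positivity)).and
      ((ev_exp _ _ (by positivity) (by positivity)).and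
      ((ev_pow one_pos (by positivity)).and (Eventually.and ?_
        (ev_exp _ _ (by norm_num) one_pos))))))))))))
    have h1 := ev_exp 0 (1 / 2) (by norm_num) (show (0 : ℝ) < 1 / 2 by norm_num)
    filter_upwards [h1] with L hL
    rwa [Real.rpow_zero, one_mul] at hL
  obtain ⟨L0, hL0⟩ := eventually_atTop.1 ev
  refine ⟨Real.exp (-(max L0 1)), Real.exp_pos _, by
    rw [Real.exp_lt_one_iff]; have := le_max_right L0 1; linarith, ?_⟩
  intro H hH0 hH t D L hL ht hD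
  have hLH : H = Real.exp (-L) := by
    rw [hL, one_div, Real.log_inv, neg_neg, Real.exp_log hH0]
  have hLL : L0 ≤ L := by
    have h1 : Real.exp (-L) ≤ Real.exp (-(max L0 1)) := by rw [← hLH]; exact hH
    have h2 := Real.exp_le_exp.1 h1
    have := le_max_left L0 1
    linarith
  obtain ⟨e1, e2, e3, e4, e5, e6, e7, e8, e9, e10, e11, e12, e13⟩ := hL0 L hLL
  have hL0' : 0 < L := by linarith
  have ht0 : 0 < t := by rw [ht]; exact Real.rpow_pos_of_pos hL0' _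
  have hLp : ∀ x : ℝ, 0 < L ^ x := fun x => Real.rpow_pos_of_pos hL0' x
  have htm : t ^ (m + 2) = L ^ (-(p * (m + 2))) := by
    rw [ht, ← Real.rpow_natCast, ← Real.rpow_mul hL0'.le]
    congr 1
    push_cast
    ring
  have hDL : D = C * (L ^ (p * (m + 2)) * Real.exp (-L)) := by
    rw [hD, htm, Real.rpow_neg hL0'.le, hLH]
    field_simp
  have hDpos : 0 < D := by rw [hDL]; have := hLp (p * (m + 2)); positivity
  have hDhalf : D ≤ Real.exp (-(1 / 2) * L) := by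
    have h1 : Real.exp (-L) = Real.exp (-(1 / 2) * L) * Real.exp (-(1 / 2) * L) := by
      rw [← Real.exp_add]; congr 1; ring
    rw [hDL, h1]
    have h2 : C * (L ^ (p * (m + 2)) * (Real.exp (-(1 / 2) * L) * Real.exp (-(1 / 2) * L))) =
        (C * (L ^ (p * (m + 2)) * Real.exp (-(1 / 2) * L))) * Real.exp (-(1 / 2) * L) := by ring
    rw [h2]
    have h3 : C * (L ^ (p * (m + 2)) * Real.exp (-(1 / 2) * L)) ≤ 1 := by
      calc C * (L ^ (p * (m + 2)) * Real.exp (-(1 / 2) * L)) ≤ C * (1 / C) := by gcongr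
        _ = 1 := by field_simp
    exact mul_le_of_le_one_left (Real.exp_pos _).le h3
  have hΛ : L / 2 ≤ Real.log (1 / D) := by
    rw [one_div, Real.log_inv]
    have h1 : Real.log D ≤ -(1 / 2) * L := by
      rw [← Real.log_exp (-(1 / 2) * L)]
      exact Real.log_le_log hDpos hDhalf
    linarith
  have hE : (L ^ (-a)) ^ (-C) = L ^ (a * C) := by
    rw [← Real.rpow_mul hL0'.le]; congr 1; ring
  have hh : C * (t ^ (-C) * H) ^ (1 / C) = C * (L ^ p * Real.exp (-(1 / C) * L)) := by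
    rw [Real.mul_rpow (Real.rpow_nonneg ht0.le _) hH0.le, ← Real.rpow_mul ht0.le, ht,
      ← Real.rpow_mul hL0'.le, hLH, ← Real.exp_mul]
    congr 2
    · congr 1
      field_simp
    · congr 1
      ring
  have hht : C * (t ^ (-C) * H) ^ (1 / C) / t = C * (L ^ (2 * p) * Real.exp (-(1 / C) * L)) := by
    rw [hh, ht, show (2 : ℝ) * p = p + p by ring, Real.rpow_add hL0', Real.rpow_neg hL0'.le]
    field_simp
  have hDt : D ≤ t := by
    refine hDhalf.trans ?_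
    rw [ht, Real.rpow_neg hL0'.le, ← one_div, le_div_iff₀ (hLp p), mul_comm]
    exact e13
  refine ⟨e1, ht0, by rw [ht]; exact e2, by rw [ht]; exact e3, ?_, hDpos, ?_, ?_, hDt, ?_, ?_, ?_,
    ?_, ?_⟩
  · -- `C t ≤ L^(-a) / 100`
    have h1 : t ≤ L ^ (-a) * L ^ (-(1 : ℝ)) := by
      rw [ht, ← Real.rpow_add hL0']
      exact Real.rpow_le_rpow_of_exponent_le e1 (by linarith)
    calc C * t ≤ C * (L ^ (-a) * (1 / (100 * C))) := by
          have := hLp (-a)
          gcongr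
          refine h1.trans ?_
          gcongr
      _ = _ := by field_simp
  · rw [hDL]
    calc C * (L ^ (p * (m + 2)) * Real.exp (-L)) ≤ C * (D0 / C) := by
          rw [show -L = -1 * L by ring]
          gcongr
      _ = D0 := by field_simp
  · refine hDhalf.trans_lt ?_
    linarith
  · rw [hht]
    calc C * (L ^ (2 * p) * Real.exp (-(1 / C) * L)) ≤ C * (D0 / C) := by gcongr
      _ = D0 := by field_simp
  · rw [hE, ht, ← Real.rpow_add hL0']
    calc L ^ (a * C + -p) ≤ L ^ (-C' + -(1 : ℝ)) :=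
          Real.rpow_le_rpow_of_exponent_le e1 (by nlinarith)
      _ = L ^ (-C') * L ^ (-(1 : ℝ)) := Real.rpow_add hL0' _ _
      _ ≤ L ^ (-C') * (1 / K) := by have := hLp (-C'); gcongr
      _ = _ := by ring
  · rw [hE, hh]
    have h1 : L ^ (a * C) * (C * (L ^ p * Real.exp (-(1 / C) * L))) =
        C * L ^ (-C') * (L ^ (a * C + p + C') * Real.exp (-(1 / C) * L)) := by
      rw [Real.rpow_add hL0', Real.rpow_add hL0', Real.rpow_neg hL0'.le]
      have := (hLp C').ne'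
      field_simp
    rw [h1]
    calc C * L ^ (-C') * (L ^ (a * C + p + C') * Real.exp (-(1 / C) * L)) ≤
          C * L ^ (-C') * (1 / (K * C)) := by have := hLp (-C'); gcongr
      _ = _ := by field_simp
  · rw [hE, hht]
    have h1 : L ^ (a * C) * (C * (L ^ (2 * p) * Real.exp (-(1 / C) * L))) ^ 2 =
        C ^ 2 * L ^ (-C') * (L ^ (a * C + 4 * p + C') * Real.exp (-(2 / C) * L)) := by
      rw [Real.rpow_add hL0', Real.rpow_add hL0', Real.rpow_neg hL0'.le,
        show Real.exp (-(2 / C) * L) = Real.exp (-(1 / C) * L) * Real.exp (-(1 / C) * L) by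
          rw [← Real.exp_add]; congr 1; ring,
        show (4 : ℝ) * p = 2 * p + 2 * p by ring, Real.rpow_add hL0' (2 * p)]
      have := (hLp C').ne'
      field_simp
    rw [h1]
    calc C ^ 2 * L ^ (-C') * (L ^ (a * C + 4 * p + C') * Real.exp (-(2 / C) * L)) ≤
          C ^ 2 * L ^ (-C') * (1 / (K * C ^ 2)) := by have := hLp (-C'); gcongr
      _ = _ := by field_simp
  · have hCs0 : 0 ≤ Cs := by
      have h1 : (0 : ℝ) ≤ m := Nat.cast_nonneg m
      have h2 : 0 ≤ p * (m + 2) := by positivity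
      linarith
    have h1 : Real.log (1 / D) ^ (-Cs) ≤ (L / 2) ^ (-Cs) :=
      Real.rpow_le_rpow_of_nonpos (by linarith) hΛ (by linarith)
    have h2 : (L / 2) ^ (-Cs) = L ^ (-Cs) * (2 : ℝ) ^ Cs := by
      rw [Real.div_rpow hL0'.le (by norm_num), Real.rpow_neg (by norm_num : (0 : ℝ) ≤ 2), div_inv_eq_mul]
    have h20 : (0 : ℝ) < (2 : ℝ) ^ Cs := Real.rpow_pos_of_pos (by norm_num) _
    have h3 : D * (L ^ (-Cs) * (2 : ℝ) ^ Cs) =
        C * (2 : ℝ) ^ Cs * L ^ (p * (m + 2) + -Cs) * H := by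
      rw [hDL, ← hLH, Real.rpow_add hL0']; ring
    have h4 : L ^ (p * (m + 2) + -Cs) ≤ L ^ (-C') * (1 / (K * C * (2 : ℝ) ^ Cs)) := by
      calc L ^ (p * (m + 2) + -Cs) ≤ L ^ (-C' + -(1 : ℝ)) :=
            Real.rpow_le_rpow_of_exponent_le e1 (by linarith)
        _ = L ^ (-C') * L ^ (-(1 : ℝ)) := Real.rpow_add hL0' _ _
        _ ≤ _ := mul_le_mul_of_nonneg_left e11 (hLp (-C')).le
    calc D * Real.log (1 / D) ^ (-Cs) ≤ D * (L ^ (-Cs) * (2 : ℝ) ^ Cs) := by
          rw [← h2]; exact mul_le_mul_of_nonneg_left h1 hDpos.le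
      _ = C * (2 : ℝ) ^ Cs * L ^ (p * (m + 2) + -Cs) * H := h3
      _ ≤ C * (2 : ℝ) ^ Cs * (L ^ (-C') * (1 / (K * C * (2 : ℝ) ^ Cs))) * H :=
          mul_le_mul_of_nonneg_right (mul_le_mul_of_nonneg_left h4 (by positivity)) hH0.le
      _ = _ := by field_simp

end Crest.Agent.R234.Fin_618
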