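import Crest.Agent.R234.Sc12_173

/-!
Row 234, strong constancy lemma (helper173).  Part 13: the final theorems `SC1`, `SC2`.
-/

set_option autoImplicit false
set_option linter.unusedSectionVars false

open MeasureTheory Metric Set Filter Topology
open scoped ContDiff ENNReal

namespace Crest.Agent.R234.Sc173

noncomputable section

variable {d : ℕ}

/-! ### dimension zero -/

lemma eq_univ_of_zero {S : Set (Eu 0)} (h : S.Nonempty) : S = univ := by
  obtain ⟨x, hx⟩ := h
  refine eq_univ_of_forall fun y => ?_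
  have : y = x := Subsingleton.elim _ _
  rw [this]; exact hx

/-- (H2) version in the unit ball, all dimensions -/
theorem sc1_all (d : ℕ) : ∃ C : ℝ, 0 ≤ C ∧ ∀ (A E G : Measure (Eu d)) [IsFiniteMeasure A]
    [IsFiniteMeasure E] [IsFiniteMeasure G] (M δ : ℝ), H2 A E G → A.real univ ≤ M →
    E.real univ ≤ δ → G.real univ ≤ δ → ∀ S : Set (Eu d), MeasurableSet S → S ⊆ ball 0 1 →
    A.real S ≤ C * (M * volume.real S + Real.sqrt (M * δ)) := by
  rcases Nat.eq_zero_or_pos d with h | h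
  · subst h
    have hom := @om_pos 0
    refine ⟨1 / om 0, by positivity, ?_⟩
    intro A E G _ _ _ M δ _ hAM hE _ S _ _
    have hM : 0 ≤ M := measureReal_nonneg.trans hAM
    rcases S.eq_empty_or_nonempty with hS | hS
    · subst hS
      rw [measureReal_empty]
      have := Real.sqrt_nonneg (M * δ)
      have h2 : 0 ≤ M * volume.real (∅ : Set (Eu 0)) := mul_nonneg hM measureReal_nonneg
      positivity
    · rw [eq_univ_of_zero hS]
      have h1 : volume.real (univ : Set (Eu 0)) = om 0 := by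
        have : (univ : Set (Eu 0)) = ball 0 1 :=
          (eq_univ_of_zero ⟨0, mem_ball_self one_pos⟩).symm
        rw [this]; rfl
      rw [h1]
      have h2 : 0 ≤ 1 / om 0 * Real.sqrt (M * δ) := by positivity
      have h3 : 1 / om 0 * (M * om 0) = M := by field_simp
      rw [mul_add, h3]
      linarith
  · exact sc1_unit h

/-- full constancy in the unit ball, all dimensions -/
theorem sc2_all (d : ℕ) : ∃ C : ℝ, 0 ≤ C ∧ ∀ (A E G : Measure (Eu d)) [IsFiniteMeasure A]
    [IsFiniteMeasure E] [IsFiniteMeasure G] (M δ : ℝ), H1 A E G → A.real univ ≤ M →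
    E.real univ ≤ δ → G.real univ ≤ δ → ∃ c : ℝ, 0 ≤ c ∧ c ≤ C * M ∧
    ∀ S : Set (Eu d), MeasurableSet S → S ⊆ ball 0 1 →
    |A.real S - c * volume.real S| ≤ C * Real.sqrt (M * δ) := by
  rcases Nat.eq_zero_or_pos d with h | h
  · subst h
    have hom := @om_pos 0
    refine ⟨1 / om 0, by positivity, ?_⟩
    intro A E G _ _ _ M δ _ hAM hE _
    have hM : 0 ≤ M := measureReal_nonneg.trans hAM
    refine ⟨A.real univ / om 0, div_nonneg measureReal_nonneg hom.le, ?_, ?_⟩
    · rw [one_div_mul_eq_div]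
      exact div_le_div_of_nonneg_right hAM hom.le
    intro S _ _
    have hR : 0 ≤ 1 / om 0 * Real.sqrt (M * δ) := by positivity
    rcases S.eq_empty_or_nonempty with hS | hS
    · subst hS
      rw [measureReal_empty, measureReal_empty, mul_zero, sub_zero, abs_zero]
      exact hR
    · rw [eq_univ_of_zero hS]
      have h1 : volume.real (univ : Set (Eu 0)) = om 0 := by
        have : (univ : Set (Eu 0)) = ball 0 1 :=
          (eq_univ_of_zero ⟨0, mem_ball_self one_pos⟩).symm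
        rw [this]; rfl
      rw [h1, div_mul_cancel₀ _ hom.ne', sub_self, abs_zero]
      exact hR
  · exact sc2_unit h

/-- the constant of the strong constancy lemma -/
def Csc (d : ℕ) : ℝ := max (sc1_all d).choose (sc2_all d).choose

lemma Csc_nonneg (d : ℕ) : 0 ≤ Csc d := (sc1_all d).choose_spec.1.trans (le_max_left _ _)

variable {V : Type*} [NormedAddCommGroup V] [InnerProductSpace ℝ V] [MeasurableSpace V]
  [BorelSpace V] {b : OrthonormalBasis (Fin d) ℝ V} {x0 : V} {r : ℝ}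

lemma norm_zero' {Z W : Type*} [NormedAddCommGroup Z] [NormedSpace ℝ Z] [NormedAddCommGroup W]
    [NormedSpace ℝ W] {L : Z →L[ℝ] W} (h : L = 0) : ‖L‖ = 0 := by
  rw [h]; exact norm_zero

lemma LL_b (hr : 0 < r) (i : Fin d) : LL b r (b i) = r⁻¹ • (ee i : Eu d) := by
  rw [LL_apply, b.repr_self]

lemma phi_notMem (hr : 0 < r) {x : V} (hx : x ∉ ball x0 (4 * r)) :
    phi b x0 r x ∉ ball (0 : Eu d) 4 := fun h => hx ((phi_mem_ball hr).1 h)

lemma tsupport_comp_phi (hr : 0 < r) {W : Type*} [Zero W] {f : Eu d → W}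
    (hf : tsupport f ⊆ ball (0 : Eu d) 4) :
    tsupport (fun x => f (phi b x0 r x)) ⊆ ball x0 (4 * r) := by
  have h1 : tsupport (fun x => f (phi b x0 r x)) ⊆ phi b x0 r ⁻¹' tsupport f := by
    refine closure_minimal (fun x hx => subset_tsupport f hx)
      ((isClosed_tsupport f).preimage phi_continuous)
  exact fun x hx => (phi_mem_ball hr).1 (hf (h1 hx))

lemma hasCompactSupport_comp_phi (hr : 0 < r) {W : Type*} [Zero W] {f : Eu d → W}
    (hf : HasCompactSupport f) : HasCompactSupport (fun x => f (phi b x0 r x)) :=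
  hf.comp_homeomorph (phiH b x0 hr)

lemma notMem_D {U : Eu d → ℝ} {y : Eu d} (hy : y ∉ tsupport U) : fderiv ℝ U y = 0 :=
  fderiv_of_notMem_tsupport ℝ hy

lemma notMem_D2 {U : Eu d → ℝ} {y : Eu d} (hy : y ∉ tsupport U) :
    fderiv ℝ (fderiv ℝ U) y = 0 :=
  fderiv_of_notMem_tsupport ℝ fun h => hy (tsupport_fderiv_subset ℝ h)

/-- transfer of the double divergence form -/
lemma H2_mp (hr : 0 < r) {A E G : Measure V} (h : H2g b A E G x0 (4 * r)) :
    H2 (mp b x0 r A) (mp b x0 r E) (ENNReal.ofReal r • mp b x0 r G) := by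
  intro U hU hc ht
  have h1 := h (fun x => U (phi b x0 r x)) (hU.comp phi_contDiff)
    (hasCompactSupport_comp_phi hr hc) (tsupport_comp_phi hr ht)
  have hout : ∀ x, x ∉ ball x0 (4 * r) → phi b x0 r x ∉ tsupport U := fun x hx hx2 =>
    phi_notMem hr hx (ht hx2)
  -- left hand side
  have e1 : ∀ x : V, ∑ i, fderiv ℝ (fderiv ℝ fun x => U (phi b x0 r x)) x (b i) (b i) =
      r⁻¹ ^ 2 * Lap U (phi b x0 r x) := by
    intro x
    rw [Lap_eq hU, Finset.mul_sum]
    refine Finset.sum_congr rfl fun i _ => ?_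
    rw [fderiv2_comp_phi hU, LL_b hr, map_smul, map_smul]
    simp only [_root_.smul_apply, smul_eq_mul]
    ring
  have f1 : ∫ y, Lap U y ∂(mp b x0 r A) = ∫ x, Lap U (phi b x0 r x) ∂A := by
    rw [integral_mp hr]
    refine setInt_of_tsupport fun x hx => ?_
    rw [Lap_eq hU, notMem_D2 (hout x hx)]
    simp
  have f2 : ∫ y, ‖fderiv ℝ (fderiv ℝ U) y‖ ∂(mp b x0 r E) =
      ∫ x, ‖fderiv ℝ (fderiv ℝ U) (phi b x0 r x)‖ ∂E := by
    rw [integral_mp hr]
    refine setInt_of_tsupport fun x hx => ?_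
    exact norm_zero' (notMem_D2 (hout x hx))
  have f3 : ∫ y, ‖fderiv ℝ U y‖ ∂(mp b x0 r G) = ∫ x, ‖fderiv ℝ U (phi b x0 r x)‖ ∂G := by
    rw [integral_mp hr]
    refine setInt_of_tsupport fun x hx => ?_
    exact norm_zero' (notMem_D (hout x hx))
  have e2 : ∀ x : V, ‖fderiv ℝ (fun x => U (phi b x0 r x)) x‖ =
      r⁻¹ * ‖fderiv ℝ U (phi b x0 r x)‖ := by
    intro x
    rw [fderiv_comp_phi (hU.differentiable (by simp)), norm_comp_LL hr]
  simp_rw [e1, norm_fderiv2_comp_phi hr hU, e2] at h1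
  rw [integral_const_mul, integral_const_mul, integral_const_mul] at h1
  rw [f1, f2, integral_smul_measure, f3, ENNReal.toReal_ofReal hr.le, smul_eq_mul]
  rw [abs_mul, abs_of_pos (show (0:ℝ) < r⁻¹ ^ 2 by positivity)] at h1
  have h2 : r ^ 2 * (r⁻¹ ^ 2 * |∫ x, Lap U (phi b x0 r x) ∂A|) ≤
      r ^ 2 * (r⁻¹ ^ 2 * (∫ x, ‖fderiv ℝ (fderiv ℝ U) (phi b x0 r x)‖ ∂E) +
        r⁻¹ * ∫ x, ‖fderiv ℝ U (phi b x0 r x)‖ ∂G) :=
    mul_le_mul_of_nonneg_left h1 (by positivity)
  have h3 : ∀ t : ℝ, r ^ 2 * (r⁻¹ ^ 2 * t) = t := by intro t; field_simp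
  have h4 : ∀ t : ℝ, r ^ 2 * (r⁻¹ * t) = r * t := by intro t; field_simp
  rw [mul_add, h3, h3, h4] at h2
  exact h2

lemma norm_symm_comp {Z : Type*} [NormedAddCommGroup Z] [NormedSpace ℝ Z] (L : Z →L[ℝ] Eu d) :
    ‖(b.repr.symm.toContinuousLinearEquiv : Eu d →L[ℝ] V).comp L‖ = ‖L‖ := by
  refine le_antisymm (ContinuousLinearMap.opNorm_le_bound _ (norm_nonneg L) fun z => ?_)
    (L.opNorm_le_bound (norm_nonneg _) fun z => ?_)
  · rw [ContinuousLinearMap.comp_apply]
    refine (le_of_eq ?_).trans (L.le_opNorm z)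
    exact b.repr.symm.norm_map _
  · refine (le_of_eq ?_).trans
      (((b.repr.symm.toContinuousLinearEquiv : Eu d →L[ℝ] V).comp L).le_opNorm z)
    exact (b.repr.symm.norm_map _).symm

/-- transfer of the divergence form -/
lemma H1_mp (hr : 0 < r) {A E G : Measure V} (h : H1g b A E G x0 (4 * r)) :
    H1 (mp b x0 r A) (mp b x0 r E) (ENNReal.ofReal r • mp b x0 r G) := by
  intro X hX hc ht
  have hs : Function.support (fun x => b.repr.symm (X (phi b x0 r x))) ⊆
      Function.support (fun x => X (phi b x0 r x)) := by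
    intro x hx hx0
    refine hx ?_
    simp only [hx0, map_zero]
  have h1 := h (fun x => b.repr.symm (X (phi b x0 r x)))
    (b.repr.symm.toContinuousLinearEquiv.contDiff.comp (hX.comp phi_contDiff))
    ((hasCompactSupport_comp_phi hr hc).mono hs)
    ((closure_mono hs).trans (tsupport_comp_phi hr ht))
  have hout : ∀ x, x ∉ ball x0 (4 * r) → phi b x0 r x ∉ tsupport X := fun x hx hx2 =>
    phi_notMem hr hx (ht hx2)
  have hder : ∀ x : V, fderiv ℝ (fun x => b.repr.symm (X (phi b x0 r x))) x =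
      (b.repr.symm.toContinuousLinearEquiv : Eu d →L[ℝ] V).comp
        ((fderiv ℝ X (phi b x0 r x)).comp (LL b r)) := by
    intro x
    have a1 : HasFDerivAt (fun x => X (phi b x0 r x)) ((fderiv ℝ X (phi b x0 r x)).comp (LL b r)) x :=
      ((hX.differentiable (by simp) _).hasFDerivAt.comp x (hasFDerivAt_phi x))
    exact ((b.repr.symm.toContinuousLinearEquiv.hasFDerivAt).comp x a1).fderiv
  have e1 : ∀ x : V, ∑ i, inner ℝ (fderiv ℝ (fun x => b.repr.symm (X (phi b x0 r x))) x (b i)) (b i) =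
      r⁻¹ * dv X (phi b x0 r x) := by
    intro x
    unfold dv
    rw [Finset.mul_sum]
    refine Finset.sum_congr rfl fun i _ => ?_
    rw [hder, ContinuousLinearMap.comp_apply, ContinuousLinearMap.comp_apply, LL_b hr, map_smul]
    have a2 : inner ℝ (b.repr.symm (r⁻¹ • fderiv ℝ X (phi b x0 r x) (ee i))) (b i) =
        inner ℝ (r⁻¹ • fderiv ℝ X (phi b x0 r x) (ee i)) (b.repr (b i)) := by
      rw [b.repr.symm.inner_map_eq_flip]
      rfl
    refine a2.trans ?_
    rw [b.repr_self, inner_smul_left]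
    rfl
  have f1 : ∫ y, dv X y ∂(mp b x0 r A) = ∫ x, dv X (phi b x0 r x) ∂A := by
    rw [integral_mp hr]
    refine setInt_of_tsupport fun x hx => ?_
    unfold dv
    refine Finset.sum_eq_zero fun i _ => ?_
    have : fderiv ℝ X (phi b x0 r x) = 0 := fderiv_of_notMem_tsupport ℝ (hout x hx)
    rw [this]
    simp
  have f2 : ∫ y, ‖fderiv ℝ X y‖ ∂(mp b x0 r E) = ∫ x, ‖fderiv ℝ X (phi b x0 r x)‖ ∂E := by
    rw [integral_mp hr]
    refine setInt_of_tsupport fun x hx => ?_
    exact norm_zero' (fderiv_of_notMem_tsupport ℝ (hout x hx))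
  have f3 : ∫ y, ‖X y‖ ∂(mp b x0 r G) = ∫ x, ‖X (phi b x0 r x)‖ ∂G := by
    rw [integral_mp hr]
    refine setInt_of_tsupport fun x hx => ?_
    rw [image_eq_zero_of_notMem_tsupport (hout x hx), norm_zero]
  have e2 : ∀ x : V, ‖fderiv ℝ (fun x => b.repr.symm (X (phi b x0 r x))) x‖ =
      r⁻¹ * ‖fderiv ℝ X (phi b x0 r x)‖ := by
    intro x
    rw [hder, norm_symm_comp, norm_comp_LL hr]
  have e3 : ∀ x : V, ‖b.repr.symm (X (phi b x0 r x))‖ = ‖X (phi b x0 r x)‖ := fun x =>
    b.repr.symm.norm_map _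
  simp_rw [e1, e2, e3] at h1
  rw [integral_const_mul, integral_const_mul] at h1
  rw [f1, f2, integral_smul_measure, f3, ENNReal.toReal_ofReal hr.le, smul_eq_mul]
  rw [abs_mul, abs_of_pos (show (0:ℝ) < r⁻¹ by positivity)] at h1
  have h2 := mul_le_mul_of_nonneg_left h1 hr.le
  have h3 : ∀ t : ℝ, r * (r⁻¹ * t) = t := by intro t; field_simp
  rw [mul_add, h3, h3] at h2
  exact h2

lemma mp_real_le (hr : 0 < r) {A : Measure V} {M : ℝ} (hM : 0 ≤ M)
    (hA : A (ball x0 (4 * r)) ≤ ENNReal.ofReal M) : (mp b x0 r A).real univ ≤ M := by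
  unfold Measure.real
  rw [mp_univ hr, ← ENNReal.toReal_ofReal hM]
  exact ENNReal.toReal_mono ENNReal.ofReal_ne_top hA

lemma mp_finite (hr : 0 < r) {A : Measure V} {M : ℝ}
    (hA : A (ball x0 (4 * r)) ≤ ENNReal.ofReal M) : IsFiniteMeasure (mp b x0 r A) :=
  ⟨by rw [mp_univ hr]; exact hA.trans_lt ENNReal.ofReal_lt_top⟩

lemma psi_sub (hr : 0 < r) {S : Set V} (hS : S ⊆ ball x0 r) :
    psi b x0 r ⁻¹' S ⊆ ball (0 : Eu d) 1 := by
  intro y hy
  have h1 : psi b x0 r y ∈ ball x0 (1 * r) := by rw [one_mul]; exact hS hy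
  rw [← phi_mem_ball hr, phi_psi hr] at h1
  exact h1

/-- **SC1: strong constancy lemma (Allard)**, double divergence form, compactness free. -/
theorem SC1 [FiniteDimensional ℝ V] (b : OrthonormalBasis (Fin d) ℝ V) {A E G : Measure V} {x0 : V}
    {r M δ : ℝ} (hr : 0 < r) (hM : 0 ≤ M) (hδ : 0 ≤ δ)
    (hA : A (ball x0 (4 * r)) ≤ ENNReal.ofReal M) (hE : E (ball x0 (4 * r)) ≤ ENNReal.ofReal δ)
    (hG : G (ball x0 (4 * r)) ≤ ENNReal.ofReal (δ / r)) (h : H2g b A E G x0 (4 * r))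
    {S : Set V} (hS : MeasurableSet S) (hS1 : S ⊆ ball x0 r) :
    A.real S ≤ Csc d * (M * (volume.real S / r ^ d) + Real.sqrt (M * δ)) := by
  have i1 : IsFiniteMeasure (mp b x0 r A) := mp_finite hr hA
  have i2 : IsFiniteMeasure (mp b x0 r E) := mp_finite hr hE
  have i3 : IsFiniteMeasure (mp b x0 r G) := mp_finite hr hG
  have i4 : IsFiniteMeasure (ENNReal.ofReal r • mp b x0 r G) :=
    ⟨by
      rw [Measure.smul_apply, smul_eq_mul]
      exact ENNReal.mul_lt_top ENNReal.ofReal_lt_top (measure_lt_top _ _)⟩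
  have hGr : (ENNReal.ofReal r • mp b x0 r G).real univ ≤ δ := by
    have h1 := mp_real_le (b := b) hr (by positivity) hG
    rw [measureReal_ennreal_smul_apply, ENNReal.toReal_ofReal hr.le]
    calc r * (mp b x0 r G).real univ ≤ r * (δ / r) := mul_le_mul_of_nonneg_left h1 hr.le
      _ = δ := by field_simp
  have hSm : MeasurableSet (psi b x0 r ⁻¹' S) := hS.preimage psi_continuous.measurable
  have h1 := (sc1_all d).choose_spec.2 (mp b x0 r A) (mp b x0 r E) (ENNReal.ofReal r • mp b x0 r G)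
    M δ (H2_mp hr h) (mp_real_le hr hM hA) (mp_real_le hr hδ hE) hGr (psi b x0 r ⁻¹' S) hSm
    (psi_sub hr hS1)
  rw [vol_psi hr, Measure.real, mp_psi hr A hS hS1] at h1
  refine h1.trans (mul_le_mul_of_nonneg_right (le_max_left _ _) ?_)
  have h2 : 0 ≤ volume.real S / r ^ d := div_nonneg measureReal_nonneg (by positivity)
  positivity

/-- **SC2: full strong constancy lemma (Allard)**, divergence form, compactness free. -/
theorem SC2 [FiniteDimensional ℝ V] (b : OrthonormalBasis (Fin d) ℝ V) {A E G : Measure V} {x0 : V}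
    {r M δ : ℝ} (hr : 0 < r) (hM : 0 ≤ M) (hδ : 0 ≤ δ)
    (hA : A (ball x0 (4 * r)) ≤ ENNReal.ofReal M) (hE : E (ball x0 (4 * r)) ≤ ENNReal.ofReal δ)
    (hG : G (ball x0 (4 * r)) ≤ ENNReal.ofReal (δ / r)) (h : H1g b A E G x0 (4 * r)) :
    ∃ c : ℝ, 0 ≤ c ∧ c * r ^ d ≤ Csc d * M ∧ ∀ S : Set V, MeasurableSet S → S ⊆ ball x0 r →
      |A.real S - c * volume.real S| ≤ Csc d * Real.sqrt (M * δ) := by
  have i1 : IsFiniteMeasure (mp b x0 r A) := mp_finite hr hA
  have i2 : IsFiniteMeasure (mp b x0 r E) := mp_finite hr hE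
  have i3 : IsFiniteMeasure (mp b x0 r G) := mp_finite hr hG
  have i4 : IsFiniteMeasure (ENNReal.ofReal r • mp b x0 r G) :=
    ⟨by
      rw [Measure.smul_apply, smul_eq_mul]
      exact ENNReal.mul_lt_top ENNReal.ofReal_lt_top (measure_lt_top _ _)⟩
  have hGr : (ENNReal.ofReal r • mp b x0 r G).real univ ≤ δ := by
    have h1 := mp_real_le (b := b) hr (by positivity) hG
    rw [measureReal_ennreal_smul_apply, ENNReal.toReal_ofReal hr.le]
    calc r * (mp b x0 r G).real univ ≤ r * (δ / r) := mul_le_mul_of_nonneg_left h1 hr.le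
      _ = δ := by field_simp
  obtain ⟨c, hc0, hcM, hc⟩ := (sc2_all d).choose_spec.2 (mp b x0 r A) (mp b x0 r E)
    (ENNReal.ofReal r • mp b x0 r G) M δ (H1_mp hr h) (mp_real_le hr hM hA) (mp_real_le hr hδ hE) hGr
  refine ⟨c / r ^ d, by positivity, ?_, fun S hS hS1 => ?_⟩
  · rw [div_mul_cancel₀ _ (by positivity)]
    exact hcM.trans (mul_le_mul_of_nonneg_right (le_max_right _ _) hM)
  · have hSm : MeasurableSet (psi b x0 r ⁻¹' S) := hS.preimage psi_continuous.measurable
    have h1 := hc (psi b x0 r ⁻¹' S) hSm (psi_sub hr hS1)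
    rw [vol_psi hr, Measure.real, mp_psi hr A hS hS1] at h1
    have h2 : c / r ^ d * volume.real S = c * (volume.real S / r ^ d) := by ring
    rw [h2]
    exact h1.trans (mul_le_mul_of_nonneg_right (le_max_right _ _) (Real.sqrt_nonneg _))

end

end Crest.Agent.R234.Sc173
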