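import Crest.Agent.R234.Th10_164
import Crest.Agent.R234.Sc13_173

/-!
Row 234, VF-THETA part 11 (helper164): the strong constancy lemma of helper173 in the form `SC2`, and the final
theorems (unconditional).
-/

set_option autoImplicit false

open Set Filter Topology MeasureTheory Metric
open Crest.GeometryTopology.Submanifold
open Crest.Agent.R234.Vf_884 Crest.Agent.R234.Ar_870 Crest.Agent.R234.Cy_870
open Crest.Agent.R234.AS_456 (AS err errA hp vp)
open scoped ENNReal NNReal ContDiff InnerProductSpace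

noncomputable section

namespace Crest.Agent.R234.Th_164

variable {d : ℕ}

/-- the strong constancy lemma -/
theorem sc2 (d : ℕ) : SC2 d (Sc173.Csc d) := by
  intro A Em G x₀ r M δ hr hδ hδM hA hE hG h
  have hH : Sc173.H1g (EuclideanSpace.basisFun (Fin d) ℝ) A Em G x₀ (4 * r) := by
    intro X hX hXc hXs
    have h1 : ∀ x : Eu d, ∑ i, inner ℝ (fderiv ℝ X x (EuclideanSpace.basisFun (Fin d) ℝ i))
        (EuclideanSpace.basisFun (Fin d) ℝ i) = divg X x := by
      intro x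
      unfold divg
      refine Finset.sum_congr rfl fun i _ => ?_
      rw [EuclideanSpace.basisFun_apply, real_inner_comm, EuclideanSpace.inner_single_left]
      simp
    simp only [h1]
    exact h X hX hXc hXs
  obtain ⟨c, -, -, hc⟩ := Sc173.SC2 (EuclideanSpace.basisFun (Fin d) ℝ) hr (hδ.trans hδM) hδ hA hE hG hH
  exact ⟨c, hc⟩

/-- `ε` used in the final theorems -/
theorem exists_eps (d : ℕ) : ∃ ε : ℝ, 0 < ε ∧ ε ≤ 1 ∧ ε * (1 + 4 ^ d) < om d := by
  have hom := om_pos d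
  refine ⟨min 1 (om d / (2 * (1 + 4 ^ d))), lt_min one_pos (by positivity), min_le_left _ _, ?_⟩
  calc min 1 (om d / (2 * (1 + 4 ^ d))) * (1 + 4 ^ d) ≤ om d / (2 * (1 + 4 ^ d)) * (1 + 4 ^ d) := by
        gcongr
        exact min_le_right _ _
    _ = om d / 2 := by field_simp
    _ < om d := by linarith

variable {m k : ℕ} {π : Euc k →L[ℝ] Euc m}

theorem wM_real {W : Measure (Euc k × L k)} {w : Euc k × L k → ℝ} (hw : Measurable w)
    (hw0 : ∀ᵐ p ∂W, 0 ≤ w p) {S : Set (Euc m)} (hS : MeasurableSet S) :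
    (wM W π w).real S = ∫ p in (fun p => π p.1) ⁻¹' S, w p ∂W := by
  rw [measureReal_def, wM_apply W w hS, integral_eq_lintegral_of_nonneg_ae
    (ae_restrict_of_ae hw0) hw.aestronglyMeasurable]

theorem wM_le {W : Measure (Euc k × L k)} [IsFiniteMeasure W] {w : Euc k × L k → ℝ}
    (hw0 : ∀ᵐ p ∂W, 0 ≤ w p) (hwi : Integrable w W) {S : Set (Euc m)} (hS : MeasurableSet S)
    {a : ℝ} (h : ∫ p in (fun p => π p.1) ⁻¹' S, w p ∂W ≤ a) :
    wM W π w S ≤ ENNReal.ofReal a := by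
  rw [wM_apply W w hS, ← ofReal_integral_eq_lintegral_ofReal hwi.integrableOn
    (ae_restrict_of_ae hw0)]
  exact ENNReal.ofReal_le_ofReal h

set_option maxHeartbeats 1600000 in
/-- **VF-THETA, general form** (area formula + small first variation on horizontal fields). -/
theorem theta (m Q : ℕ) : ∃ σ δ₁ δ₃ K : ℝ, 0 < σ ∧ σ ≤ 1 / 4 ∧ 0 < δ₁ ∧ δ₁ ≤ 1 ∧ 0 < δ₃ ∧ δ₃ ≤ δ₁ ∧
    0 < K ∧
    ∀ (k : ℕ) (π : Euc k →L[ℝ] Euc m) (W : Measure (Euc k × L k)) (_ : IsFiniteMeasure W)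
      (_ : IsCo π) (_ : ∀ᵐ p ∂W, p.2 ∈ G m k) (R : Set (Euc m)) (_ : IsOpen R)
      (N : Euc m → ℝ≥0∞) (_ : Area W π R N) (δ h : ℝ) (_ : 0 ≤ δ) (_ : δ ≤ 1) (_ : 0 ≤ h)
      (q : Euc k → ℝ) (_ : Measurable q) (_ : ∀ z, 0 ≤ q z) (_ : ∀ᵐ p ∂W, q p.1 ≤ h)
      (_ : ∀ ξ : Euc m → Euc m, ContDiff ℝ ∞ ξ → HasCompactSupport ξ → tsupport ξ ⊆ R →
        |FV W (fun p => ContinuousLinearMap.adjoint π (ξ (π p)))| ≤
          ∫ p, wg π δ q p * (‖fderiv ℝ ξ (π p.1)‖ + ‖ξ (π p.1)‖) ∂W)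
      (_ : δ * h ≤ δ₃) (c : Euc m) (r : ℝ) (_ : 0 < r) (_ : ball c (4 * r) ⊆ R)
      (_ : δ * (m + h) * r ≤ δ₃)
      (_ : W.real ((fun p => π p.1) ⁻¹' ball c (4 * r)) ≤ (Q + 1) * om m * (4 * r) ^ m)
      (_ : ∫ p in (fun p => π p.1) ⁻¹' ball c (4 * r), tl π p.2 ∂W ≤ δ₃ * r ^ m)
      (_ : |W.real ((fun p => π p.1) ⁻¹' ball c r) - Q * om m * r ^ m| ≤ om m / 4 * r ^ m),
      (∀ᵐ x, x ∈ ball c (r / 2) → x ∉ Bad δ₁ (r / 16) (wM W π (ws π σ)) (ball c (r / 2)) →
        N x = Q) ∧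
      (∀ x ∈ Bad δ₁ (r / 16) (wM W π (ws π σ)) (ball c (r / 2)), ∃ ρ, 0 < ρ ∧ ρ ≤ r / 16 ∧
        δ₁ * ρ ^ m < ∫ p in (fun p => π p.1) ⁻¹' ball x ρ, ws π σ p ∂W ∧
        (∀ t, 3 * ρ ≤ t → t ≤ r / 2 →
          ∫ p in (fun p => π p.1) ⁻¹' ball x t, ws π σ p ∂W ≤ δ₁ * t ^ m ∧
          ∫ y in ball x t, |(N y).toReal - Q| ≤ K * t ^ m ∧
          W.real ((fun p => π p.1) ⁻¹' ball x t) ≤ K * t ^ m)) ∧
      (volume (Bad δ₁ (r / 16) (wM W π (ws π σ)) (ball c (r / 2)))).toReal ≤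
        K * ∫ p in (fun p => π p.1) ⁻¹' ball c r, ws π σ p ∂W ∧
      (muM W π (Bad δ₁ (r / 16) (wM W π (ws π σ)) (ball c (r / 2)))).toReal ≤
        K * ∫ p in (fun p => π p.1) ⁻¹' ball c r, ws π σ p ∂W ∧
      ∫ y in ball c (r / 2), |(N y).toReal - Q| ≤
        K * ∫ p in (fun p => π p.1) ⁻¹' ball c r, ws π σ p ∂W := by
  obtain ⟨ε, hε, hε1, hεω⟩ := exists_eps m
  obtain ⟨c₁, hc1, hc1', δ₁, hδ1, hδ1', δ₂, hδ2, hδ21, K, hK, hT⟩ :=
    one_scale (sc2 m) Q (C₁ := m + 2) (by positivity) hε hε1 hεω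
  have hom := om_pos m
  have hQn : (0 : ℝ) ≤ Q := Nat.cast_nonneg Q
  set M₀ : ℝ := (Q + 1) * om m * 4 ^ m with hM₀
  have hM0 : 0 < M₀ := by positivity
  set δ₃ : ℝ := min (c₁ / 2) (δ₂ / (1 + M₀)) with hδ₃
  have hδ3 : 0 < δ₃ := lt_min (by positivity) (by positivity)
  have hδ3a : δ₃ ≤ c₁ / 2 := min_le_left _ _
  have hδ3b : δ₃ ≤ δ₂ / (1 + M₀) := min_le_right _ _
  have hδ32 : δ₃ ≤ δ₂ := hδ3b.trans (div_le_self hδ2.le (by linarith))
  set K' : ℝ := max K (max (4 ^ m * ε) (2 * (Q * om m + 4 ^ m * ε + 1))) with hK'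
  have hKK : K ≤ K' := le_max_left _ _
  have hKa : 4 ^ m * ε ≤ K' := (le_max_left _ _).trans (le_max_right _ _)
  have hKb : 2 * (Q * om m + 4 ^ m * ε + 1) ≤ K' := (le_max_right _ _).trans (le_max_right _ _)
  refine ⟨c₁ / 2, δ₁, δ₃, K', by positivity, by linarith, hδ1, hδ1', hδ3, hδ32.trans hδ21,
    hK.trans_le hKK, ?_⟩
  intro k π W hWf hπ hc R hR N hN δ h hδ hδ1a hh q hq hq0 hqh hFV hδh c r hr hcR hgr hmass htilt hnear
  have H := hyp_of hπ hc hR hN hδ hδ1a (by positivity : 0 ≤ c₁ / 2) hh hq hq0 hqh hFV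
  have hrm : 0 < r ^ m := pow_pos hr m
  have hmsb : ∀ (x : Euc m) (t : ℝ), MeasurableSet ((fun p : Euc k × L k => π p.1) ⁻¹' ball x t) :=
    fun x t => measurable_base π measurableSet_ball
  -- weights
  have hws0 : ∀ᵐ p ∂W, 0 ≤ ws π (c₁ / 2) p := by
    filter_upwards [hc] with p hp
    exact ws_nonneg hπ hp
  have htl0 : ∀ᵐ p ∂W, 0 ≤ tl π p.2 := by
    filter_upwards [hc] with p hp
    exact tl_nonneg hπ (isPr_of_G hp)
  have htli : Integrable (fun p : Euc k × L k => tl π p.2) W := by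
    refine Integrable.of_bound (measurable_tl2 π).aestronglyMeasurable m ?_
    filter_upwards [hc, htl0] with p hp hp0
    rw [Real.norm_eq_abs, abs_of_nonneg hp0]
    exact tl_le hπ (isPr_of_G hp)
  have hwsle : ∀ᵐ p ∂W, ws π (c₁ / 2) p ≤ tl π p.2 := by
    filter_upwards [htl0] with p hp0
    unfold ws
    by_cases hs : p ∈ {p : Euc k × L k | c₁ / 2 < tl π p.2}
    · rw [Set.indicator_of_mem hs]
    · rw [Set.indicator_of_notMem hs]; exact hp0
  have hwsi : Integrable (ws π (c₁ / 2)) W := by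
    refine htli.mono' (measurable_ws π _).aestronglyMeasurable ?_
    filter_upwards [hwsle, hws0] with p h1 h2
    rw [Real.norm_eq_abs, abs_of_nonneg h2]
    exact h1
  have hesreal : ∀ (x : Euc m) (t : ℝ), (wM W π (ws π (c₁ / 2))).real (ball x t) =
      ∫ p in (fun p => π p.1) ⁻¹' ball x t, ws π (c₁ / 2) p ∂W := fun x t =>
    wM_real (measurable_ws π _) hws0 measurableSet_ball
  have hesfin : ∀ (x : Euc m) (t : ℝ), wM W π (ws π (c₁ / 2)) (ball x t) ≠ ⊤ := fun x t =>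
    ne_top_of_le_ne_top ENNReal.ofReal_ne_top (wM_le hws0 hwsi measurableSet_ball le_rfl)
  have hsub : ball c r ⊆ ball c (4 * r) := ball_subset_ball (by linarith)
  -- the hypotheses of `one_scale`
  have hμ4 : muM W π (ball c (4 * r)) ≤ ENNReal.ofReal ((Q + 1) * om m * (4 * r) ^ m) := by
    rw [muM_apply W measurableSet_ball, ← ENNReal.ofReal_toReal (measure_ne_top W _)]
    exact ENNReal.ofReal_le_ofReal hmass
  have he4 : wM W π (we π δ q) (ball c (4 * r)) ≤ ENNReal.ofReal (δ₂ * r ^ m) := by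
    have hwe0 : ∀ᵐ p ∂W, 0 ≤ we π δ q p := by
      filter_upwards [htl0] with p hp
      exact add_nonneg hp (mul_nonneg hδ (hq0 _))
    have hqi : Integrable (fun p : Euc k × L k => δ * q p.1) W := by
      refine Integrable.of_bound ((hq.comp measurable_fst).const_mul δ).aestronglyMeasurable
        (δ * h) ?_
      filter_upwards [hqh] with p hp
      rw [Real.norm_eq_abs, abs_of_nonneg (mul_nonneg hδ (hq0 _))]
      gcongr
    have hwei : Integrable (we π δ q) W := htli.add hqi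
    refine wM_le hwe0 hwei measurableSet_ball ?_
    have e1 : ∫ p in (fun p => π p.1) ⁻¹' ball c (4 * r), we π δ q p ∂W =
        (∫ p in (fun p => π p.1) ⁻¹' ball c (4 * r), tl π p.2 ∂W) +
          ∫ p in (fun p => π p.1) ⁻¹' ball c (4 * r), δ * q p.1 ∂W :=
      integral_add htli.integrableOn hqi.integrableOn
    rw [e1]
    have e2 : ∫ p in (fun p => π p.1) ⁻¹' ball c (4 * r), δ * q p.1 ∂W ≤
        δ * h * ((Q + 1) * om m * (4 * r) ^ m) := by
      calc ∫ p in (fun p => π p.1) ⁻¹' ball c (4 * r), δ * q p.1 ∂W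
          ≤ ∫ _p in (fun p => π p.1) ⁻¹' ball c (4 * r), δ * h ∂W := by
            refine integral_mono_ae hqi.integrableOn (integrable_const _) ?_
            filter_upwards [ae_restrict_of_ae hqh] with p hp
            gcongr
        _ = δ * h * W.real ((fun p => π p.1) ⁻¹' ball c (4 * r)) := by
            rw [setIntegral_const, smul_eq_mul, mul_comm]
        _ ≤ _ := by gcongr
    have e3 : δ * h * ((Q + 1) * om m * (4 * r) ^ m) ≤ δ₃ * M₀ * r ^ m := by
      rw [hM₀, mul_pow]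
      calc δ * h * ((Q + 1) * om m * (4 ^ m * r ^ m)) ≤ δ₃ * ((Q + 1) * om m * (4 ^ m * r ^ m)) := by
            gcongr
        _ = _ := by ring
    calc _ ≤ δ₃ * r ^ m + δ₃ * M₀ * r ^ m := add_le_add htilt (e2.trans e3)
      _ = δ₃ * (1 + M₀) * r ^ m := by ring
      _ ≤ δ₂ / (1 + M₀) * (1 + M₀) * r ^ m := by gcongr
      _ = δ₂ * r ^ m := by field_simp
  have hes1 : wM W π (ws π (c₁ / 2)) (ball c r) ≤ ENNReal.ofReal (δ₂ * r ^ m) := by
    refine wM_le hws0 hwsi measurableSet_ball ?_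
    calc ∫ p in (fun p => π p.1) ⁻¹' ball c r, ws π (c₁ / 2) p ∂W
        ≤ ∫ p in (fun p => π p.1) ⁻¹' ball c r, tl π p.2 ∂W :=
          integral_mono_ae hwsi.integrableOn htli.integrableOn (ae_restrict_of_ae hwsle)
      _ ≤ ∫ p in (fun p => π p.1) ⁻¹' ball c (4 * r), tl π p.2 ∂W :=
          setIntegral_mono_set htli.integrableOn (ae_restrict_of_ae htl0)
            (preimage_mono hsub).eventuallyLE
      _ ≤ δ₃ * r ^ m := htilt
      _ ≤ δ₂ * r ^ m := by gcongr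
  have hnear' : |(muM W π).real (ball c r) - Q * om m * r ^ m| ≤ om m / 4 * r ^ m := by
    rw [measureReal_def, muM_apply W measurableSet_ball]
    exact hnear
  obtain ⟨-, k2, k3, k4, k5, k6⟩ := hT _ _ R _ _ _ _ _ (by positivity) (by linarith)
    (by positivity) H c r hr hcR (hgr.trans hδ32) hμ4 he4 hes1 hnear'
  have hconv : ∀ a : ℝ≥0∞, a ≤ ENNReal.ofReal K * wM W π (ws π (c₁ / 2)) (ball c r) →
      a.toReal ≤ K' * ∫ p in (fun p => π p.1) ⁻¹' ball c r, ws π (c₁ / 2) p ∂W := by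
    intro a ha
    have h1 := ENNReal.toReal_mono (ENNReal.mul_ne_top ENNReal.ofReal_ne_top (hesfin c r)) ha
    rw [ENNReal.toReal_mul, ENNReal.toReal_ofReal hK.le] at h1
    rw [← hesreal c r]
    refine h1.trans ?_
    rw [measureReal_def]
    gcongr
  refine ⟨?_, ?_, hconv _ k4, hconv _ k5, ?_⟩
  · have hlt := hN.ae_lt_top hπ hc hR.measurableSet
    rw [ae_restrict_iff' hR.measurableSet] at hlt
    have hRb : ball c (r / 2) ⊆ R := (ball_subset_ball (by linarith)).trans hcR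
    filter_upwards [k2, hlt] with x hx hlx h1 h2
    have h3 := hx h1 h2
    rw [← ENNReal.ofReal_toReal (hlx (hRb h1)).ne, h3, ENNReal.ofReal_natCast]
  · intro x hx
    obtain ⟨ρ, j1, j2, j3, j4⟩ := k3 x hx
    refine ⟨ρ, j1, j2, ?_, fun t ht1 ht2 => ?_⟩
    · rw [← hesreal x ρ]
      exact (ENNReal.ofReal_lt_iff_lt_toReal (by positivity) (hesfin x ρ)).1 j3
    · obtain ⟨i1, i2, i3⟩ := j4 t ht1 (by linarith)
      have ht0 : 0 < t := by linarith
      refine ⟨?_, ?_, ?_⟩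
      · rw [← hesreal x t]
        exact ENNReal.toReal_le_of_le_ofReal (by positivity) i1
      · refine i2.trans ?_
        gcongr
      · rw [muM_apply W measurableSet_ball] at i3
        refine (ENNReal.toReal_le_of_le_ofReal (by positivity) i3).trans ?_
        gcongr
  · have hRb : ball c (r / 2) ⊆ R := (ball_subset_ball (by linarith)).trans hcR
    have hNi := (hN.integrableOn hπ hc hR.measurableSet).mono_set hRb
    have hQi : IntegrableOn (fun _ : Euc m => (Q : ℝ)) (ball c (r / 2)) :=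
      integrableOn_const measure_ball_lt_top.ne
    have e1 : ∫ y in ball c (r / 2), |(N y).toReal - Q| =
        (∫⁻ y in ball c (r / 2), ENNReal.ofReal |(N y).toReal - Q|).toReal := by
      rw [integral_eq_lintegral_of_nonneg_ae (Eventually.of_forall fun y => abs_nonneg _)]
      exact (hNi.sub hQi).abs.aestronglyMeasurable
    rw [e1]
    exact hconv _ k6

end Crest.Agent.R234.Th_164
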