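import Crest.Agent.R234.Tv9_618
import Crest.Agent.R234.GL8_394
import Crest.Agent.R234.Th11_164

/-!
# Row 234, F3-TV, part 10 (helper618)

**`tv_gl`** : total variation of the anomaly measure of an integral stationary varifold relative to the
reference surface, at the scale `s`, in the language of 394's `Reg`, `Loc`.
-/

set_option autoImplicit false

open Set Filter Topology MeasureTheory Metric Function
open Crest.GeometryTopology.Submanifold
open Crest.Agent.R234.Vf_884 Crest.Agent.R234.Ar_870 Crest.Agent.R234.GL_394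
open scoped ENNReal NNReal ContDiff InnerProductSpace

noncomputable section

namespace Crest.Agent.R234.Tv_618

open Crest.Agent.R234.Th_164 (om vol_ball om_pos)

variable {m : ℕ}

theorem integral_scale {s : ℝ} (hs : 0 < s) (F : Euc m → ℝ) :
    ∫ v, F v = s ^ m * ∫ v, F (s • v) := by
  have h1 := Measure.integral_comp_smul (volume : Measure (Euc m)) F s
  rw [finrank_euclideanSpace_fin, abs_of_pos (by positivity), smul_eq_mul] at h1
  rw [h1, ← mul_assoc, mul_inv_cancel₀ (by positivity), one_mul]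

theorem Wr_inter {k : ℕ} (c : Ch m k) (V : Measure (Euc k × L k)) {K : Set (Euc k)} {s R R' : ℝ}
    (hs : 0 < s) (hRR : R' ≤ R) :
    (Wr c K (R * s) ×ˢ (univ : Set (L k))) ∩ (fun p : Euc k × L k => s⁻¹ • xt c K p.1) ⁻¹'
      ball (0 : Euc m) R' = Wr c K (R' * s) ×ˢ univ := by
  ext p
  constructor
  · rintro ⟨⟨⟨h1, h2⟩, -⟩, h3⟩
    refine ⟨⟨h1, ?_⟩, trivial⟩
    rw [mem_preimage, mem_ball_scale hs, xt_eq c h1] at h3
    exact h3
  · rintro ⟨⟨h1, h2⟩, -⟩
    refine ⟨⟨⟨h1, h2.trans_le ?_⟩, trivial⟩, ?_⟩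
    · gcongr
    · rw [mem_preimage, mem_ball_scale hs, xt_eq c h1]
      exact h2

theorem real_Vs {k : ℕ} (c : Ch m k) (V : Measure (Euc k × L k)) {K : Set (Euc k)} {s R R' : ℝ}
    (hs : 0 < s) (hRR : R' ≤ R) (hx : Measurable (xt c K)) :
    (Vs c V K s R).real ((fun p : Euc k × L k => s⁻¹ • xt c K p.1) ⁻¹' ball (0 : Euc m) R') =
      (s ^ m)⁻¹ * V.real (Wr c K (R' * s) ×ˢ univ) := by
  have hm : MeasurableSet ((fun p : Euc k × L k => s⁻¹ • xt c K p.1) ⁻¹' ball (0 : Euc m) R') :=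
    ((hx.comp measurable_fst).const_smul s⁻¹) measurableSet_ball
  unfold Vs
  rw [measureReal_def, Measure.smul_apply, smul_eq_mul, Measure.restrict_apply hm, inter_comm,
    Wr_inter c V hs hRR, ENNReal.toReal_mul, ENNReal.toReal_ofReal (by positivity)]
  rfl

/-- the energy at the scale `s` over the ball of radius `R s`, normalised -/
def ttot {k : ℕ} (c : Ch m k) (V : Measure (Euc k × L k)) (K : Set (Euc k)) (κ s R : ℝ) : ℝ :=
  (s ^ m)⁻¹ * ∫ p in Wr c K (R * s) ×ˢ univ, (c.tau p.1 p.2 + κ * (2 * c.f p.1 / s ^ 2)) ∂V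

/-- **F3-TV** : the total variation measure `e` of the anomaly at the scale `s`; clauses (i), (iii)
in the form of 394's structure `TV`, and the mass bound (ii) -/
theorem tv_gl (hm0 : 0 < m) (Q : ℕ) {C₀ : ℝ} (hC : 0 ≤ C₀) {Λ : ℝ} (hΛ : 0 ≤ Λ) :
    ∃ κ₀ : ℝ, 0 < κ₀ ∧ ∃ C1 : ℝ, 0 ≤ C1 ∧ ∃ Ct : ℝ, 0 ≤ Ct ∧
      ∀ ε : ℝ, 0 < ε → ε ≤ 1 → ∀ κ : ℝ, 0 ≤ κ → κ ≤ κ₀ →
      ∀ {k : ℕ} {U W K : Set (Euc k)} {D : Set (Euc m)} {Dd : VarifoldData m k} {c : Ch m k}
        {s Lv : ℝ}, 0 < s → IsIntegralVarifoldIn U Dd → Reg c W D → Loc c U W K (VD Dd) Lv →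
        (1 + ε) * s ≤ Real.exp Lv → ball 0 ((1 + ε) * s) ⊆ D → KT c K s ((1 + ε) * s) C₀ κ →
        (VD Dd).real (Wr c K ((1 + ε) * s) ×ˢ univ) ≤ Λ * s ^ m →
        |(VD Dd).real (Wr c K (1 / 4 * s) ×ˢ univ) -
            Q * volume.real (ball (0 : Euc m) (1 / 4 * s))| ≤
          1 / 4 * volume.real (ball (0 : Euc m) (1 / 4 * s)) →
        ∃ e : Measure (Euc m),
          TV c (VK (VD Dd) K) Q ((1 + ε / 2) * s) C1 (κ / s ^ 2)
            (Ct * (s ^ (m + 1) * (ttot c (VD Dd) K κ s (1 + ε) *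
              ttot c (VD Dd) K κ s (1 + ε) ^ (1 / (m : ℝ)))) / ε ^ (2 * m + 2)) e ∧
          e.real (closedBall 0 ((1 + ε / 2) * s)) ≤ Ct / ε ^ (2 * m) *
            ∫ p in Wr c K ((1 + ε) * s) ×ˢ univ,
              (c.tau p.1 p.2 + κ * (2 * c.f p.1 / s ^ 2)) ∂(VD Dd) := by
  obtain ⟨κ₀, hκ₀, C1, hC1, Ct, hCt, h⟩ := tv hm0 (Crest.Agent.R234.Th_164.sc2 m) Q hC hΛ
  refine ⟨κ₀, hκ₀, C1, hC1, Ct, hCt, ?_⟩
  intro ε hε0 hε1 κ hκ0 hκ1 k U W K D Dd c s Lv hs hD hR hL hRL hBD hT hΛV hQ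
  obtain ⟨N, hdat⟩ := exists_dat hs hD hR hL hRL hBD hT
  have hcx := cxK hR hL
  have hxm := measurable_xt hL.cpt hcx
  have hWm := measurableSet_Wr hL.cpt hcx ((1 + ε) * s)
  have hsm : 0 < s ^ m := by positivity
  have e1 := real_Vs c (VD Dd) (s := s) (R := 1 + ε) (R' := 1 + ε) hs le_rfl hxm
  have e2 := real_Vs c (VD Dd) (s := s) (R := 1 + ε) (R' := 1 / 4) hs (by linarith) hxm
  have hvol : volume.real (ball (0 : Euc m) (1 / 4 * s)) =
      s ^ m * volume.real (ball (0 : Euc m) (1 / 4)) := by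
    rw [vol_ball (0 : Euc m) (by positivity), vol_ball (0 : Euc m) (by positivity), mul_pow]
    ring
  obtain ⟨e, he, hF, hm, hiii⟩ := h ε hε0 hε1 κ hκ0 hκ1 hdat
    (by
      rw [e1, inv_mul_le_iff₀ hsm, mul_comm (s ^ m) Λ]
      exact hΛV)
    (by
      rw [e2]
      rw [hvol] at hQ
      have h1 : (s ^ m)⁻¹ * (VD Dd).real (Wr c K (1 / 4 * s) ×ˢ univ) -
          Q * volume.real (ball (0 : Euc m) (1 / 4)) =
          (s ^ m)⁻¹ * ((VD Dd).real (Wr c K (1 / 4 * s) ×ˢ univ) -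
            Q * (s ^ m * volume.real (ball (0 : Euc m) (1 / 4)))) := by
        field_simp
      rw [h1, abs_mul, abs_of_pos (inv_pos.2 hsm), inv_mul_le_iff₀ hsm]
      refine hQ.trans (le_of_eq ?_)
      ring)
  set e' : Measure (Euc m) := ENNReal.ofReal (s ^ m) • e.map (fun v => s • v) with he'
  have hmeas : Measurable fun v : Euc m => s • v := measurable_const_smul s
  have hfm : IsFiniteMeasure (e.map fun v => s • v) := by infer_instance
  have k2 : tot (Vs c (VD Dd) K s (1 + ε)) (fun p => s⁻¹ • xt c K p.1)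
      (fun p => c.tau p.1 p.2) (fun p => 2 * c.f p.1 / s ^ 2) κ (1 + ε) =
        ttot c (VD Dd) K κ s (1 + ε) := by
    have hm2 : MeasurableSet ((fun p : Euc k × L k => s⁻¹ • xt c K p.1) ⁻¹'
        ball (0 : Euc m) (1 + ε)) :=
      ((hxm.comp measurable_fst).const_smul s⁻¹) measurableSet_ball
    unfold tot Vs ttot
    rw [Measure.restrict_smul, integral_smul_measure, ENNReal.toReal_ofReal (by positivity),
      smul_eq_mul, Measure.restrict_restrict hm2, inter_comm, Wr_inter c (VD Dd) hs le_rfl]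
  -- integrals of functions of the foot
  have hI : ∀ (F : Euc m → ℝ) (Φ : Euc k × L k → ℝ),
      (∀ v, v ∉ closedBall (0 : Euc m) ((1 + ε / 2) * s) → F v = 0) →
      ∫ p, F (s • s⁻¹ • xt c K p.1) * Φ p ∂(Vs c (VD Dd) K s (1 + ε)) =
        (s ^ m)⁻¹ * ∫ p, F (c.x p.1) * Φ p ∂(VK (VD Dd) K) := by
    intro F Φ h0
    rw [integral_Vs c (VD Dd) K hs (1 + ε)]
    congr 1
    have k2 : ∫ p in Wr c K ((1 + ε) * s) ×ˢ univ,
        F (s • s⁻¹ • xt c K p.1) * Φ p ∂(VD Dd) =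
        ∫ p in Wr c K ((1 + ε) * s) ×ˢ univ, F (c.x p.1) * Φ p ∂(VD Dd) := by
      refine setIntegral_congr_fun (hWm.prod MeasurableSet.univ) fun p hp => ?_
      rw [smul_smul, mul_inv_cancel₀ hs.ne', one_smul, xt_eq c hp.1.1]
    rw [k2]
    unfold VK
    refine (setIntegral_eq_of_subset_of_forall_sdiff_eq_zero
      (hL.cpt.isClosed.measurableSet.prod MeasurableSet.univ)
      (prod_mono (fun z hz => hz.1) subset_rfl) fun p hp => ?_).symm
    have hn : ¬ ‖c.x p.1‖ < (1 + ε) * s := fun h => hp.2 ⟨⟨hp.1.1, h⟩, trivial⟩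
    have h2 : F (c.x p.1) = 0 := by
      refine h0 _ fun hc => hn ?_
      rw [mem_closedBall_zero_iff] at hc
      refine hc.trans_lt ?_
      gcongr
      linarith
    rw [h2, zero_mul]
  have h0s : ∀ F : Euc m → ℝ, (∀ v, v ∉ closedBall (0 : Euc m) ((1 + ε / 2) * s) → F v = 0) →
      ∀ v, v ∉ closedBall (0 : Euc m) (1 + ε / 2) → F (s • v) = 0 := by
    intro F h0 v hv
    refine h0 _ fun hc => hv ?_
    rw [mem_closedBall_zero_iff] at hc ⊢
    rw [norm_smul, Real.norm_eq_abs, abs_of_pos hs, mul_comm] at hc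
    exact le_of_mul_le_mul_right hc hs
  have hI' : ∀ F : Euc m → ℝ, Measurable F → ∫ v, F v ∂e' = s ^ m * ∫ v, F (s • v) ∂e := by
    intro F hFm
    rw [he', integral_smul_measure, ENNReal.toReal_ofReal hsm.le, smul_eq_mul,
      integral_map hmeas.aemeasurable hFm.aestronglyMeasurable]
  refine ⟨e', ⟨⟨?_⟩, ?_, ?_⟩, ?_⟩
  · rw [he', Measure.smul_apply, smul_eq_mul]
    exact ENNReal.mul_lt_top ENNReal.ofReal_lt_top (measure_lt_top _ _)
  · rintro F hFm ⟨b, hb⟩ h0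
    have hFs : Measurable fun v : Euc m => F (s • v) := hFm.comp hmeas
    have h1 := hF (fun v => F (s • v)) hFs ⟨b, fun v => hb _⟩ (h0s F h0)
    have k3 : ∫ v, F (s • v) * jt c s (1 + ε) v = (s ^ m)⁻¹ * ∫ v, F v * c.j v := by
      rw [integral_scale hs fun v => F v * c.j v, ← mul_assoc, inv_mul_cancel₀ hsm.ne', one_mul]
      refine integral_congr_ae (Eventually.of_forall fun v => ?_)
      simp only
      by_cases hv : v ∈ ball (0 : Euc m) (1 + ε)
      · rw [show jt c s (1 + ε) v = c.j (s • v) from Set.indicator_of_mem hv _]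
      · rw [h0s F h0 v fun hc => hv (closedBall_subset_ball (by linarith) hc), zero_mul, zero_mul]
    rw [hI F (fun p => 1 - c.tau p.1 p.2 / 2) h0, k3] at h1
    rw [hI' (fun v => |F v|) hFm.abs]
    have k5 : (s ^ m)⁻¹ * ∫ p, F (c.x p.1) * (1 - c.tau p.1 p.2 / 2) ∂(VK (VD Dd) K) -
        Q * ((s ^ m)⁻¹ * ∫ v, F v * c.j v) = (s ^ m)⁻¹ *
          (∫ p, F (c.x p.1) * (1 - c.tau p.1 p.2 / 2) ∂(VK (VD Dd) K) -
            Q * ∫ v, F v * c.j v) := by ring
    rw [k5, abs_mul, abs_of_pos (inv_pos.2 hsm), inv_mul_le_iff₀ hsm] at h1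
    exact h1
  · intro F Lf hF0 hLf h0
    have hLs : LipschitzWith (Lf * Real.toNNReal s) fun v : Euc m => F (s • v) := by
      refine hLf.comp ?_
      have h1 := lipschitzWith_smul (β := Euc m) s
      have h2 : ‖s‖₊ = Real.toNNReal s := by
        rw [← NNReal.coe_inj, coe_nnnorm, Real.coe_toNNReal _ hs.le, Real.norm_of_nonneg hs.le]
      rwa [h2] at h1
    have h1 := hiii (fun v => F (s • v)) _ (fun v => hF0 _) hLs (h0s F h0)
    rw [hI F (fun p => c.tau p.1 p.2 + κ * (2 * c.f p.1 / s ^ 2)) h0, k2] at h1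
    rw [hI' F hLf.continuous.measurable]
    have k6 : ∫ p, F (c.x p.1) * (c.tau p.1 p.2 + κ * (2 * c.f p.1 / s ^ 2)) ∂(VK (VD Dd) K) =
        ∫ p, F (c.x p.1) * (c.tau p.1 p.2 + κ / s ^ 2 * (2 * c.f p.1)) ∂(VK (VD Dd) K) := by
      congr 1
      ext p
      ring
    rw [k6, NNReal.coe_mul, Real.coe_toNNReal _ hs.le] at h1
    calc s ^ m * ∫ v, F (s • v) ∂e ≤ s ^ m * _ := mul_le_mul_of_nonneg_left h1 hsm.le
      _ = _ := by
        have hsi : s ^ m * (s ^ m)⁻¹ = 1 := mul_inv_cancel₀ hsm.ne'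
        generalize (∫ p, F (c.x p.1) * (c.tau p.1 p.2 + κ / s ^ 2 * (2 * c.f p.1)) ∂(VK (VD Dd) K)) = A
        generalize ttot c (VD Dd) K κ s (1 + ε) * ttot c (VD Dd) K κ s (1 + ε) ^ (1 / (m : ℝ)) = P
        linear_combination (C1 * A) * hsi
  · have k1 : e'.real (closedBall 0 ((1 + ε / 2) * s)) =
        s ^ m * e.real (closedBall 0 (1 + ε / 2)) := by
      rw [he', measureReal_def, Measure.smul_apply, smul_eq_mul, ENNReal.toReal_mul,
        ENNReal.toReal_ofReal hsm.le, Measure.map_apply hmeas measurableSet_closedBall]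
      congr 2
      congr 1
      ext v
      rw [mem_preimage, mem_closedBall_zero_iff, mem_closedBall_zero_iff, norm_smul,
        Real.norm_eq_abs, abs_of_pos hs, mul_comm]
      exact mul_le_mul_iff_left₀ hs
    rw [k1]
    rw [k2] at hm
    unfold ttot at hm
    calc s ^ m * e.real (closedBall 0 (1 + ε / 2)) ≤ s ^ m * (Ct / ε ^ (2 * m) * ((s ^ m)⁻¹ *
          ∫ p in Wr c K ((1 + ε) * s) ×ˢ univ,
            (c.tau p.1 p.2 + κ * (2 * c.f p.1 / s ^ 2)) ∂(VD Dd))) := by gcongr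
      _ = _ := by field_simp

end Crest.Agent.R234.Tv_618
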