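import Crest.Agent.R234.Fin1_618
import Crest.Agent.R234.Tv10_618

/-!
# Row 234, F3 (helper618), (FIN), part 2: the abstract assembly with constants
-/

set_option autoImplicit false

open Set Filter Topology MeasureTheory Metric Function
open Crest.GeometryTopology.Submanifold
open scoped ENNReal NNReal

noncomputable section

namespace Crest.Agent.R234.Fin_618

open Crest.Agent.R234.F31_354 Crest.Agent.R234.F34_354
open Crest.Agent.R234.Th_164 (om vol_ball om_pos)

variable {m : ℕ}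

theorem vol_cball (x : Euc m) {r : ℝ} (hr : 0 < r) :
    (volume : Measure (Euc m)).real (closedBall x r) = om m * r ^ m := by
  rw [← vol_ball x hr, measureReal_def, measureReal_def, Measure.addHaar_closedBall _ _ hr.le,
    Measure.addHaar_ball_of_pos _ _ hr]

/-- the constant of the assembly -/
def P0 (m : ℕ) (C : ℝ) : ℝ := C * om m * 16 ^ m

def C3 (m : ℕ) (C : ℝ) : ℝ := 104 * C * P0 m C + 25 * C + P0 m C

theorem P0_nonneg {C : ℝ} (hC : 1 ≤ C) : 0 ≤ P0 m C := by
  unfold P0; have := om_pos m; positivity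

/-- **assembly with constants** -/
theorem asm1 {C κ t D ε M A : ℝ} (hC : 1 ≤ C) (hκ : 0 ≤ κ) (hκ1 : κ ≤ 1) (ht : 0 < t)
    (ht1 : t ≤ 1 / 100) (hD : 0 ≤ D) (hDt : D ≤ t) (h16 : 16 * t ≤ ε / 4) (hA0 : 0 ≤ A)
    {β : Euc m → Euc m → ℝ} {wt : Euc m → ℝ} {W θ : ℝ}
    (hK : Kern volume β wt t θ W 1) (hθ : θ ≤ C * t) (hθ1 : θ ≤ 1) (hW : 0 ≤ W)
    (hWt : W ≤ C / t ^ m) (b₁ b₂ e μq μτ : Measure (Euc m)) [IsFiniteMeasure b₁]
    [IsFiniteMeasure b₂] [IsFiniteMeasure e] [IsFiniteMeasure μq] [IsFiniteMeasure μτ]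
    {φ : Euc m → ℝ} (hφ : LipschitzWith 6 φ) (hφ0 : ∀ x, 0 ≤ φ x) (hφ1 : ∀ x, φ x ≤ 1)
    (hφR : ∀ x, 1 < ‖x‖ → φ x = 0)
    (hA : ∀ v, φ v ≠ 0 → ∫ y, β v y ∂b₁ - ∫ y, β v y ∂b₂ ≤
      C * (κ ^ 2 * μq.real (closedBall v (16 * t))) +
      C * (((κ * t) ^ 2 + κ * t * √D + D) * μτ.real (closedBall v (16 * t))) +
      C * (κ * t) ^ 2 * e.real (closedBall v (2 * t)) + t ^ m * A)
    (habs : ∀ f : Euc m → ℝ, Measurable f → (∃ C, ∀ y, |f y| ≤ C) →
      (∀ y, y ∉ closedBall (0 : Euc m) (1 + ε / 4) → f y = 0) →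
      ∫ y, f y ∂b₁ - ∫ y, f y ∂b₂ ≤ ∫ y, |f y| ∂e)
    (he : e.real (closedBall 0 (1 + ε / 4)) ≤ M) (hτ : μτ.real (closedBall 0 (1 + ε / 4)) ≤ M)
    (hq : μq.real (closedBall 0 (1 + ε / 4)) ≤ M) :
    ∫ y, φ y ∂b₁ - ∫ y, φ y ∂b₂ ≤ C3 m C * (κ ^ 2 * ∫ y, φ y ∂μq) + C3 m C * (t * M + A) := by
  have hom := om_pos m
  have hC0 : 0 < C := by linarith
  have hM0 : 0 ≤ M := measureReal_nonneg.trans he
  have hP := P0_nonneg (m := m) hC
  set P := P0 m C with hPdef
  have hφm : Measurable φ := hφ.continuous.measurable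
  have hφi : ∀ (μ : Measure (Euc m)) [IsFiniteMeasure μ], Integrable φ μ := by
    intro μ _
    refine Integrable.mono' (integrable_const 1) hφm.aestronglyMeasurable
      (Filter.Eventually.of_forall fun x => ?_)
    rw [Real.norm_eq_abs, abs_of_nonneg (hφ0 x)]
    exact hφ1 x
  set c₁ : ℝ := (κ * t) ^ 2 + κ * t * √D + D with hc₁
  have hκt : κ * t ≤ t := by nlinarith
  have hκt0 : 0 ≤ κ * t := by positivity
  have ht10 : t ≤ 1 := by linarith
  have hκt2 : (κ * t) ^ 2 ≤ t := by nlinarith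
  have hsD : √D ≤ 1 := Real.sqrt_le_one.2 (by linarith)
  have hc₁0 : 0 ≤ c₁ := by positivity
  have hc₁3 : c₁ ≤ 3 * t := by
    have h1 : κ * t * √D ≤ t * 1 := mul_le_mul hκt hsD (Real.sqrt_nonneg _) ht.le
    rw [hc₁]; linarith
  set μ : Measure (Euc m) := ENNReal.ofReal (C * κ ^ 2) • μq + ENNReal.ofReal (C * c₁) • μτ with hμ
  have i1 : IsFiniteMeasure (ENNReal.ofReal (C * κ ^ 2) • μq) :=
    ⟨by rw [Measure.smul_apply, smul_eq_mul]; exact ENNReal.mul_lt_top ENNReal.ofReal_lt_top (measure_lt_top _ _)⟩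
  have i2 : IsFiniteMeasure (ENNReal.ofReal (C * c₁) • μτ) :=
    ⟨by rw [Measure.smul_apply, smul_eq_mul]; exact ENNReal.mul_lt_top ENNReal.ofReal_lt_top (measure_lt_top _ _)⟩
  have i3 : IsFiniteMeasure μ := by rw [hμ]; infer_instance
  have hμr : ∀ S : Set (Euc m), μ.real S = C * κ ^ 2 * μq.real S + C * c₁ * μτ.real S := by
    intro S
    rw [hμ, measureReal_add_apply, measureReal_def, measureReal_def, Measure.smul_apply,
      Measure.smul_apply, smul_eq_mul, smul_eq_mul, ENNReal.toReal_mul, ENNReal.toReal_mul,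
      ENNReal.toReal_ofReal (by positivity), ENNReal.toReal_ofReal (by positivity)]
    rfl
  have hsub : ∀ {r : ℝ}, r ≤ 16 * t → closedBall (0 : Euc m) (1 + r) ⊆ closedBall 0 (1 + ε / 4) :=
    fun hr => closedBall_subset_closedBall (by linarith)
  have h := asm0 (vol := (volume : Measure (Euc m))) hK ht.le hθ1 hW b₁ b₂ e μ hφ hφ0 hφ1
    hφR (r₁ := 16 * t) (c₃ := C * (κ * t) ^ 2) (A₀ := t ^ m * A) (by positivity) (by positivity)
    (by positivity)
    (by
      intro v hv
      refine (hA v hv).trans (le_of_eq ?_)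
      rw [hμr]; ring)
    (fun f hf hb h0 => habs f hf hb fun y hy => h0 y fun hc => hy (hsub (by linarith) hc))
  refine h.trans ?_
  -- the four terms
  have hWP : W * (volume : Measure (Euc m)).real (closedBall (0 : Euc m) (16 * t)) ≤ P := by
    rw [vol_cball _ (by positivity), mul_pow]
    calc W * (om m * (16 ^ m * t ^ m)) ≤ C / t ^ m * (om m * (16 ^ m * t ^ m)) := by gcongr
      _ = P := by rw [hPdef]; unfold P0; field_simp
  have hWP2 : W * (volume : Measure (Euc m)).real (closedBall (0 : Euc m) (2 * t)) ≤ P := by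
    refine (mul_le_mul_of_nonneg_left ?_ hW).trans hWP
    exact measureReal_mono (closedBall_subset_closedBall (by linarith))
      (measure_closedBall_lt_top.ne)
  have hWP3 : W * (volume : Measure (Euc m)).real (closedBall (0 : Euc m) 1) * (t ^ m * A) ≤
      P * A := by
    rw [vol_cball _ one_pos, one_pow, mul_one]
    calc W * om m * (t ^ m * A) ≤ C / t ^ m * om m * (t ^ m * A) := by gcongr
      _ = C * om m * 1 * A := by field_simp
      _ ≤ C * om m * 16 ^ m * A := by
          gcongr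
          exact one_le_pow₀ (by norm_num)
      _ = P * A := by rw [hPdef]; unfold P0; ring
  have hS : ∀ (ν : Measure (Euc m)) [IsFiniteMeasure ν], ν.real (closedBall 0 (1 + ε / 4)) ≤ M →
      ∫ y in closedBall (0 : Euc m) (1 + 16 * t), (φ y + (6 : ℝ≥0) * (16 * t)) ∂ν ≤
        ∫ y, φ y ∂ν + 96 * t * M := by
    intro ν _ hν
    rw [integral_add (hφi ν).integrableOn (integrable_const _), setIntegral_const, smul_eq_mul]
    refine add_le_add (setIntegral_le_integral (hφi ν) (Eventually.of_forall hφ0)) ?_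
    have h1 : ν.real (closedBall 0 (1 + 16 * t)) ≤ M :=
      (measureReal_mono (hsub le_rfl) (measure_ne_top _ _)).trans hν
    calc ν.real (closedBall 0 (1 + 16 * t)) * (((6 : ℝ≥0) : ℝ) * (16 * t)) ≤
          M * (((6 : ℝ≥0) : ℝ) * (16 * t)) := by gcongr
      _ = _ := by push_cast; ring
  have hSτ : ∫ y in closedBall (0 : Euc m) (1 + 16 * t), (φ y + (6 : ℝ≥0) * (16 * t)) ∂μτ ≤
      2 * M := by
    have h1 : μτ.real (closedBall 0 (1 + 16 * t)) ≤ M :=
      (measureReal_mono (hsub le_rfl) (measure_ne_top _ _)).trans hτ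
    calc ∫ y in closedBall (0 : Euc m) (1 + 16 * t), (φ y + (6 : ℝ≥0) * (16 * t)) ∂μτ ≤
          ∫ y in closedBall (0 : Euc m) (1 + 16 * t), (2 : ℝ) ∂μτ := by
          refine integral_mono ((hφi _).integrableOn.add (integrable_const _))
            (integrable_const _) fun y => ?_
          have := hφ1 y
          simp only
          push_cast
          linarith
      _ = μτ.real (closedBall 0 (1 + 16 * t)) * 2 := by rw [setIntegral_const, smul_eq_mul]
      _ ≤ _ := by linarith
  have hI : ∫ y in closedBall (0 : Euc m) (1 + 16 * t), (φ y + (6 : ℝ≥0) * (16 * t)) ∂μ ≤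
      C * κ ^ 2 * ∫ y, φ y ∂μq + 102 * C * (t * M) := by
    have hint : ∀ (ν : Measure (Euc m)) [IsFiniteMeasure ν],
        Integrable (fun y => φ y + (6 : ℝ≥0) * (16 * t)) (ν.restrict (closedBall 0 (1 + 16 * t))) :=
      fun ν _ => (hφi ν).integrableOn.add (integrable_const _)
    rw [hμ, Measure.restrict_add, integral_add_measure, Measure.restrict_smul,
      Measure.restrict_smul, integral_smul_measure, integral_smul_measure,
      ENNReal.toReal_ofReal (by positivity), ENNReal.toReal_ofReal (by positivity), smul_eq_mul,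
      smul_eq_mul]
    · have a1 := hS μq hq
      have a2 := mul_le_mul_of_nonneg_left a1 (by positivity : 0 ≤ C * κ ^ 2)
      have a3 := mul_le_mul_of_nonneg_left hSτ (by positivity : 0 ≤ C * c₁)
      have a4 : C * κ ^ 2 * (96 * t * M) ≤ C * 1 * (96 * t * M) := by
        gcongr
        exact pow_le_one₀ hκ hκ1
      have a5 : C * c₁ * (2 * M) ≤ C * (3 * t) * (2 * M) := by gcongr
      linarith
    · rw [Measure.restrict_smul]
      exact Integrable.smul_measure (hint μq) ENNReal.ofReal_ne_top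
    · rw [Measure.restrict_smul]
      exact Integrable.smul_measure (hint μτ) ENNReal.ofReal_ne_top
  have hI0 : 0 ≤ ∫ y, φ y ∂μq := integral_nonneg hφ0
  have he2 : e.real (closedBall 0 (1 + 2 * t)) ≤ M :=
    (measureReal_mono (hsub (by linarith)) (measure_ne_top _ _)).trans he
  have T1 : W * (volume : Measure (Euc m)).real (closedBall (0 : Euc m) (16 * t)) *
        ∫ y in closedBall (0 : Euc m) (1 + 16 * t), (φ y + (6 : ℝ≥0) * (16 * t)) ∂μ ≤
      P * (C * κ ^ 2 * ∫ y, φ y ∂μq + 102 * C * (t * M)) := by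
    refine mul_le_mul hWP hI ?_ hP
    refine integral_nonneg fun y => ?_
    have := hφ0 y
    positivity
  have T2 : C * (κ * t) ^ 2 * (W * (volume : Measure (Euc m)).real (closedBall (0 : Euc m) (2 * t))) *
      (1 + (6 : ℝ≥0) * (2 * t)) * e.real (closedBall (0 : Euc m) (1 + 2 * t)) ≤
      2 * C * P * (t * M) := by
    calc C * (κ * t) ^ 2 * (W * (volume : Measure (Euc m)).real (closedBall (0 : Euc m) (2 * t))) *
      (1 + (6 : ℝ≥0) * (2 * t)) * e.real (closedBall (0 : Euc m) (1 + 2 * t)) ≤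
        C * t * P * 2 * M := by
          gcongr
          push_cast
          linarith
      _ = _ := by ring
  have T4 : (θ + 4 * (6 : ℝ≥0) * t) * e.real (closedBall 0 (1 + 2 * t)) ≤ 25 * C * (t * M) := by
    calc (θ + 4 * (6 : ℝ≥0) * t) * e.real (closedBall 0 (1 + 2 * t)) ≤ (25 * C * t) * M := by
          refine mul_le_mul ?_ he2 measureReal_nonneg (by positivity)
          push_cast
          nlinarith
      _ = _ := by ring
  have hC3' : C3 m C = 104 * (C * P) + 25 * C + P := by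
    rw [hPdef]; unfold C3; ring
  have hCP : 0 ≤ C * P := by positivity
  have hC3 : P * C ≤ C3 m C := by
    rw [hC3', mul_comm P C]
    linarith
  have F1 : P * (C * κ ^ 2 * ∫ y, φ y ∂μq) ≤ C3 m C * (κ ^ 2 * ∫ y, φ y ∂μq) := by
    calc P * (C * κ ^ 2 * ∫ y, φ y ∂μq) = P * C * (κ ^ 2 * ∫ y, φ y ∂μq) := by ring
      _ ≤ _ := by gcongr
  have htM : 0 ≤ t * M := by positivity
  have F2 : 102 * C * P * (t * M) + 2 * C * P * (t * M) + 25 * C * (t * M) + P * A ≤
      C3 m C * (t * M + A) := by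
    rw [hC3']
    have a1 : 0 ≤ (104 * (C * P) + 25 * C) * A := by positivity
    have a2 : 0 ≤ P * (t * M) := by positivity
    have a3 : (104 * (C * P) + 25 * C + P) * (t * M + A) =
        102 * C * P * (t * M) + 2 * C * P * (t * M) + 25 * C * (t * M) + P * A +
          (P * (t * M) + (104 * (C * P) + 25 * C) * A) := by ring
    rw [a3]
    linarith
  have e1 : P * (C * κ ^ 2 * ∫ y, φ y ∂μq + 102 * C * (t * M)) =
      P * (C * κ ^ 2 * ∫ y, φ y ∂μq) + 102 * C * P * (t * M) := by ring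
  linarith

end Crest.Agent.R234.Fin_618
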