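import Crest.Agent.R234.Gs9_685
import Crest.Agent.R234.Lk1_456

/-!
R234 (helper685): sharp bound of the heights over the smaller CYLINDER (in the linear coordinate
`π (z - x)`), minimality of the reference only over the cylinder.
-/

set_option autoImplicit false
set_option linter.unusedSectionVars false

open MeasureTheory Metric Set Filter Topology
open scoped InnerProductSpace ContDiff ENNReal

namespace Crest.Agent.R234.Sp_685

open Crest.GeometryTopology.Submanifold Crest.Agent.R234.Vf_884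
open Crest.Agent.R234.Main_456 Crest.Agent.R234.Gi_456
open Crest.Agent.R234.Supm_685 Crest.Agent.R234.Gs_685 Crest.Agent.R234.Gv_685
open Crest.Agent.R234.Gu_685 (dsq dsq_eq dsq_nonneg dsq_eq_norm)
open Crest.Agent.R234.Ell1_3 (gop ginv)
open Crest.Agent.R234.GL_394 (Loc VK On II)
open Crest.Agent.R234.GI_640 (g31)

noncomputable section

variable {m n k : ℕ} {U K : Set (Euc k)} {V : Measure (Euc k × L k)}
  {π : Euc k →L[ℝ] Euc m} {ρ : Euc k →L[ℝ] Euc n} {x : Euc k} {r : ℝ} {w : Euc m → Euc n}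
  {X0 : Euc m} {κ Λ s t M l N d δ h0 : ℝ} {z0 : Euc k}

/-- **(S1) at a point**, minimality only over the projection of the ball. -/
theorem sup_pt2 (hf : Frame π ρ) (hw : Gr r w)
    (h : Loc (ch π ρ x r w X0) U (tube π ρ x r w) K V Λ) (hm : 1 ≤ m)
    (hh0 : ‖ρ (z0 - x) - w (π (z0 - x))‖ ≤ r / 2)
    (htΛ : t ≤ Real.exp Λ) (hd : 0 < d) (hdr : 4 * m * d ≤ r) (hz0 : z0 ∈ K)
    (hs : ‖(ch π ρ x r w X0).x z0‖ + 65 / 32 * d ≤ t) (hU : closedBall z0 d ⊆ U)
    (hmn : ∀ X, ‖X - π (z0 - x)‖ < d → Msys w X = 0) {A : ℝ} (hA0 : 0 ≤ A)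
    (hA : ENNReal.ofReal A ≤ Th m V z0) :
    A * ome m * (2 * (ch π ρ x r w X0).f z0) ≤ 2 * ((d ^ m)⁻¹ *
      ∫ p in {p : Euc k × L k | ‖(ch π ρ x r w X0).x p.1‖ ≤ t}, 2 * (ch π ρ x r w X0).f p.1 ∂(VK V K)) := by
  have hm' : (1:ℝ) ≤ m := by exact_mod_cast hm
  have hr := hw.pos
  have hd4 : d ≤ r / 4 := by nlinarith
  have hWt : K ⊆ tube π ρ x r w := h.sub.trans inter_subset_left
  have ht0 : z0 ∈ tube π ρ x r w := hWt hz0
  -- points of the ball are in the tube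
  have hball : ∀ z ∈ ball z0 d, z ∈ tube π ρ x r w ∩ U ∧ ‖(ch π ρ x r w X0).x z‖ ≤ t := by
    intro z hz
    have hzd : ‖z - z0‖ < d := by rwa [mem_ball, dist_eq_norm] at hz
    have h1 := hgt_sub_le (x := x) hf hw z z0
    have h3 : z ∈ tube π ρ x r w := by
      change ‖ρ (z - x) - w (π (z - x))‖ < r
      linarith
    refine ⟨⟨h3, hU (ball_subset_closedBall hz)⟩, ?_⟩
    have h4 := norm_chx_sub (X0 := X0) hf hw h3 ht0
    have h5 : (ch π ρ x r w X0).x z = (ch π ρ x r w X0).x z0 +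
      ((ch π ρ x r w X0).x z - (ch π ρ x r w X0).x z0) := by abel
    rw [h5]
    refine (norm_add_le _ _).trans ?_
    linarith
  have hgap : ∀ᵐ p ∂V, p.1 ∈ ball z0 d → p.1 ∈ K := by
    filter_upwards [h.gap] with p hp hpb
    obtain ⟨h1, h2⟩ := hball _ hpb
    exact hp h1 (h2.trans htΛ)
  have hmin : ∀ z ∈ ball z0 d, MinAt (EuclideanSpace.basisFun (Fin m) ℝ) π x 1 w (1 / (8 * r)) z := by
    intro z hz
    have hzd : ‖z - z0‖ < d := by rwa [mem_ball, dist_eq_norm] at hz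
    refine ⟨by simpa [bz] using hw.d2 (π (z - x)), ?_⟩
    have h1 : ‖π (z - x) - π (z0 - x)‖ < d := by
      have e0 : π (z - x) - π (z0 - x) = π (z - z0) := by rw [← map_sub]; congr 1; abel
      rw [e0]
      exact (norm_pi_le' hf (z - z0)).trans_lt hzd
    have h2 := hmn _ h1
    have h4 : ∀ i, (EuclideanSpace.basisFun (Fin m) ℝ) i = stdVec m i := fun i => by
      simp [stdVec]
    simp only [bz, inv_one, one_smul, h4]
    exact h2
  have hV := h.st
  have hc : ContinuousOn (dsq π ρ x r w) K := (continuousOn_dsq hf hw).mono hWt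
  have hfin : V (K ×ˢ univ) < ⊤ := hV.fin K h.cpt (h.sub.trans inter_subset_right)
  have hmeasK : MeasurableSet (K ×ˢ (univ : Set (L k))) :=
    h.cpt.isClosed.measurableSet.prod MeasurableSet.univ
  have hintK : IntegrableOn (fun p : Euc k × L k => dsq π ρ x r w p.1) (K ×ˢ univ) V := by
    obtain ⟨C, hC⟩ := h.cpt.exists_bound_of_continuousOn hc
    have hfm : IsFiniteMeasure (V.restrict (K ×ˢ univ)) :=
      ⟨by rw [Measure.restrict_apply_univ]; exact hfin⟩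
    refine Integrable.mono' (integrable_const C) ?_ ?_
    · exact (hc.comp continuousOn_fst (fun p hp => hp.1)).aestronglyMeasurable hmeasK
    · filter_upwards [ae_restrict_mem hmeasK] with p hp
      exact hC p.1 hp.1
  have hBK : (Prod.fst ⁻¹' ball z0 d : Set (Euc k × L k)) ≤ᵐ[V] (K ×ˢ univ : Set (Euc k × L k)) := by
    filter_upwards [hgap] with p hp hpb
    exact ⟨hp hpb, mem_univ _⟩
  have hB := sup_ball (e := EuclideanSpace.basisFun (Fin m) ℝ) (u := w)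
    (x := foot π ρ x r w) (y := yy π ρ x r w) (q0 := x) (Al7_182.st_of_stat hV) (Al7_182.tr_ae hV)
    (by simp) (fr_of_frame hf) (Gr_bd hw) (by positivity) hd hU (ptOk hw ht0)
    (Eventually.of_forall fun p hp => ⟨hmin _ hp, ptOk hw (hball _ hp).1.1⟩)
    (hintK.mono_set_ae hBK) ?_ (mul_nonneg hA0 (ome_pos m).le) (dens_of_Th hV hm hd hU hA0 hA)
  · rw [← dsq_eq, ← two_f hf (X0 := X0)] at hB
    refine hB.trans (mul_le_mul_of_nonneg_left (mul_le_mul_of_nonneg_left ?_ (by positivity))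
      zero_le_two)
    have hmB : MeasurableSet (Prod.fst ⁻¹' ball z0 d : Set (Euc k × L k)) :=
      (isOpen_ball.preimage continuous_fst).measurableSet
    have e1 : V.restrict (Prod.fst ⁻¹' ball z0 d) =
        (VK V K).restrict (Prod.fst ⁻¹' ball z0 d) := by
      rw [GL_394.VK, Measure.restrict_restrict hmB]
      refine Measure.restrict_congr_set ?_
      filter_upwards [hgap] with p hp
      exact propext ⟨fun h1 => ⟨h1, hp h1, mem_univ _⟩, fun h1 => h1.1⟩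
    rw [e1]
    have e2 : ∀ p : Euc k × L k, tf w (foot π ρ x r w) (yy π ρ x r w) p.1 =
        2 * (ch π ρ x r w X0).f p.1 := fun p => by rw [two_f hf, dsq_eq]
    simp only [e2]
    refine setIntegral_mono_set ?_ (Eventually.of_forall fun p => ?_)
      (LE.le.eventuallyLE fun p hp => (hball _ hp).2)
    · have e3 : Integrable (fun p : Euc k × L k => 2 * (ch π ρ x r w X0).f p.1) (VK V K) := by
        refine Integrable.congr hintK (Eventually.of_forall fun p => ?_)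
        simp only [two_f hf]
      exact e3.integrableOn
    · simp only [two_f hf]
      exact dsq_nonneg _
  · have e1 : (m:ℝ) * d ^ 2 ≤ r ^ 2 := by
      have : (m:ℝ) * d ≤ r / 4 := by linarith
      nlinarith
    have e2 : 64 * (m:ℝ) * (1 / (8 * r)) ^ 2 * d ^ 2 = m * d ^ 2 / r ^ 2 := by
      field_simp; ring
    rw [e2, div_le_one (by positivity)]
    exact e1

/-- `‖hgt‖² ≤ 4 f` -/
theorem hgt_sq_le (hf : Frame π ρ) (hw : Gr r w) {z : Euc k} (hz : z ∈ tube π ρ x r w) :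
    ‖ρ (z - x) - w (π (z - x))‖ ^ 2 ≤ 2 * (2 * (ch π ρ x r w X0).f z) := by
  rw [two_f hf]
  have h1 := hw.norm_yy_sub hz
  have h2 : ‖yy π ρ x r w z‖ ^ 2 ≤ dsq π ρ x r w z := by
    unfold dsq
    have := sq_nonneg ‖ContinuousLinearMap.adjoint (fderiv ℝ w (foot π ρ x r w z))
      (yy π ρ x r w z)‖
    linarith
  set H := ρ (z - x) - w (π (z - x)) with hH
  have h3 : ‖H‖ ≤ 32 / 31 * ‖yy π ρ x r w z‖ := by
    have e1 : ‖H‖ ≤ ‖yy π ρ x r w z‖ + ‖yy π ρ x r w z - H‖ := norm_le_norm_add_norm_sub _ _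
    linarith
  have h4 : ‖H‖ ^ 2 ≤ (32 / 31 * ‖yy π ρ x r w z‖) ^ 2 := pow_le_pow_left₀ (norm_nonneg _) h3 2
  have h5 : (32 / 31 * ‖yy π ρ x r w z‖) ^ 2 ≤ 2 * ‖yy π ρ x r w z‖ ^ 2 := by
    nlinarith [sq_nonneg ‖yy π ρ x r w z‖]
  linarith

/-- numbers of the collar -/
theorem collar (l : ℝ) {δ : ℝ} (h0 : 0 < δ) (h1 : δ ≤ 1 / 4) :
    1 / 5 * δ * Real.exp l ≤ Real.exp (l - δ / 2) - Real.exp (l - δ) ∧
      1 / 2 * δ * Real.exp l ≤ Real.exp l - Real.exp (l - δ) := by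
  have hE := Real.exp_pos l
  have e1 : Real.exp (l - δ / 2) = Real.exp l * Real.exp (-(δ / 2)) := by
    rw [← Real.exp_add]; congr 1
  have e2 : Real.exp (l - δ) = Real.exp l * Real.exp (-δ) := by
    rw [← Real.exp_add]; congr 1
  have e3 : Real.exp (-δ) = Real.exp (-(δ / 2)) * Real.exp (-(δ / 2)) := by
    rw [← Real.exp_add]; congr 1; ring
  have e4 : 1 - δ / 2 ≤ Real.exp (-(δ / 2)) := by
    have := Real.add_one_le_exp (-(δ / 2)); linarith
  have e5 : δ / 4 ≤ 1 - Real.exp (-(δ / 2)) := by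
    have := half_le_one_sub_exp (δ := δ / 2) (by linarith) (by linarith); linarith
  have e6 : δ / 2 ≤ 1 - Real.exp (-δ) := half_le_one_sub_exp h0.le (by linarith)
  rw [e1, e2]
  constructor
  · rw [e3]
    have e7 : 1 / 5 * δ ≤ Real.exp (-(δ / 2)) * (1 - Real.exp (-(δ / 2))) := by
      calc 1 / 5 * δ ≤ 7 / 8 * (δ / 4) := by linarith
        _ ≤ Real.exp (-(δ / 2)) * (1 - Real.exp (-(δ / 2))) := by
          refine mul_le_mul (by linarith) e5 (by positivity) (Real.exp_pos _).le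
    calc 1 / 5 * δ * Real.exp l ≤ Real.exp (-(δ / 2)) * (1 - Real.exp (-(δ / 2))) * Real.exp l := by
          gcongr
      _ = _ := by ring
  · calc 1 / 2 * δ * Real.exp l ≤ (1 - Real.exp (-δ)) * Real.exp l := by
          gcongr; linarith
      _ = _ := by ring

/-- the chart radius over the smaller cylinder -/
theorem chx_le (hw : Gr r w) {z : Euc k} (hz : z ∈ tube π ρ x r w)
    (h0 : 0 < δ) (h1 : δ ≤ 1 / 4) (hq : ‖fderiv ℝ w 0‖ ≤ δ / 64)
    (hπ : ‖π (z - x)‖ ≤ Real.exp (l - δ))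
    (hh : ‖ρ (z - x) - w (π (z - x))‖ ≤ δ / 8 * Real.exp l) :
    ‖(ch π ρ x r w 0).x z‖ ≤ Real.exp (l - δ) + 1 / 20 * δ * Real.exp l := by
  have hE := Real.exp_pos l
  have e1 : ‖(ch π ρ x r w 0).x z‖ ≤ (1 + δ / 64) * ‖foot π ρ x r w z‖ := by
    show ‖Lo (fderiv ℝ w 0) (foot π ρ x r w z - 0)‖ ≤ _
    rw [sub_zero]
    set X := foot π ρ x r w z
    have h1 := norm_Lo_sq (fderiv ℝ w 0) X
    have h2 : ‖fderiv ℝ w 0 X‖ ≤ δ / 64 * ‖X‖ :=
      (ContinuousLinearMap.le_opNorm _ _).trans (by gcongr)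
    have h3 : ‖fderiv ℝ w 0 X‖ ^ 2 ≤ (δ / 64 * ‖X‖) ^ 2 := pow_le_pow_left₀ (norm_nonneg _) h2 2
    refine abs_le_of_sq_le_sq' ?_ (by positivity) |>.2
    nlinarith [mul_nonneg h0.le (sq_nonneg ‖X‖)]
  have e2 := hw.norm_foot_sub hz
  have e3 : ‖foot π ρ x r w z‖ ≤ ‖π (z - x)‖ + ‖foot π ρ x r w z - π (z - x)‖ :=
    norm_le_norm_add_norm_sub' _ _
  have e4 : ‖foot π ρ x r w z‖ ≤ Real.exp (l - δ) + δ / 32 * Real.exp l := by linarith
  have e5 : Real.exp (l - δ) ≤ Real.exp l := Real.exp_le_exp.2 (by linarith)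
  refine e1.trans ?_
  calc (1 + δ / 64) * ‖foot π ρ x r w z‖ ≤ (1 + δ / 64) * (Real.exp (l - δ) + δ / 32 * Real.exp l) := by
        gcongr
    _ = Real.exp (l - δ) + δ / 64 * Real.exp (l - δ) + (1 + δ / 64) * (δ / 32 * Real.exp l) := by
        ring
    _ ≤ Real.exp (l - δ) + δ / 64 * Real.exp l + (1 + 1 / 256) * (δ / 32 * Real.exp l) := by
        have e6 : δ / 64 ≤ 1 / 256 := by linarith
        gcongr
    _ ≤ _ := by nlinarith

/-- **the sharp sup bound over the smaller cylinder, at a point**: minimality of `w` only on the open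
ball of radius `e^l`, crude height `δ/8 e^l` at the point, slope `≤ δ/64` at the centre. -/
theorem sup_cyl (hf : Frame π ρ) (hw : Gr r w)
    (h : Loc (ch π ρ x r w 0) U (tube π ρ x r w) K V Λ) (hm : 1 ≤ m)
    (h0 : 0 < δ) (h1 : δ ≤ 1 / 4) (hlr : Real.exp l ≤ r) (hlΛ : l - δ / 2 ≤ Λ)
    (hq : ‖fderiv ℝ w 0‖ ≤ δ / 64) (hz0 : z0 ∈ K) (hU : closedBall z0 (r / 64) ⊆ U)
    (hπ : ‖π (z0 - x)‖ ≤ Real.exp (l - δ))
    (hh : ‖ρ (z0 - x) - w (π (z0 - x))‖ ≤ δ / 8 * Real.exp l)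
    (hmn : ∀ X ∈ ball (0 : Euc m) (Real.exp l), Msys w X = 0)
    (hmu : ∀ v : Euc m, ‖v‖ ≤ Real.exp l → 1 / 2 ≤ (ch π ρ x r w 0).mu v)
    (hTh : 1 ≤ Th m V z0) :
    ‖ρ (z0 - x) - w (π (z0 - x))‖ ^ 2 ≤
      8 * (32 * m) ^ m / ome m * (δ⁻¹ ^ (m + 2) * II (ch π ρ x r w 0) (VK V K) g31 l) := by
  have hm' : (1:ℝ) ≤ m := by exact_mod_cast hm
  have hr := hw.pos
  have hE := Real.exp_pos l
  have hom := ome_pos m
  have hWt : K ⊆ tube π ρ x r w := h.sub.trans inter_subset_left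
  have ht0 : z0 ∈ tube π ρ x r w := hWt hz0
  obtain ⟨c1, c2⟩ := collar l h0 h1
  have hx := chx_le hw ht0 h0 h1 hq hπ hh
  set d := δ * Real.exp l / (32 * m) with hd
  have hd0 : 0 < d := by positivity
  have hd32 : d ≤ δ * Real.exp l / 32 := by
    rw [hd]
    gcongr
    linarith
  have hdr : 4 * m * d = δ * Real.exp l / 8 := by rw [hd]; field_simp; norm_num
  have hδE : δ * Real.exp l ≤ 1 / 4 * r := mul_le_mul h1 hlr hE.le (by norm_num)
  have key := sup_pt2 (A := 1) hf hw h hm (t := Real.exp (l - δ / 2)) (d := d) (by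
      refine hh.trans ?_
      have : δ / 8 * Real.exp l = δ * Real.exp l / 8 := by ring
      rw [this]; linarith) (Real.exp_le_exp.2 hlΛ) hd0 (by rw [hdr]; linarith) hz0 (by
      have : 65 / 32 * d ≤ 65 / 32 * (δ * Real.exp l / 32) := by gcongr
      nlinarith)
    ((closedBall_subset_closedBall (by linarith)).trans hU)
    (fun X hX => hmn X (by
      rw [mem_ball_zero_iff]
      have e1 := norm_le_norm_add_norm_sub' X (π (z0 - x))
      nlinarith)) zero_le_one (by rw [ENNReal.ofReal_one]; exact hTh)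
  rw [one_mul] at key
  have hok := hw.ok hf (0 : Euc m) (x := x) h.cpt hWt
  have h3 := int_le_II3 (l := l - δ) (δ := δ) hok h.toOn h0 (by linarith) (fun z _ hz2 => hmu _
    (hz2.trans (Real.exp_le_exp.2 (by linarith))))
  have e1 : l - δ + δ / 2 = l - δ / 2 := by ring
  have e2 : l - δ + δ = l := by ring
  rw [e1, e2] at h3
  have h4 := hgt_sq_le (X0 := 0) hf hw ht0
  refine h4.trans ?_
  set J := II (ch π ρ x r w 0) (VK V K) g31 l with hJ
  have h5 : ome m * (2 * (ch π ρ x r w 0).f z0) ≤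
      4 * (32 * m) ^ m * (δ⁻¹ ^ (m + 2) * J) := by
    refine key.trans ?_
    calc 2 * ((d ^ m)⁻¹ * ∫ p in {p : Euc k × L k | ‖(ch π ρ x r w 0).x p.1‖ ≤
          Real.exp (l - δ / 2)}, 2 * (ch π ρ x r w 0).f p.1 ∂(VK V K)) ≤
        2 * ((d ^ m)⁻¹ * (Real.exp (m * l) * (2 * (δ ^ 2)⁻¹ * J))) := by gcongr
      _ = 4 * (32 * m) ^ m * (δ⁻¹ ^ (m + 2) * J) := by
        have e3 : Real.exp (m * l) = Real.exp l ^ m := by rw [← Real.exp_nat_mul]
        have e4 : (d ^ m)⁻¹ = (32 * m) ^ m * δ⁻¹ ^ m * (Real.exp l ^ m)⁻¹ := by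
          rw [hd, div_pow, mul_pow δ, inv_div, inv_pow]
          field_simp
        have e5 : (Real.exp l ^ m)⁻¹ * Real.exp l ^ m = 1 := inv_mul_cancel₀ (by positivity)
        rw [e3, e4, pow_add, ← inv_pow δ 2]
        linear_combination (4 * (32 * (m:ℝ)) ^ m * δ⁻¹ ^ m * δ⁻¹ ^ 2 * J) * e5
  have h6 : 2 * (ch π ρ x r w 0).f z0 ≤ 4 * (32 * m) ^ m * (δ⁻¹ ^ (m + 2) * J) / ome m := by
    rw [le_div_iff₀ hom, mul_comm]; exact h5
  calc 2 * (2 * (ch π ρ x r w 0).f z0) ≤ 2 * (4 * (32 * m) ^ m * (δ⁻¹ ^ (m + 2) * J) / ome m) := by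
        gcongr
    _ = _ := by ring

end

end Crest.Agent.R234.Sp_685
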