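import Crest.Agent.R234.LowF13_471
import Crest.Agent.R234.Sp1_685

/-!
# Row 234, F3 / FIN (helper471): heights and energy at the scale 1

From the literal hypotheses of `F37_433.F3Q1` / `F36_354.F3P1` (minimality of the reference only over
the open ball of radius `1 + ε`, no condition on `U` besides `Loc`): the sup bound of `|nu|² = 2 f` and
the energy bound `∫ tau` over `{|c.x| ≤ 1 + 3 ε / 4}`.
-/

set_option autoImplicit false
set_option maxSynthPendingDepth 3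

open MeasureTheory Filter Topology Set Metric
open scoped ENNReal NNReal ContDiff InnerProductSpace
open Crest.GeometryTopology.Submanifold Crest.Agent.R234.Vf_884
open Crest.Agent.R234.Main_456 Crest.Agent.R234.Gi_456
open Crest.Agent.R234.GL_394

noncomputable section

namespace Crest.Agent.R234.Fin3_471

variable {m n k : ℕ} {U K : Set (Euc k)} {V : Measure (Euc k × L k)}
  {π : Euc k →L[ℝ] Euc m} {ρ : Euc k →L[ℝ] Euc n} {x : Euc k} {w : Euc m → Euc n}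
  {X0 : Euc m} {ε H : ℝ}

local notation "adj" => ContinuousLinearMap.adjoint

theorem two_f (z : Euc k) : 2 * (ch π ρ x 1 w X0).f z = ‖(ch π ρ x 1 w X0).nu z‖ ^ 2 := by
  change 2 * (‖Bt π ρ w (foot π ρ x 1 w z) (yy π ρ x 1 w z)‖ ^ 2 / 2) =
    ‖Bt π ρ w (foot π ρ x 1 w z) (yy π ρ x 1 w z)‖ ^ 2
  ring

theorem f_nn (z : Euc k) : 0 ≤ 2 * (ch π ρ x 1 w X0).f z := by
  rw [two_f]
  positivity

/-- densities are monotone in the local masses -/
theorem Th_mono {V V' : Measure (Euc k × L k)} {z : Euc k}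
    (h : ∀ᶠ t in 𝓝[>] (0:ℝ), V (ball z t ×ˢ univ) ≤ V' (ball z t ×ˢ univ)) :
    Th m V z ≤ Th m V' z := by
  refine liminf_le_liminf ?_
  filter_upwards [h] with t ht
  unfold rat
  rw [mass_apply _ measurableSet_ball, mass_apply _ measurableSet_ball, ← prod_univ_eq]
  gcongr

/-- the hypotheses -/
structure Hs (U K : Set (Euc k)) (V : Measure (Euc k × L k)) (π : Euc k →L[ℝ] Euc m)
    (ρ : Euc k →L[ℝ] Euc n) (x : Euc k) (w : Euc m → Euc n) (X0 : Euc m) (ε H : ℝ) : Prop where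
  hm : 1 ≤ m
  fr : Frame π ρ
  gr : Gr 1 w
  e0 : 0 < ε
  e1 : ε ≤ 1
  loc : Loc (ch π ρ x 1 w X0) U (tube π ρ x 1 w) K V (Real.log (1 + ε))
  ms : ∀ Y ∈ ball X0 (1 + ε), Msys w Y = 0
  nu : ∀ z ∈ K, ‖(ch π ρ x 1 w X0).nu z‖ ≤ 1 / 2
  th : ∀ᵐ p ∂V, p.1 ∈ U → 1 ≤ Th m V p.1
  hH : ∫ p in {z | ‖(ch π ρ x 1 w X0).x z‖ < 1 + ε} ×ˢ univ,
    2 * (ch π ρ x 1 w X0).f p.1 ∂(VK V K) ≤ H

/-- the open region -/
def Or (π : Euc k →L[ℝ] Euc m) (ρ : Euc k →L[ℝ] Euc n) (x : Euc k) (w : Euc m → Euc n)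
    (X0 : Euc m) (ε : ℝ) : Set (Euc k) := {z | z ∈ tube π ρ x 1 w ∧ ‖(ch π ρ x 1 w X0).x z‖ < 1 + ε}

/-- the smaller compact part -/
def Ks (K : Set (Euc k)) (π : Euc k →L[ℝ] Euc m) (ρ : Euc k →L[ℝ] Euc n) (x : Euc k)
    (w : Euc m → Euc n) (X0 : Euc m) (ε : ℝ) : Set (Euc k) :=
  {z | z ∈ K ∧ ‖(ch π ρ x 1 w X0).x z‖ ≤ 1 + 15 / 16 * ε}

namespace Hs

variable (h : Hs U K V π ρ x w X0 ε H)

include h

theorem sub : K ⊆ tube π ρ x 1 w := h.loc.sub.trans inter_subset_left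

theorem reg : Reg (ch π ρ x 1 w X0) (tube π ρ x 1 w) univ := h.gr.reg h.fr X0

theorem ok : Ok (ch π ρ x 1 w X0) K univ := h.gr.ok h.fr X0 h.loc.cpt h.sub

theorem eL : Real.exp (Real.log (1 + ε)) = 1 + ε := Real.exp_log (by have := h.e0; linarith)

theorem cx : ContinuousOn (ch π ρ x 1 w X0).x (tube π ρ x 1 w) := fun z hz =>
  (h.reg.hx z hz).continuousAt.continuousWithinAt

theorem isOpen_Or : IsOpen (Or π ρ x w X0 ε) := by
  have h1 := h.cx.norm.isOpen_inter_preimage h.gr.isOpen_tube (isOpen_Iio (a := 1 + ε))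
  exact h1

theorem isCompact_Ks : IsCompact (Ks K π ρ x w X0 ε) := by
  have h1 := (h.cx.mono h.sub).norm.preimage_isClosed_of_isClosed h.loc.cpt.isClosed
    (isClosed_Iic (a := 1 + 15 / 16 * ε))
  exact h.loc.cpt.of_isClosed_subset h1 inter_subset_left

/-- **the part of `V` over `K` is stationary in the open region of the tube** -/
theorem stat : Stat m k (Or π ρ x w X0 ε) (VK V K) where
  conc := ae_restrict_of_ae h.loc.st.conc
  fin := fun C _ _ => (measure_mono (subset_univ _)).trans_lt h.loc.toOn.fin.1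
  stat := fun X hX _ hs => by
    refine FV_eq_zero h.loc.st h.loc.opU h.gr.isOpen_tube h.loc.cpt h.loc.sub hX.contDiffOn ?_
    filter_upwards [h.loc.gap] with p hp hpW hpK
    have h1 : p.1 ∉ tsupport X := by
      intro h2
      refine hpK (hp hpW ?_)
      rw [h.eL]
      exact (hs h2).2.le
    exact ⟨image_eq_zero_of_notMem_tsupport h1, by
      by_contra hne
      exact h1 (support_fderiv_subset ℝ hne)⟩

theorem th_VK {z : Euc k} (hz : z ∈ K) (hx : ‖(ch π ρ x 1 w X0).x z‖ < 1 + ε)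
    (hT : 1 ≤ Th m V z) : 1 ≤ Th m (VK V K) z := by
  refine hT.trans (Th_mono ?_)
  have hzU := (h.loc.sub hz).2
  obtain ⟨a, ha, hab⟩ := Metric.isOpen_iff.1 (h.isOpen_Or.inter h.loc.opU) z
    ⟨⟨h.sub hz, hx⟩, hzU⟩
  filter_upwards [Ioo_mem_nhdsGT ha] with t ht
  have hm : MeasurableSet (ball z t ×ˢ univ : Set (Euc k × L k)) :=
    measurableSet_ball.prod MeasurableSet.univ
  rw [VK, Measure.restrict_apply hm]
  refine measure_mono_ae ?_
  filter_upwards [h.loc.gap] with p hp hpb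
  have h1 := hab (ball_subset_ball ht.2.le hpb.1)
  exact ⟨hpb, hp ⟨h1.1.1, h1.2⟩ (by rw [h.eL]; exact h1.1.2.le), mem_univ _⟩

/-- the localized data -/
theorem loc' : Loc (ch π ρ x 1 w X0) (Or π ρ x w X0 ε) (tube π ρ x 1 w) (Ks K π ρ x w X0 ε) (VK V K)
    (Real.log (1 + 15 / 16 * ε)) where
  st := h.stat
  opU := h.isOpen_Or
  cpt := h.isCompact_Ks
  sub := fun z hz => ⟨h.sub hz.1, h.sub hz.1, by
    have := h.e0
    have h2 := hz.2
    linarith⟩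
  gap := by
    filter_upwards [h.loc.toOn.mem] with p hp _ hpx
    refine ⟨hp.1, ?_⟩
    rwa [Real.exp_log (by have := h.e0; linarith)] at hpx

theorem int_f : Integrable (fun p : Euc k × L k => 2 * (ch π ρ x 1 w X0).f p.1) (VK V K) :=
  h.loc.toOn.integrable h.loc.cpt (continuousOn_const.mul (lift h.ok.cf))

theorem J_le {t : ℝ} (ht : t < 1 + ε) :
    ∫ p in {p : Euc k × L k | ‖(ch π ρ x 1 w X0).x p.1‖ ≤ t}, 2 * (ch π ρ x 1 w X0).f p.1
      ∂(VK V K) ≤ H := by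
  refine le_trans ?_ h.hH
  exact setIntegral_mono_set h.int_f.integrableOn (Eventually.of_forall fun p => f_nn p.1)
    (LE.le.eventuallyLE fun p (hp : ‖(ch π ρ x 1 w X0).x p.1‖ ≤ t) => ⟨hp.trans_lt ht, mem_univ _⟩)

theorem J_le' {t : ℝ} (ht : t < 1 + ε) :
    ∫ p in {p : Euc k × L k | ‖(ch π ρ x 1 w X0).x p.1‖ ≤ t}, 2 * (ch π ρ x 1 w X0).f p.1
      ∂(VK (VK V K) (Ks K π ρ x w X0 ε)) ≤ H := by
  refine le_trans ?_ (h.J_le ht)
  refine integral_mono_measure (Measure.restrict_mono_measure Measure.restrict_le_self _)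
    (Eventually.of_forall fun p => f_nn p.1) h.int_f.integrableOn

theorem yy_le (z : Euc k) : ‖yy π ρ x 1 w z‖ ≤ ‖(ch π ρ x 1 w X0).nu z‖ := by
  refine abs_le_of_sq_le_sq' ?_ (norm_nonneg _) |>.2
  rw [← two_f, Gv_685.two_f h.fr, Gu_685.dsq_eq]
  exact Gs_685.sq_le_nsq _ _

theorem hgt_le {z : Euc k} (hz : z ∈ K) : ‖ρ (z - x) - w (π (z - x))‖ ≤ 9 / 16 := by
  have h1 := h.gr.le_norm_yy (h.sub hz)
  have h2 := h.yy_le z
  have h3 := h.nu z hz
  linarith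

/-- points near the points of `K` -/
theorem near {z0 : Euc k} (hz0 : z0 ∈ K) (hx : ‖(ch π ρ x 1 w X0).x z0‖ ≤ 1 + 7 / 8 * ε) {z : Euc k}
    (hz : ‖z - z0‖ ≤ ε / 64) : z ∈ Or π ρ x w X0 ε ∧
      ‖ρ (z0 - x) - w (π (z0 - x))‖ - ε / 32 ≤ ‖ρ (z - x) - w (π (z - x))‖ := by
  have he := h.e0
  have he1 := h.e1
  have hh := h.hgt_le hz0
  have h1 := Gv_685.hgt_sub_le (x := x) h.fr h.gr z z0
  have h2 := Gv_685.hgt_sub_le (x := x) h.fr h.gr z0 z
  rw [norm_sub_rev z0 z] at h2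
  have h3 : z ∈ tube π ρ x 1 w := by
    change ‖ρ (z - x) - w (π (z - x))‖ < 1
    linarith
  refine ⟨⟨h3, ?_⟩, by linarith⟩
  have h4 := Gv_685.norm_chx_sub (X0 := X0) h.fr h.gr h3 (h.sub hz0)
  have h5 : (ch π ρ x 1 w X0).x z = (ch π ρ x 1 w X0).x z0 +
    ((ch π ρ x 1 w X0).x z - (ch π ρ x 1 w X0).x z0) := by abel
  rw [h5]
  refine (norm_add_le _ _).trans_lt ?_
  linarith

theorem ball_Or {z0 : Euc k} (hz0 : z0 ∈ K) (hx : ‖(ch π ρ x 1 w X0).x z0‖ ≤ 1 + 7 / 8 * ε) :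
    closedBall z0 (ε / 64) ⊆ Or π ρ x w X0 ε := fun z hz =>
  (h.near hz0 hx (by rwa [mem_closedBall, dist_eq_norm] at hz)).1

/-- crude height: small at the points over `|c.x| ≤ 1 + 7/8 ε` -/
theorem crude (hs : H < ome m / (2048 * 64 ^ m) * ε ^ (m + 2)) {z0 : Euc k} (hz0 : z0 ∈ K)
    (hT : 1 ≤ Th m V z0) (hx : ‖(ch π ρ x 1 w X0).x z0‖ ≤ 1 + 7 / 8 * ε) :
    ‖ρ (z0 - x) - w (π (z0 - x))‖ ≤ ε / 16 := by
  by_contra hc
  rw [not_le] at hc
  have he := h.e0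
  have he1 := h.e1
  set d : ℝ := ε / 64 with hd
  have hd0 : 0 < d := by positivity
  have hUb := h.ball_Or hz0 hx
  have hT' := h.th_VK hz0 (by linarith) hT
  have hmass := LowF13_471.mass_ge (Q := 1) h.stat h.hm hUb (by simpa using hT') hd0 le_rfl
  rw [Nat.cast_one, one_mul] at hmass
  have hmB : MeasurableSet (ball z0 d ×ˢ univ : Set (Euc k × L k)) :=
    measurableSet_ball.prod MeasurableSet.univ
  have hfinB : (VK V K) (ball z0 d ×ˢ univ) < ⊤ := LowF13_471.fin_ball h.stat hUb le_rfl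
  -- lower bound of the integral
  have e2 : ε ^ 2 / 2048 * (ome m * d ^ m) ≤ ∫ p in ball z0 d ×ˢ univ,
      2 * (ch π ρ x 1 w X0).f p.1 ∂(VK V K) := by
    have a1 : ∫ p in ball z0 d ×ˢ univ, ε ^ 2 / 2048 ∂(VK V K) ≤ ∫ p in ball z0 d ×ˢ univ,
        2 * (ch π ρ x 1 w X0).f p.1 ∂(VK V K) := by
      refine setIntegral_mono_on (integrableOn_const hfinB.ne (by simp)) h.int_f.integrableOn hmB
        fun p hp => ?_
      have b0 : ‖p.1 - z0‖ ≤ ε / 64 := by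
        have := hp.1
        rw [mem_ball, dist_eq_norm] at this
        exact this.le
      obtain ⟨b1, b3⟩ := h.near hz0 hx b0
      have b4 := Sp_685.hgt_sq_le (X0 := X0) h.fr h.gr b1.1
      have b5 : (ε / 32) ^ 2 ≤ ‖ρ (p.1 - x) - w (π (p.1 - x))‖ ^ 2 :=
        pow_le_pow_left₀ (by positivity) (by linarith) 2
      have b6 : (ε / 32) ^ 2 = 2 * (ε ^ 2 / 2048) := by ring
      linarith
    refine le_trans ?_ a1
    rw [setIntegral_const, smul_eq_mul, mul_comm]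
    gcongr
  have e3 : ∫ p in ball z0 d ×ˢ univ, 2 * (ch π ρ x 1 w X0).f p.1 ∂(VK V K) ≤ H := by
    refine le_trans ?_ h.hH
    exact setIntegral_mono_set h.int_f.integrableOn (Eventually.of_forall fun p => f_nn p.1)
      (LE.le.eventuallyLE fun p hp => ⟨(hUb (ball_subset_closedBall hp.1)).2, mem_univ _⟩)
  have e4 : ε ^ 2 / 2048 * (ome m * d ^ m) = ome m / (2048 * 64 ^ m) * ε ^ (m + 2) := by
    rw [hd, div_pow, pow_add]
    field_simp
  rw [e4] at e2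
  linarith

/-- **(H1)** at a point -/
theorem sup_at (hs : H < ome m / (2048 * 64 ^ m) * ε ^ (m + 2)) {z0 : Euc k} (hz0 : z0 ∈ K)
    (hT : 1 ≤ Th m V z0) (hx : ‖(ch π ρ x 1 w X0).x z0‖ ≤ 1 + 3 / 4 * ε) :
    2 * (ch π ρ x 1 w X0).f z0 ≤ 2 * (64 * m) ^ m / ome m * ((ε ^ m)⁻¹ * H) := by
  have he := h.e0
  have he1 := h.e1
  have hm0 : (1:ℝ) ≤ m := by exact_mod_cast h.hm
  have ho := ome_pos m
  have hc := h.crude hs hz0 hT (by linarith)
  set d : ℝ := ε / (64 * m) with hd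
  have hd0 : 0 < d := by positivity
  have hmd : m * d = ε / 64 := by rw [hd]; field_simp
  have hd64 : d ≤ ε / 64 := by nlinarith
  have hT' := h.th_VK hz0 (by linarith) hT
  have h1 := Sp_685.sup_pt2 (A := 1) h.fr h.gr h.loc' h.hm (t := 1 + 7 / 8 * ε) (d := d)
    (by linarith) (by rw [Real.exp_log (by linarith)]; linarith) hd0 (by linarith)
    ⟨hz0, by linarith⟩ (by linarith)
    ((closedBall_subset_closedBall hd64).trans (h.ball_Or hz0 (by linarith)))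
    (fun X hX => h.ms X (by
      rw [mem_ball, dist_eq_norm]
      have a1 := h.gr.norm_foot_sub (h.sub hz0)
      have a2 := Gv_685.norm_foot_le_chx (π := π) (ρ := ρ) (x := x) (r := 1) (w := w) (X0 := X0) z0
      have a3 : X - X0 = (X - π (z0 - x)) + (π (z0 - x) - foot π ρ x 1 w z0) +
        (foot π ρ x 1 w z0 - X0) := by abel
      have a4 := norm_add_le ((X - π (z0 - x)) + (π (z0 - x) - foot π ρ x 1 w z0))
        (foot π ρ x 1 w z0 - X0)
      have a5 := norm_add_le (X - π (z0 - x)) (π (z0 - x) - foot π ρ x 1 w z0)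
      rw [norm_sub_rev (π (z0 - x))] at a5
      rw [a3]
      linarith)) zero_le_one (by rw [ENNReal.ofReal_one]; exact hT')
  rw [one_mul] at h1
  have h2 := h.J_le' (t := 1 + 7 / 8 * ε) (by linarith)
  have h3 : ome m * (2 * (ch π ρ x 1 w X0).f z0) ≤ 2 * ((d ^ m)⁻¹ * H) := by
    refine h1.trans ?_
    gcongr
  have h4 : (d ^ m)⁻¹ = (64 * m) ^ m * (ε ^ m)⁻¹ := by
    rw [hd, div_pow, inv_div, div_eq_mul_inv]
  rw [h4] at h3
  rw [← mul_le_mul_iff_right₀ ho]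
  refine h3.trans (le_of_eq ?_)
  field_simp

/-- **(H1)**: the sup bound of the heights -/
theorem sup (hs : H < ome m / (2048 * 64 ^ m) * ε ^ (m + 2)) :
    ∀ᵐ p ∂(VK V K), ‖(ch π ρ x 1 w X0).x p.1‖ ≤ 1 + 3 / 4 * ε →
      2 * (ch π ρ x 1 w X0).f p.1 ≤ 2 * (64 * m) ^ m / ome m * ((ε ^ m)⁻¹ * H) := by
  filter_upwards [h.loc.toOn.mem, ae_restrict_of_ae h.th] with p hp hT hx
  exact h.sup_at hs hp.1 (hT (h.loc.sub hp.1).2) hx

/-- **(H2)**: the energy bound -/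
theorem energy {κ : ℝ} (hk : 0 ≤ κ) (hκ : 6 * m * κ ≤ 1)
    (hd2 : ∀ Y ∈ ball X0 2, ‖iteratedFDeriv ℝ 2 w Y‖ ≤ κ) :
    ∫ p in {p : Euc k × L k | ‖(ch π ρ x 1 w X0).x p.1‖ ≤ 1 + 3 / 4 * ε},
        (ch π ρ x 1 w X0).tau p.1 p.2 ∂(VK V K) ≤
      (8192 * Gs_685.Kst ^ 2 + 4 * m) * ((ε ^ 2)⁻¹ * H) := by
  have he := h.e0
  have he1 := h.e1
  have hm0 : (1:ℝ) ≤ m := by exact_mod_cast h.hm
  have h1 := Gv_685.energy h.fr h.gr h.loc (s := 1 + 3 / 4 * ε) (t := 1 + 7 / 8 * ε) (κ := κ)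
    (by rw [h.eL]; linarith) (by linarith) (by linarith)
    (fun X hX => h.ms X (by rw [mem_ball, dist_eq_norm]; linarith))
    (fun X hX => by
      have h1 := hd2 X (by rw [mem_ball, dist_eq_norm]; linarith)
      rwa [← norm_iteratedFDeriv_fderiv, norm_iteratedFDeriv_one] at h1)
    (fun z hz _ => by
      have a1 := h.yy_le z
      have a2 := h.nu z hz
      calc 12 * m * κ * ‖yy π ρ x 1 w z‖ ≤ 12 * m * κ * (1 / 2) := by
            gcongr
            linarith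
        _ = 6 * m * κ := by ring
        _ ≤ 1 := hκ)
  have h2 := h.J_le (t := 1 + 7 / 8 * ε) (by linarith)
  have hJ0 : 0 ≤ ∫ p in {p : Euc k × L k | ‖(ch π ρ x 1 w X0).x p.1‖ ≤ 1 + 7 / 8 * ε},
      2 * (ch π ρ x 1 w X0).f p.1 ∂(VK V K) := integral_nonneg fun p => f_nn p.1
  have hH0 : 0 ≤ H := hJ0.trans h2
  have e1 : (1 + 7 / 8 * ε - (1 + 3 / 4 * ε)) ^ 2 = ε ^ 2 / 64 := by ring
  rw [e1] at h1
  have e2 : κ ^ 2 ≤ (ε ^ 2)⁻¹ := by
    have a1 : κ ≤ 1 := by nlinarith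
    have a2 : κ ^ 2 ≤ 1 := by nlinarith
    have a3 : 1 ≤ (ε ^ 2)⁻¹ := by
      rw [one_le_inv₀ (by positivity)]
      nlinarith
    exact a2.trans a3
  calc _ ≤ (128 * Gs_685.Kst ^ 2 * (ε ^ 2 / 64)⁻¹ + 4 * m * κ ^ 2) *
        ∫ p in {p : Euc k × L k | ‖(ch π ρ x 1 w X0).x p.1‖ ≤ 1 + 7 / 8 * ε},
          2 * (ch π ρ x 1 w X0).f p.1 ∂(VK V K) := h1
    _ ≤ (128 * Gs_685.Kst ^ 2 * (ε ^ 2 / 64)⁻¹ + 4 * m * (ε ^ 2)⁻¹) * H := by gcongr
    _ = _ := by rw [inv_div]; field_simp; ring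

end Hs

end Crest.Agent.R234.Fin3_471
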