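import Crest.Agent.R234.Tv10_618

/-!
# Row 234, F3 (helper618), (FIN), part 3: the measures of the assembly for a chart
-/

set_option autoImplicit false

open Set Filter Topology MeasureTheory Metric Function
open Crest.GeometryTopology.Submanifold
open Crest.Agent.R234.Vf_884 Crest.Agent.R234.Ar_870 Crest.Agent.R234.GL_394
open Crest.Agent.R234.Tv_618 (xt xt_eq measurable_xt nu nu_apply integral_nu)
open scoped ENNReal NNReal InnerProductSpace

noncomputable section

namespace Crest.Agent.R234.Fin_618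

variable {m k : ℕ} {c : Ch m k} {K : Set (Euc k)} {V : Measure (Euc k × L k)}

/-- the foot map, measurable version -/
def Xm (c : Ch m k) (K : Set (Euc k)) (p : Euc k × L k) : Euc m := xt c K p.1

theorem cx_on (h : Ok c K univ) : ContinuousOn c.x K := fun z hz =>
  (h.hx z hz).continuousAt.continuousWithinAt

theorem meas_Xm (h : Ok c K univ) : Measurable (Xm c K) :=
  (measurable_xt h.cpt (cx_on h)).comp measurable_fst

theorem Xm_ae (hV : On V m K) : ∀ᵐ p ∂V, Xm c K p = c.x p.1 := by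
  filter_upwards [hV.mem] with p hp
  exact xt_eq c hp.1

/-- a nonnegative continuous density on `K × G` -/
structure Dn (K : Set (Euc k)) (m : ℕ) (w : Euc k × L k → ℝ) : Prop where
  co : ContinuousOn w (K ×ˢ G m k)
  nn : ∀ p ∈ K ×ˢ G m k, 0 ≤ w p

variable {w : Euc k × L k → ℝ}

theorem Dn.int (hw : Dn K m w) (h : Ok c K univ) (hV : On V m K) : Integrable w V :=
  hV.integrable h.cpt hw.co

theorem Dn.ae (hw : Dn K m w) (hV : On V m K) : ∀ᵐ p ∂V, 0 ≤ w p := by
  filter_upwards [hV.mem] with p hp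
  exact hw.nn p hp

theorem Dn.fin (hw : Dn K m w) (h : Ok c K univ) (hV : On V m K) :
    IsFiniteMeasure (nu V (Xm c K) w) := by
  constructor
  rw [nu_apply (meas_Xm h) w MeasurableSet.univ, preimage_univ, Measure.restrict_univ]
  have h1 := (hw.int h hV).lintegral_lt_top
  exact h1

theorem Dn.integral (hw : Dn K m w) (h : Ok c K univ) (hV : On V m K) {F : Euc m → ℝ}
    (hF : Measurable F) : ∫ v, F v ∂(nu V (Xm c K) w) = ∫ p, F (c.x p.1) * w p ∂V := by
  rw [integral_nu (meas_Xm h) (hw.int h hV).aemeasurable (hw.ae hV) hF]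
  refine integral_congr_ae ?_
  filter_upwards [Xm_ae (c := c) hV] with p hp
  rw [hp, mul_comm]

theorem Dn.real (hw : Dn K m w) (h : Ok c K univ) (hV : On V m K) {S : Set (Euc m)}
    (hS : MeasurableSet S) :
    (nu V (Xm c K) w).real S = ∫ p in {z | c.x z ∈ S} ×ˢ univ, w p ∂V := by
  have h1 : (({z | c.x z ∈ S} ×ˢ univ : Set (Euc k × L k))) =ᵐ[V] (Xm c K) ⁻¹' S := by
    filter_upwards [Xm_ae (c := c) hV] with p hp
    refine propext ⟨fun h => ?_, fun h => ⟨?_, trivial⟩⟩
    · show Xm c K p ∈ S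
      rw [hp]; exact h.1
    · show c.x p.1 ∈ S
      rw [← hp]; exact h
  rw [setIntegral_congr_set h1, measureReal_def, nu_apply (meas_Xm h) w hS,
    ← ofReal_integral_eq_lintegral_ofReal (hw.int h hV).integrableOn
      (ae_restrict_of_ae (hw.ae hV)), ENNReal.toReal_ofReal]
  exact integral_nonneg_of_ae (ae_restrict_of_ae (hw.ae hV))

/-- monotonicity of set integrals of densities -/
theorem Dn.mono (hw : Dn K m w) (h : Ok c K univ) (hV : On V m K) {S T : Set (Euc k × L k)}
    (hST : ∀ᵐ p ∂V, p ∈ S → p ∈ T) : ∫ p in S, w p ∂V ≤ ∫ p in T, w p ∂V :=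
  setIntegral_mono_set (hw.int h hV).integrableOn (ae_restrict_of_ae (hw.ae hV)) hST

/-! ### the two sides of the anomaly -/

theorem dn_one : Dn K m (fun _ : Euc k × L k => (1 : ℝ)) := ⟨continuousOn_const, fun _ _ => zero_le_one⟩

theorem dn_f (h : Ok c K univ) : Dn K m (fun p : Euc k × L k => 2 * c.f p.1) where
  co := by
    refine continuousOn_const.mul ?_
    intro p hp
    exact ((h.hf p.1 hp.1).continuousAt.comp continuousAt_fst).continuousWithinAt
  nn := fun p hp => by
    rw [← h.nusq p.1 hp.1]; positivity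

theorem dn_tau (h : Ok c K univ) (htau : ∀ p ∈ K ×ˢ G m k, 0 ≤ c.tau p.1 p.2) :
    Dn K m (fun p : Euc k × L k => c.tau p.1 p.2) := ⟨h.ctau, htau⟩

theorem dn_tau2 (h : Ok c K univ) (htau : ∀ p ∈ K ×ˢ G m k, 0 ≤ c.tau p.1 p.2) :
    Dn K m (fun p : Euc k × L k => c.tau p.1 p.2 / 2) :=
  ⟨h.ctau.div_const 2, fun p hp => by have := htau p hp; positivity⟩

theorem cj_cont (h : Ok c K univ) : Continuous c.j :=
  continuous_iff_continuousAt.2 fun v => (h.hj v (mem_univ v)).continuousAt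

/-- `j` times Lebesgue on a ball -/
def Jm (c : Ch m k) (R : ℝ) : Measure (Euc m) :=
  (volume.restrict (ball (0 : Euc m) R)).withDensity fun v => ENNReal.ofReal (c.j v)

theorem Jm_fin (h : Ok c K univ) (R : ℝ) : IsFiniteMeasure (Jm c R) := by
  constructor
  unfold Jm
  rw [withDensity_apply _ MeasurableSet.univ, Measure.restrict_univ]
  have h1 : IntegrableOn c.j (ball (0 : Euc m) R) :=
    ((cj_cont h).continuousOn.integrableOn_compact (isCompact_closedBall 0 R)).mono_set
      ball_subset_closedBall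
  exact h1.lintegral_lt_top

theorem Jm_integral (h : Ok c K univ) (hj : ∀ v, 0 ≤ c.j v) {R : ℝ} {F : Euc m → ℝ}
    (h0 : ∀ v, v ∉ ball (0 : Euc m) R → F v = 0) :
    ∫ v, F v ∂(Jm c R) = ∫ v, F v * c.j v := by
  unfold Jm
  rw [integral_withDensity_eq_integral_toReal_smul₀
    ((cj_cont h).measurable.ennreal_ofReal.aemeasurable)
      (Eventually.of_forall fun p => ENNReal.ofReal_lt_top)]
  have h1 : ∀ v, (ENNReal.ofReal (c.j v)).toReal • F v = F v * c.j v := fun v => by
    rw [ENNReal.toReal_ofReal (hj v), smul_eq_mul, mul_comm]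
  simp_rw [h1]
  refine setIntegral_eq_integral_of_forall_compl_eq_zero fun v hv => ?_
  rw [h0 v hv, zero_mul]

def B1 (c : Ch m k) (K : Set (Euc k)) (V : Measure (Euc k × L k)) : Measure (Euc m) :=
  nu V (Xm c K) fun _ => 1

def B2 (c : Ch m k) (K : Set (Euc k)) (V : Measure (Euc k × L k)) (Q : ℕ) (R : ℝ) :
    Measure (Euc m) :=
  nu V (Xm c K) (fun p => c.tau p.1 p.2 / 2) + (Q : ℝ≥0∞) • Jm c R

theorem B1_fin (h : Ok c K univ) (hV : On V m K) : IsFiniteMeasure (B1 c K V) := dn_one.fin h hV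

theorem QJm_fin (h : Ok c K univ) (Q : ℕ) (R : ℝ) : IsFiniteMeasure ((Q : ℝ≥0∞) • Jm c R) := by
  have := Jm_fin h R
  exact ⟨by
    rw [Measure.smul_apply, smul_eq_mul]
    exact ENNReal.mul_lt_top (ENNReal.natCast_lt_top Q) (measure_lt_top _ _)⟩

theorem B2_fin (h : Ok c K univ) (hV : On V m K) (htau : ∀ p ∈ K ×ˢ G m k, 0 ≤ c.tau p.1 p.2)
    (Q : ℕ) (R : ℝ) : IsFiniteMeasure (B2 c K V Q R) := by
  have h1 := (dn_tau2 h htau).fin h hV
  have h2 := QJm_fin h Q R
  unfold B2
  infer_instance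

/-- **the anomaly as a difference of two finite measures** -/
theorem B_sub (h : Ok c K univ) (hV : On V m K) (htau : ∀ p ∈ K ×ˢ G m k, 0 ≤ c.tau p.1 p.2)
    (hj : ∀ v, 0 ≤ c.j v) (Q : ℕ) {R : ℝ} {F : Euc m → ℝ} (hF : Measurable F) {b : ℝ}
    (hb : ∀ v, |F v| ≤ b) (h0 : ∀ v, v ∉ ball (0 : Euc m) R → F v = 0) :
    ∫ v, F v ∂(B1 c K V) - ∫ v, F v ∂(B2 c K V Q R) =
      ∫ p, F (c.x p.1) * (1 - c.tau p.1 p.2 / 2) ∂V - Q * ∫ v, F v * c.j v := by
  have f1 := (dn_tau2 h htau).fin h hV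
  have f2 := QJm_fin h Q R
  have f3 := Jm_fin h R
  have f4 := hV.fin
  have hFi : ∀ (μ : Measure (Euc m)) [IsFiniteMeasure μ], Integrable F μ := by
    intro μ _
    exact Integrable.mono' (integrable_const b) hF.aestronglyMeasurable
      (Eventually.of_forall fun v => by rw [Real.norm_eq_abs]; exact hb v)
  unfold B1 B2
  rw [integral_add_measure (hFi _) (hFi _), integral_smul_measure, ENNReal.toReal_natCast,
    smul_eq_mul, Jm_integral h hj h0, dn_one.integral h hV hF, (dn_tau2 h htau).integral h hV hF]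
  have hm : AEStronglyMeasurable (fun p : Euc k × L k => F (c.x p.1)) V := by
    have h1 : Measurable fun p : Euc k × L k => F (Xm c K p) := hF.comp (meas_Xm h)
    refine h1.aestronglyMeasurable.congr ?_
    filter_upwards [Xm_ae (c := c) hV] with p hp
    rw [hp]
  have i1 : Integrable (fun p : Euc k × L k => F (c.x p.1) * 1) V := by
    refine Integrable.mono' (integrable_const b) (hm.mul_const 1) (Eventually.of_forall fun p => ?_)
    rw [mul_one, Real.norm_eq_abs]
    exact hb _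
  have i2 : Integrable (fun p : Euc k × L k => F (c.x p.1) * (c.tau p.1 p.2 / 2)) V := by
    refine Integrable.bdd_mul ((dn_tau2 h htau).int h hV) hm (c := b)
      (Eventually.of_forall fun p => ?_)
    rw [Real.norm_eq_abs]
    exact hb _
  rw [← sub_sub, ← integral_sub i1 i2]
  congr 1
  refine integral_congr_ae (Eventually.of_forall fun p => ?_)
  simp only
  ring

/-- `bb` at the level `0` -/
theorem bb_zero (h : Ok c K univ) (hV : On V m K) {g : ℝ → ℝ} (hg : Continuous fun v : Euc m => g (‖v‖ ^ 2))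
    (Q : ℝ) : bb c V g Q 0 =
      ∫ p, g (‖c.x p.1‖ ^ 2) * (1 - c.tau p.1 p.2 / 2) ∂V - Q * ∫ v : Euc m, g (‖v‖ ^ 2) * c.j v := by
  have hgx : ContinuousOn (fun p : Euc k × L k => g (‖c.x p.1‖ ^ 2)) (K ×ˢ G m k) := by
    refine hg.comp_continuousOn ?_
    intro p hp
    exact ((h.hx p.1 hp.1).continuousAt.comp continuousAt_fst).continuousWithinAt
  have i1 : Integrable (fun p : Euc k × L k => g (‖c.x p.1‖ ^ 2)) V := hV.integrable h.cpt hgx
  have i2 : Integrable (fun p : Euc k × L k => c.tau p.1 p.2 * g (‖c.x p.1‖ ^ 2)) V :=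
    hV.integrable h.cpt (h.ctau.mul hgx)
  unfold bb EE ee
  simp only [mul_zero, Real.exp_zero, one_mul]
  have e1 : ∫ p, g (‖c.x p.1‖ ^ 2) * (1 - c.tau p.1 p.2 / 2) ∂V =
      ∫ p, g (‖c.x p.1‖ ^ 2) ∂V - (∫ p, c.tau p.1 p.2 * g (‖c.x p.1‖ ^ 2) ∂V) / 2 := by
    rw [← integral_div, ← integral_sub i1 (i2.div_const 2)]
    refine integral_congr_ae (Eventually.of_forall fun p => ?_)
    simp only
    ring
  have e2 : ∫ v : Euc m, c.j v * g (‖v‖ ^ 2) = ∫ v : Euc m, g (‖v‖ ^ 2) * c.j v :=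
    integral_congr_ae (Eventually.of_forall fun v => mul_comm _ _)
  rw [e1, e2]
  ring

end Crest.Agent.R234.Fin_618
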