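import Crest.Agent.R234.Tv7_618
import Crest.Agent.R234.GL6_394

/-!
# Row 234, F3-TV, part 8 (helper618)

Instance of `Dat` for 394's chart data (`Reg`, `Loc`) at the scale `s`.
-/

set_option autoImplicit false

open Set Filter Topology MeasureTheory Metric Function
open Crest.GeometryTopology.Submanifold
open Crest.Agent.R234.Vf_884 Crest.Agent.R234.Ar_870 Crest.Agent.R234.GL_394
open scoped ENNReal NNReal ContDiff InnerProductSpace

noncomputable section

namespace Crest.Agent.R234.Tv_618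

open Crest.Agent.R234.Th_164 (SC2 om)

variable {m k : ℕ}

/-- pointwise facts about the chart on `{|x| < r}`, `κ` = size of `M` at the scale `s` -/
structure KT (c : Ch m k) (K : Set (Euc k)) (s r C₀ κ : ℝ) : Prop where
  jb : ∀ v : Euc m, ‖v‖ < r → |c.j v - 1| ≤ κ
  lb : ∀ v : Euc m, ‖v‖ < r → s * ‖c.lam v‖ ≤ κ
  t0 : ∀ p ∈ K ×ˢ G m k, ‖c.x p.1‖ < r → 0 ≤ c.tau p.1 p.2 ∧ c.tau p.1 p.2 ≤ m
  q1 : ∀ z ∈ K, ‖c.x z‖ < r → 2 * c.f z / s ^ 2 ≤ 1
  an : ∀ p ∈ K ×ˢ G m k, ‖c.x p.1‖ < r →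
    |1 - c.j (c.x p.1) * Jh (c.dx p.1) p.2 - c.tau p.1 p.2 / 2| ≤
      C₀ * (c.tau p.1 p.2 + κ * (2 * c.f p.1 / s ^ 2))
  hT : ∀ p ∈ K ×ˢ G m k, ‖c.x p.1‖ < r →
    ‖ContinuousLinearMap.id ℝ (Euc m) - GL_394.T c p‖ ≤
      C₀ * (c.tau p.1 p.2 + κ * (2 * c.f p.1 / s ^ 2))
  k3 : ∀ p ∈ K ×ˢ G m k, ‖c.x p.1‖ < r → ∀ v : Euc m,
    |Gam c p v - ⟪c.lam (c.x p.1), v⟫_ℝ| ≤
      κ * (‖v‖ / s) * (c.tau p.1 p.2 + 2 * c.f p.1 / s ^ 2)

/-- the part of `K` over the ball of radius `r` -/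
def Wr (c : Ch m k) (K : Set (Euc k)) (r : ℝ) : Set (Euc k) := {z | z ∈ K ∧ ‖c.x z‖ < r}

theorem measurable_indicator_of {X Y : Type*} [TopologicalSpace X] [MeasurableSpace X]
    [OpensMeasurableSpace X] [TopologicalSpace Y] [MeasurableSpace Y] [BorelSpace Y] [Zero Y]
    {f : X → Y} {S : Set X} (hS : MeasurableSet S) (hf : ContinuousOn f S) :
    Measurable (S.indicator f) := by
  classical
  rw [← Set.piecewise_eq_indicator]
  exact hf.measurable_piecewise continuousOn_const hS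

/-- measurable version of the foot map -/
def xt (c : Ch m k) (K : Set (Euc k)) : Euc k → Euc m := K.indicator c.x

theorem xt_eq (c : Ch m k) {K : Set (Euc k)} {z : Euc k} (hz : z ∈ K) : xt c K z = c.x z :=
  Set.indicator_of_mem hz _

theorem measurable_xt {c : Ch m k} {K : Set (Euc k)} (hK : IsCompact K)
    (hx : ContinuousOn c.x K) : Measurable (xt c K) :=
  measurable_indicator_of hK.isClosed.measurableSet hx

theorem measurableSet_Wr {c : Ch m k} {K : Set (Euc k)} (hK : IsCompact K)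
    (hx : ContinuousOn c.x K) (r : ℝ) : MeasurableSet (Wr c K r) := by
  have h1 : Wr c K r = K ∩ (xt c K) ⁻¹' ball 0 r := by
    ext z
    constructor
    · rintro ⟨h1, h2⟩
      refine ⟨h1, ?_⟩
      rw [mem_preimage, xt_eq c h1, mem_ball_zero_iff]
      exact h2
    · rintro ⟨h1, h2⟩
      refine ⟨h1, ?_⟩
      rwa [mem_preimage, xt_eq c h1, mem_ball_zero_iff] at h2
  rw [h1]
  exact hK.isClosed.measurableSet.inter (measurable_xt hK hx measurableSet_ball)

/-- `Gam` as a linear form -/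
def GamL (c : Ch m k) (p : Euc k × L k) : Euc m →L[ℝ] ℝ :=
  tr ∘L ((ContinuousLinearMap.compL ℝ (Euc k) (Euc k) (Euc k)).flip p.2) ∘L (c.dA p.1).flip

theorem GamL_apply (c : Ch m k) (p : Euc k × L k) (v : Euc m) : GamL c p v = Gam c p v := rfl

/-- measurable version of the density, at the scale `s` -/
def jt (c : Ch m k) (s R : ℝ) : Euc m → ℝ := (ball (0 : Euc m) R).indicator fun v => c.j (s • v)

/-- the rescaled measure -/
def Vs (c : Ch m k) (V : Measure (Euc k × L k)) (K : Set (Euc k)) (s R : ℝ) :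
    Measure (Euc k × L k) :=
  ENNReal.ofReal ((s ^ m)⁻¹) • V.restrict (Wr c K (R * s) ×ˢ univ)

theorem mem_ball_scale {s R : ℝ} (hs : 0 < s) {v : Euc m} :
    s⁻¹ • v ∈ ball (0 : Euc m) R ↔ ‖v‖ < R * s := by
  rw [mem_ball_zero_iff, norm_smul, Real.norm_eq_abs, abs_of_pos (inv_pos.2 hs),
    inv_mul_lt_iff₀ hs, mul_comm]

theorem mem_ball_scale' {s R : ℝ} (hs : 0 < s) {v : Euc m} :
    v ∈ ball (0 : Euc m) R ↔ ‖s • v‖ < R * s := by
  rw [← mem_ball_scale hs, smul_smul, inv_mul_cancel₀ hs.ne', one_smul]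

theorem Reg.cj {c : Ch m k} {W : Set (Euc k)} {D : Set (Euc m)} (h : Reg c W D) :
    ContDiffOn ℝ 1 c.j D := by
  rw [show (1 : WithTop ℕ∞) = 0 + 1 from (zero_add 1).symm,
    contDiffOn_succ_iff_fderiv_of_isOpen h.opn]
  refine ⟨fun v hv => (h.hj v hv).differentiableAt.differentiableWithinAt, by simp, ?_⟩
  rw [contDiffOn_zero]
  have h0 : ContinuousOn c.j D := fun v hv => (h.hj v hv).continuousAt.continuousWithinAt
  have h1 : ContinuousOn (fun v => c.j v • innerSL ℝ (c.lam v)) D :=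
    h0.smul ((innerSL ℝ).continuous.comp_continuousOn h.clam)
  exact h1.congr fun v hv => (h.hj v hv).fderiv

/-- change of variables `v ↦ s v` on the base -/
theorem lintegral_scale {s : ℝ} (hs : 0 < s) {F : Euc m → ℝ≥0∞} (hF : Measurable F) :
    ∫⁻ v, F v = ENNReal.ofReal (s ^ m) * ∫⁻ v, F (s • v) := by
  have h1 : ∫⁻ v, F (s • v) = ENNReal.ofReal ((s ^ m)⁻¹) * ∫⁻ v, F v := by
    have h2 := Measure.map_addHaar_smul (volume : Measure (Euc m)) hs.ne'
    rw [finrank_euclideanSpace_fin, abs_of_pos (by positivity)] at h2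
    rw [← lintegral_map hF (measurable_const_smul s), h2, lintegral_smul_measure, smul_eq_mul]
  rw [h1, ← mul_assoc, ← ENNReal.ofReal_mul (by positivity), mul_inv_cancel₀ (by positivity),
    ENNReal.ofReal_one, one_mul]

end Crest.Agent.R234.Tv_618
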