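import Crest.Agent.R234.GLK9_128
import Crest.Agent.R234.Tv8_618

/-!
# Row 234 (helper128), file 10: **`Hy.kt` : helper618's `KT` for the chart `ch`**
-/

set_option autoImplicit false
set_option maxSynthPendingDepth 3

open MeasureTheory Filter Topology Set Function
open scoped ENNReal NNReal ContDiff InnerProductSpace
open Crest.GeometryTopology.Submanifold Crest.Agent.R234.Vf_884
open Crest.Agent.R234.Main_456
open Crest.Agent.R234.Gi_456 (Gr tube ch)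
open Crest.Agent.R234.Tv_618 (KT)

noncomputable section

namespace Crest.Agent.R234.GLK_128

variable {m n k : ℕ}

theorem KT_mono {c : GL_394.Ch m k} {K K' : Set (Euc k)} {s r r' C C' κ κ' : ℝ}
    (h : KT c K s r C κ) (hK : K' ⊆ K) (hr : r' ≤ r) (hC : C ≤ C') (hκ : κ ≤ κ') (hC0 : 0 ≤ C)
    (hκ0 : 0 ≤ κ) (hf : ∀ z ∈ K', 0 ≤ c.f z) (hs : 0 < s) : KT c K' s r' C' κ' where
  jb v hv := (h.jb v (hv.trans_le hr)).trans hκ
  lb v hv := (h.lb v (hv.trans_le hr)).trans hκ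
  t0 p hp hx := h.t0 p ⟨hK hp.1, hp.2⟩ (hx.trans_le hr)
  q1 z hz hx := h.q1 z (hK hz) (hx.trans_le hr)
  an p hp hx := by
    have h1 := h.t0 p ⟨hK hp.1, hp.2⟩ (hx.trans_le hr)
    have h2 : 0 ≤ 2 * c.f p.1 / s ^ 2 := by have := hf p.1 hp.1; positivity
    refine (h.an p ⟨hK hp.1, hp.2⟩ (hx.trans_le hr)).trans ?_
    exact mul_le_mul hC (by have := mul_le_mul_of_nonneg_right hκ h2; linarith)
      (add_nonneg h1.1 (mul_nonneg hκ0 h2)) (hC0.trans hC)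
  hT p hp hx := by
    have h1 := h.t0 p ⟨hK hp.1, hp.2⟩ (hx.trans_le hr)
    have h2 : 0 ≤ 2 * c.f p.1 / s ^ 2 := by have := hf p.1 hp.1; positivity
    refine (h.hT p ⟨hK hp.1, hp.2⟩ (hx.trans_le hr)).trans ?_
    exact mul_le_mul hC (by have := mul_le_mul_of_nonneg_right hκ h2; linarith)
      (add_nonneg h1.1 (mul_nonneg hκ0 h2)) (hC0.trans hC)
  k3 p hp hx v := by
    have h1 := h.t0 p ⟨hK hp.1, hp.2⟩ (hx.trans_le hr)
    have h2 : 0 ≤ 2 * c.f p.1 / s ^ 2 := by have := hf p.1 hp.1; positivity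
    refine (h.k3 p ⟨hK hp.1, hp.2⟩ (hx.trans_le hr) v).trans ?_
    refine mul_le_mul_of_nonneg_right (mul_le_mul_of_nonneg_right hκ (by positivity)) ?_
    linarith [h1.1]

variable {π : Euc k →L[ℝ] Euc m} {ρ : Euc k →L[ℝ] Euc n} {x : Euc k} {r : ℝ} {w : Euc m → Euc n}
  {X0 : Euc m} {K : Set (Euc k)} {l K1 K2 K3 hb : ℝ}

theorem Cn_nonneg (m : ℕ) : 0 ≤ Cn m := by
  have := Cj_nonneg m
  unfold Cn
  positivity

/-- **`KT` for the chart of a graph** -/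
theorem Hy.kt (h : Hy π ρ x r w X0 K l K1 K2 K3 hb) {s r' : ℝ} (hs : 0 < s)
    (h1 : s ≤ Real.exp l) (h2 : Real.exp l ≤ 2 * s) (hr : r' ≤ Real.exp l) (hb2 : 2 * hb ≤ 1) :
    KT (ch π ρ x r w X0) K s r' (Cn m) (kp m n K1 K2 K3 hb l) where
  jb v hv := h.jb (hv.le.trans hr)
  lb v hv := (mul_le_mul_of_nonneg_right h1 (norm_nonneg _)).trans (h.lb (hv.le.trans hr))
  t0 p hp _ := ⟨h.tau_nonneg hp, h.tau_le hp⟩
  q1 z hz hx := h.q1 hs h2 hb2 hz (hx.le.trans hr)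
  an p hp hx := h.an hs h1 hp (hx.le.trans hr)
  hT p hp hx := h.hT hs h1 hp (hx.le.trans hr)
  k3 p hp hx v := h.kk3 hs h1 hp (hx.le.trans hr) v

end Crest.Agent.R234.GLK_128
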