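import Crest.Agent.R234.Fin3_618
import Crest.Agent.R234.GLK10_128
import Crest.Agent.R234.Ell1_3

/-!
# Row 234, F3 (helper618), (FIN), part 4: the total variation measure at the scale 1
-/

set_option autoImplicit false
set_option maxSynthPendingDepth 3

open Set Filter Topology MeasureTheory Metric Function
open Crest.GeometryTopology.Submanifold
open Crest.Agent.R234.Vf_884 Crest.Agent.R234.Ar_870 Crest.Agent.R234.GL_394
open Crest.Agent.R234.Main_456 (Frame Msys)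
open Crest.Agent.R234.Gi_456 (Gr tube foot ch Lo)
open Crest.Agent.R234.GLK_128 (Hy kp Cn)
open scoped ENNReal NNReal ContDiff InnerProductSpace

noncomputable section

namespace Crest.Agent.R234.Fin_618

open Crest.Agent.R234.Tv_618 (Wr KT tv_gl measurableSet_Wr)

variable {m n k : ℕ}

/-- derivative bounds in the form of `Hy` -/
theorem d_bounds {w : Euc m → Euc n} {X0 : Euc m} {κ : ℝ}
    (hd : ∀ j, 1 ≤ j → j ≤ 3 → ∀ Y ∈ ball X0 2, ‖iteratedFDeriv ℝ j w Y‖ ≤ κ) {Y : Euc m}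
    (hY : Y ∈ ball X0 2) : ‖fderiv ℝ w Y‖ ≤ κ ∧ ‖fderiv ℝ (fderiv ℝ w) Y‖ ≤ κ ∧
      ‖fderiv ℝ (fderiv ℝ (fderiv ℝ w)) Y‖ ≤ κ := by
  refine ⟨?_, ?_, ?_⟩
  · rw [← norm_iteratedFDeriv_one]; exact hd 1 le_rfl (by norm_num) Y hY
  · rw [← norm_iteratedFDeriv_one, norm_iteratedFDeriv_fderiv]
    exact hd 2 (by norm_num) (by norm_num) Y hY
  · rw [← norm_iteratedFDeriv_one, norm_iteratedFDeriv_fderiv, norm_iteratedFDeriv_fderiv]
    exact hd 3 (by norm_num) le_rfl Y hY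

/-- `Hy` at the level `log b`, `1 ≤ b < 1 + ε` -/
theorem hy_of {π : Euc k →L[ℝ] Euc m} {ρ : Euc k →L[ℝ] Euc n} {x : Euc k} {w : Euc m → Euc n}
    {X0 : Euc m} {K : Set (Euc k)} {κ ε b : ℝ} (hf : Frame π ρ) (hw : Gr 1 w) (hκ : 0 ≤ κ)
    (hκ4 : κ ≤ 1 / 4)
    (hd : ∀ j, 1 ≤ j → j ≤ 3 → ∀ Y ∈ ball X0 2, ‖iteratedFDeriv ℝ j w Y‖ ≤ κ)
    (hb1 : 1 ≤ b) (hb : b < 1 + ε) (hε1 : ε ≤ 1)
    (hms : ∀ Y ∈ ball X0 (1 + ε), Msys w Y = 0) (hsub : K ⊆ tube π ρ x 1 w)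
    (hnu : ∀ z ∈ K, ‖(ch π ρ x 1 w X0).nu z‖ ≤ 1 / 2) :
    Hy π ρ x 1 w X0 K (Real.log b) κ κ κ (1 / 2) where
  gr := hw
  fr := hf
  sub := hsub
  k1 := fun X hX => by
    rw [Real.exp_log (by linarith)] at hX
    exact (d_bounds hd (by rw [mem_ball, dist_eq_norm]; linarith)).1
  k2 := fun X hX => by
    rw [Real.exp_log (by linarith)] at hX
    exact (d_bounds hd (by rw [mem_ball, dist_eq_norm]; linarith)).2.1
  k3 := fun X hX => by
    rw [Real.exp_log (by linarith)] at hX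
    exact (d_bounds hd (by rw [mem_ball, dist_eq_norm]; linarith)).2.2
  k1le := by linarith
  k2s := by
    rw [Real.exp_log (by linarith)]
    nlinarith
  hb0 := by norm_num
  hb1 := by norm_num
  min := fun X hX => by
    rw [Real.exp_log (by linarith)] at hX
    have : X ∈ ball X0 (1 + ε) := by rw [mem_ball, dist_eq_norm]; linarith
    filter_upwards [isOpen_ball.mem_nhds this] with Y hY
    exact hms Y hY
  nu := fun z hz _ => by
    rw [Real.exp_log (by linarith)]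
    have := hnu z hz
    linarith

/-- **the total variation measure at the scale 1** -/
theorem tv1 (hm : 1 ≤ m) (n Q : ℕ) {Λ : ℝ} (hΛ : 0 ≤ Λ) :
    ∃ κ₁ : ℝ, 0 < κ₁ ∧ κ₁ ≤ 1 / 4 ∧ ∃ Ct : ℝ, 0 ≤ Ct ∧
      ∀ {k : ℕ} {π : Euc k →L[ℝ] Euc m} {ρ : Euc k →L[ℝ] Euc n} {x : Euc k} {w : Euc m → Euc n}
        {X0 : Euc m} {κ ε : ℝ} {U K : Set (Euc k)} {Dd : VarifoldData m k},
      Frame π ρ → IsIntegralVarifoldIn U Dd → Gr 1 w → 0 ≤ κ → κ ≤ κ₁ →
      (∀ j, 1 ≤ j → j ≤ 3 → ∀ Y ∈ ball X0 2, ‖iteratedFDeriv ℝ j w Y‖ ≤ κ) →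
      0 < ε → ε ≤ 1 → (∀ Y ∈ ball X0 (1 + ε), Msys w Y = 0) →
      Loc (ch π ρ x 1 w X0) U (tube π ρ x 1 w) K (VD Dd) (Real.log (1 + ε)) →
      (∀ z ∈ K, ‖(ch π ρ x 1 w X0).nu z‖ ≤ 1 / 2) →
      (VD Dd).real ({z | z ∈ K ∧ ‖(ch π ρ x 1 w X0).x z‖ < 1 + ε} ×ˢ univ) ≤ Λ →
      |(VD Dd).real ({z | z ∈ K ∧ ‖(ch π ρ x 1 w X0).x z‖ < 1 / 4} ×ˢ univ) -
        Q * volume.real (ball (0 : Euc m) (1 / 4))| ≤
          1 / 4 * volume.real (ball (0 : Euc m) (1 / 4)) →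
      ∃ e : Measure (Euc m), IsFiniteMeasure e ∧
        (∀ F : Euc m → ℝ, Measurable F → (∃ b : ℝ, ∀ v, |F v| ≤ b) →
          (∀ v, v ∉ closedBall (0 : Euc m) (1 + ε / 4) → F v = 0) →
          |∫ p, F ((ch π ρ x 1 w X0).x p.1) * (1 - (ch π ρ x 1 w X0).tau p.1 p.2 / 2)
            ∂(VK (VD Dd) K) - Q * ∫ v, F v * (ch π ρ x 1 w X0).j v| ≤ ∫ v, |F v| ∂e) ∧
        e.real (closedBall 0 (1 + ε / 4)) ≤ Ct / ε ^ (2 * m) *
          ∫ p in {z | ‖(ch π ρ x 1 w X0).x z‖ ≤ 1 + ε / 2} ×ˢ univ,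
            ((ch π ρ x 1 w X0).tau p.1 p.2 + 2 * (ch π ρ x 1 w X0).f p.1) ∂(VK (VD Dd) K) := by
  obtain ⟨κ₀, hκ₀, C1, hC1, Ct, hCt, h⟩ := tv_gl (m := m) hm Q (GLK_128.Cn_nonneg m) hΛ
  have hct := GLK_128.Ct_pos m n
  set c12 : ℝ := 12 * GLK_128.Ct m n with hc12
  have hc120 : 0 < c12 := by positivity
  refine ⟨min (1 / 4) (min (κ₀ / c12) (1 / c12)), lt_min (by norm_num)
    (lt_min (by positivity) (by positivity)), min_le_left _ _, Ct * 2 ^ (2 * m), by positivity, ?_⟩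
  intro k π ρ x w X0 κ ε U K Dd hf hD hw hκ0 hκ1 hd hε0 hε1 hms hL hnu hM1 hM2
  have hκ4 : κ ≤ 1 / 4 := hκ1.trans (min_le_left _ _)
  have hκa : c12 * κ ≤ κ₀ := by
    have h1 : κ ≤ κ₀ / c12 := hκ1.trans ((min_le_right _ _).trans (min_le_left _ _))
    rw [le_div_iff₀ hc120] at h1
    linarith
  have hκb : c12 * κ ≤ 1 := by
    have h1 : κ ≤ 1 / c12 := hκ1.trans ((min_le_right _ _).trans (min_le_right _ _))
    rw [le_div_iff₀ hc120] at h1
    linarith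
  have hsub : K ⊆ tube π ρ x 1 w := hL.sub.trans inter_subset_left
  have hy := hy_of (b := 1 + ε / 2) hf hw hκ0 hκ4 hd (by linarith) (by linarith) hε1 hms hsub hnu
  have hexp : Real.exp (Real.log (1 + ε / 2)) = 1 + ε / 2 := Real.exp_log (by linarith)
  have hexp2 : Real.exp (2 * Real.log (1 + ε / 2)) = (1 + ε / 2) ^ 2 := by
    rw [two_mul, Real.exp_add, hexp]; ring
  have hKT := hy.kt (s := 1) (r' := (1 + ε / 2) * 1) one_pos (by rw [hexp]; linarith)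
    (by rw [hexp]; linarith) (by rw [hexp]; linarith) (by norm_num)
  have hkp : kp m n κ κ κ (1 / 2) (Real.log (1 + ε / 2)) ≤ c12 * κ := by
    refine hy.kp_le.trans ?_
    rw [hexp, hexp2]
    have b1 : 1 + ε / 2 ≤ 3 / 2 := by linarith
    have b2 : (1 + ε / 2) ^ 2 ≤ 9 / 4 := by nlinarith
    have b3 := mul_le_mul_of_nonneg_left b1 hκ0
    have b4 := mul_le_mul_of_nonneg_left b2 hκ0
    have e1 : κ * (1 + ε / 2) + κ * (1 + ε / 2) ^ 2 ≤ 4 * κ := by linarith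
    calc 3 * GLK_128.Ct m n * (κ * (1 + ε / 2) + κ * (1 + ε / 2) ^ 2) ≤
          3 * GLK_128.Ct m n * (4 * κ) := by gcongr
      _ = c12 * κ := by rw [hc12]; ring
  set κ' := kp m n κ κ κ (1 / 2) (Real.log (1 + ε / 2)) with hκ'
  have hκ'0 : 0 ≤ κ' := hy.kpn
  set c := ch π ρ x 1 w X0 with hc
  have hOk : Ok c K univ := (hw.reg hf X0).ok hL.cpt hsub
  have hOn := hL.toOn
  have htau : ∀ p ∈ K ×ˢ G m k, 0 ≤ c.tau p.1 p.2 := fun p hp => hy.tau_nonneg hp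
  have hVfin : (VD Dd) ({z | z ∈ K ∧ ‖c.x z‖ < 1 + ε} ×ˢ univ) ≠ ⊤ := by
    have h1 := hOn.fin
    have h2 : (VD Dd) (K ×ˢ (univ : Set (Vf_884.L k))) < ⊤ := by
      have := measure_lt_top (VK (VD Dd) K) univ
      unfold VK at this
      rwa [Measure.restrict_apply_univ] at this
    exact ((measure_mono (prod_mono (fun z hz => hz.1) subset_rfl)).trans_lt h2).ne
  obtain ⟨e, hTV, hmass⟩ := h (ε / 2) (by positivity) (by linarith) κ' hκ'0 (hkp.trans hκa)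
    one_pos hD (hw.reg hf X0) hL (by rw [Real.exp_log (by linarith)]; linarith) (subset_univ _) hKT
    (by
      rw [one_pow, mul_one Λ]
      refine le_trans (measureReal_mono ?_ hVfin) hM1
      refine prod_mono (fun z hz => ⟨hz.1, ?_⟩) subset_rfl
      have := hz.2
      linarith)
    (by rw [mul_one]; exact hM2)
  have e4 : (1 + ε / 2 / 2) * 1 = 1 + ε / 4 := by ring
  rw [e4] at hTV hmass
  refine ⟨e, hTV.fin, hTV.i, hmass.trans ?_⟩
  rw [mul_one]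
  have e5 : Ct / (ε / 2) ^ (2 * m) = Ct * 2 ^ (2 * m) / ε ^ (2 * m) := by
    rw [div_pow]; field_simp
  rw [e5]
  refine mul_le_mul_of_nonneg_left ?_ (by positivity)
  -- compare the integrals
  have hxK := cx_on hOk
  have hWm : MeasurableSet (Wr c K (1 + ε / 2) ×ˢ (univ : Set (Vf_884.L k))) :=
    (measurableSet_Wr hL.cpt hxK _).prod MeasurableSet.univ
  have hsubW : Wr c K (1 + ε / 2) ×ˢ (univ : Set (Vf_884.L k)) ⊆ K ×ˢ univ :=
    prod_mono (fun z hz => hz.1) subset_rfl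
  have e1 : (VD Dd).restrict (Wr c K (1 + ε / 2) ×ˢ univ) =
      (VK (VD Dd) K).restrict (Wr c K (1 + ε / 2) ×ˢ univ) := by
    unfold VK
    rw [Measure.restrict_restrict hWm, inter_eq_left.2 hsubW]
  rw [e1]
  have hdf := dn_f (m := m) hOk
  have hdt := dn_tau hOk htau
  have hds : Dn K m (fun p : Euc k × Vf_884.L k => c.tau p.1 p.2 + 2 * c.f p.1) :=
    ⟨hdt.co.add hdf.co, fun p hp => add_nonneg (hdt.nn p hp) (hdf.nn p hp)⟩
  refine le_trans (b := ∫ p in Wr c K (1 + ε / 2) ×ˢ univ, (c.tau p.1 p.2 + 2 * c.f p.1)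
    ∂(VK (VD Dd) K)) ?_ ?_
  · have i1 := hdt.int hOk hOn
    have i2 := hdf.int hOk hOn
    refine integral_mono_ae ?_ (i1.add i2).integrableOn ?_
    · exact (i1.add ((i2.div_const (1 ^ 2)).const_mul κ')).integrableOn
    · filter_upwards [ae_restrict_of_ae (hdf.ae hOn)] with p hp
      have : κ' * (2 * c.f p.1 / 1 ^ 2) ≤ 2 * c.f p.1 := by
        rw [one_pow, div_one]
        exact mul_le_of_le_one_left hp (hkp.trans hκb)
      linarith
  · refine hds.mono hOk hOn (Eventually.of_forall fun p hp => ⟨?_, trivial⟩)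
    exact hp.1.2.le

end Crest.Agent.R234.Fin_618
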