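import Crest.Agent.R234.Fin2_618
import Crest.Agent.R234.Fin4_618
import Crest.Agent.R234.F36_354
import Crest.Agent.R234.Fin3_471

/-!
# Row 234, F3 (helper618), (FIN), part 5: the local estimates at all base points of the ball
-/

set_option autoImplicit false
set_option maxSynthPendingDepth 3

open Set Filter Topology MeasureTheory Metric Function
open Crest.GeometryTopology.Submanifold
open Crest.Agent.R234.Vf_884 Crest.Agent.R234.Ar_870 Crest.Agent.R234.GL_394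
open Crest.Agent.R234.Main_456 (Frame Msys)
open Crest.Agent.R234.Gi_456 (Gr tube foot ch Lo Loi Lo_Loi Loi_spec norm_Lo_le pt jB_pos)
open Crest.Agent.R234.F35k_433 (bv kern_ch)
open Crest.Agent.R234.F36_354 (LEP F3P1)
open scoped ENNReal NNReal ContDiff InnerProductSpace

noncomputable section

namespace Crest.Agent.R234.Fin_618

open Crest.Agent.R234.F31_354 (Kern)
open Crest.Agent.R234.Th_164 (om om_pos)

variable {m n k : ℕ}

/-- constant of the heights and of the energy -/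
def CE (m : ℕ) : ℝ :=
  2 * (64 * m) ^ m / ome m + (8192 * Gs_685.Kst ^ 2 + 4 * m) + (m + 2)

theorem CE_ge (m : ℕ) : (m : ℝ) + 2 ≤ CE m ∧ 2 * (64 * (m : ℝ)) ^ m / ome m ≤ CE m ∧
    8192 * Gs_685.Kst ^ 2 + 4 * m ≤ CE m ∧ 1 ≤ CE m := by
  have h1 := ome_pos m
  have h2 : (0 : ℝ) ≤ m := Nat.cast_nonneg m
  have h3 : 0 ≤ 2 * (64 * (m : ℝ)) ^ m / ome m := by positivity
  have h4 : 0 ≤ 8192 * Gs_685.Kst ^ 2 + 4 * (m : ℝ) := by positivity
  unfold CE
  refine ⟨by linarith, by linarith, by linarith, by linarith⟩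

/-- heights and energy at the scale 1 (from helper471) -/
theorem h12 {U K : Set (Euc k)} {V : Measure (Euc k × L k)}
    {π : Euc k →L[ℝ] Euc m} {ρ : Euc k →L[ℝ] Euc n} {x : Euc k} {w : Euc m → Euc n}
    {X0 : Euc m} {ε H : ℝ} (h : Fin3_471.Hs U K V π ρ x w X0 ε H) (hH : 0 < H)
    (hs : H < ome m / (2048 * 64 ^ m) * ε ^ (m + 2)) {κ : ℝ} (hk : 0 ≤ κ) (hκ : 6 * m * κ ≤ 1)
    (hd2 : ∀ Y ∈ ball X0 2, ‖iteratedFDeriv ℝ 2 w Y‖ ≤ κ)
    (htau : ∀ p ∈ K ×ˢ G m k, 0 ≤ (ch π ρ x 1 w X0).tau p.1 p.2) :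
    (∀ᵐ p ∂(VK V K), ‖(ch π ρ x 1 w X0).x p.1‖ ≤ 1 + ε / 2 →
      2 * (ch π ρ x 1 w X0).f p.1 ≤ CE m * ε ^ (-CE m) * H) ∧
    ∫ p in {z | ‖(ch π ρ x 1 w X0).x z‖ ≤ 1 + ε / 2} ×ˢ univ, (ch π ρ x 1 w X0).tau p.1 p.2
      ∂(VK V K) ≤ CE m * ε ^ (-CE m) * H := by
  obtain ⟨c1, c2, c3, c4⟩ := CE_ge m
  have he := h.e0
  have he1 := h.e1
  have hm0 : (0 : ℝ) ≤ m := Nat.cast_nonneg m
  have hp : ∀ a : ℕ, (a : ℝ) ≤ m + 2 → (ε ^ a)⁻¹ ≤ ε ^ (-CE m) := by
    intro a ha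
    rw [← Real.rpow_natCast, ← Real.rpow_neg he.le]
    exact Real.rpow_le_rpow_of_exponent_ge he he1 (by linarith)
  have hpos : 0 < ε ^ (-CE m) := Real.rpow_pos_of_pos he _
  constructor
  · filter_upwards [h.sup hs] with p hp1 hx
    refine (hp1 (by linarith)).trans ?_
    have h1 := hp m (by linarith)
    calc 2 * (64 * (m : ℝ)) ^ m / ome m * ((ε ^ m)⁻¹ * H) ≤ CE m * (ε ^ (-CE m) * H) := by
          gcongr
      _ = _ := by ring
  · have h1 := h.energy hk hκ hd2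
    have hK : K ⊆ tube π ρ x 1 w := h.loc.sub.trans inter_subset_left
    have hOk : Ok (ch π ρ x 1 w X0) K univ := (h.gr.reg h.fr X0).ok h.loc.cpt hK
    have h2 := (dn_tau hOk htau).mono hOk h.loc.toOn
      (S := {z | ‖(ch π ρ x 1 w X0).x z‖ ≤ 1 + ε / 2} ×ˢ univ)
      (T := {p : Euc k × Vf_884.L k | ‖(ch π ρ x 1 w X0).x p.1‖ ≤ 1 + 3 / 4 * ε})
      (Eventually.of_forall fun p hp => by
        have h3 : ‖(ch π ρ x 1 w X0).x p.1‖ ≤ 1 + ε / 2 := hp.1
        show ‖(ch π ρ x 1 w X0).x p.1‖ ≤ 1 + 3 / 4 * ε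
        linarith)
    refine (h2.trans h1).trans ?_
    have h3 := hp 2 (by push_cast; linarith)
    have h4 : 0 ≤ 8192 * Gs_685.Kst ^ 2 + 4 * (m : ℝ) := by positivity
    calc (8192 * Gs_685.Kst ^ 2 + 4 * (m : ℝ)) * ((ε ^ 2)⁻¹ * H) ≤ CE m * (ε ^ (-CE m) * H) := by
          gcongr
      _ = _ := by ring

/-- the weight of the kernel -/
def CW (m : ℕ) : ℝ := Kern_567.CK m * (4 / 3) * 2 ^ m / om m

theorem CW_pos (m : ℕ) : 0 < CW m := by
  have := om_pos m
  have := Kern_567.CK_pos m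
  unfold CW; positivity

theorem weight_le {t : ℝ} (ht : 0 < t) :
    0 ≤ Kern_567.CK m / Loc1_290.mass (volume : Measure (Euc m)) t ∧
      Kern_567.CK m / Loc1_290.mass (volume : Measure (Euc m)) t ≤ CW m / t ^ m := by
  have hom := om_pos m
  have hCK := Kern_567.CK_pos m
  have h1 := Loc1_290.mass_pos (volume : Measure (Euc m)) ht
  have h2 := Loc1_290.mass_ge (volume : Measure (Euc m)) ht
  rw [vol_cball _ (by positivity)] at h2
  refine ⟨by positivity, ?_⟩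
  have h3 : 0 < 3 / 4 * (om m * (t / 2) ^ m) := by positivity
  calc Kern_567.CK m / Loc1_290.mass (volume : Measure (Euc m)) t ≤
        Kern_567.CK m / (3 / 4 * (om m * (t / 2) ^ m)) := by gcongr
    _ = CW m / t ^ m := by
        unfold CW
        rw [div_pow]
        field_simp

section pts

variable {π : Euc k →L[ℝ] Euc m} {ρ : Euc k →L[ℝ] Euc n} {x : Euc k} {w : Euc m → Euc n}
  {X0 : Euc m}

/-- base point -/
theorem norm_pt_sub (w : Euc m → Euc n) (X0 v : Euc m) : ‖pt w X0 v - X0‖ ≤ ‖v‖ := by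
  unfold Gi_456.pt
  rw [add_sub_cancel_left]
  exact (ContinuousLinearMap.le_opNorm _ _).trans
    (mul_le_of_le_one_left (norm_nonneg _) (Loi_spec _).2.2)

theorem Lo_pt (w : Euc m → Euc n) (X0 v : Euc m) :
    Lo (fderiv ℝ w X0) (pt w X0 v - X0) = v := by
  unfold Gi_456.pt
  rw [add_sub_cancel_left, Lo_Loi]

theorem chx_sub (hw : Gr 1 w) (z : Euc k) (v : Euc m) :
    ‖(ch π ρ x 1 w X0).x z - v‖ ≤ 65 / 64 * ‖foot π ρ x 1 w z - pt w X0 v‖ := by
  have e : (ch π ρ x 1 w X0).x z - v =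
      Lo (fderiv ℝ w X0) (foot π ρ x 1 w z - pt w X0 v) := by
    show Lo (fderiv ℝ w X0) (foot π ρ x 1 w z - X0) - v = _
    conv_lhs => rw [← Lo_pt w X0 v]
    rw [← map_sub]
    congr 1
    abel
  rw [e]
  exact norm_Lo_le (hw.d1 X0) _

theorem norm_Pt_sub (hf : Frame π ρ) (hw : Gr 1 w) (X X' : Euc m) :
    ‖Foot_842.pt π ρ x w X - Foot_842.pt π ρ x w X'‖ ≤ 9 / 8 * ‖X - X'‖ := by
  have e : Foot_842.pt π ρ x w X - Foot_842.pt π ρ x w X' =
      ContinuousLinearMap.adjoint π (X - X') + ContinuousLinearMap.adjoint ρ (w X - w X') := by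
    unfold Foot_842.pt
    rw [map_sub, map_sub]; abel
  rw [e]
  refine (norm_add_le _ _).trans ?_
  have h1 : ‖ContinuousLinearMap.adjoint π (X - X')‖ ≤ ‖X - X'‖ := by
    refine (ContinuousLinearMap.le_opNorm _ _).trans (mul_le_of_le_one_left (norm_nonneg _) ?_)
    rw [LinearIsometryEquiv.norm_map]
    exact ContinuousLinearMap.opNorm_le_bound _ zero_le_one fun v => by
      rw [one_mul]; exact Gi_456.norm_pi_le' hf v
  have h2 : ‖ContinuousLinearMap.adjoint ρ (w X - w X')‖ ≤ ‖w X - w X'‖ := by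
    refine (ContinuousLinearMap.le_opNorm _ _).trans (mul_le_of_le_one_left (norm_nonneg _) ?_)
    rw [LinearIsometryEquiv.norm_map]
    exact ContinuousLinearMap.opNorm_le_bound _ zero_le_one fun v => by
      rw [one_mul]; exact Gi_456.norm_rho_le' hf v
  have h3 := hw.lip X X'
  linarith

end pts

end Crest.Agent.R234.Fin_618
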