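import Crest.Agent.R234.Fin5_618

/-!
# Row 234, F3 (helper618), (FIN), part 6: the local estimate at a base point of the ball
-/

set_option autoImplicit false
set_option maxSynthPendingDepth 3

open Set Filter Topology MeasureTheory Metric Function
open Crest.GeometryTopology.Submanifold
open Crest.Agent.R234.Vf_884 Crest.Agent.R234.Ar_870 Crest.Agent.R234.GL_394
open Crest.Agent.R234.Main_456 (Frame Msys)
open Crest.Agent.R234.Gi_456 (Gr tube foot ch Lo Loi Lo_Loi Loi_spec norm_Lo_le pt jB_pos)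
open Crest.Agent.R234.F35k_433 (bv kern_ch)
open Crest.Agent.R234.F36_354 (LEP F3P1)
open scoped ENNReal NNReal ContDiff InnerProductSpace

noncomputable section

namespace Crest.Agent.R234.Fin_618

open Crest.Agent.R234.F31_354 (Kern)
open Crest.Agent.R234.Th_164 (om om_pos)

variable {m n k : ℕ}

/-- the inner statement of `LEP` -/
def LEPat (m n k Q : ℕ) (c₀ C C₁ Cs D₀ : ℝ) : Prop :=
  ∀ (π : Euc k →L[ℝ] Euc m) (ρ : Euc k →L[ℝ] Euc n) (x : Euc k) (w : Euc m → Euc n)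
    (Xc X : Euc m) (κ t D : ℝ) (U K : Set (Euc k)) (Dd : VarifoldData m k) (e : Measure (Euc m)),
  Frame π ρ → IsOpen U → IsIntegralVarifoldIn U Dd → IsStationaryIn U Dd →
  Gr 1 w → ContDiff ℝ ∞ w → 0 ≤ κ → κ ≤ c₀ →
  (∀ j, 1 ≤ j → j ≤ 3 → ∀ Y ∈ ball X 1, ‖iteratedFDeriv ℝ j w Y‖ ≤ κ) →
  0 < t → t ≤ c₀ → (∀ Y ∈ ball X (8 * t), Msys w Y = 0) →
  closedBall (Foot_842.pt π ρ x w X) (16 * t) ⊆ U →
  IsCompact K → K ⊆ tube π ρ x 1 w → K ⊆ U →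
  (∀ᵐ p ∂(VD Dd), p.1 ∈ U → p.1 ∈ tube π ρ x 1 w → ‖foot π ρ x 1 w p.1 - X‖ ≤ 14 * t →
    p.1 ∈ K) →
  (∀ᵐ p ∂(VD Dd), p.1 ∈ K → ‖foot π ρ x 1 w p.1 - X‖ ≤ 14 * t →
    2 * (ch π ρ x 1 w Xc).f p.1 ≤ t ^ 2) →
  0 < D → D ≤ D₀ → t ≤ (Real.log (1 / D)) ^ (-C₁) →
  ∫ p in {z | z ∈ K ∧ ‖foot π ρ x 1 w z - X‖ ≤ 14 * t} ×ˢ univ,
    2 * (ch π ρ x 1 w Xc).f p.1 ∂(VD Dd) ≤ D * t ^ (m + 2) →
  ∫ p in {z | z ∈ K ∧ ‖foot π ρ x 1 w z - X‖ ≤ 14 * t} ×ˢ univ,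
    (ch π ρ x 1 w Xc).tau p.1 p.2 ∂(VD Dd) ≤ c₀ * t ^ m →
  IsFiniteMeasure e →
  e.real (closedBall (Lo (fderiv ℝ w Xc) (X - Xc)) (6 * t)) ≤ c₀ * t ^ m →
  (∀ F : Euc m → ℝ, Measurable F → (∃ b : ℝ, ∀ v, |F v| ≤ b) →
    (∀ v, v ∉ closedBall (Lo (fderiv ℝ w Xc) (X - Xc)) (6 * t) → F v = 0) →
    |∫ p, F ((ch π ρ x 1 w Xc).x p.1) * (1 - (ch π ρ x 1 w Xc).tau p.1 p.2 / 2)
      ∂(VK (VD Dd) K) - Q * ∫ v, F v * (ch π ρ x 1 w Xc).j v| ≤ ∫ v, |F v| ∂e) →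
  ∫ p, bv w Xc t (Lo (fderiv ℝ w Xc) (X - Xc)) ((ch π ρ x 1 w Xc).x p.1) *
      (1 - (ch π ρ x 1 w Xc).tau p.1 p.2 / 2) ∂(VK (VD Dd) K) -
    Q * ∫ v, bv w Xc t (Lo (fderiv ℝ w Xc) (X - Xc)) v * (ch π ρ x 1 w Xc).j v ≤
  C * (κ ^ 2 * ∫ p in {z | ‖(ch π ρ x 1 w Xc).x z - Lo (fderiv ℝ w Xc) (X - Xc)‖ ≤ 16 * t} ×ˢ univ,
      2 * (ch π ρ x 1 w Xc).f p.1 ∂(VK (VD Dd) K)) +
  C * (((κ * t) ^ 2 + κ * t * √D + D) *
    ∫ p in {z | ‖(ch π ρ x 1 w Xc).x z - Lo (fderiv ℝ w Xc) (X - Xc)‖ ≤ 16 * t} ×ˢ univ,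
      (ch π ρ x 1 w Xc).tau p.1 p.2 ∂(VK (VD Dd) K)) +
  C * (κ * t) ^ 2 * e.real (closedBall (Lo (fderiv ℝ w Xc) (X - Xc)) (2 * t)) +
  t ^ m * ((Real.log (1 / D)) ^ (-Cs) * D)

theorem lep_at {Q : ℕ} (h : LEP m n k Q) : ∃ c₀ C C₁ : ℝ, 0 < c₀ ∧ c₀ ≤ 1 / 16 ∧ 1 ≤ C ∧ 0 < C₁ ∧
    ∀ Cs : ℝ, ∃ D₀ : ℝ, 0 < D₀ ∧ D₀ < 1 ∧ LEPat m n k Q c₀ C C₁ Cs D₀ := h

section loc

variable {π : Euc k →L[ℝ] Euc m} {ρ : Euc k →L[ℝ] Euc n} {x : Euc k} {w : Euc m → Euc n}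
  {X0 : Euc m}

theorem foot_cont (hw : Gr 1 w) (hf : Frame π ρ) {K : Set (Euc k)} (hK : IsCompact K)
    (hsub : K ⊆ tube π ρ x 1 w) (X : Euc m) (r : ℝ) :
    MeasurableSet {z | z ∈ K ∧ ‖foot π ρ x 1 w z - X‖ ≤ r} := by
  have h1 : ContinuousOn (fun z => foot π ρ x 1 w z) K := (hw.continuousOn_foot hf).mono hsub
  have h2 := h1.preimage_isClosed_of_isClosed hK.isClosed (isClosed_closedBall (x := X) (ε := r))
  refine (h2.measurableSet).congr ?_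
  ext z
  refine and_congr_right fun _ => ?_
  rw [mem_preimage, mem_closedBall, dist_eq_norm]

/-- **the local estimate at the coordinate `v`** -/
theorem loc_at {Q : ℕ} {c₀ CL C₁ Cs D₀ : ℝ} (hLE : LEPat m n k Q c₀ CL C₁ Cs D₀)
    {κ ε t D : ℝ} {U K : Set (Euc k)} {Dd : VarifoldData m k} {e : Measure (Euc m)}
    (hf : Frame π ρ) (hUo : IsOpen U) (hD : IsIntegralVarifoldIn U Dd)
    (hst : IsStationaryIn U Dd) (hw : Gr 1 w) (hwc : ContDiff ℝ ∞ w) (hκ0 : 0 ≤ κ) (hκ : κ ≤ c₀)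
    (hd : ∀ j, 1 ≤ j → j ≤ 3 → ∀ Y ∈ ball X0 2, ‖iteratedFDeriv ℝ j w Y‖ ≤ κ)
    (ht : 0 < t) (htc : t ≤ c₀) (htε : t ≤ ε / 100) (hε1 : ε ≤ 1)
    (hms : ∀ Y ∈ ball X0 (1 + ε), Msys w Y = 0)
    (hball : closedBall (Foot_842.pt π ρ x w X0) 4 ⊆ U)
    (hL : Loc (ch π ρ x 1 w X0) U (tube π ρ x 1 w) K (VD Dd) (Real.log (1 + ε)))
    (htau : ∀ p ∈ K ×ˢ G m k, 0 ≤ (ch π ρ x 1 w X0).tau p.1 p.2)
    (hgt : ∀ᵐ p ∂(VK (VD Dd) K), ‖(ch π ρ x 1 w X0).x p.1‖ ≤ 1 + ε / 2 →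
      2 * (ch π ρ x 1 w X0).f p.1 ≤ t ^ 2)
    (hD0 : 0 < D) (hD1 : D ≤ D₀) (htΛ : t ≤ (Real.log (1 / D)) ^ (-C₁))
    (h2f : ∫ p in {z | ‖(ch π ρ x 1 w X0).x z‖ ≤ 1 + ε / 2} ×ˢ univ,
      2 * (ch π ρ x 1 w X0).f p.1 ∂(VK (VD Dd) K) ≤ D * t ^ (m + 2))
    (hen : ∫ p in {z | ‖(ch π ρ x 1 w X0).x z‖ ≤ 1 + ε / 2} ×ˢ univ,
      (ch π ρ x 1 w X0).tau p.1 p.2 ∂(VK (VD Dd) K) ≤ c₀ * t ^ m)
    (hefin : IsFiniteMeasure e) (heM : e.real (closedBall 0 (1 + ε / 4)) ≤ c₀ * t ^ m)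
    (hei : ∀ F : Euc m → ℝ, Measurable F → (∃ b : ℝ, ∀ v, |F v| ≤ b) →
      (∀ v, v ∉ closedBall (0 : Euc m) (1 + ε / 4) → F v = 0) →
      |∫ p, F ((ch π ρ x 1 w X0).x p.1) * (1 - (ch π ρ x 1 w X0).tau p.1 p.2 / 2)
        ∂(VK (VD Dd) K) - Q * ∫ v, F v * (ch π ρ x 1 w X0).j v| ≤ ∫ v, |F v| ∂e)
    {v : Euc m} (hv : ‖v‖ < 1) :
    ∫ p, bv w X0 t v ((ch π ρ x 1 w X0).x p.1) *
      (1 - (ch π ρ x 1 w X0).tau p.1 p.2 / 2) ∂(VK (VD Dd) K) -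
    Q * ∫ y, bv w X0 t v y * (ch π ρ x 1 w X0).j y ≤
    CL * (κ ^ 2 * ∫ p in {z | ‖(ch π ρ x 1 w X0).x z - v‖ ≤ 16 * t} ×ˢ univ,
      2 * (ch π ρ x 1 w X0).f p.1 ∂(VK (VD Dd) K)) +
    CL * (((κ * t) ^ 2 + κ * t * √D + D) *
      ∫ p in {z | ‖(ch π ρ x 1 w X0).x z - v‖ ≤ 16 * t} ×ˢ univ,
      (ch π ρ x 1 w X0).tau p.1 p.2 ∂(VK (VD Dd) K)) +
    CL * (κ * t) ^ 2 * e.real (closedBall v (2 * t)) +
    t ^ m * ((Real.log (1 / D)) ^ (-Cs) * D) := by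
  have hsub : K ⊆ tube π ρ x 1 w := hL.sub.trans inter_subset_left
  have hOk : Ok (ch π ρ x 1 w X0) K univ := (hw.reg hf X0).ok hL.cpt hsub
  have hOn : On (VK (VD Dd) K) m K := hL.toOn
  have hε0 : 0 < ε := by linarith
  have hexp : Real.exp (Real.log (1 + ε)) = 1 + ε := Real.exp_log (by linarith)
  set X : Euc m := pt w X0 v with hX
  have hX1 : ‖X - X0‖ < 1 := (norm_pt_sub w X0 v).trans_lt hv
  have hLo : Lo (fderiv ℝ w X0) (X - X0) = v := Lo_pt w X0 v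
  -- `|c.x z - v| ≤ 15 t` near the foot `X`
  have hnear : ∀ z, ‖foot π ρ x 1 w z - X‖ ≤ 14 * t → ‖(ch π ρ x 1 w X0).x z‖ ≤ 1 + ε / 2 := by
    intro z hz
    have h1 := chx_sub (π := π) (ρ := ρ) (x := x) (X0 := X0) hw z v
    have h2 : ‖(ch π ρ x 1 w X0).x z‖ ≤ ‖(ch π ρ x 1 w X0).x z - v‖ + ‖v‖ := by
      calc ‖(ch π ρ x 1 w X0).x z‖ = ‖((ch π ρ x 1 w X0).x z - v) + v‖ := by rw [sub_add_cancel]
        _ ≤ _ := norm_add_le _ _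
    have h3 : 65 / 64 * ‖foot π ρ x 1 w z - X‖ ≤ 65 / 64 * (14 * t) := by gcongr
    linarith
  -- conversion of integrals
  have hconv : ∀ (F : Euc k × Vf_884.L k → ℝ), Dn K m F → ∀ B : ℝ,
      ∫ p in {z | ‖(ch π ρ x 1 w X0).x z‖ ≤ 1 + ε / 2} ×ˢ univ, F p ∂(VK (VD Dd) K) ≤ B →
      ∫ p in {z | z ∈ K ∧ ‖foot π ρ x 1 w z - X‖ ≤ 14 * t} ×ˢ univ, F p ∂(VD Dd) ≤ B := by
    intro F hF B hB
    have hm1 : MeasurableSet ({z | z ∈ K ∧ ‖foot π ρ x 1 w z - X‖ ≤ 14 * t} ×ˢ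
        (univ : Set (Vf_884.L k))) := (foot_cont hw hf hL.cpt hsub X _).prod MeasurableSet.univ
    have hs1 : {z | z ∈ K ∧ ‖foot π ρ x 1 w z - X‖ ≤ 14 * t} ×ˢ (univ : Set (Vf_884.L k)) ⊆
        K ×ˢ univ := prod_mono (fun z hz => hz.1) subset_rfl
    have e1 : (VD Dd).restrict ({z | z ∈ K ∧ ‖foot π ρ x 1 w z - X‖ ≤ 14 * t} ×ˢ
        (univ : Set (Vf_884.L k))) = (VK (VD Dd) K).restrict
          ({z | z ∈ K ∧ ‖foot π ρ x 1 w z - X‖ ≤ 14 * t} ×ˢ univ) := by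
      unfold VK
      rw [Measure.restrict_restrict hm1, inter_eq_left.2 hs1]
    rw [e1]
    refine (hF.mono hOk hOn (Eventually.of_forall fun p hp => ?_)).trans hB
    exact ⟨hnear _ hp.1.2, trivial⟩
  have hcv : closedBall v (6 * t) ⊆ closedBall (0 : Euc m) (1 + ε / 4) := by
    intro y hy
    rw [mem_closedBall, dist_eq_norm] at hy
    rw [mem_closedBall_zero_iff]
    calc ‖y‖ = ‖(y - v) + v‖ := by rw [sub_add_cancel]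
      _ ≤ ‖y - v‖ + ‖v‖ := norm_add_le _ _
      _ ≤ 1 + ε / 4 := by linarith
  have key := hLE π ρ x w X0 X κ t D U K Dd e hf hUo hD hst hw hwc hκ0 hκ
    (fun j h1 h3 Y hY => hd j h1 h3 Y (by
      rw [mem_ball, dist_eq_norm] at hY ⊢
      calc ‖Y - X0‖ = ‖(Y - X) + (X - X0)‖ := by rw [sub_add_sub_cancel]
        _ ≤ ‖Y - X‖ + ‖X - X0‖ := norm_add_le _ _
        _ < 2 := by linarith))
    ht htc
    (fun Y hY => hms Y (by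
      rw [mem_ball, dist_eq_norm] at hY ⊢
      calc ‖Y - X0‖ = ‖(Y - X) + (X - X0)‖ := by rw [sub_add_sub_cancel]
        _ ≤ ‖Y - X‖ + ‖X - X0‖ := norm_add_le _ _
        _ < 1 + ε := by linarith))
    (by
      refine Subset.trans ?_ hball
      intro z hz
      rw [mem_closedBall, dist_eq_norm] at hz ⊢
      have h1 := norm_Pt_sub (π := π) (ρ := ρ) (x := x) hf hw X X0
      calc ‖z - Foot_842.pt π ρ x w X0‖ = ‖(z - Foot_842.pt π ρ x w X) +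
            (Foot_842.pt π ρ x w X - Foot_842.pt π ρ x w X0)‖ := by rw [sub_add_sub_cancel]
        _ ≤ ‖z - Foot_842.pt π ρ x w X‖ +
            ‖Foot_842.pt π ρ x w X - Foot_842.pt π ρ x w X0‖ := norm_add_le _ _
        _ ≤ 4 := by linarith)
    hL.cpt hsub (hL.sub.trans inter_subset_right)
    (by
      filter_upwards [hL.gap] with p hp hU hT hfo
      refine hp ⟨hT, hU⟩ ?_
      rw [hexp]
      have := hnear _ hfo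
      linarith)
    (by
      have h1 := hgt
      unfold VK at h1
      rw [ae_restrict_iff' (hL.cpt.isClosed.measurableSet.prod MeasurableSet.univ)] at h1
      filter_upwards [h1] with p hp hpK hfo
      exact hp ⟨hpK, trivial⟩ (hnear _ hfo))
    hD0 hD1 htΛ (hconv _ (dn_f hOk) _ h2f) (hconv _ (dn_tau hOk htau) _ hen) hefin
    (by
      rw [hLo]
      exact (measureReal_mono hcv (measure_ne_top _ _)).trans heM)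
    (by
      rw [hLo]
      intro F hF hb h0
      exact hei F hF hb fun y hy => h0 y fun hc => hy (hcv hc))
  rw [hLo] at key
  exact key

end loc

end Crest.Agent.R234.Fin_618
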