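import Crest.Agent.R234.Fin6_618

/-!
# Row 234, F3 (helper618), (FIN), part 7: the assembly for a chart
-/

set_option autoImplicit false
set_option maxSynthPendingDepth 3

open Set Filter Topology MeasureTheory Metric Function
open Crest.GeometryTopology.Submanifold
open Crest.Agent.R234.Vf_884 Crest.Agent.R234.Ar_870 Crest.Agent.R234.GL_394
open Crest.Agent.R234.Main_456 (Frame Msys)
open Crest.Agent.R234.Gi_456 (Gr tube foot ch Lo Loi Lo_Loi Loi_spec norm_Lo_le pt jB_pos)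
open Crest.Agent.R234.F35k_433 (bv kern_ch)
open Crest.Agent.R234.F36_354 (LEP F3P1)
open scoped ENNReal NNReal ContDiff InnerProductSpace

noncomputable section

namespace Crest.Agent.R234.Fin_618

open Crest.Agent.R234.F31_354 (Kern)
open Crest.Agent.R234.Th_164 (om om_pos)
open Crest.Agent.R234.Tv_618 (nu)

variable {m n k : ℕ}

/-- numbers at the place of use -/
theorem num2 {C a C' Kc H t D L ε : ℝ} (hC : 1 ≤ C) (hC' : 0 ≤ C') (hKc : 1 ≤ Kc)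
    (hH : 0 < H) (ht : 0 < t) (hL : 1 ≤ L) (hD : D = C * H / t ^ (m + 2))
    (he : L ^ (-a) ≤ ε) (e1 : (L ^ (-a)) ^ (-C) * t ≤ L ^ (-C') / Kc) :
    t * (C * ε ^ (-C) * H) ≤ C * (L ^ (-C') / Kc * H) ∧ C * ε ^ (-C) * H ≤ D * t ^ (m + 1) := by
  have hL0 : 0 < L := by linarith
  have hLa : 0 < L ^ (-a) := Real.rpow_pos_of_pos hL0 _
  have hLC : L ^ (-C') ≤ 1 := Real.rpow_le_one_of_one_le_of_nonpos hL (by linarith)
  have h1 : ε ^ (-C) ≤ (L ^ (-a)) ^ (-C) :=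
    Real.rpow_le_rpow_of_nonpos hLa he (by linarith)
  have h2 : ε ^ (-C) * t ≤ L ^ (-C') / Kc := (mul_le_mul_of_nonneg_right h1 ht.le).trans e1
  have h3 : L ^ (-C') / Kc ≤ 1 := by
    rw [div_le_one (by linarith)]; linarith
  constructor
  · calc t * (C * ε ^ (-C) * H) = C * (ε ^ (-C) * t * H) := by ring
      _ ≤ C * (L ^ (-C') / Kc * H) := by gcongr
  · have h4 : ε ^ (-C) * t ≤ 1 := h2.trans h3
    calc C * ε ^ (-C) * H = C * (ε ^ (-C) * t) * H / t := by field_simp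
      _ ≤ C * 1 * H / t := by gcongr
      _ = D * t ^ (m + 1) := by rw [hD]; field_simp; ring

theorem C3_ge {C : ℝ} (hC : 1 ≤ C) : 1 ≤ C3 m C := by
  have := P0_nonneg (m := m) hC
  unfold C3
  have h1 : 0 ≤ 104 * C * P0 m C := by positivity
  linarith

theorem cb_eq (v : Euc m) (r : ℝ) {c : Ch m k} :
    {z : Euc k | c.x z ∈ closedBall v r} = {z | ‖c.x z - v‖ ≤ r} := by
  ext z
  rw [mem_ofPred_eq, mem_closedBall, dist_eq_norm, mem_ofPred_eq]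

/-- **the assembly for a chart, abstract local estimate** -/
theorem asm_ch {c : Ch m k} {K : Set (Euc k)} {V : Measure (Euc k × Vf_884.L k)} {Q : ℕ}
    {CL C κ t D ε M A : ℝ} (hOk : Ok c K univ) (hOn : On V m K)
    (htau : ∀ p ∈ K ×ˢ G m k, 0 ≤ c.tau p.1 p.2) (hj : ∀ v, 0 ≤ c.j v)
    (hCL : 1 ≤ CL) (hCC : CL ≤ C) (hκ0 : 0 ≤ κ) (hκ1 : κ ≤ 1) (ht : 0 < t) (ht1 : t ≤ 1 / 100)
    (hD : 0 ≤ D) (hDt : D ≤ t) (h16 : 16 * t ≤ ε / 4) (hε1 : ε ≤ 1) (hA0 : 0 ≤ A)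
    {β : Euc m → Euc m → ℝ} {wt : Euc m → ℝ} {W θ : ℝ}
    (hK : Kern volume β wt t θ W 1) (hθ : θ ≤ C * t) (hθ1 : θ ≤ 1) (hW : 0 ≤ W)
    (hWt : W ≤ C / t ^ m) {e : Measure (Euc m)} (hefin : IsFiniteMeasure e)
    (hei : ∀ F : Euc m → ℝ, Measurable F → (∃ b : ℝ, ∀ v, |F v| ≤ b) →
      (∀ v, v ∉ closedBall (0 : Euc m) (1 + ε / 4) → F v = 0) →
      |∫ p, F (c.x p.1) * (1 - c.tau p.1 p.2 / 2) ∂V - Q * ∫ v, F v * c.j v| ≤ ∫ v, |F v| ∂e)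
    (heM : e.real (closedBall 0 (1 + ε / 4)) ≤ M)
    (hen : ∫ p in {z | ‖c.x z‖ ≤ 1 + ε / 2} ×ˢ univ, c.tau p.1 p.2 ∂V ≤ M)
    (h2M : ∫ p in {z | ‖c.x z‖ ≤ 1 + ε / 2} ×ˢ univ, 2 * c.f p.1 ∂V ≤ M)
    {g : ℝ → ℝ} (hg0 : ∀ s, 0 ≤ g s) (hg1 : ∀ s, 0 ≤ s → g s ≤ 1) (hgz : ∀ s, 1 ≤ s → g s = 0)
    (hgL : LipschitzWith 6 (fun v : Euc m => g (‖v‖ ^ 2)))
    (hloc : ∀ v : Euc m, ‖v‖ < 1 →
      ∫ p, β v (c.x p.1) * (1 - c.tau p.1 p.2 / 2) ∂V - Q * ∫ y, β v y * c.j y ≤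
      CL * (κ ^ 2 * ∫ p in {z | ‖c.x z - v‖ ≤ 16 * t} ×ˢ univ, 2 * c.f p.1 ∂V) +
      CL * (((κ * t) ^ 2 + κ * t * √D + D) *
        ∫ p in {z | ‖c.x z - v‖ ≤ 16 * t} ×ˢ univ, c.tau p.1 p.2 ∂V) +
      CL * (κ * t) ^ 2 * e.real (closedBall v (2 * t)) + t ^ m * A) :
    bb c V g Q 0 ≤ C3 m C * (κ ^ 2 * ∫ p, g (‖c.x p.1‖ ^ 2) * (2 * c.f p.1) ∂V) +
      C3 m C * (t * M + A) := by
  have hC1 : 1 ≤ C := hCL.trans hCC
  have hdf := dn_f (m := m) hOk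
  have hdt := dn_tau hOk htau
  have f1 : IsFiniteMeasure (B1 c K V) := B1_fin hOk hOn
  have f2 : IsFiniteMeasure (B2 c K V Q 4) := B2_fin hOk hOn htau Q 4
  have f3 : IsFiniteMeasure (nu V (Xm c K) (fun p => 2 * c.f p.1)) := hdf.fin hOk hOn
  have f4 : IsFiniteMeasure (nu V (Xm c K) (fun p => c.tau p.1 p.2)) := hdt.fin hOk hOn
  have hBs : ∀ F : Euc m → ℝ, Measurable F → (∃ b, ∀ v, |F v| ≤ b) →
      (∀ v, v ∉ ball (0 : Euc m) 4 → F v = 0) →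
      ∫ v, F v ∂(B1 c K V) - ∫ v, F v ∂(B2 c K V Q 4) =
        ∫ p, F (c.x p.1) * (1 - c.tau p.1 p.2 / 2) ∂V - Q * ∫ v, F v * c.j v := by
    rintro F hF ⟨b, hb⟩ h0
    exact B_sub hOk hOn htau hj Q hF hb h0
  have hφ0 : ∀ v : Euc m, 0 ≤ g (‖v‖ ^ 2) := fun v => hg0 _
  have hφ1 : ∀ v : Euc m, g (‖v‖ ^ 2) ≤ 1 := fun v => hg1 _ (by positivity)
  have hφR : ∀ v : Euc m, 1 < ‖v‖ → g (‖v‖ ^ 2) = 0 := fun v hv => hgz _ (by nlinarith)
  have hφm : Measurable fun v : Euc m => g (‖v‖ ^ 2) := hgL.continuous.measurable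
  have hmq : ∀ (F : Euc k × Vf_884.L k → ℝ), Dn K m F → ∀ B : ℝ,
      ∫ p in {z | ‖c.x z‖ ≤ 1 + ε / 2} ×ˢ univ, F p ∂V ≤ B →
      (nu V (Xm c K) F).real (closedBall 0 (1 + ε / 4)) ≤ B := by
    intro F hF B hB
    rw [hF.real hOk hOn measurableSet_closedBall]
    refine le_trans (hF.mono hOk hOn (Eventually.of_forall fun p hp => ?_)) hB
    refine ⟨?_, trivial⟩
    have h1 : c.x p.1 ∈ closedBall (0 : Euc m) (1 + ε / 4) := hp.1
    rw [mem_closedBall_zero_iff] at h1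
    show ‖c.x p.1‖ ≤ 1 + ε / 2
    linarith
  have hbb : bb c V g Q 0 = ∫ v, g (‖v‖ ^ 2) ∂(B1 c K V) - ∫ v, g (‖v‖ ^ 2) ∂(B2 c K V Q 4) := by
    rw [bb_zero hOk hOn hgL.continuous, hBs (fun v => g (‖v‖ ^ 2)) hφm
      ⟨1, fun v => by rw [abs_of_nonneg (hφ0 v)]; exact hφ1 v⟩ fun v hv => hφR v ?_]
    rw [mem_ball_zero_iff, not_lt] at hv
    linarith
  have h1 : ∫ v, g (‖v‖ ^ 2) ∂(nu V (Xm c K) (fun p => 2 * c.f p.1)) =
      ∫ p, g (‖c.x p.1‖ ^ 2) * (2 * c.f p.1) ∂V := hdf.integral hOk hOn hφm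
  rw [hbb, ← h1]
  refine asm1 hC1 hκ0 hκ1 ht ht1 hD hDt h16 hA0 hK hθ hθ1 hW hWt (B1 c K V) (B2 c K V Q 4) e
    (nu V (Xm c K) (fun p => 2 * c.f p.1)) (nu V (Xm c K) (fun p => c.tau p.1 p.2))
    hgL hφ0 hφ1 hφR ?_ ?_ heM (hmq _ hdt M hen) (hmq _ hdf M h2M)
  · intro v hv
    have hv1 : ‖v‖ < 1 := by
      by_contra hcon
      rw [not_lt] at hcon
      exact hv (hgz _ (by nlinarith))
    have hβm : Measurable (β v) := hK.meas.comp (measurable_const.prodMk measurable_id)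
    have hβ0 : ∀ y, y ∉ ball (0 : Euc m) 4 → β v y = 0 := by
      intro y hy
      refine hK.supp v y ?_
      rw [mem_ball_zero_iff, not_lt] at hy
      have : ‖y‖ ≤ ‖y - v‖ + ‖v‖ := by
        calc ‖y‖ = ‖(y - v) + v‖ := by rw [sub_add_cancel]
          _ ≤ _ := norm_add_le _ _
      linarith
    rw [hBs (β v) hβm ⟨1, fun y => by
      rw [abs_of_nonneg (hK.nonneg v y)]; exact hK.le_one v y⟩ hβ0]
    refine (hloc v hv1).trans ?_
    have e1 : (nu V (Xm c K) (fun p => 2 * c.f p.1)).real (closedBall v (16 * t)) =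
        ∫ p in {z | ‖c.x z - v‖ ≤ 16 * t} ×ˢ univ, 2 * c.f p.1 ∂V := by
      rw [hdf.real hOk hOn measurableSet_closedBall, cb_eq]
    have e2 : (nu V (Xm c K) (fun p => c.tau p.1 p.2)).real (closedBall v (16 * t)) =
        ∫ p in {z | ‖c.x z - v‖ ≤ 16 * t} ×ˢ univ, c.tau p.1 p.2 ∂V := by
      rw [hdt.real hOk hOn measurableSet_closedBall, cb_eq]
    rw [← e1, ← e2]
    have p1 : 0 ≤ κ ^ 2 * (nu V (Xm c K) (fun p => 2 * c.f p.1)).real (closedBall v (16 * t)) :=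
      by positivity
    have p2 : 0 ≤ ((κ * t) ^ 2 + κ * t * √D + D) *
        (nu V (Xm c K) (fun p => c.tau p.1 p.2)).real (closedBall v (16 * t)) := by positivity
    have p3 : 0 ≤ (κ * t) ^ 2 * e.real (closedBall v (2 * t)) := by positivity
    have q1 := mul_le_mul_of_nonneg_right hCC p1
    have q2 := mul_le_mul_of_nonneg_right hCC p2
    have q3 := mul_le_mul_of_nonneg_right hCC p3
    have q4 : CL * (κ * t) ^ 2 * e.real (closedBall v (2 * t)) ≤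
        C * (κ * t) ^ 2 * e.real (closedBall v (2 * t)) := by
      rw [mul_assoc, mul_assoc]; exact q3
    linarith
  · intro F hFm hFb hF0
    rw [hBs F hFm hFb fun v hv => hF0 v fun hc => hv ?_]
    · exact (le_abs_self _).trans (hei F hFm hFb hF0)
    · rw [mem_closedBall_zero_iff] at hc
      rw [mem_ball_zero_iff]
      linarith

end Crest.Agent.R234.Fin_618
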