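import Crest.Agent.R234.Fin7_618

/-!
# Row 234, F3 (helper618), (FIN), part 8: the assembly in the tube
-/

set_option autoImplicit false
set_option maxSynthPendingDepth 3

open Set Filter Topology MeasureTheory Metric Function
open Crest.GeometryTopology.Submanifold
open Crest.Agent.R234.Vf_884 Crest.Agent.R234.Ar_870 Crest.Agent.R234.GL_394
open Crest.Agent.R234.Main_456 (Frame Msys)
open Crest.Agent.R234.Gi_456 (Gr tube foot ch Lo Loi Lo_Loi Loi_spec norm_Lo_le pt jB_pos)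
open Crest.Agent.R234.F35k_433 (bv kern_ch)
open Crest.Agent.R234.F36_354 (LEP F3P1)
open scoped ENNReal NNReal ContDiff InnerProductSpace

noncomputable section

namespace Crest.Agent.R234.Fin_618

open Crest.Agent.R234.F31_354 (Kern)
open Crest.Agent.R234.Th_164 (om om_pos)
open Crest.Agent.R234.Tv_618 (nu)

variable {m n k : ℕ}

/-- **the assembly in the tube** (fixed numbers) -/
theorem fin_at {Q : ℕ} {c₀ CL C₁ Cs D₀ C : ℝ} (hLE : LEPat m n k Q c₀ CL C₁ Cs D₀)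
    (hCL : 1 ≤ CL) (hCC : CL ≤ C) (hC2 : Kern2_332.C2 m ≤ C) (hCW : CW m ≤ C)
    {π : Euc k →L[ℝ] Euc m} {ρ : Euc k →L[ℝ] Euc n} {x : Euc k} {w : Euc m → Euc n}
    {X0 : Euc m} {κ ε t D M : ℝ} {U K : Set (Euc k)} {Dd : VarifoldData m k}
    {e : Measure (Euc m)}
    (hf : Frame π ρ) (hUo : IsOpen U) (hD : IsIntegralVarifoldIn U Dd)
    (hst : IsStationaryIn U Dd) (hw : Gr 1 w) (hwc : ContDiff ℝ ∞ w) (hκ0 : 0 ≤ κ) (hκ : κ ≤ c₀)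
    (hκ1 : κ ≤ 1)
    (hd : ∀ j, 1 ≤ j → j ≤ 3 → ∀ Y ∈ ball X0 2, ‖iteratedFDeriv ℝ j w Y‖ ≤ κ)
    (ht : 0 < t) (ht1 : t ≤ 1 / 100) (htc : t ≤ c₀) (hCt : C * t ≤ ε / 100) (hε1 : ε ≤ 1)
    (hms : ∀ Y ∈ ball X0 (1 + ε), Msys w Y = 0)
    (hball : closedBall (Foot_842.pt π ρ x w X0) 4 ⊆ U)
    (hL : Loc (ch π ρ x 1 w X0) U (tube π ρ x 1 w) K (VD Dd) (Real.log (1 + ε)))
    (htau : ∀ p ∈ K ×ˢ G m k, 0 ≤ (ch π ρ x 1 w X0).tau p.1 p.2)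
    (hgt : ∀ᵐ p ∂(VK (VD Dd) K), ‖(ch π ρ x 1 w X0).x p.1‖ ≤ 1 + ε / 2 →
      2 * (ch π ρ x 1 w X0).f p.1 ≤ t ^ 2)
    (hD0 : 0 < D) (hD1 : D ≤ D₀) (hDt : D ≤ t) (htΛ : t ≤ (Real.log (1 / D)) ^ (-C₁))
    (h2f : ∫ p in {z | ‖(ch π ρ x 1 w X0).x z‖ ≤ 1 + ε / 2} ×ˢ univ,
      2 * (ch π ρ x 1 w X0).f p.1 ∂(VK (VD Dd) K) ≤ D * t ^ (m + 2))
    (h2M : ∫ p in {z | ‖(ch π ρ x 1 w X0).x z‖ ≤ 1 + ε / 2} ×ˢ univ,
      2 * (ch π ρ x 1 w X0).f p.1 ∂(VK (VD Dd) K) ≤ M)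
    (hen : ∫ p in {z | ‖(ch π ρ x 1 w X0).x z‖ ≤ 1 + ε / 2} ×ˢ univ,
      (ch π ρ x 1 w X0).tau p.1 p.2 ∂(VK (VD Dd) K) ≤ M) (hMc : M ≤ c₀ * t ^ m)
    (hefin : IsFiniteMeasure e)
    (hei : ∀ F : Euc m → ℝ, Measurable F → (∃ b : ℝ, ∀ v, |F v| ≤ b) →
      (∀ v, v ∉ closedBall (0 : Euc m) (1 + ε / 4) → F v = 0) →
      |∫ p, F ((ch π ρ x 1 w X0).x p.1) * (1 - (ch π ρ x 1 w X0).tau p.1 p.2 / 2)
        ∂(VK (VD Dd) K) - Q * ∫ v, F v * (ch π ρ x 1 w X0).j v| ≤ ∫ v, |F v| ∂e)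
    (heM : e.real (closedBall 0 (1 + ε / 4)) ≤ M)
    {g : ℝ → ℝ} (hg0 : ∀ s, 0 ≤ g s) (hg1 : ∀ s, 0 ≤ s → g s ≤ 1) (hgz : ∀ s, 1 ≤ s → g s = 0)
    (hgL : LipschitzWith 6 (fun v : Euc m => g (‖v‖ ^ 2))) :
    bb (ch π ρ x 1 w X0) (VK (VD Dd) K) g Q 0 ≤
      C3 m C * (κ ^ 2 * ∫ p, g (‖(ch π ρ x 1 w X0).x p.1‖ ^ 2) *
        (2 * (ch π ρ x 1 w X0).f p.1) ∂(VK (VD Dd) K)) +
      C3 m C * (t * M + (Real.log (1 / D)) ^ (-Cs) * D) := by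
  have hsub : K ⊆ tube π ρ x 1 w := hL.sub.trans inter_subset_left
  have hOk : Ok (ch π ρ x 1 w X0) K univ := (hw.reg hf X0).ok hL.cpt hsub
  have hOn : On (VK (VD Dd) K) m K := hL.toOn
  have hC1 : 1 ≤ C := hCL.trans hCC
  have htC : t ≤ C * t := le_mul_of_one_le_left ht.le hC1
  have hC2t : Kern2_332.C2 m * t ≤ C * t := mul_le_mul_of_nonneg_right hC2 ht.le
  obtain ⟨hW0, hW1⟩ := weight_le (m := m) ht
  have hA0 : 0 ≤ (Real.log (1 / D)) ^ (-Cs) * D := by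
    have : 0 ≤ Real.log (1 / D) := Real.log_nonneg (by rw [le_div_iff₀ hD0]; linarith)
    positivity
  refine asm_ch hOk hOn htau (fun v => (jB_pos w X0 v).le) hCL hCC hκ0 hκ1 ht ht1 hD0.le hDt
    (by linarith) hε1 hA0 (kern_ch hw X0 ht (by linarith) 1) hC2t (by linarith) hW0
    (hW1.trans (by gcongr)) hefin hei heM hen h2M hg0 hg1 hgz hgL ?_
  intro v hv
  exact loc_at hLE hf hUo hD hst hw hwc hκ0 hκ hd ht htc (by linarith) hε1 hms hball hL htau hgt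
    hD0 hD1 htΛ h2f (hen.trans hMc) hefin (heM.trans hMc) hei hv

end Crest.Agent.R234.Fin_618
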