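import Crest.Agent.R234.Fin8_618

/-!
# Row 234, F3 (helper618), (FIN), part 9: **`fin : LEP m n k Q → F3P1 m n k Q`**
-/

set_option autoImplicit false
set_option maxSynthPendingDepth 3

open Set Filter Topology MeasureTheory Metric Function
open Crest.GeometryTopology.Submanifold
open Crest.Agent.R234.Vf_884 Crest.Agent.R234.Ar_870 Crest.Agent.R234.GL_394
open Crest.Agent.R234.Main_456 (Frame Msys)
open Crest.Agent.R234.Gi_456 (Gr tube foot ch)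
open Crest.Agent.R234.F36_354 (LEP F3P1)
open scoped ENNReal NNReal ContDiff InnerProductSpace

noncomputable section

namespace Crest.Agent.R234.Fin_618

variable {m n k : ℕ}

/-- the scale against the logarithm -/
theorem num3 {C C₁ p H t D L : ℝ} (hC : 1 ≤ C) (hC₁ : 0 < C₁) (hp : C₁ ≤ p) (hH : 0 < H)
    (hL : 1 ≤ L) (hLd : L = Real.log (1 / H)) (ht : t = L ^ (-p)) (hD : D = C * H / t ^ (m + 2))
    (ht0 : 0 < t) (ht1 : t ≤ 1) (hD0 : 0 < D) (hD1 : D < 1) :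
    t ≤ (Real.log (1 / D)) ^ (-C₁) := by
  have h1 : H ≤ D := by
    rw [hD, le_div_iff₀ (by positivity)]
    calc H * t ^ (m + 2) ≤ H * 1 := by gcongr; exact pow_le_one₀ ht0.le ht1
      _ = 1 * H := by ring
      _ ≤ C * H := by gcongr
  have h2 : Real.log (1 / D) ≤ L := by
    rw [hLd]
    exact Real.log_le_log (by positivity) (one_div_le_one_div_of_le hH h1)
  have h3 : 0 < Real.log (1 / D) := Real.log_pos (by rw [lt_div_iff₀ hD0]; linarith)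
  calc t = L ^ (-p) := ht
    _ ≤ L ^ (-C₁) := Real.rpow_le_rpow_of_exponent_le hL (by linarith)
    _ ≤ (Real.log (1 / D)) ^ (-C₁) := Real.rpow_le_rpow_of_nonpos h3 h2 (by linarith)

/-- consequences of `M ≤ D t^(m+1)` -/
theorem num4 (hm : 1 ≤ m) {C H t D M c₀ : ℝ} (hC : 1 ≤ C) (hH : 0 < H) (ht0 : 0 < t) (ht1 : t ≤ 1)
    (hD : D = C * H / t ^ (m + 2)) (hD0 : 0 < D) (hD1 : D ≤ 1) (hDc : D ≤ c₀)
    (hM : M ≤ D * t ^ (m + 1)) : M ≤ t ^ 2 ∧ M ≤ c₀ * t ^ m ∧ H ≤ D * t ^ (m + 2) ∧ M ≤ D := by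
  have htm : t ^ (m + 1) ≤ t ^ m := pow_le_pow_of_le_one ht0.le ht1 (Nat.le_succ m)
  have htm2 : t ^ (m + 1) ≤ t ^ 2 := pow_le_pow_of_le_one ht0.le ht1 (by omega)
  have htm3 : t ^ (m + 1) ≤ 1 := pow_le_one₀ ht0.le ht1
  have hp : 0 < t ^ (m + 1) := by positivity
  refine ⟨?_, ?_, ?_, ?_⟩
  · calc M ≤ D * t ^ (m + 1) := hM
      _ ≤ 1 * t ^ 2 := mul_le_mul hD1 htm2 hp.le zero_le_one
      _ = t ^ 2 := one_mul _
  · exact hM.trans (mul_le_mul hDc htm hp.le (hD0.le.trans hDc))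
  · rw [hD]
    have : C * H / t ^ (m + 2) * t ^ (m + 2) = C * H := by field_simp
    rw [this]
    exact le_mul_of_one_le_left hH.le hC
  · exact hM.trans (mul_le_of_le_one_right hD0.le htm3)

/-- the smallness for the heights -/
theorem small_H {C ε H D : ℝ} (hC : 2 * m + CE m ≤ C) (hC1 : 1 ≤ C) (hε0 : 0 < ε) (hε1 : ε ≤ 1)
    (hH : 0 < H) (hM : C * ε ^ (-C) * H ≤ D) (hD : D ≤ ome m / (4096 * 64 ^ m)) :
    H < ome m / (2048 * 64 ^ m) * ε ^ (m + 2) := by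
  obtain ⟨cE1, -, -, -⟩ := CE_ge m
  have home := ome_pos m
  have hm0 : (0 : ℝ) ≤ m := Nat.cast_nonneg m
  have h2 : ε ^ (-((m : ℝ) + 2)) ≤ ε ^ (-C) :=
    Real.rpow_le_rpow_of_exponent_ge hε0 hε1 (by linarith)
  have h3 : ε ^ (-((m : ℝ) + 2)) = (ε ^ (m + 2))⁻¹ := by
    rw [Real.rpow_neg hε0.le, ← Real.rpow_natCast]; push_cast; rfl
  have hpos : 0 < ε ^ (-((m : ℝ) + 2)) := Real.rpow_pos_of_pos hε0 _
  have h4 : (ε ^ (m + 2))⁻¹ * H ≤ C * ε ^ (-C) * H := by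
    rw [← h3]
    calc ε ^ (-((m : ℝ) + 2)) * H = 1 * ε ^ (-((m : ℝ) + 2)) * H := by ring
      _ ≤ C * ε ^ (-C) * H := by gcongr
  have h5 : (ε ^ (m + 2))⁻¹ * H ≤ ome m / (4096 * 64 ^ m) := (h4.trans hM).trans hD
  have h6 : 0 < ε ^ (m + 2) := by positivity
  rw [inv_mul_le_iff₀ h6] at h5
  have h7 : ome m / (4096 * 64 ^ m) < ome m / (2048 * 64 ^ m) := by
    apply div_lt_div_of_pos_left home (by positivity)
    have : (0 : ℝ) < 64 ^ m := by positivity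
    linarith
  calc H ≤ ε ^ (m + 2) * (ome m / (4096 * 64 ^ m)) := h5
    _ < ε ^ (m + 2) * (ome m / (2048 * 64 ^ m)) := mul_lt_mul_of_pos_left h7 h6
    _ = _ := by ring

/-- `CE ε^{-CE} H ≤ C ε^{-C} H` -/
theorem CE_le {C ε H : ℝ} (hC : CE m ≤ C) (hε0 : 0 < ε) (hε1 : ε ≤ 1) (hH : 0 < H) :
    CE m * ε ^ (-CE m) * H ≤ C * ε ^ (-C) * H ∧ H ≤ ε ^ (-CE m) * H := by
  obtain ⟨-, -, -, c4⟩ := CE_ge m
  have h1 : ε ^ (-CE m) ≤ ε ^ (-C) := Real.rpow_le_rpow_of_exponent_ge hε0 hε1 (by linarith)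
  have h2 : 0 < ε ^ (-CE m) := Real.rpow_pos_of_pos hε0 _
  have h3 : 1 ≤ ε ^ (-CE m) :=
    Real.one_le_rpow_of_pos_of_le_one_of_nonpos hε0 hε1 (by linarith)
  refine ⟨?_, le_mul_of_one_le_left hH.le h3⟩
  have h4 : 0 ≤ C := by linarith
  gcongr

/-- the mass of the total variation measure -/
theorem e_mass {c : Ch m k} {K : Set (Euc k)} {V : Measure (Euc k × Vf_884.L k)}
    (hOk : Ok c K univ) (hOn : On V m K) (htau : ∀ p ∈ K ×ˢ G m k, 0 ≤ c.tau p.1 p.2)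
    {Ct C ε H : ℝ} (hCt : 0 ≤ Ct) (hCC : Ct * (CE m + 1) ≤ C) (hCm : 2 * m + CE m ≤ C)
    (hε0 : 0 < ε) (hε1 : ε ≤ 1) (hH : 0 < H)
    (hen : ∫ p in {z | ‖c.x z‖ ≤ 1 + ε / 2} ×ˢ univ, c.tau p.1 p.2 ∂V ≤ CE m * ε ^ (-CE m) * H)
    (h2 : ∫ p in {z | ‖c.x z‖ ≤ 1 + ε / 2} ×ˢ univ, 2 * c.f p.1 ∂V ≤ H) :
    Ct / ε ^ (2 * m) * ∫ p in {z | ‖c.x z‖ ≤ 1 + ε / 2} ×ˢ univ, (c.tau p.1 p.2 + 2 * c.f p.1) ∂V ≤
      C * ε ^ (-C) * H := by
  obtain ⟨-, -, -, c4⟩ := CE_ge m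
  have hdf := dn_f (m := m) hOk
  have hdt := dn_tau hOk htau
  have h3 : H ≤ ε ^ (-CE m) * H := (CE_le le_rfl hε0 hε1 hH).2
  have h1 : ∫ p in {z | ‖c.x z‖ ≤ 1 + ε / 2} ×ˢ univ, (c.tau p.1 p.2 + 2 * c.f p.1) ∂V ≤
      (CE m + 1) * ε ^ (-CE m) * H := by
    rw [integral_add (hdt.int hOk hOn).integrableOn (hdf.int hOk hOn).integrableOn]
    have h4 : (CE m + 1) * ε ^ (-CE m) * H = CE m * ε ^ (-CE m) * H + ε ^ (-CE m) * H := by ring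
    linarith
  have h5 : Ct / ε ^ (2 * m) = Ct * ε ^ (-(2 * (m : ℝ))) := by
    rw [Real.rpow_neg hε0.le, div_eq_mul_inv, ← Real.rpow_natCast]
    push_cast
    rfl
  have h6 : ε ^ (-(2 * (m : ℝ)) + -CE m) ≤ ε ^ (-C) :=
    Real.rpow_le_rpow_of_exponent_ge hε0 hε1 (by linarith)
  have h7 : 0 < ε ^ (-(2 * (m : ℝ)) + -CE m) := Real.rpow_pos_of_pos hε0 _
  have h8 : 0 ≤ Ct * (CE m + 1) := by positivity
  calc Ct / ε ^ (2 * m) * ∫ p in {z | ‖c.x z‖ ≤ 1 + ε / 2} ×ˢ univ,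
        (c.tau p.1 p.2 + 2 * c.f p.1) ∂V
      ≤ Ct / ε ^ (2 * m) * ((CE m + 1) * ε ^ (-CE m) * H) := by gcongr
    _ = Ct * (CE m + 1) * (ε ^ (-(2 * (m : ℝ))) * ε ^ (-CE m)) * H := by rw [h5]; ring
    _ = Ct * (CE m + 1) * ε ^ (-(2 * (m : ℝ)) + -CE m) * H := by rw [Real.rpow_add hε0]
    _ ≤ C * ε ^ (-C) * H := by
        have h9 : 0 ≤ C := h8.trans hCC
        gcongr

/-- the end of the numbers -/
theorem num5 {C C' Kc L X t M A H I κ : ℝ} (hKc : Kc = X * (C + 1)) (hX : 1 ≤ X) (hC : 1 ≤ C)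
    (hM : t * M ≤ C * (L ^ (-C') / Kc * H)) (hA : A ≤ L ^ (-C') / Kc * H) :
    X * (κ ^ 2 * I) + X * (t * M + A) ≤ X * κ ^ 2 * I + L ^ (-C') * H := by
  have h3 : t * M + A ≤ (C + 1) * (L ^ (-C') / Kc * H) := by linarith
  have h4 : X * (t * M + A) ≤ L ^ (-C') * H := by
    calc X * (t * M + A) ≤ X * ((C + 1) * (L ^ (-C') / Kc * H)) := by gcongr
      _ = L ^ (-C') * H := by
          rw [hKc]
          have h4 : X ≠ 0 := by linarith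
          have h5 : C + 1 ≠ 0 := by linarith
          field_simp
  linarith

end Crest.Agent.R234.Fin_618
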