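import Crest.Agent.R234.F34_354
import Crest.Agent.R234.GL8_394
import Crest.Agent.R234.GI1_640

/-!
# Row 234, node F3-FIN (helper332): literal statement of the final step of F3 at unit scale

`LocEst` = the local estimate at one base point (what `F34_354.asm0` consumes as `hA`), `FinP` = the
assembly: local estimates at all base points of the closed unit ball + total variation + energy
bound give `bb(0) ≤ C κ² ∫ g (2 f) dV + (log (1/H))^(-C') H`.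
-/

set_option autoImplicit false

open MeasureTheory Set Metric Function
open Crest.GeometryTopology.Submanifold
open Crest.Agent.R234.Vf_884 Crest.Agent.R234.Ar_870
open Crest.Agent.R234.GL_394
open scoped ENNReal NNReal InnerProductSpace

noncomputable section

namespace Crest.Agent.R234.Fin_332

open Crest.Agent.R234.F31_354 (Kern)

/-- the local estimate at the base point `v0` (unit scale, kernel `β`, radius `t`) -/
def LocEst {m k : ℕ} (c : Ch m k) (V : Measure (Euc k × L k)) (Q : ℝ) (β : Euc m → Euc m → ℝ)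
    (e2 : Measure (Euc m)) (t c1 c2 c3 A0 : ℝ) (v0 : Euc m) : Prop :=
  ∫ p, β v0 (c.x p.1) * (1 - c.tau p.1 p.2 / 2) ∂V - Q * ∫ v, β v0 v * c.j v ≤
    ∫ p in {p | ‖c.x p.1 - v0‖ ≤ 10 * t}, (c2 * (2 * c.f p.1) + c1 * c.tau p.1 p.2) ∂V +
      c3 * e2.real (closedBall v0 (2 * t)) + A0

/-- **node F3-FIN**. Exponents: `p = a (2m + 2) + C' + 1`, `Cs = p (m + 2) + C' + 1`. -/
def FinP : Prop := ∀ (m : ℕ), 1 ≤ m → ∀ C a C' : ℝ, 1 ≤ C → 0 ≤ a → 0 ≤ C' →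
    ∃ p Cs : ℝ, 0 < p ∧ 0 < Cs ∧ ∃ H0 C4 : ℝ, 0 < H0 ∧ H0 < 1 ∧ 0 < C4 ∧
    ∀ (k : ℕ) (c : Ch m k) (K : Set (Euc k)) (D : Set (Euc m)) (V : Measure (Euc k × L k))
      (Q κ ε H h t kq sig : ℝ) (e2 : Measure (Euc m)) (β : Euc m → Euc m → ℝ) (wt : Euc m → ℝ),
      Ok c K D → On V m K → closedBall 0 (1 + ε) ⊆ D →
      (∀ p ∈ K ×ˢ G m k, 0 ≤ c.tau p.1 p.2) → (∀ v ∈ D, 0 ≤ c.j v) →
      0 ≤ Q → 0 ≤ κ → κ ≤ 1 → 0 < H → H ≤ H0 → Real.log (1 / H) ^ (-a) ≤ ε → ε ≤ 1 →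
      t = Real.log (1 / H) ^ (-p) → 0 ≤ h → h ^ 2 ≤ C * ε ^ (-((m : ℝ) + 2)) * H →
      Kern volume β wt t (C * t) (C / t ^ m) 1 →
      TV c V Q (1 + ε / 2) C kq sig e2 →
      e2.real (closedBall 0 (1 + ε / 2)) ≤ C * ε ^ (-(2 * (m : ℝ) + 2)) * H →
      ∫ p in {p | ‖c.x p.1‖ ≤ 1 + ε / 2}, c.tau p.1 p.2 ∂V ≤ C * ε ^ (-2 : ℝ) * H →
      ∫ p in {p | ‖c.x p.1‖ ≤ 1 + ε / 2}, 2 * c.f p.1 ∂V ≤ C * H →
      (∀ v0, ‖v0‖ ≤ 1 → LocEst c V Q β e2 t (C * (κ * t + h / t) ^ 2) (C * κ ^ 2)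
        (C * (κ * t) ^ 2) (C * t ^ m * (Real.log (1 / H) ^ (-Cs) * (t ^ (-((m : ℝ) + 2)) * H))) v0) →
      bb c V GI_640.g3 Q 0 ≤
        C4 * κ ^ 2 * ∫ p, GI_640.g3 (‖c.x p.1‖ ^ 2) * (2 * c.f p.1) ∂V +
          Real.log (1 / H) ^ (-C') * H

end Crest.Agent.R234.Fin_332
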