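import Crest.Agent.R234.Raw2_387

/-!
# Row 234 (helper387): kernel comparisons for the averaged quantities

Quasi-monotonicity in the scale and change of centre for `kk`, `kt`, `RR`, `hat` and their averages.
-/

set_option autoImplicit false

open MeasureTheory Set Function Filter Topology Metric
open Crest.GeometryTopology.Submanifold
open Crest.Agent.R234.Vf_884 Crest.Agent.R234.Ar_870 Crest.Agent.R234.Cy_870
open Crest.Agent.R234.Pot_425 Crest.Agent.R234.Avg_387 Crest.Agent.R234.Rep_387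
open Crest.Agent.R234.Raw_387
open scoped ENNReal NNReal InnerProductSpace

noncomputable section

namespace Crest.Agent.R234.Fld_387

variable {m n k : ℕ} {τ : ℝ} {W : Measure (Euc k × L k)} {π : Euc k →L[ℝ] Euc m}
  {κ : Euc k →L[ℝ] Euc n} {d : Euc m → ℝ} {x x' : Euc m} {g g1 g2 : ℝ → ℝ}
  {c : Euc k × L k → ℝ} {C : ℝ}

/-- comparison of averages with a common shift of the centres -/
theorem av_le_shift (hd : CW d τ) {q : Euc m → ℝ → ℝ} (hq : Continuous (uncurry q))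
    {t t' B : ℝ} (h : ∀ z : Euc m, q (x' - z) t ≤ B * q (x - z) t') :
    av d q x' t ≤ B * av d q x t' := by
  unfold av
  rw [← integral_const_mul]
  have i1 : ∀ (z : Euc m) (l : ℝ), Integrable fun y : Euc m => d y * q (z - y) l :=
    fun z l => (CO_of_cont hq z τ (l + 1)).integrable hd (by linarith : l < l + 1)
  refine integral_mono (i1 x' t) ((i1 x t').const_mul _) fun y => ?_
  have h2 := mul_le_mul_of_nonneg_left (h y) (hd.nonneg y)
  simp only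
  linarith

/-! ### `kk` -/

theorem kk_le_of_ker (h : FF W π κ) (hc : Cf W c C) (hg : Prof g g1 g2) {y y' : Euc m}
    {t t' A : ℝ} (hA : ∀ v : Euc m, g (Real.exp (-2 * t) * ‖v - y'‖ ^ 2) ≤
      A * g (Real.exp (-2 * t') * ‖v - y‖ ^ 2)) :
    kk W π c g y' t ≤ A * Real.exp ((m - 2) * (t' - t)) * kk W π c g y t' := by
  unfold kk
  have i1 : ∀ (z : Euc m) (l : ℝ), Integrable (fun p : Euc k × L k => c p *
      g (Real.exp (-2 * l) * ‖π p.1 - z‖ ^ 2)) W := fun z l =>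
    (h.fr z (l + 1)).integrable_c hc.meas.aestronglyMeasurable hc.bd hg.k0
      (by linarith : l ≤ l + 1)
  have e1 : ∫ p, c p * g (Real.exp (-2 * t) * ‖π p.1 - y'‖ ^ 2) ∂W ≤
      A * ∫ p, c p * g (Real.exp (-2 * t') * ‖π p.1 - y‖ ^ 2) ∂W := by
    rw [← integral_const_mul]
    refine integral_mono (i1 y' t) ((i1 y t').const_mul A) fun p => ?_
    have h2 := mul_le_mul_of_nonneg_left (hA (π p.1)) (hc.nonneg p)
    simp only
    linarith
  have e2 : Real.exp ((2 - m) * t) =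
      Real.exp ((m - 2) * (t' - t)) * Real.exp ((2 - m) * t') := by
    rw [← Real.exp_add]; congr 1; ring
  calc _ ≤ Real.exp ((2 - m) * t) *
        (A * ∫ p, c p * g (Real.exp (-2 * t') * ‖π p.1 - y‖ ^ 2) ∂W) :=
        mul_le_mul_of_nonneg_left e1 (Real.exp_pos _).le
    _ = _ := by rw [e2]; ring

theorem ker_mono (hg : Prof g g1 g2) (y v : Euc m) {t t' : ℝ} (ht : t ≤ t') :
    g (Real.exp (-2 * t) * ‖v - y‖ ^ 2) ≤ 1 * g (Real.exp (-2 * t') * ‖v - y‖ ^ 2) := by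
  rw [one_mul]
  refine Prof.anti' hg (by positivity) ?_
  refine mul_le_mul_of_nonneg_right (Real.exp_le_exp.2 ?_) (by positivity)
  linarith

theorem kk_mono (h : FF W π κ) (hc : Cf W c C) (hg : Prof g g1 g2) (y : Euc m) {t t' : ℝ}
    (ht : t ≤ t') : kk W π c g y t ≤ Real.exp ((m - 2) * (t' - t)) * kk W π c g y t' := by
  have h1 := kk_le_of_ker h hc hg (y := y) (y' := y) (t := t) (t' := t') (A := 1)
    fun v => ker_mono hg y v ht
  rwa [one_mul] at h1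

theorem akk_mono (h : FF W π κ) (hd : CW d τ) (hc : Cf W c C) (hg : Prof g g1 g2)
    (x : Euc m) {t t' : ℝ} (ht : t ≤ t') :
    av d (fun y l => kk W π c g y l) x t ≤
      Real.exp ((m - 2) * (t' - t)) * av d (fun y l => kk W π c g y l) x t' :=
  av_le_shift hd (cont2_kk h hc hg.k0) fun z => kk_mono h hc hg (x - z) ht

theorem akk_change (h : FF W π κ) (hd : CW d τ) (hc : Cf W c C) (hg : Prof g g1 g2)
    {K c₀ r A j : ℝ} (hK : ∀ t, 0 ≤ t → g t ≤ K) (hc0 : 0 < c₀) (hr : 0 ≤ r)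
    (hcr : ∀ t, 0 ≤ t → t ≤ r ^ 2 → c₀ ≤ g t) (hA : 0 ≤ A) (hj : (1 + A) * Real.exp (-j) ≤ r)
    {t : ℝ} (hx : ‖x' - x‖ ≤ A * Real.exp t) :
    av d (fun y l => kk W π c g y l) x' t ≤ (K / c₀) * Real.exp ((m - 2) * j) *
      av d (fun y l => kk W π c g y l) x (t + j) := by
  refine av_le_shift hd (cont2_kk h hc hg.k0) fun z => ?_
  have h1 := kk_le_of_ker h hc hg (y := x - z) (y' := x' - z) (t := t) (t' := t + j)
    (A := K / c₀) fun v => ker_change hg hK hc0 hr hcr hA hj (by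
      have : x' - z - (x - z) = x' - x := by abel
      rw [this]; exact hx) v
  have e1 : t + j - t = j := by ring
  rwa [e1] at h1

/-! ### the tilt energy -/

theorem eea_eq (h : FF W π κ) (hd : CW d τ) (g : ℝ → ℝ) (x : Euc m) (l : ℝ) :
    eea d W π g x l = av d (fun y l => kk W π (tc π) g y l) x l :=
  av_congr hd fun y _ => ee_eq_kk h g y l

theorem eea_mono' (h : FF W π κ) (hd : CW d τ) (hg : Prof g g1 g2) (x : Euc m) {t t' : ℝ}
    (ht : t ≤ t') : eea d W π g x t ≤ Real.exp ((m - 2) * (t' - t)) * eea d W π g x t' := by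
  rw [eea_eq h hd, eea_eq h hd]
  exact akk_mono h hd (cf_tc h) hg x ht

theorem eea_change' (h : FF W π κ) (hd : CW d τ) (hg : Prof g g1 g2)
    {K c₀ r A j : ℝ} (hK : ∀ t, 0 ≤ t → g t ≤ K) (hc0 : 0 < c₀) (hr : 0 ≤ r)
    (hcr : ∀ t, 0 ≤ t → t ≤ r ^ 2 → c₀ ≤ g t) (hA : 0 ≤ A) (hj : (1 + A) * Real.exp (-j) ≤ r)
    {t : ℝ} (hx : ‖x' - x‖ ≤ A * Real.exp t) :
    eea d W π g x' t ≤ (K / c₀) * Real.exp ((m - 2) * j) * eea d W π g x (t + j) := by
  rw [eea_eq h hd, eea_eq h hd]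
  exact akk_change h hd (cf_tc h) hg hK hc0 hr hcr hA hj hx

/-! ### `kt` -/

/-- pointwise comparison of `-g1` at two scales -/
theorem k1_le (hg : Prof g g1 g2) {K c₀ j : ℝ}
    (hK : ∀ t, 0 ≤ t → -g1 t ≤ K) (hc0 : 0 < c₀)
    (hcr : ∀ t, 0 ≤ t → t ≤ Real.exp (-2 * j) → c₀ ≤ -g1 t) (y v : Euc m) {t l : ℝ}
    (hl : t + j ≤ l) :
    -2 * g1 (Real.exp (-2 * t) * ‖v - y‖ ^ 2) ≤
      (K / c₀) * (-2 * g1 (Real.exp (-2 * l) * ‖v - y‖ ^ 2)) := by
  have hK0 : 0 ≤ K := by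
    have h1 := hg.anti 0 le_rfl
    have h2 := hK 0 le_rfl
    linarith
  by_cases hv : ‖v - y‖ < Real.exp t
  · have h3 : Real.exp (-2 * l) * ‖v - y‖ ^ 2 ≤ Real.exp (-2 * j) := by
      calc Real.exp (-2 * l) * ‖v - y‖ ^ 2 ≤ Real.exp (-2 * l) * Real.exp t ^ 2 :=
            mul_le_mul_of_nonneg_left (pow_le_pow_left₀ (norm_nonneg _) hv.le 2)
              (Real.exp_pos _).le
        _ = Real.exp (-2 * l + 2 * t) := by
            rw [← Real.exp_nat_mul, ← Real.exp_add]; norm_num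
        _ ≤ _ := Real.exp_le_exp.2 (by linarith)
    have h4 := hcr _ (by positivity) h3
    have h5 := hK (Real.exp (-2 * t) * ‖v - y‖ ^ 2) (by positivity)
    calc -2 * g1 (Real.exp (-2 * t) * ‖v - y‖ ^ 2) ≤ 2 * K := by linarith
      _ = (K / c₀) * (2 * c₀) := by field_simp
      _ ≤ _ := mul_le_mul_of_nonneg_left (by linarith) (by positivity)
  · rw [hg.k1.zero _ (Ker.one_le_of y (not_lt.1 hv)), mul_zero]
    have h6 := hg.anti (Real.exp (-2 * l) * ‖v - y‖ ^ 2) (by positivity)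
    exact mul_nonneg (by positivity) (by linarith)

theorem kt_eq (c : Euc k × L k → ℝ) (g1 : ℝ → ℝ) (y : Euc m) (l : ℝ) :
    kt W π c g1 y l = Real.exp (-m * l) * ∫ p, c p *
      (‖π p.1 - y‖ ^ 2 * (-2 * g1 (Real.exp (-2 * l) * ‖π p.1 - y‖ ^ 2))) ∂W := by
  unfold kt
  have e1 : Real.exp ((2 - m) * l) = Real.exp (-m * l) * Real.exp (2 * l) := by
    rw [← Real.exp_add]; congr 1; ring
  rw [e1, mul_assoc, ← integral_const_mul]
  congr 1
  refine integral_congr_ae (Eventually.of_forall fun p => ?_)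
  simp only
  have e2 : Real.exp (2 * l) * Real.exp (-2 * l) = 1 := by
    rw [← Real.exp_add]
    have : 2 * l + -2 * l = 0 := by ring
    rw [this, Real.exp_zero]
  linear_combination (-2 * (c p * ‖π p.1 - y‖ ^ 2 *
    g1 (Real.exp (-2 * l) * ‖π p.1 - y‖ ^ 2))) * e2

theorem integrable_kt (h : FF W π κ) (hc : Cf W c C) (hg : Prof g g1 g2) (y : Euc m) (l : ℝ) :
    Integrable (fun p : Euc k × L k => c p *
      (‖π p.1 - y‖ ^ 2 * (-2 * g1 (Real.exp (-2 * l) * ‖π p.1 - y‖ ^ 2)))) W := by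
  have i2 := integrable_tk (h.fr y (l + 1)) hc.meas.aestronglyMeasurable hc.bd hg.k0
    (by linarith : l ≤ l + 1)
  refine (i2.const_mul (-2 * Real.exp (2 * l))).congr (Eventually.of_forall fun p => ?_)
  simp only
  have e2 : Real.exp (2 * l) * Real.exp (-2 * l) = 1 := by
    rw [← Real.exp_add]
    have : 2 * l + -2 * l = 0 := by ring
    rw [this, Real.exp_zero]
  linear_combination (-2 * (c p * ‖π p.1 - y‖ ^ 2 *
    g1 (Real.exp (-2 * l) * ‖π p.1 - y‖ ^ 2))) * e2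

/-- **`kt(t) ≤ (K/c₀) e^{m(l-t)} kt(l)`** for `t + j ≤ l` -/
theorem kt_le (h : FF W π κ) (hc : Cf W c C) (hg : Prof g g1 g2) {K c₀ j : ℝ}
    (hK : ∀ t, 0 ≤ t → -g1 t ≤ K) (hc0 : 0 < c₀)
    (hcr : ∀ t, 0 ≤ t → t ≤ Real.exp (-2 * j) → c₀ ≤ -g1 t) (y : Euc m) {t l : ℝ}
    (hl : t + j ≤ l) :
    kt W π c g1 y t ≤ (K / c₀) * Real.exp (m * (l - t)) * kt W π c g1 y l := by
  rw [kt_eq, kt_eq]
  have e1 : ∫ p, c p * (‖π p.1 - y‖ ^ 2 * (-2 * g1 (Real.exp (-2 * t) * ‖π p.1 - y‖ ^ 2))) ∂W ≤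
      (K / c₀) * ∫ p, c p *
        (‖π p.1 - y‖ ^ 2 * (-2 * g1 (Real.exp (-2 * l) * ‖π p.1 - y‖ ^ 2))) ∂W := by
    rw [← integral_const_mul]
    refine integral_mono (integrable_kt h hc hg y t) ((integrable_kt h hc hg y l).const_mul _)
      fun p => ?_
    have h2 := k1_le hg hK hc0 hcr y (π p.1) hl
    have h3 := mul_le_mul_of_nonneg_left h2
      (mul_nonneg (hc.nonneg p) (by positivity : 0 ≤ ‖π p.1 - y‖ ^ 2))
    simp only
    calc c p * (‖π p.1 - y‖ ^ 2 * (-2 * g1 (Real.exp (-2 * t) * ‖π p.1 - y‖ ^ 2)))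
        = c p * ‖π p.1 - y‖ ^ 2 * (-2 * g1 (Real.exp (-2 * t) * ‖π p.1 - y‖ ^ 2)) := by ring
      _ ≤ _ := h3
      _ = _ := by ring
  have e2 : Real.exp (-m * t) = Real.exp (m * (l - t)) * Real.exp (-m * l) := by
    rw [← Real.exp_add]; congr 1; ring
  calc _ ≤ Real.exp (-m * t) * ((K / c₀) * ∫ p, c p *
        (‖π p.1 - y‖ ^ 2 * (-2 * g1 (Real.exp (-2 * l) * ‖π p.1 - y‖ ^ 2))) ∂W) :=
        mul_le_mul_of_nonneg_left e1 (Real.exp_pos _).le
    _ = _ := by rw [e2]; ring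

theorem akt_le (h : FF W π κ) (hd : CW d τ) (hc : Cf W c C) (hg : Prof g g1 g2) {K c₀ j : ℝ}
    (hK : ∀ t, 0 ≤ t → -g1 t ≤ K) (hc0 : 0 < c₀)
    (hcr : ∀ t, 0 ≤ t → t ≤ Real.exp (-2 * j) → c₀ ≤ -g1 t) (x : Euc m) {t l : ℝ}
    (hl : t + j ≤ l) :
    av d (fun y l => kt W π c g1 y l) x t ≤ (K / c₀) * Real.exp (m * (l - t)) *
      av d (fun y l => kt W π c g1 y l) x l :=
  av_le_shift hd (cont2_kt h hc hg) fun z => kt_le h hc hg hK hc0 hcr (x - z) hl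

theorem et_eq_kt (h : FF W π κ) (g1 : ℝ → ℝ) (y : Euc m) (l : ℝ) :
    et W π g1 y l = kt W π (tc π) g1 y l := by
  unfold et kt
  congr 1
  refine integral_congr_ae ?_
  filter_upwards [h.conc] with p hp
  unfold tc
  rw [max_eq_left (tl_nonneg h.sp.hh (isPr_of_G hp))]

theorem eta_le (h : FF W π κ) (hd : CW d τ) (hg : Prof g g1 g2) {K c₀ j : ℝ}
    (hK : ∀ t, 0 ≤ t → -g1 t ≤ K) (hc0 : 0 < c₀)
    (hcr : ∀ t, 0 ≤ t → t ≤ Real.exp (-2 * j) → c₀ ≤ -g1 t) (x : Euc m) {t l : ℝ}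
    (hl : t + j ≤ l) :
    eta d W π g1 x t ≤ (K / c₀) * Real.exp (m * (l - t)) * eta d W π g1 x l := by
  have e1 : ∀ l, eta d W π g1 x l = av d (fun y l => kt W π (tc π) g1 y l) x l := fun l =>
    av_congr hd fun y _ => et_eq_kt h g1 y l
  rw [e1, e1]
  exact akt_le h hd (cf_tc h) hg hK hc0 hcr x hl

/-! ### the radial energy -/

theorem RR_le' (h : FF W π κ) (hg : Prof g g1 g2) {K c₀ j : ℝ}
    (hK : ∀ t, 0 ≤ t → -g1 t ≤ K) (hc0 : 0 < c₀)
    (hcr : ∀ t, 0 ≤ t → t ≤ Real.exp (-2 * j) → c₀ ≤ -g1 t) (y : Euc m) {t l : ℝ}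
    (hl : t + j ≤ l) :
    RR W π y g1 t ≤ (K / c₀) * Real.exp (m * (l - t)) * RR W π y g1 l := by
  unfold RR
  have i1 : ∀ (z : Euc m) (l : ℝ), Integrable (fun p : Euc k × L k => qf π p.2 (π p.1 - z) *
      (-2 * g1 (Real.exp (-2 * l) * ‖π p.1 - z‖ ^ 2))) W := fun z l => by
    have h1 := (h.fr z (l + 1)).integrable_c (continuous_qf π z).aestronglyMeasurable
      (h.fr z (l + 1)).qf_bound hg.k1 (by linarith : l ≤ l + 1)
    refine (h1.const_mul (-2)).congr (Eventually.of_forall fun p => ?_)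
    simp only
    ring
  have e1 : ∫ p, qf π p.2 (π p.1 - y) * (-2 * g1 (Real.exp (-2 * t) * ‖π p.1 - y‖ ^ 2)) ∂W ≤
      (K / c₀) * ∫ p, qf π p.2 (π p.1 - y) *
        (-2 * g1 (Real.exp (-2 * l) * ‖π p.1 - y‖ ^ 2)) ∂W := by
    rw [← integral_const_mul]
    refine integral_mono_ae (i1 y t) ((i1 y l).const_mul _) ?_
    filter_upwards [h.conc] with p hp
    have h1 := qf_nonneg h.sp.hh (isPr_of_G hp) (π p.1 - y)
    have h3 := mul_le_mul_of_nonneg_left (k1_le hg hK hc0 hcr y (π p.1) hl) h1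
    linarith
  have e2 : Real.exp (-m * t) = Real.exp (m * (l - t)) * Real.exp (-m * l) := by
    rw [← Real.exp_add]; congr 1; ring
  calc _ ≤ Real.exp (-m * t) * ((K / c₀) * ∫ p, qf π p.2 (π p.1 - y) *
        (-2 * g1 (Real.exp (-2 * l) * ‖π p.1 - y‖ ^ 2)) ∂W) :=
        mul_le_mul_of_nonneg_left e1 (Real.exp_pos _).le
    _ = _ := by rw [e2]; ring

theorem RRa_le' (h : FF W π κ) (hd : CW d τ) (hg : Prof g g1 g2) {K c₀ j : ℝ}
    (hK : ∀ t, 0 ≤ t → -g1 t ≤ K) (hc0 : 0 < c₀)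
    (hcr : ∀ t, 0 ≤ t → t ≤ Real.exp (-2 * j) → c₀ ≤ -g1 t) (x : Euc m) {t l : ℝ}
    (hl : t + j ≤ l) :
    RRa d W π g1 x t ≤ (K / c₀) * Real.exp (m * (l - t)) * RRa d W π g1 x l :=
  av_le_shift hd (cont2_RR' h hg.k1) fun z => RR_le' h hg hK hc0 hcr (x - z) hl

/-! ### measures -/

theorem hat_le_of_ker (w : Wt) (μ : Measure (XB (Euc m) τ)) [IsFiniteMeasure μ] {y y' : Euc m}
    {t t' A : ℝ} (hA : ∀ v : Euc m, w.θ (Real.exp (-2 * t) * ‖v - y'‖ ^ 2) ≤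
      A * w.θ (Real.exp (-2 * t') * ‖v - y‖ ^ 2)) :
    hat w μ y' t ≤ A * Real.exp ((m - 2) * (t' - t)) * hat w μ y t' := by
  unfold hat
  have hi : ∀ (z : Euc m) (l : ℝ), Integrable (fun v : XB (Euc m) τ =>
      w.θ (Real.exp (-2 * l) * ‖(v : Euc m) - z‖ ^ 2)) μ := by
    intro z l
    have hc : Continuous fun v : XB (Euc m) τ =>
        w.θ (Real.exp (-2 * l) * ‖(v : Euc m) - z‖ ^ 2) := w.cont.comp (by fun_prop)
    obtain ⟨K, hK⟩ := (isCompact_univ :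
      IsCompact (univ : Set (XB (Euc m) τ))).exists_bound_of_continuousOn hc.continuousOn
    exact Integrable.of_bound hc.aestronglyMeasurable K
      (Eventually.of_forall fun z => hK z (mem_univ _))
  have e1 : ∫ v : XB (Euc m) τ, w.θ (Real.exp (-2 * t) * ‖(v : Euc m) - y'‖ ^ 2) ∂μ ≤
      A * ∫ v : XB (Euc m) τ, w.θ (Real.exp (-2 * t') * ‖(v : Euc m) - y‖ ^ 2) ∂μ := by
    rw [← integral_const_mul]
    exact integral_mono (hi y' t) ((hi y t').const_mul A) fun v => hA v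
  have e2 : Real.exp ((2 - m) * t) =
      Real.exp ((m - 2) * (t' - t)) * Real.exp ((2 - m) * t') := by
    rw [← Real.exp_add]; congr 1; ring
  calc _ ≤ Real.exp ((2 - m) * t) *
        (A * ∫ v : XB (Euc m) τ, w.θ (Real.exp (-2 * t') * ‖(v : Euc m) - y‖ ^ 2) ∂μ) :=
        mul_le_mul_of_nonneg_left e1 (Real.exp_pos _).le
    _ = _ := by rw [e2]; ring

theorem hata_mono (hτ : 0 < τ) {w : Wt} (hg : Prof w.θ w.θ' g2) (μ : Measure (XB (Euc m) τ))
    [IsFiniteMeasure μ] (x : Euc m) {t t' : ℝ} (ht : t ≤ t') :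
    hata w μ x t ≤ Real.exp ((m - 2) * (t' - t)) * hata w μ x t' := by
  refine av_le_shift (cw_dd hτ) (cont2_hat w μ) fun z => ?_
  have h1 := hat_le_of_ker w μ (y := x - z) (y' := x - z) (t := t) (t' := t') (A := 1)
    fun v => ker_mono hg (x - z) v ht
  rwa [one_mul] at h1

theorem hata_change (hτ : 0 < τ) {w : Wt} (hg : Prof w.θ w.θ' g2) (μ : Measure (XB (Euc m) τ))
    [IsFiniteMeasure μ] {K c₀ r A j : ℝ} (hK : ∀ t, 0 ≤ t → w.θ t ≤ K) (hc0 : 0 < c₀) (hr : 0 ≤ r)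
    (hcr : ∀ t, 0 ≤ t → t ≤ r ^ 2 → c₀ ≤ w.θ t) (hA : 0 ≤ A) (hj : (1 + A) * Real.exp (-j) ≤ r)
    {t : ℝ} (hx : ‖x' - x‖ ≤ A * Real.exp t) :
    hata w μ x' t ≤ (K / c₀) * Real.exp ((m - 2) * j) * hata w μ x (t + j) := by
  refine av_le_shift (cw_dd hτ) (cont2_hat w μ) fun z => ?_
  have h1 := hat_le_of_ker w μ (y := x - z) (y' := x' - z) (t := t) (t' := t + j)
    (A := K / c₀) fun v => ker_change hg hK hc0 hr hcr hA hj (by
      have : x' - z - (x - z) = x' - x := by abel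
      rw [this]; exact hx) v
  have e1 : t + j - t = j := by ring
  rwa [e1] at h1

/-! ### the decaying error -/

/-- `p(t) ≤ (K/c₀) e^{m(l-t)} p(l)` -/
theorem pY_le (h : FF W π κ) (hτ : 0 < τ) {w : Wt} (hg : Prof w.θ w.θ' g2)
    (hc : Cf W (yc κ) C) {δ : ℝ} (hδ : 0 ≤ δ) {K c₀ j : ℝ}
    (hK : ∀ t, 0 ≤ t → -w.θ' t ≤ K) (hc0 : 0 < c₀)
    (hcr : ∀ t, 0 ≤ t → t ≤ Real.exp (-2 * j) → c₀ ≤ -w.θ' t) (hj : 0 ≤ j) (x : Euc m)
    {t l : ℝ} (hl : t + j ≤ l) :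
    pY δ W π κ τ w x t ≤ (K / c₀) * Real.exp (m * (l - t)) * pY δ W π κ τ w x l := by
  have hd := cw_dd (m := m) hτ
  have h1 := akk_mono h hd hc hg x (by linarith : t ≤ l)
  have h2 := akt_le h hd hc hg hK hc0 hcr x hl
  have h3 : 1 ≤ K / c₀ := by
    rw [one_le_div hc0]
    have a1 := hcr 0 le_rfl (Real.exp_pos _).le
    have a2 := hK 0 le_rfl
    linarith
  have h4 : 0 ≤ av (dd m τ) (fun y l => kk W π (yc κ) w.θ y l) x l :=
    av_nonneg hd fun _ _ => kk_nonneg hc hg _ _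
  have h5 : Real.exp ((m - 2) * (l - t)) ≤ (K / c₀) * Real.exp (m * (l - t)) := by
    have a1 : Real.exp ((m - 2) * (l - t)) ≤ Real.exp (m * (l - t)) := by
      refine Real.exp_le_exp.2 ?_
      nlinarith
    have a2 := mul_le_mul_of_nonneg_right h3 (Real.exp_pos (m * (l - t))).le
    linarith
  have h6 := h1.trans (mul_le_mul_of_nonneg_right h5 h4)
  have h7 := mul_le_mul_of_nonneg_left (add_le_add h6 h2) (by positivity : 0 ≤ 2 * δ)
  unfold pY
  refine h7.trans (le_of_eq ?_)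
  ring

end Crest.Agent.R234.Fld_387
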