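import Crest.Agent.R234.Shp5_98

/-!
# Row 234 (helper98): `Raw` and `PtDat` of an averaged contact centre in `CylAS`

`δ'` = the almost stationarity, `7 δ' ≤ δ ≤ 1`, `p = pY (7 δ')`, `P = PY (7 δ')` of helper387.
-/

set_option autoImplicit false

open MeasureTheory Set Function Filter Topology Metric
open Crest.GeometryTopology.Submanifold
open Crest.Agent.R234.Vf_884 Crest.Agent.R234.Ar_870 Crest.Agent.R234.Cy_870
open Crest.Agent.R234.Asl_214 Crest.Agent.R234.Avg_387 Crest.Agent.R234.Raw_387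
open Crest.Agent.R234.Pot_425 Crest.Agent.R234.Rep_387
open scoped ENNReal NNReal InnerProductSpace

noncomputable section

namespace Crest.Agent.R234.Shp_98

variable {m n k : ℕ} {π : Euc k →L[ℝ] Euc m} {κ : Euc k →L[ℝ] Euc n} {δ' : ℝ}
  {x : Euc m} {R h₀ τ : ℝ} {W : Measure (Euc k × L k)} {g g1 g2 : ℝ → ℝ} {d : Euc m → ℝ}

/-- error of (W1) at an ordinary centre -/
theorem abs_f1_le {x₀ y : Euc m} (h : CylAS W π κ x₀ R h₀ δ') (h0 : 0 ≤ δ') (hg : Prof g g1 g2)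
    {l : ℝ} (hl : ‖y - x₀‖ + Real.exp l ≤ R) (hl0 : l ≤ 0) :
    |f1 W π g y l| ≤ 2 * δ' * (ee W π y g l + Raw_387.et W π g1 y l + kk W π (yc κ) g y l +
      kt W π (yc κ) g1 y l) := by
  have h1 := Shp2_98.abs_X1_le h h0 hg hl hl0
  have h2 : 2 * δ' * (ee W π y g l + Raw_387.et W π g1 y l + kk W π (yc κ) g y l +
      kt W π (yc κ) g1 y l) = 2 * δ' * (ee W π y g l + Raw_387.et W π g1 y l) +
      2 * δ' * (kk W π (yc κ) g y l + kt W π (yc κ) g1 y l) := by ring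
  rw [h2]
  exact h1

/-- geometry of the window -/
theorem window {T l : ℝ} (hτ : 0 < τ) (hT : ‖x‖ + Real.exp T + 2 * τ ≤ 1) (hl : l ≤ T) :
    ‖x - 0‖ + τ + Real.exp l ≤ 1 ∧ l ≤ 0 := by
  have h1 := Real.exp_le_exp.2 hl
  have h2 := norm_nonneg x
  constructor
  · rw [sub_zero]; linarith
  · rw [← Real.exp_le_one_iff]; linarith

variable {b₁ b₂ β γ : Measure (XB (Euc m) τ)} {w : Wt} {Q : ℝ}

/-- average of the error of (W1) -/
theorem abs_av_f1_le (h : CylAS W π κ 0 R h₀ δ') (hR : 1 ≤ R) (h0 : 0 ≤ δ') (hτ : 0 < τ)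
    (hg : Prof w.θ w.θ' g2) {T l : ℝ} (hT : ‖x‖ + Real.exp T + 2 * τ ≤ 1) (hl : l ≤ T) :
    |av (dd m τ) (f1 W π w.θ) x l| ≤
      2 * δ' * (eea (dd m τ) W π w.θ x l + eta (dd m τ) W π w.θ' x l) +
        pY δ' W π κ τ w x l := by
  have hf := ff_of_cylAS h
  have hd := cw_dd (m := m) hτ
  have hcy := cf_yc (W := W) (κ := κ) h.hgt
  have hw := window (x := x) hτ hT hl
  have hl1 : l < l + 1 := by linarith
  have c0 : CO x τ (l + 1) (fun y l => f1 W π w.θ y l) :=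
    CO_of_cont (cont2_f1 hf hg) x τ (l + 1)
  have c1 : CO x τ (l + 1) (fun y l => ee W π y w.θ l) :=
    CO_of_cont (cont2_ee' hf hg.k0) x τ (l + 1)
  have c2 : CO x τ (l + 1) (fun y l => Raw_387.et W π w.θ' y l) :=
    CO_of_cont (cont2_et hf hg) x τ (l + 1)
  have c3 : CO x τ (l + 1) (fun y l => kk W π (yc κ) w.θ y l) :=
    CO_of_cont (cont2_kk hf hcy hg.k0) x τ (l + 1)
  have c4 : CO x τ (l + 1) (fun y l => kt W π (yc κ) w.θ' y l) :=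
    CO_of_cont (cont2_kt hf hcy hg) x τ (l + 1)
  have h1 := Wi_870.abs_av_le hd c0 ((((c1.add c2).add c3).add c4).const_mul (2 * δ')) hl1
    fun y hy => by
      have hyx : ‖y - x‖ ≤ τ := by rwa [mem_closedBall_iff_norm] at hy
      have hy2 : ‖y - 0‖ + Real.exp l ≤ R := by
        have := norm_sub_le_norm_sub_add_norm_sub y x (0 : Euc m)
        linarith [hw.1]
      exact abs_f1_le h h0 hg hy2 hw.2
  refine h1.trans (le_of_eq ?_)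
  rw [av_const_mul, av_add hd ((c1.add c2).add c3) c4 hl1, av_add hd (c1.add c2) c3 hl1,
    av_add hd c1 c2 hl1]
  unfold pY eea eta
  ring

/-- **`Raw` in `CylAS`** -/
theorem raw_AS (hm : 1 ≤ m) (h : CylAS W π κ 0 R h₀ δ') (hR : 1 ≤ R) (h0 : 0 ≤ δ') (hτ : 0 < τ)
    (hg : Prof w.θ w.θ' g2) [IsFiniteMeasure b₁] [IsFiniteMeasure b₂] [IsFiniteMeasure β]
    [IsFiniteMeasure γ] (hβγ : β + γ = b₁) (hrep : Rep b₁ b₂ W π Q) {K δ T : ℝ} (hδ : 0 < δ)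
    (hδδ : 7 * δ' ≤ δ) (hK : 0 ≤ K) (hT : ‖x‖ + Real.exp T + 2 * τ ≤ 1) :
    Raw m K 2 δ T (EEa (dd m τ) W π w.θ Q x) (eea (dd m τ) W π w.θ x)
      (eta (dd m τ) W π w.θ' x) (bba (dd m τ) W π w.θ Q x) (hata w γ x)
      (RRa (dd m τ) W π w.θ' x) (fun l => - av (dd m τ) (f1 W π w.θ) x l)
      (pY (7 * δ') W π κ τ w x) (PY (7 * δ') W π κ τ w x)
      (BB w β (b2s b₂ W π (K * m / 2 * δ)) x) := by
  have hf := ff_of_cylAS h
  have hcy := cf_yc (W := W) (κ := κ) h.hgt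
  refine Raw_387.raw hm hf h.hgt hτ hg hβγ hrep hδ (by positivity) hδδ hK hT ?_
  intro y hy l hl
  have hw := window (x := x) hτ hT hl
  have hyx : ‖y - x‖ ≤ τ := by rwa [mem_closedBall_iff_norm] at hy
  have hy2 : ‖y - 0‖ + Real.exp l ≤ R := by
    have := norm_sub_le_norm_sub_add_norm_sub y x (0 : Euc m)
    linarith [hw.1]
  refine (abs_f1_le h h0 hg hy2 hw.2).trans ?_
  refine mul_le_mul_of_nonneg_right (by linarith) ?_
  have a1 : 0 ≤ ee W π y w.θ l := by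
    rw [ee_eq_kk hf]
    exact kk_nonneg (cf_tc hf) hg y l
  have a2 := et_nonneg hf hg y l
  have a3 := kk_nonneg (π := π) hcy hg y l
  have a4 := kt_nonneg (π := π) hcy hg y l
  linarith

/-- the stronger bound of the error: half of `p` is spare -/
theorem hf_AS (h : CylAS W π κ 0 R h₀ δ') (hR : 1 ≤ R) (h0 : 0 ≤ δ') (hτ : 0 < τ)
    (hg : Prof w.θ w.θ' g2) {δ T l : ℝ} (hδδ : 7 * δ' ≤ δ)
    (hT : ‖x‖ + Real.exp T + 2 * τ ≤ 1) (hl : l ≤ T) :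
    |(- av (dd m τ) (f1 W π w.θ) x l)| ≤
      2 * δ * (eea (dd m τ) W π w.θ x l + eta (dd m τ) W π w.θ' x l) +
        pY (7 * δ') W π κ τ w x l / 2 := by
  have hf := ff_of_cylAS h
  have hd := cw_dd (m := m) hτ
  have hcy := cf_yc (W := W) (κ := κ) h.hgt
  rw [abs_neg]
  refine (abs_av_f1_le h hR h0 hτ hg hT hl).trans ?_
  have a1 : 0 ≤ eea (dd m τ) W π w.θ x l := (hf.afr hτ.le x (l + 1)).eea_nonneg hd hg l
  have a2 := eta_nonneg hf hd hg x l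
  have a3 : 0 ≤ av (dd m τ) (fun y l => kk W π (yc κ) w.θ y l) x l :=
    av_nonneg hd fun _ _ => kk_nonneg hcy hg _ _
  have a4 : 0 ≤ av (dd m τ) (fun y l => kt W π (yc κ) w.θ' y l) x l :=
    av_nonneg hd fun _ _ => kt_nonneg hcy hg _ _
  refine add_le_add (mul_le_mul_of_nonneg_right (by linarith) (by linarith)) ?_
  unfold pY
  have : 0 ≤ δ' * (av (dd m τ) (fun y l => kk W π (yc κ) w.θ y l) x l +
    av (dd m τ) (fun y l => kt W π (yc κ) w.θ' y l) x l) := by positivity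
  linarith

theorem hY_AS (hh : ∀ᵐ p ∂W, ‖κ p.1‖ ≤ h₀) (h0 : 0 ≤ δ') (hτ : 0 < τ)
    (hg : Prof w.θ w.θ' g2) (l : ℝ) :
    (3 * 1 + 1 + 3 * 1 ^ 2) * (δ' * Ya (dd m τ) W π κ w.θ' x l) ≤
      pY (7 * δ') W π κ τ w x l / 2 := by
  have hd := cw_dd (m := m) hτ
  have hcy := cf_yc (W := W) (κ := κ) hh
  have a3 : 0 ≤ av (dd m τ) (fun y l => kk W π (yc κ) w.θ y l) x l :=
    av_nonneg hd fun _ _ => kk_nonneg hcy hg _ _
  unfold pY Ya
  have : 0 ≤ δ' * av (dd m τ) (fun y l => kk W π (yc κ) w.θ y l) x l := by positivity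
  linarith

section
variable {K δ T κ' a q1 KB : ℝ} {tM mM : ℝ → ℝ}

/-- **the Cauchy-Schwarz inequality with all errors absorbed** (field `cs` of 809's `Fld`) -/
theorem cs_AS (hm : 1 ≤ m) (h : CylAS W π κ 0 R h₀ δ') (hh : 0 ≤ h₀) (hR : 1 ≤ R) (h0 : 0 ≤ δ')
    (hτ : 0 < τ) (hg : Prof w.θ w.θ' g2) [IsFiniteMeasure b₁] [IsFiniteMeasure b₂]
    [IsFiniteMeasure β] [IsFiniteMeasure γ] (hβγ : β + γ = b₁) (hrep : Rep b₁ b₂ W π Q)
    (hδ : 0 < δ) (hδδ : 7 * δ' ≤ δ) (hδ1 : δ ≤ 1) (hK : 9 ≤ K)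
    (hT : ‖x‖ + Real.exp T + 2 * τ ≤ 1) (hκ : 0 ≤ κ')
    (hU : 0 < Us K δ (EEa (dd m τ) W π w.θ Q x) (eea (dd m τ) W π w.θ x)
      (PY (7 * δ') W π κ τ w x) (BB w β (b2s b₂ W π (K * m / 2 * δ)) x) a)
    (hKB : Bd w.θ' g2 KB) (htM : ∀ l ∈ Icc a T, 0 ≤ tM l)
    (htb : ∀ l ∈ Icc a T, ∀ y ∈ closedBall x τ, tb W π y l ≤ tM l)
    (hmb : ∀ l ∈ Icc a T, ∀ y ∈ closedBall x τ, mb W π y l ≤ mM l)
    (ht : ∀ v : WP n, qW v ^ 2 ≤ q1 → ∀ l ∈ Icc a T,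
      4 * tw KB δ' h₀ (∫ z, dd m τ z) (qW v) (tM l) (mM l) l ^ 2 ≤
        κ' * δ * Us K δ (EEa (dd m τ) W π w.θ Q x) (eea (dd m τ) W π w.θ x)
          (PY (7 * δ') W π κ τ w x) (BB w β (b2s b₂ W π (K * m / 2 * δ)) x) a ^ 2)
    {v : WP n} (hv : qW v ^ 2 ≤ q1) {l : ℝ} (hl : l ∈ Icc a T) :
    (Fm (dd m τ) W π κ w.θ x v l + Gm (dd m τ) W π κ w.θ' g2 x v l) ^ 2 ≤
      IFw (dd m τ) W π κ w.θ' x v l *
        Rs K δ (eea (dd m τ) W π w.θ x) (eta (dd m τ) W π w.θ' x) (hata w γ x)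
          (RRa (dd m τ) W π w.θ' x) (fun l => - av (dd m τ) (f1 W π w.θ) x l)
          (pY (7 * δ') W π κ τ w x) l +
      κ' * Us K δ (EEa (dd m τ) W π w.θ Q x) (eea (dd m τ) W π w.θ x)
        (PY (7 * δ') W π κ τ w x) (BB w β (b2s b₂ W π (K * m / 2 * δ)) x) l ^ 2 := by
  have hf := ff_of_cylAS h
  have hd := cw_dd (m := m) hτ
  have hcy := cf_yc (W := W) (κ := κ) h.hgt
  have hw := window (x := x) hτ hT hl.2
  have hraw := raw_AS (K := K) (δ := δ) (T := T) (x := x) hm h hR h0 hτ hg hβγ hrep hδ hδδ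
    (by linarith) hT
  refine hraw.cs2 (c₁ := 1) (δ' := δ') (Y := Ya (dd m τ) W π κ w.θ' x l)
    (tt := tw KB δ' h₀ (∫ z, dd m τ z) (qW v) (tM l) (mM l) l) hδ1 h0 (by linarith) hκ
    zero_le_one (by linarith) (by linarith) hU hl.1 hl.2
    (hf_AS h hR h0 hτ hg hδδ hT hl.2) (Ya_nonneg h.hgt hd hg x l) (hY_AS h.hgt h0 hτ hg l)
    (IFw_nonneg hd hg x v l) (Fm_sq_le hf h.hgt hτ.le hd hg x v l) ?_ (ht v hv l hl)
  have h1 := abs_Gm_le h h0 hh hτ.le hd hg hKB (x := x) (l := l) (by linarith [hw.1]) hw.2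
    (htM l hl) (htb l hl) (hmb l hl) v
  refine h1.trans ?_
  have h2 := Real.sqrt_nonneg (IFw (dd m τ) W π κ w.θ' x v l * eta (dd m τ) W π w.θ' x l)
  have h3 : δ' * √(IFw (dd m τ) W π κ w.θ' x v l * eta (dd m τ) W π w.θ' x l) ≤
      δ * √(IFw (dd m τ) W π κ w.θ' x v l * eta (dd m τ) W π w.θ' x l) :=
    mul_le_mul_of_nonneg_right (by linarith) h2
  linarith

/-- **809's `PtDat` in `CylAS`** -/
theorem ptDat_AS (hm : 1 ≤ m) (h : CylAS W π κ 0 R h₀ δ') (hh : 0 ≤ h₀) (hR : 1 ≤ R)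
    (h0 : 0 ≤ δ') (hτ : 0 < τ) (hg : Prof w.θ w.θ' g2) [IsFiniteMeasure b₁]
    [IsFiniteMeasure b₂] [IsFiniteMeasure β] [IsFiniteMeasure γ] (hβγ : β + γ = b₁)
    (hrep : Rep b₁ b₂ W π Q) (hδ : 0 < δ) (hδδ : 7 * δ' ≤ δ) (hδ1 : δ ≤ 1) (hK : 9 ≤ K)
    (haT : a ≤ T) (hT : ‖x‖ + Real.exp T + 2 * τ ≤ 1) (hκ : 0 ≤ κ')
    (hU : 0 < Us K δ (EEa (dd m τ) W π w.θ Q x) (eea (dd m τ) W π w.θ x)
      (PY (7 * δ') W π κ τ w x) (BB w β (b2s b₂ W π (K * m / 2 * δ)) x) a)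
    (hB : ∀ l ∈ Icc a T, 0 ≤ BB w β (b2s b₂ W π (K * m / 2 * δ)) x l)
    (hKB : Bd w.θ' g2 KB) (htM : ∀ l ∈ Icc a T, 0 ≤ tM l)
    (htb : ∀ l ∈ Icc a T, ∀ y ∈ closedBall x τ, tb W π y l ≤ tM l)
    (hmb : ∀ l ∈ Icc a T, ∀ y ∈ closedBall x τ, mb W π y l ≤ mM l)
    (ht : ∀ v : WP n, qW v ^ 2 ≤ q1 → ∀ l ∈ Icc a T,
      4 * tw KB δ' h₀ (∫ z, dd m τ z) (qW v) (tM l) (mM l) l ^ 2 ≤
        κ' * δ * Us K δ (EEa (dd m τ) W π w.θ Q x) (eea (dd m τ) W π w.θ x)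
          (PY (7 * δ') W π κ τ w x) (BB w β (b2s b₂ W π (K * m / 2 * δ)) x) a ^ 2) :
    Core_809.PtDat (qW : WP n → ℝ) κ' a T q1
      (Us K δ (EEa (dd m τ) W π w.θ Q x) (eea (dd m τ) W π w.θ x)
        (PY (7 * δ') W π κ τ w x) (BB w β (b2s b₂ W π (K * m / 2 * δ)) x))
      (Es K δ (EEa (dd m τ) W π w.θ Q x) (eea (dd m τ) W π w.θ x) (PY (7 * δ') W π κ τ w x))
      (Rs K δ (eea (dd m τ) W π w.θ x) (eta (dd m τ) W π w.θ' x) (hata w γ x)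
          (RRa (dd m τ) W π w.θ' x) (fun l => - av (dd m τ) (f1 W π w.θ) x l)
          (pY (7 * δ') W π κ τ w x))
      (fun v l => Fm (dd m τ) W π κ w.θ x v l + Gm (dd m τ) W π κ w.θ' g2 x v l)
      (fun v l => IFw (dd m τ) W π κ w.θ' x v l) (fun _ _ => 0) := by
  have hf := ff_of_cylAS h
  have hd := cw_dd (m := m) hτ
  have hraw := raw_AS (K := K) (δ := δ) (T := T) (x := x) hm h hR h0 hτ hg hβγ hrep hδ hδδ
    (by linarith) hT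
  refine hraw.ptDat2 (c₁ := 1) (δ' := δ') (Y := Ya (dd m τ) W π κ w.θ' x)
    (tt := fun v l => tw KB δ' h₀ (∫ z, dd m τ z) (qW v) (tM l) (mM l) l) hδ1 h0 (by linarith)
    haT hκ zero_le_one (by linarith) (by linarith) hU hB
    (fun l hl => hf_AS h hR h0 hτ hg hδδ hT hl.2) (fun l _ => Ya_nonneg h.hgt hd hg x l)
    (fun l _ => hY_AS h.hgt h0 hτ hg l) (fun v l _ => IFw_nonneg hd hg x v l)
    (fun v _ => cont_FG hf h.hgt hτ.le hd hg x v)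
    (fun v _ l _ => hasDerivAt_IFw hf h.hgt hτ.le hd hg x v l)
    (fun v _ l _ => Fm_sq_le hf h.hgt hτ.le hd hg x v l) ?_ ht
  intro v _ l hl
  have hw := window (x := x) hτ hT hl.2
  have h1 := abs_Gm_le h h0 hh hτ.le hd hg hKB (x := x) (l := l) (by linarith [hw.1]) hw.2
    (htM l hl) (htb l hl) (hmb l hl) v
  refine h1.trans ?_
  have h2 := Real.sqrt_nonneg (IFw (dd m τ) W π κ w.θ' x v l * eta (dd m τ) W π w.θ' x l)
  have h3 : δ' * √(IFw (dd m τ) W π κ w.θ' x v l * eta (dd m τ) W π w.θ' x l) ≤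
      δ * √(IFw (dd m τ) W π κ w.θ' x v l * eta (dd m τ) W π w.θ' x l) :=
    mul_le_mul_of_nonneg_right (by linarith) h2
  linarith

end

end Crest.Agent.R234.Shp_98
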