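import Crest.Agent.R234.Fld3_387
import Crest.Agent.R234.Shp6_98

/-!
# Row 234 (helper387): `Core_809.Fld` in `CylAS` with the well part of helper98

`Da.OkAS`, `Da.AtAS` (no first variation hypothesis left), `fld_AS`.
-/

set_option autoImplicit false

open MeasureTheory Set Function Filter Topology Metric
open Crest.GeometryTopology.Submanifold
open Crest.Agent.R234.Vf_884 Crest.Agent.R234.Ar_870 Crest.Agent.R234.Cy_870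
open Crest.Agent.R234.Pot_425 Crest.Agent.R234.Avg_387 Crest.Agent.R234.Rep_387
open Crest.Agent.R234.Raw_387 Crest.Agent.R234.Asl_214
open scoped ENNReal NNReal InnerProductSpace

noncomputable section

namespace Crest.Agent.R234.Fld_387

variable {m n k : ℕ}

namespace Da

/-- properties of the data, `CylAS` version; `δA` = the almost stationarity, `δ' = 7 δA` -/
structure OkAS (D : Da m n k) (R h₀ δA c₀ K₀ KB : ℝ) (g2 : ℝ → ℝ) : Prop where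
  m2 : 2 ≤ m
  cyl : CylAS D.W D.π D.κ 0 R h₀ δA
  h0 : 0 ≤ h₀
  R1 : 1 ≤ R
  δA0 : 0 ≤ δA
  τ0 : 0 < D.τ
  prof : Prof D.w.θ D.w.θ' g2
  fβ : IsFiniteMeasure D.β
  fγ : IsFiniteMeasure D.γ
  fb₂ : IsFiniteMeasure D.b₂
  rep : Rep (D.β + D.γ) D.b₂ D.W D.π D.Q
  δ0 : 0 < D.δ
  δe : D.δ' = 7 * δA
  δδ : 7 * δA ≤ D.δ
  δ1 : D.δ ≤ 1
  K9 : 9 ≤ D.K
  c0 : 0 < c₀
  wl : ∀ t, 0 ≤ t → t ≤ 1 / 12 → c₀ ≤ D.w.θ t ∧ c₀ ≤ -D.w.θ' t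
  wu : ∀ t, 0 ≤ t → D.w.θ t ≤ K₀ ∧ -D.w.θ' t ≤ K₀
  bd : Bd D.w.θ' g2 KB

/-- hypotheses at one contact centre, logarithmic scales `l ∈ [a, T]`, `CylAS` version -/
structure AtAS (D : Da m n k) (A D₀ a T δA h₀ KB κ' q1 : ℝ) (tM mM : ℝ → ℝ) (x : Euc m) :
    Prop where
  hT : ‖x‖ + Real.exp T + 2 * D.τ ≤ 1
  tall : D₀ ≤ D.Us x a
  hB : ∀ l, a ≤ l → l ≤ T → 0 ≤ D.B x l
  hEe : ∀ l, a ≤ l → l + 1 ≤ T → D.E x l ≤ A * D.e x (l + 1)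
  PT : D.P x T ≤ D₀
  htM : ∀ l ∈ Icc a T, 0 ≤ tM l
  htb : ∀ l ∈ Icc a T, ∀ y ∈ closedBall x D.τ, tb D.W D.π y l ≤ tM l
  hmb : ∀ l ∈ Icc a T, ∀ y ∈ closedBall x D.τ, mb D.W D.π y l ≤ mM l
  ht : ∀ q : ℝ, q ^ 2 ≤ q1 → ∀ l ∈ Icc a T,
    4 * Shp_98.tw KB δA h₀ (∫ z, dd m D.τ z) q (tM l) (mM l) l ^ 2 ≤ κ' * D.δ * D₀ ^ 2

variable {D : Da m n k} {R h₀ δA c₀ K₀ KB A D₀ a T κ' q1 : ℝ} {g2 : ℝ → ℝ} {tM mM : ℝ → ℝ}
  {x : Euc m}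

theorem OkAS.ok (h : D.OkAS R h₀ δA c₀ K₀ KB g2) : D.Ok h₀ c₀ K₀ g2 where
  m2 := h.m2
  ff := Shp_98.ff_of_cylAS h.cyl
  hh := h.cyl.hgt
  τ0 := h.τ0
  prof := h.prof
  fβ := h.fβ
  fγ := h.fγ
  fb₂ := h.fb₂
  rep := h.rep
  δ0 := h.δ0
  δ'0 := by rw [h.δe]; linarith [h.δA0]
  δδ := by rw [h.δe]; exact h.δδ
  K2 := by linarith [h.K9]
  c0 := h.c0
  wl := h.wl
  wu := h.wu

theorem AtAS.at' (h : D.OkAS R h₀ δA c₀ K₀ KB g2)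
    (hx : D.AtAS A D₀ a T δA h₀ KB κ' q1 tM mM x) : D.At A D₀ a T x where
  hT := hx.hT
  hf := fun y hy l hl => by
    have hff := Shp_98.ff_of_cylAS h.cyl
    have hw := Shp_98.window (x := x) h.τ0 hx.hT hl
    have hyx : ‖y - x‖ ≤ D.τ := by rwa [mem_closedBall_iff_norm] at hy
    have hy2 : ‖y - 0‖ + Real.exp l ≤ R := by
      have := norm_sub_le_norm_sub_add_norm_sub y x (0 : Euc m)
      linarith [hw.1, h.R1]
    refine (Shp_98.abs_f1_le h.cyl h.δA0 h.prof hy2 hw.2).trans ?_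
    rw [h.δe]
    refine mul_le_mul_of_nonneg_right (by linarith [h.δA0]) ?_
    have hcy := cf_yc (W := D.W) (κ := D.κ) h.cyl.hgt
    have a1 : 0 ≤ ee D.W D.π y D.w.θ l := by
      rw [ee_eq_kk hff]
      exact kk_nonneg (cf_tc hff) h.prof y l
    have a2 := Shp_98.et_nonneg hff h.prof y l
    have a3 := kk_nonneg (π := D.π) hcy h.prof y l
    have a4 := kt_nonneg (π := D.π) hcy h.prof y l
    linarith
  tall := hx.tall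
  hB := hx.hB
  hEe := hx.hEe
  PT := hx.PT

/-- the centre as a `Ctr` -/
theorem AtAS.ctr (h : D.OkAS R h₀ δA c₀ K₀ KB g2)
    (hx : D.AtAS A D₀ a T δA h₀ KB κ' q1 tM mM x) (hA : Real.exp ((m:ℝ) - 2) ≤ A)
    (hD₀ : 0 < D₀) (haT : a ≤ T) :
    Ctr m D.K D.δ (K₀ / c₀) A D₀ a T (D.E x) (D.e x) (D.et x) (D.b x) (D.g x) (D.R x) (D.f x)
      (D.p x) (D.P x) (D.B x) :=
  (hx.at' h).ctr h.ok hA hD₀ haT

/-- `eF = IF' / 2` of the family of wells -/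
def eF (D : Da m n k) (g2 : ℝ → ℝ) (x : Euc m) (v : Shp_98.WP n) (l : ℝ) : ℝ :=
  Shp_98.Fm (dd m D.τ) D.W D.π D.κ D.w.θ x v l + Shp_98.Gm (dd m D.τ) D.W D.π D.κ D.w.θ' g2 x v l

/-- `IF` of the family of wells -/
def IF (D : Da m n k) (x : Euc m) (v : Shp_98.WP n) (l : ℝ) : ℝ :=
  Shp_98.IFw (dd m D.τ) D.W D.π D.κ D.w.θ' x v l

theorem AtAS.ptDat (h : D.OkAS R h₀ δA c₀ K₀ KB g2)
    (hx : D.AtAS A D₀ a T δA h₀ KB κ' q1 tM mM x) (hA : Real.exp ((m:ℝ) - 2) ≤ A)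
    (hD₀ : 0 < D₀) (hκ : 0 ≤ κ') {a' : ℝ} (haa : a ≤ a') (haT : a' ≤ T) :
    Core_809.PtDat (Shp_98.qW : Shp_98.WP n → ℝ) κ' a' T q1 (D.Us x) (D.Es x) (D.Rs x)
      (D.eF g2 x) (D.IF x) (fun _ _ => 0) := by
  have f1 := h.fβ
  have f2 := h.fγ
  have f3 := h.fb₂
  have hm := h.m2
  have hc := hx.ctr h hA hD₀ (haa.trans haT)
  have hU := hc.U_pos haa haT
  have hP : PY (7 * δA) D.W D.π D.κ D.τ D.w x = D.P x := by rw [← h.δe]; rfl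
  have hp : pY (7 * δA) D.W D.π D.κ D.τ D.w x = D.p x := by rw [← h.δe]; rfl
  have hsub : ∀ {l}, l ∈ Icc a' T → l ∈ Icc a T := fun {l} hl => ⟨haa.trans hl.1, hl.2⟩
  have key := Shp_98.ptDat_AS (x := x) (K := D.K) (δ := D.δ) (T := T) (a := a') (q1 := q1)
    (κ' := κ') (tM := tM) (mM := mM) (β := D.β) (γ := D.γ) (b₂ := D.b₂) (Q := D.Q) (w := D.w)
    (by lia) h.cyl h.h0 h.R1 h.δA0 h.τ0 h.prof rfl h.rep h.δ0 h.δδ h.δ1 h.K9 haT hx.hT hκ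
    (by rw [hP]; exact hD₀.trans_le hU) (fun l hl => hx.hB l (hsub hl).1 hl.2) h.bd
    (fun l hl => hx.htM l (hsub hl)) (fun l hl => hx.htb l (hsub hl))
    (fun l hl => hx.hmb l (hsub hl)) (fun v hv l hl => by
      refine (hx.ht _ hv l (hsub hl)).trans ?_
      rw [hP]
      refine mul_le_mul_of_nonneg_left ?_ (mul_nonneg hκ h.δ0.le)
      exact pow_le_pow_left₀ hD₀.le hU 2)
  rw [hP, hp] at key
  exact key

theorem AtAS.cs (h : D.OkAS R h₀ δA c₀ K₀ KB g2)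
    (hx : D.AtAS A D₀ a T δA h₀ KB κ' q1 tM mM x) (hA : Real.exp ((m:ℝ) - 2) ≤ A)
    (hD₀ : 0 < D₀) (hκ : 0 ≤ κ') {v : Shp_98.WP n} (hv : Shp_98.qW v ^ 2 ≤ q1) {l : ℝ}
    (hl : l ∈ Icc a T) :
    D.eF g2 x v l ^ 2 ≤ D.Rs x l * D.IF x v l + κ' * D.Us x l ^ 2 := by
  have f1 := h.fβ
  have f2 := h.fγ
  have f3 := h.fb₂
  have hm := h.m2
  have haT : a ≤ T := hl.1.trans hl.2
  have hc := hx.ctr h hA hD₀ haT
  have hU := hc.U_pos le_rfl haT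
  have hP : PY (7 * δA) D.W D.π D.κ D.τ D.w x = D.P x := by rw [← h.δe]; rfl
  have hp : pY (7 * δA) D.W D.π D.κ D.τ D.w x = D.p x := by rw [← h.δe]; rfl
  have key := Shp_98.cs_AS (x := x) (K := D.K) (δ := D.δ) (T := T) (a := a) (q1 := q1)
    (κ' := κ') (tM := tM) (mM := mM) (β := D.β) (γ := D.γ) (b₂ := D.b₂) (Q := D.Q) (w := D.w)
    (by lia) h.cyl h.h0 h.R1 h.δA0 h.τ0 h.prof rfl h.rep h.δ0 h.δδ h.δ1 h.K9 hx.hT hκ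
    (by rw [hP]; exact hD₀.trans_le hU) h.bd
    hx.htM hx.htb hx.hmb (fun v hv l hl => by
      refine (hx.ht _ hv l hl).trans ?_
      rw [hP]
      refine mul_le_mul_of_nonneg_left ?_ (mul_nonneg hκ h.δ0.le)
      exact pow_le_pow_left₀ hD₀.le hU 2) hv hl
  rw [hP, hp, mul_comm (Shp_98.IFw _ _ _ _ _ _ _ _)] at key
  exact key

end Da

/-- **`Core_809.Fld` in `CylAS`**, wells of helper98, `t = l - L₀`, `e^{L₀} = 2 r₀` -/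
theorem fld_AS {d : ℕ} {D : Da (d + 2) n k} {R h₀ δA c₀ K₀ KB : ℝ} {g2 : ℝ → ℝ}
    (ok : D.OkAS R h₀ δA c₀ K₀ KB g2) {Z : Set (Euc (d + 2))}
    {A D₀ r0 L₀ a0 T κ' q1 : ℝ} {tM mM : ℝ → ℝ}
    (hA : Real.exp d ≤ A) (hD₀ : 0 < D₀) (hr : Real.exp L₀ = 2 * r0) (haT : a0 ≤ T)
    (hκ : 0 ≤ κ')
    (hZ : ∀ x ∈ Z, D.AtAS A D₀ (L₀ + a0 - 1) (L₀ + T) δA h₀ KB κ' q1 tM mM x) :
    Core_809.Fld Z (Shp_98.qW : Shp_98.WP n → ℝ) d κ' a0 T q1 r0 (48 * A)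
      (6 * (K₀ / c₀) * Real.exp (4 * ((d + 2 : ℕ) : ℝ))) A (Da.CK (d + 2) c₀ K₀ + 2 * A)
      (fun x t => D.Us x (L₀ + t)) (fun x t => D.Es x (L₀ + t)) (fun x t => D.Rs x (L₀ + t))
      (fun x t => D.es x (L₀ + t)) (fun x w t => D.eF g2 x w (L₀ + t))
      (fun x w t => D.IF x w (L₀ + t)) (fun _ _ _ => 0) := by
  have hm : (((d + 2 : ℕ) : ℝ) - 2) = d := by push_cast; ring
  refine fld ok.ok hA hD₀ hr haT (fun x hx => (hZ x hx).at' ok) (er := fun _ _ _ => 0)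
    (fun x hx => (hZ x hx).ptDat ok (by rw [hm]; exact hA) hD₀ hκ (by linarith) (by linarith))
    (fun x hx w hw l hl => (hZ x hx).cs ok (by rw [hm]; exact hA) hD₀ hκ hw
      ⟨by linarith [hl.1], hl.2⟩)

end Crest.Agent.R234.Fld_387
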