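import Crest.Agent.R234.N0d_309

/-!
Row 234, node N0 (helper309), tall centres: lower bound of the averaged energy at the points of
`supp ε` at all scales `e^l ≥ 4 (t + 3 τ)`, and the lower bound of the sharp radial energy `Us`.
-/

set_option autoImplicit false

open MeasureTheory Filter Topology Set Metric
open scoped ENNReal NNReal

namespace Crest.Agent.R234.N0_309

open Crest.GeometryTopology.Submanifold
open Crest.Agent.R234.Vf_884 Crest.Agent.R234.Ar_870 Crest.Agent.R234.Cy_870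
open Crest.Agent.R234.Pot_425 Crest.Agent.R234.Rep_387
open Crest.Agent.R234.Raw_387 Crest.Agent.R234.Avg_387
open Crest.Agent.R234.N5_372 (eM bm_apply measurableSet_ov ov)

noncomputable section

variable {m n k : ℕ} {π : Euc k →L[ℝ] Euc m} {κ : Euc k →L[ℝ] Euc n}
  {W : Measure (Euc k × L k)} {g g1 : ℝ → ℝ} {τ : ℝ}

theorem eM_real (h : FF W π κ) {A : Set (Euc m)} (hA : MeasurableSet A) :
    (eM W π).real A = ∫ p in ov π A, tl π p.2 ∂W := by
  have hf : IsFiniteMeasure W := ⟨h.fin⟩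
  unfold eM
  rw [measureReal_def, bm_apply W π _ hA, integral_eq_lintegral_of_nonneg_ae]
  · filter_upwards [ae_restrict_of_ae h.conc] with p hp
    exact tl_nonneg h.sp.hh (isPr_of_G hp)
  · exact ((measurable_tl π).measurable.comp measurable_snd).aestronglyMeasurable

theorem integrable_tl (h : FF W π κ) : Integrable (fun p : Euc k × L k => tl π p.2) W := by
  have hf : IsFiniteMeasure W := ⟨h.fin⟩
  refine Integrable.of_bound ((measurable_tl π).measurable.comp
    measurable_snd).aestronglyMeasurable m ?_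
  filter_upwards [h.conc] with p hp
  rw [Real.norm_eq_abs, abs_of_nonneg (tl_nonneg h.sp.hh (isPr_of_G hp))]
  exact tl_le h.sp.hh (isPr_of_G hp)

theorem eM_ne_top (h : FF W π κ) {A : Set (Euc m)} (hA : MeasurableSet A) : eM W π A ≠ ⊤ := by
  have hf : IsFiniteMeasure W := ⟨h.fin⟩
  unfold eM
  rw [bm_apply W π _ hA]
  exact ((integrable_tl h).integrableOn.lintegral_lt_top).ne

/-- the energy at an ordinary centre from below -/
theorem ee_ge (h : FF W π κ) (hg : Ker g g1) (hg0 : ∀ t, 0 ≤ g t) {c0 : ℝ}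
    (hgc : ∀ t, 0 ≤ t → t ≤ 1 / 12 → c0 ≤ g t) {y : Euc m} {l : ℝ} {A : Set (Euc m)}
    (hA : MeasurableSet A) (hAy : ∀ z ∈ A, ‖z - y‖ ≤ Real.exp l / 4) :
    Real.exp ((2 - m) * l) * (c0 * (eM W π).real A) ≤ ee W π y g l := by
  unfold ee
  refine mul_le_mul_of_nonneg_left ?_ (Real.exp_pos _).le
  rw [eM_real h hA, ← integral_const_mul]
  have i2 : Integrable (fun p : Euc k × L k =>
      tl π p.2 * g (Real.exp (-2 * l) * ‖π p.1 - y‖ ^ 2)) W :=
    (h.fr y (l + 1)).integrable_c (aestronglyMeasurable_tl π W) (h.fr y (l + 1)).tl_bound hg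
      (by linarith : l ≤ l + 1)
  have h0 : 0 ≤ᵐ[W] fun p : Euc k × L k =>
      tl π p.2 * g (Real.exp (-2 * l) * ‖π p.1 - y‖ ^ 2) := by
    filter_upwards [h.conc] with p hp
    exact mul_nonneg (tl_nonneg h.sp.hh (isPr_of_G hp)) (hg0 _)
  refine le_trans ?_ (setIntegral_le_integral (s := ov π A) i2 h0)
  refine integral_mono_ae ((integrable_tl h).integrableOn.const_mul c0) i2.integrableOn ?_
  filter_upwards [ae_restrict_of_ae h.conc, ae_restrict_mem (measurableSet_ov hA)] with p hp hpA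
  have h1 := hAy _ hpA
  have h2 : Real.exp (-2 * l) * ‖π p.1 - y‖ ^ 2 ≤ 1 / 12 := by
    have h3 : ‖π p.1 - y‖ ^ 2 ≤ (Real.exp l / 4) ^ 2 := pow_le_pow_left₀ (norm_nonneg _) h1 2
    have h4 : Real.exp (-2 * l) * (Real.exp l / 4) ^ 2 = 1 / 16 := by
      have h5 : Real.exp (-2 * l) * Real.exp l ^ 2 = 1 := by
        rw [← Real.exp_nat_mul, ← Real.exp_add]
        norm_num
      calc Real.exp (-2 * l) * (Real.exp l / 4) ^ 2 =
          (Real.exp (-2 * l) * Real.exp l ^ 2) / 16 := by ring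
        _ = 1 / 16 := by rw [h5]
    calc Real.exp (-2 * l) * ‖π p.1 - y‖ ^ 2 ≤ Real.exp (-2 * l) * (Real.exp l / 4) ^ 2 :=
          mul_le_mul_of_nonneg_left h3 (Real.exp_pos _).le
      _ ≤ 1 / 12 := by rw [h4]; norm_num
  have h3 := hgc _ (by positivity) h2
  have h4 := tl_nonneg h.sp.hh (isPr_of_G hp)
  nlinarith

/-- the averaged energy from below -/
theorem eea_ge (h : FF W π κ) (hτ : 0 < τ) (hg : Ker g g1) (hg0 : ∀ t, 0 ≤ g t) {c0 : ℝ}
    (hgc : ∀ t, 0 ≤ t → t ≤ 1 / 12 → c0 ≤ g t) {x : Euc m} {l r : ℝ}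
    (hr : r + τ ≤ Real.exp l / 4) :
    Real.exp ((2 - m) * l) * (c0 * (eM W π).real (closedBall x r)) * Md m ≤
      eea (dd m τ) W π g x l := by
  set C := Real.exp ((2 - m) * l) * (c0 * (eM W π).real (closedBall x r)) with hC
  have h1 : av (dd m τ) (fun _ _ => C) x l = C * Md m := by
    unfold av
    rw [← integral_dd (m := m) hτ, ← integral_const_mul]
    refine integral_congr_ae (Eventually.of_forall fun h => ?_)
    simp only
    ring
  rw [← h1]
  unfold eea
  have cE : CO x τ (l + 1) (fun y l => ee W π y g l) := CO_of_cont (cont2_ee' h hg) x τ (l + 1)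
  refine av_mono (cw_dd hτ) (CO_const (x := x) (τ := τ) (L₀ := l + 1) (fun _ => C)
    continuous_const) cE (by linarith : l < l + 1) fun y hy => ?_
  refine ee_ge h hg hg0 hgc measurableSet_closedBall fun z hz => ?_
  rw [mem_closedBall, dist_eq_norm] at hy hz
  have h2 : ‖z - y‖ ≤ ‖z - x‖ + ‖x - y‖ := norm_sub_le_norm_sub_add_norm_sub _ _ _
  rw [norm_sub_rev x y] at h2
  linarith

variable {Dd : VarifoldData m k} {W₀ : Set (Euc k)} {Q h t lam bl c M : ℝ}

/-- **tall centres**: averaged energy at the contact points -/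
theorem Out.eea_ge {S : Sheets Dd π} {ε : Measure (XB (Euc m) τ)}
    (hO : Out S W₀ Q τ h t lam bl c M ε)
    (hF : FF ((VD Dd).restrict (W₀ ×ˢ univ)) π κ) (hτ : 0 < τ) (hh : 0 < h) (hlam : 0 ≤ lam)
    (hg : Ker g g1) (hg0 : ∀ t, 0 ≤ g t) {c0 : ℝ} (hc0 : 0 ≤ c0)
    (hgc : ∀ t, 0 ≤ t → t ≤ 1 / 12 → c0 ≤ g t) {x : XB (Euc m) τ} (hx : x ∈ ε.support)
    {l : ℝ} (hl : t + 3 * τ ≤ Real.exp l / 4) :
    Real.exp ((2 - m) * l) * (c0 * (lam * h ^ m)) * Md m ≤
      eea (dd m τ) ((VD Dd).restrict (W₀ ×ˢ univ)) π g (x : Euc m) l := by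
  obtain ⟨s, hs, hes⟩ := hO.tl x hx
  have h1 := N0_309.eea_ge hF hτ hg hg0 hgc (x := (x : Euc m)) (l := l) (r := s + 2 * τ)
    (by linarith [hs.2])
  refine le_trans ?_ h1
  have hMd : 0 ≤ Md m := by
    unfold Md
    exact integral_nonneg fun v => d1_nonneg v
  refine mul_le_mul_of_nonneg_right (mul_le_mul_of_nonneg_left (mul_le_mul_of_nonneg_left ?_ hc0)
    (Real.exp_pos _).le) hMd
  have h2 : lam * s ^ m ≤ (eM ((VD Dd).restrict (W₀ ×ˢ univ)) π).real
      (closedBall (x : Euc m) (s + 2 * τ)) :=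
    (ENNReal.ofReal_le_iff_le_toReal (eM_ne_top hF measurableSet_closedBall)).1 hes
  refine le_trans (mul_le_mul_of_nonneg_left (pow_le_pow_left₀ hh.le hs.1 m) hlam) h2

end

end Crest.Agent.R234.N0_309
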