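import Crest.Agent.R234.Shp3_98
import Crest.Agent.R234.Raw2_387
import Crest.Agent.R234.Avg6_387

/-!
# Row 234 (helper98): `PY (T)` is tiny

`PY δ (l) ≤ 2 δ h₀² e^{2l} M (Kg Md + (m-1)/2 (∫ψ) m (1+m/2) L^m)` if the masses of the solid
cylinders of radii `r ∈ [r₁, r₂]` are at most `M r^m`, `r₁ ≤ L τ ≤ r₂`, `r₁ ≤ e^l ≤ r₂`, `L ≥ 2`.
-/

set_option autoImplicit false

open MeasureTheory Set Function Filter Topology Metric
open Crest.GeometryTopology.Submanifold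
open Crest.Agent.R234.Vf_884 Crest.Agent.R234.Ar_870 Crest.Agent.R234.Cy_870
open Crest.Agent.R234.Pot_425 Crest.Agent.R234.Avg_387 Crest.Agent.R234.Rep_387
open Crest.Agent.R234.Raw_387
open scoped ENNReal NNReal InnerProductSpace

noncomputable section

namespace Crest.Agent.R234.Shp3_98

variable {m n k : ℕ} {π : Euc k →L[ℝ] Euc m} {κ : Euc k →L[ℝ] Euc n} {δ : ℝ}
  {x : Euc m} {h₀ τ C : ℝ} {W : Measure (Euc k × L k)} {c : Euc k × L k → ℝ} {w : Wt}
  {g g1 g2 : ℝ → ℝ}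

theorem measurableSet_solid (π : Euc k →L[ℝ] Euc m) (y : Euc m) (r : ℝ) :
    MeasurableSet {p : Euc k × L k | ‖π p.1 - y‖ < r} :=
  (isOpen_lt ((π.continuous.comp continuous_fst).sub continuous_const).norm
    continuous_const).measurableSet

/-- a kernel integral is at most `coefficient bound * mass` -/
theorem kk_le_mass (h : FF W π κ) (hc : Cf W c C) (hC : 0 ≤ C) (hg : Prof g g1 g2) {Kg : ℝ}
    (hKg : ∀ t, 0 ≤ t → g t ≤ Kg) (y : Euc m) {l M : ℝ}
    (hM : W.real {p | ‖π p.1 - y‖ < Real.exp l} ≤ M * Real.exp l ^ m) :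
    kk W π c g y l ≤ C * Kg * M * Real.exp (2 * l) := by
  have : IsFiniteMeasure W := ⟨h.fin⟩
  have hKg0 : 0 ≤ Kg := (Prof.nonneg hg 0 le_rfl).trans (hKg 0 le_rfl)
  have hS := measurableSet_solid (k := k) π y (Real.exp l)
  unfold kk
  have i1 : Integrable (fun p : Euc k × L k => c p *
      g (Real.exp (-2 * l) * ‖π p.1 - y‖ ^ 2)) W :=
    (h.fr y (l + 1)).integrable_c hc.meas.aestronglyMeasurable hc.bd hg.k0
      (by linarith : l ≤ l + 1)
  have h1 : ∫ p, c p * g (Real.exp (-2 * l) * ‖π p.1 - y‖ ^ 2) ∂W ≤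
      ∫ p, {p : Euc k × L k | ‖π p.1 - y‖ < Real.exp l}.indicator (fun _ => C * Kg) p ∂W := by
    refine integral_mono_ae i1 ((integrable_const _).indicator hS) ?_
    filter_upwards [hc.le] with p hp
    by_cases hy : p ∈ {p : Euc k × L k | ‖π p.1 - y‖ < Real.exp l}
    · rw [indicator_of_mem hy]
      exact mul_le_mul hp (hKg _ (by positivity)) (Prof.nonneg hg _ (by positivity)) hC
    · rw [indicator_of_notMem hy]
      have h2 : Real.exp l ≤ ‖π p.1 - y‖ := not_lt.1 hy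
      rw [hg.k0.zero _ (Ker.one_le_of y h2), mul_zero]
  rw [integral_indicator_const _ hS, smul_eq_mul] at h1
  have h3 := mul_le_mul_of_nonneg_right hM (mul_nonneg hC hKg0)
  have h4 := mul_le_mul_of_nonneg_left (h1.trans h3) (Real.exp_pos ((2 - m) * l)).le
  refine h4.trans (le_of_eq ?_)
  have h5 : Real.exp ((2 - m) * l) * Real.exp l ^ m = Real.exp (2 * l) := by
    rw [← Real.exp_nat_mul, ← Real.exp_add]; congr 1; ring
  rw [← h5]
  ring

/-- masses of `cm` -/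
theorem cm_le_mass (h : FF W π κ) (hc : Cf W c C) (hC : 0 ≤ C) {z : Euc m} {r r' M : ℝ}
    (hr : r < r') (hM : W.real {p | ‖π p.1 - z‖ < r'} ≤ M) :
    (cm τ W π c).real {y : XB (Euc m) τ | ‖z - (y : Euc m)‖ ≤ r} ≤ C * M := by
  have : IsFiniteMeasure W := ⟨h.fin⟩
  have hS : MeasurableSet {y : Euc m | ‖z - y‖ ≤ r} :=
    (isClosed_le (by fun_prop) continuous_const).measurableSet
  have h1 : cm τ W π c {y : XB (Euc m) τ | ‖z - (y : Euc m)‖ ≤ r} ≤
      ENNReal.ofReal C * W {p | ‖π p.1 - z‖ < r'} := by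
    have e1 : cm τ W π c {y : XB (Euc m) τ | (y : Euc m) ∈ {y : Euc m | ‖z - y‖ ≤ r}} =
        ((W.withDensity fun p => ENNReal.ofReal (c p)).map fun p => π p.1)
          ({y : Euc m | ‖z - y‖ ≤ r} ∩ closedBall (0 : Euc m) (1 - τ)) := toXB_apply _ _
    have e2 : cm τ W π c {y : XB (Euc m) τ | ‖z - (y : Euc m)‖ ≤ r} =
        cm τ W π c {y : XB (Euc m) τ | (y : Euc m) ∈ {y : Euc m | ‖z - y‖ ≤ r}} := rfl
    rw [e2, e1]
    refine (measure_mono inter_subset_left).trans ?_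
    rw [Measure.map_apply (measurable_base π) hS, withDensity_apply _ (measurable_base π hS)]
    have h2 : ∫⁻ p in (fun p : Euc k × L k => π p.1) ⁻¹' {y : Euc m | ‖z - y‖ ≤ r},
        ENNReal.ofReal (c p) ∂W ≤
        ∫⁻ _ in (fun p : Euc k × L k => π p.1) ⁻¹' {y : Euc m | ‖z - y‖ ≤ r},
          ENNReal.ofReal C ∂W := by
      refine lintegral_mono_ae ?_
      filter_upwards [ae_restrict_of_ae hc.le] with p hp
      exact ENNReal.ofReal_le_ofReal hp
    refine h2.trans ?_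
    rw [setLIntegral_const]
    refine mul_le_mul_right (measure_mono fun p hp => ?_) _
    have hp' : ‖z - π p.1‖ ≤ r := hp
    rw [norm_sub_rev] at hp'
    exact lt_of_le_of_lt hp' hr
  have h3 : (cm τ W π c).real {y : XB (Euc m) τ | ‖z - (y : Euc m)‖ ≤ r} ≤
      (ENNReal.ofReal C * W {p | ‖π p.1 - z‖ < r'}).toReal :=
    ENNReal.toReal_mono (ENNReal.mul_ne_top ENNReal.ofReal_ne_top (measure_ne_top _ _)) h1
  rw [ENNReal.toReal_mul, ENNReal.toReal_ofReal hC] at h3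
  exact h3.trans (mul_le_mul_of_nonneg_left hM hC)

/-- **`PY` at large scales** -/
theorem PY_le (hm : 1 ≤ m) (h : FF W π κ) (hh : ∀ᵐ p ∂W, ‖κ p.1‖ ≤ h₀) (hτ : 0 < τ)
    (hg : Prof w.θ w.θ' g2) {Kg : ℝ} (hKg : ∀ t, 0 ≤ t → w.θ t ≤ Kg) (hδ : 0 ≤ δ)
    {l M A r₁ r₂ : ℝ} (hA : 2 ≤ A) (h1l : r₁ ≤ Real.exp l) (hl2 : Real.exp l ≤ r₂)
    (h1A : r₁ ≤ A * τ) (hA2 : A * τ ≤ r₂)
    (hM : ∀ y, ‖y - x‖ ≤ Real.exp l + τ → ∀ r, r₁ ≤ r → r ≤ r₂ →
      W.real {p | ‖π p.1 - y‖ < r} ≤ M * r ^ m) :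
    PY δ W π κ τ w x l ≤ 2 * δ * (h₀ ^ 2 * M * Real.exp (2 * l) *
      (Kg * Md m + (m - 1) / 2 * ((∫ y : Euc m, w.psi y) * (m * (1 + m / 2) * A ^ m)))) := by
  have hd := cw_dd (m := m) hτ
  have hcy := cf_yc (W := W) (κ := κ) hh
  have hfin := finite_cm (τ := τ) h hcy
  have hC : 0 ≤ h₀ ^ 2 := sq_nonneg _
  have hm1 : (1:ℝ) ≤ m := by exact_mod_cast hm
  -- first part
  have a1 : av (dd m τ) (fun y l => kk W π (yc κ) w.θ y l) x l ≤
      h₀ ^ 2 * Kg * M * Real.exp (2 * l) * Md m := by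
    have hco : CO x τ (l + 1) (fun y l => kk W π (yc κ) w.θ y l) :=
      CO_of_cont (cont2_kk h hcy hg.k0) x τ (l + 1)
    have h1 := av_le_of_le hd hco (by linarith : l < l + 1)
      (C := h₀ ^ 2 * Kg * M * Real.exp (2 * l)) fun y hy => by
        have hyx : ‖y - x‖ ≤ τ := by rwa [mem_closedBall_iff_norm] at hy
        exact kk_le_mass h hcy hC hg hKg y (hM y (by linarith [Real.exp_pos l]) _ h1l hl2)
    rwa [integral_dd hτ] at h1
  -- second part
  have a2 : SS m τ w (cm τ W π (yc κ)) x (Real.exp l) ≤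
      Real.exp l ^ 2 / 2 * ((∫ y : Euc m, w.psi y) *
        (m * (1 + m / 2) * (h₀ ^ 2 * M * A ^ m))) := by
    refine SS_le hτ w _ (Real.exp_pos l).le fun z hz => ?_
    have h1 := cm_le_mass (τ := τ) h hcy hC (z := z) (r := τ) (r' := A * τ) (by nlinarith)
      (hM z (by linarith) _ h1A hA2)
    refine h1.trans (le_of_eq ?_)
    rw [mul_pow]
    ring
  unfold PY
  refine mul_le_mul_of_nonneg_left ?_ (by positivity)
  have a3 := mul_le_mul_of_nonneg_left a2 (by linarith : 0 ≤ (m:ℝ) - 1)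
  have e2 : Real.exp (2 * l) = Real.exp l ^ 2 := by
    rw [← Real.exp_nat_mul]; norm_num
  rw [e2] at a1 ⊢
  refine (add_le_add a1 a3).trans (le_of_eq ?_)
  ring

end Crest.Agent.R234.Shp3_98
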