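import Mathlib

/-!
# R234 / Par_504 : the numbers of the contact situation (decision D7)

`X α β Λ = exp (α Λ + β log Λ)` (`= D^(-α) Λ^β` for `D = exp (-Λ)`).  Every number of the core is a
constant times an `X`; `ev_le` compares two of them for large `Λ`.
-/

set_option autoImplicit false

namespace Crest.Agent.R234.Par_504

open Filter Real

noncomputable section

/-- `X α β Λ = exp (α Λ + β log Λ)` -/
def X (α β Λ : ℝ) : ℝ := Real.exp (α * Λ + β * Real.log Λ)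

variable {α β α' β' Λ : ℝ}

theorem X_pos (α β Λ : ℝ) : 0 < X α β Λ := Real.exp_pos _

theorem X_nonneg (α β Λ : ℝ) : 0 ≤ X α β Λ := (Real.exp_pos _).le

theorem X_ne (α β Λ : ℝ) : X α β Λ ≠ 0 := (X_pos α β Λ).ne'

theorem X_zero (Λ : ℝ) : X 0 0 Λ = 1 := by simp [X]

theorem X_mul (α β α' β' Λ : ℝ) : X α β Λ * X α' β' Λ = X (α + α') (β + β') Λ := by
  unfold X
  rw [← Real.exp_add]
  congr 1
  ring

theorem X_inv (α β Λ : ℝ) : (X α β Λ)⁻¹ = X (-α) (-β) Λ := by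
  unfold X
  rw [← Real.exp_neg]
  congr 1
  ring

theorem X_div (α β α' β' Λ : ℝ) : X α β Λ / X α' β' Λ = X (α - α') (β - β') Λ := by
  rw [div_eq_mul_inv, X_inv, X_mul, sub_eq_add_neg, sub_eq_add_neg]

theorem X_pow (α β Λ : ℝ) (n : ℕ) : X α β Λ ^ n = X (n * α) (n * β) Λ := by
  unfold X
  rw [← Real.exp_nat_mul]
  congr 1
  ring

theorem X_rpow (α β Λ p : ℝ) : X α β Λ ^ p = X (p * α) (p * β) Λ := by
  unfold X
  rw [← Real.exp_mul]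
  congr 1
  ring

theorem X_sqrt (α β Λ : ℝ) : √(X α β Λ) = X (α / 2) (β / 2) Λ := by
  rw [Real.sqrt_eq_rpow, X_rpow]
  congr 1 <;> ring

theorem log_X (α β Λ : ℝ) : Real.log (X α β Λ) = α * Λ + β * Real.log Λ := Real.log_exp _

/-- `Λ ^ β` -/
theorem rpow_eq_X (hΛ : 0 < Λ) (β : ℝ) : Λ ^ β = X 0 β Λ := by
  unfold X
  rw [Real.rpow_def_of_pos hΛ]
  congr 1
  ring

theorem self_eq_X (hΛ : 0 < Λ) : Λ = X 0 1 Λ := by
  rw [← rpow_eq_X hΛ, Real.rpow_one]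

theorem exp_eq_X (α Λ : ℝ) : Real.exp (α * Λ) = X α 0 Λ := by
  unfold X
  congr 1
  ring

/-- `D = X (-1) 0 Λ` for `Λ = log (1 / D)` -/
theorem D_eq_X {D : ℝ} (hD : 0 < D) : D = X (-1) 0 (Real.log (1 / D)) := by
  unfold X
  rw [one_div, Real.log_inv]
  have : -1 * -Real.log D + 0 * Real.log (-Real.log D) = Real.log D := by ring
  rw [this, Real.exp_log hD]

theorem sqrt_D_eq_X {D : ℝ} (hD : 0 < D) : √D = X (-1 / 2) 0 (Real.log (1 / D)) := by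
  conv_lhs => rw [D_eq_X hD]
  rw [X_sqrt]
  congr 1
  ring

/-- `Λ = log (1 / D) ≥ Λ0` for `0 < D ≤ exp (-Λ0)` -/
theorem le_log_of_le {D Λ0 : ℝ} (hD : 0 < D) (h : D ≤ Real.exp (-Λ0)) :
    Λ0 ≤ Real.log (1 / D) := by
  rw [one_div, Real.log_inv]
  have := Real.log_le_log hD h
  rw [Real.log_exp] at this
  linarith

/-- comparison of the exponents -/
def Lt (α β α' β' : ℝ) : Prop := α < α' ∨ (α = α' ∧ β < β')

theorem ev_lin {α β : ℝ} (γ : ℝ) (h : Lt 0 0 α β) :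
    ∀ᶠ Λ : ℝ in atTop, γ ≤ α * Λ + β * Real.log Λ := by
  rcases h with h | ⟨h, hβ⟩
  · have h1 : Tendsto (fun Λ : ℝ => α * Λ + β * Real.log Λ) atTop atTop := by
      have h2 : Tendsto (fun Λ : ℝ => Λ * (α + β * (Real.log Λ / Λ))) atTop atTop := by
        have h3 : Tendsto (fun Λ : ℝ => α + β * (Real.log Λ / Λ)) atTop (nhds (α + β * 0)) := by
          refine tendsto_const_nhds.add (tendsto_const_nhds.mul ?_)
          have := Real.isLittleO_log_id_atTop.tendsto_div_nhds_zero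
          exact this
        rw [mul_zero, add_zero] at h3
        exact tendsto_id.atTop_mul_pos h h3
      refine h2.congr' ?_
      filter_upwards [eventually_gt_atTop (0 : ℝ)] with Λ hΛ
      field_simp
    exact h1.eventually_ge_atTop γ
  · subst h
    have h1 : Tendsto (fun Λ : ℝ => 0 * Λ + β * Real.log Λ) atTop atTop := by
      simp only [zero_mul, zero_add]
      exact Real.tendsto_log_atTop.const_mul_atTop hβ
    exact h1.eventually_ge_atTop γ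

/-- **comparison of two numbers for large `Λ`** -/
theorem ev_le {α β α' β' : ℝ} (C : ℝ) (h : Lt α β α' β') :
    ∀ᶠ Λ : ℝ in atTop, C * X α β Λ ≤ X α' β' Λ := by
  have h0 : Lt 0 0 (α' - α) (β' - β) := by
    rcases h with h | ⟨h1, h2⟩
    · exact Or.inl (by linarith)
    · exact Or.inr ⟨by linarith, by linarith⟩
  filter_upwards [ev_lin (Real.log (max C 1)) h0] with Λ h1
  have h2 : max C 1 ≤ X (α' - α) (β' - β) Λ := by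
    unfold X
    rw [← Real.log_le_iff_le_exp (lt_of_lt_of_le one_pos (le_max_right _ _))]
    exact h1
  calc C * X α β Λ ≤ X (α' - α) (β' - β) Λ * X α β Λ :=
        mul_le_mul_of_nonneg_right ((le_max_left _ _).trans h2) (X_nonneg _ _ _)
    _ = X α' β' Λ := by rw [X_mul]; congr 1 <;> ring

theorem ev_le' {α β α' β' : ℝ} {c : ℝ} (C : ℝ) (hc : 0 < c) (h : Lt α β α' β') :
    ∀ᶠ Λ : ℝ in atTop, C * X α β Λ ≤ c * X α' β' Λ := by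
  filter_upwards [ev_le (C / c) h] with Λ h1
  have h2 := mul_le_mul_of_nonneg_left h1 hc.le
  have h3 : c * (C / c * X α β Λ) = C * X α β Λ := by field_simp
  linarith

/-- a constant is small against a large number -/
theorem ev_const {α β : ℝ} (C : ℝ) (h : Lt 0 0 α β) : ∀ᶠ Λ : ℝ in atTop, C ≤ X α β Λ := by
  have := ev_le C h
  simpa [X_zero] using this

/-- a small number is below a constant -/
theorem ev_small {α β : ℝ} {c : ℝ} (C : ℝ) (hc : 0 < c) (h : Lt α β 0 0) :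
    ∀ᶠ Λ : ℝ in atTop, C * X α β Λ ≤ c := by
  have := ev_le' C hc h
  simpa [X_zero] using this

/-- the form `∃ Λ0` -/
theorem ev_iff {p : ℝ → Prop} : (∀ᶠ Λ : ℝ in atTop, p Λ) ↔ ∃ Λ0, ∀ Λ ≥ Λ0, p Λ :=
  eventually_atTop

/-! ### the numbers of D7 -/

/-- `a = Cs + 1` -/
def pa (Cs : ℝ) : ℝ := Cs + 1

/-- `A = (2 m + 6) (a + 1)` -/
def pA (m : ℕ) (Cs : ℝ) : ℝ := (2 * m + 6) * (pa Cs + 1)

/-- heights `√D` -/
def h0 (Λ : ℝ) : ℝ := X (-1 / 2) 0 Λ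
/-- `h = √D Λ^-a` -/
def hh (Cs Λ : ℝ) : ℝ := X (-1 / 2) (-pa Cs) Λ
/-- `t = √D Λ^a` -/
def ht (Cs Λ : ℝ) : ℝ := X (-1 / 2) (pa Cs) Λ
/-- `τ = h / 4` -/
def tau (Cs Λ : ℝ) : ℝ := hh Cs Λ / 4
/-- `bl = Λ^-a` -/
def bl (Cs Λ : ℝ) : ℝ := X 0 (-pa Cs) Λ
/-- bottom of the window `s0 = √D Λ^A` -/
def s0 (m : ℕ) (Cs Λ : ℝ) : ℝ := X (-1 / 2) (pA m Cs) Λ
/-- top of the window `Λ^-A` -/
def s1 (m : ℕ) (Cs Λ : ℝ) : ℝ := X 0 (-pA m Cs) Λ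
/-- `L0 = log s0` -/
def L0 (m : ℕ) (Cs Λ : ℝ) : ℝ := -1 / 2 * Λ + pA m Cs * Real.log Λ
/-- length of the window -/
def Tw (m : ℕ) (Cs Λ : ℝ) : ℝ := 1 / 2 * Λ - 2 * pA m Cs * Real.log Λ
/-- `D_- / c = D Λ^-(2m+3)a` -/
def Dm (m : ℕ) (Cs Λ : ℝ) : ℝ := X (-1) (-((2 * m + 3) * pa Cs)) Λ

theorem exp_L0 (m : ℕ) (Cs Λ : ℝ) : Real.exp (L0 m Cs Λ) = s0 m Cs Λ := rfl

theorem exp_L0_Tw (m : ℕ) (Cs Λ : ℝ) : Real.exp (L0 m Cs Λ + Tw m Cs Λ) = s1 m Cs Λ := by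
  unfold L0 Tw s1 X
  congr 1
  ring

theorem pa_pos {Cs : ℝ} (h : 0 ≤ Cs) : 1 ≤ pa Cs := by unfold pa; linarith

theorem pA_ge {m : ℕ} {Cs : ℝ} (h : 0 ≤ Cs) : 12 ≤ pA m Cs := by
  have h1 := pa_pos h
  have h2 : (0 : ℝ) ≤ m := Nat.cast_nonneg m
  unfold pA
  nlinarith

theorem pA_gt {m : ℕ} {Cs : ℝ} (h : 0 ≤ Cs) :
    (2 * m + 3) * pa Cs + (pa Cs + 1) / 2 + 3 ≤ 2 * pA m Cs - 2 := by
  have h1 := pa_pos h
  have h2 : (0 : ℝ) ≤ m := Nat.cast_nonneg m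
  unfold pA
  nlinarith

/-- the window is long -/
theorem ev_Tw (m : ℕ) (Cs : ℝ) : ∀ᶠ Λ : ℝ in atTop, Λ / 4 ≤ Tw m Cs Λ := by
  filter_upwards [ev_lin (α := 1 / 4) (β := -(2 * pA m Cs)) 0 (Or.inl (by norm_num))] with Λ h
  unfold Tw
  linarith

/-- order of the scales: `h ≤ t`, `C t ≤ s0`, `C s0 ≤ s1`, `C s1 ≤ bl`. -/
theorem ev_scales (m : ℕ) {Cs : ℝ} (hCs : 0 ≤ Cs) (C : ℝ) : ∀ᶠ Λ : ℝ in atTop,
    C * hh Cs Λ ≤ ht Cs Λ ∧ C * ht Cs Λ ≤ s0 m Cs Λ ∧ C * s0 m Cs Λ ≤ s1 m Cs Λ ∧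
      C * s1 m Cs Λ ≤ bl Cs Λ ∧ C * bl Cs Λ ≤ 1 ∧ C * h0 Λ ≤ s0 m Cs Λ ∧
      C * hh Cs Λ ≤ h0 Λ ∧ C * h0 Λ ≤ ht Cs Λ ∧ C * ht Cs Λ ≤ s1 m Cs Λ := by
  have h1 := pa_pos hCs
  have h2 := pA_ge (m := m) hCs
  have h3 := pA_gt (m := m) hCs
  have h4 : (0 : ℝ) ≤ m := Nat.cast_nonneg m
  have h5 : pa Cs < pA m Cs := by
    unfold pA
    nlinarith
  filter_upwards [ev_le C (show Lt (-1 / 2) (-pa Cs) (-1 / 2) (pa Cs) from
      Or.inr ⟨rfl, by linarith⟩),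
    ev_le C (show Lt (-1 / 2) (pa Cs) (-1 / 2) (pA m Cs) from Or.inr ⟨rfl, h5⟩),
    ev_le C (show Lt (-1 / 2) (pA m Cs) 0 (-pA m Cs) from Or.inl (by norm_num)),
    ev_le C (show Lt 0 (-pA m Cs) 0 (-pa Cs) from Or.inr ⟨rfl, by linarith⟩),
    ev_small C one_pos (show Lt 0 (-pa Cs) 0 0 from Or.inr ⟨rfl, by linarith⟩),
    ev_le C (show Lt (-1 / 2) 0 (-1 / 2) (pA m Cs) from Or.inr ⟨rfl, by linarith⟩),
    ev_le C (show Lt (-1 / 2) (-pa Cs) (-1 / 2) 0 from Or.inr ⟨rfl, by linarith⟩),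
    ev_le C (show Lt (-1 / 2) 0 (-1 / 2) (pa Cs) from Or.inr ⟨rfl, by linarith⟩),
    ev_le C (show Lt (-1 / 2) (pa Cs) 0 (-pA m Cs) from Or.inl (by norm_num))]
    with Λ e1 e2 e3 e4 e5 e6 e7 e8 e9
  exact ⟨e1, e2, e3, e4, e5, e6, e7, e8, e9⟩

/-- the tall lower bound: `t^(2-m) lam h^m = D Λ^-(2m+2)a`, as an identity (`lam = cS Λ^(-4a)`). -/
theorem tall_eq {m : ℕ} (Cs cS Λ : ℝ) :
    (ht Cs Λ) ^ ((2 : ℝ) - m) * (cS * X 0 (-4 * pa Cs) Λ * hh Cs Λ ^ m) =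
      cS * X (-1) (-((2 * m + 2) * pa Cs)) Λ := by
  unfold ht hh
  rw [X_rpow, X_pow, mul_assoc, X_mul, ← mul_assoc, mul_comm _ cS, mul_assoc, X_mul]
  congr 2 <;> ring

/-- `Λ^-a D Λ^-(2m+2)a = D_-` -/
theorem Dm_eq (m : ℕ) (Cs Λ : ℝ) :
    X 0 (-pa Cs) Λ * X (-1) (-((2 * m + 2) * pa Cs)) Λ = Dm m Cs Λ := by
  unfold Dm
  rw [X_mul]
  congr 1 <;> ring

/-- the errors of (W3): `q1 / s0² · D ≤ c Λ^(-(a+1)/2 - 1) D_-`. -/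
theorem ev_w3 (m : ℕ) {Cs : ℝ} (hCs : 0 ≤ Cs) (C : ℝ) {c : ℝ} (hc : 0 < c) :
    ∀ᶠ Λ : ℝ in atTop,
      C * (X (-1) 2 Λ / s0 m Cs Λ ^ 2 * X (-1) 0 Λ) ≤
        c * (X 0 (-((pa Cs + 1) / 2)) Λ * Dm m Cs Λ) := by
  have h3 := pA_gt (m := m) hCs
  have e : ∀ Λ, X (-1) 2 Λ / s0 m Cs Λ ^ 2 * X (-1) 0 Λ = X (-1) (2 - 2 * pA m Cs) Λ := by
    intro Λ
    unfold s0
    rw [X_pow, X_div, X_mul]
    congr 1 <;> push_cast <;> ring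
  have e' : ∀ Λ, X 0 (-((pa Cs + 1) / 2)) Λ * Dm m Cs Λ =
      X (-1) (-((pa Cs + 1) / 2) - (2 * m + 3) * pa Cs) Λ := by
    intro Λ
    unfold Dm
    rw [X_mul]
    congr 1 <;> ring
  simp only [e, e']
  exact ev_le' C hc (Or.inr ⟨rfl, by linarith⟩)

/-- the top of the window: `D s1² ≤ c D_-`. -/
theorem ev_top (m : ℕ) {Cs : ℝ} (hCs : 0 ≤ Cs) (C : ℝ) {c : ℝ} (hc : 0 < c) :
    ∀ᶠ Λ : ℝ in atTop, C * (X (-1) 0 Λ * s1 m Cs Λ ^ 2) ≤ c * Dm m Cs Λ := by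
  have h3 := pA_gt (m := m) hCs
  have h1 := pa_pos hCs
  have e : ∀ Λ, X (-1) 0 Λ * s1 m Cs Λ ^ 2 = X (-1) (-(2 * pA m Cs)) Λ := by
    intro Λ
    unfold s1
    rw [X_pow, X_mul]
    congr 1 <;> push_cast <;> ring
  simp only [e]
  exact ev_le' C hc (Or.inr ⟨rfl, by linarith⟩)

/-- `D ≤ c s0²`: the energy is small against `s²` on the window -/
theorem ev_lambda (m : ℕ) {Cs : ℝ} (hCs : 0 ≤ Cs) (C : ℝ) {c : ℝ} (hc : 0 < c) :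
    ∀ᶠ Λ : ℝ in atTop, C * X (-1) 0 Λ ≤ c * s0 m Cs Λ ^ 2 := by
  have h1 := pA_ge (m := m) hCs
  have e : ∀ Λ, s0 m Cs Λ ^ 2 = X (-1) (2 * pA m Cs) Λ := by
    intro Λ
    unfold s0
    rw [X_pow]
    congr 1 <;> push_cast <;> ring
  simp only [e]
  exact ev_le' C hc (Or.inr ⟨rfl, by linarith⟩)

/-- `D_- ≤ D`, `M² (C D) T ≤ q1 = Λ² D`. -/
theorem ev_q1 (m : ℕ) (Cs : ℝ) (C : ℝ) : ∀ᶠ Λ : ℝ in atTop,
    C * X (-1) 0 Λ * Tw m Cs Λ ≤ X (-1) 2 Λ := by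
  filter_upwards [ev_le (|C| * (1 / 2 + |2 * pA m Cs|)) (show Lt (-1) 1 (-1) 2 from
    Or.inr ⟨rfl, by norm_num⟩), eventually_ge_atTop (1 : ℝ)] with Λ h1 hΛ
  have hΛ0 : 0 < Λ := by linarith
  have hl0 : 0 ≤ Real.log Λ := Real.log_nonneg hΛ
  have hl1 : Real.log Λ ≤ Λ := (Real.log_le_sub_one_of_pos hΛ0).trans (by linarith)
  have h2 : |Tw m Cs Λ| ≤ (1 / 2 + |2 * pA m Cs|) * Λ := by
    unfold Tw
    calc |1 / 2 * Λ - 2 * pA m Cs * Real.log Λ|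
        ≤ |1 / 2 * Λ| + |2 * pA m Cs * Real.log Λ| := abs_sub _ _
      _ ≤ 1 / 2 * Λ + |2 * pA m Cs| * Λ := by
        rw [abs_of_nonneg (by positivity : 0 ≤ 1 / 2 * Λ), abs_mul (2 * pA m Cs),
          abs_of_nonneg hl0]
        gcongr
      _ = _ := by ring
  have h3 : X (-1) 1 Λ = X (-1) 0 Λ * Λ := by
    have h4 : X (-1) 0 Λ * Λ = X (-1) 0 Λ * X 0 1 Λ := by rw [← self_eq_X hΛ0]
    rw [h4, X_mul]
    congr 1 <;> ring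
  calc C * X (-1) 0 Λ * Tw m Cs Λ ≤ |C * X (-1) 0 Λ * Tw m Cs Λ| := le_abs_self _
    _ = |C| * X (-1) 0 Λ * |Tw m Cs Λ| := by
      rw [abs_mul, abs_mul, abs_of_pos (X_pos _ _ _)]
    _ ≤ |C| * X (-1) 0 Λ * ((1 / 2 + |2 * pA m Cs|) * Λ) := by
      apply mul_le_mul_of_nonneg_left h2
      have := X_nonneg (-1) 0 Λ
      positivity
    _ = |C| * (1 / 2 + |2 * pA m Cs|) * X (-1) 1 Λ := by rw [h3]; ring
    _ ≤ X (-1) 2 Λ := h1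

end

end Crest.Agent.R234.Par_504
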