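import Crest.Agent.R234.Shp8_98
import Crest.Agent.R234.Crs6_173
import Crest.Agent.R234.Par_504

/-!
# Row 234 (helper98): the numbers of the window for the well part of `Core_809.Fld`

`tb_mb_le`: `tb ≤ C h₀²`, `mb ≤ C` at scales `h₀ ≤ e^l ≤ 1 / 4` (from 173's `energy`);
`ht_num`: the field `ht` of `Fld_387.Da.AtAS` for `D` small.
-/

set_option autoImplicit false

open MeasureTheory Set Function Filter Topology Metric
open Crest.GeometryTopology.Submanifold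
open Crest.Agent.R234.Vf_884 Crest.Agent.R234.Ar_870 Crest.Agent.R234.Cy_870
open Crest.Agent.R234.Asl_214
open scoped ENNReal NNReal InnerProductSpace

noncomputable section

namespace Crest.Agent.R234.Shp_98

/-- `tb ≤ C h₀²`, `mb ≤ C` at scales `≥ h₀` -/
theorem tb_mb_le (m : ℕ) {C₀ : ℝ} (hC₀ : 0 ≤ C₀) : ∃ C : ℝ, 1 ≤ C ∧ ∀ {n k : ℕ}
    {π : Euc k →L[ℝ] Euc m} {κ : Euc k →L[ℝ] Euc n} {W : Measure (Euc k × L k)} {h₀ δ : ℝ},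
    CylAS W π κ 0 4 h₀ δ →
    (∀ (z : Euc k) (r : ℝ), 0 < r → r ≤ 1 → W.real (closedBall z r ×ˢ univ) ≤ C₀ * r ^ m) →
    0 ≤ δ → δ ≤ 1 / 16 → ∀ x ∈ closedBall (0 : Euc m) 3, ∀ l : ℝ, h₀ ≤ Real.exp l →
      Real.exp l ≤ 1 / 4 → tb W π x l ≤ C * h₀ ^ 2 ∧ mb W π x l ≤ C := by
  obtain ⟨C, hC, hen⟩ := Crs_173.energy m hC₀
  refine ⟨C, hC, ?_⟩
  intro n k π κ W h₀ δ h hub h0 hδ x hx l hl hl4
  obtain ⟨h1, h2⟩ := hen h hub h0 hδ x hx (Real.exp l) (Real.exp_pos l) hl hl4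
  constructor
  · unfold tb
    refine (mul_le_mul_of_nonneg_left h2 (Real.exp_pos _).le).trans (le_of_eq ?_)
    have e1 : Real.exp ((2 - m) * l) * Real.exp l ^ m = Real.exp l ^ 2 := by
      rw [← Real.exp_nat_mul, ← Real.exp_nat_mul, ← Real.exp_add]
      congr 1
      push_cast
      ring
    have e2 := (Real.exp_pos l).ne'
    calc Real.exp ((2 - m) * l) * (C * (h₀ / Real.exp l) ^ 2 * Real.exp l ^ m) =
        C * (h₀ / Real.exp l) ^ 2 * (Real.exp ((2 - m) * l) * Real.exp l ^ m) := by ring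
      _ = C * h₀ ^ 2 := by
          rw [e1]
          field_simp
  · unfold mb
    refine (mul_le_mul_of_nonneg_left h1 (Real.exp_pos _).le).trans (le_of_eq ?_)
    have e1 : Real.exp (-m * l) * Real.exp l ^ m = 1 := by
      rw [← Real.exp_nat_mul, ← Real.exp_add]
      have : (-m * l + m * l : ℝ) = 0 := by ring
      rw [this, Real.exp_zero]
    calc Real.exp (-m * l) * (C * Real.exp l ^ m) =
        C * (Real.exp (-m * l) * Real.exp l ^ m) := by ring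
      _ = C := by rw [e1, mul_one]

open Par_504 (X X_nonneg X_pos X_pow X_div X_mul ev_le ev_le')

/-- the field `ht` in the calculus of 504 -/
theorem ev_ht {a b c' cw : ℝ} (hab : 1 + a + 2 * c' + 4 < 4 * b) (hcw : 0 < cw) {KB M₀ C c : ℝ}
    (hKB : 0 ≤ KB) (hM : 0 ≤ M₀) (hC : 0 ≤ C) (hc : 0 < c) :
    ∀ᶠ Λ : ℝ in atTop, ∀ δa q l : ℝ, 0 ≤ δa → δa ≤ 1 → q ^ 2 ≤ X (-1) 2 Λ →
      cw * X (-1 / 2) b Λ ≤ Real.exp l →
      4 * tw KB δa (X (-1 / 2) 0 Λ) M₀ q (C * X (-1) 0 Λ) C l ^ 2 ≤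
        X 0 (-1) Λ * (7 * X 0 (-a) Λ) * (c * X (-1) (-c') Λ) ^ 2 := by
  set Cw : ℝ := C / cw ^ 2 with hCw
  have hCw0 : 0 ≤ Cw := by positivity
  filter_upwards [ev_le 1 (show Par_504.Lt (-1) 0 0 (-(2 * b)) from Or.inl (by norm_num)),
    ev_le' (4 * ((2 * Cw + C) * KB * M₀) ^ 2) (show 0 < 7 * c ^ 2 by positivity)
      (show Par_504.Lt (-2) (4 - 4 * b) (-2) (-1 - a - 2 * c') from Or.inr ⟨rfl, by linarith⟩)]
    with Λ h1 h2 δa q l hδ hδ1 hq hl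
  have hs : 0 < cw * X (-1 / 2) b Λ := by
    have := X_pos (-1 / 2) b Λ
    positivity
  obtain ⟨h3, h4⟩ := tw_le (h₀ := X (-1 / 2) 0 Λ) (tM := C * X (-1) 0 Λ) (mM := C) (l := l) hKB
    hδ hM hs hl hq (mul_nonneg hC (X_nonneg _ _ _)) hC
  have e1 : C * X (-1) 0 Λ / (cw * X (-1 / 2) b Λ) ^ 2 = Cw * X 0 (-(2 * b)) Λ := by
    have e2 : X (-1) 0 Λ / X (-1 / 2) b Λ ^ 2 = X 0 (-(2 * b)) Λ := by
      rw [X_pow, X_div]
      congr 1 <;> push_cast <;> ring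
    have e3 := (X_pos (-1 / 2) b Λ).ne'
    calc C * X (-1) 0 Λ / (cw * X (-1 / 2) b Λ) ^ 2 =
        C / cw ^ 2 * (X (-1) 0 Λ / X (-1 / 2) b Λ ^ 2) := by field_simp
      _ = _ := by rw [e2]
  have e4 : X (-1 / 2) 0 Λ ^ 2 = X (-1) 0 Λ := by
    rw [X_pow]
    congr 1 <;> push_cast <;> ring
  rw [e1, e4] at h3
  rw [one_mul] at h1
  have h5 : tw KB δa (X (-1 / 2) 0 Λ) M₀ q (C * X (-1) 0 Λ) C l ≤
      (2 * Cw + C) * KB * M₀ * X (-1) (2 - 2 * b) Λ := by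
    refine h3.trans ?_
    have h6 : X (-1) 2 Λ * X 0 (-(2 * b)) Λ = X (-1) (2 - 2 * b) Λ := by
      rw [X_mul]
      congr 1 <;> ring
    have h7 : δa * (Cw * X 0 (-(2 * b)) Λ + X (-1) 0 Λ * C) + Cw * X 0 (-(2 * b)) Λ ≤
        (2 * Cw + C) * X 0 (-(2 * b)) Λ := by
      have h8 : 0 ≤ Cw * X 0 (-(2 * b)) Λ + X (-1) 0 Λ * C := by
        have := X_nonneg 0 (-(2 * b)) Λ
        have := X_nonneg (-1) 0 Λ
        positivity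
      have h9 := mul_le_mul_of_nonneg_right hδ1 h8
      have h10 := mul_le_mul_of_nonneg_right h1 hC
      linarith
    have h11 : 0 ≤ KB * X (-1) 2 Λ * M₀ / 4 := by
      have := X_nonneg (-1) 2 Λ
      positivity
    calc _ ≤ KB * X (-1) 2 Λ * M₀ / 4 * ((2 * Cw + C) * X 0 (-(2 * b)) Λ) :=
          mul_le_mul_of_nonneg_left h7 h11
      _ = 1 / 4 * ((2 * Cw + C) * KB * M₀ * X (-1) (2 - 2 * b) Λ) := by rw [← h6]; ring
      _ ≤ 1 * ((2 * Cw + C) * KB * M₀ * X (-1) (2 - 2 * b) Λ) := by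
          have := X_nonneg (-1) (2 - 2 * b) Λ
          have h12 : 0 ≤ (2 * Cw + C) * KB * M₀ * X (-1) (2 - 2 * b) Λ := by positivity
          linarith
      _ = _ := by ring
  have h6 := pow_le_pow_left₀ h4 h5 2
  have e5 : ((2 * Cw + C) * KB * M₀ * X (-1) (2 - 2 * b) Λ) ^ 2 =
      ((2 * Cw + C) * KB * M₀) ^ 2 * X (-2) (4 - 4 * b) Λ := by
    rw [mul_pow, X_pow]
    congr 2 <;> push_cast <;> ring
  have e6 : X 0 (-1) Λ * (7 * X 0 (-a) Λ) * (c * X (-1) (-c') Λ) ^ 2 =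
      7 * c ^ 2 * X (-2) (-1 - a - 2 * c') Λ := by
    have e7 : X (-2) (-1 - a - 2 * c') Λ = X 0 (-1) Λ * X 0 (-a) Λ * X (-1) (-c') Λ ^ 2 := by
      rw [X_mul, X_pow, X_mul]
      congr 1 <;> push_cast <;> ring
    rw [e7]
    ring
  rw [e6]
  rw [e5] at h6
  linarith

/-- **the field `ht`** : `h₀ = √D`, `q1 = Λ² D`, `κ = 1 / Λ`, `δ ≥ 7 Λ^-a`, `D₀ = c Λ^-c' D`, scales
`≥ cw √D Λ^b`, for `D` small -/
theorem ht_num2 {a b c' cw : ℝ} (hab : 1 + a + 2 * c' + 4 < 4 * b) (hcw : 0 < cw)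
    {KB M₀ C c : ℝ} (hKB : 0 ≤ KB) (hM : 0 ≤ M₀) (hC : 0 ≤ C) (hc : 0 < c) :
    ∃ Λ₀ : ℝ, 1 ≤ Λ₀ ∧ ∀ D : ℝ, 0 < D → Λ₀ ≤ Real.log (1 / D) → ∀ δa δ D₀ q l : ℝ,
      0 ≤ δa → δa ≤ 1 → 7 * Real.log (1 / D) ^ (-a) ≤ δ → q ^ 2 ≤ Real.log (1 / D) ^ (2 : ℝ) * D →
      c * (Real.log (1 / D) ^ (-c') * D) ≤ D₀ →
      cw * (√D * Real.log (1 / D) ^ b) ≤ Real.exp l →
      4 * tw KB δa √D M₀ q (C * D) C l ^ 2 ≤
        Real.exp (-Real.log (Real.log (1 / D))) * δ * D₀ ^ 2 := by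
  obtain ⟨Λ₀, h⟩ := eventually_atTop.1 (ev_ht hab hcw hKB hM hC hc)
  refine ⟨max Λ₀ 1, le_max_right _ _, ?_⟩
  intro D hD hΛ δa δ D₀ q l hδ hδ1 hδ2 hq hD₀ hl
  set Λ := Real.log (1 / D) with hΛ'
  have hΛ1 : 1 ≤ Λ := (le_max_right _ _).trans hΛ
  have hΛ0 : 0 < Λ := by linarith
  have hD1 : D = X (-1) 0 Λ := Par_504.D_eq_X hD
  have hD2 : √D = X (-1 / 2) 0 Λ := Par_504.sqrt_D_eq_X hD
  have e1 : Λ ^ (2 : ℝ) * D = X (-1) 2 Λ := by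
    conv_lhs => rw [hD1, Par_504.rpow_eq_X hΛ0]
    rw [X_mul]
    congr 1 <;> ring
  have e2 : √D * Λ ^ b = X (-1 / 2) b Λ := by
    conv_lhs => rw [hD2, Par_504.rpow_eq_X hΛ0]
    rw [X_mul]
    congr 1 <;> ring
  have e3 : Λ ^ (-c') * D = X (-1) (-c') Λ := by
    conv_lhs => rw [hD1, Par_504.rpow_eq_X hΛ0]
    rw [X_mul]
    congr 1 <;> ring
  have e4 : Real.exp (-Real.log Λ) = X 0 (-1) Λ := by
    unfold X
    congr 1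
    ring
  rw [e1] at hq
  rw [e2] at hl
  rw [e3] at hD₀
  rw [Par_504.rpow_eq_X hΛ0] at hδ2
  have h1 := h Λ ((le_max_left _ _).trans hΛ) δa q l hδ hδ1 hq hl
  rw [e4]
  have e5 : C * D = C * X (-1) 0 Λ := by rw [← hD1]
  rw [hD2, e5]
  refine h1.trans ?_
  have h2 := X_nonneg 0 (-1) Λ
  have h3 := X_nonneg (-1) (-c') Λ
  have h4 : 0 ≤ δ := le_trans (by have := X_nonneg 0 (-a) Λ; positivity) hδ2
  gcongr

/-- the form used by helper387 -/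
theorem ht_num {a b c' : ℝ} (hab : 1 + a + 2 * c' + 4 < 4 * b) {KB M₀ C c : ℝ}
    (hKB : 0 ≤ KB) (hM : 0 ≤ M₀) (hC : 0 ≤ C) (hc : 0 < c) :
    ∃ Λ₀ : ℝ, 1 ≤ Λ₀ ∧ ∀ D : ℝ, 0 < D → Λ₀ ≤ Real.log (1 / D) → ∀ δa δ q l : ℝ,
      0 ≤ δa → δa ≤ 1 → 7 * Real.log (1 / D) ^ (-a) ≤ δ → q ^ 2 ≤ Real.log (1 / D) ^ (2 : ℝ) * D →
      √D * Real.log (1 / D) ^ b / 3 ≤ Real.exp l →
      4 * tw KB δa √D M₀ q (C * D) C l ^ 2 ≤
        Real.exp (-Real.log (Real.log (1 / D))) * δ *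
          (c * (Real.log (1 / D) ^ (-c') * D)) ^ 2 := by
  obtain ⟨Λ₀, h0, h⟩ := ht_num2 hab (show (0 : ℝ) < 1 / 3 by norm_num) hKB hM hC hc
  refine ⟨Λ₀, h0, fun D hD hΛ δa δ q l h1 h2 h3 h4 h5 => ?_⟩
  exact h D hD hΛ δa δ _ q l h1 h2 h3 h4 le_rfl (by
    refine le_trans (le_of_eq ?_) h5
    ring)

end Crest.Agent.R234.Shp_98
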