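import Crest.Agent.R234.Th15_164
import Crest.Agent.R234.Raw2_387

/-!
Row 234, FLD-EB (helper164): `|E(l)| ≤ A e(l + 1)` in the window (ordinary and averaged centres).
-/

set_option autoImplicit false

open Set Filter Topology MeasureTheory Metric Function
open Crest.GeometryTopology.Submanifold
open Crest.Agent.R234.Vf_884 Crest.Agent.R234.Ar_870 Crest.Agent.R234.Cy_870
open Crest.Agent.R234.Avg_387 Crest.Agent.R234.Raw_387
open scoped ENNReal NNReal ContDiff InnerProductSpace

noncomputable section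

namespace Crest.Agent.R234.Th_164

variable {m n k : ℕ} {π : Euc k →L[ℝ] Euc m} {κ : Euc k →L[ℝ] Euc n}

/-- finite cover of the unit ball by small balls -/
theorem exists_cover_ball (m : ℕ) {η : ℝ} (hη : 0 < η) :
    ∃ F : Finset (Euc m), (∀ f ∈ F, ‖f‖ ≤ 1) ∧ closedBall (0 : Euc m) 1 ⊆ ⋃ f ∈ F, ball f η := by
  obtain ⟨t, ht, htf, hc⟩ := (isCompact_closedBall (0 : Euc m) 1).finite_cover_balls hη
  refine ⟨htf.toFinset, fun f hf => ?_, ?_⟩
  · simpa using ht (htf.mem_toFinset.1 hf)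
  · simpa using hc

theorem setIntegral_biUnion_le {α ι : Type*} [MeasurableSpace α] {μ : Measure α} (F : Finset ι)
    {A : ι → Set α} (hA : ∀ i, MeasurableSet (A i)) {f : α → ℝ} (hf0 : ∀ x, 0 ≤ f x)
    (hf : ∀ i ∈ F, IntegrableOn f (A i) μ) :
    ∫ x in ⋃ i ∈ F, A i, f x ∂μ ≤ ∑ i ∈ F, ∫ x in A i, f x ∂μ := by
  classical
  induction F using Finset.induction_on with
  | empty => simp
  | insert i F hi ih =>
    rw [Finset.sum_insert hi, Finset.set_biUnion_insert]
    have h1 : MeasurableSet (⋃ j ∈ F, A j) := F.measurableSet_biUnion fun j _ => hA j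
    have h2 : IntegrableOn f (⋃ j ∈ F, A j) μ :=
      (integrableOn_finset_iUnion).2 fun j hj => hf j (Finset.mem_insert_of_mem hj)
    have h3 : A i ∪ ⋃ j ∈ F, A j = A i ∪ ((⋃ j ∈ F, A j) \ A i) := (union_sdiff_self).symm
    rw [h3, setIntegral_union disjoint_sdiff_right (h1.diff (hA i))
      (hf i (Finset.mem_insert_self i F)) (h2.mono_set sdiff_subset)]
    refine add_le_add le_rfl (le_trans ?_ (ih fun j hj => hf j (Finset.mem_insert_of_mem hj)))
    exact setIntegral_mono_set h2 (Eventually.of_forall fun x => hf0 x) sdiff_subset.eventuallyLE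

set_option maxHeartbeats 800000 in
/-- **eb, ordinary centres**: `|E(l)| ≤ A e(l + 1)`. -/
theorem eb (m Q : ℕ) {c0 Cg : ℝ} (hc0 : 0 < c0) (hCg : 0 < Cg) : ∃ ε A : ℝ, 0 < ε ∧ 1 ≤ A ∧
    ∀ (k : ℕ) (π : Euc k →L[ℝ] Euc m) (W : Measure (Euc k × L k)) (R : Set (Euc m))
      (N : Euc m → ℝ≥0∞) (δ h : ℝ) (q : Euc k → ℝ), Setup π W R N δ h q → δ * h ≤ ε →
      ∀ (g : ℝ → ℝ), Continuous g → (∀ t, 0 ≤ t → 0 ≤ g t) → (∀ t, 0 ≤ t → g t ≤ Cg) →
      (∀ t, 1 ≤ t → g t = 0) → (∀ t, 0 ≤ t → t ≤ 1 / 6 → c0 ≤ g t) →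
      ∀ (x : Euc m) (l : ℝ), ball x (2 * Real.exp l) ⊆ R → δ * (m + h) * Real.exp l ≤ ε →
      (∀ y ∈ closedBall x (Real.exp l),
        ∫ z in ball y (Real.exp l / 4), |(N z).toReal - Q| ≤ ε * Real.exp l ^ m ∧
        ∫ p in (fun p => π p.1) ⁻¹' ball y (Real.exp l / 4), tl π p.2 ∂W ≤ ε * Real.exp l ^ m) →
      |EE W π x g Q l| ≤ A * ee W π x g (l + 1) := by
  obtain ⟨σ, δ₁, ε₁, K, hσ, hσ1, hδ1, hδ1', hε1, hε1', hK, hT⟩ := win m Q
  obtain ⟨F, hF1, hF⟩ := exists_cover_ball m (η := 1 / 32) (by norm_num)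
  set ε : ℝ := ε₁ / 16 ^ m with hε
  have h16 : (1 : ℝ) ≤ 16 ^ m := one_le_pow₀ (by norm_num)
  have hε0 : 0 < ε := by positivity
  have hεε : ε ≤ ε₁ := div_le_self hε1.le h16
  set B : ℝ := Cg * ((1 + m) / 2 + K * F.card) * Real.exp (m - 2) / c0 with hB
  have hB0 : 0 ≤ B := by positivity
  refine ⟨ε, max B 1, hε0, le_max_right _ _, ?_⟩
  intro k π W R N δ h q hS hδh g hgc hg0 hgC hg1 hlow x l hxR hgr hcl
  have := hS.fin
  set s : ℝ := Real.exp l with hs
  have hs0 : 0 < s := Real.exp_pos l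
  have hsm : 0 < s ^ m := pow_pos hs0 m
  -- the tilt over `ball x (17/16 s)`
  set I : ℝ := ∫ p in (fun p => π p.1) ⁻¹' ball x (17 / 16 * s), tl π p.2 ∂W with hI
  have hI0 : 0 ≤ I := integral_nonneg_of_ae (ae_restrict_of_ae hS.ae_tl_nonneg)
  have hti := hS.integrable_tl
  -- `∫ |N - Q|` over `ball x s`
  have hNint : IntegrableOn (fun y => |(N y).toReal - (Q : ℝ)|) (ball x (2 * s)) := by
    have hS4 := hS.mono isOpen_ball hxR
    exact ((hS4.area.integrableOn hS.co hS.conc measurableSet_ball).sub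
      (integrableOn_const measure_ball_lt_top.ne)).abs
  have hNQ : ∫ z in ball x s, |(N z).toReal - Q| ≤ K * F.card * I := by
    have hcov : ball x s ⊆ ⋃ f ∈ F, ball (x + s • f) (s / 32) := by
      intro z hz
      have h1 : s⁻¹ • (z - x) ∈ closedBall (0 : Euc m) 1 := by
        rw [mem_closedBall_zero_iff, norm_smul, norm_inv, Real.norm_eq_abs, abs_of_pos hs0]
        rw [mem_ball_iff_norm] at hz
        rw [inv_mul_le_iff₀ hs0]
        linarith
      obtain ⟨f, hf, hzf⟩ := mem_iUnion₂.1 (hF h1)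
      refine mem_iUnion₂.2 ⟨f, hf, ?_⟩
      rw [mem_ball_iff_norm] at hzf ⊢
      have h2 : z - (x + s • f) = s • (s⁻¹ • (z - x) - f) := by
        rw [smul_sub, smul_smul, mul_inv_cancel₀ hs0.ne', one_smul]
        abel
      rw [h2, norm_smul, Real.norm_eq_abs, abs_of_pos hs0]
      calc s * ‖s⁻¹ • (z - x) - f‖ < s * (1 / 32) := by gcongr
        _ = s / 32 := by ring
    have hcen : ∀ f ∈ F, x + s • f ∈ closedBall x s := by
      intro f hf
      rw [mem_closedBall_iff_norm, add_sub_cancel_left, norm_smul, Real.norm_eq_abs, abs_of_pos hs0]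
      calc s * ‖f‖ ≤ s * 1 := by gcongr; exact hF1 f hf
        _ = s := mul_one s
    have hsub : ∀ f ∈ F, ∀ ρ : ℝ, ball (x + s • f) ρ ⊆ ball x (s + ρ) := by
      intro f hf ρ
      have h1 := hcen f hf
      rw [mem_closedBall] at h1
      exact ball_subset_ball' (by linarith)
    have hone : ∀ f ∈ F, ∫ z in ball (x + s • f) (s / 32), |(N z).toReal - Q| ≤ K * I := by
      intro f hf
      obtain ⟨a1, a2⟩ := hcl _ (hcen f hf)
      have e1 : (4 : ℝ) * (s / 16) = s / 4 := by ring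
      have e2 : s / 16 / 2 = s / 32 := by ring
      have e3 : ε * s ^ m = ε₁ * (s / 16) ^ m := by
        rw [hε, div_pow]; ring
      have h1 := hT k π W R N δ h q hS (hδh.trans hεε) (x + s • f) (s / 16) (by positivity)
        (by rw [e1]; exact (hsub f hf _).trans ((ball_subset_ball (by linarith)).trans hxR))
        (by
          have h0 : 0 ≤ δ * (m + h) * s := by
            have := hS.δ_nonneg
            have := hS.h_nonneg
            positivity
          calc δ * (m + h) * (s / 16) = δ * (m + h) * s / 16 := by ring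
            _ ≤ δ * (m + h) * s := by linarith
            _ ≤ ε₁ := hgr.trans hεε)
        (by rw [e1, ← e3]; exact a1) (by rw [e1, ← e3]; exact a2)
      obtain ⟨_, _, _, _, t5, _, _, _⟩ := h1
      rw [e2] at t5
      refine t5.trans ?_
      gcongr
      calc ∫ p in (fun p => π p.1) ⁻¹' ball (x + s • f) (s / 16), ws π σ p ∂W
          ≤ ∫ p in (fun p => π p.1) ⁻¹' ball (x + s • f) (s / 16), tl π p.2 ∂W :=
            integral_mono_ae (hS.integrable_ws σ).integrableOn hti.integrableOn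
              (ae_restrict_of_ae (hS.ws_le_tl σ))
        _ ≤ I := by
            refine setIntegral_mono_set hti.integrableOn (ae_restrict_of_ae hS.ae_tl_nonneg)
              (preimage_mono ?_).eventuallyLE
            refine (hsub f hf _).trans (ball_subset_ball ?_)
            linarith
    have hint : ∀ f ∈ F, IntegrableOn (fun y => |(N y).toReal - (Q : ℝ)|)
        (ball (x + s • f) (s / 32)) := fun f hf =>
      hNint.mono_set ((hsub f hf _).trans (ball_subset_ball (by linarith)))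
    calc ∫ z in ball x s, |(N z).toReal - Q|
        ≤ ∫ z in ⋃ f ∈ F, ball (x + s • f) (s / 32), |(N z).toReal - Q| :=
          setIntegral_mono_set ((integrableOn_finset_iUnion).2 hint)
            (Eventually.of_forall fun y => abs_nonneg _) hcov.eventuallyLE
      _ ≤ ∑ f ∈ F, ∫ z in ball (x + s • f) (s / 32), |(N z).toReal - Q| :=
          setIntegral_biUnion_le F (fun f => measurableSet_ball) (fun y => abs_nonneg _) hint
      _ ≤ ∑ _f ∈ F, K * I := Finset.sum_le_sum hone
      _ = K * F.card * I := by rw [Finset.sum_const, nsmul_eq_mul]; ring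
  -- the test function
  have hS2 := hS.mono isOpen_ball hxR
  set f : Euc m → ℝ := fun v => 1 * g (Real.exp (-2 * l) * ‖v - x‖ ^ 2) with hf
  have hfm : Measurable f := by
    have : Continuous f := by rw [hf]; fun_prop
    exact this.measurable
  have hexp : Real.exp (-2 * l) * s ^ 2 = 1 := by
    rw [hs, ← Real.exp_nat_mul, ← Real.exp_add]
    norm_num
  have harg : ∀ v : Euc m, 0 ≤ Real.exp (-2 * l) * ‖v - x‖ ^ 2 := fun v => by positivity
  have hfb : ∀ v, |f v| ≤ Cg := by
    intro v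
    rw [hf]
    simp only [one_mul]
    rw [abs_of_nonneg (hg0 _ (harg v))]
    exact hgC _ (harg v)
  have hf0 : ∀ v, v ∉ ball x s → f v = 0 := by
    intro v hv
    rw [mem_ball_iff_norm, not_lt] at hv
    rw [hf]
    simp only [one_mul]
    refine hg1 _ ?_
    calc (1 : ℝ) = Real.exp (-2 * l) * s ^ 2 := hexp.symm
      _ ≤ Real.exp (-2 * l) * ‖v - x‖ ^ 2 := by gcongr
  have h1 := abs_test_le (W := W) hS.co hS.conc measurableSet_ball measure_ball_lt_top.ne hS2.area
    (Q : ℝ) hfm hCg hfb (B := ball x s) measurableSet_ball (ball_subset_ball (by linarith)) hf0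
  have h2 : ∫ p in (fun p => π p.1) ⁻¹' ball x s, tl π p.2 ∂W ≤ I :=
    setIntegral_mono_set hti.integrableOn (ae_restrict_of_ae hS.ae_tl_nonneg)
      (preimage_mono (ball_subset_ball (by linarith))).eventuallyLE
  have h3 : |(∫ p, f (π p.1) ∂W) - Q * (∫ x, f x)| ≤ Cg * ((1 + m) / 2 + K * F.card) * I := by
    refine h1.trans ?_
    calc Cg * ((1 + m) / 2 * (∫ p in (fun p => π p.1) ⁻¹' ball x s, tl π p.2 ∂W) +
          ∫ z in ball x s, |(N z).toReal - Q|) ≤ Cg * ((1 + m) / 2 * I + K * F.card * I) := by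
          gcongr
      _ = _ := by ring
  have h4 : |EE W π x g Q l| ≤
      Real.exp ((2 - m) * l) * (Cg * ((1 + m) / 2 + K * F.card) * I) := by
    unfold EE
    rw [abs_mul, abs_of_pos (Real.exp_pos _)]
    gcongr
  -- lower bound of `e (l + 1)`
  have h5 : Real.exp ((2 - m) * (l + 1)) * (c0 * I) ≤ ee W π x g (l + 1) := by
    unfold ee
    gcongr
    rw [hI, ← integral_const_mul, ← integral_indicator (measurable_base π measurableSet_ball)]
    have hge : Integrable (fun p : Euc k × L k => tl π p.2 *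
        g (Real.exp (-2 * (l + 1)) * ‖π p.1 - x‖ ^ 2)) W := by
      refine hti.mul_bdd (c := Cg) ?_ ?_
      · have hc : Continuous fun z : Euc k => g (Real.exp (-2 * (l + 1)) * ‖π z - x‖ ^ 2) := by
          fun_prop
        exact (hc.measurable.comp measurable_fst).aestronglyMeasurable
      · refine Eventually.of_forall fun p => ?_
        rw [Real.norm_eq_abs, abs_of_nonneg (hg0 _ (by positivity))]
        exact hgC _ (by positivity)
    refine integral_mono_ae ((hti.const_mul c0).indicator (measurable_base π measurableSet_ball))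
      hge ?_
    filter_upwards [hS.ae_tl_nonneg] with p hp0
    change ((fun p : Euc k × L k => π p.1) ⁻¹' ball x (17 / 16 * s)).indicator
      (fun p => c0 * tl π p.2) p ≤ tl π p.2 * g (Real.exp (-2 * (l + 1)) * ‖π p.1 - x‖ ^ 2)
    by_cases hp : π p.1 ∈ ball x (17 / 16 * s)
    · have hmem : p ∈ (fun p : Euc k × L k => π p.1) ⁻¹' ball x (17 / 16 * s) := hp
      rw [Set.indicator_of_mem hmem, mul_comm]
      refine mul_le_mul_of_nonneg_left (hlow _ (by positivity) ?_) hp0
      rw [mem_ball_iff_norm] at hp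
      have e1 : Real.exp (-2 * (l + 1)) = Real.exp (-2) * Real.exp (-2 * l) := by
        rw [← Real.exp_add]; ring_nf
      have e2 : ‖π p.1 - x‖ ^ 2 ≤ (17 / 16 * s) ^ 2 := by
        have := norm_nonneg (π p.1 - x)
        gcongr
      have e3 : Real.exp (-2) ≤ 1 / 7.38 := by
        have h1 : Real.exp (-2) = (Real.exp 1 ^ 2)⁻¹ := by
          rw [← Real.exp_nat_mul, ← Real.exp_neg]; norm_num
        rw [h1, one_div]
        apply inv_anti₀ (by norm_num)
        have := Real.exp_one_gt_d9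
        nlinarith
      calc Real.exp (-2 * (l + 1)) * ‖π p.1 - x‖ ^ 2
          ≤ Real.exp (-2 * (l + 1)) * (17 / 16 * s) ^ 2 := by gcongr
        _ = Real.exp (-2) * (17 / 16) ^ 2 * (Real.exp (-2 * l) * s ^ 2) := by rw [e1]; ring
        _ = Real.exp (-2) * (17 / 16) ^ 2 := by rw [hexp, mul_one]
        _ ≤ 1 / 7.38 * (17 / 16) ^ 2 := by gcongr
        _ ≤ 1 / 6 := by norm_num
    · have hmem : p ∉ (fun p : Euc k × L k => π p.1) ⁻¹' ball x (17 / 16 * s) := hp
      rw [Set.indicator_of_notMem hmem]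
      exact mul_nonneg hp0 (hg0 _ (by positivity))
  have h6 : Real.exp ((2 - m) * l) * (Cg * ((1 + m) / 2 + K * F.card) * I) =
      B * (Real.exp ((2 - m) * (l + 1)) * (c0 * I)) := by
    have e1 : Real.exp ((2 - m) * l) = Real.exp (m - 2) * Real.exp ((2 - m) * (l + 1)) := by
      rw [← Real.exp_add]; congr 1; ring
    rw [hB, e1]
    field_simp
  have h7 : 0 ≤ ee W π x g (l + 1) := le_trans (by positivity) h5
  calc |EE W π x g Q l| ≤ _ := h4
    _ = B * (Real.exp ((2 - m) * (l + 1)) * (c0 * I)) := h6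
    _ ≤ B * ee W π x g (l + 1) := by gcongr
    _ ≤ max B 1 * ee W π x g (l + 1) := by gcongr; exact le_max_left _ _

/-- **eb, averaged centres**: `|E(l)| ≤ A e(l + 1)` for `EEa`, `eea` (any weight `d`). -/
theorem eb_av (m Q : ℕ) {c0 Cg : ℝ} (hc0 : 0 < c0) (hCg : 0 < Cg) : ∃ ε A : ℝ, 0 < ε ∧ 1 ≤ A ∧
    ∀ (n k : ℕ) (π : Euc k →L[ℝ] Euc m) (κ : Euc k →L[ℝ] Euc n) (W : Measure (Euc k × L k))
      (R : Set (Euc m)) (N : Euc m → ℝ≥0∞) (δ h : ℝ) (q : Euc k → ℝ),
      Setup π W R N δ h q → FF W π κ → δ * h ≤ ε →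
      ∀ (g g1 : ℝ → ℝ), Ker g g1 → (∀ t, 0 ≤ t → 0 ≤ g t) → (∀ t, 0 ≤ t → g t ≤ Cg) →
      (∀ t, 0 ≤ t → t ≤ 1 / 6 → c0 ≤ g t) →
      ∀ (d : Euc m → ℝ) (τ : ℝ), CW d τ →
      ∀ (x : Euc m) (l : ℝ), ball x (τ + 2 * Real.exp l) ⊆ R → δ * (m + h) * Real.exp l ≤ ε →
      (∀ y ∈ closedBall x (τ + Real.exp l),
        ∫ z in ball y (Real.exp l / 4), |(N z).toReal - Q| ≤ ε * Real.exp l ^ m ∧
        ∫ p in (fun p => π p.1) ⁻¹' ball y (Real.exp l / 4), tl π p.2 ∂W ≤ ε * Real.exp l ^ m) →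
      |EEa d W π g Q x l| ≤ A * eea d W π g x (l + 1) := by
  obtain ⟨ε, A, hε, hA, hT⟩ := eb m Q hc0 hCg
  refine ⟨ε, A, hε, hA, ?_⟩
  intro n k π κ W R N δ h q hS hF hδh g g1 hg hg0 hgC hlow d τ hd x l hxR hgr hcl
  have hgc : Continuous g := continuous_iff_continuousAt.2 fun t => (hg.der t).continuousAt
  have hpt : ∀ y ∈ closedBall x τ, |EE W π y g Q l| ≤ A * ee W π y g (l + 1) := by
    intro y hy
    rw [mem_closedBall] at hy
    refine hT k π W R N δ h q hS hδh g hgc hg0 hgC (fun t ht => hg.zero t ht) hlow y l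
      ((ball_subset_ball' (by linarith)).trans hxR) hgr fun z hz => hcl z ?_
    exact closedBall_subset_closedBall' (by linarith) hz
  have c1 : CO x τ (l + 1) (fun y l => EE W π y g Q l) := CO_of_cont (cont2_EE' hF hg Q) x τ (l + 1)
  have c2 : CO x τ (l + 1) (fun y l => A * ee W π y g (l + 1)) := by
    refine CO_of_cont ?_ x τ (l + 1)
    have h1 : Continuous fun p : Euc m × ℝ => ((p.1, p.2 + 1) : Euc m × ℝ) := by fun_prop
    exact continuous_const.mul ((cont2_ee' hF hg).comp h1)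
  have e1 : av d (fun y l => A * ee W π y g (l + 1)) x l = A * eea d W π g x (l + 1) := by
    unfold av eea av
    rw [← integral_const_mul]
    refine integral_congr_ae (Eventually.of_forall fun z => ?_)
    simp only
    ring
  have h1 := av_mono hd c1 c2 (by linarith : l < l + 1) fun y hy => (le_abs_self _).trans (hpt y hy)
  have h2 := av_mono hd c1.neg c2 (by linarith : l < l + 1)
    fun y hy => (neg_le_abs _).trans (hpt y hy)
  have e2 : av d (fun y l => -EE W π y g Q l) x l = -EEa d W π g Q x l := by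
    unfold av EEa av
    rw [← integral_neg]
    refine integral_congr_ae (Eventually.of_forall fun z => ?_)
    simp only
    ring
  rw [e1] at h1 h2
  rw [e2] at h2
  exact abs_le.2 ⟨by linarith, h1⟩

end Crest.Agent.R234.Th_164
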