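import Crest.Agent.R234.Crs7_173
import Crest.Agent.R234.Th16_164

/-!
Row 234, FLD-EB (helper164): THETA and `|E(l)| ≤ A e(l + 1)` at class level (173's `In`), all scales
`≥ A h₀`.
-/

set_option autoImplicit false

open Set Filter Topology MeasureTheory Metric Function
open Crest.GeometryTopology.Submanifold
open Crest.Agent.R234.Vf_884 Crest.Agent.R234.Ar_870 Crest.Agent.R234.Cy_870
open Crest.Agent.R234.Avg_387 Crest.Agent.R234.Raw_387 Crest.Agent.R234.Crs_173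
open Crest.Agent.R234.Asl_214
open scoped ENNReal NNReal ContDiff InnerProductSpace

noncomputable section

namespace Crest.Agent.R234.Th_164

/-- closeness at all scales `≥ A h₀`: both quantities `≤ ε r^m` -/
theorem close_In (m Q : ℕ) {C₀ : ℝ} (hC₀ : 0 ≤ C₀) {ε : ℝ} (hε : 0 < ε) :
    ∃ A c : ℝ, 1 ≤ A ∧ 0 < c ∧ c ≤ 1 / 16 ∧
      ∀ {n k : ℕ} {π : Euc k →L[ℝ] Euc m} {κ : Euc k →L[ℝ] Euc n}
      {W : Measure (Euc k × L k)} {N : Euc m → ℝ≥0∞} {h₀ δ : ℝ}, In W π κ N Q C₀ h₀ δ →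
      δ ≤ c → h₀ ^ 2 ≤ c → ∫ p, tl π p.2 ∂W ≤ c → ∀ x ∈ closedBall (0 : Euc m) 3,
      ∀ r, 0 < r → A * h₀ ≤ r → r ≤ 1 / 4 →
        ∫ y in ball x r, |(N y).toReal - Q| ≤ ε * r ^ m ∧
        ∫ p in (fun p => π p.1) ⁻¹' ball x r, tl π p.2 ∂W ≤ ε * r ^ m := by
  obtain ⟨A, c, hA, hc, hc', hT⟩ := coarse m Q hC₀ hε
  set B : ℝ := A / ε + A with hB
  have hB1 : A ≤ B := by rw [hB]; have : 0 ≤ A / ε := by positivity
                         linarith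
  have hB1' : 1 ≤ B := hA.trans hB1
  refine ⟨B, c, hB1', hc, hc', ?_⟩
  intro n k π κ W N h₀ δ h hδ hh hE x hx r hr hBr hr1
  have hh0 := h.hh
  obtain ⟨h1, _, h3⟩ := hT h hδ hh hE x hx r hr
    ((mul_le_mul_of_nonneg_right hB1 hh0).trans hBr) hr1
  refine ⟨h1, ?_⟩
  have e1 : TB W π x r = ∫ p in (fun p => π p.1) ⁻¹' ball x r, tl π p.2 ∂W := by
    unfold TB
    rw [Crs_173.ovr_eq]
  rw [← e1]
  refine h3.trans ?_
  have h4 : h₀ / r ≤ 1 / B := by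
    rw [div_le_div_iff₀ hr (by linarith)]
    linarith
  have h5 : 0 ≤ h₀ / r := by positivity
  have h6 : (h₀ / r) ^ 2 ≤ 1 / B := by
    calc (h₀ / r) ^ 2 = h₀ / r * (h₀ / r) := by ring
      _ ≤ 1 / B * 1 := by
          have : 1 / B ≤ 1 := by rw [div_le_one (by linarith)]; exact hB1'
          have h7 : h₀ / r ≤ 1 := h4.trans this
          gcongr
      _ = 1 / B := mul_one _
  have h8 : A * (1 / B) ≤ ε := by
    rw [mul_one_div, div_le_iff₀ (by linarith), hB]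
    have : ε * (A / ε + A) = A + ε * A := by field_simp
    rw [this]
    have : 0 ≤ ε * A := by positivity
    linarith
  calc A * (h₀ / r) ^ 2 * r ^ m ≤ A * (1 / B) * r ^ m := by gcongr
    _ ≤ ε * r ^ m := by gcongr

/-- **THETA at class level** (173's `In`), all balls with radius `A h₀ ≤ r ≤ 1/16`, centre in
`closedBall 0 3`. -/
theorem win_In (m Q : ℕ) {C₀ : ℝ} (hC₀ : 0 ≤ C₀) : ∃ σ δ₁ K A c : ℝ, 0 < σ ∧ σ ≤ 1 / 4 ∧ 0 < δ₁ ∧
    δ₁ ≤ 1 ∧ 0 < K ∧ 1 ≤ A ∧ 0 < c ∧ c ≤ 1 / 16 ∧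
      ∀ {n k : ℕ} {π : Euc k →L[ℝ] Euc m} {κ : Euc k →L[ℝ] Euc n}
      {W : Measure (Euc k × L k)} {N : Euc m → ℝ≥0∞} {h₀ δ : ℝ}, In W π κ N Q C₀ h₀ δ →
      δ ≤ c → h₀ ^ 2 ≤ c → ∫ p, tl π p.2 ∂W ≤ c → ∀ x ∈ closedBall (0 : Euc m) 3,
      ∀ r, 0 < r → A * h₀ ≤ r → r ≤ 1 / 16 →
      (∀ᵐ y, y ∈ ball x (r / 2) → y ∉ Bad δ₁ (r / 16) (wM W π (ws π σ)) (ball x (r / 2)) →
        N y = Q) ∧
      (∀ y ∈ Bad δ₁ (r / 16) (wM W π (ws π σ)) (ball x (r / 2)), ∃ ρ, 0 < ρ ∧ ρ ≤ r / 16 ∧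
        δ₁ * ρ ^ m < ∫ p in (fun p => π p.1) ⁻¹' ball y ρ, ws π σ p ∂W ∧
        (∀ t, 3 * ρ ≤ t → t ≤ r / 2 →
          ∫ p in (fun p => π p.1) ⁻¹' ball y t, ws π σ p ∂W ≤ δ₁ * t ^ m ∧
          ∫ z in ball y t, |(N z).toReal - Q| ≤ K * t ^ m ∧
          W.real ((fun p => π p.1) ⁻¹' ball y t) ≤ K * t ^ m)) ∧
      (volume (Bad δ₁ (r / 16) (wM W π (ws π σ)) (ball x (r / 2)))).toReal ≤
        K * ∫ p in (fun p => π p.1) ⁻¹' ball x r, ws π σ p ∂W ∧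
      (muM W π (Bad δ₁ (r / 16) (wM W π (ws π σ)) (ball x (r / 2)))).toReal ≤
        K * ∫ p in (fun p => π p.1) ⁻¹' ball x r, ws π σ p ∂W ∧
      ∫ y in ball x (r / 2), |(N y).toReal - Q| ≤
        K * ∫ p in (fun p => π p.1) ⁻¹' ball x r, ws π σ p ∂W ∧
      (∫ p in (fun p => π p.1) ⁻¹' ball x r, ws π σ p ∂W ≤
        σ⁻¹ * ∫ p in (fun p => π p.1) ⁻¹' ball x r, tl π p.2 ^ 2 ∂W) ∧
      ∫ y in ball x (r / 2), |(N y).toReal - Q| ≤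
        K / σ * ∫ p in (fun p => π p.1) ⁻¹' ball x r, tl π p.2 ^ 2 ∂W ∧
      ∀ f : Euc m → ℝ, Measurable f → (∀ y, |f y| ≤ 1) → (∀ y, y ∉ ball x (r / 2) → f y = 0) →
        |(∫ p, f (π p.1) ∂W) - Q * (∫ y, f y) - 1 / 2 * ∫ p, tl π p.2 * f (π p.1) ∂W| ≤
          (1 / 2 + K / σ) * ∫ p in (fun p => π p.1) ⁻¹' ball x r, tl π p.2 ^ 2 ∂W := by
  obtain ⟨σ, δ₁, ε, K, hσ, hσ1, hδ1, hδ1', hε, hε1, hK, hT⟩ := win m Q
  have h4m : (1 : ℝ) ≤ 4 ^ m := one_le_pow₀ (by norm_num)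
  obtain ⟨A, c, hA, hc, hc', hcl⟩ := close_In m Q hC₀ (ε := ε / 4 ^ m) (by positivity)
  set c' : ℝ := min c (ε / (m + 1)) with hc'def
  have hm0 : (0 : ℝ) ≤ m := Nat.cast_nonneg m
  have hc'0 : 0 < c' := lt_min hc (by positivity)
  have hc'c : c' ≤ c := min_le_left _ _
  have hc'ε : c' * (m + 1) ≤ ε := by
    have : c' ≤ ε / (m + 1) := min_le_right _ _
    rwa [le_div_iff₀ (by positivity)] at this
  refine ⟨σ, δ₁, K, A, c', hσ, hσ1, hδ1, hδ1', hK, hA, hc'0, hc'c.trans hc', ?_⟩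
  intro n k π κ W N h₀ δ h hδ hh hE x hx r hr hAr hr1
  have hδ0 := h.δ0
  have hh0 := h.hh
  have hc1 : c' ≤ 1 := hc'c.trans (hc'.trans (by norm_num))
  have hS := Crs_173.setup_of_cylAS h.cyl hδ0 (hδ.trans hc1) h.area
  have hh1 : h₀ ^ 2 ≤ 1 := hh.trans hc1
  have hx' : ‖x‖ ≤ 3 := by simpa using hx
  have hsub : ball x (4 * r) ⊆ ball (0 : Euc m) 4 := by
    refine ball_subset_ball' ?_
    rw [dist_zero_right]
    linarith
  have hδh : δ * h₀ ^ 2 ≤ ε := by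
    calc δ * h₀ ^ 2 ≤ c' * 1 := by gcongr
      _ ≤ c' * (m + 1) := by gcongr; linarith
      _ ≤ ε := hc'ε
  have hδm : δ * (m + h₀ ^ 2) * r ≤ ε := by
    calc δ * (m + h₀ ^ 2) * r ≤ c' * (m + 1) * 1 := by
          gcongr
          linarith
      _ ≤ ε := by rw [mul_one]; exact hc'ε
  obtain ⟨a1, a2⟩ := hcl h (hδ.trans hc'c) (hh.trans hc'c) (hE.trans hc'c) x hx (4 * r)
    (by positivity) (by linarith) (by linarith)
  have e1 : ε / 4 ^ m * (4 * r) ^ m = ε * r ^ m := by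
    rw [mul_pow]; field_simp
  rw [e1] at a1 a2
  exact hT k π W (ball 0 4) N δ (h₀ ^ 2) _ hS hδh x r hr hsub hδm a1 a2

/-- **eb at class level**, ordinary centres, all scales `A h₀ ≤ e^l ≤ 1`. -/
theorem eb_In (m Q : ℕ) {C₀ c0 Cg : ℝ} (hC₀ : 0 ≤ C₀) (hc0 : 0 < c0) (hCg : 0 < Cg) :
    ∃ A c : ℝ, 1 ≤ A ∧ 0 < c ∧ c ≤ 1 / 16 ∧
      ∀ {n k : ℕ} {π : Euc k →L[ℝ] Euc m} {κ : Euc k →L[ℝ] Euc n}
      {W : Measure (Euc k × L k)} {N : Euc m → ℝ≥0∞} {h₀ δ : ℝ}, In W π κ N Q C₀ h₀ δ →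
      δ ≤ c → h₀ ^ 2 ≤ c → ∫ p, tl π p.2 ∂W ≤ c →
      ∀ {g g1 : ℝ → ℝ}, Ker g g1 → (∀ t, 0 ≤ t → 0 ≤ g t) → (∀ t, 0 ≤ t → g t ≤ Cg) →
      (∀ t, 0 ≤ t → t ≤ 1 / 6 → c0 ≤ g t) →
      ∀ x ∈ closedBall (0 : Euc m) 2, ∀ l, l ≤ 0 → A * h₀ ≤ Real.exp l →
        |EE W π x g Q l| ≤ A * ee W π x g (l + 1) := by
  obtain ⟨ε, A₁, hε, hA₁, hT⟩ := eb m Q hc0 hCg
  have h4m : (1 : ℝ) ≤ 4 ^ m := one_le_pow₀ (by norm_num)
  obtain ⟨A, c, hA, hc, hc', hcl⟩ := close_In m Q hC₀ (ε := ε) hε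
  set c' : ℝ := min c (ε / (m + 1)) with hc'def
  have hm0 : (0 : ℝ) ≤ m := Nat.cast_nonneg m
  have hc'0 : 0 < c' := lt_min hc (by positivity)
  have hc'c : c' ≤ c := min_le_left _ _
  have hc'ε : c' * (m + 1) ≤ ε := by
    have : c' ≤ ε / (m + 1) := min_le_right _ _
    rwa [le_div_iff₀ (by positivity)] at this
  set B : ℝ := max A₁ (4 * A) with hB
  have hB1 : A₁ ≤ B := le_max_left _ _
  have hB2 : 4 * A ≤ B := le_max_right _ _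
  refine ⟨B, c', hA₁.trans hB1, hc'0, hc'c.trans hc', ?_⟩
  intro n k π κ W N h₀ δ h hδ hh hE g g1 hg hg0 hgC hlow x hx l hl hAl
  have hδ0 := h.δ0
  have hh0 := h.hh
  have hc1 : c' ≤ 1 := hc'c.trans (hc'.trans (by norm_num))
  have hS := Crs_173.setup_of_cylAS h.cyl hδ0 (hδ.trans hc1) h.area
  have hh1 : h₀ ^ 2 ≤ 1 := hh.trans hc1
  have hx' : ‖x‖ ≤ 2 := by simpa using hx
  have hl1 : Real.exp l ≤ 1 := Real.exp_le_one_iff.2 hl
  have hl0 : 0 < Real.exp l := Real.exp_pos l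
  have hsub : ball x (2 * Real.exp l) ⊆ ball (0 : Euc m) 4 := by
    refine ball_subset_ball' ?_
    rw [dist_zero_right]
    linarith
  have hδh : δ * h₀ ^ 2 ≤ ε := by
    calc δ * h₀ ^ 2 ≤ c' * 1 := by gcongr
      _ ≤ c' * (m + 1) := by gcongr; linarith
      _ ≤ ε := hc'ε
  have hδm : δ * (m + h₀ ^ 2) * Real.exp l ≤ ε := by
    calc δ * (m + h₀ ^ 2) * Real.exp l ≤ c' * (m + 1) * 1 := by
          gcongr
      _ ≤ ε := by rw [mul_one]; exact hc'ε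
  have hgc : Continuous g := continuous_iff_continuousAt.2 fun t => (hg.der t).continuousAt
  have hAl' : A * h₀ ≤ Real.exp l / 4 := by
    have : 4 * A * h₀ ≤ Real.exp l := (mul_le_mul_of_nonneg_right hB2 hh0).trans hAl
    linarith
  have hfin : |EE W π x g Q l| ≤ A₁ * ee W π x g (l + 1) := by
    refine hT k π W (ball 0 4) N δ (h₀ ^ 2) _ hS hδh g hgc hg0 hgC (fun t ht => hg.zero t ht) hlow x l
      hsub hδm fun y hy => ?_
    have hy' : y ∈ closedBall (0 : Euc m) 3 := by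
      rw [mem_closedBall] at hy
      rw [mem_closedBall_zero_iff]
      have := norm_le_norm_add_norm_sub' y x
      rw [dist_eq_norm] at hy
      linarith
    obtain ⟨a1, a2⟩ := hcl h (hδ.trans hc'c) (hh.trans hc'c) (hE.trans hc'c) y hy'
      (Real.exp l / 4) (by positivity) hAl' (by linarith)
    have e1 : ε * (Real.exp l / 4) ^ m ≤ ε * Real.exp l ^ m := by
      gcongr
      linarith
    exact ⟨a1.trans e1, a2.trans e1⟩
  refine hfin.trans (mul_le_mul_of_nonneg_right hB1 ?_)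
  unfold ee
  refine mul_nonneg (Real.exp_pos _).le (integral_nonneg_of_ae ?_)
  filter_upwards [hS.ae_tl_nonneg] with p hp
  exact mul_nonneg hp (hg0 _ (by positivity))

/-- **eb at class level**, averaged centres: any weight `d` supported in `closedBall 0 τ`, `τ ≤ 1`. -/
theorem eb_av_In (m Q : ℕ) {C₀ c0 Cg : ℝ} (hC₀ : 0 ≤ C₀) (hc0 : 0 < c0) (hCg : 0 < Cg) :
    ∃ A c : ℝ, 1 ≤ A ∧ 0 < c ∧ c ≤ 1 / 16 ∧
      ∀ {n k : ℕ} {π : Euc k →L[ℝ] Euc m} {κ : Euc k →L[ℝ] Euc n}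
      {W : Measure (Euc k × L k)} {N : Euc m → ℝ≥0∞} {h₀ δ : ℝ}, In W π κ N Q C₀ h₀ δ →
      δ ≤ c → h₀ ^ 2 ≤ c → ∫ p, tl π p.2 ∂W ≤ c →
      ∀ {g g1 : ℝ → ℝ}, Ker g g1 → (∀ t, 0 ≤ t → 0 ≤ g t) → (∀ t, 0 ≤ t → g t ≤ Cg) →
      (∀ t, 0 ≤ t → t ≤ 1 / 6 → c0 ≤ g t) →
      ∀ {d : Euc m → ℝ} {τ : ℝ}, CW d τ →
      ∀ x : Euc m, ‖x‖ + τ ≤ 2 → ∀ l, l ≤ 0 → A * h₀ ≤ Real.exp l →
        |EEa d W π g Q x l| ≤ A * eea d W π g x (l + 1) := by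
  obtain ⟨A, c, hA, hc, hc', hT⟩ := eb_In m Q hC₀ hc0 hCg
  refine ⟨A, c, hA, hc, hc', ?_⟩
  intro n k π κ W N h₀ δ h hδ hh hE g g1 hg hg0 hgC hlow d τ hd x hx l hl hAl
  have hF : FF W π κ := ⟨h.cyl.sp, h.cyl.conc, h.cyl.fin⟩
  have hpt : ∀ y ∈ closedBall x τ, |EE W π y g Q l| ≤ A * ee W π y g (l + 1) := by
    intro y hy
    refine hT h hδ hh hE hg hg0 hgC hlow y ?_ l hl hAl
    rw [mem_closedBall, dist_eq_norm] at hy
    rw [mem_closedBall_zero_iff]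
    have := norm_le_norm_add_norm_sub' y x
    linarith
  have c1 : CO x τ (l + 1) (fun y l => EE W π y g Q l) := CO_of_cont (cont2_EE' hF hg Q) x τ (l + 1)
  have c2 : CO x τ (l + 1) (fun y l => A * ee W π y g (l + 1)) := by
    refine CO_of_cont ?_ x τ (l + 1)
    have h1 : Continuous fun p : Euc m × ℝ => ((p.1, p.2 + 1) : Euc m × ℝ) := by fun_prop
    exact continuous_const.mul ((cont2_ee' hF hg).comp h1)
  have e1 : av d (fun y l => A * ee W π y g (l + 1)) x l = A * eea d W π g x (l + 1) := by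
    unfold av eea av
    rw [← integral_const_mul]
    refine integral_congr_ae (Eventually.of_forall fun z => ?_)
    simp only
    ring
  have h1 := av_mono hd c1 c2 (by linarith : l < l + 1) fun y hy => (le_abs_self _).trans (hpt y hy)
  have h2 := av_mono hd c1.neg c2 (by linarith : l < l + 1)
    fun y hy => (neg_le_abs _).trans (hpt y hy)
  have e2 : av d (fun y l => -EE W π y g Q l) x l = -EEa d W π g Q x l := by
    unfold av EEa av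
    rw [← integral_neg]
    refine integral_congr_ae (Eventually.of_forall fun z => ?_)
    simp only
    ring
  rw [e1] at h1 h2
  rw [e2] at h2
  exact abs_le.2 ⟨by linarith, h1⟩

end Crest.Agent.R234.Th_164
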