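import Crest.Agent.R234.Core4_809
import Crest.Agent.R234.Fld4_387
import Crest.Agent.R234.Ins1_387
import Crest.Agent.R234.N0t_309
import Crest.Agent.R234.Bds3_214
import Crest.Agent.R234.Shp7_98
import Crest.Agent.R234.Shp9_98
import Crest.Agent.R234.Th17_164

/-!
# Row 234 (helper387), NBASE-FLD, part 1: the data `daOf` of a contact situation

`daOf X Q K cS ds : Da m n X.k` for a situation `X : Core_809.Sit m n a`; `okAS` = its properties
(constants `c₀ = 1/3`, `K₀ = 4`, `KB = 12` of the profile `(1-t)₊⁴`).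
-/

set_option autoImplicit false

open MeasureTheory Set Function Filter Topology Metric
open Crest.GeometryTopology.Submanifold
open Crest.Agent.R234.Vf_884 Crest.Agent.R234.Ar_870 Crest.Agent.R234.Cy_870
open Crest.Agent.R234.Pot_425 Crest.Agent.R234.Avg_387 Crest.Agent.R234.Rep_387
open Crest.Agent.R234.Raw_387 Crest.Agent.R234.N0_309 Crest.Agent.R234.Asl_214
open Crest.Agent.R234.Core_809
open Crest.Agent.R234.N5_372 (eM)
open scoped ENNReal NNReal

noncomputable section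

namespace Crest.Agent.R234.Fld_387

variable {m n : ℕ} {a : ℝ}

/-! ### the profile -/

theorem w0_low {t : ℝ} (_h0 : 0 ≤ t) (h1 : t ≤ 1 / 6) : 1 / 3 ≤ w0.θ t ∧ 1 / 3 ≤ -w0.θ' t := by
  have h2 : max (1 - t) 0 = 1 - t := max_eq_left (by linarith)
  have h3 : (5 / 6 : ℝ) ≤ 1 - t := by linarith
  change 1 / 3 ≤ (max (1 - t) 0) ^ 4 ∧ 1 / 3 ≤ -(-(4 * (max (1 - t) 0) ^ 3))
  rw [h2]
  have h4 := pow_le_pow_left₀ (by norm_num : (0:ℝ) ≤ 5 / 6) h3 4
  have h5 := pow_le_pow_left₀ (by norm_num : (0:ℝ) ≤ 5 / 6) h3 3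
  norm_num at h4 h5 ⊢
  constructor <;> linarith

theorem mx_le {t : ℝ} (h0 : 0 ≤ t) : 0 ≤ max (1 - t) 0 ∧ max (1 - t) 0 ≤ 1 :=
  ⟨le_max_right _ _, max_le (by linarith) zero_le_one⟩

theorem w0_up {t : ℝ} (h0 : 0 ≤ t) : w0.θ t ≤ 4 ∧ -w0.θ' t ≤ 4 := by
  obtain ⟨h1, h2⟩ := mx_le h0
  change (max (1 - t) 0) ^ 4 ≤ 4 ∧ -(-(4 * (max (1 - t) 0) ^ 3)) ≤ 4
  have h4 := pow_le_one₀ h1 h2 (n := 4)
  have h5 := pow_le_one₀ h1 h2 (n := 3)
  constructor <;> linarith

theorem w0_bd : Bd w0.θ' w2 12 where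
  b0 t ht := by
    obtain ⟨h1, h2⟩ := mx_le ht
    have h5 := pow_le_one₀ h1 h2 (n := 3)
    have h6 := pow_nonneg h1 3
    change |(-(4 * (max (1 - t) 0) ^ 3))| ≤ 12
    rw [abs_neg, abs_of_nonneg (by positivity)]
    linarith
  b1 t ht := by
    obtain ⟨h1, h2⟩ := mx_le ht
    have h5 := pow_le_one₀ h1 h2 (n := 2)
    have h6 := pow_nonneg h1 2
    change |12 * (max (1 - t) 0) ^ 2| ≤ 12
    rw [abs_of_nonneg (by positivity)]
    linarith
  b2 t ht := by
    obtain ⟨h1, h2⟩ := mx_le ht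
    have h5 := pow_le_one₀ h1 h2 (n := 2)
    have h6 := pow_nonneg h1 2
    change |t * (12 * (max (1 - t) 0) ^ 2)| ≤ 12
    rcases le_or_gt t 1 with h | h
    · rw [abs_of_nonneg (by positivity)]
      have h7 : t * (12 * (max (1 - t) 0) ^ 2) ≤ 1 * (12 * (max (1 - t) 0) ^ 2) :=
        mul_le_mul_of_nonneg_right h (by positivity)
      linarith
    · rw [max_eq_right (by linarith)]
      norm_num

/-! ### the data -/

/-- **the data of a contact situation** -/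
def daOf (X : Sit m n a) (Q : ℕ) (K cS ds : ℝ) : Da m n X.k where
  W := X.V
  π := X.π
  κ := X.κ
  w := w0
  τ := tauOf a X.D
  Q := Q
  K := K
  δ := ds
  δ' := 7 * X.δ
  β := X.β Q cS
  γ := X.γ Q cS
  b₂ := b2 X.S (Cy_870.cyl X.π X.κ 0 4 1) Q (tauOf a X.D)

variable {X : Sit m n a} {Q : ℕ} {K cS ds : ℝ}

theorem Lam_pos {D : ℝ} (hD : 0 < D) (hD1 : D < 1) : 0 < Lam D := by
  unfold Lam
  exact Real.log_pos (by rw [lt_div_iff₀ hD]; linarith)

theorem tauOf_pos {D : ℝ} (hD : 0 < D) (hD1 : D < 1) : 0 < tauOf a D := by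
  have h1 := Real.rpow_pos_of_pos (Lam_pos hD hD1) (-a)
  have h2 := Real.sqrt_pos.2 hD
  unfold tauOf hOf
  positivity

/-- **the properties of the data** -/
theorem okAS (hm : 2 ≤ m) (hc : Cls Q X.δ X.D X.π X.κ X.U X.Dd) (hD : 0 < X.D) (hD1 : X.D < 1)
    (hδ : 0 ≤ X.δ) (hds : 0 < ds) (h7 : 7 * X.δ ≤ ds) (hds1 : ds ≤ 1) (hK : 9 ≤ K) :
    (daOf X Q K cS ds).OkAS 4 (√X.D) X.δ (1 / 3) 4 12 w2 := by
  have hW := Ins_387.measurableSet_cyl4 X.π X.κ
  have hf := Ins_387.fin4 hc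
  have hT : MeasurableSet (X.T₀ cS) := measurableSet_tall measurableSet_tallT
  refine
    { m2 := hm
      cyl := Ins_387.cylAS hc hD1
      h0 := Real.sqrt_nonneg _
      R1 := by norm_num
      δA0 := hδ
      τ0 := tauOf_pos hD hD1
      prof := prof0
      fβ := finite_beta X.S hc.int hc.sp.hh hW hf _
      fγ := finite_beta X.S hc.int hc.sp.hh hW hf _
      fb₂ := finite_b2 X.S hc.int hc.sp.hh hW hf
      rep := ?_
      δ0 := hds
      δe := rfl
      δδ := h7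
      δ1 := hds1
      K9 := hK
      c0 := by norm_num
      wl := fun t h0 h1 => w0_low h0 (h1.trans (by norm_num))
      wu := fun t h0 => w0_up h0
      bd := w0_bd }
  have h1 : (daOf X Q K cS ds).β + (daOf X Q K cS ds).γ =
      b1 X.S (Cy_870.cyl X.π X.κ 0 4 1) Q (tauOf a X.D) := beta_add_gamma X.S hT
  rw [h1]
  exact rep X.S hc.int hc.sp.hh hW hf

end Crest.Agent.R234.Fld_387
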