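import Crest.Agent.R234.Fldc1_387

/-!
# Row 234 (helper387), NBASE-FLD, part 2: one contact centre of a situation

`OkAS.raw` (98's `Raw` at every centre), `B_nonneg`, `Us_ge_tall` (tall centres).
-/

set_option autoImplicit false

open MeasureTheory Set Function Filter Topology Metric
open Crest.GeometryTopology.Submanifold
open Crest.Agent.R234.Vf_884 Crest.Agent.R234.Ar_870 Crest.Agent.R234.Cy_870
open Crest.Agent.R234.Pot_425 Crest.Agent.R234.Avg_387 Crest.Agent.R234.Rep_387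
open Crest.Agent.R234.Raw_387 Crest.Agent.R234.N0_309 Crest.Agent.R234.Asl_214
open Crest.Agent.R234.Core_809
open Crest.Agent.R234.N5_372 (eM)
open scoped ENNReal NNReal

noncomputable section

namespace Crest.Agent.R234.Fld_387

namespace Da

variable {m n k : ℕ} {D : Da m n k} {R h₀ δA c₀ K₀ KB T : ℝ} {g2 : ℝ → ℝ} {x : Euc m}

/-- **98's `Raw` at every centre** -/
theorem OkAS.raw (h : D.OkAS R h₀ δA c₀ K₀ KB g2) (hT : ‖x‖ + Real.exp T + 2 * D.τ ≤ 1) :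
    Shp_98.Raw m D.K 2 D.δ T (D.E x) (D.e x) (D.et x) (D.b x) (D.g x) (D.R x) (D.f x) (D.p x)
      (D.P x) (D.B x) := by
  have f1 := h.fβ
  have f2 := h.fγ
  have f3 := h.fb₂
  have ok := h.ok
  have hm := h.m2
  refine Raw_387.raw (by lia) ok.ff ok.hh ok.τ0 ok.prof rfl ok.rep ok.δ0 ok.δ'0 ok.δδ
    (by linarith [ok.K2]) hT fun y hy l hl => ?_
  have hff := Shp_98.ff_of_cylAS h.cyl
  have hw := Shp_98.window (x := x) h.τ0 hT hl
  have hyx : ‖y - x‖ ≤ D.τ := by rwa [mem_closedBall_iff_norm] at hy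
  have hy2 : ‖y - 0‖ + Real.exp l ≤ R := by
    have := norm_sub_le_norm_sub_add_norm_sub y x (0 : Euc m)
    linarith [hw.1, h.R1]
  refine (Shp_98.abs_f1_le h.cyl h.δA0 h.prof hy2 hw.2).trans ?_
  rw [h.δe]
  refine mul_le_mul_of_nonneg_right (by linarith [h.δA0]) ?_
  have hcy := cf_yc (W := D.W) (κ := D.κ) h.cyl.hgt
  have a1 : 0 ≤ ee D.W D.π y D.w.θ l := by
    rw [ee_eq_kk hff]
    exact kk_nonneg (cf_tc hff) h.prof y l
  have a2 := Shp_98.et_nonneg hff h.prof y l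
  have a3 := kk_nonneg (π := D.π) hcy h.prof y l
  have a4 := kt_nonneg (π := D.π) hcy h.prof y l
  linarith

/-- the sharp `U` vanishes at small scales -/
theorem OkAS.tendsto_Us (h : D.OkAS R h₀ δA c₀ K₀ KB g2) (x : Euc m) :
    Tendsto (D.Us x) atBot (𝓝 0) := by
  have f1 := h.fβ
  have f3 := h.fb₂
  have ok := h.ok
  have hc0 : 0 ≤ D.K * m / 2 * D.δ := by
    have := ok.K2
    have := ok.δ0
    positivity
  have hcy := cf_yc (W := D.W) (κ := D.κ) ok.hh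
  have hP : Tendsto (D.P x) atBot (𝓝 0) :=
    tendsto_PY ok.ff ok.τ0 ok.prof hcy (by positivity) D.δ' x
  exact Raw_387.tendsto_Us ok.ff ok.τ0 ok.prof hc0 D.Q D.K D.δ hP x

/-- lower bound of the sharp `U` from a lower bound of the averaged energy on one unit of scales -/
theorem OkAS.Us_ge (h : D.OkAS R h₀ δA c₀ K₀ KB g2) (hT : ‖x‖ + Real.exp T + 2 * D.τ ≤ 1)
    {a₁ a₀ θ : ℝ} (h1 : a₁ ≤ a₀) (h0 : a₀ ≤ T) (hθ : ∀ l ∈ Icc (a₁ - 1) a₁, θ ≤ D.e x l) :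
    D.δ * θ ≤ D.Us x a₀ := by
  have hr := h.raw hT
  have hK : 9 ≤ D.K := h.K9
  have h2 := hr.tall (K₀ := 1) (by linarith) zero_le_one (by linarith) (h.tendsto_Us x)
    (h1.trans h0) hθ
  rw [one_mul] at h2
  exact h2.trans (hr.Us_mono (by linarith) h1 h0)

end Da

/-! ### a contact centre -/

variable {m n : ℕ} {a : ℝ} {X : Sit m n a} {Q : ℕ} {K cS ds M : ℝ}

/-- **the contact potential difference is nonnegative** -/
theorem B_nonneg (hO : Out X.S (Cy_870.cyl X.π X.κ 0 4 1) Q (tauOf a X.D) (hOf a X.D)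
    (tOf a X.D) (lamOf cS a X.D) (blOf a X.D) (K * m / 2 * ds) M X.ε)
    {x : XB (Euc m) (tauOf a X.D)} (hx : x ∈ X.ε.support) {l : ℝ}
    (hl : ‖(x : Euc m)‖ + Real.exp l ≤ 1) :
    SS m (tauOf a X.D) w0 X.ε (x : Euc m) (Real.exp l) ≤ (daOf X Q K cS ds).B (x : Euc m) l ∧
      0 ≤ (daOf X Q K cS ds).B (x : Euc m) l := by
  obtain ⟨h1, h2⟩ := hO.ss x hx w0 (Real.exp l) (Real.exp_pos l).le hl
  exact ⟨h2, h1.trans h2⟩

/-- the lower bound at a tall centre, explicit form -/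
def Dt (m : ℕ) (h t lam : ℝ) : ℝ :=
  Real.exp ((2 - m) * (Real.log (8 * t) + 1)) * (1 / 3 * (lam * h ^ m)) * Md m

/-- **tall centres** -/
theorem Us_tall (hok : (daOf X Q K cS ds).OkAS 4 (√X.D) X.δ (1 / 3) 4 12 w2)
    (hO : Out X.S (Cy_870.cyl X.π X.κ 0 4 1) Q (tauOf a X.D) (hOf a X.D)
      (tOf a X.D) (lamOf cS a X.D) (blOf a X.D) (K * m / 2 * ds) M X.ε)
    (hcS : 0 ≤ cS) (hh : 0 < hOf a X.D) (hht : hOf a X.D ≤ tOf a X.D)
    {x : XB (Euc m) (tauOf a X.D)} (hx : x ∈ X.ε.support) {a₀ T : ℝ}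
    (hT : ‖(x : Euc m)‖ + Real.exp T + 2 * tauOf a X.D ≤ 1) (hT0 : a₀ ≤ T)
    (ha : Real.log (8 * tOf a X.D) + 1 ≤ a₀) :
    ds * Dt m (hOf a X.D) (tOf a X.D) (lamOf cS a X.D) ≤ (daOf X Q K cS ds).Us (x : Euc m) a₀ := by
  have hm2 : (2:ℝ) ≤ m := by exact_mod_cast hok.m2
  have ht : 0 < tOf a X.D := hh.trans_le hht
  refine hok.Us_ge hT ha hT0 fun l hl => ?_
  have hlam : 0 ≤ lamOf cS a X.D := mul_nonneg hcS (sq_nonneg _)
  have hτ : tauOf a X.D = hOf a X.D / 4 := rfl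
  have h8 : 8 * tOf a X.D ≤ Real.exp l := by
    have h9 : Real.exp (Real.log (8 * tOf a X.D)) = 8 * tOf a X.D := Real.exp_log (by positivity)
    rw [← h9]
    exact Real.exp_le_exp.2 (by linarith [hl.1])
  have h1 := hO.eea_ge (κ := X.κ) hok.ok.ff hok.τ0 hh hlam hok.prof.k0
    (fun t => w0.nonneg t) (c0 := 1 / 3) (by norm_num)
    (fun t h0 h1 => (w0_low h0 (h1.trans (by norm_num))).1) hx (l := l) (by
      rw [hτ]; linarith)
  refine le_trans ?_ h1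
  unfold Dt
  have hMd : 0 ≤ Md m := (Md_pos (by have := hok.m2; lia)).le
  refine mul_le_mul_of_nonneg_right (mul_le_mul_of_nonneg_right (Real.exp_le_exp.2 ?_)
    (by positivity)) hMd
  have := hl.2
  nlinarith

end Crest.Agent.R234.Fld_387
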