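import Crest.Agent.R234.Fldc2_387

/-!
# Row 234 (helper387), NBASE-FLD, part 3: the numbers of the window

bottom `s0 = √D Λ^b`, top `st = Λ^(-b')`; `ev_num` = all comparisons for large `Λ`;
`Dt_eq` = the lower bound at the tall centres; `P_le` = the decaying error at the top.
-/

set_option autoImplicit false

open MeasureTheory Set Function Filter Topology Metric
open Crest.GeometryTopology.Submanifold
open Crest.Agent.R234.Vf_884 Crest.Agent.R234.Ar_870 Crest.Agent.R234.Cy_870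
open Crest.Agent.R234.Pot_425 Crest.Agent.R234.Avg_387 Crest.Agent.R234.Rep_387
open Crest.Agent.R234.Raw_387 Crest.Agent.R234.N0_309 Crest.Agent.R234.Asl_214
open Crest.Agent.R234.Core_809
open Crest.Agent.R234.N5_372 (eM)
open Crest.Agent.R234.Par_504 (ev_le ev_le' ev_small ev_const)
open scoped ENNReal NNReal

noncomputable section

namespace Crest.Agent.R234.Fld_387

local notation "PX" => Crest.Agent.R234.Par_504.X

/-- large `Λ` from large `log Λ` -/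
theorem exists_l0 {p : ℝ → Prop} (h : ∀ᶠ Λ in atTop, p Λ) :
    ∃ l0 : ℝ, 0 ≤ l0 ∧ ∀ Λ, 0 < Λ → l0 ≤ Real.log Λ → p Λ := by
  obtain ⟨Λ₀, h0⟩ := eventually_atTop.1 h
  have h1 : (1:ℝ) ≤ max Λ₀ 1 := le_max_right _ _
  refine ⟨Real.log (max Λ₀ 1), Real.log_nonneg h1, fun Λ hΛ hl => h0 Λ ?_⟩
  rw [Real.log_le_log_iff (by linarith) hΛ] at hl
  exact (le_max_left _ _).trans hl

/-- all comparisons for large `Λ` -/
structure Num (m : ℕ) (a b b' c' A c c₂ Cp Λ : ℝ) : Prop where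
  n1 : 32 ≤ Λ
  n2 : 7 * PX 0 (-a) Λ ≤ 1
  n3 : Real.exp 5 * PX 0 (-b') Λ ≤ 1 / 2 * PX 0 (-a) Λ
  n4 : Real.exp 5 * PX 0 (-b') Λ ≤ 1 / 4
  n5 : PX (-1 / 2) 0 Λ ≤ 1 / 4
  n6 : 8 * Real.exp 5 * PX (-1 / 2) a Λ ≤ PX (-1 / 2) b Λ
  n7 : (A + 1) * Real.exp 4 * PX (-1 / 2) 0 Λ ≤ PX (-1 / 2) b Λ
  n8 : PX (-1 / 2) b Λ ≤ PX 0 (-b') Λ
  n9 : Cp * PX (-1) (a * m - 2 * b') Λ ≤ c₂ * PX (-1) (-c') Λ
  n10 : PX (-1) 0 Λ ≤ c
  n11 : PX 0 (-1) Λ ≤ c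

theorem ev_num (m : ℕ) {a b b' c' A c c₂ : ℝ} (Cp : ℝ) (ha : 1 ≤ a) (hb : a + 1 ≤ b)
    (hb' : a + 1 ≤ b') (hc' : c' + a * m < 2 * b') (hc : 0 < c) (hc₂ : 0 < c₂) :
    ∀ᶠ Λ : ℝ in atTop, Num m a b b' c' A c c₂ Cp Λ := by
  filter_upwards [eventually_ge_atTop (32:ℝ),
    ev_small 7 one_pos (show Par_504.Lt 0 (-a) 0 0 from Or.inr ⟨rfl, by linarith⟩),
    ev_le' (Real.exp 5) (show (0:ℝ) < 1 / 2 by norm_num)
      (show Par_504.Lt 0 (-b') 0 (-a) from Or.inr ⟨rfl, by linarith⟩),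
    ev_small (Real.exp 5) (show (0:ℝ) < 1 / 4 by norm_num)
      (show Par_504.Lt 0 (-b') 0 0 from Or.inr ⟨rfl, by linarith⟩),
    ev_small 1 (show (0:ℝ) < 1 / 4 by norm_num)
      (show Par_504.Lt (-1 / 2) 0 0 0 from Or.inl (by norm_num)),
    ev_le (8 * Real.exp 5) (show Par_504.Lt (-1 / 2) a (-1 / 2) b from Or.inr ⟨rfl, by linarith⟩),
    ev_le ((A + 1) * Real.exp 4)
      (show Par_504.Lt (-1 / 2) 0 (-1 / 2) b from Or.inr ⟨rfl, by linarith⟩),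
    ev_le 1 (show Par_504.Lt (-1 / 2) b 0 (-b') from Or.inl (by norm_num)),
    ev_le' Cp hc₂ (show Par_504.Lt (-1) (a * m - 2 * b') (-1) (-c') from
      Or.inr ⟨rfl, by linarith⟩),
    ev_small 1 hc (show Par_504.Lt (-1) 0 0 0 from Or.inl (by norm_num)),
    ev_small 1 hc (show Par_504.Lt 0 (-1) 0 0 from Or.inr ⟨rfl, by norm_num⟩)]
    with Λ h1 h2 h3 h4 h5 h6 h7 h8 h9 h10 h11
  rw [one_mul] at h5 h8 h10 h11
  exact ⟨h1, h2, h3, h4, h5, h6, h7, h8, h9, h10, h11⟩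

/-! ### the lower bound at the tall centres -/

/-- the constant -/
def cD (m : ℕ) (cS : ℝ) : ℝ :=
  7 * (Real.exp ((2 - m) * (Real.log 8 + 1)) * (1 / 3 * cS) * Md m)

theorem cD_pos {m : ℕ} {cS : ℝ} (hm : 0 < m) (hcS : 0 < cS) : 0 < cD m cS := by
  have := Md_pos hm
  unfold cD
  positivity

/-- `7 Λ^-a Dt = cD Λ^-(2m+3)a D` -/
theorem Dt_eq (m : ℕ) {a cS D : ℝ} (hD : 0 < D) (hD1 : D < 1) :
    7 * Lam D ^ (-a) * Dt m (hOf a D) (tOf a D) (lamOf cS a D) =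
      cD m cS * (Lam D ^ (-((2 * m + 3) * a)) * D) := by
  have hΛ := Lam_pos hD hD1
  set Λ := Lam D with hΛd
  have hs : √D = PX (-1 / 2) 0 Λ := Par_504.sqrt_D_eq_X hD
  have hh : hOf a D = PX (-1 / 2) (-a) Λ := by
    unfold hOf
    rw [hs, Par_504.rpow_eq_X hΛ, Par_504.X_mul]
    congr 1 <;> ring
  have ht : tOf a D = PX (-1 / 2) a Λ := by
    unfold tOf
    rw [hs, Par_504.rpow_eq_X hΛ, Par_504.X_mul]
    congr 1 <;> ring
  have hlam : lamOf cS a D = cS * PX 0 (-4 * a) Λ := by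
    unfold lamOf
    rw [hh, ht, Par_504.X_div, Par_504.X_pow]
    congr 2 <;> push_cast <;> ring
  have hlog : Real.exp ((2 - m) * (Real.log (8 * tOf a D) + 1)) =
      Real.exp ((2 - m) * (Real.log 8 + 1)) * PX (-(2 - m) / 2) ((2 - m) * a) Λ := by
    rw [ht, Real.log_mul (by norm_num) (Par_504.X_ne _ _ _), Par_504.log_X]
    unfold Par_504.X
    rw [← Real.exp_add]
    congr 1
    ring
  have hDX : D = PX (-1) 0 Λ := Par_504.D_eq_X hD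
  have e1 : Lam D ^ (-((2 * m + 3) * a)) * D = PX (-1) (-((2 * m + 3) * a)) Λ := by
    rw [← hΛd, Par_504.rpow_eq_X hΛ]
    conv_lhs => rw [hDX]
    rw [Par_504.X_mul]
    congr 1 <;> ring
  rw [e1]
  unfold Dt cD
  rw [hlog, hlam, hh, Par_504.X_pow, Par_504.rpow_eq_X hΛ]
  have e2 : PX (-1) (-((2 * m + 3) * a)) Λ = PX 0 (-a) Λ * (PX (-(2 - m) / 2) ((2 - m) * a) Λ *
      (PX 0 (-4 * a) Λ * PX (m * (-1 / 2)) (m * (-a)) Λ)) := by
    rw [Par_504.X_mul, Par_504.X_mul, Par_504.X_mul]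
    congr 1 <;> ring
  rw [e2]
  ring

/-! ### the decaying error at the top -/

/-- the constant of `P_le` -/
def cP (m : ℕ) (C : ℝ) : ℝ :=
  14 * (C * Real.exp 10 * (4 * Md m + (m - 1) / 2 *
    ((∫ y : Euc m, w0.psi y) * (m * (1 + m / 2) * 4 ^ m))))

variable {m n : ℕ} {a : ℝ} {X : Sit m n a} {Q : ℕ} {K cS ds M : ℝ}

theorem P_le {C b' : ℝ} (hC0 : 0 ≤ C) (hok : (daOf X Q K cS ds).OkAS 4 (√X.D) X.δ (1 / 3) 4 12 w2)
    (hD : 0 < X.D) (hD1 : X.D < 1) (hδ1 : X.δ ≤ 1) (ha : 0 ≤ a) (hΛ : 1 ≤ Lam X.D)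
    (hC : ∀ y ∈ closedBall (0 : Euc m) 3, ∀ r, 0 < r → √X.D ≤ r → r ≤ 1 / 4 →
      MB X.V X.π y r ≤ C * r ^ m)
    {x : Euc m} (hx : ‖x‖ ≤ 1) (hs : √X.D ≤ 1 / 4) (hτ1 : tauOf a X.D ≤ 1)
    (hT1 : Real.exp 5 * Lam X.D ^ (-b') ≤ 1 / 4) (hT2 : √X.D ≤ Real.exp 5 * Lam X.D ^ (-b')) :
    (daOf X Q K cS ds).P x (Real.log (Lam X.D ^ (-b')) + 5) ≤
      cP m C * PX (-1) (a * m - 2 * b') (Lam X.D) := by
  have hL := Lam_pos hD hD1
  set Λ := Lam X.D with hΛd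
  have hst : 0 < Λ ^ (-b') := Real.rpow_pos_of_pos hL _
  have hτ0 : 0 < tauOf a X.D := tauOf_pos hD hD1
  have hsD : 0 < √X.D := Real.sqrt_pos.2 hD
  set l : ℝ := Real.log (Λ ^ (-b')) + 5 with hl
  have hel : Real.exp l = Real.exp 5 * Λ ^ (-b') := by
    rw [hl, Real.exp_add, Real.exp_log hst]
    ring
  have hΛa : 1 ≤ Λ ^ a := Real.one_le_rpow hΛ ha
  have hAτ : 4 * Λ ^ a * tauOf a X.D = √X.D := by
    unfold tauOf hOf
    rw [← hΛd, Real.rpow_neg hL.le]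
    have : Λ ^ a ≠ 0 := by positivity
    field_simp
  have hm := hok.m2
  have hm1 : (1:ℝ) ≤ m := by exact_mod_cast (by lia : 1 ≤ m)
  have hxe : ∀ y : Euc m, ‖y - x‖ ≤ Real.exp l + tauOf a X.D → ‖y‖ ≤ 3 := by
    intro y hy
    have h1 : ‖y‖ ≤ ‖y - x‖ + ‖x‖ := by
      have := norm_add_le (y - x) x
      simpa using this
    rw [hel] at hy
    linarith
  have key := Shp3_98.PY_le (x := x) (δ := 7 * X.δ) (by lia) hok.ok.ff hok.ok.hh hok.τ0 hok.prof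
    (Kg := 4) (fun t ht => (w0_up ht).1) (by linarith [hok.δA0]) (l := l) (M := C)
    (A := 4 * Λ ^ a) (r₁ := √X.D) (r₂ := 1 / 4) (by linarith) (by rw [hel]; exact hT2)
    (by rw [hel]; exact hT1) (by change √X.D ≤ 4 * Λ ^ a * tauOf a X.D; rw [hAτ])
    (by change 4 * Λ ^ a * tauOf a X.D ≤ 1 / 4; rw [hAτ]; exact hs)
    (fun y hy r h1 h2 => by
      have h3 := hC y (by rw [mem_closedBall_zero_iff]; exact hxe y hy) r (hsD.trans_le h1) h1 h2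
      exact h3)
  have e0 : (daOf X Q K cS ds).P x l = PY (7 * X.δ) (daOf X Q K cS ds).W (daOf X Q K cS ds).π
    (daOf X Q K cS ds).κ (daOf X Q K cS ds).τ (daOf X Q K cS ds).w x l := rfl
  rw [e0]
  refine key.trans ?_
  have e1 : Real.exp (2 * l) = Real.exp 10 * Λ ^ (-(2 * b')) := by
    have h1 : Real.exp (2 * l) = Real.exp l ^ 2 := by
      rw [← Real.exp_nat_mul]; norm_num
    rw [h1, hel, mul_pow, ← Real.exp_nat_mul, ← Real.rpow_natCast (Λ ^ (-b')) 2,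
      ← Real.rpow_mul hL.le]
    congr 1
    · norm_num
    · congr 1; push_cast; ring
  have e2 : √X.D ^ 2 = X.D := Real.sq_sqrt hD.le
  have e3 : (4 * Λ ^ a) ^ m = 4 ^ m * Λ ^ (a * m) := by
    rw [mul_pow, ← Real.rpow_natCast (Λ ^ a) m, ← Real.rpow_mul hL.le]
  have hψ : 0 ≤ ∫ y : Euc m, w0.psi y := integral_nonneg fun y => w0.psi_nonneg y
  have hMd : 0 ≤ Md m := (Md_pos (by lia)).le
  have h1am : 1 ≤ Λ ^ (a * m) := Real.one_le_rpow hΛ (by positivity)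
  set Ψ := ∫ y : Euc m, w0.psi y with hΨ
  rw [e1, e2, e3]
  have e4 : PX (-1) (a * m - 2 * b') Λ = X.D * (Λ ^ (-(2 * b')) * Λ ^ (a * m)) := by
    rw [Par_504.rpow_eq_X hL, Par_504.rpow_eq_X hL]
    conv_rhs => rw [show X.D = PX (-1) 0 Λ from Par_504.D_eq_X hD]
    rw [Par_504.X_mul, Par_504.X_mul]
    congr 1 <;> ring
  rw [e4]
  have hb2 : 0 ≤ Λ ^ (-(2 * b')) := (Real.rpow_pos_of_pos hL _).le
  have h2 : 4 * Md m + (m - 1) / 2 * (Ψ * (m * (1 + m / 2) * (4 ^ m * Λ ^ (a * m)))) ≤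
      (4 * Md m + (m - 1) / 2 * (Ψ * (m * (1 + m / 2) * 4 ^ m))) * Λ ^ (a * m) := by
    have h3 : 4 * Md m ≤ 4 * Md m * Λ ^ (a * m) := le_mul_of_one_le_right (by positivity) h1am
    calc _ = 4 * Md m + (m - 1) / 2 * (Ψ * (m * (1 + m / 2) * 4 ^ m)) * Λ ^ (a * m) := by ring
      _ ≤ 4 * Md m * Λ ^ (a * m) +
          (m - 1) / 2 * (Ψ * (m * (1 + m / 2) * 4 ^ m)) * Λ ^ (a * m) := by linarith
      _ = _ := by ring
  have h4 : 0 ≤ X.D * C * (Real.exp 10 * Λ ^ (-(2 * b'))) := by positivity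
  have h5 := mul_le_mul_of_nonneg_left h2 h4
  have h6 : 0 ≤ (4 * Md m + (m - 1) / 2 * (Ψ * (m * (1 + m / 2) * 4 ^ m))) := by
    have : 0 ≤ (m:ℝ) - 1 := by linarith
    positivity
  have h7 : 0 ≤ X.D * C * (Real.exp 10 * Λ ^ (-(2 * b'))) *
      ((4 * Md m + (m - 1) / 2 * (Ψ * (m * (1 + m / 2) * 4 ^ m))) * Λ ^ (a * m)) := by positivity
  have hδ0 := hok.δA0
  have h8 : 2 * (7 * X.δ) ≤ 14 := by linarith
  have h9 := mul_le_mul h8 h5 (by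
    have : 0 ≤ (m:ℝ) - 1 := by linarith
    positivity) (by norm_num : (0:ℝ) ≤ 14)
  refine h9.trans (le_of_eq ?_)
  unfold cP
  rw [← hΨ]
  ring

end Crest.Agent.R234.Fld_387
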