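import Crest.Agent.R234.Fm9_281
import Crest.Agent.R234.Fc8_209
import Crest.Agent.R234.Al9_182

/-!
# Row 234, VF-FERMI (helper281), file 10: a stationary varifold near a minimal graph is almost
stationary in the Fermi chart

`fermi`: for the chart of helper209 (`Fc_209.exists_chart`) of a function `u` with small derivatives
solving the minimal surface system on a ball.
-/

set_option autoImplicit false

open MeasureTheory Filter Topology Set
open Crest.GeometryTopology.Submanifold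
open Crest.Agent.R234.Vf_884
open Crest.Agent.R234.Ar_870 (IsCo tl)
open Crest.Agent.R234.AS_456 (hp vp errA err AS)
open Crest.Agent.R234.Ft_209 (Dif)
open Crest.Agent.R234.Cy_870 (Split)
open Crest.Agent.R234.Fc_209 (IsChart Bd)
open Crest.Agent.R234.Main_456 (Msys)
open scoped InnerProductSpace

noncomputable section

namespace Crest.Agent.R234.Fm_281

variable {m n k : ℕ}

theorem cht_of {π : Euc k →L[ℝ] Euc m} {κ : Euc k →L[ℝ] Euc n} {u : Euc m → Euc n} {l e r : ℝ}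
    {T : Dif k} (hs : Split π κ) (hu : ContDiff ℝ 3 u) (hl : 0 ≤ l) (hb : Bd u l)
    (hM : ∀ x ∈ Metric.ball (0 : Euc m) r, Msys u x = 0) (hT : IsChart T π κ u e) :
    Cht m T π {z | ‖π z‖ < r ∧ ‖κ z‖ < 3} l (Fc_209.P π κ u) (Fc_209.P' π κ u)
      (Fc_209.h π κ u) (Fc_209.h1 π κ u) where
  co := hs.hh
  cP' := (Fc_209.contDiff_P' hu).continuous
  dP := Fc_209.hasFDerivAt_P hu
  g z hz := hT.gm_eq z hz.2
  dg z hz ζ := hT.dGm_eq z ζ hz.2
  pt _ hz hy ζ := Fc_209.pt hs hu hl hb hM hz.1 hy ζ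

/-- the region of the chart -/
def Wr (π : Euc k →L[ℝ] Euc m) (κ : Euc k →L[ℝ] Euc n) (T : Dif k) (r : ℝ) (U : Set (Euc k)) :
    Set (Euc k) := {z | ‖π z‖ < r ∧ ‖κ z‖ < 3} ∩ T.Φ ⁻¹' U

/-- **FERMI**: chart of a minimal graph; the transported stationary varifold is almost
stationary. -/
theorem fermi (m n k : ℕ) : ∃ c C : ℝ, 0 < c ∧ 0 < C ∧
    ∀ (π : Euc k →L[ℝ] Euc m) (κ : Euc k →L[ℝ] Euc n) (u : Euc m → Euc n) (l : ℝ),
      Split π κ → ContDiff ℝ 3 u → 0 ≤ l → l ≤ c → Bd u l →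
      ∃ T : Dif k, IsChart T π κ u (C * l) ∧
        ∀ r : ℝ, (∀ x ∈ Metric.ball (0 : Euc m) r, Msys u x = 0) →
        ∀ (U : Set (Euc k)) (V : Measure (Euc k × L k)) (h0 : ℝ), Stat m k U V → h0 ≤ 1 →
          (∀ᵐ p ∂(T.push V), p.1 ∈ Wr π κ T r U → ‖vp π p.1‖ ≤ h0) →
          AS π (Wr π κ T r U) (C * (l * (l + h0))) (T.push V) := by
  obtain ⟨c, C, hc, -, hC, hAS⟩ := exists_AS m k
  obtain ⟨c', C', hc', hC', hch⟩ := Fc_209.exists_chart n
  refine ⟨min c c', max C C', lt_min hc hc', lt_max_of_lt_left hC, ?_⟩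
  intro π κ u l hs hu hl hlc hb
  obtain ⟨T, hT⟩ := hch m k π κ u l hs hu hl (hlc.trans (min_le_right _ _)) hb
  have hT' : IsChart T π κ u (max C C' * l) :=
    { Φ_eq := hT.Φ_eq
      near := fun z => (hT.near z).trans
        (by gcongr; exact le_max_right _ _)
      nA := fun z => (hT.nA z).trans (mul_le_mul_of_nonneg_right (le_max_right _ _) hl)
      A_eq := hT.A_eq
      dA_eq := hT.dA_eq
      gm_eq := hT.gm_eq
      dGm_eq := hT.dGm_eq }
  refine ⟨T, hT', fun r hM U V h0 hV hh hy => ?_⟩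
  have h1 := hAS T π {z | ‖π z‖ < r ∧ ‖κ z‖ < 3} U l h0 _ _ _ _ V (cht_of hs hu hl hb hM hT)
    (hlc.trans (min_le_left _ _)) hh hV hy
  rcases le_or_gt 0 h0 with h00 | h00
  · refine h1.mono hs.hh ?_
    exact mul_le_mul_of_nonneg_right (le_max_left _ _) (mul_nonneg hl (by linarith))
  · -- no mass in the region
    have hz : ∀ᵐ p ∂(T.push V), p.1 ∉ Wr π κ T r U := by
      filter_upwards [hy] with p hp hpW
      exact absurd ((norm_nonneg _).trans (hp hpW)) (not_le.2 h00)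
    refine ⟨h1.conc, h1.fin, fun X hX hXc hXU => ?_⟩
    have e1 : ∫ p, tr ((fderiv ℝ X p.1) ∘L p.2) ∂(T.push V) = 0 := by
      rw [← integral_zero (Euc k × L k) ℝ (μ := T.push V)]
      refine integral_congr_ae ?_
      filter_upwards [hz] with p hp
      have h1 : fderiv ℝ X p.1 = 0 := by
        by_contra h
        exact hp (hXU (support_fderiv_subset ℝ h))
      rw [h1, ContinuousLinearMap.zero_comp, map_zero]
    have e2 : ∫ p, err π (max C C' * (l * (l + h0))) X p ∂(T.push V) = 0 := by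
      rw [← integral_zero (Euc k × L k) ℝ (μ := T.push V)]
      refine integral_congr_ae ?_
      filter_upwards [hz] with p hp
      exact AS_456.err_eq_zero (fun h => hp (hXU h)) _
    rw [e1, e2, abs_zero]

/-- **FERMI for data**: the transported data of an integral stationary varifold. -/
theorem fermi_data (m n k : ℕ) : ∃ c C : ℝ, 0 < c ∧ 0 < C ∧
    ∀ (π : Euc k →L[ℝ] Euc m) (κ : Euc k →L[ℝ] Euc n) (u : Euc m → Euc n) (l : ℝ),
      Split π κ → ContDiff ℝ 3 u → 0 ≤ l → l ≤ c → Bd u l →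
      ∃ T : Dif k, IsChart T π κ u (C * l) ∧
        ∀ r : ℝ, (∀ x ∈ Metric.ball (0 : Euc m) r, Msys u x = 0) →
        ∀ (U : Set (Euc k)) (D : VarifoldData m k) (h0 : ℝ), IsIntegralVarifoldIn U D →
          IsStationaryIn U D → h0 ≤ 1 →
          (∀ z ∈ support (T.data D), z ∈ Wr π κ T r U → ‖κ z‖ ≤ h0) →
          IsIntegralVarifoldIn (T.Φ ⁻¹' U) (T.data D) ∧
          AS π (Wr π κ T r U) (C * (l * (l + h0))) (VD (T.data D)) := by
  obtain ⟨c, C, hc, hC, h⟩ := fermi m n k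
  refine ⟨c, C, hc, hC, ?_⟩
  intro π κ u l hs hu hl hlc hb
  obtain ⟨T, hT, hT2⟩ := h π κ u l hs hu hl hlc hb
  refine ⟨T, hT, fun r hM U D h0 hD hst hh hy => ?_⟩
  have hi := T.isIntegral hD
  refine ⟨hi, ?_⟩
  rw [T.VD_data hD]
  refine hT2 r hM U (VD D) h0 (stat_VD hD hst) hh ?_
  rw [← T.VD_data hD]
  filter_upwards [Al9_182.ae_mem_support hi] with p hp hpW
  rw [Fc_209.norm_vp hs]
  exact hy p.1 hp hpW

end Crest.Agent.R234.Fm_281
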