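import Crest.Agent.R234.Ar5_870

/-!
# Row 234, VF-FERMI, matrix part, file 1 (helper209)

Local bounds of determinant and inverse near the identity of a finite dimensional space, the
identity `det (1 + A B) = det (1 + B A)` and the push-through identity.
-/

set_option autoImplicit false

open Function Set
open scoped InnerProductSpace

noncomputable section

namespace Crest.Agent.R234.Fm_209

section General

variable {E F : Type*} [NormedAddCommGroup E] [InnerProductSpace ℝ E] [FiniteDimensional ℝ E]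
  [NormedAddCommGroup F] [InnerProductSpace ℝ F] [FiniteDimensional ℝ F]

/-- the trace -/
def trc (E : Type*) [NormedAddCommGroup E] [InnerProductSpace ℝ E] [FiniteDimensional ℝ E] :
    (E →L[ℝ] E) →L[ℝ] ℝ :=
  LinearMap.toContinuousLinearMap (LinearMap.trace ℝ E ∘ₗ ContinuousLinearMap.coeLM ℝ)

theorem trc_apply (A : E →L[ℝ] E) : trc E A = LinearMap.trace ℝ E (A : E →ₗ[ℝ] E) := rfl

theorem trc_comp_comm (A : F →L[ℝ] E) (B : E →L[ℝ] F) : trc E (A ∘L B) = trc F (B ∘L A) := by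
  rw [trc_apply, trc_apply]
  exact LinearMap.trace_comp_comm' (B : E →ₗ[ℝ] F) (A : F →ₗ[ℝ] E)

theorem abs_trc_le (A : E →L[ℝ] E) : |trc E A| ≤ ‖trc E‖ * ‖A‖ := by
  rw [← Real.norm_eq_abs]
  exact (trc E).le_opNorm A

theorem contDiff_det : ContDiff ℝ ⊤ (fun A : E →L[ℝ] E => A.det) := by
  classical
  set b := stdOrthonormalBasis ℝ E with hb
  have h : (fun A : E →L[ℝ] E => A.det) = fun A : E →L[ℝ] E =>
      ∑ σ : Equiv.Perm (Fin (Module.finrank ℝ E)), (Equiv.Perm.sign σ : ℝ) *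
        ∏ i, ⟪b (σ i), A (b i)⟫_ℝ := by
    funext A
    have h1 : A.det = (LinearMap.toMatrix b.toBasis b.toBasis (A : E →ₗ[ℝ] E)).det :=
      (LinearMap.det_toMatrix b.toBasis (A : E →ₗ[ℝ] E)).symm
    rw [h1, Matrix.det_apply']
    refine Finset.sum_congr rfl fun σ _ => ?_
    congr 1
    refine Finset.prod_congr rfl fun i _ => ?_
    rw [LinearMap.toMatrix_apply]
    simp [OrthonormalBasis.repr_apply_apply]
  rw [h]
  refine ContDiff.sum fun σ _ => contDiff_const.mul (contDiff_prod fun i _ => ?_)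
  exact (innerSL ℝ (b (σ i))).contDiff.comp
    (((ContinuousLinearMap.apply ℝ E (b i)).contDiff).comp contDiff_id)

theorem continuous_det : Continuous (fun A : E →L[ℝ] E => A.det) := contDiff_det.continuous

theorem det_one : (1 : E →L[ℝ] E).det = 1 := by
  simp [ContinuousLinearMap.det]

variable (E) in
/-- local bounds of the square root of the determinant near the identity -/
theorem exists_det : ∃ c C : ℝ, 0 < c ∧ c ≤ 1 / 2 ∧ 0 ≤ C ∧
    (∀ A : E →L[ℝ] E, ‖A‖ ≤ c → 1 / 4 ≤ (1 + A).det ∧ (1 + A).det ≤ 4) ∧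
    ∀ A B : E →L[ℝ] E, ‖A‖ ≤ c → ‖B‖ ≤ c →
      |Real.sqrt (1 + A).det - Real.sqrt (1 + B).det| ≤ C * ‖A - B‖ := by
  have hc1 : ContinuousAt (fun A : E →L[ℝ] E => (1 + A).det) 0 :=
    (continuous_det.comp (continuous_const.add continuous_id)).continuousAt
  have h0 : (1 + (0 : E →L[ℝ] E)).det = 1 := by rw [add_zero, det_one]
  obtain ⟨d, hd, hdd⟩ := Metric.continuousAt_iff.1 hc1 (1 / 2) (by norm_num)
  set c : ℝ := min (d / 2) (1 / 2) with hc
  have hcp : 0 < c := lt_min (by linarith) (by norm_num)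
  have hc2 : c ≤ 1 / 2 := min_le_right _ _
  have hcd : c ≤ d / 2 := min_le_left _ _
  have hA : ∀ A : E →L[ℝ] E, ‖A‖ ≤ c → 1 / 4 ≤ (1 + A).det ∧ (1 + A).det ≤ 4 := by
    intro A hA
    have h1 := hdd (x := A) (by rw [dist_zero_right]; linarith)
    rw [h0, Real.dist_eq, abs_lt] at h1
    constructor <;> linarith [h1.1, h1.2]
  have hcd : ContDiff ℝ 1 (fun A : E →L[ℝ] E => (1 + A).det) :=
    (contDiff_det.of_le le_top).comp (contDiff_const.add contDiff_id)
  obtain ⟨C, hC⟩ := (isCompact_closedBall (0 : E →L[ℝ] E) c).exists_bound_of_continuousOn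
    (hcd.continuous_fderiv one_ne_zero).continuousOn
  have hC0 : 0 ≤ C := (norm_nonneg _).trans (hC 0 (Metric.mem_closedBall_self hcp.le))
  refine ⟨c, C, hcp, hc2, hC0, hA, fun A B hAc hBc => ?_⟩
  have h1 : ‖(1 + A).det - (1 + B).det‖ ≤ C * ‖A - B‖ :=
    (convex_closedBall (0 : E →L[ℝ] E) c).norm_image_sub_le_of_norm_fderiv_le
      (fun x _ => (hcd.differentiable one_ne_zero) x) hC
      (by rwa [mem_closedBall_zero_iff]) (by rwa [mem_closedBall_zero_iff])
  rw [Real.norm_eq_abs] at h1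
  have hA1 := (hA A hAc).1
  have hB1 := (hA B hBc).1
  have hsA : 1 / 2 ≤ Real.sqrt (1 + A).det := by
    rw [show (1:ℝ) / 2 = Real.sqrt (1 / 4) by
      rw [show (1:ℝ) / 4 = (1 / 2) ^ 2 by norm_num, Real.sqrt_sq (by norm_num)]]
    exact Real.sqrt_le_sqrt hA1
  have hsB : 1 / 2 ≤ Real.sqrt (1 + B).det := by
    rw [show (1:ℝ) / 2 = Real.sqrt (1 / 4) by
      rw [show (1:ℝ) / 4 = (1 / 2) ^ 2 by norm_num, Real.sqrt_sq (by norm_num)]]
    exact Real.sqrt_le_sqrt hB1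
  have h2 : (1 + A).det - (1 + B).det = (Real.sqrt (1 + A).det - Real.sqrt (1 + B).det) *
      (Real.sqrt (1 + A).det + Real.sqrt (1 + B).det) := by
    have e1 := Real.sq_sqrt (show 0 ≤ (1 + A).det by linarith)
    have e2 := Real.sq_sqrt (show 0 ≤ (1 + B).det by linarith)
    nlinarith [e1, e2]
  rw [h2, abs_mul] at h1
  refine le_trans ?_ h1
  refine le_mul_of_one_le_right (abs_nonneg _) ?_
  rw [abs_of_nonneg (by linarith)]
  linarith

/-- `1 + A` is a unit for `‖A‖ ≤ 1/2`, with inverse of norm `≤ 2` -/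
theorem exists_inv {A : E →L[ℝ] E} (hA : ‖A‖ ≤ 1 / 2) :
    ∃ X : E →L[ℝ] E, X * (1 + A) = 1 ∧ (1 + A) * X = 1 ∧ ‖X‖ ≤ 2 ∧ Ring.inverse (1 + A) = X := by
  have h1 : ‖-A‖ < 1 := by rw [norm_neg]; linarith
  set u : (E →L[ℝ] E)ˣ := Units.oneSub (-A) h1 with hu
  have hu1 : (u : E →L[ℝ] E) = 1 + A := by rw [hu, Units.val_oneSub]; simp
  refine ⟨(↑u⁻¹ : E →L[ℝ] E), ?_, ?_, ?_, ?_⟩
  · rw [← hu1]; exact u.inv_mul
  · rw [← hu1]; exact u.mul_inv
  · refine ContinuousLinearMap.opNorm_le_bound _ (by norm_num) fun v => ?_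
    set w := (↑u⁻¹ : E →L[ℝ] E) v with hw
    have h2 : w + A w = v := by
      have h3 : ((1 + A) * (↑u⁻¹ : E →L[ℝ] E)) v = v := by
        rw [← hu1, u.mul_inv]; rfl
      exact h3
    have h4 : ‖w‖ ≤ ‖v‖ + ‖A w‖ := by
      have : w = v - A w := by rw [← h2]; abel
      calc ‖w‖ = ‖v - A w‖ := by rw [← this]
        _ ≤ _ := norm_sub_le _ _
    have h5 : ‖A w‖ ≤ 1 / 2 * ‖w‖ := (A.le_opNorm w).trans
      (mul_le_mul_of_nonneg_right hA (norm_nonneg _))
    linarith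
  · rw [← hu1, Ring.inverse_unit]

/-- `det (1 + A B) = det (1 + B A)` -/
theorem det_one_add_comm (A : F →L[ℝ] E) (B : E →L[ℝ] F) :
    (1 + A ∘L B).det = (1 + B ∘L A).det := by
  classical
  set b := stdOrthonormalBasis ℝ E with hb
  set c := stdOrthonormalBasis ℝ F with hc
  have h1 : (1 + A ∘L B).det =
      (LinearMap.toMatrix b.toBasis b.toBasis ((1 + A ∘L B : E →L[ℝ] E) : E →ₗ[ℝ] E)).det :=
    (LinearMap.det_toMatrix b.toBasis _).symm
  have h2 : (1 + B ∘L A).det =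
      (LinearMap.toMatrix c.toBasis c.toBasis ((1 + B ∘L A : F →L[ℝ] F) : F →ₗ[ℝ] F)).det :=
    (LinearMap.det_toMatrix c.toBasis _).symm
  have e1 : ((1 + A ∘L B : E →L[ℝ] E) : E →ₗ[ℝ] E) =
      LinearMap.id + (A : F →ₗ[ℝ] E) ∘ₗ (B : E →ₗ[ℝ] F) := rfl
  have e2 : ((1 + B ∘L A : F →L[ℝ] F) : F →ₗ[ℝ] F) =
      LinearMap.id + (B : E →ₗ[ℝ] F) ∘ₗ (A : F →ₗ[ℝ] E) := rfl
  rw [h1, h2, e1, e2, map_add, map_add, LinearMap.toMatrix_id, LinearMap.toMatrix_id,
    LinearMap.toMatrix_comp b.toBasis c.toBasis b.toBasis,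
    LinearMap.toMatrix_comp c.toBasis b.toBasis c.toBasis, Matrix.det_one_add_mul_comm]

end General

end Crest.Agent.R234.Fm_209
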