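import Crest.Agent.R234.Fm1_209

/-!
# Row 234, VF-FERMI (helper281), file 1: operator algebra

Two orthogonal projections `H` (horizontal) and `S` (tangent plane) of `ℝ^k` and the tilt
`tau H S = tr ((1 - H) * S)`: bounds of all blocks.
-/

set_option autoImplicit false

open Crest.GeometryTopology.Submanifold
open Crest.Agent.R234.Vf_884
open scoped InnerProductSpace

noncomputable section

namespace Crest.Agent.R234.Fm_281

variable {m k : ℕ}

theorem tr_mul_comm (A B : L k) : tr (A * B) = tr (B * A) := tr_comm A B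

theorem abs_tr_le (A : L k) : |tr A| ≤ k * ‖A‖ := by
  rw [tr_eq_sum]
  refine (Finset.abs_sum_le_sum_abs _ _).trans ?_
  have h : ∀ i ∈ (Finset.univ : Finset (Fin k)), |⟪stdVec k i, A (stdVec k i)⟫_ℝ| ≤ ‖A‖ := by
    intro i _
    have h1 : ‖stdVec k i‖ = 1 := by simp [stdVec]
    calc |⟪stdVec k i, A (stdVec k i)⟫_ℝ| ≤ ‖stdVec k i‖ * ‖A (stdVec k i)‖ :=
          abs_real_inner_le_norm _ _
      _ ≤ 1 * (‖A‖ * 1) := by
          rw [h1]
          refine mul_le_mul_of_nonneg_left ?_ zero_le_one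
          exact (A.le_opNorm _).trans (by rw [h1])
      _ = ‖A‖ := by ring
  refine (Finset.sum_le_sum h).trans ?_
  simp

theorem abs_tr_mul_le (A B : L k) : |tr (A * B)| ≤ k * (‖A‖ * ‖B‖) :=
  (abs_tr_le _).trans (mul_le_mul_of_nonneg_left (norm_mul_le A B) (Nat.cast_nonneg _))

theorem star_def (A : L k) : star A = ContinuousLinearMap.adjoint A := rfl

/-- the operator norm is bounded by the Hilbert-Schmidt norm -/
theorem norm_sq_le_tr (B : L k) : ‖B‖ ^ 2 ≤ tr (star B * B) := by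
  have h0 : tr (star B * B) = ∑ i, ‖B (stdVec k i)‖ ^ 2 := by
    rw [tr_eq_sum]
    refine Finset.sum_congr rfl fun i _ => ?_
    rw [← real_inner_self_eq_norm_sq]
    exact ContinuousLinearMap.adjoint_inner_right B _ _
  have hs : 0 ≤ tr (star B * B) := by
    rw [h0]; exact Finset.sum_nonneg fun i _ => sq_nonneg _
  have h1 : ‖B‖ ≤ Real.sqrt (tr (star B * B)) := by
    refine ContinuousLinearMap.opNorm_le_bound _ (Real.sqrt_nonneg _) fun x => ?_
    have hx : x = ∑ i, x i • stdVec k i := by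
      ext j
      simp [stdVec, Pi.single_apply]
    have h2 : ‖B x‖ ≤ ∑ i, |x i| * ‖B (stdVec k i)‖ := by
      conv_lhs => rw [hx, map_sum]
      refine (norm_sum_le _ _).trans (Finset.sum_le_sum fun i _ => ?_)
      rw [map_smul, norm_smul, Real.norm_eq_abs]
    have h3 : (∑ i, |x i| * ‖B (stdVec k i)‖) ^ 2 ≤
        (∑ i, |x i| ^ 2) * ∑ i, ‖B (stdVec k i)‖ ^ 2 := Finset.sum_mul_sq_le_sq_mul_sq _ _ _
    have h4 : ∑ i, |x i| ^ 2 = ‖x‖ ^ 2 := by
      rw [EuclideanSpace.norm_sq_eq]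
      exact Finset.sum_congr rfl fun i _ => by rw [Real.norm_eq_abs]
    refine h2.trans ?_
    rw [h4, ← h0] at h3
    refine (Real.le_sqrt (Finset.sum_nonneg fun i _ => mul_nonneg (abs_nonneg _)
      (norm_nonneg _)) ?_).2 h3 |>.trans ?_
    · exact mul_nonneg (sq_nonneg _) hs
    · rw [Real.sqrt_mul (sq_nonneg _), Real.sqrt_sq (norm_nonneg _), mul_comm]
  calc ‖B‖ ^ 2 ≤ Real.sqrt (tr (star B * B)) ^ 2 := by
        exact pow_le_pow_left₀ (norm_nonneg _) h1 2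
    _ = _ := Real.sq_sqrt hs

theorem norm_mul_sq_le {P Q : L k} (hP : IsStarProjection P) (hQ : IsStarProjection Q) :
    ‖P * Q‖ ^ 2 ≤ tr (P * Q) := by
  refine (norm_sq_le_tr _).trans (le_of_eq ?_)
  rw [star_mul, hP.2.star_eq, hQ.2.star_eq, mul_assoc, ← mul_assoc P P, hP.1.eq, tr_mul_comm,
    mul_assoc, hQ.1.eq]

theorem isStar_of_G {P : L k} (h : P ∈ G m k) : IsStarProjection P := ⟨h.1, h.2.1⟩

/-- the tilt of `S` against `H` -/
def tau (H S : L k) : ℝ := tr ((1 - H) * S)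

theorem tr_one' : tr (1 : L k) = k := tr_one

section Two

variable {H S : L k}

theorem tau_eq (hH : H ∈ G m k) (hS : S ∈ G m k) : tau H S = tr (H * (1 - S)) := by
  unfold tau
  rw [sub_mul, one_mul, mul_sub, mul_one, map_sub, map_sub, hH.2.2, hS.2.2]

theorem tau_nonneg (hH : H ∈ G m k) (hS : S ∈ G m k) : 0 ≤ tau H S :=
  (sq_nonneg _).trans (norm_mul_sq_le (isStar_of_G hH).one_sub (isStar_of_G hS))

theorem le_sqrt_of_sq_le {a b : ℝ} (h : a ^ 2 ≤ b) : a ≤ Real.sqrt b := Real.le_sqrt_of_sq_le h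

theorem norm_NS (hH : H ∈ G m k) (hS : S ∈ G m k) : ‖(1 - H) * S‖ ≤ Real.sqrt (tau H S) :=
  le_sqrt_of_sq_le (norm_mul_sq_le (isStar_of_G hH).one_sub (isStar_of_G hS))

theorem norm_SN (hH : H ∈ G m k) (hS : S ∈ G m k) : ‖S * (1 - H)‖ ≤ Real.sqrt (tau H S) := by
  refine le_sqrt_of_sq_le ((norm_mul_sq_le (isStar_of_G hS) (isStar_of_G hH).one_sub).trans ?_)
  rw [tr_mul_comm]; rfl

theorem norm_HT (hH : H ∈ G m k) (hS : S ∈ G m k) : ‖H * (1 - S)‖ ≤ Real.sqrt (tau H S) := by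
  refine le_sqrt_of_sq_le ((norm_mul_sq_le (isStar_of_G hH) (isStar_of_G hS).one_sub).trans ?_)
  rw [← tau_eq hH hS]

theorem norm_TH (hH : H ∈ G m k) (hS : S ∈ G m k) : ‖(1 - S) * H‖ ≤ Real.sqrt (tau H S) := by
  refine le_sqrt_of_sq_le ((norm_mul_sq_le (isStar_of_G hS).one_sub (isStar_of_G hH)).trans ?_)
  rw [tr_mul_comm, ← tau_eq hH hS]

theorem norm_one_sub_le {P : L k} (hP : IsStarProjection P) : ‖1 - P‖ ≤ 1 := hP.one_sub.norm_le

theorem sq_sqrt_tau (hH : H ∈ G m k) (hS : S ∈ G m k) :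
    Real.sqrt (tau H S) * Real.sqrt (tau H S) = tau H S := Real.mul_self_sqrt (tau_nonneg hH hS)

theorem norm_NSN (hH : H ∈ G m k) (hS : S ∈ G m k) : ‖(1 - H) * S * (1 - H)‖ ≤ tau H S := by
  have h1 : (1 - H) * S * (1 - H) = ((1 - H) * S) * (S * (1 - H)) := by
    have h2 : S * S = S := hS.1
    rw [mul_assoc ((1 - H)) S (S * (1 - H)), ← mul_assoc S S, h2, mul_assoc]
  rw [h1]
  refine (norm_mul_le _ _).trans ?_
  rw [← sq_sqrt_tau hH hS]
  exact mul_le_mul (norm_NS hH hS) (norm_SN hH hS) (norm_nonneg _) (Real.sqrt_nonneg _)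

theorem norm_HTH (hH : H ∈ G m k) (hS : S ∈ G m k) : ‖H * (1 - S) * H‖ ≤ tau H S := by
  have h1 : H * (1 - S) * H = (H * (1 - S)) * ((1 - S) * H) := by
    have h2 : (1 - S) * (1 - S) = 1 - S := (isStar_of_G hS).one_sub.1
    rw [mul_assoc H (1 - S) ((1 - S) * H), ← mul_assoc (1 - S) (1 - S), h2, mul_assoc]
  rw [h1]
  refine (norm_mul_le _ _).trans ?_
  rw [← sq_sqrt_tau hH hS]
  exact mul_le_mul (norm_HT hH hS) (norm_TH hH hS) (norm_nonneg _) (Real.sqrt_nonneg _)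

theorem tau_le (hH : H ∈ G m k) (hS : S ∈ G m k) : tau H S ≤ k := by
  have h1 := abs_tr_mul_le (1 - H) S
  have h2 : ‖1 - H‖ * ‖S‖ ≤ 1 * 1 := mul_le_mul (norm_one_sub_le (isStar_of_G hH))
    (G_norm_le hS) (norm_nonneg _) zero_le_one
  have h3 := le_abs_self (tr ((1 - H) * S))
  have hk : (0:ℝ) ≤ k := Nat.cast_nonneg _
  unfold tau
  nlinarith

end Two

/-- trace of a product in blocks -/
theorem tr_blocks {H : L k} (hH : IsStarProjection H) (A B : L k) :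
    tr (A * B) = tr ((H * A * H) * (H * B * H)) + tr ((H * A * (1 - H)) * ((1 - H) * B * H)) +
      tr (((1 - H) * A * H) * (H * B * (1 - H))) +
      tr (((1 - H) * A * (1 - H)) * ((1 - H) * B * (1 - H))) := by
  have h1 : H * H = H := hH.1
  have h2 : (1 - H) * (1 - H) = 1 - H := hH.one_sub.1
  have key : ∀ X Y A B : L k, X * X = X → Y * Y = Y →
      tr ((X * A * Y) * (Y * B * X)) = tr (X * A * Y * B) := by
    intro X Y A B hX hY
    have e1 : (X * A * Y) * (Y * B * X) = X * (A * (Y * Y) * B * X) := by noncomm_ring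
    have e2 : X * A * Y * B = X * (A * Y * B) := by noncomm_ring
    rw [e1, tr_mul_comm, hY, e2, tr_mul_comm X (A * Y * B)]
    congr 1
    rw [mul_assoc, hX]
  rw [key _ _ _ _ h1 h1, key _ _ _ _ h1 h2, key _ _ _ _ h2 h1, key _ _ _ _ h2 h2,
    ← map_add, ← map_add, ← map_add]
  congr 1
  simp only [mul_sub, sub_mul, mul_one, one_mul, mul_assoc]
  abel

theorem abs_tr_blocks_le {H : L k} (hH : IsStarProjection H) (A B : L k)
    {a₁ a₂ a₃ a₄ b₁ b₂ b₃ b₄ : ℝ} (ha₁ : ‖H * A * H‖ ≤ a₁) (ha₂ : ‖H * A * (1 - H)‖ ≤ a₂)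
    (ha₃ : ‖(1 - H) * A * H‖ ≤ a₃) (ha₄ : ‖(1 - H) * A * (1 - H)‖ ≤ a₄)
    (hb₁ : ‖H * B * H‖ ≤ b₁) (hb₂ : ‖H * B * (1 - H)‖ ≤ b₂)
    (hb₃ : ‖(1 - H) * B * H‖ ≤ b₃) (hb₄ : ‖(1 - H) * B * (1 - H)‖ ≤ b₄) :
    |tr (A * B)| ≤ k * (a₁ * b₁ + a₂ * b₃ + a₃ * b₂ + a₄ * b₄) := by
  have hk : (0:ℝ) ≤ k := Nat.cast_nonneg _
  have key : ∀ (X Y : L k) (a b : ℝ), ‖X‖ ≤ a → ‖Y‖ ≤ b → |tr (X * Y)| ≤ k * (a * b) := by
    intro X Y a b hX hY
    exact (abs_tr_mul_le X Y).trans (mul_le_mul_of_nonneg_left (mul_le_mul hX hY (norm_nonneg _)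
      ((norm_nonneg _).trans hX)) hk)
  rw [tr_blocks hH]
  have e1 := key _ _ _ _ ha₁ hb₁
  have e2 := key _ _ _ _ ha₂ hb₃
  have e3 := key _ _ _ _ ha₃ hb₂
  have e4 := key _ _ _ _ ha₄ hb₄
  have t1 := abs_add_le (tr ((H * A * H) * (H * B * H)) +
    tr ((H * A * (1 - H)) * ((1 - H) * B * H)) + tr (((1 - H) * A * H) * (H * B * (1 - H))))
    (tr (((1 - H) * A * (1 - H)) * ((1 - H) * B * (1 - H))))
  have t2 := abs_add_le (tr ((H * A * H) * (H * B * H)) +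
    tr ((H * A * (1 - H)) * ((1 - H) * B * H))) (tr (((1 - H) * A * H) * (H * B * (1 - H))))
  have t3 := abs_add_le (tr ((H * A * H) * (H * B * H)))
    (tr ((H * A * (1 - H)) * ((1 - H) * B * H)))
  linarith

end Crest.Agent.R234.Fm_281
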