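import Crest.Agent.R234.Fm1_281

/-!
# Row 234, VF-FERMI (helper281), file 2: first variation in a metric `1 + g`

For every orthogonal projection `S` of rank `m` and every operator `g` near `0`:
`Sg g S = S (1 + S g S)⁻¹ S`, `Jc g S = √det (1 + S g S)`. The density of the first variation in the
metric `G = 1 + g` along a field with derivative `Z` and with `G' = D_ζ G` is
`Jc g S * tr (Sg g S * ((1 + g) * Z + (1/2) • G'))`. It is compared with its value for `S = H`.
-/

set_option autoImplicit false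

open Crest.GeometryTopology.Submanifold
open Crest.Agent.R234.Vf_884
open scoped InnerProductSpace

noncomputable section

namespace Crest.Agent.R234.Fm_281

variable {m k : ℕ}

/-- expansion in a noncommutative ring -/
local macro "nr" : tactic => `(tactic| (simp only [mul_sub, sub_mul, mul_add, add_mul, mul_one,
  one_mul, mul_assoc, mul_neg, neg_mul] <;> abel))

/-- area factor -/
def Jc (g S : L k) : ℝ := Real.sqrt (1 + S * (g * S)).det

/-- `S (1 + S g S)⁻¹ S` -/
def Sg (g S : L k) : L k := S * (Ring.inverse (1 + S * (g * S)) * S)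

theorem nm2 {A B : L k} {a b : ℝ} (hA : ‖A‖ ≤ a) (hB : ‖B‖ ≤ b) : ‖A * B‖ ≤ a * b :=
  (norm_mul_le A B).trans (mul_le_mul hA hB (norm_nonneg _) ((norm_nonneg _).trans hA))

theorem nm3 {A B C : L k} {a b c : ℝ} (hA : ‖A‖ ≤ a) (hB : ‖B‖ ≤ b) (hC : ‖C‖ ≤ c) :
    ‖A * B * C‖ ≤ a * b * c := nm2 (nm2 hA hB) hC

theorem norm_conj_le {S g : L k} (hS : IsStarProjection S) : ‖S * (g * S)‖ ≤ ‖g‖ := by
  have h := nm2 hS.norm_le (nm2 (le_refl ‖g‖) hS.norm_le)
  linarith

/-- the algebra of `Sg` -/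
theorem exists_Sg {S g : L k} (hS : IsStarProjection S) (hg : ‖g‖ ≤ 1 / 2) :
    ∃ X : L k, X * (1 + S * (g * S)) = 1 ∧ (1 + S * (g * S)) * X = 1 ∧ ‖X‖ ≤ 2 ∧
      Sg g S = X * S ∧ Sg g S = S * X ∧ Sg g S = S - S * g * Sg g S ∧
      Sg g S = S - Sg g S * g * S := by
  obtain ⟨X, h1, h2, h3, h4⟩ := Fm_209.exists_inv (A := S * (g * S)) ((norm_conj_le hS).trans hg)
  have hSS : S * S = S := hS.1
  have hcomm : X * S = S * X := by
    have e1 : (1 + S * (g * S)) * S = S * (1 + S * (g * S)) := by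
      have a1 : (1 + S * (g * S)) * S = S + S * g * (S * S) := by nr
      have a2 : S * (1 + S * (g * S)) = S + (S * S) * g * S := by nr
      rw [a1, a2, hSS]
    calc X * S = X * S * ((1 + S * (g * S)) * X) := by rw [h2, mul_one]
      _ = X * (S * (1 + S * (g * S))) * X := by nr
      _ = X * ((1 + S * (g * S)) * S) * X := by rw [e1]
      _ = (X * (1 + S * (g * S))) * S * X := by nr
      _ = S * X := by rw [h1, one_mul]
  have hs1 : Sg g S = X * S := by
    unfold Sg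
    rw [h4, hcomm, ← mul_assoc, hSS]
  have hs2 : Sg g S = S * X := by rw [hs1, hcomm]
  refine ⟨X, h1, h2, h3, hs1, hs2, ?_, ?_⟩
  · have e : S = (1 + S * (g * S)) * X * S := by rw [h2, one_mul]
    have e2 : (1 + S * (g * S)) * X * S = X * S + S * g * (S * X) * S := by nr
    have e3 : S * X * S = X * S := by rw [← hcomm, mul_assoc, hSS]
    rw [eq_sub_iff_add_eq, hs1]
    conv_rhs => rw [e, e2]
    congr 1
    rw [mul_assoc (S * g) (S * X) S, e3]
  · have e : S = S * (X * (1 + S * (g * S))) := by rw [h1, mul_one]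
    have e2 : S * (X * (1 + S * (g * S))) = S * X + (S * X * S) * g * S := by nr
    have e3 : S * X * S = S * X := by rw [mul_assoc, hcomm, ← mul_assoc, hSS]
    rw [eq_sub_iff_add_eq, hs2]
    conv_rhs => rw [e, e2, e3]

theorem norm_Sg_le {S g : L k} (hS : IsStarProjection S) (hg : ‖g‖ ≤ 1 / 2) : ‖Sg g S‖ ≤ 2 := by
  obtain ⟨X, -, -, h3, h4, -, -, -⟩ := exists_Sg hS hg
  rw [h4]
  have := nm2 h3 hS.norm_le
  linarith

theorem Sg_left {S g : L k} (hS : IsStarProjection S) : S * Sg g S = Sg g S := by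
  unfold Sg
  rw [← mul_assoc, hS.1.eq]

theorem Sg_right {S g : L k} (hS : IsStarProjection S) : Sg g S * S = Sg g S := by
  unfold Sg
  rw [mul_assoc, mul_assoc, hS.1.eq]

/-- `D = R - S`, `R = Sg g S * (1 + g)` the `G`-orthogonal projection -/
def Dg (g S : L k) : L k := Sg g S * g * (1 - S)

theorem Sg_mul_eq {S g : L k} (hS : IsStarProjection S) (hg : ‖g‖ ≤ 1 / 2) :
    Sg g S * (1 + g) = S + Dg g S := by
  obtain ⟨X, -, -, -, -, -, -, h⟩ := exists_Sg hS hg
  unfold Dg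
  have e : Sg g S * (1 + g) = Sg g S + Sg g S * g := by nr
  have e2 : S + Sg g S * g * (1 - S) = S - Sg g S * g * S + Sg g S * g := by nr
  rw [e, e2, ← h]

/-- bounds of the blocks of `g` -/
structure Blk (H g : L k) (θ o : ℝ) : Prop where
  hh : ‖H * g * H‖ ≤ θ
  vv : ‖(1 - H) * g * (1 - H)‖ ≤ θ
  hv : ‖H * g * (1 - H)‖ ≤ o
  vh : ‖(1 - H) * g * H‖ ≤ o

section Main

variable {H S g : L k} {θ o : ℝ}

theorem Blk.θ_nonneg (h : Blk H g θ o) : 0 ≤ θ := (norm_nonneg _).trans h.hh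

theorem Blk.o_nonneg (h : Blk H g θ o) : 0 ≤ o := (norm_nonneg _).trans h.hv

theorem split4 (hH : IsStarProjection H) (A g B : L k) :
    A * g * B = (A * H) * (H * g * H) * (H * B) +
      (A * H) * (H * g * (1 - H)) * ((1 - H) * B) +
      (A * (1 - H)) * ((1 - H) * g * H) * (H * B) +
      (A * (1 - H)) * ((1 - H) * g * (1 - H)) * ((1 - H) * B) := by
  have h1 : H * H = H := hH.1
  have h2 : (1 - H) * (1 - H) = 1 - H := hH.one_sub.1
  have key : ∀ X Y : L k, X * X = X → Y * Y = Y →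
      (A * X) * (X * g * Y) * (Y * B) = A * X * g * Y * B := by
    intro X Y hX hY
    have e1 : (A * X) * (X * g * Y) * (Y * B) = A * (X * X) * g * (Y * Y) * B := by nr
    rw [e1, hX, hY]
  rw [key _ _ h1 h1, key _ _ h1 h2, key _ _ h2 h1, key _ _ h2 h2]
  simp only [mul_sub, sub_mul, mul_one, mul_assoc]
  abel

/-- the off-diagonal part of `g` with respect to `S` -/
theorem norm_SgT_le (hH : H ∈ G m k) (hS : S ∈ G m k) (hb : Blk H g θ o) :
    ‖S * g * (1 - S)‖ ≤ 2 * (θ * Real.sqrt (tau H S) + o) := by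
  have hH' := isStar_of_G hH
  have hS' := isStar_of_G hS
  rw [split4 hH' S g (1 - S)]
  set t := Real.sqrt (tau H S) with ht
  have ht0 : 0 ≤ t := Real.sqrt_nonneg _
  have n1 : ‖S * H‖ ≤ 1 := by
    have := nm2 hS'.norm_le hH'.norm_le; linarith
  have n2 : ‖(1 - H) * (1 - S)‖ ≤ 1 := by
    have := nm2 hH'.one_sub.norm_le hS'.one_sub.norm_le; linarith
  have a1 := nm3 n1 hb.hh (norm_HT hH hS)
  have a2 := nm3 n1 hb.hv n2
  have a3 := nm3 (norm_SN hH hS) hb.vh (norm_HT hH hS)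
  have a3' : ‖S * (1 - H) * ((1 - H) * g * H) * (H * (1 - S))‖ ≤ 1 * o * 1 := by
    refine nm3 ?_ hb.vh ?_
    · have := nm2 hS'.norm_le hH'.one_sub.norm_le; linarith
    · have := nm2 hH'.norm_le hS'.one_sub.norm_le; linarith
  have a4 := nm3 (norm_SN hH hS) hb.vv n2
  have t1 := norm_add_le (S * H * (H * g * H) * (H * (1 - S)) +
    S * H * (H * g * (1 - H)) * ((1 - H) * (1 - S)) +
    S * (1 - H) * ((1 - H) * g * H) * (H * (1 - S)))
    (S * (1 - H) * ((1 - H) * g * (1 - H)) * ((1 - H) * (1 - S)))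
  have t2 := norm_add₃_le (a := S * H * (H * g * H) * (H * (1 - S)))
    (b := S * H * (H * g * (1 - H)) * ((1 - H) * (1 - S)))
    (c := S * (1 - H) * ((1 - H) * g * H) * (H * (1 - S)))
  rw [← ht] at a1 a4
  nlinarith [hb.θ_nonneg, hb.o_nonneg]

theorem norm_Dg_le (hH : H ∈ G m k) (hS : S ∈ G m k) (hg : ‖g‖ ≤ 1 / 2) (hb : Blk H g θ o) :
    ‖Dg g S‖ ≤ 4 * (θ * Real.sqrt (tau H S) + o) := by
  obtain ⟨X, -, -, h3, h4, -, -, -⟩ := exists_Sg (isStar_of_G hS) hg
  have e : Dg g S = X * (S * g * (1 - S)) := by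
    unfold Dg; rw [h4]; nr
  rw [e]
  have := nm2 h3 (norm_SgT_le hH hS hb)
  linarith

/-- the blocks of `D` -/
theorem Dg_blocks (hH : H ∈ G m k) (hS : S ∈ G m k) (hg : ‖g‖ ≤ 1 / 2) (hb : Blk H g θ o) :
    ‖H * Dg g S * H‖ ≤ 4 * (θ * tau H S + o * Real.sqrt (tau H S)) ∧
    ‖H * Dg g S * (1 - H)‖ ≤ 4 * (θ * Real.sqrt (tau H S) + o) ∧
    ‖(1 - H) * Dg g S * H‖ ≤ 4 * (θ * tau H S + o * Real.sqrt (tau H S)) ∧
    ‖(1 - H) * Dg g S * (1 - H)‖ ≤ 4 * (θ * tau H S + o * Real.sqrt (tau H S)) := by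
  have hH' := isStar_of_G hH
  have hS' := isStar_of_G hS
  have hD := norm_Dg_le hH hS hg hb
  have hsq := sq_sqrt_tau hH hS
  set t := Real.sqrt (tau H S) with ht
  have ht0 : 0 ≤ t := Real.sqrt_nonneg _
  have hval : 4 * (θ * tau H S + o * t) = 4 * (θ * t + o) * t := by rw [← hsq]; ring
  have hT : (1 - S) * (1 - S) = 1 - S := hS'.one_sub.1
  have e1 : Dg g S * (1 - S) = Dg g S := by unfold Dg; rw [mul_assoc, hT]
  have e2 : S * Dg g S = Dg g S := by
    unfold Dg
    rw [← mul_assoc, ← mul_assoc, Sg_left hS']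
  have hH1 : ‖H‖ ≤ 1 := hH'.norm_le
  have hN1 : ‖1 - H‖ ≤ 1 := hH'.one_sub.norm_le
  rw [hval]
  refine ⟨?_, ?_, ?_, ?_⟩
  · have e : H * Dg g S * H = H * Dg g S * ((1 - S) * H) := by
      rw [← mul_assoc, mul_assoc H _ (1 - S), e1]
    rw [e]
    have := nm3 hH1 hD (norm_TH hH hS)
    rw [← ht] at this
    linarith
  · have := nm3 hH1 hD hN1
    linarith
  · have e : (1 - H) * Dg g S * H = ((1 - H) * S) * Dg g S * H := by
      rw [mul_assoc (1 - H) S, e2]
    rw [e]
    have := nm3 (norm_NS hH hS) hD hH1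
    rw [← ht] at this
    linarith
  · have e : (1 - H) * Dg g S * (1 - H) = ((1 - H) * S) * Dg g S * (1 - H) := by
      rw [mul_assoc (1 - H) S, e2]
    rw [e]
    have := nm3 (norm_NS hH hS) hD hN1
    rw [← ht] at this
    linarith

/-- the vertical blocks of `Sg g S` -/
theorem Sg_blocks (hH : H ∈ G m k) (hS : S ∈ G m k) (hg : ‖g‖ ≤ 1 / 2) :
    ‖(1 - H) * Sg g S‖ ≤ 2 * Real.sqrt (tau H S) ∧
    ‖Sg g S * (1 - H)‖ ≤ 2 * Real.sqrt (tau H S) ∧
    ‖(1 - H) * Sg g S * (1 - H)‖ ≤ 2 * tau H S := by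
  have hS' := isStar_of_G hS
  obtain ⟨X, -, -, h3, h4, h5, -, -⟩ := exists_Sg hS' hg
  have hsq := sq_sqrt_tau hH hS
  refine ⟨?_, ?_, ?_⟩
  · rw [h5, ← mul_assoc]
    have := nm2 (norm_NS hH hS) h3
    linarith
  · rw [h4, mul_assoc]
    have := nm2 h3 (norm_SN hH hS)
    linarith
  · have e : (1 - H) * Sg g S * (1 - H) = ((1 - H) * S) * X * (S * (1 - H)) := by
      have e1 : Sg g S = S * X * S := by
        rw [← h5, Sg_right hS']
      rw [e1]; nr
    rw [e]
    have := nm3 (norm_NS hH hS) h3 (norm_SN hH hS)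
    rw [← hsq]
    linarith

/-- the horizontal block of `Sg g S` -/
theorem Sg_hh (hH : H ∈ G m k) (hS : S ∈ G m k) (hg : ‖g‖ ≤ 1 / 2) (hb : Blk H g θ o)
    (hθ : θ ≤ 1) :
    ‖H * Sg g S * H - Sg g H‖ ≤ 10 * tau H S + 8 * (o * Real.sqrt (tau H S)) := by
  have hH' := isStar_of_G hH
  have hS' := isStar_of_G hS
  obtain ⟨X, hX1, hX2, hX3, hX4, hX5, hX6, hX7⟩ := exists_Sg hH' hg
  obtain ⟨Y, hY1, hY2, hY3, hY4, hY5, hY6, hY7⟩ := exists_Sg hS' hg
  have hsq := sq_sqrt_tau hH hS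
  have hb3 := Sg_blocks hH hS hg
  have hnS := norm_Sg_le hS' hg
  set t := Real.sqrt (tau H S) with ht
  have ht0 : 0 ≤ t := Real.sqrt_nonneg _
  set K := H * (1 - S) * H with hK
  have hKn : ‖K‖ ≤ tau H S := norm_HTH hH hS
  set W := Sg g S with hW
  set M := H * W * H with hM
  have hHH : H * H = H := hH'.1
  have hNN : (1 - H) * (1 - H) = 1 - H := hH'.one_sub.1
  have hH1 : ‖H‖ ≤ 1 := hH'.norm_le
  have hN1 : ‖1 - H‖ ≤ 1 := hH'.one_sub.norm_le
  have hS1 : ‖S‖ ≤ 1 := hS'.norm_le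
  have hMn : ‖M‖ ≤ 2 := by
    have := nm3 hH1 hnS hH1; linarith
  have hNW : ‖(1 - H) * W * H‖ ≤ 2 * t := by
    have := nm2 hb3.1 hH1; linarith
  have hHSN : ‖H * S * (1 - H)‖ ≤ t := by
    rw [mul_assoc]
    have := nm2 hH1 (norm_SN hH hS); linarith
  have hHSH : ‖H * S * H‖ ≤ 1 := by
    have := nm3 hH1 hS1 hH1; linarith
  -- the equation of `M`
  have hKe : H * S * H = H - K := by
    rw [hK]
    have e1 : H * (1 - S) * H = H * H - H * S * H := by nr
    rw [e1, hHH]; abel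
  have hMeq : M = H - K - (H * S * H) * (H * g * H) * M
      - (H * S * H) * (H * g * (1 - H)) * ((1 - H) * W * H)
      - (H * S * (1 - H)) * ((1 - H) * g * H) * M
      - (H * S * (1 - H)) * ((1 - H) * g * (1 - H)) * ((1 - H) * W * H) := by
    have e1 : M = H * S * H - (H * S) * g * (W * H) := by
      rw [hM]
      conv_lhs => rw [hY6]
      nr
    rw [split4 hH' (H * S) g (W * H)] at e1
    have f1 : H * (W * H) = M := by rw [hM, mul_assoc]
    have f2 : (1 - H) * (W * H) = (1 - H) * W * H := by rw [mul_assoc]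
    rw [f1, f2] at e1
    refine e1.trans ?_
    rw [hKe]
    abel
  have hXeq : (1 + H * (g * H)) * Sg g H = H := by
    rw [hX4, ← mul_assoc, hX2, one_mul]
  have hE : (1 + H * (g * H)) * (M - Sg g H) = - K + K * (H * g * H) * M
      - (H * S * H) * (H * g * (1 - H)) * ((1 - H) * W * H)
      - (H * S * (1 - H)) * ((1 - H) * g * H) * M
      - (H * S * (1 - H)) * ((1 - H) * g * (1 - H)) * ((1 - H) * W * H) := by
    rw [mul_sub, hXeq]
    have e2 : (1 + H * (g * H)) * M = M + H * g * H * M := by nr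
    rw [e2]
    have e3 : (H * S * H) * (H * g * H) * M = H * g * H * M - K * (H * g * H) * M := by
      rw [hKe, sub_mul, sub_mul]
      congr 2
      have : H * (H * g * H) = (H * H) * g * H := by nr
      rw [this, hHH]
    rw [e3] at hMeq
    calc M + H * g * H * M - H = (H - K - (H * g * H * M - K * (H * g * H) * M)
      - (H * S * H) * (H * g * (1 - H)) * ((1 - H) * W * H)
      - (H * S * (1 - H)) * ((1 - H) * g * H) * M
      - (H * S * (1 - H)) * ((1 - H) * g * (1 - H)) * ((1 - H) * W * H))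
        + H * g * H * M - H := by rw [← hMeq]
      _ = _ := by abel
  have hfin : M - Sg g H = X * ((1 + H * (g * H)) * (M - Sg g H)) := by
    rw [← mul_assoc, hX1, one_mul]
  rw [hfin]
  have hEn : ‖(1 + H * (g * H)) * (M - Sg g H)‖ ≤ 5 * tau H S + 4 * (o * t) := by
    rw [hE]
    have b1 := nm3 hKn hb.hh hMn
    have b2 := nm3 hHSH hb.hv hNW
    have b3 := nm3 hHSN hb.vh hMn
    have b4 := nm3 hHSN hb.vv hNW
    have c1 := norm_sub_le (- K + K * (H * g * H) * M
      - (H * S * H) * (H * g * (1 - H)) * ((1 - H) * W * H)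
      - (H * S * (1 - H)) * ((1 - H) * g * H) * M)
      ((H * S * (1 - H)) * ((1 - H) * g * (1 - H)) * ((1 - H) * W * H))
    have c2 := norm_sub_le (- K + K * (H * g * H) * M
      - (H * S * H) * (H * g * (1 - H)) * ((1 - H) * W * H))
      ((H * S * (1 - H)) * ((1 - H) * g * H) * M)
    have c3 := norm_sub_le (- K + K * (H * g * H) * M)
      ((H * S * H) * (H * g * (1 - H)) * ((1 - H) * W * H))
    have c4 := norm_add_le (-K) (K * (H * g * H) * M)
    rw [norm_neg] at c4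
    have hθ0 := hb.θ_nonneg
    have hτ0 := tau_nonneg hH hS
    have q1 : tau H S * θ * 2 ≤ 2 * tau H S := by nlinarith
    have q2 : t * θ * (2 * t) ≤ 2 * tau H S := by
      have : t * θ * (2 * t) = 2 * (tau H S * θ) := by rw [← hsq]; ring
      rw [this]; nlinarith
    linarith
  have := nm2 hX3 hEn
  linarith

/-- the area factor -/
theorem exists_Jc (m k : ℕ) : ∃ c C : ℝ, 0 < c ∧ c ≤ 1 / 4 ∧ 0 ≤ C ∧
    ∀ (H S g : L k) (θ o : ℝ), H ∈ G m k → S ∈ G m k → ‖g‖ ≤ c → Blk H g θ o →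
      Jc g S ≤ 2 ∧ |Jc g S - Jc g H| ≤ C * (θ * tau H S + o * Real.sqrt (tau H S)) := by
  obtain ⟨c, C, hc, hc2, hC, hdet, hlip⟩ := Fm_209.exists_det (Euc k)
  refine ⟨c / 2, 3 * C, by linarith, by linarith, by positivity, ?_⟩
  intro H S g θ o hH hS hg hb
  have hH' := isStar_of_G hH
  have hS' := isStar_of_G hS
  have hsq := sq_sqrt_tau hH hS
  have hH1 : ‖H‖ ≤ 1 := hH'.norm_le
  have hS1 : ‖S‖ ≤ 1 := hS'.norm_le
  have hτ0 := tau_nonneg hH hS
  have hθ0 := hb.θ_nonneg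
  have ho0 := hb.o_nonneg
  refine ⟨?_, ?_⟩
  · have h1 := (hdet (S * (g * S)) ((norm_conj_le hS').trans (by linarith))).2
    unfold Jc
    rw [show (2:ℝ) = Real.sqrt 4 by
      rw [show (4:ℝ) = 2 ^ 2 by norm_num, Real.sqrt_sq (by norm_num)]]
    exact Real.sqrt_le_sqrt h1
  set t := Real.sqrt (tau H S) with ht
  set g0 := H * g * H with hg0
  set K := H * (1 - S) * H with hK
  have hKn : ‖K‖ ≤ tau H S := norm_HTH hH hS
  have hg0n : ‖g0‖ ≤ c / 2 := by
    have := nm3 hH1 hg hH1; linarith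
  -- step 1
  have s1 : ‖S * (g * S) - S * (g0 * S)‖ ≤ 2 * (o * t) + θ * tau H S := by
    have e : S * (g * S) - S * (g0 * S) = S * H * (H * g * (1 - H)) * ((1 - H) * S)
        + S * (1 - H) * ((1 - H) * g * H) * (H * S)
        + S * (1 - H) * ((1 - H) * g * (1 - H)) * ((1 - H) * S) := by
      have e1 := split4 hH' S g S
      have e2 : (S * H) * (H * g * H) * (H * S) = S * (g0 * S) := by
        have hHH : H * H = H := hH'.1
        have : (S * H) * (H * g * H) * (H * S) = S * ((H * H) * g * (H * H) * S) := by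
          nr
        rw [this, hHH]
      rw [e2] at e1
      rw [← mul_assoc S g S, e1]; abel
    rw [e]
    have n1 : ‖S * H‖ ≤ 1 := by have := nm2 hS1 hH1; linarith
    have n2 : ‖H * S‖ ≤ 1 := by have := nm2 hH1 hS1; linarith
    have b1 := nm3 n1 hb.hv (norm_NS hH hS)
    have b2 := nm3 (norm_SN hH hS) hb.vh n2
    have b3 := nm3 (norm_SN hH hS) hb.vv (norm_NS hH hS)
    rw [← ht] at b1 b2 b3
    have b3' : t * θ * t = θ * tau H S := by rw [← hsq]; ring
    have t2 := norm_add₃_le (a := S * H * (H * g * (1 - H)) * ((1 - H) * S))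
      (b := S * (1 - H) * ((1 - H) * g * H) * (H * S))
      (c := S * (1 - H) * ((1 - H) * g * (1 - H)) * ((1 - H) * S))
    linarith
  -- step 2
  have s2 : (1 + S * (g0 * S)).det = (1 + (g0 - g0 * K)).det := by
    have e1 : (1 + S * (g0 * S)).det = (1 + (g0 * S) * S).det :=
      Fm_209.det_one_add_comm S (g0 * S)
    have e2 : (g0 * S) * S = H * (g0 * S) := by
      have hSS : S * S = S := hS'.1
      have hHg : H * g0 = g0 := by
        rw [hg0, ← mul_assoc, ← mul_assoc]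
        have hHH : H * H = H := hH'.1
        rw [hHH]
      rw [mul_assoc, hSS, ← mul_assoc, hHg]
    have e3 : (1 + H * (g0 * S)).det = (1 + (g0 * S) * H).det :=
      Fm_209.det_one_add_comm H (g0 * S)
    have e4 : (g0 * S) * H = g0 - g0 * K := by
      have hHH : H * H = H := hH'.1
      have hgH : g0 * H = g0 := by rw [hg0, mul_assoc, hHH]
      have f1 : g0 * K = (g0 * H) * H - (g0 * H) * S * H := by rw [hK]; nr
      rw [f1, hgH, hgH]; nr
    rw [e1, e2, e3, e4]
  have hK1 : ‖K‖ ≤ 1 := by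
    have := nm3 hH1 hS'.one_sub.norm_le hH1; linarith
  have hgK : ‖g0 * K‖ ≤ θ * tau H S := nm2 hb.hh hKn
  have hgK' : ‖g0 * K‖ ≤ c / 2 := by have := nm2 hg0n hK1; linarith
  have s3 := hlip (S * (g * S)) (S * (g0 * S)) ((norm_conj_le hS').trans (by linarith))
    ((norm_conj_le hS').trans (by linarith))
  have s4 := hlip (g0 - g0 * K) (H * (g * H))
    (by have := norm_sub_le g0 (g0 * K); linarith) ((norm_conj_le hH').trans (by linarith))
  have e5 : g0 - g0 * K - H * (g * H) = - (g0 * K) := by rw [hg0]; nr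
  rw [e5, norm_neg] at s4
  rw [s2] at s3
  unfold Jc
  have t5 := abs_sub_le (Real.sqrt (1 + S * (g * S)).det) (Real.sqrt (1 + (g0 - g0 * K)).det)
    (Real.sqrt (1 + H * (g * H)).det)
  have u1 : C * ‖S * (g * S) - S * (g0 * S)‖ ≤ C * (2 * (o * t) + θ * tau H S) :=
    mul_le_mul_of_nonneg_left s1 hC
  have u2 : C * ‖g0 * K‖ ≤ C * (θ * tau H S) := mul_le_mul_of_nonneg_left hgK hC
  have u3 : 0 ≤ C * (o * t) := by positivity
  have u4 : 0 ≤ C * (θ * tau H S) := by positivity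
  nlinarith

end Main

end Crest.Agent.R234.Fm_281
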