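import Crest.Agent.R234.Fm2_281

/-!
# Row 234, VF-FERMI (helper281), file 3: the pointwise inequality for one plane

`Jc g S * tr (Sg g S * ((1 + g) * Z + (1/2) • G'))` (first variation density in the metric `1 + g`
along a field with derivative `Z`, `G' = D_ζ g`) is compared with `g0 * tr (S * Z) + δ`, where
`g0 ≈ Jc g H` and `δ ≈ (1/2) Jc g H * tr (Sg g H * G')`.
-/

set_option autoImplicit false

open Crest.GeometryTopology.Submanifold
open Crest.Agent.R234.Vf_884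
open scoped InnerProductSpace

noncomputable section

namespace Crest.Agent.R234.Fm_281

variable {m k : ℕ}

/-- expansion in a noncommutative ring -/
local macro "nr" : tactic => `(tactic| (simp only [mul_sub, sub_mul, mul_add, add_mul, mul_one,
  one_mul, mul_assoc, mul_neg, neg_mul] <;> abel))

theorem mul_smul' (A B : L k) (r : ℝ) : A * (r • B) = r • (A * B) :=
  ContinuousLinearMap.comp_smul A r B

section Main

variable {H S g Z G' : L k} {θ o a b c d a' b' d' : ℝ}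

theorem abs_tr_SZ (hH : H ∈ G m k) (hS : S ∈ G m k) (ha : ‖H * Z * H‖ ≤ a)
    (hb : ‖H * Z * (1 - H)‖ ≤ b) (hc : ‖(1 - H) * Z * H‖ ≤ c)
    (hd : ‖(1 - H) * Z * (1 - H)‖ ≤ d) :
    |tr (S * Z)| ≤ k * (a + Real.sqrt (tau H S) * c + Real.sqrt (tau H S) * b +
      tau H S * d) := by
  have hH' := isStar_of_G hH
  have hS' := isStar_of_G hS
  have hH1 : ‖H‖ ≤ 1 := hH'.norm_le
  have n1 : ‖H * S * H‖ ≤ 1 := by
    have := nm3 hH1 hS'.norm_le hH1; linarith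
  have n2 : ‖H * S * (1 - H)‖ ≤ Real.sqrt (tau H S) := by
    rw [mul_assoc]
    have := nm2 hH1 (norm_SN hH hS); linarith
  have n3 : ‖(1 - H) * S * H‖ ≤ Real.sqrt (tau H S) := by
    have := nm2 (norm_NS hH hS) hH1; linarith
  have h := abs_tr_blocks_le hH' S Z n1 n2 n3 (norm_NSN hH hS) ha hb hc hd
  rwa [one_mul] at h

theorem abs_tr_DZ (hH : H ∈ G m k) (hS : S ∈ G m k) (hg : ‖g‖ ≤ 1 / 2) (hB : Blk H g θ o)
    (ha : ‖H * Z * H‖ ≤ a)
    (hb : ‖H * Z * (1 - H)‖ ≤ b) (hc : ‖(1 - H) * Z * H‖ ≤ c)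
    (hd : ‖(1 - H) * Z * (1 - H)‖ ≤ d) :
    |tr (Dg g S * Z)| ≤ k * (4 * ((θ * tau H S + o * Real.sqrt (tau H S)) * (a + b + d) +
      (θ * Real.sqrt (tau H S) + o) * c)) := by
  obtain ⟨n1, n2, n3, n4⟩ := Dg_blocks hH hS hg hB
  have h := abs_tr_blocks_le (isStar_of_G hH) (Dg g S) Z n1 n2 n3 n4 ha hb hc hd
  refine h.trans (le_of_eq ?_)
  ring

theorem abs_tr_SgG (hH : H ∈ G m k) (hS : S ∈ G m k) (hg : ‖g‖ ≤ 1 / 2) (hB : Blk H g θ o)
    (hθ : θ ≤ 1) (ha : ‖H * G' * H‖ ≤ a')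
    (hb : ‖H * G' * (1 - H)‖ ≤ b') (hc : ‖(1 - H) * G' * H‖ ≤ b')
    (hd : ‖(1 - H) * G' * (1 - H)‖ ≤ d') :
    |tr (Sg g S * G') - tr (Sg g H * G')| ≤ k * (10 * (tau H S + o * Real.sqrt (tau H S)) * a' +
      4 * Real.sqrt (tau H S) * b' + 2 * tau H S * d') := by
  have hH' := isStar_of_G hH
  have hHH : H * H = H := hH'.1
  have hH1 : ‖H‖ ≤ 1 := hH'.norm_le
  have hN1 : ‖1 - H‖ ≤ 1 := hH'.one_sub.norm_le
  obtain ⟨s1, s2, s3⟩ := Sg_blocks hH hS hg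
  have s4 := Sg_hh hH hS hg hB hθ
  have eL : H * Sg g H = Sg g H := Sg_left hH'
  have eR : Sg g H * H = Sg g H := Sg_right hH'
  have eN : (1 - H) * Sg g H = 0 := by rw [sub_mul, one_mul, eL, sub_self]
  have eN' : Sg g H * (1 - H) = 0 := by rw [mul_sub, mul_one, eR, sub_self]
  have f1 : H * (Sg g S - Sg g H) * H = H * Sg g S * H - Sg g H := by
    rw [mul_sub, sub_mul, eL, eR]
  have f2 : H * (Sg g S - Sg g H) * (1 - H) = H * (Sg g S * (1 - H)) := by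
    rw [mul_assoc, sub_mul, eN', sub_zero]
  have f3 : (1 - H) * (Sg g S - Sg g H) * H = (1 - H) * Sg g S * H := by
    rw [mul_sub, eN, sub_zero]
  have f4 : (1 - H) * (Sg g S - Sg g H) * (1 - H) = (1 - H) * Sg g S * (1 - H) := by
    rw [mul_sub (1 - H) (Sg g S) (Sg g H), eN, sub_zero]
  rw [← map_sub, ← sub_mul]
  have g2 : ‖H * (Sg g S * (1 - H))‖ ≤ 2 * Real.sqrt (tau H S) := by
    have := nm2 hH1 s2; linarith
  have g3 : ‖(1 - H) * Sg g S * H‖ ≤ 2 * Real.sqrt (tau H S) := by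
    have := nm2 s1 hH1; linarith
  rw [← f1] at s4
  rw [← f2] at g2
  rw [← f3] at g3
  rw [← f4] at s3
  have h := abs_tr_blocks_le hH' (Sg g S - Sg g H) G' s4 g2 g3 s3 ha hb hc hd
  refine h.trans (mul_le_mul_of_nonneg_left ?_ (Nat.cast_nonneg _))
  have ha0 : 0 ≤ a' := (norm_nonneg _).trans ha
  have h1 : 0 ≤ o * Real.sqrt (tau H S) := mul_nonneg hB.o_nonneg (Real.sqrt_nonneg _)
  nlinarith [mul_nonneg h1 ha0]

theorem abs_tr_SgH (hH : H ∈ G m k) (hg : ‖g‖ ≤ 1 / 2) (ha : ‖H * G' * H‖ ≤ a') :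
    |tr (Sg g H * G')| ≤ k * (2 * a') := by
  have hH' := isStar_of_G hH
  have eL : H * Sg g H = Sg g H := Sg_left hH'
  have eR : Sg g H * H = Sg g H := Sg_right hH'
  have e : tr (Sg g H * G') = tr (Sg g H * (H * G' * H)) := by
    have e1 : Sg g H * (H * G' * H) = (Sg g H * H) * G' * H := by nr
    rw [e1, eR, tr_mul_comm _ H, ← mul_assoc, eL]
  rw [e]
  refine (abs_tr_mul_le _ _).trans (mul_le_mul_of_nonneg_left ?_ (Nat.cast_nonneg _))
  exact mul_le_mul (norm_Sg_le hH' hg) ha (norm_nonneg _) (by norm_num)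

end Main

theorem real_coef {k C0 K M A B s ε : ℝ} (hk : 0 ≤ k) (hK1 : 1 ≤ K) (hkK : k ≤ K) (hC0 : 0 ≤ C0)
    (hM : M = K ^ 2 * (C0 + 1)) (hB : 0 ≤ B) (hs : 0 ≤ s) (hε : 0 ≤ ε)
    (hAs : A * s ≤ K * B) : (C0 * A + ε) * (k * s) + 8 * k * B ≤ 20 * M * (B + ε * s) := by
  have h0 : 0 ≤ ε * s := mul_nonneg hε hs
  have hkk : k * K ≤ K ^ 2 := by nlinarith
  have hM0 : 0 ≤ M := by rw [hM]; positivity
  have e1 : C0 * k * (A * s) ≤ C0 * k * (K * B) :=
    mul_le_mul_of_nonneg_left hAs (mul_nonneg hC0 hk)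
  have e2 : k * (ε * s) ≤ (k * K) * (ε * s) := by
    refine mul_le_mul_of_nonneg_right ?_ h0
    exact le_mul_of_one_le_right hk hK1
  have e3 : (k * K) * (C0 + 1) ≤ M := by
    rw [hM]; exact mul_le_mul_of_nonneg_right hkk (by linarith)
  have e4 : (k * K) * (C0 + 1) * (B + ε * s) ≤ M * (B + ε * s) :=
    mul_le_mul_of_nonneg_right e3 (by linarith)
  have e5 : 0 ≤ k * K * B := by positivity
  have e6 : 0 ≤ k * K * C0 * (ε * s) := by positivity
  have e7 : (C0 * A + ε) * (k * s) ≤ (k * K) * (C0 + 1) * (B + ε * s) := by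
    have f1 : (C0 * A + ε) * (k * s) = C0 * k * (A * s) + k * (ε * s) := by ring
    have f2 : (k * K) * (C0 + 1) * (B + ε * s) = C0 * k * (K * B) + k * K * B +
      k * K * C0 * (ε * s) + (k * K) * (ε * s) := by ring
    rw [f1, f2]; linarith
  have e8 : k ≤ M := by
    have f1 : k ≤ k * K := le_mul_of_one_le_right hk hK1
    have f2 : k * K ≤ k * K * (C0 + 1) := le_mul_of_one_le_right (by positivity) (by linarith)
    linarith
  have e9 : k * B ≤ M * (B + ε * s) := mul_le_mul e8 (by linarith) hB hM0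
  have e10 : 0 ≤ M * (B + ε * s) := by positivity
  linarith

theorem real_assembly {k C0 θ o t τ ε1 a b c d a' b' d' K : ℝ} (hk : 0 ≤ k) (hK : K = k + 1)
    (hC0 : 0 ≤ C0) (hθ : 0 ≤ θ) (hθ1 : θ ≤ 1) (ho : 0 ≤ o) (ht : 0 ≤ t) (hτ : t * t = τ)
    (hτk : τ ≤ k) (hε : 0 ≤ ε1) (ha : 0 ≤ a) (hb : 0 ≤ b) (hc : 0 ≤ c) (hd : 0 ≤ d)
    (ha' : 0 ≤ a') (hb' : 0 ≤ b') (hd' : 0 ≤ d') :
    (C0 * (θ * τ + o * t) + ε1) * (k * (a + t * c + t * b + τ * d)) +
      2 * (k * (4 * ((θ * τ + o * t) * (a + b + d) + (θ * t + o) * c))) +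
      (k * (10 * (τ + o * t) * a' + 4 * t * b' + 2 * τ * d')) +
      C0 * (θ * τ + o * t) * (k * (2 * a')) ≤
    20 * K ^ 2 * (C0 + 1) * ((θ * τ + o * t + ε1) * a + (θ * τ + o * t + ε1 * t) * b +
      (θ * t + o + ε1 * t) * c + (θ * τ + o * t + ε1 * τ) * d + (τ + o * t) * a' + t * b' +
      τ * d') := by
  have hK1 : 1 ≤ K := by linarith
  have hkK : k ≤ K := by linarith
  have hτ0 : 0 ≤ τ := by rw [← hτ]; positivity
  have htK : t ≤ K := by
    by_contra hcon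
    push Not at hcon
    have : K * K < t * t := mul_self_lt_mul_self (by linarith) hcon
    nlinarith
  have hτK : τ ≤ K := by linarith
  have hot : 0 ≤ o * t := mul_nonneg ho ht
  obtain ⟨A, hA⟩ : ∃ A, A = θ * τ + o * t := ⟨_, rfl⟩
  obtain ⟨B, hB⟩ : ∃ B, B = θ * t + o := ⟨_, rfl⟩
  have hA1 : 0 ≤ A := by rw [hA]; positivity
  have hB1 : 0 ≤ B := by rw [hB]; positivity
  have hAt : A * t ≤ K * B := by
    have : A * t = τ * B := by rw [hA, hB, ← hτ]; ring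
    rw [this]
    exact mul_le_mul_of_nonneg_right hτK hB1
  have hAτ : A ≤ τ + o * t := by
    rw [hA]
    have := mul_le_mul_of_nonneg_right hθ1 hτ0
    linarith
  rw [← hA, ← hB]
  obtain ⟨M, hM⟩ : ∃ M, M = K ^ 2 * (C0 + 1) := ⟨_, rfl⟩
  have e20 : 20 * K ^ 2 * (C0 + 1) = 20 * M := by rw [hM]; ring
  rw [e20]
  have c1 := real_coef hk hK1 hkK hC0 hM hA1 zero_le_one hε
    (show A * 1 ≤ K * A by rw [mul_comm K]; exact mul_le_mul_of_nonneg_left hK1 hA1)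
  have c2 := real_coef hk hK1 hkK hC0 hM hA1 ht hε
    (show A * t ≤ K * A by rw [mul_comm K]; exact mul_le_mul_of_nonneg_left htK hA1)
  have c3 := real_coef hk hK1 hkK hC0 hM hB1 ht hε hAt
  have c4 := real_coef hk hK1 hkK hC0 hM hA1 hτ0 hε
    (show A * τ ≤ K * A by rw [mul_comm K]; exact mul_le_mul_of_nonneg_left hτK hA1)
  have hkM : k * (C0 + 1) ≤ M := by
    rw [hM]
    refine mul_le_mul_of_nonneg_right ?_ (by linarith)
    nlinarith
  have hkM' : k ≤ M := by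
    have : k ≤ k * (C0 + 1) := le_mul_of_one_le_right hk (by linarith)
    linarith
  have hM0 : 0 ≤ M := by linarith
  have hot' : 0 ≤ τ + o * t := by linarith
  have c5 : 10 * k * (τ + o * t) + C0 * A * (k * 2) ≤ 20 * M * (τ + o * t) := by
    have e1 : (2 * (k * C0)) * A ≤ (2 * (k * C0)) * (τ + o * t) :=
      mul_le_mul_of_nonneg_left hAτ (by positivity)
    have e2 : (10 * k + 2 * (k * C0)) * (τ + o * t) ≤ 20 * M * (τ + o * t) :=
      mul_le_mul_of_nonneg_right (by linarith) hot'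
    linarith
  have c6 : 4 * k * t ≤ 20 * M * t := mul_le_mul_of_nonneg_right (by linarith) ht
  have c7 : 2 * k * τ ≤ 20 * M * τ := mul_le_mul_of_nonneg_right (by linarith) hτ0
  have d1 := mul_le_mul_of_nonneg_right c1 ha
  have d2 := mul_le_mul_of_nonneg_right c2 hb
  have d3 := mul_le_mul_of_nonneg_right c3 hc
  have d4 := mul_le_mul_of_nonneg_right c4 hd
  have d5 := mul_le_mul_of_nonneg_right c5 ha'
  have d6 := mul_le_mul_of_nonneg_right c6 hb'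
  have d7 := mul_le_mul_of_nonneg_right c7 hd'
  have f1 : (C0 * A + ε1) * (k * (a + t * c + t * b + τ * d)) +
      2 * (k * (4 * (A * (a + b + d) + B * c))) +
      (k * (10 * (τ + o * t) * a' + 4 * t * b' + 2 * τ * d')) +
      C0 * A * (k * (2 * a')) =
      ((C0 * A + ε1) * (k * 1) + 8 * k * A) * a + ((C0 * A + ε1) * (k * t) + 8 * k * A) * b +
      ((C0 * A + ε1) * (k * t) + 8 * k * B) * c + ((C0 * A + ε1) * (k * τ) + 8 * k * A) * d +
      (10 * k * (τ + o * t) + C0 * A * (k * 2)) * a' + 4 * k * t * b' + 2 * k * τ * d' := by ring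
  have f2 : 20 * M * ((A + ε1) * a + (A + ε1 * t) * b + (B + ε1 * t) * c + (A + ε1 * τ) * d +
      (τ + o * t) * a' + t * b' + τ * d') = 20 * M * (A + ε1 * 1) * a + 20 * M * (A + ε1 * t) * b +
      20 * M * (B + ε1 * t) * c + 20 * M * (A + ε1 * τ) * d + 20 * M * (τ + o * t) * a' +
      20 * M * t * b' + 20 * M * τ * d' := by ring
  rw [f1, f2]
  linarith

/-- **the pointwise inequality for one plane** -/
theorem exists_pure (m k : ℕ) : ∃ c C : ℝ, 0 < c ∧ c ≤ 1 / 4 ∧ 0 ≤ C ∧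
    ∀ (H S g Z G' : L k) (θ o a b c' d a' b' d' g0 δ ε1 ε2 : ℝ), H ∈ G m k → S ∈ G m k →
      ‖g‖ ≤ c → Blk H g θ o → θ ≤ 1 →
      ‖H * Z * H‖ ≤ a → ‖H * Z * (1 - H)‖ ≤ b → ‖(1 - H) * Z * H‖ ≤ c' →
      ‖(1 - H) * Z * (1 - H)‖ ≤ d →
      ‖H * G' * H‖ ≤ a' → ‖H * G' * (1 - H)‖ ≤ b' → ‖(1 - H) * G' * H‖ ≤ b' →
      ‖(1 - H) * G' * (1 - H)‖ ≤ d' →
      |Jc g H - g0| ≤ ε1 → |1 / 2 * Jc g H * tr (Sg g H * G') - δ| ≤ ε2 →
      |Jc g S * tr (Sg g S * ((1 + g) * Z + (1 / 2 : ℝ) • G')) - (g0 * tr (S * Z) + δ)| ≤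
        C * ((θ * tau H S + o * Real.sqrt (tau H S) + ε1) * a +
          (θ * tau H S + o * Real.sqrt (tau H S) + ε1 * Real.sqrt (tau H S)) * b +
          (θ * Real.sqrt (tau H S) + o + ε1 * Real.sqrt (tau H S)) * c' +
          (θ * tau H S + o * Real.sqrt (tau H S) + ε1 * tau H S) * d +
          (tau H S + o * Real.sqrt (tau H S)) * a' + Real.sqrt (tau H S) * b' +
          tau H S * d') + ε2 := by
  obtain ⟨c, C0, hc, hc4, hC0, hJ⟩ := exists_Jc m k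
  refine ⟨c, 20 * ((k : ℝ) + 1) ^ 2 * (C0 + 1), hc, hc4, by positivity, ?_⟩
  intro H S g Z G' θ o a b c' d a' b' d' g0 δ ε1 ε2 hH hS hg hB hθ ha hb hc' hd ha' hb' hb'' hd'
    hε1 hε2
  have hg2 : ‖g‖ ≤ 1 / 2 := by linarith
  obtain ⟨hJ2, hJd⟩ := hJ H S g θ o hH hS hg hB
  have hJ0 : 0 ≤ Jc g S := Real.sqrt_nonneg _
  have t1 := abs_tr_SZ hH hS ha hb hc' hd
  have t2 := abs_tr_DZ hH hS hg2 hB ha hb hc' hd
  have t3 := abs_tr_SgG hH hS hg2 hB hθ ha' hb' hb'' hd'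
  have t4 := abs_tr_SgH hH hg2 ha'
  have hsq := sq_sqrt_tau hH hS
  have hτk := tau_le hH hS
  have e1 : Sg g S * ((1 + g) * Z + (1 / 2 : ℝ) • G') = S * Z + Dg g S * Z +
      (1 / 2 : ℝ) • (Sg g S * G') := by
    rw [mul_add, ← mul_assoc, Sg_mul_eq (isStar_of_G hS) hg2, add_mul, mul_smul']
  rw [e1, map_add, map_add, map_smul, smul_eq_mul]
  set t := Real.sqrt (tau H S) with ht
  set τ := tau H S with hτ
  have ht0 : 0 ≤ t := Real.sqrt_nonneg _
  have hθ0 := hB.θ_nonneg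
  have ho0 := hB.o_nonneg
  have key : Jc g S * (tr (S * Z) + tr (Dg g S * Z) + 1 / 2 * tr (Sg g S * G')) -
      (g0 * tr (S * Z) + δ) = (Jc g S - g0) * tr (S * Z) + Jc g S * tr (Dg g S * Z) +
      1 / 2 * Jc g S * (tr (Sg g S * G') - tr (Sg g H * G')) +
      1 / 2 * (Jc g S - Jc g H) * tr (Sg g H * G') +
      (1 / 2 * Jc g H * tr (Sg g H * G') - δ) := by ring
  rw [key]
  have hε10 : 0 ≤ ε1 := (abs_nonneg _).trans hε1
  have b0 : |Jc g S - g0| ≤ C0 * (θ * τ + o * t) + ε1 := by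
    have := abs_sub_le (Jc g S) (Jc g H) g0
    linarith
  have b1 : |(Jc g S - g0) * tr (S * Z)| ≤ (C0 * (θ * τ + o * t) + ε1) *
      (k * (a + t * c' + t * b + τ * d)) := by
    rw [abs_mul]
    exact mul_le_mul b0 t1 (abs_nonneg _) ((abs_nonneg _).trans b0)
  have b2 : |Jc g S * tr (Dg g S * Z)| ≤ 2 * (k * (4 * ((θ * τ + o * t) * (a + b + d) +
      (θ * t + o) * c'))) := by
    rw [abs_mul, abs_of_nonneg hJ0]
    exact mul_le_mul hJ2 t2 (abs_nonneg _) (by norm_num)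
  have b3 : |1 / 2 * Jc g S * (tr (Sg g S * G') - tr (Sg g H * G'))| ≤
      k * (10 * (τ + o * t) * a' + 4 * t * b' + 2 * τ * d') := by
    rw [abs_mul, abs_of_nonneg (by positivity)]
    have h := mul_le_mul (show 1 / 2 * Jc g S ≤ 1 by linarith) t3 (abs_nonneg _) zero_le_one
    linarith
  have b4 : |1 / 2 * (Jc g S - Jc g H) * tr (Sg g H * G')| ≤
      C0 * (θ * τ + o * t) * (k * (2 * a')) := by
    rw [abs_mul]
    refine mul_le_mul ?_ t4 (abs_nonneg _) ?_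
    · rw [abs_mul, abs_of_pos (by norm_num : (0:ℝ) < 1 / 2)]
      have h1 := abs_nonneg (Jc g S - Jc g H)
      linarith
    · exact (abs_nonneg _).trans hJd
  have hfin := real_assembly (k := (k:ℝ)) (K := (k:ℝ) + 1) (Nat.cast_nonneg _) rfl hC0 hθ0 hθ ho0
    ht0 hsq hτk hε10 ((norm_nonneg _).trans ha) ((norm_nonneg _).trans hb)
    ((norm_nonneg _).trans hc') ((norm_nonneg _).trans hd) ((norm_nonneg _).trans ha')
    ((norm_nonneg _).trans hb') ((norm_nonneg _).trans hd')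
  have a1 := abs_add_le ((Jc g S - g0) * tr (S * Z) + Jc g S * tr (Dg g S * Z) +
      1 / 2 * Jc g S * (tr (Sg g S * G') - tr (Sg g H * G')) +
      1 / 2 * (Jc g S - Jc g H) * tr (Sg g H * G'))
      (1 / 2 * Jc g H * tr (Sg g H * G') - δ)
  have a2 := abs_add_le ((Jc g S - g0) * tr (S * Z) + Jc g S * tr (Dg g S * Z) +
      1 / 2 * Jc g S * (tr (Sg g S * G') - tr (Sg g H * G')))
      (1 / 2 * (Jc g S - Jc g H) * tr (Sg g H * G'))
  have a3 := abs_add_le ((Jc g S - g0) * tr (S * Z) + Jc g S * tr (Dg g S * Z))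
      (1 / 2 * Jc g S * (tr (Sg g S * G') - tr (Sg g H * G')))
  have a4 := abs_add_le ((Jc g S - g0) * tr (S * Z)) (Jc g S * tr (Dg g S * Z))
  linarith

end Crest.Agent.R234.Fm_281
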