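import Crest.Agent.R234.Fm3_281

/-!
# Row 234, VF-FERMI (helper281), file 4: calculus of the determinant of operators
-/

set_option autoImplicit false

open Crest.GeometryTopology.Submanifold
open Crest.Agent.R234.Vf_884
open scoped InnerProductSpace

noncomputable section

namespace Crest.Agent.R234.Fm_281

variable {k : ℕ}

/-- matrix of an operator -/
def mtx (A : L k) : Matrix (Fin k) (Fin k) ℝ :=
  LinearMap.toMatrix (EuclideanSpace.basisFun (Fin k) ℝ).toBasis
    (EuclideanSpace.basisFun (Fin k) ℝ).toBasis (A : Euc k →ₗ[ℝ] Euc k)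

theorem det_mtx (A : L k) : (mtx A).det = A.det := LinearMap.det_toMatrix _ _

theorem trace_mtx (A : L k) : (mtx A).trace = tr A := by
  rw [tr_apply]
  exact (LinearMap.trace_eq_matrix_trace ℝ _ _).symm

theorem mtx_one_add (t : ℝ) (B : L k) : mtx (1 + t • B) = 1 + t • mtx B := by
  unfold mtx
  have e1 : ((1 + t • B : L k) : Euc k →ₗ[ℝ] Euc k) =
      LinearMap.id + t • (B : Euc k →ₗ[ℝ] Euc k) := rfl
  rw [e1, map_add, map_smul, LinearMap.toMatrix_id]

theorem hasDerivAt_det_one (B : L k) :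
    HasDerivAt (fun t : ℝ => (1 + t • B : L k).det) (tr B) 0 := by
  have h : ∀ t : ℝ, (1 + t • B : L k).det = 1 + tr B * t
      + (((1 : Matrix (Fin k) (Fin k) (Polynomial ℝ)) + (Polynomial.X : Polynomial ℝ) •
        (mtx B).map Polynomial.C).det.divX.divX.eval t) * t ^ 2 := by
    intro t
    rw [← det_mtx, mtx_one_add, ← trace_mtx]
    exact Matrix.det_one_add_smul _ _
  simp only [h]
  have h1 := (Polynomial.hasDerivAt (((1 : Matrix (Fin k) (Fin k) (Polynomial ℝ)) +
    (Polynomial.X : Polynomial ℝ) • (mtx B).map Polynomial.C).det.divX.divX) (0:ℝ)).mul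
    ((hasDerivAt_id (0:ℝ)).pow 2)
  have h2 := (((hasDerivAt_id (0:ℝ)).const_mul (tr B)).const_add 1).add h1
  refine h2.congr_deriv ?_
  simp

theorem contDiff_detL : ContDiff ℝ ⊤ (fun A : L k => A.det) := Fm_209.contDiff_det

theorem det_mulL (A B : L k) : (A * B).det = A.det * B.det := by
  have := LinearMap.det_comp (A : Euc k →ₗ[ℝ] Euc k) (B : Euc k →ₗ[ℝ] Euc k)
  exact this

theorem det_oneL : (1 : L k).det = 1 := Fm_209.det_one

theorem fderiv_det {A X : L k} (h : A * X = 1) (B : L k) :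
    fderiv ℝ (fun A : L k => A.det) A B = A.det * tr (X * B) := by
  have hd : HasFDerivAt (fun A : L k => A.det) (fderiv ℝ (fun A : L k => A.det) A) A :=
    ((contDiff_detL.differentiable (by simp)) A).hasFDerivAt
  have hl : HasDerivAt (fun t : ℝ => A + t • B) B 0 := by
    have := ((hasDerivAt_id (0:ℝ)).smul_const B).const_add A
    simpa using this
  have h1 : HasDerivAt (fun t : ℝ => (A + t • B : L k).det)
      (fderiv ℝ (fun A : L k => A.det) A B) 0 := by
    have hd' : HasFDerivAt (fun A : L k => A.det) (fderiv ℝ (fun A : L k => A.det) A)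
        (A + (0:ℝ) • B) := by
      have e : A + (0:ℝ) • B = A := by ext v; simp
      rw [e]; exact hd
    exact hd'.comp_hasDerivAt (0:ℝ) hl
  have h2 : HasDerivAt (fun t : ℝ => (A + t • B : L k).det) (A.det * tr (X * B)) 0 := by
    have e : (fun t : ℝ => (A + t • B : L k).det) =
        fun t : ℝ => A.det * (1 + t • (X * B) : L k).det := by
      funext t
      rw [← det_mulL, mul_add, mul_one]
      congr 2
      rw [mul_smul', ← mul_assoc, h, one_mul]
    rw [e]
    exact (hasDerivAt_det_one (X * B)).const_mul _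
  exact h1.unique h2

theorem fderiv_det_one (B : L k) : fderiv ℝ (fun A : L k => A.det) 1 B = tr B := by
  rw [fderiv_det (one_mul (1 : L k)), det_oneL, one_mul, one_mul]

/-- second order expansion -/
theorem exists_taylor (k : ℕ) : ∃ C : ℝ, 0 ≤ C ∧ ∀ Y : L k, ‖Y‖ ≤ 1 →
    |(1 + Y).det - 1 - tr Y| ≤ C * ‖Y‖ ^ 2 := by
  set f : L k → ℝ := fun A => A.det with hf
  have hf2 : ContDiff ℝ 2 f := contDiff_detL.of_le le_top
  have hf1 : ContDiff ℝ 1 (fderiv ℝ f) := hf2.fderiv_right (by norm_num)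
  obtain ⟨C, hC⟩ := (isCompact_closedBall (1 : L k) 1).exists_bound_of_continuousOn
    (hf1.continuous_fderiv one_ne_zero).continuousOn
  have hC0 : 0 ≤ C := (norm_nonneg _).trans (hC 1 (Metric.mem_closedBall_self zero_le_one))
  have hlip : ∀ A ∈ Metric.closedBall (1 : L k) 1, ‖fderiv ℝ f A - fderiv ℝ f 1‖ ≤ C * ‖A - 1‖ :=
    fun A hA => (convex_closedBall (1 : L k) 1).norm_image_sub_le_of_norm_fderiv_le
      (fun x _ => (hf1.differentiable one_ne_zero) x) hC (Metric.mem_closedBall_self zero_le_one) hA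
  refine ⟨C, hC0, fun Y hY => ?_⟩
  -- on the ball of radius ‖Y‖
  have h1 : ∀ A ∈ Metric.closedBall (1 : L k) ‖Y‖, ‖fderiv ℝ f A - fderiv ℝ f 1‖ ≤ C * ‖Y‖ := by
    intro A hA
    refine (hlip A (Metric.closedBall_subset_closedBall hY hA)).trans ?_
    refine mul_le_mul_of_nonneg_left ?_ hC0
    rwa [mem_closedBall_iff_norm] at hA
  have h2 := (convex_closedBall (1 : L k) ‖Y‖).norm_image_sub_le_of_norm_hasFDerivWithin_le'
    (f := f) (f' := fderiv ℝ f) (φ := fderiv ℝ f 1) (C := C * ‖Y‖)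
    (fun x _ => (((hf2.differentiable two_ne_zero) x).hasFDerivAt).hasFDerivWithinAt) h1
    (Metric.mem_closedBall_self (norm_nonneg _))
    (show 1 + Y ∈ Metric.closedBall (1 : L k) ‖Y‖ by
      rw [mem_closedBall_iff_norm, add_sub_cancel_left])
  rw [add_sub_cancel_left, hf, fderiv_det_one, Real.norm_eq_abs] at h2
  change |(1 + Y).det - (1 : L k).det - tr Y| ≤ C * ‖Y‖ * ‖Y‖ at h2
  rw [det_oneL] at h2
  calc |(1 + Y).det - 1 - tr Y| ≤ C * ‖Y‖ * ‖Y‖ := h2
    _ = C * ‖Y‖ ^ 2 := by ring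

theorem det_starL (A : L k) : (star A).det = A.det := by
  rw [← det_mtx, ← det_mtx]
  have h : mtx (star A) = (mtx A).conjTranspose :=
    LinearMap.toMatrix_adjoint (𝕜 := ℝ) (EuclideanSpace.basisFun (Fin k) ℝ)
      (EuclideanSpace.basisFun (Fin k) ℝ) (A : Euc k →ₗ[ℝ] Euc k)
  rw [h, Matrix.det_conjTranspose]
  simp

/-- derivative of the square root of the determinant along a path of operators -/
theorem hasFDerivAt_sqrt_det {F : Type*} [NormedAddCommGroup F] [NormedSpace ℝ F] {g : F → L k}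
    {g' : F →L[ℝ] L k} {x : F} {X : L k} (hg : HasFDerivAt g g' x) (hX : g x * X = 1)
    (hpos : 0 < (g x).det) :
    HasFDerivAt (fun z => Real.sqrt (g z).det)
      ((1 / 2 * Real.sqrt (g x).det) •
        (tr ∘L ((ContinuousLinearMap.compL ℝ (Euc k) (Euc k) (Euc k) X) ∘L g'))) x := by
  have h1 : HasFDerivAt (fun A : L k => A.det) (fderiv ℝ (fun A : L k => A.det) (g x)) (g x) :=
    ((contDiff_detL.differentiable (by simp)) (g x)).hasFDerivAt
  have h2 := (h1.comp x hg).sqrt hpos.ne'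
  refine h2.congr_fderiv ?_
  ext v
  have h3 : fderiv ℝ (fun A : L k => A.det) (g x) (g' v) = (g x).det * tr (X * g' v) :=
    fderiv_det hX _
  have hs : Real.sqrt (g x).det ≠ 0 := (Real.sqrt_pos.2 hpos).ne'
  have hs2 : Real.sqrt (g x).det * Real.sqrt (g x).det = (g x).det := Real.mul_self_sqrt hpos.le
  have h4 : (ContinuousLinearMap.compL ℝ (Euc k) (Euc k) (Euc k) X) (g' v) = X * g' v := rfl
  simp only [smul_apply, ContinuousLinearMap.coe_comp, Function.comp_apply, smul_eq_mul,
    h3, h4]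
  field_simp
  rw [sq, hs2]

end Crest.Agent.R234.Fm_281
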