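import Crest.Agent.R234.Fm4_281

/-!
# Row 234, VF-FERMI (helper281), file 5: the chart `z ↦ z + u - Duᵀ y` at one point, pure algebra

`P = Du`, `h = ⟨y, D²u⟩`, `P1`, `h1` their derivatives along the test field; `T = 1 + P - P† - h`,
`gm P h = T† T - 1`, `dgm P P1 h h1` its derivative.
-/

set_option autoImplicit false

open Crest.GeometryTopology.Submanifold
open Crest.Agent.R234.Vf_884
open scoped InnerProductSpace

noncomputable section

namespace Crest.Agent.R234.Fm_281

variable {m k : ℕ}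

theorem star_zero' : star (0 : L k) = 0 := map_zero ContinuousLinearMap.adjoint

theorem star_add' (A B : L k) : star (A + B) = star A + star B :=
  map_add ContinuousLinearMap.adjoint A B

theorem star_sub' (A B : L k) : star (A - B) = star A - star B :=
  map_sub ContinuousLinearMap.adjoint A B

theorem star_one' : star (1 : L k) = 1 := by
  rw [star_def]
  exact ContinuousLinearMap.adjoint_id

theorem star_star' (A : L k) : star (star A) = A := ContinuousLinearMap.adjoint_adjoint A

theorem norm_star' (A : L k) : ‖star A‖ = ‖A‖ := LinearIsometryEquiv.norm_map _ A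

/-- metric of the chart minus identity -/
def gm (P h : L k) : L k :=
  star P * P + P * star P + P * h + h * star P - h - h + h * h

/-- derivative of the metric of the chart -/
def dgm (P P1 h h1 : L k) : L k :=
  star P1 * P + star P * P1 + P1 * star P + P * star P1 + P1 * h + P * h1 + h1 * star P +
    h * star P1 - h1 - h1 + h1 * h + h * h1

/-- `P` maps horizontal to vertical -/
structure HV (H P : L k) : Prop where
  eq : (1 - H) * P * H = P

/-- `h` acts on the horizontal space -/
structure HH (H h : L k) : Prop where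
  eq : H * h * H = h

section Rel

variable {H P P1 h h1 : L k}

theorem HV.e1 (hH : IsStarProjection H) (hP : HV H P) : H * P = 0 := by
  rw [← hP.eq, ← mul_assoc, ← mul_assoc, hH.mul_one_sub_self, zero_mul, zero_mul]

theorem HV.e2 (hH : IsStarProjection H) (hP : HV H P) : P * H = P := by
  have h1 : H * H = H := hH.1
  conv_lhs => rw [← hP.eq]
  rw [mul_assoc, h1, hP.eq]

theorem HV.e3 (hH : IsStarProjection H) (hP : HV H P) : H * star P = star P := by
  have h1 := congrArg star (hP.e2 hH)
  rwa [star_mul, hH.2.star_eq] at h1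

theorem HV.e4 (hH : IsStarProjection H) (hP : HV H P) : star P * H = 0 := by
  have h1 := congrArg star (hP.e1 hH)
  rwa [star_mul, hH.2.star_eq, star_zero'] at h1

theorem HH.e1 (hH : IsStarProjection H) (hh : HH H h) : H * h = h := by
  have h1 : H * H = H := hH.1
  conv_lhs => rw [← hh.eq]
  rw [← mul_assoc, ← mul_assoc, h1, hh.eq]

theorem HH.e2 (hH : IsStarProjection H) (hh : HH H h) : h * H = h := by
  have h1 : H * H = H := hH.1
  conv_lhs => rw [← hh.eq]
  rw [mul_assoc, h1, hh.eq]

/-- products vanishing for block reasons -/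
theorem zero_of {A B : L k} (hA : A * H = A) (hB : H * B = 0) : A * B = 0 := by
  rw [← hA, mul_assoc, hB, mul_zero]

theorem zero_of' {A B : L k} (hA : A * H = 0) (hB : H * B = B) : A * B = 0 := by
  rw [← hB, ← mul_assoc, hA, zero_mul]

theorem gm_eq (hH : IsStarProjection H) (hP : HV H P) (hh : HH H h) (hs : star h = h) :
    star (1 + P - star P - h) * (1 + P - star P - h) - 1 = gm P h := by
  have z1 : P * P = 0 := zero_of (hP.e2 hH) (hP.e1 hH)
  have z2 : star P * star P = 0 := zero_of' (hP.e4 hH) (hP.e3 hH)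
  have z3 : h * P = 0 := zero_of (hh.e2 hH) (hP.e1 hH)
  have z4 : star P * h = 0 := zero_of' (hP.e4 hH) (hh.e1 hH)
  unfold gm
  simp only [star_sub', star_add', star_one', star_star', hs, mul_sub, sub_mul, mul_add, add_mul,
    mul_one, one_mul, z1, z2, z3, z4]
  abel

theorem dgm_eq (hH : IsStarProjection H) (hP : HV H P) (hP1 : HV H P1) (hh : HH H h)
    (hh1 : HH H h1) (hs : star h = h) (h1s : star h1 = h1) :
    star (P1 - star P1 - h1) * (1 + P - star P - h) +
      star (1 + P - star P - h) * (P1 - star P1 - h1) = dgm P P1 h h1 := by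
  have z1 : P1 * P = 0 := zero_of (hP1.e2 hH) (hP.e1 hH)
  have z1' : P * P1 = 0 := zero_of (hP.e2 hH) (hP1.e1 hH)
  have z2 : star P1 * star P = 0 := zero_of' (hP1.e4 hH) (hP.e3 hH)
  have z2' : star P * star P1 = 0 := zero_of' (hP.e4 hH) (hP1.e3 hH)
  have z3 : h1 * P = 0 := zero_of (hh1.e2 hH) (hP.e1 hH)
  have z3' : h * P1 = 0 := zero_of (hh.e2 hH) (hP1.e1 hH)
  have z4 : star P1 * h = 0 := zero_of' (hP1.e4 hH) (hh.e1 hH)
  have z4' : star P * h1 = 0 := zero_of' (hP.e4 hH) (hh1.e1 hH)
  unfold dgm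
  simp only [star_sub', star_add', star_one', star_star', hs, h1s, mul_sub, sub_mul, mul_add, add_mul,
    mul_one, one_mul, z1, z1', z2, z2', z3, z3', z4, z4']
  abel

/-- blocks of `gm` -/
theorem gm_hh (hH : IsStarProjection H) (hP : HV H P) (hh : HH H h) :
    H * gm P h * H = star P * P - h - h + h * h := by
  have a1 := hP.e1 hH
  have a2 := hP.e2 hH
  have a3 := hP.e3 hH
  have a4 := hP.e4 hH
  have b1 := hh.e1 hH
  have b2 := hh.e2 hH
  have c1 : ∀ X, H * (P * X) = 0 := fun X => by rw [← mul_assoc, a1, zero_mul]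
  have c3 : ∀ X, H * (star P * X) = star P * X := fun X => by rw [← mul_assoc, a3]
  have d1 : ∀ X, H * (h * X) = h * X := fun X => by rw [← mul_assoc, b1]
  unfold gm
  simp only [mul_sub, sub_mul, mul_add, add_mul, mul_assoc, a2, a4, b1, b2, c1, c3,
    d1, add_zero, mul_zero]

theorem gm_vv (hH : IsStarProjection H) (hP : HV H P) (hh : HH H h) :
    (1 - H) * gm P h * (1 - H) = P * star P := by
  have a1 := hP.e1 hH
  have a2 := hP.e2 hH
  have a3 := hP.e3 hH
  have a4 := hP.e4 hH
  have b1 := hh.e1 hH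
  have b2 := hh.e2 hH
  have c1 : ∀ X, H * (P * X) = 0 := fun X => by rw [← mul_assoc, a1, zero_mul]
  have c3 : ∀ X, H * (star P * X) = star P * X := fun X => by rw [← mul_assoc, a3]
  have d1 : ∀ X, H * (h * X) = h * X := fun X => by rw [← mul_assoc, b1]
  unfold gm
  simp only [mul_sub, sub_mul, mul_add, add_mul, mul_assoc, one_mul, mul_one, a2, a4, b1, b2, c1,
    c3, d1, add_zero, mul_zero, sub_zero]
  abel

theorem gm_hv (hH : IsStarProjection H) (hP : HV H P) (hh : HH H h) :
    H * gm P h * (1 - H) = h * star P := by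
  have a1 := hP.e1 hH
  have a2 := hP.e2 hH
  have a3 := hP.e3 hH
  have a4 := hP.e4 hH
  have b1 := hh.e1 hH
  have b2 := hh.e2 hH
  have c1 : ∀ X, H * (P * X) = 0 := fun X => by rw [← mul_assoc, a1, zero_mul]
  have c3 : ∀ X, H * (star P * X) = star P * X := fun X => by rw [← mul_assoc, a3]
  have d1 : ∀ X, H * (h * X) = h * X := fun X => by rw [← mul_assoc, b1]
  unfold gm
  simp only [mul_sub, sub_mul, mul_add, add_mul, mul_assoc, mul_one, a2, a4, b1, b2, c1,
    c3, d1, add_zero, mul_zero]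
  abel

theorem gm_vh (hH : IsStarProjection H) (hP : HV H P) (hh : HH H h) :
    (1 - H) * gm P h * H = P * h := by
  have a1 := hP.e1 hH
  have a2 := hP.e2 hH
  have a3 := hP.e3 hH
  have a4 := hP.e4 hH
  have b1 := hh.e1 hH
  have b2 := hh.e2 hH
  have c1 : ∀ X, H * (P * X) = 0 := fun X => by rw [← mul_assoc, a1, zero_mul]
  have c3 : ∀ X, H * (star P * X) = star P * X := fun X => by rw [← mul_assoc, a3]
  have d1 : ∀ X, H * (h * X) = h * X := fun X => by rw [← mul_assoc, b1]
  unfold gm
  simp only [mul_sub, sub_mul, mul_add, add_mul, mul_assoc, one_mul, a2, a4, b1, b2, c1,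
    c3, d1, add_zero, mul_zero, sub_zero]
  abel

/-- blocks of `dgm` -/
theorem dgm_hh (hH : IsStarProjection H) (hP : HV H P) (hP1 : HV H P1) (hh : HH H h)
    (hh1 : HH H h1) : H * dgm P P1 h h1 * H =
      star P1 * P + star P * P1 - h1 - h1 + h1 * h + h * h1 := by
  have a1 := hP.e1 hH
  have a2 := hP.e2 hH
  have a3 := hP.e3 hH
  have a4 := hP.e4 hH
  have b1 := hh.e1 hH
  have b2 := hh.e2 hH
  have a1' := hP1.e1 hH
  have a2' := hP1.e2 hH
  have a3' := hP1.e3 hH
  have a4' := hP1.e4 hH
  have b1' := hh1.e1 hH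
  have b2' := hh1.e2 hH
  have c1 : ∀ X, H * (P * X) = 0 := fun X => by rw [← mul_assoc, a1, zero_mul]
  have c3 : ∀ X, H * (star P * X) = star P * X := fun X => by rw [← mul_assoc, a3]
  have d1 : ∀ X, H * (h * X) = h * X := fun X => by rw [← mul_assoc, b1]
  have c1' : ∀ X, H * (P1 * X) = 0 := fun X => by rw [← mul_assoc, a1', zero_mul]
  have c3' : ∀ X, H * (star P1 * X) = star P1 * X := fun X => by rw [← mul_assoc, a3']
  have d1' : ∀ X, H * (h1 * X) = h1 * X := fun X => by rw [← mul_assoc, b1']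
  unfold dgm
  simp only [mul_sub, sub_mul, mul_add, add_mul, mul_assoc, a2, a4, b2, c1, c3, d1, a2', a4', b1',
    b2', c1', c3', d1', add_zero, mul_zero]

theorem dgm_vv (hH : IsStarProjection H) (hP : HV H P) (hP1 : HV H P1) (hh : HH H h)
    (hh1 : HH H h1) : (1 - H) * dgm P P1 h h1 * (1 - H) = P1 * star P + P * star P1 := by
  have a1 := hP.e1 hH
  have a2 := hP.e2 hH
  have a3 := hP.e3 hH
  have a4 := hP.e4 hH
  have b1 := hh.e1 hH
  have b2 := hh.e2 hH
  have a1' := hP1.e1 hH
  have a2' := hP1.e2 hH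
  have a3' := hP1.e3 hH
  have a4' := hP1.e4 hH
  have b1' := hh1.e1 hH
  have b2' := hh1.e2 hH
  have c1 : ∀ X, H * (P * X) = 0 := fun X => by rw [← mul_assoc, a1, zero_mul]
  have c3 : ∀ X, H * (star P * X) = star P * X := fun X => by rw [← mul_assoc, a3]
  have d1 : ∀ X, H * (h * X) = h * X := fun X => by rw [← mul_assoc, b1]
  have c1' : ∀ X, H * (P1 * X) = 0 := fun X => by rw [← mul_assoc, a1', zero_mul]
  have c3' : ∀ X, H * (star P1 * X) = star P1 * X := fun X => by rw [← mul_assoc, a3']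
  have d1' : ∀ X, H * (h1 * X) = h1 * X := fun X => by rw [← mul_assoc, b1']
  unfold dgm
  simp only [mul_sub, sub_mul, mul_add, add_mul, mul_assoc, one_mul, mul_one, a2, a4, b2, c1, c3,
    d1, a2', a4', b1', b2', c1', c3', d1', add_zero, mul_zero, sub_zero]
  abel

theorem dgm_hv (hH : IsStarProjection H) (hP : HV H P) (hP1 : HV H P1) (hh : HH H h)
    (hh1 : HH H h1) : H * dgm P P1 h h1 * (1 - H) = h1 * star P + h * star P1 := by
  have a1 := hP.e1 hH
  have a2 := hP.e2 hH
  have a3 := hP.e3 hH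
  have a4 := hP.e4 hH
  have b1 := hh.e1 hH
  have b2 := hh.e2 hH
  have a1' := hP1.e1 hH
  have a2' := hP1.e2 hH
  have a3' := hP1.e3 hH
  have a4' := hP1.e4 hH
  have b1' := hh1.e1 hH
  have b2' := hh1.e2 hH
  have c1 : ∀ X, H * (P * X) = 0 := fun X => by rw [← mul_assoc, a1, zero_mul]
  have c3 : ∀ X, H * (star P * X) = star P * X := fun X => by rw [← mul_assoc, a3]
  have d1 : ∀ X, H * (h * X) = h * X := fun X => by rw [← mul_assoc, b1]
  have c1' : ∀ X, H * (P1 * X) = 0 := fun X => by rw [← mul_assoc, a1', zero_mul]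
  have c3' : ∀ X, H * (star P1 * X) = star P1 * X := fun X => by rw [← mul_assoc, a3']
  have d1' : ∀ X, H * (h1 * X) = h1 * X := fun X => by rw [← mul_assoc, b1']
  unfold dgm
  simp only [mul_sub, sub_mul, mul_add, add_mul, mul_assoc, mul_one, a2, a4, b2, c1, c3,
    d1, a2', a4', b1', b2', c1', c3', d1', add_zero, mul_zero]
  abel

theorem dgm_vh (hH : IsStarProjection H) (hP : HV H P) (hP1 : HV H P1) (hh : HH H h)
    (hh1 : HH H h1) : (1 - H) * dgm P P1 h h1 * H = P1 * h + P * h1 := by
  have a1 := hP.e1 hH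
  have a2 := hP.e2 hH
  have a3 := hP.e3 hH
  have a4 := hP.e4 hH
  have b1 := hh.e1 hH
  have b2 := hh.e2 hH
  have a1' := hP1.e1 hH
  have a2' := hP1.e2 hH
  have a3' := hP1.e3 hH
  have a4' := hP1.e4 hH
  have b1' := hh1.e1 hH
  have b2' := hh1.e2 hH
  have c1 : ∀ X, H * (P * X) = 0 := fun X => by rw [← mul_assoc, a1, zero_mul]
  have c3 : ∀ X, H * (star P * X) = star P * X := fun X => by rw [← mul_assoc, a3]
  have d1 : ∀ X, H * (h * X) = h * X := fun X => by rw [← mul_assoc, b1]
  have c1' : ∀ X, H * (P1 * X) = 0 := fun X => by rw [← mul_assoc, a1', zero_mul]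
  have c3' : ∀ X, H * (star P1 * X) = star P1 * X := fun X => by rw [← mul_assoc, a3']
  have d1' : ∀ X, H * (h1 * X) = h1 * X := fun X => by rw [← mul_assoc, b1']
  unfold dgm
  simp only [mul_sub, sub_mul, mul_add, add_mul, mul_assoc, one_mul, a2, a4, b2, c1, c3,
    d1, a2', a4', b1', b2', c1', c3', d1', add_zero, mul_zero, sub_zero]
  abel

end Rel

end Crest.Agent.R234.Fm_281
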