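import Crest.Agent.R234.Fm6_281
import Crest.Agent.R234.AS_456

/-!
# Row 234, VF-FERMI (helper281), file 7: the real estimates of the pointwise inequality
-/

set_option autoImplicit false

noncomputable section

namespace Crest.Agent.R234.Fm_281

/-- real parameters: `l` bound of the derivatives of `u`, `y ≤ h0` height, `t² = τ` tilt,
`q = l (l + h0)`. -/
structure RA (k l y h0 t τ q : ℝ) : Prop where
  hk : 0 ≤ k
  hl : 0 ≤ l
  hl1 : l ≤ 1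
  hy : 0 ≤ y
  hyh : y ≤ h0
  hh : h0 ≤ 1
  ht : 0 ≤ t
  hτ : t * t = τ
  hτk : τ ≤ k
  hq : q = l * (l + h0)

namespace RA

variable {k l y h0 t τ q C1 : ℝ} (R : RA k l y h0 t τ q)

include R

theorem τ0 : 0 ≤ τ := by rw [← R.hτ]; exact mul_self_nonneg t

theorem y1 : y ≤ 1 := R.hyh.trans R.hh

theorem h00 : 0 ≤ h0 := R.hy.trans R.hyh

theorem tK : t ≤ k + 1 := by
  by_contra hcon
  push Not at hcon
  have h1 : (k + 1) * (k + 1) < t * t := mul_self_lt_mul_self (by linarith [R.hk]) hcon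
  have h2 := R.hτ
  have h3 := R.hτk
  have h4 := R.hk
  nlinarith

theorem q0 : 0 ≤ q := by
  rw [R.hq]; exact mul_nonneg R.hl (by linarith [R.hl, R.h00])

theorem ll : l ^ 2 ≤ q := by
  rw [R.hq]
  have := mul_nonneg R.hl R.h00
  nlinarith

theorem l1 : l ^ 2 ≤ 1 := by
  have h1 := R.hl
  have h2 := R.hl1
  nlinarith

theorem ly : l * y ≤ l * h0 := mul_le_mul_of_nonneg_left R.hyh R.hl

theorem th : l ^ 2 + 3 * (l * y) ≤ 3 * q := by
  have h1 := R.ly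
  have h2 := sq_nonneg l
  have h3 : 3 * q = 3 * l ^ 2 + 3 * (l * h0) := by rw [R.hq]; ring
  linarith

theorem th0 : 0 ≤ l ^ 2 + 3 * (l * y) := by
  have h1 := mul_nonneg R.hl R.hy
  have h2 := sq_nonneg l
  linarith

theorem yt0 : 0 ≤ y * t := mul_nonneg R.hy R.ht

theorem yt : 2 * (y * t) ≤ τ + y ^ 2 := by
  rw [← R.hτ]
  nlinarith [sq_nonneg (t - y)]

theorem yt' : y * t ≤ t := by
  have := mul_le_mul_of_nonneg_right R.y1 R.ht
  linarith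

theorem y2 : y ^ 2 ≤ 1 := by
  have h1 := R.hy
  have h2 := R.y1
  nlinarith

theorem τt : τ ≤ (k + 1) * t := by
  rw [← R.hτ]
  exact mul_le_mul_of_nonneg_right R.tK R.ht

theorem lly : l ^ 2 * y ^ 2 ≤ q := by
  have h1 := mul_le_mul R.ll R.y2 (sq_nonneg y) R.q0
  linarith

theorem ot : l ^ 2 * y * t ≤ q * (y * t) := by
  have := mul_le_mul_of_nonneg_right R.ll R.yt0
  linarith

theorem a1 (hC1 : 0 ≤ C1) : (l ^ 2 + 3 * (l * y)) * τ + l ^ 2 * y * t + C1 * (l ^ 2 * y ^ 2) ≤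
    (4 + C1) * q * (τ + y ^ 2) := by
  have q0 := R.q0
  have τ0 := R.τ0
  have e1 := mul_le_mul_of_nonneg_right R.th τ0
  have e2 := R.ot
  have e3 : q * (y * t) ≤ q * (τ + y ^ 2) :=
    mul_le_mul_of_nonneg_left (by linarith [R.yt, R.yt0]) q0
  have e4 : C1 * (l ^ 2 * y ^ 2) ≤ C1 * (q * y ^ 2) :=
    mul_le_mul_of_nonneg_left (mul_le_mul_of_nonneg_right R.ll (sq_nonneg y)) hC1
  have e5 : 0 ≤ C1 * (q * τ) := mul_nonneg hC1 (mul_nonneg q0 τ0)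
  have e6 : 0 ≤ q * y ^ 2 := mul_nonneg q0 (sq_nonneg y)
  have e7 : (4 + C1) * q * (τ + y ^ 2) = 4 * (q * τ) + 4 * (q * y ^ 2) + C1 * (q * τ) +
    C1 * (q * y ^ 2) := by ring
  have e8 : q * (τ + y ^ 2) = q * τ + q * y ^ 2 := by ring
  rw [e7]
  linarith

theorem e4t (hC1 : 0 ≤ C1) {s : ℝ} (hs : 0 ≤ s) : C1 * (l ^ 2 * y ^ 2) * s ≤ C1 * (q * s) := by
  have f2 : l ^ 2 * y ^ 2 * s ≤ q * s := mul_le_mul_of_nonneg_right R.lly hs
  have f3 := mul_le_mul_of_nonneg_left f2 hC1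
  linarith

theorem a2 (hC1 : 0 ≤ C1) :
    (l ^ 2 + 3 * (l * y)) * τ + l ^ 2 * y * t + C1 * (l ^ 2 * y ^ 2) * t ≤
    (3 * (k + 1) + 1 + C1) * q * (t + y) := by
  have q0 := R.q0
  have e1 := mul_le_mul_of_nonneg_right R.th R.τ0
  have e1' : 3 * q * τ ≤ 3 * q * ((k + 1) * t) :=
    mul_le_mul_of_nonneg_left R.τt (by linarith)
  have e2 := R.ot
  have e2' : q * (y * t) ≤ q * t := mul_le_mul_of_nonneg_left R.yt' q0
  have e4 := R.e4t hC1 R.ht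
  have e5 : 0 ≤ (3 * (k + 1) + 1 + C1) * q * y := by
    have := R.hk
    have := R.hy
    positivity
  linarith

theorem a3 (hC1 : 0 ≤ C1) :
    (l ^ 2 + 3 * (l * y)) * t + l ^ 2 * y + C1 * (l ^ 2 * y ^ 2) * t ≤
      (4 + C1) * q * (t + y) := by
  have q0 := R.q0
  have e1 := mul_le_mul_of_nonneg_right R.th R.ht
  have e2 : l ^ 2 * y ≤ q * y := mul_le_mul_of_nonneg_right R.ll R.hy
  have e4 := R.e4t hC1 R.ht
  have e5 : 0 ≤ C1 * (q * y) := mul_nonneg hC1 (mul_nonneg q0 R.hy)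
  have e6 : 0 ≤ q * t := mul_nonneg q0 R.ht
  have e7 : 0 ≤ q * y := mul_nonneg q0 R.hy
  have e8 : (4 + C1) * q * (t + y) = 4 * (q * t) + 4 * (q * y) + C1 * (q * t) +
    C1 * (q * y) := by ring
  rw [e8]
  linarith

theorem a4 (hC1 : 0 ≤ C1) :
    (l ^ 2 + 3 * (l * y)) * τ + l ^ 2 * y * t + C1 * (l ^ 2 * y ^ 2) * τ ≤
      (4 + C1) * q * (τ + y * t) := by
  have q0 := R.q0
  have e1 := mul_le_mul_of_nonneg_right R.th R.τ0
  have e2 := R.ot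
  have e4 := R.e4t hC1 R.τ0
  have e5 : 0 ≤ C1 * (q * (y * t)) := mul_nonneg hC1 (mul_nonneg q0 R.yt0)
  have e6 : 0 ≤ q * τ := mul_nonneg q0 R.τ0
  have e7 : 0 ≤ q * (y * t) := mul_nonneg q0 R.yt0
  have e8 : (4 + C1) * q * (τ + y * t) = 4 * (q * τ) + 4 * (q * (y * t)) + C1 * (q * τ) +
    C1 * (q * (y * t)) := by ring
  rw [e8]
  linarith

variable {u w ξ η : ℝ}

theorem c5 (hu : 0 ≤ u) (hw : 0 ≤ w) (hξ : ξ ≤ 2 * u) (hη : η ≤ 2 * w) :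
    (τ + l ^ 2 * y * t) * (2 * l ^ 2 * ξ + 4 * (l * η + l * y * ξ)) ≤
      8 * l * τ * w + 8 * (q * (t + y) * w) + 12 * (q * (τ + y ^ 2) * u) := by
  have hl := R.hl
  have hy := R.hy
  have ht := R.ht
  have q0 := R.q0
  have τ0 := R.τ0
  have hly0 : 0 ≤ l * y := mul_nonneg hl hy
  have g1 : 2 * l ^ 2 * ξ + 4 * (l * η + l * y * ξ) ≤ 8 * l * w + 8 * q * u := by
    have e1 : 2 * l ^ 2 * ξ ≤ 2 * l ^ 2 * (2 * u) :=
      mul_le_mul_of_nonneg_left hξ (by positivity)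
    have e2 : l * η ≤ l * (2 * w) := mul_le_mul_of_nonneg_left hη hl
    have e3 : l * y * ξ ≤ l * y * (2 * u) := mul_le_mul_of_nonneg_left hξ hly0
    have e4 : (4 * l ^ 2 + 8 * (l * y)) * u ≤ (8 * q) * u := by
      refine mul_le_mul_of_nonneg_right ?_ hu
      have h3 : 8 * q = 8 * l ^ 2 + 8 * (l * h0) := by rw [R.hq]; ring
      linarith [R.ly, sq_nonneg l]
    linarith
  have e0 : 0 ≤ l ^ 2 * y * t := by positivity
  have e1 := mul_le_mul_of_nonneg_left g1 (show 0 ≤ τ + l ^ 2 * y * t by linarith)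
  have e2 : l ^ 2 * y * t * (8 * l * w) ≤ 8 * (q * t * w) := by
    have f0 : l ^ 2 * y * t ≤ q * t := by
      have := mul_le_mul_of_nonneg_left R.yt' q0
      linarith [R.ot]
    have f1 : l ^ 2 * y * t * l ≤ q * t * 1 := mul_le_mul f0 R.hl1 hl (mul_nonneg q0 ht)
    have f4 : l ^ 2 * y * t * l * w ≤ q * t * 1 * w := mul_le_mul_of_nonneg_right f1 hw
    linarith
  have e3 : (τ + l ^ 2 * y * t) * (8 * q * u) ≤ 12 * (q * (τ + y ^ 2) * u) := by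
    have f1 : l ^ 2 * y * t ≤ y * t := by
      have := mul_le_mul_of_nonneg_right R.l1 R.yt0
      linarith
    have f2 : τ + l ^ 2 * y * t ≤ 3 / 2 * (τ + y ^ 2) := by
      linarith [R.yt, sq_nonneg y]
    have f3 := mul_le_mul_of_nonneg_right f2 (show 0 ≤ 8 * q * u by positivity)
    linarith
  have e4 : 0 ≤ q * y * w := by positivity
  linarith

theorem c6 (hu : 0 ≤ u) (hw : 0 ≤ w) (hξ0 : 0 ≤ ξ) (hη0 : 0 ≤ η) (hξ : ξ ≤ 2 * u)
    (hη : η ≤ 2 * w) : t * (l ^ 2 * η + 2 * (l ^ 2 * y * ξ)) ≤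
      2 * (q * (t + y) * w) + 4 * (q * (τ + y ^ 2) * u) := by
  have hy := R.hy
  have q0 := R.q0
  have e1 : l ^ 2 * η ≤ q * (2 * w) := mul_le_mul R.ll hη hη0 q0
  have e2 : l ^ 2 * y * ξ ≤ q * y * (2 * u) := by
    have : l ^ 2 * y ≤ q * y := mul_le_mul_of_nonneg_right R.ll hy
    exact mul_le_mul this hξ hξ0 (by positivity)
  have e3 : t * (l ^ 2 * η + 2 * (l ^ 2 * y * ξ)) ≤ t * (q * (2 * w) + 2 * (q * y * (2 * u))) :=
    mul_le_mul_of_nonneg_left (by linarith) R.ht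
  have e4 : q * u * (2 * (y * t)) ≤ q * u * (τ + y ^ 2) :=
    mul_le_mul_of_nonneg_left R.yt (by positivity)
  have e5 : 0 ≤ q * y * w := by positivity
  have e6 : 0 ≤ q * u * (τ + y ^ 2) := by
    have := R.τ0
    positivity
  linarith

theorem c7 (hu : 0 ≤ u) (hξ0 : 0 ≤ ξ) (hξ : ξ ≤ 2 * u) :
    τ * (2 * l ^ 2 * ξ) ≤ 4 * (q * (τ + y ^ 2) * u) := by
  have e1 : l ^ 2 * ξ ≤ q * (2 * u) := mul_le_mul R.ll hξ hξ0 R.q0
  have e2 := mul_le_mul_of_nonneg_left e1 R.τ0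
  have e3 : 0 ≤ q * y ^ 2 * u := mul_nonneg (mul_nonneg R.q0 (sq_nonneg y)) hu
  linarith

theorem c8 (hC1 : 0 ≤ C1) (hu : 0 ≤ u) (hw : 0 ≤ w) (hξ0 : 0 ≤ ξ) (hη0 : 0 ≤ η)
    (hξ : ξ ≤ 2 * u) (hη : η ≤ 2 * w) : C1 * (l ^ 2 * (y * η + y ^ 2 * ξ)) ≤
      2 * C1 * (q * (t + y) * w + q * (τ + y ^ 2) * u) := by
  have hy := R.hy
  have q0 := R.q0
  have ht := R.ht
  have τ0 := R.τ0
  have e1 : l ^ 2 * (y * η + y ^ 2 * ξ) ≤ q * (y * (2 * w) + y ^ 2 * (2 * u)) := by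
    refine mul_le_mul R.ll ?_ (by positivity) q0
    have f1 := mul_le_mul_of_nonneg_left hη hy
    have f2 := mul_le_mul_of_nonneg_left hξ (sq_nonneg y)
    linarith
  have e2 := mul_le_mul_of_nonneg_left e1 hC1
  have e3 : 0 ≤ C1 * (q * t * w) := by positivity
  have e4 : 0 ≤ C1 * (q * τ * u) := by positivity
  linarith

theorem c9 (hu : 0 ≤ u) (hw : 0 ≤ w) (hξ0 : 0 ≤ ξ) (hη0 : 0 ≤ η) (hξ : ξ ≤ 2 * u)
    (hη : η ≤ 2 * w) : 4 * k * l ^ 2 * (τ * ξ + t * η) ≤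
      8 * k * (q * (t + y) * w + q * (τ + y ^ 2) * u) := by
  have hy := R.hy
  have q0 := R.q0
  have ht := R.ht
  have τ0 := R.τ0
  have hk := R.hk
  have e1 : l ^ 2 * (τ * ξ + t * η) ≤ q * (τ * (2 * u) + t * (2 * w)) := by
    refine mul_le_mul R.ll ?_ (by positivity) q0
    have f1 := mul_le_mul_of_nonneg_left hξ τ0
    have f2 := mul_le_mul_of_nonneg_left hη ht
    linarith
  have e2 := mul_le_mul_of_nonneg_left e1 (show 0 ≤ 4 * k by linarith)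
  have e3 : 0 ≤ k * (q * y * w) := by positivity
  have e4 : 0 ≤ k * (q * y ^ 2 * u) := by positivity
  linarith

theorem b1 {α : ℝ} (hα : 0 ≤ α) (hu : 0 ≤ u) :
    2 * α + 16 * k * l ^ 2 * u ≤ (2 + 16 * k) * (α + u) := by
  have hk := R.hk
  have h1 : 16 * k * l ^ 2 ≤ 16 * k * 1 := mul_le_mul_of_nonneg_left R.l1 (by linarith)
  have e1 := mul_le_mul_of_nonneg_right h1 hu
  have e2 : 0 ≤ k * α := mul_nonneg hk hα
  linarith

end RA

/-- all real estimates of the pointwise inequality -/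
theorem real_AS {C0 C1 k l y h0 t τ α β γ d u w ξ η q : ℝ} (R : RA k l y h0 t τ q)
    (hC0 : 0 ≤ C0) (hC1 : 0 ≤ C1) (hα : 0 ≤ α) (hβ : 0 ≤ β) (hγ : 0 ≤ γ)
    (hd : 0 ≤ d) (hu : 0 ≤ u) (hw : 0 ≤ w) (hξ0 : 0 ≤ ξ) (hη0 : 0 ≤ η) (hξ : ξ ≤ 2 * u)
    (hη : η ≤ 2 * w) :
    C0 * (((l ^ 2 + 3 * (l * y)) * τ + l ^ 2 * y * t + C1 * (l ^ 2 * y ^ 2)) *
        (2 * α + 16 * k * l ^ 2 * u) +
      ((l ^ 2 + 3 * (l * y)) * τ + l ^ 2 * y * t + C1 * (l ^ 2 * y ^ 2) * t) * (2 * β) +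
      ((l ^ 2 + 3 * (l * y)) * t + l ^ 2 * y + C1 * (l ^ 2 * y ^ 2) * t) *
        (2 * γ + 16 * k * l ^ 2 * w) +
      ((l ^ 2 + 3 * (l * y)) * τ + l ^ 2 * y * t + C1 * (l ^ 2 * y ^ 2) * τ) * (2 * d) +
      (τ + l ^ 2 * y * t) * (2 * l ^ 2 * ξ + 4 * (l * η + l * y * ξ)) +
      t * (l ^ 2 * η + 2 * (l ^ 2 * y * ξ)) + τ * (2 * l ^ 2 * ξ)) +
      C1 * (l ^ 2 * (y * η + y ^ 2 * ξ)) + 4 * k * l ^ 2 * (τ * ξ + t * η) ≤
    (C0 * ((4 + C1) * (2 + 16 * k) + 2 * (3 * (k + 1) + 1 + C1) + 30) + 2 * C1 + 8 * k) * q *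
      ((τ + y ^ 2) * (α + u) + (t + y) * (β + γ + w) + (τ + y * t) * d) +
      C0 * (8 * l * τ * w) := by
  have hk := R.hk
  have hl := R.hl
  have hy := R.hy
  have ht := R.ht
  have q0 := R.q0
  have τ0 := R.τ0
  have c1 := mul_le_mul (R.a1 hC1) (R.b1 hα hu) (by positivity)
    (show 0 ≤ (4 + C1) * q * (τ + y ^ 2) by positivity)
  have c2 := mul_le_mul_of_nonneg_right (R.a2 hC1) (show 0 ≤ 2 * β by positivity)
  have c3 := mul_le_mul (R.a3 hC1) (R.b1 hγ hw) (by positivity)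
    (show 0 ≤ (4 + C1) * q * (t + y) by positivity)
  have c4 := mul_le_mul_of_nonneg_right (R.a4 hC1) (show 0 ≤ 2 * d by positivity)
  have c5 := R.c5 hu hw hξ hη
  have c6 := R.c6 hu hw hξ0 hη0 hξ hη
  have c7 := R.c7 hu hξ0 hξ
  have c8 := R.c8 hC1 hu hw hξ0 hη0 hξ hη
  have c9 := R.c9 hu hw hξ0 hη0 hξ hη
  obtain ⟨A, hA⟩ : ∃ A, A = q * (τ + y ^ 2) * (α + u) := ⟨_, rfl⟩
  obtain ⟨B, hB⟩ : ∃ B, B = q * (t + y) * (β + γ + w) := ⟨_, rfl⟩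
  obtain ⟨D, hD⟩ : ∃ D, D = q * (τ + y * t) * d := ⟨_, rfl⟩
  have hA0 : 0 ≤ A := by rw [hA]; positivity
  have hB0 : 0 ≤ B := by rw [hB]; positivity
  have hD0 : 0 ≤ D := by rw [hD]; positivity
  have hAu : q * (τ + y ^ 2) * u ≤ A := by
    rw [hA]
    exact mul_le_mul_of_nonneg_left (by linarith) (by positivity)
  have hBw : q * (t + y) * w ≤ B := by
    rw [hB]
    exact mul_le_mul_of_nonneg_left (by linarith) (by positivity)
  have hBβ : q * (t + y) * β ≤ B := by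
    rw [hB]
    exact mul_le_mul_of_nonneg_left (by linarith) (by positivity)
  have hBγ : q * (t + y) * (γ + w) ≤ B := by
    rw [hB]
    exact mul_le_mul_of_nonneg_left (by linarith) (by positivity)
  have c1' : (4 + C1) * q * (τ + y ^ 2) * ((2 + 16 * k) * (α + u)) = (4 + C1) * (2 + 16 * k) * A := by
    rw [hA]; ring
  have c2' : (3 * (k + 1) + 1 + C1) * q * (t + y) * (2 * β) ≤ 2 * (3 * (k + 1) + 1 + C1) * B := by
    have := mul_le_mul_of_nonneg_left hBβ (show 0 ≤ 2 * (3 * (k + 1) + 1 + C1) by positivity)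
    linarith
  have c3' : (4 + C1) * q * (t + y) * ((2 + 16 * k) * (γ + w)) ≤ (4 + C1) * (2 + 16 * k) * B := by
    have := mul_le_mul_of_nonneg_left hBγ (show 0 ≤ (4 + C1) * (2 + 16 * k) by positivity)
    linarith
  have c4' : (4 + C1) * q * (τ + y * t) * (2 * d) ≤ (4 + C1) * (2 + 16 * k) * D := by
    have e1 : (4 + C1) * q * (τ + y * t) * (2 * d) = (4 + C1) * 2 * D := by rw [hD]; ring
    rw [e1]
    refine mul_le_mul_of_nonneg_right ?_ hD0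
    exact mul_le_mul_of_nonneg_left (by linarith) (by linarith)
  rw [c1'] at c1
  have hABD : (C0 * ((4 + C1) * (2 + 16 * k) + 2 * (3 * (k + 1) + 1 + C1) + 30) + 2 * C1 + 8 * k) *
      q * ((τ + y ^ 2) * (α + u) + (t + y) * (β + γ + w) + (τ + y * t) * d) =
      C0 * (((4 + C1) * (2 + 16 * k) + 2 * (3 * (k + 1) + 1 + C1) + 30) * (A + B + D)) +
        2 * C1 * (A + B + D) + 8 * k * (A + B + D) := by
    rw [hA, hB, hD]; ring
  rw [hABD]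
  clear c1' hA hB hD hβ hα hγ hd hABD
  generalize ((l ^ 2 + 3 * (l * y)) * τ + l ^ 2 * y * t + C1 * (l ^ 2 * y ^ 2)) *
        (2 * α + 16 * k * l ^ 2 * u) = X1 at *
  generalize ((l ^ 2 + 3 * (l * y)) * τ + l ^ 2 * y * t + C1 * (l ^ 2 * y ^ 2) * t) * (2 * β) =
    X2 at *
  generalize ((l ^ 2 + 3 * (l * y)) * t + l ^ 2 * y + C1 * (l ^ 2 * y ^ 2) * t) *
        (2 * γ + 16 * k * l ^ 2 * w) = X3 at *
  generalize ((l ^ 2 + 3 * (l * y)) * τ + l ^ 2 * y * t + C1 * (l ^ 2 * y ^ 2) * τ) * (2 * d) =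
    X4 at *
  generalize (τ + l ^ 2 * y * t) * (2 * l ^ 2 * ξ + 4 * (l * η + l * y * ξ)) = X5 at *
  generalize t * (l ^ 2 * η + 2 * (l ^ 2 * y * ξ)) = X6 at *
  generalize τ * (2 * l ^ 2 * ξ) = X7 at *
  have hsum : X1 + X2 + X3 + X4 + X5 + X6 + X7 ≤
      ((4 + C1) * (2 + 16 * k) + 2 * (3 * (k + 1) + 1 + C1) + 30) * (A + B + D) +
        8 * l * τ * w := by
    have g2 : 0 ≤ (3 * (k + 1) + 1 + C1) * A := by positivity
    have g3 : 0 ≤ (3 * (k + 1) + 1 + C1) * D := by positivity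
    have g4 : ((4 + C1) * (2 + 16 * k) + 2 * (3 * (k + 1) + 1 + C1) + 30) * (A + B + D) =
      (4 + C1) * (2 + 16 * k) * A + (4 + C1) * (2 + 16 * k) * B + (4 + C1) * (2 + 16 * k) * D +
      2 * ((3 * (k + 1) + 1 + C1) * A) + 2 * (3 * (k + 1) + 1 + C1) * B +
      2 * ((3 * (k + 1) + 1 + C1) * D) + 30 * A + 30 * B + 30 * D := by ring
    rw [g4]
    linarith
  have h0' := mul_le_mul_of_nonneg_left hsum hC0
  have f2 : 2 * C1 * (q * (t + y) * w + q * (τ + y ^ 2) * u) ≤ 2 * C1 * (A + B + D) :=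
    mul_le_mul_of_nonneg_left (by linarith) (by positivity)
  have f3 : 8 * k * (q * (t + y) * w + q * (τ + y ^ 2) * u) ≤ 8 * k * (A + B + D) :=
    mul_le_mul_of_nonneg_left (by linarith) (by positivity)
  linarith

end Crest.Agent.R234.Fm_281
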