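import Crest.Agent.R234.Fm7_281

/-!
# Row 234, VF-FERMI (helper281), file 8: the pointwise inequality in the form of the class `AS`
-/

set_option autoImplicit false

open Crest.GeometryTopology.Submanifold
open Crest.Agent.R234.Vf_884
open Crest.Agent.R234.Ar_870 (IsCo tl)
open Crest.Agent.R234.AS_456 (hp vp errA)
open scoped InnerProductSpace

noncomputable section

namespace Crest.Agent.R234.Fm_281

variable {m k : ℕ}

theorem tr_hp_mul (π : Euc k →L[ℝ] Euc m) (S : L k) :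
    tr (hp π * S) = tr (π ∘L S ∘L ContinuousLinearMap.adjoint π) := by
  rw [tr_apply, tr_apply]
  exact LinearMap.trace_comp_comm' ((π ∘L S : Euc k →L[ℝ] Euc m) : Euc k →ₗ[ℝ] Euc m)
    ((ContinuousLinearMap.adjoint π : Euc m →L[ℝ] Euc k) : Euc m →ₗ[ℝ] Euc k)

theorem hp_mem_G {π : Euc k →L[ℝ] Euc m} (hπ : IsCo π) : hp π ∈ G m k := by
  refine ⟨?_, ?_, ?_⟩
  · unfold hp
    ext1 v
    change ContinuousLinearMap.adjoint π (π (ContinuousLinearMap.adjoint π (π v))) = _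
    have := congrArg (fun T : L m => T (π v)) hπ
    exact congrArg _ this
  · rw [ContinuousLinearMap.isSelfAdjoint_iff']
    unfold hp
    rw [ContinuousLinearMap.adjoint_comp, ContinuousLinearMap.adjoint_adjoint]
  · have h1 := tr_hp_mul π (1 : L k)
    rw [mul_one] at h1
    rw [h1]
    have h2 : π ∘L (1 : L k) ∘L ContinuousLinearMap.adjoint π =
        π ∘L ContinuousLinearMap.adjoint π := rfl
    rw [h2, hπ, tr_one]

theorem tau_hp {π : Euc k →L[ℝ] Euc m} {S : L k} (hS : S ∈ G m k) :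
    tau (hp π) S = tl π S := by
  unfold tau tl
  rw [sub_mul, one_mul, map_sub, hS.2.2, tr_hp_mul]
  rfl

theorem vp_eq' (π : Euc k →L[ℝ] Euc m) : vp π = 1 - hp π := rfl

/-- `tr (S * (D ⊗ v)) = D (S v)` -/
theorem tr_mul_smulRight (S : L k) (D : Euc k →L[ℝ] ℝ) (v : Euc k) :
    tr (S * D.smulRight v) = D (S v) := by
  rw [tr_eq_sum]
  have h : ∀ i, ⟪stdVec k i, (S * D.smulRight v) (stdVec k i)⟫_ℝ =
      D (stdVec k i) * (S v) i := by
    intro i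
    change ⟪stdVec k i, S (D (stdVec k i) • v)⟫_ℝ = _
    rw [map_smul, inner_smul_right]
    simp [stdVec, EuclideanSpace.inner_single_left]
  simp_rw [h]
  have h2 : S v = ∑ i, (S v) i • stdVec k i := by
    ext j
    simp [stdVec, Pi.single_apply]
  conv_rhs => rw [h2, map_sum]
  refine Finset.sum_congr rfl fun i _ => ?_
  rw [map_smul, smul_eq_mul, mul_comm]

theorem norm_mul_smulRight_le (A : L k) (D : Euc k →L[ℝ] ℝ) (v : Euc k) (C : L k) {c : ℝ}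
    (hD : ∀ w, |D (C w)| ≤ c * ‖w‖) (hc : 0 ≤ c) :
    ‖A * D.smulRight v * C‖ ≤ c * ‖A v‖ := by
  refine ContinuousLinearMap.opNorm_le_bound _ (by positivity) fun w => ?_
  change ‖A (D (C w) • v)‖ ≤ _
  rw [map_smul, norm_smul, Real.norm_eq_abs]
  have := mul_le_mul_of_nonneg_right (hD w) (norm_nonneg (A v))
  linarith

section Blocks

variable {H P P1 h h1 : L k} {l y ξ η : ℝ}

/-- blocks of the metric -/
theorem Pt.blk (D : Pt m H P P1 h h1 l y ξ η) (hl : l ≤ 1) :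
    Blk H (gm P h) (l ^ 2 + 3 * (l * y)) (l ^ 2 * y) := by
  have hH' := isStar_of_G D.hH
  have hPP := norm_PP D
  have hkk := norm_kk D hl
  have hly0 : 0 ≤ l * y := mul_nonneg D.l0 D.y0
  have nPs : ‖star P‖ ≤ l := by rw [norm_star']; exact D.nP
  refine ⟨?_, ?_, ?_, ?_⟩
  · rw [gm_hh hH' D.hP D.hh]
    have e : star P * P - h - h + h * h = star P * P + (-h - h + h * h) := by abel
    rw [e]
    have := norm_add_le (star P * P) (-h - h + h * h)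
    rw [sq]
    linarith
  · rw [gm_vv hH' D.hP D.hh, sq]
    have := nm2 D.nP nPs
    linarith
  · rw [gm_hv hH' D.hP D.hh]
    have := nm2 D.nh nPs
    linarith
  · rw [gm_vh hH' D.hP D.hh]
    have := nm2 D.nP D.nh
    linarith

theorem Pt.norm_gm_le (D : Pt m H P P1 h h1 l y ξ η) (hl : l ≤ 1) : ‖gm P h‖ ≤ 8 * l := by
  have hPP := norm_PP D
  have hkk := norm_kk D hl
  have nPs : ‖star P‖ ≤ l := by rw [norm_star']; exact D.nP
  have l0 := D.l0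
  have hly : l * y ≤ l * 1 := mul_le_mul_of_nonneg_left D.y1 l0
  have hll : l * l ≤ l * 1 := mul_le_mul_of_nonneg_left hl l0
  have e : gm P h = star P * P + P * star P + P * h + h * star P + (-h - h + h * h) := by
    unfold gm; abel
  rw [e]
  have e1 := nm2 D.nP nPs
  have e2 := nm2 D.nh nPs
  have e3 := nm2 D.nP D.nh
  have f1 := norm_add_le (star P * P + P * star P + P * h + h * star P) (-h - h + h * h)
  have f2 := norm_add_le (star P * P + P * star P + P * h) (h * star P)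
  have f3 := norm_add_le (star P * P + P * star P) (P * h)
  have f4 := norm_add_le (star P * P) (P * star P)
  have f5 : (l * y) * l ≤ l * 1 := by
    have := mul_le_mul hly hl l0 (by linarith)
    linarith
  linarith

/-- blocks of the derivative of the metric -/
theorem Pt.dhh (D : Pt m H P P1 h h1 l y ξ η) (hl : l ≤ 1) :
    ‖H * dgm P P1 h h1 * H‖ ≤ 2 * l ^ 2 * ξ + 4 * (l * η + l * y * ξ) := by
  have l0 := D.l0
  have y0 := D.y0
  have ξ0 := D.ξ0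
  have η0 := D.η0
  have hly : l * y ≤ l * 1 := mul_le_mul_of_nonneg_left D.y1 l0
  rw [dgm_hh (isStar_of_G D.hH) D.hP D.hP1 D.hh D.hh1]
  have e1 := nm2 (show ‖star P1‖ ≤ l * ξ by rw [norm_star']; exact D.nP1) D.nP
  have e2 := nm2 (show ‖star P‖ ≤ l by rw [norm_star']; exact D.nP) D.nP1
  have e3 := nm2 D.nh1 D.nh
  have e4 := nm2 D.nh D.nh1
  have nh1 := D.nh1
  have f1 := norm_add_le (star P1 * P + star P * P1 - h1 - h1 + h1 * h) (h * h1)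
  have f2 := norm_add_le (star P1 * P + star P * P1 - h1 - h1) (h1 * h)
  have f3 := norm_sub_le (star P1 * P + star P * P1 - h1) h1
  have f4 := norm_sub_le (star P1 * P + star P * P1) h1
  have f5 := norm_add_le (star P1 * P) (star P * P1)
  have f6 : (l * η + l * y * ξ) * (l * y) ≤ (l * η + l * y * ξ) * 1 :=
    mul_le_mul_of_nonneg_left (by linarith) (by positivity)
  linarith

theorem Pt.dhv (D : Pt m H P P1 h h1 l y ξ η) :
    ‖H * dgm P P1 h h1 * (1 - H)‖ ≤ l ^ 2 * η + 2 * (l ^ 2 * y * ξ) := by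
  rw [dgm_hv (isStar_of_G D.hH) D.hP D.hP1 D.hh D.hh1]
  have e1 := nm2 D.nh1 (show ‖star P‖ ≤ l by rw [norm_star']; exact D.nP)
  have e2 := nm2 D.nh (show ‖star P1‖ ≤ l * ξ by rw [norm_star']; exact D.nP1)
  have f1 := norm_add_le (h1 * star P) (h * star P1)
  have f2 : (l * η + l * y * ξ) * l + l * y * (l * ξ) = l ^ 2 * η + 2 * (l ^ 2 * y * ξ) := by
    ring
  linarith

theorem Pt.dvh (D : Pt m H P P1 h h1 l y ξ η) :
    ‖(1 - H) * dgm P P1 h h1 * H‖ ≤ l ^ 2 * η + 2 * (l ^ 2 * y * ξ) := by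
  rw [dgm_vh (isStar_of_G D.hH) D.hP D.hP1 D.hh D.hh1]
  have e1 := nm2 D.nP1 D.nh
  have e2 := nm2 D.nP D.nh1
  have f1 := norm_add_le (P1 * h) (P * h1)
  have f2 : l * ξ * (l * y) + l * (l * η + l * y * ξ) = l ^ 2 * η + 2 * (l ^ 2 * y * ξ) := by
    ring
  linarith

theorem Pt.dvv (D : Pt m H P P1 h h1 l y ξ η) :
    ‖(1 - H) * dgm P P1 h h1 * (1 - H)‖ ≤ 2 * l ^ 2 * ξ := by
  rw [dgm_vv (isStar_of_G D.hH) D.hP D.hP1 D.hh D.hh1]
  have e1 := nm2 D.nP1 (show ‖star P‖ ≤ l by rw [norm_star']; exact D.nP)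
  have e2 := nm2 D.nP (show ‖star P1‖ ≤ l * ξ by rw [norm_star']; exact D.nP1)
  have f1 := norm_add_le (P1 * star P) (P * star P1)
  have f2 : l * ξ * l + l * (l * ξ) = 2 * l ^ 2 * ξ := by ring
  linarith

end Blocks

/-- blocks of the derivative of `g0⁻¹ • X` -/
theorem blkZ {B : L k} {D0 : Euc k →L[ℝ] ℝ} {v : Euc k} {r : ℝ} (hr : 0 ≤ r) (hr2 : r ≤ 2)
    (X Y : L k) (cc : ℝ) (hcc : 0 ≤ cc) (hY : ∀ w, |D0 (Y w)| ≤ cc * ‖w‖) :
    ‖X * (r • B - (r ^ 2) • D0.smulRight v) * Y‖ ≤ 2 * ‖X * B * Y‖ + 4 * (cc * ‖X v‖) := by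
  have hr4 : r ^ 2 ≤ 4 := by nlinarith
  have e : X * (r • B - (r ^ 2) • D0.smulRight v) * Y =
      r • (X * B * Y) - (r ^ 2) • (X * D0.smulRight v * Y) := by
    ext w
    simp
  rw [e]
  refine (norm_sub_le _ _).trans ?_
  rw [norm_smul, norm_smul, Real.norm_of_nonneg hr, Real.norm_of_nonneg (sq_nonneg r)]
  refine add_le_add (mul_le_mul_of_nonneg_right hr2 (norm_nonneg _)) ?_
  exact mul_le_mul hr4 (norm_mul_smulRight_le X D0 v Y hY hcc) (norm_nonneg _) (by norm_num)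

theorem hp_last {π : Euc k →L[ℝ] Euc m} (hπ : IsCo π) {S : L k} (hS : S ∈ G m k) (ζ : Euc k) :
    ‖hp π (S ζ - ζ)‖ ≤ tau (hp π) S * ‖hp π ζ‖ + Real.sqrt (tau (hp π) S) * ‖vp π ζ‖ := by
  have hH := hp_mem_G hπ
  have e1 : hp π (S ζ - ζ) =
      -((hp π * (1 - S) * hp π) (hp π ζ) + (hp π * (1 - S)) (vp π ζ)) := by
    have a1 : hp π (hp π ζ) = hp π ζ := G_idem_apply hH ζ
    change hp π (S ζ - ζ) = -(hp π (hp π (hp π ζ) - S (hp π (hp π ζ))) +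
      hp π ((ζ - hp π ζ) - S (ζ - hp π ζ)))
    rw [a1]
    simp only [map_sub]
    abel
  rw [e1, norm_neg]
  refine (norm_add_le _ _).trans (add_le_add ?_ ?_)
  · refine (ContinuousLinearMap.le_opNorm _ _).trans ?_
    exact mul_le_mul_of_nonneg_right (norm_HTH hH hS) (norm_nonneg _)
  · refine (ContinuousLinearMap.le_opNorm _ _).trans ?_
    exact mul_le_mul_of_nonneg_right (norm_HT hH hS) (norm_nonneg _)

/-- passage to `errA` -/
theorem real_errA {C0 C2 l h0 τ t y α β γ d u w q : ℝ} (_hC0 : 0 ≤ C0) (hC2 : 0 ≤ C2)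
    (hl : 0 ≤ l) (hh : 0 ≤ h0) (hτ : 0 ≤ τ) (ht : 0 ≤ t) (hy : 0 ≤ y) (hα : 0 ≤ α)
    (hβ : 0 ≤ β) (hγ : 0 ≤ γ) (hd : 0 ≤ d) (hu : 0 ≤ u) (hw : 0 ≤ w) (hq : q = l * (l + h0)) :
    C2 * q * ((τ + y ^ 2) * (α + u) + (t + y) * (β + γ + w) + (τ + y * t) * d) +
      C0 * (8 * l * τ * w) ≤
    (C2 + (8 * C0) ^ 2 + 1) * q * (τ + y ^ 2) * (α + u) +
      (C2 + (8 * C0) ^ 2 + 1) * q * (t + y) * (β + γ + w) +
      (C2 + (8 * C0) ^ 2 + 1) * q * (τ + y * t) * d +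
      Real.sqrt ((C2 + (8 * C0) ^ 2 + 1) * q) * τ * w := by
  have hq0 : 0 ≤ q := by rw [hq]; positivity
  have h1 : 8 * C0 * l ≤ Real.sqrt ((C2 + (8 * C0) ^ 2 + 1) * q) := by
    refine Real.le_sqrt_of_sq_le ?_
    have e1 : l ^ 2 ≤ q := by rw [hq]; nlinarith [mul_nonneg hl hh]
    have e2 : (8 * C0 * l) ^ 2 = (8 * C0) ^ 2 * l ^ 2 := by ring
    rw [e2]
    exact mul_le_mul (by linarith) e1 (sq_nonneg l) (by positivity)
  have h2 : 8 * C0 * l * (τ * w) ≤ Real.sqrt ((C2 + (8 * C0) ^ 2 + 1) * q) * (τ * w) :=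
    mul_le_mul_of_nonneg_right h1 (mul_nonneg hτ hw)
  have h3 : 0 ≤ ((8 * C0) ^ 2 + 1) * q * ((τ + y ^ 2) * (α + u) + (t + y) * (β + γ + w) +
      (τ + y * t) * d) := by positivity
  linarith

set_option maxHeartbeats 800000 in
/-- **the pointwise inequality in the form of `AS`** -/
theorem exists_pt_AS (m k : ℕ) : ∃ c C : ℝ, 0 < c ∧ c ≤ 1 / 8 ∧ 0 < C ∧
    ∀ (π : Euc k →L[ℝ] Euc m), IsCo π → ∀ (S P P1 h h1 B : L k) (D0 : Euc k →L[ℝ] ℝ)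
      (z v : Euc k) (l h0 g0 : ℝ), S ∈ G m k → l ≤ c → h0 ≤ 1 → ‖vp π z‖ ≤ h0 →
      g0 = Real.sqrt (1 + star P * P).det →
      Pt m (hp π) P P1 h h1 l ‖vp π z‖ ‖hp π (g0⁻¹ • v)‖ ‖vp π (g0⁻¹ • v)‖ →
      (∀ w, |D0 w| ≤ 4 * k * l ^ 2 * ‖hp π w‖) →
      D0 (g0⁻¹ • v) = 1 / 2 * g0 * tr (Ring.inverse (1 + star P * P) *
        (star P1 * P + star P * P1)) →
      |tr (B * S) - Jc (gm P h) S * tr (Sg (gm P h) S * ((1 + gm P h) *
        (g0⁻¹ • B - (g0⁻¹ ^ 2) • D0.smulRight v) + (1 / 2 : ℝ) • dgm P P1 h h1))| ≤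
        errA π (C * (l * (l + h0))) z S B v := by
  obtain ⟨c, C0, hc, hc4, hC0, hpure⟩ := exists_pure m k
  obtain ⟨c', C1, hc', hc8, hC1, hJH⟩ := exists_JH k
  obtain ⟨C2, hC2⟩ : ∃ C2, C2 = C0 * ((4 + C1) * (2 + 16 * k) + 2 * (3 * (k + 1) + 1 + C1) + 30) +
    2 * C1 + 8 * k := ⟨_, rfl⟩
  have hk : (0:ℝ) ≤ k := Nat.cast_nonneg _
  have hC20 : 0 ≤ C2 := by rw [hC2]; positivity
  refine ⟨min (c / 8) c', C2 + (8 * C0) ^ 2 + 1, lt_min (by linarith) hc', (min_le_right _ _).trans hc8,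
    by positivity, ?_⟩
  intro π hπ S P P1 h h1 B D0 z v l h0 g0 hS hl hh hz hg0 D hD0 hD0'
  have hl1 : l ≤ c / 8 := hl.trans (min_le_left _ _)
  have hl2 : l ≤ c' := hl.trans (min_le_right _ _)
  obtain ⟨j1, j2, j3, j4, j5⟩ := hJH m (hp π) P P1 h h1 l _ _ _ D hl2
  rw [← hg0] at j1 j2 j4 j5
  have hH := hp_mem_G hπ
  have hH' := isStar_of_G hH
  have l0 := D.l0
  have hl1' : l ≤ 1 := by linarith
  have hg0p : 0 < g0 := by linarith
  have hgi : 0 ≤ g0⁻¹ := by positivity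
  have hgi2 : g0⁻¹ ≤ 2 := by
    rw [inv_le_comm₀ hg0p (by norm_num)]
    linarith
  have hB1 := D.blk hl1'
  have hgn : ‖gm P h‖ ≤ c := (D.norm_gm_le hl1').trans (by linarith)
  have hD0H : ∀ w, |D0 (hp π w)| ≤ 4 * k * l ^ 2 * ‖w‖ := by
    intro w
    refine (hD0 _).trans (mul_le_mul_of_nonneg_left ?_ (by positivity))
    exact (G_norm_apply_le hH _).trans (G_norm_apply_le hH _)
  have hD0N : ∀ w, |D0 ((1 - hp π) w)| ≤ 0 * ‖w‖ := by
    intro w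
    have h2 : hp π ((1 - hp π) w) = 0 := congrArg (fun A : L k => A w) hH'.mul_one_sub_self
    have := hD0 ((1 - hp π) w)
    rw [h2, norm_zero, mul_zero] at this
    linarith
  have hM0 : (0:ℝ) ≤ 4 * k * l ^ 2 := by positivity
  have z1 := blkZ (B := B) (v := v) hgi hgi2 (hp π) (hp π) _ hM0 hD0H
  have z2 := blkZ (B := B) (v := v) hgi hgi2 (hp π) (1 - hp π) _ le_rfl hD0N
  have z3 := blkZ (B := B) (v := v) hgi hgi2 (1 - hp π) (hp π) _ hM0 hD0H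
  have z4 := blkZ (B := B) (v := v) hgi hgi2 (1 - hp π) (1 - hp π) _ le_rfl hD0N
  rw [zero_mul, mul_zero, add_zero] at z2 z4
  have y0 := D.y0
  have y1 := D.y1
  have hθ1 : l ^ 2 + 3 * (l * ‖vp π z‖) ≤ 1 := by
    have e1 : l * ‖vp π z‖ ≤ l * 1 := mul_le_mul_of_nonneg_left y1 l0
    have e2 : l ^ 2 ≤ l * 1 := by
      rw [sq]; exact mul_le_mul_of_nonneg_left hl1' l0
    linarith
  have main := hpure (hp π) S (gm P h) (g0⁻¹ • B - (g0⁻¹ ^ 2) • D0.smulRight v)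
    (dgm P P1 h h1) (l ^ 2 + 3 * (l * ‖vp π z‖)) (l ^ 2 * ‖vp π z‖)
    _ _ _ _ _ _ _ g0 (D0 (g0⁻¹ • v)) (C1 * (l ^ 2 * ‖vp π z‖ ^ 2))
    (C1 * (l ^ 2 * (‖vp π z‖ * ‖vp π (g0⁻¹ • v)‖ + ‖vp π z‖ ^ 2 * ‖hp π (g0⁻¹ • v)‖)))
    hH hS hgn hB1 hθ1 z1 z2 z3 z4 (D.dhh hl1') D.dhv D.dvh D.dvv j4 (by rw [hD0']; exact j5)
  -- the exact trace
  have etr : tr (B * S) = g0 * tr (S * (g0⁻¹ • B - (g0⁻¹ ^ 2) • D0.smulRight v)) +
      D0 (S (g0⁻¹ • v)) := by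
    have e1 : S * (g0⁻¹ • B - (g0⁻¹ ^ 2) • D0.smulRight v) =
        g0⁻¹ • (S * B) - (g0⁻¹ ^ 2) • (S * D0.smulRight v) := by
      ext w
      simp
    rw [e1, map_sub, map_smul, map_smul, tr_mul_smulRight, tr_mul_comm B S, map_smul, map_smul]
    simp only [smul_eq_mul]
    field_simp
    ring
  have hlast : |D0 (S (g0⁻¹ • v)) - D0 (g0⁻¹ • v)| ≤
      4 * k * l ^ 2 * (tau (hp π) S * ‖hp π (g0⁻¹ • v)‖ +
        Real.sqrt (tau (hp π) S) * ‖vp π (g0⁻¹ • v)‖) := by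
    rw [← map_sub]
    exact (hD0 _).trans (mul_le_mul_of_nonneg_left (hp_last hπ hS _) hM0)
  have hξu : ‖hp π (g0⁻¹ • v)‖ ≤ 2 * ‖hp π v‖ := by
    rw [map_smul, norm_smul, Real.norm_of_nonneg hgi]
    exact mul_le_mul_of_nonneg_right hgi2 (norm_nonneg _)
  have hηw : ‖vp π (g0⁻¹ • v)‖ ≤ 2 * ‖vp π v‖ := by
    rw [map_smul, norm_smul, Real.norm_of_nonneg hgi]
    exact mul_le_mul_of_nonneg_right hgi2 (norm_nonneg _)
  have R : RA (k:ℝ) l ‖vp π z‖ h0 (Real.sqrt (tau (hp π) S)) (tau (hp π) S) (l * (l + h0)) :=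
    ⟨hk, l0, hl1', y0, hz, hh, Real.sqrt_nonneg _, sq_sqrt_tau hH hS, tau_le hH hS, rfl⟩
  have hreal := real_AS R hC0 hC1 (norm_nonneg (hp π * B * hp π))
    (norm_nonneg (hp π * B * (1 - hp π))) (norm_nonneg ((1 - hp π) * B * hp π))
    (norm_nonneg ((1 - hp π) * B * (1 - hp π))) (norm_nonneg (hp π v)) (norm_nonneg (vp π v))
    D.ξ0 D.η0 hξu hηw
  rw [← hC2] at hreal
  have hfin := real_errA (l := l) (h0 := h0) hC0 hC20 l0 (y0.trans hz) (tau_nonneg hH hS)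
    (Real.sqrt_nonneg (tau (hp π) S)) y0 (norm_nonneg (hp π * B * hp π))
    (norm_nonneg (hp π * B * (1 - hp π))) (norm_nonneg ((1 - hp π) * B * hp π))
    (norm_nonneg ((1 - hp π) * B * (1 - hp π))) (norm_nonneg (hp π v)) (norm_nonneg (vp π v)) rfl
  have hgoal : errA π ((C2 + (8 * C0) ^ 2 + 1) * (l * (l + h0))) z S B v =
      (C2 + (8 * C0) ^ 2 + 1) * (l * (l + h0)) * (tau (hp π) S + ‖vp π z‖ ^ 2) *
        (‖hp π * B * hp π‖ + ‖hp π v‖) +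
      (C2 + (8 * C0) ^ 2 + 1) * (l * (l + h0)) * (Real.sqrt (tau (hp π) S) + ‖vp π z‖) *
        (‖hp π * B * (1 - hp π)‖ + ‖(1 - hp π) * B * hp π‖ + ‖vp π v‖) +
      (C2 + (8 * C0) ^ 2 + 1) * (l * (l + h0)) *
        (tau (hp π) S + ‖vp π z‖ * Real.sqrt (tau (hp π) S)) * ‖(1 - hp π) * B * (1 - hp π)‖ +
      Real.sqrt ((C2 + (8 * C0) ^ 2 + 1) * (l * (l + h0))) * tau (hp π) S * ‖vp π v‖ := by
    rw [tau_hp hS]
    rfl
  rw [hgoal, etr]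
  refine le_trans ?_ hfin
  refine le_trans ?_ hreal
  have t1 := abs_sub_le (D0 (S (g0⁻¹ • v)) - D0 (g0⁻¹ • v)) 0
    (Jc (gm P h) S * tr (Sg (gm P h) S * ((1 + gm P h) *
        (g0⁻¹ • B - (g0⁻¹ ^ 2) • D0.smulRight v) + (1 / 2 : ℝ) • dgm P P1 h h1)) -
      (g0 * tr (S * (g0⁻¹ • B - (g0⁻¹ ^ 2) • D0.smulRight v)) + D0 (g0⁻¹ • v)))
  rw [sub_zero, zero_sub, abs_neg] at t1
  have e2 : g0 * tr (S * (g0⁻¹ • B - (g0⁻¹ ^ 2) • D0.smulRight v)) + D0 (S (g0⁻¹ • v)) -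
      Jc (gm P h) S * tr (Sg (gm P h) S * ((1 + gm P h) *
        (g0⁻¹ • B - (g0⁻¹ ^ 2) • D0.smulRight v) + (1 / 2 : ℝ) • dgm P P1 h h1)) =
      D0 (S (g0⁻¹ • v)) - D0 (g0⁻¹ • v) - (Jc (gm P h) S * tr (Sg (gm P h) S * ((1 + gm P h) *
        (g0⁻¹ • B - (g0⁻¹ ^ 2) • D0.smulRight v) + (1 / 2 : ℝ) • dgm P P1 h h1)) -
      (g0 * tr (S * (g0⁻¹ • B - (g0⁻¹ ^ 2) • D0.smulRight v)) + D0 (g0⁻¹ • v))) := by ring
  rw [e2]
  have e3 : 4 * (4 * (k:ℝ) * l ^ 2 * ‖hp π v‖) = 16 * k * l ^ 2 * ‖hp π v‖ := by ring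
  have e4 : 4 * (4 * (k:ℝ) * l ^ 2 * ‖(1 - hp π) v‖) = 16 * k * l ^ 2 * ‖vp π v‖ := by
    rw [vp_eq']; ring
  rw [e3, e4] at main
  exact t1.trans ((add_le_add hlast main).trans (le_of_eq (by ring)))

end Crest.Agent.R234.Fm_281
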