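import Crest.Agent.R234.Ft4_209

/-!
# Row 234, VF-FERMI, part (T) transport of a varifold by a diffeomorphism, file 5 (helper209)

The transported frozen data `T.data D`: it is an integral varifold, `VD (T.data D) = T.push (VD D)`,
supports; local finiteness of `T.push V`.
-/

set_option autoImplicit false

open Function Set MeasureTheory Crest.GeometryTopology.Submanifold
open scoped InnerProductSpace ENNReal

noncomputable section

namespace Crest.Agent.R234.Ft_209

open Crest.Agent.R234.Fm_209 Crest.Agent.R234.Vf_884 Crest.Agent.R234.Ar_870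

variable {m k : ℕ}

theorem weight_apply (D : VarifoldData m k) (hc : ∀ i, ContDiff ℝ 1 (D.chart i)) {K : Set (Euc k)} (hK : MeasurableSet K) :
    weight D K = ∑' i, ∫⁻ a in D.dom i ∩ D.chart i ⁻¹' K,
      ENNReal.ofReal ((D.mult i a : ℝ) * jac (D.chart i) a) := by
  unfold weight
  rw [Measure.sum_apply _ hK]
  refine tsum_congr fun i => ?_
  have h1 : MeasurableSet (D.chart i ⁻¹' K) := (hc i).continuous.measurable hK
  rw [Measure.map_apply (hc i).continuous.measurable hK, withDensity_apply _ h1,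
    Measure.restrict_restrict h1, inter_comm]

namespace Dif

variable (T : Dif k)

theorem exists_J_ge (m : ℕ) {K : Set (Euc k)} (hK : IsCompact K) :
    ∃ c : ℝ, 0 < c ∧ ∀ z ∈ K, ∀ S ∈ G m k, c ≤ T.J (z, S) := by
  rcases (K ×ˢ G m k).eq_empty_or_nonempty with h | h
  · refine ⟨1, one_pos, fun z hz S hS => ?_⟩
    have : (z, S) ∈ K ×ˢ G m k := ⟨hz, hS⟩
    rw [h] at this
    exact absurd this (notMem_empty _)
  · obtain ⟨p, hp, hmin⟩ := (hK.prod (isCompact_G m k)).exists_isMinOn h T.continuous_J.continuousOn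
    exact ⟨T.J p, T.J_pos hp.2, fun z hz S hS => hmin ⟨hz, hS⟩⟩

theorem exists_J_le (m : ℕ) {K : Set (Euc k)} (hK : IsCompact K) :
    ∃ c : ℝ, 0 < c ∧ ∀ z ∈ K, ∀ S ∈ G m k, T.J (z, S) ≤ c := by
  obtain ⟨C, hC⟩ := (hK.prod (isCompact_G m k)).exists_bound_of_continuousOn
    T.continuous_J.continuousOn
  refine ⟨max C 1, lt_max_of_lt_right one_pos, fun z hz S hS => ?_⟩
  exact (le_abs_self _).trans ((hC (z, S) ⟨hz, hS⟩).trans (le_max_left _ _))

/-- the transported data -/
def data (D : VarifoldData m k) : VarifoldData m k := ⟨fun i => T.Ψ ∘ D.chart i, D.dom, D.mult⟩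

variable {U : Set (Euc k)} {D : VarifoldData m k}

theorem projF_data (hD : IsIntegralVarifoldIn U D) {i : ℕ} {a : Euc m} (ha : a ∈ D.dom i) :
    projF ((T.data D).chart i) a = prj (T.B (D.chart i a)) (projF (D.chart i) a) :=
  projF_comp ((hD.contDiff i).differentiable one_ne_zero a) (T.dΨ _)
    (hD.injective_fderiv i a ha) (T.injB _)

theorem lift_data (hD : IsIntegralVarifoldIn U D) {i : ℕ} {a : Euc m} (ha : a ∈ D.dom i) :
    lift (T.data D) i a = T.pm (lift D i a) := Prod.ext rfl (T.projF_data hD ha)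

theorem inj_data (hD : IsIntegralVarifoldIn U D) {i : ℕ} {a : Euc m} (ha : a ∈ D.dom i) :
    Injective (fderiv ℝ ((T.data D).chart i) a) := by
  have h1 : fderiv ℝ ((T.data D).chart i) a = T.B (D.chart i a) ∘L fderiv ℝ (D.chart i) a :=
    fderiv_comp a (T.dΨ _) ((hD.contDiff i).differentiable one_ne_zero a)
  rw [h1]
  exact (T.injB _).comp (hD.injective_fderiv i a ha)

theorem contDiff_data (hD : IsIntegralVarifoldIn U D) (i : ℕ) :
    ContDiff ℝ 1 ((T.data D).chart i) := (T.cΨ.of_le one_le_two).comp (hD.contDiff i)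

theorem jac_data (hD : IsIntegralVarifoldIn U D) {i : ℕ} {a : Euc m} (ha : a ∈ D.dom i) :
    jac ((T.data D).chart i) a * T.J (T.pm (lift D i a)) = jac (D.chart i) a := by
  have h1 : T.Φ ∘ (T.data D).chart i = D.chart i := by
    funext b
    exact T.right _
  have h2 := jac_comp (Φ := T.Φ) ((T.contDiff_data hD i).differentiable one_ne_zero a) (T.dΦ _)
    (T.inj_data hD ha)
  rw [h1, T.projF_data hD ha] at h2
  exact h2.symm

theorem jac_data' (hD : IsIntegralVarifoldIn U D) {i : ℕ} {a : Euc m} (ha : a ∈ D.dom i) :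
    jac ((T.data D).chart i) a = jac (D.chart i) a * (T.J (T.pm (lift D i a)))⁻¹ := by
  have h : 0 < T.J (T.pm (lift D i a)) :=
    T.J_pos (T.pm_mem (projF_mem_G (hD.injective_fderiv i a ha)))
  rw [← T.jac_data hD ha, mul_assoc, mul_inv_cancel₀ h.ne', mul_one]

/-- **the transported data is an integral varifold** -/
theorem isIntegral (hD : IsIntegralVarifoldIn U D) :
    IsIntegralVarifoldIn (T.Φ ⁻¹' U) (T.data D) where
  measurableSet := hD.measurableSet
  contDiff := T.contDiff_data hD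
  injOn i := T.injΨ.comp_injOn (hD.injOn i)
  injective_fderiv i a ha := T.inj_data hD ha
  disjoint i j hij := by
    have h1 : ∀ i, (T.data D).chart i '' (T.data D).dom i = T.Ψ '' (D.chart i '' D.dom i) :=
      fun i => image_comp T.Ψ (D.chart i) (D.dom i)
    rw [h1, h1]
    exact (disjoint_image_iff T.injΨ).2 (hD.disjoint i j hij)
  subset i := by
    rintro _ ⟨a, ha, rfl⟩
    change T.Φ (T.Ψ (D.chart i a)) ∈ U
    rw [T.right]
    exact hD.subset i ⟨a, ha, rfl⟩
  measurable_mult := hD.measurable_mult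
  mult_pos := hD.mult_pos
  locallyFinite K hK hKU := by
    obtain ⟨c, hc, hcJ⟩ := T.exists_J_ge m hK
    have hK' : IsCompact (T.Φ '' K) := hK.image T.continuousΦ
    have hfin : weight D (T.Φ '' K) < ⊤ := hD.locallyFinite _ hK' (by
      rintro _ ⟨z, hz, rfl⟩
      exact hKU hz)
    rw [weight_apply (T.data D) (T.contDiff_data hD) hK.measurableSet]
    rw [weight_apply D hD.contDiff hK'.measurableSet] at hfin
    refine lt_of_le_of_lt ?_ (ENNReal.mul_lt_top (ENNReal.ofReal_lt_top (r := c⁻¹)) hfin)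
    rw [← ENNReal.tsum_mul_left]
    refine ENNReal.tsum_le_tsum fun i => ?_
    have hset : (T.data D).dom i ∩ (T.data D).chart i ⁻¹' K =
        D.dom i ∩ D.chart i ⁻¹' (T.Φ '' K) := by
      rw [T.image_eq]
      rfl
    rw [hset, ← lintegral_const_mul' _ _ ENNReal.ofReal_ne_top]
    refine setLIntegral_mono_ae' ?_ (Filter.Eventually.of_forall fun a ha => ?_)
    · exact (hD.measurableSet i).inter
        ((hD.contDiff i).continuous.measurable hK'.measurableSet)
    · have h1 : (T.Ψ (D.chart i a)) ∈ K := by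
        have := ha.2
        rw [T.image_eq] at this
        exact this
      have h2 : c ≤ T.J (T.pm (lift D i a)) :=
        hcJ _ h1 _ (T.pm_mem (p := lift D i a) (projF_mem_G (hD.injective_fderiv i a ha.1)))
      rw [← ENNReal.ofReal_mul (inv_nonneg.2 hc.le), T.jac_data' hD ha.1]
      refine ENNReal.ofReal_le_ofReal ?_
      have h3 : (T.J (T.pm (lift D i a)))⁻¹ ≤ c⁻¹ := inv_anti₀ hc h2
      have h4 : 0 ≤ jac (D.chart i) a := Real.sqrt_nonneg _
      calc (D.mult i a : ℝ) * (jac (D.chart i) a * (T.J (T.pm (lift D i a)))⁻¹)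
          ≤ (D.mult i a : ℝ) * (jac (D.chart i) a * c⁻¹) := by gcongr
        _ = _ := by ring

/-- **the varifold of the transported data** -/
theorem VD_data (hD : IsIntegralVarifoldIn U D) : VD (T.data D) = T.push (VD D) := by
  refine Measure.ext_of_lintegral _ fun F hF => ?_
  have hg : Measurable fun p => ENNReal.ofReal (T.J (T.pm p))⁻¹ * F (T.pm p) :=
    T.measurable_wt.mul (hF.comp T.measurable_pm)
  rw [lintegral_VD (T.isIntegral hD) hF, T.lintegral_push _ hF, lintegral_VD hD hg]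
  refine tsum_congr fun i => setLIntegral_congr_fun (hD.measurableSet i) fun a ha => ?_
  have h4 : 0 ≤ jac (D.chart i) a := Real.sqrt_nonneg _
  have h5 : ENNReal.ofReal ((D.mult i a : ℝ) * (jac (D.chart i) a * (T.J (T.pm (lift D i a)))⁻¹)) =
      ENNReal.ofReal ((D.mult i a : ℝ) * jac (D.chart i) a) *
        ENNReal.ofReal (T.J (T.pm (lift D i a)))⁻¹ := by
    rw [← mul_assoc, ENNReal.ofReal_mul (mul_nonneg (Nat.cast_nonneg _) h4)]
  have h6 : (T.data D).mult i a = D.mult i a := rfl
  rw [T.lift_data hD ha, T.jac_data' hD ha, h6, h5, mul_assoc]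

/-- null sets -/
theorem push_null {V : Measure (Euc k × L k)} (hV : ∀ᵐ p ∂V, p.2 ∈ G m k)
    {s : Set (Euc k × L k)} (hs : MeasurableSet s) :
    T.push V s = 0 ↔ V (T.pm ⁻¹' s) = 0 := by
  unfold push
  rw [Measure.map_apply T.measurable_pm hs,
    withDensity_apply_eq_zero T.measurable_wt]
  constructor
  · intro h
    refine measure_mono_null (t := ({x | ENNReal.ofReal (T.J (T.pm x))⁻¹ ≠ 0} ∩ T.pm ⁻¹' s) ∪
      {p | ¬ p.2 ∈ G m k}) ?_ (measure_union_null h hV)
    intro p hp
    by_cases h1 : p.2 ∈ G m k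
    · refine Or.inl ⟨?_, hp⟩
      have h2 := T.J_pos (T.pm_mem h1)
      simp only [mem_ofPred_eq, ne_eq, ENNReal.ofReal_eq_zero, not_le]
      exact inv_pos.2 h2
    · exact Or.inr h1
  · intro h
    exact measure_mono_null inter_subset_right h

theorem push_fin {V : Measure (Euc k × L k)} (hV : ∀ᵐ p ∂V, p.2 ∈ G m k)
    (hfin : ∀ K : Set (Euc k), IsCompact K → K ⊆ U → V (K ×ˢ Set.univ) < ⊤)
    {K : Set (Euc k)} (hK : IsCompact K) (hKU : K ⊆ T.Φ ⁻¹' U) :
    T.push V (K ×ˢ Set.univ) < ⊤ := by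
  obtain ⟨c, hc, hcJ⟩ := T.exists_J_ge m hK
  have hK' : IsCompact (T.Φ '' K) := hK.image T.continuousΦ
  have hf : V ((T.Φ '' K) ×ˢ Set.univ) < ⊤ := hfin _ hK' (by
    rintro _ ⟨z, hz, rfl⟩
    exact hKU hz)
  have hms : MeasurableSet (K ×ˢ (Set.univ : Set (L k))) :=
    hK.measurableSet.prod MeasurableSet.univ
  have hpre : T.pm ⁻¹' (K ×ˢ (Set.univ : Set (L k))) = (T.Φ '' K) ×ˢ Set.univ := by
    ext p
    rw [T.image_eq]
    simp [pm]
  unfold push
  rw [Measure.map_apply T.measurable_pm hms, hpre,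
    withDensity_apply _ (hK'.measurableSet.prod MeasurableSet.univ)]
  refine lt_of_le_of_lt ?_ (ENNReal.mul_lt_top (ENNReal.ofReal_lt_top (r := c⁻¹)) hf)
  rw [← setLIntegral_const]
  refine setLIntegral_mono_ae' (hK'.measurableSet.prod MeasurableSet.univ) ?_
  filter_upwards [hV] with p hp hpK
  refine ENNReal.ofReal_le_ofReal (inv_anti₀ hc ?_)
  have h1 : T.Ψ p.1 ∈ K := by
    have := hpK.1
    rw [T.image_eq] at this
    exact this
  exact hcJ _ h1 _ (T.pm_mem hp)

theorem support_data (hD : IsIntegralVarifoldIn U D) :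
    support (T.data D) = T.Φ ⁻¹' support D := by
  have key : ∀ W : Set (Euc k), IsOpen W →
      (weight (T.data D) W = 0 ↔ weight D (T.Ψ ⁻¹' W) = 0) := by
    intro W hW
    rw [← VD_prod_univ (T.isIntegral hD) hW.measurableSet, T.VD_data hD,
      T.push_null (VD_conc hD) (hW.measurableSet.prod MeasurableSet.univ),
      ← VD_prod_univ hD (T.continuousΨ.measurable hW.measurableSet)]
    have hpre : T.pm ⁻¹' (W ×ˢ (Set.univ : Set (L k))) = (T.Ψ ⁻¹' W) ×ˢ Set.univ := by
      ext p
      simp [pm]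
    rw [hpre]
  ext z
  constructor
  · intro h ρ hρ
    rw [pos_iff_ne_zero]
    intro h0
    have ho : IsOpen (T.Φ ⁻¹' Metric.ball (T.Φ z) ρ) := Metric.isOpen_ball.preimage T.continuousΦ
    have hz : z ∈ T.Φ ⁻¹' Metric.ball (T.Φ z) ρ := by
      rw [mem_preimage]
      exact Metric.mem_ball_self hρ
    obtain ⟨r, hr, hrs⟩ := Metric.isOpen_iff.1 ho z hz
    have h1 := h r hr
    rw [pos_iff_ne_zero] at h1
    apply h1
    rw [key _ Metric.isOpen_ball]
    refine measure_mono_null ?_ h0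
    intro q hq
    have h2 := hrs hq
    rw [mem_preimage, T.right] at h2
    exact h2
  · intro h ρ hρ
    rw [pos_iff_ne_zero]
    intro h0
    rw [key _ Metric.isOpen_ball] at h0
    have ho : IsOpen (T.Ψ ⁻¹' Metric.ball z ρ) := Metric.isOpen_ball.preimage T.continuousΨ
    have hz : T.Φ z ∈ T.Ψ ⁻¹' Metric.ball z ρ := by
      rw [mem_preimage, T.left]
      exact Metric.mem_ball_self hρ
    obtain ⟨r, hr, hrs⟩ := Metric.isOpen_iff.1 ho (T.Φ z) hz
    have h1 := h r hr
    rw [pos_iff_ne_zero] at h1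
    exact h1 (measure_mono_null hrs h0)

end Dif

end Crest.Agent.R234.Ft_209
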