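import Crest.Agent.R234.Fm8_281
import Crest.Agent.R234.Ft5_209

/-!
# Row 234, VF-FERMI (helper281), file 9: integration of the pointwise inequality

A chart `T` (helper209's `Dif`) whose metric has the form `gm P h` of a Fermi chart of a minimal graph:
the transported stationary varifold is almost stationary.
-/

set_option autoImplicit false

open MeasureTheory Filter Topology Set
open Crest.GeometryTopology.Submanifold
open Crest.Agent.R234.Vf_884
open Crest.Agent.R234.Ar_870 (IsCo tl)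
open Crest.Agent.R234.AS_456 (hp vp errA err AS)
open Crest.Agent.R234.Ft_209 (Dif)
open scoped InnerProductSpace

noncomputable section

namespace Crest.Agent.R234.Fm_281

variable {m k : ℕ}

/-- a chart whose metric is that of a Fermi chart of a minimal graph, on the set `W` -/
structure Cht (m : ℕ) {k : ℕ} (T : Dif k) (π : Euc k →L[ℝ] Euc m) (W : Set (Euc k)) (l : ℝ)
    (P : Euc k → L k) (P' : Euc k → (Euc k →L[ℝ] L k)) (h : Euc k → L k)
    (h1 : Euc k → Euc k → L k) : Prop where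
  co : IsCo π
  cP' : Continuous P'
  dP : ∀ z, HasFDerivAt P (P' z) z
  g : ∀ z ∈ W, T.gm z = gm (P z) (h z)
  dg : ∀ z ∈ W, ∀ ζ, fderiv ℝ T.Gm z ζ = dgm (P z) (P' z ζ) (h z) (h1 z ζ)
  pt : ∀ z ∈ W, ‖vp π z‖ ≤ 1 → ∀ ζ, Pt m (hp π) (P z) (P' z ζ) (h z) (h1 z ζ) l ‖vp π z‖
    ‖hp π ζ‖ ‖vp π ζ‖

/-- area element of the reference graph -/
def g0 (P : Euc k → L k) (z : Euc k) : ℝ := Real.sqrt (1 + star (P z) * P z).det

theorem det_one_add_pos (A : L k) : 0 < (1 + star A * A).det := by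
  refine Ft_209.det_pos_of fun v hv => ?_
  have h1 : (1 + star A * A) v = v + (star A) (A v) := rfl
  have h2 : ⟪(star A) (A v), v⟫_ℝ = ⟪A v, A v⟫_ℝ := ContinuousLinearMap.adjoint_inner_left A _ _
  rw [h1, inner_add_left, h2, real_inner_self_eq_norm_sq, real_inner_self_eq_norm_sq]
  have h3 : 0 < ‖v‖ ^ 2 := by positivity
  have h4 : 0 ≤ ‖A v‖ ^ 2 := by positivity
  linarith

theorem g0_pos (P : Euc k → L k) (z : Euc k) : 0 < g0 P z := Real.sqrt_pos.2 (det_one_add_pos _)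

section C

variable {P : Euc k → L k} {P' : Euc k → (Euc k →L[ℝ] L k)}

theorem contDiff_P (cP' : Continuous P') (dP : ∀ z, HasFDerivAt P (P' z) z) : ContDiff ℝ 1 P := by
  rw [contDiff_one_iff_fderiv]
  refine ⟨fun z => (dP z).differentiableAt, ?_⟩
  have : fderiv ℝ P = P' := funext fun z => (dP z).fderiv
  rw [this]
  exact cP'

/-- the adjoint as a continuous linear map -/
def starL (k : ℕ) : L k →L[ℝ] L k :=
  (ContinuousLinearMap.adjoint (𝕜 := ℝ) (E := Euc k)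
    (F := Euc k)).toContinuousLinearEquiv.toContinuousLinearMap

theorem starL_apply (A : L k) : starL k A = star A := rfl

theorem contDiff_g0 (hP : ContDiff ℝ 1 P) : ContDiff ℝ 1 (g0 P) := by
  have h1 : ContDiff ℝ 1 fun z => star (P z) := (starL k).contDiff.comp hP
  have h2 : ContDiff ℝ 1 fun z => (1 : L k) + star (P z) * P z :=
    contDiff_const.add (h1.clm_comp hP)
  have h3 : ContDiff ℝ 1 fun z => (1 + star (P z) * P z).det :=
    (contDiff_detL.of_le le_top).comp h2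
  exact h3.sqrt fun z => (det_one_add_pos (P z)).ne'

/-- derivative of `1 + P† P` -/
def dPP (A : L k) (A' : Euc k →L[ℝ] L k) : Euc k →L[ℝ] L k :=
  ((ContinuousLinearMap.compL ℝ (Euc k) (Euc k) (Euc k)).flip A) ∘L ((starL k) ∘L A') +
    ((ContinuousLinearMap.compL ℝ (Euc k) (Euc k) (Euc k)) (star A)) ∘L A'

theorem dPP_apply (A : L k) (A' : Euc k →L[ℝ] L k) (w : Euc k) :
    dPP A A' w = star (A' w) * A + star A * A' w := rfl

theorem hasFDerivAt_PP {z : Euc k} (dP : HasFDerivAt P (P' z) z) :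
    HasFDerivAt (fun z => (1 : L k) + star (P z) * P z) (dPP (P z) (P' z)) z := by
  have h1 : HasFDerivAt (fun z => star (P z)) ((starL k) ∘L P' z) z :=
    ((starL k).hasFDerivAt).comp z dP
  have h2 := (h1.clm_comp dP).const_add (1 : L k)
  refine h2.congr_fderiv ?_
  ext1 w
  rw [dPP_apply]
  change (star (P z)) ∘L (P' z w) + (star (P' z w)) ∘L P z = _
  exact add_comm _ _

theorem hasFDerivAt_g0 {z : Euc k} (dP : HasFDerivAt P (P' z) z) (hz : ‖P z‖ ≤ 1 / 2) :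
    ∃ D0 : Euc k →L[ℝ] ℝ, HasFDerivAt (g0 P) D0 z ∧ (∀ w, D0 w = 1 / 2 * g0 P z *
      tr (Ring.inverse (1 + star (P z) * P z) * (star (P' z w) * P z + star (P z) * P' z w))) := by
  have h0 : ‖star (P z) * P z‖ ≤ 1 / 2 := by
    have h1 : ‖star (P z)‖ ≤ 1 / 2 := by rw [norm_star']; exact hz
    have h2 := nm2 h1 hz
    linarith
  obtain ⟨X, h1, h2, h3, h4⟩ := Fm_209.exists_inv h0
  have h5 := hasFDerivAt_sqrt_det (hasFDerivAt_PP dP) h2 (det_one_add_pos (P z))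
  refine ⟨_, h5, fun w => ?_⟩
  rw [h4]
  rfl

theorem abs_D0_le {z w : Euc k} {l ξ g : ℝ} (hz : ‖P z‖ ≤ l) (hl : l ≤ 1 / 2)
    (hw : ‖P' z w‖ ≤ l * ξ) (hg : 0 ≤ g) (hg2 : g ≤ 2) : |1 / 2 * g *
      tr (Ring.inverse (1 + star (P z) * P z) * (star (P' z w) * P z + star (P z) * P' z w))| ≤
      4 * k * l ^ 2 * ξ := by
  have l0 : 0 ≤ l := (norm_nonneg _).trans hz
  have hs : ‖star (P z)‖ ≤ l := by rw [norm_star']; exact hz
  have h0 : ‖star (P z) * P z‖ ≤ 1 / 2 := by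
    have h2 := nm2 hs hz
    nlinarith
  obtain ⟨X, h1, h2, h3, h4⟩ := Fm_209.exists_inv h0
  rw [h4, abs_mul, abs_of_nonneg (by positivity)]
  have e1 : ‖star (P' z w) * P z‖ ≤ l * ξ * l := nm2 (by rw [norm_star']; exact hw) hz
  have e2 : ‖star (P z) * P' z w‖ ≤ l * (l * ξ) := nm2 hs hw
  have e3 : ‖star (P' z w) * P z + star (P z) * P' z w‖ ≤ 2 * (l ^ 2 * ξ) := by
    refine (norm_add_le _ _).trans ?_
    linarith
  have e4 := abs_tr_mul_le X (star (P' z w) * P z + star (P z) * P' z w)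
  have e5 : ‖X‖ * ‖star (P' z w) * P z + star (P z) * P' z w‖ ≤ 2 * (2 * (l ^ 2 * ξ)) :=
    mul_le_mul h3 e3 (norm_nonneg _) (by norm_num)
  have hk : (0:ℝ) ≤ k := Nat.cast_nonneg _
  have e6 : |tr (X * (star (P' z w) * P z + star (P z) * P' z w))| ≤
      k * (2 * (2 * (l ^ 2 * ξ))) := e4.trans (mul_le_mul_of_nonneg_left e5 hk)
  have e7 : 1 / 2 * g ≤ 1 := by linarith
  have e8 := mul_le_mul e7 e6 (abs_nonneg _) zero_le_one
  linarith

end C

/-- the rescaled test field -/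
def zet (P : Euc k → L k) (X : Euc k → Euc k) (z : Euc k) : Euc k := (g0 P z)⁻¹ • X z

theorem contDiff_zet {P : Euc k → L k} {X : Euc k → Euc k} (hP : ContDiff ℝ 1 P)
    (hX : ContDiff ℝ 1 X) : ContDiff ℝ 1 (zet P X) :=
  ((contDiff_g0 hP).inv fun z => (g0_pos P z).ne').smul hX

theorem support_zet (P : Euc k → L k) (X : Euc k → Euc k) :
    Function.support (zet P X) ⊆ Function.support X := by
  intro z hz
  rw [Function.mem_support] at hz ⊢
  intro h0
  exact hz (by rw [zet, h0, smul_zero])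

theorem tsupport_zet (P : Euc k → L k) (X : Euc k → Euc k) : tsupport (zet P X) ⊆ tsupport X :=
  closure_mono (support_zet P X)

theorem compact_zet (P : Euc k → L k) {X : Euc k → Euc k} (hX : HasCompactSupport X) :
    HasCompactSupport (zet P X) := hX.mono (support_zet P X)

theorem fderiv_zeta {P : Euc k → L k} {X : Euc k → Euc k} {z : Euc k} {D0 : Euc k →L[ℝ] ℝ}
    (hD0 : HasFDerivAt (g0 P) D0 z) (hX : ContDiff ℝ 1 X) :
    fderiv ℝ (zet P X) z = (g0 P z)⁻¹ • fderiv ℝ X z -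
      ((g0 P z)⁻¹ ^ 2) • D0.smulRight (X z) := by
  have d1 : HasFDerivAt (fun z => (g0 P z)⁻¹) ((-((g0 P z) ^ 2)⁻¹) • D0) z :=
    (hasDerivAt_inv (g0_pos P z).ne').comp_hasFDerivAt z hD0
  have d2 := (d1.smul ((hX.differentiable one_ne_zero) z).hasFDerivAt).fderiv
  refine d2.trans ?_
  ext1 w
  simp only [add_apply, sub_apply, smul_apply, ContinuousLinearMap.smulRight_apply, smul_eq_mul]
  rw [smul_smul, inv_pow, sub_eq_add_neg, neg_mul, neg_smul]

theorem Cht.fvi_eq {T : Dif k} {π : Euc k →L[ℝ] Euc m} {W : Set (Euc k)} {l : ℝ}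
    {P : Euc k → L k} {P' : Euc k → (Euc k →L[ℝ] L k)} {h : Euc k → L k}
    {h1 : Euc k → Euc k → L k} (hT : Cht m T π W l P P' h h1) {X : Euc k → Euc k} {p : Euc k × L k}
    {D0 : Euc k →L[ℝ] ℝ} (hp : p.1 ∈ W) (hD0 : HasFDerivAt (g0 P) D0 p.1) (hX : ContDiff ℝ 1 X) :
    T.fvi (zet P X) p = tr (Sg (gm (P p.1) (h p.1)) p.2 *
      ((1 + gm (P p.1) (h p.1)) *
          ((g0 P p.1)⁻¹ • fderiv ℝ X p.1 - ((g0 P p.1)⁻¹ ^ 2) • D0.smulRight (X p.1)) +
          (1 / 2 : ℝ) • dgm (P p.1) (P' p.1 ((g0 P p.1)⁻¹ • X p.1)) (h p.1)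
            (h1 p.1 ((g0 P p.1)⁻¹ • X p.1)))) := by
  have e2 : T.Gm p.1 = 1 + gm (P p.1) (h p.1) := by
    rw [← hT.g p.1 hp, T.gm_eq]; abel
  unfold Dif.fvi
  rw [fderiv_zeta hD0 hX, hT.dg p.1 hp, e2, hT.g p.1 hp]
  rfl

theorem Cht.J_eq {T : Dif k} {π : Euc k →L[ℝ] Euc m} {W : Set (Euc k)} {l : ℝ}
    {P : Euc k → L k} {P' : Euc k → (Euc k →L[ℝ] L k)} {h : Euc k → L k}
    {h1 : Euc k → Euc k → L k} (hT : Cht m T π W l P P' h h1) {p : Euc k × L k}
    (hp : p.1 ∈ W) : T.J p = Jc (gm (P p.1) (h p.1)) p.2 := by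
  unfold Dif.J
  rw [hT.g p.1 hp]
  rfl

/-- the pointwise estimate in the chart -/
theorem exists_ptw (m k : ℕ) : ∃ c C : ℝ, 0 < c ∧ c ≤ 1 / 8 ∧ 0 < C ∧
    ∀ (T : Dif k) (π : Euc k →L[ℝ] Euc m) (W : Set (Euc k)) (l h0 : ℝ) (P : Euc k → L k)
      (P' : Euc k → (Euc k →L[ℝ] L k)) (h : Euc k → L k) (h1 : Euc k → Euc k → L k)
      (X : Euc k → Euc k) (p : Euc k × L k), Cht m T π W l P P' h h1 → l ≤ c → h0 ≤ 1 →
      ContDiff ℝ 1 X → p.1 ∈ W → p.2 ∈ G m k → ‖vp π p.1‖ ≤ h0 →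
      |tr ((fderiv ℝ X p.1) ∘L p.2) - T.J p * T.fvi (zet P X) p| ≤
        err π (C * (l * (l + h0))) X p := by
  obtain ⟨c, C, hc, hc8, hC, hpt⟩ := exists_pt_AS m k
  obtain ⟨c', C', hc', hc8', hC', hJH⟩ := exists_JH k
  refine ⟨min c c', C, lt_min hc hc', (min_le_left _ _).trans hc8, hC, ?_⟩
  intro T π W l h0 P P' h h1 X p hT hl hh hX hpW hpG hyp
  have hl1 : l ≤ c := hl.trans (min_le_left _ _)
  have hl2 : l ≤ c' := hl.trans (min_le_right _ _)
  have hP := hT.pt p.1 hpW (hyp.trans hh)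
  have nP : ‖P p.1‖ ≤ l := (hP 0).nP
  have hl8 : l ≤ 1 / 2 := by linarith
  obtain ⟨D0, hD0, hD0'⟩ := hasFDerivAt_g0 (hT.dP p.1) (nP.trans hl8)
  obtain ⟨-, j2, -, -, -⟩ := hJH m (hp π) (P p.1) (P' p.1 0) (h p.1) (h1 p.1 0) l _ _ _
    (hP 0) hl2
  have hg0 := (g0_pos P p.1).le
  rw [hT.fvi_eq hpW hD0 hX, hT.J_eq hpW]
  exact hpt π hT.co p.2 (P p.1) (P' p.1 ((g0 P p.1)⁻¹ • X p.1)) (h p.1)
    (h1 p.1 ((g0 P p.1)⁻¹ • X p.1))
    (fderiv ℝ X p.1) D0 p.1 (X p.1) l h0 (g0 P p.1) hpG hl1 hh hyp rfl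
    (hP ((g0 P p.1)⁻¹ • X p.1))
    (fun w => by
      rw [hD0' w]
      exact abs_D0_le nP hl8 (hP w).nP1 hg0 j2)
    (hD0' _)

/-- **the transported varifold is almost stationary** -/
theorem exists_AS (m k : ℕ) : ∃ c C : ℝ, 0 < c ∧ c ≤ 1 / 8 ∧ 0 < C ∧
    ∀ (T : Dif k) (π : Euc k →L[ℝ] Euc m) (W U : Set (Euc k)) (l h0 : ℝ) (P : Euc k → L k)
      (P' : Euc k → (Euc k →L[ℝ] L k)) (h : Euc k → L k) (h1 : Euc k → Euc k → L k)
      (V : Measure (Euc k × L k)), Cht m T π W l P P' h h1 → l ≤ c → h0 ≤ 1 → Stat m k U V →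
      (∀ᵐ p ∂(T.push V), p.1 ∈ W ∩ T.Φ ⁻¹' U → ‖vp π p.1‖ ≤ h0) →
      AS π (W ∩ T.Φ ⁻¹' U) (C * (l * (l + h0))) (T.push V) := by
  obtain ⟨c, C, hc, hc8, hC, hpt⟩ := exists_ptw m k
  refine ⟨c, C, hc, hc8, hC, ?_⟩
  intro T π W U l h0 P P' h h1 V hT hl hh hV hy
  have hconc := T.push_conc hV.conc
  have hfin : ∀ K : Set (Euc k), IsCompact K → K ⊆ W ∩ T.Φ ⁻¹' U →
      T.push V (K ×ˢ Set.univ) < ⊤ := fun K hK hKU =>
    T.push_fin hV.conc hV.fin hK (hKU.trans inter_subset_right)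
  refine ⟨hconc, hfin, ?_⟩
  intro X hX hXc hXU
  have cζ : ContDiff ℝ 1 (zet P X) := contDiff_zet (contDiff_P hT.cP' hT.dP) hX
  have sζ : tsupport (zet P X) ⊆ tsupport X := tsupport_zet P X
  have kζ : HasCompactSupport (zet P X) := compact_zet P hXc
  have hb0 : ∫ p, T.J p * T.fvi (zet P X) p ∂(T.push V) = 0 :=
    T.stat_push hV cζ kζ ((sζ.trans hXU).trans inter_subset_right)
  have hae : ∀ᵐ p ∂(T.push V), ‖tr ((fderiv ℝ X p.1) ∘L p.2) -
      T.J p * T.fvi (zet P X) p‖ ≤ err π (C * (l * (l + h0))) X p := by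
    filter_upwards [hconc, hy] with p hp hyp
    by_cases hpX : p.1 ∈ tsupport X
    · have hpW := hXU hpX
      exact hpt T π W l h0 P P' h h1 X p hT hl hh hX hpW.1 hp (hyp hpW)
    · have h1 : fderiv ℝ X p.1 = 0 := by
        by_contra h
        exact hpX (support_fderiv_subset ℝ h)
      have h2 : fderiv ℝ (zet P X) p.1 = 0 := by
        by_contra h
        exact hpX (sζ (support_fderiv_subset ℝ h))
      have h3 : (zet P X) p.1 = 0 :=
        image_eq_zero_of_notMem_tsupport fun hc => hpX (sζ hc)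
      have h4 : T.fvi (zet P X) p = 0 := by
        unfold Dif.fvi
        have e0 : T.Gm p.1 ∘L (0 : L k) + (1 / 2 : ℝ) • (0 : L k) = 0 := by
          ext v
          simp
        rw [h2, h3, map_zero, e0, ContinuousLinearMap.comp_zero, map_zero]
      rw [h4, h1, ContinuousLinearMap.zero_comp, map_zero, mul_zero, sub_zero, norm_zero,
        AS_456.err_eq_zero hpX]
  have ha : Integrable (fun p : Euc k × L k => tr ((fderiv ℝ X p.1) ∘L p.2)) (T.push V) :=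
    integrable_fv hconc hX hXc (hfin _ hXc hXU)
  have he : Integrable (err π (C * (l * (l + h0))) X) (T.push V) :=
    AS_456.integrable_err hconc hX hXc (hfin _ hXc hXU) _
  have hmb : Measurable fun p => T.J p * T.fvi (zet P X) p :=
    T.continuous_J.measurable.mul (T.measurable_fvi cζ)
  have hab : Integrable (fun p : Euc k × L k => tr ((fderiv ℝ X p.1) ∘L p.2) -
      T.J p * T.fvi (zet P X) p) (T.push V) :=
    he.mono' (ha.aestronglyMeasurable.sub hmb.aestronglyMeasurable) hae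
  have hb : Integrable (fun p => T.J p * T.fvi (zet P X) p) (T.push V) := by
    refine (ha.sub hab).congr (Eventually.of_forall fun p => ?_)
    exact sub_sub_cancel _ _
  have h5 : ∫ p, tr ((fderiv ℝ X p.1) ∘L p.2) ∂(T.push V) =
      ∫ p, (tr ((fderiv ℝ X p.1) ∘L p.2) -
        T.J p * T.fvi (zet P X) p) ∂(T.push V) := by
    rw [integral_sub ha hb, hb0, sub_zero]
  rw [h5, ← Real.norm_eq_abs]
  exact norm_integral_le_of_norm_le he hae

end Crest.Agent.R234.Fm_281
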