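import Crest.Agent.R234.Fm4_281

/-!
# Row 234, node FERMI-ANOM (helper209), file 1: the algebra

`H` horizontal, `V = 1 - H` vertical, `S` a plane, metric `1 + g`.  `P = Sg g S * (1 + g)`,
`N = Sg g V * (1 + g)` the `G`-orthogonal projections, `nt g H S = tr (N * P)`.
-/

set_option autoImplicit false

open Crest.GeometryTopology.Submanifold
open Crest.Agent.R234.Vf_884 Crest.Agent.R234.Fm_281
open scoped InnerProductSpace

noncomputable section

namespace Crest.Agent.R234.Fn_209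

variable {m k : ℕ}

/-- expansion in a noncommutative ring -/
local macro "nr" : tactic => `(tactic| (simp only [mul_sub, sub_mul, mul_add, add_mul, mul_one,
  one_mul, mul_assoc, mul_neg, neg_mul] <;> abel))

/-- the tilt of the plane `S` against the vertical space in the metric `1 + g` -/
def nt (g H S : L k) : ℝ := tr (Sg g (1 - H) * (1 + g) * (Sg g S * (1 + g)))

/-- derivative of `nt` along `g` -/
def nt' (g H S : L k) : ℝ :=
  tr (-(Sg g (1 - H) * g * Sg g (1 - H) * (1 + g) * (Sg g S * (1 + g))) +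
    Sg g (1 - H) * g * (Sg g S * (1 + g)) -
    Sg g (1 - H) * (1 + g) * (Sg g S * g * Sg g S * (1 + g)) +
    Sg g (1 - H) * (1 + g) * (Sg g S * g))

/-- the quantity to be estimated -/
def EE (g H S : L k) : ℝ :=
  (tr (Sg g S * g) - tr (Sg g H * g)) * (1 - 1 / 2 * nt g H S) - nt' g H S

section Alg

variable {H S g : L k} {θ o : ℝ}

theorem mul_neg' (A B : L k) : A * (-B) = -(A * B) := by
  ext1 v
  exact map_neg A (B v)

theorem S_Dg (hS : IsStarProjection S) : S * Dg g S = Dg g S := by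
  unfold Dg
  rw [← mul_assoc, ← mul_assoc, Sg_left hS]

theorem Dg_S (hS : IsStarProjection S) : Dg g S * S = 0 := by
  unfold Dg
  rw [mul_assoc, sub_mul, one_mul, hS.1.eq, sub_self, mul_zero]

theorem Dg_Dg (hS : IsStarProjection S) : Dg g S * Dg g S = 0 := by
  have h1 : Dg g S * Dg g S = Dg g S * (S * Dg g S) := by rw [S_Dg hS]
  rw [h1, ← mul_assoc, Dg_S hS, zero_mul]

theorem P_idem (hS : IsStarProjection S) : (S + Dg g S) * (S + Dg g S) = S + Dg g S := by
  rw [add_mul, mul_add, mul_add, hS.1.eq, S_Dg hS, Dg_S hS, Dg_Dg hS]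
  abel

/-- the algebraic identity -/
theorem EE_eq {P N K : L k} (hNN : N * N = N)
    (hS : Sg g S * (1 + g) = P) (hV : Sg g (1 - H) * (1 + g) = N) (hK : (1 + g) * K = g) :
    EE g H S = tr (K * (P * N * P)) - tr (K * ((1 - N) * (1 - P) * (1 - N))) -
      1 / 2 * tr (N * P) * tr (K * (P - (1 - N))) -
      (tr (Sg g H * g) - tr ((1 - N) * K)) * (1 - 1 / 2 * tr (N * P)) := by
  have e1 : Sg g S * g = P * K := by
    have : Sg g S * g = Sg g S * ((1 + g) * K) := by rw [hK]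
    rw [this, ← mul_assoc, hS]
  have e2 : Sg g (1 - H) * g = N * K := by
    have : Sg g (1 - H) * g = Sg g (1 - H) * ((1 + g) * K) := by rw [hK]
    rw [this, ← mul_assoc, hV]
  have hnt : nt g H S = tr (N * P) := by rw [nt, hV, hS]
  have hnt' : nt' g H S = tr (K * (P - (1 - N))) - tr (K * (P * N * P)) +
      tr (K * ((1 - N) * (1 - P) * (1 - N))) := by
    have a1 : Sg g (1 - H) * g * Sg g (1 - H) * (1 + g) * (Sg g S * (1 + g)) =
        N * K * N * P := by
      rw [e2, hS, mul_assoc (N * K), hV]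
    have a2 : Sg g (1 - H) * g * (Sg g S * (1 + g)) = N * K * P := by rw [e2, hS]
    have a3 : Sg g (1 - H) * (1 + g) * (Sg g S * g * Sg g S * (1 + g)) = N * (P * K * P) := by
      rw [hV, e1, mul_assoc (P * K), hS]
    have a4 : Sg g (1 - H) * (1 + g) * (Sg g S * g) = N * (P * K) := by rw [hV, e1]
    unfold nt'
    rw [a1, a2, a3, a4, map_add, map_sub, map_add, map_neg]
    have b1 : tr (N * K * N * P) = tr (K * (N * P * N)) := by
      have : N * K * N * P = N * (K * N * P) := by nr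
      rw [this, tr_mul_comm]
      simp only [mul_assoc]
    have b2 : tr (N * K * P) = tr (K * (P * N)) := by
      have : N * K * P = N * (K * P) := by nr
      rw [this, tr_mul_comm]
      simp only [mul_assoc]
    have b3 : tr (N * (P * K * P)) = tr (K * (P * N * P)) := by
      have : N * (P * K * P) = (N * P) * (K * P) := by nr
      rw [this, tr_mul_comm]
      simp only [mul_assoc]
    have b4 : tr (N * (P * K)) = tr (K * (N * P)) := by
      have : N * (P * K) = (N * P) * K := by nr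
      rw [this, tr_mul_comm]
    rw [b1, b2, b3, b4]
    have c1 : (1 - N) * (1 - P) * (1 - N) = 1 - N - P + N * P + P * N - N * P * N := by
      have : (1 - N) * (1 - P) * (1 - N) = 1 - N - P + N * P + P * N - N * P * N - N + N * N := by
        nr
      rw [this, hNN]
      abel
    rw [c1]
    simp only [mul_sub, mul_add, map_sub, map_add, mul_one]
    ring
  have hx : tr ((1 - N) * K) = tr (K * (1 - N)) := tr_mul_comm _ _
  have hy : tr (P * K) = tr (K * P) := tr_mul_comm _ _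
  unfold EE
  rw [hnt, hnt', e1, hx, hy]
  simp only [mul_sub, map_sub, mul_one]
  ring

theorem norm_VgH_le (hH : IsStarProjection H) (hg : ‖g‖ ≤ 1 / 4) (ho : ‖(1 - H) * g * H‖ ≤ o) :
    ‖Sg g (1 - H) * g * H‖ ≤ 2 * o := by
  have e : Sg g (1 - H) * g * H = Sg g (1 - H) * ((1 - H) * g * H) := by
    have h1 : Sg g (1 - H) * ((1 - H) * g * H) = (Sg g (1 - H) * (1 - H)) * g * H := by nr
    rw [h1, Sg_right hH.one_sub]
  rw [e]
  exact nm2 (norm_Sg_le hH.one_sub (by linarith)) ho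

theorem norm_HgV_le (hH : IsStarProjection H) (hg : ‖g‖ ≤ 1 / 4) (ho : ‖H * g * (1 - H)‖ ≤ o) :
    ‖Sg g H * g * (1 - H)‖ ≤ 2 * o := by
  have e : Sg g H * g * (1 - H) = Sg g H * (H * g * (1 - H)) := by
    have h1 : Sg g H * (H * g * (1 - H)) = (Sg g H * H) * g * (1 - H) := by nr
    rw [h1, Sg_right hH]
  rw [e]
  exact nm2 (norm_Sg_le hH (by linarith)) ho

/-- off-diagonal blocks of the inverse -/
theorem norm_VXH_le {X : L k} (hH : IsStarProjection H) (hg : ‖g‖ ≤ 1 / 4)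
    (ho : ‖(1 - H) * g * H‖ ≤ o) (hX : (1 + g) * X = 1) (hXn : ‖X‖ ≤ 2) :
    ‖(1 - H) * X * H‖ ≤ 4 * o := by
  have hV := hH.one_sub
  have hVH : (1 - H) * H = 0 := by rw [sub_mul, one_mul, hH.1.eq, sub_self]
  have h1 : Sg g (1 - H) * (1 + g) = (1 - H) + Dg g (1 - H) := Sg_mul_eq hV (by linarith)
  have h2 : Sg g (1 - H) * ((1 + g) * X) * H = (1 - H) * X * H + Sg g (1 - H) * g * H * X * H := by
    rw [← mul_assoc, h1]
    unfold Dg
    have : (1 - (1 - H) : L k) = H := by abel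
    rw [this]
    nr
  rw [hX, mul_one] at h2
  have h3 : Sg g (1 - H) * H = 0 := by
    rw [← Sg_right hV, mul_assoc, hVH, mul_zero]
  rw [h3] at h2
  have h4 : (1 - H) * X * H = -(Sg g (1 - H) * g * H * X * H) := by
    rw [eq_neg_iff_add_eq_zero]
    exact h2.symm
  rw [h4, norm_neg]
  have := nm2 (nm2 (norm_VgH_le hH hg ho) hXn) hH.norm_le
  linarith

theorem norm_HXV_le {X : L k} (hH : IsStarProjection H) (hg : ‖g‖ ≤ 1 / 4)
    (ho : ‖H * g * (1 - H)‖ ≤ o) (hX : (1 + g) * X = 1) (hXn : ‖X‖ ≤ 2) :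
    ‖H * X * (1 - H)‖ ≤ 4 * o := by
  have h : (1 - (1 - H) : L k) = H := by abel
  have := norm_VXH_le (H := 1 - H) hH.one_sub hg (o := o) (by rwa [h]) hX hXn
  rwa [h] at this

theorem norm_le_Blk (hH : IsStarProjection H) (hb : Blk H g θ o) : ‖g‖ ≤ 2 * θ + 2 * o := by
  have e : g = H * g * H + H * g * (1 - H) + (1 - H) * g * H + (1 - H) * g * (1 - H) := by nr
  have h1 := norm_add_le (H * g * H + H * g * (1 - H) + (1 - H) * g * H) ((1 - H) * g * (1 - H))
  have h2 := norm_add₃_le (a := H * g * H) (b := H * g * (1 - H)) (c := (1 - H) * g * H)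
  rw [← e] at h1
  linarith [hb.hh, hb.hv, hb.vh, hb.vv]

theorem real_final {k q t o θ a b n K r : ℝ} (hk : 0 ≤ k) (hq : q = t * t) (ht : 0 ≤ t)
    (ho : 0 ≤ o) (ho1 : o ≤ 1) (hθ : 0 ≤ θ) (hθ1 : θ ≤ 1) (hK : 0 ≤ K) (hK1 : K ≤ 4 * (θ + o))
    (ha : 0 ≤ a) (hb : 0 ≤ b)
    (ha1 : a ≤ (5 * t + 10 * o) * (2 * t + 6 * o)) (hb1 : b ≤ (5 * t + 12 * o) * (2 * t + 8 * o))
    (hn : 0 ≤ n) (hn1 : n ≤ k * ((5 * t + 10 * o) * (2 * t + 6 * o))) (hn2 : n ≤ 9 * k)
    (hr : 0 ≤ r) (hr1 : r ≤ 16 * k * (o * o)) :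
    k * (K * a) + k * (K * b) + 1 / 2 * n * (k * (K * 7)) + r * (1 + 1 / 2 * n) ≤
      6000 * (k + 1) ^ 2 * ((θ + o) * q + o ^ 2) := by
  obtain ⟨p, hp⟩ : ∃ p, p = q + o * o := ⟨_, rfl⟩
  have hto : 2 * (t * o) ≤ p := by
    rw [hp, hq]; nlinarith [sq_nonneg (t - o)]
  have hoo : 0 ≤ o * o := mul_self_nonneg o
  have hq0 : 0 ≤ q := by rw [hq]; exact mul_self_nonneg t
  have hp0 : 0 ≤ p := by rw [hp]; linarith
  have e1 : (5 * t + 10 * o) * (2 * t + 6 * o) ≤ 100 * p := by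
    have : (5 * t + 10 * o) * (2 * t + 6 * o) = 10 * (t * t) + 50 * (t * o) + 60 * (o * o) := by
      ring
    rw [this, ← hq]
    have : p = q + o * o := hp
    nlinarith
  have e2 : (5 * t + 12 * o) * (2 * t + 8 * o) ≤ 140 * p := by
    have : (5 * t + 12 * o) * (2 * t + 8 * o) = 10 * (t * t) + 64 * (t * o) + 96 * (o * o) := by
      ring
    rw [this, ← hq]
    have : p = q + o * o := hp
    nlinarith
  have hs : 0 ≤ θ + o := by linarith
  obtain ⟨w, hw⟩ : ∃ w, w = (θ + o) * q + o * o := ⟨_, rfl⟩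
  have hKp : K * p ≤ 12 * w := by
    have h1 : K * p ≤ 4 * (θ + o) * p := mul_le_mul_of_nonneg_right hK1 hp0
    have h2 : (θ + o) * (o * o) ≤ 2 * (o * o) :=
      mul_le_mul_of_nonneg_right (by linarith) hoo
    have h3 : 0 ≤ (θ + o) * q := mul_nonneg hs hq0
    have h4 : 4 * (θ + o) * p = 4 * ((θ + o) * q) + 4 * ((θ + o) * (o * o)) := by rw [hp]; ring
    rw [hw]; linarith
  have hw0 : 0 ≤ w := by rw [hw]; positivity
  have f1 : K * a ≤ 1200 * w := by
    have : K * a ≤ K * (100 * p) := mul_le_mul_of_nonneg_left (ha1.trans e1) hK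
    linarith
  have f2 : K * b ≤ 1680 * w := by
    have : K * b ≤ K * (140 * p) := mul_le_mul_of_nonneg_left (hb1.trans e2) hK
    linarith
  have f3 : n * K ≤ k * (1200 * w) := by
    have h1 : n ≤ k * (100 * p) := hn1.trans (mul_le_mul_of_nonneg_left e1 hk)
    have h2 : n * K ≤ k * (100 * p) * K := mul_le_mul_of_nonneg_right h1 hK
    have h3 : k * (100 * p) * K = k * (100 * (K * p)) := by ring
    rw [h3] at h2
    refine h2.trans (mul_le_mul_of_nonneg_left ?_ hk)
    linarith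
  have f4 : r * (1 + 1 / 2 * n) ≤ 16 * k * w * (1 + 9 / 2 * k) := by
    have h1 : r ≤ 16 * k * w := by
      refine hr1.trans (mul_le_mul_of_nonneg_left ?_ (by positivity))
      rw [hw]
      have : 0 ≤ (θ + o) * q := mul_nonneg hs hq0
      linarith
    exact mul_le_mul h1 (by linarith) (by linarith) (by positivity)
  have g1 : k * (K * a) ≤ k * (1200 * w) := mul_le_mul_of_nonneg_left f1 hk
  have g2 : k * (K * b) ≤ k * (1680 * w) := mul_le_mul_of_nonneg_left f2 hk
  have g3 : 1 / 2 * n * (k * (K * 7)) ≤ 7 / 2 * k * (k * (1200 * w)) := by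
    have : 1 / 2 * n * (k * (K * 7)) = 7 / 2 * k * (n * K) := by ring
    rw [this]
    exact mul_le_mul_of_nonneg_left f3 (by positivity)
  have hfin : k * (1200 * w) + k * (1680 * w) + 7 / 2 * k * (k * (1200 * w)) +
      16 * k * w * (1 + 9 / 2 * k) ≤ 6000 * (k + 1) ^ 2 * w := by
    have : 6000 * (k + 1) ^ 2 * w - (k * (1200 * w) + k * (1680 * w) +
      7 / 2 * k * (k * (1200 * w)) + 16 * k * w * (1 + 9 / 2 * k)) =
      (1728 * k ^ 2 + 9104 * k + 6000) * w := by ring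
    have h2 : 0 ≤ (1728 * k ^ 2 + 9104 * k + 6000) * w := by positivity
    linarith
  have hwe : (θ + o) * q + o ^ 2 = w := by rw [hw]; ring
  rw [hwe]
  linarith

/-- **the pointwise bound** -/
theorem abs_EE_le (hH : H ∈ G m k) (hS : S ∈ G m k) (hg : ‖g‖ ≤ 1 / 4) (hb : Blk H g θ o)
    (hθ1 : θ ≤ 1) (ho1 : o ≤ 1) :
    |EE g H S| ≤ 6000 * ((k:ℝ) + 1) ^ 2 * ((θ + o) * tau H S + o ^ 2) := by
  have hH' := isStar_of_G hH
  have hS' := isStar_of_G hS
  have hV' := hH'.one_sub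
  have hg2 : ‖g‖ ≤ 1 / 2 := by linarith
  obtain ⟨X, hX1, hX2, hXn, -⟩ := Fm_209.exists_inv hg2
  have hθ0 := hb.θ_nonneg
  have ho0 := hb.o_nonneg
  set P := S + Dg g S with hP
  set N := (1 - H) + Dg g (1 - H) with hN
  obtain ⟨K, hKd⟩ : ∃ K, K = X * g := ⟨_, rfl⟩
  have hKX : K = 1 - X := by
    have : X * (1 + g) = X + X * g := by nr
    rw [hX1] at this
    rw [hKd, this]
    abel
  have hGK : (1 + g) * K = g := by
    rw [hKd, ← mul_assoc, hX2, one_mul]
  have hPP : P * P = P := P_idem hS'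
  have hNN : N * N = N := P_idem hV'
  have hSP : Sg g S * (1 + g) = P := Sg_mul_eq hS' hg2
  have hVN : Sg g (1 - H) * (1 + g) = N := Sg_mul_eq hV' hg2
  rw [EE_eq hNN hSP hVN hGK]
  set t := Real.sqrt (tau H S) with ht
  have ht0 : 0 ≤ t := Real.sqrt_nonneg _
  have hsq : t * t = tau H S := sq_sqrt_tau hH hS
  have hH1 : ‖H‖ ≤ 1 := hH'.norm_le
  have hV1 : ‖1 - H‖ ≤ 1 := hV'.norm_le
  have hT1 : ‖1 - S‖ ≤ 1 := hS'.one_sub.norm_le
  have hS1 : ‖S‖ ≤ 1 := hS'.norm_le
  have hG : ‖1 + g‖ ≤ 5 / 4 := by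
    have h1 := norm_add_le (1 : L k) g
    have h2 : ‖(1 : L k)‖ ≤ 1 := ContinuousLinearMap.norm_id_le
    linarith
  have hPn : ‖P‖ ≤ 3 := by
    rw [← hSP]
    have := nm2 (norm_Sg_le hS' hg2) hG
    linarith
  have hNn : ‖N‖ ≤ 3 := by
    rw [← hVN]
    have := nm2 (norm_Sg_le hV' hg2) hG
    linarith
  have h1n : ‖(1 : L k)‖ ≤ 1 := ContinuousLinearMap.norm_id_le
  have hP1 : ‖1 - P‖ ≤ 4 := (norm_sub_le _ _).trans (by linarith)
  have hQn : ‖1 - N‖ ≤ 4 := (norm_sub_le _ _).trans (by linarith)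
  have hDV : ‖Dg g (1 - H)‖ ≤ 2 * o := by
    have e : Dg g (1 - H) = Sg g (1 - H) * g * H := by
      unfold Dg
      have : (1 - (1 - H) : L k) = H := by abel
      rw [this]
    rw [e]
    exact norm_VgH_le hH' hg hb.vh
  have hDS : ‖Dg g S‖ ≤ 4 * (t + o) := by
    refine (norm_Dg_le hH hS hg2 hb).trans ?_
    rw [← ht]
    have : θ * t ≤ 1 * t := mul_le_mul_of_nonneg_right hθ1 ht0
    linarith
  obtain ⟨sV1, sV2, -⟩ := Sg_blocks hH hS hg2
  rw [← ht] at sV1 sV2
  -- NP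
  have nNP : ‖N * P‖ ≤ 2 * t + 6 * o := by
    have e : N * P = (1 - H) * S + ((1 - H) * Sg g S) * g * (1 - S) + Dg g (1 - H) * P := by
      rw [hN, hP]
      unfold Dg
      nr
    rw [e]
    have a1 := norm_add₃_le (a := (1 - H) * S) (b := ((1 - H) * Sg g S) * g * (1 - S))
      (c := Dg g (1 - H) * P)
    have a2 : ‖(1 - H) * S‖ ≤ t := norm_NS hH hS
    have a3 := nm3 sV1 hg hT1
    have a4 := nm2 hDV hPn
    linarith
  have nPN : ‖P * N‖ ≤ 5 * t + 10 * o := by
    have e : P * N = S * (1 - H) + Dg g S * (1 - H) + P * Dg g (1 - H) := by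
      rw [hN, hP]; nr
    rw [e]
    have a1 := norm_add₃_le (a := S * (1 - H)) (b := Dg g S * (1 - H)) (c := P * Dg g (1 - H))
    have a2 : ‖S * (1 - H)‖ ≤ t := norm_SN hH hS
    have a3 := nm2 hDS hV1
    have a4 := nm2 hPn hDV
    linarith
  have nQP : ‖(1 - N) * (1 - P)‖ ≤ 5 * t + 12 * o := by
    have e : (1 - N) * (1 - P) = H * (1 - S) - H * Dg g S - Dg g (1 - H) * (1 - P) := by
      rw [hN, hP]; nr
    rw [e]
    have a1 := norm_sub_le (H * (1 - S) - H * Dg g S) (Dg g (1 - H) * (1 - P))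
    have a1' := norm_sub_le (H * (1 - S)) (H * Dg g S)
    have a2 : ‖H * (1 - S)‖ ≤ t := norm_HT hH hS
    have a3 := nm2 hH1 hDS
    have a4 := nm2 hDV hP1
    linarith
  have nPQ : ‖(1 - P) * (1 - N)‖ ≤ 2 * t + 8 * o := by
    have e : (1 - P) * (1 - N) = (1 - S) * H - Sg g S * g * ((1 - S) * H) -
        (1 - P) * Dg g (1 - H) := by
      rw [hN, hP]; unfold Dg; nr
    rw [e]
    have a1 := norm_sub_le ((1 - S) * H - Sg g S * g * ((1 - S) * H)) ((1 - P) * Dg g (1 - H))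
    have a1' := norm_sub_le ((1 - S) * H) (Sg g S * g * ((1 - S) * H))
    have a2 : ‖(1 - S) * H‖ ≤ t := norm_TH hH hS
    have a3 := nm3 (norm_Sg_le hS' hg2) hg a2
    have a4 := nm2 hP1 hDV
    linarith
  have hKn : ‖K‖ ≤ 4 * (θ + o) := by
    have := nm2 hXn (norm_le_Blk hH' hb)
    rw [hKd]; linarith
  have nA : ‖P * N * P‖ ≤ (5 * t + 10 * o) * (2 * t + 6 * o) := by
    have e : P * N * P = (P * N) * (N * P) := by
      have : (P * N) * (N * P) = P * (N * N) * P := by nr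
      rw [this, hNN]
    rw [e]
    exact nm2 nPN nNP
  have h1P : (1 - P) * (1 - P) = 1 - P := by
    have : (1 - P) * (1 - P) = 1 - P - P + P * P := by nr
    rw [this, hPP]; abel
  have nB : ‖(1 - N) * (1 - P) * (1 - N)‖ ≤ (5 * t + 12 * o) * (2 * t + 8 * o) := by
    have e : (1 - N) * (1 - P) * (1 - N) = ((1 - N) * (1 - P)) * ((1 - P) * (1 - N)) := by
      rw [mul_assoc (1 - N) (1 - P) ((1 - P) * (1 - N)), ← mul_assoc (1 - P) (1 - P), h1P,
        mul_assoc]
    rw [e]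
    exact nm2 nQP nPQ
  have ntr : |tr (N * P)| ≤ k * ((5 * t + 10 * o) * (2 * t + 6 * o)) := by
    have e : tr (N * P) = tr ((P * N) * (N * P)) := by
      have e1 : tr ((P * N) * (N * P)) = tr (P * (N * P)) := by
        have : (P * N) * (N * P) = P * ((N * N) * P) := by nr
        rw [this, hNN]
      rw [e1, tr_mul_comm P (N * P), mul_assoc, hPP]
    rw [e]
    exact (abs_tr_mul_le _ _).trans (mul_le_mul_of_nonneg_left
      (mul_le_mul nPN nNP (norm_nonneg _) (by positivity)) (Nat.cast_nonneg _))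
  have ntr2 : |tr (N * P)| ≤ 9 * k := by
    refine (abs_tr_mul_le _ _).trans ?_
    have := mul_le_mul_of_nonneg_left (mul_le_mul hNn hPn (norm_nonneg _) (by norm_num))
      (Nat.cast_nonneg (α := ℝ) k)
    linarith
  have nPQ7 : ‖P - (1 - N)‖ ≤ 7 := (norm_sub_le _ _).trans (by linarith)
  -- the remainder
  have hr : |tr (Sg g H * g) - tr ((1 - N) * K)| ≤ 16 * k * (o * o) := by
    have e1 : Sg g H * g = (H + Dg g H) * K := by
      rw [← Sg_mul_eq hH' hg2, mul_assoc, hGK]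
    have e2 : (H + Dg g H) * K - (1 - N) * K = Dg g H * K + Dg g (1 - H) * K := by
      rw [hN]; nr
    have e3 : tr (Sg g H * g) - tr ((1 - N) * K) = tr (Dg g H * K) + tr (Dg g (1 - H) * K) := by
      rw [e1, ← map_sub, e2, map_add]
    have hHV : H * (1 - H) = 0 := by rw [mul_sub, mul_one, hH'.1.eq, sub_self]
    have hVH : (1 - H) * H = 0 := by rw [sub_mul, one_mul, hH'.1.eq, sub_self]
    have e4 : tr (Dg g H * K) = -tr ((Sg g H * g * (1 - H)) * ((1 - H) * X * H)) := by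
      have a1 : Dg g H * K = H * (Dg g H * K) := by rw [← mul_assoc H, S_Dg hH']
      have a2 : (Dg g H * K) * H = -((Sg g H * g * (1 - H)) * ((1 - H) * X * H)) := by
        have b1 : (1 - H) * K * H = -((1 - H) * X * H) := by
          have : (1 - H) * (1 - X) * H = (1 - H) * H - (1 - H) * X * H := by
            rw [mul_sub (1 - H) 1 X, mul_one, sub_mul]
          rw [hKX, this, hVH, zero_sub]
        have b2 : Dg g H = Sg g H * g * (1 - H) * (1 - H) := by
          unfold Dg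
          rw [mul_assoc (Sg g H * g), hV'.1.eq]
        calc (Dg g H * K) * H = Sg g H * g * (1 - H) * (1 - H) * K * H := by rw [← b2]
          _ = (Sg g H * g * (1 - H)) * ((1 - H) * K * H) := by simp only [mul_assoc]
          _ = _ := by rw [b1, mul_neg']
      rw [a1, tr_mul_comm, a2, map_neg]
    have e5 : tr (Dg g (1 - H) * K) = -tr ((Sg g (1 - H) * g * H) * (H * X * (1 - H))) := by
      have hh : (1 - (1 - H) : L k) = H := by abel
      have a1 : Dg g (1 - H) * K = (1 - H) * (Dg g (1 - H) * K) := by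
        rw [← mul_assoc (1 - H), S_Dg hV']
      have a2 : (Dg g (1 - H) * K) * (1 - H) =
          -((Sg g (1 - H) * g * H) * (H * X * (1 - H))) := by
        have b1 : H * K * (1 - H) = -(H * X * (1 - H)) := by
          have : H * (1 - X) * (1 - H) = H * (1 - H) - H * X * (1 - H) := by
            rw [mul_sub H 1 X, mul_one, sub_mul]
          rw [hKX, this, hHV, zero_sub]
        have b2 : Dg g (1 - H) = Sg g (1 - H) * g * H * H := by
          unfold Dg
          rw [hh, mul_assoc (Sg g (1 - H) * g), hH'.1.eq]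
        calc (Dg g (1 - H) * K) * (1 - H) = Sg g (1 - H) * g * H * H * K * (1 - H) := by
              rw [← b2]
          _ = (Sg g (1 - H) * g * H) * (H * K * (1 - H)) := by simp only [mul_assoc]
          _ = _ := by rw [b1, mul_neg']
      rw [a1, tr_mul_comm, a2, map_neg]
    rw [e3, e4, e5]
    have c1 : |tr ((Sg g H * g * (1 - H)) * ((1 - H) * X * H))| ≤ k * ((2 * o) * (4 * o)) :=
      (abs_tr_mul_le _ _).trans (mul_le_mul_of_nonneg_left
        (mul_le_mul (norm_HgV_le hH' hg hb.hv) (norm_VXH_le hH' hg hb.vh hX2 hXn)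
          (norm_nonneg _) (by linarith)) (Nat.cast_nonneg _))
    have c2 : |tr ((Sg g (1 - H) * g * H) * (H * X * (1 - H)))| ≤ k * ((2 * o) * (4 * o)) :=
      (abs_tr_mul_le _ _).trans (mul_le_mul_of_nonneg_left
        (mul_le_mul (norm_VgH_le hH' hg hb.vh) (norm_HXV_le hH' hg hb.hv hX2 hXn)
          (norm_nonneg _) (by linarith)) (Nat.cast_nonneg _))
    have c3 := abs_add_le (-tr ((Sg g H * g * (1 - H)) * ((1 - H) * X * H)))
      (-tr ((Sg g (1 - H) * g * H) * (H * X * (1 - H))))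
    rw [abs_neg, abs_neg] at c3
    have c4 : (k:ℝ) * ((2 * o) * (4 * o)) = 8 * k * (o * o) := by ring
    linarith
  -- assembly
  have hk0 : (0:ℝ) ≤ k := Nat.cast_nonneg _
  have b1 : |tr (K * (P * N * P))| ≤ k * (‖K‖ * ‖P * N * P‖) := abs_tr_mul_le _ _
  have b2 : |tr (K * ((1 - N) * (1 - P) * (1 - N)))| ≤
      k * (‖K‖ * ‖(1 - N) * (1 - P) * (1 - N)‖) := abs_tr_mul_le _ _
  have b3 : |1 / 2 * tr (N * P) * tr (K * (P - (1 - N)))| ≤
      1 / 2 * |tr (N * P)| * (k * (‖K‖ * 7)) := by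
    rw [abs_mul, abs_mul, abs_of_pos (by norm_num : (0:ℝ) < 1 / 2)]
    refine mul_le_mul_of_nonneg_left ?_ (by positivity)
    exact (abs_tr_mul_le _ _).trans (mul_le_mul_of_nonneg_left
      (mul_le_mul_of_nonneg_left nPQ7 (norm_nonneg _)) hk0)
  have b4 : |(tr (Sg g H * g) - tr ((1 - N) * K)) * (1 - 1 / 2 * tr (N * P))| ≤
      |tr (Sg g H * g) - tr ((1 - N) * K)| * (1 + 1 / 2 * |tr (N * P)|) := by
    rw [abs_mul]
    refine mul_le_mul_of_nonneg_left ?_ (abs_nonneg _)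
    have := abs_sub (1:ℝ) (1 / 2 * tr (N * P))
    rw [abs_mul, abs_of_pos (by norm_num : (0:ℝ) < 1 / 2), abs_one] at this
    exact this
  have key := real_final (k := (k:ℝ)) (q := tau H S) (t := t) (o := o) (θ := θ)
    (a := ‖P * N * P‖) (b := ‖(1 - N) * (1 - P) * (1 - N)‖) (n := |tr (N * P)|) (K := ‖K‖)
    (r := |tr (Sg g H * g) - tr ((1 - N) * K)|) hk0 hsq.symm ht0 ho0 ho1 hθ0 hθ1 (norm_nonneg _)
    hKn (norm_nonneg _) (norm_nonneg _) nA nB (abs_nonneg _) ntr ntr2 (abs_nonneg _) hr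
  refine le_trans ?_ key
  have d1 := abs_sub (tr (K * (P * N * P)) - tr (K * ((1 - N) * (1 - P) * (1 - N))) -
      1 / 2 * tr (N * P) * tr (K * (P - (1 - N))))
    ((tr (Sg g H * g) - tr ((1 - N) * K)) * (1 - 1 / 2 * tr (N * P)))
  have d2 := abs_sub (tr (K * (P * N * P)) - tr (K * ((1 - N) * (1 - P) * (1 - N))))
    (1 / 2 * tr (N * P) * tr (K * (P - (1 - N))))
  have d3 := abs_sub (tr (K * (P * N * P))) (tr (K * ((1 - N) * (1 - P) * (1 - N))))
  linarith

end Alg

end Crest.Agent.R234.Fn_209
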