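import Crest.Agent.R234.Fn1_209
import Crest.Agent.R234.Ft5_209

/-!
# Row 234, node FERMI-ANOM (helper209), file 2: the comparison of the anomaly densities

**exists_anom**: `|Jc g S (1 - nt g H S / 2) - Jc g H (1 - tau H S / 2)| ≤ C ((θ + o) tau H S + o²)`
for every plane `S` and every metric `1 + g`, `‖g‖ ≤ c(m,k)`.
-/

set_option autoImplicit false

open Crest.GeometryTopology.Submanifold
open Crest.Agent.R234.Vf_884 Crest.Agent.R234.Fm_281
open scoped InnerProductSpace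

noncomputable section

namespace Crest.Agent.R234.Fn_209

variable {m k : ℕ}

/-- expansion in a noncommutative ring -/
local macro "nr" : tactic => `(tactic| (simp only [mul_sub, sub_mul, mul_add, add_mul, mul_one,
  one_mul, mul_assoc, mul_neg, neg_mul] <;> abel))

theorem hasDerivAt_inverse {R : Type*} [NormedRing R] [NormedAlgebra ℝ R]
    [HasSummableGeomSeries R] (B : R) {t : ℝ} {X : R} (h1 : X * (1 + t • B) = 1)
    (h2 : (1 + t • B) * X = 1) :
    HasDerivAt (fun s : ℝ => Ring.inverse (1 + s • B)) (-(X * B * X)) t := by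
  let u : Rˣ := ⟨1 + t • B, X, h2, h1⟩
  have h3 : HasFDerivAt Ring.inverse (-ContinuousLinearMap.mulLeftRight ℝ R ↑u⁻¹ ↑u⁻¹) (u : R) :=
    hasFDerivAt_ringInverse u
  have h4 : HasDerivAt (fun s : ℝ => 1 + s • B) B t := by
    have := ((hasDerivAt_id t).smul_const B).const_add 1
    simpa using this
  have h5 := h3.comp_hasDerivAt t h4
  have h6 : (-ContinuousLinearMap.mulLeftRight ℝ R ↑u⁻¹ ↑u⁻¹) B = -(X * B * X) := rfl
  rw [h6] at h5
  exact h5

theorem hasDerivAt_smul (g : L k) (t : ℝ) : HasDerivAt (fun s : ℝ => s • g) g t := by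
  have := (hasDerivAt_id t).smul_const g
  simpa using this

theorem conj_smul (S g : L k) (t : ℝ) : S * ((t • g) * S) = t • (S * (g * S)) := by
  ext1 v
  change S (t • (g (S v))) = t • S (g (S v))
  rw [map_smul]

theorem hasDerivAt_Sg {S g : L k} (hS : IsStarProjection S) {t : ℝ} (ht : ‖t • g‖ ≤ 1 / 2) :
    HasDerivAt (fun s : ℝ => Sg (s • g) S) (-(Sg (t • g) S * g * Sg (t • g) S)) t := by
  obtain ⟨X, h1, h2, h3, h4, h5, -, -⟩ := exists_Sg hS ht
  rw [conj_smul] at h1 h2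
  have h6 := hasDerivAt_inverse (S * (g * S)) h1 h2
  have h7 : HasDerivAt (fun s : ℝ => S ∘L (Ring.inverse (1 + s • (S * (g * S))) ∘L S))
      (S ∘L ((-(X * (S * (g * S)) * X)) ∘L S)) t := by
    have a1 := (hasDerivAt_const t S).clm_comp (h6.clm_comp (hasDerivAt_const t S))
    refine a1.congr_deriv ?_
    ext1 v
    simp
  have h8 : (fun s : ℝ => Sg (s • g) S) =
      fun s : ℝ => S ∘L (Ring.inverse (1 + s • (S * (g * S))) ∘L S) := by
    funext s
    unfold Sg
    rw [conj_smul]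
    rfl
  rw [h8]
  refine h7.congr_deriv ?_
  have h9 : S ∘L ((-(X * (S * (g * S)) * X)) ∘L S) = -((S * X) * S * g * (S * (X * S))) := by
    ext1 v
    change S (-(X (S (g (S (X (S v))))))) = -(S (X (S (g (S (X (S v)))))))
    rw [map_neg]
  rw [h9, ← h5, Sg_right hS, ← h4, Sg_left hS]

theorem hasDerivAt_Jc {S g : L k} (hS : IsStarProjection S) {t : ℝ} (ht : ‖t • g‖ ≤ 1 / 2)
    (hpos : 0 < (1 + S * ((t • g) * S)).det) :
    HasDerivAt (fun s : ℝ => Jc (s • g) S) (1 / 2 * Jc (t • g) S * tr (Sg (t • g) S * g)) t := by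
  obtain ⟨X, h1, h2, h3, h4, h5, -, -⟩ := exists_Sg hS ht
  have htr : tr (X * (S * (g * S))) = tr (Sg (t • g) S * g) := by
    have e1 : X * (S * (g * S)) = (X * S * g) * S := by nr
    rw [e1, tr_mul_comm, ← h4, ← mul_assoc, Sg_left hS]
  have e0 : (fun s : ℝ => Jc (s • g) S) = fun s : ℝ => Real.sqrt (1 + s • (S * (g * S))).det := by
    funext s
    unfold Jc
    rw [conj_smul]
  have e1 : Jc (t • g) S = Real.sqrt (1 + t • (S * (g * S))).det := by
    unfold Jc
    rw [conj_smul]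
  rw [conj_smul] at h1 h2 hpos
  have hl : HasDerivAt (fun s : ℝ => 1 + s • (S * (g * S))) (S * (g * S)) t :=
    (hasDerivAt_smul (S * (g * S)) t).const_add 1
  have hd : HasFDerivAt (fun A : L k => A.det) (fderiv ℝ (fun A : L k => A.det)
      (1 + t • (S * (g * S)))) (1 + t • (S * (g * S))) :=
    ((contDiff_detL.differentiable (by simp)) _).hasFDerivAt
  have h6 : HasDerivAt (fun s : ℝ => (1 + s • (S * (g * S)) : L k).det)
      ((1 + t • (S * (g * S)) : L k).det * tr (X * (S * (g * S)))) t := by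
    have := hd.comp_hasDerivAt t hl
    rw [fderiv_det h2] at this
    exact this
  have h7 := h6.sqrt hpos.ne'
  rw [e0, e1]
  refine h7.congr_deriv ?_
  rw [htr]
  have hs : Real.sqrt (1 + t • (S * (g * S)) : L k).det ≠ 0 := (Real.sqrt_pos.2 hpos).ne'
  have hs2 : Real.sqrt (1 + t • (S * (g * S)) : L k).det *
      Real.sqrt (1 + t • (S * (g * S)) : L k).det = (1 + t • (S * (g * S)) : L k).det :=
    Real.mul_self_sqrt hpos.le
  rw [div_eq_iff (by positivity)]
  linear_combination (-tr (Sg (t • g) S * g)) * hs2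

theorem ring_id {R : Type*} [Ring R] (a b c d g G : R) :
    (-a * G + b * g) * (c * G) + (b * G) * (-d * G + c * g) =
      -(a * G * (c * G)) + b * g * (c * G) - b * G * (d * G) + b * G * (c * g) := by
  noncomm_ring

theorem hasDerivAt_nt {H S g : L k} (hH : IsStarProjection H) (hS : IsStarProjection S) {t : ℝ}
    (ht : ‖t • g‖ ≤ 1 / 2) : HasDerivAt (fun s : ℝ => nt (s • g) H S)
      (tr (-(Sg (t • g) (1 - H) * g * Sg (t • g) (1 - H) * (1 + t • g) *
          (Sg (t • g) S * (1 + t • g))) +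
        Sg (t • g) (1 - H) * g * (Sg (t • g) S * (1 + t • g)) -
        Sg (t • g) (1 - H) * (1 + t • g) * (Sg (t • g) S * g * Sg (t • g) S * (1 + t • g)) +
        Sg (t • g) (1 - H) * (1 + t • g) * (Sg (t • g) S * g))) t := by
  have hV := hasDerivAt_Sg hH.one_sub ht
  have hS1 := hasDerivAt_Sg hS ht
  have hG : HasDerivAt (fun s : ℝ => (1 : L k) + s • g) g t := (hasDerivAt_smul g t).const_add 1
  have h1 := (hV.clm_comp hG).clm_comp (hS1.clm_comp hG)
  have h2 : HasDerivAt (fun s : ℝ => nt (s • g) H S) _ t := tr.hasFDerivAt.comp_hasDerivAt t h1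
  refine h2.congr_deriv ?_
  refine congrArg tr ?_
  refine Eq.trans ?_ (ring_id (R := L k) (Sg (t • g) (1 - H) * g * Sg (t • g) (1 - H))
    (Sg (t • g) (1 - H)) (Sg (t • g) S) (Sg (t • g) S * g * Sg (t • g) S) g (1 + t • g))
  rfl

/-- derivative of `nt (t • g) H S` -/
def dnt (g H S : L k) (t : ℝ) : ℝ :=
  tr (-(Sg (t • g) (1 - H) * g * Sg (t • g) (1 - H) * (1 + t • g) *
      (Sg (t • g) S * (1 + t • g))) +
    Sg (t • g) (1 - H) * g * (Sg (t • g) S * (1 + t • g)) -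
    Sg (t • g) (1 - H) * (1 + t • g) * (Sg (t • g) S * g * Sg (t • g) S * (1 + t • g)) +
    Sg (t • g) (1 - H) * (1 + t • g) * (Sg (t • g) S * g))

theorem smul_mul' (A B : L k) (r : ℝ) : (r • A) * B = r • (A * B) := rfl

theorem smul_neg' (A : L k) (r : ℝ) : -(r • A) = r • (-A) := by
  ext1 v
  change -(r • A v) = r • (-(A v))
  rw [smul_neg]

theorem nt'_smul (g H S : L k) (t : ℝ) : nt' (t • g) H S = t * dnt g H S t := by
  unfold nt' dnt
  simp only [mul_smul', smul_mul', smul_neg', map_add, map_sub, map_smul, smul_eq_mul]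
  ring

theorem EE_smul (g H S : L k) (t : ℝ) : EE (t • g) H S =
    t * ((tr (Sg (t • g) S * g) - tr (Sg (t • g) H * g)) * (1 - 1 / 2 * nt (t • g) H S) -
      dnt g H S t) := by
  unfold EE
  rw [nt'_smul]
  simp only [mul_smul', map_smul, smul_eq_mul]
  ring

theorem Blk_smul {H g : L k} {θ o t : ℝ} (hb : Blk H g θ o) (ht : 0 ≤ t) :
    Blk H (t • g) (t * θ) (t * o) := by
  have key : ∀ A B : L k, ‖A * (t • g) * B‖ = t * ‖A * g * B‖ := by
    intro A B
    have : A * (t • g) * B = t • (A * g * B) := by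
      rw [mul_smul', smul_mul']
    rw [this, norm_smul, Real.norm_eq_abs, abs_of_nonneg ht]
  refine ⟨?_, ?_, ?_, ?_⟩
  · rw [key]; exact mul_le_mul_of_nonneg_left hb.hh ht
  · rw [key]; exact mul_le_mul_of_nonneg_left hb.vv ht
  · rw [key]; exact mul_le_mul_of_nonneg_left hb.hv ht
  · rw [key]; exact mul_le_mul_of_nonneg_left hb.vh ht

/-- **the comparison of the anomaly densities** -/
theorem exists_anom (m k : ℕ) : ∃ c C : ℝ, 0 < c ∧ c ≤ 1 / 4 ∧ 0 ≤ C ∧
    ∀ (H S g : L k) (θ o : ℝ), H ∈ G m k → S ∈ G m k → ‖g‖ ≤ c → Blk H g θ o → θ ≤ 1 → o ≤ 1 →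
      |Jc g S * (1 - 1 / 2 * nt g H S) - Jc g H * (1 - 1 / 2 * tau H S)| ≤
        C * ((θ + o) * tau H S + o ^ 2) := by
  obtain ⟨c0, -, hc0, hc02, -, hdet, -⟩ := Fm_209.exists_det (Euc k)
  refine ⟨min c0 (1 / 4), 24000 * ((k:ℝ) + 1) ^ 2, lt_min hc0 (by norm_num), min_le_right _ _,
    by positivity, ?_⟩
  intro H S g θ o hH hS hg hb hθ1 ho1
  have hgc : ‖g‖ ≤ c0 := hg.trans (min_le_left _ _)
  have hg4 : ‖g‖ ≤ 1 / 4 := hg.trans (min_le_right _ _)
  have hH' := isStar_of_G hH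
  have hS' := isStar_of_G hS
  have hτ0 := tau_nonneg hH hS
  have hθ0 := hb.θ_nonneg
  have ho0 := hb.o_nonneg
  have hsm : ∀ t ∈ Set.Icc (0:ℝ) 1, ‖t • g‖ ≤ ‖g‖ := by
    intro t ht
    rw [norm_smul, Real.norm_eq_abs, abs_of_nonneg ht.1]
    exact mul_le_of_le_one_left (norm_nonneg _) ht.2
  have hdetS : ∀ t ∈ Set.Icc (0:ℝ) 1, ∀ P : L k, IsStarProjection P →
      1 / 4 ≤ (1 + P * ((t • g) * P)).det ∧ (1 + P * ((t • g) * P)).det ≤ 4 := by
    intro t ht P hP
    exact hdet _ ((norm_conj_le hP).trans ((hsm t ht).trans hgc))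
  have hJl : ∀ t ∈ Set.Icc (0:ℝ) 1, ∀ P : L k, IsStarProjection P → 1 / 2 ≤ Jc (t • g) P := by
    intro t ht P hP
    unfold Jc
    rw [show (1:ℝ) / 2 = Real.sqrt (1 / 4) by
      rw [show (1:ℝ) / 4 = (1 / 2) ^ 2 by norm_num, Real.sqrt_sq (by norm_num)]]
    exact Real.sqrt_le_sqrt (hdetS t ht P hP).1
  have hJu : ∀ t ∈ Set.Icc (0:ℝ) 1, ∀ P : L k, IsStarProjection P → Jc (t • g) P ≤ 2 := by
    intro t ht P hP
    unfold Jc
    rw [show (2:ℝ) = Real.sqrt 4 by
      rw [show (4:ℝ) = 2 ^ 2 by norm_num, Real.sqrt_sq (by norm_num)]]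
    exact Real.sqrt_le_sqrt (hdetS t ht P hP).2
  -- the function
  set f : ℝ → ℝ := fun t => Jc (t • g) S * (1 - 1 / 2 * nt (t • g) H S) / Jc (t • g) H with hf
  set f' : ℝ → ℝ := fun t => Jc (t • g) S / (2 * Jc (t • g) H) *
    ((tr (Sg (t • g) S * g) - tr (Sg (t • g) H * g)) * (1 - 1 / 2 * nt (t • g) H S) -
      dnt g H S t) with hf'
  have hder : ∀ t ∈ Set.Icc (0:ℝ) 1, HasDerivAt f (f' t) t := by
    intro t ht
    have htn : ‖t • g‖ ≤ 1 / 2 := (hsm t ht).trans (by linarith)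
    have a1 := hasDerivAt_Jc hS' htn (by linarith [(hdetS t ht S hS').1])
    have a2 := hasDerivAt_Jc hH' htn (by linarith [(hdetS t ht H hH').1])
    have a3 := hasDerivAt_nt hH' hS' htn
    have hj : Jc (t • g) H ≠ 0 := by linarith [hJl t ht H hH']
    have a4 := (a1.mul ((a3.const_mul (1 / 2)).const_sub 1)).div a2 hj
    refine a4.congr_deriv ?_
    have : tr (-(Sg (t • g) (1 - H) * g * Sg (t • g) (1 - H) * (1 + t • g) *
          (Sg (t • g) S * (1 + t • g))) +
        Sg (t • g) (1 - H) * g * (Sg (t • g) S * (1 + t • g)) -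
        Sg (t • g) (1 - H) * (1 + t • g) * (Sg (t • g) S * g * Sg (t • g) S * (1 + t • g)) +
        Sg (t • g) (1 - H) * (1 + t • g) * (Sg (t • g) S * g)) = dnt g H S t := rfl
    simp only [hf', this, Pi.mul_apply]
    field_simp
    ring
  obtain ⟨t, ht, hts⟩ := exists_hasDerivAt_eq_slope f f' (zero_lt_one (α := ℝ))
    (fun t ht => (hder t ht).continuousAt.continuousWithinAt)
    (fun t ht => hder t ⟨ht.1.le, ht.2.le⟩)
  rw [sub_zero, div_one] at hts
  have htI : t ∈ Set.Icc (0:ℝ) 1 := ⟨ht.1.le, ht.2.le⟩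
  have hE : |EE (t • g) H S| ≤ 6000 * ((k:ℝ) + 1) ^ 2 *
      ((t * θ + t * o) * tau H S + (t * o) ^ 2) :=
    abs_EE_le hH hS ((hsm t htI).trans hg4) (Blk_smul hb ht.1.le)
      (by nlinarith [ht.1, ht.2]) (by nlinarith [ht.1, ht.2])
  rw [EE_smul, abs_mul, abs_of_pos ht.1] at hE
  set D := (tr (Sg (t • g) S * g) - tr (Sg (t • g) H * g)) * (1 - 1 / 2 * nt (t • g) H S) -
      dnt g H S t with hD
  have hDle : |D| ≤ 6000 * ((k:ℝ) + 1) ^ 2 * ((θ + o) * tau H S + o ^ 2) := by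
    have h1 : t * |D| ≤ t * (6000 * ((k:ℝ) + 1) ^ 2 * ((θ + o) * tau H S + o ^ 2)) := by
      refine hE.trans ?_
      have h2 : (t * o) ^ 2 ≤ t * o ^ 2 := by
        have : (t * o) ^ 2 = t * (t * o ^ 2) := by ring
        rw [this]
        refine mul_le_mul_of_nonneg_left ?_ ht.1.le
        exact mul_le_of_le_one_left (sq_nonneg _) ht.2.le
      have h3 : (t * θ + t * o) * tau H S + (t * o) ^ 2 ≤ t * ((θ + o) * tau H S + o ^ 2) := by
        have : (t * θ + t * o) * tau H S = t * ((θ + o) * tau H S) := by ring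
        rw [this]; linarith
      calc 6000 * ((k:ℝ) + 1) ^ 2 * ((t * θ + t * o) * tau H S + (t * o) ^ 2)
          ≤ 6000 * ((k:ℝ) + 1) ^ 2 * (t * ((θ + o) * tau H S + o ^ 2)) :=
            mul_le_mul_of_nonneg_left h3 (by positivity)
        _ = _ := by ring
    exact le_of_mul_le_mul_left h1 ht.1
  have hf'le : |f' t| ≤ 2 * (6000 * ((k:ℝ) + 1) ^ 2 * ((θ + o) * tau H S + o ^ 2)) := by
    have h1 : f' t = Jc (t • g) S / (2 * Jc (t • g) H) * D := rfl
    rw [h1, abs_mul]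
    have h2 := hJl t htI H hH'
    have h3 := hJu t htI S hS'
    have h4 : 0 ≤ Jc (t • g) S := Real.sqrt_nonneg _
    have h5 : |Jc (t • g) S / (2 * Jc (t • g) H)| ≤ 2 := by
      rw [abs_of_nonneg (by positivity), div_le_iff₀ (by linarith)]
      linarith
    exact mul_le_mul h5 hDle (abs_nonneg _) (by norm_num)
  have hone : (1:ℝ) • g = g := by ext v; simp
  have hzero : (0:ℝ) • g = 0 := by ext v; simp
  have h1I : (1:ℝ) ∈ Set.Icc (0:ℝ) 1 := ⟨zero_le_one, le_rfl⟩
  have hj1 : 1 / 2 ≤ Jc g H := by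
    have := hJl 1 h1I H hH'
    rwa [hone] at this
  have hj2 : Jc g H ≤ 2 := by
    have := hJu 1 h1I H hH'
    rwa [hone] at this
  have hf1 : f 1 = Jc g S * (1 - 1 / 2 * nt g H S) / Jc g H := by
    simp only [hf, hone]
  have hJ0 : ∀ P : L k, Jc 0 P = 1 := by
    intro P
    have : (1 + P * ((0 : L k) * P) : L k) = 1 := by
      rw [zero_mul, mul_zero, add_zero]
    unfold Jc
    rw [this, det_oneL, Real.sqrt_one]
  have hSg0 : ∀ P : L k, IsStarProjection P → Sg 0 P = P := by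
    intro P hP
    have : (1 + P * ((0 : L k) * P) : L k) = 1 := by
      rw [zero_mul, mul_zero, add_zero]
    unfold Sg
    rw [this, Ring.inverse_one, one_mul, hP.1.eq]
  have hnt0 : nt 0 H S = tau H S := by
    unfold nt tau
    rw [hSg0 _ hH'.one_sub, hSg0 _ hS', add_zero, mul_one, mul_one]
  have hf0 : f 0 = 1 - 1 / 2 * tau H S := by
    simp only [hf, hzero, hJ0, hnt0]
    ring
  have hfin : Jc g S * (1 - 1 / 2 * nt g H S) - Jc g H * (1 - 1 / 2 * tau H S) =
      Jc g H * (f 1 - f 0) := by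
    rw [hf1, hf0]
    field_simp
  rw [hfin, ← hts, abs_mul, abs_of_nonneg (by linarith)]
  calc Jc g H * |f' t| ≤ 2 * (2 * (6000 * ((k:ℝ) + 1) ^ 2 * ((θ + o) * tau H S + o ^ 2))) :=
        mul_le_mul hj2 hf'le (abs_nonneg _) (by norm_num)
    _ = _ := by ring

theorem Sg_eq_Sig (g S : L k) : Sg g S = Ft_209.Sig g S := rfl

theorem Jc_eq_Jac (g S : L k) : Jc g S = Ft_209.Jac g S := rfl

/-- `nt` is the trace of the product of the projections onto the images of `1 - H` and `S` -/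
theorem tr_prj_prj (A H S : L k) :
    tr (Ft_209.prj A (1 - H) ∘L Ft_209.prj A S) = nt (Ft_209.gam A) H S := by
  have hG : (1 + Ft_209.gam A : L k) = star A * A := by
    rw [Ft_209.gam_eq]
    abel
  unfold nt
  rw [hG, Ft_209.prj_eq, Ft_209.prj_eq, Sg_eq_Sig, Sg_eq_Sig]
  change tr (A * Ft_209.Sig (Ft_209.gam A) (1 - H) * star A *
    (A * Ft_209.Sig (Ft_209.gam A) S * star A)) = _
  have e1 : A * Ft_209.Sig (Ft_209.gam A) (1 - H) * star A *
      (A * Ft_209.Sig (Ft_209.gam A) S * star A) =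
      A * (Ft_209.Sig (Ft_209.gam A) (1 - H) * (star A * A) *
        (Ft_209.Sig (Ft_209.gam A) S * star A)) := by nr
  rw [e1, tr_mul_comm]
  congr 1

/-- the tilt of 870 -/
theorem tau_eq_tl (π : Euc k →L[ℝ] Euc m) {S : L k} (hS : S ∈ G m k) :
    tau (ContinuousLinearMap.adjoint π ∘L π) S = Ar_870.tl π S := by
  unfold tau Ar_870.tl
  rw [sub_mul, one_mul, map_sub, hS.2.2]
  congr 1
  have h : ((ContinuousLinearMap.adjoint π ∘L π : L k) * S) =
      ContinuousLinearMap.adjoint π ∘L (π ∘L S) := rfl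
  rw [h]
  exact Fm_209.trc_comp_comm (E := Euc k) (F := Euc m) (ContinuousLinearMap.adjoint π) (π ∘L S)

end Crest.Agent.R234.Fn_209
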