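import Mathlib
import Crest.Agent.R234.Vit1_534

/-!
Row 234 (helper309), VF-FOLD part 1: abstract covering of the set where the covering number is too big.
-/

set_option autoImplicit false

open Set Filter Topology MeasureTheory Metric
open scoped ENNReal NNReal

namespace Crest.Agent.R234.Fold_309

variable {X : Type*} [PseudoMetricSpace X] [MeasurableSpace X] [OpensMeasurableSpace X]

omit [OpensMeasurableSpace X] in
/-- near-largest bad radius -/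
theorem exists_rad (e : Measure X) (x : X) (R0 c : ℝ) (m : ℕ)
    (hbad : ∃ r, 0 < r ∧ r ≤ R0 ∧ ENNReal.ofReal (c * r ^ m) ≤ e (closedBall x r)) :
    ∃ ρ, 0 < ρ ∧ ρ ≤ R0 ∧ ENNReal.ofReal (c * ρ ^ m) ≤ e (closedBall x ρ) ∧
      ∀ r, 2 * ρ ≤ r → r ≤ R0 → e (closedBall x r) < ENNReal.ofReal (c * r ^ m) := by
  set T : Set ℝ := {r | 0 < r ∧ r ≤ R0 ∧ ENNReal.ofReal (c * r ^ m) ≤ e (closedBall x r)} with hT
  have hne : T.Nonempty := hbad
  have hbdd : BddAbove T := ⟨R0, fun r hr => hr.2.1⟩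
  have hpos : 0 < sSup T := by
    obtain ⟨r, hr⟩ := hne
    exact lt_of_lt_of_le hr.1 (le_csSup hbdd hr)
  obtain ⟨ρ, hρ, hρ2⟩ := exists_lt_of_lt_csSup hne (by linarith : sSup T / 2 < sSup T)
  refine ⟨ρ, hρ.1, hρ.2.1, hρ.2.2, fun r hr hr0 => ?_⟩
  by_contra hcon
  have : r ∈ T := ⟨by linarith [hρ.1], hr0, not_lt.1 hcon⟩
  have := le_csSup hbdd this
  linarith

/-- abstract fold covering -/
theorem fold_cover (e M : Measure X) (A B : Set X) (R0 c C1 : ℝ) (m : ℕ) (hc : 0 < c)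
    (hbad : ∀ x ∈ A, ∃ r, 0 < r ∧ r ≤ R0 ∧ ENNReal.ofReal (c * r ^ m) ≤ e (closedBall x r))
    (hcyl : ∀ x ∈ A, ∀ ρ, 0 < ρ → ρ ≤ R0 →
      (∀ r, 2 * ρ ≤ r → r ≤ R0 → e (closedBall x r) < ENNReal.ofReal (c * r ^ m)) →
      M (closedBall x (5 * ρ)) ≤ ENNReal.ofReal (C1 * ρ ^ m))
    (hB : ∀ x ∈ A, closedBall x R0 ⊆ B) (hfin : e B ≠ ∞) :
    ∃ (u : Set X) (ρ : X → ℝ), u ⊆ A ∧ u.Countable ∧
      u.PairwiseDisjoint (fun x => closedBall x (ρ x)) ∧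
      (A ⊆ ⋃ x ∈ u, closedBall x (5 * ρ x)) ∧
      (∀ x ∈ u, 0 < ρ x ∧ ρ x ≤ R0 ∧ ENNReal.ofReal (c * ρ x ^ m) ≤ e (closedBall x (ρ x)) ∧
        M (closedBall x (5 * ρ x)) ≤ ENNReal.ofReal (C1 * ρ x ^ m)) ∧
      ∑' x : u, ENNReal.ofReal (c * ρ x ^ m) ≤ e B := by
  choose! ρ hρ0 hρR hρe hρg using fun x (hx : x ∈ A) => exists_rad e x R0 c m (hbad x hx)
  obtain ⟨u, hu, hd, hcov, hsum⟩ := Vit_534.content e A B ρ R0 hρR (fun x hx => (hρ0 x hx).le)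
    (fun x => ENNReal.ofReal (c * ρ x ^ m)) hρe
    (fun x hx => (closedBall_subset_closedBall (hρR x hx)).trans (hB x hx))
  refine ⟨u, ρ, hu, ?_, hd, hcov, fun x hx => ⟨hρ0 x (hu hx), hρR x (hu hx), hρe x (hu hx),
    hcyl x (hu hx) _ (hρ0 x (hu hx)) (hρR x (hu hx)) (hρg x (hu hx))⟩, hsum⟩
  refine Vit_534.countable_of e u B ρ hd
    (fun x hx => (closedBall_subset_closedBall (hρR x (hu hx))).trans (hB x (hu hx))) hfin
    fun x hx h0 => ?_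
  have h1 := hρe x (hu hx)
  rw [h0] at h1
  have h2 : 0 < c * ρ x ^ m := mul_pos hc (pow_pos (hρ0 x (hu hx)) m)
  have h3 := ENNReal.ofReal_pos.2 h2
  exact absurd (le_antisymm h1 (zero_le)) h3.ne'

/-- abstract fold bound -/
theorem fold_bound (e M : Measure X) (A B : Set X) (R0 c C1 : ℝ) (m : ℕ) (hc : 0 < c)
    (hC1 : 0 ≤ C1)
    (hbad : ∀ x ∈ A, ∃ r, 0 < r ∧ r ≤ R0 ∧ ENNReal.ofReal (c * r ^ m) ≤ e (closedBall x r))
    (hcyl : ∀ x ∈ A, ∀ ρ, 0 < ρ → ρ ≤ R0 →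
      (∀ r, 2 * ρ ≤ r → r ≤ R0 → e (closedBall x r) < ENNReal.ofReal (c * r ^ m)) →
      M (closedBall x (5 * ρ)) ≤ ENNReal.ofReal (C1 * ρ ^ m))
    (hB : ∀ x ∈ A, closedBall x R0 ⊆ B) (hfin : e B ≠ ∞) :
    M A ≤ ENNReal.ofReal (C1 / c) * e B := by
  obtain ⟨u, ρ, hu, hcount, hd, hcov, hprop, hsum⟩ :=
    fold_cover e M A B R0 c C1 m hc hbad hcyl hB hfin
  have : Countable u := hcount.to_subtype
  calc M A ≤ M (⋃ x ∈ u, closedBall x (5 * ρ x)) := measure_mono hcov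
    _ ≤ ∑' x : u, M (closedBall (x : X) (5 * ρ x)) := measure_biUnion_le M hcount _
    _ ≤ ∑' x : u, ENNReal.ofReal (C1 / c) * ENNReal.ofReal (c * ρ x ^ m) := by
        refine ENNReal.tsum_le_tsum fun x => ?_
        refine ((hprop x x.2).2.2.2).trans (le_of_eq ?_)
        rw [← ENNReal.ofReal_mul (by positivity)]
        congr 1
        field_simp
    _ = ENNReal.ofReal (C1 / c) * ∑' x : u, ENNReal.ofReal (c * ρ x ^ m) :=
        ENNReal.tsum_mul_left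
    _ ≤ _ := by gcongr

end Crest.Agent.R234.Fold_309
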