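import Crest.Agent.R234.Grot9_842
import Crest.Agent.R234.Gi1_456

/-!
# Row 234, node F3-FOOT (helper842): foot points in the adapted (rotated, zoomed) chart

`pt` = point of the graph over `X`. `pt_rot`: same surface in the rotated frame; `foot_rot`: the foot
point of `z` is the same point of the surface in both charts; `foot_zoom`: the same for the zoomed
globally small graph of `Grot9_842`.
-/

set_option autoImplicit false
set_option linter.unusedSectionVars false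

open Set Metric Filter Topology
open scoped ContDiff NNReal RealInnerProductSpace
open Crest.GeometryTopology.Submanifold

noncomputable section

namespace Crest.Agent.R234.Foot_842

open Crest.Agent.R234.Ell1_3 Crest.Agent.R234.Main_456 Crest.Agent.R234.Grot_842
open Crest.Agent.R234.Gi_456 (Gr tube IsFoot foot yy)

local notation "adj" => ContinuousLinearMap.adjoint

variable {m n k : ℕ}

/-- `w` seen from the point over `X0` -/
def shf (w : Euc m → Euc n) (X0 : Euc m) : Euc m → Euc n := fun a => w (X0 + a) - w X0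

theorem shf_zero (w : Euc m → Euc n) (X0 : Euc m) : shf w X0 0 = 0 := by simp [shf]

theorem shf_contDiff {w : Euc m → Euc n} (hw : ContDiff ℝ ∞ w) (X0 : Euc m) :
    ContDiff ℝ ∞ (shf w X0) := (hw.comp (contDiff_const.add contDiff_id)).sub contDiff_const

theorem fderiv_shf (w : Euc m → Euc n) (X0 a : Euc m) :
    fderiv ℝ (shf w X0) a = fderiv ℝ w (X0 + a) := by
  unfold shf
  rw [fderiv_sub_const, fderiv_comp_add_left]

theorem iter_shf (w : Euc m → Euc n) (X0 a : Euc m) {j : ℕ} (hj : 1 ≤ j) :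
    ‖iteratedFDeriv ℝ j (shf w X0) a‖ = ‖iteratedFDeriv ℝ j w (X0 + a)‖ := by
  obtain ⟨i, rfl⟩ : ∃ i, j = i + 1 := ⟨j - 1, by omega⟩
  rw [← norm_iteratedFDeriv_fderiv, ← norm_iteratedFDeriv_fderiv]
  have e : fderiv ℝ (shf w X0) = fun a => fderiv ℝ w (X0 + a) := funext (fderiv_shf w X0)
  rw [e, iteratedFDeriv_comp_add_left]

theorem Msys_shf (w : Euc m → Euc n) (X0 a : Euc m) : Msys (shf w X0) a = Msys w (X0 + a) := by
  unfold Msys
  have e : fderiv ℝ (shf w X0) = fun a => fderiv ℝ w (X0 + a) := funext (fderiv_shf w X0)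
  rw [e]
  have e2 : fderiv ℝ (fun a => fderiv ℝ w (X0 + a)) a = fderiv ℝ (fderiv ℝ w) (X0 + a) :=
    fderiv_comp_add_left (f := fderiv ℝ w) X0
  rw [e2]

/-- the point of the graph over `X` -/
def pt (π : Euc k →L[ℝ] Euc m) (ρ : Euc k →L[ℝ] Euc n) (x : Euc k) (w : Euc m → Euc n)
    (X : Euc m) : Euc k := x + adj π X + adj ρ (w X)

/-- change of the base coordinate -/
def chg (q : Euc m →L[ℝ] Euc n) (H : Euc m →L[ℝ] Euc m) (v : Euc m → Euc n) (a : Euc m) : Euc m :=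
  H (a + adj q (v a))

variable {π : Euc k →L[ℝ] Euc m} {ρ : Euc k →L[ℝ] Euc n} {x : Euc k} {w w' : Euc m → Euc n}
  {X0 : Euc m} {q : Euc m →L[ℝ] Euc n} {H : Euc m →L[ℝ] Euc m} {H' : Euc n →L[ℝ] Euc n}
  {K : ℕ} {C κ : ℝ}

theorem π_pt_sub (hf : Frame π ρ) (X Y : Euc m) : π (pt π ρ x w X - pt π ρ x w Y) = X - Y := by
  unfold pt
  simp only [map_sub, map_add, fr_ππ hf, fr_πρ hf]; abel

theorem ρ_pt_sub (hf : Frame π ρ) (X Y : Euc m) :
    ρ (pt π ρ x w X - pt π ρ x w Y) = w X - w Y := by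
  unfold pt
  simp only [map_sub, map_add, fr_ρρ hf, fr_ρπ hf]; abel

theorem rπ_pt_sub (hf : Frame π ρ) (X : Euc m) :
    rπ π ρ q H (pt π ρ x w X - pt π ρ x w X0) = chg q H (shf w X0) (X - X0) := by
  rw [rπ_apply, π_pt_sub hf, ρ_pt_sub hf, chg, shf, add_sub_cancel]

theorem rρ_pt_sub (hf : Frame π ρ) (X : Euc m) :
    rρ π ρ q H' (pt π ρ x w X - pt π ρ x w X0) = H' (shf w X0 (X - X0) - q (X - X0)) := by
  rw [rρ_apply, π_pt_sub hf, ρ_pt_sub hf, shf, add_sub_cancel]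

/-- **same surface** -/
theorem pt_rot (hf : Frame π ρ) (h : Rot q H H' K C κ (shf w X0) w') {X : Euc m}
    (hX : ‖X - X0‖ ≤ 15 / 16) :
    pt (rπ π ρ q H) (rρ π ρ q H') (pt π ρ x w X0) w' (chg q H (shf w X0) (X - X0)) =
      pt π ρ x w X := by
  have hg := h.graph (X - X0) (mem_closedBall_zero_iff.2 hX)
  have hfr := h.frame hf
  have h1 := fr_full hfr (pt π ρ x w X - pt π ρ x w X0)
  rw [rπ_pt_sub hf, rρ_pt_sub hf] at h1
  have e : pt (rπ π ρ q H) (rρ π ρ q H') (pt π ρ x w X0) w' (chg q H (shf w X0) (X - X0)) =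
      pt π ρ x w X0 + (adj (rπ π ρ q H) (chg q H (shf w X0) (X - X0)) +
        adj (rρ π ρ q H') (w' (chg q H (shf w X0) (X - X0)))) := by
    rw [pt]; abel
  rw [e]
  have e2 : w' (chg q H (shf w X0) (X - X0)) = H' (shf w X0 (X - X0) - q (X - X0)) := hg
  rw [e2, h1]; abel

theorem fr_inner (hf : Frame π ρ) (a b : Euc k) : ⟪π a, π b⟫ + ⟪ρ a, ρ b⟫ = ⟪a, b⟫ := by
  have h := congrArg (fun w => ⟪w, b⟫) (fr_full hf a)
  simp only [inner_add_left, ContinuousLinearMap.adjoint_inner_left] at h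
  exact h

/-- the derivative of the change of base coordinate -/
def dchg (q : Euc m →L[ℝ] Euc n) (H : Euc m →L[ℝ] Euc m) (p : Euc m →L[ℝ] Euc n) :
    Euc m →L[ℝ] Euc m := H ∘L (ContinuousLinearMap.id ℝ (Euc m) + adj q ∘L p)

theorem dchg_apply (p : Euc m →L[ℝ] Euc n) (y : Euc m) : dchg q H p y = H (y + adj q (p y)) := rfl

theorem hasFDerivAt_chg {v : Euc m → Euc n} {a : Euc m} (hv : DifferentiableAt ℝ v a) :
    HasFDerivAt (chg q H v) (dchg q H (fderiv ℝ v a)) a :=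
  H.hasFDerivAt.comp a ((hasFDerivAt_id a).add ((adj q).hasFDerivAt.comp a hv.hasFDerivAt))

theorem Rot.dw' {v : Euc m → Euc n} (h : Rot q H H' K C κ v w') {a : Euc m} (ha : ‖a‖ < 15 / 16)
    (hv : DifferentiableAt ℝ v a) (y : Euc m) :
    fderiv ℝ w' (chg q H v a) (dchg q H (fderiv ℝ v a) y) = H' (fderiv ℝ v a y - q y) := by
  have h4 : HasFDerivAt (fun x => w' (chg q H v x)) ((fderiv ℝ w' (chg q H v a)) ∘L
      (dchg q H (fderiv ℝ v a))) a :=
    ((h.smooth.differentiable (by simp)) _).hasFDerivAt.comp a (hasFDerivAt_chg hv)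
  have h5 : HasFDerivAt (fun x => H' (v x - q x)) (H' ∘L (fderiv ℝ v a - q)) a :=
    H'.hasFDerivAt.comp a (hv.hasFDerivAt.sub q.hasFDerivAt)
  have h6 : HasFDerivAt (fun x => w' (chg q H v x)) (H' ∘L (fderiv ℝ v a - q)) a := by
    refine h5.congr_of_eventuallyEq ?_
    filter_upwards [isOpen_ball.mem_nhds (mem_ball_zero_iff.2 ha)] with x hx
    exact h.graph x (ball_subset_closedBall hx)
  have h8 := congrArg (fun T : Euc m →L[ℝ] Euc n => T y) (h4.unique h6)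
  simpa using h8

theorem dchg_surj (hR : Rt q H H') (p : Euc m →L[ℝ] Euc n) (D : Euc m →L[ℝ] Euc n)
    (hD : ∀ y, D (dchg q H p y) = H' (p y - q y)) : Function.Surjective (dchg q H p) := by
  have hinj : Function.Injective (dchg q H p) := by
    rw [injective_iff_map_eq_zero]
    intro y hy
    have h1 := hR.isom y y (p y) (p y)
    rw [← dchg_apply, ← hD y, hy, map_zero, inner_zero_left, inner_zero_left] at h1
    have h2 : (0:ℝ) ≤ ⟪p y, p y⟫ := real_inner_self_nonneg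
    have h3 : (0:ℝ) ≤ ⟪y, y⟫ := real_inner_self_nonneg
    exact inner_self_eq_zero.1 (by linarith : ⟪y, y⟫ = (0:ℝ))
  exact (LinearMap.injective_iff_surjective (f := (dchg q H p : Euc m →ₗ[ℝ] Euc m))).1 hinj

/-- **normal vectors are normal in both charts** -/
theorem normal_rot (hf : Frame π ρ) (h : Rot q H H' K C κ (shf w X0) w') {X : Euc m}
    (hX : ‖X - X0‖ < 15 / 16) (hw : DifferentiableAt ℝ w X) {ν : Euc k}
    (hν : π ν + adj (fderiv ℝ w X) (ρ ν) = 0) :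
    rπ π ρ q H ν + adj (fderiv ℝ w' (chg q H (shf w X0) (X - X0))) (rρ π ρ q H' ν) = 0 := by
  set a := X - X0 with ha
  have hv : fderiv ℝ (shf w X0) a = fderiv ℝ w X := by rw [fderiv_shf, ha, add_sub_cancel]
  have hvd : DifferentiableAt ℝ (shf w X0) a := by
    have h1 : DifferentiableAt ℝ (fun a => w (X0 + a)) a := by
      have h2 : DifferentiableAt ℝ w (X0 + a) := by rwa [ha, add_sub_cancel]
      exact h2.comp a ((differentiableAt_const _).add differentiableAt_id)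
    exact h1.sub_const _
  set D := fderiv ℝ w' (chg q H (shf w X0) a) with hD
  have hD2 : ∀ y, D (dchg q H (fderiv ℝ w X) y) = H' (fderiv ℝ w X y - q y) := by
    intro y
    have := Rot.dw' h hX hvd y
    rwa [hv] at this
  have hsurj := dchg_surj h.rt (fderiv ℝ w X) D hD2
  refine ext_inner_right ℝ fun Y => ?_
  obtain ⟨y, rfl⟩ := hsurj Y
  rw [inner_zero_left, inner_add_left, ContinuousLinearMap.adjoint_inner_left, hD2]
  -- τ y
  set τ : Euc k := adj π y + adj ρ (fderiv ℝ w X y) with hτ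
  have e3 : π τ = y := by rw [hτ, map_add, fr_ππ hf, fr_πρ hf, add_zero]
  have e4 : ρ τ = fderiv ℝ w X y := by rw [hτ, map_add, fr_ρπ hf, fr_ρρ hf, zero_add]
  have e1 : dchg q H (fderiv ℝ w X) y = rπ π ρ q H τ := by
    rw [rπ_apply, e3, e4, dchg_apply]
  have e2 : H' (fderiv ℝ w X y - q y) = rρ π ρ q H' τ := by
    rw [rρ_apply, e3, e4]
  rw [e1, e2, fr_inner (h.frame hf), ← fr_inner hf]
  rw [e3, e4]
  have h5 := congrArg (fun w => ⟪w, y⟫) hν
  simpa [inner_add_left, ContinuousLinearMap.adjoint_inner_left] using h5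

/-- the normal vector of a foot point -/
theorem foot_normal (hf : Frame π ρ) {r : ℝ} {z : Euc k} {X : Euc m}
    (h : IsFoot π ρ x r w z X) :
    π (z - pt π ρ x w X) + adj (fderiv ℝ w X) (ρ (z - pt π ρ x w X)) = 0 ∧
      ρ (z - pt π ρ x w X) = ρ (z - x) - w X ∧ π (z - pt π ρ x w X) = π (z - x) - X := by
  have e1 : π (z - pt π ρ x w X) = π (z - x) - X := by
    unfold pt
    simp only [map_sub, map_add, fr_ππ hf, fr_πρ hf]; abel
  have e2 : ρ (z - pt π ρ x w X) = ρ (z - x) - w X := by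
    unfold pt
    simp only [map_sub, map_add, fr_ρρ hf, fr_ρπ hf]; abel
  refine ⟨?_, e2, e1⟩
  rw [e1, e2]
  have h2 : adj (fderiv ℝ w X) (ρ (z - x) - w X) = X - π (z - x) :=
    eq_sub_of_add_eq' h.1.symm
  rw [h2]; abel

theorem isFoot_of_normal (hf : Frame π ρ) {r : ℝ} {z : Euc k} {X : Euc m}
    (h : π (z - pt π ρ x w X) + adj (fderiv ℝ w X) (ρ (z - pt π ρ x w X)) = 0)
    (hr : ‖ρ (z - pt π ρ x w X)‖ ≤ 2 * r) : IsFoot π ρ x r w z X := by
  have e1 : π (z - pt π ρ x w X) = π (z - x) - X := by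
    unfold pt
    simp only [map_sub, map_add, fr_ππ hf, fr_πρ hf]; abel
  have e2 : ρ (z - pt π ρ x w X) = ρ (z - x) - w X := by
    unfold pt
    simp only [map_sub, map_add, fr_ρρ hf, fr_ρπ hf]; abel
  rw [e2] at hr h
  rw [e1] at h
  refine ⟨?_, hr⟩
  have h3 : adj (fderiv ℝ w X) (ρ (z - x) - w X) = X - π (z - x) := by
    have := eq_neg_of_add_eq_zero_right h
    rw [this]; abel
  rw [h3]; abel

/-- **the foot point in the rotated chart** -/
theorem isFoot_rot (hf : Frame π ρ) (h : Rot q H H' K C κ (shf w X0) w') {r : ℝ} {z : Euc k}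
    {X : Euc m} (hX : ‖X - X0‖ < 15 / 16) (hw : DifferentiableAt ℝ w X)
    (hz : IsFoot π ρ x r w z X) {r' : ℝ} (hr' : ‖z - pt π ρ x w X‖ ≤ 2 * r') :
    IsFoot (rπ π ρ q H) (rρ π ρ q H') (pt π ρ x w X0) r' w' z
      (chg q H (shf w X0) (X - X0)) := by
  have hn := (foot_normal hf hz).1
  have h1 := normal_rot hf h hX hw hn
  have hp := pt_rot (x := x) hf h hX.le
  refine isFoot_of_normal (h.frame hf) ?_ ?_
  · rw [hp]; exact h1
  · rw [hp]
    exact (fr_norm_ρ (h.frame hf) _).trans hr'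

/-- length of the normal vector -/
theorem norm_normal_le (hf : Frame π ρ) {r : ℝ} {z : Euc k} {X : Euc m}
    (hz : IsFoot π ρ x r w z X) (hw : ‖fderiv ℝ w X‖ ≤ 1 / 8) :
    ‖z - pt π ρ x w X‖ ≤ 9 / 8 * ‖ρ (z - x) - w X‖ := by
  obtain ⟨h1, h2, h3⟩ := foot_normal hf hz
  have h4 : ‖π (z - pt π ρ x w X)‖ ≤ 1 / 8 * ‖ρ (z - pt π ρ x w X)‖ := by
    rw [eq_neg_of_add_eq_zero_left h1, norm_neg]
    refine (ContinuousLinearMap.le_opNorm _ _).trans ?_
    rw [LinearIsometryEquiv.norm_map]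
    gcongr
  rw [← h2]
  refine (sq_le_sq₀ (norm_nonneg _) (by positivity)).1 ?_
  rw [← fr_norm_sq hf]
  have h5 : ‖π (z - pt π ρ x w X)‖ ^ 2 ≤ (1 / 8 * ‖ρ (z - pt π ρ x w X)‖) ^ 2 := by gcongr
  nlinarith [sq_nonneg ‖ρ (z - pt π ρ x w X)‖]

/-- foot of the scaled graph -/
theorem isFoot_zoom {π : Euc k →L[ℝ] Euc m} {ρ : Euc k →L[ℝ] Euc n}
    {z0 z : Euc k} {U : Euc m → Euc n} {X : Euc m} {r t : ℝ} (ht : 0 < t)
    (hU : ∀ᶠ y in 𝓝 (t⁻¹ • X), U y = t⁻¹ • w (t • y))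
    (hz : IsFoot π ρ z0 r w z X) {r' : ℝ} (hr' : ‖ρ (z - z0) - w X‖ ≤ 2 * (t * r')) :
    IsFoot π ρ 0 r' U (t⁻¹ • (z - z0)) (t⁻¹ • X) ∧
      pt π ρ 0 U (t⁻¹ • X) = t⁻¹ • (pt π ρ z0 w X - z0) := by
  have hUX : U (t⁻¹ • X) = t⁻¹ • w X := by
    have := hU.self_of_nhds
    rwa [smul_smul, mul_inv_cancel₀ ht.ne', one_smul] at this
  have hDU : fderiv ℝ U (t⁻¹ • X) = fderiv ℝ w X := by
    have h1 : fderiv ℝ U (t⁻¹ • X) = fderiv ℝ (sc t w) (t⁻¹ • X) :=
      Filter.EventuallyEq.fderiv_eq (hU.mono fun y hy => hy)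
    rw [h1, fderiv_sc ht.ne', smul_smul, mul_inv_cancel₀ ht.ne', one_smul]
  have e : ρ (t⁻¹ • (z - z0) - 0) - U (t⁻¹ • X) = t⁻¹ • (ρ (z - z0) - w X) := by
    rw [sub_zero, hUX, map_smul, smul_sub]
  refine ⟨⟨?_, ?_⟩, ?_⟩
  · rw [hDU, e, map_smul, sub_zero, map_smul, ← smul_add]
    rw [← hz.1]
  · rw [e, norm_smul, norm_inv, Real.norm_of_nonneg ht.le, inv_mul_le_iff₀ ht]
    linarith
  · unfold pt
    rw [hUX]
    simp only [map_smul, zero_add, smul_sub, smul_add]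
    abel

end Crest.Agent.R234.Foot_842
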