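import Crest.Agent.R234.Ar5_870
import Crest.Agent.R234.Fm1_209

/-!
# Row 234, VF-FERMI, part (T) transport of a varifold by a diffeomorphism, file 1 (helper209)

Algebra: for a projection `S` and an invertible `T`, the orthogonal projection `prj T S` onto
`T (range S)`, the Jacobian `Jac (gam T) S` of `T` on `range S` and the operator `Sig (gam T) S`
(`gam T = T† T - 1`); `prj T S = T ∘ Sig ∘ T†`.
-/

set_option autoImplicit false

open Function Set MeasureTheory
open scoped InnerProductSpace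

noncomputable section

namespace Crest.Agent.R234.Ft_209

open Crest.Agent.R234.Fm_209

section General

variable {E : Type*} [NormedAddCommGroup E] [InnerProductSpace ℝ E] [CompleteSpace E]

/-- the Jacobian on the plane `S` of a metric `1 + g` -/
def Jac (g S : E →L[ℝ] E) : ℝ := Real.sqrt (1 + S ∘L g ∘L S).det

/-- the inverse metric on the plane `S` -/
def Sig (g S : E →L[ℝ] E) : E →L[ℝ] E := S ∘L Ring.inverse (1 + S ∘L g ∘L S) ∘L S

/-- deviation of the pulled back metric from the identity -/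
def gam (T : E →L[ℝ] E) : E →L[ℝ] E := ContinuousLinearMap.adjoint T ∘L T - 1

/-- the orthogonal projection onto the image by `T` of the plane `P` -/
def prj (T P : E →L[ℝ] E) : E →L[ℝ] E := T ∘L Sig (gam T) P ∘L ContinuousLinearMap.adjoint T

/-- orthogonal projections -/
structure IsPj (S : E →L[ℝ] E) : Prop where
  mul : S * S = S
  star : star S = S

omit [CompleteSpace E] in
theorem hat_eq (g S : E →L[ℝ] E) : S ∘L g ∘L S = S * g * S := by
  rw [mul_assoc]; rfl

omit [CompleteSpace E] in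
theorem Jac_eq (g S : E →L[ℝ] E) : Jac g S = Real.sqrt (1 + S * g * S).det := by
  rw [Jac, hat_eq]

omit [CompleteSpace E] in
theorem Sig_eq (g S : E →L[ℝ] E) : Sig g S = S * Ring.inverse (1 + S * g * S) * S := by
  rw [Sig, hat_eq, mul_assoc]; rfl

theorem gam_eq (T : E →L[ℝ] E) : gam T = star T * T - 1 := rfl

theorem prj_eq (T P : E →L[ℝ] E) : prj T P = T * Sig (gam T) P * star T := by
  rw [mul_assoc]; rfl

omit [CompleteSpace E] in
theorem Jac_nonneg (g S : E →L[ℝ] E) : 0 ≤ Jac g S := Real.sqrt_nonneg _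

theorem star_gam (T : E →L[ℝ] E) : star (gam T) = gam T := by
  rw [gam_eq, star_sub, star_mul, star_star, star_one]

theorem inner_star (A : E →L[ℝ] E) (x y : E) : ⟪(star A) x, y⟫_ℝ = ⟪x, A y⟫_ℝ :=
  ContinuousLinearMap.adjoint_inner_left A y x

theorem IsPj.inner {S : E →L[ℝ] E} (hS : IsPj S) (x y : E) : ⟪S x, y⟫_ℝ = ⟪x, S y⟫_ℝ := by
  conv_lhs => rw [← hS.star]
  exact inner_star S x y

theorem IsPj.app {S : E →L[ℝ] E} (hS : IsPj S) (x : E) : S (S x) = S x :=
  congrArg (fun A : E →L[ℝ] E => A x) hS.mul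

/-- positivity of `1 + S γ S` -/
theorem hat_inner {S : E →L[ℝ] E} (hS : IsPj S) (T : E →L[ℝ] E) (v : E) :
    ⟪(1 + S * gam T * S) v, v⟫_ℝ = ‖v - S v‖ ^ 2 + ‖T (S v)‖ ^ 2 := by
  have h1 : (1 + S * gam T * S) v = v + S ((star T) (T (S v)) - S v) := rfl
  rw [h1, inner_add_left, hS.inner, inner_sub_left, inner_star,
    real_inner_self_eq_norm_sq, real_inner_self_eq_norm_sq, real_inner_self_eq_norm_sq,
    norm_sub_sq_real]
  have h4 : ⟪v, S v⟫_ℝ = ‖S v‖ ^ 2 := by
    rw [← real_inner_self_eq_norm_sq, hS.inner, hS.app]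
  rw [h4]
  ring

theorem hat_pos {S T : E →L[ℝ] E} (hS : IsPj S) (hT : Injective T) {v : E} (hv : v ≠ 0) :
    0 < ⟪(1 + S * gam T * S) v, v⟫_ℝ := by
  rw [hat_inner hS]
  by_contra hcon
  have h1 : ‖v - S v‖ ^ 2 = 0 := by nlinarith [sq_nonneg ‖v - S v‖, sq_nonneg ‖T (S v)‖]
  have h2 : ‖T (S v)‖ ^ 2 = 0 := by nlinarith [sq_nonneg ‖v - S v‖, sq_nonneg ‖T (S v)‖]
  have h3 : T (S v) = 0 := by simpa using h2
  have h4 : S v = 0 := hT (by rw [h3, map_zero])
  rw [h4, sub_zero] at h1
  exact hv (by simpa using h1)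

variable [FiniteDimensional ℝ E]

omit [CompleteSpace E] in
/-- an operator with positive quadratic form has positive determinant -/
theorem det_pos_of {A : E →L[ℝ] E} (hA : ∀ v : E, v ≠ 0 → 0 < ⟪A v, v⟫_ℝ) : 0 < A.det := by
  have hne : ∀ t ∈ Set.Icc (0:ℝ) 1, (1 + t • (A - 1) : E →L[ℝ] E).det ≠ 0 := by
    intro t ht h0
    obtain ⟨v, hv, hv0⟩ : ∃ v : E, (1 + t • (A - 1) : E →L[ℝ] E) v = 0 ∧ v ≠ 0 := by
      have h1 : ⊥ < LinearMap.ker ((1 + t • (A - 1) : E →L[ℝ] E) : E →ₗ[ℝ] E) :=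
        LinearMap.bot_lt_ker_of_det_eq_zero h0
      obtain ⟨v, hv, hv0⟩ := (Submodule.ne_bot_iff _).1 h1.ne'
      exact ⟨v, hv, hv0⟩
    have h2 : ⟪(1 + t • (A - 1) : E →L[ℝ] E) v, v⟫_ℝ = (1 - t) * ‖v‖ ^ 2 + t * ⟪A v, v⟫_ℝ := by
      have : (1 + t • (A - 1) : E →L[ℝ] E) v = v + t • (A v - v) := rfl
      rw [this, inner_add_left, inner_smul_left, inner_sub_left, real_inner_self_eq_norm_sq]
      simp only [conj_trivial]
      ring
    rw [hv, inner_zero_left] at h2
    have h3 := hA v hv0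
    have h4 : 0 < ‖v‖ ^ 2 := by positivity
    rcases eq_or_lt_of_le ht.1 with h5 | h5
    · rw [← h5] at h2; linarith
    · nlinarith [mul_pos h5 h3, mul_nonneg (sub_nonneg.2 ht.2) h4.le]
  have hc : Continuous fun t : ℝ => (1 + t • (A - 1) : E →L[ℝ] E).det :=
    continuous_det.comp (continuous_const.add (continuous_id.smul continuous_const))
  by_contra hcon
  push Not at hcon
  have h1 : (1 + (1:ℝ) • (A - 1) : E →L[ℝ] E) = A := by rw [one_smul]; abel
  have h0 : (1 + (0:ℝ) • (A - 1) : E →L[ℝ] E) = 1 := by rw [zero_smul, add_zero]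
  have h2 : (0:ℝ) ∈ Set.Icc ((1 + (1:ℝ) • (A - 1) : E →L[ℝ] E).det)
      ((1 + (0:ℝ) • (A - 1) : E →L[ℝ] E).det) := by
    rw [h1, h0, det_one]
    exact ⟨hcon, zero_le_one⟩
  obtain ⟨t, ht, ht0⟩ := intermediate_value_Icc' (zero_le_one (α := ℝ)) hc.continuousOn h2
  exact hne t ht ht0

omit [CompleteSpace E] in
theorem isUnit_of_det {A : E →L[ℝ] E} (h : A.det ≠ 0) : IsUnit A := by
  let e : E ≃ₗ[ℝ] E := LinearMap.equivOfDetNeZero (A : E →ₗ[ℝ] E) h
  let B : E →L[ℝ] E := LinearMap.toContinuousLinearMap (e.symm : E →ₗ[ℝ] E)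
  refine ⟨⟨A, B, ?_, ?_⟩, rfl⟩
  · ext1 v
    exact e.apply_symm_apply v
  · ext1 v
    exact e.symm_apply_apply v

theorem det_hat_pos {S T : E →L[ℝ] E} (hS : IsPj S) (hT : Injective T) :
    0 < (1 + S * gam T * S).det :=
  det_pos_of fun _ hv => hat_pos hS hT hv

theorem Jac_pos {S T : E →L[ℝ] E} (hS : IsPj S) (hT : Injective T) : 0 < Jac (gam T) S := by
  rw [Jac_eq]
  exact Real.sqrt_pos.2 (det_hat_pos hS hT)

theorem isUnit_hat {S T : E →L[ℝ] E} (hS : IsPj S) (hT : Injective T) :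
    IsUnit (1 + S * gam T * S) := isUnit_of_det (det_hat_pos hS hT).ne'

/-! ### algebra of `Sig` -/

omit [FiniteDimensional ℝ E] in
theorem hat_mul {S T : E →L[ℝ] E} (hS : IsPj S) :
    (1 + S * gam T * S) * S = S * (star T * T) * S := by
  rw [add_mul, one_mul, mul_assoc (S * gam T), hS.mul, gam_eq, mul_sub, mul_one, sub_mul, hS.mul]
  abel

omit [FiniteDimensional ℝ E] in
theorem mul_hat {S T : E →L[ℝ] E} (hS : IsPj S) :
    S * (1 + S * gam T * S) = S * (star T * T) * S := by
  rw [mul_add, mul_one, mul_assoc S (gam T), ← mul_assoc S S, hS.mul, gam_eq, sub_mul, mul_sub,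
    one_mul, hS.mul, mul_assoc]
  abel

theorem inv_comm {S T : E →L[ℝ] E} (hS : IsPj S) (hT : Injective T) :
    Ring.inverse (1 + S * gam T * S) * S = S * Ring.inverse (1 + S * gam T * S) := by
  set H := 1 + S * gam T * S with hH
  have hu : IsUnit H := isUnit_hat hS hT
  have h1 : H * S = S * H := by rw [hH, hat_mul hS, mul_hat hS]
  calc Ring.inverse H * S = Ring.inverse H * S * (H * Ring.inverse H) := by
        rw [Ring.mul_inverse_cancel H hu, mul_one]
    _ = Ring.inverse H * (S * H) * Ring.inverse H := by simp only [mul_assoc]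
    _ = Ring.inverse H * (H * S) * Ring.inverse H := by rw [h1]
    _ = (Ring.inverse H * H) * (S * Ring.inverse H) := by simp only [mul_assoc]
    _ = _ := by rw [Ring.inverse_mul_cancel H hu, one_mul]

theorem Sig_eq' {S T : E →L[ℝ] E} (hS : IsPj S) (hT : Injective T) :
    Sig (gam T) S = Ring.inverse (1 + S * gam T * S) * S := by
  rw [Sig_eq, ← inv_comm hS hT, mul_assoc, hS.mul]

theorem Sig_eq'' {S T : E →L[ℝ] E} (hS : IsPj S) (hT : Injective T) :
    Sig (gam T) S = S * Ring.inverse (1 + S * gam T * S) := by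
  rw [Sig_eq' hS hT, inv_comm hS hT]

theorem Sig_mul {S T : E →L[ℝ] E} (hS : IsPj S) (hT : Injective T) :
    Sig (gam T) S * (star T * T) * S = S := by
  rw [Sig_eq' hS hT, mul_assoc, mul_assoc, ← mul_assoc S, ← hat_mul hS, ← mul_assoc,
    Ring.inverse_mul_cancel _ (isUnit_hat hS hT), one_mul]

theorem mul_Sig {S T : E →L[ℝ] E} (hS : IsPj S) (hT : Injective T) :
    S * (star T * T) * Sig (gam T) S = S := by
  rw [Sig_eq'' hS hT, ← mul_assoc, ← mul_hat hS, mul_assoc,
    Ring.mul_inverse_cancel _ (isUnit_hat hS hT), mul_one]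

omit [FiniteDimensional ℝ E] in
theorem S_Sig {S : E →L[ℝ] E} (g : E →L[ℝ] E) (hS : IsPj S) : S * Sig g S = Sig g S := by
  rw [Sig_eq, ← mul_assoc, ← mul_assoc, hS.mul]

omit [FiniteDimensional ℝ E] in
theorem Sig_S {S : E →L[ℝ] E} (g : E →L[ℝ] E) (hS : IsPj S) : Sig g S * S = Sig g S := by
  rw [Sig_eq, mul_assoc, hS.mul]

theorem Sig_G_Sig {S T : E →L[ℝ] E} (hS : IsPj S) (hT : Injective T) :
    Sig (gam T) S * (star T * T) * Sig (gam T) S = Sig (gam T) S := by
  calc Sig (gam T) S * (star T * T) * Sig (gam T) S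
      = Sig (gam T) S * (star T * T) * (S * Sig (gam T) S) := by rw [S_Sig _ hS]
    _ = (Sig (gam T) S * (star T * T) * S) * Sig (gam T) S := by simp only [mul_assoc]
    _ = _ := by rw [Sig_mul hS hT, S_Sig _ hS]

omit [FiniteDimensional ℝ E] in
theorem star_inverse {A : E →L[ℝ] E} (hA : IsUnit A) :
    star (Ring.inverse A) = Ring.inverse (star A) := by
  have h1 : IsUnit (star A) := hA.star
  calc star (Ring.inverse A) = star (Ring.inverse A) * (star A * Ring.inverse (star A)) := by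
        rw [Ring.mul_inverse_cancel _ h1, mul_one]
    _ = star (A * Ring.inverse A) * Ring.inverse (star A) := by rw [star_mul, mul_assoc]
    _ = _ := by rw [Ring.mul_inverse_cancel _ hA, star_one, one_mul]

theorem star_Sig {S T : E →L[ℝ] E} (hS : IsPj S) (hT : Injective T) :
    star (Sig (gam T) S) = Sig (gam T) S := by
  have h1 : star (1 + S * gam T * S) = 1 + S * gam T * S := by
    rw [star_add, star_one, star_mul, star_mul, hS.star, star_gam, mul_assoc]
  rw [Sig_eq, star_mul, star_mul, star_inverse (isUnit_hat hS hT), h1, hS.star]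
  exact (mul_assoc _ _ _).symm

theorem isPj_prj {S T : E →L[ℝ] E} (hS : IsPj S) (hT : Injective T) : IsPj (prj T S) where
  mul := by
    rw [prj_eq]
    calc T * Sig (gam T) S * star T * (T * Sig (gam T) S * star T)
        = T * (Sig (gam T) S * (star T * T) * Sig (gam T) S) * star T := by
          simp only [mul_assoc]
      _ = _ := by rw [Sig_G_Sig hS hT]
  star := by
    rw [prj_eq, star_mul, star_mul, star_star, star_Sig hS hT, mul_assoc]

theorem prj_mul {S T : E →L[ℝ] E} (hS : IsPj S) (hT : Injective T) :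
    prj T S * (T * S) = T * S := by
  rw [prj_eq]
  calc T * Sig (gam T) S * star T * (T * S)
      = T * (Sig (gam T) S * (star T * T) * S) := by simp only [mul_assoc]
    _ = _ := by rw [Sig_mul hS hT]

theorem trc_prj {S T : E →L[ℝ] E} (hS : IsPj S) (hT : Injective T) :
    trc E (prj T S) = trc E S := by
  have h1 : prj T S = (T * Sig (gam T) S) ∘L star T := rfl
  rw [h1, trc_comp_comm]
  have h2 : star T ∘L (T * Sig (gam T) S) = (star T * T) ∘L Sig (gam T) S := rfl
  rw [h2, ← S_Sig _ hS]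
  have h3 : (star T * T) ∘L (S * Sig (gam T) S) = (star T * T * S) ∘L Sig (gam T) S := rfl
  rw [h3, trc_comp_comm]
  have h4 : Sig (gam T) S ∘L (star T * T * S) = Sig (gam T) S * (star T * T) * S := by
    rw [mul_assoc (Sig (gam T) S)]; rfl
  rw [h4, Sig_mul hS hT]

/-- a projection is determined by its trace and the vectors it fixes -/
theorem eq_of_mul {P Q : E →L[ℝ] E} (hP : IsPj P) (hQ : IsPj Q) (h : P * Q = Q)
    (ht : trc E P = trc E Q) : P = Q := by
  have h1 : Q * P = Q := by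
    have := congrArg star h
    rwa [star_mul, hP.star, hQ.star] at this
  have h2 : star (P - Q) * (P - Q) = P - Q := by
    rw [star_sub, hP.star, hQ.star, mul_sub, sub_mul, sub_mul, hP.mul, hQ.mul, h, h1]
    abel
  have h3 : trc E (star (P - Q) * (P - Q)) = 0 := by rw [h2, map_sub, ht, sub_self]
  set b := stdOrthonormalBasis ℝ E
  have h4 : trc E (star (P - Q) * (P - Q)) = ∑ i, ‖(P - Q) (b i)‖ ^ 2 := by
    rw [trc_apply, LinearMap.trace_eq_sum_inner _ b]
    refine Finset.sum_congr rfl fun i _ => ?_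
    have h5 : ⟪b i, (star (P - Q)) ((P - Q) (b i))⟫_ℝ = ‖(P - Q) (b i)‖ ^ 2 := by
      rw [real_inner_comm, inner_star, real_inner_self_eq_norm_sq]
    exact h5
  have h6 : ∀ i, (P - Q) (b i) = 0 := by
    intro i
    have h7 := (Finset.sum_eq_zero_iff_of_nonneg (fun i _ => sq_nonneg ‖(P - Q) (b i)‖)).1
      (h4.symm.trans h3) i (Finset.mem_univ i)
    simpa using h7
  have h8 : P - Q = 0 := by
    have h9 : ((P - Q : E →L[ℝ] E) : E →ₗ[ℝ] E) = 0 := b.toBasis.ext fun i => by
      simpa using h6 i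
    ext1 v
    exact congrArg (fun A : E →ₗ[ℝ] E => A v) h9
  exact sub_eq_zero.1 h8

omit [CompleteSpace E] [FiniteDimensional ℝ E] in
theorem inj_of_mul {T T' : E →L[ℝ] E} (h1 : T' * T = 1) : Injective T := fun x y h => by
  have e1 : T' (T x) = x := congrArg (fun A : E →L[ℝ] E => A x) h1
  have e2 : T' (T y) = y := congrArg (fun A : E →L[ℝ] E => A y) h1
  rw [← e1, ← e2, h]

/-- transport and back -/
theorem prj_prj {S T T' : E →L[ℝ] E} (hS : IsPj S) (h1 : T' * T = 1) (h2 : T * T' = 1) :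
    prj T' (prj T S) = S := by
  have hT : Injective T := inj_of_mul h1
  have hT' : Injective T' := inj_of_mul h2
  have hP := isPj_prj hS hT
  have hR := isPj_prj hP hT'
  refine eq_of_mul hR hS ?_ ?_
  · set R := prj T' (prj T S) with hRd
    have h3 : R * (T' * prj T S) = T' * prj T S := prj_mul hP hT'
    have h4 : T' * prj T S = Sig (gam T) S * star T := by
      rw [prj_eq, mul_assoc, ← mul_assoc, h1, one_mul]
    rw [h4] at h3
    have h5 : R * Sig (gam T) S = Sig (gam T) S := by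
      have h6 : star T * star T' = 1 := by rw [← star_mul, h1, star_one]
      have h7 := congrArg (fun A => A * star T') h3
      simp only [mul_assoc, h6, mul_one] at h7
      exact h7
    have h8 := congrArg (fun A => A * ((star T * T) * S)) h5
    rw [mul_assoc, ← mul_assoc (Sig (gam T) S), Sig_mul hS hT] at h8
    exact h8
  · rw [trc_prj hP hT', trc_prj hS hT]

end General

end Crest.Agent.R234.Ft_209
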