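import Crest.Agent.R234.Ft1_209

/-!
# Row 234, VF-FERMI, part (T) transport of a varifold by a diffeomorphism, file 2 (helper209)

Tangent planes and Jacobians of a composed chart; the pointwise identity of the first variation.
-/

set_option autoImplicit false

open Function Set MeasureTheory Crest.GeometryTopology.Submanifold
open scoped InnerProductSpace

noncomputable section

namespace Crest.Agent.R234.Ft_209

open Crest.Agent.R234.Fm_209 Crest.Agent.R234.Vf_884 Crest.Agent.R234.Ar_870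

variable {m k : ℕ}

theorem tr_eq_trc (A : L k) : tr A = trc (Euc k) A := rfl

theorem isPj_of_G {P : L k} (h : P ∈ G m k) : IsPj P := ⟨h.1, h.2.1⟩

theorem mem_G_iff {P : L k} : P ∈ G m k ↔ IsPj P ∧ trc (Euc k) P = m :=
  ⟨fun h => ⟨isPj_of_G h, h.2.2⟩, fun h => ⟨h.1.mul, h.1.star, h.2⟩⟩

theorem prj_mem_G {P T : L k} (h : P ∈ G m k) (hT : Injective T) : prj T P ∈ G m k :=
  mem_G_iff.2 ⟨isPj_prj (isPj_of_G h) hT, by rw [trc_prj (isPj_of_G h) hT]; exact h.2.2⟩

theorem G_eq_of_mul {P Q : L k} (hP : P ∈ G m k) (hQ : Q ∈ G m k) (h : P * Q = Q) : P = Q :=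
  eq_of_mul (isPj_of_G hP) (isPj_of_G hQ) h
    ((mem_G_iff.1 hP).2.trans (mem_G_iff.1 hQ).2.symm)

theorem prj_prj_G {P T T' : L k} (h : P ∈ G m k) (h1 : T' * T = 1) (h2 : T * T' = 1) :
    prj T' (prj T P) = P := prj_prj (isPj_of_G h) h1 h2

section Chart

variable {f : Euc m → Euc k} {a : Euc m} {Φ : Euc k → Euc k}

theorem projF_comp_fderiv (f : Euc m → Euc k) (a : Euc m) (v : Euc m) :
    projF f a (fderiv ℝ f a v) = fderiv ℝ f a v :=
  congrArg (fun A : Euc m →L[ℝ] Euc k => A v) (tp_comp f a)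

theorem projF_mem_range (f : Euc m → Euc k) (a : Euc m) (v : Euc k) :
    ∃ w, fderiv ℝ f a w = projF f a v := by
  obtain ⟨w, hw⟩ := tp_mem f a v
  exact ⟨w, hw⟩

/-- the tangent plane of the composed chart -/
theorem projF_comp (hf : DifferentiableAt ℝ f a) (hΦ : DifferentiableAt ℝ Φ (f a))
    (hinj : Injective (fderiv ℝ f a)) (hT : Injective (fderiv ℝ Φ (f a))) :
    projF (Φ ∘ f) a = prj (fderiv ℝ Φ (f a)) (projF f a) := by
  have hd : fderiv ℝ (Φ ∘ f) a = (fderiv ℝ Φ (f a)) ∘L (fderiv ℝ f a) := fderiv_comp a hΦ hf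
  have hinj' : Injective (fderiv ℝ (Φ ∘ f) a) := by
    rw [hd]
    exact hT.comp hinj
  symm
  refine G_eq_of_mul (prj_mem_G (projF_mem_G hinj) hT) (projF_mem_G hinj') ?_
  ext1 v
  obtain ⟨w, hw⟩ := projF_mem_range (Φ ∘ f) a v
  have h1 : prj (fderiv ℝ Φ (f a)) (projF f a) (fderiv ℝ Φ (f a) (projF f a (fderiv ℝ f a w))) =
      fderiv ℝ Φ (f a) (projF f a (fderiv ℝ f a w)) :=
    congrArg (fun A : L k => A (fderiv ℝ f a w)) (prj_mul (isPj_of_G (projF_mem_G hinj)) hT)
  rw [projF_comp_fderiv] at h1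
  change prj (fderiv ℝ Φ (f a)) (projF f a) (projF (Φ ∘ f) a v) = projF (Φ ∘ f) a v
  rw [← hw, hd]
  exact h1

theorem exists_left (hinj : Injective (fderiv ℝ f a)) :
    ∃ B : Euc k →L[ℝ] Euc m, fderiv ℝ f a ∘L B = projF f a ∧
      B ∘L fderiv ℝ f a = ContinuousLinearMap.id ℝ (Euc m) := by
  choose w hw using projF_mem_range f a
  let B₀ : Euc k →ₗ[ℝ] Euc m :=
    { toFun := w
      map_add' := fun x y => hinj (by rw [map_add, hw, hw, hw, map_add])
      map_smul' := fun c x => hinj (by rw [RingHom.id_apply, map_smul, hw, hw, map_smul]) }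
  refine ⟨LinearMap.toContinuousLinearMap B₀, ?_, ?_⟩
  · ext1 v
    exact hw v
  · ext1 v
    refine hinj ?_
    exact (hw (fderiv ℝ f a v)).trans (projF_comp_fderiv f a v)

theorem det_mul (A B : Euc m →L[ℝ] Euc m) : (A ∘L B).det = A.det * B.det :=
  LinearMap.det_comp _ _

/-- the Jacobian of the composed chart -/
theorem jac_comp (hf : DifferentiableAt ℝ f a) (hΦ : DifferentiableAt ℝ Φ (f a))
    (hinj : Injective (fderiv ℝ f a)) :
    jac (Φ ∘ f) a = jac f a * Jac (gam (fderiv ℝ Φ (f a))) (projF f a) := by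
  set B := fderiv ℝ f a with hB
  set T := fderiv ℝ Φ (f a) with hT
  have hd : fderiv ℝ (Φ ∘ f) a = T ∘L B := fderiv_comp a hΦ hf
  obtain ⟨C, hC1, hC2⟩ := exists_left hinj
  rw [← hB] at hC1 hC2
  set S := projF f a with hS
  have hSB : S ∘L B = B := tp_comp f a
  have hSa : ContinuousLinearMap.adjoint S = S := adjoint_tp f a
  have hBS : ContinuousLinearMap.adjoint B ∘L S = ContinuousLinearMap.adjoint B := by
    have := congrArg ContinuousLinearMap.adjoint hSB
    rwa [ContinuousLinearMap.adjoint_comp, hSa] at this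
  have h1 : (1 + S * gam T * S).det =
      (C ∘L (ContinuousLinearMap.adjoint T ∘L T) ∘L B).det := by
    have e1 : S * gam T * S = B ∘L (C ∘L (gam T * S)) := by
      have : B ∘L (C ∘L (gam T * S)) = (B ∘L C) ∘L (gam T * S) := rfl
      rw [this, hC1]
      exact mul_assoc _ _ _
    rw [e1, det_one_add_comm]
    congr 1
    have e2 : (C ∘L (gam T * S)) ∘L B = C ∘L gam T ∘L (S ∘L B) := rfl
    rw [e2, hSB]
    have e3 : C ∘L gam T ∘L B = C ∘L (ContinuousLinearMap.adjoint T ∘L T) ∘L B - C ∘L B := by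
      ext1 v
      change C (ContinuousLinearMap.adjoint T (T (B v)) - B v) = _
      rw [map_sub]
      rfl
    rw [e3, hC2]
    exact add_sub_cancel _ _
  have h2 : (ContinuousLinearMap.adjoint B ∘L B).det *
      (C ∘L (ContinuousLinearMap.adjoint T ∘L T) ∘L B).det =
      (ContinuousLinearMap.adjoint (T ∘L B) ∘L (T ∘L B)).det := by
    rw [← det_mul]
    congr 1
    have e1 : (ContinuousLinearMap.adjoint B ∘L B) ∘L
        (C ∘L (ContinuousLinearMap.adjoint T ∘L T) ∘L B) =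
        (ContinuousLinearMap.adjoint B ∘L (B ∘L C)) ∘L
          ((ContinuousLinearMap.adjoint T ∘L T) ∘L B) := rfl
    rw [e1, hC1, hBS, ContinuousLinearMap.adjoint_comp]
    rfl
  have h3 : 0 ≤ jac f a := Real.sqrt_nonneg _
  have h4 : 0 ≤ jac (Φ ∘ f) a := Real.sqrt_nonneg _
  have h5 : jac (Φ ∘ f) a ^ 2 = jac f a ^ 2 * (1 + S * gam T * S).det := by
    rw [jac_sq, jac_sq, hd, h1, h2]
  rw [Jac_eq, ← Real.sqrt_sq h4, h5, Real.sqrt_mul (sq_nonneg _), Real.sqrt_sq h3]

end Chart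

end Crest.Agent.R234.Ft_209
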