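import Crest.Agent.R234.Ft2_209

/-!
# Row 234, VF-FERMI, part (T) transport of a varifold by a diffeomorphism, file 3 (helper209)

Global `C²` diffeomorphisms `Dif k`, the metric `T.Gm`, the pointwise identity of the first
variation `tr_pt`.
-/

set_option autoImplicit false

open Function Set MeasureTheory Crest.GeometryTopology.Submanifold
open scoped InnerProductSpace ENNReal

noncomputable section

namespace Crest.Agent.R234.Ft_209

open Crest.Agent.R234.Fm_209 Crest.Agent.R234.Vf_884 Crest.Agent.R234.Ar_870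

section General

variable {E : Type*} [NormedAddCommGroup E] [InnerProductSpace ℝ E] [CompleteSpace E]
  [FiniteDimensional ℝ E]

theorem trc_star (A : E →L[ℝ] E) : trc E (star A) = trc E A := by
  set b := stdOrthonormalBasis ℝ E
  rw [trc_apply, trc_apply, LinearMap.trace_eq_sum_inner _ b, LinearMap.trace_eq_sum_inner _ b]
  refine Finset.sum_congr rfl fun i _ => ?_
  change ⟪b i, (star A) (b i)⟫_ℝ = ⟪b i, A (b i)⟫_ℝ
  rw [real_inner_comm, inner_star]

omit [CompleteSpace E] in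
theorem trc_mul_comm (A B : E →L[ℝ] E) : trc E (A * B) = trc E (B * A) := trc_comp_comm A B

/-- symmetrisation of the derivative of the metric -/
theorem trc_sym {S A B : E →L[ℝ] E} (hS : star S = S) :
    trc E (S * (star A * B)) = 1 / 2 * trc E (S * (star B * A + star A * B)) := by
  have h1 : trc E (S * (star B * A)) = trc E (S * (star A * B)) := by
    rw [← trc_star (S * (star B * A)), star_mul, star_mul, star_star, hS, trc_mul_comm]
  rw [mul_add, map_add, h1]
  ring

end General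

/-- global `C²` diffeomorphisms of `ℝ^k` -/
structure Dif (k : ℕ) where
  Φ : Euc k → Euc k
  Ψ : Euc k → Euc k
  cΦ : ContDiff ℝ 2 Φ
  cΨ : ContDiff ℝ 2 Ψ
  left : ∀ z, Ψ (Φ z) = z
  right : ∀ q, Φ (Ψ q) = q

namespace Dif

variable {m k : ℕ} (T : Dif k)

/-- the inverse diffeomorphism -/
def symm : Dif k := ⟨T.Ψ, T.Φ, T.cΨ, T.cΦ, T.right, T.left⟩

/-- the derivative of the chart -/
def A (z : Euc k) : L k := fderiv ℝ T.Φ z

/-- the derivative of the inverse -/
def B (q : Euc k) : L k := fderiv ℝ T.Ψ q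

/-- the pulled back metric -/
def Gm (z : Euc k) : L k := ContinuousLinearMap.adjoint (T.A z) ∘L T.A z

/-- deviation of the metric from the identity -/
def gm (z : Euc k) : L k := gam (T.A z)

theorem dΦ : Differentiable ℝ T.Φ := T.cΦ.differentiable two_ne_zero

theorem dΨ : Differentiable ℝ T.Ψ := T.cΨ.differentiable two_ne_zero

theorem injΨ : Injective T.Ψ := fun x y h => by rw [← T.right x, h, T.right]

theorem injΦ : Injective T.Φ := fun x y h => by rw [← T.left x, h, T.left]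

theorem contA : ContDiff ℝ 1 T.A := T.cΦ.fderiv_right le_rfl

theorem contB : ContDiff ℝ 1 T.B := T.cΨ.fderiv_right le_rfl

theorem BA (z : Euc k) : T.B (T.Φ z) * T.A z = 1 := by
  have h1 : T.Ψ ∘ T.Φ = id := funext T.left
  have h2 : fderiv ℝ (T.Ψ ∘ T.Φ) z = T.B (T.Φ z) ∘L T.A z :=
    fderiv_comp z (T.dΨ _) (T.dΦ _)
  rw [h1, fderiv_id] at h2
  exact h2.symm

theorem AB (q : Euc k) : T.A (T.Ψ q) * T.B q = 1 := T.symm.BA q

theorem AB' (z : Euc k) : T.A z * T.B (T.Φ z) = 1 := by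
  have := T.AB (T.Φ z)
  rwa [T.left] at this

theorem BA' (q : Euc k) : T.B q * T.A (T.Ψ q) = 1 := T.symm.AB' q

theorem injA (z : Euc k) : Injective (T.A z) := inj_of_mul (T.BA z)

theorem injB (q : Euc k) : Injective (T.B q) := inj_of_mul (T.AB q)

theorem gm_eq (z : Euc k) : T.gm z = T.Gm z - 1 := rfl

/-- the transported vector field -/
def fld (ζ : Euc k → Euc k) (q : Euc k) : Euc k := T.A (T.Ψ q) (ζ (T.Ψ q))

theorem contDiff_fld {ζ : Euc k → Euc k} (hζ : ContDiff ℝ 1 ζ) : ContDiff ℝ 1 (T.fld ζ) :=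
  (T.contA.comp (T.cΨ.of_le one_le_two)).clm_apply (hζ.comp (T.cΨ.of_le one_le_two))

theorem continuousΨ : Continuous T.Ψ := T.cΨ.continuous

theorem continuousΦ : Continuous T.Φ := T.cΦ.continuous

/-- the homeomorphism -/
def homeo : Euc k ≃ₜ Euc k where
  toFun := T.Φ
  invFun := T.Ψ
  left_inv := T.left
  right_inv := T.right
  continuous_toFun := T.continuousΦ
  continuous_invFun := T.continuousΨ

theorem image_eq (s : Set (Euc k)) : T.Φ '' s = T.Ψ ⁻¹' s := by
  ext q
  constructor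
  · rintro ⟨z, hz, rfl⟩
    rw [mem_preimage, T.left]
    exact hz
  · intro h
    exact ⟨T.Ψ q, h, T.right q⟩

theorem tsupport_fld (ζ : Euc k → Euc k) : tsupport (T.fld ζ) ⊆ T.Φ '' tsupport ζ := by
  rw [T.image_eq]
  refine closure_minimal ?_ ((isClosed_tsupport ζ).preimage T.continuousΨ)
  intro q hq
  refine subset_tsupport ζ ?_
  rw [mem_support] at hq ⊢
  intro h
  exact hq (by simp [fld, h])

theorem hasCompactSupport_fld {ζ : Euc k → Euc k} (hζ : HasCompactSupport ζ) :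
    HasCompactSupport (T.fld ζ) :=
  HasCompactSupport.of_support_subset_isCompact (hζ.isCompact.image T.continuousΦ)
    ((subset_tsupport _).trans (T.tsupport_fld ζ))

theorem fderiv_fld {ζ : Euc k → Euc k} (hζ : ContDiff ℝ 1 ζ) (z : Euc k) :
    fderiv ℝ (T.fld ζ) (T.Φ z) =
      (fderiv ℝ T.A z (ζ z) + T.A z ∘L fderiv ℝ ζ z) ∘L T.B (T.Φ z) := by
  have h1 : T.fld ζ ∘ T.Φ = fun z => T.A z (ζ z) := by
    funext w
    simp only [comp_apply, fld, T.left]
  have hAd : DifferentiableAt ℝ T.A z := (T.contA.differentiable one_ne_zero) z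
  have hζd : DifferentiableAt ℝ ζ z := (hζ.differentiable one_ne_zero) z
  have h2 : fderiv ℝ (T.fld ζ ∘ T.Φ) z = fderiv ℝ (T.fld ζ) (T.Φ z) ∘L T.A z :=
    fderiv_comp z ((T.contDiff_fld hζ).differentiable one_ne_zero _) (T.dΦ _)
  have h3 : fderiv ℝ (fun z => T.A z (ζ z)) z =
      (T.A z).comp (fderiv ℝ ζ z) + (fderiv ℝ T.A z).flip (ζ z) := fderiv_clm_apply hAd hζd
  have hsym : (fderiv ℝ T.A z).flip (ζ z) = fderiv ℝ T.A z (ζ z) := by
    ext1 v
    have h5 : IsSymmSndFDerivAt ℝ T.Φ z :=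
      (T.cΦ.contDiffAt).isSymmSndFDerivAt (by simp)
    exact h5.eq v (ζ z)
  rw [h1, h3, hsym] at h2
  have h4 : fderiv ℝ (T.fld ζ) (T.Φ z) =
      (fderiv ℝ (T.fld ζ) (T.Φ z) ∘L T.A z) ∘L T.B (T.Φ z) := by
    have : (fderiv ℝ (T.fld ζ) (T.Φ z) ∘L T.A z) ∘L T.B (T.Φ z) =
      fderiv ℝ (T.fld ζ) (T.Φ z) ∘L (T.A z * T.B (T.Φ z)) := rfl
    rw [this, T.AB' z]
    rfl
  rw [h4, ← h2, add_comm]

/-- derivative of the metric -/
theorem fderiv_Gm (z v : Euc k) :
    fderiv ℝ T.Gm z v = star (fderiv ℝ T.A z v) * T.A z + star (T.A z) * fderiv ℝ T.A z v := by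
  have hAd : HasFDerivAt T.A (fderiv ℝ T.A z) z := ((T.contA.differentiable one_ne_zero) z).hasFDerivAt
  have hst : HasFDerivAt (fun z => ContinuousLinearMap.adjoint (T.A z))
      ((ContinuousLinearMap.adjoint (𝕜 := ℝ) (E := Euc k) (F := Euc k)).toContinuousLinearEquiv.toContinuousLinearMap ∘L
        fderiv ℝ T.A z) z :=
    ((ContinuousLinearMap.adjoint (𝕜 := ℝ) (E := Euc k) (F := Euc k)).toContinuousLinearEquiv.toContinuousLinearMap).hasFDerivAt.comp z hAd
  have h := (hst.clm_comp hAd).fderiv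
  have h2 : fderiv ℝ T.Gm z = _ := h
  rw [h2]
  ext1 w
  change _ = (star (fderiv ℝ T.A z v)) (T.A z w) + (star (T.A z)) (fderiv ℝ T.A z v w)
  exact add_comm ((star (T.A z)) (fderiv ℝ T.A z v w)) ((star (fderiv ℝ T.A z v)) (T.A z w))

/-- the pointwise identity: first variation of the transported field -/
theorem tr_pt {ζ : Euc k → Euc k} (hζ : ContDiff ℝ 1 ζ) (z : Euc k) {S : L k} (hS : S ∈ G m k) :
    tr (fderiv ℝ (T.fld ζ) (T.Φ z) ∘L prj (T.A z) S) =
      tr (Sig (T.gm z) S ∘L (T.Gm z ∘L fderiv ℝ ζ z + (1 / 2 : ℝ) • fderiv ℝ T.Gm z (ζ z))) := by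
  have hP := isPj_of_G hS
  set A := T.A z with hA
  set dA := fderiv ℝ T.A z (ζ z) with hdA
  set dζ := fderiv ℝ ζ z with hdζ
  set B := T.B (T.Φ z) with hB
  set Sg := Sig (gam A) S with hSg
  have hSs : star Sg = Sg := star_Sig hP (T.injA z)
  rw [T.fderiv_fld hζ z, T.fderiv_Gm z (ζ z), ← hA, ← hdA, ← hdζ, ← hB]
  have e1 : ((dA + A ∘L dζ) ∘L B) ∘L prj A S = ((dA + A * dζ) * Sg) * star A := by
    rw [prj_eq]
    change (dA + A * dζ) * B * (A * Sg * star A) = _
    have : B * A = 1 := T.BA z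
    calc (dA + A * dζ) * B * (A * Sg * star A) = (dA + A * dζ) * (B * A) * Sg * star A := by
          simp only [mul_assoc]
      _ = _ := by rw [this, mul_one]
  have e2 : tr (((dA + A ∘L dζ) ∘L B) ∘L prj A S) =
      trc (Euc k) (Sg * (star A * dA)) + trc (Euc k) (Sg * (star A * A * dζ)) := by
    rw [e1, tr_eq_trc, trc_mul_comm, ← map_add, ← trc_mul_comm, mul_assoc, ← trc_mul_comm]
    congr 1
    simp only [mul_add, mul_assoc]
  rw [e2, trc_sym hSs, tr_eq_trc]
  have e3 : Sig (T.gm z) S ∘L (T.Gm z ∘L dζ + (1 / 2 : ℝ) • (star dA * A + star A * dA)) =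
      Sg * (star A * A * dζ) + (1 / 2 : ℝ) • (Sg * (star dA * A + star A * dA)) := by
    change Sg * (star A * A * dζ + (1 / 2 : ℝ) • (star dA * A + star A * dA)) = _
    rw [mul_add, mul_smul_comm]
  rw [e3, map_add, map_smul, smul_eq_mul]
  ring

end Dif

end Crest.Agent.R234.Ft_209
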