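import Crest.Agent.R234.Ft3_209

/-!
# Row 234, VF-FERMI, part (T) transport of a varifold by a diffeomorphism, file 4 (helper209)

The transported varifold `T.push V`, its integrals and the first variation identity.
-/

set_option autoImplicit false

open Function Set MeasureTheory Crest.GeometryTopology.Submanifold
open scoped InnerProductSpace ENNReal

noncomputable section

namespace Crest.Agent.R234.Ft_209

open Crest.Agent.R234.Fm_209 Crest.Agent.R234.Vf_884 Crest.Agent.R234.Ar_870

variable {m k : ℕ}

theorem measurable_inverse : Measurable (Ring.inverse : L k → L k) := by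
  classical
  have h1 : IsOpen {x : L k | IsUnit x} := Units.isOpen
  have h2 : ContinuousOn (Ring.inverse : L k → L k) {x : L k | IsUnit x} := by
    rintro x ⟨u, rfl⟩
    exact (NormedRing.inverse_continuousAt u).continuousWithinAt
  have h3 := h2.measurable_piecewise (g := fun _ => (0 : L k)) continuousOn_const h1.measurableSet
  have h4 : (Ring.inverse : L k → L k) =
      Set.piecewise {x : L k | IsUnit x} Ring.inverse (fun _ => (0 : L k)) := by
    funext x
    by_cases hx : IsUnit x
    · exact (Set.piecewise_eq_of_mem {x : L k | IsUnit x} _ _ hx).symm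
    · exact (Ring.inverse_non_unit x hx).trans
        (Set.piecewise_eq_of_notMem {x : L k | IsUnit x} Ring.inverse (fun _ => (0 : L k)) hx).symm
  rw [h4]
  exact h3

theorem measurable_comp {α : Type*} [MeasurableSpace α] {f g : α → L k} (hf : Measurable f)
    (hg : Measurable g) : Measurable fun a => f a ∘L g a := by
  have h : Continuous fun p : L k × L k => p.1 ∘L p.2 :=
    continuous_fst.clm_comp continuous_snd
  exact h.measurable.comp (hf.prodMk hg)

theorem continuous_adjoint : Continuous fun A : L k => ContinuousLinearMap.adjoint A :=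
  (ContinuousLinearMap.adjoint (𝕜 := ℝ) (E := Euc k) (F := Euc k)).continuous

theorem continuous_gam : Continuous (gam : L k → L k) :=
  (continuous_adjoint.clm_comp continuous_id).sub continuous_const

theorem measurable_Sig {α : Type*} [MeasurableSpace α] {f g : α → L k} (hf : Measurable f)
    (hg : Measurable g) : Measurable fun a => Sig (f a) (g a) := by
  have h1 : Measurable fun a => (1 : L k) + g a ∘L f a ∘L g a :=
    (measurable_comp hg (measurable_comp hf hg)).const_add 1
  exact measurable_comp hg (measurable_comp (measurable_inverse.comp h1) hg)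

theorem continuous_Jac : Continuous fun p : L k × L k => Jac p.1 p.2 :=
  (continuous_det.comp (continuous_const.add
    (continuous_snd.clm_comp (continuous_fst.clm_comp continuous_snd)))).sqrt

theorem measurable_prj {α : Type*} [MeasurableSpace α] {f g : α → L k} (hf : Measurable f)
    (hg : Measurable g) : Measurable fun a => prj (f a) (g a) :=
  measurable_comp hf (measurable_comp (measurable_Sig (continuous_gam.measurable.comp hf) hg)
    (continuous_adjoint.measurable.comp hf))

namespace Dif

variable (T : Dif k)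

/-- point and plane in the chart -/
def pm (p : Euc k × L k) : Euc k × L k := (T.Ψ p.1, prj (T.B p.1) p.2)

/-- the Jacobian of the chart on the plane -/
def J (p : Euc k × L k) : ℝ := Jac (T.gm p.1) p.2

/-- the transported varifold -/
def push (V : Measure (Euc k × L k)) : Measure (Euc k × L k) :=
  (V.withDensity fun p => ENNReal.ofReal (T.J (T.pm p))⁻¹).map T.pm

theorem measurable_pm : Measurable T.pm :=
  (T.continuousΨ.measurable.comp measurable_fst).prodMk
    (measurable_prj (T.contB.continuous.measurable.comp measurable_fst) measurable_snd)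

theorem continuous_J : Continuous T.J :=
  continuous_Jac.comp ((continuous_gam.comp (T.contA.continuous.comp continuous_fst)).prodMk
    continuous_snd)

theorem J_pos {p : Euc k × L k} (hp : p.2 ∈ G m k) : 0 < T.J p :=
  Jac_pos (isPj_of_G hp) (T.injA p.1)

theorem J_nonneg (p : Euc k × L k) : 0 ≤ T.J p := Jac_nonneg _ _

theorem pm_mem {p : Euc k × L k} (hp : p.2 ∈ G m k) : (T.pm p).2 ∈ G m k :=
  prj_mem_G hp (T.injB p.1)

/-- inverse of `pm` on the Grassmannian -/
theorem symm_pm {p : Euc k × L k} (hp : p.2 ∈ G m k) : T.symm.pm (T.pm p) = p := by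
  refine Prod.ext (T.right p.1) ?_
  change prj (T.A (T.Ψ p.1)) (prj (T.B p.1) p.2) = p.2
  exact prj_prj_G hp (T.AB p.1) (T.BA' p.1)

theorem prj_pm {p : Euc k × L k} (hp : p.2 ∈ G m k) :
    prj (T.A (T.pm p).1) (T.pm p).2 = p.2 := congrArg Prod.snd (T.symm_pm hp)

theorem measurable_wt : Measurable fun p => ENNReal.ofReal (T.J (T.pm p))⁻¹ :=
  ((T.continuous_J.measurable.comp T.measurable_pm).inv).ennreal_ofReal

theorem lintegral_push (V : Measure (Euc k × L k)) {F : Euc k × L k → ℝ≥0∞} (hF : Measurable F) :
    ∫⁻ p, F p ∂(T.push V) = ∫⁻ p, ENNReal.ofReal (T.J (T.pm p))⁻¹ * F (T.pm p) ∂V := by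
  unfold push
  rw [lintegral_map hF T.measurable_pm]
  exact lintegral_withDensity_eq_lintegral_mul _ T.measurable_wt (hF.comp T.measurable_pm)

theorem integral_push (V : Measure (Euc k × L k)) (F : Euc k × L k → ℝ)
    (hF : AEStronglyMeasurable F (T.push V)) :
    ∫ p, F p ∂(T.push V) = ∫ p, (T.J (T.pm p))⁻¹ * F (T.pm p) ∂V := by
  unfold push
  rw [integral_map T.measurable_pm.aemeasurable hF,
    integral_withDensity_eq_integral_toReal_smul T.measurable_wt
      (Filter.Eventually.of_forall fun _ => ENNReal.ofReal_lt_top)]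
  refine integral_congr_ae (Filter.Eventually.of_forall fun p => ?_)
  simp only [smul_eq_mul]
  rw [ENNReal.toReal_ofReal (inv_nonneg.2 (T.J_nonneg _))]

theorem push_ae {V : Measure (Euc k × L k)} {p : Euc k × L k → Prop}
    (hm : MeasurableSet {x | p x}) (h : ∀ᵐ x ∂V, p (T.pm x)) : ∀ᵐ x ∂(T.push V), p x := by
  unfold push
  rw [ae_map_iff T.measurable_pm.aemeasurable hm]
  exact (withDensity_absolutelyContinuous V _).ae_le h

theorem push_conc {V : Measure (Euc k × L k)} (hV : ∀ᵐ p ∂V, p.2 ∈ G m k) :
    ∀ᵐ p ∂(T.push V), p.2 ∈ G m k :=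
  T.push_ae (measurable_snd (measurableSet_G m k)) (by
    filter_upwards [hV] with p hp
    exact T.pm_mem hp)

/-- integrals against the Jacobian -/
theorem integral_J {V : Measure (Euc k × L k)} (hV : ∀ᵐ p ∂V, p.2 ∈ G m k)
    (F : Euc k × L k → ℝ) (hF : AEStronglyMeasurable F (T.push V)) :
    ∫ p, T.J p * F p ∂(T.push V) = ∫ p, F (T.pm p) ∂V := by
  rw [T.integral_push V (fun p => T.J p * F p) (T.continuous_J.aestronglyMeasurable.mul hF)]
  refine integral_congr_ae ?_
  filter_upwards [hV] with p hp
  have h := (T.J_pos (T.pm_mem hp)).ne'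
  rw [← mul_assoc, inv_mul_cancel₀ h, one_mul]

/-- the integrand of the first variation in the chart -/
def fvi (ζ : Euc k → Euc k) (p : Euc k × L k) : ℝ :=
  tr (Sig (T.gm p.1) p.2 ∘L
    (T.Gm p.1 ∘L fderiv ℝ ζ p.1 + (1 / 2 : ℝ) • fderiv ℝ T.Gm p.1 (ζ p.1)))

theorem contDiff_Gm : ContDiff ℝ 1 T.Gm := by
  have h1 : ContDiff ℝ 1 fun z => ContinuousLinearMap.adjoint (T.A z) := by
    have h2 : ContDiff ℝ 1 (ContinuousLinearMap.adjoint (𝕜 := ℝ) (E := Euc k) (F := Euc k)) :=
      (ContinuousLinearMap.adjoint (𝕜 := ℝ) (E := Euc k) (F := Euc k)).toContinuousLinearEquiv.toContinuousLinearMap.contDiff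
    exact h2.comp T.contA
  exact h1.clm_comp T.contA

theorem measurable_fvi {ζ : Euc k → Euc k} (hζ : ContDiff ℝ 1 ζ) : Measurable (T.fvi ζ) := by
  refine tr.continuous.measurable.comp (measurable_comp (measurable_Sig ?_ measurable_snd) ?_)
  · exact (continuous_gam.comp T.contA.continuous).measurable.comp measurable_fst
  · have h : Continuous fun z : Euc k => T.Gm z ∘L fderiv ℝ ζ z +
        (1 / 2 : ℝ) • fderiv ℝ T.Gm z (ζ z) :=
      (T.contDiff_Gm.continuous.clm_comp (hζ.continuous_fderiv one_ne_zero)).add
        ((continuous_const_smul (1 / 2 : ℝ)).comp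
          ((T.contDiff_Gm.continuous_fderiv one_ne_zero).clm_apply hζ.continuous))
    exact h.measurable.comp measurable_fst

/-- **the first variation identity in the chart**, general varifolds -/
theorem stat_push {U : Set (Euc k)} {V : Measure (Euc k × L k)} (hV : Stat m k U V)
    {ζ : Euc k → Euc k} (hζ : ContDiff ℝ 1 ζ) (hc : HasCompactSupport ζ)
    (hs : tsupport ζ ⊆ T.Φ ⁻¹' U) :
    ∫ p, T.J p * T.fvi ζ p ∂(T.push V) = 0 := by
  rw [T.integral_J hV.conc _ (T.measurable_fvi hζ).aestronglyMeasurable]
  have h1 := hV.stat (T.fld ζ) (T.contDiff_fld hζ) (T.hasCompactSupport_fld hc)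
    ((T.tsupport_fld ζ).trans (by
      rintro _ ⟨z, hz, rfl⟩
      exact hs hz))
  rw [← h1]
  refine integral_congr_ae ?_
  filter_upwards [hV.conc] with p hp
  have h2 := T.tr_pt hζ (T.pm p).1 (T.pm_mem hp)
  have h3 : T.Φ (T.pm p).1 = p.1 := T.right p.1
  rw [T.prj_pm hp, h3] at h2
  exact h2.symm

end Dif

end Crest.Agent.R234.Ft_209
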