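import Crest.Agent.R234.Fx9_281
import Crest.Agent.R234.F37_354
import Crest.Agent.R234.LeM_3

/-!
# Row 234 (helper281), node F3-LE, file 6: from the test function `Bf` to the kernel `bv`,
and the error terms in the form of `LEP`
-/

set_option autoImplicit false

open MeasureTheory Filter Topology Set Metric
open Crest.GeometryTopology.Submanifold
open Crest.Agent.R234.Vf_884
open Crest.Agent.R234.Ft_209 (Dif IsPj)
open Crest.Agent.R234.Main_456 (Msys Frame)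
open Crest.Agent.R234.Ell1_3 (dns gdet gop)
open Crest.Agent.R234.Gi_456 (hinv IsFoot foot tube Gr yy ch Lo Loi jB)
open Crest.Agent.R234.Foot_842 (pt)
open Crest.Agent.R234.Nrm_842 (Zm zc)
open Crest.Agent.R234.Grot_842 (rπ rρ)
open Crest.Agent.R234.F35_354 (Bp)
open Crest.Agent.R234.F35k_433 (bv)
open Crest.Agent.R234.F37_354 (Am Rg)
open Crest.Agent.R234.GL_394 (VK On Ok)
open Crest.Agent.R234.Loc1_290 (bump)
open scoped InnerProductSpace ENNReal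

noncomputable section

namespace Crest.Agent.R234.Fm_281

variable {m n k : ℕ}

/-- the test function in the coordinate of the chart centred at `Xc` -/
def Bx (t : ℝ) (q : Euc m →L[ℝ] Euc n) (H : Euc m →L[ℝ] Euc m) (w U : Euc m → Euc n)
    (X0 Xc : Euc m) (v : Euc m) : ℝ := Bf t q H w U X0 (Gi_456.pt w Xc v)

section

variable {π : Euc k →L[ℝ] Euc m} {ρ : Euc k →L[ℝ] Euc n} {x : Euc k} {w w' U : Euc m → Euc n}
  {X0 Xc : Euc m} {C κ t e : ℝ} {q : Euc m →L[ℝ] Euc n}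
  {H : Euc m →L[ℝ] Euc m} {H' : Euc n →L[ℝ] Euc n} {T : Dif k}

theorem int_Bx (w U : Euc m → Euc n) (t : ℝ) (q : Euc m →L[ℝ] Euc n) (H : Euc m →L[ℝ] Euc m)
    (X0 Xc : Euc m) : ∫ v, Bx t q H w U X0 Xc v * jB w Xc v =
      ∫ X, Bf t q H w U X0 X * dns (fderiv ℝ w X) := by
  rw [F35_354.int_jB]
  refine integral_congr_ae (Eventually.of_forall fun X => ?_)
  simp only [Bx]
  rw [F35k_433.pt_Lo]

theorem Bx_x (z : Euc k) : Bx t q H w U X0 Xc ((ch π ρ x 1 w Xc).x z) =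
    Bf t q H w U X0 (foot π ρ x 1 w z) := by
  unfold Bx
  rw [F35k_433.pt_ch_x]

theorem int_Bx_ch (V : Measure (Euc k × L k)) (K : Set (Euc k)) :
    ∫ p, Bx t q H w U X0 Xc ((ch π ρ x 1 w Xc).x p.1) *
        (1 - (ch π ρ x 1 w Xc).tau p.1 p.2 / 2) ∂(VK V K) =
      ∫ p in K ×ˢ univ, Bf t q H w U X0 (foot π ρ x 1 w p.1) *
        (1 - Nt π ρ w (foot π ρ x 1 w p.1) p.2 / 2) ∂V := by
  unfold GL_394.VK
  refine integral_congr_ae (Eventually.of_forall fun p => ?_)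
  simp only [Bx_x]
  rfl

theorem Bf_nonneg (X : Euc m) : 0 ≤ Bf t q H w U X0 X :=
  indicator_nonneg (fun _ _ => fB_nonneg U _) _

theorem Bf_le (X : Euc m) : Bf t q H w U X0 X ≤ 1 := by
  unfold Bf
  by_cases hX : X ∈ ball X0 (6 * t)
  · rw [indicator_of_mem hX]; exact fB_le U _
  · rw [indicator_of_notMem hX]; exact zero_le_one

/-- the test function is the kernel divided by the density -/
theorem Bx_eq (h : Bp π ρ x w X0 C κ t q H H' w' U T e) (Xc v : Euc m) :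
    Bx t q H w U X0 Xc v = bv w Xc t (Lo (fderiv ℝ w Xc) (X0 - Xc)) v /
      dns (fderiv ℝ U (zc t q H w X0 (Gi_456.pt w Xc v))) := by
  have ht := h.zm.t0
  unfold Bx Bf
  have e1 : bv w Xc t (Lo (fderiv ℝ w Xc) (X0 - Xc)) v =
      bump 1 0 (zc t q H w X0 (Gi_456.pt w Xc v)) := by
    unfold F35k_433.bv
    rw [F35k_433.pt_Lo, F35k_433.beta_zc h.fr h.zm, Loc1_290.bump, sub_zero, one_pow, div_one]
  by_cases hX : Gi_456.pt w Xc v ∈ ball X0 (6 * t)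
  · rw [indicator_of_mem hX, e1]
    rfl
  · rw [indicator_of_notMem hX, F35k_433.bv_zero h.gr Xc ht, zero_div]
    rw [F35k_433.pt_Lo]
    rw [mem_ball_iff_norm, not_lt] at hX
    linarith

theorem measurable_Bx (h : Bp π ρ x w X0 C κ t q H H' w' U T e) (Xc : Euc m) :
    Measurable (Bx t q H w U X0 Xc) := by
  have h1 : Measurable (Bf t q H w U X0) :=
    ((measurable_fB (cdU h.zm)).comp h.continuous_zc.measurable).indicator measurableSet_ball
  have h2 : Continuous (Gi_456.pt w Xc) :=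
    continuous_const.add (Loi (fderiv ℝ w Xc)).continuous
  exact h1.comp h2.measurable

theorem kern (h : Bp π ρ x w X0 C κ t q H H' w' U T e) (Xc : Euc m) :
    F31_354.Kern volume (bv w Xc t) (fun v => jB w Xc v /
      Loc1_290.mass (volume : Measure (Euc m)) t) t (Kern2_332.C2 m * t)
      (Kern_567.CK m / Loc1_290.mass (volume : Measure (Euc m)) t) 0 :=
  F35k_433.kern_ch h.gr Xc h.zm.t0 (h.t16.trans (by norm_num)) 0

/-- the difference of the kernel and the test function -/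
theorem bv_sub (h : Bp π ρ x w X0 C κ t q H H' w' U T e) {C2 : ℝ}
    (hC2 : ∀ p : Euc m →L[ℝ] Euc n, ‖p‖ ≤ 1 / 4 → dns p ≤ 1 + C2 * ‖p‖ ^ 2) (hC20 : 0 ≤ C2)
    (Xc v : Euc m) :
    |bv w Xc t (Lo (fderiv ℝ w Xc) (X0 - Xc)) v - Bx t q H w U X0 Xc v| ≤
      (closedBall (Lo (fderiv ℝ w Xc) (X0 - Xc)) (2 * t)).indicator
        (fun _ => C2 * (C * κ * t) ^ 2) v := by
  have hk := kern h Xc
  rw [Bx_eq h]
  obtain ⟨b, hb⟩ : ∃ b, b = bv w Xc t (Lo (fderiv ℝ w Xc) (X0 - Xc)) v := ⟨_, rfl⟩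
  obtain ⟨d, hd⟩ : ∃ d, d = dns (fderiv ℝ U (zc t q H w X0 (Gi_456.pt w Xc v))) := ⟨_, rfl⟩
  have hb0 : 0 ≤ b := by rw [hb]; exact hk.nonneg _ _
  have hb1 : b ≤ 1 := by rw [hb]; exact hk.le_one _ _
  have hd1 : 1 ≤ d := by rw [hd]; exact Nrm_842.one_le_dns _
  have hd2 : d ≤ 1 + C2 * (C * κ * t) ^ 2 := by
    rw [hd]
    have h1 := h.zm.norm_dU (zc t q H w X0 (Gi_456.pt w Xc v))
    refine (hC2 _ (h1.trans (h.zm.Cκt.trans (by norm_num)))).trans ?_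
    gcongr
  rw [← hb, ← hd]
  have e1 : b - b / d = b * (1 - d⁻¹) := by ring
  have hdi : d⁻¹ ≤ 1 := inv_le_one_of_one_le₀ hd1
  have e2 : 1 - d⁻¹ ≤ d - 1 := by
    have h1 : 0 < d := by linarith
    have h2 : d * d⁻¹ = 1 := mul_inv_cancel₀ h1.ne'
    nlinarith [sq_nonneg (d - 1), inv_pos.2 h1]
  rw [e1, abs_of_nonneg (mul_nonneg hb0 (by linarith))]
  by_cases hv : v ∈ closedBall (Lo (fderiv ℝ w Xc) (X0 - Xc)) (2 * t)
  · rw [indicator_of_mem hv]
    calc b * (1 - d⁻¹) ≤ 1 * (d - 1) := mul_le_mul hb1 e2 (by linarith) zero_le_one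
      _ ≤ _ := by linarith
  · rw [indicator_of_notMem hv]
    have h1 : b = 0 := by
      rw [hb]
      refine hk.supp _ _ ?_
      rw [mem_closedBall_iff_norm, not_le] at hv
      exact hv
    rw [h1, zero_mul]

end

section

variable {π : Euc k →L[ℝ] Euc m} {ρ : Euc k →L[ℝ] Euc n} {x : Euc k} {w w' U : Euc m → Euc n}
  {X0 Xc : Euc m} {C κ t e : ℝ} {q : Euc m →L[ℝ] Euc n}
  {H : Euc m →L[ℝ] Euc m} {H' : Euc n →L[ℝ] Euc n} {T : Dif k}
  {U0 K : Set (Euc k)} {Dd : VarifoldData m k}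

theorem aemeas_x (hA : Am π ρ x w Xc X0 t U0 K Dd) :
    AEMeasurable (fun p : Euc k × L k => (ch π ρ x 1 w Xc).x p.1) (VK (VD Dd) K) := by
  unfold GL_394.VK
  have h0 : ContinuousOn (foot π ρ x 1 w) K := (hA.gr.continuousOn_foot hA.fr).mono hA.kt
  have h1 : ContinuousOn (fun p : Euc k × L k => (ch π ρ x 1 w Xc).x p.1) (K ×ˢ univ) := by
    have h2 : ContinuousOn (fun p : Euc k × L k =>
        Lo (fderiv ℝ w Xc) (foot π ρ x 1 w p.1 - Xc)) (K ×ˢ univ) :=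
      (Lo (fderiv ℝ w Xc)).continuous.comp_continuousOn
        ((h0.comp continuousOn_fst fun p hp => hp.1).sub continuousOn_const)
    exact h2
  exact h1.aemeasurable (hA.cpt.isClosed.measurableSet.prod .univ)

theorem integrable_comp (hA : Am π ρ x w Xc X0 t U0 K Dd) {F : Euc m → ℝ} (hF : Measurable F)
    {b : ℝ} (hb : ∀ v, |F v| ≤ b) :
    Integrable (fun p : Euc k × L k => F ((ch π ρ x 1 w Xc).x p.1) *
      (1 - (ch π ρ x 1 w Xc).tau p.1 p.2 / 2)) (VK (VD Dd) K) := by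
  have hfin : IsFiniteMeasure (VK (VD Dd) K) := hA.on.fin
  have h1 : Integrable (fun p : Euc k × L k => 1 - (ch π ρ x 1 w Xc).tau p.1 p.2 / 2)
      (VK (VD Dd) K) := (integrable_const _).sub (hA.int_tau.div_const 2)
  refine h1.bdd_mul (c := b) ?_ (Eventually.of_forall fun p => hb _)
  exact (hF.comp_aemeasurable (aemeas_x hA)).aestronglyMeasurable

theorem integrable_j (hg : Gr 1 w) {F : Euc m → ℝ} (hF : Measurable F) {b : ℝ}
    (hb : ∀ v, |F v| ≤ b) {v0 : Euc m} {R : ℝ} (hR : ∀ v, v ∉ closedBall v0 R → F v = 0) :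
    Integrable (fun v => F v * jB w Xc v) := by
  have hj : Continuous (jB w Xc) := (hg.contDiff_j Xc).continuous
  have h1 : IntegrableOn (jB w Xc) (closedBall v0 R) :=
    hj.continuousOn.integrableOn_compact (isCompact_closedBall _ _)
  have h2 : IntegrableOn (fun v => F v * jB w Xc v) (closedBall v0 R) :=
    h1.bdd_mul (c := b) hF.aestronglyMeasurable (Eventually.of_forall fun p => hb _)
  have h3 : (fun v => F v * jB w Xc v) =
      (closedBall v0 R).indicator (fun v => F v * jB w Xc v) := by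
    funext v
    by_cases hv : v ∈ closedBall v0 R
    · rw [indicator_of_mem hv]
    · rw [indicator_of_notMem hv, hR v hv, zero_mul]
  rw [h3]
  exact (integrable_indicator_iff measurableSet_closedBall).2 h2

theorem fin_le {I1 I2 J1 J2 E M Q : ℝ} (h : |I1 - I2 - Q * (J1 - J2)| ≤ E)
    (h2 : I2 - Q * J2 ≤ M) : I1 - Q * J1 ≤ M + E := by
  have := (le_abs_self _).trans h
  linarith

theorem int_sub_ch (hA : Am π ρ x w Xc X0 t U0 K Dd) {F F' : Euc m → ℝ} (hF : Measurable F)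
    (hF' : Measurable F') (hb : ∀ v, |F v| ≤ 1) (hb' : ∀ v, |F' v| ≤ 1) :
    ∫ p, (F ((ch π ρ x 1 w Xc).x p.1) - F' ((ch π ρ x 1 w Xc).x p.1)) *
        (1 - (ch π ρ x 1 w Xc).tau p.1 p.2 / 2) ∂(VK (VD Dd) K) =
      ∫ p, F ((ch π ρ x 1 w Xc).x p.1) * (1 - (ch π ρ x 1 w Xc).tau p.1 p.2 / 2)
        ∂(VK (VD Dd) K) -
      ∫ p, F' ((ch π ρ x 1 w Xc).x p.1) * (1 - (ch π ρ x 1 w Xc).tau p.1 p.2 / 2)
        ∂(VK (VD Dd) K) := by
  rw [← integral_sub (integrable_comp hA hF hb) (integrable_comp hA hF' hb')]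
  refine integral_congr_ae (Eventually.of_forall fun p => ?_)
  simp only
  ring

theorem int_sub_j (hg : Gr 1 w) {F F' : Euc m → ℝ} (hF : Measurable F)
    (hF' : Measurable F') (hb : ∀ v, |F v| ≤ 1) (hb' : ∀ v, |F' v| ≤ 1) {v0 : Euc m} {R : ℝ}
    (hR : ∀ v, v ∉ closedBall v0 R → F v = 0) (hR' : ∀ v, v ∉ closedBall v0 R → F' v = 0) :
    ∫ v, (F v - F' v) * jB w Xc v = (∫ v, F v * jB w Xc v) - ∫ v, F' v * jB w Xc v := by
  rw [← integral_sub (integrable_j hg hF hb hR) (integrable_j hg hF' hb' hR')]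
  refine integral_congr_ae (Eventually.of_forall fun p => ?_)
  simp only
  ring

theorem int_abs_le {e2 : Measure (Euc m)} [IsFiniteMeasure e2] {F : Euc m → ℝ} {c : ℝ}
    {v0 : Euc m} {R : ℝ} (h : ∀ v, |F v| ≤ (closedBall v0 R).indicator (fun _ => c) v) :
    ∫ v, |F v| ∂e2 ≤ c * e2.real (closedBall v0 R) := by
  calc ∫ v, |F v| ∂e2 ≤ ∫ v, (closedBall v0 R).indicator (fun _ => c) v ∂e2 := by
        refine integral_mono_of_nonneg (Eventually.of_forall fun v => abs_nonneg _) ?_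
          (Eventually.of_forall h)
        exact (integrable_indicator_iff measurableSet_closedBall).2
          (integrableOn_const (measure_ne_top _ _))
    _ = _ := by
        rw [integral_indicator measurableSet_closedBall, setIntegral_const, smul_eq_mul,
          mul_comm]

theorem measurable_sec {f : Euc m → Euc m → ℝ} (h : Measurable (Function.uncurry f))
    (v0 : Euc m) : Measurable (f v0) := by
  have h1 : Measurable fun v => Function.uncurry f (v0, v) :=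
    h.comp (measurable_const.prodMk measurable_id)
  exact h1

/-- **(b2)** from the test function to the kernel -/
theorem to_bv (h : Bp π ρ x w X0 C κ t q H H' w' U T e) (hA : Am π ρ x w Xc X0 t U0 K Dd)
    {C2 : ℝ} (hC2 : ∀ p : Euc m →L[ℝ] Euc n, ‖p‖ ≤ 1 / 4 → dns p ≤ 1 + C2 * ‖p‖ ^ 2)
    (hC20 : 0 ≤ C2) {e2 : Measure (Euc m)} [IsFiniteMeasure e2] {Q : ℕ}
    (habs : ∀ F : Euc m → ℝ, Measurable F → (∃ b : ℝ, ∀ v, |F v| ≤ b) →
    (∀ v, v ∉ closedBall (Lo (fderiv ℝ w Xc) (X0 - Xc)) (6 * t) → F v = 0) →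
    |∫ p, F ((ch π ρ x 1 w Xc).x p.1) * (1 - (ch π ρ x 1 w Xc).tau p.1 p.2 / 2)
      ∂(VK (VD Dd) K) - Q * ∫ v, F v * (ch π ρ x 1 w Xc).j v| ≤ ∫ v, |F v| ∂e2) {M : ℝ}
    (hM : ∫ p in K ×ˢ univ, Bf t q H w U X0 (foot π ρ x 1 w p.1) *
          (1 - Nt π ρ w (foot π ρ x 1 w p.1) p.2 / 2) ∂(VD Dd) -
        Q * ∫ X, Bf t q H w U X0 X * dns (fderiv ℝ w X) ≤ M) :
    ∫ p, bv w Xc t (Lo (fderiv ℝ w Xc) (X0 - Xc)) ((ch π ρ x 1 w Xc).x p.1) *
      (1 - (ch π ρ x 1 w Xc).tau p.1 p.2 / 2) ∂(VK (VD Dd) K) -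
    Q * ∫ v, bv w Xc t (Lo (fderiv ℝ w Xc) (X0 - Xc)) v * (ch π ρ x 1 w Xc).j v ≤
    M + C2 * (C * κ * t) ^ 2 * e2.real (closedBall (Lo (fderiv ℝ w Xc) (X0 - Xc)) (2 * t)) := by
  have ht := h.zm.t0
  have hk := kern h Xc
  obtain ⟨v0, hv0⟩ : ∃ v0, v0 = Lo (fderiv ℝ w Xc) (X0 - Xc) := ⟨_, rfl⟩
  have hsub := bv_sub h hC2 hC20 Xc
  rw [← hv0] at habs hsub ⊢
  have hbm := measurable_sec hk.meas v0
  have hBm := measurable_Bx h Xc
  have hc0 : 0 ≤ C2 * (C * κ * t) ^ 2 := by positivity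
  have hFb : ∀ v, |bv w Xc t v0 v - Bx t q H w U X0 Xc v| ≤ C2 * (C * κ * t) ^ 2 := by
    intro v
    refine (hsub v).trans ?_
    by_cases hv : v ∈ closedBall v0 (2 * t)
    · rw [indicator_of_mem hv]
    · rw [indicator_of_notMem hv]; exact hc0
  have hF0 : ∀ v, v ∉ closedBall v0 (2 * t) → bv w Xc t v0 v - Bx t q H w U X0 Xc v = 0 := by
    intro v hv
    have := hsub v
    rw [indicator_of_notMem hv] at this
    exact abs_nonpos_iff.1 this
  have hb0 : ∀ v, v ∉ closedBall v0 (2 * t) → bv w Xc t v0 v = 0 := by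
    intro v hv
    rw [mem_closedBall_iff_norm, not_le] at hv
    exact hk.supp _ _ hv
  have hB0 : ∀ v, v ∉ closedBall v0 (2 * t) → Bx t q H w U X0 Xc v = 0 := by
    intro v hv
    have h1 := hF0 v hv
    rw [hb0 v hv, zero_sub, neg_eq_zero] at h1
    exact h1
  have hBb : ∀ v, |Bx t q H w U X0 Xc v| ≤ 1 := fun v => by
    unfold Bx
    rw [abs_of_nonneg (Bf_nonneg _)]
    exact Bf_le _
  have hbb : ∀ v, |bv w Xc t v0 v| ≤ 1 := fun v => by
    rw [abs_of_nonneg (hk.nonneg _ _)]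
    exact hk.le_one _ _
  have h1 := habs (fun v => bv w Xc t v0 v - Bx t q H w U X0 Xc v) (hbm.sub hBm) ⟨_, hFb⟩
    (fun v hv => hF0 v fun h2 => hv (closedBall_subset_closedBall (by linarith) h2))
  have h2 := h1.trans (int_abs_le hsub)
  have e1 := int_sub_ch hA hbm hBm hbb hBb
  have e2' := int_sub_j (Xc := Xc) h.gr hbm hBm hbb hBb hb0 hB0
  have e3 := int_Bx w U t q H X0 Xc
  rw [int_Bx_ch] at e1
  rw [e3] at e2'
  refine fin_le ?_ hM
  refine le_trans (le_of_eq ?_) h2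
  congr 1
  exact (congrArg₂ (fun a b : ℝ => a - Q * b) e1 e2').symm

/-- the error terms -/
theorem int_Gp_le (hA : Am π ρ x w Xc X0 t U0 K Dd) (ht : 0 < t) {a b : ℝ} (ha : 0 ≤ a)
    (hb : 0 ≤ b) {s : ℝ} (hs : s ≤ 15 * t)
    (hm : MeasurableSet {p : Euc k × L k | p.1 ∈ K ∧ ‖foot π ρ x 1 w p.1 - X0‖ < s}) :
    ∫ p in {p : Euc k × L k | p.1 ∈ K ∧ ‖foot π ρ x 1 w p.1 - X0‖ < s},
        Gp π ρ x w a b p ∂(VD Dd) ≤
      a * ∫ p in {z | ‖(ch π ρ x 1 w Xc).x z - Lo (fderiv ℝ w Xc) (X0 - Xc)‖ ≤ 16 * t} ×ˢ univ,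
        (ch π ρ x 1 w Xc).tau p.1 p.2 ∂(VK (VD Dd) K) +
      b * ∫ p in {z | ‖(ch π ρ x 1 w Xc).x z - Lo (fderiv ℝ w Xc) (X0 - Xc)‖ ≤ 16 * t} ×ˢ univ,
        2 * (ch π ρ x 1 w Xc).f p.1 ∂(VK (VD Dd) K) := by
  set S : Set (Euc k × L k) := {p | p.1 ∈ K ∧ ‖foot π ρ x 1 w p.1 - X0‖ < s} with hS
  set E : Set (Euc k × L k) :=
    {z | ‖(ch π ρ x 1 w Xc).x z - Lo (fderiv ℝ w Xc) (X0 - Xc)‖ ≤ 16 * t} ×ˢ univ with hE
  have hSE : S ⊆ E ∩ K ×ˢ univ := by
    rintro p ⟨h1, h2⟩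
    refine ⟨⟨?_, mem_univ _⟩, h1, mem_univ _⟩
    show ‖Lo (fderiv ℝ w Xc) (foot π ρ x 1 w p.1 - Xc) - Lo (fderiv ℝ w Xc) (X0 - Xc)‖ ≤ 16 * t
    rw [← map_sub, sub_sub_sub_cancel_right]
    refine (Gi_456.norm_Lo_le (hA.gr.d1 Xc) _).trans ?_
    have : 65 / 64 * ‖foot π ρ x 1 w p.1 - X0‖ ≤ 65 / 64 * (15 * t) := by
      gcongr
      exact h2.le.trans hs
    linarith
  have hSK : S ⊆ K ×ˢ univ := fun p hp => ⟨hp.1, mem_univ _⟩
  have hμ : (VD Dd).restrict S ≤ (VK (VD Dd) K).restrict E := by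
    have h1 : (VD Dd).restrict S = (VK (VD Dd) K).restrict S := by
      unfold GL_394.VK
      rw [Measure.restrict_restrict hm, inter_eq_left.2 hSK]
    rw [h1]
    exact Measure.restrict_mono (hSE.trans inter_subset_left) le_rfl
  have hconc : ∀ᵐ p ∂(VK (VD Dd) K), p.2 ∈ G m k ∧ p.1 ∈ K := by
    filter_upwards [hA.on.mem] with p hp
    exact ⟨hp.2, hp.1⟩
  have i1 : Integrable (fun p : Euc k × L k => (ch π ρ x 1 w Xc).tau p.1 p.2)
      (VK (VD Dd) K) := hA.int_tau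
  have i2 : Integrable (fun p : Euc k × L k => 2 * (ch π ρ x 1 w Xc).f p.1)
      (VK (VD Dd) K) := hA.int_f
  have i3 : Integrable (fun p : Euc k × L k => a * (ch π ρ x 1 w Xc).tau p.1 p.2 +
      b * (2 * (ch π ρ x 1 w Xc).f p.1)) (VK (VD Dd) K) := (i1.const_mul a).add (i2.const_mul b)
  have e1 : ∫ p in S, Gp π ρ x w a b p ∂(VD Dd) =
      ∫ p in S, (a * (ch π ρ x 1 w Xc).tau p.1 p.2 +
      b * (2 * (ch π ρ x 1 w Xc).f p.1)) ∂(VD Dd) := by
    refine setIntegral_congr_fun hm fun p hp => ?_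
    simp only [Gp]
    rw [F37_354.two_f hA.fr hA.gr Xc (hA.kt hp.1)]
    rfl
  rw [e1]
  have e2 : ∫ p in S, (a * (ch π ρ x 1 w Xc).tau p.1 p.2 +
      b * (2 * (ch π ρ x 1 w Xc).f p.1)) ∂(VD Dd) ≤
      ∫ p in E, (a * (ch π ρ x 1 w Xc).tau p.1 p.2 +
      b * (2 * (ch π ρ x 1 w Xc).f p.1)) ∂(VK (VD Dd) K) := by
    refine integral_mono_measure hμ ?_ i3.integrableOn
    filter_upwards [ae_restrict_of_ae hconc] with p hp
    have h1 : 0 ≤ (ch π ρ x 1 w Xc).tau p.1 p.2 := F35_354.tau_nonneg hA.fr Xc p.1 hp.1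
    rw [F37_354.two_f hA.fr hA.gr Xc (hA.kt hp.2)]
    positivity
  refine e2.trans (le_of_eq ?_)
  rw [integral_add (i1.const_mul a).integrableOn (i2.const_mul b).integrableOn,
    integral_const_mul, integral_const_mul]

end

end Crest.Agent.R234.Fm_281
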