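import Crest.Agent.R234.Nrm1_842

/-!
# Row 234, node F3-NORM (helper842), part 2: the surface normalised at one of its points

`Zm`: rotated to the tangent plane at the point over `X0`, zoomed by `t`. `exists_zm`.
`Zm.NN_eq` (a), `Zm.area` (b), `Zm.norm_zc_le`, `Zm.le_norm_zc` (c), `one_le_dns`, `exists_dns_le` (d),
`Zm.isFoot`, `Zm.pt_eq`, `Zm.gr`.
-/

set_option autoImplicit false
set_option linter.unusedSectionVars false

open MeasureTheory Set Metric Filter Topology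
open scoped ContDiff NNReal ENNReal RealInnerProductSpace
open Crest.GeometryTopology.Submanifold

noncomputable section

namespace Crest.Agent.R234.Nrm_842

open Crest.Agent.R234.Ell1_3 Crest.Agent.R234.Main_456 Crest.Agent.R234.Grot_842
open Crest.Agent.R234.Foot_842 Crest.Agent.R234.Swb_159
open Crest.Agent.R234.Gi_456 (Gr tube IsFoot foot yy hinv frame_fr ring_inverse_eq Lo Loi Lo_Loi
  Loi_Lo det_Lo det_Lo_pos Loi_spec)
open Crest.Agent.R234.GLK_128 (A0 BB gg hh Fr Inv exists_Inv exists_inv_of_le NN TT NN_add_TT)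

local notation "adj" => ContinuousLinearMap.adjoint

variable {m n k : ℕ}

/-! ### (d) bounds of the area density -/

theorem one_le_dns (q : Euc m →L[ℝ] Euc n) : 1 ≤ dns q := by
  obtain ⟨h1, h2, h3⟩ := Loi_spec q
  have hd : (Loi q).det * (Lo q).det = 1 := by
    have h4 := congrArg ContinuousLinearMap.det h1
    rw [show (Loi q ∘L Lo q).det = (Loi q).det * (Lo q).det by
      simp only [ContinuousLinearMap.det, ContinuousLinearMap.toLinearMap_comp]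
      exact LinearMap.det_comp _ _] at h4
    rw [h4]
    simp [ContinuousLinearMap.det]
  have hv : volume (Loi q '' ball (0 : Euc m) 1) ≤ volume (ball (0 : Euc m) 1) := by
    refine measure_mono ?_
    rintro _ ⟨y, hy, rfl⟩
    rw [mem_ball_zero_iff] at hy ⊢
    calc ‖Loi q y‖ ≤ ‖Loi q‖ * ‖y‖ := ContinuousLinearMap.le_opNorm _ _
      _ ≤ 1 * ‖y‖ := by gcongr
      _ < 1 := by linarith
  rw [Measure.addHaar_image_continuousLinearMap] at hv
  have hb0 : volume (ball (0 : Euc m) 1) ≠ 0 := (measure_ball_pos _ _ one_pos).ne'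
  have hb1 : volume (ball (0 : Euc m) 1) ≠ ⊤ := measure_ball_lt_top.ne
  have h5 : ENNReal.ofReal |(Loi q).det| ≤ 1 := by
    refine (ENNReal.mul_le_mul_iff_left hb0 hb1).1 ?_
    rw [one_mul]; exact hv
  have h6 : |(Loi q).det| ≤ 1 := by
    rwa [← ENNReal.ofReal_one, ENNReal.ofReal_le_ofReal_iff zero_le_one] at h5
  have h7 := det_Lo_pos q
  rw [det_Lo] at hd h7
  have h8 := le_abs_self (Loi q).det
  nlinarith

theorem dns_zero : dns (0 : Euc m →L[ℝ] Euc n) = 1 := by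
  have : gop (0 : Euc m →L[ℝ] Euc n) = ContinuousLinearMap.id ℝ (Euc m) := by
    simp [gop]
  rw [dns, gdet, this]
  simp

theorem exists_dns_le (m n : ℕ) : ∃ C : ℝ, 1 ≤ C ∧ ∀ q : Euc m →L[ℝ] Euc n, ‖q‖ ≤ 1 / 4 →
    dns q ≤ 1 + C * ‖q‖ ^ 2 := by
  obtain ⟨C, hC, h⟩ := Sw_733.exists_dns (Euc m) (Euc n)
  refine ⟨max C 1, le_max_right _ _, fun q hq => ?_⟩
  obtain ⟨h1, -, -⟩ := h 0 q (by simp) hq
  rw [sub_zero, dns_zero] at h1
  have h2 : Sw_733.KT (0 : Euc m →L[ℝ] Euc n) = 0 := by simp [Sw_733.KT]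
  rw [h2, ContinuousLinearMap.zero_comp, map_zero, mul_zero, sub_zero] at h1
  have h3 := le_abs_self (dns q - 1)
  have h4 : C * ‖q‖ ^ 2 ≤ max C 1 * ‖q‖ ^ 2 := by gcongr; exact le_max_left _ _
  linarith

/-! ### (b) the area identity, unit scale -/

section Area

variable {w w' : Euc m → Euc n} {X0 : Euc m} {q : Euc m →L[ℝ] Euc n} {H : Euc m →L[ℝ] Euc m}
  {H' : Euc n →L[ℝ] Euc n} {K : ℕ} {C κ : ℝ}

theorem area_rot (h : Rot q H H' K C κ (shf w X0) w') (hw : Differentiable ℝ w) {R : ℝ}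
    (hR : R ≤ 15 / 16) {F : Euc m → ℝ}
    (hF : ∀ y, y ∉ chg q H (shf w X0) '' ball 0 R → F y = 0) :
    ∫ X in ball X0 R, F (chg q H (shf w X0) (X - X0)) * dns (fderiv ℝ w X) =
      ∫ y, F y * dns (fderiv ℝ w' y) := by
  set ψ := chg q H (shf w X0) with hψ
  have hsub : ball (0 : Euc m) R ⊆ closedBall 0 (15 / 16) :=
    (ball_subset_closedBall).trans (closedBall_subset_closedBall hR)
  have hinj : InjOn ψ (ball 0 R) := (chg_inj h).mono hsub
  have hshf : ∀ a, DifferentiableAt ℝ (shf w X0) a := fun a => by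
    have h1 : DifferentiableAt ℝ (fun a => w (X0 + a)) a :=
      (hw (X0 + a)).comp a ((differentiableAt_const _).add differentiableAt_id)
    exact h1.sub_const _
  have hd : ∀ a ∈ ball (0 : Euc m) R, HasFDerivWithinAt ψ (dchg q H (fderiv ℝ w (X0 + a)))
      (ball 0 R) a := fun a _ => by
    have := hasFDerivAt_chg (q := q) (H := H) (hshf a)
    rw [fderiv_shf] at this
    exact this.hasFDerivWithinAt
  have h1 := integral_image_eq_integral_abs_det_fderiv_smul volume measurableSet_ball hd hinj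
    (fun y => F y * dns (fderiv ℝ w' y))
  have h2 : ∫ y in ψ '' ball 0 R, F y * dns (fderiv ℝ w' y) = ∫ y, F y * dns (fderiv ℝ w' y) :=
    setIntegral_eq_integral_of_forall_compl_eq_zero fun y hy => by rw [hF y hy, zero_mul]
  rw [← h2, h1]
  -- translation
  have h3 : ∫ X in ball X0 R, F (ψ (X - X0)) * dns (fderiv ℝ w X) =
      ∫ a in ball (0 : Euc m) R, F (ψ a) * dns (fderiv ℝ w (X0 + a)) := by
    rw [← integral_indicator measurableSet_ball, ← integral_indicator measurableSet_ball]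
    rw [← integral_sub_right_eq_self (fun a => (ball (0 : Euc m) R).indicator
      (fun a => F (ψ a) * dns (fderiv ℝ w (X0 + a))) a) X0]
    refine integral_congr_ae (Eventually.of_forall fun X => ?_)
    by_cases hX : X ∈ ball X0 R
    · have hX' : X - X0 ∈ ball (0 : Euc m) R := by
        rw [mem_ball_zero_iff, ← dist_eq_norm]; exact hX
      simp only [indicator_of_mem hX, indicator_of_mem hX', add_sub_cancel]
    · have hX' : X - X0 ∉ ball (0 : Euc m) R := by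
        rw [mem_ball_zero_iff, ← dist_eq_norm]; exact hX
      simp only [indicator_of_notMem hX, indicator_of_notMem hX']
  rw [h3]
  refine setIntegral_congr_fun measurableSet_ball fun a ha => ?_
  have ha' : ‖(X0 + a) - X0‖ < 15 / 16 := by
    rw [add_sub_cancel_left]; exact (mem_ball_zero_iff.1 ha).trans_le hR
  have h4 := dns_chg h ha' (hw (X0 + a))
  rw [add_sub_cancel_left] at h4
  simp only [smul_eq_mul]
  rw [h4]; ring

end Area

/-! ### the normalised surface -/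

/-- the surface `graph w` seen from its point over `X0`, rotated to the tangent plane there and
zoomed by `t` -/
structure Zm (w : Euc m → Euc n) (X0 : Euc m) (K : ℕ) (C κ t : ℝ) (q : Euc m →L[ℝ] Euc n)
    (H : Euc m →L[ℝ] Euc m) (H' : Euc n →L[ℝ] Euc n) (w' U : Euc m → Euc n) : Prop where
  rot : Rot q H H' K C κ (shf w X0) w'
  qe : q = fderiv ℝ w X0
  K1 : 1 ≤ K
  t0 : 0 < t
  t1 : t ≤ 1 / 8
  C1 : 1 ≤ C
  κ0 : 0 ≤ κ
  small : C * κ ≤ 1 / 8
  wd : Differentiable ℝ w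
  w1 : ∀ X, ‖fderiv ℝ w X‖ ≤ 1 / 8
  sm : ContDiff ℝ ∞ U
  cpt : HasCompactSupport U
  eqU : ∀ x, ‖x‖ ≤ 7 → U x = t⁻¹ • w' (t • x)
  bd : ∀ j ≤ K + 1, ∀ x, ‖iteratedFDeriv ℝ j U x‖ ≤ C * κ * t
  U0 : U 0 = 0
  dU0 : fderiv ℝ U 0 = 0
  ms : (∀ X ∈ ball X0 1, Msys w X = 0) → ∀ x ∈ ball (0 : Euc m) 7, Msys U x = 0

theorem rot_mono {q : Euc m →L[ℝ] Euc n} {H : Euc m →L[ℝ] Euc m} {H' : Euc n →L[ℝ] Euc n} {K : ℕ}
    {C C' κ : ℝ} {v w : Euc m → Euc n} (h : Rot q H H' K C κ v w) (hC : C ≤ C') (hκ : 0 ≤ κ) :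
    Rot q H H' K C' κ v w where
  rt := h.rt
  q_le := h.q_le
  smooth := h.smooth
  zero := h.zero
  dzero := h.dzero
  bound := fun j h1 h2 y => (h.bound j h1 h2 y).trans (by gcongr)
  bound0 := fun y => (h.bound0 y).trans (by gcongr)
  graph := h.graph
  surj := h.surj

/-- **existence of the normalisation** -/
theorem exists_zm (m n K : ℕ) (hK : 1 ≤ K) : ∃ C : ℝ, 1 ≤ C ∧ ∀ (w : Euc m → Euc n) (κ : ℝ),
    0 ≤ κ → C * κ ≤ 1 / 8 → ContDiff ℝ ∞ w → (∀ X, ‖fderiv ℝ w X‖ ≤ 1 / 8) → ∀ X0 : Euc m,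
    (∀ j, 1 ≤ j → j ≤ K + 1 → ∀ X ∈ ball X0 1, ‖iteratedFDeriv ℝ j w X‖ ≤ κ) →
    ∃ (H : Euc m →L[ℝ] Euc m) (H' : Euc n →L[ℝ] Euc n) (w' : Euc m → Euc n),
      Rot (fderiv ℝ w X0) H H' K C κ (shf w X0) w' ∧ ∀ t : ℝ, 0 < t → t ≤ 1 / 8 →
      ∃ U : Euc m → Euc n, Zm w X0 K C κ t (fderiv ℝ w X0) H H' w' U := by
  obtain ⟨C1, hC1, hrot⟩ := exists_rot m n K
  obtain ⟨C2, hC2, hzoom⟩ := exists_zoom m n K hK
  have hCC : C1 ≤ C2 * C1 := by nlinarith
  refine ⟨C2 * C1, hC1.trans hCC, ?_⟩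
  intro w κ hκ0 hκ hw hw1 X0 hb
  have hκ1 : C1 * κ ≤ 1 := by
    have : C1 * κ ≤ C2 * C1 * κ := by gcongr
    linarith
  have hv : ContDiff ℝ ∞ (shf w X0) := shf_contDiff hw X0
  have hbv : ∀ j, 1 ≤ j → j ≤ K + 1 → ∀ x ∈ ball (0 : Euc m) 1,
      ‖iteratedFDeriv ℝ j (shf w X0) x‖ ≤ κ := by
    intro j h1 h2 x hx
    rw [iter_shf w X0 x h1]
    refine hb j h1 h2 _ ?_
    rw [mem_ball_iff_norm, add_sub_cancel_left]
    exact mem_ball_zero_iff.1 hx
  obtain ⟨H, H', w', hR⟩ := hrot (shf w X0) κ hκ0 hκ1 hv.contDiffOn (shf_zero w X0) hbv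
  have hq : fderiv ℝ (shf w X0) 0 = fderiv ℝ w X0 := by rw [fderiv_shf, add_zero]
  rw [hq] at hR
  have hR2 := rot_mono hR hCC hκ0
  refine ⟨H, H', w', hR2, fun t ht ht8 => ?_⟩
  obtain ⟨U, hU1, hU2, hU3, hU4, hU5, hU6, hU7⟩ := hzoom w' (C1 * κ) (by positivity) hR.smooth
    hR.zero hR.dzero hR.bound t ht ht8
  refine ⟨U, ⟨hR2, rfl, hK, ht, ht8, hC1.trans hCC, hκ0, hκ, hw.differentiable (by simp), hw1, hU1,
    hU2, hU3, ?_, hU5, hU6, ?_⟩⟩
  · intro j hj x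
    calc ‖iteratedFDeriv ℝ j U x‖ ≤ C2 * (C1 * κ) * t := hU4 j hj x
      _ = C2 * C1 * κ * t := by ring
  · intro hms x hx
    rw [hU7 x hx]
    have h1 : ∀ x ∈ ball (0 : Euc m) 1, Msys (shf w X0) x = 0 := fun x hx => by
      rw [Msys_shf]
      refine hms _ ?_
      rw [mem_ball_iff_norm, add_sub_cancel_left]
      exact mem_ball_zero_iff.1 hx
    have h2 : t • x ∈ ball (0 : Euc m) (7 / 8) := by
      rw [mem_ball_zero_iff, norm_smul, Real.norm_of_nonneg ht.le]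
      have h3 := mem_ball_zero_iff.1 hx
      calc t * ‖x‖ ≤ 1 / 8 * ‖x‖ := by gcongr
        _ < 7 / 8 := by linarith
    rw [hR.msys hv.contDiffOn h1 _ h2, smul_zero]

/-- the zoomed base coordinate -/
def zc (t : ℝ) (q : Euc m →L[ℝ] Euc n) (H : Euc m →L[ℝ] Euc m) (w : Euc m → Euc n) (X0 : Euc m)
    (X : Euc m) : Euc m := t⁻¹ • chg q H (shf w X0) (X - X0)

namespace Zm

variable {w w' U : Euc m → Euc n} {X0 : Euc m} {K : ℕ} {C κ t : ℝ} {q : Euc m →L[ℝ] Euc n}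
  {H : Euc m →L[ℝ] Euc m} {H' : Euc n →L[ℝ] Euc n} (h : Zm w X0 K C κ t q H H' w' U)
include h

theorem κ8 : κ ≤ 1 / 8 := by
  have := h.C1; have := h.κ0; have := h.small
  nlinarith

theorem norm_shf_le (a : Euc m) : ‖shf w X0 a‖ ≤ 1 / 8 * ‖a‖ := by
  have h1 := Convex.norm_image_sub_le_of_norm_fderiv_le (𝕜 := ℝ) (f := w) (s := univ) (C := 1 / 8)
    (fun z _ => h.wd z) (fun z _ => h.w1 z) convex_univ (mem_univ X0) (mem_univ (X0 + a))
  rwa [add_sub_cancel_left] at h1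

theorem norm_chg (a : Euc m) : ‖chg q H (shf w X0) a‖ ≤ 65 / 64 * ‖a‖ := by
  have h1 := norm_chg_le h.rot (h.norm_shf_le a)
  have h2 := h.κ8
  have h3 := norm_nonneg a
  nlinarith

theorem norm_ich (y : Euc m) : ‖ich q H H' w' y‖ ≤ 65 / 64 * ‖y‖ := by
  have h1 := norm_ich_le h.rot y
  have h2 := h.κ8
  have h3 := norm_nonneg y
  have h4 : κ * (C * κ) ≤ 1 / 8 * (1 / 8) := by
    have := h.κ0; have := h.small; have := h.C1
    exact mul_le_mul h2 h.small (by positivity) (by norm_num)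
  nlinarith

theorem le_norm_chg {a : Euc m} (ha : ‖a‖ ≤ 15 / 16) :
    ‖a‖ ≤ 65 / 64 * ‖chg q H (shf w X0) a‖ := by
  have h1 := h.norm_ich (chg q H (shf w X0) a)
  rwa [ich_chg h.rot ha] at h1

theorem smul_zc (X : Euc m) : t • zc t q H w X0 X = chg q H (shf w X0) (X - X0) := by
  rw [zc, smul_smul, mul_inv_cancel₀ h.t0.ne', one_smul]

/-- **(c)** -/
theorem norm_zc_le (X : Euc m) : ‖zc t q H w X0 X‖ ≤ 65 / 64 * (‖X - X0‖ / t) := by
  rw [zc, norm_smul, norm_inv, Real.norm_of_nonneg h.t0.le, inv_mul_eq_div, ← mul_div_assoc]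
  have := h.t0
  gcongr
  exact h.norm_chg _

/-- **(c)** -/
theorem le_norm_zc {X : Euc m} (hX : ‖X - X0‖ ≤ 6 * t) :
    ‖X - X0‖ ≤ t * (65 / 64 * ‖zc t q H w X0 X‖) := by
  have h1 := h.le_norm_chg (a := X - X0) (by have := h.t1; linarith)
  rw [← h.smul_zc, norm_smul, Real.norm_of_nonneg h.t0.le] at h1
  calc _ ≤ _ := h1
    _ = _ := by ring

theorem norm_zc_lt {X : Euc m} (hX : ‖X - X0‖ ≤ 6 * t) : ‖zc t q H w X0 X‖ < 7 := by
  have h1 := h.norm_zc_le X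
  have h2 : ‖X - X0‖ / t ≤ 6 := by rw [div_le_iff₀ h.t0]; exact hX
  linarith

theorem lt1516 {X : Euc m} (hX : ‖X - X0‖ ≤ 6 * t) : ‖X - X0‖ < 15 / 16 := by
  have := h.t1; linarith

theorem near {x : Euc m} (hx : ‖x‖ < 7) : ∀ᶠ y in 𝓝 x, U y = t⁻¹ • w' (t • y) := by
  filter_upwards [isOpen_ball.mem_nhds (mem_ball_zero_iff.2 hx)] with y hy
  exact h.eqU y (mem_ball_zero_iff.1 hy).le

theorem dU_eq {x : Euc m} (hx : ‖x‖ < 7) : fderiv ℝ U x = fderiv ℝ w' (t • x) := by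
  have h1 : fderiv ℝ U x = fderiv ℝ (sc t w') x := Filter.EventuallyEq.fderiv_eq (h.near hx)
  rw [h1, fderiv_sc h.t0.ne']

theorem dU_zc {X : Euc m} (hX : ‖X - X0‖ ≤ 6 * t) :
    fderiv ℝ U (zc t q H w X0 X) = fderiv ℝ w' (chg q H (shf w X0) (X - X0)) := by
  rw [h.dU_eq (h.norm_zc_lt hX), h.smul_zc]

/-- **(a)** -/
theorem NN_eq {π : Euc k →L[ℝ] Euc m} {ρ : Euc k →L[ℝ] Euc n} (hf : Frame π ρ) {X : Euc m}
    (hX : ‖X - X0‖ ≤ 6 * t) :
    NN (adj (rπ π ρ q H)) (adj (rρ π ρ q H')) (fderiv ℝ U (zc t q H w X0 X))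
        (hinv (fderiv ℝ U (zc t q H w X0 X))) =
      NN (adj π) (adj ρ) (fderiv ℝ w X) (hinv (fderiv ℝ w X)) := by
  rw [h.dU_zc hX]
  exact NN_chg hf h.rot (h.lt1516 hX) (h.wd X)

theorem dns_eq {X : Euc m} (hX : ‖X - X0‖ ≤ 6 * t) :
    dns (fderiv ℝ w X) = dns (fderiv ℝ U (zc t q H w X0 X)) * |(dchg q H (fderiv ℝ w X)).det| := by
  rw [h.dU_zc hX]
  exact dns_chg h.rot (h.lt1516 hX) (h.wd X)

theorem ginv_eq {X : Euc m} (hX : ‖X - X0‖ ≤ 6 * t) :
    ginv (fderiv ℝ U (zc t q H w X0 X)) =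
      dchg q H (fderiv ℝ w X) ∘L ginv (fderiv ℝ w X) ∘L adj (dchg q H (fderiv ℝ w X)) := by
  rw [h.dU_zc hX]
  exact ginv_chg h.rot (h.lt1516 hX) (h.wd X)

theorem hasFDerivAt_zc (X : Euc m) :
    HasFDerivAt (zc t q H w X0) (t⁻¹ • dchg q H (fderiv ℝ w X)) X := by
  have hv : DifferentiableAt ℝ (shf w X0) (X - X0) := by
    have h1 : DifferentiableAt ℝ (fun a => w (X0 + a)) (X - X0) :=
      (h.wd _).comp _ ((differentiableAt_const _).add differentiableAt_id)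
    exact h1.sub_const _
  have h1 := hasFDerivAt_chg (q := q) (H := H) hv
  rw [fderiv_shf, add_sub_cancel] at h1
  have h2 : HasFDerivAt (fun X => chg q H (shf w X0) (X - X0)) (dchg q H (fderiv ℝ w X)) X := by
    have h3 : HasFDerivAt (fun X : Euc m => X - X0) (ContinuousLinearMap.id ℝ (Euc m)) X :=
      (hasFDerivAt_id X).sub_const X0
    have h4 := HasFDerivAt.comp (g := chg q H (shf w X0)) (f := fun X : Euc m => X - X0) X h1 h3
    rw [ContinuousLinearMap.comp_id] at h4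
    exact h4
  exact h2.const_smul t⁻¹

theorem zc_inj : InjOn (zc t q H w X0) (closedBall X0 (15 / 16)) := by
  intro a ha b hb hab
  have h1 : t • zc t q H w X0 a = t • zc t q H w X0 b := by rw [hab]
  rw [h.smul_zc, h.smul_zc] at h1
  have h2 := chg_inj h.rot (by simpa [dist_eq_norm] using ha) (by simpa [dist_eq_norm] using hb) h1
  exact sub_left_injective h2

/-- every point of `closedBall 0 5` is the zoomed coordinate of a point near `X0` -/
theorem zc_surj {y : Euc m} (hy : ‖y‖ ≤ 5) : ∃ X, ‖X - X0‖ < 6 * t ∧ zc t q H w X0 X = y := by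
  have h1 : ‖t • y‖ ≤ 5 * t := by
    rw [norm_smul, Real.norm_of_nonneg h.t0.le]
    nlinarith [h.t0]
  have h2 := h.t1
  have h3 := h.t0
  have h4 := ich_ball h.rot (y := t • y) (by linarith)
  have h5 := h.norm_ich (t • y)
  refine ⟨X0 + ich q H H' w' (t • y), ?_, ?_⟩
  · rw [add_sub_cancel_left]; linarith
  · rw [zc, add_sub_cancel_left, h4.2, smul_smul, inv_mul_cancel₀ h3.ne', one_smul]

/-- **(b): the area identity** -/
theorem area {f : Euc m → ℝ} (hf : ∀ x, 5 < ‖x‖ → f x = 0) :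
    ∫ X in ball X0 (6 * t), f (zc t q H w X0 X) * dns (fderiv ℝ w X) =
      t ^ m * ∫ x, f x * dns (fderiv ℝ U x) := by
  have h3 := h.t0
  have h2 := h.t1
  have hF : ∀ y, y ∉ chg q H (shf w X0) '' ball 0 (6 * t) → f (t⁻¹ • y) = 0 := by
    intro y hy
    by_contra hne
    have h5 : ‖t⁻¹ • y‖ ≤ 5 := by
      by_contra h6
      exact hne (hf _ (not_le.1 h6))
    obtain ⟨X, hX, hXy⟩ := h.zc_surj h5
    refine hy ⟨X - X0, mem_ball_zero_iff.2 hX, ?_⟩
    rw [← h.smul_zc, hXy, smul_smul, mul_inv_cancel₀ h3.ne', one_smul]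
  have h1 := area_rot h.rot h.wd (R := 6 * t) (by linarith) (F := fun y => f (t⁻¹ • y)) hF
  have h4 : ∫ y, f (t⁻¹ • y) * dns (fderiv ℝ w' y) = t ^ m * ∫ x, f x * dns (fderiv ℝ U x) := by
    have e1 := Measure.integral_comp_inv_smul_of_nonneg (μ := (volume : Measure (Euc m)))
      (fun x => f x * dns (fderiv ℝ w' (t • x))) h3.le
    have e2 : ∀ y : Euc m, t • (t⁻¹ • y) = y := fun y => by
      rw [smul_smul, mul_inv_cancel₀ h3.ne', one_smul]
    simp only [e2, finrank_euclideanSpace, Fintype.card_fin, smul_eq_mul] at e1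
    rw [e1]
    congr 1
    refine integral_congr_ae (Eventually.of_forall fun x => ?_)
    by_cases hx : ‖x‖ ≤ 5
    · simp only
      rw [h.dU_eq (lt_of_le_of_lt hx (by norm_num))]
    · simp only
      rw [hf x (not_le.1 hx), zero_mul, zero_mul]
  rw [← h4, ← h1]
  rfl

theorem norm_dU (x : Euc m) : ‖fderiv ℝ U x‖ ≤ C * κ * t := by
  have h1 := h.bd 1 (by omega) x
  rwa [← norm_iteratedFDeriv_fderiv, norm_iteratedFDeriv_zero] at h1

theorem norm_d2U (x : Euc m) : ‖fderiv ℝ (fderiv ℝ U) x‖ ≤ C * κ * t := by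
  have := h.K1
  have h1 := h.bd 2 (by omega) x
  rwa [← norm_iteratedFDeriv_fderiv, ← norm_iteratedFDeriv_fderiv, norm_iteratedFDeriv_zero] at h1

theorem Cκt : C * κ * t ≤ 1 / 64 := by
  have h1 := h.small
  have h2 := h.t1
  have h3 := h.t0
  have h4 : 0 ≤ C * κ := by have := h.κ0; have := h.C1; positivity
  nlinarith

theorem gr {r' : ℝ} (hr' : 0 < r') (hr2 : r' ≤ 8) : Gr r' U where
  pos := hr'
  cd := h.sm.of_le (by
    have h : ((4 : ℕ∞) : WithTop ℕ∞) ≤ ((⊤ : ℕ∞) : WithTop ℕ∞) := WithTop.coe_le_coe.2 le_top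
    exact h)
  d1 := fun X => (h.norm_dU X).trans (h.Cκt.trans (by norm_num))
  d2 := fun X => (h.norm_d2U X).trans (h.Cκt.trans (by
    rw [div_le_div_iff₀ (by norm_num) (by positivity)]
    linarith))

/-- **same point of the surface** -/
theorem pt_eq {π : Euc k →L[ℝ] Euc m} {ρ : Euc k →L[ℝ] Euc n} (hf : Frame π ρ) (x : Euc k)
    {X : Euc m} (hX : ‖X - X0‖ ≤ 6 * t) :
    pt (rπ π ρ q H) (rρ π ρ q H') 0 U (zc t q H w X0 X) =
      t⁻¹ • (pt π ρ x w X - pt π ρ x w X0) := by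
  have h1 := pt_rot (x := x) hf h.rot (h.lt1516 hX).le
  rw [← h1]
  have h2 : U (zc t q H w X0 X) = t⁻¹ • w' (chg q H (shf w X0) (X - X0)) := by
    rw [h.eqU _ (h.norm_zc_lt hX).le, h.smul_zc]
  unfold pt
  rw [h2, zc]
  simp only [map_smul, zero_add, smul_sub, smul_add]
  abel

/-- **the foot point in the normalised chart** -/
theorem isFoot {π : Euc k →L[ℝ] Euc m} {ρ : Euc k →L[ℝ] Euc n} (hf : Frame π ρ) {x : Euc k}
    {r r' : ℝ} {z : Euc k} {X : Euc m} (hX : ‖X - X0‖ ≤ 6 * t) (hz : IsFoot π ρ x r w z X)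
    (hr' : ‖z - pt π ρ x w X‖ ≤ 2 * (t * r')) :
    IsFoot (rπ π ρ q H) (rρ π ρ q H') 0 r' U (t⁻¹ • (z - pt π ρ x w X0)) (zc t q H w X0 X) := by
  have h1 := isFoot_rot hf h.rot (h.lt1516 hX) (h.wd X) hz hr'
  have hfr := frame_rot (q := q) hf h.rot.rt
  have h2 := (foot_normal hfr h1).2.1
  refine (isFoot_zoom h.t0 (h.near (h.norm_zc_lt hX)) h1 ?_).1
  rw [← h2]
  refine (fr_norm_ρ hfr _).trans ?_
  rw [pt_rot (x := x) hf h.rot (h.lt1516 hX).le]
  exact hr'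

/-- foot in the normalised chart, as a function; the tube -/
theorem foot_eq {π : Euc k →L[ℝ] Euc m} {ρ : Euc k →L[ℝ] Euc n} (hf : Frame π ρ) {x : Euc k}
    {r r' : ℝ} {z : Euc k} {X : Euc m} (hX : ‖X - X0‖ ≤ 6 * t) (hz : IsFoot π ρ x r w z X)
    (hr0 : 0 < r') (hr8 : r' ≤ 8) (hr' : ‖z - pt π ρ x w X‖ ≤ 2 * (t * r')) :
    foot (rπ π ρ q H) (rρ π ρ q H') 0 r' U (t⁻¹ • (z - pt π ρ x w X0)) = zc t q H w X0 X :=
  (h.gr hr0 hr8).foot_eq (h.isFoot hf hX hz hr')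

/-- **the normal vector in the normalised chart** -/
theorem normal_eq {π : Euc k →L[ℝ] Euc m} {ρ : Euc k →L[ℝ] Euc n} (hf : Frame π ρ) (x z : Euc k)
    {X : Euc m} (hX : ‖X - X0‖ ≤ 6 * t) :
    t⁻¹ • (z - pt π ρ x w X0) - pt (rπ π ρ q H) (rρ π ρ q H') 0 U (zc t q H w X0 X) =
      t⁻¹ • (z - pt π ρ x w X) := by
  rw [h.pt_eq hf x hX, ← smul_sub]
  congr 1
  abel

end Zm

end Crest.Agent.R234.Nrm_842
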