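import Crest.Agent.R234.Fm11_281
import Crest.Agent.R234.F33_354
import Crest.Agent.R234.Nrm2_842
import Crest.Agent.R234.Fn2_209

/-!
# Row 234 (helper281), node F3-TRANS, chart half, file 1: area density, normal projection and foot
point in the Fermi chart of helper209
-/

set_option autoImplicit false

open MeasureTheory Filter Topology Set
open Crest.GeometryTopology.Submanifold
open Crest.Agent.R234.Vf_884
open Crest.Agent.R234.Fm_209 (trc trc_comp_comm)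
open Crest.Agent.R234.Ft_209 (Dif IsPj)
open Crest.Agent.R234.Cy_870 (Split)
open Crest.Agent.R234.AS_456 (hp vp)
open Crest.Agent.R234.Fc_209 (IsChart Bd)
open Crest.Agent.R234.Ell1_3 (dns gdet gop)
open Crest.Agent.R234.GLK_128 (BB A0 NN Fr Inv hh gg tau0)
open Crest.Agent.R234.Gi_456 (hinv IsFoot)
open Crest.Agent.R234.Foot_842 (pt)
open scoped InnerProductSpace

noncomputable section

namespace Crest.Agent.R234.Fm_281

variable {m n k : ℕ}

local notation "adj" => ContinuousLinearMap.adjoint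

theorem fr_of_split {π : Euc k →L[ℝ] Euc m} {κ : Euc k →L[ℝ] Euc n} (hs : Split π κ) :
    Fr (adj π) (adj κ) where
  ii := by rw [ContinuousLinearMap.adjoint_adjoint]; exact hs.hh
  jj := by rw [ContinuousLinearMap.adjoint_adjoint]; exact hs.vv
  ij := by
    rw [ContinuousLinearMap.adjoint_adjoint]
    ext1 v
    exact Fc_209.πκ' hs v
  full := by
    rw [ContinuousLinearMap.adjoint_adjoint, ContinuousLinearMap.adjoint_adjoint]
    exact hs.sum

/-- **(A)** the area density -/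
theorem g0_eq_dns {π : Euc k →L[ℝ] Euc m} {κ : Euc k →L[ℝ] Euc n} {u : Euc m → Euc n}
    (hs : Split π κ) (hu : ContDiff ℝ 3 u) (z : Euc k) :
    g0 (Fc_209.P π κ u) z = dns (fderiv ℝ u (π z)) := by
  unfold g0 dns gdet
  rw [Fc_209.P_eq hu]
  congr 1
  obtain ⟨q, hq⟩ : ∃ q, q = fderiv ℝ u (π z) := ⟨_, rfl⟩
  rw [← hq]
  have e1 : star (Fc_209.Th π κ q) * Fc_209.Th π κ q =
      (adj π) ∘L ((adj q ∘L q) ∘L π) := by
    ext1 v
    change (star (Fc_209.Th π κ q)) (Fc_209.Th π κ q v) = adj π (adj q (q (π v)))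
    rw [Fc_209.star_Th_apply, Fc_209.Th_apply, Fc_209.κκ' hs]
  have e2 : ((adj q ∘L q) ∘L π) ∘L adj π = adj q ∘L q := by
    ext1 v
    change adj q (q (π (adj π v))) = adj q (q v)
    rw [Fc_209.ππ' hs]
  rw [e1, Fm_209.det_one_add_comm, e2]
  rfl

section NN

variable {π : Euc k →L[ℝ] Euc m} {κ : Euc k →L[ℝ] Euc n} {u : Euc m → Euc n} {e : ℝ} {T : Dif k}

/-- the derivative of the chart on vertical vectors -/
theorem A_vert (hs : Split π κ) (hu : ContDiff ℝ 3 u) (hT : IsChart T π κ u e) {z : Euc k}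
    (hz : ‖κ z‖ < 3) (v : Euc n) :
    T.A z (adj κ v) = BB (adj π) (adj κ) (fderiv ℝ u (π z)) v := by
  rw [hT.A_eq z hz]
  have e1 : Fc_209.P π κ u z (adj κ v) = 0 := by
    rw [Fc_209.P_eq hu, Fc_209.Th_apply, Fc_209.πκ' hs, map_zero, map_zero]
  have e2 : (star (Fc_209.P π κ u z)) (adj κ v) = adj π (adj (fderiv ℝ u (π z)) v) := by
    rw [Fc_209.P_eq hu, Fc_209.star_Th_apply, Fc_209.κκ' hs]
  have e3 : Fc_209.h π κ u z (adj κ v) = 0 := by
    have h1 := (Fc_209.h_HH hs hu z).eq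
    have h2 : hp π (adj κ v) = 0 := by
      rw [Fc_209.hp_apply, Fc_209.πκ' hs, map_zero]
    have h3 := congrArg (fun A : L k => A (adj κ v)) h1
    have h4 : hp π (Fc_209.h π κ u z (hp π (adj κ v))) = Fc_209.h π κ u z (adj κ v) := h3
    rw [← h4, h2, map_zero, map_zero]
  change adj κ v + Fc_209.P π κ u z (adj κ v) - (star (Fc_209.P π κ u z)) (adj κ v) -
    Fc_209.h π κ u z (adj κ v) = adj κ v - adj π (adj (fderiv ℝ u (π z)) v)
  rw [e1, e2, e3]
  abel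

theorem NN_isPj (hs : Split π κ) (q : Euc m →L[ℝ] Euc n) :
    IsPj (NN (adj π) (adj κ) q (hinv q)) :=
  ⟨GLK_128.NN_idem (fr_of_split hs) (Nrm_842.inv0 q), GLK_128.NN_adj (Nrm_842.inv0 q)⟩

theorem trc_NN (hs : Split π κ) (q : Euc m →L[ℝ] Euc n) :
    trc (Euc k) (NN (adj π) (adj κ) q (hinv q)) = n := by
  have hfr := fr_of_split hs
  have H := Nrm_842.inv0 q
  have e : (hinv q ∘L adj (BB (adj π) (adj κ) q)) ∘L BB (adj π) (adj κ) q =
      ContinuousLinearMap.id ℝ (Euc n) := by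
    rw [ContinuousLinearMap.comp_assoc, GLK_128.BB_BB hfr, H.h1]
  rw [NN, trc_comp_comm, e, GLK_128.trc_id]
  simp

theorem trc_vert (hs : Split π κ) : trc (Euc k) (1 - hp π : L k) = n := by
  have e1 : (1 - hp π : L k) = adj κ ∘L κ := by
    ext1 v
    exact Fc_209.vp_apply hs v
  rw [e1, trc_comp_comm, hs.vv, GLK_128.trc_id]
  simp

/-- **(B)** the image of the vertical space -/
theorem prj_vert (hs : Split π κ) (hu : ContDiff ℝ 3 u) (hT : IsChart T π κ u e) {z : Euc k}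
    (hz : ‖κ z‖ < 3) :
    Ft_209.prj (T.A z) (1 - hp π) =
      NN (adj π) (adj κ) (fderiv ℝ u (π z)) (hinv (fderiv ℝ u (π z))) := by
  obtain ⟨q, hq⟩ : ∃ q, q = fderiv ℝ u (π z) := ⟨_, rfl⟩
  rw [← hq]
  have hV : IsPj (1 - hp π : L k) := by
    have h1 := (isStar_of_G (Fc_209.hp_mem_G hs)).one_sub
    exact ⟨h1.1, h1.2⟩
  have hA := T.injA z
  refine Ft_209.eq_of_mul (Ft_209.isPj_prj hV hA) (NN_isPj hs q) ?_ ?_
  · have h1 : ∀ v : Euc n, Ft_209.prj (T.A z) (1 - hp π) (BB (adj π) (adj κ) q v) =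
        BB (adj π) (adj κ) q v := by
      intro v
      have h2 := congrArg (fun A : L k => A (adj κ v)) (Ft_209.prj_mul hV hA)
      have h3 : (1 - hp π : L k) (adj κ v) = adj κ v := by
        change adj κ v - hp π (adj κ v) = adj κ v
        rw [Fc_209.hp_apply, Fc_209.πκ' hs, map_zero, sub_zero]
      have h4 : Ft_209.prj (T.A z) (1 - hp π) (T.A z ((1 - hp π : L k) (adj κ v))) =
        T.A z ((1 - hp π : L k) (adj κ v)) := h2
      rw [h3, A_vert hs hu hT hz, ← hq] at h4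
      exact h4
    ext1 v
    exact h1 _
  · rw [Ft_209.trc_prj hV hA, trc_vert hs, trc_NN hs]

/-- the trace of the product of the projections is the metric tilt -/
theorem tau0_eq (hs : Split π κ) (hu : ContDiff ℝ 3 u) (hT : IsChart T π κ u e) {z : Euc k}
    (hz : ‖κ z‖ < 3) (S : L k) :
    tau0 (adj π) (adj κ) (fderiv ℝ u (π z)) (hinv (fderiv ℝ u (π z))) (Ft_209.prj (T.A z) S) =
      F32_354.tNP (gm (Fc_209.P π κ u z) (Fc_209.h π κ u z)) (hp π) S := by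
  have h1 := Fn_209.tr_prj_prj (T.A z) (hp π) S
  rw [prj_vert hs hu hT hz] at h1
  have h2 : Ft_209.gam (T.A z) = gm (Fc_209.P π κ u z) (Fc_209.h π κ u z) := hT.gm_eq z hz
  rw [h2] at h1
  exact h1

theorem pj_of_G {S : L k} (h : S ∈ G m k) : GLK_128.Pj (Euc m) S :=
  ⟨h.1, h.2.1, by rw [← Ft_209.tr_eq_trc, h.2.2]; simp⟩

theorem tau0_nonneg' (hs : Split π κ) (q : Euc m →L[ℝ] Euc n) {S : L k} (h : S ∈ G m k) :
    0 ≤ tau0 (adj π) (adj κ) q (hinv q) S :=
  GLK_128.tau0_nonneg (fr_of_split hs) (Nrm_842.inv0 q) (pj_of_G h)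

/-- **the foot point** -/
theorem chart_foot (hs : Split π κ) (hu : ContDiff ℝ 3 u) (hT : IsChart T π κ u e) {z : Euc k}
    (hz : ‖κ z‖ < 3) {r : ℝ} (hr : ‖κ z‖ ≤ 2 * r) :
    IsFoot π κ 0 r u (T.Φ z) (π z) ∧ κ (T.Φ z) - u (π z) = κ z ∧
      T.Φ z - pt π κ 0 u (π z) = BB (adj π) (adj κ) (fderiv ℝ u (π z)) (κ z) ∧
      ‖T.Φ z - pt π κ 0 u (π z)‖ ^ 2 = ‖κ z‖ ^ 2 + ‖adj (fderiv ℝ u (π z)) (κ z)‖ ^ 2 := by
  have hΦ := hT.Φ_eq' hu hz
  have e1 : κ (T.Φ z) = κ z + u (π z) := by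
    rw [hΦ]
    simp only [map_add, map_sub, Fc_209.κκ' hs, Fc_209.κπ' hs, sub_zero]
  have e2 : π (T.Φ z) = π z - adj (fderiv ℝ u (π z)) (κ z) := by
    rw [hΦ]
    simp only [map_add, map_sub, Fc_209.ππ' hs, Fc_209.πκ' hs, add_zero]
  have e3 : κ (T.Φ z) - u (π z) = κ z := by rw [e1]; abel
  have e4 : T.Φ z - pt π κ 0 u (π z) = BB (adj π) (adj κ) (fderiv ℝ u (π z)) (κ z) := by
    change T.Φ z - (0 + adj π (π z) + adj κ (u (π z))) =
      adj κ (κ z) - adj π (adj (fderiv ℝ u (π z)) (κ z))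
    have e5 := Fc_209.sum_apply hs z
    rw [hΦ]
    nth_rewrite 1 [← e5]
    abel
  refine ⟨⟨?_, ?_⟩, e3, e4, ?_⟩
  · rw [sub_zero, e3, e2]
    abel
  · rw [sub_zero, e3]
    exact hr
  · rw [e4]
    have e5 : adj (BB (adj π) (adj κ) (fderiv ℝ u (π z))) (BB (adj π) (adj κ)
        (fderiv ℝ u (π z)) (κ z)) = hh (fderiv ℝ u (π z)) (κ z) :=
      congrArg (fun A : Euc n →L[ℝ] Euc n => A (κ z)) (GLK_128.BB_BB (fr_of_split hs))
    rw [← real_inner_self_eq_norm_sq, ← ContinuousLinearMap.adjoint_inner_left, e5,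
      GLK_128.hh_inner]

end NN

end Crest.Agent.R234.Fm_281
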