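import Crest.Agent.R234.Fx1_281

/-!
# Row 234 (helper281), node F3-TRANS, chart half, file 2: pointwise comparison in the chart
-/

set_option autoImplicit false

open MeasureTheory Filter Topology Set
open Crest.GeometryTopology.Submanifold
open Crest.Agent.R234.Vf_884
open Crest.Agent.R234.Ar_870 (IsCo tl)
open Crest.Agent.R234.Ft_209 (Dif IsPj)
open Crest.Agent.R234.Cy_870 (Split)
open Crest.Agent.R234.AS_456 (hp vp)
open Crest.Agent.R234.Fc_209 (IsChart Bd)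
open Crest.Agent.R234.Main_456 (Msys)
open Crest.Agent.R234.Ell1_3 (dns gdet gop)
open Crest.Agent.R234.GLK_128 (BB A0 NN Fr Inv hh gg tau0)
open Crest.Agent.R234.Gi_456 (hinv IsFoot)
open scoped InnerProductSpace

noncomputable section

namespace Crest.Agent.R234.Fm_281

variable {m n k : ℕ}

local notation "adj" => ContinuousLinearMap.adjoint

/-- tilt of `S` relative to the tangent space of the graph of `u` at `x` -/
def Nt (π : Euc k →L[ℝ] Euc m) (κ : Euc k →L[ℝ] Euc n) (u : Euc m → Euc n) (x : Euc m)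
    (S : L k) : ℝ := tau0 (adj π) (adj κ) (fderiv ℝ u x) (hinv (fderiv ℝ u x)) S

/-- comparison of the densities: `J`, `N` area factor and tilt in the physical space, `g`, `τ` area
density and tilt in the chart -/
structure Cmp (J N g τ l y C : ℝ) : Prop where
  main : |J * (1 - N / 2) - g * (1 - τ / 2)| ≤ C * ((l ^ 2 + l * y) * N + l ^ 2 * y ^ 2)
  τN : τ ≤ 2 * N + C * (l ^ 2 * y) ^ 2
  Nτ : N ≤ 2 * τ + C * (l ^ 2 * y) ^ 2
  N0 : 0 ≤ N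
  τ0 : 0 ≤ τ
  J1 : 1 / 2 ≤ J
  J2 : J ≤ 2
  g1 : 1 / 2 ≤ g
  g2 : g ≤ 2

/-- **pointwise comparison** -/
theorem exists_cmp (k : ℕ) : ∃ c C : ℝ, 0 < c ∧ c ≤ 1 / 8 ∧ 1 ≤ C ∧
    ∀ {m n : ℕ} {π : Euc k →L[ℝ] Euc m} {κ : Euc k →L[ℝ] Euc n} {u : Euc m → Euc n}
      {l e r : ℝ} {T : Dif k},
      Split π κ → ContDiff ℝ 3 u → 0 ≤ l → l ≤ c → Bd u l →
      (∀ x ∈ Metric.ball (0 : Euc m) r, Msys u x = 0) → IsChart T π κ u e →
      ∀ {z : Euc k} {S : L k}, ‖π z‖ < r → ‖κ z‖ ≤ 1 → S ∈ G m k →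
        Cmp (T.J (z, S)) (Nt π κ u (π z) (Ft_209.prj (T.A z) S)) (dns (fderiv ℝ u (π z)))
          (tl π S) l ‖κ z‖ C := by
  obtain ⟨c, C, hc, hc8, hC, h⟩ := F33_354.exists_ptw k
  refine ⟨c, C, hc, hc8, hC, ?_⟩
  intro m n π κ u l e r T hs hu hl hlc hb hM hT z S hz hy hS
  have hy3 : ‖κ z‖ < 3 := by linarith
  have hpt := Fc_209.pt hs hu hl hb hM hz (by rw [Fc_209.norm_vp hs]; exact hy) (0 : Euc k)
  have e1 : Nt π κ u (π z) (Ft_209.prj (T.A z) S) =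
    F32_354.tNP (gm (Fc_209.P π κ u z) (Fc_209.h π κ u z)) (hp π) S := tau0_eq hs hu hT hy3 S
  have hN0 : 0 ≤ Nt π κ u (π z) (Ft_209.prj (T.A z) S) :=
    tau0_nonneg' hs _ (Ft_209.prj_mem_G hS (T.injA z))
  have h1 := h m _ _ _ _ _ S l _ _ _ hpt hlc hS (by rw [← e1]; exact hN0)
  have e2 : T.J (z, S) = Jc (gm (Fc_209.P π κ u z) (Fc_209.h π κ u z)) S := by
    unfold Dif.J
    rw [hT.gm_eq z hy3]
    rfl
  have e3 : Real.sqrt (1 + star (Fc_209.P π κ u z) * Fc_209.P π κ u z).det =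
    dns (fderiv ℝ u (π z)) := g0_eq_dns hs hu z
  have e4 : tau (hp π) S = tl π S := tau_hp hS
  rw [← e1, ← e2, e3, e4, Fc_209.norm_vp hs] at h1
  obtain ⟨a1, a2, a3, a4, a5, a6, a7⟩ := h1
  refine ⟨a1, a2, a3, hN0, ?_, a4, a5, a6, a7⟩
  rw [← e4]
  exact tau_nonneg hpt.hH hS

/-- the same at a point of the physical space -/
theorem Cmp_pm {C c : ℝ} (h : ∀ {m n : ℕ} {π : Euc k →L[ℝ] Euc m} {κ : Euc k →L[ℝ] Euc n}
      {u : Euc m → Euc n} {l e r : ℝ} {T : Dif k},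
      Split π κ → ContDiff ℝ 3 u → 0 ≤ l → l ≤ c → Bd u l →
      (∀ x ∈ Metric.ball (0 : Euc m) r, Msys u x = 0) → IsChart T π κ u e →
      ∀ {z : Euc k} {S : L k}, ‖π z‖ < r → ‖κ z‖ ≤ 1 → S ∈ G m k →
        Cmp (T.J (z, S)) (Nt π κ u (π z) (Ft_209.prj (T.A z) S)) (dns (fderiv ℝ u (π z)))
          (tl π S) l ‖κ z‖ C)
    {π : Euc k →L[ℝ] Euc m} {κ : Euc k →L[ℝ] Euc n}
    {u : Euc m → Euc n} {l e r : ℝ} {T : Dif k}
    (hs : Split π κ) (hu : ContDiff ℝ 3 u) (hl : 0 ≤ l) (hlc : l ≤ c) (hb : Bd u l)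
    (hM : ∀ x ∈ Metric.ball (0 : Euc m) r, Msys u x = 0) (hT : IsChart T π κ u e)
    {p : Euc k × L k} (hz : ‖π (T.Ψ p.1)‖ < r) (hy : ‖κ (T.Ψ p.1)‖ ≤ 1) (hS : p.2 ∈ G m k) :
    Cmp (T.J (T.pm p)) (Nt π κ u (π (T.Ψ p.1)) p.2) (dns (fderiv ℝ u (π (T.Ψ p.1))))
      (tl π (T.pm p).2) l ‖κ (T.Ψ p.1)‖ C := by
  have h1 := h hs hu hl hlc hb hM hT (z := (T.pm p).1) (S := (T.pm p).2) hz hy (T.pm_mem hS)
  have e1 : Ft_209.prj (T.A (T.pm p).1) (T.pm p).2 = p.2 := T.prj_pm hS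
  rw [e1] at h1
  exact h1

end Crest.Agent.R234.Fm_281
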