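import Crest.Agent.R234.Fx2_281

/-!
# Row 234 (helper281), node F3-TRANS, chart half, file 3: the integral comparison
-/

set_option autoImplicit false

open MeasureTheory Filter Topology Set
open Crest.GeometryTopology.Submanifold
open Crest.Agent.R234.Vf_884
open Crest.Agent.R234.Ar_870 (IsCo tl)
open Crest.Agent.R234.Ft_209 (Dif IsPj)
open Crest.Agent.R234.Cy_870 (Split)
open Crest.Agent.R234.AS_456 (hp vp)
open Crest.Agent.R234.Fc_209 (IsChart Bd)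
open Crest.Agent.R234.Main_456 (Msys)
open Crest.Agent.R234.Ell1_3 (dns gdet gop)
open Crest.Agent.R234.GLK_128 (BB A0 NN Fr Inv hh gg tau0)
open Crest.Agent.R234.Gi_456 (hinv IsFoot)
open Crest.Agent.R234.Ex_46 (trans zoom hmt' restr)
open scoped InnerProductSpace ENNReal

noncomputable section

namespace Crest.Agent.R234.Fm_281

variable {m n k : ℕ}

local notation "adj" => ContinuousLinearMap.adjoint

theorem continuous_tl (π : Euc k →L[ℝ] Euc m) : Continuous fun S : L k => tl π S := by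
  exact Ar_870.measurable_tl π

theorem measurable_Nt {π : Euc k →L[ℝ] Euc m} {κ : Euc k →L[ℝ] Euc n} {u : Euc m → Euc n}
    (hu : ContDiff ℝ 3 u) {α : Type*} [MeasurableSpace α] {f : α → Euc m} {S : α → L k}
    (hf : Measurable f) (hS : Measurable S) : Measurable fun a => Nt π κ u (f a) (S a) := by
  have hq : Measurable fun a => fderiv ℝ u (f a) :=
    (hu.continuous_fderiv (by norm_num)).measurable.comp hf
  have hB : Measurable fun a => BB (adj π) (adj κ) (fderiv ℝ u (f a)) := by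
    have h1 : Continuous fun q : Euc m →L[ℝ] Euc n => BB (adj π) (adj κ) q := by
      unfold GLK_128.BB
      exact continuous_const.sub (continuous_const.clm_comp
        (ContinuousLinearMap.adjoint (𝕜 := ℝ) (E := Euc m) (F := Euc n)).continuous)
    exact h1.measurable.comp hq
  have hH : Measurable fun a => hinv (fderiv ℝ u (f a)) := by
    have h1 : Continuous fun q : Euc m →L[ℝ] Euc n => hh q := by
      unfold GLK_128.hh
      exact continuous_const.add (continuous_id.clm_comp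
        (ContinuousLinearMap.adjoint (𝕜 := ℝ) (E := Euc m) (F := Euc n)).continuous)
    exact Ft_209.measurable_inverse.comp (h1.measurable.comp hq)
  have hBa : Measurable fun a => adj (BB (adj π) (adj κ) (fderiv ℝ u (f a))) :=
    (ContinuousLinearMap.adjoint (𝕜 := ℝ) (E := Euc n) (F := Euc k)).continuous.measurable.comp hB
  have h2 : Measurable fun a => hinv (fderiv ℝ u (f a)) ∘L
      adj (BB (adj π) (adj κ) (fderiv ℝ u (f a))) := by
    have h : Continuous fun p : L n × (Euc k →L[ℝ] Euc n) => p.1 ∘L p.2 :=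
      continuous_fst.clm_comp continuous_snd
    exact h.measurable.comp (hH.prodMk hBa)
  have h3 : Measurable fun a => NN (adj π) (adj κ) (fderiv ℝ u (f a))
      (hinv (fderiv ℝ u (f a))) := by
    have h : Continuous fun p : (Euc n →L[ℝ] Euc k) × (Euc k →L[ℝ] Euc n) => p.1 ∘L p.2 :=
      continuous_fst.clm_comp continuous_snd
    exact h.measurable.comp (hB.prodMk h2)
  have h4 := Ft_209.measurable_comp h3 hS
  exact (Fm_209.trc (Euc k)).continuous.measurable.comp h4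

section Push

variable (T : Dif k) {V : Measure (Euc k × L k)} {W : Set (Euc k)}

theorem measurableSet_pre (hW : MeasurableSet W) :
    MeasurableSet {p : Euc k × L k | T.Ψ p.1 ∈ W} :=
  (T.continuousΨ.measurable.comp measurable_fst) hW

/-- integrals of the transported varifold over a set -/
theorem setIntegral_push (hW : MeasurableSet W) (F : Euc k × L k → ℝ) (hF : Measurable F) :
    ∫ p in W ×ˢ univ, F p ∂(T.push V) =
      ∫ p in {p | T.Ψ p.1 ∈ W}, (T.J (T.pm p))⁻¹ * F (T.pm p) ∂V := by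
  have hWm : MeasurableSet (W ×ˢ (univ : Set (L k))) := hW.prod .univ
  rw [← integral_indicator hWm, T.integral_push V _ (hF.indicator hWm).aestronglyMeasurable,
    ← integral_indicator (measurableSet_pre T hW)]
  refine integral_congr_ae (Filter.Eventually.of_forall fun p => ?_)
  by_cases hp : T.Ψ p.1 ∈ W
  · have h1 : T.pm p ∈ W ×ˢ (univ : Set (L k)) := ⟨hp, mem_univ _⟩
    have h2 : p ∈ {p : Euc k × L k | T.Ψ p.1 ∈ W} := hp
    simp only [indicator_of_mem h1, indicator_of_mem h2]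
  · have h1 : T.pm p ∉ W ×ˢ (univ : Set (L k)) := fun h => hp h.1
    have h2 : p ∉ {p : Euc k × L k | T.Ψ p.1 ∈ W} := hp
    simp only [indicator_of_notMem h1, indicator_of_notMem h2, mul_zero]

theorem setLIntegral_push (hW : MeasurableSet W) (F : Euc k × L k → ℝ≥0∞) (hF : Measurable F) :
    ∫⁻ p in W ×ˢ univ, F p ∂(T.push V) =
      ∫⁻ p in {p | T.Ψ p.1 ∈ W}, ENNReal.ofReal (T.J (T.pm p))⁻¹ * F (T.pm p) ∂V := by
  have hWm : MeasurableSet (W ×ˢ (univ : Set (L k))) := hW.prod .univ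
  rw [← lintegral_indicator hWm, T.lintegral_push V (hF.indicator hWm),
    ← lintegral_indicator (measurableSet_pre T hW)]
  refine lintegral_congr fun p => ?_
  by_cases hp : T.Ψ p.1 ∈ W
  · have h1 : T.pm p ∈ W ×ˢ (univ : Set (L k)) := ⟨hp, mem_univ _⟩
    have h2 : p ∈ {p : Euc k × L k | T.Ψ p.1 ∈ W} := hp
    simp only [indicator_of_mem h1, indicator_of_mem h2]
  · have h1 : T.pm p ∉ W ×ˢ (univ : Set (L k)) := fun h => hp h.1
    have h2 : p ∉ {p : Euc k × L k | T.Ψ p.1 ∈ W} := hp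
    simp only [indicator_of_notMem h1, indicator_of_notMem h2, mul_zero]

/-- one-sided comparison for nonnegative functions -/
theorem push_le (hW : MeasurableSet W) {F G : Euc k × L k → ℝ} (hF : Measurable F)
    (hF0 : ∀ p, 0 ≤ F p) (hG : IntegrableOn G {p | T.Ψ p.1 ∈ W} V)
    (h : ∀ᵐ p ∂V, T.Ψ p.1 ∈ W → F (T.pm p) ≤ G p ∧ 1 / 2 ≤ T.J (T.pm p)) :
    IntegrableOn F (W ×ˢ univ) (T.push V) ∧
      ∫ p in W ×ˢ univ, F p ∂(T.push V) ≤ 2 * ∫ p in {p | T.Ψ p.1 ∈ W}, G p ∂V := by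
  have hm := measurableSet_pre T hW
  have hae : ∀ᵐ p ∂(V.restrict {p : Euc k × L k | T.Ψ p.1 ∈ W}),
      (T.J (T.pm p))⁻¹ * F (T.pm p) ≤ 2 * G p := by
    filter_upwards [ae_restrict_of_ae h, ae_restrict_mem hm] with p hp hpW
    obtain ⟨h1, h2⟩ := hp hpW
    have h3 : (T.J (T.pm p))⁻¹ ≤ 2 := by
      rw [inv_le_comm₀ (by linarith) (by norm_num)]
      linarith
    exact mul_le_mul h3 h1 (hF0 _) (by norm_num)
  have h0 : ∀ p, 0 ≤ (T.J (T.pm p))⁻¹ * F (T.pm p) := fun p =>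
    mul_nonneg (inv_nonneg.2 (T.J_nonneg _)) (hF0 _)
  have hmeas : Measurable fun p => (T.J (T.pm p))⁻¹ * F (T.pm p) :=
    ((T.continuous_J.measurable.comp T.measurable_pm).inv).mul (hF.comp T.measurable_pm)
  have hint : IntegrableOn (fun p => (T.J (T.pm p))⁻¹ * F (T.pm p)) {p | T.Ψ p.1 ∈ W} V := by
    refine Integrable.mono' (hG.const_mul 2) hmeas.aestronglyMeasurable ?_
    filter_upwards [hae] with p hp
    rw [Real.norm_of_nonneg (h0 p)]
    exact hp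
  refine ⟨⟨hF.aestronglyMeasurable, ?_⟩, ?_⟩
  · unfold HasFiniteIntegral
    have e1 : ∀ p, ‖F p‖ₑ = ENNReal.ofReal (F p) := fun p => by
      rw [← ofReal_norm, Real.norm_of_nonneg (hF0 p)]
    simp_rw [e1]
    rw [setLIntegral_push T hW _ hF.ennreal_ofReal]
    have h2 := hint.2
    unfold HasFiniteIntegral at h2
    refine lt_of_le_of_lt (le_of_eq ?_) h2
    refine lintegral_congr fun p => ?_
    rw [← ENNReal.ofReal_mul (inv_nonneg.2 (T.J_nonneg _)), ← ofReal_norm,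
      Real.norm_of_nonneg (h0 p)]
  · rw [setIntegral_push T hW F hF, ← integral_const_mul]
    exact integral_mono_ae hint (hG.const_mul 2) hae

end Push

/-- hypotheses of the comparison -/
structure Hyp (π : Euc k →L[ℝ] Euc m) (κ : Euc k →L[ℝ] Euc n) (u : Euc m → Euc n) (l e r : ℝ)
    (T : Dif k) : Prop where
  hs : Split π κ
  hu : ContDiff ℝ 3 u
  hl : 0 ≤ l
  hb : Bd u l
  hM : ∀ x ∈ Metric.ball (0 : Euc m) r, Msys u x = 0
  hT : IsChart T π κ u e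

theorem real_cmp {J N g τ l y C k : ℝ} (h : Cmp J N g τ l y C) (hC : 1 ≤ C) (hl : 0 ≤ l)
    (hl1 : l ≤ 1) (hy : 0 ≤ y) (hy1 : y ≤ 1) (hτ : τ ≤ k) :
    |1 - N / 2| ≤ 1 + k + C ∧ |J⁻¹ * (g * (1 - τ / 2))| ≤ 4 * (1 + k) ∧
      |(1 - N / 2) - J⁻¹ * (g * (1 - τ / 2))| ≤ 2 * C * ((l ^ 2 + l * y) * N + l ^ 2 * y ^ 2) ∧
      |(l ^ 2 + l * y) * N + l ^ 2 * y ^ 2| ≤ 2 * (2 * k + C) + 1 := by
  obtain ⟨h1, h2, h3, h4, h5, h6, h7, h8, h9⟩ := h
  have hk : 0 ≤ k := h5.trans hτ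
  have hll : l ^ 2 ≤ 1 := by
    rw [sq]; exact mul_le_one₀ hl1 hl hl1
  have hly : l * y ≤ 1 := mul_le_one₀ hl1 hy hy1
  have hlly : l ^ 2 * y ≤ 1 := mul_le_one₀ hll hy hy1
  have hlly0 : 0 ≤ l ^ 2 * y := by positivity
  have e1 : (l ^ 2 * y) ^ 2 ≤ 1 := pow_le_one₀ hlly0 hlly
  have hN : N ≤ 2 * k + C := by nlinarith
  have hJ : J⁻¹ ≤ 2 := by
    rw [inv_le_comm₀ (by linarith) (by norm_num)]
    linarith
  have hJ0 : 0 < J := by linarith
  have hJi : 0 ≤ J⁻¹ := (inv_pos.2 hJ0).le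
  have hτ2 : |1 - τ / 2| ≤ 1 + k := by
    rw [abs_le]
    constructor <;> linarith
  refine ⟨?_, ?_, ?_, ?_⟩
  · rw [abs_le]
    constructor <;> linarith
  · rw [abs_mul, abs_mul, abs_of_nonneg hJi, abs_of_nonneg (by linarith : (0:ℝ) ≤ g)]
    calc J⁻¹ * (g * |1 - τ / 2|) ≤ 2 * (2 * (1 + k)) := by
          refine mul_le_mul hJ (mul_le_mul h9 hτ2 (abs_nonneg _) (by norm_num)) ?_ (by norm_num)
          exact mul_nonneg (by linarith) (abs_nonneg _)
      _ = _ := by ring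
  · have e2 : (1 - N / 2) - J⁻¹ * (g * (1 - τ / 2)) =
        J⁻¹ * (J * (1 - N / 2) - g * (1 - τ / 2)) := by
      field_simp
    rw [e2, abs_mul, abs_of_nonneg hJi, mul_assoc]
    exact mul_le_mul hJ h1 (abs_nonneg _) (by norm_num)
  · rw [abs_of_nonneg (by positivity)]
    have e3 : (l ^ 2 + l * y) * N ≤ 2 * (2 * k + C) := by
      refine mul_le_mul (by linarith) hN h4 (by norm_num)
    have e4 : l ^ 2 * y ^ 2 ≤ 1 := by
      have : y ^ 2 ≤ 1 := pow_le_one₀ hy hy1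
      exact mul_le_one₀ hll (sq_nonneg y) this
    linarith

set_option maxHeartbeats 800000 in
/-- **integral comparison** -/
theorem exists_trans (k : ℕ) : ∃ c C : ℝ, 0 < c ∧ c ≤ 1 / 8 ∧ 1 ≤ C ∧
    (∀ {m n : ℕ} {π : Euc k →L[ℝ] Euc m} {κ : Euc k →L[ℝ] Euc n} {u : Euc m → Euc n}
      {l e r : ℝ} {T : Dif k}, Hyp π κ u l e r T → l ≤ c →
      ∀ {p : Euc k × L k}, ‖π (T.Ψ p.1)‖ < r → ‖κ (T.Ψ p.1)‖ ≤ 1 → p.2 ∈ G m k →
        Cmp (T.J (T.pm p)) (Nt π κ u (π (T.Ψ p.1)) p.2) (dns (fderiv ℝ u (π (T.Ψ p.1))))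
          (tl π (T.pm p).2) l ‖κ (T.Ψ p.1)‖ C) ∧
    ∀ {m n : ℕ} {π : Euc k →L[ℝ] Euc m} {κ : Euc k →L[ℝ] Euc n} {u : Euc m → Euc n}
      {l e r : ℝ} {T : Dif k}, Hyp π κ u l e r T → l ≤ c →
      ∀ {V : Measure (Euc k × L k)} {W : Set (Euc k)} {g : Euc k → ℝ},
        (∀ᵐ p ∂V, p.2 ∈ G m k) → MeasurableSet W → Measurable g →
        IntegrableOn (fun p => g (T.Ψ p.1)) {p | T.Ψ p.1 ∈ W} V →
        (∀ᵐ p ∂V, T.Ψ p.1 ∈ W → ‖π (T.Ψ p.1)‖ < r ∧ ‖κ (T.Ψ p.1)‖ ≤ 1) →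
        |∫ p in {p | T.Ψ p.1 ∈ W}, g (T.Ψ p.1) * (1 - Nt π κ u (π (T.Ψ p.1)) p.2 / 2) ∂V -
          ∫ p in W ×ˢ univ, g p.1 * (dns (fderiv ℝ u (π p.1)) * (1 - tl π p.2 / 2))
            ∂(T.push V)| ≤
        C * ∫ p in {p | T.Ψ p.1 ∈ W}, |g (T.Ψ p.1)| *
          ((l ^ 2 + l * ‖κ (T.Ψ p.1)‖) * Nt π κ u (π (T.Ψ p.1)) p.2 +
            l ^ 2 * ‖κ (T.Ψ p.1)‖ ^ 2) ∂V := by
  obtain ⟨c, C, hc, hc8, hC, h⟩ := exists_cmp k
  have hpm : ∀ {m n : ℕ} {π : Euc k →L[ℝ] Euc m} {κ : Euc k →L[ℝ] Euc n} {u : Euc m → Euc n}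
      {l e r : ℝ} {T : Dif k}, Hyp π κ u l e r T → l ≤ c →
      ∀ {p : Euc k × L k}, ‖π (T.Ψ p.1)‖ < r → ‖κ (T.Ψ p.1)‖ ≤ 1 → p.2 ∈ G m k →
        Cmp (T.J (T.pm p)) (Nt π κ u (π (T.Ψ p.1)) p.2) (dns (fderiv ℝ u (π (T.Ψ p.1))))
          (tl π (T.pm p).2) l ‖κ (T.Ψ p.1)‖ C := by
    intro m n π κ u l e r T hh hlc p hz hy hS
    exact Cmp_pm h hh.hs hh.hu hh.hl hlc hh.hb hh.hM hh.hT hz hy hS
  have hC0 : 0 ≤ C := zero_le_one.trans hC
  refine ⟨c, 2 * C, hc, hc8, by linarith, ?_, ?_⟩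
  · intro m n π κ u l e r T hh hlc p hz hy hS
    have h1 := hpm hh hlc hz hy hS
    have hl := hh.hl
    have hy0 : 0 ≤ ‖κ (T.Ψ p.1)‖ := norm_nonneg _
    have hN0 := h1.N0
    refine ⟨h1.main.trans ?_, h1.τN.trans ?_, h1.Nτ.trans ?_, h1.N0, h1.τ0, h1.J1, h1.J2, h1.g1,
      h1.g2⟩
    · refine mul_le_mul_of_nonneg_right (by linarith) (by positivity)
    · have : C * (l ^ 2 * ‖κ (T.Ψ p.1)‖) ^ 2 ≤ 2 * C * (l ^ 2 * ‖κ (T.Ψ p.1)‖) ^ 2 :=
        mul_le_mul_of_nonneg_right (by linarith) (by positivity)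
      linarith
    · have : C * (l ^ 2 * ‖κ (T.Ψ p.1)‖) ^ 2 ≤ 2 * C * (l ^ 2 * ‖κ (T.Ψ p.1)‖) ^ 2 :=
        mul_le_mul_of_nonneg_right (by linarith) (by positivity)
      linarith
  intro m n π κ u l e r T hh hlc V W g hV hW hg hgi hreg
  have hl := hh.hl
  have hl1 : l ≤ 1 := by linarith
  have hm := measurableSet_pre T hW
  have hgm : Measurable fun p : Euc k × L k => g (T.Ψ p.1) :=
    hg.comp (T.continuousΨ.measurable.comp measurable_fst)
  have hx : Measurable fun p : Euc k × L k => π (T.Ψ p.1) :=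
    π.continuous.measurable.comp (T.continuousΨ.measurable.comp measurable_fst)
  have hyM : Measurable fun p : Euc k × L k => ‖κ (T.Ψ p.1)‖ :=
    (κ.continuous.measurable.comp (T.continuousΨ.measurable.comp measurable_fst)).norm
  have hNm : Measurable fun p : Euc k × L k => Nt π κ u (π (T.Ψ p.1)) p.2 :=
    measurable_Nt hh.hu hx measurable_snd
  have hdm : Measurable fun z : Euc k => dns (fderiv ℝ u (π z)) :=
    Ell1_3.dns_contDiff.continuous.measurable.comp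
      (((hh.hu.continuous_fderiv (by norm_num)).comp π.continuous).measurable)
  have htm : Measurable fun S : L k => 1 - tl π S / 2 :=
    (continuous_const.sub ((continuous_tl π).div_const 2)).measurable
  have hFm : Measurable fun p : Euc k × L k =>
      g p.1 * (dns (fderiv ℝ u (π p.1)) * (1 - tl π p.2 / 2)) :=
    (hg.comp measurable_fst).mul ((hdm.comp measurable_fst).mul (htm.comp measurable_snd))
  have hFm' : Measurable fun p : Euc k × L k => (T.J (T.pm p))⁻¹ *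
      (g (T.pm p).1 * (dns (fderiv ℝ u (π (T.pm p).1)) * (1 - tl π (T.pm p).2 / 2))) :=
    ((T.continuous_J.measurable.comp T.measurable_pm).inv).mul (hFm.comp T.measurable_pm)
  rw [setIntegral_push T hW _ hFm]
  -- pointwise bounds
  have hpt : ∀ᵐ p ∂(V.restrict {p : Euc k × L k | T.Ψ p.1 ∈ W}),
      |1 - Nt π κ u (π (T.Ψ p.1)) p.2 / 2| ≤ 1 + k + C ∧
      |(T.J (T.pm p))⁻¹ * (dns (fderiv ℝ u (π (T.pm p).1)) * (1 - tl π (T.pm p).2 / 2))| ≤
        4 * (1 + k) ∧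
      |(1 - Nt π κ u (π (T.Ψ p.1)) p.2 / 2) -
        (T.J (T.pm p))⁻¹ * (dns (fderiv ℝ u (π (T.pm p).1)) * (1 - tl π (T.pm p).2 / 2))| ≤
        2 * C * ((l ^ 2 + l * ‖κ (T.Ψ p.1)‖) * Nt π κ u (π (T.Ψ p.1)) p.2 +
          l ^ 2 * ‖κ (T.Ψ p.1)‖ ^ 2) ∧
      |(l ^ 2 + l * ‖κ (T.Ψ p.1)‖) * Nt π κ u (π (T.Ψ p.1)) p.2 +
          l ^ 2 * ‖κ (T.Ψ p.1)‖ ^ 2| ≤ 2 * (2 * k + C) + 1 := by
    filter_upwards [ae_restrict_of_ae hV, ae_restrict_of_ae hreg, ae_restrict_mem hm] with p h1 h2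
      hpW
    obtain ⟨h3, h4⟩ := h2 hpW
    have h5 := hpm hh hlc h3 h4 h1
    refine real_cmp h5 hC hl hl1 (norm_nonneg _) h4 ?_
    rw [← tau_hp (T.pm_mem h1)]
    exact tau_le (Fc_209.hp_mem_G hh.hs) (T.pm_mem h1)
  have i1 : IntegrableOn (fun p : Euc k × L k => g (T.Ψ p.1) *
      (1 - Nt π κ u (π (T.Ψ p.1)) p.2 / 2)) {p | T.Ψ p.1 ∈ W} V := by
    refine Integrable.mono' (hgi.norm.mul_const (1 + k + C))
      (hgm.mul (measurable_const.sub (hNm.div_const 2))).aestronglyMeasurable ?_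
    filter_upwards [hpt] with p hp
    rw [norm_mul, Real.norm_eq_abs (1 - _)]
    exact mul_le_mul_of_nonneg_left hp.1 (norm_nonneg _)
  have i2 : IntegrableOn (fun p : Euc k × L k => (T.J (T.pm p))⁻¹ *
      (g (T.pm p).1 * (dns (fderiv ℝ u (π (T.pm p).1)) * (1 - tl π (T.pm p).2 / 2))))
      {p | T.Ψ p.1 ∈ W} V := by
    refine Integrable.mono' (hgi.norm.mul_const (4 * (1 + k))) hFm'.aestronglyMeasurable ?_
    filter_upwards [hpt] with p hp
    have e1 : (T.J (T.pm p))⁻¹ *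
      (g (T.pm p).1 * (dns (fderiv ℝ u (π (T.pm p).1)) * (1 - tl π (T.pm p).2 / 2))) =
      g (T.pm p).1 * ((T.J (T.pm p))⁻¹ *
        (dns (fderiv ℝ u (π (T.pm p).1)) * (1 - tl π (T.pm p).2 / 2))) := by ring
    rw [e1, norm_mul, Real.norm_eq_abs ((T.J (T.pm p))⁻¹ * _)]
    exact mul_le_mul_of_nonneg_left hp.2.1 (norm_nonneg _)
  have i3 : IntegrableOn (fun p : Euc k × L k => 2 * C * (|g (T.Ψ p.1)| *
      ((l ^ 2 + l * ‖κ (T.Ψ p.1)‖) * Nt π κ u (π (T.Ψ p.1)) p.2 +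
        l ^ 2 * ‖κ (T.Ψ p.1)‖ ^ 2))) {p | T.Ψ p.1 ∈ W} V := by
    refine Integrable.const_mul ?_ (2 * C)
    refine Integrable.mono' (hgi.norm.mul_const (2 * (2 * k + C) + 1)) ?_ ?_
    · refine Measurable.aestronglyMeasurable ?_
      exact hgm.abs.mul (((measurable_const.add (measurable_const.mul hyM)).mul hNm).add
        (measurable_const.mul (hyM.pow_const 2)))
    filter_upwards [hpt] with p hp
    rw [norm_mul, Real.norm_eq_abs |g (T.Ψ p.1)|, abs_abs, Real.norm_eq_abs,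
      Real.norm_eq_abs]
    exact mul_le_mul_of_nonneg_left hp.2.2.2 (abs_nonneg _)
  rw [← integral_sub i1 i2, ← integral_const_mul]
  refine (abs_integral_le_integral_abs).trans ?_
  refine integral_mono_ae (i1.sub i2).abs i3 ?_
  filter_upwards [hpt] with p hp
  have e1 : g (T.Ψ p.1) * (1 - Nt π κ u (π (T.Ψ p.1)) p.2 / 2) - (T.J (T.pm p))⁻¹ *
      (g (T.pm p).1 * (dns (fderiv ℝ u (π (T.pm p).1)) * (1 - tl π (T.pm p).2 / 2))) =
      g (T.Ψ p.1) * ((1 - Nt π κ u (π (T.Ψ p.1)) p.2 / 2) - (T.J (T.pm p))⁻¹ *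
        (dns (fderiv ℝ u (π (T.pm p).1)) * (1 - tl π (T.pm p).2 / 2))) := by
    have : g (T.pm p).1 = g (T.Ψ p.1) := rfl
    rw [this]; ring
  rw [e1, abs_mul]
  have e2 : 2 * C * (|g (T.Ψ p.1)| * ((l ^ 2 + l * ‖κ (T.Ψ p.1)‖) *
      Nt π κ u (π (T.Ψ p.1)) p.2 + l ^ 2 * ‖κ (T.Ψ p.1)‖ ^ 2)) =
      |g (T.Ψ p.1)| * (2 * C * ((l ^ 2 + l * ‖κ (T.Ψ p.1)‖) *
      Nt π κ u (π (T.Ψ p.1)) p.2 + l ^ 2 * ‖κ (T.Ψ p.1)‖ ^ 2)) := by ring
  rw [e2]
  exact mul_le_mul_of_nonneg_left hp.2.2.1 (abs_nonneg _)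

end Crest.Agent.R234.Fm_281
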