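import Crest.Agent.R234.Fx4_281
import Crest.Agent.R234.F35_354
import Crest.Agent.R234.Core0_809

/-!
# Row 234 (helper281), node F3-LE (local estimate), file 1: the part of the varifold seen in the
zoomed Fermi chart
-/

set_option autoImplicit false

open MeasureTheory Filter Topology Set Metric
open Crest.GeometryTopology.Submanifold
open Crest.Agent.R234.Vf_884
open Crest.Agent.R234.Vc_164 (hom resc measurable_hom continuous_hom integral_resc)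
open Crest.Agent.R234.Ar_870 (IsCo tl)
open Crest.Agent.R234.Ft_209 (Dif IsPj)
open Crest.Agent.R234.Cy_870 (Split cyl isClosed_cyl)
open Crest.Agent.R234.Fc_209 (IsChart Bd)
open Crest.Agent.R234.Main_456 (Msys Frame)
open Crest.Agent.R234.Ell1_3 (dns gdet gop)
open Crest.Agent.R234.GLK_128 (BB A0 NN Fr Inv hh gg tau0)
open Crest.Agent.R234.Gi_456 (hinv IsFoot foot tube Gr yy)
open Crest.Agent.R234.Foot_842 (pt)
open Crest.Agent.R234.Nrm_842 (Zm zc)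
open Crest.Agent.R234.Grot_842 (rπ rρ)
open Crest.Agent.R234.F35_354 (Bp)
open scoped InnerProductSpace ENNReal

noncomputable section

namespace Crest.Agent.R234.Fm_281

variable {m n k : ℕ}

local notation "adj" => ContinuousLinearMap.adjoint

/-- a point with small normal component is in the tube -/
theorem mem_tube {π : Euc k →L[ℝ] Euc m} {ρ : Euc k →L[ℝ] Euc n} {x : Euc k} {r : ℝ}
    {w : Euc m → Euc n} (h : Gr r w) {z : Euc k} {X : Euc m} (hz : IsFoot π ρ x r w z X)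
    (hY : ‖ρ (z - x) - w X‖ ≤ 3 / 4 * r) : z ∈ tube π ρ x r w := by
  change ‖ρ (z - x) - w (π (z - x))‖ < r
  have h0 := h.pos
  have e1 : ρ (z - x) - w (π (z - x)) = (ρ (z - x) - w X) + (w X - w (π (z - x))) := by abel
  have h1 := h.lip X (π (z - x))
  have h2 : ‖X - π (z - x)‖ ≤ 1 / 8 * ‖ρ (z - x) - w X‖ := by
    have e2 : X - π (z - x) = adj (fderiv ℝ w X) (ρ (z - x) - w X) :=
      sub_eq_of_eq_add' hz.1
    rw [e2]
    refine (ContinuousLinearMap.le_opNorm _ _).trans ?_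
    rw [LinearIsometryEquiv.norm_map]
    exact mul_le_mul_of_nonneg_right (h.d1 X) (norm_nonneg _)
  rw [e1]
  have h3 := norm_add_le (ρ (z - x) - w X) (w X - w (π (z - x)))
  linarith

section Bp

variable {π : Euc k →L[ℝ] Euc m} {ρ : Euc k →L[ℝ] Euc n} {x : Euc k} {w w' U : Euc m → Euc n}
  {X0 : Euc m} {C κ t e : ℝ} {q : Euc m →L[ℝ] Euc n}
  {H : Euc m →L[ℝ] Euc m} {H' : Euc n →L[ℝ] Euc n} {T : Dif k}

/-- points of the cylinder of the chart, in the physical space -/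
theorem in_cyl (h : Bp π ρ x w X0 C κ t q H H' w' U T e) {z : Euc k}
    (hz : T.Ψ (zy π ρ x w X0 t z) ∈ cyl (rπ π ρ q H) (rρ π ρ q H') 0 4 1) :
    ‖foot π ρ x 1 w z - X0‖ < 5 * t ∧
      zc t q H w X0 (foot π ρ x 1 w z) = rπ π ρ q H (T.Ψ (zy π ρ x w X0 t z)) ∧
      z ∈ tube π ρ x 1 w ∧ ‖z - pt π ρ x w (foot π ρ x 1 w z)‖ ≤ 2 * t ∧
      ‖rρ π ρ q H' (T.Ψ (zy π ρ x w X0 t z))‖ ≤ ‖z - pt π ρ x w (foot π ρ x 1 w z)‖ / t := by
  obtain ⟨h4, h1⟩ := hz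
  rw [sub_zero] at h4
  have ht := h.zm.t0
  have ht16 := h.t16
  obtain ⟨X, hX, hzX, hF, hν⟩ := corr2 h.zm h.fr h.ct (x := x) (z := z) (r := 1) (by linarith)
    (by linarith) (by linarith)
  have e1 := h.gr.foot_eq hF
  rw [e1]
  have h2 : ‖z - pt π ρ x w X‖ ≤ 2 * t := by
    have : t * ‖rρ π ρ q H' (T.Ψ (zy π ρ x w X0 t z))‖ ≤ t * 1 :=
      mul_le_mul_of_nonneg_left h1 ht.le
    linarith
  have h5 : ‖X - X0‖ < 5 * t := by
    have h6 := h.zm.le_norm_zc hX.le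
    rw [hzX] at h6
    have h7 : t * (65 / 64 * ‖rπ π ρ q H (T.Ψ (zy π ρ x w X0 t z))‖) ≤ t * (65 / 64 * 4) := by
      gcongr
    linarith
  refine ⟨h5, hzX, ?_, h2, ?_⟩
  · refine mem_tube h.gr hF ?_
    have h3 := (Foot_842.foot_normal h.fr hF).2.1
    rw [← h3]
    refine (Fc_209.norm_κ_le (split_of_frame' h.fr) _).trans (h2.trans ?_)
    linarith
  · exact (corr1 h.zm h.fr h.ct hX.le hF (by linarith)).2.2

/-- physical points near the base point are in the cylinder -/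
theorem to_cyl (h : Bp π ρ x w X0 C κ t q H H' w' U T e) {z : Euc k}
    (hz : z ∈ tube π ρ x 1 w) (hX : ‖foot π ρ x 1 w z - X0‖ ≤ 6 * t)
    (hc : ‖zc t q H w X0 (foot π ρ x 1 w z)‖ ≤ 4)
    (hν : ‖z - pt π ρ x w (foot π ρ x 1 w z)‖ ≤ t) :
    T.Ψ (zy π ρ x w X0 t z) ∈ cyl (rπ π ρ q H) (rρ π ρ q H') 0 4 1 := by
  have ht := h.zm.t0
  obtain ⟨h1, -, h3⟩ := corr1 h.zm h.fr h.ct hX (h.gr.foot_spec hz) (by linarith)
  refine ⟨?_, h3.trans ?_⟩
  · rw [sub_zero, h1]; exact hc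
  · rw [div_le_one ht]; exact hν

/-- the set of the chart in the physical space -/
def Sc (π : Euc k →L[ℝ] Euc m) (ρ : Euc k →L[ℝ] Euc n) (x : Euc k) (w : Euc m → Euc n)
    (X0 : Euc m) (t : ℝ) (q : Euc m →L[ℝ] Euc n) (H : Euc m →L[ℝ] Euc m)
    (H' : Euc n →L[ℝ] Euc n) (T : Dif k) : Set (Euc k × L k) :=
  {p | T.Ψ (zy π ρ x w X0 t p.1) ∈ cyl (rπ π ρ q H) (rρ π ρ q H') 0 4 1}

theorem measurableSet_Sc : MeasurableSet (Sc π ρ x w X0 t q H H' T) := by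
  have h1 : Continuous fun p : Euc k × L k => T.Ψ (zy π ρ x w X0 t p.1) := by
    refine T.continuousΨ.comp ?_
    unfold zy
    fun_prop
  exact h1.measurable (isClosed_cyl _ _ _ _ _).measurableSet

/-- the data of the local estimate: `V` lives over the compact `K` near the surface -/
structure Lk (π : Euc k →L[ℝ] Euc m) (ρ : Euc k →L[ℝ] Euc n) (x : Euc k) (w : Euc m → Euc n)
    (X0 : Euc m) (t h0 : ℝ) (V : Measure (Euc k × L k)) (K : Set (Euc k)) : Prop where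
  conc : ∀ᵐ p ∂V, p.2 ∈ G m k
  cpt : IsCompact K
  sub : K ⊆ tube π ρ x 1 w
  fin : V (K ×ˢ univ) < ⊤
  hh : 0 ≤ h0
  ht : h0 ≤ t
  k1 : ∀ᵐ p ∂V, p.1 ∈ K → ‖foot π ρ x 1 w p.1 - X0‖ ≤ 5 * t →
    ‖p.1 - pt π ρ x w (foot π ρ x 1 w p.1)‖ ≤ h0
  k2 : ∀ᵐ p ∂V, p.1 ∈ tube π ρ x 1 w → ‖foot π ρ x 1 w p.1 - X0‖ ≤ 5 * t →
    ‖p.1 - pt π ρ x w (foot π ρ x 1 w p.1)‖ ≤ 2 * t → p.1 ∈ K

variable {V : Measure (Euc k × L k)} {K : Set (Euc k)} {h0 : ℝ}

/-- almost every point of the chart set lies over `K` -/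
theorem ae_Sc (h : Bp π ρ x w X0 C κ t q H H' w' U T e) (hK : Lk π ρ x w X0 t h0 V K) :
    ∀ᵐ p ∂V, p ∈ Sc π ρ x w X0 t q H H' T → p.1 ∈ K ∧
      ‖foot π ρ x 1 w p.1 - X0‖ < 5 * t ∧
      zc t q H w X0 (foot π ρ x 1 w p.1) = rπ π ρ q H (T.Ψ (zy π ρ x w X0 t p.1)) ∧
      ‖p.1 - pt π ρ x w (foot π ρ x 1 w p.1)‖ ≤ h0 ∧
      ‖rρ π ρ q H' (T.Ψ (zy π ρ x w X0 t p.1))‖ ≤
        ‖p.1 - pt π ρ x w (foot π ρ x 1 w p.1)‖ / t := by
  filter_upwards [hK.k1, hK.k2] with p h1 h2 hp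
  obtain ⟨a1, a2, a3, a4, a5⟩ := in_cyl h hp
  have a6 := h2 a3 a1.le a4
  exact ⟨a6, a1, a2, h1 a6 a1.le, a5⟩

theorem fin_Sc (h : Bp π ρ x w X0 C κ t q H H' w' U T e) (hK : Lk π ρ x w X0 t h0 V K) :
    V (Sc π ρ x w X0 t q H H' T) < ⊤ := by
  refine (measure_mono_ae ?_).trans_lt hK.fin
  filter_upwards [ae_Sc h hK] with p hp hpS
  exact ⟨(hp hpS).1, mem_univ _⟩

/-- **transfer of integrals** of functions vanishing away from the base point -/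
theorem transfer (h : Bp π ρ x w X0 C κ t q H H' w' U T e) (hK : Lk π ρ x w X0 t h0 V K)
    {F : Euc k × L k → ℝ} {F' : Euc k × L k → ℝ}
    (hF : ∀ᵐ p ∂V, p ∈ Sc π ρ x w X0 t q H H' T → F' p = F p)
    (h0' : ∀ p : Euc k × L k, p.1 ∈ K → (‖foot π ρ x 1 w p.1 - X0‖ ≤ 5 * t →
      4 < ‖zc t q H w X0 (foot π ρ x 1 w p.1)‖) → F' p = 0) :
    ∫ p in K ×ˢ univ, F' p ∂V = ∫ p in Sc π ρ x w X0 t q H H' T, F p ∂V := by
  have hm : MeasurableSet (K ×ˢ (univ : Set (L k))) := hK.cpt.isClosed.measurableSet.prod .univ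
  rw [← integral_indicator hm, ← integral_indicator measurableSet_Sc]
  refine integral_congr_ae ?_
  filter_upwards [ae_Sc h hK, hF, hK.k1] with p h1 h2 h3
  by_cases hp : p ∈ Sc π ρ x w X0 t q H H' T
  · have h4 : p ∈ K ×ˢ (univ : Set (L k)) := ⟨(h1 hp).1, mem_univ _⟩
    rw [indicator_of_mem h4, indicator_of_mem hp, h2 hp]
  · rw [indicator_of_notMem hp]
    by_cases h4 : p ∈ K ×ˢ (univ : Set (L k))
    · rw [indicator_of_mem h4]
      refine h0' p h4.1 fun h5 => ?_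
      by_contra h6
      have ht := h.zm.t0
      exact hp (to_cyl h (hK.sub h4.1) (by linarith) (not_lt.1 h6) ((h3 h4.1 h5).trans hK.ht))
    · rw [indicator_of_notMem h4]

/-- comparison for nonnegative functions -/
theorem transfer_le (h : Bp π ρ x w X0 C κ t q H H' w' U T e) (hK : Lk π ρ x w X0 t h0 V K)
    {F : Euc k × L k → ℝ} {F' : Euc k × L k → ℝ}
    (hF : ∀ᵐ p ∂V, p ∈ Sc π ρ x w X0 t q H H' T → F p ≤ F' p)
    (hF' : ∀ᵐ p ∂V, p.1 ∈ K → 0 ≤ F' p)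
    (hi : IntegrableOn F' {p | p.1 ∈ K ∧ ‖foot π ρ x 1 w p.1 - X0‖ < 5 * t} V)
    (hiF : IntegrableOn F (Sc π ρ x w X0 t q H H' T) V)
    (hmK : MeasurableSet {p : Euc k × L k | p.1 ∈ K ∧ ‖foot π ρ x 1 w p.1 - X0‖ < 5 * t}) :
    ∫ p in Sc π ρ x w X0 t q H H' T, F p ∂V ≤
      ∫ p in {p | p.1 ∈ K ∧ ‖foot π ρ x 1 w p.1 - X0‖ < 5 * t}, F' p ∂V := by
  rw [← integral_indicator hmK, ← integral_indicator measurableSet_Sc]
  refine integral_mono_ae ((integrable_indicator_iff measurableSet_Sc).2 hiF)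
    ((integrable_indicator_iff hmK).2 hi) ?_
  filter_upwards [ae_Sc h hK, hF, hF'] with p h1 h2 h3
  by_cases hp : p ∈ Sc π ρ x w X0 t q H H' T
  · have h4 : p ∈ {p : Euc k × L k | p.1 ∈ K ∧ ‖foot π ρ x 1 w p.1 - X0‖ < 5 * t} :=
      ⟨(h1 hp).1, (h1 hp).2.1⟩
    rw [indicator_of_mem h4, indicator_of_mem hp]
    exact h2 hp
  · rw [indicator_of_notMem hp]
    refine indicator_apply_nonneg fun h4 => h3 h4.1

end Bp

end Crest.Agent.R234.Fm_281
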