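import Crest.Agent.R234.Fx5_281

/-!
# Row 234 (helper281), node F3-LE (local estimate), file 2: auxiliary statements
-/

set_option autoImplicit false

open MeasureTheory Filter Topology Set Metric
open Crest.GeometryTopology.Submanifold
open Crest.Agent.R234.Vf_884
open Crest.Agent.R234.Vc_164 (hom resc measurable_hom continuous_hom integral_resc resc_conc)
open Crest.Agent.R234.Ar_870 (IsCo tl)
open Crest.Agent.R234.Ft_209 (Dif IsPj)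
open Crest.Agent.R234.Cy_870 (Split cyl isClosed_cyl)
open Crest.Agent.R234.Fc_209 (IsChart Bd)
open Crest.Agent.R234.Main_456 (Msys Frame)
open Crest.Agent.R234.Ell1_3 (dns gdet gop)
open Crest.Agent.R234.GLK_128 (BB A0 NN Fr Inv hh gg tau0)
open Crest.Agent.R234.Gi_456 (hinv IsFoot foot tube Gr yy)
open Crest.Agent.R234.Foot_842 (pt)
open Crest.Agent.R234.Nrm_842 (Zm zc)
open Crest.Agent.R234.Grot_842 (rπ rρ)
open Crest.Agent.R234.F35_354 (Bp)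
open scoped InnerProductSpace ENNReal

noncomputable section

namespace Crest.Agent.R234.Fm_281

variable {m n k : ℕ}

local notation "adj" => ContinuousLinearMap.adjoint

/-- the constant of the local estimate -/
def CLE (C0 C1 Cd : ℝ) : ℝ := 8 * C0 * Cd + C1 + C0 * (8 * C1 * Cd + 2 * Cd + 8 * Cd ^ 2)

theorem real_LE {C0 C1 Cd l y δ E Y en Yh an D1 A : ℝ} (hC0 : 0 ≤ C0) (hC1 : 0 ≤ C1)
    (hCd : 0 ≤ Cd) (hl : 0 ≤ l) (hl1 : l ≤ 1) (hy : 0 ≤ y) (hy1 : y ≤ 1) (hδ : 0 ≤ δ)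
    (hδ1 : δ ≤ Cd * (l * (l + y))) (hE : 0 ≤ E) (hY : 0 ≤ Y) (hen : 0 ≤ en)
    (hen1 : en ≤ 4 * E + 2 * C1 * (l ^ 4 * Y)) (hYh : 0 ≤ Yh) (hYh1 : Yh ≤ 2 * Y)
    (han : an ≤ C0 * (δ * (en + √(en * Yh)) + δ ^ 2 * Yh) + A)
    (hD1 : D1 ≤ C1 * ((l ^ 2 + l * y) * E + l ^ 2 * Y)) :
    an + D1 ≤ CLE C0 C1 Cd * ((l ^ 2 + l * y + y ^ 2) * E + l ^ 2 * Y) + A := by
  have hs : √(en * Yh) = √en * √Yh := Real.sqrt_mul hen Yh
  obtain ⟨a, ha⟩ : ∃ a, a = √en := ⟨_, rfl⟩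
  obtain ⟨b, hb⟩ : ∃ b, b = √Yh := ⟨_, rfl⟩
  have ha0 : 0 ≤ a := by rw [ha]; exact Real.sqrt_nonneg _
  have hb0 : 0 ≤ b := by rw [hb]; exact Real.sqrt_nonneg _
  have haa : a ^ 2 = en := by rw [ha]; exact Real.sq_sqrt hen
  have hbb : b ^ 2 = Yh := by rw [hb]; exact Real.sq_sqrt hYh
  rw [hs, ← ha, ← hb] at han
  have hly : 0 ≤ l * y := mul_nonneg hl hy
  have hll : 0 ≤ l ^ 2 := sq_nonneg l
  have hll1 : l ^ 2 ≤ 1 := by nlinarith
  have hly1 : l * y ≤ 1 := mul_le_one₀ hl1 hy hy1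
  have hyy1 : y ^ 2 ≤ 1 := by nlinarith
  have hyy : 0 ≤ y ^ 2 := sq_nonneg y
  have hab : 0 ≤ a * b := mul_nonneg ha0 hb0
  -- δ (a b)
  have e1 : δ * (a * b) ≤ Cd * ((l ^ 2 + y ^ 2) * en + l ^ 2 * Yh) := by
    have f1 : δ * (a * b) ≤ Cd * (l * (l + y)) * (a * b) := mul_le_mul_of_nonneg_right hδ1 hab
    have f2 : l * (l + y) * (a * b) ≤ (l ^ 2 + y ^ 2) * en + l ^ 2 * Yh := by
      rw [← haa, ← hbb]
      nlinarith [mul_nonneg hll (sq_nonneg (a - b)), sq_nonneg (y * a - l * b),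
        mul_nonneg hll (sq_nonneg a), mul_nonneg hyy (sq_nonneg a), mul_nonneg hll (sq_nonneg b)]
    calc δ * (a * b) ≤ Cd * (l * (l + y)) * (a * b) := f1
      _ = Cd * (l * (l + y) * (a * b)) := by ring
      _ ≤ _ := mul_le_mul_of_nonneg_left f2 hCd
  have e2 : δ * en ≤ Cd * ((l ^ 2 + l * y) * en) := by
    calc δ * en ≤ Cd * (l * (l + y)) * en := mul_le_mul_of_nonneg_right hδ1 hen
      _ = _ := by ring
  have e3 : δ ^ 2 * Yh ≤ 4 * Cd ^ 2 * (l ^ 2 * Yh) := by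
    have f1 : δ ≤ Cd * (2 * l) := by
      refine hδ1.trans (mul_le_mul_of_nonneg_left ?_ hCd)
      nlinarith
    have f2 : δ ^ 2 ≤ (Cd * (2 * l)) ^ 2 := pow_le_pow_left₀ hδ f1 2
    calc δ ^ 2 * Yh ≤ (Cd * (2 * l)) ^ 2 * Yh := mul_le_mul_of_nonneg_right f2 hYh
      _ = _ := by ring
  have e4 : δ * (en + a * b) + δ ^ 2 * Yh ≤
      Cd * ((2 * l ^ 2 + l * y + y ^ 2) * en) + (Cd + 4 * Cd ^ 2) * (l ^ 2 * Yh) := by
    have : Cd * ((2 * l ^ 2 + l * y + y ^ 2) * en) + (Cd + 4 * Cd ^ 2) * (l ^ 2 * Yh) =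
      Cd * ((l ^ 2 + l * y) * en) + Cd * ((l ^ 2 + y ^ 2) * en + l ^ 2 * Yh) +
        4 * Cd ^ 2 * (l ^ 2 * Yh) := by ring
    rw [this]
    linarith
  have hl4 : l ^ 4 * Y ≤ l ^ 2 * Y := by
    refine mul_le_mul_of_nonneg_right ?_ hY
    have : l ^ 4 = l ^ 2 * l ^ 2 := by ring
    rw [this]
    exact mul_le_of_le_one_right hll hll1
  have e5 : (2 * l ^ 2 + l * y + y ^ 2) * en ≤
      8 * ((l ^ 2 + l * y + y ^ 2) * E) + 8 * C1 * (l ^ 2 * Y) := by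
    have g1 : 0 ≤ 2 * l ^ 2 + l * y + y ^ 2 := by positivity
    have g2 : 2 * l ^ 2 + l * y + y ^ 2 ≤ 4 := by linarith
    have g3 : (2 * l ^ 2 + l * y + y ^ 2) * en ≤
        (2 * l ^ 2 + l * y + y ^ 2) * (4 * E + 2 * C1 * (l ^ 4 * Y)) :=
      mul_le_mul_of_nonneg_left hen1 g1
    have g4 : (2 * l ^ 2 + l * y + y ^ 2) * (4 * E) ≤ 8 * ((l ^ 2 + l * y + y ^ 2) * E) := by
      have g5 : (2 * l ^ 2 + l * y + y ^ 2) ≤ 2 * (l ^ 2 + l * y + y ^ 2) := by linarith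
      have g6 := mul_le_mul_of_nonneg_right g5 (by positivity : 0 ≤ 4 * E)
      calc _ ≤ _ := g6
        _ = _ := by ring
    have g7 : (2 * l ^ 2 + l * y + y ^ 2) * (2 * C1 * (l ^ 4 * Y)) ≤ 8 * C1 * (l ^ 2 * Y) := by
      have g8 : 0 ≤ 2 * C1 * (l ^ 4 * Y) := by positivity
      have g9 : (2 * l ^ 2 + l * y + y ^ 2) * (2 * C1 * (l ^ 4 * Y)) ≤
        4 * (2 * C1 * (l ^ 4 * Y)) := mul_le_mul_of_nonneg_right g2 g8
      have g10 : 2 * C1 * (l ^ 4 * Y) ≤ 2 * C1 * (l ^ 2 * Y) :=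
        mul_le_mul_of_nonneg_left hl4 (by positivity)
      linarith
    have g11 : (2 * l ^ 2 + l * y + y ^ 2) * (4 * E + 2 * C1 * (l ^ 4 * Y)) =
      (2 * l ^ 2 + l * y + y ^ 2) * (4 * E) +
        (2 * l ^ 2 + l * y + y ^ 2) * (2 * C1 * (l ^ 4 * Y)) := by ring
    linarith
  have e6 : l ^ 2 * Yh ≤ 2 * (l ^ 2 * Y) := by
    have := mul_le_mul_of_nonneg_left hYh1 hll
    linarith
  have e7 : δ * (en + a * b) + δ ^ 2 * Yh ≤
      8 * Cd * ((l ^ 2 + l * y + y ^ 2) * E) +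
        (8 * C1 * Cd + 2 * Cd + 8 * Cd ^ 2) * (l ^ 2 * Y) := by
    have g1 := mul_le_mul_of_nonneg_left e5 hCd
    have g2 : 0 ≤ Cd + 4 * Cd ^ 2 := by positivity
    have g3 := mul_le_mul_of_nonneg_left e6 g2
    linarith
  have e8 := mul_le_mul_of_nonneg_left e7 hC0
  have p1 : 0 ≤ (l ^ 2 + l * y + y ^ 2) * E := by positivity
  have p2 : 0 ≤ l ^ 2 * Y := by positivity
  have e9 : C1 * ((l ^ 2 + l * y) * E + l ^ 2 * Y) ≤
      C1 * ((l ^ 2 + l * y + y ^ 2) * E) + C1 * (l ^ 2 * Y) := by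
    have g1 : (l ^ 2 + l * y) * E ≤ (l ^ 2 + l * y + y ^ 2) * E :=
      mul_le_mul_of_nonneg_right (by linarith) hE
    have g2 := mul_le_mul_of_nonneg_left g1 hC1
    have g3 : C1 * ((l ^ 2 + l * y) * E + l ^ 2 * Y) =
      C1 * ((l ^ 2 + l * y) * E) + C1 * (l ^ 2 * Y) := by ring
    linarith
  have p3 : 0 ≤ C0 * (8 * C1 * Cd + 2 * Cd + 8 * Cd ^ 2) * ((l ^ 2 + l * y + y ^ 2) * E) :=
    mul_nonneg (by positivity) p1
  have p4 : 0 ≤ 8 * C0 * Cd * (l ^ 2 * Y) := mul_nonneg (by positivity) p2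
  have e10 : CLE C0 C1 Cd * ((l ^ 2 + l * y + y ^ 2) * E + l ^ 2 * Y) =
      C0 * (8 * Cd * ((l ^ 2 + l * y + y ^ 2) * E) +
        (8 * C1 * Cd + 2 * Cd + 8 * Cd ^ 2) * (l ^ 2 * Y)) +
      (C1 * ((l ^ 2 + l * y + y ^ 2) * E) + C1 * (l ^ 2 * Y)) +
      C0 * (8 * C1 * Cd + 2 * Cd + 8 * Cd ^ 2) * ((l ^ 2 + l * y + y ^ 2) * E) +
      8 * C0 * Cd * (l ^ 2 * Y) := by
    unfold CLE; ring
  rw [e10]
  linarith

/-- integrals of the rescaled measure over a set -/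
theorem setIntegral_resc (T : Dif k) {V : Measure (Euc k × L k)} {W : Set (Euc k)}
    (hW : MeasurableSet W) {z0 : Euc k} {t : ℝ} (ht : 0 < t) {F : Euc k × L k → ℝ}
    (hF : Measurable F) :
    ∫ p in {p | T.Ψ p.1 ∈ W}, F p ∂(resc m z0 t V) =
      (t ^ m)⁻¹ * ∫ p in {p | T.Ψ (t⁻¹ • (p.1 - z0)) ∈ W}, F (hom z0 t p) ∂V := by
  have hm := measurableSet_pre (k := k) T hW
  have hm' : MeasurableSet {p : Euc k × L k | T.Ψ (t⁻¹ • (p.1 - z0)) ∈ W} :=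
    measurable_hom z0 t hm
  rw [← integral_indicator hm, ← integral_indicator hm',
    integral_resc m z0 ht V (hF.indicator hm).aestronglyMeasurable]
  congr 1

section Bp

variable {π : Euc k →L[ℝ] Euc m} {ρ : Euc k →L[ℝ] Euc n} {x : Euc k} {w w' U : Euc m → Euc n}
  {X0 : Euc m} {C κ t e : ℝ} {q : Euc m →L[ℝ] Euc n}
  {H : Euc m →L[ℝ] Euc m} {H' : Euc n →L[ℝ] Euc n} {T : Dif k}
  {V : Measure (Euc k × L k)} {K : Set (Euc k)} {h0 : ℝ}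

theorem measurable_K' (hg : Gr 1 w) (hf : Frame π ρ) (hK : Lk π ρ x w X0 t h0 V K) :
    MeasurableSet {p : Euc k × L k | p.1 ∈ K ∧ ‖foot π ρ x 1 w p.1 - X0‖ < 5 * t} := by
  have h1 : ContinuousOn (fun z => ‖foot π ρ x 1 w z - X0‖) (tube π ρ x 1 w) :=
    ((hg.continuousOn_foot hf).sub continuousOn_const).norm
  have h2 : IsOpen (tube π ρ x 1 w ∩ (fun z => ‖foot π ρ x 1 w z - X0‖) ⁻¹' Iio (5 * t)) :=
    h1.isOpen_inter_preimage hg.isOpen_tube isOpen_Iio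
  have h3 : {p : Euc k × L k | p.1 ∈ K ∧ ‖foot π ρ x 1 w p.1 - X0‖ < 5 * t} =
      Prod.fst ⁻¹' (K ∩ (tube π ρ x 1 w ∩
        (fun z => ‖foot π ρ x 1 w z - X0‖) ⁻¹' Iio (5 * t))) := by
    ext p
    constructor
    · rintro ⟨a, b⟩
      exact ⟨a, hK.sub a, b⟩
    · rintro ⟨a, b⟩
      exact ⟨a, b.2⟩
  rw [h3]
  exact measurable_fst (hK.cpt.isClosed.measurableSet.inter h2.measurableSet)

/-- the physical integrand -/
def Gp (π : Euc k →L[ℝ] Euc m) (ρ : Euc k →L[ℝ] Euc n) (x : Euc k) (w : Euc m → Euc n)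
    (a b : ℝ) (p : Euc k × L k) : ℝ :=
  a * Nt π ρ w (foot π ρ x 1 w p.1) p.2 + b * ‖p.1 - pt π ρ x w (foot π ρ x 1 w p.1)‖ ^ 2

theorem integrable_Gp (hg : Gr 1 w) (hf : Frame π ρ) (hK : Lk π ρ x w X0 t h0 V K) (a b : ℝ) :
    IntegrableOn (Gp π ρ x w a b) (K ×ˢ univ) V := by
  have hm : MeasurableSet (K ×ˢ (univ : Set (L k))) := hK.cpt.isClosed.measurableSet.prod .univ
  have hOn : GL_394.On (V.restrict (K ×ˢ univ)) m K := by
    refine ⟨⟨by rw [Measure.restrict_apply_univ]; exact hK.fin⟩, ?_⟩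
    filter_upwards [ae_restrict_of_ae hK.conc, ae_restrict_mem hm] with p h1 h2
    exact ⟨h2.1, h1⟩
  refine hOn.integrable hK.cpt ?_
  have hr := hg.reg hf (x := x) X0
  have h1 : ContinuousOn (fun p : Euc k × L k => Nt π ρ w (foot π ρ x 1 w p.1) p.2)
      (K ×ˢ G m k) := hr.ctau.mono (prod_mono hK.sub Subset.rfl)
  have h2 : ContinuousOn (fun z => z - pt π ρ x w (foot π ρ x 1 w z)) (tube π ρ x 1 w) := by
    have h3 := hg.continuousOn_foot hf (x := x)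
    unfold Foot_842.pt
    exact continuousOn_id.sub ((continuousOn_const.add
      ((adj π).continuous.comp_continuousOn h3)).add
      ((adj ρ).continuous.comp_continuousOn (hg.differentiable.continuous.comp_continuousOn h3)))
  have h4 : ContinuousOn (fun p : Euc k × L k =>
      ‖p.1 - pt π ρ x w (foot π ρ x 1 w p.1)‖ ^ 2) (K ×ˢ G m k) :=
    ((h2.comp continuousOn_fst fun p hp => hK.sub hp.1).norm).pow 2
  exact (continuousOn_const.mul h1).add (continuousOn_const.mul h4)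

end Bp

end Crest.Agent.R234.Fm_281
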