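import Crest.Agent.R234.Fx6_281

/-!
# Row 234 (helper281), node F3-LE (local estimate), file 3: the local estimate at a base point
-/

set_option autoImplicit false

open MeasureTheory Filter Topology Set Metric
open Crest.GeometryTopology.Submanifold
open Crest.Agent.R234.Vf_884
open Crest.Agent.R234.Vc_164 (hom resc measurable_hom continuous_hom integral_resc resc_conc)
open Crest.Agent.R234.Ar_870 (IsCo tl)
open Crest.Agent.R234.Ft_209 (Dif IsPj)
open Crest.Agent.R234.Cy_870 (Split cyl isClosed_cyl)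
open Crest.Agent.R234.Fc_209 (IsChart Bd)
open Crest.Agent.R234.Main_456 (Msys Frame)
open Crest.Agent.R234.Ell1_3 (dns gdet gop)
open Crest.Agent.R234.GLK_128 (BB A0 NN Fr Inv hh gg tau0)
open Crest.Agent.R234.Gi_456 (hinv IsFoot foot tube Gr yy)
open Crest.Agent.R234.Foot_842 (pt)
open Crest.Agent.R234.Nrm_842 (Zm zc)
open Crest.Agent.R234.Grot_842 (rπ rρ)
open Crest.Agent.R234.F35_354 (Bp)
open Crest.Agent.R234.Ex_46 (trans zoom hmt' restr UU DD)
open Crest.Agent.R234.Core_809 (part anom en Yh)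
open Crest.Agent.R234.Loc1_290 (bump)
open scoped InnerProductSpace ENNReal

noncomputable section

namespace Crest.Agent.R234.Fm_281

variable {m n k : ℕ}

local notation "adj" => ContinuousLinearMap.adjoint

/-- the test function in the zoomed chart -/
def fB (U : Euc m → Euc n) (y : Euc m) : ℝ := bump 1 0 y / dns (fderiv ℝ U y)

/-- the test function at the foot -/
def Bf (t : ℝ) (q : Euc m →L[ℝ] Euc n) (H : Euc m →L[ℝ] Euc m) (w U : Euc m → Euc n)
    (X0 : Euc m) : Euc m → ℝ := (ball X0 (6 * t)).indicator fun X => fB U (zc t q H w X0 X)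

theorem fB_nonneg (U : Euc m → Euc n) (y : Euc m) : 0 ≤ fB U y :=
  div_nonneg (Loc1_290.bump_nonneg _ _ _) (Ell1_3.dns_pos _).le

theorem fB_le (U : Euc m → Euc n) (y : Euc m) : fB U y ≤ 1 := by
  unfold fB
  rw [div_le_one (Ell1_3.dns_pos _)]
  exact (Loc1_290.bump_le_one _ _ _).trans (Nrm_842.one_le_dns _)

theorem fB_zero (U : Euc m → Euc n) {y : Euc m} (hy : 1 ≤ ‖y‖) : fB U y = 0 := by
  unfold fB
  rw [Loc1_290.bump_eq_zero one_pos (by rwa [sub_zero]), zero_div]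

theorem fB_mul (U : Euc m → Euc n) (y : Euc m) : fB U y * dns (fderiv ℝ U y) = bump 1 0 y :=
  div_mul_cancel₀ _ (Ell1_3.dns_pos _).ne'

theorem measurable_fB {U : Euc m → Euc n} (hU : ContDiff ℝ 3 U) : Measurable (fB U) := by
  have h1 : Continuous fun y : Euc m => bump (1:ℝ) (0 : Euc m) y := by
    unfold Loc1_290.bump
    fun_prop
  have h2 : Continuous fun y : Euc m => dns (fderiv ℝ U y) :=
    Ell1_3.dns_contDiff.continuous.comp (hU.continuous_fderiv (by norm_num))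
  exact (h1.div h2 fun y => (Ell1_3.dns_pos _).ne').measurable

theorem ae_resc {V : Measure (Euc k × L k)} {z0 : Euc k} {t : ℝ} {q : Euc k × L k → Prop}
    (hm : MeasurableSet {p | q p}) (h : ∀ᵐ p ∂V, q (hom z0 t p)) :
    ∀ᵐ p ∂(resc m z0 t V), q p := by
  refine Measure.ae_smul_measure ?_ _
  rw [ae_map_iff (measurable_hom z0 t).aemeasurable hm]
  exact h

section Bp

variable {π : Euc k →L[ℝ] Euc m} {ρ : Euc k →L[ℝ] Euc n} {x : Euc k} {w w' U : Euc m → Euc n}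
  {X0 : Euc m} {C κ t e : ℝ} {q : Euc m →L[ℝ] Euc n}
  {H : Euc m →L[ℝ] Euc m} {H' : Euc n →L[ℝ] Euc n} {T : Dif k}
  {V : Measure (Euc k × L k)} {K : Set (Euc k)} {h0 : ℝ}

theorem hyp_of (h : Bp π ρ x w X0 C κ t q H H' w' U T e)
    (hM : ∀ y ∈ ball (0 : Euc m) 7, Msys U y = 0) :
    Hyp (rπ π ρ q H) (rρ π ρ q H') U (C * κ * t) e 7 T where
  hs := splitZ h.zm h.fr
  hu := cdU h.zm
  hl := by
    have := h.zm.C1
    have := h.zm.κ0
    have := h.zm.t0
    positivity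
  hb := Bd.of_iter fun j hj z => h.zm.bd j (by omega) z
  hM := hM
  hT := h.ct

/-- the mass of the chart cylinder -/
theorem resc_cyl (h : Bp π ρ x w X0 C κ t q H H' w' U T e) (hK : Lk π ρ x w X0 t h0 V K) :
    resc m (pt π ρ x w X0) t V {p | T.Ψ p.1 ∈ cyl (rπ π ρ q H) (rρ π ρ q H') 0 4 1} < ⊤ := by
  have hm := measurableSet_pre (k := k) T
    (isClosed_cyl (rπ π ρ q H) (rρ π ρ q H') 0 4 1).measurableSet
  rw [resc, Measure.smul_apply, Measure.map_apply (measurable_hom _ _) hm, smul_eq_mul]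
  exact ENNReal.mul_lt_top ENNReal.ofReal_lt_top (fin_Sc h hK)

/-- heights in the chart -/
theorem ae_height (h : Bp π ρ x w X0 C κ t q H H' w' U T e) (hK : Lk π ρ x w X0 t h0 V K) :
    ∀ᵐ p ∂(resc m (pt π ρ x w X0) t V),
      T.Ψ p.1 ∈ cyl (rπ π ρ q H) (rρ π ρ q H') 0 4 1 → ‖rρ π ρ q H' (T.Ψ p.1)‖ ≤ h0 / t := by
  refine ae_resc ?_ ?_
  · have h1 : Measurable fun p : Euc k × L k => ‖rρ π ρ q H' (T.Ψ p.1)‖ :=
      ((rρ π ρ q H').continuous.measurable.comp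
        (T.continuousΨ.measurable.comp measurable_fst)).norm
    have h2 := (measurableSet_pre (k := k) T
      (isClosed_cyl (rπ π ρ q H) (rρ π ρ q H') 0 4 1).measurableSet)
    have h3 : {p : Euc k × L k | T.Ψ p.1 ∈ cyl (rπ π ρ q H) (rρ π ρ q H') 0 4 1 →
        ‖rρ π ρ q H' (T.Ψ p.1)‖ ≤ h0 / t} =
        {p : Euc k × L k | T.Ψ p.1 ∈ cyl (rπ π ρ q H) (rρ π ρ q H') 0 4 1}ᶜ ∪
        {p : Euc k × L k | ‖rρ π ρ q H' (T.Ψ p.1)‖ ≤ h0 / t} := by
      ext p
      exact imp_iff_not_or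
    rw [h3]
    exact h2.compl.union (measurableSet_le h1 measurable_const)
  · filter_upwards [ae_Sc h hK] with p hp hpS
    obtain ⟨-, -, -, h4, h5⟩ := hp hpS
    refine h5.trans ?_
    have := h.zm.t0
    gcongr

/-- the physical side: transfer of the error integral -/
theorem err_le (h : Bp π ρ x w X0 C κ t q H H' w' U T e) (hK : Lk π ρ x w X0 t h0 V K)
    {a b a' b' : ℝ} (ha : 0 ≤ a) (haa : a ≤ a') (hb : 0 ≤ b) (hbb : b ≤ b' * t ^ 2)
    (hiF : IntegrableOn (fun p : Euc k × L k =>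
      a * Nt (rπ π ρ q H) (rρ π ρ q H') U (rπ π ρ q H (T.Ψ (zy π ρ x w X0 t p.1))) p.2 +
      b * ‖rρ π ρ q H' (T.Ψ (zy π ρ x w X0 t p.1))‖ ^ 2) (Sc π ρ x w X0 t q H H' T) V) :
    ∫ p in Sc π ρ x w X0 t q H H' T,
      (a * Nt (rπ π ρ q H) (rρ π ρ q H') U (rπ π ρ q H (T.Ψ (zy π ρ x w X0 t p.1))) p.2 +
      b * ‖rρ π ρ q H' (T.Ψ (zy π ρ x w X0 t p.1))‖ ^ 2) ∂V ≤
    ∫ p in {p | p.1 ∈ K ∧ ‖foot π ρ x 1 w p.1 - X0‖ < 5 * t}, Gp π ρ x w a' b' p ∂V := by
  have ht := h.zm.t0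
  have hb' : 0 ≤ b' := by
    have h1 : 0 ≤ b' * t ^ 2 := hb.trans hbb
    exact nonneg_of_mul_nonneg_left h1 (by positivity)
  refine transfer_le h hK ?_ ?_ ?_ hiF (measurable_K' h.gr h.fr hK)
  · filter_upwards [ae_Sc h hK, hK.conc] with p h1 hpG hpS
    obtain ⟨-, h2, h3, -, h5⟩ := h1 hpS
    unfold Gp
    rw [← h3, Nt_eq h.zm h.fr (by linarith)]
    have hN := tau0_nonneg' (split_of_frame' h.fr) (fderiv ℝ w (foot π ρ x 1 w p.1)) hpG
    have hN' : 0 ≤ Nt π ρ w (foot π ρ x 1 w p.1) p.2 := hN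
    refine add_le_add (mul_le_mul_of_nonneg_right haa hN') ?_
    obtain ⟨y, hy⟩ : ∃ y, y = ‖rρ π ρ q H' (T.Ψ (zy π ρ x w X0 t p.1))‖ := ⟨_, rfl⟩
    obtain ⟨ν, hν⟩ : ∃ ν, ν = ‖p.1 - pt π ρ x w (foot π ρ x 1 w p.1)‖ := ⟨_, rfl⟩
    rw [← hy, ← hν] at h5 ⊢
    have hy0 : 0 ≤ y := by rw [hy]; exact norm_nonneg _
    have h6 : y ^ 2 ≤ (ν / t) ^ 2 := pow_le_pow_left₀ hy0 h5 2
    calc b * y ^ 2 ≤ (b' * t ^ 2) * (ν / t) ^ 2 :=
          mul_le_mul hbb h6 (sq_nonneg y) (by positivity)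
      _ = b' * ν ^ 2 := by
          field_simp
  · filter_upwards [hK.conc] with p hpG _
    have hN' : 0 ≤ Nt π ρ w (foot π ρ x 1 w p.1) p.2 :=
      tau0_nonneg' (split_of_frame' h.fr) (fderiv ℝ w (foot π ρ x 1 w p.1)) hpG
    have ha' : 0 ≤ a' := ha.trans haa
    unfold Gp
    positivity
  · exact (integrable_Gp h.gr h.fr hK a' b').mono_set fun p hp => ⟨hp.1, mem_univ _⟩

/-- the physical side: the test function -/
theorem main_eq (h : Bp π ρ x w X0 C κ t q H H' w' U T e) (hK : Lk π ρ x w X0 t h0 V K) :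
    ∫ p in K ×ˢ univ, Bf t q H w U X0 (foot π ρ x 1 w p.1) *
        (1 - Nt π ρ w (foot π ρ x 1 w p.1) p.2 / 2) ∂V =
      ∫ p in Sc π ρ x w X0 t q H H' T, fB U (rπ π ρ q H (T.Ψ (zy π ρ x w X0 t p.1))) *
        (1 - Nt (rπ π ρ q H) (rρ π ρ q H') U (rπ π ρ q H (T.Ψ (zy π ρ x w X0 t p.1))) p.2 / 2)
          ∂V := by
  refine transfer h hK ?_ ?_
  · filter_upwards [ae_Sc h hK] with p h1 hpS
    obtain ⟨-, h2, h3, -, -⟩ := h1 hpS
    have ht := h.zm.t0
    have h6 : ‖foot π ρ x 1 w p.1 - X0‖ < 6 * t := by linarith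
    have h4 : Bf t q H w U X0 (foot π ρ x 1 w p.1) =
        fB U (zc t q H w X0 (foot π ρ x 1 w p.1)) := by
      unfold Bf
      rw [indicator_of_mem (mem_ball_iff_norm.2 h6)]
    rw [h4, ← h3, Nt_eq h.zm h.fr h6.le]
  · intro p hpK hp
    have h5 : Bf t q H w U X0 (foot π ρ x 1 w p.1) = 0 := by
      unfold Bf
      by_cases h6 : foot π ρ x 1 w p.1 ∈ ball X0 (6 * t)
      · rw [indicator_of_mem h6]
        by_cases h8 : ‖foot π ρ x 1 w p.1 - X0‖ ≤ 5 * t
        · have h7 := hp h8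
          exact fB_zero U (by linarith)
        · refine fB_zero U ?_
          have h9 := h.zm.le_norm_zc (mem_ball_iff_norm.1 h6).le
          have ht := h.zm.t0
          by_contra hcon
          push Not at h8 hcon
          have h10 : t * (65 / 64 * ‖zc t q H w X0 (foot π ρ x 1 w p.1)‖) ≤ t * (65 / 64 * 1) := by
            gcongr
          linarith
      · rw [indicator_of_notMem h6]
    rw [h5, zero_mul]

/-- the area side -/
theorem area_eq (h : Bp π ρ x w X0 C κ t q H H' w' U T e) :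
    ∫ X, Bf t q H w U X0 X * dns (fderiv ℝ w X) = t ^ m * ∫ y : Euc m, bump 1 0 y := by
  have h1 := h.zm.area (f := fB U) (fun y hy => fB_zero U (by linarith))
  simp_rw [fB_mul] at h1
  rw [← h1, ← integral_indicator measurableSet_ball]
  refine integral_congr_ae (Eventually.of_forall fun X => ?_)
  unfold Bf
  by_cases hX : X ∈ ball X0 (6 * t)
  · simp only [indicator_of_mem hX]
  · simp only [indicator_of_notMem hX, zero_mul]

end Bp

end Crest.Agent.R234.Fm_281
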