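import Crest.Agent.R234.Fx7_281

/-!
# Row 234 (helper281), node F3-LE (local estimate), file 4: **LE-a**, the local estimate at a base
point from the anomaly bound of the core
-/

set_option autoImplicit false

open MeasureTheory Filter Topology Set Metric
open Crest.GeometryTopology.Submanifold
open Crest.Agent.R234.Vf_884
open Crest.Agent.R234.Vc_164 (hom resc measurable_hom continuous_hom integral_resc resc_conc)
open Crest.Agent.R234.Ar_870 (IsCo tl)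
open Crest.Agent.R234.Ft_209 (Dif IsPj)
open Crest.Agent.R234.Cy_870 (Split cyl isClosed_cyl)
open Crest.Agent.R234.Fc_209 (IsChart Bd)
open Crest.Agent.R234.Main_456 (Msys Frame)
open Crest.Agent.R234.Ell1_3 (dns gdet gop)
open Crest.Agent.R234.Gi_456 (hinv IsFoot foot tube Gr yy)
open Crest.Agent.R234.Foot_842 (pt)
open Crest.Agent.R234.Nrm_842 (Zm zc)
open Crest.Agent.R234.Grot_842 (rπ rρ)
open Crest.Agent.R234.F35_354 (Bp)
open Crest.Agent.R234.Ex_46 (trans zoom hmt' restr UU DD)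
open Crest.Agent.R234.Core_809 (part anom en Yh)
open Crest.Agent.R234.Loc1_290 (bump)
open scoped InnerProductSpace ENNReal

noncomputable section

namespace Crest.Agent.R234.Fm_281

variable {m n k : ℕ}

/-- integrability of bounded functions on a set of finite measure -/
theorem intOn_bdd {α : Type*} [MeasurableSpace α] {μ : Measure α} {s : Set α} (hs : μ s < ⊤)
    {F : α → ℝ} (hF : Measurable F) {B : ℝ} (hB : ∀ᵐ p ∂(μ.restrict s), ‖F p‖ ≤ B) :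
    IntegrableOn F s μ := by
  have : IsFiniteMeasure (μ.restrict s) := ⟨by rw [Measure.restrict_apply_univ]; exact hs⟩
  exact Integrable.mono' (integrable_const B) hF.aestronglyMeasurable hB

/-- the integrals in the chart -/
theorem chart_int (k : ℕ) : ∃ c C1 : ℝ, 0 < c ∧ c ≤ 1 / 8 ∧ 1 ≤ C1 ∧
    ∀ {m n : ℕ} {P : Euc k →L[ℝ] Euc m} {R : Euc k →L[ℝ] Euc n} {U : Euc m → Euc n}
      {l e y0 : ℝ} {T : Dif k}, Hyp P R U l e 7 T → l ≤ c → 0 ≤ y0 → y0 ≤ 1 →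
      ∀ {V : Measure (Euc k × L k)} {Q δ A C0 Cd : ℝ}, (∀ᵐ p ∂V, p.2 ∈ G m k) →
      V {p | T.Ψ p.1 ∈ cyl P R 0 4 1} < ⊤ →
      (∀ᵐ p ∂V, T.Ψ p.1 ∈ cyl P R 0 4 1 → ‖R (T.Ψ p.1)‖ ≤ y0) →
      0 ≤ C0 → 0 ≤ Cd → 0 ≤ δ → δ ≤ Cd * (l * (l + y0)) →
      (∫ p in cyl P R 0 4 1 ×ˢ univ, bump 1 0 (P p.1) * (1 - tl P p.2 / 2) ∂(T.push V) -
          Q * ∫ v : Euc m, bump 1 0 v ≤
        C0 * (δ * ((∫ p in cyl P R 0 4 1 ×ˢ univ, tl P p.2 ∂(T.push V)) +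
          √((∫ p in cyl P R 0 4 1 ×ˢ univ, tl P p.2 ∂(T.push V)) *
            ∫ p in cyl P R 0 4 1 ×ˢ univ, ‖R p.1‖ ^ 2 ∂(T.push V))) +
          δ ^ 2 * ∫ p in cyl P R 0 4 1 ×ˢ univ, ‖R p.1‖ ^ 2 ∂(T.push V)) + A) →
      ∫ p in {p | T.Ψ p.1 ∈ cyl P R 0 4 1}, fB U (P (T.Ψ p.1)) *
          (1 - Nt P R U (P (T.Ψ p.1)) p.2 / 2) ∂V - Q * ∫ v : Euc m, bump 1 0 v ≤
        CLE C0 C1 Cd * ∫ p in {p | T.Ψ p.1 ∈ cyl P R 0 4 1},
          ((l ^ 2 + l * y0 + y0 ^ 2) * Nt P R U (P (T.Ψ p.1)) p.2 +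
            l ^ 2 * ‖R (T.Ψ p.1)‖ ^ 2) ∂V + A := by
  obtain ⟨c, C1, hc, hc8, hC1, hcmp, htr⟩ := exists_trans k
  refine ⟨c, C1, hc, hc8, hC1, ?_⟩
  intro m n P R U l e y0 T hh hlc hy00 hy01 V Q δ A C0 Cd hV hfin hht hC0 hCd hδ0 hδ hcore
  have hs := hh.hs
  have hl := hh.hl
  have hl1 : l ≤ 1 := by linarith
  have hWm : MeasurableSet (cyl P R 0 4 1) := (isClosed_cyl P R 0 4 1).measurableSet
  have hm := measurableSet_pre (k := k) T hWm
  have hWm' : MeasurableSet (cyl P R 0 4 1 ×ˢ (univ : Set (L k))) := hWm.prod .univ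
  have hreg : ∀ᵐ p ∂V, T.Ψ p.1 ∈ cyl P R 0 4 1 → ‖P (T.Ψ p.1)‖ < 7 ∧ ‖R (T.Ψ p.1)‖ ≤ 1 := by
    refine Eventually.of_forall fun p hp => ⟨?_, hp.2⟩
    have := hp.1
    rw [sub_zero] at this
    linarith
  have hΨ : Measurable fun p : Euc k × L k => T.Ψ p.1 :=
    T.continuousΨ.measurable.comp measurable_fst
  have hyM : Measurable fun p : Euc k × L k => ‖R (T.Ψ p.1)‖ :=
    (R.continuous.measurable.comp hΨ).norm
  have hNm : Measurable fun p : Euc k × L k => Nt P R U (P (T.Ψ p.1)) p.2 :=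
    measurable_Nt hh.hu (P.continuous.measurable.comp hΨ) measurable_snd
  have hgm : Measurable fun z : Euc k => fB U (P z) :=
    (measurable_fB hh.hu).comp P.continuous.measurable
  -- pointwise comparison
  have hC : ∀ᵐ p ∂(V.restrict {p : Euc k × L k | T.Ψ p.1 ∈ cyl P R 0 4 1}),
      Cmp (T.J (T.pm p)) (Nt P R U (P (T.Ψ p.1)) p.2) (dns (fderiv ℝ U (P (T.Ψ p.1))))
        (tl P (T.pm p).2) l ‖R (T.Ψ p.1)‖ C1 ∧ tl P (T.pm p).2 ≤ k ∧ ‖R (T.Ψ p.1)‖ ≤ 1 ∧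
        ‖R (T.Ψ p.1)‖ ≤ y0 := by
    filter_upwards [ae_restrict_of_ae hV, ae_restrict_of_ae hht, ae_restrict_mem hm] with p h1 h2 h3
    have h4 := h3.1
    rw [sub_zero] at h4
    refine ⟨hcmp hh hlc (by linarith) h3.2 h1, ?_, h3.2, h2 h3⟩
    rw [← tau_hp (T.pm_mem h1)]
    exact tau_le (Fc_209.hp_mem_G hs) (T.pm_mem h1)
  have hk0 : (0:ℝ) ≤ k := Nat.cast_nonneg k
  have hNb : ∀ᵐ p ∂(V.restrict {p : Euc k × L k | T.Ψ p.1 ∈ cyl P R 0 4 1}),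
      0 ≤ Nt P R U (P (T.Ψ p.1)) p.2 ∧ Nt P R U (P (T.Ψ p.1)) p.2 ≤ 2 * k + C1 := by
    filter_upwards [hC] with p hp
    obtain ⟨h1, h2, h3, -⟩ := hp
    refine ⟨h1.N0, h1.Nτ.trans ?_⟩
    have hy0 : 0 ≤ ‖R (T.Ψ p.1)‖ := norm_nonneg _
    have hll : l ^ 2 ≤ 1 := pow_le_one₀ hl hl1
    have h5 : (l ^ 2 * ‖R (T.Ψ p.1)‖) ^ 2 ≤ 1 :=
      pow_le_one₀ (by positivity) (mul_le_one₀ hll hy0 h3)
    have h6 : C1 * (l ^ 2 * ‖R (T.Ψ p.1)‖) ^ 2 ≤ C1 * 1 :=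
      mul_le_mul_of_nonneg_left h5 (by linarith)
    linarith
  have iN : IntegrableOn (fun p : Euc k × L k => Nt P R U (P (T.Ψ p.1)) p.2)
      {p | T.Ψ p.1 ∈ cyl P R 0 4 1} V := by
    refine intOn_bdd hfin hNm (B := 2 * k + C1) ?_
    filter_upwards [hNb] with p hp
    rw [Real.norm_of_nonneg hp.1]
    exact hp.2
  have iY : IntegrableOn (fun p : Euc k × L k => ‖R (T.Ψ p.1)‖ ^ 2)
      {p | T.Ψ p.1 ∈ cyl P R 0 4 1} V := by
    refine intOn_bdd hfin (hyM.pow_const 2) (B := 1) ?_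
    filter_upwards [hC] with p hp
    rw [norm_pow, norm_norm]
    exact pow_le_one₀ (norm_nonneg _) hp.2.2.1
  have ig : IntegrableOn (fun p : Euc k × L k => fB U (P (T.Ψ p.1)))
      {p | T.Ψ p.1 ∈ cyl P R 0 4 1} V := by
    refine intOn_bdd hfin (hgm.comp hΨ) (B := 1) (Eventually.of_forall fun p => ?_)
    rw [Real.norm_of_nonneg (fB_nonneg _ _)]
    exact fB_le _ _
  have main := htr hh hlc (V := V) (W := cyl P R 0 4 1) (g := fun z => fB U (P z)) hV hWm hgm ig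
    hreg
  -- names of the integrals
  obtain ⟨E, hE⟩ : ∃ E, E = ∫ p in {p | T.Ψ p.1 ∈ cyl P R 0 4 1},
    Nt P R U (P (T.Ψ p.1)) p.2 ∂V := ⟨_, rfl⟩
  obtain ⟨Y, hY⟩ : ∃ Y, Y = ∫ p in {p | T.Ψ p.1 ∈ cyl P R 0 4 1},
    ‖R (T.Ψ p.1)‖ ^ 2 ∂V := ⟨_, rfl⟩
  have hE0 : 0 ≤ E := by
    rw [hE]
    refine integral_nonneg_of_ae ?_
    filter_upwards [hNb] with p hp using hp.1
  have hY0 : 0 ≤ Y := by
    rw [hY]
    exact integral_nonneg fun p => by positivity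
  -- the error term
  have hD1 : C1 * ∫ p in {p | T.Ψ p.1 ∈ cyl P R 0 4 1}, |fB U (P (T.Ψ p.1))| *
      ((l ^ 2 + l * ‖R (T.Ψ p.1)‖) * Nt P R U (P (T.Ψ p.1)) p.2 +
        l ^ 2 * ‖R (T.Ψ p.1)‖ ^ 2) ∂V ≤ C1 * ((l ^ 2 + l * y0) * E + l ^ 2 * Y) := by
    refine mul_le_mul_of_nonneg_left ?_ (by linarith)
    rw [hE, hY, ← integral_const_mul, ← integral_const_mul,
      ← integral_add (iN.const_mul _) (iY.const_mul _)]
    refine integral_mono_of_nonneg ?_ ((iN.const_mul _).add (iY.const_mul _)) ?_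
    · filter_upwards [hNb] with p hp
      have hy0 : 0 ≤ ‖R (T.Ψ p.1)‖ := norm_nonneg _
      have := hp.1
      exact mul_nonneg (abs_nonneg _) (by positivity)
    · filter_upwards [hNb, hC] with p hp hp2
      have hy0 : 0 ≤ ‖R (T.Ψ p.1)‖ := norm_nonneg _
      have h1 := hp.1
      have h2 : |fB U (P (T.Ψ p.1))| ≤ 1 := by
        rw [abs_of_nonneg (fB_nonneg _ _)]; exact fB_le _ _
      have h3 : 0 ≤ (l ^ 2 + l * ‖R (T.Ψ p.1)‖) * Nt P R U (P (T.Ψ p.1)) p.2 +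
        l ^ 2 * ‖R (T.Ψ p.1)‖ ^ 2 := by positivity
      refine (mul_le_of_le_one_left h3 h2).trans (add_le_add ?_ le_rfl)
      refine mul_le_mul_of_nonneg_right ?_ h1
      have := mul_le_mul_of_nonneg_left hp2.2.2.2 hl
      linarith
  -- the tilt energy
  have htm : Measurable fun p : Euc k × L k => |tl P p.2| :=
    ((continuous_tl P).measurable.comp measurable_snd).abs
  have hpush := T.push_conc hV
  have e1 : ∫ p in cyl P R 0 4 1 ×ˢ univ, tl P p.2 ∂(T.push V) =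
      ∫ p in cyl P R 0 4 1 ×ˢ univ, |tl P p.2| ∂(T.push V) := by
    refine integral_congr_ae ?_
    filter_upwards [ae_restrict_of_ae hpush] with p hp
    rw [abs_of_nonneg]
    rw [← tau_hp hp]
    exact tau_nonneg (Fc_209.hp_mem_G hs) hp
  have hen0 : 0 ≤ ∫ p in cyl P R 0 4 1 ×ˢ univ, tl P p.2 ∂(T.push V) := by
    rw [e1]
    exact integral_nonneg fun p => abs_nonneg _
  have hen1 : ∫ p in cyl P R 0 4 1 ×ˢ univ, tl P p.2 ∂(T.push V) ≤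
      4 * E + 2 * C1 * (l ^ 4 * Y) := by
    rw [e1]
    have iG : IntegrableOn (fun p : Euc k × L k => 2 * Nt P R U (P (T.Ψ p.1)) p.2 +
        C1 * l ^ 4 * ‖R (T.Ψ p.1)‖ ^ 2) {p | T.Ψ p.1 ∈ cyl P R 0 4 1} V := by
      have h0 := (iN.const_mul 2).add (iY.const_mul (C1 * l ^ 4))
      exact h0
    have h1 := push_le T (V := V) hWm (F := fun p => |tl P p.2|)
      (G := fun p => 2 * Nt P R U (P (T.Ψ p.1)) p.2 + C1 * l ^ 4 * ‖R (T.Ψ p.1)‖ ^ 2) htm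
      (fun p => abs_nonneg _) iG ?_
    · refine h1.2.trans (le_of_eq ?_)
      rw [integral_add (iN.const_mul 2) (iY.const_mul (C1 * l ^ 4)), integral_const_mul,
        integral_const_mul, ← hE, ← hY]
      ring
    · filter_upwards [(ae_restrict_iff' hm).1 hC] with p hp hpW
      obtain ⟨h2, -⟩ := hp hpW
      refine ⟨?_, h2.J1⟩
      rw [abs_of_nonneg h2.τ0]
      refine h2.τN.trans (le_of_eq ?_)
      ring
  have hYh0 : 0 ≤ ∫ p in cyl P R 0 4 1 ×ˢ univ, ‖R p.1‖ ^ 2 ∂(T.push V) :=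
    integral_nonneg fun p => by positivity
  have hYh1 : ∫ p in cyl P R 0 4 1 ×ˢ univ, ‖R p.1‖ ^ 2 ∂(T.push V) ≤ 2 * Y := by
    have h1 := push_le T (V := V) hWm (F := fun p => ‖R p.1‖ ^ 2)
      (G := fun p => ‖R (T.Ψ p.1)‖ ^ 2)
      ((R.continuous.measurable.comp measurable_fst).norm.pow_const 2)
      (fun p => by positivity) iY ?_
    · rw [hY]; exact h1.2
    · filter_upwards [(ae_restrict_iff' hm).1 hC] with p hp hpW
      obtain ⟨h2, -⟩ := hp hpW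
      exact ⟨le_rfl, h2.J1⟩
  have hfinal := real_LE hC0 (by linarith) hCd hl hl1 hy00 hy01 hδ0 hδ hE0 hY0 hen0 hen1 hYh0 hYh1
    hcore hD1
  -- the main term
  have e2 : ∫ p in cyl P R 0 4 1 ×ˢ univ, fB U (P p.1) *
      (dns (fderiv ℝ U (P p.1)) * (1 - tl P p.2 / 2)) ∂(T.push V) =
      ∫ p in cyl P R 0 4 1 ×ˢ univ, bump 1 0 (P p.1) * (1 - tl P p.2 / 2) ∂(T.push V) := by
    refine integral_congr_ae (Eventually.of_forall fun p => ?_)
    simp only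
    rw [← mul_assoc, fB_mul]
  rw [e2] at main
  have e3 : ∫ p in {p | T.Ψ p.1 ∈ cyl P R 0 4 1},
      ((l ^ 2 + l * y0 + y0 ^ 2) * Nt P R U (P (T.Ψ p.1)) p.2 +
        l ^ 2 * ‖R (T.Ψ p.1)‖ ^ 2) ∂V = (l ^ 2 + l * y0 + y0 ^ 2) * E + l ^ 2 * Y := by
    rw [integral_add (iN.const_mul _) (iY.const_mul _), integral_const_mul, integral_const_mul,
      ← hE, ← hY]
  rw [e3]
  have h1 := (abs_le.1 main).2
  linarith

end Crest.Agent.R234.Fm_281
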