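import Crest.Agent.R234.GL1_394

/-!
# Row 234, VF-GL, part 2 (helper394)

Continuity of the coefficients, divergence theorem on the base, and (G1).
-/

set_option autoImplicit false

open MeasureTheory Set Function Filter Topology
open Crest.GeometryTopology.Submanifold
open Crest.Agent.R234.Vf_884 Crest.Agent.R234.Ar_870 Crest.Agent.R234.Cy_870
open scoped ENNReal NNReal InnerProductSpace

noncomputable section

namespace Crest.Agent.R234.GL_394

variable {m k : ℕ} {c : Ch m k} {K : Set (Euc k)} {D : Set (Euc m)}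
  {V : Measure (Euc k × L k)} {g g1 g2 : ℝ → ℝ} {Q l : ℝ}

theorem lift {E : Type*} [TopologicalSpace E] {F : Euc k → E} (hF : ContinuousOn F K) :
    ContinuousOn (fun p : Euc k × L k => F p.1) (K ×ˢ G m k) :=
  hF.comp continuousOn_fst (fun _ hp => hp.1)

theorem cP : ContinuousOn (fun p : Euc k × L k => p.2) (K ×ˢ G m k) := continuousOn_snd

theorem ctr {d : ℕ} {S : Set (Euc k × L k)} {F : Euc k × L k → L d} (hF : ContinuousOn F S) :
    ContinuousOn (fun p => tr (F p)) S :=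
  (tr (k := d)).continuous.comp_continuousOn hF

namespace Ok

theorem cx (h : Ok c K D) : ContinuousOn c.x K := fun z hz =>
  (h.hx z hz).continuousAt.continuousWithinAt
theorem cf (h : Ok c K D) : ContinuousOn c.f K := fun z hz =>
  (h.hf z hz).continuousAt.continuousWithinAt
theorem cnu (h : Ok c K D) : ContinuousOn c.nu K := fun z hz =>
  (h.hnu z hz).continuousAt.continuousWithinAt
theorem cA (h : Ok c K D) : ContinuousOn c.A K := fun z hz =>
  (h.hA z hz).continuousAt.continuousWithinAt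
theorem cgi (h : Ok c K D) : ContinuousOn c.gi D := fun z hz =>
  (h.hgi z hz).continuousAt.continuousWithinAt
theorem cj (h : Ok c K D) : ContinuousOn c.j D := fun z hz =>
  (h.hj z hz).continuousAt.continuousWithinAt
theorem cbe (h : Ok c K D) : ContinuousOn c.be D := fun z hz =>
  (h.hdbe z hz).continuousAt.continuousWithinAt

theorem liftD (h : Ok c K D) {E : Type*} [TopologicalSpace E] {F : Euc m → E}
    (hF : ContinuousOn F D) :
    ContinuousOn (fun p : Euc k × L k => F (c.x p.1)) (K ×ˢ G m k) :=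
  lift (hF.comp h.cx h.mem)

theorem cker (h : Ok c K D) {q : ℝ → ℝ} (hq : Continuous q) (l : ℝ) :
    ContinuousOn (fun p : Euc k × L k => q (Real.exp (-2 * l) * ‖c.x p.1‖ ^ 2)) (K ×ˢ G m k) :=
  hq.comp_continuousOn (continuousOn_const.mul ((lift h.cx).norm.pow 2))

theorem cT (h : Ok c K D) : ContinuousOn (T c) (K ×ˢ G m k) :=
  (lift h.cdx).clm_comp (cP.clm_comp (lift h.cA))

theorem cGam (h : Ok c K D) {v : Euc k × L k → Euc m} (hv : ContinuousOn v (K ×ˢ G m k)) :
    ContinuousOn (fun p => Gam c p (v p)) (K ×ˢ G m k) := by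
  unfold Gam
  have h1 : ContinuousOn (fun p : Euc k × L k => (c.dA p.1).flip) (K ×ˢ G m k) :=
    (ContinuousLinearMap.flipₗᵢ ℝ (Euc k) (Euc m) (Euc k)).continuous.comp_continuousOn
      (lift h.cdA)
  exact ctr ((h1.clm_apply hv).clm_comp cP)

theorem cxi (h : Ok c K D) : ContinuousOn (xi c) K := by
  unfold xi
  have h1 : ContinuousOn (fun z => ContinuousLinearMap.adjoint (c.dx z)) K :=
    (ContinuousLinearMap.adjoint (𝕜 := ℝ) (E := Euc k) (F := Euc m)).continuous.comp_continuousOn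
      h.cdx
  exact h1.clm_apply h.cx

theorem cgv (h : Ok c K D) : ContinuousOn (fun v => c.gi v v) D := h.cgi.clm_apply continuousOn_id

theorem czeta (h : Ok c K D) : ContinuousOn (zeta c) K := by
  unfold zeta
  exact h.cxi.sub (h.cA.clm_apply (h.cgv.comp h.cx h.mem))

theorem cdgv (h : Ok c K D) : ContinuousOn (dgv c) D := by
  unfold dgv
  have h1 : ContinuousOn (fun v => (c.dgi v).flip) D :=
    (ContinuousLinearMap.flipₗᵢ ℝ (Euc m) (Euc m) (Euc m)).continuous.comp_continuousOn h.cdgi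
  exact h.cgi.add (h1.clm_apply continuousOn_id)

theorem cth (h : Ok c K D) : ContinuousOn (th c) D := by
  unfold th
  exact (((tr (k := m)).continuous.comp_continuousOn h.cdbe).add
    (h.clam.inner h.cbe)).sub continuousOn_const

theorem cth3 (h : Ok c K D) : ContinuousOn (th3 c) D := by
  unfold th3
  exact (((tr (k := m)).continuous.comp_continuousOn h.cdgv).add
    (h.clam.inner h.cgv)).sub (continuousOn_const.mul h.cmu)

theorem cep1 (h : Ok c K D) : ContinuousOn (ep1 c) (K ×ˢ G m k) := by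
  unfold ep1
  refine ((h.ctau.sub (continuousOn_const.sub (ctr h.cT))).sub (ctr ?_)).add
    ((h.cGam (h.liftD h.cbe)).sub ((h.liftD h.clam).inner (h.liftD h.cbe)))
  exact ((h.liftD h.cdbe).sub continuousOn_const).clm_comp (continuousOn_const.sub h.cT)

theorem cep2 (h : Ok c K D) : ContinuousOn (ep2 c) (K ×ˢ G m k) := by
  unfold ep2
  exact (ctr ((lift h.cH).clm_comp cP)).sub h.ctau

theorem crt (h : Ok c K D) : ContinuousOn (rt c) (K ×ˢ G m k) := by
  unfold rt
  exact (lift h.cx).inner ((continuousOn_const.sub h.cT).clm_apply (h.liftD h.cbe))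

theorem crr (h : Ok c K D) : ContinuousOn (rr c) (K ×ˢ G m k) := by
  unfold rr
  have h1 : ContinuousOn (fun p : Euc k × L k => (c.mu (c.x p.1))⁻¹) (K ×ˢ G m k) :=
    (h.liftD h.cmu).inv₀ fun p hp => (h.mupos _ (h.mem _ hp.1)).ne'
  exact h1.mul (((lift h.cxi).sub (cP.clm_apply (lift h.cxi))).norm.pow 2)

theorem cph (h : Ok c K D) : ContinuousOn (ph c) (K ×ˢ G m k) := by
  unfold ph
  exact (lift h.cx).inner ((lift h.cdx).clm_apply (cP.clm_apply (lift h.cnu)))

theorem be_inner (h : Ok c K D) {v : Euc m} (hv : v ∈ D) : ⟪v, c.be v⟫_ℝ = ‖v‖ ^ 2 := by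
  rw [h.hbe v hv, inner_smul_right, h.hmu v hv, ← mul_assoc, inv_mul_cancel₀ (h.mupos v hv).ne',
    one_mul]

theorem f_nonneg (h : Ok c K D) {z : Euc k} (hz : z ∈ K) : 0 ≤ c.f z := by
  have h1 := h.nusq z hz
  have h2 : 0 ≤ ‖c.nu z‖ ^ 2 := by positivity
  linarith

theorem rt_eq (h : Ok c K D) {p : Euc k × L k} (hp : p ∈ K ×ˢ G m k) :
    rt c p = ‖c.x p.1‖ ^ 2 - ⟪c.x p.1, T c p (c.be (c.x p.1))⟫_ℝ := by
  unfold rt
  rw [sub_apply, inner_sub_right]
  congr 1
  exact h.be_inner (h.mem _ hp.1)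

end Ok

/-! ### divergence theorem -/

theorem integral_tr_eq_zero {Y : Euc m → Euc m} {Y' : Euc m → L m}
    (hY : ∀ v, HasFDerivAt Y (Y' v) v) (hYc : Integrable Y)
    (hY'c : ∀ u, Integrable fun v => Y' v u) : ∫ v, tr (Y' v) = 0 := by
  have h1 : ∀ v, tr (Y' v) = ∑ i, ⟪stdVec m i, Y' v (stdVec m i)⟫_ℝ := fun v => tr_eq_sum _
  simp_rw [h1]
  have h3 : ∀ i, Integrable fun v => ⟪stdVec m i, Y' v (stdVec m i)⟫_ℝ := fun i =>
    (hY'c (stdVec m i)).const_inner _
  rw [integral_finsetSum _ fun i _ => h3 i]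
  refine Finset.sum_eq_zero fun i _ => ?_
  have hd : ∀ v, HasFDerivAt (fun v => ⟪stdVec m i, Y v⟫_ℝ)
      ((innerSL ℝ (stdVec m i)) ∘L (Y' v)) v := fun v =>
    ((innerSL ℝ (stdVec m i)).hasFDerivAt.comp v (hY v))
  have hfd : ∀ v, fderiv ℝ (fun v => ⟪stdVec m i, Y v⟫_ℝ) v (stdVec m i) =
      ⟪stdVec m i, Y' v (stdVec m i)⟫_ℝ := fun v => by
    rw [(hd v).fderiv]; rfl
  have h4 := integral_mul_fderiv_eq_neg_fderiv_mul_of_integrable (μ := (volume : Measure (Euc m)))
    (f := fun _ => (1:ℝ)) (g := fun v => ⟪stdVec m i, Y v⟫_ℝ) (v := stdVec m i)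
    (by simp) (by simpa only [one_mul, hfd] using h3 i)
    (by simpa only [one_mul] using hYc.const_inner (stdVec m i))
    (fun x _ => differentiableAt_const _) (fun x _ => (hd x).differentiableAt)
  simpa only [one_mul, hfd, fderiv_fun_const, Pi.zero_apply, zero_apply,
    zero_mul, integral_zero, neg_zero] using h4

theorem integrable_ball {E : Type*} [NormedAddCommGroup E] {F : Euc m → E} {R : ℝ}
    (hc : ContinuousOn F (Metric.closedBall 0 R)) (h0 : ∀ v, v ∉ Metric.closedBall 0 R → F v = 0) :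
    Integrable F := by
  refine (integrableOn_iff_integrable_of_support_subset (s := Metric.closedBall 0 R) ?_).1
    (hc.integrableOn_compact (isCompact_closedBall _ _))
  intro v hv
  by_contra hcon
  exact hv (h0 v hcon)

theorem one_le_t {v : Euc m} (hv : v ∉ Metric.closedBall (0 : Euc m) (Real.exp l)) :
    1 ≤ Real.exp (-2 * l) * ‖v‖ ^ 2 := by
  rw [mem_closedBall_zero_iff, not_le] at hv
  have h1 : Real.exp l ^ 2 ≤ ‖v‖ ^ 2 := pow_le_pow_left₀ (Real.exp_pos _).le hv.le 2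
  calc (1:ℝ) = Real.exp (-2 * l) * Real.exp l ^ 2 := by
        rw [← Real.exp_nat_mul, ← Real.exp_add]; simp
    _ ≤ _ := by gcongr

/-- the radial cut-off has derivative ... -/
theorem cker_v {q : ℝ → ℝ} (hq : Continuous q) (l : ℝ) :
    Continuous fun v : Euc m => q (Real.exp (-2 * l) * ‖v‖ ^ 2) :=
  hq.comp (continuous_const.mul (continuous_norm.pow 2))

theorem leb_div (h : Ok c K D) (hg : Ker g g1) (hl : Metric.closedBall 0 (Real.exp l) ⊆ D) :
    ∫ v : Euc m, c.j v * (-2 * (Real.exp (-2 * l) * ‖v‖ ^ 2 * g1 (Real.exp (-2 * l) * ‖v‖ ^ 2))) =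
      m * (∫ v : Euc m, c.j v * g (Real.exp (-2 * l) * ‖v‖ ^ 2)) +
        ∫ v : Euc m, th c v * c.j v * g (Real.exp (-2 * l) * ‖v‖ ^ 2) := by
  classical
  set B : Set (Euc m) := Metric.closedBall 0 (Real.exp l) with hB
  set Y : Euc m → Euc m := fun v => (g (Real.exp (-2 * l) * ‖v‖ ^ 2) * c.j v) • c.be v with hYdef
  set Y' : Euc m → L m := fun v => (g (Real.exp (-2 * l) * ‖v‖ ^ 2) * c.j v) • c.dbe v +
    (g (Real.exp (-2 * l) * ‖v‖ ^ 2) • (c.j v • innerSL ℝ (c.lam v)) +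
      c.j v • innerSL ℝ ((2 * Real.exp (-2 * l) * g1 (Real.exp (-2 * l) * ‖v‖ ^ 2)) • v)).smulRight
      (c.be v) with hY'def
  have hz : ∀ v, v ∉ B → g (Real.exp (-2 * l) * ‖v‖ ^ 2) = 0 := fun v hv =>
    hg.zero _ (one_le_t hv)
  have hz1 : ∀ v, v ∉ B → g1 (Real.exp (-2 * l) * ‖v‖ ^ 2) = 0 := fun v hv =>
    hg.zero' _ (one_le_t hv)
  have hY0 : ∀ v, v ∉ B → Y v = 0 := fun v hv => by
    rw [hYdef]
    simp only [hz v hv, zero_mul, zero_smul]
  have hY'0 : ∀ v, v ∉ B → Y' v = 0 := fun v hv => by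
    rw [hY'def]
    simp only [hz v hv, hz1 v hv, zero_mul, zero_smul, mul_zero, map_zero, smul_zero, add_zero]
    ext u; simp
  have hcg : Continuous fun v : Euc m => g (Real.exp (-2 * l) * ‖v‖ ^ 2) :=
    cker_v hg.continuous l
  have hcg1 : Continuous fun v : Euc m => g1 (Real.exp (-2 * l) * ‖v‖ ^ 2) :=
    cker_v hg.cont l
  have cj := h.cj.mono hl
  have cbe := h.cbe.mono hl
  have cdbe := h.cdbe.mono hl
  have clam := h.clam.mono hl
  have cth := h.cth.mono hl
  have hYc : ContinuousOn Y B := (hcg.continuousOn.mul cj).smul cbe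
  have hY'c : ContinuousOn Y' B := by
    refine ((hcg.continuousOn.mul cj).smul cdbe).add ?_
    have h1 : ContinuousOn (fun v : Euc m => g (Real.exp (-2 * l) * ‖v‖ ^ 2) •
        (c.j v • innerSL ℝ (c.lam v)) + c.j v • innerSL ℝ ((2 * Real.exp (-2 * l) *
        g1 (Real.exp (-2 * l) * ‖v‖ ^ 2)) • v)) B := by
      refine (hcg.continuousOn.smul (cj.smul ((innerSL ℝ).continuous.comp_continuousOn clam))).add
        (cj.smul ((innerSL ℝ).continuous.comp_continuousOn ?_))
      exact ((continuous_const.mul hcg1).smul continuous_id).continuousOn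
    have h2 : ContinuousOn (fun v : Euc m => (ContinuousLinearMap.smulRightL ℝ (Euc m) (Euc m)
      (g (Real.exp (-2 * l) * ‖v‖ ^ 2) •
        (c.j v • innerSL ℝ (c.lam v)) + c.j v • innerSL ℝ ((2 * Real.exp (-2 * l) *
        g1 (Real.exp (-2 * l) * ‖v‖ ^ 2)) • v))) (c.be v)) B :=
      ((ContinuousLinearMap.smulRightL ℝ (Euc m) (Euc m)).continuous.comp_continuousOn h1).clm_apply
        cbe
    exact h2
  have hYd : ∀ v, HasFDerivAt Y (Y' v) v := by
    intro v
    by_cases hv : v ∈ B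
    · have hvD := hl hv
      have h1 := hasFDerivAt_rad hg.der l 0 v
      simp only [sub_zero] at h1
      exact (h1.mul (h.hj v hvD)).smul (h.hdbe v hvD)
    · rw [hY'0 v hv]
      have h1 : Y =ᶠ[𝓝 v] fun _ => 0 := by
        filter_upwards [Metric.isClosed_closedBall.isOpen_compl.mem_nhds hv] with w hw
        exact hY0 w hw
      exact (hasFDerivAt_const (0 : Euc m) v).congr_of_eventuallyEq h1
  have hmain := integral_tr_eq_zero hYd (integrable_ball hYc hY0) (fun u =>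
    integrable_ball (hY'c.clm_apply continuousOn_const) (fun v hv => by rw [hY'0 v hv]; rfl))
  have htr : ∀ v, tr (Y' v) = th c v * c.j v * g (Real.exp (-2 * l) * ‖v‖ ^ 2) +
      m * (c.j v * g (Real.exp (-2 * l) * ‖v‖ ^ 2)) -
      c.j v * (-2 * (Real.exp (-2 * l) * ‖v‖ ^ 2 * g1 (Real.exp (-2 * l) * ‖v‖ ^ 2))) := by
    intro v
    by_cases hv : v ∈ B
    · have hvD := hl hv
      rw [hY'def]
      simp only
      rw [map_add, map_smul]
      have h1 := tr_smulRight_comp (g (Real.exp (-2 * l) * ‖v‖ ^ 2) •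
        (c.j v • innerSL ℝ (c.lam v)) + c.j v • innerSL ℝ ((2 * Real.exp (-2 * l) *
        g1 (Real.exp (-2 * l) * ‖v‖ ^ 2)) • v)) (c.be v) (ContinuousLinearMap.id ℝ (Euc m))
      rw [ContinuousLinearMap.comp_id] at h1
      rw [h1]
      simp only [ContinuousLinearMap.id_apply, add_apply, smul_apply, innerSL_apply_apply,
        smul_eq_mul, inner_smul_left, h.be_inner hvD, RCLike.conj_to_real]
      unfold th
      ring
    · rw [hY'0 v hv, hz v hv, hz1 v hv, map_zero]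
      ring
  simp_rw [htr] at hmain
  have i1 : Integrable fun v : Euc m => th c v * c.j v * g (Real.exp (-2 * l) * ‖v‖ ^ 2) :=
    integrable_ball (R := Real.exp l) ((cth.mul cj).mul hcg.continuousOn)
      (fun v hv => by rw [hz v hv, mul_zero])
  have i2 : Integrable fun v : Euc m => c.j v * g (Real.exp (-2 * l) * ‖v‖ ^ 2) :=
    integrable_ball (R := Real.exp l) (cj.mul hcg.continuousOn)
      (fun v hv => by rw [hz v hv, mul_zero])
  have i3 : Integrable fun v : Euc m => c.j v * (-2 * (Real.exp (-2 * l) * ‖v‖ ^ 2 *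
      g1 (Real.exp (-2 * l) * ‖v‖ ^ 2))) :=
    integrable_ball (R := Real.exp l) (cj.mul (continuous_const.mul
      ((continuous_const.mul (continuous_norm.pow 2)).mul hcg1)).continuousOn)
      (fun v hv => by rw [hz1 v hv]; ring)
  have i4 : Integrable fun v : Euc m => th c v * c.j v * g (Real.exp (-2 * l) * ‖v‖ ^ 2) +
      m * (c.j v * g (Real.exp (-2 * l) * ‖v‖ ^ 2)) := i1.add (i2.const_mul _)
  rw [integral_sub i4 i3, integral_add i1 (i2.const_mul _), integral_const_mul] at hmain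
  linarith

theorem hasDerivAt_lebj (h : Ok c K D) (hg : Ker g g1) {l L : ℝ} (hlL : l < L)
    (hL : Metric.closedBall 0 (Real.exp L) ⊆ D) :
    HasDerivAt (fun l => ∫ v : Euc m, c.j v * g (Real.exp (-2 * l) * ‖v‖ ^ 2))
      (∫ v : Euc m, c.j v * (-2 * (Real.exp (-2 * l) * ‖v‖ ^ 2 *
        g1 (Real.exp (-2 * l) * ‖v‖ ^ 2)))) l := by
  set B : Set (Euc m) := Metric.closedBall 0 (Real.exp L) with hB
  have cj := h.cj.mono hL
  have hBc : IsCompact B := isCompact_closedBall _ _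
  have hBm : MeasurableSet B := hBc.isClosed.measurableSet
  have : IsFiniteMeasure ((volume : Measure (Euc m)).restrict B) := ⟨by
    rw [Measure.restrict_apply_univ]; exact hBc.measure_lt_top⟩
  obtain ⟨C, hC⟩ := hBc.exists_bound_of_continuousOn cj
  obtain ⟨Kq, -, hKq, -, hKq'⟩ := hg.exists_bound
  have h1 : AEMeasurable (fun v : Euc m => ‖v‖ ^ 2) ((volume : Measure (Euc m)).restrict B) :=
    (continuous_norm.pow 2).aemeasurable
  have h3 : ∀ᵐ v ∂((volume : Measure (Euc m)).restrict B), |c.j v| ≤ C := by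
    filter_upwards [ae_restrict_mem hBm] with v hv
    exact hC v hv
  have h4 := hasDerivAt_ker_fin h1 (fun v => by positivity) (cj.aestronglyMeasurable hBm) h3
    hg.der hg.cont hKq hKq' l
  have h5 : ∀ (q : ℝ → ℝ) (l' : ℝ), l' ≤ L → (∀ t, 1 ≤ t → q t = 0) →
      ∫ v : Euc m, c.j v * q (Real.exp (-2 * l') * ‖v‖ ^ 2) =
        ∫ v in B, c.j v * q (Real.exp (-2 * l') * ‖v‖ ^ 2) := by
    intro q l' hl' hq
    symm
    refine setIntegral_eq_integral_of_forall_compl_eq_zero fun v hv => ?_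
    have h6 : v ∉ Metric.closedBall (0 : Euc m) (Real.exp l') := fun h7 =>
      hv (Metric.closedBall_subset_closedBall (Real.exp_le_exp.2 hl') h7)
    rw [hq _ (one_le_t h6), mul_zero]
  rw [h5 (fun t => -2 * (t * g1 t)) l hlL.le (fun t ht => by rw [hg.zero' t ht]; ring)]
  refine h4.congr_of_eventuallyEq ?_
  filter_upwards [Iio_mem_nhds hlL] with l' hl'
  exact h5 g l' (le_of_lt hl') hg.zero

/-! ### (G1) -/

theorem int6 {Ω : Type*} [MeasurableSpace Ω] {V : Measure Ω} {A B C D E F : Ω → ℝ}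
    (hA : Integrable A V) (hB : Integrable B V) (hC : Integrable C V) (hD : Integrable D V)
    (hE : Integrable E V) (hF : Integrable F V) (a b c d e f : ℝ) :
    ∫ p, (a * A p + b * B p + c * C p + d * D p + e * E p + f * F p) ∂V =
      a * ∫ p, A p ∂V + b * ∫ p, B p ∂V + c * ∫ p, C p ∂V + d * ∫ p, D p ∂V
        + e * ∫ p, E p ∂V + f * ∫ p, F p ∂V := by
  have h1 : Integrable (fun p => a * A p + b * B p + c * C p + d * D p) V :=
    (((hA.const_mul a).add (hB.const_mul b)).add (hC.const_mul c)).add (hD.const_mul d)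
  have h2 : Integrable (fun p => a * A p + b * B p + c * C p + d * D p + e * E p) V :=
    h1.add (hE.const_mul e)
  rw [integral_add h2 (hF.const_mul f), integral_add h1 (hE.const_mul e), int4 hA hB hC hD,
    integral_const_mul, integral_const_mul]

/-- integrability of `coefficient * kernel` -/
theorem Ok.int (h : Ok c K D) (hV : On V m K) {F : Euc k × L k → ℝ}
    (hF : ContinuousOn F (K ×ˢ G m k)) {q : ℝ → ℝ} (hq : Continuous q) (l : ℝ) :
    Integrable (fun p => F p * q (Real.exp (-2 * l) * ‖c.x p.1‖ ^ 2)) V :=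
  hV.integrable h.cpt (hF.mul (h.cker hq l))

theorem tr_X1 (h : Ok c K D) (hg : ∀ t, HasDerivAt g (g1 t) t) (l : ℝ) {p : Euc k × L k}
    (hp : p ∈ K ×ˢ G m k) :
    tr (fderiv ℝ (X1 c g l) p.1 ∘L p.2) =
      (m : ℝ) * (1 * g (Real.exp (-2 * l) * ‖c.x p.1‖ ^ 2)) +
      (-1) * (c.tau p.1 p.2 * g (Real.exp (-2 * l) * ‖c.x p.1‖ ^ 2)) +
      1 * (th c (c.x p.1) * g (Real.exp (-2 * l) * ‖c.x p.1‖ ^ 2)) +
      1 * (ep1 c p * g (Real.exp (-2 * l) * ‖c.x p.1‖ ^ 2)) +
      2 * (1 * (Real.exp (-2 * l) * ‖c.x p.1‖ ^ 2 * g1 (Real.exp (-2 * l) * ‖c.x p.1‖ ^ 2))) +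
      Real.exp (-2 * l) * (rt c p * (-2 * g1 (Real.exp (-2 * l) * ‖c.x p.1‖ ^ 2))) := by
  have hz := hp.1
  have hD := h.mem _ hz
  have h1 := hasFDerivAt_rad hg l 0 (c.x p.1)
  simp only [sub_zero] at h1
  have h2 := h1.smul (h.hdbe _ hD)
  have h3 : tr (fderiv ℝ (X1 c g l) p.1 ∘L p.2) = _ := tr_Axi (h.hx _ hz) (h.hA _ hz) h2 p.2
  rw [h3, ContinuousLinearMap.add_comp, map_add, tr_smulRight_comp]
  have h4 : (g (Real.exp (-2 * l) * ‖c.x p.1‖ ^ 2) • c.dbe (c.x p.1)) ∘L T c (p.1, p.2) =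
      g (Real.exp (-2 * l) * ‖c.x p.1‖ ^ 2) • (c.dbe (c.x p.1) ∘L T c p) := by
    ext v; simp
  have h5 : Gam c (p.1, p.2)
      (((fun v : Euc m => g (Real.exp (-2 * l) * ‖v‖ ^ 2)) • c.be) (c.x p.1)) =
      g (Real.exp (-2 * l) * ‖c.x p.1‖ ^ 2) * Gam c p (c.be (c.x p.1)) := by
    unfold Gam
    have h6 : ((fun v : Euc m => g (Real.exp (-2 * l) * ‖v‖ ^ 2)) • c.be) (c.x p.1) =
      g (Real.exp (-2 * l) * ‖c.x p.1‖ ^ 2) • c.be (c.x p.1) := rfl
    rw [h6, map_smul]
    have h7 : ∀ (a : ℝ) (X : L k), (a • X) ∘L p.2 = a • (X ∘L p.2) := fun a X => by ext v; simp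
    rw [h7, map_smul, smul_eq_mul]
  rw [h4, h5, map_smul, smul_eq_mul, innerSL_apply_apply, inner_smul_left, h.rt_eq hp]
  have h8 : tr ((c.dbe (c.x p.1) - ContinuousLinearMap.id ℝ (Euc m)) ∘L
        (ContinuousLinearMap.id ℝ (Euc m) - T c p)) =
      tr (c.dbe (c.x p.1)) - tr (c.dbe (c.x p.1) ∘L T c p) - m + tr (T c p) := by
    rw [ContinuousLinearMap.sub_comp, ContinuousLinearMap.comp_sub, ContinuousLinearMap.comp_sub,
      ContinuousLinearMap.comp_id, ContinuousLinearMap.id_comp, ContinuousLinearMap.id_comp]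
    rw [map_sub, map_sub, map_sub, tr_one]
    ring
  unfold ep1 th
  rw [h8]
  have h9 : T c (p.1, p.2) = T c p := rfl
  rw [h9]
  simp only [RCLike.conj_to_real]
  ring

theorem FV_X1 (h : Ok c K D) (hV : On V m K) (hg : Ker g g1) (l : ℝ) :
    FV V (X1 c g l) =
      m * (∫ p, 1 * g (Real.exp (-2 * l) * ‖c.x p.1‖ ^ 2) ∂V)
      + (-1) * (∫ p, c.tau p.1 p.2 * g (Real.exp (-2 * l) * ‖c.x p.1‖ ^ 2) ∂V)
      + 1 * (∫ p, th c (c.x p.1) * g (Real.exp (-2 * l) * ‖c.x p.1‖ ^ 2) ∂V)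
      + 1 * er1 c V g l
      + 2 * (∫ p, 1 * (Real.exp (-2 * l) * ‖c.x p.1‖ ^ 2 *
            g1 (Real.exp (-2 * l) * ‖c.x p.1‖ ^ 2)) ∂V)
      + Real.exp (-2 * l) * (∫ p, rt c p *
            (-2 * g1 (Real.exp (-2 * l) * ‖c.x p.1‖ ^ 2)) ∂V) := by
  have i1 := h.int hV (F := fun _ => 1) continuousOn_const hg.continuous l
  have i2 := h.int hV h.ctau hg.continuous l
  have i3 := h.int hV (h.liftD h.cth) hg.continuous l
  have i4 := h.int hV h.cep1 hg.continuous l
  have i5 := h.int hV (F := fun _ => 1) continuousOn_const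
    (q := fun t => t * g1 t) (continuous_id.mul hg.cont) l
  have i6 := h.int hV h.crt (q := fun t => -2 * g1 t) (continuous_const.mul hg.cont) l
  have h0 := int6 i1 i2 i3 i4 i5 i6 (m:ℝ) (-1) 1 1 2 (Real.exp (-2 * l))
  unfold er1
  rw [← h0]
  unfold FV
  refine integral_congr_ae ?_
  filter_upwards [hV.mem] with p hp
  exact tr_X1 h hg.der l hp

/-- **(G1)** -/
theorem hasDerivAt_EE (h : Ok c K D) (hV : On V m K) (hg : Ker g g1) (Q : ℝ) {l L : ℝ}
    (hlL : l < L) (hL : Metric.closedBall 0 (Real.exp L) ⊆ D) :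
    HasDerivAt (EE c V g Q)
      (2 * bb c V g Q l + RT c V g1 l + Real.exp ((2 - m) * l) *
        (er1a c V g Q l + er1 c V g l - FV V (X1 c g l))) l := by
  have h1 := hV.hasDerivAt h.cpt h.cx (F := fun _ => 1) continuousOn_const hg l
  have h2 := hasDerivAt_lebj h hg hlL hL
  have h3 : HasDerivAt (fun l : ℝ => Real.exp ((2 - m) * l))
      (Real.exp ((2 - m) * l) * (2 - m)) l := by
    have h4 : HasDerivAt (fun l : ℝ => (2 - m : ℝ) * l) (2 - m) l := by
      simpa using (hasDerivAt_id l).const_mul (2 - m : ℝ)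
    exact h4.exp
  have h5 := h3.mul (h1.sub (h2.const_mul Q))
  refine h5.congr_deriv ?_
  rw [FV_X1 h hV hg l, leb_div h hg ((Metric.closedBall_subset_closedBall
    (Real.exp_le_exp.2 hlL.le)).trans hL)]
  unfold bb EE ee RT er1a
  have h6 : Real.exp (-m * l) = Real.exp ((2 - m) * l) * Real.exp (-2 * l) := by
    rw [← Real.exp_add]; congr 1; ring
  rw [h6]
  have h7 : ∫ p, (1:ℝ) * (-2 * (Real.exp (-2 * l) * ‖c.x p.1‖ ^ 2 *
      g1 (Real.exp (-2 * l) * ‖c.x p.1‖ ^ 2))) ∂V =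
      -2 * ∫ p, 1 * (Real.exp (-2 * l) * ‖c.x p.1‖ ^ 2 *
      g1 (Real.exp (-2 * l) * ‖c.x p.1‖ ^ 2)) ∂V := by
    rw [← integral_const_mul]
    refine integral_congr_ae (Eventually.of_forall fun p => ?_)
    simp only
    ring
  simp only [Pi.sub_apply]
  rw [h7]
  ring

end Crest.Agent.R234.GL_394
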