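import Crest.Agent.R234.GL3_394

/-!
# Row 234, VF-GL, part 4 (helper394)

Bounds of the error integrals of (G1)-(G3) under pointwise bounds `KB` of the chart: the output form
of VF-GL (data of helper290's `StepData`).
-/

set_option autoImplicit false

open MeasureTheory Set Function Filter Topology
open Crest.GeometryTopology.Submanifold
open Crest.Agent.R234.Vf_884 Crest.Agent.R234.Ar_870 Crest.Agent.R234.Cy_870
open scoped ENNReal NNReal InnerProductSpace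

noncomputable section

namespace Crest.Agent.R234.GL_394

variable {m k : ℕ} {c : Ch m k} {K : Set (Euc k)} {D : Set (Euc m)}
  {V : Measure (Euc k × L k)} {g g1 g2 : ℝ → ℝ} {Q l : ℝ}

/-- profiles with a bound -/
structure Pf (g g1 g2 : ℝ → ℝ) (B : ℝ) : Prop where
  pr : Prof g g1 g2
  nn : ∀ t, 0 ≤ t → 0 ≤ g t
  dom : ∀ t, 0 ≤ t → g t ≤ B * (-g1 t)
  b0 : ∀ t, 0 ≤ t → g t ≤ B
  b1 : ∀ t, 0 ≤ t → -g1 t ≤ B
  b2 : ∀ t, 0 ≤ t → |t * g2 t| ≤ B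

/-- `q = |nu|² / s²` -/
def qq (c : Ch m k) (l : ℝ) (z : Euc k) : ℝ := Real.exp (-2 * l) * (2 * c.f z)

/-- pointwise bounds at the scale `s = e^l`; `c0 ~ κ²` (or `κ`), `d0 ~ κ sup |nu| / s`,
`hh ≥ sup |nu| / s`, `zN` = normal part of `zeta` -/
structure KB (c : Ch m k) (K : Set (Euc k)) (l c0 d0 hh C0 : ℝ) (zN : Euc k → Euc k) : Prop where
  c0n : 0 ≤ c0
  d0n : 0 ≤ d0
  hhn : 0 ≤ hh
  hh1 : hh ≤ 1
  C0n : 1 ≤ C0
  czN : ContinuousOn zN K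
  tau0 : ∀ p ∈ K ×ˢ G m k, ‖c.x p.1‖ ≤ Real.exp l → 0 ≤ c.tau p.1 p.2
  taule : ∀ p ∈ K ×ˢ G m k, ‖c.x p.1‖ ≤ Real.exp l → c.tau p.1 p.2 ≤ C0
  qle : ∀ z ∈ K, ‖c.x z‖ ≤ Real.exp l → qq c l z ≤ hh ^ 2
  k1 : ∀ p ∈ K ×ˢ G m k, ‖c.x p.1‖ ≤ Real.exp l →
    |c.tau p.1 p.2 - (m - tr (T c p))| ≤ c0 * (c.tau p.1 p.2 + qq c l p.1)
  k2 : ∀ p ∈ K ×ˢ G m k, ‖c.x p.1‖ ≤ Real.exp l →
    ‖ContinuousLinearMap.id ℝ (Euc m) - T c p‖ ≤ C0 * (c.tau p.1 p.2 + qq c l p.1)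
  k3 : ∀ p ∈ K ×ˢ G m k, ‖c.x p.1‖ ≤ Real.exp l → ∀ v : Euc m,
    |Gam c p v - ⟪c.lam (c.x p.1), v⟫_ℝ| ≤
      (c0 + d0) * (‖v‖ * Real.exp (-l)) * (c.tau p.1 p.2 + qq c l p.1)
  k4 : ∀ p ∈ K ×ˢ G m k, ‖c.x p.1‖ ≤ Real.exp l →
    |tr (c.H p.1 ∘L p.2) - c.tau p.1 p.2| ≤ c0 * qq c l p.1 + d0 * c.tau p.1 p.2
  k5 : ∀ z ∈ K, ‖c.x z‖ ≤ Real.exp l → ‖zN z‖ ≤ c0 * ‖c.nu z‖
  k5a : ∀ p ∈ K ×ˢ G m k, ‖c.x p.1‖ ≤ Real.exp l →
    |⟪xi c p.1 - p.2 (xi c p.1), zeta c p.1 - zN p.1⟫_ℝ| ≤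
      d0 * (Real.exp (2 * l) * c.tau p.1 p.2)
  k5b : ∀ p ∈ K ×ˢ G m k, ‖c.x p.1‖ ≤ Real.exp l →
    |⟪c.nu p.1, p.2 (zeta c p.1)⟫_ℝ| ≤
      Real.exp (2 * l) * (c0 * qq c l p.1 + d0 * (c.tau p.1 p.2 + qq c l p.1))
  hth : ∀ v : Euc m, ‖v‖ ≤ Real.exp l → |th c v| ≤ c0
  hth3 : ∀ v : Euc m, ‖v‖ ≤ Real.exp l → |th3 c v| ≤ c0
  hdbe : ∀ v : Euc m, ‖v‖ ≤ Real.exp l → ‖c.dbe v - ContinuousLinearMap.id ℝ (Euc m)‖ ≤ c0
  hmu : ∀ v : Euc m, ‖v‖ ≤ Real.exp l → 1 / 2 ≤ c.mu v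
  hgi : ∀ v : Euc m, ‖v‖ ≤ Real.exp l → ‖c.gi v‖ ≤ C0
  hdgv : ∀ v : Euc m, ‖v‖ ≤ Real.exp l → ‖dgv c v‖ ≤ C0

/-- sharp energy + height on `{|x| ≤ s}` -/
def OO (c : Ch m k) (V : Measure (Euc k × L k)) (l : ℝ) : ℝ :=
  Real.exp ((2 - m) * l) * ∫ p in {p : Euc k × L k | ‖c.x p.1‖ ≤ Real.exp l},
    (c.tau p.1 p.2 + qq c l p.1) ∂V

theorem abs_tr_le (A : L m) : |tr A| ≤ m * ‖A‖ := by
  rw [tr_eq_sum]
  refine (Finset.abs_sum_le_sum_abs _ _).trans ?_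
  have h1 : ∀ i ∈ (Finset.univ : Finset (Fin m)), |⟪stdVec m i, A (stdVec m i)⟫_ℝ| ≤ ‖A‖ := by
    intro i _
    refine (abs_real_inner_le_norm _ _).trans ?_
    have h2 : ‖stdVec m i‖ = 1 := by simp [stdVec]
    have h3 := A.le_opNorm (stdVec m i)
    rw [h2, mul_one] at h3
    rw [h2, one_mul]
    exact h3
  refine (Finset.sum_le_sum h1).trans ?_
  simp

theorem abs_tr_comp_le (A B : L m) : |tr (A ∘L B)| ≤ m * (‖A‖ * ‖B‖) :=
  (abs_tr_le _).trans (mul_le_mul_of_nonneg_left (ContinuousLinearMap.opNorm_comp_le _ _)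
    (Nat.cast_nonneg m))

theorem t_le {v : Euc m} (hv : ‖v‖ ≤ Real.exp l) : Real.exp (-2 * l) * ‖v‖ ^ 2 ≤ 1 := by
  have h1 : ‖v‖ ^ 2 ≤ Real.exp l ^ 2 := pow_le_pow_left₀ (norm_nonneg _) hv 2
  calc Real.exp (-2 * l) * ‖v‖ ^ 2 ≤ Real.exp (-2 * l) * Real.exp l ^ 2 := by gcongr
    _ = 1 := by rw [← Real.exp_nat_mul, ← Real.exp_add]; simp

theorem t_ge {v : Euc m} (hv : ¬ ‖v‖ ≤ Real.exp l) : 1 ≤ Real.exp (-2 * l) * ‖v‖ ^ 2 :=
  one_le_t (by rw [mem_closedBall_zero_iff]; exact hv)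

theorem qq_nonneg (h : Ok c K D) {z : Euc k} (hz : z ∈ K) : 0 ≤ qq c l z :=
  mul_nonneg (Real.exp_pos _).le (mul_nonneg zero_le_two (h.f_nonneg hz))

theorem Ok.cqq (h : Ok c K D) (l : ℝ) :
    ContinuousOn (fun p : Euc k × L k => qq c l p.1) (K ×ˢ G m k) :=
  continuousOn_const.mul (continuousOn_const.mul (lift h.cf))

/-- the sharp region -/
theorem region_eq (_ : Ok c K D) (hV : On V m K) (l : ℝ) :
    V.restrict {p : Euc k × L k | ‖c.x p.1‖ ≤ Real.exp l} =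
      V.restrict ((K ×ˢ G m k) ∩ {p : Euc k × L k | ‖c.x p.1‖ ≤ Real.exp l}) := by
  refine Measure.restrict_congr_set ?_
  filter_upwards [hV.mem] with p hp
  exact propext ⟨fun h1 => ⟨hp, h1⟩, fun h1 => h1.2⟩

theorem region_closed (h : Ok c K D) (l : ℝ) :
    IsClosed ((K ×ˢ G m k) ∩ {p : Euc k × L k | ‖c.x p.1‖ ≤ Real.exp l}) := by
  have hK : IsClosed (K ×ˢ G m k) := (h.cpt.prod (isCompact_G m k)).isClosed
  exact (lift (m := m) h.cx).norm.preimage_isClosed_of_isClosed hK isClosed_Iic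

/-- **domination by the sharp energy** -/
theorem abs_int_le_OO (h : Ok c K D) (hV : On V m K)
    {F : Euc k × L k → ℝ} (hF : ContinuousOn F (K ×ˢ G m k)) {C : ℝ}
    (hle : ∀ p ∈ K ×ˢ G m k, ‖c.x p.1‖ ≤ Real.exp l →
      |F p| ≤ C * (c.tau p.1 p.2 + qq c l p.1))
    (h0 : ∀ p ∈ K ×ˢ G m k, ¬ ‖c.x p.1‖ ≤ Real.exp l → F p = 0) :
    Real.exp ((2 - m) * l) * |∫ p, F p ∂V| ≤ C * OO c V l := by
  set S : Set (Euc k × L k) := (K ×ˢ G m k) ∩ {p : Euc k × L k | ‖c.x p.1‖ ≤ Real.exp l} with hS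
  have hSm : MeasurableSet S := (region_closed h l).measurableSet
  have e1 : ∫ p, F p ∂V = ∫ p in S, F p ∂V := by
    symm
    refine setIntegral_eq_integral_of_ae_compl_eq_zero ?_
    filter_upwards [hV.mem] with p hp hpS
    exact h0 p hp (fun h1 => hpS ⟨hp, h1⟩)
  have i1 : Integrable (fun p => c.tau p.1 p.2 + qq c l p.1) V :=
    hV.integrable h.cpt (h.ctau.add (h.cqq l))
  have h2 : |∫ p in S, F p ∂V| ≤ ∫ p in S, C * (c.tau p.1 p.2 + qq c l p.1) ∂V := by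
    rw [← Real.norm_eq_abs]
    refine norm_integral_le_of_norm_le (i1.const_mul C).integrableOn ?_
    filter_upwards [ae_restrict_mem hSm] with p hp
    exact hle p hp.1 hp.2
  rw [e1]
  unfold OO
  rw [region_eq h hV l]
  rw [integral_const_mul] at h2
  calc _ ≤ Real.exp ((2 - m) * l) * (C * ∫ p in S, (c.tau p.1 p.2 + qq c l p.1) ∂V) :=
        mul_le_mul_of_nonneg_left h2 (Real.exp_pos _).le
    _ = _ := by ring

theorem exp_m2 (m : ℕ) (l : ℝ) :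
    Real.exp (-m * l) = Real.exp ((2 - m) * l) * Real.exp (-2 * l) := by
  rw [← Real.exp_add]; congr 1; ring

section bounds

variable {c0 d0 hh C0 B : ℝ} {zN : Euc k → Euc k}

theorem OO_nonneg (h : Ok c K D) (hV : On V m K) (hk : KB c K l c0 d0 hh C0 zN) :
    0 ≤ OO c V l := by
  unfold OO
  rw [region_eq h hV l]
  refine mul_nonneg (Real.exp_pos _).le (setIntegral_nonneg (region_closed h l).measurableSet ?_)
  intro p hp
  exact add_nonneg (hk.tau0 p hp.1 hp.2) (qq_nonneg h hp.1.1)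

theorem ee_nonneg (h : Ok c K D) (hV : On V m K) (hp : Pf g g1 g2 B)
    (hk : KB c K l c0 d0 hh C0 zN) : 0 ≤ ee c V g l := by
  unfold ee
  refine mul_nonneg (Real.exp_pos _).le (integral_nonneg_of_ae ?_)
  filter_upwards [hV.mem] with p hpm
  by_cases hr : ‖c.x p.1‖ ≤ Real.exp l
  · exact mul_nonneg (hk.tau0 p hpm hr) (hp.nn _ (by positivity))
  · simp only [Pi.zero_apply]
    rw [hp.pr.k0.zero _ (t_ge hr), mul_zero]

theorem ee_le_OO (h : Ok c K D) (hV : On V m K) (hp : Pf g g1 g2 B)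
    (hk : KB c K l c0 d0 hh C0 zN) : ee c V g l ≤ B * OO c V l := by
  have hB : 0 ≤ B := (hp.nn 0 le_rfl).trans (hp.b0 0 le_rfl)
  have h1 := abs_int_le_OO (l := l) (C := B) h hV
    (F := fun p => c.tau p.1 p.2 * g (Real.exp (-2 * l) * ‖c.x p.1‖ ^ 2))
    (h.ctau.mul (h.cker hp.pr.k0.continuous l)) (fun p hpm hr => by
      have ht := hk.tau0 p hpm hr
      have hq := qq_nonneg (l := l) h hpm.1
      have hg0 := hp.nn (Real.exp (-2 * l) * ‖c.x p.1‖ ^ 2) (by positivity)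
      have hg1 := hp.b0 (Real.exp (-2 * l) * ‖c.x p.1‖ ^ 2) (by positivity)
      rw [abs_of_nonneg (mul_nonneg ht hg0)]
      nlinarith) (fun p hpm hr => by
      rw [hp.pr.k0.zero _ (t_ge hr), mul_zero])
  unfold ee
  exact (mul_le_mul_of_nonneg_left (le_abs_self _) (Real.exp_pos _).le).trans h1

/-- `s^{-m} ∫ f (-g1) ≤ I / 2` -/
theorem int_f_le (h : Ok c K D) (hV : On V m K) (hp : Pf g g1 g2 B)
    (hk : KB c K l c0 d0 hh C0 zN) :
    Real.exp (-m * l) * ∫ p, c.f p.1 * (-g1 (Real.exp (-2 * l) * ‖c.x p.1‖ ^ 2)) ∂V ≤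
      II c V g1 l / 2 := by
  unfold II
  rw [mul_div_assoc]
  refine mul_le_mul_of_nonneg_left ?_ (Real.exp_pos _).le
  rw [le_div_iff₀ two_pos, ← integral_mul_const]
  refine integral_mono_ae ?_ ?_ ?_
  · exact (h.int hV (lift h.cf) (q := fun t => -g1 t) hp.pr.k1.continuous.neg l).mul_const 2
  · exact h.int hV h.cfmu (q := fun t => -4 * g1 t) (continuous_const.mul hp.pr.k1.continuous) l
  · filter_upwards [hV.mem] with p hpm
    by_cases hr : ‖c.x p.1‖ ≤ Real.exp l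
    · have h1 := hk.hmu _ hr
      have h2 := hp.pr.anti (Real.exp (-2 * l) * ‖c.x p.1‖ ^ 2) (by positivity)
      have h3 := h.f_nonneg hpm.1
      have h4 : 0 ≤ c.f p.1 * (-g1 (Real.exp (-2 * l) * ‖c.x p.1‖ ^ 2)) :=
        mul_nonneg h3 (by linarith)
      calc _ = 4 * (c.f p.1 * (-g1 (Real.exp (-2 * l) * ‖c.x p.1‖ ^ 2))) * (1 / 2) := by ring
        _ ≤ 4 * (c.f p.1 * (-g1 (Real.exp (-2 * l) * ‖c.x p.1‖ ^ 2))) * c.mu (c.x p.1) :=
          mul_le_mul_of_nonneg_left h1 (by positivity)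
        _ = _ := by ring
    · rw [hp.pr.k1.zero _ (t_ge hr)]
      simp

/-- `s^{2-m} ∫ q g ≤ B I` -/
theorem int_q_le (h : Ok c K D) (hV : On V m K) (hp : Pf g g1 g2 B)
    (hk : KB c K l c0 d0 hh C0 zN) :
    Real.exp ((2 - m) * l) * ∫ p, qq c l p.1 * g (Real.exp (-2 * l) * ‖c.x p.1‖ ^ 2) ∂V ≤
      B * II c V g1 l := by
  have hB : 0 ≤ B := (hp.nn 0 le_rfl).trans (hp.b0 0 le_rfl)
  have h1 := int_f_le (l := l) h hV hp hk
  have e1 : Real.exp ((2 - m) * l) * ∫ p, qq c l p.1 *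
      g (Real.exp (-2 * l) * ‖c.x p.1‖ ^ 2) ∂V =
      Real.exp (-m * l) * (2 * ∫ p, c.f p.1 * g (Real.exp (-2 * l) * ‖c.x p.1‖ ^ 2) ∂V) := by
    rw [exp_m2]
    have e2 : ∫ p, qq c l p.1 * g (Real.exp (-2 * l) * ‖c.x p.1‖ ^ 2) ∂V =
        (Real.exp (-2 * l) * 2) * ∫ p, c.f p.1 * g (Real.exp (-2 * l) * ‖c.x p.1‖ ^ 2) ∂V := by
      rw [← integral_const_mul]
      refine integral_congr_ae (Eventually.of_forall fun p => ?_)
      simp only [qq]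
      ring
    rw [e2]
    ring
  have h2 : ∫ p, c.f p.1 * g (Real.exp (-2 * l) * ‖c.x p.1‖ ^ 2) ∂V ≤
      B * ∫ p, c.f p.1 * (-g1 (Real.exp (-2 * l) * ‖c.x p.1‖ ^ 2)) ∂V := by
    rw [← integral_const_mul]
    refine integral_mono_ae (h.int hV (lift h.cf) hp.pr.k0.continuous l)
      ((h.int hV (lift h.cf) (q := fun t => -g1 t) hp.pr.k1.continuous.neg l).const_mul B) ?_
    filter_upwards [hV.mem] with p hpm
    have h3 := h.f_nonneg hpm.1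
    have h4 := hp.dom (Real.exp (-2 * l) * ‖c.x p.1‖ ^ 2) (by positivity)
    calc _ ≤ c.f p.1 * (B * (-g1 (Real.exp (-2 * l) * ‖c.x p.1‖ ^ 2))) :=
          mul_le_mul_of_nonneg_left h4 h3
      _ = _ := by ring
  rw [e1]
  have h5 := mul_le_mul_of_nonneg_left h2 (Real.exp_pos (-m * l)).le
  have h6 := mul_le_mul_of_nonneg_left h1 hB
  nlinarith

/-- `s^{2-m} |er2| ≤ c0 B I + d0 e` -/
theorem er2_le (h : Ok c K D) (hV : On V m K) (hp : Pf g g1 g2 B)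
    (hk : KB c K l c0 d0 hh C0 zN) :
    Real.exp ((2 - m) * l) * |er2 c V g l| ≤ c0 * (B * II c V g1 l) + d0 * ee c V g l := by
  have i1 := h.int hV (h.cqq l) hp.pr.k0.continuous l
  have i2 := h.int hV h.ctau hp.pr.k0.continuous l
  have h1 : |er2 c V g l| ≤ c0 * (∫ p, qq c l p.1 * g (Real.exp (-2 * l) * ‖c.x p.1‖ ^ 2) ∂V) +
      d0 * ∫ p, c.tau p.1 p.2 * g (Real.exp (-2 * l) * ‖c.x p.1‖ ^ 2) ∂V := by
    rw [← integral_const_mul, ← integral_const_mul,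
      ← integral_add (i1.const_mul _) (i2.const_mul _)]
    unfold er2
    rw [← Real.norm_eq_abs]
    refine norm_integral_le_of_norm_le ((i1.const_mul _).add (i2.const_mul _)) ?_
    filter_upwards [hV.mem] with p hpm
    rw [Real.norm_eq_abs, abs_mul]
    by_cases hr : ‖c.x p.1‖ ≤ Real.exp l
    · have hg0 := hp.nn (Real.exp (-2 * l) * ‖c.x p.1‖ ^ 2) (by positivity)
      rw [abs_of_nonneg hg0]
      calc _ ≤ (c0 * qq c l p.1 + d0 * c.tau p.1 p.2) *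
            g (Real.exp (-2 * l) * ‖c.x p.1‖ ^ 2) :=
            mul_le_mul_of_nonneg_right (hk.k4 p hpm hr) hg0
        _ = _ := by ring
    · rw [hp.pr.k0.zero _ (t_ge hr)]
      simp
  have h2 := int_q_le (l := l) h hV hp hk
  have h3 := mul_le_mul_of_nonneg_left h1 (Real.exp_pos ((2 - m) * l)).le
  have h4 := mul_le_mul_of_nonneg_left h2 hk.c0n
  unfold ee
  nlinarith

/-- pointwise bound of `ep1` -/
theorem ep1_le (h : Ok c K D) (hk : KB c K l c0 d0 hh C0 zN) {p : Euc k × L k}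
    (hpm : p ∈ K ×ˢ G m k) (hr : ‖c.x p.1‖ ≤ Real.exp l) :
    |ep1 c p| ≤ (1 + m * C0 + 2 * C0) * (c0 + d0) * (c.tau p.1 p.2 + qq c l p.1) := by
  have hD := h.mem _ hpm.1
  have ht := hk.tau0 p hpm hr
  have hq := qq_nonneg (l := l) h hpm.1
  have hC := hk.C0n
  have hc0 := hk.c0n
  have hd0 := hk.d0n
  set y := c.tau p.1 p.2 + qq c l p.1 with hy
  have hy0 : 0 ≤ y := add_nonneg ht hq
  have h1 := hk.k1 p hpm hr
  have h2 : |tr ((c.dbe (c.x p.1) - ContinuousLinearMap.id ℝ (Euc m)) ∘L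
        (ContinuousLinearMap.id ℝ (Euc m) - T c p))| ≤ m * (c0 * (C0 * y)) := by
    refine (abs_tr_comp_le _ _).trans ?_
    refine mul_le_mul_of_nonneg_left ?_ (Nat.cast_nonneg m)
    exact mul_le_mul (hk.hdbe _ hr) (hk.k2 p hpm hr) (norm_nonneg _) hc0
  have h3 := hk.k3 p hpm hr (c.be (c.x p.1))
  have h4 : ‖c.be (c.x p.1)‖ * Real.exp (-l) ≤ 2 * C0 := by
    have hmu := hk.hmu _ hr
    rw [h.hbe _ hD, norm_smul, norm_inv, Real.norm_eq_abs, abs_of_pos (by linarith)]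
    have h5 : (c.mu (c.x p.1))⁻¹ ≤ 2 := by
      rw [inv_le_comm₀ (by linarith) two_pos]; linarith
    have h6 : ‖c.gi (c.x p.1) (c.x p.1)‖ ≤ C0 * Real.exp l :=
      ((c.gi (c.x p.1)).le_opNorm _).trans
        (mul_le_mul (hk.hgi _ hr) hr (norm_nonneg _) (by linarith))
    calc _ ≤ 2 * (C0 * Real.exp l) * Real.exp (-l) := by
          refine mul_le_mul_of_nonneg_right ?_ (Real.exp_pos _).le
          exact mul_le_mul h5 h6 (norm_nonneg _) zero_le_two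
      _ = 2 * C0 * (Real.exp l * Real.exp (-l)) := by ring
      _ = 2 * C0 := by rw [← Real.exp_add]; simp
  have h5 : (c0 + d0) * (‖c.be (c.x p.1)‖ * Real.exp (-l)) * y ≤ (c0 + d0) * (2 * C0) * y := by
    refine mul_le_mul_of_nonneg_right ?_ hy0
    exact mul_le_mul_of_nonneg_left h4 (by linarith)
  unfold ep1
  have h6 : |(c.tau p.1 p.2 - (m - tr (T c p)))
    - tr ((c.dbe (c.x p.1) - ContinuousLinearMap.id ℝ (Euc m)) ∘L
        (ContinuousLinearMap.id ℝ (Euc m) - T c p))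
    + (Gam c p (c.be (c.x p.1)) - ⟪c.lam (c.x p.1), c.be (c.x p.1)⟫_ℝ)| ≤
      c0 * y + m * (c0 * (C0 * y)) + (c0 + d0) * (2 * C0) * y := by
    refine (abs_add_le _ _).trans (add_le_add ((abs_sub _ _).trans (add_le_add h1 h2))
      (h3.trans h5))
  refine h6.trans ?_
  have hm : (0:ℝ) ≤ m := Nat.cast_nonneg m
  have h7 : 0 ≤ d0 * y := mul_nonneg hd0 hy0
  have h8 : 0 ≤ (m * C0) * (d0 * y) := mul_nonneg (mul_nonneg hm (by linarith)) h7
  nlinarith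

/-- `s^{2-m} |er1| ≤ C (c0 + d0) (e + B I)` -/
theorem er1_le (h : Ok c K D) (hV : On V m K) (hp : Pf g g1 g2 B)
    (hk : KB c K l c0 d0 hh C0 zN) :
    Real.exp ((2 - m) * l) * |er1 c V g l| ≤
      (1 + m * C0 + 2 * C0) * (c0 + d0) * (ee c V g l + B * II c V g1 l) := by
  have i1 := h.int hV (h.cqq l) hp.pr.k0.continuous l
  have i2 := h.int hV h.ctau hp.pr.k0.continuous l
  set A : ℝ := (1 + m * C0 + 2 * C0) * (c0 + d0) with hA
  have hA0 : 0 ≤ A := by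
    have := hk.C0n
    have := hk.c0n
    have := hk.d0n
    positivity
  have h1 : |er1 c V g l| ≤ A * (∫ p, c.tau p.1 p.2 *
      g (Real.exp (-2 * l) * ‖c.x p.1‖ ^ 2) ∂V) +
      A * ∫ p, qq c l p.1 * g (Real.exp (-2 * l) * ‖c.x p.1‖ ^ 2) ∂V := by
    rw [← integral_const_mul, ← integral_const_mul,
      ← integral_add (i2.const_mul _) (i1.const_mul _)]
    unfold er1
    rw [← Real.norm_eq_abs]
    refine norm_integral_le_of_norm_le ((i2.const_mul _).add (i1.const_mul _)) ?_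
    filter_upwards [hV.mem] with p hpm
    rw [Real.norm_eq_abs, abs_mul]
    by_cases hr : ‖c.x p.1‖ ≤ Real.exp l
    · have hg0 := hp.nn (Real.exp (-2 * l) * ‖c.x p.1‖ ^ 2) (by positivity)
      rw [abs_of_nonneg hg0]
      calc _ ≤ (A * (c.tau p.1 p.2 + qq c l p.1)) *
            g (Real.exp (-2 * l) * ‖c.x p.1‖ ^ 2) :=
            mul_le_mul_of_nonneg_right (ep1_le h hk hpm hr) hg0
        _ = _ := by ring
    · rw [hp.pr.k0.zero _ (t_ge hr)]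
      simp
  have h2 := int_q_le (l := l) h hV hp hk
  have h3 := mul_le_mul_of_nonneg_left h1 (Real.exp_pos ((2 - m) * l)).le
  have h4 := mul_le_mul_of_nonneg_left h2 hA0
  unfold ee
  nlinarith

end bounds

end Crest.Agent.R234.GL_394
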