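import Crest.Agent.R234.GL4_394

/-!
# Row 234, VF-GL, part 5 (helper394)

`er3`, the comparison of `R~` with `R`, and the output theorem `gl_out`.
-/

set_option autoImplicit false

open MeasureTheory Set Function Filter Topology
open Crest.GeometryTopology.Submanifold
open Crest.Agent.R234.Vf_884 Crest.Agent.R234.Ar_870 Crest.Agent.R234.Cy_870
open scoped ENNReal NNReal InnerProductSpace

noncomputable section

namespace Crest.Agent.R234.GL_394

variable {m k : ℕ} {c : Ch m k} {K : Set (Euc k)} {D : Set (Euc m)}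
  {V : Measure (Euc k × L k)} {g g1 g2 : ℝ → ℝ} {Q l : ℝ}
  {c0 d0 hh C0 B : ℝ} {zN : Euc k → Euc k}

theorem norm_eta_le (hk : KB c K l c0 d0 hh C0 zN) {v : Euc m}
    (hv : ‖v‖ ≤ Real.exp l) :
    ‖eta c g1 l v‖ * Real.exp (-l) ≤ C0 * |g1 (Real.exp (-2 * l) * ‖v‖ ^ 2)| := by
  unfold eta
  rw [norm_smul, Real.norm_eq_abs]
  have hC := hk.C0n
  have h1 : ‖c.gi v v‖ ≤ C0 * Real.exp l :=
    ((c.gi v).le_opNorm _).trans (mul_le_mul (hk.hgi _ hv) hv (norm_nonneg _) (by linarith))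
  calc _ ≤ |g1 (Real.exp (-2 * l) * ‖v‖ ^ 2)| * (C0 * Real.exp l) * Real.exp (-l) := by
        refine mul_le_mul_of_nonneg_right ?_ (Real.exp_pos _).le
        exact mul_le_mul_of_nonneg_left h1 (abs_nonneg _)
    _ = C0 * |g1 (Real.exp (-2 * l) * ‖v‖ ^ 2)| * (Real.exp l * Real.exp (-l)) := by ring
    _ = _ := by rw [← Real.exp_add]; simp

theorem norm_deta_le (hp : Pf g g1 g2 B) (hk : KB c K l c0 d0 hh C0 zN) {v : Euc m}
    (hv : ‖v‖ ≤ Real.exp l) :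
    ‖deta c g1 g2 l v‖ ≤ 3 * B * C0 := by
  have hC := hk.C0n
  have hB : 0 ≤ B := (hp.nn 0 le_rfl).trans (hp.b0 0 le_rfl)
  set t := Real.exp (-2 * l) * ‖v‖ ^ 2 with ht
  have ht0 : 0 ≤ t := by positivity
  have h1 : ‖g1 t • dgv c v‖ ≤ B * C0 := by
    rw [norm_smul, Real.norm_eq_abs]
    have h2 : |g1 t| ≤ B := by
      rw [abs_of_nonpos (hp.pr.anti t ht0)]; exact hp.b1 t ht0
    exact mul_le_mul h2 (hk.hdgv _ hv) (norm_nonneg _) hB
  have h3 : ‖(innerSL ℝ ((2 * Real.exp (-2 * l) * g2 t) • v)).smulRight (c.gi v v)‖ ≤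
      2 * B * C0 := by
    rw [ContinuousLinearMap.norm_smulRight_apply, innerSL_apply_norm, norm_smul,
      Real.norm_eq_abs, abs_mul, abs_of_pos (by positivity : 0 < 2 * Real.exp (-2 * l))]
    have h4 : ‖c.gi v v‖ ≤ C0 * ‖v‖ :=
      ((c.gi v).le_opNorm _).trans (mul_le_mul_of_nonneg_right (hk.hgi _ hv) (norm_nonneg _))
    have h5 := hp.b2 t ht0
    rw [abs_mul, abs_of_nonneg ht0] at h5
    calc _ ≤ 2 * Real.exp (-2 * l) * |g2 t| * ‖v‖ * (C0 * ‖v‖) :=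
          mul_le_mul_of_nonneg_left h4 (by positivity)
      _ = 2 * C0 * (t * |g2 t|) := by rw [ht]; ring
      _ ≤ 2 * C0 * B := mul_le_mul_of_nonneg_left h5 (by linarith)
      _ = _ := by ring
  unfold deta
  refine (norm_add_le _ _).trans ?_
  linarith

theorem ep3_zero (hp : Pf g g1 g2 B) {p : Euc k × L k} (hr : ¬ ‖c.x p.1‖ ≤ Real.exp l) :
    ep3 c g1 g2 l p = 0 := by
  have h1 := hp.pr.k1.zero _ (t_ge hr)
  have h2 := hp.pr.k1.zero' _ (t_ge hr)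
  unfold ep3 deta eta Gam
  rw [h1, h2]
  simp

/-- pointwise bound of `ep3` -/
theorem ep3_le (h : Ok c K D) (hp : Pf g g1 g2 B) (hk : KB c K l c0 d0 hh C0 zN)
    {p : Euc k × L k} (hpm : p ∈ K ×ˢ G m k) (hr : ‖c.x p.1‖ ≤ Real.exp l) :
    |ep3 c g1 g2 l p| ≤
      (3 + C0 * (C0 + 1)) * (c0 + d0) *
        (c.f p.1 * (-g1 (Real.exp (-2 * l) * ‖c.x p.1‖ ^ 2))) +
      Real.exp (2 * l) * ((3 / 2 * (m * B * C0 ^ 2) * hh ^ 2 + B * d0) *
        (c.tau p.1 p.2 + qq c l p.1)) := by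
  have hD := h.mem _ hpm.1
  have ht := hk.tau0 p hpm hr
  have htl := hk.taule p hpm hr
  have hq := qq_nonneg (l := l) h hpm.1
  have hql := hk.qle _ hpm.1 hr
  have hC := hk.C0n
  have hc0 := hk.c0n
  have hd0 := hk.d0n
  have hhh := hk.hhn
  have hh1 := hk.hh1
  have hf := h.f_nonneg hpm.1
  have hm : (0:ℝ) ≤ m := Nat.cast_nonneg m
  have hB : 0 ≤ B := (hp.nn 0 le_rfl).trans (hp.b0 0 le_rfl)
  set t := Real.exp (-2 * l) * ‖c.x p.1‖ ^ 2 with htdef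
  have ht0 : 0 ≤ t := by positivity
  have hg1 := hp.pr.anti t ht0
  have hg1B := hp.b1 t ht0
  have hag : |g1 t| = -g1 t := abs_of_nonpos hg1
  set y := c.tau p.1 p.2 + qq c l p.1 with hy
  have hy0 : 0 ≤ y := add_nonneg ht hq
  have hq1 : qq c l p.1 ≤ 1 := hql.trans (by nlinarith)
  have hyC : y ≤ C0 + 1 := by linarith
  set w := -g1 t with hw
  have hw0 : 0 ≤ w := by linarith
  set f := c.f p.1 with hfdef
  have hfq : f = Real.exp (2 * l) * (qq c l p.1 / 2) := by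
    unfold qq
    have h1 : Real.exp (2 * l) * Real.exp (-2 * l) = 1 := by rw [← Real.exp_add]; simp
    calc f = (Real.exp (2 * l) * Real.exp (-2 * l)) * f := by rw [h1, one_mul]
      _ = _ := by rw [hfdef]; ring
  have a1 : |g1 t * th3 c (c.x p.1)| ≤ w * c0 := by
    rw [abs_mul, hag]
    exact mul_le_mul_of_nonneg_left (hk.hth3 _ hr) hw0
  have a2 : |tr (deta c g1 g2 l (c.x p.1) ∘L (ContinuousLinearMap.id ℝ (Euc m) - T c p))| ≤
      m * (3 * B * C0 * (C0 * y)) := by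
    refine (abs_tr_comp_le _ _).trans ?_
    refine mul_le_mul_of_nonneg_left ?_ hm
    exact mul_le_mul (norm_deta_le hp hk hr) (hk.k2 p hpm hr) (norm_nonneg _) (by positivity)
  have a3 : |Gam c p (eta c g1 l (c.x p.1)) - ⟪c.lam (c.x p.1), eta c g1 l (c.x p.1)⟫_ℝ| ≤
      (c0 + d0) * (C0 * w) * (C0 + 1) := by
    refine (hk.k3 p hpm hr _).trans ?_
    have h1 := norm_eta_le (g1 := g1) hk hr
    rw [hag] at h1
    exact mul_le_mul (mul_le_mul_of_nonneg_left h1 (by linarith)) hyC hy0 (by positivity)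
  have a4 : |g1 t * ⟪c.nu p.1, p.2 (zeta c p.1)⟫_ℝ| ≤
      w * (Real.exp (2 * l) * (c0 * qq c l p.1 + d0 * (c.tau p.1 p.2 + qq c l p.1))) := by
    rw [abs_mul, hag]
    exact mul_le_mul_of_nonneg_left (hk.k5b p hpm hr) hw0
  have hbd : |ep3 c g1 g2 l p| ≤ f * (w * c0 + m * (3 * B * C0 * (C0 * y)) +
      (c0 + d0) * (C0 * w) * (C0 + 1)) +
      w * (Real.exp (2 * l) * (c0 * qq c l p.1 + d0 * (c.tau p.1 p.2 + qq c l p.1))) := by
    unfold ep3
    refine (abs_sub _ _).trans (add_le_add ?_ a4)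
    rw [abs_mul, abs_of_nonneg hf]
    refine mul_le_mul_of_nonneg_left ?_ hf
    exact (abs_add_le _ _).trans (add_le_add ((abs_sub _ _).trans (add_le_add a1 a2)) a3)
  refine hbd.trans ?_
  have e1 : w * (Real.exp (2 * l) * (c0 * qq c l p.1 + d0 * (c.tau p.1 p.2 + qq c l p.1))) =
      2 * (c0 + d0) * (f * w) + Real.exp (2 * l) * (w * (d0 * c.tau p.1 p.2)) := by
    rw [hfq]; ring
  have e2 : Real.exp (2 * l) * (w * (d0 * c.tau p.1 p.2)) ≤
      Real.exp (2 * l) * (B * (d0 * y)) := by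
    refine mul_le_mul_of_nonneg_left ?_ (Real.exp_pos _).le
    refine mul_le_mul hg1B (mul_le_mul_of_nonneg_left (by linarith) hd0) (by positivity) hB
  have e3 : f * (m * (3 * B * C0 * (C0 * y))) ≤
      Real.exp (2 * l) * (3 / 2 * (m * B * C0 ^ 2) * hh ^ 2 * y) := by
    rw [hfq]
    have h1 : 0 ≤ m * B * C0 ^ 2 * y := by positivity
    have h2 : Real.exp (2 * l) * (qq c l p.1 / 2) * (m * (3 * B * C0 * (C0 * y))) =
        Real.exp (2 * l) * (3 / 2 * (m * B * C0 ^ 2 * y) * qq c l p.1) := by ring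
    have h3 : Real.exp (2 * l) * (3 / 2 * (m * B * C0 ^ 2) * hh ^ 2 * y) =
        Real.exp (2 * l) * (3 / 2 * (m * B * C0 ^ 2 * y) * hh ^ 2) := by ring
    rw [h2, h3]
    refine mul_le_mul_of_nonneg_left ?_ (Real.exp_pos _).le
    exact mul_le_mul_of_nonneg_left hql (by positivity)
  have e4 : f * (w * c0) ≤ (c0 + d0) * (f * w) := by
    have : 0 ≤ d0 * (f * w) := mul_nonneg hd0 (mul_nonneg hf hw0)
    nlinarith
  have e5 : f * ((c0 + d0) * (C0 * w) * (C0 + 1)) = C0 * (C0 + 1) * (c0 + d0) * (f * w) := by ring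
  calc _ = f * (w * c0) + f * (m * (3 * B * C0 * (C0 * y))) +
        f * ((c0 + d0) * (C0 * w) * (C0 + 1)) +
        w * (Real.exp (2 * l) * (c0 * qq c l p.1 + d0 * (c.tau p.1 p.2 + qq c l p.1))) := by ring
    _ ≤ (c0 + d0) * (f * w) + Real.exp (2 * l) * (3 / 2 * (m * B * C0 ^ 2) * hh ^ 2 * y) +
        C0 * (C0 + 1) * (c0 + d0) * (f * w) +
        (2 * (c0 + d0) * (f * w) + Real.exp (2 * l) * (B * (d0 * y))) := by
        rw [e1, e5]
        linarith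
    _ = _ := by ring

/-- `4 s^{-m} |er3| ≤ C (c0 + d0) I + C (hh² + d0) OO` -/
theorem er3_le (h : Ok c K D) (hV : On V m K) (hp : Pf g g1 g2 B)
    (hk : KB c K l c0 d0 hh C0 zN) :
    4 * Real.exp (-m * l) * |er3 c V g1 g2 l| ≤
      2 * (3 + C0 * (C0 + 1)) * (c0 + d0) * II c V g1 l +
      4 * (3 / 2 * (m * B * C0 ^ 2) * hh ^ 2 + B * d0) * OO c V l := by
  have hC := hk.C0n
  have hc0 := hk.c0n
  have hd0 := hk.d0n
  have hB : 0 ≤ B := (hp.nn 0 le_rfl).trans (hp.b0 0 le_rfl)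
  have hm : (0:ℝ) ≤ m := Nat.cast_nonneg m
  set A1 : ℝ := (3 + C0 * (C0 + 1)) * (c0 + d0) with hA1
  set A2 : ℝ := 3 / 2 * (m * B * C0 ^ 2) * hh ^ 2 + B * d0 with hA2
  have hA10 : 0 ≤ A1 := by positivity
  have hA20 : 0 ≤ A2 := by positivity
  set S : Set (Euc k × L k) := (K ×ˢ G m k) ∩ {p : Euc k × L k | ‖c.x p.1‖ ≤ Real.exp l} with hS
  have hSm : MeasurableSet S := (region_closed h l).measurableSet
  have i1 := h.int hV (lift h.cf) (q := fun t => -g1 t) hp.pr.k1.continuous.neg l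
  have i2 : Integrable (fun p => c.tau p.1 p.2 + qq c l p.1) V :=
    hV.integrable h.cpt (h.ctau.add (h.cqq l))
  have e1 : er3 c V g1 g2 l = ∫ p in S, ep3 c g1 g2 l p ∂V := by
    unfold er3
    symm
    refine setIntegral_eq_integral_of_ae_compl_eq_zero ?_
    filter_upwards [hV.mem] with p hpm hpS
    exact ep3_zero hp (fun h1 => hpS ⟨hpm, h1⟩)
  have i3 : Integrable (fun p => A1 * (c.f p.1 *
      (-g1 (Real.exp (-2 * l) * ‖c.x p.1‖ ^ 2))) +
      Real.exp (2 * l) * (A2 * (c.tau p.1 p.2 + qq c l p.1))) V :=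
    (i1.const_mul A1).add ((i2.const_mul A2).const_mul _)
  have h1 : |er3 c V g1 g2 l| ≤ ∫ p in S, (A1 * (c.f p.1 *
      (-g1 (Real.exp (-2 * l) * ‖c.x p.1‖ ^ 2))) +
      Real.exp (2 * l) * (A2 * (c.tau p.1 p.2 + qq c l p.1))) ∂V := by
    rw [e1, ← Real.norm_eq_abs]
    refine norm_integral_le_of_norm_le i3.integrableOn ?_
    filter_upwards [ae_restrict_mem hSm] with p hpS
    exact ep3_le h hp hk hpS.1 hpS.2
  have h2 : ∫ p in S, (A1 * (c.f p.1 *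
      (-g1 (Real.exp (-2 * l) * ‖c.x p.1‖ ^ 2))) +
      Real.exp (2 * l) * (A2 * (c.tau p.1 p.2 + qq c l p.1))) ∂V =
      A1 * (∫ p in S, c.f p.1 * (-g1 (Real.exp (-2 * l) * ‖c.x p.1‖ ^ 2)) ∂V) +
      Real.exp (2 * l) * (A2 * ∫ p in S, (c.tau p.1 p.2 + qq c l p.1) ∂V) := by
    rw [integral_add (i1.const_mul A1).integrableOn ((i2.const_mul A2).const_mul _).integrableOn,
      integral_const_mul, integral_const_mul, integral_const_mul]
  have h3 : ∫ p in S, c.f p.1 * (-g1 (Real.exp (-2 * l) * ‖c.x p.1‖ ^ 2)) ∂V ≤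
      ∫ p, c.f p.1 * (-g1 (Real.exp (-2 * l) * ‖c.x p.1‖ ^ 2)) ∂V := by
    refine setIntegral_le_integral i1 ?_
    filter_upwards [hV.mem] with p hpm
    have := hp.pr.anti (Real.exp (-2 * l) * ‖c.x p.1‖ ^ 2) (by positivity)
    exact mul_nonneg (h.f_nonneg hpm.1) (by linarith)
  have h4 := int_f_le (l := l) h hV hp hk
  have h5 : OO c V l = Real.exp ((2 - m) * l) * ∫ p in S, (c.tau p.1 p.2 + qq c l p.1) ∂V := by
    unfold OO
    rw [region_eq h hV l]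
  have h6 : Real.exp (-m * l) * Real.exp (2 * l) = Real.exp ((2 - m) * l) := by
    rw [← Real.exp_add]; congr 1; ring
  rw [h2] at h1
  have h7 := mul_le_mul_of_nonneg_left h1 (Real.exp_pos (-m * l)).le
  have h8 := mul_le_mul_of_nonneg_left (mul_le_mul_of_nonneg_left h3 (Real.exp_pos (-m * l)).le)
    hA10
  have h9 := mul_le_mul_of_nonneg_left h4 hA10
  calc 4 * Real.exp (-m * l) * |er3 c V g1 g2 l| = 4 * (Real.exp (-m * l) * |er3 c V g1 g2 l|) := by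
        ring
    _ ≤ 4 * (A1 * (II c V g1 l / 2) + A2 * OO c V l) := by
        refine mul_le_mul_of_nonneg_left ?_ (by norm_num)
        refine h7.trans ?_
        rw [h5, ← h6]
        nlinarith
    _ = _ := by ring

/-! ### the radial energy -/

/-- `s^{-m} ∫ mu⁻¹ ⟪(1 - P) xi, zN⟫ (-2 g1)` and the rest -/
theorem RT_ge (h : Ok c K D) (hV : On V m K) (hp : Pf g g1 g2 B)
    (hk : KB c K l c0 d0 hh C0 zN) :
    RR c V g1 l - 2 * c0 * √(RR c V g1 l * II c V g1 l) ≤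
      RT c V g1 l + 4 * B * d0 * OO c V l ∧
    RT c V g1 l ≤ RR c V g1 l + 2 * c0 * √(RR c V g1 l * II c V g1 l) +
      4 * B * d0 * OO c V l := by
  have hc0 := hk.c0n
  have hd0 := hk.d0n
  have hB : 0 ≤ B := (hp.nn 0 le_rfl).trans (hp.b0 0 le_rfl)
  have hq : Continuous fun t => -2 * g1 t := continuous_const.mul hp.pr.k1.continuous
  have hmuc : ContinuousOn (fun p : Euc k × L k => (c.mu (c.x p.1))⁻¹) (K ×ˢ G m k) :=
    (h.liftD h.cmu).inv₀ fun p hp => (h.mupos _ (h.mem _ hp.1)).ne'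
  -- the two parts of `zz`
  have ca : ContinuousOn (fun p : Euc k × L k => (c.mu (c.x p.1))⁻¹ *
      ⟪xi c p.1 - p.2 (xi c p.1), zN p.1⟫_ℝ) (K ×ˢ G m k) :=
    hmuc.mul (((lift h.cxi).sub (cP.clm_apply (lift h.cxi))).inner (lift hk.czN))
  have cb : ContinuousOn (fun p : Euc k × L k => (c.mu (c.x p.1))⁻¹ *
      ⟪xi c p.1 - p.2 (xi c p.1), zeta c p.1 - zN p.1⟫_ℝ) (K ×ˢ G m k) :=
    hmuc.mul (((lift h.cxi).sub (cP.clm_apply (lift h.cxi))).inner
      ((lift h.czeta).sub (lift hk.czN)))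
  have cZ : ContinuousOn (fun p : Euc k × L k => (c.mu (c.x p.1))⁻¹ * ‖zN p.1‖ ^ 2)
      (K ×ˢ G m k) := hmuc.mul ((lift hk.czN).norm.pow 2)
  have i1 := h.int hV h.crr hq l
  have i2 := h.int hV h.crt hq l
  have ia := h.int hV ca hq l
  have ib := h.int hV cb hq l
  have iZ := h.int hV cZ hq l
  set a := ∫ p, ((c.mu (c.x p.1))⁻¹ * ⟪xi c p.1 - p.2 (xi c p.1), zN p.1⟫_ℝ) *
    (-2 * g1 (Real.exp (-2 * l) * ‖c.x p.1‖ ^ 2)) ∂V with ha
  set b := ∫ p, ((c.mu (c.x p.1))⁻¹ *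
    ⟪xi c p.1 - p.2 (xi c p.1), zeta c p.1 - zN p.1⟫_ℝ) *
    (-2 * g1 (Real.exp (-2 * l) * ‖c.x p.1‖ ^ 2)) ∂V with hb
  have e1 : RT c V g1 l = RR c V g1 l - Real.exp (-m * l) * a - Real.exp (-m * l) * b := by
    have iab : Integrable (fun p => rr c p * (-2 * g1 (Real.exp (-2 * l) * ‖c.x p.1‖ ^ 2)) -
        (c.mu (c.x p.1))⁻¹ * ⟪xi c p.1 - p.2 (xi c p.1), zN p.1⟫_ℝ *
        (-2 * g1 (Real.exp (-2 * l) * ‖c.x p.1‖ ^ 2))) V := i1.sub ia
    unfold RR RT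
    rw [ha, hb, ← mul_sub, ← mul_sub, ← integral_sub i1 ia, ← integral_sub iab ib]
    congr 1
    refine integral_congr_ae ?_
    filter_upwards [hV.mem] with p hp
    rw [rt_eq' h hp]
    unfold zz
    rw [inner_sub_right]
    ring
  -- Cauchy-Schwarz
  have h1 := cs_int i1 ia iZ
    (by filter_upwards [hV.mem] with p hpm
        exact mul_nonneg (rr_nonneg h hpm) (w_nonneg hp.pr.anti l _))
    (by filter_upwards [hV.mem] with p hpm
        have hmu := h.mupos _ (h.mem _ hpm.1)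
        exact mul_nonneg (by positivity) (w_nonneg hp.pr.anti l _))
    (by filter_upwards [hV.mem] with p hpm
        have hmu := h.mupos _ (h.mem _ hpm.1)
        have h2 : ((c.mu (c.x p.1))⁻¹ * ⟪xi c p.1 - p.2 (xi c p.1), zN p.1⟫_ℝ) ^ 2 ≤
            rr c p * ((c.mu (c.x p.1))⁻¹ * ‖zN p.1‖ ^ 2) := by
          unfold rr
          have h3 := real_inner_mul_inner_self_le (xi c p.1 - p.2 (xi c p.1)) (zN p.1)
          rw [real_inner_self_eq_norm_sq, real_inner_self_eq_norm_sq, ← pow_two] at h3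
          calc _ = (c.mu (c.x p.1))⁻¹ ^ 2 * ⟪xi c p.1 - p.2 (xi c p.1), zN p.1⟫_ℝ ^ 2 := by
                ring
            _ ≤ (c.mu (c.x p.1))⁻¹ ^ 2 * (‖xi c p.1 - p.2 (xi c p.1)‖ ^ 2 *
                ‖zN p.1‖ ^ 2) := mul_le_mul_of_nonneg_left h3 (by positivity)
            _ = _ := by ring
        calc _ = ((c.mu (c.x p.1))⁻¹ * ⟪xi c p.1 - p.2 (xi c p.1), zN p.1⟫_ℝ) ^ 2 *
              (-2 * g1 (Real.exp (-2 * l) * ‖c.x p.1‖ ^ 2)) ^ 2 := by ring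
          _ ≤ (rr c p * ((c.mu (c.x p.1))⁻¹ * ‖zN p.1‖ ^ 2)) *
              (-2 * g1 (Real.exp (-2 * l) * ‖c.x p.1‖ ^ 2)) ^ 2 :=
            mul_le_mul_of_nonneg_right h2 (by positivity)
          _ = _ := by ring)
  have h2 : ∫ p, ((c.mu (c.x p.1))⁻¹ * ‖zN p.1‖ ^ 2) *
      (-2 * g1 (Real.exp (-2 * l) * ‖c.x p.1‖ ^ 2)) ∂V ≤
      4 * c0 ^ 2 * ∫ p, (2 * (c.f p.1 * c.mu (c.x p.1))) *
      (-2 * g1 (Real.exp (-2 * l) * ‖c.x p.1‖ ^ 2)) ∂V := by
    rw [← integral_const_mul]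
    refine integral_mono_ae iZ ((h.int hV (continuousOn_const.mul h.cfmu) hq l
      (F := fun p => 2 * (c.f p.1 * c.mu (c.x p.1)))).const_mul _) ?_
    filter_upwards [hV.mem] with p hpm
    have hw := w_nonneg hp.pr.anti l (c.x p.1)
    by_cases hr : ‖c.x p.1‖ ≤ Real.exp l
    · have hmu := hk.hmu _ hr
      have hmu0 : 0 < c.mu (c.x p.1) := by linarith
      have h3 : (c.mu (c.x p.1))⁻¹ ≤ 4 * c.mu (c.x p.1) := by
        rw [inv_le_iff_one_le_mul₀ hmu0]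
        nlinarith
      have h4 : ‖zN p.1‖ ^ 2 ≤ c0 ^ 2 * (2 * c.f p.1) := by
        rw [← h.nusq _ hpm.1, ← mul_pow]
        exact pow_le_pow_left₀ (norm_nonneg _) (hk.k5 _ hpm.1 hr) 2
      have h5 : (c.mu (c.x p.1))⁻¹ * ‖zN p.1‖ ^ 2 ≤
          (4 * c.mu (c.x p.1)) * (c0 ^ 2 * (2 * c.f p.1)) :=
        mul_le_mul h3 h4 (by positivity) (by positivity)
      calc _ ≤ ((4 * c.mu (c.x p.1)) * (c0 ^ 2 * (2 * c.f p.1))) *
            (-2 * g1 (Real.exp (-2 * l) * ‖c.x p.1‖ ^ 2)) :=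
            mul_le_mul_of_nonneg_right h5 hw
        _ = _ := by ring
    · rw [hp.pr.k1.zero _ (t_ge hr)]
      simp
  have hRR := RR_nonneg h hV hp.pr.anti l
  have hII := II_nonneg h hV hp.pr.anti l
  have hE := Real.exp_pos (-m * l)
  have h3 : (Real.exp (-m * l) * a) ^ 2 ≤ RR c V g1 l * (4 * c0 ^ 2 * II c V g1 l) := by
    rw [II_eq]
    unfold RR
    calc _ = Real.exp (-m * l) ^ 2 * a ^ 2 := by ring
      _ ≤ Real.exp (-m * l) ^ 2 * _ := mul_le_mul_of_nonneg_left h1 (by positivity)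
      _ = (Real.exp (-m * l) * ∫ p, rr c p *
            (-2 * g1 (Real.exp (-2 * l) * ‖c.x p.1‖ ^ 2)) ∂V) *
          (Real.exp (-m * l) * ∫ p, ((c.mu (c.x p.1))⁻¹ * ‖zN p.1‖ ^ 2) *
            (-2 * g1 (Real.exp (-2 * l) * ‖c.x p.1‖ ^ 2)) ∂V) := by ring
      _ ≤ (Real.exp (-m * l) * ∫ p, rr c p *
            (-2 * g1 (Real.exp (-2 * l) * ‖c.x p.1‖ ^ 2)) ∂V) *
          (Real.exp (-m * l) * (4 * c0 ^ 2 * ∫ p, (2 * (c.f p.1 * c.mu (c.x p.1))) *
            (-2 * g1 (Real.exp (-2 * l) * ‖c.x p.1‖ ^ 2)) ∂V)) := by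
          refine mul_le_mul_of_nonneg_left ?_ hRR
          exact mul_le_mul_of_nonneg_left h2 hE.le
      _ = _ := by ring
  have h4 : |Real.exp (-m * l) * a| ≤ 2 * c0 * √(RR c V g1 l * II c V g1 l) := by
    refine abs_le_of_sq_le_sq ?_ (by positivity)
    rw [mul_pow (2 * c0), Real.sq_sqrt (mul_nonneg hRR hII)]
    calc _ ≤ _ := h3
      _ = _ := by ring
  have h5 : Real.exp ((2 - m) * l) * |Real.exp (-2 * l) * b| ≤ (4 * B * d0) * OO c V l := by
    have h6 := abs_int_le_OO (l := l) (C := 4 * B * d0) h hV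
      (F := fun p => Real.exp (-2 * l) * (((c.mu (c.x p.1))⁻¹ *
        ⟪xi c p.1 - p.2 (xi c p.1), zeta c p.1 - zN p.1⟫_ℝ) *
        (-2 * g1 (Real.exp (-2 * l) * ‖c.x p.1‖ ^ 2))))
      (continuousOn_const.mul (cb.mul (h.cker hq l)))
      (fun p hpm hr => by
        have hw := w_nonneg hp.pr.anti l (c.x p.1)
        have hw2 : -2 * g1 (Real.exp (-2 * l) * ‖c.x p.1‖ ^ 2) ≤ 2 * B := by
          have := hp.b1 (Real.exp (-2 * l) * ‖c.x p.1‖ ^ 2) (by positivity)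
          linarith
        have hmu := hk.hmu _ hr
        have hmu0 : 0 < c.mu (c.x p.1) := by linarith
        have h7 : (c.mu (c.x p.1))⁻¹ ≤ 2 := by
          rw [inv_le_comm₀ hmu0 two_pos]; linarith
        have h8 := hk.k5a p hpm hr
        have htau := hk.tau0 p hpm hr
        have hq0 := qq_nonneg (l := l) h hpm.1
        have h9 : Real.exp (-2 * l) * Real.exp (2 * l) = 1 := by rw [← Real.exp_add]; simp
        rw [abs_mul, abs_mul, abs_mul, abs_of_pos (Real.exp_pos _), abs_of_nonneg hw,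
          abs_of_pos (inv_pos.2 hmu0)]
        calc _ ≤ Real.exp (-2 * l) * ((2 * (d0 * (Real.exp (2 * l) * c.tau p.1 p.2))) *
              (2 * B)) := by
              refine mul_le_mul_of_nonneg_left ?_ (Real.exp_pos _).le
              exact mul_le_mul (mul_le_mul h7 h8 (abs_nonneg _) zero_le_two) hw2 hw
                (by positivity)
          _ = 4 * B * d0 * (Real.exp (-2 * l) * Real.exp (2 * l)) * c.tau p.1 p.2 := by ring
          _ = 4 * B * d0 * c.tau p.1 p.2 := by rw [h9]; ring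
          _ ≤ _ := mul_le_mul_of_nonneg_left (by linarith) (by positivity))
      (fun p hpm hr => by
        rw [hp.pr.k1.zero _ (t_ge hr)]; simp)
    rw [integral_const_mul] at h6
    exact h6
  have h6 : |Real.exp (-m * l) * b| ≤ (4 * B * d0) * OO c V l := by
    refine le_trans (le_of_eq ?_) h5
    rw [exp_m2, mul_assoc, abs_mul, abs_of_pos (Real.exp_pos _)]
  rw [abs_le] at h4 h6
  constructor
  · rw [e1]; linarith [h4.2, h6.2]
  · rw [e1]; linarith [h4.1, h6.1]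

/-! ### output -/

/-- the radial energy of the output, `≥ (√R - c0 √I)²` -/
def RF (c : Ch m k) (V : Measure (Euc k × L k)) (g1 : ℝ → ℝ) (B c0 d0 l : ℝ) : ℝ :=
  RT c V g1 l + 4 * B * d0 * OO c V l + c0 ^ 2 * II c V g1 l

theorem RF_ge (h : Ok c K D) (hV : On V m K) (hp : Pf g g1 g2 B)
    (hk : KB c K l c0 d0 hh C0 zN) :
    (√(RR c V g1 l) - c0 * √(II c V g1 l)) ^ 2 ≤ RF c V g1 B c0 d0 l := by
  have h1 := (RT_ge (l := l) h hV hp hk).1
  have hRR := RR_nonneg h hV hp.pr.anti l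
  have hII := II_nonneg h hV hp.pr.anti l
  have e1 : (√(RR c V g1 l) - c0 * √(II c V g1 l)) ^ 2 =
      RR c V g1 l - 2 * c0 * √(RR c V g1 l * II c V g1 l) + c0 ^ 2 * II c V g1 l := by
    rw [Real.sqrt_mul hRR]
    have h2 := Real.sq_sqrt hRR
    have h3 := Real.sq_sqrt hII
    calc _ = √(RR c V g1 l) ^ 2 - 2 * c0 * (√(RR c V g1 l) * √(II c V g1 l)) +
          c0 ^ 2 * √(II c V g1 l) ^ 2 := by ring
      _ = _ := by rw [h2, h3]
  rw [e1]
  unfold RF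
  linarith

theorem RF_nonneg (h : Ok c K D) (hV : On V m K) (hp : Pf g g1 g2 B)
    (hk : KB c K l c0 d0 hh C0 zN) : 0 ≤ RF c V g1 B c0 d0 l :=
  (sq_nonneg _).trans (RF_ge h hV hp hk)

/-- **`|Phi| ≤ √(I R') + c0 I`** -/
theorem Ph_le (h : Ok c K D) (hV : On V m K) (hp : Pf g g1 g2 B)
    (hk : KB c K l c0 d0 hh C0 zN) :
    |Ph c V g1 l| ≤ √(II c V g1 l * RF c V g1 B c0 d0 l) + c0 * II c V g1 l := by
  have h1 := RF_ge (l := l) h hV hp hk
  have hRR := RR_nonneg h hV hp.pr.anti l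
  have hII := II_nonneg h hV hp.pr.anti l
  have hRF := RF_nonneg (l := l) h hV hp hk
  have h2 := Ph_sq_le h hV hp.pr.k1.continuous hp.pr.anti l
  have h3 : |Ph c V g1 l| ≤ √(RR c V g1 l) * √(II c V g1 l) := by
    rw [← Real.sqrt_mul hRR]
    exact Real.abs_le_sqrt h2
  have h4 : √(RR c V g1 l) - c0 * √(II c V g1 l) ≤ √(RF c V g1 B c0 d0 l) :=
    Real.le_sqrt_of_sq_le h1
  rw [Real.sqrt_mul hII]
  have h5 := Real.sqrt_nonneg (II c V g1 l)
  have h6 := Real.sq_sqrt hII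
  calc _ ≤ √(RR c V g1 l) * √(II c V g1 l) := h3
    _ ≤ (√(RF c V g1 B c0 d0 l) + c0 * √(II c V g1 l)) * √(II c V g1 l) :=
        mul_le_mul_of_nonneg_right (by linarith) h5
    _ = √(II c V g1 l) * √(RF c V g1 B c0 d0 l) + c0 * √(II c V g1 l) ^ 2 := by ring
    _ = _ := by rw [h6]

/-- the constant of the output -/
def Cg (m : ℕ) (B C0 : ℝ) : ℝ :=
  (1 + m * C0 + 2 * C0) * (1 + B) + 2 * (3 + C0 * (C0 + 1)) + 2 * B + 3 +
    4 * (3 / 2 * (m * B * C0 ^ 2) + B) + 2 * B + 4 * B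

theorem ar1 {G1 G3 G4 B X Y u v : ℝ} (hG1 : 0 ≤ G1) (hG3 : 0 ≤ G3) (hG4 : 0 ≤ G4)
    (hB : 0 ≤ B) (hX : 0 ≤ X) (hY : 0 ≤ Y) (hu : u ≤ X) (hv : v ≤ Y) :
    2 * (B * u + B * v) + (G3 * X + G4 * Y) ≤
      (G1 * (1 + B) + G3 + 2 * B + 3 + G4 + 2 * B + 4 * B) * X +
      (G1 * (1 + B) + G3 + 2 * B + 3 + G4 + 2 * B + 4 * B) * Y := by
  have h1 := mul_le_mul_of_nonneg_left hu hB
  have h2 := mul_le_mul_of_nonneg_left hv hB
  have h3 : 0 ≤ (G1 * (1 + B) + 3 + G4 + 2 * B + 4 * B) * X := by positivity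
  have h4 : 0 ≤ (G1 * (1 + B) + 3 + G3 + 2 * B + 4 * B) * Y := by positivity
  linarith

theorem ar2 {G1 G3 G4 B X Y E u v A : ℝ} (hG1 : 0 ≤ G1) (hG3 : 0 ≤ G3) (hG4 : 0 ≤ G4)
    (hB : 0 ≤ B) (hX : 0 ≤ X) (hY : 0 ≤ Y) (hE : 0 ≤ E) (hu : u ≤ X) (hv : v ≤ Y) :
    (G1 * E + G1 * B * X + A) + (4 * B * v + u) ≤
      (G1 * (1 + B) + G3 + 2 * B + 3 + G4 + 2 * B + 4 * B) * (E + X) + A +
      (G1 * (1 + B) + G3 + 2 * B + 3 + G4 + 2 * B + 4 * B) * Y := by
  have h2 := mul_le_mul_of_nonneg_left hv hB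
  have h3 : 0 ≤ (G1 + G3 + 2 * B + 2 + G4 + 2 * B + 4 * B) * X := by positivity
  have h4 : 0 ≤ (G1 * (1 + B) + 3 + G3 + 2 * B + 2 * B + G4) * Y := by positivity
  have h5 : 0 ≤ (G1 * B + G3 + 2 * B + 3 + G4 + 2 * B + 4 * B) * E := by positivity
  linarith

theorem ar3 {G1 G3 G4 B X Y u v : ℝ} (hG1 : 0 ≤ G1) (hG3 : 0 ≤ G3) (hG4 : 0 ≤ G4)
    (hB : 0 ≤ B) (hX : 0 ≤ X) (hY : 0 ≤ Y) (hu : u ≤ X) (hv : v ≤ Y) :
    u + (B * u + B * v) ≤
      (G1 * (1 + B) + G3 + 2 * B + 3 + G4 + 2 * B + 4 * B) * X +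
      (G1 * (1 + B) + G3 + 2 * B + 3 + G4 + 2 * B + 4 * B) * Y := by
  have h1 := mul_le_mul_of_nonneg_left hu hB
  have h2 := mul_le_mul_of_nonneg_left hv hB
  have h3 : 0 ≤ (G1 * (1 + B) + 2 + G3 + G4 + 3 * B + 4 * B) * X := by positivity
  have h4 : 0 ≤ (G1 * (1 + B) + 3 + G3 + G4 + 3 * B + 4 * B) * Y := by positivity
  linarith

/-- **OUTPUT OF VF-GL** (data of helper290's `StepData` at the level `l`), for `V` with vanishing
first variation on the three test fields -/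
theorem gl_out (h : Ok c K D) (hV : On V m K) (hp : Pf g g1 g2 B)
    (hk : KB c K l c0 d0 hh C0 zN) (hc1 : c0 ≤ 1) (Q : ℝ) {L : ℝ} (hlL : l < L)
    (hL : Metric.closedBall 0 (Real.exp L) ⊆ D)
    (f1 : FV V (X1 c g l) = 0) (f2 : FV V (X2 c g l) = 0) (f3 : FV V (X3 c g1 l) = 0) :
    0 ≤ RF c V g1 B c0 d0 l ∧ 0 ≤ II c V g1 l ∧ 0 ≤ ee c V g l ∧
    EE c V g Q l = ee c V g l / 2 + bb c V g Q l ∧
    (∃ I', HasDerivAt (II c V g1) I' l ∧
      |I' - 2 * ee c V g l| ≤ Cg m B C0 * ((c0 + d0) * II c V g1 l) +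
        Cg m B C0 * ((hh ^ 2 + d0) * OO c V l)) ∧
    (∃ E', HasDerivAt (EE c V g Q) E' l ∧
      |E' - (2 * bb c V g Q l + RF c V g1 B c0 d0 l)| ≤
        Cg m B C0 * ((c0 + d0) * ee c V g l + (c0 + d0) * II c V g1 l) +
        Real.exp ((2 - m) * l) * |er1a c V g Q l| + Cg m B C0 * ((hh ^ 2 + d0) * OO c V l)) ∧
    ee c V g l ≤ √(II c V g1 l * RF c V g1 B c0 d0 l) +
      (Cg m B C0 * ((c0 + d0) * II c V g1 l) + Cg m B C0 * ((hh ^ 2 + d0) * OO c V l)) := by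
  have hC := hk.C0n
  have hc0 := hk.c0n
  have hd0 := hk.d0n
  have hB : 0 ≤ B := (hp.nn 0 le_rfl).trans (hp.b0 0 le_rfl)
  have hm : (0:ℝ) ≤ m := Nat.cast_nonneg m
  have hII := II_nonneg h hV hp.pr.anti l
  have hee := ee_nonneg (l := l) h hV hp hk
  have hOO := OO_nonneg (l := l) h hV hk
  have heO := ee_le_OO (l := l) h hV hp hk
  have b2 := er2_le (l := l) h hV hp hk
  have b3 := er3_le (l := l) h hV hp hk
  have b1 := er1_le (l := l) h hV hp hk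
  have bP := Ph_le (l := l) h hV hp hk
  have hRF := RF_nonneg (l := l) h hV hp hk
  have hdII := hasDerivAt_II h hV hp.pr.k1 l
  have hdEE := hasDerivAt_EE h hV hp.pr.k0 Q hlL hL
  have hee2 := ee_eq h hV hp.pr.k0 l
  have hE2 := Real.exp_pos ((2 - m) * l)
  have hEm := Real.exp_pos (-m * l)
  have hbb : EE c V g Q l = ee c V g l / 2 + bb c V g Q l := by unfold bb; ring
  have hRFd : RF c V g1 B c0 d0 l = RT c V g1 l + 4 * B * d0 * OO c V l +
    c0 ^ 2 * II c V g1 l := rfl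
  rw [f2] at hee2
  rw [f3] at hdII
  rw [f1] at hdEE
  generalize II c V g1 = If at *
  generalize EE c V g Q = Ef at *
  generalize hIv : If l = I at *
  generalize ee c V g l = e at *
  generalize OO c V l = O at *
  generalize RF c V g1 B c0 d0 l = R at *
  generalize RT c V g1 l = Rt at *
  generalize Ph c V g1 l = Ph at *
  generalize bb c V g Q l = b at *
  generalize er1 c V g l = r1 at *
  generalize er1a c V g Q l = r1a at *
  generalize er2 c V g l = r2 at *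
  generalize er3 c V g1 g2 l = r3 at *
  generalize Real.exp ((2 - m) * l) = E2 at *
  generalize Real.exp (-m * l) = Em at *
  set G1 : ℝ := 1 + m * C0 + 2 * C0 with hG1
  set G3 : ℝ := 2 * (3 + C0 * (C0 + 1)) with hG3
  set G4 : ℝ := 4 * (3 / 2 * (m * B * C0 ^ 2) + B) with hG4
  have hG1p : 0 ≤ G1 := by positivity
  have hG3p : 0 ≤ G3 := by positivity
  have hG4p : 0 ≤ G4 := by positivity
  have hCg : Cg m B C0 = G1 * (1 + B) + G3 + 2 * B + 3 + G4 + 2 * B + 4 * B := rfl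
  rw [hCg]
  have hX : 0 ≤ (c0 + d0) * I := by positivity
  have hY : 0 ≤ (hh ^ 2 + d0) * O := by positivity
  have hu : c0 * I ≤ (c0 + d0) * I := mul_le_mul_of_nonneg_right (by linarith) hII
  have hv : d0 * O ≤ (hh ^ 2 + d0) * O :=
    mul_le_mul_of_nonneg_right (by linarith [sq_nonneg hh]) hOO
  have e1 : |e - Ph| ≤ B * (c0 * I) + B * (d0 * O) := by
    have h1 : e - Ph = -(E2 * r2) := by linarith
    rw [h1, abs_neg, abs_mul, abs_of_pos hE2]
    have h2 := mul_le_mul_of_nonneg_left heO hd0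
    linarith
  refine ⟨hRF, hII, hee, hbb, ⟨_, hdII, ?_⟩, ⟨_, hdEE, ?_⟩, ?_⟩
  · have e3 : 2 * Ph + 4 * Em * (0 - r3) - 2 * e = -(2 * (e - Ph)) - 4 * Em * r3 := by ring
    rw [e3]
    have e4 : |4 * Em * r3| ≤ G3 * ((c0 + d0) * I) + G4 * ((hh ^ 2 + d0) * O) := by
      rw [abs_mul, abs_of_pos (by positivity : 0 < 4 * Em)]
      refine b3.trans ?_
      have h1 : 4 * (3 / 2 * (m * B * C0 ^ 2) * hh ^ 2 + B * d0) * O ≤
          G4 * ((hh ^ 2 + d0) * O) := by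
        have h2 : 0 ≤ (m * B * C0 ^ 2) * d0 := by positivity
        have h3 : 0 ≤ B * hh ^ 2 := by positivity
        have h4 : 4 * (3 / 2 * (m * B * C0 ^ 2) * hh ^ 2 + B * d0) ≤ G4 * (hh ^ 2 + d0) := by
          rw [hG4]; linarith
        calc _ ≤ (G4 * (hh ^ 2 + d0)) * O := mul_le_mul_of_nonneg_right h4 hOO
          _ = _ := by ring
      linarith
    have e5 : |-(2 * (e - Ph))| ≤ 2 * (B * (c0 * I) + B * (d0 * O)) := by
      rw [abs_neg, abs_mul, abs_of_pos two_pos]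
      linarith
    exact (abs_sub _ _).trans ((add_le_add e5 e4).trans (ar1 hG1p hG3p hG4p hB hX hY hu hv))
  · have e3 : 2 * b + Rt + E2 * (r1a + r1 - 0) - (2 * b + R) =
        (E2 * r1 + E2 * r1a) - (4 * B * d0 * O + c0 ^ 2 * I) := by
      rw [hRFd]; ring
    rw [e3]
    have e4 : |E2 * r1| ≤ G1 * ((c0 + d0) * e) + G1 * B * ((c0 + d0) * I) := by
      rw [abs_mul, abs_of_pos hE2]
      refine b1.trans (le_of_eq (by ring))
    have e5 : |E2 * r1a| = E2 * |r1a| := by rw [abs_mul, abs_of_pos hE2]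
    have e6 : |4 * B * d0 * O + c0 ^ 2 * I| ≤ 4 * B * (d0 * O) + c0 * I := by
      rw [abs_of_nonneg (by positivity)]
      have : c0 ^ 2 * I ≤ c0 * I := by
        rw [pow_two, mul_assoc]
        calc c0 * (c0 * I) ≤ 1 * (c0 * I) :=
              mul_le_mul_of_nonneg_right hc1 (mul_nonneg hc0 hII)
          _ = _ := one_mul _
      linarith
    refine (abs_sub _ _).trans ((add_le_add ((abs_add_le _ _).trans
      (add_le_add e4 (le_of_eq e5))) e6).trans ?_)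
    exact ar2 hG1p hG3p hG4p hB hX hY (mul_nonneg (by positivity) hee) hu hv
  · have e3 : e ≤ Ph + (B * (c0 * I) + B * (d0 * O)) := by
      have := (abs_le.1 e1).2
      linarith
    have e4 := (abs_le.1 bP).2
    have e5 := ar3 hG1p hG3p hG4p hB hX hY hu hv
    linarith

end Crest.Agent.R234.GL_394
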