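import Crest.Agent.R234.Gi6_456
import Crest.Agent.R234.GLK6_128

/-!
# Row 234, node GL-KB (helper128), file 7: **`Hy.kb` : the bounds `GL_394.KB` for the chart `ch`**
-/

set_option autoImplicit false
set_option maxSynthPendingDepth 3

open MeasureTheory Filter Topology Set Function
open scoped ENNReal NNReal ContDiff InnerProductSpace
open Crest.GeometryTopology.Submanifold Crest.Agent.R234.Vf_884
open Crest.Agent.R234.Main_456
open Crest.Agent.R234.Fm_209 (trc trc_apply trc_comp_comm)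
open Crest.Agent.R234.Ell1_3 (adjL ginv gop dns)
open Crest.Agent.R234.Gi_456 (Gr tube foot yy frame_fr Yo Li hinv At A0t Bt dft dyt Lo Loi ch giB jB
  lamB muG beG pt)

noncomputable section

namespace Crest.Agent.R234.GLK_128

variable {m n k : ℕ}

local notation "adj" => ContinuousLinearMap.adjoint

variable {π : Euc k →L[ℝ] Euc m} {ρ : Euc k →L[ℝ] Euc n} {x : Euc k} {r : ℝ} {w : Euc m → Euc n}
  {X0 : Euc m} {K : Set (Euc k)} {l K1 K2 K3 hb : ℝ}

theorem norm_Loi_le (q : Euc m →L[ℝ] Euc n) (v : Euc m) : ‖Loi q v‖ ≤ ‖v‖ := by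
  calc ‖Loi q v‖ ≤ ‖Loi q‖ * ‖v‖ := ContinuousLinearMap.le_opNorm _ _
    _ ≤ 1 * ‖v‖ := by gcongr; exact norm_Loi q
    _ = ‖v‖ := one_mul _

theorem Hy.f3 (h : Hy π ρ x r w X0 K l K1 K2 K3 hb) {p : Euc k × L k}
    (hp : p ∈ K ×ˢ G m k) (hr : ‖(ch π ρ x r w X0).x p.1‖ ≤ Real.exp l) (v : Euc m) :
    |GL_394.Gam (ch π ρ x r w X0) p v -
        ⟪(ch π ρ x r w X0).lam ((ch π ρ x r w X0).x p.1), v⟫_ℝ| ≤
      (16 * (m + n) * cc K1 (K2 * Real.exp l) (K3 * Real.exp (2 * l)) +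
        16 * (m + n) * dd (K2 * Real.exp l) (K3 * Real.exp (2 * l)) hb) *
        (‖v‖ * Real.exp (-l)) *
        ((ch π ρ x r w X0).tau p.1 p.2 + GL_394.qq (ch π ρ x r w X0) l p.1) := by
  have hX := h.foot_le hr
  have hc3 : ContDiffAt ℝ 3 w (foot π ρ x r w p.1) := h.gr.cd.contDiffAt.of_le (by norm_num)
  have h1 := abs_k3 (frame_fr h.fr) (h.inv hp.1) (pj_of_mem hp.2) (h.q4 p.1) (h.Y4 hp.1)
    (Kt := Kop w (foot π ρ x r w p.1) (yy π ρ x r w p.1) (Loi (fderiv ℝ w X0) v))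
    (S := fderiv ℝ (fderiv ℝ w) (foot π ρ x r w p.1) (Loi (fderiv ℝ w X0) v))
    (hmin_of (EuclideanSpace.basisFun (Fin m) ℝ) hc3 (h.min' hX) (yy π ρ x r w p.1)
      (Loi (fderiv ℝ w X0) v))
  rw [cast_fin, cast_fin] at h1
  have e1 : GL_394.Gam (ch π ρ x r w X0) p v = trc (Euc k) (DAv (adj π) (adj ρ)
      (fderiv ℝ w (foot π ρ x r w p.1)) (Yo w (foot π ρ x r w p.1) (yy π ρ x r w p.1))
      (Li w (foot π ρ x r w p.1) (yy π ρ x r w p.1)) (hinv (fderiv ℝ w (foot π ρ x r w p.1)))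
      (Kop w (foot π ρ x r w p.1) (yy π ρ x r w p.1) (Loi (fderiv ℝ w X0) v))
      (fderiv ℝ (fderiv ℝ w) (foot π ρ x r w p.1) (Loi (fderiv ℝ w X0) v)) ∘L p.2) := by
    rw [GL_394.Gam, h.gr.dA_flip h.fr (h.sub hp.1), tr_eq_trc]
    rfl
  have e2 : ⟪(ch π ρ x r w X0).lam ((ch π ρ x r w X0).x p.1), v⟫_ℝ =
      trc (Euc m) (ginv (fderiv ℝ w (foot π ρ x r w p.1)) ∘L
        adj (fderiv ℝ w (foot π ρ x r w p.1)) ∘L
          fderiv ℝ (fderiv ℝ w) (foot π ρ x r w p.1) (Loi (fderiv ℝ w X0) v)) := by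
    have e3 := h.gr.inner_lam X0 ((ch π ρ x r w X0).x p.1) v
    have e4 : pt w X0 ((ch π ρ x r w X0).x p.1) = foot π ρ x r w p.1 := Gi_456.pt_x w X0 _
    rw [e4, lamf_apply] at e3
    exact e3
  rw [e1, e2, qq_eq]
  have hv := norm_Loi_le (fderiv ℝ w X0) v
  have hv0 := norm_nonneg (Loi (fderiv ℝ w X0) v)
  have hexp := Real.exp_pos l
  have hKt : ‖Kop w (foot π ρ x r w p.1) (yy π ρ x r w p.1) (Loi (fderiv ℝ w X0) v)‖ ≤
      K3 * Real.exp (2 * l) * et π ρ x r w X0 l p.1 * (‖v‖ * Real.exp (-l)) := by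
    refine (norm_Kop_le _ _ _ _).trans ?_
    have e5 : K3 * Real.exp (2 * l) * et π ρ x r w X0 l p.1 * (‖v‖ * Real.exp (-l)) =
        K3 * ‖v‖ * (et π ρ x r w X0 l p.1 * Real.exp l) := by
      have : Real.exp (2 * l) = Real.exp l * Real.exp l := by rw [← Real.exp_add]; congr 1; ring
      rw [this]
      have := exp_neg_mul l
      calc _ = K3 * ‖v‖ * (et π ρ x r w X0 l p.1 * Real.exp l) *
            (Real.exp (-l) * Real.exp l) := by ring
        _ = _ := by rw [this, mul_one]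
    rw [e5]
    have hK3 := h.K3n
    exact mul_le_mul (mul_le_mul (h.k3 _ hX) hv hv0 hK3) (norm_yy_le_nu h p.1) (norm_nonneg _)
      (mul_nonneg hK3 (norm_nonneg _))
  have hS : ‖fderiv ℝ (fderiv ℝ w) (foot π ρ x r w p.1) (Loi (fderiv ℝ w X0) v)‖ ≤
      K2 * Real.exp l * (‖v‖ * Real.exp (-l)) := by
    refine (ContinuousLinearMap.le_opNorm _ _).trans ?_
    have e5 : K2 * Real.exp l * (‖v‖ * Real.exp (-l)) = K2 * ‖v‖ := by
      calc _ = K2 * ‖v‖ * (Real.exp (-l) * Real.exp l) := by ring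
        _ = _ := by rw [exp_neg_mul, mul_one]
    rw [e5]
    exact mul_le_mul (h.k2 _ hX) hv hv0 h.K2n
  exact kb3 (by positivity) h.K1n h.k1le h.a2n h.a2le h.a3n (et_nonneg _) (et_le h hp.1 hr)
    (Real.sqrt_nonneg _) (Real.sq_sqrt (h.tau_nonneg hp)) (norm_nonneg _) (h.qK hr)
    (norm_nonneg _) (h.YK hr) (by positivity) (norm_nonneg _) hKt (norm_nonneg _) hS h1

/-- base data -/
theorem Hy.bs (h : Hy π ρ x r w X0 K l K1 K2 K3 hb) :
    Gi_456.Bs w X0 (3 * (Min.min K1 (1 / 8) * K2)) (Real.exp l) where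
  small := by
    have h1 := h.k2s
    have h2 := h.a2n
    have h3 : Min.min K1 (1 / 8) ≤ 1 / 8 := min_le_right _ _
    calc 3 * (Min.min K1 (1 / 8) * K2) * Real.exp l = 3 * Min.min K1 (1 / 8) * (K2 * Real.exp l) := by ring
      _ ≤ 3 * (1 / 8) * (1 / 2) := by
        have h4 : 3 * Min.min K1 (1 / 8) ≤ 3 * (1 / 8) := by linarith
        exact mul_le_mul h4 h1 h2 (by norm_num)
      _ ≤ 1 / 4 := by norm_num
  bd := by
    intro u hu
    have hX : ‖pt w X0 u - X0‖ ≤ Real.exp l := by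
      have : pt w X0 u - X0 = Loi (fderiv ℝ w X0) u := by simp [pt]
      rw [this]
      exact (norm_Loi_le _ _).trans hu
    have h1 : ‖fderiv ℝ w (pt w X0 u)‖ ≤ Min.min K1 (1 / 8) := le_min (h.k1 _ hX) (h.gr.d1 _)
    have h2 := h.k2 _ hX
    have h3 : 0 ≤ Min.min K1 (1 / 8) := (norm_nonneg _).trans h1
    have := mul_le_mul h1 h2 (norm_nonneg _) h3
    linarith

theorem Hy.bs_le (h : Hy π ρ x r w X0 K l K1 K2 K3 hb) :
    18 * (m + 1) * (3 * (Min.min K1 (1 / 8) * K2) * Real.exp l) ≤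
      Ck m n * cc K1 (K2 * Real.exp l) (K3 * Real.exp (2 * l)) := by
  have h1 := K1a2_le h.K1n h.a2n h.a3n
  have h2 : Min.min K1 (1 / 8) ≤ K1 := min_le_left _ _
  have h3 := mul_le_mul_of_nonneg_right h2 h.a2n
  have h4 : (0 : ℝ) ≤ 54 * (m + 1) := by positivity
  have h5 := cc_nonneg h.K1n h.a2n h.a3n
  calc 18 * (m + 1) * (3 * (Min.min K1 (1 / 8) * K2) * Real.exp l)
      = 54 * (m + 1) * (Min.min K1 (1 / 8) * (K2 * Real.exp l)) := by ring
    _ ≤ 54 * (m + 1) * cc K1 (K2 * Real.exp l) (K3 * Real.exp (2 * l)) :=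
        mul_le_mul_of_nonneg_left (h3.trans h1) h4
    _ ≤ Ck m n * cc K1 (K2 * Real.exp l) (K3 * Real.exp (2 * l)) := by
        refine mul_le_mul_of_nonneg_right ?_ h5
        unfold Ck
        have : (0 : ℝ) ≤ m := Nat.cast_nonneg m
        have : (0 : ℝ) ≤ n := Nat.cast_nonneg n
        linarith

/-- **the bounds `KB` for the chart of a graph** -/
theorem Hy.kb (h : Hy π ρ x r w X0 K l K1 K2 K3 hb) :
    GL_394.KB (ch π ρ x r w X0) K l (Ck m n * cc K1 (K2 * Real.exp l) (K3 * Real.exp (2 * l)))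
      (Ck m n * dd (K2 * Real.exp l) (K3 * Real.exp (2 * l)) hb) hb (m + 8)
      (zN π ρ x r w X0) := by
  have hm : (0 : ℝ) ≤ m := Nat.cast_nonneg m
  have hn : (0 : ℝ) ≤ n := Nat.cast_nonneg n
  have hcc := cc_nonneg h.K1n h.a2n h.a3n
  have hdd := dd_nonneg h.a2n h.a3n h.hb0
  have hC := Ck_nonneg m n
  have cle : ∀ a : ℝ, a ≤ 64 * (m + n + 1) →
      a * cc K1 (K2 * Real.exp l) (K3 * Real.exp (2 * l)) ≤
      Ck m n * cc K1 (K2 * Real.exp l) (K3 * Real.exp (2 * l)) := fun a ha =>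
    mul_le_mul_of_nonneg_right (le_Ck m n ha) hcc
  have dle : ∀ a : ℝ, a ≤ 64 * (m + n + 1) →
      a * dd (K2 * Real.exp l) (K3 * Real.exp (2 * l)) hb ≤
      Ck m n * dd (K2 * Real.exp l) (K3 * Real.exp (2 * l)) hb := fun a ha =>
    mul_le_mul_of_nonneg_right (le_Ck m n ha) hdd
  have hall := fun (v : Euc m) (hv : ‖v‖ ≤ Real.exp l) =>
    h.bs.all (π := π) (ρ := ρ) (x := x) h.gr hv
  have hbs := h.bs_le (n := n)
  refine
    { c0n := mul_nonneg hC hcc
      d0n := mul_nonneg hC hdd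
      hhn := h.hb0
      hh1 := h.hb1
      C0n := by linarith
      czN := h.continuousOn_zN
      tau0 := fun p hp _ => h.tau_nonneg hp
      taule := fun p hp _ => (h.tau_le hp).trans (by linarith)
      qle := ?_, k1 := ?_, k2 := ?_, k3 := ?_, k4 := ?_, k5 := ?_, k5a := ?_, k5b := ?_
      hth := fun v hv => (hall v hv).1.trans hbs
      hth3 := fun v hv => (hall v hv).2.1.trans hbs
      hdbe := fun v hv => (hall v hv).2.2.1.trans hbs
      hmu := fun v hv => le_trans (by norm_num) (hall v hv).2.2.2.1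
      hgi := fun v hv => (hall v hv).2.2.2.2.1.trans (by linarith)
      hdgv := fun v hv => (hall v hv).2.2.2.2.2.trans (by linarith) }
  · intro z hz hr
    rw [qq_eq]
    exact pow_le_pow_left₀ (et_nonneg z) (et_le h hz hr) 2
  · intro p hp hr
    refine (h.f1 hp hr).trans (mul_le_mul_of_nonneg_right (cle _ (by linarith)) ?_)
    rw [qq_eq]
    exact add_nonneg (h.tau_nonneg hp) (sq_nonneg _)
  · intro p hp hr
    refine (h.f2 hp hr).trans (mul_le_mul_of_nonneg_right (by linarith) ?_)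
    rw [qq_eq]
    exact add_nonneg (h.tau_nonneg hp) (sq_nonneg _)
  · intro p hp hr v
    refine (h.f3 hp hr v).trans (mul_le_mul_of_nonneg_right
      (mul_le_mul_of_nonneg_right ?_ (by positivity)) ?_)
    · exact add_le_add (cle _ (by linarith)) (dle _ (by linarith))
    · rw [qq_eq]
      exact add_nonneg (h.tau_nonneg hp) (sq_nonneg _)
  · intro p hp hr
    refine (h.f4 hp hr).trans (add_le_add ?_ ?_)
    · refine mul_le_mul_of_nonneg_right (cle _ (by linarith)) ?_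
      rw [qq_eq]; exact sq_nonneg _
    · exact mul_le_mul_of_nonneg_right (dle _ (by linarith)) (h.tau_nonneg hp)
  · intro z hz hr
    exact (h.f5 hz hr).trans (mul_le_mul_of_nonneg_right (cle _ (by linarith)) (norm_nonneg _))
  · intro p hp hr
    exact (h.f5a hp hr).trans (mul_le_mul_of_nonneg_right (dle _ (by linarith))
      (mul_nonneg (Real.exp_pos _).le (h.tau_nonneg hp)))
  · intro p hp hr
    refine (h.f5b hp hr).trans (mul_le_mul_of_nonneg_left (add_le_add ?_ ?_) (Real.exp_pos _).le)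
    · refine mul_le_mul_of_nonneg_right (cle _ (by linarith)) ?_
      rw [qq_eq]; exact sq_nonneg _
    · refine mul_le_mul_of_nonneg_right (dle _ (by linarith)) ?_
      rw [qq_eq]
      exact add_nonneg (h.tau_nonneg hp) (sq_nonneg _)

end Crest.Agent.R234.GLK_128
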