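import Crest.Agent.R234.Tv1_618

/-!
# Row 234, F3-TV, part 2 (helper618)

Linear algebra of the foot map: `a = dx`, `N` = orthogonal projection onto `ker a`, `P` a plane.
* `jac_bound` : `|1 - j J - tr (N P) / 2| ≤ (m / 2) tr (N P) + δ`, `J = √det (a P a†)`,
  if `|j² det (a a†) - 1| ≤ δ`;
* `T_bound` : `‖1 - a P A‖ ≤ C (tr (N P) + ‖N A‖²)`, if `a A = 1`.
-/

set_option autoImplicit false

open MeasureTheory Set Function
open Crest.GeometryTopology.Submanifold
open Crest.Agent.R234.Vf_884 Crest.Agent.R234.Ar_870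
open scoped ENNReal NNReal InnerProductSpace

noncomputable section

namespace Crest.Agent.R234.Tv_618

variable {m k : ℕ}

/-- orthogonal projection onto the kernel -/
def Nk (a : Euc k →L[ℝ] Euc m) : L k := (LinearMap.ker (a : Euc k →ₗ[ℝ] Euc m)).starProjection

theorem norm_sq_le_tr (B : Euc m →L[ℝ] Euc k) (v : Euc m) :
    ‖B v‖ ^ 2 ≤ tr (ContinuousLinearMap.adjoint B ∘L B) * ‖v‖ ^ 2 := by
  have h1 : tr (ContinuousLinearMap.adjoint B ∘L B) = ∑ i, ‖B (stdVec m i)‖ ^ 2 := by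
    rw [tr_eq_sum]
    refine Finset.sum_congr rfl fun i _ => ?_
    change ⟪stdVec m i, ContinuousLinearMap.adjoint B (B (stdVec m i))⟫_ℝ = _
    rw [ContinuousLinearMap.adjoint_inner_right, real_inner_self_eq_norm_sq]
  have h2 : B v = ∑ i, v i • B (stdVec m i) := by
    have h := (EuclideanSpace.basisFun (Fin m) ℝ).sum_repr v
    conv_lhs => rw [← h]
    rw [map_sum]
    refine Finset.sum_congr rfl fun i _ => ?_
    rw [map_smul]
    simp [stdVec]
  have h3 : ‖B v‖ ≤ ∑ i, |v i| * ‖B (stdVec m i)‖ := by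
    rw [h2]
    refine (norm_sum_le _ _).trans (le_of_eq ?_)
    refine Finset.sum_congr rfl fun i _ => ?_
    rw [norm_smul, Real.norm_eq_abs]
  have h4 := Finset.sum_mul_sq_le_sq_mul_sq Finset.univ (fun i => |v i|)
    (fun i => ‖B (stdVec m i)‖)
  have h5 : ∑ i, |v i| ^ 2 = ‖v‖ ^ 2 := by
    rw [EuclideanSpace.norm_sq_eq]
    refine Finset.sum_congr rfl fun i _ => ?_
    rw [Real.norm_eq_abs]
  rw [h1]
  calc ‖B v‖ ^ 2 ≤ (∑ i, |v i| * ‖B (stdVec m i)‖) ^ 2 := pow_le_pow_left₀ (norm_nonneg _) h3 2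
    _ ≤ _ := h4
    _ = _ := by rw [h5, mul_comm]

theorem exists_polar {a : Euc k →L[ℝ] Euc m} (ha : Surjective a) :
    ∃ (R : L m) (π : Euc k →L[ℝ] Euc m), IsCo π ∧ a = R ∘L π ∧
      ContinuousLinearMap.adjoint π ∘L π = ContinuousLinearMap.id ℝ (Euc k) - Nk a := by
  set K : Submodule ℝ (Euc k) := LinearMap.ker (a : Euc k →ₗ[ℝ] Euc m) with hK
  have hr1 : Module.finrank ℝ K + Module.finrank ℝ (Kᗮ : Submodule ℝ (Euc k)) =
      Module.finrank ℝ (Euc k) := K.finrank_add_finrank_orthogonal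
  have hr2 := LinearMap.finrank_range_add_finrank_ker (a : Euc k →ₗ[ℝ] Euc m)
  have hr3 : LinearMap.range (a : Euc k →ₗ[ℝ] Euc m) = ⊤ := LinearMap.range_eq_top.2 ha
  rw [hr3, finrank_top] at hr2
  have hm : Module.finrank ℝ (Euc m) = m := by simp
  have hfr : Module.finrank ℝ (Kᗮ : Submodule ℝ (Euc k)) = m := by
    rw [← hK] at hr2
    omega
  set b : OrthonormalBasis (Fin m) ℝ (Kᗮ : Submodule ℝ (Euc k)) :=
    (stdOrthonormalBasis ℝ (Kᗮ : Submodule ℝ (Euc k))).reindex (finCongr hfr) with hb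
  set ι : Euc m →ₗᵢ[ℝ] Euc k := (Kᗮ : Submodule ℝ (Euc k)).subtypeₗᵢ.comp
    b.repr.symm.toLinearIsometry with hι
  set i : Euc m →L[ℝ] Euc k := ι.toContinuousLinearMap with hi
  have hιi : ∀ v, i v = ι v := fun v => rfl
  have hii : ContinuousLinearMap.adjoint i ∘L i = ContinuousLinearMap.id ℝ (Euc m) := by
    ext1 v
    refine ext_inner_left ℝ fun w => ?_
    change ⟪w, ContinuousLinearMap.adjoint i (i v)⟫_ℝ = ⟪w, v⟫_ℝ
    rw [ContinuousLinearMap.adjoint_inner_right, hιi, hιi, ι.inner_map_map]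
  have hrange : ∀ v : Euc k, v ∈ (Kᗮ : Submodule ℝ (Euc k)) → ∃ w, i w = v := by
    intro v hv
    refine ⟨b.repr ⟨v, hv⟩, ?_⟩
    rw [hιi, hι]
    simp
  have himem : ∀ w, i w ∈ (Kᗮ : Submodule ℝ (Euc k)) := by
    intro w
    rw [hιi, hι]
    simp
  have hproj : i ∘L ContinuousLinearMap.adjoint i = ContinuousLinearMap.id ℝ (Euc k) - Nk a := by
    ext1 v
    change i (ContinuousLinearMap.adjoint i v) = v - K.starProjection v
    have h1 : v - K.starProjection v ∈ (Kᗮ : Submodule ℝ (Euc k)) :=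
      K.sub_starProjection_mem_orthogonal v
    obtain ⟨w, hw⟩ := hrange _ h1
    have h2 : ContinuousLinearMap.adjoint i (K.starProjection v) = 0 := by
      refine ext_inner_left ℝ fun u => ?_
      rw [ContinuousLinearMap.adjoint_inner_right, inner_zero_right]
      exact K.inner_left_of_mem_orthogonal (Submodule.starProjection_apply_mem _ _) (himem u)
    have h3 : ContinuousLinearMap.adjoint i v = w := by
      have h4 : v = i w + K.starProjection v := by rw [hw]; abel
      have h5 : ContinuousLinearMap.adjoint i (i w) = w :=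
        congrArg (fun A : Euc m →L[ℝ] Euc m => A w) hii
      rw [h4, map_add, h2, add_zero, h5]
    rw [h3, hw]
  refine ⟨a ∘L i, ContinuousLinearMap.adjoint i, ?_, ?_, ?_⟩
  · unfold IsCo
    rw [ContinuousLinearMap.adjoint_adjoint]
    exact hii
  · have h1 : (a ∘L i) ∘L ContinuousLinearMap.adjoint i =
        a ∘L (i ∘L ContinuousLinearMap.adjoint i) := rfl
    rw [h1, hproj]
    ext1 v
    change a v = a (v - K.starProjection v)
    have h2 : a (K.starProjection v) = 0 := by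
      have h3 : K.starProjection v ∈ K := Submodule.starProjection_apply_mem _ _
      exact h3
    rw [map_sub, h2, sub_zero]
  · rw [ContinuousLinearMap.adjoint_adjoint]
    exact hproj

section polar

variable {a : Euc k →L[ℝ] Euc m} {R : L m} {π : Euc k →L[ℝ] Euc m} {P : L k}

theorem det_polar (hπ : IsCo π) (h : a = R ∘L π) :
    (a ∘L ContinuousLinearMap.adjoint a).det = R.det ^ 2 := by
  have h1 : a ∘L ContinuousLinearMap.adjoint a = R ∘L ContinuousLinearMap.adjoint R := by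
    rw [h, ContinuousLinearMap.adjoint_comp]
    have : (R ∘L π) ∘L ContinuousLinearMap.adjoint π ∘L ContinuousLinearMap.adjoint R =
        R ∘L (π ∘L ContinuousLinearMap.adjoint π) ∘L ContinuousLinearMap.adjoint R := rfl
    rw [this, hπ]
    rfl
  rw [h1, det_comp, det_adjoint, sq]

theorem Jh_polar (h : a = R ∘L π) : Jh a P = |R.det| * Jh π P := by
  have h1 : Jq a P = R.det ^ 2 * Jq π P := by
    unfold Jq
    have : a ∘L P ∘L ContinuousLinearMap.adjoint a =
        R ∘L (π ∘L P ∘L ContinuousLinearMap.adjoint π) ∘L ContinuousLinearMap.adjoint R := by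
      rw [h, ContinuousLinearMap.adjoint_comp]
      rfl
    rw [this, det_comp, det_comp, det_adjoint]
    ring
  unfold Jh
  rw [h1, Real.sqrt_mul (sq_nonneg _), Real.sqrt_sq_eq_abs]

theorem tau_eq (hP : P ∈ G m k)
    (hN : ContinuousLinearMap.adjoint π ∘L π = ContinuousLinearMap.id ℝ (Euc k) - Nk a) :
    tr (Nk a ∘L P) = tl π P := by
  have h1 : Nk a = ContinuousLinearMap.id ℝ (Euc k) - ContinuousLinearMap.adjoint π ∘L π := by
    rw [hN]; abel
  have h2 : tr ((ContinuousLinearMap.adjoint π ∘L π) ∘L P) =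
      tr (π ∘L P ∘L ContinuousLinearMap.adjoint π) := by
    rw [tr_apply, tr_apply]
    exact (LinearMap.trace_comp_comm' (ContinuousLinearMap.adjoint π : Euc m →ₗ[ℝ] Euc k)
      ((π ∘L P : Euc k →L[ℝ] Euc m) : Euc k →ₗ[ℝ] Euc m)).symm
  have h3 : tr P = (m : ℝ) := hP.2.2
  unfold tl
  rw [h1, ContinuousLinearMap.sub_comp, map_sub, h2, ContinuousLinearMap.id_comp, h3]
  rfl

end polar

theorem Nk_tau_nonneg {a : Euc k →L[ℝ] Euc m} (ha : Surjective a) {P : L k} (hP : P ∈ G m k) :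
    0 ≤ tr (Nk a ∘L P) := by
  obtain ⟨R, π, hπ, -, h2⟩ := exists_polar ha
  rw [tau_eq hP h2]
  exact tl_nonneg hπ (isPr_of_G hP)

theorem Nk_tau_le {a : Euc k →L[ℝ] Euc m} (ha : Surjective a) {P : L k} (hP : P ∈ G m k) :
    tr (Nk a ∘L P) ≤ m := by
  obtain ⟨R, π, hπ, -, h2⟩ := exists_polar ha
  rw [tau_eq hP h2]
  exact tl_le hπ (isPr_of_G hP)

/-- **anomaly of the tangential Jacobian of the foot map** -/
theorem jac_bound {a : Euc k →L[ℝ] Euc m} (ha : Surjective a) {P : L k} (hP : P ∈ G m k) {j δ : ℝ}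
    (hj : 0 ≤ j) (h : |j ^ 2 * (a ∘L ContinuousLinearMap.adjoint a).det - 1| ≤ δ) :
    |1 - j * Jh a P - tr (Nk a ∘L P) / 2| ≤ m / 2 * tr (Nk a ∘L P) + δ := by
  obtain ⟨R, π, hπ, h1, h2⟩ := exists_polar ha
  rw [tau_eq hP h2, Jh_polar h1]
  rw [det_polar hπ h1] at h
  have hPr := isPr_of_G hP
  have h3 := abs_anom_le hπ hPr
  have h4 := tl_nonneg hπ hPr
  have h5 := tl_le hπ hPr
  have h6 := Jh_nonneg π P
  have h7 := Jh_le_one hπ hPr
  set s : ℝ := j * |R.det| with hs
  have hs0 : 0 ≤ s := mul_nonneg hj (abs_nonneg _)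
  have hs2 : s ^ 2 = j ^ 2 * R.det ^ 2 := by rw [hs, mul_pow, sq_abs]
  rw [← hs2] at h
  have h8 : |s - 1| ≤ δ := by
    have h9 : s ^ 2 - 1 = (s - 1) * (s + 1) := by ring
    rw [h9, abs_mul, abs_of_nonneg (by linarith : 0 ≤ s + 1)] at h
    have h10 := abs_nonneg (s - 1)
    nlinarith
  have h9 : 1 - j * (|R.det| * Jh π P) - tl π P / 2 =
      (1 - Jh π P - tl π P / 2) - (s - 1) * Jh π P := by rw [hs]; ring
  rw [h9]
  refine (abs_sub _ _).trans ?_
  have h10 : |(s - 1) * Jh π P| ≤ δ := by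
    rw [abs_mul, abs_of_nonneg h6]
    calc |s - 1| * Jh π P ≤ |s - 1| * 1 := mul_le_mul_of_nonneg_left h7 (abs_nonneg _)
      _ ≤ δ := by rw [mul_one]; exact h8
  have h11 : tl π P ^ 2 / 2 ≤ m / 2 * tl π P := by nlinarith
  linarith

set_option maxHeartbeats 2000000 in
/-- **the horizontal block of `1 - P`** -/
theorem T_bound {a : Euc k →L[ℝ] Euc m} {A : Euc m →L[ℝ] Euc k}
    (haA : a ∘L A = ContinuousLinearMap.id ℝ (Euc m)) (ha2 : ‖a‖ ≤ 2) (hA2 : ‖A‖ ≤ 2) {P : L k}
    (hP : P ∈ G m k) :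
    ‖ContinuousLinearMap.id ℝ (Euc m) - a ∘L P ∘L A‖ ≤ 5 * (tr (Nk a ∘L P) + ‖Nk a ∘L A‖ ^ 2) := by
  have ha : Surjective a := fun v => ⟨A v, congrArg (fun B : L m => B v) haA⟩
  obtain ⟨R, π, hπ, h1, h2⟩ := exists_polar ha
  have hτ := tau_eq hP h2
  have hτ0 := Nk_tau_nonneg ha hP
  have hP1 : P ∘L P = P := hP.1
  have hP2 : ContinuousLinearMap.adjoint P = P := hP.2.1.adjoint_eq
  set τ := tr (Nk a ∘L P) with hτdef
  set N := Nk a with hN
  have hπnorm : ∀ v, ‖π v‖ ≤ ‖v‖ := by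
    intro v
    have h : ‖π v‖ ^ 2 ≤ ‖π v‖ * ‖v‖ := by
      rw [← real_inner_self_eq_norm_sq]
      have h3 : ⟪π v, π v⟫_ℝ = ⟪ContinuousLinearMap.adjoint π (π v), v⟫_ℝ := by
        rw [ContinuousLinearMap.adjoint_inner_left]
      rw [h3]
      refine (real_inner_le_norm _ _).trans ?_
      rw [norm_adjoint_co hπ]
    rcases eq_or_lt_of_le (norm_nonneg (π v)) with h0 | h0
    · rw [← h0]; exact norm_nonneg _
    · rw [sq] at h
      exact le_of_mul_le_mul_left h h0
  have hR : ‖R‖ ≤ 2 := by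
    refine ContinuousLinearMap.opNorm_le_bound _ zero_le_two fun v => ?_
    have h3 : R v = a (ContinuousLinearMap.adjoint π v) := by
      rw [h1]
      change R v = R (π (ContinuousLinearMap.adjoint π v))
      congr 1
      exact (congrArg (fun B : L m => B v) hπ).symm
    rw [h3]
    refine (a.le_opNorm _).trans ?_
    rw [norm_adjoint_co hπ]
    gcongr
  -- `B = (1 - P) π†`
  set B : Euc m →L[ℝ] Euc k := (ContinuousLinearMap.id ℝ (Euc k) - P) ∘L
    ContinuousLinearMap.adjoint π with hB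
  have hB2 : tr (ContinuousLinearMap.adjoint B ∘L B) = τ := by
    have h3 : ContinuousLinearMap.adjoint B ∘L B =
        ContinuousLinearMap.id ℝ (Euc m) - π ∘L P ∘L ContinuousLinearMap.adjoint π := by
      rw [hB, ContinuousLinearMap.adjoint_comp, ContinuousLinearMap.adjoint_adjoint, map_sub, hP2]
      ext1 v
      change π ((ContinuousLinearMap.adjoint (ContinuousLinearMap.id ℝ (Euc k)))
        ((ContinuousLinearMap.adjoint π v) - P (ContinuousLinearMap.adjoint π v)) -
        P ((ContinuousLinearMap.adjoint π v) - P (ContinuousLinearMap.adjoint π v))) =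
        v - π (P (ContinuousLinearMap.adjoint π v))
      have h4 : ContinuousLinearMap.adjoint (ContinuousLinearMap.id ℝ (Euc k)) =
          ContinuousLinearMap.id ℝ (Euc k) := by
        exact (IsSelfAdjoint.one (R := L k)).adjoint_eq
      have h5 : P (P (ContinuousLinearMap.adjoint π v)) = P (ContinuousLinearMap.adjoint π v) :=
        congrArg (fun B : L k => B (ContinuousLinearMap.adjoint π v)) hP1
      have h6 : π (ContinuousLinearMap.adjoint π v) = v :=
        congrArg (fun B : L m => B v) hπ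
      rw [h4, map_sub P, h5, sub_self, sub_zero, ContinuousLinearMap.id_apply, map_sub, h6]
    rw [h3, map_sub, tr_one, hτ]
    rfl
  have hBn : ∀ v, ‖B v‖ ^ 2 ≤ τ * ‖v‖ ^ 2 := fun v => by
    have := norm_sq_le_tr B v
    rwa [hB2] at this
  -- `S = π (1 - P) π†`
  have hS : ∀ v, ‖π (B v)‖ ≤ τ * ‖v‖ := by
    intro v
    have h3 : ‖π (B v)‖ ^ 2 ≤ τ * ‖v‖ * ‖π (B v)‖ := by
      have h4 : ‖π (B v)‖ ^ 2 = ⟪B (π (B v)), B v⟫_ℝ := by
        rw [← real_inner_self_eq_norm_sq]
        have h5 : B v = (ContinuousLinearMap.id ℝ (Euc k) - P) (B v) := by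
          change B v = B v - P (B v)
          have h6 : P (B v) = 0 := by
            change P (ContinuousLinearMap.adjoint π v - P (ContinuousLinearMap.adjoint π v)) = 0
            rw [map_sub, sub_eq_zero]
            exact (congrArg (fun B : L k => B (ContinuousLinearMap.adjoint π v)) hP1).symm
          rw [h6, sub_zero]
        have h7 : ⟪π (B v), π (B v)⟫_ℝ = ⟪ContinuousLinearMap.adjoint π (π (B v)), B v⟫_ℝ := by
          rw [ContinuousLinearMap.adjoint_inner_left]
        rw [h7]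
        have h8 : B (π (B v)) = ContinuousLinearMap.adjoint π (π (B v)) -
            P (ContinuousLinearMap.adjoint π (π (B v))) := rfl
        rw [h8, inner_sub_left]
        have h9 : ⟪P (ContinuousLinearMap.adjoint π (π (B v))), B v⟫_ℝ = 0 := by
          rw [G_symm hP]
          have h6 : P (B v) = 0 := by
            change P (ContinuousLinearMap.adjoint π v - P (ContinuousLinearMap.adjoint π v)) = 0
            rw [map_sub, sub_eq_zero]
            exact (congrArg (fun B : L k => B (ContinuousLinearMap.adjoint π v)) hP1).symm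
          rw [h6, inner_zero_right]
        rw [h9, sub_zero]
      rw [h4]
      refine (real_inner_le_norm _ _).trans ?_
      have e1 : ‖B (π (B v))‖ ≤ Real.sqrt τ * ‖π (B v)‖ := by
        refine le_of_sq_le_sq ?_ (by positivity)
        rw [mul_pow, Real.sq_sqrt hτ0]
        exact hBn _
      have e2 : ‖B v‖ ≤ Real.sqrt τ * ‖v‖ := by
        refine le_of_sq_le_sq ?_ (by positivity)
        rw [mul_pow, Real.sq_sqrt hτ0]
        exact hBn _
      calc ‖B (π (B v))‖ * ‖B v‖ ≤ (Real.sqrt τ * ‖π (B v)‖) * (Real.sqrt τ * ‖v‖) := by gcongr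
        _ = (Real.sqrt τ * Real.sqrt τ) * ‖v‖ * ‖π (B v)‖ := by ring
        _ = _ := by rw [Real.mul_self_sqrt hτ0]
    rcases eq_or_lt_of_le (norm_nonneg (π (B v))) with h0 | h0
    · rw [← h0]; positivity
    · rw [sq] at h3
      exact le_of_mul_le_mul_right h3 h0
  -- `P N`
  have hNsym : ∀ v w, ⟪N v, w⟫_ℝ = ⟪v, N w⟫_ℝ := fun v w =>
    Submodule.inner_starProjection_left_eq_right _ _ _
  have hNadj : ContinuousLinearMap.adjoint N = N := by
    have h : IsSelfAdjoint N := isSelfAdjoint_starProjection _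
    exact h
  have hPN : ∀ v, ‖P (N v)‖ ^ 2 ≤ τ * ‖v‖ ^ 2 := by
    intro v
    have h3 := norm_sq_le_tr (P ∘L N) v
    have h4 : tr (ContinuousLinearMap.adjoint (P ∘L N) ∘L (P ∘L N)) = τ := by
      rw [ContinuousLinearMap.adjoint_comp, hP2, hNadj]
      have h5 : (N ∘L P) ∘L P ∘L N = N ∘L (P ∘L P) ∘L N := rfl
      rw [h5, hP1, tr_comm]
      have h6 : (P ∘L N) ∘L N = P ∘L (N ∘L N) := rfl
      have h7 : N ∘L N = N := by
        ext1 w
        exact Submodule.starProjection_eq_self_iff.2 (Submodule.starProjection_apply_mem _ _)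
      rw [h6, h7, tr_comm]
    rw [h4] at h3
    exact h3
  -- decomposition
  have haN : ∀ v, a (N v) = 0 := by
    intro v
    have h3 : N v ∈ LinearMap.ker (a : Euc k →ₗ[ℝ] Euc m) := Submodule.starProjection_apply_mem _ _
    exact h3
  have hπN : ∀ v, π (N v) = 0 := by
    intro v
    have h3 : (ContinuousLinearMap.adjoint π ∘L π) (N v) = N v - N (N v) := by
      rw [h2]; rfl
    have h4 : N (N v) = N v :=
      Submodule.starProjection_eq_self_iff.2 (Submodule.starProjection_apply_mem _ _)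
    rw [h4, sub_self] at h3
    have h5 : ‖ContinuousLinearMap.adjoint π (π (N v))‖ = 0 := by
      rw [show ContinuousLinearMap.adjoint π (π (N v)) = 0 from h3, norm_zero]
    rw [norm_adjoint_co hπ] at h5
    exact norm_eq_zero.1 h5
  refine ContinuousLinearMap.opNorm_le_bound _ (by positivity) fun v => ?_
  have hAv : A v = ContinuousLinearMap.adjoint π (π (A v)) + N (A v) := by
    have h3 : ContinuousLinearMap.adjoint π (π (A v)) = A v - N (A v) :=
      congrArg (fun B : L k => B (A v)) h2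
    rw [h3]; abel
  have haAv : a (A v) = v := congrArg (fun B : L m => B v) haA
  have hmain : (ContinuousLinearMap.id ℝ (Euc m) - a ∘L P ∘L A) v =
      R (π (B (π (A v)))) - R (π (P (N (A v)))) := by
    change v - a (P (A v)) = _
    have h3 : ∀ w, R (π w) = a w := fun w => by rw [h1]; rfl
    rw [h3, h3]
    have h4 : B (π (A v)) = ContinuousLinearMap.adjoint π (π (A v)) -
        P (ContinuousLinearMap.adjoint π (π (A v))) := rfl
    have h5 : ContinuousLinearMap.adjoint π (π (A v)) = A v - N (A v) :=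
      congrArg (fun B : L k => B (A v)) h2
    rw [h4, h5, map_sub P, map_sub a, map_sub a, map_sub a, haN, haAv]
    abel
  rw [hmain]
  have hv0 := norm_nonneg v
  have hNA0 := norm_nonneg (N ∘L A)
  have e1 : ‖R (π (B (π (A v))))‖ ≤ 4 * τ * ‖v‖ := by
    calc ‖R (π (B (π (A v))))‖ ≤ ‖R‖ * ‖π (B (π (A v)))‖ := R.le_opNorm _
      _ ≤ 2 * (τ * ‖π (A v)‖) := by gcongr; exact hS _
      _ ≤ 2 * (τ * (2 * ‖v‖)) := by
          gcongr
          exact (hπnorm _).trans ((A.le_opNorm v).trans (by gcongr))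
      _ = 4 * τ * ‖v‖ := by ring
  have e2 : ‖R (π (P (N (A v))))‖ ≤ (τ + ‖N ∘L A‖ ^ 2) * ‖v‖ := by
    have h3 : N (A v) = N ((N ∘L A) v) := by
      change N (A v) = N (N (A v))
      exact (Submodule.starProjection_eq_self_iff.2 (Submodule.starProjection_apply_mem _ _)).symm
    have h4 : ‖P (N (A v))‖ ≤ Real.sqrt τ * (‖N ∘L A‖ * ‖v‖) := by
      rw [h3]
      refine le_of_sq_le_sq ?_ (by positivity)
      refine (hPN _).trans ?_
      rw [mul_pow, Real.sq_sqrt hτ0]
      gcongr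
      exact (N ∘L A).le_opNorm v
    calc ‖R (π (P (N (A v))))‖ ≤ ‖R‖ * ‖π (P (N (A v)))‖ := R.le_opNorm _
      _ ≤ 2 * (Real.sqrt τ * (‖N ∘L A‖ * ‖v‖)) := by
          gcongr
          exact (hπnorm _).trans h4
      _ = (2 * Real.sqrt τ * ‖N ∘L A‖) * ‖v‖ := by ring
      _ ≤ (τ + ‖N ∘L A‖ ^ 2) * ‖v‖ := by
          gcongr
          have h5 := two_mul_le_add_sq (Real.sqrt τ) ‖N ∘L A‖
          rw [Real.sq_sqrt hτ0] at h5
          exact h5
  calc ‖R (π (B (π (A v)))) - R (π (P (N (A v))))‖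
      ≤ ‖R (π (B (π (A v))))‖ + ‖R (π (P (N (A v))))‖ := norm_sub_le _ _
    _ ≤ 4 * τ * ‖v‖ + (τ + ‖N ∘L A‖ ^ 2) * ‖v‖ := add_le_add e1 e2
    _ ≤ 5 * (τ + ‖N ∘L A‖ ^ 2) * ‖v‖ := by
        have : 0 ≤ ‖N ∘L A‖ ^ 2 * ‖v‖ := by positivity
        nlinarith

end Crest.Agent.R234.Tv_618
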