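import Crest.Agent.R234.GLK7_128
import Crest.Agent.R234.Tv2_618

/-!
# Row 234 (helper128), file 8: the data (c1)-(c3) of helper618 for the chart `ch`

`Nk_dx` : `Nk (dx z) = NN`; `Hy.surj`, `Hy.c1` (`tau = tr (Nk dx P)`), `Hy.c2`
(`|j² det (dx dx†) - 1| ≤ C a2² q`), `Hy.c3`, `Hy.norm_dx`, `Hy.norm_A`, `Hy.anom`.
-/

set_option autoImplicit false
set_option maxSynthPendingDepth 3

open MeasureTheory Filter Topology Set Function
open scoped ENNReal NNReal ContDiff InnerProductSpace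
open Crest.GeometryTopology.Submanifold Crest.Agent.R234.Vf_884
open Crest.Agent.R234.Main_456
open Crest.Agent.R234.Fm_209 (trc trc_apply trc_comp_comm)
open Crest.Agent.R234.Ell1_3 (adjL ginv gop dns)
open Crest.Agent.R234.Gi_456 (Gr tube foot yy frame_fr Yo Li hinv At A0t Bt dft dyt Lo Loi ch giB jB
  lamB muG beG pt)
open Crest.Agent.R234.Tv_618 (Nk)

noncomputable section

namespace Crest.Agent.R234.GLK_128

variable {m n k : ℕ}

local notation "adj" => ContinuousLinearMap.adjoint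

/-- algebra: the projection onto the kernel -/
theorem Nk_comp_DX {i : Euc m →L[ℝ] Euc k} {j : Euc n →L[ℝ] Euc k} {q : Euc m →L[ℝ] Euc n}
    {Y gi L' : L m} {hi : L n} (h : Fr i j) (H : Inv q Y gi hi L') {R Ri : L m}
    (hR : Ri ∘L R = ContinuousLinearMap.id ℝ (Euc m)) :
    Nk (R ∘L DX i j q L') = NN i j q hi := by
  have k1 : ∀ u : Euc k, (R ∘L DX i j q L') u = 0 → adj (A0 i j q) u = 0 := by
    intro u hu
    have h1 : R (L' (adj (A0 i j q) u)) = 0 := hu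
    have h2 : L' (adj (A0 i j q) u) = 0 := by
      have h3 : Ri (R (L' (adj (A0 i j q) u))) = L' (adj (A0 i j q) u) :=
        congrArg (fun T : L m => T (L' (adj (A0 i j q) u))) hR
      rw [← h3, h1, map_zero]
    have h4 := H.l2a (adj (A0 i j q) u)
    rw [h2, map_zero, map_zero, sub_zero] at h4
    exact h4.symm
  have k2 : ∀ u : Euc k, adj (A0 i j q) (NN i j q hi u) = 0 := fun u =>
    congrArg (fun T : Euc n →L[ℝ] Euc m => T (hi (adj (BB i j q) u))) (A0_BB h)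
  refine ContinuousLinearMap.ext fun u => ?_
  refine Submodule.eq_starProjection_of_mem_of_inner_eq_zero ?_ ?_
  · rw [LinearMap.mem_ker]
    show R (L' (adj (A0 i j q) (NN i j q hi u))) = 0
    rw [k2, map_zero, map_zero]
  · intro v hv
    rw [LinearMap.mem_ker] at hv
    have h1 := k1 v hv
    have h2 : u - NN i j q hi u = TT i j q gi u := by
      have h3 := congrArg (fun T : L k => T u) (NN_add_TT h H)
      have h4 : NN i j q hi u + TT i j q gi u = u := h3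
      nth_rewrite 1 [← h4]
      abel
    rw [h2]
    show ⟪A0 i j q (gi (adj (A0 i j q) u)), v⟫_ℝ = 0
    rw [← ContinuousLinearMap.adjoint_inner_right, h1, inner_zero_right]

variable {π : Euc k →L[ℝ] Euc m} {ρ : Euc k →L[ℝ] Euc n} {x : Euc k} {r : ℝ} {w : Euc m → Euc n}
  {X0 : Euc m} {K : Set (Euc k)} {l K1 K2 K3 hb : ℝ}

/-- at any point of the tube -/
theorem Nk_dx (h : Gr r w) (hf : Frame π ρ) {z : Euc k} (hz : z ∈ tube π ρ x r w) :
    Nk ((ch π ρ x r w X0).dx z) = NN (adj π) (adj ρ) (fderiv ℝ w (foot π ρ x r w z))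
      (hinv (fderiv ℝ w (foot π ρ x r w z))) :=
  Nk_comp_DX (frame_fr hf) (h.inv (foot π ρ x r w z) (h.norm_yy_lt hz).le)
    (Gi_456.Loi_spec (fderiv ℝ w X0)).1

/-- (c1) -/
theorem tau_eq_Nk (h : Gr r w) (hf : Frame π ρ) {z : Euc k} (hz : z ∈ tube π ρ x r w) (P : L k) :
    (ch π ρ x r w X0).tau z P = tr (Nk ((ch π ρ x r w X0).dx z) ∘L P) := by
  rw [Nk_dx h hf hz]
  rfl

theorem dx_comp_A (h : Gr r w) (hf : Frame π ρ) {z : Euc k} (hz : z ∈ tube π ρ x r w) :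
    (ch π ρ x r w X0).dx z ∘L (ch π ρ x r w X0).A z = ContinuousLinearMap.id ℝ (Euc m) :=
  (h.reg hf X0).dxA z hz

theorem surj_dx (h : Gr r w) (hf : Frame π ρ) {z : Euc k} (hz : z ∈ tube π ρ x r w) :
    Surjective ((ch π ρ x r w X0).dx z) := fun v =>
  ⟨(ch π ρ x r w X0).A z v, congrArg (fun T : L m => T v) (dx_comp_A h hf hz)⟩

theorem norm_dx (h : Gr r w) (hf : Frame π ρ) {z : Euc k} (hz : z ∈ tube π ρ x r w) :
    ‖(ch π ρ x r w X0).dx z‖ ≤ 2 := by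
  have hY := (h.norm_yy_lt hz).le
  have h1 := norm_DX (frame_fr hf) (h.inv (foot π ρ x r w z) hY)
    ((h.d1 _).trans (by norm_num)) (h.norm_Yo_le _ hY)
  have h2 := ncomp (Gi_456.norm_Lo_op (h.d1 X0)) h1
  exact h2.trans (by norm_num)

theorem norm_A (h : Gr r w) (hf : Frame π ρ) {z : Euc k} (hz : z ∈ tube π ρ x r w) :
    ‖(ch π ρ x r w X0).A z‖ ≤ 2 := by
  have hY := (h.norm_yy_lt hz).le
  have h1 : ‖At π ρ w (foot π ρ x r w z) (yy π ρ x r w z)‖ ≤ 3 / 2 := by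
    show ‖A0 (adj π) (adj ρ) (fderiv ℝ w (foot π ρ x r w z)) -
      adj π ∘L Yo w (foot π ρ x r w z) (yy π ρ x r w z)‖ ≤ _
    refine (norm_sub_le _ _).trans ?_
    have h2 := norm_A0 (frame_fr hf) (q := fderiv ℝ w (foot π ρ x r w z))
      ((h.d1 _).trans (by norm_num))
    have h3 := ncomp (frame_fr hf).norm_i_le (h.norm_Yo_le (foot π ρ x r w z) hY)
    linarith
  have h4 := ncomp h1 (norm_Loi (fderiv ℝ w X0))
  exact h4.trans (by norm_num)

/-- lower bound of the differential -/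
theorem le_dx (h : Gr r w) (hf : Frame π ρ) {z : Euc k} (hz : z ∈ tube π ρ x r w) (v : Euc m) :
    1 / 2 * ‖v‖ ^ 2 ≤ ‖adj ((ch π ρ x r w X0).dx z) v‖ ^ 2 := by
  have hY := (h.norm_yy_lt hz).le
  have h1 := le_DX (frame_fr hf) (h.inv (foot π ρ x r w z) hY) (h.Yo_adj _ _)
    ((h.d1 _).trans (by norm_num)) (h.norm_Yo_le _ hY) (adj (Lo (fderiv ℝ w X0)) v)
  have h2 : ‖v‖ ≤ ‖adj (Lo (fderiv ℝ w X0)) v‖ := by
    have h3 : adj (Loi (fderiv ℝ w X0)) (adj (Lo (fderiv ℝ w X0)) v) = v := by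
      have h4 := congrArg (fun T : L m => adj T v) (Gi_456.Loi_spec (fderiv ℝ w X0)).2.1
      simp only [ContinuousLinearMap.adjoint_comp] at h4
      have h5 : adj (ContinuousLinearMap.id ℝ (Euc m)) v = v := by
        rw [ContinuousLinearMap.adjoint_id]; rfl
      rw [h5] at h4
      exact h4
    have h6 : ‖adj (Loi (fderiv ℝ w X0)) (adj (Lo (fderiv ℝ w X0)) v)‖ ≤
        1 * ‖adj (Lo (fderiv ℝ w X0)) v‖ := by
      refine (ContinuousLinearMap.le_opNorm _ _).trans ?_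
      gcongr
      rw [norm_adj]
      exact norm_Loi _
    rw [h3, one_mul] at h6
    exact h6
  have h7 : adj ((ch π ρ x r w X0).dx z) v = adj (DX (adj π) (adj ρ)
      (fderiv ℝ w (foot π ρ x r w z)) (Li w (foot π ρ x r w z) (yy π ρ x r w z)))
      (adj (Lo (fderiv ℝ w X0)) v) := by
    show adj (Lo (fderiv ℝ w X0) ∘L dft π ρ x r w z) v = _
    rw [ContinuousLinearMap.adjoint_comp]
    rfl
  rw [h7]
  refine le_trans ?_ h1
  have := norm_nonneg v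
  have h8 : ‖v‖ ^ 2 ≤ ‖adj (Lo (fderiv ℝ w X0)) v‖ ^ 2 := pow_le_pow_left₀ this h2 2
  linarith

/-- the constant of (c2) -/
def Cj (m : ℕ) : ℝ := (exists_c2 (Euc m)).choose

theorem Cj_nonneg (m : ℕ) : 0 ≤ Cj m := (exists_c2 (Euc m)).choose_spec.1

theorem j_sq (_h : Gr r w) (X0 : Euc m) (z : Euc k) :
    (ch π ρ x r w X0).j ((ch π ρ x r w X0).x z) ^ 2 *
      ((ch π ρ x r w X0).dx z ∘L adj ((ch π ρ x r w X0).dx z)).det =
    (gg (fderiv ℝ w (foot π ρ x r w z))).det * (DX (adj π) (adj ρ)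
      (fderiv ℝ w (foot π ρ x r w z)) (Li w (foot π ρ x r w z) (yy π ρ x r w z)) ∘L
      adj (DX (adj π) (adj ρ) (fderiv ℝ w (foot π ρ x r w z)) (Li w (foot π ρ x r w z)
        (yy π ρ x r w z)))).det := by
  set D := DX (adj π) (adj ρ) (fderiv ℝ w (foot π ρ x r w z)) (Li w (foot π ρ x r w z)
        (yy π ρ x r w z)) with hD
  have e1 : (ch π ρ x r w X0).j ((ch π ρ x r w X0).x z) =
      dns (fderiv ℝ w (foot π ρ x r w z)) / (Lo (fderiv ℝ w X0)).det := by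
    show dns (fderiv ℝ w (pt w X0 (Lo (fderiv ℝ w X0) (foot π ρ x r w z - X0)))) / _ = _
    rw [Gi_456.pt_x]
  have e2 : (ch π ρ x r w X0).dx z ∘L adj ((ch π ρ x r w X0).dx z) =
      Lo (fderiv ℝ w X0) ∘L (D ∘L adj D) ∘L adj (Lo (fderiv ℝ w X0)) := by
    show (Lo (fderiv ℝ w X0) ∘L D) ∘L adj (Lo (fderiv ℝ w X0) ∘L D) = _
    rw [ContinuousLinearMap.adjoint_comp]
    rfl
  have e3 : dns (fderiv ℝ w (foot π ρ x r w z)) ^ 2 =
      (gg (fderiv ℝ w (foot π ρ x r w z))).det := by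
    rw [Gi_456.dns_eq, Real.sq_sqrt (det_gg_pos _).le]
  have hL := Gi_456.det_Lo_pos (fderiv ℝ w X0)
  rw [e1, e2, Ar_870.det_comp, Ar_870.det_comp, Ar_870.det_adjoint, div_pow, e3]
  field_simp

/-- (c2) -/
theorem Hy.c2 (h : Hy π ρ x r w X0 K l K1 K2 K3 hb) {z : Euc k} (hz : z ∈ K)
    (hr : ‖(ch π ρ x r w X0).x z‖ ≤ Real.exp l) :
    |(ch π ρ x r w X0).j ((ch π ρ x r w X0).x z) ^ 2 *
      ((ch π ρ x r w X0).dx z ∘L adj ((ch π ρ x r w X0).dx z)).det - 1| ≤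
      Cj m * (K2 * Real.exp l) ^ 2 * GL_394.qq (ch π ρ x r w X0) l z := by
  rw [j_sq h.gr, qq_eq]
  have h1 := (exists_c2 (Euc m)).choose_spec.2 (frame_fr h.fr) (h.inv hz) (h.Ys z) (h.Y4 hz)
    (h.trY (h.foot_le hr) _)
  refine h1.trans ?_
  have h2 : ‖Yo w (foot π ρ x r w z) (yy π ρ x r w z)‖ ^ 2 ≤
      (K2 * Real.exp l * et π ρ x r w X0 l z) ^ 2 := pow_le_pow_left₀ (norm_nonneg _) (h.YK hr) 2
  calc _ ≤ Cj m * (K2 * Real.exp l * et π ρ x r w X0 l z) ^ 2 :=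
        mul_le_mul_of_nonneg_left h2 (Cj_nonneg m)
    _ = _ := by ring

/-- (c3) -/
theorem Hy.c3 (h : Hy π ρ x r w X0 K l K1 K2 K3 hb) {z : Euc k} (hz : z ∈ K)
    (hr : ‖(ch π ρ x r w X0).x z‖ ≤ Real.exp l) :
    ‖Nk ((ch π ρ x r w X0).dx z) ∘L (ch π ρ x r w X0).A z‖ ^ 2 ≤
      4 * (K1 * (K2 * Real.exp l)) ^ 2 * GL_394.qq (ch π ρ x r w X0) l z := by
  rw [Nk_dx h.gr h.fr (h.sub hz), qq_eq]
  have h1 := norm_NN_AA (frame_fr h.fr) (h.inv hz) (h.q4 z)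
  have h2 : ‖NN (adj π) (adj ρ) (fderiv ℝ w (foot π ρ x r w z))
      (hinv (fderiv ℝ w (foot π ρ x r w z))) ∘L (ch π ρ x r w X0).A z‖ ≤
      2 * ‖fderiv ℝ w (foot π ρ x r w z)‖ * ‖Yo w (foot π ρ x r w z) (yy π ρ x r w z)‖ := by
    have h3 := ncomp h1 (norm_Loi (fderiv ℝ w X0))
    rw [mul_one] at h3
    exact h3
  have h4 : 2 * ‖fderiv ℝ w (foot π ρ x r w z)‖ * ‖Yo w (foot π ρ x r w z) (yy π ρ x r w z)‖ ≤
      2 * K1 * (K2 * Real.exp l * et π ρ x r w X0 l z) := by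
    have h5 := h.qK hr
    have h6 := h.YK hr
    have h7 := h.K1n
    exact mul_le_mul (by linarith) h6 (norm_nonneg _) (by linarith)
  calc _ ≤ (2 * K1 * (K2 * Real.exp l * et π ρ x r w X0 l z)) ^ 2 :=
        pow_le_pow_left₀ (norm_nonneg _) (h2.trans h4) 2
    _ = _ := by ring

/-- (anomaly) -/
theorem Hy.anom (h : Hy π ρ x r w X0 K l K1 K2 K3 hb) {p : Euc k × L k} (hp : p ∈ K ×ˢ G m k)
    (hr : ‖(ch π ρ x r w X0).x p.1‖ ≤ Real.exp l) :
    |1 - (ch π ρ x r w X0).j ((ch π ρ x r w X0).x p.1) * Ar_870.Jh ((ch π ρ x r w X0).dx p.1) p.2 -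
      (ch π ρ x r w X0).tau p.1 p.2 / 2| ≤ m / 2 * (ch π ρ x r w X0).tau p.1 p.2 +
        Cj m * (K2 * Real.exp l) ^ 2 * GL_394.qq (ch π ρ x r w X0) l p.1 := by
  rw [tau_eq_Nk h.gr h.fr (h.sub hp.1)]
  exact Tv_618.jac_bound (surj_dx h.gr h.fr (h.sub hp.1)) hp.2 (Gi_456.jB_pos w X0 _).le
    (h.c2 hp.1 hr)

end Crest.Agent.R234.GLK_128
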