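import Crest.Agent.R234.GLK8_128

/-!
# Row 234 (helper128), file 9: the fields of helper618's `KT` for the chart `ch`

`Ct m n = 64 (m + n + 1) e^m`, `kp = Ct * (cc + dd)`:
`Hy.jb : |j v - 1| ≤ kp`, `Hy.lb : e^l |lam v| ≤ kp`, `Hy.q1`, `Hy.an`, `Hy.hT`, `Hy.kk3`.
-/

set_option autoImplicit false
set_option maxSynthPendingDepth 3

open MeasureTheory Filter Topology Set Function
open scoped ENNReal NNReal ContDiff InnerProductSpace
open Crest.GeometryTopology.Submanifold Crest.Agent.R234.Vf_884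
open Crest.Agent.R234.Main_456
open Crest.Agent.R234.Fm_209 (trc trc_apply trc_comp_comm)
open Crest.Agent.R234.Ell1_3 (adjL ginv gop dns)
open Crest.Agent.R234.Gi_456 (Gr tube foot yy frame_fr Yo Li hinv At A0t Bt dft dyt Lo Loi ch giB jB
  lamB muG beG pt)
open Crest.Agent.R234.Tv_618 (Nk)

noncomputable section

namespace Crest.Agent.R234.GLK_128

variable {m n k : ℕ}

local notation "adj" => ContinuousLinearMap.adjoint

variable {π : Euc k →L[ℝ] Euc m} {ρ : Euc k →L[ℝ] Euc n} {x : Euc k} {r : ℝ} {w : Euc m → Euc n}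
  {X0 : Euc m} {K : Set (Euc k)} {l K1 K2 K3 hb : ℝ}

/-- dimensional constant -/
def Ct (m n : ℕ) : ℝ := 64 * (m + n + 1) * Real.exp m

/-- the small parameter: `Ct (cc + dd)` -/
def kp (m n : ℕ) (K1 K2 K3 hb l : ℝ) : ℝ :=
  Ct m n * (cc K1 (K2 * Real.exp l) (K3 * Real.exp (2 * l)) +
    dd (K2 * Real.exp l) (K3 * Real.exp (2 * l)) hb)

/-- constant of the tilt terms -/
def Cn (m : ℕ) : ℝ := m + 8 + Cj m

theorem Ct_pos (m n : ℕ) : 0 < Ct m n := by unfold Ct; positivity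

theorem Ck_le_Ct (m n : ℕ) : Ck m n ≤ Ct m n := by
  unfold Ck Ct
  have h1 : 1 ≤ Real.exp m := Real.one_le_exp (Nat.cast_nonneg m)
  have h2 : (0 : ℝ) ≤ 64 * (m + n + 1) := by positivity
  nlinarith

theorem le_Ct {m n : ℕ} {a : ℝ} (h : a ≤ 64 * (m + n + 1)) : a ≤ Ct m n := (le_Ck m n h).trans
  (Ck_le_Ct m n)

theorem Hy.ccn (h : Hy π ρ x r w X0 K l K1 K2 K3 hb) :
    0 ≤ cc K1 (K2 * Real.exp l) (K3 * Real.exp (2 * l)) := cc_nonneg h.K1n h.a2n h.a3n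

theorem Hy.ddn (h : Hy π ρ x r w X0 K l K1 K2 K3 hb) :
    0 ≤ dd (K2 * Real.exp l) (K3 * Real.exp (2 * l)) hb := dd_nonneg h.a2n h.a3n h.hb0

theorem Hy.kpn (h : Hy π ρ x r w X0 K l K1 K2 K3 hb) : 0 ≤ kp m n K1 K2 K3 hb l :=
  mul_nonneg (Ct_pos m n).le (add_nonneg h.ccn h.ddn)

/-- the linear bound of `kp` -/
theorem Hy.kp_le (h : Hy π ρ x r w X0 K l K1 K2 K3 hb) :
    kp m n K1 K2 K3 hb l ≤ 3 * Ct m n * (K2 * Real.exp l + K3 * Real.exp (2 * l)) := by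
  have h1 := h.K1n
  have h2 := h.a2n
  have h3 := h.a3n
  have h4 := h.k1le
  have h5 := h.k2s
  have h6 := h.hb0
  have h7 := h.hb1
  unfold kp cc dd
  set a2 := K2 * Real.exp l
  set a3 := K3 * Real.exp (2 * l)
  have e : 3 * Ct m n * (a2 + a3) = Ct m n * (3 * (a2 + a3)) := by ring
  rw [e]
  refine mul_le_mul_of_nonneg_left ?_ (Ct_pos m n).le
  have b1 : K1 * a2 ≤ a2 := mul_le_of_le_one_left h2 h4
  have b2 : K1 * a3 ≤ a3 := mul_le_of_le_one_left h3 h4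
  have b3 : a2 ^ 2 ≤ 1 / 2 * a2 := by nlinarith
  have b4 : a2 * a3 ≤ 1 / 2 * a3 := by nlinarith
  have b5 : (a2 + a3) * hb ≤ a2 + a3 := mul_le_of_le_one_right (by linarith) h7
  linarith

theorem le_kp (h : Hy π ρ x r w X0 K l K1 K2 K3 hb) {a b : ℝ} (ha : a ≤ Ct m n)
    (hb' : b ≤ cc K1 (K2 * Real.exp l) (K3 * Real.exp (2 * l))) (ha0 : 0 ≤ a) :
    a * b ≤ kp m n K1 K2 K3 hb l := by
  have h1 := h.ccn
  have h2 := h.ddn
  have h3 := Ct_pos m n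
  unfold kp
  calc a * b ≤ a * cc K1 (K2 * Real.exp l) (K3 * Real.exp (2 * l)) :=
        mul_le_mul_of_nonneg_left hb' ha0
    _ ≤ Ct m n * cc K1 (K2 * Real.exp l) (K3 * Real.exp (2 * l)) :=
        mul_le_mul_of_nonneg_right ha h1
    _ ≤ _ := mul_le_mul_of_nonneg_left (by linarith) h3.le

theorem Hy.pt_le (_h : Hy π ρ x r w X0 K l K1 K2 K3 hb) {v : Euc m} (hv : ‖v‖ ≤ Real.exp l) :
    ‖pt w X0 v - X0‖ ≤ Real.exp l := by
  have : pt w X0 v - X0 = Loi (fderiv ℝ w X0) v := by simp [pt]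
  rw [this]
  exact (norm_Loi_le _ _).trans hv

theorem Hy.norm_lam (h : Hy π ρ x r w X0 K l K1 K2 K3 hb) {v : Euc m} (hv : ‖v‖ ≤ Real.exp l) :
    ‖lamB w X0 v‖ ≤ m * (K1 * K2) := by
  refine (h.gr.norm_lam X0 v).trans ?_
  have hX := h.pt_le hv
  exact mul_le_mul_of_nonneg_left (mul_le_mul (h.k1 _ hX) (h.k2 _ hX) (norm_nonneg _) h.K1n)
    (Nat.cast_nonneg m)

theorem Hy.lb (h : Hy π ρ x r w X0 K l K1 K2 K3 hb) {v : Euc m} (hv : ‖v‖ ≤ Real.exp l) :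
    Real.exp l * ‖lamB w X0 v‖ ≤ kp m n K1 K2 K3 hb l := by
  have h1 := mul_le_mul_of_nonneg_left (h.norm_lam hv) (Real.exp_pos l).le
  refine h1.trans ?_
  have h2 : Real.exp l * (m * (K1 * K2)) = m * (K1 * (K2 * Real.exp l)) := by ring
  rw [h2]
  refine le_kp h (le_Ct ?_) (K1a2_le h.K1n h.a2n h.a3n) (Nat.cast_nonneg m)
  have : (0 : ℝ) ≤ m := Nat.cast_nonneg m
  have : (0 : ℝ) ≤ n := Nat.cast_nonneg n
  linarith

theorem abs_exp_sub_one_le' (y : ℝ) : |Real.exp y - 1| ≤ |y| * Real.exp |y| := by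
  rcases le_total 0 y with hy | hy
  · rw [abs_of_nonneg hy, abs_of_nonneg (by linarith [Real.one_le_exp hy])]
    have h1 := Real.add_one_le_exp (-y)
    have h2 : Real.exp (-y) * Real.exp y = 1 := by rw [← Real.exp_add]; simp
    have h3 := mul_le_mul_of_nonneg_right h1 (Real.exp_pos y).le
    rw [h2] at h3
    linarith
  · have h1 : Real.exp y ≤ 1 := Real.exp_le_one_iff.2 hy
    rw [abs_of_nonpos (by linarith : Real.exp y - 1 ≤ 0), abs_of_nonpos hy]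
    have h2 := Real.add_one_le_exp y
    have h3 : 1 ≤ Real.exp (-y) := Real.one_le_exp (by linarith)
    nlinarith

theorem Hy.jb (h : Hy π ρ x r w X0 K l K1 K2 K3 hb) {v : Euc m} (hv : ‖v‖ ≤ Real.exp l) :
    |jB w X0 v - 1| ≤ kp m n K1 K2 K3 hb l := by
  set b : ℝ := m * (K1 * K2) with hb'
  have hb0 : 0 ≤ b := mul_nonneg (Nat.cast_nonneg m) (mul_nonneg h.K1n h.K2n)
  -- logarithm along the segment
  have hd : ∀ t ∈ Icc (0 : ℝ) 1, HasDerivWithinAt (fun t : ℝ => Real.log (jB w X0 (t • v)))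
      ⟪lamB w X0 (t • v), v⟫_ℝ (Icc 0 1) t := by
    intro t _
    have h1 := h.gr.hasFDerivAt_jB X0 (t • v)
    have h2 : HasDerivAt (fun t : ℝ => t • v) v t := by
      simpa using (hasDerivAt_id t).smul_const v
    have h3 : HasDerivAt (fun t : ℝ => jB w X0 (t • v))
        (jB w X0 (t • v) * ⟪lamB w X0 (t • v), v⟫_ℝ) t := by
      have h4 := h1.comp_hasDerivAt t h2
      rw [h.gr.inner_lam]
      exact h4
    have h5 := h3.log (Gi_456.jB_pos w X0 (t • v)).ne'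
    refine (h5.congr_deriv ?_).hasDerivWithinAt
    rw [mul_div_cancel_left₀ _ (Gi_456.jB_pos w X0 (t • v)).ne']
  have hbd : ∀ t ∈ Icc (0 : ℝ) 1, ‖⟪lamB w X0 (t • v), v⟫_ℝ‖ ≤ b * ‖v‖ := by
    intro t ht
    have h1 : ‖t • v‖ ≤ Real.exp l := by
      rw [norm_smul, Real.norm_of_nonneg ht.1]
      have := norm_nonneg v
      nlinarith [ht.2]
    rw [Real.norm_eq_abs]
    exact (abs_real_inner_le_norm _ _).trans
      (mul_le_mul_of_nonneg_right (h.norm_lam h1) (norm_nonneg _))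
  have h1 := (convex_Icc (0 : ℝ) 1).norm_image_sub_le_of_norm_hasDerivWithin_le hd hbd
    (left_mem_Icc.2 zero_le_one) (right_mem_Icc.2 zero_le_one)
  simp only [one_smul, zero_smul, Gi_456.jB_zero, Real.log_one, sub_zero, norm_one, mul_one,
    Real.norm_eq_abs] at h1
  have h2 : b * ‖v‖ ≤ m * (K1 * (K2 * Real.exp l)) := by
    have := mul_le_mul_of_nonneg_left hv hb0
    calc b * ‖v‖ ≤ b * Real.exp l := this
      _ = _ := by rw [hb']; ring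
  have h3 := h1.trans h2
  have h4 : jB w X0 v = Real.exp (Real.log (jB w X0 v)) :=
    (Real.exp_log (Gi_456.jB_pos w X0 v)).symm
  rw [h4]
  refine (abs_exp_sub_one_le' _).trans ?_
  have h5 : K1 * (K2 * Real.exp l) ≤ 1 := by
    have := mul_le_mul h.k1le h.a2le h.a2n zero_le_one
    linarith
  have hm0 : (0 : ℝ) ≤ m := Nat.cast_nonneg m
  have h6 : |Real.log (jB w X0 v)| ≤ m := h3.trans (by nlinarith)
  have h7 := mul_le_mul h3 (Real.exp_le_exp.2 h6) (Real.exp_pos _).le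
    (mul_nonneg hm0 (mul_nonneg h.K1n h.a2n))
  refine h7.trans ?_
  have h8 : (m : ℝ) * (K1 * (K2 * Real.exp l)) * Real.exp m =
      (m * Real.exp m) * (K1 * (K2 * Real.exp l)) := by ring
  rw [h8]
  refine le_kp h ?_ (K1a2_le h.K1n h.a2n h.a3n) (by positivity)
  unfold Ct
  refine mul_le_mul_of_nonneg_right ?_ (Real.exp_pos _).le
  have : (0 : ℝ) ≤ n := Nat.cast_nonneg n
  linarith

/-- `2 f / s²` -/
theorem two_f (z : Euc k) : 2 * (ch π ρ x r w X0).f z = ‖(ch π ρ x r w X0).nu z‖ ^ 2 := by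
  show 2 * (‖Bt π ρ w (foot π ρ x r w z) (yy π ρ x r w z)‖ ^ 2 / 2) = _
  have : (ch π ρ x r w X0).nu z = Bt π ρ w (foot π ρ x r w z) (yy π ρ x r w z) := rfl
  rw [this]; ring

theorem Hy.q1 (h : Hy π ρ x r w X0 K l K1 K2 K3 hb) {s : ℝ} (hs : 0 < s) (h2 : Real.exp l ≤ 2 * s)
    (hb2 : 2 * hb ≤ 1) {z : Euc k} (hz : z ∈ K) (hr : ‖(ch π ρ x r w X0).x z‖ ≤ Real.exp l) :
    2 * (ch π ρ x r w X0).f z / s ^ 2 ≤ 1 := by
  rw [two_f, div_le_one (by positivity)]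
  refine pow_le_pow_left₀ (norm_nonneg _) ((h.nu z hz hr).trans ?_) 2
  have := h.hb0
  nlinarith

theorem qq_le (h : Hy π ρ x r w X0 K l K1 K2 K3 hb) {s : ℝ} (hs : 0 < s) (h1 : s ≤ Real.exp l)
    (z : Euc k) : GL_394.qq (ch π ρ x r w X0) l z ≤ 2 * (ch π ρ x r w X0).f z / s ^ 2 := by
  have _ := h.gr
  rw [two_f, qq_eq, et, mul_pow, div_eq_mul_inv]
  refine mul_le_mul_of_nonneg_left ?_ (by positivity)
  rw [Real.exp_neg, inv_pow]
  exact inv_anti₀ (by positivity) (pow_le_pow_left₀ hs.le h1 2)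

theorem Hy.an (h : Hy π ρ x r w X0 K l K1 K2 K3 hb) {s : ℝ} (hs : 0 < s) (h1 : s ≤ Real.exp l)
    {p : Euc k × L k} (hp : p ∈ K ×ˢ G m k) (hr : ‖(ch π ρ x r w X0).x p.1‖ ≤ Real.exp l) :
    |1 - (ch π ρ x r w X0).j ((ch π ρ x r w X0).x p.1) * Ar_870.Jh ((ch π ρ x r w X0).dx p.1) p.2 -
      (ch π ρ x r w X0).tau p.1 p.2 / 2| ≤ Cn m * ((ch π ρ x r w X0).tau p.1 p.2 +
        kp m n K1 K2 K3 hb l * (2 * (ch π ρ x r w X0).f p.1 / s ^ 2)) := by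
  refine (h.anom hp hr).trans ?_
  have a1 := h.tau_nonneg hp
  have a2 := qq_le h hs h1 p.1
  have a3 : 0 ≤ GL_394.qq (ch π ρ x r w X0) l p.1 := by rw [qq_eq]; positivity
  have a4 : (K2 * Real.exp l) ^ 2 ≤ kp m n K1 K2 K3 hb l := by
    have hm0 : (0 : ℝ) ≤ m := Nat.cast_nonneg m
    have hn0 : (0 : ℝ) ≤ n := Nat.cast_nonneg n
    have := le_kp h (a := 1) (le_Ct (by linarith)) (a2sq_le h.K1n h.a2n h.a3n) zero_le_one
    rwa [one_mul] at this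
  have a5 := Cj_nonneg m
  have hm0 : (0 : ℝ) ≤ m := Nat.cast_nonneg m
  set τ := (ch π ρ x r w X0).tau p.1 p.2
  set q := GL_394.qq (ch π ρ x r w X0) l p.1
  set q' := 2 * (ch π ρ x r w X0).f p.1 / s ^ 2
  have a6 : (K2 * Real.exp l) ^ 2 * q ≤ kp m n K1 K2 K3 hb l * q' :=
    mul_le_mul a4 a2 a3 h.kpn
  have a7 : 0 ≤ kp m n K1 K2 K3 hb l * q' := mul_nonneg h.kpn (a3.trans a2)
  unfold Cn
  calc m / 2 * τ + Cj m * (K2 * Real.exp l) ^ 2 * q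
      = m / 2 * τ + Cj m * ((K2 * Real.exp l) ^ 2 * q) := by ring
    _ ≤ m / 2 * τ + Cj m * (kp m n K1 K2 K3 hb l * q') := by gcongr
    _ ≤ (m + 8 + Cj m) * (τ + kp m n K1 K2 K3 hb l * q') := by
        nlinarith [mul_nonneg hm0 a1, mul_nonneg hm0 a7, mul_nonneg a5 a1]

theorem Hy.hT (h : Hy π ρ x r w X0 K l K1 K2 K3 hb) {s : ℝ} (hs : 0 < s) (h1 : s ≤ Real.exp l)
    {p : Euc k × L k} (hp : p ∈ K ×ˢ G m k) (hr : ‖(ch π ρ x r w X0).x p.1‖ ≤ Real.exp l) :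
    ‖ContinuousLinearMap.id ℝ (Euc m) - GL_394.T (ch π ρ x r w X0) p‖ ≤
      Cn m * ((ch π ρ x r w X0).tau p.1 p.2 +
        kp m n K1 K2 K3 hb l * (2 * (ch π ρ x r w X0).f p.1 / s ^ 2)) := by
  have b1 := norm_k2 (frame_fr h.fr) (h.inv hp.1) (pj_of_mem hp.2) (h.q4 p.1) (h.Y4 hp.1)
  set T0 := DX (adj π) (adj ρ) (fderiv ℝ w (foot π ρ x r w p.1)) (Li w (foot π ρ x r w p.1)
      (yy π ρ x r w p.1)) ∘L p.2 ∘L AA (adj π) (adj ρ) (fderiv ℝ w (foot π ρ x r w p.1))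
        (Yo w (foot π ρ x r w p.1) (yy π ρ x r w p.1)) with hT0
  have e : ContinuousLinearMap.id ℝ (Euc m) - GL_394.T (ch π ρ x r w X0) p =
      Lo (fderiv ℝ w X0) ∘L (ContinuousLinearMap.id ℝ (Euc m) - T0) ∘L Loi (fderiv ℝ w X0) := by
    rw [T_eq, ← hT0, ContinuousLinearMap.sub_comp, ContinuousLinearMap.comp_sub,
      ContinuousLinearMap.id_comp, (Gi_456.Loi_spec _).2.1]
  have b2 : ‖ContinuousLinearMap.id ℝ (Euc m) - GL_394.T (ch π ρ x r w X0) p‖ ≤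
      65 / 64 * (4 * ((ch π ρ x r w X0).tau p.1 p.2 +
        ‖Yo w (foot π ρ x r w p.1) (yy π ρ x r w p.1)‖ ^ 2)) := by
    rw [e]
    have h3 := ncomp (norm_Lo h) (ncomp b1 (norm_Loi (fderiv ℝ w X0)))
    rw [mul_one] at h3
    exact h3
  refine b2.trans ?_
  have a1 := h.tau_nonneg hp
  have a2 := qq_le h hs h1 p.1
  have a3 : 0 ≤ GL_394.qq (ch π ρ x r w X0) l p.1 := by rw [qq_eq]; positivity
  have a4 : (K2 * Real.exp l) ^ 2 ≤ kp m n K1 K2 K3 hb l := by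
    have hm0 : (0 : ℝ) ≤ m := Nat.cast_nonneg m
    have hn0 : (0 : ℝ) ≤ n := Nat.cast_nonneg n
    have := le_kp h (a := 1) (le_Ct (by linarith)) (a2sq_le h.K1n h.a2n h.a3n) zero_le_one
    rwa [one_mul] at this
  have a5 := Cj_nonneg m
  have hm0 : (0 : ℝ) ≤ m := Nat.cast_nonneg m
  have b3 : ‖Yo w (foot π ρ x r w p.1) (yy π ρ x r w p.1)‖ ^ 2 ≤
      (K2 * Real.exp l) ^ 2 * GL_394.qq (ch π ρ x r w X0) l p.1 := by
    rw [qq_eq, ← mul_pow]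
    exact pow_le_pow_left₀ (norm_nonneg _) (h.YK hr) 2
  set τ := (ch π ρ x r w X0).tau p.1 p.2
  set q := GL_394.qq (ch π ρ x r w X0) l p.1
  set q' := 2 * (ch π ρ x r w X0).f p.1 / s ^ 2
  have a6 : (K2 * Real.exp l) ^ 2 * q ≤ kp m n K1 K2 K3 hb l * q' :=
    mul_le_mul a4 a2 a3 h.kpn
  have a7 : 0 ≤ kp m n K1 K2 K3 hb l * q' := mul_nonneg h.kpn (a3.trans a2)
  have b4 := b3.trans a6
  unfold Cn
  calc 65 / 64 * (4 * (τ + ‖Yo w (foot π ρ x r w p.1) (yy π ρ x r w p.1)‖ ^ 2))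
      ≤ 65 / 64 * (4 * (τ + kp m n K1 K2 K3 hb l * q')) := by gcongr
    _ ≤ (m + 8 + Cj m) * (τ + kp m n K1 K2 K3 hb l * q') := by
        nlinarith [mul_nonneg hm0 a1, mul_nonneg hm0 a7, mul_nonneg a5 a1, mul_nonneg a5 a7]

theorem Hy.kk3 (h : Hy π ρ x r w X0 K l K1 K2 K3 hb) {s : ℝ} (hs : 0 < s) (h1 : s ≤ Real.exp l)
    {p : Euc k × L k} (hp : p ∈ K ×ˢ G m k) (hr : ‖(ch π ρ x r w X0).x p.1‖ ≤ Real.exp l)
    (v : Euc m) :
    |GL_394.Gam (ch π ρ x r w X0) p v -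
        ⟪(ch π ρ x r w X0).lam ((ch π ρ x r w X0).x p.1), v⟫_ℝ| ≤
      kp m n K1 K2 K3 hb l * (‖v‖ / s) * ((ch π ρ x r w X0).tau p.1 p.2 +
        2 * (ch π ρ x r w X0).f p.1 / s ^ 2) := by
  refine (h.f3 hp hr v).trans ?_
  have a1 := h.tau_nonneg hp
  have a2 := qq_le h hs h1 p.1
  have a3 : 0 ≤ GL_394.qq (ch π ρ x r w X0) l p.1 := by rw [qq_eq]; positivity
  have hm0 : (0 : ℝ) ≤ m := Nat.cast_nonneg m
  have hn0 : (0 : ℝ) ≤ n := Nat.cast_nonneg n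
  have a4 : 16 * (m + n) * cc K1 (K2 * Real.exp l) (K3 * Real.exp (2 * l)) +
      16 * (m + n) * dd (K2 * Real.exp l) (K3 * Real.exp (2 * l)) hb ≤ kp m n K1 K2 K3 hb l := by
    unfold kp
    have h3 : (16 : ℝ) * (m + n) ≤ Ct m n := le_Ct (by linarith)
    have h4 := mul_le_mul_of_nonneg_right h3 (add_nonneg h.ccn h.ddn)
    calc _ = 16 * (m + n) * (cc K1 (K2 * Real.exp l) (K3 * Real.exp (2 * l)) +
          dd (K2 * Real.exp l) (K3 * Real.exp (2 * l)) hb) := by ring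
      _ ≤ _ := h4
  have a5 : ‖v‖ * Real.exp (-l) ≤ ‖v‖ / s := by
    rw [div_eq_mul_inv, Real.exp_neg]
    exact mul_le_mul_of_nonneg_left (inv_anti₀ hs h1) (norm_nonneg _)
  refine mul_le_mul (mul_le_mul a4 a5 (by positivity) h.kpn) (by linarith) (by linarith) ?_
  exact mul_nonneg h.kpn (by positivity)

end Crest.Agent.R234.GLK_128
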