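import Crest.Agent.R234.Gi2_456

/-!
# Row 234, node GL-INST (helper456), file 3: the radial field of a metric at its centre

`G v` = inverse metric, `G 0 = 1`: `muG G v = ⟪v, G v v⟫ / |v|²`, `beG G v = (muG G v)⁻¹ G v v` is
`C¹` including the centre, with explicit bounds.
-/

set_option autoImplicit false

open MeasureTheory Filter Topology Set Function
open scoped ENNReal NNReal ContDiff InnerProductSpace
open Crest.GeometryTopology.Submanifold Crest.Agent.R234.Vf_884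

noncomputable section

namespace Crest.Agent.R234.Gi_456

variable {m : ℕ}

local notation "adj" => ContinuousLinearMap.adjoint

def muG (G : Euc m → L m) (v : Euc m) : ℝ := if v = 0 then 1 else ⟪v, G v v⟫_ℝ / ‖v‖ ^ 2

def beG (G : Euc m → L m) (v : Euc m) : Euc m := (muG G v)⁻¹ • G v v

variable {G : Euc m → L m}

theorem muG_zero : muG G 0 = 1 := by simp [muG]

theorem muG_of_ne {v : Euc m} (hv : v ≠ 0) : muG G v = ⟪v, G v v⟫_ℝ / ‖v‖ ^ 2 := by simp [muG, hv]

theorem muG_mul (v : Euc m) : ⟪v, G v v⟫_ℝ = muG G v * ‖v‖ ^ 2 := by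
  by_cases hv : v = 0
  · subst hv; simp
  · have : ‖v‖ ≠ 0 := norm_ne_zero_iff.2 hv
    rw [muG_of_ne hv]
    field_simp

theorem muG_pos (hpos : ∀ v u : Euc m, u ≠ 0 → 0 < ⟪u, G v u⟫_ℝ) (v : Euc m) : 0 < muG G v := by
  by_cases hv : v = 0
  · subst hv; rw [muG_zero]; norm_num
  · rw [muG_of_ne hv]
    exact div_pos (hpos v v hv) (by positivity)

theorem beG_zero : beG G 0 = 0 := by simp [beG]

theorem inner_beG (hpos : ∀ v u : Euc m, u ≠ 0 → 0 < ⟪u, G v u⟫_ℝ) (v : Euc m) :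
    ⟪v, beG G v⟫_ℝ = ‖v‖ ^ 2 := by
  rw [beG, inner_smul_right, muG_mul]
  have := (muG_pos hpos v).ne'
  field_simp

/-- hypotheses of the estimates at one point -/
structure Pt (G : Euc m → L m) (c : ℝ) (v : Euc m) (G' : Euc m →L[ℝ] L m) : Prop where
  der : HasFDerivAt G G' v
  c0 : 0 ≤ c
  bd : ‖G'‖ ≤ c
  sub : ‖G v - ContinuousLinearMap.id ℝ (Euc m)‖ ≤ c * ‖v‖
  small : c * ‖v‖ ≤ 1 / 4

variable {c : ℝ} {v : Euc m} {G' : Euc m →L[ℝ] L m}

theorem Pt.sub_apply (h : Pt G c v G') (u : Euc m) : ‖G v u - u‖ ≤ c * ‖v‖ * ‖u‖ := by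
  have h1 : G v u - u = (G v - ContinuousLinearMap.id ℝ (Euc m)) u := by simp
  rw [h1]
  exact (ContinuousLinearMap.le_opNorm _ _).trans (by gcongr; exact h.sub)

theorem Pt.abs_mu_sub (h : Pt G c v G') : |muG G v - 1| ≤ c * ‖v‖ := by
  have h0 := h.c0
  by_cases hv : v = 0
  · rw [hv, muG_zero]; simp
  · have hn : 0 < ‖v‖ := norm_pos_iff.2 hv
    have h1 : muG G v - 1 = ⟪v, G v v - v⟫_ℝ / ‖v‖ ^ 2 := by
      rw [muG_of_ne hv, inner_sub_right, real_inner_self_eq_norm_sq]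
      field_simp
    rw [h1, abs_div, abs_of_pos (by positivity : 0 < ‖v‖ ^ 2), div_le_iff₀ (by positivity)]
    refine (abs_real_inner_le_norm _ _).trans ?_
    have := h.sub_apply v
    calc ‖v‖ * ‖G v v - v‖ ≤ ‖v‖ * (c * ‖v‖ * ‖v‖) := by gcongr
      _ = c * ‖v‖ * ‖v‖ ^ 2 := by ring

theorem Pt.mu_ge (h : Pt G c v G') : 3 / 4 ≤ muG G v := by
  have h1 := (abs_le.1 h.abs_mu_sub).1
  have h2 := h.small
  linarith

theorem Pt.inv_mu (h : Pt G c v G') : (muG G v)⁻¹ ≤ 4 / 3 := by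
  have := inv_anti₀ (by norm_num) h.mu_ge
  norm_num at this ⊢
  exact this

theorem Pt.inv_mu_pos (h : Pt G c v G') : 0 < (muG G v)⁻¹ := inv_pos.2 (by have := h.mu_ge; linarith)

theorem Pt.norm_be_sub (h : Pt G c v G') : ‖beG G v - v‖ ≤ 3 * c * ‖v‖ ^ 2 := by
  have h0 := h.c0
  have hmu := h.mu_ge
  have h1 : beG G v - v = (muG G v)⁻¹ • ((G v v - v) - (muG G v - 1) • v) := by
    rw [beG, smul_sub, smul_sub, smul_smul, mul_sub, inv_mul_cancel₀ (by linarith), mul_one,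
      sub_smul, one_smul]
    abel
  rw [h1, norm_smul, Real.norm_of_nonneg h.inv_mu_pos.le]
  have h2 : ‖(G v v - v) - (muG G v - 1) • v‖ ≤ c * ‖v‖ * ‖v‖ + c * ‖v‖ * ‖v‖ := by
    refine (norm_sub_le _ _).trans (add_le_add (h.sub_apply v) ?_)
    rw [norm_smul, Real.norm_eq_abs]
    gcongr
    exact h.abs_mu_sub
  calc (muG G v)⁻¹ * ‖(G v v - v) - (muG G v - 1) • v‖
      ≤ 4 / 3 * (c * ‖v‖ * ‖v‖ + c * ‖v‖ * ‖v‖) :=
        mul_le_mul h.inv_mu h2 (norm_nonneg _) (by norm_num)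
    _ ≤ 3 * c * ‖v‖ ^ 2 := by nlinarith [mul_nonneg h0 (sq_nonneg ‖v‖)]

theorem Pt.norm_Gv (h : Pt G c v G') (u : Euc m) : ‖G v u‖ ≤ 5 / 4 * ‖u‖ := by
  have h1 := h.sub_apply u
  have h2 := norm_le_norm_add_norm_sub' (G v u) u
  have h3 := h.small
  have := norm_nonneg u
  nlinarith

theorem Pt.norm_be_le (h : Pt G c v G') : ‖beG G v‖ ≤ 2 * ‖v‖ := by
  rw [beG, norm_smul, Real.norm_of_nonneg h.inv_mu_pos.le]
  calc (muG G v)⁻¹ * ‖G v v‖ ≤ 4 / 3 * (5 / 4 * ‖v‖) :=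
        mul_le_mul h.inv_mu (h.norm_Gv v) (norm_nonneg _) (by norm_num)
    _ ≤ 2 * ‖v‖ := by linarith [norm_nonneg v]

/-- derivative of `v ↦ G v v` -/
theorem hasFDerivAt_Gv (h : HasFDerivAt G G' v) :
    HasFDerivAt (fun v => G v v) (G v + G'.flip v) v := by
  have := h.clm_apply (hasFDerivAt_id v)
  refine this.congr_fderiv ?_
  ext1 u
  simp

/-- the derivative of the radial field away from the centre -/
theorem hasFDerivAt_be_of_ne (h : HasFDerivAt G G' v) (hv : v ≠ 0) (hmu : muG G v ≠ 0) :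
    HasFDerivAt (beG G)
      ((muG G v)⁻¹ • (G v + G'.flip v) +
        ((-(muG G v ^ 2)⁻¹) • ((‖v‖ ^ 2)⁻¹ • (innerSL ℝ v ∘L (G v + G'.flip v) + innerSL ℝ (G v v)
          - (2 * muG G v) • innerSL ℝ v))).smulRight (G v v)) v := by
  have hn : ‖v‖ ^ 2 ≠ 0 := by
    have : ‖v‖ ≠ 0 := norm_ne_zero_iff.2 hv
    positivity
  have h1 := hasFDerivAt_Gv h
  have h2 : HasFDerivAt (fun v => ⟪v, G v v⟫_ℝ)
      (innerSL ℝ v ∘L (G v + G'.flip v) + innerSL ℝ (G v v)) v := by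
    refine ((hasFDerivAt_id v).inner ℝ h1).congr_fderiv ?_
    ext1 u
    simp only [ContinuousLinearMap.comp_apply, fderivInnerCLM_apply, ContinuousLinearMap.prod_apply,
      _root_.add_apply, innerSL_apply_apply, id_eq, ContinuousLinearMap.id_apply, inner_add_right]
    rw [real_inner_comm u (G v v)]
  have h3 : HasFDerivAt (fun v : Euc m => ‖v‖ ^ 2) (2 • innerSL ℝ v) v :=
    (hasStrictFDerivAt_norm_sq v).hasFDerivAt
  have h4 : HasFDerivAt (fun v => ⟪v, G v v⟫_ℝ / ‖v‖ ^ 2)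
      ((‖v‖ ^ 2)⁻¹ • (innerSL ℝ v ∘L (G v + G'.flip v) + innerSL ℝ (G v v)
          - (2 * muG G v) • innerSL ℝ v)) v := by
    have h5 := h2.mul ((hasDerivAt_inv hn).comp_hasFDerivAt v h3)
    have e : (fun v => ⟪v, G v v⟫_ℝ / ‖v‖ ^ 2) =
        (fun v => ⟪v, G v v⟫_ℝ) * fun v : Euc m => (‖v‖ ^ 2)⁻¹ := by
      funext u; simp [div_eq_mul_inv]
    rw [e]
    refine h5.congr_fderiv ?_
    ext1 u
    have e3 : ((fun y : ℝ => y⁻¹) ∘ fun v : Euc m => ‖v‖ ^ 2) v = (‖v‖ ^ 2)⁻¹ := rfl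
    rw [e3]
    simp only [_root_.add_apply, _root_.smul_apply, smul_eq_mul, _root_.sub_apply, nsmul_eq_mul]
    rw [muG_of_ne hv]
    field_simp
    push_cast
    ring
  have h5 := h4.congr_of_eventuallyEq (f₁ := muG G) (by
    filter_upwards [isOpen_ne.mem_nhds hv] with u hu
    exact muG_of_ne hu)
  have h6 := (hasDerivAt_inv hmu).comp_hasFDerivAt v h5
  exact h6.smul h1

/-- the bound of the derivative -/
theorem Pt.norm_dbe_sub (h : Pt G c v G') (hv : v ≠ 0) :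
    ‖((muG G v)⁻¹ • (G v + G'.flip v) +
        ((-(muG G v ^ 2)⁻¹) • ((‖v‖ ^ 2)⁻¹ • (innerSL ℝ v ∘L (G v + G'.flip v) + innerSL ℝ (G v v)
          - (2 * muG G v) • innerSL ℝ v))).smulRight (G v v)) - ContinuousLinearMap.id ℝ (Euc m)‖
      ≤ 17 * c * ‖v‖ := by
  have h0 := h.c0
  have hn : 0 < ‖v‖ := norm_pos_iff.2 hv
  have hmu := h.mu_ge
  have hs := h.small
  refine ContinuousLinearMap.opNorm_le_bound _ (by positivity) fun u => ?_
  set μ := muG G v with hμ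
  have e1 : G'.flip v u = G' u v := rfl
  have hG' : ‖G' u v‖ ≤ c * ‖u‖ * ‖v‖ := by
    refine (ContinuousLinearMap.le_opNorm _ _).trans ?_
    gcongr
    exact (G'.le_opNorm u).trans (by gcongr; exact h.bd)
  have hGu := h.sub_apply u
  have hGv := h.sub_apply v
  have hmu1 := h.abs_mu_sub
  -- value at `u`
  have e2 : (((μ)⁻¹ • (G v + G'.flip v) +
        ((-(μ ^ 2)⁻¹) • ((‖v‖ ^ 2)⁻¹ • (innerSL ℝ v ∘L (G v + G'.flip v) + innerSL ℝ (G v v)
          - (2 * μ) • innerSL ℝ v))).smulRight (G v v)) - ContinuousLinearMap.id ℝ (Euc m)) u =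
      μ⁻¹ • ((G v u - u) + G' u v - (μ - 1) • u) +
        (-(μ ^ 2)⁻¹ * ((‖v‖ ^ 2)⁻¹ * (⟪v, (G v u - u) + G' u v - (μ - 1) • u⟫_ℝ +
          ⟪(G v v - v) - (μ - 1) • v, u⟫_ℝ))) • G v v := by
    have hμ0 : μ ≠ 0 := by linarith
    simp only [_root_.add_apply, _root_.smul_apply, smul_eq_mul, _root_.sub_apply,
      ContinuousLinearMap.smulRight_apply, ContinuousLinearMap.comp_apply, innerSL_apply_apply, e1,
      ContinuousLinearMap.id_apply]
    have a1 : μ⁻¹ • ((G v u - u) + G' u v - (μ - 1) • u) = μ⁻¹ • (G v u + G' u v) - u := by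
      rw [sub_smul, one_smul, smul_sub, smul_add, smul_sub, smul_sub, smul_smul,
        inv_mul_cancel₀ hμ0, one_smul, smul_add]
      abel
    have a2 : ⟪v, (G v u - u) + G' u v - (μ - 1) • u⟫_ℝ + ⟪(G v v - v) - (μ - 1) • v, u⟫_ℝ =
        ⟪v, G v u + G' u v⟫_ℝ + ⟪G v v, u⟫_ℝ - 2 * μ * ⟪v, u⟫_ℝ := by
      simp only [inner_sub_left, inner_sub_right, inner_add_right, inner_smul_left,
        inner_smul_right]
      simp
      ring
    rw [a1, a2]
    abel
  rw [e2]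
  have b1 : ‖(G v u - u) + G' u v - (μ - 1) • u‖ ≤ 3 * c * ‖v‖ * ‖u‖ := by
    have : ‖(μ - 1) • u‖ ≤ c * ‖v‖ * ‖u‖ := by
      rw [norm_smul, Real.norm_eq_abs]; gcongr
    refine (norm_sub_le _ _).trans ?_
    have := norm_add_le (G v u - u) (G' u v)
    nlinarith
  have b2 : ‖(G v v - v) - (μ - 1) • v‖ ≤ 2 * c * ‖v‖ * ‖v‖ := by
    have : ‖(μ - 1) • v‖ ≤ c * ‖v‖ * ‖v‖ := by
      rw [norm_smul, Real.norm_eq_abs]; gcongr
    refine (norm_sub_le _ _).trans ?_
    linarith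
  have b3 : |⟪v, (G v u - u) + G' u v - (μ - 1) • u⟫_ℝ + ⟪(G v v - v) - (μ - 1) • v, u⟫_ℝ| ≤
      5 * c * ‖v‖ ^ 2 * ‖u‖ := by
    refine (abs_add_le _ _).trans ?_
    have d1 := (abs_real_inner_le_norm v ((G v u - u) + G' u v - (μ - 1) • u)).trans
      (mul_le_mul_of_nonneg_left b1 (norm_nonneg _))
    have d2 := (abs_real_inner_le_norm ((G v v - v) - (μ - 1) • v) u).trans
      (mul_le_mul_of_nonneg_right b2 (norm_nonneg _))
    nlinarith
  have hμ2 : (μ ^ 2)⁻¹ ≤ 16 / 9 := by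
    have : (9 / 16 : ℝ) ≤ μ ^ 2 := by nlinarith
    have := inv_anti₀ (by norm_num) this
    norm_num at this ⊢
    exact this
  have hμ2' : 0 ≤ (μ ^ 2)⁻¹ := by positivity
  have b4 : |-(μ ^ 2)⁻¹ * ((‖v‖ ^ 2)⁻¹ * (⟪v, (G v u - u) + G' u v - (μ - 1) • u⟫_ℝ +
          ⟪(G v v - v) - (μ - 1) • v, u⟫_ℝ))| ≤ 16 / 9 * (5 * c * ‖u‖) := by
    rw [abs_mul, abs_mul, abs_neg, abs_of_nonneg hμ2', abs_of_nonneg (by positivity)]
    refine mul_le_mul hμ2 ?_ (by positivity) (by norm_num)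
    rw [inv_mul_le_iff₀ (by positivity)]
    refine b3.trans (le_of_eq (by ring))
  refine (norm_add_le _ _).trans ?_
  rw [norm_smul, norm_smul, Real.norm_of_nonneg h.inv_mu_pos.le, Real.norm_eq_abs]
  have d1 : (muG G v)⁻¹ * ‖(G v u - u) + G' u v - (μ - 1) • u‖ ≤
      4 / 3 * (3 * c * ‖v‖ * ‖u‖) := mul_le_mul h.inv_mu b1 (norm_nonneg _) (by norm_num)
  have d2 := mul_le_mul b4 (h.norm_Gv v) (norm_nonneg _) (by positivity)
  have d3 : 0 ≤ c * ‖v‖ * ‖u‖ := by positivity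
  calc _ ≤ 4 / 3 * (3 * c * ‖v‖ * ‖u‖) + 16 / 9 * (5 * c * ‖u‖) * (5 / 4 * ‖v‖) := add_le_add d1 d2
    _ ≤ 17 * c * ‖v‖ * ‖u‖ := by nlinarith

/-- at the centre -/
theorem hasFDerivAt_be_zero (hG : ContDiff ℝ 1 G) (h0 : G 0 = ContinuousLinearMap.id ℝ (Euc m)) :
    HasFDerivAt (beG G) (ContinuousLinearMap.id ℝ (Euc m)) 0 := by
  obtain ⟨c, hc0, hc⟩ : ∃ c : ℝ, 0 ≤ c ∧ ∀ v ∈ Metric.closedBall (0 : Euc m) 1,
      ‖fderiv ℝ G v‖ ≤ c := by
    obtain ⟨c, hc⟩ := (isCompact_closedBall (0 : Euc m) 1).exists_bound_of_continuousOn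
      (hG.continuous_fderiv one_ne_zero).continuousOn
    exact ⟨max c 0, le_max_right _ _, fun v hv => (hc v hv).trans (le_max_left _ _)⟩
  have hpt : ∀ᶠ v in 𝓝 (0 : Euc m), Pt G c v (fderiv ℝ G v) := by
    have e1 : ∀ᶠ v in 𝓝 (0 : Euc m), ‖v‖ < 1 := by
      have := Metric.ball_mem_nhds (0 : Euc m) one_pos
      filter_upwards [this] with v hv
      simpa using hv
    have e2 : ∀ᶠ v in 𝓝 (0 : Euc m), c * ‖v‖ < 1 / 4 := by
      have h1 : Tendsto (fun v : Euc m => c * ‖v‖) (𝓝 0) (𝓝 0) := by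
        have : Continuous fun v : Euc m => c * ‖v‖ := by fun_prop
        simpa using this.tendsto 0
      exact h1.eventually (gt_mem_nhds (by norm_num))
    filter_upwards [e1, e2] with v h1 h2
    refine ⟨(hG.differentiable one_ne_zero v).hasFDerivAt, hc0, hc v ?_, ?_, h2.le⟩
    · simpa using h1.le
    · have := (convex_closedBall (0 : Euc m) 1).norm_image_sub_le_of_norm_fderiv_le (𝕜 := ℝ)
        (fun z _ => hG.differentiable one_ne_zero z) hc (Metric.mem_closedBall_self zero_le_one)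
        (show v ∈ Metric.closedBall (0 : Euc m) 1 by simpa using h1.le)
      rwa [h0, sub_zero] at this
  rw [hasFDerivAt_iff_isLittleO_nhds_zero]
  refine Asymptotics.IsBigO.trans_isLittleO (g := fun v : Euc m => ‖v‖ ^ 2) ?_ ?_
  · refine Asymptotics.IsBigO.of_bound (3 * c) ?_
    filter_upwards [hpt] with v hv
    rw [zero_add, beG_zero, sub_zero, Real.norm_of_nonneg (by positivity)]
    exact hv.norm_be_sub
  · exact Asymptotics.isLittleO_norm_pow_id one_lt_two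

/-- **the radial field is `C¹`, also at the centre** -/
theorem contDiff_be (hG : ContDiff ℝ 1 G) (h0 : G 0 = ContinuousLinearMap.id ℝ (Euc m))
    (hpos : ∀ v u : Euc m, u ≠ 0 → 0 < ⟪u, G v u⟫_ℝ) : ContDiff ℝ 1 (beG G) := by
  have hd : ∀ v, DifferentiableAt ℝ (beG G) v := by
    intro v
    by_cases hv : v = 0
    · rw [hv]; exact (hasFDerivAt_be_zero hG h0).differentiableAt
    · exact (hasFDerivAt_be_of_ne (hG.differentiable one_ne_zero v).hasFDerivAt hv
        (muG_pos hpos v).ne').differentiableAt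
  rw [contDiff_one_iff_fderiv]
  refine ⟨hd, continuous_iff_continuousAt.2 fun v => ?_⟩
  by_cases hv : v = 0
  · subst hv
    rw [ContinuousAt, (hasFDerivAt_be_zero hG h0).fderiv]
    obtain ⟨c, hc0, hc⟩ : ∃ c : ℝ, 0 ≤ c ∧ ∀ v ∈ Metric.closedBall (0 : Euc m) 1,
        ‖fderiv ℝ G v‖ ≤ c := by
      obtain ⟨c, hc⟩ := (isCompact_closedBall (0 : Euc m) 1).exists_bound_of_continuousOn
        (hG.continuous_fderiv one_ne_zero).continuousOn
      exact ⟨max c 0, le_max_right _ _, fun v hv => (hc v hv).trans (le_max_left _ _)⟩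
    rw [tendsto_iff_norm_sub_tendsto_zero]
    have hlim : Tendsto (fun v : Euc m => 17 * c * ‖v‖) (𝓝 0) (𝓝 0) := by
      have : Continuous fun v : Euc m => 17 * c * ‖v‖ := by fun_prop
      simpa using this.tendsto 0
    refine squeeze_zero' (Eventually.of_forall fun v => norm_nonneg _) ?_ hlim
    have e1 : ∀ᶠ v in 𝓝 (0 : Euc m), ‖v‖ < 1 := by
      have := Metric.ball_mem_nhds (0 : Euc m) one_pos
      filter_upwards [this] with v hv
      simpa using hv
    have e2 : ∀ᶠ v in 𝓝 (0 : Euc m), c * ‖v‖ < 1 / 4 := by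
      have h1 : Tendsto (fun v : Euc m => c * ‖v‖) (𝓝 0) (𝓝 0) := by
        have : Continuous fun v : Euc m => c * ‖v‖ := by fun_prop
        simpa using this.tendsto 0
      exact h1.eventually (gt_mem_nhds (by norm_num))
    filter_upwards [e1, e2] with v h1 h2
    by_cases hv : v = 0
    · rw [hv, (hasFDerivAt_be_zero hG h0).fderiv]; simp
    · have hp : Pt G c v (fderiv ℝ G v) := by
        refine ⟨(hG.differentiable one_ne_zero v).hasFDerivAt, hc0, hc v (by simpa using h1.le), ?_,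
          h2.le⟩
        have := (convex_closedBall (0 : Euc m) 1).norm_image_sub_le_of_norm_fderiv_le (𝕜 := ℝ)
          (fun z _ => hG.differentiable one_ne_zero z) hc (Metric.mem_closedBall_self zero_le_one)
          (show v ∈ Metric.closedBall (0 : Euc m) 1 by simpa using h1.le)
        rwa [h0, sub_zero] at this
      rw [(hasFDerivAt_be_of_ne hp.der hv (muG_pos hpos v).ne').fderiv]
      exact hp.norm_dbe_sub hv
  · -- away from the centre
    have h1 : ContDiffAt ℝ 1 (fun v => G v v) v := (hG.clm_apply contDiff_id).contDiffAt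
    have h2 : ContDiffAt ℝ 1 (fun v : Euc m => ⟪v, G v v⟫_ℝ / ‖v‖ ^ 2) v := by
      refine ContDiffAt.div (contDiffAt_id.inner ℝ h1) (contDiff_norm_sq ℝ).contDiffAt ?_
      have : ‖v‖ ≠ 0 := norm_ne_zero_iff.2 hv
      positivity
    have h3 : ContDiffAt ℝ 1 (muG G) v := by
      refine h2.congr_of_eventuallyEq ?_
      filter_upwards [isOpen_ne.mem_nhds hv] with u hu
      exact muG_of_ne hu
    have h4 : ContDiffAt ℝ 1 (beG G) v := (h3.inv (muG_pos hpos v).ne').smul h1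
    exact h4.continuousAt_fderiv (by norm_num)

theorem continuous_muG (hG : ContDiff ℝ 1 G) (h0 : G 0 = ContinuousLinearMap.id ℝ (Euc m)) :
    Continuous (muG G) := by
  refine continuous_iff_continuousAt.2 fun v => ?_
  by_cases hv : v = 0
  · subst hv
    obtain ⟨c, hc0, hc⟩ : ∃ c : ℝ, 0 ≤ c ∧ ∀ v ∈ Metric.closedBall (0 : Euc m) 1,
        ‖fderiv ℝ G v‖ ≤ c := by
      obtain ⟨c, hc⟩ := (isCompact_closedBall (0 : Euc m) 1).exists_bound_of_continuousOn
        (hG.continuous_fderiv one_ne_zero).continuousOn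
      exact ⟨max c 0, le_max_right _ _, fun v hv => (hc v hv).trans (le_max_left _ _)⟩
    rw [ContinuousAt, muG_zero, tendsto_iff_norm_sub_tendsto_zero]
    have hlim : Tendsto (fun v : Euc m => c * ‖v‖) (𝓝 0) (𝓝 0) := by
      have : Continuous fun v : Euc m => c * ‖v‖ := by fun_prop
      simpa using this.tendsto 0
    refine squeeze_zero' (Eventually.of_forall fun v => norm_nonneg _) ?_ hlim
    have e1 : ∀ᶠ v in 𝓝 (0 : Euc m), ‖v‖ < 1 := by
      have := Metric.ball_mem_nhds (0 : Euc m) one_pos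
      filter_upwards [this] with v hv
      simpa using hv
    have e2 : ∀ᶠ v in 𝓝 (0 : Euc m), c * ‖v‖ < 1 / 4 := hlim.eventually (gt_mem_nhds (by norm_num))
    filter_upwards [e1, e2] with v h1 h2
    have hp : Pt G c v (fderiv ℝ G v) := by
      refine ⟨(hG.differentiable one_ne_zero v).hasFDerivAt, hc0, hc v (by simpa using h1.le), ?_,
        h2.le⟩
      have := (convex_closedBall (0 : Euc m) 1).norm_image_sub_le_of_norm_fderiv_le (𝕜 := ℝ)
        (fun z _ => hG.differentiable one_ne_zero z) hc (Metric.mem_closedBall_self zero_le_one)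
        (show v ∈ Metric.closedBall (0 : Euc m) 1 by simpa using h1.le)
      rwa [h0, sub_zero] at this
    rw [Real.norm_eq_abs]
    exact hp.abs_mu_sub
  · have h1 : ContinuousAt (fun v => G v v) v :=
      (hG.continuous.clm_apply continuous_id).continuousAt
    have h2 : ContinuousAt (fun v : Euc m => ⟪v, G v v⟫_ℝ / ‖v‖ ^ 2) v := by
      refine ContinuousAt.div (continuousAt_id.inner h1) (by fun_prop) ?_
      have : ‖v‖ ≠ 0 := norm_ne_zero_iff.2 hv
      positivity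
    refine h2.congr ?_
    filter_upwards [isOpen_ne.mem_nhds hv] with u hu
    exact (muG_of_ne hu).symm

end Crest.Agent.R234.Gi_456
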