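import Crest.Agent.R234.Ell1_3

/-!
# Row 234, node GROT (helper842), part 1: inverse square roots and the rotated frame

`exists_isqrt`: for `T ≥ 0` symmetric there is a symmetric `H` with `H (1 + T) H = 1`, commuting with
everything that commutes... (we only need `H T = T H`), `‖H - 1‖ ≤ ‖T‖`, `‖H x‖ ≤ ‖x‖`.
-/

set_option autoImplicit false
set_option linter.unusedSectionVars false

open Module
open scoped RealInnerProductSpace

noncomputable section

namespace Crest.Agent.R234.Grot_842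

open Crest.Agent.R234.Ell1_3

variable {F V : Type} [NormedAddCommGroup F] [InnerProductSpace ℝ F] [FiniteDimensional ℝ F]
  [NormedAddCommGroup V] [InnerProductSpace ℝ V] [FiniteDimensional ℝ V]

/-- diagonal operator in an orthonormal basis -/
def dg {ι : Type} [Fintype ι] (b : OrthonormalBasis ι ℝ F) (c : ι → ℝ) : F →L[ℝ] F :=
  ∑ i, c i • (innerSL ℝ (b i)).smulRight (b i)

theorem dg_apply {ι : Type} [Fintype ι] (b : OrthonormalBasis ι ℝ F) (c : ι → ℝ) (x : F) :
    dg b c x = ∑ i, (c i * ⟪b i, x⟫) • b i := by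
  simp [dg, smul_smul]

theorem inner_dg {ι : Type} [Fintype ι] (b : OrthonormalBasis ι ℝ F) (c : ι → ℝ) (x : F) (i : ι) :
    ⟪b i, dg b c x⟫ = c i * ⟪b i, x⟫ := by
  rw [dg_apply, inner_sum]
  rw [Finset.sum_eq_single i]
  · rw [inner_smul_right, real_inner_self_eq_norm_sq, b.norm_eq_one]; ring
  · intro j _ hj
    rw [inner_smul_right, b.inner_eq_zero (Ne.symm hj)]; ring
  · intro h; exact absurd (Finset.mem_univ i) h

theorem ext_b {ι : Type} [Fintype ι] (b : OrthonormalBasis ι ℝ F) {x y : F}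
    (h : ∀ i, ⟪b i, x⟫ = ⟪b i, y⟫) : x = y := by
  rw [← b.sum_repr x, ← b.sum_repr y]
  refine Finset.sum_congr rfl fun i _ => ?_
  rw [b.repr_apply_apply, b.repr_apply_apply, h i]

theorem norm_sq_b {ι : Type} [Fintype ι] (b : OrthonormalBasis ι ℝ F) (x : F) :
    ‖x‖ ^ 2 = ∑ i, ⟪b i, x⟫ ^ 2 := by
  have h := b.sum_sq_norm_inner_right x
  rw [← h]
  refine Finset.sum_congr rfl fun i _ => ?_
  rw [Real.norm_eq_abs, sq_abs]

theorem inner_b {ι : Type} [Fintype ι] (b : OrthonormalBasis ι ℝ F) (x y : F) :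
    ⟪x, y⟫ = ∑ i, ⟪b i, x⟫ * ⟪b i, y⟫ := by
  rw [← b.sum_inner_mul_inner x y]
  refine Finset.sum_congr rfl fun i _ => ?_
  rw [real_inner_comm]

/-- inverse square root of `1 + T` -/
theorem exists_isqrt (T : F →L[ℝ] F) (hsym : ∀ x y, ⟪T x, y⟫ = ⟪x, T y⟫)
    (hpos : ∀ x, 0 ≤ ⟪T x, x⟫) :
    ∃ H : F →L[ℝ] F, (∀ x y, ⟪H x, y⟫ = ⟪x, H y⟫) ∧ (∀ x, H (H x + T (H x)) = x) ∧
      (∀ x, H (T x) = T (H x)) ∧ (∀ x, H (H x) + T (H (H x)) = x) ∧
      (∀ x, ‖H x - x‖ ≤ ‖T‖ * ‖x‖) ∧ (∀ x, ‖H x‖ ≤ ‖x‖) ∧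
      (∀ x, ‖x‖ ^ 2 = ‖H x‖ ^ 2 + ⟪T (H x), H x⟫) := by
  classical
  have hT : (T : F →ₗ[ℝ] F).IsSymmetric := fun x y => hsym x y
  set b := hT.eigenvectorBasis rfl with hb
  set l : Fin (finrank ℝ F) → ℝ := hT.eigenvalues rfl with hl
  have hTb : ∀ i, T (b i) = l i • b i := fun i => by
    exact hT.apply_eigenvectorBasis rfl i
  have hl0 : ∀ i, 0 ≤ l i := fun i => by
    have h := hpos (b i)
    rw [hTb i, inner_smul_left, real_inner_self_eq_norm_sq, b.norm_eq_one] at h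
    simpa using h
  have hlT : ∀ i, l i ≤ ‖T‖ := fun i => by
    have h := T.le_opNorm (b i)
    rw [hTb i, norm_smul, b.norm_eq_one, Real.norm_eq_abs, abs_of_nonneg (hl0 i)] at h
    simpa using h
  have hTi : ∀ (x : F) i, ⟪b i, T x⟫ = l i * ⟪b i, x⟫ := fun x i => by
    rw [← hsym, hTb i, inner_smul_left]; simp
  set c : Fin (finrank ℝ F) → ℝ := fun i => (Real.sqrt (1 + l i))⁻¹ with hc
  have hs : ∀ i, 0 < Real.sqrt (1 + l i) := fun i => Real.sqrt_pos.2 (by have := hl0 i; linarith)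
  have hc2 : ∀ i, c i * c i * (1 + l i) = 1 := fun i => by
    have h1 : Real.sqrt (1 + l i) * Real.sqrt (1 + l i) = 1 + l i :=
      Real.mul_self_sqrt (by have := hl0 i; linarith)
    simp only [hc]
    have h2 := (hs i).ne'
    nth_rewrite 3 [← h1]
    field_simp
  have hc0 : ∀ i, 0 < c i := fun i => inv_pos.2 (hs i)
  have hc1 : ∀ i, c i ≤ 1 := fun i => by
    refine inv_le_one_of_one_le₀ ?_
    exact Real.one_le_sqrt.2 (by have := hl0 i; linarith)
  have hc3 : ∀ i, 1 - c i ≤ l i := fun i => by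
    have h1 := hc2 i
    have h2 := hl0 i
    have h3 := hc1 i
    have h4 := hc0 i
    by_contra hcon
    push Not at hcon
    -- c < 1 - l, then c^2 (1+l) < (1-l)^2(1+l) ≤ 1
    have h5 : c i * c i < (1 - l i) * (1 - l i) := by nlinarith
    have h6 : c i * c i * (1 + l i) < (1 - l i) * (1 - l i) * (1 + l i) := by
      apply mul_lt_mul_of_pos_right h5; linarith
    have h7 : (1 - l i) * (1 - l i) * (1 + l i) ≤ 1 := by
      have : l i < 1 := by linarith
      nlinarith [mul_nonneg h2 (mul_nonneg h2 h2), mul_nonneg h2 (sub_nonneg.2 this.le)]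
    linarith
  refine ⟨dg b c, ?_, ?_, ?_, ?_, ?_, ?_, ?_⟩
  · intro x y
    rw [inner_b b, inner_b b x]
    refine Finset.sum_congr rfl fun i _ => ?_
    rw [inner_dg, inner_dg]; ring
  · intro x
    refine ext_b b fun i => ?_
    rw [inner_dg, inner_add_right, hTi, inner_dg]
    have := hc2 i
    linear_combination ⟪b i, x⟫ * this
  · intro x
    refine ext_b b fun i => ?_
    rw [inner_dg, hTi, hTi, inner_dg]; ring
  · intro x
    refine ext_b b fun i => ?_
    rw [inner_add_right, hTi, inner_dg, inner_dg]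
    have := hc2 i
    linear_combination ⟪b i, x⟫ * this
  · intro x
    have h1 : ‖dg b c x - x‖ ^ 2 ≤ (‖T‖ * ‖x‖) ^ 2 := by
      rw [mul_pow, norm_sq_b b x, norm_sq_b b, Finset.mul_sum]
      refine Finset.sum_le_sum fun i _ => ?_
      rw [inner_sub_right, inner_dg]
      have e : c i * ⟪b i, x⟫ - ⟪b i, x⟫ = -((1 - c i) * ⟪b i, x⟫) := by ring
      rw [e, neg_sq, mul_pow]
      have h2 : 0 ≤ 1 - c i := by linarith [hc1 i]
      have h3 : 1 - c i ≤ ‖T‖ := (hc3 i).trans (hlT i)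
      gcongr
    exact (sq_le_sq₀ (norm_nonneg _) (by positivity)).1 h1
  · intro x
    have h1 : ‖dg b c x‖ ^ 2 ≤ ‖x‖ ^ 2 := by
      rw [norm_sq_b b x, norm_sq_b b]
      refine Finset.sum_le_sum fun i _ => ?_
      rw [inner_dg, mul_pow]
      have h2 : (c i) ^ 2 ≤ 1 := by
        have := hc1 i; have := hc0 i; nlinarith
      nlinarith [sq_nonneg ⟪b i, x⟫]
    exact (sq_le_sq₀ (norm_nonneg _) (norm_nonneg _)).1 h1
  · intro x
    rw [norm_sq_b b x, norm_sq_b b (dg b c x), inner_b b, ← Finset.sum_add_distrib]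
    refine Finset.sum_congr rfl fun i _ => ?_
    rw [hTi, inner_dg]
    have := hc2 i
    linear_combination -⟪b i, x⟫ ^ 2 * this

end Crest.Agent.R234.Grot_842
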