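import Mathlib

/-!
# Row 234, node GROT (helper842), part 2: derivative bounds of inverse maps, cut-offs

* `inv_bound`: `ψ : F → F` smooth, `‖Dψ - 1‖ ≤ 1/2`, `‖D^j ψ‖ ≤ B` (`1 ≤ j ≤ K`), `ψ ∘ φ = id`:
  `‖D^j φ‖ ≤ C^j` for `1 ≤ j ≤ K`, `C = C(F, K, B)`.
* `exists_inv`: such a `ψ` is a homeomorphism with smooth inverse.
* `cut_bound`: `v` smooth on `ball 0 1`, `v 0 = 0`, `‖D^j v‖ ≤ κ` there: `χ v` is smooth with
  `‖D^j (χ v)‖ ≤ C κ` everywhere.
-/

set_option autoImplicit false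
set_option linter.unusedSectionVars false

open Set Metric Filter Topology
open scoped ContDiff NNReal

noncomputable section

namespace Crest.Agent.R234.Grot_842

variable {F V : Type} [NormedAddCommGroup F] [NormedSpace ℝ F] [FiniteDimensional ℝ F]
  [NormedAddCommGroup V] [NormedSpace ℝ V]

/-- the inversion of operators near `1` -/
def ivL : (F →L[ℝ] F) → (F →L[ℝ] F) := Ring.inverse

theorem isUnit_of_near {A : F →L[ℝ] F} (h : ‖A - 1‖ < 1) : IsUnit A := by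
  have h1 : ‖(1 : F →L[ℝ] F) - A‖ < 1 := by rwa [norm_sub_rev] at h
  have h2 := (Units.oneSub ((1 : F →L[ℝ] F) - A) h1).isUnit
  simpa using h2

theorem ivL_contDiffOn : ContDiffOn ℝ ∞ (ivL : (F →L[ℝ] F) → (F →L[ℝ] F)) (ball 1 (3 / 4)) := by
  intro A hA
  rw [mem_ball, dist_eq_norm] at hA
  obtain ⟨u, hu⟩ := isUnit_of_near (hA.trans (by norm_num))
  have h1 : ContDiffAt ℝ ∞ (Ring.inverse : (F →L[ℝ] F) → (F →L[ℝ] F)) A := by
    rw [← hu]; exact contDiffAt_ringInverse ℝ u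
  exact h1.contDiffWithinAt

/-- bounds of the derivatives of the inversion on `closedBall 1 (1/2)` -/
theorem ivL_bound (K : ℕ) : ∃ C : ℝ, 1 ≤ C ∧ ∀ i ≤ K, ∀ A ∈ closedBall (1 : F →L[ℝ] F) (1 / 2),
    ‖iteratedFDerivWithin ℝ i ivL (ball (1 : F →L[ℝ] F) (3 / 4)) A‖ ≤ C := by
  have hsub : closedBall (1 : F →L[ℝ] F) (1 / 2) ⊆ ball 1 (3 / 4) :=
    closedBall_subset_ball (by norm_num)
  have hc : ∀ i : ℕ, ∃ C : ℝ, ∀ A ∈ closedBall (1 : F →L[ℝ] F) (1 / 2),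
      ‖iteratedFDerivWithin ℝ i ivL (ball (1 : F →L[ℝ] F) (3 / 4)) A‖ ≤ C := by
    intro i
    have h1 : ContinuousOn (iteratedFDerivWithin ℝ i ivL (ball (1 : F →L[ℝ] F) (3 / 4)))
        (ball (1 : F →L[ℝ] F) (3 / 4)) :=
      ivL_contDiffOn.continuousOn_iteratedFDerivWithin (by exact_mod_cast le_top)
        isOpen_ball.uniqueDiffOn
    exact (isCompact_closedBall _ _).exists_bound_of_continuousOn (h1.mono hsub)
  choose C hC using hc
  refine ⟨1 + ∑ i ∈ Finset.range (K + 1), |C i|, ?_, ?_⟩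
  · have : 0 ≤ ∑ i ∈ Finset.range (K + 1), |C i| := Finset.sum_nonneg fun _ _ => abs_nonneg _
    linarith
  · intro i hi A hA
    have h1 : |C i| ≤ ∑ i ∈ Finset.range (K + 1), |C i| :=
      Finset.single_le_sum (f := fun i => |C i|) (fun _ _ => abs_nonneg _)
        (Finset.mem_range.2 (by omega))
    linarith [hC i A hA, le_abs_self (C i)]

/-- derivatives of `(Dψ)⁻¹` -/
theorem comp_ivL_bound (K : ℕ) (B : ℝ) (hB : 1 ≤ B) : ∃ C : ℝ, 1 ≤ C ∧ ∀ L ≤ K,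
    ∀ N : F → (F →L[ℝ] F),
    ContDiff ℝ ∞ N → (∀ x, ‖N x - 1‖ ≤ 1 / 2) →
    (∀ x, ∀ i, 1 ≤ i → i ≤ L → ‖iteratedFDeriv ℝ i N x‖ ≤ B) →
    ContDiff ℝ ∞ (fun x => ivL (N x)) ∧
      ∀ x, ∀ i ≤ L, ‖iteratedFDeriv ℝ i (fun x => ivL (N x)) x‖ ≤ C := by
  obtain ⟨C0, hC0, hC⟩ := ivL_bound (F := F) K
  refine ⟨K.factorial * C0 * B ^ K, ?_, ?_⟩
  · have h1 : (1 : ℝ) ≤ K.factorial := by exact_mod_cast K.factorial_pos
    have h2 : (1 : ℝ) ≤ B ^ K := one_le_pow₀ hB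
    calc (1:ℝ) = 1 * 1 * 1 := by norm_num
      _ ≤ K.factorial * C0 * B ^ K := by gcongr
  · intro L hLK N hN hN1 hNB
    have hmap : MapsTo N univ (ball (1 : F →L[ℝ] F) (3 / 4)) := fun x _ => by
      rw [mem_ball, dist_eq_norm]
      exact (hN1 x).trans_lt (by norm_num)
    refine ⟨?_, ?_⟩
    · rw [← contDiffOn_univ]
      exact ivL_contDiffOn.comp hN.contDiffOn hmap
    · intro x i hi
      have h := norm_iteratedFDerivWithin_comp_le (𝕜 := ℝ) (g := ivL) (f := N) (n := i)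
        (s := univ) (t := ball (1 : F →L[ℝ] F) (3 / 4)) (x := x) (N := ∞) ivL_contDiffOn
        hN.contDiffOn (by exact_mod_cast le_top) isOpen_ball.uniqueDiffOn uniqueDiffOn_univ hmap
        (mem_univ x) (C := C0) (D := B) ?_ ?_
      · rw [iteratedFDerivWithin_univ] at h
        refine h.trans ?_
        have h1 : (i.factorial : ℝ) ≤ K.factorial := by
          exact_mod_cast Nat.factorial_le (hi.trans hLK)
        have h2 : B ^ i ≤ B ^ K := pow_le_pow_right₀ hB (hi.trans hLK)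
        gcongr
      · intro j hj
        refine hC j ((hj.trans hi).trans hLK) _ ?_
        rw [mem_closedBall, dist_eq_norm]; exact hN1 x
      · intro j hj hj'
        rw [iteratedFDerivWithin_univ]
        refine (hNB x j hj (hj'.trans hi)).trans ?_
        exact le_self_pow₀ hB (by omega)

/-- **derivative bounds of the inverse map** -/
theorem inv_bound (K : ℕ) (B : ℝ) (hB : 1 ≤ B) : ∃ C : ℝ, 1 ≤ C ∧ ∀ ψ φ : F → F,
    ContDiff ℝ ∞ ψ → ContDiff ℝ ∞ φ → (∀ y, ψ (φ y) = y) →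
    (∀ x, ‖fderiv ℝ ψ x - 1‖ ≤ 1 / 2) →
    (∀ x, ∀ j, 1 ≤ j → j ≤ K → ‖iteratedFDeriv ℝ j ψ x‖ ≤ B) →
    ∀ y, ∀ j, 1 ≤ j → j ≤ K → ‖iteratedFDeriv ℝ j φ y‖ ≤ C ^ j := by
  obtain ⟨C0, hC0, hC⟩ := comp_ivL_bound (F := F) K B hB
  -- induction on K' ≤ K
  suffices h : ∀ L ≤ K, ∃ C : ℝ, 1 ≤ C ∧ ∀ ψ φ : F → F,
      ContDiff ℝ ∞ ψ → ContDiff ℝ ∞ φ → (∀ y, ψ (φ y) = y) →
      (∀ x, ‖fderiv ℝ ψ x - 1‖ ≤ 1 / 2) →
      (∀ x, ∀ j, 1 ≤ j → j ≤ K → ‖iteratedFDeriv ℝ j ψ x‖ ≤ B) →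
      ∀ y, ∀ j, 1 ≤ j → j ≤ L → ‖iteratedFDeriv ℝ j φ y‖ ≤ C ^ j from h K le_rfl
  intro L
  induction L with
  | zero => intro _; exact ⟨1, le_rfl, fun ψ φ _ _ _ _ _ y j h1 h2 => by omega⟩
  | succ L ih =>
    intro hL
    obtain ⟨D, hD, hDb⟩ := ih (by omega)
    refine ⟨max D (L.factorial * C0 * D ^ L), hD.trans (le_max_left _ _), ?_⟩
    intro ψ φ hψ hφ hinv h1 h2 y j hj hj'
    have hmax1 : 1 ≤ max D (L.factorial * C0 * D ^ L) := hD.trans (le_max_left _ _)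
    rcases Nat.lt_or_ge j (L + 1) with hlt | hge
    · refine (hDb ψ φ hψ hφ hinv h1 h2 y j hj (by omega)).trans ?_
      exact pow_le_pow_left₀ (by linarith) (le_max_left _ _) j
    · have hj2 : j = L + 1 := by omega
      subst hj2
      -- fderiv φ = ivL ∘ fderiv ψ ∘ φ
      have hdψ : ContDiff ℝ ∞ (fderiv ℝ ψ) := hψ.fderiv_right (by simp)
      have hNB : ∀ x, ∀ i, 1 ≤ i → i ≤ L → ‖iteratedFDeriv ℝ i (fderiv ℝ ψ) x‖ ≤ B := by
        intro x i hi hi'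
        rw [norm_iteratedFDeriv_fderiv]
        exact h2 x (i + 1) (by omega) (by omega)
      have hG : ContDiff ℝ ∞ (fun x => ivL (fderiv ℝ ψ x)) ∧
          ∀ x, ∀ i ≤ L, ‖iteratedFDeriv ℝ i (fun x => ivL (fderiv ℝ ψ x)) x‖ ≤ C0 :=
        hC L (by omega) (fderiv ℝ ψ) hdψ h1 hNB
      have hfd : fderiv ℝ φ = fun y => ivL (fderiv ℝ ψ (φ y)) := by
        funext y
        have hc : HasFDerivAt (fun y => ψ (φ y)) ((fderiv ℝ ψ (φ y)) ∘L (fderiv ℝ φ y)) y :=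
          ((hψ.differentiable (by simp)) (φ y)).hasFDerivAt.comp y
            ((hφ.differentiable (by simp)) y).hasFDerivAt
        have hid : HasFDerivAt (fun y => ψ (φ y)) (ContinuousLinearMap.id ℝ F) y := by
          have : (fun y => ψ (φ y)) = fun y => y := funext hinv
          rw [this]; exact hasFDerivAt_id y
        have he : (fderiv ℝ ψ (φ y)) * (fderiv ℝ φ y) = 1 := hc.unique hid
        have hu : IsUnit (fderiv ℝ ψ (φ y)) := isUnit_of_near ((h1 _).trans_lt (by norm_num))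
        have h3 : Ring.inverse (fderiv ℝ ψ (φ y)) * (fderiv ℝ ψ (φ y) * fderiv ℝ φ y) =
            fderiv ℝ φ y := Ring.inverse_mul_cancel_left _ _ hu
        rw [he, mul_one] at h3
        exact h3.symm
      rw [← norm_iteratedFDeriv_fderiv, hfd]
      have h := norm_iteratedFDeriv_comp_le (𝕜 := ℝ) (g := fun x => ivL (fderiv ℝ ψ x)) (f := φ)
        (n := L) (N := ∞) hG.1 hφ (by exact_mod_cast le_top) y (C := C0) (D := D)
        (fun i hi => hG.2 _ i hi) (fun i hi hi' => hDb ψ φ hψ hφ hinv h1 h2 y i hi hi')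
      refine h.trans ((le_max_right D _).trans ?_)
      exact le_self_pow₀ hmax1 (by omega)

/-- smooth small perturbations of the identity are invertible, with smooth inverse -/
theorem exists_inv {ψ : F → F} (hψ : ContDiff ℝ ∞ ψ) (h1 : ∀ x, ‖fderiv ℝ ψ x - 1‖ ≤ 1 / 2) :
    ∃ φ : F → F, ContDiff ℝ ∞ φ ∧ (∀ y, ψ (φ y) = y) ∧ (∀ x, φ (ψ x) = x) := by
  have hd : Differentiable ℝ ψ := hψ.differentiable (by simp)
  have hap : ApproximatesLinearOn ψ (ContinuousLinearEquiv.refl ℝ F : F →L[ℝ] F) univ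
      (1 / 2 : ℝ≥0) := by
    intro x _ y _
    have h := Convex.norm_image_sub_le_of_norm_hasFDerivWithin_le (𝕜 := ℝ)
      (f := fun z => ψ z - z) (f' := fun z => fderiv ℝ ψ z - 1) (s := univ) (C := 1 / 2)
      (fun z _ => ((hd z).hasFDerivAt.sub (hasFDerivAt_id z)).hasFDerivWithinAt)
      (fun z _ => h1 z) convex_univ (mem_univ y) (mem_univ x)
    have e : ψ x - ψ y - (ContinuousLinearEquiv.refl ℝ F : F →L[ℝ] F) (x - y) =
        (ψ x - x) - (ψ y - y) := by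
      simp only [ContinuousLinearEquiv.coe_refl, ContinuousLinearMap.coe_id', id_eq]; abel
    rw [e]
    simpa using h
  have hc : Subsingleton F ∨ (1 / 2 : ℝ≥0) <
      ‖((ContinuousLinearEquiv.refl ℝ F).symm : F →L[ℝ] F)‖₊⁻¹ := by
    rcases subsingleton_or_nontrivial F with h | h
    · exact Or.inl h
    · right
      have : ‖((ContinuousLinearEquiv.refl ℝ F).symm : F →L[ℝ] F)‖₊ = 1 := by
        have h2 : ‖((ContinuousLinearEquiv.refl ℝ F).symm : F →L[ℝ] F)‖ = 1 :=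
          ContinuousLinearMap.norm_id
        exact NNReal.eq h2
      rw [this, inv_one]
      exact NNReal.half_lt_self one_ne_zero
  let e : F ≃ₜ F := hap.toHomeomorph ψ hc
  have he : ∀ x, e x = ψ x := fun x => rfl
  have hfd : ∀ a, ∃ A : F ≃L[ℝ] F, HasFDerivAt ψ (A : F →L[ℝ] F) a := by
    intro a
    obtain ⟨u, hu⟩ := isUnit_of_near ((h1 a).trans_lt (by norm_num))
    refine ⟨ContinuousLinearEquiv.unitsEquiv ℝ F u, ?_⟩
    have : ((ContinuousLinearEquiv.unitsEquiv ℝ F u : F ≃L[ℝ] F) : F →L[ℝ] F) =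
        fderiv ℝ ψ a := by
      rw [← hu]; rfl
    rw [this]
    exact (hd a).hasFDerivAt
  choose A hA using hfd
  refine ⟨e.symm, ?_, ?_, ?_⟩
  · exact e.contDiff_symm (f₀' := A) hA hψ
  · intro y; rw [← he]; exact e.apply_symm_apply y
  · intro x; rw [← he]; exact e.symm_apply_apply x

end Crest.Agent.R234.Grot_842
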