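import Crest.Agent.R234.Grot2_842

/-!
# Row 234, node GROT (helper842), part 3: cut-off with bounds
-/

set_option autoImplicit false
set_option linter.unusedSectionVars false

open Set Metric Filter Topology
open scoped ContDiff NNReal

noncomputable section

namespace Crest.Agent.R234.Grot_842

variable {F V : Type} [NormedAddCommGroup F] [InnerProductSpace ℝ F] [FiniteDimensional ℝ F]
  [NormedAddCommGroup V] [NormedSpace ℝ V]

/-- **cut-off**: one function `χ` for all `v`. -/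
theorem exists_cut (F : Type) [NormedAddCommGroup F] [InnerProductSpace ℝ F] [FiniteDimensional ℝ F]
    (a : ℝ) (ha : 0 < a) (ha1 : a < 1) : ∃ χ : F → ℝ, ContDiff ℝ ∞ χ ∧
      (∀ x ∈ closedBall (0 : F) a, χ x = 1) ∧ tsupport χ ⊆ ball 0 1 ∧ (∀ x, 0 ≤ χ x) ∧
      (∀ x, χ x ≤ 1) ∧ HasCompactSupport χ ∧
      ∀ K : ℕ, ∃ C : ℝ, 1 ≤ C ∧ ∀ i ≤ K, ∀ x, ‖iteratedFDeriv ℝ i χ x‖ ≤ C := by
  let f : ContDiffBump (0 : F) := ⟨a, (a + 1) / 2, ha, by linarith⟩
  have hcs : HasCompactSupport (f : F → ℝ) := f.hasCompactSupport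
  have hf : ContDiff ℝ ∞ (f : F → ℝ) := f.contDiff
  refine ⟨f, hf, ?_, ?_, fun x => f.nonneg, fun x => f.le_one, hcs, ?_⟩
  · intro x hx; exact f.one_of_mem_closedBall hx
  · rw [f.tsupport_eq]
    exact closedBall_subset_ball (by show (a + 1) / 2 < 1; linarith)
  · intro K
    have hc : ∀ i : ℕ, ∃ C : ℝ, ∀ x, ‖iteratedFDeriv ℝ i f x‖ ≤ C := by
      intro i
      have h1 : Continuous (iteratedFDeriv ℝ i f) :=
        hf.continuous_iteratedFDeriv (by exact_mod_cast le_top)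
      exact (hcs.iteratedFDeriv i).exists_bound_of_continuous h1
    choose C hC using hc
    refine ⟨1 + ∑ i ∈ Finset.range (K + 1), |C i|, ?_, ?_⟩
    · have : 0 ≤ ∑ i ∈ Finset.range (K + 1), |C i| := Finset.sum_nonneg fun _ _ => abs_nonneg _
      linarith
    · intro i hi x
      have h1 : |C i| ≤ ∑ i ∈ Finset.range (K + 1), |C i| :=
        Finset.single_le_sum (f := fun i => |C i|) (fun _ _ => abs_nonneg _)
          (Finset.mem_range.2 (by omega))
      linarith [hC i x, le_abs_self (C i)]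

theorem cut_smooth {χ : F → ℝ} (hχ : ContDiff ℝ ∞ χ) (hs : tsupport χ ⊆ ball 0 1) {v : F → V}
    (hv : ContDiffOn ℝ ∞ v (ball 0 1)) : ContDiff ℝ ∞ (fun x => χ x • v x) := by
  rw [contDiff_iff_contDiffAt]
  intro x
  by_cases hx : x ∈ ball (0 : F) 1
  · exact hχ.contDiffAt.smul (hv.contDiffAt (isOpen_ball.mem_nhds hx))
  · have hx' : x ∉ tsupport χ := fun h => hx (hs h)
    have h1 : (fun x => χ x • v x) =ᶠ[𝓝 x] fun _ => 0 := by
      filter_upwards [(isClosed_tsupport χ).isOpen_compl.mem_nhds hx'] with y hy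
      rw [image_eq_zero_of_notMem_tsupport hy, zero_smul]
    exact (contDiffAt_const (c := (0 : V))).congr_of_eventuallyEq h1

theorem cut_bound {χ : F → ℝ} (hχ : ContDiff ℝ ∞ χ) (hs : tsupport χ ⊆ ball 0 1) {K : ℕ} {C : ℝ}
    (hC : 1 ≤ C) (hb : ∀ i ≤ K, ∀ x, ‖iteratedFDeriv ℝ i χ x‖ ≤ C) {v : F → V} {κ : ℝ} (hκ : 0 ≤ κ)
    (hv : ContDiffOn ℝ ∞ v (ball 0 1))
    (hvb : ∀ i ≤ K, ∀ x ∈ ball (0 : F) 1, ‖iteratedFDeriv ℝ i v x‖ ≤ κ) :
    ∀ i ≤ K, ∀ x, ‖iteratedFDeriv ℝ i (fun x => χ x • v x) x‖ ≤ 2 ^ K * C * κ := by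
  intro i hi x
  by_cases hx : x ∈ ball (0 : F) 1
  · have h := norm_iteratedFDerivWithin_smul_le (𝕜 := ℝ) (f := χ) (g := v) (s := ball (0 : F) 1)
      (N := ∞) hχ.contDiffOn hv isOpen_ball.uniqueDiffOn hx (n := i) (by exact_mod_cast le_top)
    rw [iteratedFDerivWithin_of_isOpen i isOpen_ball hx] at h
    refine h.trans ?_
    have h1 : ∑ j ∈ Finset.range (i + 1), (i.choose j : ℝ) *
        ‖iteratedFDerivWithin ℝ j χ (ball (0 : F) 1) x‖ *
          ‖iteratedFDerivWithin ℝ (i - j) v (ball (0 : F) 1) x‖ ≤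
        ∑ j ∈ Finset.range (i + 1), (i.choose j : ℝ) * (C * κ) := by
      refine Finset.sum_le_sum fun j hj => ?_
      rw [Finset.mem_range] at hj
      rw [iteratedFDerivWithin_of_isOpen j isOpen_ball hx,
        iteratedFDerivWithin_of_isOpen (i - j) isOpen_ball hx, mul_assoc]
      have h2 := hb j (by omega) x
      have h3 := hvb (i - j) (by omega) x hx
      gcongr
    refine h1.trans ?_
    rw [← Finset.sum_mul]
    have h4 : ∑ j ∈ Finset.range (i + 1), (i.choose j : ℝ) = 2 ^ i := by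
      exact_mod_cast Nat.sum_range_choose i
    rw [h4, mul_assoc]
    have h5 : (2:ℝ) ^ i ≤ 2 ^ K := pow_le_pow_right₀ (by norm_num) hi
    gcongr
  · have hx' : x ∉ tsupport χ := fun h => hx (hs h)
    have h1 : (fun x => χ x • v x) =ᶠ[𝓝 x] fun _ => 0 := by
      filter_upwards [(isClosed_tsupport χ).isOpen_compl.mem_nhds hx'] with y hy
      rw [image_eq_zero_of_notMem_tsupport hy, zero_smul]
    have h2 : iteratedFDeriv ℝ i (fun x => χ x • v x) x = 0 := by
      rw [(h1.iteratedFDeriv ℝ i).eq_of_nhds]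
      simp
    rw [h2, norm_zero]
    positivity

end Crest.Agent.R234.Grot_842
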