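import Crest.Agent.R234.Grot1_842
import Crest.Agent.R234.Grot3_842

/-!
# Row 234, node GROT (helper842), part 4: the rotated graph, model form

`Rt q H H'` : `H = (1 + qᵀq)^(-1/2)`, `H' = (1 + q qᵀ)^(-1/2)`.
For `v : F → V` (graph over the old plane, `v 0 = 0`, `Dv 0 = q`) the new coordinates of the point
`(a, b)` are `(H (a + qᵀ b), H' (b - q a))`. `rot_graph`: the graph of `v` is the graph of a smooth
function `w` with `w 0 = 0`, `Dw 0 = 0`, `‖D^j w‖ ≤ C κ`.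
-/

set_option autoImplicit false
set_option linter.unusedSectionVars false

open Set Metric Filter Topology
open scoped ContDiff NNReal RealInnerProductSpace

noncomputable section

namespace Crest.Agent.R234.Grot_842

open Crest.Agent.R234.Ell1_3

variable {F V : Type} [NormedAddCommGroup F] [InnerProductSpace ℝ F] [FiniteDimensional ℝ F]
  [NormedAddCommGroup V] [InnerProductSpace ℝ V] [FiniteDimensional ℝ V]

theorem norm_iter_clm {E G : Type} [NormedAddCommGroup E] [NormedSpace ℝ E] [NormedAddCommGroup G]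
    [NormedSpace ℝ G] (A : E →L[ℝ] G) (x : E) {j : ℕ} (hj : 1 ≤ j) :
    ‖iteratedFDeriv ℝ j A x‖ ≤ ‖A‖ := by
  obtain ⟨i, rfl⟩ : ∃ i, j = i + 1 := ⟨j - 1, by omega⟩
  rw [← norm_iteratedFDeriv_fderiv]
  have h : fderiv ℝ (A : E → G) = fun _ => A := by funext y; exact A.fderiv
  rw [h]
  rcases Nat.eq_zero_or_pos i with hi | hi
  · subst hi; rw [norm_iteratedFDeriv_zero]
  · rw [iteratedFDeriv_const_of_ne (by omega)]
    simp

/-- composition bound for `n ≥ 1` without the zeroth derivative -/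
theorem comp_bound {E G W : Type} [NormedAddCommGroup E] [NormedSpace ℝ E] [NormedAddCommGroup G]
    [NormedSpace ℝ G] [NormedAddCommGroup W] [NormedSpace ℝ W] {g : G → W} {f : E → G}
    (hg : ContDiff ℝ ∞ g) (hf : ContDiff ℝ ∞ f) {n : ℕ} (hn : 1 ≤ n) (x : E) {C D : ℝ}
    (hC0 : 0 ≤ C) (hC : ∀ i, 1 ≤ i → i ≤ n → ‖iteratedFDeriv ℝ i g (f x)‖ ≤ C)
    (hD : ∀ i, 1 ≤ i → i ≤ n → ‖iteratedFDeriv ℝ i f x‖ ≤ D ^ i) :
    ‖iteratedFDeriv ℝ n (fun y => g (f y)) x‖ ≤ n.factorial * C * D ^ n := by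
  set c := g (f x) with hc
  have hg' : ContDiff ℝ ∞ (fun z => g z - c) := hg.sub contDiff_const
  have hit : ∀ i, 1 ≤ i → ∀ z, iteratedFDeriv ℝ i (fun z => g z - c) z = iteratedFDeriv ℝ i g z := by
    intro i hi z
    have h1 := iteratedFDeriv_sub_apply (𝕜 := ℝ) (i := i) (f := g) (g := fun _ => c) (x := z)
      (hg.contDiffAt.of_le (by exact_mod_cast le_top)) contDiffAt_const
    have h2 : iteratedFDeriv ℝ i (fun z => g z - c) z =
        iteratedFDeriv ℝ i g z - iteratedFDeriv ℝ i (fun _ : G => c) z := h1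
    rw [h2, iteratedFDeriv_const_of_ne (by omega)]
    simp
  have h := norm_iteratedFDeriv_comp_le (𝕜 := ℝ) (g := fun z => g z - c) (f := f) (n := n)
    (N := ∞) hg' hf (by exact_mod_cast le_top) x (C := C) (D := D) ?_ hD
  · have e : iteratedFDeriv ℝ n ((fun z => g z - c) ∘ f) x =
        iteratedFDeriv ℝ n (fun y => g (f y)) x := by
      have h1 := iteratedFDeriv_sub_apply (𝕜 := ℝ) (i := n) (f := fun y => g (f y))
        (g := fun _ => c) (x := x)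
        ((hg.comp hf).contDiffAt.of_le (by exact_mod_cast le_top)) contDiffAt_const
      have h2 : iteratedFDeriv ℝ n ((fun z => g z - c) ∘ f) x =
          iteratedFDeriv ℝ n (fun y => g (f y)) x - iteratedFDeriv ℝ n (fun _ : E => c) x := h1
      rw [h2, iteratedFDeriv_const_of_ne (by omega)]
      simp
    rwa [e] at h
  · intro i hi
    rcases Nat.eq_zero_or_pos i with h0 | h0
    · subst h0
      rw [norm_iteratedFDeriv_zero, hc, sub_self, norm_zero]; exact hC0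
    · rw [hit i h0]; exact hC i h0 hi

/-- the two inverse square roots -/
structure Rt (q : F →L[ℝ] V) (H : F →L[ℝ] F) (H' : V →L[ℝ] V) : Prop where
  sym : ∀ x y, ⟪H x, y⟫ = ⟪x, H y⟫
  sym' : ∀ x y, ⟪H' x, y⟫ = ⟪x, H' y⟫
  inv : ∀ x, H (gop q (H x)) = x
  inv' : ∀ x, H' (gop (ContinuousLinearMap.adjoint q) (H' x)) = x
  gop_sq : ∀ x, gop q (H (H x)) = x
  gop_sq' : ∀ x, gop (ContinuousLinearMap.adjoint q) (H' (H' x)) = x
  near : ∀ x, ‖H x - x‖ ≤ ‖q‖ ^ 2 * ‖x‖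
  near' : ∀ x, ‖H' x - x‖ ≤ ‖q‖ ^ 2 * ‖x‖
  le : ∀ x, ‖H x‖ ≤ ‖x‖
  le' : ∀ x, ‖H' x‖ ≤ ‖x‖

theorem exists_Rt_half (q : F →L[ℝ] V) : ∃ H : F →L[ℝ] F, (∀ x y, ⟪H x, y⟫ = ⟪x, H y⟫) ∧
    (∀ x, H (gop q (H x)) = x) ∧ (∀ x, gop q (H (H x)) = x) ∧
    (∀ x, ‖H x - x‖ ≤ ‖q‖ ^ 2 * ‖x‖) ∧ (∀ x, ‖H x‖ ≤ ‖x‖) := by
  set T : F →L[ℝ] F := ContinuousLinearMap.adjoint q ∘L q with hT
  have hin : ∀ x y, ⟪T x, y⟫ = ⟪q x, q y⟫ := fun x y => by
    rw [hT, ContinuousLinearMap.comp_apply, ContinuousLinearMap.adjoint_inner_left]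
  have hin' : ∀ x y, ⟪x, T y⟫ = ⟪q x, q y⟫ := fun x y => by
    rw [hT, ContinuousLinearMap.comp_apply, ContinuousLinearMap.adjoint_inner_right]
  obtain ⟨H, h1, h2, _, h4, h5, h6, _⟩ := exists_isqrt T (fun x y => by rw [hin, hin'])
    (fun x => by rw [hin]; exact real_inner_self_nonneg)
  have hTn : ‖T‖ ≤ ‖q‖ ^ 2 := by
    rw [sq]
    refine (ContinuousLinearMap.opNorm_comp_le _ _).trans ?_
    rw [LinearIsometryEquiv.norm_map]
  have hg : ∀ x, gop q x = x + T x := fun x => by simp [gop, hT]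
  refine ⟨H, h1, ?_, ?_, ?_, h6⟩
  · intro x; rw [hg]; exact h2 x
  · intro x; rw [hg]; exact h4 x
  · intro x
    exact (h5 x).trans (mul_le_mul_of_nonneg_right hTn (norm_nonneg _))

theorem exists_Rt (q : F →L[ℝ] V) : ∃ H H', Rt q H H' := by
  obtain ⟨H, a1, a2, a3, a4, a5⟩ := exists_Rt_half q
  obtain ⟨H', b1, b2, b3, b4, b5⟩ := exists_Rt_half (ContinuousLinearMap.adjoint q)
  rw [LinearIsometryEquiv.norm_map] at b4
  exact ⟨H, H', a1, b1, a2, b2, a3, b3, a4, b4, a5, b5⟩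

namespace Rt

variable {q : F →L[ℝ] V} {H : F →L[ℝ] F} {H' : V →L[ℝ] V} (h : Rt q H H')
include h

theorem norm_le : ‖H‖ ≤ 1 := H.opNorm_le_bound zero_le_one fun x => by simpa using h.le x

theorem norm_le' : ‖H'‖ ≤ 1 := H'.opNorm_le_bound zero_le_one fun x => by simpa using h.le' x

theorem norm_sub : ‖H - 1‖ ≤ ‖q‖ ^ 2 :=
  (H - 1).opNorm_le_bound (by positivity) fun x => by simpa using h.near x

theorem norm_sub' : ‖H' - 1‖ ≤ ‖q‖ ^ 2 :=
  (H' - 1).opNorm_le_bound (by positivity) fun x => by simpa using h.near' x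

/-- `qᵀ H'² = H² qᵀ` -/
theorem comm' (y : V) : ContinuousLinearMap.adjoint q (H' (H' y)) =
    H (H (ContinuousLinearMap.adjoint q y)) := by
  apply gop_injective q
  rw [h.gop_sq]
  have h1 := congrArg (ContinuousLinearMap.adjoint q) (h.gop_sq' y)
  simp only [gop, add_apply, ContinuousLinearMap.id_apply,
    ContinuousLinearMap.comp_apply, ContinuousLinearMap.adjoint_adjoint, map_add] at h1 ⊢
  exact h1

/-- `q H² = H'² q` -/
theorem comm (x : F) : q (H (H x)) = H' (H' (q x)) := by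
  apply gop_injective (ContinuousLinearMap.adjoint q)
  rw [h.gop_sq']
  have h1 := congrArg q (h.gop_sq x)
  simp only [gop, add_apply, ContinuousLinearMap.id_apply,
    ContinuousLinearMap.comp_apply, ContinuousLinearMap.adjoint_adjoint, map_add] at h1 ⊢
  exact h1

end Rt

/-- the rotated graph of a globally defined `v` with small derivatives -/
theorem rot_core (F V : Type) [NormedAddCommGroup F] [InnerProductSpace ℝ F]
    [FiniteDimensional ℝ F] [NormedAddCommGroup V] [InnerProductSpace ℝ V] [FiniteDimensional ℝ V]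
    (K : ℕ) : ∃ C : ℝ, 1 ≤ C ∧ ∀ (v : F → V) (q : F →L[ℝ] V) (H : F →L[ℝ] F) (H' : V →L[ℝ] V)
      (κ : ℝ), 0 ≤ κ → κ ≤ 1 / 2 → ContDiff ℝ ∞ v → v 0 = 0 → fderiv ℝ v 0 = q → Rt q H H' →
      (∀ j, 1 ≤ j → j ≤ K + 1 → ∀ x, ‖iteratedFDeriv ℝ j v x‖ ≤ κ) →
      ∃ (φ : F → F), ContDiff ℝ ∞ φ ∧
        (∀ y, H (φ y + ContinuousLinearMap.adjoint q (v (φ y))) = y) ∧
        (∀ x, φ (H (x + ContinuousLinearMap.adjoint q (v x))) = x) ∧ φ 0 = 0 ∧
        (∀ y, ‖φ y‖ ≤ 2 * ‖y‖) ∧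
        ContDiff ℝ ∞ (fun y => H' (v (φ y) - q (φ y))) ∧
        fderiv ℝ (fun y => H' (v (φ y) - q (φ y))) 0 = 0 ∧
        (∀ j, 1 ≤ j → j ≤ K + 1 → ∀ y, ‖iteratedFDeriv ℝ j (fun y => H' (v (φ y) - q (φ y))) y‖ ≤
          C * κ) ∧
        (∀ y, ‖H' (v (φ y) - q (φ y))‖ ≤ 4 * κ * ‖y‖) := by
  obtain ⟨C0, hC0, hC⟩ := inv_bound (F := F) (K + 1) 2 (by norm_num)
  refine ⟨(K + 1).factorial * 2 * C0 ^ (K + 1), ?_, ?_⟩
  · have h1 : (1 : ℝ) ≤ (K + 1).factorial := by exact_mod_cast (K + 1).factorial_pos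
    have h2 : (1 : ℝ) ≤ C0 ^ (K + 1) := one_le_pow₀ hC0
    calc (1:ℝ) ≤ 1 * 2 * 1 := by norm_num
      _ ≤ _ := by gcongr
  intro v q H H' κ hκ0 hκ hv hv0 hq hR hb
  set qa := ContinuousLinearMap.adjoint q with hqa
  have hdv : Differentiable ℝ v := hv.differentiable (by simp)
  have hfd : ∀ x, ‖fderiv ℝ v x‖ ≤ κ := fun x => by
    have h := hb 1 le_rfl (by omega) x
    rwa [← norm_iteratedFDeriv_fderiv, norm_iteratedFDeriv_zero] at h
  have hqκ : ‖q‖ ≤ κ := by rw [← hq]; exact hfd 0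
  have hqaκ : ‖qa‖ ≤ κ := by rw [hqa, LinearIsometryEquiv.norm_map]; exact hqκ
  set ψ : F → F := fun x => H (x + qa (v x)) with hψd
  have hψ : ContDiff ℝ ∞ ψ := H.contDiff.comp (contDiff_id.add (qa.contDiff.comp hv))
  have hψD : ∀ x, HasFDerivAt ψ (H ∘L (ContinuousLinearMap.id ℝ F + qa ∘L fderiv ℝ v x)) x := by
    intro x
    exact H.hasFDerivAt.comp x ((hasFDerivAt_id x).add (qa.hasFDerivAt.comp x (hdv x).hasFDerivAt))
  have hH1 := hR.norm_le
  have hH2 := hR.norm_sub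
  have hnear : ∀ x, ‖fderiv ℝ ψ x - 1‖ ≤ 1 / 2 := by
    intro x
    rw [(hψD x).fderiv]
    have e : H ∘L (ContinuousLinearMap.id ℝ F + qa ∘L fderiv ℝ v x) - 1 =
        (H - 1) + (H ∘L (qa ∘L fderiv ℝ v x)) := by
      ext y; simp; abel
    rw [e]
    have h1 : ‖H ∘L (qa ∘L fderiv ℝ v x)‖ ≤ 1 * (κ * κ) := by
      refine (ContinuousLinearMap.opNorm_comp_le _ _).trans ?_
      have := (ContinuousLinearMap.opNorm_comp_le qa (fderiv ℝ v x)).trans
        (mul_le_mul hqaκ (hfd x) (norm_nonneg _) hκ0)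
      gcongr
    calc ‖(H - 1) + (H ∘L (qa ∘L fderiv ℝ v x))‖ ≤ ‖q‖ ^ 2 + 1 * (κ * κ) :=
          (norm_add_le _ _).trans (add_le_add hH2 h1)
      _ ≤ κ ^ 2 + 1 * (κ * κ) := by gcongr
      _ ≤ 1 / 2 := by nlinarith
  have hψb : ∀ x, ∀ j, 1 ≤ j → j ≤ K + 1 → ‖iteratedFDeriv ℝ j ψ x‖ ≤ 2 := by
    intro x j hj hj'
    have e : ψ = fun x => H x + (H ∘L qa) (v x) := by
      funext x; simp [hψd]
    have h1 : iteratedFDeriv ℝ j ψ x = iteratedFDeriv ℝ j H x +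
        iteratedFDeriv ℝ j (fun x => (H ∘L qa) (v x)) x := by
      rw [e]
      exact iteratedFDeriv_add_apply (f := fun x => H x) (g := fun x => (H ∘L qa) (v x))
        (H.contDiff.contDiffAt) (((H ∘L qa).contDiff.comp hv).contDiffAt.of_le (by exact_mod_cast le_top))
    rw [h1]
    have h2 := norm_iter_clm H x hj
    have h3 : ‖iteratedFDeriv ℝ j (fun x => (H ∘L qa) (v x)) x‖ ≤ 1 * κ * κ := by
      have h4 := (H ∘L qa).norm_iteratedFDeriv_comp_left (f := v) (x := x) (N := ∞) (n := j)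
        hv.contDiffAt (by exact_mod_cast le_top)
      refine h4.trans ?_
      have h5 : ‖H ∘L qa‖ ≤ 1 * κ := (ContinuousLinearMap.opNorm_comp_le _ _).trans (by gcongr)
      have h6 := hb j hj hj' x
      gcongr
    calc ‖iteratedFDeriv ℝ j H x + iteratedFDeriv ℝ j (fun x => (H ∘L qa) (v x)) x‖
        ≤ 1 + 1 * κ * κ := (norm_add_le _ _).trans (add_le_add (h2.trans hH1) h3)
      _ ≤ 2 := by nlinarith
  obtain ⟨φ, hφ, h1, h2⟩ := exists_inv hψ hnear
  have hφb := hC ψ φ hψ hφ h1 hnear hψb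
  have hφ0 : φ 0 = 0 := by
    have h3 := h2 0
    have h4 : ψ 0 = 0 := by simp [hψd, hv0]
    rwa [h4] at h3
  have hψlow : ∀ x y, ‖x - y‖ ≤ 2 * ‖ψ x - ψ y‖ := by
    intro x y
    have h := Convex.norm_image_sub_le_of_norm_hasFDerivWithin_le (𝕜 := ℝ)
      (f := fun z => ψ z - z) (f' := fun z => fderiv ℝ ψ z - 1) (s := univ) (C := 1 / 2)
      (fun z _ => (((hψ.differentiable (by simp)) z).hasFDerivAt.sub
        (hasFDerivAt_id z)).hasFDerivWithinAt)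
      (fun z _ => hnear z) convex_univ (mem_univ y) (mem_univ x)
    have e : x - y = (ψ x - ψ y) - ((ψ x - x) - (ψ y - y)) := by abel
    have h3 : ‖x - y‖ ≤ ‖ψ x - ψ y‖ + 1 / 2 * ‖x - y‖ := by
      nth_rewrite 1 [e]
      exact (norm_sub_le _ _).trans (by gcongr)
    linarith
  have hφn : ∀ y, ‖φ y‖ ≤ 2 * ‖y‖ := by
    intro y
    have h3 := hψlow (φ y) 0
    have h4 : ψ 0 = 0 := by simp [hψd, hv0]
    rw [h1, h4, sub_zero, sub_zero] at h3
    exact h3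
  -- the function η
  set η : F → V := fun x => H' (v x - q x) with hη
  have hηs : ContDiff ℝ ∞ η := H'.contDiff.comp (hv.sub q.contDiff)
  have hH1' := hR.norm_le'
  have hηD : ∀ x, HasFDerivAt η (H' ∘L (fderiv ℝ v x - q)) x := fun x =>
    H'.hasFDerivAt.comp x ((hdv x).hasFDerivAt.sub q.hasFDerivAt)
  have hηb : ∀ x, ∀ j, 1 ≤ j → j ≤ K + 1 → ‖iteratedFDeriv ℝ j η x‖ ≤ 2 * κ := by
    intro x j hj hj'
    have h3 : iteratedFDeriv ℝ j (fun x => v x - q x) x = iteratedFDeriv ℝ j v x -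
        iteratedFDeriv ℝ j q x :=
      iteratedFDeriv_sub_apply (f := v) (g := fun x => q x)
        (hv.contDiffAt.of_le (by exact_mod_cast le_top)) q.contDiff.contDiffAt
    have h4 := H'.norm_iteratedFDeriv_comp_left (f := fun x => v x - q x) (x := x) (N := ∞) (n := j)
      (hv.sub q.contDiff).contDiffAt (by exact_mod_cast le_top)
    have h5 : ‖iteratedFDeriv ℝ j (fun x => v x - q x) x‖ ≤ 2 * κ := by
      rw [h3]
      have := norm_iter_clm q x hj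
      have := hb j hj hj' x
      calc _ ≤ ‖iteratedFDeriv ℝ j v x‖ + ‖iteratedFDeriv ℝ j q x‖ := norm_sub_le _ _
        _ ≤ 2 * κ := by linarith
    calc ‖iteratedFDeriv ℝ j η x‖ ≤ ‖H'‖ * ‖iteratedFDeriv ℝ j (fun x => v x - q x) x‖ := h4
      _ ≤ 1 * (2 * κ) := by gcongr
      _ = 2 * κ := one_mul _
  have hη0 : η 0 = 0 := by simp [hη, hv0]
  have hηn : ∀ x, ‖η x‖ ≤ 2 * κ * ‖x‖ := by
    intro x
    have h := Convex.norm_image_sub_le_of_norm_hasFDerivWithin_le (𝕜 := ℝ)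
      (f := η) (f' := fun z => H' ∘L (fderiv ℝ v z - q)) (s := univ) (C := 2 * κ)
      (fun z _ => (hηD z).hasFDerivWithinAt) (fun z _ => ?_) convex_univ (mem_univ 0) (mem_univ x)
    · rwa [hη0, sub_zero, sub_zero] at h
    · refine (ContinuousLinearMap.opNorm_comp_le _ _).trans ?_
      have h3 : ‖fderiv ℝ v z - q‖ ≤ κ + κ := (norm_sub_le _ _).trans (add_le_add (hfd z) hqκ)
      calc ‖H'‖ * ‖fderiv ℝ v z - q‖ ≤ 1 * (κ + κ) := by gcongr
        _ = 2 * κ := by ring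
  refine ⟨φ, hφ, h1, h2, hφ0, hφn, hηs.comp hφ, ?_, ?_, ?_⟩
  · have h3 : HasFDerivAt (fun y => η (φ y)) ((H' ∘L (fderiv ℝ v (φ 0) - q)) ∘L (fderiv ℝ φ 0)) 0 :=
      (hηD (φ 0)).comp 0 ((hφ.differentiable (by simp)) 0).hasFDerivAt
    rw [hφ0, hq, sub_self] at h3
    rw [h3.fderiv]
    ext; simp
  · intro j hj hj' y
    have h3 := comp_bound (g := η) (f := φ) hηs hφ hj y (C := 2 * κ) (D := C0) (by positivity)
      (fun i hi hi' => hηb _ i hi (by omega)) (fun i hi hi' => hφb y i hi (by omega))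
    refine h3.trans ?_
    have h4 : (j.factorial : ℝ) ≤ (K + 1).factorial := by exact_mod_cast Nat.factorial_le hj'
    have h5 : C0 ^ j ≤ C0 ^ (K + 1) := pow_le_pow_right₀ hC0 hj'
    calc (j.factorial : ℝ) * (2 * κ) * C0 ^ j ≤ (K + 1).factorial * (2 * κ) * C0 ^ (K + 1) := by
          gcongr
      _ = _ := by ring
  · intro y
    calc ‖η (φ y)‖ ≤ 2 * κ * ‖φ y‖ := hηn _
      _ ≤ 2 * κ * (2 * ‖y‖) := by gcongr; exact hφn y
      _ = 4 * κ * ‖y‖ := by ring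

end Crest.Agent.R234.Grot_842
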