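import Crest.Agent.R234.Grot4_842
import Crest.Agent.R234.Main2_456

/-!
# Row 234, node GROT (helper842), part 5: the rotated frame and invariance of the minimal system
-/

set_option autoImplicit false
set_option linter.unusedSectionVars false

open Set Metric Filter Topology
open scoped ContDiff NNReal RealInnerProductSpace
open Crest.GeometryTopology.Submanifold

noncomputable section

namespace Crest.Agent.R234.Grot_842

open Crest.Agent.R234.Ell1_3 Crest.Agent.R234.Main_456

variable {F V : Type} [NormedAddCommGroup F] [InnerProductSpace ℝ F] [FiniteDimensional ℝ F]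
  [NormedAddCommGroup V] [InnerProductSpace ℝ V] [FiniteDimensional ℝ V]

namespace Rt

variable {q : F →L[ℝ] V} {H : F →L[ℝ] F} {H' : V →L[ℝ] V} (h : Rt q H H')
include h

theorem sq_gop (a : F) : H (H (gop q a)) = a := by
  apply gop_injective q
  rw [h.gop_sq]

theorem sq_gop' (b : V) : H' (H' (gop (ContinuousLinearMap.adjoint q) b)) = b := by
  apply gop_injective (ContinuousLinearMap.adjoint q)
  rw [h.gop_sq']

theorem key1 (a : F) (b : V) : H (H (a + ContinuousLinearMap.adjoint q b)) -
    ContinuousLinearMap.adjoint q (H' (H' (b - q a))) = a := by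
  rw [h.comm']
  have e : H (H (a + ContinuousLinearMap.adjoint q b)) -
      H (H (ContinuousLinearMap.adjoint q (b - q a))) = H (H (gop q a)) := by
    simp only [gop, add_apply, ContinuousLinearMap.id_apply,
      ContinuousLinearMap.comp_apply, map_add, map_sub]
    abel
  rw [e, h.sq_gop]

theorem key2 (a : F) (b : V) : q (H (H (a + ContinuousLinearMap.adjoint q b))) +
    H' (H' (b - q a)) = b := by
  rw [h.comm]
  have e : H' (H' (q (a + ContinuousLinearMap.adjoint q b))) + H' (H' (b - q a)) =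
      H' (H' (gop (ContinuousLinearMap.adjoint q) b)) := by
    simp only [gop, add_apply, ContinuousLinearMap.id_apply,
      ContinuousLinearMap.comp_apply, map_add, map_sub, ContinuousLinearMap.adjoint_adjoint]
    abel
  rw [e, h.sq_gop']

/-- the change of coordinates is an isometry -/
theorem isom (a c : F) (b d : V) :
    ⟪H (a + ContinuousLinearMap.adjoint q b), H (c + ContinuousLinearMap.adjoint q d)⟫ +
      ⟪H' (b - q a), H' (d - q c)⟫ = ⟪a, c⟫ + ⟪b, d⟫ := by
  rw [← h.sym, ← h.sym', inner_add_right, inner_sub_right,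
    ContinuousLinearMap.adjoint_inner_right]
  have h3 : ⟪H' (H' (b - q a)), q c⟫ =
      ⟪ContinuousLinearMap.adjoint q (H' (H' (b - q a))), c⟫ := by
    rw [ContinuousLinearMap.adjoint_inner_left]
  rw [h3]
  have e : ∀ (A B : F) (X Y : V), ⟪A, c⟫ + ⟪X, d⟫ + (⟪Y, d⟫ - ⟪B, c⟫) = ⟪A - B, c⟫ + ⟪X + Y, d⟫ := by
    intro A B X Y
    rw [inner_sub_left, inner_add_left]; ring
  rw [e, h.key1, h.key2]

end Rt

section Frame

variable {m n k : ℕ} {π : Euc k →L[ℝ] Euc m} {ρ : Euc k →L[ℝ] Euc n}

theorem fr_πρ (hf : Frame π ρ) (b : Euc n) : π (ContinuousLinearMap.adjoint ρ b) = 0 :=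
  congrArg (fun T : Euc n →L[ℝ] Euc m => T b) hf.orth

theorem fr_ππ (hf : Frame π ρ) (a : Euc m) : π (ContinuousLinearMap.adjoint π a) = a :=
  congrArg (fun T : Euc m →L[ℝ] Euc m => T a) hf.coπ

theorem fr_ρρ (hf : Frame π ρ) (b : Euc n) : ρ (ContinuousLinearMap.adjoint ρ b) = b :=
  congrArg (fun T : Euc n →L[ℝ] Euc n => T b) hf.coρ

theorem fr_ρπ (hf : Frame π ρ) (a : Euc m) : ρ (ContinuousLinearMap.adjoint π a) = 0 := by
  refine ext_inner_right ℝ fun b => ?_
  rw [← ContinuousLinearMap.adjoint_inner_right, ContinuousLinearMap.adjoint_inner_left,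
    fr_πρ hf]
  simp

theorem fr_full (hf : Frame π ρ) (z : Euc k) :
    ContinuousLinearMap.adjoint π (π z) + ContinuousLinearMap.adjoint ρ (ρ z) = z :=
  congrArg (fun T : Euc k →L[ℝ] Euc k => T z) hf.full

/-- the rotated frame -/
def rπ (π : Euc k →L[ℝ] Euc m) (ρ : Euc k →L[ℝ] Euc n) (q : Euc m →L[ℝ] Euc n)
    (H : Euc m →L[ℝ] Euc m) : Euc k →L[ℝ] Euc m := H ∘L (π + (ContinuousLinearMap.adjoint q) ∘L ρ)

/-- the rotated frame -/
def rρ (π : Euc k →L[ℝ] Euc m) (ρ : Euc k →L[ℝ] Euc n) (q : Euc m →L[ℝ] Euc n)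
    (H' : Euc n →L[ℝ] Euc n) : Euc k →L[ℝ] Euc n := H' ∘L (ρ - q ∘L π)

variable {q : Euc m →L[ℝ] Euc n} {H : Euc m →L[ℝ] Euc m} {H' : Euc n →L[ℝ] Euc n}

theorem rπ_apply (z : Euc k) : rπ π ρ q H z = H (π z + ContinuousLinearMap.adjoint q (ρ z)) := rfl

theorem rρ_apply (z : Euc k) : rρ π ρ q H' z = H' (ρ z - q (π z)) := rfl

theorem adj_rπ (h : Rt q H H') (x : Euc m) : ContinuousLinearMap.adjoint (rπ π ρ q H) x =
    ContinuousLinearMap.adjoint π (H x) + ContinuousLinearMap.adjoint ρ (q (H x)) := by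
  refine ext_inner_right ℝ fun z => ?_
  rw [ContinuousLinearMap.adjoint_inner_left, rπ_apply, ← h.sym, inner_add_right, inner_add_left,
    ContinuousLinearMap.adjoint_inner_left, ContinuousLinearMap.adjoint_inner_left,
    ContinuousLinearMap.adjoint_inner_right]

theorem adj_rρ (h : Rt q H H') (y : Euc n) : ContinuousLinearMap.adjoint (rρ π ρ q H') y =
    ContinuousLinearMap.adjoint ρ (H' y) -
      ContinuousLinearMap.adjoint π (ContinuousLinearMap.adjoint q (H' y)) := by
  refine ext_inner_right ℝ fun z => ?_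
  rw [ContinuousLinearMap.adjoint_inner_left, rρ_apply, ← h.sym', inner_sub_right, inner_sub_left,
    ContinuousLinearMap.adjoint_inner_left, ContinuousLinearMap.adjoint_inner_left,
    ContinuousLinearMap.adjoint_inner_left]

theorem frame_rot (hf : Frame π ρ) (h : Rt q H H') : Frame (rπ π ρ q H) (rρ π ρ q H') := by
  constructor
  · show _ ∘L _ = _
    ext1 x
    rw [ContinuousLinearMap.comp_apply, adj_rπ h, rπ_apply]
    simp only [map_add, fr_ππ hf, fr_ρρ hf, fr_πρ hf, fr_ρπ hf, add_zero, zero_add]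
    have := h.inv x
    simpa [gop] using this
  · show _ ∘L _ = _
    ext1 x
    rw [ContinuousLinearMap.comp_apply, adj_rρ h, rρ_apply]
    simp only [map_sub, fr_ππ hf, fr_ρρ hf, fr_πρ hf, fr_ρπ hf, sub_zero, zero_sub, map_neg,
      sub_neg_eq_add]
    have := h.inv' x
    simpa [gop] using this
  · ext1 y
    rw [ContinuousLinearMap.comp_apply, adj_rρ h, rπ_apply]
    simp only [map_sub, fr_ππ hf, fr_ρρ hf, fr_πρ hf, fr_ρπ hf, sub_zero, zero_sub]
    simp
  · ext1 z
    rw [add_apply, ContinuousLinearMap.comp_apply, ContinuousLinearMap.comp_apply,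
      adj_rπ h, adj_rρ h, rπ_apply, rρ_apply, ContinuousLinearMap.id_apply]
    have k1 := h.key1 (π z) (ρ z)
    have k2 := h.key2 (π z) (ρ z)
    have e : ContinuousLinearMap.adjoint π (H (H (π z + ContinuousLinearMap.adjoint q (ρ z)))) +
        ContinuousLinearMap.adjoint ρ
          (q (H (H (π z + ContinuousLinearMap.adjoint q (ρ z))))) +
        (ContinuousLinearMap.adjoint ρ (H' (H' (ρ z - q (π z)))) -
          ContinuousLinearMap.adjoint π
            (ContinuousLinearMap.adjoint q (H' (H' (ρ z - q (π z)))))) =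
        ContinuousLinearMap.adjoint π (H (H (π z + ContinuousLinearMap.adjoint q (ρ z))) -
          ContinuousLinearMap.adjoint q (H' (H' (ρ z - q (π z))))) +
        ContinuousLinearMap.adjoint ρ (q (H (H (π z + ContinuousLinearMap.adjoint q (ρ z)))) +
          H' (H' (ρ z - q (π z)))) := by
      simp only [map_add, map_sub]; abel
    rw [e, k1, k2, fr_full hf]

end Frame

end Crest.Agent.R234.Grot_842
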