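import Crest.Agent.R234.Grot5_842

/-!
# Row 234, node GROT (helper842), part 6: invariance of the minimal surface system
-/

set_option autoImplicit false
set_option linter.unusedSectionVars false

open Set Metric Filter Topology
open scoped ContDiff NNReal RealInnerProductSpace
open Crest.GeometryTopology.Submanifold

noncomputable section

namespace Crest.Agent.R234.Grot_842

open Crest.Agent.R234.Ell1_3 Crest.Agent.R234.Main_456

variable {F V : Type} [NormedAddCommGroup F] [InnerProductSpace ℝ F] [FiniteDimensional ℝ F]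
  [NormedAddCommGroup V] [InnerProductSpace ℝ V] [FiniteDimensional ℝ V]

/-- trace of a bilinear map against an operator -/
def mt {ι : Type} [Fintype ι] (b : OrthonormalBasis ι ℝ F) (B : F →L[ℝ] F →L[ℝ] V)
    (T : F →L[ℝ] F) : V := ∑ i, B (T (b i)) (b i)

theorem mt_conj {ι : Type} [Fintype ι] (b : OrthonormalBasis ι ℝ F) (B : F →L[ℝ] F →L[ℝ] V)
    (T J : F →L[ℝ] F) :
    mt b B (J ∘L T ∘L (ContinuousLinearMap.adjoint J)) = ∑ i, B (J (T (b i))) (J (b i)) := by
  have h1 : ∀ x : F, x = ∑ j, ⟪b j, x⟫ • b j := fun x => by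
    conv_lhs => rw [← b.sum_repr x]
    exact Finset.sum_congr rfl fun j _ => by rw [b.repr_apply_apply]
  unfold mt
  have h2 : ∀ i, B ((J ∘L T ∘L (ContinuousLinearMap.adjoint J)) (b i)) (b i) =
      ∑ j, ⟪b i, J (b j)⟫ • B (J (T (b j))) (b i) := by
    intro i
    rw [ContinuousLinearMap.comp_apply, ContinuousLinearMap.comp_apply]
    nth_rewrite 1 [h1 (ContinuousLinearMap.adjoint J (b i))]
    simp only [map_sum, map_smul, sum_apply, smul_apply]
    refine Finset.sum_congr rfl fun j _ => ?_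
    rw [ContinuousLinearMap.adjoint_inner_right, real_inner_comm]
  simp_rw [h2]
  rw [Finset.sum_comm]
  refine Finset.sum_congr rfl fun j _ => ?_
  have h3 := congrArg (fun x => B (J (T (b j))) x) (h1 (J (b j)))
  simp only [map_sum, map_smul] at h3
  rw [h3]

/-- transformation of the inverse metric -/
theorem ginv_conj (qa q' : F →L[ℝ] V) (J : F →L[ℝ] F)
    (h : ∀ x y, ⟪J x, J y⟫ + ⟪q' (J x), q' (J y)⟫ = ⟪x, y⟫ + ⟪qa x, qa y⟫) :
    ginv q' = J ∘L (ginv qa) ∘L (ContinuousLinearMap.adjoint J) := by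
  -- J† gop q' J = gop qa
  have h1 : (ContinuousLinearMap.adjoint J) ∘L (gop q') ∘L J = gop qa := by
    ext1 y
    refine ext_inner_left ℝ fun x => ?_
    rw [ContinuousLinearMap.comp_apply, ContinuousLinearMap.comp_apply,
      ContinuousLinearMap.adjoint_inner_right, gop_inner, gop_inner, h]
  -- J is injective, hence surjective
  have hinj : Function.Injective J := by
    rw [injective_iff_map_eq_zero]
    intro x hx
    have h2 : gop qa x = 0 := by
      rw [← h1, ContinuousLinearMap.comp_apply, ContinuousLinearMap.comp_apply, hx, map_zero,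
        map_zero]
    exact gop_injective qa (h2.trans (map_zero _).symm)
  have hsurj : Function.Surjective J := by
    have := (LinearMap.injective_iff_surjective (f := (J : F →ₗ[ℝ] F))).1 hinj
    exact this
  have h3 : (J ∘L (ginv qa) ∘L (ContinuousLinearMap.adjoint J)) ∘L (gop q') =
      ContinuousLinearMap.id ℝ F := by
    ext1 y
    obtain ⟨x, rfl⟩ := hsurj y
    have h4 : (ContinuousLinearMap.adjoint J) (gop q' (J x)) = gop qa x :=
      congrArg (fun T : F →L[ℝ] F => T x) h1
    have h5 : ginv qa (gop qa x) = x := congrArg (fun T : F →L[ℝ] F => T x) (ginv_gop qa)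
    rw [ContinuousLinearMap.comp_apply, ContinuousLinearMap.comp_apply,
      ContinuousLinearMap.comp_apply, h4, h5]
    rfl
  calc ginv q' = ContinuousLinearMap.id ℝ F ∘L ginv q' := (ContinuousLinearMap.id_comp _).symm
    _ = ((J ∘L (ginv qa) ∘L (ContinuousLinearMap.adjoint J)) ∘L (gop q')) ∘L ginv q' := by rw [h3]
    _ = (J ∘L (ginv qa) ∘L (ContinuousLinearMap.adjoint J)) ∘L ((gop q') ∘L ginv q') := rfl
    _ = _ := by rw [gop_ginv]; rfl

/-- the minimal system in an orthonormal basis -/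
def ms {ι : Type} [Fintype ι] (b : OrthonormalBasis ι ℝ F) (u : F → V) (x : F) : V :=
  mt b (fderiv ℝ (fderiv ℝ u) x) (ginv (fderiv ℝ u x))

theorem ms_std {m n : ℕ} (u : Euc m → Euc n) (x : Euc m) :
    ms (EuclideanSpace.basisFun (Fin m) ℝ) u x = Msys u x := by
  unfold ms mt Msys
  refine Finset.sum_congr rfl fun i _ => ?_
  have : (EuclideanSpace.basisFun (Fin m) ℝ) i = stdVec m i := by
    rw [EuclideanSpace.basisFun_apply]; rfl
  rw [this]

/-- **invariance**: if the graph of `v` near `a` is the graph of `w` in rotated coordinates -/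
theorem ms_rot {ι : Type} [Fintype ι] (b : OrthonormalBasis ι ℝ F) {q : F →L[ℝ] V}
    {H : F →L[ℝ] F} {H' : V →L[ℝ] V} (hR : Rt q H H') {v w : F → V} {a : F}
    (hv : ContDiffAt ℝ 2 v a)
    (hw : ContDiffAt ℝ 2 w (H (a + ContinuousLinearMap.adjoint q (v a))))
    (hvw : ∀ᶠ x in 𝓝 a, w (H (x + ContinuousLinearMap.adjoint q (v x))) = H' (v x - q x)) :
    ms b w (H (a + ContinuousLinearMap.adjoint q (v a))) =
      H' (ms b v a) - fderiv ℝ w (H (a + ContinuousLinearMap.adjoint q (v a)))
        (H (ContinuousLinearMap.adjoint q (ms b v a))) := by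
  set qa := ContinuousLinearMap.adjoint q with hqa
  set ψ : F → F := fun x => H (x + qa (v x)) with hψ
  -- differentiability near a
  have hv1 : ∀ᶠ x in 𝓝 a, DifferentiableAt ℝ v x := by
    filter_upwards [hv.eventually (by simp)] with x hx
    exact hx.differentiableAt (by simp)
  have hψD : ∀ x, DifferentiableAt ℝ v x →
      HasFDerivAt ψ (H ∘L (ContinuousLinearMap.id ℝ F + qa ∘L fderiv ℝ v x)) x := by
    intro x hx
    exact H.hasFDerivAt.comp x ((hasFDerivAt_id x).add (qa.hasFDerivAt.comp x hx.hasFDerivAt))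
  have hψc : ContinuousAt ψ a := (hψD a hv1.self_of_nhds).continuousAt
  have hw1 : ∀ᶠ x in 𝓝 a, DifferentiableAt ℝ w (ψ x) := by
    refine hψc.eventually ?_
    filter_upwards [hw.eventually (by simp)] with x hx
    exact hx.differentiableAt (by simp)
  -- first derivative identity near a
  have hE : ∀ᶠ x in 𝓝 a, ∀ y, fderiv ℝ w (ψ x) (H (y + qa (fderiv ℝ v x y))) =
      H' (fderiv ℝ v x y - q y) := by
    filter_upwards [hv1, hw1, hvw.eventually_nhds] with x h1 h2 h3 y
    have h4 : HasFDerivAt (fun x => w (ψ x)) ((fderiv ℝ w (ψ x)) ∘L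
        (H ∘L (ContinuousLinearMap.id ℝ F + qa ∘L fderiv ℝ v x))) x :=
      h2.hasFDerivAt.comp x (hψD x h1)
    have h5 : HasFDerivAt (fun x => H' (v x - q x)) (H' ∘L (fderiv ℝ v x - q)) x :=
      H'.hasFDerivAt.comp x (h1.hasFDerivAt.sub q.hasFDerivAt)
    have h6 : HasFDerivAt (fun x => w (ψ x)) (H' ∘L (fderiv ℝ v x - q)) x :=
      h5.congr_of_eventuallyEq h3
    have h7 := h4.unique h6
    have h8 := congrArg (fun T : F →L[ℝ] V => T y) h7
    simpa using h8
  -- second derivatives
  have hv2 : HasFDerivAt (fderiv ℝ v) (fderiv ℝ (fderiv ℝ v) a) a := by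
    have : ContDiffAt ℝ 1 (fderiv ℝ v) a := hv.fderiv_right (by norm_num)
    exact (this.differentiableAt (by simp)).hasFDerivAt
  have hw2 : HasFDerivAt (fderiv ℝ w) (fderiv ℝ (fderiv ℝ w) (ψ a)) (ψ a) := by
    have : ContDiffAt ℝ 1 (fderiv ℝ w) (ψ a) := hw.fderiv_right (by norm_num)
    exact (this.differentiableAt (by simp)).hasFDerivAt
  set J : F →L[ℝ] F := H ∘L (ContinuousLinearMap.id ℝ F + qa ∘L fderiv ℝ v a) with hJ
  set q' := fderiv ℝ w (ψ a) with hq'
  have hJa : ∀ y, J y = H (y + qa (fderiv ℝ v a y)) := fun y => rfl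
  have hE0 : ∀ y, q' (J y) = H' (fderiv ℝ v a y - q y) := fun y => by
    rw [hJa]; exact hE.self_of_nhds y
  have hD2 : ∀ x y, fderiv ℝ (fderiv ℝ w) (ψ a) (J x) (J y) =
      H' (fderiv ℝ (fderiv ℝ v) a x y) - q' (H (qa (fderiv ℝ (fderiv ℝ v) a x y))) := by
    intro x y
    have h1 : HasFDerivAt (fun X => fderiv ℝ v X y)
        ((fderiv ℝ (fderiv ℝ v) a).flip y) a := by
      have := hv2.clm_apply (hasFDerivAt_const y a)
      simpa using this
    have h2 : HasFDerivAt (fun X => H (y + qa (fderiv ℝ v X y)))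
        (H ∘L (qa ∘L ((fderiv ℝ (fderiv ℝ v) a).flip y))) a :=
      H.hasFDerivAt.comp a ((qa.hasFDerivAt.comp a h1).const_add y)
    have h3 : HasFDerivAt (fun X => fderiv ℝ w (ψ X)) ((fderiv ℝ (fderiv ℝ w) (ψ a)) ∘L J) a :=
      hw2.comp a (hψD a hv1.self_of_nhds)
    have h4 := h3.clm_apply h2
    have h5 : HasFDerivAt (fun X => H' (fderiv ℝ v X y - q y))
        (H' ∘L ((fderiv ℝ (fderiv ℝ v) a).flip y)) a :=
      H'.hasFDerivAt.comp a (h1.sub_const (q y))
    have h6 := h5.congr_of_eventuallyEq (hE.mono fun X hX => hX y)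
    have h7 := h4.unique h6
    have h8 := congrArg (fun T : F →L[ℝ] V => T x) h7
    simp only [ContinuousLinearMap.comp_apply, add_apply,
      ContinuousLinearMap.flip_apply] at h8
    rw [hJa y]
    rw [← h8]
    abel
  have hginv : ginv q' = J ∘L (ginv (fderiv ℝ v a)) ∘L (ContinuousLinearMap.adjoint J) := by
    refine ginv_conj _ _ _ fun x y => ?_
    rw [hE0, hE0, hJa, hJa]
    exact hR.isom x y (fderiv ℝ v a x) (fderiv ℝ v a y)
  show mt b (fderiv ℝ (fderiv ℝ w) (ψ a)) (ginv q') = _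
  rw [hginv, mt_conj]
  simp_rw [hD2]
  rw [Finset.sum_sub_distrib, ← map_sum, ← map_sum, ← map_sum, ← map_sum]
  rfl

end Crest.Agent.R234.Grot_842
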