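import Crest.Agent.R234.Grot6_842

/-!
# Row 234, node GROT (helper842), part 7: rotation of a minimal graph to its tangent plane

`grot`: a smooth `v` with `v 0 = 0` and small derivatives on `ball 0 1`; there are a frame `π', ρ'`
tangent to the graph at the centre and a smooth `w` on all of `Euc m` with `w 0 = 0`, `Dw 0 = 0`,
`‖D^j w‖ ≤ C κ`, with the same graph over the `15/16` ball, comparable heights; `Msys v = 0` on
`ball 0 1` implies `Msys w = 0` on `ball 0 (7/8)`.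
-/

set_option autoImplicit false
set_option linter.unusedSectionVars false

open Set Metric Filter Topology
open scoped ContDiff NNReal RealInnerProductSpace
open Crest.GeometryTopology.Submanifold

noncomputable section

namespace Crest.Agent.R234.Grot_842

open Crest.Agent.R234.Ell1_3 Crest.Agent.R234.Main_456

/-- the data of a rotation: `ψ` = base coordinate change, `w` the new graph function. -/
structure Rot {m n : ℕ} (q : Euc m →L[ℝ] Euc n) (H : Euc m →L[ℝ] Euc m)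
    (H' : Euc n →L[ℝ] Euc n) (K : ℕ) (C κ : ℝ) (v w : Euc m → Euc n) : Prop where
  rt : Rt q H H'
  q_le : ‖q‖ ≤ κ
  smooth : ContDiff ℝ ∞ w
  zero : w 0 = 0
  dzero : fderiv ℝ w 0 = 0
  bound : ∀ j, 1 ≤ j → j ≤ K + 1 → ∀ y, ‖iteratedFDeriv ℝ j w y‖ ≤ C * κ
  bound0 : ∀ y, ‖w y‖ ≤ C * κ * ‖y‖
  graph : ∀ a ∈ closedBall (0 : Euc m) (15 / 16),
    w (H (a + ContinuousLinearMap.adjoint q (v a))) = H' (v a - q a)
  surj : ∀ y ∈ ball (0 : Euc m) (7 / 8), ∃ a ∈ ball (0 : Euc m) (15 / 16),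
    H (a + ContinuousLinearMap.adjoint q (v a)) = y

theorem exists_rot (m n K : ℕ) : ∃ C : ℝ, 1 ≤ C ∧ ∀ (v : Euc m → Euc n) (κ : ℝ), 0 ≤ κ →
    C * κ ≤ 1 → ContDiffOn ℝ ∞ v (ball 0 1) → v 0 = 0 →
    (∀ j, 1 ≤ j → j ≤ K + 1 → ∀ x ∈ ball (0 : Euc m) 1, ‖iteratedFDeriv ℝ j v x‖ ≤ κ) →
    ∃ (H : Euc m →L[ℝ] Euc m) (H' : Euc n →L[ℝ] Euc n) (w : Euc m → Euc n),
      Rot (fderiv ℝ v 0) H H' K C κ v w := by
  obtain ⟨χ, hχ, hχ1, hχs, hχ0, hχle, hχc, hχb⟩ := exists_cut (Euc m) (15 / 16) (by norm_num)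
    (by norm_num)
  obtain ⟨C1, hC1, hb1⟩ := hχb (K + 1)
  obtain ⟨C2, hC2, hcore⟩ := rot_core (Euc m) (Euc n) K
  set A : ℝ := 2 ^ (K + 1) * C1 with hA
  have hA1 : 1 ≤ A := by
    have h2 : (1:ℝ) ≤ 2 ^ (K + 1) := one_le_pow₀ (by norm_num)
    calc (1:ℝ) = 1 * 1 := by norm_num
      _ ≤ _ := by rw [hA]; gcongr
  have hC4 : 1 ≤ 8 * C2 * A := by
    calc (1:ℝ) ≤ 8 * 1 * 1 := by norm_num
      _ ≤ _ := by gcongr
  refine ⟨8 * C2 * A, hC4, ?_⟩
  intro v κ hκ0 hκ hv hv0 hb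
  obtain ⟨H, H', hR⟩ := exists_Rt (fderiv ℝ v 0)
  have hκ8 : A * κ ≤ 1 / 8 := by
    have : 8 * 1 * A * κ ≤ 1 := le_trans (by gcongr) hκ
    linarith
  have hκA : κ ≤ A * κ := by nlinarith
  -- bounds of order 0
  have hdv : ∀ x ∈ ball (0 : Euc m) 1, DifferentiableAt ℝ v x := fun x hx =>
    (hv.contDiffAt (isOpen_ball.mem_nhds hx)).differentiableAt (by simp)
  have hfd : ∀ x ∈ ball (0 : Euc m) 1, ‖fderiv ℝ v x‖ ≤ κ := fun x hx => by
    have h := hb 1 le_rfl (by omega) x hx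
    rwa [← norm_iteratedFDeriv_fderiv, norm_iteratedFDeriv_zero] at h
  have h0m : (0 : Euc m) ∈ ball (0 : Euc m) 1 := mem_ball_self one_pos
  have hv1 : ∀ x ∈ ball (0 : Euc m) 1, ‖v x‖ ≤ κ := by
    intro x hx
    have h := Convex.norm_image_sub_le_of_norm_hasFDerivWithin_le (𝕜 := ℝ)
      (f := v) (f' := fun z => fderiv ℝ v z) (s := ball (0 : Euc m) 1) (C := κ)
      (fun z hz => (hdv z hz).hasFDerivAt.hasFDerivWithinAt) hfd (convex_ball _ _) h0m hx
    rw [hv0, sub_zero, sub_zero] at h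
    have hx1 : ‖x‖ ≤ 1 := (mem_ball_zero_iff.1 hx).le
    calc ‖v x‖ ≤ κ * ‖x‖ := h
      _ ≤ κ * 1 := by gcongr
      _ = κ := mul_one _
  have hb' : ∀ i ≤ K + 1, ∀ x ∈ ball (0 : Euc m) 1, ‖iteratedFDeriv ℝ i v x‖ ≤ κ := by
    intro i hi x hx
    rcases Nat.eq_zero_or_pos i with h | h
    · subst h; rw [norm_iteratedFDeriv_zero]; exact hv1 x hx
    · exact hb i h hi x hx
  set vt : Euc m → Euc n := fun x => χ x • v x with hvt
  have hvts : ContDiff ℝ ∞ vt := cut_smooth hχ hχs hv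
  have hvtb := cut_bound hχ hχs hC1 hb1 hκ0 hv hb'
  have hvt_eq : ∀ x ∈ closedBall (0 : Euc m) (15 / 16), vt x = v x := fun x hx => by
    simp [hvt, hχ1 x hx]
  have hvt0 : vt 0 = 0 := by simp [hvt, hv0]
  have hnear0 : vt =ᶠ[𝓝 (0 : Euc m)] v := by
    filter_upwards [ball_mem_nhds (0 : Euc m) (show (0:ℝ) < 15 / 16 by norm_num)] with x hx
    exact hvt_eq x (ball_subset_closedBall hx)
  have hvtq : fderiv ℝ vt 0 = fderiv ℝ v 0 := hnear0.fderiv_eq
  obtain ⟨φ, hφ, h1, h2, h3, h4, h5, h6, h7, h8⟩ := hcore vt (fderiv ℝ v 0) H H' (A * κ)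
    (by positivity) (hκ8.trans (by norm_num)) hvts hvt0 hvtq hR
    (fun j hj hj' x => hvtb j hj' x)
  have hCA : C2 * (A * κ) ≤ 8 * C2 * A * κ := by
    have : 0 ≤ C2 * (A * κ) := by positivity
    calc C2 * (A * κ) ≤ 8 * (C2 * (A * κ)) := by linarith
      _ = _ := by ring
  refine ⟨H, H', fun y => H' (vt (φ y) - fderiv ℝ v 0 (φ y)), hR, hfd 0 h0m, h5, ?_, h6, ?_, ?_,
    ?_, ?_⟩
  · simp [h3, hvt0]
  · intro j hj hj' y
    exact (h7 j hj hj' y).trans hCA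
  · intro y
    refine (h8 y).trans ?_
    have : 4 * (A * κ) ≤ 8 * C2 * A * κ := by
      calc 4 * (A * κ) ≤ 8 * 1 * A * κ := by
            have : 0 ≤ A * κ := by positivity
            linarith
        _ ≤ _ := by gcongr
    gcongr
  · intro a ha
    have e := h2 a
    rw [hvt_eq a ha] at e
    simp only [e, hvt_eq a ha]
  · intro y hy
    have hy' : ‖y‖ < 7 / 8 := mem_ball_zero_iff.1 hy
    set a := φ y with ha
    have e1 : H (a + ContinuousLinearMap.adjoint (fderiv ℝ v 0) (vt a)) = y := h1 y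
    -- a is close to y
    have hq : ‖fderiv ℝ v 0‖ ≤ A * κ := (hfd 0 h0m).trans hκA
    have e2 : ‖vt a‖ ≤ A * κ * ‖a‖ := by
      have h := Convex.norm_image_sub_le_of_norm_hasFDerivWithin_le (𝕜 := ℝ)
        (f := vt) (f' := fun z => fderiv ℝ vt z) (s := univ) (C := A * κ)
        (fun z _ => ((hvts.differentiable (by simp)) z).hasFDerivAt.hasFDerivWithinAt)
        (fun z _ => by
          have h := hvtb 1 (by omega) z
          rwa [← norm_iteratedFDeriv_fderiv, norm_iteratedFDeriv_zero] at h)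
        convex_univ (mem_univ 0) (mem_univ a)
      rwa [hvt0, sub_zero, sub_zero] at h
    have e3 : ‖a‖ ≤ ‖y‖ + (1 / 32) * ‖a‖ := by
      have e4 : a = y - (H a - a) - H (ContinuousLinearMap.adjoint (fderiv ℝ v 0) (vt a)) := by
        rw [← e1, map_add]; abel
      have e5 : ‖H a - a‖ ≤ (1 / 64) * ‖a‖ := by
        refine (hR.near a).trans ?_
        have : ‖fderiv ℝ v 0‖ ^ 2 ≤ (1 / 8) ^ 2 := by
          have := hq.trans hκ8
          gcongr
        have h9 : ((1:ℝ) / 8) ^ 2 = 1 / 64 := by norm_num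
        rw [h9] at this
        gcongr
      have e6 : ‖H (ContinuousLinearMap.adjoint (fderiv ℝ v 0) (vt a))‖ ≤ (1 / 64) * ‖a‖ := by
        refine (hR.le _).trans ((ContinuousLinearMap.le_opNorm _ _).trans ?_)
        rw [LinearIsometryEquiv.norm_map]
        calc ‖fderiv ℝ v 0‖ * ‖vt a‖ ≤ (1 / 8) * (A * κ * ‖a‖) := by
              have := hq.trans hκ8
              gcongr
          _ ≤ (1 / 8) * (1 / 8 * ‖a‖) := by gcongr
          _ = (1 / 64) * ‖a‖ := by ring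
      calc ‖a‖ = ‖y - (H a - a) - H (ContinuousLinearMap.adjoint (fderiv ℝ v 0) (vt a))‖ := by
            rw [← e4]
        _ ≤ ‖y‖ + ‖H a - a‖ + ‖H (ContinuousLinearMap.adjoint (fderiv ℝ v 0) (vt a))‖ :=
            (norm_sub_le _ _).trans (add_le_add (norm_sub_le _ _) le_rfl)
        _ ≤ ‖y‖ + (1 / 64) * ‖a‖ + (1 / 64) * ‖a‖ := by gcongr
        _ = _ := by ring
    have ha1 : ‖a‖ < 15 / 16 := by linarith
    refine ⟨a, mem_ball_zero_iff.2 ha1, ?_⟩
    rw [← hvt_eq a (mem_closedBall_zero_iff.2 ha1.le)]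
    exact e1

end Crest.Agent.R234.Grot_842
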