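import Crest.Agent.R234.Grot8_842

/-!
# Row 234, node GROT (helper842), part 9: the zoomed, globally small graph

`exists_zoom`: for `w 0 = 0`, `Dw 0 = 0`, `‖D^j w‖ ≤ κ` and `0 < t ≤ 1/16` the function
`t⁻¹ w(t ·)` on `closedBall 0 7` extends to a smooth compactly supported `U` with
`‖D^j U‖ ≤ C κ t` everywhere, for all `j ≤ K + 1`.
-/

set_option autoImplicit false
set_option linter.unusedSectionVars false

open Set Metric Filter Topology
open scoped ContDiff NNReal RealInnerProductSpace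
open Crest.GeometryTopology.Submanifold

noncomputable section

namespace Crest.Agent.R234.Grot_842

open Crest.Agent.R234.Ell1_3 Crest.Agent.R234.Main_456

variable {m n k : ℕ}

theorem fderiv_lip_of {E G : Type} [NormedAddCommGroup E] [NormedSpace ℝ E] [NormedAddCommGroup G]
    [NormedSpace ℝ G] {w : E → G} {κ : ℝ} (hw : ContDiff ℝ ∞ w) (h0 : fderiv ℝ w 0 = 0)
    (hb : ∀ x, ‖iteratedFDeriv ℝ 2 w x‖ ≤ κ) (x : E) : ‖fderiv ℝ w x‖ ≤ κ * ‖x‖ := by
  have hd : ContDiff ℝ ∞ (fderiv ℝ w) := hw.fderiv_right (by simp)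
  have h := Convex.norm_image_sub_le_of_norm_hasFDerivWithin_le (𝕜 := ℝ)
    (f := fderiv ℝ w) (f' := fun z => fderiv ℝ (fderiv ℝ w) z) (s := univ) (C := κ)
    (fun z _ => ((hd.differentiable (by simp)) z).hasFDerivAt.hasFDerivWithinAt)
    (fun z _ => by
      have h1 := hb z
      rwa [← norm_iteratedFDeriv_fderiv, ← norm_iteratedFDeriv_fderiv,
        norm_iteratedFDeriv_zero] at h1)
    convex_univ (mem_univ 0) (mem_univ x)
  rwa [h0, sub_zero, sub_zero] at h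

theorem exists_zoom (m n K : ℕ) (hK : 1 ≤ K) : ∃ C : ℝ, 1 ≤ C ∧ ∀ (w : Euc m → Euc n) (κ : ℝ),
    0 ≤ κ → ContDiff ℝ ∞ w → w 0 = 0 → fderiv ℝ w 0 = 0 →
    (∀ j, 1 ≤ j → j ≤ K + 1 → ∀ y, ‖iteratedFDeriv ℝ j w y‖ ≤ κ) →
    ∀ t : ℝ, 0 < t → t ≤ 1 / 8 → ∃ U : Euc m → Euc n, ContDiff ℝ ∞ U ∧ HasCompactSupport U ∧
      (∀ x, ‖x‖ ≤ 7 → U x = t⁻¹ • w (t • x)) ∧
      (∀ j ≤ K + 1, ∀ x, ‖iteratedFDeriv ℝ j U x‖ ≤ C * κ * t) ∧
      U 0 = 0 ∧ fderiv ℝ U 0 = 0 ∧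
      (∀ x ∈ ball (0 : Euc m) 7, Msys U x = t • Msys w (t • x)) := by
  obtain ⟨χ, hχ, hχ1, hχs, hχ0, hχle, hχc, hχb⟩ := exists_cut (Euc m) (7 / 8) (by norm_num)
    (by norm_num)
  obtain ⟨C1, hC1, hb1⟩ := hχb (K + 1)
  have hA1 : (1:ℝ) ≤ 2 ^ (K + 1) * C1 := by
    have h2 : (1:ℝ) ≤ 2 ^ (K + 1) := one_le_pow₀ (by norm_num)
    calc (1:ℝ) = 1 * 1 := by norm_num
      _ ≤ _ := by gcongr
  refine ⟨64 * (2 ^ (K + 1) * C1), by linarith, ?_⟩
  intro w κ hκ hw hw0 hdw hb t ht ht8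
  have h8t : 0 < 8 * t := by linarith
  have h8t1 : 8 * t ≤ 1 := by linarith
  -- W on the unit ball
  set W : Euc m → Euc n := sc (8 * t) w with hW
  have hWs : ContDiff ℝ ∞ W := sc_contDiff hw
  have hDw : ∀ y, ‖fderiv ℝ w y‖ ≤ κ * ‖y‖ :=
    fderiv_lip_of hw hdw (fun x => hb 2 (by norm_num) (by omega) x)
  have hwn : ∀ y, ‖w y‖ ≤ κ * ‖y‖ ^ 2 := by
    intro y
    have h := Convex.norm_image_sub_le_of_norm_hasFDerivWithin_le (𝕜 := ℝ)
      (f := w) (f' := fun z => fderiv ℝ w z) (s := closedBall (0 : Euc m) ‖y‖) (C := κ * ‖y‖)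
      (fun z _ => ((hw.differentiable (by simp)) z).hasFDerivAt.hasFDerivWithinAt)
      (fun z hz => (hDw z).trans (by
        have := mem_closedBall_zero_iff.1 hz
        gcongr))
      (convex_closedBall _ _) (mem_closedBall_self (norm_nonneg _))
      (mem_closedBall_zero_iff.2 le_rfl)
    rw [hw0, sub_zero, sub_zero] at h
    calc ‖w y‖ ≤ κ * ‖y‖ * ‖y‖ := h
      _ = _ := by ring
  have hWb : ∀ i ≤ K + 1, ∀ x ∈ ball (0 : Euc m) 1, ‖iteratedFDeriv ℝ i W x‖ ≤ 8 * t * κ := by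
    intro i hi x hx
    have hx1 : ‖x‖ ≤ 1 := (mem_ball_zero_iff.1 hx).le
    rcases Nat.lt_or_ge i 2 with h2 | h2
    · interval_cases i
      · rw [norm_iteratedFDeriv_zero, hW, sc_apply, norm_smul, norm_inv,
          Real.norm_of_nonneg h8t.le]
        have h3 := hwn ((8 * t) • x)
        rw [norm_smul, Real.norm_of_nonneg h8t.le] at h3
        calc (8 * t)⁻¹ * ‖w ((8 * t) • x)‖ ≤ (8 * t)⁻¹ * (κ * (8 * t * ‖x‖) ^ 2) := by gcongr
          _ = 8 * t * κ * ‖x‖ ^ 2 := by field_simp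
          _ ≤ 8 * t * κ * 1 ^ 2 := by gcongr
          _ = _ := by ring
      · rw [← norm_iteratedFDeriv_fderiv, norm_iteratedFDeriv_zero, hW, fderiv_sc h8t.ne']
        have h3 := hDw ((8 * t) • x)
        rw [norm_smul, Real.norm_of_nonneg h8t.le] at h3
        calc ‖fderiv ℝ w ((8 * t) • x)‖ ≤ κ * (8 * t * ‖x‖) := h3
          _ ≤ κ * (8 * t * 1) := by gcongr
          _ = _ := by ring
    · have h3 := iter_sc (R := 1) h8t (hw.contDiffOn (s := ball 0 (8 * t * 1)))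
        (j := i) (by omega) (x := x) hx
      have h4 : (8 * t) ^ (i - 1) ≤ 8 * t := by
        calc (8 * t) ^ (i - 1) ≤ (8 * t) ^ 1 :=
              pow_le_pow_of_le_one h8t.le h8t1 (by omega)
          _ = 8 * t := pow_one _
      calc ‖iteratedFDeriv ℝ i W x‖ ≤ (8 * t) ^ (i - 1) * ‖iteratedFDeriv ℝ i w ((8 * t) • x)‖ := h3
        _ ≤ 8 * t * κ := by
            have := hb i (by omega) hi ((8 * t) • x)
            gcongr
  -- cut off
  set Wt : Euc m → Euc n := fun x => χ x • W x with hWt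
  have hWts : ContDiff ℝ ∞ Wt := cut_smooth hχ hχs hWs.contDiffOn
  have hWtb := cut_bound hχ hχs hC1 hb1 (by positivity) hWs.contDiffOn hWb
  have h8 : (0:ℝ) < 1 / 8 := by norm_num
  set U : Euc m → Euc n := sc (1 / 8) Wt with hU
  have hUeq : ∀ x, ‖x‖ ≤ 7 → U x = t⁻¹ • w (t • x) := by
    intro x hx
    have h1 : χ ((1 / 8 : ℝ) • x) = 1 := by
      refine hχ1 _ (mem_closedBall_zero_iff.2 ?_)
      rw [norm_smul, Real.norm_of_nonneg h8.le]; linarith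
    rw [hU, sc_apply, hWt]
    simp only [h1, hW, sc_apply, smul_smul, one_mul]
    have e1 : ((1 / 8 : ℝ))⁻¹ * (8 * t)⁻¹ = t⁻¹ := by field_simp
    have e2 : 8 * t * (1 / 8) = t := by ring
    rw [e1, e2]
  have hUnear : ∀ x ∈ ball (0 : Euc m) 7, U =ᶠ[𝓝 x] sc t w := by
    intro x hx
    filter_upwards [isOpen_ball.mem_nhds hx] with y hy
    exact hUeq y (mem_ball_zero_iff.1 hy).le
  refine ⟨U, sc_contDiff hWts, ?_, hUeq, ?_, ?_, ?_, ?_⟩
  · have h1 : HasCompactSupport Wt := hχc.smul_right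
    have h2 : HasCompactSupport (fun x : Euc m => Wt ((1 / 8 : ℝ) • x)) :=
      h1.comp_homeomorph (Homeomorph.smulOfNeZero (1 / 8 : ℝ) (by norm_num))
    exact h2.smul_left (f := fun _ => (1 / 8 : ℝ)⁻¹)
  · intro j hj x
    rcases Nat.eq_zero_or_pos j with h0 | h0
    · subst h0
      rw [norm_iteratedFDeriv_zero, hU, sc_apply, norm_smul]
      have h3 := hWtb 0 (by omega) ((1 / 8 : ℝ) • x)
      rw [norm_iteratedFDeriv_zero] at h3
      calc ‖((1 / 8 : ℝ))⁻¹‖ * ‖Wt ((1 / 8 : ℝ) • x)‖ ≤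
            8 * (2 ^ (K + 1) * C1 * (8 * t * κ)) := by
              have : ‖((1 / 8 : ℝ))⁻¹‖ = 8 := by norm_num
              rw [this]; gcongr
        _ = _ := by ring
    · have h3 := iter_sc (R := ‖x‖ + 1) h8 (hWts.contDiffOn (s := ball 0 (1 / 8 * (‖x‖ + 1))))
        (j := j) h0 (x := x) (mem_ball_zero_iff.2 (by linarith))
      have h4 := hWtb j hj ((1 / 8 : ℝ) • x)
      have h5 : ((1:ℝ) / 8) ^ (j - 1) ≤ 1 := pow_le_one₀ (by norm_num) (by norm_num)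
      calc ‖iteratedFDeriv ℝ j U x‖ ≤ (1 / 8) ^ (j - 1) *
            ‖iteratedFDeriv ℝ j Wt ((1 / 8 : ℝ) • x)‖ := h3
        _ ≤ 1 * (2 ^ (K + 1) * C1 * (8 * t * κ)) := by gcongr
        _ ≤ 8 * (2 ^ (K + 1) * C1 * (8 * t * κ)) := by
            have : 0 ≤ 2 ^ (K + 1) * C1 * (8 * t * κ) := by positivity
            linarith
        _ = _ := by ring
  · rw [hUeq 0 (by simp)]; simp [hw0]
  · rw [(hUnear 0 (mem_ball_self (by norm_num))).fderiv_eq, fderiv_sc ht.ne', smul_zero, hdw]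
  · intro x hx
    have h1 : Msys U x = Msys (sc t w) x := by
      unfold Msys
      have e1 := (hUnear x hx).fderiv_eq (𝕜 := ℝ)
      have e2 := ((hUnear x hx).fderiv (𝕜 := ℝ)).fderiv_eq (𝕜 := ℝ)
      rw [e1, e2]
    rw [h1, Msys_sc ht.ne']

end Crest.Agent.R234.Grot_842
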