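import Crest.Agent.R234.Supm3_685

/-!
R234 (helper685), GL-SUP part 1: the foot chart `z = q0 + πᵀ(x - Du(x)ᵀ y) + ρᵀ(u(x) + y)` against
the vertical height `hgt z = ρ(z - q0) - u(π(z - q0))` and the two tilts (pointwise).
-/

set_option autoImplicit false
set_option linter.unusedSectionVars false

open MeasureTheory Metric Set Filter Topology
open scoped InnerProductSpace ContDiff

namespace Crest.Agent.R234.Gs_685

open Crest.Agent.R234.Cacc_113 (tr IsPr St)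
open Crest.Agent.R234.Ell1_3 (gop ginv adjL)
open Crest.Agent.R234.Supm_685

noncomputable section

variable {E F W : Type} [NormedAddCommGroup E] [InnerProductSpace ℝ E] [FiniteDimensional ℝ E]
  [NormedAddCommGroup F] [InnerProductSpace ℝ F] [FiniteDimensional ℝ F]
  [NormedAddCommGroup W] [InnerProductSpace ℝ W] [FiniteDimensional ℝ W]

/-- squared length of the normal vector `B y = ρᵀ y - πᵀ qᵀ y`, `= ⟨(1 + q qᵀ) y, y⟩` -/
def nsq (q : F →L[ℝ] W) (y : W) : ℝ := ‖y‖ ^ 2 + ‖ContinuousLinearMap.adjoint q y‖ ^ 2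

theorem nsq_nonneg (q : F →L[ℝ] W) (y : W) : 0 ≤ nsq q y := by unfold nsq; positivity

theorem sq_le_nsq (q : F →L[ℝ] W) (y : W) : ‖y‖ ^ 2 ≤ nsq q y := by
  unfold nsq; nlinarith [sq_nonneg ‖ContinuousLinearMap.adjoint q y‖]

/-- the normal vector -/
def nv (π : E →L[ℝ] F) (ρ : E →L[ℝ] W) (q : F →L[ℝ] W) (y : W) : E :=
  ContinuousLinearMap.adjoint ρ y - ContinuousLinearMap.adjoint π (ContinuousLinearMap.adjoint q y)

theorem norm_nv_sq {π : E →L[ℝ] F} {ρ : E →L[ℝ] W} (h : Fr π ρ) (q : F →L[ℝ] W) (y : W) :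
    ‖nv π ρ q y‖ ^ 2 = nsq q y := by
  have h1 := h.norm_sq (nv π ρ q y)
  have h2 : π (nv π ρ q y) = -ContinuousLinearMap.adjoint q y := by
    simp [nv, h.pp, h.pr]
  have h3 : ρ (nv π ρ q y) = y := by
    simp [nv, h.rr, h.rp]
  rw [h2, h3, norm_neg] at h1
  rw [← h1, nsq]
  ring

/-- the foot chart relation at `z` -/
structure Foot (π : E →L[ℝ] F) (ρ : E →L[ℝ] W) (q0 : E) (u : F → W) (z : E) (x : F) (y : W) :
    Prop where
  hp : π (z - q0) = x - ContinuousLinearMap.adjoint (fderiv ℝ u x) y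
  hr : ρ (z - q0) = u x + y

/-- `‖Du‖ ≤ 1/4`, `‖D²u‖ ≤ κ` on the convex set `D` -/
structure Bd (u : F → W) (D : Set F) (κ : ℝ) : Prop where
  smooth : ContDiff ℝ 2 u
  conv : Convex ℝ D
  d1 : ∀ v ∈ D, ‖fderiv ℝ u v‖ ≤ 1 / 4
  d2 : ∀ v ∈ D, ‖fderiv ℝ (fderiv ℝ u) v‖ ≤ κ

namespace Bd

variable {u : F → W} {D : Set F} {κ : ℝ}

theorem lip1 (hb : Bd u D κ) {v w : F} (hv : v ∈ D) (hw : w ∈ D) :
    ‖fderiv ℝ u w - fderiv ℝ u v‖ ≤ κ * ‖w - v‖ := by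
  have h0 : ContDiff ℝ 1 (fderiv ℝ u) := hb.smooth.fderiv_right (by norm_num)
  exact hb.conv.norm_image_sub_le_of_norm_fderiv_le
    (fun x _ => h0.differentiable one_ne_zero x) hb.d2 hv hw

theorem taylor (hb : Bd u D κ) (hκ : 0 ≤ κ) {v w : F} (hv : v ∈ D) (hw : w ∈ D) :
    ‖u w - u v - fderiv ℝ u v (w - v)‖ ≤ κ * ‖w - v‖ ^ 2 := by
  have hd : ∀ x, HasFDerivAt (fun ξ => u ξ - fderiv ℝ u v ξ) (fderiv ℝ u x - fderiv ℝ u v) x :=
    fun x => ((hb.smooth.differentiable (by norm_num) x).hasFDerivAt).sub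
      (fderiv ℝ u v).hasFDerivAt
  have hseg : segment ℝ v w ⊆ D := hb.conv.segment_subset hv hw
  have h1 := (convex_segment v w).norm_image_sub_le_of_norm_hasFDerivWithin_le
    (f := fun ξ => u ξ - fderiv ℝ u v ξ) (f' := fun x => fderiv ℝ u x - fderiv ℝ u v)
    (C := κ * ‖w - v‖) (fun x _ => (hd x).hasFDerivWithinAt) (fun x hx => by
      refine (hb.lip1 hv (hseg hx)).trans ?_
      gcongr
      obtain ⟨a, b, ha, hb', hab, rfl⟩ := hx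
      have : a • v + b • w - v = b • (w - v) := by
        have : a = 1 - b := by linarith
        rw [this, smul_sub, sub_smul, one_smul]; abel
      rw [this, norm_smul, Real.norm_eq_abs, abs_of_nonneg hb']
      have hb1 : b ≤ 1 := by linarith
      nlinarith [norm_nonneg (w - v)])
    (left_mem_segment ℝ v w) (right_mem_segment ℝ v w)
  have h2 : u w - u v - fderiv ℝ u v (w - v) =
      (u w - fderiv ℝ u v w) - (u v - fderiv ℝ u v v) := by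
    rw [map_sub]; abel
  rw [h2]
  refine h1.trans (le_of_eq ?_)
  ring

end Bd

section pt

variable {π : E →L[ℝ] F} {ρ : E →L[ℝ] W} {q0 : E} {u : F → W} {D : Set F} {κ : ℝ}
  {z : E} {x : F} {y : W}

theorem norm_adj_le (q : F →L[ℝ] W) (hq : ‖q‖ ≤ 1 / 4) (y : W) :
    ‖ContinuousLinearMap.adjoint q y‖ ≤ 1 / 4 * ‖y‖ := by
  refine (ContinuousLinearMap.le_opNorm _ _).trans ?_
  gcongr
  have : ‖ContinuousLinearMap.adjoint q‖ = ‖q‖ := LinearIsometryEquiv.norm_map _ _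
  rw [this]; exact hq

theorem ht_eq_foot (hf : Foot π ρ q0 u z x y) :
    ht π ρ q0 1 u z = y + (u x - u (x - ContinuousLinearMap.adjoint (fderiv ℝ u x) y)) := by
  simp only [ht, inv_one, one_smul]
  rw [hf.hp, hf.hr]
  abel

theorem ht_sub_le (hb : Bd u D κ) (hκ : 0 ≤ κ) (hf : Foot π ρ q0 u z x y) (hx : x ∈ D)
    (hz : π (z - q0) ∈ D) (hy : κ * ‖y‖ ≤ 1) :
    ‖ht π ρ q0 1 u z - (y + fderiv ℝ u x (ContinuousLinearMap.adjoint (fderiv ℝ u x) y))‖ ≤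
      1 / 16 * ‖y‖ := by
  set v := ContinuousLinearMap.adjoint (fderiv ℝ u x) y with hv
  have h1 := hb.taylor hκ hx hz
  have h2 : π (z - q0) - x = -v := by rw [hf.hp]; abel
  rw [h2, map_neg, norm_neg] at h1
  rw [ht_eq_foot hf, ← hv]
  have h3 : y + (u x - u (x - v)) - (y + fderiv ℝ u x v) =
      -(u (π (z - q0)) - u x - -fderiv ℝ u x v) := by
    rw [hf.hp, ← hv]; abel
  rw [h3, norm_neg]
  refine h1.trans ?_
  have h4 : ‖v‖ ≤ 1 / 4 * ‖y‖ := norm_adj_le _ (hb.d1 x hx) y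
  have h5 : ‖v‖ ^ 2 ≤ 1 / 16 * ‖y‖ ^ 2 := by nlinarith [norm_nonneg v, norm_nonneg y]
  calc κ * ‖v‖ ^ 2 ≤ κ * (1 / 16 * ‖y‖ ^ 2) := by gcongr
    _ = 1 / 16 * (κ * ‖y‖) * ‖y‖ := by ring
    _ ≤ 1 / 16 * 1 * ‖y‖ := by gcongr
    _ = _ := by ring

/-- (P1) -/
theorem nsq_le_ht (hb : Bd u D κ) (hκ : 0 ≤ κ) (hf : Foot π ρ q0 u z x y) (hx : x ∈ D)
    (hz : π (z - q0) ∈ D) (hy : κ * ‖y‖ ≤ 1) :
    nsq (fderiv ℝ u x) y ≤ 4 / 3 * ‖ht π ρ q0 1 u z‖ ^ 2 := by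
  have h1 := ht_sub_le hb hκ hf hx hz hy
  have h4 : ‖ContinuousLinearMap.adjoint (fderiv ℝ u x) y‖ ≤ 1 / 4 * ‖y‖ :=
    norm_adj_le _ (hb.d1 x hx) y
  set g := y + fderiv ℝ u x (ContinuousLinearMap.adjoint (fderiv ℝ u x) y) with hg
  have h5 : ‖y‖ ≤ ‖g‖ := by
    have e1 : ⟪g, y⟫_ℝ = ‖y‖ ^ 2 + ‖ContinuousLinearMap.adjoint (fderiv ℝ u x) y‖ ^ 2 := by
      rw [hg, inner_add_left, real_inner_self_eq_norm_sq, ← ContinuousLinearMap.adjoint_inner_right,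
        real_inner_self_eq_norm_sq]
    have e2 := real_inner_le_norm g y
    rcases (norm_nonneg y).eq_or_lt with h0 | h0
    · rw [← h0]; positivity
    · nlinarith [sq_nonneg ‖ContinuousLinearMap.adjoint (fderiv ℝ u x) y‖]
  have h6 : ‖g‖ ≤ ‖ht π ρ q0 1 u z‖ + 1 / 16 * ‖y‖ := by
    have : g = ht π ρ q0 1 u z - (ht π ρ q0 1 u z - g) := by abel
    calc ‖g‖ = ‖ht π ρ q0 1 u z - (ht π ρ q0 1 u z - g)‖ := by rw [← this]
      _ ≤ ‖ht π ρ q0 1 u z‖ + ‖ht π ρ q0 1 u z - g‖ := norm_sub_le _ _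
      _ ≤ _ := by gcongr
  have h7 : 15 / 16 * ‖y‖ ≤ ‖ht π ρ q0 1 u z‖ := by linarith
  have h8 : nsq (fderiv ℝ u x) y ≤ 17 / 16 * ‖y‖ ^ 2 := by
    unfold nsq
    nlinarith [norm_nonneg (ContinuousLinearMap.adjoint (fderiv ℝ u x) y), norm_nonneg y]
  nlinarith [norm_nonneg y, norm_nonneg (ht π ρ q0 1 u z)]

theorem ht_le_nsq (hb : Bd u D κ) (hκ : 0 ≤ κ) (hf : Foot π ρ q0 u z x y) (hx : x ∈ D)
    (hz : π (z - q0) ∈ D) (hy : κ * ‖y‖ ≤ 1) :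
    ‖ht π ρ q0 1 u z‖ ^ 2 ≤ 4 / 3 * nsq (fderiv ℝ u x) y := by
  have h1 := ht_sub_le hb hκ hf hx hz hy
  have h4 : ‖ContinuousLinearMap.adjoint (fderiv ℝ u x) y‖ ≤ 1 / 4 * ‖y‖ :=
    norm_adj_le _ (hb.d1 x hx) y
  set g := y + fderiv ℝ u x (ContinuousLinearMap.adjoint (fderiv ℝ u x) y) with hg
  have h5 : ‖g‖ ≤ 17 / 16 * ‖y‖ := by
    have e1 : ‖fderiv ℝ u x (ContinuousLinearMap.adjoint (fderiv ℝ u x) y)‖ ≤
        1 / 4 * (1 / 4 * ‖y‖) := by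
      refine (ContinuousLinearMap.le_opNorm _ _).trans ?_
      have := hb.d1 x hx
      gcongr
    have e2 := norm_add_le y (fderiv ℝ u x (ContinuousLinearMap.adjoint (fderiv ℝ u x) y))
    rw [← hg] at e2
    linarith
  have h6 : ‖ht π ρ q0 1 u z‖ ≤ ‖g‖ + 1 / 16 * ‖y‖ := by
    have : ht π ρ q0 1 u z = g + (ht π ρ q0 1 u z - g) := by abel
    calc ‖ht π ρ q0 1 u z‖ = ‖g + (ht π ρ q0 1 u z - g)‖ := by rw [← this]
      _ ≤ ‖g‖ + ‖ht π ρ q0 1 u z - g‖ := norm_add_le _ _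
      _ ≤ _ := by gcongr
  have h7 : ‖ht π ρ q0 1 u z‖ ≤ 9 / 8 * ‖y‖ := by linarith
  have h8 := sq_le_nsq (fderiv ℝ u x) y
  nlinarith [norm_nonneg y, norm_nonneg (ht π ρ q0 1 u z)]

/-- change of the gradient in the relative tilt -/
theorem tau_change (h : Fr π ρ) (q q' : F →L[ℝ] W) {P : E →L[ℝ] E} (hP : IsPr P) :
    tau (nf π ρ q') P ≤ 2 * tau (nf π ρ q) P + 2 * ‖q' - q‖ ^ 2 * tr P := by
  have h1 : tr P = ∑ j, ‖P (stdOrthonormalBasis ℝ E j)‖ ^ 2 := by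
    rw [tr, LinearMap.trace_eq_sum_inner _ (stdOrthonormalBasis ℝ E)]
    refine Finset.sum_congr rfl fun i _ => ?_
    simp only [ContinuousLinearMap.coe_coe]
    rw [hP.inner_self]
  rw [h1, tau, tau, Finset.mul_sum, Finset.mul_sum, ← Finset.sum_add_distrib]
  refine Finset.sum_le_sum fun j _ => ?_
  set w := P (stdOrthonormalBasis ℝ E j)
  have h2 : nf π ρ q' w = nf π ρ q w - (q' - q) (π w) := by
    simp only [nf, sub_apply, ContinuousLinearMap.comp_apply]; abel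
  have h3 : ‖nf π ρ q' w‖ ≤ ‖nf π ρ q w‖ + ‖q' - q‖ * ‖w‖ := by
    rw [h2]
    refine (norm_sub_le _ _).trans ?_
    gcongr
    refine (ContinuousLinearMap.le_opNorm _ _).trans ?_
    gcongr
    exact h.norm_p_le w
  have h4 : ‖nf π ρ q' w‖ ^ 2 ≤ (‖nf π ρ q w‖ + ‖q' - q‖ * ‖w‖) ^ 2 := by gcongr
  nlinarith [sq_nonneg (‖nf π ρ q w‖ - ‖q' - q‖ * ‖w‖)]

/-- (P2) the tilt relative to the graph at the foot -/
theorem tau_foot_le (h : Fr π ρ) (hb : Bd u D κ) (hκ : 0 ≤ κ) (hf : Foot π ρ q0 u z x y)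
    (hx : x ∈ D) (hz : π (z - q0) ∈ D) {P : E →L[ℝ] E} (hP : IsPr P) :
    tau (nf π ρ (fderiv ℝ u x)) P ≤ 2 * tau (nz π ρ q0 1 u z) P +
      1 / 8 * κ ^ 2 * ‖y‖ ^ 2 * tr P := by
  have h1 := tau_change h (fderiv ℝ u (π (z - q0))) (fderiv ℝ u x) hP
  have h2 : nz π ρ q0 1 u z = nf π ρ (fderiv ℝ u (π (z - q0))) := by simp [nz]
  rw [h2]
  refine h1.trans ?_
  have h3 := hb.lip1 hz hx
  have h4 : x - π (z - q0) = ContinuousLinearMap.adjoint (fderiv ℝ u x) y := by rw [hf.hp]; abel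
  rw [h4] at h3
  have h5 := norm_adj_le _ (hb.d1 x hx) y
  have h6 : ‖fderiv ℝ u x - fderiv ℝ u (π (z - q0))‖ ≤ κ * (1 / 4 * ‖y‖) :=
    h3.trans (by gcongr)
  have h7 : ‖fderiv ℝ u x - fderiv ℝ u (π (z - q0))‖ ^ 2 ≤ (κ * (1 / 4 * ‖y‖)) ^ 2 := by
    gcongr
  have h8 : 0 ≤ tr P := by
    rw [tr, LinearMap.trace_eq_sum_inner _ (stdOrthonormalBasis ℝ E)]
    refine Finset.sum_nonneg fun i _ => ?_
    simp only [ContinuousLinearMap.coe_coe]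
    exact hP.inner_self_nonneg _
  have h9 := mul_le_mul_of_nonneg_right h7 h8
  nlinarith

/-- (P2) for the trace of the normal projection -/
theorem tr_foot_le (h : Fr π ρ) (hb : Bd u D κ) (hκ : 0 ≤ κ) (hf : Foot π ρ q0 u z x y)
    (hx : x ∈ D) (hz : π (z - q0) ∈ D) {P : E →L[ℝ] E} (hP : IsPr P) :
    tr ((1 - pg π ρ (fderiv ℝ u x)) ∘L P) ≤ 2 * tau (nz π ρ q0 1 u z) P +
      1 / 8 * κ ^ 2 * ‖y‖ ^ 2 * tr P :=
  (tr_compl_le h _ P hP).trans (tau_foot_le h hb hκ hf hx hz hP)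

/-- the foot and the base point -/
theorem norm_foot_sub_le (hb : Bd u D κ) (hf : Foot π ρ q0 u z x y) (hx : x ∈ D) :
    ‖x - π (z - q0)‖ ≤ 1 / 4 * ‖y‖ := by
  have h4 : x - π (z - q0) = ContinuousLinearMap.adjoint (fderiv ℝ u x) y := by rw [hf.hp]; abel
  rw [h4]
  exact norm_adj_le _ (hb.d1 x hx) y

end pt

end

end Crest.Agent.R234.Gs_685
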