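import Crest.Agent.R234.Gs1_685

/-!
R234 (helper685), GL-SUP part 2: cut-offs with explicit scales; sup bound and energy bound of a
stationary varifold relative to a minimal graph, in terms of the foot chart.
-/

set_option autoImplicit false
set_option linter.unusedSectionVars false

open MeasureTheory Metric Set Filter Topology
open scoped InnerProductSpace ContDiff

namespace Crest.Agent.R234.Gs_685

open Crest.Agent.R234.Cacc_113 (tr IsPr St)
open Crest.Agent.R234.Ell1_3 (gop ginv adjL)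
open Crest.Agent.R234.Supm_685

noncomputable section

/-- the derivative of `Real.smoothTransition` is bounded -/
theorem exists_st_bound : ∃ K : ℝ, 0 ≤ K ∧ ∀ t, |deriv Real.smoothTransition t| ≤ K := by
  have hc : Continuous (deriv Real.smoothTransition) :=
    (Real.smoothTransition.contDiff (n := 1)).continuous_deriv le_rfl
  obtain ⟨K, hK⟩ := (isCompact_Icc (a := (0:ℝ)) (b := 1)).exists_bound_of_continuousOn
    hc.continuousOn
  refine ⟨max K 0, le_max_right _ _, fun t => ?_⟩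
  by_cases ht : t ∈ Icc (0:ℝ) 1
  · exact (hK t ht).trans (le_max_left _ _)
  · refine le_trans (le_of_eq ?_) (le_max_right _ _)
    rw [mem_Icc, not_and_or, not_le, not_le] at ht
    rw [abs_eq_zero]
    rcases ht with ht | ht
    · have : Real.smoothTransition =ᶠ[𝓝 t] fun _ => (0:ℝ) := by
        filter_upwards [gt_mem_nhds ht] with s hs
        exact Real.smoothTransition.zero_of_nonpos hs.le
      rw [this.deriv_eq, deriv_const]
    · have : Real.smoothTransition =ᶠ[𝓝 t] fun _ => (1:ℝ) := by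
        filter_upwards [lt_mem_nhds ht] with s hs
        exact Real.smoothTransition.one_of_one_le hs.le
      rw [this.deriv_eq, deriv_const]

variable {E F W : Type} [NormedAddCommGroup E] [InnerProductSpace ℝ E] [FiniteDimensional ℝ E]
  [NormedAddCommGroup F] [InnerProductSpace ℝ F] [FiniteDimensional ℝ F]
  [NormedAddCommGroup W] [InnerProductSpace ℝ W] [FiniteDimensional ℝ W]

/-- radial cut-off: `1` for `‖v‖ ≤ a`, `0` for `b ≤ ‖v‖` -/
def ct (a b : ℝ) (v : F) : ℝ := Real.smoothTransition ((b ^ 2 - ‖v‖ ^ 2) / (b ^ 2 - a ^ 2))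

section ct

variable {a b : ℝ}

theorem ct_nonneg (v : F) : 0 ≤ ct a b v := Real.smoothTransition.nonneg _

theorem ct_le_one (v : F) : ct a b v ≤ 1 := Real.smoothTransition.le_one _

theorem contDiff_ct : ContDiff ℝ ∞ (ct a b : F → ℝ) := by
  have h1 : ContDiff ℝ ∞ fun v : F => (b ^ 2 - ‖v‖ ^ 2) / (b ^ 2 - a ^ 2) :=
    (contDiff_const.sub (contDiff_id.norm_sq ℝ)).div_const _
  exact (Real.smoothTransition.contDiff (n := ⊤)).comp h1

theorem ct_one (ha : 0 ≤ a) (hab : a < b) {v : F} (hv : ‖v‖ ≤ a) : ct a b v = 1 := by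
  have h0 : 0 < b ^ 2 - a ^ 2 := by nlinarith
  refine Real.smoothTransition.one_of_one_le ?_
  rw [le_div_iff₀ h0]
  nlinarith [norm_nonneg v]

theorem ct_zero (ha : 0 ≤ a) (hab : a < b) {v : F} (hv : b ≤ ‖v‖) : ct a b v = 0 := by
  have h0 : 0 < b ^ 2 - a ^ 2 := by nlinarith
  refine Real.smoothTransition.zero_of_nonpos ?_
  refine div_nonpos_of_nonpos_of_nonneg ?_ h0.le
  nlinarith [norm_nonneg v]

theorem fderiv_ct_of_le (ha : 0 ≤ a) (hab : a < b) {v : F} (hv : ‖v‖ ≤ a) :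
    fderiv ℝ (ct a b : F → ℝ) v = 0 := by
  refine IsLocalMax.fderiv_eq_zero ?_
  refine Eventually.of_forall fun w => ?_
  rw [ct_one ha hab hv]
  exact ct_le_one w

theorem norm_fderiv_ct_le {K : ℝ} (hK0 : 0 ≤ K)
    (hK : ∀ t, |deriv Real.smoothTransition t| ≤ K) (ha : 0 ≤ a) (hab : a < b) (v : F) :
    ‖fderiv ℝ (ct a b : F → ℝ) v‖ ≤ 2 * K / (b - a) := by
  have h0 : 0 < b ^ 2 - a ^ 2 := by nlinarith
  have hba : 0 < b - a := by linarith
  rcases lt_or_ge b ‖v‖ with hv | hv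
  · have : (ct a b : F → ℝ) =ᶠ[𝓝 v] fun _ => (0:ℝ) := by
      filter_upwards [(continuous_norm.tendsto v).eventually (lt_mem_nhds hv)] with w hw
      exact ct_zero ha hab hw.le
    rw [this.fderiv_eq]
    simp only [fderiv_fun_const, Pi.zero_apply, norm_zero]
    positivity
  · have h1 : HasDerivAt Real.smoothTransition
        (deriv Real.smoothTransition ((b ^ 2 - ‖v‖ ^ 2) / (b ^ 2 - a ^ 2)))
        ((b ^ 2 - ‖v‖ ^ 2) / (b ^ 2 - a ^ 2)) :=
      (((Real.smoothTransition.contDiff (n := 1)).differentiable one_ne_zero) _).hasDerivAt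
    have h2 : HasFDerivAt (fun v : F => (b ^ 2 - ‖v‖ ^ 2) / (b ^ 2 - a ^ 2))
        ((b ^ 2 - a ^ 2)⁻¹ • (-((2 : ℕ) • (innerSL ℝ v : F →L[ℝ] ℝ)))) v := by
      have h3 : HasFDerivAt (fun v : F => ‖v‖ ^ 2) ((2 : ℕ) • (innerSL ℝ v : F →L[ℝ] ℝ)) v := by
        have := (hasFDerivAt_id v).norm_sq
        simpa using this
      have h4 := (h3.const_sub (b ^ 2)).const_mul ((b ^ 2 - a ^ 2)⁻¹)
      refine h4.congr_of_eventuallyEq (Eventually.of_forall fun w => ?_)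
      simp only [div_eq_inv_mul]
    have h5 := h1.comp_hasFDerivAt v h2
    have h6 : HasFDerivAt (ct a b : F → ℝ) _ v := h5
    rw [h6.fderiv, norm_smul, norm_smul, norm_neg, Real.norm_eq_abs, norm_inv,
      Real.norm_of_nonneg h0.le]
    have h7 : ‖(2 : ℕ) • (innerSL ℝ v : F →L[ℝ] ℝ)‖ ≤ 2 * b := by
      rw [two_nsmul]
      refine (norm_add_le _ _).trans ?_
      rw [innerSL_apply_norm]
      linarith
    calc |deriv Real.smoothTransition ((b ^ 2 - ‖v‖ ^ 2) / (b ^ 2 - a ^ 2))| *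
          ((b ^ 2 - a ^ 2)⁻¹ * ‖(2 : ℕ) • (innerSL ℝ v : F →L[ℝ] ℝ)‖)
        ≤ K * ((b ^ 2 - a ^ 2)⁻¹ * (2 * b)) := by
          gcongr
          exact hK _
      _ ≤ K * (2 / (b - a)) := by
          gcongr
          rw [inv_mul_le_iff₀ h0, show b ^ 2 - a ^ 2 = (b - a) * (b + a) by ring]
          rw [mul_div_assoc', le_div_iff₀ hba]
          nlinarith
      _ = _ := by ring

end ct

/-! ### the region and the standing hypotheses -/

variable {π : E →L[ℝ] F} {ρ : E →L[ℝ] W} {q0 : E} {u : F → W} {x : E → F} {y : E → W}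
  {D : Set F} {κ h t s R : ℝ} {ι : Type} [Fintype ι] {e : OrthonormalBasis ι ℝ F}

/-- the cylinder `‖π(z - q0)‖ ≤ t`, `‖ρ(z - q0)‖ ≤ R` -/
def cyl (π : E →L[ℝ] F) (ρ : E →L[ℝ] W) (q0 : E) (t R : ℝ) : Set E :=
  {z | ‖π (z - q0)‖ ≤ t ∧ ‖ρ (z - q0)‖ ≤ R}

/-- squared distance to the graph, `2 f` in the language of `GL` -/
def tf (u : F → W) (x : E → F) (y : E → W) (z : E) : ℝ := nsq (fderiv ℝ u (x z)) (y z)

theorem tf_nonneg (z : E) : 0 ≤ tf u x y z := nsq_nonneg _ _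

theorem isClosed_cyl : IsClosed (cyl π ρ q0 t R) := by
  have h1 : IsClosed {z : E | ‖π (z - q0)‖ ≤ t} := isClosed_le (by fun_prop) continuous_const
  have h2 : IsClosed {z : E | ‖ρ (z - q0)‖ ≤ R} := isClosed_le (by fun_prop) continuous_const
  exact h1.inter h2

theorem cyl_subset_closedBall (hf : Fr π ρ) : cyl π ρ q0 t R ⊆ closedBall q0 (t + R) := by
  rintro z ⟨h1, h2⟩
  rw [mem_closedBall, dist_eq_norm]
  have h3 := hf.norm_sq (z - q0)
  have h4 := norm_nonneg (π (z - q0))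
  have h5 := norm_nonneg (ρ (z - q0))
  refine le_of_sq_le_sq ?_ (by linarith)
  nlinarith

theorem isCompact_cyl (hf : Fr π ρ) : IsCompact (cyl π ρ q0 t R) :=
  (isCompact_closedBall q0 (t + R)).of_isClosed_subset isClosed_cyl (cyl_subset_closedBall hf)

theorem cyl_mono (hst : s ≤ t) : cyl π ρ q0 s R ⊆ cyl π ρ q0 t R := fun _ hz =>
  ⟨hz.1.trans hst, hz.2⟩

section integral

variable [MeasurableSpace E] [BorelSpace E] {U : Set E} {V : Measure (E × (E →L[ℝ] E))} {m : ℕ}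

/-- `V` is near the graph of `u` over the cylinder, foot chart `(x, y)` -/
structure Nr (V : Measure (E × (E →L[ℝ] E))) (π : E →L[ℝ] F) (ρ : E →L[ℝ] W) (q0 : E) (u : F → W)
    (x : E → F) (y : E → W) (e : OrthonormalBasis ι ℝ F) (D : Set F) (κ h t R : ℝ) : Prop where
  fr : Fr π ρ
  bd : Bd u D κ
  k0 : 0 ≤ κ
  kh : κ * h ≤ 1
  dD : closedBall (0 : F) t ⊆ D
  mn : ∀ v ∈ D, ∑ i, fderiv ℝ (fderiv ℝ u) v (ginv (fderiv ℝ u v) (e i)) (e i) = 0
  ae : ∀ᵐ p ∂V, p.1 ∈ cyl π ρ q0 t R → ‖ρ (p.1 - q0)‖ ≤ R / 2 ∧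
    Foot π ρ q0 u p.1 (x p.1) (y p.1) ∧ x p.1 ∈ D ∧ ‖y p.1‖ ≤ h
  int : IntegrableOn (fun p : E × (E →L[ℝ] E) => tf u x y p.1) (Prod.fst ⁻¹' cyl π ρ q0 t R) V

theorem Nr.base (H : Nr V π ρ q0 u x y e D κ h t R) {z : E} (hz : z ∈ cyl π ρ q0 t R) :
    π (z - q0) ∈ D := H.dD (mem_closedBall_zero_iff.2 hz.1)

theorem Nr.minAt (H : Nr V π ρ q0 u x y e D κ h t R) {z : E} (hz : z ∈ cyl π ρ q0 t R) :
    MinAt e π q0 1 u κ z := by
  have h1 := H.base hz
  refine ⟨?_, ?_⟩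
  · simp only [bz, inv_one, one_smul]; exact H.bd.d2 _ h1
  · simp only [bz, inv_one, one_smul]; exact H.mn _ h1

theorem Nr.ht_le (H : Nr V π ρ q0 u x y e D κ h t R) :
    ∀ᵐ p ∂V, p.1 ∈ cyl π ρ q0 t R → ‖ht π ρ q0 1 u p.1‖ ^ 2 ≤ 4 / 3 * tf u x y p.1 := by
  filter_upwards [H.ae] with p hp hpc
  obtain ⟨-, h2, h3, h4⟩ := hp hpc
  refine ht_le_nsq H.bd H.k0 h2 h3 (H.base hpc) ?_
  exact (mul_le_mul_of_nonneg_left h4 H.k0).trans H.kh

theorem Nr.int_ht (H : Nr V π ρ q0 u x y e D κ h t R) (hV : St U V)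
    (hU : cyl π ρ q0 t R ⊆ U) {g : E → ℝ} (hg : Continuous g) :
    IntegrableOn (fun p : E × (E →L[ℝ] E) => g p.1) (Prod.fst ⁻¹' cyl π ρ q0 t R) V := by
  obtain ⟨C, hC⟩ := (isCompact_cyl (q0 := q0) (t := t) (R := R) H.fr).exists_bound_of_continuousOn
    hg.continuousOn
  have hlt : V (Prod.fst ⁻¹' cyl π ρ q0 t R) < ⊤ := by
    have := hV.fin _ hU (isCompact_cyl H.fr)
    have h2 : (Prod.fst ⁻¹' cyl π ρ q0 t R : Set (E × (E →L[ℝ] E))) = cyl π ρ q0 t R ×ˢ univ := by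
      ext p; simp
    rw [h2]; exact this
  refine Measure.integrableOn_of_bounded (M := C) hlt.ne
    (hg.comp continuous_fst).aestronglyMeasurable ?_
  filter_upwards [ae_restrict_mem (isClosed_cyl.preimage continuous_fst).measurableSet] with p hp
  exact hC p.1 hp

theorem Nr.int_le (H : Nr V π ρ q0 u x y e D κ h t R) :
    ∫ p in Prod.fst ⁻¹' cyl π ρ q0 t R, ‖ht π ρ q0 1 u p.1‖ ^ 2 ∂V ≤
      4 / 3 * ∫ p in Prod.fst ⁻¹' cyl π ρ q0 t R, tf u x y p.1 ∂V := by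
  rw [← integral_const_mul]
  refine integral_mono_of_nonneg (Eventually.of_forall fun p => by positivity)
    (H.int.const_mul _) ?_
  filter_upwards [ae_restrict_of_ae H.ht_le,
    ae_restrict_mem (isClosed_cyl.preimage continuous_fst).measurableSet] with p hp hpc
  exact hp hpc

/-- (S1) **sup bound**: squared distance to `M` at one point of density `θ` -/
theorem sup_foot (hV : St U V) (hm : ∀ᵐ p ∂V, tr p.2 = m) (hF : Module.finrank ℝ F = m)
    (H : Nr V π ρ q0 u x y e D κ h t R) {z0 : E} {r : ℝ} (hr : 0 < r)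
    (hU : closedBall z0 r ⊆ U) (hz0 : ball z0 r ⊆ cyl π ρ q0 t R)
    (hf0 : Foot π ρ q0 u z0 (x z0) (y z0)) (hx0 : x z0 ∈ D) (hy0 : ‖y z0‖ ≤ h)
    (hκ : 64 * m * κ ^ 2 * r ^ 2 ≤ 1) {θ : ℝ} (hθ : 0 ≤ θ)
    (hdens : ∃ᶠ t in 𝓝[>] (0 : ℝ), θ * t ^ m ≤ (V (Prod.fst ⁻¹' ball z0 t)).toReal) :
    θ * tf u x y z0 ≤ 2 * ((r ^ m)⁻¹ * ∫ p in Prod.fst ⁻¹' cyl π ρ q0 t R, tf u x y p.1 ∂V) := by
  have h1 := height_graph hV hm hF H.fr one_pos H.bd.smooth hr hU
    (Eventually.of_forall fun p hp => H.minAt (hz0 hp)) (by simpa using hκ) hθ hdens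
  have h2 : tf u x y z0 ≤ 4 / 3 * ‖ht π ρ q0 1 u z0‖ ^ 2 :=
    nsq_le_ht H.bd H.k0 hf0 hx0 (H.base (hz0 (mem_ball_self hr)))
      ((mul_le_mul_of_nonneg_left hy0 H.k0).trans H.kh)
  -- integral over the ball
  have h3 : ∫ p in Prod.fst ⁻¹' ball z0 r, ‖ht π ρ q0 1 u p.1‖ ^ 2 ∂V ≤
      4 / 3 * ∫ p in Prod.fst ⁻¹' cyl π ρ q0 t R, tf u x y p.1 ∂V := by
    have e1 : ∫ p in Prod.fst ⁻¹' ball z0 r, ‖ht π ρ q0 1 u p.1‖ ^ 2 ∂V ≤
        ∫ p in Prod.fst ⁻¹' ball z0 r, 4 / 3 * tf u x y p.1 ∂V := by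
      refine integral_mono_of_nonneg (Eventually.of_forall fun p => by positivity)
        ((H.int.mono_set (preimage_mono hz0)).const_mul _) ?_
      filter_upwards [ae_restrict_of_ae H.ht_le,
        ae_restrict_mem (isOpen_ball.preimage continuous_fst).measurableSet] with p hp hpc
      exact hp (hz0 hpc)
    refine e1.trans ?_
    rw [integral_const_mul]
    refine mul_le_mul_of_nonneg_left ?_ (by norm_num)
    exact setIntegral_mono_set H.int (Eventually.of_forall fun p => tf_nonneg _)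
      (LE.le.eventuallyLE (preimage_mono hz0))
  calc θ * tf u x y z0 ≤ 4 / 3 * (θ * ‖ht π ρ q0 1 u z0‖ ^ 2) := by nlinarith
    _ ≤ 4 / 3 * (33 / 32 * ((r ^ m)⁻¹ *
        ∫ z in Prod.fst ⁻¹' ball z0 r, ‖ht π ρ q0 1 u z.1‖ ^ 2 ∂V)) := by gcongr
    _ ≤ 4 / 3 * (33 / 32 * ((r ^ m)⁻¹ *
        (4 / 3 * ∫ p in Prod.fst ⁻¹' cyl π ρ q0 t R, tf u x y p.1 ∂V))) := by gcongr
    _ = 11 / 6 * ((r ^ m)⁻¹ * ∫ p in Prod.fst ⁻¹' cyl π ρ q0 t R, tf u x y p.1 ∂V) := by ring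
    _ ≤ _ := by
        have : 0 ≤ (r ^ m)⁻¹ * ∫ p in Prod.fst ⁻¹' cyl π ρ q0 t R, tf u x y p.1 ∂V :=
          mul_nonneg (by positivity) (integral_nonneg fun p => tf_nonneg _)
        linarith

/-- the tilt relative to the graph at the foot point, `= ∑ ‖(ρ - Du(x) π) P b_j‖²` -/
def tft (π : E →L[ℝ] F) (ρ : E →L[ℝ] W) (u : F → W) (x : E → F) (p : E × (E →L[ℝ] E)) : ℝ :=
  tau (nf π ρ (fderiv ℝ u (x p.1))) p.2

theorem tft_nonneg (p : E × (E →L[ℝ] E)) : 0 ≤ tft π ρ u x p := tau_nonneg _ _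

/-- the cut-off of the cylinder -/
def cf (π : E →L[ℝ] F) (ρ : E →L[ℝ] W) (q0 : E) (s t R : ℝ) (z : E) : ℝ :=
  ct s t (π (z - q0)) * ct (R / 2) R (ρ (z - q0))

theorem contDiff_cf : ContDiff ℝ 1 (cf π ρ q0 s t R) := by
  have h1 : ContDiff ℝ 1 fun z : E => π (z - q0) := π.contDiff.comp (contDiff_id.sub contDiff_const)
  have h2 : ContDiff ℝ 1 fun z : E => ρ (z - q0) := ρ.contDiff.comp (contDiff_id.sub contDiff_const)
  exact ((contDiff_ct.of_le (by norm_cast)).comp h1).mul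
    ((contDiff_ct.of_le (by norm_cast)).comp h2)

theorem tsupport_cf (hs : 0 ≤ s) (hst : s < t) (hR : 0 < R) :
    tsupport (cf π ρ q0 s t R) ⊆ cyl π ρ q0 t R := by
  refine closure_minimal (fun z hz => ?_) isClosed_cyl
  rw [Function.mem_support] at hz
  refine ⟨?_, ?_⟩
  · by_contra hcon
    rw [not_le] at hcon
    exact hz (by rw [cf, ct_zero hs hst hcon.le, zero_mul])
  · by_contra hcon
    rw [not_le] at hcon
    exact hz (by rw [cf, ct_zero (by linarith) (by linarith) hcon.le, mul_zero])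

theorem hasCompactSupport_cf (hf : Fr π ρ) (hs : 0 ≤ s) (hst : s < t) (hR : 0 < R) :
    HasCompactSupport (cf π ρ q0 s t R) :=
  (isCompact_cyl hf).of_isClosed_subset (isClosed_tsupport _) (tsupport_cf hs hst hR)

theorem cf_one (hs : 0 ≤ s) (hst : s < t) (hR : 0 < R) {z : E} (h1 : ‖π (z - q0)‖ ≤ s)
    (h2 : ‖ρ (z - q0)‖ ≤ R / 2) : cf π ρ q0 s t R z = 1 := by
  rw [cf, ct_one hs hst h1, ct_one (by linarith) (by linarith) h2, one_mul]

theorem norm_fderiv_cf (hf : Fr π ρ) {K : ℝ} (hK0 : 0 ≤ K)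
    (hK : ∀ t, |deriv Real.smoothTransition t| ≤ K) (hs : 0 ≤ s) (hst : s < t) (hR : 0 < R)
    {z : E} (h2 : ‖ρ (z - q0)‖ ≤ R / 2) : ‖fderiv ℝ (cf π ρ q0 s t R) z‖ ≤ 2 * K / (t - s) := by
  have h3 : HasFDerivAt (fun z : E => π (z - q0)) π z := by
    have h4 : HasFDerivAt (fun z => π z - π q0) π z := π.hasFDerivAt.sub_const _
    simpa only [map_sub] using h4
  have h4 : HasFDerivAt (fun z : E => ρ (z - q0)) ρ z := by
    have h4 : HasFDerivAt (fun z => ρ z - ρ q0) ρ z := ρ.hasFDerivAt.sub_const _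
    simpa only [map_sub] using h4
  have h5 : HasFDerivAt (ct s t : F → ℝ) (fderiv ℝ (ct s t : F → ℝ) (π (z - q0))) (π (z - q0)) :=
    ((contDiff_ct.differentiable (by norm_num)) _).hasFDerivAt
  have h6 : HasFDerivAt (ct (R / 2) R : W → ℝ) (0 : W →L[ℝ] ℝ) (ρ (z - q0)) := by
    rw [← fderiv_ct_of_le (b := R) (by linarith) (by linarith) h2]
    exact ((contDiff_ct.differentiable (by norm_num)) _).hasFDerivAt
  have h7a := h5.comp z h3
  have h7b := h6.comp z h4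
  have h7 : HasFDerivAt (cf π ρ q0 s t R) _ z := h7a.mul h7b
  rw [h7.fderiv]
  have h8 : ct (R / 2) R (ρ (z - q0)) = 1 := ct_one (by linarith) (by linarith) h2
  simp only [ContinuousLinearMap.zero_comp, smul_zero, zero_add, Function.comp_apply, h8, one_smul]
  refine ContinuousLinearMap.opNorm_le_bound _ (by have : 0 < t - s := by linarith
                                                   positivity) fun v => ?_
  rw [ContinuousLinearMap.comp_apply]
  refine (ContinuousLinearMap.le_opNorm _ _).trans ?_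
  have h9 := norm_fderiv_ct_le hK0 hK hs hst (π (z - q0))
  have h10 := hf.norm_p_le v
  gcongr

end integral

end

end Crest.Agent.R234.Gs_685
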