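import Crest.Agent.R234.Gs2_685

/-!
R234 (helper685), GL-SUP part 3: the energy bound relative to a minimal graph in the foot chart, and
the versions over the sets `{‖x(z)‖ ≤ s}`.
-/

set_option autoImplicit false
set_option linter.unusedSectionVars false

open MeasureTheory Metric Set Filter Topology
open scoped InnerProductSpace ContDiff

namespace Crest.Agent.R234.Gs_685

open Crest.Agent.R234.Cacc_113 (tr IsPr St)
open Crest.Agent.R234.Ell1_3 (gop ginv adjL)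
open Crest.Agent.R234.Supm_685

noncomputable section

/-- the absolute constant of the cut-offs -/
def Kst : ℝ := exists_st_bound.choose

theorem Kst_nonneg : 0 ≤ Kst := exists_st_bound.choose_spec.1

theorem Kst_bound (t : ℝ) : |deriv Real.smoothTransition t| ≤ Kst :=
  exists_st_bound.choose_spec.2 t

/-- the constant of the energy bound -/
def Ken : ℝ := 200 * Kst ^ 2 + 12

theorem Ken_pos : 0 < Ken := by unfold Ken; positivity

variable {E F W : Type} [NormedAddCommGroup E] [InnerProductSpace ℝ E] [FiniteDimensional ℝ E]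
  [NormedAddCommGroup F] [InnerProductSpace ℝ F] [FiniteDimensional ℝ F]
  [NormedAddCommGroup W] [InnerProductSpace ℝ W] [FiniteDimensional ℝ W]

variable {π : E →L[ℝ] F} {ρ : E →L[ℝ] W} {q0 : E} {u : F → W} {x : E → F} {y : E → W}
  {D : Set F} {κ h t s R : ℝ} {ι : Type} [Fintype ι] {e : OrthonormalBasis ι ℝ F}
  [MeasurableSpace E] [BorelSpace E] {U : Set E} {V : Measure (E × (E →L[ℝ] E))} {m : ℕ}

theorem Nr.mono_set (H : Nr V π ρ q0 u x y e D κ h t R) {S : Set (E × (E →L[ℝ] E))}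
    (hS : S ⊆ Prod.fst ⁻¹' cyl π ρ q0 t R) :
    ∫ p in S, tf u x y p.1 ∂V ≤ ∫ p in Prod.fst ⁻¹' cyl π ρ q0 t R, tf u x y p.1 ∂V :=
  setIntegral_mono_set H.int (Eventually.of_forall fun _ => tf_nonneg _)
    (LE.le.eventuallyLE hS)

/-- (S2) **energy bound** relative to the graph, over any set `S` inside the smaller cylinder. -/
theorem energy_foot_set (hV : St U V) (hm : ∀ᵐ p ∂V, tr p.2 = m) (hF : Module.finrank ℝ F = m)
    (H : Nr V π ρ q0 u x y e D κ h t R) (hs : 0 ≤ s) (hst : s < t) (hR : 0 < R)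
    (hU : cyl π ρ q0 t R ⊆ U) {S : Set (E × (E →L[ℝ] E))}
    (hS : S ≤ᵐ[V] (Prod.fst ⁻¹' cyl π ρ q0 s R)) :
    ∫ p in S, tft π ρ u x p ∂V ≤
      Ken * (((t - s) ^ 2)⁻¹ + (m + 1) ^ 2 * κ ^ 2) *
        ∫ p in Prod.fst ⁻¹' cyl π ρ q0 t R, tf u x y p.1 ∂V := by
  set φ := cf π ρ q0 s t R with hφ
  have hφc : ContDiff ℝ 1 φ := contDiff_cf
  have hcs : HasCompactSupport φ := hasCompactSupport_cf H.fr hs hst hR
  have hts : tsupport φ ⊆ cyl π ρ q0 t R := tsupport_cf hs hst hR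
  have hmc : MeasurableSet (Prod.fst ⁻¹' cyl π ρ q0 t R : Set (E × (E →L[ℝ] E))) :=
    (isClosed_cyl.preimage continuous_fst).measurableSet
  have hms : MeasurableSet (Prod.fst ⁻¹' cyl π ρ q0 s R : Set (E × (E →L[ℝ] E))) :=
    (isClosed_cyl.preimage continuous_fst).measurableSet
  have h1 := cacc_graph hV hm hF H.fr one_pos H.bd.smooth hφc hcs (hts.trans hU)
    (Eventually.of_forall fun p hp => H.minAt (hts hp))
  have hst0 : 0 < t - s := by linarith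
  have hκ := H.k0
  set I := ∫ p in Prod.fst ⁻¹' cyl π ρ q0 t R, ‖ht π ρ q0 1 u p.1‖ ^ 2 ∂V with hI
  have hI0 : 0 ≤ I := integral_nonneg fun p => by positivity
  have hcn : Continuous fun z => ‖ht π ρ q0 1 u z‖ ^ 2 := (contDiff_nsq H.bd.smooth).continuous
  have hIint : IntegrableOn (fun p : E × (E →L[ℝ] E) => ‖ht π ρ q0 1 u p.1‖ ^ 2)
      (Prod.fst ⁻¹' cyl π ρ q0 t R) V := H.int_ht hV hU hcn
  -- the two right hand integrals
  have hB : ∫ p, φ p.1 ^ 2 * ‖ht π ρ q0 1 u p.1‖ ^ 2 ∂V ≤ I := by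
    have e1 : ∫ p, φ p.1 ^ 2 * ‖ht π ρ q0 1 u p.1‖ ^ 2 ∂V =
        ∫ p in Prod.fst ⁻¹' cyl π ρ q0 t R, φ p.1 ^ 2 * ‖ht π ρ q0 1 u p.1‖ ^ 2 ∂V := by
      rw [setIntegral_eq_integral_of_forall_compl_eq_zero]
      intro p hp
      rw [image_eq_zero_of_notMem_tsupport fun hc => hp (hts hc)]; simp
    rw [e1, hI]
    refine integral_mono_of_nonneg (Eventually.of_forall fun p => by positivity) hIint ?_
    refine Eventually.of_forall fun p => ?_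
    have e2 : φ p.1 ^ 2 ≤ 1 := by
      have a1 : 0 ≤ φ p.1 := mul_nonneg (ct_nonneg _) (ct_nonneg _)
      have a2 : φ p.1 ≤ 1 := by
        rw [hφ, cf]
        exact mul_le_one₀ (ct_le_one _) (ct_nonneg _) (ct_le_one _)
      nlinarith
    have e3 : 0 ≤ ‖ht π ρ q0 1 u p.1‖ ^ 2 := by positivity
    change φ p.1 ^ 2 * ‖ht π ρ q0 1 u p.1‖ ^ 2 ≤ ‖ht π ρ q0 1 u p.1‖ ^ 2
    nlinarith
  have hA : ∫ p, ‖fderiv ℝ φ p.1‖ ^ 2 * ‖ht π ρ q0 1 u p.1‖ ^ 2 ∂V ≤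
      (2 * Kst / (t - s)) ^ 2 * I := by
    have e1 : ∫ p, ‖fderiv ℝ φ p.1‖ ^ 2 * ‖ht π ρ q0 1 u p.1‖ ^ 2 ∂V =
        ∫ p in Prod.fst ⁻¹' cyl π ρ q0 t R, ‖fderiv ℝ φ p.1‖ ^ 2 *
          ‖ht π ρ q0 1 u p.1‖ ^ 2 ∂V := by
      rw [setIntegral_eq_integral_of_forall_compl_eq_zero]
      intro p hp
      have : fderiv ℝ φ p.1 = 0 := by
        by_contra hcon
        exact hp (hts (support_fderiv_subset ℝ hcon))
      rw [this]; simp
    rw [e1, hI, ← integral_const_mul]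
    refine integral_mono_of_nonneg (Eventually.of_forall fun p => by positivity)
      (hIint.const_mul _) ?_
    filter_upwards [ae_restrict_of_ae H.ae, ae_restrict_mem hmc] with p hp hpc
    have e2 := norm_fderiv_cf (q0 := q0) H.fr Kst_nonneg Kst_bound hs hst hR (hp hpc).1
    rw [← hφ] at e2
    gcongr
  -- the left hand side
  have hcnz : Continuous (nz π ρ q0 1 u) := (contDiff_nz H.bd.smooth).continuous
  have hctau : Continuous fun p : E × (E →L[ℝ] E) => tau (nz π ρ q0 1 u p.1) p.2 := by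
    unfold tau
    refine continuous_finsetSum _ fun j _ => ?_
    exact (((hcnz.comp continuous_fst).clm_apply
      (continuous_snd.clm_apply continuous_const)).norm.pow 2)
  have hiA : Integrable (fun p : E × (E →L[ℝ] E) => φ p.1 ^ 2 * tau (nz π ρ q0 1 u p.1) p.2) V := by
    refine hV.integrable (((hφc.continuous.comp continuous_fst).pow 2).mul hctau)
      hcs.isCompact (hts.trans hU) ?_
    intro p hp
    rw [image_eq_zero_of_notMem_tsupport hp]; simp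
  have hSt : S ≤ᵐ[V] (Prod.fst ⁻¹' cyl π ρ q0 t R) :=
    hS.trans (LE.le.eventuallyLE (preimage_mono (cyl_mono hst.le)))
  have hae : ∀ᵐ p ∂(V.restrict S), p ∈ (Prod.fst ⁻¹' cyl π ρ q0 s R) :=
    (ae_restrict_mem hms).filter_mono (ae_mono (Measure.restrict_mono_ae hS))
  have hL : ∫ p in S, tft π ρ u x p ∂V ≤
      2 * ∫ p, φ p.1 ^ 2 * tau (nz π ρ q0 1 u p.1) p.2 ∂V + 1 / 6 * κ ^ 2 * m * I := by
    have hIS := hIint.mono_set_ae hSt
    have e1 : ∫ p in S, tft π ρ u x p ∂V ≤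
        ∫ p in S, (2 * (φ p.1 ^ 2 * tau (nz π ρ q0 1 u p.1) p.2) +
            1 / 6 * κ ^ 2 * m * ‖ht π ρ q0 1 u p.1‖ ^ 2) ∂V := by
      refine integral_mono_of_nonneg (Eventually.of_forall fun p => tft_nonneg _)
        ((hiA.integrableOn.const_mul _).add (hIS.const_mul _)) ?_
      filter_upwards [ae_restrict_of_ae H.ae, ae_restrict_of_ae hm, ae_restrict_of_ae hV.pr,
        hae] with p hp hmp hpr hpc
      have hpt : p.1 ∈ cyl π ρ q0 t R := cyl_mono hst.le hpc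
      obtain ⟨a1, a2, a3, a4⟩ := hp hpt
      have hky : κ * ‖y p.1‖ ≤ 1 := (mul_le_mul_of_nonneg_left a4 H.k0).trans H.kh
      have e2 := tau_foot_le H.fr H.bd H.k0 a2 a3 (H.base hpt) hpr
      have e3 := nsq_le_ht H.bd H.k0 a2 a3 (H.base hpt) hky
      have e4 := sq_le_nsq (fderiv ℝ u (x p.1)) (y p.1)
      have e5 : φ p.1 = 1 := cf_one hs hst hR hpc.1 a1
      rw [hmp] at e2
      change tau (nf π ρ (fderiv ℝ u (x p.1))) p.2 ≤ 2 * (φ p.1 ^ 2 *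
        tau (nz π ρ q0 1 u p.1) p.2) + 1 / 6 * κ ^ 2 * m * ‖ht π ρ q0 1 u p.1‖ ^ 2
      rw [e5, one_pow, one_mul]
      refine e2.trans ?_
      have e6 : 1 / 8 * κ ^ 2 * ‖y p.1‖ ^ 2 * m ≤
          1 / 8 * κ ^ 2 * (4 / 3 * ‖ht π ρ q0 1 u p.1‖ ^ 2) * m := by
        gcongr
        exact e4.trans e3
      linarith
    refine e1.trans ?_
    rw [integral_add (hiA.integrableOn.const_mul _) (hIS.const_mul _), integral_const_mul,
      integral_const_mul]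
    have e7 : ∫ p in S, φ p.1 ^ 2 * tau (nz π ρ q0 1 u p.1) p.2 ∂V ≤
        ∫ p, φ p.1 ^ 2 * tau (nz π ρ q0 1 u p.1) p.2 ∂V :=
      setIntegral_le_integral hiA (Eventually.of_forall fun p => by
        have := tau_nonneg (nz π ρ q0 1 u p.1) p.2
        positivity)
    have e8 : ∫ p in S, ‖ht π ρ q0 1 u p.1‖ ^ 2 ∂V ≤ I :=
      setIntegral_mono_set hIint (Eventually.of_forall fun p => by positivity) hSt
    have e9 : 0 ≤ 1 / 6 * κ ^ 2 * m := by positivity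
    have := mul_le_mul_of_nonneg_left e8 e9
    linarith
  have hJ := H.int_le
  rw [← hI] at hJ
  set J := ∫ p in Prod.fst ⁻¹' cyl π ρ q0 t R, tf u x y p.1 ∂V with hJdef
  have hJ0 : 0 ≤ J := integral_nonneg fun p => tf_nonneg _
  rw [div_one] at h1
  have h2 : ∫ p in S, tft π ρ u x p ∂V ≤
      (128 * Kst ^ 2 * ((t - s) ^ 2)⁻¹ + (8 * m ^ 2 + 1 / 6 * m) * κ ^ 2) * I := by
    have e1 : (2 * Kst / (t - s)) ^ 2 = 4 * Kst ^ 2 * ((t - s) ^ 2)⁻¹ := by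
      rw [div_pow]; ring
    rw [e1] at hA
    have e2 : 4 * (m * κ) ^ 2 * ∫ p, φ p.1 ^ 2 * ‖ht π ρ q0 1 u p.1‖ ^ 2 ∂V ≤
        4 * (m * κ) ^ 2 * I := by gcongr
    nlinarith
  refine h2.trans ?_
  have h3 : (128 * Kst ^ 2 * ((t - s) ^ 2)⁻¹ + (8 * m ^ 2 + 1 / 6 * m) * κ ^ 2) * I ≤
      (128 * Kst ^ 2 * ((t - s) ^ 2)⁻¹ + (8 * m ^ 2 + 1 / 6 * m) * κ ^ 2) * (4 / 3 * J) := by
    gcongr
  refine h3.trans ?_
  have h4 : (128 * Kst ^ 2 * ((t - s) ^ 2)⁻¹ + (8 * m ^ 2 + 1 / 6 * m) * κ ^ 2) * (4 / 3 * J) =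
      ((128 * Kst ^ 2 * ((t - s) ^ 2)⁻¹ + (8 * m ^ 2 + 1 / 6 * m) * κ ^ 2) * (4 / 3)) * J := by ring
  rw [h4]
  refine mul_le_mul_of_nonneg_right ?_ hJ0
  have hm0 : (0:ℝ) ≤ m := Nat.cast_nonneg _
  have e3 : 0 ≤ ((t - s) ^ 2)⁻¹ := by positivity
  have e4 : 128 * Kst ^ 2 * ((t - s) ^ 2)⁻¹ * (4 / 3) ≤ Ken * ((t - s) ^ 2)⁻¹ := by
    unfold Ken; nlinarith [mul_nonneg (sq_nonneg Kst) e3]
  have e5 : (8 * m ^ 2 + 1 / 6 * m) * κ ^ 2 * (4 / 3) ≤ Ken * ((m + 1) ^ 2 * κ ^ 2) := by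
    have a1 : (8 * m ^ 2 + 1 / 6 * m) * (4 / 3) ≤ 12 * ((m:ℝ) + 1) ^ 2 := by nlinarith
    have a2 : 12 * ((m:ℝ) + 1) ^ 2 ≤ Ken * ((m:ℝ) + 1) ^ 2 := by
      gcongr
      unfold Ken
      nlinarith [sq_nonneg Kst]
    have a3 := mul_le_mul_of_nonneg_right (a1.trans a2) (sq_nonneg κ)
    linarith
  linarith

/-- (S2) over the smaller cylinder -/
theorem energy_foot (hV : St U V) (hm : ∀ᵐ p ∂V, tr p.2 = m) (hF : Module.finrank ℝ F = m)
    (H : Nr V π ρ q0 u x y e D κ h t R) (hs : 0 ≤ s) (hst : s < t) (hR : 0 < R)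
    (hU : cyl π ρ q0 t R ⊆ U) :
    ∫ p in Prod.fst ⁻¹' cyl π ρ q0 s R, tft π ρ u x p ∂V ≤
      Ken * (((t - s) ^ 2)⁻¹ + (m + 1) ^ 2 * κ ^ 2) *
        ∫ p in Prod.fst ⁻¹' cyl π ρ q0 t R, tf u x y p.1 ∂V :=
  energy_foot_set hV hm hF H hs hst hR hU EventuallyLE.rfl

/-- (S2) over the sets `{‖x(z)‖ ≤ s}` (inside the cylinder). -/
theorem energy_foot_x (hV : St U V) (hm : ∀ᵐ p ∂V, tr p.2 = m) (hF : Module.finrank ℝ F = m)
    (H : Nr V π ρ q0 u x y e D κ h t R) (hs : 0 ≤ s) (hst : s + 2 * h < t) (hh : 0 ≤ h)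
    (hR : 0 < R) (hU : cyl π ρ q0 t R ⊆ U) :
    ∫ p in {p | ‖x p.1‖ ≤ s ∧ p.1 ∈ cyl π ρ q0 t R}, tft π ρ u x p ∂V ≤
      4 * Ken * (((t - s) ^ 2)⁻¹ + (m + 1) ^ 2 * κ ^ 2) *
        ∫ p in Prod.fst ⁻¹' cyl π ρ q0 t R, tf u x y p.1 ∂V := by
  have hs' : s + h < t := by linarith
  have hJ0 : 0 ≤ ∫ p in Prod.fst ⁻¹' cyl π ρ q0 t R, tf u x y p.1 ∂V :=
    integral_nonneg fun p => tf_nonneg _
  have h2 : ((t - (s + h)) ^ 2)⁻¹ ≤ 4 * ((t - s) ^ 2)⁻¹ := by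
    have a0 : 0 < t - s := by linarith
    have a1 : (t - s) / 2 ≤ t - (s + h) := by linarith
    have a2 : ((t - (s + h)) ^ 2)⁻¹ ≤ (((t - s) / 2) ^ 2)⁻¹ := by
      gcongr
    refine a2.trans (le_of_eq ?_)
    field_simp
    norm_num
  have h3 : Ken * (((t - (s + h)) ^ 2)⁻¹ + (m + 1) ^ 2 * κ ^ 2) ≤
      4 * Ken * (((t - s) ^ 2)⁻¹ + (m + 1) ^ 2 * κ ^ 2) := by
    have a1 : 0 ≤ ((m:ℝ) + 1) ^ 2 * κ ^ 2 := by positivity
    have a2 := Ken_pos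
    nlinarith
  refine (energy_foot_set hV hm hF H (s := s + h) (by linarith) hs' hR hU ?_).trans
    (mul_le_mul_of_nonneg_right h3 hJ0)
  filter_upwards [H.ae] with p hp hpS
  obtain ⟨hx, hc⟩ := hpS
  obtain ⟨-, a2, a3, a4⟩ := hp hc
  refine ⟨?_, hc.2⟩
  have a5 := norm_foot_sub_le H.bd a2 a3
  have a6 : π (p.1 - q0) = x p.1 - (x p.1 - π (p.1 - q0)) := by abel
  rw [a6]
  refine (norm_sub_le _ _).trans ?_
  linarith [norm_nonneg (y p.1)]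

/-- (S1) at a point with `‖x(z0)‖ ≤ s`. -/
theorem sup_foot_x (hV : St U V) (hm : ∀ᵐ p ∂V, tr p.2 = m) (hF : Module.finrank ℝ F = m)
    (H : Nr V π ρ q0 u x y e D κ h t R) {z0 : E} {r : ℝ} (hr : 0 < r)
    (hU' : closedBall z0 r ⊆ U)
    (hf0 : Foot π ρ q0 u z0 (x z0) (y z0)) (hx0 : x z0 ∈ D) (hy0 : ‖y z0‖ ≤ h)
    (hxs : ‖x z0‖ + h + r ≤ t) (hρ : ‖ρ (z0 - q0)‖ + r ≤ R)
    (hκ : 64 * m * κ ^ 2 * r ^ 2 ≤ 1) {θ : ℝ} (hθ : 0 ≤ θ)
    (hdens : ∃ᶠ t in 𝓝[>] (0 : ℝ), θ * t ^ m ≤ (V (Prod.fst ⁻¹' ball z0 t)).toReal) :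
    θ * tf u x y z0 ≤ 2 * ((r ^ m)⁻¹ * ∫ p in Prod.fst ⁻¹' cyl π ρ q0 t R, tf u x y p.1 ∂V) := by
  refine sup_foot hV hm hF H hr hU' ?_ hf0 hx0 hy0 hκ hθ hdens
  intro z hz
  have h0 : ‖z - z0‖ < r := by rwa [mem_ball, dist_eq_norm] at hz
  have h1 : z - q0 = (z - z0) + (z0 - q0) := by abel
  have h2 := norm_foot_sub_le H.bd hf0 hx0
  have h3 : ‖π (z0 - q0)‖ ≤ ‖x z0‖ + h := by
    have a6 : π (z0 - q0) = x z0 - (x z0 - π (z0 - q0)) := by abel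
    rw [a6]
    refine (norm_sub_le _ _).trans ?_
    linarith [norm_nonneg (y z0)]
  refine ⟨?_, ?_⟩
  · rw [h1, map_add]
    have := norm_add_le (π (z - z0)) (π (z0 - q0))
    have := H.fr.norm_p_le (z - z0)
    linarith
  · rw [h1, map_add]
    have := norm_add_le (ρ (z - z0)) (ρ (z0 - q0))
    have := H.fr.norm_r_le (z - z0)
    linarith

/-- the right hand side over a set `{‖x(z)‖ ≤ t + h}` -/
theorem Nr.rhs_le (H : Nr V π ρ q0 u x y e D κ h t R) (hh : 0 ≤ h) :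
    ∫ p in Prod.fst ⁻¹' cyl π ρ q0 t R, tf u x y p.1 ∂V ≤
      ∫ p in {p | ‖x p.1‖ ≤ t + h ∧ p.1 ∈ cyl π ρ q0 t R}, tf u x y p.1 ∂V := by
  refine setIntegral_mono_set (H.int.mono_set fun p hp => hp.2)
    (Eventually.of_forall fun _ => tf_nonneg _) ?_
  filter_upwards [H.ae] with p hp hpS
  obtain ⟨-, a2, a3, a4⟩ := hp hpS
  refine ⟨?_, hpS⟩
  have a5 := norm_foot_sub_le H.bd a2 a3
  have a6 : x p.1 = (x p.1 - π (p.1 - q0)) + π (p.1 - q0) := by abel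
  rw [a6]
  refine (norm_add_le _ _).trans ?_
  have := hpS.1
  linarith [norm_nonneg (y p.1)]

/-- the tilt at the foot dominates the trace of the normal projection -/
theorem tr_le_tft (hf : Fr π ρ) {p : E × (E →L[ℝ] E)} (hp : IsPr p.2) :
    tr ((1 - pg π ρ (fderiv ℝ u (x p.1))) ∘L p.2) ≤ tft π ρ u x p :=
  tr_compl_le hf _ _ hp

end

end Crest.Agent.R234.Gs_685
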