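import Crest.Agent.R234.Gs3_685

/-!
R234 (helper685), GL-SUP part 4: the bounds of Gs2/Gs3 over the regions
`tcl = {‖L0 (π(z - q0) - X0)‖ ≤ t, |hgt z| ≤ r}` (456's normalised centre `X0`, `L0`, tube of radius
`r` around the graph).
-/

set_option autoImplicit false
set_option linter.unusedSectionVars false

open MeasureTheory Metric Set Filter Topology
open scoped InnerProductSpace ContDiff

namespace Crest.Agent.R234.Gt_685

open Crest.Agent.R234.Cacc_113 (tr IsPr St)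
open Crest.Agent.R234.Ell1_3 (gop ginv adjL)
open Crest.Agent.R234.Supm_685 Crest.Agent.R234.Gs_685

noncomputable section

variable {E F W : Type} [NormedAddCommGroup E] [InnerProductSpace ℝ E] [FiniteDimensional ℝ E]
  [NormedAddCommGroup F] [InnerProductSpace ℝ F] [FiniteDimensional ℝ F]
  [NormedAddCommGroup W] [InnerProductSpace ℝ W] [FiniteDimensional ℝ W]

/-! ### the region and the standing hypotheses -/

variable {π : E →L[ℝ] F} {ρ : E →L[ℝ] W} {q0 : E} {u : F → W} {x : E → F} {y : E → W}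
  {D : Set F} {κ h t s r : ℝ} {ι : Type} [Fintype ι] {e : OrthonormalBasis ι ℝ F}
  {L0 : F →L[ℝ] F} {X0 : F}

/-- the region `‖L0 (π(z - q0) - X0)‖ ≤ t`, `|hgt z| ≤ r` -/
def tcl (π : E →L[ℝ] F) (ρ : E →L[ℝ] W) (q0 : E) (u : F → W) (L0 : F →L[ℝ] F) (X0 : F)
    (t r : ℝ) : Set E :=
  {z | ‖L0 (π (z - q0) - X0)‖ ≤ t ∧ ‖ht π ρ q0 1 u z‖ ≤ r}

/-- normalisation of the centre -/
structure Nm (L0 : F →L[ℝ] F) : Prop where
  le : ∀ v, ‖v‖ ≤ ‖L0 v‖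
  norm : ‖L0‖ ≤ 2

theorem continuous_ht (hu : ContDiff ℝ 2 u) : Continuous (ht π ρ q0 1 u) :=
  (contDiff_ht hu).continuous

theorem isClosed_tcl (hu : ContDiff ℝ 2 u) : IsClosed (tcl π ρ q0 u L0 X0 t r) := by
  have h1 : IsClosed {z : E | ‖L0 (π (z - q0) - X0)‖ ≤ t} :=
    isClosed_le (by fun_prop) continuous_const
  have h2 : IsClosed {z : E | ‖ht π ρ q0 1 u z‖ ≤ r} :=
    isClosed_le (continuous_ht hu).norm continuous_const
  exact h1.inter h2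

theorem isCompact_tcl (hf : Fr π ρ) (hL : Nm L0) (hu : ContDiff ℝ 2 u) :
    IsCompact (tcl π ρ q0 u L0 X0 t r) := by
  obtain ⟨C, hC⟩ := (isCompact_closedBall X0 t).exists_bound_of_continuousOn
    hu.continuous.continuousOn
  refine (isCompact_closedBall q0 (t + ‖X0‖ + (r + C))).of_isClosed_subset (isClosed_tcl hu) ?_
  rintro z ⟨h1, h2⟩
  rw [mem_closedBall, dist_eq_norm]
  have h3 : ‖π (z - q0) - X0‖ ≤ t := (hL.le _).trans h1
  have h4 : ‖π (z - q0)‖ ≤ t + ‖X0‖ := by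
    have : π (z - q0) = (π (z - q0) - X0) + X0 := by abel
    rw [this]; exact (norm_add_le _ _).trans (by linarith)
  have h5 : ‖ρ (z - q0)‖ ≤ r + C := by
    have : ρ (z - q0) = ht π ρ q0 1 u z + u (π (z - q0)) := by simp [ht]
    rw [this]
    refine (norm_add_le _ _).trans (add_le_add h2 (hC _ ?_))
    rw [mem_closedBall, dist_eq_norm]; exact h3
  have h6 := hf.norm_sq (z - q0)
  have h7 := norm_nonneg (π (z - q0))
  have h8 := norm_nonneg (ρ (z - q0))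
  refine le_of_sq_le_sq ?_ (by linarith)
  nlinarith

theorem tcl_mono (hst : s ≤ t) : tcl π ρ q0 u L0 X0 s r ⊆ tcl π ρ q0 u L0 X0 t r := fun _ hz =>
  ⟨hz.1.trans hst, hz.2⟩

theorem tcl_mono_r {r' : ℝ} (hr : r ≤ r') : tcl π ρ q0 u L0 X0 t r ⊆ tcl π ρ q0 u L0 X0 t r' :=
  fun _ hz => ⟨hz.1, hz.2.trans hr⟩

section integral

variable [MeasurableSpace E] [BorelSpace E] {U : Set E} {V : Measure (E × (E →L[ℝ] E))} {m : ℕ}

/-- `V` is near the graph of `u` over the region, foot chart `(x, y)` -/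
structure Nt (V : Measure (E × (E →L[ℝ] E))) (π : E →L[ℝ] F) (ρ : E →L[ℝ] W) (q0 : E) (u : F → W)
    (x : E → F) (y : E → W) (e : OrthonormalBasis ι ℝ F) (L0 : F →L[ℝ] F) (X0 : F) (D : Set F)
    (κ h t r : ℝ) : Prop where
  fr : Fr π ρ
  nm : Nm L0
  bd : Bd u D κ
  k0 : 0 ≤ κ
  kh : κ * h ≤ 1
  dD : ∀ v, ‖L0 (v - X0)‖ ≤ t → v ∈ D
  mn : ∀ v ∈ D, ∑ i, fderiv ℝ (fderiv ℝ u) v (ginv (fderiv ℝ u v) (e i)) (e i) = 0
  ae : ∀ᵐ p ∂V, p.1 ∈ tcl π ρ q0 u L0 X0 t r → ‖ht π ρ q0 1 u p.1‖ ≤ r / 2 ∧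
    Foot π ρ q0 u p.1 (x p.1) (y p.1) ∧ x p.1 ∈ D ∧ ‖y p.1‖ ≤ h
  int : IntegrableOn (fun p : E × (E →L[ℝ] E) => tf u x y p.1)
    (Prod.fst ⁻¹' tcl π ρ q0 u L0 X0 t r) V

theorem Nt.base (H : Nt V π ρ q0 u x y e L0 X0 D κ h t r) {z : E}
    (hz : z ∈ tcl π ρ q0 u L0 X0 t r) : π (z - q0) ∈ D := H.dD _ hz.1

theorem Nt.minAt (H : Nt V π ρ q0 u x y e L0 X0 D κ h t r) {z : E} (hz : z ∈ tcl π ρ q0 u L0 X0 t r) :
    MinAt e π q0 1 u κ z := by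
  have h1 := H.base hz
  refine ⟨?_, ?_⟩
  · simp only [bz, inv_one, one_smul]; exact H.bd.d2 _ h1
  · simp only [bz, inv_one, one_smul]; exact H.mn _ h1

theorem Nt.ht_le (H : Nt V π ρ q0 u x y e L0 X0 D κ h t r) :
    ∀ᵐ p ∂V, p.1 ∈ tcl π ρ q0 u L0 X0 t r → ‖ht π ρ q0 1 u p.1‖ ^ 2 ≤ 4 / 3 * tf u x y p.1 := by
  filter_upwards [H.ae] with p hp hpc
  obtain ⟨-, h2, h3, h4⟩ := hp hpc
  refine ht_le_nsq H.bd H.k0 h2 h3 (H.base hpc) ?_
  exact (mul_le_mul_of_nonneg_left h4 H.k0).trans H.kh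

theorem Nt.int_ht (H : Nt V π ρ q0 u x y e L0 X0 D κ h t r) (hV : St U V)
    (hU : tcl π ρ q0 u L0 X0 t r ⊆ U) {g : E → ℝ} (hg : Continuous g) :
    IntegrableOn (fun p : E × (E →L[ℝ] E) => g p.1) (Prod.fst ⁻¹' tcl π ρ q0 u L0 X0 t r) V := by
  obtain ⟨C, hC⟩ := (isCompact_tcl (q0 := q0) (t := t) (r := r) (X0 := X0) H.fr H.nm
    H.bd.smooth).exists_bound_of_continuousOn hg.continuousOn
  have hlt : V (Prod.fst ⁻¹' tcl π ρ q0 u L0 X0 t r) < ⊤ := by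
    have := hV.fin _ hU (isCompact_tcl H.fr H.nm H.bd.smooth)
    have h2 : (Prod.fst ⁻¹' tcl π ρ q0 u L0 X0 t r : Set (E × (E →L[ℝ] E))) =
        tcl π ρ q0 u L0 X0 t r ×ˢ univ := by
      ext p; simp
    rw [h2]; exact this
  refine Measure.integrableOn_of_bounded (M := C) hlt.ne
    (hg.comp continuous_fst).aestronglyMeasurable ?_
  filter_upwards [ae_restrict_mem ((isClosed_tcl H.bd.smooth).preimage continuous_fst).measurableSet] with p hp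
  exact hC p.1 hp

theorem Nt.int_le (H : Nt V π ρ q0 u x y e L0 X0 D κ h t r) :
    ∫ p in Prod.fst ⁻¹' tcl π ρ q0 u L0 X0 t r, ‖ht π ρ q0 1 u p.1‖ ^ 2 ∂V ≤
      4 / 3 * ∫ p in Prod.fst ⁻¹' tcl π ρ q0 u L0 X0 t r, tf u x y p.1 ∂V := by
  rw [← integral_const_mul]
  refine integral_mono_of_nonneg (Eventually.of_forall fun p => by positivity)
    (H.int.const_mul _) ?_
  filter_upwards [ae_restrict_of_ae H.ht_le,
    ae_restrict_mem ((isClosed_tcl H.bd.smooth).preimage continuous_fst).measurableSet] with p hp hpc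
  exact hp hpc

/-- (S1) **sup bound**: squared distance to `M` at one point of density `θ` -/
theorem sup_foot (hV : St U V) (hm : ∀ᵐ p ∂V, tr p.2 = m) (hF : Module.finrank ℝ F = m)
    (H : Nt V π ρ q0 u x y e L0 X0 D κ h t r) {z0 : E} {d : ℝ} (hd : 0 < d)
    (hU : closedBall z0 d ⊆ U) (hz0 : ball z0 d ⊆ tcl π ρ q0 u L0 X0 t r)
    (hf0 : Foot π ρ q0 u z0 (x z0) (y z0)) (hx0 : x z0 ∈ D) (hy0 : ‖y z0‖ ≤ h)
    (hκ : 64 * m * κ ^ 2 * d ^ 2 ≤ 1) {θ : ℝ} (hθ : 0 ≤ θ)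
    (hdens : ∃ᶠ t in 𝓝[>] (0 : ℝ), θ * t ^ m ≤ (V (Prod.fst ⁻¹' ball z0 t)).toReal) :
    θ * tf u x y z0 ≤
      2 * ((d ^ m)⁻¹ * ∫ p in Prod.fst ⁻¹' tcl π ρ q0 u L0 X0 t r, tf u x y p.1 ∂V) := by
  have h1 := height_graph hV hm hF H.fr one_pos H.bd.smooth hd hU
    (Eventually.of_forall fun p hp => H.minAt (hz0 hp)) (by simpa using hκ) hθ hdens
  have h2 : tf u x y z0 ≤ 4 / 3 * ‖ht π ρ q0 1 u z0‖ ^ 2 :=
    nsq_le_ht H.bd H.k0 hf0 hx0 (H.base (hz0 (mem_ball_self hd)))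
      ((mul_le_mul_of_nonneg_left hy0 H.k0).trans H.kh)
  -- integral over the ball
  have h3 : ∫ p in Prod.fst ⁻¹' ball z0 d, ‖ht π ρ q0 1 u p.1‖ ^ 2 ∂V ≤
      4 / 3 * ∫ p in Prod.fst ⁻¹' tcl π ρ q0 u L0 X0 t r, tf u x y p.1 ∂V := by
    have e1 : ∫ p in Prod.fst ⁻¹' ball z0 d, ‖ht π ρ q0 1 u p.1‖ ^ 2 ∂V ≤
        ∫ p in Prod.fst ⁻¹' ball z0 d, 4 / 3 * tf u x y p.1 ∂V := by
      refine integral_mono_of_nonneg (Eventually.of_forall fun p => by positivity)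
        ((H.int.mono_set (preimage_mono hz0)).const_mul _) ?_
      filter_upwards [ae_restrict_of_ae H.ht_le,
        ae_restrict_mem (isOpen_ball.preimage continuous_fst).measurableSet] with p hp hpc
      exact hp (hz0 hpc)
    refine e1.trans ?_
    rw [integral_const_mul]
    refine mul_le_mul_of_nonneg_left ?_ (by norm_num)
    exact setIntegral_mono_set H.int (Eventually.of_forall fun p => tf_nonneg _)
      (LE.le.eventuallyLE (preimage_mono hz0))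
  have h5 : 0 ≤ (d ^ m)⁻¹ * ∫ p in Prod.fst ⁻¹' tcl π ρ q0 u L0 X0 t r, tf u x y p.1 ∂V :=
    mul_nonneg (by positivity) (integral_nonneg fun p => tf_nonneg _)
  calc θ * tf u x y z0 ≤ 4 / 3 * (θ * ‖ht π ρ q0 1 u z0‖ ^ 2) := by nlinarith
    _ ≤ 4 / 3 * (33 / 32 * ((d ^ m)⁻¹ *
        ∫ z in Prod.fst ⁻¹' ball z0 d, ‖ht π ρ q0 1 u z.1‖ ^ 2 ∂V)) := by gcongr
    _ ≤ 4 / 3 * (33 / 32 * ((d ^ m)⁻¹ *
        (4 / 3 * ∫ p in Prod.fst ⁻¹' tcl π ρ q0 u L0 X0 t r, tf u x y p.1 ∂V))) := by gcongr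
    _ = 11 / 6 * ((d ^ m)⁻¹ *
        ∫ p in Prod.fst ⁻¹' tcl π ρ q0 u L0 X0 t r, tf u x y p.1 ∂V) := by ring
    _ ≤ _ := by linarith

/-- the cut-off of the region -/
def cg (π : E →L[ℝ] F) (ρ : E →L[ℝ] W) (q0 : E) (u : F → W) (L0 : F →L[ℝ] F) (X0 : F)
    (s t r : ℝ) (z : E) : ℝ :=
  ct s t (L0 (π (z - q0) - X0)) * ct (r / 2) r (ht π ρ q0 1 u z)

theorem contDiff_cg (hu : ContDiff ℝ 2 u) : ContDiff ℝ 1 (cg π ρ q0 u L0 X0 s t r) := by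
  have h1 : ContDiff ℝ 1 fun z : E => L0 (π (z - q0) - X0) :=
    L0.contDiff.comp ((π.contDiff.comp (contDiff_id.sub contDiff_const)).sub contDiff_const)
  have h2 : ContDiff ℝ 1 (ht π ρ q0 1 u) := (contDiff_ht hu).of_le (by norm_num)
  exact ((contDiff_ct.of_le (by norm_cast)).comp h1).mul
    ((contDiff_ct.of_le (by norm_cast)).comp h2)

theorem tsupport_cg (hu : ContDiff ℝ 2 u) (hs : 0 ≤ s) (hst : s < t) (hr : 0 < r) :
    tsupport (cg π ρ q0 u L0 X0 s t r) ⊆ tcl π ρ q0 u L0 X0 t r := by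
  refine closure_minimal (fun z hz => ?_) (isClosed_tcl hu)
  rw [Function.mem_support] at hz
  refine ⟨?_, ?_⟩
  · by_contra hcon
    rw [not_le] at hcon
    exact hz (by rw [cg, ct_zero hs hst hcon.le, zero_mul])
  · by_contra hcon
    rw [not_le] at hcon
    exact hz (by rw [cg, ct_zero (by linarith) (by linarith) hcon.le, mul_zero])

theorem hasCompactSupport_cg (hf : Fr π ρ) (hL : Nm L0) (hu : ContDiff ℝ 2 u) (hs : 0 ≤ s)
    (hst : s < t) (hr : 0 < r) : HasCompactSupport (cg π ρ q0 u L0 X0 s t r) :=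
  (isCompact_tcl hf hL hu).of_isClosed_subset (isClosed_tsupport _) (tsupport_cg hu hs hst hr)

theorem cg_one (hs : 0 ≤ s) (hst : s < t) (hr : 0 < r) {z : E}
    (h1 : ‖L0 (π (z - q0) - X0)‖ ≤ s) (h2 : ‖ht π ρ q0 1 u z‖ ≤ r / 2) :
    cg π ρ q0 u L0 X0 s t r z = 1 := by
  rw [cg, ct_one hs hst h1, ct_one (by linarith) (by linarith) h2, one_mul]

theorem norm_fderiv_cg (hf : Fr π ρ) (hL : Nm L0) (hu : ContDiff ℝ 2 u) (hs : 0 ≤ s)
    (hst : s < t) (hr : 0 < r) {z : E} (h2 : ‖ht π ρ q0 1 u z‖ ≤ r / 2) :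
    ‖fderiv ℝ (cg π ρ q0 u L0 X0 s t r) z‖ ≤ 4 * Kst / (t - s) := by
  have h3 : HasFDerivAt (fun z : E => L0 (π (z - q0) - X0)) (L0 ∘L π) z := by
    have h4 : HasFDerivAt (fun z => (L0 ∘L π) z - (L0 (π q0) + L0 X0)) (L0 ∘L π) z :=
      (L0 ∘L π).hasFDerivAt.sub_const _
    refine h4.congr_of_eventuallyEq (Eventually.of_forall fun w => ?_)
    simp only [map_sub, ContinuousLinearMap.comp_apply]
    abel
  have h4 : HasFDerivAt (ht π ρ q0 1 u) (nz π ρ q0 1 u z) z := hasFDerivAt_ht one_ne_zero hu z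
  have h5 : HasFDerivAt (ct s t : F → ℝ) (fderiv ℝ (ct s t : F → ℝ) (L0 (π (z - q0) - X0)))
      (L0 (π (z - q0) - X0)) := ((contDiff_ct.differentiable (by norm_num)) _).hasFDerivAt
  have h6 : HasFDerivAt (ct (r / 2) r : W → ℝ) (0 : W →L[ℝ] ℝ) (ht π ρ q0 1 u z) := by
    rw [← fderiv_ct_of_le (b := r) (by linarith) (by linarith) h2]
    exact ((contDiff_ct.differentiable (by norm_num)) _).hasFDerivAt
  have h7a := h5.comp z h3
  have h7b := h6.comp z h4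
  have h7 : HasFDerivAt (cg π ρ q0 u L0 X0 s t r) _ z := h7a.mul h7b
  rw [h7.fderiv]
  have h8 : ct (r / 2) r (ht π ρ q0 1 u z) = 1 := ct_one (by linarith) (by linarith) h2
  simp only [ContinuousLinearMap.zero_comp, smul_zero, zero_add, Function.comp_apply, h8, one_smul]
  have hts : 0 < t - s := by linarith
  have hK := Kst_nonneg
  refine ContinuousLinearMap.opNorm_le_bound _ (by positivity) fun v => ?_
  rw [ContinuousLinearMap.comp_apply]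
  refine (ContinuousLinearMap.le_opNorm _ _).trans ?_
  have h9 := norm_fderiv_ct_le Kst_nonneg Kst_bound hs hst (L0 (π (z - q0) - X0))
  have h10 : ‖(L0 ∘L π) v‖ ≤ 2 * ‖v‖ := by
    change ‖L0 (π v)‖ ≤ 2 * ‖v‖
    refine (L0.le_opNorm _).trans ?_
    exact mul_le_mul hL.norm (hf.norm_p_le v) (norm_nonneg _) (by norm_num)
  calc _ ≤ 2 * Kst / (t - s) * (2 * ‖v‖) := by gcongr
    _ = _ := by ring

/-- the constant of the energy bound -/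
def Ket : ℝ := 800 * Kst ^ 2 + 12

theorem Ket_pos : 0 < Ket := by unfold Ket; positivity

theorem Nt.mono_set (H : Nt V π ρ q0 u x y e L0 X0 D κ h t r) {S : Set (E × (E →L[ℝ] E))}
    (hS : S ⊆ Prod.fst ⁻¹' tcl π ρ q0 u L0 X0 t r) :
    ∫ p in S, tf u x y p.1 ∂V ≤ ∫ p in Prod.fst ⁻¹' tcl π ρ q0 u L0 X0 t r, tf u x y p.1 ∂V :=
  setIntegral_mono_set H.int (Eventually.of_forall fun _ => tf_nonneg _)
    (LE.le.eventuallyLE hS)

/-- (S2) **energy bound** relative to the graph, over any set `S` inside the smaller cylinder. -/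
theorem energy_foot_set (hV : St U V) (hm : ∀ᵐ p ∂V, tr p.2 = m) (hF : Module.finrank ℝ F = m)
    (H : Nt V π ρ q0 u x y e L0 X0 D κ h t r) (hs : 0 ≤ s) (hst : s < t) (hr : 0 < r)
    (hU : tcl π ρ q0 u L0 X0 t r ⊆ U) {S : Set (E × (E →L[ℝ] E))}
    (hS : S ≤ᵐ[V] (Prod.fst ⁻¹' tcl π ρ q0 u L0 X0 s r)) :
    ∫ p in S, tft π ρ u x p ∂V ≤
      Ket * (((t - s) ^ 2)⁻¹ + (m + 1) ^ 2 * κ ^ 2) *
        ∫ p in Prod.fst ⁻¹' tcl π ρ q0 u L0 X0 t r, tf u x y p.1 ∂V := by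
  set φ := cg π ρ q0 u L0 X0 s t r with hφ
  have hφc : ContDiff ℝ 1 φ := contDiff_cg H.bd.smooth
  have hcs : HasCompactSupport φ := hasCompactSupport_cg H.fr H.nm H.bd.smooth hs hst hr
  have hts : tsupport φ ⊆ tcl π ρ q0 u L0 X0 t r := tsupport_cg H.bd.smooth hs hst hr
  have hmc : MeasurableSet (Prod.fst ⁻¹' tcl π ρ q0 u L0 X0 t r : Set (E × (E →L[ℝ] E))) :=
    ((isClosed_tcl H.bd.smooth).preimage continuous_fst).measurableSet
  have hms : MeasurableSet (Prod.fst ⁻¹' tcl π ρ q0 u L0 X0 s r : Set (E × (E →L[ℝ] E))) :=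
    ((isClosed_tcl H.bd.smooth).preimage continuous_fst).measurableSet
  have h1 := cacc_graph hV hm hF H.fr one_pos H.bd.smooth hφc hcs (hts.trans hU)
    (Eventually.of_forall fun p hp => H.minAt (hts hp))
  have hst0 : 0 < t - s := by linarith
  have hκ := H.k0
  set I := ∫ p in Prod.fst ⁻¹' tcl π ρ q0 u L0 X0 t r, ‖ht π ρ q0 1 u p.1‖ ^ 2 ∂V with hI
  have hI0 : 0 ≤ I := integral_nonneg fun p => by positivity
  have hcn : Continuous fun z => ‖ht π ρ q0 1 u z‖ ^ 2 := (contDiff_nsq H.bd.smooth).continuous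
  have hIint : IntegrableOn (fun p : E × (E →L[ℝ] E) => ‖ht π ρ q0 1 u p.1‖ ^ 2)
      (Prod.fst ⁻¹' tcl π ρ q0 u L0 X0 t r) V := H.int_ht hV hU hcn
  -- the two right hand integrals
  have hB : ∫ p, φ p.1 ^ 2 * ‖ht π ρ q0 1 u p.1‖ ^ 2 ∂V ≤ I := by
    have e1 : ∫ p, φ p.1 ^ 2 * ‖ht π ρ q0 1 u p.1‖ ^ 2 ∂V =
        ∫ p in Prod.fst ⁻¹' tcl π ρ q0 u L0 X0 t r, φ p.1 ^ 2 * ‖ht π ρ q0 1 u p.1‖ ^ 2 ∂V := by
      rw [setIntegral_eq_integral_of_forall_compl_eq_zero]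
      intro p hp
      rw [image_eq_zero_of_notMem_tsupport fun hc => hp (hts hc)]; simp
    rw [e1, hI]
    refine integral_mono_of_nonneg (Eventually.of_forall fun p => by positivity) hIint ?_
    refine Eventually.of_forall fun p => ?_
    have e2 : φ p.1 ^ 2 ≤ 1 := by
      have a1 : 0 ≤ φ p.1 := mul_nonneg (ct_nonneg _) (ct_nonneg _)
      have a2 : φ p.1 ≤ 1 := by
        rw [hφ, cg]
        exact mul_le_one₀ (ct_le_one _) (ct_nonneg _) (ct_le_one _)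
      nlinarith
    have e3 : 0 ≤ ‖ht π ρ q0 1 u p.1‖ ^ 2 := by positivity
    change φ p.1 ^ 2 * ‖ht π ρ q0 1 u p.1‖ ^ 2 ≤ ‖ht π ρ q0 1 u p.1‖ ^ 2
    nlinarith
  have hA : ∫ p, ‖fderiv ℝ φ p.1‖ ^ 2 * ‖ht π ρ q0 1 u p.1‖ ^ 2 ∂V ≤
      (4 * Kst / (t - s)) ^ 2 * I := by
    have e1 : ∫ p, ‖fderiv ℝ φ p.1‖ ^ 2 * ‖ht π ρ q0 1 u p.1‖ ^ 2 ∂V =
        ∫ p in Prod.fst ⁻¹' tcl π ρ q0 u L0 X0 t r, ‖fderiv ℝ φ p.1‖ ^ 2 *
          ‖ht π ρ q0 1 u p.1‖ ^ 2 ∂V := by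
      rw [setIntegral_eq_integral_of_forall_compl_eq_zero]
      intro p hp
      have : fderiv ℝ φ p.1 = 0 := by
        by_contra hcon
        exact hp (hts (support_fderiv_subset ℝ hcon))
      rw [this]; simp
    rw [e1, hI, ← integral_const_mul]
    refine integral_mono_of_nonneg (Eventually.of_forall fun p => by positivity)
      (hIint.const_mul _) ?_
    filter_upwards [ae_restrict_of_ae H.ae, ae_restrict_mem hmc] with p hp hpc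
    have e2 := norm_fderiv_cg (q0 := q0) (X0 := X0) H.fr H.nm H.bd.smooth hs hst hr (hp hpc).1
    rw [← hφ] at e2
    gcongr
  -- the left hand side
  have hcnz : Continuous (nz π ρ q0 1 u) := (contDiff_nz H.bd.smooth).continuous
  have hctau : Continuous fun p : E × (E →L[ℝ] E) => tau (nz π ρ q0 1 u p.1) p.2 := by
    unfold tau
    refine continuous_finsetSum _ fun j _ => ?_
    exact (((hcnz.comp continuous_fst).clm_apply
      (continuous_snd.clm_apply continuous_const)).norm.pow 2)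
  have hiA : Integrable (fun p : E × (E →L[ℝ] E) => φ p.1 ^ 2 * tau (nz π ρ q0 1 u p.1) p.2) V := by
    refine hV.integrable (((hφc.continuous.comp continuous_fst).pow 2).mul hctau)
      hcs.isCompact (hts.trans hU) ?_
    intro p hp
    rw [image_eq_zero_of_notMem_tsupport hp]; simp
  have hSt : S ≤ᵐ[V] (Prod.fst ⁻¹' tcl π ρ q0 u L0 X0 t r) :=
    hS.trans (LE.le.eventuallyLE (preimage_mono (tcl_mono hst.le)))
  have hae : ∀ᵐ p ∂(V.restrict S), p ∈ (Prod.fst ⁻¹' tcl π ρ q0 u L0 X0 s r) :=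
    (ae_restrict_mem hms).filter_mono (ae_mono (Measure.restrict_mono_ae hS))
  have hL : ∫ p in S, tft π ρ u x p ∂V ≤
      2 * ∫ p, φ p.1 ^ 2 * tau (nz π ρ q0 1 u p.1) p.2 ∂V + 1 / 6 * κ ^ 2 * m * I := by
    have hIS := hIint.mono_set_ae hSt
    have e1 : ∫ p in S, tft π ρ u x p ∂V ≤
        ∫ p in S, (2 * (φ p.1 ^ 2 * tau (nz π ρ q0 1 u p.1) p.2) +
            1 / 6 * κ ^ 2 * m * ‖ht π ρ q0 1 u p.1‖ ^ 2) ∂V := by
      refine integral_mono_of_nonneg (Eventually.of_forall fun p => tft_nonneg _)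
        ((hiA.integrableOn.const_mul _).add (hIS.const_mul _)) ?_
      filter_upwards [ae_restrict_of_ae H.ae, ae_restrict_of_ae hm, ae_restrict_of_ae hV.pr,
        hae] with p hp hmp hpr hpc
      have hpt : p.1 ∈ tcl π ρ q0 u L0 X0 t r := tcl_mono hst.le hpc
      obtain ⟨a1, a2, a3, a4⟩ := hp hpt
      have hky : κ * ‖y p.1‖ ≤ 1 := (mul_le_mul_of_nonneg_left a4 H.k0).trans H.kh
      have e2 := tau_foot_le H.fr H.bd H.k0 a2 a3 (H.base hpt) hpr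
      have e3 := nsq_le_ht H.bd H.k0 a2 a3 (H.base hpt) hky
      have e4 := sq_le_nsq (fderiv ℝ u (x p.1)) (y p.1)
      have e5 : φ p.1 = 1 := cg_one hs hst hr hpc.1 a1
      rw [hmp] at e2
      change tau (nf π ρ (fderiv ℝ u (x p.1))) p.2 ≤ 2 * (φ p.1 ^ 2 *
        tau (nz π ρ q0 1 u p.1) p.2) + 1 / 6 * κ ^ 2 * m * ‖ht π ρ q0 1 u p.1‖ ^ 2
      rw [e5, one_pow, one_mul]
      refine e2.trans ?_
      have e6 : 1 / 8 * κ ^ 2 * ‖y p.1‖ ^ 2 * m ≤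
          1 / 8 * κ ^ 2 * (4 / 3 * ‖ht π ρ q0 1 u p.1‖ ^ 2) * m := by
        gcongr
        exact e4.trans e3
      linarith
    refine e1.trans ?_
    rw [integral_add (hiA.integrableOn.const_mul _) (hIS.const_mul _), integral_const_mul,
      integral_const_mul]
    have e7 : ∫ p in S, φ p.1 ^ 2 * tau (nz π ρ q0 1 u p.1) p.2 ∂V ≤
        ∫ p, φ p.1 ^ 2 * tau (nz π ρ q0 1 u p.1) p.2 ∂V :=
      setIntegral_le_integral hiA (Eventually.of_forall fun p => by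
        have := tau_nonneg (nz π ρ q0 1 u p.1) p.2
        positivity)
    have e8 : ∫ p in S, ‖ht π ρ q0 1 u p.1‖ ^ 2 ∂V ≤ I :=
      setIntegral_mono_set hIint (Eventually.of_forall fun p => by positivity) hSt
    have e9 : 0 ≤ 1 / 6 * κ ^ 2 * m := by positivity
    have := mul_le_mul_of_nonneg_left e8 e9
    linarith
  have hJ := H.int_le
  rw [← hI] at hJ
  set J := ∫ p in Prod.fst ⁻¹' tcl π ρ q0 u L0 X0 t r, tf u x y p.1 ∂V with hJdef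
  have hJ0 : 0 ≤ J := integral_nonneg fun p => tf_nonneg _
  rw [div_one] at h1
  have h2 : ∫ p in S, tft π ρ u x p ∂V ≤
      (512 * Kst ^ 2 * ((t - s) ^ 2)⁻¹ + (8 * m ^ 2 + 1 / 6 * m) * κ ^ 2) * I := by
    have e1 : (4 * Kst / (t - s)) ^ 2 = 16 * Kst ^ 2 * ((t - s) ^ 2)⁻¹ := by
      rw [div_pow]; ring
    rw [e1] at hA
    have e2 : 4 * (m * κ) ^ 2 * ∫ p, φ p.1 ^ 2 * ‖ht π ρ q0 1 u p.1‖ ^ 2 ∂V ≤
        4 * (m * κ) ^ 2 * I := by gcongr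
    nlinarith
  refine h2.trans ?_
  have h3 : (512 * Kst ^ 2 * ((t - s) ^ 2)⁻¹ + (8 * m ^ 2 + 1 / 6 * m) * κ ^ 2) * I ≤
      (512 * Kst ^ 2 * ((t - s) ^ 2)⁻¹ + (8 * m ^ 2 + 1 / 6 * m) * κ ^ 2) * (4 / 3 * J) := by
    gcongr
  refine h3.trans ?_
  have h4 : (512 * Kst ^ 2 * ((t - s) ^ 2)⁻¹ + (8 * m ^ 2 + 1 / 6 * m) * κ ^ 2) * (4 / 3 * J) =
      ((512 * Kst ^ 2 * ((t - s) ^ 2)⁻¹ + (8 * m ^ 2 + 1 / 6 * m) * κ ^ 2) * (4 / 3)) * J := by ring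
  rw [h4]
  refine mul_le_mul_of_nonneg_right ?_ hJ0
  have hm0 : (0:ℝ) ≤ m := Nat.cast_nonneg _
  have e3 : 0 ≤ ((t - s) ^ 2)⁻¹ := by positivity
  have e4 : 512 * Kst ^ 2 * ((t - s) ^ 2)⁻¹ * (4 / 3) ≤ Ket * ((t - s) ^ 2)⁻¹ := by
    unfold Ket; nlinarith [mul_nonneg (sq_nonneg Kst) e3]
  have e5 : (8 * m ^ 2 + 1 / 6 * m) * κ ^ 2 * (4 / 3) ≤ Ket * ((m + 1) ^ 2 * κ ^ 2) := by
    have a1 : (8 * m ^ 2 + 1 / 6 * m) * (4 / 3) ≤ 12 * ((m:ℝ) + 1) ^ 2 := by nlinarith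
    have a2 : 12 * ((m:ℝ) + 1) ^ 2 ≤ Ket * ((m:ℝ) + 1) ^ 2 := by
      gcongr
      unfold Ket
      nlinarith [sq_nonneg Kst]
    have a3 := mul_le_mul_of_nonneg_right (a1.trans a2) (sq_nonneg κ)
    linarith
  linarith

/-- (S2) over the smaller cylinder -/
theorem energy_foot (hV : St U V) (hm : ∀ᵐ p ∂V, tr p.2 = m) (hF : Module.finrank ℝ F = m)
    (H : Nt V π ρ q0 u x y e L0 X0 D κ h t r) (hs : 0 ≤ s) (hst : s < t) (hr : 0 < r)
    (hU : tcl π ρ q0 u L0 X0 t r ⊆ U) :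
    ∫ p in Prod.fst ⁻¹' tcl π ρ q0 u L0 X0 s r, tft π ρ u x p ∂V ≤
      Ket * (((t - s) ^ 2)⁻¹ + (m + 1) ^ 2 * κ ^ 2) *
        ∫ p in Prod.fst ⁻¹' tcl π ρ q0 u L0 X0 t r, tf u x y p.1 ∂V :=
  energy_foot_set hV hm hF H hs hst hr hU EventuallyLE.rfl

/-- (S2) over the sets `{‖L0 (x(z) - X0)‖ ≤ s}` (inside the region). -/
theorem energy_foot_x (hV : St U V) (hm : ∀ᵐ p ∂V, tr p.2 = m) (hF : Module.finrank ℝ F = m)
    (H : Nt V π ρ q0 u x y e L0 X0 D κ h t r) (hs : 0 ≤ s) (hst : s + 2 * h < t) (hh : 0 ≤ h)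
    (hr : 0 < r) (hU : tcl π ρ q0 u L0 X0 t r ⊆ U) :
    ∫ p in {p | ‖L0 (x p.1 - X0)‖ ≤ s ∧ p.1 ∈ tcl π ρ q0 u L0 X0 t r}, tft π ρ u x p ∂V ≤
      4 * Ket * (((t - s) ^ 2)⁻¹ + (m + 1) ^ 2 * κ ^ 2) *
        ∫ p in Prod.fst ⁻¹' tcl π ρ q0 u L0 X0 t r, tf u x y p.1 ∂V := by
  have hs' : s + h < t := by linarith
  have hJ0 : 0 ≤ ∫ p in Prod.fst ⁻¹' tcl π ρ q0 u L0 X0 t r, tf u x y p.1 ∂V :=
    integral_nonneg fun p => tf_nonneg _
  have h2 : ((t - (s + h)) ^ 2)⁻¹ ≤ 4 * ((t - s) ^ 2)⁻¹ := by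
    have a0 : 0 < t - s := by linarith
    have a1 : (t - s) / 2 ≤ t - (s + h) := by linarith
    have a2 : ((t - (s + h)) ^ 2)⁻¹ ≤ (((t - s) / 2) ^ 2)⁻¹ := by
      gcongr
    refine a2.trans (le_of_eq ?_)
    field_simp
    norm_num
  have h3 : Ket * (((t - (s + h)) ^ 2)⁻¹ + (m + 1) ^ 2 * κ ^ 2) ≤
      4 * Ket * (((t - s) ^ 2)⁻¹ + (m + 1) ^ 2 * κ ^ 2) := by
    have a1 : 0 ≤ ((m:ℝ) + 1) ^ 2 * κ ^ 2 := by positivity
    have a2 := Ket_pos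
    nlinarith
  refine (energy_foot_set hV hm hF H (s := s + h) (by linarith) hs' hr hU ?_).trans
    (mul_le_mul_of_nonneg_right h3 hJ0)
  filter_upwards [H.ae] with p hp hpS
  obtain ⟨hx, hc⟩ := hpS
  obtain ⟨-, a2, a3, a4⟩ := hp hc
  refine ⟨?_, hc.2⟩
  have a5 := norm_foot_sub_le H.bd a2 a3
  have a6 : π (p.1 - q0) - X0 = (x p.1 - X0) - (x p.1 - π (p.1 - q0)) := by abel
  rw [a6, map_sub]
  refine (norm_sub_le _ _).trans ?_
  have a7 : ‖L0 (x p.1 - π (p.1 - q0))‖ ≤ 2 * (1 / 4 * ‖y p.1‖) :=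
    (L0.le_opNorm _).trans (by have := H.nm.norm; gcongr)
  linarith [norm_nonneg (y p.1)]

/-- (S1) at a point with `‖L0 (x(z0) - X0)‖ ≤ s`. -/
theorem sup_foot_x (hV : St U V) (hm : ∀ᵐ p ∂V, tr p.2 = m) (hF : Module.finrank ℝ F = m)
    (H : Nt V π ρ q0 u x y e L0 X0 D κ h t r) {z0 : E} {d : ℝ} (hd : 0 < d)
    (hU' : closedBall z0 d ⊆ U)
    (hf0 : Foot π ρ q0 u z0 (x z0) (y z0)) (hx0 : x z0 ∈ D) (hy0 : ‖y z0‖ ≤ h)
    (hxs : ‖L0 (x z0 - X0)‖ + h + 2 * d ≤ t) (hρ : 2 * h + 2 * d ≤ r)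
    (hκ : 64 * m * κ ^ 2 * d ^ 2 ≤ 1) {θ : ℝ} (hθ : 0 ≤ θ)
    (hdens : ∃ᶠ t in 𝓝[>] (0 : ℝ), θ * t ^ m ≤ (V (Prod.fst ⁻¹' ball z0 t)).toReal) :
    θ * tf u x y z0 ≤
      2 * ((d ^ m)⁻¹ * ∫ p in Prod.fst ⁻¹' tcl π ρ q0 u L0 X0 t r, tf u x y p.1 ∂V) := by
  refine sup_foot hV hm hF H hd hU' ?_ hf0 hx0 hy0 hκ hθ hdens
  have h2 := norm_foot_sub_le H.bd hf0 hx0
  have h3 : ‖L0 (π (z0 - q0) - X0)‖ ≤ ‖L0 (x z0 - X0)‖ + h := by
    have a6 : π (z0 - q0) - X0 = (x z0 - X0) - (x z0 - π (z0 - q0)) := by abel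
    rw [a6, map_sub]
    refine (norm_sub_le _ _).trans ?_
    have a7 : ‖L0 (x z0 - π (z0 - q0))‖ ≤ 2 * (1 / 4 * ‖y z0‖) :=
      (L0.le_opNorm _).trans (by have := H.nm.norm; gcongr)
    linarith [norm_nonneg (y z0)]
  have hz0D : π (z0 - q0) ∈ D := H.dD _ (h3.trans (by linarith))
  have h4 : ‖ht π ρ q0 1 u z0‖ ≤ 2 * h := by
    have b1 := ht_le_nsq H.bd H.k0 hf0 hx0 hz0D
      ((mul_le_mul_of_nonneg_left hy0 H.k0).trans H.kh)
    have b2 : nsq (fderiv ℝ u (x z0)) (y z0) ≤ 17 / 16 * ‖y z0‖ ^ 2 := by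
      have := norm_adj_le (fderiv ℝ u (x z0)) (H.bd.d1 _ hx0) (y z0)
      unfold nsq
      nlinarith [norm_nonneg (ContinuousLinearMap.adjoint (fderiv ℝ u (x z0)) (y z0)),
        norm_nonneg (y z0)]
    have hh : 0 ≤ h := (norm_nonneg _).trans hy0
    refine le_of_sq_le_sq ?_ (by positivity)
    nlinarith [norm_nonneg (y z0)]
  intro z hz
  have h0 : ‖z - z0‖ < d := by rwa [mem_ball, dist_eq_norm] at hz
  have h5 : ‖L0 (π (z - q0) - X0)‖ ≤ t := by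
    have h1 : π (z - q0) - X0 = π (z - z0) + (π (z0 - q0) - X0) := by
      rw [show z - q0 = (z - z0) + (z0 - q0) by abel, map_add]; abel
    rw [h1, map_add]
    refine (norm_add_le _ _).trans ?_
    have a7 : ‖L0 (π (z - z0))‖ ≤ 2 * ‖z - z0‖ :=
      (L0.le_opNorm _).trans (by have := H.nm.norm; have := H.fr.norm_p_le (z - z0); gcongr)
    linarith
  refine ⟨h5, ?_⟩
  have hzD : π (z - q0) ∈ D := H.dD _ h5
  have h6 : ht π ρ q0 1 u z - ht π ρ q0 1 u z0 =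
      ρ (z - z0) - (u (π (z - q0)) - u (π (z0 - q0))) := by
    simp only [ht, inv_one, one_smul]
    rw [show z - q0 = (z - z0) + (z0 - q0) by abel, map_add ρ]
    abel
  have h7 : ‖u (π (z - q0)) - u (π (z0 - q0))‖ ≤ 1 / 4 * ‖π (z - q0) - π (z0 - q0)‖ :=
    H.bd.conv.norm_image_sub_le_of_norm_fderiv_le
      (fun v _ => H.bd.smooth.differentiable (by norm_num) v) H.bd.d1 hz0D hzD
  have h8 : π (z - q0) - π (z0 - q0) = π (z - z0) := by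
    rw [← map_sub]; congr 1; abel
  rw [h8] at h7
  have h9 := H.fr.norm_p_le (z - z0)
  have h10 := H.fr.norm_r_le (z - z0)
  have h11 : ‖ht π ρ q0 1 u z - ht π ρ q0 1 u z0‖ ≤ 2 * d := by
    rw [h6]
    refine (norm_sub_le _ _).trans ?_
    linarith
  have h12 : ht π ρ q0 1 u z = ht π ρ q0 1 u z0 + (ht π ρ q0 1 u z - ht π ρ q0 1 u z0) := by abel
  rw [h12]
  refine (norm_add_le _ _).trans ?_
  linarith

/-- the right hand side over a set `{‖L0 (x(z) - X0)‖ ≤ t + h}` -/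
theorem Nt.rhs_le (H : Nt V π ρ q0 u x y e L0 X0 D κ h t r) (hh : 0 ≤ h) :
    ∫ p in Prod.fst ⁻¹' tcl π ρ q0 u L0 X0 t r, tf u x y p.1 ∂V ≤
      ∫ p in {p | ‖L0 (x p.1 - X0)‖ ≤ t + h ∧ p.1 ∈ tcl π ρ q0 u L0 X0 t r},
        tf u x y p.1 ∂V := by
  refine setIntegral_mono_set (H.int.mono_set fun p hp => hp.2)
    (Eventually.of_forall fun _ => tf_nonneg _) ?_
  filter_upwards [H.ae] with p hp hpS
  obtain ⟨-, a2, a3, a4⟩ := hp hpS
  refine ⟨?_, hpS⟩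
  have a5 := norm_foot_sub_le H.bd a2 a3
  have a6 : x p.1 - X0 = (x p.1 - π (p.1 - q0)) + (π (p.1 - q0) - X0) := by abel
  rw [a6, map_add]
  refine (norm_add_le _ _).trans ?_
  have a7 : ‖L0 (x p.1 - π (p.1 - q0))‖ ≤ 2 * (1 / 4 * ‖y p.1‖) :=
    (L0.le_opNorm _).trans (by have := H.nm.norm; gcongr)
  have := hpS.1
  linarith [norm_nonneg (y p.1)]

end integral

end

end Crest.Agent.R234.Gt_685
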