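import Crest.Agent.R234.Gs5_685
import Crest.Agent.R234.Gi4_456
import Crest.Agent.R234.GL6_394

/-!
R234 (helper685), GL-SUP part 6: **(S1) in the literal form of 394/456**: chart `ch π ρ x r w X0`,
`Loc`, `VK V K`, sharp regions `{‖ch.x‖ ≤ t}`, no smallness of the heights.
-/

set_option autoImplicit false
set_option linter.unusedSectionVars false

open MeasureTheory Metric Set Filter Topology
open scoped InnerProductSpace ContDiff ENNReal

namespace Crest.Agent.R234.Gv_685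

open Crest.GeometryTopology.Submanifold Crest.Agent.R234.Vf_884
open Crest.Agent.R234.Main_456 Crest.Agent.R234.Gi_456
open Crest.Agent.R234.Supm_685 Crest.Agent.R234.Gs_685
open Crest.Agent.R234.Gu_685 (dsq dsq_eq dsq_nonneg dsq_eq_norm)
open Crest.Agent.R234.Ell1_3 (gop ginv)

noncomputable section

section ball

variable {E F W : Type} [NormedAddCommGroup E] [InnerProductSpace ℝ E] [FiniteDimensional ℝ E]
  [NormedAddCommGroup F] [InnerProductSpace ℝ F] [FiniteDimensional ℝ F]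
  [NormedAddCommGroup W] [InnerProductSpace ℝ W] [FiniteDimensional ℝ W]
  [MeasurableSpace E] [BorelSpace E] {U : Set E} {V : Measure (E × (E →L[ℝ] E))} {m : ℕ}
  {π : E →L[ℝ] F} {ρ : E →L[ℝ] W} {q0 : E} {u : F → W} {x : E → F} {y : E → W}
  {D : Set F} {κ : ℝ} {ι : Type} [Fintype ι] {e : OrthonormalBasis ι ℝ F}

/-- what is needed at one point of the support -/
structure PtOk (π : E →L[ℝ] F) (ρ : E →L[ℝ] W) (q0 : E) (u : F → W) (x : E → F) (y : E → W)
    (D : Set F) (κ : ℝ) (z : E) : Prop where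
  foot : Foot π ρ q0 u z (x z) (y z)
  mem : x z ∈ D
  base : π (z - q0) ∈ D
  small : κ * ‖y z‖ ≤ 1

/-- **sup bound in a ball**, in terms of the squared distance to the graph. -/
theorem sup_ball (hV : Cacc_113.St U V) (hm : ∀ᵐ p ∂V, Cacc_113.tr p.2 = m)
    (hF : Module.finrank ℝ F = m) (h : Supm_685.Fr π ρ) (hb : Bd u D κ) (hκ0 : 0 ≤ κ) {z0 : E} {d : ℝ}
    (hd : 0 < d) (hU : closedBall z0 d ⊆ U) (h0 : PtOk π ρ q0 u x y D κ z0)
    (hae : ∀ᵐ p ∂V, p.1 ∈ ball z0 d → MinAt e π q0 1 u κ p.1 ∧ PtOk π ρ q0 u x y D κ p.1)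
    (int : IntegrableOn (fun p : E × (E →L[ℝ] E) => tf u x y p.1) (Prod.fst ⁻¹' ball z0 d) V)
    (hκ : 64 * m * κ ^ 2 * d ^ 2 ≤ 1) {θ : ℝ} (hθ : 0 ≤ θ)
    (hdens : ∃ᶠ t in 𝓝[>] (0 : ℝ), θ * t ^ m ≤ (V (Prod.fst ⁻¹' ball z0 t)).toReal) :
    θ * tf u x y z0 ≤ 2 * ((d ^ m)⁻¹ * ∫ p in Prod.fst ⁻¹' ball z0 d, tf u x y p.1 ∂V) := by
  have h1 := height_graph hV hm hF h one_pos hb.smooth hd hU
    (hae.mono fun p hp hpb => (hp hpb).1) (by simpa using hκ) hθ hdens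
  have h2 : tf u x y z0 ≤ 4 / 3 * ‖ht π ρ q0 1 u z0‖ ^ 2 :=
    nsq_le_ht hb hκ0 h0.foot h0.mem h0.base h0.small
  have h3 : ∫ p in Prod.fst ⁻¹' ball z0 d, ‖ht π ρ q0 1 u p.1‖ ^ 2 ∂V ≤
      4 / 3 * ∫ p in Prod.fst ⁻¹' ball z0 d, tf u x y p.1 ∂V := by
    rw [← integral_const_mul]
    refine integral_mono_of_nonneg (Eventually.of_forall fun p => by positivity)
      (int.const_mul _) ?_
    filter_upwards [ae_restrict_of_ae hae,
      ae_restrict_mem (isOpen_ball.preimage continuous_fst).measurableSet] with p hp hpc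
    obtain ⟨-, h4⟩ := hp hpc
    exact ht_le_nsq hb hκ0 h4.foot h4.mem h4.base h4.small
  have h5 : 0 ≤ (d ^ m)⁻¹ * ∫ p in Prod.fst ⁻¹' ball z0 d, tf u x y p.1 ∂V :=
    mul_nonneg (by positivity) (integral_nonneg fun p => tf_nonneg _)
  calc θ * tf u x y z0 ≤ 4 / 3 * (θ * ‖ht π ρ q0 1 u z0‖ ^ 2) := by nlinarith
    _ ≤ 4 / 3 * (33 / 32 * ((d ^ m)⁻¹ *
        ∫ z in Prod.fst ⁻¹' ball z0 d, ‖ht π ρ q0 1 u z.1‖ ^ 2 ∂V)) := by gcongr
    _ ≤ 4 / 3 * (33 / 32 * ((d ^ m)⁻¹ *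
        (4 / 3 * ∫ p in Prod.fst ⁻¹' ball z0 d, tf u x y p.1 ∂V))) := by gcongr
    _ = 11 / 6 * ((d ^ m)⁻¹ * ∫ p in Prod.fst ⁻¹' ball z0 d, tf u x y p.1 ∂V) := by ring
    _ ≤ _ := by linarith

end ball

section chart

variable {m n k : ℕ} {U K : Set (Euc k)} {V : Measure (Euc k × L k)}
  {π : Euc k →L[ℝ] Euc m} {ρ : Euc k →L[ℝ] Euc n} {x z0 : Euc k} {r : ℝ} {w : Euc m → Euc n}
  {X0 : Euc m} {s t d Λ : ℝ}

theorem two_f (hf : Frame π ρ) (z : Euc k) : 2 * (ch π ρ x r w X0).f z = dsq π ρ x r w z := by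
  rw [dsq_eq_norm hf]
  change 2 * (‖Bt π ρ w (foot π ρ x r w z) (yy π ρ x r w z)‖ ^ 2 / 2) = _
  ring

theorem Gr_foot (hw : Gr r w) {z : Euc k} (hz : z ∈ tube π ρ x r w) :
    Foot π ρ x w z (foot π ρ x r w z) (yy π ρ x r w z) where
  hp := by
    have h1 := hw.foot_fix hz
    nth_rewrite 1 [h1]
    abel
  hr := by simp [yy]

theorem Gr_bd (hw : Gr r w) : Bd w univ (1 / (8 * r)) where
  smooth := hw.cd.of_le (by norm_num)
  conv := convex_univ
  d1 v _ := (hw.d1 v).trans (by norm_num)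
  d2 v _ := hw.d2 v

theorem ptOk (hw : Gr r w) {z : Euc k} (hz : z ∈ tube π ρ x r w) :
    PtOk π ρ x w (foot π ρ x r w) (yy π ρ x r w) univ (1 / (8 * r)) z where
  foot := Gr_foot hw hz
  mem := mem_univ _
  base := mem_univ _
  small := by
    have h1 := (hw.norm_yy_lt hz).le
    have h2 := hw.pos
    calc 1 / (8 * r) * ‖yy π ρ x r w z‖ ≤ 1 / (8 * r) * (2 * r) := by gcongr
      _ = 1 / 4 := by field_simp; norm_num
      _ ≤ 1 := by norm_num

theorem continuousOn_dsq (hf : Frame π ρ) (hw : Gr r w) :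
    ContinuousOn (dsq π ρ x r w) (tube π ρ x r w) := by
  have h1 := hw.continuousOn_foot hf (x := x)
  have h2 := hw.continuousOn_yy hf (x := x)
  have h3 : Continuous fun q : Euc m →L[ℝ] Euc n => ContinuousLinearMap.adjoint q :=
    (ContinuousLinearMap.adjoint (𝕜 := ℝ) (E := Euc m) (F := Euc n)).continuous
  have h4 : ContinuousOn (fun z => ContinuousLinearMap.adjoint
      (fderiv ℝ w (foot π ρ x r w z))) (tube π ρ x r w) :=
    h3.comp_continuousOn (hw.cd1.continuous.comp_continuousOn h1)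
  exact (h2.norm.pow 2).add ((h4.clm_apply h2).norm.pow 2)

/-- `‖ch.x z - ch.x z'‖ ≤ (65/32) ‖z - z'‖` in the tube -/
theorem norm_chx_sub (hf : Frame π ρ) (hw : Gr r w) {z z' : Euc k} (hz : z ∈ tube π ρ x r w)
    (hz' : z' ∈ tube π ρ x r w) :
    ‖(ch π ρ x r w X0).x z - (ch π ρ x r w X0).x z'‖ ≤ 65 / 32 * ‖z - z'‖ := by
  have h1 : (ch π ρ x r w X0).x z - (ch π ρ x r w X0).x z' =
      Lo (fderiv ℝ w X0) (foot π ρ x r w z - foot π ρ x r w z') := by
    change Lo (fderiv ℝ w X0) (foot π ρ x r w z - X0) -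
      Lo (fderiv ℝ w X0) (foot π ρ x r w z' - X0) = _
    rw [← map_sub]; congr 1; abel
  rw [h1]
  refine (norm_Lo_le (hw.d1 X0) _).trans ?_
  have h2 := hw.foot_lip hf hz hz'
  linarith

theorem norm_foot_le_chx (z : Euc k) :
    ‖foot π ρ x r w z - X0‖ ≤ ‖(ch π ρ x r w X0).x z‖ := le_norm_Lo _ _

/-- heights are Lipschitz -/
theorem hgt_sub_le (hf : Frame π ρ) (hw : Gr r w) (z z' : Euc k) :
    ‖ρ (z - x) - w (π (z - x))‖ ≤ ‖ρ (z' - x) - w (π (z' - x))‖ + 9 / 8 * ‖z - z'‖ := by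
  have h1 : ρ (z - x) - w (π (z - x)) = (ρ (z' - x) - w (π (z' - x))) +
      (ρ (z - z') - (w (π (z - x)) - w (π (z' - x)))) := by
    have e1 : ρ (z - z') = ρ (z - x) - ρ (z' - x) := by rw [← map_sub]; congr 1; abel
    rw [e1]; abel
  rw [h1]
  refine (norm_add_le _ _).trans ?_
  have h2 := norm_sub_le (ρ (z - z')) (w (π (z - x)) - w (π (z' - x)))
  have h3 := hw.lip (π (z - x)) (π (z' - x))
  have h4 : π (z - x) - π (z' - x) = π (z - z') := by rw [← map_sub]; congr 1; abel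
  rw [h4] at h3
  have h5 := norm_pi_le' hf (z - z')
  have h6 := norm_rho_le' hf (z - z')
  linarith

open Crest.Agent.R234.GL_394 (Loc VK On)

/-- `K` is over the half tube -/
def Half (π : Euc k →L[ℝ] Euc m) (ρ : Euc k →L[ℝ] Euc n) (x : Euc k) (r : ℝ) (w : Euc m → Euc n)
    (K : Set (Euc k)) : Prop := ∀ z ∈ K, ‖ρ (z - x) - w (π (z - x))‖ ≤ r / 2

/-- **(S1) at a point** `z0 ∈ K` of density `≥ A`. -/
theorem sup_pt (hf : Frame π ρ) (hw : Gr r w)
    (h : Loc (ch π ρ x r w X0) U (tube π ρ x r w) K V Λ) (hm : 1 ≤ m) (hK : Half π ρ x r w K)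
    (htΛ : t ≤ Real.exp Λ) (hd : 0 < d) (hdr : 4 * m * d ≤ r) (hz0 : z0 ∈ K)
    (hs : ‖(ch π ρ x r w X0).x z0‖ + 65 / 32 * d ≤ t) (hU : closedBall z0 d ⊆ U)
    (hmn : ∀ X, ‖X - X0‖ ≤ t + r → Msys w X = 0) {A : ℝ} (hA0 : 0 ≤ A)
    (hA : ENNReal.ofReal A ≤ Th m V z0) :
    A * ome m * (2 * (ch π ρ x r w X0).f z0) ≤ 2 * ((d ^ m)⁻¹ *
      ∫ p in {p : Euc k × L k | ‖(ch π ρ x r w X0).x p.1‖ ≤ t}, 2 * (ch π ρ x r w X0).f p.1 ∂(VK V K)) := by
  have hm' : (1:ℝ) ≤ m := by exact_mod_cast hm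
  have hr := hw.pos
  have hd4 : d ≤ r / 4 := by nlinarith
  have hWt : K ⊆ tube π ρ x r w := h.sub.trans inter_subset_left
  have ht0 : z0 ∈ tube π ρ x r w := hWt hz0
  -- points of the ball are in the tube
  have hball : ∀ z ∈ ball z0 d, z ∈ tube π ρ x r w ∩ U ∧ ‖(ch π ρ x r w X0).x z‖ ≤ t := by
    intro z hz
    have h0 : ‖z - z0‖ < d := by rwa [mem_ball, dist_eq_norm] at hz
    have h1 := hgt_sub_le (x := x) hf hw z z0
    have h2 := hK z0 hz0
    have h3 : z ∈ tube π ρ x r w := by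
      change ‖ρ (z - x) - w (π (z - x))‖ < r
      linarith
    refine ⟨⟨h3, hU (ball_subset_closedBall hz)⟩, ?_⟩
    have h4 := norm_chx_sub (X0 := X0) hf hw h3 ht0
    have h5 : (ch π ρ x r w X0).x z = (ch π ρ x r w X0).x z0 +
      ((ch π ρ x r w X0).x z - (ch π ρ x r w X0).x z0) := by abel
    rw [h5]
    refine (norm_add_le _ _).trans ?_
    linarith
  have hgap : ∀ᵐ p ∂V, p.1 ∈ ball z0 d → p.1 ∈ K := by
    filter_upwards [h.gap] with p hp hpb
    obtain ⟨h1, h2⟩ := hball _ hpb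
    exact hp h1 (h2.trans htΛ)
  have hmin : ∀ z ∈ ball z0 d, MinAt (EuclideanSpace.basisFun (Fin m) ℝ) π x 1 w (1 / (8 * r)) z := by
    intro z hz
    have h0 : ‖z - z0‖ < d := by rwa [mem_ball, dist_eq_norm] at hz
    refine ⟨by simpa [bz] using hw.d2 (π (z - x)), ?_⟩
    have h1 : ‖π (z - x) - X0‖ ≤ t + r := by
      have e1 : π (z - x) - X0 = π (z - z0) + (π (z0 - x) - foot π ρ x r w z0) +
          (foot π ρ x r w z0 - X0) := by
        have e0 : π (z - z0) = π (z - x) - π (z0 - x) := by rw [← map_sub]; congr 1; abel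
        rw [e0]; abel
      rw [e1]
      have e2 := norm_add_le (π (z - z0) + (π (z0 - x) - foot π ρ x r w z0))
        (foot π ρ x r w z0 - X0)
      have e3 := norm_add_le (π (z - z0)) (π (z0 - x) - foot π ρ x r w z0)
      have e4 := norm_pi_le' hf (z - z0)
      have e5 := hw.norm_foot_sub ht0
      rw [norm_sub_rev] at e5
      have e6 := hK z0 hz0
      have e7 := norm_foot_le_chx (π := π) (ρ := ρ) (x := x) (r := r) (w := w) (X0 := X0) z0
      linarith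
    have h2 := hmn _ h1
    have h4 : ∀ i, (EuclideanSpace.basisFun (Fin m) ℝ) i = stdVec m i := fun i => by
      simp [stdVec]
    simp only [bz, inv_one, one_smul, h4]
    exact h2
  have hV := h.st
  have hc : ContinuousOn (dsq π ρ x r w) K := (continuousOn_dsq hf hw).mono hWt
  have hfin : V (K ×ˢ univ) < ⊤ := hV.fin K h.cpt (h.sub.trans inter_subset_right)
  have hmeasK : MeasurableSet (K ×ˢ (univ : Set (L k))) :=
    h.cpt.isClosed.measurableSet.prod MeasurableSet.univ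
  have hintK : IntegrableOn (fun p : Euc k × L k => dsq π ρ x r w p.1) (K ×ˢ univ) V := by
    obtain ⟨C, hC⟩ := h.cpt.exists_bound_of_continuousOn hc
    have hfm : IsFiniteMeasure (V.restrict (K ×ˢ univ)) :=
      ⟨by rw [Measure.restrict_apply_univ]; exact hfin⟩
    refine Integrable.mono' (integrable_const C) ?_ ?_
    · exact (hc.comp continuousOn_fst (fun p hp => hp.1)).aestronglyMeasurable hmeasK
    · filter_upwards [ae_restrict_mem hmeasK] with p hp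
      exact hC p.1 hp.1
  have hBK : (Prod.fst ⁻¹' ball z0 d : Set (Euc k × L k)) ≤ᵐ[V] (K ×ˢ univ : Set (Euc k × L k)) := by
    filter_upwards [hgap] with p hp hpb
    exact ⟨hp hpb, mem_univ _⟩
  have hB := sup_ball (e := EuclideanSpace.basisFun (Fin m) ℝ) (u := w)
    (x := foot π ρ x r w) (y := yy π ρ x r w) (q0 := x) (Al7_182.st_of_stat hV) (Al7_182.tr_ae hV)
    (by simp) (fr_of_frame hf) (Gr_bd hw) (by positivity) hd hU (ptOk hw ht0)
    (Eventually.of_forall fun p hp => ⟨hmin _ hp, ptOk hw (hball _ hp).1.1⟩)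
    (hintK.mono_set_ae hBK) ?_ (mul_nonneg hA0 (ome_pos m).le) (dens_of_Th hV hm hd hU hA0 hA)
  · rw [← dsq_eq, ← two_f hf (X0 := X0)] at hB
    refine hB.trans (mul_le_mul_of_nonneg_left (mul_le_mul_of_nonneg_left ?_ (by positivity))
      zero_le_two)
    have hmB : MeasurableSet (Prod.fst ⁻¹' ball z0 d : Set (Euc k × L k)) :=
      (isOpen_ball.preimage continuous_fst).measurableSet
    have e1 : V.restrict (Prod.fst ⁻¹' ball z0 d) =
        (VK V K).restrict (Prod.fst ⁻¹' ball z0 d) := by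
      rw [GL_394.VK, Measure.restrict_restrict hmB]
      refine Measure.restrict_congr_set ?_
      filter_upwards [hgap] with p hp
      exact propext ⟨fun h1 => ⟨h1, hp h1, mem_univ _⟩, fun h1 => h1.1⟩
    rw [e1]
    have e2 : ∀ p : Euc k × L k, tf w (foot π ρ x r w) (yy π ρ x r w) p.1 =
        2 * (ch π ρ x r w X0).f p.1 := fun p => by rw [two_f hf, dsq_eq]
    simp only [e2]
    refine setIntegral_mono_set ?_ (Eventually.of_forall fun p => ?_)
      (LE.le.eventuallyLE fun p hp => (hball _ hp).2)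
    · have e3 : Integrable (fun p : Euc k × L k => 2 * (ch π ρ x r w X0).f p.1) (VK V K) := by
        refine Integrable.congr hintK (Eventually.of_forall fun p => ?_)
        simp only [two_f hf]
      exact e3.integrableOn
    · simp only [two_f hf]
      exact dsq_nonneg _
  · have e1 : (m:ℝ) * d ^ 2 ≤ r ^ 2 := by
      have : (m:ℝ) * d ≤ r / 4 := by linarith
      nlinarith
    have e2 : 64 * (m:ℝ) * (1 / (8 * r)) ^ 2 * d ^ 2 = m * d ^ 2 / r ^ 2 := by
      field_simp; ring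
    rw [e2, div_le_one (by positivity)]
    exact e1

/-- **(S1), a.e. form** -/
theorem sup_ae (hf : Frame π ρ) (hw : Gr r w)
    (h : Loc (ch π ρ x r w X0) U (tube π ρ x r w) K V Λ) (hm : 1 ≤ m) (hK : Half π ρ x r w K)
    (hTh : ∀ᵐ p ∂V, p.1 ∈ U → 1 ≤ Th m V p.1)
    (htΛ : t ≤ Real.exp Λ) (hst : s < t) (hdr : m * (t - s) ≤ r)
    (hU : ∀ z ∈ K, ‖(ch π ρ x r w X0).x z‖ ≤ s → closedBall z ((t - s) / 4) ⊆ U)
    (hmn : ∀ X, ‖X - X0‖ ≤ t + r → Msys w X = 0) :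
    ∀ᵐ p ∂(VK V K), ‖(ch π ρ x r w X0).x p.1‖ ≤ s →
      ome m * (2 * (ch π ρ x r w X0).f p.1) ≤ 2 * 4 ^ m * (((t - s) ^ m)⁻¹ *
        ∫ p in {p : Euc k × L k | ‖(ch π ρ x r w X0).x p.1‖ ≤ t},
          2 * (ch π ρ x r w X0).f p.1 ∂(VK V K)) := by
  have hmeasK : MeasurableSet (K ×ˢ (univ : Set (L k))) :=
    h.cpt.isClosed.measurableSet.prod MeasurableSet.univ
  have e0 : ∀ᵐ p ∂(VK V K), p ∈ K ×ˢ (univ : Set (L k)) := ae_restrict_mem hmeasK
  have e1 : ∀ᵐ p ∂(VK V K), p.1 ∈ U → 1 ≤ Th m V p.1 := ae_restrict_of_ae hTh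
  filter_upwards [e0, e1] with p hp hT hps
  have hUp := h.sub.trans inter_subset_right hp.1
  have h1 := sup_pt hf hw h hm hK htΛ (d := (t - s) / 4) (by linarith) (by linarith) hp.1
    (by linarith) (hU _ hp.1 hps) hmn zero_le_one (by rw [ENNReal.ofReal_one]; exact hT hUp)
  rw [one_mul] at h1
  refine h1.trans (le_of_eq ?_)
  rw [div_pow, inv_div]
  ring

end chart

end

end Crest.Agent.R234.Gv_685
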