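import Crest.Agent.R234.Gs6_685
import Crest.Agent.R234.GLK3_128

/-!
R234 (helper685), GL-SUP part 7: **(S2) in the literal form of 394/456**, from the field `X2`:
cut-off in `‖ch.x‖`, no smallness of the heights relative to the scale.
-/

set_option autoImplicit false
set_option linter.unusedSectionVars false

open MeasureTheory Metric Set Filter Topology
open scoped InnerProductSpace ContDiff ENNReal

namespace Crest.Agent.R234.Gv_685

open Crest.GeometryTopology.Submanifold Crest.Agent.R234.Vf_884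
open Crest.Agent.R234.Main_456 Crest.Agent.R234.Gi_456
open Crest.Agent.R234.Supm_685 Crest.Agent.R234.Gs_685
open Crest.Agent.R234.Gu_685 (dsq dsq_eq dsq_nonneg dsq_eq_norm)
open Crest.Agent.R234.Ell1_3 (gop ginv)
open Crest.Agent.R234.Cy_870 (Ker)
open Crest.Agent.R234.Cy_870 (FV)
open Crest.Agent.R234.GL_394

noncomputable section

/-! ### the plateau profile -/

section prof

variable {a : ℝ}

/-- `1` on `[0, a]`, `0` on `[1, ∞)` -/
def pe (a τ : ℝ) : ℝ := Real.smoothTransition ((1 - τ) / (1 - a))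

def pe1 (a τ : ℝ) : ℝ := deriv Real.smoothTransition ((1 - τ) / (1 - a)) * (-(1 - a)⁻¹)

theorem pe_nonneg (τ : ℝ) : 0 ≤ pe a τ := Real.smoothTransition.nonneg _

theorem pe_le_one (τ : ℝ) : pe a τ ≤ 1 := Real.smoothTransition.le_one _

theorem pe_one (ha : a < 1) {τ : ℝ} (hτ : τ ≤ a) : pe a τ = 1 := by
  refine Real.smoothTransition.one_of_one_le ?_
  rw [le_div_iff₀ (by linarith)]; linarith

theorem pe_zero (ha : a < 1) {τ : ℝ} (hτ : 1 ≤ τ) : pe a τ = 0 :=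
  Real.smoothTransition.zero_of_nonpos
    (div_nonpos_of_nonpos_of_nonneg (by linarith) (by linarith))

theorem hasDerivAt_pe (τ : ℝ) : HasDerivAt (pe a) (pe1 a τ) τ := by
  have h1 : HasDerivAt Real.smoothTransition (deriv Real.smoothTransition ((1 - τ) / (1 - a)))
      ((1 - τ) / (1 - a)) :=
    (((Real.smoothTransition.contDiff (n := 1)).differentiable one_ne_zero) _).hasDerivAt
  have h2 : HasDerivAt (fun τ : ℝ => (1 - τ) / (1 - a)) (-(1 - a)⁻¹) τ := by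
    have h3 := ((hasDerivAt_id τ).const_sub 1).div_const (1 - a)
    refine h3.congr_deriv ?_
    rw [neg_div, one_div]
  exact h1.comp τ h2

theorem continuous_pe1 : Continuous (pe1 a) := by
  unfold pe1
  have h1 : Continuous (deriv Real.smoothTransition) :=
    (Real.smoothTransition.contDiff (n := 1)).continuous_deriv le_rfl
  exact (h1.comp (by fun_prop)).mul continuous_const

theorem abs_pe1_le (ha : a < 1) (τ : ℝ) : |pe1 a τ| ≤ Kst / (1 - a) := by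
  unfold pe1
  have h0 : 0 < 1 - a := by linarith
  rw [abs_mul, abs_neg, abs_of_pos (inv_pos.2 h0), div_eq_mul_inv]
  exact mul_le_mul_of_nonneg_right (Kst_bound _) (inv_pos.2 h0).le

/-- the squared profile -/
def pg2 (a τ : ℝ) : ℝ := pe a τ ^ 2

def pg21 (a τ : ℝ) : ℝ := 2 * pe a τ * pe1 a τ

theorem ker_pg2 (ha : a < 1) : Ker (pg2 a) (pg21 a) where
  der t := by
    have := (hasDerivAt_pe (a := a) t).pow 2
    refine this.congr_deriv ?_
    simp [pg21]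
  cont := by
    have h1 : Continuous (pe a) :=
      continuous_iff_continuousAt.2 fun t => (hasDerivAt_pe t).continuousAt
    exact (continuous_const.mul h1).mul continuous_pe1
  zero t ht := by simp [pg2, pe_zero ha ht]

end prof

/-! ### the energy bound, abstract chart -/

section abstract

variable {m k : ℕ} {c : Ch m k} {K : Set (Euc k)} {D : Set (Euc m)}
  {V : Measure (Euc k × L k)} {s t a : ℝ}

/-- pointwise facts used by the energy bound, on `{‖x‖ ≤ t}` -/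
structure Ka (c : Ch m k) (K : Set (Euc k)) (t a : ℝ) : Prop where
  tau0 : ∀ p ∈ K ×ˢ G m k, ‖c.x p.1‖ ≤ t → 0 ≤ c.tau p.1 p.2
  k4 : ∀ p ∈ K ×ˢ G m k, ‖c.x p.1‖ ≤ t →
    |tr (c.H p.1 ∘L p.2) - c.tau p.1 p.2| ≤ a * (2 * c.f p.1) + 1 / 4 * c.tau p.1 p.2
  pn : ∀ p ∈ K ×ˢ G m k, ‖c.x p.1‖ ≤ t →
    ‖p.2 (c.nu p.1)‖ ^ 2 ≤ c.tau p.1 p.2 * (2 * c.f p.1)
  ndx : ∀ z ∈ K, ‖c.x z‖ ≤ t → ‖c.dx z‖ ≤ 2

theorem Ka.mono {s t a : ℝ} (h : Ka c K t a) (hst : s ≤ t) : Ka c K s a where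
  tau0 p hp hs := h.tau0 p hp (hs.trans hst)
  k4 p hp hs := h.k4 p hp (hs.trans hst)
  pn p hp hs := h.pn p hp (hs.trans hst)
  ndx z hz hs := h.ndx z hz (hs.trans hst)

theorem setInt_congr (hV : On V m K) (t : ℝ) :
    V.restrict {p : Euc k × L k | ‖c.x p.1‖ ≤ t} =
      V.restrict ((K ×ˢ G m k) ∩ {p : Euc k × L k | ‖c.x p.1‖ ≤ t}) := by
  refine Measure.restrict_congr_set ?_
  filter_upwards [hV.mem] with p hp
  exact propext ⟨fun h1 => ⟨hp, h1⟩, fun h1 => h1.2⟩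

theorem closed_reg (h : Ok c K D) (t : ℝ) :
    IsClosed ((K ×ˢ G m k) ∩ {p : Euc k × L k | ‖c.x p.1‖ ≤ t}) := by
  have hK : IsClosed (K ×ˢ G m k) := (h.cpt.prod (isCompact_G m k)).isClosed
  exact (lift (m := m) h.cx).norm.preimage_isClosed_of_isClosed hK isClosed_Iic

/-- pointwise inequality behind the energy bound -/
theorem pointwise {τ f2 B E g e1 e2 ph : ℝ} (hτ : 0 ≤ τ) (hf : 0 ≤ f2)
    (hE : 0 < E) (he1 : 0 ≤ e1) (hg : g = e1 ^ 2) (he2 : |e2| ≤ B)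
    (hph : ph ^ 2 ≤ 4 * E ^ 2 * (τ * f2)) :
    (E ^ 2)⁻¹ * |ph * (-2 * (2 * e1 * e2))| ≤
      1 / 4 * (τ * g) + 64 * B ^ 2 * (E ^ 2)⁻¹ * f2 := by
  have hB : 0 ≤ B := (abs_nonneg _).trans he2
  have h1 : |ph| ≤ 2 * E * √(τ * f2) := by
    refine abs_le_of_sq_le_sq ?_ (by positivity)
    rw [mul_pow, Real.sq_sqrt (by positivity)]
    calc ph ^ 2 ≤ 4 * E ^ 2 * (τ * f2) := hph
      _ = _ := by ring
  have h2 : |ph * (-2 * (2 * e1 * e2))| ≤ 2 * E * √(τ * f2) * (4 * e1 * B) := by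
    rw [abs_mul]
    refine mul_le_mul h1 ?_ (abs_nonneg _) (by positivity)
    have : -2 * (2 * e1 * e2) = -(4 * e1 * e2) := by ring
    rw [this, abs_neg, abs_mul, abs_of_nonneg (by positivity : 0 ≤ 4 * e1)]
    gcongr
  have h3 : √(τ * f2) = √τ * √f2 := Real.sqrt_mul hτ _
  have h4 : √τ ^ 2 = τ := Real.sq_sqrt hτ
  have h5 : √f2 ^ 2 = f2 := Real.sq_sqrt hf
  have h6 : (E ^ 2)⁻¹ * (2 * E * √(τ * f2) * (4 * e1 * B)) =
      (√τ * e1) * (8 * B * E⁻¹ * √f2) := by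
    rw [h3]; field_simp; ring
  have h7 : (√τ * e1) * (8 * B * E⁻¹ * √f2) ≤
      1 / 4 * (√τ * e1) ^ 2 + (8 * B * E⁻¹ * √f2) ^ 2 := by
    nlinarith [sq_nonneg (1 / 2 * (√τ * e1) - 8 * B * E⁻¹ * √f2)]
  calc (E ^ 2)⁻¹ * |ph * (-2 * (2 * e1 * e2))| ≤
        (E ^ 2)⁻¹ * (2 * E * √(τ * f2) * (4 * e1 * B)) := by gcongr
    _ ≤ 1 / 4 * (√τ * e1) ^ 2 + (8 * B * E⁻¹ * √f2) ^ 2 := by rw [h6]; exact h7
    _ = _ := by
        rw [hg, mul_pow, mul_pow, mul_pow, mul_pow, h4, h5, inv_pow]; ring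

/-- (S2), abstract form -/
theorem energy_abs (h : Ok c K D) (hV : On V m K) (hk : Ka c K t a) (ha : 0 ≤ a)
    (hX : ∀ g g1 : ℝ → ℝ, Ker g g1 → FV V (X2 c g (Real.log t)) = 0) (hs : 0 ≤ s) (hst : s < t) :
    ∫ p in {p : Euc k × L k | ‖c.x p.1‖ ≤ s}, c.tau p.1 p.2 ∂V ≤
      (128 * Kst ^ 2 * ((t - s) ^ 2)⁻¹ + 2 * a) *
        ∫ p in {p : Euc k × L k | ‖c.x p.1‖ ≤ t}, 2 * c.f p.1 ∂V := by
  have ht : 0 < t := by linarith
  set l := Real.log t with hl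
  have el : Real.exp l = t := Real.exp_log ht
  have el2 : Real.exp (-2 * l) = (t ^ 2)⁻¹ := by
    rw [← el, ← Real.exp_nat_mul, ← Real.exp_neg]; congr 1; push_cast; ring
  -- the profile
  set a0 : ℝ := (s / t) ^ 2 with ha0
  have hst1 : s / t < 1 := by rw [div_lt_one ht]; exact hst
  have hst0 : 0 ≤ s / t := by positivity
  have ha1 : a0 < 1 := by nlinarith
  have hB : Kst / (1 - a0) ≤ Kst * (t / (t - s)) := by
    rw [div_eq_mul_inv]
    refine mul_le_mul_of_nonneg_left ?_ Kst_nonneg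
    have h1 : 1 - s / t ≤ 1 - a0 := by nlinarith
    have h2 : 0 < 1 - s / t := by linarith
    have h3 : (1 - s / t)⁻¹ = t / (t - s) := by
      have : t - s ≠ 0 := by linarith
      field_simp
    rw [← h3]
    gcongr
  set B := Kst * (t / (t - s)) with hBdef
  have hker := ker_pg2 ha1
  have hX0 := hX _ _ hker
  rw [FV_X2 h hV hker l] at hX0
  -- abbreviations
  set J := ∫ p in {p : Euc k × L k | ‖c.x p.1‖ ≤ t}, 2 * c.f p.1 ∂V with hJ
  set T := ∫ p, c.tau p.1 p.2 * pg2 a0 (Real.exp (-2 * l) * ‖c.x p.1‖ ^ 2) ∂V with hT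
  set g := fun p : Euc k × L k => pg2 a0 (Real.exp (-2 * l) * ‖c.x p.1‖ ^ 2) with hg
  set g1 := fun p : Euc k × L k => pg21 a0 (Real.exp (-2 * l) * ‖c.x p.1‖ ^ 2) with hg1
  set S : Set (Euc k × L k) := (K ×ˢ G m k) ∩ {p | ‖c.x p.1‖ ≤ t} with hS
  set S' : Set (Euc k × L k) := (K ×ˢ G m k) ∩ {p | ‖c.x p.1‖ ≤ s} with hS'
  have hSm : MeasurableSet S := (closed_reg h t).measurableSet
  have hSm' : MeasurableSet S' := (closed_reg h s).measurableSet
  -- integrability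
  have i0 : Integrable (fun p : Euc k × L k => 2 * c.f p.1) V :=
    hV.integrable h.cpt (continuousOn_const.mul (lift h.cf))
  have iτ : Integrable (fun p : Euc k × L k => c.tau p.1 p.2) V := hV.integrable h.cpt h.ctau
  have iT : Integrable (fun p => c.tau p.1 p.2 * g p) V := h.int hV h.ctau hker.continuous l
  have iF1 : Integrable (fun p => ep2 c p * g p) V := h.int hV h.cep2 hker.continuous l
  have iF2 : Integrable (fun p => ph c p * (-2 * g1 p)) V :=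
    h.int hV h.cph (q := fun t => -2 * pg21 a0 t) (continuous_const.mul hker.cont) l
  have iJ : Integrable (S.indicator fun p : Euc k × L k => 2 * c.f p.1) V := i0.indicator hSm
  have eJ : J = ∫ p, S.indicator (fun p : Euc k × L k => 2 * c.f p.1) p ∂V := by
    rw [integral_indicator hSm, hJ, setInt_congr hV t]
  have hJ0 : 0 ≤ J := by
    rw [eJ]
    refine integral_nonneg_of_ae ?_
    filter_upwards [hV.mem] with p hp
    refine indicator_nonneg (fun q hq => ?_) p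
    have := h.f_nonneg hq.1.1
    positivity
  -- the pointwise bound
  have key : ∀ᵐ p ∂V, t⁻¹ ^ 2 * (ph c p * (-2 * g1 p)) - ep2 c p * g p ≤
      1 / 2 * (c.tau p.1 p.2 * g p) + (a + 64 * B ^ 2 * (t ^ 2)⁻¹) *
        S.indicator (fun p : Euc k × L k => 2 * c.f p.1) p := by
    filter_upwards [hV.mem] with p hp
    by_cases hr : ‖c.x p.1‖ ≤ t
    · have hpS : p ∈ S := ⟨hp, hr⟩
      rw [indicator_of_mem hpS]
      have t0 := hk.tau0 p hp hr
      have k4 := hk.k4 p hp hr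
      have pn := hk.pn p hp hr
      have ndx := hk.ndx p.1 hp.1 hr
      have f0 : 0 ≤ 2 * c.f p.1 := by have := h.f_nonneg hp.1; positivity
      have hph : ph c p ^ 2 ≤ 4 * t ^ 2 * (c.tau p.1 p.2 * (2 * c.f p.1)) := by
        have e1 : |ph c p| ≤ t * (2 * ‖p.2 (c.nu p.1)‖) := by
          unfold ph
          refine (abs_real_inner_le_norm _ _).trans ?_
          refine mul_le_mul hr ((ContinuousLinearMap.le_opNorm _ _).trans ?_) (norm_nonneg _) ht.le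
          gcongr
        calc ph c p ^ 2 = |ph c p| ^ 2 := (sq_abs _).symm
          _ ≤ (t * (2 * ‖p.2 (c.nu p.1)‖)) ^ 2 := pow_le_pow_left₀ (abs_nonneg _) e1 2
          _ = 4 * t ^ 2 * ‖p.2 (c.nu p.1)‖ ^ 2 := by ring
          _ ≤ _ := mul_le_mul_of_nonneg_left pn (by positivity)
      have hP := pointwise (g := g p) (e1 := pe a0 (Real.exp (-2 * l) * ‖c.x p.1‖ ^ 2))
        (e2 := pe1 a0 (Real.exp (-2 * l) * ‖c.x p.1‖ ^ 2)) t0 f0 ht (pe_nonneg _) rfl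
        ((abs_pe1_le ha1 _).trans hB) hph
      have hg0 : 0 ≤ g p := sq_nonneg _
      have hgle : g p ≤ 1 := by
        have := pe_le_one (a := a0) (Real.exp (-2 * l) * ‖c.x p.1‖ ^ 2)
        have := pe_nonneg (a := a0) (Real.exp (-2 * l) * ‖c.x p.1‖ ^ 2)
        change pe a0 _ ^ 2 ≤ 1
        nlinarith
      have e2 : -(ep2 c p * g p) ≤ a * (2 * c.f p.1) + 1 / 4 * (c.tau p.1 p.2 * g p) := by
        have e3 : -ep2 c p ≤ a * (2 * c.f p.1) + 1 / 4 * c.tau p.1 p.2 :=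
          (neg_le_abs _).trans k4
        calc -(ep2 c p * g p) = -ep2 c p * g p := by ring
          _ ≤ (a * (2 * c.f p.1) + 1 / 4 * c.tau p.1 p.2) * g p :=
            mul_le_mul_of_nonneg_right e3 hg0
          _ = a * (2 * c.f p.1) * g p + 1 / 4 * (c.tau p.1 p.2 * g p) := by ring
          _ ≤ a * (2 * c.f p.1) * 1 + 1 / 4 * (c.tau p.1 p.2 * g p) := by gcongr
          _ = _ := by ring
      have e4 : t⁻¹ ^ 2 * (ph c p * (-2 * g1 p)) ≤
          1 / 4 * (c.tau p.1 p.2 * g p) + 64 * B ^ 2 * (t ^ 2)⁻¹ * (2 * c.f p.1) := by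
        refine le_trans ?_ hP
        rw [inv_pow]
        exact mul_le_mul_of_nonneg_left (le_abs_self _) (by positivity)
      linarith
    · have hpS : p ∉ S := fun h1 => hr h1.2
      rw [indicator_of_notMem hpS]
      have h1 : 1 ≤ Real.exp (-2 * l) * ‖c.x p.1‖ ^ 2 := t_ge (by rw [el]; exact hr)
      have h2 : g p = 0 := hker.zero _ h1
      have h3 : g1 p = 0 := hker.zero' _ h1
      rw [h2, h3]
      simp
  have hint := integral_mono_ae ((iF2.const_mul (t⁻¹ ^ 2)).sub iF1)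
    ((iT.const_mul (1 / 2)).add (iJ.const_mul (a + 64 * B ^ 2 * (t ^ 2)⁻¹))) key
  rw [integral_sub' (iF2.const_mul _) iF1,
    integral_add' (iT.const_mul _) (iJ.const_mul _), integral_const_mul, integral_const_mul,
    integral_const_mul, ← eJ] at hint
  have hT2 : T ≤ (128 * Kst ^ 2 * ((t - s) ^ 2)⁻¹ + 2 * a) * J := by
    have e1 : T = t⁻¹ ^ 2 * ∫ p, ph c p * (-2 * g1 p) ∂V - ∫ p, ep2 c p * g p ∂V := by
      have e0 : er2 c V (pg2 a0) l = ∫ p, ep2 c p * g p ∂V := rfl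
      have e1 : -Real.exp (-2 * l) = -(t⁻¹ ^ 2) := by rw [el2, inv_pow]
      rw [e0, e1] at hX0
      have e2 : 1 * T + 1 * ∫ p, ep2 c p * g p ∂V +
        -(t⁻¹ ^ 2) * ∫ p, ph c p * (-2 * g1 p) ∂V = 0 := hX0
      linarith
    have e2 : 64 * B ^ 2 * (t ^ 2)⁻¹ = 64 * Kst ^ 2 * ((t - s) ^ 2)⁻¹ := by
      rw [hBdef]
      have : t - s ≠ 0 := by linarith
      field_simp
    rw [← e1, e2] at hint
    have : T ≤ 1 / 2 * T + (a + 64 * Kst ^ 2 * ((t - s) ^ 2)⁻¹) * J := hint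
    linarith
  refine le_trans ?_ hT2
  rw [setInt_congr hV s]
  have e3 : ∫ p in S', c.tau p.1 p.2 ∂V = ∫ p in S', c.tau p.1 p.2 * g p ∂V := by
    refine setIntegral_congr_fun hSm' fun p hp => ?_
    have h1 : Real.exp (-2 * l) * ‖c.x p.1‖ ^ 2 ≤ a0 := by
      rw [el2, ha0, div_pow, inv_mul_eq_div]
      have := hp.2
      gcongr
      exact this
    have h2 : g p = 1 := by
      change pe a0 _ ^ 2 = 1
      rw [pe_one ha1 h1, one_pow]
    simp only [h2, mul_one]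
  rw [e3]
  refine setIntegral_le_integral iT ?_
  filter_upwards [hV.mem] with p hp
  by_cases hr : ‖c.x p.1‖ ≤ t
  · exact mul_nonneg (hk.tau0 p hp hr) (sq_nonneg _)
  · have h1 : 1 ≤ Real.exp (-2 * l) * ‖c.x p.1‖ ^ 2 := t_ge (by rw [el]; exact hr)
    have h2 : g p = 0 := hker.zero _ h1
    simp [h2]

end abstract

/-! ### the instance -/

section chart

variable {m n k : ℕ} {U K : Set (Euc k)} {V : Measure (Euc k × L k)}
  {π : Euc k →L[ℝ] Euc m} {ρ : Euc k →L[ℝ] Euc n} {x : Euc k} {r : ℝ} {w : Euc m → Euc n}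
  {X0 : Euc m} {s t κ Λ : ℝ}

theorem pj_of_G {P : L k} (hP : P ∈ G m k) : GLK_128.Pj (Euc m) P where
  idem := hP.1
  sa := hP.2.1.adjoint_eq
  tr := by
    rw [finrank_euclideanSpace_fin]
    exact hP.2.2

theorem norm_Lo {q : Euc m →L[ℝ] Euc n} (hq : ‖q‖ ≤ 1 / 8) : ‖Lo q‖ ≤ 65 / 64 :=
  ContinuousLinearMap.opNorm_le_bound _ (by norm_num) fun v => norm_Lo_le hq v

/-- the pointwise facts for the chart of a minimal graph -/
theorem ka_ch (hf : Frame π ρ) (hw : Gr r w) (hKt : K ⊆ tube π ρ x r w)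
    (hmn : ∀ X, ‖X - X0‖ ≤ t → Msys w X = 0)
    (hd2 : ∀ X, ‖X - X0‖ ≤ t → ‖fderiv ℝ (fderiv ℝ w) X‖ ≤ κ)
    (hh : ∀ z ∈ K, ‖(ch π ρ x r w X0).x z‖ ≤ t → 12 * m * κ * ‖yy π ρ x r w z‖ ≤ 1) :
    Ka (ch π ρ x r w X0) K t (2 * m * κ ^ 2) where
  tau0 p hp _ := GLK_128.tau0_nonneg (frame_fr hf)
    (hw.inv (foot π ρ x r w p.1) (Y := yy π ρ x r w p.1) (hw.norm_yy_lt (hKt hp.1)).le)
    (pj_of_G hp.2)
  k4 p hp hpt := by
    have hz := hKt hp.1
    have H := hw.inv (foot π ρ x r w p.1) (Y := yy π ρ x r w p.1) (hw.norm_yy_lt hz).le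
    have hX : ‖foot π ρ x r w p.1 - X0‖ ≤ t := (norm_foot_le_chx p.1).trans hpt
    have hmin : Fm_209.trc (Euc m) (ginv (fderiv ℝ w (foot π ρ x r w p.1)) ∘L
        Yo w (foot π ρ x r w p.1) (yy π ρ x r w p.1)) = 0 := by
      have h1 := GLK_128.trc_gi_Yop_zero (EuclideanSpace.basisFun (Fin m) ℝ)
        (u := w) (x := foot π ρ x r w p.1) (hw.cd.contDiffAt.of_le (by norm_num)) (by
          have h2 := hmn _ hX
          have h4 : ∀ i, (EuclideanSpace.basisFun (Fin m) ℝ) i = stdVec m i := fun i => by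
            simp [stdVec]
          unfold GLK_128.msb
          simp only [h4]
          exact h2) (yy π ρ x r w p.1)
      exact h1
    have h1 := GLK_128.abs_k4 (frame_fr hf) H (pj_of_G hp.2)
      ((hw.d1 _).trans (by norm_num)) (hw.norm_Yo_le _ (hw.norm_yy_lt hz).le) hmin
    rw [finrank_euclideanSpace_fin] at h1
    have h0 := GLK_128.tau0_nonneg (frame_fr hf) H (pj_of_G hp.2)
    set τ := GLK_128.tau0 (ContinuousLinearMap.adjoint π) (ContinuousLinearMap.adjoint ρ)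
      (fderiv ℝ w (foot π ρ x r w p.1)) (hinv (fderiv ℝ w (foot π ρ x r w p.1))) p.2 with hτ
    set y := yy π ρ x r w p.1 with hy
    have h2 : ‖Yo w (foot π ρ x r w p.1) y‖ ≤ κ * ‖y‖ :=
      (norm_Yo_le w _ _).trans (mul_le_mul_of_nonneg_right (hd2 _ hX) (norm_nonneg _))
    have h3 := hh p.1 hp.1 hpt
    have h4 : ‖y‖ ^ 2 ≤ 2 * (ch π ρ x r w X0).f p.1 := by
      rw [two_f hf, dsq_eq]
      exact sq_le_nsq _ _
    have hm0 : (0:ℝ) ≤ m := Nat.cast_nonneg _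
    have e1 : (m:ℝ) * (2 * ‖Yo w (foot π ρ x r w p.1) y‖ ^ 2 +
        3 * (‖Yo w (foot π ρ x r w p.1) y‖ * τ)) ≤ m * (2 * (κ * ‖y‖) ^ 2 +
          3 * (κ * ‖y‖ * τ)) := by gcongr
    have e2 : (m:ℝ) * (2 * (κ * ‖y‖) ^ 2 + 3 * (κ * ‖y‖ * τ)) =
        2 * m * κ ^ 2 * ‖y‖ ^ 2 + 1 / 4 * (12 * m * κ * ‖y‖) * τ := by ring
    have e3 : 2 * m * κ ^ 2 * ‖y‖ ^ 2 ≤ 2 * m * κ ^ 2 * (2 * (ch π ρ x r w X0).f p.1) := by
      gcongr
    have e4 : 1 / 4 * (12 * m * κ * ‖y‖) * τ ≤ 1 / 4 * 1 * τ := by gcongr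
    have h5 : |tr ((ch π ρ x r w X0).H p.1 ∘L p.2) - (ch π ρ x r w X0).tau p.1 p.2| ≤
      m * (2 * ‖Yo w (foot π ρ x r w p.1) y‖ ^ 2 +
        3 * (‖Yo w (foot π ρ x r w p.1) y‖ * τ)) := h1
    have h6 : (ch π ρ x r w X0).tau p.1 p.2 = τ := rfl
    rw [h6] at h5 ⊢
    linarith
  pn p hp _ := by
    have hz := hKt hp.1
    have H := hw.inv (foot π ρ x r w p.1) (Y := yy π ρ x r w p.1) (hw.norm_yy_lt hz).le
    have h1 := GLK_128.norm_PN_sq (frame_fr hf) H (pj_of_G hp.2)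
    have h2 := GLK_128.NN_BB (frame_fr hf) H
    have h3 : (ch π ρ x r w X0).nu p.1 = GLK_128.NN (ContinuousLinearMap.adjoint π)
        (ContinuousLinearMap.adjoint ρ) (fderiv ℝ w (foot π ρ x r w p.1))
        (hinv (fderiv ℝ w (foot π ρ x r w p.1))) ((ch π ρ x r w X0).nu p.1) := by
      have := congrArg (fun T : Euc n →L[ℝ] Euc k => T (yy π ρ x r w p.1)) h2
      exact this.symm
    have h4 : ‖p.2 ((ch π ρ x r w X0).nu p.1)‖ ≤ ‖p.2 ∘L GLK_128.NN
        (ContinuousLinearMap.adjoint π) (ContinuousLinearMap.adjoint ρ)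
        (fderiv ℝ w (foot π ρ x r w p.1)) (hinv (fderiv ℝ w (foot π ρ x r w p.1)))‖ *
        ‖(ch π ρ x r w X0).nu p.1‖ := by
      conv_lhs => rw [h3]
      exact ContinuousLinearMap.le_opNorm (p.2 ∘L GLK_128.NN
        (ContinuousLinearMap.adjoint π) (ContinuousLinearMap.adjoint ρ)
        (fderiv ℝ w (foot π ρ x r w p.1)) (hinv (fderiv ℝ w (foot π ρ x r w p.1)))) _
    have h5 : ‖(ch π ρ x r w X0).nu p.1‖ ^ 2 = 2 * (ch π ρ x r w X0).f p.1 := by
      change ‖Bt π ρ w (foot π ρ x r w p.1) (yy π ρ x r w p.1)‖ ^ 2 =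
        2 * (‖Bt π ρ w (foot π ρ x r w p.1) (yy π ρ x r w p.1)‖ ^ 2 / 2)
      ring
    calc _ ≤ (_ * ‖(ch π ρ x r w X0).nu p.1‖) ^ 2 := pow_le_pow_left₀ (norm_nonneg _) h4 2
      _ = _ := by rw [mul_pow, h5]
      _ ≤ _ := mul_le_mul_of_nonneg_right h1 (by rw [← h5]; positivity)
  ndx z hz _ := by
    have hzt := hKt hz
    have H := hw.inv (foot π ρ x r w z) (Y := yy π ρ x r w z) (hw.norm_yy_lt hzt).le
    have h1 := GLK_128.norm_DX (frame_fr hf) H ((hw.d1 _).trans (by norm_num))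
      (hw.norm_Yo_le _ (hw.norm_yy_lt hzt).le)
    change ‖Lo (fderiv ℝ w X0) ∘L dft π ρ x r w z‖ ≤ 2
    refine (ContinuousLinearMap.opNorm_comp_le _ _).trans ?_
    calc _ ≤ 65 / 64 * (5 / 3) :=
          mul_le_mul (norm_Lo (hw.d1 _)) h1 (norm_nonneg _) (by norm_num)
      _ ≤ 2 := by norm_num

/-- **(S2)**: the energy bound for the chart `ch`, in the part `VK V K`. -/
theorem energy (hf : Frame π ρ) (hw : Gr r w)
    (h : Loc (ch π ρ x r w X0) U (tube π ρ x r w) K V Λ) (htΛ : t ≤ Real.exp Λ)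
    (hs : 0 ≤ s) (hst : s < t) (hmn : ∀ X, ‖X - X0‖ ≤ t → Msys w X = 0)
    (hd2 : ∀ X, ‖X - X0‖ ≤ t → ‖fderiv ℝ (fderiv ℝ w) X‖ ≤ κ)
    (hh : ∀ z ∈ K, ‖(ch π ρ x r w X0).x z‖ ≤ t → 12 * m * κ * ‖yy π ρ x r w z‖ ≤ 1) :
    ∫ p in {p : Euc k × L k | ‖(ch π ρ x r w X0).x p.1‖ ≤ s},
        (ch π ρ x r w X0).tau p.1 p.2 ∂(VK V K) ≤
      (128 * Kst ^ 2 * ((t - s) ^ 2)⁻¹ + 4 * m * κ ^ 2) *
        ∫ p in {p : Euc k × L k | ‖(ch π ρ x r w X0).x p.1‖ ≤ t},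
          2 * (ch π ρ x r w X0).f p.1 ∂(VK V K) := by
  have hKt : K ⊆ tube π ρ x r w := h.sub.trans inter_subset_left
  have h1 := energy_abs (hw.ok hf X0 h.cpt hKt) h.toOn (ka_ch hf hw hKt hmn hd2 hh)
    (by positivity) (fun g g1 hg => h.fv2 (hw.reg hf X0) hg
      ((Real.log_le_iff_le_exp (by linarith)).2 htΛ)) hs hst
  have h2 : 2 * (2 * m * κ ^ 2) = 4 * m * κ ^ 2 := by ring
  rwa [h2] at h1

end chart

end

end Crest.Agent.R234.Gv_685
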