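import Crest.Agent.R234.Gs7_685
import Crest.Agent.R234.GI1_640

/-!
R234 (helper685), GL-SUP part 8: (S1), (S2) in terms of `OO`, `qq`, `II` (cubic profile).
-/

set_option autoImplicit false
set_option linter.unusedSectionVars false

open MeasureTheory Metric Set Filter Topology
open scoped InnerProductSpace ContDiff ENNReal

namespace Crest.Agent.R234.Gv_685

open Crest.GeometryTopology.Submanifold Crest.Agent.R234.Vf_884
open Crest.Agent.R234.Main_456 Crest.Agent.R234.Gi_456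
open Crest.Agent.R234.Gs_685 (Kst Kst_nonneg)
open Crest.Agent.R234.Cy_870 (Ker FV)
open Crest.Agent.R234.GL_394
open Crest.Agent.R234.GI_640 (g31 g31_lower' ker31 g31_nonpos)

noncomputable section

section abs

variable {m k : ℕ} {c : Ch m k} {K : Set (Euc k)} {D : Set (Euc m)}
  {V : Measure (Euc k × L k)} {l l' : ℝ}

theorem J_nonneg (h : Ok c K D) (hV : On V m K) (t : ℝ) :
    0 ≤ ∫ p in {p : Euc k × L k | ‖c.x p.1‖ ≤ t}, 2 * c.f p.1 ∂V := by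
  rw [setInt_congr hV t]
  refine setIntegral_nonneg (closed_reg h t).measurableSet fun p hp => ?_
  have := h.f_nonneg hp.1.1
  positivity

/-- the sharp height integral against `II` at a larger scale, any profile -/
theorem int_le_II (h : Ok c K D) (hV : On V m K) {g1 : ℝ → ℝ} (hg : Continuous g1)
    (hg0 : ∀ τ, 0 ≤ τ → g1 τ ≤ 0) {b θ : ℝ} (hθ : 0 < θ) (hlow : ∀ τ, 0 ≤ τ → τ ≤ b → θ ≤ -g1 τ)
    (hb : Real.exp (-2 * l) * Real.exp (2 * l') ≤ b)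
    (hmu : ∀ z ∈ K, ‖c.x z‖ ≤ Real.exp l' → 1 / 2 ≤ c.mu (c.x z)) :
    ∫ p in {p : Euc k × L k | ‖c.x p.1‖ ≤ Real.exp l'}, 2 * c.f p.1 ∂V ≤
      Real.exp (m * l) * (θ⁻¹ * II c V g1 l) := by
  have e1 : Real.exp (m * l) * (θ⁻¹ * II c V g1 l) =
      ∫ p, θ⁻¹ * ((c.f p.1 * c.mu (c.x p.1)) *
        (-4 * g1 (Real.exp (-2 * l) * ‖c.x p.1‖ ^ 2))) ∂V := by
    unfold II
    rw [integral_const_mul]
    have : Real.exp (m * l) * Real.exp (-m * l) = 1 := by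
      rw [← Real.exp_add]; simp
    generalize (∫ p, (c.f p.1 * c.mu (c.x p.1)) *
        (-4 * g1 (Real.exp (-2 * l) * ‖c.x p.1‖ ^ 2)) ∂V) = J
    linear_combination (θ⁻¹ * J) * this
  rw [e1, setInt_congr hV]
  have hS := (closed_reg h (Real.exp l')).measurableSet
  have i1 : Integrable (fun p => (c.f p.1 * c.mu (c.x p.1)) *
      (-4 * g1 (Real.exp (-2 * l) * ‖c.x p.1‖ ^ 2))) V :=
    h.int hV h.cfmu (q := fun t => -4 * g1 t) (continuous_const.mul hg) l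
  have i0 : Integrable (fun p : Euc k × L k => 2 * c.f p.1) V :=
    hV.integrable h.cpt (continuousOn_const.mul (lift h.cf))
  have nn : ∀ p ∈ K ×ˢ G m k, 0 ≤ θ⁻¹ * ((c.f p.1 * c.mu (c.x p.1)) *
      (-4 * g1 (Real.exp (-2 * l) * ‖c.x p.1‖ ^ 2))) := by
    intro p hp
    have h1 := h.f_nonneg hp.1
    have h2 := h.mupos _ (h.mem _ hp.1)
    have h3 := hg0 (Real.exp (-2 * l) * ‖c.x p.1‖ ^ 2) (by positivity)
    have h4 : 0 ≤ -4 * g1 (Real.exp (-2 * l) * ‖c.x p.1‖ ^ 2) := by linarith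
    positivity
  refine le_trans ?_ (setIntegral_le_integral (s := (K ×ˢ G m k) ∩
    {p : Euc k × L k | ‖c.x p.1‖ ≤ Real.exp l'}) (i1.const_mul θ⁻¹) ?_)
  · refine setIntegral_mono_on i0.integrableOn (i1.const_mul _).integrableOn hS ?_
    intro p hp
    have h1 := h.f_nonneg hp.1.1
    have h2 := hmu _ hp.1.1 hp.2
    have hx : ‖c.x p.1‖ ≤ Real.exp l' := hp.2
    have h3 : Real.exp (-2 * l) * ‖c.x p.1‖ ^ 2 ≤ b := by
      refine le_trans ?_ hb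
      have : Real.exp (2 * l') = Real.exp l' ^ 2 := by
        rw [← Real.exp_nat_mul]; push_cast; rfl
      rw [this]
      gcongr
    have h4 := hlow _ (by positivity) h3
    set G1 := -g1 (Real.exp (-2 * l) * ‖c.x p.1‖ ^ 2) with hG
    have h5 : θ⁻¹ * ((c.f p.1 * c.mu (c.x p.1)) *
      (-4 * g1 (Real.exp (-2 * l) * ‖c.x p.1‖ ^ 2))) =
        4 * (c.f p.1 * c.mu (c.x p.1)) * (θ⁻¹ * G1) := by rw [hG]; ring
    rw [h5]
    have h6 : 1 ≤ θ⁻¹ * G1 := by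
      rw [inv_mul_eq_div, one_le_div hθ]; exact h4
    calc 2 * c.f p.1 = 4 * (c.f p.1 * (1 / 2)) * 1 := by ring
      _ ≤ 4 * (c.f p.1 * c.mu (c.x p.1)) * (θ⁻¹ * G1) := by gcongr
  · filter_upwards [hV.mem] with p hp
    exact nn p hp

theorem half_le_one_sub_exp {δ : ℝ} (h0 : 0 ≤ δ) (h1 : δ ≤ 1) : δ / 2 ≤ 1 - Real.exp (-δ) := by
  have h2 : Real.exp (-δ) ≤ (1 + δ)⁻¹ := by
    rw [Real.exp_neg]
    exact inv_anti₀ (by linarith) (by linarith [Real.add_one_le_exp δ])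
  have h3 : (1 + δ)⁻¹ ≤ 1 - δ / 2 := by
    rw [inv_le_iff_one_le_mul₀ (by linarith)]
    nlinarith
  linarith

/-- the sharp height integral against `II` for the cubic profile -/
theorem int_le_II3 (h : Ok c K D) (hV : On V m K) {δ : ℝ} (h0 : 0 < δ) (h1 : δ ≤ 1)
    (hmu : ∀ z ∈ K, ‖c.x z‖ ≤ Real.exp (l + δ / 2) → 1 / 2 ≤ c.mu (c.x z)) :
    ∫ p in {p : Euc k × L k | ‖c.x p.1‖ ≤ Real.exp (l + δ / 2)}, 2 * c.f p.1 ∂V ≤
      Real.exp (m * (l + δ)) * (2 * (δ ^ 2)⁻¹ * II c V g31 (l + δ)) := by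
  have e2 : Real.exp (-2 * (l + δ)) * Real.exp (2 * (l + δ / 2)) = Real.exp (-δ) := by
    rw [← Real.exp_add]; congr 1; ring
  have h3 := half_le_one_sub_exp h0.le h1
  have h4 := int_le_II (l := l + δ) (l' := l + δ / 2) (g1 := g31) h hV ker31.continuous
    (fun τ _ => g31_nonpos τ) (b := Real.exp (-δ)) (θ := 3 / 4 * δ ^ 2) (by positivity)
    (fun τ _ hτ => by
      have := g31_lower' (by rw [Real.exp_le_one_iff]; linarith) hτ
      nlinarith) e2.le hmu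
  refine h4.trans (mul_le_mul_of_nonneg_left ?_ (Real.exp_pos _).le)
  have h5 : 0 ≤ II c V g31 (l + δ) := II_nonneg h hV (fun t _ => g31_nonpos t) _
  rw [mul_inv]
  have h6 : (3 / 4 : ℝ)⁻¹ * (δ ^ 2)⁻¹ ≤ 2 * (δ ^ 2)⁻¹ := by
    gcongr; norm_num
  exact mul_le_mul_of_nonneg_right h6 h5

end abs

section chart

variable {m n k : ℕ} {U K : Set (Euc k)} {V : Measure (Euc k × L k)}
  {π : Euc k →L[ℝ] Euc m} {ρ : Euc k →L[ℝ] Euc n} {x : Euc k} {r : ℝ} {w : Euc m → Euc n}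
  {X0 : Euc m} {κ Λ l δ : ℝ}

theorem exp_half_sub {δ : ℝ} (h0 : 0 ≤ δ) (h1 : δ ≤ 1) :
    δ / 2 ≤ Real.exp (δ / 2) - 1 ∧ Real.exp (δ / 2) - 1 ≤ δ := by
  refine ⟨by linarith [Real.add_one_le_exp (δ / 2)], ?_⟩
  have h2 := half_le_one_sub_exp (δ := δ / 2) (by linarith) (by linarith)
  -- `exp (δ/2) ≤ 1 / (1 - δ/2)`
  have h3 : 1 - δ / 2 ≤ Real.exp (-(δ / 2)) := by linarith [Real.add_one_le_exp (-(δ / 2))]
  have h4 : 0 < 1 - δ / 2 := by linarith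
  have h5 : Real.exp (δ / 2) ≤ (1 - δ / 2)⁻¹ := by
    have : Real.exp (δ / 2) = (Real.exp (-(δ / 2)))⁻¹ := by rw [Real.exp_neg, inv_inv]
    rw [this]
    exact inv_anti₀ h4 h3
  have h6 : (1 - δ / 2)⁻¹ ≤ 1 + δ := by
    rw [inv_le_iff_one_le_mul₀ h4]
    nlinarith
  linarith

theorem sub_bounds (l : ℝ) {δ : ℝ} (h0 : 0 < δ) (h1 : δ ≤ 1) :
    Real.exp l * (δ / 2) ≤ Real.exp (l + δ / 2) - Real.exp l ∧
      Real.exp (l + δ / 2) - Real.exp l ≤ Real.exp l * δ := by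
  obtain ⟨h2, h3⟩ := exp_half_sub h0.le h1
  have h4 : Real.exp (l + δ / 2) - Real.exp l = Real.exp l * (Real.exp (δ / 2) - 1) := by
    rw [Real.exp_add]; ring
  rw [h4]
  exact ⟨by gcongr, by gcongr⟩

/-- **(S1) against `II`** -/
theorem qq_ae (hf : Frame π ρ) (hw : Gr r w)
    (h : Loc (ch π ρ x r w X0) U (tube π ρ x r w) K V Λ) (hm : 1 ≤ m) (hK : Half π ρ x r w K)
    (hTh : ∀ᵐ p ∂V, p.1 ∈ U → 1 ≤ Th m V p.1) (h0 : 0 < δ) (h1 : δ ≤ 1)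
    (hlΛ : l + δ / 2 ≤ Λ) (hdr : m * (Real.exp l * δ) ≤ r)
    (hU : ∀ z ∈ K, ‖(ch π ρ x r w X0).x z‖ ≤ Real.exp l → closedBall z (Real.exp l * δ / 4) ⊆ U)
    (hmn : ∀ X, ‖X - X0‖ ≤ Real.exp (l + δ / 2) + r → Msys w X = 0)
    (hmu : ∀ z ∈ K, ‖(ch π ρ x r w X0).x z‖ ≤ Real.exp (l + δ / 2) →
      1 / 2 ≤ (ch π ρ x r w X0).mu ((ch π ρ x r w X0).x z)) :
    ∀ᵐ p ∂(VK V K), ‖(ch π ρ x r w X0).x p.1‖ ≤ Real.exp l →
      ome m * qq (ch π ρ x r w X0) l p.1 ≤ 4 * (8 * Real.exp 1) ^ m * (δ ^ (m + 2))⁻¹ *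
        (Real.exp (-2 * l) * II (ch π ρ x r w X0) (VK V K) g31 (l + δ)) := by
  obtain ⟨hb1, hb2⟩ := sub_bounds l h0 h1
  have hel := Real.exp_pos l
  have hst : Real.exp l < Real.exp (l + δ / 2) := Real.exp_lt_exp.2 (by linarith)
  have hKt : K ⊆ tube π ρ x r w := h.sub.trans inter_subset_left
  have hOk := hw.ok hf X0 h.cpt hKt
  have hA := sup_ae hf hw h hm hK hTh (s := Real.exp l) (t := Real.exp (l + δ / 2))
    (Real.exp_le_exp.2 hlΛ) hst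
    ((mul_le_mul_of_nonneg_left hb2 (Nat.cast_nonneg _)).trans hdr)
    (fun z hz hs => (closedBall_subset_closedBall (by linarith)).trans (hU z hz hs)) hmn
  have hJ := int_le_II3 (l := l) hOk h.toOn h0 h1 hmu
  have hJ0 := J_nonneg hOk h.toOn (Real.exp (l + δ / 2))
  have hI0 : 0 ≤ II (ch π ρ x r w X0) (VK V K) g31 (l + δ) :=
    II_nonneg hOk h.toOn (fun t _ => g31_nonpos t) _
  filter_upwards [hA] with p hp hps
  have h2 := hp hps
  have h3 : ((Real.exp (l + δ / 2) - Real.exp l) ^ m)⁻¹ ≤ ((Real.exp l * (δ / 2)) ^ m)⁻¹ := by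
    gcongr
  have h4 : Real.exp (m * (l + δ)) ≤ Real.exp l ^ m * Real.exp 1 ^ m := by
    rw [← mul_pow, ← Real.exp_add, ← Real.exp_nat_mul]
    gcongr
  have h5 : ome m * (2 * (ch π ρ x r w X0).f p.1) ≤ 2 * 4 ^ m *
      (((Real.exp l * (δ / 2)) ^ m)⁻¹ * (Real.exp l ^ m * Real.exp 1 ^ m *
        (2 * (δ ^ 2)⁻¹ * II (ch π ρ x r w X0) (VK V K) g31 (l + δ)))) := by
    refine h2.trans (mul_le_mul_of_nonneg_left ?_ (by positivity))
    refine mul_le_mul h3 (hJ.trans ?_) hJ0 (by positivity)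
    exact mul_le_mul_of_nonneg_right h4 (by positivity)
  have h6 : 2 * 4 ^ m * (((Real.exp l * (δ / 2)) ^ m)⁻¹ * (Real.exp l ^ m * Real.exp 1 ^ m *
        (2 * (δ ^ 2)⁻¹ * II (ch π ρ x r w X0) (VK V K) g31 (l + δ)))) =
      4 * (8 * Real.exp 1) ^ m * (δ ^ (m + 2))⁻¹ *
        II (ch π ρ x r w X0) (VK V K) g31 (l + δ) := by
    have e8 : (8:ℝ) ^ m = 4 ^ m * 2 ^ m := by rw [← mul_pow]; norm_num
    rw [mul_pow (8:ℝ), e8, mul_pow, div_pow, pow_add]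
    field_simp
    try ring
  rw [h6] at h5
  unfold qq
  calc ome m * (Real.exp (-2 * l) * (2 * (ch π ρ x r w X0).f p.1)) =
      Real.exp (-2 * l) * (ome m * (2 * (ch π ρ x r w X0).f p.1)) := by ring
    _ ≤ Real.exp (-2 * l) * (4 * (8 * Real.exp 1) ^ m * (δ ^ (m + 2))⁻¹ *
        II (ch π ρ x r w X0) (VK V K) g31 (l + δ)) :=
      mul_le_mul_of_nonneg_left h5 (Real.exp_pos _).le
    _ = _ := by ring

/-- **(S2) against `II`** -/
theorem OO_le (hf : Frame π ρ) (hw : Gr r w)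
    (h : Loc (ch π ρ x r w X0) U (tube π ρ x r w) K V Λ) (h0 : 0 < δ) (h1 : δ ≤ 1)
    (hlΛ : l + δ / 2 ≤ Λ)
    (hmn : ∀ X, ‖X - X0‖ ≤ Real.exp (l + δ / 2) → Msys w X = 0)
    (hd2 : ∀ X, ‖X - X0‖ ≤ Real.exp (l + δ / 2) → ‖fderiv ℝ (fderiv ℝ w) X‖ ≤ κ)
    (hh : ∀ z ∈ K, ‖(ch π ρ x r w X0).x z‖ ≤ Real.exp (l + δ / 2) →
      12 * m * κ * ‖yy π ρ x r w z‖ ≤ 1)
    (hmu : ∀ z ∈ K, ‖(ch π ρ x r w X0).x z‖ ≤ Real.exp (l + δ / 2) →
      1 / 2 ≤ (ch π ρ x r w X0).mu ((ch π ρ x r w X0).x z)) :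
    OO (ch π ρ x r w X0) (VK V K) l ≤
      2 * Real.exp 1 ^ m * (δ ^ 4)⁻¹ * (512 * Kst ^ 2 + 1 + 4 * m * (κ * Real.exp l) ^ 2) *
        II (ch π ρ x r w X0) (VK V K) g31 (l + δ) := by
  obtain ⟨hb1, hb2⟩ := sub_bounds l h0 h1
  have hel := Real.exp_pos l
  have hst : Real.exp l < Real.exp (l + δ / 2) := Real.exp_lt_exp.2 (by linarith)
  have hKt : K ⊆ tube π ρ x r w := h.sub.trans inter_subset_left
  have hOk := hw.ok hf X0 h.cpt hKt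
  have hOn := h.toOn
  have hE := energy hf hw h (Real.exp_le_exp.2 hlΛ) hel.le hst hmn hd2 hh
  have hJ := int_le_II3 (l := l) hOk hOn h0 h1 hmu
  have hJ0 := J_nonneg hOk hOn (Real.exp (l + δ / 2))
  have hI0 : 0 ≤ II (ch π ρ x r w X0) (VK V K) g31 (l + δ) :=
    II_nonneg hOk hOn (fun t _ => g31_nonpos t) _
  set c := ch π ρ x r w X0 with hc
  set I := II c (VK V K) g31 (l + δ) with hI
  set J := ∫ p in {p : Euc k × L k | ‖c.x p.1‖ ≤ Real.exp (l + δ / 2)}, 2 * c.f p.1 ∂(VK V K)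
    with hJd
  set J1 := ∫ p in {p : Euc k × L k | ‖c.x p.1‖ ≤ Real.exp l}, 2 * c.f p.1 ∂(VK V K) with hJ1d
  have i0 : Integrable (fun p : Euc k × L k => 2 * c.f p.1) (VK V K) :=
    hOn.integrable hOk.cpt (continuousOn_const.mul (lift hOk.cf))
  have iτ : Integrable (fun p : Euc k × L k => c.tau p.1 p.2) (VK V K) :=
    hOn.integrable hOk.cpt hOk.ctau
  have hJ1 : J1 ≤ J := by
    rw [hJ1d, hJd, setInt_congr hOn, setInt_congr hOn]
    refine setIntegral_mono_set i0.integrableOn ?_ ?_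
    · filter_upwards [ae_restrict_mem (closed_reg hOk _).measurableSet] with p hp
      have := hOk.f_nonneg hp.1.1
      simp only [Pi.zero_apply]
      positivity
    · exact LE.le.eventuallyLE fun p hp => ⟨hp.1, hp.2.trans hst.le⟩
  have eOO : OO c (VK V K) l = Real.exp ((2 - m) * l) *
      (∫ p in {p : Euc k × L k | ‖c.x p.1‖ ≤ Real.exp l}, c.tau p.1 p.2 ∂(VK V K) +
        Real.exp (-2 * l) * J1) := by
    unfold OO qq
    rw [integral_add iτ.integrableOn (i0.const_mul _).integrableOn, integral_const_mul]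
  have e2 : Real.exp (-2 * l) = (Real.exp l ^ 2)⁻¹ := by
    rw [← Real.exp_nat_mul, ← Real.exp_neg]; congr 1; push_cast; ring
  have h3 : ((Real.exp (l + δ / 2) - Real.exp l) ^ 2)⁻¹ ≤ ((Real.exp l * (δ / 2)) ^ 2)⁻¹ := by
    gcongr
  have hm0 : (0:ℝ) ≤ m := Nat.cast_nonneg _
  have h7 : ∫ p in {p : Euc k × L k | ‖c.x p.1‖ ≤ Real.exp l}, c.tau p.1 p.2 ∂(VK V K) +
        Real.exp (-2 * l) * J1 ≤
      (Real.exp l ^ 2)⁻¹ * (δ ^ 2)⁻¹ * (512 * Kst ^ 2 + 1 + 4 * m * (κ * Real.exp l) ^ 2) * J := by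
    have a1 : (128 * Kst ^ 2 * ((Real.exp (l + δ / 2) - Real.exp l) ^ 2)⁻¹ + 4 * m * κ ^ 2) * J ≤
        (128 * Kst ^ 2 * ((Real.exp l * (δ / 2)) ^ 2)⁻¹ + 4 * m * κ ^ 2) * J := by gcongr
    have a2 : Real.exp (-2 * l) * J1 ≤ (Real.exp l ^ 2)⁻¹ * J := by
      rw [e2]; gcongr
    have a3 : 128 * Kst ^ 2 * ((Real.exp l * (δ / 2)) ^ 2)⁻¹ =
        (Real.exp l ^ 2)⁻¹ * (δ ^ 2)⁻¹ * (512 * Kst ^ 2) := by
      field_simp; ring
    have a4 : 4 * m * κ ^ 2 = (Real.exp l ^ 2)⁻¹ * (4 * m * (κ * Real.exp l) ^ 2) := by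
      field_simp
    have a5 : (1:ℝ) ≤ (δ ^ 2)⁻¹ := by
      rw [one_le_inv₀ (by positivity)]
      exact pow_le_one₀ h0.le h1
    have a6 : (Real.exp l ^ 2)⁻¹ * (4 * m * (κ * Real.exp l) ^ 2) ≤
        (Real.exp l ^ 2)⁻¹ * (δ ^ 2)⁻¹ * (4 * m * (κ * Real.exp l) ^ 2) := by
      have : 0 ≤ (Real.exp l ^ 2)⁻¹ * (4 * m * (κ * Real.exp l) ^ 2) := by positivity
      nlinarith
    have a7 : (Real.exp l ^ 2)⁻¹ * J ≤ (Real.exp l ^ 2)⁻¹ * (δ ^ 2)⁻¹ * 1 * J := by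
      have : 0 ≤ (Real.exp l ^ 2)⁻¹ * J := by positivity
      nlinarith
    have a1' : (128 * Kst ^ 2 * ((Real.exp (l + δ / 2) - Real.exp l) ^ 2)⁻¹ + 4 * m * κ ^ 2) * J ≤
        ((Real.exp l ^ 2)⁻¹ * (δ ^ 2)⁻¹ * (512 * Kst ^ 2) +
          (Real.exp l ^ 2)⁻¹ * (4 * m * (κ * Real.exp l) ^ 2)) * J := by
      rw [← a3, ← a4]; exact a1
    have a8 := mul_le_mul_of_nonneg_right a6 hJ0
    have a9 := hE.trans a1'
    generalize (Real.exp l ^ 2)⁻¹ = A at *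
    generalize (δ ^ 2)⁻¹ = B at *
    generalize (512 * Kst ^ 2) = X at *
    generalize (4 * m * (κ * Real.exp l) ^ 2) = Y at *
    calc _ ≤ (A * B * X + A * Y) * J + A * J := add_le_add a9 a2
      _ = A * B * X * J + A * Y * J + A * J := by ring
      _ ≤ A * B * X * J + A * B * Y * J + A * B * 1 * J := by
        exact add_le_add (add_le_add le_rfl a8) a7
      _ = _ := by ring
  have h4 : Real.exp (m * (l + δ)) ≤ Real.exp (m * l) * Real.exp 1 ^ m := by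
    rw [← Real.exp_nat_mul, ← Real.exp_add]
    gcongr
    nlinarith
  have h8 : Real.exp ((2 - m) * l) * (Real.exp l ^ 2)⁻¹ * Real.exp (m * l) = 1 := by
    rw [← e2, ← Real.exp_add, ← Real.exp_add, Real.exp_eq_one_iff]; ring
  rw [eOO]
  have hJ' : J ≤ Real.exp (m * l) * Real.exp 1 ^ m * (2 * (δ ^ 2)⁻¹ * I) :=
    hJ.trans (mul_le_mul_of_nonneg_right h4 (by positivity))
  calc _ ≤ Real.exp ((2 - m) * l) * ((Real.exp l ^ 2)⁻¹ * (δ ^ 2)⁻¹ *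
        (512 * Kst ^ 2 + 1 + 4 * m * (κ * Real.exp l) ^ 2) * J) := by gcongr
    _ ≤ Real.exp ((2 - m) * l) * ((Real.exp l ^ 2)⁻¹ * (δ ^ 2)⁻¹ *
        (512 * Kst ^ 2 + 1 + 4 * m * (κ * Real.exp l) ^ 2) *
          (Real.exp (m * l) * Real.exp 1 ^ m * (2 * (δ ^ 2)⁻¹ * I))) := by gcongr
    _ = (Real.exp ((2 - m) * l) * (Real.exp l ^ 2)⁻¹ * Real.exp (m * l)) *
        (2 * Real.exp 1 ^ m * ((δ ^ 2)⁻¹ * (δ ^ 2)⁻¹) *
          (512 * Kst ^ 2 + 1 + 4 * m * (κ * Real.exp l) ^ 2) * I) := by ring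
    _ = _ := by
        rw [h8, one_mul, ← mul_inv]
        ring_nf

end chart

end

end Crest.Agent.R234.Gv_685
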