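import Crest.Agent.R234.Gs8_685
import Crest.Agent.R234.Ng2_290

/-!
R234 (helper685), GL-SUP part 9: instance of 290's `Sup` for 456's chart.
-/

set_option autoImplicit false
set_option linter.unusedSectionVars false

open MeasureTheory Metric Set Filter Topology
open scoped InnerProductSpace ContDiff ENNReal

namespace Crest.Agent.R234.Gv_685

open Crest.GeometryTopology.Submanifold Crest.Agent.R234.Vf_884
open Crest.Agent.R234.Main_456 Crest.Agent.R234.Gi_456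
open Crest.Agent.R234.Supm_685 Crest.Agent.R234.Gs_685
open Crest.Agent.R234.Gu_685 (dsq dsq_eq dsq_nonneg dsq_eq_norm)
open Crest.Agent.R234.Ell1_3 (gop ginv)
open Crest.Agent.R234.GL_394 (Loc VK On)

noncomputable section

variable {m n k : ℕ} {U K : Set (Euc k)} {V : Measure (Euc k × L k)}
  {π : Euc k →L[ℝ] Euc m} {ρ : Euc k →L[ℝ] Euc n} {x : Euc k} {r : ℝ} {w : Euc m → Euc n}
  {X0 : Euc m} {κ Λ s t M cT N d h0 : ℝ} {z0 : Euc k}

/-- **(S1) at a point**, minimality only on `‖X - X0‖ ≤ t + h0`, `h0 ≥` heights on `K`. -/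
theorem sup_pt' (hf : Frame π ρ) (hw : Gr r w)
    (h : Loc (ch π ρ x r w X0) U (tube π ρ x r w) K V Λ) (hm : 1 ≤ m)
    (hK : ∀ z ∈ K, ‖ρ (z - x) - w (π (z - x))‖ ≤ h0) (hh0 : h0 ≤ r / 2)
    (htΛ : t ≤ Real.exp Λ) (hd : 0 < d) (hdr : 4 * m * d ≤ r) (hz0 : z0 ∈ K)
    (hs : ‖(ch π ρ x r w X0).x z0‖ + 65 / 32 * d ≤ t) (hU : closedBall z0 d ⊆ U)
    (hmn : ∀ X, ‖X - X0‖ ≤ t + h0 → Msys w X = 0) {A : ℝ} (hA0 : 0 ≤ A)
    (hA : ENNReal.ofReal A ≤ Th m V z0) :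
    A * ome m * (2 * (ch π ρ x r w X0).f z0) ≤ 2 * ((d ^ m)⁻¹ *
      ∫ p in {p : Euc k × L k | ‖(ch π ρ x r w X0).x p.1‖ ≤ t}, 2 * (ch π ρ x r w X0).f p.1 ∂(VK V K)) := by
  have hm' : (1:ℝ) ≤ m := by exact_mod_cast hm
  have hr := hw.pos
  have hd4 : d ≤ r / 4 := by nlinarith
  have hWt : K ⊆ tube π ρ x r w := h.sub.trans inter_subset_left
  have ht0 : z0 ∈ tube π ρ x r w := hWt hz0
  -- points of the ball are in the tube
  have hball : ∀ z ∈ ball z0 d, z ∈ tube π ρ x r w ∩ U ∧ ‖(ch π ρ x r w X0).x z‖ ≤ t := by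
    intro z hz
    have hzd : ‖z - z0‖ < d := by rwa [mem_ball, dist_eq_norm] at hz
    have h1 := hgt_sub_le (x := x) hf hw z z0
    have h2 := hK z0 hz0
    have h3 : z ∈ tube π ρ x r w := by
      change ‖ρ (z - x) - w (π (z - x))‖ < r
      linarith
    refine ⟨⟨h3, hU (ball_subset_closedBall hz)⟩, ?_⟩
    have h4 := norm_chx_sub (X0 := X0) hf hw h3 ht0
    have h5 : (ch π ρ x r w X0).x z = (ch π ρ x r w X0).x z0 +
      ((ch π ρ x r w X0).x z - (ch π ρ x r w X0).x z0) := by abel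
    rw [h5]
    refine (norm_add_le _ _).trans ?_
    linarith
  have hgap : ∀ᵐ p ∂V, p.1 ∈ ball z0 d → p.1 ∈ K := by
    filter_upwards [h.gap] with p hp hpb
    obtain ⟨h1, h2⟩ := hball _ hpb
    exact hp h1 (h2.trans htΛ)
  have hmin : ∀ z ∈ ball z0 d, MinAt (EuclideanSpace.basisFun (Fin m) ℝ) π x 1 w (1 / (8 * r)) z := by
    intro z hz
    have hzd : ‖z - z0‖ < d := by rwa [mem_ball, dist_eq_norm] at hz
    refine ⟨by simpa [bz] using hw.d2 (π (z - x)), ?_⟩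
    have h1 : ‖π (z - x) - X0‖ ≤ t + h0 := by
      have e1 : π (z - x) - X0 = π (z - z0) + (π (z0 - x) - foot π ρ x r w z0) +
          (foot π ρ x r w z0 - X0) := by
        have e0 : π (z - z0) = π (z - x) - π (z0 - x) := by rw [← map_sub]; congr 1; abel
        rw [e0]; abel
      rw [e1]
      have e2 := norm_add_le (π (z - z0) + (π (z0 - x) - foot π ρ x r w z0))
        (foot π ρ x r w z0 - X0)
      have e3 := norm_add_le (π (z - z0)) (π (z0 - x) - foot π ρ x r w z0)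
      have e4 := norm_pi_le' hf (z - z0)
      have e5 := hw.norm_foot_sub ht0
      rw [norm_sub_rev] at e5
      have e6 := hK z0 hz0
      have e7 := norm_foot_le_chx (π := π) (ρ := ρ) (x := x) (r := r) (w := w) (X0 := X0) z0
      have e8 := norm_nonneg (ρ (z0 - x) - w (π (z0 - x)))
      linarith
    have h2 := hmn _ h1
    have h4 : ∀ i, (EuclideanSpace.basisFun (Fin m) ℝ) i = stdVec m i := fun i => by
      simp [stdVec]
    simp only [bz, inv_one, one_smul, h4]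
    exact h2
  have hV := h.st
  have hc : ContinuousOn (dsq π ρ x r w) K := (continuousOn_dsq hf hw).mono hWt
  have hfin : V (K ×ˢ univ) < ⊤ := hV.fin K h.cpt (h.sub.trans inter_subset_right)
  have hmeasK : MeasurableSet (K ×ˢ (univ : Set (L k))) :=
    h.cpt.isClosed.measurableSet.prod MeasurableSet.univ
  have hintK : IntegrableOn (fun p : Euc k × L k => dsq π ρ x r w p.1) (K ×ˢ univ) V := by
    obtain ⟨C, hC⟩ := h.cpt.exists_bound_of_continuousOn hc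
    have hfm : IsFiniteMeasure (V.restrict (K ×ˢ univ)) :=
      ⟨by rw [Measure.restrict_apply_univ]; exact hfin⟩
    refine Integrable.mono' (integrable_const C) ?_ ?_
    · exact (hc.comp continuousOn_fst (fun p hp => hp.1)).aestronglyMeasurable hmeasK
    · filter_upwards [ae_restrict_mem hmeasK] with p hp
      exact hC p.1 hp.1
  have hBK : (Prod.fst ⁻¹' ball z0 d : Set (Euc k × L k)) ≤ᵐ[V] (K ×ˢ univ : Set (Euc k × L k)) := by
    filter_upwards [hgap] with p hp hpb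
    exact ⟨hp hpb, mem_univ _⟩
  have hB := sup_ball (e := EuclideanSpace.basisFun (Fin m) ℝ) (u := w)
    (x := foot π ρ x r w) (y := yy π ρ x r w) (q0 := x) (Al7_182.st_of_stat hV) (Al7_182.tr_ae hV)
    (by simp) (fr_of_frame hf) (Gr_bd hw) (by positivity) hd hU (ptOk hw ht0)
    (Eventually.of_forall fun p hp => ⟨hmin _ hp, ptOk hw (hball _ hp).1.1⟩)
    (hintK.mono_set_ae hBK) ?_ (mul_nonneg hA0 (ome_pos m).le) (dens_of_Th hV hm hd hU hA0 hA)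
  · rw [← dsq_eq, ← two_f hf (X0 := X0)] at hB
    refine hB.trans (mul_le_mul_of_nonneg_left (mul_le_mul_of_nonneg_left ?_ (by positivity))
      zero_le_two)
    have hmB : MeasurableSet (Prod.fst ⁻¹' ball z0 d : Set (Euc k × L k)) :=
      (isOpen_ball.preimage continuous_fst).measurableSet
    have e1 : V.restrict (Prod.fst ⁻¹' ball z0 d) =
        (VK V K).restrict (Prod.fst ⁻¹' ball z0 d) := by
      rw [GL_394.VK, Measure.restrict_restrict hmB]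
      refine Measure.restrict_congr_set ?_
      filter_upwards [hgap] with p hp
      exact propext ⟨fun h1 => ⟨h1, hp h1, mem_univ _⟩, fun h1 => h1.1⟩
    rw [e1]
    have e2 : ∀ p : Euc k × L k, tf w (foot π ρ x r w) (yy π ρ x r w) p.1 =
        2 * (ch π ρ x r w X0).f p.1 := fun p => by rw [two_f hf, dsq_eq]
    simp only [e2]
    refine setIntegral_mono_set ?_ (Eventually.of_forall fun p => ?_)
      (LE.le.eventuallyLE fun p hp => (hball _ hp).2)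
    · have e3 : Integrable (fun p : Euc k × L k => 2 * (ch π ρ x r w X0).f p.1) (VK V K) := by
        refine Integrable.congr hintK (Eventually.of_forall fun p => ?_)
        simp only [two_f hf]
      exact e3.integrableOn
    · simp only [two_f hf]
      exact dsq_nonneg _
  · have e1 : (m:ℝ) * d ^ 2 ≤ r ^ 2 := by
      have : (m:ℝ) * d ≤ r / 4 := by linarith
      nlinarith
    have e2 : 64 * (m:ℝ) * (1 / (8 * r)) ^ 2 * d ^ 2 = m * d ^ 2 / r ^ 2 := by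
      field_simp; ring
    rw [e2, div_le_one (by positivity)]
    exact e1

/-- **(S1), a.e. form, any `s < t`**: `M ≥ 1`, `m t ≤ M r`; minimality on `‖X - X0‖ ≤ t + h0`. -/
theorem sup_all' (hf : Frame π ρ) (hw : Gr r w)
    (h : Loc (ch π ρ x r w X0) U (tube π ρ x r w) K V Λ) (hm : 1 ≤ m)
    (hK : ∀ z ∈ K, ‖ρ (z - x) - w (π (z - x))‖ ≤ h0) (hh0 : h0 ≤ r / 2)
    (hTh : ∀ᵐ p ∂V, p.1 ∈ U → 1 ≤ Th m V p.1)
    (htΛ : t ≤ Real.exp Λ) (hs : 0 ≤ s) (hst : s < t) (hM : 1 ≤ M) (hMr : m * t ≤ M * r)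
    (hU : ∀ z ∈ K, ‖(ch π ρ x r w X0).x z‖ ≤ s → closedBall z ((t - s) / (4 * M)) ⊆ U)
    (hmn : ∀ X, ‖X - X0‖ ≤ t + h0 → Msys w X = 0) :
    ∀ᵐ p ∂(VK V K), ‖(ch π ρ x r w X0).x p.1‖ ≤ s →
      2 * (ch π ρ x r w X0).f p.1 ≤ 2 * (4 * M) ^ m / ome m * ((t - s)⁻¹ ^ m *
        ∫ p in {p : Euc k × L k | ‖(ch π ρ x r w X0).x p.1‖ ≤ t},
          2 * (ch π ρ x r w X0).f p.1 ∂(VK V K)) := by
  have hmeasK : MeasurableSet (K ×ˢ (univ : Set (L k))) :=
    h.cpt.isClosed.measurableSet.prod MeasurableSet.univ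
  have e0 : ∀ᵐ p ∂(VK V K), p ∈ K ×ˢ (univ : Set (L k)) := ae_restrict_mem hmeasK
  have e1 : ∀ᵐ p ∂(VK V K), p.1 ∈ U → 1 ≤ Th m V p.1 := ae_restrict_of_ae hTh
  have hom := ome_pos m
  filter_upwards [e0, e1] with p hp hT hps
  have hUp := h.sub.trans inter_subset_right hp.1
  have hts : 0 < t - s := by linarith
  have hd : 0 < (t - s) / (4 * M) := by positivity
  have hd4 : (t - s) / (4 * M) ≤ (t - s) / 4 := by
    gcongr
    linarith
  have h4m : 4 * m * ((t - s) / (4 * M)) ≤ r := by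
    have e2 : 4 * m * ((t - s) / (4 * M)) = m * (t - s) / M := by field_simp
    rw [e2, div_le_iff₀ (by linarith)]
    have : (m:ℝ) * (t - s) ≤ m * t := by
      have : (0:ℝ) ≤ m := Nat.cast_nonneg _
      nlinarith
    linarith
  have h1 := sup_pt' hf hw h hm hK hh0 htΛ (d := (t - s) / (4 * M)) hd h4m hp.1
    (by linarith) (hU _ hp.1 hps) hmn zero_le_one (by rw [ENNReal.ofReal_one]; exact hT hUp)
  rw [one_mul] at h1
  rw [div_mul_eq_mul_div, le_div_iff₀ hom, mul_comm _ (ome m)]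
  refine h1.trans (le_of_eq ?_)
  rw [div_pow, inv_div, inv_pow]
  ring

/-- **(S1), a.e. form, any `s < t`**: `M ≥ 1`, `m t ≤ M r`. -/
theorem sup_all (hf : Frame π ρ) (hw : Gr r w)
    (h : Loc (ch π ρ x r w X0) U (tube π ρ x r w) K V Λ) (hm : 1 ≤ m) (hK : Half π ρ x r w K)
    (hTh : ∀ᵐ p ∂V, p.1 ∈ U → 1 ≤ Th m V p.1)
    (htΛ : t ≤ Real.exp Λ) (hs : 0 ≤ s) (hst : s < t) (hM : 1 ≤ M) (hMr : m * t ≤ M * r)
    (hU : ∀ z ∈ K, ‖(ch π ρ x r w X0).x z‖ ≤ s → closedBall z ((t - s) / (4 * M)) ⊆ U)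
    (hmn : ∀ X, ‖X - X0‖ ≤ t + r → Msys w X = 0) :
    ∀ᵐ p ∂(VK V K), ‖(ch π ρ x r w X0).x p.1‖ ≤ s →
      2 * (ch π ρ x r w X0).f p.1 ≤ 2 * (4 * M) ^ m / ome m * ((t - s)⁻¹ ^ m *
        ∫ p in {p : Euc k × L k | ‖(ch π ρ x r w X0).x p.1‖ ≤ t},
          2 * (ch π ρ x r w X0).f p.1 ∂(VK V K)) :=
  sup_all' hf hw h hm hK le_rfl hTh htΛ hs hst hM hMr hU
    (fun X hX => hmn X (hX.trans (by linarith [hw.pos])))

/-- **(S1), a.e. form, `m (t - s) ≤ r`**; minimality on `‖X - X0‖ ≤ t + h0`. -/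
theorem sup_ae' (hf : Frame π ρ) (hw : Gr r w)
    (h : Loc (ch π ρ x r w X0) U (tube π ρ x r w) K V Λ) (hm : 1 ≤ m)
    (hK : ∀ z ∈ K, ‖ρ (z - x) - w (π (z - x))‖ ≤ h0) (hh0 : h0 ≤ r / 2)
    (hTh : ∀ᵐ p ∂V, p.1 ∈ U → 1 ≤ Th m V p.1)
    (htΛ : t ≤ Real.exp Λ) (hst : s < t) (hdr : m * (t - s) ≤ r)
    (hU : ∀ z ∈ K, ‖(ch π ρ x r w X0).x z‖ ≤ s → closedBall z ((t - s) / 4) ⊆ U)
    (hmn : ∀ X, ‖X - X0‖ ≤ t + h0 → Msys w X = 0) :
    ∀ᵐ p ∂(VK V K), ‖(ch π ρ x r w X0).x p.1‖ ≤ s →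
      ome m * (2 * (ch π ρ x r w X0).f p.1) ≤ 2 * 4 ^ m * (((t - s) ^ m)⁻¹ *
        ∫ p in {p : Euc k × L k | ‖(ch π ρ x r w X0).x p.1‖ ≤ t},
          2 * (ch π ρ x r w X0).f p.1 ∂(VK V K)) := by
  have hmeasK : MeasurableSet (K ×ˢ (univ : Set (L k))) :=
    h.cpt.isClosed.measurableSet.prod MeasurableSet.univ
  have e0 : ∀ᵐ p ∂(VK V K), p ∈ K ×ˢ (univ : Set (L k)) := ae_restrict_mem hmeasK
  have e1 : ∀ᵐ p ∂(VK V K), p.1 ∈ U → 1 ≤ Th m V p.1 := ae_restrict_of_ae hTh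
  filter_upwards [e0, e1] with p hp hT hps
  have hUp := h.sub.trans inter_subset_right hp.1
  have h1 := sup_pt' hf hw h hm hK hh0 htΛ (d := (t - s) / 4) (by linarith) (by linarith) hp.1
    (by linarith) (hU _ hp.1 hps) hmn zero_le_one (by rw [ENNReal.ofReal_one]; exact hT hUp)
  rw [one_mul] at h1
  refine h1.trans (le_of_eq ?_)
  rw [div_pow, inv_div]
  ring

/-- the constant of `Sup` -/
def CS (m : ℕ) (M κ cT : ℝ) : ℝ :=
  2 * (4 * M) ^ m / ome m + 128 * Kst ^ 2 + 4 * m * (κ * Real.exp cT) ^ 2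

theorem CS_nonneg (hM : 0 ≤ M) : 0 ≤ CS m M κ cT := by
  unfold CS
  have := ome_pos m
  positivity

/-- **instance of 290's `Sup`**, minimality only on `‖X - X0‖ ≤ e^(cT - 1/(2N)) + h0` -/
theorem sup_inst' (hf : Frame π ρ) (hw : Gr r w)
    (h : Loc (ch π ρ x r w X0) U (tube π ρ x r w) K V Λ) (hm : 1 ≤ m)
    (h00 : 0 ≤ h0) (hK : ∀ z ∈ K, ‖ρ (z - x) - w (π (z - x))‖ ≤ h0) (hh0 : h0 ≤ r / 2)
    (hTh : ∀ᵐ p ∂V, p.1 ∈ U → 1 ≤ Th m V p.1) (hN : 1 ≤ N) (hcΛ : cT - 1 / (2 * N) ≤ Λ)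
    (hM : 1 ≤ M) (hMr : m * Real.exp cT ≤ M * r)
    (hU : ∀ z ∈ K, ‖(ch π ρ x r w X0).x z‖ ≤ Real.exp (cT - 3 / (4 * N)) →
      closedBall z (r / (4 * m)) ⊆ U)
    (hmn : ∀ X, ‖X - X0‖ ≤ Real.exp (cT - 1 / (2 * N)) + h0 → Msys w X = 0)
    (hd2 : ∀ X, ‖X - X0‖ ≤ Real.exp (cT - 1 / (2 * N)) → ‖fderiv ℝ (fderiv ℝ w) X‖ ≤ κ)
    (hh : ∀ z ∈ K, ‖(ch π ρ x r w X0).x z‖ ≤ Real.exp (cT - 1 / (2 * N)) →
      12 * m * κ * ‖yy π ρ x r w z‖ ≤ 1) :
    Ng_290.Sup (ch π ρ x r w X0) (VK V K) cT N (CS m M κ cT) := by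
  have hN0 : 0 < N := by linarith
  have hm0 : (0:ℝ) < m := by exact_mod_cast hm
  have hr := hw.pos
  set t := Real.exp (cT - 1 / (2 * N)) with ht
  have htc : t ≤ Real.exp cT := Real.exp_le_exp.2 (by
    have : 0 < 1 / (2 * N) := by positivity
    linarith)
  have htΛ : t ≤ Real.exp Λ := Real.exp_le_exp.2 hcΛ
  have ht0 : 0 < t := Real.exp_pos _
  have hst0 : Real.exp (cT - 3 / (4 * N)) < t := Real.exp_lt_exp.2 (by
    have : 1 / (2 * N) < 3 / (4 * N) := by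
      rw [div_lt_div_iff₀ (by positivity) (by positivity)]; nlinarith
    linarith)
  have hMr' : m * t ≤ M * r := (mul_le_mul_of_nonneg_left htc hm0.le).trans hMr
  have hHH : ∀ τ, 0 ≤ Ng_290.HH (ch π ρ x r w X0) (VK V K) τ := fun τ =>
    J_nonneg (hw.ok hf X0 h.cpt (h.sub.trans inter_subset_left)) h.toOn τ
  have hom := ome_pos m
  have hKst := Kst_nonneg
  have hc1 : 2 * (4 * M) ^ m / ome m ≤ CS m M κ cT := by
    unfold CS
    have : 0 ≤ 128 * Kst ^ 2 + 4 * m * (κ * Real.exp cT) ^ 2 := by positivity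
    linarith
  have hc2 : 128 * Kst ^ 2 + 4 * m * (κ * Real.exp cT) ^ 2 ≤ CS m M κ cT := by
    unfold CS
    have : 0 ≤ 2 * (4 * M) ^ m / ome m := by positivity
    linarith
  refine ⟨CS_nonneg (by linarith), ?_, ?_⟩
  · set s := Real.exp (cT - 3 / (4 * N)) with hs
    have hs0 : 0 < s := Real.exp_pos _
    have hts : 0 < t - s := by linarith
    have h1 := sup_all' hf hw h hm hK hh0 hTh htΛ hs0.le hst0 hM hMr' (fun z hz hzs => by
      refine (closedBall_subset_closedBall ?_).trans (hU z hz hzs)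
      have e2 : (t - s) ≤ t := by linarith
      rw [div_le_div_iff₀ (by positivity) (by positivity)]
      nlinarith) hmn
    filter_upwards [h1] with p hp hps
    refine (hp hps).trans ?_
    rw [mul_assoc (CS m M κ cT)]
    exact mul_le_mul_of_nonneg_right hc1 (mul_nonneg (by positivity) (hHH t))
  · intro s hs0 hs1
    have hst : s < t := lt_of_le_of_lt hs1 hst0
    have hts : 0 < t - s := by linarith
    have h1 := energy hf hw h htΛ hs0.le hst (fun X hX => hmn X (hX.trans (by linarith)))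
      hd2 hh
    refine h1.trans (mul_le_mul_of_nonneg_right ?_ (hHH t))
    have e1 : (4:ℝ) * m * κ ^ 2 ≤ 4 * m * (κ * Real.exp cT) ^ 2 * (t - s)⁻¹ ^ 2 := by
      have e2 : (1:ℝ) ≤ Real.exp cT ^ 2 * (t - s)⁻¹ ^ 2 := by
        rw [← mul_pow, ← div_eq_mul_inv]
        refine one_le_pow₀ ?_
        rw [one_le_div hts]
        linarith
      calc (4:ℝ) * m * κ ^ 2 = 4 * m * κ ^ 2 * 1 := by ring
        _ ≤ 4 * m * κ ^ 2 * (Real.exp cT ^ 2 * (t - s)⁻¹ ^ 2) := by gcongr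
        _ = _ := by ring
    calc 128 * Kst ^ 2 * ((t - s) ^ 2)⁻¹ + 4 * m * κ ^ 2 ≤
        128 * Kst ^ 2 * ((t - s) ^ 2)⁻¹ + 4 * m * (κ * Real.exp cT) ^ 2 * (t - s)⁻¹ ^ 2 := by
          linarith
      _ = (128 * Kst ^ 2 + 4 * m * (κ * Real.exp cT) ^ 2) * (t - s)⁻¹ ^ 2 := by
          rw [inv_pow]; ring
      _ ≤ _ := by gcongr

/-- **instance of 290's `Sup`** -/
theorem sup_inst (hf : Frame π ρ) (hw : Gr r w)
    (h : Loc (ch π ρ x r w X0) U (tube π ρ x r w) K V Λ) (hm : 1 ≤ m) (hK : Half π ρ x r w K)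
    (hTh : ∀ᵐ p ∂V, p.1 ∈ U → 1 ≤ Th m V p.1) (hN : 1 ≤ N) (hcΛ : cT ≤ Λ)
    (hM : 1 ≤ M) (hMr : m * Real.exp cT ≤ M * r)
    (hU : ∀ z ∈ K, ‖(ch π ρ x r w X0).x z‖ ≤ Real.exp cT → closedBall z (r / (4 * m)) ⊆ U)
    (hmn : ∀ X, ‖X - X0‖ ≤ Real.exp cT + r → Msys w X = 0)
    (hd2 : ∀ X, ‖X - X0‖ ≤ Real.exp cT → ‖fderiv ℝ (fderiv ℝ w) X‖ ≤ κ)
    (hh : ∀ z ∈ K, ‖(ch π ρ x r w X0).x z‖ ≤ Real.exp cT → 12 * m * κ * ‖yy π ρ x r w z‖ ≤ 1) :
    Ng_290.Sup (ch π ρ x r w X0) (VK V K) cT N (CS m M κ cT) := by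
  have hN0 : 0 < N := by linarith
  have hr := hw.pos
  have h1 : cT - 1 / (2 * N) ≤ cT := by
    have : 0 < 1 / (2 * N) := by positivity
    linarith
  have h2 : cT - 3 / (4 * N) ≤ cT := by
    have : 0 < 3 / (4 * N) := by positivity
    linarith
  have e1 := Real.exp_le_exp.2 h1
  have e2 := Real.exp_le_exp.2 h2
  exact sup_inst' hf hw h hm (h0 := r / 2) (by linarith) hK le_rfl hTh hN (h1.trans hcΛ) hM hMr
    (fun z hz hzs => hU z hz (hzs.trans e2)) (fun X hX => hmn X (hX.trans (by linarith)))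
    (fun X hX => hd2 X (hX.trans e1)) (fun z hz hzs => hh z hz (hzs.trans e1))

end

end Crest.Agent.R234.Gv_685
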