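import Crest.Agent.R234.Leaf1_456

/-!
# Row 234, VF-HGTCMP (helper43): graph height versus normal height in 209's chart

Main results: `hgtCmp : HgtCmp`, and in the chart `z = x + π*(X - A* Y) + ρ*(u X + Y)`, `A = Du X`:
* `pi_chart` : `π (z - x) = X - A* Y`, `rho_chart` : `ρ (z - x) = u X + Y`;
* `norm_pi_sub_le` : `‖π (z - x) - X‖ ≤ κ ‖Y‖`;
* `norm_normal_sq` : `‖z - γ X‖² = ‖A* Y‖² + ‖Y‖²` where `γ X = x + π* X + ρ* (u X)`;
* `hgt_sub_le` : `‖hgt - Y‖ ≤ κ² ‖Y‖ + κ³ ‖Y‖² / 2`;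
* `normal_sq_sub_hgt_sq` : `|‖z - γ X‖² - ‖hgt‖²| ≤ 4 κ² ‖Y‖² (1 + κ ‖Y‖)²`.
-/

set_option autoImplicit false
set_option linter.unusedVariables false

open MeasureTheory Filter Topology Set
open scoped ENNReal NNReal ContDiff
open Crest.GeometryTopology.Submanifold Crest.Agent.R234.Vf_884
open Crest.Agent.R234.Main_456

noncomputable section

namespace Crest.Agent.R234.HgtCmp_43

section taylor

variable {E F : Type*} [NormedAddCommGroup E] [NormedSpace ℝ E] [NormedAddCommGroup F]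
  [NormedSpace ℝ F]

/-- Taylor with the sharp constant, global version. -/
theorem taylor2 {u : E → F} {κ : ℝ} (hu : ContDiff ℝ 2 u)
    (h2 : ∀ z, ‖fderiv ℝ (fderiv ℝ u) z‖ ≤ κ) (X h : E) :
    ‖u (X + h) - u X - fderiv ℝ u X h‖ ≤ κ * ‖h‖ ^ 2 / 2 := by
  have hdu : Differentiable ℝ u := hu.differentiable (by norm_num)
  have hdd : Differentiable ℝ (fderiv ℝ u) :=
    (hu.fderiv_right (m := 1) (by norm_num)).differentiable (by norm_num)
  have hκ : 0 ≤ κ := le_trans (norm_nonneg (fderiv ℝ (fderiv ℝ u) X)) (h2 X)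
  have hlip : ∀ z, ‖fderiv ℝ u z - fderiv ℝ u X‖ ≤ κ * ‖z - X‖ := by
    intro z
    exact Convex.norm_image_sub_le_of_norm_fderiv_le (s := univ)
      (fun x _ => hdd x) (fun x _ => h2 x) convex_univ (mem_univ X) (mem_univ z)
  have hder : ∀ t : ℝ, HasDerivAt (fun t : ℝ => u (X + t • h) - u X - t • fderiv ℝ u X h)
      (fderiv ℝ u (X + t • h) h - fderiv ℝ u X h) t := by
    intro t
    have h1 : HasDerivAt (fun t : ℝ => X + t • h) h t := by
      simpa using ((hasDerivAt_id t).smul_const h).const_add X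
    have h3 : HasDerivAt (fun t : ℝ => u (X + t • h)) (fderiv ℝ u (X + t • h) h) t :=
      (hdu (X + t • h)).hasFDerivAt.comp_hasDerivAt t h1
    have h4 : HasDerivAt (fun t : ℝ => t • fderiv ℝ u X h) (fderiv ℝ u X h) t := by
      simpa using (hasDerivAt_id t).smul_const (fderiv ℝ u X h)
    exact (h3.sub_const (u X)).sub h4
  have hB : ∀ t : ℝ, HasDerivAt (fun t : ℝ => κ * ‖h‖ ^ 2 * t ^ 2 / 2) (κ * ‖h‖ ^ 2 * t) t := by
    intro t
    have h1 := ((hasDerivAt_pow 2 t).const_mul (κ * ‖h‖ ^ 2)).div_const 2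
    refine h1.congr_deriv ?_
    norm_num
    ring
  have key := image_norm_le_of_norm_deriv_right_le_deriv_boundary (a := (0 : ℝ)) (b := 1)
    (f := fun t : ℝ => u (X + t • h) - u X - t • fderiv ℝ u X h)
    (f' := fun t : ℝ => fderiv ℝ u (X + t • h) h - fderiv ℝ u X h)
    (B := fun t : ℝ => κ * ‖h‖ ^ 2 * t ^ 2 / 2) (B' := fun t : ℝ => κ * ‖h‖ ^ 2 * t)
    (fun t _ => (hder t).continuousAt.continuousWithinAt)
    (fun t _ => (hder t).hasDerivWithinAt) (by simp) hB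
    (by
      intro t ht
      have h5 : fderiv ℝ u (X + t • h) h - fderiv ℝ u X h =
        (fderiv ℝ u (X + t • h) - fderiv ℝ u X) h := rfl
      rw [h5]
      refine (ContinuousLinearMap.le_opNorm _ _).trans ?_
      have h6 := hlip (X + t • h)
      rw [add_sub_cancel_left, norm_smul, Real.norm_of_nonneg ht.1] at h6
      nlinarith [norm_nonneg h, mul_le_mul_of_nonneg_right h6 (norm_nonneg h)])
  have h7 := key (right_mem_Icc.2 zero_le_one)
  simpa using h7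

end taylor

variable {m n k : ℕ} {u : Euc m → Euc n} {κ : ℝ} {π : Euc k →L[ℝ] Euc m} {ρ : Euc k →L[ℝ] Euc n}
  {x z : Euc k} {X : Euc m} {Y : Euc n}

theorem pi_adj (hf : Frame π ρ) (v : Euc m) : π (ContinuousLinearMap.adjoint π v) = v := by
  have := hf.coπ
  exact DFunLike.congr_fun this v

theorem rho_adj (hf : Frame π ρ) (v : Euc n) : ρ (ContinuousLinearMap.adjoint ρ v) = v := by
  exact DFunLike.congr_fun hf.coρ v

theorem pi_adj_rho (hf : Frame π ρ) (v : Euc n) : π (ContinuousLinearMap.adjoint ρ v) = 0 := by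
  exact DFunLike.congr_fun hf.orth v

theorem rho_adj_pi (hf : Frame π ρ) (v : Euc m) : ρ (ContinuousLinearMap.adjoint π v) = 0 := by
  have h : ContinuousLinearMap.adjoint (π ∘L ContinuousLinearMap.adjoint ρ) = 0 := by
    rw [hf.orth]; simp
  rw [ContinuousLinearMap.adjoint_comp, ContinuousLinearMap.adjoint_adjoint] at h
  exact DFunLike.congr_fun h v

/-- the base coordinate of the chart. -/
theorem pi_chart (hf : Frame π ρ)
    (hz : z = x + ContinuousLinearMap.adjoint π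
      (X - ContinuousLinearMap.adjoint (fderiv ℝ u X) Y) +
        ContinuousLinearMap.adjoint ρ (u X + Y)) :
    π (z - x) = X - ContinuousLinearMap.adjoint (fderiv ℝ u X) Y := by
  have h : z - x = ContinuousLinearMap.adjoint π
      (X - ContinuousLinearMap.adjoint (fderiv ℝ u X) Y) +
        ContinuousLinearMap.adjoint ρ (u X + Y) := by rw [hz]; abel
  rw [h, map_add, pi_adj hf, pi_adj_rho hf, add_zero]

/-- the height coordinate of the chart. -/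
theorem rho_chart (hf : Frame π ρ)
    (hz : z = x + ContinuousLinearMap.adjoint π
      (X - ContinuousLinearMap.adjoint (fderiv ℝ u X) Y) +
        ContinuousLinearMap.adjoint ρ (u X + Y)) :
    ρ (z - x) = u X + Y := by
  have h : z - x = ContinuousLinearMap.adjoint π
      (X - ContinuousLinearMap.adjoint (fderiv ℝ u X) Y) +
        ContinuousLinearMap.adjoint ρ (u X + Y) := by rw [hz]; abel
  rw [h, map_add, rho_adj hf, rho_adj_pi hf, zero_add]

theorem norm_adj_le (h1 : ∀ z, ‖fderiv ℝ u z‖ ≤ κ) (X : Euc m) (Y : Euc n) :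
    ‖ContinuousLinearMap.adjoint (fderiv ℝ u X) Y‖ ≤ κ * ‖Y‖ := by
  refine (ContinuousLinearMap.le_opNorm _ _).trans ?_
  rw [LinearIsometryEquiv.norm_map]
  exact mul_le_mul_of_nonneg_right (h1 X) (norm_nonneg _)

/-- `|π (z - x) - X| ≤ κ |Y|`. -/
theorem norm_pi_sub_le (hf : Frame π ρ) (h1 : ∀ z, ‖fderiv ℝ u z‖ ≤ κ)
    (hz : z = x + ContinuousLinearMap.adjoint π
      (X - ContinuousLinearMap.adjoint (fderiv ℝ u X) Y) +
        ContinuousLinearMap.adjoint ρ (u X + Y)) :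
    ‖π (z - x) - X‖ ≤ κ * ‖Y‖ := by
  rw [pi_chart hf hz, sub_sub_cancel_left, norm_neg]
  exact norm_adj_le h1 X Y

/-- the height in the chart. -/
theorem hgt_chart (hf : Frame π ρ)
    (hz : z = x + ContinuousLinearMap.adjoint π
      (X - ContinuousLinearMap.adjoint (fderiv ℝ u X) Y) +
        ContinuousLinearMap.adjoint ρ (u X + Y)) :
    hgt π ρ x 1 u z = u X + Y - u (X - ContinuousLinearMap.adjoint (fderiv ℝ u X) Y) := by
  rw [hgt, rho_chart hf hz, pi_chart hf hz, inv_one, one_smul, one_smul]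

/-- local form of the comparison: only the second derivative bound is used, through Taylor, and the
bound of `Du X`. -/
theorem hgt_cmp (hu : ContDiff ℝ 2 u) (h1 : ∀ z, ‖fderiv ℝ u z‖ ≤ κ)
    (h2 : ∀ z, ‖fderiv ℝ (fderiv ℝ u) z‖ ≤ κ) (hf : Frame π ρ)
    (hz : z = x + ContinuousLinearMap.adjoint π
      (X - ContinuousLinearMap.adjoint (fderiv ℝ u X) Y) +
        ContinuousLinearMap.adjoint ρ (u X + Y)) :
    ‖hgt π ρ x 1 u z - Y - fderiv ℝ u X (ContinuousLinearMap.adjoint (fderiv ℝ u X) Y)‖ ≤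
      κ ^ 3 * ‖Y‖ ^ 2 / 2 := by
  have hκ : 0 ≤ κ := le_trans (norm_nonneg (fderiv ℝ u X)) (h1 X)
  set a := ContinuousLinearMap.adjoint (fderiv ℝ u X) Y with ha
  have e : hgt π ρ x 1 u z - Y - fderiv ℝ u X a = -(u (X + -a) - u X - fderiv ℝ u X (-a)) := by
    rw [hgt_chart hf hz, ← ha, map_neg, sub_eq_add_neg X a]
    abel
  rw [e, norm_neg]
  have h3 := taylor2 hu h2 X (-a)
  rw [norm_neg] at h3
  have h4 : ‖a‖ ≤ κ * ‖Y‖ := norm_adj_le h1 X Y
  have h5 : ‖a‖ ^ 2 ≤ (κ * ‖Y‖) ^ 2 := pow_le_pow_left₀ (norm_nonneg _) h4 2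
  have h6 : κ * ‖a‖ ^ 2 ≤ κ * (κ * ‖Y‖) ^ 2 := mul_le_mul_of_nonneg_left h5 hκ
  nlinarith

/-- `hgt = Y + O(κ² |Y|) + O(κ³ |Y|²)`. -/
theorem hgt_sub_le (hu : ContDiff ℝ 2 u) (h1 : ∀ z, ‖fderiv ℝ u z‖ ≤ κ)
    (h2 : ∀ z, ‖fderiv ℝ (fderiv ℝ u) z‖ ≤ κ) (hf : Frame π ρ)
    (hz : z = x + ContinuousLinearMap.adjoint π
      (X - ContinuousLinearMap.adjoint (fderiv ℝ u X) Y) +
        ContinuousLinearMap.adjoint ρ (u X + Y)) :
    ‖hgt π ρ x 1 u z - Y‖ ≤ κ ^ 2 * ‖Y‖ + κ ^ 3 * ‖Y‖ ^ 2 / 2 := by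
  have hκ : 0 ≤ κ := le_trans (norm_nonneg (fderiv ℝ u X)) (h1 X)
  have h3 := hgt_cmp hu h1 h2 hf hz
  have h4 : ‖fderiv ℝ u X (ContinuousLinearMap.adjoint (fderiv ℝ u X) Y)‖ ≤ κ * (κ * ‖Y‖) :=
    ((fderiv ℝ u X).le_opNorm _).trans
      (mul_le_mul (h1 X) (norm_adj_le h1 X Y) (norm_nonneg _) hκ)
  have h5 := norm_add_le (hgt π ρ x 1 u z - Y -
    fderiv ℝ u X (ContinuousLinearMap.adjoint (fderiv ℝ u X) Y))
    (fderiv ℝ u X (ContinuousLinearMap.adjoint (fderiv ℝ u X) Y))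
  rw [sub_add_cancel] at h5
  nlinarith

/-- the normal vector `z - γ X`, `γ X = x + π* X + ρ* (u X)`. -/
theorem norm_normal_sq (hf : Frame π ρ)
    (hz : z = x + ContinuousLinearMap.adjoint π
      (X - ContinuousLinearMap.adjoint (fderiv ℝ u X) Y) +
        ContinuousLinearMap.adjoint ρ (u X + Y)) :
    ‖z - (x + ContinuousLinearMap.adjoint π X + ContinuousLinearMap.adjoint ρ (u X))‖ ^ 2 =
      ‖ContinuousLinearMap.adjoint (fderiv ℝ u X) Y‖ ^ 2 + ‖Y‖ ^ 2 := by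
  set a := ContinuousLinearMap.adjoint (fderiv ℝ u X) Y with ha
  have h : z - (x + ContinuousLinearMap.adjoint π X + ContinuousLinearMap.adjoint ρ (u X)) =
      ContinuousLinearMap.adjoint π (-a) + ContinuousLinearMap.adjoint ρ Y := by
    rw [hz, map_sub, map_add, map_neg]; abel
  rw [h, norm_add_sq_real]
  have hin : inner ℝ (ContinuousLinearMap.adjoint π (-a)) (ContinuousLinearMap.adjoint ρ Y) = 0 := by
    rw [ContinuousLinearMap.adjoint_inner_left, pi_adj_rho hf, inner_zero_right]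
  have hn1 : ‖ContinuousLinearMap.adjoint π (-a)‖ ^ 2 = ‖a‖ ^ 2 := by
    rw [← real_inner_self_eq_norm_sq, ContinuousLinearMap.adjoint_inner_left, pi_adj hf,
      real_inner_self_eq_norm_sq, norm_neg]
  have hn2 : ‖ContinuousLinearMap.adjoint ρ Y‖ ^ 2 = ‖Y‖ ^ 2 := by
    rw [← real_inner_self_eq_norm_sq, ContinuousLinearMap.adjoint_inner_left, rho_adj hf,
      real_inner_self_eq_norm_sq]
  rw [hin, hn1, hn2]; ring

/-- normal height against graph height, squared. -/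
theorem normal_sq_sub_hgt_sq (hκ1 : κ ≤ 1 / 4) (hu : ContDiff ℝ 2 u)
    (h1 : ∀ z, ‖fderiv ℝ u z‖ ≤ κ)
    (h2 : ∀ z, ‖fderiv ℝ (fderiv ℝ u) z‖ ≤ κ) (hf : Frame π ρ)
    (hz : z = x + ContinuousLinearMap.adjoint π
      (X - ContinuousLinearMap.adjoint (fderiv ℝ u X) Y) +
        ContinuousLinearMap.adjoint ρ (u X + Y)) :
    |‖z - (x + ContinuousLinearMap.adjoint π X + ContinuousLinearMap.adjoint ρ (u X))‖ ^ 2 -
      ‖hgt π ρ x 1 u z‖ ^ 2| ≤ 4 * κ ^ 2 * ‖Y‖ ^ 2 * (1 + κ * ‖Y‖) ^ 2 := by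
  have hκ : 0 ≤ κ := le_trans (norm_nonneg (fderiv ℝ u X)) (h1 X)
  rw [norm_normal_sq hf hz]
  set a := ContinuousLinearMap.adjoint (fderiv ℝ u X) Y with ha
  set H := hgt π ρ x 1 u z with hH
  have h3 : ‖H - Y‖ ≤ κ ^ 2 * ‖Y‖ + κ ^ 3 * ‖Y‖ ^ 2 / 2 := hgt_sub_le hu h1 h2 hf hz
  have h4 : ‖a‖ ≤ κ * ‖Y‖ := norm_adj_le h1 X Y
  have h5 : |‖H‖ - ‖Y‖| ≤ ‖H - Y‖ := abs_norm_sub_norm_le H Y
  have hY := norm_nonneg Y
  set y := ‖Y‖ with hy
  set d := κ ^ 2 * y * (1 + κ * y) with hd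
  have hky : 0 ≤ κ * y := mul_nonneg hκ hY
  have hd0 : 0 ≤ d := by positivity
  have h6 : |‖H‖ - y| ≤ d := by
    refine (h5.trans h3).trans ?_
    rw [hd]
    have : 0 ≤ κ ^ 3 * y ^ 2 := by positivity
    nlinarith
  have ha2 : ‖a‖ ^ 2 ≤ (κ * y) ^ 2 := pow_le_pow_left₀ (norm_nonneg _) h4 2
  have h7 := abs_le.1 h6
  have h8 : |‖H‖ ^ 2 - y ^ 2| ≤ d * (2 * y + d) := by
    have e : ‖H‖ ^ 2 - y ^ 2 = (‖H‖ - y) * (‖H‖ + y) := by ring
    rw [e, abs_mul]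
    refine mul_le_mul h6 ?_ (abs_nonneg _) hd0
    rw [abs_of_nonneg (add_nonneg (norm_nonneg _) hY)]
    linarith
  have h9 : |‖a‖ ^ 2 + y ^ 2 - ‖H‖ ^ 2| ≤ (κ * y) ^ 2 + d * (2 * y + d) := by
    have e : ‖a‖ ^ 2 + y ^ 2 - ‖H‖ ^ 2 = ‖a‖ ^ 2 - (‖H‖ ^ 2 - y ^ 2) := by ring
    rw [e]
    refine (abs_sub _ _).trans ?_
    rw [abs_of_nonneg (sq_nonneg ‖a‖)]
    exact add_le_add ha2 h8
  refine h9.trans ?_
  have hd1 : d ≤ y * (1 + κ * y) / 16 := by
    have h10 : κ ^ 2 ≤ 1 / 16 := by nlinarith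
    have h11 : 0 ≤ y * (1 + κ * y) := by positivity
    have := mul_le_mul_of_nonneg_right h10 h11
    rw [hd]; nlinarith
  have h12 : d * (2 * y + d) ≤ d * (3 * y * (1 + κ * y)) := by
    refine mul_le_mul_of_nonneg_left ?_ hd0
    have : 0 ≤ y * (κ * y) := by positivity
    nlinarith
  have h13 : (κ * y) ^ 2 ≤ κ ^ 2 * y ^ 2 * (1 + κ * y) ^ 2 := by
    have : (1 : ℝ) ≤ (1 + κ * y) ^ 2 := one_le_pow₀ (by linarith)
    have h14 : 0 ≤ κ ^ 2 * y ^ 2 := by positivity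
    nlinarith
  have h15 : d * (3 * y * (1 + κ * y)) = 3 * (κ ^ 2 * y ^ 2 * (1 + κ * y) ^ 2) := by
    rw [hd]; ring
  linarith

/-- LEAF HGTCMP -/
theorem hgtCmp : HgtCmp := by
  intro m n k u κ _ _ hu h1 h2 π ρ hf x X Y z hz
  exact hgt_cmp hu h1 h2 hf hz

end Crest.Agent.R234.HgtCmp_43
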