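import Crest.Agent.R246.H2b1_622

/-!
Row 234, VF-HARM (helper512).  Part 1: kernel means of Lipschitz maps and the scale identity.
-/

set_option autoImplicit false
set_option linter.unusedSectionVars false

open MeasureTheory Metric Set Filter Topology
open scoped ContDiff NNReal

namespace Crest.Agent.R234.Hm512

open Crest.Agent.R246.H2x622

noncomputable section

variable {F : Type*} [NormedAddCommGroup F] [InnerProductSpace ℝ F] [FiniteDimensional ℝ F]
  [MeasurableSpace F] [BorelSpace F]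
variable {V : Type*} [NormedAddCommGroup V] [InnerProductSpace ℝ V] [FiniteDimensional ℝ V]

/-! ### Lipschitz maps -/

lemma ae_diffAt {K : ℝ≥0} {u : F → V} (hu : LipschitzWith K u) (x : F) {s : ℝ} (hs : s ≠ 0) :
    ∀ᵐ y : F, DifferentiableAt ℝ u (x - s • y) := by
  have h1 : ∀ᵐ x : F, DifferentiableAt ℝ u x := hu.ae_differentiableAt
  rw [ae_iff] at h1 ⊢
  have h2 : {a : F | ¬DifferentiableAt ℝ u (x - s • a)}
      = (fun a => (-s) • a) ⁻¹' ((fun a => x + a) ⁻¹' {a | ¬DifferentiableAt ℝ u a}) := by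
    ext a
    simp [sub_eq_add_neg]
  rw [h2, Measure.addHaar_preimage_smul _ (neg_ne_zero.2 hs), measure_preimage_add, h1, mul_zero]

lemma norm_fd_le {K : ℝ≥0} {u : F → V} (hu : LipschitzWith K u) (x : F) :
    ‖fderiv ℝ u x‖ ≤ K := norm_fderiv_le_of_lipschitz ℝ hu

lemma meas_fd {K : ℝ≥0} {u : F → V} (_hu : LipschitzWith K u) : Measurable (fderiv ℝ u) := by
  have : CompleteSpace V := FiniteDimensional.complete ℝ V
  exact measurable_fderiv ℝ u

lemma meas_fd' {K : ℝ≥0} {u : F → V} (hu : LipschitzWith K u) (x : F) (s : ℝ) :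
    Measurable (fun y : F => fderiv ℝ u (x - s • y)) :=
  (meas_fd hu).comp (by fun_prop)

lemma sm_fd {K : ℝ≥0} {u : F → V} (hu : LipschitzWith K u) (x : F) (s : ℝ) :
    StronglyMeasurable (fun y : F => fderiv ℝ u (x - s • y)) :=
  (meas_fd' hu x s).stronglyMeasurable

lemma sm_fd_apply {K : ℝ≥0} {u : F → V} (hu : LipschitzWith K u) (x : F) (s : ℝ) :
    StronglyMeasurable (fun y : F => fderiv ℝ u (x - s • y) y) :=
  ((ContinuousLinearMap.apply ℝ V (E := F)).continuous₂).comp_stronglyMeasurable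
    ((measurable_id.stronglyMeasurable (α := F)).prodMk (sm_fd hu x s))

/-- mollification (not normalised) -/
def mo (u : F → V) (s : ℝ) (x : F) : V := ∫ y, eta y • u (x - s • y)

/-- mean of the gradient -/
def Pm (u : F → V) (s : ℝ) (x : F) : F →L[ℝ] V := ∫ y, eta y • fderiv ℝ u (x - s • y)

lemma eta_nonneg (y : F) : 0 ≤ eta y := by
  unfold eta
  have := G1_nonneg (1 - ‖y‖ ^ 2)
  linarith

lemma hcs_eta : HasCompactSupport (eta : F → ℝ) :=
  (isCompact_closedBall (0 : F) 1).of_isClosed_subset (isClosed_tsupport _) tsupport_eta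

lemma cont_eta : Continuous (eta : F → ℝ) := eta_contDiff.continuous

lemma integrable_eta : Integrable (eta : F → ℝ) := cont_eta.integrable_of_hasCompactSupport hcs_eta

lemma cont_deta : Continuous (deta : F → F →L[ℝ] ℝ) := deta_contDiff.continuous

lemma hcs_deta : HasCompactSupport (deta : F → F →L[ℝ] ℝ) :=
  HasCompactSupport.intro (isCompact_closedBall (0 : F) 1) fun _ hx => deta_zero hx

lemma integrable_eta_fd {K : ℝ≥0} {u : F → V} (hu : LipschitzWith K u) (x : F) (s : ℝ) :
    Integrable (fun y => eta y • fderiv ℝ u (x - s • y)) := by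
  have h : Integrable (fun y : F => eta y * (K : ℝ)) := integrable_eta.mul_const _
  refine h.mono' ?_ (Eventually.of_forall fun y => ?_)
  · exact cont_eta.aestronglyMeasurable.smul (sm_fd hu x s).aestronglyMeasurable
  · rw [norm_smul, Real.norm_of_nonneg (eta_nonneg y)]
    exact mul_le_mul_of_nonneg_left (norm_fd_le hu _) (eta_nonneg y)

lemma integrable_eta_u {u : F → V} (hu : Continuous u) (x : F) (s : ℝ) :
    Integrable (fun y => eta y • u (x - s • y)) := by
  refine Continuous.integrable_of_hasCompactSupport ?_ hcs_eta.smul_right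
  exact cont_eta.smul (hu.comp (by fun_prop))

lemma Pm_apply {K : ℝ≥0} {u : F → V} (hu : LipschitzWith K u) (x : F) (s : ℝ) (e : F) :
    Pm u s x e = ∫ y, eta y • fderiv ℝ u (x - s • y) e := by
  unfold Pm
  rw [ContinuousLinearMap.integral_apply (integrable_eta_fd hu x s)]
  rfl

/-- the derivative of the mollification -/
lemma hasFDerivAt_mo {K : ℝ≥0} {u : F → V} (hu : LipschitzWith K u) (x : F) {s : ℝ} (hs : s ≠ 0) :
    HasFDerivAt (mo u s) (Pm u s x) x := by
  unfold Pm
  have key := hasFDerivAt_integral_of_dominated_loc_of_lip (μ := (volume : Measure F)) (𝕜 := ℝ)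
    (F := fun x y => eta y • u (x - s • y)) (x₀ := x)
    (F' := fun y => eta y • fderiv ℝ u (x - s • y)) (s := univ)
    (bound := fun y => eta y * K) univ_mem ?_ (integrable_eta_u hu.continuous x s)
    (integrable_eta_fd hu x s).1 ?_ (integrable_eta.mul_const _) ?_
  · exact key.2
  · exact Eventually.of_forall fun z => (integrable_eta_u hu.continuous z s).1
  · refine Eventually.of_forall fun y => ?_
    apply LipschitzOnWith.of_dist_le_mul
    intro a _ b _
    have hb : ((Real.nnabs (eta y * K) : ℝ≥0) : ℝ) = eta y * K := by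
      rw [Real.coe_nnabs, abs_of_nonneg]
      have := eta_nonneg y
      positivity
    rw [hb, dist_eq_norm, ← smul_sub, norm_smul, Real.norm_of_nonneg (eta_nonneg y), mul_assoc]
    refine mul_le_mul_of_nonneg_left ?_ (eta_nonneg y)
    have h1 := hu.dist_le_mul (a - s • y) (b - s • y)
    rw [dist_eq_norm] at h1
    refine h1.trans (le_of_eq ?_)
    rw [dist_sub_right]
  · filter_upwards [ae_diffAt hu x hs] with y hy
    have h1 : HasFDerivAt (fun x : F => x - s • y) (ContinuousLinearMap.id ℝ F) x :=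
      (hasFDerivAt_id x).sub_const _
    have h2 := (hy.hasFDerivAt.comp x h1).const_smul (eta y)
    refine h2.congr_fderiv ?_
    ext e
    simp

/-- the integrated by parts form -/
def Am (u : F → V) (s : ℝ) (x e : F) : V := ∫ y, deta y e • u (x - s • y)

lemma cont_deta_apply (e : F) : Continuous fun y : F => deta y e :=
  cont_deta.clm_apply continuous_const

lemma hcs_deta_apply (e : F) : HasCompactSupport fun y : F => deta y e :=
  HasCompactSupport.intro (isCompact_closedBall (0 : F) 1) fun _ hx => by simp [deta_zero hx]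

/-- integration by parts -/
lemma Pm_ibp {K : ℝ≥0} {u : F → V} (hu : LipschitzWith K u) (x : F) {s : ℝ} (hs : s ≠ 0)
    (e : F) : s • Pm u s x e = Am u s x e := by
  -- differentiate `t ↦ ∫ eta (y + t e) u (x - s y) dy = mo u s (x + s t e)`
  have hJ : ∀ t : ℝ, ∫ y, eta (y + t • e) • u (x - s • y) = mo u s (x + (s * t) • e) := by
    intro t
    unfold mo
    rw [← integral_add_right_eq_self (fun y => eta y • u (x + (s * t) • e - s • y)) (t • e)]
    congr 1
    ext y
    congr 2
    rw [smul_add, smul_smul]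
    abel
  have h1 : HasDerivAt (fun t : ℝ => mo u s (x + (s * t) • e)) (s • Pm u s x e) 0 := by
    have h2 : HasDerivAt (fun t : ℝ => x + (s * t) • e) (s • e) 0 := by
      have := (((hasDerivAt_id (0 : ℝ)).const_mul s).smul_const e).const_add x
      simpa using this
    have h3 : HasFDerivAt (mo u s) (Pm u s x) (x + (s * 0) • e) := by
      simpa using hasFDerivAt_mo hu x hs
    have h4 := h3.comp_hasDerivAt (0 : ℝ) h2
    simpa [Function.comp_def] using h4
  have hC : ∃ C : ℝ≥0, LipschitzWith C (eta : F → ℝ) := by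
    obtain ⟨C, hC⟩ := hcs_deta.exists_bound_of_continuous (cont_deta (F := F))
    refine ⟨Real.toNNReal C, ?_⟩
    have hC0 : 0 ≤ C := (norm_nonneg _).trans (hC 0)
    refine lipschitzWith_of_nnnorm_fderiv_le (𝕜 := ℝ)
      (eta_contDiff.differentiable (by simp)) fun y => ?_
    rw [(hasFDerivAt_eta y).fderiv, ← NNReal.coe_le_coe, coe_nnnorm, Real.coe_toNNReal _ hC0]
    exact hC y
  obtain ⟨C, hC⟩ := hC
  have h5 : HasDerivAt (fun t : ℝ => ∫ y, eta (y + t • e) • u (x - s • y))
      (∫ y, deta y e • u (x - s • y)) 0 := by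
    set B : Set F := closedBall 0 (1 + ‖e‖) with hB
    have hz : ∀ t ∈ ball (0 : ℝ) 1, ∀ y ∉ B, eta (y + t • e) = 0 := by
      intro t ht y hy
      apply eta_zero
      intro hmem
      apply hy
      rw [hB, mem_closedBall_zero_iff]
      rw [mem_closedBall_zero_iff] at hmem
      have ht' : ‖t‖ ≤ 1 := (by simpa using ht : |t| < 1).le
      have h6 : ‖t • e‖ ≤ ‖e‖ := by
        rw [norm_smul]
        calc ‖t‖ * ‖e‖ ≤ 1 * ‖e‖ := mul_le_mul_of_nonneg_right ht' (norm_nonneg _)
          _ = ‖e‖ := one_mul _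
      have h7 : ‖y‖ ≤ ‖y + t • e‖ + ‖t • e‖ := by
        have := norm_sub_le (y + t • e) (t • e)
        rwa [add_sub_cancel_right] at this
      linarith
    obtain ⟨M, hM⟩ : ∃ M, ∀ y ∈ B, ‖u (x - s • y)‖ ≤ M :=
      (isCompact_closedBall (0 : F) (1 + ‖e‖)).exists_bound_of_continuousOn
        ((hu.continuous.comp (by fun_prop : Continuous fun y : F => x - s • y)).continuousOn)
    have hint : ∀ t : ℝ, Integrable (fun y => eta (y + t • e) • u (x - s • y)) := by
      intro t
      refine Continuous.integrable_of_hasCompactSupport ?_ ?_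
      · exact (cont_eta.comp (by fun_prop)).smul (hu.continuous.comp (by fun_prop))
      · exact (hcs_eta.comp_homeomorph (Homeomorph.addRight (t • e))).smul_right
    have key := hasDerivAt_integral_of_dominated_loc_of_lip (μ := (volume : Measure F)) (𝕜 := ℝ)
      (F := fun t y => eta (y + t • e) • u (x - s • y)) (x₀ := (0 : ℝ))
      (F' := fun y => deta y e • u (x - s • y)) (s := ball (0 : ℝ) 1)
      (bound := B.indicator (fun _ => C * ‖e‖ * |M|)) (ball_mem_nhds _ one_pos) ?_
      (by simpa using hint 0) ?_ ?_ ?_ ?_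
    · exact key.2
    · exact Eventually.of_forall fun t => (hint t).1
    · exact (cont_deta_apply e).aestronglyMeasurable.smul
        (hu.continuous.comp (by fun_prop : Continuous fun y : F => x - s • y)).aestronglyMeasurable
    · refine Eventually.of_forall fun y => ?_
      apply LipschitzOnWith.of_dist_le_mul
      intro a ha b hb
      by_cases hy : y ∈ B
      · rw [indicator_of_mem hy]
        have hb' : ((Real.nnabs (C * ‖e‖ * |M|) : ℝ≥0) : ℝ) = C * ‖e‖ * |M| := by
          rw [Real.coe_nnabs, abs_of_nonneg (by positivity)]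
        rw [hb', dist_eq_norm, ← sub_smul, norm_smul]
        have h8 := hC.dist_le_mul (y + a • e) (y + b • e)
        rw [dist_add_left, dist_eq_norm, dist_eq_norm, ← sub_smul, norm_smul] at h8
        have h9 : ‖u (x - s • y)‖ ≤ |M| := (hM y hy).trans (le_abs_self M)
        calc ‖eta (y + a • e) - eta (y + b • e)‖ * ‖u (x - s • y)‖
            ≤ (C * (‖a - b‖ * ‖e‖)) * |M| := by gcongr
          _ = C * ‖e‖ * |M| * dist a b := by rw [dist_eq_norm]; ring
      · simp only [hz a ha y hy, hz b hb y hy, zero_smul, dist_self]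
        positivity
    · exact (integrable_indicator_iff (isClosed_closedBall.measurableSet)).2
        (integrableOn_const (isCompact_closedBall _ _).measure_lt_top.ne)
    · refine Eventually.of_forall fun y => ?_
      have h10 : HasDerivAt (fun t : ℝ => y + t • e) e 0 := by
        simpa using ((hasDerivAt_id (0 : ℝ)).smul_const e).const_add y
      have h11 : HasFDerivAt (eta : F → ℝ) (deta y) (y + (0 : ℝ) • e) := by
        simpa using hasFDerivAt_eta y
      exact (h11.comp_hasDerivAt (0 : ℝ) h10).smul_const _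
  have h12 : (fun t : ℝ => ∫ y, eta (y + t • e) • u (x - s • y))
      = fun t : ℝ => mo u s (x + (s * t) • e) := funext hJ
  rw [h12] at h5
  exact h1.unique h5

/-- the scale derivative of `Am` -/
lemma hasDerivAt_Am {K : ℝ≥0} {u : F → V} (hu : LipschitzWith K u) (x : F) {s : ℝ} (hs : s ≠ 0)
    (e : F) :
    HasDerivAt (fun s => Am u s x e) (-∫ y, deta y e • fderiv ℝ u (x - s • y) y) s := by
  unfold Am
  have hde := cont_deta_apply (F := F) e
  have hdc := hcs_deta_apply (F := F) e
  have hbd : Integrable (fun y : F => ‖deta y e‖ * (K * ‖y‖)) := by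
    refine Continuous.integrable_of_hasCompactSupport (by fun_prop) ?_
    exact hdc.norm.mul_right
  have key := hasDerivAt_integral_of_dominated_loc_of_lip (μ := (volume : Measure F)) (𝕜 := ℝ)
    (F := fun s y => deta y e • u (x - s • y)) (x₀ := s)
    (F' := fun y => -(deta y e • fderiv ℝ u (x - s • y) y)) (s := univ)
    (bound := fun y => ‖deta y e‖ * (K * ‖y‖)) univ_mem ?_ ?_ ?_ ?_ hbd ?_
  · have h2 := key.2
    rw [integral_neg] at h2
    exact h2
  · refine Eventually.of_forall fun t => ?_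
    exact hde.aestronglyMeasurable.smul
      (hu.continuous.comp (by fun_prop : Continuous fun y : F => x - t • y)).aestronglyMeasurable
  · refine Continuous.integrable_of_hasCompactSupport ?_ hdc.smul_right
    exact hde.smul (hu.continuous.comp (by fun_prop : Continuous fun y : F => x - s • y))
  · apply AEStronglyMeasurable.neg
    refine hde.aestronglyMeasurable.smul ?_
    exact (sm_fd_apply hu x s).aestronglyMeasurable
  · refine Eventually.of_forall fun y => ?_
    apply LipschitzOnWith.of_dist_le_mul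
    intro a _ b _
    have hb : ((Real.nnabs (‖deta y e‖ * (K * ‖y‖)) : ℝ≥0) : ℝ) = ‖deta y e‖ * (K * ‖y‖) := by
      rw [Real.coe_nnabs, abs_of_nonneg (by positivity)]
    rw [hb, dist_eq_norm, ← smul_sub, norm_smul, mul_assoc]
    refine mul_le_mul_of_nonneg_left ?_ (norm_nonneg _)
    have h1 := hu.dist_le_mul (x - a • y) (x - b • y)
    rw [dist_sub_left, dist_eq_norm, dist_eq_norm, ← sub_smul, norm_smul] at h1
    rw [dist_eq_norm]
    calc ‖u (x - a • y) - u (x - b • y)‖ ≤ K * (‖a - b‖ * ‖y‖) := h1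
      _ = K * ‖y‖ * ‖a - b‖ := by ring
  · filter_upwards [ae_diffAt hu x hs] with y hy
    have h7 : HasDerivAt (fun s : ℝ => x - s • y) (-y) s := by
      have := ((hasDerivAt_id s).smul_const y).const_sub x
      simpa using this
    have h9 := (hy.hasFDerivAt.comp_hasDerivAt s h7).const_smul (deta y e)
    rw [map_neg, smul_neg] at h9
    exact h9

lemma integrable_deta_fd {K : ℝ≥0} {u : F → V} (hu : LipschitzWith K u) (x e : F) (s : ℝ) :
    Integrable (fun y => deta y e • fderiv ℝ u (x - s • y) y) := by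
  have hde := cont_deta_apply (F := F) e
  have hdc := hcs_deta_apply (F := F) e
  have hbd : Integrable (fun y : F => ‖deta y e‖ * (K * ‖y‖)) := by
    refine Continuous.integrable_of_hasCompactSupport (by fun_prop) ?_
    exact hdc.norm.mul_right
  refine hbd.mono' ?_ (Eventually.of_forall fun y => ?_)
  · refine hde.aestronglyMeasurable.smul ?_
    exact (sm_fd_apply hu x s).aestronglyMeasurable
  · rw [norm_smul]
    refine mul_le_mul_of_nonneg_left ?_ (norm_nonneg _)
    exact ((fderiv ℝ u (x - s • y)).le_opNorm y).trans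
      (mul_le_mul_of_nonneg_right (norm_fd_le hu _) (norm_nonneg _))

lemma integrable_eta_fd_apply {K : ℝ≥0} {u : F → V} (hu : LipschitzWith K u) (x e : F) (s : ℝ) :
    Integrable (fun y => eta y • fderiv ℝ u (x - s • y) e) := by
  have h := (integrable_eta_fd hu x s).apply_continuousLinearMap e
  simpa using h

/-- kernel mean of the gradient -/
def Qm (u : F → V) (s : ℝ) (x e : F) : V := ∫ y, fderiv ℝ u (x - s • y) (KK y e)

/-- the scale identity -/
lemma hasDerivAt_Pm {K : ℝ≥0} {u : F → V} (hu : LipschitzWith K u) (x : F) {s : ℝ} (hs : 0 < s)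
    (e : F) : HasDerivAt (fun s => Pm u s x e) (-(s⁻¹ • Qm u s x e)) s := by
  have h1 := hasDerivAt_Am hu x hs.ne' e
  have h2 := (hasDerivAt_inv hs.ne').smul h1
  have h3 : (fun s => Pm u s x e) =ᶠ[𝓝 s] (fun s => s⁻¹ • Am u s x e) := by
    filter_upwards [lt_mem_nhds hs] with t ht
    rw [← Pm_ibp hu x ht.ne' e, smul_smul, inv_mul_cancel₀ ht.ne', one_smul]
  have h4 : Qm u s x e = Pm u s x e + ∫ y, deta y e • fderiv ℝ u (x - s • y) y := by
    rw [Qm, Pm_apply hu, ← integral_add (integrable_eta_fd_apply hu x e s)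
      (integrable_deta_fd hu x e s)]
    congr 1
    ext y
    simp [KK_apply]
  refine (h2.congr_of_eventuallyEq h3).congr_deriv ?_
  rw [h4, ← Pm_ibp hu x hs.ne' e]
  rw [smul_smul, smul_add, neg_add]
  have h6 : -(s ^ 2)⁻¹ * s = -(s⁻¹) := by field_simp
  rw [h6, smul_neg, neg_smul]
  abel

/-! ### Weak smallness of the Laplacian -/

/-- `u` (Lipschitz) has weak Laplacian at most `δ` against `C^1`-small test functions in `U` -/
def WLap (u : F → V) (δ : ℝ) (U : Set F) : Prop :=
  ∀ ζ : F → ℝ, ContDiff ℝ ∞ ζ → HasCompactSupport ζ → tsupport ζ ⊆ U →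
    ∀ c : ℝ, (∀ x, ‖gradient ζ x‖ ≤ c) → ‖∫ x, fderiv ℝ u x (gradient ζ x)‖ ≤ δ * c

lemma exists_KK_bound : ∃ C : ℝ, 0 < C ∧ ∀ y : F, ‖KK y‖ ≤ C := by
  have hcs : HasCompactSupport (KK : F → F →L[ℝ] F) :=
    HasCompactSupport.intro (isCompact_closedBall (0 : F) 1) fun _ hx => KK_zero hx
  obtain ⟨C, hC⟩ := hcs.exists_bound_of_continuous KK_contDiff.continuous
  exact ⟨max C 1, by positivity, fun y => (hC y).trans (le_max_left _ _)⟩

/-- a bound for the kernel `KK` -/
def CK (F : Type*) [NormedAddCommGroup F] [InnerProductSpace ℝ F] [FiniteDimensional ℝ F]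
  [MeasurableSpace F] [BorelSpace F] : ℝ := Classical.choose (exists_KK_bound (F := F))

lemma CK_pos : 0 < CK F := (Classical.choose_spec (exists_KK_bound (F := F))).1
lemma norm_KK_le (y : F) : ‖KK y‖ ≤ CK F := (Classical.choose_spec (exists_KK_bound (F := F))).2 y

lemma norm_Qm_le {K : ℝ≥0} {u : F → V} (_hu : LipschitzWith K u) {δ : ℝ} {U : Set F}
    (hw : WLap u δ U) {x : F} {s : ℝ} (hs : 0 < s) (hU : closedBall x s ⊆ U) (e : F) :
    ‖Qm u s x e‖ ≤ δ * CK F * ‖e‖ * (s ^ Module.finrank ℝ F)⁻¹ := by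
  set ζ : F → ℝ := fun z => psi e (s⁻¹ • (x - z)) with hζ
  have hsm : ContDiff ℝ ∞ ζ := by
    apply (psi_contDiff e).comp
    fun_prop
  have hts := tsupport_psi_resc e x hs
  have hcs : HasCompactSupport ζ :=
    HasCompactSupport.intro (isCompact_closedBall x s)
      (fun z hz => by
        by_contra h
        exact hz (hts (subset_tsupport _ h)))
  have hgr : ∀ z, gradient ζ z = -(s⁻¹ • KK (s⁻¹ • (x - z)) e) := by
    intro z
    apply HasGradientAt.gradient
    rw [hasGradientAt_iff_hasFDerivAt]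
    have h1 : HasFDerivAt (fun z : F => s⁻¹ • (x - z)) (s⁻¹ • (-(ContinuousLinearMap.id ℝ F))) z := by
      exact ((hasFDerivAt_id z).const_sub x).const_smul s⁻¹
    refine ((hasFDerivAt_psi e (s⁻¹ • (x - z))).comp z h1).congr_fderiv ?_
    ext u
    simp
  have hb : ∀ z, ‖gradient ζ z‖ ≤ s⁻¹ * (CK F * ‖e‖) := by
    intro z
    rw [hgr, norm_neg, norm_smul, norm_inv, Real.norm_of_nonneg hs.le]
    refine mul_le_mul_of_nonneg_left ?_ (inv_nonneg.2 hs.le)
    exact ((KK _).le_opNorm e).trans (mul_le_mul_of_nonneg_right (norm_KK_le _) (norm_nonneg _))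
  have h := hw ζ hsm hcs (hts.trans hU) _ hb
  simp only [hgr, map_neg, map_smul, integral_neg, integral_smul, norm_neg, norm_smul, norm_inv,
    Real.norm_of_nonneg hs.le] at h
  have h5 := integral_resc (fun z => (fderiv ℝ u z) (KK (s⁻¹ • (x - z)) e)) x s
  have h6 : Qm u s x e = |(s ^ Module.finrank ℝ F)⁻¹| •
      ∫ z, (fderiv ℝ u z) (KK (s⁻¹ • (x - z)) e) := by
    rw [← h5]
    unfold Qm
    congr 1
    ext y
    have : s⁻¹ • (x - (x - s • y)) = y := by
      rw [sub_sub_cancel, smul_smul, inv_mul_cancel₀ hs.ne', one_smul]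
    rw [this]
  have h7 : ‖∫ z, (fderiv ℝ u z) (KK (s⁻¹ • (x - z)) e)‖ ≤ δ * (CK F * ‖e‖) := by
    have h8 : s⁻¹ * ‖∫ z, (fderiv ℝ u z) (KK (s⁻¹ • (x - z)) e)‖
        ≤ s⁻¹ * (δ * (CK F * ‖e‖)) := by
      refine h.trans (le_of_eq ?_)
      ring
    exact le_of_mul_le_mul_left h8 (inv_pos.2 hs)
  rw [h6, norm_smul, Real.norm_eq_abs, abs_abs, abs_of_nonneg (by positivity)]
  calc (s ^ Module.finrank ℝ F)⁻¹ * ‖∫ z, (fderiv ℝ u z) (KK (s⁻¹ • (x - z)) e)‖
      ≤ (s ^ Module.finrank ℝ F)⁻¹ * (δ * (CK F * ‖e‖)) := by gcongr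
    _ = δ * CK F * ‖e‖ * (s ^ Module.finrank ℝ F)⁻¹ := by ring

/-- the means of the gradient at two scales -/
lemma norm_Pm_sub_le {K : ℝ≥0} {u : F → V} (hu : LipschitzWith K u) {δ : ℝ} (hδ : 0 ≤ δ)
    {U : Set F} (hw : WLap u δ U) {x : F} {s t : ℝ} (hs : 0 < s) (hst : s ≤ t)
    (hU : closedBall x t ⊆ U) :
    ‖Pm u t x - Pm u s x‖ ≤ δ * CK F * (s ^ (Module.finrank ℝ F + 1))⁻¹ * (t - s) := by
  have hC := CK_pos (F := F)
  refine ContinuousLinearMap.opNorm_le_bound _ (by
    have : 0 ≤ t - s := sub_nonneg.2 hst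
    positivity) fun e => ?_
  rw [sub_apply]
  have key := (convex_Icc s t).norm_image_sub_le_of_norm_hasDerivWithin_le
    (f := fun r => Pm u r x e) (f' := fun r => -(r⁻¹ • Qm u r x e))
    (C := δ * CK F * (s ^ (Module.finrank ℝ F + 1))⁻¹ * ‖e‖)
    (x := s) (y := t) (fun r hr => (hasDerivAt_Pm hu x (hs.trans_le hr.1) e).hasDerivWithinAt)
    (fun r hr => ?_) ⟨le_rfl, hst⟩ ⟨hst, le_rfl⟩
  · rw [Real.norm_of_nonneg (sub_nonneg.2 hst)] at key
    refine key.trans (le_of_eq ?_)
    ring
  · have hr0 : 0 < r := hs.trans_le hr.1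
    rw [norm_neg, norm_smul, norm_inv, Real.norm_of_nonneg hr0.le]
    have h1 := norm_Qm_le hu hw hr0 ((closedBall_subset_closedBall hr.2).trans hU) e
    have h2 : r⁻¹ * ‖Qm u r x e‖ ≤ r⁻¹ * (δ * CK F * ‖e‖ * (r ^ Module.finrank ℝ F)⁻¹) := by gcongr
    have h3 : r⁻¹ * (δ * CK F * ‖e‖ * (r ^ Module.finrank ℝ F)⁻¹)
        = δ * CK F * (r ^ (Module.finrank ℝ F + 1))⁻¹ * ‖e‖ := by
      rw [pow_succ, mul_inv]; ring
    rw [h3] at h2
    refine h2.trans ?_
    have h4 : (r ^ (Module.finrank ℝ F + 1))⁻¹ ≤ (s ^ (Module.finrank ℝ F + 1))⁻¹ := by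
      apply inv_anti₀ (by positivity)
      exact pow_le_pow_left₀ hs.le hr.1 _
    gcongr

end

end Crest.Agent.R234.Hm512
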