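import Crest.Agent.R246.H2b1_622

/-!
Row 234, VF-HARM (helper512).  Part 2: the radial kernel as a function of the scale, and the Weyl
lemma for measures / locally integrable functions.

* `kS s x z = s^{-m} η((z-x)/s)`, `pS s x z = s^{1-m} Ψ((z-x)/s)`, `∂_s kS = Δ_z pS` (`hasDerivAt_kS`).
* `WHarm ν v U`: `∫ Δφ • v dν = 0` for all `φ ∈ C_c^∞(U)`.
* `WHarm.mean_eq`: the kernel means do not depend on the scale.
-/

set_option autoImplicit false
set_option linter.unusedSectionVars false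

open MeasureTheory Metric Set Filter Topology InnerProductSpace
open scoped ContDiff NNReal Laplacian

namespace Crest.Agent.R234.Hm512

open Crest.Agent.R246.H2x622

noncomputable section

variable {F : Type*} [NormedAddCommGroup F] [InnerProductSpace ℝ F] [FiniteDimensional ℝ F]
  [MeasurableSpace F] [BorelSpace F]
variable {V : Type*} [NormedAddCommGroup V] [NormedSpace ℝ V]

/-! ### Laplacian from a gradient field -/

lemma lap_eq_sum (f : F → V) (x : F) :
    Δ f x = ∑ i, fderiv ℝ (fderiv ℝ f) x (stdOrthonormalBasis ℝ F i) (stdOrthonormalBasis ℝ F i) := by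
  rw [laplacian_eq_iteratedFDeriv_stdOrthonormalBasis]
  simp only [iteratedFDeriv_two_apply, Matrix.cons_val_zero, Matrix.cons_val_one]

lemma lap_of_gradient {φ : F → ℝ} {G : F → F} {G' : F →L[ℝ] F} {x : F}
    (h1 : ∀ y, HasFDerivAt φ (innerSL ℝ (G y)) y) (h2 : HasFDerivAt G G' x) :
    Δ φ x = ∑ i, inner ℝ (G' (stdOrthonormalBasis ℝ F i)) (stdOrthonormalBasis ℝ F i) := by
  rw [lap_eq_sum]
  have h3 : fderiv ℝ φ = fun y => innerSL ℝ (G y) := funext fun y => (h1 y).fderiv
  have h4 : HasFDerivAt (fun y => innerSL ℝ (G y)) ((innerSL ℝ).comp G') x :=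
    (innerSL ℝ (E := F)).hasFDerivAt.comp x h2
  rw [h3, h4.fderiv]
  simp

lemma sum_inner_smul (z : F) :
    ∑ i, inner ℝ z (stdOrthonormalBasis ℝ F i) • stdOrthonormalBasis ℝ F i = z := by
  conv_rhs => rw [← (stdOrthonormalBasis ℝ F).sum_repr z]
  refine Finset.sum_congr rfl fun i _ => ?_
  rw [(stdOrthonormalBasis ℝ F).repr_apply_apply, real_inner_comm]

/-! ### The kernels -/

/-- the kernel at scale `s` about `x` -/
def kS (s : ℝ) (x z : F) : ℝ := (s ^ Module.finrank ℝ F)⁻¹ * eta (s⁻¹ • (z - x))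

/-- its potential -/
def pS (s : ℝ) (x z : F) : ℝ := s * (s ^ Module.finrank ℝ F)⁻¹ * Psi (s⁻¹ • (z - x))

/-- the scale derivative of `kS` -/
def lS (s : ℝ) (x z : F) : ℝ :=
  -((s ^ (Module.finrank ℝ F + 1))⁻¹ *
    (Module.finrank ℝ F * eta (s⁻¹ • (z - x)) + deta (s⁻¹ • (z - x)) (s⁻¹ • (z - x))))

lemma notMem_resc {x z : F} {s : ℝ} (hs : 0 < s) (hz : z ∉ closedBall x s) :
    s⁻¹ • (z - x) ∉ closedBall (0 : F) 1 := by
  intro h
  apply hz
  simp only [mem_closedBall, dist_zero_right, norm_smul, norm_inv, Real.norm_of_nonneg hs.le] at h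
  rw [mem_closedBall, dist_eq_norm]
  have := (inv_mul_le_iff₀ hs).1 h
  linarith

lemma kS_zero {x z : F} {s : ℝ} (hs : 0 < s) (hz : z ∉ closedBall x s) : kS s x z = 0 := by
  unfold kS; rw [eta_zero (notMem_resc hs hz), mul_zero]

lemma pS_zero {x z : F} {s : ℝ} (hs : 0 < s) (hz : z ∉ closedBall x s) : pS s x z = 0 := by
  unfold pS; rw [Psi_zero (notMem_resc hs hz), mul_zero]

lemma lS_zero {x z : F} {s : ℝ} (hs : 0 < s) (hz : z ∉ closedBall x s) : lS s x z = 0 := by
  unfold lS; rw [eta_zero (notMem_resc hs hz), deta_zero (notMem_resc hs hz)]; simp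

lemma kS_contDiff (s : ℝ) (x : F) : ContDiff ℝ ∞ (kS s x) := by
  unfold kS
  exact contDiff_const.mul (eta_contDiff.comp (contDiff_const.smul (contDiff_id.sub contDiff_const)))

lemma pS_contDiff (s : ℝ) (x : F) : ContDiff ℝ ∞ (pS s x) := by
  unfold pS
  exact contDiff_const.mul (Psi_contDiff.comp (contDiff_const.smul (contDiff_id.sub contDiff_const)))

lemma tsupport_pS {x : F} {s : ℝ} (hs : 0 < s) : tsupport (pS s x) ⊆ closedBall x s := by
  refine closure_minimal ?_ isClosed_closedBall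
  intro z hz
  by_contra h
  exact hz (pS_zero hs h)

lemma tsupport_kS {x : F} {s : ℝ} (hs : 0 < s) : tsupport (kS s x) ⊆ closedBall x s := by
  refine closure_minimal ?_ isClosed_closedBall
  intro z hz
  by_contra h
  exact hz (kS_zero hs h)

lemma hcs_pS {x : F} {s : ℝ} (hs : 0 < s) : HasCompactSupport (pS s x) :=
  (isCompact_closedBall x s).of_isClosed_subset (isClosed_tsupport _) (tsupport_pS hs)

lemma hcs_kS {x : F} {s : ℝ} (hs : 0 < s) : HasCompactSupport (kS s x) :=
  (isCompact_closedBall x s).of_isClosed_subset (isClosed_tsupport _) (tsupport_kS hs)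

lemma kS_symm (s : ℝ) (x z : F) : kS s x z = kS s z x := by
  unfold kS eta
  have : ‖s⁻¹ • (z - x)‖ = ‖s⁻¹ • (x - z)‖ := by rw [norm_smul, norm_smul, norm_sub_rev]
  rw [this]

lemma eta_nonneg' (y : F) : 0 ≤ eta y := by
  unfold eta
  have := G1_nonneg (1 - ‖y‖ ^ 2)
  linarith

lemma kS_nonneg {s : ℝ} (hs : 0 < s) (x z : F) : 0 ≤ kS s x z := by
  unfold kS
  have := eta_nonneg' (s⁻¹ • (z - x))
  positivity

lemma cont_kS (s : ℝ) (x : F) : Continuous (kS s x) := (kS_contDiff s x).continuous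

lemma cont_lS (s : ℝ) (x : F) : Continuous (lS s x) := by
  unfold lS
  have h1 : Continuous fun z : F => s⁻¹ • (z - x) := by fun_prop
  have h2 : Continuous (eta : F → ℝ) := eta_contDiff.continuous
  have h3 : Continuous (deta : F → F →L[ℝ] ℝ) := deta_contDiff.continuous
  exact (continuous_const.mul ((continuous_const.mul (h2.comp h1)).add
    ((h3.comp h1).clm_apply h1))).neg

/-- gradient of `pS` -/
lemma hasFDerivAt_pS {s : ℝ} (hs : 0 < s) (x z : F) :
    HasFDerivAt (pS s x) (innerSL ℝ (-((s ^ (Module.finrank ℝ F + 1))⁻¹ *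
      eta (s⁻¹ • (z - x))) • (z - x))) z := by
  have h1 : HasFDerivAt (fun z : F => s⁻¹ • (z - x)) (s⁻¹ • ContinuousLinearMap.id ℝ F) z :=
    ((hasFDerivAt_id z).sub_const x).const_smul s⁻¹
  have h2 := ((hasFDerivAt_Psi (s⁻¹ • (z - x))).comp z h1).const_mul
    (s * (s ^ Module.finrank ℝ F)⁻¹)
  refine h2.congr_fderiv ?_
  ext e
  simp only [map_smul, smul_apply, ContinuousLinearMap.comp_apply, neg_apply, innerSL_apply_apply,
    ContinuousLinearMap.id_apply, smul_eq_mul, neg_smul, map_neg]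
  rw [pow_succ]
  field_simp

lemma hasFDerivAt_gpS {s : ℝ} (_hs : 0 < s) (x z : F) :
    HasFDerivAt (fun z : F => -((s ^ (Module.finrank ℝ F + 1))⁻¹ *
      eta (s⁻¹ • (z - x))) • (z - x))
      ((-((s ^ (Module.finrank ℝ F + 1))⁻¹ * eta (s⁻¹ • (z - x)))) • ContinuousLinearMap.id ℝ F +
       ((-((s ^ (Module.finrank ℝ F + 1))⁻¹ * s⁻¹)) • deta (s⁻¹ • (z - x))).smulRight (z - x)) z := by
  have h1 : HasFDerivAt (fun z : F => s⁻¹ • (z - x)) (s⁻¹ • ContinuousLinearMap.id ℝ F) z :=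
    ((hasFDerivAt_id z).sub_const x).const_smul s⁻¹
  have h2 := (((hasFDerivAt_eta (s⁻¹ • (z - x))).comp z h1).const_mul
    ((s ^ (Module.finrank ℝ F + 1))⁻¹)).neg
  have h3 := h2.smul ((hasFDerivAt_id z).sub_const x)
  refine h3.congr_fderiv ?_
  ext e
  simp [mul_assoc]

lemma laplacian_pS {s : ℝ} (hs : 0 < s) (x z : F) : Δ (pS s x) z = lS s x z := by
  rw [lap_of_gradient (hasFDerivAt_pS hs x) (hasFDerivAt_gpS hs x z)]
  simp only [add_apply, smul_apply, ContinuousLinearMap.id_apply,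
    ContinuousLinearMap.smulRight_apply, inner_add_left, real_inner_smul_left, smul_eq_mul]
  rw [Finset.sum_add_distrib]
  have h1 : ∀ i, inner ℝ (stdOrthonormalBasis ℝ F i) (stdOrthonormalBasis ℝ F i) = (1 : ℝ) := by
    intro i
    rw [real_inner_self_eq_norm_sq, (stdOrthonormalBasis ℝ F).norm_eq_one, one_pow]
  have h2 : ∑ i, -((s ^ (Module.finrank ℝ F + 1))⁻¹ * s⁻¹) *
      deta (s⁻¹ • (z - x)) (stdOrthonormalBasis ℝ F i) *
      inner ℝ (z - x) (stdOrthonormalBasis ℝ F i)
      = -((s ^ (Module.finrank ℝ F + 1))⁻¹ * s⁻¹) * deta (s⁻¹ • (z - x)) (z - x) := by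
    have h3 : deta (s⁻¹ • (z - x)) (z - x) = ∑ i, deta (s⁻¹ • (z - x))
        (inner ℝ (z - x) (stdOrthonormalBasis ℝ F i) • stdOrthonormalBasis ℝ F i) := by
      rw [← map_sum, sum_inner_smul]
    rw [h3, Finset.mul_sum]
    refine Finset.sum_congr rfl fun i _ => ?_
    rw [map_smul, smul_eq_mul]
    ring
  rw [h2]
  simp only [h1, mul_one, Finset.sum_const, Finset.card_univ, Fintype.card_fin, nsmul_eq_mul]
  unfold lS
  rw [map_smul, smul_eq_mul]
  ring

lemma hasDerivAt_kS {s : ℝ} (hs : 0 < s) (x z : F) :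
    HasDerivAt (fun s => kS s x z) (lS s x z) s := by
  unfold kS lS
  set d := Module.finrank ℝ F with hd
  have h1 : HasDerivAt (fun s : ℝ => s⁻¹ • (z - x)) (-(s ^ 2)⁻¹ • (z - x)) s :=
    (hasDerivAt_inv hs.ne').smul_const _
  have h2 := (hasFDerivAt_eta (s⁻¹ • (z - x))).comp_hasDerivAt s h1
  have h3 : HasDerivAt (fun s : ℝ => (s ^ d)⁻¹) (-(d * s ^ (d - 1)) / (s ^ d) ^ 2) s :=
    (hasDerivAt_pow d s).fun_inv (pow_ne_zero _ hs.ne')
  have h4 := h3.mul h2
  refine h4.congr_deriv ?_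
  simp only [Function.comp_apply, map_smul, smul_eq_mul]
  have h5 : -((d : ℝ) * s ^ (d - 1)) / (s ^ d) ^ 2 = -((s ^ (d + 1))⁻¹ * d) := by
    rcases Nat.eq_zero_or_pos d with h0 | h0
    · rw [h0]; simp
    · obtain ⟨k, hk⟩ : ∃ k, d = k + 1 := ⟨d - 1, by omega⟩
      rw [hk, Nat.add_sub_cancel]
      field_simp
      ring
  rw [h5]
  have h6 : (s ^ d)⁻¹ * (-(s ^ 2)⁻¹ * deta (s⁻¹ • (z - x)) (z - x))
      = -((s ^ (d + 1))⁻¹ * (s⁻¹ * deta (s⁻¹ • (z - x)) (z - x))) := by
    rw [pow_succ]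
    generalize deta (s⁻¹ • (z - x)) (z - x) = D
    field_simp
    ring
  rw [h6]
  ring

/-! ### Weakly harmonic functions / measures -/

/-- `v dν` is weakly harmonic in `U` -/
def WHarm (ν : Measure F) (v : F → V) (U : Set F) : Prop :=
  ∀ φ : F → ℝ, ContDiff ℝ ∞ φ → HasCompactSupport φ → tsupport φ ⊆ U → ∫ x, Δ φ x • v x ∂ν = 0

lemma WHarm.mono {ν : Measure F} {v : F → V} {U U' : Set F} (h : WHarm ν v U) (hU : U' ⊆ U) :
    WHarm ν v U' := fun φ h1 h2 h3 => h φ h1 h2 (h3.trans hU)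

lemma exists_lS_bound : ∃ C : ℝ, 0 < C ∧ ∀ (s : ℝ), 0 < s → ∀ x z : F,
    |lS s x z| ≤ C * (s ^ (Module.finrank ℝ F + 1))⁻¹ := by
  have hcs : HasCompactSupport fun y : F => (Module.finrank ℝ F : ℝ) * eta y + deta y y :=
    HasCompactSupport.intro (isCompact_closedBall (0 : F) 1)
      fun _ hx => by simp [eta_zero hx, deta_zero hx]
  have hc : Continuous fun y : F => (Module.finrank ℝ F : ℝ) * eta y + deta y y := by
    have h2 : Continuous (eta : F → ℝ) := eta_contDiff.continuous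
    have h3 : Continuous (deta : F → F →L[ℝ] ℝ) := deta_contDiff.continuous
    exact (continuous_const.mul h2).add (h3.clm_apply continuous_id)
  obtain ⟨C, hC⟩ := hcs.exists_bound_of_continuous hc
  refine ⟨max C 1, by positivity, fun s hs x z => ?_⟩
  unfold lS
  rw [abs_neg, abs_mul, abs_of_nonneg (by positivity), mul_comm]
  refine mul_le_mul_of_nonneg_right ?_ (by positivity)
  exact (hC (s⁻¹ • (z - x))).trans (le_max_left _ _)

/-- The kernel means of `v'` (integrable) are differentiable in the scale. -/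
lemma hasDerivAt_mean {ν : Measure F} {v : F → V} (hv : Integrable v ν) (x : F) {s : ℝ}
    (hs : 0 < s) :
    HasDerivAt (fun s => ∫ z, kS s x z • v z ∂ν) (∫ z, lS s x z • v z ∂ν) s := by
  obtain ⟨C, hC0, hC⟩ := exists_lS_bound (F := F)
  have hmem : Ioi (s / 2) ∈ 𝓝 s := Ioi_mem_nhds (by linarith)
  have hkb : ∀ t : ℝ, ∃ B : ℝ, ∀ z : F, ‖kS t x z‖ ≤ B := by
    intro t
    rcases eq_or_ne t 0 with rfl | ht
    · refine ⟨‖((0 : ℝ) ^ Module.finrank ℝ F)⁻¹ * eta (0 : F)‖, fun z => ?_⟩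
      unfold kS; simp
    · have hcs : HasCompactSupport (eta : F → ℝ) :=
        HasCompactSupport.intro (isCompact_closedBall (0 : F) 1) fun _ hx => eta_zero hx
      obtain ⟨B, hB⟩ := hcs.exists_bound_of_continuous eta_contDiff.continuous
      refine ⟨‖(t ^ Module.finrank ℝ F)⁻¹‖ * B, fun z => ?_⟩
      unfold kS
      rw [norm_mul]
      exact mul_le_mul_of_nonneg_left (hB _) (norm_nonneg _)
  have hint : ∀ t : ℝ, Integrable (fun z => kS t x z • v z) ν := by
    intro t
    obtain ⟨B, hB⟩ := hkb t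
    exact hv.bdd_smul B (cont_kS t x).aestronglyMeasurable (Eventually.of_forall hB)
  have key := hasDerivAt_integral_of_dominated_loc_of_deriv_le (μ := ν)
    (F := fun s z => kS s x z • v z) (x₀ := s)
    (F' := fun s z => lS s x z • v z) (s := Ioi (s / 2))
    (bound := fun z => C * ((s / 2) ^ (Module.finrank ℝ F + 1))⁻¹ * ‖v z‖) hmem
    (Eventually.of_forall fun t => (hint t).1) (hint s) ?_ ?_ (hv.norm.const_mul _) ?_
  · exact key.2
  · exact (cont_lS s x).aestronglyMeasurable.smul hv.1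
  · refine Eventually.of_forall fun z t ht => ?_
    rw [norm_smul]
    refine mul_le_mul_of_nonneg_right ?_ (norm_nonneg _)
    have ht' : s / 2 < t := ht
    have ht0 : 0 < t := by linarith
    refine (hC t ht0 x z).trans ?_
    refine mul_le_mul_of_nonneg_left ?_ hC0.le
    exact inv_anti₀ (by positivity) (pow_le_pow_left₀ (by positivity) ht'.le _)
  · refine Eventually.of_forall fun z t ht => ?_
    have ht' : s / 2 < t := ht
    have ht0 : 0 < t := by linarith
    exact (hasDerivAt_kS ht0 x z).smul_const _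

lemma integrable_of_locOn {ν : Measure F} {v : F → V} {U K : Set F}
    (hv : LocallyIntegrableOn v U ν) (hK : IsCompact K) (hKU : K ⊆ U) :
    Integrable (K.indicator v) ν :=
  (integrable_indicator_iff hK.measurableSet).2
    (hv.integrableOn_compact_subset hKU hK)

/-- the kernel means of a weakly harmonic `v dν` do not depend on the scale -/
theorem WHarm.mean_eq {ν : Measure F} {v : F → V} {U : Set F} (h : WHarm ν v U)
    (hv : LocallyIntegrableOn v U ν) {x : F} {s t : ℝ} (hs : 0 < s) (hst : s ≤ t)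
    (hU : closedBall x t ⊆ U) :
    ∫ z, kS s x z • v z ∂ν = ∫ z, kS t x z • v z ∂ν := by
  set v' : F → V := (closedBall x t).indicator v with hv'
  have hvi : Integrable v' ν := integrable_of_locOn hv (isCompact_closedBall x t) hU
  have hrep : ∀ (k : F → ℝ) (r : ℝ), r ≤ t → (∀ z ∉ closedBall x r, k z = 0) →
      ∫ z, k z • v' z ∂ν = ∫ z, k z • v z ∂ν := by
    intro k r hr hk
    congr 1
    ext z
    by_cases hz : z ∈ closedBall x t
    · rw [hv', indicator_of_mem hz]
    · rw [hk z fun h => hz (closedBall_subset_closedBall hr h), zero_smul, zero_smul]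
  have hder : ∀ r ∈ Icc s t, HasDerivAt (fun s => ∫ z, kS s x z • v' z ∂ν) 0 r := by
    intro r hr
    have hr0 : 0 < r := hs.trans_le hr.1
    have h1 := hasDerivAt_mean hvi x hr0
    have h2 : ∫ z, lS r x z • v' z ∂ν = 0 := by
      rw [hrep _ r hr.2 fun z hz => lS_zero hr0 hz]
      have h3 := h (pS r x) (pS_contDiff r x) (hcs_pS hr0)
        ((tsupport_pS hr0).trans ((closedBall_subset_closedBall hr.2).trans hU))
      simpa only [laplacian_pS hr0] using h3
    rwa [h2] at h1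
  have key := (convex_Icc s t).norm_image_sub_le_of_norm_hasDerivWithin_le
    (f := fun s => ∫ z, kS s x z • v' z ∂ν) (f' := fun _ => (0 : V)) (C := 0)
    (x := s) (y := t) (fun r hr => (hder r hr).hasDerivWithinAt) (fun r _ => by simp)
    ⟨le_rfl, hst⟩ ⟨hst, le_rfl⟩
  rw [zero_mul, norm_le_zero_iff, sub_eq_zero] at key
  rw [hrep _ s hst fun z hz => kS_zero hs hz,
    hrep _ t le_rfl fun z hz => kS_zero (hs.trans_le hst) hz] at key
  exact key.symm

end

end Crest.Agent.R234.Hm512
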