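import Crest.Agent.R234.Hm2_512

/-!
Row 234, VF-HARM (helper512).  Part 3: the Weyl lemma.

`WHarm ν v U` (`v dν` weakly harmonic in the open set `U`) ⟹ `hW ν v U` is `C^∞` and harmonic on `U`
and `v dν = hW dx` on `U` (`WHarm.contDiffOn`, `WHarm.laplacian_eq_zero`, `WHarm.integral_eq`,
`WHarm.ae_eq`).
-/

set_option autoImplicit false
set_option linter.unusedSectionVars false

open MeasureTheory Metric Set Filter Topology InnerProductSpace
open scoped ContDiff NNReal Laplacian

namespace Crest.Agent.R234.Hm512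

open Crest.Agent.R246.H2x622

noncomputable section

variable {F : Type*} [NormedAddCommGroup F] [InnerProductSpace ℝ F] [FiniteDimensional ℝ F]
  [MeasurableSpace F] [BorelSpace F]
variable {V : Type*} [NormedAddCommGroup V] [NormedSpace ℝ V]

/-! ### Total mass of the kernel -/

/-- total mass of `eta` -/
def Sg (F : Type*) [NormedAddCommGroup F] [InnerProductSpace ℝ F] [FiniteDimensional ℝ F]
  [MeasurableSpace F] [BorelSpace F] : ℝ := ∫ y : F, eta y

lemma G1_pos {t : ℝ} (ht : 0 < t) : 0 < G1 t := by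
  have h : G1 t = (Polynomial.X ^ 2 * (1 - Polynomial.derivative (R := ℝ) 1)).eval (t⁻¹) *
      expNegInvGlue t := by
    have h := expNegInvGlue.hasDerivAt_polynomial_eval_inv_mul 1 t
    have h2 : (fun x => Polynomial.eval x⁻¹ 1 * expNegInvGlue x) = G0 := by
      funext x; simp [G0]
    rw [h2] at h
    exact h.deriv
  rw [h]
  have := expNegInvGlue.pos_of_pos ht
  simp only [Polynomial.derivative_one, sub_zero, mul_one, Polynomial.eval_pow, Polynomial.eval_X]
  positivity

lemma integrable_eta' : Integrable (eta : F → ℝ) :=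
  eta_contDiff.continuous.integrable_of_hasCompactSupport
    (HasCompactSupport.intro (isCompact_closedBall (0 : F) 1) fun _ hx => eta_zero hx)

lemma Sg_pos : 0 < Sg F := by
  have hcs : HasCompactSupport (eta : F → ℝ) :=
    HasCompactSupport.intro (isCompact_closedBall (0 : F) 1) fun _ hx => eta_zero hx
  refine eta_contDiff.continuous.integral_pos_of_hasCompactSupport_nonneg_nonzero (x := (0 : F))
    hcs (fun y => eta_nonneg' y) ?_
  unfold eta
  have := G1_pos (t := 1 - ‖(0 : F)‖ ^ 2) (by simp)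
  positivity

lemma two_le_infty : (2 : WithTop ℕ∞) ≤ ∞ := by
  have : ((2 : ℕ∞) : WithTop ℕ∞) ≤ ((⊤ : ℕ∞) : WithTop ℕ∞) := WithTop.coe_le_coe.2 le_top
  exact this

/-- rescaled form of the kernel integral -/
lemma integral_kS_smul (f : F → V) (x : F) {s : ℝ} (hs : 0 < s) :
    ∫ z, kS s x z • f z = ∫ y, eta y • f (x + s • y) := by
  have h1 := Measure.integral_comp_smul volume (fun y : F => eta (s⁻¹ • y) • f (x + y)) s
  have h2 : ∀ y : F, eta (s⁻¹ • s • y) • f (x + s • y) = eta y • f (x + s • y) := by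
    intro y
    rw [smul_smul, inv_mul_cancel₀ hs.ne', one_smul]
  simp only [h2] at h1
  rw [h1, abs_of_nonneg (by positivity)]
  have h3 : ∫ z, kS s x z • f z = ∫ z, kS s x (z + x) • f (z + x) :=
    (integral_add_right_eq_self (fun z => kS s x z • f z) x).symm
  rw [h3, ← integral_smul]
  congr 1
  ext z
  unfold kS
  rw [add_sub_cancel_right, smul_smul, add_comm z x]

lemma integral_kS (x : F) {s : ℝ} (hs : 0 < s) : ∫ z, kS s x z = Sg F := by
  have h := integral_kS_smul (fun _ : F => (1 : ℝ)) x hs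
  simpa [Sg] using h

/-! ### The harmonic representative -/

open Classical in
/-- an admissible radius -/
def rad (U : Set F) (x : F) : ℝ :=
  if h : ∃ r : ℝ, 0 < r ∧ closedBall x r ⊆ U then Classical.choose h else 1

lemma rad_spec {U : Set F} (hU : IsOpen U) {x : F} (hx : x ∈ U) :
    0 < rad U x ∧ closedBall x (rad U x) ⊆ U := by
  have h : ∃ r : ℝ, 0 < r ∧ closedBall x r ⊆ U := nhds_basis_closedBall.mem_iff.1 (hU.mem_nhds hx)
  unfold rad
  rw [dif_pos h]
  exact Classical.choose_spec h

/-- the harmonic representative of `v dν` -/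
def hW (ν : Measure F) (v : F → V) (U : Set F) (x : F) : V :=
  (Sg F)⁻¹ • ∫ z, kS (rad U x) x z • v z ∂ν

lemma hW_eq {ν : Measure F} {v : F → V} {U : Set F} (hU : IsOpen U) (h : WHarm ν v U)
    (hv : LocallyIntegrableOn v U ν) {x : F} {s : ℝ} (hs : 0 < s) (hxs : closedBall x s ⊆ U) :
    hW ν v U x = (Sg F)⁻¹ • ∫ z, kS s x z • v z ∂ν := by
  have hx : x ∈ U := hxs (mem_closedBall_self hs.le)
  obtain ⟨h1, h2⟩ := rad_spec hU hx
  unfold hW
  congr 1
  rcases le_total (rad U x) s with h3 | h3
  · exact h.mean_eq hv h1 h3 hxs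
  · exact (h.mean_eq hv hs h3 h2).symm

/-- the bilinear map used for convolutions -/
def LL (V : Type*) [NormedAddCommGroup V] [NormedSpace ℝ V] : V →L[ℝ] ℝ →L[ℝ] V :=
  (ContinuousLinearMap.lsmul ℝ ℝ).flip

@[simp] lemma LL_apply (v : V) (c : ℝ) : LL V v c = c • v := rfl

open scoped Convolution in
lemma hW_eq_conv {ν : Measure F} {v : F → V} {U : Set F} (hU : IsOpen U) (h : WHarm ν v U)
    (hv : LocallyIntegrableOn v U ν) {x₀ : F} {s : ℝ} (hs : 0 < s)
    (hxs : closedBall x₀ (2 * s) ⊆ U) {x : F} (hx : x ∈ ball x₀ s) :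
    hW ν v U x = (Sg F)⁻¹ • (((closedBall x₀ (2 * s)).indicator v) ⋆[LL V, ν] (kS s 0)) x := by
  have hsub : closedBall x s ⊆ closedBall x₀ (2 * s) := by
    intro z hz
    rw [mem_closedBall] at hz ⊢
    rw [mem_ball] at hx
    linarith [dist_triangle z x x₀]
  rw [hW_eq hU h hv hs (hsub.trans hxs), convolution_def]
  congr 2
  ext z
  rw [LL_apply]
  have hk : kS s 0 (x - z) = kS s x z := by
    rw [kS_symm s x z]
    unfold kS
    rw [sub_zero]
  rw [hk]
  by_cases hz : z ∈ closedBall x₀ (2 * s)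
  · rw [indicator_of_mem hz]
  · rw [kS_zero hs fun h' => hz (hsub h'), zero_smul, zero_smul]

theorem WHarm.contDiffOn {ν : Measure F} {v : F → V} {U : Set F} (h : WHarm ν v U) (hU : IsOpen U)
    (hv : LocallyIntegrableOn v U ν) : ContDiffOn ℝ ∞ (hW ν v U) U := by
  intro x₀ hx₀
  obtain ⟨r, hr, hrU⟩ : ∃ r : ℝ, 0 < r ∧ closedBall x₀ r ⊆ U :=
    nhds_basis_closedBall.mem_iff.1 (hU.mem_nhds hx₀)
  have hs : 0 < r / 2 := by linarith
  have hxs : closedBall x₀ (2 * (r / 2)) ⊆ U := by rwa [mul_div_cancel₀ r two_ne_zero]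
  have hvi := integrable_of_locOn hv (isCompact_closedBall x₀ (2 * (r / 2))) hxs
  have h1 : ContDiff ℝ ∞ (fun x => (Sg F)⁻¹ • convolution
      ((closedBall x₀ (2 * (r / 2))).indicator v) (kS (r / 2) 0) (LL V) ν x) :=
    (HasCompactSupport.contDiff_convolution_right (n := (⊤ : ℕ∞)) (LL V) (hcs_kS hs)
      hvi.locallyIntegrable (kS_contDiff _ _)).const_smul _
  refine (ContDiffAt.congr_of_eventuallyEq h1.contDiffAt ?_).contDiffWithinAt
  filter_upwards [ball_mem_nhds x₀ hs] with x hx
  exact hW_eq_conv hU h hv hs hxs hx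

/-! ### The Laplacian of a convolution -/

lemma fderiv_conv_apply {ν : Measure F} {v : F → V} (hv : Integrable v ν) {g : F → ℝ}
    (hg : ContDiff ℝ ∞ g) (hc : HasCompactSupport g) (x e : F) :
    fderiv ℝ (convolution v g (LL V) ν) x e
      = convolution v (fun y => fderiv ℝ g y e) (LL V) ν x := by
  obtain ⟨B, hB⟩ := (hc.fderiv ℝ).exists_bound_of_continuous (hg.continuous_fderiv (by simp))
  obtain ⟨B0, hB0⟩ := hc.exists_bound_of_continuous hg.continuous
  have hcf : Continuous (fderiv ℝ g) := hg.continuous_fderiv (by simp)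
  have hmeas : ∀ y : F, AEStronglyMeasurable
      (fun t => (fderiv ℝ g (y - t)).smulRight (v t)) ν := by
    intro y
    have h1 : AEStronglyMeasurable (fun t => fderiv ℝ g (y - t)) ν :=
      (hcf.comp (by fun_prop)).aestronglyMeasurable
    have h2 : Continuous fun p : (F →L[ℝ] ℝ) × V => p.1.smulRight p.2 :=
      (ContinuousLinearMap.smulRightL ℝ F V).continuous₂
    exact h2.comp_aestronglyMeasurable (h1.prodMk hv.1)
  have hbd : ∀ y t : F, ‖(fderiv ℝ g (y - t)).smulRight (v t)‖ ≤ B * ‖v t‖ := by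
    intro y t
    rw [ContinuousLinearMap.norm_smulRight_apply]
    exact mul_le_mul_of_nonneg_right (hB _) (norm_nonneg _)
  have hint : Integrable (fun t => (fderiv ℝ g (x - t)).smulRight (v t)) ν :=
    (hv.norm.const_mul B).mono' (hmeas x) (Eventually.of_forall (hbd x))
  have key := hasFDerivAt_integral_of_dominated_of_fderiv_le (μ := ν) (𝕜 := ℝ)
    (F := fun y t => g (y - t) • v t) (x₀ := x)
    (F' := fun y t => (fderiv ℝ g (y - t)).smulRight (v t)) (s := univ)
    (bound := fun t => B * ‖v t‖) univ_mem ?_ ?_ (hmeas x)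
    (Eventually.of_forall fun t y _ => hbd y t) (hv.norm.const_mul B) ?_
  · have h3 : convolution v g (LL V) ν = fun y => ∫ t, g (y - t) • v t ∂ν := rfl
    rw [h3, key.fderiv, ContinuousLinearMap.integral_apply hint, convolution_def]
    rfl
  · exact Eventually.of_forall fun y =>
      ((hg.continuous.comp (by fun_prop : Continuous fun t : F => y - t)).aestronglyMeasurable).smul
        hv.1
  · exact hv.bdd_smul B0 ((hg.continuous.comp
      (by fun_prop : Continuous fun t : F => x - t)).aestronglyMeasurable)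
      (Eventually.of_forall fun t => hB0 _)
  · refine Eventually.of_forall fun t y _ => ?_
    have hd : DifferentiableAt ℝ g (y - t) := (hg.differentiable (by simp)).differentiableAt
    have h4 := (hd.hasFDerivAt.comp y ((hasFDerivAt_id y).sub_const t)).smul_const (v t)
    refine h4.congr_fderiv ?_
    ext e
    simp

lemma contDiff_fderiv_apply {g : F → ℝ} (hg : ContDiff ℝ ∞ g) (e : F) :
    ContDiff ℝ ∞ (fun y => fderiv ℝ g y e) :=
  (hg.fderiv_right (m := ∞) (by simp)).clm_apply contDiff_const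

lemma hcs_fderiv_apply {g : F → ℝ} (hc : HasCompactSupport g) (e : F) :
    HasCompactSupport (fun y => fderiv ℝ g y e) :=
  (hc.fderiv_apply ℝ e)

lemma laplacian_conv {ν : Measure F} {v : F → V} (hv : Integrable v ν) {g : F → ℝ}
    (hg : ContDiff ℝ ∞ g) (hc : HasCompactSupport g) (x : F) :
    Δ (convolution v g (LL V) ν) x = ∫ z, Δ g (x - z) • v z ∂ν := by
  rw [lap_eq_sum]
  set b := stdOrthonormalBasis ℝ F with hb
  have hsm : ContDiff ℝ ∞ (convolution v g (LL V) ν) :=
    HasCompactSupport.contDiff_convolution_right (n := (⊤ : ℕ∞)) (LL V) hc hv.locallyIntegrable hg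
  have h1 : ∀ i, fderiv ℝ (fderiv ℝ (convolution v g (LL V) ν)) x (b i) (b i)
      = ∫ z, (fderiv ℝ (fderiv ℝ g) (x - z) (b i) (b i)) • v z ∂ν := by
    intro i
    have h2 : fderiv ℝ (fun y => fderiv ℝ (convolution v g (LL V) ν) y (b i)) x (b i)
        = fderiv ℝ (fderiv ℝ (convolution v g (LL V) ν)) x (b i) (b i) := by
      have hd : DifferentiableAt ℝ (fderiv ℝ (convolution v g (LL V) ν)) x :=
        ((hsm.fderiv_right (m := ∞) (by simp)).differentiable (by simp)).differentiableAt
      rw [fderiv_clm_apply hd (differentiableAt_const _)]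
      simp
    rw [← h2]
    have h3 : (fun y => fderiv ℝ (convolution v g (LL V) ν) y (b i))
        = convolution v (fun y => fderiv ℝ g y (b i)) (LL V) ν :=
      funext fun y => fderiv_conv_apply hv hg hc y (b i)
    rw [h3, fderiv_conv_apply hv (contDiff_fderiv_apply hg _) (hcs_fderiv_apply hc _),
      convolution_def]
    congr 1
    ext z
    rw [LL_apply]
    congr 1
    have hd : DifferentiableAt ℝ (fderiv ℝ g) (x - z) :=
      ((hg.fderiv_right (m := ∞) (by simp)).differentiable (by simp)).differentiableAt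
    rw [fderiv_clm_apply hd (differentiableAt_const _)]
    simp
  simp only [h1]
  rw [← integral_finsetSum]
  · congr 1
    ext z
    rw [lap_eq_sum, Finset.sum_smul]
  · intro i _
    have hc2 : HasCompactSupport fun y => fderiv ℝ (fderiv ℝ g) y (b i) (b i) := by
      have h4 := ((hc.fderiv ℝ).fderiv ℝ)
      refine HasCompactSupport.intro h4 fun y hy => ?_
      rw [image_eq_zero_of_notMem_tsupport hy]
      simp
    have hcc : Continuous fun y => fderiv ℝ (fderiv ℝ g) y (b i) (b i) := by
      have h5 := ((hg.fderiv_right (m := ∞) (by simp)).fderiv_right (m := ∞) (by simp)).continuous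
      exact (h5.clm_apply continuous_const).clm_apply continuous_const
    obtain ⟨B, hB⟩ := hc2.exists_bound_of_continuous hcc
    refine hv.bdd_smul B (hcc.comp (by fun_prop)).aestronglyMeasurable
      (Eventually.of_forall fun z => hB _)

lemma laplacian_comp_sub {g : F → ℝ} (hg : ContDiff ℝ ∞ g) (x z : F) :
    Δ (fun y => g (x - y)) z = Δ g (x - z) := by
  rw [lap_eq_sum, lap_eq_sum]
  refine Finset.sum_congr rfl fun i _ => ?_
  have hsub : ∀ y : F, HasFDerivAt (fun y : F => x - y) (-(ContinuousLinearMap.id ℝ F)) y :=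
    fun y => (hasFDerivAt_id y).const_sub x
  have h1 : fderiv ℝ (fun y => g (x - y)) = fun y => -(fderiv ℝ g (x - y)) := by
    funext y
    have hd : DifferentiableAt ℝ g (x - y) := (hg.differentiable (by simp)).differentiableAt
    have h0 := (hd.hasFDerivAt.comp y (hsub y)).fderiv
    simp only [Function.comp_def] at h0
    rw [h0]
    ext e
    simp
  rw [h1]
  have hd : DifferentiableAt ℝ (fderiv ℝ g) (x - z) :=
    ((hg.fderiv_right (m := ∞) (by simp)).differentiable (by simp)).differentiableAt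
  have h2 := (hd.hasFDerivAt.comp z (hsub z)).neg
  have h3 : fderiv ℝ (fun y => -(fderiv ℝ g (x - y))) z
      = -((fderiv ℝ (fderiv ℝ g) (x - z)).comp (-(ContinuousLinearMap.id ℝ F))) := h2.fderiv
  rw [h3]
  simp

theorem WHarm.laplacian_eq_zero {ν : Measure F} {v : F → V} {U : Set F} (h : WHarm ν v U)
    (hU : IsOpen U) (hv : LocallyIntegrableOn v U ν) {x₀ : F} (hx₀ : x₀ ∈ U) :
    Δ (hW ν v U) x₀ = 0 := by
  obtain ⟨r, hr, hrU⟩ : ∃ r : ℝ, 0 < r ∧ closedBall x₀ r ⊆ U :=
    nhds_basis_closedBall.mem_iff.1 (hU.mem_nhds hx₀)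
  set s := r / 2 with hsd
  have hs : 0 < s := by positivity
  have hxs : closedBall x₀ (2 * s) ⊆ U := by
    have : 2 * s = r := by rw [hsd]; ring
    rwa [this]
  have hvi := integrable_of_locOn hv (isCompact_closedBall x₀ (2 * s)) hxs
  have h1 : hW ν v U =ᶠ[𝓝 x₀] ((Sg F)⁻¹ • convolution
      ((closedBall x₀ (2 * s)).indicator v) (kS s 0) (LL V) ν) := by
    filter_upwards [ball_mem_nhds x₀ hs] with x hx
    exact hW_eq_conv hU h hv hs hxs hx
  have hsm : ContDiff ℝ ∞ (convolution ((closedBall x₀ (2 * s)).indicator v) (kS s 0) (LL V) ν) :=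
    HasCompactSupport.contDiff_convolution_right (n := (⊤ : ℕ∞)) (LL V) (hcs_kS hs)
      hvi.locallyIntegrable (kS_contDiff _ _)
  rw [(laplacian_congr_nhds h1).eq_of_nhds, laplacian_smul _ (hsm.contDiffAt.of_le two_le_infty),
    laplacian_conv hvi (kS_contDiff _ _) (hcs_kS hs)]
  have h2 : ∀ z, Δ (kS s (0 : F)) (x₀ - z) = Δ (kS s x₀) z := by
    intro z
    have h7 : (fun y => kS s (0 : F) (x₀ - y)) = kS s x₀ := by
      funext y
      rw [kS_symm s x₀ y]
      unfold kS
      rw [sub_zero]
    rw [← laplacian_comp_sub (kS_contDiff _ _), h7]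
  have h3 : ∫ z, Δ (kS s (0 : F)) (x₀ - z) • (closedBall x₀ (2 * s)).indicator v z ∂ν
      = ∫ z, Δ (kS s x₀) z • v z ∂ν := by
    congr 1
    ext z
    rw [h2]
    by_cases hz : z ∈ closedBall x₀ (2 * s)
    · rw [indicator_of_mem hz]
    · have h4 : Δ (kS s x₀) z = 0 := by
        have h5 : kS s x₀ =ᶠ[𝓝 z] fun _ => 0 := by
          have h6 : z ∈ (closedBall x₀ s)ᶜ := fun h' =>
            hz (closedBall_subset_closedBall (by linarith) h')
          filter_upwards [isClosed_closedBall.isOpen_compl.mem_nhds h6] with y hy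
          exact kS_zero hs hy
        rw [(laplacian_congr_nhds h5).eq_of_nhds]
        simp
      rw [h4, zero_smul, zero_smul]
  rw [h3, h (kS s x₀) (kS_contDiff _ _) (hcs_kS hs)
    ((tsupport_kS hs).trans ((closedBall_subset_closedBall (by linarith)).trans hxs)), smul_zero]

end

end Crest.Agent.R234.Hm512
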