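import Crest.Agent.R234.Hm3_512

/-!
Row 234, VF-HARM (helper512).  Part 4: `v dν = hW dx`, mean value property, interior estimates.

* `WHarm.integral_eq`: `∫ φ • v dν = ∫ φ • hW dx` for `φ ∈ C_c(U)`.
* `WHarm.ae_eq` (Weyl lemma for locally integrable functions).
* `wharm_of_laplacian`: classical harmonic functions are weakly harmonic.
* `mean_value`: `h x = Sg⁻¹ ∫ kS s x z • h z dz`.
* `norm_le_integral`, `norm_fderiv_le_integral`: interior estimates.
-/

set_option autoImplicit false
set_option linter.unusedSectionVars false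

open MeasureTheory Metric Set Filter Topology InnerProductSpace
open scoped ContDiff NNReal Laplacian

namespace Crest.Agent.R234.Hm512

open Crest.Agent.R246.H2x622

noncomputable section

variable {F : Type*} [NormedAddCommGroup F] [InnerProductSpace ℝ F] [FiniteDimensional ℝ F]
  [MeasurableSpace F] [BorelSpace F]
variable {V : Type*} [NormedAddCommGroup V] [NormedSpace ℝ V]

/-- mollification of a test function -/
def mS (φ : F → ℝ) (s : ℝ) (z : F) : ℝ := ∫ x, kS s z x * φ x

lemma mS_eq (φ : F → ℝ) {s : ℝ} (hs : 0 < s) (z : F) :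
    mS φ s z = ∫ y : F, eta y * φ (z + s • y) := by
  have := integral_kS_smul φ z hs
  simpa [mS] using this

lemma cont_kS_prod (s : ℝ) : Continuous fun p : F × F => kS s p.1 p.2 := by
  unfold kS
  exact continuous_const.mul (eta_contDiff.continuous.comp (by fun_prop))

lemma tendsto_mS {φ : F → ℝ} (hφ : Continuous φ) (hc : HasCompactSupport φ) (z : F) :
    Tendsto (fun s => mS φ s z) (𝓝[>] 0) (𝓝 (Sg F * φ z)) := by
  obtain ⟨B, hB⟩ := hc.exists_bound_of_continuous hφ
  have h1 : Tendsto (fun s : ℝ => ∫ y : F, eta y * φ (z + s • y)) (𝓝[>] 0)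
      (𝓝 (∫ y : F, eta y * φ z)) := by
    refine tendsto_integral_filter_of_dominated_convergence (fun y : F => eta y * B) ?_ ?_ ?_ ?_
    · exact Eventually.of_forall fun s => (eta_contDiff.continuous.mul
        (hφ.comp (by fun_prop))).aestronglyMeasurable
    · refine Eventually.of_forall fun s => Eventually.of_forall fun y => ?_
      rw [norm_mul, Real.norm_of_nonneg (eta_nonneg' y)]
      exact mul_le_mul_of_nonneg_left (hB _) (eta_nonneg' y)
    · exact integrable_eta'.mul_const B
    · refine Eventually.of_forall fun y => ?_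
      refine tendsto_const_nhds.mul ?_
      have h2 : Tendsto (fun s : ℝ => z + s • y) (𝓝[>] 0) (𝓝 (z + (0 : ℝ) • y)) :=
        ((continuous_const.add (continuous_id.smul continuous_const)).tendsto 0).mono_left
          nhdsWithin_le_nhds
      rw [zero_smul, add_zero] at h2
      exact (hφ.tendsto z).comp h2
  rw [integral_mul_const] at h1
  refine h1.congr' ?_
  filter_upwards [self_mem_nhdsWithin] with s hs
  exact (mS_eq φ hs z).symm

lemma norm_mS_le {φ : F → ℝ} {B : ℝ} (hB : ∀ x, ‖φ x‖ ≤ B) {s : ℝ} (hs : 0 < s) (z : F) :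
    ‖mS φ s z‖ ≤ Sg F * B := by
  rw [mS_eq φ hs]
  have h1 : ‖∫ y : F, eta y * φ (z + s • y)‖ ≤ ∫ y : F, eta y * B := by
    refine norm_integral_le_of_norm_le (integrable_eta'.mul_const B)
      (Eventually.of_forall fun y => ?_)
    rw [norm_mul, Real.norm_of_nonneg (eta_nonneg' y)]
    exact mul_le_mul_of_nonneg_left (hB _) (eta_nonneg' y)
  rwa [integral_mul_const] at h1

/-- `v dν = hW dx` in `U` -/
theorem WHarm.integral_eq {ν : Measure F} [SFinite ν] {v : F → V} {U : Set F} (h : WHarm ν v U)
    (hU : IsOpen U) (hv : LocallyIntegrableOn v U ν) {φ : F → ℝ} (hφ : Continuous φ)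
    (hc : HasCompactSupport φ) (hs : tsupport φ ⊆ U) :
    ∫ x, φ x • v x ∂ν = ∫ x, φ x • hW ν v U x := by
  by_cases hcomp : CompleteSpace V
  swap
  · simp [integral, hcomp]
  obtain ⟨δ, hδ, hδU⟩ := hc.isCompact.exists_cthickening_subset_open hU hs
  set K := cthickening δ (tsupport φ) with hK
  have hKc : IsCompact K := hc.isCompact.cthickening
  have hvi := integrable_of_locOn hv hKc hδU
  obtain ⟨B, hB⟩ := hc.exists_bound_of_continuous hφ
  -- Fubini at scale `s`
  have hfub : ∀ s : ℝ, 0 < s → s ≤ δ →
      ∫ x, φ x • hW ν v U x = (Sg F)⁻¹ • ∫ z, mS φ s z • K.indicator v z ∂ν := by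
    intro s hs0 hsδ
    have h1 : ∀ x, φ x • hW ν v U x
        = (Sg F)⁻¹ • ∫ z, (φ x * kS s x z) • K.indicator v z ∂ν := by
      intro x
      by_cases hx : x ∈ tsupport φ
      · have hsub : closedBall x s ⊆ K :=
          (closedBall_subset_closedBall hsδ).trans (closedBall_subset_cthickening hx δ)
        rw [hW_eq hU h hv hs0 (hsub.trans hδU), smul_comm]
        congr 1
        rw [← integral_smul]
        congr 1
        ext z
        rw [smul_smul]
        by_cases hz : z ∈ K
        · rw [indicator_of_mem hz]
        · rw [kS_zero hs0 fun h' => hz (hsub h'), mul_zero, zero_smul, zero_smul]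
      · rw [image_eq_zero_of_notMem_tsupport hx]
        simp
    simp only [h1]
    rw [integral_smul]
    congr 1
    rw [integral_integral_swap]
    · congr 1
      ext z
      have h2 : ∫ x, (φ x * kS s x z) • K.indicator v z
          = (∫ x, φ x * kS s x z) • K.indicator v z := integral_smul_const _ _
      rw [h2]
      congr 1
      unfold mS
      congr 1
      ext x
      rw [kS_symm s z x, mul_comm]
    · obtain ⟨A, hA⟩ : ∃ A : ℝ, ∀ x z : F, ‖kS s x z‖ ≤ A := by
        have hcs : HasCompactSupport (eta : F → ℝ) :=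
          HasCompactSupport.intro (isCompact_closedBall (0 : F) 1) fun _ hx => eta_zero hx
        obtain ⟨A, hA⟩ := hcs.exists_bound_of_continuous eta_contDiff.continuous
        refine ⟨‖(s ^ Module.finrank ℝ F)⁻¹‖ * A, fun x z => ?_⟩
        unfold kS
        rw [norm_mul]
        exact mul_le_mul_of_nonneg_left (hA _) (norm_nonneg _)
      have h3 : Integrable φ := hφ.integrable_of_hasCompactSupport hc
      have h4 : Integrable (fun p : F × F => φ p.1 • K.indicator v p.2) (volume.prod ν) :=
        h3.smul_prod hvi
      have h5 : Integrable (fun p : F × F => kS s p.1 p.2 • (φ p.1 • K.indicator v p.2))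
          (volume.prod ν) :=
        h4.bdd_smul A (cont_kS_prod s).aestronglyMeasurable
          (Eventually.of_forall fun p => hA p.1 p.2)
      refine h5.congr (Eventually.of_forall fun p => ?_)
      simp only [Function.uncurry, smul_smul]
      rw [mul_comm]
  -- let `s → 0`
  have hlim : Tendsto (fun s : ℝ => (Sg F)⁻¹ • ∫ z, mS φ s z • K.indicator v z ∂ν) (𝓝[>] 0)
      (𝓝 ((Sg F)⁻¹ • ∫ z, (Sg F * φ z) • K.indicator v z ∂ν)) := by
    refine Tendsto.const_smul ?_ _
    refine tendsto_integral_filter_of_dominated_convergence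
      (fun z => Sg F * B * ‖K.indicator v z‖) ?_ ?_ (hvi.norm.const_mul _) ?_
    · filter_upwards [self_mem_nhdsWithin] with s hs0
      have hm : StronglyMeasurable (mS φ s) := by
        unfold mS
        refine StronglyMeasurable.integral_prod_right (f := fun z x : F => kS s z x * φ x)
          ?_
        exact ((cont_kS_prod s).mul (hφ.comp continuous_snd)).stronglyMeasurable
      exact hm.aestronglyMeasurable.smul hvi.1
    · filter_upwards [self_mem_nhdsWithin] with s hs0
      refine Eventually.of_forall fun z => ?_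
      rw [norm_smul]
      exact mul_le_mul_of_nonneg_right (norm_mS_le hB hs0 z) (norm_nonneg _)
    · exact Eventually.of_forall fun z => (tendsto_mS hφ hc z).smul_const _
  have hconst : Tendsto (fun s : ℝ => (Sg F)⁻¹ • ∫ z, mS φ s z • K.indicator v z ∂ν) (𝓝[>] 0)
      (𝓝 (∫ x, φ x • hW ν v U x)) := by
    refine tendsto_const_nhds.congr' ?_
    filter_upwards [Ioc_mem_nhdsGT hδ] with s hs0
    exact hfub s hs0.1 hs0.2
  have h6 := tendsto_nhds_unique hlim hconst
  rw [← h6, ← integral_smul]
  congr 1
  ext z
  rw [smul_smul, ← mul_assoc, inv_mul_cancel₀ Sg_pos.ne', one_mul]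
  by_cases hz : z ∈ K
  · rw [indicator_of_mem hz]
  · have hz' : z ∉ tsupport φ := fun h' => hz (self_subset_cthickening _ h')
    rw [image_eq_zero_of_notMem_tsupport hz', zero_smul, zero_smul]

/-- **Weyl lemma** -/
theorem WHarm.ae_eq [CompleteSpace V] {v : F → V} {U : Set F} (h : WHarm volume v U)
    (hU : IsOpen U) (hv : LocallyIntegrableOn v U) :
    ∀ᵐ x : F, x ∈ U → v x = hW volume v U x := by
  have hcont : ContinuousOn (hW volume v U) U := (h.contDiffOn hU hv).continuousOn
  have hloc : LocallyIntegrableOn (hW volume v U) U := by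
    exact hcont.locallyIntegrableOn hU.measurableSet
  have h1 := hU.ae_eq_zero_of_integral_contDiff_smul_eq_zero (hv.sub hloc) ?_
  · filter_upwards [h1] with x hx hxU
    exact sub_eq_zero.1 (hx hxU)
  · intro g hg hgc hgs
    have hK := hgc.isCompact
    have hi : ∀ w : F → V, LocallyIntegrableOn w U → Integrable (fun x => g x • w x) := by
      intro w hw
      obtain ⟨B, hB⟩ := hgc.exists_bound_of_continuous hg.continuous
      have h2 := (integrable_of_locOn hw hK hgs).bdd_smul B hg.continuous.aestronglyMeasurable
        (Eventually.of_forall hB)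
      refine h2.congr (Eventually.of_forall fun x => ?_)
      change g x • (tsupport g).indicator w x = g x • w x
      by_cases hx : x ∈ tsupport g
      · rw [indicator_of_mem hx]
      · rw [image_eq_zero_of_notMem_tsupport hx, zero_smul, zero_smul]
    have h3 : (fun x => g x • (v - hW volume v U) x)
        = fun x => g x • v x - g x • hW volume v U x := by
      funext x
      simp [smul_sub]
    rw [h3, integral_sub (hi v hv) (hi _ hloc), sub_eq_zero]
    exact h.integral_eq hU hv hg.continuous hgc hgs

end

end Crest.Agent.R234.Hm512
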