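import Crest.Agent.R234.Hm4_512

/-!
Row 234, VF-HARM (helper512).  Part 5: interior estimates for weakly harmonic functions.

* `WHarm.norm_iteratedFDeriv_le`: `‖D^n h x‖ ≤ C_n s^{-m-n} ∫_{closedBall x s} ‖v‖ dν`.
* `WHarm.taylor`: `‖h y - h x - Dh(x)(y-x)‖ ≤ C s^{-m-2} ‖y-x‖² ∫_{closedBall x (3s)} ‖v‖ dν`.
-/

set_option autoImplicit false
set_option linter.unusedSectionVars false

open MeasureTheory Metric Set Filter Topology InnerProductSpace
open scoped ContDiff NNReal Laplacian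

namespace Crest.Agent.R234.Hm512

open Crest.Agent.R246.H2x622

noncomputable section

variable {F : Type*} [NormedAddCommGroup F] [InnerProductSpace ℝ F] [FiniteDimensional ℝ F]
  [MeasurableSpace F] [BorelSpace F]
variable {V : Type*} [NormedAddCommGroup V] [NormedSpace ℝ V]

lemma infty_add_le (n : ℕ) : (∞ : WithTop ℕ∞) + n ≤ ∞ := by exact_mod_cast le_top

lemma contDiff_iter_apply {g : F → ℝ} (hg : ContDiff ℝ ∞ g) (n : ℕ) (m : Fin n → F) :
    ContDiff ℝ ∞ (fun y => iteratedFDeriv ℝ n g y m) := by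
  have h1 : ContDiff ℝ ∞ (iteratedFDeriv ℝ n g) := hg.iteratedFDeriv_right (infty_add_le n)
  exact (ContinuousMultilinearMap.apply ℝ (fun _ : Fin n => F) ℝ m).contDiff.comp h1

lemma hcs_iter_apply {g : F → ℝ} (hc : HasCompactSupport g) (n : ℕ) (m : Fin n → F) :
    HasCompactSupport (fun y => iteratedFDeriv ℝ n g y m) := by
  refine HasCompactSupport.intro (hc.iteratedFDeriv (𝕜 := ℝ) n) fun y hy => ?_
  rw [image_eq_zero_of_notMem_tsupport hy]
  rfl

lemma iter_succ_apply {W : Type*} [NormedAddCommGroup W] [NormedSpace ℝ W] {f : F → W}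
    (hf : ContDiff ℝ ∞ f) (n : ℕ) (y : F) (m : Fin (n + 1) → F) :
    iteratedFDeriv ℝ (n + 1) f y m
      = fderiv ℝ (fun z => iteratedFDeriv ℝ n f z (Fin.tail m)) y (m 0) := by
  rw [iteratedFDeriv_succ_apply_left]
  have h3 : HasFDerivAt (iteratedFDeriv ℝ n f) (fderiv ℝ (iteratedFDeriv ℝ n f) y) y :=
    (((hf.iteratedFDeriv_right (infty_add_le n)).differentiable
      (by simp)).differentiableAt).hasFDerivAt
  have h4 := ((ContinuousMultilinearMap.apply ℝ (fun _ : Fin n => F) W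
    (Fin.tail m)).hasFDerivAt.comp y h3).fderiv
  have h5 : (fun z => iteratedFDeriv ℝ n f z (Fin.tail m))
      = (ContinuousMultilinearMap.apply ℝ (fun _ : Fin n => F) W (Fin.tail m)) ∘
        (iteratedFDeriv ℝ n f) := rfl
  rw [h5, h4]
  rfl

lemma iteratedFDeriv_conv {ν : Measure F} {v : F → V} (hv : Integrable v ν) {g : F → ℝ}
    (hg : ContDiff ℝ ∞ g) (hc : HasCompactSupport g) (n : ℕ) (x : F) (m : Fin n → F) :
    iteratedFDeriv ℝ n (convolution v g (LL V) ν) x m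
      = convolution v (fun y => iteratedFDeriv ℝ n g y m) (LL V) ν x := by
  induction n generalizing x with
  | zero => simp
  | succ n ih =>
    have hsm : ContDiff ℝ ∞ (convolution v g (LL V) ν) :=
      HasCompactSupport.contDiff_convolution_right (n := (⊤ : ℕ∞)) (LL V) hc hv.locallyIntegrable hg
    rw [iter_succ_apply hsm]
    have h6 : (fun z => iteratedFDeriv ℝ n (convolution v g (LL V) ν) z (Fin.tail m))
        = convolution v (fun y => iteratedFDeriv ℝ n g y (Fin.tail m)) (LL V) ν :=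
      funext fun z => ih z (Fin.tail m)
    rw [h6, fderiv_conv_apply hv (contDiff_iter_apply hg n _) (hcs_iter_apply hc n _)]
    congr 1
    funext y
    exact (iter_succ_apply hg n y m).symm

/-- bounds for the derivatives of `eta` -/
lemma exists_eta_bound (n : ℕ) : ∃ C : ℝ, 0 < C ∧ ∀ y : F, ‖iteratedFDeriv ℝ n (eta : F → ℝ) y‖ ≤ C := by
  have hcs : HasCompactSupport (eta : F → ℝ) :=
    HasCompactSupport.intro (isCompact_closedBall (0 : F) 1) fun _ hx => eta_zero hx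
  obtain ⟨C, hC⟩ := (hcs.iteratedFDeriv (𝕜 := ℝ) n).exists_bound_of_continuous
    (eta_contDiff.continuous_iteratedFDeriv (by exact_mod_cast le_top))
  exact ⟨max C 1, by positivity, fun y => (hC y).trans (le_max_left _ _)⟩

/-- bound for the `n`-th derivative of `eta` -/
def Cη (F : Type*) [NormedAddCommGroup F] [InnerProductSpace ℝ F] [FiniteDimensional ℝ F]
  [MeasurableSpace F] [BorelSpace F] (n : ℕ) : ℝ := Classical.choose (exists_eta_bound (F := F) n)

lemma Cη_pos (n : ℕ) : 0 < Cη F n := (Classical.choose_spec (exists_eta_bound (F := F) n)).1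

lemma norm_iter_eta_le (n : ℕ) (y : F) : ‖iteratedFDeriv ℝ n (eta : F → ℝ) y‖ ≤ Cη F n :=
  (Classical.choose_spec (exists_eta_bound (F := F) n)).2 y

lemma norm_iter_kS_le (n : ℕ) {s : ℝ} (hs : 0 < s) (y : F) :
    ‖iteratedFDeriv ℝ n (kS s (0 : F)) y‖ ≤ Cη F n * (s ^ (Module.finrank ℝ F + n))⁻¹ := by
  have h1 : kS s (0 : F) = fun z => (s ^ Module.finrank ℝ F)⁻¹ • (eta (s⁻¹ • z)) := by
    funext z; unfold kS; rw [sub_zero, smul_eq_mul]
  have hsm : ContDiff ℝ n (fun z : F => eta (s⁻¹ • z)) :=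
    (eta_contDiff.comp (contDiff_const.smul contDiff_id)).of_le (by exact_mod_cast le_top)
  have h2 : iteratedFDeriv ℝ n (kS s (0 : F)) y
      = (s ^ Module.finrank ℝ F)⁻¹ • iteratedFDeriv ℝ n (fun z : F => eta (s⁻¹ • z)) y := by
    rw [h1]
    exact iteratedFDeriv_const_smul_apply' hsm.contDiffAt
  have h3 : iteratedFDeriv ℝ n (fun z : F => eta (s⁻¹ • z)) y
      = (s⁻¹) ^ n • iteratedFDeriv ℝ n (eta : F → ℝ) (s⁻¹ • y) := by
    have := iteratedFDeriv_comp_const_smul (f := (eta : F → ℝ)) (i := n) s⁻¹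
      (eta_contDiff.of_le (by exact_mod_cast le_top))
    exact congrFun this y
  rw [h2, h3, norm_smul, norm_smul, norm_pow, norm_inv, norm_inv, norm_pow,
    Real.norm_of_nonneg hs.le]
  have h4 := norm_iter_eta_le n (s⁻¹ • y)
  calc (s ^ Module.finrank ℝ F)⁻¹ * (s⁻¹ ^ n * ‖iteratedFDeriv ℝ n (eta : F → ℝ) (s⁻¹ • y)‖)
      ≤ (s ^ Module.finrank ℝ F)⁻¹ * (s⁻¹ ^ n * Cη F n) := by gcongr
    _ = Cη F n * (s ^ (Module.finrank ℝ F + n))⁻¹ := by
      rw [pow_add, mul_inv, inv_pow]; ring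

lemma norm_iter_conv_le {ν : Measure F} {v : F → V} (hv : Integrable v ν) {g : F → ℝ}
    (hg : ContDiff ℝ ∞ g) (hc : HasCompactSupport g) (n : ℕ) {B : ℝ}
    (hB : ∀ y, ‖iteratedFDeriv ℝ n g y‖ ≤ B) (x : F) :
    ‖iteratedFDeriv ℝ n (convolution v g (LL V) ν) x‖ ≤ B * ∫ z, ‖v z‖ ∂ν := by
  have hB0 : 0 ≤ B := (norm_nonneg _).trans (hB 0)
  refine ContinuousMultilinearMap.opNorm_le_bound
    (mul_nonneg hB0 (integral_nonneg fun _ => norm_nonneg _)) fun m => ?_
  rw [iteratedFDeriv_conv hv hg hc, convolution_def]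
  have h1 : ‖∫ t, LL V (v t) (iteratedFDeriv ℝ n g (x - t) m) ∂ν‖
      ≤ ∫ t, (B * ∏ i, ‖m i‖) * ‖v t‖ ∂ν := by
    refine norm_integral_le_of_norm_le (hv.norm.const_mul _) (Eventually.of_forall fun t => ?_)
    rw [LL_apply, norm_smul]
    refine mul_le_mul_of_nonneg_right ?_ (norm_nonneg _)
    exact ((iteratedFDeriv ℝ n g (x - t)).le_opNorm m).trans
      (mul_le_mul_of_nonneg_right (hB _) (Finset.prod_nonneg fun _ _ => norm_nonneg _))
  refine h1.trans (le_of_eq ?_)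
  rw [integral_const_mul]
  ring

/-- interior estimate, on the ball `ball x₀ s` -/
theorem WHarm.norm_iteratedFDeriv_le {ν : Measure F} {v : F → V} {U : Set F} (h : WHarm ν v U)
    (hU : IsOpen U) (hv : LocallyIntegrableOn v U ν) (n : ℕ) {x₀ : F} {s : ℝ} (hs : 0 < s)
    (hxs : closedBall x₀ (2 * s) ⊆ U) {x : F} (hx : x ∈ ball x₀ s) :
    ‖iteratedFDeriv ℝ n (hW ν v U) x‖
      ≤ (Sg F)⁻¹ * Cη F n * (s ^ (Module.finrank ℝ F + n))⁻¹ *
        ∫ z in closedBall x₀ (2 * s), ‖v z‖ ∂ν := by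
  have hvi := integrable_of_locOn hv (isCompact_closedBall x₀ (2 * s)) hxs
  set T := convolution ((closedBall x₀ (2 * s)).indicator v) (kS s 0) (LL V) ν with hT
  have h1 : hW ν v U =ᶠ[𝓝 x] ((Sg F)⁻¹ • T) := by
    filter_upwards [isOpen_ball.mem_nhds hx] with y hy
    exact hW_eq_conv hU h hv hs hxs hy
  have hsm : ContDiff ℝ ∞ T :=
    HasCompactSupport.contDiff_convolution_right (n := (⊤ : ℕ∞)) (LL V) (hcs_kS hs)
      hvi.locallyIntegrable (kS_contDiff _ _)
  rw [(h1.iteratedFDeriv ℝ n).eq_of_nhds]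
  have h2 : iteratedFDeriv ℝ n ((Sg F)⁻¹ • T) x = (Sg F)⁻¹ • iteratedFDeriv ℝ n T x :=
    iteratedFDeriv_const_smul_apply (hsm.contDiffAt.of_le (by exact_mod_cast le_top))
  rw [h2, norm_smul, norm_inv, Real.norm_of_nonneg Sg_pos.le]
  have h3 := norm_iter_conv_le hvi (kS_contDiff s (0 : F)) (hcs_kS hs) n (norm_iter_kS_le n hs) x
  have h4 : ∫ z, ‖(closedBall x₀ (2 * s)).indicator v z‖ ∂ν
      = ∫ z in closedBall x₀ (2 * s), ‖v z‖ ∂ν := by
    rw [← integral_indicator isClosed_closedBall.measurableSet]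
    congr 1
    funext z
    by_cases hz : z ∈ closedBall x₀ (2 * s)
    · rw [indicator_of_mem hz, indicator_of_mem hz]
    · rw [indicator_of_notMem hz, indicator_of_notMem hz, norm_zero]
  rw [h4] at h3
  have hS := Sg_pos (F := F)
  calc (Sg F)⁻¹ * ‖iteratedFDeriv ℝ n T x‖
      ≤ (Sg F)⁻¹ * (Cη F n * (s ^ (Module.finrank ℝ F + n))⁻¹ *
        ∫ z in closedBall x₀ (2 * s), ‖v z‖ ∂ν) := by
        exact mul_le_mul_of_nonneg_left h3 (inv_nonneg.2 hS.le)
    _ = _ := by ring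

/-- Taylor estimate -/
theorem WHarm.taylor {ν : Measure F} {v : F → V} {U : Set F} (h : WHarm ν v U)
    (hU : IsOpen U) (hv : LocallyIntegrableOn v U ν) {x : F} {s : ℝ} (hs : 0 < s)
    (hxs : closedBall x (2 * s) ⊆ U) {y : F} (hy : y ∈ ball x s) :
    ‖hW ν v U y - hW ν v U x - fderiv ℝ (hW ν v U) x (y - x)‖
      ≤ (Sg F)⁻¹ * Cη F 2 * (s ^ (Module.finrank ℝ F + 2))⁻¹ *
        (∫ z in closedBall x (2 * s), ‖v z‖ ∂ν) * ‖y - x‖ ^ 2 := by
  set f := hW ν v U with hf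
  set M := (Sg F)⁻¹ * Cη F 2 * (s ^ (Module.finrank ℝ F + 2))⁻¹ *
        (∫ z in closedBall x (2 * s), ‖v z‖ ∂ν) with hM
  have hsub : ball x s ⊆ U := (ball_subset_closedBall.trans
    (closedBall_subset_closedBall (by linarith))).trans hxs
  have hfs : ContDiffOn ℝ ∞ f (ball x s) := (h.contDiffOn hU hv).mono hsub
  have hfat : ∀ z ∈ ball x s, ContDiffAt ℝ ∞ f z := fun z hz =>
    hfs.contDiffAt (isOpen_ball.mem_nhds hz)
  have hd : ∀ z ∈ ball x s, HasFDerivAt f (fderiv ℝ f z) z := fun z hz =>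
    ((hfat z hz).differentiableAt (by simp)).hasFDerivAt
  have hd2 : ∀ z ∈ ball x s, HasFDerivAt (fderiv ℝ f) (fderiv ℝ (fderiv ℝ f) z) z := fun z hz =>
    (((hfat z hz).fderiv_right (m := ∞) (by simp)).differentiableAt (by simp)).hasFDerivAt
  have hb2 : ∀ z ∈ ball x s, ‖fderiv ℝ (fderiv ℝ f) z‖ ≤ M := by
    intro z hz
    have h1 := h.norm_iteratedFDeriv_le hU hv 2 hs hxs hz
    rw [← norm_iteratedFDeriv_fderiv, ← norm_iteratedFDeriv_fderiv, norm_iteratedFDeriv_zero] at h1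
    exact h1
  -- gradient estimate
  have hM0 : 0 ≤ M := by
    have h1 := Sg_pos (F := F)
    have h2 := Cη_pos (F := F) 2
    have h3 : 0 ≤ ∫ z in closedBall x (2 * s), ‖v z‖ ∂ν := integral_nonneg fun _ => norm_nonneg _
    rw [hM]
    positivity
  have hg : ∀ z ∈ ball x s, ‖fderiv ℝ f z - fderiv ℝ f x‖ ≤ M * ‖z - x‖ := by
    intro z hz
    exact (convex_ball x s).norm_image_sub_le_of_norm_hasFDerivWithin_le
      (fun w hw => (hd2 w hw).hasFDerivWithinAt) hb2 (mem_ball_self hs) hz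
  have hxy : ∀ z ∈ closedBall x ‖y - x‖, z ∈ ball x s := by
    intro z hz
    rw [mem_closedBall] at hz
    rw [mem_ball] at hy ⊢
    rw [← dist_eq_norm] at hz
    linarith
  have key := (convex_closedBall x ‖y - x‖).norm_image_sub_le_of_norm_hasFDerivWithin_le
    (f := fun z => f z - fderiv ℝ f x z) (f' := fun z => fderiv ℝ f z - fderiv ℝ f x)
    (C := M * ‖y - x‖) (x := x) (y := y)
    (fun z hz => ((hd z (hxy z hz)).sub (fderiv ℝ f x).hasFDerivAt).hasFDerivWithinAt)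
    (fun z hz => (hg z (hxy z hz)).trans (mul_le_mul_of_nonneg_left (by
      rw [← dist_eq_norm]; exact hz) hM0))
    (mem_closedBall_self (norm_nonneg _)) (by rw [mem_closedBall, dist_eq_norm])
  have h5 : f y - fderiv ℝ f x y - (f x - fderiv ℝ f x x) = f y - f x - fderiv ℝ f x (y - x) := by
    rw [map_sub]; abel
  rw [h5] at key
  refine key.trans (le_of_eq ?_)
  ring

end

end Crest.Agent.R234.Hm512
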