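import Mathlib

/-!
# Hole lemma (5): abstract covering argument

`e` = tilt energy, `eL` = tilt energy in the directions of `L`, `q` = quartic energy
(all pushed to the base).  Around a point `x` the radius used is the LAST radius `R ≤ s` with
`ε R ^ m ≤ e (B_R x)`; above it doubling is automatic.
-/

open MeasureTheory Metric Set
open scoped ENNReal

namespace Crest.Agent.R234.Hol_746

variable {X : Type*} [PseudoMetricSpace X] [MeasurableSpace X]

/-- Last radius. -/
theorem exists_last (e : Measure X) [IsFiniteMeasure e] (m : ℕ) (x : X) {s ε : ℝ}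
    (hε : 0 < ε) (h : ∃ r, 0 < r ∧ r ≤ s ∧ ε * r ^ m ≤ e.real (ball x r)) :
    ∃ R, 0 < R ∧ R ≤ s ∧ ε * R ^ m ≤ e.real (ball x R) ∧
      ∀ r, R < r → r ≤ s → e.real (ball x r) < ε * r ^ m := by
  classical
  set S : Set ℝ := {r | 0 < r ∧ r ≤ s ∧ ε * r ^ m ≤ e.real (ball x r)} with hS
  obtain ⟨r0, hr0, hr0s, hr0e⟩ := h
  have hne : S.Nonempty := ⟨r0, hr0, hr0s, hr0e⟩
  have hbdd : BddAbove S := ⟨s, fun r hr => hr.2.1⟩
  have hR0 : r0 ≤ sSup S := le_csSup hbdd ⟨hr0, hr0s, hr0e⟩
  have hRpos : 0 < sSup S := lt_of_lt_of_le hr0 hR0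
  have hRs : sSup S ≤ s := csSup_le hne fun r hr => hr.2.1
  refine ⟨sSup S, hRpos, hRs, ?_, ?_⟩
  · by_contra hcon
    push Not at hcon
    have hcont : ContinuousAt (fun r : ℝ => ε * r ^ m) (sSup S) := by fun_prop
    have hev := hcont.eventually (lt_mem_nhds hcon)
    obtain ⟨δ, hδ, hball⟩ := Metric.eventually_nhds_iff.1 hev
    set R' := sSup S - min (δ / 2) (sSup S / 2) with hR'
    have hmin : 0 < min (δ / 2) (sSup S / 2) := by positivity
    have hR'lt : R' < sSup S := by linarith
    have hR'pos : 0 < R' := by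
      have := min_le_right (δ / 2) (sSup S / 2)
      linarith
    have hd : dist R' (sSup S) < δ := by
      rw [Real.dist_eq, abs_sub_comm, abs_of_pos (by linarith)]
      have := min_le_left (δ / 2) (sSup S / 2)
      linarith
    have h1 := hball hd
    obtain ⟨r, hrS, hr⟩ := exists_lt_of_lt_csSup hne hR'lt
    have h2 : ε * R' ^ m ≤ ε * r ^ m := by gcongr
    have h3 : e.real (ball x r) ≤ e.real (ball x (sSup S)) :=
      measureReal_mono (ball_subset_ball (le_csSup hbdd hrS))
    have := hrS.2.2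
    linarith
  · intro r hr hrs
    by_contra hcon
    push Not at hcon
    exact absurd (le_csSup hbdd (show r ∈ S from ⟨hRpos.trans hr, hrs, hcon⟩)) (not_le.2 hr)

variable [OpensMeasurableSpace X] [SecondCountableTopology X]

/-- Vitali summation: a local inequality at every point of `A` sums up. -/
theorem vit (ν₁ ν₂ : Measure X) (A Ω : Set X) (ρ : X → ℝ) (c : ℝ≥0∞) {S : ℝ}
    (hρ : ∀ x ∈ A, 0 < ρ x) (hρS : ∀ x ∈ A, ρ x ≤ S)
    (hsub : ∀ x ∈ A, ball x (ρ x) ⊆ Ω)
    (hloc : ∀ x ∈ A, ν₁ (ball x (6 * ρ x)) ≤ c * ν₂ (ball x (ρ x))) :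
    ν₁ A ≤ c * ν₂ Ω := by
  obtain ⟨u, huA, hdisj, hcov⟩ :=
    Vitali.exists_disjoint_subfamily_covering_enlargement_closedBall A (fun x => x) ρ S hρS 5
      (by norm_num)
  have hdisj' : u.PairwiseDisjoint fun x => ball x (ρ x) :=
    hdisj.mono fun x => ball_subset_closedBall
  have hcount : u.Countable :=
    hdisj'.countable_of_isOpen (fun x _ => isOpen_ball)
      (fun x hx => nonempty_ball.2 (hρ x (huA hx)))
  have hAsub : A ⊆ ⋃ x ∈ u, ball x (6 * ρ x) := by
    intro a ha
    obtain ⟨b, hb, hab⟩ := hcov a ha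
    refine mem_iUnion₂.2 ⟨b, hb, ?_⟩
    have h1 : a ∈ closedBall b (5 * ρ b) := hab (mem_closedBall_self (hρ a ha).le)
    have h2 := hρ b (huA hb)
    rw [mem_closedBall] at h1
    rw [mem_ball]
    linarith
  calc ν₁ A ≤ ν₁ (⋃ x ∈ u, ball x (6 * ρ x)) := measure_mono hAsub
    _ ≤ ∑' x : u, ν₁ (ball (x : X) (6 * ρ x)) := by
        have := hcount.to_subtype
        rw [biUnion_eq_iUnion]
        exact measure_iUnion_le _
    _ ≤ ∑' x : u, c * ν₂ (ball (x : X) (ρ x)) :=
        ENNReal.tsum_le_tsum fun x => hloc x (huA x.2)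
    _ = c * ∑' x : u, ν₂ (ball (x : X) (ρ x)) := ENNReal.tsum_mul_left
    _ = c * ν₂ (⋃ x ∈ u, ball x (ρ x)) := by
        rw [measure_biUnion hcount hdisj' fun x _ => measurableSet_ball]
    _ ≤ c * ν₂ Ω := by
        gcongr
        exact iUnion₂_subset fun x hx => hsub x (huA hx)

/-- The data of the hole lemma (constants frozen). -/
structure Data (m : ℕ) (e eL q : Measure X) (x0 : X) (s : ℝ)
    (CB C1 CD κ σ ω ε M K dA β : ℝ) : Prop where
  two_le : 2 ≤ m
  s_pos : 0 < s
  CB_nn : 0 ≤ CB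
  C1_nn : 0 ≤ C1
  CD_nn : 0 ≤ CD
  κ_nn : 0 ≤ κ
  σ_pos : 0 < σ
  ω_pos : 0 < ω
  ε_pos : 0 < ε
  M_pos : 1 ≤ M
  hεM : ε * (ω * M) ^ 2 = 1
  K_big : 13 ^ m < K * ω ^ 2
  hεσ : 13 ^ m * ε < σ ^ 2
  β_pos : 0 < β
  β_small : β * ε * (2 * M) ^ m ≤ dA
  qe : ∀ x r, q.real (ball x r) ≤ C1 * e.real (ball x r)
  LOG : ∀ y t, 0 < t → y ∈ ball x0 (3 / 2 * s) → 2 * M * t ≤ s / 2 →
    (∀ r, t < r → r ≤ s / 2 → e.real (ball y r) < σ ^ 2 * r ^ m) →
    σ ^ 2 * t ^ m ≤ e.real (ball y t) → eL.real (ball y (2 * M * t)) ≤ dA * t ^ m →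
    K * M ^ (m - 2) * t ^ m ≤ e.real (ball y (M * t))
  DV : ∀ y r h, 0 < h → h ≤ r → ball y (3 * r) ⊆ ball x0 (3 / 2 * s) → 3 * r ≤ s / 2 →
    (∀ y' ∈ ball y (2 * r), ∀ t, h ≤ t → t ≤ s / 2 → e.real (ball y' t) ≤ σ ^ 2 * t ^ m) →
    q.real (ball y r) ≤ CB * ((h / r) * √(e.real (ball y (2 * r)) * r ^ m) +
      σ * e.real (ball y (2 * r))) + κ * r ^ m
  LD : q {x | x ∈ ball x0 s ∧ ∀ r, 0 < r → r ≤ s → e.real (ball x r) < ε * r ^ m} ≤
    ENNReal.ofReal (CD * ε * e.real (ball x0 (2 * s)))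
  TOP : e.real (ball x0 (2 * s)) < ε * (s / (6 * (2 * M + 12))) ^ m

omit [OpensMeasurableSpace X] [SecondCountableTopology X] in
/-- The local estimate at a good point. -/
theorem Data.good {m : ℕ} {e eL q : Measure X} [IsFiniteMeasure e] [IsFiniteMeasure eL]
    [IsFiniteMeasure q] {x0 : X} {s CB C1 CD κ σ ω ε M K dA β : ℝ}
    (D : Data m e eL q x0 s CB C1 CD κ σ ω ε M K dA β) {x : X} (hx : x ∈ ball x0 s) {R : ℝ}
    (hR : 0 < R) (hRs' : 6 * (2 * M + 12) * R ≤ s) (hlow : ε * R ^ m ≤ e.real (ball x R))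
    (hup : ∀ r, R < r → r ≤ s → e.real (ball x r) < ε * r ^ m)
    (hgood : eL.real (ball x ((2 * M + 12) * R)) ≤ β * e.real (ball x R)) :
    q.real (ball x (6 * R)) ≤
      (CB * (9 ^ m * ω + 12 ^ m * σ) + κ * 6 ^ m / ε) * e.real (ball x R) := by
  have hε := D.ε_pos
  have hM := D.M_pos
  have hω := D.ω_pos
  have hσ := D.σ_pos
  have hM0 : 0 < M := by linarith
  have hMR : R ≤ M * R := by nlinarith
  have hRs : 84 * R ≤ s := by nlinarith
  have hMRs : 12 * (M * R) + 72 * R ≤ s := by nlinarith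
  have hxd : dist x x0 < s := hx
  have hsub : ∀ t, t ≤ s → ball x t ⊆ ball x0 (2 * s) := fun t ht => by
    apply ball_subset_ball'
    linarith
  set h := R / M with hh
  have hh0 : 0 < h := by positivity
  have hMh : M * h = R := by rw [hh]; field_simp
  have h2Mh : 2 * M * h = 2 * R := by rw [mul_assoc, hMh]
  have hhR : h ≤ R := by
    rw [hh, div_le_iff₀ hM0]
    nlinarith
  have heR : 0 < e.real (ball x R) := lt_of_lt_of_le (by positivity) hlow
  -- no tips
  have hnotip : ∀ y' ∈ ball x (2 * (6 * R)), ∀ t, h ≤ t → t ≤ s / 2 →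
      e.real (ball y' t) ≤ σ ^ 2 * t ^ m := by
    intro y' hy' t0 ht0 ht0s
    by_contra hcon
    push Not at hcon
    have hy'd : dist y' x < 12 * R := by
      have := mem_ball.1 hy'
      linarith
    obtain ⟨t, htpos, hts, htlow, htup⟩ := exists_last e m y' (s := s / 2) (ε := σ ^ 2)
      (by positivity) ⟨t0, hh0.trans_le ht0, ht0s, hcon.le⟩
    have htt0 : t0 ≤ t := by
      by_contra hc
      push Not at hc
      exact absurd (htup t0 hc ht0s) (not_lt.2 hcon.le)
    have hht : h ≤ t := ht0.trans htt0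
    have hbig : ∀ r, R ≤ r → r ≤ s / 2 → e.real (ball y' r) ≤ ε * (13 * r) ^ m := by
      intro r hr1 hr2
      calc e.real (ball y' r) ≤ e.real (ball x (r + 12 * R)) := by
            refine measureReal_mono (ball_subset_ball' ?_) (measure_ne_top _ _)
            linarith
        _ ≤ ε * (r + 12 * R) ^ m := (hup _ (by linarith) (by linarith)).le
        _ ≤ ε * (13 * r) ^ m :=
            mul_le_mul_of_nonneg_left (pow_le_pow_left₀ (by linarith) (by linarith) m) hε.le
    have htR : t < R := by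
      by_contra hc
      push Not at hc
      have h1 := hbig t hc hts
      have h2 : ε * (13 * t) ^ m = (13 ^ m * ε) * t ^ m := by rw [mul_pow]; ring
      have h3 : (13 ^ m * ε) * t ^ m < σ ^ 2 * t ^ m :=
        mul_lt_mul_of_pos_right D.hεσ (by positivity)
      linarith
    have hMtR : M * t ≤ M * R := mul_le_mul_of_nonneg_left htR.le hM0.le
    have hs1 : ball y' (2 * M * t) ⊆ ball x ((2 * M + 12) * R) := by
      apply ball_subset_ball'
      nlinarith
    have heL : eL.real (ball y' (2 * M * t)) ≤ dA * t ^ m := by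
      calc eL.real (ball y' (2 * M * t)) ≤ eL.real (ball x ((2 * M + 12) * R)) :=
            measureReal_mono hs1
        _ ≤ β * e.real (ball x R) := hgood
        _ ≤ β * e.real (ball x (2 * R)) := by
            have := D.β_pos
            have := measureReal_mono (μ := e) (ball_subset_ball (x := x) (show R ≤ 2 * R by linarith))
            gcongr
        _ ≤ β * (ε * (2 * R) ^ m) := by
            have := D.β_pos
            have := (hup (2 * R) (by linarith) (by linarith)).le
            gcongr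
        _ = β * ε * (2 * M) ^ m * h ^ m := by
            rw [← hMh]; ring
        _ ≤ dA * h ^ m := by
            have := D.β_small
            gcongr
        _ ≤ dA * t ^ m := by
            have h1 := D.β_small
            have h2 : 0 ≤ β * ε * (2 * M) ^ m := by
              have := D.β_pos
              positivity
            have h3 : h ^ m ≤ t ^ m := pow_le_pow_left₀ hh0.le hht m
            exact mul_le_mul_of_nonneg_left h3 (h2.trans h1)
    have h1 := D.LOG y' t htpos (by
      rw [mem_ball]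
      have := dist_triangle y' x x0
      linarith) (by nlinarith) htup htlow heL
    have hMt : R ≤ M * t := by rw [← hMh]; gcongr
    have h2 : e.real (ball y' (M * t)) ≤ ε * (13 * (M * t)) ^ m := hbig _ hMt (by linarith)
    obtain ⟨k, hk⟩ := Nat.exists_eq_add_of_le D.two_le
    have hMm : M ^ m = M ^ 2 * M ^ (m - 2) := by
      rw [← pow_add]; congr 1; omega
    have h4 : ε * M ^ 2 * ω ^ 2 = 1 := by rw [← D.hεM]; ring
    have htm : 0 < t ^ m := by positivity
    have hMm2 : 0 < M ^ (m - 2) := by positivity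
    have h5 : K * (M ^ (m - 2) * t ^ m) ≤ (ε * M ^ 2) * 13 ^ m * (M ^ (m - 2) * t ^ m) := by
      calc K * (M ^ (m - 2) * t ^ m) = K * M ^ (m - 2) * t ^ m := by ring
        _ ≤ ε * (13 * (M * t)) ^ m := h1.trans h2
        _ = _ := by rw [mul_pow, mul_pow, hMm]; ring
    have h6 : K ≤ (ε * M ^ 2) * 13 ^ m := le_of_mul_le_mul_right h5 (by positivity)
    have h7 : K * ω ^ 2 ≤ 13 ^ m := by
      calc K * ω ^ 2 ≤ (ε * M ^ 2) * 13 ^ m * ω ^ 2 := by gcongr
        _ = (ε * M ^ 2 * ω ^ 2) * 13 ^ m := by ring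
        _ = 13 ^ m := by rw [h4, one_mul]
    have := D.K_big
    linarith
  have hxs : ball x (3 * (6 * R)) ⊆ ball x0 (3 / 2 * s) := by
    apply ball_subset_ball'
    linarith
  have hDV := D.DV x (6 * R) h hh0 (by linarith) hxs (by linarith) hnotip
  have h12 : 2 * (6 * R) = 12 * R := by ring
  rw [h12] at hDV
  have he12 : e.real (ball x (12 * R)) ≤ 12 ^ m * e.real (ball x R) := by
    calc e.real (ball x (12 * R)) ≤ ε * (12 * R) ^ m := (hup _ (by linarith) (by linarith)).le
      _ = 12 ^ m * (ε * R ^ m) := by rw [mul_pow]; ring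
      _ ≤ _ := by gcongr
  have hsq : (h / (6 * R)) * √(e.real (ball x (12 * R)) * (6 * R) ^ m) ≤
      9 ^ m * ω * e.real (ball x R) := by
    have hle : e.real (ball x (12 * R)) * (6 * R) ^ m ≤
        (9 ^ m * (ω * M) * e.real (ball x R)) ^ 2 := by
      have hεi : (ω * M) ^ 2 * ε = 1 := by rw [mul_comm]; exact D.hεM
      have hRm : R ^ m ≤ (ω * M) ^ 2 * e.real (ball x R) := by
        calc R ^ m = (ω * M) ^ 2 * (ε * R ^ m) := by rw [← mul_assoc, hεi, one_mul]
          _ ≤ _ := by gcongr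
      calc e.real (ball x (12 * R)) * (6 * R) ^ m
          ≤ (12 ^ m * e.real (ball x R)) * (6 ^ m * R ^ m) := by
            rw [mul_pow]; gcongr
        _ ≤ (12 ^ m * e.real (ball x R)) * (6 ^ m * ((ω * M) ^ 2 * e.real (ball x R))) := by
            gcongr
        _ = 72 ^ m * ((ω * M) * e.real (ball x R)) ^ 2 := by
            have h72 : (72 : ℝ) ^ m = 12 ^ m * 6 ^ m := by rw [← mul_pow]; norm_num
            rw [h72]; ring
        _ ≤ 81 ^ m * ((ω * M) * e.real (ball x R)) ^ 2 := by
            gcongr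
            norm_num
        _ = _ := by
            have h81 : (81 : ℝ) ^ m = (9 ^ m) ^ 2 := by
              rw [← pow_mul, mul_comm m 2, pow_mul]; norm_num
            rw [h81]; ring
    have hs := Real.sqrt_le_sqrt hle
    rw [Real.sqrt_sq (by positivity)] at hs
    have hfrac : h / (6 * R) ≤ 1 / M := by
      rw [hh, div_le_div_iff₀ (by positivity) hM0]
      have : R / M * M = R := by field_simp
      rw [this]
      linarith
    calc (h / (6 * R)) * √(e.real (ball x (12 * R)) * (6 * R) ^ m)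
        ≤ (1 / M) * (9 ^ m * (ω * M) * e.real (ball x R)) := by gcongr
      _ = _ := by field_simp
  have hκ := D.κ_nn
  have hCB := D.CB_nn
  have hRm' : R ^ m ≤ e.real (ball x R) / ε := by
    rw [le_div_iff₀ hε]; linarith
  calc q.real (ball x (6 * R))
      ≤ CB * ((h / (6 * R)) * √(e.real (ball x (12 * R)) * (6 * R) ^ m) +
        σ * e.real (ball x (12 * R))) + κ * (6 * R) ^ m := hDV
    _ ≤ CB * (9 ^ m * ω * e.real (ball x R) + σ * (12 ^ m * e.real (ball x R))) +
        κ * (6 ^ m * (e.real (ball x R) / ε)) := by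
          have h6 : κ * (6 * R) ^ m ≤ κ * (6 ^ m * (e.real (ball x R) / ε)) := by
            rw [mul_pow]; gcongr
          have h7 : CB * ((h / (6 * R)) * √(e.real (ball x (12 * R)) * (6 * R) ^ m) +
              σ * e.real (ball x (12 * R))) ≤
              CB * (9 ^ m * ω * e.real (ball x R) + σ * (12 ^ m * e.real (ball x R))) := by
            gcongr
          exact add_le_add h7 h6
    _ = _ := by ring

/-- **Hole lemma, abstract form.** -/
theorem Data.hole {m : ℕ} {e eL q : Measure X} [IsFiniteMeasure e] [IsFiniteMeasure eL]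
    [IsFiniteMeasure q] {x0 : X} {s CB C1 CD κ σ ω ε M K dA β : ℝ}
    (D : Data m e eL q x0 s CB C1 CD κ σ ω ε M K dA β) :
    q.real (ball x0 s) ≤
      (CD * ε + CB * (9 ^ m * ω + 12 ^ m * σ) + κ * 6 ^ m / ε) * e.real (ball x0 (2 * s)) +
      C1 * (6 * (2 * M + 12)) ^ m / β * eL.real (ball x0 (2 * s)) := by
  classical
  have hε := D.ε_pos
  have hs := D.s_pos
  have hβ := D.β_pos
  have hC1 := D.C1_nn
  have hσ := D.σ_pos
  have hω := D.ω_pos
  have hκ := D.κ_nn
  have hCB := D.CB_nn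
  have hCD := D.CD_nn
  have hM := D.M_pos
  -- the radius
  have hsel : ∀ x, ∃ R : ℝ, (x ∈ ball x0 s → ¬ (∀ r, 0 < r → r ≤ s → e.real (ball x r) < ε * r ^ m) →
      0 < R ∧ 6 * (2 * M + 12) * R ≤ s ∧ ε * R ^ m ≤ e.real (ball x R) ∧
      ∀ r, R < r → r ≤ s → e.real (ball x r) < ε * r ^ m) := by
    intro x
    by_cases hx : x ∈ ball x0 s ∧ ¬ (∀ r, 0 < r → r ≤ s → e.real (ball x r) < ε * r ^ m)
    · obtain ⟨hx1, hx2⟩ := hx
      push Not at hx2
      obtain ⟨R, hR, hRs, hlow, hup⟩ := exists_last e m x hε hx2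
      refine ⟨R, fun _ _ => ⟨hR, ?_, hlow, hup⟩⟩
      by_contra hcon
      push Not at hcon
      have h1 : e.real (ball x R) ≤ e.real (ball x0 (2 * s)) := by
        refine measureReal_mono (ball_subset_ball' ?_) (measure_ne_top _ _)
        have := mem_ball.1 hx1
        linarith
      have h2 : ε * (s / (6 * (2 * M + 12))) ^ m ≤ ε * R ^ m := by
        have : s / (6 * (2 * M + 12)) ≤ R := by
          rw [div_le_iff₀ (by linarith)]
          linarith
        gcongr
      have := D.TOP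
      linarith
    · exact ⟨0, fun h1 h2 => absurd ⟨h1, h2⟩ hx⟩
  choose R hRprop using hsel
  set Quiet : Set X := {x | x ∈ ball x0 s ∧ ∀ r, 0 < r → r ≤ s → e.real (ball x r) < ε * r ^ m}
  set Good : Set X := {x | x ∈ ball x0 s ∧ ¬ (∀ r, 0 < r → r ≤ s → e.real (ball x r) < ε * r ^ m) ∧
    eL.real (ball x ((2 * M + 12) * R x)) ≤ β * e.real (ball x (R x))} with hGood
  set Bad : Set X := {x | x ∈ ball x0 s ∧ ¬ (∀ r, 0 < r → r ≤ s → e.real (ball x r) < ε * r ^ m) ∧
    β * e.real (ball x (R x)) < eL.real (ball x ((2 * M + 12) * R x))} with hBad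
  have hcover : ball x0 s ⊆ Quiet ∪ (Good ∪ Bad) := by
    intro x hx
    by_cases h1 : ∀ r, 0 < r → r ≤ s → e.real (ball x r) < ε * r ^ m
    · exact Or.inl ⟨hx, h1⟩
    · rcases le_or_gt (eL.real (ball x ((2 * M + 12) * R x))) (β * e.real (ball x (R x))) with h2 | h2
      · exact Or.inr (Or.inl ⟨hx, h1, h2⟩)
      · exact Or.inr (Or.inr ⟨hx, h1, h2⟩)
  set cg := CB * (9 ^ m * ω + 12 ^ m * σ) + κ * 6 ^ m / ε with hcg
  have hcg0 : 0 ≤ cg := by positivity
  have hsubx : ∀ x ∈ ball x0 s, ∀ t, t ≤ s → ball x t ⊆ ball x0 (2 * s) := fun x hx t ht => by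
    apply ball_subset_ball'
    have := mem_ball.1 hx
    linarith
  have hAs : ∀ r, 0 < r → 6 * (2 * M + 12) * r ≤ s → r ≤ s ∧ (2 * M + 12) * r ≤ s := by
    intro r hr h
    have h1 : r ≤ (2 * M + 12) * r := by nlinarith
    have h2 : 0 ≤ (2 * M + 12) * r := by positivity
    constructor <;> nlinarith
  -- good points
  have hgood : q Good ≤ ENNReal.ofReal cg * e (ball x0 (2 * s)) := by
    refine vit q e Good (ball x0 (2 * s)) R (ENNReal.ofReal cg) (S := s)
      (fun x hx => (hRprop x hx.1 hx.2.1).1) (fun x hx => ?_) (fun x hx => ?_) (fun x hx => ?_)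
    · have := hRprop x hx.1 hx.2.1
      exact (hAs _ this.1 this.2.1).1
    · have := hRprop x hx.1 hx.2.1
      exact hsubx x hx.1 _ (hAs _ this.1 this.2.1).1
    · obtain ⟨h1, h2, h3, h4⟩ := hRprop x hx.1 hx.2.1
      have := D.good hx.1 h1 h2 h3 h4 hx.2.2
      rw [← ofReal_measureReal (μ := q), ← ofReal_measureReal (μ := e),
        ← ENNReal.ofReal_mul hcg0]
      exact ENNReal.ofReal_le_ofReal this
  -- bad points
  set cb := C1 * (6 * (2 * M + 12)) ^ m / β with hcb
  have hcb0 : 0 ≤ cb := by positivity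
  have hbad : q Bad ≤ ENNReal.ofReal cb * eL (ball x0 (2 * s)) := by
    refine vit q eL Bad (ball x0 (2 * s)) (fun x => (2 * M + 12) * R x) (ENNReal.ofReal cb)
      (S := s) (fun x hx => ?_) (fun x hx => ?_) (fun x hx => ?_) (fun x hx => ?_)
    · have := (hRprop x hx.1 hx.2.1).1
      positivity
    · have := hRprop x hx.1 hx.2.1
      exact (hAs _ this.1 this.2.1).2
    · have := hRprop x hx.1 hx.2.1
      exact hsubx x hx.1 _ (hAs _ this.1 this.2.1).2
    · obtain ⟨h1, h2, h3, h4⟩ := hRprop x hx.1 hx.2.1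
      have hb := hx.2.2
      have hq := D.qe x (6 * ((2 * M + 12) * R x))
      have he : e.real (ball x (6 * ((2 * M + 12) * R x))) ≤
          (6 * (2 * M + 12)) ^ m * e.real (ball x (R x)) := by
        calc e.real (ball x (6 * ((2 * M + 12) * R x))) =
              e.real (ball x (6 * (2 * M + 12) * R x)) := by
              congr 2; ring
          _ ≤ ε * (6 * (2 * M + 12) * R x) ^ m := (h4 _ (by nlinarith) h2).le
          _ = (6 * (2 * M + 12)) ^ m * (ε * R x ^ m) := by rw [mul_pow]; ring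
          _ ≤ _ := by gcongr
      have hfin : q.real (ball x (6 * ((2 * M + 12) * R x))) ≤
          cb * eL.real (ball x ((2 * M + 12) * R x)) := by
        calc q.real (ball x (6 * ((2 * M + 12) * R x)))
            ≤ C1 * ((6 * (2 * M + 12)) ^ m * e.real (ball x (R x))) :=
              hq.trans (by gcongr)
          _ = cb * (β * e.real (ball x (R x))) := by rw [hcb]; field_simp
          _ ≤ _ := by gcongr
      rw [← ofReal_measureReal (μ := q), ← ofReal_measureReal (μ := eL),
        ← ENNReal.ofReal_mul hcb0]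
      exact ENNReal.ofReal_le_ofReal hfin
  have hfinal : q (ball x0 s) ≤ ENNReal.ofReal
      ((CD * ε + CB * (9 ^ m * ω + 12 ^ m * σ) + κ * 6 ^ m / ε) * e.real (ball x0 (2 * s)) +
      cb * eL.real (ball x0 (2 * s))) := by
    calc q (ball x0 s) ≤ q Quiet + (q Good + q Bad) :=
          (measure_mono hcover).trans ((measure_union_le _ _).trans
            (add_le_add le_rfl (measure_union_le _ _)))
      _ ≤ ENNReal.ofReal (CD * ε * e.real (ball x0 (2 * s))) +
          (ENNReal.ofReal cg * e (ball x0 (2 * s)) +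
            ENNReal.ofReal cb * eL (ball x0 (2 * s))) :=
          add_le_add D.LD (add_le_add hgood hbad)
      _ = _ := by
          rw [← ofReal_measureReal (μ := e) (s := ball x0 (2 * s)),
            ← ofReal_measureReal (μ := eL) (s := ball x0 (2 * s)),
            ← ENNReal.ofReal_mul hcg0, ← ENNReal.ofReal_mul hcb0,
            ← ENNReal.ofReal_add (by positivity) (by positivity),
            ← ENNReal.ofReal_add (by positivity) (by positivity)]
          congr 1
          rw [hcg]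
          ring
  exact ENNReal.toReal_le_of_le_ofReal (by positivity) hfinal

end Crest.Agent.R234.Hol_746
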