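import Crest.Agent.R234.Hol1_746

/-!
# Hole lemma (5): uniform form with the choice of the constants
-/

open MeasureTheory Metric Set
open scoped ENNReal

namespace Crest.Agent.R234.Hol_746

variable {X : Type*} [PseudoMetricSpace X] [MeasurableSpace X] [OpensMeasurableSpace X]
  [SecondCountableTopology X]

set_option maxHeartbeats 1600000 in
/-- **HOLE**, uniform form.  `P κ e eL q x0 s` is the class of data (think: `e`, `eL`, `q` are the
push-forwards of the tilt energies of a stationary integral varifold over `ball x0 (2 s)`;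
`κ` is the parameter of almost stationarity, `κ = 0` in the stationary case). -/
theorem hole_uniform {m : ℕ} (hm : 2 ≤ m) {CB C1 CD : ℝ} (hCB : 0 ≤ CB) (hC1 : 0 ≤ C1)
    (hCD : 0 ≤ CD)
    (P : ℝ → Measure X → Measure X → Measure X → X → ℝ → Prop)
    (hfin : ∀ κ e eL q x0 s, P κ e eL q x0 s →
      IsFiniteMeasure e ∧ IsFiniteMeasure eL ∧ IsFiniteMeasure q ∧ 0 < s ∧ 0 ≤ κ)
    (hqe : ∀ κ e eL q x0 s, P κ e eL q x0 s → ∀ x r, q.real (ball x r) ≤ C1 * e.real (ball x r))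
    {σ₀ : ℝ} (hσ₀ : 0 < σ₀)
    (hLOG : ∀ σ > 0, σ ≤ σ₀ → ∀ K : ℝ, ∃ M0 : ℝ, ∀ M ≥ M0, ∃ dA > 0, ∀ κ e eL q x0 s,
      P κ e eL q x0 s → κ ≤ dA → ∀ y t, 0 < t → y ∈ ball x0 (3 / 2 * s) → 2 * M * t ≤ s / 2 →
      (∀ r, t < r → r ≤ s / 2 → e.real (ball y r) < σ ^ 2 * r ^ m) →
      σ ^ 2 * t ^ m ≤ e.real (ball y t) → eL.real (ball y (2 * M * t)) ≤ dA * t ^ m →
      K * M ^ (m - 2) * t ^ m ≤ e.real (ball y (M * t)))
    (hDV : ∀ κ e eL q x0 s, P κ e eL q x0 s → ∀ σ > 0, σ ≤ σ₀ → ∀ y r h, 0 < h → h ≤ r →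
      ball y (3 * r) ⊆ ball x0 (3 / 2 * s) → 3 * r ≤ s / 2 →
      (∀ y' ∈ ball y (2 * r), ∀ t, h ≤ t → t ≤ s / 2 → e.real (ball y' t) ≤ σ ^ 2 * t ^ m) →
      q.real (ball y r) ≤ CB * ((h / r) * √(e.real (ball y (2 * r)) * r ^ m) +
        σ * e.real (ball y (2 * r))) + CB * κ * r ^ m)
    (hLD : ∀ κ e eL q x0 s, P κ e eL q x0 s → ∀ ε > 0, ε ≤ 1 →
      q {x | x ∈ ball x0 s ∧ ∀ r, 0 < r → r ≤ s → e.real (ball x r) < ε * r ^ m} ≤
        ENNReal.ofReal (CD * ε * e.real (ball x0 (2 * s))))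
    {η : ℝ} (hη : 0 < η) :
    ∃ δ > 0, ∃ lam > 0, ∃ κ0 > 0, ∀ κ e eL q x0 s, P κ e eL q x0 s → κ ≤ κ0 → ∀ E : ℝ,
      e.real (ball x0 (2 * s)) ≤ E * s ^ (m - 2) → lam * E ≤ s ^ 2 →
      eL.real (ball x0 (2 * s)) ≤ δ * E * s ^ (m - 2) →
      q.real (ball x0 s) ≤ η * E * s ^ (m - 2) := by
  set σ := min σ₀ (η / (5 * (CB + 1) * 12 ^ m)) with hσdef
  set ω := η / (5 * (CB + 1) * 9 ^ m) with hωdef
  have hσ : 0 < σ := by positivity
  have hω : 0 < ω := by positivity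
  have hσ1 : σ ≤ σ₀ := min_le_left _ _
  have hσ2 : σ ≤ η / (5 * (CB + 1) * 12 ^ m) := min_le_right _ _
  set K := 13 ^ m / ω ^ 2 + 1 with hKdef
  obtain ⟨M0, hM0⟩ := hLOG σ hσ hσ1 K
  set A := √(5 * (CD + 1) / η) / ω with hA
  set B := √(2 * 13 ^ m) / (σ * ω) with hB
  set M := max (max (max M0 B) 1) (max A (1 / ω)) with hMdef
  have hMM0 : M0 ≤ M :=
    ((le_max_left _ _).trans (le_max_left _ _)).trans (le_max_left _ _)
  have hMB : B ≤ M :=
    ((le_max_right _ _).trans (le_max_left _ _)).trans (le_max_left _ _)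
  have hM1 : 1 ≤ M := (le_max_right _ _).trans (le_max_left _ _)
  have hMA : A ≤ M := (le_max_left _ _).trans (le_max_right _ _)
  have hMω : 1 / ω ≤ M := (le_max_right _ _).trans (le_max_right _ _)
  have hM : 0 < M := by linarith
  obtain ⟨dA, hdA, hLOG'⟩ := hM0 M hMM0
  set ε := 1 / (ω * M) ^ 2 with hεdef
  have hε : 0 < ε := by positivity
  have hωM : 1 ≤ ω * M := by
    rw [div_le_iff₀ hω] at hMω
    linarith
  have hε1 : ε ≤ 1 := by
    rw [hεdef, div_le_one (by positivity)]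
    exact one_le_pow₀ hωM
  have hεM : ε * (ω * M) ^ 2 = 1 := by rw [hεdef]; field_simp
  have hCDε : (CD + 1) * ε ≤ η / 5 := by
    have h1 : √(5 * (CD + 1) / η) ≤ ω * M := by
      rw [hA, div_le_iff₀ hω] at hMA
      linarith
    have h2 : 5 * (CD + 1) / η ≤ (ω * M) ^ 2 := by
      have := Real.sqrt_le_sqrt_iff (x := 5 * (CD + 1) / η) (y := (ω * M) ^ 2) (by positivity)
      rw [← this, Real.sqrt_sq (by positivity)]
      exact h1
    rw [div_le_iff₀ hη] at h2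
    calc (CD + 1) * ε = (5 * (CD + 1)) * ε / 5 := by ring
      _ ≤ ((ω * M) ^ 2 * η) * ε / 5 := by gcongr
      _ = (ε * (ω * M) ^ 2) * η / 5 := by ring
      _ = η / 5 := by rw [hεM, one_mul]
  have hεσ : 13 ^ m * ε < σ ^ 2 := by
    have h1 : √(2 * 13 ^ m) ≤ σ * (ω * M) := by
      rw [hB, div_le_iff₀ (by positivity)] at hMB
      linarith
    have h2 : 2 * 13 ^ m ≤ (σ * (ω * M)) ^ 2 := by
      have := Real.sqrt_le_sqrt_iff (x := 2 * 13 ^ m) (y := (σ * (ω * M)) ^ 2) (by positivity)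
      rw [← this, Real.sqrt_sq (by positivity)]
      exact h1
    have h3 : (2 * 13 ^ m) * ε ≤ σ ^ 2 := by
      calc (2 * 13 ^ m) * ε ≤ (σ * (ω * M)) ^ 2 * ε := mul_le_mul_of_nonneg_right h2 hε.le
        _ = σ ^ 2 * (ε * (ω * M) ^ 2) := by ring
        _ = σ ^ 2 := by rw [hεM, mul_one]
    have h4 : (0 : ℝ) < 13 ^ m * ε := by positivity
    linarith
  set AM := (6 * (2 * M + 12)) with hAMdef
  have hAM : 0 < AM := by positivity
  set β := dA / (ε * (2 * M) ^ m) with hβdef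
  have hβ : 0 < β := by positivity
  set δ := β * η / (5 * (C1 + 1) * AM ^ m) with hδdef
  have hδ : 0 < δ := by positivity
  set κ1 := ε * η / (5 * (CB + 1) * 6 ^ m) with hκ1def
  have hκ1 : 0 < κ1 := by positivity
  set κ0 := min dA κ1 with hκ0def
  have hκ0 : 0 < κ0 := lt_min hdA hκ1
  set lam := 2 * AM ^ m / ε with hlam
  have hlam0 : 0 < lam := by positivity
  refine ⟨δ, hδ, lam, hlam0, κ0, hκ0, ?_⟩
  intro κ e eL q x0 s hP hκκ0 E hE hlamE heL
  obtain ⟨hfe, hfeL, hfq, hs, hκ⟩ := hfin κ e eL q x0 s hP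
  have hκdA : κ ≤ dA := hκκ0.trans (min_le_left _ _)
  have hκκ1 : κ ≤ κ1 := hκκ0.trans (min_le_right _ _)
  have hsm : 0 < s ^ (m - 2) := by positivity
  have hsm2 : s ^ m = s ^ (m - 2) * s ^ 2 := by
    rw [← pow_add]; congr 1; omega
  have hE0 : 0 ≤ E := by
    have h0 : 0 ≤ E * s ^ (m - 2) := le_trans measureReal_nonneg hE
    by_contra hcon
    push Not at hcon
    have := mul_neg_of_neg_of_pos hcon hsm
    linarith
  have hTOP : e.real (ball x0 (2 * s)) < ε * (s / AM) ^ m := by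
    refine lt_of_le_of_lt hE ?_
    rw [div_pow, hsm2]
    have h84 : (0 : ℝ) < AM ^ m := by positivity
    have h1 : E * AM ^ m * 2 ≤ ε * s ^ 2 := by
      have h2 : ε * (lam * E) ≤ ε * s ^ 2 := by gcongr
      have h3 : ε * (lam * E) = E * AM ^ m * 2 := by rw [hlam]; field_simp
      linarith
    have h3 : 0 < ε * s ^ 2 := by positivity
    have h4 : E * AM ^ m < ε * s ^ 2 := by
      nlinarith [mul_nonneg hE0 h84.le]
    calc E * s ^ (m - 2) = E * AM ^ m * s ^ (m - 2) / AM ^ m := by field_simp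
      _ < ε * s ^ 2 * s ^ (m - 2) / AM ^ m := by gcongr
      _ = _ := by ring
  have D : Data m e eL q x0 s CB C1 CD (CB * κ) σ ω ε M K dA β :=
    { two_le := hm
      s_pos := hs
      CB_nn := hCB
      C1_nn := hC1
      CD_nn := hCD
      κ_nn := mul_nonneg hCB hκ
      σ_pos := hσ
      ω_pos := hω
      ε_pos := hε
      M_pos := hM1
      hεM := hεM
      K_big := by
        rw [hKdef]
        have : (13 ^ m / ω ^ 2 + 1) * ω ^ 2 = 13 ^ m + ω ^ 2 := by field_simp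
        rw [this]
        have : 0 < ω ^ 2 := by positivity
        linarith
      hεσ := hεσ
      β_pos := hβ
      β_small := by
        rw [hβdef]
        apply le_of_eq
        field_simp
      qe := hqe κ e eL q x0 s hP
      LOG := hLOG' κ e eL q x0 s hP hκdA
      DV := hDV κ e eL q x0 s hP σ hσ hσ1
      LD := hLD κ e eL q x0 s hP ε hε hε1
      TOP := hTOP }
  have hmain := D.hole
  rw [← hAMdef] at hmain
  have hc1 : CD * ε ≤ η / 5 := le_trans (by nlinarith) hCDε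
  have hc2 : CB * (9 ^ m * ω + 12 ^ m * σ) ≤ 2 * η / 5 := by
    have h9 : 9 ^ m * ω = η / (5 * (CB + 1)) := by rw [hωdef]; field_simp
    have h12 : 12 ^ m * σ ≤ η / (5 * (CB + 1)) := by
      calc 12 ^ m * σ ≤ 12 ^ m * (η / (5 * (CB + 1) * 12 ^ m)) :=
            mul_le_mul_of_nonneg_left hσ2 (by positivity)
        _ = η / (5 * (CB + 1)) := by field_simp
    rw [h9]
    refine (mul_le_mul_of_nonneg_left (add_le_add le_rfl h12) hCB).trans ?_
    have h1 : CB * (η / (5 * (CB + 1)) + η / (5 * (CB + 1))) =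
        (2 * η / 5) * (CB / (CB + 1)) := by field_simp; ring
    rw [h1]
    have h2 : CB / (CB + 1) ≤ 1 := by
      rw [div_le_one (by positivity)]; linarith
    have h3 : 0 ≤ 2 * η / 5 := by positivity
    exact mul_le_of_le_one_right h3 h2
  have hc3 : CB * κ * 6 ^ m / ε ≤ η / 5 := by
    rw [div_le_iff₀ hε]
    calc CB * κ * 6 ^ m ≤ (CB + 1) * κ1 * 6 ^ m := by
          have h1 : CB * κ ≤ (CB + 1) * κ1 :=
            mul_le_mul (by linarith) hκκ1 hκ (by linarith)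
          exact mul_le_mul_of_nonneg_right h1 (by positivity)
      _ = η / 5 * ε := by rw [hκ1def]; field_simp
  have hc4 : C1 * AM ^ m / β * δ ≤ η / 5 := by
    have h1 : C1 * AM ^ m / β * δ = (η / 5) * (C1 / (C1 + 1)) := by
      rw [hδdef]; field_simp
    rw [h1]
    have h2 : C1 / (C1 + 1) ≤ 1 := by
      rw [div_le_one (by positivity)]; linarith
    have h3 : 0 ≤ η / 5 := by positivity
    exact mul_le_of_le_one_right h3 h2
  have hES : 0 ≤ E * s ^ (m - 2) := by positivity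
  clear_value lam κ0 κ1 δ β AM ε M B A K ω σ
  have t1 : (CD * ε + CB * (9 ^ m * ω + 12 ^ m * σ) + CB * κ * 6 ^ m / ε) * e.real (ball x0 (2 * s)) ≤
      (4 * η / 5) * (E * s ^ (m - 2)) :=
    mul_le_mul (by linarith) hE measureReal_nonneg (by positivity)
  have t2 : C1 * AM ^ m / β * eL.real (ball x0 (2 * s)) ≤ (η / 5) * (E * s ^ (m - 2)) := by
    calc C1 * AM ^ m / β * eL.real (ball x0 (2 * s))
        ≤ C1 * AM ^ m / β * (δ * E * s ^ (m - 2)) :=
          mul_le_mul_of_nonneg_left heL (by positivity)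
      _ = (C1 * AM ^ m / β * δ) * (E * s ^ (m - 2)) := by ring
      _ ≤ (η / 5) * (E * s ^ (m - 2)) := mul_le_mul_of_nonneg_right hc4 hES
  calc q.real (ball x0 s) ≤ _ := hmain
    _ ≤ (4 * η / 5) * (E * s ^ (m - 2)) + (η / 5) * (E * s ^ (m - 2)) := add_le_add t1 t2
    _ = _ := by ring

end Crest.Agent.R234.Hol_746
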