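import Crest.Agent.R234.N5a_372
import Crest.Agent.R234.Vf8_884

/-!
# Row 234, VF-HOLE (helper746), part 3: Lebesgue points

`exists_fun`: on the general varifold of frozen integral data every function of the plane is a
function of the point.  `quiet_le`: at points of the base where the tilt ratio is small at all
scales the tilt itself is small (lower density).
-/

set_option autoImplicit false

open MeasureTheory Metric Set Filter Topology
open Crest.GeometryTopology.Submanifold
open Crest.Agent.R234.Vf_884 Crest.Agent.R234.Ar_870 Crest.Agent.R234.Cy_870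
open Crest.Agent.R234.N5_372
open scoped ENNReal NNReal InnerProductSpace

noncomputable section

namespace Crest.Agent.R234.Hol_746

variable {m n k : ℕ} {U : Set (Euc k)} {D : VarifoldData m k}

/-- functions of the plane are functions of the point. -/
theorem exists_fun (hD : IsIntegralVarifoldIn U D) {c : L k → ℝ≥0∞} (hc : Measurable c) :
    ∃ T : Euc k → ℝ≥0∞, Measurable T ∧ ∀ᵐ p ∂(VD D), c p.2 = T p.1 := by
  classical
  have hext : ∀ i, ∃ g' : Euc k → ℝ≥0∞, Measurable g' ∧
      ∀ a ∈ D.dom i, g' (D.chart i a) = c (projF (D.chart i) a) := by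
    intro i
    have hemb : MeasurableEmbedding ((D.dom i).domRestrict (D.chart i)) :=
      ContinuousOn.measurableEmbedding (hD.measurableSet i)
        (hD.contDiff i).continuous.continuousOn (hD.injOn i)
    have hg : Measurable fun a : D.dom i => c (projF (D.chart i) (a : Euc m)) := by
      refine hc.comp ?_
      exact (continuousOn_iff_continuous_domRestrict.1
        ((continuousOn_projF (hD.contDiff i)).mono (dom_subset hD i))).measurable
    obtain ⟨g', hg', hcomp⟩ := hemb.exists_measurable_extend hg fun _ => ⟨0⟩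
    refine ⟨g', hg', fun a ha => ?_⟩
    exact congrFun hcomp ⟨a, ha⟩
  choose g hg hgc using hext
  have himg : ∀ i, MeasurableSet (D.chart i '' D.dom i) := fun i =>
    measurableSet_image hD (hD.measurableSet i) subset_rfl
  refine ⟨fun z => ∑' i, (D.chart i '' D.dom i).indicator (g i) z,
    Measurable.tsum fun i => (hg i).indicator (himg i), ?_⟩
  have hT : Measurable fun z => ∑' i, (D.chart i '' D.dom i).indicator (g i) z :=
    Measurable.tsum fun i => (hg i).indicator (himg i)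
  have hset : MeasurableSet {p : Euc k × L k | c p.2 =
      ∑' i, (D.chart i '' D.dom i).indicator (g i) p.1} :=
    measurableSet_eq_fun (hc.comp measurable_snd) (hT.comp measurable_fst)
  refine Measure.ae_sum_iff.2 fun i => ?_
  refine (ae_map_iff (aemeasurable_lift hD i) hset).2 ?_
  filter_upwards [base_ae_dom hD i] with a ha
  have h1 : ∑' j, (D.chart j '' D.dom j).indicator (g j) (D.chart i a) = g i (D.chart i a) := by
    rw [tsum_eq_single i]
    · exact indicator_of_mem (show D.chart i a ∈ D.chart i '' D.dom i from ⟨a, ha, rfl⟩) _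
    · intro j hj
      refine indicator_of_notMem (fun hcon => ?_) _
      exact Set.disjoint_left.1 (hD.disjoint j i hj) hcon ⟨a, ha, rfl⟩
  show c (projF (D.chart i) a) = _
  simp only [lift]
  rw [h1, hgc i a ha]

/-- points of the base which are quiet at all (rational) scales. -/
def Quiet (e : Measure (Euc m)) (x₀ : Euc m) (s ε : ℝ) : Set (Euc m) :=
  ball x₀ s ∩ ⋂ q : ℚ,
    {x | 0 < (q : ℝ) → (q : ℝ) ≤ s → e (ball x q) ≤ ENNReal.ofReal (ε * (q : ℝ) ^ m)}

theorem measurable_ball (e : Measure (Euc m)) [SFinite e] (r : ℝ) :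
    Measurable fun x => e (ball x r) := by
  have h1 : MeasurableSet {p : Euc m × Euc m | dist p.2 p.1 < r} :=
    (isOpen_lt (continuous_snd.dist continuous_fst) continuous_const).measurableSet
  exact measurable_measure_prodMk_left h1

theorem measurableSet_quiet (e : Measure (Euc m)) [SFinite e] (x₀ : Euc m) (s ε : ℝ) :
    MeasurableSet (Quiet e x₀ s ε) := by
  refine measurableSet_ball.inter (MeasurableSet.iInter fun q => ?_)
  by_cases h : 0 < (q : ℝ) ∧ (q : ℝ) ≤ s
  · have h1 : {x : Euc m | 0 < (q : ℝ) → (q : ℝ) ≤ s →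
        e (ball x q) ≤ ENNReal.ofReal (ε * (q : ℝ) ^ m)} =
        {x | e (ball x q) ≤ ENNReal.ofReal (ε * (q : ℝ) ^ m)} := by
      ext x
      simp only [mem_ofPred_eq]
      exact ⟨fun h' => h' h.1 h.2, fun h' _ _ => h'⟩
    rw [h1]
    exact measurableSet_le (measurable_ball e _) measurable_const
  · have h1 : {x : Euc m | 0 < (q : ℝ) → (q : ℝ) ≤ s →
        e (ball x q) ≤ ENNReal.ofReal (ε * (q : ℝ) ^ m)} = univ := by
      ext x
      simp only [mem_ofPred_eq, mem_univ, iff_true]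
      exact fun h1 h2 => absurd ⟨h1, h2⟩ h
    rw [h1]
    exact MeasurableSet.univ

theorem subset_quiet (e : Measure (Euc m)) [IsFiniteMeasure e] (x₀ : Euc m) (s ε : ℝ) :
    {x | x ∈ ball x₀ s ∧ ∀ r, 0 < r → r ≤ s → e.real (ball x r) < ε * r ^ m} ⊆
      Quiet e x₀ s ε := by
  rintro x ⟨hx, h⟩
  refine ⟨hx, mem_iInter.2 fun q h1 h2 => ?_⟩
  rw [← ofReal_measureReal (μ := e)]
  exact ENNReal.ofReal_le_ofReal (h q h1 h2).le

variable {π : Euc k →L[ℝ] Euc m} {W : Measure (Euc k × L k)} {x₀ : Euc m} {s ε c₀ : ℝ}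

theorem norm_co_le (hπ : IsCo π) (z : Euc k) : ‖π z‖ ≤ ‖z‖ := by
  have h1 : ‖ContinuousLinearMap.adjoint π (π z)‖ = ‖π z‖ := by
    have h2 : ‖ContinuousLinearMap.adjoint π (π z)‖ ^ 2 = ‖π z‖ ^ 2 := by
      rw [← real_inner_self_eq_norm_sq, ContinuousLinearMap.adjoint_inner_left]
      have h3 : π (ContinuousLinearMap.adjoint π (π z)) = π z := by
        have := hπ
        unfold IsCo at this
        exact congrArg (fun A => A (π z)) this
      rw [h3, real_inner_self_eq_norm_sq]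
    exact (pow_left_inj₀ (norm_nonneg _) (norm_nonneg _) two_ne_zero).1 h2
  have h4 : ‖π z‖ ^ 2 ≤ ‖π z‖ * ‖z‖ := by
    calc ‖π z‖ ^ 2 = ⟪ContinuousLinearMap.adjoint π (π z), z⟫_ℝ := by
          rw [ContinuousLinearMap.adjoint_inner_left, real_inner_self_eq_norm_sq]
      _ ≤ ‖ContinuousLinearMap.adjoint π (π z)‖ * ‖z‖ := real_inner_le_norm _ _
      _ = _ := by rw [h1]
  rcases (norm_nonneg (π z)).eq_or_lt with h | h
  · rw [← h]; exact norm_nonneg _
  · nlinarith

theorem lint_tl_lt (hπ : IsCo π) [IsFiniteMeasure W] (hconc : ∀ᵐ p ∂W, p.2 ∈ G m k) :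
    ∫⁻ p, ENNReal.ofReal (tl π p.2) ∂W < ⊤ := by
  calc ∫⁻ p, ENNReal.ofReal (tl π p.2) ∂W ≤ ∫⁻ _p, ENNReal.ofReal m ∂W := by
        refine lintegral_mono_ae ?_
        filter_upwards [hconc] with p hp
        exact ENNReal.ofReal_le_ofReal (tl_le hπ (isPr_of_G hp))
    _ < ⊤ := by
        rw [lintegral_const]
        exact ENNReal.mul_lt_top ENNReal.ofReal_lt_top (measure_lt_top _ _)

theorem T_le (hπ : IsCo π) [IsFiniteMeasure W] (hconc : ∀ᵐ p ∂W, p.2 ∈ G m k)
    {T : Euc k → ℝ≥0∞} (hT : Measurable T)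
    (hTe : ∀ᵐ p ∂W, ENNReal.ofReal (tl π p.2) = T p.1) (hc₀ : 0 < c₀)
    (hlow : ∀ᵐ z ∂(W.map Prod.fst), π z ∈ ball x₀ s → ∀ᶠ r in 𝓝[>] (0 : ℝ),
      ENNReal.ofReal (c₀ * r ^ m) ≤ (W.map Prod.fst) (closedBall z r))
    (hs : 0 < s) (hε : 0 < ε) :
    ∀ᵐ z ∂(W.map Prod.fst), π z ∈ Quiet (eM W π) x₀ s ε →
      T z ≤ ENNReal.ofReal (2 ^ m * ε / c₀) := by
  set μ := W.map Prod.fst with hμ
  have : IsFiniteMeasure μ := Measure.isFiniteMeasure_map _ _
  have hfin : ∫⁻ z, T z ∂μ ≠ ⊤ := by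
    rw [hμ, lintegral_map hT measurable_fst]
    refine ne_of_lt (lt_of_eq_of_lt ?_ (lint_tl_lt hπ hconc))
    exact lintegral_congr_ae (hTe.mono fun p hp => hp.symm)
  have hdiff := (Besicovitch.vitaliFamily μ).ae_tendsto_lintegral_div hT.aemeasurable hfin
  filter_upwards [hdiff, hlow] with z hz hl hq
  have h1 : Tendsto (fun r => (∫⁻ y in closedBall z r, T y ∂μ) / μ (closedBall z r)) (𝓝[>] 0)
      (𝓝 (T z)) := hz.comp (Besicovitch.tendsto_filterAt μ z)
  refine le_of_tendsto h1 ?_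
  filter_upwards [hl hq.1, Ioo_mem_nhdsGT (show 0 < s / 2 by positivity)] with r hr hrs
  obtain ⟨q, hq1, hq2⟩ := exists_rat_btwn (show r < 2 * r by linarith [hrs.1])
  have hr0 : 0 < r := hrs.1
  have h2 : ∫⁻ y in closedBall z r, T y ∂μ ≤ eM W π (ball (π z) q) := by
    unfold eM
    rw [bm_apply _ _ _ measurableSet_ball, hμ, setLIntegral_map measurableSet_closedBall hT
      measurable_fst]
    calc ∫⁻ p in Prod.fst ⁻¹' closedBall z r, T p.1 ∂W
        = ∫⁻ p in Prod.fst ⁻¹' closedBall z r, ENNReal.ofReal (tl π p.2) ∂W :=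
          lintegral_congr_ae (ae_restrict_of_ae (hTe.mono fun p hp => hp.symm))
      _ ≤ _ := by
          refine lintegral_mono_set ?_
          intro p hp
          have hp1 : ‖p.1 - z‖ ≤ r := by
            have := mem_closedBall.1 (show p.1 ∈ closedBall z r from hp)
            rwa [dist_eq_norm] at this
          show π p.1 ∈ ball (π z) q
          rw [mem_ball, dist_eq_norm, ← map_sub]
          exact lt_of_le_of_lt ((norm_co_le hπ _).trans hp1) hq1
  have h3 : eM W π (ball (π z) q) ≤ ENNReal.ofReal (ε * (q : ℝ) ^ m) := by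
    have := mem_iInter.1 hq.2 q
    exact this (hr0.trans hq1) (by linarith [hrs.2])
  refine ENNReal.div_le_of_le_mul ?_
  calc ∫⁻ y in closedBall z r, T y ∂μ ≤ ENNReal.ofReal (ε * (q : ℝ) ^ m) := h2.trans h3
    _ ≤ ENNReal.ofReal (2 ^ m * ε / c₀ * (c₀ * r ^ m)) := by
        apply ENNReal.ofReal_le_ofReal
        have h4 : (q : ℝ) ^ m ≤ (2 * r) ^ m :=
          pow_le_pow_left₀ (hr0.trans hq1).le hq2.le m
        calc ε * (q : ℝ) ^ m ≤ ε * (2 * r) ^ m := by gcongr
          _ = _ := by rw [mul_pow]; field_simp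
    _ = ENNReal.ofReal (2 ^ m * ε / c₀) * ENNReal.ofReal (c₀ * r ^ m) :=
        ENNReal.ofReal_mul (by positivity)
    _ ≤ _ := by gcongr

/-- **(LD)**: the quartic energy of the quiet set is small. -/
theorem quiet_le (hπ : IsCo π) [IsFiniteMeasure W] (hconc : ∀ᵐ p ∂W, p.2 ∈ G m k)
    {T : Euc k → ℝ≥0∞} (hT : Measurable T)
    (hTe : ∀ᵐ p ∂W, ENNReal.ofReal (tl π p.2) = T p.1) (hc₀ : 0 < c₀)
    (hlow : ∀ᵐ z ∂(W.map Prod.fst), π z ∈ ball x₀ s → ∀ᶠ r in 𝓝[>] (0 : ℝ),
      ENNReal.ofReal (c₀ * r ^ m) ≤ (W.map Prod.fst) (closedBall z r))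
    (hs : 0 < s) (hε : 0 < ε) :
    qM W π (Quiet (eM W π) x₀ s ε) ≤ ENNReal.ofReal (2 ^ m * ε / c₀) * eM W π (ball x₀ s) := by
  have hfinE : IsFiniteMeasure (eM W π) := by
    refine ⟨?_⟩
    unfold eM
    rw [bm_apply _ _ _ MeasurableSet.univ]
    exact (setLIntegral_le_lintegral _ _).trans_lt (lint_tl_lt hπ hconc)
  have hQ := measurableSet_quiet (eM W π) x₀ s ε
  have h1 := ae_of_ae_map measurable_fst.aemeasurable
    (T_le (x₀ := x₀) hπ hconc hT hTe hc₀ hlow hs hε)
  calc qM W π (Quiet (eM W π) x₀ s ε)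
      = ∫⁻ p in ov π (Quiet (eM W π) x₀ s ε), ENNReal.ofReal (tl π p.2 ^ 2) ∂W := by
        unfold qM
        rw [bm_apply _ _ _ hQ]
    _ ≤ ∫⁻ p in ov π (Quiet (eM W π) x₀ s ε), ENNReal.ofReal (2 ^ m * ε / c₀) *
          ENNReal.ofReal (tl π p.2) ∂W := by
        refine lintegral_mono_ae ?_
        filter_upwards [ae_restrict_of_ae h1, ae_restrict_of_ae hTe, ae_restrict_of_ae hconc,
          ae_restrict_mem (measurableSet_ov hQ)] with p hp1 hp2 hp3 hp4
        have h2 := hp1 hp4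
        rw [← hp2] at h2
        have h0 := tl_nonneg hπ (isPr_of_G hp3)
        rw [sq, ENNReal.ofReal_mul h0]
        gcongr
    _ = ENNReal.ofReal (2 ^ m * ε / c₀) * eM W π (Quiet (eM W π) x₀ s ε) := by
        rw [lintegral_const_mul' _ _ ENNReal.ofReal_ne_top]
        have h2 : eM W π (Quiet (eM W π) x₀ s ε) =
            ∫⁻ p in ov π (Quiet (eM W π) x₀ s ε), ENNReal.ofReal (tl π p.2) ∂W :=
          bm_apply W π (tl π) hQ
        rw [h2]
    _ ≤ _ := by
        gcongr
        exact inter_subset_left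

end Crest.Agent.R234.Hol_746
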