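import Crest.Agent.R234.Th5_164

/-!
# Row 234, VF-HOLE (helper746), part 4: upper mass bounds in small base balls

If the tilt ratios at a centre `x` are small at all scales between `t` and `4 ρ₀` and the mass over
the top ball is bounded then the mass ratios at `x` are bounded at all scales between `t` and `ρ₀`
(one scale at a time, by integrality: no accumulation).
-/

set_option autoImplicit false

open Set Filter Topology MeasureTheory Metric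
open Crest.Agent.R234.Th_164
open scoped ENNReal NNReal

noncomputable section

namespace Crest.Agent.R234.Hol_746

variable {d : ℕ}

/-- uniform constants of `TH1` for finitely many integers. -/
theorem TH1_fin {C : ℝ} (hSC : SC2 d C) {C₁ : ℝ} (hC₁ : 0 ≤ C₁) {ε : ℝ} (hε : 0 < ε) (hε1 : ε ≤ 1)
    (hεω : ε * (1 + 4 ^ d) < om d) (n : ℕ) :
    ∃ c₁ : ℝ, 0 < c₁ ∧ c₁ ≤ 1 / 2 ∧ ∃ δ₁ : ℝ, 0 < δ₁ ∧ δ₁ ≤ 1 ∧ ∀ Q < n,
      ∀ (c₀ g : ℝ) (R : Set (Eu d)) (N : Eu d → ℝ) (μ e es G : Measure (Eu d)),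
        0 ≤ c₀ → c₀ ≤ c₁ → 0 ≤ g → Hyp C₁ c₀ g R N μ e es G →
        ∀ (x : Eu d) (s ρ₀ : ℝ), ball x ρ₀ ⊆ R → g * ρ₀ ≤ δ₁ →
          ∫ y in ball x ρ₀, |N y - Q| ≤ ε * ρ₀ ^ d →
          (∀ ρ, 0 < ρ → s ≤ ρ → ρ ≤ ρ₀ → es (ball x ρ) ≤ ENNReal.ofReal (δ₁ * ρ ^ d)) →
          ∀ r, 0 < r → s ≤ r → r ≤ ρ₀ → ∫ y in ball x r, |N y - Q| ≤ 4 ^ d * ε * r ^ d := by
  induction n with
  | zero => exact ⟨1 / 2, by norm_num, le_rfl, 1, one_pos, le_rfl, fun Q hQ => absurd hQ (by omega)⟩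
  | succ n ih =>
    obtain ⟨c₁, hc, hc', δ₁, hδ, hδ', h⟩ := ih
    obtain ⟨c₂, hc2, hc2', δ₂, hδ2, hδ2', h2⟩ := TH1 hSC n hC₁ hε hε1 hεω
    refine ⟨min c₁ c₂, lt_min hc hc2, (min_le_left _ _).trans hc', min δ₁ δ₂, lt_min hδ hδ2,
      (min_le_left _ _).trans hδ', ?_⟩
    intro Q hQ c₀ g R N μ e es G h0 h1 hg H x s ρ₀ hx hgρ hN hes r hr hsr hrρ
    have hes' : ∀ δ', min δ₁ δ₂ ≤ δ' → ∀ ρ, 0 < ρ → s ≤ ρ → ρ ≤ ρ₀ →
        es (ball x ρ) ≤ ENNReal.ofReal (δ' * ρ ^ d) := fun δ' hδ'' ρ hρ h3 h4 =>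
      (hes ρ hρ h3 h4).trans (ENNReal.ofReal_le_ofReal
        (mul_le_mul_of_nonneg_right hδ'' (by positivity)))
    rcases Nat.lt_succ_iff_lt_or_eq.1 hQ with hQ' | rfl
    · exact h Q hQ' c₀ g R N μ e es G h0 (h1.trans (min_le_left _ _)) hg H x s ρ₀ hx
        (hgρ.trans (min_le_left _ _)) hN (hes' _ (min_le_left _ _)) r hr hsr hrρ
    · exact h2 c₀ g R N μ e es G h0 (h1.trans (min_le_right _ _)) hg H x s ρ₀ hx
        (hgρ.trans (min_le_right _ _)) hN (hes' _ (min_le_right _ _)) r hr hsr hrρ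

set_option maxHeartbeats 1000000 in
/-- **(MASS)**: mass ratios stay bounded as long as the tilt ratios are small. -/
theorem mass_down {C : ℝ} (hSC : SC2 d C) {C₁ : ℝ} (hC₁ : 0 ≤ C₁) {C₀ : ℝ} (hC₀ : 0 ≤ C₀) :
    ∃ c₁ : ℝ, 0 < c₁ ∧ c₁ ≤ 1 / 2 ∧ ∃ δ₁ : ℝ, 0 < δ₁ ∧ δ₁ ≤ 1 ∧ ∃ C' : ℝ, 0 < C' ∧
      ∀ (c₀ g : ℝ) (R : Set (Eu d)) (N : Eu d → ℝ) (μ e es G : Measure (Eu d)),
        0 ≤ c₀ → c₀ ≤ c₁ → 0 ≤ g → Hyp C₁ c₀ g R N μ e es G →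
        ∀ (x : Eu d) (t ρ₀ : ℝ), 0 < ρ₀ → ball x (4 * ρ₀) ⊆ R → g * ρ₀ ≤ δ₁ →
          μ (ball x (4 * ρ₀)) ≤ ENNReal.ofReal (C₀ * ρ₀ ^ d) →
          (∀ ρ, 0 < ρ → t ≤ ρ → ρ ≤ 4 * ρ₀ → es (ball x ρ) ≤ ENNReal.ofReal (δ₁ * ρ ^ d)) →
          ∀ r, 0 < r → t ≤ r → r ≤ ρ₀ → μ (ball x r) ≤ ENNReal.ofReal (C' * r ^ d) := by
  have hom := om_pos d
  set ε : ℝ := min 1 (om d / (2 * (1 + 4 ^ d))) with hε
  have hε0 : 0 < ε := by positivity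
  have hε1 : ε ≤ 1 := min_le_left _ _
  have hεω : ε * (1 + 4 ^ d) < om d := by
    calc ε * (1 + 4 ^ d) ≤ om d / (2 * (1 + 4 ^ d)) * (1 + 4 ^ d) := by
          gcongr
          exact min_le_right _ _
      _ = om d / 2 := by field_simp
      _ < om d := by linarith
  set n : ℕ := ⌊(C₀ + 1) / om d⌋₊ + 1 with hn
  obtain ⟨c₁, hc, hc', δ₁, hδ, hδ', hT⟩ := TH1_fin hSC hC₁ hε0 hε1 hεω n
  -- smallness for the top integer
  set η : ℝ := min 1 ((ε / (4 * (|C| + 1))) ^ 2 / (C₀ + 1)) with hη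
  have hη0 : 0 < η := by positivity
  have hη1 : η ≤ 1 := min_le_left _ _
  set c₂ : ℝ := min c₁ (η / (2 * ((C₁ + 1) * (C₀ + 1)))) with hc₂
  set δ₂ : ℝ := min δ₁ (η / (2 * ((C₁ + 1) * 4 ^ d + C₀ + 1))) with hδ₂
  have hc20 : 0 < c₂ := by positivity
  have hδ20 : 0 < δ₂ := by positivity
  have hc₂' : C₁ * (c₂ * C₀) ≤ η / 2 := by
    have h1 : c₂ ≤ η / (2 * ((C₁ + 1) * (C₀ + 1))) := min_le_right _ _
    calc C₁ * (c₂ * C₀) ≤ (C₁ + 1) * (η / (2 * ((C₁ + 1) * (C₀ + 1))) * (C₀ + 1)) := by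
          gcongr <;> linarith
      _ = η / 2 := by field_simp
  have hδ₂' : C₁ * (δ₂ * 4 ^ d) ≤ η / 2 ∧ δ₂ * C₀ ≤ η := by
    have h1 : δ₂ ≤ η / (2 * ((C₁ + 1) * 4 ^ d + C₀ + 1)) := min_le_right _ _
    have h2 : (0 : ℝ) < (C₁ + 1) * 4 ^ d + C₀ + 1 := by positivity
    have h3 : δ₂ * (2 * ((C₁ + 1) * 4 ^ d + C₀ + 1)) ≤ η := by
      rw [le_div_iff₀ (by positivity)] at h1
      exact h1
    have h4 : 0 ≤ δ₂ * 4 ^ d := by positivity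
    have h5 : 0 ≤ C₁ * (δ₂ * 4 ^ d) := by positivity
    have h6 : 0 ≤ δ₂ * C₀ := by positivity
    constructor <;> nlinarith
  refine ⟨c₂, hc20, (min_le_left _ _).trans hc', δ₂, hδ20, (min_le_left _ _).trans hδ',
    2 * (C₀ + 1 + om d + 4 ^ d) + 2, by positivity, ?_⟩
  intro c₀ g R N μ e es G h0 h1 hg H x t ρ₀ hρ hR hgρ hμ hes r hr htr hrρ
  have hc12 : c₀ ≤ c₁ := h1.trans (min_le_left _ _)
  have hρd : 0 < ρ₀ ^ d := by positivity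
  have h4R : MeasurableSet (ball x (4 * ρ₀)) := measurableSet_ball
  have h4ρ : t ≤ 4 * ρ₀ := by linarith
  -- energy at the top
  have hes4 : es (ball x (4 * ρ₀)) ≤ ENNReal.ofReal (δ₂ * (4 * ρ₀) ^ d) :=
    hes _ (by positivity) h4ρ le_rfl
  have he4 : e (ball x (4 * ρ₀)) ≤ ENNReal.ofReal ((c₂ * C₀ + δ₂ * 4 ^ d) * ρ₀ ^ d) := by
    calc e (ball x (4 * ρ₀)) ≤ ENNReal.ofReal c₀ * μ (ball x (4 * ρ₀)) + es (ball x (4 * ρ₀)) :=
          H.tilt _ h4R hR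
      _ ≤ ENNReal.ofReal c₂ * ENNReal.ofReal (C₀ * ρ₀ ^ d) +
          ENNReal.ofReal (δ₂ * (4 * ρ₀) ^ d) := by gcongr
      _ = _ := by
          rw [← ENNReal.ofReal_mul hc20.le, ← ENNReal.ofReal_add (by positivity) (by positivity)]
          congr 1
          rw [mul_pow]; ring
  have hN4 : ∫ y in ball x (4 * ρ₀), N y ≤ (C₀ + 1) * ρ₀ ^ d := by
    have h2 := (H.le_mass _ h4R hR).trans hμ
    have h3 := (ENNReal.ofReal_le_ofReal_iff (by positivity)).1 h2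
    nlinarith
  obtain ⟨q, hq⟩ := exists_integer hSC hC₁ H (x := x) (r := ρ₀) (M := (C₀ + 1) * ρ₀ ^ d)
    (δ := η * ρ₀ ^ d) hρ (by positivity) (by nlinarith) hR hN4 (by
      calc ENNReal.ofReal C₁ * e (ball x (4 * ρ₀))
          ≤ ENNReal.ofReal C₁ * ENNReal.ofReal ((c₂ * C₀ + δ₂ * 4 ^ d) * ρ₀ ^ d) := by gcongr
        _ = ENNReal.ofReal (C₁ * ((c₂ * C₀ + δ₂ * 4 ^ d) * ρ₀ ^ d)) :=
            (ENNReal.ofReal_mul hC₁).symm
        _ ≤ _ := by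
            apply ENNReal.ofReal_le_ofReal
            have h5 : C₁ * (c₂ * C₀) + C₁ * (δ₂ * 4 ^ d) ≤ η := by linarith [hδ₂'.1]
            calc C₁ * ((c₂ * C₀ + δ₂ * 4 ^ d) * ρ₀ ^ d) =
                (C₁ * (c₂ * C₀) + C₁ * (δ₂ * 4 ^ d)) * ρ₀ ^ d := by ring
              _ ≤ _ := mul_le_mul_of_nonneg_right h5 hρd.le) (by
      calc G (ball x (4 * ρ₀)) ≤ ENNReal.ofReal g * μ (ball x (4 * ρ₀)) := H.low _ h4R hR
        _ ≤ ENNReal.ofReal g * ENNReal.ofReal (C₀ * ρ₀ ^ d) := by gcongr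
        _ = ENNReal.ofReal (g * (C₀ * ρ₀ ^ d)) := (ENNReal.ofReal_mul hg).symm
        _ ≤ _ := by
            apply ENNReal.ofReal_le_ofReal
            rw [le_div_iff₀ hρ]
            calc g * (C₀ * ρ₀ ^ d) * ρ₀ = (g * ρ₀) * (C₀ * ρ₀ ^ d) := by ring
              _ ≤ δ₂ * (C₀ * ρ₀ ^ d) := by gcongr
              _ = (δ₂ * C₀) * ρ₀ ^ d := by ring
              _ ≤ _ := mul_le_mul_of_nonneg_right hδ₂'.2 hρd.le)
  have hq2 : ∫ y in ball x ρ₀, |N y - q| ≤ ε * ρ₀ ^ d := by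
    refine hq.trans ?_
    have h5 : (C₀ + 1) * ρ₀ ^ d * (η * ρ₀ ^ d) ≤ (ε / (4 * (|C| + 1)) * ρ₀ ^ d) ^ 2 := by
      have h6 : (C₀ + 1) * η ≤ (ε / (4 * (|C| + 1))) ^ 2 := by
        have : η ≤ (ε / (4 * (|C| + 1))) ^ 2 / (C₀ + 1) := min_le_right _ _
        rw [le_div_iff₀ (by positivity)] at this
        linarith
      calc (C₀ + 1) * ρ₀ ^ d * (η * ρ₀ ^ d) = ((C₀ + 1) * η) * (ρ₀ ^ d) ^ 2 := by ring
        _ ≤ (ε / (4 * (|C| + 1))) ^ 2 * (ρ₀ ^ d) ^ 2 :=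
            mul_le_mul_of_nonneg_right h6 (by positivity)
        _ = _ := by ring
    have h7 := Real.sqrt_le_sqrt h5
    rw [Real.sqrt_sq (by positivity)] at h7
    calc 4 * (C * √((C₀ + 1) * ρ₀ ^ d * (η * ρ₀ ^ d)))
        ≤ 4 * ((|C| + 1) * (ε / (4 * (|C| + 1)) * ρ₀ ^ d)) := by
          have h8 : C ≤ |C| + 1 := by linarith [le_abs_self C]
          have h9 : C * √((C₀ + 1) * ρ₀ ^ d * (η * ρ₀ ^ d)) ≤
              (|C| + 1) * (ε / (4 * (|C| + 1)) * ρ₀ ^ d) :=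
            mul_le_mul h8 h7 (Real.sqrt_nonneg _) (by positivity)
          linarith
      _ = ε * ρ₀ ^ d := by field_simp
  have hsub : ball x ρ₀ ⊆ R := (ball_subset_ball (by linarith)).trans hR
  have hNint : IntegrableOn N (ball x ρ₀) := H.int.mono_set hsub
  -- bound of the integer
  have hqom : (q : ℝ) * om d ≤ C₀ + 1 := by
    have hcst : IntegrableOn (fun _ : Eu d => (q : ℝ)) (ball x ρ₀) :=
      integrableOn_const measure_ball_lt_top.ne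
    have hNq : IntegrableOn (fun y => |N y - (q : ℝ)|) (ball x ρ₀) := (hNint.sub hcst).abs
    have h6 : (q : ℝ) * (om d * ρ₀ ^ d) ≤
        (∫ y in ball x ρ₀, N y) + ∫ y in ball x ρ₀, |N y - q| := by
      rw [← vol_ball x hρ]
      have h7 : (q : ℝ) * volume.real (ball x ρ₀) = ∫ _y in ball x ρ₀, (q : ℝ) := by
        rw [setIntegral_const, smul_eq_mul, mul_comm]
      rw [h7, ← integral_add hNint hNq]
      refine integral_mono hcst (hNint.add hNq) fun y => ?_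
      have := neg_le_abs (N y - q)
      simp only [Pi.add_apply]
      linarith
    have h8 : ∫ y in ball x ρ₀, N y ≤ C₀ * ρ₀ ^ d := by
      have h9 : ENNReal.ofReal (∫ y in ball x ρ₀, N y) ≤ ENNReal.ofReal (C₀ * ρ₀ ^ d) :=
        ((H.le_mass _ measurableSet_ball hsub).trans
          (measure_mono (ball_subset_ball (by linarith)))).trans hμ
      exact (ENNReal.ofReal_le_ofReal_iff (by positivity)).1 h9
    have h10 : (q : ℝ) * om d * ρ₀ ^ d ≤ (C₀ + 1) * ρ₀ ^ d := by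
      have : ε * ρ₀ ^ d ≤ 1 * ρ₀ ^ d := mul_le_mul_of_nonneg_right hε1 hρd.le
      nlinarith
    exact le_of_mul_le_mul_right h10 hρd
  have hqn : q < n := by
    rw [hn, Nat.lt_succ_iff]
    refine Nat.le_floor ?_
    rw [le_div_iff₀ hom]
    exact hqom
  have hfin := hT q hqn c₀ g R N μ e es G h0 hc12 hg H x t ρ₀ hsub
    (hgρ.trans (min_le_left _ _)) hq2 (fun ρ h3 h4 h5 =>
      (hes ρ h3 h4 (by linarith)).trans (ENNReal.ofReal_le_ofReal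
        (mul_le_mul_of_nonneg_right (min_le_left _ _) (by positivity)))) r hr htr hrρ
  have hrd : 0 < r ^ d := by positivity
  have hsubr : ball x r ⊆ R := (ball_subset_ball hrρ).trans hsub
  have hNr : ∫ y in ball x r, N y ≤ (q * om d + 4 ^ d * ε) * r ^ d :=
    integral_N_le hr (H.int.mono_set hsubr) hfin
  have hμr := H.μ_le h0 (hc12.trans hc') measurableSet_ball hsubr hNr
    (by positivity : 0 ≤ δ₂ * r ^ d) (hes r hr htr (by linarith))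
  refine hμr.trans (ENNReal.ofReal_le_ofReal ?_)
  have h4d : (0 : ℝ) < 4 ^ d := by positivity
  have h11 : 4 ^ d * ε ≤ 4 ^ d := by nlinarith
  have h12 : δ₂ ≤ 1 := (min_le_left _ _).trans hδ'
  have h13 : 2 * (q * om d + 4 ^ d * ε) + 2 * δ₂ ≤ 2 * (C₀ + 1 + om d + 4 ^ d) + 2 := by
    linarith
  calc 2 * ((q * om d + 4 ^ d * ε) * r ^ d) + 2 * (δ₂ * r ^ d) =
      (2 * (q * om d + 4 ^ d * ε) + 2 * δ₂) * r ^ d := by ring
    _ ≤ _ := mul_le_mul_of_nonneg_right h13 hrd.le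

end Crest.Agent.R234.Hol_746
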