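import Crest.Agent.R234.Hol4_746
import Crest.Agent.R234.Th12_164
import Crest.Agent.R234.Asl2_214
import Crest.Agent.R234.N5a_372

/-!
# Row 234, VF-HOLE (helper746), part 5: upper mass bounds for varifolds

`setup_of_cylAS`: 164's `Setup` for 214's `CylAS`.  `mass_setup`: (MASS) for varifolds.
-/

set_option autoImplicit false

open Set Filter Topology MeasureTheory Metric
open Crest.GeometryTopology.Submanifold
open Crest.Agent.R234.Vf_884 Crest.Agent.R234.Ar_870 Crest.Agent.R234.Cy_870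
open Crest.Agent.R234.AS_456 Crest.Agent.R234.Asl_214
open Crest.Agent.R234.Th_164 Crest.Agent.R234.N5_372
open scoped ENNReal NNReal ContDiff InnerProductSpace

noncomputable section

namespace Crest.Agent.R234.Hol_746

variable {m n k : ℕ} {π : Euc k →L[ℝ] Euc m} {κ : Euc k →L[ℝ] Euc n}
  {W : Measure (Euc k × L k)} {x₀ : Euc m} {R h₀ δ : ℝ}

theorem setup_of_cylAS (h : CylAS W π κ x₀ R h₀ δ) (hδ : 0 ≤ δ) (hδ1 : δ ≤ 1)
    {N : Euc m → ℝ≥0∞} (hN : Area W π (ball x₀ R) N) :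
    Setup π W (ball x₀ R) N δ (h₀ ^ 2) (fun z => ‖vp π z‖ ^ 2) where
  fin := ⟨h.fin⟩
  co := h.sp.hh
  conc := h.conc
  isOpen := isOpen_ball
  area := hN
  δ_nonneg := hδ
  δ_le := hδ1
  h_nonneg := by positivity
  q_meas := ((vp π).continuous.norm.pow 2).measurable
  q_nonneg z := by positivity
  q_le := by
    filter_upwards [h.hgt] with p hp
    rw [Th_164.norm_vp_eq h.sp]
    exact pow_le_pow_left₀ (norm_nonneg _) hp 2
  fv ξ hξ hξc hξR := by
    have : IsFiniteMeasure W := ⟨h.fin⟩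
    have hX1 : ContDiff ℝ 1 fun p : Euc k => ContinuousLinearMap.adjoint π (ξ (π p)) :=
      (ContinuousLinearMap.adjoint π).contDiff.comp
        ((hξ.of_le (by exact_mod_cast le_top)).comp π.contDiff)
    have hz : ∀ p : Euc k, R ≤ ‖π p - x₀‖ → ContinuousLinearMap.adjoint π (ξ (π p)) = 0 := by
      intro p hp
      have h1 : π p ∉ tsupport ξ := by
        intro h2
        have h3 := hξR h2
        rw [mem_ball, dist_eq_norm] at h3
        linarith
      rw [image_eq_zero_of_notMem_tsupport h1, map_zero]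
    refine (h.fv _ hX1 hz).trans ?_
    -- pointwise bound of the error
    obtain ⟨K, hK⟩ : ∃ K, ∀ x, ‖fderiv ℝ ξ x‖ + ‖ξ x‖ ≤ K := by
      have h1 : HasCompactSupport fun x => ‖fderiv ℝ ξ x‖ + ‖ξ x‖ := by
        have h2 : HasCompactSupport (fderiv ℝ ξ) := hξc.fderiv (𝕜 := ℝ)
        exact h2.norm.add hξc.norm
      have h3 : Continuous fun x => ‖fderiv ℝ ξ x‖ + ‖ξ x‖ :=
        ((hξ.continuous_fderiv (by simp)).norm).add hξ.continuous.norm
      obtain ⟨K, hK⟩ := h1.exists_bound_of_continuous h3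
      exact ⟨K, fun x => (le_abs_self _).trans (hK x)⟩
    have hpt : ∀ᵐ p ∂W, err π δ (fun p => ContinuousLinearMap.adjoint π (ξ (π p))) p ≤
        wg π δ (fun z => ‖vp π z‖ ^ 2) p * (‖fderiv ℝ ξ (π p.1)‖ + ‖ξ (π p.1)‖) := by
      filter_upwards [h.conc] with p hp
      have hd : fderiv ℝ (fun p : Euc k => ContinuousLinearMap.adjoint π (ξ (π p))) p.1 =
          ContinuousLinearMap.adjoint π ∘L fderiv ℝ ξ (π p.1) ∘L π := by
        have e1 : HasFDerivAt ξ (fderiv ℝ ξ (π p.1)) (π p.1) :=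
          (hξ.differentiable (by simp) _).hasFDerivAt
        exact ((ContinuousLinearMap.adjoint π).hasFDerivAt.comp p.1
          (e1.comp p.1 π.hasFDerivAt)).fderiv
      unfold err
      rw [hd]
      exact errA_horizontal_le h.sp.hh hδ (isPr_of_G hp) _ _ _
    have hq : ∀ᵐ p ∂W, ‖vp π p.1‖ ^ 2 ≤ h₀ ^ 2 := by
      filter_upwards [h.hgt] with p hp
      rw [Th_164.norm_vp_eq h.sp]
      exact pow_le_pow_left₀ (norm_nonneg _) hp 2
    have hint : Integrable (fun p : Euc k × L k =>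
        wg π δ (fun z => ‖vp π z‖ ^ 2) p * (‖fderiv ℝ ξ (π p.1)‖ + ‖ξ (π p.1)‖)) W := by
      have hmeas : Measurable fun p : Euc k × L k =>
          wg π δ (fun z => ‖vp π z‖ ^ 2) p * (‖fderiv ℝ ξ (π p.1)‖ + ‖ξ (π p.1)‖) := by
        have e1 : Measurable fun p : Euc k × L k => tl π p.2 := measurable_tl2 π
        have e2 : Continuous fun p : Euc k × L k => ‖vp π p.1‖ ^ 2 :=
          ((vp π).continuous.comp continuous_fst).norm.pow 2
        have e3 : Continuous fun p : Euc k × L k => ‖fderiv ℝ ξ (π p.1)‖ + ‖ξ (π p.1)‖ :=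
          ((hξ.continuous_fderiv (by simp)).comp (π.continuous.comp continuous_fst)).norm.add
            (hξ.continuous.comp (π.continuous.comp continuous_fst)).norm
        unfold wg
        exact ((e1.add e2.measurable).const_mul δ).mul e3.measurable
      refine Integrable.of_bound hmeas.aestronglyMeasurable (δ * (m + h₀ ^ 2) * K) ?_
      filter_upwards [h.conc, hq] with p hp hp2
      have e1 := tl_nonneg h.sp.hh (isPr_of_G hp)
      have e2 := tl_le h.sp.hh (isPr_of_G hp)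
      have e3 : 0 ≤ ‖fderiv ℝ ξ (π p.1)‖ + ‖ξ (π p.1)‖ := by positivity
      have e4 : 0 ≤ wg π δ (fun z => ‖vp π z‖ ^ 2) p := by
        unfold wg
        positivity
      rw [Real.norm_eq_abs, abs_of_nonneg (mul_nonneg e4 e3)]
      have e5 : wg π δ (fun z => ‖vp π z‖ ^ 2) p ≤ δ * (m + h₀ ^ 2) := by
        unfold wg
        exact mul_le_mul_of_nonneg_left (add_le_add e2 hp2) hδ
      exact mul_le_mul e5 (hK _) e3 (e4.trans e5)
    have hnn : ∀ᵐ p ∂W, 0 ≤ err π δ (fun p => ContinuousLinearMap.adjoint π (ξ (π p))) p := by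
      filter_upwards [h.conc] with p hp
      have e1 := tl_nonneg h.sp.hh (isPr_of_G hp)
      unfold err errA
      positivity
    exact integral_mono_of_nonneg hnn hint hpt

/-- **(MASS)** for varifolds. -/
theorem mass_setup (m : ℕ) {C₀ : ℝ} (hC₀ : 0 ≤ C₀) :
    ∃ δ₁ : ℝ, 0 < δ₁ ∧ δ₁ ≤ 1 ∧ ∃ C' : ℝ, 0 < C' ∧
      ∀ (k : ℕ) (π : Euc k →L[ℝ] Euc m) (W : Measure (Euc k × L k)) (R : Set (Euc m))
        (N : Euc m → ℝ≥0∞) (δ h : ℝ) (q : Euc k → ℝ), Setup π W R N δ h q → δ * h ≤ δ₁ →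
        ∀ (x : Euc m) (t ρ₀ : ℝ), 0 < ρ₀ → ball x (4 * ρ₀) ⊆ R → δ * (m + h) * ρ₀ ≤ δ₁ →
          W (ov π (ball x (4 * ρ₀))) ≤ ENNReal.ofReal (C₀ * ρ₀ ^ m) →
          (∀ ρ, 0 < ρ → t ≤ ρ → ρ ≤ 4 * ρ₀ → (eM W π).real (ball x ρ) ≤ δ₁ * ρ ^ m) →
          ∀ r, 0 < r → t ≤ r → r ≤ ρ₀ → W (ov π (ball x r)) ≤ ENNReal.ofReal (C' * r ^ m) := by
  obtain ⟨c₁, hc, hc', δ₁, hδ, hδ', C', hC', hT⟩ :=
    mass_down (sc2 m) (show (0 : ℝ) ≤ m + 2 by positivity) hC₀
  refine ⟨min δ₁ (c₁ / 2), by positivity, (min_le_left _ _).trans hδ', C', hC', ?_⟩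
  intro k π W R N δ h q hS hδh x t ρ₀ hρ hR hgρ hμ he r hr htr hrρ
  have := hS.fin
  have hH := hyp_of hS.co hS.conc hS.isOpen hS.area hS.δ_nonneg hS.δ_le
    (show 0 ≤ c₁ / 2 by positivity) hS.h_nonneg hS.q_meas hS.q_nonneg hS.q_le hS.fv
  have hmuM : ∀ s, muM W π (ball x s) = W (ov π (ball x s)) := fun s =>
    muM_apply W measurableSet_ball
  have hδh0 : 0 ≤ δ * h := mul_nonneg hS.δ_nonneg hS.h_nonneg
  have hmain := hT (c₁ / 2 + δ * h) (δ * (m + h)) R (fun x => (N x).toReal) (muM W π)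
    (wM W π (we π δ q)) (wM W π (ws π (c₁ / 2))) (wM W π (wg π δ q)) (by positivity)
    (by linarith [hδh.trans (min_le_right _ _)])
    (mul_nonneg hS.δ_nonneg (add_nonneg (Nat.cast_nonneg _) hS.h_nonneg)) hH x t ρ₀ hρ hR
    (hgρ.trans (min_le_left _ _)) (by rw [hmuM]; exact hμ) ?_ r hr htr hrρ
  · rwa [hmuM] at hmain
  · intro ρ h1 h2 h3
    have h4 : wM W π (ws π (c₁ / 2)) (ball x ρ) ≤ eM W π (ball x ρ) := by
      rw [wM_apply W _ measurableSet_ball]
      unfold eM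
      rw [bm_apply _ _ _ measurableSet_ball]
      refine lintegral_mono_ae (ae_restrict_of_ae ?_)
      filter_upwards [hS.conc] with p hp
      refine ENNReal.ofReal_le_ofReal ?_
      unfold ws
      by_cases hs : p ∈ {p : Euc k × L k | c₁ / 2 < tl π p.2}
      · rw [Set.indicator_of_mem hs]
      · rw [Set.indicator_of_notMem hs]
        exact tl_nonneg hS.co (isPr_of_G hp)
    have h5 : eM W π (ball x ρ) ≠ ⊤ := by
      unfold eM
      rw [bm_apply _ _ _ measurableSet_ball]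
      refine ne_of_lt ((setLIntegral_le_lintegral _ _).trans_lt ?_)
      calc ∫⁻ p, ENNReal.ofReal (tl π p.2) ∂W ≤ ∫⁻ _p, ENNReal.ofReal m ∂W := by
            refine lintegral_mono_ae ?_
            filter_upwards [hS.conc] with p hp
            exact ENNReal.ofReal_le_ofReal (tl_le hS.co (isPr_of_G hp))
        _ < ⊤ := by
            rw [lintegral_const]
            exact ENNReal.mul_lt_top ENNReal.ofReal_lt_top (measure_lt_top _ _)
    refine h4.trans ?_
    rw [← ENNReal.ofReal_toReal h5]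
    apply ENNReal.ofReal_le_ofReal
    refine (he ρ h1 h2 h3).trans ?_
    exact mul_le_mul_of_nonneg_right (min_le_left _ _) (by positivity)

end Crest.Agent.R234.Hol_746
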