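import Crest.Agent.R234.AS_456
import Crest.Agent.R234.Cp4_914
import Crest.Agent.R234.Cy5_870

/-! Row 234, VF-LOGAS (task 1612, helper300), part 1: the class `App` of approximately stationary
varifolds with an error which is stable under all zooms `0 < s ≤ 1`, and `AS_456.AS → App` on a
solid cylinder with a gap in heights. -/

set_option autoImplicit false
set_option linter.unusedSectionVars false

open MeasureTheory Filter Topology Set
open Crest.GeometryTopology.Submanifold Crest.Agent.R234.Vf_884 Crest.Agent.R234.Ar_870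
open Crest.Agent.R234.Vc_164
open scoped ENNReal NNReal InnerProductSpace

noncomputable section

namespace Crest.Agent.R234.La_300

variable {m n k : ℕ}

/-- size of a test field. -/
def sz (X : Euc k → Euc k) (p : Euc k × L k) : ℝ := ‖fderiv ℝ X p.1‖ + ‖X p.1‖

/-- approximately stationary general `m`-varifolds in `U`. -/
structure App (m k : ℕ) (ω : ℝ) (U : Set (Euc k)) (V : Measure (Euc k × L k)) : Prop where
  conc : ∀ᵐ p ∂V, p.2 ∈ G m k
  fin : ∀ K : Set (Euc k), IsCompact K → K ⊆ U → V (K ×ˢ Set.univ) < ⊤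
  fv : ∀ X : Euc k → Euc k, ContDiff ℝ 1 X → HasCompactSupport X → tsupport X ⊆ U →
    |∫ p, tr ((fderiv ℝ X p.1) ∘L p.2) ∂V| ≤ ω * ∫ p, sz X p ∂V

variable {U U' : Set (Euc k)} {V : Measure (Euc k × L k)} {ω ω' : ℝ}

theorem App.of_stat (h : Stat m k U V) : App m k 0 U V where
  conc := h.conc
  fin := h.fin
  fv X hX hXc hXU := by
    rw [h.stat X hX hXc hXU]
    simp

theorem sz_nonneg (X : Euc k → Euc k) (p : Euc k × L k) : 0 ≤ sz X p := by
  unfold sz; positivity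

theorem App.mono (h : App m k ω U V) (hω : ω ≤ ω') : App m k ω' U V where
  conc := h.conc
  fin := h.fin
  fv X hX hXc hXU := (h.fv X hX hXc hXU).trans
    (mul_le_mul_of_nonneg_right hω (integral_nonneg fun p => sz_nonneg X p))

theorem App.mono_set (h : App m k ω U V) (hU : U' ⊆ U) : App m k ω U' V where
  conc := h.conc
  fin K hK hKU := h.fin K hK (hKU.trans hU)
  fv X hX hXc hXU := h.fv X hX hXc (hXU.trans hU)

theorem continuous_sz {X : Euc k → Euc k} (hX : ContDiff ℝ 1 X) : Continuous (sz (k := k) X) := by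
  unfold sz
  exact ((hX.continuous_fderiv one_ne_zero).comp continuous_fst).norm.add
    (hX.continuous.comp continuous_fst).norm

theorem sz_eq_zero {X : Euc k → Euc k} {p : Euc k × L k} (hp : p.1 ∉ tsupport X) :
    sz X p = 0 := by
  have h1 : fderiv ℝ X p.1 = 0 := by
    by_contra h
    exact hp (support_fderiv_subset ℝ h)
  have h2 : X p.1 = 0 := image_eq_zero_of_notMem_tsupport hp
  simp [sz, h1, h2]

theorem integrable_sz (hc : ∀ᵐ p ∂V, p.2 ∈ G m k) {X : Euc k → Euc k} (hX : ContDiff ℝ 1 X)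
    (hXc : HasCompactSupport X) (hV : V (tsupport X ×ˢ Set.univ) < ⊤) :
    Integrable (sz X) V :=
  integrable_of_cont hc hXc hV (continuous_sz hX) fun _ h => sz_eq_zero h

/-- **zooms**: any centre, any scale `0 < s ≤ 1`. -/
theorem App.zoom (h : App m k ω U V) (hω : 0 ≤ ω) {s : ℝ} (hs : 0 < s) (hs1 : s ≤ 1)
    (z0 : Euc k) : App m k ω ((fun x => z0 + s • x) ⁻¹' U) (resc m z0 s V) where
  conc := resc_conc z0 s h.conc m
  fin K hK hKU := by
    rw [resc_prod_univ m z0 hs V hK.measurableSet]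
    refine ENNReal.mul_lt_top ENNReal.ofReal_lt_top ?_
    refine h.fin _ (hK.image (by fun_prop)) ?_
    rintro _ ⟨x, hx, rfl⟩
    exact hKU hx
  fv X hX hXc hXU := by
    rw [integral_resc m z0 hs V (continuous_tr_fderiv hX).aestronglyMeasurable,
      integral_resc m z0 hs V (continuous_sz hX).aestronglyMeasurable, abs_mul,
      abs_of_nonneg (by positivity : (0:ℝ) ≤ (s ^ m)⁻¹)]
    have hre : ω * ((s ^ m)⁻¹ * ∫ p, sz X (hom z0 s p) ∂V) =
        (s ^ m)⁻¹ * (ω * ∫ p, sz X (hom z0 s p) ∂V) := by ring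
    rw [hre]
    refine mul_le_mul_of_nonneg_left ?_ (by positivity)
    let Y : Euc k → Euc k := fun x => X (s⁻¹ • (x - z0))
    have hY : ContDiff ℝ 1 Y := hX.comp (by fun_prop)
    let e : Euc k ≃ₜ Euc k := (Homeomorph.subRight z0).trans (Homeomorph.smulOfNeZero s⁻¹
      (inv_ne_zero hs.ne'))
    have hYe : Y = X ∘ e := rfl
    have hYc : HasCompactSupport Y := by
      rw [hYe]
      exact hXc.comp_homeomorph e
    have hYU : tsupport Y ⊆ U := by
      rw [hYe, tsupport_comp_eq_preimage]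
      intro x hx
      have h1 := hXU hx
      simp only [mem_preimage] at h1
      have h2 : z0 + s • e x = x := by
        change z0 + s • (s⁻¹ • (x - z0)) = x
        rw [smul_smul, mul_inv_cancel₀ hs.ne', one_smul]
        abel
      rwa [h2] at h1
    have h1 := h.fv Y hY hYc hYU
    have h2 : ∀ x, fderiv ℝ Y x = s⁻¹ • fderiv ℝ X (s⁻¹ • (x - z0)) := by
      intro x
      have hd : DifferentiableAt ℝ X (s⁻¹ • (x - z0)) := hX.differentiable one_ne_zero _
      have h3 : HasFDerivAt (fun x : Euc k => s⁻¹ • (x - z0))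
          (s⁻¹ • ContinuousLinearMap.id ℝ (Euc k)) x :=
        ((hasFDerivAt_id x).sub_const z0).const_smul s⁻¹
      have h4 := hd.hasFDerivAt.comp x h3
      have h5 := h4.fderiv
      change fderiv ℝ (X ∘ fun x => s⁻¹ • (x - z0)) x = _
      rw [h5]
      ext y
      simp
    have h3 : ∀ p : Euc k × L k, tr ((fderiv ℝ X (hom z0 s p).1) ∘L (hom z0 s p).2) =
        s * tr ((fderiv ℝ Y p.1) ∘L p.2) := by
      intro p
      rw [h2, ContinuousLinearMap.smul_comp, map_smul, smul_eq_mul, ← mul_assoc,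
        mul_inv_cancel₀ hs.ne', one_mul]
      rfl
    simp_rw [h3]
    rw [integral_const_mul, abs_mul, abs_of_pos hs]
    have hXV : V (tsupport Y ×ˢ Set.univ) < ⊤ := h.fin _ hYc hYU
    calc s * |∫ p, tr ((fderiv ℝ Y p.1) ∘L p.2) ∂V| ≤ s * (ω * ∫ p, sz Y p ∂V) := by gcongr
      _ = ω * ∫ p, s * sz Y p ∂V := by rw [integral_const_mul]; ring
      _ ≤ ω * ∫ p, sz X (hom z0 s p) ∂V := by
        refine mul_le_mul_of_nonneg_left ?_ hω
        refine integral_mono ((integrable_sz h.conc hY hYc hXV).const_mul s) ?_ ?_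
        · refine integrable_of_cont (K := tsupport Y) h.conc hYc hXV
            ((continuous_sz hX).comp (continuous_hom z0 s)) fun p hp => ?_
          refine sz_eq_zero ?_
          intro hc
          apply hp
          rw [hYe, tsupport_comp_eq_preimage]
          exact hc
        · intro p
          change s * (‖fderiv ℝ Y p.1‖ + ‖Y p.1‖) ≤
            ‖fderiv ℝ X (s⁻¹ • (p.1 - z0))‖ + ‖X (s⁻¹ • (p.1 - z0))‖
          have h4 : ‖fderiv ℝ Y p.1‖ = s⁻¹ * ‖fderiv ℝ X (s⁻¹ • (p.1 - z0))‖ := by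
            rw [h2, norm_smul, norm_inv, Real.norm_of_nonneg hs.le]
          have h5 : ‖Y p.1‖ = ‖X (s⁻¹ • (p.1 - z0))‖ := rfl
          rw [h4, h5, mul_add, ← mul_assoc, mul_inv_cancel₀ hs.ne', one_mul]
          have : s * ‖X (s⁻¹ • (p.1 - z0))‖ ≤ 1 * ‖X (s⁻¹ • (p.1 - z0))‖ := by gcongr
          linarith

/-- limits of approximately stationary varifolds, errors tending to zero, are stationary. -/
theorem stat_of_app {ι : Type*} {F : Filter ι} [F.NeBot] {W : ι → Measure (Euc k × L k)}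
    {V₀ : Measure (Euc k × L k)} (h : Cp914.VfConv m k U F W V₀) (hU : IsOpen U) {w : ι → ℝ}
    (hw : Tendsto w F (𝓝 0)) (happ : ∀ᶠ i in F, App m k (w i) U (W i)) : Stat m k U V₀ := by
  refine h.stat hU fun X hX hc hs => ?_
  have h1 : Tendsto (fun i => ∫ p, sz X p ∂(W i)) F (𝓝 (∫ p, sz X p ∂V₀)) :=
    h.tendsto hU (continuous_sz hX) hc hs fun x hx P => sz_eq_zero hx
  have h2 : Tendsto (fun i => w i * ∫ p, sz X p ∂(W i)) F (𝓝 0) := by
    simpa using hw.mul h1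
  refine squeeze_zero_norm' ?_ h2
  filter_upwards [happ] with i hi
  exact hi.fv X hX hc hs

/-! ### from `AS` -/

theorem norm_hp_le {π : Euc k →L[ℝ] Euc m} (hπ : IsCo π) : ‖AS_456.hp π‖ ≤ 1 := by
  refine ContinuousLinearMap.opNorm_le_bound _ zero_le_one fun x => ?_
  change ‖ContinuousLinearMap.adjoint π (π x)‖ ≤ 1 * ‖x‖
  rw [norm_adjoint_co hπ, one_mul]
  have h1 : ‖π x‖ ^ 2 ≤ ‖x‖ * ‖π x‖ := by
    rw [← real_inner_self_eq_norm_sq, ← ContinuousLinearMap.adjoint_inner_left,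
      real_inner_comm]
    refine (real_inner_le_norm _ _).trans ?_
    rw [norm_adjoint_co hπ]
  rcases eq_or_lt_of_le (norm_nonneg (π x)) with h0 | h0
  · rw [← h0]; exact norm_nonneg _
  · rw [sq] at h1
    exact le_of_mul_le_mul_right h1 h0

theorem hp_sq {π : Euc k →L[ℝ] Euc m} (hπ : IsCo π) (x : Euc k) :
    ‖x‖ ^ 2 = ‖AS_456.hp π x‖ ^ 2 + ‖AS_456.vp π x‖ ^ 2 := by
  have hid : AS_456.hp π (AS_456.hp π x) = AS_456.hp π x := by
    change ContinuousLinearMap.adjoint π (π (ContinuousLinearMap.adjoint π (π x))) = _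
    have : π (ContinuousLinearMap.adjoint π (π x)) = π x :=
      congrArg (fun T : Euc m →L[ℝ] Euc m => T (π x)) hπ
    rw [this]; rfl
  have hsym : ∀ a b, ⟪AS_456.hp π a, b⟫_ℝ = ⟪a, AS_456.hp π b⟫_ℝ := by
    intro a b
    change ⟪ContinuousLinearMap.adjoint π (π a), b⟫_ℝ = ⟪a, ContinuousLinearMap.adjoint π (π b)⟫_ℝ
    rw [ContinuousLinearMap.adjoint_inner_left, ContinuousLinearMap.adjoint_inner_right]
  have h1 : ‖AS_456.hp π x‖ ^ 2 = ⟪x, AS_456.hp π x⟫_ℝ := by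
    rw [← real_inner_self_eq_norm_sq, hsym, hid]
  have h2 : AS_456.vp π x = x - AS_456.hp π x := rfl
  rw [h2, norm_sub_sq_real, h1]
  ring

theorem norm_vp_le {π : Euc k →L[ℝ] Euc m} (hπ : IsCo π) : ‖AS_456.vp π‖ ≤ 1 := by
  refine ContinuousLinearMap.opNorm_le_bound _ zero_le_one fun x => ?_
  rw [one_mul]
  have := hp_sq hπ x
  nlinarith [norm_nonneg (AS_456.vp π x), norm_nonneg x, sq_nonneg ‖AS_456.hp π x‖]

theorem norm_vp_eq {π : Euc k →L[ℝ] Euc m} {κ : Euc k →L[ℝ] Euc n} (h : Cy_870.Split π κ)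
    (x : Euc k) : ‖AS_456.vp π x‖ = ‖κ x‖ := by
  have h1 := hp_sq h.hh x
  have h2 := h.norm_sq x
  have h3 : ‖AS_456.hp π x‖ = ‖π x‖ := norm_adjoint_co h.hh (π x)
  rw [h3] at h1
  have h4 : ‖AS_456.vp π x‖ ^ 2 = ‖κ x‖ ^ 2 := by linarith
  exact (sq_eq_sq₀ (norm_nonneg _) (norm_nonneg _)).1 h4

/-- the error of `AS` is bounded by `20 (m+1) (δ + √δ) sz X` at bounded heights. -/
theorem err_le {π : Euc k →L[ℝ] Euc m} (hπ : IsCo π) {δ : ℝ} (hδ : 0 ≤ δ) (X : Euc k → Euc k)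
    {p : Euc k × L k} (hp : p.2 ∈ G m k) (hy : ‖AS_456.vp π p.1‖ ≤ 1) :
    AS_456.err π δ X p ≤ 20 * (m + 1) * (δ + √δ) * sz X p := by
  have h0 := tl_nonneg hπ (isPr_of_G hp)
  have h1 := tl_le hπ (isPr_of_G hp)
  have hs : √(tl π p.2) ≤ m + 1 := by
    rw [Real.sqrt_le_left (by positivity)]
    nlinarith [(Nat.cast_nonneg m : (0:ℝ) ≤ m)]
  have hsn := Real.sqrt_nonneg (tl π p.2)
  have hy0 := norm_nonneg (AS_456.vp π p.1)
  have hcomp : ∀ B C : L k, ‖B‖ ≤ 1 → ‖C‖ ≤ 1 →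
      ‖B ∘L fderiv ℝ X p.1 ∘L C‖ ≤ ‖fderiv ℝ X p.1‖ := by
    intro B C hB hC
    calc ‖B ∘L fderiv ℝ X p.1 ∘L C‖ ≤ ‖B‖ * (‖fderiv ℝ X p.1‖ * ‖C‖) :=
          (ContinuousLinearMap.opNorm_comp_le _ _).trans
            (mul_le_mul_of_nonneg_left (ContinuousLinearMap.opNorm_comp_le _ _) (norm_nonneg _))
      _ ≤ 1 * (‖fderiv ℝ X p.1‖ * 1) := by gcongr
      _ = _ := by ring
  have happ : ∀ B : L k, ‖B‖ ≤ 1 → ‖B (X p.1)‖ ≤ ‖X p.1‖ := by
    intro B hB
    calc ‖B (X p.1)‖ ≤ ‖B‖ * ‖X p.1‖ := B.le_opNorm _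
      _ ≤ 1 * ‖X p.1‖ := by gcongr
      _ = _ := one_mul _
  have hhp := norm_hp_le hπ
  have hvp := norm_vp_le hπ
  have a1 := hcomp _ _ hhp hhp
  have a2 := hcomp _ _ hhp hvp
  have a3 := hcomp _ _ hvp hhp
  have a4 := hcomp _ _ hvp hvp
  have b1 := happ _ hhp
  have b2 := happ _ hvp
  have hsd := Real.sqrt_nonneg δ
  set D := ‖fderiv ℝ X p.1‖ with hD
  set N := ‖X p.1‖ with hN
  have hD0 : 0 ≤ D := norm_nonneg _
  have hN0 : 0 ≤ N := norm_nonneg _
  have hm0 : (0 : ℝ) ≤ m := Nat.cast_nonneg m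
  have hsz : sz X p = D + N := rfl
  have hyy : ‖AS_456.vp π p.1‖ ^ 2 ≤ 1 := by
    rw [sq]; exact mul_le_one₀ hy hy0 hy
  have t1 : δ * (tl π p.2 + ‖AS_456.vp π p.1‖ ^ 2) *
      (‖AS_456.hp π ∘L fderiv ℝ X p.1 ∘L AS_456.hp π‖ + ‖AS_456.hp π (X p.1)‖) ≤
      δ * (m + 1) * (D + N) := by gcongr
  have t2 : δ * (√(tl π p.2) + ‖AS_456.vp π p.1‖) *
      (‖AS_456.hp π ∘L fderiv ℝ X p.1 ∘L AS_456.vp π‖ +
        ‖AS_456.vp π ∘L fderiv ℝ X p.1 ∘L AS_456.hp π‖ + ‖AS_456.vp π (X p.1)‖) ≤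
      δ * ((m + 1) + 1) * (D + D + N) := by gcongr
  have t3 : δ * (tl π p.2 + ‖AS_456.vp π p.1‖ * √(tl π p.2)) *
      ‖AS_456.vp π ∘L fderiv ℝ X p.1 ∘L AS_456.vp π‖ ≤ δ * (m + 1 * (m + 1)) * D := by gcongr
  have t4 : √δ * tl π p.2 * ‖AS_456.vp π (X p.1)‖ ≤ √δ * m * N := by gcongr
  have hsum : AS_456.err π δ X p ≤ δ * (m + 1) * (D + N) + δ * ((m + 1) + 1) * (D + D + N) +
      δ * (m + 1 * (m + 1)) * D + √δ * m * N := by
    unfold AS_456.err AS_456.errA
    linarith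
  refine hsum.trans ?_
  rw [hsz]
  have c1 : 0 ≤ δ * D := mul_nonneg hδ hD0
  have c2 : 0 ≤ δ * N := mul_nonneg hδ hN0
  have c3 : 0 ≤ √δ * D := mul_nonneg hsd hD0
  have c4 : 0 ≤ √δ * N := mul_nonneg hsd hN0
  have c5 : 0 ≤ m * (δ * D) := mul_nonneg hm0 c1
  have c6 : 0 ≤ m * (δ * N) := mul_nonneg hm0 c2
  have c7 : 0 ≤ m * (√δ * D) := mul_nonneg hm0 c3
  have c8 : 0 ≤ m * (√δ * N) := mul_nonneg hm0 c4
  nlinarith

/-- **`AS` gives `App`** for the part in a closed solid cylinder with a gap in heights. -/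
theorem app_of_AS {π : Euc k →L[ℝ] Euc m} {κ : Euc k →L[ℝ] Euc n} (hs : Cy_870.Split π κ)
    {δ : ℝ} (hδ : 0 ≤ δ) (hV : AS_456.AS π U δ V) {x₀ : Euc m} {R h₀ h₁ : ℝ} (h01 : h₀ < h₁)
    (h1pos : 0 < h₁) (h11 : h₁ ≤ 1) (hU : Cy_870.cyl π κ x₀ R h₁ ⊆ U)
    (hgap : ∀ᵐ p ∂V, p.1 ∈ Cy_870.cyl π κ x₀ R h₁ → ‖κ p.1‖ ≤ h₀) :
    App m k (20 * (m + 1) * (δ + √δ)) {z | ‖π z - x₀‖ < R}
      (V.restrict (Cy_870.cyl π κ x₀ R h₁ ×ˢ univ)) := by
  have hclosed : IsClosed (Cy_870.cyl π κ x₀ R h₁) :=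
    (isClosed_le ((π.continuous.sub continuous_const).norm) continuous_const).inter
      (isClosed_le κ.continuous.norm continuous_const)
  have hmeas : MeasurableSet (Cy_870.cyl π κ x₀ R h₁ ×ˢ (univ : Set (L k))) :=
    hclosed.measurableSet.prod MeasurableSet.univ
  have hcpt : IsCompact (Cy_870.cyl π κ x₀ R h₁) := by
    refine Metric.isCompact_of_isClosed_isBounded hclosed ?_
    refine (Metric.isBounded_closedBall (x := (0 : Euc k)) (r := (‖x₀‖ + |R|) + h₁)).subset ?_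
    intro z hz
    rw [mem_closedBall_zero_iff]
    have e1 := hs.norm_sq z
    have e2 : ‖π z‖ ≤ ‖x₀‖ + |R| := by
      calc ‖π z‖ = ‖x₀ + (π z - x₀)‖ := by congr 1; abel
        _ ≤ ‖x₀‖ + ‖π z - x₀‖ := norm_add_le _ _
        _ ≤ _ := by gcongr; exact hz.1.trans (le_abs_self R)
    have e3 : ‖κ z‖ ≤ h₁ := hz.2
    nlinarith [norm_nonneg (π z), norm_nonneg (κ z), norm_nonneg z, norm_nonneg x₀, abs_nonneg R]
  have hfin : V (Cy_870.cyl π κ x₀ R h₁ ×ˢ univ) < ⊤ := hV.fin _ hcpt hU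
  refine ⟨ae_restrict_of_ae hV.conc, fun K hK hKU => ?_, fun X hX hXc hXU => ?_⟩
  · refine lt_of_le_of_lt (measure_mono (subset_univ _)) ?_
    rw [Measure.restrict_apply_univ]
    exact hfin
  set a : ℝ := max h₀ 0 with ha
  have ha1 : a < h₁ := max_lt h01 h1pos
  have ha0 : 0 ≤ a := le_max_right _ _
  let bp : ContDiffBump (0 : Euc n) := ⟨(a + h₁) / 2, (a + 3 * h₁) / 4, by linarith, by linarith⟩
  set η : Euc k → ℝ := fun z => bp (κ z) with hη
  have hηC : ContDiff ℝ 1 η := bp.contDiff.comp κ.contDiff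
  set Y : Euc k → Euc k := fun z => η z • X z with hY
  have hYC : ContDiff ℝ 1 Y := hηC.smul hX
  have hYX : tsupport Y ⊆ tsupport X := by
    refine closure_minimal (fun z hz => ?_) (isClosed_tsupport X)
    refine subset_tsupport X ?_
    intro h
    exact hz (by simp only [hY, h, smul_zero])
  have hYc : HasCompactSupport Y := hXc.mono' (subset_closure.trans hYX)
  have hYcyl : tsupport Y ⊆ Cy_870.cyl π κ x₀ R h₁ := by
    have h1 : tsupport Y ⊆ {z | ‖κ z‖ ≤ h₁} := by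
      refine closure_minimal (fun z hz => ?_) (isClosed_le κ.continuous.norm continuous_const)
      by_contra hcon
      rw [mem_ofPred_eq, not_le] at hcon
      apply hz
      have h2 : η z = 0 := by
        apply bp.zero_of_le_dist
        change (a + 3 * h₁) / 4 ≤ dist (κ z) 0
        rw [dist_zero_right]
        linarith
      simp only [hY, h2, zero_smul]
    intro z hz
    exact ⟨(hXU (hYX hz)).le, h1 hz⟩
  -- `Y = X` near the part
  have hnear : ∀ᵐ p ∂(V.restrict (Cy_870.cyl π κ x₀ R h₁ ×ˢ univ)),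
      fderiv ℝ Y p.1 = fderiv ℝ X p.1 ∧ Y p.1 = X p.1 ∧ ‖κ p.1‖ ≤ h₀ := by
    filter_upwards [ae_restrict_of_ae hgap, ae_restrict_mem hmeas] with p hp hpm
    have h1 : ‖κ p.1‖ ≤ h₀ := hp hpm.1
    have h2 : ‖κ p.1‖ < (a + h₁) / 2 := by
      have : h₀ ≤ a := le_max_left _ _
      linarith
    have h3 : Y =ᶠ[𝓝 p.1] X := by
      have hopen : IsOpen {z : Euc k | ‖κ z‖ < (a + h₁) / 2} :=
        isOpen_lt κ.continuous.norm continuous_const
      filter_upwards [hopen.mem_nhds h2] with z hz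
      have h4 : η z = 1 := by
        apply bp.one_of_mem_closedBall
        rw [mem_closedBall_zero_iff]
        exact le_of_lt hz
      simp only [hY, h4, one_smul]
    exact ⟨h3.fderiv_eq, h3.self_of_nhds, h1⟩
  have hfv := hV.fv Y hYC hYc (hYcyl.trans hU)
  have e1 : ∫ p, tr ((fderiv ℝ Y p.1) ∘L p.2) ∂V =
      ∫ p in Cy_870.cyl π κ x₀ R h₁ ×ˢ univ, tr ((fderiv ℝ X p.1) ∘L p.2) ∂V := by
    rw [← setIntegral_eq_integral_of_forall_compl_eq_zero
      (s := Cy_870.cyl π κ x₀ R h₁ ×ˢ (univ : Set (L k)))]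
    · refine integral_congr_ae ?_
      filter_upwards [hnear] with p hp
      rw [hp.1]
    · intro p hp
      have h1 : fderiv ℝ Y p.1 = 0 := by
        by_contra h
        exact hp ⟨hYcyl (support_fderiv_subset ℝ h), mem_univ _⟩
      rw [h1]; simp
  have e2 : ∫ p, AS_456.err π δ Y p ∂V =
      ∫ p in Cy_870.cyl π κ x₀ R h₁ ×ˢ univ, AS_456.err π δ X p ∂V := by
    rw [← setIntegral_eq_integral_of_forall_compl_eq_zero
      (s := Cy_870.cyl π κ x₀ R h₁ ×ˢ (univ : Set (L k)))]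
    · refine integral_congr_ae ?_
      filter_upwards [hnear] with p hp
      simp only [AS_456.err, hp.1, hp.2.1]
    · intro p hp
      exact AS_456.err_eq_zero (fun h => hp ⟨hYcyl h, mem_univ _⟩) δ
  rw [e1, e2] at hfv
  refine hfv.trans ?_
  rw [← integral_const_mul]
  have hconc := ae_restrict_of_ae (s := Cy_870.cyl π κ x₀ R h₁ ×ˢ (univ : Set (L k))) hV.conc
  have hfX : (V.restrict (Cy_870.cyl π κ x₀ R h₁ ×ˢ univ)) (tsupport X ×ˢ univ) < ⊤ := by
    refine lt_of_le_of_lt (measure_mono (subset_univ _)) ?_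
    rw [Measure.restrict_apply_univ]
    exact hfin
  refine integral_mono_ae (AS_456.integrable_err hconc hX hXc hfX δ)
    ((integrable_sz hconc hX hXc hfX).const_mul _) ?_
  filter_upwards [hconc, hnear] with p hp hp2
  refine err_le hs.hh hδ X hp ?_
  rw [norm_vp_eq hs]
  linarith [hp2.2.2]

end Crest.Agent.R234.La_300
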