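import Crest.Agent.R234.Pers2_540

/-!
Row 234, VF-PERS (helper540), file 3: tip persistence: two stationary varifolds with lower density
and nearly equal mass measures over a box; tilt energy of one ==> tilt energy of the other.
-/

set_option autoImplicit false

open MeasureTheory Set Filter Topology Crest.GeometryTopology.Submanifold Metric
open scoped ENNReal InnerProductSpace NNReal

noncomputable section

namespace Crest.Agent.R234.Pers_540

open Vf_884 Strat3_842 Vc_164

variable {m k : ℕ} {U : Set (Euc k)} {V A B : Measure (Euc k × L k)} {P : L k}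

/-- closeness of the masses against `C¹` functions supported in `U`. -/
def MClose (U : Set (Euc k)) (ε : ℝ) (V V' : Measure (Euc k × L k)) : Prop :=
  ∀ f : Euc k → ℝ, ContDiff ℝ 1 f → HasCompactSupport f → tsupport f ⊆ U → ∀ M : ℝ,
    (∀ x, ‖fderiv ℝ f x‖ ≤ M) → |∫ p, f p.1 ∂V - ∫ p, f p.1 ∂V'| ≤ ε * M

/-- lower density at support points. -/
def LowD (m : ℕ) (U : Set (Euc k)) (c : ℝ) (V : Measure (Euc k × L k)) : Prop :=
  ∀ x, Sp V x → ∀ r > 0, ball x r ⊆ U → ENNReal.ofReal (c * r ^ m) ≤ V (ball x r ×ˢ univ)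

theorem isOpen_U (P : L k) : IsOpen (Bx P 2) := isOpen_Bx P 2

/-- support points are invariant under translations in the plane. -/
theorem sp_translate (hB : Stat m k U B) (hUo : IsOpen U) (hUc : Convex ℝ U)
    (hp : ∀ K : Set (Euc k), IsCompact K → K ⊆ U → ∀ᵐ p ∂B, p.1 ∈ K → p.2 = P)
    {x ξ : Euc k} (hξ : P ξ = ξ) (hx : x ∈ U) (hxξ : x + ξ ∈ U) (h : Sp B x) :
    Sp B (x + ξ) := by
  intro s hs
  obtain ⟨s1, hs1, h1⟩ := Metric.isOpen_iff.1 hUo x hx
  obtain ⟨s2, hs2, h2⟩ := Metric.isOpen_iff.1 hUo (x + ξ) hxξ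
  set r := min s (min s1 s2) / 2 with hr
  have hr0 : 0 < r := by positivity
  have hrs : r < s := by
    have : min s (min s1 s2) ≤ s := min_le_left _ _
    rw [hr]; linarith
  have hr1 : r < s1 := by
    have : min s (min s1 s2) ≤ s1 := (min_le_right _ _).trans (min_le_left _ _)
    rw [hr]; linarith
  have hr2 : r < s2 := by
    have : min s (min s1 s2) ≤ s2 := (min_le_right _ _).trans (min_le_right _ _)
    rw [hr]; linarith
  set K : Set (Euc k) := (fun q : ℝ × Euc k => x + q.1 • ξ + q.2) '' (Icc (0:ℝ) 1 ×ˢ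
    closedBall (0 : Euc k) r) with hK
  have hKc : IsCompact K := (isCompact_Icc.prod (isCompact_closedBall _ _)).image (by fun_prop)
  have hKU : K ⊆ U := by
    rintro _ ⟨⟨t, v⟩, ⟨ht, hv⟩, rfl⟩
    have a1 : x + v ∈ U := h1 (by
      rw [mem_ball, dist_eq_norm]; simp only [add_sub_cancel_left]
      rw [mem_closedBall_zero_iff] at hv; exact lt_of_le_of_lt hv hr1)
    have a2 : x + ξ + v ∈ U := h2 (by
      rw [mem_ball, dist_eq_norm]; simp only [add_sub_cancel_left]
      rw [mem_closedBall_zero_iff] at hv; exact lt_of_le_of_lt hv hr2)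
    have := hUc a1 a2 (sub_nonneg.2 ht.2) ht.1 (by ring)
    convert this using 1
    simp only
    module
  let b : ContDiffBump x := ⟨r / 2, r, by positivity, by linarith⟩
  have hb1 : ContDiff ℝ 1 b := b.contDiff
  obtain ⟨M, hM⟩ : ∃ M, ∀ y, ‖fderiv ℝ b y‖ ≤ M :=
    (b.hasCompactSupport.fderiv (𝕜 := ℝ)).exists_bound_of_continuous
      (hb1.continuous_fderiv one_ne_zero)
  have key := trans_close hB hb1 hM ξ hKc hKU (fun t ht y hy => by
    have h3 : y - t • ξ ∈ ball x r := by
      have : y - t • ξ ∈ Function.support b := hy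
      rwa [b.support_eq] at this
    refine ⟨(t, y - t • ξ - x), ⟨ht, ?_⟩, ?_⟩
    · rw [mem_closedBall_zero_iff]
      rw [mem_ball, dist_eq_norm] at h3
      exact h3.le
    · simp only; abel)
  have hz : ∫ p in K ×ˢ univ, ‖ξ - p.2 ξ‖ ∂B = 0 := by
    rw [setIntegral_eq_zero_of_ae_eq_zero]
    filter_upwards [hp K hKc hKU] with p hp1 hp2
    rw [hp1 hp2.1, hξ, sub_self, norm_zero]
  rw [hz, mul_zero] at key
  have key2 : ∫ p, b p.1 ∂B = ∫ p, b (p.1 - ξ) ∂B := sub_eq_zero.1 (abs_nonpos_iff.1 key)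
  -- positivity of the left side
  have hint : Integrable (fun p : Euc k × L k => b p.1) B := by
    refine integrable_of_cont hB.conc (isCompact_closedBall x r) (hB.fin _ (isCompact_closedBall x r)
      ((closedBall_subset_ball hr1).trans h1)) (b.continuous.comp continuous_fst) fun p hp => ?_
    have : p.1 ∉ Function.support b := by
      rw [b.support_eq]; exact fun h => hp (ball_subset_closedBall h)
    simpa using this
  have hpos : 0 < ∫ p, b p.1 ∂B := by
    rw [integral_pos_iff_support_of_nonneg (fun p => b.nonneg) hint]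
    refine (h r hr0).trans_le (measure_mono fun p hp => ?_)
    have h3 : p.1 ∈ Function.support b := by rw [b.support_eq]; exact hp.1
    exact h3
  by_contra hcon
  rw [not_lt, nonpos_iff_eq_zero] at hcon
  have h0 : ∫ p, b (p.1 - ξ) ∂B = 0 := by
    refine integral_eq_zero_of_ae ?_
    have h4 : ∀ᵐ p ∂B, p ∉ ball (x + ξ) s ×ˢ (univ : Set (L k)) :=
      measure_eq_zero_iff_ae_notMem.1 hcon
    filter_upwards [h4] with p hp
    by_contra h5
    apply hp
    have h6 : p.1 - ξ ∈ Function.support b := h5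
    rw [b.support_eq, mem_ball, dist_eq_norm] at h6
    refine ⟨?_, mem_univ _⟩
    rw [mem_ball, dist_eq_norm]
    have : p.1 - (x + ξ) = p.1 - ξ - x := by abel
    rw [this]; exact h6.trans hrs
  rw [key2, h0] at hpos
  exact lt_irrefl _ hpos

/-- equal masses have the same support points. -/
theorem sp_of_eq (hAs : Stat m k U A) (hUo : IsOpen U)
    (h : ∀ f : Euc k → ℝ, ContDiff ℝ 1 f → HasCompactSupport f → tsupport f ⊆ U →
      ∫ p, f p.1 ∂A = ∫ p, f p.1 ∂B) {x : Euc k} (hx : x ∈ U) (hA : Sp A x) : Sp B x := by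
  intro s hs
  obtain ⟨s1, hs1, h1⟩ := Metric.isOpen_iff.1 hUo x hx
  set r := min s s1 / 2 with hr
  have hr0 : 0 < r := by positivity
  have hrs : r < s := by
    have : min s s1 ≤ s := min_le_left _ _
    rw [hr]; linarith
  have hr1 : r < s1 := by
    have : min s s1 ≤ s1 := min_le_right _ _
    rw [hr]; linarith
  let b : ContDiffBump x := ⟨r / 2, r, by positivity, by linarith⟩
  have hts : tsupport b ⊆ U := by
    rw [b.tsupport_eq]; exact (closedBall_subset_ball hr1).trans h1
  have key2 : ∫ p, b p.1 ∂A = ∫ p, b p.1 ∂B := h b b.contDiff b.hasCompactSupport hts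
  have hint : Integrable (fun p : Euc k × L k => b p.1) A := by
    refine integrable_of_cont hAs.conc (isCompact_closedBall x r) (hAs.fin _
      (isCompact_closedBall x r)
      ((closedBall_subset_ball hr1).trans h1)) (b.continuous.comp continuous_fst) fun p hp => ?_
    have : p.1 ∉ Function.support b := by
      rw [b.support_eq]; exact fun h => hp (ball_subset_closedBall h)
    simpa using this
  have hpos : 0 < ∫ p, b p.1 ∂A := by
    rw [integral_pos_iff_support_of_nonneg (fun p => b.nonneg) hint]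
    refine (hA r hr0).trans_le (measure_mono fun p hp => ?_)
    have h3 : p.1 ∈ Function.support b := by rw [b.support_eq]; exact hp.1
    exact h3
  by_contra hcon
  rw [not_lt, nonpos_iff_eq_zero] at hcon
  have h0 : ∫ p, b p.1 ∂B = 0 := by
    refine integral_eq_zero_of_ae ?_
    have h4 : ∀ᵐ p ∂B, p ∉ ball x s ×ˢ (univ : Set (L k)) :=
      measure_eq_zero_iff_ae_notMem.1 hcon
    filter_upwards [h4] with p hp
    by_contra h5
    apply hp
    have h6 : p.1 ∈ Function.support b := h5
    rw [b.support_eq] at h6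
    exact ⟨ball_subset_ball hrs.le h6, mem_univ _⟩
  rw [key2, h0] at hpos
  exact lt_irrefl _ hpos

/-- if near a height `y` the support is contained in the plane through `y`, there is no tilt there. -/
theorem tilt_zero_of_plane (hP : P ∈ G m k) (hA : Stat m k U A) {y : Euc k} {a a' δ δ' : ℝ}
    (ha : 0 < a) (haa : a < a') (hδ : 0 < δ) (hδδ : δ < δ')
    (hsub : {x | ‖P x‖ ≤ a' ∧ ‖x - P x - y‖ ≤ δ'} ⊆ U)
    (hs : ∀ x, Sp A x → ‖P x‖ ≤ a' → ‖x - P x - y‖ ≤ δ' → x - P x = y) :
    ∀ᵐ p ∂A, ‖P p.1‖ < a → ‖p.1 - P p.1 - y‖ < δ → tilt P p = 0 := by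
  let b1 : ContDiffBump (0 : Euc k) := ⟨a, a', ha, haa⟩
  let b2 : ContDiffBump y := ⟨δ, δ', hδ, hδδ⟩
  set φ : Euc k → ℝ := fun x => b1 (P x) * b2 (x - P x) with hφ
  set q : L k := ContinuousLinearMap.id ℝ (Euc k) - P with hq
  have hφc : ContDiff ℝ 1 φ :=
    (b1.contDiff.comp P.contDiff).mul (b2.contDiff.comp (contDiff_id.sub P.contDiff))
  have hφ0 : ∀ x, 0 ≤ φ x := fun x => mul_nonneg b1.nonneg b2.nonneg
  set K : Set (Euc k) := {x | ‖P x‖ ≤ a' ∧ ‖x - P x - y‖ ≤ δ'} with hK
  have hKc : IsCompact K := by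
    have hc : IsClosed K :=
      (isClosed_le P.continuous.norm continuous_const).inter
        (isClosed_le ((continuous_id.sub P.continuous).sub continuous_const).norm continuous_const)
    refine Metric.isCompact_of_isClosed_isBounded hc ?_
    refine (Metric.isBounded_closedBall (x := y) (r := a' + δ')).subset fun x hx => ?_
    rw [mem_closedBall, dist_eq_norm]
    calc ‖x - y‖ = ‖P x + (x - P x - y)‖ := by congr 1; abel
      _ ≤ ‖P x‖ + ‖x - P x - y‖ := norm_add_le _ _
      _ ≤ a' + δ' := add_le_add hx.1 hx.2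
  have hφK : ∀ x, φ x ≠ 0 → x ∈ K := by
    intro x hx
    have h1 : b1 (P x) ≠ 0 := left_ne_zero_of_mul hx
    have h2 : b2 (x - P x) ≠ 0 := right_ne_zero_of_mul hx
    have h1' : P x ∈ Function.support b1 := h1
    have h2' : x - P x ∈ Function.support b2 := h2
    rw [b1.support_eq, mem_ball, dist_zero_right] at h1'
    rw [b2.support_eq, mem_ball, dist_eq_norm] at h2'
    exact ⟨h1'.le, h2'.le⟩
  have hφs : HasCompactSupport φ :=
    hKc.of_isClosed_subset (isClosed_tsupport _) (closure_minimal hφK hKc.isClosed)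
  have hφU : tsupport φ ⊆ U := (closure_minimal hφK hKc.isClosed).trans hsub
  set X : Euc k → Euc k := fun x => φ x • (q x - y) with hX
  have hXc : ContDiff ℝ 1 X := hφc.smul (q.contDiff.sub contDiff_const)
  have hXs : tsupport X ⊆ tsupport φ := by
    refine closure_mono fun x hx => ?_
    simp only [Function.mem_support] at hx ⊢
    intro h0; apply hx; rw [hX]; simp only; rw [h0, zero_smul]
  have hst := hA.stat X hXc (hφs.smul_right) (hXs.trans hφU)
  have hXd : ∀ x, fderiv ℝ X x = φ x • q + (fderiv ℝ φ x).smulRight (q x - y) := by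
    intro x
    have h1 : HasFDerivAt φ (fderiv ℝ φ x) x := (hφc.differentiable one_ne_zero x).hasFDerivAt
    have h2 : HasFDerivAt (fun x => q x - y) q x := q.hasFDerivAt.sub_const y
    exact (h1.smul h2).fderiv
  have htr : ∀ᵐ p ∂A, tr ((fderiv ℝ X p.1) ∘L p.2) = φ p.1 * tilt P p := by
    filter_upwards [ae_sp A] with p hp
    have h3 : (fderiv ℝ φ p.1).smulRight (q p.1 - y) = 0 := by
      by_cases h0 : φ p.1 = 0
      · have hmin : IsLocalMin φ p.1 := Eventually.of_forall fun x => by
          rw [h0]; exact hφ0 x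
        rw [hmin.fderiv_eq_zero]; ext; simp
      · have h1 := hφK p.1 h0
        have h2 := hs p.1 hp h1.1 h1.2
        have h4 : q p.1 - y = 0 := by
          rw [hq]; simp only [sub_apply, ContinuousLinearMap.id_apply]; rw [h2, sub_self]
        rw [h4]; ext; simp
    rw [hXd, h3, add_zero]
    have h5 : (φ p.1 • q) ∘L p.2 = φ p.1 • (q ∘L p.2) := by ext; simp
    rw [h5, map_smul, smul_eq_mul]
    rfl
  rw [integral_congr_ae htr] at hst
  have hi : Integrable (fun p : Euc k × L k => φ p.1 * tilt P p) A := by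
    refine integrable_of_cont hA.conc hKc (hA.fin K hKc hsub)
      ((hφc.continuous.comp continuous_fst).mul (continuous_tilt P)) fun p hp => ?_
    have : φ p.1 = 0 := by by_contra h; exact hp (hφK _ h)
    rw [this, zero_mul]
  have hnn : 0 ≤ᵐ[A] fun p => φ p.1 * tilt P p := by
    filter_upwards [hA.conc] with p hp
    exact mul_nonneg (hφ0 _) (tilt_nonneg hp hP)
  have hz := (integral_eq_zero_iff_of_nonneg_ae hnn hi).1 hst
  filter_upwards [hz] with p hp h1 h2
  have e1 : b1 (P p.1) = 1 := b1.one_of_mem_closedBall (by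
    rw [mem_closedBall, dist_zero_right]; exact h1.le)
  have e2 : b2 (p.1 - P p.1) = 1 := b2.one_of_mem_closedBall (by
    rw [mem_closedBall, dist_eq_norm]; exact h2.le)
  have e3 : φ p.1 = 1 := by rw [hφ]; simp only; rw [e1, e2, one_mul]
  have e4 : φ p.1 * tilt P p = 0 := hp
  rw [e3, one_mul] at e4
  exact e4

end Crest.Agent.R234.Pers_540
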