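import Crest.Agent.R234.Hol2_746
import Crest.Agent.R234.Hol3_746
import Crest.Agent.R234.Hol5_746
import Crest.Agent.R234.La1_300
import Crest.Agent.R234.Pers3_540

/-!
# Row 234, VF-HOLE (helper746), part 6: the hole lemma for almost stationary varifolds

Inputs as Props: `LogH` (113, 300), `DvH` (762).  Output: `hole_at`.
-/

set_option autoImplicit false

open Set Filter Topology MeasureTheory Metric
open Crest.GeometryTopology.Submanifold
open Crest.Agent.R234.Vf_884 Crest.Agent.R234.Ar_870 Crest.Agent.R234.Cy_870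
open Crest.Agent.R234.AS_456 Crest.Agent.R234.Asl_214
open Crest.Agent.R234.Th_164 Crest.Agent.R234.N5_372 Crest.Agent.R234.Pers_540
open Crest.Agent.R234.La_300
open scoped ENNReal NNReal ContDiff InnerProductSpace

noncomputable section

namespace Crest.Agent.R234.Hol_746

variable {m n k : ℕ}

/-- **(LOG)**, scaled and translated, uniform in `π`. -/
def LogH (m k : ℕ) (C c : ℝ) : Prop :=
  ∀ σ : ℝ, 0 < σ → ∀ K : ℝ, ∃ M0 : ℝ, ∀ M ≥ M0, ∃ dA > 0,
    ∀ π : Euc k →L[ℝ] Euc m, IsCo π → ∀ (W : Measure (Euc k × L k)) (y : Euc m) (t : ℝ),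
      0 < t → t ≤ 1 → App m k dA {z | ‖π z - y‖ < 2 * M * t} W →
      LowD m {z | ‖π z - y‖ < 2 * M * t} c W →
      (∀ r, t ≤ r → r ≤ 2 * M * t → W (N5_372.ov π (ball y r)) ≤ ENNReal.ofReal (C * r ^ m)) →
      ∀ S : Submodule ℝ (Euc m), Module.finrank ℝ S + 2 = m →
      σ ^ 2 * t ^ m ≤ (eM W π).real (ball y t) →
      (lM W π S).real (ball y (2 * M * t)) ≤ dA * t ^ m →
      K * M ^ (m - 2) * t ^ m ≤ (eM W π).real (ball y (M * t))

/-- **(DV)** in the almost stationary class. -/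
def DvH (m k : ℕ) (C c : ℝ) : Prop :=
  ∃ CB : ℝ, 0 ≤ CB ∧ ∀ (n : ℕ) (π : Euc k →L[ℝ] Euc m) (κ : Euc k →L[ℝ] Euc n)
    (W : Measure (Euc k × L k)) (x₀ : Euc m) (R h₀ δ : ℝ), CylAS W π κ x₀ R h₀ δ → 0 ≤ δ → δ ≤ 1 →
    0 ≤ h₀ → h₀ ≤ 1 → ∀ (x : Euc m) (r h σ : ℝ), ‖x - x₀‖ + 3 * r ≤ R → 0 < h → h ≤ r → r ≤ 1 →
    0 < σ → σ ≤ 1 →
    (∀ y ∈ ball x (2 * r), W.real (N5_372.ov π (ball y h)) ≤ C * h ^ m) →
    W.real (N5_372.ov π (ball x (2 * r))) ≤ C * r ^ m →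
    (∀ y ∈ ball x (2 * r), (eM W π).real (ball y h) ≤ σ ^ 2 * h ^ m) →
    (∀ᵐ z ∂W, π z.1 ∈ ball x (2 * r) → c * h ^ m ≤ W.real {p | ‖z.1 - p.1‖ ≤ h / 2}) →
    (qM W π).real (ball x r) ≤ CB * ((h / r) * √((eM W π).real (ball x (2 * r)) * r ^ m) +
      σ * (eM W π).real (ball x (2 * r))) + CB * √δ * r ^ m

/-- the class of varifolds. -/
structure HSit (C₀ c₀ : ℝ) (W : Measure (Euc k × L k)) (π : Euc k →L[ℝ] Euc m)
    (κ : Euc k →L[ℝ] Euc n) (x₀ : Euc m) (R h₀ δ : ℝ) : Prop where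
  as : CylAS W π κ x₀ R h₀ δ
  δ_nonneg : 0 ≤ δ
  δ_le : δ ≤ 1
  h_nonneg : 0 ≤ h₀
  h_le : h₀ ≤ 1
  area : ∃ N : Euc m → ℝ≥0∞, Area W π (ball x₀ R) N
  fn : ∃ T : Euc k → ℝ≥0∞, Measurable T ∧ ∀ᵐ p ∂W, ENNReal.ofReal (tl π p.2) = T p.1
  low : LowD m {z | ‖π z - x₀‖ < R} c₀ W
  up : ∀ z r, 0 < r → W (closedBall z r ×ˢ univ) ≤ ENNReal.ofReal (C₀ * r ^ m)

variable {C₀ c₀ : ℝ} {W : Measure (Euc k × L k)} {π : Euc k →L[ℝ] Euc m}
  {κ : Euc k →L[ℝ] Euc n} {x₀ : Euc m} {R h₀ δ : ℝ}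

theorem HSit.top_mass (H : HSit C₀ c₀ W π κ x₀ R h₀ δ) (y : Euc m) {ρ : ℝ} (hρ : 0 < ρ) :
    W (N5_372.ov π (ball y ρ)) ≤ ENNReal.ofReal (C₀ * (ρ + h₀) ^ m) := by
  refine le_trans (measure_mono_ae ?_) (H.up (ContinuousLinearMap.adjoint π y) (ρ + h₀)
    (by linarith [H.h_nonneg]))
  filter_upwards [H.as.hgt] with p hp hpm
  have h1 : ‖π p.1 - y‖ < ρ := by
    have : π p.1 ∈ ball y ρ := hpm
    rwa [mem_ball, dist_eq_norm] at this
  refine ⟨?_, mem_univ _⟩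
  show p.1 ∈ closedBall (ContinuousLinearMap.adjoint π y) (ρ + h₀)
  rw [mem_closedBall, dist_eq_norm]
  have h2 := H.as.sp.norm_sq (p.1 - ContinuousLinearMap.adjoint π y)
  have h3 : π (p.1 - ContinuousLinearMap.adjoint π y) = π p.1 - y := by
    rw [map_sub]
    congr 1
    exact congrArg (fun A : L m => A y) H.as.sp.hh
  have h4 : κ (ContinuousLinearMap.adjoint π y) = 0 := by
    have e1 : ContinuousLinearMap.adjoint π (π (ContinuousLinearMap.adjoint π y)) +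
        ContinuousLinearMap.adjoint κ (κ (ContinuousLinearMap.adjoint π y)) =
        ContinuousLinearMap.adjoint π y :=
      congrArg (fun A : L k => A (ContinuousLinearMap.adjoint π y)) H.as.sp.sum
    have e2 : π (ContinuousLinearMap.adjoint π y) = y := congrArg (fun A : L m => A y) H.as.sp.hh
    rw [e2] at e1
    have e3 : ContinuousLinearMap.adjoint κ (κ (ContinuousLinearMap.adjoint π y)) = 0 := by
      simpa using e1
    have e4 : κ (ContinuousLinearMap.adjoint κ (κ (ContinuousLinearMap.adjoint π y))) =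
        κ (ContinuousLinearMap.adjoint π y) :=
      congrArg (fun A : L n => A (κ (ContinuousLinearMap.adjoint π y))) H.as.sp.vv
    rw [← e4, e3, map_zero]
  have h5 : κ (p.1 - ContinuousLinearMap.adjoint π y) = κ p.1 := by
    rw [map_sub, h4, sub_zero]
  rw [h3, h5] at h2
  have h0 := H.h_nonneg
  have h6 : ‖p.1 - ContinuousLinearMap.adjoint π y‖ ^ 2 ≤ (ρ + h₀) ^ 2 := by
    rw [h2]
    nlinarith [norm_nonneg (π p.1 - y), norm_nonneg (κ p.1)]
  exact (pow_le_pow_iff_left₀ (norm_nonneg _) (by linarith) two_ne_zero).1 h6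

theorem HSit.finite (H : HSit C₀ c₀ W π κ x₀ R h₀ δ) : IsFiniteMeasure W := ⟨H.as.fin⟩

theorem finite_bm {c : L k → ℝ} [IsFiniteMeasure W] {B : ℝ} (hc : ∀ᵐ p ∂W, c p.2 ≤ B) :
    IsFiniteMeasure (bm W π c) := by
  refine ⟨?_⟩
  rw [bm_apply _ _ _ MeasurableSet.univ]
  refine (setLIntegral_le_lintegral _ _).trans_lt ?_
  calc ∫⁻ p, ENNReal.ofReal (c p.2) ∂W ≤ ∫⁻ _p, ENNReal.ofReal B ∂W := by
        refine lintegral_mono_ae ?_
        filter_upwards [hc] with p hp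
        exact ENNReal.ofReal_le_ofReal hp
    _ < ⊤ := by
        rw [lintegral_const]
        exact ENNReal.mul_lt_top ENNReal.ofReal_lt_top (measure_lt_top _ _)

theorem HSit.fin_e (H : HSit C₀ c₀ W π κ x₀ R h₀ δ) : IsFiniteMeasure (eM W π) := by
  have := H.finite
  exact finite_bm (B := m) (H.as.conc.mono fun p hp => tl_le H.as.sp.hh (isPr_of_G hp))

theorem HSit.fin_q (H : HSit C₀ c₀ W π κ x₀ R h₀ δ) : IsFiniteMeasure (qM W π) := by
  have := H.finite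
  refine finite_bm (B := m ^ 2) (H.as.conc.mono fun p hp => ?_)
  have h1 := tl_nonneg H.as.sp.hh (isPr_of_G hp)
  have h2 := tl_le H.as.sp.hh (isPr_of_G hp)
  exact pow_le_pow_left₀ h1 h2 2

theorem HSit.fin_l (H : HSit C₀ c₀ W π κ x₀ R h₀ δ) (S : Submodule ℝ (Euc m)) :
    IsFiniteMeasure (lM W π S) := by
  have := H.finite
  exact finite_bm (B := m) (H.as.conc.mono fun p hp => eL_le (isPr_of_G hp) S)

theorem HSit.q_le (H : HSit C₀ c₀ W π κ x₀ R h₀ δ) (x : Euc m) (r : ℝ) :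
    (qM W π).real (ball x r) ≤ m * (eM W π).real (ball x r) := by
  have := H.fin_e
  have h1 : qM W π (ball x r) ≤ ENNReal.ofReal m * eM W π (ball x r) := by
    unfold qM eM
    rw [bm_apply _ _ _ measurableSet_ball, bm_apply _ _ _ measurableSet_ball,
      ← lintegral_const_mul' _ _ ENNReal.ofReal_ne_top]
    refine lintegral_mono_ae (ae_restrict_of_ae ?_)
    filter_upwards [H.as.conc] with p hp
    have e1 := tl_nonneg H.as.sp.hh (isPr_of_G hp)
    have e2 := tl_le H.as.sp.hh (isPr_of_G hp)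
    rw [← ENNReal.ofReal_mul (Nat.cast_nonneg m), sq]
    exact ENNReal.ofReal_le_ofReal (mul_le_mul_of_nonneg_right e2 e1)
  have h2 := ENNReal.toReal_mono (ENNReal.mul_ne_top ENNReal.ofReal_ne_top
    (measure_ne_top (eM W π) _)) h1
  rw [ENNReal.toReal_mul, ENNReal.toReal_ofReal (Nat.cast_nonneg m)] at h2
  exact h2

theorem HSit.app (H : HSit C₀ c₀ W π κ x₀ R h₀ δ) :
    App m k (20 * (m + 1) * (δ + √δ)) {z | ‖π z - x₀‖ < R} W where
  conc := H.as.conc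
  fin K _ _ := by
    have := H.finite
    exact measure_lt_top _ _
  fv X hX hXc hXU := by
    have := H.finite
    have h1 : ∀ p, R ≤ ‖π p - x₀‖ → X p = 0 := by
      intro p hp
      by_contra hcon
      have h2 := hXU (subset_tsupport X hcon)
      exact absurd hp (not_le.2 h2)
    have hfinK : W (tsupport X ×ˢ univ) < ⊤ := measure_lt_top _ _
    refine (H.as.fv X hX h1).trans ?_
    rw [← integral_const_mul]
    refine integral_mono_ae (integrable_err H.as.conc hX hXc hfinK δ)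
      ((integrable_sz H.as.conc hX hXc hfinK).const_mul _) ?_
    filter_upwards [H.as.conc, H.as.hgt] with p hp hp2
    refine err_le H.as.sp.hh H.δ_nonneg X hp ?_
    rw [La_300.norm_vp_eq H.as.sp]
    exact hp2.trans H.h_le

theorem HSit.lowd (H : HSit C₀ c₀ W π κ x₀ R h₀ δ) {y : Euc m} {ρ : ℝ}
    (hy : ‖y - x₀‖ + ρ ≤ R) : LowD m {z | ‖π z - y‖ < ρ} c₀ W := by
  intro z hz r hr hsub
  refine H.low z hz r hr (hsub.trans ?_)
  intro w hw
  have h1 : ‖π w - y‖ < ρ := hw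
  show ‖π w - x₀‖ < R
  calc ‖π w - x₀‖ ≤ ‖π w - y‖ + ‖y - x₀‖ := norm_sub_le_norm_sub_add_norm_sub _ _ _
    _ < R := by linarith

/-- (MASS) in the class. -/
theorem exists_mass (m : ℕ) {C₀ : ℝ} (hC₀ : 0 < C₀) :
    ∃ δ₁ : ℝ, 0 < δ₁ ∧ δ₁ ≤ 1 ∧ ∃ C' : ℝ, 0 < C' ∧ ∀ (k n : ℕ) (c₀ : ℝ)
      (W : Measure (Euc k × L k)) (π : Euc k →L[ℝ] Euc m) (κ : Euc k →L[ℝ] Euc n) (x₀ : Euc m)
      (R h₀ δ : ℝ), HSit C₀ c₀ W π κ x₀ R h₀ δ → δ ≤ δ₁ / (m + 1) →
      ∀ (y : Euc m) (s t : ℝ), 0 < s → s ≤ 1 → h₀ ≤ s → ‖y - x₀‖ + s / 2 ≤ R →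
      (∀ ρ, 0 < ρ → t ≤ ρ → ρ ≤ s / 2 → (eM W π).real (ball y ρ) ≤ δ₁ * ρ ^ m) →
      ∀ r, 0 < r → t ≤ r → r ≤ s / 2 → W (N5_372.ov π (ball y r)) ≤ ENNReal.ofReal (C' * r ^ m) := by
  obtain ⟨δ₁, hδ, hδ', C', hC', hT⟩ := mass_setup m (show 0 ≤ C₀ * 12 ^ m by positivity)
  refine ⟨δ₁, hδ, hδ', max C' (C₀ * 12 ^ m), by positivity, ?_⟩
  intro k n c₀ W π κ x₀ R h₀ δ H hδd y s t hs hs1 hhs hy he r hr htr hrs
  obtain ⟨N, hN⟩ := H.area
  have hS := setup_of_cylAS H.as H.δ_nonneg H.δ_le hN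
  have h0 := H.h_nonneg
  have hδ0 := H.δ_nonneg
  have hm1 : (0 : ℝ) < m + 1 := by positivity
  rw [le_div_iff₀ hm1] at hδd
  have htop : W (N5_372.ov π (ball y (s / 2))) ≤ ENNReal.ofReal (C₀ * 12 ^ m * (s / 8) ^ m) := by
    refine (H.top_mass y (by positivity)).trans (ENNReal.ofReal_le_ofReal ?_)
    calc C₀ * (s / 2 + h₀) ^ m ≤ C₀ * (12 * (s / 8)) ^ m := by
          gcongr
          linarith
      _ = _ := by rw [mul_pow]; ring
  rcases le_or_gt r (s / 8) with h1 | h1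
  · have h4 : 4 * (s / 8) = s / 2 := by ring
    have hh2 : h₀ ^ 2 ≤ 1 := by nlinarith
    have hmn : (0 : ℝ) ≤ m := Nat.cast_nonneg m
    have h5 := hT k π W (ball x₀ R) N δ (h₀ ^ 2) _ hS (by nlinarith) y t (s / 8) (by positivity)
      (by
        rw [h4]
        apply ball_subset_ball'
        rw [dist_eq_norm]
        linarith) (by
        have e1 : δ * (m + h₀ ^ 2) ≤ δ₁ := by nlinarith
        have e2 : 0 ≤ δ * (m + h₀ ^ 2) := by positivity
        nlinarith) (by rw [h4]; exact htop) (by rw [h4]; exact he) r hr htr h1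
    refine h5.trans (ENNReal.ofReal_le_ofReal ?_)
    gcongr
    exact le_max_left _ _
  · calc W (N5_372.ov π (ball y r)) ≤ W (N5_372.ov π (ball y (s / 2))) := by
          refine measure_mono ?_
          intro p hp
          exact ball_subset_ball hrs hp
      _ ≤ ENNReal.ofReal (C₀ * 12 ^ m * (s / 8) ^ m) := htop
      _ ≤ _ := by
          refine ENNReal.ofReal_le_ofReal ?_
          gcongr
          exact le_max_right _ _

end Crest.Agent.R234.Hol_746
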