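import Crest.Agent.R234.Hol6_746

/-!
# Row 234, VF-HOLE (helper746), part 7: `hole_at`

The hole lemma for every almost stationary varifold of the class `HSit`, from `LogH` and `DvH`.
-/

set_option autoImplicit false

open Set Filter Topology MeasureTheory Metric
open Crest.GeometryTopology.Submanifold
open Crest.Agent.R234.Vf_884 Crest.Agent.R234.Ar_870 Crest.Agent.R234.Cy_870
open Crest.Agent.R234.AS_456 Crest.Agent.R234.Asl_214
open Crest.Agent.R234.Th_164 Crest.Agent.R234.N5_372 Crest.Agent.R234.Pers_540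
open Crest.Agent.R234.La_300
open scoped ENNReal NNReal ContDiff InnerProductSpace

noncomputable section

namespace Crest.Agent.R234.Hol_746

variable {m n k : ℕ}

/-- the class of the data in `hole_uniform`. -/
def Pc (m k : ℕ) (C₀ c₀ d κ' : ℝ) (e eL q : Measure (Euc m)) (x : Euc m) (s : ℝ) : Prop :=
  ∃ (n : ℕ) (π : Euc k →L[ℝ] Euc m) (κ : Euc k →L[ℝ] Euc n) (W : Measure (Euc k × L k))
    (x₀ : Euc m) (R h₀ δ : ℝ) (S : Submodule ℝ (Euc m)),
    HSit C₀ c₀ W π κ x₀ R h₀ δ ∧ δ ≤ d ∧ κ' = √δ ∧ Module.finrank ℝ S + 2 = m ∧ 0 < s ∧ s ≤ 1 ∧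
    h₀ ≤ s ∧ ‖x - x₀‖ + 2 * s ≤ R ∧ e = eM W π ∧ eL = lM W π S ∧ q = qM W π

theorem measurableSet_sp (V : Measure (Euc k × L k)) : MeasurableSet {x | Sp V x} := by
  have h : IsOpen {x | ¬ Sp V x} := by
    rw [Metric.isOpen_iff]
    intro x hx
    have hx' : ¬ Sp V x := hx
    unfold Sp at hx'
    push Not at hx'
    obtain ⟨s, hs, h0⟩ := hx'
    refine ⟨s / 2, by positivity, fun w hw => ?_⟩
    show ¬ Sp V w
    intro hsp
    have h1 := hsp (s / 2) (by positivity)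
    have h2 : V (ball w (s / 2) ×ˢ univ) ≤ V (ball x s ×ˢ univ) := by
      refine measure_mono (prod_mono ?_ subset_rfl)
      apply ball_subset_ball'
      have := mem_ball.1 hw
      linarith
    exact absurd (h1.trans_le (h2.trans h0)) (lt_irrefl _)
  have h2 : {x | Sp V x} = {x | ¬ Sp V x}ᶜ := by
    ext x
    simp
  rw [h2]
  exact h.measurableSet.compl

theorem ae_sp_map (V : Measure (Euc k × L k)) : ∀ᵐ z ∂(V.map Prod.fst), Sp V z := by
  rw [ae_map_iff measurable_fst.aemeasurable (measurableSet_sp V)]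
  exact ae_sp V

variable {C₀ c₀ : ℝ} {W : Measure (Euc k × L k)} {π : Euc k →L[ℝ] Euc m}
  {κ : Euc k →L[ℝ] Euc n} {x₀ : Euc m} {R h₀ δ : ℝ}

theorem norm_pi_le (hs : Split π κ) (z : Euc k) : ‖π z‖ ≤ ‖z‖ := norm_co_le hs.hh z

/-- small balls around support points lie in the cylinder. -/
theorem ball_sub (hs : Split π κ) {z : Euc k} {r : ℝ} (hz : ‖π z - x₀‖ + r ≤ R) :
    ball z r ⊆ {z | ‖π z - x₀‖ < R} := by
  intro w hw
  show ‖π w - x₀‖ < R
  have h1 : ‖w - z‖ < r := by rwa [mem_ball, dist_eq_norm] at hw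
  have h2 : ‖π w - π z‖ ≤ ‖w - z‖ := by
    rw [← map_sub]
    exact norm_pi_le hs _
  calc ‖π w - x₀‖ ≤ ‖π w - π z‖ + ‖π z - x₀‖ := norm_sub_le_norm_sub_add_norm_sub _ _ _
    _ < R := by linarith

theorem HSit.low_map (H : HSit C₀ c₀ W π κ x₀ R h₀ δ) {x : Euc m} {s : ℝ}
    (hx : ‖x - x₀‖ + s ≤ R) :
    ∀ᵐ z ∂(W.map Prod.fst), π z ∈ ball x s → ∀ᶠ r in 𝓝[>] (0 : ℝ),
      ENNReal.ofReal (c₀ * r ^ m) ≤ (W.map Prod.fst) (closedBall z r) := by
  filter_upwards [ae_sp_map W] with z hz hzs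
  have h1 : ‖π z - x‖ < s := by rwa [mem_ball, dist_eq_norm] at hzs
  have h2 : 0 < s - ‖π z - x‖ := by linarith
  filter_upwards [Ioo_mem_nhdsGT h2] with r hr
  have h3 : ‖π z - x₀‖ ≤ ‖π z - x‖ + ‖x - x₀‖ := norm_sub_le_norm_sub_add_norm_sub _ _ _
  have h4 := H.low z hz r hr.1 (ball_sub H.as.sp (by linarith [hr.2]))
  refine h4.trans ?_
  rw [map_fst_apply W isClosed_closedBall.measurableSet]
  exact measure_mono (prod_mono ball_subset_closedBall subset_rfl)

/-- right continuity of the energy in the radius, as needed. -/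
theorem le_of_right {e : Measure (Euc m)} [IsFiniteMeasure e] {y : Euc m} {a t b : ℝ} (htb : t < b)
    (h : ∀ r, t < r → r ≤ b → e.real (ball y r) < a * r ^ m) : e.real (ball y t) ≤ a * t ^ m := by
  have h1 : Tendsto (fun r : ℝ => a * r ^ m) (𝓝[>] t) (𝓝 (a * t ^ m)) := by
    have : Continuous fun r : ℝ => a * r ^ m := by fun_prop
    exact (this.tendsto t).mono_left nhdsWithin_le_nhds
  refine ge_of_tendsto h1 ?_
  filter_upwards [Ioo_mem_nhdsGT htb] with r hr
  exact (measureReal_mono (ball_subset_ball hr.1.le)).trans (h r hr.1 hr.2.le).le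

set_option maxHeartbeats 1600000 in
/-- **HOLE** in the class. -/
theorem hole_at {m k : ℕ} (hm : 2 ≤ m) {C₀ c₀ : ℝ} (hC₀ : 0 < C₀) (hc₀ : 0 < c₀)
    (hLog : ∀ C > 0, ∀ c > 0, LogH m k C c) (hDv : ∀ C > 0, ∀ c > 0, DvH m k C c)
    {η : ℝ} (hη : 0 < η) :
    ∃ δH > 0, ∃ lam > 0, ∃ d0 > 0, ∀ (n : ℕ) (π : Euc k →L[ℝ] Euc m) (κ : Euc k →L[ℝ] Euc n)
      (W : Measure (Euc k × L k)) (x₀ : Euc m) (R h₀ δ : ℝ), HSit C₀ c₀ W π κ x₀ R h₀ δ → δ ≤ d0 →
      ∀ S : Submodule ℝ (Euc m), Module.finrank ℝ S + 2 = m → ∀ (x : Euc m) (s E : ℝ), 0 < s →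
      s ≤ 1 → h₀ ≤ s → ‖x - x₀‖ + 2 * s ≤ R → (eM W π).real (ball x (2 * s)) ≤ E * s ^ (m - 2) →
      lam * E ≤ s ^ 2 → (lM W π S).real (ball x (2 * s)) ≤ δH * E * s ^ (m - 2) →
      (qM W π).real (ball x s) ≤ η * E * s ^ (m - 2) := by
  obtain ⟨δ₁, hδ₁, hδ₁', C', hC', hMass⟩ := exists_mass m hC₀
  set d : ℝ := δ₁ / (m + 1) with hd
  have hm1 : (0 : ℝ) < m + 1 := by positivity
  have hd0 : 0 < d := by positivity
  have hd1 : d ≤ 1 := by
    rw [hd, div_le_one hm1]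
    have : (0 : ℝ) ≤ m := Nat.cast_nonneg m
    linarith
  obtain ⟨CB, hCB, hDv'⟩ := hDv (C' * 2 ^ m) (by positivity) (c₀ / 2 ^ m) (by positivity)
  have hσ₀ : 0 < √δ₁ := Real.sqrt_pos.2 hδ₁
  have hsq : ∀ σ : ℝ, 0 < σ → σ ≤ √δ₁ → σ ^ 2 ≤ δ₁ := by
    intro σ h1 h2
    calc σ ^ 2 ≤ (√δ₁) ^ 2 := pow_le_pow_left₀ h1.le h2 2
      _ = δ₁ := Real.sq_sqrt hδ₁.le
  have hσ1 : √δ₁ ≤ 1 := by
    rw [Real.sqrt_le_one]
    exact hδ₁'
  obtain ⟨δH, hδH, lam, hlam, κ0, hκ0, hmain⟩ := hole_uniform (X := Euc m) hm hCB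
    (Nat.cast_nonneg m : (0 : ℝ) ≤ m) (show (0 : ℝ) ≤ 2 ^ m / c₀ by positivity) (Pc m k C₀ c₀ d)
    (by
      rintro κ' e eL q x s ⟨n, π, κ, W, x₀, R, h₀, δ, S, H, hδd, rfl, hS, hs, hs1, hh, hx, rfl, rfl,
        rfl⟩
      exact ⟨H.fin_e, H.fin_l S, H.fin_q, hs, Real.sqrt_nonneg _⟩)
    (by
      rintro κ' e eL q x s ⟨n, π, κ, W, x₀, R, h₀, δ, S, H, hδd, rfl, hS, hs, hs1, hh, hx, rfl, rfl,
        rfl⟩ y r
      exact H.q_le y r)
    hσ₀
    (by
      intro σ hσ hσσ K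
      obtain ⟨M0, hM0⟩ := hLog C' hC' c₀ hc₀ σ hσ K
      refine ⟨max M0 1, fun M hM => ?_⟩
      have hMM0 : M0 ≤ M := (le_max_left _ _).trans hM
      have hM1 : 1 ≤ M := (le_max_right _ _).trans hM
      obtain ⟨dA, hdA, hL⟩ := hM0 M hMM0
      refine ⟨dA / (40 * (m + 1)), by positivity, ?_⟩
      rintro κ' e eL q x s ⟨n, π, κ, W, x₀, R, h₀, δ, S, H, hδd, rfl, hS, hs, hs1, hh, hx, rfl, rfl,
        rfl⟩ hκd y t ht hy hMt hno htip heL
      have hfe := H.fin_e
      have hδ0 := H.δ_nonneg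
      have hyn : ‖y - x‖ < 3 / 2 * s := by rwa [mem_ball, dist_eq_norm] at hy
      have hyx : ‖y - x₀‖ ≤ ‖y - x‖ + ‖x - x₀‖ := norm_sub_le_norm_sub_add_norm_sub _ _ _
      have htM : t ≤ M * t := le_mul_of_one_le_left ht.le hM1
      have hts : t < s / 2 := by nlinarith
      have hdAle : dA / (40 * (m + 1)) ≤ dA := by
        rw [div_le_iff₀ (by positivity)]
        have : (0 : ℝ) ≤ m := Nat.cast_nonneg m
        nlinarith
      have hsd : δ ≤ √δ := by
        have h1 : √δ ≤ 1 := by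
          rw [Real.sqrt_le_one]
          exact H.δ_le
        calc δ = √δ * √δ := (Real.mul_self_sqrt hδ0).symm
          _ ≤ √δ * 1 := by gcongr
          _ = √δ := mul_one _
      have hω : 20 * (m + 1) * (δ + √δ) ≤ dA := by
        rw [le_div_iff₀ (by positivity)] at hκd
        nlinarith
      have happ : App m k dA {z | ‖π z - y‖ < 2 * M * t} W := by
        refine (H.app.mono hω).mono_set ?_
        intro z hz
        have h1 : ‖π z - y‖ < 2 * M * t := hz
        show ‖π z - x₀‖ < R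
        calc ‖π z - x₀‖ ≤ ‖π z - y‖ + ‖y - x₀‖ := norm_sub_le_norm_sub_add_norm_sub _ _ _
          _ < R := by linarith
      refine hL π H.as.sp.hh W y t ht (by linarith) happ (H.lowd (by linarith)) ?_ S hS htip
        (heL.trans (by gcongr))
      intro r hr1 hr2
      have hr0 : 0 < r := ht.trans_le hr1
      refine hMass k n c₀ W π κ x₀ R h₀ δ H hδd y s t hs hs1 hh (by linarith) ?_ r hr0 hr1
        (by linarith)
      intro ρ hρ hρ1 hρ2
      have h1 : (eM W π).real (ball y ρ) ≤ σ ^ 2 * ρ ^ m := by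
        rcases hρ1.eq_or_lt with h2 | h2
        · rw [← h2]
          exact le_of_right hts hno
        · exact (hno ρ h2 hρ2).le
      refine h1.trans ?_
      have := hsq σ hσ hσσ
      gcongr)
    (by
      rintro κ' e eL q x s ⟨n, π, κ, W, x₀, R, h₀, δ, S, H, hδd, rfl, hS, hs, hs1, hh, hx, rfl, rfl,
        rfl⟩ σ hσ hσσ y r h hh0 hhr hsub h3r hq
      have hfe := H.fin_e
      have hfin := H.finite
      have hr : 0 < r := hh0.trans_le hhr
      have hdist : ∀ w ∈ ball y (2 * r), ‖w - x₀‖ + s / 2 ≤ R := by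
        intro w hw
        have h1 : w ∈ ball x (3 / 2 * s) := hsub (ball_subset_ball (by linarith) hw)
        have h2 : ‖w - x‖ < 3 / 2 * s := by rwa [mem_ball, dist_eq_norm] at h1
        have h3 : ‖w - x₀‖ ≤ ‖w - x‖ + ‖x - x₀‖ := norm_sub_le_norm_sub_add_norm_sub _ _ _
        linarith
      have hyy : ‖y - x₀‖ + s / 2 ≤ R := hdist y (mem_ball_self (by positivity))
      have hms : ∀ w ∈ ball y (2 * r), ∀ t, 0 < t → h ≤ t → t ≤ s / 2 →
          W.real (N5_372.ov π (ball w t)) ≤ C' * t ^ m := by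
        intro w hw t ht hht hts
        have h1 := hMass k n c₀ W π κ x₀ R h₀ δ H hδd w s h hs hs1 hh (hdist w hw) (by
          intro ρ hρ hρ1 hρ2
          refine (hq w hw ρ hρ1 hρ2).trans ?_
          have := hsq σ hσ hσσ
          gcongr) t ht hht hts
        exact ENNReal.toReal_le_of_le_ofReal (by positivity) h1
      have h2m : (1 : ℝ) ≤ 2 ^ m := one_le_pow₀ (by norm_num)
      refine hDv' n π κ W x₀ R h₀ δ H.as H.δ_nonneg H.δ_le H.h_nonneg H.h_le y r h σ (by linarith)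
        hh0 hhr (by linarith) hσ (hσσ.trans hσ1) ?_ ?_ ?_ ?_
      · intro w hw
        refine (hms w hw h hh0 le_rfl (by linarith)).trans ?_
        have h1 : 0 ≤ C' * h ^ m := by positivity
        nlinarith
      · refine (hms y (mem_ball_self (by positivity)) (2 * r) (by positivity) (by linarith)
          (by linarith)).trans (le_of_eq ?_)
        rw [mul_pow]
        ring
      · intro w hw
        exact hq w hw h le_rfl (by linarith)
      · filter_upwards [ae_sp W] with p hp hpb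
        have h1 : ‖π p.1 - y‖ < 2 * r := by rwa [mem_ball, dist_eq_norm] at hpb
        have h2 : ‖π p.1 - x₀‖ ≤ ‖π p.1 - y‖ + ‖y - x₀‖ := norm_sub_le_norm_sub_add_norm_sub _ _ _
        have h3 := H.low p.1 hp (h / 2) (by positivity) (ball_sub H.as.sp (by linarith))
        have h4 : W (ball p.1 (h / 2) ×ˢ univ) ≤ W {p' | ‖p.1 - p'.1‖ ≤ h / 2} := by
          refine measure_mono ?_
          rintro p' ⟨hp', -⟩
          show ‖p.1 - p'.1‖ ≤ h / 2
          rw [mem_ball, dist_eq_norm] at hp'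
          rw [norm_sub_rev]
          exact hp'.le
        have h5 := (ENNReal.ofReal_le_iff_le_toReal (measure_ne_top _ _)).1 (h3.trans h4)
        calc c₀ / 2 ^ m * h ^ m = c₀ * (h / 2) ^ m := by rw [div_pow]; ring
          _ ≤ _ := h5)
    (by
      rintro κ' e eL q x s ⟨n, π, κ, W, x₀, R, h₀, δ, S, H, hδd, rfl, hS, hs, hs1, hh, hx, rfl, rfl,
        rfl⟩ ε hε hε1
      have hfe := H.fin_e
      have hfin := H.finite
      obtain ⟨T, hT, hTe⟩ := H.fn
      refine (measure_mono (subset_quiet (eM W π) x s ε)).trans ?_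
      refine (quiet_le H.as.sp.hh H.as.conc hT hTe hc₀ (H.low_map (by linarith)) hs hε).trans ?_
      have h1 : eM W π (ball x s) ≤ ENNReal.ofReal ((eM W π).real (ball x (2 * s))) := by
        rw [ofReal_measureReal]
        exact measure_mono (ball_subset_ball (by linarith))
      refine (mul_le_mul_right h1 _).trans ?_
      rw [← ENNReal.ofReal_mul (by positivity)]
      apply ENNReal.ofReal_le_ofReal
      apply le_of_eq
      ring)
    hη
  refine ⟨δH, hδH, lam, hlam, min d (κ0 ^ 2), by positivity, ?_⟩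
  intro n π κ W x₀ R h₀ δ H hδ S hS x s E hs hs1 hh hx hE hlE hL
  refine hmain (√δ) (eM W π) (lM W π S) (qM W π) x s
    ⟨n, π, κ, W, x₀, R, h₀, δ, S, H, hδ.trans (min_le_left _ _), rfl, hS, hs, hs1, hh, hx, rfl, rfl,
      rfl⟩ ?_ E hE hlE hL
  rw [Real.sqrt_le_left hκ0.le]
  exact hδ.trans (min_le_right _ _)

end Crest.Agent.R234.Hol_746
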