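import Crest.Agent.R234.La5_300

/-! Row 234, VF-LOGAS (task 1612, helper300), part 6: the hypothesis `LogH` of 746's `Hol6`. -/

set_option autoImplicit false
set_option linter.unusedSectionVars false

open MeasureTheory Filter Topology Set Metric
open Crest.GeometryTopology.Submanifold Crest.Agent.R234.Vf_884 Crest.Agent.R234.Ar_870
open Crest.Agent.R234.Vc_164 Crest.Agent.R234.Cp914 Crest.Agent.R234.Pers_540
open Crest.Agent.R234.N5_372 Crest.Agent.R234.Cy_870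
open scoped ENNReal NNReal InnerProductSpace

noncomputable section

namespace Crest.Agent.R234.La_300

variable {m n k d : ℕ} {π : Euc k →L[ℝ] Euc m} {W : Measure (Euc k × L k)}

/-- bounded weights give finite base measures. -/
theorem bm_lt_top (hc : ∀ᵐ p ∂W, p.2 ∈ G m k) {g : L k → ℝ} (hg : ∀ P ∈ G m k, g P ≤ m)
    {A : Set (Euc m)} (hA : MeasurableSet A) (hfin : W (ov π A) < ⊤) : bm W π g A < ⊤ := by
  rw [bm_apply _ _ _ hA]
  calc ∫⁻ p in ov π A, ENNReal.ofReal (g p.2) ∂W ≤ ∫⁻ _p in ov π A, ENNReal.ofReal m ∂W := by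
        refine lintegral_mono_ae ?_
        filter_upwards [ae_restrict_of_ae hc] with p hp
        exact ENNReal.ofReal_le_ofReal (hg _ hp)
    _ = ENNReal.ofReal m * W (ov π A) := by rw [setLIntegral_const]
    _ < ⊤ := ENNReal.mul_lt_top ENNReal.ofReal_lt_top hfin

/-- **(LOG) for approximately stationary varifolds, in real numbers** (746 #7553, `LogH`). -/
theorem logH (m k : ℕ) {C c : ℝ} (hC : 0 ≤ C) (hc : 0 < c) :
    ∀ s : ℝ, 0 < s → ∀ K : ℝ, ∃ M0 : ℝ, ∀ M : ℝ, M0 ≤ M → ∃ dA : ℝ, 0 < dA ∧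
    ∀ π : Euc k →L[ℝ] Euc m, IsCo π →
    ∀ (W : Measure (Euc k × L k)) (y : Euc m) (t : ℝ), 0 < t → t ≤ 1 →
    App m k dA {z | ‖π z - y‖ < 2 * M * t} W →
    LowD m {z | ‖π z - y‖ < 2 * M * t} c W →
    (∀ r, t ≤ r → r ≤ 2 * M * t → W (ov π (ball y r)) ≤ ENNReal.ofReal (C * r ^ m)) →
    ∀ S : Submodule ℝ (Euc m), Module.finrank ℝ S + 2 = m →
    s ^ 2 * t ^ m ≤ (eM W π).real (ball y t) →
    (lM W π S).real (ball y (2 * M * t)) ≤ dA * t ^ m →
    K * M ^ (m - 2) * t ^ m ≤ (eM W π).real (ball y (M * t)) := by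
  intro s hs K
  rcases lt_or_ge m 2 with hm | hm
  · exact ⟨0, fun M _ => ⟨1, one_pos, fun π _ W y t _ _ _ _ _ S hS => by omega⟩⟩
  obtain ⟨M0, hM03, h⟩ := log_as (m := m) (k := k) (d := m - 2) (by omega) hC hc
    (τ := s ^ 2) (by positivity) K
  refine ⟨M0, fun M hM => ?_⟩
  obtain ⟨dA, hdA, h1⟩ := h M hM
  have hM3 : 3 ≤ M := hM03.trans hM
  refine ⟨dA, hdA, fun π hπ W y t ht ht1 happ hlow hmass S hS hen hlM => ?_⟩
  have hfin : ∀ r, r ≤ 2 * M * t → W (ov π (ball y r)) < ⊤ := by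
    intro r hr
    refine lt_of_le_of_lt (measure_mono fun p hp => ?_)
      ((hmass (2 * M * t) (by nlinarith) le_rfl).trans_lt ENNReal.ofReal_lt_top)
    exact ball_subset_ball hr hp
  have hb1 : ∀ P ∈ G m k, tl π P ≤ m := fun P hP => tl_le hπ (isPr_of_G hP)
  have hb2 : ∀ P ∈ G m k, eL π S P ≤ m := fun P hP => eL_le (isPr_of_G hP) S
  have hf1 : (eM W π) (ball y (M * t)) ≠ ⊤ :=
    (bm_lt_top happ.conc hb1 measurableSet_ball (hfin _ (by nlinarith))).ne
  have hf2 : (lM W π S) (ball y (2 * M * t)) ≠ ⊤ :=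
    (bm_lt_top happ.conc hb2 measurableSet_ball (hfin _ le_rfl)).ne
  have h2 := h1 π hπ W S y t ht ht1 happ hmass hlow (by omega)
    (ENNReal.ofReal_le_of_le_toReal hen) (ENNReal.le_ofReal_iff_toReal_le hf2 (by positivity) |>.2 hlM)
  exact (ENNReal.ofReal_le_iff_le_toReal hf1).1 h2

end Crest.Agent.R234.La_300
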