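import Crest.Agent.R234.Hol7_746
import Crest.Agent.R234.La6_300
import Crest.Agent.R234.Pas7_762

/-!
# Row 234, VF-HOLE (helper746), part 8: the two inputs of `hole_at` are theorems

`logH` (113, 300) and `dvH` (762) give **`hole`**, the unconditional hole lemma in the class `HSit`.
-/

set_option autoImplicit false

open Set Filter Topology MeasureTheory Metric
open Crest.GeometryTopology.Submanifold
open Crest.Agent.R234.Vf_884 Crest.Agent.R234.Ar_870 Crest.Agent.R234.Cy_870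
open Crest.Agent.R234.AS_456 Crest.Agent.R234.Asl_214
open Crest.Agent.R234.Th_164 Crest.Agent.R234.N5_372 Crest.Agent.R234.Pers_540
open Crest.Agent.R234.La_300
open scoped ENNReal NNReal ContDiff InnerProductSpace

noncomputable section

namespace Crest.Agent.R234.Hol_746

variable {m n k : ℕ}

theorem logH (m k : ℕ) {C c : ℝ} (hC : 0 ≤ C) (hc : 0 < c) : LogH m k C c :=
  La_300.logH m k hC hc

theorem ov_eq (π : Euc k →L[ℝ] Euc m) (y : Euc m) (s : ℝ) :
    Pair6_762.ov π y s = N5_372.ov π (ball y s) := by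
  ext p
  show ‖π p.1 - y‖ < s ↔ π p.1 ∈ ball y s
  rw [mem_ball, dist_eq_norm]

variable {W : Measure (Euc k × L k)} {π : Euc k →L[ℝ] Euc m}
  {κ : Euc k →L[ℝ] Euc n} {x₀ : Euc m} {R h₀ δ : ℝ}

theorem ctl (π : Euc k →L[ℝ] Euc m) : Continuous (tl π : L k → ℝ) := measurable_tl π

theorem bm_real {c : L k → ℝ} (hc : Continuous c) (h0 : ∀ᵐ p ∂W, 0 ≤ c p.2) (y : Euc m) (s : ℝ) :
    (bm W π c).real (ball y s) = ∫ p in Pair6_762.ov π y s, c p.2 ∂W := by
  rw [measureReal_def, bm_apply _ _ _ measurableSet_ball, ov_eq,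
    integral_eq_lintegral_of_nonneg_ae (ae_restrict_of_ae h0)
      ((hc.comp continuous_snd).aestronglyMeasurable)]

theorem eb_eq (H : CylAS W π κ x₀ R h₀ δ) (y : Euc m) (s : ℝ) :
    Pair6_762.eb W π y s = (eM W π).real (ball y s) := by
  refine (bm_real (ctl π) ?_ y s).symm
  filter_upwards [H.conc] with p hp
  exact tl_nonneg H.sp.hh (isPr_of_G hp)

theorem qb_eq (H : CylAS W π κ x₀ R h₀ δ) (y : Euc m) (s : ℝ) :
    ∫ p in Pair6_762.ov π y s, tl π p.2 ^ 2 ∂W = (qM W π).real (ball y s) :=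
  (bm_real (c := fun P => tl π P ^ 2) ((ctl π).pow 2)
    (Filter.Eventually.of_forall fun p => sq_nonneg _) y s).symm

theorem eM_le_vol (H : CylAS W π κ x₀ R h₀ δ) (y : Euc m) (s : ℝ) :
    (eM W π).real (ball y s) ≤ m * W.real (N5_372.ov π (ball y s)) := by
  have hfin : IsFiniteMeasure W := ⟨H.fin⟩
  have h1 : eM W π (ball y s) ≤ ENNReal.ofReal m * W (N5_372.ov π (ball y s)) := by
    unfold eM
    rw [bm_apply _ _ _ measurableSet_ball, ← setLIntegral_const]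
    refine lintegral_mono_ae (ae_restrict_of_ae ?_)
    filter_upwards [H.conc] with p hp
    exact ENNReal.ofReal_le_ofReal (tl_le H.sp.hh (isPr_of_G hp))
  have h2 := ENNReal.toReal_mono (ENNReal.mul_ne_top ENNReal.ofReal_ne_top
    (measure_ne_top W _)) h1
  rw [ENNReal.toReal_mul, ENNReal.toReal_ofReal (Nat.cast_nonneg m)] at h2
  exact h2

theorem yb_le_vol (H : CylAS W π κ x₀ R h₀ δ) (h1 : h₀ ≤ 1) (y : Euc m) (s : ℝ) :
    Pas_762.yb W π y s ≤ W.real (N5_372.ov π (ball y s)) := by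
  have hfin : IsFiniteMeasure W := ⟨H.fin⟩
  unfold Pas_762.yb
  rw [ov_eq]
  calc ∫ p in N5_372.ov π (ball y s), ‖AS_456.vp π p.1‖ ^ 2 ∂W
      ≤ ∫ _p in N5_372.ov π (ball y s), (1 : ℝ) ∂W := by
        refine integral_mono_of_nonneg (Filter.Eventually.of_forall fun p => sq_nonneg _)
          (integrable_const _) (ae_restrict_of_ae ?_)
        filter_upwards [H.hgt] with p hp
        show ‖AS_456.vp π p.1‖ ^ 2 ≤ 1
        rw [Pas_762.norm_vp_eq H.sp]
        have h2 : ‖κ p.1‖ ≤ 1 := hp.trans h1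
        exact pow_le_one₀ (norm_nonneg _) h2
    _ = _ := by
        rw [integral_const, smul_eq_mul, mul_one, measureReal_restrict_apply_univ]

set_option maxHeartbeats 1600000 in
theorem dvH (m k : ℕ) {C c : ℝ} (hC : 0 < C) (hc : 0 < c) : DvH m k C c := by
  set B : ℝ := 240 * (m + 1) + 67 with hB
  refine ⟨k / c * (320 * C * √C + 43 * √C + 11 * C * (C * ((m + 1) * B))), by positivity, ?_⟩
  intro n π κ W x₀ R h₀ δ H hδ0 hδ1 hh0 hh1 x r h σ hR hh hhr hr1 hσ hσ1 hM hV he hd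
  have hfin : IsFiniteMeasure W := ⟨H.fin⟩
  have hr : 0 < r := hh.trans_le hhr
  have hdv := Pas_762.dv_cylAS (x := x) (r := r) (h := h) (M := C) (σ := σ) (c := c) H
    (by linarith) hh1 hδ0 hδ1 hh hhr hr1 hC hσ hc
    (by
      intro y hy
      rw [ov_eq]
      exact hM y (by rw [mem_ball, dist_eq_norm]; exact hy))
    (by
      intro y hy
      rw [eb_eq H]
      exact he y (by rw [mem_ball, dist_eq_norm]; exact hy))
    (by
      filter_upwards [hd] with z hz hzx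
      refine hz ?_
      rw [mem_ball, dist_eq_norm]
      linarith)
  rw [qb_eq H, eb_eq H, ov_eq] at hdv
  unfold Pas_762.ea at hdv
  rw [eb_eq H, ov_eq] at hdv
  refine hdv.trans ?_
  -- abbreviations
  set e := (eM W π).real (ball x (2 * r)) with hedef
  set v := W.real (N5_372.ov π (ball x (2 * r))) with hvdef
  set Y := Pas_762.yb W π x (2 * r) with hYdef
  set ρ := r ^ m with hρdef
  have hρ : 0 < ρ := by positivity
  have he0 : 0 ≤ e := measureReal_nonneg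
  have hv0 : 0 ≤ v := measureReal_nonneg
  have hY0 : 0 ≤ Y := Pas_762.yb_nonneg _ _
  have hmn : (0 : ℝ) ≤ m := Nat.cast_nonneg m
  have hev : e ≤ m * v := eM_le_vol H x (2 * r)
  have hYv : Y ≤ v := yb_le_vol H hh1 x (2 * r)
  have heρ : e ≤ m * (C * ρ) := hev.trans (by gcongr)
  have hYρ : Y ≤ C * ρ := hYv.trans hV
  have hCρ : 0 < C * ρ := by positivity
  have hsd0 : 0 ≤ √δ := Real.sqrt_nonneg _
  have hsd1 : √δ ≤ 1 := by
    rw [Real.sqrt_le_one]; exact hδ1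
  have hds : δ ≤ √δ := by
    calc δ = √δ * √δ := (Real.mul_self_sqrt hδ0).symm
      _ ≤ √δ * 1 := by gcongr
      _ = √δ := mul_one _
  have hd2s : δ ^ 2 ≤ √δ := by nlinarith
  have hhr1 : h / r ≤ 1 := by rw [div_le_one hr]; exact hhr
  have hhr0 : 0 ≤ h / r := by positivity
  -- first term
  have t1 : √(e * v) ≤ √C * √(e * ρ) := by
    rw [← Real.sqrt_mul hC.le]
    apply Real.sqrt_le_sqrt
    calc e * v ≤ e * (C * ρ) := by gcongr
      _ = C * (e * ρ) := by ring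
  have t2 : √(e * Y) ≤ (m + 1) * (C * ρ) := by
    rw [← Real.sqrt_sq (show 0 ≤ (m + 1) * (C * ρ) by positivity)]
    apply Real.sqrt_le_sqrt
    calc e * Y ≤ (m * (C * ρ)) * (C * ρ) := by gcongr
      _ ≤ ((m + 1) * (C * ρ)) ^ 2 := by nlinarith [sq_nonneg (C * ρ), sq_nonneg ((m : ℝ) * (C * ρ))]
  have t3 : √((e + Y) * v) ≤ (m + 1) * (C * ρ) := by
    rw [← Real.sqrt_sq (show 0 ≤ (m + 1) * (C * ρ) by positivity)]
    apply Real.sqrt_le_sqrt
    calc (e + Y) * v ≤ (m * (C * ρ) + C * ρ) * (C * ρ) := by gcongr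
      _ ≤ ((m + 1) * (C * ρ)) ^ 2 := by nlinarith [sq_nonneg (C * ρ), sq_nonneg ((m : ℝ) * (C * ρ))]
  have hh1' : h ≤ 1 := hhr.trans hr1
  have u1 : δ * (e + √(e * Y)) ≤ √δ * (2 * (m + 1) * (C * ρ)) := by
    have : e + √(e * Y) ≤ 2 * (m + 1) * (C * ρ) := by nlinarith
    exact mul_le_mul hds this (by positivity) hsd0
  have u2 : δ ^ 2 * Y ≤ √δ * (C * ρ) := mul_le_mul hd2s hYρ hY0 hsd0
  have u3 : δ * (h / r) * √((e + Y) * v) ≤ √δ * ((m + 1) * (C * ρ)) := by
    have h1 : δ * (h / r) ≤ √δ := by nlinarith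
    exact mul_le_mul h1 t3 (Real.sqrt_nonneg _) hsd0
  have u4 : √δ * h * e ≤ √δ * (m * (C * ρ)) := by
    have h1 : √δ * h ≤ √δ := mul_le_of_le_one_right hsd0 hh1'
    exact mul_le_mul h1 heρ he0 hsd0
  have hea : 120 * (m + 1) * δ * (e + √(e * Y)) + 34 * (m + 1) * δ ^ 2 * Y +
      32 * δ * (h / r) * √((e + Y) * v) + √δ * h * e ≤ √δ * (C * ρ) * ((m + 1) * B) := by
    have w1 : 120 * (m + 1) * δ * (e + √(e * Y)) ≤
        120 * (m + 1) * (√δ * (2 * (m + 1) * (C * ρ))) := by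
      calc 120 * (m + 1) * δ * (e + √(e * Y)) = 120 * (m + 1) * (δ * (e + √(e * Y))) := by ring
        _ ≤ _ := by gcongr
    have w2 : 34 * (m + 1) * δ ^ 2 * Y ≤ 34 * (m + 1) * (√δ * (C * ρ)) := by
      calc 34 * (m + 1) * δ ^ 2 * Y = 34 * (m + 1) * (δ ^ 2 * Y) := by ring
        _ ≤ _ := by gcongr
    have w3 : 32 * δ * (h / r) * √((e + Y) * v) ≤ 32 * (√δ * ((m + 1) * (C * ρ))) := by
      calc 32 * δ * (h / r) * √((e + Y) * v) = 32 * (δ * (h / r) * √((e + Y) * v)) := by ring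
        _ ≤ _ := by gcongr
    calc _ ≤ 120 * (m + 1) * (√δ * (2 * (m + 1) * (C * ρ))) + 34 * (m + 1) * (√δ * (C * ρ)) +
          32 * (√δ * ((m + 1) * (C * ρ))) + √δ * (m * (C * ρ)) := by
          linarith
      _ ≤ _ := by
          have w5 : 0 ≤ √δ * (C * ρ) := by positivity
          rw [hB]
          nlinarith [mul_nonneg w5 hmn]
  have hsum : 320 * C * (h / r) * √(e * v) + 43 * σ * √C * e +
      11 * C * (120 * (m + 1) * δ * (e + √(e * Y)) + 34 * (m + 1) * δ ^ 2 * Y +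
      32 * δ * (h / r) * √((e + Y) * v) + √δ * h * e) ≤
      (320 * C * √C + 43 * √C + 11 * C * (C * ((m + 1) * B))) *
        ((h / r) * √(e * ρ) + σ * e + √δ * ρ) := by
    have z1 : 320 * C * (h / r) * √(e * v) ≤ (320 * C * √C) * ((h / r) * √(e * ρ)) := by
      calc 320 * C * (h / r) * √(e * v) ≤ 320 * C * (h / r) * (√C * √(e * ρ)) := by gcongr
        _ = _ := by ring
    have z3 : 11 * C * (120 * (m + 1) * δ * (e + √(e * Y)) + 34 * (m + 1) * δ ^ 2 * Y +
        32 * δ * (h / r) * √((e + Y) * v) + √δ * h * e) ≤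
        (11 * C * (C * ((m + 1) * B))) * (√δ * ρ) := by
      calc _ ≤ 11 * C * (√δ * (C * ρ) * ((m + 1) * B)) := by gcongr
        _ = _ := by ring
    have p1 : 0 ≤ 320 * C * √C := by positivity
    have p2 : 0 ≤ 43 * √C := by positivity
    have p3 : 0 ≤ 11 * C * (C * ((m + 1) * B)) := by positivity
    have q1 : 0 ≤ (h / r) * √(e * ρ) := by positivity
    have q2 : 0 ≤ σ * e := by positivity
    have q3 : 0 ≤ √δ * ρ := by positivity
    generalize (320 * C * √C) = a1 at *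
    generalize (11 * C * (C * ((m + 1) * B))) = a3 at *
    have z2 : 43 * σ * √C * e = (43 * √C) * (σ * e) := by ring
    rw [z2]
    generalize (43 * √C) = a2 at *
    generalize (h / r) * √(e * ρ) = b1 at *
    generalize σ * e = b2 at *
    generalize √δ * ρ = b3 at *
    nlinarith [mul_nonneg p1 q2, mul_nonneg p1 q3, mul_nonneg p2 q1, mul_nonneg p2 q3,
      mul_nonneg p3 q1, mul_nonneg p3 q2]
  refine (mul_le_mul_of_nonneg_left hsum (by positivity)).trans (le_of_eq ?_)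
  ring

/-- **HOLE** (unconditional) in the class `HSit`. -/
theorem hole {m k : ℕ} (hm : 2 ≤ m) {C₀ c₀ : ℝ} (hC₀ : 0 < C₀) (hc₀ : 0 < c₀)
    {η : ℝ} (hη : 0 < η) :
    ∃ δH > 0, ∃ lam > 0, ∃ d0 > 0, ∀ (n : ℕ) (π : Euc k →L[ℝ] Euc m) (κ : Euc k →L[ℝ] Euc n)
      (W : Measure (Euc k × L k)) (x₀ : Euc m) (R h₀ δ : ℝ), HSit C₀ c₀ W π κ x₀ R h₀ δ → δ ≤ d0 →
      ∀ S : Submodule ℝ (Euc m), Module.finrank ℝ S + 2 = m → ∀ (x : Euc m) (s E : ℝ), 0 < s →
      s ≤ 1 → h₀ ≤ s → ‖x - x₀‖ + 2 * s ≤ R → (eM W π).real (ball x (2 * s)) ≤ E * s ^ (m - 2) →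
      lam * E ≤ s ^ 2 → (lM W π S).real (ball x (2 * s)) ≤ δH * E * s ^ (m - 2) →
      (qM W π).real (ball x s) ≤ η * E * s ^ (m - 2) :=
  hole_at hm hC₀ hc₀ (fun _ hC _ hc => logH m k hC.le hc) (fun _ hC _ hc => dvH m k hC hc) hη

end Crest.Agent.R234.Hol_746
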