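import Crest.Agent.R234.Hol8_746
import Crest.Agent.R234.Core0_809
import Crest.Agent.R234.Ex3_46

/-!
# Row 234, VF-HOLE (helper746), part 9: the class `HSit` contains the class `Cls` of the core
-/

set_option autoImplicit false

open Set Filter Topology MeasureTheory Metric
open Crest.GeometryTopology.Submanifold
open Crest.Agent.R234.Vf_884 Crest.Agent.R234.Ar_870 Crest.Agent.R234.Cy_870
open Crest.Agent.R234.AS_456 Crest.Agent.R234.Asl_214
open Crest.Agent.R234.Th_164 Crest.Agent.R234.N5_372 Crest.Agent.R234.Pers_540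
open Crest.Agent.R234.La_300
open scoped ENNReal NNReal ContDiff InnerProductSpace

noncomputable section

namespace Crest.Agent.R234.Hol_746

open Crest.Agent.R234.Core_809 (Cls part)

variable {m n k : ℕ}

/-- the constant of the upper mass bound in `Cls`. -/
def CU0 (m Q : ℕ) : ℝ := 3 ^ m * ((Q + 1) * (ome m * 5 ^ m))

/-- the constant of the lower mass bound in `Cls`. -/
def cL0 (m : ℕ) : ℝ := ome m / 2 ^ m / 16 ^ m

theorem CU0_pos (m Q : ℕ) : 0 < CU0 m Q := by
  have := ome_pos m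
  unfold CU0
  positivity

theorem cL0_pos (m : ℕ) : 0 < cL0 m := by
  have := ome_pos m
  unfold cL0
  positivity

variable {π : Euc k →L[ℝ] Euc m} {κ : Euc k →L[ℝ] Euc n} {U : Set (Euc k)}
  {Dd : VarifoldData m k} {Q : ℕ} {δ D : ℝ}

theorem mcyl (π : Euc k →L[ℝ] Euc m) (κ : Euc k →L[ℝ] Euc n) (x : Euc m) (R h : ℝ) :
    MeasurableSet (cyl π κ x R h ×ˢ (univ : Set (L k))) :=
  (isClosed_cyl π κ x R h).measurableSet.prod MeasurableSet.univ

theorem cls_cylAS (h : Cls Q δ D π κ U Dd) (hD1 : D < 1) :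
    CylAS (part π κ Dd) π κ 0 4 (√D) δ := by
  refine cylAS_of_AS h.as h.sp (h₁ := 1) ?_ one_pos h.dom ?_
  · rw [Real.sqrt_lt' one_pos]
    simpa using hD1
  · filter_upwards [h.hgt] with p hp hpc
    exact Real.le_sqrt_of_sq_le (hp hpc)

theorem cls_fin (h : Cls Q δ D π κ U Dd) : VD Dd (cyl π κ 0 5 2 ×ˢ univ) < ⊤ :=
  h.as.fin _ (isCompact_cyl h.sp 0 5 2) h.dom'

/-- heights of support points -/
theorem sp_hgt (h : Cls Q δ D π κ U Dd) {z : Euc k} (hz : Sp (part π κ Dd) z) : ‖κ z‖ ≤ √D := by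
  by_contra hcon
  push Not at hcon
  have hopen : IsOpen {w : Euc k | √D < ‖κ w‖} :=
    isOpen_lt continuous_const (by fun_prop)
  obtain ⟨s, hs, hsub⟩ := Metric.isOpen_iff.1 hopen z hcon
  have h1 : part π κ Dd (ball z s ×ˢ univ) = 0 := by
    unfold part
    have h2 : ∀ᵐ p ∂((VD Dd).restrict (cyl π κ 0 4 1 ×ˢ univ)), ‖κ p.1‖ ≤ √D := by
      filter_upwards [ae_restrict_mem (mcyl π κ 0 4 1), ae_restrict_of_ae h.hgt] with p hp hp2
      exact Real.le_sqrt_of_sq_le (hp2 hp.1)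
    refine measure_mono_null ?_ h2
    rintro p ⟨hp, -⟩
    show ¬ (‖κ p.1‖ ≤ √D)
    exact not_le.2 (hsub hp)
  exact absurd (hz s hs) (by rw [h1]; exact lt_irrefl _)

theorem sp_support (h : Cls Q δ D π κ U Dd) {z : Euc k} (hz : Sp (part π κ Dd) z) :
    z ∈ support Dd := by
  intro r hr
  rw [← VD_prod_univ h.int measurableSet_ball]
  exact (hz r hr).trans_le (Measure.restrict_apply_le _ _)

theorem low_cls (hm : 1 ≤ m) (h : Cls Q δ D π κ U Dd) (hD1 : D ≤ 1 / 4) :
    LowD m {z | ‖π z - 0‖ < 4} (cL0 m) (part π κ Dd) := by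
  obtain ⟨T, T', hT, hg, hst⟩ := h.ex
  intro z hz r hr hsub
  have hzc : ‖π z‖ < 4 := by
    have h1 : ‖π z - 0‖ < 4 := hsub (mem_ball_self hr)
    rwa [sub_zero] at h1
  have hz1 := sp_hgt h hz
  have hD2 : √D ≤ 1 / 2 := by
    rw [Real.sqrt_le_left (by norm_num)]
    linarith
  -- `r ≤ 8`
  have hr8 : r ≤ 8 := by
    by_contra hcon
    push Not at hcon
    have : NeZero m := ⟨by lia⟩
    set e : Euc m := EuclideanSpace.single 0 1 with he
    have hen : ‖e‖ = 1 := by rw [he]; simp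
    have had : ‖ContinuousLinearMap.adjoint π e‖ = 1 := by
      have h1 : ‖ContinuousLinearMap.adjoint π e‖ ^ 2 = 1 := by
        rw [← real_inner_self_eq_norm_sq, ContinuousLinearMap.adjoint_inner_left,
          show π (ContinuousLinearMap.adjoint π e) = e from
            congrArg (fun A : L m => A e) h.sp.hh, real_inner_self_eq_norm_sq, hen, one_pow]
      nlinarith [norm_nonneg (ContinuousLinearMap.adjoint π e)]
    have hpe : π (ContinuousLinearMap.adjoint π e) = e := congrArg (fun A : L m => A e) h.sp.hh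
    have h1 : z + (4 : ℝ) • ContinuousLinearMap.adjoint π e ∈ ball z r := by
      rw [mem_ball, dist_eq_norm, add_sub_cancel_left, norm_smul, had]
      norm_num
      linarith
    have h2 : z - (4 : ℝ) • ContinuousLinearMap.adjoint π e ∈ ball z r := by
      rw [mem_ball, dist_eq_norm, sub_sub_cancel_left, norm_neg, norm_smul, had]
      norm_num
      linarith
    have h3 : ‖π (z + (4 : ℝ) • ContinuousLinearMap.adjoint π e) - 0‖ < 4 := hsub h1
    have h4 : ‖π (z - (4 : ℝ) • ContinuousLinearMap.adjoint π e) - 0‖ < 4 := hsub h2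
    rw [sub_zero, map_add, map_smul, hpe] at h3
    rw [sub_zero, map_sub, map_smul, hpe] at h4
    have h5 : ‖(8 : ℝ) • e‖ ≤ ‖π z + (4 : ℝ) • e‖ + ‖π z - (4 : ℝ) • e‖ := by
      have h6 : (8 : ℝ) • e = (π z + (4 : ℝ) • e) - (π z - (4 : ℝ) • e) := by
        have : (8 : ℝ) = 4 + 4 := by norm_num
        rw [this, add_smul]
        abel
      rw [h6]
      exact norm_sub_le _ _
    rw [norm_smul, hen] at h5
    norm_num at h5
    linarith
  set ρ := r / 16 with hρ
  have hρ0 : 0 < ρ := by positivity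
  have hρ1 : ρ ≤ 1 / 2 := by rw [hρ]; linarith
  have hcyl : ball z ρ ⊆ cyl π κ 0 4 1 := by
    intro w hw
    have h1 : w ∈ ball z r := ball_subset_ball (by rw [hρ]; linarith) hw
    refine ⟨(show ‖π w - 0‖ < 4 from hsub h1).le, ?_⟩
    have h2 : ‖w - z‖ < ρ := by rwa [mem_ball, dist_eq_norm] at hw
    have h3 : κ w = κ z + κ (w - z) := by rw [map_sub]; abel
    rw [h3]
    refine (norm_add_le _ _).trans ?_
    have := Ex_46.norm_vert_le h.sp (w - z)
    linarith
  have h6 := Ex_46.low_mass h.int h.isOpen hT hg hst hm (sp_support h hz) hρ0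
    (hcyl.trans h.dom)
  have h7 : part π κ Dd (ball z ρ ×ˢ univ) = weight Dd (ball z ρ) := by
    unfold part
    rw [Measure.restrict_apply (measurableSet_ball.prod MeasurableSet.univ), Set.prod_inter_prod,
      univ_inter, inter_eq_left.2 hcyl, VD_prod_univ h.int measurableSet_ball]
  calc ENNReal.ofReal (cL0 m * r ^ m) = ENNReal.ofReal (ome m / 2 ^ m * ρ ^ m) := by
        congr 1
        unfold cL0
        rw [hρ, div_pow]
        ring
    _ ≤ weight Dd (ball z ρ) := h6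
    _ = part π κ Dd (ball z ρ ×ˢ univ) := h7.symm
    _ ≤ _ := measure_mono (prod_mono (ball_subset_ball (by rw [hρ]; linarith)) subset_rfl)

theorem up_cls (hm : 1 ≤ m) (h : Cls Q δ D π κ U Dd) (z : Euc k) {r : ℝ} (hr : 0 < r) :
    part π κ Dd (closedBall z r ×ˢ univ) ≤ ENNReal.ofReal (CU0 m Q * r ^ m) := by
  obtain ⟨T, T', hT, hg, hst⟩ := h.ex
  set K : ℝ := (Q + 1) * (ome m * 5 ^ m) with hKdef
  have hK : 0 ≤ K := measureReal_nonneg.trans h.big
  have hm5 := Ex_46.measurableSet_cyl π κ 0 5 2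
  have h45 : cyl π κ 0 4 1 ⊆ cyl π κ 0 5 2 := fun w hw =>
    ⟨hw.1.trans (by norm_num), hw.2.trans (by norm_num)⟩
  have hK' : weight Dd (cyl π κ 0 5 2) ≤ ENNReal.ofReal K := by
    rw [← VD_prod_univ h.int hm5]
    exact ENNReal.le_ofReal_iff_toReal_le (cls_fin h).ne hK |>.2 h.big
  have hset : (closedBall z r ×ˢ univ : Set (Euc k × L k)) ∩ cyl π κ 0 4 1 ×ˢ univ =
      (closedBall z r ∩ cyl π κ 0 4 1) ×ˢ univ := by
    rw [Set.prod_inter_prod, univ_inter]
  unfold part CU0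
  rw [Measure.restrict_apply (measurableSet_closedBall.prod MeasurableSet.univ),
    hset, VD_prod_univ h.int (measurableSet_closedBall.inter (Ex_46.measurableSet_cyl π κ 0 4 1))]
  rcases (closedBall z r ∩ cyl π κ 0 4 1).eq_empty_or_nonempty with h0 | ⟨z₁, hz₁, hz₁c⟩
  · rw [h0, measure_empty]; exact bot_le
  have hrr : closedBall z r ⊆ closedBall z₁ (2 * r) := by
    refine closedBall_subset_closedBall' ?_
    rw [mem_closedBall, dist_comm] at hz₁
    linarith
  rcases le_or_gt 1 (2 * r) with h1 | h1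
  · refine (measure_mono (inter_subset_right.trans h45)).trans (hK'.trans ?_)
    refine ENNReal.ofReal_le_ofReal ?_
    have h2 : 1 ≤ (3 * r) ^ m := one_le_pow₀ (by linarith)
    calc K = 1 * K := (one_mul K).symm
      _ ≤ (3 * r) ^ m * K := mul_le_mul_of_nonneg_right h2 hK
      _ = _ := by rw [mul_pow]; ring
  · have hb : ball z₁ 1 ⊆ U :=
      (ball_subset_closedBall.trans (Ex_46.closedBall_subset_cyl h.sp hz₁c)).trans h.dom'
    have h2 := Ex_46.up_mass h.int hT hg hst hm (z := z₁) (by positivity : 0 < 2 * r) h1 hb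
    refine (measure_mono (inter_subset_left.trans hrr)).trans (h2.trans ?_)
    have h3 : weight Dd (ball z₁ 1) ≤ ENNReal.ofReal K :=
      (measure_mono (ball_subset_closedBall.trans
        (Ex_46.closedBall_subset_cyl h.sp hz₁c))).trans hK'
    refine (mul_le_mul_right h3 _).trans ?_
    rw [← ENNReal.ofReal_mul (by positivity)]
    refine ENNReal.ofReal_le_ofReal ?_
    have h4 : ((17 / 15 : ℝ) ^ 2 * (2 * r / 1)) ^ m ≤ (3 * r) ^ m := by
      refine pow_le_pow_left₀ (by positivity) ?_ m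
      linarith
    calc ((17 / 15 : ℝ) ^ 2 * (2 * r / 1)) ^ m * K ≤ (3 * r) ^ m * K :=
          mul_le_mul_of_nonneg_right h4 hK
      _ = _ := by rw [mul_pow]; ring

theorem area_cls (h : Cls Q δ D π κ U Dd) (S : Sheets Dd π) :
    Area (part π κ Dd) π (ball 0 4) (S.N (cyl π κ 0 4 1)) := by
  refine area_VD h.int h.sp.hh S (isClosed_cyl π κ 0 4 1).measurableSet measurableSet_ball ?_
  refine (measure_mono ?_).trans_lt (cls_fin h)
  refine prod_mono ?_ subset_rfl
  rintro w ⟨hw, -⟩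
  exact ⟨hw.1.trans (by norm_num), hw.2.trans (by norm_num)⟩

theorem fn_cls (h : Cls Q δ D π κ U Dd) : ∃ T : Euc k → ℝ≥0∞, Measurable T ∧
    ∀ᵐ p ∂(part π κ Dd), ENNReal.ofReal (tl π p.2) = T p.1 := by
  obtain ⟨T, hT, h1⟩ := exists_fun h.int (c := fun P => ENNReal.ofReal (tl π P))
    (ctl π).measurable.ennreal_ofReal
  exact ⟨T, hT, ae_restrict_of_ae h1⟩

/-- **`HSit` from `Cls`**. -/
theorem hsit_of_cls (hm : 1 ≤ m) (h : Cls Q δ D π κ U Dd) (hδ : 0 ≤ δ) (hδ1 : δ ≤ 1)
    (hD : D ≤ 1 / 4) : HSit (CU0 m Q) (cL0 m) (part π κ Dd) π κ 0 4 (√D) δ where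
  as := cls_cylAS h (by linarith)
  δ_nonneg := hδ
  δ_le := hδ1
  h_nonneg := Real.sqrt_nonneg _
  h_le := by
    rw [Real.sqrt_le_one]
    linarith
  area := by
    obtain ⟨S⟩ := exists_sheets_VD h.int π
    exact ⟨_, area_cls h S⟩
  fn := fn_cls h
  low := low_cls hm h hD
  up z _ hr := up_cls hm h z hr

end Crest.Agent.R234.Hol_746
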