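import Crest.Agent.R234.Fx1_281
import Crest.Agent.R234.Fm11_281
import Crest.Agent.R234.Ex9_46

/-!
# Row 234, F3-LE (helper332): heights of the transported varifold on the whole set `UU`

281's `fermi_DD` asks for a bound of the heights of all support points in
`UU = {|π z| < 6, |κ z| < 3, ..}`; 46's `hgt_cht` gives it on `{|π z| ≤ 5, |κ z| ≤ 2}`.
-/

set_option autoImplicit false

open MeasureTheory Filter Topology Set Metric
open scoped ENNReal InnerProductSpace ContDiff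
open Crest.GeometryTopology.Submanifold Crest.Agent.R234.Vf_884 Crest.Agent.R234.Cy_870
open Crest.Agent.R234.Main_456 (Frame Msys hgt sep box)

noncomputable section

namespace Crest.Agent.R234.Hu_332

open Crest.Agent.R234.Ft_209 (Dif)
open Crest.Agent.R234.Fc_209 (IsChart)
open Crest.Agent.R234.Ex_46 (trans zoom hmt' UU DD norm_adj_le support_zoom support_cht
  integral_zoom frame_of_split)

local notation "adj" => ContinuousLinearMap.adjoint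

variable {m n k : ℕ} {U : Set (Euc k)} {D : VarifoldData m k}
  {π : Euc k →L[ℝ] Euc m} {κ : Euc k →L[ℝ] Euc n} {u : Euc m → Euc n} {e lam : ℝ} {T : Dif k}

theorem pi_eq3 (hs : Split π κ) (hu : ContDiff ℝ 3 u) (hT : IsChart T π κ u e) {z : Euc k}
    (hz : ‖κ z‖ < 3) : π (T.Φ z) = π z - adj (fderiv ℝ u (π z)) (κ z) := by
  obtain ⟨h1, h2, -⟩ := Fm_281.chart_foot hs hu hT hz (r := 3) (by linarith [norm_nonneg (κ z)])
  have h3 := h1.1
  rw [sub_zero, h2] at h3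
  rw [eq_sub_iff_add_eq]
  exact h3.symm

theorem ka_eq3 (hs : Split π κ) (hu : ContDiff ℝ 3 u) (hT : IsChart T π κ u e) {z : Euc k}
    (hz : ‖κ z‖ < 3) : κ (T.Φ z) = κ z + u (π z) := by
  obtain ⟨h1, h2, -⟩ := Fm_281.chart_foot hs hu hT hz (r := 3) (by linarith [norm_nonneg (κ z)])
  rw [← h2, sub_add_cancel]

/-- normal height versus height over the graph, `|κ z| < 3` -/
theorem height_le3 (hs : Split π κ) (hu : ContDiff ℝ 3 u) (hT : IsChart T π κ u e)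
    (hl : ∀ v, ‖fderiv ℝ u v‖ ≤ lam) (hl2 : lam ≤ 1 / 2) {z : Euc k} (hz : ‖κ z‖ < 3)
    (z₀ : Euc k) {ρ : ℝ} (hρ : 0 < ρ) :
    ρ * ‖κ z‖ ≤ 2 * ‖hgt π κ z₀ ρ u (hmt' z₀ ρ (T.Φ z))‖ := by
  have hl0 : 0 ≤ lam := (norm_nonneg _).trans (hl 0)
  have hud : Differentiable ℝ u := hu.differentiable (by norm_num)
  set w := adj (fderiv ℝ u (π z)) (κ z) with hw
  have h1 : hgt π κ z₀ ρ u (hmt' z₀ ρ (T.Φ z)) = ρ • (κ z + (u (π z) - u (π z - w))) := by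
    unfold hgt hmt'
    rw [add_sub_cancel_left, map_smul, map_smul, smul_smul, inv_mul_cancel₀ hρ.ne', one_smul,
      pi_eq3 hs hu hT hz, ka_eq3 hs hu hT hz, ← hw, ← smul_sub]
    congr 1
    abel
  have h2 : ‖w‖ ≤ lam * ‖κ z‖ := norm_adj_le (hl _) _
  have h3 : ‖u (π z) - u (π z - w)‖ ≤ lam * ‖π z - (π z - w)‖ :=
    convex_univ.norm_image_sub_le_of_norm_fderiv_le (fun x _ => hud x) (fun x _ => hl x)
      (mem_univ _) (mem_univ _)
  rw [sub_sub_cancel] at h3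
  have h4 : ‖u (π z) - u (π z - w)‖ ≤ 1 / 4 * ‖κ z‖ := by
    refine h3.trans ((mul_le_mul_of_nonneg_left h2 hl0).trans ?_)
    rw [← mul_assoc]
    refine mul_le_mul_of_nonneg_right ?_ (norm_nonneg _)
    nlinarith
  rw [h1, norm_smul, Real.norm_of_nonneg hρ.le]
  have h5 : ‖κ z‖ ≤ ‖κ z + (u (π z) - u (π z - w))‖ + ‖u (π z) - u (π z - w)‖ := by
    have := norm_sub_le (κ z + (u (π z) - u (π z - w))) (u (π z) - u (π z - w))
    rwa [add_sub_cancel_right] at this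
  nlinarith [norm_nonneg (κ z)]

/-- **heights of the transported varifold on `UU`** -/
theorem hgt_UU (hU : IsOpen U) (hD : IsIntegralVarifoldIn U D) (hst : IsStationaryIn U D)
    (hm : 1 ≤ m) (hs : Split π κ) (hT : IsChart T π κ u e) (he : e ≤ 1 / 16)
    (hu : ContDiff ℝ 3 u) (hu0 : ∀ v, ‖u v‖ ≤ lam) (hu1 : ∀ v, ‖fderiv ℝ u v‖ ≤ lam)
    (hu2 : ∀ v ∈ ball (0 : Euc m) 7, ‖iteratedFDeriv ℝ 2 u v‖ ≤ lam ∧ Msys u v = 0)
    (hl2 : lam ≤ 1 / 8) (hlm : 64 * m * lam ^ 2 ≤ 1) {z₀ : Euc k} {ρ : ℝ} (hρ : 0 < ρ)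
    (hb : closedBall z₀ (14 * ρ) ⊆ U) {d : ℝ}
    (hd : sep (VD D) π κ z₀ ρ u 7 ≤ d * ρ ^ (m + 2)) {z : Euc k}
    (hz : z ∈ support (trans T.Ψ (zoom z₀ ρ D))) (hzU : z ∈ UU π κ T.Φ z₀ ρ U) :
    ‖κ z‖ ^ 2 ≤ 5 * 2 ^ m / ome m * d := by
  have hom := ome_pos m
  have hl0 : 0 ≤ lam := (norm_nonneg _).trans (hu0 0)
  obtain ⟨hz6, hz3, -⟩ := hzU
  have hch := Fm_281.cht_46 hu hT
  have h1 : hmt' z₀ ρ (T.Φ z) ∈ support D :=
    support_zoom hD z₀ hρ (support_cht (integral_zoom hD z₀ hρ) hch he hz)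
  have hbox : hmt' z₀ ρ (T.Φ z) ∈ box π κ z₀ ((7 - 1 / 2) * ρ) := by
    have e1 : hmt' z₀ ρ (T.Φ z) - z₀ = ρ • T.Φ z := by unfold hmt'; abel
    have e2 : (7 - 1 / 2 : ℝ) = 13 / 2 := by norm_num
    have h2 : ‖π (T.Φ z)‖ < 13 / 2 := by
      rw [pi_eq3 hs hu hT hz3]
      refine (norm_sub_le _ _).trans_lt ?_
      have := norm_adj_le (hu1 (π z)) (κ z)
      nlinarith [norm_nonneg (κ z)]
    have h3 : ‖κ (T.Φ z)‖ < 13 / 2 := by
      rw [ka_eq3 hs hu hT hz3]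
      refine (norm_add_le _ _).trans_lt ?_
      have := hu0 (π z)
      linarith
    constructor
    · rw [e1, map_smul, norm_smul, Real.norm_of_nonneg hρ.le, mul_comm, e2]
      exact mul_lt_mul_of_pos_right h2 hρ
    · rw [e1, map_smul, norm_smul, Real.norm_of_nonneg hρ.le, mul_comm, e2]
      exact mul_lt_mul_of_pos_right h3 hρ
  have hlm' : 64 * (m : ℝ) * lam ^ 2 * (1 / 2) ^ 2 ≤ 1 := by
    have h0 : 0 ≤ 64 * (m : ℝ) * lam ^ 2 := by positivity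
    nlinarith
  have h4 := Supm_685.height_supp hU hD hst hm (frame_of_split hs) hρ (hu.of_le (by norm_num))
    (a := 7) (b := 1 / 2) (by norm_num) (by norm_num)
    (by rw [show (2 * (7 * ρ) : ℝ) = 14 * ρ by ring]; exact hb) hu2 hlm' hbox h1
  have h5 := height_le3 hs hu hT hu1 (by linarith) hz3 z₀ hρ
  set a := ‖hgt π κ z₀ ρ u (hmt' z₀ ρ (T.Φ z))‖ with ha
  have h6 : ome m * a ^ 2 ≤ 33 / 32 * (2 ^ m * (d * ρ ^ 2)) := by
    refine h4.trans ?_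
    have e1 : (((1 / 2 : ℝ) * ρ) ^ m)⁻¹ * (d * ρ ^ (m + 2)) = 2 ^ m * (d * ρ ^ 2) := by
      rw [mul_pow, mul_inv, pow_add, one_div, inv_pow, inv_inv]
      have : ρ ^ m ≠ 0 := by positivity
      field_simp
    rw [← e1]
    refine mul_le_mul_of_nonneg_left ?_ (by norm_num)
    exact mul_le_mul_of_nonneg_left hd (by positivity)
  have h7 : (ρ * ‖κ z‖) ^ 2 ≤ 4 * a ^ 2 := by
    have := pow_le_pow_left₀ (by positivity) h5 2
    linarith [this, mul_pow (2:ℝ) a 2]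
  have hρ2 : 0 < ρ ^ 2 := by positivity
  have h2m : (0:ℝ) < 2 ^ m := by positivity
  have h8 : ome m * ‖κ z‖ ^ 2 * ρ ^ 2 ≤ 5 * 2 ^ m * d * ρ ^ 2 := by
    have e2 : 0 ≤ 2 ^ m * (d * ρ ^ 2) := by nlinarith [mul_nonneg hom.le (sq_nonneg a)]
    nlinarith
  have h9 : ome m * ‖κ z‖ ^ 2 ≤ 5 * 2 ^ m * d := le_of_mul_le_mul_right h8 hρ2
  rw [div_mul_eq_mul_div, le_div_iff₀ hom]
  linarith

end Crest.Agent.R234.Hu_332
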