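import Crest.Agent.R234.Fm4_281
import Crest.Agent.R234.Mx9_397

/-!
# Row 234, node F2-IBP (helper937), file 1: `∂_i (√g g^{ij}) = - √g g^{jl} ⟨∂_l u, M u⟩`
-/

set_option autoImplicit false

open MeasureTheory Filter Topology Set
open scoped ContDiff InnerProductSpace
open Crest.GeometryTopology.Submanifold Crest.Agent.R234.Vf_884
open Crest.Agent.R234.Ell1_3 (gop ginv dns adjL gdet)
open Crest.Agent.R234.Mx5_397 (msop)
open Crest.Agent.R234.Mx9_397 (lop)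

noncomputable section

namespace Crest.Agent.R234.Ibp_937

variable {m n : ℕ}

/-- standard basis used in `msop`, `lop` -/
local notation "eb" => stdOrthonormalBasis ℝ (Euc m)

theorem dns_eq (q : Euc m →L[ℝ] Euc n) : dns q = Real.sqrt (gop q).det := rfl

theorem gop_det_pos (q : Euc m →L[ℝ] Euc n) : 0 < (gop q).det := Ell1_3.gdet_pos q

theorem gop_symm (q : Euc m →L[ℝ] Euc n) (x y : Euc m) : ⟪gop q x, y⟫_ℝ = ⟪x, gop q y⟫_ℝ := by
  rw [real_inner_comm, Ell1_3.gop_inner, Ell1_3.gop_inner, real_inner_comm x y,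
    real_inner_comm (q x) (q y)]

theorem gop_ginv_apply (q : Euc m →L[ℝ] Euc n) (x : Euc m) : gop q (ginv q x) = x := by
  have := congrArg (fun A : L m => A x) (Ell1_3.gop_ginv q)
  simpa using this

theorem ginv_symm (q : Euc m →L[ℝ] Euc n) (x y : Euc m) : ⟪ginv q x, y⟫_ℝ = ⟪x, ginv q y⟫_ℝ := by
  conv_lhs => rw [← gop_ginv_apply q y]
  conv_rhs => rw [← gop_ginv_apply q x]
  rw [gop_symm]

theorem tr_eb (A : L m) : tr A = ∑ i, ⟪eb i, A (eb i)⟫_ℝ := by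
  rw [tr_apply]
  exact LinearMap.trace_eq_sum_inner A.toLinearMap (eb)

/-- derivative of `gop ∘ Du` -/
def dG (q : Euc m →L[ℝ] Euc n) (H : Euc m →L[ℝ] Euc m →L[ℝ] Euc n) : Euc m →L[ℝ] L m :=
  ((ContinuousLinearMap.compL ℝ (Euc m) (Euc n) (Euc m) (adjL q)) ∘L H) +
    (((ContinuousLinearMap.compL ℝ (Euc m) (Euc n) (Euc m)).flip q) ∘L (adjL ∘L H))

theorem dG_apply (q : Euc m →L[ℝ] Euc n) (H : Euc m →L[ℝ] Euc m →L[ℝ] Euc n) (v ξ : Euc m) :
    dG q H v ξ = ContinuousLinearMap.adjoint q (H v ξ)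
      + ContinuousLinearMap.adjoint (H v) (q ξ) := by
  simp [dG]

theorem hasFDerivAt_gop {D : Euc m → Euc m →L[ℝ] Euc n}
    {H : Euc m →L[ℝ] Euc m →L[ℝ] Euc n} {x : Euc m}
    (hD : HasFDerivAt D H x) : HasFDerivAt (fun z => gop (D z)) (dG (D x) H) x := by
  have h1 : HasFDerivAt (fun z => adjL (D z)) (adjL ∘L H) x :=
    (adjL (F := Euc m) (V := Euc n)).hasFDerivAt.comp x hD
  have h2 := (h1.clm_comp hD).const_add (ContinuousLinearMap.id ℝ (Euc m))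
  exact h2

/-- derivative of `ginv ∘ Du` -/
theorem hasFDerivAt_ginv {D : Euc m → Euc m →L[ℝ] Euc n}
    {H : Euc m →L[ℝ] Euc m →L[ℝ] Euc n} {x : Euc m} (hD : HasFDerivAt D H x) :
    ∃ J' : Euc m →L[ℝ] L m, HasFDerivAt (fun z => ginv (D z)) J' x ∧
      ∀ v ξ, J' v ξ = -ginv (D x) (dG (D x) H v (ginv (D x) ξ)) := by
  have h1 : HasFDerivAt (fun z => ginv (D z)) (fderiv ℝ ginv (D x) ∘L H) x :=
    ((Ell1_3.ginv_contDiff.differentiable (by simp)) (D x)).hasFDerivAt.comp x hD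
  refine ⟨_, h1, fun v ξ => ?_⟩
  have h2 := (hasFDerivAt_gop hD).clm_comp h1
  have h3 : HasFDerivAt (fun z => gop (D z) ∘L ginv (D z)) (0 : Euc m →L[ℝ] L m) x := by
    simp only [Ell1_3.gop_ginv]
    exact hasFDerivAt_const _ _
  have h4 := congrArg (fun A : Euc m →L[ℝ] L m => ginv (D x) (A v ξ)) (h2.unique h3)
  simp only [add_apply, ContinuousLinearMap.comp_apply, ContinuousLinearMap.compL_apply,
    ContinuousLinearMap.flip_apply, zero_apply, map_add, map_zero] at h4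
  have h5 : ∀ y, ginv (D x) (gop (D x) y) = y := fun y => by
    have := congrArg (fun A : L m => A y) (Ell1_3.ginv_gop (D x))
    simpa using this
  rw [h5] at h4
  exact eq_neg_of_add_eq_zero_left h4

/-- derivative of `√g` -/
theorem hasFDerivAt_dns {D : Euc m → Euc m →L[ℝ] Euc n}
    {H : Euc m →L[ℝ] Euc m →L[ℝ] Euc n} {x : Euc m} (hD : HasFDerivAt D H x) :
    ∃ w' : Euc m →L[ℝ] ℝ, HasFDerivAt (fun z => dns (D z)) w' x ∧
      ∀ v, w' v = 1 / 2 * dns (D x) * tr (ginv (D x) ∘L dG (D x) H v) := by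
  have h := Fm_281.hasFDerivAt_sqrt_det (hasFDerivAt_gop hD) (X := ginv (D x))
    (Ell1_3.gop_ginv (D x)) (gop_det_pos (D x))
  refine ⟨_, h, fun v => ?_⟩
  simp only [smul_apply, ContinuousLinearMap.coe_comp, Function.comp_apply, smul_eq_mul]
  rfl

theorem tr_half (q : Euc m →L[ℝ] Euc n) (H : Euc m →L[ℝ] Euc m →L[ℝ] Euc n) (v : Euc m) :
    1 / 2 * tr (ginv q ∘L dG q H v) = ∑ i, ⟪q (ginv q (eb i)), H v (eb i)⟫_ℝ := by
  have h1 : tr (ginv q ∘L dG q H v) = ∑ i, (⟪q (ginv q (eb i)), H v (eb i)⟫_ℝ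
      + ⟪H v (ginv q (eb i)), q (eb i)⟫_ℝ) := by
    rw [tr_eb]
    refine Finset.sum_congr rfl fun i _ => ?_
    rw [ContinuousLinearMap.comp_apply, ← ginv_symm, dG_apply, inner_add_right,
      ContinuousLinearMap.adjoint_inner_right, ContinuousLinearMap.adjoint_inner_right]
  have h2 : ∑ i, ⟪H v (ginv q (eb i)), q (eb i)⟫_ℝ = ∑ i, ⟪q (ginv q (eb i)), H v (eb i)⟫_ℝ := by
    have e1 : ∀ i, ⟪H v (ginv q (eb i)), q (eb i)⟫_ℝ
        = ⟪eb i, (ginv q ∘L (ContinuousLinearMap.adjoint (H v) ∘L q)) (eb i)⟫_ℝ := fun i => by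
      rw [ContinuousLinearMap.comp_apply, ContinuousLinearMap.comp_apply, ← ginv_symm,
        ContinuousLinearMap.adjoint_inner_right]
    have e2 : ∀ i, ⟪q (ginv q (eb i)), H v (eb i)⟫_ℝ
        = ⟪eb i, ((ContinuousLinearMap.adjoint (H v) ∘L q) ∘L ginv q) (eb i)⟫_ℝ := fun i => by
      rw [ContinuousLinearMap.comp_apply, ContinuousLinearMap.comp_apply,
        ContinuousLinearMap.adjoint_inner_right, real_inner_comm]
    simp only [e1, e2]
    rw [← tr_eb, ← tr_eb, tr_comm]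
  rw [h1, Finset.sum_add_distrib, h2]
  ring

/-- the weight `√g g^{ij}` -/
def T (u : Euc m → Euc n) (x : Euc m) : L m := dns (fderiv ℝ u x) • ginv (fderiv ℝ u x)

theorem T_symm (u : Euc m → Euc n) (z x y : Euc m) : ⟪T u z x, y⟫_ℝ = ⟪x, T u z y⟫_ℝ := by
  simp only [T, smul_apply, inner_smul_left, inner_smul_right, ginv_symm]
  simp

theorem contDiff_T {u : Euc m → Euc n} (hu : ContDiff ℝ 3 u) : ContDiff ℝ 2 (T u) := by
  have h1 : ContDiff ℝ 2 (fderiv ℝ u) := hu.fderiv_right (by norm_num)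
  have h2 : (2 : WithTop ℕ∞) ≤ ∞ := WithTop.coe_le_coe.2 le_top
  exact ((Ell1_3.dns_contDiff.of_le h2).comp h1).smul ((Ell1_3.ginv_contDiff.of_le h2).comp h1)

/-- **`∂_i (√g g^{ij}) = - √g g^{jl} ⟨∂_l u, M u⟩`** -/
theorem div_T {u : Euc m → Euc n} (hu : ContDiff ℝ 2 u) (x ξ : Euc m) :
    ∑ i, ⟪fderiv ℝ (T u) x (eb i) ξ, eb i⟫_ℝ
      = -dns (fderiv ℝ u x) * ⟪fderiv ℝ u x (ginv (fderiv ℝ u x) ξ), msop u x⟫_ℝ := by
  have h1 : ContDiff ℝ 1 (fderiv ℝ u) := hu.fderiv_right (by norm_num)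
  have hD : HasFDerivAt (fderiv ℝ u) (fderiv ℝ (fderiv ℝ u) x) x :=
    ((h1.differentiable one_ne_zero) x).hasFDerivAt
  set q := fderiv ℝ u x with hq
  set H := fderiv ℝ (fderiv ℝ u) x with hH
  have hs : ∀ a b, H a b = H b a := fun a b =>
    (hu.contDiffAt.isSymmSndFDerivAt (by simp)).eq a b
  obtain ⟨J', hJ, hJ'⟩ := hasFDerivAt_ginv hD
  obtain ⟨w', hw, hw'⟩ := hasFDerivAt_dns hD
  have hT : HasFDerivAt (T u) (dns q • J' + w'.smulRight (ginv q)) x := hw.smul hJ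
  rw [hT.fderiv]
  have e1 : ∀ i, ⟪(dns q • J' + w'.smulRight (ginv q)) (eb i) ξ, eb i⟫_ℝ
      = dns q * ((∑ j, ⟪q (ginv q (eb j)), H (eb i) (eb j)⟫_ℝ) * ⟪ginv q ξ, eb i⟫_ℝ)
        - dns q * (⟪H (eb i) (ginv q ξ), q (ginv q (eb i))⟫_ℝ
          + ⟪q (ginv q ξ), H (eb i) (ginv q (eb i))⟫_ℝ) := by
    intro i
    simp only [add_apply, smul_apply, ContinuousLinearMap.smulRight_apply, inner_add_left,
      inner_smul_left, hJ', hw', inner_neg_left, ← tr_half]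
    rw [ginv_symm, dG_apply, inner_add_left, ContinuousLinearMap.adjoint_inner_left,
      ContinuousLinearMap.adjoint_inner_left]
    simp
    ring
  simp only [e1, Finset.sum_sub_distrib, ← Finset.mul_sum, Finset.sum_add_distrib]
  have e2 : ∑ i, (∑ j, ⟪q (ginv q (eb j)), H (eb i) (eb j)⟫_ℝ) * ⟪ginv q ξ, eb i⟫_ℝ
      = ∑ j, ⟪q (ginv q (eb j)), H (ginv q ξ) (eb j)⟫_ℝ := by
    simp only [Finset.sum_mul]
    rw [Finset.sum_comm]
    refine Finset.sum_congr rfl fun j _ => ?_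
    have e3 : ginv q ξ = ∑ i, ⟪ginv q ξ, eb i⟫_ℝ • eb i := by
      conv_lhs => rw [← (eb).sum_repr' (ginv q ξ)]
      refine Finset.sum_congr rfl fun i _ => ?_
      rw [real_inner_comm]
    conv_rhs => rw [e3]
    rw [map_sum, sum_apply, inner_sum]
    refine Finset.sum_congr rfl fun i _ => ?_
    rw [map_smul, smul_apply, inner_smul_right]
    ring
  have e4 : ∑ i, ⟪H (eb i) (ginv q ξ), q (ginv q (eb i))⟫_ℝ
      = ∑ j, ⟪q (ginv q (eb j)), H (ginv q ξ) (eb j)⟫_ℝ :=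
    Finset.sum_congr rfl fun i _ => by rw [hs, real_inner_comm]
  have e5 : ∑ i, ⟪q (ginv q ξ), H (eb i) (ginv q (eb i))⟫_ℝ = ⟪q (ginv q ξ), msop u x⟫_ℝ := by
    rw [msop, inner_sum]
    exact Finset.sum_congr rfl fun i _ => by rw [hs]
  rw [e2, e4, e5]
  ring

end Crest.Agent.R234.Ibp_937
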