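import Crest.Agent.R234.Vf3_884

/-!
Row 234, VF-INT (helper947), file 1: tilt of planes, the slab field
`X = κ(|y|²) g(|u|²) u` (`u` horizontal, `y` vertical part) and its first variation identity.
-/

set_option autoImplicit false

open MeasureTheory Crest.GeometryTopology.Submanifold Filter Topology
open scoped ENNReal InnerProductSpace

noncomputable section

namespace Crest.Agent.R234.In_947

open Crest.Agent.R234.Vf_884

variable {m k : ℕ}

/-- the tilt of `S` with respect to the plane `P`: `tr ((1 - P) S)`. -/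
def tilt (P S : L k) : ℝ := tr S - tr (P ∘L S)

theorem continuous_tilt (P : L k) : Continuous (tilt P) := by
  unfold tilt
  exact tr.continuous.sub (tr.continuous.comp (continuous_const.clm_comp continuous_id))

theorem sum_inner_stdVec (v : Euc k) : v = ∑ i, ⟪stdVec k i, v⟫_ℝ • stdVec k i := by
  ext j
  simp [stdVec, Pi.single_apply, EuclideanSpace.inner_single_left]

theorem norm_sq_eq_sum (v : Euc k) : ‖v‖ ^ 2 = ∑ i, ⟪stdVec k i, v⟫_ℝ ^ 2 := by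
  rw [EuclideanSpace.norm_sq_eq]
  refine Finset.sum_congr rfl fun i _ => ?_
  simp [stdVec, EuclideanSpace.inner_single_left]

/-- operator bound by the Hilbert-Schmidt norm. -/
theorem norm_apply_sq_le (A : L k) (v : Euc k) :
    ‖A v‖ ^ 2 ≤ (∑ i, ‖A (stdVec k i)‖ ^ 2) * ‖v‖ ^ 2 := by
  have h1 : A v = ∑ i, ⟪stdVec k i, v⟫_ℝ • A (stdVec k i) := by
    conv_lhs => rw [sum_inner_stdVec v, map_sum]
    exact Finset.sum_congr rfl fun i _ => map_smul _ _ _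
  have h2 : ‖A v‖ ≤ ∑ i, |⟪stdVec k i, v⟫_ℝ| * ‖A (stdVec k i)‖ := by
    rw [h1]
    refine (norm_sum_le _ _).trans (le_of_eq ?_)
    exact Finset.sum_congr rfl fun i _ => by rw [norm_smul, Real.norm_eq_abs]
  have h3 : (∑ i, |⟪stdVec k i, v⟫_ℝ| * ‖A (stdVec k i)‖) ^ 2 ≤
      (∑ i, |⟪stdVec k i, v⟫_ℝ| ^ 2) * (∑ i, ‖A (stdVec k i)‖ ^ 2) :=
    Finset.sum_mul_sq_le_sq_mul_sq _ _ _
  have h4 : (∑ i, |⟪stdVec k i, v⟫_ℝ| ^ 2) = ‖v‖ ^ 2 := by
    rw [norm_sq_eq_sum v]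
    exact Finset.sum_congr rfl fun i _ => sq_abs _
  calc ‖A v‖ ^ 2 ≤ (∑ i, |⟪stdVec k i, v⟫_ℝ| * ‖A (stdVec k i)‖) ^ 2 := by gcongr
    _ ≤ _ := h3
    _ = _ := by rw [h4, mul_comm]

theorem tr_id_sub_comp (P S : L k) :
    tr ((ContinuousLinearMap.id ℝ (Euc k) - P) ∘L S) = tilt P S := by
  rw [ContinuousLinearMap.sub_comp, ContinuousLinearMap.id_comp, map_sub, tilt]

theorem hs_eq {P S : L k} {j : ℕ} (hP : P ∈ G j k) (hS : S ∈ G m k) :
    ∑ i, ‖S (stdVec k i - P (stdVec k i))‖ ^ 2 = tilt P S := by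
  have h4 : ∀ w : Euc k, ‖S (w - P w)‖ ^ 2
      = ⟪w, ((ContinuousLinearMap.id ℝ (Euc k) - P) ∘L (S ∘L
        (ContinuousLinearMap.id ℝ (Euc k) - P))) w⟫_ℝ := by
    intro w
    simp only [ContinuousLinearMap.comp_apply, sub_apply, ContinuousLinearMap.id_apply]
    rw [← G_inner_self hS, inner_sub_right, inner_sub_right, ← G_symm hP w,
      real_inner_comm w, real_inner_comm (P w)]
  rw [Finset.sum_congr rfl fun i _ => h4 (stdVec k i), ← tr_eq_sum, ← tr_id_sub_comp,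
    tr_comm, ContinuousLinearMap.comp_assoc]
  have h5 : (ContinuousLinearMap.id ℝ (Euc k) - P) ∘L (ContinuousLinearMap.id ℝ (Euc k) - P)
      = ContinuousLinearMap.id ℝ (Euc k) - P := by
    ext1 w
    simp [G_idem_apply hP]
  rw [h5, tr_comm]

theorem tilt_nonneg {P S : L k} {j : ℕ} (hP : P ∈ G j k) (hS : S ∈ G m k) : 0 ≤ tilt P S := by
  rw [← hs_eq hP hS]
  positivity

/-- `|S (v - P v)|² ≤ tilt |v - P v|²`. -/
theorem norm_tan_perp_sq_le {P S : L k} {j : ℕ} (hP : P ∈ G j k) (hS : S ∈ G m k) (v : Euc k) :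
    ‖S (v - P v)‖ ^ 2 ≤ tilt P S * ‖v - P v‖ ^ 2 := by
  have h1 := norm_apply_sq_le (S ∘L (ContinuousLinearMap.id ℝ (Euc k) - P)) (v - P v)
  have h2 : (S ∘L (ContinuousLinearMap.id ℝ (Euc k) - P)) (v - P v) = S (v - P v) := by
    simp only [ContinuousLinearMap.comp_apply, sub_apply,
      ContinuousLinearMap.id_apply, map_sub, G_idem_apply hP]
    simp
  rw [h2] at h1
  refine h1.trans (le_of_eq ?_)
  rw [← hs_eq hP hS]
  simp only [ContinuousLinearMap.comp_apply, sub_apply, ContinuousLinearMap.id_apply]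

theorem tilt_comm {P S : L k} (hP : P ∈ G m k) (hS : S ∈ G m k) : tilt P S = tilt S P := by
  unfold tilt
  rw [hP.2.2, hS.2.2, tr_comm]

/-- `|P v - S P v|² ≤ tilt |P v|²` for planes of the same dimension. -/
theorem norm_perp_tan_sq_le {P S : L k} (hP : P ∈ G m k) (hS : S ∈ G m k) (v : Euc k) :
    ‖P v - S (P v)‖ ^ 2 ≤ tilt P S * ‖P v‖ ^ 2 := by
  have hq : ∀ w : Euc k, ‖w - S w‖ ^ 2 = ‖w‖ ^ 2 - ‖S w‖ ^ 2 := fun w => by
    have := G_norm_sq_add hS w; linarith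
  have h1 := norm_apply_sq_le ((ContinuousLinearMap.id ℝ (Euc k) - S) ∘L P) (P v)
  have h2 : ((ContinuousLinearMap.id ℝ (Euc k) - S) ∘L P) (P v) = P v - S (P v) := by
    simp only [ContinuousLinearMap.comp_apply, sub_apply,
      ContinuousLinearMap.id_apply, G_idem_apply hP]
  rw [h2] at h1
  refine h1.trans (le_of_eq ?_)
  congr 1
  simp only [ContinuousLinearMap.comp_apply, sub_apply, ContinuousLinearMap.id_apply]
  rw [Finset.sum_congr rfl fun i _ => hq (P (stdVec k i))]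
  have h3 : ∀ w : Euc k, ‖P w‖ ^ 2 - ‖S (P w)‖ ^ 2 = ⟪w, P w⟫_ℝ - ⟪w, (P ∘L (S ∘L P)) w⟫_ℝ := by
    intro w
    have e1 : ‖P w‖ ^ 2 = ⟪w, P w⟫_ℝ := by rw [← G_inner_self hP, G_symm hP]
    have e2 : ‖S (P w)‖ ^ 2 = ⟪w, P (S (P w))⟫_ℝ := by
      rw [← G_inner_self hS, real_inner_comm, G_symm hP]
    simp only [ContinuousLinearMap.comp_apply]
    rw [e1, e2]
  rw [Finset.sum_congr rfl fun i _ => h3 (stdVec k i), Finset.sum_sub_distrib, ← tr_eq_sum,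
    ← tr_eq_sum, tr_comm, ContinuousLinearMap.comp_assoc, hP.1, tilt, hP.2.2, hS.2.2, tr_comm S P]

/-! ### the slab field -/

/-- horizontal part. -/
abbrev hz (P : L k) (c x : Euc k) : Euc k := P (x - c)

/-- vertical part. -/
abbrev vt (P : L k) (c x : Euc k) : Euc k := (x - c) - P (x - c)

theorem hz_vt_sq {P : L k} {j : ℕ} (hP : P ∈ G j k) (c x : Euc k) :
    ‖hz P c x‖ ^ 2 + ‖vt P c x‖ ^ 2 = ‖x - c‖ ^ 2 := G_norm_sq_add hP (x - c)

theorem hasFDerivAt_lin (A : L k) (c x : Euc k) :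
    HasFDerivAt (fun x : Euc k => A (x - c)) A x := by
  have := A.hasFDerivAt.comp x ((hasFDerivAt_id x).sub_const c)
  rw [ContinuousLinearMap.comp_id] at this
  exact this

theorem hasFDerivAt_normsq_comp (A : L k) (c x : Euc k) {g : ℝ → ℝ} (hg : ContDiff ℝ 1 g) :
    HasFDerivAt (fun x : Euc k => g (‖A (x - c)‖ ^ 2))
      ((2 * deriv g (‖A (x - c)‖ ^ 2)) • (innerSL ℝ (A (x - c)) ∘L A)) x := by
  have h1 : HasFDerivAt (fun x : Euc k => A (x - c)) A x := hasFDerivAt_lin A c x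
  have h2 : HasFDerivAt (fun x : Euc k => ‖A (x - c)‖ ^ 2)
      (2 • (innerSL ℝ (A (x - c)) ∘L A)) x := h1.norm_sq
  have h3 : HasDerivAt g (deriv g (‖A (x - c)‖ ^ 2)) (‖A (x - c)‖ ^ 2) :=
    (hg.differentiable one_ne_zero _).hasDerivAt
  have h4 := h3.comp_hasFDerivAt x h2
  have h6 : (2 * deriv g (‖A (x - c)‖ ^ 2)) • (innerSL ℝ (A (x - c)) ∘L A)
      = deriv g (‖A (x - c)‖ ^ 2) • (2 • (innerSL ℝ (A (x - c)) ∘L A)) := by
    rw [smul_comm (deriv g _) (2 : ℕ), ← Nat.cast_smul_eq_nsmul ℝ, smul_smul]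
    norm_num
  rw [h6]
  exact h4

/-- the slab field. -/
def slabX (P : L k) (c : Euc k) (κ g : ℝ → ℝ) (x : Euc k) : Euc k :=
  (κ (‖vt P c x‖ ^ 2) * g (‖hz P c x‖ ^ 2)) • hz P c x

theorem vt_eq (P : L k) (c x : Euc k) :
    vt P c x = (ContinuousLinearMap.id ℝ (Euc k) - P) (x - c) := by
  simp [vt]

theorem contDiff_slabX (P : L k) (c : Euc k) {κ g : ℝ → ℝ} (hκ : ContDiff ℝ 1 κ)
    (hg : ContDiff ℝ 1 g) : ContDiff ℝ 1 (slabX P c κ g) := by
  have h1 : ContDiff ℝ 1 (fun x : Euc k => x - c) := contDiff_id.sub contDiff_const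
  have h2 : ContDiff ℝ 1 (fun x : Euc k => hz P c x) := P.contDiff.comp h1
  have h3 : ContDiff ℝ 1 (fun x : Euc k => vt P c x) := h1.sub h2
  exact ((hκ.comp (h3.norm_sq ℝ)).mul (hg.comp (h2.norm_sq ℝ))).smul h2

theorem tr_slabX {P : L k} {j : ℕ} (hP : P ∈ G j k) (c x : Euc k) {κ g : ℝ → ℝ}
    (hκ : ContDiff ℝ 1 κ) (hg : ContDiff ℝ 1 g) {S : L k} (hS : S ∈ G m k) :
    tr ((fderiv ℝ (slabX P c κ g) x) ∘L S)
      = κ (‖vt P c x‖ ^ 2) * (g (‖hz P c x‖ ^ 2) * (m - tilt P S)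
          + 2 * deriv g (‖hz P c x‖ ^ 2) * ‖S (hz P c x)‖ ^ 2)
        + 2 * deriv κ (‖vt P c x‖ ^ 2) * g (‖hz P c x‖ ^ 2) * ⟪vt P c x, S (hz P c x)⟫_ℝ := by
  have h1 : HasFDerivAt (fun x : Euc k => hz P c x) P x := hasFDerivAt_lin P c x
  have hg1 := hasFDerivAt_normsq_comp P c x hg
  have hκ1 := hasFDerivAt_normsq_comp (ContinuousLinearMap.id ℝ (Euc k) - P) c x hκ
  simp only [← vt_eq] at hκ1
  have hX : HasFDerivAt (slabX P c κ g)
      ((κ (‖vt P c x‖ ^ 2) * g (‖hz P c x‖ ^ 2)) • P +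
      (κ (‖vt P c x‖ ^ 2) • (2 * deriv g (‖P (x - c)‖ ^ 2)) • (innerSL ℝ) (P (x - c)) ∘L P +
            g (‖P (x - c)‖ ^ 2) •
              (2 * deriv κ (‖vt P c x‖ ^ 2)) •
                (innerSL ℝ) (vt P c x) ∘L (ContinuousLinearMap.id ℝ (Euc k) - P)).smulRight
        (hz P c x)) x := (hκ1.mul hg1).smul h1
  rw [hX.fderiv]
  have hPPS : ∀ w : Euc k, ⟪hz P c x, P w⟫_ℝ = ⟪hz P c x, w⟫_ℝ := by
    intro w
    rw [← G_symm hP, G_idem_apply hP]
  have hvt : ∀ w : Euc k, ⟪vt P c x, w - P w⟫_ℝ = ⟪vt P c x, w⟫_ℝ := by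
    intro w
    rw [inner_sub_right, ← G_symm hP]
    simp [vt, G_idem_apply hP]
  have hSS : ⟪hz P c x, S (hz P c x)⟫_ℝ = ‖S (hz P c x)‖ ^ 2 := by
    rw [real_inner_comm, G_inner_self hS]
  rw [ContinuousLinearMap.add_comp, map_add, tr_smulRight_comp]
  have e1 : (((κ (‖vt P c x‖ ^ 2)) * g (‖hz P c x‖ ^ 2)) • P) ∘L S
      = ((κ (‖vt P c x‖ ^ 2)) * g (‖hz P c x‖ ^ 2)) • (P ∘L S) := by
    ext v; simp
  rw [e1, map_smul]
  simp only [smul_eq_mul, add_apply, smul_apply, ContinuousLinearMap.comp_apply,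
    innerSL_apply_apply, sub_apply, ContinuousLinearMap.id_apply]
  rw [hPPS, hSS, hvt]
  have e2 : tr (P ∘L S) = m - tilt P S := by rw [tilt, hS.2.2]; ring
  rw [e2]
  ring

variable {U : Set (Euc k)} {V : Measure (Euc k × L k)}

theorem integrableOn_of_cont (hc : ∀ᵐ p ∂V, p.2 ∈ G m k)
    {K : Set (Euc k)} (hK : IsCompact K) (hV : V (K ×ˢ Set.univ) < ⊤)
    {F : Euc k × L k → ℝ} (hF : Continuous F) : IntegrableOn F (K ×ˢ Set.univ) V := by
  obtain ⟨C, hC⟩ : ∃ C, ∀ p ∈ K ×ˢ G m k, ‖F p‖ ≤ C :=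
    (hK.prod (isCompact_G m k)).exists_bound_of_continuousOn hF.continuousOn
  refine IntegrableOn.of_bound hV hF.aestronglyMeasurable C ?_
  filter_upwards [ae_restrict_of_ae hc,
    ae_restrict_mem (hK.measurableSet.prod MeasurableSet.univ)] with p hp hp2
  exact hC p ⟨hp2.1, hp⟩

theorem mem_of_slab {P : L k} {j : ℕ} (hP : P ∈ G j k) {c x : Euc k} {R W : ℝ} (hR : 0 ≤ R)
    (hW : 0 ≤ W) (h1 : ‖hz P c x‖ ^ 2 ≤ R ^ 2) (h2 : ‖vt P c x‖ ^ 2 ≤ W ^ 2) :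
    x ∈ Metric.closedBall c (R + W) := by
  rw [Metric.mem_closedBall, dist_eq_norm]
  have h3 := hz_vt_sq hP c x
  refine le_of_sq_le_sq ?_ (by positivity)
  nlinarith [mul_nonneg hR hW]

/-- the slab identity. -/
theorem slab_identity (hV : Stat m k U V) {P : L k} {j : ℕ} (hP : P ∈ G j k) {c : Euc k} {R W : ℝ}
    (hR : 0 ≤ R) (hW : 0 ≤ W) (hU : Metric.closedBall c (R + W) ⊆ U) {κ g : ℝ → ℝ}
    (hκ : ContDiff ℝ 1 κ) (hg : ContDiff ℝ 1 g) (hκ0 : ∀ t, W ^ 2 ≤ t → κ t = 0)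
    (hg0 : ∀ t, R ^ 2 ≤ t → g t = 0) :
    ∫ p, (κ (‖vt P c p.1‖ ^ 2) * (g (‖hz P c p.1‖ ^ 2) * (m - tilt P p.2)
          + 2 * deriv g (‖hz P c p.1‖ ^ 2) * ‖p.2 (hz P c p.1)‖ ^ 2)
        + 2 * deriv κ (‖vt P c p.1‖ ^ 2) * g (‖hz P c p.1‖ ^ 2)
          * ⟪vt P c p.1, p.2 (hz P c p.1)⟫_ℝ) ∂V = 0 := by
  have hts : tsupport (slabX P c κ g) ⊆ Metric.closedBall c (R + W) := by
    refine closure_minimal ?_ Metric.isClosed_closedBall
    intro x hx
    refine mem_of_slab hP hR hW ?_ ?_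
    · by_contra hcon
      apply hx
      rw [slabX, hg0 _ (not_le.1 hcon).le, mul_zero, zero_smul]
    · by_contra hcon
      apply hx
      rw [slabX, hκ0 _ (not_le.1 hcon).le, zero_mul, zero_smul]
  have h := hV.stat _ (contDiff_slabX P c hκ hg)
    (HasCompactSupport.of_support_subset_isCompact (isCompact_closedBall c (R + W))
      (subset_closure.trans hts)) (hts.trans hU)
  rw [← h]
  refine integral_congr_ae ?_
  filter_upwards [hV.conc] with p hp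
  exact (tr_slabX hP c p.1 hκ hg hp).symm

/-- the slab inequality, abstract weights. -/
theorem slab_le (hV : Stat m k U V) {P : L k} (hP : P ∈ G m k) {c : Euc k} {R W B Γ lam : ℝ}
    (hR : 0 ≤ R) (hW : 0 ≤ W) (hB : 0 ≤ B) (hΓ : 0 ≤ Γ) (hlam : 0 < lam)
    (hU : Metric.closedBall c (R + W) ⊆ U) {κ g : ℝ → ℝ}
    (hκ : ContDiff ℝ 1 κ) (hg : ContDiff ℝ 1 g) (hκ0 : ∀ t, W ^ 2 ≤ t → κ t = 0)
    (hκ0' : ∀ t, W ^ 2 ≤ t → deriv κ t = 0)
    (hκn : ∀ t, 0 ≤ κ t) (hκ1 : ∀ t, κ t ≤ 1) (hκd : ∀ t, 0 ≤ t → 2 * |deriv κ (t ^ 2)| * t ≤ B)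
    (hg0 : ∀ t, R ^ 2 ≤ t → g t = 0) (hgn : ∀ t, 0 ≤ g t) (hgΓ : ∀ t, g t ≤ Γ)
    (hgd : ∀ t, 0 ≤ t → deriv g t ≤ 0) :
    ∫ p, κ (‖vt P c p.1‖ ^ 2) *
        (m * g (‖hz P c p.1‖ ^ 2) + 2 * ‖hz P c p.1‖ ^ 2 * deriv g (‖hz P c p.1‖ ^ 2)) ∂V
      ≤ Γ * ((1 + B * R / (2 * lam)) *
            ∫ p in Metric.closedBall c (R + W) ×ˢ Set.univ, tilt P p.2 ∂V
          + B * R * lam / 2 * (V (Metric.closedBall c (R + W) ×ˢ Set.univ)).toReal) := by
  set D := Metric.closedBall c (R + W) with hD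
  have hDc : IsCompact D := isCompact_closedBall _ _
  have hDV : V (D ×ˢ Set.univ) < ⊤ := hV.fin D hDc hU
  have hid := slab_identity hV hP hR hW hU hκ hg hκ0 hg0
  set F : Euc k × L k → ℝ := fun p => κ (‖vt P c p.1‖ ^ 2) * (g (‖hz P c p.1‖ ^ 2) * (m - tilt P p.2)
          + 2 * deriv g (‖hz P c p.1‖ ^ 2) * ‖p.2 (hz P c p.1)‖ ^ 2)
        + 2 * deriv κ (‖vt P c p.1‖ ^ 2) * g (‖hz P c p.1‖ ^ 2)
          * ⟪vt P c p.1, p.2 (hz P c p.1)⟫_ℝ with hF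
  set H : Euc k × L k → ℝ := fun p => κ (‖vt P c p.1‖ ^ 2) *
        (m * g (‖hz P c p.1‖ ^ 2) + 2 * ‖hz P c p.1‖ ^ 2 * deriv g (‖hz P c p.1‖ ^ 2)) with hH
  have hκc := hκ.continuous
  have hgc := hg.continuous
  have hκ'c : Continuous (deriv κ) := hκ.continuous_deriv le_rfl
  have hg'c : Continuous (deriv g) := hg.continuous_deriv le_rfl
  have hzc : Continuous fun p : Euc k × L k => hz P c p.1 :=
    P.continuous.comp (continuous_fst.sub continuous_const)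
  have hvc : Continuous fun p : Euc k × L k => vt P c p.1 :=
    (continuous_fst.sub continuous_const).sub hzc
  have hSc : Continuous fun p : Euc k × L k => p.2 (hz P c p.1) := continuous_snd.clm_apply hzc
  have htc : Continuous fun p : Euc k × L k => tilt P p.2 := (continuous_tilt P).comp continuous_snd
  have hFc : Continuous F := by
    simp only [hF]
    fun_prop
  have hHc : Continuous H := by
    simp only [hH]
    fun_prop
  have hout : ∀ p : Euc k × L k, p.1 ∉ D → g (‖hz P c p.1‖ ^ 2) = 0 ∧ deriv g (‖hz P c p.1‖ ^ 2) = 0 ∨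
      (κ (‖vt P c p.1‖ ^ 2) = 0 ∧ deriv κ (‖vt P c p.1‖ ^ 2) = 0) := by
    intro p hp
    by_cases h1 : ‖hz P c p.1‖ ^ 2 ≤ R ^ 2
    · by_cases h2 : ‖vt P c p.1‖ ^ 2 ≤ W ^ 2
      · exact absurd (mem_of_slab hP hR hW h1 h2) hp
      · exact Or.inr ⟨hκ0 _ (not_le.1 h2).le, hκ0' _ (not_le.1 h2).le⟩
    · left
      refine ⟨hg0 _ (not_le.1 h1).le, ?_⟩
      have h3 : g =ᶠ[𝓝 (‖hz P c p.1‖ ^ 2)] fun _ => 0 := by
        filter_upwards [lt_mem_nhds (not_le.1 h1)] with t ht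
        exact hg0 t ht.le
      rw [h3.deriv_eq, deriv_const]
  have hF0 : ∀ p : Euc k × L k, p.1 ∉ D → F p = 0 := by
    intro p hp
    rcases hout p hp with ⟨h1, h2⟩ | ⟨h1, h2⟩ <;> simp only [hF, h1, h2] <;> ring
  have hH0 : ∀ p : Euc k × L k, p.1 ∉ D → H p = 0 := by
    intro p hp
    rcases hout p hp with ⟨h1, h2⟩ | ⟨h1, h2⟩ <;> simp only [hH, h1, h2] <;> ring
  have hFi : Integrable F V := integrable_of_cont hV.conc hDc hDV hFc hF0
  have hHi : Integrable H V := integrable_of_cont hV.conc hDc hDV hHc hH0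
  have hti : IntegrableOn (fun p : Euc k × L k => tilt P p.2) (D ×ˢ Set.univ) V :=
    integrableOn_of_cont hV.conc hDc hDV htc
  have hDm : MeasurableSet (D ×ˢ (Set.univ : Set (L k))) :=
    hDc.measurableSet.prod MeasurableSet.univ
  -- pointwise bound
  have hpt : ∀ᵐ p ∂V, H p ≤ F p + (D ×ˢ (Set.univ : Set (L k))).indicator
      (fun p => Γ * ((1 + B * R / (2 * lam)) * tilt P p.2 + B * R * lam / 2)) p := by
    filter_upwards [hV.conc] with p hp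
    by_cases hpD : p.1 ∈ D
    · rw [Set.indicator_of_mem (show p ∈ D ×ˢ (Set.univ : Set (L k)) from ⟨hpD, trivial⟩)]
      set τ := tilt P p.2 with hτ
      have hτ0 : 0 ≤ τ := tilt_nonneg hP hp
      set u := hz P c p.1 with hu
      set y := vt P c p.1 with hy
      have h1 : ‖u‖ ^ 2 = ‖p.2 u‖ ^ 2 + ‖u - p.2 u‖ ^ 2 := (G_norm_sq_add hp u).symm
      have h2 : |⟪y, p.2 u⟫_ℝ| ≤ Real.sqrt τ * ‖y‖ * ‖u‖ := by
        rw [← G_symm hp]
        refine (abs_real_inner_le_norm _ _).trans ?_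
        gcongr
        refine le_of_sq_le_sq ?_ (by positivity)
        rw [mul_pow, Real.sq_sqrt hτ0]
        exact norm_tan_perp_sq_le hP hp _
      have h3 : 2 * Real.sqrt τ ≤ lam + τ / lam := by
        have h4 : τ / lam = (Real.sqrt τ) ^ 2 / lam := by rw [Real.sq_sqrt hτ0]
        rw [h4]
        have h5 : 0 ≤ (Real.sqrt τ - lam) ^ 2 / lam := by positivity
        have h6 : (Real.sqrt τ - lam) ^ 2 / lam = (Real.sqrt τ) ^ 2 / lam - 2 * Real.sqrt τ + lam := by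
          field_simp
          ring
        linarith
      have hκu := hκn (‖y‖ ^ 2)
      have hκu1 := hκ1 (‖y‖ ^ 2)
      have hgu := hgn (‖u‖ ^ 2)
      have hguΓ := hgΓ (‖u‖ ^ 2)
      have hgd' := hgd (‖u‖ ^ 2) (by positivity)
      have hκd' := hκd ‖y‖ (norm_nonneg _)
      have hguR : g (‖u‖ ^ 2) * ‖u‖ ≤ Γ * R := by
        by_cases h7 : ‖u‖ ≤ R
        · exact mul_le_mul hguΓ h7 (norm_nonneg _) hΓ
        · rw [hg0 (‖u‖ ^ 2) (by
            have := not_le.1 h7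
            gcongr), zero_mul]
          positivity
      have h8 : -(2 * deriv κ (‖y‖ ^ 2) * g (‖u‖ ^ 2) * ⟪y, p.2 u⟫_ℝ) ≤
          B * Real.sqrt τ * (Γ * R) := by
        calc -(2 * deriv κ (‖y‖ ^ 2) * g (‖u‖ ^ 2) * ⟪y, p.2 u⟫_ℝ)
            ≤ |2 * deriv κ (‖y‖ ^ 2) * g (‖u‖ ^ 2) * ⟪y, p.2 u⟫_ℝ| := neg_le_abs _
          _ = 2 * |deriv κ (‖y‖ ^ 2)| * g (‖u‖ ^ 2) * |⟪y, p.2 u⟫_ℝ| := by
              rw [abs_mul, abs_mul, abs_mul, abs_of_nonneg hgu]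
              norm_num
          _ ≤ 2 * |deriv κ (‖y‖ ^ 2)| * g (‖u‖ ^ 2) * (Real.sqrt τ * ‖y‖ * ‖u‖) := by gcongr
          _ = (2 * |deriv κ (‖y‖ ^ 2)| * ‖y‖) * Real.sqrt τ * (g (‖u‖ ^ 2) * ‖u‖) := by ring
          _ ≤ B * Real.sqrt τ * (Γ * R) := by gcongr
      have h9 : κ (‖y‖ ^ 2) * g (‖u‖ ^ 2) * τ ≤ Γ * τ := by
        have : κ (‖y‖ ^ 2) * g (‖u‖ ^ 2) ≤ 1 * Γ := mul_le_mul hκu1 hguΓ hgu zero_le_one
        nlinarith
      have h10 : κ (‖y‖ ^ 2) * (2 * deriv g (‖u‖ ^ 2) * ‖u - p.2 u‖ ^ 2) ≤ 0 := by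
        apply mul_nonpos_of_nonneg_of_nonpos hκu
        apply mul_nonpos_of_nonpos_of_nonneg _ (by positivity)
        linarith
      have h11 : B * Real.sqrt τ * (Γ * R) ≤ Γ * (B * R / (2 * lam) * τ + B * R * lam / 2) := by
        have h12 : B * Real.sqrt τ * (Γ * R) = (Γ * B * R) / 2 * (2 * Real.sqrt τ) := by ring
        have h13 : Γ * (B * R / (2 * lam) * τ + B * R * lam / 2)
            = (Γ * B * R) / 2 * (lam + τ / lam) := by
          field_simp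
          ring
        rw [h12, h13]
        gcongr
      have h14 : H p - F p = κ (‖y‖ ^ 2) * g (‖u‖ ^ 2) * τ
          + κ (‖y‖ ^ 2) * (2 * deriv g (‖u‖ ^ 2) * ‖u - p.2 u‖ ^ 2)
          - 2 * deriv κ (‖y‖ ^ 2) * g (‖u‖ ^ 2) * ⟪y, p.2 u⟫_ℝ := by
        simp only [hH, hF, ← hu, ← hy, ← hτ]
        rw [h1]
        ring
      have h15 : Γ * ((1 + B * R / (2 * lam)) * τ + B * R * lam / 2)
          = Γ * τ + Γ * (B * R / (2 * lam) * τ + B * R * lam / 2) := by ring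
      linarith
    · rw [Set.indicator_of_notMem (fun h => hpD h.1), hF0 p hpD, hH0 p hpD]
      simp
  have hind : IntegrableOn (fun p : Euc k × L k =>
      Γ * ((1 + B * R / (2 * lam)) * tilt P p.2 + B * R * lam / 2)) (D ×ˢ Set.univ) V :=
    integrableOn_of_cont hV.conc hDc hDV (by fun_prop)
  calc ∫ p, H p ∂V ≤ ∫ p, (F p + (D ×ˢ (Set.univ : Set (L k))).indicator
      (fun p => Γ * ((1 + B * R / (2 * lam)) * tilt P p.2 + B * R * lam / 2)) p) ∂V :=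
        integral_mono_ae hHi (hFi.add (hind.integrable_indicator hDm)) hpt
    _ = ∫ p in D ×ˢ Set.univ, Γ * ((1 + B * R / (2 * lam)) * tilt P p.2 + B * R * lam / 2) ∂V := by
        rw [integral_add hFi (hind.integrable_indicator hDm), hid, zero_add,
          integral_indicator hDm]
    _ = _ := by
        rw [integral_const_mul, integral_add (hti.const_mul _)
          (integrableOn_const hDV.ne), integral_const_mul, setIntegral_const]
        simp only [Measure.real, smul_eq_mul]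
        ring

end Crest.Agent.R234.In_947
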