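import Crest.Agent.R234.In2_947

/-!
Row 234, VF-INT (helper947), file 3: the sheet lemma (multi-centre monotonicity): if finitely many
points of ONE fibre of `P` are good (small tilt at all scales `≤ R`) and close together, the sum of
their density lower bounds is at most the mass ratio at scale `R`, up to `ε`.
-/

set_option autoImplicit false

open MeasureTheory Crest.GeometryTopology.Submanifold Filter Topology
open scoped ENNReal InnerProductSpace

noncomputable section

namespace Crest.Agent.R234.In_947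

open Crest.Agent.R234.Vf_884

/-- scale selection: a finite set with two points at distance `≥ d` has a subset `A`, `#A ≥ 2`, which
is `t`-separated while every point is within `t/Λ` of `A`. -/
theorem exists_scale {X : Type*} [MetricSpace X] [DecidableEq X] (F : Finset X) {Λ d : ℝ}
    (hΛ : 1 < Λ) (hd : 0 < d) (hx : ∃ x ∈ F, ∃ y ∈ F, d ≤ dist x y) {N : ℕ} (hN : F.card ≤ N) :
    ∃ t, d / Λ ^ N ≤ t ∧ 0 < t ∧ t ≤ d ∧ ∃ A ⊆ F, (∀ a ∈ A, ∀ b ∈ A, a ≠ b → t ≤ dist a b) ∧
      (∀ x ∈ F, ∃ a ∈ A, dist x a < t / Λ) ∧ 2 ≤ A.card := by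
  have hΛ0 : 0 < Λ := by linarith
  let Q : ℕ → Prop := fun j => ∃ A ⊆ F, j + 2 ≤ A.card ∧
    ∀ a ∈ A, ∀ b ∈ A, a ≠ b → d / Λ ^ j ≤ dist a b
  have hQ0 : Q 0 := by
    obtain ⟨x, hx, y, hy, hxy⟩ := hx
    have hne : x ≠ y := by
      rintro rfl
      rw [dist_self] at hxy
      linarith
    refine ⟨{x, y}, ?_, ?_, ?_⟩
    · intro z hz
      rcases Finset.mem_insert.1 hz with h | h
      · rw [h]; exact hx
      · rw [Finset.mem_singleton.1 h]; exact hy
    · rw [Finset.card_pair hne]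
    · intro a ha b hb hab
      rw [pow_zero, div_one]
      rcases Finset.mem_insert.1 ha with h | h <;> rcases Finset.mem_insert.1 hb with h' | h'
      · exact absurd (h.trans h'.symm) hab
      · rw [h, Finset.mem_singleton.1 h']; exact hxy
      · rw [Finset.mem_singleton.1 h, h', dist_comm]; exact hxy
      · exact absurd ((Finset.mem_singleton.1 h).trans (Finset.mem_singleton.1 h').symm) hab
  have hQN : ¬ Q N := by
    rintro ⟨A, hA, hc, -⟩
    have := Finset.card_le_card hA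
    omega
  obtain ⟨j, hjN, hj, hj1⟩ : ∃ j, j < N ∧ Q j ∧ ¬ Q (j + 1) := by
    by_contra hcon
    push Not at hcon
    have : ∀ j, j ≤ N → Q j := by
      intro j
      induction j with
      | zero => exact fun _ => hQ0
      | succ j ih => exact fun h => hcon j (by omega) (ih (by omega))
    exact hQN (this N le_rfl)
  obtain ⟨A, hA, hc, hsep⟩ := hj
  refine ⟨d / Λ ^ j, ?_, by positivity, ?_, A, hA, hsep, ?_, by omega⟩
  · exact div_le_div_of_nonneg_left hd.le (by positivity) (pow_le_pow_right₀ hΛ.le hjN.le)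
  · exact div_le_self hd.le (one_le_pow₀ hΛ.le)
  · intro x hx
    by_contra hcon
    push Not at hcon
    have hxA : x ∉ A := by
      intro h
      have h1 := hcon x h
      rw [dist_self] at h1
      have h2 : 0 < d / Λ ^ j / Λ := by positivity
      linarith
    refine hj1 ⟨insert x A, Finset.insert_subset hx hA, ?_, ?_⟩
    · rw [Finset.card_insert_of_notMem hxA]
      omega
    · have e : d / Λ ^ (j + 1) = d / Λ ^ j / Λ := by rw [pow_succ, div_div]
      have e2 : d / Λ ^ j / Λ ≤ d / Λ ^ j := div_le_self (by positivity) hΛ.le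
      intro a ha b hb hab
      rw [e]
      rcases Finset.mem_insert.1 ha with h | h <;> rcases Finset.mem_insert.1 hb with h' | h'
      · exact absurd (h.trans h'.symm) hab
      · rw [h]; exact hcon b h'
      · rw [h', dist_comm]; exact hcon a h
      · exact e2.trans (hsep a h b h' hab)

/-- good point at scale `R`. -/
structure GoodPt {k : ℕ} (m : ℕ) (U : Set (Euc k)) (V : Measure (Euc k × L k)) (P : L k)
    (M η R θ : ℝ) (x : Euc k) : Prop where
  ball : Metric.closedBall x R ⊆ U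
  tilt : ∀ r, 0 < r → r ≤ R → tl P V (Metric.closedBall x r) ≤ η * r ^ m
  mono : ∀ r s, 0 < r → r ≤ s → s ≤ R →
    (r ^ m)⁻¹ * ms V (Metric.closedBall x r) ≤ (s ^ m)⁻¹ * ms V (Metric.closedBall x s)
  up : (R ^ m)⁻¹ * ms V (Metric.closedBall x R) ≤ M
  low : ∀ r, 0 < r → r ≤ R → θ ≤ (r ^ m)⁻¹ * ms V (Metric.closedBall x r)

theorem GoodPt.restrict {m k : ℕ} {U : Set (Euc k)} {V : Measure (Euc k × L k)} {P : L k}
    {M η η' R s θ : ℝ} {x : Euc k} (h : GoodPt m U V P M η R θ x) (hs : 0 < s) (hsR : s ≤ R)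
    (hη : η ≤ η') : GoodPt m U V P M η' s θ x where
  ball := (Metric.closedBall_subset_closedBall hsR).trans h.ball
  tilt := fun r hr hrs => (h.tilt r hr (hrs.trans hsR)).trans (by gcongr)
  mono := fun r t hr hrt hts => h.mono r t hr hrt (hts.trans hsR)
  up := (h.mono s R hs hsR le_rfl).trans h.up
  low := fun r hr hrs => h.low r hr (hrs.trans hsR)

theorem GoodPt.mass_le {m k : ℕ} {U : Set (Euc k)} {V : Measure (Euc k × L k)} {P : L k}
    {M η R θ : ℝ} {x : Euc k} (h : GoodPt m U V P M η R θ x) {r : ℝ} (hr : 0 < r) (hrR : r ≤ R) :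
    ms V (Metric.closedBall x r) ≤ M * r ^ m := by
  have h1 := (h.mono r R hr hrR le_rfl).trans h.up
  rwa [inv_mul_le_iff₀ (by positivity), mul_comm] at h1

theorem exists_delta (m : ℕ) (M : ℝ) {ε : ℝ} (hε : 0 < ε) :
    ∃ δ : ℝ, 0 < δ ∧ δ ≤ 1 ∧ (1 + δ) ^ m * (1 + δ) ^ m ≤ 2 ∧
      M * ((1 + δ) ^ m * (1 + δ) ^ m - 1) ≤ ε := by
  have h1 : Tendsto (fun δ : ℝ => (1 + δ) ^ m * (1 + δ) ^ m) (𝓝[>] 0) (𝓝 1) := by
    have : Continuous (fun δ : ℝ => (1 + δ) ^ m * (1 + δ) ^ m) := by fun_prop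
    have h2 := (this.tendsto 0).mono_left (nhdsWithin_le_nhds (s := Set.Ioi 0))
    simpa using h2
  have h2 : Tendsto (fun δ : ℝ => M * ((1 + δ) ^ m * (1 + δ) ^ m - 1)) (𝓝[>] 0) (𝓝 0) := by
    have := (h1.sub_const 1).const_mul M
    simpa using this
  have h0 : ∀ᶠ δ : ℝ in 𝓝[>] 0, δ ≤ 1 :=
    (eventually_le_nhds (by norm_num : (0 : ℝ) < 1)).filter_mono nhdsWithin_le_nhds
  obtain ⟨δ, h3, h4, h6, h5⟩ := ((h1.eventually_le_const (by norm_num : (1 : ℝ) < 2)).and
    ((h2.eventually_le_const hε).and (h0.and self_mem_nhdsWithin))).exists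
  exact ⟨δ, h5, h6, h3, h4⟩

theorem ms_mono {k : ℕ} {V : Measure (Euc k × L k)} {A B : Set (Euc k)} (h : A ⊆ B)
    (hB : V (B ×ˢ Set.univ) < ⊤) : ms V A ≤ ms V B :=
  ENNReal.toReal_mono hB.ne (measure_mono (Set.prod_mono h subset_rfl))

theorem sum_ms_le {k : ℕ} {V : Measure (Euc k × L k)} {ι : Type*} (A : Finset ι)
    (S : ι → Set (Euc k)) {B : Set (Euc k)} (hS : ∀ a ∈ A, MeasurableSet (S a))
    (hd : (A : Set ι).PairwiseDisjoint S) (hB : V (B ×ˢ Set.univ) < ⊤)
    (hsub : ∀ a ∈ A, S a ⊆ B) : ∑ a ∈ A, ms V (S a) ≤ ms V B := by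
  have hfin : ∀ a ∈ A, V (S a ×ˢ Set.univ) ≠ ⊤ := fun a ha =>
    ((measure_mono (Set.prod_mono (hsub a ha) subset_rfl)).trans_lt hB).ne
  unfold ms
  rw [← ENNReal.toReal_sum hfin]
  refine ENNReal.toReal_mono hB.ne ?_
  rw [← measure_biUnion_finset]
  · refine measure_mono ?_
    refine Set.iUnion₂_subset fun a ha => Set.prod_mono (hsub a ha) subset_rfl
  · intro a ha b hb hab
    exact Set.Disjoint.set_prod_left (hd ha hb hab) _ _
  · exact fun a ha => (hS a ha).prod MeasurableSet.univ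

/-- the error term of the slab inequality under control. -/
theorem err_bound {m : ℕ} {H M lam η C α s R' W T Ms : ℝ} (hα : 0 < α) (hα1 : α ≤ 1) (hs : 0 < s)
    (hR' : 0 < R') (hW : 0 < W) (hlam : 0 < lam) (hC : 0 ≤ C) (hη : 0 ≤ η) (hM : 0 ≤ M)
    (h1 : R' / s ≤ H) (h2 : R' / W ≤ H) (h3 : (R' + W) / s ≤ H + 2)
    (hT : T ≤ η * (R' + W) ^ m) (hMs : Ms ≤ M * (R' + W) ^ m) :
    R' * (α / s) ^ (m + 1) * ((1 + C * R' / (lam * W)) * T + C * R' * lam / W * Ms)
      ≤ H * (H + 2) ^ m * ((1 + C * H / lam) * η + C * H * lam * M) := by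
  have hH : 0 ≤ H := le_trans (by positivity) h1
  have e1 : C * R' / (lam * W) = C * (R' / W) / lam := by field_simp
  have e2 : C * R' * lam / W = C * (R' / W) * lam := by field_simp
  rw [e1, e2]
  have h4 : (1 + C * (R' / W) / lam) * T + C * (R' / W) * lam * Ms
      ≤ (R' + W) ^ m * ((1 + C * H / lam) * η + C * H * lam * M) := by
    calc (1 + C * (R' / W) / lam) * T + C * (R' / W) * lam * Ms
        ≤ (1 + C * (R' / W) / lam) * (η * (R' + W) ^ m) +
          C * (R' / W) * lam * (M * (R' + W) ^ m) := by gcongr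
      _ ≤ (1 + C * H / lam) * (η * (R' + W) ^ m) + C * H * lam * (M * (R' + W) ^ m) := by gcongr
      _ = _ := by ring
  have h5 : 0 ≤ (1 + C * H / lam) * η + C * H * lam * M := by positivity
  calc R' * (α / s) ^ (m + 1) * ((1 + C * (R' / W) / lam) * T + C * (R' / W) * lam * Ms)
      ≤ R' * (α / s) ^ (m + 1) *
        ((R' + W) ^ m * ((1 + C * H / lam) * η + C * H * lam * M)) := by gcongr
    _ = (R' / s * α) * (α * ((R' + W) / s)) ^ m * ((1 + C * H / lam) * η + C * H * lam * M) := by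
        rw [mul_pow, div_pow, div_pow, pow_succ]
        field_simp
        ring
    _ ≤ (H * 1) * (1 * (H + 2)) ^ m * ((1 + C * H / lam) * η + C * H * lam * M) := by gcongr
    _ = _ := by rw [mul_one, one_mul]

theorem exists_lam_eta {E0 C H M ε₂ η₁ : ℝ} (hE0 : 0 ≤ E0) (hC : 0 ≤ C) (hH : 0 ≤ H) (hM : 0 ≤ M)
    (hε₂ : 0 < ε₂) (hη₁ : 0 < η₁) : ∃ lam : ℝ, 0 < lam ∧ ∃ η : ℝ, 0 < η ∧ η ≤ η₁ ∧
      E0 * ((1 + C * H / lam) * η + C * H * lam * M) ≤ ε₂ := by
  set lam : ℝ := ε₂ / (2 * (E0 * (C * H * M) + 1)) with hlam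
  have hlam0 : 0 < lam := by positivity
  set η : ℝ := ε₂ / (2 * (E0 * (1 + C * H / lam) + 1)) with hη
  have hη0 : 0 < η := by positivity
  refine ⟨lam, hlam0, min η₁ η, lt_min hη₁ hη0, min_le_left _ _, ?_⟩
  have h1 : E0 * (C * H * M) * lam ≤ ε₂ / 2 := by
    rw [hlam, mul_div_assoc', div_le_div_iff₀ (by positivity) (by norm_num)]
    nlinarith [mul_nonneg hE0 (mul_nonneg (mul_nonneg hC hH) hM)]
  have h2 : E0 * (1 + C * H / lam) * min η₁ η ≤ ε₂ / 2 := by
    have h3 : E0 * (1 + C * H / lam) * min η₁ η ≤ E0 * (1 + C * H / lam) * η := by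
      gcongr
      exact min_le_right _ _
    refine h3.trans ?_
    have h4 : 0 ≤ E0 * (1 + C * H / lam) := by positivity
    rw [hη, mul_div_assoc', div_le_div_iff₀ (by positivity) (by norm_num)]
    nlinarith
  calc E0 * ((1 + C * H / lam) * min η₁ η + C * H * lam * M)
      = E0 * (1 + C * H / lam) * min η₁ η + E0 * (C * H * M) * lam := by ring
    _ ≤ ε₂ := by linarith

theorem aux_scale (m : ℕ) {b : ℝ} (hb : 0 < b) (s x : ℝ) :
    (s ^ m)⁻¹ * x = b ^ m * ((b⁻¹ / s) ^ m * x) := by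
  rw [div_pow, inv_pow]
  field_simp

theorem aux_scale2 (m : ℕ) {b : ℝ} (hb : 0 < b) (r x : ℝ) :
    (r ^ m)⁻¹ * x = b ^ m * (((b * r) ^ m)⁻¹ * x) := by
  rw [mul_pow, mul_inv]
  field_simp

theorem final_arith {N : ℕ} {b mR M ε Ac Y S : ℝ} (hb1 : 1 ≤ b) (hb2 : b * b ≤ 2)
    (hM : M * (b * b - 1) ≤ ε / 4) (hmR0 : 0 ≤ mR) (hmR : mR ≤ M) (hAc : Ac ≤ N + 1)
    (hε : 0 ≤ ε) (hY : Y ≤ b * mR)
    (hS : S ≤ b * Y + Ac * (b * (ε / (8 * (N + 1))) + ε / (8 * (N + 1)))) : S ≤ mR + ε := by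
  have hb0 : 0 ≤ b := by linarith
  have h2 : b ≤ 2 := by nlinarith
  have h1 : b * Y ≤ b * (b * mR) := by gcongr
  have h3 : Ac * (b * (ε / (8 * (N + 1))) + ε / (8 * (N + 1))) ≤
      (N + 1) * (2 * (ε / (8 * (N + 1))) + ε / (8 * (N + 1))) := by gcongr
  have h4 : ((N : ℝ) + 1) * (2 * (ε / (8 * (N + 1))) + ε / (8 * (N + 1))) = 3 * ε / 8 := by
    field_simp
    ring
  have h5 : mR * (b * b - 1) ≤ M * (b * b - 1) := by
    have : 0 ≤ b * b - 1 := by nlinarith
    gcongr
  nlinarith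

/-- **Sheet lemma.** -/
theorem sheet_lemma (m k N : ℕ) : ∀ (M ε : ℝ), 0 ≤ M → 0 < ε → ∃ η : ℝ, 0 < η ∧ ∃ K : ℝ, 1 ≤ K ∧
    ∀ {U : Set (Euc k)} {V : Measure (Euc k × L k)}, Stat m k U V → ∀ {P : L k}, P ∈ G m k →
    ∀ {R : ℝ}, 0 < R → ∀ (F : Finset (Euc k)), F.card ≤ N → (∀ x ∈ F, ∀ y ∈ F, P (x - y) = 0) →
    (∀ x ∈ F, ∀ y ∈ F, K * dist x y ≤ R) → ∀ θ : Euc k → ℝ,
    (∀ x ∈ F, GoodPt m U V P M η R (θ x) x) → ∀ x₀ ∈ F,
    ∑ x ∈ F, θ x ≤ (R ^ m)⁻¹ * ms V (Metric.closedBall x₀ R) + ε := by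
  obtain ⟨C, hC, hslab⟩ := slab_mass
  induction N with
  | zero =>
    intro M ε hM hε
    refine ⟨1, one_pos, 1, le_rfl, ?_⟩
    intro U V hV P hP R hR F hF _ _ θ _ x₀ hx₀
    have := Finset.card_eq_zero.1 (Nat.le_zero.1 hF)
    simp [this] at hx₀
  | succ N ih =>
    intro M ε hM hε
    obtain ⟨δ, hδ, hδ1, hδ2, hδM⟩ := exists_delta m M (show 0 < ε / 4 by positivity)
    set ε₂ : ℝ := ε / (8 * (N + 1)) with hε₂
    have hε₂0 : 0 < ε₂ := by positivity
    obtain ⟨η₁, hη₁, K₁, hK₁, ih⟩ := ih M ε₂ hM hε₂0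
    set K' : ℝ := 5 / (4 * δ) with hK'
    set Λ : ℝ := 16 * K₁ with hΛ
    set H : ℝ := 8 * K' * Λ ^ (N + 1) with hH
    have hK'0 : 0 < K' := by positivity
    have hΛ1 : 16 ≤ Λ := by rw [hΛ]; linarith
    have hΛ0 : 0 < Λ := by linarith
    have hH0 : 0 < H := by positivity
    obtain ⟨lam, hlam, η, hη, hηη₁, hE⟩ := exists_lam_eta (E0 := H * (H + 2) ^ m) (C := C) (H := H)
      (M := M) (by positivity) hC hH0.le hM hε₂0 hη₁
    refine ⟨η, hη, K' + 5 / 4, by linarith, ?_⟩
    intro U V hV P hP R hR F hF hfib hK θ hgood x₀ hx₀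
    have hgR := hgood x₀ hx₀
    set mR : ℝ := (R ^ m)⁻¹ * ms V (Metric.closedBall x₀ R) with hmR
    have hmR0 : 0 ≤ mR := mul_nonneg (by positivity) (ms_nonneg _ _)
    by_cases hsing : ∀ x ∈ F, x = x₀
    · have hF1 : F = {x₀} := by
        ext x
        rw [Finset.mem_singleton]
        exact ⟨hsing x, fun h => h ▸ hx₀⟩
      rw [hF1, Finset.sum_singleton]
      have := hgR.low R hR le_rfl
      linarith
    push Not at hsing
    obtain ⟨x₁, hx₁, hx₁₀⟩ := hsing
    -- the diameter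
    obtain ⟨⟨u, v⟩, huv, hmax⟩ := (F ×ˢ F).exists_max_image (fun p => dist p.1 p.2)
      ⟨(x₀, x₀), Finset.mem_product.2 ⟨hx₀, hx₀⟩⟩
    rw [Finset.mem_product] at huv
    set d : ℝ := dist u v with hd
    have hdm : ∀ x ∈ F, ∀ y ∈ F, dist x y ≤ d := fun x hx y hy =>
      hmax (x, y) (Finset.mem_product.2 ⟨hx, hy⟩)
    have hd0 : 0 < d := lt_of_lt_of_le (dist_pos.2 hx₁₀) (hdm x₁ hx₁ x₀ hx₀)
    have hKd : (K' + 5 / 4) * d ≤ R := hK u huv.1 v huv.2
    classical
    obtain ⟨t, htl, ht0, htd, A, hAF, hsep, hcov, hA2⟩ := exists_scale F (Λ := Λ) (d := d)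
      (by linarith) hd0 ⟨u, huv.1, v, huv.2, le_rfl⟩ hF
    choose! f hfA hfd using hcov
    have htΛ : t / Λ < t := div_lt_self ht0 (by linarith)
    have hfa : ∀ a ∈ A, f a = a := by
      intro a ha
      by_contra hne
      have h1 := hsep a ha (f a) (hfA a (hAF ha)) (Ne.symm hne)
      have h2 := hfd a (hAF ha)
      linarith
    -- parameters
    set s : ℝ := t / 8 with hs
    set W : ℝ := t / 4 with hW
    set R' : ℝ := K' * d with hR'
    set α : ℝ := (1 + δ)⁻¹ with hα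
    have hs0 : 0 < s := by positivity
    have hW0 : 0 < W := by positivity
    have hR'0 : 0 < R' := by positivity
    have hα0 : 0 < α := by positivity
    have hα1 : α < 1 := inv_lt_one_of_one_lt₀ (by linarith)
    have hδR' : δ * R' = 5 / 4 * d := by rw [hR', hK']; field_simp
    have hR'WR : R' + W ≤ R := by rw [hR', hW]; linarith
    have hsR' : s ≤ α * R' := by
      rw [hα, inv_mul_eq_div, le_div_iff₀ (by positivity), hs]
      have h1 : δ * (t / 8 * (1 + δ)) ≤ 1 * (t / 8 * (1 + 1)) := by gcongr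
      have h2 : δ * (t / 8 * (1 + δ)) ≤ δ * R' := by
        rw [hδR']
        linarith
      exact le_of_mul_le_mul_left h2 hδ
    have hsR : s ≤ R := by
      have : α * R' ≤ 1 * R' := by gcongr
      linarith
    have hdt : d ≤ t * Λ ^ (N + 1) := by
      rwa [div_le_iff₀ (by positivity)] at htl
    have hR's : R' / s ≤ H := by
      rw [div_le_iff₀ hs0, hR', hH, hs]
      calc K' * d ≤ K' * (t * Λ ^ (N + 1)) := by gcongr
        _ = _ := by ring
    have hR'W : R' / W ≤ H := by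
      refine le_trans ?_ hR's
      rw [hs, hW]
      gcongr
      norm_num
    have hR'W2 : (R' + W) / s ≤ H + 2 := by
      rw [add_div]
      have : W / s = 2 := by rw [hW, hs]; field_simp; norm_num
      linarith
    -- the clusters
    have hcl : ∀ a ∈ A, ∑ x ∈ F with f x = a, θ x ≤
        (s ^ m)⁻¹ * ms V (Metric.closedBall a s) + ε₂ := by
      intro a ha
      obtain ⟨b, hb, hba⟩ := Finset.exists_mem_ne (by omega : 1 < A.card) a
      refine ih hV hP hs0 (F.filter fun x => f x = a) ?_ ?_ ?_ θ ?_ a ?_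
      · have h1 : (F.filter fun x => f x = a) ⊆ F.erase b := by
          intro x hx
          rw [Finset.mem_filter] at hx
          refine Finset.mem_erase.2 ⟨?_, hx.1⟩
          rintro rfl
          rw [hfa _ hb] at hx
          exact hba hx.2
        have h2 := Finset.card_le_card h1
        rw [Finset.card_erase_of_mem (hAF hb)] at h2
        omega
      · intro x hx y hy
        exact hfib x (Finset.mem_of_mem_filter x hx) y (Finset.mem_of_mem_filter y hy)
      · intro x hx y hy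
        rw [Finset.mem_filter] at hx hy
        have h1 := hfd x hx.1
        have h2 := hfd y hy.1
        rw [hx.2] at h1
        rw [hy.2] at h2
        have h3 : dist x y ≤ 2 * (t / Λ) := by
          have := dist_triangle_right x y a
          linarith
        calc K₁ * dist x y ≤ K₁ * (2 * (t / Λ)) := by gcongr
          _ = s := by rw [hs, hΛ]; field_simp; norm_num
      · intro x hx
        exact (hgood x (Finset.mem_of_mem_filter x hx)).restrict hs0 hsR hηη₁
      · exact Finset.mem_filter.2 ⟨hAF ha, hfa a ha⟩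
    -- the slab inequality
    have hsl : ∀ a ∈ A, (s ^ m)⁻¹ * ms V (Metric.closedBall a s) ≤
        (1 + δ) ^ m * ((R' ^ m)⁻¹ * ms V (cyl P a R' W) + ε₂) := by
      intro a ha
      have hga := hgood a (hAF ha)
      have h1 := hslab hV hP (c := a) (R := R') (W := W) (s := s) (α := α) (lam := lam) hα0 hα1 hs0
        hsR' (by rw [hs, hW]; linarith) hlam
        ((Metric.closedBall_subset_closedBall hR'WR).trans hga.ball)
      have h2 := err_bound (m := m) (H := H) (M := M) (lam := lam) (η := η) (C := C) (α := α) (s := s)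
        (R' := R') (W := W) hα0 hα1.le hs0 hR'0 hW0 hlam hC hη.le hM hR's hR'W hR'W2
        (hga.tilt (R' + W) (by positivity) hR'WR) (hga.mass_le (by positivity) hR'WR)
      have h3 : (s ^ m)⁻¹ * ms V (Metric.closedBall a s) =
          (1 + δ) ^ m * ((α / s) ^ m * ms V (Metric.closedBall a s)) :=
        aux_scale m (by linarith) s _
      rw [h3]
      gcongr
      linarith
    -- disjoint cylinders
    have hball : V (Metric.closedBall x₀ R ×ˢ Set.univ) < ⊤ :=
      hV.fin _ (isCompact_closedBall _ _) hgR.ball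
    have hR''R : (1 + δ) * R' ≤ R := by
      have : (1 + δ) * R' = R' + 5 / 4 * d := by rw [← hδR']; ring
      rw [this, hR']
      linarith
    have hcylsub : ∀ a ∈ A, cyl P a R' W ⊆ Metric.closedBall x₀ ((1 + δ) * R') := by
      intro a ha
      refine (cyl_subset hP hR'0.le hW0.le).trans ?_
      refine Metric.closedBall_subset_closedBall' ?_
      have h1 := hdm a (hAF ha) x₀ hx₀
      have : (1 + δ) * R' = R' + 5 / 4 * d := by rw [← hδR']; ring
      rw [this, hW]
      linarith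
    have hdisj : (A : Set (Euc k)).PairwiseDisjoint fun a => cyl P a R' W := by
      intro a ha b hb hab
      rw [Function.onFun, Set.disjoint_left]
      intro x hx hx'
      have h1 := hsep a ha b hb hab
      have h2 : P (a - b) = 0 := hfib a (hAF ha) b (hAF hb)
      have h3 : vt P b x - vt P a x = a - b := by
        have : P (x - b) - P (x - a) = 0 := by rw [← map_sub, ← h2]; congr 1; abel
        simp only [vt]
        have e : x - b - P (x - b) - (x - a - P (x - a)) = a - b - (P (x - b) - P (x - a)) := by abel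
        rw [e, this, sub_zero]
      have h4 : dist a b ≤ ‖vt P b x‖ + ‖vt P a x‖ := by
        rw [dist_eq_norm, ← h3]
        exact norm_sub_le _ _
      have h5 := hx.2
      have h6 := hx'.2
      rw [hW] at h5 h6
      linarith
    have hsum : ∑ a ∈ A, ms V (cyl P a R' W) ≤ ms V (Metric.closedBall x₀ ((1 + δ) * R')) :=
      sum_ms_le A _ (fun a _ => (isOpen_cyl P a R' W).measurableSet) hdisj
        ((measure_mono (Set.prod_mono (Metric.closedBall_subset_closedBall hR''R)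
          subset_rfl)).trans_lt hball) hcylsub
    have hmono := hgR.mono ((1 + δ) * R') R (by positivity) hR''R le_rfl
    have hAcard : (A.card : ℝ) ≤ N + 1 := by
      have := (Finset.card_le_card hAF).trans hF
      exact_mod_cast this
    have h1δ : 1 ≤ (1 + δ) ^ m := one_le_pow₀ (by linarith)
    refine final_arith (N := N) (b := (1 + δ) ^ m) (M := M) (Ac := A.card)
      (Y := (R' ^ m)⁻¹ * ∑ a ∈ A, ms V (cyl P a R' W)) h1δ hδ2 hδM hmR0 hgR.up hAcard hε.le ?_ ?_
    · calc (R' ^ m)⁻¹ * ∑ a ∈ A, ms V (cyl P a R' W)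
          ≤ (R' ^ m)⁻¹ * ms V (Metric.closedBall x₀ ((1 + δ) * R')) := by gcongr
        _ = (1 + δ) ^ m * ((((1 + δ) * R') ^ m)⁻¹ *
            ms V (Metric.closedBall x₀ ((1 + δ) * R'))) := aux_scale2 m (by linarith) R' _
        _ ≤ (1 + δ) ^ m * mR := by gcongr
    · calc ∑ x ∈ F, θ x = ∑ a ∈ A, ∑ x ∈ F with f x = a, θ x :=
            (Finset.sum_fiberwise_of_maps_to (fun x hx => hfA x hx) θ).symm
        _ ≤ ∑ a ∈ A, ((1 + δ) ^ m * ((R' ^ m)⁻¹ * ms V (cyl P a R' W) + ε₂) + ε₂) :=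
            Finset.sum_le_sum fun a ha => (hcl a ha).trans (add_le_add_left (hsl a ha) _)
        _ = (1 + δ) ^ m * ((R' ^ m)⁻¹ * ∑ a ∈ A, ms V (cyl P a R' W)) +
            A.card * ((1 + δ) ^ m * ε₂ + ε₂) := by
            rw [Finset.sum_add_distrib, ← Finset.mul_sum, Finset.sum_add_distrib, ← Finset.mul_sum]
            simp only [Finset.sum_const, nsmul_eq_mul]
            ring

end Crest.Agent.R234.In_947
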