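import Crest.Agent.R234.In4_947

/-!
Row 234, VF-INT (helper947), file 5: the bad set (Vitali), extraction of sheets, the bound of the
covering number by the mass ratio off the bad set.
-/

set_option autoImplicit false

open MeasureTheory Crest.GeometryTopology.Submanifold Filter Topology
open scoped ENNReal InnerProductSpace

noncomputable section

namespace Crest.Agent.R234.In_947

open Crest.Agent.R234.Vf_884

variable {m k : ℕ} {U : Set (Euc k)} {V : Measure (Euc k × L k)}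

/-- the tilt measure. -/
def tm (P : L k) (V : Measure (Euc k × L k)) : Measure (Euc k) :=
  (V.withDensity fun p => ENNReal.ofReal (tilt P p.2)).map Prod.fst

theorem tm_apply (P : L k) (V : Measure (Euc k × L k)) {A : Set (Euc k)} (hA : MeasurableSet A) :
    tm P V A = ∫⁻ p in A ×ˢ Set.univ, ENNReal.ofReal (tilt P p.2) ∂V := by
  rw [tm, Measure.map_apply measurable_fst hA, ← prod_univ_eq,
    withDensity_apply _ (hA.prod MeasurableSet.univ)]

theorem integrableOn_tilt (hV : Stat m k U V) (P : L k) {K A : Set (Euc k)} (hK : IsCompact K)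
    (hKU : K ⊆ U) (hAK : A ⊆ K) : IntegrableOn (fun p => tilt P p.2) (A ×ˢ Set.univ) V :=
  (integrableOn_of_cont hV.conc hK (hV.fin K hK hKU)
    ((continuous_tilt P).comp continuous_snd)).mono_set (Set.prod_mono hAK subset_rfl)

theorem tm_eq (hV : Stat m k U V) {P : L k} {j : ℕ} (hP : P ∈ G j k) {K A : Set (Euc k)}
    (hK : IsCompact K) (hKU : K ⊆ U) (hAK : A ⊆ K) (hA : MeasurableSet A) :
    tm P V A = ENNReal.ofReal (tl P V A) := by
  rw [tm_apply P V hA, tl, ofReal_integral_eq_lintegral_ofReal (integrableOn_tilt hV P hK hKU hAK)]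
  filter_upwards [ae_restrict_of_ae hV.conc] with p hp
  exact tilt_nonneg hP hp

/-- **the bad set is covered by a set of small mass.** -/
theorem bad_cover (hV : Stat m k U V) {P : L k} (hP : P ∈ G m k) {x₀ : Euc k} {r ρ R η C₁ : ℝ}
    (hη : 0 < η) (hC₁ : 0 ≤ C₁) (hr : R + ρ ≤ r) (hU : Metric.closedBall x₀ r ⊆ U)
    (hC : ∀ z ∈ Metric.ball x₀ ρ, ∀ s, 0 < s → s ≤ R →
      V (Metric.closedBall z (5 * s) ×ˢ Set.univ) ≤ ENNReal.ofReal (C₁ * s ^ m)) :
    ∃ T : Set (Euc k), MeasurableSet T ∧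
      (∀ z ∈ Metric.ball x₀ ρ, z ∉ T → ∀ s, 0 < s → s ≤ R →
        tl P V (Metric.closedBall z s) ≤ η * s ^ m) ∧
      V (T ×ˢ Set.univ) ≤ ENNReal.ofReal (C₁ / η * tl P V (Metric.ball x₀ r)) := by
  set Bad : Set (Euc k) := {z | z ∈ Metric.ball x₀ ρ ∧ ∃ s, 0 < s ∧ s ≤ R ∧
    η * s ^ m < tl P V (Metric.closedBall z s)} with hBad
  have hex : ∀ z ∈ Bad, ∃ s, 0 < s ∧ s ≤ R ∧ η * s ^ m < tl P V (Metric.closedBall z s) :=
    fun z hz => hz.2
  choose! σ hσ0 hσR hσ using hex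
  have hsub : ∀ z ∈ Bad, Metric.closedBall z (σ z) ⊆ Metric.ball x₀ r := by
    intro z hz
    have h1 : dist z x₀ < ρ := hz.1
    have h2 := hσR z hz
    exact Metric.closedBall_subset_ball' (by linarith)
  have hbc : Metric.ball x₀ r ⊆ Metric.closedBall x₀ r := Metric.ball_subset_closedBall
  have hch : ∀ z ∈ Bad, ENNReal.ofReal (η * σ z ^ m) ≤ tm P V (Metric.closedBall z (σ z)) := by
    intro z hz
    rw [tm_eq hV hP (isCompact_closedBall x₀ r) hU ((hsub z hz).trans hbc)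
      Metric.isClosed_closedBall.measurableSet]
    exact ENNReal.ofReal_le_ofReal (hσ z hz).le
  obtain ⟨u, hu, hd, hcov, hsum⟩ := Vit_534.content (tm P V) Bad (Metric.ball x₀ r) σ R hσR
    (fun z hz => (hσ0 z hz).le) (fun z => ENNReal.ofReal (η * σ z ^ m)) hch hsub
  have hBtm : tm P V (Metric.ball x₀ r) = ENNReal.ofReal (tl P V (Metric.ball x₀ r)) :=
    tm_eq hV hP (isCompact_closedBall x₀ r) hU hbc measurableSet_ball
  have hcount : u.Countable := by
    refine Vit_534.countable_of (tm P V) u (Metric.ball x₀ r) σ hd (fun z hz => hsub z (hu hz))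
      (by rw [hBtm]; exact ENNReal.ofReal_ne_top) fun z hz h0 => ?_
    have h1 := hch z (hu hz)
    rw [h0] at h1
    have h2 : 0 < η * σ z ^ m := mul_pos hη (pow_pos (hσ0 z (hu hz)) m)
    exact absurd (le_antisymm h1 zero_le) (ENNReal.ofReal_pos.2 h2).ne'
  refine ⟨⋃ x ∈ u, Metric.closedBall x (5 * σ x), ?_, ?_, ?_⟩
  · exact MeasurableSet.biUnion hcount fun x _ => Metric.isClosed_closedBall.measurableSet
  · intro z hz hzT s hs hsR
    by_contra hcon
    exact hzT (hcov ⟨hz, s, hs, hsR, not_le.1 hcon⟩)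
  · have : Countable u := hcount.to_subtype
    have hprod : (⋃ x ∈ u, Metric.closedBall x (5 * σ x)) ×ˢ (Set.univ : Set (L k)) =
        ⋃ x ∈ u, (Metric.closedBall x (5 * σ x) ×ˢ (Set.univ : Set (L k))) := by
      ext p
      simp
    rw [hprod]
    calc V (⋃ x ∈ u, (Metric.closedBall x (5 * σ x) ×ˢ (Set.univ : Set (L k))))
        ≤ ∑' x : u, V (Metric.closedBall (x : Euc k) (5 * σ x) ×ˢ (Set.univ : Set (L k))) :=
          measure_biUnion_le V hcount _
      _ ≤ ∑' x : u, ENNReal.ofReal (C₁ / η) * ENNReal.ofReal (η * σ x ^ m) := by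
          refine ENNReal.tsum_le_tsum fun x => ?_
          have hx := hu x.2
          refine (hC x hx.1 (σ x) (hσ0 x hx) (hσR x hx)).trans (le_of_eq ?_)
          rw [← ENNReal.ofReal_mul (by positivity)]
          congr 1
          field_simp
      _ = ENNReal.ofReal (C₁ / η) * ∑' x : u, ENNReal.ofReal (η * σ x ^ m) :=
          ENNReal.tsum_mul_left
      _ ≤ ENNReal.ofReal (C₁ / η) * tm P V (Metric.ball x₀ r) := by gcongr
      _ = _ := by
          rw [hBtm, ← ENNReal.ofReal_mul (by positivity)]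

/-! ### extraction of sheets -/

theorem extract (c : ℕ → ℕ) (n : ℕ) (h : (n : ℝ≥0∞) < ∑' j, (c j : ℝ≥0∞)) :
    ∃ J : Finset ℕ, J.card ≤ n + 1 ∧ (∀ j ∈ J, c j ≠ 0) ∧ n + 1 ≤ ∑ j ∈ J, c j := by
  classical
  rw [ENNReal.tsum_eq_iSup_sum, lt_iSup_iff] at h
  obtain ⟨s, hs⟩ := h
  rw [← Nat.cast_sum, Nat.cast_lt] at hs
  set s' := s.filter fun j => c j ≠ 0 with hs'
  have h1 : ∑ j ∈ s', c j = ∑ j ∈ s, c j := by
    rw [hs', Finset.sum_filter_ne_zero]
  by_cases hc : s'.card ≤ n + 1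
  · exact ⟨s', hc, fun j hj => (Finset.mem_filter.1 hj).2, by omega⟩
  · obtain ⟨J, hJ, hJc⟩ := Finset.exists_subset_card_eq (not_le.1 hc).le
    refine ⟨J, hJc.le, fun j hj => (Finset.mem_filter.1 (hJ hj)).2, ?_⟩
    rw [← hJc, Finset.card_eq_sum_ones]
    refine Finset.sum_le_sum fun j hj => ?_
    exact Nat.one_le_iff_ne_zero.2 (Finset.mem_filter.1 (hJ hj)).2

variable {D : VarifoldData m k} {π : Euc k →L[ℝ] Euc m}

/-- bound of the covering number at one point. -/
theorem N_le {P : L k} (hπP : ContinuousLinearMap.adjoint π ∘L π = P)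
    (S : Ar_870.Sheets D π) {W : Set (Euc k)} {x : Euc m} {n : ℕ}
    (hTh : ∀ j, x ∈ S.B j → Th m (VD D) (S.s j x) = (S.q j : ℝ≥0∞))
    (hF : ∀ F : Finset (Euc k), F.card ≤ n + 1 → (∀ z ∈ F, z ∈ W ∧ π z = x) →
      ∀ q : Euc k → ℕ, (∀ z ∈ F, Th m (VD D) z = (q z : ℝ≥0∞)) → ∑ z ∈ F, q z ≤ n) :
    S.N W x ≤ n := by
  classical
  by_contra hcon
  rw [not_le] at hcon
  set c : ℕ → ℕ := fun j => if x ∈ S.B j ∧ S.s j x ∈ W then S.q j else 0 with hc
  have h1 : S.N W x = ∑' j, (c j : ℝ≥0∞) := by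
    unfold Ar_870.Sheets.N
    refine tsum_congr fun j => ?_
    by_cases hj : x ∈ S.B j ∧ S.s j x ∈ W
    · rw [Set.indicator_of_mem (show x ∈ S.B j ∩ S.s j ⁻¹' W from hj)]
      simp only [hc, if_pos hj]
    · rw [Set.indicator_of_notMem (show x ∉ S.B j ∩ S.s j ⁻¹' W from hj)]
      simp only [hc, if_neg hj, Nat.cast_zero]
  rw [h1] at hcon
  obtain ⟨J, hJ1, hJ2, hJ3⟩ := extract c n hcon
  have hmem : ∀ j ∈ J, x ∈ S.B j ∧ S.s j x ∈ W := by
    intro j hj
    by_contra hn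
    exact hJ2 j hj (by simp only [hc, if_neg hn])
  have hcq : ∀ j ∈ J, c j = S.q j := fun j hj => by simp only [hc, if_pos (hmem j hj)]
  have hinj : Set.InjOn (fun j => S.s j x) J := fun i hi j hj hij =>
    S.inj i j x (hmem i hi).1 (hmem j hj).1 hij
  have h2 := hF (J.image fun j => S.s j x) (Finset.card_image_le.trans hJ1) ?_
    (fun z => (Th m (VD D) z).toReal.toNNReal |> fun t => ⌊t⌋₊) ?_
  · rw [Finset.sum_image hinj] at h2
    have h3 : ∀ j ∈ J, (⌊(Th m (VD D) (S.s j x)).toReal.toNNReal⌋₊) = c j := by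
      intro j hj
      rw [hTh j (hmem j hj).1, hcq j hj]
      simp
    rw [Finset.sum_congr rfl h3] at h2
    exact absurd (hJ3.trans h2) (Nat.not_succ_le_self n)
  · intro z hz
    obtain ⟨j, hj, rfl⟩ := Finset.mem_image.1 hz
    exact ⟨(hmem j hj).2, S.sec j x (hmem j hj).1⟩
  · intro z hz
    obtain ⟨j, hj, rfl⟩ := Finset.mem_image.1 hz
    simp only
    rw [hTh j (hmem j hj).1]
    simp

end Crest.Agent.R234.In_947
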