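import Crest.Agent.R246.H2c5_622

/-!
R234, VF-INTREG (helper971), part A: quantitative interior regularity of smooth small solutions of
`Δ v = div G(v, ∇v)` (all derivatives at the centre are bounded by the `C^α` size), from
helper622's `schauder_pert` and `sol_prolong`.
-/

set_option autoImplicit false

open MeasureTheory Metric Set Filter Topology
open scoped ContDiff

namespace Crest.Agent.R234.IntReg_971

noncomputable section

set_option linter.unusedSectionVars false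
set_option linter.unusedVariables false

open Crest.Agent.R246.H2x622

variable {F : Type} [NormedAddCommGroup F] [InnerProductSpace ℝ F]

/-- quasi-linear bound near `0` -/
def QB (β : ℝ) {V : Type} [NormedAddCommGroup V] [NormedSpace ℝ V]
    (G : V × (F →L[ℝ] V) → (F →L[ℝ] V)) : Prop :=
  ∃ δ : ℝ, 0 < δ ∧ ∃ L : ℝ, 0 ≤ L ∧ ∀ p p' : V, ‖p‖ ≤ δ → ‖p'‖ ≤ δ → ∀ P P' : F →L[ℝ] V,
    ‖G (p, P) - G (p', P')‖ ≤ β * ‖P - P'‖ + L * (1 + ‖P'‖) * ‖p - p'‖

/-- local Lipschitz bound -/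
lemma exists_lip {A B : Type*} [NormedAddCommGroup A] [NormedSpace ℝ A] [NormedAddCommGroup B]
    [NormedSpace ℝ B] {T : A → B} (hT : ContDiff ℝ ∞ T) {β : ℝ} (hβ : 0 < β) :
    ∃ δ : ℝ, 0 < δ ∧ δ ≤ 1 ∧ ∃ K : ℝ, 0 ≤ K ∧ K * δ ≤ β ∧ ∀ q q' : A, ‖q‖ ≤ δ → ‖q'‖ ≤ δ →
      ‖T q - T q'‖ ≤ K * ‖q - q'‖ := by
  obtain ⟨K, t, ht, hK⟩ :=
    ((hT.of_le (by simp) : ContDiff ℝ 1 T).contDiffAt (x := (0 : A))).exists_lipschitzOnWith
  obtain ⟨r, hr, hrt⟩ := Metric.mem_nhds_iff.1 ht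
  refine ⟨min (min (r / 2) 1) (β / (K + 1)), by positivity,
    (min_le_left _ _).trans (min_le_right _ _), K, K.2, ?_, ?_⟩
  · have hK1 : (0 : ℝ) < K + 1 := by positivity
    calc (K : ℝ) * min (min (r / 2) 1) (β / (K + 1)) ≤ (K + 1) * (β / (K + 1)) := by
          refine mul_le_mul (by linarith) (min_le_right _ _) (by positivity) hK1.le
      _ = β := by field_simp
  · intro q q' hq hq'
    have h1 : min (min (r / 2) 1) (β / ((K : ℝ) + 1)) ≤ r / 2 :=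
      (min_le_left _ _).trans (min_le_left _ _)
    have m1 : q ∈ t := hrt (by rw [mem_ball, dist_zero_right]; linarith)
    have m2 : q' ∈ t := hrt (by rw [mem_ball, dist_zero_right]; linarith)
    have := hK.dist_le_mul q m1 q' m2
    rwa [dist_eq_norm, dist_eq_norm] at this

set_option maxHeartbeats 1000000 in
theorem pro_QB {V : Type} [NormedAddCommGroup V] [NormedSpace ℝ V]
    {G : V × (F →L[ℝ] V) → (F →L[ℝ] V)} (hG : ContDiff ℝ ∞ G) (hs : Sml 0 G (0, 0)) {β : ℝ}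
    (hβ : 0 < β) : QB β (pro G) := by
  have h : ContDiff ℝ (∞ + 1) G := by simpa using hG
  have hT : ContDiff ℝ ∞ (fderiv ℝ G) := h.fderiv_right (m := ∞) le_rfl
  obtain ⟨δ1, hδ1, hδ11, K1, hK10, hKδ1, hK1⟩ := exists_lip hT hβ
  obtain ⟨δ2, hδ2, hδ21, K2, hK20, hKδ2, hK2⟩ := exists_lip hG hβ
  set T := fderiv ℝ G with hTdef
  set L1 : ℝ := ‖T 0‖ + β with hL1
  have hL10 : 0 ≤ L1 := by positivity
  refine ⟨min δ1 δ2, lt_min hδ1 hδ2, K1 + L1 + K2, by positivity, ?_⟩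
  intro q q' hq hq' P P'
  have hq1 : ‖q‖ ≤ δ1 := hq.trans (min_le_left _ _)
  have hq2 : ‖q‖ ≤ δ2 := hq.trans (min_le_right _ _)
  have hq1' : ‖q'‖ ≤ δ1 := hq'.trans (min_le_left _ _)
  have hq2' : ‖q'‖ ≤ δ2 := hq'.trans (min_le_right _ _)
  have h0δ1 : ‖(0 : V × (F →L[ℝ] V))‖ ≤ δ1 := by rw [norm_zero]; exact hδ1.le
  have hTq0 : ‖T q - T 0‖ ≤ β := by
    refine (hK1 q 0 hq1 h0δ1).trans ?_
    rw [sub_zero]
    exact (mul_le_mul_of_nonneg_left hq1 hK10).trans hKδ1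
  have hTq : ‖T q‖ ≤ L1 := by
    have h1 := norm_le_norm_add_norm_sub' (T q) (T 0)
    rw [hL1]; linarith
  have hTP : ∀ R : F →L[ℝ] V, ‖T q ((0 : V), R)‖ ≤ β * ‖R‖ := by
    intro R
    have h0 : T 0 ((0 : V), R) = 0 := by
      have := hs R
      rw [zero_mul] at this
      exact norm_le_zero_iff.1 this
    have h1 : T q ((0 : V), R) = (T q - T 0) ((0 : V), R) := by
      rw [_root_.sub_apply, h0, sub_zero]
    rw [h1]
    refine (ContinuousLinearMap.le_opNorm _ _).trans ?_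
    have h2 : ‖((0 : V), R)‖ = ‖R‖ := by rw [Prod.norm_def]; simp
    rw [h2]
    exact mul_le_mul_of_nonneg_right hTq0 (norm_nonneg _)
  set S : (F →L[ℝ] (V × (F →L[ℝ] V))) → (F →L[ℝ] (F →L[ℝ] V)) :=
    fun P => (ContinuousLinearMap.snd ℝ V (F →L[ℝ] V)) ∘L P with hS
  have hSn : ∀ P, ‖S P‖ ≤ ‖P‖ := by
    intro P
    refine (ContinuousLinearMap.opNorm_comp_le _ _).trans ?_
    have := ContinuousLinearMap.norm_snd_le (𝕜 := ℝ) V (F →L[ℝ] V)
    nlinarith [norm_nonneg P]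
  have hSsub : ∀ P P', S P - S P' = S (P - P') := by
    intro P P'
    simp only [hS, ContinuousLinearMap.comp_sub]
  set X : F →L[ℝ] (F →L[ℝ] V) := T q ∘L (q.2.prod (S P).flip) - T q' ∘L (q'.2.prod (S P').flip)
    with hX
  have hdq2 : ‖q.2 - q'.2‖ ≤ ‖q - q'‖ := by
    have : q.2 - q'.2 = (q - q').2 := rfl
    rw [this]; exact norm_snd_le _
  have hXn : ‖X‖ ≤ β * ‖P - P'‖ + (K1 + L1) * (1 + ‖P'‖) * ‖q - q'‖ := by
    refine ContinuousLinearMap.opNorm_le_bound _ (by positivity) fun e => ?_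
    have e1 : X e = (T q - T q') (q'.2 e, (S P').flip e) + T q ((q.2 - q'.2) e, 0)
        + T q (0, (S (P - P')).flip e) := by
      rw [hX]
      simp only [_root_.sub_apply, ContinuousLinearMap.comp_apply, ContinuousLinearMap.prod_apply]
      rw [add_assoc, ← map_add, Prod.mk_add_mk, add_zero, zero_add, ← hSsub]
      have e2 : (S P - S P').flip e = (S P).flip e - (S P').flip e := rfl
      rw [e2]
      have e3 : ((q.2 e - q'.2 e, (S P).flip e - (S P').flip e) : V × (F →L[ℝ] V))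
          = (q.2 e, (S P).flip e) - (q'.2 e, (S P').flip e) := rfl
      rw [e3, map_sub]
      abel
    rw [e1]
    have b1 : ‖(T q - T q') (q'.2 e, (S P').flip e)‖ ≤ K1 * ‖q - q'‖ * ((1 + ‖P'‖) * ‖e‖) := by
      refine (ContinuousLinearMap.le_opNorm _ _).trans ?_
      refine mul_le_mul (hK1 q q' hq1 hq1') ?_ (norm_nonneg _) (by positivity)
      rw [Prod.norm_def]
      have c1 : ‖q'.2 e‖ ≤ (1 + ‖P'‖) * ‖e‖ := by
        refine (ContinuousLinearMap.le_opNorm _ _).trans ?_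
        refine mul_le_mul_of_nonneg_right ?_ (norm_nonneg _)
        have := (norm_snd_le q').trans (hq1'.trans hδ11)
        have := norm_nonneg P'
        linarith
      have c2 : ‖(S P').flip e‖ ≤ (1 + ‖P'‖) * ‖e‖ := by
        refine (ContinuousLinearMap.le_opNorm _ _).trans ?_
        refine mul_le_mul_of_nonneg_right ?_ (norm_nonneg _)
        rw [ContinuousLinearMap.opNorm_flip]
        have := hSn P'
        linarith
      exact max_le c1 c2
    have b2 : ‖T q ((q.2 - q'.2) e, 0)‖ ≤ L1 * (‖q - q'‖ * ‖e‖) := by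
      refine (ContinuousLinearMap.le_opNorm _ _).trans ?_
      refine mul_le_mul hTq ?_ (norm_nonneg _) hL10
      rw [Prod.norm_def]
      refine max_le ?_ ?_
      · exact (ContinuousLinearMap.le_opNorm _ _).trans
          (mul_le_mul_of_nonneg_right hdq2 (norm_nonneg _))
      · simp only [norm_zero]; positivity
    have b3 : ‖T q (0, (S (P - P')).flip e)‖ ≤ β * (‖P - P'‖ * ‖e‖) := by
      refine (hTP _).trans (mul_le_mul_of_nonneg_left ?_ hβ.le)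
      refine (ContinuousLinearMap.le_opNorm _ _).trans ?_
      rw [ContinuousLinearMap.opNorm_flip]
      exact mul_le_mul_of_nonneg_right (hSn _) (norm_nonneg _)
    refine (norm_add_le _ _).trans ((add_le_add (norm_add_le _ _) le_rfl).trans ?_)
    have h4 : L1 * (‖q - q'‖ * ‖e‖) ≤ L1 * (‖q - q'‖ * ‖e‖) * (1 + ‖P'‖) := by
      have h5 : 0 ≤ L1 * (‖q - q'‖ * ‖e‖) := by positivity
      have := norm_nonneg P'
      nlinarith
    calc _ ≤ K1 * ‖q - q'‖ * ((1 + ‖P'‖) * ‖e‖) + L1 * (‖q - q'‖ * ‖e‖) * (1 + ‖P'‖)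
          + β * (‖P - P'‖ * ‖e‖) := by linarith
      _ = _ := by ring
  have hGn : ‖G q - G q'‖ ≤ K2 * ‖q - q'‖ := hK2 q q' hq2 hq2'
  have hdiff : pro G (q, P) - pro G (q', P') = (G q - G q').prod X.flip := rfl
  rw [hdiff, ContinuousLinearMap.opNorm_prod, Prod.norm_def]
  have hP' := norm_nonneg P'
  have hqq := norm_nonneg (q - q')
  refine max_le ?_ ?_
  · change ‖G q - G q'‖ ≤ _
    refine hGn.trans ?_
    have h1 : K2 * ‖q - q'‖ ≤ K2 * (1 + ‖P'‖) * ‖q - q'‖ := by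
      have : 0 ≤ K2 * ‖P'‖ * ‖q - q'‖ := by positivity
      nlinarith
    have h2 : 0 ≤ β * ‖P - P'‖ := by positivity
    have h3 : 0 ≤ (K1 + L1) * (1 + ‖P'‖) * ‖q - q'‖ := by positivity
    calc K2 * ‖q - q'‖ ≤ K2 * (1 + ‖P'‖) * ‖q - q'‖ := h1
      _ ≤ β * ‖P - P'‖ + ((K1 + L1) * (1 + ‖P'‖) * ‖q - q'‖ + K2 * (1 + ‖P'‖) * ‖q - q'‖) := by
          linarith
      _ = _ := by ring
  · change ‖X.flip‖ ≤ _
    rw [ContinuousLinearMap.opNorm_flip]
    refine hXn.trans ?_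
    have h3 : 0 ≤ K2 * (1 + ‖P'‖) * ‖q - q'‖ := by positivity
    calc _ ≤ β * ‖P - P'‖ + (K1 + L1) * (1 + ‖P'‖) * ‖q - q'‖ + K2 * (1 + ‖P'‖) * ‖q - q'‖ := by
          linarith
      _ = _ := by ring

variable [FiniteDimensional ℝ F] [MeasurableSpace F] [BorelSpace F]

/-- a smooth function is Hölder on every ball -/
lemma exists_hol {W : Type*} [NormedAddCommGroup W] [NormedSpace ℝ W] {g : F → W}
    (hg : ContDiff ℝ ∞ g) (x₀ : F) {ρ α : ℝ} (hρ : 0 < ρ) (hα : 0 < α) (hα1 : α < 1) :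
    ∃ K : ℝ, ∀ z ∈ ball x₀ ρ, ∀ z' ∈ ball x₀ ρ, ‖g z - g z'‖ ≤ K * ‖z - z'‖ ^ α := by
  have h : ContDiff ℝ (∞ + 1) g := by simpa using hg
  have hc : Continuous (fderiv ℝ g) := (h.fderiv_right (m := ∞) le_rfl).continuous
  obtain ⟨C, hC⟩ := (isCompact_closedBall x₀ ρ).exists_bound_of_continuousOn hc.continuousOn
  have hC0 : 0 ≤ C := (norm_nonneg _).trans (hC x₀ (mem_closedBall_self hρ.le))
  refine ⟨C * (2 * ρ) ^ (1 - α), fun z hz z' hz' => ?_⟩
  have h1 : ‖g z - g z'‖ ≤ C * ‖z - z'‖ :=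
    (convex_ball x₀ ρ).norm_image_sub_le_of_norm_fderiv_le
      (fun y _ => hg.differentiable (by simp) y) (fun y hy => hC y (ball_subset_closedBall hy))
      hz' hz
  rcases eq_or_ne z z' with rfl | hne
  · simp only [sub_self, norm_zero]
    have := Real.zero_rpow hα.ne'
    rw [this, mul_zero]
  have hn : 0 < ‖z - z'‖ := norm_pos_iff.2 (sub_ne_zero.2 hne)
  have h2 : ‖z - z'‖ ≤ 2 * ρ := by
    rw [mem_ball, dist_eq_norm] at hz hz'
    calc ‖z - z'‖ = ‖(z - x₀) - (z' - x₀)‖ := by congr 1; abel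
      _ ≤ ‖z - x₀‖ + ‖z' - x₀‖ := norm_sub_le _ _
      _ ≤ 2 * ρ := by linarith
  have h3 : ‖z - z'‖ = ‖z - z'‖ ^ (1 - α) * ‖z - z'‖ ^ α := by
    rw [← Real.rpow_add hn]; simp
  calc ‖g z - g z'‖ ≤ C * (‖z - z'‖ ^ (1 - α) * ‖z - z'‖ ^ α) := by rw [← h3]; exact h1
    _ ≤ C * ((2 * ρ) ^ (1 - α) * ‖z - z'‖ ^ α) := by
        refine mul_le_mul_of_nonneg_left ?_ hC0
        refine mul_le_mul_of_nonneg_right ?_ (Real.rpow_nonneg hn.le _)
        exact Real.rpow_le_rpow hn.le h2 (by linarith)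
    _ = _ := by ring

/-- a smooth weak solution is a `Sol` -/
lemma sol_of_smooth {V : Type} [NormedAddCommGroup V] [NormedSpace ℝ V]
    {G : V × (F →L[ℝ] V) → (F →L[ℝ] V)} {v : F → V} (hv : ContDiff ℝ ∞ v) {x₀ : F} {ρ α : ℝ}
    (hρ : 0 < ρ) (hα : 0 < α) (hα1 : α < 1)
    (hw : WeakDiv (fun z => fderiv ℝ v z - G (v z, fderiv ℝ v z)) (ball x₀ ρ)) :
    Sol α G v (fderiv ℝ v) (ball x₀ ρ) := by
  have h : ContDiff ℝ (∞ + 1) v := by simpa using hv
  have hg : ContDiff ℝ ∞ (fderiv ℝ v) := h.fderiv_right (m := ∞) le_rfl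
  refine ⟨isOpen_ball, fun z _ => (hv.differentiable (by simp) z).hasFDerivAt, fun x _ => ?_, hw⟩
  obtain ⟨K, hK⟩ := exists_hol hg x one_pos hα hα1
  exact ⟨1, one_pos, K, hK⟩

/-- **Quantitative interior regularity**, all orders, at the centre. -/
theorem quant {κF α β₁ : ℝ} (hκ : KB F κF) (hα : 0 < α) (hα1 : α < 1) (hβ0 : 0 ≤ β₁)
    (hβ : β₁ < bet F κF α) (k : ℕ) :
    ∀ {V : Type} [NormedAddCommGroup V] [NormedSpace ℝ V] [CompleteSpace V]
      {G : V × (F →L[ℝ] V) → (F →L[ℝ] V)} (_ : ContDiff ℝ ∞ G) (_ : Sml 0 G (0, 0))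
      (_ : QB (bet F κF α) G) {ρ : ℝ}, 0 < ρ → ρ ≤ 1 → ∃ κ₀ : ℝ, 0 < κ₀ ∧ ∃ C : ℝ, 0 ≤ C ∧
        ∀ (x₀ : F) (v : F → V), ContDiff ℝ ∞ v →
          WeakDiv (fun z => fderiv ℝ v z - G (v z, fderiv ℝ v z)) (ball x₀ ρ) →
          (∀ z ∈ ball x₀ ρ, Sml β₁ G (v z, fderiv ℝ v z)) → ∀ κ : ℝ, 0 ≤ κ → κ ≤ κ₀ →
          (∀ z ∈ ball x₀ ρ, ‖v z‖ ≤ κ) →
          (∀ z ∈ ball x₀ ρ, ∀ z' ∈ ball x₀ ρ, ‖v z - v z'‖ ≤ κ * ‖z - z'‖ ^ α) →
          ∀ j ≤ k, ‖iteratedFDeriv ℝ j v x₀‖ ≤ C * κ := by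
  induction k with
  | zero =>
    intro V _ _ _ G hG h0 hQ ρ hρ hρ1
    refine ⟨1, one_pos, 1, zero_le_one, ?_⟩
    intro x₀ v hv hw hs κ hκ0 hκ1 hb hh j hj
    obtain rfl : j = 0 := Nat.le_zero.1 hj
    rw [norm_iteratedFDeriv_zero, one_mul]
    exact hb x₀ (mem_ball_self hρ)
  | succ k ih =>
    intro V _ _ _ G hG h0 hQ ρ hρ hρ1
    have hbet := bet_pos hκ hα hα1
    obtain ⟨δ, hδ, L, hL, hQ⟩ := hQ
    obtain ⟨Cs, hCs0, hCs⟩ := schauder_pert (V := V) hκ hα hα1 (b := L) (ρ := ρ) hL hρ hρ1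
    have hp0 : Sml 0 (pro G) (0, 0) := pro_sml hG le_rfl (p := (0, 0)) h0 0
    obtain ⟨κ₁, hκ₁, C₁, hC₁, H⟩ := ih (pro_contDiff hG) hp0 (pro_QB hG h0 hbet)
      (ρ := ρ / 16) (by positivity) (by linarith)
    set Λ : ℝ := Cs * (1 + L) with hΛ
    have hΛ0 : 0 ≤ Λ := by positivity
    refine ⟨min (min δ 1) (κ₁ / (1 + Λ)), by positivity, C₁ * (1 + Λ) + 1, by positivity, ?_⟩
    intro x₀ v hv hw hs κ hκ0 hκ1 hb hh j hj
    have hκδ : κ ≤ δ := hκ1.trans ((min_le_left _ _).trans (min_le_left _ _))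
    have hκ1' : κ ≤ 1 := hκ1.trans ((min_le_left _ _).trans (min_le_right _ _))
    have hκκ : (1 + Λ) * κ ≤ κ₁ := by
      have h1 := hκ1.trans (min_le_right _ _)
      rw [le_div_iff₀ (by positivity)] at h1
      linarith
    have hv1 : ContDiff ℝ (∞ + 1) v := by simpa using hv
    have hg : ContDiff ℝ ∞ (fderiv ℝ v) := hv1.fderiv_right (m := ∞) le_rfl
    obtain ⟨K0, hK0⟩ := exists_hol hg x₀ hρ hα hα1
    have hfc : Continuous (fun z => G (v z, fderiv ℝ v z)) :=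
      hG.continuous.comp (hv.continuous.prodMk hg.continuous)
    obtain ⟨hS1, hS2⟩ := hCs v (fderiv ℝ v) (fun z => G (v z, fderiv ℝ v z)) x₀ κ (L * κ) K0 hκ0
      (by positivity) (fun z _ => (hv.differentiable (by simp) z).hasFDerivAt)
      hfc.continuousOn hw hK0 hb (by
        intro z hz z' hz'
        refine (hQ (v z) (v z') ((hb z hz).trans hκδ) ((hb z' hz').trans hκδ) _ _).trans ?_
        have h1 := hh z hz z' hz'
        have hn : 0 ≤ ‖fderiv ℝ v z'‖ := norm_nonneg _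
        have h0 : 0 ≤ ‖z - z'‖ ^ α := Real.rpow_nonneg (norm_nonneg _) _
        have h2 : L * (1 + ‖fderiv ℝ v z'‖) * ‖v z - v z'‖ ≤
            L * (1 + ‖fderiv ℝ v z'‖) * (κ * ‖z - z'‖ ^ α) :=
          mul_le_mul_of_nonneg_left h1 (by positivity)
        have h3 : L * (1 + ‖fderiv ℝ v z'‖) * (κ * ‖z - z'‖ ^ α) ≤
            (L * ‖fderiv ℝ v z'‖ + L * κ) * ‖z - z'‖ ^ α := by
          have h4 : L * (1 + ‖fderiv ℝ v z'‖) * κ ≤ L * ‖fderiv ℝ v z'‖ + L * κ := by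
            have h5 : L * ‖fderiv ℝ v z'‖ * κ ≤ L * ‖fderiv ℝ v z'‖ * 1 :=
              mul_le_mul_of_nonneg_left hκ1' (by positivity)
            nlinarith
          calc _ = L * (1 + ‖fderiv ℝ v z'‖) * κ * ‖z - z'‖ ^ α := by ring
            _ ≤ _ := mul_le_mul_of_nonneg_right h4 h0
        linarith)
    have hΛκ : Cs * (κ + L * κ) = Λ * κ := by rw [hΛ]; ring
    rw [hΛκ] at hS1 hS2
    -- the prolonged solution
    have hSol := sol_of_smooth (G := G) hv hρ hα hα1 hw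
    have hpr := sol_prolong hκ hα hα1 hβ hG hSol hs
    set w : F → V × (F →L[ℝ] V) := fun z => (v z, fderiv ℝ v z) with hwdef
    have hwc : ContDiff ℝ ∞ w := hv.prodMk hg
    have hfw : ∀ z, fderiv ℝ w z = (fderiv ℝ v z).prod (fderiv ℝ (fderiv ℝ v) z) := fun z =>
      ((hv.differentiable (by simp) z).hasFDerivAt.prodMk
        (hg.differentiable (by simp) z).hasFDerivAt).fderiv
    have hsub : ball x₀ (ρ / 16) ⊆ ball x₀ ρ := ball_subset_ball (by linarith)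
    have hsub2 : ball x₀ (ρ / 16) ⊆ ball x₀ (ρ / 2) := ball_subset_ball (by linarith)
    have hww : WeakDiv (fun z => fderiv ℝ w z - pro G (w z, fderiv ℝ w z)) (ball x₀ (ρ / 16)) := by
      intro ζ z1 z2 z3
      have h3 := hpr.weak ζ z1 z2 (z3.trans hsub)
      simp only [hfw]
      exact h3
    have hws : ∀ z ∈ ball x₀ (ρ / 16), Sml β₁ (pro G) (w z, fderiv ℝ w z) := fun z hz =>
      pro_sml hG hβ0 (hs z (hsub hz)) _
    have hΛκ0 : 0 ≤ Λ * κ := by positivity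
    have hwb : ∀ z ∈ ball x₀ (ρ / 16), ‖w z‖ ≤ (1 + Λ) * κ := by
      intro z hz
      rw [hwdef, Prod.norm_def]
      have a1 := hb z (hsub hz)
      have a2 := hS1 z (hsub2 hz)
      exact max_le (by linarith) (by linarith)
    have hwh : ∀ z ∈ ball x₀ (ρ / 16), ∀ z' ∈ ball x₀ (ρ / 16),
        ‖w z - w z'‖ ≤ (1 + Λ) * κ * ‖z - z'‖ ^ α := by
      intro z hz z' hz'
      have h0 : 0 ≤ ‖z - z'‖ ^ α := Real.rpow_nonneg (norm_nonneg _) _
      have hzz : ‖z' - z‖ ≤ ρ / 8 := by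
        rw [mem_ball, dist_eq_norm] at hz hz'
        calc ‖z' - z‖ = ‖(z' - x₀) - (z - x₀)‖ := by congr 1; abel
          _ ≤ ‖z' - x₀‖ + ‖z - x₀‖ := norm_sub_le _ _
          _ ≤ ρ / 8 := by linarith
      have a1 := hh z (hsub hz) z' (hsub hz')
      have a2 := hS2 z (hsub2 hz) z' hzz
      rw [norm_sub_rev z' z] at a2
      have e1 : w z - w z' = (v z - v z', fderiv ℝ v z - fderiv ℝ v z') := rfl
      rw [e1, Prod.norm_def]
      have b1 : 0 ≤ κ * ‖z - z'‖ ^ α := by positivity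
      have b2 : 0 ≤ Λ * κ * ‖z - z'‖ ^ α := by positivity
      have b3 : (1 + Λ) * κ * ‖z - z'‖ ^ α = κ * ‖z - z'‖ ^ α + Λ * κ * ‖z - z'‖ ^ α := by ring
      rw [b3]
      exact max_le (by linarith) (by linarith)
    have hfin := H x₀ w hwc hww hws ((1 + Λ) * κ) (by positivity) hκκ hwb hwh
    rcases Nat.eq_zero_or_pos j with rfl | hjpos
    · rw [norm_iteratedFDeriv_zero]
      have h1 := hb x₀ (mem_ball_self hρ)
      have h2 : 0 ≤ C₁ * (1 + Λ) * κ := by positivity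
      have h3 : (C₁ * (1 + Λ) + 1) * κ = C₁ * (1 + Λ) * κ + κ := by ring
      linarith
    · obtain ⟨i, rfl⟩ : ∃ i, j = i + 1 := ⟨j - 1, by omega⟩
      have h1 := hfin i (by omega)
      rw [← norm_iteratedFDeriv_fderiv]
      have h2 : fderiv ℝ v = (ContinuousLinearMap.snd ℝ V (F →L[ℝ] V)) ∘ w := rfl
      have h3 : ‖iteratedFDeriv ℝ i (fderiv ℝ v) x₀‖ ≤ ‖iteratedFDeriv ℝ i w x₀‖ := by
        rw [h2]
        refine ((ContinuousLinearMap.snd ℝ V (F →L[ℝ] V)).norm_iteratedFDeriv_comp_left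
          (hwc.contDiffAt) (by exact_mod_cast le_top)).trans ?_
        have h4 := ContinuousLinearMap.norm_snd_le (𝕜 := ℝ) V (F →L[ℝ] V)
        nlinarith [norm_nonneg (iteratedFDeriv ℝ i w x₀)]
      have h5 : (C₁ * (1 + Λ) + 1) * κ = C₁ * ((1 + Λ) * κ) + κ := by ring
      linarith

end

end Crest.Agent.R234.IntReg_971
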