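import Crest.Agent.R234.IntRegA_971
import Crest.Agent.R234.Ell1_3

/-!
R234, VF-INTREG (helper971), part B: the gradient of a solution of the minimal surface system in
non-divergence form solves `Δ v = div G(v, ∇v)`; weak form and smallness.
-/

set_option autoImplicit false
set_option maxSynthPendingDepth 3

open MeasureTheory Metric Set Filter Topology
open scoped ContDiff

namespace Crest.Agent.R234.IntReg_971

noncomputable section

set_option linter.unusedSectionVars false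
set_option linter.unusedVariables false

open Crest.Agent.R246.H2x622 Crest.Agent.R234.Ell1_3

section swap

variable {F : Type} [NormedAddCommGroup F] [InnerProductSpace ℝ F] [FiniteDimensional ℝ F]
  [MeasurableSpace F] [BorelSpace F] {W : Type} [NormedAddCommGroup W] [NormedSpace ℝ W]

lemma fderiv_dir {ζ : F → ℝ} (hζ : ContDiff ℝ ∞ ζ) (a z b : F) :
    fderiv ℝ (fun y => fderiv ℝ ζ y a) z b = fderiv ℝ (fderiv ℝ ζ) z b a := by
  have h : ContDiff ℝ (∞ + 1) ζ := by simpa using hζ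
  have h2 : ContDiff ℝ ∞ (fderiv ℝ ζ) := h.fderiv_right (m := ∞) le_rfl
  have h3 : HasFDerivAt (fderiv ℝ ζ) (fderiv ℝ (fderiv ℝ ζ) z) z :=
    (h2.differentiable (by simp) z).hasFDerivAt
  have h4 := (h3.clm_apply (hasFDerivAt_const a z)).fderiv
  rw [h4]
  simp

lemma sym_dir {ζ : F → ℝ} (hζ : ContDiff ℝ ∞ ζ) (a z b : F) :
    fderiv ℝ (fderiv ℝ ζ) z b a = fderiv ℝ (fderiv ℝ ζ) z a b := by
  have h : ContDiff ℝ (∞ + 1) ζ := by simpa using hζ
  have h2 : ContDiff ℝ ∞ (fderiv ℝ ζ) := h.fderiv_right (m := ∞) le_rfl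
  exact second_derivative_symmetric (fun y => (hζ.differentiable (by simp) y).hasFDerivAt)
    (h2.differentiable (by simp) z).hasFDerivAt b a

lemma int_swap_aux {ζ : F → ℝ} (hζ : ContDiff ℝ ∞ ζ) (hcs : HasCompactSupport ζ) {ψ : F → W}
    (hψ : ContDiff ℝ ∞ ψ) (a b : F) :
    ∫ z, fderiv ℝ ζ z a • fderiv ℝ ψ z b = - ∫ z, fderiv ℝ (fderiv ℝ ζ) z b a • ψ z := by
  have h : ContDiff ℝ (∞ + 1) ζ := by simpa using hζ
  have h2 : ContDiff ℝ ∞ (fderiv ℝ ζ) := h.fderiv_right (m := ∞) le_rfl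
  have hψ' : ContDiff ℝ (∞ + 1) ψ := by simpa using hψ
  have hψ2 : ContDiff ℝ ∞ (fderiv ℝ ψ) := hψ'.fderiv_right (m := ∞) le_rfl
  have ha : ContDiff ℝ ∞ (fun y => fderiv ℝ ζ y a) := h2.clm_apply contDiff_const
  have hb : ContDiff ℝ ∞ (fun y => fderiv ℝ ψ y b) := hψ2.clm_apply contDiff_const
  have hcsa : HasCompactSupport (fun y => fderiv ℝ ζ y a) := by
    refine hcs.of_isClosed_subset (isClosed_tsupport _) ?_
    refine closure_minimal ?_ (isClosed_tsupport ζ)
    intro z hz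
    by_contra hz2
    apply hz
    simp only
    rw [fderiv_of_notMem_tsupport ℝ hz2]
    rfl
  have h' : ContDiff ℝ (∞ + 1) (fun y => fderiv ℝ ζ y a) := by simpa using ha
  have h2' : ContDiff ℝ ∞ (fderiv ℝ (fun y => fderiv ℝ ζ y a)) := h'.fderiv_right (m := ∞) le_rfl
  have hcsb : HasCompactSupport (fun y => fderiv ℝ (fun y => fderiv ℝ ζ y a) y b) :=
    (hcsa.fderiv (𝕜 := ℝ)).comp_left (g := fun L : F →L[ℝ] ℝ => L b) rfl
  have i1 : Integrable (fun z => fderiv ℝ (fun y => fderiv ℝ ζ y a) z b • ψ z) :=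
    ((h2'.clm_apply contDiff_const).continuous.smul hψ.continuous).integrable_of_hasCompactSupport
      hcsb.smul_right
  have i2 : Integrable (fun z => fderiv ℝ ζ z a • fderiv ℝ ψ z b) :=
    (ha.continuous.smul hb.continuous).integrable_of_hasCompactSupport hcsa.smul_right
  have i3 : Integrable (fun z => fderiv ℝ ζ z a • ψ z) :=
    (ha.continuous.smul hψ.continuous).integrable_of_hasCompactSupport hcsa.smul_right
  have h5 := integral_smul_fderiv_eq_neg_fderiv_smul_of_integrable (μ := (volume : Measure F))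
    (f := fun y => fderiv ℝ ζ y a) (g := ψ) (v := b) i1 i2 i3
    (fun x _ => ha.differentiable (by simp) x) (fun x _ => hψ.differentiable (by simp) x)
  rw [h5]
  congr 1
  refine integral_congr_ae (Filter.Eventually.of_forall fun z => ?_)
  simp only [fderiv_dir hζ]

lemma int_swap {ζ : F → ℝ} (hζ : ContDiff ℝ ∞ ζ) (hcs : HasCompactSupport ζ) {ψ : F → W}
    (hψ : ContDiff ℝ ∞ ψ) (a b : F) :
    ∫ z, fderiv ℝ ζ z a • fderiv ℝ ψ z b = ∫ z, fderiv ℝ ζ z b • fderiv ℝ ψ z a := by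
  rw [int_swap_aux hζ hcs hψ, int_swap_aux hζ hcs hψ]
  congr 1
  refine integral_congr_ae (Filter.Eventually.of_forall fun z => ?_)
  simp only [sym_dir hζ a z b]

end swap

section maps

variable {ι : Type} [Fintype ι] {F V : Type} [NormedAddCommGroup F] [InnerProductSpace ℝ F]
  [FiniteDimensional ℝ F] [NormedAddCommGroup V] [InnerProductSpace ℝ V] [FiniteDimensional ℝ V]

/-- trace of a second derivative -/
def trC {W : Type} [NormedAddCommGroup W] [NormedSpace ℝ W] (e : OrthonormalBasis ι ℝ F) :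
    (F →L[ℝ] F →L[ℝ] W) →L[ℝ] W :=
  ∑ i, (ContinuousLinearMap.apply ℝ W (e i)) ∘L (ContinuousLinearMap.apply ℝ (F →L[ℝ] W) (e i))

lemma trC_apply {W : Type} [NormedAddCommGroup W] [NormedSpace ℝ W] (e : OrthonormalBasis ι ℝ F)
    (S : F →L[ℝ] F →L[ℝ] W) : trC e S = ∑ i, S (e i) (e i) := by
  simp [trC, _root_.sum_apply]

/-- `y ↦ (a, b) ↦ ⟨a, b⟩ y` -/
def Jm (F W : Type) [NormedAddCommGroup F] [InnerProductSpace ℝ F] [NormedAddCommGroup W]
    [NormedSpace ℝ W] : W →L[ℝ] (F →L[ℝ] F →L[ℝ] W) :=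
  ((ContinuousLinearMap.compL ℝ F (F →L[ℝ] ℝ) (F →L[ℝ] W)).flip (innerSL ℝ)) ∘L
    (ContinuousLinearMap.smulRightL ℝ F W).flip

lemma Jm_apply {W : Type} [NormedAddCommGroup W] [NormedSpace ℝ W] (y : W) (a b : F) :
    Jm F W y a b = inner ℝ a b • y := rfl

/-- the (small) coefficient map -/
def Bq (e : OrthonormalBasis ι ℝ F) (p : F →L[ℝ] V) : (F →L[ℝ] F →L[ℝ] V) →L[ℝ] V :=
  (trC e) ∘L ((ContinuousLinearMap.compL ℝ F F (F →L[ℝ] V)).flip
      (ContinuousLinearMap.id ℝ F - ginv p))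

lemma Bq_apply (e : OrthonormalBasis ι ℝ F) (p : F →L[ℝ] V) (S : F →L[ℝ] F →L[ℝ] V) :
    Bq e p S = trC e S - ∑ i, S (ginv p (e i)) (e i) := by
  have h : Bq e p S = trC e (S ∘L (ContinuousLinearMap.id ℝ _ - ginv p)) := rfl
  rw [h, trC_apply, trC_apply, ← Finset.sum_sub_distrib]
  refine Finset.sum_congr rfl fun i _ => ?_
  simp

lemma Bq_zero (e : OrthonormalBasis ι ℝ F) : Bq (V := V) e 0 = 0 := by
  unfold Bq
  rw [ginv_zero, sub_self, map_zero, ContinuousLinearMap.comp_zero]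

lemma Bq_contDiff (e : OrthonormalBasis ι ℝ F) : ContDiff ℝ ∞ (Bq (V := V) e) := by
  unfold Bq
  refine contDiff_const.clm_comp ?_
  exact (ContinuousLinearMap.contDiff _).comp (contDiff_const.sub ginv_contDiff)

/-- the nonlinearity for the gradient -/
def G0 (e : OrthonormalBasis ι ℝ F) (q : (F →L[ℝ] V) × (F →L[ℝ] (F →L[ℝ] V))) :
    F →L[ℝ] (F →L[ℝ] V) :=
  Jm F V (Bq e q.1 q.2)

lemma G0_contDiff (e : OrthonormalBasis ι ℝ F) : ContDiff ℝ ∞ (G0 (V := V) e) := by
  unfold G0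
  refine (ContinuousLinearMap.contDiff _).comp ?_
  exact ((Bq_contDiff (V := V) e).comp contDiff_fst).clm_apply contDiff_snd

lemma fderiv_G0 (e : OrthonormalBasis ι ℝ F) (p : F →L[ℝ] V) (S P : F →L[ℝ] (F →L[ℝ] V)) :
    fderiv ℝ (G0 (V := V) e) (p, S) (0, P) = Jm F V (Bq e p P) := by
  refine fderiv_of_affine ((G0_contDiff e).differentiable (by simp)) fun t => ?_
  have h1 : (p, S) + t • ((0 : F →L[ℝ] V), P) = (p, S + t • P) := by
    rw [Prod.smul_mk, Prod.mk_add_mk, smul_zero, add_zero]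
  rw [h1]
  simp only [G0, map_add, map_smul]

lemma sml0_G0 (e : OrthonormalBasis ι ℝ F) : Sml 0 (G0 (V := V) e) (0, 0) := by
  intro P
  rw [fderiv_G0, Bq_zero]
  simp

/-- smallness of `G0` near `0` -/
theorem G0_small (e : OrthonormalBasis ι ℝ F) {β : ℝ} (hβ : 0 < β) : QB β (G0 (V := V) e) ∧
    ∃ δ : ℝ, 0 < δ ∧ ∀ p : F →L[ℝ] V, ‖p‖ ≤ δ → ∀ S, Sml β (G0 (V := V) e) (p, S) := by
  set c : ℝ := ‖Jm F V‖ + 1 with hc
  have hc0 : 0 < c := by positivity
  obtain ⟨δ, hδ, hδ1, K, hK0, hKδ, hK⟩ := exists_lip (Bq_contDiff (V := V) e)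
    (div_pos hβ hc0)
  have hB : ∀ p : F →L[ℝ] V, ‖p‖ ≤ δ → c * ‖Bq e p‖ ≤ β := by
    intro p hp
    have h1 := hK p 0 hp (by rw [norm_zero]; exact hδ.le)
    rw [Bq_zero, sub_zero, sub_zero] at h1
    have h2 : ‖Bq e p‖ ≤ β / c := h1.trans ((mul_le_mul_of_nonneg_left hp hK0).trans hKδ)
    rw [le_div_iff₀ hc0] at h2
    linarith
  have hJ : ∀ y : V, ‖Jm F V y‖ ≤ c * ‖y‖ := by
    intro y
    refine (ContinuousLinearMap.le_opNorm _ _).trans ?_
    exact mul_le_mul_of_nonneg_right (by rw [hc]; linarith) (norm_nonneg _)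
  refine ⟨⟨δ, hδ, c * K, by positivity, ?_⟩, δ, hδ, ?_⟩
  · intro p p' hp hp' P P'
    have e1 : G0 e (p, P) - G0 e (p', P') =
        Jm F V (Bq e p (P - P') + (Bq e p - Bq e p') P') := by
      simp only [G0, map_add, map_sub, _root_.sub_apply]
      abel
    rw [e1]
    refine (hJ _).trans ?_
    have h1 : ‖Bq e p (P - P') + (Bq e p - Bq e p') P'‖ ≤
        ‖Bq e p‖ * ‖P - P'‖ + K * ‖p - p'‖ * ‖P'‖ := by
      refine (norm_add_le _ _).trans (add_le_add (ContinuousLinearMap.le_opNorm _ _) ?_)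
      refine (ContinuousLinearMap.le_opNorm _ _).trans ?_
      exact mul_le_mul_of_nonneg_right (hK p p' hp hp') (norm_nonneg _)
    have h2 := mul_le_mul_of_nonneg_left h1 hc0.le
    have h3 := mul_le_mul_of_nonneg_right (hB p hp) (norm_nonneg (P - P'))
    have h4 : 0 ≤ c * K * ‖p - p'‖ := by positivity
    calc _ ≤ c * (‖Bq e p‖ * ‖P - P'‖ + K * ‖p - p'‖ * ‖P'‖) := h2
      _ = c * ‖Bq e p‖ * ‖P - P'‖ + c * K * ‖P'‖ * ‖p - p'‖ := by ring
      _ ≤ β * ‖P - P'‖ + c * K * (1 + ‖P'‖) * ‖p - p'‖ := by nlinarith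
  · intro p hp S P
    rw [fderiv_G0]
    refine (hJ _).trans ?_
    have h1 := mul_le_mul_of_nonneg_left (ContinuousLinearMap.le_opNorm (Bq e p) P) hc0.le
    have h3 := mul_le_mul_of_nonneg_right (hB p hp) (norm_nonneg P)
    linarith

variable [MeasurableSpace F] [BorelSpace F]

/-- `Δ (Du) = div (Δu · id)` in the weak form -/
theorem weak_grad (e : OrthonormalBasis ι ℝ F) {u : F → V} (hu : ContDiff ℝ ∞ u) {ζ : F → ℝ}
    (hζ : ContDiff ℝ ∞ ζ) (hcs : HasCompactSupport ζ) :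
    ∫ z, (fderiv ℝ (fderiv ℝ u) z - Jm F V (trC e (fderiv ℝ (fderiv ℝ u) z)))
      (gradient ζ z) = 0 := by
  have h : ContDiff ℝ (∞ + 1) u := by simpa using hu
  have h1 : ContDiff ℝ ∞ (fderiv ℝ u) := h.fderiv_right (m := ∞) le_rfl
  have h1' : ContDiff ℝ (∞ + 1) (fderiv ℝ u) := by simpa using h1
  have h2 : ContDiff ℝ ∞ (fderiv ℝ (fderiv ℝ u)) := h1'.fderiv_right (m := ∞) le_rfl
  have hHc : Continuous (fun z => fderiv ℝ (fderiv ℝ u) z -
      Jm F V (trC e (fderiv ℝ (fderiv ℝ u) z))) := by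
    refine h2.continuous.sub ?_
    exact (Jm F V).continuous.comp ((trC e).continuous.comp h2.continuous)
  have hint := integrable_grad (U := univ) hHc.continuousOn hζ hcs (subset_univ _)
  refine ContinuousLinearMap.ext fun b => ?_
  rw [ContinuousLinearMap.integral_apply hint, _root_.zero_apply]
  have hin : ∀ y a : F, inner ℝ (gradient ζ y) a = fderiv ℝ ζ y a := by
    intro y a
    rw [gradient, InnerProductSpace.toDual_symm_apply]
  have hsym : ∀ z a b : F, fderiv ℝ (fderiv ℝ u) z a b = fderiv ℝ (fderiv ℝ u) z b a := by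
    intro z a b
    exact second_derivative_symmetric (fun y => (hu.differentiable (by simp) y).hasFDerivAt)
      (h1.differentiable (by simp) z).hasFDerivAt a b
  have hexp : ∀ z : F, gradient ζ z = ∑ i, fderiv ℝ ζ z (e i) • e i := by
    intro z
    conv_lhs => rw [← e.sum_repr' (gradient ζ z)]
    refine Finset.sum_congr rfl fun i _ => ?_
    rw [real_inner_comm, hin]
  have hψd : ∀ (a : F) (z c : F), fderiv ℝ (fun y => fderiv ℝ u y a) z c =
      fderiv ℝ (fderiv ℝ u) z c a := by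
    intro a z c
    have h3 : HasFDerivAt (fderiv ℝ u) (fderiv ℝ (fderiv ℝ u) z) z :=
      (h1.differentiable (by simp) z).hasFDerivAt
    rw [(h3.clm_apply (hasFDerivAt_const a z)).fderiv]
    simp
  have hψc : ∀ a : F, ContDiff ℝ ∞ (fun y => fderiv ℝ u y a) := fun a =>
    h1.clm_apply contDiff_const
  have hptw : ∀ z, ((fderiv ℝ (fderiv ℝ u) z - Jm F V (trC e (fderiv ℝ (fderiv ℝ u) z)))
      (gradient ζ z)) b = ∑ i, (fderiv ℝ ζ z (e i) • fderiv ℝ (fun y => fderiv ℝ u y (e i)) z b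
        - fderiv ℝ ζ z b • fderiv ℝ (fun y => fderiv ℝ u y (e i)) z (e i)) := by
    intro z
    rw [_root_.sub_apply, _root_.sub_apply, Jm_apply, hin, trC_apply, Finset.smul_sum,
      Finset.sum_sub_distrib]
    congr 1
    · conv_lhs => rw [hexp z]
      rw [map_sum, _root_.sum_apply]
      refine Finset.sum_congr rfl fun i _ => ?_
      rw [map_smul, _root_.smul_apply, hψd, hsym]
    · refine Finset.sum_congr rfl fun i _ => ?_
      rw [hψd]
  simp only [hptw]
  have hcsd : ∀ a : F, HasCompactSupport (fun y => fderiv ℝ ζ y a) := fun a =>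
    (hcs.fderiv (𝕜 := ℝ)).comp_left (g := fun L : F →L[ℝ] ℝ => L a) rfl
  have hζ1 : ContDiff ℝ (∞ + 1) ζ := by simpa using hζ
  have hζ2 : ContDiff ℝ ∞ (fderiv ℝ ζ) := hζ1.fderiv_right (m := ∞) le_rfl
  have hiψ : ∀ a c d : F, Integrable (fun z => fderiv ℝ ζ z c •
      fderiv ℝ (fun y => fderiv ℝ u y a) z d) := by
    intro a c d
    have h3 : ContDiff ℝ (∞ + 1) (fun y => fderiv ℝ u y a) := by simpa using hψc a
    have h4 : ContDiff ℝ ∞ (fderiv ℝ (fun y => fderiv ℝ u y a)) := h3.fderiv_right (m := ∞) le_rfl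
    have c1 : Continuous fun z => fderiv ℝ ζ z c := (hζ2.clm_apply contDiff_const).continuous
    have c2 : Continuous fun z => fderiv ℝ (fun y => fderiv ℝ u y a) z d :=
      (h4.clm_apply contDiff_const).continuous
    exact (c1.smul c2).integrable_of_hasCompactSupport (hcsd c).smul_right
  rw [integral_finsetSum (μ := (volume : Measure F)) (Finset.univ : Finset ι)
    (f := fun i z => fderiv ℝ ζ z (e i) • fderiv ℝ (fun y => fderiv ℝ u y (e i)) z b
        - fderiv ℝ ζ z b • fderiv ℝ (fun y => fderiv ℝ u y (e i)) z (e i))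
    (fun i _ => (hiψ (e i) (e i) b).sub (hiψ (e i) b (e i)))]
  refine Finset.sum_eq_zero fun i _ => ?_
  rw [integral_sub (hiψ (e i) (e i) b) (hiψ (e i) b (e i)),
    int_swap hζ hcs (hψc (e i)) (e i) b, sub_self]

end maps

end

end Crest.Agent.R234.IntReg_971
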