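import Crest.Agent.R234.Mx11_397

/-!
# Row 234, node F2-JREG part 1 (helper186)

* `gainA`: abstract gain of one derivative: `Σ D D v = incl f - Σ (incl K)_ij Qd v i j`, `f`, `K` one
  level up, `K` small ⟹ `v = incl z`, `‖z‖ ≤ C (‖f‖ + ‖v‖)`.
* `exists_cutB`: cut-off functions between two radii, norm in every `X F M` bounded by `C δ^{-p}`.
-/

set_option autoImplicit false
set_option linter.unusedSectionVars false

open MeasureTheory Complex Filter Real
open scoped ContDiff Topology InnerProductSpace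

noncomputable section

namespace Crest.Agent.R234.Jr_186

open Crest.Agent.R086.Wie Crest.Agent.R234.Mx1_397 Crest.Agent.R234.Mx2_397
  Crest.Agent.R234.Mx3_397 Crest.Agent.R234.Mx4_397 Crest.Agent.R234.Mx5_397
  Crest.Agent.R234.Mx6_397 Crest.Agent.R234.Mx8_397 Crest.Agent.R234.Mx9_397
  Crest.Agent.R234.Mx10_397 Crest.Agent.R234.Mx11_397 Crest.Agent.R234.Ell1_3

section lin

variable {F : Type*} [NormedAddCommGroup F] [InnerProductSpace ℝ F] [FiniteDimensional ℝ F]
  [MeasurableSpace F] [BorelSpace F]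
variable {ι κ : Type*} [Fintype ι] [Fintype κ]

/-- **abstract gain of one derivative** -/
theorem gainA {c : F} (hc : ‖c‖ = 11 / 2) {N : ℕ} (e : OrthonormalBasis ι ℝ F)
    (K : ι → ι → X F (N + 1)) (hK : 72 * ((Fintype.card ι) ^ 2 * (2 * π) ^ 2 * ‖K‖) ≤ 1 / 2)
    (f : κ → X F (N + 1)) (v : κ → X F (N + 2))
    (hv : ∀ α, ∑ i, D (e i) (D (e i) (v α)) = inclV (Nat.le_succ N) (f α)
      - ∑ i, ∑ j, inclV (Nat.le_succ N) (K i j) * Qd e v i j α) :
    ∃ z : κ → X F (N + 1 + 2), (∀ α, inclV (Nat.le_succ (N + 2)) (z α) = v α) ∧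
      ‖z‖ ≤ 2 * (72 * ‖f‖ + cPs c (N + 1 + 2) * ‖v‖) := by
  have hPs := cPs_nonneg c (N + 1 + 2)
  have hKn : ‖fun i j => inclV (Nat.le_succ N) (K i j)‖ ≤ ‖K‖ := by
    refine (pi_norm_le_iff_of_nonneg (norm_nonneg _)).2 fun i =>
      (pi_norm_le_iff_of_nonneg (norm_nonneg _)).2 fun j => ?_
    exact (norm_inclV_le _ _).trans (norm_ent K i j)
  have hK0 : 72 * ((Fintype.card ι : ℝ) ^ 2 * (2 * π) ^ 2
      * ‖fun i j => inclV (Nat.le_succ N) (K i j)‖) ≤ 1 / 2 := by
    refine le_trans ?_ hK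
    have hp := Real.pi_pos
    gcongr
  obtain ⟨z, hz, hzn⟩ := exists_lin hc e K hK f
    (fun α => (Ps c (v α) : X F (N + 1 + 2)))
  have h1 : Iv (Nat.le_succ (N + 2)) z = Gv hc (Iv (Nat.le_succ N) f
      - Lk e (fun i j => inclV (Nat.le_succ N) (K i j)) (Iv (Nat.le_succ (N + 2)) z))
      + fun α => (Ps c (v α) : X F (N + 2)) := by
    rw [← Iv_Lk e K z]
    funext α
    have h4 : z α = G hc (f α - Lk e K z α) + Ps c (v α) := congrFun hz α
    show inclV (Nat.le_succ (N + 2)) (z α) = G hc (inclV (Nat.le_succ N) (f α)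
      - inclV (Nat.le_succ N) (Lk e K z α)) + Ps c (v α)
    conv_lhs => rw [h4]
    rw [map_add, ← map_sub (inclV (Nat.le_succ N)), ← inclV_G hc (Nat.le_succ N),
      inclV_Ps c (Nat.le_succ (N + 2))]
  have h5 : v = Gv hc (Iv (Nat.le_succ N) f
      - Lk e (fun i j => inclV (Nat.le_succ N) (K i j)) v) + fun α => (Ps c (v α) : X F (N + 2)) := by
    funext α
    have h6 := G_lap hc e (v α)
    rw [hv α] at h6
    exact h6
  have h7 := lin_unique hc e _ hK0 _ _ h1 h5
  refine ⟨z, fun α => congrFun h7 α, hzn.trans ?_⟩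
  have h10 : ‖fun α => (Ps c (v α) : X F (N + 1 + 2))‖ ≤ cPs c (N + 1 + 2) * ‖v‖ := by
    refine (pi_norm_le_iff_of_nonneg (by positivity)).2 fun α => ?_
    exact (norm_Ps_le c _).trans (mul_le_mul_of_nonneg_left (norm_le_pi_norm v α) hPs)
  gcongr

end lin

/-! ### cut-offs -/

theorem smoothTransition_bound (K : ℕ) : ∃ C : ℝ, 1 ≤ C ∧ ∀ j ≤ K, ∀ x : ℝ,
    ‖iteratedFDeriv ℝ j Real.smoothTransition x‖ ≤ C := by
  have h0 : ContDiff ℝ ∞ Real.smoothTransition := Real.smoothTransition.contDiff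
  have h1 : ∀ j : ℕ, ∃ C : ℝ, ∀ x : ℝ, ‖iteratedFDeriv ℝ j Real.smoothTransition x‖ ≤ C := by
    intro j
    have h2 : Continuous (iteratedFDeriv ℝ j Real.smoothTransition) :=
      h0.continuous_iteratedFDeriv (by exact_mod_cast le_top)
    obtain ⟨C, hC⟩ := (isCompact_Icc (a := (-1 : ℝ)) (b := 2)).exists_bound_of_continuousOn
      h2.continuousOn
    refine ⟨max C 1, fun x => ?_⟩
    by_cases hx : x ∈ Set.Icc (-1 : ℝ) 2
    · exact (hC x hx).trans (le_max_left _ _)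
    · rw [Set.mem_Icc, not_and_or, not_le, not_le] at hx
      rcases hx with hx | hx
      · have h4 : Real.smoothTransition =ᶠ[𝓝 x] fun _ => (0 : ℝ) := by
          filter_upwards [(isOpen_gt' (-1 : ℝ)).mem_nhds hx] with y hy
          exact Real.smoothTransition.zero_of_nonpos (le_of_lt (lt_trans (show y < -1 from hy) (by norm_num)))
        have h5 : ‖iteratedFDeriv ℝ j Real.smoothTransition x‖ = ‖iteratedFDeriv ℝ j (fun _ : ℝ => (0 : ℝ)) x‖ := by
          rw [(Filter.EventuallyEq.iteratedFDeriv ℝ h4 j).eq_of_nhds]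
        rw [h5]
        simp
      · have h4 : Real.smoothTransition =ᶠ[𝓝 x] fun _ => (1 : ℝ) := by
          filter_upwards [(isOpen_lt' (2 : ℝ)).mem_nhds hx] with y hy
          exact Real.smoothTransition.one_of_one_le (le_of_lt (lt_trans (by norm_num) (show 2 < y from hy)))
        have h5 : ‖iteratedFDeriv ℝ j Real.smoothTransition x‖ = ‖iteratedFDeriv ℝ j (fun _ : ℝ => (1 : ℝ)) x‖ := by
          rw [(Filter.EventuallyEq.iteratedFDeriv ℝ h4 j).eq_of_nhds]
        rw [h5]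
        rcases Nat.eq_zero_or_pos j with rfl | hj
        · rw [norm_iteratedFDeriv_zero, norm_one]
          exact le_max_right _ _
        · rw [iteratedFDeriv_const_of_ne (by omega)]
          simp
  choose C hC using h1
  refine ⟨1 + ∑ j ∈ Finset.range (K + 1), C j, ?_, fun j hj x => (hC j x).trans ?_⟩
  · have : 0 ≤ ∑ j ∈ Finset.range (K + 1), C j :=
      Finset.sum_nonneg fun j _ => (norm_nonneg _).trans (hC j 0)
    linarith
  · have := Finset.single_le_sum (f := C) (fun i _ => (norm_nonneg _).trans (hC i 0))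
      (Finset.mem_range.2 (by omega : j < K + 1))
    linarith

section cut

variable {F : Type*} [NormedAddCommGroup F] [InnerProductSpace ℝ F] [FiniteDimensional ℝ F]
  [MeasurableSpace F] [BorelSpace F]

theorem norm_iteratedFDeriv_id_le {x : F} (hx : ‖x‖ ≤ 2) (n : ℕ) :
    ‖iteratedFDeriv ℝ n (fun x : F => x) x‖ ≤ 2 := by
  match n with
  | 0 => rwa [norm_iteratedFDeriv_zero]
  | 1 =>
    rw [norm_iteratedFDeriv_one]
    have h : fderiv ℝ (fun x : F => x) x = ContinuousLinearMap.id ℝ F := fderiv_fun_id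
    rw [h]
    exact (ContinuousLinearMap.norm_id_le).trans (by norm_num)
  | (n + 2) =>
    rw [← norm_iteratedFDeriv_fderiv]
    have h : fderiv ℝ (fun x : F => x) = fun _ => ContinuousLinearMap.id ℝ F := funext fun y => fderiv_fun_id
    rw [h, iteratedFDeriv_const_of_ne (by omega)]
    simp

theorem norm_iteratedFDeriv_normSq_le {x : F} (hx : ‖x‖ ≤ 2) (n : ℕ) :
    ‖iteratedFDeriv ℝ n (fun x : F => ‖x‖ ^ 2) x‖ ≤ 4 * 2 ^ n := by
  have h0 : (fun x : F => ‖x‖ ^ 2) = fun x => innerSL ℝ x x := by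
    funext y
    rw [innerSL_apply_apply, real_inner_self_eq_norm_sq]
  rw [h0]
  have h1 := (innerSL ℝ (E := F)).norm_iteratedFDeriv_le_of_bilinear (N := ∞)
    (f := fun x : F => x) (g := fun x : F => x) contDiff_id contDiff_id x (n := n)
    (by exact_mod_cast le_top)
  refine h1.trans ?_
  have h2 : ‖innerSL ℝ (E := F)‖ ≤ 1 := norm_innerSL_le ℝ
  have h3 : ∑ i ∈ Finset.range (n + 1), (n.choose i : ℝ) * ‖iteratedFDeriv ℝ i (fun x : F => x) x‖
      * ‖iteratedFDeriv ℝ (n - i) (fun x : F => x) x‖ ≤ 4 * 2 ^ n := by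
    calc _ ≤ ∑ i ∈ Finset.range (n + 1), (n.choose i : ℝ) * 2 * 2 := by
          refine Finset.sum_le_sum fun i _ => ?_
          have a1 := norm_iteratedFDeriv_id_le hx i
          have a2 := norm_iteratedFDeriv_id_le hx (n - i)
          gcongr
      _ = 4 * ∑ i ∈ Finset.range (n + 1), (n.choose i : ℝ) := by
          rw [Finset.mul_sum]
          exact Finset.sum_congr rfl fun i _ => by ring
      _ = _ := by
          have h5 : (∑ i ∈ Finset.range (n + 1), (n.choose i : ℝ)) = 2 ^ n := by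
            exact_mod_cast Nat.sum_range_choose n
          rw [h5]
  calc _ ≤ 1 * (4 * 2 ^ n) := mul_le_mul h2 h3 (by positivity) (by norm_num)
    _ = _ := one_mul _

/-- the profile -/
def qf (a d : ℝ) (x : F) : ℝ := d * (a - ‖x‖ ^ 2)

theorem contDiff_qf (a d : ℝ) : ContDiff ℝ ∞ (qf a d : F → ℝ) := by
  unfold qf
  exact contDiff_const.mul (contDiff_const.sub (contDiff_norm_sq ℝ))

theorem norm_iteratedFDeriv_qf_le {a d : ℝ} (hd : 1 / 4 ≤ d) {x : F} (hx : ‖x‖ ≤ 2) {n : ℕ}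
    (hn : 1 ≤ n) : ‖iteratedFDeriv ℝ n (qf a d : F → ℝ) x‖ ≤ (32 * d) ^ n := by
  have h1 : (qf a d : F → ℝ) = fun x => (d * a) + (-d) • ‖x‖ ^ 2 := by
    funext y
    unfold qf
    rw [smul_eq_mul]
    ring
  have hc1 : ContDiffAt ℝ n (fun _ : F => d * a) x := contDiffAt_const
  have hc2 : ContDiffAt ℝ n (fun x : F => (-d) • ‖x‖ ^ 2) x :=
    ((contDiff_norm_sq ℝ).const_smul (-d)).contDiffAt
  have h2 : iteratedFDeriv ℝ n (qf a d : F → ℝ) x = (-d) • iteratedFDeriv ℝ n (fun x : F => ‖x‖ ^ 2) x := by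
    rw [h1]
    have h3 := iteratedFDeriv_add_apply (𝕜 := ℝ) (i := n) hc1 hc2
    have h4 : (fun x : F => d * a + (-d) • ‖x‖ ^ 2) = (fun _ : F => d * a) + fun x : F => (-d) • ‖x‖ ^ 2 := rfl
    rw [h4, h3, iteratedFDeriv_const_of_ne (by omega), Pi.zero_apply, zero_add]
    have h5 : ContDiffAt ℝ n (fun x : F => ‖x‖ ^ 2) x := (contDiff_norm_sq ℝ (E := F)).contDiffAt
    exact iteratedFDeriv_const_smul_apply' (a := -d) h5
  rw [h2, norm_smul, norm_neg, Real.norm_of_nonneg (by linarith)]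
  have h5 := norm_iteratedFDeriv_normSq_le hx n
  have h6 : 4 * d ≤ (16 * d) ^ n := by
    have h7 : (16 * d) ^ 1 ≤ (16 * d) ^ n := pow_le_pow_right₀ (by linarith) hn
    rw [pow_one] at h7
    linarith
  calc d * ‖iteratedFDeriv ℝ n (fun x : F => ‖x‖ ^ 2) x‖ ≤ d * (4 * 2 ^ n) :=
        mul_le_mul_of_nonneg_left h5 (by linarith)
    _ = (4 * d) * 2 ^ n := by ring
    _ ≤ (16 * d) ^ n * 2 ^ n := mul_le_mul_of_nonneg_right h6 (by positivity)
    _ = (32 * d) ^ n := by rw [← mul_pow]; ring_nf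

end cut

section cut2

variable {F : Type} [NormedAddCommGroup F] [InnerProductSpace ℝ F] [FiniteDimensional ℝ F]
  [MeasurableSpace F] [BorelSpace F]

/-- **cut-offs between two radii with polynomial bounds** -/
theorem exists_cutB (M : ℕ) : ∃ (C : ℝ) (p : ℕ), 0 ≤ C ∧ ∀ r' ρ : ℝ, 0 < r' → r' < ρ → ρ ≤ 2 →
    ρ - r' ≤ 1 → ∃ (χ : F → ℝ) (hχ : IsCut χ), (∀ x, ‖x‖ ≤ r' → χ x = 1) ∧
      (∀ x, χ x ≠ 0 → ‖x‖ < ρ) ∧ ‖cs M hχ‖ ≤ C / (ρ - r') ^ p := by
  obtain ⟨K, C₁, hC₁, H⟩ := exists_toX_bound (F := F) M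
  obtain ⟨C₂, hC₂, H₂⟩ := smoothTransition_bound K
  refine ⟨C₁ * (K.factorial * C₂ * 128 ^ K), 2 * K, by positivity, fun r' ρ h0 h1 h2 h3 => ?_⟩
  set ρ₁ : ℝ := (r' + ρ) / 2 with hρ₁
  have e1 : r' < ρ₁ := by rw [hρ₁]; linarith
  have e2 : ρ₁ < ρ := by rw [hρ₁]; linarith
  set δ : ℝ := ρ - r' with hδ
  have hδ0 : 0 < δ := by linarith
  have hden : δ ^ 2 / 4 ≤ ρ₁ ^ 2 - r' ^ 2 := by
    have : ρ₁ - r' = δ / 2 := by rw [hρ₁, hδ]; ring
    nlinarith
  have hden0 : 0 < ρ₁ ^ 2 - r' ^ 2 := lt_of_lt_of_le (by positivity) hden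
  set d : ℝ := 1 / (ρ₁ ^ 2 - r' ^ 2) with hd
  have hd1 : 1 / 4 ≤ d := by
    rw [hd]
    refine one_div_le_one_div_of_le hden0 ?_
    nlinarith
  have hd2 : d ≤ 4 / δ ^ 2 := by
    rw [hd, div_le_div_iff₀ hden0 (by positivity)]
    linarith
  set χ : F → ℝ := fun x => Real.smoothTransition (qf (ρ₁ ^ 2) d x) with hχdef
  have hsm : ContDiff ℝ ∞ χ := Real.smoothTransition.contDiff.comp (contDiff_qf _ _)
  have hz : ∀ x, ρ₁ ≤ ‖x‖ → χ x = 0 := fun x hx => by
    refine Real.smoothTransition.zero_of_nonpos ?_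
    unfold qf
    have : ρ₁ ^ 2 ≤ ‖x‖ ^ 2 := pow_le_pow_left₀ (by linarith) hx 2
    have hd0 : 0 ≤ d := by linarith
    nlinarith
  have hsupp : ∀ x, χ x ≠ 0 → ‖x‖ < ρ₁ := fun x hx => by
    by_contra h
    exact hx (hz x (not_lt.1 h))
  have hcut : IsCut χ := by
    refine ⟨hsm, ?_⟩
    have h5 : tsupport χ ⊆ Metric.closedBall 0 ρ₁ := by
      refine closure_minimal (fun x hx => ?_) Metric.isClosed_closedBall
      exact mem_closedBall_zero_iff.2 (hsupp x hx).le
    exact h5.trans (Metric.closedBall_subset_ball (by linarith))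
  refine ⟨χ, hcut, fun x hx => ?_, fun x hx => (hsupp x hx).trans e2, ?_⟩
  · refine Real.smoothTransition.one_of_one_le ?_
    unfold qf
    rw [hd, one_div_mul_eq_div, le_div_iff₀ hden0, one_mul]
    have : ‖x‖ ^ 2 ≤ r' ^ 2 := pow_le_pow_left₀ (norm_nonneg x) hx 2
    linarith
  · have hD : (1 : ℝ) ≤ 128 / δ ^ 2 := by
      rw [le_div_iff₀ (by positivity)]
      nlinarith
    have hb : ∀ j ≤ K, ∀ x, ‖iteratedFDeriv ℝ j (toS χ hcut.compact hcut.smooth) x‖
        ≤ K.factorial * C₂ * (128 / δ ^ 2) ^ K := fun j hj x => by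
      refine (norm_iteratedFDeriv_toS _ _ _ j x).trans ?_
      rcases le_or_gt ‖x‖ 2 with hx | hx
      · have h7 : ‖iteratedFDeriv ℝ j χ x‖ ≤ j.factorial * C₂ * (32 * d) ^ j := by
          refine norm_iteratedFDeriv_comp_le (N := ∞) (f := (qf (ρ₁ ^ 2) d : F → ℝ))
            Real.smoothTransition.contDiff (contDiff_qf _ _) (by exact_mod_cast le_top) x
            (fun i hi => H₂ i (hi.trans hj) _) (fun i hi1 hi2 => ?_)
          exact norm_iteratedFDeriv_qf_le hd1 hx hi1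
        refine h7.trans ?_
        have h8 : 32 * d ≤ 128 / δ ^ 2 := by
          calc 32 * d ≤ 32 * (4 / δ ^ 2) := by linarith
            _ = _ := by ring
        have h9 : (32 * d) ^ j ≤ (128 / δ ^ 2) ^ K :=
          (pow_le_pow_left₀ (by linarith) h8 j).trans (pow_le_pow_right₀ hD hj)
        have h10 : (j.factorial : ℝ) ≤ K.factorial := by exact_mod_cast Nat.factorial_le hj
        gcongr
      · have h4 : χ =ᶠ[𝓝 x] fun _ => (0 : ℝ) := by
          filter_upwards [(isOpen_lt continuous_const continuous_norm).mem_nhds hx] with y hy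
          exact hz y (by linarith [show (2 : ℝ) < ‖y‖ from hy])
        have h5 : iteratedFDeriv ℝ j χ x = 0 := by
          rw [(Filter.EventuallyEq.iteratedFDeriv ℝ h4 j).eq_of_nhds]
          simp only [iteratedFDeriv_fun_zero, Pi.zero_apply]
        rw [h5, norm_zero]
        positivity
    have h11 := H (toS χ hcut.compact hcut.smooth) _ (by positivity) (fun x hx => by
      rw [toS_apply, hcut.zero hx.le, Complex.ofReal_zero]) hb
    unfold cs
    refine h11.trans (le_of_eq ?_)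
    rw [div_pow, ← pow_mul]
    ring

end cut2

end Crest.Agent.R234.Jr_186
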