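import Crest.Agent.R234.Jr2_186
import Crest.Agent.R234.MgDefs2_570

/-!
# Row 234, node F2-JREG part 3 (helper186)

`jreg`: interior regularity of Jacobi fields; `jRegP : JRegP` (570's `MgDefs2_570`, literally).
-/

set_option autoImplicit false
set_option linter.unusedSectionVars false

open MeasureTheory Complex Filter Real
open scoped ContDiff Topology InnerProductSpace

noncomputable section

namespace Crest.Agent.R234.Jr_186

open Crest.Agent.R086.Wie Crest.Agent.R234.Mx1_397 Crest.Agent.R234.Mx2_397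
  Crest.Agent.R234.Mx3_397 Crest.Agent.R234.Mx4_397 Crest.Agent.R234.Mx5_397
  Crest.Agent.R234.Mx6_397 Crest.Agent.R234.Mx8_397 Crest.Agent.R234.Mx9_397
  Crest.Agent.R234.Mx10_397 Crest.Agent.R234.Mx11_397 Crest.Agent.R234.Ell1_3

section step

variable {F V : Type} [NormedAddCommGroup F] [InnerProductSpace ℝ F] [FiniteDimensional ℝ F]
  [MeasurableSpace F] [BorelSpace F]
  [NormedAddCommGroup V] [InnerProductSpace ℝ V] [FiniteDimensional ℝ V]
variable {κ : Type*} [Fintype κ]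

theorem norm_aux {a b w C₁ C₂ C₃ δ : ℝ} {p q : ℕ} {L : ℝ} (hδ : 0 < δ) (hC₁ : 0 ≤ C₁)
    (hC₃ : 0 ≤ C₃) (hw : 0 ≤ w) (h1 : b ≤ C₁ * L * w) (hL : L ≤ C₂ / (δ / 2) ^ p)
    (h2 : a ≤ C₃ / (δ / 2) ^ q * b) :
    a ≤ C₃ * C₁ * C₂ * 2 ^ (p + q) / δ ^ (p + q) * w := by
  have h3 : b ≤ C₁ * (C₂ / (δ / 2) ^ p) * w := by
    refine h1.trans ?_
    gcongr
  have h4 : a ≤ C₃ / (δ / 2) ^ q * (C₁ * (C₂ / (δ / 2) ^ p) * w) := by
    refine h2.trans ?_
    gcongr
  refine h4.trans (le_of_eq ?_)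
  rw [div_pow, div_pow, pow_add, pow_add]
  field_simp

/-- **interior regularity of Jacobi fields** -/
theorem jreg {c : F} (hc : ‖c‖ = 11 / 2) (b : OrthonormalBasis κ ℝ V) (j : ℕ) :
    ∀ (N M L : ℕ), M ≤ N + 2 + j → N + 2 + j ≤ L →
      ∃ (ε C : ℝ) (p : ℕ), 0 < ε ∧ 0 ≤ C ∧ ∀ (U : κ → X F L) (w : κ → X F (N + 2)) (r' ρ : ℝ),
        (∀ α, star (U α) = U α) → (∀ α, star (w α) = w α) → ‖U‖ ≤ ε → 0 < r' → r' < ρ → ρ ≤ 2 →
        ρ - r' ≤ 1 → (∀ x, ‖x‖ < ρ → lop (syn b U) (syn b w) x = 0) →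
        ∃ z : κ → X F M, (∀ α, star (z α) = z α) ∧ ‖z‖ ≤ C / (ρ - r') ^ p * ‖w‖ ∧
          ∀ α x, ‖x‖ ≤ r' → ev (z α) x = ev (w α) x := by
  induction j with
  | zero =>
    intro N M L hM hL
    refine ⟨1, 1, 0, one_pos, zero_le_one, fun U w r' ρ hU hw _ _ _ _ _ _ =>
      ⟨fun α => inclV hM (w α), fun α => ?_, ?_, fun α x _ => ev_inclV _ _ x⟩⟩
    · rw [star_inclV, hw]
    · rw [pow_zero, div_one, one_mul]
      refine (pi_norm_le_iff_of_nonneg (norm_nonneg _)).2 fun α => ?_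
      exact (norm_inclV_le _ _).trans (norm_le_pi_norm w α)
  | succ j ih =>
    intro N M L hM hL
    have hNL : N + 1 + 2 ≤ L := by omega
    obtain ⟨ε₁, C₁, he₁, hC₁, G₁⟩ := gainL hc b N
    obtain ⟨C₂, p, hC₂, G₂⟩ := exists_cutB (F := F) (N + 3)
    obtain ⟨ε₃, C₃, q, he₃, hC₃, G₃⟩ := ih (N + 1) M L (by omega) (by omega)
    refine ⟨min ε₁ ε₃, C₃ * C₁ * C₂ * 2 ^ (p + q), p + q, by positivity, by positivity,
      fun U w r' ρ hUs hws hU h0 h1 h2 h3 hM' => ?_⟩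
    have e1 : r' < (r' + ρ) / 2 := by linarith
    have e2 : (r' + ρ) / 2 < ρ := by linarith
    have e3 : ρ - (r' + ρ) / 2 = (ρ - r') / 2 := by ring
    have e4 : (r' + ρ) / 2 - r' = (ρ - r') / 2 := by ring
    obtain ⟨χ, hχ, hχ1, hχ2, hχn⟩ := G₂ ((r' + ρ) / 2) ρ (h0.trans e1) e2 h2 (by rw [e3]; linarith)
    rw [e3] at hχn
    have hsyn : syn b (fun α => inclV hNL (U α)) = syn b U := by
      funext x
      unfold syn
      exact Finset.sum_congr rfl fun α _ => by rw [ev_inclV]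
    have hUn : ‖fun α => inclV hNL (U α)‖ ≤ ‖U‖ := by
      refine (pi_norm_le_iff_of_nonneg (norm_nonneg _)).2 fun α => ?_
      exact (norm_inclV_le _ _).trans (norm_le_pi_norm U α)
    obtain ⟨z, hzs, hzn, hz⟩ := G₁ χ hχ (fun α => inclV hNL (U α)) w
      (fun α => by rw [star_inclV, hUs]) hws (hUn.trans (hU.trans (min_le_left _ _)))
      (fun x hx => by rw [hsyn]; exact hM' x (hχ2 x hx))
    have hzu : ∀ x, ‖x‖ < (r' + ρ) / 2 → syn b z =ᶠ[𝓝 x] syn b w := fun x hx => by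
      filter_upwards [(isOpen_lt continuous_norm continuous_const).mem_nhds hx] with y hy
      unfold syn
      refine Finset.sum_congr rfl fun α _ => ?_
      rw [hz, hχ1 y (le_of_lt hy), Complex.ofReal_one, one_mul]
    obtain ⟨z', hzs', hzn', hz'⟩ := G₃ U z r' ((r' + ρ) / 2) hUs hzs
      (hU.trans (min_le_right _ _)) h0 e1 (e2.le.trans h2) (by rw [e4]; linarith)
      fun x hx => by
        rw [lop_congr (Filter.EventuallyEq.refl _ _) (hzu x hx)]
        exact hM' x (hx.trans e2)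
    rw [e4] at hzn'
    refine ⟨z', hzs', norm_aux (by linarith) hC₁ hC₃ (norm_nonneg _) hzn hχn hzn', fun α x hx => ?_⟩
    rw [hz' α x hx, hz, hχ1 x (hx.trans e1.le), Complex.ofReal_one, one_mul]

end step

/-! ### the frozen form -/

open Crest.GeometryTopology.Submanifold Crest.Agent.R234.MG_570

variable {m n : ℕ}

theorem syn_apply {N : ℕ} (a : XV m n N) (x : Euc m) (α : Fin n) :
    syn (EuclideanSpace.basisFun (Fin n) ℝ) a x α = (ev (a α) x).re := by
  have h := inner_syn (EuclideanSpace.basisFun (Fin n) ℝ) a x α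
  rw [← h, EuclideanSpace.basisFun_apply, EuclideanSpace.inner_single_left]
  simp

theorem syn_rep {N : ℕ} {a : XV m n N} {u : Euc m → Euc n} (h : Rep a u) :
    syn (EuclideanSpace.basisFun (Fin n) ℝ) a = u := by
  funext x
  ext α
  rw [syn_apply, ← h x α, Complex.ofReal_re]

theorem rep_syn {N : ℕ} {a : XV m n N} (h : IsReal a) :
    Rep a (syn (EuclideanSpace.basisFun (Fin n) ℝ) a) := fun x α => by
  rw [syn_apply, ev_real (h α)]

theorem exists_c (hm : 1 ≤ m) : ∃ c : Euc m, ‖c‖ = 11 / 2 := by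
  refine ⟨EuclideanSpace.single (⟨0, hm⟩ : Fin m) (11 / 2 : ℝ), ?_⟩
  rw [PiLp.norm_single, Real.norm_of_nonneg (by norm_num)]

/-- **F2-JREG** -/
theorem jRegP : JRegP := by
  intro m n N
  rcases Nat.eq_zero_or_pos m with rfl | hm
  · obtain ⟨χ, hχ, hχ1, -⟩ := exists_cut (F := Euc 0) (r' := 1) (r := 2) one_pos (by norm_num) le_rfl
    refine ⟨1, one_pos, ‖cs (N + 2) hχ‖ + 1, by positivity, 0,
      fun r ε u j a a₂ _ _ _ _ _ _ _ hs hR _ => ?_⟩
    have hb : IsReal (fun α => ev (a₂ α) 0 • cs (N + 2) hχ : XV 0 n (N + 2)) := fun α => by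
      show star (ev (a₂ α) 0 • cs (N + 2) hχ) = _
      have h2 : star (ev (a₂ α) 0) = ev (a₂ α) 0 := by
        rw [← ev_real (hs α) 0]
        exact Complex.conj_ofReal _
      rw [star_smul, star_cs, h2]
    refine ⟨_, _, hb, rep_syn hb, ?_, fun x _ => ?_⟩
    · rw [pow_zero, div_one]
      refine (pi_norm_le_iff_of_nonneg (by positivity)).2 fun α => ?_
      rw [norm_smul]
      have h1 := norm_ev_le (a₂ α) 0
      have h2 := norm_le_pi_norm a₂ α
      have h3 := norm_nonneg (cs (N + 2) hχ)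
      have h4 := norm_nonneg a₂
      nlinarith [norm_nonneg (ev (a₂ α) 0)]
    · have hx : x = 0 := Subsingleton.elim _ _
      ext α
      rw [syn_apply, ev_smul, ev_cs, hx, hχ1 0 (by rw [norm_zero]; exact zero_le_one),
        Complex.ofReal_one, mul_one, ← hR 0 α, Complex.ofReal_re]
  · obtain ⟨c, hc⟩ := exists_c hm
    obtain ⟨κ₀, C, p, hκ₀, hC, H⟩ := jreg hc (EuclideanSpace.basisFun (Fin n) ℝ) N 0 (N + 2) (N + 2)
      (by omega) (by omega)
    refine ⟨κ₀, hκ₀, C + 1, by positivity, p, fun r ε u j a a₂ hr hε hε1 hrε has han hau ha₂s ha₂j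
      hJ => ?_⟩
    have e1 : r + ε - r = ε := by ring
    obtain ⟨z, hzs, hzn, hz⟩ := H a a₂ r (r + ε) has ha₂s han hr (by linarith) hrε
      (by rw [e1]; exact hε1) fun x hx => by
        rw [syn_rep hau, syn_rep ha₂j]
        exact hJ x (mem_ball_zero_iff.2 hx)
    rw [e1] at hzn
    refine ⟨z, _, hzs, rep_syn hzs, hzn.trans ?_, fun x hx => ?_⟩
    · rw [div_mul_eq_mul_div]
      gcongr
      linarith
    · ext α
      rw [syn_apply, hz α x (mem_ball_zero_iff.1 hx).le, ← ha₂j x α, Complex.ofReal_re]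

end Crest.Agent.R234.Jr_186
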