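import Crest.Agent.R234.F35k_433

/-!
# Row 234 (helper173), piece (D) of #9065: 433's `kern_ch` with the constants of `Dat`

`kern_dat`: as `F35k_433.kern_ch` (proof = 433's), but with `θ = C2 m * κ * l * ρ`.
-/

set_option autoImplicit false
set_option linter.unusedSectionVars false

open MeasureTheory Set Metric Function Filter Topology
open scoped ENNReal NNReal ContDiff RealInnerProductSpace
open Crest.GeometryTopology.Submanifold

noncomputable section

namespace Crest.Agent.R234.Kd_173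

open Crest.Agent.R234.F31_354 (Kern)
open Crest.Agent.R234.Kern2_332 (gm gi wv ds beta Dat C2)
open Crest.Agent.R234.Loc1_290 (mass mass_pos)
open Crest.Agent.R234.Ell1_3 (dns gdet gop)
open Crest.Agent.R234.Main_456 Crest.Agent.R234.Grot_842 Crest.Agent.R234.Foot_842
open Crest.Agent.R234.Nrm_842
open Crest.Agent.R234.Gi_456 (Gr tube IsFoot foot Lo Loi Loi_Lo Lo_Loi ch jB det_Lo det_Lo_pos norm_Lo_sq
  Loi_spec norm_Lo_le)
open Crest.Agent.R234.F35k_433

local notation "adj" => ContinuousLinearMap.adjoint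

variable {m n k : ℕ}

/-- **node F3-KV with the factor `κ l`**: the kernel in the coordinate `v = ch.x` -/
theorem kern_dat {w : Euc m → Euc n} {κ l : ℝ} (h : Gr 1 w) (hd : Dat w (fderiv ℝ w) κ l) (Xc : Euc m) {ρ : ℝ} (hρ : 0 < ρ) (hρ1 : ρ ≤ 1)
    (R : ℝ) :
    Kern volume (bv w Xc ρ) (fun v => jB w Xc v / mass (volume : Measure (Euc m)) ρ) ρ (C2 m * κ * l * ρ)
      (Kern_567.CK m / mass (volume : Measure (Euc m)) ρ) R := by
  have hm := mass_pos (volume : Measure (Euc m)) hρ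
  have h1 := hd.kern volume hρ hρ1 (‖Xc‖ + R)
  rw [finrank_euclideanSpace, Fintype.card_fin] at h1
  have hq8 := h.d1 Xc
  have h2 := comp_lin h1 (L := Lo (fderiv ℝ w Xc)) (Li := Loi (fderiv ℝ w Xc)) (X0 := Xc) (R := R)
    (Lo_Loi _) (a := 65 / 64) (σ := 6 / 5 * ρ)
    (fun v => (ContinuousLinearMap.le_opNorm _ _).trans
      (mul_le_of_le_one_left (norm_nonneg _) (Loi_spec _).2.2))
    (fun v => norm_Lo_le hq8 v) (by norm_num)
    (fun x y hxy => by
      have h3 := hd.ds_ge x y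
      have h5 : (6 / 5 * ρ) ^ 2 ≤ ‖y - x‖ ^ 2 := pow_le_pow_left₀ (by positivity) hxy.le 2
      have h4 : 1 ≤ ds w (fderiv ℝ w) x y / ρ ^ 2 := by
        rw [le_div_iff₀ (by positivity)]
        nlinarith [sq_nonneg ρ]
      exact max_eq_left (by linarith))
    (by linarith) le_rfl
  have hd1 : |(Loi (fderiv ℝ w Xc)).det| = (dns (fderiv ℝ w Xc))⁻¹ := abs_det_Loi _
  have hd2 : 1 ≤ dns (fderiv ℝ w Xc) := one_le_dns _
  refine ⟨h2.meas, h2.nonneg, h2.le_one, h2.supp, ?_, ?_, ?_, ?_⟩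
  · exact (h.contDiff_j Xc).continuous.measurable.div_const _
  · exact fun v => div_nonneg (Gi_456.jB_pos _ _ _).le hm.le
  · intro v
    have h3 := h2.wle v
    simp only [hd1, sqrt_det_gm] at h3
    have e1 : jB w Xc v / mass (volume : Measure (Euc m)) ρ = dns (fderiv ℝ w (Xc + Loi (fderiv ℝ w Xc) v)) /
        mass (volume : Measure (Euc m)) ρ * (dns (fderiv ℝ w Xc))⁻¹ := by
      rw [jB, det_Lo, Gi_456.pt]
      ring
    rw [e1]
    refine h3.trans ?_
    have h4 : (dns (fderiv ℝ w Xc))⁻¹ ≤ 1 := inv_le_one_of_one_le₀ hd2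
    have h5 : 0 ≤ Kern_567.CK m / mass (volume : Measure (Euc m)) ρ := div_nonneg (Kern_567.CK_pos m).le hm.le
    exact mul_le_of_le_one_right h5 h4
  · intro y hy
    have h3 := h2.mass y hy
    simp only [hd1, sqrt_det_gm] at h3
    have e1 : ∀ v, jB w Xc v / mass (volume : Measure (Euc m)) ρ * bv w Xc ρ v y =
        dns (fderiv ℝ w (Xc + Loi (fderiv ℝ w Xc) v)) / mass (volume : Measure (Euc m)) ρ *
          (dns (fderiv ℝ w Xc))⁻¹ * beta w (fderiv ℝ w) ρ (Xc + Loi (fderiv ℝ w Xc) v)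
            (Xc + Loi (fderiv ℝ w Xc) y) := by
      intro v
      rw [jB, det_Lo, bv, Gi_456.pt, Gi_456.pt]
      ring
    simp_rw [e1]
    exact h3


end Crest.Agent.R234.Kd_173
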