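import Mathlib

/-!
# Row 234, frequency stage: the `Λ`-`N` Gronwall lemma (helper742)

`j` numbers dyadic scales going *down* from the first scale `r'` where flatness is lost to the
blow-up scale `r_k`; `f j = N - 1` is the excess frequency, `Λ j = log (1 / J)` with `J` the scale
invariant separation excess. When `f` is close to `0` (cone like behaviour) `Λ` does not increase,
so errors of size `Λ ^ (-C)` or `J ^ γ` per scale are not summable over the scales. The potential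
`log (1 + f) + 4 a / Λ` absorbs them: where `f ≥ K / Λ ^ 2` it decreases (up to the summable `κ`),
elsewhere it is small.
-/

set_option autoImplicit false

namespace Crest.Agent.R234.LN_742

open Finset Real

/-- **`Λ`-`N` Gronwall lemma.** -/
theorem bound (Λ f κ : ℕ → ℝ) (n : ℕ) {a K Λ₀ : ℝ} (ha : 0 ≤ a) (hK : 0 ≤ K) (hΛ₀ : 0 < Λ₀)
    (hΛ : ∀ j ≤ n, Λ₀ ≤ Λ j) (hκ : ∀ j < n, 0 ≤ κ j) (hf : ∀ j ≤ n, -1 < f j)
    (step : ∀ j < n, Λ (j + 1) ≤ 2 * Λ j)
    (H1 : ∀ j < n, log (1 + f (j + 1)) ≤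
      log (1 + f j) + a / Λ j ^ 2 * max (Λ (j + 1) - Λ j) 0 + a / Λ j ^ 4 + κ j)
    (H2 : ∀ j < n, K / Λ j ^ 2 ≤ f (j + 1) → 1 / Λ j ^ 2 ≤ Λ (j + 1) - Λ j) :
    ∀ j ≤ n, log (1 + f j) + 4 * a / Λ j ≤
      max (log (1 + f 0) + 4 * a / Λ 0) (K / Λ₀ ^ 2 + 4 * a / Λ₀) + ∑ i ∈ range j, κ i := by
  intro j
  induction j with
  | zero =>
    intro _
    simp only [range_zero, sum_empty, add_zero]
    exact le_max_left _ _
  | succ j ih =>
    intro hj
    have hjn : j < n := by omega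
    have ih' := ih hjn.le
    have hL := hΛ j hjn.le
    have hL' := hΛ (j + 1) hj
    have hpos : 0 < Λ j := lt_of_lt_of_le hΛ₀ hL
    have hpos' : 0 < Λ (j + 1) := lt_of_lt_of_le hΛ₀ hL'
    rw [sum_range_succ]
    by_cases h : K / Λ j ^ 2 ≤ f (j + 1)
    · have hD := H2 j hjn h
      set D := Λ (j + 1) - Λ j with hDdef
      have hL1 : Λ (j + 1) = Λ j + D := by rw [hDdef]; ring
      have hDpos : 0 < D := lt_of_lt_of_le (by positivity) hD
      have h1 := H1 j hjn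
      rw [← hDdef, max_eq_left hDpos.le] at h1
      have hstep := step j hjn
      -- the gain
      have hgain : 4 * a / Λ (j + 1) ≤ 4 * a / Λ j - 2 * a * D / Λ j ^ 2 := by
        rw [hL1]
        have h2 : D ≤ Λ j := by linarith
        rw [div_le_iff₀ (by linarith)]
        have h3 : (4 * a / Λ j - 2 * a * D / Λ j ^ 2) * (Λ j + D) =
            4 * a + 2 * a * D * (Λ j - D) / Λ j ^ 2 := by
          field_simp
          ring
        rw [h3]
        have : 0 ≤ 2 * a * D * (Λ j - D) / Λ j ^ 2 := by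
          apply div_nonneg _ (by positivity)
          apply mul_nonneg (by positivity) (by linarith)
        linarith
      have h4 : a / Λ j ^ 4 ≤ a / Λ j ^ 2 * D := by
        have : a / Λ j ^ 4 = a / Λ j ^ 2 * (1 / Λ j ^ 2) := by
          field_simp
        rw [this]
        exact mul_le_mul_of_nonneg_left hD (by positivity)
      have h5 : 2 * a * D / Λ j ^ 2 = a / Λ j ^ 2 * D + a / Λ j ^ 2 * D := by ring
      linarith
    · push Not at h
      have hf1 := hf (j + 1) hj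
      have h1 : log (1 + f (j + 1)) ≤ f (j + 1) := by
        have := log_le_sub_one_of_pos (show 0 < 1 + f (j + 1) by linarith)
        linarith
      have h2 : K / Λ j ^ 2 ≤ K / Λ₀ ^ 2 := by
        apply div_le_div_of_nonneg_left hK (by positivity)
        exact pow_le_pow_left₀ hΛ₀.le hL 2
      have h3 : 4 * a / Λ (j + 1) ≤ 4 * a / Λ₀ :=
        div_le_div_of_nonneg_left (by positivity) hΛ₀ hL'
      have h4 : 0 ≤ ∑ i ∈ range j, κ i :=
        sum_nonneg fun i hi => hκ i (by have := mem_range.mp hi; omega)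
      have h5 := hκ j hjn
      have h6 := le_max_right (log (1 + f 0) + 4 * a / Λ 0) (K / Λ₀ ^ 2 + 4 * a / Λ₀)
      linarith

/-- The frequency at the blow-up scale is bounded by the frequency at the top scale, with a
constant independent of the number of scales. -/
theorem freq_bound (Λ f κ : ℕ → ℝ) (n : ℕ) {a K Λ₀ S F : ℝ} (ha : 0 ≤ a) (hK : 0 ≤ K)
    (hΛ₀ : 0 < Λ₀) (hΛ : ∀ j ≤ n, Λ₀ ≤ Λ j) (hκ : ∀ j < n, 0 ≤ κ j)
    (hS : ∑ i ∈ range n, κ i ≤ S) (hf : ∀ j ≤ n, -1 < f j) (hF : 0 ≤ F) (hf0 : f 0 ≤ F)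
    (step : ∀ j < n, Λ (j + 1) ≤ 2 * Λ j)
    (H1 : ∀ j < n, log (1 + f (j + 1)) ≤
      log (1 + f j) + a / Λ j ^ 2 * max (Λ (j + 1) - Λ j) 0 + a / Λ j ^ 4 + κ j)
    (H2 : ∀ j < n, K / Λ j ^ 2 ≤ f (j + 1) → 1 / Λ j ^ 2 ≤ Λ (j + 1) - Λ j) :
    ∀ j ≤ n, 1 + f j ≤ (1 + F) * exp (K / Λ₀ ^ 2 + 4 * a / Λ₀ + S) := by
  intro j hj
  have h := bound Λ f κ n ha hK hΛ₀ hΛ hκ hf step H1 H2 j hj
  have hpos : 0 < Λ j := lt_of_lt_of_le hΛ₀ (hΛ j hj)
  have h0 : log (1 + f 0) + 4 * a / Λ 0 ≤ log (1 + F) + (K / Λ₀ ^ 2 + 4 * a / Λ₀) := by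
    have h1 : log (1 + f 0) ≤ log (1 + F) :=
      log_le_log (by linarith [hf 0 (Nat.zero_le _)]) (by linarith)
    have h2 : 4 * a / Λ 0 ≤ 4 * a / Λ₀ :=
      div_le_div_of_nonneg_left (by positivity) hΛ₀ (hΛ 0 (Nat.zero_le _))
    have h3 : 0 ≤ K / Λ₀ ^ 2 := by positivity
    linarith
  have h1 : K / Λ₀ ^ 2 + 4 * a / Λ₀ ≤ log (1 + F) + (K / Λ₀ ^ 2 + 4 * a / Λ₀) := by
    have := log_nonneg (show (1 : ℝ) ≤ 1 + F by linarith)
    linarith
  have h2 : ∑ i ∈ range j, κ i ≤ S := by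
    refine le_trans ?_ hS
    apply sum_le_sum_of_subset_of_nonneg
    · intro i hi
      have := mem_range.mp hi
      exact mem_range.mpr (by omega)
    · intro i hi _
      exact hκ i (mem_range.mp hi)
  have h3 : 0 ≤ 4 * a / Λ j := by positivity
  have h4 : log (1 + f j) ≤ log (1 + F) + (K / Λ₀ ^ 2 + 4 * a / Λ₀ + S) := by
    have := max_le h0 h1
    linarith
  have h5 : 0 < 1 + f j := by linarith [hf j hj]
  calc 1 + f j = exp (log (1 + f j)) := (exp_log h5).symm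
    _ ≤ exp (log (1 + F) + (K / Λ₀ ^ 2 + 4 * a / Λ₀ + S)) := exp_le_exp.mpr h4
    _ = (1 + F) * exp (K / Λ₀ ^ 2 + 4 * a / Λ₀ + S) := by
        rw [exp_add, exp_log (by linarith)]

end Crest.Agent.R234.LN_742
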