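import Crest.Agent.R234.MgDefs3_570

/-!
# Row 234, node F2-LT (helper640), part 1: the coefficients of `lopT u` in the Wiener spaces

`K = (1 + DuᵀDu)⁻¹ - 1`, `W = (1 + K) Duᵀ`, `S^β_{jα} = Σ W^β_l ∂_l∂_j u_α`,
`A = K`, `B_{iβα} = 2 (S_iα + Σ K_ij S_jα)`, `Z_{βα} = 2 (Σ ∂_i S_iα + Σ K_ij ∂_i S_jα)`;
bounds `O(‖u‖)`, reality.
-/

set_option autoImplicit false
set_option linter.unusedSectionVars false

open MeasureTheory Complex Filter Real
open scoped ContDiff Topology InnerProductSpace ENNReal NNReal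

noncomputable section

namespace Crest.Agent.R234.LT1_640

open Crest.Agent.R086.Wie Crest.Agent.R234.Mx1_397 Crest.Agent.R234.Mx2_397
  Crest.Agent.R234.Mx3_397 Crest.Agent.R234.Mx4_397 Crest.Agent.R234.MG_570

theorem norm_sum_card {E ι : Type*} [SeminormedAddCommGroup E] [Fintype ι] (f : ι → E) {c : ℝ}
    (h : ∀ i, ‖f i‖ ≤ c) : ‖∑ i, f i‖ ≤ Fintype.card ι * c := by
  refine (norm_sum_le _ _).trans ((Finset.sum_le_sum fun i _ => h i).trans (le_of_eq ?_))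
  rw [Finset.sum_const, Finset.card_univ, nsmul_eq_mul]

theorem sum_card {ι : Type*} [Fintype ι] (f : ι → ℝ) {c : ℝ}
    (h : ∀ i, f i ≤ c) : ∑ i, f i ≤ Fintype.card ι * c := by
  refine (Finset.sum_le_sum fun i _ => h i).trans (le_of_eq ?_)
  rw [Finset.sum_const, Finset.card_univ, nsmul_eq_mul]

/-! ### representation calculus -/

section rp

variable {F : Type*} [NormedAddCommGroup F] [InnerProductSpace ℝ F] [FiniteDimensional ℝ F]
  [MeasurableSpace F] [BorelSpace F]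

/-- `a` represents the real function `f`. -/
def Rp {N : ℕ} (a : X F N) (f : F → ℝ) : Prop := ∀ x, ((f x : ℝ) : ℂ) = ev a x

theorem Rp.congr {N : ℕ} {a : X F N} {f g : F → ℝ} (h : Rp a f) (e : ∀ x, g x = f x) : Rp a g :=
  fun x => by rw [e x, h x]

theorem Rp.add {N : ℕ} {a b : X F N} {f g : F → ℝ} (h : Rp a f) (h' : Rp b g) :
    Rp (a + b) (fun x => f x + g x) := fun x => by
  rw [ev_add, ← h x, ← h' x, Complex.ofReal_add]

theorem Rp.mul {N : ℕ} {a b : X F N} {f g : F → ℝ} (h : Rp a f) (h' : Rp b g) :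
    Rp (a * b) (fun x => f x * g x) := fun x => by
  rw [ev_mul, ← h x, ← h' x, Complex.ofReal_mul]

theorem Rp.sum {N : ℕ} {ι : Type*} (s : Finset ι) {a : ι → X F N} {f : ι → F → ℝ}
    (h : ∀ i, Rp (a i) (f i)) : Rp (∑ i ∈ s, a i) (fun x => ∑ i ∈ s, f i x) := fun x => by
  rw [ev_sum, Complex.ofReal_sum]
  exact Finset.sum_congr rfl fun i _ => h i x

theorem Rp.incl {M N : ℕ} (hMN : M ≤ N) {a : X F N} {f : F → ℝ} (h : Rp a f) :
    Rp (inclV hMN a) f := fun x => by rw [ev_inclV, h x]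

theorem Rp.re {N : ℕ} {a : X F N} {f : F → ℝ} (h : Rp a f) (x : F) : (ev a x).re = f x := by
  rw [← h x, Complex.ofReal_re]

theorem Rp.hasFDerivAt {N : ℕ} {a : X F (N + 1)} {f : F → ℝ} (h : Rp a f) (x : F) :
    ∃ L : F →L[ℝ] ℝ, HasFDerivAt f L x ∧ ∀ v, ((L v : ℝ) : ℂ) = ev (D v a) x := by
  obtain ⟨L, hL, hv⟩ := hasFDerivAt_ev a x
  have h1 : HasFDerivAt f (Complex.reCLM ∘L L) x := by
    have h2 : f = fun x => Complex.reCLM (ev a x) := by
      funext y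
      rw [Complex.reCLM_apply, h.re]
    rw [h2]
    exact Complex.reCLM.hasFDerivAt.comp x hL
  refine ⟨_, h1, fun v => ?_⟩
  have h3 : HasFDerivAt (fun x => ev a x) (Complex.ofRealCLM ∘L (Complex.reCLM ∘L L)) x := by
    have h2 : (fun x => ev a x) = fun x => Complex.ofRealCLM (f x) := by
      funext y
      rw [Complex.ofRealCLM_apply, h y]
    rw [h2]
    exact Complex.ofRealCLM.hasFDerivAt.comp x h1
  rw [← hv, hL.unique h3]
  rfl

theorem Rp.diff {N : ℕ} {a : X F (N + 1)} {f : F → ℝ} (h : Rp a f) : Differentiable ℝ f :=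
  fun x => by
    obtain ⟨L, hL, _⟩ := h.hasFDerivAt x
    exact hL.differentiableAt

theorem Rp.fd {N : ℕ} {a : X F (N + 1)} {f : F → ℝ} (h : Rp a f) (v : F) :
    Rp (D v a) (fun x => fderiv ℝ f x v) := fun x => by
  obtain ⟨L, hL, hv⟩ := h.hasFDerivAt x
  show ((fderiv ℝ f x v : ℝ) : ℂ) = _
  rw [hL.fderiv, hv]

end rp

/-! ### the coefficients -/

section coef

variable {F : Type*} [NormedAddCommGroup F] [InnerProductSpace ℝ F] [FiniteDimensional ℝ F]
  [MeasurableSpace F] [BorelSpace F]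
variable {ι κ : Type*} [Fintype ι] [Fintype κ] (e : OrthonormalBasis ι ℝ F) {t : ℕ}
  (U : κ → X F (t + 1 + 2))

/-- `(1 + DuᵀDu)⁻¹ - 1`. -/
def Kc : ι → ι → X F (t + 1) := qi (Hm e U)

/-- `(1 + K) Duᵀ`. -/
def Wc (β : κ) (l : ι) : X F (t + 1) := Pd e U l β + ∑ p, Kc e U l p * Pd e U p β

/-- `Σ W_l ∂_l∂_j u_α`. -/
def Sc (β : κ) (j : ι) (α : κ) : X F (t + 1) := ∑ l, Wc e U β l * Qd e U l j α

/-- half of the first order coefficients. -/
def Bc (i : ι) (β α : κ) : X F (t + 1) := Sc e U β i α + ∑ j, Kc e U i j * Sc e U β j α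

/-- half of the zeroth order coefficients. -/
def Zc (β α : κ) : X F t := ∑ i, D (e i) (Sc e U β i α)
  + ∑ i, ∑ j, inclV (Nat.le_succ t) (Kc e U i j) * D (e i) (Sc e U β j α)

/-- the coefficients. -/
def cf : Cf F ι κ t where
  A i j := inclV (Nat.le_succ t) (Kc e U i j)
  B i β α := inclV (Nat.le_succ t) (Bc e U i β α + Bc e U i β α)
  Z β α := Zc e U β α + Zc e U β α

variable {e U}

theorem star_Kc {r : ℝ} (hr : Sm ι κ r) (hUr : ‖U‖ ≤ r) (hs : ∀ α, star (U α) = U α) (i j : ι) :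
    star (Kc e U i j) = Kc e U i j := star_qi (hr.card_le e hUr) (star_Hm e hs) i j

theorem star_Wc {r : ℝ} (hr : Sm ι κ r) (hUr : ‖U‖ ≤ r) (hs : ∀ α, star (U α) = U α) (β : κ)
    (l : ι) : star (Wc e U β l) = Wc e U β l := by
  unfold Wc
  rw [star_add, star_sum, star_Pd e hs]
  congr 1
  exact Finset.sum_congr rfl fun p _ => by
    rw [star_mul, star_Kc hr hUr hs, star_Pd e hs, mul_comm]

theorem star_Sc {r : ℝ} (hr : Sm ι κ r) (hUr : ‖U‖ ≤ r) (hs : ∀ α, star (U α) = U α) (β : κ)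
    (j : ι) (α : κ) : star (Sc e U β j α) = Sc e U β j α := by
  unfold Sc
  rw [star_sum]
  exact Finset.sum_congr rfl fun p _ => by
    rw [star_mul, star_Wc hr hUr hs, star_Qd e hs, mul_comm]

theorem star_Bc {r : ℝ} (hr : Sm ι κ r) (hUr : ‖U‖ ≤ r) (hs : ∀ α, star (U α) = U α) (i : ι)
    (β α : κ) : star (Bc e U i β α) = Bc e U i β α := by
  unfold Bc
  rw [star_add, star_sum, star_Sc hr hUr hs]
  congr 1
  exact Finset.sum_congr rfl fun p _ => by
    rw [star_mul, star_Kc hr hUr hs, star_Sc hr hUr hs, mul_comm]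

theorem star_Zc {r : ℝ} (hr : Sm ι κ r) (hUr : ‖U‖ ≤ r) (hs : ∀ α, star (U α) = U α)
    (β α : κ) : star (Zc e U β α) = Zc e U β α := by
  unfold Zc
  rw [star_add, star_sum, star_sum]
  congr 1
  · exact Finset.sum_congr rfl fun p _ => by rw [D_star, star_Sc hr hUr hs]
  · refine Finset.sum_congr rfl fun i _ => ?_
    rw [star_sum]
    exact Finset.sum_congr rfl fun p _ => by
      rw [star_mul, star_inclV, D_star, star_Kc hr hUr hs, star_Sc hr hUr hs, mul_comm]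

theorem real_cf {r : ℝ} (hr : Sm ι κ r) (hUr : ‖U‖ ≤ r) (hs : ∀ α, star (U α) = U α) :
    (cf e U).Real where
  A i j := by
    show star (inclV _ _) = inclV _ _
    rw [star_inclV, star_Kc hr hUr hs]
  B i β α := by
    show star (inclV _ _) = inclV _ _
    rw [star_inclV, star_add, star_Bc hr hUr hs]
  Z β α := by
    show star (_ + _) = _ + _
    rw [star_add, star_Zc hr hUr hs]

/-! ### bounds -/

variable (ι κ) in
/-- constant of `W`. -/
def cW : ℝ := 2 * π + Fintype.card ι * (2 * cH κ * (2 * π))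

variable (ι κ) in
/-- constant of `S`. -/
def cS : ℝ := Fintype.card ι * (cW ι κ * (2 * π) ^ 2)

theorem cW_nonneg : 0 ≤ cW ι κ := by
  have := cH_nonneg (κ := κ)
  have := Real.pi_pos
  unfold cW
  positivity

theorem cS_nonneg : 0 ≤ cS ι κ := by
  have := cW_nonneg (ι := ι) (κ := κ)
  have := Real.pi_pos
  unfold cS
  positivity

theorem norm_Kc_le {r : ℝ} (hr : Sm ι κ r) (hUr : ‖U‖ ≤ r) (h1 : ‖U‖ ≤ 1) (i j : ι) :
    ‖Kc e U i j‖ ≤ 2 * cH κ * ‖U‖ := by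
  have hc := cH_nonneg (κ := κ)
  have h2 := norm_nonneg U
  refine (norm_ent _ i j).trans ((norm_qi_le (hr.card_le e hUr)).trans ?_)
  have h3 := norm_Hm_le e U
  have h4 : cH κ * ‖U‖ ^ 2 ≤ cH κ * ‖U‖ := by
    refine mul_le_mul_of_nonneg_left ?_ hc
    nlinarith
  linarith

theorem norm_Kc_le' {r : ℝ} (hr : Sm ι κ r) (hUr : ‖U‖ ≤ r) (h1 : ‖U‖ ≤ 1) (i j : ι) :
    ‖Kc e U i j‖ ≤ 2 * cH κ := by
  have hc := cH_nonneg (κ := κ)
  refine (norm_Kc_le hr hUr h1 i j).trans ?_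
  nlinarith

theorem norm_Wc_le {r : ℝ} (hr : Sm ι κ r) (hUr : ‖U‖ ≤ r) (h1 : ‖U‖ ≤ 1) (β : κ) (l : ι) :
    ‖Wc e U β l‖ ≤ cW ι κ * ‖U‖ := by
  have hc := cH_nonneg (κ := κ)
  have h2 := norm_nonneg U
  have hp := Real.pi_pos
  unfold Wc
  refine (norm_add_le _ _).trans ?_
  have h3 := norm_Pd_le e U l β
  have h4 : ‖∑ p, Kc e U l p * Pd e U p β‖ ≤ Fintype.card ι * (2 * cH κ * (2 * π * ‖U‖)) := by
    refine norm_sum_card _ fun p => (norm_mul_le _ _).trans ?_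
    exact mul_le_mul (norm_Kc_le' hr hUr h1 l p) (norm_Pd_le e U p β) (norm_nonneg _)
      (by positivity)
  unfold cW
  calc _ ≤ 2 * π * ‖U‖ + Fintype.card ι * (2 * cH κ * (2 * π * ‖U‖)) := add_le_add h3 h4
    _ = _ := by ring

theorem norm_Sc_le {r : ℝ} (hr : Sm ι κ r) (hUr : ‖U‖ ≤ r) (h1 : ‖U‖ ≤ 1) (β : κ) (j : ι)
    (α : κ) : ‖Sc e U β j α‖ ≤ cS ι κ * ‖U‖ := by
  have hc := cW_nonneg (ι := ι) (κ := κ)
  have h2 := norm_nonneg U
  have hp := Real.pi_pos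
  unfold Sc
  have h4 : ‖∑ l, Wc e U β l * Qd e U l j α‖
      ≤ Fintype.card ι * (cW ι κ * ((2 * π) ^ 2 * ‖U‖)) := by
    refine norm_sum_card _ fun p => (norm_mul_le _ _).trans ?_
    refine mul_le_mul ((norm_Wc_le hr hUr h1 β p).trans ?_) (norm_Qd_le e U p j α) (norm_nonneg _)
      hc
    nlinarith
  refine h4.trans (le_of_eq ?_)
  unfold cS
  ring

theorem norm_Bc_le {r : ℝ} (hr : Sm ι κ r) (hUr : ‖U‖ ≤ r) (h1 : ‖U‖ ≤ 1) (i : ι)
    (β α : κ) :
    ‖Bc e U i β α‖ ≤ (cS ι κ + Fintype.card ι * (2 * cH κ * cS ι κ)) * ‖U‖ := by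
  have hc := cS_nonneg (ι := ι) (κ := κ)
  have hH := cH_nonneg (κ := κ)
  have h2 := norm_nonneg U
  unfold Bc
  refine (norm_add_le _ _).trans ?_
  have h3 := norm_Sc_le (e := e) hr hUr h1 β i α
  have h4 : ‖∑ j, Kc e U i j * Sc e U β j α‖
      ≤ Fintype.card ι * (2 * cH κ * (cS ι κ * ‖U‖)) := by
    refine norm_sum_card _ fun p => (norm_mul_le _ _).trans ?_
    exact mul_le_mul (norm_Kc_le' hr hUr h1 i p) (norm_Sc_le hr hUr h1 β p α) (norm_nonneg _)
      (by positivity)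
  calc _ ≤ cS ι κ * ‖U‖ + Fintype.card ι * (2 * cH κ * (cS ι κ * ‖U‖)) := add_le_add h3 h4
    _ = _ := by ring

theorem norm_D_basis {N : ℕ} (i : ι) (a : X F (N + 1)) : ‖D (e i) a‖ ≤ 2 * π * ‖a‖ := by
  have h := norm_D_le (e i) a
  rwa [e.norm_eq_one, mul_one] at h

theorem norm_Zc_le {r : ℝ} (hr : Sm ι κ r) (hUr : ‖U‖ ≤ r) (h1 : ‖U‖ ≤ 1) (β α : κ) :
    ‖Zc e U β α‖ ≤ (Fintype.card ι * (2 * π * cS ι κ)
      + Fintype.card ι * (Fintype.card ι * (2 * cH κ * (2 * π * cS ι κ)))) * ‖U‖ := by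
  have hc := cS_nonneg (ι := ι) (κ := κ)
  have hH := cH_nonneg (κ := κ)
  have h2 := norm_nonneg U
  have hp := Real.pi_pos
  unfold Zc
  refine (norm_add_le _ _).trans ?_
  have hD : ∀ i j, ‖D (e i) (Sc e U β j α)‖ ≤ 2 * π * (cS ι κ * ‖U‖) := fun i j =>
    (norm_D_basis i _).trans (mul_le_mul_of_nonneg_left (norm_Sc_le hr hUr h1 β j α)
      (by positivity))
  have h3 : ‖∑ i, D (e i) (Sc e U β i α)‖ ≤ Fintype.card ι * (2 * π * (cS ι κ * ‖U‖)) :=
    norm_sum_card _ fun i => hD i i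
  have h4 : ‖∑ i, ∑ j, inclV (Nat.le_succ t) (Kc e U i j) * D (e i) (Sc e U β j α)‖
      ≤ Fintype.card ι * (Fintype.card ι * (2 * cH κ * (2 * π * (cS ι κ * ‖U‖)))) := by
    refine norm_sum_card _ fun i => norm_sum_card _ fun j => (norm_mul_le _ _).trans ?_
    exact mul_le_mul ((norm_inclV_le _ _).trans (norm_Kc_le' hr hUr h1 i j)) (hD i j)
      (norm_nonneg _) (by positivity)
  calc _ ≤ Fintype.card ι * (2 * π * (cS ι κ * ‖U‖))
        + Fintype.card ι * (Fintype.card ι * (2 * cH κ * (2 * π * (cS ι κ * ‖U‖)))) :=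
        add_le_add h3 h4
    _ = _ := by ring

variable (ι κ) in
/-- the constant of the size. -/
def cT : ℝ := Fintype.card ι * (Fintype.card ι * (2 * cH κ))
  + Fintype.card ι * (Fintype.card κ * (Fintype.card κ
    * (2 * (cS ι κ + Fintype.card ι * (2 * cH κ * cS ι κ)))))
  + Fintype.card κ * (Fintype.card κ * (2 * (Fintype.card ι * (2 * π * cS ι κ)
      + Fintype.card ι * (Fintype.card ι * (2 * cH κ * (2 * π * cS ι κ))))))

theorem cT_nonneg : 0 ≤ cT ι κ := by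
  have hc := cS_nonneg (ι := ι) (κ := κ)
  have hH := cH_nonneg (κ := κ)
  have hp := Real.pi_pos
  unfold cT
  positivity

theorem sz_cf_le {r : ℝ} (hr : Sm ι κ r) (hUr : ‖U‖ ≤ r) (h1 : ‖U‖ ≤ 1) :
    (cf e U).sz ≤ cT ι κ * ‖U‖ := by
  unfold Cf.sz cT
  rw [add_mul, add_mul]
  refine add_le_add (add_le_add ?_ ?_) ?_
  · refine (sum_card _ fun i => sum_card _ fun j => (norm_inclV_le _ _).trans
      (norm_Kc_le hr hUr h1 i j)).trans (le_of_eq ?_)
    ring
  · refine (sum_card _ fun i => sum_card _ fun β => sum_card _ fun α => (norm_inclV_le _ _).trans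
      ((norm_add_le _ _).trans (add_le_add (norm_Bc_le hr hUr h1 i β α)
        (norm_Bc_le hr hUr h1 i β α)))).trans (le_of_eq ?_)
    ring
  · refine (sum_card _ fun β => sum_card _ fun α =>
      ((norm_add_le _ _).trans (add_le_add (norm_Zc_le hr hUr h1 β α)
        (norm_Zc_le hr hUr h1 β α)))).trans (le_of_eq ?_)
    ring

end coef

end Crest.Agent.R234.LT1_640
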