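import Crest.Agent.R234.LT1_640

/-!
# Row 234, node F2-LT (helper640), part 2: the coefficients `cf` represent `lopT u`; `ltp : LTP`
-/

set_option autoImplicit false
set_option linter.unusedSectionVars false

open MeasureTheory Complex Filter Real
open scoped ContDiff Topology InnerProductSpace ENNReal NNReal

noncomputable section

namespace Crest.Agent.R234.LT2_640

open Crest.GeometryTopology.Submanifold
open Crest.Agent.R086.Wie Crest.Agent.R234.Mx1_397 Crest.Agent.R234.Mx2_397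
  Crest.Agent.R234.Mx3_397 Crest.Agent.R234.Mx4_397 Crest.Agent.R234.Mx5_397
  Crest.Agent.R234.MG_570 Crest.Agent.R234.Ell1_3 Crest.Agent.R234.LT1_640

/-- rearrangement of the sums. -/
theorem alg {ι κ : Type*} [Fintype ι] [Fintype κ] (k : ι → ι → ℝ) (S : ι → κ → ℝ)
    (T : ι → ι → κ → ℝ) (f : κ → ℝ) (g : ι → κ → ℝ) :
    ∑ i, ∑ α, ((S i α + ∑ j, k i j * S j α) + (S i α + ∑ j, k i j * S j α)) * g i α
      + ∑ α, ((∑ i, T i i α + ∑ i, ∑ j, k i j * T i j α)
        + (∑ i, T i i α + ∑ i, ∑ j, k i j * T i j α)) * f α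
      = 2 * ∑ i, (∑ α, (T i i α * f α + S i α * g i α)
        + ∑ l, k l i * ∑ α, (T l i α * f α + S i α * g l α)) := by
  have h1 : ∑ i, ∑ α, ((S i α + ∑ j, k i j * S j α) + (S i α + ∑ j, k i j * S j α)) * g i α
      = 2 * (∑ i, ∑ α, S i α * g i α + ∑ i, ∑ j, ∑ α, k i j * (S j α * g i α)) := by
    rw [← Finset.sum_add_distrib, Finset.mul_sum]
    refine Finset.sum_congr rfl fun i _ => ?_
    rw [Finset.sum_comm (f := fun j α => k i j * (S j α * g i α)), ← Finset.sum_add_distrib,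
      Finset.mul_sum]
    refine Finset.sum_congr rfl fun α _ => ?_
    have : ∑ j, k i j * (S j α * g i α) = (∑ j, k i j * S j α) * g i α := by
      rw [Finset.sum_mul]
      exact Finset.sum_congr rfl fun j _ => by ring
    rw [this]
    ring
  have h2 : ∑ α, ((∑ i, T i i α + ∑ i, ∑ j, k i j * T i j α)
        + (∑ i, T i i α + ∑ i, ∑ j, k i j * T i j α)) * f α
      = 2 * (∑ i, ∑ α, T i i α * f α + ∑ i, ∑ j, ∑ α, k i j * (T i j α * f α)) := by
    have e1 : ∑ i, ∑ α, T i i α * f α = ∑ α, (∑ i, T i i α) * f α := by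
      rw [Finset.sum_comm]
      exact Finset.sum_congr rfl fun α _ => by rw [Finset.sum_mul]
    have e2 : ∑ i, ∑ j, ∑ α, k i j * (T i j α * f α)
        = ∑ α, (∑ i, ∑ j, k i j * T i j α) * f α := by
      have : ∀ i, ∑ j, ∑ α, k i j * (T i j α * f α) = ∑ α, ∑ j, k i j * (T i j α * f α) :=
        fun i => Finset.sum_comm
      rw [Finset.sum_congr rfl fun i _ => this i, Finset.sum_comm]
      refine Finset.sum_congr rfl fun α _ => ?_
      rw [Finset.sum_mul]
      refine Finset.sum_congr rfl fun i _ => ?_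
      rw [Finset.sum_mul]
      exact Finset.sum_congr rfl fun j _ => by ring
    rw [e1, e2, ← Finset.sum_add_distrib, Finset.mul_sum]
    exact Finset.sum_congr rfl fun α _ => by ring
  have h3 : ∑ i, (∑ α, (T i i α * f α + S i α * g i α)
        + ∑ l, k l i * ∑ α, (T l i α * f α + S i α * g l α))
      = (∑ i, ∑ α, T i i α * f α + ∑ i, ∑ α, S i α * g i α)
        + (∑ i, ∑ j, ∑ α, k i j * (T i j α * f α) + ∑ i, ∑ j, ∑ α, k i j * (S j α * g i α)) := by
    rw [Finset.sum_add_distrib]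
    congr 1
    · rw [← Finset.sum_add_distrib]
      exact Finset.sum_congr rfl fun i _ => Finset.sum_add_distrib
    · rw [Finset.sum_comm, ← Finset.sum_add_distrib]
      refine Finset.sum_congr rfl fun i _ => ?_
      rw [← Finset.sum_add_distrib]
      refine Finset.sum_congr rfl fun j _ => ?_
      rw [Finset.mul_sum, ← Finset.sum_add_distrib]
      exact Finset.sum_congr rfl fun α _ => by ring
  rw [h1, h2, h3]
  ring

theorem Rp.unique {F : Type*} [NormedAddCommGroup F] [InnerProductSpace ℝ F]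
    [FiniteDimensional ℝ F] [MeasurableSpace F] [BorelSpace F] {N : ℕ} {a : X F N} {f g : F → ℝ}
    (h : Rp a f) (h' : Rp a g) (x : F) : f x = g x :=
  Complex.ofReal_injective ((h x).trans (h' x).symm)

section ev

variable {m n : ℕ}

theorem inner_bF (y : Euc n) (β : Fin n) : ⟪EuclideanSpace.basisFun (Fin n) ℝ β, y⟫_ℝ = y β := by
  rw [EuclideanSpace.basisFun_apply, EuclideanSpace.inner_single_left]
  simp

theorem inner_sF (y : Euc n) (β : Fin n) : ⟪y, EuclideanSpace.single β (1 : ℝ)⟫_ℝ = y β := by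
  rw [EuclideanSpace.inner_single_right]
  simp

theorem rep_syn {N : ℕ} {a : XV m n N} {u : Euc m → Euc n} (h : Rep a u) :
    u = syn (EuclideanSpace.basisFun (Fin n) ℝ) a := by
  funext x
  refine onb_ext (EuclideanSpace.basisFun (Fin n) ℝ) fun α => ?_
  rw [inner_syn, ← h x α, Complex.ofReal_re, inner_bF]

theorem rp0 {N : ℕ} {a : XV m n N} {u : Euc m → Euc n} (h : Rep a u) (α : Fin n) :
    Rp (a α) (fun x => u x α) := fun x => h x α

theorem rp1 {N : ℕ} {a : XV m n (N + 1)} {u : Euc m → Euc n} (hs : IsReal a) (h : Rep a u)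
    (v : Euc m) (α : Fin n) : Rp (D v (a α)) (fun x => fderiv ℝ u x v α) := fun x => by
  obtain rfl := rep_syn h
  have h1 : fderiv ℝ (syn (EuclideanSpace.basisFun (Fin n) ℝ) a) x v α
      = (ev (D v (a α)) x).re := by
    rw [← inner_bF, fderiv_syn, inner_syn]
  show ((fderiv ℝ (syn (EuclideanSpace.basisFun (Fin n) ℝ) a) x v α : ℝ) : ℂ) = _
  rw [h1]
  exact ev_real (by rw [D_star, hs]) x

theorem rp2 {N : ℕ} {a : XV m n (N + 2)} {u : Euc m → Euc n} (hs : IsReal a) (h : Rep a u)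
    (v v' : Euc m) (α : Fin n) :
    Rp (D v (D v' (a α))) (fun x => fderiv ℝ (fderiv ℝ u) x v v' α) := fun x => by
  obtain rfl := rep_syn h
  have h1 : fderiv ℝ (fderiv ℝ (syn (EuclideanSpace.basisFun (Fin n) ℝ) a)) x v v' α
      = (ev (D v (D v' (a α))) x).re := by
    rw [← inner_bF, fderiv2_syn, inner_syn]
  show ((fderiv ℝ (fderiv ℝ (syn (EuclideanSpace.basisFun (Fin n) ℝ) a)) x v v' α : ℝ) : ℂ) = _
  rw [h1]
  exact ev_real (by rw [D_star, D_star, hs]) x

local notation "eF" => stdOrthonormalBasis ℝ (Euc m)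

variable {t : ℕ} {U : Fin n → X (Euc m) (t + 1 + 2)} {u : Euc m → Euc n} {r : ℝ}

/-- the entries of `(1 + DuᵀDu)⁻¹ - 1`. -/
def kf (U : Fin n → X (Euc m) (t + 1 + 2)) (i j : Fin (Module.finrank ℝ (Euc m))) (x : Euc m) : ℝ :=
  (ev (Kc (eF) U i j) x).re

theorem rpK (hr : Sm (Fin (Module.finrank ℝ (Euc m))) (Fin n) r) (hUr : ‖U‖ ≤ r)
    (hs : IsReal U) (i j : Fin (Module.finrank ℝ (Euc m))) :
    Rp (Kc (eF) U i j) (kf U i j) := fun x =>
  ev_real (star_Kc hr hUr hs i j) x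

theorem rpP (hs : IsReal U) (h : Rep U u) (i : Fin (Module.finrank ℝ (Euc m))) (α : Fin n) :
    Rp (Pd (eF) U i α) (fun x => fderiv ℝ u x (eF i) α) := (rp1 hs h (eF i) α).incl _

theorem rpQ (hs : IsReal U) (h : Rep U u) (i j : Fin (Module.finrank ℝ (Euc m))) (α : Fin n) :
    Rp (Qd (eF) U i j α) (fun x => fderiv ℝ (fderiv ℝ u) x (eF i) (eF j) α) :=
  rp2 hs h (eF i) (eF j) α

theorem ginv_e (hr : Sm (Fin (Module.finrank ℝ (Euc m))) (Fin n) r) (hUr : ‖U‖ ≤ r)
    (hs : IsReal U) (h : Rep U u) (j : Fin (Module.finrank ℝ (Euc m))) (x : Euc m) :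
    ginv (fderiv ℝ u x) (eF j) = eF j + ∑ i, kf U i j x • eF i := by
  refine ginv_basis (eF) (EuclideanSpace.basisFun (Fin n) ℝ) (fderiv ℝ u x)
    (fun i j => kf U i j x) (fun i j => ?_) j
  have h2 : Kc (eF) U i j = -Hm (eF) U i j - ∑ l, Hm (eF) U i l * Kc (eF) U l j :=
    congrFun (congrFun (qi_eq (hr.card_le (eF) hUr)) i) j
  have hH : ∀ i j, (ev (Hm (eF) U i j) x).re = ∑ α, ⟪EuclideanSpace.basisFun (Fin n) ℝ α,
      fderiv ℝ u x (eF i)⟫_ℝ * ⟪EuclideanSpace.basisFun (Fin n) ℝ α, fderiv ℝ u x (eF j)⟫_ℝ :=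
    fun i j => by
      unfold Hm
      rw [re_ev_sum]
      refine Finset.sum_congr rfl fun α _ => ?_
      rw [re_ev_mul (star_Pd (eF) hs i α), (rpP hs h i α).re, (rpP hs h j α).re, inner_bF,
        inner_bF]
  show (ev (Kc (eF) U i j) x).re = _
  conv_lhs => rw [h2]
  rw [ev_sub, Complex.sub_re, ev_neg, Complex.neg_re, hH, re_ev_sum]
  congr 1
  refine Finset.sum_congr rfl fun l _ => ?_
  rw [re_ev_mul (star_Hm (eF) hs i l), hH]
  rfl

/-- the components of `ginv (Du) Duᵀ b_β`. -/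
def wf (U : Fin n → X (Euc m) (t + 1 + 2)) (u : Euc m → Euc n) (β : Fin n)
    (l : Fin (Module.finrank ℝ (Euc m))) (x : Euc m) : ℝ :=
  fderiv ℝ u x (eF l) β + ∑ p, kf U l p x * fderiv ℝ u x (eF p) β

theorem rpW (hr : Sm (Fin (Module.finrank ℝ (Euc m))) (Fin n) r) (hUr : ‖U‖ ≤ r)
    (hs : IsReal U) (h : Rep U u) (β : Fin n) (l : Fin (Module.finrank ℝ (Euc m))) :
    Rp (Wc (eF) U β l) (wf U u β l) :=
  (rpP hs h l β).add (Rp.sum _ fun p => (rpK hr hUr hs l p).mul (rpP hs h p β))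

theorem w_eq (hr : Sm (Fin (Module.finrank ℝ (Euc m))) (Fin n) r) (hUr : ‖U‖ ≤ r)
    (hs : IsReal U) (h : Rep U u) (β : Fin n) (x : Euc m) :
    ginv (fderiv ℝ u x) (ContinuousLinearMap.adjoint (fderiv ℝ u x)
      (EuclideanSpace.single β (1 : ℝ))) = ∑ l, wf U u β l x • eF l := by
  have h1 : ContinuousLinearMap.adjoint (fderiv ℝ u x) (EuclideanSpace.single β (1 : ℝ))
      = ∑ p, fderiv ℝ u x (eF p) β • eF p := by
    refine onb_ext (eF) fun l => ?_
    rw [ContinuousLinearMap.adjoint_inner_right, inner_sF]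
    have ho : ∀ n, ⟪eF l, eF n⟫_ℝ = if l = n then 1 else 0 :=
      fun n => (orthonormal_iff_ite.1 (eF).orthonormal) l n
    rw [inner_sum]
    simp only [inner_smul_right, ho]
    simp
  rw [h1, map_sum]
  have h2 : ∀ p, ginv (fderiv ℝ u x) (fderiv ℝ u x (eF p) β • eF p)
      = fderiv ℝ u x (eF p) β • eF p + ∑ l, (kf U l p x * fderiv ℝ u x (eF p) β) • eF l :=
    fun p => by
      rw [map_smul, ginv_e hr hUr hs h, smul_add, Finset.smul_sum]
      congr 1
      exact Finset.sum_congr rfl fun l _ => by rw [smul_smul, mul_comm]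
  rw [Finset.sum_congr rfl fun p _ => h2 p, Finset.sum_add_distrib, Finset.sum_comm,
    ← Finset.sum_add_distrib]
  refine Finset.sum_congr rfl fun l _ => ?_
  unfold wf
  rw [add_smul, Finset.sum_smul]

/-- the coefficients of `Psi`. -/
def sf (U : Fin n → X (Euc m) (t + 1 + 2)) (u : Euc m → Euc n) (β : Fin n)
    (j : Fin (Module.finrank ℝ (Euc m))) (α : Fin n) (x : Euc m) : ℝ :=
  ∑ l, wf U u β l x * fderiv ℝ (fderiv ℝ u) x (eF l) (eF j) α

theorem rpS (hr : Sm (Fin (Module.finrank ℝ (Euc m))) (Fin n) r) (hUr : ‖U‖ ≤ r)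
    (hs : IsReal U) (h : Rep U u) (β : Fin n) (j : Fin (Module.finrank ℝ (Euc m))) (α : Fin n) :
    Rp (Sc (eF) U β j α) (sf U u β j α) :=
  Rp.sum _ fun l => (rpW hr hUr hs h β l).mul (rpQ hs h l j α)

theorem inner_psi (hr : Sm (Fin (Module.finrank ℝ (Euc m))) (Fin n) r) (hUr : ‖U‖ ≤ r)
    (hs : IsReal U) (h : Rep U u) (φ : Euc m → Euc n) (β : Fin n)
    (j : Fin (Module.finrank ℝ (Euc m))) (x : Euc m) :
    ⟪eF j, Psi u φ x (EuclideanSpace.single β 1)⟫_ℝ = ∑ α, sf U u β j α x * φ x α := by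
  unfold Psi
  rw [ContinuousLinearMap.adjoint_inner_right, w_eq hr hUr hs h, map_sum, sum_apply, sum_inner]
  have h1 : ∀ l, ⟪fderiv ℝ (fderiv ℝ u) x (wf U u β l x • eF l) (eF j), φ x⟫_ℝ
      = ∑ α, (wf U u β l x * fderiv ℝ (fderiv ℝ u) x (eF l) (eF j) α) * φ x α := fun l => by
    rw [map_smul, smul_apply, real_inner_smul_left, PiLp.inner_apply, Finset.mul_sum]
    refine Finset.sum_congr rfl fun α _ => ?_
    simp only [RCLike.inner_apply, conj_trivial]
    ring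
  rw [Finset.sum_congr rfl fun l _ => h1 l, Finset.sum_comm]
  refine Finset.sum_congr rfl fun α _ => ?_
  unfold sf
  rw [Finset.sum_mul]

theorem psi_eq (hr : Sm (Fin (Module.finrank ℝ (Euc m))) (Fin n) r) (hUr : ‖U‖ ≤ r)
    (hs : IsReal U) (h : Rep U u) (φ : Euc m → Euc n) (β : Fin n) (x : Euc m) :
    Psi u φ x (EuclideanSpace.single β 1) = ∑ j, (∑ α, sf U u β j α x * φ x α) • eF j := by
  rw [← (eF).sum_repr' (Psi u φ x (EuclideanSpace.single β 1))]
  exact Finset.sum_congr rfl fun j _ => by rw [inner_psi hr hUr hs h]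

theorem inner_dpsi (hr : Sm (Fin (Module.finrank ℝ (Euc m))) (Fin n) r) (hUr : ‖U‖ ≤ r)
    (hs : IsReal U) (h : Rep U u) {b : XV m n 2} {φ : Euc m → Euc n} (hb : IsReal b)
    (hφ : Rep b φ) (β : Fin n) (j : Fin (Module.finrank ℝ (Euc m))) (x v : Euc m) :
    ⟪fderiv ℝ (fun x => Psi u φ x (EuclideanSpace.single β 1)) x v, eF j⟫_ℝ
      = ∑ α, (fderiv ℝ (sf U u β j α) x v * φ x α + sf U u β j α x * fderiv ℝ φ x v α) := by
  have hd : ∀ j, HasFDerivAt (fun x => ∑ α, sf U u β j α x * φ x α)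
      (∑ α, (sf U u β j α x • fderiv ℝ (fun x => φ x α) x
        + φ x α • fderiv ℝ (sf U u β j α) x)) x := fun j => by
    refine HasFDerivAt.fun_sum fun α _ => ?_
    exact ((rpS hr hUr hs h β j α).diff x).hasFDerivAt.mul
      (((rp0 hφ α).diff (N := 1)) x).hasFDerivAt
  have he : (fun x => Psi u φ x (EuclideanSpace.single β 1))
      = fun x => ∑ j, (∑ α, sf U u β j α x * φ x α) • eF j := by
    funext x
    exact psi_eq hr hUr hs h φ β x
  have hD : HasFDerivAt (fun x => ∑ j, (∑ α, sf U u β j α x * φ x α) • eF j)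
      (∑ j, (∑ α, (sf U u β j α x • fderiv ℝ (fun x => φ x α) x
        + φ x α • fderiv ℝ (sf U u β j α) x)).smulRight (eF j)) x :=
    HasFDerivAt.fun_sum fun j _ => (hd j).smul_const (eF j)
  rw [he, hD.fderiv, sum_apply, sum_inner]
  have ho : ∀ l, ⟪eF l, eF j⟫_ℝ = if l = j then 1 else 0 :=
    fun l => (orthonormal_iff_ite.1 (eF).orthonormal) l j
  simp only [ContinuousLinearMap.smulRight_apply, real_inner_smul_left, ho]
  rw [Finset.sum_eq_single j (fun l _ hl => by rw [if_neg hl, mul_zero])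
    (fun hj => absurd (Finset.mem_univ j) hj), if_pos rfl, mul_one, sum_apply]
  refine Finset.sum_congr rfl fun α _ => ?_
  have h3 : fderiv ℝ (fun x => φ x α) x v = fderiv ℝ φ x v α :=
    Rp.unique ((rp0 hφ α).fd (N := 1) v) (rp1 (N := 1) hb hφ v α) x
  rw [add_apply, smul_apply, smul_apply, smul_eq_mul, smul_eq_mul, h3]
  ring

theorem lopT_eq (hr : Sm (Fin (Module.finrank ℝ (Euc m))) (Fin n) r) (hUr : ‖U‖ ≤ r)
    (hs : IsReal U) (h : Rep U u) {b : XV m n 2} {φ : Euc m → Euc n} (hb : IsReal b)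
    (hφ : Rep b φ) (β : Fin n) (x : Euc m) :
    lopT u φ x (EuclideanSpace.single β 1)
      = (∑ i, fderiv ℝ (fderiv ℝ φ) x (eF i) (eF i) β
        + ∑ i, ∑ j, kf U i j x * fderiv ℝ (fderiv ℝ φ) x (eF i) (eF j) β)
        + 2 * ∑ i, (∑ α, (fderiv ℝ (sf U u β i α) x (eF i) * φ x α
            + sf U u β i α x * fderiv ℝ φ x (eF i) α)
          + ∑ l, kf U l i x * ∑ α, (fderiv ℝ (sf U u β i α) x (eF l) * φ x α
            + sf U u β i α x * fderiv ℝ φ x (eF l) α)) := by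
  unfold lopT
  congr 1
  · have h1 : ∀ j, ⟪fderiv ℝ (fderiv ℝ φ) x (ginv (fderiv ℝ u x) (eF j)) (eF j),
        EuclideanSpace.single β (1 : ℝ)⟫_ℝ = fderiv ℝ (fderiv ℝ φ) x (eF j) (eF j) β
        + ∑ i, kf U i j x * fderiv ℝ (fderiv ℝ φ) x (eF i) (eF j) β := fun j => by
      rw [ginv_e hr hUr hs h, map_add, map_sum, add_apply, inner_add_left, inner_sF, sum_apply,
        sum_inner]
      congr 1
      refine Finset.sum_congr rfl fun i _ => ?_
      rw [map_smul, smul_apply, real_inner_smul_left, inner_sF]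
    rw [Finset.sum_congr rfl fun j _ => h1 j, Finset.sum_add_distrib]
    congr 1
    exact Finset.sum_comm
  · congr 1
    refine Finset.sum_congr rfl fun i _ => ?_
    rw [ginv_e hr hUr hs h, map_add, map_sum, inner_add_left, sum_inner,
      inner_dpsi hr hUr hs h hb hφ]
    congr 1
    refine Finset.sum_congr rfl fun l _ => ?_
    rw [map_smul, real_inner_smul_left, inner_dpsi hr hUr hs h hb hφ]

theorem rpL (hr : Sm (Fin (Module.finrank ℝ (Euc m))) (Fin n) r) (hUr : ‖U‖ ≤ r)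
    (hs : IsReal U) (h : Rep U u) {b : XV m n 2} {φ : Euc m → Euc n} (hb : IsReal b)
    (hφ : Rep b φ) (β : Fin n) :
    Rp (Lop (eF) (cf (eF) U) b β)
      (fun x => ∑ i, fderiv ℝ (fderiv ℝ φ) x (eF i) (eF i) β
        + ∑ i, ∑ j, kf U i j x * fderiv ℝ (fderiv ℝ φ) x (eF i) (eF j) β
        + ∑ i, ∑ α, ((sf U u β i α x + ∑ j, kf U i j x * sf U u β j α x)
          + (sf U u β i α x + ∑ j, kf U i j x * sf U u β j α x)) * fderiv ℝ φ x (eF i) α
        + ∑ α, ((∑ i, fderiv ℝ (sf U u β i α) x (eF i)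
            + ∑ i, ∑ j, kf U i j x * fderiv ℝ (sf U u β j α) x (eF i))
          + (∑ i, fderiv ℝ (sf U u β i α) x (eF i)
            + ∑ i, ∑ j, kf U i j x * fderiv ℝ (sf U u β j α) x (eF i))) * φ x α) := by
  have hS := rpS hr hUr hs h β
  have hK := rpK hr hUr hs
  have hB : ∀ i α, Rp (Bc (eF) U i β α)
      (fun x => sf U u β i α x + ∑ j, kf U i j x * sf U u β j α x) := fun i α =>
    (hS i α).add (Rp.sum _ fun j => (hK i j).mul (hS j α))
  have hZ : ∀ α, Rp (Zc (eF) U β α) (fun x => ∑ i, fderiv ℝ (sf U u β i α) x (eF i)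
      + ∑ i, ∑ j, kf U i j x * fderiv ℝ (sf U u β j α) x (eF i)) := fun α =>
    (Rp.sum _ fun i => (hS i α).fd (eF i)).add (Rp.sum _ fun i => Rp.sum _ fun j =>
      ((hK i j).incl _).mul ((hS j α).fd (eF i)))
  unfold Lop
  refine Rp.add (Rp.add (Rp.add ?_ ?_) ?_) ?_
  · exact Rp.sum _ fun i => rp2 (N := 0) hb hφ (eF i) (eF i) β
  · exact Rp.sum _ fun i => Rp.sum _ fun j =>
      (((hK i j).incl _).incl _).mul (rp2 (N := 0) hb hφ (eF i) (eF j) β)
  · exact Rp.sum _ fun i => Rp.sum _ fun α =>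
      ((((hB i α).add (hB i α)).incl _).incl _).mul ((rp1 (N := 1) hb hφ (eF i) α).incl _)
  · exact Rp.sum _ fun α => (((hZ α).add (hZ α)).incl _).mul ((rp0 hφ α).incl _)

/-- **F2-LT, pointwise**. -/
theorem ev_Lop (hr : Sm (Fin (Module.finrank ℝ (Euc m))) (Fin n) r) (hUr : ‖U‖ ≤ r)
    (hs : IsReal U) (h : Rep U u) {b : XV m n 2} {φ : Euc m → Euc n} (hb : IsReal b)
    (hφ : Rep b φ) (β : Fin n) (x : Euc m) :
    ev (Lop (eF) (cf (eF) U) b β) x
      = ((lopT u φ x (EuclideanSpace.single β 1) : ℝ) : ℂ) := by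
  rw [← rpL hr hUr hs h hb hφ β x, lopT_eq hr hUr hs h hb hφ β x,
    ← alg (fun i j => kf U i j x) (fun i α => sf U u β i α x)
      (fun i j α => fderiv ℝ (sf U u β j α) x (eF i)) (fun α => φ x α)
      (fun i α => fderiv ℝ φ x (eF i) α)]
  congr 1
  ring

end ev

/-- **node F2-LT**. -/
theorem ltp : LTP := by
  intro m n t
  obtain ⟨r, hr0, hr1, hr⟩ := exists_Sm (Fin (Module.finrank ℝ (Euc m))) (Fin n)
  have hc := cT_nonneg (ι := Fin (Module.finrank ℝ (Euc m))) (κ := Fin n)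
  refine ⟨r, cT (Fin (Module.finrank ℝ (Euc m))) (Fin n) + 1, hr0, by linarith,
    fun a u hs ha h => ?_⟩
  have h1 : ‖a‖ ≤ 1 := ha.trans hr1
  refine ⟨cf (t := t) (stdOrthonormalBasis ℝ (Euc m)) a, real_cf hr ha hs, ?_,
    fun b φ hb hφ x β => ev_Lop hr ha hs h hb hφ β x⟩
  refine (sz_cf_le hr ha h1).trans ?_
  exact mul_le_mul_of_nonneg_right (by linarith) (norm_nonneg _)

end Crest.Agent.R234.LT2_640
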