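import Crest.Agent.R234.La1_300
import Crest.Agent.R234.Pers3_540
import Crest.Agent.R234.N5a_372

/-! Row 234, VF-LOGAS (task 1612, helper300), part 2: the limit of approximately stationary
varifolds over a cylinder with mass bound, lower density, `lM → 0`, energy bounds. -/

set_option autoImplicit false
set_option linter.unusedSectionVars false

open MeasureTheory Filter Topology Set Metric
open Crest.GeometryTopology.Submanifold Crest.Agent.R234.Vf_884 Crest.Agent.R234.Ar_870
open Crest.Agent.R234.Vc_164 Crest.Agent.R234.Cp914 Crest.Agent.R234.Pers_540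
open Crest.Agent.R234.N5_372 Crest.Agent.R234.Cy_870
open scoped ENNReal NNReal InnerProductSpace

noncomputable section

namespace Crest.Agent.R234.La_300

variable {m n k : ℕ} {π : Euc k →L[ℝ] Euc m}

/-- the open cylinder over the ball of radius `R`. -/
abbrev cy (π : Euc k →L[ℝ] Euc m) (R : ℝ) : Set (Euc k) := {z | ‖π z‖ < R}

theorem isOpen_cy (π : Euc k →L[ℝ] Euc m) (R : ℝ) : IsOpen (cy π R) :=
  isOpen_lt π.continuous.norm continuous_const

/-- mass bound over the concentric balls of the base of radius `1 ≤ r ≤ R`. -/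
def MassC (π : Euc k →L[ℝ] Euc m) (C R : ℝ) (V : Measure (Euc k × L k)) : Prop :=
  ∀ r : ℝ, 1 ≤ r → r ≤ R → V (ov π (ball 0 r)) ≤ ENNReal.ofReal (C * r ^ m)

theorem hp_mem_G (hπ : IsCo π) : AS_456.hp π ∈ G m k := by
  refine ⟨?_, ?_, ?_⟩
  · ext1 x
    change ContinuousLinearMap.adjoint π (π (ContinuousLinearMap.adjoint π (π x))) =
      ContinuousLinearMap.adjoint π (π x)
    rw [show π (ContinuousLinearMap.adjoint π (π x)) = π x from
      congrArg (fun T : Euc m →L[ℝ] Euc m => T (π x)) hπ]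
  · rw [ContinuousLinearMap.isSelfAdjoint_iff', AS_456.hp, ContinuousLinearMap.adjoint_comp,
      ContinuousLinearMap.adjoint_adjoint]
  · unfold AS_456.hp
    rw [tr_cyc]
    have h1 : π ∘L ContinuousLinearMap.adjoint π = ContinuousLinearMap.id ℝ (Euc m) := hπ
    rw [h1, tr_one]

theorem norm_hp (hπ : IsCo π) (x : Euc k) : ‖AS_456.hp π x‖ = ‖π x‖ := norm_adjoint_co hπ (π x)

/-- tilt energy of a part. -/
def eB (π : Euc k →L[ℝ] Euc m) (V : Measure (Euc k × L k)) (A : Set (Euc k)) : ℝ≥0∞ :=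
  ∫⁻ p in A ×ˢ univ, ENNReal.ofReal (tl π p.2) ∂V

/-- the closed box `a + Bc`. -/
def bxc (π : Euc k →L[ℝ] Euc m) (a : Euc k) (r : ℝ) : Set (Euc k) :=
  {x | x - a ∈ Bc (AS_456.hp π) r}

/-- the trace along `S` is continuous in the projection on `S`. -/
theorem eL_eq (π : Euc k →L[ℝ] Euc m) (S : Submodule ℝ (Euc m)) (P : L k) :
    eL π S P = Module.finrank ℝ S - tr (S.starProjection ∘L Shh π P) := by
  set b := stdOrthonormalBasis ℝ S with hb
  have h1 : ∀ i, ‖(b i : Euc m)‖ = 1 := fun i => by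
    rw [← Submodule.coe_norm]; exact b.norm_eq_one i
  have h2 : tr (S.starProjection ∘L Shh π P) = ∑ i, ⟪(b i : Euc m), Shh π P (b i : Euc m)⟫_ℝ := by
    have h3 : S.starProjection = ∑ i, ((innerSL ℝ (b i : Euc m)).smulRight (b i : Euc m)) := by
      rw [b.starProjection_eq_sum_rankOne]
      refine Finset.sum_congr rfl fun i _ => ?_
      ext1 v
      simp [InnerProductSpace.rankOne_apply]
    have h4 : S.starProjection ∘L Shh π P =
        ∑ i, ((innerSL ℝ (b i : Euc m)).smulRight (b i : Euc m)) ∘L Shh π P := by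
      conv_lhs => rw [h3]
      ext1 v
      simp
    rw [h4, map_sum]
    refine Finset.sum_congr rfl fun i _ => ?_
    rw [tr_smulRight_comp]
    rfl
  unfold eL
  rw [h2]
  have h5 : ∀ i, qf π P (b i : Euc m) = 1 - ⟪(b i : Euc m), Shh π P (b i : Euc m)⟫_ℝ := by
    intro i
    unfold qf
    rw [h1 i]; norm_num
  calc ∑ i, qf π P (b i : Euc m) = ∑ i, (1 - ⟪(b i : Euc m), Shh π P (b i : Euc m)⟫_ℝ) :=
        Finset.sum_congr rfl fun i _ => h5 i
    _ = _ := by rw [Finset.sum_sub_distrib]; simp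

theorem norm_Shh_le (hπ : IsCo π) {P : L k} (hP : P ∈ G m k) : ‖Shh π P‖ ≤ 1 := by
  refine ContinuousLinearMap.opNorm_le_bound _ zero_le_one fun v => ?_
  change ‖π (P (ContinuousLinearMap.adjoint π v))‖ ≤ 1 * ‖v‖
  rw [one_mul]
  have h1 : ∀ z : Euc k, ‖π z‖ ≤ ‖z‖ := by
    intro z
    have h := norm_hp_le hπ
    have h2 : ‖π z‖ = ‖AS_456.hp π z‖ := (norm_adjoint_co hπ (π z)).symm
    rw [h2]
    calc ‖AS_456.hp π z‖ ≤ ‖AS_456.hp π‖ * ‖z‖ := (AS_456.hp π).le_opNorm z
      _ ≤ 1 * ‖z‖ := by gcongr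
      _ = ‖z‖ := one_mul _
  refine (h1 _).trans ((G_norm_apply_le hP _).trans ?_)
  rw [norm_adjoint_co hπ]

/-- Lipschitz dependence of `eL` on the projection (same dimension). -/
theorem abs_eL_sub_le (hπ : IsCo π) {P : L k} (hP : P ∈ G m k) (S S' : Submodule ℝ (Euc m))
    (hd : Module.finrank ℝ S = Module.finrank ℝ S') :
    |eL π S P - eL π S' P| ≤ ‖(tr : L m →L[ℝ] ℝ)‖ * ‖S.starProjection - S'.starProjection‖ := by
  rw [eL_eq, eL_eq, hd]
  have h1 : (Module.finrank ℝ S' : ℝ) - tr (S.starProjection ∘L Shh π P) -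
      (Module.finrank ℝ S' - tr (S'.starProjection ∘L Shh π P)) =
      -tr ((S.starProjection - S'.starProjection) ∘L Shh π P) := by
    rw [ContinuousLinearMap.sub_comp, map_sub]; ring
  rw [h1, abs_neg]
  refine ((tr : L m →L[ℝ] ℝ).le_opNorm _).trans ?_
  gcongr
  calc ‖(S.starProjection - S'.starProjection) ∘L Shh π P‖
      ≤ ‖S.starProjection - S'.starProjection‖ * ‖Shh π P‖ := ContinuousLinearMap.opNorm_comp_le _ _
    _ ≤ ‖S.starProjection - S'.starProjection‖ * 1 := by gcongr; exact norm_Shh_le hπ hP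
    _ = _ := mul_one _

/-- subspaces of fixed dimension are compact. -/
theorem exists_limit_subspace {ι : Type*} (F : Ultrafilter ι) {d : ℕ} (S : ι → Submodule ℝ (Euc m))
    (hS : ∀ i, Module.finrank ℝ (S i) = d) :
    ∃ S₀ : Submodule ℝ (Euc m), Module.finrank ℝ S₀ = d ∧
      Tendsto (fun i => ‖(S i).starProjection - S₀.starProjection‖) F (𝓝 0) := by
  have h1 : ∀ i, (S i).starProjection ∈ G d m := fun i => starProjection_mem_G (S i) (hS i)
  obtain ⟨P, hP, hlim⟩ := (isCompact_G d m).ultrafilter_le_nhds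
    (F.map fun i => (S i).starProjection) (by
      rw [Ultrafilter.coe_map, le_principal_iff, mem_map]
      exact Filter.univ_mem' h1)
  have hlim' : Tendsto (fun i => (S i).starProjection) F (𝓝 P) := hlim
  refine ⟨LinearMap.range P.toLinearMap, ?_, ?_⟩
  · exact finrank_range hP
  · have h2 : (LinearMap.range P.toLinearMap).starProjection = P := by
      ext1 x
      refine Submodule.eq_starProjection_of_mem_of_inner_eq_zero ⟨x, rfl⟩ ?_
      rintro u ⟨v, rfl⟩
      change ⟪x - P x, P v⟫_ℝ = 0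
      rw [inner_sub_left, ← G_symm hP x v, ← G_symm hP (P x) v, G_idem_apply hP, sub_self]
    rw [h2]
    have h3 : Tendsto (fun i => (S i).starProjection - P) F (𝓝 0) := by
      simpa using hlim'.sub_const P
    simpa using h3.norm

theorem ov_eq (π : Euc k →L[ℝ] Euc m) (A : Set (Euc m)) :
    ov π A = (π ⁻¹' A) ×ˢ (univ : Set (L k)) := by
  ext p; simp [ov]

theorem ov_ball (π : Euc k →L[ℝ] Euc m) (R : ℝ) :
    ov π (ball 0 R) = cy π R ×ˢ (univ : Set (L k)) := by
  ext p; simp [ov]

theorem isOpen_ov (π : Euc k →L[ℝ] Euc m) {A : Set (Euc m)} (hA : IsOpen A) :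
    IsOpen (ov π A) := by
  rw [ov_eq]
  exact (hA.preimage π.continuous).prod isOpen_univ

/-- integrals of nonnegative weights against cut-offs. -/
theorem lintegral_cut {V : Measure (Euc k × L k)} {U : Set (Euc k)} (hc : ∀ᵐ p ∂V, p.2 ∈ G m k)
    (hfin : ∀ K : Set (Euc k), IsCompact K → K ⊆ U → V (K ×ˢ Set.univ) < ⊤)
    {f : Euc k → ℝ} (hf : Continuous f) (hfc : HasCompactSupport f) (hfU : tsupport f ⊆ U)
    (hf0 : ∀ x, 0 ≤ f x) {g : L k → ℝ} (hg : Continuous g) (hg0 : ∀ P ∈ G m k, 0 ≤ g P) :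
    ENNReal.ofReal (∫ p, f p.1 * g p.2 ∂V) = ∫⁻ p, ENNReal.ofReal (f p.1 * g p.2) ∂V := by
  rw [ofReal_integral_eq_lintegral_ofReal]
  · refine integrable_of_cont (K := tsupport f) hc hfc (hfin _ hfc hfU)
      ((hf.comp continuous_fst).mul (hg.comp continuous_snd)) fun p hp => ?_
    rw [image_eq_zero_of_notMem_tsupport hp, zero_mul]
  · filter_upwards [hc] with p hp
    exact mul_nonneg (hf0 _) (hg0 _ hp)

/-- weighted measure of compact sets from integrals against cut-offs. -/
theorem exists_cut_lt {V : Measure (Euc k × L k)} {U W : Set (Euc k)} (hW : IsOpen W)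
    (hWU : W ⊆ U) (hc : ∀ᵐ p ∂V, p.2 ∈ G m k)
    (hfin : ∀ K : Set (Euc k), IsCompact K → K ⊆ U → V (K ×ˢ Set.univ) < ⊤)
    {g : L k → ℝ} (hg : Continuous g) (hg0 : ∀ P ∈ G m k, 0 ≤ g P) {a : ℝ≥0∞}
    (ha : a < ∫⁻ p in W ×ˢ univ, ENNReal.ofReal (g p.2) ∂V) :
    ∃ f : Euc k → ℝ, Continuous f ∧ HasCompactSupport f ∧ tsupport f ⊆ W ∧ (∀ x, 0 ≤ f x) ∧
      (∀ x, f x ≤ 1) ∧ a < ENNReal.ofReal (∫ p, f p.1 * g p.2 ∂V) := by
  have hWo : IsOpen (W ×ˢ (univ : Set (L k))) := hW.prod isOpen_univ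
  have h1 : ∫⁻ p in W ×ˢ univ, ENNReal.ofReal (g p.2) ∂V =
      (V.withDensity fun p => ENNReal.ofReal (g p.2)) (W ×ˢ univ) := by
    rw [withDensity_apply _ hWo.measurableSet]
  rw [h1] at ha
  obtain ⟨K, hKW, hK, hlt⟩ := exists_compact_lt _ hWo ha
  have hK1 : IsCompact (Prod.fst '' K) := hK.image continuous_fst
  have hK1W : Prod.fst '' K ⊆ W := by
    rintro _ ⟨p, hp, rfl⟩; exact (hKW hp).1
  obtain ⟨f, hf, hfc, hfs, hf1, hf0, hfle⟩ := exists_cut hK1 hW hK1W
  refine ⟨f, hf, hfc, hfs, hf0, hfle, hlt.trans_le ?_⟩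
  rw [lintegral_cut hc hfin hf hfc (hfs.trans hWU) hf0 hg hg0,
    withDensity_apply _ hK.measurableSet, ← lintegral_indicator hK.measurableSet]
  refine lintegral_mono fun p => ?_
  by_cases hp : p ∈ K
  · rw [indicator_of_mem hp, hf1 _ ⟨p, hp, rfl⟩, one_mul]
  · rw [indicator_of_notMem hp]; exact bot_le

/-- **the limit.** -/
theorem limit (hπ : IsCo π) {R M C c ε B : ℝ} (hR : 3 < R) (hMR : M ≤ R)
    {V : ℕ → Measure (Euc k × L k)} {w : ℕ → ℝ} (hw : Tendsto w atTop (𝓝 0))
    (happ : ∀ j, App m k (w j) (cy π R) (V j)) (hmass : ∀ j, MassC π C R (V j))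
    (hlow : ∀ j, LowD m (cy π R) c (V j)) (S : ℕ → Submodule ℝ (Euc m)) {d : ℕ}
    (hS : ∀ j, Module.finrank ℝ (S j) = d)
    (hlM : Tendsto (fun j => lM (V j) π (S j) (ball 0 R)) atTop (𝓝 0))
    {a : ℕ → Euc k} (ha : ∀ j, AS_456.vp π (a j) = 0) (ha1 : ∀ j, ‖a j‖ ≤ 1)
    (hbox : ∀ j, ENNReal.ofReal ε ≤ eB π (V j) (bxc π (a j) 1))
    (htop : ∀ j, eM (V j) π (ball 0 M) ≤ ENNReal.ofReal B) :
    ∃ (V₀ : Measure (Euc k × L k)) (S₀ : Submodule ℝ (Euc m)) (a₀ : Euc k),
      V₀ (cy π R ×ˢ univ)ᶜ = 0 ∧ Stat m k (cy π R) V₀ ∧ MassC π C R V₀ ∧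
      LowD m (cy π R) c V₀ ∧ Module.finrank ℝ S₀ = d ∧ lM V₀ π S₀ (ball 0 R) = 0 ∧
      AS_456.vp π a₀ = 0 ∧ ‖a₀‖ ≤ 1 ∧ ENNReal.ofReal ε ≤ eB π V₀ (bxc π a₀ 1) ∧
      eM V₀ π (ball 0 M) ≤ ENNReal.ofReal B := by
  have hR0 : 0 < R := by linarith
  set 𝒰 : Ultrafilter ℕ := Ultrafilter.of atTop with h𝒰def
  have h𝒰 : (𝒰 : Filter ℕ) ≤ atTop := Ultrafilter.of_le atTop
  have hopen := isOpen_cy π R
  have hcyov : ∀ j, V j (cy π R ×ˢ univ) ≤ ENNReal.ofReal (C * R ^ m) := by
    intro j
    rw [← ov_ball]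
    exact hmass j R (by linarith) le_rfl
  obtain ⟨V₀, hV₀, hconv⟩ := exists_vfconv hopen 𝒰 V
    (Eventually.of_forall fun j => (happ j).conc) (by
      intro K hK hKc
      exact ⟨C * R ^ m, Eventually.of_forall fun j =>
        (measure_mono (prod_mono hK subset_rfl)).trans (hcyov j)⟩)
  obtain ⟨S₀, hS₀, hSlim⟩ := exists_limit_subspace 𝒰 S hS
  have hstat : Stat m k (cy π R) V₀ :=
    stat_of_app hconv hopen (hw.mono_left h𝒰) (Eventually.of_forall happ)
  have htlc : Continuous (tl π : L k → ℝ) := measurable_tl π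
  have htl0 : ∀ P ∈ G m k, 0 ≤ tl π P := fun P hP => tl_nonneg hπ (isPr_of_G hP)
  -- convergence against cut-offs
  have hlim : ∀ {f : Euc k → ℝ}, Continuous f → HasCompactSupport f → tsupport f ⊆ cy π R →
      ∀ {g : L k → ℝ}, Continuous g →
      Tendsto (fun j => ∫ p, f p.1 * g p.2 ∂(V j)) 𝒰 (𝓝 (∫ p, f p.1 * g p.2 ∂V₀)) := by
    intro f hf hfc hfs g hg
    refine hconv.tendsto hopen ((hf.comp continuous_fst).mul (hg.comp continuous_snd)) hfc hfs ?_
    intro x hx P
    simp only [image_eq_zero_of_notMem_tsupport hx, zero_mul]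
  have hmassV : MassC π C R V₀ := by
    intro r hr hrR
    by_contra hcon
    rw [not_le] at hcon
    have h1 := hconv.conv.lt_of_isOpen (isOpen_ov π isOpen_ball)
      (show ov π (ball 0 r) ⊆ cy π R ×ˢ univ by
        rw [← ov_ball]; exact fun p hp => ball_subset_ball hrR hp) hcon
    obtain ⟨j, hj⟩ := h1.exists
    exact absurd (hmass j r hr hrR) (not_le.2 hj)
  obtain ⟨a₀, ha₀mem, halim⟩ := (isCompact_closedBall (0 : Euc k) 1).ultrafilter_le_nhds
    (𝒰.map a) (by
      rw [Ultrafilter.coe_map, le_principal_iff, mem_map]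
      exact Filter.univ_mem' fun j => by
        rw [mem_preimage, mem_closedBall_zero_iff]; exact ha1 j)
  have halim' : Tendsto a 𝒰 (𝓝 a₀) := halim
  have ha₀ : AS_456.vp π a₀ = 0 := by
    have h1 : Tendsto (fun j => AS_456.vp π (a j)) 𝒰 (𝓝 (AS_456.vp π a₀)) :=
      ((AS_456.vp π).continuous.tendsto _).comp halim'
    simp only [ha] at h1
    exact (tendsto_nhds_unique h1 tendsto_const_nhds)
  refine ⟨V₀, S₀, a₀, hV₀, hstat, hmassV, ?_, hS₀, ?_, ha₀,
    by rwa [mem_closedBall_zero_iff] at ha₀mem, ?_, ?_⟩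
  · -- lower density
    intro z hz r hr hsub
    have hfst := hconv.fst hopen
    -- smaller radii
    have key : ∀ ρ, 0 < ρ → ρ < r → ENNReal.ofReal (c * ρ ^ m) ≤ V₀ (ball z r ×ˢ univ) := by
      intro ρ hρ hρr
      set r' := (ρ + r) / 2 with hr'
      have h1 : 0 < V₀.map Prod.fst (ball z (r' - ρ)) := by
        rw [map_fst_apply V₀ measurableSet_ball]
        exact hz _ (by rw [hr']; linarith)
      have h2 : ∀ᶠ j in (𝒰 : Filter ℕ), 0 < (V j).map Prod.fst (ball z (r' - ρ)) :=
        hfst.lt_of_isOpen isOpen_ball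
          ((ball_subset_ball (by rw [hr']; linarith)).trans hsub) h1
      have h3 : ∀ᶠ j in (𝒰 : Filter ℕ), ENNReal.ofReal (c * ρ ^ m) ≤
          (V j).map Prod.fst (closedBall z r') := by
        filter_upwards [h2] with j hj
        rw [map_fst_apply (V j) measurableSet_ball] at hj
        obtain ⟨z', hz', hsp⟩ := exists_sp hj.ne'
        have h4 : ball z' ρ ⊆ closedBall z r' := by
          intro y hy
          rw [mem_ball] at hy hz'
          rw [mem_closedBall]
          calc dist y z ≤ dist y z' + dist z' z := dist_triangle _ _ _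
            _ ≤ ρ + (r' - ρ) := by gcongr
            _ = r' := by ring
        have h5 : closedBall z r' ⊆ ball z r :=
          closedBall_subset_ball (by rw [hr']; linarith)
        have h6 := hlow j z' hsp ρ hρ ((h4.trans h5).trans hsub)
        rw [map_fst_apply (V j) isClosed_closedBall.measurableSet]
        exact h6.trans (measure_mono (prod_mono h4 subset_rfl))
      have h5 : closedBall z r' ⊆ ball z r := closedBall_subset_ball (by rw [hr']; linarith)
      by_contra hcon
      rw [not_le] at hcon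
      have h6 : V₀.map Prod.fst (closedBall z r') < ENNReal.ofReal (c * ρ ^ m) := by
        rw [map_fst_apply V₀ isClosed_closedBall.measurableSet]
        exact lt_of_le_of_lt (measure_mono (prod_mono h5 subset_rfl)) hcon
      have h7 := hfst.lt_of_isCompact hopen (isCompact_closedBall z r') (h5.trans hsub) h6
      obtain ⟨j, hj1, hj2⟩ := (h3.and h7).exists
      exact absurd hj1 (not_le.2 hj2)
    have hcont : Tendsto (fun ρ : ℝ => ENNReal.ofReal (c * ρ ^ m)) (𝓝[<] r)
        (𝓝 (ENNReal.ofReal (c * r ^ m))) := by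
      have : Continuous fun ρ : ℝ => ENNReal.ofReal (c * ρ ^ m) :=
        ENNReal.continuous_ofReal.comp (by fun_prop)
      exact this.continuousAt.tendsto.mono_left nhdsWithin_le_nhds
    refine le_of_tendsto hcont ?_
    filter_upwards [Ioo_mem_nhdsLT hr] with ρ hρ
    exact key ρ hρ.1 hρ.2
  · -- `lM = 0`
    have heLc : ∀ S, Continuous (eL π S : L k → ℝ) := continuous_eL π
    have heL0 : ∀ (S : Submodule ℝ (Euc m)), ∀ P ∈ G m k, 0 ≤ eL π S P := fun S P hP =>
      eL_nonneg hπ (isPr_of_G hP) S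
    by_contra hcon
    have h0 : 0 < ∫⁻ p in cy π R ×ˢ univ, ENNReal.ofReal (eL π S₀ p.2) ∂V₀ := by
      rw [← ov_ball, ← bm_apply V₀ π (eL π S₀) measurableSet_ball]
      exact pos_iff_ne_zero.2 hcon
    obtain ⟨f, hf, hfc, hfs, hf0, hf1, hlt⟩ := exists_cut_lt hopen subset_rfl hstat.conc hstat.fin
      (heLc S₀) (heL0 S₀) h0
    set c₁ : ℝ := ‖(tr : L m →L[ℝ] ℝ)‖ with hc₁
    have hbd : ∀ j, ENNReal.ofReal (∫ p, f p.1 * eL π S₀ p.2 ∂(V j)) ≤
        lM (V j) π (S j) (ball 0 R) +
          ENNReal.ofReal (c₁ * ‖(S j).starProjection - S₀.starProjection‖) *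
            ENNReal.ofReal (C * R ^ m) := by
      intro j
      rw [lintegral_cut (happ j).conc (happ j).fin hf hfc hfs hf0 (heLc S₀) (heL0 S₀)]
      have e1 : lM (V j) π (S j) (ball 0 R) =
          ∫⁻ p in cy π R ×ˢ univ, ENNReal.ofReal (eL π (S j) p.2) ∂(V j) := by
        rw [lM, bm_apply _ _ _ measurableSet_ball, ov_ball]
      have hmeas : MeasurableSet (cy π R ×ˢ (univ : Set (L k))) :=
        (hopen.prod isOpen_univ).measurableSet
      calc ∫⁻ p, ENNReal.ofReal (f p.1 * eL π S₀ p.2) ∂(V j)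
          ≤ ∫⁻ p, (cy π R ×ˢ (univ : Set (L k))).indicator (fun p =>
              ENNReal.ofReal (eL π (S j) p.2) +
                ENNReal.ofReal (c₁ * ‖(S j).starProjection - S₀.starProjection‖)) p ∂(V j) := by
            refine lintegral_mono_ae ?_
            filter_upwards [(happ j).conc] with p hp
            by_cases hpc : p ∈ cy π R ×ˢ (univ : Set (L k))
            · rw [indicator_of_mem hpc, ← ENNReal.ofReal_add (heL0 _ _ hp) (by positivity)]
              apply ENNReal.ofReal_le_ofReal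
              have h3 := abs_eL_sub_le hπ hp (S j) S₀ (by rw [hS, hS₀])
              have h4 := (abs_le.1 h3).1
              calc f p.1 * eL π S₀ p.2 ≤ 1 * eL π S₀ p.2 :=
                    mul_le_mul_of_nonneg_right (hf1 _) (heL0 _ _ hp)
                _ ≤ _ := by rw [one_mul]; linarith
            · rw [indicator_of_notMem hpc]
              have h3 : f p.1 = 0 := image_eq_zero_of_notMem_tsupport fun h =>
                hpc ⟨hfs h, mem_univ _⟩
              simp [h3]
        _ = ∫⁻ p in cy π R ×ˢ univ, (ENNReal.ofReal (eL π (S j) p.2) +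
                ENNReal.ofReal (c₁ * ‖(S j).starProjection - S₀.starProjection‖)) ∂(V j) :=
            lintegral_indicator hmeas _
        _ = lM (V j) π (S j) (ball 0 R) +
            ENNReal.ofReal (c₁ * ‖(S j).starProjection - S₀.starProjection‖) *
              V j (cy π R ×ˢ univ) := by
            have hmm : AEMeasurable (fun p : Euc k × L k => ENNReal.ofReal (eL π (S j) p.2))
                ((V j).restrict (cy π R ×ˢ univ)) :=
              ((heLc (S j)).comp continuous_snd).measurable.ennreal_ofReal.aemeasurable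
            rw [lintegral_add_left' hmm, ← e1, setLIntegral_const]
        _ ≤ _ := by gcongr; exact hcyov j
    have ht : Tendsto (fun j => lM (V j) π (S j) (ball 0 R) +
          ENNReal.ofReal (c₁ * ‖(S j).starProjection - S₀.starProjection‖) *
            ENNReal.ofReal (C * R ^ m)) 𝒰 (𝓝 0) := by
      have t1 := hlM.mono_left h𝒰
      have t2 : Tendsto (fun j => ENNReal.ofReal
          (c₁ * ‖(S j).starProjection - S₀.starProjection‖)) 𝒰 (𝓝 0) := by
        have : Tendsto (fun j => c₁ * ‖(S j).starProjection - S₀.starProjection‖) 𝒰 (𝓝 0) := by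
          simpa using hSlim.const_mul c₁
        simpa using ENNReal.tendsto_ofReal this
      have t3 := ENNReal.Tendsto.mul_const (b := ENNReal.ofReal (C * R ^ m)) t2
        (Or.inr ENNReal.ofReal_ne_top)
      simpa using t1.add t3
    have hcl := (ENNReal.continuous_ofReal.tendsto _).comp (hlim hf hfc hfs (heLc S₀))
    have hle := le_of_tendsto_of_tendsto' hcl ht hbd
    exact absurd hlt (not_lt.2 hle)
  · -- energy from below
    have hcl : ∀ r, IsClosed (bxc π a₀ r) := fun r =>
      (isCompact_Bc (AS_456.hp π) r).isClosed.preimage (by fun_prop : Continuous fun x : Euc k => x - a₀)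
    have hbxc : ∀ r, IsCompact (bxc π a₀ r) := by
      intro r
      have h1 : bxc π a₀ r = (Homeomorph.subRight a₀) ⁻¹' (Bc (AS_456.hp π) r) := rfl
      rw [h1]
      exact (Homeomorph.subRight a₀).isCompact_preimage.2 (isCompact_Bc (AS_456.hp π) r)
    have hmem : ∀ r x, x ∈ bxc π a₀ r ↔ ‖AS_456.hp π (x - a₀)‖ ≤ r ∧
        ‖(x - a₀) - AS_456.hp π (x - a₀)‖ ≤ r := fun r x => Iff.rfl
    have hstep : ∀ η : ℝ, 0 < η → η ≤ 1 / 2 → ENNReal.ofReal ε ≤ eB π V₀ (bxc π a₀ (1 + η)) := by
      intro η hη hη2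
      set W : Set (Euc k) := {x | ‖AS_456.hp π (x - a₀)‖ < 1 + η ∧
        ‖(x - a₀) - AS_456.hp π (x - a₀)‖ < 1 + η} with hW
      have hc1 : Continuous fun x : Euc k => ‖AS_456.hp π (x - a₀)‖ :=
        ((AS_456.hp π).continuous.comp (continuous_id.sub continuous_const)).norm
      have hc2 : Continuous fun x : Euc k => ‖(x - a₀) - AS_456.hp π (x - a₀)‖ :=
        ((continuous_id.sub continuous_const).sub
          ((AS_456.hp π).continuous.comp (continuous_id.sub continuous_const))).norm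
      have hWo : IsOpen W :=
        (isOpen_lt hc1 continuous_const).inter (isOpen_lt hc2 continuous_const)
      have hsub : bxc π a₀ (1 + η / 2) ⊆ W := by
        intro x hx
        rw [hmem] at hx
        exact ⟨by linarith [hx.1], by linarith [hx.2]⟩
      have hWU : W ⊆ cy π R := by
        intro x hx
        change ‖π x‖ < R
        have h1 : ‖π x‖ ≤ ‖π (x - a₀)‖ + ‖π a₀‖ := by
          calc ‖π x‖ = ‖π (x - a₀) + π a₀‖ := by rw [← map_add]; congr 2; abel
            _ ≤ _ := norm_add_le _ _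
        have h2 : ‖π (x - a₀)‖ < 1 + η := by
          rw [← norm_hp hπ]; exact hx.1
        have h3 : ‖π a₀‖ ≤ 1 := by
          rw [mem_closedBall_zero_iff] at ha₀mem
          rw [← norm_hp hπ]
          calc ‖AS_456.hp π a₀‖ ≤ ‖AS_456.hp π‖ * ‖a₀‖ := (AS_456.hp π).le_opNorm _
            _ ≤ 1 * 1 := mul_le_mul (norm_hp_le hπ) ha₀mem (norm_nonneg _) zero_le_one
            _ = 1 := one_mul _
        linarith
      obtain ⟨f, hf, hfc, hfs, hf1, hf0, hfle⟩ := exists_cut (hbxc (1 + η / 2)) hWo hsub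
      have hev : ∀ᶠ j in (𝒰 : Filter ℕ),
          ENNReal.ofReal ε ≤ ENNReal.ofReal (∫ p, f p.1 * tl π p.2 ∂(V j)) := by
        have hnear : ∀ᶠ j in (𝒰 : Filter ℕ), ‖a j - a₀‖ < η / 2 := by
          have h1 : Tendsto (fun j => ‖a j - a₀‖) 𝒰 (𝓝 0) := by
            have := (halim'.sub_const a₀).norm
            simpa using this
          exact h1.eventually_lt_const (by linarith)
        filter_upwards [hnear] with j hj
        rw [lintegral_cut (happ j).conc (happ j).fin hf hfc (hfs.trans hWU) hf0 htlc htl0]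
        refine (hbox j).trans ?_
        have hcl2 : IsClosed (bxc π (a j) 1) :=
          (isCompact_Bc (AS_456.hp π) 1).isClosed.preimage
            (by fun_prop : Continuous fun x : Euc k => x - a j)
        have hm : MeasurableSet (bxc π (a j) 1 ×ˢ (univ : Set (L k))) :=
          hcl2.measurableSet.prod MeasurableSet.univ
        unfold eB
        rw [← lintegral_indicator hm]
        refine lintegral_mono fun p => ?_
        by_cases hp : p ∈ bxc π (a j) 1 ×ˢ (univ : Set (L k))
        · have hp1 : p.1 ∈ bxc π a₀ (1 + η / 2) := by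
            have h1 : ‖AS_456.hp π (p.1 - a j)‖ ≤ 1 := hp.1.1
            have h2 : ‖(p.1 - a j) - AS_456.hp π (p.1 - a j)‖ ≤ 1 := hp.1.2
            have e1 : p.1 - a₀ = (p.1 - a j) + (a j - a₀) := by abel
            have hvp0 : (a j - a₀) - AS_456.hp π (a j - a₀) = 0 := by
              have : AS_456.vp π (a j - a₀) = 0 := by rw [map_sub, ha, ha₀, sub_zero]
              exact this
            rw [hmem]
            constructor
            · rw [e1, map_add]
              refine (norm_add_le _ _).trans ?_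
              have h3 : ‖AS_456.hp π (a j - a₀)‖ ≤ η / 2 := by
                calc ‖AS_456.hp π (a j - a₀)‖ ≤ ‖AS_456.hp π‖ * ‖a j - a₀‖ :=
                      (AS_456.hp π).le_opNorm _
                  _ ≤ 1 * (η / 2) := mul_le_mul (norm_hp_le hπ) hj.le (norm_nonneg _) zero_le_one
                  _ = η / 2 := one_mul _
              linarith
            · have e2 : (p.1 - a₀) - AS_456.hp π (p.1 - a₀) =
                  ((p.1 - a j) - AS_456.hp π (p.1 - a j)) +
                    ((a j - a₀) - AS_456.hp π (a j - a₀)) := by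
                rw [e1, map_add]; abel
              rw [e2, hvp0, add_zero]
              linarith
          rw [indicator_of_mem hp, hf1 _ hp1, one_mul]
        · rw [indicator_of_notMem hp]; exact bot_le
      have hcl3 := (ENNReal.continuous_ofReal.tendsto _).comp (hlim hf hfc (hfs.trans hWU) htlc)
      have hge := ge_of_tendsto hcl3 hev
      refine hge.trans ?_
      have hm : MeasurableSet (bxc π a₀ (1 + η) ×ˢ (univ : Set (L k))) :=
        (hcl _).measurableSet.prod MeasurableSet.univ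
      rw [lintegral_cut hstat.conc hstat.fin hf hfc (hfs.trans hWU) hf0 htlc htl0, eB,
        ← lintegral_indicator hm]
      refine lintegral_mono_ae ?_
      filter_upwards [hstat.conc] with p hp
      by_cases hpo : p ∈ bxc π a₀ (1 + η) ×ˢ (univ : Set (L k))
      · rw [indicator_of_mem hpo]
        apply ENNReal.ofReal_le_ofReal
        exact mul_le_of_le_one_left (htl0 _ hp) (hfle _)
      · rw [indicator_of_notMem hpo]
        have h3 : f p.1 = 0 := image_eq_zero_of_notMem_tsupport fun h => by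
          apply hpo
          have h4 := hfs h
          exact ⟨⟨h4.1.le, h4.2.le⟩, mem_univ _⟩
        simp [h3]
    -- `η → 0`
    have hEq : ∀ A : Set (Euc k), MeasurableSet A → eB π V₀ A =
        (V₀.withDensity fun p => ENNReal.ofReal (tl π p.2)) (A ×ˢ univ) := by
      intro A hA
      rw [withDensity_apply _ (hA.prod MeasurableSet.univ)]; rfl
    set ν := V₀.withDensity fun p : Euc k × L k => ENNReal.ofReal (tl π p.2) with hν
    have hsub2 : ∀ r, r ≤ 3 / 2 → bxc π a₀ r ⊆ cy π R := by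
      intro r hr x hx
      change ‖π x‖ < R
      have h1 : ‖π x‖ ≤ ‖π (x - a₀)‖ + ‖π a₀‖ := by
        calc ‖π x‖ = ‖π (x - a₀) + π a₀‖ := by rw [← map_add]; congr 2; abel
          _ ≤ _ := norm_add_le _ _
      have h2 : ‖π (x - a₀)‖ ≤ r := by
        rw [← norm_hp hπ]; exact hx.1
      have h3 : ‖π a₀‖ ≤ 1 := by
        rw [mem_closedBall_zero_iff] at ha₀mem
        rw [← norm_hp hπ]
        calc ‖AS_456.hp π a₀‖ ≤ ‖AS_456.hp π‖ * ‖a₀‖ := (AS_456.hp π).le_opNorm _
          _ ≤ 1 * 1 := mul_le_mul (norm_hp_le hπ) ha₀mem (norm_nonneg _) zero_le_one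
          _ = 1 := one_mul _
      linarith
    have hfinν : ν (bxc π a₀ (1 + 1 / 2) ×ˢ univ) ≠ ⊤ := by
      have h1 : ν (bxc π a₀ (1 + 1 / 2) ×ˢ univ) ≤
          ENNReal.ofReal m * V₀ (bxc π a₀ (1 + 1 / 2) ×ˢ univ) := by
        rw [hν, withDensity_apply _ ((hcl _).measurableSet.prod MeasurableSet.univ)]
        calc ∫⁻ p in bxc π a₀ (1 + 1 / 2) ×ˢ univ, ENNReal.ofReal (tl π p.2) ∂V₀
            ≤ ∫⁻ p in bxc π a₀ (1 + 1 / 2) ×ˢ univ, ENNReal.ofReal m ∂V₀ := by
              refine lintegral_mono_ae (ae_restrict_of_ae ?_)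
              filter_upwards [hstat.conc] with p hp
              exact ENNReal.ofReal_le_ofReal (tl_le hπ (isPr_of_G hp))
          _ = _ := by rw [setLIntegral_const]
      refine (lt_of_le_of_lt h1 (ENNReal.mul_lt_top ENNReal.ofReal_lt_top ?_)).ne
      exact hstat.fin _ (hbxc _) (hsub2 _ (by norm_num))
    have hinter : bxc π a₀ 1 ×ˢ (univ : Set (L k)) =
        ⋂ n : ℕ, bxc π a₀ (1 + 1 / ((n : ℝ) + 2)) ×ˢ (univ : Set (L k)) := by
      ext p
      simp only [mem_prod, mem_univ, and_true, mem_iInter, hmem]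
      have hlim0 : Tendsto (fun n : ℕ => 1 + 1 / ((n : ℝ) + 2)) atTop (𝓝 (1 + 0)) := by
        refine tendsto_const_nhds.add ?_
        have h1 : Tendsto (fun n : ℕ => ((n : ℝ) + 2)) atTop atTop :=
          tendsto_atTop_add_const_right _ _ tendsto_natCast_atTop_atTop
        have h2 := h1.inv_tendsto_atTop
        simp only [one_div]
        exact h2
      rw [add_zero] at hlim0
      constructor
      · rintro ⟨h1, h2⟩ n
        have : (0 : ℝ) ≤ 1 / ((n : ℝ) + 2) := by positivity
        exact ⟨by linarith, by linarith⟩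
      · intro h
        exact ⟨ge_of_tendsto' hlim0 fun n => (h n).1, ge_of_tendsto' hlim0 fun n => (h n).2⟩
    rw [hEq _ (hcl 1).measurableSet, hinter]
    have hanti : Antitone fun n : ℕ => bxc π a₀ (1 + 1 / ((n : ℝ) + 2)) ×ˢ (univ : Set (L k)) := by
      intro n n' hn
      refine prod_mono ?_ subset_rfl
      intro x hx
      rw [hmem] at hx ⊢
      have h1 : 1 / ((n' : ℝ) + 2) ≤ 1 / ((n : ℝ) + 2) := by
        have : (n : ℝ) ≤ n' := by exact_mod_cast hn
        gcongr
      exact ⟨hx.1.trans (by linarith), hx.2.trans (by linarith)⟩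
    have htend := tendsto_measure_iInter_atTop (μ := ν)
      (fun n => ((hcl _).measurableSet.prod MeasurableSet.univ).nullMeasurableSet) hanti
      ⟨0, by simpa using hfinν⟩
    refine ge_of_tendsto' htend fun n => ?_
    rw [Function.comp, ← hEq _ (hcl _).measurableSet]
    refine hstep _ (by positivity) ?_
    rw [div_le_div_iff₀ (by positivity) (by norm_num)]
    have : (0 : ℝ) ≤ n := Nat.cast_nonneg n
    linarith
  · -- energy from above
    by_contra hcon
    rw [not_le, eM, bm_apply _ _ _ measurableSet_ball, ov_ball] at hcon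
    have hcyM : cy π M ⊆ cy π R := fun z hz => lt_of_lt_of_le (show ‖π z‖ < M from hz) hMR
    obtain ⟨f, hf, hfc, hfs, hf0, hf1, hlt⟩ := exists_cut_lt (isOpen_cy π M) hcyM hstat.conc
      hstat.fin htlc htl0 hcon
    have hbd : ∀ j, ENNReal.ofReal (∫ p, f p.1 * tl π p.2 ∂(V j)) ≤ ENNReal.ofReal B := by
      intro j
      refine le_trans ?_ (htop j)
      rw [lintegral_cut (happ j).conc (happ j).fin hf hfc (hfs.trans hcyM) hf0 htlc htl0, eM,
        bm_apply _ _ _ measurableSet_ball,
        ← lintegral_indicator (measurableSet_ov measurableSet_ball)]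
      refine lintegral_mono_ae ?_
      filter_upwards [(happ j).conc] with p hp
      by_cases hpo : p ∈ ov π (ball 0 M)
      · rw [indicator_of_mem hpo]
        apply ENNReal.ofReal_le_ofReal
        exact mul_le_of_le_one_left (htl0 _ hp) (hf1 _)
      · rw [indicator_of_notMem hpo]
        have h3 : f p.1 = 0 := image_eq_zero_of_notMem_tsupport fun h => by
          apply hpo
          rw [ov_ball]
          exact ⟨hfs h, mem_univ _⟩
        simp [h3]
    have hcl := (ENNReal.continuous_ofReal.tendsto _).comp (hlim hf hfc (hfs.trans hcyM) htlc)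
    exact absurd hlt (not_lt.2 (le_of_tendsto' hcl hbd))

end Crest.Agent.R234.La_300
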