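import Crest.Agent.R234.La2_300

/-! Row 234, VF-LOGAS (task 1612, helper300), part 3: zooms and rotations of approximately stationary
varifolds, of their base measures and of the lower density; pigeonhole in the heights. -/

set_option autoImplicit false
set_option linter.unusedSectionVars false

open MeasureTheory Filter Topology Set Metric
open Crest.GeometryTopology.Submanifold Crest.Agent.R234.Vf_884 Crest.Agent.R234.Ar_870
open Crest.Agent.R234.Vc_164 Crest.Agent.R234.Cp914 Crest.Agent.R234.Pers_540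
open Crest.Agent.R234.N5_372 Crest.Agent.R234.Cy_870
open scoped ENNReal NNReal InnerProductSpace

noncomputable section

namespace Crest.Agent.R234.La_300

variable {m n k : ℕ} {π : Euc k →L[ℝ] Euc m} {V : Measure (Euc k × L k)}

/-! ### zooms -/

theorem setLIntegral_resc (m' : ℕ) (z : Euc k) (r : ℝ) (V : Measure (Euc k × L k))
    {f : Euc k × L k → ℝ≥0∞} (hf : Measurable f) {A : Set (Euc k × L k)} (hA : MeasurableSet A) :
    ∫⁻ p in A, f p ∂(resc m' z r V) =
      ENNReal.ofReal ((r ^ m')⁻¹) * ∫⁻ p in hom z r ⁻¹' A, f (hom z r p) ∂V := by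
  rw [resc, Measure.restrict_smul, lintegral_smul_measure, Measure.restrict_map
    (measurable_hom z r) hA, lintegral_map hf (measurable_hom z r), smul_eq_mul]

theorem hom_preimage_ov (z : Euc k) {r : ℝ} (hr : 0 < r) (y : Euc m) (ρ : ℝ) :
    hom z r ⁻¹' (ov π (ball y ρ)) = ov π (ball (π z + r • y) (r * ρ)) := by
  ext p
  simp only [ov, hom, mem_preimage, mem_ofPred_eq, mem_ball, dist_eq_norm, map_smul, map_sub]
  have h1 : π p.1 - (π z + r • y) = r • (r⁻¹ • (π p.1 - π z) - y) := by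
    rw [smul_sub, smul_smul, mul_inv_cancel₀ hr.ne', one_smul]; abel
  rw [h1, norm_smul, Real.norm_of_nonneg hr.le]
  exact (mul_lt_mul_iff_right₀ hr).symm

theorem resc_ov (m' : ℕ) (z : Euc k) {r : ℝ} (hr : 0 < r) (y : Euc m) (ρ : ℝ) :
    resc m' z r V (ov π (ball y ρ)) =
      ENNReal.ofReal ((r ^ m')⁻¹) * V (ov π (ball (π z + r • y) (r * ρ))) := by
  rw [resc, Measure.smul_apply, Measure.map_apply (measurable_hom z r)
    (measurableSet_ov measurableSet_ball), hom_preimage_ov z hr, smul_eq_mul]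

theorem bm_resc (m' : ℕ) (z : Euc k) {r : ℝ} (hr : 0 < r) {c : L k → ℝ} (hc : Measurable c)
    (y : Euc m) (ρ : ℝ) :
    bm (resc m' z r V) π c (ball y ρ) =
      ENNReal.ofReal ((r ^ m')⁻¹) * bm V π c (ball (π z + r • y) (r * ρ)) := by
  rw [bm_apply _ _ _ measurableSet_ball, bm_apply _ _ _ measurableSet_ball,
    setLIntegral_resc m' z r V (f := fun p => ENNReal.ofReal (c p.2))
      ((hc.comp measurable_snd).ennreal_ofReal) (measurableSet_ov measurableSet_ball),
    hom_preimage_ov z hr]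
  rfl

theorem sp_of_resc (m' : ℕ) (z : Euc k) {r : ℝ} (hr : 0 < r) {x : Euc k}
    (h : Sp (resc m' z r V) x) : Sp V (z + r • x) := by
  intro s hs
  have h1 := h (s / r) (by positivity)
  rw [resc_ball m' z x hr, mul_div_cancel₀ _ hr.ne'] at h1
  exact pos_iff_ne_zero.2 fun h0 => by rw [h0, mul_zero] at h1; exact lt_irrefl _ h1

theorem LowD.resc {U : Set (Euc k)} {c : ℝ} (h : LowD m U c V) (z : Euc k) {r : ℝ} (hr : 0 < r) :
    LowD m ((fun x => z + r • x) ⁻¹' U) c (resc m z r V) := by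
  intro x hx ρ hρ hsub
  have h1 := h (z + r • x) (sp_of_resc m z hr hx) (r * ρ) (by positivity) (by
    rw [← image_ball z x hr]
    rintro _ ⟨w, hw, rfl⟩
    exact hsub hw)
  rw [resc_ball m z x hr]
  calc ENNReal.ofReal (c * ρ ^ m) = ENNReal.ofReal ((r ^ m)⁻¹) * ENNReal.ofReal (c * (r * ρ) ^ m) := by
        rw [← ENNReal.ofReal_mul (by positivity)]
        congr 1
        rw [mul_pow]
        field_simp
    _ ≤ _ := by gcongr

theorem LowD.mono_set {U U' : Set (Euc k)} {c : ℝ} (h : LowD m U c V) (hU : U' ⊆ U) :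
    LowD m U' c V := fun x hx r hr hsub => h x hx r hr (hsub.trans hU)

/-! ### rotations -/

/-- linear isometry as a continuous linear map -/
abbrev oc (O : Euc k ≃ₗᵢ[ℝ] Euc k) : L k := (O.toContinuousLinearEquiv : Euc k →L[ℝ] Euc k)

/-- action of a rotation on the Grassmann bundle -/
def rt (O : Euc k ≃ₗᵢ[ℝ] Euc k) (p : Euc k × L k) : Euc k × L k :=
  (O p.1, oc O ∘L p.2 ∘L oc O.symm)

theorem continuous_rt (O : Euc k ≃ₗᵢ[ℝ] Euc k) : Continuous (rt O) := by
  unfold rt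
  exact (O.continuous.comp continuous_fst).prodMk
    (continuous_const.clm_comp (continuous_snd.clm_comp continuous_const))

theorem measurable_rt (O : Euc k ≃ₗᵢ[ℝ] Euc k) : Measurable (rt O) := (continuous_rt O).measurable

theorem oc_symm_comp (O : Euc k ≃ₗᵢ[ℝ] Euc k) : oc O.symm ∘L oc O = ContinuousLinearMap.id ℝ _ := by
  ext1 x; exact O.symm_apply_apply x

theorem oc_comp_symm (O : Euc k ≃ₗᵢ[ℝ] Euc k) : oc O ∘L oc O.symm = ContinuousLinearMap.id ℝ _ := by
  ext1 x; exact O.apply_symm_apply x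

theorem adjoint_oc (O : Euc k ≃ₗᵢ[ℝ] Euc k) : ContinuousLinearMap.adjoint (oc O) = oc O.symm := by
  refine (ContinuousLinearMap.eq_adjoint_iff _ _).2 (fun x y => ?_) |>.symm
  change ⟪O.symm x, y⟫_ℝ = ⟪x, O y⟫_ℝ
  rw [← O.inner_map_map (O.symm x) y, O.apply_symm_apply]

theorem rt_mem_G (O : Euc k ≃ₗᵢ[ℝ] Euc k) {P : L k} (hP : P ∈ G m k) :
    oc O ∘L P ∘L oc O.symm ∈ G m k := by
  refine ⟨?_, ?_, ?_⟩
  · ext1 x
    change O (P (O.symm (O (P (O.symm x))))) = O (P (O.symm x))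
    rw [O.symm_apply_apply, G_idem_apply hP]
  · rw [ContinuousLinearMap.isSelfAdjoint_iff', ContinuousLinearMap.adjoint_comp,
      ContinuousLinearMap.adjoint_comp, adjoint_oc, adjoint_oc, LinearIsometryEquiv.symm_symm,
      hP.2.1.adjoint_eq]
    rfl
  · rw [tr_cyc (oc O) (P ∘L oc O.symm)]
    have : (P ∘L oc O.symm) ∘L oc O = P := by
      ext1 x
      change P (O.symm (O x)) = P x
      rw [O.symm_apply_apply]
    rw [this]
    exact hP.2.2

theorem norm_oc_le (O : Euc k ≃ₗᵢ[ℝ] Euc k) : ‖oc O‖ ≤ 1 :=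
  ContinuousLinearMap.opNorm_le_bound _ zero_le_one fun x => by
    change ‖O x‖ ≤ 1 * ‖x‖
    rw [O.norm_map, one_mul]

theorem App.rot {ω : ℝ} {U : Set (Euc k)} (h : App m k ω U V) (hω : 0 ≤ ω)
    (O : Euc k ≃ₗᵢ[ℝ] Euc k) : App m k ω (O.symm ⁻¹' U) (V.map (rt O)) where
  conc := by
    rw [ae_map_iff (measurable_rt O).aemeasurable ((measurableSet_G m k).preimage measurable_snd)]
    filter_upwards [h.conc] with p hp
    exact rt_mem_G O hp
  fin K hK hKU := by
    rw [Measure.map_apply (measurable_rt O) (hK.measurableSet.prod .univ)]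
    have h1 : rt O ⁻¹' (K ×ˢ univ) ⊆ (O.symm '' K) ×ˢ (univ : Set (L k)) := by
      rintro ⟨x, P⟩ ⟨hx, -⟩
      exact ⟨⟨O x, hx, O.symm_apply_apply x⟩, trivial⟩
    refine lt_of_le_of_lt (measure_mono h1) (h.fin _ (hK.image O.symm.continuous) ?_)
    rintro _ ⟨x, hx, rfl⟩
    exact hKU hx
  fv X hX hXc hXU := by
    rw [integral_map (measurable_rt O).aemeasurable (continuous_tr_fderiv hX).aestronglyMeasurable,
      integral_map (measurable_rt O).aemeasurable (continuous_sz hX).aestronglyMeasurable]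
    let Y : Euc k → Euc k := fun x => oc O.symm (X (O x))
    have hY : ContDiff ℝ 1 Y := (oc O.symm).contDiff.comp (hX.comp O.contDiff)
    have hYs : tsupport Y ⊆ O ⁻¹' tsupport X := by
      refine closure_minimal ?_ ((isClosed_tsupport X).preimage O.continuous)
      intro x hx
      refine subset_tsupport X ?_
      intro h0
      apply hx
      change oc O.symm (X (O x)) = 0
      rw [h0, map_zero]
    have hYc : HasCompactSupport Y := by
      refine HasCompactSupport.intro (K := O.symm '' tsupport X) (hXc.image O.symm.continuous) ?_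
      intro x hx
      change oc O.symm (X (O x)) = 0
      have : X (O x) = 0 := by
        refine image_eq_zero_of_notMem_tsupport fun h0 => hx ⟨O x, h0, O.symm_apply_apply x⟩
      rw [this, map_zero]
    have hYU : tsupport Y ⊆ U := by
      intro x hx
      have h1 := hXU (hYs hx)
      simpa using h1
    have hD : ∀ x, fderiv ℝ Y x = oc O.symm ∘L fderiv ℝ X (O x) ∘L oc O := by
      intro x
      have hd : HasFDerivAt X (fderiv ℝ X (O x)) (O x) := (hX.differentiable one_ne_zero _).hasFDerivAt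
      have h1 : HasFDerivAt (fun x : Euc k => O x) (oc O) x := (oc O).hasFDerivAt
      exact ((oc O.symm).hasFDerivAt.comp x (hd.comp x h1)).fderiv
    have h1 := h.fv Y hY hYc hYU
    have h2 : ∀ p : Euc k × L k, tr (fderiv ℝ Y p.1 ∘L p.2) =
        tr (fderiv ℝ X (rt O p).1 ∘L (rt O p).2) := by
      intro p
      rw [hD]
      have h3 : (oc O.symm ∘L fderiv ℝ X (O p.1) ∘L oc O) ∘L p.2 =
          oc O.symm ∘L (fderiv ℝ X (O p.1) ∘L oc O ∘L p.2) := rfl
      rw [h3, tr_cyc]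
      rfl
    simp_rw [h2] at h1
    refine h1.trans ?_
    refine mul_le_mul_of_nonneg_left ?_ hω
    have hXV : (V.map (rt O)) (tsupport X ×ˢ univ) < ⊤ := by
      rw [Measure.map_apply (measurable_rt O) ((isClosed_tsupport X).measurableSet.prod .univ)]
      have h1 : rt O ⁻¹' (tsupport X ×ˢ univ) ⊆ (O.symm '' tsupport X) ×ˢ (univ : Set (L k)) := by
        rintro ⟨x, P⟩ ⟨hx, -⟩
        exact ⟨⟨O x, hx, O.symm_apply_apply x⟩, trivial⟩
      refine lt_of_le_of_lt (measure_mono h1) (h.fin _ (hXc.image O.symm.continuous) ?_)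
      rintro _ ⟨x, hx, rfl⟩
      exact hXU hx
    have hconc : ∀ᵐ p ∂(V.map (rt O)), p.2 ∈ G m k := by
      rw [ae_map_iff (measurable_rt O).aemeasurable ((measurableSet_G m k).preimage measurable_snd)]
      filter_upwards [h.conc] with p hp
      exact rt_mem_G O hp
    have hint : Integrable (fun p => sz X (rt O p)) V :=
      (integrable_map_measure (continuous_sz hX).aestronglyMeasurable
        (measurable_rt O).aemeasurable).1 (integrable_sz hconc hX hXc hXV)
    refine integral_mono (integrable_sz h.conc hY hYc (h.fin _ hYc hYU)) hint fun p => ?_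
    change ‖fderiv ℝ Y p.1‖ + ‖Y p.1‖ ≤ ‖fderiv ℝ X (O p.1)‖ + ‖X (O p.1)‖
    rw [hD]
    refine add_le_add ?_ ?_
    · calc ‖oc O.symm ∘L fderiv ℝ X (O p.1) ∘L oc O‖
          ≤ ‖oc O.symm‖ * ‖fderiv ℝ X (O p.1) ∘L oc O‖ := ContinuousLinearMap.opNorm_comp_le _ _
        _ ≤ 1 * (‖fderiv ℝ X (O p.1)‖ * ‖oc O‖) := by
            gcongr
            · exact norm_oc_le _
            · exact ContinuousLinearMap.opNorm_comp_le _ _
        _ ≤ 1 * (‖fderiv ℝ X (O p.1)‖ * 1) := by gcongr; exact norm_oc_le _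
        _ = _ := by ring
    · change ‖O.symm (X (O p.1))‖ ≤ _
      rw [O.symm.norm_map]

theorem rt_preimage_ball (O : Euc k ≃ₗᵢ[ℝ] Euc k) (x : Euc k) (r : ℝ) :
    rt O ⁻¹' (ball x r ×ˢ univ) = ball (O.symm x) r ×ˢ (univ : Set (L k)) := by
  ext p
  simp only [rt, mem_preimage, mem_prod, mem_univ, and_true, mem_ball]
  rw [← O.dist_map p.1 (O.symm x), O.apply_symm_apply]

theorem map_rt_ball (O : Euc k ≃ₗᵢ[ℝ] Euc k) (x : Euc k) (r : ℝ) :
    (V.map (rt O)) (ball x r ×ˢ univ) = V (ball (O.symm x) r ×ˢ univ) := by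
  rw [Measure.map_apply (measurable_rt O) (measurableSet_ball.prod .univ), rt_preimage_ball]

theorem LowD.rot {U : Set (Euc k)} {c : ℝ} (h : LowD m U c V) (O : Euc k ≃ₗᵢ[ℝ] Euc k) :
    LowD m (O.symm ⁻¹' U) c (V.map (rt O)) := by
  intro x hx r hr hsub
  rw [map_rt_ball]
  refine h (O.symm x) (fun s hs => ?_) r hr ?_
  · have := hx s hs
    rwa [map_rt_ball] at this
  · intro w hw
    have h1 : O w ∈ ball x r := by
      rw [mem_ball] at hw ⊢
      rw [← O.dist_map w (O.symm x), O.apply_symm_apply] at hw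
      exact hw
    have h2 := hsub h1
    simpa using h2

/-- rotated projection. -/
theorem Shh_rt {π π₀ : Euc k →L[ℝ] Euc m} {O : Euc k ≃ₗᵢ[ℝ] Euc k} (hO : ∀ x, π₀ (O x) = π x)
    (P : L k) : Shh π₀ (oc O ∘L P ∘L oc O.symm) = Shh π P := by
  have h1 : ∀ v, O.symm (ContinuousLinearMap.adjoint π₀ v) = ContinuousLinearMap.adjoint π v := by
    intro v
    refine ext_inner_right ℝ fun w => ?_
    rw [ContinuousLinearMap.adjoint_inner_left, ← O.inner_map_map, O.apply_symm_apply,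
      ContinuousLinearMap.adjoint_inner_left, hO]
  ext1 v
  change π₀ (O (P (O.symm (ContinuousLinearMap.adjoint π₀ v)))) =
    π (P (ContinuousLinearMap.adjoint π v))
  rw [hO, h1]

theorem tl_eq_Shh (π : Euc k →L[ℝ] Euc m) (P : L k) :
    tl π P = m - LinearMap.trace ℝ (Euc m) (Shh π P : Euc m →L[ℝ] Euc m) := rfl

theorem tl_rt {π π₀ : Euc k →L[ℝ] Euc m} {O : Euc k ≃ₗᵢ[ℝ] Euc k} (hO : ∀ x, π₀ (O x) = π x)
    (P : L k) : tl π₀ (oc O ∘L P ∘L oc O.symm) = tl π P := by
  rw [tl_eq_Shh, tl_eq_Shh, Shh_rt hO]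

theorem eL_rt {π π₀ : Euc k →L[ℝ] Euc m} {O : Euc k ≃ₗᵢ[ℝ] Euc k} (hO : ∀ x, π₀ (O x) = π x)
    (S : Submodule ℝ (Euc m)) (P : L k) : eL π₀ S (oc O ∘L P ∘L oc O.symm) = eL π S P := by
  unfold eL qf
  rw [Shh_rt hO]

theorem rt_preimage_ov {π π₀ : Euc k →L[ℝ] Euc m} {O : Euc k ≃ₗᵢ[ℝ] Euc k}
    (hO : ∀ x, π₀ (O x) = π x) (A : Set (Euc m)) : rt O ⁻¹' (ov π₀ A) = ov π A := by
  ext p
  simp only [ov, rt, mem_preimage, mem_ofPred_eq, hO]

theorem map_rt_ov {π π₀ : Euc k →L[ℝ] Euc m} {O : Euc k ≃ₗᵢ[ℝ] Euc k} (hO : ∀ x, π₀ (O x) = π x)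
    {A : Set (Euc m)} (hA : MeasurableSet A) : (V.map (rt O)) (ov π₀ A) = V (ov π A) := by
  rw [Measure.map_apply (measurable_rt O) (measurableSet_ov hA), rt_preimage_ov hO]

theorem bm_rt {π π₀ : Euc k →L[ℝ] Euc m} {O : Euc k ≃ₗᵢ[ℝ] Euc k} (hO : ∀ x, π₀ (O x) = π x)
    {c c₀ : L k → ℝ} (hc₀ : Measurable c₀) (hcc : ∀ P, c₀ (oc O ∘L P ∘L oc O.symm) = c P)
    {A : Set (Euc m)} (hA : MeasurableSet A) :
    bm (V.map (rt O)) π₀ c₀ A = bm V π c A := by
  rw [bm_apply _ _ _ hA, bm_apply _ _ _ hA, Measure.restrict_map (measurable_rt O)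
    (measurableSet_ov hA), lintegral_map (f := fun p => ENNReal.ofReal (c₀ p.2))
    ((hc₀.comp measurable_snd).ennreal_ofReal) (measurable_rt O), rt_preimage_ov hO]
  refine lintegral_congr fun p => ?_
  change ENNReal.ofReal (c₀ (oc O ∘L p.2 ∘L oc O.symm)) = _
  rw [hcc]

/-- any two coordinate projections differ by a rotation. -/
theorem exists_rotation {π π₀ : Euc k →L[ℝ] Euc m} (hπ : IsCo π) (hπ₀ : IsCo π₀) :
    ∃ O : Euc k ≃ₗᵢ[ℝ] Euc k, ∀ x, π₀ (O x) = π x := by
  classical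
  let J : Euc m →ₗᵢ[ℝ] Euc k := ⟨(ContinuousLinearMap.adjoint π).toLinearMap, norm_adjoint_co hπ⟩
  let J₀ : Euc m →ₗᵢ[ℝ] Euc k := ⟨(ContinuousLinearMap.adjoint π₀).toLinearMap, norm_adjoint_co hπ₀⟩
  let e : Euc m ≃ₗᵢ[ℝ] LinearMap.range J.toLinearMap := J.equivRange
  let T : Euc k →ₗᵢ[ℝ] Euc k := (J₀.comp e.symm.toLinearIsometry).extend
  let O : Euc k ≃ₗᵢ[ℝ] Euc k := T.toLinearIsometryEquiv rfl
  have h1 : ∀ v, O (ContinuousLinearMap.adjoint π v) = ContinuousLinearMap.adjoint π₀ v := by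
    intro v
    have h2 : ((e v : LinearMap.range J.toLinearMap) : Euc k) = ContinuousLinearMap.adjoint π v := rfl
    have h3 : T ((e v : LinearMap.range J.toLinearMap) : Euc k) = (J₀.comp e.symm.toLinearIsometry) (e v) :=
      LinearIsometry.extend_apply _ _
    change T (ContinuousLinearMap.adjoint π v) = _
    rw [← h2, h3]
    change J₀ (e.symm (e v)) = _
    rw [e.symm_apply_apply]
    rfl
  refine ⟨O, fun x => ?_⟩
  refine ext_inner_left ℝ fun v => ?_
  rw [← ContinuousLinearMap.adjoint_inner_left, ← h1 v, O.inner_map_map,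
    ContinuousLinearMap.adjoint_inner_left]

/-! ### pigeonhole in the heights -/

theorem eB_eq (π : Euc k →L[ℝ] Euc m) (V : Measure (Euc k × L k)) {A : Set (Euc k)}
    (hA : MeasurableSet A) : eB π V A =
      (V.withDensity fun p => ENNReal.ofReal (tl π p.2)) (A ×ˢ univ) := by
  rw [withDensity_apply _ (hA.prod .univ)]
  rfl

theorem isClosed_bxc (π : Euc k →L[ℝ] Euc m) (a : Euc k) (r : ℝ) : IsClosed (bxc π a r) :=
  (isCompact_Bc (AS_456.hp π) r).isClosed.preimage (by fun_prop : Continuous fun x : Euc k => x - a)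

theorem eB_resc_one (m' : ℕ) (z a : Euc k) (r : ℝ) :
    eB π (resc m' z 1 V) (bxc π a r) = eB π V (bxc π (a + z) r) := by
  unfold eB
  rw [setLIntegral_resc m' z 1 V (f := fun p => ENNReal.ofReal (tl π p.2))
    ((((measurable_tl π).measurable).comp measurable_snd).ennreal_ofReal)
    ((isClosed_bxc π a r).measurableSet.prod .univ), one_pow, inv_one, ENNReal.ofReal_one, one_mul]
  have h1 : hom z 1 ⁻¹' (bxc π a r ×ˢ univ) = bxc π (a + z) r ×ˢ (univ : Set (L k)) := by
    ext p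
    simp only [hom, mem_preimage, mem_prod, mem_univ, and_true, bxc, mem_ofPred_eq, inv_one, one_smul]
    rw [show p.1 - z - a = p.1 - (a + z) by abel]
  rw [h1]
  rfl

theorem norm_co_le (hπ : IsCo π) (x : Euc k) : ‖π x‖ ≤ ‖x‖ := by
  rw [← norm_hp hπ]
  calc ‖AS_456.hp π x‖ ≤ ‖AS_456.hp π‖ * ‖x‖ := (AS_456.hp π).le_opNorm x
    _ ≤ 1 * ‖x‖ := by gcongr; exact norm_hp_le hπ
    _ = ‖x‖ := one_mul _

theorem exists_box (hπ : IsCo π) {C c R : ℝ} (hR : 2 ≤ R) (hC : 0 ≤ C) (hc : 0 < c)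
    (hmass : MassC π C R V) (hlow : LowD m (cy π R) c V) {N : ℕ} (hN : C * 4 ^ m ≤ N * c)
    {τ : ℝ} (hτ : 0 < τ) (he : ENNReal.ofReal τ ≤ eM V π (ball 0 1)) :
    ∃ w : Euc k, ‖π w‖ < 1 ∧ ENNReal.ofReal (τ / N) ≤ eB π V (bxc π w 1) := by
  classical
  let good : Finset (Euc k) → Prop := fun F =>
    (∀ z ∈ F, ‖π z‖ < 1 ∧ Sp V z) ∧ ∀ z ∈ F, ∀ w ∈ F, z ≠ w → 1 ≤ dist z w
  have hcard : ∀ F, good F → F.card ≤ N := by
    intro F hF
    have hdisj : (F : Set (Euc k)).PairwiseDisjoint fun z => ball z (1 / 2) ×ˢ (univ : Set (L k)) := by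
      intro z hz w hw hzw
      refine Disjoint.set_prod_left (ball_disjoint_ball ?_) _ _
      have := hF.2 z hz w hw hzw
      linarith
    have hsub : ∀ z ∈ F, ∀ x ∈ ball z (1 / 2), ‖π x‖ < 2 := by
      intro z hz x hx
      have h1 : ‖π z‖ < 1 := (hF.1 z hz).1
      have h2 : ‖π (x - z)‖ ≤ ‖x - z‖ := norm_co_le hπ _
      rw [mem_ball, dist_eq_norm] at hx
      calc ‖π x‖ = ‖π (x - z) + π z‖ := by rw [← map_add]; congr 2; abel
        _ ≤ ‖π (x - z)‖ + ‖π z‖ := norm_add_le _ _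
        _ < 2 := by linarith
    have h1 : ∀ z ∈ F, ENNReal.ofReal (c * (1 / 2) ^ m) ≤ V (ball z (1 / 2) ×ˢ univ) := fun z hz =>
      hlow z (hF.1 z hz).2 (1 / 2) (by norm_num) fun x hx => lt_of_lt_of_le (hsub z hz x hx) hR
    have h2 : ∑ z ∈ F, V (ball z (1 / 2) ×ˢ univ) ≤ ENNReal.ofReal (C * 2 ^ m) := by
      rw [← measure_biUnion_finset hdisj fun z _ => measurableSet_ball.prod MeasurableSet.univ]
      refine le_trans (measure_mono ?_) (hmass 2 (by norm_num) hR)
      refine iUnion₂_subset fun z hz p hp => ?_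
      change π p.1 ∈ ball 0 2
      rw [mem_ball_zero_iff]
      exact hsub z hz _ hp.1
    have h3 : (F.card : ℝ≥0∞) * ENNReal.ofReal (c * (1 / 2) ^ m) ≤ ENNReal.ofReal (C * 2 ^ m) := by
      refine le_trans ?_ h2
      rw [← nsmul_eq_mul, ← Finset.sum_const]
      exact Finset.sum_le_sum h1
    have hp0 : (0 : ℝ) < c * (1 / 2) ^ m := by positivity
    have h4 : (F.card : ℝ) * (c * (1 / 2) ^ m) ≤ C * 2 ^ m := by
      rw [← ENNReal.ofReal_natCast, ← ENNReal.ofReal_mul (by positivity)] at h3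
      exact (ENNReal.ofReal_le_ofReal_iff (by positivity)).mp h3
    have h5 : (F.card : ℝ) ≤ N := by
      have e1 : (F.card : ℝ) * c ≤ C * 4 ^ m := by
        have e2 : (2 : ℝ) ^ m * (1 / 2) ^ m = 1 := by rw [← mul_pow]; norm_num
        have e3 : (4 : ℝ) ^ m = 2 ^ m * 2 ^ m := by rw [← mul_pow]; norm_num
        calc (F.card : ℝ) * c = 2 ^ m * (F.card * (c * (1 / 2) ^ m)) := by
              rw [show (2 : ℝ) ^ m * (F.card * (c * (1 / 2) ^ m)) =
                (2 ^ m * (1 / 2) ^ m) * (F.card * c) by ring, e2, one_mul]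
          _ ≤ 2 ^ m * (C * 2 ^ m) := by gcongr
          _ = C * 4 ^ m := by rw [e3]; ring
      exact le_of_mul_le_mul_right (e1.trans hN) hc
    exact_mod_cast h5
  obtain ⟨F, hF, hmax⟩ : ∃ F, good F ∧ ∀ F', good F' → F'.card ≤ F.card := by
    let p : ℕ → Prop := fun n => ∃ F, good F ∧ F.card = n
    have hp0 : p 0 := ⟨∅, ⟨by simp, by simp⟩, rfl⟩
    obtain ⟨F, hF, hFn⟩ : p (Nat.findGreatest p N) :=
      Nat.findGreatest_spec (P := p) (Nat.zero_le _) hp0
    refine ⟨F, hF, fun F' hF' => ?_⟩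
    rw [hFn]
    exact Nat.le_findGreatest (hcard F' hF') ⟨F', hF', rfl⟩
  have hcov : ∀ z, ‖π z‖ < 1 → Sp V z → ∃ w ∈ F, dist z w < 1 := by
    intro z hz hzs
    by_contra hcon
    push Not at hcon
    have hzF : z ∉ F := fun hzF => by
      have := hcon z hzF
      rw [dist_self] at this
      linarith
    have hg : good (insert z F) := by
      refine ⟨fun w hw => ?_, fun w hw w' hw' hne => ?_⟩
      · rcases Finset.mem_insert.mp hw with rfl | hw
        · exact ⟨hz, hzs⟩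
        · exact hF.1 w hw
      · rcases Finset.mem_insert.mp hw with hw1 | hw1 <;>
          rcases Finset.mem_insert.mp hw' with hw2 | hw2
        · exact absurd (hw1.trans hw2.symm) hne
        · rw [hw1]; exact hcon w' hw2
        · rw [hw2, dist_comm]; exact hcon w hw1
        · exact hF.2 w hw1 w' hw2 hne
    have h1 := hmax _ hg
    rw [Finset.card_insert_of_notMem hzF] at h1
    omega
  set ν := V.withDensity fun p => ENNReal.ofReal (tl π p.2) with hν
  have hle : eM V π (ball 0 1) ≤ ∑ w ∈ F, eB π V (bxc π w 1) := by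
    have h1 : ∀ᵐ p ∂ν, p ∈ ov π (ball 0 1) → p ∈ ⋃ w ∈ F, bxc π w 1 ×ˢ (univ : Set (L k)) := by
      refine (withDensity_absolutelyContinuous V _).ae_le ?_
      filter_upwards [ae_sp V] with p hp hpo
      have hp1 : ‖π p.1‖ < 1 := by
        have : π p.1 ∈ ball 0 1 := hpo
        rwa [mem_ball_zero_iff] at this
      obtain ⟨w, hw, hw2⟩ := hcov p.1 hp1 hp
      refine mem_iUnion₂.2 ⟨w, hw, ⟨?_, ?_⟩, trivial⟩
      · rw [dist_eq_norm] at hw2
        change ‖AS_456.hp π (p.1 - w)‖ ≤ 1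
        rw [norm_hp hπ]
        exact (norm_co_le hπ _).trans hw2.le
      · rw [dist_eq_norm] at hw2
        change ‖(p.1 - w) - AS_456.hp π (p.1 - w)‖ ≤ 1
        calc ‖AS_456.vp π (p.1 - w)‖ ≤ ‖AS_456.vp π‖ * ‖p.1 - w‖ := (AS_456.vp π).le_opNorm _
          _ ≤ 1 * ‖p.1 - w‖ := by gcongr; exact norm_vp_le hπ
          _ ≤ 1 := by rw [one_mul]; exact hw2.le
    calc eM V π (ball 0 1) = ν (ov π (ball 0 1)) := by
          rw [hν, withDensity_apply _ (measurableSet_ov measurableSet_ball)]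
          exact bm_apply _ _ _ measurableSet_ball
      _ ≤ ν (⋃ w ∈ F, bxc π w 1 ×ˢ (univ : Set (L k))) := measure_mono_ae h1
      _ ≤ ∑ w ∈ F, ν (bxc π w 1 ×ˢ univ) := measure_biUnion_finset_le _ _
      _ = _ := Finset.sum_congr rfl fun w _ => (eB_eq π V (isClosed_bxc π w 1).measurableSet).symm
  have hFne : F.Nonempty := by
    rw [Finset.nonempty_iff_ne_empty]
    intro h0
    rw [h0, Finset.sum_empty] at hle
    have h1 : ENNReal.ofReal τ ≤ 0 := he.trans hle
    have h2 : 0 < ENNReal.ofReal τ := ENNReal.ofReal_pos.2 hτ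
    exact absurd h1 (not_le.2 h2)
  have hFpos : (0 : ℝ) < F.card := by exact_mod_cast Finset.card_pos.mpr hFne
  have hFN : (F.card : ℝ) ≤ N := by exact_mod_cast hcard F hF
  have hNpos : (0 : ℝ) < N := hFpos.trans_le hFN
  obtain ⟨w, hw, hw2⟩ := ENNReal.exists_le_of_sum_le (f := fun _ => ENNReal.ofReal (τ / N))
    (g := fun w => eB π V (bxc π w 1)) hFne (by
      refine le_trans ?_ (he.trans hle)
      rw [Finset.sum_const, nsmul_eq_mul, ← ENNReal.ofReal_natCast, ← ENNReal.ofReal_mul (by positivity)]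
      refine ENNReal.ofReal_le_ofReal ?_
      rw [mul_div_assoc', div_le_iff₀ hNpos, mul_comm]
      gcongr)
  exact ⟨w, (hF.1 w hw).1, hw2⟩

end Crest.Agent.R234.La_300
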