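import Crest.Agent.R234.La3_300

/-! Row 234, VF-LOGAS (task 1612, helper300), part 4: the logarithmic growth for approximately
stationary varifolds from the exact one by compactness; all projections, all centres and scales. -/

set_option autoImplicit false
set_option linter.unusedSectionVars false

open MeasureTheory Filter Topology Set Metric
open Crest.GeometryTopology.Submanifold Crest.Agent.R234.Vf_884 Crest.Agent.R234.Ar_870
open Crest.Agent.R234.Vc_164 Crest.Agent.R234.Cp914 Crest.Agent.R234.Pers_540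
open Crest.Agent.R234.N5_372 Crest.Agent.R234.Cy_870
open scoped ENNReal NNReal InnerProductSpace

noncomputable section

namespace Crest.Agent.R234.La_300

variable {m n k d : ℕ} {π : Euc k →L[ℝ] Euc m} {V : Measure (Euc k × L k)}

/-- exact unit scale growth for one projection (`M` as in 113's theorem, `lM = 0`). -/
def ExL (π : Euc k →L[ℝ] Euc m) (d : ℕ) : Prop :=
  ∀ C c : ℝ, 0 ≤ C → 0 < c → ∀ τ : ℝ, 0 < τ → ∀ K : ℝ, ∃ M0 : ℝ, ∀ M : ℝ, M0 ≤ M →
    ∀ (V : Measure (Euc k × L k)) (S : Submodule ℝ (Euc m)),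
    Stat m k (cy π (2 * M)) V → MassC π C (2 * M) V → LowD m (cy π (2 * M)) c V →
    Module.finrank ℝ S = d → ENNReal.ofReal τ ≤ eM V π (ball 0 1) →
    lM V π S (ball 0 (2 * M)) = 0 → ENNReal.ofReal (K * M ^ d) ≤ eM V π (ball 0 M)

theorem measurable_tl' (π : Euc k →L[ℝ] Euc m) : Measurable (tl π : L k → ℝ) :=
  (measurable_tl π).measurable

theorem unit_fix (hπ : IsCo π) (hE : ExL π d) {C c : ℝ} (hC : 0 ≤ C) (hc : 0 < c) {τ : ℝ}
    (hτ : 0 < τ) (K : ℝ) : ∃ M0 : ℝ, 3 ≤ M0 ∧ ∀ M : ℝ, M0 ≤ M → ∃ dA : ℝ, 0 < dA ∧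
    ∀ (V : Measure (Euc k × L k)) (S : Submodule ℝ (Euc m)),
    App m k dA (cy π (2 * M)) V → MassC π C (2 * M) V → LowD m (cy π (2 * M)) c V →
    Module.finrank ℝ S = d → ENNReal.ofReal τ ≤ eM V π (ball 0 1) →
    lM V π S (ball 0 (2 * M)) ≤ ENNReal.ofReal dA →
    ENNReal.ofReal (K * M ^ d) ≤ eM V π (ball 0 M) := by
  set N : ℕ := ⌈C * 4 ^ m / c⌉₊ + 1 with hN
  have hNc : C * 4 ^ m ≤ N * c := by
    rw [← div_le_iff₀ hc]
    calc C * 4 ^ m / c ≤ ⌈C * 4 ^ m / c⌉₊ := Nat.le_ceil _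
      _ ≤ N := by rw [hN]; exact_mod_cast Nat.le_succ _
  have hNpos : (0 : ℝ) < N := by rw [hN]; exact_mod_cast Nat.succ_pos _
  set ε : ℝ := τ / N with hε
  have hε0 : 0 < ε := by positivity
  obtain ⟨M0, hM0⟩ := hE C c hC hc (ε / 3 ^ m) (by positivity) (3 ^ d * (|K| + 1))
  refine ⟨max (3 * M0) 3, le_max_right _ _, fun M hM => ?_⟩
  have hM3 : 3 ≤ M := (le_max_right _ _).trans hM
  have hMM0 : M0 ≤ M / 3 := by
    have := (le_max_left (3 * M0) 3).trans hM
    linarith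
  by_contra hcon
  push Not at hcon
  have hseq : ∀ j : ℕ, ∃ (V : Measure (Euc k × L k)) (S : Submodule ℝ (Euc m)),
      App m k (1 / ((j : ℝ) + 1)) (cy π (2 * M)) V ∧ MassC π C (2 * M) V ∧
      LowD m (cy π (2 * M)) c V ∧
      Module.finrank ℝ S = d ∧ ENNReal.ofReal τ ≤ eM V π (ball 0 1) ∧
      lM V π S (ball 0 (2 * M)) ≤ ENNReal.ofReal (1 / ((j : ℝ) + 1)) ∧
      eM V π (ball 0 M) < ENNReal.ofReal (K * M ^ d) := by
    intro j
    obtain ⟨V, S, h1, h2, h3, h4, h5, h6, h7⟩ := hcon (1 / ((j : ℝ) + 1)) (by positivity)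
    exact ⟨V, S, h1, h2, h3, h4, h5, h6, h7⟩
  choose V S happ hmass hlow hS hen hlM htop using hseq
  have hbox : ∀ j, ∃ w : Euc k, ‖π w‖ < 1 ∧ ENNReal.ofReal ε ≤ eB π (V j) (bxc π w 1) := fun j =>
    exists_box hπ (by linarith) hC hc (hmass j) (hlow j) hNc hτ (hen j)
  choose w hw hwe using hbox
  -- vertical recentring
  have hpv : ∀ x : Euc k, π (AS_456.vp π x) = 0 := by
    intro x
    change π (x - ContinuousLinearMap.adjoint π (π x)) = 0
    rw [map_sub, show π (ContinuousLinearMap.adjoint π (π x)) = π x from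
      congrArg (fun T : Euc m →L[ℝ] Euc m => T (π x)) hπ, sub_self]
  have hcyl : ∀ (x : Euc k) (R : ℝ),
      (fun y : Euc k => AS_456.vp π x + (1 : ℝ) • y) ⁻¹' cy π R = cy π R := by
    intro x R
    ext y
    change ‖π (AS_456.vp π x + (1 : ℝ) • y)‖ < R ↔ ‖π y‖ < R
    rw [map_add, hpv, zero_add, one_smul]
  set V' : ℕ → Measure (Euc k × L k) := fun j => resc m (AS_456.vp π (w j)) 1 (V j) with hV'
  have happ' : ∀ j : ℕ, App m k (1 / ((j : ℝ) + 1)) (cy π (2 * M)) (V' j) := by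
    intro j
    have h1 := (happ j).zoom (by positivity) one_pos le_rfl (AS_456.vp π (w j))
    rwa [hcyl] at h1
  have hovs : ∀ j r, V' j (ov π (ball 0 r)) = V j (ov π (ball 0 r)) := by
    intro j r
    rw [hV']
    simp only
    rw [resc_ov m _ one_pos, hpv, one_pow, inv_one, ENNReal.ofReal_one, one_mul, one_mul, smul_zero,
      add_zero]
  have hbm : ∀ (j : ℕ) (g : L k → ℝ), Measurable g → ∀ r,
      bm (V' j) π g (ball 0 r) = bm (V j) π g (ball 0 r) := by
    intro j g hg r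
    rw [hV']
    simp only
    rw [bm_resc m _ one_pos hg, hpv, one_pow, inv_one, ENNReal.ofReal_one, one_mul, one_mul,
      smul_zero, add_zero]
  have hlow' : ∀ j, LowD m (cy π (2 * M)) c (V' j) := by
    intro j
    have h1 := LowD.resc (hlow j) (AS_456.vp π (w j)) one_pos
    rwa [hcyl] at h1
  obtain ⟨V₀, S₀, a₀, -, hst, hm0, hl0, hS0, hlM0, ha0, ha01, hb0, ht0⟩ := limit (R := 2 * M) (M := M)
    (C := C) (c := c) (ε := ε) (B := K * M ^ d) hπ (by linarith) (by linarith)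
    (V := V') (w := fun j : ℕ => 1 / ((j : ℝ) + 1)) tendsto_one_div_add_atTop_nhds_zero_nat happ'
    (fun j r hr hrR => by rw [hovs]; exact hmass j r hr hrR) hlow' S hS (by
      refine tendsto_of_tendsto_of_tendsto_of_le_of_le tendsto_const_nhds
        (h := fun j : ℕ => ENNReal.ofReal (1 / ((j : ℝ) + 1))) ?_ (fun _ => bot_le) fun j => ?_
      · have h1 := (ENNReal.continuous_ofReal.tendsto 0).comp
          (tendsto_one_div_add_atTop_nhds_zero_nat (𝕜 := ℝ))
        simpa [Function.comp_def] using h1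
      · change lM (V' j) π (S j) (ball 0 (2 * M)) ≤ _
        rw [lM, hbm j _ (continuous_eL π (S j)).measurable]
        exact hlM j)
    (a := fun j => AS_456.hp π (w j)) (fun j => by
      change AS_456.hp π (w j) - ContinuousLinearMap.adjoint π (π (AS_456.hp π (w j))) = 0
      have : π (AS_456.hp π (w j)) = π (w j) :=
        congrArg (fun T : Euc m →L[ℝ] Euc m => T (π (w j))) hπ
      rw [this]
      exact sub_self _) (fun j => by rw [norm_hp hπ]; exact (hw j).le) (fun j => by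
      rw [hV']
      simp only
      rw [eB_resc_one]
      have : AS_456.hp π (w j) + AS_456.vp π (w j) = w j := by
        change AS_456.hp π (w j) + (w j - AS_456.hp π (w j)) = w j
        abel
      rw [this]
      exact hwe j) (fun j => by
      rw [eM, hbm j _ (measurable_tl' π)]
      exact (htop j).le)
  -- exact varifold at scale 3
  set V₁ := resc m (0 : Euc k) 3 V₀ with hV₁
  have hpre : (fun y : Euc k => (0 : Euc k) + (3 : ℝ) • y) ⁻¹' cy π (2 * M) = cy π (2 * (M / 3)) := by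
    ext y
    change ‖π ((0 : Euc k) + (3 : ℝ) • y)‖ < 2 * M ↔ ‖π y‖ < 2 * (M / 3)
    rw [zero_add, map_smul, norm_smul, Real.norm_of_nonneg (by norm_num : (0:ℝ) ≤ 3)]
    constructor <;> intro h <;> linarith
  have h3 : (0 : ℝ) < 3 := by norm_num
  have hbm3 : ∀ (g : L k → ℝ), Measurable g → ∀ r,
      bm V₁ π g (ball 0 r) = ENNReal.ofReal ((3 ^ m)⁻¹) * bm V₀ π g (ball 0 (3 * r)) := by
    intro g hg r
    rw [hV₁, bm_resc m _ h3 hg, map_zero, smul_zero, add_zero]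
  have hst1 : Stat m k (cy π (2 * (M / 3))) V₁ := by
    have := resc_stat (0 : Euc k) h3 hst
    rwa [hpre] at this
  have hl1 : LowD m (cy π (2 * (M / 3))) c V₁ := by
    have := LowD.resc hl0 (0 : Euc k) h3
    rwa [hpre] at this
  have hm1 : MassC π C (2 * (M / 3)) V₁ := by
    intro r hr hrM
    rw [hV₁, resc_ov m _ h3, map_zero, smul_zero, add_zero]
    calc ENNReal.ofReal ((3 ^ m)⁻¹) * V₀ (ov π (ball 0 (3 * r)))
        ≤ ENNReal.ofReal ((3 ^ m)⁻¹) * ENNReal.ofReal (C * (3 * r) ^ m) := by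
          gcongr
          exact hm0 (3 * r) (by linarith) (by linarith)
      _ = ENNReal.ofReal (C * r ^ m) := by
          rw [← ENNReal.ofReal_mul (by positivity)]
          congr 1
          rw [mul_pow]
          field_simp
  have hen1 : ENNReal.ofReal (ε / 3 ^ m) ≤ eM V₁ π (ball 0 1) := by
    rw [eM, hbm3 _ (measurable_tl' π), mul_one]
    have h1 : eB π V₀ (bxc π a₀ 1) ≤ bm V₀ π (tl π) (ball 0 3) := by
      rw [bm_apply _ _ _ measurableSet_ball]
      refine lintegral_mono_set ?_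
      rintro p ⟨hp, -⟩
      change π p.1 ∈ ball 0 3
      rw [mem_ball_zero_iff]
      have h4 : ‖π (p.1 - a₀)‖ ≤ 1 := by rw [← norm_hp hπ]; exact hp.1
      have h5 : ‖π a₀‖ ≤ 1 := (norm_co_le hπ _).trans ha01
      calc ‖π p.1‖ = ‖π (p.1 - a₀) + π a₀‖ := by rw [← map_add]; congr 2; abel
        _ ≤ ‖π (p.1 - a₀)‖ + ‖π a₀‖ := norm_add_le _ _
        _ < 3 := by linarith
    calc ENNReal.ofReal (ε / 3 ^ m) = ENNReal.ofReal ((3 ^ m)⁻¹) * ENNReal.ofReal ε := by
          rw [← ENNReal.ofReal_mul (by positivity)]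
          congr 1
          rw [div_eq_inv_mul]
      _ ≤ _ := by gcongr; exact hb0.trans h1
  have hlM1 : lM V₁ π S₀ (ball 0 (2 * (M / 3))) = 0 := by
    rw [lM, hbm3 _ (continuous_eL π S₀).measurable, show 3 * (2 * (M / 3)) = 2 * M by ring]
    rw [lM] at hlM0
    rw [hlM0, mul_zero]
  have hfin := hM0 (M / 3) hMM0 V₁ S₀ hst1 hm1 hl1 hS0 hen1 hlM1
  rw [eM, hbm3 _ (measurable_tl' π), show 3 * (M / 3) = M by ring] at hfin
  rw [eM] at ht0
  have h5 : ENNReal.ofReal ((3 ^ m)⁻¹) ≤ 1 := by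
    rw [← ENNReal.ofReal_one]
    apply ENNReal.ofReal_le_ofReal
    exact inv_le_one_of_one_le₀ (one_le_pow₀ (by norm_num))
  have h6 : ENNReal.ofReal (3 ^ d * (|K| + 1) * (M / 3) ^ d) ≤ ENNReal.ofReal (K * M ^ d) := by
    refine hfin.trans ?_
    calc ENNReal.ofReal ((3 ^ m)⁻¹) * bm V₀ π (tl π) (ball 0 M)
        ≤ 1 * ENNReal.ofReal (K * M ^ d) := by gcongr
      _ = _ := one_mul _
  have h7 : 3 ^ d * (|K| + 1) * (M / 3) ^ d = (|K| + 1) * M ^ d := by
    rw [div_pow]; field_simp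
  have hMd : 0 < M ^ d := by positivity
  rw [h7] at h6
  have h8 : K * M ^ d < (|K| + 1) * M ^ d := by
    have := le_abs_self K
    nlinarith
  have h9 := (ENNReal.ofReal_lt_ofReal_iff (by positivity : 0 < (|K| + 1) * M ^ d)).2 h8
  exact absurd h6 (not_le.2 h9)

/-- all projections. -/
theorem unit_all (hE : ∀ π : Euc k →L[ℝ] Euc m, IsCo π → ExL π d) {C c : ℝ} (hC : 0 ≤ C)
    (hc : 0 < c) {τ : ℝ} (hτ : 0 < τ) (K : ℝ) :
    ∃ M0 : ℝ, 3 ≤ M0 ∧ ∀ M : ℝ, M0 ≤ M → ∃ dA : ℝ, 0 < dA ∧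
    ∀ π : Euc k →L[ℝ] Euc m, IsCo π →
    ∀ (V : Measure (Euc k × L k)) (S : Submodule ℝ (Euc m)),
    App m k dA (cy π (2 * M)) V → MassC π C (2 * M) V → LowD m (cy π (2 * M)) c V →
    Module.finrank ℝ S = d → ENNReal.ofReal τ ≤ eM V π (ball 0 1) →
    lM V π S (ball 0 (2 * M)) ≤ ENNReal.ofReal dA →
    ENNReal.ofReal (K * M ^ d) ≤ eM V π (ball 0 M) := by
  by_cases hex : ∃ π₀ : Euc k →L[ℝ] Euc m, IsCo π₀
  swap
  · exact ⟨3, le_rfl, fun M _ => ⟨1, one_pos, fun π hπ => absurd ⟨π, hπ⟩ hex⟩⟩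
  obtain ⟨π₀, hπ₀⟩ := hex
  obtain ⟨M0, hM03, hM0⟩ := unit_fix hπ₀ (hE π₀ hπ₀) hC hc hτ K
  refine ⟨M0, hM03, fun M hM => ?_⟩
  obtain ⟨dA, hdA, h⟩ := hM0 M hM
  refine ⟨dA, hdA, fun π hπ V S happ hmass hlow hS hen hlM => ?_⟩
  obtain ⟨O, hO⟩ := exists_rotation hπ hπ₀
  have hcy : O.symm ⁻¹' cy π (2 * M) = cy π₀ (2 * M) := by
    ext z
    change ‖π (O.symm z)‖ < 2 * M ↔ ‖π₀ z‖ < 2 * M
    rw [← hO, O.apply_symm_apply]
  have h1 := h (V.map (rt O)) S (by rw [← hcy]; exact happ.rot hdA.le O) (by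
      intro r hr hrM
      rw [map_rt_ov hO measurableSet_ball]
      exact hmass r hr hrM) (by rw [← hcy]; exact LowD.rot hlow O) hS (by
      rw [eM, bm_rt (c := tl π) hO (measurable_tl' π₀) (fun P => tl_rt hO P) measurableSet_ball]
      exact hen) (by
      rw [lM, bm_rt (c := eL π S) hO (continuous_eL π₀ S).measurable (fun P => eL_rt hO S P)
        measurableSet_ball]
      exact hlM)
  rwa [eM, bm_rt (c := tl π) hO (measurable_tl' π₀) (fun P => tl_rt hO P) measurableSet_ball] at h1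

/-- **(LOG) for approximately stationary varifolds**: tip centre `y`, tip radius `t ≤ 1`. -/
theorem log_app (hE : ∀ π : Euc k →L[ℝ] Euc m, IsCo π → ExL π d) {C c : ℝ} (hC : 0 ≤ C)
    (hc : 0 < c) {τ : ℝ} (hτ : 0 < τ) (K : ℝ) :
    ∃ M0 : ℝ, 3 ≤ M0 ∧ ∀ M : ℝ, M0 ≤ M → ∃ dA : ℝ, 0 < dA ∧
    ∀ π : Euc k →L[ℝ] Euc m, IsCo π →
    ∀ (W : Measure (Euc k × L k)) (S : Submodule ℝ (Euc m)) (y : Euc m) (t : ℝ), 0 < t → t ≤ 1 →
    App m k dA {z | ‖π z - y‖ < 2 * M * t} W →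
    (∀ r, t ≤ r → r ≤ 2 * M * t → W (ov π (ball y r)) ≤ ENNReal.ofReal (C * r ^ m)) →
    LowD m {z | ‖π z - y‖ < 2 * M * t} c W →
    Module.finrank ℝ S = d → ENNReal.ofReal (τ * t ^ m) ≤ eM W π (ball y t) →
    lM W π S (ball y (2 * M * t)) ≤ ENNReal.ofReal (dA * t ^ m) →
    ENNReal.ofReal (K * M ^ d * t ^ m) ≤ eM W π (ball y (M * t)) := by
  obtain ⟨M0, hM03, hM0⟩ := unit_all hE hC hc hτ K
  refine ⟨M0, hM03, fun M hM => ?_⟩
  obtain ⟨dA, hdA, h⟩ := hM0 M hM
  refine ⟨dA, hdA, fun π hπ W S y t ht ht1 happ hmass hlow hS hen hlM => ?_⟩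
  set z : Euc k := ContinuousLinearMap.adjoint π y with hz
  have hπz : π z = y := congrArg (fun T : Euc m →L[ℝ] Euc m => T y) hπ
  have hpre : (fun x : Euc k => z + t • x) ⁻¹' {z | ‖π z - y‖ < 2 * M * t} = cy π (2 * M) := by
    ext x
    change ‖π (z + t • x) - y‖ < 2 * M * t ↔ ‖π x‖ < 2 * M
    rw [map_add, hπz, add_sub_cancel_left, map_smul, norm_smul, Real.norm_of_nonneg ht.le,
      mul_comm t]
    exact mul_lt_mul_iff_left₀ ht
  have hbm : ∀ (g : L k → ℝ), Measurable g → ∀ r,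
      bm (resc m z t W) π g (ball 0 r) = ENNReal.ofReal ((t ^ m)⁻¹) * bm W π g (ball y (t * r)) := by
    intro g hg r
    rw [bm_resc m _ ht hg, hπz, smul_zero, add_zero]
  have htm : 0 < t ^ m := by positivity
  have hcancel : ∀ a : ℝ, ENNReal.ofReal ((t ^ m)⁻¹) * ENNReal.ofReal (a * t ^ m) =
      ENNReal.ofReal a := by
    intro a
    rw [← ENNReal.ofReal_mul (by positivity)]
    congr 1
    field_simp
  have h1 := h π hπ (resc m z t W) S (by
      have := happ.zoom hdA.le ht ht1 z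
      rwa [hpre] at this) (by
      intro r hr hrM
      rw [resc_ov m _ ht, hπz, smul_zero, add_zero]
      calc ENNReal.ofReal ((t ^ m)⁻¹) * W (ov π (ball y (t * r)))
          ≤ ENNReal.ofReal ((t ^ m)⁻¹) * ENNReal.ofReal (C * (t * r) ^ m) := by
            gcongr
            refine hmass (t * r) ?_ ?_
            · nlinarith
            · nlinarith
        _ = ENNReal.ofReal (C * r ^ m) := by
            rw [mul_pow, show C * (t ^ m * r ^ m) = (C * r ^ m) * t ^ m by ring]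
            exact hcancel _) (by
      have := LowD.resc hlow z ht
      rwa [hpre] at this) hS (by
      rw [eM, hbm _ (measurable_tl' π), mul_one, ← hcancel τ]
      gcongr
      exact hen) (by
      rw [lM, hbm _ (continuous_eL π S).measurable, ← hcancel dA, show t * (2 * M) = 2 * M * t by ring]
      gcongr
      exact hlM)
  rw [eM, hbm _ (measurable_tl' π), mul_comm t M] at h1
  have h2 : ENNReal.ofReal (K * M ^ d * t ^ m) =
      ENNReal.ofReal (t ^ m) * ENNReal.ofReal (K * M ^ d) := by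
    rw [← ENNReal.ofReal_mul htm.le]
    congr 1
    ring
  rw [h2]
  calc ENNReal.ofReal (t ^ m) * ENNReal.ofReal (K * M ^ d)
      ≤ ENNReal.ofReal (t ^ m) * (ENNReal.ofReal ((t ^ m)⁻¹) * bm W π (tl π) (ball y (M * t))) := by
        gcongr
    _ = bm W π (tl π) (ball y (M * t)) := by
        rw [← mul_assoc, ← ENNReal.ofReal_mul htm.le, mul_inv_cancel₀ htm.ne', ENNReal.ofReal_one,
          one_mul]

end Crest.Agent.R234.La_300
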