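import Crest.Agent.R234.Log8_113

/-!
Row 234, VF-LOG, part 9: **(LOG)** at unit scale: a tip in the unit ball and small defect in the directions
of an `(m-2)`-plane force the energy growth `e(B_M) ≥ K M^(m-2)`.
-/

set_option autoImplicit false

open MeasureTheory Set Filter Topology Metric Function Crest.GeometryTopology.Submanifold
open scoped ENNReal InnerProductSpace NNReal

noncomputable section

namespace Crest.Agent.R234.Log_113

open Vf_884 Strat3_842 Pers_540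
open Crest.Agent.R234.Cacc_113 (St en el slab ann bx D1 pt ix bt)

variable {m k : ℕ} {π : Euc k →L[ℝ] Euc m} {C₀ c₀ M : ℝ} {V : Measure (Euc k × L k)}

theorem exists_cover (P : L k) : ∃ Z : Finset (Euc k), (∀ c ∈ Z, c ∈ Bc P 2) ∧
    ∀ x ∈ Bc P 2, ∃ c ∈ Z, dist x c < 1 := by
  obtain ⟨t, ht, htf, hcov⟩ := (isCompact_Bc P 2).finite_cover_balls one_pos
  refine ⟨htf.toFinset, fun c hc => ht (by simpa using hc), fun x hx => ?_⟩
  obtain ⟨c, hc, hxc⟩ := mem_iUnion₂.mp (hcov hx)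
  exact ⟨c, by simpa using hc, hxc⟩

/-- from the box of radius `2` to the unit box -/
theorem exists_unit (hπ : Ar_870.IsCo π) {Z : Finset (Euc k)} (hZ : ∀ c ∈ Z, c ∈ Bc (hp π) 2)
    (hcov : ∀ x ∈ Bc (hp π) 2, ∃ c ∈ Z, dist x c < 1) (h : Un π C₀ c₀ (2 * M) V) (hM : 20 ≤ M)
    (S : Submodule ℝ (Euc m)) {a ξ : Euc k} (ha : ‖π a‖ ≤ 1) (hξ : ‖ξ‖ ≤ M / 4) {ε : ℝ}
    (hε : 0 < ε) (hen : ε ≤ en V (vp π) {x | x - (a + ξ) ∈ Bx (hp π) 2}) :
    ∃ c ∈ Z, ε / Z.card ≤ en V (vp π) (bx (lp π S) (lp π Sᗮ) (vp π) (a + c + ξ)) := by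
  have hM0 : 0 < M := by linarith
  have hst := st_of_stat h.st
  have hsubZ : ∀ c ∈ Z, ball (a + c + ξ) 1 ⊆ cy π (ball 0 (2 * M)) := by
    intro c hc x hx
    refine Zc_subset hM0 (mem_Zc ?_)
    rw [mem_ball, dist_eq_norm] at hx
    have h1 : ‖π (x - (a + c + ξ))‖ ≤ 1 := (norm_co_le hπ _).trans hx.le
    have h2 : ‖π ξ‖ ≤ M / 4 := (norm_co_le hπ _).trans hξ
    have h3 : ‖π c‖ ≤ 2 := by rw [← norm_hp hπ]; exact (hZ c hc).1
    have h4 : ‖π x‖ ≤ ‖π (x - (a + c + ξ))‖ + ‖π a‖ + ‖π c‖ + ‖π ξ‖ := by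
      calc ‖π x‖ = ‖π (x - (a + c + ξ)) + π a + π c + π ξ‖ := by
            rw [← map_add, ← map_add, ← map_add]; congr 2; abel
        _ ≤ _ := by
            refine (norm_add_le _ _).trans ?_
            gcongr
            refine (norm_add_le _ _).trans ?_
            gcongr
            exact norm_add_le _ _
    linarith
  obtain ⟨c, hc, hc2⟩ := hst.exists_en_ge (isPr_vp hπ) Z (fun c => ball (a + c + ξ) 1)
    (fun c _ => measurableSet_ball) (fun c hc => h.fin (hsubZ c hc))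
    (B := {x | x - (a + ξ) ∈ Bx (hp π) 2}) (ε := ε) (Eventually.of_forall fun z hz => by
      obtain ⟨c, hc, hc2⟩ := hcov _ (Bx_subset_Bc hz)
      refine ⟨c, hc, ?_⟩
      rw [mem_ball, dist_eq_norm]
      rw [dist_eq_norm] at hc2
      rwa [show z.1 - (a + c + ξ) = z.1 - (a + ξ) - c by abel]) hε hen
  refine ⟨c, hc, hc2.trans ?_⟩
  have hbsub : ball (a + c + ξ) 1 ⊆ bx (lp π S) (lp π Sᗮ) (vp π) (a + c + ξ) := by
    intro x hx
    rw [mem_ball, dist_eq_norm] at hx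
    exact ⟨((isPr_lp hπ S).norm_le _).trans hx.le, ((isPr_lp hπ Sᗮ).norm_le _).trans hx.le,
      ((isPr_vp hπ).norm_le _).trans hx.le⟩
  refine hst.en_mono (isPr_vp hπ) (h.fin ?_) hbsub
  intro x hx
  refine Zc_subset hM0 (mem_Zc ?_)
  have h1 := norm_pi_le hπ S (x - (a + c + ξ))
  have h1a := hx.1
  have h1b := hx.2.1
  have h2 : ‖π ξ‖ ≤ M / 4 := (norm_co_le hπ _).trans hξ
  have h3 : ‖π c‖ ≤ 2 := by rw [← norm_hp hπ]; exact (hZ c hc).1
  have h4 : ‖π x‖ ≤ ‖π (x - (a + c + ξ))‖ + ‖π a‖ + ‖π c‖ + ‖π ξ‖ := by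
    calc ‖π x‖ = ‖π (x - (a + c + ξ)) + π a + π c + π ξ‖ := by
          rw [← map_add, ← map_add, ← map_add]; congr 2; abel
      _ ≤ _ := by
          refine (norm_add_le _ _).trans ?_
          gcongr
          refine (norm_add_le _ _).trans ?_
          gcongr
          exact norm_add_le _ _
  linarith

theorem slab_subset (hπ : Ar_870.IsCo π) (S : Submodule ℝ (Euc m)) {b ξ : Euc k} (hb : ‖π b‖ ≤ 3)
    (hM : 20 ≤ M) (hξ : ‖ξ‖ ≤ M / 4) {r : ℝ} (hr : 4 * r ≤ M) :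
    slab (lp π S) (lp π Sᗮ) (b + ξ) r ⊆ cy π (ball 0 M) := by
  intro x hx
  change π x ∈ ball 0 _
  rw [mem_ball_zero_iff]
  have h1 := norm_pi_le hπ S (x - (b + ξ))
  have h1a := hx.1
  have h1b := hx.2
  have h2 : ‖π ξ‖ ≤ M / 4 := (norm_co_le hπ _).trans hξ
  have h4 : ‖π x‖ ≤ ‖π (x - (b + ξ))‖ + ‖π b‖ + ‖π ξ‖ := by
    calc ‖π x‖ = ‖π (x - (b + ξ)) + π b + π ξ‖ := by
          rw [← map_add, ← map_add]; congr 2; abel
      _ ≤ _ := by
          refine (norm_add_le _ _).trans ?_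
          gcongr
          exact norm_add_le _ _
  linarith

theorem cy_subset_Zc (hM : 0 < M) : cy π (ball 0 M) ⊆ Zc π M :=
  preimage_mono (ball_subset_closedBall.trans (closedBall_subset_closedBall (by linarith)))

/-- logarithmic growth in one slab -/
theorem Un.slab_growth (h : Un π C₀ c₀ (2 * M) V) (hM : 20 ≤ M) (S : Submodule ℝ (Euc m)) {d : ℕ}
    {v : Fin d → Euc m} (hv : Orthonormal ℝ v) (hvS : ∀ i, v i ∈ S) (hd : d + 2 = m)
    {b ξ : Euc k} (hb : ‖π b‖ ≤ 3) (hξ : ‖ξ‖ ≤ M / 4) (hξS : lp π S ξ = ξ) {ε : ℝ} (hε : 0 < ε)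
    (hel1 : 4 * D1 * df π M S V ≤ 1) (hel2 : 4 * D1 * df π M S V ≤ ε / 6) {J : ℕ}
    (hJ : 4 * 2 ^ J ≤ M) (hen : ε ≤ en V (vp π) (bx (lp π S) (lp π Sᗮ) (vp π) (b + ξ))) :
    J * (ε ^ 2 / (576 * D1 ^ 2 * Cm m d C₀)) ≤
      en V (vp π) (slab (lp π S) (lp π Sᗮ) (b + ξ) (2 ^ J)) := by
  have hπ := h.co
  have hM0 : 0 < M := by linarith
  have hD := Cacc_113.one_le_D1
  have hst := st_of_stat h.st
  have hsub := slab_subset hπ S hb hM hξ hJ
  have hsub2 : slab (lp π S) (lp π Sᗮ) (b + ξ) (2 ^ J) ⊆ Zc π M := hsub.trans (cy_subset_Zc hM0)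
  have hfinZ := h.fin (Zc_subset (π := π) hM0)
  refine hst.slab_log (isPr_lp hπ S) (isPr_lp hπ Sᗮ) (isPr_vp hπ) (lp_vp hπ S) (b + ξ)
    (hsub2.trans (Zc_subset hM0)) (h.fin (hsub2.trans (Zc_subset hM0))) (Cm_pos m d h.C₀_nonneg) hε
    ?_ hen ?_
  · intro j hj
    have hj2 : (2 : ℝ) ^ (j + 1) ≤ 2 ^ J := pow_le_pow_right₀ (by norm_num) hj
    have hj3 : (2 : ℝ) ^ (j + 1) = 2 * 2 ^ j := by ring
    have h1 := h.slab_mass hM S hv hvS hd (x₀ := b) (η := ξ) hb hξ hξS (ρ := 2 ^ j)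
      (one_le_pow₀ (by norm_num)) (by linarith) hel1
    refine le_trans (measureReal_mono (preimage_mono (Cacc_113.ann_subset_slab _ _ _ _)) ?_) h1
    refine (h.fin ?_).ne
    refine (slab_subset hπ S hb hM hξ ?_).trans ((cy_subset_Zc hM0).trans (Zc_subset hM0))
    linarith
  · refine le_trans ?_ hel2
    have h1 : √(V.real (Cacc_113.ov (slab (lp π S) (lp π Sᗮ) (b + ξ) (2 ^ J))) *
        el V (lp π S) (slab (lp π S) (lp π Sᗮ) (b + ξ) (2 ^ J))) ≤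
        √(V.real (Cacc_113.ov (Zc π M)) * el V (lp π S) (Zc π M)) :=
      Real.sqrt_le_sqrt (mul_le_mul (measureReal_mono (preimage_mono hsub2) hfinZ.ne)
        (hst.el_mono (isPr_lp hπ S) hfinZ hsub2) (hst.el_nonneg (isPr_lp hπ S) _)
        measureReal_nonneg)
    have h2 : √(V.real (Cacc_113.ov (Zc π M)) * el V (lp π S) (Zc π M)) ≤ df π M S V := by
      unfold df
      exact le_mul_of_one_le_left (Real.sqrt_nonneg _) (by linarith)
    gcongr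
    exact h1.trans h2

set_option maxHeartbeats 1000000 in
/-- **(LOG), box energy, all constants fixed.** -/
theorem log_core (hπ : Ar_870.IsCo π) {d : ℕ} (hd : d + 2 = m) (C₀ : ℝ) (hC₀ : 0 ≤ C₀) {c₀ τ : ℝ}
    (hc₀ : 0 < c₀) (hτ : 0 < τ) : ∃ ε > 0, ∃ c > 0, ∀ (M : ℝ) (V : Measure (Euc k × L k))
      (S : Submodule ℝ (Euc m)) (v : Fin d → Euc m), Orthonormal ℝ v → (∀ i, v i ∈ S) →
      Un π C₀ c₀ (2 * M) V → 20 ≤ M → df π M S V ≤ ε →
      ∀ a : Euc k, ‖π a‖ ≤ 1 → τ ≤ en V (vp π) {x | x - a ∈ Bc (hp π) 1} →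
      ∀ J : ℕ, 4 * 2 ^ J ≤ M → c * J * M ^ d ≤ en V (vp π) (cy π (ball 0 M)) := by
  classical
  have hD := Cacc_113.one_le_D1
  have hD0 : 0 < D1 := by linarith
  obtain ⟨ε, hε, hpers⟩ := exists_pers hπ hd C₀ hC₀ hc₀ hτ
  obtain ⟨Z, hZ, hcov⟩ := exists_cover (hp π)
  have hZne : Z.Nonempty := by
    obtain ⟨c, hc, -⟩ := hcov 0 ⟨by simp, by simp⟩
    exact ⟨c, hc⟩
  have hZpos : (0 : ℝ) < Z.card := by exact_mod_cast hZne.card_pos
  set ε' := ε / Z.card with hε'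
  have hε'0 : 0 < ε' := by positivity
  have hCm := Cm_pos m d hC₀
  set ε₁ := min (1 / (4 * D1)) (min ε (ε' / (24 * D1))) with hε₁
  have hε₁0 : 0 < ε₁ := by positivity
  set c := ε' ^ 2 / (576 * D1 ^ 2 * Cm m d C₀) / (36 * (d + 1)) ^ d with hc
  have hc0 : 0 < c := by positivity
  refine ⟨ε₁, hε₁0, c, hc0, fun M V S v hv hvS h hM hdf a ha hen J hJ => ?_⟩
  have hM0 : 0 < M := by linarith
  have hst := st_of_stat h.st
  have e1 : 4 * D1 * df π M S V ≤ 1 := by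
    calc 4 * D1 * df π M S V ≤ 4 * D1 * (1 / (4 * D1)) := by
          gcongr
          exact hdf.trans (min_le_left _ _)
      _ = 1 := by field_simp
  have e2 : df π M S V ≤ ε := hdf.trans ((min_le_right _ _).trans (min_le_left _ _))
  have e3 : 4 * D1 * df π M S V ≤ ε' / 6 := by
    calc 4 * D1 * df π M S V ≤ 4 * D1 * (ε' / (24 * D1)) := by
          gcongr
          exact hdf.trans ((min_le_right _ _).trans (min_le_right _ _))
      _ = ε' / 6 := by field_simp; ring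
  set N := ⌊(M / 4) / (9 * (d + 1))⌋₊ with hN
  have hxi : ∀ n ∈ ix d N, ‖xi π v n‖ ≤ M / 4 := fun n hn =>
    (norm_xi_le hπ hv hn).trans (floor_mul_le d (by positivity))
  have hex : ∀ n ∈ ix d N, ∃ c ∈ Z,
      ε' ≤ en V (vp π) (bx (lp π S) (lp π Sᗮ) (vp π) (a + c + xi π v n)) := fun n hn =>
    exists_unit hπ hZ hcov h hM S ha (hxi n hn) hε
      (hpers M V S v hv hvS h hM e1 e2 a ha hen (xi π v n) (lp_xi hπ hvS n) (hxi n hn))
  choose! g hg1 hg2 using hex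
  have hb : ∀ n ∈ ix d N, ‖π (a + g n)‖ ≤ 3 := by
    intro n hn
    rw [map_add]
    have h3 : ‖π (g n)‖ ≤ 2 := by rw [← norm_hp hπ]; exact (hZ _ (hg1 n hn)).1
    exact (norm_add_le _ _).trans (by linarith)
  have hgrow : ∀ n ∈ ix d N, J * (ε' ^ 2 / (576 * D1 ^ 2 * Cm m d C₀)) ≤
      en V (vp π) (slab (lp π S) (lp π Sᗮ) (a + g n + xi π v n) (2 ^ J)) := fun n hn =>
    h.slab_growth hM S hv hvS hd (hb n hn) (hxi n hn) (lp_xi hπ hvS n) hε'0 e1 e3 hJ (hg2 n hn)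
  have hdisj : (ix d N : Set (Fin d → ℤ)).Pairwise
      (Disjoint on fun n => slab (lp π S) (lp π Sᗮ) (a + g n + xi π v n) (2 ^ J)) := by
    intro n hn n' hn' hne
    change Disjoint (slab _ _ _ _) (slab _ _ _ _)
    rw [Set.disjoint_left]
    intro x hx hx'
    have h1 := nine_le_norm_xi_sub hπ hv hne
    have h2 : xi π v n - xi π v n' =
        lp π S (x - (a + g n' + xi π v n')) - lp π S (x - (a + g n + xi π v n)) +
          (lp π S (g n') - lp π S (g n)) := by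
      rw [← map_sub, ← map_sub, ← map_add,
        show x - (a + g n' + xi π v n') - (x - (a + g n + xi π v n)) + (g n' - g n) =
          xi π v n - xi π v n' by abel,
        map_sub, lp_xi hπ hvS, lp_xi hπ hvS]
    rw [h2] at h1
    have h3 := norm_add_le (lp π S (x - (a + g n' + xi π v n')) - lp π S (x - (a + g n + xi π v n)))
      (lp π S (g n') - lp π S (g n))
    have h4 := norm_sub_le (lp π S (x - (a + g n' + xi π v n'))) (lp π S (x - (a + g n + xi π v n)))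
    have h5 := norm_sub_le (lp π S (g n')) (lp π S (g n))
    have h6 : ∀ n ∈ ix d N, ‖lp π S (g n)‖ ≤ 2 := fun n hn =>
      (norm_lp_le hπ S _).trans (by rw [← norm_hp hπ]; exact (hZ _ (hg1 n hn)).1)
    have h7 := h6 n hn
    have h8 := h6 n' hn'
    have h9 := hx.1
    have h10 := hx'.1
    linarith
  have hsum := hst.sum_en_le (isPr_vp hπ) (ix d N)
    (fun n => slab (lp π S) (lp π Sᗮ) (a + g n + xi π v n) (2 ^ J))
    (fun n _ => (Cacc_113.isClosed_slab _ _ _ _).measurableSet) hdisj (B := cy π (ball 0 M))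
    (h.fin ((cy_subset_Zc hM0).trans (Zc_subset hM0)))
    (fun n hn => slab_subset hπ S (hb n hn) hM (hxi n hn) hJ)
  have hcard := card_ix_ge d (t := M / 4) (by positivity)
  refine le_trans ?_ hsum
  calc c * J * M ^ d = ((M / 4) / (9 * (d + 1))) ^ d * (J * (ε' ^ 2 / (576 * D1 ^ 2 * Cm m d C₀))) := by
        rw [hc]
        have e4 : (M / 4) / (9 * ((d : ℝ) + 1)) = M / (36 * (d + 1)) := by field_simp; ring
        rw [e4, div_pow M (36 * ((d : ℝ) + 1)) d]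
        ring
    _ ≤ (ix d N).card * (J * (ε' ^ 2 / (576 * D1 ^ 2 * Cm m d C₀))) := by gcongr
    _ = ∑ _n ∈ ix d N, J * (ε' ^ 2 / (576 * D1 ^ 2 * Cm m d C₀)) := by simp
    _ ≤ _ := Finset.sum_le_sum hgrow

/-- **(LOG) at unit scale, box energy**. -/
theorem log_box (hπ : Ar_870.IsCo π) {d : ℕ} (hd : d + 2 = m) (C₀ : ℝ) (hC₀ : 0 ≤ C₀) {c₀ τ : ℝ}
    (hc₀ : 0 < c₀) (hτ : 0 < τ) (K : ℝ) : ∃ M₀ : ℝ, 20 ≤ M₀ ∧ ∀ M, M₀ ≤ M → ∃ dA > 0,
      ∀ (V : Measure (Euc k × L k)) (S : Submodule ℝ (Euc m)), Module.finrank ℝ S = d →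
      Un π C₀ c₀ (2 * M) V → el V (lp π S) (Zc π M) ≤ dA →
      ∀ a : Euc k, ‖π a‖ ≤ 1 → τ ≤ en V (vp π) {x | x - a ∈ Bc (hp π) 1} →
      K * M ^ d ≤ en V (vp π) (cy π (ball 0 M)) := by
  obtain ⟨ε, hε, c, hc, hcore⟩ := log_core hπ hd C₀ hC₀ hc₀ hτ
  obtain ⟨J, hJ⟩ := exists_nat_gt (K / c)
  refine ⟨max 20 (4 * 2 ^ J), le_max_left _ _, fun M hM => ?_⟩
  have hM20 : 20 ≤ M := (le_max_left _ _).trans hM
  have hMJ : 4 * 2 ^ J ≤ M := (le_max_right _ _).trans hM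
  have hM0 : 0 < M := by linarith
  set A := C₀ * (2 * M) ^ m + 1 with hA
  have hA0 : 0 < A := by positivity
  refine ⟨(ε / M) ^ 2 / A, by positivity, fun V S hS h hel a ha hen => ?_⟩
  let b := (stdOrthonormalBasis ℝ S).reindex (finCongr hS)
  have hv : Orthonormal ℝ fun i => (b i : Euc m) := b.orthonormal.comp_linearIsometry S.subtypeₗᵢ
  have hfinZ := h.fin (Zc_subset (π := π) hM0)
  have hmass : V.real (Cacc_113.ov (Zc π M)) ≤ A := by
    have h1 := h.mass (2 * M) (by linarith) le_rfl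
    have h2 : V (Cacc_113.ov (Zc π M)) ≤ ENNReal.ofReal (C₀ * (2 * M) ^ m) := by
      rw [ov_eq]
      exact (measure_mono (prod_mono (Zc_subset hM0) subset_rfl)).trans h1
    rw [measureReal_def]
    refine (ENNReal.toReal_le_of_le_ofReal (by positivity) h2).trans ?_
    rw [hA]; linarith
  have hel0 := (st_of_stat h.st).el_nonneg (isPr_lp hπ S) (Zc π M)
  have hdf : df π M S V ≤ ε := by
    unfold df
    calc M * √(V.real (Cacc_113.ov (Zc π M)) * el V (lp π S) (Zc π M))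
        ≤ M * √(A * ((ε / M) ^ 2 / A)) := by gcongr
      _ = M * (ε / M) := by
          rw [mul_div_cancel₀ _ hA0.ne', Real.sqrt_sq (by positivity)]
      _ = ε := by field_simp
  have h1 := hcore M V S (fun i => (b i : Euc m)) hv (fun i => (b i).2) h hM20 hdf a ha hen J hMJ
  refine le_trans ?_ h1
  have h2 : K ≤ c * J := by
    have := (div_lt_iff₀ hc).mp hJ
    linarith
  gcongr

/-- **(LOG) at unit scale**: a tip over the unit ball. -/
theorem log_ball (hπ : Ar_870.IsCo π) {d : ℕ} (hd : d + 2 = m) (C₀ : ℝ) (hC₀ : 0 ≤ C₀) {c₀ τ : ℝ}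
    (hc₀ : 0 < c₀) (hτ : 0 < τ) (K : ℝ) : ∃ M₀ : ℝ, 20 ≤ M₀ ∧ ∀ M, M₀ ≤ M → ∃ dA > 0,
      ∀ (V : Measure (Euc k × L k)) (S : Submodule ℝ (Euc m)), Module.finrank ℝ S = d →
      Un π C₀ c₀ (2 * M) V → el V (lp π S) (Zc π M) ≤ dA →
      τ ≤ en V (vp π) (cy π (ball 0 1)) →
      K * M ^ d ≤ en V (vp π) (cy π (ball 0 M)) := by
  obtain ⟨N₀, hN₀⟩ := exists_nat_gt (C₀ * 4 ^ m / c₀)
  have hN₀pos : (0 : ℝ) < N₀ := lt_of_le_of_lt (by positivity) hN₀
  have hN₀' : C₀ * 4 ^ m ≤ N₀ * c₀ := ((div_lt_iff₀ hc₀).mp hN₀).le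
  obtain ⟨M₀, hM₀, hlog⟩ := log_box hπ hd C₀ hC₀ hc₀ (τ := τ / N₀) (by positivity) K
  refine ⟨M₀, hM₀, fun M hM => ?_⟩
  obtain ⟨dA, hdA, hd2⟩ := hlog M hM
  refine ⟨dA, hdA, fun V S hS h hel hen => ?_⟩
  obtain ⟨a, ha, ha2⟩ := h.exists_box (by linarith) hc₀ hN₀' hτ hen
  exact hd2 V S hS h hel a ha.le ha2

end Crest.Agent.R234.Log_113
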