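import Crest.Agent.R234.La4_300
import Crest.Agent.R234.Log9_113

/-! Row 234, VF-LOGAS (task 1612, helper300), part 5: **(LOG) for almost stationary varifolds**,
final form (113's exact theorem as input). -/

set_option autoImplicit false
set_option linter.unusedSectionVars false

open MeasureTheory Filter Topology Set Metric
open Crest.GeometryTopology.Submanifold Crest.Agent.R234.Vf_884 Crest.Agent.R234.Ar_870
open Crest.Agent.R234.Vc_164 Crest.Agent.R234.Cp914 Crest.Agent.R234.Pers_540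
open Crest.Agent.R234.N5_372 Crest.Agent.R234.Cy_870
open scoped ENNReal NNReal InnerProductSpace

noncomputable section

namespace Crest.Agent.R234.La_300

variable {m n k d : ℕ} {π : Euc k →L[ℝ] Euc m} {V : Measure (Euc k × L k)}

theorem tr_vp_eq (π : Euc k →L[ℝ] Euc m) {P : L k} (hP : P ∈ G m k) :
    Cacc_113.tr (Log_113.vp π ∘L P) = tl π P := by
  have h1 : Log_113.vp π ∘L P = P - Log_113.hp π ∘L P := by
    ext1 x; rfl
  have h2 : Log_113.hp π ∘L P = ContinuousLinearMap.adjoint π ∘L (π ∘L P) := rfl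
  have h3 : tr (Log_113.hp π ∘L P) = tr (Shh π P) := by
    rw [h2, tr_cyc]
    rfl
  change tr (Log_113.vp π ∘L P) = _
  rw [h1, map_sub, h3, hP.2.2]
  rfl

theorem tr_lp_eq (π : Euc k →L[ℝ] Euc m) (S : Submodule ℝ (Euc m)) (P : L k)
    (hπ : IsCo π) : Cacc_113.tr (Log_113.lp π S ∘L (1 - P)) = eL π S P := by
  have h1 : Log_113.lp π S ∘L (1 - P) =
      ContinuousLinearMap.adjoint π ∘L (S.starProjection ∘L π ∘L (1 - P)) := rfl
  have h2 : tr (Log_113.lp π S ∘L (1 - P)) =
      tr (S.starProjection ∘L (ContinuousLinearMap.id ℝ (Euc m) - Shh π P)) := by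
    rw [h1, tr_cyc]
    congr 1
    ext1 v
    change S.starProjection (π (ContinuousLinearMap.adjoint π v - P (ContinuousLinearMap.adjoint π v))) =
      S.starProjection (v - π (P (ContinuousLinearMap.adjoint π v)))
    rw [map_sub, show π (ContinuousLinearMap.adjoint π v) = v from
      congrArg (fun T : Euc m →L[ℝ] Euc m => T v) hπ]
  change tr (Log_113.lp π S ∘L (1 - P)) = _
  rw [h2, eL_eq, ContinuousLinearMap.comp_sub, map_sub, ContinuousLinearMap.comp_id]
  congr 1
  have h3 : S.starProjection ∈ G (Module.finrank ℝ S) m := starProjection_mem_G S rfl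
  exact h3.2.2

theorem cy_eq (π : Euc k →L[ℝ] Euc m) (R : ℝ) : Log_113.cy π (ball 0 R) = cy π R := by
  ext x
  change π x ∈ ball 0 R ↔ ‖π x‖ < R
  rw [mem_ball_zero_iff]

theorem ofReal_en (hπ : IsCo π) {A : Set (Euc m)} (hA : MeasurableSet A)
    (hc : ∀ᵐ p ∂V, p.2 ∈ G m k) (hfin : V (ov π A) < ⊤) :
    ENNReal.ofReal (Cacc_113.en V (Log_113.vp π) (Log_113.cy π A)) = eM V π A := by
  have hov : (Cacc_113.ov (Log_113.cy π A) : Set (Euc k × L k)) = ov π A := rfl
  unfold Cacc_113.en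
  rw [hov, eM, bm_apply _ _ _ hA]
  have hae : ∀ᵐ p ∂(V.restrict (ov π A)), Cacc_113.tr (Log_113.vp π ∘L p.2) = tl π p.2 := by
    filter_upwards [ae_restrict_of_ae hc] with p hp
    exact tr_vp_eq π hp
  rw [integral_congr_ae hae]
  refine ofReal_integral_eq_lintegral_ofReal ?_ ?_
  · have : IsFiniteMeasure (V.restrict (ov π A)) := ⟨by rwa [Measure.restrict_apply_univ]⟩
    refine Integrable.of_bound (C := (m : ℝ))
      (((measurable_tl' π).comp measurable_snd).aestronglyMeasurable) ?_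
    filter_upwards [ae_restrict_of_ae hc] with p hp
    have h1 := tl_nonneg hπ (isPr_of_G hp)
    have h2 := tl_le hπ (isPr_of_G hp)
    rw [Real.norm_eq_abs]
    exact abs_le.2 ⟨by linarith, h2⟩
  · filter_upwards [ae_restrict_of_ae hc] with p hp
    exact tl_nonneg hπ (isPr_of_G hp)

theorem el_eq_zero (hπ : IsCo π) (S : Submodule ℝ (Euc m)) {R : ℝ} {B : Set (Euc k)}
    (hB : B ⊆ cy π R) (hBm : MeasurableSet B) (hc : ∀ᵐ p ∂V, p.2 ∈ G m k)
    (h0 : lM V π S (ball 0 R) = 0) : Cacc_113.el V (Log_113.lp π S) B = 0 := by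
  unfold Cacc_113.el
  have h1 : ∀ᵐ p ∂V, p ∈ ov π (ball 0 R) → eL π S p.2 = 0 := by
    rw [lM, bm_apply _ _ _ measurableSet_ball] at h0
    have h2 := (lintegral_eq_zero_iff
      (((continuous_eL π S).measurable.comp measurable_snd).ennreal_ofReal :
        Measurable fun p : Euc k × L k => ENNReal.ofReal (eL π S p.2))).1 h0
    have h3 := (ae_restrict_iff' (measurableSet_ov (π := π) measurableSet_ball)).1 h2
    filter_upwards [h3, hc] with p hp hpc hpo
    have h4 : ENNReal.ofReal (eL π S p.2) = 0 := hp hpo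
    exact le_antisymm (ENNReal.ofReal_eq_zero.1 h4) (eL_nonneg hπ (isPr_of_G hpc) S)
  refine integral_eq_zero_of_ae ?_
  have h5 : ∀ᵐ p ∂V, p ∈ Cacc_113.ov B → Cacc_113.tr (Log_113.lp π S ∘L (1 - p.2)) = 0 := by
    filter_upwards [h1] with p hp hpB
    rw [tr_lp_eq π S p.2 hπ]
    refine hp ?_
    change π p.1 ∈ ball 0 R
    rw [mem_ball_zero_iff]
    exact hB hpB
  exact (ae_restrict_iff' (Cacc_113.measurableSet_ov hBm)).2 h5

theorem exL (hπ : IsCo π) (hd : d + 2 = m) : ExL π d := by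
  intro C c hC hc τ hτ K
  obtain ⟨M0, hM0, h⟩ := Log_113.log_ball hπ hd C hC hc hτ K
  refine ⟨M0, fun M hM V S hst hmass hlow hS hen hlM => ?_⟩
  obtain ⟨dA, hdA, h1⟩ := h M hM
  have hM20 : 20 ≤ M := hM0.trans hM
  have hUn : Log_113.Un π C c (2 * M) V :=
    { co := hπ
      one_le := by linarith
      C₀_nonneg := hC
      st := by rw [cy_eq]; exact hst
      mass := fun r hr hrM => by
        rw [cy_eq, ← ov_ball]
        exact hmass r hr hrM
      low := by rw [cy_eq]; exact hlow }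
  have hfin : ∀ r, r ≤ 2 * M → V (ov π (ball 0 r)) < ⊤ := by
    intro r hr
    refine lt_of_le_of_lt (measure_mono fun p hp => ?_)
      ((hmass (2 * M) (by linarith) le_rfl).trans_lt ENNReal.ofReal_lt_top)
    exact ball_subset_ball hr hp
  have hZ : Log_113.Zc π M ⊆ cy π (2 * M) := by
    intro x hx
    have h2 : π x ∈ closedBall 0 (3 / 2 * M) := hx
    rw [mem_closedBall_zero_iff] at h2
    change ‖π x‖ < 2 * M
    linarith
  have hel := el_eq_zero (V := V) hπ S (R := 2 * M) hZ (Log_113.isClosed_Zc M).measurableSet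
    hst.conc hlM
  have hτen : τ ≤ Cacc_113.en V (Log_113.vp π) (Log_113.cy π (ball 0 1)) := by
    have h2 := hen
    rw [← ofReal_en hπ measurableSet_ball hst.conc (hfin 1 (by linarith))] at h2
    by_contra hcon
    rw [not_le] at hcon
    have h3 := (ENNReal.ofReal_lt_ofReal_iff hτ).2 hcon
    exact absurd h2 (not_le.2 h3)
  have h4 := h1 V S hS hUn (by rw [hel]; exact hdA.le) hτen
  rw [← ofReal_en hπ measurableSet_ball hst.conc (hfin M (by linarith))]
  exact ENNReal.ofReal_le_ofReal h4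

/-- **(LOG) for approximately stationary varifolds**: tip centre `y`, tip radius `t ≤ 1`; the mass
bound is only used at the centre `y` for the radii `t ≤ r ≤ 2Mt`. -/
theorem log_as (hd : d + 2 = m) {C c : ℝ} (hC : 0 ≤ C) (hc : 0 < c) {τ : ℝ} (hτ : 0 < τ) (K : ℝ) :
    ∃ M0 : ℝ, 3 ≤ M0 ∧ ∀ M : ℝ, M0 ≤ M → ∃ dA : ℝ, 0 < dA ∧
    ∀ π : Euc k →L[ℝ] Euc m, IsCo π →
    ∀ (W : Measure (Euc k × L k)) (S : Submodule ℝ (Euc m)) (y : Euc m) (t : ℝ), 0 < t → t ≤ 1 →
    App m k dA {z | ‖π z - y‖ < 2 * M * t} W →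
    (∀ r, t ≤ r → r ≤ 2 * M * t → W (ov π (ball y r)) ≤ ENNReal.ofReal (C * r ^ m)) →
    LowD m {z | ‖π z - y‖ < 2 * M * t} c W →
    Module.finrank ℝ S = d → ENNReal.ofReal (τ * t ^ m) ≤ eM W π (ball y t) →
    lM W π S (ball y (2 * M * t)) ≤ ENNReal.ofReal (dA * t ^ m) →
    ENNReal.ofReal (K * M ^ d * t ^ m) ≤ eM W π (ball y (M * t)) :=
  log_app (fun _ hπ => exL hπ hd) hC hc hτ K

end Crest.Agent.R234.La_300
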