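import Crest.Agent.R234.La1_300
import Crest.Agent.R234.Asl2_214

/-! Row 234, VF-LOGAS (task 1612, helper300), part 7: `CylAS → App`. -/

set_option autoImplicit false
set_option linter.unusedSectionVars false

open MeasureTheory Filter Topology Set Metric
open Crest.GeometryTopology.Submanifold Crest.Agent.R234.Vf_884 Crest.Agent.R234.Ar_870
open Crest.Agent.R234.Vc_164
open scoped ENNReal NNReal InnerProductSpace

noncomputable section

namespace Crest.Agent.R234.La_300

variable {m n k : ℕ} {π : Euc k →L[ℝ] Euc m} {κ : Euc k →L[ℝ] Euc n} {W : Measure (Euc k × L k)}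

/-- **`CylAS` gives `App`** over the base ball, error `20 (m+1) (δ + √δ)`. -/
theorem app_of_cylAS {x₀ : Euc m} {R h₀ δ : ℝ} (h : Asl_214.CylAS W π κ x₀ R h₀ δ) (hδ : 0 ≤ δ)
    (hh : h₀ ≤ 1) : App m k (20 * (m + 1) * (δ + √δ)) {z | ‖π z - x₀‖ < R} W where
  conc := h.conc
  fin K _ _ := lt_of_le_of_lt (measure_mono (subset_univ _)) h.fin
  fv X hX hXc hXU := by
    have h1 := h.fv X hX (fun p hp => by
      by_contra hne
      have : p ∈ tsupport X := subset_tsupport X hne
      exact absurd (hXU this) (not_lt.2 hp))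
    refine h1.trans ?_
    rw [← integral_const_mul]
    have hW : W (tsupport X ×ˢ Set.univ) < ⊤ :=
      lt_of_le_of_lt (measure_mono (subset_univ _)) h.fin
    refine integral_mono_ae (AS_456.integrable_err h.conc hX hXc hW δ)
      ((integrable_sz h.conc hX hXc hW).const_mul _) ?_
    filter_upwards [h.conc, h.hgt] with p hp hph
    refine err_le h.sp.hh hδ X hp ?_
    rw [norm_vp_eq h.sp]
    exact hph.trans hh

end Crest.Agent.R234.La_300
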