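import Crest.Agent.R234.Bp3_3
import Crest.Agent.R234.Ex9_46

/-!
R234 (helper3), (LE-sep) of F3: the height excess over the normalised surface from the weighted
height integral `∫ 2 f`.
-/

set_option autoImplicit false

open MeasureTheory Filter Topology Set Metric
open scoped ENNReal NNReal ContDiff InnerProductSpace
open Crest.GeometryTopology.Submanifold Crest.Agent.R234.Vf_884

noncomputable section

namespace Crest.Agent.R234.F35_354

open Crest.Agent.R234.Main_456 (Frame Msys hgt sep box)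
open Crest.Agent.R234.Grot_842 (rπ rρ)
open Crest.Agent.R234.Foot_842 Crest.Agent.R234.Nrm_842 Crest.Agent.R234.Swb_159
open Crest.Agent.R234.Grot_842 Crest.Agent.R234.Ell1_3
open Crest.Agent.R234.Gi_456 (Gr tube foot ch Lo)

local notation "adj" => ContinuousLinearMap.adjoint

variable {m n k : ℕ} {π : Euc k →L[ℝ] Euc m} {ρ : Euc k →L[ℝ] Euc n} {x : Euc k}
  {w : Euc m → Euc n} {Xb : Euc m} {C κ t : ℝ} {q : Euc m →L[ℝ] Euc n} {H : Euc m →L[ℝ] Euc m}
  {H' : Euc n →L[ℝ] Euc n} {w' u : Euc m → Euc n} {T : Ft_209.Dif k} {e : ℝ}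

/-- `2 f = |z - foot point|²` on the tube -/
theorem two_f {r : ℝ} (h : Gr r w) (hf : Frame π ρ) (X0 : Euc m) {z : Euc k}
    (hz : z ∈ tube π ρ x r w) :
    2 * (ch π ρ x r w X0).f z = ‖z - pt π ρ x w (foot π ρ x r w z)‖ ^ 2 := by
  show 2 * (‖Gi_456.Bt π ρ w (foot π ρ x r w z) (Gi_456.yy π ρ x r w z)‖ ^ 2 / 2) = _
  rw [h.nu_eq hf hz, pt]
  ring

/-- the foot set of `K` is compact -/
theorem isCompact_footset {r : ℝ} (h : Gr r w) (hf : Frame π ρ) {K : Set (Euc k)}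
    (hK : IsCompact K) (hKt : K ⊆ tube π ρ x r w) (X : Euc m) (s : ℝ) :
    IsCompact {z | z ∈ K ∧ ‖foot π ρ x r w z - X‖ ≤ s} := by
  have h1 : ContinuousOn (fun z => ‖foot π ρ x r w z - X‖) K :=
    (((h.continuousOn_foot hf).mono hKt).sub continuousOn_const).norm
  have h2 : IsClosed (K ∩ (fun z => ‖foot π ρ x r w z - X‖) ⁻¹' Iic s) :=
    h1.preimage_isClosed_of_isClosed hK.isClosed isClosed_Iic
  have h3 := hK.inter_right h2
  have h4 : {z | z ∈ K ∧ ‖foot π ρ x r w z - X‖ ≤ s} =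
      K ∩ (K ∩ (fun z => ‖foot π ρ x r w z - X‖) ⁻¹' Iic s) := by
    ext z
    constructor
    · rintro ⟨a, b⟩
      exact ⟨a, a, b⟩
    · rintro ⟨a, -, b⟩
      exact ⟨a, b⟩
  rw [h4]
  exact h3

/-- `2 f` is integrable on the foot set of `K` -/
theorem integrableOn_two_f {r : ℝ} (h : Gr r w) (hf : Frame π ρ) {K U : Set (Euc k)}
    {Dd : VarifoldData m k} (hD : IsIntegralVarifoldIn U Dd)
    (hK : IsCompact K) (hKt : K ⊆ tube π ρ x r w) (hKU : K ⊆ U) (X0 X : Euc m) (s : ℝ) :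
    IntegrableOn (fun p : Euc k × L k => 2 * (ch π ρ x r w X0).f p.1)
      ({z | z ∈ K ∧ ‖foot π ρ x r w z - X‖ ≤ s} ×ˢ univ) (VD Dd) := by
  set S := {z | z ∈ K ∧ ‖foot π ρ x r w z - X‖ ≤ s} with hS
  have hSc : IsCompact S := isCompact_footset h hf hK hKt X s
  have hSK : S ⊆ K := fun z hz => hz.1
  have hfc : ContinuousOn (fun z => 2 * (ch π ρ x r w X0).f z) S := fun z hz =>
    (((h.hasFDerivAt_f hf (hKt (hSK hz))).continuousAt.const_mul 2)).continuousWithinAt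
  obtain ⟨M, hM⟩ := hSc.exists_bound_of_continuousOn hfc
  have hfin : VD Dd (S ×ˢ univ) < ⊤ := VD_fin hD hSc (hSK.trans hKU)
  have hmeas : MeasurableSet (S ×ˢ (univ : Set (L k))) := hSc.measurableSet.prod MeasurableSet.univ
  have hc : ContinuousOn (fun p : Euc k × L k => 2 * (ch π ρ x r w X0).f p.1) (S ×ˢ univ) :=
    hfc.comp continuous_fst.continuousOn (fun p hp => hp.1)
  have : IsFiniteMeasure ((VD Dd).restrict (S ×ˢ univ)) := ⟨by
    rwa [Measure.restrict_apply_univ]⟩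
  refine Integrable.mono' (integrable_const M) (hc.aestronglyMeasurable hmeas) ?_
  rw [ae_restrict_iff' hmeas]
  exact Eventually.of_forall fun p hp => hM p.1 hp.1

namespace Bp

variable (h : Bp π ρ x w Xb C κ t q H H' w' u T e)
include h

/-- **(LE-sep)** -/
theorem sep_le (X0 : Euc m) {K U : Set (Euc k)} {Dd : VarifoldData m k}
    (hD : IsIntegralVarifoldIn U Dd) (hK : IsCompact K) (hKt : K ⊆ tube π ρ x 1 w) (hKU : K ⊆ U)
    (hb : closedBall (pt π ρ x w Xb) (10 * t) ⊆ U)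
    (hcov : ∀ᵐ p ∂(VD Dd), p.1 ∈ U → p.1 ∈ tube π ρ x 1 w → ‖foot π ρ x 1 w p.1 - Xb‖ ≤ 14 * t →
      p.1 ∈ K) :
    sep (VD Dd) (rπ π ρ q H) (rρ π ρ q H') (pt π ρ x w Xb) t u 7 ≤
      25 / 16 * ∫ p in {z | z ∈ K ∧ ‖foot π ρ x 1 w z - Xb‖ ≤ 14 * t} ×ˢ univ,
        2 * (ch π ρ x 1 w X0).f p.1 ∂(VD Dd) := by
  have ht := h.zm.t0
  set P := rπ π ρ q H with hP
  set R := rρ π ρ q H' with hR
  set z0 := pt π ρ x w Xb with hz0
  set S := {z | z ∈ K ∧ ‖foot π ρ x 1 w z - Xb‖ ≤ 14 * t} with hS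
  have hSc : IsCompact S := isCompact_footset h.gr h.fr hK hKt Xb _
  have hmS : MeasurableSet (S ×ˢ (univ : Set (L k))) := hSc.measurableSet.prod MeasurableSet.univ
  have hboxo : IsOpen (box P R z0 (7 * t)) := by
    have h1 : IsOpen {z : Euc k | ‖P (z - z0)‖ < 7 * t} := isOpen_lt (by fun_prop) continuous_const
    have h2 : IsOpen {z : Euc k | ‖R (z - z0)‖ < 7 * t} := isOpen_lt (by fun_prop) continuous_const
    exact h1.inter h2
  have hmB : MeasurableSet (box P R z0 (7 * t) ×ˢ (univ : Set (L k))) :=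
    hboxo.measurableSet.prod MeasurableSet.univ
  have hint := integrableOn_two_f h.gr h.fr (x := x) hD hK hKt hKU X0 Xb (14 * t)
  unfold sep
  rw [← integral_const_mul, ← integral_indicator hmB, ← integral_indicator hmS]
  refine integral_mono_of_nonneg (Eventually.of_forall fun p => indicator_nonneg
    (fun _ _ => by positivity) _) ((integrable_indicator_iff hmS).2 (hint.const_mul (25 / 16))) ?_
  filter_upwards [hcov] with p hp
  by_cases hpB : p ∈ box P R z0 (7 * t) ×ˢ (univ : Set (L k))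
  · obtain ⟨s1, s2, s3⟩ := h.sep_pt hpB.1
    have s4 : p.1 ∈ U := hb (mem_closedBall_iff_norm.2 (h.norm_le_of_box hpB.1))
    have s5 : p.1 ∈ S := ⟨hp s4 s1 (by linarith), by linarith⟩
    rw [indicator_of_mem hpB, indicator_of_mem (show p ∈ S ×ˢ univ from ⟨s5, mem_univ _⟩),
      two_f h.gr h.fr X0 s1]
    calc ‖hgt P R z0 t u p.1‖ ^ 2 ≤ (5 / 4 * ‖p.1 - pt π ρ x w (foot π ρ x 1 w p.1)‖) ^ 2 := by
          gcongr
      _ = _ := by ring
  · rw [indicator_of_notMem hpB]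
    refine indicator_nonneg (fun p hp => ?_) _
    rw [two_f h.gr h.fr X0 (hKt hp.1.1)]
    positivity

end Bp

end Crest.Agent.R234.F35_354
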