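import Crest.Agent.R234.Ex9_46
import Crest.Agent.R234.Fx1_281

/-!
R234 (helper3), (LE-c) of F3 (354 #9198): heights of the transported, zoomed varifold on the open
set `UU` of the class.
-/

set_option autoImplicit false

open MeasureTheory Filter Topology Set Metric
open scoped ENNReal InnerProductSpace ContDiff
open Crest.GeometryTopology.Submanifold Crest.Agent.R234.Vf_884 Crest.Agent.R234.Cy_870
open Crest.Agent.R234.Main_456 (Frame Msys hgt sep box)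

noncomputable section

namespace Crest.Agent.R234.Lec_3

open Crest.Agent.R234.Ex_46

variable {m n k : ℕ}

local notation "adj" => ContinuousLinearMap.adjoint

/-- **(LE-c)** heights on `UU` -/
theorem hgt_UU {π : Euc k →L[ℝ] Euc m} {κ : Euc k →L[ℝ] Euc n} {u : Euc m → Euc n}
    {T : Ft_209.Dif k} {U : Set (Euc k)} {D : VarifoldData m k} {z₀ : Euc k} {ρ e lam d : ℝ}
    (hm : 1 ≤ m) (sp : Split π κ) (hT : Fc_209.IsChart T π κ u e) (ch : Cht π κ u e T.Φ T.Ψ)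
    (he16 : e ≤ 1 / 16) (hu : ContDiff ℝ 3 u) (hu0 : ∀ v, ‖u v‖ ≤ lam)
    (hu1 : ∀ v, ‖fderiv ℝ u v‖ ≤ lam)
    (hu2 : ∀ v ∈ ball (0 : Euc m) 7, ‖iteratedFDeriv ℝ 2 u v‖ ≤ lam ∧ Msys u v = 0)
    (hl : lam ≤ 1 / 64) (hlm : 16 * m * lam ^ 2 ≤ 1)
    (hU : IsOpen U) (hD : IsIntegralVarifoldIn U D) (hs : IsStationaryIn U D) (hρ : 0 < ρ)
    (hb : closedBall z₀ (14 * ρ) ⊆ U)
    (hsep : sep (VD D) π κ z₀ ρ u 7 ≤ d * ρ ^ (m + 2)) :
    ∀ z ∈ support (trans T.Ψ (zoom z₀ ρ D)), z ∈ UU π κ T.Φ z₀ ρ U →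
      ‖κ z‖ ^ 2 ≤ 5 * 2 ^ m / ome m * d := by
  intro z hz hzU
  obtain ⟨hzπ, hzκ, -⟩ := hzU
  have hom := ome_pos m
  have hl0 : 0 ≤ lam := (norm_nonneg _).trans (hu0 0)
  have hz0 := norm_nonneg (κ z)
  have h1 : hmt' z₀ ρ (T.Φ z) ∈ support D :=
    support_zoom hD z₀ hρ (support_cht (integral_zoom hD z₀ hρ) ch he16 hz)
  obtain ⟨hfoot, hκΦ, -, -⟩ := Fm_281.chart_foot sp hu hT hzκ (r := 3 / 2) (by linarith)
  have hw1 : ‖adj (fderiv ℝ u (π z)) (κ z)‖ ≤ lam * ‖κ z‖ := norm_adj_le (hu1 _) _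
  have eκ : κ (T.Φ z) = κ z + u (π z) := by rw [← hκΦ]; abel
  have eπ : π (T.Φ z) = π z - adj (fderiv ℝ u (π z)) (κ z) := by
    have h2 := hfoot.1
    rw [sub_zero, hκΦ] at h2
    rw [eq_sub_iff_add_eq]
    exact h2.symm
  have e1 : hmt' z₀ ρ (T.Φ z) - z₀ = ρ • T.Φ z := by unfold hmt'; abel
  have hbox : hmt' z₀ ρ (T.Φ z) ∈ box π κ z₀ ((7 - 1 / 2) * ρ) := by
    have h2 : ‖π (T.Φ z)‖ < 7 - 1 / 2 := by
      rw [eπ]
      refine (norm_sub_le _ _).trans_lt ?_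
      nlinarith
    have h3 : ‖κ (T.Φ z)‖ < 7 - 1 / 2 := by
      rw [eκ]
      refine (norm_add_le _ _).trans_lt ?_
      have := hu0 (π z)
      linarith
    constructor
    · rw [e1, map_smul, norm_smul, Real.norm_of_nonneg hρ.le, mul_comm]
      exact mul_lt_mul_of_pos_right h2 hρ
    · rw [e1, map_smul, norm_smul, Real.norm_of_nonneg hρ.le, mul_comm]
      exact mul_lt_mul_of_pos_right h3 hρ
  have h4 := Supm_685.height_supp hU hD hs hm (frame_of_split sp) hρ (hu.of_le (by norm_num))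
    (a := 7) (b := 1 / 2) (by norm_num) (by norm_num)
    (by rw [show (2 * (7 * ρ) : ℝ) = 14 * ρ by ring]; exact hb) hu2
    (by linarith) hbox h1
  -- normal height versus height over the graph
  have h5 : ρ * ‖κ z‖ ≤ 2 * ‖hgt π κ z₀ ρ u (hmt' z₀ ρ (T.Φ z))‖ := by
    set w := adj (fderiv ℝ u (π z)) (κ z) with hw
    have h1 : hgt π κ z₀ ρ u (hmt' z₀ ρ (T.Φ z)) = ρ • (κ z + (u (π z) - u (π z - w))) := by
      unfold hgt
      rw [e1, map_smul, map_smul, smul_smul, inv_mul_cancel₀ hρ.ne', one_smul,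
        eπ, eκ, ← smul_sub]
      congr 1
      abel
    have h3 : ‖u (π z) - u (π z - w)‖ ≤ lam * ‖π z - (π z - w)‖ :=
      convex_univ.norm_image_sub_le_of_norm_fderiv_le
        (fun x _ => (hu.differentiable (by norm_num)) x) (fun x _ => hu1 x)
        (mem_univ _) (mem_univ _)
    rw [sub_sub_cancel] at h3
    have h4 : ‖u (π z) - u (π z - w)‖ ≤ 1 / 4 * ‖κ z‖ := by
      refine h3.trans ((mul_le_mul_of_nonneg_left hw1 hl0).trans ?_)
      rw [← mul_assoc]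
      refine mul_le_mul_of_nonneg_right ?_ (norm_nonneg _)
      nlinarith
    rw [h1, norm_smul, Real.norm_of_nonneg hρ.le]
    have h5 : ‖κ z‖ ≤ ‖κ z + (u (π z) - u (π z - w))‖ + ‖u (π z) - u (π z - w)‖ := by
      have := norm_sub_le (κ z + (u (π z) - u (π z - w))) (u (π z) - u (π z - w))
      rwa [add_sub_cancel_right] at this
    nlinarith [norm_nonneg (κ z)]
  set a := ‖hgt π κ z₀ ρ u (hmt' z₀ ρ (T.Φ z))‖ with ha
  have h6 : ome m * a ^ 2 ≤ 33 / 32 * (2 ^ m * (d * ρ ^ 2)) := by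
    refine h4.trans ?_
    have e1 : ((1 / 2 * ρ) ^ m)⁻¹ * (d * ρ ^ (m + 2)) = 2 ^ m * (d * ρ ^ 2) := by
      rw [pow_add, mul_pow, one_div, inv_pow]
      have : ρ ^ m ≠ 0 := by positivity
      field_simp
    rw [← e1]
    refine mul_le_mul_of_nonneg_left ?_ (by norm_num)
    exact mul_le_mul_of_nonneg_left hsep (by positivity)
  have h7 : (ρ * ‖κ z‖) ^ 2 ≤ 4 * a ^ 2 := by
    have := pow_le_pow_left₀ (by positivity) h5 2
    linarith [this, mul_pow (2:ℝ) a 2]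
  have hρ2 : 0 < ρ ^ 2 := by positivity
  have h2m : (0:ℝ) < 2 ^ m := by positivity
  have h8 : ome m * ‖κ z‖ ^ 2 * ρ ^ 2 ≤ 5 * 2 ^ m * d * ρ ^ 2 := by
    have e2 : 0 ≤ 2 ^ m * (d * ρ ^ 2) := by nlinarith [mul_nonneg hom.le (sq_nonneg a)]
    have e3 : ome m * (ρ * ‖κ z‖) ^ 2 ≤ ome m * (4 * a ^ 2) := mul_le_mul_of_nonneg_left h7 hom.le
    calc ome m * ‖κ z‖ ^ 2 * ρ ^ 2 = ome m * (ρ * ‖κ z‖) ^ 2 := by ring
      _ ≤ ome m * (4 * a ^ 2) := e3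
      _ = 4 * (ome m * a ^ 2) := by ring
      _ ≤ 4 * (33 / 32 * (2 ^ m * (d * ρ ^ 2))) := by linarith
      _ ≤ 5 * (2 ^ m * (d * ρ ^ 2)) := by linarith
      _ = _ := by ring
  have h9 : ome m * ‖κ z‖ ^ 2 ≤ 5 * 2 ^ m * d := le_of_mul_le_mul_right h8 hρ2
  rw [div_mul_eq_mul_div, le_div_iff₀ hom]
  linarith

end Crest.Agent.R234.Lec_3
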