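import Crest.Agent.R234.Ex9_46
import Crest.Agent.R234.Fx1_281

/-!
# Row 234, F3-LE, part (LE-c) of #9198 (helper98): heights on `UU`

`hgt_UU`: on the whole open set `UU` (cylinder `‖π z‖ < 6`, `‖κ z‖ < 3`) the normal heights of the
transported support points satisfy `‖κ z‖² ≤ (5 2^m / ω_m) d`, `d = ρ^(-m-2) sep`.
-/

set_option autoImplicit false

open MeasureTheory Filter Topology Set Metric
open scoped ENNReal InnerProductSpace ContDiff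
open Crest.GeometryTopology.Submanifold Crest.Agent.R234.Vf_884 Crest.Agent.R234.Cy_870
open Crest.Agent.R234.Main_456 (Frame Msys hgt sep box)
open Crest.Agent.R234.Fc_209 (IsChart)
open Crest.Agent.R234.Ex_46

noncomputable section

namespace Crest.Agent.R234.Lec_98

variable {m n k : ℕ} {U : Set (Euc k)} {D : VarifoldData m k}
  {π : Euc k →L[ℝ] Euc m} {κ : Euc k →L[ℝ] Euc n} {u : Euc m → Euc n} {Φ Ψ : Euc k → Euc k}
  {lam e : ℝ}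

local notation "adj" => ContinuousLinearMap.adjoint

/-- the constant of the heights -/
def Ch (m : ℕ) : ℝ := 5 * 2 ^ m / ome m

theorem Ch_pos (m : ℕ) : 0 < Ch m := by
  have := ome_pos m
  unfold Ch
  positivity

/-- the equation of the chart at `z` -/
def Eqz (π : Euc k →L[ℝ] Euc m) (κ : Euc k →L[ℝ] Euc n) (u : Euc m → Euc n)
    (Φ : Euc k → Euc k) (z : Euc k) : Prop :=
  Φ z = z + adj κ (u (π z)) - adj π (adj (fderiv ℝ u (π z)) (κ z))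

theorem Eqz.pi_eq {z : Euc k} (h : Eqz π κ u Φ z) (sp : Split π κ) :
    π (Φ z) = π z - adj (fderiv ℝ u (π z)) (κ z) := by
  rw [h, map_sub, map_add, pi_adj_ka sp, pi_adj sp, add_zero]

theorem Eqz.ka_eq {z : Euc k} (h : Eqz π κ u Φ z) (sp : Split π κ) :
    κ (Φ z) = κ z + u (π z) := by
  rw [h, map_sub, map_add, ka_adj sp, ka_adj_pi sp, sub_zero]

/-- normal height versus height over the graph -/
theorem Eqz.height_le {z : Euc k} (h : Eqz π κ u Φ z) (sp : Split π κ) (hu : Differentiable ℝ u)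
    (hl : ∀ v, ‖fderiv ℝ u v‖ ≤ lam) (hl2 : lam ≤ 1 / 2) (z₀ : Euc k) {ρ : ℝ} (hρ : 0 < ρ) :
    ρ * ‖κ z‖ ≤ 2 * ‖hgt π κ z₀ ρ u (hmt' z₀ ρ (Φ z))‖ := by
  have hl0 : 0 ≤ lam := (norm_nonneg _).trans (hl 0)
  set w := adj (fderiv ℝ u (π z)) (κ z) with hw
  have h1 : hgt π κ z₀ ρ u (hmt' z₀ ρ (Φ z)) = ρ • (κ z + (u (π z) - u (π z - w))) := by
    unfold hgt hmt'
    rw [add_sub_cancel_left, map_smul, map_smul, smul_smul, inv_mul_cancel₀ hρ.ne', one_smul,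
      h.pi_eq sp, h.ka_eq sp, ← hw, ← smul_sub]
    congr 1
    abel
  have h2 : ‖w‖ ≤ lam * ‖κ z‖ := norm_adj_le (hl _) _
  have h3 : ‖u (π z) - u (π z - w)‖ ≤ lam * ‖π z - (π z - w)‖ :=
    convex_univ.norm_image_sub_le_of_norm_fderiv_le (fun x _ => hu x) (fun x _ => hl x)
      (mem_univ _) (mem_univ _)
  rw [sub_sub_cancel] at h3
  have h4 : ‖u (π z) - u (π z - w)‖ ≤ 1 / 4 * ‖κ z‖ := by
    refine h3.trans ((mul_le_mul_of_nonneg_left h2 hl0).trans ?_)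
    rw [← mul_assoc]
    refine mul_le_mul_of_nonneg_right ?_ (norm_nonneg _)
    nlinarith
  rw [h1, norm_smul, Real.norm_of_nonneg hρ.le]
  have h5 : ‖κ z‖ ≤ ‖κ z + (u (π z) - u (π z - w))‖ + ‖u (π z) - u (π z - w)‖ := by
    have := norm_sub_le (κ z + (u (π z) - u (π z - w))) (u (π z) - u (π z - w))
    rwa [add_sub_cancel_right] at this
  nlinarith [norm_nonneg (κ z)]

/-- **heights of the transported varifold on `UU`**, one point -/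
theorem hgt_pt (hU : IsOpen U) (hD : IsIntegralVarifoldIn U D) (hs : IsStationaryIn U D)
    (hm : 1 ≤ m) (sp : Split π κ) (ch : Cht π κ u e Φ Ψ) (he : e ≤ 1 / 16) (hu : ContDiff ℝ 2 u)
    (hu0 : ∀ v, ‖u v‖ ≤ lam) (hu1 : ∀ v, ‖fderiv ℝ u v‖ ≤ lam)
    (hu2 : ∀ v ∈ ball (0 : Euc m) 7, ‖iteratedFDeriv ℝ 2 u v‖ ≤ lam ∧ Msys u v = 0)
    (hl2 : lam ≤ 1 / 8) (hlm : 16 * m * lam ^ 2 ≤ 1) {z₀ : Euc k} {ρ : ℝ} (hρ : 0 < ρ)
    (hb : closedBall z₀ (14 * ρ) ⊆ U) {d : ℝ}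
    (hd : sep (VD D) π κ z₀ ρ u 7 ≤ d * ρ ^ (m + 2)) {z : Euc k}
    (hz : z ∈ support (trans Ψ (zoom z₀ ρ D))) (heq : Eqz π κ u Φ z) (hzc : ‖π z‖ < 6)
    (hzk : ‖κ z‖ < 3) : ‖κ z‖ ^ 2 ≤ Ch m * d := by
  have hom := ome_pos m
  have hl0 : 0 ≤ lam := (norm_nonneg _).trans (hu0 0)
  have h1 : hmt' z₀ ρ (Φ z) ∈ support D :=
    support_zoom hD z₀ hρ (support_cht (integral_zoom hD z₀ hρ) ch he hz)
  have hbox : hmt' z₀ ρ (Φ z) ∈ box π κ z₀ ((7 - 1 / 2) * ρ) := by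
    have e1 : hmt' z₀ ρ (Φ z) - z₀ = ρ • Φ z := by unfold hmt'; abel
    have h2 : ‖π (Φ z)‖ < 7 - 1 / 2 := by
      rw [heq.pi_eq sp]
      refine (norm_sub_le _ _).trans_lt ?_
      have := norm_adj_le (hu1 (π z)) (κ z)
      nlinarith [norm_nonneg (κ z)]
    have h3 : ‖κ (Φ z)‖ < 7 - 1 / 2 := by
      rw [heq.ka_eq sp]
      refine (norm_add_le _ _).trans_lt ?_
      have := hu0 (π z)
      linarith
    constructor
    · rw [e1, map_smul, norm_smul, Real.norm_of_nonneg hρ.le, mul_comm]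
      exact mul_lt_mul_of_pos_right h2 hρ
    · rw [e1, map_smul, norm_smul, Real.norm_of_nonneg hρ.le, mul_comm]
      exact mul_lt_mul_of_pos_right h3 hρ
  have h4 := Supm_685.height_supp hU hD hs hm (frame_of_split sp) hρ hu (a := 7) (b := 1 / 2)
    (by norm_num) (by norm_num) (by rw [show (2 * (7 * ρ) : ℝ) = 14 * ρ by ring]; exact hb) hu2
    (by nlinarith) hbox h1
  have h5 := heq.height_le sp (hu.differentiable two_ne_zero) hu1 (by linarith) z₀ hρ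
  set a := ‖hgt π κ z₀ ρ u (hmt' z₀ ρ (Φ z))‖ with ha
  have h6 : ome m * a ^ 2 ≤ 33 / 32 * (2 ^ m * (d * ρ ^ 2)) := by
    refine h4.trans ?_
    have e1 : ((1 / 2 * ρ) ^ m)⁻¹ * (d * ρ ^ (m + 2)) = 2 ^ m * (d * ρ ^ 2) := by
      rw [pow_add, mul_pow, one_div, inv_pow]
      have h7 : ρ ^ m ≠ 0 := by positivity
      field_simp
    rw [← e1]
    refine mul_le_mul_of_nonneg_left ?_ (by norm_num)
    exact mul_le_mul_of_nonneg_left hd (by positivity)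
  have h7 : (ρ * ‖κ z‖) ^ 2 ≤ 4 * a ^ 2 := by
    have := pow_le_pow_left₀ (by positivity) h5 2
    linarith [this, mul_pow (2:ℝ) a 2]
  have hρ2 : 0 < ρ ^ 2 := by positivity
  have h2m : (0:ℝ) < 2 ^ m := by positivity
  have h8 : ome m * ‖κ z‖ ^ 2 * ρ ^ 2 ≤ 5 * 2 ^ m * d * ρ ^ 2 := by
    have e2 : 0 ≤ 2 ^ m * (d * ρ ^ 2) := by nlinarith [mul_nonneg hom.le (sq_nonneg a)]
    have e3 : ome m * (ρ * ‖κ z‖) ^ 2 ≤ ome m * (4 * a ^ 2) := mul_le_mul_of_nonneg_left h7 hom.le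
    nlinarith
  have h9 : ome m * ‖κ z‖ ^ 2 ≤ 5 * 2 ^ m * d := le_of_mul_le_mul_right h8 hρ2
  unfold Ch
  rw [div_mul_eq_mul_div, le_div_iff₀ hom]
  linarith

theorem Eqz.of_chart {T : Ft_209.Dif k} (hu : ContDiff ℝ 3 u) (hT : IsChart T π κ u e) {z : Euc k}
    (hz : ‖κ z‖ < 3) : Eqz π κ u T.Φ z := hT.Φ_eq' hu hz

/-- **heights on `UU`** (#9198 (LE-c)) -/
theorem hgt_UU {T : Ft_209.Dif k} (hU : IsOpen U) (hD : IsIntegralVarifoldIn U D)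
    (hs : IsStationaryIn U D) (hm : 1 ≤ m) (sp : Split π κ) (hT : IsChart T π κ u e)
    (ch : Cht π κ u e T.Φ T.Ψ) (he : e ≤ 1 / 16) (hu : ContDiff ℝ 3 u)
    (hu0 : ∀ v, ‖u v‖ ≤ lam) (hu1 : ∀ v, ‖fderiv ℝ u v‖ ≤ lam)
    (hu2 : ∀ v ∈ ball (0 : Euc m) 7, ‖iteratedFDeriv ℝ 2 u v‖ ≤ lam ∧ Msys u v = 0)
    (hl2 : lam ≤ 1 / 8) (hlm : 16 * m * lam ^ 2 ≤ 1) {z₀ : Euc k} {ρ : ℝ} (hρ : 0 < ρ)
    (hb : closedBall z₀ (14 * ρ) ⊆ U) {d : ℝ}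
    (hd : sep (VD D) π κ z₀ ρ u 7 ≤ d * ρ ^ (m + 2)) :
    ∀ z ∈ support (trans T.Ψ (zoom z₀ ρ D)), z ∈ UU π κ T.Φ z₀ ρ U → ‖κ z‖ ^ 2 ≤ Ch m * d :=
  fun _ hz hzU => hgt_pt hU hD hs hm sp ch he (hu.of_le (by norm_num)) hu0 hu1 hu2 hl2 hlm hρ hb hd
    hz (Eqz.of_chart hu hT hzU.2.1) hzU.1 hzU.2.1

/-- **heights of the class data**, a.e. -/
theorem hgt_DD {T : Ft_209.Dif k} (hU : IsOpen U) (hD : IsIntegralVarifoldIn U D)
    (hs : IsStationaryIn U D) (hm : 1 ≤ m) (sp : Split π κ) (hT : IsChart T π κ u e)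
    (ch : Cht π κ u e T.Φ T.Ψ) (he : e ≤ 1 / 16) (hu : ContDiff ℝ 3 u)
    (hu0 : ∀ v, ‖u v‖ ≤ lam) (hu1 : ∀ v, ‖fderiv ℝ u v‖ ≤ lam)
    (hu2 : ∀ v ∈ ball (0 : Euc m) 7, ‖iteratedFDeriv ℝ 2 u v‖ ≤ lam ∧ Msys u v = 0)
    (hl2 : lam ≤ 1 / 8) (hlm : 16 * m * lam ^ 2 ≤ 1) {z₀ : Euc k} {ρ : ℝ} (hρ : 0 < ρ)
    (hb : closedBall z₀ (14 * ρ) ⊆ U) {d : ℝ}
    (hd : sep (VD D) π κ z₀ ρ u 7 ≤ d * ρ ^ (m + 2)) :
    ∀ᵐ p ∂(VD (DD π κ T.Φ T.Ψ z₀ ρ U D)), p.1 ∈ UU π κ T.Φ z₀ ρ U ∧ ‖κ p.1‖ ^ 2 ≤ Ch m * d := by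
  have hXi : IsIntegralVarifoldIn (UU π κ T.Φ z₀ ρ U) (DD π κ T.Φ T.Ψ z₀ ρ U D) :=
    integral_DD hD hU ch.dif z₀ hρ
  have hOo : IsOpen (UU π κ T.Φ z₀ ρ U) := isOpen_UU ch.dif.cd.continuous z₀ ρ hU
  have hti := integral_trans (integral_zoom hD z₀ hρ) ch.dif.symm
  have hsupp : ∀ᵐ p ∂(VD (DD π κ T.Φ T.Ψ z₀ ρ U D)),
      p.1 ∈ support (DD π κ T.Φ T.Ψ z₀ ρ U D) := by
    have h2 : ∀ᵐ x ∂(weight (DD π κ T.Φ T.Ψ z₀ ρ U D)), x ∈ support (DD π κ T.Φ T.Ψ z₀ ρ U D) := by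
      rw [ae_iff]
      exact Ct914.weight_compl_support _
    rw [← VD_fst hXi] at h2
    exact ae_of_ae_map measurable_fst.aemeasurable h2
  have hin : ∀ᵐ p ∂(VD (DD π κ T.Φ T.Ψ z₀ ρ U D)), p.1 ∈ UU π κ T.Φ z₀ ρ U := by
    have h2 : ∀ᵐ x ∂(weight (DD π κ T.Φ T.Ψ z₀ ρ U D)), x ∈ UU π κ T.Φ z₀ ρ U := by
      unfold DD
      rw [weight_restr hti hOo.measurableSet]
      exact ae_restrict_mem hOo.measurableSet
    rw [← VD_fst hXi] at h2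
    exact ae_of_ae_map measurable_fst.aemeasurable h2
  filter_upwards [hsupp, hin] with p hp hpc
  have h1 : p.1 ∈ support (trans T.Ψ (zoom z₀ ρ D)) := support_restr hti hOo.measurableSet hp
  exact ⟨hpc, hgt_UU hU hD hs hm sp hT ch he hu hu0 hu1 hu2 hl2 hlm hρ hb hd _ h1 hpc⟩

end Crest.Agent.R234.Lec_98
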