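import Mathlib

/-!
# R234: localisation lemma (VF-LOC)

`b = b₁ - b₂` a signed datum on a finite dimensional inner product space `F`, dominated by a
positive finite measure `e`.  If the single bump `(1 - ‖y - x‖²/ρ²)₊` satisfies
`b(bump_{x,ρ}) ≤ A x` for every centre `x`, then for every `φ ≥ 0`
`b(φ) ≤ ∫ w φ A + ∫ |φ - φ~| de`, `φ~ y = ∫ w x φ x bump_{x,ρ} y dx`.
-/

set_option linter.unusedSectionVars false
set_option linter.unusedSimpArgs false

open MeasureTheory Set Metric Function
open scoped ENNReal NNReal Topology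

namespace Crest.Agent.R234.Loc1_290

variable {F : Type*} [NormedAddCommGroup F] [InnerProductSpace ℝ F] [FiniteDimensional ℝ F]
  [MeasurableSpace F] [BorelSpace F]

/-- abstract averaging lemma with a general kernel `β` -/
theorem loc_abstract (vol : Measure F) [SFinite vol] (b₁ b₂ e : Measure F) [IsFiniteMeasure b₁]
    [IsFiniteMeasure b₂] [IsFiniteMeasure e]
    (β : F → F → ℝ) (hβm : Measurable (uncurry β)) (hβ1 : ∀ x y, |β x y| ≤ 1)
    (g : F → ℝ) (hg : Integrable g vol) (hg0 : ∀ x, 0 ≤ g x)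
    (φ : F → ℝ) (hφ₁ : Integrable φ b₁) (hφ₂ : Integrable φ b₂)
    (A : F → ℝ) (hA : ∀ x, g x ≠ 0 → ∫ y, β x y ∂b₁ - ∫ y, β x y ∂b₂ ≤ A x)
    (hgA : Integrable (fun x => g x * A x) vol)
    (habs : ∫ y, (φ y - ∫ x, g x * β x y ∂vol) ∂b₁ - ∫ y, (φ y - ∫ x, g x * β x y ∂vol) ∂b₂
      ≤ ∫ y, |φ y - ∫ x, g x * β x y ∂vol| ∂e) :
    ∫ y, φ y ∂b₁ - ∫ y, φ y ∂b₂ ≤
      ∫ x, g x * A x ∂vol + ∫ y, |φ y - ∫ x, g x * β x y ∂vol| ∂e := by
  have key : ∀ (b : Measure F) [IsFiniteMeasure b],
      Integrable (uncurry fun x y => g x * β x y) (vol.prod b) := by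
    intro b _
    have h1 : Integrable (fun p : F × F => g p.1) (vol.prod b) := by
      simpa using hg.comp_fst b
    refine Integrable.mono h1 ?_ ?_
    · exact (h1.aestronglyMeasurable).mul hβm.aestronglyMeasurable
    · refine Filter.Eventually.of_forall fun p => ?_
      simp only [uncurry, norm_mul, Real.norm_eq_abs]
      have := hβ1 p.1 p.2
      calc |g p.1| * |β p.1 p.2| ≤ |g p.1| * 1 := by gcongr
        _ = |g p.1| := mul_one _
  have swap : ∀ (b : Measure F) [IsFiniteMeasure b],
      ∫ y, (∫ x, g x * β x y ∂vol) ∂b = ∫ x, g x * (∫ y, β x y ∂b) ∂vol := by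
    intro b _
    rw [← integral_integral_swap (key b)]
    refine integral_congr_ae (Filter.Eventually.of_forall fun x => ?_)
    simp only
    rw [integral_const_mul]
  have int2 : ∀ (b : Measure F) [IsFiniteMeasure b],
      Integrable (fun y => ∫ x, g x * β x y ∂vol) b := by
    intro b _
    exact (key b).integral_prod_right
  have int1 : ∀ (b : Measure F) [IsFiniteMeasure b],
      Integrable (fun x => g x * ∫ y, β x y ∂b) vol := by
    intro b _
    have := (key b).integral_prod_left
    refine this.congr (Filter.Eventually.of_forall fun x => ?_)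
    simp only [uncurry]
    rw [integral_const_mul]
  rw [integral_sub hφ₁ (int2 b₁), integral_sub hφ₂ (int2 b₂), swap b₁, swap b₂] at habs
  have h3 : ∫ x, g x * (∫ y, β x y ∂b₁) ∂vol - ∫ x, g x * (∫ y, β x y ∂b₂) ∂vol
      ≤ ∫ x, g x * A x ∂vol := by
    rw [← integral_sub (int1 b₁) (int1 b₂)]
    refine integral_mono ((int1 b₁).sub (int1 b₂)) hgA fun x => ?_
    simp only [Pi.sub_apply]
    rw [← mul_sub]
    by_cases hx : g x = 0
    · simp [hx]
    · exact mul_le_mul_of_nonneg_left (hA x hx) (hg0 x)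
  linarith

/-- the bump `(1 - ‖y - x‖²/ρ²)₊` -/
noncomputable def bump (ρ : ℝ) (x y : F) : ℝ := max 0 (1 - ‖y - x‖ ^ 2 / ρ ^ 2)

theorem bump_nonneg (ρ : ℝ) (x y : F) : 0 ≤ bump ρ x y := le_max_left _ _

theorem bump_le_one (ρ : ℝ) (x y : F) : bump ρ x y ≤ 1 := by
  unfold bump
  refine max_le zero_le_one ?_
  have : 0 ≤ ‖y - x‖ ^ 2 / ρ ^ 2 := by positivity
  linarith

theorem abs_bump_le (ρ : ℝ) (x y : F) : |bump ρ x y| ≤ 1 := by
  rw [abs_of_nonneg (bump_nonneg ρ x y)]; exact bump_le_one ρ x y

theorem bump_comm (ρ : ℝ) (x y : F) : bump ρ x y = bump ρ y x := by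
  unfold bump; rw [norm_sub_rev]

theorem bump_add (ρ : ℝ) (x h : F) : bump ρ x (x + h) = bump ρ 0 h := by
  unfold bump; simp

theorem bump_sub' (ρ : ℝ) (x y : F) : bump ρ x y = bump ρ 0 (x - y) := by
  unfold bump; rw [sub_zero, norm_sub_rev]

theorem bump_neg (ρ : ℝ) (h : F) : bump ρ 0 (-h) = bump ρ 0 h := by
  unfold bump; simp

theorem bump_eq_zero {ρ : ℝ} (hρ : 0 < ρ) {x y : F} (h : ρ ≤ ‖y - x‖) : bump ρ x y = 0 := by
  unfold bump
  refine max_eq_left ?_
  have h1 : 1 ≤ ‖y - x‖ ^ 2 / ρ ^ 2 := by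
    rw [le_div_iff₀ (by positivity)]
    nlinarith
  linarith

theorem bump_ge {ρ : ℝ} (hρ : 0 < ρ) {x y : F} (h : ‖y - x‖ ≤ ρ / 2) : 3 / 4 ≤ bump ρ x y := by
  unfold bump
  refine le_max_of_le_right ?_
  have h1 : ‖y - x‖ ^ 2 / ρ ^ 2 ≤ 1 / 4 := by
    rw [div_le_iff₀ (by positivity)]
    nlinarith [norm_nonneg (y - x)]
  linarith

theorem continuous_bump (ρ : ℝ) : Continuous (uncurry (bump ρ : F → F → ℝ)) := by
  unfold bump uncurry
  fun_prop

theorem measurable_bump (ρ : ℝ) : Measurable (uncurry (bump ρ : F → F → ℝ)) :=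
  (continuous_bump ρ).measurable

theorem continuous_bump_left (ρ : ℝ) (y : F) : Continuous fun x => bump ρ x y := by
  unfold bump
  fun_prop

theorem continuous_bump_right (ρ : ℝ) (x : F) : Continuous fun y => bump ρ x y := by
  unfold bump
  fun_prop

variable (vol : Measure F) [vol.IsAddHaarMeasure]

theorem integrable_bump {ρ : ℝ} (hρ : 0 < ρ) : Integrable (fun h : F => bump ρ 0 h) vol := by
  refine Continuous.integrable_of_hasCompactSupport (continuous_bump_right ρ 0) ?_
  refine HasCompactSupport.intro (isCompact_closedBall (0 : F) ρ) fun y hy => ?_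
  refine bump_eq_zero hρ ?_
  simp only [mem_closedBall, dist_zero_right, not_le] at hy
  simpa using hy.le

/-- the mass of the bump -/
noncomputable def mass (ρ : ℝ) : ℝ := ∫ h, bump ρ 0 h ∂vol

/-- lower bound: `mass ≥ (3/4) vol(B_{ρ/2})` -/
theorem mass_ge {ρ : ℝ} (hρ : 0 < ρ) :
    3 / 4 * vol.real (closedBall (0 : F) (ρ / 2)) ≤ mass vol ρ := by
  have h1 : ∫ h in closedBall (0 : F) (ρ / 2), (3 / 4 : ℝ) ∂vol ≤
      ∫ h in closedBall (0 : F) (ρ / 2), bump ρ 0 h ∂vol := by
    refine setIntegral_mono_on ?_ (integrable_bump vol hρ).integrableOn measurableSet_closedBall ?_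
    · refine integrableOn_const ?_ ?_
      · exact (measure_closedBall_lt_top).ne
      · simp
    · intro h hh
      refine bump_ge hρ ?_
      simpa using hh
  have h2 : ∫ h in closedBall (0 : F) (ρ / 2), bump ρ 0 h ∂vol ≤ mass vol ρ :=
    setIntegral_le_integral (integrable_bump vol hρ)
      (Filter.Eventually.of_forall fun h => bump_nonneg ρ 0 h)
  rw [setIntegral_const, smul_eq_mul] at h1
  linarith

theorem mass_pos {ρ : ℝ} (hρ : 0 < ρ) : 0 < mass vol ρ := by
  have h := mass_ge vol hρ
  have h1 : 0 < vol.real (closedBall (0 : F) (ρ / 2)) := by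
    refine ENNReal.toReal_pos ?_ (measure_closedBall_lt_top).ne
    exact (measure_closedBall_pos vol _ (by positivity)).ne'
  linarith

/-- `vol(B_{2ρ}) ≤ (4/3) 4^m mass` -/
theorem vol_le_mass {ρ : ℝ} (hρ : 0 < ρ) :
    vol.real (closedBall (0 : F) (2 * ρ)) ≤
      4 / 3 * 4 ^ (Module.finrank ℝ F) * mass vol ρ := by
  have h1 := mass_ge vol hρ
  have h2 : vol.real (closedBall (0 : F) (2 * ρ)) =
      4 ^ (Module.finrank ℝ F) * vol.real (closedBall (0 : F) (ρ / 2)) := by
    have e1 : (2 : ℝ) * ρ = 4 * (ρ / 2) := by ring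
    rw [e1]
    unfold Measure.real
    rw [Measure.addHaar_closedBall_mul vol 0 (by norm_num) (by positivity : (0 : ℝ) ≤ ρ / 2),
      ENNReal.toReal_mul, ENNReal.toReal_ofReal (by positivity)]
  rw [h2]
  have h3 : (0 : ℝ) < 4 ^ (Module.finrank ℝ F) := by positivity
  nlinarith

/-- the average of `φ` -/
noncomputable def avg (ρ : ℝ) (φ : F → ℝ) (y : F) : ℝ :=
  ∫ x, (mass vol ρ)⁻¹ * φ x * bump ρ x y ∂vol

/-- pointwise error of the average: an affine expansion at `y` up to `δ` on the ball of radius `ρ`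
gives `|φ y - avg φ y| ≤ δ` -/
theorem abs_sub_avg_le {ρ : ℝ} (hρ : 0 < ρ) {φ : F → ℝ} (hφ : Continuous φ) (y : F) (L : F →L[ℝ] ℝ)
    {δ : ℝ} (hL : ∀ x, ‖x - y‖ ≤ ρ → |φ x - φ y - L (x - y)| ≤ δ) :
    |φ y - avg vol ρ φ y| ≤ δ := by
  have hm := mass_pos vol hρ
  -- change variables x = y + h
  have e1 : avg vol ρ φ y = ∫ h, (mass vol ρ)⁻¹ * φ (y + h) * bump ρ 0 h ∂vol := by
    unfold avg
    rw [← integral_add_left_eq_self _ y]
    refine integral_congr_ae (Filter.Eventually.of_forall fun h => ?_)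
    simp only
    rw [bump_sub' ρ (y + h) y, add_sub_cancel_left]
  have cs : ∀ f : F → ℝ, Continuous f → Integrable (fun h => f h * bump ρ 0 h) vol := by
    intro f hf
    refine Continuous.integrable_of_hasCompactSupport (hf.mul (continuous_bump_right ρ 0)) ?_
    refine HasCompactSupport.intro (isCompact_closedBall (0 : F) ρ) fun z hz => ?_
    have : bump ρ 0 z = 0 := by
      refine bump_eq_zero hρ ?_
      simp only [mem_closedBall, dist_zero_right, not_le] at hz
      simpa using hz.le
    rw [this, mul_zero]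
  have e2 : ∫ h, L h * bump ρ 0 h ∂vol = 0 := by
    have h1 := integral_neg_eq_self (fun h => L h * bump ρ 0 h) vol
    have h2 : ∫ h, L (-h) * bump ρ 0 (-h) ∂vol = - ∫ h, L h * bump ρ 0 h ∂vol := by
      rw [← integral_neg]
      refine integral_congr_ae (Filter.Eventually.of_forall fun h => ?_)
      simp only [map_neg, bump_neg]
      ring
    rw [h2] at h1
    linarith
  have e3 : φ y - avg vol ρ φ y =
      - ∫ h, (mass vol ρ)⁻¹ * ((φ (y + h) - φ y - L h) * bump ρ 0 h) ∂vol := by
    have i1 := cs (fun h => φ (y + h)) (by fun_prop)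
    have i2 := cs (fun _ => φ y) (by fun_prop)
    have i3 := cs (fun h => L h) (by fun_prop)
    have e4 : ∫ h, (φ (y + h) - φ y - L h) * bump ρ 0 h ∂vol =
        ∫ h, φ (y + h) * bump ρ 0 h ∂vol - φ y * mass vol ρ := by
      have : (fun h => (φ (y + h) - φ y - L h) * bump ρ 0 h) =
          fun h => φ (y + h) * bump ρ 0 h - φ y * bump ρ 0 h - L h * bump ρ 0 h := by
        ext h; ring
      have i12 : Integrable (fun h => φ (y + h) * bump ρ 0 h - φ y * bump ρ 0 h) vol := i1.sub i2
      rw [this, integral_sub i12 i3, integral_sub i1 i2, e2, integral_const_mul]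
      unfold mass
      ring
    rw [integral_const_mul, e4, e1]
    have : (fun h => (mass vol ρ)⁻¹ * φ (y + h) * bump ρ 0 h) =
        fun h => (mass vol ρ)⁻¹ * (φ (y + h) * bump ρ 0 h) := by
      ext h; ring
    rw [this, integral_const_mul]
    field_simp
    ring
  rw [e3, abs_neg]
  calc |∫ h, (mass vol ρ)⁻¹ * ((φ (y + h) - φ y - L h) * bump ρ 0 h) ∂vol|
      ≤ ∫ h, (mass vol ρ)⁻¹ * (δ * bump ρ 0 h) ∂vol := by
        rw [← Real.norm_eq_abs]
        refine norm_integral_le_of_norm_le
          (((integrable_bump vol hρ).const_mul δ).const_mul _) ?_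
        refine Filter.Eventually.of_forall fun h => ?_
        rw [Real.norm_eq_abs, abs_mul, abs_of_pos (inv_pos.mpr hm), abs_mul,
          abs_of_nonneg (bump_nonneg ρ 0 h)]
        refine mul_le_mul_of_nonneg_left ?_ (inv_pos.mpr hm).le
        by_cases hh : ‖h‖ ≤ ρ
        · refine mul_le_mul_of_nonneg_right ?_ (bump_nonneg ρ 0 h)
          have h1 := hL (y + h) (by simpa using hh)
          rwa [add_sub_cancel_left] at h1
        · have : bump ρ 0 h = 0 := bump_eq_zero hρ (by simpa using (not_le.mp hh).le)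
          rw [this]; simp
    _ = δ := by
        rw [integral_const_mul, integral_const_mul]
        change (mass vol ρ)⁻¹ * (δ * mass vol ρ) = δ
        field_simp

/-- `∫ φ(x) e(B_r(x)) dx ≤ M vol(B_r) e(r-neighbourhood of the support)` -/
theorem lintegral_ball_le (e : Measure F) [IsFiniteMeasure e] {r : ℝ} (S : Set F) (hS : MeasurableSet S) :
    ∫⁻ x in S, e (closedBall x r) ∂vol ≤
      vol (closedBall (0 : F) r) * e (⋃ x ∈ S, closedBall x r) := by
  have hmeas : MeasurableSet {p : F × F | dist p.2 p.1 ≤ r} :=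
    (isClosed_le (by fun_prop) (by fun_prop)).measurableSet
  have e1 : ∀ x, e (closedBall x r) = ∫⁻ y, indicator {p : F × F | dist p.2 p.1 ≤ r} 1 (x, y) ∂e := by
    intro x
    have h1 : (fun y => indicator {p : F × F | dist p.2 p.1 ≤ r} (1 : F × F → ℝ≥0∞) (x, y)) =
        indicator (closedBall x r) 1 := by
      ext y
      simp only [indicator, mem_ofPred_eq, mem_closedBall, Pi.one_apply]
    rw [h1, lintegral_indicator_one measurableSet_closedBall]
  simp_rw [e1]
  rw [lintegral_lintegral_swap]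
  · have h2 : ∀ y, ∫⁻ x in S, indicator {p : F × F | dist p.2 p.1 ≤ r} 1 (x, y) ∂vol ≤
        indicator (⋃ x ∈ S, closedBall x r) (fun _ => vol (closedBall (0 : F) r)) y := by
      intro y
      by_cases hy : y ∈ ⋃ x ∈ S, closedBall x r
      · rw [indicator_of_mem hy]
        calc ∫⁻ x in S, indicator {p : F × F | dist p.2 p.1 ≤ r} 1 (x, y) ∂vol
            ≤ ∫⁻ x, indicator {p : F × F | dist p.2 p.1 ≤ r} 1 (x, y) ∂vol :=
              setLIntegral_le_lintegral _ _
          _ = ∫⁻ x, indicator (closedBall y r) 1 x ∂vol := by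
              refine lintegral_congr fun x => ?_
              simp only [indicator, mem_ofPred_eq, mem_closedBall, Pi.one_apply, dist_comm y x]
          _ = vol (closedBall y r) := lintegral_indicator_one measurableSet_closedBall
          _ = vol (closedBall (0 : F) r) := Measure.addHaar_closedBall_center vol y r
      · rw [indicator_of_notMem hy]
        simp only [mem_iUnion, mem_closedBall, not_exists, not_le] at hy
        rw [nonpos_iff_eq_zero, lintegral_eq_zero_iff']
        · rw [Filter.EventuallyEq, ae_restrict_iff' hS]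
          refine Filter.Eventually.of_forall fun x hx => ?_
          have := hy x hx
          simp only [indicator, mem_ofPred_eq, Pi.one_apply, Pi.zero_apply]
          rw [if_neg (not_le.mpr this)]
        · have : Measurable fun x => indicator {p : F × F | dist p.2 p.1 ≤ r} (1 : F × F → ℝ≥0∞) (x, y) :=
            (measurable_one.indicator hmeas).comp (by fun_prop)
          exact this.aemeasurable
    calc ∫⁻ y, ∫⁻ x in S, indicator {p : F × F | dist p.2 p.1 ≤ r} 1 (x, y) ∂vol ∂e
        ≤ ∫⁻ y, indicator (⋃ x ∈ S, closedBall x r) (fun _ => vol (closedBall (0 : F) r)) y ∂e :=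
          lintegral_mono h2
      _ ≤ vol (closedBall (0 : F) r) * e (⋃ x ∈ S, closedBall x r) :=
          lintegral_indicator_const_le _ _
  · exact (measurable_one.indicator hmeas).aemeasurable

theorem measurable_ball (e : Measure F) [IsFiniteMeasure e] (r : ℝ) :
    Measurable fun x => e (closedBall x r) := by
  have hmeas : MeasurableSet {p : F × F | dist p.2 p.1 ≤ r} :=
    (isClosed_le (by fun_prop) (by fun_prop)).measurableSet
  exact measurable_measure_prodMk_left hmeas

/-- **localisation lemma**, flat version -/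
theorem loc {ρ : ℝ} (hρ : 0 < ρ) (b₁ b₂ e : Measure F) [IsFiniteMeasure b₁] [IsFiniteMeasure b₂]
    [IsFiniteMeasure e] {φ : F → ℝ} (hφ : Continuous φ) (hφc : HasCompactSupport φ)
    (hφ0 : ∀ x, 0 ≤ φ x) {M : ℝ} (hM : ∀ x, φ x ≤ M) {η : ℝ} (hη : 0 ≤ η)
    (hb : ∀ x, φ x ≠ 0 → ∫ y, bump ρ x y ∂b₁ - ∫ y, bump ρ x y ∂b₂ ≤
      η * e.real (closedBall x (2 * ρ)))
    (habs : ∀ f : F → ℝ, Continuous f → HasCompactSupport f →
      ∫ y, f y ∂b₁ - ∫ y, f y ∂b₂ ≤ ∫ y, |f y| ∂e) :
    ∫ y, φ y ∂b₁ - ∫ y, φ y ∂b₂ ≤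
      4 / 3 * 4 ^ (Module.finrank ℝ F) * η * M *
        e.real (⋃ x ∈ support φ, closedBall x (2 * ρ)) + ∫ y, |φ y - avg vol ρ φ y| ∂e := by
  have hm := mass_pos vol hρ
  have hM0 : 0 ≤ M := (hφ0 0).trans (hM 0)
  set g : F → ℝ := fun x => (mass vol ρ)⁻¹ * φ x with hg
  have hgi : Integrable g vol := (hφ.integrable_of_hasCompactSupport hφc).const_mul _
  have hmeasE : Measurable fun x => e.real (closedBall x (2 * ρ)) :=
    (measurable_ball e (2 * ρ)).ennreal_toReal
  have hgA : Integrable (fun x => g x * (η * e.real (closedBall x (2 * ρ)))) vol := by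
    refine Integrable.mono (hgi.const_mul (η * e.real univ)) ?_ ?_
    · exact hgi.aestronglyMeasurable.mul (hmeasE.const_mul η).aestronglyMeasurable
    · refine Filter.Eventually.of_forall fun x => ?_
      change ‖g x * (η * e.real (closedBall x (2 * ρ)))‖ ≤ ‖η * e.real univ * g x‖
      rw [norm_mul (g x), norm_mul _ (g x), mul_comm]
      have h1 : ‖η * e.real (closedBall x (2 * ρ))‖ ≤ ‖η * e.real univ‖ := by
        rw [Real.norm_eq_abs, Real.norm_eq_abs, abs_of_nonneg (by positivity),
          abs_of_nonneg (by positivity)]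
        exact mul_le_mul_of_nonneg_left (measureReal_mono (subset_univ _)) hη
      exact mul_le_mul_of_nonneg_right h1 (norm_nonneg (g x))
  -- the average is continuous with compact support
  have havg_cont : Continuous (avg vol ρ φ) := by
    unfold avg
    refine continuous_of_dominated (bound := fun x => ‖(mass vol ρ)⁻¹ * φ x‖) ?_ ?_ hgi.norm ?_
    · intro y
      exact (hgi.aestronglyMeasurable).mul (continuous_bump_left ρ y).aestronglyMeasurable
    · intro y
      refine Filter.Eventually.of_forall fun x => ?_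
      rw [norm_mul]
      have := abs_bump_le ρ x y
      rw [← Real.norm_eq_abs] at this
      calc ‖(mass vol ρ)⁻¹ * φ x‖ * ‖bump ρ x y‖ ≤ ‖(mass vol ρ)⁻¹ * φ x‖ * 1 := by gcongr
        _ = _ := mul_one _
    · refine Filter.Eventually.of_forall fun x => ?_
      exact continuous_const.mul (continuous_bump_right ρ x)
  have havg_supp : HasCompactSupport (avg vol ρ φ) := by
    refine HasCompactSupport.intro (hφc.isCompact.cthickening (r := ρ)) fun y hy => ?_
    unfold avg
    have : (fun x => (mass vol ρ)⁻¹ * φ x * bump ρ x y) = fun _ => 0 := by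
      ext x
      by_cases hx : φ x = 0
      · simp [hx]
      · have h1 : x ∈ tsupport φ := subset_tsupport _ (mem_support.mpr hx)
        have h2 : ρ < ‖y - x‖ := by
          by_contra hcon
          rw [not_lt, ← dist_eq_norm] at hcon
          exact hy (mem_cthickening_of_dist_le y x ρ _ h1 hcon)
        rw [bump_eq_zero hρ h2.le, mul_zero]
    rw [this, integral_zero]
  have hφi : ∀ (b : Measure F) [IsFiniteMeasure b], Integrable φ b := by
    intro b _
    exact hφ.integrable_of_hasCompactSupport hφc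
  have h1 := loc_abstract vol b₁ b₂ e (bump ρ) (measurable_bump ρ) (abs_bump_le ρ) g hgi
    (fun x => mul_nonneg (inv_pos.mpr hm).le (hφ0 x)) φ (hφi b₁) (hφi b₂)
    (fun x => η * e.real (closedBall x (2 * ρ)))
    (fun x hx => hb x (fun h0 => hx (by simp [hg, h0]))) hgA
    (habs (fun y => φ y - avg vol ρ φ y) (hφ.sub havg_cont) (hφc.sub havg_supp))
  refine h1.trans (add_le_add ?_ le_rfl)
  -- the main term
  have hS : MeasurableSet (support φ) := hφ.isOpen_support.measurableSet
  have e1 : ∫ x, g x * (η * e.real (closedBall x (2 * ρ))) ∂vol ≤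
      (mass vol ρ)⁻¹ * M * η * ∫ x in support φ, e.real (closedBall x (2 * ρ)) ∂vol := by
    have hfin : vol (support φ) < ⊤ :=
      (measure_mono (subset_tsupport φ)).trans_lt hφc.isCompact.measure_lt_top
    have hiS : IntegrableOn (fun x => e.real (closedBall x (2 * ρ))) (support φ) vol := by
      refine Measure.integrableOn_of_bounded (M := e.real univ) hfin.ne
        hmeasE.aestronglyMeasurable ?_
      refine Filter.Eventually.of_forall fun x => ?_
      rw [Real.norm_eq_abs, abs_of_nonneg measureReal_nonneg]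
      exact measureReal_mono (subset_univ _)
    rw [← integral_const_mul, ← integral_indicator hS]
    have hiS' : IntegrableOn (fun x => (mass vol ρ)⁻¹ * M * η * e.real (closedBall x (2 * ρ)))
        (support φ) vol := hiS.const_mul _
    refine integral_mono hgA (hiS'.integrable_indicator hS) fun x => ?_
    simp only [indicator]
    split_ifs with hx
    · have : 0 ≤ e.real (closedBall x (2 * ρ)) := measureReal_nonneg
      have h3 : (mass vol ρ)⁻¹ * φ x ≤ (mass vol ρ)⁻¹ * M :=
        mul_le_mul_of_nonneg_left (hM x) (inv_pos.mpr hm).le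
      calc g x * (η * e.real (closedBall x (2 * ρ)))
          ≤ (mass vol ρ)⁻¹ * M * (η * e.real (closedBall x (2 * ρ))) :=
            mul_le_mul_of_nonneg_right h3 (by positivity)
        _ = _ := by ring
    · have : φ x = 0 := notMem_support.mp hx
      simp [hg, this]
  have e2 : ∫ x in support φ, e.real (closedBall x (2 * ρ)) ∂vol ≤
      vol.real (closedBall (0 : F) (2 * ρ)) * e.real (⋃ x ∈ support φ, closedBall x (2 * ρ)) := by
    have h4 := lintegral_ball_le vol e (r := 2 * ρ) (support φ) hS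
    have h5 : ∫ x in support φ, e.real (closedBall x (2 * ρ)) ∂vol =
        (∫⁻ x in support φ, e (closedBall x (2 * ρ)) ∂vol).toReal := by
      have := integral_toReal (μ := vol.restrict (support φ))
        (f := fun x => e (closedBall x (2 * ρ)))
        (measurable_ball e (2 * ρ)).aemeasurable
        (Filter.Eventually.of_forall fun x => measure_lt_top e _)
      exact this
    rw [h5]
    unfold Measure.real
    rw [← ENNReal.toReal_mul]
    refine ENNReal.toReal_mono ?_ h4
    exact ENNReal.mul_ne_top (measure_closedBall_lt_top).ne (measure_ne_top e _)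
  have e3 := vol_le_mass vol hρ
  have hE : 0 ≤ e.real (⋃ x ∈ support φ, closedBall x (2 * ρ)) := measureReal_nonneg
  calc ∫ x, g x * (η * e.real (closedBall x (2 * ρ))) ∂vol
      ≤ (mass vol ρ)⁻¹ * M * η * ∫ x in support φ, e.real (closedBall x (2 * ρ)) ∂vol := e1
    _ ≤ (mass vol ρ)⁻¹ * M * η * (4 / 3 * 4 ^ (Module.finrank ℝ F) * mass vol ρ *
          e.real (⋃ x ∈ support φ, closedBall x (2 * ρ))) := by
        refine mul_le_mul_of_nonneg_left (e2.trans ?_) (by positivity)
        exact mul_le_mul_of_nonneg_right e3 hE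
    _ = _ := by
        field_simp

end Crest.Agent.R234.Loc1_290
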