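import Mathlib
import Crest.Agent.R234.Sup2_113

/-!
Row 234, VF-LOG, part 1: test fields which are not compactly supported in the vertical directions, and the
annulus inequality: the tilt energy near a point is controlled by the tilt energy of a two-dimensional
annulus at any distance, up to the tilt energy in the remaining directions.
-/

set_option linter.unusedSectionVars false

namespace Crest.Agent.R234.Cacc_113

open MeasureTheory Set Filter Topology
open scoped InnerProductSpace

variable {E : Type*} [NormedAddCommGroup E] [InnerProductSpace ℝ E] [FiniteDimensional ℝ E]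
  [MeasurableSpace E] [BorelSpace E]

variable {U : Set E} {V : Measure (E × (E →L[ℝ] E))} {m : ℕ}

/-- the set of pairs over a set of points. -/
def ov (S : Set E) : Set (E × (E →L[ℝ] E)) := Prod.fst ⁻¹' S

theorem measurableSet_ov {S : Set E} (hS : MeasurableSet S) : MeasurableSet (ov S) :=
  measurable_fst hS

theorem abs_tr_comp_le (A : E →L[ℝ] E) {P : E →L[ℝ] E} (hP : IsPr P) :
    |tr (A ∘L P)| ≤ Module.finrank ℝ E * ‖A‖ := by
  rw [tr, LinearMap.trace_eq_sum_inner _ (stdOrthonormalBasis ℝ E)]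
  refine (Finset.abs_sum_le_sum_abs _ _).trans ?_
  calc ∑ i, |⟪(stdOrthonormalBasis ℝ E) i, (A ∘L P).toLinearMap ((stdOrthonormalBasis ℝ E) i)⟫_ℝ|
      ≤ ∑ _i : Fin (Module.finrank ℝ E), ‖A‖ := by
        refine Finset.sum_le_sum fun i _ => ?_
        refine (abs_real_inner_le_norm _ _).trans ?_
        have h1 : ‖(stdOrthonormalBasis ℝ E) i‖ = 1 := by simp
        have h2 : ‖(A ∘L P) ((stdOrthonormalBasis ℝ E) i)‖ ≤ ‖A‖ := by
          rw [ContinuousLinearMap.comp_apply]
          refine (A.le_opNorm _).trans ?_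
          have := hP.norm_le ((stdOrthonormalBasis ℝ E) i)
          rw [h1] at this
          exact mul_le_of_le_one_right (norm_nonneg _) this
        rw [h1, one_mul]
        exact h2
    _ = _ := by simp

set_option maxHeartbeats 1000000 in
/-- stationarity for fields which are bounded, with bounded derivative, supported over a set of finite
mass contained in `U`. -/
theorem St.noncompact (h : St U V) {X : E → E} (hX : ContDiff ℝ 1 X) {S : Set E} (hS : IsClosed S)
    (hSU : S ⊆ U) (hfin : V (ov S) < ⊤) (hsupp : ∀ x, x ∉ S → X x = 0) {C : ℝ}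
    (hC : ∀ x, ‖X x‖ ≤ C) (hC' : ∀ x, ‖fderiv ℝ X x‖ ≤ C) :
    ∫ z, tr (fderiv ℝ X z.1 ∘L z.2) ∂V = 0 := by
  have hC0 : 0 ≤ C := (norm_nonneg _).trans (hC 0)
  have hts : tsupport X ⊆ S := closure_minimal (fun x hx => by
    by_contra hcon
    exact hx (hsupp x hcon)) hS
  have hfd0 : ∀ x, x ∉ S → fderiv ℝ X x = 0 := fun x hx => by
    by_contra hcon
    exact hx (hts (support_fderiv_subset ℝ hcon))
  have hfc : Continuous (fderiv ℝ X) := hX.continuous_fderiv one_ne_zero
  -- the cut-off functions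
  have hφ := contDiff_cut 1
  have hφ1 : ∀ s, 1 ≤ s → cut 1 s = 0 := fun s hs => cut_eq_zero 1 hs
  have hdc : Continuous (deriv (cut 1)) := hφ.continuous_deriv le_rfl
  obtain ⟨D, hD⟩ := (isCompact_Icc (a := (0 : ℝ)) (b := 1)).exists_bound_of_continuousOn
    hdc.continuousOn
  have hD0 : 0 ≤ D := (norm_nonneg _).trans (hD 0 (by simp))
  have key : ∀ N : ℕ, 0 < N →
      ∫ z, ker (cut 1) 0 N z.1 * tr (fderiv ℝ X z.1 ∘L z.2) ∂V =
        - ∫ z, deriv (cut 1) (‖z.1 - 0‖ ^ 2 / (N : ℝ) ^ 2) * (2 / (N : ℝ) ^ 2) *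
          ⟪z.1 - 0, z.2 (X z.1)⟫_ℝ ∂V := by
    intro N hN
    have hN0 : (0 : ℝ) < N := by exact_mod_cast hN
    have hcs : HasCompactSupport (fun x => ker (cut 1) 0 N x • X x) :=
      HasCompactSupport.intro (isCompact_closedBall (0 : E) N) fun x hx => by
        rw [ker_eq_zero hφ1 hN0 (fun h' => hx (Metric.ball_subset_closedBall h')), zero_smul]
    have hd : ∀ x, HasFDerivAt (fun x => ker (cut 1) 0 N x • X x)
        (ker (cut 1) 0 N x • fderiv ℝ X x +
          ((deriv (cut 1) (‖x - 0‖ ^ 2 / (N : ℝ) ^ 2) * (2 / (N : ℝ) ^ 2)) •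
            innerSL ℝ (x - 0)).smulRight (X x)) x := fun x =>
      (hasFDerivAt_ker (hφ.differentiable one_ne_zero) 0 N x).smul
        (hX.differentiable one_ne_zero x).hasFDerivAt
    have e1 := h.st (fun x => ker (cut 1) 0 N x • X x) ((contDiff_ker hφ 0 N).smul hX) hcs
      (((tsupport_smul_subset_right _ _).trans hts).trans hSU)
    have e2 : ∀ z : E × (E →L[ℝ] E), tr (fderiv ℝ (fun x => ker (cut 1) 0 N x • X x) z.1 ∘L z.2) =
        ker (cut 1) 0 N z.1 * tr (fderiv ℝ X z.1 ∘L z.2) +
        deriv (cut 1) (‖z.1 - 0‖ ^ 2 / (N : ℝ) ^ 2) * (2 / (N : ℝ) ^ 2) *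
          ⟪z.1 - 0, z.2 (X z.1)⟫_ℝ := by
      intro z
      rw [(hd z.1).fderiv, ContinuousLinearMap.add_comp, tr_add, tr_smulRight_comp,
        ContinuousLinearMap.smul_comp, tr_smul]
      simp only [smul_apply, innerSL_apply_apply, smul_eq_mul]
    simp_rw [e2] at e1
    have hK : IsCompact (Metric.closedBall (0 : E) N ∩ S) :=
      (isCompact_closedBall (0 : E) N).inter_right hS
    have hKU : Metric.closedBall (0 : E) N ∩ S ⊆ U := inter_subset_right.trans hSU
    have i1 : Integrable (fun z : E × (E →L[ℝ] E) =>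
        ker (cut 1) 0 N z.1 * tr (fderiv ℝ X z.1 ∘L z.2)) V := by
      refine h.integrable (((contDiff_ker hφ 0 N).continuous.comp continuous_fst).mul
        (continuous_tr.comp ((hfc.comp continuous_fst).clm_comp continuous_snd))) hK hKU ?_
      intro z hz
      by_cases hzS : z.1 ∈ S
      · have : z.1 ∉ Metric.ball (0 : E) N := fun h' => hz ⟨Metric.ball_subset_closedBall h', hzS⟩
        rw [ker_eq_zero hφ1 hN0 this, zero_mul]
      · rw [hfd0 _ hzS]; simp [tr]
    have i2 : Integrable (fun z : E × (E →L[ℝ] E) =>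
        deriv (cut 1) (‖z.1 - 0‖ ^ 2 / (N : ℝ) ^ 2) * (2 / (N : ℝ) ^ 2) *
          ⟪z.1 - 0, z.2 (X z.1)⟫_ℝ) V := by
      refine h.integrable (((hdc.comp (((continuous_fst.sub continuous_const).norm.pow 2).div_const
        _)).mul continuous_const).mul ((continuous_fst.sub continuous_const).inner
        (continuous_snd.clm_apply (hX.continuous.comp continuous_fst)))) hK hKU ?_
      intro z hz
      by_cases hzS : z.1 ∈ S
      · have h3 : (1 : ℝ) ≤ ‖z.1 - 0‖ ^ 2 / (N : ℝ) ^ 2 := by
          have h4 : z.1 ∉ Metric.closedBall (0 : E) N := fun h' => hz ⟨h', hzS⟩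
          rw [Metric.mem_closedBall, dist_eq_norm, not_le] at h4
          rw [le_div_iff₀ (by positivity), one_mul]
          gcongr
        rw [deriv_eq_zero_of hφ hφ1 h3]
        simp
      · rw [hsupp _ hzS]; simp
    rw [integral_add i1 i2] at e1
    linarith
  -- limits
  have hfinr : IsFiniteMeasure (V.restrict (ov S)) :=
    ⟨by rw [Measure.restrict_apply_univ]; exact hfin⟩
  have lim1 : Tendsto (fun N : ℕ => ∫ z, ker (cut 1) 0 N z.1 * tr (fderiv ℝ X z.1 ∘L z.2) ∂V) atTop
      (𝓝 (∫ z, tr (fderiv ℝ X z.1 ∘L z.2) ∂V)) := by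
    refine tendsto_integral_of_dominated_convergence
      ((ov S).indicator fun _ => (Module.finrank ℝ E : ℝ) * C) ?_ ?_ ?_ ?_
    · intro N
      exact (((contDiff_ker hφ 0 N).continuous.comp continuous_fst).mul
        (continuous_tr.comp ((hfc.comp continuous_fst).clm_comp
          continuous_snd))).aestronglyMeasurable
    · rw [integrable_indicator_iff (measurableSet_ov hS.measurableSet)]
      exact integrableOn_const hfin.ne
    · intro N
      filter_upwards [h.pr] with z hz
      by_cases hzS : z.1 ∈ S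
      · rw [indicator_of_mem (show z ∈ ov S from hzS), norm_mul]
        have h1 : ‖ker (cut 1) 0 N z.1‖ ≤ 1 := by
          unfold ker
          rw [Real.norm_of_nonneg (cut_nonneg _ _)]
          exact cut_le_one _ _
        have h2 : ‖tr (fderiv ℝ X z.1 ∘L z.2)‖ ≤ Module.finrank ℝ E * C := by
          rw [Real.norm_eq_abs]
          exact (abs_tr_comp_le _ hz).trans (by gcongr; exact hC' _)
        calc _ ≤ 1 * (Module.finrank ℝ E * C) := by gcongr
          _ = _ := one_mul _
      · rw [indicator_of_notMem (show z ∉ ov S from hzS), hfd0 _ hzS]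
        simp [tr]
    · refine Eventually.of_forall fun z => ?_
      have h1 : Tendsto (fun N : ℕ => ker (cut 1) 0 N z.1) atTop (𝓝 1) := by
        refine tendsto_const_nhds.congr' ?_
        obtain ⟨N0, hN0⟩ := exists_nat_gt (2 * ‖z.1‖ + 1)
        filter_upwards [eventually_ge_atTop N0] with N hN
        have h2 : (N0 : ℝ) ≤ N := by exact_mod_cast hN
        have h3 : 2 * ‖z.1‖ + 1 < (N : ℝ) := hN0.trans_le h2
        have h4 := norm_nonneg z.1
        symm
        refine Real.smoothTransition.one_of_one_le ?_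
        have hNp : (0 : ℝ) < N := by linarith
        have h5 : ‖z.1 - 0‖ ^ 2 / (N : ℝ) ^ 2 ≤ 1 / 2 := by
          rw [sub_zero, div_le_iff₀ (by positivity)]
          nlinarith
        push_cast
        linarith
      simpa using h1.mul_const (tr (fderiv ℝ X z.1 ∘L z.2))
  have lim2 : Tendsto (fun N : ℕ => - ∫ z, deriv (cut 1) (‖z.1 - 0‖ ^ 2 / (N : ℝ) ^ 2) *
      (2 / (N : ℝ) ^ 2) * ⟪z.1 - 0, z.2 (X z.1)⟫_ℝ ∂V) atTop (𝓝 0) := by
    suffices hs : Tendsto (fun N : ℕ => ∫ z, deriv (cut 1) (‖z.1 - 0‖ ^ 2 / (N : ℝ) ^ 2) *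
        (2 / (N : ℝ) ^ 2) * ⟪z.1 - 0, z.2 (X z.1)⟫_ℝ ∂V) atTop (𝓝 0) by simpa using hs.neg
    rw [← integral_zero (E × (E →L[ℝ] E)) ℝ (μ := V)]
    refine tendsto_integral_filter_of_dominated_convergence
      ((ov S).indicator fun _ => 2 * D * C) ?_ ?_ ?_ ?_
    · exact Eventually.of_forall fun N => (((hdc.comp
        (((continuous_fst.sub continuous_const).norm.pow 2).div_const
        _)).mul continuous_const).mul ((continuous_fst.sub continuous_const).inner
        (continuous_snd.clm_apply (hX.continuous.comp continuous_fst)))).aestronglyMeasurable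
    · filter_upwards [eventually_ge_atTop 1] with N hN
      filter_upwards [h.pr] with z hz
      have hN1 : (1 : ℝ) ≤ N := by exact_mod_cast hN
      by_cases hzS : z.1 ∈ S
      · rw [indicator_of_mem (show z ∈ ov S from hzS)]
        rcases le_or_gt 1 (‖z.1 - 0‖ ^ 2 / (N : ℝ) ^ 2) with h2 | h2
        · rw [deriv_eq_zero_of hφ hφ1 h2]
          simp only [zero_mul, norm_zero]
          positivity
        · have e1 := hD _ ⟨by positivity, h2.le⟩
          have e3 : ‖z.1 - 0‖ ≤ N := by
            rw [div_lt_one (by positivity)] at h2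
            exact (abs_le_of_sq_le_sq' h2.le (by positivity)).2
          have e4 : |⟪z.1 - 0, z.2 (X z.1)⟫_ℝ| ≤ N * C :=
            (abs_real_inner_le_norm _ _).trans
              (mul_le_mul e3 ((hz.norm_le _).trans (hC _)) (norm_nonneg _) (by positivity))
          rw [norm_mul, norm_mul, Real.norm_eq_abs (⟪z.1 - 0, z.2 (X z.1)⟫_ℝ)]
          have e5 : ‖(2 : ℝ) / (N : ℝ) ^ 2‖ = 2 / (N : ℝ) ^ 2 :=
            Real.norm_of_nonneg (by positivity)
          rw [e5]
          calc ‖deriv (cut 1) (‖z.1 - 0‖ ^ 2 / (N : ℝ) ^ 2)‖ * (2 / (N : ℝ) ^ 2) *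
                |⟪z.1 - 0, z.2 (X z.1)⟫_ℝ| ≤ D * (2 / (N : ℝ) ^ 2) * (N * C) := by gcongr
            _ = 2 * D * C * (1 / N) := by field_simp
            _ ≤ 2 * D * C * 1 := by
                gcongr
                rw [div_le_one (by positivity)]
                exact hN1
            _ = _ := mul_one _
      · rw [indicator_of_notMem (show z ∉ ov S from hzS), hsupp _ hzS]
        simp
    · rw [integrable_indicator_iff (measurableSet_ov hS.measurableSet)]
      exact integrableOn_const hfin.ne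
    · refine Eventually.of_forall fun z => ?_
      refine tendsto_const_nhds.congr' ?_
      -- the derivative of the cut-off vanishes at `z` for large `N`
      obtain ⟨N0, hN0⟩ := exists_nat_gt (2 * ‖z.1‖ + 1)
      filter_upwards [eventually_ge_atTop N0] with N hN
      have h2 : (N0 : ℝ) ≤ N := by exact_mod_cast hN
      have h3 : 2 * ‖z.1‖ + 1 < (N : ℝ) := hN0.trans_le h2
      have h4 := norm_nonneg z.1
      have hNp : (0 : ℝ) < N := by linarith
      have h5 : ‖z.1 - 0‖ ^ 2 / (N : ℝ) ^ 2 < 1 / 2 := by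
        rw [sub_zero, div_lt_iff₀ (by positivity)]
        nlinarith
      have h6 : cut 1 =ᶠ[𝓝 (‖z.1 - 0‖ ^ 2 / (N : ℝ) ^ 2)] fun _ => (1 : ℝ) := by
        filter_upwards [gt_mem_nhds h5] with t ht
        refine Real.smoothTransition.one_of_one_le ?_
        push_cast
        linarith
      rw [h6.deriv_eq]
      simp
  have heq : (fun N : ℕ => ∫ z, ker (cut 1) 0 N z.1 * tr (fderiv ℝ X z.1 ∘L z.2) ∂V) =ᶠ[atTop]
      fun N : ℕ => - ∫ z, deriv (cut 1) (‖z.1 - 0‖ ^ 2 / (N : ℝ) ^ 2) *
      (2 / (N : ℝ) ^ 2) * ⟪z.1 - 0, z.2 (X z.1)⟫_ℝ ∂V := by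
    filter_upwards [eventually_gt_atTop 0] with N hN
    exact key N hN
  exact tendsto_nhds_unique lim1 (lim2.congr' heq.symm)

end Crest.Agent.R234.Cacc_113
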