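import Mathlib
import Crest.Agent.R234.Log1_113

/-!
Row 234, VF-LOG, part 2: the annulus inequality and its sum over dyadic annuli.

`ℓ`, `κ`, `q` are orthogonal projections with sum `1` (`ℓ + κ` the reference plane, `ℓ` onto the spine
directions, `q` the vertical directions).  The tilt energy of a unit box is controlled by the tilt energy
of each annulus `{‖ℓ‖ ≤ 2, ρ ≤ ‖κ‖ < 2ρ}` of mass `≤ C₁ρ²` up to the tilt energy in the directions of `ℓ`.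
-/

set_option linter.unusedSectionVars false

namespace Crest.Agent.R234.Cacc_113

open MeasureTheory Set Filter Topology
open scoped InnerProductSpace

variable {E : Type*} [NormedAddCommGroup E] [InnerProductSpace ℝ E] [FiniteDimensional ℝ E]

/-! ### the cut-off function of one variable -/

/-- `1` on `s ≤ 1`, `0` for `2 ≤ s`. -/
noncomputable def b1 (s : ℝ) : ℝ := Real.smoothTransition (2 - s)

theorem contDiff_b1 : ContDiff ℝ 1 b1 :=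
  Real.smoothTransition.contDiff.comp (contDiff_const.sub contDiff_id)

theorem b1_one {s : ℝ} (hs : s ≤ 1) : b1 s = 1 :=
  Real.smoothTransition.one_of_one_le (by linarith)

theorem b1_zero {s : ℝ} (hs : 2 ≤ s) : b1 s = 0 :=
  Real.smoothTransition.zero_of_nonpos (by linarith)

theorem b1_nonneg (s : ℝ) : 0 ≤ b1 s := Real.smoothTransition.nonneg _

theorem b1_le_one (s : ℝ) : b1 s ≤ 1 := Real.smoothTransition.le_one _

theorem deriv_b1_continuous : Continuous (deriv b1) := contDiff_b1.continuous_deriv le_rfl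

theorem deriv_b1_lt {s : ℝ} (hs : s < 1) : deriv b1 s = 0 := by
  have h6 : b1 =ᶠ[𝓝 s] fun _ => (1 : ℝ) := by
    filter_upwards [gt_mem_nhds hs] with t ht
    exact b1_one ht.le
  rw [h6.deriv_eq]
  simp

theorem deriv_b1_gt {s : ℝ} (hs : 2 < s) : deriv b1 s = 0 := by
  have h6 : b1 =ᶠ[𝓝 s] fun _ => (0 : ℝ) := by
    filter_upwards [lt_mem_nhds hs] with t ht
    exact b1_zero ht.le
  rw [h6.deriv_eq]
  simp

theorem exists_D1 : ∃ D : ℝ, 1 ≤ D ∧ ∀ s, |deriv b1 s| ≤ D := by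
  obtain ⟨D, hD⟩ := (isCompact_Icc (a := (1 : ℝ)) (b := 2)).exists_bound_of_continuousOn
    deriv_b1_continuous.continuousOn
  refine ⟨max D 1, le_max_right _ _, fun s => ?_⟩
  rcases lt_or_ge s 1 with h1 | h1
  · rw [deriv_b1_lt h1]; simp
  rcases lt_or_ge 2 s with h2 | h2
  · rw [deriv_b1_gt h2]; simp
  · exact (hD s ⟨h1, h2⟩).trans (le_max_left _ _)

/-- an absolute constant: a bound of the derivative of `b1`. -/
noncomputable def D1 : ℝ := Classical.choose exists_D1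

theorem one_le_D1 : 1 ≤ D1 := (Classical.choose_spec exists_D1).1

theorem abs_deriv_b1_le (s : ℝ) : |deriv b1 s| ≤ D1 := (Classical.choose_spec exists_D1).2 s

/-! ### functions of the norm of a projection -/

theorem hasFDerivAt_normSq {A : E →L[ℝ] E} (hA : IsPr A) (x₀ x : E) :
    HasFDerivAt (fun x => ‖A (x - x₀)‖ ^ 2) ((2 : ℝ) • innerSL ℝ (A (x - x₀))) x := by
  have h1 : HasFDerivAt (fun x : E => A (x - x₀)) A x :=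
    A.hasFDerivAt.comp x ((hasFDerivAt_id x).sub_const x₀)
  have h2 := h1.norm_sq
  refine h2.congr_fderiv ?_
  ext v
  simp only [smul_apply, ContinuousLinearMap.comp_apply,
    innerSL_apply_apply, smul_eq_mul, nsmul_eq_mul, Nat.cast_ofNat]
  rw [← hA.sa, hA.idem]

theorem contDiff_normSq {n : WithTop ℕ∞} (A : E →L[ℝ] E) (x₀ : E) :
    ContDiff ℝ n (fun x => ‖A (x - x₀)‖ ^ 2) :=
  (A.contDiff.comp (contDiff_id.sub contDiff_const)).norm_sq ℝ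

/-- the cut-off function in the directions of `A`. -/
noncomputable def bt (A : E →L[ℝ] E) (x₀ : E) (ρ : ℝ) (x : E) : ℝ := b1 (‖A (x - x₀)‖ ^ 2 / ρ ^ 2)

theorem contDiff_bt (A : E →L[ℝ] E) (x₀ : E) (ρ : ℝ) : ContDiff ℝ 1 (bt A x₀ ρ) :=
  contDiff_b1.comp ((contDiff_normSq A x₀).div_const _)

theorem hasFDerivAt_bt {A : E →L[ℝ] E} (hA : IsPr A) (x₀ : E) (ρ : ℝ) (x : E) :
    HasFDerivAt (bt A x₀ ρ)
      ((deriv b1 (‖A (x - x₀)‖ ^ 2 / ρ ^ 2) * (2 / ρ ^ 2)) • innerSL ℝ (A (x - x₀))) x := by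
  have h1 := (contDiff_b1.differentiable one_ne_zero (‖A (x - x₀)‖ ^ 2 / ρ ^ 2)).hasDerivAt
  have h2 : HasFDerivAt (fun x => ‖A (x - x₀)‖ ^ 2 / ρ ^ 2)
      ((ρ ^ 2)⁻¹ • ((2 : ℝ) • innerSL ℝ (A (x - x₀)))) x := by
    have := (hasFDerivAt_normSq hA x₀ x).mul_const ((ρ ^ 2)⁻¹)
    simpa only [div_eq_mul_inv] using this
  have h3 := h1.comp_hasFDerivAt x h2
  refine h3.congr_fderiv ?_
  rw [smul_smul, smul_smul]
  congr 1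
  ring

theorem bt_nonneg (A : E →L[ℝ] E) (x₀ : E) (ρ : ℝ) (x : E) : 0 ≤ bt A x₀ ρ x := b1_nonneg _

theorem bt_le_one (A : E →L[ℝ] E) (x₀ : E) (ρ : ℝ) (x : E) : bt A x₀ ρ x ≤ 1 := b1_le_one _

theorem bt_eq_one (A : E →L[ℝ] E) (x₀ : E) {ρ : ℝ} (hρ : 0 < ρ) {x : E}
    (h : ‖A (x - x₀)‖ ≤ ρ) : bt A x₀ ρ x = 1 := by
  refine b1_one ?_
  rw [div_le_one (by positivity)]
  gcongr

theorem bt_eq_zero (A : E →L[ℝ] E) (x₀ : E) {ρ : ℝ} (hρ : 0 < ρ) {x : E}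
    (h : 2 * ρ ≤ ‖A (x - x₀)‖) : bt A x₀ ρ x = 0 := by
  refine b1_zero ?_
  rw [le_div_iff₀ (by positivity)]
  have : (2 * ρ) ^ 2 ≤ ‖A (x - x₀)‖ ^ 2 := by gcongr
  nlinarith [sq_nonneg ρ]

theorem deriv_bt_eq_zero (A : E →L[ℝ] E) (x₀ : E) {ρ : ℝ} (hρ : 0 < ρ) {x : E}
    (h : ‖A (x - x₀)‖ < ρ ∨ 2 * ρ ≤ ‖A (x - x₀)‖) :
    deriv b1 (‖A (x - x₀)‖ ^ 2 / ρ ^ 2) = 0 := by
  rcases h with h | h
  · refine deriv_b1_lt ?_
    rw [div_lt_one (by positivity)]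
    gcongr
  · refine deriv_b1_gt ?_
    rw [lt_div_iff₀ (by positivity)]
    have : (2 * ρ) ^ 2 ≤ ‖A (x - x₀)‖ ^ 2 := by gcongr
    have h2 : 0 < ρ ^ 2 := by positivity
    nlinarith

/-- the differential of the cut-off function, times the norm of the position. -/
theorem abs_deriv_bt_mul_le (A : E →L[ℝ] E) (x₀ : E) {ρ : ℝ} (hρ : 0 < ρ) (x : E) :
    |deriv b1 (‖A (x - x₀)‖ ^ 2 / ρ ^ 2) * (2 / ρ ^ 2)| * ‖A (x - x₀)‖ ≤ 4 * D1 / ρ := by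
  have hD := one_le_D1
  rcases lt_or_ge (‖A (x - x₀)‖) (2 * ρ) with h | h
  · rw [abs_mul, abs_of_pos (show 0 < 2 / ρ ^ 2 by positivity)]
    calc |deriv b1 (‖A (x - x₀)‖ ^ 2 / ρ ^ 2)| * (2 / ρ ^ 2) * ‖A (x - x₀)‖
        ≤ D1 * (2 / ρ ^ 2) * (2 * ρ) := by
          gcongr
          exact abs_deriv_b1_le _
      _ = 4 * D1 / ρ := by field_simp; ring
  · rw [deriv_bt_eq_zero A x₀ hρ (Or.inr h)]
    simp only [zero_mul, abs_zero]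
    positivity

/-! ### the bounded vertical field -/

/-- `(1 + |y|²)^(-1/2)` -/
noncomputable def wt (q : E →L[ℝ] E) (x₀ : E) (x : E) : ℝ := (√(1 + ‖q (x - x₀)‖ ^ 2))⁻¹

theorem one_add_pos (q : E →L[ℝ] E) (x₀ : E) (x : E) : 0 < 1 + ‖q (x - x₀)‖ ^ 2 := by positivity

theorem contDiff_wt (q : E →L[ℝ] E) (x₀ : E) : ContDiff ℝ 1 (wt q x₀) := by
  refine ContDiff.inv ?_ fun x => (Real.sqrt_pos.mpr (one_add_pos q x₀ x)).ne'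
  exact (contDiff_const.add (contDiff_normSq q x₀)).sqrt fun x => (one_add_pos q x₀ x).ne'

theorem wt_pos (q : E →L[ℝ] E) (x₀ : E) (x : E) : 0 < wt q x₀ x :=
  inv_pos.mpr (Real.sqrt_pos.mpr (one_add_pos q x₀ x))

theorem wt_sq (q : E →L[ℝ] E) (x₀ : E) (x : E) :
    wt q x₀ x ^ 2 * (1 + ‖q (x - x₀)‖ ^ 2) = 1 := by
  unfold wt
  rw [inv_pow, Real.sq_sqrt (one_add_pos q x₀ x).le]
  exact inv_mul_cancel₀ (one_add_pos q x₀ x).ne'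

theorem wt_le_one (q : E →L[ℝ] E) (x₀ : E) (x : E) : wt q x₀ x ≤ 1 := by
  have h1 := wt_sq q x₀ x
  have h2 := wt_pos q x₀ x
  by_contra hcon
  push Not at hcon
  nlinarith [sq_nonneg ‖q (x - x₀)‖, sq_nonneg (wt q x₀ x * ‖q (x - x₀)‖)]

theorem wt_mul_le (q : E →L[ℝ] E) (x₀ : E) (x : E) : wt q x₀ x * ‖q (x - x₀)‖ ≤ 1 := by
  have h1 := wt_sq q x₀ x
  have h2 := wt_pos q x₀ x
  by_contra hcon
  push Not at hcon
  nlinarith [sq_nonneg (wt q x₀ x)]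

theorem hasFDerivAt_wt {q : E →L[ℝ] E} (hq : IsPr q) (x₀ x : E) :
    HasFDerivAt (wt q x₀) ((-(wt q x₀ x) ^ 3) • innerSL ℝ (q (x - x₀))) x := by
  have hpos := one_add_pos q x₀ x
  have hs := Real.sqrt_pos.mpr hpos
  have h1 : HasFDerivAt (fun x => 1 + ‖q (x - x₀)‖ ^ 2) ((2 : ℝ) • innerSL ℝ (q (x - x₀))) x :=
    (hasFDerivAt_normSq hq x₀ x).const_add 1
  have h2 := h1.sqrt hpos.ne'
  have h3 := (hasDerivAt_inv hs.ne').comp_hasFDerivAt x h2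
  refine h3.congr_fderiv ?_
  rw [smul_smul, smul_smul]
  congr 1
  unfold wt
  field_simp

/-! ### the region -/

/-- the part of the slab `‖ℓ‖ ≤ 2` at distance `≤ ρ` of the spine. -/
def slab (ℓ κ : E →L[ℝ] E) (x₀ : E) (ρ : ℝ) : Set E :=
  {x | ‖ℓ (x - x₀)‖ ≤ 2 ∧ ‖κ (x - x₀)‖ ≤ ρ}

/-- the annulus in the slab. -/
def ann (ℓ κ : E →L[ℝ] E) (x₀ : E) (ρ : ℝ) : Set E :=
  {x | ‖ℓ (x - x₀)‖ ≤ 2 ∧ ρ ≤ ‖κ (x - x₀)‖ ∧ ‖κ (x - x₀)‖ < 2 * ρ}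

/-- the unit box. -/
def bx (ℓ κ q : E →L[ℝ] E) (x₀ : E) : Set E :=
  {x | ‖ℓ (x - x₀)‖ ≤ 1 ∧ ‖κ (x - x₀)‖ ≤ 1 ∧ ‖q (x - x₀)‖ ≤ 1}

theorem isClosed_slab (ℓ κ : E →L[ℝ] E) (x₀ : E) (ρ : ℝ) : IsClosed (slab ℓ κ x₀ ρ) := by
  have h1 : Continuous fun x => ‖ℓ (x - x₀)‖ :=
    (ℓ.continuous.comp (continuous_id.sub continuous_const)).norm
  have h2 : Continuous fun x => ‖κ (x - x₀)‖ :=
    (κ.continuous.comp (continuous_id.sub continuous_const)).norm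
  exact (isClosed_le h1 continuous_const).inter (isClosed_le h2 continuous_const)

theorem isClosed_bx (ℓ κ q : E →L[ℝ] E) (x₀ : E) : IsClosed (bx ℓ κ q x₀) := by
  have h1 : Continuous fun x => ‖ℓ (x - x₀)‖ :=
    (ℓ.continuous.comp (continuous_id.sub continuous_const)).norm
  have h2 : Continuous fun x => ‖κ (x - x₀)‖ :=
    (κ.continuous.comp (continuous_id.sub continuous_const)).norm
  have h3 : Continuous fun x => ‖q (x - x₀)‖ :=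
    (q.continuous.comp (continuous_id.sub continuous_const)).norm
  exact (isClosed_le h1 continuous_const).inter
    ((isClosed_le h2 continuous_const).inter (isClosed_le h3 continuous_const))

variable [MeasurableSpace E] [BorelSpace E]

theorem measurableSet_ann (ℓ κ : E →L[ℝ] E) (x₀ : E) (ρ : ℝ) : MeasurableSet (ann ℓ κ x₀ ρ) := by
  have h1 : Continuous fun x => ‖ℓ (x - x₀)‖ :=
    (ℓ.continuous.comp (continuous_id.sub continuous_const)).norm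
  have h2 : Continuous fun x => ‖κ (x - x₀)‖ :=
    (κ.continuous.comp (continuous_id.sub continuous_const)).norm
  exact (isClosed_le h1 continuous_const).measurableSet.inter
    ((isClosed_le continuous_const h2).measurableSet.inter
      (isOpen_lt h2 continuous_const).measurableSet)

theorem ann_subset_slab (ℓ κ : E →L[ℝ] E) (x₀ : E) (ρ : ℝ) :
    ann ℓ κ x₀ ρ ⊆ slab ℓ κ x₀ (2 * ρ) := fun _ hx => ⟨hx.1, hx.2.2.le⟩

theorem bx_subset_slab (ℓ κ q : E →L[ℝ] E) (x₀ : E) {ρ : ℝ} (hρ : 1 ≤ ρ) :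
    bx ℓ κ q x₀ ⊆ slab ℓ κ x₀ ρ := fun _ hx => ⟨hx.1.trans (by norm_num), hx.2.1.trans hρ⟩

/-! ### the trace of the differential -/

/-- the field `ζ β ψ(y)` -/
noncomputable def XX (ℓ κ q : E →L[ℝ] E) (x₀ : E) (ρ : ℝ) (x : E) : E :=
  (bt ℓ x₀ 1 x * bt κ x₀ ρ x) • (wt q x₀ x • q (x - x₀))

/-- its differential -/
noncomputable def DX (ℓ κ q : E →L[ℝ] E) (x₀ : E) (ρ : ℝ) (x : E) : E →L[ℝ] E :=
  (bt ℓ x₀ 1 x * bt κ x₀ ρ x) •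
      (wt q x₀ x • q + ((-(wt q x₀ x) ^ 3) • innerSL ℝ (q (x - x₀))).smulRight (q (x - x₀))) +
    (bt ℓ x₀ 1 x • ((deriv b1 (‖κ (x - x₀)‖ ^ 2 / ρ ^ 2) * (2 / ρ ^ 2)) • innerSL ℝ (κ (x - x₀))) +
      bt κ x₀ ρ x •
        ((deriv b1 (‖ℓ (x - x₀)‖ ^ 2 / 1 ^ 2) * (2 / 1 ^ 2)) • innerSL ℝ (ℓ (x - x₀)))).smulRight
      (wt q x₀ x • q (x - x₀))

theorem contDiff_XX (ℓ κ q : E →L[ℝ] E) (x₀ : E) (ρ : ℝ) : ContDiff ℝ 1 (XX ℓ κ q x₀ ρ) :=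
  ((contDiff_bt _ _ _).mul (contDiff_bt _ _ _)).smul
    ((contDiff_wt q x₀).smul (q.contDiff.comp (contDiff_id.sub contDiff_const)))

theorem hasFDerivAt_XX {ℓ κ q : E →L[ℝ] E} (hℓ : IsPr ℓ) (hκ : IsPr κ) (hq : IsPr q) (x₀ : E)
    (ρ : ℝ) (x : E) : HasFDerivAt (XX ℓ κ q x₀ ρ) (DX ℓ κ q x₀ ρ x) x := by
  have h1 : HasFDerivAt (fun x : E => q (x - x₀)) q x :=
    q.hasFDerivAt.comp x ((hasFDerivAt_id x).sub_const x₀)
  exact ((hasFDerivAt_bt hℓ x₀ 1 x).mul (hasFDerivAt_bt hκ x₀ ρ x)).smul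
    ((hasFDerivAt_wt hq x₀ x).smul h1)

theorem tr_DX {ℓ κ q : E →L[ℝ] E} (x₀ : E) (ρ : ℝ) (x : E) (P : E →L[ℝ] E) :
    tr (DX ℓ κ q x₀ ρ x ∘L P) =
      (bt ℓ x₀ 1 x * bt κ x₀ ρ x) * (wt q x₀ x * tr (q ∘L P) -
        (wt q x₀ x) ^ 3 * ⟪q (x - x₀), P (q (x - x₀))⟫_ℝ) +
      bt ℓ x₀ 1 x * (deriv b1 (‖κ (x - x₀)‖ ^ 2 / ρ ^ 2) * (2 / ρ ^ 2)) *
        (wt q x₀ x * ⟪κ (x - x₀), P (q (x - x₀))⟫_ℝ) +
      bt κ x₀ ρ x * (deriv b1 (‖ℓ (x - x₀)‖ ^ 2 / 1 ^ 2) * (2 / 1 ^ 2)) *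
        (wt q x₀ x * ⟪ℓ (x - x₀), P (q (x - x₀))⟫_ℝ) := by
  unfold DX
  rw [ContinuousLinearMap.add_comp, tr_add, ContinuousLinearMap.smul_comp, tr_smul,
    ContinuousLinearMap.add_comp, tr_add, ContinuousLinearMap.smul_comp, tr_smul,
    tr_smulRight_comp, tr_smulRight_comp]
  simp only [smul_apply, add_apply, innerSL_apply_apply, smul_eq_mul, map_smul]
  ring

/-! ### pointwise estimates -/

theorem inner_P_le {P q : E →L[ℝ] E} (hP : IsPr P) (hq : IsPr q) {y : E} (hy : q y = y) :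
    ‖P y‖ ≤ √(tr (q ∘L P)) * ‖y‖ := by
  have h1 := hP.norm_sq_le hq hy
  have h0 := hP.tr_nonneg_conj hq
  refine (sq_le_sq₀ (norm_nonneg _) (by positivity)).mp ?_
  rw [mul_pow, Real.sq_sqrt h0]
  exact h1

/-- lower bound of the main term. -/
theorem main_term {P q : E →L[ℝ] E} (hP : IsPr P) (hq : IsPr q) (x₀ x : E) :
    (wt q x₀ x) ^ 3 * tr (q ∘L P) ≤ wt q x₀ x * tr (q ∘L P) -
        (wt q x₀ x) ^ 3 * ⟪q (x - x₀), P (q (x - x₀))⟫_ℝ := by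
  have h1 := hP.norm_sq_le hq (hq.idem (x - x₀))
  rw [hP.inner_self]
  have h2 := wt_sq q x₀ x
  have h3 := wt_pos q x₀ x
  have h4 : wt q x₀ x ^ 3 * ‖P (q (x - x₀))‖ ^ 2 ≤
      wt q x₀ x ^ 3 * (tr (q ∘L P) * ‖q (x - x₀)‖ ^ 2) := by gcongr
  have h5 : wt q x₀ x * tr (q ∘L P) =
      wt q x₀ x ^ 3 * (tr (q ∘L P) * ‖q (x - x₀)‖ ^ 2) + wt q x₀ x ^ 3 * tr (q ∘L P) := by
    have : wt q x₀ x = wt q x₀ x * (wt q x₀ x ^ 2 * (1 + ‖q (x - x₀)‖ ^ 2)) := by rw [h2, mul_one]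
    calc wt q x₀ x * tr (q ∘L P)
        = wt q x₀ x * (wt q x₀ x ^ 2 * (1 + ‖q (x - x₀)‖ ^ 2)) * tr (q ∘L P) := by rw [← this]
      _ = _ := by ring
  linarith

theorem third_le_wt {q : E →L[ℝ] E} (x₀ : E) {x : E} (hx : ‖q (x - x₀)‖ ≤ 1) :
    1 / 3 ≤ (wt q x₀ x) ^ 3 := by
  have h2 := wt_sq q x₀ x
  have h3 := wt_pos q x₀ x
  have h5 : ‖q (x - x₀)‖ ^ 2 ≤ 1 := by
    have := norm_nonneg (q (x - x₀))
    nlinarith
  have h4 : 1 / 2 ≤ wt q x₀ x ^ 2 := by nlinarith [sq_nonneg (wt q x₀ x)]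
  have h6 : 2 / 3 ≤ wt q x₀ x := by
    by_contra hcon
    push Not at hcon
    nlinarith
  nlinarith

theorem second_term {P κ q : E →L[ℝ] E} (ℓ : E →L[ℝ] E) (hP : IsPr P) (hq : IsPr q) (x₀ : E)
    {ρ : ℝ} (hρ : 0 < ρ) (x : E) :
    |bt ℓ x₀ 1 x * (deriv b1 (‖κ (x - x₀)‖ ^ 2 / ρ ^ 2) * (2 / ρ ^ 2)) *
        (wt q x₀ x * ⟪κ (x - x₀), P (q (x - x₀))⟫_ℝ)| ≤
      (ann ℓ κ x₀ ρ).indicator (fun _ => 4 * D1 / ρ * √(tr (q ∘L P))) x := by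
  by_cases hx : x ∈ ann ℓ κ x₀ ρ
  · rw [indicator_of_mem hx, abs_mul, abs_mul, abs_mul (wt q x₀ x)]
    have e1 : |⟪κ (x - x₀), P (q (x - x₀))⟫_ℝ| ≤
        ‖κ (x - x₀)‖ * (√(tr (q ∘L P)) * ‖q (x - x₀)‖) :=
      (abs_real_inner_le_norm _ _).trans (by gcongr; exact inner_P_le hP hq (hq.idem _))
    have e2 : |bt ℓ x₀ 1 x| ≤ 1 := by
      rw [abs_of_nonneg (bt_nonneg _ _ _ _)]; exact bt_le_one _ _ _ _
    have e3 := abs_deriv_bt_mul_le κ x₀ hρ x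
    have e4 := wt_mul_le q x₀ x
    have e5 : |wt q x₀ x| = wt q x₀ x := abs_of_pos (wt_pos _ _ _)
    have e6 := (wt_pos q x₀ x).le
    rw [e5]
    calc |bt ℓ x₀ 1 x| * |deriv b1 (‖κ (x - x₀)‖ ^ 2 / ρ ^ 2) * (2 / ρ ^ 2)| *
          (wt q x₀ x * |⟪κ (x - x₀), P (q (x - x₀))⟫_ℝ|)
        ≤ 1 * |deriv b1 (‖κ (x - x₀)‖ ^ 2 / ρ ^ 2) * (2 / ρ ^ 2)| *
          (wt q x₀ x * (‖κ (x - x₀)‖ * (√(tr (q ∘L P)) * ‖q (x - x₀)‖))) := by gcongr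
      _ = (|deriv b1 (‖κ (x - x₀)‖ ^ 2 / ρ ^ 2) * (2 / ρ ^ 2)| * ‖κ (x - x₀)‖) *
          (√(tr (q ∘L P)) * (wt q x₀ x * ‖q (x - x₀)‖)) := by ring
      _ ≤ (4 * D1 / ρ) * (√(tr (q ∘L P)) * 1) := by
          have := one_le_D1
          gcongr
      _ = _ := by ring
  · rw [indicator_of_notMem hx]
    have h0 : bt ℓ x₀ 1 x * (deriv b1 (‖κ (x - x₀)‖ ^ 2 / ρ ^ 2) * (2 / ρ ^ 2)) = 0 := by
      by_cases h1 : ‖ℓ (x - x₀)‖ ≤ 2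
      · have h2 : ‖κ (x - x₀)‖ < ρ ∨ 2 * ρ ≤ ‖κ (x - x₀)‖ := by
          by_contra hcon
          push Not at hcon
          exact hx ⟨h1, hcon.1, hcon.2⟩
        rw [deriv_bt_eq_zero κ x₀ hρ h2]; simp
      · push Not at h1
        rw [bt_eq_zero ℓ x₀ one_pos (by linarith), zero_mul]
    rw [h0]; simp

theorem third_term {P ℓ q : E →L[ℝ] E} (κ : E →L[ℝ] E) (hP : IsPr P) (hℓ : IsPr ℓ)
    (hℓq : ∀ x, ℓ (q x) = 0) (x₀ : E) {ρ : ℝ} (hρ : 0 < ρ) (x : E) :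
    |bt κ x₀ ρ x * (deriv b1 (‖ℓ (x - x₀)‖ ^ 2 / 1 ^ 2) * (2 / 1 ^ 2)) *
        (wt q x₀ x * ⟪ℓ (x - x₀), P (q (x - x₀))⟫_ℝ)| ≤
      (slab ℓ κ x₀ (2 * ρ)).indicator (fun _ => 4 * D1 * √(tr (ℓ ∘L (1 - P)))) x := by
  by_cases hx : x ∈ slab ℓ κ x₀ (2 * ρ)
  · rw [indicator_of_mem hx, abs_mul, abs_mul, abs_mul (wt q x₀ x)]
    have e0 : ⟪ℓ (x - x₀), P (q (x - x₀))⟫_ℝ = - ⟪(1 - P) (ℓ (x - x₀)), q (x - x₀)⟫_ℝ := by
      have : ⟪ℓ (x - x₀), q (x - x₀)⟫_ℝ = 0 := by rw [hℓ.sa, hℓq, inner_zero_right]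
      rw [sub_apply, inner_sub_left, one_apply_eq_self, this, hP.sa]
      ring
    have e1 : |⟪ℓ (x - x₀), P (q (x - x₀))⟫_ℝ| ≤
        √(tr (ℓ ∘L (1 - P))) * ‖ℓ (x - x₀)‖ * ‖q (x - x₀)‖ := by
      rw [e0, abs_neg]
      exact (abs_real_inner_le_norm _ _).trans
        (by gcongr; exact inner_P_le hP.compl hℓ (hℓ.idem _))
    have e2 : |bt κ x₀ ρ x| ≤ 1 := by
      rw [abs_of_nonneg (bt_nonneg _ _ _ _)]; exact bt_le_one _ _ _ _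
    have e3 := abs_deriv_bt_mul_le ℓ x₀ one_pos x
    have e4 := wt_mul_le q x₀ x
    have e5 : |wt q x₀ x| = wt q x₀ x := abs_of_pos (wt_pos _ _ _)
    have e6 := (wt_pos q x₀ x).le
    rw [e5]
    calc |bt κ x₀ ρ x| * |deriv b1 (‖ℓ (x - x₀)‖ ^ 2 / 1 ^ 2) * (2 / 1 ^ 2)| *
          (wt q x₀ x * |⟪ℓ (x - x₀), P (q (x - x₀))⟫_ℝ|)
        ≤ 1 * |deriv b1 (‖ℓ (x - x₀)‖ ^ 2 / 1 ^ 2) * (2 / 1 ^ 2)| *
          (wt q x₀ x * (√(tr (ℓ ∘L (1 - P))) * ‖ℓ (x - x₀)‖ * ‖q (x - x₀)‖)) := by gcongr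
      _ = (|deriv b1 (‖ℓ (x - x₀)‖ ^ 2 / 1 ^ 2) * (2 / 1 ^ 2)| * ‖ℓ (x - x₀)‖) *
          (√(tr (ℓ ∘L (1 - P))) * (wt q x₀ x * ‖q (x - x₀)‖)) := by ring
      _ ≤ (4 * D1 / 1) * (√(tr (ℓ ∘L (1 - P))) * 1) := by
          have := one_le_D1
          gcongr
      _ = _ := by ring
  · rw [indicator_of_notMem hx]
    have h0 : bt κ x₀ ρ x * (deriv b1 (‖ℓ (x - x₀)‖ ^ 2 / 1 ^ 2) * (2 / 1 ^ 2)) = 0 := by
      by_cases h1 : ‖ℓ (x - x₀)‖ ≤ 2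
      · have h2 : 2 * ρ ≤ ‖κ (x - x₀)‖ := by
          by_contra hcon
          push Not at hcon
          exact hx ⟨h1, hcon.le⟩
        rw [bt_eq_zero κ x₀ hρ h2, zero_mul]
      · push Not at h1
        rw [deriv_bt_eq_zero ℓ x₀ one_pos (Or.inr (by linarith))]; simp
    rw [h0]; simp

/-- the pointwise inequality. -/
theorem pointwise {P ℓ κ q : E →L[ℝ] E} (hP : IsPr P) (hℓ : IsPr ℓ) (hq : IsPr q)
    (hℓq : ∀ x, ℓ (q x) = 0) (x₀ : E) {ρ : ℝ} (hρ : 1 ≤ ρ) (x : E) :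
    (bx ℓ κ q x₀).indicator (fun _ => 1 / 3 * tr (q ∘L P)) x ≤
      tr (DX ℓ κ q x₀ ρ x ∘L P) + (ann ℓ κ x₀ ρ).indicator (fun _ => 4 * D1 / ρ * √(tr (q ∘L P))) x
        + (slab ℓ κ x₀ (2 * ρ)).indicator (fun _ => 4 * D1 * √(tr (ℓ ∘L (1 - P)))) x := by
  have hρ0 : 0 < ρ := by linarith
  have h1 := main_term hP hq x₀ x
  have h2 := (abs_le.mp (second_term (κ := κ) ℓ hP hq x₀ hρ0 x)).1
  have h3 := (abs_le.mp (third_term κ hP hℓ hℓq x₀ hρ0 x)).1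
  have h0 := hP.tr_nonneg_conj hq
  have hw := wt_pos q x₀ x
  rw [tr_DX]
  have hb0 : 0 ≤ bt ℓ x₀ 1 x * bt κ x₀ ρ x := mul_nonneg (bt_nonneg _ _ _ _) (bt_nonneg _ _ _ _)
  have h4 : (bx ℓ κ q x₀).indicator (fun _ => 1 / 3 * tr (q ∘L P)) x ≤
      (bt ℓ x₀ 1 x * bt κ x₀ ρ x) * (wt q x₀ x * tr (q ∘L P) -
        (wt q x₀ x) ^ 3 * ⟪q (x - x₀), P (q (x - x₀))⟫_ℝ) := by
    by_cases hx : x ∈ bx ℓ κ q x₀
    · rw [indicator_of_mem hx, bt_eq_one ℓ x₀ one_pos hx.1,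
        bt_eq_one κ x₀ hρ0 (hx.2.1.trans hρ), one_mul, one_mul]
      refine le_trans ?_ h1
      have := third_le_wt x₀ hx.2.2
      gcongr
    · rw [indicator_of_notMem hx]
      refine mul_nonneg hb0 (le_trans ?_ h1)
      positivity
  linarith

end Crest.Agent.R234.Cacc_113
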