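import Mathlib
import Crest.Agent.R234.Log2_113

/-!
Row 234, VF-LOG, part 3: the integrated annulus inequality `St.annulus` and its sum over dyadic annuli
`St.slab_log`: a logarithmic lower bound of the tilt energy of a slab.
-/

set_option linter.unusedSectionVars false

namespace Crest.Agent.R234.Cacc_113

open MeasureTheory Set Filter Topology
open scoped InnerProductSpace

variable {E : Type*} [NormedAddCommGroup E] [InnerProductSpace ℝ E] [FiniteDimensional ℝ E]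
  [MeasurableSpace E] [BorelSpace E]

variable {U : Set E} {V : Measure (E × (E →L[ℝ] E))}

/-- bounded continuous functions are integrable over sets of finite mass. -/
theorem St.integrableOn_bdd (h : St U V) {S : Set E} (hfin : V (ov S) < ⊤)
    {g : E × (E →L[ℝ] E) → ℝ} (hg : Continuous g) {C : ℝ} (hb : ∀ x P, IsPr P → |g (x, P)| ≤ C) :
    IntegrableOn g (ov S) V := by
  refine Measure.integrableOn_of_bounded hfin.ne hg.aestronglyMeasurable (M := C) ?_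
  filter_upwards [ae_restrict_of_ae h.pr] with z hz
  exact hb z.1 z.2 hz

theorem tr_le_card {P Q : E →L[ℝ] E} (hP : IsPr P) (hQ : IsPr Q) :
    |tr (Q ∘L P)| ≤ Module.finrank ℝ E :=
  (abs_tr_comp_le Q hP).trans (mul_le_of_le_one_right (by positivity) hQ.opNorm_le)

theorem sqrt_tr_le_card {P Q : E →L[ℝ] E} (hP : IsPr P) (hQ : IsPr Q) :
    |√(tr (Q ∘L P))| ≤ √(Module.finrank ℝ E) := by
  rw [abs_of_nonneg (Real.sqrt_nonneg _)]
  exact Real.sqrt_le_sqrt ((le_abs_self _).trans (tr_le_card hP hQ))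

theorem continuous_tq (q : E →L[ℝ] E) :
    Continuous fun z : E × (E →L[ℝ] E) => tr (q ∘L z.2) :=
  continuous_tr.comp (continuous_const.clm_comp continuous_snd)

theorem continuous_tl (ℓ : E →L[ℝ] E) :
    Continuous fun z : E × (E →L[ℝ] E) => tr (ℓ ∘L (1 - z.2)) :=
  continuous_tr.comp (continuous_const.clm_comp (continuous_const.sub continuous_snd))

/-- the tilt energy over a set `S`: the integral of `tr (Q P)`. -/
noncomputable def en (V : Measure (E × (E →L[ℝ] E))) (q : E →L[ℝ] E) (S : Set E) : ℝ :=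
  ∫ z in ov S, tr (q ∘L z.2) ∂V

/-- the defect in the directions of `ℓ` over a set `S`: the integral of `tr (ℓ (1 - P))`. -/
noncomputable def el (V : Measure (E × (E →L[ℝ] E))) (ℓ : E →L[ℝ] E) (S : Set E) : ℝ :=
  ∫ z in ov S, tr (ℓ ∘L (1 - z.2)) ∂V

theorem St.en_int (h : St U V) {q : E →L[ℝ] E} (hq : IsPr q) {S : Set E}
    (hfin : V (ov S) < ⊤) : IntegrableOn (fun z => tr (q ∘L z.2)) (ov S) V :=
  h.integrableOn_bdd hfin (continuous_tq q) fun _ _ hP => tr_le_card hP hq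

theorem St.el_int (h : St U V) {ℓ : E →L[ℝ] E} (hℓ : IsPr ℓ) {S : Set E}
    (hfin : V (ov S) < ⊤) : IntegrableOn (fun z => tr (ℓ ∘L (1 - z.2))) (ov S) V :=
  h.integrableOn_bdd hfin (continuous_tl ℓ) fun _ _ hP => tr_le_card hP.compl hℓ

theorem St.en_nonneg (h : St U V) {q : E →L[ℝ] E} (hq : IsPr q) (S : Set E) : 0 ≤ en V q S :=
  integral_nonneg_of_ae (by
    filter_upwards [ae_restrict_of_ae h.pr] with z hz
    exact hz.tr_nonneg_conj hq)

theorem St.el_nonneg (h : St U V) {ℓ : E →L[ℝ] E} (hℓ : IsPr ℓ) (S : Set E) : 0 ≤ el V ℓ S :=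
  integral_nonneg_of_ae (by
    filter_upwards [ae_restrict_of_ae h.pr] with z hz
    exact hz.compl.tr_nonneg_conj hℓ)

theorem St.en_mono (h : St U V) {q : E →L[ℝ] E} (hq : IsPr q) {S T : Set E}
    (hfin : V (ov T) < ⊤) (hST : S ⊆ T) : en V q S ≤ en V q T :=
  setIntegral_mono_set (h.en_int hq hfin) (by
    filter_upwards [ae_restrict_of_ae h.pr] with z hz
    exact hz.tr_nonneg_conj hq) (preimage_mono hST).eventuallyLE

theorem St.el_mono (h : St U V) {ℓ : E →L[ℝ] E} (hℓ : IsPr ℓ) {S T : Set E}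
    (hfin : V (ov T) < ⊤) (hST : S ⊆ T) : el V ℓ S ≤ el V ℓ T :=
  setIntegral_mono_set (h.el_int hℓ hfin) (by
    filter_upwards [ae_restrict_of_ae h.pr] with z hz
    exact hz.compl.tr_nonneg_conj hℓ) (preimage_mono hST).eventuallyLE

/-- Cauchy-Schwarz for square roots. -/
theorem integral_sqrt_le {α : Type*} [MeasurableSpace α] {μ : Measure α} {S : Set α}
    (hfin : μ S < ⊤) {f : α → ℝ} (hf : ∀ᵐ x ∂μ.restrict S, 0 ≤ f x)
    (hi : IntegrableOn f S μ) (hi' : IntegrableOn (fun x => √(f x)) S μ) :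
    ∫ x in S, √(f x) ∂μ ≤ √(μ.real S * ∫ x in S, f x ∂μ) := by
  set M := μ.real S with hM
  set F := ∫ x in S, f x ∂μ with hF
  have hM0 : 0 ≤ M := measureReal_nonneg
  have hF0 : 0 ≤ F := integral_nonneg_of_ae hf
  have key : ∀ t : ℝ, 0 < t → ∫ x in S, √(f x) ∂μ ≤ (t * M + F / t) / 2 := by
    intro t ht
    have h1 : ∫ x in S, √(f x) ∂μ ≤ ∫ x in S, (t + f x / t) / 2 ∂μ := by
      refine integral_mono_ae hi' (((integrable_const_iff.mpr (Or.inr ?_)).add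
        (hi.div_const t)).div_const 2) ?_
      · exact ⟨by rw [Measure.restrict_apply_univ]; exact hfin⟩
      · filter_upwards [hf] with x hx
        have h2 := Real.sq_sqrt hx
        have h3 : (t + f x / t) / 2 - √(f x) = (t - √(f x)) ^ 2 / (2 * t) := by
          field_simp
          nlinarith
        have h4 : 0 ≤ (t - √(f x)) ^ 2 / (2 * t) := by positivity
        show √(f x) ≤ (t + f x / t) / 2
        linarith
    refine h1.trans (le_of_eq ?_)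
    rw [integral_div, integral_add, integral_div, setIntegral_const, smul_eq_mul, mul_comm]
    · exact integrable_const_iff.mpr (Or.inr ⟨by rw [Measure.restrict_apply_univ]; exact hfin⟩)
    · exact hi.div_const t
  rcases hM0.eq_or_lt with h0 | h0
  · -- mass zero
    have h1 : μ S = 0 := by
      have := hM.symm.trans h0.symm
      rw [measureReal_def, ENNReal.toReal_eq_zero_iff] at this
      exact this.resolve_right hfin.ne
    rw [Measure.restrict_eq_zero.mpr h1]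
    simp only [integral_zero_measure]
    exact Real.sqrt_nonneg _
  rcases hF0.eq_or_lt with h2 | h2
  · rw [← h2, mul_zero, Real.sqrt_zero]
    refine le_of_forall_pos_le_add fun ε hε => ?_
    have h3 := key (2 * ε / M) (by positivity)
    rw [← h2, zero_div, add_zero] at h3
    refine h3.trans (le_of_eq ?_)
    field_simp
    ring
  · have h3 := key (√F / √M) (by positivity)
    refine h3.trans (le_of_eq ?_)
    have hsF := Real.sq_sqrt hF0
    have hsM := Real.sq_sqrt hM0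
    have h4 : 0 < √F := Real.sqrt_pos.mpr h2
    have h5 : 0 < √M := Real.sqrt_pos.mpr h0
    rw [Real.sqrt_mul hM0]
    have e1 : √F / √M * M = √M * √F := by
      rw [div_mul_eq_mul_div, div_eq_iff h5.ne']
      nlinarith
    have e2 : F / (√F / √M) = √M * √F := by
      rw [div_div_eq_mul_div, div_eq_iff h4.ne']
      nlinarith
    rw [e1, e2]
    ring

theorem norm_innerSL_smulRight (a b : E) :
    ‖(innerSL ℝ a).smulRight b‖ ≤ ‖a‖ * ‖b‖ := by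
  rw [ContinuousLinearMap.norm_smulRight_apply, innerSL_apply_norm]

theorem norm_DX_le {ℓ κ q : E →L[ℝ] E} (hq : IsPr q) (x₀ : E) {ρ : ℝ} (hρ : 1 ≤ ρ) (x : E) :
    ‖DX ℓ κ q x₀ ρ x‖ ≤ 2 + 8 * D1 := by
  have hρ0 : 0 < ρ := by linarith
  have hD := one_le_D1
  have hw := wt_pos q x₀ x
  have hw1 := wt_le_one q x₀ x
  have hw2 := wt_mul_le q x₀ x
  have hw3 : ‖wt q x₀ x • q (x - x₀)‖ ≤ 1 := by
    rw [norm_smul, Real.norm_of_nonneg hw.le]; exact hw2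
  have a1 : |bt ℓ x₀ 1 x| ≤ 1 := by
    rw [abs_of_nonneg (bt_nonneg _ _ _ _)]; exact bt_le_one _ _ _ _
  have a2 : |bt κ x₀ ρ x| ≤ 1 := by
    rw [abs_of_nonneg (bt_nonneg _ _ _ _)]; exact bt_le_one _ _ _ _
  have e1 : ‖(bt ℓ x₀ 1 x * bt κ x₀ ρ x) • (wt q x₀ x • q +
      ((-(wt q x₀ x) ^ 3) • innerSL ℝ (q (x - x₀))).smulRight (q (x - x₀)))‖ ≤ 2 := by
    rw [norm_smul, Real.norm_eq_abs, abs_mul]
    have b1 : ‖wt q x₀ x • q‖ ≤ 1 := by
      rw [norm_smul, Real.norm_of_nonneg hw.le]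
      exact mul_le_one₀ hw1 (norm_nonneg _) hq.opNorm_le
    have b2 : ‖((-(wt q x₀ x) ^ 3) • innerSL ℝ (q (x - x₀))).smulRight (q (x - x₀))‖ ≤ 1 := by
      rw [ContinuousLinearMap.norm_smulRight_apply, norm_smul, innerSL_apply_norm, norm_neg,
        norm_pow, Real.norm_of_nonneg hw.le]
      calc wt q x₀ x ^ 3 * ‖q (x - x₀)‖ * ‖q (x - x₀)‖
          = wt q x₀ x * ((wt q x₀ x * ‖q (x - x₀)‖) * (wt q x₀ x * ‖q (x - x₀)‖)) := by ring
        _ ≤ 1 * (1 * 1) := by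
            have : 0 ≤ wt q x₀ x * ‖q (x - x₀)‖ := by positivity
            gcongr
        _ = 1 := by ring
    calc |bt ℓ x₀ 1 x| * |bt κ x₀ ρ x| * ‖wt q x₀ x • q +
          ((-(wt q x₀ x) ^ 3) • innerSL ℝ (q (x - x₀))).smulRight (q (x - x₀))‖
        ≤ 1 * 1 * (1 + 1) := by
          gcongr
          exact (norm_add_le _ _).trans (add_le_add b1 b2)
      _ = 2 := by norm_num
  have e2 : ‖(bt ℓ x₀ 1 x • ((deriv b1 (‖κ (x - x₀)‖ ^ 2 / ρ ^ 2) * (2 / ρ ^ 2)) •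
      innerSL ℝ (κ (x - x₀))) + bt κ x₀ ρ x •
        ((deriv b1 (‖ℓ (x - x₀)‖ ^ 2 / 1 ^ 2) * (2 / 1 ^ 2)) • innerSL ℝ (ℓ (x - x₀)))).smulRight
      (wt q x₀ x • q (x - x₀))‖ ≤ 8 * D1 := by
    rw [ContinuousLinearMap.norm_smulRight_apply]
    have c1 : ‖bt ℓ x₀ 1 x • ((deriv b1 (‖κ (x - x₀)‖ ^ 2 / ρ ^ 2) * (2 / ρ ^ 2)) •
        innerSL ℝ (κ (x - x₀)))‖ ≤ 4 * D1 := by
      rw [norm_smul, norm_smul, innerSL_apply_norm, Real.norm_eq_abs, Real.norm_eq_abs]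
      calc _ ≤ 1 * (4 * D1 / ρ) := by
            gcongr
            exact abs_deriv_bt_mul_le κ x₀ hρ0 x
        _ ≤ 4 * D1 := by
            rw [one_mul]
            exact div_le_self (by positivity) hρ
    have c2 : ‖bt κ x₀ ρ x • ((deriv b1 (‖ℓ (x - x₀)‖ ^ 2 / 1 ^ 2) * (2 / 1 ^ 2)) •
        innerSL ℝ (ℓ (x - x₀)))‖ ≤ 4 * D1 := by
      rw [norm_smul, norm_smul, innerSL_apply_norm, Real.norm_eq_abs, Real.norm_eq_abs]
      calc _ ≤ 1 * (4 * D1 / 1) := by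
            gcongr
            exact abs_deriv_bt_mul_le ℓ x₀ one_pos x
        _ = 4 * D1 := by ring
    calc _ ≤ (4 * D1 + 4 * D1) * 1 := by
          gcongr
          exact (norm_add_le _ _).trans (add_le_add c1 c2)
      _ = _ := by ring
  unfold DX
  exact (norm_add_le _ _).trans (add_le_add e1 e2)

theorem norm_XX_le {ℓ κ q : E →L[ℝ] E} (x₀ : E) {ρ : ℝ} (x : E) : ‖XX ℓ κ q x₀ ρ x‖ ≤ 1 := by
  have hw := wt_pos q x₀ x
  have hw2 := wt_mul_le q x₀ x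
  have hw3 : ‖wt q x₀ x • q (x - x₀)‖ ≤ 1 := by
    rw [norm_smul, Real.norm_of_nonneg hw.le]; exact hw2
  have a1 : |bt ℓ x₀ 1 x| ≤ 1 := by
    rw [abs_of_nonneg (bt_nonneg _ _ _ _)]; exact bt_le_one _ _ _ _
  have a2 : |bt κ x₀ ρ x| ≤ 1 := by
    rw [abs_of_nonneg (bt_nonneg _ _ _ _)]; exact bt_le_one _ _ _ _
  unfold XX
  rw [norm_smul, Real.norm_eq_abs, abs_mul]
  calc _ ≤ (1 : ℝ) * 1 * 1 := by gcongr
    _ = 1 := by norm_num

theorem XX_eq_zero {ℓ κ q : E →L[ℝ] E} (x₀ : E) {ρ : ℝ} (hρ : 0 < ρ) {x : E}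
    (hx : x ∉ slab ℓ κ x₀ (2 * ρ)) : XX ℓ κ q x₀ ρ x = 0 := by
  unfold XX
  by_cases h1 : ‖ℓ (x - x₀)‖ ≤ 2
  · have h2 : 2 * ρ ≤ ‖κ (x - x₀)‖ := by
      by_contra hcon
      push Not at hcon
      exact hx ⟨h1, hcon.le⟩
    rw [bt_eq_zero κ x₀ hρ h2, mul_zero, zero_smul]
  · push Not at h1
    rw [bt_eq_zero ℓ x₀ one_pos (by linarith), zero_mul, zero_smul]

/-- **the annulus inequality**. -/
theorem St.annulus (h : St U V) {ℓ κ q : E →L[ℝ] E} (hℓ : IsPr ℓ) (hκ : IsPr κ) (hq : IsPr q)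
    (hℓq : ∀ x, ℓ (q x) = 0) (x₀ : E) {ρ : ℝ} (hρ : 1 ≤ ρ) (hU : slab ℓ κ x₀ (2 * ρ) ⊆ U)
    (hfin : V (ov (slab ℓ κ x₀ (2 * ρ))) < ⊤) :
    1 / 3 * en V q (bx ℓ κ q x₀) ≤
      4 * D1 / ρ * √(V.real (ov (ann ℓ κ x₀ ρ)) * en V q (ann ℓ κ x₀ ρ)) +
        4 * D1 * √(V.real (ov (slab ℓ κ x₀ (2 * ρ))) * el V ℓ (slab ℓ κ x₀ (2 * ρ))) := by
  have hρ0 : 0 < ρ := by linarith
  have hD := one_le_D1
  have hS := (isClosed_slab ℓ κ x₀ (2 * ρ)).measurableSet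
  have hA := measurableSet_ann ℓ κ x₀ ρ
  have hB := (isClosed_bx ℓ κ q x₀).measurableSet
  have hAS := ann_subset_slab ℓ κ x₀ ρ
  have hBS : bx ℓ κ q x₀ ⊆ slab ℓ κ x₀ (2 * ρ) := bx_subset_slab ℓ κ q x₀ (by linarith)
  have hfinA : V (ov (ann ℓ κ x₀ ρ)) < ⊤ := (measure_mono (preimage_mono hAS)).trans_lt hfin
  have hfinB : V (ov (bx ℓ κ q x₀)) < ⊤ := (measure_mono (preimage_mono hBS)).trans_lt hfin
  have hfd : ∀ x, fderiv ℝ (XX ℓ κ q x₀ ρ) x = DX ℓ κ q x₀ ρ x := fun x =>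
    (hasFDerivAt_XX hℓ hκ hq x₀ ρ x).fderiv
  have hst := h.noncompact (contDiff_XX ℓ κ q x₀ ρ) (isClosed_slab ℓ κ x₀ (2 * ρ)) hU hfin
    (fun x hx => XX_eq_zero x₀ hρ0 hx) (C := 2 + 8 * D1)
    (fun x => (norm_XX_le x₀ x).trans (by linarith))
    (fun x => by rw [hfd]; exact norm_DX_le hq x₀ hρ x)
  simp_rw [hfd] at hst
  -- integrability
  have hDXc : Continuous fun x => DX ℓ κ q x₀ ρ x := by
    have := (contDiff_XX ℓ κ q x₀ ρ).continuous_fderiv one_ne_zero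
    rwa [show fderiv ℝ (XX ℓ κ q x₀ ρ) = fun x => DX ℓ κ q x₀ ρ x from funext hfd] at this
  have hDXz : ∀ x, x ∉ slab ℓ κ x₀ (2 * ρ) → DX ℓ κ q x₀ ρ x = 0 := by
    intro x hx
    rw [← hfd]
    have hts : tsupport (XX ℓ κ q x₀ ρ) ⊆ slab ℓ κ x₀ (2 * ρ) :=
      closure_minimal (fun y hy => by
        by_contra hcon
        exact hy (XX_eq_zero x₀ hρ0 hcon)) (isClosed_slab ℓ κ x₀ (2 * ρ))
    by_contra hcon
    exact hx (hts (support_fderiv_subset ℝ hcon))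
  have i0 : Integrable (fun z : E × (E →L[ℝ] E) => tr (DX ℓ κ q x₀ ρ z.1 ∘L z.2)) V := by
    have : IntegrableOn (fun z : E × (E →L[ℝ] E) => tr (DX ℓ κ q x₀ ρ z.1 ∘L z.2))
        (ov (slab ℓ κ x₀ (2 * ρ))) V :=
      h.integrableOn_bdd hfin (continuous_tr.comp
        ((hDXc.comp continuous_fst).clm_comp continuous_snd)) (C := Module.finrank ℝ E *
          (2 + 8 * D1)) fun x P hP => (abs_tr_comp_le _ hP).trans (by
            gcongr
            exact norm_DX_le hq x₀ hρ x)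
    rw [← integrable_indicator_iff (measurableSet_ov hS)] at this
    refine this.congr (Eventually.of_forall fun z => ?_)
    by_cases hz : z.1 ∈ slab ℓ κ x₀ (2 * ρ)
    · exact indicator_of_mem (show z ∈ ov (slab ℓ κ x₀ (2 * ρ)) from hz) _
    · rw [indicator_of_notMem (show z ∉ ov (slab ℓ κ x₀ (2 * ρ)) from hz)]
      simp [hDXz _ hz, tr]
  have iA : IntegrableOn (fun z : E × (E →L[ℝ] E) => √(tr (q ∘L z.2))) (ov (ann ℓ κ x₀ ρ)) V :=
    h.integrableOn_bdd hfinA (Real.continuous_sqrt.comp (continuous_tq q))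
      fun _ _ hP => sqrt_tr_le_card hP hq
  have iS : IntegrableOn (fun z : E × (E →L[ℝ] E) => √(tr (ℓ ∘L (1 - z.2))))
      (ov (slab ℓ κ x₀ (2 * ρ))) V :=
    h.integrableOn_bdd hfin (Real.continuous_sqrt.comp (continuous_tl ℓ))
      fun _ _ hP => sqrt_tr_le_card hP.compl hℓ
  have iB := h.en_int hq hfinB
  have jA := (integrable_indicator_iff (measurableSet_ov hA)).mpr
    (Integrable.const_mul iA (4 * D1 / ρ))
  have jS := (integrable_indicator_iff (measurableSet_ov hS)).mpr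
    (Integrable.const_mul iS (4 * D1))
  have jB := (integrable_indicator_iff (measurableSet_ov hB)).mpr
    (Integrable.const_mul iB (1 / 3))
  have hmono := integral_mono_ae jB ((i0.add jA).add jS) (by
    filter_upwards [h.pr] with z hz
    exact pointwise (κ := κ) hz hℓ hq hℓq x₀ hρ z.1)
  rw [integral_indicator (measurableSet_ov hB), integral_const_mul,
    integral_add' (i0.add jA) jS, integral_add' i0 jA, hst, zero_add,
    integral_indicator (measurableSet_ov hA), integral_const_mul,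
    integral_indicator (measurableSet_ov hS), integral_const_mul] at hmono
  have cA := integral_sqrt_le hfinA (ae_restrict_of_ae (h.pr.mono fun z hz =>
    hz.tr_nonneg_conj hq)) (h.en_int hq hfinA) iA
  have cS := integral_sqrt_le hfin (ae_restrict_of_ae (h.pr.mono fun z hz =>
    hz.compl.tr_nonneg_conj hℓ)) (h.el_int hℓ hfin) iS
  calc 1 / 3 * en V q (bx ℓ κ q x₀) ≤ _ := hmono
    _ ≤ _ := by
      unfold en el
      gcongr

theorem ann_subset_slab_pow (ℓ κ : E →L[ℝ] E) (x₀ : E) {j J : ℕ} (hj : j < J) :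
    ann ℓ κ x₀ (2 ^ j) ⊆ slab ℓ κ x₀ (2 ^ J) := by
  refine (ann_subset_slab ℓ κ x₀ _).trans fun x hx => ⟨hx.1, hx.2.trans ?_⟩
  have : (2 : ℝ) * 2 ^ j = 2 ^ (j + 1) := by ring
  rw [this]
  exact pow_le_pow_right₀ (by norm_num) hj

theorem disjoint_ann (ℓ κ : E →L[ℝ] E) (x₀ : E) {i j : ℕ} (hij : i ≠ j) :
    Disjoint (ann ℓ κ x₀ (2 ^ i)) (ann ℓ κ x₀ (2 ^ j)) := by
  wlog h : i < j generalizing i j
  · exact (this hij.symm (lt_of_le_of_ne (not_lt.mp h) hij.symm)).symm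
  rw [Set.disjoint_left]
  intro x hx hy
  have h1 := hx.2.2
  have h2 := hy.2.1
  have h3 : (2 : ℝ) * 2 ^ i = 2 ^ (i + 1) := by ring
  have h4 : (2 : ℝ) ^ (i + 1) ≤ 2 ^ j := pow_le_pow_right₀ (by norm_num) h
  linarith

theorem St.sum_ann_le (h : St U V) {q : E →L[ℝ] E} (hq : IsPr q) (ℓ κ : E →L[ℝ] E) (x₀ : E)
    {J : ℕ} (hfin : V (ov (slab ℓ κ x₀ (2 ^ J))) < ⊤) :
    ∑ j ∈ Finset.range J, en V q (ann ℓ κ x₀ (2 ^ j)) ≤ en V q (slab ℓ κ x₀ (2 ^ J)) := by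
  have hsub : ∀ j ∈ Finset.range J, ann ℓ κ x₀ (2 ^ j) ⊆ slab ℓ κ x₀ (2 ^ J) := fun j hj =>
    ann_subset_slab_pow ℓ κ x₀ (Finset.mem_range.mp hj)
  unfold en
  rw [← integral_biUnion_finset (Finset.range J) (s := fun j => ov (ann ℓ κ x₀ (2 ^ j)))
    (fun j _ => measurableSet_ov (measurableSet_ann ℓ κ x₀ _))
    (fun i _ j _ hij => (disjoint_ann ℓ κ x₀ hij).preimage _)
    (fun j hj => (h.en_int hq hfin).mono_set (preimage_mono (hsub j hj)))]
  refine setIntegral_mono_set (h.en_int hq hfin) ?_ (LE.le.eventuallyLE ?_)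
  · filter_upwards [ae_restrict_of_ae h.pr] with z hz
    exact hz.tr_nonneg_conj hq
  · exact iUnion₂_subset fun j hj => preimage_mono (hsub j hj)

/-- **the logarithmic lower bound of the tilt energy of a slab.** -/
theorem St.slab_log (h : St U V) {ℓ κ q : E →L[ℝ] E} (hℓ : IsPr ℓ) (hκ : IsPr κ) (hq : IsPr q)
    (hℓq : ∀ x, ℓ (q x) = 0) (x₀ : E) {J : ℕ} (hU : slab ℓ κ x₀ (2 ^ J) ⊆ U)
    (hfin : V (ov (slab ℓ κ x₀ (2 ^ J))) < ⊤) {C₁ ε : ℝ} (hC₁ : 0 < C₁) (hε : 0 < ε)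
    (hmass : ∀ j < J, V.real (ov (ann ℓ κ x₀ (2 ^ j))) ≤ C₁ * (2 ^ j) ^ 2)
    (hen : ε ≤ en V q (bx ℓ κ q x₀))
    (hel : 4 * D1 * √(V.real (ov (slab ℓ κ x₀ (2 ^ J))) * el V ℓ (slab ℓ κ x₀ (2 ^ J))) ≤ ε / 6) :
    J * (ε ^ 2 / (576 * D1 ^ 2 * C₁)) ≤ en V q (slab ℓ κ x₀ (2 ^ J)) := by
  have hD := one_le_D1
  have hD0 : 0 < D1 := by linarith
  refine le_trans ?_ (h.sum_ann_le hq ℓ κ x₀ hfin)
  have key : ∀ j ∈ Finset.range J,
      ε ^ 2 / (576 * D1 ^ 2 * C₁) ≤ en V q (ann ℓ κ x₀ (2 ^ j)) := by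
    intro j hj
    have hj' := Finset.mem_range.mp hj
    have hρ : (1 : ℝ) ≤ 2 ^ j := one_le_pow₀ (by norm_num)
    have hρ0 : (0 : ℝ) < 2 ^ j := by positivity
    have hsub : slab ℓ κ x₀ (2 * 2 ^ j) ⊆ slab ℓ κ x₀ (2 ^ J) := fun x hx => ⟨hx.1, hx.2.trans (by
      have : (2 : ℝ) * 2 ^ j = 2 ^ (j + 1) := by ring
      rw [this]
      exact pow_le_pow_right₀ (by norm_num) hj')⟩
    have hfin' : V (ov (slab ℓ κ x₀ (2 * 2 ^ j))) < ⊤ :=
      (measure_mono (preimage_mono hsub)).trans_lt hfin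
    have h1 := h.annulus hℓ hκ hq hℓq x₀ hρ (hsub.trans hU) hfin'
    have h2 : √(V.real (ov (slab ℓ κ x₀ (2 * 2 ^ j))) * el V ℓ (slab ℓ κ x₀ (2 * 2 ^ j))) ≤
        √(V.real (ov (slab ℓ κ x₀ (2 ^ J))) * el V ℓ (slab ℓ κ x₀ (2 ^ J))) := by
      refine Real.sqrt_le_sqrt (mul_le_mul (measureReal_mono (preimage_mono hsub) hfin.ne)
        (h.el_mono hℓ hfin hsub) (h.el_nonneg hℓ _) measureReal_nonneg)
    have h3 : 4 * D1 * √(V.real (ov (slab ℓ κ x₀ (2 * 2 ^ j))) *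
        el V ℓ (slab ℓ κ x₀ (2 * 2 ^ j))) ≤ ε / 6 := le_trans (by gcongr) hel
    have he0 := h.en_nonneg hq (ann ℓ κ x₀ (2 ^ j))
    have h4 : √(V.real (ov (ann ℓ κ x₀ (2 ^ j))) * en V q (ann ℓ κ x₀ (2 ^ j))) ≤
        2 ^ j * √(C₁ * en V q (ann ℓ κ x₀ (2 ^ j))) := by
      have h41 : (2 : ℝ) ^ j * √(C₁ * en V q (ann ℓ κ x₀ (2 ^ j))) =
          √((2 ^ j) ^ 2 * (C₁ * en V q (ann ℓ κ x₀ (2 ^ j)))) := by
        rw [Real.sqrt_mul (show (0 : ℝ) ≤ (2 ^ j) ^ 2 by positivity), Real.sqrt_sq hρ0.le]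
      rw [h41]
      refine Real.sqrt_le_sqrt ?_
      calc _ ≤ (C₁ * (2 ^ j) ^ 2) * en V q (ann ℓ κ x₀ (2 ^ j)) := by
            gcongr
            exact hmass j hj'
        _ = _ := by ring
    have h5 : 4 * D1 / 2 ^ j * √(V.real (ov (ann ℓ κ x₀ (2 ^ j))) *
        en V q (ann ℓ κ x₀ (2 ^ j))) ≤ 4 * D1 * √(C₁ * en V q (ann ℓ κ x₀ (2 ^ j))) := by
      calc _ ≤ 4 * D1 / 2 ^ j * (2 ^ j * √(C₁ * en V q (ann ℓ κ x₀ (2 ^ j)))) := by gcongr
        _ = _ := by field_simp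
    have h6 : ε / 6 ≤ 4 * D1 * √(C₁ * en V q (ann ℓ κ x₀ (2 ^ j))) := by linarith
    have h7 : (ε / 6) ^ 2 ≤ (4 * D1 * √(C₁ * en V q (ann ℓ κ x₀ (2 ^ j)))) ^ 2 := by gcongr
    rw [mul_pow, Real.sq_sqrt (by positivity)] at h7
    rw [div_le_iff₀ (by positivity)]
    nlinarith
  calc (J : ℝ) * (ε ^ 2 / (576 * D1 ^ 2 * C₁))
      = ∑ _j ∈ Finset.range J, ε ^ 2 / (576 * D1 ^ 2 * C₁) := by simp
    _ ≤ _ := Finset.sum_le_sum key

end Crest.Agent.R234.Cacc_113
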