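import Mathlib
import Crest.Agent.R234.Log3_113

/-!
Row 234, VF-LOG, part 4: finite sums and covers of energies, lattices in a subspace.
-/

set_option linter.unusedSectionVars false

namespace Crest.Agent.R234.Cacc_113

open MeasureTheory Set Filter Topology Function
open scoped InnerProductSpace

section energy

variable {E : Type*} [NormedAddCommGroup E] [InnerProductSpace ℝ E] [FiniteDimensional ℝ E]
  [MeasurableSpace E] [BorelSpace E]

variable {U : Set E} {V : Measure (E × (E →L[ℝ] E))} {q : E →L[ℝ] E}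

/-- disjoint sets. -/
theorem St.sum_en_le (h : St U V) (hq : IsPr q) {ι : Type*} (s : Finset ι) (A : ι → Set E)
    (hA : ∀ i ∈ s, MeasurableSet (A i)) (hd : (s : Set ι).Pairwise (Disjoint on A)) {B : Set E}
    (hB : V (ov B) < ⊤) (hsub : ∀ i ∈ s, A i ⊆ B) : ∑ i ∈ s, en V q (A i) ≤ en V q B := by
  unfold en
  rw [← integral_biUnion_finset s (s := fun j => ov (A j))
    (fun j hj => measurableSet_ov (hA j hj))
    (fun i hi j hj hij => (hd hi hj hij).preimage _)
    (fun j hj => (h.en_int hq hB).mono_set (preimage_mono (hsub j hj)))]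
  refine setIntegral_mono_set (h.en_int hq hB) ?_ (LE.le.eventuallyLE ?_)
  · filter_upwards [ae_restrict_of_ae h.pr] with z hz
    exact hz.tr_nonneg_conj hq
  · exact iUnion₂_subset fun j hj => preimage_mono (hsub j hj)

theorem St.en_union_le (h : St U V) (hq : IsPr q) {A B : Set E} (hA : MeasurableSet A)
    (hB : MeasurableSet B) (hfA : V (ov A) < ⊤) (hfB : V (ov B) < ⊤) :
    en V q (A ∪ B) ≤ en V q A + en V q B := by
  have h1 : en V q (A ∪ B) = en V q A + en V q (B \ A) := by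
    unfold en
    have e : ov (A ∪ B) = ov A ∪ ov (B \ A) := by
      unfold ov
      rw [← preimage_union, union_sdiff_self]
    rw [e]
    refine setIntegral_union ?_ (measurableSet_ov (hB.diff hA)) (h.en_int hq hfA)
      ((h.en_int hq hfB).mono_set (preimage_mono sdiff_subset))
    exact disjoint_sdiff_self_right.preimage _
  rw [h1]
  gcongr
  exact h.en_mono hq hfB sdiff_subset

theorem St.en_biUnion_le (h : St U V) (hq : IsPr q) {ι : Type*} (s : Finset ι) (A : ι → Set E)
    (hA : ∀ i ∈ s, MeasurableSet (A i)) (hf : ∀ i ∈ s, V (ov (A i)) < ⊤) :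
    en V q (⋃ i ∈ s, A i) ≤ ∑ i ∈ s, en V q (A i) := by
  classical
  induction s using Finset.induction_on with
  | empty => simp [en, ov]
  | insert a s ha ih =>
    rw [Finset.set_biUnion_insert, Finset.sum_insert ha]
    have hA' : ∀ i ∈ s, MeasurableSet (A i) := fun i hi => hA i (Finset.mem_insert_of_mem hi)
    have hf' : ∀ i ∈ s, V (ov (A i)) < ⊤ := fun i hi => hf i (Finset.mem_insert_of_mem hi)
    have hfU : V (ov (⋃ i ∈ s, A i)) < ⊤ := by
      have e : ov (⋃ i ∈ s, A i) = ⋃ i ∈ s, ov (A i) := by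
        unfold ov; simp only [preimage_iUnion]
      rw [e]
      exact (measure_biUnion_finset_le _ _).trans_lt (ENNReal.sum_lt_top.mpr hf')
    refine (h.en_union_le hq (hA a (Finset.mem_insert_self _ _))
      (Finset.measurableSet_biUnion _ hA') (hf a (Finset.mem_insert_self _ _)) hfU).trans ?_
    gcongr
    exact ih hA' hf'

/-- pigeonhole: a finite cover has a member with a fair part of the energy. -/
theorem St.exists_en_ge (h : St U V) (hq : IsPr q) {ι : Type*} (s : Finset ι) (A : ι → Set E)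
    (hA : ∀ i ∈ s, MeasurableSet (A i)) (hf : ∀ i ∈ s, V (ov (A i)) < ⊤) {B : Set E} {ε : ℝ}
    (hcov : ∀ᵐ z ∂V, z.1 ∈ B → ∃ i ∈ s, z.1 ∈ A i) (hε : 0 < ε)
    (hB2 : ε ≤ en V q B) :
    ∃ i ∈ s, ε / s.card ≤ en V q (A i) := by
  have hfU : V (ov (⋃ i ∈ s, A i)) < ⊤ := by
    have e : ov (⋃ i ∈ s, A i) = ⋃ i ∈ s, ov (A i) := by
      unfold ov; simp only [preimage_iUnion]
    rw [e]
    exact (measure_biUnion_finset_le _ _).trans_lt (ENNReal.sum_lt_top.mpr hf)
  have h1 : en V q B ≤ en V q (⋃ i ∈ s, A i) := by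
    refine setIntegral_mono_set (h.en_int hq hfU) ?_ ?_
    · filter_upwards [ae_restrict_of_ae h.pr] with z hz
      exact hz.tr_nonneg_conj hq
    · filter_upwards [hcov] with z hz hzB
      obtain ⟨i, hi, hiz⟩ := hz hzB
      exact mem_biUnion (show i ∈ (s : Set ι) from hi) hiz
  have h2 := h.en_biUnion_le hq s A hA hf
  by_contra hcon
  push Not at hcon
  rcases s.eq_empty_or_nonempty with hs | hs
  · subst hs
    simp only [Finset.sum_empty] at h2
    linarith
  · have hc : (0 : ℝ) < s.card := by exact_mod_cast hs.card_pos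
    have h3 : ∑ i ∈ s, en V q (A i) < ∑ _i ∈ s, ε / s.card := Finset.sum_lt_sum_of_nonempty hs hcon
    rw [Finset.sum_const, nsmul_eq_mul, mul_div_cancel₀ _ hc.ne'] at h3
    linarith

end energy

/-! ### lattices -/

section lattice

variable {F : Type*} [NormedAddCommGroup F] [InnerProductSpace ℝ F] {d : ℕ} {v : Fin d → F}

/-- lattice points -/
noncomputable def pt (v : Fin d → F) (n : Fin d → ℤ) : F := ∑ i, (n i : ℝ) • v i

theorem inner_pt (hv : Orthonormal ℝ v) (n : Fin d → ℤ) (i : Fin d) :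
    ⟪v i, pt v n⟫_ℝ = n i := hv.inner_right_fintype _ _

theorem norm_pt_le (hv : Orthonormal ℝ v) {n : Fin d → ℤ} {N : ℝ} (hn : ∀ i, |(n i : ℝ)| ≤ N) :
    ‖pt v n‖ ≤ d * N := by
  unfold pt
  refine (norm_sum_le _ _).trans ?_
  calc ∑ i, ‖(n i : ℝ) • v i‖ ≤ ∑ _i : Fin d, N := by
        refine Finset.sum_le_sum fun i _ => ?_
        rw [norm_smul, hv.1 i, mul_one, Real.norm_eq_abs]
        exact hn i
    _ = d * N := by simp

theorem one_le_norm_pt_sub (hv : Orthonormal ℝ v) {n n' : Fin d → ℤ} (hn : n ≠ n') :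
    1 ≤ ‖pt v n - pt v n'‖ := by
  obtain ⟨i, hi⟩ := Function.ne_iff.mp hn
  have h1 : |⟪v i, pt v n - pt v n'⟫_ℝ| ≤ ‖pt v n - pt v n'‖ := by
    refine (abs_real_inner_le_norm _ _).trans ?_
    rw [hv.1 i, one_mul]
  rw [inner_sub_right, inner_pt hv, inner_pt hv] at h1
  refine le_trans ?_ h1
  have h2 : (1 : ℤ) ≤ |n i - n' i| := Int.one_le_abs (sub_ne_zero.mpr hi)
  exact_mod_cast h2

/-- box of indices -/
noncomputable def ix (d : ℕ) (N : ℕ) : Finset (Fin d → ℤ) :=
  Fintype.piFinset fun _ => Finset.Icc (-(N : ℤ)) N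

theorem card_ix (d N : ℕ) : (ix d N).card = (2 * N + 1) ^ d := by
  unfold ix
  rw [Fintype.card_piFinset]
  simp only [Int.card_Icc, Finset.prod_const, Finset.card_univ, Fintype.card_fin]
  congr 1
  omega

theorem abs_le_of_mem_ix {N : ℕ} {n : Fin d → ℤ} (hn : n ∈ ix d N) (i : Fin d) :
    |(n i : ℝ)| ≤ N := by
  have h1 := Fintype.mem_piFinset.mp hn i
  rw [Finset.mem_Icc] at h1
  rw [abs_le]
  constructor
  · have := h1.1
    have h2 : ((-(N : ℤ) : ℤ) : ℝ) ≤ ((n i : ℤ) : ℝ) := by exact_mod_cast this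
    simpa using h2
  · have := h1.2
    exact_mod_cast this

/-- the lattice points of the box cover the vectors whose coordinates are at most `N`. -/
theorem exists_pt_near (hv : Orthonormal ℝ v) {N : ℕ} {x : F} (hx : ∀ i, |⟪v i, x⟫_ℝ| ≤ N) :
    ∃ n ∈ ix d N, ∀ i, |⟪v i, x - pt v n⟫_ℝ| ≤ 1 := by
  have hr : ∀ t : ℝ, |t| ≤ N → ∃ j ∈ Finset.Icc (-(N : ℤ)) N, |t - j| ≤ 1 := by
    intro t ht
    rw [abs_le] at ht
    rcases le_or_gt 0 t with h0 | h0
    · refine ⟨⌊t⌋, ?_, ?_⟩
      · rw [Finset.mem_Icc]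
        constructor
        · have : (0 : ℤ) ≤ ⌊t⌋ := Int.floor_nonneg.mpr h0
          omega
        · have h1 : (⌊t⌋ : ℝ) ≤ N := (Int.floor_le t).trans ht.2
          exact_mod_cast h1
      · rw [abs_le]
        constructor <;> linarith [Int.floor_le t, Int.lt_floor_add_one t]
    · refine ⟨⌈t⌉, ?_, ?_⟩
      · rw [Finset.mem_Icc]
        constructor
        · have h1 : (-(N : ℝ)) ≤ ⌈t⌉ := ht.1.trans (Int.le_ceil t)
          exact_mod_cast h1
        · have : ⌈t⌉ ≤ 0 := Int.ceil_le.mpr (by simpa using h0.le)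
          omega
      · rw [abs_le]
        constructor <;> linarith [Int.le_ceil t, Int.ceil_lt_add_one t]
  choose g hg1 hg2 using fun i => hr _ (hx i)
  refine ⟨g, Fintype.mem_piFinset.mpr hg1, fun i => ?_⟩
  rw [inner_sub_right, inner_pt hv]
  exact hg2 i

theorem norm_le_of_inner_le (b : OrthonormalBasis (Fin d) ℝ F) {x : F} {c : ℝ}
    (hx : ∀ i, |⟪b i, x⟫_ℝ| ≤ c) : ‖x‖ ≤ d * c := by
  rw [← b.sum_repr' x]
  refine (norm_sum_le _ _).trans ?_
  calc ∑ i, ‖⟪b i, x⟫_ℝ • b i‖ ≤ ∑ _i : Fin d, c := by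
        refine Finset.sum_le_sum fun i _ => ?_
        rw [norm_smul, b.norm_eq_one, mul_one, Real.norm_eq_abs]
        exact hx i
    _ = d * c := by simp

end lattice

end Crest.Agent.R234.Cacc_113
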