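import Crest.Agent.R234.Pers3_540

/-!
Row 234, VF-PERS (helper540), file 4: tip persistence, the compactness argument.
-/

set_option autoImplicit false

open MeasureTheory Set Filter Topology Crest.GeometryTopology.Submanifold Metric
open scoped ENNReal InnerProductSpace NNReal

noncomputable section

namespace Crest.Agent.R234.Pers_540

open Vf_884 Strat3_842 Vc_164

variable {m k : ℕ} {V A B : Measure (Euc k × L k)} {P : L k}

theorem integrable_cutoff_tilt {U : Set (Euc k)} (hA : Stat m k U A) {χ : Euc k → ℝ}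
    (hχ : Continuous χ) (hχc : HasCompactSupport χ) (hχU : tsupport χ ⊆ U) :
    Integrable (fun p : Euc k × L k => χ p.1 * tilt P p) A :=
  integrable_of_cont hA.conc hχc (hA.fin _ hχc hχU)
    ((hχ.comp continuous_fst).mul (continuous_tilt P)) fun p hp => by
      rw [image_eq_zero_of_notMem_tsupport hp, zero_mul]

theorem integrableOn_tilt (hP : P ∈ G m k) {U : Set (Euc k)} (hA : Stat m k U A)
    (hfin : A (U ×ˢ univ) < ⊤) :
    IntegrableOn (fun p : Euc k × L k => tilt P p) (U ×ˢ univ) A := by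
  refine IntegrableOn.of_bound hfin (continuous_tilt P).aestronglyMeasurable m ?_
  filter_upwards [ae_restrict_of_ae hA.conc] with p hp
  rw [Real.norm_of_nonneg (tilt_nonneg hp hP)]
  exact tilt_le hp hP

/-- the limit argument: contradiction. -/
theorem limit_contra (hP : P ∈ G m k) (hA : Stat m k (Bx P 2) A) (hB : Stat m k (Bx P 2) B)
    (heq : ∀ f : Euc k → ℝ, ContDiff ℝ 1 f → HasCompactSupport f → tsupport f ⊆ Bx P 2 →
      ∫ p, f p.1 ∂A = ∫ p, f p.1 ∂B)
    (hBt : ∀ χ : Euc k → ℝ, Continuous χ → HasCompactSupport χ → tsupport χ ⊆ Bx P 2 →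
      (∀ x, 0 ≤ χ x ∧ χ x ≤ 1) → ∫ p, χ p.1 * tilt P p ∂B = 0)
    {c : ℝ} (hc : 0 < c) (hd : ∀ x, Sp B x → ∀ r > 0, closedBall x r ⊆ Bx P 2 →
      ENNReal.ofReal (c * r ^ m) ≤ B (closedBall x r ×ˢ univ)) :
    ∀ χ : Euc k → ℝ, Continuous χ → HasCompactSupport χ → tsupport χ ⊆ Bx P (5/4) →
      ∫ p, χ p.1 * tilt P p ∂A = 0 := by
  have hUo : IsOpen (Bx P 2) := isOpen_Bx P 2
  -- B is horizontal
  have hp : ∀ K : Set (Euc k), IsCompact K → K ⊆ Bx P 2 → ∀ᵐ p ∂B, p.1 ∈ K → p.2 = P := by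
    intro K hK hKU
    obtain ⟨χ, hχ1, hχc, hχU, hχ01⟩ := exists_cutoff hK hUo hKU
    have h1 := hBt χ χ.continuous hχc hχU hχ01
    have hnn : 0 ≤ᵐ[B] fun p => χ p.1 * tilt P p := by
      filter_upwards [hB.conc] with p hp
      exact mul_nonneg (hχ01 _).1 (tilt_nonneg hp hP)
    have h2 := (integral_eq_zero_iff_of_nonneg_ae hnn
      (integrable_cutoff_tilt hB χ.continuous hχc hχU)).1 h1
    filter_upwards [h2, hB.conc] with p hp1 hp2 hp3
    have e : χ p.1 * tilt P p = 0 := hp1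
    rw [hχ1 p.1 hp3, one_mul] at e
    exact eq_of_tilt hp2 hP e
  set H : Set (Euc k) := {y | P y = 0 ∧ ‖y‖ ≤ 3/2 ∧ Sp B y} with hH
  -- finitely many heights
  have hHfin : H.Finite := by
    have hK : IsCompact (Bc P (15/8)) := isCompact_Bc P _
    have hKU : Bc P (15/8) ⊆ Bx P 2 := Bc_subset_Bx (by norm_num)
    have hfin : IsFiniteMeasure ((B.restrict (Bc P (15/8) ×ˢ univ)).map Prod.fst) := by
      have : IsFiniteMeasure (B.restrict (Bc P (15/8) ×ˢ (univ : Set (L k)))) :=
        ⟨by rw [Measure.restrict_apply_univ]; exact hB.fin _ hK hKU⟩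
      exact Measure.isFiniteMeasure_map _ _
    refine finite_heights hP ((B.restrict (Bc P (15/8) ×ˢ univ)).map Prod.fst)
      (fun y hy => hy.1) (c := c * (1/2) ^ m) (a := 1/2) (r₀ := 1/4) (by positivity) (by norm_num)
      (by norm_num) ?_
    intro y hy z hz hza r hr hr1
    have hzy : Sp B (y + z) := by
      refine sp_translate hB hUo (convex_Bx P 2) hp hz ?_ ?_ hy.2.2
      · refine ⟨by rw [hy.1]; simp, ?_⟩
        rw [hy.1, sub_zero]; linarith [hy.2.1]
      · refine ⟨by rw [map_add, hy.1, hz, zero_add]; linarith, ?_⟩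
        rw [map_add, hy.1, hz, zero_add, add_sub_cancel_right]; linarith [hy.2.1]
    have hmem : z + y ∈ Bc P (3/2) := by
      refine ⟨by rw [map_add, hy.1, hz, add_zero]; linarith, ?_⟩
      rw [map_add, hy.1, hz, add_zero, add_sub_cancel_left]; exact hy.2.1
    have hsub : ball (z + y) r ⊆ Bx P (15/8) :=
      ball_subset_Bx hP hmem (by linarith)
    have h1 := hd (y + z) hzy (r / 2) (by positivity) (by
      rw [add_comm y z]
      refine (closedBall_subset_ball (by linarith : r / 2 < r)).trans (hsub.trans ?_)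
      exact fun x hx => ⟨hx.1.trans (by norm_num), hx.2.trans (by norm_num)⟩)
    rw [map_fst_apply _ measurableSet_ball, Measure.restrict_apply
      (measurableSet_ball.prod MeasurableSet.univ)]
    have e1 : c * (r / 2) ^ m = c * (1 / 2) ^ m * r ^ m := by rw [div_pow, one_div, inv_pow]; ring
    rw [e1] at h1
    refine h1.trans (measure_mono ?_)
    rintro p ⟨hp1, -⟩
    rw [add_comm y z] at hp1
    have h2 : p.1 ∈ ball (z + y) r := closedBall_subset_ball (by linarith) hp1
    exact ⟨⟨h2, mem_univ _⟩, ⟨Bx_subset_Bc (hsub h2), mem_univ _⟩⟩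
  -- heights of support points of A
  have hheight : ∀ x, Sp A x → ‖P x‖ < 2 → ‖x - P x‖ ≤ 3/2 → x - P x ∈ H := by
    intro x hx h1 h2
    have hxU : x ∈ Bx P 2 := ⟨h1, by linarith⟩
    have hPq : P (x - P x) = 0 := by rw [map_sub, G_idem_apply hP, sub_self]
    have h3 := sp_of_eq hA hUo heq hxU hx
    have h4 : Sp B (x + -(P x)) := by
      refine sp_translate hB hUo (convex_Bx P 2) hp ?_ hxU ?_ h3
      · rw [map_neg, G_idem_apply hP]
      · rw [← sub_eq_add_neg]
        refine ⟨by rw [hPq]; simp, ?_⟩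
        rw [hPq, sub_zero]; linarith
    rw [← sub_eq_add_neg] at h4
    exact ⟨hPq, h2, h4⟩
  -- no tilt near each height
  have hlocal : ∀ y ∈ H, ‖y‖ ≤ 5/4 → ∀ᵐ p ∂A, ‖P p.1‖ < 3/2 → p.1 - P p.1 = y → tilt P p = 0 := by
    intro y hy hy2
    obtain ⟨δ, hδ, hδH⟩ : ∃ δ > 0, ∀ y' ∈ H, y' ≠ y → δ ≤ ‖y' - y‖ := by
      have hfin2 : (H \ {y}).Finite := hHfin.sdiff
      by_cases hne : (H \ {y}).Nonempty
      · obtain ⟨w, hw, hwm⟩ := hfin2.exists_minimalFor (fun w => ‖w - y‖) _ hne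
        refine ⟨‖w - y‖, norm_pos_iff.2 (sub_ne_zero.2 hw.2), fun y' hy' hne' => ?_⟩
        by_contra hlt
        rw [not_le] at hlt
        exact absurd (hwm ⟨hy', hne'⟩ hlt.le) (not_le.2 hlt)
      · refine ⟨1, one_pos, fun y' hy' hne' => (hne ⟨y', hy', hne'⟩).elim⟩
    set η := min (δ / 2) (1/8) with hη
    have hη0 : 0 < η := by positivity
    have hη1 : η < δ := (min_le_left _ _).trans_lt (by linarith)
    have hη2 : η ≤ 1/8 := min_le_right _ _
    have key := tilt_zero_of_plane (U := Bx P 2) hP hA (y := y) (a := 3/2) (a' := 7/4) (δ := η / 2)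
      (δ' := η) (by norm_num) (by norm_num) (by positivity) (by linarith) ?_ ?_
    · filter_upwards [key] with p hp h1 h2
      exact hp h1 (by rw [h2, sub_self, norm_zero]; positivity)
    · rintro x ⟨h1, h2⟩
      refine ⟨by linarith, ?_⟩
      calc ‖x - P x‖ = ‖(x - P x - y) + y‖ := by congr 1; abel
        _ ≤ ‖x - P x - y‖ + ‖y‖ := norm_add_le _ _
        _ < 2 := by linarith
    · intro x hx h1 h2
      have h3 : x - P x ∈ H := by
        refine hheight x hx (by linarith) ?_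
        calc ‖x - P x‖ = ‖(x - P x - y) + y‖ := by congr 1; abel
          _ ≤ ‖x - P x - y‖ + ‖y‖ := norm_add_le _ _
          _ ≤ 3/2 := by linarith
      by_contra hne
      have := hδH _ h3 hne
      linarith
  have hall : ∀ᵐ p ∂A, p.1 ∈ Bx P (5/4) → tilt P p = 0 := by
    have h1 : ∀ᵐ p ∂A, ∀ y ∈ H ∩ {y | ‖y‖ ≤ 5/4}, ‖P p.1‖ < 3/2 → p.1 - P p.1 = y →
        tilt P p = 0 :=
      (ae_ball_iff (hHfin.subset inter_subset_left).countable).2 fun y hy => hlocal y hy.1 hy.2
    filter_upwards [h1, ae_sp A] with p hp1 hp2 hp3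
    have h2 : p.1 - P p.1 ∈ H := hheight p.1 hp2 (by linarith [hp3.1]) (by linarith [hp3.2])
    exact hp1 _ ⟨h2, hp3.2.le⟩ (by linarith [hp3.1]) rfl
  intro χ hχ hχc hχU
  refine integral_eq_zero_of_ae ?_
  filter_upwards [hall] with p hp
  by_cases h : p.1 ∈ tsupport χ
  · rw [hp (hχU h), mul_zero]; rfl
  · rw [image_eq_zero_of_notMem_tsupport h, zero_mul]; rfl

/-- **tip persistence.** -/
theorem pers (hP : P ∈ G m k) (C : ℝ≥0) {c τ : ℝ} (hc : 0 < c) (hτ : 0 < τ) :
    ∃ ε > 0, ∀ V V' : Measure (Euc k × L k), Stat m k (Bx P 2) V → Stat m k (Bx P 2) V' →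
      V (Bx P 2 ×ˢ univ) ≤ C → V' (Bx P 2 ×ˢ univ) ≤ C → LowD m (Bx P 2) c V' →
      MClose (Bx P 2) ε V V' → τ ≤ ∫ p in Bc P 1 ×ˢ univ, tilt P p ∂V →
      ε ≤ ∫ p in Bx P 2 ×ˢ univ, tilt P p ∂V' := by
  by_contra hcon
  push Not at hcon
  have hseq : ∀ n : ℕ, (0:ℝ) < 1 / (n + 1) := fun n => by positivity
  choose V V' hV hV' hVC hV'C hlow hclose hτV hlt using fun n : ℕ => hcon (1 / (n + 1)) (hseq n)
  have hUo : IsOpen (Bx P 2) := isOpen_Bx P 2
  set F : Ultrafilter ℕ := hyperfilter ℕ with hF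
  have hFat : (F : Filter ℕ) ≤ atTop := Nat.hyperfilter_le_atTop
  have heps : Tendsto (fun n : ℕ => (1:ℝ) / (n + 1)) (F : Filter ℕ) (𝓝 0) :=
    tendsto_one_div_add_atTop_nhds_zero_nat.mono_left hFat
  obtain ⟨A, hA, hAc, hAf⟩ := exists_limit F hUo V (Eventually.of_forall fun n => (hV n).conc)
    fun K hK hKU => ⟨C, Eventually.of_forall fun n =>
      (measure_mono (prod_mono hKU (subset_univ _))).trans (hVC n)⟩
  obtain ⟨B, hB, hBc, hBf⟩ := exists_limit F hUo V' (Eventually.of_forall fun n => (hV' n).conc)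
    fun K hK hKU => ⟨C, Eventually.of_forall fun n =>
      (measure_mono (prod_mono hKU (subset_univ _))).trans (hV'C n)⟩
  have hAs : Stat m k (Bx P 2) A := hA.stat_of_stat hUo (Eventually.of_forall hV)
  have hBs : Stat m k (Bx P 2) B := hB.stat_of_stat hUo (Eventually.of_forall hV')
  have hVc : ∀ᶠ n in (F : Filter ℕ), ∀ᵐ p ∂(V n), p.2 ∈ G m k :=
    Eventually.of_forall fun n => (hV n).conc
  have hV'c : ∀ᶠ n in (F : Filter ℕ), ∀ᵐ p ∂(V' n), p.2 ∈ G m k :=
    Eventually.of_forall fun n => (hV' n).conc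
  -- equal masses
  have heq : ∀ f : Euc k → ℝ, ContDiff ℝ 1 f → HasCompactSupport f → tsupport f ⊆ Bx P 2 →
      ∫ p, f p.1 ∂A = ∫ p, f p.1 ∂B := by
    intro f hf hfc hfU
    obtain ⟨M, hM⟩ : ∃ M, ∀ y, ‖fderiv ℝ f y‖ ≤ M :=
      (hfc.fderiv (𝕜 := ℝ)).exists_bound_of_continuous (hf.continuous_fderiv one_ne_zero)
    have h1 := hA.lim_fst hVc hAc (f := fun p => f p.1) (hf.continuous.comp continuous_fst) hfc hfU
      fun p hp => image_eq_zero_of_notMem_tsupport hp
    have h2 := hB.lim_fst hV'c hBc (f := fun p => f p.1) (hf.continuous.comp continuous_fst) hfc hfU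
      fun p hp => image_eq_zero_of_notMem_tsupport hp
    have h3 : Tendsto (fun n => ∫ p, f p.1 ∂(V n) - ∫ p, f p.1 ∂(V' n)) (F : Filter ℕ) (𝓝 0) := by
      have h4 : Tendsto (fun n : ℕ => (1:ℝ) / (n + 1) * M) (F : Filter ℕ) (𝓝 0) := by
        simpa using heps.mul_const M
      refine squeeze_zero_norm (fun n => ?_) h4
      rw [Real.norm_eq_abs]
      exact hclose n f hf hfc hfU M hM
    exact sub_eq_zero.1 (tendsto_nhds_unique (h1.sub h2) h3)
  -- tilt of B
  have hBt : ∀ χ : Euc k → ℝ, Continuous χ → HasCompactSupport χ → tsupport χ ⊆ Bx P 2 →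
      (∀ x, 0 ≤ χ x ∧ χ x ≤ 1) → ∫ p, χ p.1 * tilt P p ∂B = 0 := by
    intro χ hχ hχc hχU hχ01
    have h1 := hB.lim_fst hV'c hBc (f := fun p => χ p.1 * tilt P p)
      ((hχ.comp continuous_fst).mul (continuous_tilt P)) hχc hχU
      fun p hp => by rw [image_eq_zero_of_notMem_tsupport hp, zero_mul]
    refine tendsto_nhds_unique h1 (squeeze_zero (fun n => ?_) (fun n => ?_) heps)
    · refine integral_nonneg_of_ae ?_
      filter_upwards [(hV' n).conc] with p hp
      exact mul_nonneg (hχ01 _).1 (tilt_nonneg hp hP)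
    · refine le_trans ?_ (hlt n).le
      have hmeas : MeasurableSet (Bx P 2 ×ˢ (univ : Set (L k))) :=
        hUo.measurableSet.prod MeasurableSet.univ
      have hres : ∫ p, χ p.1 * tilt P p ∂(V' n) = ∫ p in Bx P 2 ×ˢ univ, χ p.1 * tilt P p ∂(V' n) := by
        rw [setIntegral_eq_integral_of_forall_compl_eq_zero]
        intro p hp
        have : p.1 ∉ tsupport χ := fun h => hp ⟨hχU h, mem_univ _⟩
        rw [image_eq_zero_of_notMem_tsupport this, zero_mul]
      rw [hres]
      have hti := integrableOn_tilt hP (hV' n) ((hV'C n).trans_lt ENNReal.coe_lt_top)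
      refine integral_mono_ae ((integrable_cutoff_tilt (hV' n) hχ hχc hχU).integrableOn) hti ?_
      filter_upwards [ae_restrict_of_ae (hV' n).conc] with p hp
      have h0 := tilt_nonneg hp hP
      have h2 := (hχ01 p.1).2
      nlinarith
  -- lower density of B
  have hd : ∀ x, Sp B x → ∀ r > 0, closedBall x r ⊆ Bx P 2 →
      ENNReal.ofReal (c / 2 ^ m * r ^ m) ≤ B (closedBall x r ×ˢ univ) := by
    intro x hx r hr hrU
    rw [conc_prod_univ hBc]
    refine hB.le_compact (isOpen_prod_univ hUo) ((isCompact_closedBall x r).prod (isCompact_G m k))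
      (prod_mono hrU (subset_univ _)) ?_
    have h1 := hB.lt_open (isOpen_prod_univ hUo) (O := ball x (r/2) ×ˢ (univ : Set (L k)))
      (isOpen_ball.prod isOpen_univ) (hx (r/2) (by positivity))
    refine (h1.mono fun n hn => ?_).frequently
    obtain ⟨z, hz, hzs⟩ := exists_sp hn.ne'
    have hzsub : ball z (r/2) ⊆ closedBall x r := by
      intro w hw
      rw [mem_ball] at hw hz
      rw [mem_closedBall]
      have := dist_triangle w z x
      linarith
    have h2 := hlow n z hzs (r/2) (by positivity) (hzsub.trans hrU)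
    rw [← conc_prod_univ (hV' n).conc]
    have e : c / 2 ^ m * r ^ m = c * (r/2) ^ m := by rw [div_pow]; ring
    rw [e]
    exact h2.trans (measure_mono (prod_mono hzsub (subset_univ _)))
  have hc' : 0 < c / 2 ^ m := by positivity
  have key := limit_contra hP hAs hBs heq hBt hc' hd
  obtain ⟨χ, hχ1, hχc, hχU, hχ01⟩ := exists_cutoff (isCompact_Bc P 1) (isOpen_Bx P (5/4))
    (Bc_subset_Bx (by norm_num))
  have hsub2 : tsupport χ ⊆ Bx P 2 :=
    hχU.trans fun x hx => ⟨hx.1.trans (by norm_num), hx.2.trans (by norm_num)⟩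
  have h0 := key χ χ.continuous hχc hχU
  have h1 := hA.lim_fst hVc hAc (f := fun p => χ p.1 * tilt P p)
      ((χ.continuous.comp continuous_fst).mul (continuous_tilt P)) hχc hsub2
      fun p hp => by rw [image_eq_zero_of_notMem_tsupport hp, zero_mul]
  rw [h0] at h1
  have h2 : ∀ n, τ ≤ ∫ p, χ p.1 * tilt P p ∂(V n) := by
    intro n
    refine (hτV n).trans ?_
    have hmeas : MeasurableSet (Bc P 1 ×ˢ (univ : Set (L k))) :=
      (isCompact_Bc P 1).measurableSet.prod MeasurableSet.univ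
    have hint := integrable_cutoff_tilt (P := P) (hV n) χ.continuous hχc hsub2
    have hnn : 0 ≤ᵐ[V n] fun p => χ p.1 * tilt P p := by
      filter_upwards [(hV n).conc] with p hp
      exact mul_nonneg (hχ01 _).1 (tilt_nonneg hp hP)
    calc ∫ p in Bc P 1 ×ˢ univ, tilt P p ∂(V n)
        = ∫ p in Bc P 1 ×ˢ univ, χ p.1 * tilt P p ∂(V n) := by
          refine setIntegral_congr_fun hmeas fun p hp => ?_
          rw [hχ1 p.1 hp.1, one_mul]
      _ ≤ ∫ p, χ p.1 * tilt P p ∂(V n) := setIntegral_le_integral hint hnn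
  have h3 := ge_of_tendsto h1 (Eventually.of_forall h2)
  linarith

end Crest.Agent.R234.Pers_540
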