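import Crest.Agent.R234.Log4_113
import Crest.Agent.R234.Pers4_540
import Crest.Agent.R234.Ar3_870

/-!
Row 234, VF-LOG, part 5: cylinders over the base, the horizontal projections, pigeonhole in the heights,
the mass of the annuli, the passage from boxes to unit balls.
-/

set_option autoImplicit false

open MeasureTheory Set Filter Topology Metric Crest.GeometryTopology.Submanifold
open scoped ENNReal InnerProductSpace NNReal

noncomputable section

namespace Crest.Agent.R234.Log_113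

open Vf_884 Strat3_842 Pers_540
open Crest.Agent.R234.Cacc_113 (St en el slab ann bx D1 pt ix)

variable {m k : ℕ} {π : Euc k →L[ℝ] Euc m}

/-! ### bridges -/

theorem isPr_of_G {P : L k} (hP : P ∈ G m k) : Cacc_113.IsPr P :=
  ⟨fun x => G_idem_apply hP x, fun x y => G_symm hP x y⟩

theorem st_of_stat {U : Set (Euc k)} {V : Measure (Euc k × L k)} (hV : Stat m k U V) : St U V where
  pr := by filter_upwards [hV.conc] with z hz using isPr_of_G hz
  fin := fun K hKU hK => hV.fin K hK hKU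
  st := fun X hX hXc hXU => hV.stat X hX hXc hXU

theorem ov_eq (S : Set (Euc k)) :
    (Cacc_113.ov S : Set (Euc k × L k)) = S ×ˢ (univ : Set (L k)) := by
  ext p; simp [Cacc_113.ov]

/-! ### projections -/

/-- the horizontal projection -/
def hp (π : Euc k →L[ℝ] Euc m) : L k := ContinuousLinearMap.adjoint π ∘L π

/-- the projection on the lift of a subspace of the base -/
def lp (π : Euc k →L[ℝ] Euc m) (S : Submodule ℝ (Euc m)) : L k :=
  ContinuousLinearMap.adjoint π ∘L S.starProjection ∘L π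

theorem co_apply (h : Ar_870.IsCo π) (v : Euc m) : π (ContinuousLinearMap.adjoint π v) = v :=
  congrArg (fun T : Euc m →L[ℝ] Euc m => T v) h

theorem inner_adj (π : Euc k →L[ℝ] Euc m) (v : Euc m) (x : Euc k) :
    ⟪ContinuousLinearMap.adjoint π v, x⟫_ℝ = ⟪v, π x⟫_ℝ :=
  ContinuousLinearMap.adjoint_inner_left _ _ _

theorem hp_apply (π : Euc k →L[ℝ] Euc m) (x : Euc k) :
    hp π x = ContinuousLinearMap.adjoint π (π x) := rfl

theorem lp_apply (π : Euc k →L[ℝ] Euc m) (S : Submodule ℝ (Euc m)) (x : Euc k) :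
    lp π S x = ContinuousLinearMap.adjoint π (S.starProjection (π x)) := rfl

theorem norm_hp (h : Ar_870.IsCo π) (x : Euc k) : ‖hp π x‖ = ‖π x‖ := by
  rw [hp_apply, Ar_870.norm_adjoint_co h]

theorem norm_lp (h : Ar_870.IsCo π) (S : Submodule ℝ (Euc m)) (x : Euc k) :
    ‖lp π S x‖ = ‖S.starProjection (π x)‖ := by
  rw [lp_apply, Ar_870.norm_adjoint_co h]

theorem starProjection_idem (S : Submodule ℝ (Euc m)) (v : Euc m) :
    S.starProjection (S.starProjection v) = S.starProjection v :=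
  Submodule.starProjection_eq_self_iff.2 (Submodule.starProjection_apply_mem _ _)

theorem starProjection_symm (S : Submodule ℝ (Euc m)) (u v : Euc m) :
    ⟪S.starProjection u, v⟫_ℝ = ⟪u, S.starProjection v⟫_ℝ :=
  Submodule.inner_starProjection_left_eq_right S u v

theorem norm_starProjection_le (S : Submodule ℝ (Euc m)) (v : Euc m) :
    ‖S.starProjection v‖ ≤ ‖v‖ := by
  have h1 : Cacc_113.IsPr S.starProjection := ⟨starProjection_idem S, starProjection_symm S⟩
  exact h1.norm_le v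

theorem isPr_lp (h : Ar_870.IsCo π) (S : Submodule ℝ (Euc m)) : Cacc_113.IsPr (lp π S) where
  idem x := by rw [lp_apply, lp_apply, co_apply h, starProjection_idem]
  sa x y := by
    have h1 : ⟪x, lp π S y⟫_ℝ = ⟪π x, S.starProjection (π y)⟫_ℝ := by
      rw [lp_apply]; exact ContinuousLinearMap.adjoint_inner_right _ _ _
    rw [h1, lp_apply, inner_adj]
    exact starProjection_symm S _ _

theorem isPr_hp (h : Ar_870.IsCo π) : Cacc_113.IsPr (hp π) where
  idem x := by rw [hp_apply, hp_apply, co_apply h]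
  sa x y := by
    rw [hp_apply, hp_apply, inner_adj, real_inner_comm, ← inner_adj, real_inner_comm]

theorem norm_co_le (h : Ar_870.IsCo π) (x : Euc k) : ‖π x‖ ≤ ‖x‖ := by
  rw [← norm_hp h]; exact (isPr_hp h).norm_le x

theorem hp_mem_G (h : Ar_870.IsCo π) : hp π ∈ G m k := by
  refine ⟨?_, ?_, ?_⟩
  · ext1 x; exact (isPr_hp h).idem x
  · rw [ContinuousLinearMap.isSelfAdjoint_iff']
    unfold hp
    rw [ContinuousLinearMap.adjoint_comp, ContinuousLinearMap.adjoint_adjoint]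
  · rw [tr_apply]
    have h1 : LinearMap.trace ℝ (Euc k) (hp π).toLinearMap =
        LinearMap.trace ℝ (Euc m) (π ∘L ContinuousLinearMap.adjoint π).toLinearMap :=
      LinearMap.trace_comp_comm' (R := ℝ) π.toLinearMap (ContinuousLinearMap.adjoint π).toLinearMap
    have h2 : π ∘L ContinuousLinearMap.adjoint π = ContinuousLinearMap.id ℝ (Euc m) := h
    rw [h1, h2]
    change LinearMap.trace ℝ (Euc m) LinearMap.id = _
    rw [LinearMap.trace_id, finrank_euclideanSpace_fin]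

/-- the vertical projection -/
def vp (π : Euc k →L[ℝ] Euc m) : L k := 1 - hp π

theorem isPr_vp (h : Ar_870.IsCo π) : Cacc_113.IsPr (vp π) := (isPr_hp h).compl

theorem vp_apply (π : Euc k →L[ℝ] Euc m) (x : Euc k) : vp π x = x - hp π x := rfl

theorem pi_vp (h : Ar_870.IsCo π) (x : Euc k) : π (vp π x) = 0 := by
  rw [vp_apply, map_sub, hp_apply, co_apply h, sub_self]

theorem lp_vp (h : Ar_870.IsCo π) (S : Submodule ℝ (Euc m)) (x : Euc k) :
    lp π S (vp π x) = 0 := by
  rw [lp_apply, pi_vp h, map_zero, map_zero]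

theorem tilt_eq (π : Euc k →L[ℝ] Euc m) (p : Euc k × L k) :
    tilt (hp π) p = Cacc_113.tr (vp π ∘L p.2) := rfl

/-! ### the class -/

/-- cylinder over a set of the base -/
def cy (π : Euc k →L[ℝ] Euc m) (A : Set (Euc m)) : Set (Euc k) := π ⁻¹' A

theorem isOpen_cy (π : Euc k →L[ℝ] Euc m) {A : Set (Euc m)} (hA : IsOpen A) : IsOpen (cy π A) :=
  hA.preimage π.continuous

/-- stationary varifolds over a ball of the base with mass bound at the centre and lower density. -/
structure Un (π : Euc k →L[ℝ] Euc m) (C₀ c₀ R : ℝ) (V : Measure (Euc k × L k)) : Prop where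
  co : Ar_870.IsCo π
  one_le : 1 ≤ R
  C₀_nonneg : 0 ≤ C₀
  st : Stat m k (cy π (ball 0 R)) V
  mass : ∀ r : ℝ, 1 ≤ r → r ≤ R → V (cy π (ball 0 r) ×ˢ univ) ≤ ENNReal.ofReal (C₀ * r ^ m)
  low : LowD m (cy π (ball 0 R)) c₀ V

variable {C₀ c₀ R : ℝ} {V : Measure (Euc k × L k)}

theorem Un.fin (h : Un π C₀ c₀ R V) {A : Set (Euc k)} (hA : A ⊆ cy π (ball 0 R)) :
    V (Cacc_113.ov A) < ⊤ := by
  rw [ov_eq]
  exact (measure_mono (prod_mono hA (subset_univ _))).trans_lt
    ((h.mass R h.one_le le_rfl).trans_lt ENNReal.ofReal_lt_top)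

/-- pigeonhole in the heights. -/
theorem Un.exists_box (h : Un π C₀ c₀ R V) (hR : 2 ≤ R) (hc₀ : 0 < c₀) {N₀ : ℕ}
    (hN₀ : C₀ * 4 ^ m ≤ N₀ * c₀) {τ : ℝ} (hτ : 0 < τ)
    (hen : τ ≤ en V (vp π) (cy π (ball 0 1))) :
    ∃ a : Euc k, ‖π a‖ < 1 ∧ τ / N₀ ≤ en V (vp π) {x | x - a ∈ Bc (hp π) 1} := by
  classical
  set B : Set (Euc k) := cy π (ball 0 1) with hB
  let good : Finset (Euc k) → Prop := fun F =>
    (∀ z ∈ F, z ∈ B ∧ Sp V z) ∧ ∀ z ∈ F, ∀ w ∈ F, z ≠ w → 1 ≤ dist z w
  -- cardinality bound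
  have hcard : ∀ F, good F → F.card ≤ N₀ := by
    intro F hF
    have hdisj : (F : Set (Euc k)).PairwiseDisjoint fun z => ball z (1 / 2) ×ˢ (univ : Set (L k)) := by
      intro z hz w hw hzw
      refine Disjoint.set_prod_left (ball_disjoint_ball ?_) _ _
      have := hF.2 z hz w hw hzw
      linarith
    have hsub : ∀ z ∈ F, ball z (1 / 2) ⊆ cy π (ball 0 2) := by
      intro z hz x hx
      have h1 : ‖π z‖ < 1 := by simpa [hB, cy] using (hF.1 z hz).1
      have h2 : ‖π (x - z)‖ ≤ ‖x - z‖ := norm_co_le h.co _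
      rw [mem_ball, dist_eq_norm] at hx
      change π x ∈ ball 0 2
      rw [mem_ball_zero_iff]
      calc ‖π x‖ = ‖π (x - z) + π z‖ := by rw [← map_add]; congr 2; abel
        _ ≤ ‖π (x - z)‖ + ‖π z‖ := norm_add_le _ _
        _ < 2 := by linarith
    have hsub2 : ball (0 : Euc m) 2 ⊆ ball 0 R := ball_subset_ball hR
    have h1 : ∀ z ∈ F, ENNReal.ofReal (c₀ * (1 / 2) ^ m) ≤ V (ball z (1 / 2) ×ˢ univ) := fun z hz =>
      h.low z (hF.1 z hz).2 (1 / 2) (by norm_num) ((hsub z hz).trans (preimage_mono hsub2))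
    have h2 : ∑ z ∈ F, V (ball z (1 / 2) ×ˢ univ) ≤ ENNReal.ofReal (C₀ * 2 ^ m) := by
      rw [← measure_biUnion_finset hdisj fun z _ => measurableSet_ball.prod MeasurableSet.univ]
      refine le_trans (measure_mono ?_) (h.mass 2 (by norm_num) hR)
      refine iUnion₂_subset fun z hz => prod_mono (hsub z hz) subset_rfl
    have h3 : (F.card : ℝ≥0∞) * ENNReal.ofReal (c₀ * (1 / 2) ^ m) ≤ ENNReal.ofReal (C₀ * 2 ^ m) := by
      refine le_trans ?_ h2
      rw [← nsmul_eq_mul, ← Finset.sum_const]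
      exact Finset.sum_le_sum h1
    have hp0 : (0 : ℝ) < c₀ * (1 / 2) ^ m := by positivity
    have h4 : (F.card : ℝ) * (c₀ * (1 / 2) ^ m) ≤ C₀ * 2 ^ m := by
      rw [← ENNReal.ofReal_natCast, ← ENNReal.ofReal_mul (by positivity)] at h3
      have h0 : 0 ≤ C₀ * 2 ^ m := mul_nonneg h.C₀_nonneg (by positivity)
      exact (ENNReal.ofReal_le_ofReal_iff h0).mp h3
    have h5 : (F.card : ℝ) ≤ N₀ := by
      have e1 : (F.card : ℝ) * c₀ ≤ C₀ * 4 ^ m := by
        have e2 : (2 : ℝ) ^ m * (1 / 2) ^ m = 1 := by rw [← mul_pow]; norm_num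
        have e3 : (4 : ℝ) ^ m = 2 ^ m * 2 ^ m := by rw [← mul_pow]; norm_num
        calc (F.card : ℝ) * c₀ = 2 ^ m * (F.card * (c₀ * (1 / 2) ^ m)) := by
              rw [show (2 : ℝ) ^ m * (F.card * (c₀ * (1 / 2) ^ m)) =
                (2 ^ m * (1 / 2) ^ m) * (F.card * c₀) by ring, e2, one_mul]
          _ ≤ 2 ^ m * (C₀ * 2 ^ m) := by gcongr
          _ = C₀ * 4 ^ m := by rw [e3]; ring
      exact le_of_mul_le_mul_right (e1.trans hN₀) hc₀
    exact_mod_cast h5
  -- maximal family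
  have hex : ∃ n, n ≤ N₀ ∧ ∃ F, good F ∧ F.card = n := ⟨0, Nat.zero_le _, ∅, ⟨by simp, by simp⟩, rfl⟩
  obtain ⟨n, ⟨hn, F, hF, hFn⟩, hmax⟩ : ∃ n, (n ≤ N₀ ∧ ∃ F, good F ∧ F.card = n) ∧
      ∀ n', (n' ≤ N₀ ∧ ∃ F, good F ∧ F.card = n') → n' ≤ n := by
    refine ⟨Nat.findGreatest (fun n => n ≤ N₀ ∧ ∃ F, good F ∧ F.card = n) N₀, ?_, ?_⟩
    · exact Nat.findGreatest_spec (P := fun n => n ≤ N₀ ∧ ∃ F, good F ∧ F.card = n)
        (Nat.zero_le _) ⟨Nat.zero_le _, ∅, ⟨by simp, by simp⟩, rfl⟩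
    · intro n' hn'
      exact Nat.le_findGreatest hn'.1 hn'
  have hcov : ∀ z, z ∈ B → Sp V z → ∃ w ∈ F, dist z w < 1 := by
    intro z hz hzs
    by_contra hcon
    push Not at hcon
    have hzF : z ∉ F := fun hzF => by
      have := hcon z hzF
      rw [dist_self] at this
      linarith
    have hg : good (insert z F) := by
      refine ⟨fun w hw => ?_, fun w hw w' hw' hne => ?_⟩
      · rcases Finset.mem_insert.mp hw with rfl | hw
        · exact ⟨hz, hzs⟩
        · exact hF.1 w hw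
      · rcases Finset.mem_insert.mp hw with hw1 | hw1 <;>
          rcases Finset.mem_insert.mp hw' with hw2 | hw2
        · exact absurd (hw1.trans hw2.symm) hne
        · rw [hw1]; exact hcon w' hw2
        · rw [hw2, dist_comm]; exact hcon w hw1
        · exact hF.2 w hw1 w' hw2 hne
    have h1 := hmax _ ⟨hcard _ hg, _, hg, rfl⟩
    rw [Finset.card_insert_of_notMem hzF] at h1
    omega
  have hst := st_of_stat h.st
  have hsubB : ∀ w ∈ F, {x : Euc k | x - w ∈ Bc (hp π) 1} ⊆ cy π (ball 0 R) := by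
    intro w hw x hx
    have h1 : ‖π w‖ < 1 := by simpa [hB, cy] using (hF.1 w hw).1
    have h2 : ‖π (x - w)‖ ≤ 1 := by
      rw [← norm_hp h.co]; exact hx.1
    change π x ∈ ball 0 R
    rw [mem_ball_zero_iff]
    calc ‖π x‖ = ‖π (x - w) + π w‖ := by rw [← map_add]; congr 2; abel
      _ ≤ ‖π (x - w)‖ + ‖π w‖ := norm_add_le _ _
      _ < R := by linarith
  obtain ⟨w, hw, hw2⟩ := hst.exists_en_ge (isPr_vp h.co) F (fun w => {x | x - w ∈ Bc (hp π) 1})
    (fun w _ => ((isCompact_Bc (hp π) 1).isClosed.preimage (continuous_id.sub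
      continuous_const)).measurableSet) (fun w hw => h.fin (hsubB w hw)) (B := B) (ε := τ) (by
        filter_upwards [ae_sp V] with z hz hzB
        obtain ⟨w, hw, hw2⟩ := hcov z.1 hzB hz
        refine ⟨w, hw, ?_⟩
        rw [dist_eq_norm] at hw2
        refine ⟨?_, ?_⟩
        · exact ((isPr_hp h.co).norm_le _).trans hw2.le
        · exact ((isPr_vp h.co).norm_le _).trans hw2.le) hτ hen
  refine ⟨w, by simpa [hB, cy] using (hF.1 w hw).1, le_trans ?_ hw2⟩
  have hFpos : (0 : ℝ) < F.card := by exact_mod_cast Finset.card_pos.mpr ⟨w, hw⟩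
  have hFN : (F.card : ℝ) ≤ N₀ := by exact_mod_cast hcard F hF
  gcongr

end Crest.Agent.R234.Log_113
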