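import Mathlib
import Crest.Agent.R234.Log4_113

/-!
Row 234, VF-LOG, part 6: the mass of a stationary varifold is almost invariant under translations in
directions with small defect, for test functions which are not compactly supported in the vertical
directions.
-/

set_option linter.unusedSectionVars false

namespace Crest.Agent.R234.Cacc_113

open MeasureTheory Set Filter Topology
open scoped InnerProductSpace

variable {E : Type*} [NormedAddCommGroup E] [InnerProductSpace ℝ E] [FiniteDimensional ℝ E]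
  [MeasurableSpace E] [BorelSpace E]

variable {U : Set E} {V : Measure (E × (E →L[ℝ] E))}

theorem St.integrable_supp (h : St U V) {S : Set E} (hS : IsClosed S) (hfin : V (ov S) < ⊤)
    {g : E × (E →L[ℝ] E) → ℝ} (hg : Continuous g) {C : ℝ} (hb : ∀ x P, IsPr P → |g (x, P)| ≤ C)
    (h0 : ∀ z, z.1 ∉ S → g z = 0) : Integrable g V := by
  have h1 := h.integrableOn_bdd hfin hg hb
  rw [← integrable_indicator_iff (measurableSet_ov hS.measurableSet)] at h1
  refine h1.congr (Eventually.of_forall fun z => ?_)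
  by_cases hz : z.1 ∈ S
  · exact indicator_of_mem (show z ∈ ov S from hz) _
  · rw [indicator_of_notMem (show z ∉ ov S from hz)]
    exact (h0 z hz).symm

set_option maxHeartbeats 1000000 in
/-- **translation lemma**. -/
theorem St.trans (h : St U V) {f : E → ℝ} (hf : ContDiff ℝ 1 f) {C : ℝ} (hb : ∀ x, |f x| ≤ C)
    (hb' : ∀ x, ‖fderiv ℝ f x‖ ≤ C) (ξ : E) {S : Set E} (hS : IsClosed S) (hSU : S ⊆ U)
    (hfin : V (ov S) < ⊤) (hsupp : ∀ t ∈ Icc (0 : ℝ) 1, ∀ x, x ∉ S → f (x - t • ξ) = 0) :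
    |∫ z, f (z.1 - ξ) ∂V - ∫ z, f z.1 ∂V| ≤ C * ∫ z in ov S, ‖ξ - z.2 ξ‖ ∂V := by
  have hC0 : 0 ≤ C := (abs_nonneg _).trans (hb 0)
  have hfc : Continuous (fderiv ℝ f) := hf.continuous_fderiv one_ne_zero
  have hSm := measurableSet_ov (E := E) hS.measurableSet
  -- the differential vanishes outside `S`
  have hd0 : ∀ t ∈ Icc (0 : ℝ) 1, ∀ x, x ∉ S → fderiv ℝ f (x - t • ξ) = 0 := by
    intro t ht x hx
    have h1 : (fun y => f (y - t • ξ)) =ᶠ[𝓝 x] fun _ => (0 : ℝ) := by
      filter_upwards [hS.isOpen_compl.mem_nhds hx] with y hy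
      exact hsupp t ht y hy
    have h2 := h1.fderiv_eq (𝕜 := ℝ)
    rw [fderiv_comp_sub] at h2
    rw [h2]
    simp
  set g : ℝ → ℝ := fun t => ∫ z, f (z.1 - t • ξ) ∂V with hg
  have hcont : ∀ t : ℝ, Continuous fun z : E × (E →L[ℝ] E) => f (z.1 - t • ξ) := fun t =>
    hf.continuous.comp (continuous_fst.sub continuous_const)
  have hcd : ∀ t : ℝ, Continuous fun z : E × (E →L[ℝ] E) => fderiv ℝ f (z.1 - t • ξ) ξ := fun t =>
    (hfc.comp (continuous_fst.sub continuous_const)).clm_apply continuous_const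
  have hbnd : Integrable ((ov S).indicator fun _ : E × (E →L[ℝ] E) => C) V := by
    rw [integrable_indicator_iff hSm]
    exact integrableOn_const hfin.ne
  have hbnd2 : Integrable ((ov S).indicator fun _ : E × (E →L[ℝ] E) => C * ‖ξ‖) V := by
    rw [integrable_indicator_iff hSm]
    exact integrableOn_const hfin.ne
  have hi : ∀ t ∈ Icc (0 : ℝ) 1, Integrable (fun z : E × (E →L[ℝ] E) => f (z.1 - t • ξ)) V :=
    fun t ht => h.integrable_supp hS hfin (hcont t) (fun x P _ => hb _) fun z hz => hsupp t ht _ hz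
  have hline : ∀ (x : E) (t : ℝ), HasDerivAt (fun t : ℝ => f (x - t • ξ))
      (-(fderiv ℝ f (x - t • ξ) ξ)) t := by
    intro x t
    have h1 : HasDerivAt (fun t : ℝ => x - t • ξ) (-ξ) t := by
      simpa using ((hasDerivAt_id t).smul_const ξ).const_sub x
    have h2 := (hf.differentiable one_ne_zero (x - t • ξ)).hasFDerivAt.comp_hasDerivAt t h1
    rw [map_neg] at h2
    exact h2
  -- continuity
  have hgc : ContinuousOn g (Icc 0 1) := by
    refine continuousOn_of_dominated (bound := (ov S).indicator fun _ => C) ?_ ?_ hbnd ?_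
    · exact fun t _ => (hcont t).aestronglyMeasurable
    · intro t ht
      refine Eventually.of_forall fun z => ?_
      by_cases hz : z.1 ∈ S
      · rw [indicator_of_mem (show z ∈ ov S from hz)]; exact hb _
      · rw [indicator_of_notMem (show z ∉ ov S from hz), hsupp t ht _ hz, norm_zero]
    · refine Eventually.of_forall fun z => ?_
      exact (hf.continuous.comp (continuous_const.sub
        (continuous_id.smul continuous_const))).continuousOn
  -- derivative
  have hgd : ∀ t ∈ Ioo (0 : ℝ) 1, HasDerivAt g (∫ z, -(fderiv ℝ f (z.1 - t • ξ) ξ) ∂V) t := by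
    intro t ht
    have h1 := hasDerivAt_integral_of_dominated_loc_of_deriv_le (μ := V) (𝕜 := ℝ)
      (F := fun (t : ℝ) (z : E × (E →L[ℝ] E)) => f (z.1 - t • ξ))
      (F' := fun (t : ℝ) (z : E × (E →L[ℝ] E)) => -(fderiv ℝ f (z.1 - t • ξ) ξ))
      (x₀ := t) (s := Ioo 0 1) (bound := (ov S).indicator fun _ => C * ‖ξ‖)
      (isOpen_Ioo.mem_nhds ht) (Eventually.of_forall fun s => (hcont s).aestronglyMeasurable)
      (hi t (Ioo_subset_Icc_self ht)) (hcd t).neg.aestronglyMeasurable
      (Eventually.of_forall fun z s hs => by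
        by_cases hz : z.1 ∈ S
        · rw [indicator_of_mem (show z ∈ ov S from hz), norm_neg]
          exact (ContinuousLinearMap.le_opNorm _ _).trans (by gcongr; exact hb' _)
        · rw [indicator_of_notMem (show z ∉ ov S from hz),
            hd0 s (Ioo_subset_Icc_self hs) _ hz]
          simp) hbnd2
      (Eventually.of_forall fun z s _ => hline z.1 s)
    exact h1.2
  obtain ⟨c, hc, hc2⟩ := exists_hasDerivAt_eq_slope g (fun t => ∫ z, -(fderiv ℝ f (z.1 - t • ξ) ξ) ∂V)
    zero_lt_one hgc hgd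
  have hc' := Ioo_subset_Icc_self hc
  -- stationarity
  have hX : ContDiff ℝ 1 fun x => f (x - c • ξ) • ξ :=
    (hf.comp (contDiff_id.sub contDiff_const)).smul contDiff_const
  have hXd : ∀ x, HasFDerivAt (fun x => f (x - c • ξ) • ξ)
      ((fderiv ℝ f (x - c • ξ)).smulRight ξ) x := by
    intro x
    have h1 : HasFDerivAt (fun x => f (x - c • ξ)) (fderiv ℝ f (x - c • ξ)) x := by
      have := (hf.differentiable one_ne_zero (x - c • ξ)).hasFDerivAt.comp x
        ((hasFDerivAt_id x).sub_const (c • ξ))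
      rw [ContinuousLinearMap.comp_id] at this
      exact this
    exact h1.smul_const ξ
  have hst := h.noncompact hX hS hSU hfin (fun x hx => by rw [hsupp c hc' x hx, zero_smul])
    (C := C * ‖ξ‖) (fun x => by rw [norm_smul]; gcongr; exact hb _)
    (fun x => by
      rw [(hXd x).fderiv, ContinuousLinearMap.norm_smulRight_apply]
      gcongr
      exact hb' _)
  have e1 : ∀ z : E × (E →L[ℝ] E), tr (fderiv ℝ (fun x => f (x - c • ξ) • ξ) z.1 ∘L z.2) =
      fderiv ℝ f (z.1 - c • ξ) (z.2 ξ) := by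
    intro z
    rw [(hXd z.1).fderiv, tr_smulRight_comp]
  simp_rw [e1] at hst
  have hi1 : Integrable (fun z : E × (E →L[ℝ] E) => fderiv ℝ f (z.1 - c • ξ) ξ) V :=
    h.integrable_supp hS hfin (hcd c) (C := C * ‖ξ‖)
      (fun x P _ => by
        have h8 := hb' (x - c • ξ)
        exact ((fderiv ℝ f (x - c • ξ)).le_opNorm ξ).trans (by gcongr))
      fun z hz => by rw [hd0 c hc' _ hz]; simp
  have hi2 : Integrable (fun z : E × (E →L[ℝ] E) => fderiv ℝ f (z.1 - c • ξ) (z.2 ξ)) V :=
    h.integrable_supp hS hfin ((hfc.comp (continuous_fst.sub continuous_const)).clm_apply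
      (continuous_snd.clm_apply continuous_const)) (C := C * ‖ξ‖)
      (fun x P hP => by
        have h7 := hP.norm_le ξ
        have h8 := hb' (x - c • ξ)
        exact ((fderiv ℝ f (x - c • ξ)).le_opNorm (P ξ)).trans (by gcongr))
      fun z hz => by rw [hd0 c hc' _ hz]; simp
  have e2 : g 1 - g 0 = - ∫ z, fderiv ℝ f (z.1 - c • ξ) (ξ - z.2 ξ) ∂V := by
    have e3 : ∫ z, fderiv ℝ f (z.1 - c • ξ) (ξ - z.2 ξ) ∂V =
        ∫ z, fderiv ℝ f (z.1 - c • ξ) ξ ∂V := by
      simp_rw [map_sub]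
      rw [integral_sub hi1 hi2, hst, sub_zero]
    rw [e3, ← integral_neg, hc2]
    simp
  have e4 : g 1 - g 0 = ∫ z, f (z.1 - ξ) ∂V - ∫ z, f z.1 ∂V := by
    simp [hg]
  rw [← e4, e2, abs_neg, ← Real.norm_eq_abs]
  refine (norm_integral_le_integral_norm _).trans ?_
  have hi3 : Integrable ((ov S).indicator fun z : E × (E →L[ℝ] E) => C * ‖ξ - z.2 ξ‖) V := by
    rw [integrable_indicator_iff hSm]
    refine Integrable.const_mul ?_ C
    exact h.integrableOn_bdd hfin ((continuous_const.sub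
      (continuous_snd.clm_apply continuous_const)).norm) (C := 2 * ‖ξ‖) fun x P hP => by
        rw [abs_of_nonneg (norm_nonneg _)]
        exact (norm_sub_le _ _).trans (by have := hP.norm_le ξ; show ‖ξ‖ + ‖P ξ‖ ≤ 2 * ‖ξ‖; linarith)
  calc ∫ z, ‖fderiv ℝ f (z.1 - c • ξ) (ξ - z.2 ξ)‖ ∂V
      ≤ ∫ z, (ov S).indicator (fun z : E × (E →L[ℝ] E) => C * ‖ξ - z.2 ξ‖) z ∂V := by
        refine integral_mono_of_nonneg (Eventually.of_forall fun z => norm_nonneg _) hi3
          (Eventually.of_forall fun z => ?_)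
        by_cases hz : z.1 ∈ S
        · rw [indicator_of_mem (show z ∈ ov S from hz)]
          exact (ContinuousLinearMap.le_opNorm _ _).trans (by gcongr; exact hb' _)
        · rw [indicator_of_notMem (show z ∉ ov S from hz)]
          dsimp only
          rw [hd0 c hc' _ hz]
          simp
    _ = C * ∫ z in ov S, ‖ξ - z.2 ξ‖ ∂V := by
        rw [integral_indicator hSm, integral_const_mul]

/-- the defect integral. -/
theorem St.defect_le (h : St U V) {ℓ : E →L[ℝ] E} (hℓ : IsPr ℓ) {ξ : E} (hξ : ℓ ξ = ξ) {S : Set E}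
    (hfin : V (ov S) < ⊤) :
    ∫ z in ov S, ‖ξ - z.2 ξ‖ ∂V ≤ ‖ξ‖ * √(V.real (ov S) * el V ℓ S) := by
  have hiS : IntegrableOn (fun z : E × (E →L[ℝ] E) => √(tr (ℓ ∘L (1 - z.2)))) (ov S) V :=
    h.integrableOn_bdd hfin (Real.continuous_sqrt.comp (continuous_tl ℓ))
      fun _ _ hP => sqrt_tr_le_card hP.compl hℓ
  have hi1 : IntegrableOn (fun z : E × (E →L[ℝ] E) => ‖ξ - z.2 ξ‖) (ov S) V :=
    h.integrableOn_bdd hfin ((continuous_const.sub
      (continuous_snd.clm_apply continuous_const)).norm) (C := 2 * ‖ξ‖) fun x P hP => by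
        rw [abs_of_nonneg (norm_nonneg _)]
        exact (norm_sub_le _ _).trans (by have := hP.norm_le ξ; show ‖ξ‖ + ‖P ξ‖ ≤ 2 * ‖ξ‖; linarith)
  have h1 : ∫ z in ov S, ‖ξ - z.2 ξ‖ ∂V ≤ ∫ z in ov S, √(tr (ℓ ∘L (1 - z.2))) * ‖ξ‖ ∂V := by
    refine integral_mono_ae hi1 (hiS.mul_const _) ?_
    filter_upwards [ae_restrict_of_ae h.pr] with z hz
    exact inner_P_le hz.compl hℓ hξ
  refine h1.trans ?_
  rw [integral_mul_const, mul_comm]
  gcongr
  exact integral_sqrt_le hfin (ae_restrict_of_ae (h.pr.mono fun z hz =>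
    hz.compl.tr_nonneg_conj hℓ)) (h.el_int hℓ hfin) hiS

end Crest.Agent.R234.Cacc_113
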