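import Crest.Agent.R234.Log5_113
import Crest.Agent.R234.Log6_113

/-!
Row 234, VF-LOG, part 7: mass of the slabs at all translates in the directions of the spine, from the mass
bound at the centre only (translation lemma + averaging over a lattice).
-/

set_option autoImplicit false

open MeasureTheory Set Filter Topology Metric Function Crest.GeometryTopology.Submanifold
open scoped ENNReal InnerProductSpace NNReal

noncomputable section

namespace Crest.Agent.R234.Log_113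

open Vf_884 Strat3_842 Pers_540
open Crest.Agent.R234.Cacc_113 (St en el slab ann bx D1 pt ix bt)

variable {m k : ℕ} {π : Euc k →L[ℝ] Euc m}

theorem norm_pi_le (h : Ar_870.IsCo π) (S : Submodule ℝ (Euc m)) (x : Euc k) :
    ‖π x‖ ≤ ‖lp π S x‖ + ‖lp π Sᗮ x‖ := by
  rw [norm_lp h, norm_lp h]
  have h1 : S.starProjection (π x) + Sᗮ.starProjection (π x) = π x :=
    Submodule.starProjection_add_starProjection_orthogonal (K := S) (π x)
  calc ‖π x‖ = ‖S.starProjection (π x) + Sᗮ.starProjection (π x)‖ := by rw [h1]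
    _ ≤ _ := norm_add_le _ _

theorem norm_lp_le (h : Ar_870.IsCo π) (S : Submodule ℝ (Euc m)) (x : Euc k) :
    ‖lp π S x‖ ≤ ‖π x‖ := by
  rw [norm_lp h]; exact norm_starProjection_le S _

theorem lp_adj (h : Ar_870.IsCo π) {S : Submodule ℝ (Euc m)} {v : Euc m} (hv : v ∈ S) :
    lp π S (ContinuousLinearMap.adjoint π v) = ContinuousLinearMap.adjoint π v := by
  rw [lp_apply, co_apply h, Submodule.starProjection_eq_self_iff.2 hv]

/-- cut-off function of the slab -/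
def cf (π : Euc k →L[ℝ] Euc m) (S : Submodule ℝ (Euc m)) (x₀ : Euc k) (ρ : ℝ) (x : Euc k) : ℝ :=
  bt (lp π S) x₀ 2 x * bt (lp π Sᗮ) x₀ (2 * ρ) x

theorem cf_translate (S : Submodule ℝ (Euc m)) (x₀ ξ : Euc k) (ρ : ℝ) (x : Euc k) :
    cf π S x₀ ρ (x - ξ) = cf π S (x₀ + ξ) ρ x := by
  have e : x - ξ - x₀ = x - (x₀ + ξ) := by abel
  simp only [cf, bt, e]

theorem contDiff_cf (S : Submodule ℝ (Euc m)) (x₀ : Euc k) (ρ : ℝ) :
    ContDiff ℝ 1 (cf π S x₀ ρ) :=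
  (Cacc_113.contDiff_bt _ _ _).mul (Cacc_113.contDiff_bt _ _ _)

theorem cf_nonneg (S : Submodule ℝ (Euc m)) (x₀ : Euc k) (ρ : ℝ) (x : Euc k) :
    0 ≤ cf π S x₀ ρ x := mul_nonneg (Cacc_113.bt_nonneg _ _ _ _) (Cacc_113.bt_nonneg _ _ _ _)

theorem cf_le_one (S : Submodule ℝ (Euc m)) (x₀ : Euc k) (ρ : ℝ) (x : Euc k) :
    cf π S x₀ ρ x ≤ 1 :=
  mul_le_one₀ (Cacc_113.bt_le_one _ _ _ _) (Cacc_113.bt_nonneg _ _ _ _)
    (Cacc_113.bt_le_one _ _ _ _)

theorem cf_eq_one (S : Submodule ℝ (Euc m)) (x₀ : Euc k) {ρ : ℝ} (hρ : 0 < ρ) {x : Euc k}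
    (hx : x ∈ slab (lp π S) (lp π Sᗮ) x₀ (2 * ρ)) : cf π S x₀ ρ x = 1 := by
  unfold cf
  rw [Cacc_113.bt_eq_one _ _ two_pos hx.1, Cacc_113.bt_eq_one _ _ (by positivity) hx.2, one_mul]

/-- the open region carrying the cut-off function -/
def ob (π : Euc k →L[ℝ] Euc m) (S : Submodule ℝ (Euc m)) (x₀ : Euc k) (ρ : ℝ) : Set (Euc k) :=
  {x | ‖lp π S (x - x₀)‖ < 4 ∧ ‖lp π Sᗮ (x - x₀)‖ < 4 * ρ}

theorem isOpen_ob (S : Submodule ℝ (Euc m)) (x₀ : Euc k) (ρ : ℝ) : IsOpen (ob π S x₀ ρ) := by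
  have h1 : Continuous fun x => ‖lp π S (x - x₀)‖ :=
    ((lp π S).continuous.comp (continuous_id.sub continuous_const)).norm
  have h2 : Continuous fun x => ‖lp π Sᗮ (x - x₀)‖ :=
    ((lp π Sᗮ).continuous.comp (continuous_id.sub continuous_const)).norm
  exact (isOpen_lt h1 continuous_const).inter (isOpen_lt h2 continuous_const)

theorem cf_eq_zero (S : Submodule ℝ (Euc m)) (x₀ : Euc k) {ρ : ℝ} (hρ : 0 < ρ) {x : Euc k}
    (hx : x ∉ ob π S x₀ ρ) : cf π S x₀ ρ x = 0 := by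
  unfold cf
  by_cases h1 : ‖lp π S (x - x₀)‖ < 4
  · have h2 : 4 * ρ ≤ ‖lp π Sᗮ (x - x₀)‖ := by
      by_contra hcon
      push Not at hcon
      exact hx ⟨h1, hcon⟩
    rw [Cacc_113.bt_eq_zero (lp π Sᗮ) x₀ (by positivity : 0 < 2 * ρ) (by linarith), mul_zero]
  · push Not at h1
    rw [Cacc_113.bt_eq_zero (lp π S) x₀ two_pos (by linarith), zero_mul]

theorem norm_fderiv_bt_le {A : L k} (hA : Cacc_113.IsPr A) (x₀ : Euc k) {r : ℝ} (hr : 0 < r)
    (x : Euc k) : ‖fderiv ℝ (bt A x₀ r) x‖ ≤ 4 * D1 / r := by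
  rw [(Cacc_113.hasFDerivAt_bt hA x₀ r x).fderiv, norm_smul, innerSL_apply_norm, Real.norm_eq_abs]
  exact Cacc_113.abs_deriv_bt_mul_le A x₀ hr x

theorem norm_fderiv_cf_le (h : Ar_870.IsCo π) (S : Submodule ℝ (Euc m)) (x₀ : Euc k) {ρ : ℝ}
    (hρ : 1 ≤ ρ) (x : Euc k) : ‖fderiv ℝ (cf π S x₀ ρ) x‖ ≤ 4 * D1 := by
  have hD := Cacc_113.one_le_D1
  have d1 := (Cacc_113.contDiff_bt (lp π S) x₀ 2).differentiable one_ne_zero x
  have d2 := (Cacc_113.contDiff_bt (lp π Sᗮ) x₀ (2 * ρ)).differentiable one_ne_zero x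
  have e : fderiv ℝ (cf π S x₀ ρ) x = bt (lp π S) x₀ 2 x • fderiv ℝ (bt (lp π Sᗮ) x₀ (2 * ρ)) x +
      bt (lp π Sᗮ) x₀ (2 * ρ) x • fderiv ℝ (bt (lp π S) x₀ 2) x :=
    (d1.hasFDerivAt.mul d2.hasFDerivAt).fderiv
  rw [e]
  have a1 : |bt (lp π S) x₀ 2 x| ≤ 1 := by
    rw [abs_of_nonneg (Cacc_113.bt_nonneg _ _ _ _)]; exact Cacc_113.bt_le_one _ _ _ _
  have a2 : |bt (lp π Sᗮ) x₀ (2 * ρ) x| ≤ 1 := by
    rw [abs_of_nonneg (Cacc_113.bt_nonneg _ _ _ _)]; exact Cacc_113.bt_le_one _ _ _ _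
  have b1 := norm_fderiv_bt_le (isPr_lp h Sᗮ) x₀ (r := 2 * ρ) (by positivity) x
  have b2 := norm_fderiv_bt_le (isPr_lp h S) x₀ (r := 2) two_pos x
  have b3 : 4 * D1 / (2 * ρ) ≤ 4 * D1 / 2 := by
    apply div_le_div_of_nonneg_left (by linarith) (by norm_num) (by linarith)
  refine (norm_add_le _ _).trans ?_
  rw [norm_smul, norm_smul, Real.norm_eq_abs, Real.norm_eq_abs]
  calc _ ≤ 1 * (4 * D1 / (2 * ρ)) + 1 * (4 * D1 / 2) := by gcongr
    _ ≤ 4 * D1 := by linarith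

variable {C₀ c₀ M : ℝ} {V : Measure (Euc k × L k)}

/-- the defect of the closed cylinder of radius `3M/2` -/
def Zc (π : Euc k →L[ℝ] Euc m) (M : ℝ) : Set (Euc k) := cy π (closedBall 0 (3 / 2 * M))

theorem isClosed_Zc (M : ℝ) : IsClosed (Zc π M) := isClosed_closedBall.preimage π.continuous

theorem Zc_subset (hM : 0 < M) : Zc π M ⊆ cy π (ball 0 (2 * M)) :=
  preimage_mono (closedBall_subset_ball (by linarith))

theorem mem_Zc {x : Euc k} (hx : ‖π x‖ ≤ 3 / 2 * M) : x ∈ Zc π M := by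
  change π x ∈ closedBall 0 _
  rwa [mem_closedBall_zero_iff]

/-- comparison of the masses of two translates of the cut-off function -/
theorem Un.translate (h : Un π C₀ c₀ (2 * M) V) (hM : 20 ≤ M) (S : Submodule ℝ (Euc m))
    {x₀ η ζ : Euc k} (hx₀ : ‖π x₀‖ ≤ 3) (hη : ‖η‖ ≤ M / 4) (hζ : ‖ζ‖ ≤ 3 / 8 * M)
    (hζS : lp π S ζ = ζ) {ρ : ℝ} (hρ : 1 ≤ ρ) (hρM : 8 * ρ ≤ M) :
    |∫ z, cf π S (x₀ + η + ζ) ρ z.1 ∂V - ∫ z, cf π S (x₀ + η) ρ z.1 ∂V| ≤
      4 * D1 * (M * √(V.real (Cacc_113.ov (Zc π M)) * el V (lp π S) (Zc π M))) := by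
  have hD := Cacc_113.one_le_D1
  have hM0 : 0 < M := by linarith
  have hfin := h.fin (Zc_subset (π := π) hM0)
  have hst := st_of_stat h.st
  have h1 := hst.trans (contDiff_cf (π := π) S (x₀ + η) ρ) (C := 4 * D1)
    (fun x => by
      rw [abs_of_nonneg (cf_nonneg _ _ _ _)]
      exact (cf_le_one _ _ _ _).trans (by linarith))
    (fun x => norm_fderiv_cf_le h.co S _ hρ x) ζ (isClosed_Zc M) (Zc_subset hM0) hfin ?_
  · have e1 : ∀ z : Euc k × L k, cf π S (x₀ + η) ρ (z.1 - ζ) = cf π S (x₀ + η + ζ) ρ z.1 :=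
      fun z => cf_translate S (x₀ + η) ζ ρ z.1
    simp_rw [e1] at h1
    refine h1.trans ?_
    gcongr
    refine (hst.defect_le (isPr_lp h.co S) hζS hfin).trans ?_
    gcongr
    linarith
  · intro t ht x hx
    refine cf_eq_zero S _ (by linarith) fun hob => hx (mem_Zc ?_)
    have h2 := norm_pi_le h.co S (x - t • ζ - (x₀ + η))
    have h3 := hob.1
    have h4 := hob.2
    have h5 : ‖π x‖ ≤ ‖π (x - t • ζ - (x₀ + η))‖ + ‖π (t • ζ)‖ + ‖π x₀‖ + ‖π η‖ := by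
      calc ‖π x‖ = ‖π (x - t • ζ - (x₀ + η)) + π (t • ζ) + π x₀ + π η‖ := by
            rw [← map_add, ← map_add, ← map_add]; congr 2; abel
        _ ≤ _ := by
            refine (norm_add_le _ _).trans ?_
            gcongr
            refine (norm_add_le _ _).trans ?_
            gcongr
            exact norm_add_le _ _
    have h6 : ‖π (t • ζ)‖ ≤ 3 / 8 * M := by
      refine (norm_co_le h.co _).trans ?_
      rw [norm_smul, Real.norm_of_nonneg ht.1]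
      calc t * ‖ζ‖ ≤ 1 * (3 / 8 * M) := by gcongr; exact ht.2
        _ = _ := one_mul _
    have h7 : ‖π η‖ ≤ M / 4 := (norm_co_le h.co _).trans hη
    linarith

/-- lattice in the directions of `S` -/
def xi (π : Euc k →L[ℝ] Euc m) {d : ℕ} (v : Fin d → Euc m) (n : Fin d → ℤ) : Euc k :=
  ContinuousLinearMap.adjoint π ((9 : ℝ) • pt v n)

theorem norm_xi_le (h : Ar_870.IsCo π) {d : ℕ} {v : Fin d → Euc m} (hv : Orthonormal ℝ v) {N : ℕ}
    {n : Fin d → ℤ} (hn : n ∈ ix d N) : ‖xi π v n‖ ≤ 9 * (d * N) := by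
  unfold xi
  rw [Ar_870.norm_adjoint_co h, norm_smul]
  have := Cacc_113.norm_pt_le hv (Cacc_113.abs_le_of_mem_ix hn)
  rw [show ‖(9 : ℝ)‖ = 9 by norm_num]
  gcongr

theorem lp_xi (h : Ar_870.IsCo π) {S : Submodule ℝ (Euc m)} {d : ℕ} {v : Fin d → Euc m}
    (hvS : ∀ i, v i ∈ S) (n : Fin d → ℤ) : lp π S (xi π v n) = xi π v n := by
  refine lp_adj h (S.smul_mem _ ?_)
  unfold Cacc_113.pt
  exact Submodule.sum_mem _ fun i _ => S.smul_mem _ (hvS i)

theorem nine_le_norm_xi_sub (h : Ar_870.IsCo π) {d : ℕ} {v : Fin d → Euc m}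
    (hv : Orthonormal ℝ v) {n n' : Fin d → ℤ} (hn : n ≠ n') : 9 ≤ ‖xi π v n - xi π v n'‖ := by
  unfold xi
  rw [← map_sub, Ar_870.norm_adjoint_co h, ← smul_sub, norm_smul]
  have := Cacc_113.one_le_norm_pt_sub hv hn
  rw [show ‖(9 : ℝ)‖ = 9 by norm_num]
  linarith

/-- number of lattice points -/
theorem card_ix_ge (d : ℕ) {t : ℝ} (ht : 0 ≤ t) :
    (t / (9 * (d + 1))) ^ d ≤ ((ix d ⌊t / (9 * (d + 1))⌋₊).card : ℝ) := by
  rw [Cacc_113.card_ix]
  push_cast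
  have h1 : t / (9 * (d + 1)) < ⌊t / (9 * (d + 1))⌋₊ + 1 := Nat.lt_floor_add_one _
  have h2 : (0 : ℝ) ≤ ⌊t / (9 * (d + 1))⌋₊ := by positivity
  gcongr
  linarith

theorem floor_mul_le (d : ℕ) {t : ℝ} (ht : 0 ≤ t) : 9 * (d * (⌊t / (9 * (d + 1))⌋₊ : ℝ)) ≤ t := by
  have h1 : (⌊t / (9 * (d + 1))⌋₊ : ℝ) ≤ t / (9 * (d + 1)) := Nat.floor_le (by positivity)
  calc 9 * (d * (⌊t / (9 * (d + 1))⌋₊ : ℝ)) ≤ 9 * ((d + 1) * (t / (9 * (d + 1)))) := by
        gcongr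
        linarith
    _ = t := by field_simp

set_option maxHeartbeats 1000000 in
/-- **mass of the slabs at all translates**. -/
theorem Un.slab_mass (h : Un π C₀ c₀ (2 * M) V) (hM : 20 ≤ M) (S : Submodule ℝ (Euc m)) {d : ℕ}
    {v : Fin d → Euc m} (hv : Orthonormal ℝ v) (hvS : ∀ i, v i ∈ S) (hd : d + 2 = m)
    {x₀ η : Euc k} (hx₀ : ‖π x₀‖ ≤ 3) (hη : ‖η‖ ≤ M / 4) (hηS : lp π S η = η)
    {ρ : ℝ} (hρ : 1 ≤ ρ) (hρM : 8 * ρ ≤ M)
    (hel : 4 * D1 * (M * √(V.real (Cacc_113.ov (Zc π M)) * el V (lp π S) (Zc π M))) ≤ 1) :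
    V.real (Cacc_113.ov (slab (lp π S) (lp π Sᗮ) (x₀ + η) (2 * ρ))) ≤
      (C₀ * 12 ^ m * (9 * (d + 1)) ^ d + 1) * ρ ^ 2 := by
  have hρ0 : 0 < ρ := by linarith
  have hM0 : 0 < M := by linarith
  have hst := st_of_stat h.st
  set N := ⌊ρ / (9 * (d + 1))⌋₊ with hN
  -- regions
  have hreg : ∀ n ∈ ix d N, ob π S (x₀ + xi π v n) ρ ⊆ cy π (ball 0 (12 * ρ)) := by
    intro n hn x hx
    have h1 := norm_pi_le h.co S (x - (x₀ + xi π v n))
    have h2 : ‖π (xi π v n)‖ ≤ ρ := (norm_co_le h.co _).trans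
      ((norm_xi_le h.co hv hn).trans (floor_mul_le d hρ0.le))
    have h3 : ‖π x‖ ≤ ‖π (x - (x₀ + xi π v n))‖ + ‖π x₀‖ + ‖π (xi π v n)‖ := by
      calc ‖π x‖ = ‖π (x - (x₀ + xi π v n)) + π x₀ + π (xi π v n)‖ := by
            rw [← map_add, ← map_add]; congr 2; abel
        _ ≤ _ := by
            refine (norm_add_le _ _).trans ?_
            gcongr
            exact norm_add_le _ _
    change π x ∈ ball 0 _
    rw [mem_ball_zero_iff]
    have h4 := hx.1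
    have h5 := hx.2
    linarith
  have hsub12 : cy π (ball 0 (12 * ρ)) ⊆ cy π (ball 0 (2 * M)) :=
    preimage_mono (ball_subset_ball (by linarith))
  have hfin12 := h.fin hsub12
  have hob_fin : ∀ n ∈ ix d N, V (Cacc_113.ov (ob π S (x₀ + xi π v n) ρ)) < ⊤ := fun n hn =>
    h.fin ((hreg n hn).trans hsub12)
  -- integrals of the cut-off functions
  have hcf_le : ∀ n ∈ ix d N, ∫ z, cf π S (x₀ + xi π v n) ρ z.1 ∂V ≤
      V.real (Cacc_113.ov (ob π S (x₀ + xi π v n) ρ)) := by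
    intro n hn
    have hm := Cacc_113.measurableSet_ov (E := Euc k) (isOpen_ob (π := π) S (x₀ + xi π v n) ρ).measurableSet
    have hi : Integrable ((Cacc_113.ov (ob π S (x₀ + xi π v n) ρ)).indicator fun _ => (1 : ℝ)) V := by
      rw [integrable_indicator_iff hm]
      exact integrableOn_const (hob_fin n hn).ne
    have h1 : ∫ z, cf π S (x₀ + xi π v n) ρ z.1 ∂V ≤
        ∫ z, (Cacc_113.ov (ob π S (x₀ + xi π v n) ρ)).indicator (fun _ => (1 : ℝ)) z ∂V := by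
      refine integral_mono_of_nonneg (Eventually.of_forall fun z => cf_nonneg _ _ _ _) hi
        (Eventually.of_forall fun z => ?_)
      by_cases hz : z.1 ∈ ob π S (x₀ + xi π v n) ρ
      · rw [indicator_of_mem (show z ∈ Cacc_113.ov (ob π S (x₀ + xi π v n) ρ) from hz)]
        exact cf_le_one _ _ _ _
      · rw [indicator_of_notMem (show z ∉ Cacc_113.ov (ob π S (x₀ + xi π v n) ρ) from hz)]
        exact (cf_eq_zero S _ hρ0 hz).le
    refine h1.trans (le_of_eq ?_)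
    rw [integral_indicator hm, setIntegral_const, smul_eq_mul, mul_one]
  -- the slab
  set I₀ := ∫ z, cf π S (x₀ + η) ρ z.1 ∂V with hI₀
  have hslab_sub : ob π S (x₀ + η) ρ ⊆ Zc π M := by
    intro x hx
    refine mem_Zc ?_
    have h1 := norm_pi_le h.co S (x - (x₀ + η))
    have h2 : ‖π η‖ ≤ M / 4 := (norm_co_le h.co _).trans hη
    have h3 : ‖π x‖ ≤ ‖π (x - (x₀ + η))‖ + ‖π x₀‖ + ‖π η‖ := by
      calc ‖π x‖ = ‖π (x - (x₀ + η)) + π x₀ + π η‖ := by
            rw [← map_add, ← map_add]; congr 2; abel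
        _ ≤ _ := by
            refine (norm_add_le _ _).trans ?_
            gcongr
            exact norm_add_le _ _
    have h4 := hx.1
    have h5 := hx.2
    linarith
  have hfinZ := h.fin (Zc_subset (π := π) hM0)
  have hcf_int : Integrable (fun z : Euc k × L k => cf π S (x₀ + η) ρ z.1) V :=
    hst.integrable_supp (isClosed_Zc M) hfinZ ((contDiff_cf S _ ρ).continuous.comp continuous_fst)
      (C := 1) (fun x P _ => by
        rw [abs_of_nonneg (cf_nonneg _ _ _ _)]; exact cf_le_one _ _ _ _)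
      fun z hz => cf_eq_zero S _ hρ0 fun hob => hz (hslab_sub hob)
  have hI₀_ge : V.real (Cacc_113.ov (slab (lp π S) (lp π Sᗮ) (x₀ + η) (2 * ρ))) ≤ I₀ := by
    have hm := Cacc_113.measurableSet_ov (E := Euc k)
      (Cacc_113.isClosed_slab (lp π S) (lp π Sᗮ) (x₀ + η) (2 * ρ)).measurableSet
    have h1 : ∫ z, (Cacc_113.ov (slab (lp π S) (lp π Sᗮ) (x₀ + η) (2 * ρ))).indicator
        (fun _ => (1 : ℝ)) z ∂V ≤ I₀ := by
      refine integral_mono_of_nonneg (Eventually.of_forall fun z =>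
        indicator_nonneg (fun _ _ => zero_le_one) _) hcf_int (Eventually.of_forall fun z => ?_)
      by_cases hz : z.1 ∈ slab (lp π S) (lp π Sᗮ) (x₀ + η) (2 * ρ)
      · rw [indicator_of_mem (show z ∈ Cacc_113.ov
          (slab (lp π S) (lp π Sᗮ) (x₀ + η) (2 * ρ)) from hz)]
        exact (cf_eq_one S _ hρ0 hz).ge
      · rw [indicator_of_notMem (show z ∉ Cacc_113.ov
          (slab (lp π S) (lp π Sᗮ) (x₀ + η) (2 * ρ)) from hz)]
        exact cf_nonneg _ _ _ _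
    rwa [integral_indicator hm, setIntegral_const, smul_eq_mul, mul_one] at h1
  -- comparison
  have hcomp : ∀ n ∈ ix d N, I₀ ≤ V.real (Cacc_113.ov (ob π S (x₀ + xi π v n) ρ)) + 1 := by
    intro n hn
    have hxi : ‖xi π v n‖ ≤ ρ := (norm_xi_le h.co hv hn).trans (floor_mul_le d hρ0.le)
    have h1 := h.translate hM S (x₀ := x₀) (η := η) (ζ := xi π v n - η) hx₀ hη
      ((norm_sub_le _ _).trans (by linarith)) (by rw [map_sub, lp_xi h.co hvS, hηS]) hρ hρM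
    have h2 := (abs_le.mp h1).1
    have e : x₀ + η + (xi π v n - η) = x₀ + xi π v n := by abel
    rw [e] at h2
    have h3 := hcf_le n hn
    linarith
  have hdisj : Set.PairwiseDisjoint (ix d N : Set (Fin d → ℤ))
      fun n => Cacc_113.ov (ob π S (x₀ + xi π v n) ρ) := by
    intro n _ n' _ hne
    refine Disjoint.preimage _ ?_
    rw [Set.disjoint_left]
    intro x hx hx'
    have h1 := nine_le_norm_xi_sub h.co hv hne
    have h2 : xi π v n - xi π v n' = lp π S (x - (x₀ + xi π v n')) - lp π S (x - (x₀ + xi π v n)) := by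
      rw [← map_sub, show x - (x₀ + xi π v n') - (x - (x₀ + xi π v n)) = xi π v n - xi π v n' by abel,
        map_sub, lp_xi h.co hvS, lp_xi h.co hvS]
    rw [h2] at h1
    have h3 := norm_sub_le (lp π S (x - (x₀ + xi π v n'))) (lp π S (x - (x₀ + xi π v n)))
    have h4 := hx.1
    have h5 := hx'.1
    linarith
  have hsum : ∑ n ∈ ix d N, V.real (Cacc_113.ov (ob π S (x₀ + xi π v n) ρ)) ≤
      C₀ * (12 * ρ) ^ m := by
    rw [← measureReal_biUnion_finset hdisj (fun n _ => Cacc_113.measurableSet_ov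
      (isOpen_ob S _ ρ).measurableSet) fun n hn => (hob_fin n hn).ne]
    have h1 : V.real (⋃ n ∈ ix d N, Cacc_113.ov (ob π S (x₀ + xi π v n) ρ)) ≤
        V.real (Cacc_113.ov (cy π (ball 0 (12 * ρ)))) :=
      measureReal_mono (iUnion₂_subset fun n hn => preimage_mono (hreg n hn)) hfin12.ne
    refine h1.trans ?_
    have h2 := h.mass (12 * ρ) (by linarith) (by linarith)
    rw [← ov_eq] at h2
    rw [measureReal_def]
    exact ENNReal.toReal_le_of_le_ofReal (mul_nonneg h.C₀_nonneg (by positivity)) h2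
  have hcard : (ρ / (9 * (d + 1))) ^ d ≤ ((ix d N).card : ℝ) := card_ix_ge d hρ0.le
  have hcpos : (0 : ℝ) < (ix d N).card := lt_of_lt_of_le (by positivity) hcard
  have h1 : ((ix d N).card : ℝ) * I₀ ≤ C₀ * (12 * ρ) ^ m + (ix d N).card := by
    calc ((ix d N).card : ℝ) * I₀ = ∑ _n ∈ ix d N, I₀ := by simp
      _ ≤ ∑ n ∈ ix d N, (V.real (Cacc_113.ov (ob π S (x₀ + xi π v n) ρ)) + 1) :=
          Finset.sum_le_sum hcomp
      _ = ∑ n ∈ ix d N, V.real (Cacc_113.ov (ob π S (x₀ + xi π v n) ρ)) + (ix d N).card := by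
          rw [Finset.sum_add_distrib]; simp
      _ ≤ _ := by linarith
  have h2 : I₀ ≤ C₀ * (12 * ρ) ^ m / (ix d N).card + 1 := by
    rw [← sub_le_iff_le_add, le_div_iff₀ hcpos]
    nlinarith
  have h3 : C₀ * (12 * ρ) ^ m / (ix d N).card ≤ C₀ * 12 ^ m * (9 * (d + 1)) ^ d * ρ ^ 2 := by
    rw [div_le_iff₀ hcpos]
    calc C₀ * (12 * ρ) ^ m = C₀ * 12 ^ m * (9 * (d + 1)) ^ d * ρ ^ 2 * (ρ / (9 * (d + 1))) ^ d := by
          rw [← hd, div_pow]
          field_simp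
          ring
      _ ≤ _ := by
          have := h.C₀_nonneg
          gcongr
  have h4 : (1 : ℝ) ≤ ρ ^ 2 := by nlinarith
  calc _ ≤ I₀ := hI₀_ge
    _ ≤ _ := h2
    _ ≤ C₀ * 12 ^ m * (9 * (d + 1)) ^ d * ρ ^ 2 + ρ ^ 2 := by linarith
    _ = _ := by ring

end Crest.Agent.R234.Log_113
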