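import Crest.Agent.R234.Log7_113

/-!
Row 234, VF-LOG, part 8: persistence of the tip (Pers4_540) at all translates in the directions of the spine.
-/

set_option autoImplicit false

open MeasureTheory Set Filter Topology Metric Function Crest.GeometryTopology.Submanifold
open scoped ENNReal InnerProductSpace NNReal

noncomputable section

namespace Crest.Agent.R234.Log_113

open Vf_884 Strat3_842 Pers_540 Vc_164
open Crest.Agent.R234.Cacc_113 (St en el slab ann bx D1 pt ix bt)

variable {m k : ℕ} {π : Euc k →L[ℝ] Euc m}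

/-! ### translates of varifolds -/

/-- translate of a varifold: the point `a` is moved to the origin -/
def tv (a : Euc k) (V : Measure (Euc k × L k)) : Measure (Euc k × L k) :=
  V.map fun p => (p.1 - a, p.2)

theorem measurable_tv (a : Euc k) : Measurable fun p : Euc k × L k => (p.1 - a, p.2) :=
  ((continuous_fst.sub continuous_const).prodMk continuous_snd).measurable

theorem tv_prod (a : Euc k) (V : Measure (Euc k × L k)) {A : Set (Euc k)} (hA : MeasurableSet A) :
    tv a V (A ×ˢ univ) = V ({x | x - a ∈ A} ×ˢ univ) := by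
  unfold tv
  rw [Measure.map_apply (measurable_tv a) (hA.prod MeasurableSet.univ)]
  rfl

theorem tv_ball (a : Euc k) (V : Measure (Euc k × L k)) (x : Euc k) (r : ℝ) :
    tv a V (ball x r ×ˢ univ) = V (ball (x + a) r ×ˢ univ) := by
  rw [tv_prod a V measurableSet_ball]
  congr 2
  ext y
  simp only [mem_ofPred_eq, mem_ball, dist_eq_norm]
  rw [show y - a - x = y - (x + a) by abel]

theorem tv_stat {U W : Set (Euc k)} {V : Measure (Euc k × L k)} (hV : Stat m k U V) (a : Euc k)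
    (hW : ∀ x ∈ W, x + a ∈ U) : Stat m k W (tv a V) where
  conc := by
    unfold tv
    rw [ae_map_iff (measurable_tv a).aemeasurable ((measurableSet_G m k).preimage measurable_snd)]
    exact hV.conc
  fin K hK hKW := by
    rw [tv_prod a V hK.measurableSet]
    have e : {x | x - a ∈ K} = (fun x => x + a) '' K := by
      ext x
      simp only [mem_ofPred_eq, mem_image]
      exact ⟨fun h => ⟨x - a, h, by abel⟩, by rintro ⟨y, hy, rfl⟩; simpa using hy⟩
    rw [e]
    refine hV.fin _ (hK.image (continuous_id.add continuous_const)) ?_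
    rintro _ ⟨x, hx, rfl⟩
    exact hW x (hKW hx)
  stat X hX hXc hXW := by
    have hY : ContDiff ℝ 1 fun x => X (x - a) := hX.comp (contDiff_id.sub contDiff_const)
    have hts : tsupport (fun x => X (x - a)) = {x | x - a ∈ tsupport X} := by
      have := tsupport_comp_eq_preimage X (Homeomorph.subRight a)
      exact this
    have hYc : HasCompactSupport fun x => X (x - a) := hXc.comp_homeomorph (Homeomorph.subRight a)
    have h1 := hV.stat _ hY hYc (by
      rw [hts]
      intro x hx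
      have := hW _ (hXW hx)
      simpa using this)
    have h2 : ∀ p : Euc k × L k, fderiv ℝ (fun x => X (x - a)) p.1 = fderiv ℝ X (p.1 - a) :=
      fun p => fderiv_comp_sub _
    simp_rw [h2] at h1
    unfold tv
    rw [integral_map (measurable_tv a).aemeasurable]
    · exact h1
    · exact (continuous_tr_fderiv hX).aestronglyMeasurable

theorem tv_integral (a : Euc k) (V : Measure (Euc k × L k)) {f : Euc k → ℝ} (hf : Continuous f) :
    ∫ p, f p.1 ∂(tv a V) = ∫ p, f (p.1 - a) ∂V := by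
  unfold tv
  rw [integral_map (measurable_tv a).aemeasurable]
  exact (hf.comp continuous_fst).aestronglyMeasurable

theorem tv_tilt (P : L k) (a : Euc k) (V : Measure (Euc k × L k)) {A : Set (Euc k)}
    (hA : MeasurableSet A) : ∫ p in A ×ˢ univ, tilt P p ∂(tv a V) =
      ∫ p in {x | x - a ∈ A} ×ˢ univ, tilt P p ∂V := by
  unfold tv
  rw [setIntegral_map (hA.prod MeasurableSet.univ) (continuous_tilt P).aestronglyMeasurable
    (measurable_tv a).aemeasurable]
  have e : (fun p : Euc k × L k => (p.1 - a, p.2)) ⁻¹' A ×ˢ univ = {x | x - a ∈ A} ×ˢ univ := by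
    ext p; simp
  rw [e]
  rfl

variable {C₀ c₀ M : ℝ} {V : Measure (Euc k × L k)}

/-- constant bounding the masses of the boxes -/
def Cm (m d : ℕ) (C₀ : ℝ) : ℝ := C₀ * 12 ^ m * (9 * (d + 1)) ^ d + 1

theorem Cm_pos (m d : ℕ) {C₀ : ℝ} (h : 0 ≤ C₀) : 0 < Cm m d C₀ := by
  unfold Cm; positivity

theorem en_eq (V : Measure (Euc k × L k)) (A : Set (Euc k)) :
    en V (vp π) A = ∫ p in A ×ˢ univ, tilt (hp π) p ∂V := by
  unfold Cacc_113.en
  rw [ov_eq]
  rfl

/-- defect at the scale `M` -/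
def df (π : Euc k →L[ℝ] Euc m) (M : ℝ) (S : Submodule ℝ (Euc m)) (V : Measure (Euc k × L k)) : ℝ :=
  M * √(V.real (Cacc_113.ov (Zc π M)) * el V (lp π S) (Zc π M))

theorem box_subset_Zc (h : Ar_870.IsCo π) (hM : 20 ≤ M) {a ξ : Euc k} (ha : ‖π a‖ ≤ 1)
    (hξ : ‖ξ‖ ≤ M / 4) {x : Euc k} (hx : x - (a + ξ) ∈ Bx (hp π) 2) : x ∈ Zc π M := by
  refine mem_Zc ?_
  have h1 : ‖π (x - (a + ξ))‖ < 2 := by rw [← norm_hp h]; exact hx.1
  have h2 : ‖π ξ‖ ≤ M / 4 := (norm_co_le h _).trans hξ
  have h3 : ‖π x‖ ≤ ‖π (x - (a + ξ))‖ + ‖π a‖ + ‖π ξ‖ := by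
    calc ‖π x‖ = ‖π (x - (a + ξ)) + π a + π ξ‖ := by
          rw [← map_add, ← map_add]; congr 2; abel
      _ ≤ _ := by
          refine (norm_add_le _ _).trans ?_
          gcongr
          exact norm_add_le _ _
  linarith

/-- **persistence at the translates**. -/
theorem exists_pers (hπ : Ar_870.IsCo π) {d : ℕ} (hd : d + 2 = m) (C₀ : ℝ) (hC₀ : 0 ≤ C₀) {c₀ τ : ℝ}
    (hc₀ : 0 < c₀) (hτ : 0 < τ) : ∃ ε > 0, ∀ (M : ℝ) (V : Measure (Euc k × L k))
      (S : Submodule ℝ (Euc m)) (v : Fin d → Euc m), Orthonormal ℝ v → (∀ i, v i ∈ S) →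
      Un π C₀ c₀ (2 * M) V → 20 ≤ M → 4 * D1 * df π M S V ≤ 1 → df π M S V ≤ ε →
      ∀ a : Euc k, ‖π a‖ ≤ 1 → τ ≤ en V (vp π) {x | x - a ∈ Bc (hp π) 1} →
      ∀ ξ : Euc k, lp π S ξ = ξ → ‖ξ‖ ≤ M / 4 → ε ≤ en V (vp π) {x | x - (a + ξ) ∈ Bx (hp π) 2} := by
  have hP := hp_mem_G hπ
  obtain ⟨ε, hε, hpers⟩ := pers hP (Cm m d C₀).toNNReal hc₀ hτ
  refine ⟨ε, hε, fun M V S v hv hvS h hM hel1 hel2 a ha hen ξ hξS hξ => ?_⟩
  have hM0 : 0 < M := by linarith
  have hst := st_of_stat h.st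
  have hboxm : MeasurableSet (Bx (hp π) 2) := (isOpen_Bx (hp π) 2).measurableSet
  -- the boxes
  have hbox : ∀ ξ : Euc k, ‖ξ‖ ≤ M / 4 → ∀ x ∈ Bx (hp π) 2, x + (a + ξ) ∈ cy π (ball 0 (2 * M)) := by
    intro ξ hξ x hx
    exact Zc_subset hM0 (box_subset_Zc hπ hM ha hξ (x := x + (a + ξ)) (by simpa using hx))
  have hmass : ∀ ξ : Euc k, lp π S ξ = ξ → ‖ξ‖ ≤ M / 4 →
      tv (a + ξ) V (Bx (hp π) 2 ×ˢ univ) ≤ ENNReal.ofReal (Cm m d C₀) := by
    intro ξ hξS hξ
    rw [tv_prod _ V hboxm]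
    have h1 := h.slab_mass hM S hv hvS hd (x₀ := a) (η := ξ) (by linarith) hξ hξS (ρ := 1) le_rfl
      (by linarith) hel1
    have hsub : {x | x - (a + ξ) ∈ Bx (hp π) 2} ⊆ slab (lp π S) (lp π Sᗮ) (a + ξ) (2 * 1) := by
      intro x hx
      have h2 : ‖π (x - (a + ξ))‖ < 2 := by rw [← norm_hp hπ]; exact hx.1
      exact ⟨(norm_lp_le hπ S _).trans h2.le, (norm_lp_le hπ Sᗮ _).trans (by linarith)⟩
    have hslabfin : V (Cacc_113.ov (slab (lp π S) (lp π Sᗮ) (a + ξ) (2 * 1))) < ⊤ := by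
      refine h.fin fun x hx => ?_
      change π x ∈ ball 0 _
      rw [mem_ball_zero_iff]
      have h3 := norm_pi_le hπ S (x - (a + ξ))
      have h4 := hx.1
      have h5 := hx.2
      have h6 : ‖π ξ‖ ≤ M / 4 := (norm_co_le hπ _).trans hξ
      have h7 : ‖π x‖ ≤ ‖π (x - (a + ξ))‖ + ‖π a‖ + ‖π ξ‖ := by
        calc ‖π x‖ = ‖π (x - (a + ξ)) + π a + π ξ‖ := by
              rw [← map_add, ← map_add]; congr 2; abel
          _ ≤ _ := by
              refine (norm_add_le _ _).trans ?_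
              gcongr
              exact norm_add_le _ _
      linarith
    have h8 : V (Cacc_113.ov (slab (lp π S) (lp π Sᗮ) (a + ξ) (2 * 1))) ≤
        ENNReal.ofReal (Cm m d C₀) := by
      rw [← ENNReal.ofReal_toReal hslabfin.ne]
      refine ENNReal.ofReal_le_ofReal ?_
      have h9 : (C₀ * 12 ^ m * (9 * (d + 1)) ^ d + 1) * 1 ^ 2 = Cm m d C₀ := by unfold Cm; ring
      rw [h9] at h1
      exact h1
    calc V ({x | x - (a + ξ) ∈ Bx (hp π) 2} ×ˢ univ)
        ≤ V (Cacc_113.ov (slab (lp π S) (lp π Sᗮ) (a + ξ) (2 * 1))) := by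
          rw [ov_eq]; exact measure_mono (prod_mono hsub subset_rfl)
      _ ≤ ENNReal.ofReal (Cm m d C₀) := h8
  have h0S : lp π S (0 : Euc k) = 0 := map_zero _
  have h0n : ‖(0 : Euc k)‖ ≤ M / 4 := by rw [norm_zero]; positivity
  have key := hpers (tv a V) (tv (a + ξ) V)
    (tv_stat h.st a fun x hx => by simpa using hbox 0 h0n x hx)
    (tv_stat h.st (a + ξ) fun x hx => hbox ξ hξ x hx)
    (by have h00 := hmass 0 h0S h0n; rw [add_zero] at h00; exact h00) (hmass ξ hξS hξ) ?_ ?_ ?_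
  · rw [tv_tilt _ _ _ hboxm] at key
    rw [en_eq]
    exact key
  · -- lower density
    intro x hx r hr hxr
    rw [tv_ball]
    refine h.low (x + (a + ξ)) (fun s hs => ?_) r hr ?_
    · have := hx s hs
      rwa [tv_ball] at this
    · intro y hy
      have h1 : y - (a + ξ) ∈ ball x r := by
        rw [mem_ball, dist_eq_norm] at hy ⊢
        rwa [show y - (a + ξ) - x = y - (x + (a + ξ)) by abel]
      have h2 := hbox ξ hξ _ (hxr h1)
      simpa using h2
  · -- closeness
    intro f hf hfc hfU M' hM'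
    have hM'0 : 0 ≤ M' := (norm_nonneg _).trans (hM' 0)
    rw [tv_integral _ _ hf.continuous, tv_integral _ _ hf.continuous]
    -- compact tube
    set K : Set (Euc k) := (fun q : ℝ × Euc k => q.2 + a + q.1 • ξ) '' (Icc (0 : ℝ) 1 ×ˢ tsupport f)
      with hK
    have hKc : IsCompact K := (isCompact_Icc.prod hfc).image (by fun_prop)
    have hKZ : K ⊆ Zc π M := by
      rintro _ ⟨⟨t, x⟩, ⟨ht, hx⟩, rfl⟩
      refine box_subset_Zc hπ hM ha (ξ := t • ξ) ?_ ?_
      · rw [norm_smul, Real.norm_of_nonneg ht.1]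
        calc t * ‖ξ‖ ≤ 1 * (M / 4) := by gcongr; exact ht.2
          _ = M / 4 := one_mul _
      · have := hfU hx
        simpa [add_assoc] using this
    have h1 := trans_close h.st (f := fun x => f (x - a)) (hf.comp (contDiff_id.sub contDiff_const))
      (M := M') (fun x => by rw [fderiv_comp_sub]; exact hM' _) ξ hKc
      (hKZ.trans (Zc_subset hM0)) (fun t ht x hx => by
        refine ⟨(t, x - t • ξ - a), ⟨ht, subset_tsupport _ hx⟩, ?_⟩
        simp only
        abel)
    have e1 : ∀ p : Euc k × L k, f (p.1 - ξ - a) = f (p.1 - (a + ξ)) := fun p => by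
      congr 1; abel
    simp only [e1] at h1
    refine h1.trans ?_
    rw [mul_comm ε M']
    refine mul_le_mul_of_nonneg_left ?_ hM'0
    have hfinZ := h.fin (Zc_subset (π := π) hM0)
    have h2 : ∫ p in K ×ˢ univ, ‖ξ - p.2 ξ‖ ∂V ≤ ∫ p in Cacc_113.ov (Zc π M), ‖ξ - p.2 ξ‖ ∂V := by
      refine setIntegral_mono_set ?_ (Eventually.of_forall fun p => norm_nonneg _) ?_
      · exact hst.integrableOn_bdd hfinZ ((continuous_const.sub
          (continuous_snd.clm_apply continuous_const)).norm) (C := 2 * ‖ξ‖) fun x P hP => by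
            rw [abs_of_nonneg (norm_nonneg _)]
            exact (norm_sub_le _ _).trans (by have := hP.norm_le ξ; show ‖ξ‖ + ‖P ξ‖ ≤ 2 * ‖ξ‖; linarith)
      · rw [ov_eq]
        exact (prod_mono hKZ subset_rfl).eventuallyLE
    refine h2.trans ((hst.defect_le (isPr_lp hπ S) hξS hfinZ).trans (le_trans ?_ hel2))
    unfold df
    gcongr
    linarith
  · rw [tv_tilt _ _ _ (isCompact_Bc (hp π) 1).isClosed.measurableSet]
    rw [en_eq] at hen
    exact hen

end Crest.Agent.R234.Log_113
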