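import Crest.Agent.R234.LowF9_471

/-!
# Row 234, (F4) LOW FREQUENCY, V level, part 3 (helper471)

`f4` : at a point `z0` of density `≥ Q`, relative to a reference surface through `z0`,
`-θ D0 ≤ exp(-2 l0)(EE - II/2)`, if `κ` and `D0 = sup exp(-2l) II` over `[l0, l0 + cc]` are small.
-/

set_option autoImplicit false

open MeasureTheory Set Filter Topology Crest.GeometryTopology.Submanifold
open Crest.Agent.R234.Vf_884 Crest.Agent.R234.Cy_870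
open scoped ENNReal NNReal InnerProductSpace

noncomputable section

namespace Crest.Agent.R234.LowF10_471

open Crest.Agent.R234.GL_394
open Crest.Agent.R234.LowF4_471 (Lv lown)
open Crest.Agent.R234.LowF5_471
open Crest.Agent.R234.LowF8_471
open Crest.Agent.R234.LowF9_471

variable {g g1 g2 : ℝ → ℝ}

/-- the soft sign of the anomaly at all levels `l ≤ l0`, with the collar `[l, l0 + cc]` -/
def Soft {m k : ℕ} (c : Ch m k) (W : Measure (Euc k × L k)) (g g1 : ℝ → ℝ) (Q l0 cc ε0 : ℝ) :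
    Prop :=
  ∀ l ≤ l0, ∀ S, 0 < S → S ≤ ε0 →
    (∀ l' ∈ Icc l (l0 + cc), Real.exp (-(2 * l')) * II c W g1 l' ≤ S) →
    bb c W g Q l ≤ 1 / 256 * S * Real.exp (2 * l)

theorem f4 {m : ℕ} (hm : 1 ≤ m) {B b0 A C0 Q cc ε0 θ hs : ℝ} (hp : Pf g g1 g2 B) (hb0 : 0 < b0)
    (hb : ∀ t, 0 ≤ t → t ≤ 1 / 4 → b0 ≤ -g1 t) (hA : 1 ≤ A) (hC0 : 1 ≤ C0) (hQ : 0 ≤ Q)
    (hcc : 3 ≤ cc) (hε : 0 < ε0) (hθ : 0 < θ) (hθ1 : θ ≤ 1) (hhs : 0 < hs) :
    ∃ κ1 : ℝ, 0 < κ1 ∧ κ1 ≤ 1 ∧ ∀ (k : ℕ) (c : Ch m k) (K : Set (Euc k)) (D : Set (Euc m))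
      (U : Set (Euc k)) (V : Measure (Euc k × L k)) (z0 : Euc k) (zN : Euc k → Euc k)
      (κ D0 l0 : ℝ), 0 ≤ κ → κ ≤ κ1 → 0 ≤ D0 → D0 ≤ κ1 →
      FRef c K D U V z0 g g1 A C0 Q κ l0 zN hs →
      Soft c (V.restrict (K ×ˢ univ)) g g1 Q l0 cc ε0 →
      (∀ l ∈ Icc l0 (l0 + cc), Real.exp (-(2 * l)) * II c (V.restrict (K ×ˢ univ)) g1 l ≤ D0) →
      -θ * D0 ≤ Real.exp (-(2 * l0)) * (EE c (V.restrict (K ×ˢ univ)) g Q l0 -
        II c (V.restrict (K ×ˢ univ)) g1 l0 / 2) := by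
  obtain ⟨Lp, hLp, hLip⟩ := lip_of_ker hp.pr.k1
  have hA0 : 0 ≤ A := by linarith
  have hB0 : 0 ≤ B := (hp.nn 0 le_rfl).trans (hp.b0 0 le_rfl)
  have hG0 : 0 ≤ ∫ v : Euc m, g (‖v‖ ^ 2) := integral_nonneg fun v => hp.nn _ (by positivity)
  have hC1 : 0 ≤ C1 m A b0 := C1_nonneg hA0 hb0.le
  have hCg : 0 ≤ Cg m B C0 := Cg_nonneg hB0 (by linarith)
  set KK : ℝ := Kb m A B b0 C0 Q Lp (∫ v : Euc m, g (‖v‖ ^ 2)) with hKK
  have hK1 : 1 ≤ KK := by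
    have : 0 ≤ 2 * A * Cg m B C0 + 2 * C1 m A b0 * Cg m B C0 * (C1 m A b0 + A) +
      2 * A * C1 m A b0 + 16 * A ^ 2 * B + 512 * Lp * A * C1 m A b0 + 256 * Lp * A ^ 2 +
      A * B * (A + C1 m A b0) + Q * A * (∫ v : Euc m, g (‖v‖ ^ 2)) + 2 * Lp * C1 m A b0 ^ 2 := by
      positivity
    rw [hKK]
    unfold Kb
    linarith
  set ε : ℝ := min ε0 (min 1 (min (1 / (64 * (C1 m A b0 + 1))) (hs ^ 2 / (C1 m A b0 + 1))))
    with hεd
  have hεpos : 0 < ε := lt_min hε (lt_min one_pos (lt_min (by positivity) (by positivity)))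
  have hε1 : ε ≤ 1 := (min_le_right _ _).trans (min_le_left _ _)
  obtain ⟨κ1, hκ1, hκ11, hmain⟩ := lown (q := 1 / 2) (K := KK) (ε0 := ε) (θ := θ) (by norm_num)
    (by norm_num) hK1 hεpos hε1 hθ hθ1
  refine ⟨min κ1 (1 / A), lt_min hκ1 (by positivity), (min_le_left _ _).trans hκ11, ?_⟩
  intro k c K D U V z0 zN κ D0 l0 hκ hκ' hD0 hD0' hF hsoft hJ
  have hOn := On_of_Stat hF.ok.cpt hF.st hF.KU
  have hAκ : A * κ ≤ 1 := by
    have h1 : κ ≤ 1 / A := hκ'.trans (min_le_right _ _)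
    rw [le_div_iff₀ (by linarith)] at h1
    linarith
  refine hmain cc κ D0 l0 (EE c (V.restrict (K ×ˢ univ)) g Q) (II c (V.restrict (K ×ˢ univ)) g1)
    (by linarith) hκ (hκ'.trans (min_le_left _ _)) hD0 (hD0'.trans (min_le_left _ _)) hJ ?_ ?_ ?_
  · intro l _
    exact (hasDerivAt_II hF.ok hOn hp.pr.k1 l).differentiableAt
  · intro l hl
    exact (hasDerivAt_EE hF.ok hOn hp.pr.k0 Q (show l < l0 + 3 by linarith) hF.hD).differentiableAt
  · intro l hl S hS hSε hSb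
    have h1 : C1 m A b0 * S ≤ 1 / 64 := by
      have h2 : S ≤ 1 / (64 * (C1 m A b0 + 1)) :=
        hSε.trans ((min_le_right _ _).trans ((min_le_right _ _).trans (min_le_left _ _)))
      rw [le_div_iff₀ (by positivity)] at h2
      nlinarith
    have h1' : C1 m A b0 * S ≤ hs ^ 2 := by
      have h2 : S ≤ hs ^ 2 / (C1 m A b0 + 1) :=
        hSε.trans ((min_le_right _ _).trans ((min_le_right _ _).trans (min_le_right _ _)))
      rw [le_div_iff₀ (by positivity)] at h2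
      nlinarith
    have h3 : (1 / 2 : ℝ) / 128 * S * Real.exp (2 * l) = 1 / 256 * S * Real.exp (2 * l) := by ring
    rw [h3]
    have h8 := log_eight
    have h8' : 0 ≤ Real.log 8 := Real.log_nonneg (by norm_num)
    exact FRef.lv hm hF hhs.le hp hb0 hb hA hC0 hQ hLp hLip hκ hAκ hl hS (hSε.trans hε1) h1 h1'
      (hSb (l + Real.log 8) ⟨by linarith, by linarith⟩)
      (hsoft l hl S hS (hSε.trans (min_le_left _ _)) hSb)

end Crest.Agent.R234.LowF10_471
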