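import Crest.Agent.R234.Fd2_534

/-!
# Row 234, (F4) + (F11): F4 is needed only below a fixed level (helper471)

* `weak_up` : the weak lower bound of `E - I/2` at one level propagates upwards through a window on
  which the identities of one level hold.
* `fd_of_pre4` : 534's `fd_of_pre3` with (F4) required only on `[lo, l1]`, any `l1 ∈ [lo, t1]`.
-/

set_option autoImplicit false

open Set Real Filter Topology

namespace Crest.Agent.R234.LowF11_471

open Crest.Agent.R234.Pin1_3 (FD NN)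
open Crest.Agent.R234.Dbl_534
open Crest.Agent.R234.Fd_534
open Crest.Agent.R234.LowF1_471 (hasDerivAt_g)
open Crest.Agent.R234.LowF7_471 (Pre)

theorem weak_up {l1 t1 δ w M X : ℝ} {I E e b R : ℝ → ℝ} (h : Pre l1 t1 δ w I E e b R)
    (hδ : 0 ≤ δ) (hw : 0 ≤ w) (hM : ∀ l ∈ Icc l1 t1, e l + I l ≤ M)
    (h1 : -X ≤ E l1 - I l1 / 2) {l : ℝ} (hl : l ∈ Icc l1 t1) :
    -(exp (2 * (l - l1)) * (X + 4 * (l - l1) * (δ * M + w))) ≤ E l - I l / 2 := by
  have hl1 : l1 ∈ Icc l1 t1 := ⟨le_rfl, hl.1.trans hl.2⟩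
  have hM0 : 0 ≤ M := (add_nonneg (h.he l1 hl1) (h.hI l1 hl1)).trans (hM l1 hl1)
  set Y : ℝ := δ * M + w with hY
  have hY0 : 0 ≤ Y := by positivity
  set g : ℝ → ℝ := fun l => exp (-(2 * l)) * (E l - I l / 2) with hg
  -- derivative
  have hder : ∀ x ∈ Icc l1 t1, ∃ d, HasDerivAt g d x ∧ -(exp (-(2 * l1)) * (4 * Y)) ≤ d := by
    intro x hx
    obtain ⟨I', hI', hI''⟩ := h.dI x hx
    obtain ⟨E', hE', hE''⟩ := h.dE x hx
    refine ⟨_, hasDerivAt_g hE' hI', ?_⟩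
    have he := h.he x hx
    have hI0 := h.hI x hx
    have hR := h.hR x hx
    have hs := h.hCS x hx
    have hEe := h.hE x hx
    have hMx := hM x hx
    have a1 := (abs_le.1 hI'').2
    have a2 : 2 * Real.sqrt (I x * R x) ≤ R x + I x := by
      rw [Real.sqrt_mul hI0]
      have u1 := Real.sq_sqrt hI0
      have u2 := Real.sq_sqrt hR
      nlinarith [sq_nonneg (Real.sqrt (I x) - Real.sqrt (R x))]
    have a3 : δ * I x ≤ δ * M := mul_le_mul_of_nonneg_left (by linarith) hδ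
    have a4 : δ * (e x + I x) ≤ δ * M := mul_le_mul_of_nonneg_left hMx hδ
    have key : -(4 * Y) ≤ E' - I' / 2 - 2 * E x + I x := by
      rw [hY]
      have : 0 ≤ δ * M := mul_nonneg hδ hM0
      linarith
    have hp : 0 < exp (-(2 * x)) := exp_pos _
    have hpx : exp (-(2 * x)) ≤ exp (-(2 * l1)) := exp_le_exp.2 (by linarith [hx.1])
    calc -(exp (-(2 * l1)) * (4 * Y)) ≤ -(exp (-(2 * x)) * (4 * Y)) := by
          have := mul_le_mul_of_nonneg_right hpx (show 0 ≤ 4 * Y by linarith)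
          linarith
      _ = exp (-(2 * x)) * -(4 * Y) := by ring
      _ ≤ _ := mul_le_mul_of_nonneg_left key hp.le
  have hmono : MonotoneOn (fun x => g x + exp (-(2 * l1)) * (4 * Y) * x) (Icc l1 l) := by
    refine monotoneOn_of_deriv_nonneg (convex_Icc _ _) ?_ ?_ ?_
    · intro x hx
      obtain ⟨d, hd, -⟩ := hder x ⟨hx.1, hx.2.trans hl.2⟩
      exact (hd.add ((hasDerivAt_id x).const_mul _)).continuousAt.continuousWithinAt
    · intro x hx
      rw [interior_Icc] at hx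
      obtain ⟨d, hd, -⟩ := hder x ⟨hx.1.le, hx.2.le.trans hl.2⟩
      exact (hd.add ((hasDerivAt_id x).const_mul _)).differentiableAt.differentiableWithinAt
    · intro x hx
      rw [interior_Icc] at hx
      obtain ⟨d, hd, hd2⟩ := hder x ⟨hx.1.le, hx.2.le.trans hl.2⟩
      have h6 : HasDerivAt (fun x => g x + exp (-(2 * l1)) * (4 * Y) * x)
          (d + exp (-(2 * l1)) * (4 * Y) * 1) x := hd.add ((hasDerivAt_id x).const_mul _)
      rw [h6.deriv]
      linarith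
  have h7 := hmono (left_mem_Icc.2 hl.1) (right_mem_Icc.2 hl.1) hl.1
  simp only at h7
  have h8 : g l1 - exp (-(2 * l1)) * (4 * Y) * (l - l1) ≤ g l := by linarith
  have h9 : -(exp (-(2 * l1)) * X) ≤ g l1 := by
    have := mul_le_mul_of_nonneg_left h1 (exp_pos (-(2 * l1))).le
    simp only [hg]
    linarith
  have h10 := mul_le_mul_of_nonneg_left (h9.trans (by linarith : g l1 ≤ g l +
    exp (-(2 * l1)) * (4 * Y) * (l - l1))) (exp_pos (2 * l)).le
  have e1 : exp (2 * l) * exp (-(2 * l)) = 1 := by rw [← exp_add]; simp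
  have e2 : exp (2 * l) * exp (-(2 * l1)) = exp (2 * (l - l1)) := by
    rw [← exp_add]; congr 1; ring
  have e3 : exp (2 * l) * g l = E l - I l / 2 := by
    simp only [hg]
    rw [← mul_assoc, e1, one_mul]
  have e4 : exp (2 * l) * (g l + exp (-(2 * l1)) * (4 * Y) * (l - l1)) =
      exp (2 * l) * g l + (exp (2 * l) * exp (-(2 * l1))) * (4 * Y) * (l - l1) := by ring
  have e5 : exp (2 * l) * -(exp (-(2 * l1)) * X) = -((exp (2 * l) * exp (-(2 * l1))) * X) := by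
    ring
  rw [e4, e5, e3, e2] at h10
  calc -(exp (2 * (l - l1)) * (X + 4 * (l - l1) * Y)) =
      -(exp (2 * (l - l1)) * X) - exp (2 * (l - l1)) * (4 * Y) * (l - l1) := by ring
    _ ≤ _ := by linarith

theorem Pre.mono {a a' b₀ δ w : ℝ} {I E e b R : ℝ → ℝ} (h : Pre a b₀ δ w I E e b R)
    (ha : a ≤ a') : Pre a' b₀ δ w I E e b R where
  hI := fun l hl => h.hI l ⟨ha.trans hl.1, hl.2⟩
  he := fun l hl => h.he l ⟨ha.trans hl.1, hl.2⟩
  hR := fun l hl => h.hR l ⟨ha.trans hl.1, hl.2⟩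
  hE := fun l hl => h.hE l ⟨ha.trans hl.1, hl.2⟩
  dI := fun l hl => h.dI l ⟨ha.trans hl.1, hl.2⟩
  dE := fun l hl => h.dE l ⟨ha.trans hl.1, hl.2⟩
  hCS := fun l hl => h.hCS l ⟨ha.trans hl.1, hl.2⟩
  hb := fun l hl => h.hb l ⟨ha.trans hl.1, hl.2⟩

/-- `Fin` with (F4) only on `[lo, l1]` -/
structure Fin4 (q Cp Lw H1 hw et k0 c0 th : ℝ) : Prop where
  k : 0 < k0
  c : 0 < c0
  t : 0 < th
  main : ∀ (I E e b R : ℝ → ℝ) (lo l1 t0 t1 del w : ℝ), lo ≤ t0 → t1 - lo ≤ Lw →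
    t0 + hw ≤ t1 → t1 ≤ t0 + H1 → l1 ∈ Icc lo t1 → 0 ≤ del → del ≤ k0 → 0 ≤ w → w ≤ k0 * I t0 →
    0 < I t0 → Pre lo t1 del w I E e b R →
    (∀ l ∈ Icc lo l1, -(th * I t0) ≤ E l - I l / 2) →
    (∀ l ∈ Icc lo t1, e l ≤ exp (q * (t1 - l)) * e t1) →
    (∀ l ∈ Icc lo t1, I l ≤ exp (q * (t1 - l)) * I t1) →
    I t1 ≤ Cp * I t0 → e t1 ≤ Cp * I t0 →
    ∃ R' : ℝ → ℝ, (∀ l ∈ Icc lo t0, R l ≤ R' l) ∧ FD E I e b R' et lo t0 ∧
      (∀ l ∈ Icc lo t0, NN E I l ≤ Ctop q Cp H1) ∧ ∀ l ∈ Icc lo t0, c0 * I t0 ≤ I l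

theorem fd_of_pre4 {q Cp Lw H1 hw et : ℝ} (hq : 0 ≤ q) (hCp : 1 ≤ Cp) (hLw : 0 ≤ Lw)
    (hhw : 0 < hw) (hH1 : 0 ≤ H1) (het : 0 < et) (het1 : et ≤ 1 / 2) :
    ∃ k0 c0 th : ℝ, Fin4 q Cp Lw H1 hw et k0 c0 th := by
  obtain ⟨k0, c0, th, hT⟩ := fd_of_pre3 (q := q) (Cp := Cp) (Lw := Lw) (H1 := H1) (hw := hw)
    (et := et) hq hCp hLw hhw hH1 het het1
  have hk := hT.k
  have ht := hT.t
  set X : ℝ := exp (q * Lw) with hX
  have hX1 : 1 ≤ X := one_le_exp (by positivity)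
  set M : ℝ := 2 * X * Cp with hMd
  have hM0 : 0 < M := by rw [hMd]; positivity
  set P : ℝ := 8 * exp (2 * Lw) * (Lw + 1) * (M + 1) with hP
  have hP0 : 0 < P := by rw [hP]; positivity
  set k1 : ℝ := min k0 (th / P) with hk1
  have hk1pos : 0 < k1 := lt_min hk (div_pos ht hP0)
  refine ⟨k1, c0, th * exp (-(2 * Lw)) / 2, hk1pos, hT.c, by positivity, ?_⟩
  intro I E e b R lo l1 t0 t1 del w hlo ht1 htw htH hl1 hdel hdelk hw hwk hIt0 h hlow he hI hI1 he1
  have hkk : k1 ≤ k0 := min_le_left _ _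
  have hwk0 : w ≤ k0 * I t0 := hwk.trans (mul_le_mul_of_nonneg_right hkk hIt0.le)
  have hXl : ∀ l ∈ Icc lo t1, exp (q * (t1 - l)) ≤ X := by
    intro l hl
    apply exp_le_exp.2
    apply mul_le_mul_of_nonneg_left _ hq
    linarith [hl.1]
  have hlot1 : lo ≤ t1 := by linarith
  have het1' : 0 ≤ e t1 := h.he t1 ⟨hlot1, le_rfl⟩
  have hIt1' : 0 ≤ I t1 := h.hI t1 ⟨hlot1, le_rfl⟩
  have hsum : ∀ l ∈ Icc lo t1, e l + I l ≤ M * I t0 := by
    intro l hl
    have a1 : e l ≤ X * (Cp * I t0) := (he l hl).trans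
      (mul_le_mul (hXl l hl) he1 het1' (by linarith))
    have a2 : I l ≤ X * (Cp * I t0) := (hI l hl).trans
      (mul_le_mul (hXl l hl) hI1 hIt1' (by linarith))
    have e1 : M * I t0 = X * (Cp * I t0) + X * (Cp * I t0) := by rw [hMd]; ring
    linarith
  refine hT.main I E e b R lo t0 t1 del w hlo ht1 htw htH hdel (hdelk.trans hkk) hw hwk0 hIt0 h
    ?_ he hI hI1 he1
  intro l hl
  have hexp1 : exp (-(2 * Lw)) ≤ 1 := exp_le_one_iff.2 (by linarith)
  rcases le_total l l1 with h1 | h1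
  · have h2 := hlow l ⟨hl.1, h1⟩
    have h3 : th * exp (-(2 * Lw)) / 2 * I t0 ≤ th * I t0 := by
      refine mul_le_mul_of_nonneg_right ?_ hIt0.le
      have := mul_le_mul_of_nonneg_left hexp1 ht.le
      linarith
    linarith
  · have h2 := weak_up (Pre.mono h hl1.1) hdel hw (M := M * I t0)
      (fun x hx => hsum x ⟨hl1.1.trans hx.1, hx.2⟩) (hlow l1 ⟨hl1.1, le_rfl⟩) (l := l)
      ⟨h1, hl.2⟩
    refine le_trans (neg_le_neg ?_) h2
    have b1 : exp (2 * (l - l1)) ≤ exp (2 * Lw) := exp_le_exp.2 (by linarith [hl1.1, hl.2])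
    have b2 : l - l1 ≤ Lw + 1 := by linarith [hl1.1, hl.2]
    have b3 : del * (M * I t0) + w ≤ k1 * (M + 1) * I t0 := by
      have c1 : del * (M * I t0) ≤ k1 * (M * I t0) :=
        mul_le_mul_of_nonneg_right hdelk (by positivity)
      have c2 : k1 * (M + 1) * I t0 = k1 * (M * I t0) + k1 * I t0 := by ring
      linarith
    have b0 : 0 ≤ l - l1 := by linarith
    have hd0 : 0 ≤ del * (M * I t0) + w := by positivity
    have b4 : 4 * (l - l1) * (del * (M * I t0) + w) ≤ 4 * (Lw + 1) * (k1 * (M + 1) * I t0) :=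
      mul_le_mul (by linarith) b3 hd0 (by positivity)
    have b5 : k1 * P ≤ th := by
      have : k1 ≤ th / P := min_le_right _ _
      rwa [le_div_iff₀ hP0] at this
    have b6 : exp (2 * Lw) * exp (-(2 * Lw)) = 1 := by rw [← exp_add]; simp
    calc exp (2 * (l - l1)) * (th * exp (-(2 * Lw)) / 2 * I t0 +
          4 * (l - l1) * (del * (M * I t0) + w)) ≤
        exp (2 * Lw) * (th * exp (-(2 * Lw)) / 2 * I t0 +
          4 * (Lw + 1) * (k1 * (M + 1) * I t0)) := by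
          refine mul_le_mul b1 (by linarith) ?_ (exp_pos _).le
          have : 0 ≤ 4 * (l - l1) * (del * (M * I t0) + w) := by positivity
          positivity
      _ = th / 2 * I t0 * (exp (2 * Lw) * exp (-(2 * Lw))) + (k1 * P) / 2 * I t0 := by
          rw [hP]; ring
      _ ≤ th / 2 * I t0 + th / 2 * I t0 := by
          rw [b6, mul_one]
          have : (k1 * P) / 2 * I t0 ≤ th / 2 * I t0 :=
            mul_le_mul_of_nonneg_right (by linarith) hIt0.le
          linarith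
      _ = th * I t0 := by ring

end Crest.Agent.R234.LowF11_471
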