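import Crest.Agent.R234.Gi5_456
import Crest.Agent.R234.LowF10_471

/-!
# Row 234, (F4) LOW FREQUENCY, instance part 1 (helper471): pointwise inequalities of the foot chart

Centre `X0 = 0`, `w 0 = 0`: squared distance to the base point, density `j`, weight `mu`.
-/

set_option autoImplicit false

open MeasureTheory Filter Topology Set Function
open scoped ENNReal NNReal ContDiff InnerProductSpace
open Crest.GeometryTopology.Submanifold Crest.Agent.R234.Vf_884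
open Crest.Agent.R234.Main_456
open Crest.Agent.R234.Gi_456

noncomputable section

namespace Crest.Agent.R234.LowF12_471

variable {m n k : ℕ}

local notation "adj" => ContinuousLinearMap.adjoint

/-- global bounds of the graph function -/
structure Bw (w : Euc m → Euc n) (K1 K2 : ℝ) : Prop where
  d1 : ∀ X, ‖fderiv ℝ w X‖ ≤ K1
  d2 : ∀ X, ‖fderiv ℝ (fderiv ℝ w) X‖ ≤ K2

variable {π : Euc k →L[ℝ] Euc m} {ρ : Euc k →L[ℝ] Euc n} {x : Euc k} {r : ℝ} {w : Euc m → Euc n}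
  {K1 K2 : ℝ}

theorem Bw.K1n (h : Bw w K1 K2) : 0 ≤ K1 := (norm_nonneg _).trans (h.d1 0)

theorem Bw.K2n (h : Bw w K1 K2) : 0 ≤ K2 := (norm_nonneg (fderiv ℝ (fderiv ℝ w) 0)).trans (h.d2 0)

theorem Bw.lip' (hb : Bw w K1 K2) (h : Gr r w) (X X' : Euc m) :
    ‖fderiv ℝ w X - fderiv ℝ w X'‖ ≤ K2 * ‖X - X'‖ :=
  convex_univ.norm_image_sub_le_of_norm_fderiv_le (𝕜 := ℝ) (fun z _ => h.differentiable' z)
    (fun z _ => hb.d2 z) (mem_univ X') (mem_univ X)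

theorem Bw.lip (hb : Bw w K1 K2) (h : Gr r w) (X X' : Euc m) :
    ‖w X - w X'‖ ≤ K1 * ‖X - X'‖ :=
  convex_univ.norm_image_sub_le_of_norm_fderiv_le (𝕜 := ℝ) (fun z _ => h.differentiable z)
    (fun z _ => hb.d1 z) (mem_univ X') (mem_univ X)

/-- first order Taylor bound -/
theorem Bw.taylor (hb : Bw w K1 K2) (h : Gr r w) (X X' : Euc m) :
    ‖w X' - w X - fderiv ℝ w X (X' - X)‖ ≤ K2 * ‖X' - X‖ ^ 2 := by
  have hK := hb.K2n
  have h1 := (convex_segment X X').norm_image_sub_le_of_norm_hasFDerivWithin_le (𝕜 := ℝ)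
    (f := fun ξ => w ξ - fderiv ℝ w X ξ) (f' := fun ξ => fderiv ℝ w ξ - fderiv ℝ w X)
    (C := K2 * ‖X' - X‖)
    (fun ξ _ => ((h.differentiable ξ).hasFDerivAt.sub
      (fderiv ℝ w X).hasFDerivAt).hasFDerivWithinAt) (fun ξ hξ => by
      refine (hb.lip' h ξ X).trans ?_
      refine mul_le_mul_of_nonneg_left ?_ hK
      obtain ⟨a, b, ha, hb', hab, rfl⟩ := hξ
      have e : a • X + b • X' - X = b • (X' - X) := by
        have : a = 1 - b := by linarith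
        rw [this, smul_sub, sub_smul, one_smul]; abel
      rw [e, norm_smul, Real.norm_eq_abs, abs_of_nonneg hb']
      have hb1 : b ≤ 1 := by linarith
      calc b * ‖X' - X‖ ≤ 1 * ‖X' - X‖ := by gcongr
        _ = _ := one_mul _)
    (left_mem_segment ℝ X X') (right_mem_segment ℝ X X')
  have h2 : w X' - w X - fderiv ℝ w X (X' - X) =
      (w X' - fderiv ℝ w X X') - (w X - fderiv ℝ w X X) := by
    rw [map_sub]; abel
  rw [h2]
  refine h1.trans (le_of_eq ?_)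
  ring

theorem frame_norm_sq (hf : Frame π ρ) (v : Euc k) : ‖v‖ ^ 2 = ‖π v‖ ^ 2 + ‖ρ v‖ ^ 2 := by
  have h1 : ⟪v, v⟫_ℝ = ⟪adj π (π v) + adj ρ (ρ v), v⟫_ℝ := by rw [Frame.full_apply hf v]
  rw [inner_add_left, ContinuousLinearMap.adjoint_inner_left,
    ContinuousLinearMap.adjoint_inner_left, real_inner_self_eq_norm_sq, real_inner_self_eq_norm_sq,
    real_inner_self_eq_norm_sq] at h1
  exact h1

theorem norm_Bt_sq (hf : Frame π ρ) (X : Euc m) (Y : Euc n) :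
    ‖Bt π ρ w X Y‖ ^ 2 = ‖Y‖ ^ 2 + ‖adj (fderiv ℝ w X) Y‖ ^ 2 := by
  have e : Bt π ρ w X Y = adj ρ Y - adj π (adj (fderiv ℝ w X) Y) := rfl
  rw [frame_norm_sq hf, e, map_sub, map_sub, pi_adj_rho hf, pi_adj hf, rho_adj hf, rho_adj_pi hf,
    zero_sub, sub_zero, norm_neg]
  ring

theorem norm_yy_le_nu (hf : Frame π ρ) (X : Euc m) (Y : Euc n) : ‖Y‖ ≤ ‖Bt π ρ w X Y‖ := by
  have h := norm_Bt_sq (w := w) hf X Y
  refine le_of_sq_le_sq ?_ (norm_nonneg _)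
  rw [h]
  nlinarith [sq_nonneg ‖adj (fderiv ℝ w X) Y‖]

/-- the squared distance to the base point in the chart -/
theorem norm_sub_sq (h : Gr r w) (hf : Frame π ρ) {z : Euc k} (hz : z ∈ tube π ρ x r w) :
    ‖z - x‖ ^ 2 = ‖foot π ρ x r w z‖ ^ 2 + ‖w (foot π ρ x r w z)‖ ^ 2 +
      ‖Bt π ρ w (foot π ρ x r w z) (yy π ρ x r w z)‖ ^ 2 +
      2 * ⟪w (foot π ρ x r w z) - fderiv ℝ w (foot π ρ x r w z) (foot π ρ x r w z),
        yy π ρ x r w z⟫_ℝ := by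
  have e := h.Phi_coord hf hz
  set X := foot π ρ x r w z with hX
  set Y := yy π ρ x r w z with hY
  have h1 : π (z - x) = X - adj (fderiv ℝ w X) Y := by
    rw [← e]; exact pi_Phi hf (X, Y)
  have h2 : ρ (z - x) = w X + Y := by
    rw [← e]; exact rho_Phi hf (X, Y)
  rw [frame_norm_sq hf (z - x), h1, h2, norm_Bt_sq hf, norm_sub_sq_real, norm_add_sq_real,
    inner_sub_left, ContinuousLinearMap.adjoint_inner_right]
  ring

/-- (dist) -/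
theorem dist_le (h : Gr r w) (hb : Bw w K1 K2) (hf : Frame π ρ) (hw0 : w 0 = 0) {z : Euc k}
    (hz : z ∈ tube π ρ x r w) :
    (1 - 2 * (K1 * K2) * ‖(ch π ρ x r w 0).x z‖) * ‖(ch π ρ x r w 0).x z‖ ^ 2 +
      ‖(ch π ρ x r w 0).nu z‖ ^ 2 -
      2 * (K2 * ‖(ch π ρ x r w 0).x z‖ ^ 2 * ‖(ch π ρ x r w 0).nu z‖) ≤ ‖z - x‖ ^ 2 := by
  have hK1 := hb.K1n
  have hK2 := hb.K2n
  have hx : (ch π ρ x r w 0).x z = Lo (fderiv ℝ w 0) (foot π ρ x r w z) := by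
    simp [ch]
  have hnu : (ch π ρ x r w 0).nu z = Bt π ρ w (foot π ρ x r w z) (yy π ρ x r w z) := rfl
  rw [norm_sub_sq h hf hz, hx, hnu]
  set X := foot π ρ x r w z with hX
  set Y := yy π ρ x r w z with hY
  set q0 := fderiv ℝ w 0 with hq0
  set a := ‖Lo q0 X‖ with ha
  set b := ‖Bt π ρ w X Y‖ with hbdef
  have ha2 : a ^ 2 = ‖X‖ ^ 2 + ‖q0 X‖ ^ 2 := norm_Lo_sq q0 X
  have hXa : ‖X‖ ≤ a := le_norm_Lo q0 X
  have hYb : ‖Y‖ ≤ b := norm_yy_le_nu hf X Y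
  have hX0 := norm_nonneg X
  have hY0 := norm_nonneg Y
  have t1 : ‖w X - fderiv ℝ w X X‖ ≤ K2 * ‖X‖ ^ 2 := by
    have h1 := hb.taylor h X 0
    have e : w 0 - w X - fderiv ℝ w X (0 - X) = -(w X - fderiv ℝ w X X) := by
      rw [hw0, zero_sub, zero_sub, map_neg]; abel
    rw [e, norm_neg, zero_sub, norm_neg] at h1
    exact h1
  have t2 : ‖w X - q0 X‖ ≤ K2 * ‖X‖ ^ 2 := by
    have h1 := hb.taylor h 0 X
    rw [hw0, sub_zero, sub_zero] at h1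
    exact h1
  have t3 : ‖q0 X‖ ≤ K1 * ‖X‖ := (q0.le_opNorm X).trans (by gcongr; exact hb.d1 0)
  -- `|w X|² ≥ |q0 X|² - 2 K1 K2 |X|³`
  have t4 : ‖q0 X‖ ^ 2 - 2 * (K1 * K2) * ‖X‖ ^ 3 ≤ ‖w X‖ ^ 2 := by
    have e : ‖w X‖ ^ 2 = ‖q0 X‖ ^ 2 + 2 * ⟪q0 X, w X - q0 X⟫_ℝ + ‖w X - q0 X‖ ^ 2 := by
      rw [← norm_add_sq_real]; congr 2; abel
    have h1 : |⟪q0 X, w X - q0 X⟫_ℝ| ≤ (K1 * ‖X‖) * (K2 * ‖X‖ ^ 2) :=
      (abs_real_inner_le_norm _ _).trans (mul_le_mul t3 t2 (norm_nonneg _) (by positivity))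
    have h2 := (abs_le.1 h1).1
    rw [e]
    nlinarith [sq_nonneg ‖w X - q0 X‖]
  have t5 : -(K2 * ‖X‖ ^ 2 * ‖Y‖) ≤ ⟪w X - fderiv ℝ w X X, Y⟫_ℝ := by
    have h1 : |⟪w X - fderiv ℝ w X X, Y⟫_ℝ| ≤ (K2 * ‖X‖ ^ 2) * ‖Y‖ :=
      (abs_real_inner_le_norm _ _).trans (mul_le_mul_of_nonneg_right t1 hY0)
    exact (abs_le.1 h1).1
  have t6 : 2 * (K1 * K2) * ‖X‖ ^ 3 ≤ 2 * (K1 * K2) * a ^ 3 := by gcongr
  have t7 : K2 * ‖X‖ ^ 2 * ‖Y‖ ≤ K2 * a ^ 2 * b := by gcongr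
  have e1 : (1 - 2 * (K1 * K2) * a) * a ^ 2 = a ^ 2 - 2 * (K1 * K2) * a ^ 3 := by ring
  rw [e1, ha2]
  rw [ha2] at t7
  linarith

/-- (dist2) -/
theorem dist2_le (h : Gr r w) (hf : Frame π ρ) (hw0 : w 0 = 0) {z : Euc k}
    (hz : z ∈ tube π ρ x r w) :
    ‖z - x‖ ≤ 5 / 4 * ‖(ch π ρ x r w 0).x z‖ + ‖(ch π ρ x r w 0).nu z‖ := by
  have hx : (ch π ρ x r w 0).x z = Lo (fderiv ℝ w 0) (foot π ρ x r w z) := by
    simp [ch]
  have hnu : (ch π ρ x r w 0).nu z =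
      z - (x + adj π (foot π ρ x r w z) + adj ρ (w (foot π ρ x r w z))) := h.nu_eq hf hz
  rw [hx]
  set X := foot π ρ x r w z with hX
  have h1 : z - x = (adj π X + adj ρ (w X)) + (ch π ρ x r w 0).nu z := by
    rw [hnu]; abel
  have h2 : ‖adj π X + adj ρ (w X)‖ ≤ 5 / 4 * ‖X‖ := by
    have e := frame_norm_sq hf (adj π X + adj ρ (w X))
    rw [map_add, map_add, pi_adj hf, pi_adj_rho hf, rho_adj_pi hf, rho_adj hf, add_zero,
      zero_add] at e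
    have h3 : ‖w X‖ ≤ 1 / 8 * ‖X‖ := by
      have := h.lip X 0
      rwa [hw0, sub_zero, sub_zero] at this
    refine le_of_sq_le_sq ?_ (by positivity)
    rw [e]
    nlinarith [norm_nonneg X, norm_nonneg (w X)]
  have h4 : ‖X‖ ≤ ‖Lo (fderiv ℝ w 0) X‖ := le_norm_Lo _ X
  rw [h1]
  refine (norm_add_le _ _).trans ?_
  linarith

/-- the density of the base -/
theorem jB_le (h : Gr r w) (hb : Bw w K1 K2) (X0 : Euc m) {v : Euc m}
    (hs : m * (K1 * K2) * ‖v‖ ≤ 1) : jB w X0 v ≤ 1 + 2 * (m * (K1 * K2)) * ‖v‖ := by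
  have hK1 := hb.K1n
  have hK2 := hb.K2n
  have hd : ∀ u, HasFDerivAt (fun u => Real.log (jB w X0 u))
      ((jB w X0 u)⁻¹ • fderiv ℝ (jB w X0) u) u := fun u =>
    ((((h.contDiff_j X0).differentiable (by norm_num)) u).hasFDerivAt).log (jB_pos w X0 u).ne'
  have hn : ∀ u, ‖(jB w X0 u)⁻¹ • fderiv ℝ (jB w X0) u‖ ≤ m * (K1 * K2) := by
    intro u
    have h1 : ‖lamB w X0 u‖ = ‖(jB w X0 u)⁻¹ • fderiv ℝ (jB w X0) u‖ := by
      rw [lamB]; exact LinearIsometryEquiv.norm_map _ _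
    rw [← h1]
    refine (h.norm_lam X0 u).trans ?_
    gcongr
    · exact hb.d1 _
    · exact hb.d2 _
  have h2 := convex_univ.norm_image_sub_le_of_norm_hasFDerivWithin_le (𝕜 := ℝ)
    (f := fun u => Real.log (jB w X0 u)) (C := m * (K1 * K2))
    (fun u _ => (hd u).hasFDerivWithinAt) (fun u _ => hn u) (mem_univ 0) (mem_univ v)
  rw [jB_zero, Real.log_one, sub_zero, sub_zero, Real.norm_eq_abs] at h2
  have h3 := (abs_le.1 h2).2
  set t := m * (K1 * K2) * ‖v‖ with ht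
  have ht0 : 0 ≤ t := by positivity
  have h4 : jB w X0 v ≤ Real.exp t := by
    rw [← Real.log_le_iff_le_exp (jB_pos w X0 v)]; exact h3
  have h5 : Real.exp t ≤ 1 + 2 * t := by
    have h6 := Real.abs_exp_sub_one_le (x := t) (by rw [abs_of_nonneg ht0]; exact hs)
    rw [abs_of_nonneg ht0] at h6
    have := (abs_le.1 h6).2
    linarith
  calc jB w X0 v ≤ 1 + 2 * t := h4.trans h5
    _ = _ := by rw [ht]; ring

/-- the weight of the base -/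
theorem Bw.pt (h : Gr r w) (hb : Bw w K1 K2) (X0 : Euc m) {v : Euc m}
    (hs : 3 * (K1 * K2) * ‖v‖ ≤ 1 / 4) :
    Pt (giB w X0) (3 * (K1 * K2)) v (fderiv ℝ (giB w X0) v) := by
  have hK1 := hb.K1n
  refine h.pt_of X0 hs (fun u _ => ?_)
  gcongr
  · exact hb.d1 _
  · exact hb.d2 _

end Crest.Agent.R234.LowF12_471
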