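import Crest.Agent.R234.F11a_435
import Crest.Agent.R234.Supm4_685
import Crest.Agent.R234.Nr1_884

/-!
# Row 234, VF-F11 (helper435): V-level instance of `Pin3_3.Data`, part 1: basic estimates

Heights, distances and masses at a reference `Ref V Q x r π ρ u K ε C` for a stationary varifold
with densities `≥ 1` almost everywhere.
-/

set_option autoImplicit false
set_option linter.unusedVariables false

open MeasureTheory Filter Topology Set Metric
open scoped ENNReal NNReal ContDiff InnerProductSpace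
open Crest.GeometryTopology.Submanifold Crest.Agent.R234.Vf_884
open Crest.Agent.R234.Main_456 Crest.Agent.R234.F11_435
open Crest.Agent.R234.Strat3_842 (tilt height)
open Crest.Agent.R234.AS_456 (hp vp)

noncomputable section

namespace Crest.Agent.R234.Pd_435

variable {m n k : ℕ}

/-- the context: a reference graph for a stationary varifold with density `≥ 1` a.e. -/
structure Cx (U : Set (Euc k)) (V : Measure (Euc k × L k)) (Q K : ℕ) (x : Euc k) (r : ℝ)
    (π : Euc k →L[ℝ] Euc m) (ρ : Euc k →L[ℝ] Euc n) (u : Euc m → Euc n) (ε C : ℝ) : Prop where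
  hm : 1 ≤ m
  st : Stat m k U V
  th : ∀ᵐ p ∂V, p.1 ∈ U → 1 ≤ Th m V p.1
  hr : 0 < r
  hU : closedBall x (128 * r) ⊆ U
  ref : Ref V Q x r π ρ u K ε C
  hK : 2 ≤ K
  e0 : 0 ≤ ε
  e1 : ε ≤ 1
  e2 : 64 * m * ε ^ 2 ≤ 1
  e4 : ε ≤ 1 / 4

variable {U : Set (Euc k)} {V : Measure (Euc k × L k)} {Q K : ℕ} {x : Euc k} {r : ℝ}
  {π : Euc k →L[ℝ] Euc m} {ρ : Euc k →L[ℝ] Euc n} {u : Euc m → Euc n} {ε C : ℝ}

namespace Cx

variable (h : Cx U V Q K x r π ρ u ε C)

include h

theorem cu : Continuous u := h.ref.smooth.continuous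

theorem u_le {ξ : Euc m} (hξ : ‖ξ‖ < 32) : ‖u ξ‖ ≤ ε := by
  have := h.ref.small 0 (Nat.zero_le _) ξ (by simpa using hξ)
  simpa using this

theorem du_le {ξ : Euc m} (hξ : ‖ξ‖ < 32) : ‖fderiv ℝ u ξ‖ ≤ ε := by
  have h1 := h.ref.small 1 (by have := h.hK; omega) ξ (by simpa using hξ)
  rwa [norm_iteratedFDeriv_one] at h1

theorem d2u_le {ξ : Euc m} (hξ : ‖ξ‖ < 32) : ‖iteratedFDeriv ℝ 2 u ξ‖ ≤ ε :=
  h.ref.small 2 h.hK ξ (by simpa using hξ)

theorem lip {ξ ζ : Euc m} (hξ : ‖ξ‖ < 32) (hζ : ‖ζ‖ < 32) : ‖u ξ - u ζ‖ ≤ ε * ‖ξ - ζ‖ := by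
  refine (convex_ball (0 : Euc m) 32).norm_image_sub_le_of_norm_fderiv_le (𝕜 := ℝ)
    (fun y _ => (h.ref.smooth.differentiable (by simp)).differentiableAt) (fun y hy => h.du_le ?_)
    (by simpa using hζ) (by simpa using hξ)
  simpa using hy

theorem base_lt {a : ℝ} {p : Euc k} (hp : ‖π (p - x)‖ < a * r) : ‖r⁻¹ • π (p - x)‖ < a := by
  rw [norm_smul, norm_inv, Real.norm_of_nonneg h.hr.le, inv_mul_lt_iff₀ h.hr]
  linarith

theorem mass64 : V.real (ball x (64 * r) ×ˢ univ) ≤ (Q + 1) * (ome m * (64 * r) ^ m) :=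
  Nr_884.mass_of_near (by have := h.hr; positivity) h.e1 h.ref.near.2.2

theorem fin64 : V (closedBall x (64 * r) ×ˢ univ) < ⊤ :=
  h.st.fin _ (isCompact_closedBall _ _)
    ((closedBall_subset_closedBall (by have := h.hr; linarith)).trans h.hU)

theorem fin_box : V (box π ρ x (8 * r) ×ˢ univ) < ⊤ :=
  (measure_mono (prod_mono ((box_subset_ball h.ref.frame h.hr).trans ball_subset_closedBall)
    subset_rfl)).trans_lt h.fin64

/-- heights over the plane, integrated. -/
theorem near_rho : ∫ p in ball x (64 * r) ×ˢ univ, ‖ρ (p.1 - x)‖ ^ 2 ∂V ≤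
    ε * (64 * r) ^ (m + 2) := by
  have hr := h.hr
  have hf := h.ref.frame
  have hfin : V (ball x (64 * r) ×ˢ univ) < ⊤ :=
    (measure_mono (prod_mono ball_subset_closedBall subset_rfl)).trans_lt h.fin64
  have hm' : MeasurableSet (ball x (64 * r) ×ˢ (univ : Set (L k))) :=
    measurableSet_ball.prod MeasurableSet.univ
  have i1 : IntegrableOn (fun p : Euc k × L k => ‖ρ (p.1 - x)‖ ^ 2) (ball x (64 * r) ×ˢ univ) V := by
    refine Measure.integrableOn_of_bounded (M := (64 * r) ^ 2) hfin.ne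
      (Continuous.aestronglyMeasurable (by fun_prop)) ?_
    refine (ae_restrict_iff' hm').2 (ae_of_all _ ?_)
    rintro ⟨p, P⟩ ⟨hp, -⟩
    rw [mem_ball, dist_eq_norm] at hp
    rw [Real.norm_of_nonneg (by positivity)]
    have := norm_rho_le hf (p - x)
    gcongr
    simp only
    linarith
  refine le_trans ?_ h.ref.near.2.1
  have hP := h.ref.near.1
  have hcont : Continuous fun p : Euc k × L k =>
      (64 * r) ^ 2 * tilt (hp π) p + height (hp π) x p := by
    unfold tilt height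
    refine (continuous_const.mul (tr.continuous.comp (continuous_const.clm_comp continuous_snd))).add
      ?_
    have : Continuous fun p : Euc k × L k => p.1 - x := by fun_prop
    exact ((this.sub ((hp π).continuous.comp this)).norm).pow 2
  have hi2 : IntegrableOn (fun p : Euc k × L k => (64 * r) ^ 2 * tilt (hp π) p + height (hp π) x p)
      (ball x (64 * r) ×ˢ univ) V := by
    have hK : IsCompact (closedBall x (64 * r) ×ˢ G m k) :=
      (isCompact_closedBall _ _).prod (isCompact_G m k)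
    obtain ⟨B, hB⟩ := hK.exists_bound_of_continuousOn hcont.continuousOn
    refine Measure.integrableOn_of_bounded (M := B) hfin.ne hcont.aestronglyMeasurable ?_
    filter_upwards [ae_restrict_mem hm', ae_restrict_of_ae h.st.conc] with p hp hp2
    exact hB p ⟨ball_subset_closedBall hp.1, hp2⟩
  refine setIntegral_mono_ae_restrict i1 hi2 ?_
  filter_upwards [ae_restrict_of_ae h.st.conc] with p hp2
  have h1 : height (hp π) x p = ‖ρ (p.1 - x)‖ ^ 2 := by
    unfold height
    rw [Nr_884.norm_compl_hp hf]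
  have h2 : 0 ≤ tilt (hp π) p := Strat3_842.tr_perp_nonneg hp2 hP
  rw [h1]
  have : 0 ≤ (64 * r) ^ 2 * tilt (hp π) p := by positivity
  linarith

/-- the height excess is small -/
theorem sep_le : sep V π ρ x r u 8 ≤
    (2 * 64 ^ (m + 2) + 2 * ((Q + 1) * (ome m * 64 ^ m))) * ε * r ^ (m + 2) := by
  have hr := h.hr
  have hf := h.ref.frame
  have hbox := box_subset_ball hf hr (x := x)
  have hmb : MeasurableSet (box π ρ x (8 * r)) := (isOpen_box π ρ x _).measurableSet
  have hfin : V (ball x (64 * r) ×ˢ univ) < ⊤ :=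
    (measure_mono (prod_mono ball_subset_closedBall subset_rfl)).trans_lt h.fin64
  have hm' : MeasurableSet (ball x (64 * r) ×ˢ (univ : Set (L k))) :=
    measurableSet_ball.prod MeasurableSet.univ
  have i1 : IntegrableOn (fun p : Euc k × L k => ‖ρ (p.1 - x)‖ ^ 2) (ball x (64 * r) ×ˢ univ) V := by
    refine Measure.integrableOn_of_bounded (M := (64 * r) ^ 2) hfin.ne
      (Continuous.aestronglyMeasurable (by fun_prop)) ?_
    refine (ae_restrict_iff' hm').2 (ae_of_all _ ?_)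
    rintro ⟨p, P⟩ ⟨hp, -⟩
    rw [mem_ball, dist_eq_norm] at hp
    rw [Real.norm_of_nonneg (by positivity)]
    have := norm_rho_le hf (p - x)
    gcongr
    simp only
    linarith
  have e3 := h.near_rho
  have e1 : sep V π ρ x r u 8 ≤
      ∫ p in box π ρ x (8 * r) ×ˢ univ, (2 * ‖ρ (p.1 - x)‖ ^ 2 + 2 * (r * ε) ^ 2) ∂V := by
    unfold sep
    have hu9 : ∀ p ∈ box π ρ x (8 * r), ‖(fun p => ‖hgt π ρ x r u p‖ ^ 2) p‖ ≤ (9 * r) ^ 2 := by
      intro p hp
      simp only
      rw [Real.norm_of_nonneg (by positivity)]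
      have := norm_hgt_le hr h.e1 (fun ξ hξ => h.u_le (by simpa using hξ)) hp
      gcongr
    have i0 := F11_435.integrableOn_box h.fin_box
      (f := fun p => ‖hgt π ρ x r u p‖ ^ 2) ((continuous_hgt h.cu).norm.pow 2) hu9
    have i1' : IntegrableOn (fun p : Euc k × L k => 2 * ‖ρ (p.1 - x)‖ ^ 2 + 2 * (r * ε) ^ 2)
        (box π ρ x (8 * r) ×ˢ univ) V :=
      ((i1.mono_set (prod_mono hbox subset_rfl)).const_mul 2).add
        (integrableOn_const h.fin_box.ne)
    refine setIntegral_mono_on i0 i1' (hmb.prod MeasurableSet.univ) ?_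
    rintro ⟨p, P⟩ ⟨hp, -⟩
    simp only
    have h1 : ‖hgt π ρ x r u p‖ ≤ ‖ρ (p - x)‖ + r * ε := by
      unfold hgt
      refine (norm_sub_le _ _).trans ?_
      rw [norm_smul, Real.norm_of_nonneg hr.le]
      have := h.u_le (ξ := r⁻¹ • π (p - x)) ((h.base_lt hp.1).trans (by norm_num))
      gcongr
    have h2 : ‖hgt π ρ x r u p‖ ^ 2 ≤ (‖ρ (p - x)‖ + r * ε) ^ 2 :=
      pow_le_pow_left₀ (norm_nonneg _) h1 2
    nlinarith [sq_nonneg (‖ρ (p - x)‖ - r * ε)]
  have i2 : ∫ p in box π ρ x (8 * r) ×ˢ univ, (2 * ‖ρ (p.1 - x)‖ ^ 2 + 2 * (r * ε) ^ 2) ∂V ≤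
      ∫ p in ball x (64 * r) ×ˢ univ, (2 * ‖ρ (p.1 - x)‖ ^ 2 + 2 * (r * ε) ^ 2) ∂V := by
    refine setIntegral_mono_set ((i1.const_mul 2).add (integrableOn_const hfin.ne))
      (ae_of_all _ fun p => by positivity) (LE.le.eventuallyLE (prod_mono hbox subset_rfl))
  rw [integral_add (i1.const_mul 2) (integrableOn_const hfin.ne), integral_const_mul,
    setIntegral_const, smul_eq_mul] at i2
  have e4 := h.mass64
  have hε2 : ε ^ 2 ≤ ε := by nlinarith [h.e0, h.e1]
  have home := ome_pos m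
  calc sep V π ρ x r u 8
      ≤ 2 * (ε * (64 * r) ^ (m + 2)) + (Q + 1) * (ome m * (64 * r) ^ m) * (2 * (r * ε) ^ 2) := by
        refine (e1.trans i2).trans ?_
        gcongr
    _ = 2 * 64 ^ (m + 2) * ε * r ^ (m + 2) +
        2 * ((Q + 1) * (ome m * 64 ^ m)) * ε ^ 2 * r ^ (m + 2) := by ring
    _ ≤ 2 * 64 ^ (m + 2) * ε * r ^ (m + 2) +
        2 * ((Q + 1) * (ome m * 64 ^ m)) * ε * r ^ (m + 2) := by
        have := hr
        gcongr
    _ = _ := by ring

/-- **pointwise height bound** at points of density `≥ 1`. -/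
theorem sup8 {p : Euc k} (hp : p ∈ box π ρ x (7 * r)) (h1 : 1 ≤ Th m V p) :
    ome m * ‖hgt π ρ x r u p‖ ^ 2 * r ^ m ≤ 33 / 32 * sep V π ρ x r u 8 := by
  have hr := h.hr
  have h2 := Supm_685.height_sep h.st h.hm h.ref.frame hr (h.ref.smooth.of_le (by norm_cast)) (a := 8) (b := 1)
    (κ := ε) one_pos (by norm_num)
    ((closedBall_subset_closedBall (by linarith)).trans h.hU)
    (fun y hy => by
      have hy' : ‖y‖ < 32 := by
        rw [mem_ball_zero_iff] at hy; linarith
      exact ⟨h.d2u_le hy', h.ref.minimal y (by simpa using hy')⟩)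
    (by simpa using h.e2) (z0 := p) (by convert hp using 2; ring) (A := 1) zero_le_one
    (by rwa [ENNReal.ofReal_one])
  rw [one_mul, one_mul] at h2
  calc ome m * ‖hgt π ρ x r u p‖ ^ 2 * r ^ m
      ≤ (33 / 32 * ((r ^ m)⁻¹ * sep V π ρ x r u 8)) * r ^ m := by gcongr
    _ = _ := by field_simp

/-- the constant in the height bound. -/
def hc (m Q : ℕ) : ℝ :=
  33 / 32 * (2 * 64 ^ (m + 2) + 2 * ((Q + 1) * (ome m * 64 ^ m))) / ome m

omit h in
theorem hc_pos (m Q : ℕ) : 0 < hc m Q := by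
  have := ome_pos m
  unfold hc
  positivity

/-- heights are small -/
theorem sup_small {p : Euc k} (hp : p ∈ box π ρ x (7 * r)) (h1 : 1 ≤ Th m V p) :
    ‖hgt π ρ x r u p‖ ≤ √(hc m Q * ε) * r := by
  have hr := h.hr
  have h2 := h.sup8 hp h1
  have h3 := h.sep_le
  have home := ome_pos m
  have h4 : ‖hgt π ρ x r u p‖ ^ 2 ≤ (hc m Q * ε) * r ^ 2 := by
    have h5 : ome m * ‖hgt π ρ x r u p‖ ^ 2 * r ^ m ≤
        (ome m * (hc m Q * ε) * r ^ 2) * r ^ m := by
      calc _ ≤ 33 / 32 * sep V π ρ x r u 8 := h2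
        _ ≤ 33 / 32 * ((2 * 64 ^ (m + 2) + 2 * ((Q + 1) * (ome m * 64 ^ m))) * ε *
            r ^ (m + 2)) := by gcongr
        _ = _ := by
            unfold hc
            field_simp
            ring
    have h6 := le_of_mul_le_mul_right h5 (by positivity)
    have h7 : ome m * ‖hgt π ρ x r u p‖ ^ 2 ≤ ome m * ((hc m Q * ε) * r ^ 2) := by linarith
    exact le_of_mul_le_mul_left h7 home
  have h5 : 0 ≤ hc m Q * ε := mul_nonneg (hc_pos m Q).le h.e0
  calc ‖hgt π ρ x r u p‖ = √(‖hgt π ρ x r u p‖ ^ 2) := (Real.sqrt_sq (norm_nonneg _)).symm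
    _ ≤ √((hc m Q * ε) * r ^ 2) := Real.sqrt_le_sqrt h4
    _ = _ := by rw [Real.sqrt_mul h5, Real.sqrt_sq hr.le]

theorem mem_box_of_closedBall {a : ℝ} (ha : 1 < a) {z : Euc k} (hz : z ∈ closedBall x r) :
    z ∈ box π ρ x (a * r) := by
  have hr := h.hr
  rw [mem_closedBall, dist_eq_norm] at hz
  have h1 := norm_pi_le h.ref.frame (z - x)
  have h2 := norm_rho_le h.ref.frame (z - x)
  constructor <;> nlinarith

/-- points over a small base ball are close. -/
theorem dist_lt {p z : Euc k} {t : ℝ} (hp : p ∈ box π ρ x (7 * r)) (hp1 : 1 ≤ Th m V p)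
    (hz : z ∈ box π ρ x (7 * r)) (hz1 : 1 ≤ Th m V z) (ht : 0 < t) (hpz : ‖π (p - z)‖ < t * r)
    (hs : √(hc m Q * ε) ≤ t / 8) : ‖p - z‖ < 2 * (t * r) := by
  have hr := h.hr
  have h1 := h.sup_small hp hp1
  have h2 := h.sup_small hz hz1
  have h3 : ρ (p - z) = (hgt π ρ x r u p - hgt π ρ x r u z) +
      r • (u (r⁻¹ • π (p - x)) - u (r⁻¹ • π (z - x))) := by
    unfold hgt
    have : ρ (p - z) = ρ (p - x) - ρ (z - x) := by rw [← map_sub, sub_sub_sub_cancel_right]
    rw [this, smul_sub]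
    abel
  have h4 : ‖u (r⁻¹ • π (p - x)) - u (r⁻¹ • π (z - x))‖ ≤ ε * t := by
    refine (h.lip ((h.base_lt hp.1).trans (by norm_num)) ((h.base_lt hz.1).trans (by norm_num))).trans
      ?_
    have h5 : r⁻¹ • π (p - x) - r⁻¹ • π (z - x) = r⁻¹ • π (p - z) := by
      rw [← smul_sub, ← map_sub, sub_sub_sub_cancel_right]
    rw [h5]
    have h6 : ‖r⁻¹ • π (p - z)‖ ≤ t := by
      rw [norm_smul, norm_inv, Real.norm_of_nonneg hr.le, inv_mul_le_iff₀ hr]
      linarith
    have := h.e0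
    gcongr
  have h5 : ‖ρ (p - z)‖ ≤ t / 2 * r := by
    rw [h3]
    have h6 := norm_add_le (hgt π ρ x r u p - hgt π ρ x r u z)
      (r • (u (r⁻¹ • π (p - x)) - u (r⁻¹ • π (z - x))))
    have h7 := norm_sub_le (hgt π ρ x r u p) (hgt π ρ x r u z)
    have h8 : ‖r • (u (r⁻¹ • π (p - x)) - u (r⁻¹ • π (z - x)))‖ ≤ r * (ε * t) := by
      rw [norm_smul, Real.norm_of_nonneg hr.le]
      gcongr
    have h9 : r * (ε * t) ≤ r * (1 / 4 * t) := by
      have := h.e4
      gcongr
    have h10 : √(hc m Q * ε) * r ≤ t / 8 * r := by gcongr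
    linarith
  have h6 := frame_norm_sq h.ref.frame (p - z)
  have h7 : ‖π (p - z)‖ ^ 2 ≤ (t * r) ^ 2 := by gcongr
  have h8 : ‖ρ (p - z)‖ ^ 2 ≤ (t / 2 * r) ^ 2 := by gcongr
  refine lt_of_pow_lt_pow_left₀ 2 (by positivity) ?_
  have h9 : 0 < t * r := by positivity
  nlinarith [sq_nonneg (t * r), mul_pos h9 h9]

/-- lower mass bound at points of density `≥ 1`. -/
theorem mass_ge {z : Euc k} {t : ℝ} (hz : z ∈ ball x (64 * r)) (hz1 : 1 ≤ Th m V z) (ht : 0 < t)
    (ht1 : t ≤ 64) : ome m * (t * r) ^ m ≤ V.real (ball z (t * r) ×ˢ univ) := by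
  have hr := h.hr
  rw [mem_ball, dist_eq_norm] at hz
  have hsub : closedBall z (t * r) ⊆ U := by
    refine subset_trans ?_ h.hU
    intro y hy
    rw [mem_closedBall, dist_eq_norm] at hy ⊢
    have h1 : y - x = (y - z) + (z - x) := by abel
    rw [h1]
    have := norm_add_le (y - z) (z - x)
    nlinarith
  have h1 := mul_le_mass h.st h.hm (z := z) (r := t * r) (by positivity)
    (ball_subset_closedBall.trans hsub) hz1
  rw [one_mul, mass_apply V measurableSet_ball, ← prod_univ_eq] at h1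
  have h2 : V (ball z (t * r) ×ˢ univ) < ⊤ :=
    (measure_mono (prod_mono ball_subset_closedBall subset_rfl)).trans_lt
      (h.st.fin _ (isCompact_closedBall _ _) hsub)
  have h3 := ENNReal.toReal_mono h2.ne h1
  rwa [ENNReal.toReal_ofReal (den_pos m (by positivity)).le] at h3

/-- upper mass bound at points of the inner ball. -/
theorem mass_le {z : Euc k} {t : ℝ} (hz : z ∈ closedBall x r) (ht : 0 < t)
    (ht1 : t ≤ 63) : V.real (ball z (t * r) ×ˢ univ) ≤ (Q + 1) * (ome m * (2 * t * r) ^ m) := by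
  have hr := h.hr
  have home := ome_pos m
  rw [mem_closedBall, dist_eq_norm] at hz
  have hsub : ball z (63 * r) ⊆ ball x (64 * r) := by
    intro y hy
    rw [mem_ball, dist_eq_norm] at hy ⊢
    have h1 : y - x = (y - z) + (z - x) := by abel
    rw [h1]
    have := norm_add_le (y - z) (z - x)
    linarith
  have hsubU : ball x (64 * r) ⊆ U :=
    (ball_subset_closedBall.trans (closedBall_subset_closedBall (by linarith))).trans h.hU
  have hrm := rat_mono h.st h.hm (z := z) (σ := t * r) (ρ := 63 * r) (by positivity) (by gcongr)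
    (hsub.trans hsubU)
  have h64 := h.mass64
  have hfin : V (ball x (64 * r) ×ˢ univ) < ⊤ :=
    (measure_mono (prod_mono ball_subset_closedBall subset_rfl)).trans_lt h.fin64
  have h63 : V.real (ball z (63 * r) ×ˢ univ) ≤ (Q + 1) * (ome m * (64 * r) ^ m) :=
    (measureReal_mono (prod_mono hsub subset_rfl) hfin.ne).trans h64
  have hfin63 : V (ball z (63 * r) ×ˢ univ) < ⊤ :=
    (measure_mono (prod_mono hsub subset_rfl)).trans_lt hfin
  have h1 : rat m V z (63 * r) ≤ ENNReal.ofReal ((Q + 1) * 2 ^ m) := by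
    unfold rat
    rw [ENNReal.div_le_iff (by
      rw [Ne, ENNReal.ofReal_eq_zero, not_le]; exact den_pos m (by positivity))
      ENNReal.ofReal_ne_top, ← ENNReal.ofReal_mul (by positivity),
      mass_apply V measurableSet_ball, ← prod_univ_eq, ← ENNReal.ofReal_toReal hfin63.ne]
    refine ENNReal.ofReal_le_ofReal (h63.trans ?_)
    have h5 : (64 * r) ^ m ≤ (2 * (63 * r)) ^ m :=
      pow_le_pow_left₀ (by positivity) (by linarith) m
    calc (Q + 1) * (ome m * (64 * r) ^ m) ≤ (Q + 1) * (ome m * (2 * (63 * r)) ^ m) :=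
          mul_le_mul_of_nonneg_left (mul_le_mul_of_nonneg_left h5 home.le) (by positivity)
      _ = _ := by rw [mul_pow]; ring
  have h2 := hrm.trans h1
  unfold rat at h2
  rw [ENNReal.div_le_iff (by
    rw [Ne, ENNReal.ofReal_eq_zero, not_le]; exact den_pos m (by positivity))
    ENNReal.ofReal_ne_top, ← ENNReal.ofReal_mul (by positivity),
    mass_apply V measurableSet_ball, ← prod_univ_eq] at h2
  have h3 := ENNReal.toReal_le_of_le_ofReal (by positivity) h2
  refine h3.trans (le_of_eq ?_)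
  rw [mul_assoc 2 t r, mul_pow 2 (t * r)]
  ring

end Cx

end Crest.Agent.R234.Pd_435
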