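import Crest.Agent.R234.Qp1_534
import Crest.Agent.R234.Gi4_456
import Crest.Agent.R234.Pd1_435

/-!
# Row 234, node QP-CH (helper534), part 2: the chart of a `Q`-point of a reference

`Qx` : the situation (435's `Cx`, a small global extension `W` of `u`, a point `zh` of density `≥ Q`
in `closedBall x r`); `cz` = 456's chart at the base point `zh` with centre `X0 = 0`; `Kz` = the
compact part of the tube carrying `V` over `|foot| ≤ 5 r`.
-/

set_option autoImplicit false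
set_option linter.unusedVariables false
set_option linter.unusedSectionVars false

open MeasureTheory Filter Topology Set Metric
open scoped ENNReal NNReal ContDiff InnerProductSpace
open Crest.GeometryTopology.Submanifold Crest.Agent.R234.Vf_884
open Crest.Agent.R234.Main_456 Crest.Agent.R234.F11_435
open Crest.Agent.R234.Gi_456

noncomputable section

namespace Crest.Agent.R234.Qp_534

variable {m n k : ℕ}

local notation "adj" => ContinuousLinearMap.adjoint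

/-- the relative height bound -/
def h0 (m Q : ℕ) (ε : ℝ) : ℝ := √(Pd_435.Cx.hc m Q * ε)

theorem h0_nonneg (m Q : ℕ) (ε : ℝ) : 0 ≤ h0 m Q ε := Real.sqrt_nonneg _

/-- the situation at a `Q`-point of a reference. -/
structure Qx (U : Set (Euc k)) (V : Measure (Euc k × L k)) (Q K : ℕ) (x : Euc k) (r : ℝ)
    (π : Euc k →L[ℝ] Euc m) (ρ : Euc k →L[ℝ] Euc n) (u : Euc m → Euc n) (ε C : ℝ)
    (W : Euc m → Euc n) (κ : ℝ) (zh : Euc k) : Prop where
  cx : Pd_435.Cx U V Q K x r π ρ u ε C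
  opU : IsOpen U
  ext : Ext u W K κ
  hK : 3 ≤ K
  κ8 : κ ≤ 1 / 8
  mem : zh ∈ closedBall x r
  th : (Q : ℝ≥0∞) ≤ Th m V zh
  hQ : 1 ≤ Q
  hs : h0 m Q ε ≤ 1 / 16

/-- the chart at the `Q`-point -/
def cz (π : Euc k →L[ℝ] Euc m) (ρ : Euc k →L[ℝ] Euc n) (x : Euc k) (r : ℝ) (W : Euc m → Euc n)
    (zh : Euc k) : GL_394.Ch m k := ch π ρ zh r (wz π x zh r W) 0

/-- the tube at the `Q`-point -/
def Tz (π : Euc k →L[ℝ] Euc m) (ρ : Euc k →L[ℝ] Euc n) (x : Euc k) (r : ℝ) (W : Euc m → Euc n)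
    (zh : Euc k) : Set (Euc k) := tube π ρ zh r (wz π x zh r W)

/-- the compact part of the tube carrying `V`; `t` = relative height bound -/
def Kz (π : Euc k →L[ℝ] Euc m) (ρ : Euc k →L[ℝ] Euc n) (x : Euc k) (r : ℝ) (W : Euc m → Euc n)
    (zh : Euc k) (t : ℝ) : Set (Euc k) :=
  Phi π ρ zh (wz π x zh r W) '' (closedBall (0 : Euc m) (5 * r) ×ˢ closedBall (0 : Euc n) (3 * t * r))

variable {U : Set (Euc k)} {V : Measure (Euc k × L k)} {Q K : ℕ} {x : Euc k} {r : ℝ}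
  {π : Euc k →L[ℝ] Euc m} {ρ : Euc k →L[ℝ] Euc n} {u : Euc m → Euc n} {ε C : ℝ}
  {W : Euc m → Euc n} {κ : ℝ} {zh : Euc k}

namespace Qx

variable (h : Qx U V Q K x r π ρ u ε C W κ zh)

include h

theorem hr : 0 < r := h.cx.hr

theorem hf : Frame π ρ := h.cx.ref.frame

theorem k0 : 0 ≤ κ := h.ext.k0

theorem gr : Gr r (wz π x zh r W) := h.ext.gr h.hr (by have := h.hK; omega) h.κ8

theorem reg : GL_394.Reg (cz π ρ x r W zh) (Tz π ρ x r W zh) univ := h.gr.reg h.hf 0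

theorem th1 : 1 ≤ Th m V zh := le_trans (by exact_mod_cast h.hQ) h.th

theorem norm_pi_z : ‖π (zh - x)‖ ≤ r :=
  (norm_pi_le h.hf _).trans (by simpa [dist_eq_norm] using h.mem)

theorem norm_rho_z : ‖ρ (zh - x)‖ ≤ r :=
  (norm_rho_le h.hf _).trans (by simpa [dist_eq_norm] using h.mem)

theorem zh_box : zh ∈ box π ρ x (7 * r) := h.cx.mem_box_of_closedBall (by norm_num) h.mem

/-- the heights over the extension and over `u` agree in the box. -/
theorem hgt_ext {p : Euc k} (hp : ‖π (p - x)‖ < 8 * r) : hgt π ρ x r W p = hgt π ρ x r u p := by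
  unfold hgt
  rw [h.ext.eq _ (le_of_lt ((h.cx.base_lt hp).trans (by norm_num)))]

theorem norm_wz_le (ξ : Euc m) : ‖wz π x zh r W ξ‖ ≤ 1 / 8 * ‖ξ‖ := by
  have h1 := h.gr.lip ξ 0
  rwa [wz_zero, sub_zero, sub_zero] at h1

/-! ### the centre -/

theorem isFoot_zh : IsFoot π ρ zh r (wz π x zh r W) zh 0 := by
  have := h.hr
  refine ⟨?_, ?_⟩
  · rw [sub_self, map_zero, map_zero, wz_zero, sub_self, map_zero, add_zero]
  · rw [sub_self, map_zero, wz_zero, sub_self, norm_zero]; positivity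

theorem foot_zh : foot π ρ zh r (wz π x zh r W) zh = 0 := h.gr.foot_eq h.isFoot_zh

theorem yy_zh : yy π ρ zh r (wz π x zh r W) zh = 0 := by
  rw [yy, h.foot_zh, wz_zero, sub_self, map_zero, sub_self]

theorem zh_mem_Tz : zh ∈ Tz π ρ x r W zh := by
  show ‖ρ (zh - zh) - wz π x zh r W (π (zh - zh))‖ < r
  rw [sub_self, map_zero, map_zero, wz_zero, sub_self, norm_zero]
  exact h.hr

theorem x_zh : (cz π ρ x r W zh).x zh = 0 := by
  show Lo _ (foot π ρ zh r (wz π x zh r W) zh - 0) = 0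
  rw [h.foot_zh, sub_zero, map_zero]

theorem nu_zh : (cz π ρ x r W zh).nu zh = 0 := by
  show Bt π ρ _ _ (yy π ρ zh r (wz π x zh r W) zh) = 0
  rw [h.yy_zh, map_zero]

/-! ### size of the coordinates -/

omit h in
theorem x_eq (p : Euc k) : (cz π ρ x r W zh).x p = Lo (fderiv ℝ (wz π x zh r W) 0)
    (foot π ρ zh r (wz π x zh r W) p) := by
  show Lo _ (foot π ρ zh r (wz π x zh r W) p - 0) = _
  rw [sub_zero]

omit h in
theorem foot_le_x (p : Euc k) : ‖foot π ρ zh r (wz π x zh r W) p‖ ≤ ‖(cz π ρ x r W zh).x p‖ := by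
  rw [x_eq]
  exact le_norm_Lo _ _

theorem x_le_foot (p : Euc k) : ‖(cz π ρ x r W zh).x p‖ ≤
    65 / 64 * ‖foot π ρ zh r (wz π x zh r W) p‖ := by
  rw [x_eq]
  exact norm_Lo_le (h.gr.d1 0) _

theorem x_le_foot' (p : Euc k) : ‖(cz π ρ x r W zh).x p‖ ≤
    (1 + κ) * ‖foot π ρ zh r (wz π x zh r W) p‖ := by
  have h1 := norm_Lo_sq (fderiv ℝ (wz π x zh r W) 0) (foot π ρ zh r (wz π x zh r W) p)
  have h2 : ‖(fderiv ℝ (wz π x zh r W) 0) (foot π ρ zh r (wz π x zh r W) p)‖ ≤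
      κ * ‖foot π ρ zh r (wz π x zh r W) p‖ :=
    (ContinuousLinearMap.le_opNorm _ _).trans (by
      have := h.ext.d1 (π := π) (x := x) (z := zh) h.hr (by have := h.hK; omega) (0 : Euc m)
      gcongr)
  rw [x_eq]
  have hk := h.k0
  refine abs_le_of_sq_le_sq' ?_ (by positivity) |>.2
  rw [h1]
  have h4 := norm_nonneg ((fderiv ℝ (wz π x zh r W) 0) (foot π ρ zh r (wz π x zh r W) p))
  have h5 := norm_nonneg (foot π ρ zh r (wz π x zh r W) p)
  have h6 := pow_le_pow_left₀ h4 h2 2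
  nlinarith [mul_nonneg hk (sq_nonneg ‖foot π ρ zh r (wz π x zh r W) p‖)]

/-- `|y| ≤ |nu| ≤ (1 + κ) |y|` -/
theorem nu_sq (p : Euc k) : ‖(cz π ρ x r W zh).nu p‖ ^ 2 =
    ‖yy π ρ zh r (wz π x zh r W) p‖ ^ 2 +
      ‖adj (fderiv ℝ (wz π x zh r W) (foot π ρ zh r (wz π x zh r W) p))
        (yy π ρ zh r (wz π x zh r W) p)‖ ^ 2 := by
  show ‖Bt π ρ (wz π x zh r W) (foot π ρ zh r (wz π x zh r W) p)
    (yy π ρ zh r (wz π x zh r W) p)‖ ^ 2 = _
  have e := GLK_128.hh_inner (fderiv ℝ (wz π x zh r W) (foot π ρ zh r (wz π x zh r W) p))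
    (yy π ρ zh r (wz π x zh r W) p)
  rw [← e, ← GLK_128.BB_BB (frame_fr h.hf), ContinuousLinearMap.comp_apply,
    ContinuousLinearMap.adjoint_inner_left, real_inner_self_eq_norm_sq]
  rfl

theorem adj_le (X : Euc m) (y : Euc n) : ‖adj (fderiv ℝ (wz π x zh r W) X) y‖ ≤ κ * ‖y‖ := by
  refine (ContinuousLinearMap.le_opNorm _ _).trans ?_
  rw [GLK_128.norm_adj]
  have := h.ext.d1 (π := π) (x := x) (z := zh) h.hr (by have := h.hK; omega) X
  gcongr

theorem yy_le_nu (p : Euc k) :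
    ‖yy π ρ zh r (wz π x zh r W) p‖ ≤ ‖(cz π ρ x r W zh).nu p‖ := by
  have h1 := h.nu_sq p
  refine abs_le_of_sq_le_sq' ?_ (norm_nonneg _) |>.2
  nlinarith [sq_nonneg ‖adj (fderiv ℝ (wz π x zh r W) (foot π ρ zh r (wz π x zh r W) p))
        (yy π ρ zh r (wz π x zh r W) p)‖]

theorem nu_le_yy (p : Euc k) :
    ‖(cz π ρ x r W zh).nu p‖ ≤ (1 + κ) * ‖yy π ρ zh r (wz π x zh r W) p‖ := by
  have h1 := h.nu_sq p
  have h2 := h.adj_le (foot π ρ zh r (wz π x zh r W) p) (yy π ρ zh r (wz π x zh r W) p)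
  have hk := h.k0
  refine abs_le_of_sq_le_sq' ?_ (by positivity) |>.2
  rw [h1]
  have h4 := norm_nonneg (adj (fderiv ℝ (wz π x zh r W) (foot π ρ zh r (wz π x zh r W) p))
        (yy π ρ zh r (wz π x zh r W) p))
  have h6 := pow_le_pow_left₀ h4 h2 2
  nlinarith [mul_nonneg hk (sq_nonneg ‖yy π ρ zh r (wz π x zh r W) p‖)]

/-- `|foot - π (p - zh)| ≤ κ |y|` on the tube. -/
theorem foot_sub_le {p : Euc k} (hp : p ∈ Tz π ρ x r W zh) :
    ‖foot π ρ zh r (wz π x zh r W) p - π (p - zh)‖ ≤ κ * ‖yy π ρ zh r (wz π x zh r W) p‖ := by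
  have h1 := h.gr.foot_fix hp
  have h2 : foot π ρ zh r (wz π x zh r W) p - π (p - zh) =
      adj (fderiv ℝ (wz π x zh r W) (foot π ρ zh r (wz π x zh r W) p))
        (yy π ρ zh r (wz π x zh r W) p) := by
    nth_rewrite 1 [h1]
    abel
  rw [h2]
  exact h.adj_le _ _

/-! ### the tube and the box -/

/-- the part of the tube over `|foot| ≤ 5 r` lies in the box. -/
theorem tube_box {p : Euc k} (hp : p ∈ Tz π ρ x r W zh)
    (hx : ‖foot π ρ zh r (wz π x zh r W) p‖ ≤ 5 * r) : p ∈ box π ρ x (7 * r) := by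
  have hr := h.hr
  have hp' : ‖ρ (p - zh) - wz π x zh r W (π (p - zh))‖ < r := hp
  have h1 := h.gr.norm_foot_sub hp
  have h2 : ‖π (p - zh)‖ ≤ 5 * r + r / 4 := by
    have h3 := norm_le_norm_add_norm_sub (foot π ρ zh r (wz π x zh r W) p) (π (p - zh))
    linarith
  have h3 := h.norm_wz_le (π (p - zh))
  have h4 : ‖ρ (p - zh)‖ ≤ r + 1 / 8 * (5 * r + r / 4) := by
    have h5 := norm_le_norm_add_norm_sub' (ρ (p - zh)) (wz π x zh r W (π (p - zh)))
    linarith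
  have e : p - x = (p - zh) + (zh - x) := by abel
  have h5 := h.norm_pi_z
  have h6 := h.norm_rho_z
  constructor
  · rw [e, map_add]
    have := norm_add_le (π (p - zh)) (π (zh - x))
    linarith
  · rw [e, map_add]
    have := norm_add_le (ρ (p - zh)) (ρ (zh - x))
    linarith

omit h in
theorem isCompact_Kz (hg : Gr r (wz π x zh r W)) (t : ℝ) : IsCompact (Kz π ρ x r W zh t) :=
  ((isCompact_closedBall _ _).prod (isCompact_closedBall _ _)).image
    (hg.contDiff_Phi (π := π) (ρ := ρ) (x := zh)).continuous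

theorem Kz_spec {t : ℝ} (ht : t ≤ 1 / 16) {p : Euc k} (hp : p ∈ Kz π ρ x r W zh t) :
    p ∈ Tz π ρ x r W zh ∧ ‖foot π ρ zh r (wz π x zh r W) p‖ ≤ 5 * r ∧
      ‖yy π ρ zh r (wz π x zh r W) p‖ ≤ 3 * t * r := by
  have hr := h.hr
  obtain ⟨q, ⟨hq1, hq2⟩, rfl⟩ := hp
  rw [mem_closedBall_zero_iff] at hq1 hq2
  have h3 : 3 * t * r ≤ 3 * (1 / 16) * r := by gcongr
  have hq3 : ‖q.2‖ ≤ 2 * r := hq2.trans (by linarith)
  refine ⟨?_, ?_, ?_⟩
  · show ‖ρ (Phi π ρ zh (wz π x zh r W) q - zh) -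
      wz π x zh r W (π (Phi π ρ zh (wz π x zh r W) q - zh))‖ < r
    rw [pi_Phi h.hf, rho_Phi h.hf]
    have h4 := h.gr.lip q.1 (q.1 - adj (fderiv ℝ (wz π x zh r W) q.1) q.2)
    have h5 : q.1 - (q.1 - adj (fderiv ℝ (wz π x zh r W) q.1) q.2) =
      adj (fderiv ℝ (wz π x zh r W) q.1) q.2 := by abel
    rw [h5] at h4
    have h6 := h.adj_le q.1 q.2
    have h7 : κ * ‖q.2‖ ≤ 1 / 8 * ‖q.2‖ := by
      have := h.κ8
      gcongr
    have h8 : wz π x zh r W q.1 + q.2 -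
        wz π x zh r W (q.1 - adj (fderiv ℝ (wz π x zh r W) q.1) q.2) =
        q.2 + (wz π x zh r W q.1 -
          wz π x zh r W (q.1 - adj (fderiv ℝ (wz π x zh r W) q.1) q.2)) := by abel
    rw [h8]
    have h9 := norm_add_le q.2 (wz π x zh r W q.1 -
          wz π x zh r W (q.1 - adj (fderiv ℝ (wz π x zh r W) q.1) q.2))
    have := norm_nonneg q.2
    linarith
  · rw [h.gr.foot_Phi h.hf hq3]; exact hq1
  · rw [h.gr.yy_Phi h.hf hq3]; exact hq2

theorem mem_Kz {t : ℝ} {p : Euc k} (hp : p ∈ Tz π ρ x r W zh)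
    (h1 : ‖foot π ρ zh r (wz π x zh r W) p‖ ≤ 5 * r)
    (h2 : ‖yy π ρ zh r (wz π x zh r W) p‖ ≤ 3 * t * r) : p ∈ Kz π ρ x r W zh t :=
  ⟨(foot π ρ zh r (wz π x zh r W) p, yy π ρ zh r (wz π x zh r W) p),
    ⟨mem_closedBall_zero_iff.2 h1, mem_closedBall_zero_iff.2 h2⟩, h.gr.Phi_coord h.hf hp⟩

theorem Kz_box {t : ℝ} (ht : t ≤ 1 / 16) : Kz π ρ x r W zh t ⊆ box π ρ x (7 * r) := fun p hp =>
  h.tube_box (h.Kz_spec ht hp).1 (h.Kz_spec ht hp).2.1

theorem box_sub_U : box π ρ x (7 * r) ⊆ U := by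
  have hr := h.hr
  refine subset_trans ?_ h.cx.hU
  intro p hp
  have h1 := frame_norm_sq h.hf (p - x)
  rw [mem_closedBall, dist_eq_norm]
  refine abs_le_of_sq_le_sq' ?_ (by positivity) |>.2
  have h2 := pow_le_pow_left₀ (norm_nonneg _) hp.1.le 2
  have h3 := pow_le_pow_left₀ (norm_nonneg _) hp.2.le 2
  nlinarith [sq_nonneg r]

theorem Kz_U {t : ℝ} (ht : t ≤ 1 / 16) : Kz π ρ x r W zh t ⊆ U :=
  (h.Kz_box ht).trans h.box_sub_U

/-- the height over `M_z` in terms of the height over `M`. -/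
theorem hgt_z {p : Euc k} (hp : ‖π (p - x)‖ < 8 * r) :
    ρ (p - zh) - wz π x zh r W (π (p - zh)) = hgt π ρ x r u p - hgt π ρ x r u zh := by
  rw [hgt_wz h.hr.ne', h.hgt_ext hp, h.hgt_ext (p := zh) (by
    have := h.norm_pi_z
    have := h.hr
    linarith)]

/-- heights over `M_z` are at most `2 h₀ r`, of the foot coordinate at most `3 h₀ r`. -/
theorem hgt_z_le {p : Euc k} (hp : p ∈ box π ρ x (7 * r)) (h1 : 1 ≤ Th m V p) :
    ‖ρ (p - zh) - wz π x zh r W (π (p - zh))‖ ≤ 2 * h0 m Q ε * r := by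
  have hr := h.hr
  rw [h.hgt_z (by have := hp.1; linarith)]
  have h2 := h.cx.sup_small hp h1
  have h3 := h.cx.sup_small h.zh_box h.th1
  have h4 := norm_sub_le (hgt π ρ x r u p) (hgt π ρ x r u zh)
  unfold h0
  linarith

/-- **gap**: the part of `V` in the tube over `|foot| ≤ 5 r` lies in `Kz`. -/
theorem gap : ∀ᵐ p ∂V, p.1 ∈ Tz π ρ x r W zh ∩ U →
    ‖foot π ρ zh r (wz π x zh r W) p.1‖ ≤ 5 * r → p.1 ∈ Kz π ρ x r W zh (h0 m Q ε) := by
  filter_upwards [h.cx.th] with p hp hpt hpf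
  have hb := h.tube_box hpt.1 hpf
  have h1 := hp hpt.2
  refine h.mem_Kz hpt.1 hpf ?_
  have h2 := h.hgt_z_le hb h1
  have h3 := h.gr.norm_yy_le hpt.1
  have h4 := h0_nonneg m Q ε
  have hr := h.hr
  have h5 : 0 ≤ h0 m Q ε * r := by positivity
  linarith

/-- **394's `Loc`** at every level `e^L ≤ 5 r`. -/
theorem loc {L : ℝ} (hL : Real.exp L ≤ 5 * r) :
    GL_394.Loc (cz π ρ x r W zh) U (Tz π ρ x r W zh) (Kz π ρ x r W zh (h0 m Q ε)) V L where
  st := h.cx.st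
  opU := h.opU
  cpt := isCompact_Kz h.gr _
  sub := fun p hp => ⟨(h.Kz_spec h.hs hp).1, h.Kz_U h.hs hp⟩
  gap := by
    filter_upwards [h.gap] with p hp h1 h2
    exact hp h1 ((foot_le_x _).trans (h2.trans hL))

theorem ok : GL_394.Ok (cz π ρ x r W zh) (Kz π ρ x r W zh (h0 m Q ε)) univ :=
  h.reg.ok (isCompact_Kz h.gr _) fun p hp => (h.Kz_spec h.hs hp).1

/-- over a base ball of radius `≤ 6 r` all points of density `≥ 1` in the box are in the tube -/
theorem mem_Tz_of_box {p : Euc k} (hp : p ∈ box π ρ x (7 * r)) (h1 : 1 ≤ Th m V p) :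
    p ∈ Tz π ρ x r W zh := by
  have h2 := h.hgt_z_le hp h1
  have hr := h.hr
  have h3 : 2 * h0 m Q ε * r ≤ 2 * (1 / 16) * r := by
    have := h.hs
    gcongr
  show ‖ρ (p - zh) - wz π x zh r W (π (p - zh))‖ < r
  linarith

/-- `|nu| ≤ 4 h₀ r` on `Kz` -/
theorem nu_le_Kz {p : Euc k} (hp : p ∈ Kz π ρ x r W zh (h0 m Q ε)) :
    ‖(cz π ρ x r W zh).nu p‖ ≤ 4 * h0 m Q ε * r := by
  have h1 := (h.Kz_spec h.hs hp).2.2
  have h2 := h.nu_le_yy p
  have h3 := h0_nonneg m Q ε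
  have hr := h.hr
  have h4 : (1 + κ) * ‖yy π ρ zh r (wz π x zh r W) p‖ ≤ (1 + 1 / 8) * (3 * h0 m Q ε * r) := by
    have := h.κ8
    gcongr
  have h5 : 0 ≤ h0 m Q ε * r := by positivity
  linarith

end Qx

end Crest.Agent.R234.Qp_534
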