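import Crest.Agent.R234.LowF12_471
import Crest.Agent.R234.Qp2_534
import Crest.Agent.R234.GLK7_128
import Crest.Agent.R234.Gs7_685

/-!
# Row 234, (F4) LOW FREQUENCY, instance part 2 (helper471): the reference chart at a `Q`-point

`fref` : 534's chart `cz` at a `Q`-point of a reference is an `FRef` at every level `l0` with
`e^{l0+3} ≤ 5 r`, up to the anomaly bound `er` (618).
-/

set_option autoImplicit false
set_option maxSynthPendingDepth 3

open MeasureTheory Filter Topology Set Metric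
open scoped ENNReal NNReal ContDiff InnerProductSpace
open Crest.GeometryTopology.Submanifold Crest.Agent.R234.Vf_884
open Crest.Agent.R234.Main_456 Crest.Agent.R234.F11_435
open Crest.Agent.R234.Gi_456 Crest.Agent.R234.Qp_534
open Crest.Agent.R234.GL_394
open Crest.Agent.R234.LowF8_471 Crest.Agent.R234.LowF9_471 Crest.Agent.R234.LowF12_471

noncomputable section

namespace Crest.Agent.R234.LowF13_471

variable {m n k : ℕ}

/-! ### mass -/

section mass

variable {U : Set (Euc k)} {V : Measure (Euc k × L k)}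

theorem fin_ball (hV : Stat m k U V) {z : Euc k} {R : ℝ} (hU : closedBall z R ⊆ U) {t : ℝ}
    (ht : t ≤ R) : V (ball z t ×ˢ univ) < ⊤ :=
  (measure_mono (prod_mono ((ball_subset_ball ht).trans ball_subset_closedBall)
    subset_rfl)).trans_lt (hV.fin _ (isCompact_closedBall _ _) hU)

theorem mass_le (hV : Stat m k U V) (hm : 1 ≤ m) {z : Euc k} {R B : ℝ}
    (hU : closedBall z R ⊆ U) (hB : 0 ≤ B) (hr : rat m V z R ≤ ENNReal.ofReal B) {t : ℝ}
    (ht : 0 < t) (htR : t ≤ R) : V.real (ball z t ×ˢ univ) ≤ B * (ome m * t ^ m) := by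
  have h1 := (rat_mono hV hm ht htR (ball_subset_closedBall.trans hU)).trans hr
  have hd := den_pos m ht
  unfold rat at h1
  rw [ENNReal.div_le_iff (by rw [ne_eq, ENNReal.ofReal_eq_zero, not_le]; exact hd)
    ENNReal.ofReal_ne_top, mass_apply _ measurableSet_ball, ← prod_univ_eq,
    ← ENNReal.ofReal_mul hB] at h1
  exact ENNReal.toReal_le_of_le_ofReal (by positivity) h1

theorem mass_ge (hV : Stat m k U V) (hm : 1 ≤ m) {z : Euc k} {R : ℝ} {Q : ℕ}
    (hU : closedBall z R ⊆ U) (hQ : (Q : ℝ≥0∞) ≤ Th m V z) {t : ℝ}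
    (ht : 0 < t) (htR : t ≤ R) : Q * (ome m * t ^ m) ≤ V.real (ball z t ×ˢ univ) := by
  have h1 := mul_le_mass hV hm ht ((ball_subset_ball htR).trans (ball_subset_closedBall.trans hU))
    hQ
  rw [mass_apply V measurableSet_ball, ← prod_univ_eq, ← ENNReal.ofReal_natCast,
    ← ENNReal.ofReal_mul (by positivity)] at h1
  have h2 := ENNReal.toReal_mono (fin_ball hV hU htR).ne h1
  rwa [ENNReal.toReal_ofReal (by have := den_pos m ht; positivity)] at h2

end mass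

variable {U : Set (Euc k)} {V : Measure (Euc k × L k)} {Q K : ℕ} {x : Euc k} {r : ℝ}
  {π : Euc k →L[ℝ] Euc m} {ρ : Euc k →L[ℝ] Euc n} {u : Euc m → Euc n} {ε C : ℝ}
  {W : Euc m → Euc n} {κ : ℝ} {zh : Euc k}

namespace Qx

open Crest.Agent.R234.Qp_534.Qx

variable (h : Qx U V Q K x r π ρ u ε C W κ zh)

include h

theorem hm : 1 ≤ m := h.cx.hm

theorem bw : Bw (wz π x zh r W) κ (κ / r) where
  d1 := fun X => h.ext.d1 h.hr (by have := h.hK; omega) X
  d2 := fun X => h.ext.d2 h.hr (by have := h.hK; omega) X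

theorem d3 (X : Euc m) :
    ‖fderiv ℝ (fderiv ℝ (fderiv ℝ (wz π x zh r W))) X‖ ≤ κ / r ^ 2 := by
  have h1 := h.ext.d3 (π := π) (x := x) (z := zh) h.hr h.hK X
  rwa [← norm_iteratedFDeriv_fderiv, ← norm_iteratedFDeriv_fderiv, norm_iteratedFDeriv_one] at h1

theorem msys {ξ : Euc m} (hξ : ‖ξ‖ < 20 * r) : Msys (wz π x zh r W) ξ = 0 := by
  have hr := h.hr
  have h1 : ‖r⁻¹ • (ξ + π (zh - x))‖ < 28 := by
    rw [norm_smul, norm_inv, Real.norm_of_nonneg hr.le, inv_mul_lt_iff₀ hr]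
    have := norm_add_le ξ (π (zh - x))
    have := h.norm_pi_z
    linarith
  rw [Msys_wz hr.ne' h.ext.cd, h.ext.Msys_eq h1,
    h.cx.ref.minimal _ (by rw [mem_ball_zero_iff]; linarith), smul_zero]

theorem msys_ev {ξ : Euc m} (hξ : ‖ξ‖ < 20 * r) :
    ∀ᶠ ξ' in 𝓝 ξ, Msys (wz π x zh r W) ξ' = 0 := by
  filter_upwards [(isOpen_lt continuous_norm continuous_const).mem_nhds
    (show ξ ∈ {y : Euc m | ‖y‖ < 20 * r} from hξ)] with y' hy'
  exact msys h hy'

theorem closedBall_U {a : ℝ} (ha : a ≤ 100 * r) : closedBall zh a ⊆ U := by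
  refine Subset.trans (closedBall_subset_closedBall' ?_) h.cx.hU
  have := mem_closedBall.1 h.mem
  have := h.hr
  linarith

/-- the bound of the foot coordinate -/
theorem mem_K {p : Euc k} (hT : 1 ≤ Th m V p) (hp : ‖p - zh‖ ≤ r) :
    p ∈ Tz π ρ x r W zh ∧ ‖foot π ρ zh r (wz π x zh r W) p‖ ≤ 5 * r := by
  have hr := h.hr
  have hz : ‖zh - x‖ ≤ r := by have := mem_closedBall.1 h.mem; rwa [dist_eq_norm] at this
  have hx : ‖p - x‖ ≤ 2 * r := by
    have e : p - x = (p - zh) + (zh - x) := by abel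
    rw [e]
    have := norm_add_le (p - zh) (zh - x)
    linarith
  have h1 := norm_pi_le h.hf (p - x)
  have h2 := norm_rho_le h.hf (p - x)
  have hbox : p ∈ box π ρ x (7 * r) := ⟨by linarith, by linarith⟩
  have hpT := h.mem_Tz_of_box hbox hT
  refine ⟨hpT, ?_⟩
  have h3 := h.foot_sub_le hpT
  have h4 := h.gr.norm_yy_lt hpT
  have h5 := norm_pi_le h.hf (p - zh)
  have h7 : κ * ‖yy π ρ zh r (wz π x zh r W) p‖ ≤ 1 / 8 * (2 * r) := by
    have := h.κ8
    gcongr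
  have h8 := norm_le_norm_add_norm_sub' (foot π ρ zh r (wz π x zh r W) p) (π (p - zh))
  linarith

theorem cov {a : ℝ} (ha : a ≤ r) : ∀ᵐ p ∂V, ‖p.1 - zh‖ < a →
    p.1 ∈ Kz π ρ x r W zh (h0 m Q ε) := by
  filter_upwards [h.cx.th, h.gap] with p hT hg hp
  have hr := h.hr
  have hpU : p.1 ∈ U := closedBall_U h (a := r) (by linarith)
    (by rw [mem_closedBall, dist_eq_norm]; linarith)
  obtain ⟨h1, h2⟩ := mem_K h (hT hpU) (by linarith)
  exact hg ⟨h1, hpU⟩ h2

theorem nu_le {p : Euc k} (hp : p ∈ Kz π ρ x r W zh (h0 m Q ε)) :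
    ‖(cz π ρ x r W zh).nu p‖ ≤ r / 4 := by
  have h1 := h.nu_le_Kz hp
  have h2 : 4 * h0 m Q ε * r ≤ 4 * (1 / 16) * r := by
    have := h.hs
    have := h.hr
    gcongr
  linarith

theorem x_le {p : Euc k} (hp : p ∈ Kz π ρ x r W zh (h0 m Q ε)) :
    ‖(cz π ρ x r W zh).x p‖ ≤ 6 * r := by
  have h1 := h.x_le_foot p
  have h2 := (h.Kz_spec h.hs hp).2.1
  have := h.hr
  linarith

theorem half : Gv_685.Half π ρ zh r (wz π x zh r W) (Kz π ρ x r W zh (h0 m Q ε)) := by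
  intro z hz
  obtain ⟨h1, -, h3⟩ := h.Kz_spec h.hs hz
  have h4 := h.gr.le_norm_yy h1
  have h5 : 3 * h0 m Q ε * r ≤ 3 * (1 / 16) * r := by
    have := h.hs
    have := h.hr
    gcongr
  have := h.hr
  linarith

/-- (S1) -/
theorem s1 {A : ℝ} (hA : 2 * 4 ^ m * (5 * m) ^ m / ome m ≤ A) {s t : ℝ} (hs : 0 < s) (hst : s < t)
    (ht : t ≤ 5 * r) :
    ∀ᵐ p ∂(V.restrict (Kz π ρ x r W zh (h0 m Q ε) ×ˢ univ)), ‖(cz π ρ x r W zh).x p.1‖ ≤ s →
      2 * (cz π ρ x r W zh).f p.1 ≤ A * ((t - s) ^ m)⁻¹ *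
        ∫ p in Sh (cz π ρ x r W zh) t, 2 * (cz π ρ x r W zh).f p.1
          ∂(V.restrict (Kz π ρ x r W zh (h0 m Q ε) ×ˢ univ)) := by
  have hr := h.hr
  have hm1 := hm h
  have hm0 : (1:ℝ) ≤ m := by exact_mod_cast hm1
  have ho := ome_pos m
  set d : ℝ := (t - s) / (5 * m) with hd
  have hd0 : 0 < d := by rw [hd]; exact div_pos (by linarith) (by positivity)
  have hmd : m * d = (t - s) / 5 := by rw [hd]; field_simp
  have hdt : d ≤ t - s := by
    rw [hd, div_le_iff₀ (by positivity)]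
    nlinarith
  have hd5 : d ≤ (t - s) / 5 := by nlinarith
  have hL : Real.exp (Real.log (5 * r)) ≤ 5 * r := by rw [Real.exp_log (by positivity)]
  have h1 := Gv_685.sup_ae h.hf h.gr (h.loc hL) hm1 (half h) h.cx.th (s := s) (t := s + d)
    (by rw [Real.exp_log (by positivity)]; linarith) (by linarith)
    (by rw [add_sub_cancel_left, hmd]; linarith)
    (fun z hz _ => by
      have h2 := h.Kz_box h.hs hz
      refine Subset.trans (closedBall_subset_closedBall' (ε₂ := 128 * r) ?_) h.cx.hU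
      rw [dist_eq_norm, add_sub_cancel_left]
      have h3 := F11_435.frame_norm_sq h.hf (z - x)
      have h4 := pow_le_pow_left₀ (norm_nonneg _) h2.1.le 2
      have h5 := pow_le_pow_left₀ (norm_nonneg _) h2.2.le 2
      have h6 : ‖z - x‖ ≤ 10 * r := by
        refine abs_le_of_sq_le_sq' ?_ (by positivity) |>.2
        nlinarith [sq_nonneg r]
      linarith)
    (fun X hX => by
      rw [sub_zero] at hX
      exact msys h (by linarith))
  filter_upwards [h1] with p hp hps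
  have h2 := hp hps
  rw [add_sub_cancel_left] at h2
  have hok := h.ok
  have hOn := On_of_Stat hok.cpt h.cx.st (h.Kz_U h.hs)
  have h3 : ∫ p in Sh (cz π ρ x r W zh) (s + d), 2 * (cz π ρ x r W zh).f p.1
          ∂(V.restrict (Kz π ρ x r W zh (h0 m Q ε) ×ˢ univ)) ≤
      ∫ p in Sh (cz π ρ x r W zh) t, 2 * (cz π ρ x r W zh).f p.1
          ∂(V.restrict (Kz π ρ x r W zh (h0 m Q ε) ×ˢ univ)) :=
    int_Sh_mono hok hOn (F := fun p => 2 * (cz π ρ x r W zh).f p.1)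
      (continuousOn_const.mul (lift hok.cf))
      (fun p hpm => by have := hok.f_nonneg hpm.1; linarith) (by linarith)
  set J : ℝ := ∫ p in Sh (cz π ρ x r W zh) t, 2 * (cz π ρ x r W zh).f p.1
          ∂(V.restrict (Kz π ρ x r W zh (h0 m Q ε) ×ˢ univ)) with hJ
  have hJ0 : 0 ≤ J := int_Sh_nonneg hok hOn
    (fun p hpm => by have := hok.f_nonneg hpm.1; linarith) t
  have h4 : ome m * (2 * (cz π ρ x r W zh).f p.1) ≤ 2 * 4 ^ m * ((d ^ m)⁻¹ * J) := by
    refine h2.trans ?_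
    have : 0 ≤ (d ^ m)⁻¹ := by positivity
    gcongr
    exact h3
  have h5 : (d ^ m)⁻¹ = (5 * m) ^ m * ((t - s) ^ m)⁻¹ := by
    rw [hd, div_pow, inv_div, div_eq_mul_inv]
  rw [h5] at h4
  have hts : 0 < t - s := by linarith
  have h6 : 2 * (cz π ρ x r W zh).f p.1 ≤
      2 * 4 ^ m * (5 * m) ^ m / ome m * ((t - s) ^ m)⁻¹ * J := by
    rw [← mul_le_mul_iff_right₀ ho]
    refine h4.trans (le_of_eq ?_)
    field_simp
  refine h6.trans ?_
  have : 0 ≤ ((t - s) ^ m)⁻¹ := by positivity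
  gcongr

/-- (S2) -/
theorem s2 {A : ℝ} (hA : 128 * Gs_685.Kst ^ 2 + 100 * m ≤ A) (hκ : 12 * m * κ ≤ 1) {s t : ℝ}
    (hs : 0 < s) (hst : s < t) (ht : t ≤ 5 * r) :
    ∫ p in Sh (cz π ρ x r W zh) s, (cz π ρ x r W zh).tau p.1 p.2
        ∂(V.restrict (Kz π ρ x r W zh (h0 m Q ε) ×ˢ univ)) ≤ A * ((t - s) ^ 2)⁻¹ *
      ∫ p in Sh (cz π ρ x r W zh) t, 2 * (cz π ρ x r W zh).f p.1
          ∂(V.restrict (Kz π ρ x r W zh (h0 m Q ε) ×ˢ univ)) := by
  have hr := h.hr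
  have hk0 := h.k0
  have hL : Real.exp (Real.log (5 * r)) ≤ 5 * r := by rw [Real.exp_log (by positivity)]
  have h1 := Gv_685.energy h.hf h.gr (h.loc hL) (s := s) (t := t) (κ := κ / r)
    (by rw [Real.exp_log (by positivity)]; exact ht) hs.le hst
    (fun X hX => by
      rw [sub_zero] at hX
      exact msys h (by linarith)) (fun X _ => (bw h).d2 X)
    (fun z hz _ => by
      have h3 := (h.Kz_spec h.hs hz).2.2
      have h5 : 3 * h0 m Q ε * r ≤ 3 * (1 / 16) * r := by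
        have := h.hs
        gcongr
      calc 12 * m * (κ / r) * ‖yy π ρ zh r (wz π x zh r W) z‖ ≤ 12 * m * (κ / r) * r := by
            gcongr
            linarith
        _ = 12 * m * κ := by field_simp
        _ ≤ 1 := hκ)
  have hok := h.ok
  have hOn := On_of_Stat hok.cpt h.cx.st (h.Kz_U h.hs)
  set J : ℝ := ∫ p in Sh (cz π ρ x r W zh) t, 2 * (cz π ρ x r W zh).f p.1
          ∂(V.restrict (Kz π ρ x r W zh (h0 m Q ε) ×ˢ univ)) with hJ
  have hJ0 : 0 ≤ J := int_Sh_nonneg hok hOn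
    (fun p hpm => by have := hok.f_nonneg hpm.1; linarith) t
  refine (show _ ≤ (128 * Gs_685.Kst ^ 2 * ((t - s) ^ 2)⁻¹ + 4 * m * (κ / r) ^ 2) * J from h1).trans
    ?_
  refine mul_le_mul_of_nonneg_right ?_ hJ0
  have hts : 0 < t - s := by linarith
  have h2 : (κ / r) ^ 2 ≤ 25 * ((t - s) ^ 2)⁻¹ := by
    rw [div_pow, div_le_iff₀ (by positivity), mul_assoc, ← div_eq_inv_mul, mul_div_assoc',
      le_div_iff₀ (by positivity)]
    have h3 : (t - s) ^ 2 ≤ (5 * r) ^ 2 := pow_le_pow_left₀ hts.le (by linarith) 2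
    have h4 : κ ^ 2 ≤ 1 := by
      have := h.κ8
      nlinarith
    calc κ ^ 2 * (t - s) ^ 2 ≤ 1 * (5 * r) ^ 2 := by gcongr
      _ = _ := by ring
  have h5 : 0 ≤ ((t - s) ^ 2)⁻¹ := by positivity
  calc 128 * Gs_685.Kst ^ 2 * ((t - s) ^ 2)⁻¹ + 4 * m * (κ / r) ^ 2 ≤
      128 * Gs_685.Kst ^ 2 * ((t - s) ^ 2)⁻¹ + 4 * m * (25 * ((t - s) ^ 2)⁻¹) := by gcongr
    _ = (128 * Gs_685.Kst ^ 2 + 100 * m) * ((t - s) ^ 2)⁻¹ := by ring
    _ ≤ _ := by gcongr

/-- pointwise bounds at the level `l`, on any compact part -/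
theorem kb {A : ℝ} (hA : 2 * GLK_128.Ck m n ≤ A) {l hh : ℝ} (hl : Real.exp l ≤ r) (hh0 : 0 ≤ hh)
    (hh1 : hh ≤ 1) {K' : Set (Euc k)} (hK' : K' ⊆ Kz π ρ x r W zh (h0 m Q ε)) (hKc : IsCompact K')
    (hnu : ∀ z ∈ K', ‖(cz π ρ x r W zh).x z‖ ≤ Real.exp l →
      ‖(cz π ρ x r W zh).nu z‖ ≤ hh * Real.exp l) :
    KB (cz π ρ x r W zh) K' l (A * (κ * (Real.exp l / r))) (A * (κ * (Real.exp l / r)) * hh) hh
      (m + 8) (GLK_128.zN π ρ zh r (wz π x zh r W) 0) := by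
  have hr := h.hr
  have hk0 := h.k0
  have hk8 := h.κ8
  have hb := bw h
  have hel := Real.exp_pos l
  have he2 : Real.exp (2 * l) = Real.exp l ^ 2 := by rw [← Real.exp_nat_mul]; norm_num
  have hlam : Real.exp l / r ≤ 1 := (div_le_one hr).2 hl
  have hlam0 : 0 < Real.exp l / r := by positivity
  have hC := GLK_128.Ck_nonneg m n
  have e2 : κ / r * Real.exp l = κ * (Real.exp l / r) := by ring
  have e3 : κ / r ^ 2 * Real.exp (2 * l) = κ * (Real.exp l / r) ^ 2 := by rw [he2]; ring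
  have H : GLK_128.Hy π ρ zh r (wz π x zh r W) 0 K' l κ (κ / r) (κ / r ^ 2) hh :=
    { gr := h.gr
      fr := h.hf
      sub := fun z hz => (h.Kz_spec h.hs (hK' hz)).1
      k1 := fun X _ => hb.d1 X
      k2 := fun X _ => hb.d2 X
      k3 := fun X _ => d3 h X
      k1le := by linarith
      k2s := by rw [e2]; nlinarith
      hb0 := hh0
      hb1 := hh1
      min := fun X hX => by
        rw [sub_zero] at hX
        exact msys_ev h (by linarith)
      nu := hnu }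
  have h1 := H.kb
  have hok' := Ok_mono h.ok hK' hKc
  rw [e2, e3] at h1
  set q : ℝ := Real.exp l / r with hq
  have hq2 : q ^ 2 ≤ q := by nlinarith
  have hcc : GLK_128.cc κ (κ * q) (κ * q ^ 2) ≤ κ * q := by
    have e : GLK_128.cc κ (κ * q) (κ * q ^ 2) =
        κ * (κ * q) + (κ * q) ^ 2 + κ * q * (κ * q ^ 2) + κ * (κ * q ^ 2) := rfl
    rw [e]
    have a1 : (κ * q) ^ 2 ≤ κ * (κ * q) := by
      have : κ * (κ * q ^ 2) ≤ κ * (κ * q) := by gcongr
      calc (κ * q) ^ 2 = κ * (κ * q ^ 2) := by ring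
        _ ≤ _ := this
    have a2 : κ * (κ * q ^ 2) ≤ κ * (κ * q) := by gcongr
    have a3 : κ * q * (κ * q ^ 2) ≤ κ * (κ * q) := by
      calc κ * q * (κ * q ^ 2) = q * (κ * (κ * q ^ 2)) := by ring
        _ ≤ 1 * (κ * (κ * q ^ 2)) := by gcongr
        _ ≤ _ := by rw [one_mul]; exact a2
    have a4 : κ * (κ * q) ≤ 1 / 8 * (κ * q) := by gcongr
    have a5 : 0 ≤ κ * q := by positivity
    linarith
  have hdd : GLK_128.dd (κ * q) (κ * q ^ 2) hh ≤ 2 * (κ * q) * hh := by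
    have e : GLK_128.dd (κ * q) (κ * q ^ 2) hh = (κ * q + κ * q ^ 2) * hh := rfl
    rw [e]
    have a2 : κ * q ^ 2 ≤ κ * q := by gcongr
    have : κ * q + κ * q ^ 2 ≤ 2 * (κ * q) := by linarith
    gcongr
  refine KB_mono h1 hok' ?_ ?_ le_rfl
  · calc GLK_128.Ck m n * GLK_128.cc κ (κ * q) (κ * q ^ 2) ≤ GLK_128.Ck m n * (κ * q) := by gcongr
      _ ≤ A * (κ * q) := by
        have : GLK_128.Ck m n ≤ A := by linarith
        gcongr
  · calc GLK_128.Ck m n * GLK_128.dd (κ * q) (κ * q ^ 2) hh ≤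
        GLK_128.Ck m n * (2 * (κ * q) * hh) := by gcongr
      _ = (2 * GLK_128.Ck m n) * (κ * q) * hh := by ring
      _ ≤ A * (κ * q) * hh := by gcongr

omit h in
theorem exp_small {l0 : ℝ} (hl0 : Real.exp (l0 + 3) ≤ 5 * r) :
    Real.exp l0 ≤ 5 / 8 * r := by
  have h1 : Real.exp (l0 + 3) = Real.exp l0 * Real.exp 3 := Real.exp_add _ _
  have h2 := exp_three
  have h3 := Real.exp_pos l0
  nlinarith

/-- the basic constant -/
def A0 (m n Q : ℕ) : ℝ :=
  1 + 2 * m + (Q + 1) * ome m * 4 ^ m + 2 * 4 ^ m * (5 * m) ^ m / ome m +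
    (128 * Gs_685.Kst ^ 2 + 100 * m) + 2 * GLK_128.Ck m n

omit h in
theorem A0_le {m n Q : ℕ} {A : ℝ} (hA : A0 m n Q ≤ A) :
    1 + 2 * m ≤ A ∧ (Q + 1) * ome m * 4 ^ m ≤ A ∧ 2 * 4 ^ m * (5 * m) ^ m / ome m ≤ A ∧
      128 * Gs_685.Kst ^ 2 + 100 * m ≤ A ∧ 2 * GLK_128.Ck m n ≤ A := by
  have h0 := ome_pos m
  have h1 : 0 ≤ (Q + 1) * ome m * 4 ^ m := by positivity
  have h2 : 0 ≤ 2 * 4 ^ m * (5 * (m:ℝ)) ^ m / ome m := by positivity
  have h3 : 0 ≤ 128 * Gs_685.Kst ^ 2 + 100 * (m:ℝ) := by positivity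
  have h4 := GLK_128.Ck_nonneg m n
  have h5 : (0:ℝ) ≤ m := Nat.cast_nonneg m
  unfold A0 at hA
  refine ⟨?_, ?_, ?_, ?_, ?_⟩ <;> linarith

/-- **the reference chart at a `Q`-point is an `FRef`** at every level `e^{l0+3} ≤ 5 r`. -/
theorem fref {g g1 g2 : ℝ → ℝ} {B : ℝ} (hp : Pf g g1 g2 B) {A : ℝ} (hA : A0 m n Q ≤ A)
    (hAκ : 24 * (A * κ) ≤ 1) (hrat : rat m V zh (16 * r) ≤ ENNReal.ofReal (Q + 1)) {l0 : ℝ}
    (hl0 : Real.exp (l0 + 3) ≤ 5 * r) {hs : ℝ}
    (her : ∀ l ≤ l0, ∀ K' ⊆ Kz π ρ x r W zh (h0 m Q ε), IsCompact K' →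
      (∀ z ∈ K', ‖(cz π ρ x r W zh).x z‖ ≤ 2 * Real.exp l →
        ‖(cz π ρ x r W zh).nu z‖ ≤ hs * Real.exp l) →
      (∀ᵐ p ∂(V.restrict (Kz π ρ x r W zh (h0 m Q ε) ×ˢ univ)), p.1 ∈ K') →
      Real.exp ((2 - m) * l) *
        |er1a (cz π ρ x r W zh) (V.restrict (Kz π ρ x r W zh (h0 m Q ε) ×ˢ univ)) g Q l| ≤
      A * (κ * (Real.exp l / r)) * (Real.exp ((2 - m) * l) *
        ∫ p in Sh (cz π ρ x r W zh) (2 * Real.exp l), ((cz π ρ x r W zh).tau p.1 p.2 +
          qq (cz π ρ x r W zh) l p.1) ∂(V.restrict (Kz π ρ x r W zh (h0 m Q ε) ×ˢ univ)))) :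
    FRef (cz π ρ x r W zh) (Kz π ρ x r W zh (h0 m Q ε)) univ U V zh g g1 A (m + 8) Q
      (κ * (Real.exp l0 / r)) l0 (GLK_128.zN π ρ zh r (wz π x zh r W) 0) hs := by
  have hr := h.hr
  have hk0 := h.k0
  have hk8 := h.κ8
  have hm1 := hm h
  have hm0 : (1:ℝ) ≤ m := by exact_mod_cast hm1
  obtain ⟨A1, A2, A3, A4, A5⟩ := A0_le hA
  have hA1 : 1 ≤ A := by linarith
  have hb := bw h
  have he0 := exp_small (r := r) hl0
  have hel0 := Real.exp_pos l0
  have eκ : A * (κ * (Real.exp l0 / r)) * Real.exp (-l0) = A * κ / r := by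
    have : Real.exp l0 * Real.exp (-l0) = 1 := by rw [← Real.exp_add]; simp
    calc _ = A * κ / r * (Real.exp l0 * Real.exp (-l0)) := by ring
      _ = _ := by rw [this, mul_one]
  have eκl : ∀ l, κ * (Real.exp l0 / r) * Real.exp (l - l0) = κ * (Real.exp l / r) := by
    intro l
    have : Real.exp l0 * Real.exp (l - l0) = Real.exp l := by rw [← Real.exp_add]; congr 1; ring
    calc _ = κ * ((Real.exp l0 * Real.exp (l - l0)) / r) := by ring
      _ = _ := by rw [this]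
  have hAκ0 : 0 ≤ A * κ := mul_nonneg (by linarith) hk0
  have hAκr : 0 ≤ A * κ / r := div_nonneg hAκ0 hr.le
  have hκA : κ / r ≤ A * κ / r := by
    gcongr
    nlinarith
  have hκ2 : 2 * (κ * (κ / r)) ≤ A * κ / r := by
    calc 2 * (κ * (κ / r)) ≤ 2 * (1 / 8 * (κ / r)) := by gcongr
      _ ≤ κ / r := by have : 0 ≤ κ / r := by positivity
                      linarith
      _ ≤ _ := hκA
  have hel : ∀ l ≤ l0, Real.exp l ≤ 5 / 8 * r := fun l hl => (Real.exp_le_exp.2 hl).trans he0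
  have hbs : Bs (wz π x zh r W) 0 (3 * (κ * (κ / r))) (5 * r) :=
    { small := by
        have e : 3 * (κ * (κ / r)) * (5 * r) = 15 * κ ^ 2 := by field_simp; ring
        rw [e]
        nlinarith
      bd := fun u _ => by
        have h1 := hb.d1 (pt (wz π x zh r W) 0 u)
        have h2 := hb.d2 (pt (wz π x zh r W) 0 u)
        have := hb.K1n
        gcongr }
  refine
    { ok := h.ok
      st := h.cx.st
      KU := h.Kz_U h.hs
      hU := closedBall_U h (by linarith)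
      hD := subset_univ _
      th := by rw [ENNReal.ofReal_natCast]; exact h.th
      cov := cov h (by linarith)
      dist := ?_, sm := ?_, sm3 := ?_, hj := ?_, hmu := ?_, mu2 := ?_, tau0 := ?_
      sup := ⟨fun s t hs hst ht => s1 h A3 hs hst (ht.trans hl0),
        fun s t hs hst ht _ => s2 h A4 (by nlinarith) hs hst (ht.trans hl0)⟩
      kb := ?_
      fv := fun l hl => ?_
      er := fun l hl K' h1 h2 h3 h4 => by rw [eκl]; exact her l hl K' h1 h2 h3 h4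
      dist2 := fun z hz => dist2_le h.gr h.hf wz_zero (h.Kz_spec h.hs hz).1
      mass := fun l hl => ?_ }
  · intro z hz
    rw [eκ]
    have h1 := dist_le h.gr hb h.hf wz_zero (h.Kz_spec h.hs hz).1
    refine le_trans ?_ h1
    show _ ≤ (1 - 2 * (κ * (κ / r)) * ‖(cz π ρ x r W zh).x z‖) * ‖(cz π ρ x r W zh).x z‖ ^ 2 +
      ‖(cz π ρ x r W zh).nu z‖ ^ 2 -
      2 * (κ / r * ‖(cz π ρ x r W zh).x z‖ ^ 2 * ‖(cz π ρ x r W zh).nu z‖)
    have a1 : 2 * (κ * (κ / r)) * ‖(cz π ρ x r W zh).x z‖ ≤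
        A * κ / r * ‖(cz π ρ x r W zh).x z‖ := by gcongr
    have a2 : (1 - A * κ / r * ‖(cz π ρ x r W zh).x z‖) * ‖(cz π ρ x r W zh).x z‖ ^ 2 ≤
        (1 - 2 * (κ * (κ / r)) * ‖(cz π ρ x r W zh).x z‖) * ‖(cz π ρ x r W zh).x z‖ ^ 2 := by
      gcongr
    have a3 : κ / r * ‖(cz π ρ x r W zh).x z‖ ^ 2 * ‖(cz π ρ x r W zh).nu z‖ ≤
        A * κ / r * ‖(cz π ρ x r W zh).x z‖ ^ 2 * ‖(cz π ρ x r W zh).nu z‖ := by gcongr
    linarith
  · intro z hz
    rw [eκ]
    have h1 := nu_le h hz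
    calc 8 * (A * κ / r * ‖(cz π ρ x r W zh).nu z‖) ≤ 8 * (A * κ / r * (r / 4)) := by gcongr
      _ = 2 * (A * κ) := by field_simp; ring
      _ ≤ 1 := by linarith
  · intro z hz
    rw [eκ]
    have h1 := x_le h hz
    calc 4 * (A * κ / r * ‖(cz π ρ x r W zh).x z‖) ≤ 4 * (A * κ / r * (6 * r)) := by gcongr
      _ = 24 * (A * κ) := by field_simp; ring
      _ ≤ 1 := hAκ
  · intro l hl v hv
    rw [eκ]
    have hl' := hel l hl
    have hv' : ‖v‖ ≤ r := by linarith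
    have h1 : m * (κ * (κ / r)) * ‖v‖ ≤ 1 := by
      calc m * (κ * (κ / r)) * ‖v‖ ≤ m * (κ * (κ / r)) * r := by gcongr
        _ = (m * κ) * κ := by field_simp
        _ ≤ 1 * 1 := by
          have : m * κ ≤ A * κ := by
            have : (m:ℝ) ≤ A := by linarith
            gcongr
          gcongr <;> linarith
        _ = 1 := one_mul 1
    have h2 := jB_le h.gr hb 0 h1
    refine (show (cz π ρ x r W zh).j v ≤ _ from h2).trans ?_
    have h3 : 2 * (m * (κ * (κ / r))) ≤ A * κ / r := by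
      calc 2 * (m * (κ * (κ / r))) = (2 * m * κ) * κ / r := by ring
        _ ≤ (A * κ) * κ / r := by
          have : 2 * (m:ℝ) ≤ A := by linarith
          gcongr
        _ ≤ (A * κ) * 1 / r := by
          gcongr
          linarith
        _ = _ := by ring
    have h4 : 2 * (m * (κ * (κ / r))) * ‖v‖ ≤ A * κ / r * Real.exp l := by gcongr
    linarith
  · intro l hl v hv
    rw [eκ]
    have hl' := hel l hl
    have h1 := (hbs.pt h.gr (v := v) (by linarith)).abs_mu_sub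
    refine (show |(cz π ρ x r W zh).mu v - 1| ≤ _ from h1).trans ?_
    have h2 : 3 * (κ * (κ / r)) * 2 ≤ A * κ / r := by
      calc 3 * (κ * (κ / r)) * 2 ≤ 3 * (1 / 8 * (κ / r)) * 2 := by gcongr
        _ ≤ κ / r := by have : 0 ≤ κ / r := by positivity
                        linarith
        _ ≤ _ := hκA
    calc 3 * (κ * (κ / r)) * ‖v‖ ≤ 3 * (κ * (κ / r)) * (2 * Real.exp l) := by gcongr
      _ = (3 * (κ * (κ / r)) * 2) * Real.exp l := by ring
      _ ≤ _ := by gcongr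
  · intro v hv
    have h1 := (hbs.pt h.gr (v := v) (hv.trans hl0)).mu_ge
    exact le_trans (by norm_num) (show 3 / 4 ≤ (cz π ρ x r W zh).mu v from h1)
  · intro p hp
    exact GLK_128.tau0_nonneg (frame_fr h.hf) (h.gr.inv _
      (h.gr.norm_yy_lt (h.Kz_spec h.hs hp.1).1).le) (GLK_128.pj_of_mem hp.2)
  · intro l hl hh hh0 hh1 K' hK' hKc hnu
    rw [eκl]
    exact kb h A5 (by have := hel l hl; linarith) hh0 hh1 hK' hKc hnu
  · have hL : Real.exp (l0 + 3) ≤ 5 * r := hl0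
    have hloc := h.loc hL
    exact ⟨hloc.fv1 h.reg hp.pr.k0 (by linarith), hloc.fv2 h.reg hp.pr.k0 (by linarith),
      hloc.fv3 h.reg hp.pr.k1 (by linarith)⟩
  · have hl' := hel l hl
    have h1 := mass_le h.cx.st hm1 (closedBall_U h (a := 16 * r) (by linarith)) (B := Q + 1)
      (by positivity) hrat (t := 4 * Real.exp l) (by positivity) (by linarith)
    refine h1.trans ?_
    have h2 : Real.exp (m * l) = Real.exp l ^ m := by rw [← Real.exp_nat_mul]
    rw [h2, mul_pow]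
    calc (Q + 1) * (ome m * (4 ^ m * Real.exp l ^ m)) = (Q + 1) * ome m * 4 ^ m * Real.exp l ^ m := by
          ring
      _ ≤ A * Real.exp l ^ m := by gcongr

end Qx

end Crest.Agent.R234.LowF13_471
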