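import Crest.Agent.R234.LowF13_471

/-!
# Row 234, (F4) LOW FREQUENCY, instance part 3 (helper471): mass over small balls of the foot chart

The mass of `V` over `{|c.x| < t}` is close to `Q ome t^m` at every scale `t ≤ r` at a `Q`-point.
-/

set_option autoImplicit false
set_option maxSynthPendingDepth 3

open MeasureTheory Filter Topology Set Metric
open scoped ENNReal NNReal ContDiff InnerProductSpace
open Crest.GeometryTopology.Submanifold Crest.Agent.R234.Vf_884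
open Crest.Agent.R234.Main_456 Crest.Agent.R234.F11_435
open Crest.Agent.R234.Gi_456 Crest.Agent.R234.Qp_534
open Crest.Agent.R234.GL_394
open Crest.Agent.R234.LowF8_471 Crest.Agent.R234.LowF9_471 Crest.Agent.R234.LowF12_471
open Crest.Agent.R234.LowF13_471

noncomputable section

namespace Crest.Agent.R234.LowF14_471

variable {m n k : ℕ} {U : Set (Euc k)} {V : Measure (Euc k × L k)} {Q K : ℕ} {x : Euc k} {r : ℝ}
  {π : Euc k →L[ℝ] Euc m} {ρ : Euc k →L[ℝ] Euc n} {u : Euc m → Euc n} {ε C : ℝ}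
  {W : Euc m → Euc n} {κ : ℝ} {zh : Euc k}

local notation "adj" => ContinuousLinearMap.adjoint

/-- the part over the open ball of radius `t` -/
def Wt (c : Ch m k) (K : Set (Euc k)) (t : ℝ) : Set (Euc k) := {z | z ∈ K ∧ ‖c.x z‖ < t}

namespace Qx

open Crest.Agent.R234.Qp_534.Qx

variable (h : Qx U V Q K x r π ρ u ε C W κ zh)

include h

theorem norm_sub_le {z : Euc k} (hz : z ∈ Kz π ρ x r W zh (h0 m Q ε)) :
    ‖z - zh‖ ≤ (1 + κ) * ‖(cz π ρ x r W zh).x z‖ + ‖(cz π ρ x r W zh).nu z‖ := by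
  have hr := h.hr
  have hk := h.k0
  have hzT := (h.Kz_spec h.hs hz).1
  have hnu : (cz π ρ x r W zh).nu z = z - (zh + adj π (foot π ρ zh r (wz π x zh r W) z) +
    adj ρ (wz π x zh r W (foot π ρ zh r (wz π x zh r W) z))) := h.gr.nu_eq h.hf hzT
  have hX := foot_le_x (π := π) (ρ := ρ) (x := x) (r := r) (W := W) (zh := zh) z
  set X := foot π ρ zh r (wz π x zh r W) z with hXd
  have h1 : z - zh = (adj π X + adj ρ (wz π x zh r W X)) + (cz π ρ x r W zh).nu z := by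
    rw [hnu]; abel
  have h2 : ‖adj π X + adj ρ (wz π x zh r W X)‖ ≤ (1 + κ) * ‖X‖ := by
    have e := LowF12_471.frame_norm_sq h.hf (adj π X + adj ρ (wz π x zh r W X))
    rw [map_add, map_add, pi_adj h.hf, pi_adj_rho h.hf, rho_adj_pi h.hf, rho_adj h.hf, add_zero,
      zero_add] at e
    have h3 : ‖wz π x zh r W X‖ ≤ κ * ‖X‖ := by
      have := (LowF13_471.Qx.bw h).lip h.gr X 0
      rwa [wz_zero, sub_zero, sub_zero] at this
    have h4 := pow_le_pow_left₀ (norm_nonneg _) h3 2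
    refine abs_le_of_sq_le_sq' ?_ (by positivity) |>.2
    rw [e]
    nlinarith [mul_nonneg hk (sq_nonneg ‖X‖)]
  rw [h1]
  refine (norm_add_le _ _).trans ?_
  have h5 : (1 + κ) * ‖X‖ ≤ (1 + κ) * ‖(cz π ρ x r W zh).x z‖ := by gcongr
  linarith

theorem norm_x_le {z : Euc k} (hz : z ∈ Kz π ρ x r W zh (h0 m Q ε)) :
    ‖(cz π ρ x r W zh).x z‖ ≤ (1 + 2 * κ) * ‖z - zh‖ := by
  have hr := h.hr
  have hk := h.k0
  have hk8 := h.κ8
  have h1 := dist_le h.gr (LowF13_471.Qx.bw h) h.hf wz_zero (h.Kz_spec h.hs hz).1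
  have h2 := LowF13_471.Qx.nu_le h hz
  have h3 := LowF13_471.Qx.x_le h hz
  change (1 - 2 * (κ * (κ / r)) * ‖(cz π ρ x r W zh).x z‖) * ‖(cz π ρ x r W zh).x z‖ ^ 2 +
      ‖(cz π ρ x r W zh).nu z‖ ^ 2 -
      2 * (κ / r * ‖(cz π ρ x r W zh).x z‖ ^ 2 * ‖(cz π ρ x r W zh).nu z‖) ≤ ‖z - zh‖ ^ 2 at h1
  set a := ‖(cz π ρ x r W zh).x z‖ with ha
  set b := ‖(cz π ρ x r W zh).nu z‖ with hb
  have ha0 : 0 ≤ a := norm_nonneg _
  have hb0 : 0 ≤ b := norm_nonneg _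
  have e1 : 2 * (κ * (κ / r)) * a ≤ 3 / 2 * κ := by
    calc 2 * (κ * (κ / r)) * a ≤ 2 * (κ * (κ / r)) * (6 * r) := by gcongr
      _ = 12 * κ * κ := by field_simp; ring
      _ ≤ 12 * κ * (1 / 8) := by gcongr
      _ = _ := by ring
  have e2 : κ / r * b ≤ κ / 4 := by
    calc κ / r * b ≤ κ / r * (r / 4) := by gcongr
      _ = _ := by field_simp
  have e3 : (1 - 2 * κ) * a ^ 2 ≤ ‖z - zh‖ ^ 2 := by
    have e4 : 2 * (κ * (κ / r)) * a * a ^ 2 ≤ 3 / 2 * κ * a ^ 2 := by gcongr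
    have e5 : κ / r * b * a ^ 2 ≤ κ / 4 * a ^ 2 := by gcongr
    nlinarith [sq_nonneg b]
  refine abs_le_of_sq_le_sq' ?_ (by positivity) |>.2
  have e6 : 1 ≤ (1 + 2 * κ) ^ 2 * (1 - 2 * κ) := by nlinarith [mul_nonneg hk hk]
  calc a ^ 2 = 1 * a ^ 2 := (one_mul _).symm
    _ ≤ ((1 + 2 * κ) ^ 2 * (1 - 2 * κ)) * a ^ 2 := by gcongr
    _ = (1 + 2 * κ) ^ 2 * ((1 - 2 * κ) * a ^ 2) := by ring
    _ ≤ (1 + 2 * κ) ^ 2 * ‖z - zh‖ ^ 2 := by gcongr
    _ = _ := by ring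

/-- upper mass bound -/
theorem mass_W_le {δ η t : ℝ} (hδ : 0 ≤ δ) (hη : 0 ≤ η)
    (hrat : rat m V zh (16 * r) ≤ ENNReal.ofReal (Q + δ))
    {K' : Set (Euc k)} (hK' : K' ⊆ Kz π ρ x r W zh (h0 m Q ε)) (ht : 0 < t)
    (ht1 : (1 + κ + η) * t ≤ 16 * r)
    (hnu : ∀ z ∈ K', ‖(cz π ρ x r W zh).x z‖ < t → ‖(cz π ρ x r W zh).nu z‖ ≤ η * t) :
    V.real (Wt (cz π ρ x r W zh) K' t ×ˢ univ) ≤
      (Q + δ) * (ome m * ((1 + κ + η) * t) ^ m) := by
  have hr := h.hr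
  have hk := h.k0
  have hU := LowF13_471.Qx.closedBall_U h (a := 16 * r) (by linarith)
  have h1 := mass_le h.cx.st h.cx.hm hU (by positivity) hrat (t := (1 + κ + η) * t)
    (by positivity) ht1
  refine le_trans ?_ h1
  refine ENNReal.toReal_mono (fin_ball h.cx.st hU ht1).ne (measure_mono (prod_mono_left ?_))
  rintro z ⟨hz, hzt⟩
  rw [mem_ball, dist_eq_norm]
  have h2 := norm_sub_le h (hK' hz)
  have h3 := hnu z hz hzt
  have h4 : (1 + κ) * ‖(cz π ρ x r W zh).x z‖ < (1 + κ) * t := by gcongr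
  linarith

/-- lower mass bound -/
theorem mass_W_ge {K' : Set (Euc k)} (hK' : K' ⊆ Kz π ρ x r W zh (h0 m Q ε))
    (hae : ∀ᵐ p ∂(V.restrict (Kz π ρ x r W zh (h0 m Q ε) ×ˢ univ)), p.1 ∈ K') {t : ℝ}
    (ht : 0 < t) (ht1 : t ≤ r) :
    Q * (ome m * (t / (1 + 2 * κ)) ^ m) ≤ V.real (Wt (cz π ρ x r W zh) K' t ×ˢ univ) := by
  have hr := h.hr
  have hk := h.k0
  have ht2 : t / (1 + 2 * κ) ≤ t := by
    rw [div_le_iff₀ (by positivity)]
    nlinarith
  have hU := LowF13_471.Qx.closedBall_U h (a := r) (by linarith)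
  have h1 := mass_ge h.cx.st h.cx.hm hU h.th (t := t / (1 + 2 * κ)) (by positivity)
    (ht2.trans ht1)
  refine h1.trans ?_
  have hfin : V (Wt (cz π ρ x r W zh) K' t ×ˢ univ) < ⊤ :=
    (measure_mono (prod_mono_left (fun z hz => hK' hz.1))).trans_lt
      (h.cx.st.fin _ (isCompact_Kz h.gr _) (h.Kz_U h.hs))
  refine ENNReal.toReal_mono hfin.ne (measure_mono_ae ?_)
  have hK : MeasurableSet (Kz π ρ x r W zh (h0 m Q ε) ×ˢ (univ : Set (L k))) :=
    (isCompact_Kz h.gr _).isClosed.measurableSet.prod MeasurableSet.univ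
  filter_upwards [LowF13_471.Qx.cov h (a := r) le_rfl, (ae_restrict_iff' hK).1 hae] with p h2 h3 h4
  have h5 : ‖p.1 - zh‖ < t / (1 + 2 * κ) := by
    have := h4.1
    rwa [mem_ball, dist_eq_norm] at this
  have h6 := h2 (by linarith)
  refine ⟨⟨h3 ⟨h6, mem_univ _⟩, ?_⟩, mem_univ _⟩
  have h7 := norm_x_le h h6
  calc ‖(cz π ρ x r W zh).x p.1‖ ≤ (1 + 2 * κ) * ‖p.1 - zh‖ := h7
    _ < (1 + 2 * κ) * (t / (1 + 2 * κ)) := by gcongr
    _ = t := by field_simp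

omit h in
theorem pow_bd {m Q : ℕ} (hm : 1 ≤ m) {a : ℝ} (ha : 0 ≤ a) (ha1 : 16 * (Q + 1) * m * a ≤ 1) :
    (1 + a) ^ m ≤ 1 + 2 * m * a := by
  have hm0 : (1:ℝ) ≤ m := by exact_mod_cast hm
  have h1 : (1 + a) ^ m ≤ Real.exp (m * a) := by
    rw [Real.exp_nat_mul]
    exact pow_le_pow_left₀ (by linarith) (by linarith [Real.add_one_le_exp a]) m
  have h0 : 0 ≤ (m:ℝ) * a := by positivity
  have h2 : (m:ℝ) * a ≤ 1 := by
    have hQ : (0:ℝ) ≤ Q := Nat.cast_nonneg Q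
    nlinarith [mul_nonneg hQ h0]
  have h3 := Real.abs_exp_sub_one_le (x := m * a) (by rw [abs_of_nonneg h0]; exact h2)
  rw [abs_of_nonneg h0] at h3
  have := (abs_le.1 h3).2
  linarith

/-- **mass pinching at every scale** -/
theorem mass_W {δ η t : ℝ} (hδ : 0 ≤ δ) (hδ8 : δ ≤ 1 / 8) (hη : 0 ≤ η)
    (hsm : 16 * (Q + 1) * m * (κ + η) ≤ 1)
    (hrat : rat m V zh (16 * r) ≤ ENNReal.ofReal (Q + δ))
    {K' : Set (Euc k)} (hK' : K' ⊆ Kz π ρ x r W zh (h0 m Q ε))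
    (hae : ∀ᵐ p ∂(V.restrict (Kz π ρ x r W zh (h0 m Q ε) ×ˢ univ)), p.1 ∈ K')
    (ht : 0 < t) (ht1 : t ≤ r)
    (hnu : ∀ z ∈ K', ‖(cz π ρ x r W zh).x z‖ < t → ‖(cz π ρ x r W zh).nu z‖ ≤ η * t) :
    |V.real (Wt (cz π ρ x r W zh) K' t ×ˢ univ) - Q * (ome m * t ^ m)| ≤ ome m * t ^ m / 4 := by
  have hr := h.hr
  have hk := h.k0
  have hm1 := h.cx.hm
  have hm0 : (1:ℝ) ≤ m := by exact_mod_cast hm1
  have hQ0 : (0:ℝ) ≤ Q := Nat.cast_nonneg Q
  have hD := den_pos m ht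
  have h00 : 0 ≤ κ + η := by positivity
  have hsm1 : κ + η ≤ 1 := by
    have : 0 ≤ (Q:ℝ) * (m * (κ + η)) := by positivity
    nlinarith
  have h1 := mass_W_le h hδ hη hrat hK' ht (by
    calc (1 + κ + η) * t ≤ 2 * r := by
          apply mul_le_mul (by linarith) ht1 ht.le (by norm_num)
      _ ≤ 16 * r := by linarith) hnu
  have h2 := mass_W_ge h hK' hae ht ht1
  have h3 := pow_bd hm1 h00 hsm
  rw [abs_le]
  constructor
  · -- lower
    have h4 : (t / (1 + 2 * κ)) ^ m = t ^ m / (1 + 2 * κ) ^ m := div_pow _ _ _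
    have h5 : (1 + 2 * κ) ^ m ≤ Real.exp (m * (2 * κ)) := by
      rw [Real.exp_nat_mul]
      exact pow_le_pow_left₀ (by linarith) (by linarith [Real.add_one_le_exp (2 * κ)]) m
    have h6 : 1 - m * (2 * κ) ≤ 1 / (1 + 2 * κ) ^ m := by
      have h7 : 1 - m * (2 * κ) ≤ Real.exp (-(m * (2 * κ))) := by
        have := Real.add_one_le_exp (-(m * (2 * κ)))
        linarith
      refine h7.trans ?_
      rw [Real.exp_neg, ← one_div]
      exact one_div_le_one_div_of_le (by positivity) h5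
    have h8 : Q * (ome m * t ^ m) * (1 - m * (2 * κ)) ≤ V.real (Wt (cz π ρ x r W zh) K' t ×ˢ univ) := by
      calc Q * (ome m * t ^ m) * (1 - m * (2 * κ)) ≤
            Q * (ome m * t ^ m) * (1 / (1 + 2 * κ) ^ m) := by gcongr
        _ = Q * (ome m * (t / (1 + 2 * κ)) ^ m) := by rw [h4]; ring
        _ ≤ _ := h2
    have h9 : Q * (m * (2 * κ)) ≤ 1 / 8 := by
      have e1 : 0 ≤ (m:ℝ) * κ := by positivity
      have e2 : 0 ≤ (Q:ℝ) * (m * η) := by positivity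
      have e3 : 0 ≤ (m:ℝ) * η := by positivity
      nlinarith
    have h10 : Q * (m * (2 * κ)) * (ome m * t ^ m) ≤ 1 / 8 * (ome m * t ^ m) := by gcongr
    nlinarith
  · -- upper
    have h4 : ((1 + κ + η) * t) ^ m = (1 + (κ + η)) ^ m * t ^ m := by
      rw [mul_pow, add_assoc]
    have h5 : V.real (Wt (cz π ρ x r W zh) K' t ×ˢ univ) ≤
        (Q + δ) * (1 + 2 * m * (κ + η)) * (ome m * t ^ m) := by
      refine h1.trans ?_
      rw [h4]
      calc (Q + δ) * (ome m * ((1 + (κ + η)) ^ m * t ^ m)) =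
            (Q + δ) * (1 + (κ + η)) ^ m * (ome m * t ^ m) := by ring
        _ ≤ _ := by gcongr
    have h6 : (Q + δ) * (1 + 2 * m * (κ + η)) ≤ Q + 1 / 4 := by
      have e1 : (Q + δ) * (2 * m * (κ + η)) ≤ (Q + 1) * (2 * m * (κ + η)) := by
        gcongr
        linarith
      nlinarith
    have h7 : (Q + δ) * (1 + 2 * m * (κ + η)) * (ome m * t ^ m) ≤
        (Q + 1 / 4) * (ome m * t ^ m) := by gcongr
    linarith

end Qx

end Crest.Agent.R234.LowF14_471
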