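import Crest.Agent.R234.Ng4_290

/-!
# Row 234, node F7-GL, part 5 (helper290)

Final abstract form: `Gl` (all V-level inputs on one window) ==> `StepW` with
`w = P N^(2m+10) H^(1/(m+2)) II(cT) + ωb`, and `w = L^(-q) II(cT) + ωb` for `N ≤ A L^a`,
`H ≤ A e^(-L)`.
-/

set_option autoImplicit false
set_option linter.unusedVariables false

open MeasureTheory Set Function Filter Topology
open Crest.GeometryTopology.Submanifold
open Crest.Agent.R234.Vf_884 Crest.Agent.R234.Ar_870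
open Crest.Agent.R234.GL_394
open scoped ENNReal NNReal InnerProductSpace

noncomputable section

namespace Crest.Agent.R234.Ng_290

variable {m k : ℕ} {c : Ch m k} {K Kt Kh W U : Set (Euc k)} {D : Set (Euc m)}
  {V : Measure (Euc k × L k)} {g g1 g2 : ℝ → ℝ} {Q C0 C1 B : ℝ} {zN : Euc k → Euc k}

/-- collar of the total variation -/
def eN (N : ℝ) : ℝ := 1 / (4 * N)

/-- scale of the total variation: `(1 + eN) sN = e^(cT - 3/(4N))` -/
def sN (cT N : ℝ) : ℝ := Real.exp (cT - 3 / (4 * N)) / (1 + eN N)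

section scales
variable {cT N : ℝ} (hN : 1 ≤ N)
include hN

theorem eN_pos : 0 < eN N := by unfold eN; positivity
theorem eN_le : eN N ≤ 1 / 4 := by
  unfold eN
  rw [div_le_div_iff₀ (by positivity) (by norm_num)]
  linarith
omit hN in
theorem eN_inv : (eN N)⁻¹ = 4 * N := by unfold eN; rw [one_div, inv_inv]
theorem sN_pos : 0 < sN cT N := by
  have := eN_pos hN
  unfold sN; positivity
theorem sN_mul : (1 + eN N) * sN cT N = Real.exp (cT - 3 / (4 * N)) := by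
  have := eN_pos hN
  unfold sN; field_simp
theorem sN_ge : Real.exp (cT - 1) / 2 ≤ sN cT N := by
  have h1 := eN_pos hN
  have h2 := eN_le hN
  have h3 : Real.exp (cT - 1) ≤ Real.exp (cT - 3 / (4 * N)) := by
    refine Real.exp_le_exp.2 ?_
    have : 3 / (4 * N) ≤ 1 := by rw [div_le_one (by positivity)]; linarith
    linarith
  unfold sN
  rw [div_le_div_iff₀ (by norm_num) (by linarith)]
  have := Real.exp_pos (cT - 1)
  nlinarith
theorem sN_le : sN cT N ≤ Real.exp cT := by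
  have h1 := eN_pos hN
  have h4 : 0 < 3 / (4 * N) := by positivity
  have h3 : Real.exp (cT - 3 / (4 * N)) ≤ Real.exp cT := Real.exp_le_exp.2 (by linarith)
  unfold sN
  rw [div_le_iff₀ (by linarith)]
  have := Real.exp_pos cT
  nlinarith
theorem sN_half_le : (1 + eN N / 2) * sN cT N ≤ Real.exp (cT - 3 / (4 * N)) := by
  rw [← sN_mul hN (cT := cT)]
  have := sN_pos hN (cT := cT)
  have := eN_pos hN
  nlinarith
theorem sN_half_ge : Real.exp (cT - 1 / N) ≤ (1 + eN N / 2) * sN cT N := by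
  have h1 := eN_pos hN
  have h2 := eN_le hN
  have h0 : eN N ≤ 1 := by linarith
  have h34 : cT - 1 / N = (cT - 3 / (4 * N)) + -eN N := by
    have hN0 : N ≠ 0 := by positivity
    unfold eN; field_simp; ring
  have h5 := one_sub_exp_ge h1.le h0
  have h6 : Real.exp (-eN N) ≤ (1 + eN N / 2) / (1 + eN N) := by
    rw [le_div_iff₀ (by linarith)]
    nlinarith
  rw [h34, Real.exp_add]
  unfold sN
  calc Real.exp (cT - 3 / (4 * N)) * Real.exp (-eN N) ≤
        Real.exp (cT - 3 / (4 * N)) * ((1 + eN N / 2) / (1 + eN N)) :=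
        mul_le_mul_of_nonneg_left h6 (Real.exp_pos _).le
    _ = _ := by ring
end scales

/-- the total energy of 618 at the scale `sN` -/
def tN (c : Ch m k) (V : Measure (Euc k × L k)) (cT N κ : ℝ) : ℝ :=
  ((sN cT N)⁻¹) ^ m * ∫ p in Sr c (Real.exp (cT - 3 / (4 * N))), (c.tau p.1 p.2 +
        κ * (2 * c.f p.1 / (sN cT N) ^ 2)) ∂V

/-- **all inputs of F7-GL on one window** `[lo, cT]`, accuracy `1/N` -/
structure Gl (c : Ch m k) (W : Set (Euc k)) (D : Set (Euc m)) (U Kt : Set (Euc k))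
    (V : Measure (Euc k × L k)) (Q A C0 C1 Ct κ LT cT lo N : ℝ) (zN : Euc k → Euc k) : Prop where
  reg : Reg c W D
  loc : Loc c U W Kt V LT
  hcT : cT - 1 / (2 * N) ≤ LT
  hD : Metric.closedBall 0 (Real.exp cT) ⊆ D
  hmu : ∀ v : Euc m, ‖v‖ ≤ Real.exp cT → 1 / 2 ≤ c.mu v
  tau0 : ∀ p ∈ Kt ×ˢ G m k, 0 ≤ c.tau p.1 p.2
  sup : Sup c (VK V Kt) cT N C1
  kb : ∀ l ∈ Icc lo (cT - 1 / N), ∀ hh, 0 ≤ hh → hh ≤ 1 → ∀ K' ⊆ Kt, IsCompact K' →
      (∀ z ∈ K', ‖c.x z‖ ≤ Real.exp l → ‖c.nu z‖ ≤ hh * Real.exp l) →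
      KB c K' l (A * κ) (A * κ * hh) hh C0 zN
  tv : ∃ (e2 : Measure (Euc m)) (sig : ℝ),
    TV c (VK V Kt) Q ((1 + eN N / 2) * sN cT N) Ct (κ / (sN cT N) ^ 2) sig e2 ∧ 0 ≤ sig ∧
      sig ≤ Ct * ((eN N)⁻¹) ^ (2 * m + 2) * (sN cT N) ^ (m + 1) *
        (tN c (VK V Kt) cT N κ * tN c (VK V Kt) cT N κ ^ (1 / (m : ℝ)))

/-- constant of the final `w` -/
def PF (m : ℕ) (A B C0 C1 bl Ct T : ℝ) : ℝ := Pw m A B C0 C1 bl T + Ps m B Ct C1 bl T

/-- exponent of the height -/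
def th0 (m : ℕ) : ℝ := 1 / ((m : ℝ) + 2)

theorem th0_pos : 0 < th0 m := by unfold th0; positivity

/-- the constant of the heights condition -/
theorem pow_th_le {H : ℝ} (hm : 1 ≤ m) (hH : 0 ≤ H) (hH1 : H ≤ 1) :
    √H ≤ H ^ th0 m ∧ H ^ (1 / (m : ℝ)) ≤ H ^ th0 m := by
  have hm1 : (1:ℝ) ≤ m := by exact_mod_cast hm
  rcases hH.eq_or_lt with h0 | h0
  · rw [← h0, Real.sqrt_zero, Real.zero_rpow (one_div_ne_zero (by linarith : (m:ℝ) ≠ 0)),
      Real.zero_rpow (th0_pos (m := m)).ne']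
    exact ⟨le_rfl, le_rfl⟩
  · constructor
    · rw [Real.sqrt_eq_rpow]
      refine Real.rpow_le_rpow_of_exponent_ge h0 hH1 ?_
      unfold th0
      rw [div_le_div_iff₀ (by positivity) (by norm_num)]
      linarith
    · refine Real.rpow_le_rpow_of_exponent_ge h0 hH1 ?_
      unfold th0
      rw [div_le_div_iff₀ (by positivity) (by positivity)]
      linarith

set_option maxHeartbeats 1000000 in
/-- **F7-GL** -/
theorem Gl.stepW {LT cT N lo bl T κ A δb ωb Ct : ℝ} (hm : 1 ≤ m)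
    (h : Gl c W D U Kt V Q A C0 C1 Ct κ LT cT lo N zN) (hp : Pf g g1 g2 B)
    (hbl : 0 < bl) (hlow : ∀ a t, 0 ≤ t → t ≤ a → a ≤ 1 → bl * (1 - a) ^ 2 ≤ -g1 t)
    (hN : 1 ≤ N) (hlo : lo ≤ cT) (hT : cT - lo ≤ T) (hA : 0 ≤ A) (hC0 : 0 ≤ C0) (hκ : 0 ≤ κ)
    (hAκ : A * κ ≤ 1) (hκ1 : κ * (4 * Real.exp 2) ≤ 1) (hCt : 0 ≤ Ct)
    (hH1 : Ph m C1 bl T * N ^ (m + 2) * (Real.exp (-2 * cT) * II c (VK V Kt) g1 cT) ≤ 1)
    (hH2 : Real.exp (-2 * cT) * II c (VK V Kt) g1 cT ≤ 1)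
    (hδb : 0 ≤ δb) (hωb : 0 ≤ ωb)
    (hb : ∀ l ∈ Icc lo (cT - 1 / N), bb c (VK V Kt) g Q l ≤ δb * II c (VK V Kt) g1 l + ωb) :
    Nb_290.StepW (C2 Ct B) lo (cT - 1 / N) ((Cg m B C0 + C2 Ct B) * (2 * A) * κ + δb)
      (PF m A B C0 C1 bl Ct T * N ^ (2 * m + 10) *
        (Real.exp (-2 * cT) * II c (VK V Kt) g1 cT) ^ th0 m * II c (VK V Kt) g1 cT + ωb)
      (II c (VK V Kt) g1) (EE c (VK V Kt) g Q) (ee c (VK V Kt) g) (bb c (VK V Kt) g Q)
      (RF c (VK V Kt) g1 B (A * κ)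
        (A * κ * (√(Ph m C1 bl T * N ^ (m + 2) * (Real.exp (-2 * cT) *
          II c (VK V Kt) g1 cT))))) := by
  obtain ⟨e2, sig, hTV, hsig, hsig2⟩ := h.tv
  have hN0 : 0 < N := by linarith
  have hok : Ok c Kt D := h.reg.ok h.loc.cpt (h.loc.sub.trans inter_subset_left)
  have hOn := h.loc.toOn
  have hB : 0 ≤ B := (hp.nn 0 le_rfl).trans (hp.b0 0 le_rfl)
  have hC1 := h.sup.C1n
  have he2 : (1:ℝ) ≤ Real.exp 2 := Real.one_le_exp (by norm_num)
  have hκ2 : κ ≤ 1 := by nlinarith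
  set s := sN cT N with hs
  have hs0 : 0 < s := sN_pos hN
  set I := II c (VK V Kt) g1 cT with hIdef
  have hI : 0 ≤ I := II_nonneg hok hOn hp.pr.anti cT
  have hkq : κ / s ^ 2 * Real.exp (2 * cT) ≤ 1 := by
    have h1 := sN_ge hN (cT := cT)
    have h2 : Real.exp (2 * cT) ≤ 4 * Real.exp 2 * s ^ 2 := by
      have h3 : (Real.exp (cT - 1) / 2) ^ 2 ≤ s ^ 2 := pow_le_pow_left₀ (by positivity) h1 2
      have h4 : (Real.exp (cT - 1) / 2) ^ 2 * (4 * Real.exp 2) = Real.exp (2 * cT) := by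
        rw [div_pow, ← Real.exp_nat_mul]
        rw [show (2 * cT) = ((2:ℕ):ℝ) * (cT - 1) + 2 by push_cast; ring, Real.exp_add]
        ring
      have : (Real.exp (cT - 1) / 2) ^ 2 * (4 * Real.exp 2) ≤ s ^ 2 * (4 * Real.exp 2) :=
        mul_le_mul_of_nonneg_right h3 (by positivity)
      linarith
    rw [div_mul_eq_mul_div, div_le_one (by positivity)]
    calc κ * Real.exp (2 * cT) ≤ κ * (4 * Real.exp 2 * s ^ 2) := mul_le_mul_of_nonneg_left h2 hκ
      _ = κ * (4 * Real.exp 2) * s ^ 2 := by ring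
      _ ≤ 1 * s ^ 2 := mul_le_mul_of_nonneg_right hκ1 (by positivity)
      _ = s ^ 2 := one_mul _
  have hmain := stepW_num (T := T) hm h.reg h.loc h.hcT h.hD hp hbl hlow h.hmu hN h.sup hT hA
    hC0 hκ hAκ hκ2 h.kb hTV (sN_half_ge hN) (sN_half_le hN) hCt (by positivity) hkq hsig hH1 hδb
    hωb hb
  refine hmain.weaken le_rfl le_rfl ?_
  set H := Real.exp (-2 * cT) * I with hH
  have hH0 : 0 ≤ H := by positivity
  obtain ⟨q1, q2⟩ := pow_th_le hm hH0 hH2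
  set t := tN c (VK V Kt) cT N κ with ht
  have htle : t ≤ Pt m C1 bl * N ^ 4 * H :=
    tot_le hok hOn hp hbl hlow hN h.hmu h.sup (sN_ge hN) hκ hκ2
  have ht0 : 0 ≤ t := by
    rw [ht]
    unfold tN
    refine mul_nonneg (by positivity) ?_
    have hres : (VK V Kt).restrict (Sr c (Real.exp (cT - 3 / (4 * N)))) =
        (VK V Kt).restrict ((Kt ×ˢ G m k) ∩ Sr c (Real.exp (cT - 3 / (4 * N)))) :=
      region_eq hok hOn _
    rw [hres]
    refine setIntegral_nonneg (region_closed hok _).measurableSet fun p hp => ?_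
    have h1 := hok.f_nonneg hp.1.1
    have h2 := h.tau0 p hp.1
    positivity
  have hsig3 := sig_le (T := T) hm hB hCt hC1 hbl hN hs0.le (sN_le hN) hI
    (by rw [eN_inv]) (eN_pos hN) hlo hT ht0 htle
  have hsig4 : 2 * B * Real.exp ((1 - m) * lo) * sig ≤
      2 * B * Real.exp ((1 - m) * lo) * (Ct * ((eN N)⁻¹) ^ (2 * m + 2) * s ^ (m + 1) *
        (t * t ^ (1 / (m : ℝ)))) := mul_le_mul_of_nonneg_left hsig2 (by positivity)
  have hPw : 0 ≤ Pw m A B C0 C1 bl T := by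
    have := Cg_nonneg (m := m) hB hC0
    unfold Pw; positivity
  have hPs : 0 ≤ Ps m B Ct C1 bl T := by
    have : 0 ≤ Pt m C1 bl := by unfold Pt; positivity
    have := Real.rpow_nonneg this (1 / (m : ℝ))
    unfold Ps; positivity
  have hNp : N ^ (m + 6) ≤ N ^ (2 * m + 10) := pow_le_pow_right₀ hN (by omega)
  have a1 : Pw m A B C0 C1 bl T * N ^ (m + 6) * √H * I ≤
      Pw m A B C0 C1 bl T * N ^ (2 * m + 10) * H ^ th0 m * I := by gcongr
  have a2 : Ps m B Ct C1 bl T * N ^ (2 * m + 10) * H ^ (1 / (m : ℝ)) * I ≤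
      Ps m B Ct C1 bl T * N ^ (2 * m + 10) * H ^ th0 m * I := by gcongr
  unfold PF
  have a3 : (Pw m A B C0 C1 bl T + Ps m B Ct C1 bl T) * N ^ (2 * m + 10) * H ^ th0 m * I =
      Pw m A B C0 C1 bl T * N ^ (2 * m + 10) * H ^ th0 m * I +
      Ps m B Ct C1 bl T * N ^ (2 * m + 10) * H ^ th0 m * I := by ring
  linarith

end Crest.Agent.R234.Ng_290
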