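import Crest.Agent.R234.Qp3_534
import Crest.Agent.R234.Ng5_290
import Crest.Agent.R234.Fd4_534

/-!
# Row 234, node QP-CH (helper534), part 4: the frequency package at a `Q`-point from the one-level
inputs (sup bounds, pointwise bounds, total variation, soft sign, (F4), top bounds)
-/

set_option autoImplicit false
set_option linter.unusedVariables false
set_option linter.unusedSectionVars false

open MeasureTheory Filter Topology Set Metric
open scoped ENNReal NNReal ContDiff InnerProductSpace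
open Crest.GeometryTopology.Submanifold Crest.Agent.R234.Vf_884
open Crest.Agent.R234.Main_456 Crest.Agent.R234.F11_435
open Crest.Agent.R234.Gi_456
open Crest.Agent.R234.GI_640 (g3 g31 g32)
open Crest.Agent.R234.GL_394 (Pf pf_cubic KB TV)
open Crest.Agent.R234.Fd_534 (GT Cf rs sh fd_core)
open Crest.Agent.R234.Pin1_3 (FD NN)

noncomputable section

namespace Crest.Agent.R234.Qp_534

variable {m n k : ℕ}

/-- the top level of the sup bounds, `e^{cTop} = 2 e^{1/4} r` -/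
def cTop (r : ℝ) : ℝ := Real.log r + Real.log 2 + 1 / 4

/-- the level of the doubling, `e^{bTop} = 2 r` -/
def bTop (r : ℝ) : ℝ := Real.log r + Real.log 2

theorem cTop_sub (r : ℝ) : cTop r - 1 / 4 = bTop r := by unfold cTop bTop; ring

theorem exp_cTop {r : ℝ} (hr : 0 < r) : Real.exp (cTop r) ≤ 3 * r := by
  unfold cTop
  rw [Real.exp_add, Real.exp_add, Real.exp_log hr, Real.exp_log (by norm_num)]
  have h1 : Real.exp (1 / 4) ≤ 3 / 2 := by
    have h2 : Real.exp (1 / 4) ^ 4 = Real.exp 1 := by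
      rw [← Real.exp_nat_mul]; norm_num
    have h3 := Real.exp_one_lt_d9
    by_contra hcon
    push Not at hcon
    have h4 : (3 / 2 : ℝ) ^ 4 < Real.exp (1 / 4) ^ 4 := pow_lt_pow_left₀ hcon (by norm_num) (by norm_num)
    rw [h2] at h4
    norm_num at h4
    linarith
  nlinarith

/-- the one-level inputs at a `Q`-point. `lo` = bottom of the window. -/
structure Inp (U : Set (Euc k)) (V : Measure (Euc k × L k)) (Q : ℕ) (x : Euc k) (r : ℝ)
    (π : Euc k →L[ℝ] Euc m) (ρ : Euc k →L[ℝ] Euc n) (W : Euc m → Euc n) (zh : Euc k)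
    (t lo κ A C0 Cs Ct C1 θ : ℝ) : Prop where
  /-- 290's inputs: sup bounds of 685, pointwise bounds of 128, total variation of 618 -/
  gl : ∃ zN : Euc k → Euc k, Ng_290.Gl (cz π ρ x r W zh) (Tz π ρ x r W zh) univ U
    (Kz π ρ x r W zh t) V Q A C0 Cs Ct κ (Real.log (4 * r)) (cTop r) lo 4 zN
  /-- soft sign of 354 -/
  sg : ∀ l ∈ Icc lo (bTop r), bz V π ρ x r W zh t Q l ≤
    θ * Iz V π ρ x r W zh t l + θ * Iz V π ρ x r W zh t (bTop r)
  /-- top bounds of 435 -/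
  pos : 0 < Iz V π ρ x r W zh t (bTop r)
  eb : ez V π ρ x r W zh t (bTop r) ≤ C1 * Iz V π ρ x r W zh t (bTop r)
  Ic : Iz V π ρ x r W zh t (cTop r) ≤ C1 * Iz V π ρ x r W zh t (bTop r)
  /-- smallness of the height -/
  small : Real.exp (-2 * cTop r) * Iz V π ρ x r W zh t (cTop r) ≤ θ
  /-- (F4) of 471 -/
  f4 : ∀ l ∈ Icc lo (Real.log r - 3), -(θ * Iz V π ρ x r W zh t (bTop r)) ≤
    Ez V π ρ x r W zh t Q l - Iz V π ρ x r W zh t l / 2

/-- the constant of `StepW` -/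
def C2s (Ct : ℝ) : ℝ := max 1 (Ng_290.C2 Ct 6)

/-- the `d0` of the radial energy -/
def dz (V : Measure (Euc k × L k)) (x : Euc k) (r : ℝ)
    (π : Euc k →L[ℝ] Euc m) (ρ : Euc k →L[ℝ] Euc n) (W : Euc m → Euc n) (zh : Euc k)
    (t κ A Cs T : ℝ) : ℝ :=
  A * κ * √(Ng_290.Ph m Cs 3 T * 4 ^ (m + 2) *
    (Real.exp (-2 * cTop r) * Iz V π ρ x r W zh t (cTop r)))

/-- **the frequency package at a `Q`-point** (half `fd, top, sep` of `Pin8_3.CtrK`). -/
theorem ctr_fd (hm : 1 ≤ m) {A C0 Cs Ct C1 lm η : ℝ} (hA : 0 ≤ A) (hC0 : 0 ≤ C0) (hCs : 0 ≤ Cs)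
    (hCt : 0 ≤ Ct) (hC1 : 1 ≤ C1) (hlm : lm < -3) (hη : 0 < η) : ∃ θ : ℝ, 0 < θ ∧
    ∀ (k n : ℕ) (U : Set (Euc k)) (V : Measure (Euc k × L k)) (Q K : ℕ) (x : Euc k) (r : ℝ)
      (π : Euc k →L[ℝ] Euc m) (ρ : Euc k →L[ℝ] Euc n) (u : Euc m → Euc n) (ε C : ℝ)
      (W : Euc m → Euc n) (κ : ℝ) (zh : Euc k), Qx U V Q K x r π ρ u ε C W κ zh → κ ≤ θ →
      Inp U V Q x r π ρ W zh (h0 m Q ε) (Real.log r + lm - 2) κ A C0 Cs Ct C1 θ →
      Iz V π ρ x r W zh (h0 m Q ε) (bTop r) ≤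
        Real.exp (GT C1 (C2s Ct) 5) * Iz V π ρ x r W zh (h0 m Q ε) (-3 + sh r) ∧
      NN (rs r (Ez V π ρ x r W zh (h0 m Q ε) Q)) (rs r (Iz V π ρ x r W zh (h0 m Q ε))) (-3) ≤
        Cf m C1 (C2s Ct) 5 ∧
      ∃ R' : ℝ → ℝ, (∀ l ∈ Icc lm (-3), rs r (Rz V π ρ x r W zh (h0 m Q ε) (A * κ)
          (dz V x r π ρ W zh (h0 m Q ε) κ A Cs (3 - lm))) l ≤ R' l) ∧
        FD (rs r (Ez V π ρ x r W zh (h0 m Q ε) Q)) (rs r (Iz V π ρ x r W zh (h0 m Q ε)))
          (rs r (ez V π ρ x r W zh (h0 m Q ε))) (rs r (bz V π ρ x r W zh (h0 m Q ε) Q)) R' η lm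
          (-3) := by
  have hC2 : 1 ≤ C2s Ct := le_max_left _ _
  obtain ⟨k0, hk0, hcore⟩ := fd_core m hC1 hC2 hlm hη
  have hCg0 : 0 ≤ GL_394.Cg m 6 C0 := Ng_290.Cg_nonneg (by norm_num) hC0
  set P : ℝ := Ng_290.PF m A 6 C0 Cs 3 Ct (3 - lm) * 4 ^ (2 * m + 10) with hP
  set Pp : ℝ := Ng_290.Ph m Cs 3 (3 - lm) * 4 ^ (m + 2) with hPp
  have hPh0 : 0 ≤ Ng_290.Ph m Cs 3 (3 - lm) := by unfold Ng_290.Ph; positivity
  have hPt0 : 0 ≤ Ng_290.Pt m Cs 3 := by unfold Ng_290.Pt; positivity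
  have hPtr := Real.rpow_nonneg hPt0 (1 / (m : ℝ))
  have hP0 : 0 ≤ P := by
    rw [hP]
    unfold Ng_290.PF Ng_290.Pw Ng_290.Ps
    positivity
  have hPp0 : 0 ≤ Pp := by rw [hPp]; positivity
  have hN2 : 0 ≤ Ng_290.C2 Ct 6 := Ng_290.C2_nonneg hCt (by norm_num)
  set D : ℝ := (GL_394.Cg m 6 C0 + Ng_290.C2 Ct 6) * (2 * A) + 1 with hD
  have hD1 : 1 ≤ D := by
    rw [hD]
    have : 0 ≤ (GL_394.Cg m 6 C0 + Ng_290.C2 Ct 6) * (2 * A) := by positivity
    linarith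
  -- the threshold
  set θ : ℝ := min (min (min 1 (k0 / D)) (min (1 / (A + 1)) (1 / (Pp + 1))))
    (min (k0 / 2) (min ((k0 / (2 * (P * C1 + 1))) ^ (m + 2)) (1 / (4 * Real.exp 2)))) with hθ
  have hθ0 : 0 < θ := by
    refine lt_min (lt_min (lt_min one_pos ?_) (lt_min ?_ ?_)) (lt_min ?_ (lt_min ?_ ?_)) <;>
      positivity
  have t1 : θ ≤ 1 := (min_le_left _ _).trans ((min_le_left _ _).trans (min_le_left _ _))
  have t2 : θ ≤ k0 / D := (min_le_left _ _).trans ((min_le_left _ _).trans (min_le_right _ _))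
  have t3 : θ ≤ 1 / (A + 1) := (min_le_left _ _).trans ((min_le_right _ _).trans (min_le_left _ _))
  have t4 : θ ≤ 1 / (Pp + 1) :=
    (min_le_left _ _).trans ((min_le_right _ _).trans (min_le_right _ _))
  have t5 : θ ≤ k0 / 2 := (min_le_right _ _).trans (min_le_left _ _)
  have t6 : θ ≤ (k0 / (2 * (P * C1 + 1))) ^ (m + 2) :=
    (min_le_right _ _).trans ((min_le_right _ _).trans (min_le_left _ _))
  have t7 : θ ≤ 1 / (4 * Real.exp 2) :=
    (min_le_right _ _).trans ((min_le_right _ _).trans (min_le_right _ _))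
  refine ⟨θ, hθ0, ?_⟩
  intro k n U V Q K x r π ρ u ε C W κ zh h hκ H
  have hr := h.hr
  have hκ0 := h.k0
  set lo : ℝ := Real.log r + lm - 2 with hlo
  set I := Iz V π ρ x r W zh (h0 m Q ε) with hI
  have hIb := H.pos
  obtain ⟨zN, hgl⟩ := H.gl
  have hl2 : 0 < Real.log 2 := Real.log_pos (by norm_num)
  have hl2' : Real.log 2 ≤ 7 / 10 := by
    have := Real.log_two_lt_d9
    linarith
  have hIc0 : 0 ≤ I (cTop r) := h.Iz_nonneg _
  have hH0 : 0 ≤ Real.exp (-2 * cTop r) * I (cTop r) := by positivity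
  have step := hgl.stepW (bl := 3) (T := 3 - lm) (δb := θ) (ωb := θ * I (bTop r)) hm pf_cubic
    (by norm_num) (fun a t _ ht ha => GI_640.g31_lower' ha ht) (by norm_num)
    (by rw [hlo]; unfold cTop; linarith) (by rw [hlo]; unfold cTop; linarith) hA hC0 hκ0
    (by
      have h1 : A * κ ≤ A * θ := mul_le_mul_of_nonneg_left hκ hA
      have h2 : A * θ ≤ A * (1 / (A + 1)) := mul_le_mul_of_nonneg_left t3 hA
      have h3 : A * (1 / (A + 1)) ≤ 1 := by
        rw [mul_one_div, div_le_one (by positivity)]; linarith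
      linarith)
    (by
      have h1 : κ ≤ 1 / (4 * Real.exp 2) := hκ.trans t7
      rwa [le_div_iff₀ (by positivity)] at h1) hCt
    (by
      have h1 : Real.exp (-2 * cTop r) * I (cTop r) ≤ 1 / (Pp + 1) := H.small.trans t4
      calc Ng_290.Ph m Cs 3 (3 - lm) * 4 ^ (m + 2) * (Real.exp (-2 * cTop r) * I (cTop r))
          ≤ Pp * (1 / (Pp + 1)) := mul_le_mul_of_nonneg_left h1 hPp0
        _ ≤ 1 := by rw [mul_one_div, div_le_one (by positivity)]; linarith)
    (H.small.trans t1) hθ0.le (mul_nonneg hθ0.le hIb.le)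
    (by rw [cTop_sub]; exact H.sg)
  rw [cTop_sub] at step
  -- weaken the constants
  have hdel : (GL_394.Cg m 6 C0 + Ng_290.C2 Ct 6) * (2 * A) * κ + θ ≤ k0 := by
    have h1 : (GL_394.Cg m 6 C0 + Ng_290.C2 Ct 6) * (2 * A) * κ ≤
        (GL_394.Cg m 6 C0 + Ng_290.C2 Ct 6) * (2 * A) * θ :=
      mul_le_mul_of_nonneg_left hκ (by positivity)
    have h2 : D * θ ≤ D * (k0 / D) := mul_le_mul_of_nonneg_left t2 (by linarith)
    have h3 : D * (k0 / D) = k0 := by field_simp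
    have h4 : D * θ = (GL_394.Cg m 6 C0 + Ng_290.C2 Ct 6) * (2 * A) * θ + θ := by rw [hD]; ring
    linarith
  set w : ℝ := P * (Real.exp (-2 * cTop r) * I (cTop r)) ^ Ng_290.th0 m * I (cTop r) +
    θ * I (bTop r) with hw
  have hHr := Real.rpow_nonneg hH0 (Ng_290.th0 m)
  have hw0 : 0 ≤ w := by
    rw [hw]
    have : 0 ≤ θ * I (bTop r) := mul_nonneg hθ0.le hIb.le
    positivity
  have hwk : w ≤ k0 * I (bTop r) := by
    have hs : (Real.exp (-2 * cTop r) * I (cTop r)) ^ Ng_290.th0 m ≤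
        k0 / (2 * (P * C1 + 1)) := by
      have e1 : (Real.exp (-2 * cTop r) * I (cTop r)) ^ Ng_290.th0 m ≤
          ((k0 / (2 * (P * C1 + 1))) ^ (m + 2)) ^ Ng_290.th0 m :=
        Real.rpow_le_rpow hH0 (H.small.trans t6) (Ng_290.th0_pos (m := m)).le
      refine e1.trans (le_of_eq ?_)
      rw [← Real.rpow_natCast, ← Real.rpow_mul (by positivity)]
      have e2 : ((m + 2 : ℕ) : ℝ) * Ng_290.th0 m = 1 := by
        unfold Ng_290.th0
        push_cast
        field_simp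
      rw [e2, Real.rpow_one]
    have h1 : P * (Real.exp (-2 * cTop r) * I (cTop r)) ^ Ng_290.th0 m * I (cTop r) ≤
        k0 / 2 * I (bTop r) := by
      calc P * (Real.exp (-2 * cTop r) * I (cTop r)) ^ Ng_290.th0 m * I (cTop r)
          ≤ P * (k0 / (2 * (P * C1 + 1))) * (C1 * I (bTop r)) := by
            refine mul_le_mul (mul_le_mul_of_nonneg_left hs hP0) H.Ic hIc0 (by positivity)
        _ = (P * C1) / (P * C1 + 1) * (k0 / 2) * I (bTop r) := by
            field_simp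
        _ ≤ 1 * (k0 / 2) * I (bTop r) := by
            have : (P * C1) / (P * C1 + 1) ≤ 1 := by
              rw [div_le_one (by positivity)]; linarith
            gcongr
        _ = _ := by ring
    have h2 : θ * I (bTop r) ≤ k0 / 2 * I (bTop r) := mul_le_mul_of_nonneg_right t5 hIb.le
    rw [hw]
    linarith
  have step2 := step.weaken (C₁ := C2s Ct) (δ' := k0) (w' := w) (le_max_right _ _) hdel (by
    rw [hw]
    exact le_rfl)
  refine hcore I (Ez V π ρ x r W zh (h0 m Q ε) Q) (ez V π ρ x r W zh (h0 m Q ε))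
    (bz V π ρ x r W zh (h0 m Q ε) Q) _ r k0 w hr hk0.le le_rfl hw0 hwk hIb H.eb step2
    (fun l l' _ h2 _ => h.ez_mono h2) (fun l l' _ h2 _ => h.Iz_mono h2) ?_
  intro l hl
  have h1 := H.f4 l hl
  have h2 : θ * I (bTop r) ≤ k0 * I (bTop r) := mul_le_mul_of_nonneg_right (by linarith) hIb.le
  have h3 : Iz V π ρ x r W zh (h0 m Q ε) = I := rfl
  show -(k0 * I (bTop r)) ≤ _
  linarith

end Crest.Agent.R234.Qp_534
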