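import Crest.Agent.R234.LowF14_471
import Crest.Agent.R234.Qp4_534

/-!
# Row 234, (F4) LOW FREQUENCY, instance part 4 (helper471): the field `f4` of 534's `Inp`

`f4_inp` : from the anomaly bound `ErH` (618) and the soft sign `SoftH` (354) at all levels below
`log r - 3`.
-/

set_option autoImplicit false
set_option maxSynthPendingDepth 3

open MeasureTheory Filter Topology Set Metric
open scoped ENNReal NNReal ContDiff InnerProductSpace
open Crest.GeometryTopology.Submanifold Crest.Agent.R234.Vf_884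
open Crest.Agent.R234.Main_456 Crest.Agent.R234.F11_435
open Crest.Agent.R234.Gi_456 Crest.Agent.R234.Qp_534
open Crest.Agent.R234.GL_394
open Crest.Agent.R234.GI_640 (g3 g31 g32)
open Crest.Agent.R234.LowF8_471 Crest.Agent.R234.LowF9_471 Crest.Agent.R234.LowF10_471
open Crest.Agent.R234.LowF12_471
open Crest.Agent.R234.LowF13_471
open Crest.Agent.R234.LowF13_471.Qx (A0 A0_le)

noncomputable section

namespace Crest.Agent.R234.LowF15_471

variable {m n k : ℕ}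

/-- the anomaly bound at all levels below `L` (618) -/
def ErH (V : Measure (Euc k × L k)) (π : Euc k →L[ℝ] Euc m) (ρ : Euc k →L[ℝ] Euc n) (x : Euc k)
    (r : ℝ) (W : Euc m → Euc n) (zh : Euc k) (t : ℝ) (Q : ℕ) (κ A hs Lv : ℝ) : Prop :=
  ∀ l ≤ Lv, ∀ K' ⊆ Kz π ρ x r W zh t, IsCompact K' →
    (∀ z ∈ K', ‖(cz π ρ x r W zh).x z‖ ≤ 2 * Real.exp l →
      ‖(cz π ρ x r W zh).nu z‖ ≤ hs * Real.exp l) →
    (∀ᵐ p ∂(V.restrict (Kz π ρ x r W zh t ×ˢ univ)), p.1 ∈ K') →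
    Real.exp ((2 - m) * l) *
      |er1a (cz π ρ x r W zh) (V.restrict (Kz π ρ x r W zh t ×ˢ univ)) g3 Q l| ≤
    A * (κ * (Real.exp l / r)) * (Real.exp ((2 - m) * l) *
      ∫ p in Sh (cz π ρ x r W zh) (2 * Real.exp l), ((cz π ρ x r W zh).tau p.1 p.2 +
        qq (cz π ρ x r W zh) l p.1) ∂(V.restrict (Kz π ρ x r W zh t ×ˢ univ)))

/-- the soft sign of the anomaly at all levels below `L`, collar `[l, l + 3]` (354) -/
def SoftH (V : Measure (Euc k × L k)) (π : Euc k →L[ℝ] Euc m) (ρ : Euc k →L[ℝ] Euc n) (x : Euc k)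
    (r : ℝ) (W : Euc m → Euc n) (zh : Euc k) (t : ℝ) (Q : ℕ) (ε0 Lv : ℝ) : Prop :=
  ∀ l ≤ Lv, ∀ S, 0 < S → S ≤ ε0 →
    (∀ l' ∈ Icc l (l + 3), Real.exp (-(2 * l')) * Iz V π ρ x r W zh t l' ≤ S) →
    bz V π ρ x r W zh t Q l ≤ 1 / 256 * S * Real.exp (2 * l)

theorem b0_cubic (t : ℝ) (_h0 : 0 ≤ t) (h1 : t ≤ 1 / 4) : 27 / 16 ≤ -g31 t := by
  unfold g31
  have h2 : 3 / 4 ≤ max 0 (1 - t) := le_max_of_le_right (by linarith)
  have h3 := pow_le_pow_left₀ (by norm_num) h2 2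
  linarith

/-- **the field `f4` of `Inp`** -/
theorem f4_inp (hm : 1 ≤ m) (n Q : ℕ) {A hs ε0 lm θ : ℝ} (hA : A0 m n Q ≤ A) (hhs : 0 < hs)
    (hε0 : 0 < ε0) (hlm : lm < -3) (hθ : 0 < θ) : ∃ θ' : ℝ, 0 < θ' ∧
    ∀ (k K : ℕ) (U : Set (Euc k)) (V : Measure (Euc k × L k)) (x : Euc k) (r : ℝ)
      (π : Euc k →L[ℝ] Euc m) (ρ : Euc k →L[ℝ] Euc n) (u : Euc m → Euc n) (ε C : ℝ)
      (W : Euc m → Euc n) (κ : ℝ) (zh : Euc k), Qx U V Q K x r π ρ u ε C W κ zh → κ ≤ θ' →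
      rat m V zh (16 * r) ≤ ENNReal.ofReal (Q + 1) →
      ErH V π ρ x r W zh (h0 m Q ε) Q κ A hs (Real.log r - 3) →
      SoftH V π ρ x r W zh (h0 m Q ε) Q ε0 (Real.log r - 3) →
      Real.exp (-2 * cTop r) * Iz V π ρ x r W zh (h0 m Q ε) (cTop r) ≤ θ' →
      ∀ l ∈ Icc (Real.log r + lm - 2) (Real.log r - 3),
        -(θ * Iz V π ρ x r W zh (h0 m Q ε) (bTop r)) ≤
          Ez V π ρ x r W zh (h0 m Q ε) Q l - Iz V π ρ x r W zh (h0 m Q ε) l / 2 := by
  obtain ⟨A1, -, -, -, -⟩ := A0_le hA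
  have hA1 : 1 ≤ A := by
    have : (0:ℝ) ≤ m := Nat.cast_nonneg m
    linarith
  set T : ℝ := 4 - lm with hT
  have hT0 : 0 ≤ T := by rw [hT]; linarith
  set X : ℝ := Real.exp (m * T) with hX
  have hX0 : 0 < X := Real.exp_pos _
  set θ1 : ℝ := min 1 (θ / X) with hθ1
  have hθ10 : 0 < θ1 := lt_min one_pos (by positivity)
  have hθ1X : θ1 * X ≤ θ := by
    have : θ1 ≤ θ / X := min_le_right _ _
    rwa [le_div_iff₀ hX0] at this
  obtain ⟨κ1, hκ1, hκ11, H⟩ := f4 (m := m) hm (B := 6) (b0 := 27 / 16) (A := A) (C0 := m + 8)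
    (Q := Q) (cc := 3) (ε0 := ε0) (θ := θ1) (hs := hs) pf_cubic (by norm_num) b0_cubic hA1
    (by have : (0:ℝ) ≤ m := Nat.cast_nonneg m
        linarith) (Nat.cast_nonneg Q) le_rfl hε0 hθ10 (min_le_left _ _) hhs
  set Y : ℝ := Real.exp (m * T + m + 2 * T) with hY
  have hY0 : 0 < Y := Real.exp_pos _
  refine ⟨min κ1 (min (1 / (24 * A)) (κ1 / Y)), lt_min hκ1 (lt_min (by positivity)
    (by positivity)), ?_⟩
  intro k K U V x r π ρ u ε C W κ zh h hκ hrat her hsoft hsm l hl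
  have hr := h.hr
  have hk0 := h.k0
  have hlog2 : Real.log 2 ≤ 7 / 10 := Real.log_two_lt_d9.le.trans (by norm_num)
  have hlog20 : 0 ≤ Real.log 2 := Real.log_nonneg (by norm_num)
  have hel : Real.exp (l + 3) ≤ r := by
    rw [← Real.le_log_iff_exp_le hr]; linarith [hl.2]
  have hel0 : Real.exp l ≤ r := (Real.exp_le_exp.2 (by linarith)).trans hel
  have hAκ : 24 * (A * κ) ≤ 1 := by
    have h1 : κ ≤ 1 / (24 * A) := hκ.trans ((min_le_right _ _).trans (min_le_left _ _))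
    rw [le_div_iff₀ (by positivity)] at h1
    linarith
  have hκκ1 : κ ≤ κ1 := hκ.trans (min_le_left _ _)
  have hF := LowF13_471.Qx.fref h (g := g3) (g1 := g31) (g2 := g32) pf_cubic hA hAκ hrat
    (l0 := l) (by linarith) (hs := hs) (fun l' hl' => her l' (hl'.trans hl.2))
  have hIb := h.Iz_nonneg (bTop r)
  have hb : bTop r = cTop r - 1 / 4 := (cTop_sub r).symm
  -- the bound over the collar
  set D0 : ℝ := Real.exp (-(2 * l)) * (X * Iz V π ρ x r W zh (h0 m Q ε) (bTop r)) with hD0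
  have hD00 : 0 ≤ D0 := by positivity
  have hcol : ∀ l' ∈ Icc l (l + 3), Real.exp (-(2 * l')) * Iz V π ρ x r W zh (h0 m Q ε) l' ≤ D0 := by
    intro l' hl'
    have h1 : l' ≤ bTop r := by unfold bTop; linarith [hl'.2, hl.2]
    have h2 := h.Iz_mono h1
    have h3 : Real.exp (m * (bTop r - l')) ≤ X := by
      rw [hX]
      apply Real.exp_le_exp.2
      have : bTop r - l' ≤ T := by
        unfold bTop
        rw [hT]
        linarith [hl'.1, hl.1]
      gcongr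
    have h4 : Real.exp (-(2 * l')) ≤ Real.exp (-(2 * l)) := Real.exp_le_exp.2 (by linarith [hl'.1])
    calc Real.exp (-(2 * l')) * Iz V π ρ x r W zh (h0 m Q ε) l' ≤
        Real.exp (-(2 * l)) * (Real.exp (m * (bTop r - l')) *
          Iz V π ρ x r W zh (h0 m Q ε) (bTop r)) := by
          have := h.Iz_nonneg l'
          gcongr
      _ ≤ _ := by rw [hD0]; gcongr
  have hD0κ : D0 ≤ κ1 := by
    have h1 : Iz V π ρ x r W zh (h0 m Q ε) (bTop r) ≤
        Real.exp (m * (1 / 4)) * Iz V π ρ x r W zh (h0 m Q ε) (cTop r) := by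
      have := h.Iz_mono (l := bTop r) (l' := cTop r) (by rw [hb]; linarith)
      have e : cTop r - bTop r = 1 / 4 := by rw [hb]; ring
      rwa [e] at this
    have h2 : Iz V π ρ x r W zh (h0 m Q ε) (cTop r) ≤ Real.exp (2 * cTop r) * (κ1 / Y) := by
      have h3 := hsm.trans ((min_le_right _ _).trans (min_le_right _ _))
      have h4 := mul_le_mul_of_nonneg_left h3 (Real.exp_pos (2 * cTop r)).le
      rw [← mul_assoc, ← Real.exp_add] at h4
      have e : 2 * cTop r + -2 * cTop r = 0 := by ring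
      rwa [e, Real.exp_zero, one_mul] at h4
    have h5 : cTop r - l ≤ T := by
      unfold cTop
      rw [hT]
      linarith [hl.1]
    have h6 : Real.exp (-(2 * l)) * (X * (Real.exp (m * (1 / 4)) * Real.exp (2 * cTop r))) ≤ Y := by
      rw [hX, hY, ← Real.exp_add, ← Real.exp_add, ← Real.exp_add]
      apply Real.exp_le_exp.2
      have : (0:ℝ) ≤ m := Nat.cast_nonneg m
      linarith
    calc D0 ≤ Real.exp (-(2 * l)) * (X *
          (Real.exp (m * (1 / 4)) * (Real.exp (2 * cTop r) * (κ1 / Y)))) := by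
          rw [hD0]
          gcongr
          exact h1.trans (by gcongr)
      _ = (Real.exp (-(2 * l)) * (X * (Real.exp (m * (1 / 4)) * Real.exp (2 * cTop r)))) *
          (κ1 / Y) := by ring
      _ ≤ Y * (κ1 / Y) := by gcongr
      _ = κ1 := by field_simp
  have h1 := H k (cz π ρ x r W zh) (Kz π ρ x r W zh (h0 m Q ε)) univ U V zh
    (GLK_128.zN π ρ zh r (wz π x zh r W) 0) (κ * (Real.exp l / r)) D0 l (by positivity)
    (by
      have : Real.exp l / r ≤ 1 := (div_le_one hr).2 hel0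
      calc κ * (Real.exp l / r) ≤ κ * 1 := by gcongr
        _ ≤ κ1 := by rw [mul_one]; exact hκκ1) hD00 hD0κ hF
    (fun l' hl' S hS hSε hSb => hsoft l' (hl'.trans hl.2) S hS hSε
      (fun l'' hl'' => hSb l'' ⟨hl''.1, by linarith [hl''.2]⟩)) hcol
  change -θ1 * D0 ≤ Real.exp (-(2 * l)) * (Ez V π ρ x r W zh (h0 m Q ε) Q l -
    Iz V π ρ x r W zh (h0 m Q ε) l / 2) at h1
  have h2 : -(θ1 * X * Iz V π ρ x r W zh (h0 m Q ε) (bTop r)) ≤
      Ez V π ρ x r W zh (h0 m Q ε) Q l - Iz V π ρ x r W zh (h0 m Q ε) l / 2 := by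
    have e : -θ1 * D0 = Real.exp (-(2 * l)) *
        (-(θ1 * X * Iz V π ρ x r W zh (h0 m Q ε) (bTop r))) := by rw [hD0]; ring
    rw [e] at h1
    exact le_of_mul_le_mul_left h1 (Real.exp_pos _)
  refine le_trans (neg_le_neg ?_) h2
  gcongr

end Crest.Agent.R234.LowF15_471
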