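import Crest.Agent.R234.LowF8_471

/-!
# Row 234, (F4) LOW FREQUENCY, V level, part 2 (helper471)

`FRef` : a reference surface through a point `z0` of density `≥ Q`, with the pointwise bounds of
VF-GL at every level `l ≤ l0`, sup/energy bounds, anomaly bound.
`f4` : the lower frequency bound at `z0`.
-/

set_option autoImplicit false

open MeasureTheory Set Filter Topology Crest.GeometryTopology.Submanifold
open Crest.Agent.R234.Vf_884 Crest.Agent.R234.Cy_870
open scoped ENNReal NNReal InnerProductSpace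

noncomputable section

namespace Crest.Agent.R234.LowF9_471

open Crest.Agent.R234.GL_394
open Crest.Agent.R234.LowF4_471 (Lv lown)
open Crest.Agent.R234.LowF5_471
open Crest.Agent.R234.LowF7_471 (Lv.of_one)
open Crest.Agent.R234.LowF8_471

variable {m k : ℕ} {c : Ch m k} {K : Set (Euc k)} {D : Set (Euc m)}
  {g g1 g2 : ℝ → ℝ}

theorem Ok_mono (h : Ok c K D) {K' : Set (Euc k)} (hs : K' ⊆ K) (hc : IsCompact K') :
    Ok c K' D where
  cpt := hc
  opn := h.opn
  mem := fun z hz => h.mem z (hs hz)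
  hx := fun z hz => h.hx z (hs hz)
  hf := fun z hz => h.hf z (hs hz)
  hnu := fun z hz => h.hnu z (hs hz)
  hA := fun z hz => h.hA z (hs hz)
  cdx := h.cdx.mono hs
  cH := h.cH.mono hs
  cdA := h.cdA.mono hs
  ctau := h.ctau.mono (prod_mono_left hs)
  dxA := fun z hz => h.dxA z (hs hz)
  dxnu := fun z hz => h.dxnu z (hs hz)
  nusq := fun z hz => h.nusq z (hs hz)
  hgi := h.hgi
  cdgi := h.cdgi
  hj := h.hj
  clam := h.clam
  cmu := h.cmu
  mupos := h.mupos
  hmu := h.hmu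
  hbe := h.hbe
  hdbe := h.hdbe
  cdbe := h.cdbe

theorem KB_mono {l c0 d0 hh C0 c0' d0' C0' : ℝ} {zN : Euc k → Euc k}
    (h : KB c K l c0 d0 hh C0 zN) (hO : Ok c K D) (h0 : c0 ≤ c0') (h1 : d0 ≤ d0')
    (h2 : C0 ≤ C0') : KB c K l c0' d0' hh C0' zN := by
  have hq : ∀ p ∈ K ×ˢ G m k, 0 ≤ qq c l p.1 := fun p hp => qq_nonneg hO hp.1
  have hr : 0 < Real.exp (2 * l) := Real.exp_pos _
  exact
  { c0n := h.c0n.trans h0
    d0n := h.d0n.trans h1
    hhn := h.hhn
    hh1 := h.hh1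
    C0n := h.C0n.trans h2
    czN := h.czN
    tau0 := h.tau0
    taule := fun p hp hx => (h.taule p hp hx).trans h2
    qle := h.qle
    k1 := fun p hp hx => (h.k1 p hp hx).trans
      (mul_le_mul_of_nonneg_right h0 (add_nonneg (h.tau0 p hp hx) (hq p hp)))
    k2 := fun p hp hx => (h.k2 p hp hx).trans
      (mul_le_mul_of_nonneg_right h2 (add_nonneg (h.tau0 p hp hx) (hq p hp)))
    k3 := fun p hp hx v => (h.k3 p hp hx v).trans (by
      have := add_nonneg (h.tau0 p hp hx) (hq p hp)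
      gcongr)
    k4 := fun p hp hx => (h.k4 p hp hx).trans (by
      have a1 := h.tau0 p hp hx
      have a2 := hq p hp
      gcongr)
    k5 := fun z hz hx => (h.k5 z hz hx).trans (by gcongr)
    k5a := fun p hp hx => (h.k5a p hp hx).trans (by
      have a1 := h.tau0 p hp hx
      gcongr)
    k5b := fun p hp hx => (h.k5b p hp hx).trans (by
      have a1 := h.tau0 p hp hx
      have a2 := hq p hp
      gcongr)
    hth := fun v hv => (h.hth v hv).trans h0
    hth3 := fun v hv => (h.hth3 v hv).trans h0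
    hdbe := fun v hv => (h.hdbe v hv).trans h0
    hmu := h.hmu
    hgi := fun v hv => (h.hgi v hv).trans h2
    hdgv := fun v hv => (h.hdgv v hv).trans h2 }

theorem On_of_Stat {U : Set (Euc k)} {V : Measure (Euc k × L k)} (hK : IsCompact K)
    (hV : Stat m k U V) (hKU : K ⊆ U) : On (V.restrict (K ×ˢ univ)) m K where
  fin := ⟨by rw [Measure.restrict_apply_univ]; exact hV.fin K hK hKU⟩
  mem := by
    filter_upwards [ae_restrict_mem (hK.isClosed.measurableSet.prod MeasurableSet.univ),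
      ae_restrict_of_ae hV.conc] with p h1 h2
    exact ⟨h1.1, h2⟩

/-- the domain of the bottom inequality is the sharp region -/
theorem restrict_Dm {U : Set (Euc k)} {V : Measure (Euc k × L k)} (h : Ok c K D)
    (hV : Stat m k U V) (hKU : K ⊆ U) (s : ℝ) :
    V.restrict (Dm c K s) = (V.restrict (K ×ˢ univ)).restrict (Sh c (2 * s)) := by
  rw [restrict_Sh (On_of_Stat h.cpt hV hKU) (2 * s),
    Measure.restrict_restrict (measurableSet_KSh h (2 * s))]
  refine Measure.restrict_congr_set ?_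
  filter_upwards [hV.conc] with p hp
  refine propext ⟨fun h1 => ⟨⟨⟨h1.1, hp⟩, h1.2⟩, ⟨h1.1, mem_univ _⟩⟩, fun h1 => ⟨h1.1.1.1, h1.1.2⟩⟩

/-- a reference surface through `z0` with bounds at all levels `l ≤ l0` -/
structure FRef (c : Ch m k) (K : Set (Euc k)) (D : Set (Euc m)) (U : Set (Euc k))
    (V : Measure (Euc k × L k)) (z0 : Euc k) (g g1 : ℝ → ℝ) (A C0 Q κ l0 : ℝ)
    (zN : Euc k → Euc k) (hs : ℝ) : Prop where
  ok : Ok c K D
  st : Stat m k U V
  KU : K ⊆ U
  hU : Metric.closedBall z0 (4 * Real.exp l0) ⊆ U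
  hD : Metric.closedBall 0 (Real.exp (l0 + 3)) ⊆ D
  th : ENNReal.ofReal Q ≤ Th m V z0
  cov : ∀ᵐ p ∂V, ‖p.1 - z0‖ < Real.exp l0 → p.1 ∈ K
  dist : ∀ z ∈ K, (1 - A * κ * Real.exp (-l0) * ‖c.x z‖) * ‖c.x z‖ ^ 2 + ‖c.nu z‖ ^ 2
      - 2 * (A * κ * Real.exp (-l0) * ‖c.x z‖ ^ 2 * ‖c.nu z‖) ≤ ‖z - z0‖ ^ 2
  sm : ∀ z ∈ K, 8 * (A * κ * Real.exp (-l0) * ‖c.nu z‖) ≤ 1
  sm3 : ∀ z ∈ K, 4 * (A * κ * Real.exp (-l0) * ‖c.x z‖) ≤ 1
  hj : ∀ l ≤ l0, ∀ v, ‖v‖ ≤ Real.exp l → c.j v ≤ 1 + A * κ * Real.exp (-l0) * Real.exp l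
  hmu : ∀ l ≤ l0, ∀ v, ‖v‖ ≤ 2 * Real.exp l →
    |c.mu v - 1| ≤ A * κ * Real.exp (-l0) * Real.exp l
  mu2 : ∀ v : Euc m, ‖v‖ ≤ Real.exp (l0 + 3) → 1 / 2 ≤ c.mu v
  tau0 : ∀ p ∈ K ×ˢ G m k, 0 ≤ c.tau p.1 p.2
  sup : Sup c (V.restrict (K ×ˢ univ)) A (Real.exp (l0 + 3))
  kb : ∀ l ≤ l0, ∀ hh, 0 ≤ hh → hh ≤ 1 → ∀ K' ⊆ K, IsCompact K' →
    (∀ z ∈ K', ‖c.x z‖ ≤ Real.exp l → ‖c.nu z‖ ≤ hh * Real.exp l) →
    KB c K' l (A * (κ * Real.exp (l - l0))) (A * (κ * Real.exp (l - l0)) * hh) hh C0 zN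
  fv : ∀ l ≤ l0, FV (V.restrict (K ×ˢ univ)) (X1 c g l) = 0 ∧
    FV (V.restrict (K ×ˢ univ)) (X2 c g l) = 0 ∧ FV (V.restrict (K ×ˢ univ)) (X3 c g1 l) = 0
  er : ∀ l ≤ l0, ∀ K' ⊆ K, IsCompact K' →
    (∀ z ∈ K', ‖c.x z‖ ≤ 2 * Real.exp l → ‖c.nu z‖ ≤ hs * Real.exp l) →
    (∀ᵐ p ∂(V.restrict (K ×ˢ univ)), p.1 ∈ K') →
    Real.exp ((2 - m) * l) * |er1a c (V.restrict (K ×ˢ univ)) g Q l| ≤
    A * (κ * Real.exp (l - l0)) * (Real.exp ((2 - m) * l) *
      ∫ p in Sh c (2 * Real.exp l), (c.tau p.1 p.2 + qq c l p.1) ∂(V.restrict (K ×ˢ univ)))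
  dist2 : ∀ z ∈ K, ‖z - z0‖ ≤ 5 / 4 * ‖c.x z‖ + ‖c.nu z‖
  mass : ∀ l ≤ l0, V.real (Metric.ball z0 (4 * Real.exp l) ×ˢ univ) ≤ A * Real.exp (m * l)

/-- the energy + height over the double region -/
theorem int_sum (h : Ok c K D) {W : Measure (Euc k × L k)} (hV : On W m K) (l t : ℝ) :
    ∫ p in Sh c t, (c.tau p.1 p.2 + qq c l p.1) ∂W =
      ∫ p in Sh c t, c.tau p.1 p.2 ∂W + Real.exp (-2 * l) * ∫ p in Sh c t, 2 * c.f p.1 ∂W := by
  have i1 : Integrable (fun p : Euc k × L k => c.tau p.1 p.2) W := hV.integrable h.cpt h.ctau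
  have i2 : Integrable (fun p : Euc k × L k => 2 * c.f p.1) W :=
    hV.integrable h.cpt (continuousOn_const.mul (lift h.cf))
  have e : (fun p : Euc k × L k => c.tau p.1 p.2 + qq c l p.1) =
      fun p => c.tau p.1 p.2 + Real.exp (-2 * l) * (2 * c.f p.1) := rfl
  rw [e, integral_add i1.integrableOn (i2.const_mul _).integrableOn, integral_const_mul]

/-- the constant of one level -/
def Kb (m : ℕ) (A B b0 C0 Q Lp G : ℝ) : ℝ :=
  2 * A * Cg m B C0 + 2 * C1 m A b0 * Cg m B C0 * (C1 m A b0 + A) + 2 * A * C1 m A b0 +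
    16 * A ^ 2 * B + 512 * Lp * A * C1 m A b0 + 256 * Lp * A ^ 2 + A * B * (A + C1 m A b0) +
    Q * A * G + 2 * Lp * C1 m A b0 ^ 2 + 1

theorem C1_nonneg {A b0 : ℝ} (hA : 0 ≤ A) (hb0 : 0 ≤ b0) : 0 ≤ C1 m A b0 := by
  unfold C1; positivity

theorem Cg_nonneg {B C0 : ℝ} (hB : 0 ≤ B) (hC0 : 0 ≤ C0) : 0 ≤ Cg m B C0 := by
  unfold Cg; positivity

set_option maxHeartbeats 1000000 in
theorem FRef.lv (hm : 1 ≤ m) {U : Set (Euc k)} {V : Measure (Euc k × L k)} {z0 : Euc k}
    {A C0 Q κ l0 B b0 Lp hs : ℝ} {zN : Euc k → Euc k}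
    (hF : FRef c K D U V z0 g g1 A C0 Q κ l0 zN hs) (hhs : 0 ≤ hs)
    (hp : Pf g g1 g2 B) (hb0 : 0 < b0) (hb : ∀ t, 0 ≤ t → t ≤ 1 / 4 → b0 ≤ -g1 t) (hA : 1 ≤ A)
    (hC0 : 1 ≤ C0) (hQ : 0 ≤ Q) (hL : 0 ≤ Lp)
    (hLip : ∀ a b, 0 ≤ a → 0 ≤ b → |g1 a - g1 b| ≤ Lp * |a - b|) (hκ : 0 ≤ κ) (hκ1 : A * κ ≤ 1)
    {l S bt : ℝ} (hl : l ≤ l0) (hS : 0 < S) (hS1 : S ≤ 1) (hSC : C1 m A b0 * S ≤ 1 / 64)
    (hSh : C1 m A b0 * S ≤ hs ^ 2)
    (hJ : Real.exp (-(2 * (l + Real.log 8))) *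
      II c (V.restrict (K ×ˢ univ)) g1 (l + Real.log 8) ≤ S)
    (hbt : bb c (V.restrict (K ×ˢ univ)) g Q l ≤ bt) :
    Lv (EE c (V.restrict (K ×ˢ univ)) g Q) (II c (V.restrict (K ×ˢ univ)) g1) l
      (Kb m A B b0 C0 Q Lp (∫ v : Euc m, g (‖v‖ ^ 2)) *
        (κ * Real.exp (l - l0) + S ^ (1 / 2 : ℝ)))
      (Kb m A B b0 C0 Q Lp (∫ v : Euc m, g (‖v‖ ^ 2)) *
        (κ * Real.exp (l - l0) + S ^ (1 / 2 : ℝ)) * S * Real.exp (2 * l)) bt
      (Kb m A B b0 C0 Q Lp (∫ v : Euc m, g (‖v‖ ^ 2)) *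
        (κ * Real.exp (l - l0) + S ^ (1 + 1 / 2 : ℝ))) := by
  have hok := hF.ok
  have hOn := On_of_Stat hok.cpt hF.st hF.KU
  have hA0 : 0 ≤ A := by linarith
  have hB0 : 0 ≤ B := (hp.nn 0 le_rfl).trans (hp.b0 0 le_rfl)
  have hG0 : 0 ≤ ∫ v : Euc m, g (‖v‖ ^ 2) := integral_nonneg fun v => hp.nn _ (by positivity)
  have hf0 : ∀ p ∈ K ×ˢ G m k, 0 ≤ 2 * c.f p.1 := fun p hpm => by
    have := hok.f_nonneg hpm.1; linarith
  set W := V.restrict (K ×ˢ univ) with hW
  set Gi : ℝ := ∫ v : Euc m, g (‖v‖ ^ 2) with hGi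
  set C := C1 m A b0 with hC
  have hC0' : 0 ≤ C := C1_nonneg hA0 hb0.le
  set Gg := Cg m B C0 with hGg
  have hGg0 : 0 ≤ Gg := Cg_nonneg hB0 (by linarith)
  set lam : ℝ := κ * Real.exp (l - l0) with hlam
  have hel1 : Real.exp (l - l0) ≤ 1 := Real.exp_le_one_iff.2 (by linarith)
  have hlam0 : 0 ≤ lam := mul_nonneg hκ (Real.exp_pos _).le
  have hAlam : A * lam ≤ 1 := by
    calc A * lam = (A * κ) * Real.exp (l - l0) := by rw [hlam]; ring
      _ ≤ 1 * 1 := mul_le_mul hκ1 hel1 (Real.exp_pos _).le zero_le_one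
      _ = 1 := one_mul 1
  have hAlam0 : 0 ≤ A * lam := mul_nonneg hA0 hlam0
  have hel : 0 < Real.exp l := Real.exp_pos l
  have he2l : 0 < Real.exp (2 * l) := Real.exp_pos _
  have heml : 0 < Real.exp (m * l) := Real.exp_pos _
  have hex : Real.exp ((2 - m) * l) * Real.exp (m * l) = Real.exp (2 * l) := by
    rw [← Real.exp_add]; congr 1; ring
  have hexm : Real.exp (-2 * l) * Real.exp (2 * l) = 1 := by
    rw [← Real.exp_add]; simp
  -- level bounds
  have hT : 8 * Real.exp l ≤ Real.exp (l0 + 3) := by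
    rw [Real.exp_add, mul_comm]
    exact mul_le_mul (Real.exp_le_exp.2 hl) exp_three (by norm_num) (Real.exp_pos _).le
  obtain ⟨hf4, hnu, htau⟩ := level hok hOn hp.pr hb0 hb hA hS.le hT hF.mu2 hF.sup hJ
  have htau2 := htau hSC
  set h : ℝ := Real.sqrt (C * S) with hh
  have hCS0 : 0 ≤ C * S := mul_nonneg hC0' hS.le
  have hh0 : 0 ≤ h := Real.sqrt_nonneg _
  have hhsq : h ^ 2 = C * S := Real.sq_sqrt hCS0
  have hh1 : h ≤ 1 := by
    rw [hh, Real.sqrt_le_left (by norm_num)]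
    linarith
  have cf2 : ContinuousOn (fun p : Euc k × L k => 2 * c.f p.1) (K ×ˢ G m k) :=
    continuousOn_const.mul (lift hok.cf)
  have hf2 : ∫ p in Sh c (2 * Real.exp l), 2 * c.f p.1 ∂W ≤
      C * S * Real.exp (m * l) * Real.exp (2 * l) :=
    (int_Sh_mono hok hOn cf2 hf0 (by linarith)).trans hf4
  have hsum2 : ∫ p in Sh c (2 * Real.exp l), (c.tau p.1 p.2 + qq c l p.1) ∂W ≤
      2 * (C * S * Real.exp (m * l)) := by
    rw [int_sum hok hOn]
    have h1 := mul_le_mul_of_nonneg_left hf2 (Real.exp_pos (-2 * l)).le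
    have h2 : Real.exp (-2 * l) * (C * S * Real.exp (m * l) * Real.exp (2 * l)) =
        C * S * Real.exp (m * l) := by
      calc _ = C * S * Real.exp (m * l) * (Real.exp (-2 * l) * Real.exp (2 * l)) := by ring
        _ = _ := by rw [hexm, mul_one]
    rw [h2] at h1
    linarith
  have hOO : OO c W l ≤ 2 * (C * S * Real.exp (2 * l)) := by
    have h1 : ∫ p in Sh c (Real.exp l), (c.tau p.1 p.2 + qq c l p.1) ∂W ≤
        ∫ p in Sh c (2 * Real.exp l), (c.tau p.1 p.2 + qq c l p.1) ∂W :=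
      int_Sh_mono hok hOn (hok.ctau.add (hok.cqq l))
        (fun p hpm => add_nonneg (hF.tau0 p hpm) (qq_nonneg hok hpm.1)) (by linarith)
    have h2 := mul_le_mul_of_nonneg_left (h1.trans hsum2) (Real.exp_pos ((2 - m) * l)).le
    have h3 : OO c W l = Real.exp ((2 - m) * l) *
      ∫ p in Sh c (Real.exp l), (c.tau p.1 p.2 + qq c l p.1) ∂W := rfl
    rw [h3]
    refine h2.trans (le_of_eq ?_)
    calc _ = 2 * (C * S * (Real.exp ((2 - m) * l) * Real.exp (m * l))) := by ring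
      _ = _ := by rw [hex]
  -- the domain of the level
  set Kl : Set (Euc k) := {z | z ∈ K ∧ ‖c.nu z‖ ≤ h * Real.exp l} ∪
    {z | z ∈ K ∧ 5 / 2 * Real.exp l ≤ ‖c.x z‖} with hKl
  have hsub : Kl ⊆ K := union_subset (fun z hz => hz.1) (fun z hz => hz.1)
  have hKc : IsCompact Kl := by
    have a1 : IsClosed {z | z ∈ K ∧ ‖c.nu z‖ ≤ h * Real.exp l} :=
      hok.cnu.norm.preimage_isClosed_of_isClosed hok.cpt.isClosed isClosed_Iic
    have a2 : IsClosed {z | z ∈ K ∧ 5 / 2 * Real.exp l ≤ ‖c.x z‖} :=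
      hok.cx.norm.preimage_isClosed_of_isClosed hok.cpt.isClosed isClosed_Ici
    exact hok.cpt.of_isClosed_subset (a1.union a2) hsub
  have hOnl : On W m Kl := by
    refine ⟨hOn.fin, ?_⟩
    filter_upwards [hOn.mem, hnu] with p h1 h2
    refine ⟨?_, h1.2⟩
    rcases le_total (5 / 2 * Real.exp l) ‖c.x p.1‖ with h3 | h3
    · exact Or.inr ⟨h1.1, h3⟩
    · exact Or.inl ⟨h1.1, h2 (by linarith)⟩
  have hkb := hF.kb l hl h hh0 hh1 Kl hsub hKc (by
    rintro z (hz | hz) hx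
    · exact hz.2
    · exact absurd hz.2 (by linarith))
  have hhhs : h ≤ hs := by
    rw [hh]
    exact Real.sqrt_le_iff.2 ⟨hhs, hSh⟩
  have her : Real.exp ((2 - m) * l) * |er1a c W g Q l| ≤
      A * lam * (2 * (C * S * Real.exp (2 * l))) := by
    refine (hF.er l hl Kl hsub hKc (by
      rintro z (hz | hz) hx
      · exact hz.2.trans (mul_le_mul_of_nonneg_right hhhs hel.le)
      · exact absurd hz.2 (by linarith)) (by
      filter_upwards [hOnl.mem] with p hp using hp.1)).trans ?_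
    refine mul_le_mul_of_nonneg_left ?_ hAlam0
    have h2 := mul_le_mul_of_nonneg_left hsum2 (Real.exp_pos ((2 - m) * l)).le
    refine h2.trans (le_of_eq ?_)
    calc _ = 2 * (C * S * (Real.exp ((2 - m) * l) * Real.exp (m * l))) := by ring
      _ = _ := by rw [hex]
  have hOkl := Ok_mono hok hsub hKc
  obtain ⟨f1, f2, f3⟩ := hF.fv l hl
  obtain ⟨o1, o2, o3, o4, ⟨I', dI, dI'⟩, ⟨E', dE, dE'⟩, o7⟩ :=
    gl_out hOkl hOnl hp hkb hAlam Q (show l < l0 + 3 by linarith) hF.hD f1 f2 f3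
  -- numerical constants
  set KK : ℝ := Kb m A B b0 C0 Q Lp Gi with hKK
  set s2 : ℝ := S ^ (1 / 2 : ℝ) with hs2
  set s3 : ℝ := S ^ (1 + 1 / 2 : ℝ) with hs3
  have hSs2 : S ≤ s2 := by
    have := Real.rpow_le_rpow_of_exponent_ge hS hS1 (show (1 / 2 : ℝ) ≤ 1 by norm_num)
    rwa [Real.rpow_one] at this
  have hSs3 : S ^ 2 ≤ s3 := by
    have := Real.rpow_le_rpow_of_exponent_ge hS hS1 (show (1 + 1 / 2 : ℝ) ≤ 2 by norm_num)
    rwa [Real.rpow_two] at this
  have hs20 : 0 ≤ s2 := Real.rpow_nonneg hS.le _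
  have hs30 : 0 ≤ s3 := Real.rpow_nonneg hS.le _
  have hd0 : A * lam * h ≤ A * lam := by
    calc A * lam * h ≤ A * lam * 1 := mul_le_mul_of_nonneg_left hh1 hAlam0
      _ = _ := mul_one _
  have hKKp : 2 * A * Gg + 2 * C * Gg * (C + A) + 2 * A * C ≤ KK ∧
      16 * A ^ 2 * B + 512 * Lp * A * C + 256 * Lp * A ^ 2 + A * B * (A + C) +
        Q * A * Gi ≤ KK ∧ 2 * Lp * C ^ 2 ≤ KK := by
    have e : KK = 2 * A * Gg + 2 * C * Gg * (C + A) + 2 * A * C +
        16 * A ^ 2 * B + 512 * Lp * A * C + 256 * Lp * A ^ 2 + A * B * (A + C) +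
        Q * A * Gi + 2 * Lp * C ^ 2 + 1 := rfl
    have a1 : 0 ≤ 2 * A * Gg := by positivity
    have a2 : 0 ≤ 2 * C * Gg * (C + A) := by positivity
    have a3 : 0 ≤ 2 * A * C := by positivity
    have a4 : 0 ≤ 16 * A ^ 2 * B := by positivity
    have a5 : 0 ≤ 512 * Lp * A * C := by positivity
    have a6 : 0 ≤ 256 * Lp * A ^ 2 := by positivity
    have a7 : 0 ≤ A * B * (A + C) := by positivity
    have a8 : 0 ≤ Q * A * Gi := by positivity
    have a9 : 0 ≤ 2 * Lp * C ^ 2 := by positivity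
    refine ⟨by linarith, by linarith, by linarith⟩
  obtain ⟨hK1, hK2, hK3⟩ := hKKp
  have hK0 : 0 ≤ KK := le_trans (by positivity) hK3
  have hls : 0 ≤ lam + s2 := add_nonneg hlam0 hs20
  -- coefficient of the sharp terms
  have ht : Gg * (A * lam + A * lam * h) ≤ KK * (lam + s2) := by
    have h1 : Gg * (A * lam + A * lam * h) ≤ Gg * (A * lam + A * lam) :=
      mul_le_mul_of_nonneg_left (by linarith) hGg0
    have h2 : Gg * (A * lam + A * lam) = 2 * A * Gg * lam := by ring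
    have h3 : 2 * A * Gg * lam ≤ KK * (lam + s2) := by
      have a1 : 2 * A * Gg ≤ KK := by
        have a2 : 0 ≤ 2 * C * Gg * (C + A) := by positivity
        have a3 : 0 ≤ 2 * A * C := by positivity
        linarith
      exact mul_le_mul a1 (by linarith) hlam0 hK0
    linarith
  have hOO0 : 0 ≤ OO c W l := OO_nonneg hOkl hOnl hkb
  have ho : Gg * ((h ^ 2 + A * lam * h) * OO c W l) + A * lam * (2 * (C * S * Real.exp (2 * l))) ≤
      KK * (lam + s2) * S * Real.exp (2 * l) := by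
    have h1 : h ^ 2 + A * lam * h ≤ (C + A) * (lam + s2) := by
      rw [hhsq]
      have a1 : C * S ≤ C * s2 := mul_le_mul_of_nonneg_left hSs2 hC0'
      have a2 : 0 ≤ C * lam := mul_nonneg hC0' hlam0
      have a3 : 0 ≤ A * s2 := mul_nonneg hA0 hs20
      calc C * S + A * lam * h ≤ C * s2 + A * lam := by linarith
        _ ≤ C * s2 + A * lam + C * lam + A * s2 := by linarith
        _ = _ := by ring
    have h2 : (h ^ 2 + A * lam * h) * OO c W l ≤
        ((C + A) * (lam + s2)) * (2 * (C * S * Real.exp (2 * l))) :=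
      mul_le_mul h1 hOO hOO0 (mul_nonneg (by linarith) hls)
    have h3 := mul_le_mul_of_nonneg_left h2 hGg0
    have h4 : A * lam * (2 * (C * S * Real.exp (2 * l))) ≤
        A * (lam + s2) * (2 * (C * S * Real.exp (2 * l))) := by
      refine mul_le_mul_of_nonneg_right ?_ (by positivity)
      exact mul_le_mul_of_nonneg_left (by linarith) hA0
    have h5 : Gg * (((C + A) * (lam + s2)) * (2 * (C * S * Real.exp (2 * l)))) +
        A * (lam + s2) * (2 * (C * S * Real.exp (2 * l))) =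
        (2 * C * Gg * (C + A) + 2 * A * C) * ((lam + s2) * S * Real.exp (2 * l)) := by ring
    have h6 : (2 * C * Gg * (C + A) + 2 * A * C) * ((lam + s2) * S * Real.exp (2 * l)) ≤
        KK * ((lam + s2) * S * Real.exp (2 * l)) := by
      refine mul_le_mul_of_nonneg_right ?_ (by positivity)
      have a1 : 0 ≤ 2 * A * Gg := by positivity
      linarith
    calc _ ≤ Gg * (((C + A) * (lam + s2)) * (2 * (C * S * Real.exp (2 * l)))) +
        A * (lam + s2) * (2 * (C * S * Real.exp (2 * l))) := by linarith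
      _ ≤ KK * ((lam + s2) * S * Real.exp (2 * l)) := by rw [h5]; exact h6
      _ = _ := by ring
  have her0 : 0 ≤ A * lam * (2 * (C * S * Real.exp (2 * l))) := by positivity
  have hII0 := o2
  have hee0 := o3
  have htI : Gg * ((A * lam + A * lam * h) * II c W g1 l) ≤ KK * (lam + s2) * II c W g1 l := by
    calc _ = (Gg * (A * lam + A * lam * h)) * II c W g1 l := by ring
      _ ≤ _ := mul_le_mul_of_nonneg_right ht hII0
  have hte : Gg * ((A * lam + A * lam * h) * ee c W g l) ≤ KK * (lam + s2) * ee c W g l := by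
    calc _ = (Gg * (A * lam + A * lam * h)) * ee c W g l := by ring
      _ ≤ _ := mul_le_mul_of_nonneg_right ht hee0
  have hte0 : 0 ≤ KK * (lam + s2) * ee c W g l := by positivity
  refine Lv.of_one (e := ee c W g l) (b := bb c W g Q l)
    (R := RF c W g1 B (A * lam) (A * lam * h) l) (by positivity) (by positivity) o2 o3 o1 o4
    ⟨I', dI, dI'.trans (by linarith)⟩ ⟨E', dE, ?_⟩ ?_ hbt ?_
  · have h1 := (abs_le.1 dE').1
    have h2 : Gg * ((A * lam + A * lam * h) * ee c W g l + (A * lam + A * lam * h) * II c W g1 l) =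
      Gg * ((A * lam + A * lam * h) * ee c W g l) +
        Gg * ((A * lam + A * lam * h) * II c W g1 l) := by ring
    rw [h2] at h1
    linarith
  · refine o7.trans ?_
    have : KK * (lam + s2) * (ee c W g l + II c W g1 l) =
      KK * (lam + s2) * ee c W g l + KK * (lam + s2) * II c W g1 l := by ring
    linarith
  · -- the bottom
    have hκl : A * κ * Real.exp (-l0) * Real.exp l = A * lam := by
      rw [hlam, mul_assoc, ← Real.exp_add, mul_assoc]
      congr 3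
      ring
    have hκ0 : 0 ≤ A * κ * Real.exp (-l0) := by positivity
    have hbot := bottom_GL hm hok hF.st hF.KU (z0 := z0) (l := l)
      ((Metric.closedBall_subset_closedBall (by
        have := Real.exp_le_exp.2 hl
        linarith [Real.exp_pos l0])).trans hF.hU) hQ hF.th hp.pr
      (Kg := B) (fun t ht => ⟨by rw [abs_of_nonneg (hp.nn t ht)]; exact hp.b0 t ht, by
        rw [abs_of_nonpos (hp.pr.anti t ht)]; exact hp.b1 t ht⟩) hL hLip
      (κ0 := A * κ * Real.exp (-l0)) (κ3 := A * κ * Real.exp (-l0)) (h := h) (M0 := A)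
      (H := C * S) hκ0 hκ0 hh0
      (by
        filter_upwards [hF.cov] with p h1 h2
        exact h1 (h2.trans_le (Real.exp_le_exp.2 hl)))
      hF.dist hF.sm hF.sm3 (hF.hj l hl) (hF.hmu l hl)
      (by
        have h1 := (ae_restrict_iff' (hok.cpt.isClosed.measurableSet.prod
          (MeasurableSet.univ (α := L k)))).1 hnu
        filter_upwards [h1] with p h2 h3
        exact h2 ⟨h3.1, mem_univ _⟩ (h3.2.trans (by linarith)))
      (by
        refine le_trans ?_ (hF.mass l hl)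
        have hfin : V (Metric.ball z0 (4 * Real.exp l) ×ˢ univ) ≠ ⊤ := by
          refine ((measure_mono (prod_mono_left ?_)).trans_lt
            (hF.st.fin _ (isCompact_closedBall z0 (4 * Real.exp l0)) hF.hU)).ne
          refine (Metric.ball_subset_closedBall).trans (Metric.closedBall_subset_closedBall ?_)
          have := Real.exp_le_exp.2 hl
          linarith
        refine ENNReal.toReal_mono hfin (measure_mono_ae ?_)
        have h1 := (ae_restrict_iff' (hok.cpt.isClosed.measurableSet.prod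
          (MeasurableSet.univ (α := L k)))).1 hnu
        filter_upwards [h1] with p h2 h3
        have h4 := h2 ⟨h3.1, mem_univ _⟩ (h3.2.trans (by linarith))
        refine ⟨?_, mem_univ _⟩
        rw [Metric.mem_ball, dist_eq_norm]
        have h5 := hF.dist2 _ h3.1
        have h6 : ‖c.x p.1‖ ≤ 2 * Real.exp l := h3.2
        have h7 : h * Real.exp l ≤ 1 * Real.exp l := mul_le_mul_of_nonneg_right hh1 hel.le
        linarith)
      (by
        rw [restrict_Dm hok hF.st hF.KU]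
        refine le_trans (le_of_eq ?_) hf2
        refine integral_congr_ae ?_
        filter_upwards [ae_Sh hok hOn (2 * Real.exp l)] with p h1
        exact hok.nusq _ h1.1.1)
    refine le_trans (neg_le_neg ?_) hbot
    have t1 : 8 * (A * κ * Real.exp (-l0) * h + A * κ * Real.exp (-l0)) * Real.exp l * B * A =
        8 * (A * lam * h + A * lam) * B * A := by
      calc _ = 8 * ((A * κ * Real.exp (-l0) * Real.exp l) * h +
            A * κ * Real.exp (-l0) * Real.exp l) * B * A := by ring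
        _ = _ := by rw [hκl]
    rw [t1, hκl, hhsq]
    have hl2 : (A * lam) ^ 2 ≤ A * lam := by
      rw [pow_two]
      calc A * lam * (A * lam) ≤ A * lam * 1 := mul_le_mul_of_nonneg_left hAlam hAlam0
        _ = _ := mul_one _
    have u1 : 8 * (A * lam * h + A * lam) * B * A ≤ 16 * A ^ 2 * B * lam := by
      calc 8 * (A * lam * h + A * lam) * B * A ≤ 8 * (A * lam + A * lam) * B * A := by gcongr
        _ = _ := by ring
    have u2 : 2 * Lp * (C * S + 256 * (A * lam) ^ 2) * (C * S) ≤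
        2 * Lp * C ^ 2 * s3 + 512 * Lp * A * C * lam := by
      have v1 : 2 * Lp * (C * S + 256 * (A * lam) ^ 2) * (C * S) ≤
          2 * Lp * (C * S + 256 * (A * lam)) * (C * S) := by gcongr
      have v2 : 2 * Lp * (C * S + 256 * (A * lam)) * (C * S) =
          2 * Lp * C ^ 2 * S ^ 2 + 512 * Lp * A * C * lam * S := by ring
      have v3 : 2 * Lp * C ^ 2 * S ^ 2 ≤ 2 * Lp * C ^ 2 * s3 :=
        mul_le_mul_of_nonneg_left hSs3 (by positivity)
      have v4 : 512 * Lp * A * C * lam * S ≤ 512 * Lp * A * C * lam * 1 :=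
        mul_le_mul_of_nonneg_left hS1 (by positivity)
      linarith
    have u3 : 256 * Lp * (A * lam) ^ 2 * A ≤ 256 * Lp * A ^ 2 * lam := by
      calc 256 * Lp * (A * lam) ^ 2 * A ≤ 256 * Lp * (A * lam) * A := by gcongr
        _ = _ := by ring
    have u4 : A * lam * (B * A + B * (C * S)) ≤ A * B * (A + C) * lam := by
      have v1 : C * S ≤ C * 1 := mul_le_mul_of_nonneg_left hS1 hC0'
      calc A * lam * (B * A + B * (C * S)) ≤ A * lam * (B * A + B * (C * 1)) := by gcongr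
        _ = _ := by ring
    have u5 : Q * (A * lam * Gi) = Q * A * Gi * lam := by ring
    have u6 : (16 * A ^ 2 * B + 512 * Lp * A * C + 256 * Lp * A ^ 2 + A * B * (A + C) +
        Q * A * Gi) * lam ≤ KK * lam := mul_le_mul_of_nonneg_right hK2 hlam0
    have u7 : 2 * Lp * C ^ 2 * s3 ≤ KK * s3 := mul_le_mul_of_nonneg_right hK3 hs30
    rw [u5]
    calc _ ≤ 16 * A ^ 2 * B * lam + (2 * Lp * C ^ 2 * s3 + 512 * Lp * A * C * lam) +
        256 * Lp * A ^ 2 * lam + A * B * (A + C) * lam + Q * A * Gi * lam := by linarith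
      _ = (16 * A ^ 2 * B + 512 * Lp * A * C + 256 * Lp * A ^ 2 + A * B * (A + C) +
        Q * A * Gi) * lam + 2 * Lp * C ^ 2 * s3 := by ring
      _ ≤ KK * lam + KK * s3 := by linarith
      _ = _ := by ring

end Crest.Agent.R234.LowF9_471
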