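import Crest.Agent.R234.Pd5_435
import Crest.Agent.R234.Gi4_456
import Crest.Agent.R234.F11c_435
import Crest.Agent.R234.GL6_394

/-!
# Row 234, VF-F11 (helper435): V-level instance of `Pin3_3.Data`, part 6: (J), upper and lower bounds
of the height for the chart `ch` of a graph through the base point
-/

set_option autoImplicit false
set_option linter.unusedVariables false
set_option linter.unusedSectionVars false

open MeasureTheory Filter Topology Set Metric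
open scoped ENNReal NNReal InnerProductSpace
open Crest.GeometryTopology.Submanifold
open Crest.Agent.R234.Vf_884 Crest.Agent.R234.Ar_870 Crest.Agent.R234.Cy_870
open Crest.Agent.R234.GL_394
open Crest.Agent.R234.Main_456
open Crest.Agent.R234.Ell1_3 (adjL ginv gop)
open Crest.Agent.R234.GLK_128 (A0 AA BB gg hh Fr Inv NN TT Pj tau0)
open Crest.Agent.R234.Gi_456

noncomputable section

namespace Crest.Agent.R234.Pd_435

local notation "adj" => ContinuousLinearMap.adjoint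

variable {m n k : ℕ} {π : Euc k →L[ℝ] Euc m} {ρ : Euc k →L[ℝ] Euc n} {b : Euc k} {r : ℝ}
  {w : Euc m → Euc n} {κ κ₂ : ℝ}

theorem Pj_of_G {P : L k} (hP : P ∈ G m k) : Pj (Euc m) P := by
  refine ⟨hP.1, ?_, ?_⟩
  · have := hP.2.1
    rwa [IsSelfAdjoint, ContinuousLinearMap.star_eq_adjoint] at this
  · rw [finrank_euclideanSpace, Fintype.card_fin]
    exact hP.2.2

theorem tau_eq (X0 : Euc m) (p : Euc k) (P : L k) : (ch π ρ b r w X0).tau p P =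
    tau0 (adj π) (adj ρ) (fderiv ℝ w (foot π ρ b r w p)) (hinv (fderiv ℝ w (foot π ρ b r w p))) P :=
  rfl

theorem tau_nonneg (h : Gr r w) (hf : Frame π ρ) (X0 : Euc m) {p : Euc k}
    (hp : p ∈ tube π ρ b r w) {P : L k} (hP : P ∈ G m k) : 0 ≤ (ch π ρ b r w X0).tau p P := by
  rw [tau_eq]
  exact GLK_128.tau0_nonneg (frame_fr hf) (h.inv _ (h.norm_yy_lt hp).le) (Pj_of_G hP)

theorem xi_eq (h : Gr r w) (X0 : Euc m) {p : Euc k} (hp : p ∈ tube π ρ b r w) :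
    xi (ch π ρ b r w X0) p = xit π ρ b r w X0 p := by
  have h1 : xi (ch π ρ b r w X0) p = adj (Lo (fderiv ℝ w X0) ∘L dft π ρ b r w p)
      (Lo (fderiv ℝ w X0) (foot π ρ b r w p - X0)) := rfl
  have h2 : adj (Lo (fderiv ℝ w X0)) (Lo (fderiv ℝ w X0) (foot π ρ b r w p - X0)) =
      gg (fderiv ℝ w X0) (foot π ρ b r w p - X0) :=
    congrArg (fun T : L m => T (foot π ρ b r w p - X0)) (adj_Lo_Lo (fderiv ℝ w X0))
  have h3 : adj (Li w (foot π ρ b r w p) (yy π ρ b r w p)) =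
      Li w (foot π ρ b r w p) (yy π ρ b r w p) :=
    (h.inv (foot π ρ b r w p) (h.norm_yy_lt hp).le).Li_adj (h.Yo_adj _ _)
  rw [h1, ContinuousLinearMap.adjoint_comp, ContinuousLinearMap.comp_apply, h2]
  unfold dft
  rw [ContinuousLinearMap.adjoint_comp, ContinuousLinearMap.adjoint_adjoint, h3]
  rfl

theorem norm_adj_Lo_le {κ : ℝ} {q0 : Euc m →L[ℝ] Euc n} (h : ‖q0‖ ≤ κ) (v : Euc m) :
    ‖adj (Lo q0) v‖ ^ 2 ≤ (1 + κ ^ 2) * ‖v‖ ^ 2 := by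
  have hκ0 : 0 ≤ κ := (norm_nonneg q0).trans h
  have h1 : ‖Lo q0‖ ^ 2 ≤ 1 + κ ^ 2 := by
    have h2 : ‖Lo q0‖ ≤ √(1 + κ ^ 2) := by
      refine ContinuousLinearMap.opNorm_le_bound _ (Real.sqrt_nonneg _) fun z => ?_
      have h3 := norm_Lo_sq q0 z
      have h4 : ‖q0 z‖ ≤ κ * ‖z‖ := (q0.le_opNorm z).trans (by gcongr)
      have h5 : ‖Lo q0 z‖ ^ 2 ≤ (1 + κ ^ 2) * ‖z‖ ^ 2 := by
        rw [h3]
        have : ‖q0 z‖ ^ 2 ≤ (κ * ‖z‖) ^ 2 := pow_le_pow_left₀ (norm_nonneg _) h4 2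
        linarith
      calc ‖Lo q0 z‖ = √(‖Lo q0 z‖ ^ 2) := (Real.sqrt_sq (norm_nonneg _)).symm
        _ ≤ √((1 + κ ^ 2) * ‖z‖ ^ 2) := Real.sqrt_le_sqrt h5
        _ = _ := by rw [Real.sqrt_mul (by positivity), Real.sqrt_sq (norm_nonneg _)]
    calc ‖Lo q0‖ ^ 2 ≤ √(1 + κ ^ 2) ^ 2 := pow_le_pow_left₀ (norm_nonneg _) h2 2
      _ = _ := Real.sq_sqrt (by positivity)
  have h2 : ‖adj (Lo q0) v‖ ≤ ‖Lo q0‖ * ‖v‖ := by
    refine (ContinuousLinearMap.le_opNorm _ _).trans ?_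
    rw [GLK_128.norm_adj]
  calc ‖adj (Lo q0) v‖ ^ 2 ≤ (‖Lo q0‖ * ‖v‖) ^ 2 := pow_le_pow_left₀ (norm_nonneg _) h2 2
    _ = ‖Lo q0‖ ^ 2 * ‖v‖ ^ 2 := by ring
    _ ≤ _ := by gcongr

theorem le_norm_adj_Lo (q0 : Euc m →L[ℝ] Euc n) (v : Euc m) : ‖v‖ ^ 2 ≤ ‖adj (Lo q0) v‖ ^ 2 := by
  have h1 : adj (Loi q0) (adj (Lo q0) v) = v := by
    refine ext_inner_right ℝ fun u => ?_
    rw [ContinuousLinearMap.adjoint_inner_left, ContinuousLinearMap.adjoint_inner_left, Lo_Loi]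
  have h2 : ‖v‖ ≤ ‖adj (Lo q0) v‖ := by
    calc ‖v‖ = ‖adj (Loi q0) (adj (Lo q0) v)‖ := by rw [h1]
      _ ≤ ‖adj (Loi q0)‖ * ‖adj (Lo q0) v‖ := ContinuousLinearMap.le_opNorm _ _
      _ ≤ 1 * ‖adj (Lo q0) v‖ := by
          rw [GLK_128.norm_adj]
          gcongr
          exact (Loi_spec q0).2.2
      _ = _ := one_mul _
  exact pow_le_pow_left₀ (norm_nonneg _) h2 2

theorem quad_ginv {κ : ℝ} {q : Euc m →L[ℝ] Euc n} (h : ‖q‖ ≤ κ) (a : Euc m) :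
    ⟪a, ginv q a⟫_ℝ ≤ ‖a‖ ^ 2 ∧ ‖a‖ ^ 2 ≤ (1 + κ ^ 2) * ⟪a, ginv q a⟫_ℝ := by
  have hκ0 : 0 ≤ κ := (norm_nonneg q).trans h
  obtain ⟨c, hc⟩ : ∃ c, ginv q a = c := ⟨_, rfl⟩
  rw [hc]
  have hac : gg q c = a := by
    rw [← hc]
    exact congrArg (fun T : L m => T a) (Ell1_3.gop_ginv q)
  have e1 : ⟪a, c⟫_ℝ = ‖c‖ ^ 2 + ‖q c‖ ^ 2 := by rw [← hac]; exact GLK_128.gg_inner q c
  have hqc : ‖q c‖ ≤ κ * ‖c‖ := (q.le_opNorm c).trans (by gcongr)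
  have hqqc : ‖adj q (q c)‖ ≤ κ * ‖q c‖ := by
    refine (ContinuousLinearMap.le_opNorm _ _).trans ?_
    rw [GLK_128.norm_adj]
    gcongr
  have e2 : ‖a‖ ^ 2 = ‖c‖ ^ 2 + 2 * ‖q c‖ ^ 2 + ‖adj q (q c)‖ ^ 2 := by
    rw [← hac]
    have : gg q c = c + adj q (q c) := rfl
    rw [this, @norm_add_sq_real, ContinuousLinearMap.adjoint_inner_right, real_inner_self_eq_norm_sq]
  have hqc2 : ‖q c‖ ^ 2 ≤ κ ^ 2 * ‖c‖ ^ 2 := by
    rw [← mul_pow]; exact pow_le_pow_left₀ (norm_nonneg _) hqc 2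
  have hqqc2 : ‖adj q (q c)‖ ^ 2 ≤ κ ^ 2 * ‖q c‖ ^ 2 := by
    rw [← mul_pow]; exact pow_le_pow_left₀ (norm_nonneg _) hqqc 2
  rw [e1, e2]
  constructor
  · have := sq_nonneg ‖q c‖
    have := sq_nonneg ‖adj q (q c)‖
    linarith
  · calc ‖c‖ ^ 2 + 2 * ‖q c‖ ^ 2 + ‖adj q (q c)‖ ^ 2
        ≤ ‖c‖ ^ 2 + ‖q c‖ ^ 2 + κ ^ 2 * ‖c‖ ^ 2 + κ ^ 2 * ‖q c‖ ^ 2 := by linarith
      _ = _ := by ring

theorem quad_giB {κ : ℝ} {q q0 : Euc m →L[ℝ] Euc n} (h : ‖q‖ ≤ κ) (h0 : ‖q0‖ ≤ κ) (hκ8 : κ ≤ 1 / 8)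
    (v : Euc m) : (1 - κ) * ‖v‖ ^ 2 ≤ ⟪adj (Lo q0) v, ginv q (adj (Lo q0) v)⟫_ℝ ∧
      ⟪adj (Lo q0) v, ginv q (adj (Lo q0) v)⟫_ℝ ≤ (1 + κ) * ‖v‖ ^ 2 := by
  have hκ0 : 0 ≤ κ := (norm_nonneg q).trans h
  obtain ⟨h1, h2⟩ := quad_ginv h (adj (Lo q0) v)
  have h3 := norm_adj_Lo_le h0 v
  have h4 := le_norm_adj_Lo q0 v
  generalize ⟪adj (Lo q0) v, ginv q (adj (Lo q0) v)⟫_ℝ = I at *
  generalize ‖adj (Lo q0) v‖ ^ 2 = A at *
  have hn := sq_nonneg ‖v‖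
  generalize ‖v‖ ^ 2 = B at *
  have hκ2 : κ ^ 2 ≤ κ := by nlinarith
  have hI : 0 ≤ I := by
    by_contra hcon
    push Not at hcon
    have : (1 + κ ^ 2) * I < 0 := mul_neg_of_pos_of_neg (by positivity) hcon
    linarith
  constructor
  · have h6 : 0 ≤ 1 - κ := by linarith
    have h5 : (1 - κ) * (1 + κ ^ 2) ≤ 1 := by
      have : 0 ≤ κ * (1 - κ) := mul_nonneg hκ0 h6
      have : 0 ≤ κ ^ 3 := by positivity
      nlinarith
    calc (1 - κ) * B ≤ (1 - κ) * ((1 + κ ^ 2) * I) := by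
          gcongr
          linarith
      _ = ((1 - κ) * (1 + κ ^ 2)) * I := by ring
      _ ≤ 1 * I := by gcongr
      _ = _ := one_mul _
  · calc I ≤ (1 + κ ^ 2) * B := h1.trans h3
      _ ≤ (1 + κ) * B := by gcongr

/-- the radial function of the base metric is close to one -/
theorem abs_mu_sub (hs : Sm w κ κ₂) (X0 v : Euc m) : |(ch π ρ b r w X0).mu v - 1| ≤ κ := by
  have hκ0 := hs.k0
  have hmu : (ch π ρ b r w X0).mu v = muG (giB w X0) v := rfl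
  rw [hmu]
  by_cases hv : v = 0
  · rw [hv, muG_zero]; simpa using hκ0
  have hn2 : 0 < ‖v‖ ^ 2 := by
    have : 0 < ‖v‖ := norm_pos_iff.2 hv
    positivity
  have hmain : ⟪v, giB w X0 v v⟫_ℝ = ⟪adj (Lo (fderiv ℝ w X0)) v,
      ginv (fderiv ℝ w (pt w X0 v)) (adj (Lo (fderiv ℝ w X0)) v)⟫_ℝ := by
    have : giB w X0 v v = Lo (fderiv ℝ w X0)
      (ginv (fderiv ℝ w (pt w X0 v)) (adj (Lo (fderiv ℝ w X0)) v)) := rfl
    rw [this, ← ContinuousLinearMap.adjoint_inner_left]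
  obtain ⟨h1, h2⟩ := quad_giB (hs.k1 (pt w X0 v)) (hs.k1 X0) hs.k8 v
  rw [muG_of_ne hv, hmain, abs_le]
  constructor
  · rw [le_sub_iff_add_le, le_div_iff₀ hn2]
    linarith
  · rw [sub_le_iff_le_add, div_le_iff₀ hn2]
    linarith

theorem norm_chx_ge (X0 : Euc m) (p : Euc k) :
    ‖foot π ρ b r w p - X0‖ ≤ ‖(ch π ρ b r w X0).x p‖ := le_norm_Lo _ _

theorem norm_chx_le (hs : Sm w κ κ₂) (X0 : Euc m) (p : Euc k) :
    ‖(ch π ρ b r w X0).x p‖ ≤ 65 / 64 * ‖foot π ρ b r w p - X0‖ :=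
  norm_Lo_le ((hs.k1 _).trans hs.k8) _

/-- the part of the space over the cylinder of radius `t` about `X0` -/
def cyc (π : Euc k →L[ℝ] Euc m) (b : Euc k) (X0 : Euc m) (t : ℝ) : Set (Euc k × L k) :=
  {p | ‖π (p.1 - b) - X0‖ < t}

theorem measurableSet_cyc (X0 : Euc m) (t : ℝ) : MeasurableSet (cyc π b X0 t) :=
  (isOpen_lt (by fun_prop) continuous_const).measurableSet

/-- hypotheses on the compact set -/
structure Kz (π : Euc k →L[ℝ] Euc m) (ρ : Euc k →L[ℝ] Euc n) (b : Euc k) (r : ℝ) (w : Euc m → Euc n)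
    (κ κ₂ : ℝ) (Kc : Set (Euc k)) (h₀ : ℝ) : Prop where
  gr : Gr r w
  fr : Frame π ρ
  sm : Sm w κ κ₂
  cpt : IsCompact Kc
  tb : Kc ⊆ tube π ρ b r w
  ht : ∀ p ∈ Kc, ‖yy π ρ b r w p‖ ≤ h₀

variable {Kc : Set (Euc k)} {h₀ : ℝ}

theorem Kz.chx_le (h : Kz π ρ b r w κ κ₂ Kc h₀) {X0 : Euc m} {p : Euc k} (hp : p ∈ Kc) {t : ℝ}
    (ht : ‖π (p - b) - X0‖ < t) : ‖(ch π ρ b r w X0).x p‖ ≤ 65 / 64 * (t + h₀ / 8) := by
  refine (norm_chx_le h.sm X0 p).trans ?_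
  have h1 := norm_foot_sub_le h.gr (h.tb hp) h.sm
  have h2 := h.ht p hp
  have h3 := norm_sub_le_norm_sub_add_norm_sub (foot π ρ b r w p) (π (p - b)) X0
  have h4 : κ * ‖yy π ρ b r w p‖ ≤ 1 / 8 * h₀ := by
    have := h.sm.k0
    have := h.sm.k8
    have := norm_nonneg (yy π ρ b r w p)
    gcongr
  gcongr
  linarith

theorem Kz.lt_of_chx (h : Kz π ρ b r w κ κ₂ Kc h₀) {X0 : Euc m} {p : Euc k} (hp : p ∈ Kc) {s : ℝ}
    (hs : ‖(ch π ρ b r w X0).x p‖ < s) : ‖π (p - b) - X0‖ < s + h₀ / 8 := by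
  have h0 := norm_chx_ge (π := π) (ρ := ρ) (b := b) (r := r) (w := w) X0 p
  have h1 := norm_foot_sub_le h.gr (h.tb hp) h.sm
  have h2 := h.ht p hp
  have h3 := norm_sub_le_norm_sub_add_norm_sub (π (p - b)) (foot π ρ b r w p) X0
  rw [norm_sub_rev (π (p - b)) (foot π ρ b r w p)] at h3
  have h4 : κ * ‖yy π ρ b r w p‖ ≤ 1 / 8 * h₀ := by
    have := h.sm.k0
    have := h.sm.k8
    have := norm_nonneg (yy π ρ b r w p)
    gcongr
  linarith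

variable {V : Measure (Euc k × L k)} {g g1 g2 : ℝ → ℝ}

/-- **(J)** for the chart of a graph. -/
theorem Kz.J (h : Kz π ρ b r w κ κ₂ Kc h₀) (hV : On V m Kc) (hg : Prof g g1 g2) (X0 : Euc m)
    {l δ α cg t : ℝ} (hκ : κ ≤ δ) (hκ2 : κ₂ * Real.exp l ≤ δ) (hδ : δ ≤ 1 / 12) (hcg : 0 < cg)
    (ht : 0 ≤ t) (hg0 : ∀ y, 0 ≤ y → y ≤ 1 / 2 → cg ≤ g y ∧ cg ≤ -2 * g1 y)
    (hts : t ≤ 2 / 3 * Real.exp l) (hh₀ : h₀ ≤ 1 / 8 * Real.exp l) :
    Real.exp (-m * l) * ∫ p in cyc π b X0 t,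
      ‖dhw π ρ b w p.1 (p.2 (adj π (π (p.1 - b) - X0))) - α • hw π ρ b w p.1‖ ^ 2 ∂V ≤
      cg⁻¹ * (30 * (GL_394.RR (ch π ρ b r w X0) V g1 l - 2 * α * Ph (ch π ρ b r w X0) V g1 l +
        α ^ 2 * II (ch π ρ b r w X0) V g1 l) +
        2880 * δ ^ 2 * ee (ch π ρ b r w X0) V g l +
        1440 * δ ^ 2 * (5 + 5 * α ^ 2) * II (ch π ρ b r w X0) V g1 l) := by
  have hE := Real.exp_pos l
  have hδ0 : 0 ≤ δ := h.sm.k0.trans hκ
  have hok := h.gr.ok h.fr X0 h.cpt h.tb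
  have hfoot : ∀ p ∈ cyc π b X0 t, p.1 ∈ Kc → ‖foot π ρ b r w p.1 - X0‖ ≤ 2 * Real.exp l := by
    intro p hp hpK
    have h1 := (norm_chx_ge (π := π) (ρ := ρ) (b := b) (r := r) (w := w) X0 p.1).trans
      (h.chx_le hpK hp)
    linarith
  have h1 := F11_435.jint (n := n) hok hV hg (l := l) (ε := 12 * δ) (C₁ := 4) (α := α) (cg := cg)
    (by positivity) (by linarith) (by norm_num) hcg
    (fun p hp => tau_nonneg h.gr h.fr X0 (h.tb hp.1) hp.2)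
    (measurableSet_cyc (π := π) (b := b) X0 t)
    (w := fun p => adj π (π (p.1 - b) - X0)) (y := fun p => hw π ρ b w p.1)
    (Dh := fun p => dhw π ρ b w p.1)
    (fun p hp hpK => by
      refine hg0 _ (by positivity) ?_
      have e1 := h.chx_le hpK.1 hp
      have e2 : ‖(ch π ρ b r w X0).x p.1‖ ≤ 7 / 10 * Real.exp l := by linarith
      have e3 : ‖(ch π ρ b r w X0).x p.1‖ ^ 2 ≤ (7 / 10 * Real.exp l) ^ 2 :=
        pow_le_pow_left₀ (norm_nonneg _) e2 2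
      have e4 : Real.exp (-2 * l) * (Real.exp l) ^ 2 = 1 := by
        rw [← Real.exp_nat_mul, ← Real.exp_add]
        norm_num
      calc Real.exp (-2 * l) * ‖(ch π ρ b r w X0).x p.1‖ ^ 2
          ≤ Real.exp (-2 * l) * (7 / 10 * Real.exp l) ^ 2 := by gcongr
        _ = 49 / 100 * (Real.exp (-2 * l) * (Real.exp l) ^ 2) := by ring
        _ ≤ 1 / 2 := by rw [e4]; norm_num)
    (fun p hp hpK => by
      rw [xi_eq h.gr X0 (h.tb hpK.1)]
      exact xit_sub h.gr h.fr (h.tb hpK.1) h.sm hκ hκ2 hE (hfoot p hp hpK.1)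
        ((h.ht p.1 hpK.1).trans (by linarith)))
    (fun p hp hpK v => by
      have e1 := dhw_P h.gr h.fr (h.tb hpK.1) h.sm (Pj_of_G hpK.2) (δ := δ) (s := Real.exp l)
        (by linarith) hκ hκ2 hE v
      refine e1.trans ?_
      rw [← tau_eq X0]
      have e2 : δ ^ 2 ≤ (12 * δ) ^ 2 := by nlinarith [sq_nonneg δ]
      have e3 : nut π ρ b r w p.1 = (ch π ρ b r w X0).nu p.1 := rfl
      rw [e3]
      gcongr)
    (fun p hp hpK => by
      rw [xi_eq h.gr X0 (h.tb hpK.1)]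
      exact dhw_xit h.gr h.fr (h.tb hpK.1) h.sm hκ hκ2 hE (hfoot p hp hpK.1))
    (fun p hp hpK => by
      have e1 := hw_sub_dhw h.gr h.fr (h.tb hpK.1) h.sm hκ
      refine e1.trans ?_
      change δ * ‖(ch π ρ b r w X0).nu p.1‖ ≤ _
      gcongr
      linarith)
    (fun p hp hpK => norm_dhw_le h.fr h.sm)
    (fun p hp hpK => (abs_mu_sub h.sm X0 _).trans (by linarith))
    (fun p hp hpK => by
      have e1 := (abs_le.1 (abs_mu_sub (π := π) (ρ := ρ) (b := b) (r := r) h.sm X0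
        ((ch π ρ b r w X0).x p.1))).1
      have := h.sm.k8
      linarith)
    (fun p hp hpK => by
      have e1 := (abs_le.1 (abs_mu_sub (π := π) (ρ := ρ) (b := b) (r := r) h.sm X0
        ((ch π ρ b r w X0).x p.1))).2
      have := h.sm.k8
      linarith)
  refine h1.trans (le_of_eq ?_)
  ring

theorem Kz.II_integrand (h : Kz π ρ b r w κ κ₂ Kc h₀) (X0 : Euc m) {p : Euc k} (hp : p ∈ Kc) :
    ‖hw π ρ b w p‖ ^ 2 / 16 ≤ (ch π ρ b r w X0).f p * (ch π ρ b r w X0).mu ((ch π ρ b r w X0).x p) ∧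
    (ch π ρ b r w X0).f p * (ch π ρ b r w X0).mu ((ch π ρ b r w X0).x p) ≤
      3 * ‖hw π ρ b w p‖ ^ 2 := by
  have h1 := norm_hw_le h.gr h.fr (h.tb hp) h.sm
  have h2 := norm_nut_le_hw h.gr h.fr (h.tb hp) h.sm
  have h3 : (ch π ρ b r w X0).f p = ‖nut π ρ b r w p‖ ^ 2 / 2 := rfl
  have h4 := abs_le.1 (abs_mu_sub (π := π) (ρ := ρ) (b := b) (r := r) h.sm X0
    ((ch π ρ b r w X0).x p))
  have h8 := h.sm.k8
  rw [h3]
  have e1 : ‖hw π ρ b w p‖ ^ 2 ≤ 4 * ‖nut π ρ b r w p‖ ^ 2 := by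
    calc ‖hw π ρ b w p‖ ^ 2 ≤ (2 * ‖nut π ρ b r w p‖) ^ 2 := pow_le_pow_left₀ (norm_nonneg _) h1 2
      _ = _ := by ring
  have e2 : ‖nut π ρ b r w p‖ ^ 2 ≤ 4 * ‖hw π ρ b w p‖ ^ 2 := by
    calc ‖nut π ρ b r w p‖ ^ 2 ≤ (2 * ‖hw π ρ b w p‖) ^ 2 := pow_le_pow_left₀ (norm_nonneg _) h2 2
      _ = _ := by ring
  constructor
  · calc ‖hw π ρ b w p‖ ^ 2 / 16 ≤ ‖nut π ρ b r w p‖ ^ 2 / 2 * (1 / 2) := by linarith
      _ ≤ _ := by
        gcongr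
        linarith
  · calc ‖nut π ρ b r w p‖ ^ 2 / 2 * (ch π ρ b r w X0).mu ((ch π ρ b r w X0).x p)
        ≤ ‖nut π ρ b r w p‖ ^ 2 / 2 * (3 / 2) := by
          gcongr
          linarith
      _ ≤ _ := by linarith

theorem Kz.cont_hw (h : Kz π ρ b r w κ κ₂ Kc h₀) : Continuous (hw π ρ b w) := by
  have := h.gr.differentiable.continuous
  unfold hw
  fun_prop

/-- `lo` -/
theorem Kz.lo (h : Kz π ρ b r w κ κ₂ Kc h₀) (hV : On V m Kc) (hg : Prof g g1 g2) (X0 : Euc m)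
    {l cg t : ℝ} (hcg : 0 < cg) (hg0 : ∀ y, 0 ≤ y → y ≤ 1 / 2 → cg ≤ g y ∧ cg ≤ -2 * g1 y)
    (hts : t ≤ 2 / 3 * Real.exp l) (hh₀ : h₀ ≤ 1 / 8 * Real.exp l) :
    ∫ p in cyc π b X0 t, ‖hw π ρ b w p.1‖ ^ 2 ∂V ≤
      8 * cg⁻¹ * (Real.exp l ^ m * II (ch π ρ b r w X0) V g1 l) := by
  have hE := Real.exp_pos l
  have hok := h.gr.ok h.fr X0 h.cpt h.tb
  have hc1 := hg.k1.continuous
  have i3 : Integrable (fun p : Euc k × L k => ((ch π ρ b r w X0).f p.1 *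
      (ch π ρ b r w X0).mu ((ch π ρ b r w X0).x p.1)) *
      (-4 * g1 (Real.exp (-2 * l) * ‖(ch π ρ b r w X0).x p.1‖ ^ 2))) V :=
    hV.integrable h.cpt ((F11_435.cont_fmu hok).mul (continuousOn_const.mul
      (F11_435.cont_q hok hc1 l)))
  have hle : ∀ᵐ p ∂V, 0 ≤ ((ch π ρ b r w X0).f p.1 *
      (ch π ρ b r w X0).mu ((ch π ρ b r w X0).x p.1)) *
      (-4 * g1 (Real.exp (-2 * l) * ‖(ch π ρ b r w X0).x p.1‖ ^ 2)) := by
    filter_upwards [hV.mem] with p hp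
    have h1 := (h.II_integrand X0 hp.1).1
    have h2 := hg.anti (Real.exp (-2 * l) * ‖(ch π ρ b r w X0).x p.1‖ ^ 2) (by positivity)
    exact mul_nonneg (le_trans (by positivity) h1) (by linarith)
  have hmono : ∫ p in cyc π b X0 t, ‖hw π ρ b w p.1‖ ^ 2 ∂V ≤
      ∫ p in cyc π b X0 t, (8 * cg⁻¹) * (((ch π ρ b r w X0).f p.1 *
      (ch π ρ b r w X0).mu ((ch π ρ b r w X0).x p.1)) *
      (-4 * g1 (Real.exp (-2 * l) * ‖(ch π ρ b r w X0).x p.1‖ ^ 2))) ∂V := by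
    refine integral_mono_of_nonneg (Filter.Eventually.of_forall fun p => by positivity)
      (i3.const_mul _).integrableOn ?_
    filter_upwards [ae_restrict_of_ae hV.mem, ae_restrict_mem (measurableSet_cyc X0 t)] with p hp hpS
    have e1 := h.chx_le hp.1 hpS
    have e2 : ‖(ch π ρ b r w X0).x p.1‖ ≤ 7 / 10 * Real.exp l := by linarith
    have e3 : ‖(ch π ρ b r w X0).x p.1‖ ^ 2 ≤ (7 / 10 * Real.exp l) ^ 2 :=
      pow_le_pow_left₀ (norm_nonneg _) e2 2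
    have e4 : Real.exp (-2 * l) * (Real.exp l) ^ 2 = 1 := by
      rw [← Real.exp_nat_mul, ← Real.exp_add]
      norm_num
    have e5 : Real.exp (-2 * l) * ‖(ch π ρ b r w X0).x p.1‖ ^ 2 ≤ 1 / 2 := by
      calc Real.exp (-2 * l) * ‖(ch π ρ b r w X0).x p.1‖ ^ 2
          ≤ Real.exp (-2 * l) * (7 / 10 * Real.exp l) ^ 2 := by gcongr
        _ = 49 / 100 * (Real.exp (-2 * l) * (Real.exp l) ^ 2) := by ring
        _ ≤ 1 / 2 := by rw [e4]; norm_num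
    have e6 := (hg0 _ (by positivity) e5).2
    have e7 := (h.II_integrand X0 hp.1).1
    calc ‖hw π ρ b w p.1‖ ^ 2 = (8 * cg⁻¹) * (‖hw π ρ b w p.1‖ ^ 2 / 16 * (2 * cg)) := by
          field_simp
          ring
      _ ≤ (8 * cg⁻¹) * (((ch π ρ b r w X0).f p.1 *
          (ch π ρ b r w X0).mu ((ch π ρ b r w X0).x p.1)) *
          (-4 * g1 (Real.exp (-2 * l) * ‖(ch π ρ b r w X0).x p.1‖ ^ 2))) := by
        have e8 : 0 ≤ (ch π ρ b r w X0).f p.1 *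
          (ch π ρ b r w X0).mu ((ch π ρ b r w X0).x p.1) := le_trans (by positivity) e7
        exact mul_le_mul_of_nonneg_left (mul_le_mul e7 (by linarith) (by positivity) e8)
          (by positivity)
  have hexp : Real.exp l ^ m * Real.exp (-m * l) = 1 := by
    rw [← Real.exp_nat_mul, ← Real.exp_add]
    simp
  have hset := setIntegral_le_integral (s := cyc π b X0 t) i3 hle
  calc _ ≤ _ := hmono
    _ = (8 * cg⁻¹) * ∫ p in cyc π b X0 t, ((ch π ρ b r w X0).f p.1 *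
      (ch π ρ b r w X0).mu ((ch π ρ b r w X0).x p.1)) *
      (-4 * g1 (Real.exp (-2 * l) * ‖(ch π ρ b r w X0).x p.1‖ ^ 2)) ∂V := integral_const_mul _ _
    _ ≤ (8 * cg⁻¹) * ∫ p, ((ch π ρ b r w X0).f p.1 *
      (ch π ρ b r w X0).mu ((ch π ρ b r w X0).x p.1)) *
      (-4 * g1 (Real.exp (-2 * l) * ‖(ch π ρ b r w X0).x p.1‖ ^ 2)) ∂V := by gcongr
    _ = 8 * cg⁻¹ * (Real.exp l ^ m * II (ch π ρ b r w X0) V g1 l) := by
        unfold II
        rw [← mul_assoc (Real.exp l ^ m), hexp, one_mul]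

/-- `up` -/
theorem Kz.up (h : Kz π ρ b r w κ κ₂ Kc h₀) (hV : On V m Kc) (hg : Prof g g1 g2) (X0 : Euc m)
    {l B t : ℝ} (hB : ∀ y, 0 ≤ y → -g1 y ≤ B)
    (hts : Real.exp l + h₀ / 8 ≤ t) :
    Real.exp l ^ m * II (ch π ρ b r w X0) V g1 l ≤
      12 * B * ∫ p in cyc π b X0 t, ‖hw π ρ b w p.1‖ ^ 2 ∂V := by
  have hE := Real.exp_pos l
  have hok := h.gr.ok h.fr X0 h.cpt h.tb
  have hc1 := hg.k1.continuous
  have hB0 : 0 ≤ B := by
    have h1 := hB 0 le_rfl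
    have h2 := hg.anti 0 le_rfl
    linarith
  have i1 : Integrable (fun p : Euc k × L k => ‖hw π ρ b w p.1‖ ^ 2) V :=
    hV.integrable h.cpt (((h.cont_hw.comp continuous_fst).norm.pow 2).continuousOn)
  have hexp : Real.exp l ^ m * Real.exp (-m * l) = 1 := by
    rw [← Real.exp_nat_mul, ← Real.exp_add]
    simp
  have h1 : ∫ p, ((ch π ρ b r w X0).f p.1 *
      (ch π ρ b r w X0).mu ((ch π ρ b r w X0).x p.1)) *
      (-4 * g1 (Real.exp (-2 * l) * ‖(ch π ρ b r w X0).x p.1‖ ^ 2)) ∂V ≤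
      ∫ p, (cyc π b X0 t).indicator (fun p => 12 * B * ‖hw π ρ b w p.1‖ ^ 2) p ∂V := by
    refine integral_mono_of_nonneg ?_ ((i1.const_mul _).indicator (measurableSet_cyc X0 t)) ?_
    · filter_upwards [hV.mem] with p hp
      have h1 := (h.II_integrand X0 hp.1).1
      have h2 := hg.anti (Real.exp (-2 * l) * ‖(ch π ρ b r w X0).x p.1‖ ^ 2) (by positivity)
      exact mul_nonneg (le_trans (by positivity) h1) (by linarith)
    · filter_upwards [hV.mem] with p hp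
      have e7 := (h.II_integrand X0 hp.1)
      have h3 := hB (Real.exp (-2 * l) * ‖(ch π ρ b r w X0).x p.1‖ ^ 2) (by positivity)
      by_cases hpc : p ∈ cyc π b X0 t
      · rw [indicator_of_mem hpc]
        have h2 := hg.anti (Real.exp (-2 * l) * ‖(ch π ρ b r w X0).x p.1‖ ^ 2) (by positivity)
        calc _ ≤ (3 * ‖hw π ρ b w p.1‖ ^ 2) * (4 * B) := by
              refine mul_le_mul e7.2 (by linarith) (by linarith) (by positivity)
          _ = _ := by ring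
      · rw [indicator_of_notMem hpc]
        have h4 : Real.exp l ≤ ‖(ch π ρ b r w X0).x p.1‖ := by
          by_contra hcon
          push Not at hcon
          exact hpc ((h.lt_of_chx hp.1 hcon).trans_le hts)
        have h5 : 1 ≤ Real.exp (-2 * l) * ‖(ch π ρ b r w X0).x p.1‖ ^ 2 := by
          have e4 : Real.exp (-2 * l) * (Real.exp l) ^ 2 = 1 := by
            rw [← Real.exp_nat_mul, ← Real.exp_add]
            norm_num
          rw [← e4]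
          gcongr
        rw [hg.k1.zero _ h5, mul_zero, mul_zero]
  rw [integral_indicator (measurableSet_cyc X0 t), integral_const_mul] at h1
  unfold II
  rw [← mul_assoc (Real.exp l ^ m), hexp, one_mul]
  exact h1

end Crest.Agent.R234.Pd_435
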