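import Crest.Agent.R234.Qp4_534
import Crest.Agent.R234.GLK7_128
import Crest.Agent.R234.Gs7_685
import Crest.Agent.R234.LowF9_471
import Crest.Agent.R234.Pd6_435

/-!
# Row 234, node QP-CH (helper534), part 5: 290's `Gl` at a `Q`-point up to the total variation
-/

set_option autoImplicit false
set_option linter.unusedVariables false
set_option linter.unusedSectionVars false
set_option maxSynthPendingDepth 3

open MeasureTheory Filter Topology Set Metric
open scoped ENNReal NNReal ContDiff InnerProductSpace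
open Crest.GeometryTopology.Submanifold Crest.Agent.R234.Vf_884
open Crest.Agent.R234.Main_456 Crest.Agent.R234.F11_435
open Crest.Agent.R234.Gi_456
open Crest.Agent.R234.GI_640 (g3 g31 g32)
open Crest.Agent.R234.GL_394 (Pf pf_cubic KB TV Loc VK Ok)

noncomputable section

namespace Crest.Agent.R234.Qp_534

variable {m n k : ℕ}

variable {U : Set (Euc k)} {V : Measure (Euc k × L k)} {Q K : ℕ} {x : Euc k} {r : ℝ}
  {π : Euc k →L[ℝ] Euc m} {ρ : Euc k →L[ℝ] Euc n} {u : Euc m → Euc n} {ε C : ℝ}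
  {W : Euc m → Euc n} {κ : ℝ} {zh : Euc k}

/-! ### two-radii forms of 685's bounds, with constants independent of the radii -/

/-- constant of the sup bound -/
def Cs0 (m : ℕ) : ℝ := 2 * 4 ^ m / ome m * (4 * (m + 1)) ^ m + 128 * Gs_685.Kst ^ 2 + 64 * m

theorem Cs0_nonneg (m : ℕ) : 0 ≤ Cs0 m := by
  have := ome_pos m
  unfold Cs0
  positivity

namespace Qx

variable (h : Qx U V Q K x r π ρ u ε C W κ zh)

include h

theorem half : Gv_685.Half π ρ zh r (wz π x zh r W) (Kz π ρ x r W zh (h0 m Q ε)) := by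
  intro z hz
  have h1 := h.Kz_spec h.hs hz
  have h2 := h.gr.le_norm_yy h1.1
  have hr := h.hr
  have h3 : 3 * h0 m Q ε * r ≤ 3 * (1 / 16) * r := by
    have := h.hs
    gcongr
  linarith [h1.2.2]

theorem norm_box {z : Euc k} (hz : z ∈ box π ρ x (7 * r)) : ‖z - x‖ ≤ 10 * r := by
  have hr := h.hr
  have h1 := frame_norm_sq h.hf (z - x)
  refine abs_le_of_sq_le_sq' ?_ (by positivity) |>.2
  have h2 := pow_le_pow_left₀ (norm_nonneg _) hz.1.le 2
  have h3 := pow_le_pow_left₀ (norm_nonneg _) hz.2.le 2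
  nlinarith [sq_nonneg r]

theorem ball_sub_U {z : Euc k} (hz : z ∈ Kz π ρ x r W zh (h0 m Q ε)) {d : ℝ} (hd : d ≤ 100 * r) :
    closedBall z d ⊆ U := by
  refine subset_trans ?_ h.cx.hU
  intro y hy
  have h1 := h.norm_box (h.Kz_box h.hs hz)
  rw [mem_closedBall, dist_eq_norm] at hy ⊢
  have h2 : y - x = (y - z) + (z - x) := by abel
  rw [h2]
  have h3 := norm_add_le (y - z) (z - x)
  have := h.hr
  linarith

/-- the outer integral is monotone in the radius -/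
theorem int_mono {s t : ℝ} (hs0 : 0 < s) (hst : s ≤ t) :
    ∫ p in {p : Euc k × L k | ‖(cz π ρ x r W zh).x p.1‖ ≤ s}, 2 * (cz π ρ x r W zh).f p.1
      ∂(Vz V π ρ x r W zh (h0 m Q ε)) ≤
    ∫ p in {p : Euc k × L k | ‖(cz π ρ x r W zh).x p.1‖ ≤ t}, 2 * (cz π ρ x r W zh).f p.1
      ∂(Vz V π ρ x r W zh (h0 m Q ε)) := by
  have h1 := Ng_290.HH_mono h.ok h.on (s := Real.log s) (t := Real.log t)
    (Real.log_le_log hs0 hst)
  unfold Ng_290.HH Ng_290.Sr at h1
  rwa [Real.exp_log hs0, Real.exp_log (by linarith)] at h1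

theorem int_nonneg (t : ℝ) : 0 ≤
    ∫ p in {p : Euc k × L k | ‖(cz π ρ x r W zh).x p.1‖ ≤ t}, 2 * (cz π ρ x r W zh).f p.1
      ∂(Vz V π ρ x r W zh (h0 m Q ε)) := by
  refine integral_nonneg_of_ae ((ae_restrict_of_ae h.on.mem).mono fun p hp => ?_)
  have h1 := h.ok.nusq p.1 hp.1
  have h2 := sq_nonneg ‖(cz π ρ x r W zh).nu p.1‖
  show 0 ≤ 2 * (cz π ρ x r W zh).f p.1
  linarith

/-- **(S1)** at a `Q`-point, any two radii `s < t ≤ 3 r`. -/
theorem s1 {s t : ℝ} (hst : s < t) (ht : t ≤ 3 * r) (hs0 : 0 ≤ s) :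
    ∀ᵐ p ∂(Vz V π ρ x r W zh (h0 m Q ε)), ‖(cz π ρ x r W zh).x p.1‖ ≤ s →
      2 * (cz π ρ x r W zh).f p.1 ≤ Cs0 m * ((t - s)⁻¹) ^ m *
        ∫ p in {p : Euc k × L k | ‖(cz π ρ x r W zh).x p.1‖ ≤ t},
          2 * (cz π ρ x r W zh).f p.1 ∂(Vz V π ρ x r W zh (h0 m Q ε)) := by
  have hr := h.hr
  have hm := h.cx.hm
  have home := ome_pos m
  -- the intermediate radius
  set d : ℝ := min (t - s) (r / (m + 1)) with hd
  have hd0 : 0 < d := lt_min (by linarith) (by positivity)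
  have hd1 : d ≤ t - s := min_le_left _ _
  have hd2 : d ≤ r / (m + 1) := min_le_right _ _
  have hdr : (m : ℝ) * d ≤ r := by
    have h1 : (m : ℝ) * d ≤ m * (r / (m + 1)) := mul_le_mul_of_nonneg_left hd2 (Nat.cast_nonneg m)
    have h2 : (m : ℝ) * (r / (m + 1)) ≤ r := by
      rw [mul_div_assoc', div_le_iff₀ (by positivity)]
      nlinarith
    linarith
  have hdle : d ≤ r := hd2.trans (by
    rw [div_le_iff₀ (by positivity)]
    have : (0:ℝ) ≤ m := Nat.cast_nonneg m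
    nlinarith)
  have hL : Real.exp (Real.log (4 * r)) ≤ 5 * r := by
    rw [Real.exp_log (by positivity)]; linarith
  have key := Gv_685.sup_ae (s := s) (t := s + d) h.hf h.gr (h.loc hL) hm h.half
    (by
      filter_upwards [h.cx.th] with p hp using hp)
    (by rw [Real.exp_log (by positivity)]; linarith) (by linarith)
    (by rw [add_sub_cancel_left]; exact hdr)
    (fun z hz _ => h.ball_sub_U hz (by rw [add_sub_cancel_left]; linarith))
    (fun X hX => h.msys (by rw [sub_zero] at hX; linarith))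
  filter_upwards [key] with p hp hps
  have h1 := hp hps
  rw [add_sub_cancel_left] at h1
  have h2 := h.int_mono (s := s + d) (t := t) (by linarith) (by linarith)
  have h3 := h.int_nonneg t
  -- the ratio `(t - s) / d ≤ 4 (m + 1)`
  have h4 : t - s ≤ 4 * (m + 1) * d := by
    rcases min_cases (t - s) (r / ((m : ℝ) + 1)) with ⟨e, -⟩ | ⟨e, -⟩
    · rw [hd, e]
      have : (0:ℝ) ≤ m := Nat.cast_nonneg m
      nlinarith
    · rw [hd, e]
      have : 4 * ((m : ℝ) + 1) * (r / (m + 1)) = 4 * r := by field_simp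
      rw [this]
      linarith
  have hts : 0 < t - s := by linarith
  have h5 : (d ^ m)⁻¹ ≤ (4 * (m + 1)) ^ m * ((t - s)⁻¹) ^ m := by
    rw [← mul_pow, ← inv_pow]
    refine pow_le_pow_left₀ (inv_pos.2 hd0).le ?_ m
    rw [inv_eq_one_div, div_le_iff₀ hd0]
    calc (1:ℝ) = (t - s) * (t - s)⁻¹ := by field_simp
      _ ≤ (4 * (m + 1) * d) * (t - s)⁻¹ := by gcongr
      _ = _ := by ring
  set J := ∫ p in {p : Euc k × L k | ‖(cz π ρ x r W zh).x p.1‖ ≤ t},
          2 * (cz π ρ x r W zh).f p.1 ∂(Vz V π ρ x r W zh (h0 m Q ε)) with hJ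
  have h6 : ome m * (2 * (cz π ρ x r W zh).f p.1) ≤ 2 * 4 ^ m *
      (((4 * (m + 1)) ^ m * ((t - s)⁻¹) ^ m) * J) := by
    refine h1.trans ?_
    refine mul_le_mul_of_nonneg_left ?_ (by positivity)
    refine mul_le_mul h5 h2 (h.int_nonneg (s + d)) (by positivity)
  have h7 : 2 * (cz π ρ x r W zh).f p.1 ≤ (2 * 4 ^ m / ome m * (4 * (m + 1)) ^ m) *
      ((t - s)⁻¹) ^ m * J := by
    have h8 : 2 * (cz π ρ x r W zh).f p.1 = (ome m * (2 * (cz π ρ x r W zh).f p.1)) / ome m := by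
      field_simp
    rw [h8, div_le_iff₀ home]
    refine h6.trans (le_of_eq ?_)
    field_simp
  refine h7.trans ?_
  have h9 : 2 * 4 ^ m / ome m * (4 * ((m:ℝ) + 1)) ^ m ≤ Cs0 m := by
    unfold Cs0
    have : 0 ≤ 128 * Gs_685.Kst ^ 2 + 64 * (m:ℝ) := by positivity
    linarith
  gcongr

/-- **(S2)** at a `Q`-point, any two radii `s < t ≤ 4 r`. -/
theorem s2 {s t : ℝ} (hst : s < t) (ht : t ≤ 4 * r) (hs0 : 0 ≤ s) (hmκ : (m : ℝ) * κ ≤ 1 / 4) :
    ∫ p in {p : Euc k × L k | ‖(cz π ρ x r W zh).x p.1‖ ≤ s}, (cz π ρ x r W zh).tau p.1 p.2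
      ∂(Vz V π ρ x r W zh (h0 m Q ε)) ≤ Cs0 m * ((t - s)⁻¹) ^ 2 *
        ∫ p in {p : Euc k × L k | ‖(cz π ρ x r W zh).x p.1‖ ≤ t},
          2 * (cz π ρ x r W zh).f p.1 ∂(Vz V π ρ x r W zh (h0 m Q ε)) := by
  have hr := h.hr
  have hκ0 := h.k0
  have hL : Real.exp (Real.log (4 * r)) ≤ 5 * r := by
    rw [Real.exp_log (by positivity)]; linarith
  have key := Gv_685.energy (s := s) (t := t) (κ := κ / r) h.hf h.gr (h.loc hL)
    (by rw [Real.exp_log (by positivity)]; linarith) hs0 hst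
    (fun X hX => h.msys (by rw [sub_zero] at hX; linarith))
    (fun X _ => h.ext.d2 hr (by have := h.hK; omega) X)
    (fun z hz _ => by
      have h1 := (h.Kz_spec h.hs hz).2.2
      have h2 : 12 * (m : ℝ) * (κ / r) * ‖yy π ρ zh r (wz π x zh r W) z‖ ≤
          12 * m * (κ / r) * (3 * h0 m Q ε * r) := by gcongr
      have h3 : 12 * (m : ℝ) * (κ / r) * (3 * h0 m Q ε * r) = 36 * (m * κ) * h0 m Q ε := by
        field_simp
        ring
      have h4 : 36 * ((m : ℝ) * κ) * h0 m Q ε ≤ 36 * (1 / 4) * (1 / 16) := by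
        have := h.hs
        have := h0_nonneg m Q ε
        gcongr
      linarith)
  refine key.trans ?_
  have h3 := h.int_nonneg t
  refine mul_le_mul_of_nonneg_right ?_ h3
  have hts : 0 < t - s := by linarith
  have h4 : (κ / r) ^ 2 ≤ 16 * κ ^ 2 * ((t - s)⁻¹) ^ 2 := by
    have h5 : κ / r ≤ 4 * κ * (t - s)⁻¹ := by
      rw [div_le_iff₀ hr]
      have h6 : (1:ℝ) ≤ 4 * (t - s)⁻¹ * r := by
        rw [mul_assoc, inv_mul_eq_div, mul_div_assoc', le_div_iff₀ hts]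
        linarith
      calc κ = κ * 1 := (mul_one _).symm
        _ ≤ κ * (4 * (t - s)⁻¹ * r) := by gcongr
        _ = _ := by ring
    calc (κ / r) ^ 2 ≤ (4 * κ * (t - s)⁻¹) ^ 2 := pow_le_pow_left₀ (by positivity) h5 2
      _ = _ := by ring
  have h5 : 4 * (m : ℝ) * (κ / r) ^ 2 ≤ 64 * m * ((t - s)⁻¹) ^ 2 := by
    calc 4 * (m : ℝ) * (κ / r) ^ 2 ≤ 4 * m * (16 * κ ^ 2 * ((t - s)⁻¹) ^ 2) := by gcongr
      _ ≤ 4 * m * (16 * 1 * ((t - s)⁻¹) ^ 2) := by
        have h6 : κ ^ 2 ≤ 1 := by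
          have := h.κ8
          nlinarith
        gcongr
      _ = _ := by ring
  have h6 : (((t - s) ^ 2)⁻¹ : ℝ) = ((t - s)⁻¹) ^ 2 := by rw [inv_pow]
  rw [h6]
  have home := ome_pos m
  have h7 : 0 ≤ 2 * 4 ^ m / ome m * (4 * ((m:ℝ) + 1)) ^ m := by positivity
  unfold Cs0
  have h8 : 0 ≤ ((t - s)⁻¹) ^ 2 := by positivity
  nlinarith [mul_nonneg h7 h8]

theorem exp_bTop : Real.exp (bTop r) = 2 * r := by
  unfold bTop
  rw [Real.exp_add, Real.exp_log h.hr, Real.exp_log (by norm_num)]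
  ring

/-- **685's bounds** in the form of 290 -/
theorem sup (hmκ : (m : ℝ) * κ ≤ 1 / 4) :
    Ng_290.Sup (cz π ρ x r W zh) (Vz V π ρ x r W zh (h0 m Q ε)) (cTop r) 4 (Cs0 m) where
  C1n := Cs0_nonneg m
  s1 := by
    have h1 : Real.exp (cTop r - 1 / (2 * 4)) ≤ 3 * r :=
      (Real.exp_le_exp.2 (by norm_num)).trans (exp_cTop h.hr)
    exact h.s1 (Real.exp_lt_exp.2 (by norm_num)) h1 (Real.exp_pos _).le
  s2 := by
    intro s hs0 hs
    have h1 : Real.exp (cTop r - 1 / (2 * 4)) ≤ 3 * r :=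
      (Real.exp_le_exp.2 (by norm_num)).trans (exp_cTop h.hr)
    have hr := h.hr
    have h2 : Real.exp (cTop r - 3 / (4 * 4)) < Real.exp (cTop r - 1 / (2 * 4)) :=
      Real.exp_lt_exp.2 (by norm_num)
    exact h.s2 (lt_of_le_of_lt hs h2) (by linarith) hs0.le hmκ

/-- the constant `A` of the pointwise bounds -/
theorem kbz {l hh : ℝ} (hl : l ≤ bTop r) (hh0 : 0 ≤ hh) (hh1 : hh ≤ 1) {S : Set (Euc k)}
    (hS : S ⊆ Kz π ρ x r W zh (h0 m Q ε)) (hSc : IsCompact S)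
    (hnu : ∀ z ∈ S, ‖(cz π ρ x r W zh).x z‖ ≤ Real.exp l →
      ‖(cz π ρ x r W zh).nu z‖ ≤ hh * Real.exp l) :
    KB (cz π ρ x r W zh) S l (6 * GLK_128.Ck m n * κ) (6 * GLK_128.Ck m n * κ * hh) hh (m + 8)
      (GLK_128.zN π ρ zh r (wz π x zh r W) 0) := by
  have hr := h.hr
  have hκ0 := h.k0
  have hκ8 := h.κ8
  have hel : Real.exp l ≤ 2 * r := (Real.exp_le_exp.2 hl).trans (le_of_eq h.exp_bTop)
  have hST : S ⊆ Tz π ρ x r W zh := fun p hp => (h.Kz_spec h.hs (hS hp)).1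
  have H := h.hy (l := l) (hb := hh) (S := S) (by linarith) hST hh0 hh1 hnu
  have key := H.kb
  have hCk := GLK_128.Ck_nonneg m n
  have hl0 := Real.exp_pos l
  have a2 : κ / r * Real.exp l ≤ 2 * κ := by
    calc κ / r * Real.exp l ≤ κ / r * (2 * r) := by gcongr
      _ = 2 * κ := by field_simp
  have a3 : κ / r ^ 2 * Real.exp (2 * l) ≤ 4 * κ := by
    have e1 : Real.exp (2 * l) = Real.exp l ^ 2 := by rw [← Real.exp_nat_mul]; norm_num
    rw [e1]
    calc κ / r ^ 2 * Real.exp l ^ 2 ≤ κ / r ^ 2 * (2 * r) ^ 2 := by gcongr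
      _ = 4 * κ := by field_simp; norm_num
  have a20 : 0 ≤ κ / r * Real.exp l := by positivity
  have a30 : 0 ≤ κ / r ^ 2 * Real.exp (2 * l) := by positivity
  have hcc : GLK_128.cc κ (κ / r * Real.exp l) (κ / r ^ 2 * Real.exp (2 * l)) ≤ 6 * κ := by
    unfold GLK_128.cc
    calc κ * (κ / r * Real.exp l) + (κ / r * Real.exp l) ^ 2 +
          (κ / r * Real.exp l) * (κ / r ^ 2 * Real.exp (2 * l)) +
          κ * (κ / r ^ 2 * Real.exp (2 * l))
        ≤ κ * (2 * κ) + (2 * κ) ^ 2 + (2 * κ) * (4 * κ) + κ * (4 * κ) := by gcongr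
      _ = 18 * κ * κ := by ring
      _ ≤ 18 * (1 / 8) * κ := by gcongr
      _ ≤ 6 * κ := by linarith
  have hdd : GLK_128.dd (κ / r * Real.exp l) (κ / r ^ 2 * Real.exp (2 * l)) hh ≤ 6 * κ * hh := by
    unfold GLK_128.dd
    calc (κ / r * Real.exp l + κ / r ^ 2 * Real.exp (2 * l)) * hh ≤ (2 * κ + 4 * κ) * hh := by
          gcongr
      _ = _ := by ring
  exact LowF9_471.KB_mono key (h.reg.ok hSc hST)
    (by
      calc GLK_128.Ck m n * GLK_128.cc κ (κ / r * Real.exp l) (κ / r ^ 2 * Real.exp (2 * l)) ≤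
          GLK_128.Ck m n * (6 * κ) := by gcongr
        _ = _ := by ring)
    (by
      calc GLK_128.Ck m n * GLK_128.dd (κ / r * Real.exp l) (κ / r ^ 2 * Real.exp (2 * l)) hh ≤
          GLK_128.Ck m n * (6 * κ * hh) := by gcongr
        _ = _ := by ring) le_rfl

/-- 435's smallness -/
theorem sm : Pd_435.Sm (wz π x zh r W) κ (κ / r) where
  k1 := fun v => h.ext.d1 h.hr (by have := h.hK; omega) v
  k2 := fun v => h.ext.d2 h.hr (by have := h.hK; omega) v
  k8 := h.κ8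

theorem mu_ge (v : Euc m) : 7 / 8 ≤ (cz π ρ x r W zh).mu v := by
  have h1 := Pd_435.abs_mu_sub (π := π) (ρ := ρ) (b := zh) (r := r) h.sm 0 v
  have h2 := h.κ8
  have h3 := (abs_le.1 h1).1
  show 7 / 8 ≤ (ch π ρ zh r (wz π x zh r W) 0).mu v
  linarith

theorem mu_le (v : Euc m) : (cz π ρ x r W zh).mu v ≤ 9 / 8 := by
  have h1 := Pd_435.abs_mu_sub (π := π) (ρ := ρ) (b := zh) (r := r) h.sm 0 v
  have h2 := h.κ8
  have h3 := (abs_le.1 h1).2
  show (ch π ρ zh r (wz π x zh r W) 0).mu v ≤ 9 / 8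
  linarith

theorem cTop_le : cTop r ≤ Real.log (4 * r) := by
  have hr := h.hr
  rw [Real.le_log_iff_exp_le (by positivity)]
  have := exp_cTop hr
  linarith

/-- **290's `Gl` at a `Q`-point**, from the total variation -/
theorem gl {lo Ct : ℝ} (hmκ : (m : ℝ) * κ ≤ 1 / 4)
    (htv : ∃ (e2 : Measure (Euc m)) (sig : ℝ),
      TV (cz π ρ x r W zh) (Vz V π ρ x r W zh (h0 m Q ε)) Q
        ((1 + Ng_290.eN 4 / 2) * Ng_290.sN (cTop r) 4) Ct (κ / (Ng_290.sN (cTop r) 4) ^ 2) sig e2 ∧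
      0 ≤ sig ∧ sig ≤ Ct * ((Ng_290.eN 4)⁻¹) ^ (2 * m + 2) * (Ng_290.sN (cTop r) 4) ^ (m + 1) *
        (Ng_290.tN (cz π ρ x r W zh) (Vz V π ρ x r W zh (h0 m Q ε)) (cTop r) 4 κ *
          Ng_290.tN (cz π ρ x r W zh) (Vz V π ρ x r W zh (h0 m Q ε)) (cTop r) 4 κ ^
            (1 / (m : ℝ)))) :
    Ng_290.Gl (cz π ρ x r W zh) (Tz π ρ x r W zh) univ U (Kz π ρ x r W zh (h0 m Q ε)) V Q
      (6 * GLK_128.Ck m n) (m + 8) (Cs0 m) Ct κ (Real.log (4 * r)) (cTop r) lo 4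
      (GLK_128.zN π ρ zh r (wz π x zh r W) 0) where
  reg := h.reg
  loc := h.loc (by
    have := h.hr
    rw [Real.exp_log (by positivity)]; linarith)
  hcT := by
    have := h.cTop_le
    norm_num
    linarith
  hD := subset_univ _
  hmu := fun v _ => by have := h.mu_ge v; linarith
  tau0 := fun p hp => h.tau_nonneg hp
  sup := h.sup hmκ
  kb := fun l hl hh hh0 hh1 S hS hSc hnu => h.kbz (by
    have := hl.2
    rwa [cTop_sub] at this) hh0 hh1 hS hSc hnu
  tv := htv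

end Qx

end Crest.Agent.R234.Qp_534
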