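import Crest.Agent.R234.Pin10_3
import Crest.Agent.R234.Qp5_534

/-!
R234 (helper3), VF-PIN part 11: `InpP` from its five inputs (literal Props):
`HtvP` (618 total variation), `SgP` (354 soft sign), `F4P` (471), `TopP` (435).
-/

open MeasureTheory Set Metric
open scoped RealInnerProductSpace ENNReal ContDiff

namespace Crest.Agent.R234.Pin11_3

set_option linter.unusedSectionVars false
set_option linter.unusedVariables false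

open Crest.Agent.R234.Pin8_3 Crest.Agent.R234.Pin10_3
open Crest.GeometryTopology.Submanifold Crest.Agent.R234.Vf_884
open Crest.Agent.R234.Main_456 Crest.Agent.R234.Pd_435 Crest.Agent.R234.Qp_534
open Crest.Agent.R234.Fd_534 (GT Cf rs sh)

/-- the situation: a `Q`-point of a reference of a stationary integral varifold, `κ ≤ B ε`. -/
structure Sit {m n : ℕ} (Q K : ℕ) (C B ε : ℝ) (U : Set (Euc (m + n))) (D : VarifoldData m (m + n))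
    (x : Euc (m + n)) (r : ℝ) (π' : Euc (m + n) →L[ℝ] Euc m) (ρ : Euc (m + n) →L[ℝ] Euc n)
    (u W : Euc m → Euc n) (κ : ℝ) (zh : Euc (m + n)) : Prop where
  int : IsIntegralVarifoldIn U D
  st : IsStationaryIn U D
  qx : Qx U (VD D) Q K x r π' ρ u ε C W κ zh
  κB : κ ≤ B * ε
  th : Th m (VD D) x = (Q : ℝ≥0∞)

/-- total variation (618): hypothesis `htv` of `Qx.gl`. -/
def HtvP (m n K : ℕ) : Prop :=
  ∀ (Q : ℕ) (C : ℝ), 2 ≤ Q → ∃ Ct : ℝ, 0 ≤ Ct ∧ ∀ B : ℝ, 1 ≤ B → ∃ ε₁ : ℝ, 0 < ε₁ ∧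
    ∀ ε : ℝ, 0 < ε → ε ≤ ε₁ → ∀ (U : Set (Euc (m + n))) (D : VarifoldData m (m + n))
      (x : Euc (m + n)) (r : ℝ) (π' : Euc (m + n) →L[ℝ] Euc m) (ρ : Euc (m + n) →L[ℝ] Euc n)
      (u W : Euc m → Euc n) (κ : ℝ) (zh : Euc (m + n)), Sit Q K C B ε U D x r π' ρ u W κ zh →
      ∃ (e2 : Measure (Euc m)) (sig : ℝ),
        GL_394.TV (cz π' ρ x r W zh) (Vz (VD D) π' ρ x r W zh (h0 m Q ε)) Q
          ((1 + Ng_290.eN 4 / 2) * Ng_290.sN (cTop r) 4) Ct (κ / (Ng_290.sN (cTop r) 4) ^ 2)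
          sig e2 ∧
        0 ≤ sig ∧ sig ≤ Ct * ((Ng_290.eN 4)⁻¹) ^ (2 * m + 2) * (Ng_290.sN (cTop r) 4) ^ (m + 1) *
          (Ng_290.tN (cz π' ρ x r W zh) (Vz (VD D) π' ρ x r W zh (h0 m Q ε)) (cTop r) 4 κ *
            Ng_290.tN (cz π' ρ x r W zh) (Vz (VD D) π' ρ x r W zh (h0 m Q ε)) (cTop r) 4 κ ^
              (1 / (m : ℝ)))

/-- soft sign (354). -/
def SgP (m n K : ℕ) : Prop :=
  ∀ (Q : ℕ) (C : ℝ), 2 ≤ Q → ∀ (lm θ B : ℝ), lm < -3 → 0 < θ → 1 ≤ B → ∃ ε₁ : ℝ, 0 < ε₁ ∧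
    ∀ ε : ℝ, 0 < ε → ε ≤ ε₁ → ∀ (U : Set (Euc (m + n))) (D : VarifoldData m (m + n))
      (x : Euc (m + n)) (r : ℝ) (π' : Euc (m + n) →L[ℝ] Euc m) (ρ : Euc (m + n) →L[ℝ] Euc n)
      (u W : Euc m → Euc n) (κ : ℝ) (zh : Euc (m + n)), Sit Q K C B ε U D x r π' ρ u W κ zh →
      ∀ l ∈ Icc (Real.log r + lm - 2) (bTop r), bz (VD D) π' ρ x r W zh (h0 m Q ε) Q l ≤
        θ * Iz (VD D) π' ρ x r W zh (h0 m Q ε) l +
          θ * Iz (VD D) π' ρ x r W zh (h0 m Q ε) (bTop r)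

/-- (F4) (471). -/
def F4P (m n K : ℕ) : Prop :=
  ∀ (Q : ℕ) (C : ℝ), 2 ≤ Q → ∀ (lm θ B : ℝ), lm < -3 → 0 < θ → 1 ≤ B → ∃ ε₁ : ℝ, 0 < ε₁ ∧
    ∀ ε : ℝ, 0 < ε → ε ≤ ε₁ → ∀ (U : Set (Euc (m + n))) (D : VarifoldData m (m + n))
      (x : Euc (m + n)) (r : ℝ) (π' : Euc (m + n) →L[ℝ] Euc m) (ρ : Euc (m + n) →L[ℝ] Euc n)
      (u W : Euc m → Euc n) (κ : ℝ) (zh : Euc (m + n)), Sit Q K C B ε U D x r π' ρ u W κ zh →
      ∀ l ∈ Icc (Real.log r + lm - 2) (Real.log r - 3),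
        -(θ * Iz (VD D) π' ρ x r W zh (h0 m Q ε) (bTop r)) ≤
          Ez (VD D) π' ρ x r W zh (h0 m Q ε) Q l - Iz (VD D) π' ρ x r W zh (h0 m Q ε) l / 2

/-- the top (435). -/
def TopP (m n K : ℕ) : Prop :=
  ∀ (Q : ℕ) (C : ℝ), 2 ≤ Q → ∃ C1 : ℝ, 1 ≤ C1 ∧ ∀ (θ B : ℝ), 0 < θ → 1 ≤ B → ∃ ε₁ : ℝ, 0 < ε₁ ∧
    ∀ ε : ℝ, 0 < ε → ε ≤ ε₁ → ∀ (U : Set (Euc (m + n))) (D : VarifoldData m (m + n))
      (x : Euc (m + n)) (r : ℝ) (π' : Euc (m + n) →L[ℝ] Euc m) (ρ : Euc (m + n) →L[ℝ] Euc n)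
      (u W : Euc m → Euc n) (κ : ℝ) (zh : Euc (m + n)), Sit Q K C B ε U D x r π' ρ u W κ zh →
      0 < Iz (VD D) π' ρ x r W zh (h0 m Q ε) (bTop r) ∧
      ez (VD D) π' ρ x r W zh (h0 m Q ε) (bTop r) ≤
        C1 * Iz (VD D) π' ρ x r W zh (h0 m Q ε) (bTop r) ∧
      Iz (VD D) π' ρ x r W zh (h0 m Q ε) (cTop r) ≤
        C1 * Iz (VD D) π' ρ x r W zh (h0 m Q ε) (bTop r) ∧
      Real.exp (-2 * cTop r) * Iz (VD D) π' ρ x r W zh (h0 m Q ε) (cTop r) ≤ θ ∧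
      Main_456.sep (VD D) π' ρ x r u 8 ≤
        C1 * r ^ m * Iz (VD D) π' ρ x r W zh (h0 m Q ε) (bTop r)

/-- **`InpP` from its inputs.** -/
theorem inpP_of {m n K : ℕ} (h1 : HtvP m n K) (h2 : SgP m n K) (h3 : F4P m n K)
    (h4 : TopP m n K) : InpP m n K := by
  intro Q C hQ
  obtain ⟨Ct, hCt, h1⟩ := h1 Q C hQ
  obtain ⟨C1, hC1, h4⟩ := h4 Q C hQ
  refine ⟨6 * GLK_128.Ck m n, m + 8, Cs0 m, Ct, C1, ?_, by positivity, Cs0_nonneg m, hCt, hC1, ?_⟩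
  · have := GLK_128.Ck_nonneg m n
    positivity
  intro lm θ B hlm hθ hB
  obtain ⟨ε₁, hε₁, h1⟩ := h1 B hB
  obtain ⟨ε₂, hε₂, h2⟩ := h2 Q C hQ lm θ B hlm hθ hB
  obtain ⟨ε₃, hε₃, h3⟩ := h3 Q C hQ lm θ B hlm hθ hB
  obtain ⟨ε₄, hε₄, h4⟩ := h4 θ B hθ hB
  have hB0 : 0 < B := by linarith
  have hm0 : (0:ℝ) ≤ m := Nat.cast_nonneg m
  refine ⟨min ε₁ (min ε₂ (min ε₃ (min ε₄ (1 / (4 * (m + 1) * B))))), ?_, ?_⟩
  · exact lt_min hε₁ (lt_min hε₂ (lt_min hε₃ (lt_min hε₄ (by positivity))))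
  intro ε hε hεε U hU D hD hst x r π' ρ u W κ zh hQx hκ hTh
  have g1 : ε ≤ ε₁ := hεε.trans (by simp)
  have g2 : ε ≤ ε₂ := hεε.trans (by simp)
  have g3 : ε ≤ ε₃ := hεε.trans (by simp)
  have g4 : ε ≤ ε₄ := hεε.trans (by simp)
  have g5 : ε ≤ 1 / (4 * (m + 1) * B) := hεε.trans (by simp)
  have hsit : Sit Q K C B ε U D x r π' ρ u W κ zh := ⟨hD, hst, hQx, hκ, hTh⟩
  have hmκ : (m : ℝ) * κ ≤ 1 / 4 := by
    have e1 : (m : ℝ) * κ ≤ m * (B * (1 / (4 * (m + 1) * B))) := by gcongr; exact hκ.trans (by gcongr)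
    have e2 : (m : ℝ) * (B * (1 / (4 * (m + 1) * B))) = m / (m + 1) * (1 / 4) := by field_simp
    have e3 : (m : ℝ) / (m + 1) ≤ 1 := by rw [div_le_one (by positivity)]; linarith
    rw [e2] at e1
    linarith
  obtain ⟨t1, t2, t3, t4, t5⟩ := h4 ε hε g4 U D x r π' ρ u W κ zh hsit
  exact ⟨⟨⟨_, hQx.gl hmκ (h1 ε hε g1 U D x r π' ρ u W κ zh hsit)⟩,
    h2 ε hε g2 U D x r π' ρ u W κ zh hsit, t1, t2, t3, t4,
    h3 ε hε g3 U D x r π' ρ u W κ zh hsit⟩, t5⟩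

end Crest.Agent.R234.Pin11_3
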