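import Crest.Agent.R234.Leaf1_456
import Crest.Agent.R234.Al7_182

/-!
Row 234 (helper660), task VF-NEARCHG: `Main_456.NearChg`, the change of the plane in `NearQ`
(Caccioppoli's inequality and the monotonicity of the mass ratios).
-/

set_option autoImplicit false

open MeasureTheory Filter Topology Set Metric
open scoped ENNReal NNReal ContDiff
open Crest.GeometryTopology.Submanifold Crest.Agent.R234.Vf_884
open Crest.Agent.R234.Strat3_842 (tilt height)

noncomputable section

namespace Crest.Agent.R234.NearChg_660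

open Crest.Agent.R234.Main_456 Crest.Agent.R234.Al4_182 Crest.Agent.R234.Al7_182

variable {m k : ℕ} {U : Set (Euc k)} {V : Measure (Euc k × L k)}

/-- continuous functions are integrable over `A × univ`, `A` contained in a compact subset of `U`. -/
theorem intOn (hV : Stat m k U V) {g : Euc k × L k → ℝ} (hg : Continuous g) {A K : Set (Euc k)}
    (hA : MeasurableSet A) (hK : IsCompact K) (hAK : A ⊆ K) (hKU : K ⊆ U) :
    IntegrableOn g (A ×ˢ univ) V := by
  have hSt := st_of_stat hV
  obtain ⟨C, hC⟩ := (hK.prod (isCompact_closedBall (0 : L k) 1)).exists_bound_of_continuousOn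
    hg.continuousOn
  rw [← integrable_indicator_iff (hA.prod MeasurableSet.univ)]
  refine Cacc_113.integrable_of (C := max C 0) hSt.pr hSt.fin
    (hg.aestronglyMeasurable.indicator (hA.prod MeasurableSet.univ)) hK hKU ?_ ?_
  · intro z hz
    by_cases hzA : z ∈ A ×ˢ (univ : Set (L k))
    · rw [indicator_of_mem hzA, ← Real.norm_eq_abs]
      refine (hC z ⟨hAK hzA.1, ?_⟩).trans (le_max_left _ _)
      simpa using hz.opNorm_le
    · rw [indicator_of_notMem hzA, abs_zero]
      exact le_max_right _ _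
  · intro z hz
    exact indicator_of_notMem (fun h => hz (hAK h.1)) _

/-- the cut-off function: `≥ 1` on the ball of radius `r`, supported in the ball of radius `2r`. -/
def eta (x : Euc k) (r : ℝ) : Euc k → ℝ := fun y => 16 / 9 * ker 2 x (2 * r) y

theorem contDiff_eta (x : Euc k) (r : ℝ) : ContDiff ℝ 1 (eta x r) :=
  contDiff_const.mul (contDiff_ker2 x (2 * r))

theorem eta_zero (x : Euc k) {r : ℝ} (hr : 0 < r) {y : Euc k} (h : 2 * r ≤ ‖y - x‖) :
    eta x r y = 0 := by
  unfold eta
  rw [ker_zero two_ne_zero (by linarith) h, mul_zero]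

theorem tsupport_eta (x : Euc k) {r : ℝ} (hr : 0 < r) : tsupport (eta x r) ⊆ closedBall x (2 * r) := by
  refine closure_minimal ?_ isClosed_closedBall
  intro y hy
  rw [mem_closedBall, dist_eq_norm]
  by_contra hcon
  exact hy (eta_zero x hr (not_le.1 hcon).le)

theorem fderiv_eta (x : Euc k) (r : ℝ) (y : Euc k) :
    fderiv ℝ (eta x r) y =
      (16 / 9 * (-4 * ker 1 x (2 * r) y / (2 * r) ^ 2)) • innerSL ℝ (y - x) := by
  have h1 := (hasFDerivAt_ker2 x (2 * r) y).const_mul (16 / 9)
  have h2 : HasFDerivAt (eta x r) ((16 / 9 * (-4 * ker 1 x (2 * r) y / (2 * r) ^ 2)) •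
      innerSL ℝ (y - x)) y := by
    refine h1.congr_fderiv ?_
    rw [smul_smul]
  exact h2.fderiv

theorem fderiv_eta_zero (x : Euc k) {r : ℝ} (hr : 0 < r) {y : Euc k} (h : 2 * r ≤ ‖y - x‖) :
    fderiv ℝ (eta x r) y = 0 := by
  rw [fderiv_eta, ker_zero one_ne_zero (by linarith) h]
  simp

theorem norm_fderiv_eta (x : Euc k) {r : ℝ} (hr : 0 < r) (y : Euc k) :
    ‖fderiv ℝ (eta x r) y‖ ≤ 4 / r := by
  by_cases h : 2 * r ≤ ‖y - x‖
  · rw [fderiv_eta_zero x hr h, norm_zero]
    positivity
  · have h1 : ‖y - x‖ ≤ 2 * r := (not_le.1 h).le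
    rw [fderiv_eta, norm_smul, innerSL_apply_norm, Real.norm_eq_abs]
    have h2 := ker_nonneg 1 x (2 * r) y
    have h3 := ker_le_one 1 x (2 * r) y
    have h4 : |16 / 9 * (-4 * ker 1 x (2 * r) y / (2 * r) ^ 2)| ≤ 16 / 9 * (1 / r ^ 2) := by
      have h5 : 16 / 9 * (-4 * ker 1 x (2 * r) y / (2 * r) ^ 2) =
          -(16 / 9 * (ker 1 x (2 * r) y / r ^ 2)) := by
        field_simp
        ring
      rw [h5, abs_neg, abs_of_nonneg (by positivity)]
      gcongr
    calc |16 / 9 * (-4 * ker 1 x (2 * r) y / (2 * r) ^ 2)| * ‖y - x‖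
        ≤ 16 / 9 * (1 / r ^ 2) * (2 * r) := by gcongr
      _ = 32 / 9 / r := by field_simp; ring
      _ ≤ 4 / r := by gcongr; norm_num

theorem one_le_eta (x : Euc k) {r : ℝ} (hr : 0 < r) {y : Euc k} (h : y ∈ ball x r) :
    1 ≤ eta x r y := by
  rw [mem_ball, dist_eq_norm] at h
  unfold eta Al4_182.ker Al4_182.ph
  have h0 : 0 ≤ ‖y - x‖ := norm_nonneg _
  have h1 : ‖y - x‖ ^ 2 / (2 * r) ^ 2 ≤ 1 / 4 := by
    rw [div_le_iff₀ (by positivity)]
    nlinarith
  have h2 : 3 / 4 ≤ max (1 - ‖y - x‖ ^ 2 / (2 * r) ^ 2) 0 := by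
    refine le_trans ?_ (le_max_left _ _)
    linarith
  nlinarith

/-- **the tilt is controlled by the height** (Caccioppoli's inequality on balls). -/
theorem tilt_ball (hV : Stat m k U V) {P : L k} (hP : P ∈ G m k) {x : Euc k} {r : ℝ} (hr : 0 < r)
    (hU : closedBall x (2 * r) ⊆ U) :
    r ^ 2 * ∫ p in ball x r ×ˢ univ, tilt P p ∂V ≤
      64 * ∫ p in ball x (2 * r) ×ˢ univ, height P x p ∂V := by
  have hSt := st_of_stat hV
  have hq : Cacc_113.IsPr (ContinuousLinearMap.id ℝ (Euc k) - P) := (isPr_of_G hP).compl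
  have hK := isCompact_closedBall x (2 * r)
  have hts := tsupport_eta x hr
  have hcs : HasCompactSupport (eta x r) := hK.of_isClosed_subset (isClosed_tsupport _) hts
  have hcac := hSt.caccioppoli (contDiff_eta x r) hcs (hts.trans hU) hq x
  have hout : ∀ z : Euc k × L k, z.1 ∉ closedBall x (2 * r) → 2 * r ≤ ‖z.1 - x‖ := by
    intro z hz
    rw [mem_closedBall, dist_eq_norm, not_le] at hz
    exact hz.le
  have hctr : Continuous fun z : Euc k × L k =>
      Cacc_113.tr ((ContinuousLinearMap.id ℝ (Euc k) - P) ∘L z.2) :=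
    Cacc_113.continuous_tr.comp (continuous_const.clm_comp continuous_snd)
  have hcη : Continuous fun z : Euc k × L k => eta x r z.1 :=
    (contDiff_eta x r).continuous.comp continuous_fst
  have hch : Continuous (height P x) := by
    have e : height P x = fun p : Euc k × L k => ‖(p.1 - x) - P (p.1 - x)‖ ^ 2 := rfl
    rw [e]
    fun_prop
  have hi1 : Integrable (fun z : Euc k × L k => eta x r z.1 ^ 2 *
      Cacc_113.tr ((ContinuousLinearMap.id ℝ (Euc k) - P) ∘L z.2)) V := by
    refine hSt.integrable ((hcη.pow 2).mul hctr) hK hU ?_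
    intro z hz
    rw [eta_zero x hr (hout z hz)]; simp
  have hi2 : Integrable (fun z : Euc k × L k => ‖fderiv ℝ (eta x r) z.1‖ ^ 2 *
      ‖(ContinuousLinearMap.id ℝ (Euc k) - P) (z.1 - x)‖ ^ 2) V := by
    refine hSt.integrable ?_ hK hU ?_
    · exact (((((contDiff_eta x r).continuous_fderiv one_ne_zero).comp continuous_fst).norm).pow 2).mul
        (((ContinuousLinearMap.id ℝ (Euc k) - P).continuous.comp
          (continuous_fst.sub continuous_const)).norm.pow 2)
    · intro z hz
      rw [fderiv_eta_zero x hr (hout z hz)]; simp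
  have hb1 : MeasurableSet (ball x r ×ˢ (univ : Set (L k))) := measurableSet_ball.prod .univ
  have hb2 : MeasurableSet (ball x (2 * r) ×ˢ (univ : Set (L k))) := measurableSet_ball.prod .univ
  have hi3 : IntegrableOn (tilt P) (ball x r ×ˢ (univ : Set (L k))) V :=
    intOn hV hctr measurableSet_ball hK
      ((ball_subset_ball (by linarith)).trans ball_subset_closedBall) hU
  have hi4 : IntegrableOn (height P x) (ball x (2 * r) ×ˢ (univ : Set (L k))) V :=
    intOn hV hch measurableSet_ball hK ball_subset_closedBall hU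
  have h1 : ∫ p in ball x r ×ˢ univ, tilt P p ∂V ≤ ∫ z, eta x r z.1 ^ 2 *
      Cacc_113.tr ((ContinuousLinearMap.id ℝ (Euc k) - P) ∘L z.2) ∂V := by
    rw [← integral_indicator hb1]
    refine integral_mono_ae ((integrable_indicator_iff hb1).2 hi3) hi1 ?_
    filter_upwards [hSt.pr] with z hz
    have h0 : 0 ≤ Cacc_113.tr ((ContinuousLinearMap.id ℝ (Euc k) - P) ∘L z.2) :=
      Cacc_113.IsPr.tr_nonneg_conj hz hq
    by_cases hzb : z ∈ ball x r ×ˢ (univ : Set (L k))
    · rw [indicator_of_mem hzb]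
      have h2 := one_le_eta x hr hzb.1
      have h3 : 1 ≤ eta x r z.1 ^ 2 := one_le_pow₀ h2
      change Cacc_113.tr ((ContinuousLinearMap.id ℝ (Euc k) - P) ∘L z.2) ≤ _
      nlinarith
    · rw [indicator_of_notMem hzb]
      positivity
  have h2 : ∫ z, ‖fderiv ℝ (eta x r) z.1‖ ^ 2 *
      ‖(ContinuousLinearMap.id ℝ (Euc k) - P) (z.1 - x)‖ ^ 2 ∂V ≤
      (4 / r) ^ 2 * ∫ p in ball x (2 * r) ×ˢ univ, height P x p ∂V := by
    rw [← integral_indicator hb2, ← integral_const_mul]
    refine integral_mono hi2 (((integrable_indicator_iff hb2).2 hi4).const_mul _) ?_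
    intro z
    change ‖fderiv ℝ (eta x r) z.1‖ ^ 2 *
      ‖(ContinuousLinearMap.id ℝ (Euc k) - P) (z.1 - x)‖ ^ 2 ≤
      (4 / r) ^ 2 * (ball x (2 * r) ×ˢ (univ : Set (L k))).indicator (height P x) z
    by_cases hzb : z ∈ ball x (2 * r) ×ˢ (univ : Set (L k))
    · rw [indicator_of_mem hzb]
      have h3 := norm_fderiv_eta x hr z.1
      have h4 : height P x z = ‖(ContinuousLinearMap.id ℝ (Euc k) - P) (z.1 - x)‖ ^ 2 := rfl
      rw [h4]
      gcongr
    · rw [indicator_of_notMem hzb, mul_zero]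
      have h3 : 2 * r ≤ ‖z.1 - x‖ := by
        by_contra hcon
        refine hzb ⟨?_, mem_univ _⟩
        rw [mem_ball, dist_eq_norm]
        exact not_le.1 hcon
      rw [fderiv_eta_zero x hr h3]
      simp
  have h3 := h1.trans (hcac.trans (mul_le_mul_of_nonneg_left h2 (by norm_num)))
  calc r ^ 2 * ∫ p in ball x r ×ˢ univ, tilt P p ∂V
      ≤ r ^ 2 * (4 * ((4 / r) ^ 2 * ∫ p in ball x (2 * r) ×ˢ univ, height P x p ∂V)) := by
        gcongr
    _ = 64 * ∫ p in ball x (2 * r) ×ˢ univ, height P x p ∂V := by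
        field_simp
        ring

/-- **LEAF NEARCHG**. -/
theorem nearChg : NearChg := by
  intro m k hm
  refine ⟨65, fun U hU V hV Q x r ε ε' P P' hr hball hε hε' hn hP' hh => ⟨hP', ?_, ?_⟩⟩
  · have hK := isCompact_closedBall x (2 * r)
    have h1 := tilt_ball hV hP' hr hball
    have hct : Continuous (tilt P') :=
      Cacc_113.continuous_tr.comp (continuous_const.clm_comp continuous_snd)
    have hch : Continuous (height P' x) := by
      have e : height P' x = fun p : Euc k × L k => ‖(p.1 - x) - P' (p.1 - x)‖ ^ 2 := rfl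
      rw [e]
      fun_prop
    have hsub : ball x r ⊆ ball x (2 * r) := ball_subset_ball (by linarith)
    have hi3 : IntegrableOn (tilt P') (ball x r ×ˢ (univ : Set (L k))) V :=
      intOn hV hct measurableSet_ball hK (hsub.trans ball_subset_closedBall) hball
    have hi4 : IntegrableOn (height P' x) (ball x (2 * r) ×ˢ (univ : Set (L k))) V :=
      intOn hV hch measurableSet_ball hK ball_subset_closedBall hball
    have hi5 : IntegrableOn (height P' x) (ball x r ×ˢ (univ : Set (L k))) V :=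
      hi4.mono_set (prod_mono hsub le_rfl)
    have h2 : ∫ p in ball x r ×ˢ univ, height P' x p ∂V ≤
        ∫ p in ball x (2 * r) ×ˢ univ, height P' x p ∂V := by
      refine setIntegral_mono_set hi4 ?_ (prod_mono hsub le_rfl).eventuallyLE
      refine Eventually.of_forall fun p => ?_
      change (0 : ℝ) ≤ ‖(p.1 - x) - P' (p.1 - x)‖ ^ 2
      positivity
    rw [integral_add (hi3.const_mul _) hi5, integral_const_mul]
    have h3 : 0 ≤ ε * r ^ (m + 2) := by positivity
    calc r ^ 2 * ∫ p in ball x r ×ˢ univ, tilt P' p ∂V +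
          ∫ p in ball x r ×ˢ univ, height P' x p ∂V
        ≤ 64 * (ε' * r ^ (m + 2)) + ε' * r ^ (m + 2) := by linarith
      _ ≤ (ε + 65 * ε') * r ^ (m + 2) := by linarith
  · have h1 : rat m V x r ≤ rat m V x (2 * r) :=
      rat_mono hV hm hr (by linarith) (ball_subset_closedBall.trans hball)
    refine (h1.trans hn.2.2).trans ?_
    gcongr
    linarith

end Crest.Agent.R234.NearChg_660
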