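import Crest.Agent.R234.Leaf1_456
import Crest.Agent.R234.NearChg_660
import Crest.Agent.R234.In4_947
import Crest.Agent.R234.Supm4_685
import Crest.Agent.R234.Nr1_884
import Crest.Agent.R234.Sup3_113

/-!
Row 234 (helper148), task VF-NEARZ: `Main_456.NearZ` from `Main_456.QLeb`: `NearQ` passes from `x` to every
`Q`-point `z` of `closedBall x (8 r)` and to all scales `t ∈ [δ r, 16 r]`, with the same plane.
-/

set_option autoImplicit false

open MeasureTheory Filter Topology Set Metric
open scoped ENNReal NNReal ContDiff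
open Crest.GeometryTopology.Submanifold Crest.Agent.R234.Vf_884
open Crest.Agent.R234.Strat3_842 (tilt height)
open Crest.Agent.R234.AS_456 (hp vp)

noncomputable section

namespace Crest.Agent.R234.NearZ_148

open Crest.Agent.R234.Main_456 Crest.Agent.R234.Al7_182

variable {m k : ℕ} {U : Set (Euc k)} {V : Measure (Euc k × L k)}

theorem continuous_tilt (P : L k) : Continuous (tilt P) :=
  Cacc_113.continuous_tr.comp (continuous_const.clm_comp continuous_snd)

theorem continuous_height (P : L k) (x : Euc k) : Continuous (height P x) := by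
  have e : height P x = fun p : Euc k × L k => ‖(p.1 - x) - P (p.1 - x)‖ ^ 2 := rfl
  rw [e]
  fun_prop

/-- the height of a point of density `≥ 1` over the plane. -/
theorem height_pt (hV : Stat m k U V) (hm : 1 ≤ m) {x z : Euc k} {r : ℝ} (hr : 0 < r)
    (hU : closedBall x (64 * r) ⊆ U) {P : L k} (hP : P ∈ G m k)
    (hz : z ∈ closedBall x (8 * r)) (hQ : 1 ≤ Th m V z) {H : ℝ}
    (hI : ∫ p in ball x (64 * r) ×ˢ univ, height P x p ∂V ≤ H) :
    ome m * ‖(z - x) - P (z - x)‖ ^ 2 ≤ ((56 * r) ^ m)⁻¹ * H := by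
  have hq : Cacc_113.IsPr (ContinuousLinearMap.id ℝ (Euc k) - P) := (isPr_of_G hP).compl
  have hsub : closedBall z (56 * r) ⊆ U := by
    refine Subset.trans (closedBall_subset_closedBall' ?_) hU
    have := mem_closedBall.1 hz
    linarith
  have hd := Supm_685.dens_of_Th hV hm (by positivity : (0:ℝ) < 56 * r) hsub (A := 1) zero_le_one
    (by simpa using hQ)
  rw [one_mul] at hd
  have e1 : 8 * r + 56 * r = 64 * r := by ring
  have h1 := (st_of_stat hV).height (tr_ae hV) (x₁ := x) (x₀ := z) (R := 8 * r) (ρ := 56 * r)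
    (by rw [e1]; exact hU) (by positivity) hq (mem_closedBall.1 hz) (ome_pos m).le hd x
  rw [e1] at h1
  refine h1.trans ?_
  refine mul_le_mul_of_nonneg_left ?_ (by positivity)
  rw [prod_univ_eq] at hI
  exact hI

/-- the tilt-height clause of `NearQ` at `z`. -/
theorem exc_z (hV : Stat m k U V) (hm : 1 ≤ m) {x z : Euc k} {r t ε : ℝ} (hr : 0 < r)
    (hU : closedBall x (64 * r) ⊆ U) {Q : ℕ} {P : L k} (hε : 0 ≤ ε) (hε1 : ε ≤ 1)
    (hN : NearQ m V Q x (64 * r) ε P) (hz : z ∈ closedBall x (8 * r)) (hQ : 1 ≤ Th m V z)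
    (ht0 : 0 ≤ t) (ht : t ≤ 16 * r) :
    ∫ p in ball z t ×ˢ univ, (t ^ 2 * tilt P p + height P z p) ∂V ≤
      2 * (64 ^ (m + 2) * (1 + 2 ^ m * (Q + 1)) * ε * r ^ (m + 2)) := by
  obtain ⟨hP, hI, hrat⟩ := hN
  have hM := Nr_884.mass_of_near (by positivity : (0:ℝ) < 64 * r) hε1 hrat
  have hK := isCompact_closedBall x (64 * r)
  have hb : MeasurableSet (ball x (64 * r) ×ˢ (univ : Set (L k))) := measurableSet_ball.prod .univ
  have hint : ∀ f : Euc k × L k → ℝ, Continuous f →
      IntegrableOn f (ball x (64 * r) ×ˢ (univ : Set (L k))) V := fun f hf =>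
    NearChg_660.intOn hV hf measurableSet_ball hK ball_subset_closedBall hU
  have hct := continuous_tilt (k := k) P
  have hch := continuous_height (k := k) P
  have htn : ∀ᵐ p ∂(V.restrict (ball x (64 * r) ×ˢ (univ : Set (L k)))), 0 ≤ tilt P p := by
    filter_upwards [ae_restrict_of_ae hV.conc] with p hp
    exact Strat3_842.tr_perp_nonneg hp hP
  have hhn : ∀ (w : Euc k) (p : Euc k × L k), 0 ≤ height P w p := fun w p => by
    change (0:ℝ) ≤ ‖(p.1 - w) - P (p.1 - w)‖ ^ 2
    positivity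
  set H : ℝ := ε * (64 * r) ^ (m + 2) with hH
  have hH0 : 0 ≤ H := by positivity
  have hI2 : ∫ p in ball x (64 * r) ×ˢ univ, height P x p ∂V ≤ H := by
    refine le_trans ?_ hI
    refine integral_mono_ae (hint _ (hch x)) (hint _ ((hct.const_mul _).add (hch x))) ?_
    filter_upwards [htn] with p hp
    have : 0 ≤ (64 * r) ^ 2 * tilt P p := by positivity
    change height P x p ≤ (64 * r) ^ 2 * tilt P p + height P x p
    linarith
  have hpt := height_pt hV hm hr hU hP hz hQ hI2
  set A : ℝ := ‖(z - x) - P (z - x)‖ ^ 2 with hA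
  have hA0 : 0 ≤ A := by positivity
  have hsub : ball z t ⊆ ball x (64 * r) := by
    refine ball_subset_ball' ?_
    have := mem_closedBall.1 hz
    linarith
  -- pointwise bound of the heights
  have hpw : ∀ p : Euc k × L k, height P z p ≤ 2 * height P x p + 2 * A := by
    intro p
    change ‖(p.1 - z) - P (p.1 - z)‖ ^ 2 ≤ 2 * ‖(p.1 - x) - P (p.1 - x)‖ ^ 2 + 2 * A
    have e : (p.1 - z) - P (p.1 - z) = ((p.1 - x) - P (p.1 - x)) - ((z - x) - P (z - x)) := by
      rw [← sub_sub_sub_cancel_right p.1 z x, map_sub P (p.1 - x) (z - x)]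
      abel
    rw [e]
    have h1 := norm_sub_le ((p.1 - x) - P (p.1 - x)) ((z - x) - P (z - x))
    have h2 := norm_nonneg (((p.1 - x) - P (p.1 - x)) - ((z - x) - P (z - x)))
    have h3 := norm_nonneg ((p.1 - x) - P (p.1 - x))
    have h4 := norm_nonneg ((z - x) - P (z - x))
    rw [hA]
    nlinarith [sq_nonneg (‖(p.1 - x) - P (p.1 - x)‖ - ‖(z - x) - P (z - x)‖)]
  have hF : Continuous fun p : Euc k × L k => t ^ 2 * tilt P p + height P z p :=
    (hct.const_mul _).add (hch z)
  have s1 : ∫ p in ball z t ×ˢ univ, (t ^ 2 * tilt P p + height P z p) ∂V ≤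
      ∫ p in ball x (64 * r) ×ˢ univ, (t ^ 2 * tilt P p + height P z p) ∂V := by
    refine setIntegral_mono_set (hint _ hF) ?_ (prod_mono hsub le_rfl).eventuallyLE
    filter_upwards [htn] with p hp
    have h1 := hhn z p
    change 0 ≤ t ^ 2 * tilt P p + height P z p
    positivity
  have s2 : ∫ p in ball x (64 * r) ×ˢ univ, (t ^ 2 * tilt P p + height P z p) ∂V ≤
      ∫ p in ball x (64 * r) ×ˢ univ, (2 * ((64 * r) ^ 2 * tilt P p + height P x p) + 2 * A) ∂V := by
    refine integral_mono_ae (hint _ hF)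
      (hint _ (((hct.const_mul _).add (hch x)).const_mul 2 |>.add continuous_const)) ?_
    filter_upwards [htn] with p hp
    have h1 := hpw p
    have h2 : t ^ 2 ≤ (64 * r) ^ 2 := by
      have : t ≤ 64 * r := by linarith
      gcongr
    have h3 : t ^ 2 * tilt P p ≤ (64 * r) ^ 2 * tilt P p := by gcongr
    have h4 : 0 ≤ (64 * r) ^ 2 * tilt P p := by positivity
    change t ^ 2 * tilt P p + height P z p ≤
      2 * ((64 * r) ^ 2 * tilt P p + height P x p) + 2 * A
    linarith
  have s3 : ∫ p in ball x (64 * r) ×ˢ univ, (2 * ((64 * r) ^ 2 * tilt P p + height P x p) + 2 * A) ∂V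
      = 2 * ∫ p in ball x (64 * r) ×ˢ univ, ((64 * r) ^ 2 * tilt P p + height P x p) ∂V +
        V.real (ball x (64 * r) ×ˢ univ) * (2 * A) := by
    have hG : Continuous fun p : Euc k × L k =>
        2 * ((64 * r) ^ 2 * tilt P p + height P x p) :=
      ((hct.const_mul _).add (hch x)).const_mul 2
    rw [integral_add (hint _ hG) (hint _ continuous_const), integral_const_mul,
      setIntegral_const, smul_eq_mul]
  have hAH : A * ome m ≤ ((56 * r) ^ m)⁻¹ * H := by rw [mul_comm]; exact hpt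
  have s4 : V.real (ball x (64 * r) ×ˢ univ) * (2 * A) ≤ 2 * ((Q + 1) * 2 ^ m * H) := by
    calc V.real (ball x (64 * r) ×ˢ univ) * (2 * A)
        ≤ ((Q + 1) * (ome m * (64 * r) ^ m)) * (2 * A) := by gcongr
      _ = 2 * (Q + 1) * (64 * r) ^ m * (A * ome m) := by ring
      _ ≤ 2 * (Q + 1) * (64 * r) ^ m * (((56 * r) ^ m)⁻¹ * H) := by gcongr
      _ = 2 * ((Q + 1) * ((64 * r) ^ m * ((56 * r) ^ m)⁻¹) * H) := by ring
      _ ≤ 2 * ((Q + 1) * 2 ^ m * H) := by
        have h1 : (64 * r) ^ m * ((56 * r) ^ m)⁻¹ ≤ 2 ^ m := by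
          rw [← div_eq_mul_inv, ← div_pow]
          refine pow_le_pow_left₀ (by positivity) ?_ m
          rw [div_le_iff₀ (by positivity)]
          linarith
        gcongr
  have hHe : H = 64 ^ (m + 2) * ε * r ^ (m + 2) := by rw [hH, mul_pow]; ring
  calc _ ≤ _ := s1.trans s2
    _ = _ := s3
    _ ≤ 2 * H + 2 * ((Q + 1) * 2 ^ m * H) := by linarith
    _ = _ := by rw [hHe]; ring

/-- the Lipschitz majorant of the indicator of a ball (times `s`). -/
def maj (c : Euc m) (s : ℝ) (y : Euc m) : ℝ := max 0 (min s (1 + s - ‖y - c‖))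

theorem maj_nonneg (c : Euc m) (s : ℝ) (y : Euc m) : 0 ≤ maj c s y := le_max_left _ _

theorem maj_le (c : Euc m) {s : ℝ} (hs : 0 ≤ s) (y : Euc m) : maj c s y ≤ s :=
  max_le hs (min_le_left _ _)

theorem maj_eq (c : Euc m) {s : ℝ} (hs : 0 ≤ s) {y : Euc m} (hy : ‖y - c‖ ≤ 1) : maj c s y = s := by
  unfold maj
  rw [min_eq_left (by linarith), max_eq_right hs]

theorem maj_zero (c : Euc m) {s : ℝ} {y : Euc m} (hy : 1 + s ≤ ‖y - c‖) : maj c s y = 0 := by
  unfold maj
  rw [max_eq_left]
  exact (min_le_right _ _).trans (by linarith)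

theorem lipschitz_maj (c : Euc m) (s : ℝ) : LipschitzWith 1 (maj c s) := by
  have h1 : LipschitzWith 1 fun y : Euc m => 1 + s - ‖y - c‖ := by
    refine LipschitzWith.of_dist_le_mul fun y z => ?_
    rw [Real.dist_eq, NNReal.coe_one, one_mul, dist_eq_norm]
    have h2 := abs_norm_sub_norm_le (y - c) (z - c)
    rw [sub_sub_sub_cancel_right] at h2
    rw [show 1 + s - ‖y - c‖ - (1 + s - ‖z - c‖) = -(‖y - c‖ - ‖z - c‖) by ring, abs_neg]
    exact h2
  have h3 := (h1.const_min s).const_max 0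
  exact h3

theorem continuous_maj (c : Euc m) (s : ℝ) : Continuous (maj c s) := (lipschitz_maj c s).continuous

theorem integral_maj_le (c : Euc m) {s : ℝ} (hs : 0 < s) :
    ∫ y, maj c s y ≤ s * (ome m * (1 + s) ^ m) := by
  have hb : MeasurableSet (ball c (1 + s)) := measurableSet_ball
  have h1 : ∫ y, maj c s y = ∫ y in ball c (1 + s), maj c s y := by
    rw [setIntegral_eq_integral_of_forall_compl_eq_zero]
    intro y hy
    rw [mem_ball, dist_eq_norm, not_lt] at hy
    exact maj_zero c hy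
  rw [h1]
  have hfin : volume (ball c (1 + s)) < ⊤ := measure_ball_lt_top
  calc ∫ y in ball c (1 + s), maj c s y ≤ ∫ y in ball c (1 + s), s := by
        refine setIntegral_mono_on ?_ (integrableOn_const hfin.ne) hb fun y _ => maj_le c hs.le y
        refine Measure.integrableOn_of_bounded hfin.ne (continuous_maj c s).aestronglyMeasurable
          (M := s) ?_
        refine Eventually.of_forall fun y => ?_
        rw [Real.norm_of_nonneg (maj_nonneg c s y)]
        exact maj_le c hs.le y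
    _ = s * (ome m * (1 + s) ^ m) := by
        rw [setIntegral_const, smul_eq_mul, measureReal_def, volume_ball_eq m c (by linarith),
          ENNReal.toReal_ofReal (den_pos m (by linarith)).le]
        ring

/-- the mass ratio at `z`, scale `16 r`. -/
theorem rat_z {Q : ℕ} {D : VarifoldData m k} {x z : Euc k} {r s η' : ℝ} (hr : 0 < r)
    (hV : Stat m k U (VD D)) (hU : closedBall x (64 * r) ⊆ U)
    (hs : 0 < s) {π : Euc k →L[ℝ] Euc m} (hπ : ∀ v, ‖π v‖ ≤ ‖v‖)
    (hz : z ∈ closedBall x (8 * r))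
    (h : |∫ p in Metric.ball x (3 * (16 * r)) ×ˢ univ,
        maj (π ((16 * r)⁻¹ • (z - x))) s ((16 * r)⁻¹ • π (p.1 - x)) ∂(VD D)
            - (16 * r) ^ m * (Q * ∫ y, maj (π ((16 * r)⁻¹ • (z - x))) s y)| ≤ η' * (16 * r) ^ m) :
    rat m (VD D) z (16 * r) ≤ ENNReal.ofReal (Q * (1 + s) ^ m + η' / (s * ome m)) := by
  set R : ℝ := 16 * r with hR
  have hR0 : 0 < R := by positivity
  set c : Euc m := π (R⁻¹ • (z - x)) with hc
  have ho := ome_pos m
  have hzx : ‖z - x‖ ≤ 8 * r := by rw [← dist_eq_norm]; exact mem_closedBall.1 hz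
  have hsub : ball z R ⊆ ball x (3 * R) := by
    refine ball_subset_ball' ?_
    have := mem_closedBall.1 hz
    rw [hR]; linarith
  have hb3 : ball x (3 * R) ⊆ closedBall x (64 * r) := by
    refine (ball_subset_ball ?_).trans ball_subset_closedBall
    rw [hR]; linarith
  have hK := isCompact_closedBall x (64 * r)
  have hcont : Continuous fun p : Euc k × L k => maj c s (R⁻¹ • π (p.1 - x)) := by
    refine (continuous_maj c s).comp ?_
    fun_prop
  have hi : IntegrableOn (fun p : Euc k × L k => maj c s (R⁻¹ • π (p.1 - x)))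
      (ball x (3 * R) ×ˢ (univ : Set (L k))) (VD D) :=
    NearChg_660.intOn hV hcont measurableSet_ball hK hb3 hU
  have hfin : (VD D) (ball z R ×ˢ univ) < ⊤ := by
    refine lt_of_le_of_lt (measure_mono ?_) (hV.fin _ hK hU)
    exact prod_mono (hsub.trans hb3) le_rfl
  -- the mass is below the integral
  have h1 : s * (VD D).real (ball z R ×ˢ univ) ≤
      ∫ p in ball x (3 * R) ×ˢ univ, maj c s (R⁻¹ • π (p.1 - x)) ∂(VD D) := by
    have h2 : ∫ p in ball z R ×ˢ (univ : Set (L k)), maj c s (R⁻¹ • π (p.1 - x)) ∂(VD D) ≤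
        ∫ p in ball x (3 * R) ×ˢ univ, maj c s (R⁻¹ • π (p.1 - x)) ∂(VD D) := by
      refine setIntegral_mono_set hi ?_ (prod_mono hsub le_rfl).eventuallyLE
      exact Eventually.of_forall fun p => maj_nonneg _ _ _
    refine le_trans (le_of_eq ?_) h2
    rw [setIntegral_congr_fun (g := fun _ => s) (measurableSet_ball.prod MeasurableSet.univ) ?_,
      setIntegral_const, smul_eq_mul, mul_comm]
    intro p hp
    refine maj_eq c hs.le ?_
    have hp1 : ‖p.1 - z‖ < R := by rw [← dist_eq_norm]; exact mem_ball.1 hp.1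
    have e : R⁻¹ • π (p.1 - x) - c = R⁻¹ • π (p.1 - z) := by
      rw [hc, map_smul, ← smul_sub, ← map_sub]
      congr 2
      abel
    rw [e, norm_smul, norm_inv, Real.norm_of_nonneg hR0.le, inv_mul_le_iff₀ hR0, mul_one]
    exact (hπ _).trans hp1.le
  have h3 := (le_abs_self _).trans h
  have h4 := integral_maj_le c hs
  have h5 : (VD D).real (ball z R ×ˢ univ) ≤
      (Q * (1 + s) ^ m + η' / (s * ome m)) * (ome m * R ^ m) := by
    have h6 : s * (VD D).real (ball z R ×ˢ univ) ≤
        R ^ m * (Q * (s * (ome m * (1 + s) ^ m))) + η' * R ^ m := by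
      have h7 : R ^ m * (Q * ∫ y, maj c s y) ≤ R ^ m * (Q * (s * (ome m * (1 + s) ^ m))) := by
        gcongr
      linarith
    have h8 : s * ((Q * (1 + s) ^ m + η' / (s * ome m)) * (ome m * R ^ m)) =
        R ^ m * (Q * (s * (ome m * (1 + s) ^ m))) + η' * R ^ m := by
      field_simp
    rw [← h8] at h6
    exact le_of_mul_le_mul_left h6 hs
  unfold rat
  have hd := den_pos m hR0
  rw [ENNReal.div_le_iff (by rw [ne_eq, ENNReal.ofReal_eq_zero, not_le]; exact hd)
    ENNReal.ofReal_ne_top, mass_apply _ measurableSet_ball, ← prod_univ_eq]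
  by_cases h0 : 0 ≤ Q * (1 + s) ^ m + η' / (s * ome m)
  · rw [← ENNReal.ofReal_mul h0]
    rw [measureReal_def] at h5
    exact (ENNReal.le_ofReal_iff_toReal_le hfin.ne (by positivity)).2 h5
  · rw [not_le] at h0
    have h9 : (VD D).real (ball z R ×ˢ univ) ≤ 0 :=
      h5.trans (mul_nonpos_of_nonpos_of_nonneg h0.le hd.le)
    rw [ENNReal.ofReal_of_nonpos h0.le, zero_mul, nonpos_iff_eq_zero]
    have h10 := le_antisymm h9 measureReal_nonneg
    rw [measureReal_def, ENNReal.toReal_eq_zero_iff] at h10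
    exact h10.resolve_right hfin.ne

/-- a width `s` for which the majorant costs at most `η / 2`. -/
theorem exists_width (m Q : ℕ) {η : ℝ} (hη : 0 < η) :
    ∃ s : ℝ, 0 < s ∧ s ≤ 1 / 2 ∧ Q * (1 + s) ^ m ≤ Q + η / 2 := by
  have h1 : Tendsto (fun s : ℝ => (Q : ℝ) * (1 + s) ^ m) (𝓝[>] 0) (𝓝 (Q * (1 + 0) ^ m)) := by
    refine Tendsto.mono_left ?_ nhdsWithin_le_nhds
    exact (Continuous.tendsto (by fun_prop) 0)
  have h2 : (Q : ℝ) * (1 + 0) ^ m < Q + η / 2 := by simp; positivity
  obtain ⟨s, hs1, hs2⟩ := ((h1.eventually_lt_const h2).and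
    (Ioo_mem_nhdsGT (by norm_num : (0:ℝ) < 1 / 2))).exists
  exact ⟨s, hs2.1, hs2.2.le, hs1.le⟩

/-- **LEAF NEARZ**. -/
theorem nearZ (h : QLeb) : NearZ := by
  intro m k Q hm hQ δ η hδ hη
  obtain ⟨s, hs, hs1, hsQ⟩ := exists_width m Q hη
  have ho := ome_pos m
  obtain ⟨ε₁, hε₁, H⟩ := h m k Q hm hQ (s * ome m * (η / 2)) (by positivity)
  set C : ℝ := 2 * (64 ^ (m + 2) * (1 + 2 ^ m * (Q + 1))) with hC
  have hC0 : 0 < C := by positivity
  refine ⟨min (min ε₁ 1) (η * δ ^ (m + 2) / C), by positivity, ?_⟩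
  intro U hU D hD hst x r hr hball hQx P hN z hz hQz t ht1 ht2
  set ε : ℝ := min (min ε₁ 1) (η * δ ^ (m + 2) / C) with hε
  have hε0 : 0 < ε := by positivity
  have hV := stat_VD hD hst
  have ht0 : 0 < t := lt_of_lt_of_le (by positivity) ht1
  have hQ1 : (1 : ℝ≥0∞) ≤ Q := by exact_mod_cast hQ
  refine ⟨hN.1, ?_, ?_⟩
  · refine (exc_z hV hm hr hball hε0.le ((min_le_left _ _).trans (min_le_right _ _)) hN hz
      (hQ1.trans hQz) ht0.le ht2).trans ?_
    have h1 : ε * C ≤ η * δ ^ (m + 2) := by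
      have := min_le_right (min ε₁ 1) (η * δ ^ (m + 2) / C)
      rwa [le_div_iff₀ hC0] at this
    calc 2 * (64 ^ (m + 2) * (1 + 2 ^ m * (Q + 1)) * ε * r ^ (m + 2))
        = (ε * C) * r ^ (m + 2) := by rw [hC]; ring
      _ ≤ (η * δ ^ (m + 2)) * r ^ (m + 2) := by gcongr
      _ = η * (δ * r) ^ (m + 2) := by rw [mul_pow]; ring
      _ ≤ η * t ^ (m + 2) := by gcongr
  · have hsub : ball z (16 * r) ⊆ U := by
      refine Subset.trans ?_ hball
      refine (ball_subset_ball' ?_).trans ball_subset_closedBall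
      have := mem_closedBall.1 hz
      linarith
    refine (rat_mono hV hm ht0 ht2 hsub).trans ?_
    obtain ⟨π, hπ, hπP⟩ := In_947.exists_co hN.1
    have e64 : 4 * (16 * r) = 64 * r := by ring
    have hN' : NearQ m (VD D) Q x (4 * (16 * r)) ε₁ (hp π) := by
      have e1 : hp π = P := hπP
      rw [e1, e64]
      refine ⟨hN.1, hN.2.1.trans ?_, hN.2.2.trans ?_⟩
      · have := (min_le_left (min ε₁ 1) (η * δ ^ (m + 2) / C)).trans (min_le_left _ _)
        gcongr
      · have := (min_le_left (min ε₁ 1) (η * δ ^ (m + 2) / C)).trans (min_le_left _ _)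
        gcongr
    have hzx : ‖z - x‖ ≤ 8 * r := by rw [← dist_eq_norm]; exact mem_closedBall.1 hz
    have hc : ‖π ((16 * r)⁻¹ • (z - x))‖ ≤ 1 / 2 := by
      refine (In_947.co_norm_le hN.1 hπP _).trans ?_
      rw [norm_smul, norm_inv, Real.norm_of_nonneg (by positivity : (0:ℝ) ≤ 16 * r),
        inv_mul_le_iff₀ (by positivity)]
      linarith
    have h2 := H U hU D hD hst x (16 * r) (by positivity) (by rw [e64]; exact hball) hQx π hπ hN'
      (maj (π ((16 * r)⁻¹ • (z - x))) s) (lipschitz_maj _ _)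
      (fun y => by
        rw [abs_of_nonneg (maj_nonneg _ _ _)]
        exact (maj_le _ hs.le y).trans (by linarith))
      (fun y hy => by
        by_contra hcon
        rw [not_le] at hcon
        refine hy (maj_zero _ ?_)
        have := norm_sub_norm_le y (π ((16 * r)⁻¹ • (z - x)))
        linarith)
    have h3 := rat_z (Q := Q) hr hV hball hs (In_947.co_norm_le hN.1 hπP) hz h2
    refine h3.trans ?_
    have h4 : s * ome m * (η / 2) / (s * ome m) = η / 2 := by field_simp
    rw [h4, ← ENNReal.ofReal_natCast, ← ENNReal.ofReal_add (by positivity) hη.le]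
    exact ENNReal.ofReal_le_ofReal (by linarith)

end Crest.Agent.R234.NearZ_148
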