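import Crest.Agent.R234.QLeb3_433
import Crest.Agent.R234.NearZ_148

/-! Row 234 (helper433): the leaves `QLeb` and `NearZ` of `Leaf1_456`, unconditional. -/

set_option autoImplicit false

namespace Crest.Agent.R234.QLeb_433

theorem nearZ : Crest.Agent.R234.Main_456.NearZ := Crest.Agent.R234.NearZ_148.nearZ qLeb

end Crest.Agent.R234.QLeb_433
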