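import Crest.Agent.R234.LowF15_471
import Crest.Agent.R234.Pin11_3
import Crest.Agent.R234.QLeb4_433

/-!
# Row 234, (F4) LOW FREQUENCY, instance part 5 (helper471): `Pin11_3.F4P`

`f4P_of` : `F4P m n K` from the two one-level inputs `ErP` (618/128) and `SoftP` (354).
-/

set_option autoImplicit false
set_option maxSynthPendingDepth 3

open MeasureTheory Filter Topology Set Metric
open scoped ENNReal NNReal ContDiff InnerProductSpace
open Crest.GeometryTopology.Submanifold Crest.Agent.R234.Vf_884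
open Crest.Agent.R234.Main_456 Crest.Agent.R234.F11_435
open Crest.Agent.R234.Gi_456 Crest.Agent.R234.Qp_534
open Crest.Agent.R234.GL_394
open Crest.Agent.R234.GI_640 (g3 g31 g32)
open Crest.Agent.R234.LowF13_471
open Crest.Agent.R234.LowF13_471.Qx (A0 A0_le)
open Crest.Agent.R234.LowF15_471
open Crest.Agent.R234.Pin11_3 (F4P Sit)

noncomputable section

namespace Crest.Agent.R234.LowF16_471

/-- anomaly bounds at all `Q`-points of a reference, all scales below `log r - 3` (618, 128) -/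
def ErP (m n : ℕ) : Prop :=
  ∀ Q : ℕ, 2 ≤ Q → ∃ A hs κ₁ : ℝ, A0 m n Q ≤ A ∧ 0 < hs ∧ 0 < κ₁ ∧
    ∀ (K : ℕ) (U : Set (Euc (m + n))) (D : VarifoldData m (m + n)) (x : Euc (m + n)) (r : ℝ)
      (π : Euc (m + n) →L[ℝ] Euc m) (ρ : Euc (m + n) →L[ℝ] Euc n) (u : Euc m → Euc n) (ε C : ℝ)
      (W : Euc m → Euc n) (κ : ℝ) (zh : Euc (m + n)), IsIntegralVarifoldIn U D →
      Qx U (VD D) Q K x r π ρ u ε C W κ zh → κ ≤ κ₁ →
      rat m (VD D) zh (16 * r) ≤ ENNReal.ofReal (Q + 1 / 8) →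
      ErH (VD D) π ρ x r W zh (h0 m Q ε) Q κ A hs (Real.log r - 3)

/-- soft sign at all `Q`-points of a reference, all scales below `log r - 3` (354) -/
def SoftP (m n : ℕ) : Prop :=
  ∀ Q : ℕ, 2 ≤ Q → ∃ ε₀ κ₁ : ℝ, 0 < ε₀ ∧ 0 < κ₁ ∧
    ∀ (K : ℕ) (U : Set (Euc (m + n))) (D : VarifoldData m (m + n)) (x : Euc (m + n)) (r : ℝ)
      (π : Euc (m + n) →L[ℝ] Euc m) (ρ : Euc (m + n) →L[ℝ] Euc n) (u : Euc m → Euc n) (ε C : ℝ)
      (W : Euc m → Euc n) (κ : ℝ) (zh : Euc (m + n)), IsIntegralVarifoldIn U D →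
      Qx U (VD D) Q K x r π ρ u ε C W κ zh → κ ≤ κ₁ →
      rat m (VD D) zh (16 * r) ≤ ENNReal.ofReal (Q + 1 / 8) →
      SoftH (VD D) π ρ x r W zh (h0 m Q ε) Q ε₀ (Real.log r - 3)

variable {m n k : ℕ} {U : Set (Euc k)} {V : Measure (Euc k × L k)} {Q K : ℕ} {x : Euc k} {r : ℝ}
  {π : Euc k →L[ℝ] Euc m} {ρ : Euc k →L[ℝ] Euc n} {u : Euc m → Euc n} {ε C : ℝ}
  {W : Euc m → Euc n} {κ : ℝ} {zh : Euc k}

/-- the height at the top is small -/
theorem Iz_small (h : Qx U V Q K x r π ρ u ε C W κ zh) :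
    Real.exp (-2 * cTop r) * Iz V π ρ x r W zh (h0 m Q ε) (cTop r) ≤
      (192 * ((Q + 1) * (ome m * 64 ^ m))) * h0 m Q ε ^ 2 := by
  have hr := h.hr
  have hk := h.k0
  have hk8 := h.κ8
  have home := ome_pos m
  have hok := h.ok
  have hOn := h.on
  have hc3 := exp_cTop hr
  have hcr : r ≤ Real.exp (cTop r) := by
    rw [← Real.log_le_iff_le_exp hr]
    unfold cTop
    have : 0 ≤ Real.log 2 := Real.log_nonneg (by norm_num)
    linarith
  have hmu : ∀ v : Euc m, ‖v‖ ≤ 5 * r → (cz π ρ x r W zh).mu v ≤ 2 := by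
    intro v hv
    have hb := LowF13_471.Qx.bw h
    have hs : 3 * (κ * (κ / r)) * ‖v‖ ≤ 1 / 4 := by
      calc 3 * (κ * (κ / r)) * ‖v‖ ≤ 3 * (κ * (κ / r)) * (5 * r) := by gcongr
        _ = 15 * κ ^ 2 := by field_simp; ring
        _ ≤ 1 / 4 := by nlinarith
    have h1 := (LowF12_471.Bw.pt h.gr hb 0 hs).abs_mu_sub
    have h2 : |(cz π ρ x r W zh).mu v - 1| ≤ 3 * (κ * (κ / r)) * ‖v‖ := h1
    have h3 := (abs_le.1 h2).2
    linarith
  set c0 : ℝ := 8 * h0 m Q ε ^ 2 * r ^ 2 * 2 * 12 with hc0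
  have hc00 : 0 ≤ c0 := by positivity
  have hfin : V (Kz π ρ x r W zh (h0 m Q ε) ×ˢ univ) < ⊤ :=
    h.cx.st.fin _ (Qp_534.Qx.isCompact_Kz h.gr _) (h.Kz_U h.hs)
  have hint : ∫ p, ((cz π ρ x r W zh).f p.1 * (cz π ρ x r W zh).mu ((cz π ρ x r W zh).x p.1)) *
      (-4 * g31 (Real.exp (-2 * cTop r) * ‖(cz π ρ x r W zh).x p.1‖ ^ 2))
        ∂(Vz V π ρ x r W zh (h0 m Q ε)) ≤ c0 * (Vz V π ρ x r W zh (h0 m Q ε)).real univ := by
    have := hOn.fin
    have e : c0 * (Vz V π ρ x r W zh (h0 m Q ε)).real univ =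
        ∫ _p, c0 ∂(Vz V π ρ x r W zh (h0 m Q ε)) := by
      rw [integral_const, smul_eq_mul, mul_comm]
    rw [e]
    refine integral_mono_of_nonneg ?_ (integrable_const _) ?_
    · filter_upwards [hOn.mem] with p hpm
      have h1 := hok.f_nonneg hpm.1
      have h2 := (hok.mupos _ (hok.mem _ hpm.1)).le
      have h3 := pf_cubic.pr.anti (Real.exp (-2 * cTop r) * ‖(cz π ρ x r W zh).x p.1‖ ^ 2)
        (by positivity)
      exact mul_nonneg (mul_nonneg h1 h2) (by linarith)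
    · filter_upwards [hOn.mem] with p hpm
      have h1 := hok.f_nonneg hpm.1
      have h2 := (hok.mupos _ (hok.mem _ hpm.1)).le
      by_cases hx : ‖(cz π ρ x r W zh).x p.1‖ ≤ Real.exp (cTop r)
      · have h3 := hmu _ (hx.trans (hc3.trans (by linarith)))
        have h4 : (cz π ρ x r W zh).f p.1 ≤ 8 * h0 m Q ε ^ 2 * r ^ 2 := by
          have h5 := hok.nusq _ hpm.1
          have h6 := h.nu_le_Kz hpm.1
          have h7 := pow_le_pow_left₀ (norm_nonneg _) h6 2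
          rw [h5] at h7
          nlinarith
        have h5 : -4 * g31 (Real.exp (-2 * cTop r) * ‖(cz π ρ x r W zh).x p.1‖ ^ 2) ≤ 12 := by
          have h6 := GI_640.abs_g31_le (t := Real.exp (-2 * cTop r) *
            ‖(cz π ρ x r W zh).x p.1‖ ^ 2) (by positivity)
          have := (abs_le.1 h6).1
          linarith
        have h6 : 0 ≤ -4 * g31 (Real.exp (-2 * cTop r) * ‖(cz π ρ x r W zh).x p.1‖ ^ 2) := by
          have := pf_cubic.pr.anti (Real.exp (-2 * cTop r) * ‖(cz π ρ x r W zh).x p.1‖ ^ 2)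
            (by positivity)
          linarith
        rw [hc0]
        gcongr
      · have h3 : g31 (Real.exp (-2 * cTop r) * ‖(cz π ρ x r W zh).x p.1‖ ^ 2) = 0 :=
          pf_cubic.pr.k1.zero _ (t_ge hx)
        rw [h3]
        simpa using hc00
  have hmass : (Vz V π ρ x r W zh (h0 m Q ε)).real univ ≤ (Q + 1) * (ome m * (64 * r) ^ m) := by
    refine le_trans ?_ h.cx.mass64
    have e : (Vz V π ρ x r W zh (h0 m Q ε)).real univ =
        V.real (Kz π ρ x r W zh (h0 m Q ε) ×ˢ univ) := by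
      unfold Vz VK
      rw [measureReal_def, Measure.restrict_apply_univ, ← measureReal_def]
    rw [e]
    have hfin64 : V (ball x (64 * r) ×ˢ univ) < ⊤ :=
      (measure_mono (prod_mono ball_subset_closedBall subset_rfl)).trans_lt h.cx.fin64
    refine ENNReal.toReal_mono hfin64.ne (measure_mono (prod_mono_left ?_))
    intro z hz
    have h2 := h.Kz_box h.hs hz
    have h3 := F11_435.frame_norm_sq h.hf (z - x)
    have h4 := pow_le_pow_left₀ (norm_nonneg _) h2.1.le 2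
    have h5 := pow_le_pow_left₀ (norm_nonneg _) h2.2.le 2
    have h6 : ‖z - x‖ ≤ 10 * r := by
      refine abs_le_of_sq_le_sq' ?_ (by positivity) |>.2
      nlinarith [sq_nonneg r]
    rw [mem_ball, dist_eq_norm]
    linarith
  have he1 : Real.exp (-m * cTop r) * (64 * r) ^ m ≤ 64 ^ m := by
    have e : Real.exp (-m * cTop r) = (Real.exp (cTop r) ^ m)⁻¹ := by
      rw [← Real.exp_nat_mul, ← Real.exp_neg]; congr 1; ring
    rw [e, mul_pow, ← div_eq_inv_mul, div_le_iff₀ (by positivity)]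
    gcongr
  have he2 : Real.exp (-2 * cTop r) * r ^ 2 ≤ 1 := by
    have e : Real.exp (-2 * cTop r) = (Real.exp (cTop r) ^ 2)⁻¹ := by
      rw [← Real.exp_nat_mul, ← Real.exp_neg]; congr 1; push_cast; ring
    rw [e, ← div_eq_inv_mul, div_le_one (by positivity)]
    gcongr
  have hI : Iz V π ρ x r W zh (h0 m Q ε) (cTop r) ≤
      Real.exp (-m * cTop r) * (c0 * ((Q + 1) * (ome m * (64 * r) ^ m))) := by
    refine (show Iz V π ρ x r W zh (h0 m Q ε) (cTop r) = Real.exp (-m * cTop r) * _ from rfl).trans_le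
      ?_
    gcongr
    exact hint.trans (by gcongr)
  calc Real.exp (-2 * cTop r) * Iz V π ρ x r W zh (h0 m Q ε) (cTop r) ≤
      Real.exp (-2 * cTop r) * (Real.exp (-m * cTop r) *
        (c0 * ((Q + 1) * (ome m * (64 * r) ^ m)))) := by gcongr
    _ = (192 * h0 m Q ε ^ 2) * (Real.exp (-2 * cTop r) * r ^ 2) * ((Q + 1) * ome m) *
        (Real.exp (-m * cTop r) * (64 * r) ^ m) := by rw [hc0]; ring
    _ ≤ (192 * h0 m Q ε ^ 2) * 1 * ((Q + 1) * ome m) * 64 ^ m := by gcongr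
    _ = _ := by ring

/-- **`F4P` from the two one-level inputs.** -/
theorem f4P_of {m n : ℕ} (hm : 1 ≤ m) (hE : ErP m n) (hS : SoftP m n) (K : ℕ) : F4P m n K := by
  intro Q C hQ lm θ B hlm hθ hB
  obtain ⟨A, hs, κ₁, hA, hhs, hκ₁, HE⟩ := hE Q hQ
  obtain ⟨ε₀, κ₂, hε₀, hκ₂, HS⟩ := hS Q hQ
  obtain ⟨θ', hθ', H⟩ := f4_inp hm n Q hA hhs hε₀ hlm hθ
  obtain ⟨εZ, hεZ, HZ⟩ := QLeb_433.nearZ m (m + n) Q hm (by omega) 1 (1 / 8) one_pos (by norm_num)
  have hhc := Pd_435.Cx.hc_pos m Q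
  have home := ome_pos m
  have hB0 : 0 < B := by linarith
  set M : ℝ := 192 * ((Q + 1) * (ome m * 64 ^ m)) with hM
  have hM0 : 0 < M := by positivity
  refine ⟨min εZ (min (κ₁ / B) (min (κ₂ / B) (min (θ' / B) (θ' / (M * Pd_435.Cx.hc m Q))))),
    ?_, ?_⟩
  · exact lt_min hεZ (lt_min (by positivity) (lt_min (by positivity)
      (lt_min (by positivity) (by positivity))))
  intro ε hε hεε U D x r π ρ u W κ zh hsit
  have g1 : ε ≤ εZ := hεε.trans (by simp)
  have g2 : ε ≤ κ₁ / B := hεε.trans (by simp)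
  have g3 : ε ≤ κ₂ / B := hεε.trans (by simp)
  have g4 : ε ≤ θ' / B := hεε.trans (by simp)
  have g5 : ε ≤ θ' / (M * Pd_435.Cx.hc m Q) := hεε.trans (by simp)
  have h := hsit.qx
  have hr := h.hr
  have hκ := hsit.κB
  have hκ1 : κ ≤ κ₁ := hκ.trans (by rw [le_div_iff₀ hB0] at g2; linarith)
  have hκ2 : κ ≤ κ₂ := hκ.trans (by rw [le_div_iff₀ hB0] at g3; linarith)
  have hκ3 : κ ≤ θ' := hκ.trans (by rw [le_div_iff₀ hB0] at g4; linarith)
  have hnear := Pin8_3.nearQ_mono (by positivity) h.cx.ref.near g1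
  have hN := HZ U h.opU D hsit.int hsit.st x r hr
    ((closedBall_subset_closedBall (by linarith)).trans h.cx.hU) hsit.th.ge (AS_456.hp π) hnear zh
    (closedBall_subset_closedBall (by linarith) h.mem) h.th (16 * r) (by linarith) le_rfl
  have hrat : rat m (VD D) zh (16 * r) ≤ ENNReal.ofReal (Q + 1 / 8) := by
    rw [ENNReal.ofReal_add (by positivity) (by norm_num), ENNReal.ofReal_natCast]
    exact hN.2.2
  have hsmall : Real.exp (-2 * cTop r) * Iz (VD D) π ρ x r W zh (h0 m Q ε) (cTop r) ≤ θ' := by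
    refine (Iz_small h).trans ?_
    have e : h0 m Q ε ^ 2 = Pd_435.Cx.hc m Q * ε := by
      unfold h0
      exact Real.sq_sqrt (by positivity)
    rw [e]
    rw [le_div_iff₀ (by positivity)] at g5
    calc _ = ε * (M * Pd_435.Cx.hc m Q) := by rw [hM]; ring
      _ ≤ θ' := g5
  exact H (m + n) K U (VD D) x r π ρ u ε C W κ zh h hκ3
    (hrat.trans (ENNReal.ofReal_le_ofReal (by linarith)))
    (HE K U D x r π ρ u ε C W κ zh hsit.int h hκ1 hrat)
    (HS K U D x r π ρ u ε C W κ zh hsit.int h hκ2 hrat) hsmall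

end Crest.Agent.R234.LowF16_471
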