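import Crest.Agent.R234.LowF16_471
import Crest.Agent.R234.Tv10_618
import Crest.Agent.R234.GLK9_128

/-!
# Row 234, (F4) LOW FREQUENCY, instance part 6 (helper471): the anomaly bound `ErP`

From 618's total variation measure at the scale `s = e^l` (collar `ε = 1`), 128's pointwise bounds
`KT` and the mass pinching at every scale.
-/

set_option autoImplicit false
set_option maxSynthPendingDepth 3

open MeasureTheory Filter Topology Set Metric
open scoped ENNReal NNReal ContDiff InnerProductSpace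
open Crest.GeometryTopology.Submanifold Crest.Agent.R234.Vf_884
open Crest.Agent.R234.Main_456 Crest.Agent.R234.F11_435
open Crest.Agent.R234.Gi_456 Crest.Agent.R234.Qp_534
open Crest.Agent.R234.GL_394
open Crest.Agent.R234.GI_640 (g3 g31 g32)
open Crest.Agent.R234.LowF8_471 Crest.Agent.R234.LowF9_471
open Crest.Agent.R234.LowF13_471
open Crest.Agent.R234.LowF13_471.Qx (A0 A0_le)
open Crest.Agent.R234.LowF15_471 Crest.Agent.R234.LowF16_471
open Crest.Agent.R234.Tv_618 (Wr KT tv_gl)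

noncomputable section

namespace Crest.Agent.R234.LowF17_471

variable {m n k : ℕ} {U : Set (Euc k)} {V : Measure (Euc k × L k)} {Q K : ℕ} {x : Euc k} {r : ℝ}
  {π : Euc k →L[ℝ] Euc m} {ρ : Euc k →L[ℝ] Euc n} {u : Euc m → Euc n} {ε C : ℝ}
  {W : Euc m → Euc n} {κ : ℝ} {zh : Euc k}

/-- `KT` on a compact part of `Kz`, `e^l' = 2 s`, `|nu| ≤ s / 2` -/
theorem kt (h : Qx U V Q K x r π ρ u ε C W κ zh) {l hs : ℝ} (hl : Real.exp (l + Real.log 2) ≤ r / 4)
    (hhs0 : 0 ≤ hs) (hhs1 : hs ≤ 1) {K' : Set (Euc k)}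
    (hK' : K' ⊆ Kz π ρ x r W zh (h0 m Q ε))
    (hnu : ∀ z ∈ K', ‖(cz π ρ x r W zh).x z‖ ≤ 2 * Real.exp l →
      ‖(cz π ρ x r W zh).nu z‖ ≤ hs * Real.exp l) :
    ∃ κT : ℝ, 0 ≤ κT ∧ κT ≤ GLK_128.Ct m n * κ ∧
      KT (cz π ρ x r W zh) K' (Real.exp l) ((1 + 1) * Real.exp l) (GLK_128.Cn m) κT := by
  have hr := h.hr
  have hk := h.k0
  have hel := Real.exp_pos l
  have e2 : Real.exp (l + Real.log 2) = 2 * Real.exp l := by
    rw [Real.exp_add, Real.exp_log (by norm_num)]; ring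
  have H : GLK_128.Hy π ρ zh r (wz π x zh r W) 0 K' (l + Real.log 2) κ (κ / r) (κ / r ^ 2)
      (hs / 2) := h.hy (by linarith) (fun z hz => (h.Kz_spec h.hs (hK' hz)).1) (by positivity)
    (by linarith) (fun z hz hx => by
      rw [e2] at hx ⊢
      refine (hnu z hz hx).trans (le_of_eq (by ring)))
  have hs' : Real.exp l ≤ Real.exp (l + Real.log 2) := by rw [e2]; linarith
  have hr2 : ∀ {a : ℝ}, a < (1 + 1) * Real.exp l → a ≤ Real.exp (l + Real.log 2) := by
    intro a ha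
    rw [e2]; linarith
  refine ⟨GLK_128.kp m n κ (κ / r) (κ / r ^ 2) (hs / 2) (l + Real.log 2), H.kpn, ?_, ?_⟩
  · refine H.kp_le.trans ?_
    have h1 : Real.exp (2 * (l + Real.log 2)) = Real.exp (l + Real.log 2) ^ 2 := by
      rw [← Real.exp_nat_mul]; norm_num
    set E := Real.exp (l + Real.log 2) with hE
    have hE0 : 0 < E := Real.exp_pos _
    rw [h1]
    have hq : E / r ≤ 1 / 4 := by rw [div_le_iff₀ hr]; linarith
    have hq0 : 0 ≤ E / r := by positivity
    have hC := (GLK_128.Ct_pos m n).le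
    have e3 : κ / r * E + κ / r ^ 2 * E ^ 2 = κ * (E / r + (E / r) ^ 2) := by field_simp
    rw [e3]
    have h2 : E / r + (E / r) ^ 2 ≤ 1 / 3 := by nlinarith
    calc 3 * GLK_128.Ct m n * (κ * (E / r + (E / r) ^ 2)) ≤
        3 * GLK_128.Ct m n * (κ * (1 / 3)) := by gcongr
      _ = _ := by ring
  · exact
    { jb := fun v hv => H.jb (hr2 hv)
      lb := fun v hv => (mul_le_mul_of_nonneg_right hs' (norm_nonneg _)).trans (H.lb (hr2 hv))
      t0 := fun p hp hx => ⟨H.tau_nonneg hp, H.tau_le hp⟩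
      q1 := fun z hz hx => H.q1 hel (by rw [e2]) (by linarith) hz (hr2 hx)
      an := fun p hp hx => H.an hel hs' hp (hr2 hx)
      hT := fun p hp hx => H.hT hel hs' hp (hr2 hx)
      k3 := fun p hp hx v => H.kk3 hel hs' hp (hr2 hx) v }

/-- restriction to the compact part -/
theorem restrict_eq {K0 K' : Set (Euc k)} (hK' : K' ⊆ K0) (hK0 : IsCompact K0)
    (hae : ∀ᵐ p ∂(V.restrict (K0 ×ˢ univ)), p.1 ∈ K') :
    V.restrict (K' ×ˢ univ) = V.restrict (K0 ×ˢ univ) := by
  refine Measure.restrict_congr_set ?_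
  have h1 := (ae_restrict_iff' (hK0.isClosed.measurableSet.prod
    (MeasurableSet.univ (α := L k)))).1 hae
  filter_upwards [h1] with p h2
  exact propext ⟨fun h3 => ⟨hK' h3.1, mem_univ _⟩, fun h3 => ⟨h2 h3, mem_univ _⟩⟩

/-- the anomaly bound at one level from 618's measure -/
theorem er_one {c : Ch m k} {K' : Set (Euc k)} {W : Measure (Euc k × L k)} {l c0 d0 hh C0 : ℝ}
    {zN : Euc k → Euc k} (h : Ok c K' univ) (hV : On W m K')
    (hk : KB c K' l c0 d0 hh C0 zN) (ht : ∀ p ∈ K' ×ˢ G m k, 0 ≤ c.tau p.1 p.2) {Q : ℝ}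
    {ρ C1 kq sig : ℝ} {e : Measure (Euc m)} (hρ : Real.exp l ≤ ρ)
    (hT : TV c W Q ρ C1 kq sig e) {M : ℝ} (hM : e.real (closedBall 0 ρ) ≤ M) :
    Real.exp ((2 - m) * l) * |er1a c W g3 Q l| ≤
      c0 * (Real.exp ((2 - m) * l) * (1 / 2 * ∫ p in Sh c (2 * Real.exp l),
        (c.tau p.1 p.2 + qq c l p.1) ∂W + M)) := by
  have hfin := hT.fin
  have hc0 := hk.c0n
  have hel := Real.exp_pos l
  have hz : ∀ v : Euc m, ¬ ‖v‖ ≤ Real.exp l → g3 (Real.exp (-2 * l) * ‖v‖ ^ 2) = 0 := fun v hv =>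
    pf_cubic.pr.k0.zero _ (t_ge hv)
  have hg0 : ∀ v : Euc m, 0 ≤ g3 (Real.exp (-2 * l) * ‖v‖ ^ 2) := fun v =>
    pf_cubic.nn _ (by positivity)
  have hg1 : ∀ v : Euc m, g3 (Real.exp (-2 * l) * ‖v‖ ^ 2) ≤ 1 := fun v =>
    GI_640.g3_le_one (by positivity)
  have hgc : Continuous fun v : Euc m => g3 (Real.exp (-2 * l) * ‖v‖ ^ 2) :=
    pf_cubic.pr.k0.continuous.comp (by fun_prop)
  have hthc : Continuous (th c) := by
    rw [← continuousOn_univ]; exact h.cth
  have hρn : ∀ v : Euc m, v ∉ closedBall (0 : Euc m) ρ → ¬ ‖v‖ ≤ Real.exp l := by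
    intro v hv hcon
    exact hv (mem_closedBall_zero_iff.2 (hcon.trans hρ))
  have hi := hT.i (fun v => th c v * g3 (Real.exp (-2 * l) * ‖v‖ ^ 2))
    ((hthc.mul hgc).measurable) ⟨c0, fun v => by
      by_cases hv : ‖v‖ ≤ Real.exp l
      · rw [abs_mul, abs_of_nonneg (hg0 v)]
        calc |th c v| * g3 (Real.exp (-2 * l) * ‖v‖ ^ 2) ≤ c0 * 1 :=
              mul_le_mul (hk.hth v hv) (hg1 v) (hg0 v) hc0
          _ = c0 := mul_one _
      · rw [hz v hv, mul_zero, abs_zero]; exact hc0⟩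
    (fun v hv => by rw [hz v (hρn v hv), mul_zero])
  have hgi : Integrable (fun v : Euc m => g3 (Real.exp (-2 * l) * ‖v‖ ^ 2)) e :=
    Integrable.mono' (integrable_const 1) hgc.aestronglyMeasurable
      (Eventually.of_forall fun v => by rw [Real.norm_of_nonneg (hg0 v)]; exact hg1 v)
  refine (er1a_le h hV pf_cubic hk Q hi hgi).trans ?_
  refine mul_le_mul_of_nonneg_left ?_ hc0
  have hE := (Real.exp_pos ((2 - m) * l)).le
  have b1 : ∫ v, g3 (Real.exp (-2 * l) * ‖v‖ ^ 2) ∂e ≤ M := by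
    refine le_trans ?_ hM
    have e1 : ∫ v, g3 (Real.exp (-2 * l) * ‖v‖ ^ 2) ∂e ≤
        ∫ v, (closedBall (0 : Euc m) ρ).indicator (fun _ => (1:ℝ)) v ∂e := by
      refine integral_mono hgi ((integrable_const 1).indicator measurableSet_closedBall) ?_
      intro v
      by_cases hv : v ∈ closedBall (0 : Euc m) ρ
      · rw [indicator_of_mem hv]; exact hg1 v
      · rw [indicator_of_notMem hv]
        simp only
        rw [hz v (hρn v hv)]
    rw [integral_indicator measurableSet_closedBall, setIntegral_const, smul_eq_mul, mul_one] at e1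
    exact e1
  have b2 : ee c W g3 l ≤ Real.exp ((2 - m) * l) * ∫ p in Sh c (2 * Real.exp l),
      (c.tau p.1 p.2 + qq c l p.1) ∂W := by
    unfold ee
    refine mul_le_mul_of_nonneg_left ?_ hE
    have i2 := h.int hV h.ctau pf_cubic.pr.k0.continuous l
    have i3 : Integrable (fun p : Euc k × L k => c.tau p.1 p.2 + qq c l p.1) W :=
      hV.integrable h.cpt (h.ctau.add (h.cqq l))
    have hS : MeasurableSet ((K' ×ˢ G m k) ∩ Sh c (2 * Real.exp l)) := measurableSet_KSh h _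
    have e1 : ∫ p in Sh c (2 * Real.exp l), (c.tau p.1 p.2 + qq c l p.1) ∂W =
        ∫ p, ((K' ×ˢ G m k) ∩ Sh c (2 * Real.exp l)).indicator
          (fun p : Euc k × L k => c.tau p.1 p.2 + qq c l p.1) p ∂W := by
      rw [integral_indicator hS, restrict_Sh hV]
    rw [e1]
    refine integral_mono_ae i2 (i3.indicator hS) ?_
    filter_upwards [hV.mem] with p hp
    have t0 := ht p hp
    have q0 := qq_nonneg (l := l) h hp.1
    by_cases hx : ‖c.x p.1‖ ≤ Real.exp l
    · have hmem : p ∈ (K' ×ˢ G m k) ∩ Sh c (2 * Real.exp l) :=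
        ⟨hp, show ‖c.x p.1‖ ≤ 2 * Real.exp l by linarith⟩
      rw [indicator_of_mem hmem]
      have := mul_le_mul_of_nonneg_left (hg1 (c.x p.1)) t0
      linarith
    · rw [hz _ hx, mul_zero]
      exact indicator_nonneg (fun q hq => add_nonneg (ht q hq.1) (qq_nonneg h hq.1.1)) p
  have b3 : Real.exp ((2 - m) * l) * ∫ v, g3 (Real.exp (-2 * l) * ‖v‖ ^ 2) ∂e ≤
      Real.exp ((2 - m) * l) * M := mul_le_mul_of_nonneg_left b1 hE
  linarith

theorem vol_eq (m : ℕ) {t : ℝ} (ht : 0 < t) :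
    volume.real (ball (0 : Euc m) t) = ome m * t ^ m := by
  rw [measureReal_def, volume_ball_eq m 0 ht, ENNReal.toReal_ofReal (den_pos m ht).le]

/-- **the anomaly bound** -/
theorem erP (hm : 1 ≤ m) (n : ℕ) : ErP m n := by
  intro Q hQ
  have hm0 : (1:ℝ) ≤ m := by exact_mod_cast hm
  have hQ0 : (0:ℝ) ≤ Q := Nat.cast_nonneg Q
  have home := ome_pos m
  have hCn : 0 ≤ GLK_128.Cn m := by
    have := GLK_128.Cj_nonneg m
    unfold GLK_128.Cn
    positivity
  obtain ⟨κ₀, hκ₀, C1, hC1, Ct, hCt, H⟩ := tv_gl (m := m) (by omega) Q hCn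
    (Λ := (Q + 1) * (ome m * 4 ^ m)) (by positivity)
  set hs : ℝ := 1 / (128 * (Q + 1) * m) with hhs
  have hhs0 : 0 < hs := by positivity
  have hhs1 : hs ≤ 1 / 128 := by
    rw [hhs]
    apply one_div_le_one_div_of_le (by norm_num)
    nlinarith [mul_nonneg hQ0 (by linarith : (0:ℝ) ≤ m)]
  have hGt := GLK_128.Ct_pos m n
  set A : ℝ := max (A0 m n Q) (2 * GLK_128.Ck m n * (1 / 2 + Ct)) with hA
  have hCk := GLK_128.Ck_nonneg m n
  refine ⟨A, hs, min (1 / (32 * (Q + 1) * m)) (min (κ₀ / GLK_128.Ct m n) (1 / GLK_128.Ct m n)),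
    le_max_left _ _, hhs0, lt_min (by positivity) (lt_min (by positivity) (by positivity)), ?_⟩
  intro K U D x r π ρ u ε C W κ zh hD h hκ hrat l hl K' hK' hKc hnu hae
  have hr := h.hr
  have hk := h.k0
  have hel := Real.exp_pos l
  have hκa : κ ≤ 1 / (32 * (Q + 1) * m) := hκ.trans (min_le_left _ _)
  have hκb : κ ≤ κ₀ / GLK_128.Ct m n := hκ.trans ((min_le_right _ _).trans (min_le_left _ _))
  have hκc : κ ≤ 1 / GLK_128.Ct m n := hκ.trans ((min_le_right _ _).trans (min_le_right _ _))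
  rw [le_div_iff₀ hGt] at hκb hκc
  have he8 : 8 * Real.exp l ≤ r := by
    have h1 : Real.exp (l + 3) ≤ r := by
      rw [← Real.le_log_iff_exp_le hr]; linarith
    rw [Real.exp_add] at h1
    nlinarith [exp_three]
  have e2 : Real.exp (l + Real.log 2) = 2 * Real.exp l := by
    rw [Real.exp_add, Real.exp_log (by norm_num)]; ring
  obtain ⟨κT, hκT0, hκT, hKT⟩ := kt h (l := l) (hs := hs) (by rw [e2]; linarith) hhs0.le
    (by linarith) hK' hnu
  have hsub : K' ⊆ Tz π ρ x r W zh := fun z hz => (h.Kz_spec h.hs (hK' hz)).1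
  have hloc5 := h.loc (L := l + Real.log 2) (by rw [e2]; linarith)
  have hKz := Qp_534.Qx.isCompact_Kz h.gr (π := π) (ρ := ρ) (h0 m Q ε)
  have haeV := (ae_restrict_iff' (hKz.isClosed.measurableSet.prod
    (MeasurableSet.univ (α := L (m + n))))).1 hae
  have hloc : Loc (cz π ρ x r W zh) U (Tz π ρ x r W zh) K' (VD D) (l + Real.log 2) :=
    { st := hloc5.st
      opU := hloc5.opU
      cpt := hKc
      sub := fun z hz => hloc5.sub (hK' hz)
      gap := by
        filter_upwards [hloc5.gap, haeV] with p h1 h2 h3 h4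
        exact h2 ⟨h1 h3 h4, mem_univ _⟩ }
  have hmes := restrict_eq hK' hKz hae
  -- masses
  have hsm : 16 * (Q + 1) * m * (κ + 4 * hs) ≤ 1 := by
    have h1 : 16 * (Q + 1) * m * κ ≤ 1 / 2 := by
      calc 16 * (Q + 1) * m * κ ≤ 16 * (Q + 1) * m * (1 / (32 * (Q + 1) * m)) := by gcongr
        _ = 1 / 2 := by field_simp; norm_num
    have h2 : 16 * (Q + 1) * m * (4 * hs) = 1 / 2 := by rw [hhs]; field_simp; norm_num
    linarith
  have hM1 : (VD D).real (Wr (cz π ρ x r W zh) K' ((1 + 1) * Real.exp l) ×ˢ univ) ≤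
      (Q + 1) * (ome m * 4 ^ m) * Real.exp l ^ m := by
    have h1 := LowF14_471.Qx.mass_W_le h (δ := 1 / 8) (η := hs) (t := (1 + 1) * Real.exp l)
      (by norm_num) hhs0.le hrat hK' (by positivity) (by
        have := h.κ8
        nlinarith) (fun z hz hx => by
        refine (hnu z hz (by linarith)).trans ?_
        nlinarith)
    refine (show (VD D).real (Wr (cz π ρ x r W zh) K' ((1 + 1) * Real.exp l) ×ˢ univ) ≤ _ from
      h1).trans ?_
    have h2 : (1 + κ + hs) * ((1 + 1) * Real.exp l) ≤ 4 * Real.exp l := by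
      have := h.κ8
      nlinarith
    calc (Q + 1 / 8) * (ome m * ((1 + κ + hs) * ((1 + 1) * Real.exp l)) ^ m) ≤
        (Q + 1) * (ome m * (4 * Real.exp l) ^ m) := by
          gcongr
          norm_num
      _ = _ := by rw [mul_pow]; ring
  have hM2 : |(VD D).real (Wr (cz π ρ x r W zh) K' (1 / 4 * Real.exp l) ×ˢ univ) -
      Q * volume.real (ball (0 : Euc m) (1 / 4 * Real.exp l))| ≤
      1 / 4 * volume.real (ball (0 : Euc m) (1 / 4 * Real.exp l)) := by
    have h1 := LowF14_471.Qx.mass_W h (δ := 1 / 8) (η := 4 * hs) (t := 1 / 4 * Real.exp l)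
      (by norm_num) le_rfl (by positivity) hsm hrat hK' hae (by positivity) (by linarith)
      (fun z hz hx => by
        refine (hnu z hz (by linarith)).trans (le_of_eq (by ring)))
    rw [vol_eq m (by positivity : 0 < 1 / 4 * Real.exp l)]
    refine (show |(VD D).real (Wr (cz π ρ x r W zh) K' (1 / 4 * Real.exp l) ×ˢ univ) -
      Q * (ome m * (1 / 4 * Real.exp l) ^ m)| ≤ _ from h1).trans (le_of_eq (by ring))
  obtain ⟨e, hTV, heM⟩ := H 1 one_pos le_rfl κT hκT0 (by
      calc κT ≤ GLK_128.Ct m n * κ := hκT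
        _ ≤ κ₀ := by linarith) hel hD h.reg hloc (by rw [e2]; linarith) (subset_univ _) hKT hM1 hM2
  have hok : Ok (cz π ρ x r W zh) K' univ := Ok_mono h.ok hK' hKc
  have hOn : On (VK (VD D) K') m K' := hloc.toOn
  have hVK : VK (VD D) K' = (VD D).restrict (Kz π ρ x r W zh (h0 m Q ε) ×ˢ univ) := hmes
  have hkb := LowF13_471.Qx.kb h (A := 2 * GLK_128.Ck m n) le_rfl (l := l) (hh := hs)
    (by linarith) hhs0.le (by linarith) hK' hKc (fun z hz hx => hnu z hz (by linarith))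
  have ht0 : ∀ p ∈ K' ×ˢ G m (m + n), 0 ≤ (cz π ρ x r W zh).tau p.1 p.2 := fun p hp =>
    h.tau_nonneg ⟨hK' hp.1, hp.2⟩
  have hκT1 : κT ≤ 1 := by linarith
  -- the integral in (ii)
  have hI : ∫ p in Wr (cz π ρ x r W zh) K' ((1 + 1) * Real.exp l) ×ˢ univ,
      ((cz π ρ x r W zh).tau p.1 p.2 + κT * (2 * (cz π ρ x r W zh).f p.1 / Real.exp l ^ 2))
        ∂(VD D) ≤
      ∫ p in Sh (cz π ρ x r W zh) (2 * Real.exp l), ((cz π ρ x r W zh).tau p.1 p.2 +
        qq (cz π ρ x r W zh) l p.1) ∂(VK (VD D) K') := by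
    have hsubW : Wr (cz π ρ x r W zh) K' ((1 + 1) * Real.exp l) ×ˢ (univ : Set (L (m + n))) ⊆
        K' ×ˢ univ := prod_mono_left fun z hz => hz.1
    have e1 : (VD D).restrict (Wr (cz π ρ x r W zh) K' ((1 + 1) * Real.exp l) ×ˢ univ) =
        (VK (VD D) K').restrict (Wr (cz π ρ x r W zh) K' ((1 + 1) * Real.exp l) ×ˢ univ) := by
      unfold VK
      rw [Measure.restrict_restrict_of_subset hsubW]
    rw [e1]
    have i1 : Integrable (fun p : Euc (m + n) × L (m + n) => (cz π ρ x r W zh).tau p.1 p.2 +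
        κT * (2 * (cz π ρ x r W zh).f p.1 / Real.exp l ^ 2)) (VK (VD D) K') :=
      hOn.integrable hKc (hok.ctau.add (continuousOn_const.mul
        ((continuousOn_const.mul (lift hok.cf)).div_const _)))
    have i2 : Integrable (fun p : Euc (m + n) × L (m + n) => (cz π ρ x r W zh).tau p.1 p.2 +
        qq (cz π ρ x r W zh) l p.1) (VK (VD D) K') :=
      hOn.integrable hKc (hok.ctau.add (hok.cqq l))
    have hpt : ∀ᵐ p ∂(VK (VD D) K'), (cz π ρ x r W zh).tau p.1 p.2 +
        κT * (2 * (cz π ρ x r W zh).f p.1 / Real.exp l ^ 2) ≤ (cz π ρ x r W zh).tau p.1 p.2 +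
        qq (cz π ρ x r W zh) l p.1 := by
      filter_upwards [hOn.mem] with p hp
      have h2 : qq (cz π ρ x r W zh) l p.1 = 2 * (cz π ρ x r W zh).f p.1 / Real.exp l ^ 2 := by
        have e3 : Real.exp (-2 * l) = (Real.exp l ^ 2)⁻¹ := by
          rw [← Real.exp_nat_mul, ← Real.exp_neg]; congr 1; push_cast; ring
        unfold qq
        rw [e3]; ring
      have h3 := qq_nonneg (l := l) hok hp.1
      rw [← h2]
      nlinarith
    refine (setIntegral_mono_ae_restrict i1.integrableOn i2.integrableOn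
      (ae_restrict_of_ae hpt)).trans ?_
    rw [restrict_Sh hOn]
    refine setIntegral_mono_set i2.integrableOn ?_ ?_
    · filter_upwards [ae_restrict_of_ae hOn.mem] with p hp
      exact add_nonneg (ht0 p hp) (qq_nonneg hok hp.1)
    · filter_upwards [hOn.mem] with p hp h2
      have h3 : p.1 ∈ Wr (cz π ρ x r W zh) K' ((1 + 1) * Real.exp l) := h2.1
      exact ⟨hp, show ‖(cz π ρ x r W zh).x p.1‖ ≤ 2 * Real.exp l by linarith [h3.2]⟩
  have h1 := er_one hok hOn hkb ht0 (Q := Q) (ρ := (1 + 1 / 2) * Real.exp l) (by linarith) hTV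
    (M := Ct * ∫ p in Sh (cz π ρ x r W zh) (2 * Real.exp l), ((cz π ρ x r W zh).tau p.1 p.2 +
        qq (cz π ρ x r W zh) l p.1) ∂(VK (VD D) K')) (by
      refine heM.trans ?_
      rw [one_pow, div_one]
      gcongr)
  rw [hVK] at h1
  refine h1.trans ?_
  set J : ℝ := ∫ p in Sh (cz π ρ x r W zh) (2 * Real.exp l), ((cz π ρ x r W zh).tau p.1 p.2 +
        qq (cz π ρ x r W zh) l p.1) ∂((VD D).restrict (Kz π ρ x r W zh (h0 m Q ε) ×ˢ univ)) with hJ
  have hJ0 : 0 ≤ J := by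
    rw [hJ, ← hVK]
    exact int_Sh_nonneg hok hOn (fun p hp => add_nonneg (ht0 p hp) (qq_nonneg hok hp.1)) _
  have hE := (Real.exp_pos ((2 - m) * l)).le
  calc 2 * GLK_128.Ck m n * (κ * (Real.exp l / r)) *
        (Real.exp ((2 - m) * l) * (1 / 2 * J + Ct * J)) =
      (2 * GLK_128.Ck m n * (1 / 2 + Ct)) * (κ * (Real.exp l / r)) *
        (Real.exp ((2 - m) * l) * J) := by ring
    _ ≤ A * (κ * (Real.exp l / r)) * (Real.exp ((2 - m) * l) * J) := by
      have : 2 * GLK_128.Ck m n * (1 / 2 + Ct) ≤ A := le_max_right _ _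
      gcongr

end Crest.Agent.R234.LowF17_471
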