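import Crest.Agent.R234.LowF17_471

/-!
# Row 234, (F4) LOW FREQUENCY, instance part 7 (helper471): the soft sign `SoftP`

`softP_of` : `SoftP m n` from the one-scale statement `F3S` (354's F3 at the scale `s = e^l`, collar
`ε = 1`): `bb ≤ δ H s²`, `H = s^{-m-2} ∫_{|c.x| ≤ 2 s} 2 f dV ≤ h₁`, `|nu| ≤ hs s` there, `κ ≤ κ₁`.
-/

set_option autoImplicit false
set_option maxSynthPendingDepth 3

open MeasureTheory Filter Topology Set Metric
open scoped ENNReal NNReal ContDiff InnerProductSpace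
open Crest.GeometryTopology.Submanifold Crest.Agent.R234.Vf_884
open Crest.Agent.R234.Main_456 Crest.Agent.R234.F11_435
open Crest.Agent.R234.Gi_456 Crest.Agent.R234.Qp_534
open Crest.Agent.R234.GL_394
open Crest.Agent.R234.GI_640 (g3 g31 g32)
open Crest.Agent.R234.LowF8_471 Crest.Agent.R234.LowF9_471
open Crest.Agent.R234.LowF13_471
open Crest.Agent.R234.LowF13_471.Qx (A0 A0_le)
open Crest.Agent.R234.LowF15_471 Crest.Agent.R234.LowF16_471

noncomputable section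

namespace Crest.Agent.R234.LowF18_471

/-- **one-scale soft sign** at a `Q`-point of a reference -/
def F3S (m n : ℕ) : Prop :=
  ∀ (Q : ℕ) (δ : ℝ), 2 ≤ Q → 0 < δ → ∃ κ₁ h₁ hs : ℝ, 0 < κ₁ ∧ 0 < h₁ ∧ 0 < hs ∧
    ∀ (K : ℕ) (U : Set (Euc (m + n))) (D : VarifoldData m (m + n)) (x : Euc (m + n)) (r : ℝ)
      (π : Euc (m + n) →L[ℝ] Euc m) (ρ : Euc (m + n) →L[ℝ] Euc n) (u : Euc m → Euc n) (ε C : ℝ)
      (W : Euc m → Euc n) (κ : ℝ) (zh : Euc (m + n)), IsIntegralVarifoldIn U D →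
      Qx U (VD D) Q K x r π ρ u ε C W κ zh → κ ≤ κ₁ →
      rat m (VD D) zh (16 * r) ≤ ENNReal.ofReal (Q + 1 / 8) →
      ∀ l ≤ Real.log r - 3, ∀ K' ⊆ Kz π ρ x r W zh (h0 m Q ε), IsCompact K' →
        (∀ z ∈ K', ‖(cz π ρ x r W zh).x z‖ ≤ 2 * Real.exp l →
          ‖(cz π ρ x r W zh).nu z‖ ≤ hs * Real.exp l) →
        (∀ᵐ p ∂((VD D).restrict (Kz π ρ x r W zh (h0 m Q ε) ×ˢ univ)), p.1 ∈ K') →
        ∀ H : ℝ, ∫ p in Sh (cz π ρ x r W zh) (2 * Real.exp l), 2 * (cz π ρ x r W zh).f p.1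
          ∂((VD D).restrict (Kz π ρ x r W zh (h0 m Q ε) ×ˢ univ)) ≤
            H * (Real.exp (m * l) * Real.exp (2 * l)) → 0 < H → H ≤ h₁ →
        bz (VD D) π ρ x r W zh (h0 m Q ε) Q l ≤ δ * H * Real.exp (2 * l)

/-- **`SoftP` from the one-scale statement** -/
theorem softP_of {m n : ℕ} (hm : 1 ≤ m) (hF : F3S m n) : SoftP m n := by
  intro Q hQ
  have hm0 : (1:ℝ) ≤ m := by exact_mod_cast hm
  set A : ℝ := A0 m n Q with hA
  obtain ⟨A1, A2, A3, A4, A5⟩ := A0_le (le_refl (A0 m n Q))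
  have hA1 : 1 ≤ A := by rw [hA]; linarith
  set Cc : ℝ := C1 m A (27 / 16) with hCc
  have hCc0 : 0 ≤ Cc := C1_nonneg (by linarith) (by norm_num)
  have hCp : 0 < Cc + 1 := by linarith
  obtain ⟨κ₁, h₁, hs, hκ₁, hh₁, hhs, H⟩ := hF Q (1 / (256 * (Cc + 1))) hQ (by positivity)
  refine ⟨min (h₁ / (Cc + 1)) (hs ^ 2 / (Cc + 1)), min κ₁ (1 / (12 * m)),
    lt_min (by positivity) (by positivity), lt_min hκ₁ (by positivity), ?_⟩
  intro K U D x r π ρ u ε C W κ zh hD h hκ hrat l hl S hS hSε hSb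
  have hr := h.hr
  have hk := h.k0
  have hk8 := h.κ8
  have hel := Real.exp_pos l
  have hκ12 : 12 * m * κ ≤ 1 := by
    have h1 : κ ≤ 1 / (12 * m) := hκ.trans (min_le_right _ _)
    rw [le_div_iff₀ (by positivity)] at h1
    linarith
  have hSa : S * (Cc + 1) ≤ h₁ := by
    have := hSε.trans (min_le_left _ _)
    rwa [le_div_iff₀ hCp] at this
  have hSb' : S * (Cc + 1) ≤ hs ^ 2 := by
    have := hSε.trans (min_le_right _ _)
    rwa [le_div_iff₀ hCp] at this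
  have he8 : 8 * Real.exp l ≤ r := by
    have h1 : Real.exp (l + 3) ≤ r := by
      rw [← Real.le_log_iff_exp_le hr]; linarith
    rw [Real.exp_add] at h1
    nlinarith [exp_three]
  have hok := h.ok
  have hOn := On_of_Stat hok.cpt h.cx.st (h.Kz_U h.hs)
  have hb := LowF13_471.Qx.bw h
  have hsup : Sup (cz π ρ x r W zh) ((VD D).restrict (Kz π ρ x r W zh (h0 m Q ε) ×ˢ univ)) A
      (5 * r) := ⟨fun s t hs hst ht => LowF13_471.Qx.s1 h A3 hs hst ht,
        fun s t hs hst ht _ => LowF13_471.Qx.s2 h A4 hκ12 hs hst ht⟩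
  have hmu : ∀ v : Euc m, ‖v‖ ≤ 5 * r → 1 / 2 ≤ (cz π ρ x r W zh).mu v := by
    intro v hv
    have hs : 3 * (κ * (κ / r)) * ‖v‖ ≤ 1 / 4 := by
      calc 3 * (κ * (κ / r)) * ‖v‖ ≤ 3 * (κ * (κ / r)) * (5 * r) := by gcongr
        _ = 15 * κ ^ 2 := by field_simp; ring
        _ ≤ 1 / 4 := by nlinarith
    have h1 := (LowF12_471.Bw.pt h.gr hb 0 hs).mu_ge
    exact le_trans (by norm_num) (show 3 / 4 ≤ (cz π ρ x r W zh).mu v from h1)
  have hl8 : l + Real.log 8 ∈ Icc l (l + 3) :=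
    ⟨by linarith [Real.log_nonneg (by norm_num : (1:ℝ) ≤ 8)], by linarith [log_eight]⟩
  obtain ⟨hf4, hnu, -⟩ := level hok hOn pf_cubic.pr (b0 := 27 / 16) (A := A) (T := 5 * r)
    (by norm_num) b0_cubic hA1 hS.le (l := l) (by linarith) hmu hsup (hSb _ hl8)
  have hη : Real.sqrt (Cc * S) ≤ hs := by
    rw [Real.sqrt_le_left hhs.le]
    nlinarith
  -- the compact part
  set K' : Set (Euc (m + n)) :=
    {z | z ∈ Kz π ρ x r W zh (h0 m Q ε) ∧ ‖(cz π ρ x r W zh).nu z‖ ≤ hs * Real.exp l} ∪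
    {z | z ∈ Kz π ρ x r W zh (h0 m Q ε) ∧ 5 / 2 * Real.exp l ≤ ‖(cz π ρ x r W zh).x z‖} with hK'
  have hsub : K' ⊆ Kz π ρ x r W zh (h0 m Q ε) := union_subset (fun z hz => hz.1) (fun z hz => hz.1)
  have hKc : IsCompact K' := by
    have a1 : IsClosed {z | z ∈ Kz π ρ x r W zh (h0 m Q ε) ∧
        ‖(cz π ρ x r W zh).nu z‖ ≤ hs * Real.exp l} :=
      hok.cnu.norm.preimage_isClosed_of_isClosed hok.cpt.isClosed isClosed_Iic
    have a2 : IsClosed {z | z ∈ Kz π ρ x r W zh (h0 m Q ε) ∧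
        5 / 2 * Real.exp l ≤ ‖(cz π ρ x r W zh).x z‖} :=
      hok.cx.norm.preimage_isClosed_of_isClosed hok.cpt.isClosed isClosed_Ici
    exact hok.cpt.of_isClosed_subset (a1.union a2) hsub
  have hae : ∀ᵐ p ∂((VD D).restrict (Kz π ρ x r W zh (h0 m Q ε) ×ˢ univ)), p.1 ∈ K' := by
    filter_upwards [hOn.mem, hnu] with p h1 h2
    rcases le_total (5 / 2 * Real.exp l) ‖(cz π ρ x r W zh).x p.1‖ with h3 | h3
    · exact Or.inr ⟨h1.1, h3⟩
    · exact Or.inl ⟨h1.1, (h2 (by linarith)).trans (mul_le_mul_of_nonneg_right hη hel.le)⟩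
  have hf0 : ∀ p ∈ Kz π ρ x r W zh (h0 m Q ε) ×ˢ G m (m + n), 0 ≤ 2 * (cz π ρ x r W zh).f p.1 :=
    fun p hpm => by have := hok.f_nonneg hpm.1; linarith
  have hf2 : ∫ p in Sh (cz π ρ x r W zh) (2 * Real.exp l), 2 * (cz π ρ x r W zh).f p.1
      ∂((VD D).restrict (Kz π ρ x r W zh (h0 m Q ε) ×ˢ univ)) ≤
      ((Cc + 1) * S) * (Real.exp (m * l) * Real.exp (2 * l)) := by
    refine (int_Sh_mono hok hOn (F := fun p => 2 * (cz π ρ x r W zh).f p.1)
      (continuousOn_const.mul (lift hok.cf)) hf0 (by linarith)).trans (hf4.trans ?_)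
    have : 0 ≤ S * (Real.exp (m * l) * Real.exp (2 * l)) := by positivity
    calc _ = Cc * (S * (Real.exp (m * l) * Real.exp (2 * l))) := by rw [hCc]; ring
      _ ≤ (Cc + 1) * (S * (Real.exp (m * l) * Real.exp (2 * l))) := by gcongr; linarith
      _ = _ := by ring
  have h1 := H K U D x r π ρ u ε C W κ zh hD h (hκ.trans (min_le_left _ _)) hrat l hl K' hsub hKc
    (by
      rintro z (hz | hz) hx
      · exact hz.2
      · exact absurd hz.2 (by linarith)) hae ((Cc + 1) * S) hf2 (by positivity)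
    (by linarith)
  refine h1.trans (le_of_eq ?_)
  field_simp

/-- **`F4P` from the one-scale soft sign.** -/
theorem f4P_of_F3S {m n : ℕ} (hm : 1 ≤ m) (hF : F3S m n) (K : ℕ) : Pin11_3.F4P m n K :=
  f4P_of hm (LowF17_471.erP hm n) (softP_of hm hF) K

end Crest.Agent.R234.LowF18_471
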