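import Crest.Agent.R234.Pd9_435
import Crest.Agent.R234.Pin11_3

/-!
# Row 234, VF-F11 (helper435): `Pin11_3.TopP`: the top bounds at a `Q`-point
-/

set_option autoImplicit false
set_option linter.unusedVariables false
set_option linter.unusedSectionVars false

open MeasureTheory Filter Topology Set Metric
open scoped ENNReal NNReal ContDiff InnerProductSpace
open Crest.GeometryTopology.Submanifold Crest.Agent.R234.Vf_884
open Crest.Agent.R234.Main_456 Crest.Agent.R234.F11_435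
open Crest.Agent.R234.Qp_534 (Qx wz cz Tz h0 Iz ez Ez bz Rz dz bTop cTop)
open Crest.Agent.R234.Pin11_3 (Sit TopP)
open Crest.Agent.R234.GI_640 (g3 g31 g32)
open Crest.Agent.R234.GL_394 (pf_cubic)

noncomputable section

namespace Crest.Agent.R234.Pd_435

variable {m n k : ℕ}

theorem Ref.mono_C {V : Measure (Euc k × L k)} {Q K : ℕ} {x : Euc k} {r : ℝ}
    {π : Euc k →L[ℝ] Euc m} {ρ : Euc k →L[ℝ] Euc n} {u : Euc m → Euc n} {ε C C' : ℝ}
    (h : Ref V Q x r π ρ u K ε C) (hC : C ≤ C') : Ref V Q x r π ρ u K ε C' :=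
  { h with dbl := h.dbl.trans (mul_le_mul_of_nonneg_right hC h.pos.le) }

theorem Cx.mono_C {U : Set (Euc k)} {V : Measure (Euc k × L k)} {Q K : ℕ} {x : Euc k} {r : ℝ}
    {π : Euc k →L[ℝ] Euc m} {ρ : Euc k →L[ℝ] Euc n} {u : Euc m → Euc n} {ε C C' : ℝ}
    (h : Cx U V Q K x r π ρ u ε C) (hC : C ≤ C') : Cx U V Q K x r π ρ u ε C' :=
  { h with ref := Ref.mono_C h.ref hC }

theorem g31_hi {y : ℝ} (hy : y ≤ 41 / 50) : 243 / 1250 ≤ -2 * g31 y := by
  unfold g31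
  have h1 : (9:ℝ) / 50 ≤ max 0 (1 - y) := le_max_of_le_right (by linarith)
  have h2 : ((9:ℝ) / 50) ^ 2 ≤ max 0 (1 - y) ^ 2 := pow_le_pow_left₀ (by norm_num) h1 2
  linarith

/-- the constants of the doubling at a `Q`-point, any `C` -/
theorem exists_dbl' (m Q K : ℕ) (C : ℝ) :
    ∃ ε₁ : ℝ, 0 < ε₁ ∧ ∃ C₂ : ℝ, 1 ≤ C₂ ∧ ∀ {n k : ℕ} {U : Set (Euc k)} {V : Measure (Euc k × L k)}
      {π : Euc k →L[ℝ] Euc m} {ρ : Euc k →L[ℝ] Euc n} {x zh : Euc k} {r ε κ : ℝ}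
      {u W : Euc m → Euc n}, Qx U V Q K x r π ρ u ε C W κ zh → ε ≤ ε₁ →
        0 < sep V π ρ x r u 8 ∧ sep V π ρ x r u 8 ≤ C₂ * sepz V π ρ x r u zh (7 / 4) ∧
        sepz V π ρ x r u zh 7 ≤ C₂ * sep V π ρ x r u 8 := by
  obtain ⟨ε₁, hε₁, C₂, hC₂, h⟩ := exists_dbl m Q K (C := max C 1) (le_max_right _ _)
  refine ⟨ε₁, hε₁, C₂, hC₂, ?_⟩
  intro n k U V π ρ x zh r ε κ u W hq hε
  exact h (hq.cx.mono_C (le_max_left _ _)) hq.mem hq.th1 hε

theorem exp_bTop {r : ℝ} (hr : 0 < r) : Real.exp (bTop r) = 2 * r := by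
  unfold bTop
  rw [Real.exp_add, Real.exp_log hr, Real.exp_log (by norm_num)]
  ring

theorem le_exp_cTop {r : ℝ} (hr : 0 < r) : 2 * r ≤ Real.exp (cTop r) := by
  rw [← exp_bTop hr]
  exact Real.exp_le_exp.2 (by unfold bTop cTop; linarith)

/-- **`TopP`**. -/
theorem topP (m n K : ℕ) : TopP m n K := by
  intro Q C hQ
  obtain ⟨ε₁, hε₁, C₂, hC₂, hdbl⟩ := exists_dbl' m Q K C
  have hC₂0 : 0 < C₂ := by linarith
  have hCe := Qz.Ce_pos m
  have home := ome_pos m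
  -- the constant of (B1)
  obtain ⟨A, hA⟩ : ∃ A, A = C₂ * (8 * (243 / 1250 : ℝ)⁻¹ * 2 ^ m) := ⟨_, rfl⟩
  have hA0 : 0 < A := by rw [hA]; positivity
  obtain ⟨cS, hcS⟩ : ∃ cS, cS = 2 * 64 ^ (m + 2) + 2 * ((Q + 1) * (ome m * 64 ^ m)) := ⟨_, rfl⟩
  have hcS0 : 0 < cS := by rw [hcS]; positivity
  obtain ⟨C1, hC1a, hC1b, hC1c, hC1d⟩ : ∃ C1 : ℝ, 1 ≤ C1 ∧ A ≤ C1 ∧
      6 * (Qz.Ce m * (C₂ * A)) ≤ C1 ∧ 12 * 6 * (C₂ * A) ≤ C1 :=
    ⟨max 1 (max A (max (6 * (Qz.Ce m * (C₂ * A))) (12 * 6 * (C₂ * A)))), by simp, by simp,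
      by simp, by simp⟩
  refine ⟨C1, hC1a, fun θ B hθ hB => ?_⟩
  refine ⟨min ε₁ (θ / (12 * 6 * (C₂ * cS))), lt_min hε₁ (by positivity), ?_⟩
  intro ε hε hεε U D x r π ρ u W κ zh hS
  have g1 : ε ≤ ε₁ := hεε.trans (min_le_left _ _)
  have g2 : 12 * 6 * (C₂ * cS) * ε ≤ θ := by
    have := hεε.trans (min_le_right _ _)
    rw [le_div_iff₀ (by positivity)] at this
    linarith
  have h := hS.qx
  have hr := h.hr
  have hrm : 0 < r ^ m := by positivity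
  obtain ⟨hpos, hs1, hs2⟩ := hdbl h g1
  set I := Iz (VD D) π ρ x r W zh (h0 m Q ε) with hI
  have hI0 : ∀ l, 0 ≤ I l := h.Iz_nonneg
  -- (B1)
  have b1 : sep (VD D) π ρ x r u 8 ≤ A * r ^ m * I (bTop r) := by
    have h1 := Qz.B1 h hC₂0.le hs1 pf_cubic.pr (cg := 243 / 1250) (by norm_num)
      (fun y _ hy => g31_hi hy) (l := bTop r) (exp_bTop hr).ge
    rw [exp_bTop hr, mul_pow] at h1
    have h2 : GL_394.II (cz π ρ x r W zh) (Vz m (VD D) Q π ρ x r ε W zh) g31 (bTop r) =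
      I (bTop r) := rfl
    rw [h2] at h1
    refine h1.trans (le_of_eq ?_)
    rw [hA]
    ring
  have hIb : 0 < I (bTop r) := by
    by_contra hcon
    push Not at hcon
    have : A * r ^ m * I (bTop r) ≤ 0 := mul_nonpos_of_nonneg_of_nonpos (by positivity) hcon
    linarith
  have hsep0 : 0 ≤ sep (VD D) π ρ x r u 8 := hpos.le
  have hHc : Hc (VD D) Q π ρ x r ε W zh (19 / 4) ≤ C₂ * sep (VD D) π ρ x r u 8 := by
    rw [← Qz.sepz_eq h (by norm_num) le_rfl]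
    exact (Qz.sepz_mono h (by norm_num) le_rfl).trans hs2
  -- energy
  have b2 : ez (VD D) π ρ x r W zh (h0 m Q ε) (bTop r) ≤ 6 * (Qz.Ce m * (C₂ * A)) * I (bTop r) := by
    have h1 := Qz.B2e h pf_cubic.pr (B := 6) pf_cubic.b0 pf_cubic.nn (l := bTop r)
      (by rw [exp_bTop hr]; linarith)
    have h2 : GL_394.ee (cz π ρ x r W zh) (Vz m (VD D) Q π ρ x r ε W zh) g3 (bTop r) =
      ez (VD D) π ρ x r W zh (h0 m Q ε) (bTop r) := rfl
    rw [h2, exp_bTop hr, mul_pow] at h1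
    set e := ez (VD D) π ρ x r W zh (h0 m Q ε) (bTop r) with he
    have he0 : 0 ≤ e := h.ez_nonneg _
    have h3 : r ^ m * e ≤ 2 ^ m * r ^ m * e := by
      have : (1:ℝ) ≤ 2 ^ m := one_le_pow₀ (by norm_num)
      have h4 : 0 ≤ r ^ m * e := by positivity
      nlinarith
    have h5 : r ^ m * e ≤ r ^ m * (6 * (Qz.Ce m * (C₂ * A)) * I (bTop r)) := by
      calc r ^ m * e ≤ 6 * (Qz.Ce m * Hc (VD D) Q π ρ x r ε W zh (19 / 4)) := h3.trans h1
        _ ≤ 6 * (Qz.Ce m * (C₂ * (A * r ^ m * I (bTop r)))) := by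
            gcongr
            exact hHc.trans (by gcongr)
        _ = _ := by ring
    exact le_of_mul_le_mul_left h5 hrm
  -- the height at the larger scale
  have b3' : Real.exp (cTop r) ^ m * I (cTop r) ≤ 12 * 6 * (C₂ * sep (VD D) π ρ x r u 8) :=
    Qz.B2I h hC₂0.le hs2 pf_cubic.pr (B := 6) pf_cubic.b1 (l := cTop r)
      ((Qp_534.exp_cTop hr).trans (by linarith))
  have hrc : r ≤ Real.exp (cTop r) := by
    have := le_exp_cTop hr
    linarith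
  have b3 : I (cTop r) ≤ 12 * 6 * (C₂ * A) * I (bTop r) := by
    have h3 : r ^ m * I (cTop r) ≤ Real.exp (cTop r) ^ m * I (cTop r) := by
      have := hI0 (cTop r)
      gcongr
    have h5 : r ^ m * I (cTop r) ≤ r ^ m * (12 * 6 * (C₂ * A) * I (bTop r)) := by
      calc r ^ m * I (cTop r) ≤ 12 * 6 * (C₂ * sep (VD D) π ρ x r u 8) := h3.trans b3'
        _ ≤ 12 * 6 * (C₂ * (A * r ^ m * I (bTop r))) := by gcongr
        _ = _ := by ring
    exact le_of_mul_le_mul_left h5 hrm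
  -- smallness
  have b4 : Real.exp (-2 * cTop r) * I (cTop r) ≤ θ := by
    have h1 := h.cx.sep_le
    rw [← hcS] at h1
    have hE := Real.exp_pos (cTop r)
    have h2 : Real.exp (-2 * cTop r) * Real.exp (cTop r) ^ 2 = 1 := by
      rw [← Real.exp_nat_mul, ← Real.exp_add]
      norm_num
    have h3 : Real.exp (cTop r) ^ (m + 2) * (Real.exp (-2 * cTop r) * I (cTop r)) ≤
        Real.exp (cTop r) ^ (m + 2) * θ := by
      calc Real.exp (cTop r) ^ (m + 2) * (Real.exp (-2 * cTop r) * I (cTop r)) =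
          (Real.exp (-2 * cTop r) * Real.exp (cTop r) ^ 2) *
            (Real.exp (cTop r) ^ m * I (cTop r)) := by ring
        _ = Real.exp (cTop r) ^ m * I (cTop r) := by rw [h2, one_mul]
        _ ≤ 12 * 6 * (C₂ * (cS * ε * r ^ (m + 2))) := b3'.trans (by gcongr)
        _ = (12 * 6 * (C₂ * cS) * ε) * r ^ (m + 2) := by ring
        _ ≤ θ * Real.exp (cTop r) ^ (m + 2) := by gcongr
        _ = _ := mul_comm _ _
    exact le_of_mul_le_mul_left h3 (by positivity)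
  refine ⟨hIb, b2.trans (by gcongr), b3.trans (by gcongr), b4, b1.trans (by gcongr)⟩

end Crest.Agent.R234.Pd_435
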