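import Crest.Agent.R234.Pd10_435
import Crest.Agent.R234.Pd11_435

/-!
# Row 234, VF-F11 (helper435): `Pin10_3.UljP`: the comparison integrals at a `Q`-point
-/

set_option autoImplicit false
set_option linter.unusedVariables false
set_option linter.unusedSectionVars false

open MeasureTheory Filter Topology Set Metric
open scoped ENNReal NNReal ContDiff InnerProductSpace
open Crest.GeometryTopology.Submanifold Crest.Agent.R234.Vf_884
open Crest.Agent.R234.Main_456 Crest.Agent.R234.F11_435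
open Crest.Agent.R234.Qp_534 (Qx wz cz Tz h0 Iz ez Ez bz Rz dz bTop cTop)
open Crest.Agent.R234.Pin10_3 (UljP Ulj)
open Crest.Agent.R234.GI_640 (g3 g31 g32)
open Crest.Agent.R234.GL_394 (pf_cubic KB RT OO II)
open Crest.Agent.R234.GLK_128 (Ck Ck_nonneg dd)
open Crest.Agent.R234.Fd_534 (rs sh)

noncomputable section

namespace Crest.Agent.R234.Pd_435

theorem g3_half {y : ℝ} (hy : y ≤ 1 / 2) : 1 / 8 ≤ g3 y ∧ 1 / 8 ≤ -2 * g31 y := by
  unfold g3 g31
  have h1 : (1:ℝ) / 2 ≤ max 0 (1 - y) := le_max_of_le_right (by linarith)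
  have h2 : ((1:ℝ) / 2) ^ 2 ≤ max 0 (1 - y) ^ 2 := pow_le_pow_left₀ (by norm_num) h1 2
  have h3 : ((1:ℝ) / 2) ^ 3 ≤ max 0 (1 - y) ^ 3 := pow_le_pow_left₀ (by norm_num) h1 3
  constructor <;> linarith

theorem cc_le {κ a2 a3 : ℝ} (hκ : 0 ≤ κ) (hκ8 : κ ≤ 1 / 8) (h2 : 0 ≤ a2) (h2' : a2 ≤ κ)
    (h3 : 0 ≤ a3) (h3' : a3 ≤ κ) : GLK_128.cc κ a2 a3 ≤ κ := by
  unfold GLK_128.cc
  have e1 : κ * a2 ≤ κ * κ := by gcongr
  have e2 : a2 ^ 2 ≤ κ ^ 2 := pow_le_pow_left₀ h2 h2' 2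
  have e3 : a2 * a3 ≤ κ * κ := by gcongr
  have e4 : κ * a3 ≤ κ * κ := by gcongr
  nlinarith

theorem dd_le {κ a2 a3 hh : ℝ} (hκ : 0 ≤ κ) (h2 : 0 ≤ a2) (h2' : a2 ≤ κ)
    (h3 : 0 ≤ a3) (h3' : a3 ≤ κ) (hh0 : 0 ≤ hh) (hh1 : hh ≤ 1) : dd a2 a3 hh ≤ 2 * κ := by
  unfold dd
  calc (a2 + a3) * hh ≤ (κ + κ) * 1 := by gcongr
    _ = _ := by ring

set_option maxSynthPendingDepth 3 in
/-- **`UljP`**. -/
theorem uljP (m n K : ℕ) : UljP m n K := by
  intro Q C A Cs hQ hA hCs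
  obtain ⟨ε₁, hε₁, C₂, hC₂, hdbl⟩ := exists_dbl' m Q K C
  have hC₂0 : 0 < C₂ := by linarith
  have hhc := Cx.hc_pos m Q
  have hCk := Ck_nonneg m n
  refine ⟨max 720 ((4 / 3) ^ m * (12 * 6)), (le_max_left _ _).trans' (by norm_num), ?_⟩
  intro C₁ hC₁ lm η B M hlm hη hB hM
  have hC₁a : 720 ≤ C₁ := (le_max_left _ _).trans hC₁
  have hC₁b : (4 / 3) ^ m * (12 * 6) ≤ C₁ := (le_max_right _ _).trans hC₁
  obtain ⟨σ, hσ, hcore⟩ := ulj_core m (g := g3) (g1 := g31) (g2 := g32) (B := 6) (cg := 1 / 8)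
    (C₂ := C₂) (Λ := M) (C' := C₁) (lm := lm) (η := η) pf_cubic (by norm_num)
    (fun y _ hy => g3_half hy) hC₂0.le (by linarith) (by linarith)
    (by norm_num; linarith) hC₁b hη
  obtain ⟨s1, hs1⟩ : ∃ s1, s1 = min σ (Real.exp lm / 8) := ⟨_, rfl⟩
  have hs10 : 0 < s1 := by rw [hs1]; positivity
  have hs1σ : s1 ≤ σ := by rw [hs1]; exact min_le_left _ _
  have hs1l : s1 ≤ Real.exp lm / 8 := by rw [hs1]; exact min_le_right _ _
  refine ⟨min ε₁ (min (σ / ((2 * Ck m n + 1) * B)) (s1 ^ 2 / Cx.hc m Q)),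
    lt_min hε₁ (lt_min (by positivity) (by positivity)), ?_⟩
  intro ε hε hεε U hU D hD hst x r π ρ u W κ zh h hκB hI hc1
  have g1 : ε ≤ ε₁ := hεε.trans (min_le_left _ _)
  have g2 : (2 * Ck m n + 1) * κ ≤ σ := by
    have := hεε.trans ((min_le_right _ _).trans (min_le_left _ _))
    rw [le_div_iff₀ (by positivity)] at this
    calc (2 * Ck m n + 1) * κ ≤ (2 * Ck m n + 1) * (B * ε) := by gcongr
      _ = ε * ((2 * Ck m n + 1) * B) := by ring
      _ ≤ σ := this
  have g3' : h0 m Q ε ≤ s1 := by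
    have := hεε.trans ((min_le_right _ _).trans (min_le_right _ _))
    rw [le_div_iff₀ hhc] at this
    unfold h0
    rw [Real.sqrt_le_left hs10.le]
    linarith
  have hr := h.hr
  have hκ0 := h.k0
  have hκ8 := h.κ8
  have hκσ : κ ≤ σ := by
    have : 0 ≤ 2 * Ck m n * κ := by positivity
    linarith
  have hCκσ : 2 * Ck m n * κ ≤ σ := by linarith
  have hh0 := Qp_534.h0_nonneg m Q ε
  obtain ⟨hpos, hsa, hs7⟩ := hdbl h g1
  -- the relative height
  set a := Real.log r - Real.log (4 / 3) with ha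
  have hexp : ∀ l, Real.exp (l + a) = 3 / 4 * r * Real.exp l := fun l => exp_sc hr l
  set hb := 4 * h0 m Q ε * r * Real.exp (-(lm + a)) with hhb
  have hb0 : 0 ≤ hb := by positivity
  have hb1 : hb ≤ 1 := by
    rw [hhb, Real.exp_neg, hexp]
    have hE := Real.exp_pos lm
    rw [← div_eq_mul_inv, div_le_one (by positivity)]
    have h1 : h0 m Q ε ≤ Real.exp lm / 8 := g3'.trans hs1l
    calc 4 * h0 m Q ε * r ≤ 4 * (Real.exp lm / 8) * r := by gcongr
      _ ≤ 3 / 4 * r * Real.exp lm := by nlinarith [mul_pos hr hE]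
  have hlev : ∀ l ∈ Icc (lm + a) (-3 + a), Real.exp l ≤ r := by
    intro l hl
    have h1 : l = (l - a) + a := by ring
    rw [h1, hexp]
    have h2 : Real.exp (l - a) ≤ 1 := Real.exp_le_one_iff.2 (by linarith [hl.2])
    calc 3 / 4 * r * Real.exp (l - a) ≤ 3 / 4 * r * 1 := by gcongr
      _ ≤ r := by linarith
  obtain ⟨u1, u2, u3⟩ := hcore h hκσ (g3'.trans hs1σ) hs7
    (Rz (VD D) π ρ x r W zh (h0 m Q ε) (A * κ) (dz (VD D) x r π ρ W zh (h0 m Q ε) κ A Cs (3 - lm)))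
    (fun l => Ck m n * GLK_128.cc κ (κ / r * Real.exp l) (κ / r ^ 2 * Real.exp (2 * l)))
    (fun l => Ck m n * dd (κ / r * Real.exp l) (κ / r ^ 2 * Real.exp (2 * l)) hb) (by
      intro l hl
      have hlr := hlev l hl
      have hE := Real.exp_pos l
      have hk : KB (cz π ρ x r W zh) (Qp_534.Kz π ρ x r W zh (h0 m Q ε)) l
          (Ck m n * GLK_128.cc κ (κ / r * Real.exp l) (κ / r ^ 2 * Real.exp (2 * l)))
          (Ck m n * dd (κ / r * Real.exp l) (κ / r ^ 2 * Real.exp (2 * l)) hb) hb (m + 8)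
          (GLK_128.zN π ρ zh r (wz π x zh r W) 0) :=
        (h.hyK (lo := lm + a) hl.1 (hlr.trans (by linarith)) hb1).kb
      have a2 : κ / r * Real.exp l ≤ κ := by
        calc κ / r * Real.exp l ≤ κ / r * r := by gcongr
          _ = κ := by field_simp
      have a20 : 0 ≤ κ / r * Real.exp l := by positivity
      have a3 : κ / r ^ 2 * Real.exp (2 * l) ≤ κ := by
        have e1 : Real.exp (2 * l) = Real.exp l ^ 2 := by
          rw [← Real.exp_nat_mul]; norm_num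
        rw [e1]
        calc κ / r ^ 2 * Real.exp l ^ 2 ≤ κ / r ^ 2 * r ^ 2 := by gcongr
          _ = κ := by field_simp
      have a30 : 0 ≤ κ / r ^ 2 * Real.exp (2 * l) := by positivity
      refine ⟨⟨hb, m + 8, _, hk⟩, ?_, ?_, ?_, ?_⟩
      · calc Ck m n * GLK_128.cc κ (κ / r * Real.exp l) (κ / r ^ 2 * Real.exp (2 * l)) ≤ Ck m n * κ := by
              gcongr
              exact cc_le hκ0 hκ8 a20 a2 a30 a3
          _ ≤ σ := by
              have : 0 ≤ Ck m n * κ := by positivity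
              linarith
      · calc Ck m n * dd (κ / r * Real.exp l) (κ / r ^ 2 * Real.exp (2 * l)) hb ≤
            Ck m n * (2 * κ) := by
              gcongr
              exact dd_le hκ0 a20 a2 a30 a3 hb0 hb1
          _ ≤ σ := by linarith
      · -- RT ≤ Rz
        have hOO : 0 ≤ OO (cz π ρ x r W zh) (Vz m (VD D) Q π ρ x r ε W zh) l :=
          GL_394.OO_nonneg (l := l) h.ok (Qz.on h) hk
        have hII : 0 ≤ II (cz π ρ x r W zh) (Vz m (VD D) Q π ρ x r ε W zh) g31 l :=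
          GL_394.II_nonneg h.ok (Qz.on h) pf_cubic.pr.anti _
        have hdz : 0 ≤ dz (VD D) x r π ρ W zh (h0 m Q ε) κ A Cs (3 - lm) := by
          unfold dz
          positivity
        show RT (cz π ρ x r W zh) (Vz m (VD D) Q π ρ x r ε W zh) g31 l ≤
          RT (cz π ρ x r W zh) (Vz m (VD D) Q π ρ x r ε W zh) g31 l +
            4 * 6 * dz (VD D) x r π ρ W zh (h0 m Q ε) κ A Cs (3 - lm) *
              OO (cz π ρ x r W zh) (Vz m (VD D) Q π ρ x r ε W zh) l +
            (A * κ) ^ 2 * II (cz π ρ x r W zh) (Vz m (VD D) Q π ρ x r ε W zh) g31 l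
        have e1 : 0 ≤ 4 * 6 * dz (VD D) x r π ρ W zh (h0 m Q ε) κ A Cs (3 - lm) *
              OO (cz π ρ x r W zh) (Vz m (VD D) Q π ρ x r ε W zh) l := by positivity
        have e2 : 0 ≤ (A * κ) ^ 2 * II (cz π ρ x r W zh) (Vz m (VD D) Q π ρ x r ε W zh) g31 l := by
          positivity
        linarith
      · have h1 := (hI (l - a) ⟨by linarith [hl.1], by linarith [hl.2]⟩).2.2
        have h2 : rs r (Iz (VD D) π ρ x r W zh (h0 m Q ε)) (l - a) =
            (r ^ 2)⁻¹ * II (cz π ρ x r W zh) (Vz m (VD D) Q π ρ x r ε W zh) g31 l := by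
          have e : l - a + sh r = l := by
            rw [ha]
            unfold sh
            ring
          unfold rs
          rw [e]
          rfl
        rw [h2] at h1
        refine h1.trans (le_of_eq ?_)
        rw [pow_add]
        field_simp)
  exact ⟨u1, u2, u3⟩

end Crest.Agent.R234.Pd_435
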