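import Crest.Agent.R234.QLeb2_433

/-!
Row 234 (helper433), task VF-QLEB, part 3: radial comparison (layer cake) and the final theorem
`qLeb : Main_456.QLeb`.
-/

set_option autoImplicit false
set_option linter.unusedVariables false

open MeasureTheory Topology Set Metric
open Filter hiding ker
open scoped ENNReal NNReal ContDiff InnerProductSpace
open Crest.GeometryTopology.Submanifold Crest.Agent.R234.Vf_884
open Crest.Agent.R234.Strat3_842 (tilt height)
open Crest.Agent.R234.AS_456 (hp vp)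

noncomputable section

namespace Crest.Agent.R234.QLeb_433

open Crest.Agent.R234.Main_456 Crest.Agent.R234.Al4_182

variable {m k : ℕ} {π : Euc k →L[ℝ] Euc m} {U : Set (Euc k)} {V : Measure (Euc k × L k)}

/-! ### layer cake -/

/-- superlevel sets of `ph 2 (a ^ 2)`. -/
theorem lt_ph_iff {t a : ℝ} (ht : 0 < t) (ht1 : t < 1) (ha : 0 ≤ a) :
    t < ph 2 (a ^ 2) ↔ a < √(1 - √t) := by
  have hs1 : √t < 1 := by rw [Real.sqrt_lt' one_pos]; simpa using ht1
  have hs0 : 0 < √t := Real.sqrt_pos.2 ht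
  have hts : t = √t ^ 2 := (Real.sq_sqrt ht.le).symm
  unfold ph
  rw [Real.lt_sqrt ha]
  constructor
  · intro h
    have h1 : √t < max (1 - a ^ 2) 0 := by
      rw [hts] at h
      exact lt_of_pow_lt_pow_left₀ 2 (le_max_right _ _) (by simpa using h)
    rcases lt_max_iff.1 h1 with h2 | h2
    · linarith
    · linarith
  · intro h
    have h1 : √t < max (1 - a ^ 2) 0 := lt_max_iff.2 (Or.inl (by linarith))
    have h2 : √t ^ 2 < (max (1 - a ^ 2) 0) ^ 2 := pow_lt_pow_left₀ h1 hs0.le two_ne_zero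
    rwa [← hts] at h2

theorem ph_le_of {t a : ℝ} (ht1 : 1 ≤ t) : ph 2 (a ^ 2) ≤ t :=
  (ph_le_one 2 (sq_nonneg a)).trans ht1

/-- superlevel sets of the kernels are balls. -/
theorem setOf_ker {E : Type*} [NormedAddCommGroup E] [InnerProductSpace ℝ E]
    [FiniteDimensional ℝ E] [MeasurableSpace E] [BorelSpace E]
    (x : E) {ρ : ℝ} (hρ : 0 < ρ) {t : ℝ} (ht : 0 < t) (ht1 : t < 1) :
    {y : E | t < ker 2 x ρ y} = ball x (ρ * √(1 - √t)) := by
  ext y
  rw [mem_ofPred_eq, mem_ball, dist_eq_norm]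
  unfold Al4_182.ker
  rw [← div_pow, lt_ph_iff ht ht1 (by positivity), div_lt_iff₀ hρ, mul_comm]

theorem setOf_ker' {E : Type*} [NormedAddCommGroup E] [InnerProductSpace ℝ E]
    [FiniteDimensional ℝ E] [MeasurableSpace E] [BorelSpace E]
    (x : E) (ρ : ℝ) {t : ℝ} (ht1 : 1 ≤ t) : {y : E | t < ker 2 x ρ y} = ∅ := by
  ext y
  simp only [mem_ofPred_eq, mem_empty_iff_false, iff_false, not_lt]
  exact (ker_le_one _ _ _ _).trans ht1

theorem lint_ker (V : Measure (Euc k × L k)) (x : Euc k) (ρ : ℝ) :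
    ∫⁻ p, ENNReal.ofReal (ker 2 x ρ p.1) ∂V =
      ∫⁻ t in Ioi (0:ℝ), V ({y : Euc k | t < ker 2 x ρ y} ×ˢ univ) := by
  rw [lintegral_eq_lintegral_meas_lt V (Eventually.of_forall fun p => ker_nonneg _ _ _ _)
    (((continuous_ker 2 x ρ).comp continuous_fst).aemeasurable)]
  refine lintegral_congr fun t => ?_
  congr 1
  ext p
  simp

theorem lint_cb {δ : ℝ} (hδ : 0 < δ) :
    ENNReal.ofReal (cb m δ) =
      ∫⁻ t in Ioi (0:ℝ), volume {y : Euc m | t < ker 2 0 δ y} := by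
  unfold cb
  rw [ofReal_integral_eq_lintegral_ofReal (ker_integrable hδ)
    (Eventually.of_forall fun z => ker_nonneg _ _ _ _),
    lintegral_eq_lintegral_meas_lt volume (Eventually.of_forall fun p => ker_nonneg _ _ _ _)
    ((continuous_ker 2 (0 : Euc m) δ).aemeasurable)]

/-- radial comparison. -/
theorem radial (hV : Stat m k U V) (hm : 1 ≤ m) {x : Euc k} {r δ ε : ℝ} {Q : ℕ} (hr : 0 < r)
    (hU : closedBall x (4 * r) ⊆ U) (hδ : 0 < δ) (hδ2 : δ ≤ 1 / 2) (hε : 0 ≤ ε)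
    (hQ : (Q : ℝ≥0∞) ≤ Th m V x) (hrat : rat m V x (4 * r) ≤ (Q : ℝ≥0∞) + ENNReal.ofReal ε) :
    |∫ p, ker 2 x (δ * r) p.1 ∂V - Q * (r ^ m * cb m δ)| ≤ ε * (r ^ m * cb m δ) := by
  have hc := cb_pos (m := m) hδ
  have hδr : 0 < δ * r := mul_pos hδ hr
  have hball : ∀ s : ℝ, 0 < s → s ≤ 1 / 2 →
      (Q : ℝ≥0∞) * ENNReal.ofReal (ome m * (s * r) ^ m) ≤ V (ball x (s * r) ×ˢ univ) ∧
      V (ball x (s * r) ×ˢ univ) ≤
        ((Q : ℝ≥0∞) + ENNReal.ofReal ε) * ENNReal.ofReal (ome m * (s * r) ^ m) := by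
    intro s hs hs2
    have hsr : 0 < s * r := mul_pos hs hr
    have h4 : s * r ≤ 4 * r := by nlinarith
    have hsub : ball x (s * r) ⊆ U :=
      (ball_subset_closedBall.trans (closedBall_subset_closedBall h4)).trans hU
    have hsub4 : ball x (4 * r) ⊆ U := ball_subset_closedBall.trans hU
    have hmass : mass V (ball x (s * r)) = V (ball x (s * r) ×ˢ univ) := by
      rw [mass_apply V measurableSet_ball]
      congr 1
      ext p; simp
    constructor
    · rw [← hmass]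
      exact mul_le_mass hV hm hsr hsub hQ
    · have h5 := (rat_mono hV hm hsr h4 hsub4).trans hrat
      unfold rat at h5
      rw [hmass, ENNReal.div_le_iff_le_mul (Or.inl (by
        rw [ne_eq, ENNReal.ofReal_eq_zero, not_le]; exact den_pos m hsr))
        (Or.inl ENNReal.ofReal_ne_top)] at h5
      exact h5
  have hvol : ∀ s : ℝ, 0 < s → volume (ball (0 : Euc m) s) = ENNReal.ofReal (ome m * s ^ m) :=
    fun s hs => volume_ball_eq m 0 hs
  have hscale : ∀ s : ℝ, 0 < s → ENNReal.ofReal (ome m * (s * r) ^ m) =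
      ENNReal.ofReal (r ^ m) * volume (ball (0 : Euc m) s) := by
    intro s hs
    rw [hvol s hs, ← ENNReal.ofReal_mul (by positivity), mul_pow]
    congr 1
    ring
  -- level by level
  have hlev : ∀ t : ℝ, 0 < t →
      (Q : ℝ≥0∞) * (ENNReal.ofReal (r ^ m) * volume {y : Euc m | t < ker 2 0 δ y}) ≤
        V ({y : Euc k | t < ker 2 x (δ * r) y} ×ˢ univ) ∧
      V ({y : Euc k | t < ker 2 x (δ * r) y} ×ˢ univ) ≤
        ((Q : ℝ≥0∞) + ENNReal.ofReal ε) *
          (ENNReal.ofReal (r ^ m) * volume {y : Euc m | t < ker 2 0 δ y}) := by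
    intro t ht
    rcases lt_or_ge t 1 with ht1 | ht1
    · rw [setOf_ker x hδr ht ht1, setOf_ker (0 : Euc m) hδ ht ht1]
      set s := δ * √(1 - √t) with hs
      have hst : √t < 1 := by rw [Real.sqrt_lt' one_pos]; simpa using ht1
      have hs0 : 0 < s := mul_pos hδ (Real.sqrt_pos.2 (by linarith))
      have hs1 : √(1 - √t) ≤ 1 := by
        refine Real.sqrt_le_one.2 ?_
        have := Real.sqrt_nonneg t
        linarith
      have hs2 : s ≤ 1 / 2 := by
        have : s ≤ δ * 1 := by rw [hs]; gcongr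
        linarith
      have e : δ * r * √(1 - √t) = s * r := by rw [hs]; ring
      rw [e, ← hscale s hs0]
      exact hball s hs0 hs2
    · rw [setOf_ker' x (δ * r) ht1, setOf_ker' (0 : Euc m) δ ht1]
      simp
  have hI := lint_ker V x (δ * r)
  have hlow : (Q : ℝ≥0∞) * (ENNReal.ofReal (r ^ m) * ENNReal.ofReal (cb m δ)) ≤
      ∫⁻ p, ENNReal.ofReal (ker 2 x (δ * r) p.1) ∂V := by
    rw [hI, lint_cb hδ, ← lintegral_const_mul' _ _ ENNReal.ofReal_ne_top,
      ← lintegral_const_mul' _ _ (ENNReal.natCast_ne_top Q)]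
    refine setLIntegral_mono' measurableSet_Ioi fun t ht => ?_
    exact (hlev t ht).1
  have hup : ∫⁻ p, ENNReal.ofReal (ker 2 x (δ * r) p.1) ∂V ≤
      ((Q : ℝ≥0∞) + ENNReal.ofReal ε) * (ENNReal.ofReal (r ^ m) * ENNReal.ofReal (cb m δ)) := by
    rw [hI, lint_cb hδ, ← lintegral_const_mul' _ _ ENNReal.ofReal_ne_top,
      ← lintegral_const_mul' _ _ (by simp)]
    refine setLIntegral_mono' measurableSet_Ioi fun t ht => ?_
    exact (hlev t ht).2
  have hint : ∫ p, ker 2 x (δ * r) p.1 ∂V =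
      (∫⁻ p, ENNReal.ofReal (ker 2 x (δ * r) p.1) ∂V).toReal := by
    rw [integral_eq_lintegral_of_nonneg_ae (Eventually.of_forall fun p => ker_nonneg _ _ _ _)
      ((continuous_ker 2 x (δ * r)).comp continuous_fst).aestronglyMeasurable]
  have hX : 0 < r ^ m * cb m δ := by positivity
  have e1 : (Q : ℝ≥0∞) * (ENNReal.ofReal (r ^ m) * ENNReal.ofReal (cb m δ)) =
      ENNReal.ofReal (Q * (r ^ m * cb m δ)) := by
    rw [ENNReal.ofReal_mul (by positivity), ENNReal.ofReal_mul (by positivity),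
      ENNReal.ofReal_natCast]
  have e2 : ((Q : ℝ≥0∞) + ENNReal.ofReal ε) * (ENNReal.ofReal (r ^ m) * ENNReal.ofReal (cb m δ)) =
      ENNReal.ofReal ((Q + ε) * (r ^ m * cb m δ)) := by
    rw [ENNReal.ofReal_mul (by positivity), ENNReal.ofReal_mul (by positivity),
      ENNReal.ofReal_add (by positivity) hε, ENNReal.ofReal_natCast]
  rw [e1] at hlow
  rw [e2] at hup
  have hne : ∫⁻ p, ENNReal.ofReal (ker 2 x (δ * r) p.1) ∂V ≠ ⊤ :=
    (hup.trans_lt ENNReal.ofReal_lt_top).ne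
  have h1 := (ENNReal.ofReal_le_iff_le_toReal hne).1 hlow
  have h2 := ENNReal.toReal_le_of_le_ofReal (by positivity) hup
  rw [← hint] at h1 h2
  rw [abs_le]
  constructor
  · have : 0 ≤ ε * (r ^ m * cb m δ) := by positivity
    linarith
  · linarith

/-! ### pointwise comparisons -/

theorem chi_ge (x : Euc k) {r : ℝ} (hr : 0 < r) (p : Euc k × L k) :
    |chi π x r p.1 - 1| ≤ 2 / (9 * r ^ 2) * height (hp π) x p := by
  have h := ph2_lip (s := ‖(p.1 - x) - hp π (p.1 - x)‖ ^ 2 / (3 * r) ^ 2) (t := 0) (by positivity)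
    le_rfl
  rw [ph2_zero, sub_zero, abs_of_nonneg (by positivity :
    0 ≤ ‖(p.1 - x) - hp π (p.1 - x)‖ ^ 2 / (3 * r) ^ 2)] at h
  refine h.trans (le_of_eq ?_)
  unfold height
  field_simp
  ring

theorem cmp_pt (hπ : Ar_870.IsCo π) (x : Euc k) {r δ : ℝ} (hr : 0 < r) (hδ : 0 < δ)
    (hδ2 : δ ≤ 1 / 2) (p : Euc k × L k) :
    |chi π x r p.1 * ker 2 0 δ (tt π x r p.1) - ker 2 x (δ * r) p.1| ≤
      4 / (δ ^ 2 * r ^ 2) * height (hp π) x p := by
  have h1 := chi_ge (π := π) x hr p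
  have h2 : |ker 2 0 δ (tt π x r p.1) - ker 2 x (δ * r) p.1| ≤
      2 / (δ ^ 2 * r ^ 2) * height (hp π) x p := by
    have h3 := ph2_lip (s := ‖tt π x r p.1 - 0‖ ^ 2 / δ ^ 2)
      (t := ‖p.1 - x‖ ^ 2 / (δ * r) ^ 2) (by positivity) (by positivity)
    refine h3.trans (le_of_eq ?_)
    have h4 := pyth hπ (p.1 - x)
    have h5 : ‖tt π x r p.1 - 0‖ ^ 2 = ‖π (p.1 - x)‖ ^ 2 / r ^ 2 := by
      rw [sub_zero]
      unfold tt
      rw [norm_smul, mul_pow, norm_inv, Real.norm_eq_abs, abs_of_pos hr]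
      field_simp
    have h6 : ‖tt π x r p.1 - 0‖ ^ 2 / δ ^ 2 - ‖p.1 - x‖ ^ 2 / (δ * r) ^ 2 =
        -(height (hp π) x p / (δ ^ 2 * r ^ 2)) := by
      rw [h5, h4]
      unfold height
      field_simp
      ring
    have h7 : 0 ≤ height (hp π) x p := sq_nonneg _
    rw [h6, abs_neg, abs_of_nonneg (by positivity)]
    ring
  have h0 : 0 ≤ height (hp π) x p := sq_nonneg _
  have h3 : chi π x r p.1 * ker 2 0 δ (tt π x r p.1) - ker 2 x (δ * r) p.1 =
      (chi π x r p.1 - 1) * ker 2 0 δ (tt π x r p.1) +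
        (ker 2 0 δ (tt π x r p.1) - ker 2 x (δ * r) p.1) := by ring
  rw [h3]
  refine (abs_add_le _ _).trans ?_
  have h4 : |(chi π x r p.1 - 1) * ker 2 0 δ (tt π x r p.1)| ≤
      2 / (9 * r ^ 2) * height (hp π) x p := by
    rw [abs_mul, abs_of_nonneg (ker_nonneg 2 (0 : Euc m) δ (tt π x r p.1))]
    calc |chi π x r p.1 - 1| * ker 2 0 δ (tt π x r p.1)
        ≤ (2 / (9 * r ^ 2) * height (hp π) x p) * 1 :=
          mul_le_mul h1 (ker_le_one _ _ _ _) (ker_nonneg _ _ _ _) (by positivity)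
      _ = _ := mul_one _
  have h5 : 2 / (9 * r ^ 2) + 2 / (δ ^ 2 * r ^ 2) ≤ 4 / (δ ^ 2 * r ^ 2) := by
    have h6 : 2 / (9 * r ^ 2) ≤ 2 / (δ ^ 2 * r ^ 2) := by
      apply div_le_div_of_nonneg_left (by norm_num) (by positivity)
      have : δ ^ 2 ≤ 9 := by nlinarith
      gcongr
    have h7 : 4 / (δ ^ 2 * r ^ 2) = 2 / (δ ^ 2 * r ^ 2) + 2 / (δ ^ 2 * r ^ 2) := by ring
    rw [h7]
    linarith
  calc |(chi π x r p.1 - 1) * ker 2 0 δ (tt π x r p.1)| +
        |ker 2 0 δ (tt π x r p.1) - ker 2 x (δ * r) p.1|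
      ≤ (2 / (9 * r ^ 2) + 2 / (δ ^ 2 * r ^ 2)) * height (hp π) x p := by
        rw [add_mul]; exact add_le_add h4 h2
    _ ≤ _ := by gcongr

theorem fin_pt (hπ : Ar_870.IsCo π) (x : Euc k) {r : ℝ} (hr : 0 < r) {φ : Euc m → ℝ}
    (hsupp : ∀ z, φ z ≠ 0 → ‖z‖ ≤ 2) (hb : ∀ z, |φ z| ≤ 1) (p : Euc k × L k) :
    |chi π x r p.1 * φ (tt π x r p.1) -
      (ball x (3 * r) ×ˢ (univ : Set (L k))).indicator (fun p => φ (tt π x r p.1)) p| ≤
      1 / (4 * r ^ 2) * height (hp π) x p := by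
  have h1 := chi_ge (π := π) x hr p
  have h0 : 0 ≤ height (hp π) x p := sq_nonneg _
  by_cases hp3 : p ∈ ball x (3 * r) ×ˢ (univ : Set (L k))
  · rw [indicator_of_mem hp3]
    have h3 : chi π x r p.1 * φ (tt π x r p.1) - φ (tt π x r p.1) =
        (chi π x r p.1 - 1) * φ (tt π x r p.1) := by ring
    rw [h3, abs_mul]
    calc |chi π x r p.1 - 1| * |φ (tt π x r p.1)| ≤ (2 / (9 * r ^ 2) * height (hp π) x p) * 1 :=
          mul_le_mul h1 (hb _) (abs_nonneg _) (by positivity)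
      _ = 2 / (9 * r ^ 2) * height (hp π) x p := mul_one _
      _ ≤ 1 / (4 * r ^ 2) * height (hp π) x p := by
          gcongr ?_ * _
          rw [div_le_div_iff₀ (by positivity) (by positivity)]
          nlinarith [sq_nonneg r]
  · rw [indicator_of_notMem hp3, sub_zero]
    have h4 : 3 * r ≤ ‖p.1 - x‖ := by
      by_contra hcon
      refine hp3 ⟨?_, mem_univ _⟩
      rw [mem_ball, dist_eq_norm]
      exact not_le.1 hcon
    by_cases hz : φ (tt π x r p.1) = 0
    · rw [hz, mul_zero, abs_zero]; positivity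
    · have h5 := hsupp _ hz
      unfold tt at h5
      rw [norm_smul, norm_inv, Real.norm_eq_abs, abs_of_pos hr, inv_mul_le_iff₀ hr] at h5
      have h6 := pyth hπ (p.1 - x)
      have h7 : 5 * r ^ 2 ≤ height (hp π) x p := by
        unfold height
        have := norm_nonneg (π (p.1 - x))
        nlinarith
      rw [abs_mul, abs_of_nonneg (chi_nonneg _ _ _)]
      calc chi π x r p.1 * |φ (tt π x r p.1)| ≤ 1 * 1 :=
            mul_le_mul (chi_le_one _ _ _) (hb _) (abs_nonneg _) zero_le_one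
        _ = 1 / (4 * r ^ 2) * (4 * r ^ 2) := by field_simp
        _ ≤ 1 / (4 * r ^ 2) * height (hp π) x p := by
            gcongr
            nlinarith [sq_nonneg r]

/-- the estimate with explicit constants. -/
theorem main_est (hV : Stat m k U V) (hm : 1 ≤ m) (hπ : Ar_870.IsCo π) {x : Euc k} {Q : ℕ}
    {r δ θ ε : ℝ} (hr : 0 < r) (hU : closedBall x (4 * r) ⊆ U) (hδ : 0 < δ) (hδ2 : δ ≤ 1 / 2)
    (hθ : 0 < θ) (hε : 0 ≤ ε) (hε1 : ε ≤ 1) (hQ : (Q : ℝ≥0∞) ≤ Th m V x)
    (hn : NearQ m V Q x (4 * r) ε (hp π)) {φ : Euc m → ℝ} (hφ : LipschitzWith 1 φ)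
    (hb : ∀ z, |φ z| ≤ 1) (hsupp : ∀ z, φ z ≠ 0 → ‖z‖ ≤ 2) :
    |∫ p in ball x (3 * r) ×ˢ univ, φ (tt π x r p.1) ∂V - r ^ m * (Q * ∫ z, φ z)| ≤
      (δ * ((Q + 1) * ome m * 4 ^ m) +
        2 * (1 + 4 / δ) * (ome m * 2 ^ m) / cb m δ * (θ * ((Q + 1) * ome m * 4 ^ m)) +
        (4 * 4 ^ m + 2 * (1 + 4 / δ) * (ome m * 2 ^ m) / cb m δ * (2 / θ * 4 ^ m) +
          ome m * 2 ^ m * (64 / (δ ^ 2 * cb m δ) * 4 ^ m + 1)) * ε) * r ^ m := by
  obtain ⟨hP, hex, hrat⟩ := hn
  have hc := cb_pos (m := m) hδ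
  have ho := ome_pos m
  have hK := isCompact_closedBall x (4 * r)
  have hB4 : MeasurableSet (ball x (4 * r) ×ˢ (univ : Set (L k))) := measurableSet_ball.prod .univ
  have hfin' : IsFiniteMeasure (V.restrict (ball x (4 * r) ×ˢ (univ : Set (L k)))) :=
    ⟨by rw [Measure.restrict_apply_univ]; exact hfin hV hU⟩
  have hct : Continuous (tilt (hp π)) :=
    Cacc_113.continuous_tr.comp (continuous_const.clm_comp continuous_snd)
  have hch : Continuous (height (hp π) x) := by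
    have e : height (hp π) x = fun p : Euc k × L k => ‖(p.1 - x) - hp π (p.1 - x)‖ ^ 2 := rfl
    rw [e]
    fun_prop
  have hint : ∀ g : Euc k × L k → ℝ, Continuous g →
      IntegrableOn g (ball x (4 * r) ×ˢ (univ : Set (L k))) V := fun g hg =>
    NearChg_660.intOn hV hg measurableSet_ball hK ball_subset_closedBall hU
  -- the excess
  set S : ℝ := ((4 * r) ^ 2)⁻¹ *
    ∫ p in ball x (4 * r) ×ˢ univ, ((4 * r) ^ 2 * tilt (hp π) p + height (hp π) x p) ∂V with hS
  have hSle : S ≤ ε * 4 ^ m * r ^ m := by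
    calc S ≤ ((4 * r) ^ 2)⁻¹ * (ε * (4 * r) ^ (m + 2)) := by
          rw [hS]; gcongr
      _ = ε * 4 ^ m * r ^ m := by
          rw [pow_add, mul_pow 4 r m]
          field_simp
  have hheight : ∫ p in ball x (4 * r) ×ˢ univ, height (hp π) x p ∂V ≤ 16 * r ^ 2 * S := by
    have h1 : ∫ p in ball x (4 * r) ×ˢ univ, height (hp π) x p ∂V ≤
        ∫ p in ball x (4 * r) ×ˢ univ, ((4 * r) ^ 2 * tilt (hp π) p + height (hp π) x p) ∂V := by
      refine integral_mono_ae (hint _ hch) (hint _ (by fun_prop)) ?_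
      filter_upwards [ae_restrict_of_ae hV.conc] with p hp2
      have h8 : 0 ≤ tilt (hp π) p := Strat3_842.tr_perp_nonneg hp2 hP
      change height (hp π) x p ≤ (4 * r) ^ 2 * tilt (hp π) p + height (hp π) x p
      have : 0 ≤ (4 * r) ^ 2 * tilt (hp π) p := by positivity
      linarith
    refine h1.trans (le_of_eq ?_)
    rw [hS]
    field_simp
    ring
  have hh0 : 0 ≤ ∫ p in ball x (4 * r) ×ˢ univ, height (hp π) x p ∂V :=
    integral_nonneg fun p => sq_nonneg _
  have hS0 : 0 ≤ S := by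
    by_contra hcon
    have : 16 * r ^ 2 * S < 0 := mul_neg_of_pos_of_neg (by positivity) (not_le.1 hcon)
    linarith
  -- the mass
  set M : ℝ := V.real (ball x (4 * r) ×ˢ univ) with hM
  have hM0 : 0 ≤ M := measureReal_nonneg
  have hMle : M ≤ (Q + 1) * ome m * 4 ^ m * r ^ m := by
    have h4r : 0 < 4 * r := by positivity
    have hmass : mass V (ball x (4 * r)) = V (ball x (4 * r) ×ˢ univ) := by
      rw [mass_apply V measurableSet_ball]
      congr 1
      ext p; simp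
    unfold rat at hrat
    rw [hmass, ENNReal.div_le_iff_le_mul (Or.inl (by
      rw [ne_eq, ENNReal.ofReal_eq_zero, not_le]; exact den_pos m h4r))
      (Or.inl ENNReal.ofReal_ne_top)] at hrat
    have e2 : ((Q : ℝ≥0∞) + ENNReal.ofReal ε) * ENNReal.ofReal (ome m * (4 * r) ^ m) =
        ENNReal.ofReal ((Q + ε) * (ome m * (4 * r) ^ m)) := by
      rw [ENNReal.ofReal_mul (p := (Q : ℝ) + ε) (by positivity),
        ENNReal.ofReal_add (by positivity) hε, ENNReal.ofReal_natCast]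
    rw [e2] at hrat
    have h5 := ENNReal.toReal_le_of_le_ofReal (by positivity) hrat
    change M ≤ _ at h5
    refine h5.trans ?_
    rw [mul_pow]
    calc (Q + ε) * (ome m * (4 ^ m * r ^ m)) ≤ (Q + 1) * (ome m * (4 ^ m * r ^ m)) := by gcongr
      _ = _ := by ring
  -- translation
  set e : ℝ := θ * M + 2 / θ * S with he
  have he0 : 0 ≤ e := by positivity
  have htr : ∀ z' : Euc m, ‖z'‖ ≤ 2 →
      |aa V π x r (ker 2 z' δ) - aa V π x r (ker 2 0 δ)| ≤ 2 * (1 + 4 / δ) * e :=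
    fun z' hz' => transl hV hπ hP hr hU hθ hδ hδ2 le_rfl he0 hz'
  -- averaging
  have havg : |cb m δ * aa V π x r φ - (∫ z, φ z) * aa V π x r (ker 2 0 δ)| ≤
      δ * cb m δ * M + 2 * (1 + 4 / δ) * e * (ome m * 2 ^ m) := by
    have h1 := avg (μ := V.restrict (ball x (4 * r) ×ˢ (univ : Set (L k))))
      (T := fun p => tt π x r p.1) (c := fun p => chi π x r p.1)
      ((continuous_tt x r).comp continuous_fst).measurable
      ((continuous_chi x r).comp continuous_fst).measurable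
      (fun p => chi_nonneg _ _ _) (fun p => chi_le_one _ _ _) hδ htr hφ hsupp hb
    rw [measureReal_restrict_apply_univ] at h1
    exact h1
  -- radial comparison
  have hrad := radial hV hm hr hU hδ hδ2 hε hQ hrat
  have hcmp : |aa V π x r (ker 2 0 δ) - ∫ p, ker 2 x (δ * r) p.1 ∂V| ≤ 64 / δ ^ 2 * S := by
    have h1 : ∫ p, ker 2 x (δ * r) p.1 ∂V =
        ∫ p in ball x (4 * r) ×ˢ univ, ker 2 x (δ * r) p.1 ∂V := by
      rw [setIntegral_eq_integral_of_forall_compl_eq_zero]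
      intro p hpo
      refine ker_zero two_ne_zero (mul_pos hδ hr) ?_
      by_contra hcon
      refine hpo ⟨?_, mem_univ _⟩
      rw [mem_ball, dist_eq_norm]
      have h2 := not_le.1 hcon
      have h3 : δ * r ≤ 4 * r := by nlinarith
      exact h2.trans_le h3
    have hc1 : Continuous fun p : Euc k × L k => chi π x r p.1 * ker 2 0 δ (tt π x r p.1) :=
      ((continuous_chi x r).comp continuous_fst).mul
        ((continuous_ker 2 _ _).comp ((continuous_tt x r).comp continuous_fst))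
    have hc2 : Continuous fun p : Euc k × L k => ker 2 x (δ * r) p.1 :=
      (continuous_ker 2 _ _).comp continuous_fst
    rw [h1]
    unfold aa
    rw [← integral_sub (hint _ hc1) (hint _ hc2)]
    refine abs_integral_le_integral_abs.trans ?_
    calc ∫ p in ball x (4 * r) ×ˢ univ,
          |chi π x r p.1 * ker 2 0 δ (tt π x r p.1) - ker 2 x (δ * r) p.1| ∂V
        ≤ ∫ p in ball x (4 * r) ×ˢ univ, 4 / (δ ^ 2 * r ^ 2) * height (hp π) x p ∂V := by
          refine integral_mono (hint _ (hc1.sub hc2)).abs ((hint _ hch).const_mul _) ?_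
          exact fun p => cmp_pt hπ x hr hδ hδ2 p
      _ = 4 / (δ ^ 2 * r ^ 2) * ∫ p in ball x (4 * r) ×ˢ univ, height (hp π) x p ∂V :=
          integral_const_mul _ _
      _ ≤ 4 / (δ ^ 2 * r ^ 2) * (16 * r ^ 2 * S) := by gcongr
      _ = 64 / δ ^ 2 * S := by field_simp; ring
  -- the final comparison
  have hfinal : |aa V π x r φ - ∫ p in ball x (3 * r) ×ˢ univ, φ (tt π x r p.1) ∂V| ≤ 4 * S := by
    have hB3 : MeasurableSet (ball x (3 * r) ×ˢ (univ : Set (L k))) := measurableSet_ball.prod .univ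
    have hcφ : Continuous fun p : Euc k × L k => φ (tt π x r p.1) :=
      hφ.continuous.comp ((continuous_tt x r).comp continuous_fst)
    have hc1 : Continuous fun p : Euc k × L k => chi π x r p.1 * φ (tt π x r p.1) :=
      ((continuous_chi x r).comp continuous_fst).mul hcφ
    have h1 : ∫ p in ball x (3 * r) ×ˢ univ, φ (tt π x r p.1) ∂V =
        ∫ p in ball x (4 * r) ×ˢ univ,
          (ball x (3 * r) ×ˢ (univ : Set (L k))).indicator (fun p => φ (tt π x r p.1)) p ∂V := by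
      rw [setIntegral_indicator hB3]
      congr 2
      rw [Set.inter_eq_right.2]
      exact Set.prod_mono (ball_subset_ball (by linarith)) le_rfl
    rw [h1]
    unfold aa
    have hi2 : IntegrableOn ((ball x (3 * r) ×ˢ (univ : Set (L k))).indicator
        (fun p => φ (tt π x r p.1))) (ball x (4 * r) ×ˢ (univ : Set (L k))) V :=
      (hint _ hcφ).indicator hB3
    rw [← integral_sub (hint _ hc1) hi2]
    refine abs_integral_le_integral_abs.trans ?_
    calc ∫ p in ball x (4 * r) ×ˢ univ, |chi π x r p.1 * φ (tt π x r p.1) -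
          (ball x (3 * r) ×ˢ (univ : Set (L k))).indicator (fun p => φ (tt π x r p.1)) p| ∂V
        ≤ ∫ p in ball x (4 * r) ×ˢ univ, 1 / (4 * r ^ 2) * height (hp π) x p ∂V := by
          refine integral_mono ((hint _ hc1).sub hi2).abs ((hint _ hch).const_mul _) ?_
          exact fun p => fin_pt hπ x hr hsupp hb p
      _ = 1 / (4 * r ^ 2) * ∫ p in ball x (4 * r) ×ˢ univ, height (hp π) x p ∂V :=
          integral_const_mul _ _
      _ ≤ 1 / (4 * r ^ 2) * (16 * r ^ 2 * S) := by gcongr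
      _ = 4 * S := by field_simp; ring
  -- collect
  set a := aa V π x r φ with ha
  set b := aa V π x r (ker 2 0 δ) with hbdef
  set I := ∫ z, φ z with hI
  set R := ∫ p, ker 2 x (δ * r) p.1 ∂V with hR
  set T := ∫ p in ball x (3 * r) ×ˢ univ, φ (tt π x r p.1) ∂V with hT
  set c := cb m δ with hcdef
  have hIabs : |I| ≤ ome m * 2 ^ m :=
    abs_integral_le_integral_abs.trans (phi_abs_int hφ hb hsupp)
  have hbb : |b - Q * (r ^ m * c)| ≤ 64 / δ ^ 2 * S + ε * (r ^ m * c) := by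
    have h1 : b - Q * (r ^ m * c) = (b - R) + (R - Q * (r ^ m * c)) := by ring
    rw [h1]
    exact (abs_add_le _ _).trans (add_le_add hcmp hrad)
  have hca : c * |a - r ^ m * (Q * I)| ≤ δ * c * M + 2 * (1 + 4 / δ) * e * (ome m * 2 ^ m) +
      ome m * 2 ^ m * (64 / δ ^ 2 * S + ε * (r ^ m * c)) := by
    have h1 : c * (a - r ^ m * (Q * I)) = (c * a - I * b) + I * (b - Q * (r ^ m * c)) := by ring
    rw [← abs_of_pos hc, ← abs_mul, abs_of_pos hc, h1]
    refine (abs_add_le _ _).trans (add_le_add havg ?_)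
    rw [abs_mul]
    exact mul_le_mul hIabs hbb (abs_nonneg _) (by positivity)
  have hca2 : |a - r ^ m * (Q * I)| ≤ δ * M + 2 * (1 + 4 / δ) * (ome m * 2 ^ m) / c * e +
      ome m * 2 ^ m * (64 / (δ ^ 2 * c) * S + ε * r ^ m) := by
    have h1 : δ * M + 2 * (1 + 4 / δ) * (ome m * 2 ^ m) / c * e +
      ome m * 2 ^ m * (64 / (δ ^ 2 * c) * S + ε * r ^ m) =
      (δ * c * M + 2 * (1 + 4 / δ) * e * (ome m * 2 ^ m) +
      ome m * 2 ^ m * (64 / δ ^ 2 * S + ε * (r ^ m * c))) / c := by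
      field_simp
    rw [h1, le_div_iff₀ hc, mul_comm]
    exact hca
  have hfin2 : |T - r ^ m * (Q * I)| ≤ 4 * S + (δ * M +
      2 * (1 + 4 / δ) * (ome m * 2 ^ m) / c * e +
      ome m * 2 ^ m * (64 / (δ ^ 2 * c) * S + ε * r ^ m)) := by
    have h1 : T - r ^ m * (Q * I) = -(a - T) + (a - r ^ m * (Q * I)) := by ring
    rw [h1]
    refine (abs_add_le _ _).trans (add_le_add ?_ hca2)
    rw [abs_neg]
    exact hfinal
  refine hfin2.trans ?_
  have hele : e ≤ θ * ((Q + 1) * ome m * 4 ^ m * r ^ m) + 2 / θ * (ε * 4 ^ m * r ^ m) := by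
    rw [he]; gcongr
  calc 4 * S + (δ * M + 2 * (1 + 4 / δ) * (ome m * 2 ^ m) / c * e +
      ome m * 2 ^ m * (64 / (δ ^ 2 * c) * S + ε * r ^ m))
      ≤ 4 * (ε * 4 ^ m * r ^ m) + (δ * ((Q + 1) * ome m * 4 ^ m * r ^ m) +
        2 * (1 + 4 / δ) * (ome m * 2 ^ m) / c *
          (θ * ((Q + 1) * ome m * 4 ^ m * r ^ m) + 2 / θ * (ε * 4 ^ m * r ^ m)) +
        ome m * 2 ^ m * (64 / (δ ^ 2 * c) * (ε * 4 ^ m * r ^ m) + ε * r ^ m)) := by
        gcongr
    _ = _ := by ring

/-- **LEAF QLEB**. -/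
theorem qLeb : QLeb := by
  intro m k Q hm hQ η hη
  have ho := ome_pos m
  set M0 : ℝ := (Q + 1) * ome m * 4 ^ m with hM0
  have hM0p : 0 < M0 := by positivity
  set δ : ℝ := min (1 / 2) (η / (4 * M0)) with hδd
  have hδ : 0 < δ := lt_min (by norm_num) (by positivity)
  have hδ2 : δ ≤ 1 / 2 := min_le_left _ _
  have hδM : δ * M0 ≤ η / 4 := by
    calc δ * M0 ≤ η / (4 * M0) * M0 := by gcongr; exact min_le_right _ _
      _ = η / 4 := by field_simp
  have hc := cb_pos (m := m) hδ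
  set D1 : ℝ := 2 * (1 + 4 / δ) * (ome m * 2 ^ m) / cb m δ with hD1
  have hD1p : 0 < D1 := by positivity
  set θ : ℝ := η / (4 * (D1 * M0)) with hθd
  have hθ : 0 < θ := by positivity
  have hθM : D1 * (θ * M0) ≤ η / 4 := by
    have : D1 * (θ * M0) = η / 4 := by rw [hθd]; field_simp
    exact this.le
  set D3 : ℝ := 4 * 4 ^ m + D1 * (2 / θ * 4 ^ m) +
    ome m * 2 ^ m * (64 / (δ ^ 2 * cb m δ) * 4 ^ m + 1) with hD3
  have hD3p : 0 < D3 := by positivity
  set ε : ℝ := min 1 (η / (2 * D3)) with hεd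
  have hε : 0 < ε := lt_min one_pos (by positivity)
  have hε1 : ε ≤ 1 := min_le_left _ _
  have hεD : D3 * ε ≤ η / 2 := by
    calc D3 * ε ≤ D3 * (η / (2 * D3)) := by gcongr; exact min_le_right _ _
      _ = η / 2 := by field_simp
  refine ⟨ε, hε, ?_⟩
  intro U hUo D hD hs x r hr hU hTh π hπ hn φ hφ hb hsupp
  have hV : Stat m k U (VD D) := stat_VD hD hs
  have h := main_est hV hm hπ hr hU hδ hδ2 hθ hε.le hε1 hTh hn hφ hb hsupp
  refine h.trans ?_
  gcongr
  linarith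

end Crest.Agent.R234.QLeb_433
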