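import Crest.Agent.R234.Qp6_534
import Crest.Agent.R234.GLK9_128
import Crest.Agent.R234.Tv10_618
import Crest.Agent.R234.Pin11_3

/-!
# Row 234, node QP-CH (helper534), part 7: `HtvP`, the total variation input of the `Q`-points
-/

set_option autoImplicit false
set_option linter.unusedVariables false
set_option linter.unusedSectionVars false
set_option maxSynthPendingDepth 3

open MeasureTheory Filter Topology Set Metric
open scoped ENNReal NNReal ContDiff InnerProductSpace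
open Crest.GeometryTopology.Submanifold Crest.Agent.R234.Vf_884
open Crest.Agent.R234.Main_456 Crest.Agent.R234.F11_435
open Crest.Agent.R234.Gi_456
open Crest.Agent.R234.AS_456 (hp vp)
open Crest.Agent.R234.GL_394 (Ch Ok On VK Pf pf_cubic KB TV)
open Crest.Agent.R234.LowF14_471 (Wt)
open Crest.Agent.R234.GLK_128 (Hy kp Cn)

noncomputable section

namespace Crest.Agent.R234.Qp_534

variable {m n k : ℕ}

section kt
variable {π : Euc k →L[ℝ] Euc m} {ρ : Euc k →L[ℝ] Euc n} {x : Euc k} {r : ℝ} {w : Euc m → Euc n}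
  {X0 : Euc m} {K : Set (Euc k)} {l K1 K2 K3 hb : ℝ}

theorem f_ch_nonneg (z : Euc k) : 0 ≤ (ch π ρ x r w X0).f z := by
  have := GLK_128.two_f (π := π) (ρ := ρ) (x := x) (r := r) (w := w) (X0 := X0) z
  have := sq_nonneg ‖(ch π ρ x r w X0).nu z‖
  linarith

/-- 618's `KT` from 128's hypotheses -/
theorem kt_of (h : Hy π ρ x r w X0 K l K1 K2 K3 hb) {s R κ' : ℝ} (hs : 0 < s)
    (h1 : s ≤ Real.exp l) (h2 : Real.exp l ≤ 2 * s) (hb2 : 2 * hb ≤ 1) (hR : R ≤ Real.exp l)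
    (hk : kp m n K1 K2 K3 hb l ≤ κ') : Tv_618.KT (ch π ρ x r w X0) K s R (Cn m) κ' where
  jb := fun v hv => (h.jb (hv.le.trans hR)).trans hk
  lb := fun v hv => by
    have h3 := h.lb (hv.le.trans hR)
    have h4 : s * ‖lamB w X0 v‖ ≤ Real.exp l * ‖lamB w X0 v‖ := by gcongr
    exact (h4.trans h3).trans hk
  t0 := fun p hp _ => ⟨h.tau_nonneg hp, h.tau_le hp⟩
  q1 := fun z hz hz2 => h.q1 hs h2 hb2 hz (hz2.le.trans hR)
  an := fun p hp hp2 => by
    refine (h.an hs h1 hp (hp2.le.trans hR)).trans ?_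
    have hC : 0 ≤ Cn m := by
      unfold Cn
      have := GLK_128.Cj_nonneg m
      positivity
    have hf := f_ch_nonneg (π := π) (ρ := ρ) (x := x) (r := r) (w := w) (X0 := X0) p.1
    gcongr
  hT := fun p hp hp2 => by
    refine (h.hT hs h1 hp (hp2.le.trans hR)).trans ?_
    have hC : 0 ≤ Cn m := by
      unfold Cn
      have := GLK_128.Cj_nonneg m
      positivity
    have hf := f_ch_nonneg (π := π) (ρ := ρ) (x := x) (r := r) (w := w) (X0 := X0) p.1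
    gcongr
  k3 := fun p hp hp2 v => by
    refine (h.kk3 hs h1 hp (hp2.le.trans hR) v).trans ?_
    have hf := f_ch_nonneg (π := π) (ρ := ρ) (x := x) (r := r) (w := w) (X0 := X0) p.1
    have ht := h.tau_nonneg hp
    gcongr

end kt

/-- ratio of the `κ`s -/
def Ca (m n : ℕ) : ℝ := 24 * GLK_128.Ct m n + 1

theorem Ca_ge (m n : ℕ) : 1 ≤ Ca m n := by
  have := GLK_128.Ct_pos m n
  unfold Ca
  linarith

variable {U : Set (Euc k)} {V : Measure (Euc k × L k)} {Q K : ℕ} {x : Euc k} {r : ℝ}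
  {π : Euc k →L[ℝ] Euc m} {ρ : Euc k →L[ℝ] Euc n} {u : Euc m → Euc n} {ε C : ℝ}
  {W : Euc m → Euc n} {κ : ℝ} {zh : Euc k}

namespace Qx

variable (h : Qx U V Q K x r π ρ u ε C W κ zh)

include h

/-- **`KT` at a `Q`-point**, scale `s = sN (cTop r) 4`, collar `1/16` -/
theorem kt (hsm : 8 * h0 m Q ε ≤ 1 / 2) :
    Tv_618.KT (cz π ρ x r W zh) (Kz π ρ x r W zh (h0 m Q ε)) (Ng_290.sN (cTop r) 4)
      ((1 + Ng_290.eN 4) * Ng_290.sN (cTop r) 4) (Cn m) (Ca m n * κ) := by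
  have hr := h.hr
  have hk := h.k0
  have h2 := h0_nonneg m Q ε
  have h3 := sN4_ge hr
  have h5 := exp_cT3_le hr
  have h6 := sN4_mul r
  set l : ℝ := cTop r - 3 / 16 with hl
  have h7 : 2 * r ≤ Real.exp l := by rw [← h6]; linarith
  have hy : Hy π ρ zh r (wz π x zh r W) 0 (Kz π ρ x r W zh (h0 m Q ε)) l κ (κ / r) (κ / r ^ 2)
      (8 * h0 m Q ε) :=
    h.hy (by linarith) (fun p hp => (h.Kz_spec h.hs hp).1) (by positivity) (by linarith)
      fun z hz _ => h.nu_le_t (by linarith) hz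
  refine kt_of hy (by linarith) (by rw [← h6]; linarith) (by rw [← h6]; linarith) (by linarith)
    (by rw [eN4, h6]) ?_
  refine hy.kp_le.trans ?_
  have h8 : κ / r * Real.exp l ≤ 9 / 4 * κ := by
    calc κ / r * Real.exp l ≤ κ / r * (9 / 4 * r) := by gcongr
      _ = _ := by field_simp
  have h9 : κ / r ^ 2 * Real.exp (2 * l) ≤ 81 / 16 * κ := by
    have e : Real.exp (2 * l) = Real.exp l ^ 2 := by
      rw [← Real.exp_nat_mul]; norm_num
    rw [e]
    calc κ / r ^ 2 * Real.exp l ^ 2 ≤ κ / r ^ 2 * (9 / 4 * r) ^ 2 := by gcongr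
      _ = _ := by field_simp; ring
  have h10 := GLK_128.Ct_pos m n
  have h11 : κ / r * Real.exp l + κ / r ^ 2 * Real.exp (2 * l) ≤ 8 * κ := by linarith
  calc 3 * GLK_128.Ct m n * (κ / r * Real.exp l + κ / r ^ 2 * Real.exp (2 * l)) ≤
        3 * GLK_128.Ct m n * (8 * κ) := by gcongr
    _ ≤ Ca m n * κ := by unfold Ca; nlinarith

end Qx

section ttot
variable {c : Ch m k} {S : Set (Euc k)} {D' : Set (Euc m)} {V' : Measure (Euc k × L k)}

theorem ttot_nonneg (h : Ok c S D') (hV : On (VK V' S) m S)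
    (htau : ∀ p ∈ S ×ˢ G m k, 0 ≤ c.tau p.1 p.2) {κ s R : ℝ} (hκ : 0 ≤ κ) (hs : 0 < s) :
    0 ≤ Tv_618.ttot c V' S κ s R := by
  unfold Tv_618.ttot
  refine mul_nonneg (by positivity) ?_
  refine integral_nonneg_of_ae ?_
  have h1 : ∀ᵐ p ∂(V'.restrict (Tv_618.Wr c S (R * s) ×ˢ univ)), p ∈ S ×ˢ G m k :=
    ae_mono (Measure.restrict_mono (prod_mono_left fun z hz => hz.1) le_rfl) hV.mem
  filter_upwards [h1] with p hp
  have h3 := htau p hp
  have h4 := f_nonneg h hp.1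
  show 0 ≤ c.tau p.1 p.2 + κ * (2 * c.f p.1 / s ^ 2)
  positivity

theorem ttot_le_tN (h : Ok c S D') (hV : On (VK V' S) m S)
    (htau : ∀ p ∈ S ×ˢ G m k, 0 ≤ c.tau p.1 p.2) {κ cT N R : ℝ} (hκ : 0 ≤ κ) (hN : 0 ≤ N)
    (hR : R * Ng_290.sN cT N ≤ Real.exp (cT - 3 / (4 * N))) :
    Tv_618.ttot c V' S κ (Ng_290.sN cT N) R ≤ Ng_290.tN c (VK V' S) cT N κ := by
  have hs := sN_pos (cT := cT) hN
  have hS : MeasurableSet (S ×ˢ (univ : Set (L k))) :=
    h.cpt.isClosed.measurableSet.prod MeasurableSet.univ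
  have hint : Integrable (fun p : Euc k × L k => c.tau p.1 p.2 +
      κ * (2 * c.f p.1 / (Ng_290.sN cT N) ^ 2)) (VK V' S) := by
    refine (tN_int h hV (κ * ((Ng_290.sN cT N) ^ 2)⁻¹)).congr (Eventually.of_forall fun p => ?_)
    show c.tau p.1 p.2 + κ * ((Ng_290.sN cT N) ^ 2)⁻¹ * (2 * c.f p.1) =
      c.tau p.1 p.2 + κ * (2 * c.f p.1 / (Ng_290.sN cT N) ^ 2)
    ring
  unfold Tv_618.ttot Ng_290.tN
  rw [inv_pow]
  refine mul_le_mul_of_nonneg_left ?_ (by positivity)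
  unfold VK at hint ⊢
  rw [Measure.restrict_restrict' hS]
  refine setIntegral_mono_set ?_ ?_ (HasSubset.Subset.eventuallyLE ?_)
  · exact IntegrableOn.mono_set hint inter_subset_right
  · have h1 : ∀ᵐ p ∂(V'.restrict (Ng_290.Sr c (Real.exp (cT - 3 / (4 * N))) ∩ S ×ˢ univ)),
        p ∈ S ×ˢ G m k := ae_mono (Measure.restrict_mono inter_subset_right le_rfl) hV.mem
    filter_upwards [h1] with p hp
    have h3 := htau p hp
    have h4 := f_nonneg h hp.1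
    show 0 ≤ c.tau p.1 p.2 + κ * (2 * c.f p.1 / (Ng_290.sN cT N) ^ 2)
    positivity
  · rintro p ⟨⟨hp1, hp2⟩, -⟩
    exact ⟨hp2.le.trans hR, hp1, mem_univ _⟩

end ttot

/-- **618's total variation at all `Q`-points**: 3's literal `HtvP`. -/
theorem htvP (hm : 1 ≤ m) (hK : 3 ≤ K) : Pin11_3.HtvP m n K := by
  intro Q C hQ
  have hCn : 0 ≤ Cn m := by
    unfold Cn
    have := GLK_128.Cj_nonneg m
    positivity
  have ho := ome_pos m
  obtain ⟨κ₀, hκ₀, C1, hC1, Ct, hCt, H⟩ := Tv_618.tv_gl (m := m) (by omega) Q hCn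
    (Λ := (Q + 1) * (ome m * 2 ^ m)) (by positivity)
  obtain ⟨ε₂, hε₂, hrat⟩ := exists_rat (k := m + n) hm (Q := Q) (by omega)
    (δ := 1 / 8) (by norm_num)
  have hCa1 := Ca_ge m n
  have hCa0 : 0 < Ca m n := by linarith
  refine ⟨max (C1 * Ca m n) (Ct * Ca m n ^ 2), le_max_of_le_left (by positivity), ?_⟩
  intro B hB
  have hB0 : 0 < B := by linarith
  have hhc := Pd_435.Cx.hc_pos m Q
  have hm0 : (1:ℝ) ≤ m := by exact_mod_cast hm
  -- smallness
  set a0 : ℝ := 1 / (32 * (Q + 1) * m) with ha0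
  have ha0p : 0 < a0 := by rw [ha0]; positivity
  refine ⟨min ε₂ (min (κ₀ / (Ca m n * B)) (min (a0 / B) ((a0 / 8) ^ 2 / Pd_435.Cx.hc m Q))), ?_, ?_⟩
  · refine lt_min hε₂ (lt_min (by positivity) (lt_min (by positivity) (by positivity)))
  intro ε hε hεε U D x r π ρ u W κ zh hS
  have g1 : ε ≤ ε₂ := hεε.trans (by simp)
  have g2 : ε ≤ κ₀ / (Ca m n * B) := hεε.trans (by simp)
  have g3 : ε ≤ a0 / B := hεε.trans (by simp)
  have g4 : ε ≤ (a0 / 8) ^ 2 / Pd_435.Cx.hc m Q := hεε.trans (by simp)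
  have h := hS.qx
  have hr := h.hr
  have hk := h.k0
  have hκB : κ ≤ B * ε := hS.κB
  have k1 : Ca m n * κ ≤ κ₀ := by
    rw [le_div_iff₀ (by positivity)] at g2
    calc Ca m n * κ ≤ Ca m n * (B * ε) := by gcongr
      _ = ε * (Ca m n * B) := by ring
      _ ≤ _ := g2
  have k2 : κ ≤ a0 := by
    rw [le_div_iff₀ hB0] at g3
    linarith
  have k3 : 8 * h0 m Q ε ≤ a0 := by
    rw [le_div_iff₀ hhc] at g4
    have : h0 m Q ε ≤ a0 / 8 := by
      unfold h0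
      rw [Real.sqrt_le_left (by positivity)]
      linarith
    linarith
  have hQ0 : (0:ℝ) ≤ Q := Nat.cast_nonneg Q
  have k4 : 16 * (Q + 1) * m * (κ + 8 * h0 m Q ε) ≤ 1 := by
    have e1 : 16 * (Q + 1) * m * (κ + 8 * h0 m Q ε) ≤ 16 * (Q + 1) * m * (a0 + a0) := by
      gcongr
    have e2 : 16 * (Q + 1) * m * (a0 + a0) = 1 := by
      rw [ha0]; field_simp; norm_num
    linarith
  have k5 : a0 ≤ 1 / 32 := by
    rw [ha0]
    apply one_div_le_one_div_of_le (by norm_num)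
    nlinarith [mul_nonneg hQ0 (by linarith : (0:ℝ) ≤ m)]
  have hra := hrat U D hS.int hS.st n K x r π ρ u ε C W κ zh h g1 (le_of_eq hS.th.symm)
  have hs2 := sN4_ge hr
  have hs0 : 0 < Ng_290.sN (cTop r) 4 := by linarith
  have hexp : (1 + Ng_290.eN 4) * Ng_290.sN (cTop r) 4 = Real.exp (cTop r - 3 / 16) := by
    rw [eN4]; exact sN4_mul r
  have hvol : ∀ a : ℝ, 0 < a → volume.real (ball (0 : Euc m) a) = ome m * a ^ m :=
    fun a ha => Th_164.vol_ball _ ha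
  obtain ⟨e, he, -⟩ := H (Ng_290.eN 4) (Ng_290.eN_pos (by norm_num)) (by rw [eN4]; norm_num)
    (Ca m n * κ) (by positivity) k1 (Lv := Real.log (4 * r)) hs0 hS.int h.reg
    (h.loc (by rw [Real.exp_log (by positivity)]; linarith))
    (by
      rw [hexp, Real.exp_log (by positivity)]
      have := exp_cT3_le hr
      linarith) (subset_univ _) (h.kt (by linarith)) (h.mass_up hra (by linarith))
    (by
      have := h.mass_pin hra k4
      have e1 : 1 / 4 * Ng_290.sN (cTop r) 4 = Ng_290.sN (cTop r) 4 / 4 := by ring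
      rw [e1, hvol _ (by positivity)]
      refine this.trans (le_of_eq (by ring)))
  have hok := h.ok
  have hon : On (Vz (VD D) π ρ x r W zh (h0 m Q ε)) m (Kz π ρ x r W zh (h0 m Q ε)) := h.on
  have htau : ∀ p ∈ Kz π ρ x r W zh (h0 m Q ε) ×ˢ G m (m + n),
    0 ≤ (cz π ρ x r W zh).tau p.1 p.2 := fun p hp => h.tau_nonneg hp
  have he0 : 0 < Ng_290.eN 4 := Ng_290.eN_pos (by norm_num)
  set t' := Tv_618.ttot (cz π ρ x r W zh) (VD D) (Kz π ρ x r W zh (h0 m Q ε)) (Ca m n * κ)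
    (Ng_290.sN (cTop r) 4) (1 + Ng_290.eN 4) with ht'
  have hκ' : 0 ≤ Ca m n * κ := by positivity
  have ht0 : 0 ≤ t' := ttot_nonneg hok hon htau hκ' hs0
  have ht1 : t' ≤ Ca m n * Ng_290.tN (cz π ρ x r W zh) (Vz (VD D) π ρ x r W zh (h0 m Q ε))
      (cTop r) 4 κ := by
    refine le_trans ?_ (tN_mul_le hok hon htau (by norm_num) hk hCa1)
    exact ttot_le_tN hok hon htau hκ' (by norm_num) (by
      rw [hexp]
      apply Real.exp_le_exp.2
      linarith)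
  have hsig := sig_le hm hCa1 ht0 ht1
  refine ⟨e, Ct * (Ng_290.sN (cTop r) 4 ^ (m + 1) * (t' * t' ^ (1 / (m : ℝ)))) /
      Ng_290.eN 4 ^ (2 * m + 2), ?_, ?_, ?_⟩
  rotate_left
  · have := Real.rpow_nonneg ht0 (1 / (m : ℝ))
    positivity
  · have h1 : Ct * (Ng_290.sN (cTop r) 4 ^ (m + 1) * (t' * t' ^ (1 / (m : ℝ)))) /
        Ng_290.eN 4 ^ (2 * m + 2) ≤ Ct * (Ng_290.sN (cTop r) 4 ^ (m + 1) * (Ca m n ^ 2 *
        (Ng_290.tN (cz π ρ x r W zh) (Vz (VD D) π ρ x r W zh (h0 m Q ε)) (cTop r) 4 κ *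
          Ng_290.tN (cz π ρ x r W zh) (Vz (VD D) π ρ x r W zh (h0 m Q ε)) (cTop r) 4 κ ^
            (1 / (m : ℝ))))) / Ng_290.eN 4 ^ (2 * m + 2) := by
      gcongr
    refine h1.trans ?_
    have hN0 : 0 ≤ Ng_290.tN (cz π ρ x r W zh) (Vz (VD D) π ρ x r W zh (h0 m Q ε)) (cTop r) 4 κ :=
      tN_nonneg hok hon htau (by norm_num) hk
    have hN1 := Real.rpow_nonneg hN0 (1 / (m : ℝ))
    have h2 : Ct * Ca m n ^ 2 ≤ max (C1 * Ca m n) (Ct * Ca m n ^ 2) := le_max_right _ _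
    calc _ = (Ct * Ca m n ^ 2) * ((Ng_290.eN 4)⁻¹) ^ (2 * m + 2) *
          (Ng_290.sN (cTop r) 4) ^ (m + 1) *
          (Ng_290.tN (cz π ρ x r W zh) (Vz (VD D) π ρ x r W zh (h0 m Q ε)) (cTop r) 4 κ *
            Ng_290.tN (cz π ρ x r W zh) (Vz (VD D) π ρ x r W zh (h0 m Q ε)) (cTop r) 4 κ ^
              (1 / (m : ℝ))) := by
          rw [inv_pow]; field_simp
      _ ≤ _ := by gcongr
  · have he' : TV (cz π ρ x r W zh) (Vz (VD D) π ρ x r W zh (h0 m Q ε)) Q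
        ((1 + Ng_290.eN 4 / 2) * Ng_290.sN (cTop r) 4) C1
        (Ca m n * (κ / (Ng_290.sN (cTop r) 4) ^ 2))
        (Ct * (Ng_290.sN (cTop r) 4 ^ (m + 1) * (t' * t' ^ (1 / (m : ℝ)))) /
          Ng_290.eN 4 ^ (2 * m + 2)) e := by
      have e1 : Ca m n * (κ / (Ng_290.sN (cTop r) 4) ^ 2) =
        Ca m n * κ / (Ng_290.sN (cTop r) 4) ^ 2 := by ring
      rw [e1]
      exact he
    have hkq : 0 ≤ κ / (Ng_290.sN (cTop r) 4) ^ 2 := by positivity
    exact TV.mono_C hok hon htau (le_max_left _ _) hkq (tv_mono hok hon htau hCa1 hC1 hkq he')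

end Crest.Agent.R234.Qp_534
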