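import Crest.Agent.R234.Pin12_3
import Crest.Agent.R234.QLeb3_433
import Crest.Agent.R234.Qp7_534
import Crest.Agent.R234.Pd11_435
import Crest.Agent.R234.Pd12_435
import Crest.Agent.R234.LowF18_471

/-!
# Row 234, VF-MAIN (helper456), version 7

S0362 and S0363 from: `DblE` (the doubling node for all large `K`), `SgE` (field sg of 534's `Inp`),
`F3E` (354's F3 at one scale, 471's form).
-/

set_option autoImplicit false

open MeasureTheory Crest.GeometryTopology.Submanifold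
open scoped ENNReal

noncomputable section

namespace Crest.Agent.R234.Main_456

open Crest.Agent.R234

/-- field `sg` for all large `K` (354 / 534) -/
def SgE : Prop := ∀ m n : ℕ, 3 ≤ m → 1 ≤ n → Pin12_3.EvK (Pin11_3.SgP m n)

/-- F3 at one scale (354 / 471) -/
def F3E : Prop := ∀ m n : ℕ, 3 ≤ m → 1 ≤ n → LowF18_471.F3S m n

theorem ctrE7 (hSg : SgE) (hF3 : F3E) : CtrE :=
  Pin12_3.ctrE_of
    (fun m n hm _ => ⟨3, fun K hK => Qp_534.htvP (by omega) hK⟩) hSg
    (fun m n hm hn => Pin12_3.EvK.of_forall (LowF18_471.f4P_of_F3S (by omega) (hF3 m n hm hn)))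
    (fun m n _ _ => Pin12_3.EvK.of_forall (Pd_435.topP m n))
    (fun m n _ _ => Pin12_3.EvK.of_forall (Pd_435.uljP m n))

theorem noSel7 (hD : DblE) (hSg : SgE) (hF3 : F3E) : NoSel :=
  noSel6 hD QLeb_433.qLeb (ctrE7 hSg hF3)

/-- **S0362, version 7** -/
theorem s0362_7 (hD : DblE) (hSg : SgE) (hF3 : F3E)
    (m n : ℕ) (hm : 1 ≤ m) (hn : 1 ≤ n) (U : Set (EuclideanSpace ℝ (Fin (m + n))))
    (hU : IsOpen U) (D : VarifoldData m (m + n)) (hDi : IsIntegralVarifoldIn U D)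
    (hstat : IsStationaryIn U D) :
    dimH (singularSet m (m + n) U D) ≤ (m : ENNReal) - 1 :=
  s0362_6 hD QLeb_433.qLeb (ctrE7 hSg hF3) m n hm hn U hU D hDi hstat

/-- **S0363, version 7** -/
theorem s0363_7 (hD : DblE) (hSg : SgE) (hF3 : F3E)
    (m n : ℕ) (hm : 1 ≤ m) (hn : 1 ≤ n) (R : ℝ) (hR : 0 < R)
    (D : VarifoldData m (m + n + 1)) (hDi : IsIntegralVarifoldIn Set.univ D)
    (hsph : ∀ i, D.chart i '' D.dom i ⊆ Metric.sphere (0 : EuclideanSpace ℝ (Fin (m + n + 1))) R)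
    (hstat : ∀ X : EuclideanSpace ℝ (Fin (m + n + 1)) → EuclideanSpace ℝ (Fin (m + n + 1)),
      ContDiff ℝ 1 X → HasCompactSupport X →
      (∀ x ∈ Metric.sphere (0 : EuclideanSpace ℝ (Fin (m + n + 1))) R, inner ℝ (X x) x = 0) →
      firstVariation D X = 0) :
    μH[(m : ℝ)] (singularSet m (m + n + 1) Set.univ D) = 0 :=
  s0363_6 hD QLeb_433.qLeb (ctrE7 hSg hF3) m n hm hn R hR D hDi hsph hstat

end Crest.Agent.R234.Main_456
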