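import Crest.Agent.R234.Qp9_534
import Crest.Agent.R234.F3t_433
import Crest.Agent.R234.Main7_456

/-!
# Row 234, node QP-CH (helper534), part 10: `SgP` from F3 at the scale `s` in the tube of radius `s`
-/

set_option autoImplicit false
set_option linter.unusedVariables false
set_option linter.unusedSectionVars false

open MeasureTheory Filter Topology Set Metric
open scoped ENNReal NNReal ContDiff InnerProductSpace
open Crest.GeometryTopology.Submanifold Crest.Agent.R234.Vf_884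
open Crest.Agent.R234.Main_456 Crest.Agent.R234.F11_435
open Crest.Agent.R234.Gi_456
open Crest.Agent.R234.AS_456 (hp vp)
open Crest.Agent.R234.GI_640 (g3 g31 g32)
open Crest.Agent.R234.GL_394 (Ch Ok On VK Pf pf_cubic KB TV bb Loc)

noncomputable section

namespace Crest.Agent.R234.Qp_534

variable {m n k : ℕ}

local notation "adj" => ContinuousLinearMap.adjoint

/-! ### the profile -/

/-- `g3` on `t ≥ 0` -/
def gp (t : ℝ) : ℝ := g3 (max t 0)

theorem gp_eq {t : ℝ} (ht : 0 ≤ t) : gp t = g3 t := by unfold gp; rw [max_eq_left ht]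

theorem gp_nonneg (t : ℝ) : 0 ≤ gp t := GI_640.g3_nonneg _

theorem gp_le (t : ℝ) : gp t ≤ 1 := GI_640.g3_le_one (le_max_right _ _)

theorem gp_zero (t : ℝ) (ht : 1 ≤ t) : gp t = 0 := by
  rw [gp_eq (by linarith)]
  unfold g3
  rw [max_eq_left (by linarith)]
  norm_num

theorem g3_lip {a b : ℝ} (ha : 0 ≤ a) (hb : 0 ≤ b) :
    |g3 (a ^ 2) - g3 (b ^ 2)| ≤ 6 * |a - b| := by
  wlog hab : a ≤ b generalizing a b with H
  · rw [abs_sub_comm, abs_sub_comm a b]
    exact H hb ha (by linarith)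
  have e0 : |a - b| = b - a := by rw [abs_sub_comm, abs_of_nonneg (by linarith)]
  rw [e0]
  unfold g3
  rcases le_total 1 a with h1 | h1
  · have h2 : max 0 (1 - a ^ 2) = 0 := max_eq_left (by nlinarith)
    have h3 : max 0 (1 - b ^ 2) = 0 := max_eq_left (by nlinarith)
    rw [h2, h3]
    simp
    linarith
  · have h2 : max 0 (1 - a ^ 2) = 1 - a ^ 2 := max_eq_right (by nlinarith)
    rw [h2]
    have hA0 : 0 ≤ 1 - a ^ 2 := by nlinarith
    have hA1 : 1 - a ^ 2 ≤ 1 := by nlinarith [sq_nonneg a]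
    rcases le_total 1 b with h4 | h4
    · have h3 : max 0 (1 - b ^ 2) = 0 := max_eq_left (by nlinarith)
      rw [h3]
      have e1 : (1 - a ^ 2) ^ 3 ≤ 1 - a ^ 2 := by
        have := mul_nonneg hA0 hA0
        have := mul_nonneg this hA0
        nlinarith [mul_nonneg hA0 (sub_nonneg.2 hA1)]
      have e2 : 1 - a ^ 2 ≤ 2 * (b - a) := by nlinarith
      rw [zero_pow (by norm_num), sub_zero, abs_of_nonneg (by positivity)]
      linarith
    · have h3 : max 0 (1 - b ^ 2) = 1 - b ^ 2 := max_eq_right (by nlinarith)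
      rw [h3]
      have hB0 : 0 ≤ 1 - b ^ 2 := by nlinarith
      have hB1 : 1 - b ^ 2 ≤ 1 := by nlinarith [sq_nonneg b]
      have hBA : 1 - b ^ 2 ≤ 1 - a ^ 2 := by nlinarith
      set A := 1 - a ^ 2 with hA
      set B := 1 - b ^ 2 with hB
      have e1 : A ^ 3 - B ^ 3 = (A - B) * (A ^ 2 + A * B + B ^ 2) := by ring
      have e2 : A - B ≤ 2 * (b - a) := by rw [hA, hB]; nlinarith
      have e3 : 0 ≤ A - B := by linarith
      have e4 : A ^ 2 + A * B + B ^ 2 ≤ 3 := by nlinarith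
      have e5 : 0 ≤ A ^ 2 + A * B + B ^ 2 := by positivity
      rw [e1, abs_of_nonneg (mul_nonneg e3 e5)]
      calc (A - B) * (A ^ 2 + A * B + B ^ 2) ≤ (2 * (b - a)) * 3 :=
            mul_le_mul e2 e4 e5 (by linarith)
        _ = _ := by ring

theorem gp_lip : LipschitzWith 6 (fun v : Euc m => gp (‖v‖ ^ 2)) := by
  refine LipschitzWith.of_dist_le_mul fun v v' => ?_
  rw [Real.dist_eq, dist_eq_norm, gp_eq (sq_nonneg _), gp_eq (sq_nonneg _)]
  have h1 := g3_lip (norm_nonneg v) (norm_nonneg v')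
  have h2 := abs_norm_sub_norm_le v v'
  calc |g3 (‖v‖ ^ 2) - g3 (‖v'‖ ^ 2)| ≤ 6 * |‖v‖ - ‖v'‖| := h1
    _ ≤ 6 * ‖v - v'‖ := by gcongr
    _ = _ := by norm_num

theorem bb_gp (c : Ch m k) (V : Measure (Euc k × L k)) (Q l : ℝ) :
    bb c V gp Q l = bb c V g3 Q l := by
  have e : ∀ y : ℝ, gp (Real.exp (-2 * l) * y ^ 2) = g3 (Real.exp (-2 * l) * y ^ 2) := fun y =>
    gp_eq (by positivity)
  unfold GL_394.bb GL_394.EE GL_394.ee
  simp only [e]

variable {U : Set (Euc k)} {V : Measure (Euc k × L k)} {Q K : ℕ} {x : Euc k} {r : ℝ}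
  {π : Euc k →L[ℝ] Euc m} {ρ : Euc k →L[ℝ] Euc n} {u : Euc m → Euc n} {ε C : ℝ}
  {W : Euc m → Euc n} {κ : ℝ} {zh : Euc k}

namespace Qx

variable (h : Qx U V Q K x r π ρ u ε C W κ zh)

include h

theorem ae_Kz : ∀ᵐ p ∂(VK V (Kz π ρ x r W zh (h0 m Q ε))), p.1 ∈ Kz π ρ x r W zh (h0 m Q ε) := by
  have hK : MeasurableSet (Kz π ρ x r W zh (h0 m Q ε) ×ˢ (univ : Set (L k))) :=
    (isCompact_Kz h.gr _).isClosed.measurableSet.prod MeasurableSet.univ
  filter_upwards [ae_restrict_mem hK] with p hp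
  exact hp.1

theorem Wt_s {s : ℝ} (hs : 4 * h0 m Q ε * r < s) (hs2 : s ≤ 2 * r) (hκ : κ ≤ 1 / 16) (t : ℝ) :
    {z | z ∈ Kz π ρ x r W zh (h0 m Q ε) ∧ ‖(ch π ρ zh s (wz π x zh r W) 0).x z‖ < t} =
      LowF14_471.Wt (cz π ρ x r W zh) (Kz π ρ x r W zh (h0 m Q ε)) t := by
  have hr := h.hr
  have hh := h0_nonneg m Q ε
  have hs0 : 0 < s := lt_of_le_of_lt (by positivity) hs
  have hg := h.gr_s hs0 hs2 hκ
  ext z
  constructor
  · rintro ⟨h1, h2⟩
    refine ⟨h1, ?_⟩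
    rw [← ch_x_radius h.gr hg (h.Kz_spec h.hs h1).1 (h.Kz_sub_s hs h1)] at h2
    exact h2
  · rintro ⟨h1, h2⟩
    refine ⟨h1, ?_⟩
    rw [← ch_x_radius h.gr hg (h.Kz_spec h.hs h1).1 (h.Kz_sub_s hs h1)]
    exact h2

theorem f_s {s : ℝ} (hs : 4 * h0 m Q ε * r < s) (hs2 : s ≤ 2 * r) (hκ : κ ≤ 1 / 16) {z : Euc k}
    (hz : z ∈ Kz π ρ x r W zh (h0 m Q ε)) :
    (ch π ρ zh s (wz π x zh r W) 0).f z = (cz π ρ x r W zh).f z := by
  have hr := h.hr
  have hh := h0_nonneg m Q ε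
  have hs0 : 0 < s := lt_of_le_of_lt (by positivity) hs
  have hg := h.gr_s hs0 hs2 hκ
  exact (ch_f_radius h.gr hg (h.Kz_spec h.hs hz).1 (h.Kz_sub_s hs hz)).symm

theorem x_s {s : ℝ} (hs : 4 * h0 m Q ε * r < s) (hs2 : s ≤ 2 * r) (hκ : κ ≤ 1 / 16) {z : Euc k}
    (hz : z ∈ Kz π ρ x r W zh (h0 m Q ε)) :
    (ch π ρ zh s (wz π x zh r W) 0).x z = (cz π ρ x r W zh).x z := by
  have hr := h.hr
  have hh := h0_nonneg m Q ε
  have hs0 : 0 < s := lt_of_le_of_lt (by positivity) hs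
  have hg := h.gr_s hs0 hs2 hκ
  exact (ch_x_radius h.gr hg (h.Kz_spec h.hs hz).1 (h.Kz_sub_s hs hz)).symm

theorem nu_s {s : ℝ} (hs : 4 * h0 m Q ε * r < s) (hs2 : s ≤ 2 * r) (hκ : κ ≤ 1 / 16) {z : Euc k}
    (hz : z ∈ Kz π ρ x r W zh (h0 m Q ε)) :
    (ch π ρ zh s (wz π x zh r W) 0).nu z = (cz π ρ x r W zh).nu z := by
  have hr := h.hr
  have hh := h0_nonneg m Q ε
  have hs0 : 0 < s := lt_of_le_of_lt (by positivity) hs
  have hg := h.gr_s hs0 hs2 hκ
  exact (ch_nu_radius h.gr hg (h.Kz_spec h.hs hz).1 (h.Kz_sub_s hs hz)).symm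

/-- the excess in the chart of radius `s` -/
theorem int_s {s t : ℝ} (hs : 4 * h0 m Q ε * r < s) (hs2 : s ≤ 2 * r) (hκ : κ ≤ 1 / 16)
    (ht : t ≤ 9 / 4 * r) :
    ∫ p in {z | ‖(ch π ρ zh s (wz π x zh r W) 0).x z‖ < t} ×ˢ univ,
      2 * (ch π ρ zh s (wz π x zh r W) 0).f p.1 ∂(VK V (Kz π ρ x r W zh (h0 m Q ε))) ≤
      6 * (3 * r) ^ m * Iz V π ρ x r W zh (h0 m Q ε) (cTop r) := by
  refine le_trans ?_ (h.int_2f_le h.k0 ht)
  have hae := h.ae_Kz
  have e1 : ∫ p in {z | ‖(ch π ρ zh s (wz π x zh r W) 0).x z‖ < t} ×ˢ univ,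
      2 * (ch π ρ zh s (wz π x zh r W) 0).f p.1 ∂(VK V (Kz π ρ x r W zh (h0 m Q ε))) =
      ∫ p in {z | ‖(ch π ρ zh s (wz π x zh r W) 0).x z‖ < t} ×ˢ univ,
      2 * (cz π ρ x r W zh).f p.1 ∂(VK V (Kz π ρ x r W zh (h0 m Q ε))) := by
    refine integral_congr_ae ?_
    filter_upwards [ae_restrict_of_ae hae] with p hp
    rw [h.f_s hs hs2 hκ hp]
  rw [e1]
  refine setIntegral_mono_set h.int_2f.integrableOn ?_ ?_
  · filter_upwards [ae_restrict_of_ae hae] with p hp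
    have := f_nonneg h.ok hp
    show 0 ≤ 2 * (cz π ρ x r W zh).f p.1
    linarith
  · filter_upwards [hae] with p hp
    intro h2
    have h3 : ‖(ch π ρ zh s (wz π x zh r W) 0).x p.1‖ < t := h2.1
    rw [h.x_s hs hs2 hκ hp] at h3
    exact h3.le

/-- the weighted excess -/
theorem int_gp {s : ℝ} (hs : 4 * h0 m Q ε * r < s) (hs2 : s ≤ 2 * r) (hκ : κ ≤ 1 / 16) :
    ∫ p, gp (‖(ch π ρ zh s (wz π x zh r W) 0).x p.1‖ ^ 2 / s ^ 2) *
      (2 * (ch π ρ zh s (wz π x zh r W) 0).f p.1) ∂(VK V (Kz π ρ x r W zh (h0 m Q ε))) ≤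
      6 * (3 * r) ^ m * Iz V π ρ x r W zh (h0 m Q ε) (cTop r) := by
  have hr := h.hr
  have hh := h0_nonneg m Q ε
  have hs0 : 0 < s := lt_of_le_of_lt (by positivity) hs
  refine le_trans ?_ (h.int_2f_le h.k0 (t := s) (by linarith))
  have hae := h.ae_Kz
  have hn : NullMeasurableSet {p : Euc k × L k | ‖(cz π ρ x r W zh).x p.1‖ ≤ s}
      (Vz V π ρ x r W zh (h0 m Q ε)) := by
    have h0 : AEStronglyMeasurable (fun p : Euc k × L k => (cz π ρ x r W zh).x p.1)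
      (Vz V π ρ x r W zh (h0 m Q ε)) := by
      rw [← Measure.restrict_eq_self_of_ae_mem h.on.mem]
      exact h.cx_cont.aestronglyMeasurable
        (h.ok.cpt.isClosed.measurableSet.prod (measurableSet_G m k))
    exact nullMeasurableSet_le h0.norm.aemeasurable aemeasurable_const
  rw [← integral_indicator₀ hn]
  refine integral_mono_of_nonneg ?_ (h.int_2f.indicator₀ hn) ?_
  · filter_upwards [hae] with p hp
    have h1 := f_nonneg h.ok hp
    rw [← h.f_s hs hs2 hκ hp] at h1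
    exact mul_nonneg (gp_nonneg _) (by linarith)
  · filter_upwards [hae] with p hp
    have h1 := f_nonneg h.ok hp
    show gp (‖(ch π ρ zh s (wz π x zh r W) 0).x p.1‖ ^ 2 / s ^ 2) *
      (2 * (ch π ρ zh s (wz π x zh r W) 0).f p.1) ≤ indicator {p : Euc k × L k |
        ‖(cz π ρ x r W zh).x p.1‖ ≤ s} (fun p => 2 * (cz π ρ x r W zh).f p.1) p
    rw [h.f_s hs hs2 hκ hp, h.x_s hs hs2 hκ hp]
    by_cases hx : ‖(cz π ρ x r W zh).x p.1‖ ≤ s
    · rw [indicator_of_mem (by exact hx)]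
      have h2 := gp_le (‖(cz π ρ x r W zh).x p.1‖ ^ 2 / s ^ 2)
      calc gp (‖(cz π ρ x r W zh).x p.1‖ ^ 2 / s ^ 2) * (2 * (cz π ρ x r W zh).f p.1) ≤
            1 * (2 * (cz π ρ x r W zh).f p.1) := by
            apply mul_le_mul_of_nonneg_right h2; linarith
        _ = _ := one_mul _
    · rw [indicator_of_notMem (by exact hx)]
      rw [gp_zero _ (by
        rw [le_div_iff₀ (by positivity), one_mul]
        push Not at hx
        gcongr), zero_mul]

end Qx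


/-- **the soft sign at all `Q`-points** (`SgP` of 3) from F3 at the scale `s` -/
theorem sgP_of (hm : 1 ≤ m) (hK : 3 ≤ K) (hF : ∀ Q, 1 ≤ Q → F3t_433.F3Ps m n (m + n) Q) :
    Pin11_3.SgP m n K := by
  intro Q C hQ lm θ B hlm hθ hB
  obtain ⟨C1, hC1, htop⟩ := Pd_435.topP m n K Q C hQ
  have ho := ome_pos m
  obtain ⟨Cf, hCf, hcore⟩ := hF Q (by omega) ((Q + 1) * (ome m * 2 ^ m)) (by positivity)
  obtain ⟨κ₀, H₀, hκ₀, hH₀, -, core⟩ := hcore 1 1 one_pos one_pos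
  obtain ⟨θ', hθ', hnum⟩ := sg_num (m := m) (H0 := H₀) (Cf := 64 * Cf) (C1 := C1) (lm := lm)
    (θ := θ) (ec := 1 / 8) hH₀ (by linarith) hC1 hθ (by norm_num)
  obtain ⟨εt, hεt, htop⟩ := htop θ' B hθ' hB
  obtain ⟨εr, hεr, hrat⟩ := exists_rat (k := m + n) hm (Q := Q) (by omega)
    (δ := 1 / 8) (by norm_num)
  have hB0 : 0 < B := by linarith
  have hhc := Pd_435.Cx.hc_pos m Q
  have hm0 : (1:ℝ) ≤ m := by exact_mod_cast hm
  have hQ0 : (0:ℝ) ≤ Q := Nat.cast_nonneg Q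
  set q : ℝ := Real.exp (lm - 2) with hq
  have hq0 : 0 < q := Real.exp_pos _
  have hq1 : q ≤ 1 := Real.exp_le_one_iff.2 (by linarith)
  set a0 : ℝ := 1 / (32 * (Q + 1) * m) with ha0
  have ha0p : 0 < a0 := by rw [ha0]; positivity
  have ha32 : a0 ≤ 1 / 32 := by
    rw [ha0]
    apply one_div_le_one_div_of_le (by norm_num)
    nlinarith [mul_nonneg hQ0 (by linarith : (0:ℝ) ≤ m)]
  refine ⟨min (min εt εr) (min (min (θ' / B) (κ₀ / (8 * B)))
    (min (a0 / B) ((a0 * q / 16) ^ 2 / Pd_435.Cx.hc m Q))), ?_, ?_⟩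
  · exact lt_min (lt_min hεt hεr) (lt_min (lt_min (by positivity) (by positivity))
      (lt_min (by positivity) (by positivity)))
  intro ε hε hεε U D x r π ρ u W κ zh hS l hl
  have g1 : ε ≤ εt := hεε.trans ((min_le_left _ _).trans (min_le_left _ _))
  have g2 : ε ≤ εr := hεε.trans ((min_le_left _ _).trans (min_le_right _ _))
  have g3' : ε ≤ θ' / B :=
    hεε.trans ((min_le_right _ _).trans ((min_le_left _ _).trans (min_le_left _ _)))
  have g4 : ε ≤ κ₀ / (8 * B) :=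
    hεε.trans ((min_le_right _ _).trans ((min_le_left _ _).trans (min_le_right _ _)))
  have g5 : ε ≤ a0 / B :=
    hεε.trans ((min_le_right _ _).trans ((min_le_right _ _).trans (min_le_left _ _)))
  have g6 : ε ≤ (a0 * q / 16) ^ 2 / Pd_435.Cx.hc m Q :=
    hεε.trans ((min_le_right _ _).trans ((min_le_right _ _).trans (min_le_right _ _)))
  have h := hS.qx
  have hr := h.hr
  have hk := h.k0
  have hκB : κ ≤ B * ε := hS.κB
  have k1 : κ ≤ θ' := by
    rw [le_div_iff₀ hB0] at g3'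
    linarith
  have k2 : 8 * κ ≤ κ₀ := by
    rw [le_div_iff₀ (by positivity)] at g4
    linarith
  have k3 : κ ≤ a0 := by
    rw [le_div_iff₀ hB0] at g5
    linarith
  have hh0 := h0_nonneg m Q ε
  have k4 : h0 m Q ε ≤ a0 * q / 16 := by
    rw [le_div_iff₀ hhc] at g6
    unfold h0
    rw [Real.sqrt_le_left (by positivity)]
    linarith
  -- the scale
  set s : ℝ := Real.exp l with hs
  have hs0 : 0 < s := Real.exp_pos _
  have hlo : q * r ≤ s := by
    have e1 : Real.exp (Real.log r + lm - 2) ≤ s := Real.exp_le_exp.2 hl.1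
    have e2 : Real.exp (Real.log r + lm - 2) = r * q := by
      rw [hq, show Real.log r + lm - 2 = Real.log r + (lm - 2) by ring, Real.exp_add,
        Real.exp_log hr]
    rw [e2] at e1
    linarith
  have hhi : s ≤ 2 * r := by
    have e1 : s ≤ Real.exp (bTop r) := Real.exp_le_exp.2 hl.2
    rw [h.exp_bTop] at e1
    exact e1
  have hlog : Real.log s = l := Real.log_exp l
  have hκ16 : κ ≤ 1 / 16 := by linarith
  -- heights
  have n1 : h0 m Q ε * r ≤ s / 512 := by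
    calc h0 m Q ε * r ≤ (a0 * q / 16) * r := by gcongr
      _ = a0 / 16 * (q * r) := by ring
      _ ≤ (1 / 32) / 16 * s := by gcongr
      _ = _ := by ring
  have n2 : 4 * h0 m Q ε * r < s := by nlinarith
  have hg := h.gr_s hs0 hhi hκ16
  -- masses
  have hra := hrat U D hS.int hS.st n K x r π ρ u ε C W κ zh h g2 (le_of_eq hS.th.symm)
  have hnu : ∀ t : ℝ, s / 4 ≤ t → ∀ z ∈ Kz π ρ x r W zh (h0 m Q ε),
      ‖(cz π ρ x r W zh).nu z‖ ≤ (16 * h0 m Q ε / q) * t := by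
    intro t ht z hz
    have e1 := h.nu_le_Kz hz
    have e2 : q * r ≤ 4 * t := by linarith
    calc ‖(cz π ρ x r W zh).nu z‖ ≤ 4 * h0 m Q ε * r := e1
      _ = 4 * h0 m Q ε / q * (q * r) := by field_simp
      _ ≤ 4 * h0 m Q ε / q * (4 * t) := by gcongr
      _ = _ := by ring
  have hη0 : 0 ≤ 16 * h0 m Q ε / q := by positivity
  have hη1 : 16 * h0 m Q ε / q ≤ a0 := by
    rw [div_le_iff₀ hq0]
    linarith
  have k5 : 16 * (Q + 1) * m * (κ + 16 * h0 m Q ε / q) ≤ 1 := by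
    have e1 : 16 * (Q + 1) * m * (κ + 16 * h0 m Q ε / q) ≤ 16 * (Q + 1) * m * (a0 + a0) := by
      gcongr
    have e2 : 16 * (Q + 1) * m * (a0 + a0) = 1 := by
      rw [ha0]; field_simp; norm_num
    linarith
  have hKm : MeasurableSet (Kz π ρ x r W zh (h0 m Q ε) ×ˢ (univ : Set (L (m + n)))) :=
    (Qx.isCompact_Kz h.gr _).isClosed.measurableSet.prod MeasurableSet.univ
  have hae : ∀ᵐ p ∂((VD D).restrict (Kz π ρ x r W zh (h0 m Q ε) ×ˢ univ)),
      p.1 ∈ Kz π ρ x r W zh (h0 m Q ε) := h.ae_Kz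
  have mass1 := LowF14_471.Qx.mass_W h (δ := 1 / 8) (η := 16 * h0 m Q ε / q) (t := 1 / 4 * s)
    (by norm_num) le_rfl hη0 k5 hra subset_rfl hae (by positivity) (by linarith)
    fun z hz _ => hnu _ (by linarith) z hz
  have mass2 := LowF14_471.Qx.mass_W_le h (δ := 1 / 8) (η := 16 * h0 m Q ε / q)
    (t := (1 + 1 / 8) * s) (by norm_num) hη0 hra subset_rfl (by positivity) (by
      have e1 : (1 + κ + 16 * h0 m Q ε / q) * ((1 + 1 / 8) * s) ≤
        (1 + 1 / 32 + 1 / 32) * ((1 + 1 / 8) * (2 * r)) := by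
          apply mul_le_mul (by linarith) (by linarith) (by positivity) (by norm_num)
      linarith) fun z hz _ => hnu _ (by linarith) z hz
  have hvol : volume.real (ball (0 : Euc m) (1 / 4 * s)) = ome m * (1 / 4 * s) ^ m :=
    Th_164.vol_ball _ (by positivity)
  -- the energy
  obtain ⟨t1, t2, t3, t4, t5⟩ := htop ε hε g1 U D x r π ρ u W κ zh hS
  set J := Iz (VD D) π ρ x r W zh (h0 m Q ε) (cTop r) with hJ
  set Jb := Iz (VD D) π ρ x r W zh (h0 m Q ε) (bTop r) with hJb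
  have hJ0 : 0 < J := by
    have e1 := h.Iz_mono (l := bTop r) (l' := cTop r) (by rw [← cTop_sub]; linarith)
    have e2 : 0 < Real.exp (m * (cTop r - bTop r)) * J := lt_of_lt_of_le t1 e1
    exact pos_of_mul_pos_right e2 (Real.exp_pos _).le
  obtain ⟨a1, a2, a3, a4, a5⟩ := hnum κ r J Jb s hk k1 hr hJ0 t4 t3 hlo
  set H : ℝ := 6 * (3 * r) ^ m * J / s ^ (m + 2) with hH
  have hHs : H * s ^ (m + 2) = 6 * (3 * r) ^ m * J := by rw [hH]; field_simp
  -- the core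
  have main := core π ρ zh (wz π x zh r W) 0 s (8 * κ) (1 / 8) H U (Kz π ρ x r W zh (h0 m Q ε)) D gp
    h.hf h.opU hS.int hS.st hs0 hg (contDiff_wz h.ext.cd) (by positivity) k2 (by
      intro j hj1 hj4 Y _
      have e1 := h.ext.iter (π := π) (x := x) (z := zh) hr hj1 (hj4.trans hK) Y
      have e2 : s ^ (j - 1) ≤ (2 * r) ^ (j - 1) := by gcongr
      have e3 : (2:ℝ) ^ (j - 1) ≤ 8 := by
        calc (2:ℝ) ^ (j - 1) ≤ 2 ^ 3 := pow_le_pow_right₀ (by norm_num) (by omega)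
          _ = 8 := by norm_num
      obtain ⟨i, rfl⟩ : ∃ i, j = i + 1 := ⟨j - 1, by omega⟩
      simp only [Nat.add_sub_cancel] at e2 e3 ⊢
      calc s ^ i * ‖iteratedFDeriv ℝ (i + 1) (wz π x zh r W) Y‖ ≤
            (2 * r) ^ i * (κ * r * r⁻¹ ^ (i + 1)) := by gcongr
        _ = 2 ^ i * κ := by rw [mul_pow, inv_pow, pow_succ]; field_simp
        _ ≤ 8 * κ := by gcongr) (by norm_num) (by norm_num) (by
      intro Y hY
      rw [mem_ball_zero_iff] at hY
      exact h.msys (by linarith)) (by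
      intro y hy
      refine h.cx.hU ?_
      rw [mem_closedBall, dist_eq_norm] at hy ⊢
      have e0 : Foot_842.pt π ρ zh (wz π x zh r W) 0 = zh := by
        unfold Foot_842.pt
        rw [wz_zero, map_zero, map_zero, add_zero, add_zero]
      rw [e0] at hy
      have e2 : ‖zh - x‖ ≤ r := by
        have := h.mem
        rwa [mem_closedBall, dist_eq_norm] at this
      have e1 : y - x = (y - zh) + (zh - x) := by abel
      rw [e1]
      have e7 := norm_add_le (y - zh) (zh - x)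
      linarith)
    (h.loc_s n2 hhi hκ16 (by
      rw [Real.exp_log (by positivity)]
      linarith))
    (by
      intro z hz
      rw [h.nu_s n2 hhi hκ16 hz]
      refine (h.nu_le_Kz hz).trans ?_
      linarith)
    (by
      rw [h.Wt_s n2 hhi hκ16]
      refine mass2.trans ?_
      have e1 : (1 + κ + 16 * h0 m Q ε / q) * ((1 + 1 / 8) * s) ≤ 2 * s := by
        have : (1 + κ + 16 * h0 m Q ε / q) * ((1 + 1 / 8) * s) ≤
          (1 + 1 / 32 + 1 / 32) * ((1 + 1 / 8) * s) :=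
            mul_le_mul_of_nonneg_right (by linarith) (by positivity)
        linarith
      calc (Q + 1 / 8) * (ome m * ((1 + κ + 16 * h0 m Q ε / q) * ((1 + 1 / 8) * s)) ^ m) ≤
            (Q + 1) * (ome m * (2 * s) ^ m) := by
            gcongr
            norm_num
        _ = _ := by rw [mul_pow]; ring)
    (by
      rw [h.Wt_s n2 hhi hκ16, hvol]
      refine mass1.trans (le_of_eq ?_)
      ring)
    a1 a2 (by rw [Real.rpow_neg_one]; exact a3)
    (by
      rw [hHs]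
      exact h.int_s n2 hhi hκ16 (by linarith))
    gp_nonneg (fun t _ => gp_le t) gp_zero gp_lip
  rw [bb_gp, hlog, Real.rpow_neg_one] at main
  -- conclusion
  have e1 : bz (VD D) π ρ x r W zh (h0 m Q ε) Q l =
      bb (ch π ρ zh s (wz π x zh r W) 0) (VK (VD D) (Kz π ρ x r W zh (h0 m Q ε))) g3 Q l :=
    bb_radius h.gr hg (Qx.isCompact_Kz h.gr _) (fun z hz => (h.Kz_spec h.hs hz).1)
      (h.Kz_sub_s n2) (VD D) g3 Q l
  rw [e1]
  refine main.trans ?_
  have e2 : (s ^ (m + 2))⁻¹ * ∫ p, gp (‖(ch π ρ zh s (wz π x zh r W) 0).x p.1‖ ^ 2 / s ^ 2) *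
      (2 * (ch π ρ zh s (wz π x zh r W) 0).f p.1) ∂(VK (VD D) (Kz π ρ x r W zh (h0 m Q ε))) ≤ H := by
    rw [inv_mul_le_iff₀ (by positivity), mul_comm, hHs]
    exact h.int_gp n2 hhi hκ16
  have e3 : Cf * (8 * κ) ^ 2 * ((s ^ (m + 2))⁻¹ *
      ∫ p, gp (‖(ch π ρ zh s (wz π x zh r W) 0).x p.1‖ ^ 2 / s ^ 2) *
      (2 * (ch π ρ zh s (wz π x zh r W) 0).f p.1) ∂(VK (VD D) (Kz π ρ x r W zh (h0 m Q ε)))) ≤
      Cf * (8 * κ) ^ 2 * H := by
    have : 0 ≤ Cf := by linarith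
    gcongr
  have e4 : s ^ 2 * (Cf * (8 * κ) ^ 2 * H + (Real.log (1 / H))⁻¹ * H) ≤ θ * Jb := by
    refine le_trans (le_of_eq ?_) a5
    ring
  have e5 : 0 ≤ θ * Iz (VD D) π ρ x r W zh (h0 m Q ε) l := by
    have := h.Iz_nonneg l
    positivity
  have e6 : s ^ 2 * (Cf * (8 * κ) ^ 2 * ((s ^ (m + 2))⁻¹ *
      ∫ p, gp (‖(ch π ρ zh s (wz π x zh r W) 0).x p.1‖ ^ 2 / s ^ 2) *
      (2 * (ch π ρ zh s (wz π x zh r W) 0).f p.1) ∂(VK (VD D) (Kz π ρ x r W zh (h0 m Q ε)))) +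
      (Real.log (1 / H))⁻¹ * H) ≤ s ^ 2 * (Cf * (8 * κ) ^ 2 * H + (Real.log (1 / H))⁻¹ * H) := by
    apply mul_le_mul_of_nonneg_left _ (by positivity)
    linarith
  linarith

/-- `SgE` (the field of `Skel4_884.Leaves`) from F3 at the scale 1. -/
theorem sgE_of (hF : ∀ m n Q : ℕ, 3 ≤ m → 1 ≤ n → 1 ≤ Q → F36_354.F3P1 m n (m + n) Q) :
    Main_456.SgE := fun m n hm hn =>
  ⟨3, fun K hK => sgP_of (by omega) hK fun Q hQ =>
    F3t_433.f3Ps_of (by omega) (hF m n Q hm hn hQ)⟩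

end Crest.Agent.R234.Qp_534
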