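import Crest.Agent.R234.LowF18_471
import Crest.Agent.R234.Qp10_534

/-!
# Row 234, (F4) LOW FREQUENCY, instance part 8 (helper471): `F3S` from F3 at the scale `s`

`f3S_of : (∀ Q, F3t_433.F3Ps m n (m + n) Q) → LowF18_471.F3S m n`.
-/

set_option autoImplicit false
set_option maxSynthPendingDepth 3

open MeasureTheory Filter Topology Set Metric
open scoped ENNReal NNReal ContDiff InnerProductSpace
open Crest.GeometryTopology.Submanifold Crest.Agent.R234.Vf_884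
open Crest.Agent.R234.Main_456 Crest.Agent.R234.F11_435
open Crest.Agent.R234.Gi_456 Crest.Agent.R234.Qp_534
open Crest.Agent.R234.GL_394
open Crest.Agent.R234.GI_640 (g3 g31 g32)
open Crest.Agent.R234.LowF8_471 Crest.Agent.R234.LowF9_471
open Crest.Agent.R234.LowF18_471 (F3S)

noncomputable section

namespace Crest.Agent.R234.LowF19_471

variable {m n k : ℕ} {U : Set (Euc k)} {V : Measure (Euc k × L k)} {Q K : ℕ} {x : Euc k} {r : ℝ}
  {π : Euc k →L[ℝ] Euc m} {ρ : Euc k →L[ℝ] Euc n} {u : Euc m → Euc n} {ε C : ℝ}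
  {W : Euc m → Euc n} {κ : ℝ} {zh : Euc k}

/-- stationarity of the data from stationarity of the measure -/
theorem stationary_of_stat {D : VarifoldData m k} (hD : IsIntegralVarifoldIn U D)
    (hs : Stat m k U (VD D)) : IsStationaryIn U D := fun X hX hXc hXU => by
  rw [firstVariation_eq hD hX hXc hXU]
  exact hs.stat X hX hXc hXU

/-- `bb` only sees the points over `|c.x| < e^l` -/
theorem bb_cut {c : Ch m k} {K1 K2 : Set (Euc k)} (h1 : IsCompact K1) (h12 : K2 ⊆ K1) {l : ℝ}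
    (hcut : ∀ᵐ p ∂V, p.1 ∈ K1 → p.1 ∉ K2 → Real.exp l ≤ ‖c.x p.1‖) {g : ℝ → ℝ}
    (hg : ∀ t, 1 ≤ t → g t = 0) (Q : ℝ) : bb c (VK V K1) g Q l = bb c (VK V K2) g Q l := by
  have key : ∀ F : Euc k × L k → ℝ,
      ∫ p, F p * g (Real.exp (-2 * l) * ‖c.x p.1‖ ^ 2) ∂(VK V K1) =
      ∫ p, F p * g (Real.exp (-2 * l) * ‖c.x p.1‖ ^ 2) ∂(VK V K2) := by
    intro F
    unfold VK
    refine setIntegral_eq_of_subset_of_ae_sdiff_eq_zero
      ((h1.isClosed.measurableSet.prod MeasurableSet.univ).nullMeasurableSet)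
      (prod_mono_left h12) ?_
    filter_upwards [hcut] with p hp hpd
    have h2 := hp hpd.1.1 (fun h3 => hpd.2 ⟨h3, mem_univ _⟩)
    have h4 : 1 ≤ Real.exp (-2 * l) * ‖c.x p.1‖ ^ 2 := by
      have e1 : Real.exp (-2 * l) = (Real.exp l ^ 2)⁻¹ := by
        rw [← Real.exp_nat_mul, ← Real.exp_neg]; congr 1; push_cast; ring
      have := Real.exp_pos l
      rw [e1, le_inv_mul_iff₀ (by positivity), mul_one]
      gcongr
    rw [hg _ h4, mul_zero]
  have k1 := key (fun _ => 1)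
  have k2 := key (fun p => c.tau p.1 p.2)
  unfold bb EE ee
  rw [k1, k2]

/-- the compact part over `|c.x| ≤ 2 s` -/
def K2 (π : Euc k →L[ℝ] Euc m) (ρ : Euc k →L[ℝ] Euc n) (x : Euc k) (r : ℝ) (W : Euc m → Euc n)
    (zh : Euc k) (K' : Set (Euc k)) (s : ℝ) : Set (Euc k) :=
  {z | z ∈ K' ∧ ‖(cz π ρ x r W zh).x z‖ ≤ 2 * s}

namespace Qx

open Crest.Agent.R234.Qp_534.Qx

variable (h : Qx U V Q K x r π ρ u ε C W κ zh)

include h

theorem yy_le_nu (z : Euc k) :
    ‖yy π ρ zh r (wz π x zh r W) z‖ ≤ ‖(cz π ρ x r W zh).nu z‖ := by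
  refine abs_le_of_sq_le_sq' ?_ (norm_nonneg _) |>.2
  have e1 : ‖(cz π ρ x r W zh).nu z‖ ^ 2 = 2 * (cz π ρ x r W zh).f z := by
    change ‖Bt π ρ (wz π x zh r W) (foot π ρ zh r (wz π x zh r W) z)
      (yy π ρ zh r (wz π x zh r W) z)‖ ^ 2 = 2 * (‖Bt π ρ (wz π x zh r W)
        (foot π ρ zh r (wz π x zh r W) z) (yy π ρ zh r (wz π x zh r W) z)‖ ^ 2 / 2)
    ring
  have e2 := Gv_685.two_f (x := zh) (r := r) (w := wz π x zh r W) (X0 := 0) h.hf z
  rw [e1, show 2 * (cz π ρ x r W zh).f z = _ from e2, Gu_685.dsq_eq]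
  exact Gs_685.sq_le_nsq _ _

variable {K' : Set (Euc k)} {s hs : ℝ}

theorem K2_tube (hK' : K' ⊆ Kz π ρ x r W zh (h0 m Q ε)) (hhs : hs ≤ 1 / 4) (hs0 : 0 < s)
    (hnu : ∀ z ∈ K', ‖(cz π ρ x r W zh).x z‖ ≤ 2 * s → ‖(cz π ρ x r W zh).nu z‖ ≤ hs * s) :
    K2 π ρ x r W zh K' s ⊆ tube π ρ zh s (wz π x zh r W) := by
  rintro z ⟨hz, hx⟩
  have h1 := h.gr.le_norm_yy (h.Kz_spec h.hs (hK' hz)).1
  have h2 := yy_le_nu h z
  have h3 := hnu z hz hx
  show ‖ρ (z - zh) - wz π x zh r W (π (z - zh))‖ < s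
  have h4 : hs * s ≤ 1 / 4 * s := by gcongr
  linarith

theorem isCompact_K2 (hK' : K' ⊆ Kz π ρ x r W zh (h0 m Q ε)) (hKc : IsCompact K') :
    IsCompact (K2 π ρ x r W zh K' s) := by
  have hok := Ok_mono h.ok hK' hKc
  have h1 := hok.cx.norm.preimage_isClosed_of_isClosed hKc.isClosed (isClosed_Iic (a := 2 * s))
  exact hKc.of_isClosed_subset h1 (fun z hz => hz.1)

/-- `Loc` in the tube of radius `s` for the compact part over `|c.x| ≤ 2 s` -/
theorem loc_K2 (hK' : K' ⊆ Kz π ρ x r W zh (h0 m Q ε)) (hKc : IsCompact K') (hhs : hs ≤ 1 / 4)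
    (hs0 : 0 < s) (hsr : s ≤ r) (hκ : κ ≤ 1 / 16)
    (hnu : ∀ z ∈ K', ‖(cz π ρ x r W zh).x z‖ ≤ 2 * s → ‖(cz π ρ x r W zh).nu z‖ ≤ hs * s)
    (hae : ∀ᵐ p ∂(V.restrict (Kz π ρ x r W zh (h0 m Q ε) ×ˢ univ)), p.1 ∈ K') :
    Loc (ch π ρ zh s (wz π x zh r W) 0) U (tube π ρ zh s (wz π x zh r W))
      (K2 π ρ x r W zh K' s) V (Real.log ((1 + 1) * s)) where
  st := h.cx.st
  opU := h.opU
  cpt := isCompact_K2 h hK' hKc
  sub := fun z hz => ⟨K2_tube h hK' hhs hs0 hnu hz, h.Kz_U h.hs (hK' hz.1)⟩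
  gap := by
    have hr := h.hr
    have hg := h.gr_s hs0 (by linarith) hκ
    have hKz := isCompact_Kz h.gr (π := π) (ρ := ρ) (h0 m Q ε)
    have haeV := (ae_restrict_iff' (hKz.isClosed.measurableSet.prod
      (MeasurableSet.univ (α := L k)))).1 hae
    filter_upwards [h.cx.th, h.gap, haeV] with p hp hgap hv hpt hpx
    rw [Real.exp_log (by positivity)] at hpx
    have hfoot : ‖foot π ρ zh s (wz π x zh r W) p.1‖ ≤ 2 * s := by
      have h1 : ‖foot π ρ zh s (wz π x zh r W) p.1‖ ≤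
          ‖(ch π ρ zh s (wz π x zh r W) 0).x p.1‖ := by
        have h2 := le_norm_Lo (fderiv ℝ (wz π x zh r W) 0)
          (foot π ρ zh s (wz π x zh r W) p.1 - 0)
        rw [sub_zero] at h2
        show _ ≤ ‖Lo (fderiv ℝ (wz π x zh r W) 0) (foot π ρ zh s (wz π x zh r W) p.1 - 0)‖
        rw [sub_zero]
        exact h2
      linarith
    have hbox := h.tube_s_box hs0 (by linarith) hκ hpt.1 (by linarith)
    have h1 := hp hpt.2
    have hT := h.mem_Tz_of_box hbox h1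
    have hT' : p.1 ∈ tube π ρ zh r (wz π x zh r W) := hT
    have hKz' := hgap ⟨hT, hpt.2⟩ (by
      rw [foot_radius h.gr hg hT' hpt.1]
      linarith)
    refine ⟨hv ⟨hKz', mem_univ _⟩, ?_⟩
    have e1 := ch_x_radius (X0 := 0) h.gr hg hT' hpt.1
    show ‖(ch π ρ zh r (wz π x zh r W) 0).x p.1‖ ≤ 2 * s
    rw [e1]
    linarith

end Qx

set_option maxHeartbeats 1600000 in
/-- **the one-scale soft sign from F3 at the scale `s` in the tube of radius `s`** -/
theorem f3S_of {m n : ℕ} (hm : 1 ≤ m) (hF : ∀ Q, 1 ≤ Q → F3t_433.F3Ps m n (m + n) Q) :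
    F3S m n := by
  intro Q δ hQ hδ
  have hm0 : (1:ℝ) ≤ m := by exact_mod_cast hm
  have hQ0 : (0:ℝ) ≤ Q := Nat.cast_nonneg Q
  have home := ome_pos m
  obtain ⟨Cf, hCf, hcore⟩ := hF Q (by omega) ((Q + 1) * (ome m * 4 ^ m)) (by positivity)
  obtain ⟨κ₀, H₀, hκ₀, hH₀, hH₁, core⟩ := hcore 1 1 one_pos one_pos
  set hs : ℝ := 1 / (128 * (Q + 1) * m) with hhs
  have hhs0 : 0 < hs := by positivity
  have hhs1 : hs ≤ 1 / 128 := by
    rw [hhs]
    apply one_div_le_one_div_of_le (by norm_num)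
    nlinarith [mul_nonneg hQ0 (by linarith : (0:ℝ) ≤ m)]
  refine ⟨min (min κ₀ (1 / (32 * (Q + 1) * m))) (min 1 (δ / (2 * Cf))),
    min H₀ (min (Real.exp (-1)) (Real.exp (-(2 / δ)))), hs,
    lt_min (lt_min hκ₀ (by positivity)) (lt_min one_pos (by positivity)),
    lt_min hH₀ (lt_min (Real.exp_pos _) (Real.exp_pos _)), hhs0, ?_⟩
  intro K U D x r π ρ u ε C W κ zh hD h hκ hrat l hl K' hK' hKc hnu hae H hH hH0 hHh
  have hr := h.hr
  have hk := h.k0
  have hk8 := h.κ8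
  have hκa : κ ≤ κ₀ := hκ.trans ((min_le_left _ _).trans (min_le_left _ _))
  have hκb : κ ≤ 1 / (32 * (Q + 1) * m) := hκ.trans ((min_le_left _ _).trans (min_le_right _ _))
  have hκc : κ ≤ 1 := hκ.trans ((min_le_right _ _).trans (min_le_left _ _))
  have hκd : κ ≤ δ / (2 * Cf) := hκ.trans ((min_le_right _ _).trans (min_le_right _ _))
  have hκ16 : κ ≤ 1 / 16 := by
    refine hκb.trans ?_
    apply one_div_le_one_div_of_le (by norm_num)
    nlinarith [mul_nonneg hQ0 (by linarith : (0:ℝ) ≤ m)]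
  have hHa : H ≤ H₀ := hHh.trans (min_le_left _ _)
  have hHb : H ≤ Real.exp (-1) := hHh.trans ((min_le_right _ _).trans (min_le_left _ _))
  have hHc : H ≤ Real.exp (-(2 / δ)) := hHh.trans ((min_le_right _ _).trans (min_le_right _ _))
  -- the scale
  set s : ℝ := Real.exp l with hsdef
  have hs0 : 0 < s := Real.exp_pos _
  have he8 : 8 * s ≤ r := by
    have h1 : Real.exp (l + 3) ≤ r := by
      rw [← Real.le_log_iff_exp_le hr]; linarith
    rw [Real.exp_add] at h1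
    nlinarith [exp_three]
  have hlog : Real.log s = l := Real.log_exp l
  have hsm2 : Real.exp (m * l) * Real.exp (2 * l) = s ^ (m + 2) := by
    rw [hsdef, ← Real.exp_nat_mul, ← Real.exp_add]; congr 1; push_cast; ring
  have hs2 : Real.exp (2 * l) = s ^ 2 := by
    rw [hsdef, ← Real.exp_nat_mul]; congr 1
  rw [hsm2] at hH
  have hg := h.gr_s hs0 (by linarith) hκ16
  set c : Ch m (m + n) := cz π ρ x r W zh with hc
  set cs' : Ch m (m + n) := ch π ρ zh s (wz π x zh r W) 0 with hcs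
  set S : Set (Euc (m + n)) := K2 π ρ x r W zh K' s with hS
  have hSc : IsCompact S := Qx.isCompact_K2 h hK' hKc
  have hSt : S ⊆ tube π ρ zh s (wz π x zh r W) := Qx.K2_tube h hK' (by linarith) hs0 hnu
  have hSr : S ⊆ tube π ρ zh r (wz π x zh r W) := fun z hz => (h.Kz_spec h.hs (hK' hz.1)).1
  have hex : ∀ z ∈ S, cs'.x z = c.x z := fun z hz => (ch_x_radius h.gr hg (hSr hz) (hSt hz)).symm
  have hef : ∀ z ∈ S, cs'.f z = c.f z := fun z hz => (ch_f_radius h.gr hg (hSr hz) (hSt hz)).symm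
  have henu : ∀ z ∈ S, cs'.nu z = c.nu z := fun z hz =>
    (ch_nu_radius h.gr hg (hSr hz) (hSt hz)).symm
  have hloc := Qx.loc_K2 h hK' hKc (hs := hs) (s := s) (by linarith) hs0 (by linarith) hκ16 hnu hae
  have hKz := Qp_534.Qx.isCompact_Kz h.gr (π := π) (ρ := ρ) (h0 m Q ε)
  have haeV := (ae_restrict_iff' (hKz.isClosed.measurableSet.prod
    (MeasurableSet.univ (α := L (m + n))))).1 hae
  have hmS : MeasurableSet (S ×ˢ (univ : Set (L (m + n)))) :=
    hSc.isClosed.measurableSet.prod MeasurableSet.univ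
  have haeS : ∀ᵐ p ∂(VK (VD D) S), p.1 ∈ S := by
    filter_upwards [ae_restrict_mem hmS] with p hp
    exact hp.1
  -- masses
  have hW : ∀ t : ℝ, t ≤ 2 * s → {z | z ∈ S ∧ ‖cs'.x z‖ < t} = LowF14_471.Wt c K' t := by
    intro t ht
    ext z
    constructor
    · rintro ⟨h1, h2⟩
      rw [hex z h1] at h2
      exact ⟨h1.1, h2⟩
    · rintro ⟨h1, h2⟩
      have h3 : z ∈ S := ⟨h1, by
        have : ‖c.x z‖ < t := h2
        exact (this.le).trans ht⟩
      refine ⟨h3, ?_⟩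
      rw [hex z h3]
      exact h2
  have hsm : 16 * (Q + 1) * m * (κ + 4 * hs) ≤ 1 := by
    have h1 : 16 * (Q + 1) * m * κ ≤ 1 / 2 := by
      calc 16 * (Q + 1) * m * κ ≤ 16 * (Q + 1) * m * (1 / (32 * (Q + 1) * m)) := by gcongr
        _ = 1 / 2 := by field_simp; norm_num
    have h2 : 16 * (Q + 1) * m * (4 * hs) = 1 / 2 := by rw [hhs]; field_simp; norm_num
    linarith
  have hM1 : (VD D).real ({z | z ∈ S ∧ ‖cs'.x z‖ < (1 + 1) * s} ×ˢ univ) ≤
      (Q + 1) * (ome m * 4 ^ m) * s ^ m := by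
    rw [hW _ (by linarith)]
    have h1 := LowF14_471.Qx.mass_W_le h (δ := 1 / 8) (η := hs) (t := (1 + 1) * s)
      (by norm_num) hhs0.le hrat hK' (by positivity) (by nlinarith) (fun z hz hx => by
        refine (hnu z hz (by linarith)).trans ?_
        nlinarith)
    refine h1.trans ?_
    have h2 : (1 + κ + hs) * ((1 + 1) * s) ≤ 4 * s := by nlinarith
    calc (Q + 1 / 8) * (ome m * ((1 + κ + hs) * ((1 + 1) * s)) ^ m) ≤
        (Q + 1) * (ome m * (4 * s) ^ m) := by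
          gcongr
          norm_num
      _ = _ := by rw [mul_pow]; ring
  have hM2 : |(VD D).real ({z | z ∈ S ∧ ‖cs'.x z‖ < 1 / 4 * s} ×ˢ univ) -
      Q * volume.real (ball (0 : Euc m) (1 / 4 * s))| ≤
      1 / 4 * volume.real (ball (0 : Euc m) (1 / 4 * s)) := by
    rw [hW _ (by linarith)]
    have h1 := LowF14_471.Qx.mass_W h (δ := 1 / 8) (η := 4 * hs) (t := 1 / 4 * s)
      (by norm_num) le_rfl (by positivity) hsm hrat hK' hae (by positivity) (by linarith)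
      (fun z hz hx => by
        refine (hnu z hz (by linarith)).trans (le_of_eq (by ring)))
    rw [LowF17_471.vol_eq m (by positivity : 0 < 1 / 4 * s)]
    exact h1.trans (le_of_eq (by ring))
  -- the excess
  have hok := h.ok
  have hOn := On_of_Stat hok.cpt h.cx.st (h.Kz_U h.hs)
  have hf0 : ∀ p ∈ Kz π ρ x r W zh (h0 m Q ε) ×ˢ G m (m + n), 0 ≤ 2 * c.f p.1 :=
    fun p hpm => by have := hok.f_nonneg hpm.1; linarith
  have hSK : S ⊆ Kz π ρ x r W zh (h0 m Q ε) := fun z hz => hK' hz.1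
  have hVS : VK (VD D) S = ((VD D).restrict (Kz π ρ x r W zh (h0 m Q ε) ×ˢ univ)).restrict
      (S ×ˢ univ) := by
    unfold VK
    rw [Measure.restrict_restrict_of_subset (prod_mono_left hSK)]
  have hi : Integrable (fun p : Euc (m + n) × L (m + n) => 2 * c.f p.1)
      ((VD D).restrict (Kz π ρ x r W zh (h0 m Q ε) ×ˢ univ)) :=
    hOn.integrable hok.cpt (continuousOn_const.mul (lift hok.cf))
  have hiS : Integrable (fun p : Euc (m + n) × L (m + n) => 2 * c.f p.1) (VK (VD D) S) := by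
    rw [hVS]
    exact hi.integrableOn
  have hJ : ∫ p, 2 * c.f p.1 ∂(VK (VD D) S) ≤ H * s ^ (m + 2) := by
    refine le_trans ?_ hH
    rw [hVS]
    refine setIntegral_mono_set hi.integrableOn ?_
      (LE.le.eventuallyLE fun p (hp : p ∈ S ×ˢ univ) => hp.1.2)
    filter_upwards [ae_restrict_of_ae hOn.mem] with p hp
    exact hf0 p hp
  have hfS : ∀ᵐ p ∂(VK (VD D) S), 0 ≤ 2 * c.f p.1 := by
    filter_upwards [haeS] with p hp
    have := hok.f_nonneg (hSK hp)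
    linarith
  have hE1 : ∫ p in {z | ‖cs'.x z‖ < (1 + 1) * s} ×ˢ univ, 2 * cs'.f p.1 ∂(VK (VD D) S) ≤
      H * s ^ (m + 2) := by
    refine le_trans ?_ hJ
    have e1 : ∫ p in {z | ‖cs'.x z‖ < (1 + 1) * s} ×ˢ univ, 2 * cs'.f p.1 ∂(VK (VD D) S) =
        ∫ p in {z | ‖cs'.x z‖ < (1 + 1) * s} ×ˢ univ, 2 * c.f p.1 ∂(VK (VD D) S) := by
      refine integral_congr_ae ?_
      filter_upwards [ae_restrict_of_ae haeS] with p hp
      rw [hef p.1 hp]
    rw [e1]
    exact setIntegral_le_integral hiS hfS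
  have hE2 : ∫ p, gp (‖cs'.x p.1‖ ^ 2 / s ^ 2) * (2 * cs'.f p.1) ∂(VK (VD D) S) ≤
      H * s ^ (m + 2) := by
    refine le_trans ?_ hJ
    refine integral_mono_of_nonneg ?_ hiS ?_
    · filter_upwards [haeS, hfS] with p hp hf
      rw [hef p.1 hp]
      exact mul_nonneg (gp_nonneg _) hf
    · filter_upwards [haeS, hfS] with p hp hf
      rw [hef p.1 hp]
      calc gp (‖cs'.x p.1‖ ^ 2 / s ^ 2) * (2 * c.f p.1) ≤ 1 * (2 * c.f p.1) :=
            mul_le_mul_of_nonneg_right (gp_le _) hf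
        _ = _ := one_mul _
  -- the logarithm
  have hlogH : 1 ≤ Real.log (1 / H) := by
    rw [one_div, Real.log_inv]
    have := Real.log_le_log hH0 hHb
    rw [Real.log_exp] at this
    linarith
  have hlogH2 : 2 / δ ≤ Real.log (1 / H) := by
    rw [one_div, Real.log_inv]
    have := Real.log_le_log hH0 hHc
    rw [Real.log_exp] at this
    linarith
  have hpow : (Real.log (1 / H)) ^ (-(1:ℝ)) = (Real.log (1 / H))⁻¹ := Real.rpow_neg_one _
  -- the core
  have main := core π ρ zh (wz π x zh r W) 0 s κ 1 H U S D gp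
    h.hf h.opU hD (stationary_of_stat hD h.cx.st) hs0 hg (contDiff_wz h.ext.cd) hk hκa (by
      intro j hj1 hj3 Y _
      have e1 := h.ext.iter (π := π) (x := x) (z := zh) hr hj1 (hj3.trans h.hK) Y
      obtain ⟨i, rfl⟩ : ∃ i, j = i + 1 := ⟨j - 1, by omega⟩
      simp only [Nat.add_sub_cancel]
      have e2 : s ^ i ≤ r ^ i := by
        gcongr
        linarith
      calc s ^ i * ‖iteratedFDeriv ℝ (i + 1) (wz π x zh r W) Y‖ ≤
            r ^ i * (κ * r * r⁻¹ ^ (i + 1)) := by gcongr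
        _ = κ := by rw [inv_pow, pow_succ]; field_simp) one_pos le_rfl (by
      intro Y hY
      rw [mem_ball_zero_iff] at hY
      exact LowF13_471.Qx.msys h (by linarith)) (by
      have e0 : Foot_842.pt π ρ zh (wz π x zh r W) 0 = zh := by
        unfold Foot_842.pt
        rw [wz_zero, map_zero, map_zero, add_zero, add_zero]
      rw [e0]
      exact LowF13_471.Qx.closedBall_U h (by linarith)) hloc
    (by
      intro z hz
      rw [henu z hz]
      have := hnu z hz.1 hz.2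
      nlinarith) hM1 hM2 hH0 hHa (by
      rw [hpow]
      exact inv_le_one_of_one_le₀ hlogH) hE1 gp_nonneg (fun t _ => gp_le t) gp_zero gp_lip
  rw [hlog, bb_gp, hpow] at main
  -- comparison
  have hbz : bz (VD D) π ρ x r W zh (h0 m Q ε) Q l = bb cs' (VK (VD D) S) g3 Q l := by
    have e1 : bb c (VK (VD D) (Kz π ρ x r W zh (h0 m Q ε))) g3 Q l =
        bb c (VK (VD D) S) g3 Q l := by
      refine bb_cut hKz hSK ?_ (fun t ht => pf_cubic.pr.k0.zero t ht) Q
      filter_upwards [haeV] with p hp h1 h2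
      by_contra h3
      rw [not_le] at h3
      exact h2 ⟨hp ⟨h1, mem_univ _⟩, by
        show ‖c.x p.1‖ ≤ 2 * s
        linarith⟩
    have e2 := bb_radius (X0 := 0) h.gr hg hSc hSr hSt (VD D) g3 Q l
    exact e1.trans e2
  rw [hbz]
  refine main.trans ?_
  rw [hs2]
  have hs2p : 0 < s ^ (m + 2) := by positivity
  have a1 : (s ^ (m + 2))⁻¹ * ∫ p, gp (‖cs'.x p.1‖ ^ 2 / s ^ 2) * (2 * cs'.f p.1)
      ∂(VK (VD D) S) ≤ H := by
    rw [inv_mul_le_iff₀ hs2p]
    linarith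
  have a2 : Cf * κ ^ 2 ≤ δ / 2 := by
    have h1 : κ ^ 2 ≤ κ := by nlinarith
    have h2 : Cf * κ ≤ δ / 2 := by
      rw [le_div_iff₀ (by positivity)] at hκd
      linarith
    calc Cf * κ ^ 2 ≤ Cf * κ := by gcongr
      _ ≤ _ := h2
  have a3 : (Real.log (1 / H))⁻¹ ≤ δ / 2 := by
    have h1 : (Real.log (1 / H))⁻¹ ≤ (2 / δ)⁻¹ := by
      gcongr
    rwa [inv_div] at h1
  have a4 : Cf * κ ^ 2 * ((s ^ (m + 2))⁻¹ * ∫ p, gp (‖cs'.x p.1‖ ^ 2 / s ^ 2) * (2 * cs'.f p.1)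
      ∂(VK (VD D) S)) ≤ δ / 2 * H := by
    calc _ ≤ Cf * κ ^ 2 * H := by gcongr
      _ ≤ _ := by gcongr
  calc s ^ 2 * (Cf * κ ^ 2 * ((s ^ (m + 2))⁻¹ * ∫ p, gp (‖cs'.x p.1‖ ^ 2 / s ^ 2) * (2 * cs'.f p.1)
      ∂(VK (VD D) S)) + (Real.log (1 / H))⁻¹ * H) ≤ s ^ 2 * (δ / 2 * H + δ / 2 * H) := by gcongr
    _ = _ := by ring

end Crest.Agent.R234.LowF19_471
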