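import Mathlib

/-!
# Row 234, (F4) LOW FREQUENCY, part (AB) (helper471)

Pure real analysis, Mathlib only.  From the centre identities (394's form, with errors)
`I' = 2e + e1`, `E' = 2b + R + e2`, `E = e/2 + b`, `(e + e3)^2 ≤ I R`, `|e_i| ≤ t (e + I)`
to the two differential inequalities of 161's floating scale lemma for
`J = exp(-2l) I`, `g = exp(-2l) (E - I/2)`.
-/

set_option autoImplicit false

open Set Filter Topology

namespace Crest.Agent.R234.LowF1_471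

/-- pointwise algebra behind `-J' ≤ 4 g_- + 4 B + 4 t J` -/
theorem alg_I {I E e b B e1 t : ℝ} (hI : 0 ≤ I) (hE : E = e / 2 + b)
    (he1 : |e1| ≤ t * (e + I)) (ht0 : 0 ≤ t) (ht : t ≤ 1 / 16) (hb : b ≤ B) (hB : 0 ≤ B) :
    -(2 * e + e1 - 2 * I) ≤ 4 * max (-(E - I / 2)) 0 + 4 * B + 4 * t * I := by
  have h1 := (abs_le.1 he1).1
  have hm : 0 ≤ max (-(E - I / 2)) 0 := le_max_right _ _
  have hm' : -(E - I / 2) ≤ max (-(E - I / 2)) 0 := le_max_left _ _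
  have htI : 0 ≤ t * I := mul_nonneg ht0 hI
  by_cases hc : 0 ≤ 2 * e + e1 - 2 * I
  · nlinarith
  · have hc' : 2 * e + e1 - 2 * I < 0 := not_le.1 hc
    have h2 : e ≤ 2 * I := by
      by_contra hcon
      have h3 : 2 * I < e := not_le.1 hcon
      have h4 : t * (e + I) ≤ (1 / 16) * (e + I) :=
        mul_le_mul_of_nonneg_right ht (by linarith)
      linarith
    have h5 : t * (e + I) ≤ t * (3 * I) := mul_le_mul_of_nonneg_left (by linarith) ht0
    linarith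

/-- pointwise algebra behind `g' ≥ -8 t J` -/
theorem alg_g {I R e e1 e2 e3 t : ℝ} (hI : 0 < I) (he : 0 ≤ e) (hR : (e + e3) ^ 2 ≤ I * R)
    (he1 : |e1| ≤ t * (e + I)) (he2 : |e2| ≤ t * (e + I)) (he3 : |e3| ≤ t * (e + I))
    (ht0 : 0 ≤ t) (ht : t ≤ 1 / 16) :
    -(8 * t * I) ≤ R - 2 * e + I + e2 - e1 / 2 := by
  have h1 := abs_le.1 he1
  have h2 := abs_le.1 he2
  have h3 := abs_le.1 he3
  set X : ℝ := e + e3 - I with hX
  -- `(7/2) t (e + I) ≤ (56/15) t (|X| + 2 I)`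
  have h4 : e ≤ 16 / 15 * |X| + 17 / 15 * I := by
    have h5 : t * (e + I) ≤ (1 / 16) * (e + I) :=
      mul_le_mul_of_nonneg_right ht (by linarith)
    have h6 : X ≤ |X| := le_abs_self _
    have h7 : e = X + I - e3 := by rw [hX]; ring
    have h8 : -e3 ≤ (1 / 16) * (e + I) := by linarith
    linarith
  have h9 : t * (e + I) ≤ t * (16 / 15 * |X| + 32 / 15 * I) :=
    mul_le_mul_of_nonneg_left (by linarith) ht0
  have h10 : 0 ≤ I * (R - 2 * e + I + e2 - e1 / 2 + 8 * t * I) := by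
    have h11 : I * (R - 2 * e + I + e2 - e1 / 2 + 8 * t * I)
        = (I * R - (e + e3) ^ 2) + (X ^ 2 + I * (2 * e3 + e2 - e1 / 2) + 8 * t * I ^ 2) := by
      rw [hX]; ring
    rw [h11]
    have h12 : -(7 / 2 * (t * (e + I))) ≤ 2 * e3 + e2 - e1 / 2 := by linarith
    have h13 : -(7 / 2 * (t * (16 / 15 * |X| + 32 / 15 * I))) ≤ 2 * e3 + e2 - e1 / 2 := by
      linarith
    have h14 : I * (-(7 / 2 * (t * (16 / 15 * |X| + 32 / 15 * I))))
        ≤ I * (2 * e3 + e2 - e1 / 2) := mul_le_mul_of_nonneg_left h13 hI.le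
    have h15 : X ^ 2 = |X| ^ 2 := (sq_abs X).symm
    have h16 : 0 ≤ (|X| - 28 / 15 * (t * I)) ^ 2 := sq_nonneg _
    have h17 : (t * I) ^ 2 ≤ (1 / 16) * (t * I ^ 2) := by
      have : t * t ≤ (1 / 16) * t := mul_le_mul_of_nonneg_right ht ht0
      have h18 : t * t * I ^ 2 ≤ (1 / 16) * t * I ^ 2 :=
        mul_le_mul_of_nonneg_right this (sq_nonneg I)
      nlinarith
    have h19 : 0 ≤ t * I ^ 2 := mul_nonneg ht0 (sq_nonneg I)
    rw [h15]
    nlinarith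
  have h20 := (mul_nonneg_iff_of_pos_left hI).1 h10
  linarith

theorem hasDerivAt_exp_neg_two (l : ℝ) :
    HasDerivAt (fun l : ℝ => Real.exp (-(2 * l))) (-2 * Real.exp (-(2 * l))) l := by
  have h : HasDerivAt (fun l : ℝ => -(2 * l)) (-(2 * 1)) l :=
    ((hasDerivAt_id l).const_mul (2 : ℝ)).neg
  exact (HasDerivAt.exp h).congr_deriv (by ring)

/-- `J = exp(-2l) I` -/
theorem hasDerivAt_J {I : ℝ → ℝ} {l I' : ℝ} (h : HasDerivAt I I' l) :
    HasDerivAt (fun l => Real.exp (-(2 * l)) * I l)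
      (Real.exp (-(2 * l)) * (I' - 2 * I l)) l := by
  have h2 := (hasDerivAt_exp_neg_two l).mul h
  exact h2.congr_deriv (by ring)

/-- `g = exp(-2l) (E - I/2)` -/
theorem hasDerivAt_g {E I : ℝ → ℝ} {l E' I' : ℝ} (hE : HasDerivAt E E' l)
    (h : HasDerivAt I I' l) :
    HasDerivAt (fun l => Real.exp (-(2 * l)) * (E l - I l / 2))
      (Real.exp (-(2 * l)) * (E' - I' / 2 - 2 * E l + I l)) l := by
  have h2 := (hasDerivAt_exp_neg_two l).mul (hE.sub (h.div_const 2))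
  exact h2.congr_deriv (by simp only [Pi.sub_apply]; ring)

/-- (AB)(i): there is a derivative `J'` of `J` at `l` and `-J' ≤ 4 g_- + 4 B exp(-2l) + 4 t J`. -/
theorem ab_J {I : ℝ → ℝ} {l E e b B e1 t : ℝ} (hI : 0 ≤ I l) (hE : E = e / 2 + b)
    (hd : HasDerivAt I (2 * e + e1) l)
    (he1 : |e1| ≤ t * (e + I l)) (ht0 : 0 ≤ t) (ht : t ≤ 1 / 16) (hb : b ≤ B) (hB : 0 ≤ B) :
    ∃ J' : ℝ, HasDerivAt (fun l => Real.exp (-(2 * l)) * I l) J' l ∧
      -J' ≤ 4 * max (-(Real.exp (-(2 * l)) * (E - I l / 2))) 0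
        + 4 * (Real.exp (-(2 * l)) * B) + 4 * t * (Real.exp (-(2 * l)) * I l) := by
  refine ⟨_, hasDerivAt_J hd, ?_⟩
  have h := alg_I hI hE he1 ht0 ht hb hB
  have hp : 0 < Real.exp (-(2 * l)) := Real.exp_pos _
  have h2 := mul_le_mul_of_nonneg_left h hp.le
  have h3 : Real.exp (-(2 * l)) * max (-(E - I l / 2)) 0
      = max (-(Real.exp (-(2 * l)) * (E - I l / 2))) 0 := by
    rw [mul_max_of_nonneg _ _ hp.le]
    ring_nf
  nlinarith

/-- (AB)(ii): there is a derivative `g'` of `g` at `l` and `-(8 t J) ≤ g'`. -/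
theorem ab_g {I E : ℝ → ℝ} {l e b R e1 e2 e3 t : ℝ} (hI : 0 < I l) (he : 0 ≤ e)
    (hE : E l = e / 2 + b)
    (hd : HasDerivAt I (2 * e + e1) l) (hdE : HasDerivAt E (2 * b + R + e2) l)
    (hR : (e + e3) ^ 2 ≤ I l * R)
    (he1 : |e1| ≤ t * (e + I l)) (he2 : |e2| ≤ t * (e + I l)) (he3 : |e3| ≤ t * (e + I l))
    (ht0 : 0 ≤ t) (ht : t ≤ 1 / 16) :
    ∃ g' : ℝ, HasDerivAt (fun l => Real.exp (-(2 * l)) * (E l - I l / 2)) g' l ∧
      -(8 * t * (Real.exp (-(2 * l)) * I l)) ≤ g' := by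
  refine ⟨_, hasDerivAt_g hdE hd, ?_⟩
  have h := alg_g hI he hR he1 he2 he3 ht0 ht
  have hp : 0 < Real.exp (-(2 * l)) := Real.exp_pos _
  have h2 := mul_le_mul_of_nonneg_left h hp.le
  have h3 : 2 * b + R + e2 - (2 * e + e1) / 2 - 2 * E l + I l
      = R - 2 * e + I l + e2 - e1 / 2 := by rw [hE]; ring
  rw [h3]
  nlinarith

end Crest.Agent.R234.LowF1_471
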