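import Crest.Agent.R234.LowF19_471

/-!
# Row 234 (helper471): `F3E` (field `f3` of `Skel4_884.Leaves`) from F3 at the scale 1
-/

set_option autoImplicit false

open Crest.GeometryTopology.Submanifold

namespace Crest.Agent.R234.LowF20_471

/-- **`F3E` from F3 at the scale 1.** -/
theorem f3E_of (hF : ∀ m n Q : ℕ, 3 ≤ m → 1 ≤ n → 1 ≤ Q → F36_354.F3P1 m n (m + n) Q) :
    Main_456.F3E := fun m n hm hn =>
  LowF19_471.f3S_of (by omega) fun Q hQ => F3t_433.f3Ps_of (by omega) (hF m n Q hm hn hQ)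

end Crest.Agent.R234.LowF20_471
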