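import Crest.Agent.R234.LowF20_471
import Crest.Agent.R234.F41_354
import Crest.Agent.R234.Fin10_618

/-!
# Row 234 (helper471): F3 closed: `F3P1`, `F3E`, `SgE`
-/

set_option autoImplicit false

open Crest.GeometryTopology.Submanifold

namespace Crest.Agent.R234.LowF21_471

/-- **F3 at the scale 1** (354's LEP + 618's FIN) -/
theorem f3P1 (m n Q : ℕ) (hm : 3 ≤ m) (hn : 1 ≤ n) (hQ : 1 ≤ Q) :
    F36_354.F3P1 m n (m + n) Q :=
  Fin_618.fin (by omega) (F40_354.lep m n (m + n) Q hm hn hQ)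

/-- **field `f3`** -/
theorem f3E : Main_456.F3E := LowF20_471.f3E_of f3P1

/-- **field `sg`** -/
theorem sgE : Main_456.SgE := Qp_534.sgE_of f3P1

end Crest.Agent.R234.LowF21_471
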