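import Crest.Agent.R234.Vf6_884
import Crest.Agent.R234.Cy1_870

/-!
# Row 234, (F4) LOW FREQUENCY, part (BOT) (helper471)

* `mass_profile` : `Q ≤ Th m V z`, `g` a nonincreasing profile (870's `Ker`) ==>
  `Q ∫ g(|v|²/s²) dv ≤ ∫ g(|p - z|²/s²) dV`.
* `bot_ptw`, `bot_int` : comparison of `g(ζ)` with `g(ξ) + g1(ξ) η`, `ζ ≥ ξ + η - 2 q`.
-/

set_option autoImplicit false

open MeasureTheory Set Filter Topology Crest.GeometryTopology.Submanifold
open Crest.Agent.R234.Vf_884 Crest.Agent.R234.Cy_870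
open scoped ENNReal NNReal

noncomputable section

namespace Crest.Agent.R234.LowF2_471

variable {g g1 : ℝ → ℝ}

theorem antitoneOn (hg : Ker g g1) (ha : ∀ t, 0 ≤ t → g1 t ≤ 0) : AntitoneOn g (Ici 0) := by
  refine antitoneOn_of_deriv_nonpos (convex_Ici 0) hg.continuous.continuousOn ?_ ?_
  · intro t _
    exact (hg.der t).differentiableAt.differentiableWithinAt
  · intro t ht
    rw [interior_Ici] at ht
    rw [(hg.der t).deriv]
    exact ha t (le_of_lt ht)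

theorem g_nonneg (hg : Ker g g1) (ha : ∀ t, 0 ≤ t → g1 t ≤ 0) {t : ℝ} (ht : 0 ≤ t) : 0 ≤ g t := by
  rcases le_or_gt 1 t with h | h
  · exact (hg.zero t h).ge
  · have := antitoneOn hg ha (show t ∈ Ici (0:ℝ) from ht) (show (1:ℝ) ∈ Ici (0:ℝ) by
      simp) h.le
    rwa [hg.zero 1 le_rfl] at this

/-- superlevel sets of the profile are intervals `[0, a)` -/
theorem superlevel (hg : Ker g g1) (ha : ∀ t, 0 ≤ t → g1 t ≤ 0) {t : ℝ} (ht : 0 ≤ t) :
    ∃ a : ℝ, 0 ≤ a ∧ a ≤ 1 ∧ ∀ τ, 0 ≤ τ → (t < g τ ↔ τ < a) := by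
  set S : Set ℝ := {τ | 0 ≤ τ ∧ g τ ≤ t} with hS
  have h1 : (1:ℝ) ∈ S := ⟨zero_le_one, by rw [hg.zero 1 le_rfl]; exact ht⟩
  have hbdd : BddBelow S := ⟨0, fun τ hτ => hτ.1⟩
  have hcl : IsClosed S := by
    have : S = Ici 0 ∩ g ⁻¹' Iic t := by ext; simp [hS]
    rw [this]
    exact isClosed_Ici.inter (isClosed_Iic.preimage hg.continuous)
  have hmem : sInf S ∈ S := hcl.csInf_mem ⟨1, h1⟩ hbdd
  refine ⟨sInf S, hmem.1, csInf_le hbdd h1, fun τ hτ => ⟨fun h => ?_, fun h => ?_⟩⟩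
  · by_contra hcon
    have h2 := antitoneOn hg ha (show sInf S ∈ Ici (0:ℝ) from hmem.1) (show τ ∈ Ici (0:ℝ) from hτ)
      (not_lt.1 hcon)
    linarith [hmem.2]
  · by_contra hcon
    exact absurd (csInf_le hbdd (show τ ∈ S from ⟨hτ, not_lt.1 hcon⟩)) (not_le.2 h)

variable {m k : ℕ} {U : Set (Euc k)} {V : Measure (Euc k × L k)}

/-- weighted mass ratio, lower integral form -/
theorem mass_profile_lintegral (hV : Stat m k U V) (hm : 1 ≤ m) {z : Euc k} {s : ℝ} (hs : 0 < s)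
    (hU : Metric.ball z s ⊆ U) {c : ℝ≥0∞} (hc : c ≤ Th m V z)
    (hg : Ker g g1) (ha : ∀ t, 0 ≤ t → g1 t ≤ 0) :
    c * ∫⁻ v : Euc m, ENNReal.ofReal (g ((s ^ 2)⁻¹ * ‖v‖ ^ 2)) ≤
      ∫⁻ p, ENNReal.ofReal (g ((s ^ 2)⁻¹ * ‖p.1 - z‖ ^ 2)) ∂V := by
  have hs2 : (0:ℝ) < s ^ 2 := by positivity
  have hn1 : ∀ v : Euc m, 0 ≤ (s ^ 2)⁻¹ * ‖v‖ ^ 2 := fun v => by positivity
  have hn2 : ∀ p : Euc k × L k, 0 ≤ (s ^ 2)⁻¹ * ‖p.1 - z‖ ^ 2 := fun v => by positivity
  rw [lintegral_eq_lintegral_meas_lt volume (f := fun v : Euc m => g ((s ^ 2)⁻¹ * ‖v‖ ^ 2))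
      (Eventually.of_forall fun v => g_nonneg hg ha (hn1 v))
      (hg.continuous.comp (by fun_prop)).aemeasurable,
    lintegral_eq_lintegral_meas_lt V (f := fun p : Euc k × L k => g ((s ^ 2)⁻¹ * ‖p.1 - z‖ ^ 2))
      (Eventually.of_forall fun v => g_nonneg hg ha (hn2 v))
      (hg.continuous.comp (by fun_prop)).aemeasurable]
  rw [← lintegral_const_mul' _ _ (hc.trans_lt ?_).ne]
  rotate_left
  · rcases eq_or_ne (Th m V z) ⊤ with h | h
    · exact absurd h (by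
        have h2 := (Th_le_rat hV hm (half_pos hs)
          ((Metric.ball_subset_ball (by linarith)).trans hU))
        have h3 := rat_lt_top hV (half_pos hs)
          ((Metric.closedBall_subset_ball (by linarith : s / 2 < s)).trans hU)
        exact (h2.trans_lt h3).ne)
    · exact lt_top_iff_ne_top.2 h
  refine setLIntegral_mono' measurableSet_Ioi fun t ht => ?_
  obtain ⟨a, ha0, ha1, hiff⟩ := superlevel hg ha (le_of_lt (mem_Ioi.1 ht))
  rcases ha0.eq_or_lt with h0 | h0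
  · have : {v : Euc m | t < g ((s ^ 2)⁻¹ * ‖v‖ ^ 2)} = ∅ := by
      ext v
      simp only [mem_ofPred_eq, mem_empty_iff_false, iff_false]
      rw [hiff _ (hn1 v), ← h0]
      exact not_lt.2 (hn1 v)
    rw [this, measure_empty, mul_zero]
    exact zero_le
  · set ρ : ℝ := s * Real.sqrt a with hρ
    have hsa : 0 < Real.sqrt a := Real.sqrt_pos.2 h0
    have hρ0 : 0 < ρ := mul_pos hs hsa
    have hρs : ρ ≤ s := by
      have : Real.sqrt a ≤ 1 := Real.sqrt_le_one.2 ha1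
      calc ρ = s * Real.sqrt a := rfl
        _ ≤ s * 1 := mul_le_mul_of_nonneg_left this hs.le
        _ = s := mul_one s
    have key : ∀ x : ℝ, 0 ≤ x → (t < g ((s ^ 2)⁻¹ * x ^ 2) ↔ x < ρ) := by
      intro x hx
      rw [hiff _ (by positivity), hρ]
      rw [inv_mul_lt_iff₀ hs2]
      have h5 : s ^ 2 * a = (s * Real.sqrt a) ^ 2 := by
        rw [mul_pow, Real.sq_sqrt ha0]
      rw [h5]
      exact pow_lt_pow_iff_left₀ hx (by positivity) two_ne_zero
    have e1 : {v : Euc m | t < g ((s ^ 2)⁻¹ * ‖v‖ ^ 2)} = Metric.ball (0 : Euc m) ρ := by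
      ext v
      rw [mem_ofPred_eq, key _ (norm_nonneg v), mem_ball_zero_iff]
    have e2 : {p : Euc k × L k | t < g ((s ^ 2)⁻¹ * ‖p.1 - z‖ ^ 2)} =
        Prod.fst ⁻¹' Metric.ball z ρ := by
      ext p
      rw [mem_ofPred_eq, key _ (norm_nonneg _), mem_preimage, Metric.mem_ball, dist_eq_norm]
    rw [e1, e2, ← mass_apply V measurableSet_ball, volume_ball_eq m 0 hρ0]
    exact mul_le_mass hV hm hρ0 ((Metric.ball_subset_ball hρs).trans hU) hc

theorem integrable_profile (hV : Stat m k U V) {z : Euc k} {s : ℝ} (hs : 0 < s)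
    (hU : Metric.closedBall z s ⊆ U) (hg : Ker g g1) :
    Integrable (fun p : Euc k × L k => g ((s ^ 2)⁻¹ * ‖p.1 - z‖ ^ 2)) V := by
  obtain ⟨K, hK0, hK, -, -⟩ := hg.exists_bound
  have hfin : V (Prod.fst ⁻¹' Metric.closedBall z s) < ⊤ := by
    rw [← mass_apply V Metric.isClosed_closedBall.measurableSet]
    exact mass_lt_top hV (isCompact_closedBall z s) hU
  have hI : Integrable ((Prod.fst ⁻¹' Metric.closedBall z s : Set (Euc k × L k)).indicator
      (fun _ => K)) V := by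
    rw [integrable_indicator_iff (measurable_fst Metric.isClosed_closedBall.measurableSet)]
    exact integrableOn_const hfin.ne
  refine hI.mono' (hg.continuous.comp (by fun_prop)).aestronglyMeasurable
    (Eventually.of_forall fun p => ?_)
  by_cases hp : p ∈ (Prod.fst ⁻¹' Metric.closedBall z s : Set (Euc k × L k))
  · rw [indicator_of_mem hp]
    exact hK _ (by positivity)
  · rw [indicator_of_notMem hp]
    have : s < ‖p.1 - z‖ := by
      have h2 : ¬ p.1 ∈ Metric.closedBall z s := hp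
      rw [Metric.mem_closedBall, dist_eq_norm, not_le] at h2
      exact h2
    have h3 : 1 ≤ (s ^ 2)⁻¹ * ‖p.1 - z‖ ^ 2 := by
      rw [inv_mul_eq_div, one_le_div (by positivity)]
      exact pow_le_pow_left₀ hs.le this.le 2
    rw [hg.zero _ h3, norm_zero]

/-- **weighted mass ratio**: `Q ∫ g(|v|²/s²) dv ≤ ∫ g(|p - z|²/s²) dV`. -/
theorem mass_profile (hV : Stat m k U V) (hm : 1 ≤ m) {z : Euc k} {s : ℝ} (hs : 0 < s)
    (hU : Metric.closedBall z s ⊆ U) {Q : ℝ} (hQ : 0 ≤ Q) (hc : ENNReal.ofReal Q ≤ Th m V z)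
    (hg : Ker g g1) (ha : ∀ t, 0 ≤ t → g1 t ≤ 0) :
    Q * ∫ v : Euc m, g ((s ^ 2)⁻¹ * ‖v‖ ^ 2) ≤
      ∫ p, g ((s ^ 2)⁻¹ * ‖p.1 - z‖ ^ 2) ∂V := by
  have h := mass_profile_lintegral hV hm hs (Metric.ball_subset_closedBall.trans hU) hc hg ha
  have hI := integrable_profile hV hs hU hg
  rw [integral_eq_lintegral_of_nonneg_ae
      (Eventually.of_forall fun v => g_nonneg hg ha (by positivity))
      (hg.continuous.comp (by fun_prop)).aestronglyMeasurable,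
    integral_eq_lintegral_of_nonneg_ae
      (Eventually.of_forall fun v => g_nonneg hg ha (by positivity))
      (hg.continuous.comp (by fun_prop)).aestronglyMeasurable]
  have hfin : ∫⁻ p, ENNReal.ofReal (g ((s ^ 2)⁻¹ * ‖p.1 - z‖ ^ 2)) ∂V ≠ ⊤ := by
    have h2 := hI.hasFiniteIntegral
    rw [hasFiniteIntegral_iff_ofReal
      (Eventually.of_forall fun v => g_nonneg hg ha (by positivity))] at h2
    exact h2.ne
  have h3 := ENNReal.toReal_mono hfin h
  rwa [ENNReal.toReal_mul, ENNReal.toReal_ofReal hQ] at h3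

/-! ### comparison of the kernel of the true ball with the kernel of the chart -/

/-- pointwise comparison -/
theorem bot_ptw (hg : Ker g g1) (ha : ∀ t, 0 ≤ t → g1 t ≤ 0) {Lp : ℝ} (hL : 0 ≤ Lp)
    (hLip : ∀ a b, 0 ≤ a → 0 ≤ b → |g1 a - g1 b| ≤ Lp * |a - b|)
    {ξ η ζ q : ℝ} (hξ : 0 ≤ ξ) (hζ : 0 ≤ ζ) (h : ξ + η - 2 * q ≤ ζ) :
    g ζ ≤ g ξ + g1 ξ * (η - 2 * q) + Lp * (η - 2 * q) ^ 2 := by
  set b : ℝ := max (ξ + η - 2 * q) 0 with hb
  have hb0 : 0 ≤ b := le_max_right _ _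
  have hbζ : b ≤ ζ := max_le h hζ
  have h1 : g ζ ≤ g b := antitoneOn hg ha (show b ∈ Ici (0:ℝ) from hb0)
    (show ζ ∈ Ici (0:ℝ) from hζ) hbζ
  have h2 : η - 2 * q ≤ b - ξ := by
    have := le_max_left (ξ + η - 2 * q) 0
    linarith
  have h3 : (b - ξ) ^ 2 ≤ (η - 2 * q) ^ 2 := by
    rcases le_total 0 (ξ + η - 2 * q) with h4 | h4
    · have : b - ξ = η - 2 * q := by rw [hb, max_eq_left h4]; ring
      rw [this]
    · have h5 : b = 0 := by rw [hb, max_eq_right h4]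
      rw [h5]
      nlinarith
  -- Taylor
  have h6 : g b ≤ g ξ + g1 ξ * (b - ξ) + Lp * (b - ξ) ^ 2 := by
    rcases lt_trichotomy b ξ with hlt | heq | hgt
    · obtain ⟨c, hc, hc2⟩ := exists_hasDerivAt_eq_slope g g1 hlt hg.continuous.continuousOn
        (fun x _ => hg.der x)
      have hc0 : 0 ≤ c := hb0.trans hc.1.le
      have h7 : g ξ - g b = g1 c * (ξ - b) := by
        rw [hc2]; field_simp [(sub_pos.2 hlt).ne']
      have h8 := hLip c ξ hc0 hξ
      have h9 : |c - ξ| ≤ ξ - b := by rw [abs_of_nonpos (by linarith [hc.2])]; linarith [hc.1]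
      have h10 : |g1 c - g1 ξ| ≤ Lp * (ξ - b) := h8.trans (mul_le_mul_of_nonneg_left h9 hL)
      have h11 := (abs_le.1 h10).1
      have h12 : 0 < ξ - b := sub_pos.2 hlt
      nlinarith
    · rw [heq]; simp
    · obtain ⟨c, hc, hc2⟩ := exists_hasDerivAt_eq_slope g g1 hgt hg.continuous.continuousOn
        (fun x _ => hg.der x)
      have hc0 : 0 ≤ c := hξ.trans hc.1.le
      have h7 : g b - g ξ = g1 c * (b - ξ) := by
        rw [hc2]; field_simp [(sub_pos.2 hgt).ne']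
      have h8 := hLip c ξ hc0 hξ
      have h9 : |c - ξ| ≤ b - ξ := by rw [abs_of_nonneg (by linarith [hc.1])]; linarith [hc.2]
      have h10 : |g1 c - g1 ξ| ≤ Lp * (b - ξ) := h8.trans (mul_le_mul_of_nonneg_left h9 hL)
      have h11 := (abs_le.1 h10).2
      have h12 : 0 < b - ξ := sub_pos.2 hgt
      nlinarith
  have h13 : g1 ξ * (b - ξ) ≤ g1 ξ * (η - 2 * q) := mul_le_mul_of_nonpos_left h2 (ha ξ hξ)
  have h14 : Lp * (b - ξ) ^ 2 ≤ Lp * (η - 2 * q) ^ 2 := mul_le_mul_of_nonneg_left h3 hL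
  linarith

/-- integrated comparison.  `|q| ≤ a`, `q² ≤ κ² η + a2`, `η ≤ h²`, all on the support of `μ`
(the chart domain). -/
theorem bot_int {Ω : Type*} [MeasurableSpace Ω] {μ : Measure Ω} [IsFiniteMeasure μ]
    (hg : Ker g g1) (ha : ∀ t, 0 ≤ t → g1 t ≤ 0) {Lp : ℝ} (hL : 0 ≤ Lp)
    (hLip : ∀ a b, 0 ≤ a → 0 ≤ b → |g1 a - g1 b| ≤ Lp * |a - b|)
    {ξ η ζ q : Ω → ℝ} (mξ : AEMeasurable ξ μ) (mη : AEMeasurable η μ) (mζ : AEMeasurable ζ μ)
    {κ h a a2 : ℝ}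
    (hξ : ∀ᵐ p ∂μ, 0 ≤ ξ p) (hη : ∀ᵐ p ∂μ, 0 ≤ η p) (hηh : ∀ᵐ p ∂μ, η p ≤ h ^ 2)
    (hζ : ∀ᵐ p ∂μ, 0 ≤ ζ p) (hq : ∀ᵐ p ∂μ, |q p| ≤ a)
    (hq2 : ∀ᵐ p ∂μ, (q p) ^ 2 ≤ κ ^ 2 * η p + a2)
    (hk : ∀ᵐ p ∂μ, ξ p + η p - 2 * q p ≤ ζ p) :
    ∫ p, g (ζ p) ∂μ ≤ ∫ p, g (ξ p) ∂μ + ∫ p, g1 (ξ p) * η p ∂μ
      + 2 * a * ∫ p, -g1 (ξ p) ∂μ + 2 * Lp * (h ^ 2 + 4 * κ ^ 2) * ∫ p, η p ∂μ
      + 8 * Lp * a2 * μ.real univ := by
  obtain ⟨K, hK0, hK, hK1, -⟩ := hg.exists_bound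
  have i1 : Integrable (fun p => g (ζ p)) μ :=
    Integrable.mono' (integrable_const K)
      (hg.continuous.measurable.comp_aemeasurable mζ).aestronglyMeasurable
      (by filter_upwards [hζ] with p hp using hK _ hp)
  have i2 : Integrable (fun p => g (ξ p)) μ :=
    Integrable.mono' (integrable_const K)
      (hg.continuous.measurable.comp_aemeasurable mξ).aestronglyMeasurable
      (by filter_upwards [hξ] with p hp using hK _ hp)
  have i3 : Integrable (fun p => g1 (ξ p)) μ :=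
    Integrable.mono' (integrable_const K)
      (hg.cont.measurable.comp_aemeasurable mξ).aestronglyMeasurable
      (by filter_upwards [hξ] with p hp using hK1 _ hp)
  have i4 : Integrable (fun p => η p) μ :=
    Integrable.mono' (integrable_const (h ^ 2)) mη.aestronglyMeasurable
      (by filter_upwards [hη, hηh] with p hp hp2
          rw [Real.norm_eq_abs, abs_of_nonneg hp]; exact hp2)
  have i5 : Integrable (fun p => g1 (ξ p) * η p) μ :=
    Integrable.mono' (integrable_const (K * h ^ 2))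
      ((hg.cont.measurable.comp_aemeasurable mξ).mul mη).aestronglyMeasurable
      (by filter_upwards [hξ, hη, hηh] with p hp0 hp hp2
          rw [Real.norm_eq_abs, abs_mul, abs_of_nonneg hp]
          exact mul_le_mul (hK1 _ hp0) hp2 hp hK0)
  have hpt : ∀ᵐ p ∂μ, g (ζ p) ≤ g (ξ p) + g1 (ξ p) * η p + 2 * a * (-g1 (ξ p))
      + 2 * Lp * (h ^ 2 + 4 * κ ^ 2) * η p + 8 * Lp * a2 := by
    filter_upwards [hξ, hη, hηh, hζ, hq, hq2, hk] with p p1 p2 p3 p4 p5 p6 p7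
    have h1 := bot_ptw hg ha hL hLip p1 p4 p7
    have h2 : g1 (ξ p) * (η p - 2 * q p) ≤ g1 (ξ p) * η p + 2 * a * (-g1 (ξ p)) := by
      have h3 : 0 ≤ -g1 (ξ p) := by linarith [ha _ p1]
      have h4 : q p ≤ a := (le_abs_self _).trans p5
      nlinarith
    have h5 : Lp * (η p - 2 * q p) ^ 2 ≤ 2 * Lp * (h ^ 2 + 4 * κ ^ 2) * η p + 8 * Lp * a2 := by
      have h6 : (η p - 2 * q p) ^ 2 ≤ 2 * (η p ^ 2 + 4 * q p ^ 2) := by
        nlinarith [sq_nonneg (η p + 2 * q p)]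
      have h7 : η p ^ 2 ≤ h ^ 2 * η p := by nlinarith
      have h8 : 2 * (η p ^ 2 + 4 * q p ^ 2) ≤ 2 * ((h ^ 2 + 4 * κ ^ 2) * η p + 4 * a2) := by
        nlinarith
      calc Lp * (η p - 2 * q p) ^ 2 ≤ Lp * (2 * ((h ^ 2 + 4 * κ ^ 2) * η p + 4 * a2)) :=
            mul_le_mul_of_nonneg_left (h6.trans h8) hL
        _ = _ := by ring
    linarith
  have j1 : Integrable (fun p => g (ξ p) + g1 (ξ p) * η p) μ := i2.add i5
  have j2 : Integrable (fun p => 2 * a * (-g1 (ξ p))) μ := i3.neg.const_mul (2 * a)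
  have j3 : Integrable (fun p => g (ξ p) + g1 (ξ p) * η p + 2 * a * (-g1 (ξ p))) μ := j1.add j2
  have j4 : Integrable (fun p => 2 * Lp * (h ^ 2 + 4 * κ ^ 2) * η p) μ := i4.const_mul _
  have j5 : Integrable (fun p => g (ξ p) + g1 (ξ p) * η p + 2 * a * (-g1 (ξ p))
      + 2 * Lp * (h ^ 2 + 4 * κ ^ 2) * η p) μ := j3.add j4
  have j6 : Integrable (fun p => g (ξ p) + g1 (ξ p) * η p + 2 * a * (-g1 (ξ p))
      + 2 * Lp * (h ^ 2 + 4 * κ ^ 2) * η p + 8 * Lp * a2) μ := j5.add (integrable_const _)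
  refine (integral_mono_ae i1 j6 hpt).trans (le_of_eq ?_)
  rw [integral_add j5 (integrable_const _), integral_add j3 j4, integral_add j1 j2,
    integral_add i2 i5, integral_const_mul, integral_const_mul, integral_const, smul_eq_mul]
  ring

end Crest.Agent.R234.LowF2_471
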