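import Crest.Agent.R234.LowF2_471

/-!
# Row 234, (F4) LOW FREQUENCY, part (BOT), assembled (helper471)

`bottom` : the bottom inequality at one scale `s` for any chart data `ξ = |x|²/s²`, `η = |B y|²/s²`,
weights `w1 = 1/j`, `w2 = μ/j`.
-/

set_option autoImplicit false

open MeasureTheory Set Filter Topology Crest.GeometryTopology.Submanifold
open Crest.Agent.R234.Vf_884 Crest.Agent.R234.Cy_870
open scoped ENNReal NNReal

noncomputable section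

namespace Crest.Agent.R234.LowF3_471

open Crest.Agent.R234.LowF2_471

variable {g g1 : ℝ → ℝ} {m k : ℕ} {U : Set (Euc k)} {V : Measure (Euc k × L k)}

/-- the true ball kernel only sees the chart domain -/
theorem integral_eq_dom {z : Euc k} {s : ℝ} (hs : 0 < s) (hg : Ker g g1)
    {Dm : Set (Euc k × L k)} (hDm : MeasurableSet Dm)
    (hcov : ∀ᵐ p ∂V, ‖p.1 - z‖ < s → p ∈ Dm) :
    ∫ p in Dm, g ((s ^ 2)⁻¹ * ‖p.1 - z‖ ^ 2) ∂V = ∫ p, g ((s ^ 2)⁻¹ * ‖p.1 - z‖ ^ 2) ∂V := by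
  rw [← integral_indicator hDm]
  refine integral_congr_ae ?_
  filter_upwards [hcov] with p hp
  by_cases h : p ∈ Dm
  · rw [indicator_of_mem h]
  · rw [indicator_of_notMem h]
    have h2 : s ≤ ‖p.1 - z‖ := by
      by_contra hcon
      exact h (hp (not_le.1 hcon))
    have h3 : 1 ≤ (s ^ 2)⁻¹ * ‖p.1 - z‖ ^ 2 := by
      rw [inv_mul_eq_div, one_le_div (by positivity)]
      exact pow_le_pow_left₀ hs.le h2 2
    rw [hg.zero _ h3]

/-- **bottom inequality** at scale `s`, chart data arbitrary. -/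
theorem bottom (hV : Stat m k U V) (hm : 1 ≤ m) {z : Euc k} {s : ℝ} (hs : 0 < s)
    (hU : Metric.closedBall z s ⊆ U) {Q : ℝ} (hQ : 0 ≤ Q) (hc : ENNReal.ofReal Q ≤ Th m V z)
    (hg : Ker g g1) (ha : ∀ t, 0 ≤ t → g1 t ≤ 0) {Lp : ℝ} (hL : 0 ≤ Lp)
    (hLip : ∀ a b, 0 ≤ a → 0 ≤ b → |g1 a - g1 b| ≤ Lp * |a - b|)
    {Dm : Set (Euc k × L k)} (hDm : MeasurableSet Dm) (hfin : V Dm < ⊤)
    (hcov : ∀ᵐ p ∂V, ‖p.1 - z‖ < s → p ∈ Dm)
    {ξ η q w1 w2 : Euc k × L k → ℝ} (mξ : AEMeasurable ξ (V.restrict Dm))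
    (mη : AEMeasurable η (V.restrict Dm)) (mw1 : AEMeasurable w1 (V.restrict Dm))
    (mw2 : AEMeasurable w2 (V.restrict Dm)) {κ h a a2 κw : ℝ}
    (hξ : ∀ᵐ p ∂(V.restrict Dm), 0 ≤ ξ p) (hη : ∀ᵐ p ∂(V.restrict Dm), 0 ≤ η p)
    (hηh : ∀ᵐ p ∂(V.restrict Dm), η p ≤ h ^ 2)
    (hq : ∀ᵐ p ∂(V.restrict Dm), |q p| ≤ a)
    (hq2 : ∀ᵐ p ∂(V.restrict Dm), (q p) ^ 2 ≤ κ ^ 2 * η p + a2)
    (hw1 : ∀ᵐ p ∂(V.restrict Dm), |w1 p - 1| ≤ κw)
    (hw2 : ∀ᵐ p ∂(V.restrict Dm), |w2 p - 1| ≤ κw)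
    (hk : ∀ᵐ p ∂(V.restrict Dm), ξ p + η p - 2 * q p ≤ (s ^ 2)⁻¹ * ‖p.1 - z‖ ^ 2) :
    Q * ∫ v : Euc m, g ((s ^ 2)⁻¹ * ‖v‖ ^ 2) ≤
      ∫ p in Dm, g (ξ p) * w1 p ∂V + ∫ p in Dm, g1 (ξ p) * η p * w2 p ∂V
      + (2 * a * ∫ p in Dm, -g1 (ξ p) ∂V
        + 2 * Lp * (h ^ 2 + 4 * κ ^ 2) * ∫ p in Dm, η p ∂V
        + 8 * Lp * a2 * V.real Dm
        + κw * (∫ p in Dm, g (ξ p) ∂V + ∫ p in Dm, -g1 (ξ p) * η p ∂V)) := by
  have hfm : IsFiniteMeasure (V.restrict Dm) := ⟨by rwa [Measure.restrict_apply_univ]⟩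
  have hmp := mass_profile hV hm hs hU hQ hc hg ha
  rw [← integral_eq_dom hs hg hDm hcov] at hmp
  have hζ : ∀ᵐ p ∂(V.restrict Dm), 0 ≤ (s ^ 2)⁻¹ * ‖p.1 - z‖ ^ 2 :=
    Eventually.of_forall fun p => by positivity
  have hb := bot_int (μ := V.restrict Dm) hg ha hL hLip mξ mη
    (ζ := fun p => (s ^ 2)⁻¹ * ‖p.1 - z‖ ^ 2) (by fun_prop) hξ hη hηh hζ hq hq2 hk
  rw [measureReal_restrict_apply_univ] at hb
  obtain ⟨K, hK0, hK, hK1, -⟩ := hg.exists_bound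
  have i2 : Integrable (fun p => g (ξ p)) (V.restrict Dm) :=
    Integrable.mono' (integrable_const K)
      (hg.continuous.measurable.comp_aemeasurable mξ).aestronglyMeasurable
      (by filter_upwards [hξ] with p hp using hK _ hp)
  have i5 : Integrable (fun p => g1 (ξ p) * η p) (V.restrict Dm) :=
    Integrable.mono' (integrable_const (K * h ^ 2))
      ((hg.cont.measurable.comp_aemeasurable mξ).mul mη).aestronglyMeasurable
      (by filter_upwards [hξ, hη, hηh] with p hp0 hp hp2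
          rw [Real.norm_eq_abs, abs_mul, abs_of_nonneg hp]
          exact mul_le_mul (hK1 _ hp0) hp2 hp hK0)
  have bdd : ∀ w : Euc k × L k → ℝ, (∀ᵐ p ∂(V.restrict Dm), |w p - 1| ≤ κw) →
      ∀ᵐ p ∂(V.restrict Dm), ‖w p‖ ≤ 1 + κw := by
    intro w hw
    filter_upwards [hw] with p hp
    rw [Real.norm_eq_abs]
    have h1 := abs_le.1 hp
    exact abs_le.2 ⟨by linarith, by linarith⟩
  have i6 : Integrable (fun p => g (ξ p) * w1 p) (V.restrict Dm) :=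
    i2.mul_bdd mw1.aestronglyMeasurable (bdd w1 hw1)
  have i7 : Integrable (fun p => g1 (ξ p) * η p * w2 p) (V.restrict Dm) :=
    i5.mul_bdd mw2.aestronglyMeasurable (bdd w2 hw2)
  have h1 : ∫ p in Dm, g (ξ p) ∂V ≤ ∫ p in Dm, g (ξ p) * w1 p ∂V
      + κw * ∫ p in Dm, g (ξ p) ∂V := by
    rw [← integral_const_mul, ← integral_add i6 (i2.const_mul (κw))]
    refine integral_mono_ae i2 (i6.add (i2.const_mul (κw))) ?_
    filter_upwards [hξ, hw1] with p p1 p2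
    have h3 := (abs_le.1 p2).1
    have h4 := g_nonneg hg ha p1
    nlinarith
  have h2 : ∫ p in Dm, g1 (ξ p) * η p ∂V ≤ ∫ p in Dm, g1 (ξ p) * η p * w2 p ∂V
      + κw * ∫ p in Dm, -g1 (ξ p) * η p ∂V := by
    have i8 : Integrable (fun p => -g1 (ξ p) * η p) (V.restrict Dm) := by
      have := i5.neg
      refine this.congr (Eventually.of_forall fun p => ?_)
      simp only [Pi.neg_apply]; ring
    rw [← integral_const_mul, ← integral_add i7 (i8.const_mul (κw))]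
    refine integral_mono_ae i5 (i7.add (i8.const_mul (κw))) ?_
    filter_upwards [hξ, hη, hw2] with p p1 p2 p3
    have h3 := (abs_le.1 p3).2
    have h4 : 0 ≤ -g1 (ξ p) * η p := mul_nonneg (by linarith [ha _ p1]) p2
    nlinarith
  have h3 : κw * (∫ p in Dm, g (ξ p) ∂V + ∫ p in Dm, -g1 (ξ p) * η p ∂V)
      = κw * ∫ p in Dm, g (ξ p) ∂V + κw * ∫ p in Dm, -g1 (ξ p) * η p ∂V := by ring
  rw [h3]
  linarith

/-- the chart `Φ(x,y) = (x - Duᵀ y, u + y)`: exact formula for the distance to the centre. -/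
theorem chart_norm_sq {m n : ℕ} (A : Euc m →L[ℝ] Euc n) (x : Euc m) (y u : Euc n) :
    ‖x - ContinuousLinearMap.adjoint A y‖ ^ 2 + ‖u + y‖ ^ 2 =
      ‖x‖ ^ 2 + (‖ContinuousLinearMap.adjoint A y‖ ^ 2 + ‖y‖ ^ 2) + 2 * inner ℝ y (u - A x)
        + ‖u‖ ^ 2 := by
  rw [norm_sub_sq_real, norm_add_sq_real, ContinuousLinearMap.adjoint_inner_right, inner_sub_right,
    real_inner_comm (A x) y, real_inner_comm u y]
  ring

end Crest.Agent.R234.LowF3_471
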