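import Crest.Agent.R234.Low_161
import Crest.Agent.R234.LowF1_471

/-!
# Row 234, (F4) LOW FREQUENCY: real-variable node (helper471, on 161's `qlow_q`)

`Lv E I l t o B bot` : the identities at the level `l` with errors `t (e + I) + o` (for `I'` the sharp
form `t I + o`), soft sign `b ≤ B`, bottom `-bot ≤ exp(-2l)(E - I/2)`.
`lown` : if they hold at every level `l ≤ l0` above which `J = exp(-2l) I ≤ S ≤ ε0`, then
`-θ D0 ≤ exp(-2 l0)(E l0 - I l0 / 2)`.
-/

set_option autoImplicit false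

open Set Filter Topology

namespace Crest.Agent.R234.LowF4_471

open Crest.Agent.R234.LowF1_471

theorem alg_I {I E e b B e1 t o : ℝ} (hE : E = e / 2 + b)
    (he1 : |e1| ≤ t * I + o) (hb : b ≤ B) :
    -(2 * e + e1 - 2 * I) ≤ -4 * (E - I / 2) + 4 * B + t * I + o := by
  have h1 := (abs_le.1 he1).1
  rw [hE]
  linarith

theorem alg_g {I R e e1 e2 e3 t o : ℝ} (hI : 0 ≤ I) (he : 0 ≤ e) (hR0 : 0 ≤ R)
    (hR : (e + e3) ^ 2 ≤ I * R) (ho : 0 ≤ o)
    (he1 : |e1| ≤ t * I + o) (he2 : |e2| ≤ t * (e + I) + o) (he3 : |e3| ≤ t * (e + I) + o)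
    (ht0 : 0 ≤ t) (ht : t ≤ 1 / 16) :
    -(8 * t * I + 4 * o) ≤ R - 2 * e + I + e2 - e1 / 2 := by
  have h1 := abs_le.1 (he1.trans (by nlinarith [mul_nonneg ht0 he] :
    t * I + o ≤ t * (e + I) + o))
  have h2 := abs_le.1 he2
  have h3 := abs_le.1 he3
  have h5 : t * (e + I) ≤ (1 / 16) * (e + I) := mul_le_mul_of_nonneg_right ht (by linarith)
  rcases hI.eq_or_lt with h0 | h0
  · rw [← h0] at hR h1 h2 h3 h5 ⊢
    have h6 : e + e3 = 0 := by
      have : (e + e3) ^ 2 = 0 := le_antisymm (by simpa using hR) (sq_nonneg _)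
      exact pow_eq_zero_iff two_ne_zero |>.1 this
    linarith
  · set X : ℝ := e + e3 - I with hX
    have h4 : e ≤ 16 / 15 * |X| + 17 / 15 * I + 16 / 15 * o := by
      have h6 : X ≤ |X| := le_abs_self _
      have h7 : e = X + I - e3 := by rw [hX]; ring
      have h8 : -e3 ≤ (1 / 16) * (e + I) + o := by linarith
      linarith
    have h9 : t * (e + I) ≤ t * (16 / 15 * |X| + 32 / 15 * I + 16 / 15 * o) :=
      mul_le_mul_of_nonneg_left (by linarith) ht0
    have h9' : t * o ≤ (1 / 16) * o := mul_le_mul_of_nonneg_right ht ho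
    have h10 : 0 ≤ I * (R - 2 * e + I + e2 - e1 / 2 + (8 * t * I + 4 * o)) := by
      have h11 : I * (R - 2 * e + I + e2 - e1 / 2 + (8 * t * I + 4 * o))
          = (I * R - (e + e3) ^ 2) + (X ^ 2 + I * (2 * e3 + e2 - e1 / 2 + 4 * o)
            + 8 * t * I ^ 2) := by
        rw [hX]; ring
      rw [h11]
      have h12 : -(7 / 2 * (t * (e + I) + o)) ≤ 2 * e3 + e2 - e1 / 2 := by linarith
      have h13 : -(7 / 2 * (t * (16 / 15 * |X| + 32 / 15 * I))) ≤
          2 * e3 + e2 - e1 / 2 + 4 * o := by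
        have : t * (16 / 15 * |X| + 32 / 15 * I + 16 / 15 * o) =
          t * (16 / 15 * |X| + 32 / 15 * I) + 16 / 15 * (t * o) := by ring
        linarith
      have h14 : I * (-(7 / 2 * (t * (16 / 15 * |X| + 32 / 15 * I))))
          ≤ I * (2 * e3 + e2 - e1 / 2 + 4 * o) := mul_le_mul_of_nonneg_left h13 h0.le
      have h15 : X ^ 2 = |X| ^ 2 := (sq_abs X).symm
      have h16 : 0 ≤ (|X| - 28 / 15 * (t * I)) ^ 2 := sq_nonneg _
      have h17 : (t * I) ^ 2 ≤ (1 / 16) * (t * I ^ 2) := by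
        have : t * t ≤ (1 / 16) * t := mul_le_mul_of_nonneg_right ht ht0
        have h18 : t * t * I ^ 2 ≤ (1 / 16) * t * I ^ 2 :=
          mul_le_mul_of_nonneg_right this (sq_nonneg I)
        nlinarith
      have h19 : 0 ≤ t * I ^ 2 := mul_nonneg ht0 (sq_nonneg I)
      rw [h15]
      nlinarith
    have h20 := (mul_nonneg_iff_of_pos_left h0).1 h10
    linarith

/-- data at one level -/
structure Lv (E I : ℝ → ℝ) (l t o B bot : ℝ) : Prop where
  ids : ∃ e b R e1 e2 e3 : ℝ, 0 ≤ e ∧ 0 ≤ R ∧ E l = e / 2 + b ∧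
    HasDerivAt I (2 * e + e1) l ∧ HasDerivAt E (2 * b + R + e2) l ∧ (e + e3) ^ 2 ≤ I l * R ∧
    |e1| ≤ t * I l + o ∧ |e2| ≤ t * (e + I l) + o ∧ |e3| ≤ t * (e + I l) + o ∧ b ≤ B
  Ipos : 0 ≤ I l
  low : -bot ≤ Real.exp (-(2 * l)) * (E l - I l / 2)

/-- the two differential inequalities at a level -/
theorem Lv.deriv {E I : ℝ → ℝ} {l t o B bot : ℝ} (h : Lv E I l t o B bot) (ht0 : 0 ≤ t)
    (ht : t ≤ 1 / 16) (ho : 0 ≤ o) :
    -(deriv (fun l => Real.exp (-(2 * l)) * I l) l) ≤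
        -4 * (Real.exp (-(2 * l)) * (E l - I l / 2)) + 4 * (Real.exp (-(2 * l)) * B)
          + t * (Real.exp (-(2 * l)) * I l) + Real.exp (-(2 * l)) * o ∧
      -(8 * t * (Real.exp (-(2 * l)) * I l) + 4 * (Real.exp (-(2 * l)) * o)) ≤
        deriv (fun l => Real.exp (-(2 * l)) * (E l - I l / 2)) l := by
  obtain ⟨e, b, R, e1, e2, e3, he, hR0, hE, hdI, hdE, hR, he1, he2, he3, hb⟩ := h.ids
  have hp : 0 < Real.exp (-(2 * l)) := Real.exp_pos _
  constructor
  · rw [(hasDerivAt_J hdI).deriv]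
    have h1 := alg_I (I := I l) hE he1 hb
    have h2 := mul_le_mul_of_nonneg_left h1 hp.le
    linarith
  · rw [(hasDerivAt_g hdE hdI).deriv]
    have h1 := alg_g h.Ipos he hR0 hR ho he1 he2 he3 ht0 ht
    have h2 := mul_le_mul_of_nonneg_left h1 hp.le
    have h3 : 2 * b + R + e2 - (2 * e + e1) / 2 - 2 * E l + I l
        = R - 2 * e + I l + e2 - e1 / 2 := by rw [hE]; ring
    rw [h3]
    linarith

theorem lown {q K ε0 θ : ℝ} (hq : 0 < q) (hq1 : q ≤ 1) (hK : 1 ≤ K) (hε : 0 < ε0) (hε1 : ε0 ≤ 1)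
    (hθ : 0 < θ) (hθ1 : θ ≤ 1) :
    ∃ κ1 : ℝ, 0 < κ1 ∧ κ1 ≤ 1 ∧ ∀ (c κ D0 l0 : ℝ) (E I : ℝ → ℝ), 0 ≤ c → 0 ≤ κ → κ ≤ κ1 →
      0 ≤ D0 → D0 ≤ κ1 →
      (∀ l ∈ Icc l0 (l0 + c), Real.exp (-(2 * l)) * I l ≤ D0) →
      (∀ l ≤ l0, DifferentiableAt ℝ I l) → (∀ l ≤ l0, DifferentiableAt ℝ E l) →
      (∀ l ≤ l0, ∀ S, 0 < S → S ≤ ε0 →
        (∀ l' ∈ Icc l (l0 + c), Real.exp (-(2 * l')) * I l' ≤ S) →
        Lv E I l (K * (κ * Real.exp (l - l0) + S ^ q))
          (K * (κ * Real.exp (l - l0) + S ^ q) * S * Real.exp (2 * l))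
          (q / 128 * S * Real.exp (2 * l)) (K * (κ * Real.exp (l - l0) + S ^ (1 + q)))) →
      -θ * D0 ≤ Real.exp (-(2 * l0)) * (E l0 - I l0 / 2) := by
  -- shrink ε0 so that the error coefficients are small
  set P : ℝ := 64 * (3 + 2 * K) * K with hP
  have hPpos : 0 < P := by rw [hP]; positivity
  have hqP : 0 < q / P := by positivity
  set ε : ℝ := min ε0 ((q / P) ^ (1 / q)) with hεdef
  have hεpos : 0 < ε := lt_min hε (Real.rpow_pos_of_pos hqP _)
  have hε1' : ε ≤ 1 := (min_le_left _ _).trans hε1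
  have hεq : ∀ S, 0 < S → S ≤ ε → S ^ q ≤ q / P := by
    intro S hS hSε
    have h1 : S ≤ (q / P) ^ (1 / q) := hSε.trans (min_le_right _ _)
    have h2 := Real.rpow_le_rpow hS.le h1 hq.le
    rwa [← Real.rpow_mul hqP.le, one_div, inv_mul_cancel₀ hq.ne', Real.rpow_one] at h2
  obtain ⟨κ1, hκ1, hκ11, hmain⟩ := Low_161.qlow_q (q := q) (a := q / 8) (K := 12 * K) (ε0 := ε)
    (θ := θ) hq hq1 le_rfl (by linarith) hεpos hε1' hθ hθ1
  refine ⟨min κ1 (q / P), lt_min hκ1 hqP, (min_le_left _ _).trans hκ11, ?_⟩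
  intro c κ D0 l0 E I hc hκ hκ' hD0 hD0' hJ0 hdI hdE hLv
  set J : ℝ → ℝ := fun l => Real.exp (-(2 * l)) * I l with hJ
  set g : ℝ → ℝ := fun l => Real.exp (-(2 * l)) * (E l - I l / 2) with hg
  have dJ : ∀ l ≤ l0, DifferentiableAt ℝ J l := fun l hl =>
    (hasDerivAt_exp_neg_two l).differentiableAt.mul (hdI l hl)
  have dg : ∀ l ≤ l0, DifferentiableAt ℝ g l := fun l hl =>
    (hasDerivAt_exp_neg_two l).differentiableAt.mul ((hdE l hl).sub ((hdI l hl).div_const 2))
  have key := hmain c κ D0 (fun τ => J (l0 - τ)) (fun τ => g (l0 - τ))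
    (fun τ => -(deriv J (l0 - τ))) (fun τ => -(deriv g (l0 - τ))) hc hκ
    (hκ'.trans (min_le_left _ _)) hD0 (hD0'.trans (min_le_left _ _)) ?_ ?_ ?_ ?_
  · simpa using key
  · intro t ht
    exact hJ0 _ ⟨by linarith [ht.2], by linarith [ht.1]⟩
  · intro τ hτ
    have h1 := (dJ (l0 - τ) (by linarith)).hasDerivAt
    have h2 : HasDerivAt (fun τ : ℝ => l0 - τ) (-1) τ := by
      simpa using (hasDerivAt_id τ).const_sub l0
    have h3 := h1.scomp τ h2
    simpa [Function.comp_def] using h3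
  · intro τ hτ
    have h1 := (dg (l0 - τ) (by linarith)).hasDerivAt
    have h2 : HasDerivAt (fun τ : ℝ => l0 - τ) (-1) τ := by
      simpa using (hasDerivAt_id τ).const_sub l0
    have h3 := h1.scomp τ h2
    simpa [Function.comp_def] using h3
  · intro τ hτ S hS hSε hSb
    have hl : l0 - τ ≤ l0 := by linarith
    have hL := hLv (l0 - τ) hl S hS (hSε.trans (min_le_left _ _)) (by
      intro l' hl'
      have := hSb (l0 - l') ⟨by linarith [hl'.2], by linarith [hl'.1]⟩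
      simpa [hJ] using this)
    set l := l0 - τ with hldef
    have hel : l - l0 = -τ := by rw [hldef]; ring
    rw [hel] at hL
    set tt : ℝ := K * (κ * Real.exp (-τ) + S ^ q) with htt
    have hSq := hεq S hS hSε
    have hSq0 : 0 < S ^ q := Real.rpow_pos_of_pos hS q
    have hκe : κ * Real.exp (-τ) ≤ q / P := by
      have : Real.exp (-τ) ≤ 1 := Real.exp_le_one_iff.2 (by linarith)
      calc κ * Real.exp (-τ) ≤ κ * 1 := mul_le_mul_of_nonneg_left this hκ
        _ ≤ q / P := by rw [mul_one]; exact hκ'.trans (min_le_right _ _)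
    have hκe0 : 0 ≤ κ * Real.exp (-τ) := mul_nonneg hκ (Real.exp_pos _).le
    have hK0 : 0 < K := by linarith
    have htt0 : 0 ≤ tt := mul_nonneg hK0.le (by linarith)
    have htP : tt * (3 + 2 * K) ≤ q / 32 := by
      have h1 : κ * Real.exp (-τ) + S ^ q ≤ 2 * (q / P) := by linarith
      have h2 : tt * (3 + 2 * K) ≤ K * (2 * (q / P)) * (3 + 2 * K) := by
        refine mul_le_mul_of_nonneg_right ?_ (by linarith)
        exact mul_le_mul_of_nonneg_left h1 hK0.le
      have h3 : K * (2 * (q / P)) * (3 + 2 * K) = q / 32 := by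
        rw [hP]; field_simp; ring
      linarith
    have htK : 0 ≤ tt * K := mul_nonneg htt0 hK0.le
    have ht16 : tt ≤ 1 / 16 := by nlinarith
    have hJS : J l ≤ S := by
      have := hSb τ ⟨by linarith, le_rfl⟩
      simpa [hldef] using this
    have hep : 0 < Real.exp (2 * l) := Real.exp_pos _
    have hepn : Real.exp (-(2 * l)) * Real.exp (2 * l) = 1 := by
      rw [← Real.exp_add]; simp
    have hD := hL.deriv htt0 ht16 (by positivity)
    have c1 : Real.exp (-(2 * l)) * (q / 128 * S * Real.exp (2 * l)) = q / 128 * S := by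
      calc _ = q / 128 * S * (Real.exp (-(2 * l)) * Real.exp (2 * l)) := by ring
        _ = _ := by rw [hepn, mul_one]
    have c3 : Real.exp (-(2 * l)) * (tt * S * Real.exp (2 * l)) = tt * S := by
      calc _ = tt * S * (Real.exp (-(2 * l)) * Real.exp (2 * l)) := by ring
        _ = _ := by rw [hepn, mul_one]
    rw [c1, c3] at hD
    have hJl : Real.exp (-(2 * l)) * I l = J l := rfl
    have hgl : Real.exp (-(2 * l)) * (E l - I l / 2) = g l := rfl
    rw [hJl, hgl] at hD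
    have htJ : tt * J l ≤ tt * S := mul_le_mul_of_nonneg_left hJS htt0
    refine ⟨?_, ?_, ?_⟩
    · have h1 := hD.1
      have h2 : (tt * (3 + 2 * K)) * S ≤ q / 32 * S := mul_le_mul_of_nonneg_right htP hS.le
      have h3 : 0 ≤ tt * S := mul_nonneg htt0 hS.le
      have h5 : 0 ≤ q * S := mul_nonneg hq.le hS.le
      change -(deriv J l) ≤ -4 * g l + q / 8 * S
      have h4 : -(deriv J l) ≤ -4 * g l + 4 * (q / 128 * S) + tt * J l + tt * S := h1
      have h9 : 0 ≤ tt * (K * S) := mul_nonneg htt0 (mul_nonneg hK0.le hS.le)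
      have h6 : (tt * (3 + 2 * K)) * S = 3 * (tt * S) + 2 * tt * (K * S) := by ring
      have h7 : 4 * (q / 128 * S) = q / 32 * S := by ring
      have h8 : q / 8 * S = q / 32 * S + q / 32 * S + q * S / 16 := by ring
      rw [h6] at h2
      rw [h7] at h4
      rw [h8]
      linarith
    · have h1 := hD.2
      change -(deriv g l) ≤ 12 * K * (κ * Real.exp (-τ) + S ^ q) * S
      have h2 : -(8 * tt * J l + 4 * (tt * S)) ≤ deriv g l := h1
      have h3 : 12 * K * (κ * Real.exp (-τ) + S ^ q) * S = 12 * (tt * S) := by rw [htt]; ring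
      rw [h3]
      nlinarith
    · have h1 := hL.low
      rw [hgl] at h1
      change -(12 * K) * (κ * Real.exp (-τ) + S ^ (1 + q)) ≤ g l
      have h2 : 0 ≤ K * (κ * Real.exp (-τ) + S ^ (1 + q)) :=
        mul_nonneg hK0.le (add_nonneg hκe0 (Real.rpow_nonneg hS.le _))
      linarith

end Crest.Agent.R234.LowF4_471
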