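import Crest.Agent.R234.GL1_394
import Crest.Agent.R234.LowF3_471

/-!
# Row 234, (F4) LOW FREQUENCY: the bottom inequality in the frame of VF-GL (helper471)

`bottom_GL` : `exp(-2l) (EE - II/2) ≥ - error` at a point `z0` of density `≥ Q`, for the frame functions
`EE`, `II` of GL1_394 relative to a graph through `z0`.
-/

set_option autoImplicit false

open MeasureTheory Set Filter Topology Crest.GeometryTopology.Submanifold
open Crest.Agent.R234.Vf_884 Crest.Agent.R234.Cy_870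
open scoped ENNReal NNReal InnerProductSpace

noncomputable section

namespace Crest.Agent.R234.LowF5_471

open Crest.Agent.R234.LowF2_471 Crest.Agent.R234.LowF3_471
open Crest.Agent.R234.GL_394 (Ch Ok EE II)

variable {g g1 g2 : ℝ → ℝ} {m k : ℕ} {U : Set (Euc k)} {V : Measure (Euc k × L k)}

/-- Lipschitz constant of `g1` on `[0, ∞)` -/
theorem lip_of_ker (h : Ker g1 g2) : ∃ Lp : ℝ, 0 ≤ Lp ∧
    ∀ a b, 0 ≤ a → 0 ≤ b → |g1 a - g1 b| ≤ Lp * |a - b| := by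
  obtain ⟨K, hK0, -, hK, -⟩ := h.exists_bound
  refine ⟨K, hK0, fun a b ha hb => ?_⟩
  have h1 := (convex_Ici (0:ℝ)).norm_image_sub_le_of_norm_hasDerivWithin_le (f := g1) (f' := g2)
    (C := K) (fun x _ => (h.der x).hasDerivWithinAt) (fun x hx => hK x hx)
    (show b ∈ Ici (0:ℝ) from hb) (show a ∈ Ici (0:ℝ) from ha)
  simpa [Real.norm_eq_abs] using h1

/-- the part of the chart domain over the ball of radius `2s` -/
def Dm (c : Ch m k) (K : Set (Euc k)) (s : ℝ) : Set (Euc k × L k) :=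
  {p | p.1 ∈ K ∧ ‖c.x p.1‖ ≤ 2 * s}

theorem measurableSet_Dm {c : Ch m k} {K : Set (Euc k)} {D : Set (Euc m)} (hok : Ok c K D)
    (s : ℝ) : MeasurableSet (Dm c K s) := by
  have h1 : IsClosed {z | z ∈ K ∧ ‖c.x z‖ ≤ 2 * s} := by
    have hc : ContinuousOn (fun z => ‖c.x z‖) K :=
      (ContinuousOn.norm fun z hz => (hok.hx z hz).continuousAt.continuousWithinAt)
    exact hc.preimage_isClosed_of_isClosed hok.cpt.isClosed isClosed_Iic
  exact measurable_fst h1.measurableSet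

set_option maxHeartbeats 800000 in
/-- **bottom inequality in the frame of VF-GL.** -/
theorem bottom_GL (hm : 1 ≤ m) {c : Ch m k} {K : Set (Euc k)} {D : Set (Euc m)} (hok : Ok c K D)
    (hV : Stat m k U V) (hKU : K ⊆ U) {z0 : Euc k} {l : ℝ}
    (hU : Metric.closedBall z0 (Real.exp l) ⊆ U) {Q : ℝ} (hQ : 0 ≤ Q)
    (hc : ENNReal.ofReal Q ≤ Th m V z0) (hg : Prof g g1 g2)
    {Kg Lp : ℝ} (hKg : ∀ t, 0 ≤ t → |g t| ≤ Kg ∧ |g1 t| ≤ Kg) (hL : 0 ≤ Lp)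
    (hLip : ∀ a b, 0 ≤ a → 0 ≤ b → |g1 a - g1 b| ≤ Lp * |a - b|)
    {κ0 κ3 h M0 H : ℝ} (hκ0 : 0 ≤ κ0) (hκ3 : 0 ≤ κ3) (hh0 : 0 ≤ h)
    (hcov : ∀ᵐ p ∂V, ‖p.1 - z0‖ < Real.exp l → p.1 ∈ K)
    (hdist : ∀ z ∈ K, (1 - κ3 * ‖c.x z‖) * ‖c.x z‖ ^ 2 + ‖c.nu z‖ ^ 2
      - 2 * (κ0 * ‖c.x z‖ ^ 2 * ‖c.nu z‖) ≤ ‖z - z0‖ ^ 2)
    (hsm : ∀ z ∈ K, 8 * (κ0 * ‖c.nu z‖) ≤ 1) (hsm3 : ∀ z ∈ K, 4 * (κ3 * ‖c.x z‖) ≤ 1)
    (hj : ∀ v, ‖v‖ ≤ Real.exp l → c.j v ≤ 1 + κ3 * Real.exp l)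
    (hmu : ∀ v, ‖v‖ ≤ 2 * Real.exp l → |c.mu v - 1| ≤ κ3 * Real.exp l)
    (hh : ∀ᵐ p ∂V, p ∈ Dm c K (Real.exp l) → ‖c.nu p.1‖ ≤ h * Real.exp l)
    (hM : V.real (Dm c K (Real.exp l)) ≤ M0 * Real.exp (m * l))
    (hH : ∫ p in Dm c K (Real.exp l), ‖c.nu p.1‖ ^ 2 ∂V ≤ H * Real.exp (m * l) *
      Real.exp (2 * l)) :
    -(8 * (κ0 * h + κ3) * Real.exp l * Kg * M0
        + 2 * Lp * (h ^ 2 + 256 * (κ0 * Real.exp l) ^ 2) * H
        + 256 * Lp * (κ3 * Real.exp l) ^ 2 * M0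
        + κ3 * Real.exp l * (Kg * M0 + Kg * H)
        + Q * (κ3 * Real.exp l * ∫ v : Euc m, g (‖v‖ ^ 2))) ≤
      Real.exp (-(2 * l)) * (EE c (V.restrict (K ×ˢ univ)) g Q l
        - II c (V.restrict (K ×ˢ univ)) g1 l / 2) := by
  set s : ℝ := Real.exp l with hs
  have hs0 : 0 < s := Real.exp_pos l
  have hgk : Ker g g1 := hg.k0
  have ha := hg.anti
  have es : Real.exp (-2 * l) = (s ^ 2)⁻¹ := by
    rw [hs, ← Real.exp_nat_mul, ← Real.exp_neg]; congr 1; push_cast; ring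
  have mD : MeasurableSet (Dm c K s) := measurableSet_Dm hok s
  have hDK : Dm c K s ⊆ K ×ˢ (univ : Set (L k)) := fun p hp => ⟨hp.1, mem_univ _⟩
  have mK : MeasurableSet (K ×ˢ (univ : Set (L k))) :=
    hok.cpt.isClosed.measurableSet.prod MeasurableSet.univ
  have hfinK : V (K ×ˢ (univ : Set (L k))) < ⊤ := hV.fin K hok.cpt hKU
  have hfin : V (Dm c K s) < ⊤ := (measure_mono hDK).trans_lt hfinK
  have hfm : IsFiniteMeasure (V.restrict (Dm c K s)) := ⟨by rwa [Measure.restrict_apply_univ]⟩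
  -- measurability
  have cx : ContinuousOn (fun p : Euc k × L k => c.x p.1) (K ×ˢ (univ : Set (L k))) :=
    ContinuousOn.comp (t := K) (fun z hz => (hok.hx z hz).continuousAt.continuousWithinAt)
      continuousOn_fst (fun p hp => hp.1)
  have cnu : ContinuousOn (fun p : Euc k × L k => c.nu p.1) (K ×ˢ (univ : Set (L k))) :=
    ContinuousOn.comp (t := K) (fun z hz => (hok.hnu z hz).continuousAt.continuousWithinAt)
      continuousOn_fst (fun p hp => hp.1)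
  have cmu : ContinuousOn (fun p : Euc k × L k => c.mu (c.x p.1)) (K ×ˢ (univ : Set (L k))) :=
    hok.cmu.comp cx (fun p hp => hok.mem _ hp.1)
  have mξ' : AEStronglyMeasurable (fun p : Euc k × L k => (s ^ 2)⁻¹ * ‖c.x p.1‖ ^ 2)
      (V.restrict (K ×ˢ univ)) :=
    (continuousOn_const.mul (cx.norm.pow 2)).aestronglyMeasurable mK
  have mη' : AEStronglyMeasurable (fun p : Euc k × L k => (s ^ 2)⁻¹ * ‖c.nu p.1‖ ^ 2)
      (V.restrict (K ×ˢ univ)) :=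
    (continuousOn_const.mul (cnu.norm.pow 2)).aestronglyMeasurable mK
  have mμ' : AEStronglyMeasurable (fun p : Euc k × L k => c.mu (c.x p.1))
      (V.restrict (K ×ˢ univ)) := cmu.aestronglyMeasurable mK
  have hle : V.restrict (Dm c K s) ≤ V.restrict (K ×ˢ univ) := Measure.restrict_mono hDK le_rfl
  have hmem : ∀ᵐ p ∂(V.restrict (Dm c K s)), p ∈ Dm c K s := ae_restrict_mem mD
  have hξ4 : ∀ p ∈ Dm c K s, (s ^ 2)⁻¹ * ‖c.x p.1‖ ^ 2 ≤ 4 := by
    intro p hp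
    rw [inv_mul_le_iff₀ (by positivity)]
    have := pow_le_pow_left₀ (norm_nonneg _) hp.2 2
    linarith
  set q1 : Euc k × L k → ℝ := fun p => (s ^ 2)⁻¹ * (κ0 * ‖c.x p.1‖ ^ 2 * ‖c.nu p.1‖) with hq1
  set q2 : Euc k × L k → ℝ := fun p => (s ^ 2)⁻¹ * (κ3 * ‖c.x p.1‖ * ‖c.x p.1‖ ^ 2 / 2) with hq2
  have hhr : ∀ᵐ p ∂(V.restrict (Dm c K s)), ‖c.nu p.1‖ ≤ h * s := by
    filter_upwards [hmem, ae_restrict_of_ae hh] with p h1 h2 using h2 h1
  have hqle : ∀ p ∈ Dm c K s, q1 p ≤ 4 * κ0 * ‖c.nu p.1‖ := by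
    intro p hp
    have h1 := hξ4 p hp
    have h2 : 0 ≤ κ0 * ‖c.nu p.1‖ := mul_nonneg hκ0 (norm_nonneg _)
    calc q1 p = ((s ^ 2)⁻¹ * ‖c.x p.1‖ ^ 2) * (κ0 * ‖c.nu p.1‖) := by rw [hq1]; ring
      _ ≤ 4 * (κ0 * ‖c.nu p.1‖) := mul_le_mul_of_nonneg_right h1 h2
      _ = _ := by ring
  have hq2le : ∀ p ∈ Dm c K s, q2 p ≤ 4 * κ3 * s := by
    intro p hp
    have h1 := hξ4 p hp
    have h2 : κ3 * ‖c.x p.1‖ / 2 ≤ κ3 * s := by
      have := mul_le_mul_of_nonneg_left hp.2 hκ3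
      linarith
    have h3 : 0 ≤ (s ^ 2)⁻¹ * ‖c.x p.1‖ ^ 2 := by positivity
    calc q2 p = ((s ^ 2)⁻¹ * ‖c.x p.1‖ ^ 2) * (κ3 * ‖c.x p.1‖ / 2) := by rw [hq2]; ring
      _ ≤ 4 * (κ3 * s) := mul_le_mul h1 h2 (by positivity) (by norm_num)
      _ = _ := by ring
  have hq0 : ∀ p, 0 ≤ q1 p := fun p => by rw [hq1]; positivity
  have hq20 : ∀ p, 0 ≤ q2 p := fun p => by rw [hq2]; positivity
  have hb := bottom hV hm hs0 hU hQ hc hgk ha hL hLip mD hfin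
    (ξ := fun p => (s ^ 2)⁻¹ * ‖c.x p.1‖ ^ 2) (η := fun p => (s ^ 2)⁻¹ * ‖c.nu p.1‖ ^ 2)
    (q := fun p => q1 p + q2 p) (w1 := fun _ => 1) (w2 := fun p => c.mu (c.x p.1))
    (κ := 8 * κ0 * s) (h := h) (a := 4 * κ0 * s * h + 4 * κ3 * s) (a2 := 32 * (κ3 * s) ^ 2)
    (κw := κ3 * s) ?_ (mξ'.mono_measure hle).aemeasurable (mη'.mono_measure hle).aemeasurable
    aemeasurable_const (mμ'.mono_measure hle).aemeasurable
    (Eventually.of_forall fun p => by positivity) (Eventually.of_forall fun p => by positivity)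
    ?_ ?_ ?_ ?_ ?_ ?_
  · -- assemble
    have hgm : ∀ F : Euc k × L k → ℝ, (∀ p ∈ K ×ˢ (univ : Set (L k)), p ∉ Dm c K s → F p = 0) →
        ∫ p in K ×ˢ univ, F p ∂V = ∫ p in Dm c K s, F p ∂V := by
      intro F hF
      rw [← integral_indicator mK, ← integral_indicator mD]
      congr 1
      ext p
      by_cases h1 : p ∈ Dm c K s
      · rw [indicator_of_mem h1, indicator_of_mem (hDK h1)]
      · rw [indicator_of_notMem h1]
        by_cases h2 : p ∈ K ×ˢ (univ : Set (L k))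
        · rw [indicator_of_mem h2, hF p h2 h1]
        · rw [indicator_of_notMem h2]
    have hout : ∀ p ∈ K ×ˢ (univ : Set (L k)), p ∉ Dm c K s → 1 ≤ (s ^ 2)⁻¹ * ‖c.x p.1‖ ^ 2 := by
      intro p hp hn
      have h1 : 2 * s < ‖c.x p.1‖ := by
        by_contra hcon
        exact hn ⟨hp.1, not_lt.1 hcon⟩
      rw [inv_mul_eq_div, one_le_div (by positivity)]
      nlinarith [norm_nonneg (c.x p.1)]
    -- EE
    have e1 : ∫ p in K ×ˢ univ, 1 * g (Real.exp (-2 * l) * ‖c.x p.1‖ ^ 2) ∂V =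
        ∫ p in Dm c K s, g ((s ^ 2)⁻¹ * ‖c.x p.1‖ ^ 2) * (1:ℝ) ∂V := by
      rw [hgm _ (fun p hp hn => by rw [es, hgk.zero _ (hout p hp hn), mul_zero])]
      refine integral_congr_ae (Eventually.of_forall fun p => ?_)
      simp only [es]; ring
    have e2 : ∫ p in K ×ˢ univ, (c.f p.1 * c.mu (c.x p.1)) *
        (-4 * g1 (Real.exp (-2 * l) * ‖c.x p.1‖ ^ 2)) ∂V =
        -2 * s ^ 2 * ∫ p in Dm c K s, g1 ((s ^ 2)⁻¹ * ‖c.x p.1‖ ^ 2) *
          ((s ^ 2)⁻¹ * ‖c.nu p.1‖ ^ 2) * c.mu (c.x p.1) ∂V := by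
      rw [hgm _ (fun p hp hn => by rw [es, hgk.zero' _ (hout p hp hn)]; ring),
        ← integral_const_mul]
      refine setIntegral_congr_fun mD fun p hp => ?_
      have h1 : ‖c.nu p.1‖ ^ 2 = 2 * c.f p.1 := hok.nusq _ hp.1
      simp only [es, h1]
      field_simp
      ring
    have hIg : Integrable (fun v : Euc m => g ((s ^ 2)⁻¹ * ‖v‖ ^ 2)) := by
      refine Continuous.integrable_of_hasCompactSupport
        (hgk.continuous.comp (by fun_prop)) ?_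
      refine HasCompactSupport.intro (isCompact_closedBall (0 : Euc m) s) fun v hv => ?_
      rw [mem_closedBall_zero_iff, not_le] at hv
      refine hgk.zero _ ?_
      rw [inv_mul_eq_div, one_le_div (by positivity)]
      exact pow_le_pow_left₀ hs0.le hv.le 2
    -- the graph part
    have e3 : ∫ v : Euc m, c.j v * g (Real.exp (-2 * l) * ‖v‖ ^ 2) ≤
        (1 + κ3 * s) * ∫ v : Euc m, g ((s ^ 2)⁻¹ * ‖v‖ ^ 2) := by
      rw [es, ← integral_const_mul]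
      have hz : ∀ v : Euc m, s < ‖v‖ → g ((s ^ 2)⁻¹ * ‖v‖ ^ 2) = 0 := by
        intro v hv
        refine hgk.zero _ ?_
        rw [inv_mul_eq_div, one_le_div (by positivity)]
        exact pow_le_pow_left₀ hs0.le hv.le 2
      have hle : ∀ v : Euc m, c.j v * g ((s ^ 2)⁻¹ * ‖v‖ ^ 2) ≤
          (1 + κ3 * s) * g ((s ^ 2)⁻¹ * ‖v‖ ^ 2) := by
        intro v
        rcases le_or_gt ‖v‖ s with h1 | h1
        · exact mul_le_mul_of_nonneg_right (hj v h1) (g_nonneg hgk ha (by positivity))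
        · rw [hz v h1, mul_zero, mul_zero]
      by_cases hint : Integrable (fun v : Euc m => c.j v * g ((s ^ 2)⁻¹ * ‖v‖ ^ 2))
      · exact integral_mono hint (hIg.const_mul _) hle
      · rw [integral_undef hint]
        exact integral_nonneg fun v => mul_nonneg (by positivity) (g_nonneg hgk ha (by positivity))
    have e4 : ∫ v : Euc m, g ((s ^ 2)⁻¹ * ‖v‖ ^ 2) = Real.exp (m * l) * ∫ v : Euc m, g (‖v‖ ^ 2) := by
      have := leb_scale g (0 : Euc m) l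
      simp only [sub_zero, es] at this
      exact this
    have i0 : 0 ≤ ∫ v : Euc m, g (‖v‖ ^ 2) := integral_nonneg fun v => g_nonneg hgk ha (by positivity)
    -- bounds of the error integrals
    have hMr : (V.restrict (Dm c K s)).real univ ≤ M0 * Real.exp (m * l) := by
      rw [measureReal_restrict_apply_univ]; exact hM
    have j0 : AEMeasurable (fun p : Euc k × L k => (s ^ 2)⁻¹ * ‖c.x p.1‖ ^ 2)
      (V.restrict (Dm c K s)) := (mξ'.mono_measure hle).aemeasurable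
    have j1 : ∫ p in Dm c K s, -g1 ((s ^ 2)⁻¹ * ‖c.x p.1‖ ^ 2) ∂V ≤ Kg * M0 * Real.exp (m * l) := by
      have hKg0 : 0 ≤ Kg := (abs_nonneg _).trans (hKg 0 le_rfl).1
      have h1 : ∫ p in Dm c K s, -g1 ((s ^ 2)⁻¹ * ‖c.x p.1‖ ^ 2) ∂V ≤
          ∫ _p in Dm c K s, Kg ∂V := by
        refine integral_mono_of_nonneg (Eventually.of_forall fun p => ?_) (integrable_const Kg)
          (Eventually.of_forall fun p => ?_)
        · simp only [Pi.zero_apply]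
          linarith [ha _ (show 0 ≤ (s ^ 2)⁻¹ * ‖c.x p.1‖ ^ 2 by positivity)]
        · have := (hKg _ (show 0 ≤ (s ^ 2)⁻¹ * ‖c.x p.1‖ ^ 2 by positivity)).2
          exact (neg_le_abs _).trans this
      rw [integral_const, smul_eq_mul] at h1
      calc _ ≤ _ := h1
        _ ≤ (M0 * Real.exp (m * l)) * Kg := mul_le_mul_of_nonneg_right hMr hKg0
        _ = _ := by ring
    have hKg0 : 0 ≤ Kg := (abs_nonneg _).trans (hKg 0 le_rfl).1
    have j2 : ∫ p in Dm c K s, g ((s ^ 2)⁻¹ * ‖c.x p.1‖ ^ 2) ∂V ≤ Kg * M0 * Real.exp (m * l) := by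
      have h1 : ∫ p in Dm c K s, g ((s ^ 2)⁻¹ * ‖c.x p.1‖ ^ 2) ∂V ≤
          ∫ _p in Dm c K s, Kg ∂V := by
        refine integral_mono_of_nonneg (Eventually.of_forall fun p => ?_) (integrable_const Kg)
          (Eventually.of_forall fun p => ?_)
        · exact g_nonneg hgk ha (by positivity)
        · exact (le_abs_self _).trans
            (hKg _ (show 0 ≤ (s ^ 2)⁻¹ * ‖c.x p.1‖ ^ 2 by positivity)).1
      rw [integral_const, smul_eq_mul] at h1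
      calc _ ≤ _ := h1
        _ ≤ (M0 * Real.exp (m * l)) * Kg := mul_le_mul_of_nonneg_right hMr hKg0
        _ = _ := by ring
    have iη : Integrable (fun p : Euc k × L k => (s ^ 2)⁻¹ * ‖c.nu p.1‖ ^ 2)
        (V.restrict (Dm c K s)) := by
      refine Integrable.mono' (integrable_const (h ^ 2)) (mη'.mono_measure hle) ?_
      filter_upwards [hhr] with p hp
      rw [Real.norm_eq_abs, abs_of_nonneg (by positivity), inv_mul_le_iff₀ (by positivity)]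
      calc ‖c.nu p.1‖ ^ 2 ≤ (h * s) ^ 2 := pow_le_pow_left₀ (norm_nonneg _) hp 2
        _ = s ^ 2 * h ^ 2 := by ring
    have j3 : ∫ p in Dm c K s, (s ^ 2)⁻¹ * ‖c.nu p.1‖ ^ 2 ∂V ≤ H * Real.exp (m * l) := by
      rw [integral_const_mul, inv_mul_le_iff₀ (by positivity)]
      refine hH.trans (le_of_eq ?_)
      rw [hs, ← Real.exp_nat_mul]; push_cast; ring
    have j4 : ∫ p in Dm c K s, -g1 ((s ^ 2)⁻¹ * ‖c.x p.1‖ ^ 2) * ((s ^ 2)⁻¹ * ‖c.nu p.1‖ ^ 2) ∂V ≤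
        Kg * H * Real.exp (m * l) := by
      have h1 : ∫ p in Dm c K s, -g1 ((s ^ 2)⁻¹ * ‖c.x p.1‖ ^ 2) *
          ((s ^ 2)⁻¹ * ‖c.nu p.1‖ ^ 2) ∂V ≤
          ∫ p in Dm c K s, Kg * ((s ^ 2)⁻¹ * ‖c.nu p.1‖ ^ 2) ∂V := by
        refine integral_mono_of_nonneg (Eventually.of_forall fun p => ?_) (iη.const_mul Kg)
          (Eventually.of_forall fun p => ?_)
        · exact mul_nonneg (by linarith [ha _ (show 0 ≤ (s ^ 2)⁻¹ * ‖c.x p.1‖ ^ 2 by positivity)])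
            (by positivity)
        · exact mul_le_mul_of_nonneg_right ((neg_le_abs _).trans
            (hKg _ (show 0 ≤ (s ^ 2)⁻¹ * ‖c.x p.1‖ ^ 2 by positivity)).2) (by positivity)
      rw [integral_const_mul] at h1
      calc _ ≤ _ := h1
        _ ≤ Kg * (H * Real.exp (m * l)) := mul_le_mul_of_nonneg_left j3 hKg0
        _ = _ := by ring
    -- final
    set A := ∫ p in Dm c K s, g ((s ^ 2)⁻¹ * ‖c.x p.1‖ ^ 2) * (1:ℝ) ∂V with hA
    set B := ∫ p in Dm c K s, g1 ((s ^ 2)⁻¹ * ‖c.x p.1‖ ^ 2) *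
          ((s ^ 2)⁻¹ * ‖c.nu p.1‖ ^ 2) * c.mu (c.x p.1) ∂V with hB
    have hEE : EE c (V.restrict (K ×ˢ univ)) g Q l - II c (V.restrict (K ×ˢ univ)) g1 l / 2 =
        Real.exp ((2 - m) * l) * (A + B - Q * ∫ v : Euc m, c.j v *
          g (Real.exp (-2 * l) * ‖v‖ ^ 2)) := by
      unfold GL_394.EE GL_394.II
      rw [e1, e2]
      have h1 : Real.exp ((2 - m) * l) = Real.exp (-m * l) * s ^ 2 := by
        rw [hs, ← Real.exp_nat_mul, ← Real.exp_add]; congr 1; push_cast; ring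
      rw [h1]
      ring
    rw [hEE]
    have hx1 : Real.exp (-(2 * l)) * Real.exp ((2 - m) * l) = Real.exp (-(m * l)) := by
      rw [← Real.exp_add]; congr 1; ring
    rw [← mul_assoc (Real.exp (-(2 * l))) (Real.exp ((2 - (m:ℝ)) * l)) _, hx1]
    have hem : 0 < Real.exp (m * l) := Real.exp_pos _
    have hem' : Real.exp (-(m * l)) * Real.exp (m * l) = 1 := by
      rw [← Real.exp_add]; simp
    have hQj : Q * ∫ v : Euc m, c.j v * g (Real.exp (-2 * l) * ‖v‖ ^ 2) ≤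
        Q * ((1 + κ3 * s) * ∫ v : Euc m, g ((s ^ 2)⁻¹ * ‖v‖ ^ 2)) :=
      mul_le_mul_of_nonneg_left e3 hQ
    rw [e4] at hb hQj
    -- nonnegativity of coefficients
    have c1 : 0 ≤ 2 * (4 * κ0 * s * h + 4 * κ3 * s) := by positivity
    have c2 : 0 ≤ 2 * Lp * (h ^ 2 + 4 * (8 * κ0 * s) ^ 2) := by positivity
    have c3 : 0 ≤ κ3 * s := by positivity
    have c4 : 0 ≤ 8 * Lp * (32 * (κ3 * s) ^ 2) := by positivity
    have k1 := mul_le_mul_of_nonneg_left j1 c1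
    have k2 := mul_le_mul_of_nonneg_left j3 c2
    have k3 := mul_le_mul_of_nonneg_left (add_le_add j2 j4) c3
    have k4 := mul_le_mul_of_nonneg_left hM c4
    have hfinal : -((8 * (κ0 * h + κ3) * s * Kg * M0 + 2 * Lp * (h ^ 2 + 256 * (κ0 * s) ^ 2) * H
        + 256 * Lp * (κ3 * s) ^ 2 * M0 + κ3 * s * (Kg * M0 + Kg * H)
        + Q * (κ3 * s * ∫ v : Euc m, g (‖v‖ ^ 2))) * Real.exp (m * l)) ≤
        A + B - Q * ∫ v : Euc m, c.j v * g (Real.exp (-2 * l) * ‖v‖ ^ 2) := by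
      have r1 : -((8 * (κ0 * h + κ3) * s * Kg * M0
        + 2 * Lp * (h ^ 2 + 256 * (κ0 * s) ^ 2) * H
        + 256 * Lp * (κ3 * s) ^ 2 * M0 + κ3 * s * (Kg * M0 + Kg * H)
        + Q * (κ3 * s * ∫ v : Euc m, g (‖v‖ ^ 2))) * Real.exp (m * l)) =
        Q * (Real.exp (m * l) * ∫ v : Euc m, g (‖v‖ ^ 2))
        - (2 * (4 * κ0 * s * h + 4 * κ3 * s) * (Kg * M0 * Real.exp (m * l))
          + 2 * Lp * (h ^ 2 + 4 * (8 * κ0 * s) ^ 2) * (H * Real.exp (m * l))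
          + 8 * Lp * (32 * (κ3 * s) ^ 2) * (M0 * Real.exp (m * l))
          + κ3 * s * (Kg * M0 * Real.exp (m * l) + Kg * H * Real.exp (m * l)))
        - Q * ((1 + κ3 * s) * (Real.exp (m * l) * ∫ v : Euc m, g (‖v‖ ^ 2))) := by ring
      rw [r1]
      linarith
    have h5 := mul_le_mul_of_nonneg_left hfinal (Real.exp_pos (-(m * l))).le
    refine le_trans (le_of_eq ?_) h5
    calc _ = -((8 * (κ0 * h + κ3) * s * Kg * M0
        + 2 * Lp * (h ^ 2 + 256 * (κ0 * s) ^ 2) * H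
        + 256 * Lp * (κ3 * s) ^ 2 * M0 + κ3 * s * (Kg * M0 + Kg * H)
        + Q * (κ3 * s * ∫ v : Euc m, g (‖v‖ ^ 2))) *
          (Real.exp (-(m * l)) * Real.exp (m * l))) := by rw [hem', mul_one]
      _ = _ := by ring
  · -- covering
    filter_upwards [hcov] with p hp hlt
    have hpK := hp hlt
    refine ⟨hpK, ?_⟩
    have h1 := hdist _ hpK
    have h2 := hsm _ hpK
    have h2' := hsm3 _ hpK
    have h3 : ‖p.1 - z0‖ ^ 2 ≤ s ^ 2 := pow_le_pow_left₀ (norm_nonneg _) hlt.le 2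
    have h4 : 2 * (κ0 * ‖c.x p.1‖ ^ 2 * ‖c.nu p.1‖) ≤ 1 / 4 * ‖c.x p.1‖ ^ 2 := by
      have := mul_le_mul_of_nonneg_right h2 (sq_nonneg ‖c.x p.1‖)
      nlinarith
    have h4' : κ3 * ‖c.x p.1‖ * ‖c.x p.1‖ ^ 2 ≤ 1 / 4 * ‖c.x p.1‖ ^ 2 :=
      mul_le_mul_of_nonneg_right (by linarith) (sq_nonneg _)
    have h5 : ‖c.x p.1‖ ^ 2 ≤ (2 * s) ^ 2 := by nlinarith [sq_nonneg ‖c.nu p.1‖]
    exact le_of_sq_le_sq h5 (by positivity)
  · filter_upwards [hhr] with p hp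
    rw [inv_mul_le_iff₀ (by positivity)]
    calc ‖c.nu p.1‖ ^ 2 ≤ (h * s) ^ 2 := pow_le_pow_left₀ (norm_nonneg _) hp 2
      _ = s ^ 2 * h ^ 2 := by ring
  · filter_upwards [hmem, hhr] with p h1 h2
    rw [abs_of_nonneg (add_nonneg (hq0 p) (hq20 p))]
    have h3 : 4 * κ0 * ‖c.nu p.1‖ ≤ 4 * κ0 * (h * s) := mul_le_mul_of_nonneg_left h2 (by positivity)
    have h4 := hqle p h1
    have h5 := hq2le p h1
    linarith
  · filter_upwards [hmem] with p h1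
    have h2 := pow_le_pow_left₀ (hq0 p) (hqle p h1) 2
    have h3 := pow_le_pow_left₀ (hq20 p) (hq2le p h1) 2
    have h4 : (q1 p + q2 p) ^ 2 ≤ 2 * q1 p ^ 2 + 2 * q2 p ^ 2 := by nlinarith [sq_nonneg (q1 p - q2 p)]
    have h5 : (8 * κ0 * s) ^ 2 * ((s ^ 2)⁻¹ * ‖c.nu p.1‖ ^ 2) = 64 * (κ0 * ‖c.nu p.1‖) ^ 2 := by
      field_simp; ring
    rw [h5]
    nlinarith [sq_nonneg (κ0 * ‖c.nu p.1‖)]
  · exact Eventually.of_forall fun p => by simp; positivity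
  · filter_upwards [hmem] with p h1
    exact hmu _ h1.2
  · filter_upwards [hmem] with p h1
    have h2 := hdist _ h1.1
    have h3 := mul_le_mul_of_nonneg_left h2 (inv_nonneg.2 (sq_nonneg s))
    refine le_trans (le_of_eq ?_) h3
    rw [hq1, hq2]; ring

end Crest.Agent.R234.LowF5_471
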