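import Crest.Agent.R234.LowF4_471
import Crest.Agent.R234.LowF6_471
import Crest.Agent.R234.Fd1_534

/-!
# Row 234, (F4) + (F11): level data from one-sided identities, and the full bootstrap (helper471)

* `Lv.of_one` : the identities in the form of 394/290 (one-sided `E'`, `e ≤ √(I R) + ..`) give
  `LowF4_471.Lv`; no positivity of `I` is needed.
* `Pre` : 290's `StepData` without `0 < I` and without `-I ≤ 2 E`.
* `fd_of_pre`, `fd_of_pre2` : `Pre` + the weak form of (F4) ⟹ `0 < I`, `StepData`, `FD`, doubling.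
-/

set_option autoImplicit false

open Set Filter Topology

namespace Crest.Agent.R234.LowF7_471

open Crest.Agent.R234.Nb_290 (StepData)
open Crest.Agent.R234.Pin1_3 (FD NN)
open Crest.Agent.R234.Dbl_534 (Thr2 fd_of_step exists_pert)
open Crest.Agent.R234.LowF4_471 (Lv)
open Crest.Agent.R234.LowF6_471 (StepData.sub)

/-- `Lv` from the one-sided identities. -/
theorem Lv.of_one {E I : ℝ → ℝ} {l t o B bot e b R : ℝ} (ht : 0 ≤ t) (ho : 0 ≤ o) (hI : 0 ≤ I l)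
    (he : 0 ≤ e) (hR : 0 ≤ R) (hE : E l = e / 2 + b)
    (dI : ∃ I', HasDerivAt I I' l ∧ |I' - 2 * e| ≤ t * I l + o)
    (dE : ∃ E', HasDerivAt E E' l ∧ 2 * b + R - (t * (e + I l) + o) ≤ E')
    (hCS : e ≤ Real.sqrt (I l * R) + (t * (e + I l) + o)) (hb : b ≤ B)
    (low : -bot ≤ Real.exp (-(2 * l)) * (E l - I l / 2)) : Lv E I l t o B bot := by
  obtain ⟨I', hI', hI''⟩ := dI
  obtain ⟨E', hE', hE''⟩ := dE
  have hd : 0 ≤ t * (e + I l) + o := add_nonneg (mul_nonneg ht (add_nonneg he hI)) ho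
  obtain ⟨ep, hep, hep2⟩ := exists_pert he hI hR hd hCS
  refine ⟨⟨e, b, max R (E' - 2 * b), I' - 2 * e, E' - 2 * b - max R (E' - 2 * b), ep, he,
    hR.trans (le_max_left _ _), hE, ?_, ?_, ?_, hI'', ?_, hep, hb⟩, hI, low⟩
  · exact hI'.congr_deriv (by ring)
  · exact hE'.congr_deriv (by ring)
  · exact hep2.trans (mul_le_mul_of_nonneg_left (le_max_left _ _) hI)
  · rw [abs_le]
    constructor
    · rcases max_cases R (E' - 2 * b) with ⟨h1, -⟩ | ⟨h1, -⟩ <;> rw [h1] <;> linarith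
    · have := le_max_right R (E' - 2 * b)
      linarith

/-- 290's `StepData` without positivity of the height and without a lower bound of the energy. -/
structure Pre (a b₀ δ w : ℝ) (I E e b R : ℝ → ℝ) : Prop where
  hI : ∀ l ∈ Icc a b₀, 0 ≤ I l
  he : ∀ l ∈ Icc a b₀, 0 ≤ e l
  hR : ∀ l ∈ Icc a b₀, 0 ≤ R l
  hE : ∀ l ∈ Icc a b₀, E l = e l / 2 + b l
  dI : ∀ l ∈ Icc a b₀, ∃ I', HasDerivAt I I' l ∧ |I' - 2 * e l| ≤ δ * I l + w
  dE : ∀ l ∈ Icc a b₀, ∃ E', HasDerivAt E E' l ∧ 2 * b l + R l - (δ * (e l + I l) + w) ≤ E'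
  hCS : ∀ l ∈ Icc a b₀, e l ≤ Real.sqrt (I l * R l) + (δ * I l + w)
  hb : ∀ l ∈ Icc a b₀, b l ≤ δ * I l + w

theorem Pre.step {a a' b₀ δ w : ℝ} {I E e b R : ℝ → ℝ} (h : Pre a b₀ δ w I E e b R)
    (ha : a ≤ a') (hI : ∀ l ∈ Icc a' b₀, 0 < I l) (hlow : ∀ l ∈ Icc a' b₀, -I l ≤ 2 * E l) :
    StepData a' b₀ δ w I E e b R where
  hI := hI
  he := fun l hl => h.he l ⟨ha.trans hl.1, hl.2⟩
  hR := fun l hl => h.hR l ⟨ha.trans hl.1, hl.2⟩
  hE := fun l hl => h.hE l ⟨ha.trans hl.1, hl.2⟩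
  dI := fun l hl => h.dI l ⟨ha.trans hl.1, hl.2⟩
  dE := fun l hl => h.dE l ⟨ha.trans hl.1, hl.2⟩
  hCS := fun l hl => h.hCS l ⟨ha.trans hl.1, hl.2⟩
  hb := fun l hl => h.hb l ⟨ha.trans hl.1, hl.2⟩
  hlow := hlow

/-- thresholds -/
structure Thr4 (C1 Ce Lw hw et k0 c0 th : ℝ) : Prop where
  k : 0 < k0
  c : 0 < c0
  t : 0 < th
  main : ∀ (I E e b R : ℝ → ℝ) (lo t0 t1 del w : ℝ), lo ≤ t0 → t1 - lo ≤ Lw →
    t0 + hw ≤ t1 → 0 ≤ del → del ≤ k0 → 0 ≤ w → w ≤ k0 * I t0 → 0 < I t0 →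
    Pre lo t1 del w I E e b R →
    (∀ l ∈ Icc lo t1, -(th * I t0) ≤ E l - I l / 2) →
    (∀ l ∈ Icc lo t1, e l + I l ≤ Ce * I t0) →
    (∀ l ∈ Icc t0 t1, E l ≤ C1 * I t0) →
    (∀ l ∈ Icc lo t1, (1 - et) * I l ≤ 2 * E l) ∧ StepData lo t1 del w I E e b R ∧
    ∃ R' : ℝ → ℝ, (∀ l ∈ Icc lo t0, R l ≤ R' l) ∧ FD E I e b R' et lo t0 ∧
      (∀ l ∈ Icc lo t0, NN E I l ≤ 8 * C1) ∧ ∀ l ∈ Icc lo t0, c0 * I t0 ≤ I l

theorem fd_of_pre {C1 Ce Lw hw et : ℝ} (hC1 : 1 ≤ C1) (hCe : 1 ≤ Ce) (hLw : 0 ≤ Lw)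
    (hhw : 0 < hw) (het : 0 < et) (het1 : et ≤ 1 / 2) :
    ∃ k0 c0 th : ℝ, Thr4 C1 Ce Lw hw et k0 c0 th := by
  obtain ⟨k1, c0, hT⟩ := fd_of_step hC1 hCe hLw hhw het het1
  have hk1 := hT.k
  have hc0 := hT.c
  set c1 : ℝ := min c0 1 with hc1
  have hc1pos : 0 < c1 := lt_min hc0 one_pos
  set k0 : ℝ := min k1 (1 / (2 * (Lw + 1) * (Ce + 1))) with hk0
  have hk0pos : 0 < k0 := lt_min hk1 (by positivity)
  refine ⟨k0, c0, et * c1 / 4, hk0pos, hc0, by positivity, ?_⟩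
  intro I E e b R lo t0 t1 del w hlo ht1 htw hdel hdelk hw hwk hIt0 h hlow hCe' htop
  have ht0 : t0 ∈ Icc lo t1 := ⟨hlo, by linarith⟩
  have hwk1 : w ≤ k1 * I t0 := hwk.trans (mul_le_mul_of_nonneg_right (min_le_left _ _) hIt0.le)
  -- continuity of I
  have hcont : ContinuousOn I (Icc lo t1) := fun l hl => by
    obtain ⟨d, hd, -⟩ := h.dI l hl
    exact hd.continuousAt.continuousWithinAt
  -- above t0 the height is at least half
  have hup : ∀ l ∈ Icc t0 t1, I t0 / 2 ≤ I l := by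
    intro l hl
    have hder : ∀ x ∈ Icc t0 l, ∃ d, HasDerivAt I d x ∧ -(k0 * (Ce + 1) * I t0) ≤ d := by
      intro x hx
      have hx' : x ∈ Icc lo t1 := ⟨hlo.trans hx.1, hx.2.trans hl.2⟩
      obtain ⟨d, hd, hd2⟩ := h.dI x hx'
      refine ⟨d, hd, ?_⟩
      have h1 := (abs_le.1 hd2).1
      have h2 := h.he x hx'
      have h3 := hCe' x hx'
      have h4 : del * I x ≤ k0 * (Ce * I t0) :=
        mul_le_mul hdelk (by linarith) (h.hI x hx') hk0pos.le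
      have h5 : k0 * (Ce + 1) * I t0 = k0 * (Ce * I t0) + k0 * I t0 := by ring
      rw [h5]
      linarith
    have hmono : MonotoneOn (fun x => I x + k0 * (Ce + 1) * I t0 * x) (Icc t0 l) := by
      refine monotoneOn_of_deriv_nonneg (convex_Icc _ _) ?_ ?_ ?_
      · refine ContinuousOn.add (hcont.mono (Icc_subset_Icc hlo hl.2)) (by fun_prop)
      · intro x hx
        rw [interior_Icc] at hx
        obtain ⟨d, hd, -⟩ := hder x (Ioo_subset_Icc_self hx)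
        exact (hd.add ((hasDerivAt_id x).const_mul _)).differentiableAt.differentiableWithinAt
      · intro x hx
        rw [interior_Icc] at hx
        obtain ⟨d, hd, hd2⟩ := hder x (Ioo_subset_Icc_self hx)
        have h6 : HasDerivAt (fun x => I x + k0 * (Ce + 1) * I t0 * x)
            (d + k0 * (Ce + 1) * I t0 * 1) x := hd.add ((hasDerivAt_id x).const_mul _)
        rw [h6.deriv]
        linarith
    have h7 := hmono (left_mem_Icc.2 hl.1) (right_mem_Icc.2 hl.1) hl.1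
    simp only at h7
    have h8 : k0 * (Ce + 1) * I t0 * (l - t0) ≤ I t0 / 2 := by
      have h9 : l - t0 ≤ Lw + 1 := by linarith [hl.2]
      have h10 : k0 * (2 * (Lw + 1) * (Ce + 1)) ≤ 1 := by
        have : k0 ≤ 1 / (2 * (Lw + 1) * (Ce + 1)) := min_le_right _ _
        rwa [le_div_iff₀ (by positivity)] at this
      have h11 : k0 * (Ce + 1) * I t0 * (l - t0) ≤ k0 * (Ce + 1) * I t0 * (Lw + 1) :=
        mul_le_mul_of_nonneg_left h9 (by positivity)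
      have h12 : k0 * (Ce + 1) * I t0 * (Lw + 1) = (k0 * (2 * (Lw + 1) * (Ce + 1))) * I t0 / 2 := by
        ring
      have h13 : (k0 * (2 * (Lw + 1) * (Ce + 1))) * I t0 ≤ 1 * I t0 :=
        mul_le_mul_of_nonneg_right h10 hIt0.le
      linarith
    linarith
  -- (F4) in the strong form where the height is at least c1/2
  have hF4 : ∀ l ∈ Icc lo t1, c1 / 2 * I t0 ≤ I l → (1 - et) * I l ≤ 2 * E l := by
    intro l hl hIl
    have h1 := hlow l hl
    have h2 : et * (c1 / 2 * I t0) ≤ et * I l := mul_le_mul_of_nonneg_left hIl het.le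
    linarith
  have hcI : 0 < c1 / 2 * I t0 := by positivity
  have hlow' : ∀ l ∈ Icc lo t1, c1 / 2 * I t0 ≤ I l → -I l ≤ 2 * E l := by
    intro l hl hIl
    have h1 := hF4 l hl hIl
    have h2 : 0 < I l := lt_of_lt_of_le hcI hIl
    nlinarith
  have hupc : ∀ l ∈ Icc t0 t1, c1 / 2 * I t0 ≤ I l := by
    intro l hl
    have h1 := hup l hl
    have h2 : c1 / 2 * I t0 ≤ 1 / 2 * I t0 :=
      mul_le_mul_of_nonneg_right (by linarith [min_le_right c0 1]) hIt0.le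
    linarith
  -- the height never drops below c1/2
  have hall : ∀ l ∈ Icc lo t0, c1 / 2 * I t0 ≤ I l := by
    by_contra hcon
    push Not at hcon
    obtain ⟨l1, hl1, hlt1⟩ := hcon
    set S : Set ℝ := Icc lo t0 ∩ {l | I l ≤ c1 / 2 * I t0} with hS
    have hScl : IsClosed S := by
      exact (hcont.mono (Icc_subset_Icc le_rfl ht0.2)).preimage_isClosed_of_isClosed
        isClosed_Icc isClosed_Iic
    have hSne : S.Nonempty := ⟨l1, hl1, hlt1.le⟩
    have hSb : BddAbove S := ⟨t0, fun x hx => hx.1.2⟩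
    have hmem : sSup S ∈ S := hScl.csSup_mem hSne hSb
    set ls := sSup S with hls
    have hgt : ∀ l ∈ Icc ls t1, ls < l → c1 / 2 * I t0 ≤ I l := by
      intro l hl hlt
      rcases le_total l t0 with h1 | h1
      · by_contra hc
        exact absurd (le_csSup hSb (show l ∈ S from ⟨⟨hmem.1.1.trans hl.1, h1⟩, (not_le.1 hc).le⟩))
          (not_le.2 hlt)
      · exact hupc l ⟨h1, hl.2⟩
    have hlst1 : ls < t1 := lt_of_le_of_lt hmem.1.2 (by linarith)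
    have hge : c1 / 2 * I t0 ≤ I ls := by
      obtain ⟨d, hd, -⟩ := h.dI ls ⟨hmem.1.1, hlst1.le⟩
      have hev : ∀ᶠ l in 𝓝[>] ls, c1 / 2 * I t0 ≤ I l := by
        filter_upwards [Ioo_mem_nhdsGT hlst1] with l hl
        exact hgt l ⟨hl.1.le, hl.2.le⟩ hl.1
      exact ge_of_tendsto (hd.continuousAt.tendsto.mono_left nhdsWithin_le_nhds) hev
    have hall' : ∀ l ∈ Icc ls t1, c1 / 2 * I t0 ≤ I l := by
      intro l hl
      rcases eq_or_lt_of_le hl.1 with h1 | h1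
      · rw [← h1]; exact hge
      · exact hgt l hl h1
    have hsub : ∀ l ∈ Icc ls t1, l ∈ Icc lo t1 := fun l hl => ⟨hmem.1.1.trans hl.1, hl.2⟩
    obtain ⟨R', -, -, -, hc⟩ := hT.main I E e b R ls t0 t1 del w hmem.1.2
      (by linarith [hmem.1.1]) htw hdel (hdelk.trans (min_le_left _ _)) hw hwk1
      (h.step hmem.1.1 (fun l hl => lt_of_lt_of_le hcI (hall' l hl))
        (fun l hl => hlow' l (hsub l hl) (hall' l hl)))
      (fun l hl => hF4 l (hsub l hl) (hall' l hl))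
      (fun l hl => hCe' l (hsub l hl)) htop
    have h1 := hc ls ⟨le_rfl, hmem.1.2⟩
    have h2 : I ls ≤ c1 / 2 * I t0 := hmem.2
    have h3 : c1 * I t0 ≤ c0 * I t0 := mul_le_mul_of_nonneg_right (min_le_left _ _) hIt0.le
    have h4 : 0 < c1 * I t0 := mul_pos hc1pos hIt0
    linarith
  have hc2 : ∀ l ∈ Icc lo t1, c1 / 2 * I t0 ≤ I l := by
    intro l hl
    rcases le_total l t0 with h1 | h1
    · exact hall l ⟨hl.1, h1⟩
    · exact hupc l ⟨h1, hl.2⟩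
  have hF4' : ∀ l ∈ Icc lo t1, (1 - et) * I l ≤ 2 * E l := fun l hl => hF4 l hl (hc2 l hl)
  have hSt : StepData lo t1 del w I E e b R := h.step le_rfl
    (fun l hl => lt_of_lt_of_le hcI (hc2 l hl)) (fun l hl => hlow' l hl (hc2 l hl))
  exact ⟨hF4', hSt, hT.main I E e b R lo t0 t1 del w hlo ht1 htw hdel
    (hdelk.trans (min_le_left _ _)) hw hwk1 hSt hF4' hCe' htop⟩

/-- thresholds, bounds at the top scale only -/
structure Thr5 (q Cp Lw hw et k0 c0 C2 th : ℝ) : Prop where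
  k : 0 < k0
  c : 0 < c0
  C : 1 ≤ C2
  t : 0 < th
  main : ∀ (I E e b R : ℝ → ℝ) (lo t0 t1 del w : ℝ), lo ≤ t0 → t1 - lo ≤ Lw →
    t0 + hw ≤ t1 → 0 ≤ del → del ≤ k0 → 0 ≤ w → w ≤ k0 * I t0 → 0 < I t0 →
    Pre lo t1 del w I E e b R →
    (∀ l ∈ Icc lo t1, -(th * I t0) ≤ E l - I l / 2) →
    (∀ l ∈ Icc lo t1, e l ≤ Real.exp (q * (t1 - l)) * e t1) →
    (∀ l ∈ Icc lo t1, I l ≤ Real.exp (q * (t1 - l)) * I t1) →
    I t1 ≤ Cp * I t0 → e t1 ≤ Cp * I t0 →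
    (∀ l ∈ Icc lo t1, (1 - et) * I l ≤ 2 * E l) ∧ StepData lo t1 del w I E e b R ∧
    ∃ R' : ℝ → ℝ, (∀ l ∈ Icc lo t0, R l ≤ R' l) ∧ FD E I e b R' et lo t0 ∧
      (∀ l ∈ Icc lo t0, NN E I l ≤ C2) ∧ ∀ l ∈ Icc lo t0, c0 * I t0 ≤ I l

theorem fd_of_pre2 {q Cp Lw hw et : ℝ} (hq : 0 ≤ q) (hCp : 1 ≤ Cp) (hLw : 0 ≤ Lw) (hhw : 0 < hw)
    (het : 0 < et) (het1 : et ≤ 1 / 2) :
    ∃ k0 c0 C2 th : ℝ, Thr5 q Cp Lw hw et k0 c0 C2 th := by
  set X : ℝ := Real.exp (q * Lw) with hX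
  have hX1 : 1 ≤ X := Real.one_le_exp (by positivity)
  set Ce : ℝ := 2 * X * Cp with hCe
  have hCe1 : 1 ≤ Ce := by rw [hCe]; nlinarith
  obtain ⟨k0, c0, th, hT⟩ := fd_of_pre (C1 := 3 * Ce) (Ce := Ce) (by linarith) hCe1 hLw hhw het het1
  refine ⟨min k0 1, c0, 8 * (3 * Ce), th, lt_min hT.k one_pos, hT.c, by linarith, hT.t, ?_⟩
  intro I E e b R lo t0 t1 del w hlo ht1 htw hdel hdelk hw hwk hIt0 h hlow he hI hI1 he1
  have ht0 : t0 ∈ Icc lo t1 := ⟨hlo, by linarith⟩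
  have hk1 : min k0 1 * I t0 ≤ k0 * I t0 := by gcongr; exact min_le_left _ _
  have hXl : ∀ l ∈ Icc lo t1, Real.exp (q * (t1 - l)) ≤ X := by
    intro l hl
    apply Real.exp_le_exp.2
    apply mul_le_mul_of_nonneg_left _ hq
    linarith [hl.1]
  have heI : ∀ l ∈ Icc lo t1, e l ≤ X * Cp * I t0 ∧ I l ≤ X * Cp * I t0 := by
    intro l hl
    have h1 := he l hl
    have h2 := hI l hl
    have h3 := hXl l hl
    have h4 := h.he t1 ⟨hlo.trans ht0.2, le_rfl⟩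
    have h5 := h.hI t1 ⟨hlo.trans ht0.2, le_rfl⟩
    constructor
    · calc e l ≤ Real.exp (q * (t1 - l)) * e t1 := h1
        _ ≤ X * (Cp * I t0) := by gcongr
        _ = X * Cp * I t0 := by ring
    · calc I l ≤ Real.exp (q * (t1 - l)) * I t1 := h2
        _ ≤ X * (Cp * I t0) := by gcongr
        _ = X * Cp * I t0 := by ring
  have hsum : ∀ l ∈ Icc lo t1, e l + I l ≤ Ce * I t0 := by
    intro l hl
    have := heI l hl
    have h2 : Ce * I t0 = X * Cp * I t0 + X * Cp * I t0 := by rw [hCe]; ring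
    linarith [this.1, this.2]
  refine hT.main I E e b R lo t0 t1 del w hlo ht1 htw hdel
    (hdelk.trans (min_le_left _ _)) hw (hwk.trans hk1) hIt0 h hlow hsum ?_
  intro l hl
  have hl' : l ∈ Icc lo t1 := ⟨hlo.trans hl.1, hl.2⟩
  have h1 := h.hE l hl'
  have h2 := h.hb l hl'
  have h3 := hsum l hl'
  have h4 := h.he l hl'
  have h5 := h.hI l hl'
  have h6 : del * I l ≤ 1 * I l := by
    gcongr
    exact hdelk.trans (min_le_right _ _)
  have h7 : w ≤ 1 * I t0 := hwk.trans (by gcongr; exact min_le_right _ _)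
  have h8 : 1 * I t0 ≤ Ce * I t0 := by gcongr
  have h9 : 3 * Ce * I t0 = Ce * I t0 + Ce * I t0 + Ce * I t0 := by ring
  have h10 : 0 ≤ Ce * I t0 := by positivity
  linarith

end Crest.Agent.R234.LowF7_471
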