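import Crest.Agent.R234.GL5_394
import Crest.Agent.R234.LowF5_471
import Crest.Agent.R234.LowF7_471

/-!
# Row 234, (F4) LOW FREQUENCY, V level, part 1 (helper471): bounds of one level

From `J = exp(-2l) II ≤ S` on `[l, l0 + cc]`: sharp integrals of `2 f` and `tau` over
`{|x| ≤ 2 exp l}` and the sup bound of `|nu|`.
-/

set_option autoImplicit false

open MeasureTheory Set Filter Topology Crest.GeometryTopology.Submanifold
open Crest.Agent.R234.Vf_884 Crest.Agent.R234.Cy_870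
open scoped ENNReal NNReal InnerProductSpace

noncomputable section

namespace Crest.Agent.R234.LowF8_471

open Crest.Agent.R234.GL_394

variable {m k : ℕ} {c : Ch m k} {K : Set (Euc k)} {D : Set (Euc m)}
  {W : Measure (Euc k × L k)} {g g1 g2 : ℝ → ℝ}

/-- the sharp region -/
def Sh (c : Ch m k) (t : ℝ) : Set (Euc k × L k) := {p | ‖c.x p.1‖ ≤ t}

theorem Sh_mono {s t : ℝ} (h : s ≤ t) : Sh c s ⊆ Sh c t := fun _ hp => le_trans hp h

theorem restrict_Sh (hV : On W m K) (t : ℝ) :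
    W.restrict (Sh c t) = W.restrict ((K ×ˢ G m k) ∩ Sh c t) := by
  refine Measure.restrict_congr_set ?_
  filter_upwards [hV.mem] with p hp
  exact propext ⟨fun h1 => ⟨hp, h1⟩, fun h1 => h1.2⟩

theorem measurableSet_KSh (h : Ok c K D) (t : ℝ) :
    MeasurableSet ((K ×ˢ G m k) ∩ Sh c t) := by
  have hK : IsClosed (K ×ˢ G m k) := (h.cpt.prod (isCompact_G m k)).isClosed
  have : IsClosed ((K ×ˢ G m k) ∩ Sh c t) :=
    (lift (m := m) h.cx).norm.preimage_isClosed_of_isClosed hK isClosed_Iic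
  exact this.measurableSet

theorem ae_Sh (h : Ok c K D) (hV : On W m K) (t : ℝ) :
    ∀ᵐ p ∂(W.restrict (Sh c t)), p ∈ K ×ˢ G m k ∧ ‖c.x p.1‖ ≤ t := by
  rw [restrict_Sh hV t]
  filter_upwards [ae_restrict_mem (measurableSet_KSh h t)] with p hp
  exact ⟨hp.1, hp.2⟩

/-- monotonicity of sharp integrals -/
theorem int_Sh_mono (h : Ok c K D) (hV : On W m K) {F : Euc k × L k → ℝ}
    (hF : ContinuousOn F (K ×ˢ G m k)) (hF0 : ∀ p ∈ K ×ˢ G m k, 0 ≤ F p) {s t : ℝ} (hst : s ≤ t) :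
    ∫ p in Sh c s, F p ∂W ≤ ∫ p in Sh c t, F p ∂W := by
  refine setIntegral_mono_set (hV.integrable h.cpt hF).integrableOn ?_
    (Sh_mono hst).eventuallyLE
  filter_upwards [ae_Sh h hV t] with p hp
  exact hF0 p hp.1

theorem int_Sh_nonneg (h : Ok c K D) (hV : On W m K) {F : Euc k × L k → ℝ}
    (hF0 : ∀ p ∈ K ×ˢ G m k, 0 ≤ F p) (t : ℝ) : 0 ≤ ∫ p in Sh c t, F p ∂W := by
  refine integral_nonneg_of_ae ?_
  filter_upwards [ae_Sh h hV t] with p hp
  exact hF0 p hp.1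

/-- `∫_{|x| ≤ e^l/2} 2 f ≤ b0⁻¹ e^(ml) II(l)` -/
theorem int_f_le_II (h : Ok c K D) (hV : On W m K) (hp : Prof g g1 g2) {b0 : ℝ} (hb0 : 0 < b0)
    (hb : ∀ t, 0 ≤ t → t ≤ 1 / 4 → b0 ≤ -g1 t) {l : ℝ}
    (hmu : ∀ v : Euc m, ‖v‖ ≤ Real.exp l → 1 / 2 ≤ c.mu v) :
    ∫ p in Sh c (Real.exp l / 2), 2 * c.f p.1 ∂W ≤ b0⁻¹ * Real.exp (m * l) * II c W g1 l := by
  have hel : 0 < Real.exp l := Real.exp_pos l
  have i1 := h.int hV h.cfmu (q := fun t => -4 * g1 t)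
    (continuous_const.mul hp.k1.continuous) l
  have hfull : b0 * ∫ p in Sh c (Real.exp l / 2), 2 * c.f p.1 ∂W ≤
      ∫ p, (c.f p.1 * c.mu (c.x p.1)) * (-4 * g1 (Real.exp (-2 * l) * ‖c.x p.1‖ ^ 2)) ∂W := by
    rw [← integral_const_mul]
    have hnn : 0 ≤ᵐ[W] fun p => (c.f p.1 * c.mu (c.x p.1)) *
        (-4 * g1 (Real.exp (-2 * l) * ‖c.x p.1‖ ^ 2)) := by
      filter_upwards [hV.mem] with p hpm
      have h1 := h.f_nonneg hpm.1
      have h2 := (h.mupos _ (h.mem _ hpm.1)).le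
      have h3 := hp.anti (Real.exp (-2 * l) * ‖c.x p.1‖ ^ 2) (by positivity)
      exact mul_nonneg (mul_nonneg h1 h2) (by linarith)
    refine le_trans ?_ (setIntegral_le_integral i1 hnn (s := Sh c (Real.exp l / 2)))
    have i2 : Integrable (fun p : Euc k × L k => b0 * (2 * c.f p.1)) W :=
      hV.integrable h.cpt (continuousOn_const.mul (continuousOn_const.mul (lift h.cf)))
    refine integral_mono_ae i2.integrableOn i1.integrableOn ?_
    filter_upwards [ae_Sh h hV (Real.exp l / 2)] with p hpp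
    obtain ⟨hpm, hx⟩ := hpp
    have h1 := h.f_nonneg hpm.1
    have hxl : ‖c.x p.1‖ ≤ Real.exp l := by linarith
    have h2 := hmu _ hxl
    have ht : Real.exp (-2 * l) * ‖c.x p.1‖ ^ 2 ≤ 1 / 4 := by
      have h3 : ‖c.x p.1‖ ^ 2 ≤ (Real.exp l / 2) ^ 2 := pow_le_pow_left₀ (norm_nonneg _) hx 2
      have h4 : Real.exp (-2 * l) * (Real.exp l) ^ 2 = 1 := by
        rw [← Real.exp_nat_mul, ← Real.exp_add]; simp
      calc Real.exp (-2 * l) * ‖c.x p.1‖ ^ 2 ≤ Real.exp (-2 * l) * (Real.exp l / 2) ^ 2 := by gcongr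
        _ = (Real.exp (-2 * l) * (Real.exp l) ^ 2) / 4 := by ring
        _ = 1 / 4 := by rw [h4]
    have h3 := hb (Real.exp (-2 * l) * ‖c.x p.1‖ ^ 2) (by positivity) ht
    have h5 : 2 * b0 ≤ 4 * (-g1 (Real.exp (-2 * l) * ‖c.x p.1‖ ^ 2)) * c.mu (c.x p.1) := by
      nlinarith
    calc b0 * (2 * c.f p.1) = (2 * b0) * c.f p.1 := by ring
      _ ≤ (4 * (-g1 (Real.exp (-2 * l) * ‖c.x p.1‖ ^ 2)) * c.mu (c.x p.1)) * c.f p.1 :=
        mul_le_mul_of_nonneg_right h5 h1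
      _ = _ := by ring
  have e1 : Real.exp (m * l) * Real.exp (-m * l) = 1 := by rw [← Real.exp_add]; simp
  have e2 : b0⁻¹ * Real.exp (m * l) * II c W g1 l = b0⁻¹ * ((Real.exp (m * l) * Real.exp (-m * l)) *
      ∫ p, (c.f p.1 * c.mu (c.x p.1)) * (-4 * g1 (Real.exp (-2 * l) * ‖c.x p.1‖ ^ 2)) ∂W) := by
    unfold II; ring
  rw [e2, e1, one_mul, ← div_eq_inv_mul, le_div_iff₀ hb0, mul_comm]
  exact hfull

/-- constants of one level -/
def C1 (m : ℕ) (A b0 : ℝ) : ℝ := A * b0⁻¹ * 8 ^ m * 64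

/-- hypotheses (S1), (S2) of VF-GL-SUP at all scales up to `T` -/
structure Sup (c : Ch m k) (W : Measure (Euc k × L k)) (A T : ℝ) : Prop where
  s1 : ∀ s t, 0 < s → s < t → t ≤ T → ∀ᵐ p ∂W, ‖c.x p.1‖ ≤ s →
    2 * c.f p.1 ≤ A * ((t - s) ^ m)⁻¹ * ∫ p in Sh c t, 2 * c.f p.1 ∂W
  s2 : ∀ s t, 0 < s → s < t → t ≤ T → (∀ᵐ p ∂W, ‖c.x p.1‖ ≤ t → ‖c.nu p.1‖ ≤ (t - s) / 8) →
    ∫ p in Sh c s, c.tau p.1 p.2 ∂W ≤ A * ((t - s) ^ 2)⁻¹ * ∫ p in Sh c t, 2 * c.f p.1 ∂W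

theorem exp_three : (8:ℝ) ≤ Real.exp 3 := by
  have h1 : (2:ℝ) ≤ Real.exp 1 := by
    have := Real.add_one_le_exp (1:ℝ); linarith
  have h2 : Real.exp 3 = Real.exp 1 ^ 3 := by rw [← Real.exp_nat_mul]; norm_num
  rw [h2]
  calc (8:ℝ) = 2 ^ 3 := by norm_num
    _ ≤ _ := pow_le_pow_left₀ (by norm_num) h1 3

theorem log_eight : Real.log 8 ≤ 3 := by
  rw [Real.log_le_iff_le_exp (by norm_num)]; exact exp_three

/-- **one level**: `J(l + log 8) ≤ S` bounds everything on `{|x| ≤ 2 e^l}`. -/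
theorem level (h : Ok c K D) (hV : On W m K) (hp : Prof g g1 g2) {b0 A T : ℝ} (hb0 : 0 < b0)
    (hb : ∀ t, 0 ≤ t → t ≤ 1 / 4 → b0 ≤ -g1 t) (hA : 1 ≤ A) {l S : ℝ} (hS : 0 ≤ S)
    (hT : 8 * Real.exp l ≤ T)
    (hmu : ∀ v : Euc m, ‖v‖ ≤ T → 1 / 2 ≤ c.mu v) (hsup : Sup c W A T)
    (hJ : Real.exp (-(2 * (l + Real.log 8))) * II c W g1 (l + Real.log 8) ≤ S) :
    (∫ p in Sh c (4 * Real.exp l), 2 * c.f p.1 ∂W ≤
      C1 m A b0 * S * Real.exp (m * l) * Real.exp (2 * l)) ∧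
    (∀ᵐ p ∂W, ‖c.x p.1‖ ≤ 3 * Real.exp l →
      ‖c.nu p.1‖ ≤ Real.sqrt (C1 m A b0 * S) * Real.exp l) ∧
    (C1 m A b0 * S ≤ 1 / 64 →
      ∫ p in Sh c (2 * Real.exp l), c.tau p.1 p.2 ∂W ≤ C1 m A b0 * S * Real.exp (m * l)) := by
  have hel : 0 < Real.exp l := Real.exp_pos l
  have he8 : Real.exp (l + Real.log 8) = 8 * Real.exp l := by
    rw [Real.exp_add, Real.exp_log (by norm_num)]; ring
  have hem : Real.exp (m * (l + Real.log 8)) = 8 ^ m * Real.exp (m * l) := by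
    rw [Real.exp_nat_mul, he8, mul_pow, ← Real.exp_nat_mul]
  have he2 : Real.exp (2 * (l + Real.log 8)) = 64 * Real.exp (2 * l) := by
    have e1 : (2:ℝ) * (l + Real.log 8) = ((2:ℕ):ℝ) * (l + Real.log 8) := by norm_num
    have e2 : (2:ℝ) * l = ((2:ℕ):ℝ) * l := by norm_num
    rw [e1, e2, Real.exp_nat_mul, he8, mul_pow, ← Real.exp_nat_mul]
    norm_num
  have hX0 : 0 ≤ b0⁻¹ * 8 ^ m * 64 * S * Real.exp (m * l) * Real.exp (2 * l) := by positivity
  have hI8 : II c W g1 (l + Real.log 8) ≤ S * (64 * Real.exp (2 * l)) := by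
    have h1 := mul_le_mul_of_nonneg_left hJ (Real.exp_pos (2 * (l + Real.log 8))).le
    rw [← mul_assoc, ← Real.exp_add] at h1
    have h2 : 2 * (l + Real.log 8) + -(2 * (l + Real.log 8)) = 0 := by ring
    rw [h2, Real.exp_zero, one_mul, he2] at h1
    linarith
  have hi' : ∫ p in Sh c (4 * Real.exp l), 2 * c.f p.1 ∂W ≤
      b0⁻¹ * 8 ^ m * 64 * S * Real.exp (m * l) * Real.exp (2 * l) := by
    have h1 := int_f_le_II h hV hp hb0 hb (l := l + Real.log 8) (fun v hv => hmu v (by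
      rw [he8] at hv; exact hv.trans hT))
    rw [he8, hem] at h1
    have h2 : 8 * Real.exp l / 2 = 4 * Real.exp l := by ring
    rw [h2] at h1
    refine h1.trans ?_
    calc b0⁻¹ * (8 ^ m * Real.exp (m * l)) * II c W g1 (l + Real.log 8) ≤
        b0⁻¹ * (8 ^ m * Real.exp (m * l)) * (S * (64 * Real.exp (2 * l))) := by gcongr
      _ = _ := by ring
  have hf0 : ∀ p ∈ K ×ˢ G m k, 0 ≤ 2 * c.f p.1 := fun p hpm => by
    have := h.f_nonneg hpm.1; linarith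
  have cf2 : ContinuousOn (fun p : Euc k × L k => 2 * c.f p.1) (K ×ˢ G m k) :=
    continuousOn_const.mul (lift h.cf)
  have hsh : ∀ᵐ p ∂W, ‖c.x p.1‖ ≤ 3 * Real.exp l →
      ‖c.nu p.1‖ ≤ Real.sqrt (C1 m A b0 * S) * Real.exp l := by
    filter_upwards [hsup.s1 (3 * Real.exp l) (4 * Real.exp l) (by positivity) (by linarith)
      (by linarith), hV.mem] with p h1 hpm hx
    have h2 := h1 hx
    have h3 : 4 * Real.exp l - 3 * Real.exp l = Real.exp l := by ring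
    rw [h3] at h2
    have h4 : ((Real.exp l) ^ m)⁻¹ * Real.exp (m * l) = 1 := by
      rw [Real.exp_nat_mul]; exact inv_mul_cancel₀ (by positivity)
    have h5 : 2 * c.f p.1 ≤ C1 m A b0 * S * Real.exp (2 * l) := by
      calc 2 * c.f p.1 ≤ A * ((Real.exp l) ^ m)⁻¹ * ∫ p in Sh c (4 * Real.exp l), 2 * c.f p.1 ∂W := h2
        _ ≤ A * ((Real.exp l) ^ m)⁻¹ *
            (b0⁻¹ * 8 ^ m * 64 * S * Real.exp (m * l) * Real.exp (2 * l)) := by gcongr
        _ = C1 m A b0 * S * Real.exp (2 * l) * (((Real.exp l) ^ m)⁻¹ * Real.exp (m * l)) := by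
            unfold C1; ring
        _ = _ := by rw [h4, mul_one]
    rw [← h.nusq _ hpm.1] at h5
    have hC : 0 ≤ C1 m A b0 * S := by unfold C1; positivity
    refine le_of_sq_le_sq ?_ (by positivity)
    rw [mul_pow, Real.sq_sqrt hC, ← Real.exp_nat_mul]
    push_cast
    exact h5
  refine ⟨?_, hsh, fun hsm => ?_⟩
  · refine hi'.trans ?_
    calc b0⁻¹ * 8 ^ m * 64 * S * Real.exp (m * l) * Real.exp (2 * l) =
        1 * (b0⁻¹ * 8 ^ m * 64 * S * Real.exp (m * l) * Real.exp (2 * l)) := by ring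
      _ ≤ A * (b0⁻¹ * 8 ^ m * 64 * S * Real.exp (m * l) * Real.exp (2 * l)) :=
        mul_le_mul_of_nonneg_right hA hX0
      _ = _ := by unfold C1; ring
  · have hC : 0 ≤ C1 m A b0 * S := by unfold C1; positivity
    have hs8 : Real.sqrt (C1 m A b0 * S) ≤ 1 / 8 := by
      rw [Real.sqrt_le_left (by norm_num)]
      norm_num at hsm ⊢
      exact hsm
    have h1 := hsup.s2 (2 * Real.exp l) (3 * Real.exp l) (by positivity) (by linarith)
      (by linarith) (by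
        filter_upwards [hsh] with p h2 h3
        have h4 := h2 h3
        have h5 := mul_le_mul_of_nonneg_right hs8 hel.le
        linarith)
    have h3 : 3 * Real.exp l - 2 * Real.exp l = Real.exp l := by ring
    rw [h3] at h1
    have h4 : ((Real.exp l) ^ 2)⁻¹ * Real.exp (2 * l) = 1 := by
      have e2 : (2:ℝ) * l = ((2:ℕ):ℝ) * l := by norm_num
      rw [e2, Real.exp_nat_mul]; exact inv_mul_cancel₀ (by positivity)
    have h5 : ∫ p in Sh c (3 * Real.exp l), 2 * c.f p.1 ∂W ≤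
        b0⁻¹ * 8 ^ m * 64 * S * Real.exp (m * l) * Real.exp (2 * l) :=
      (int_Sh_mono h hV cf2 hf0 (by linarith)).trans hi'
    calc ∫ p in Sh c (2 * Real.exp l), c.tau p.1 p.2 ∂W ≤
        A * ((Real.exp l) ^ 2)⁻¹ * ∫ p in Sh c (3 * Real.exp l), 2 * c.f p.1 ∂W := h1
      _ ≤ A * ((Real.exp l) ^ 2)⁻¹ *
          (b0⁻¹ * 8 ^ m * 64 * S * Real.exp (m * l) * Real.exp (2 * l)) := by gcongr
      _ = C1 m A b0 * S * Real.exp (m * l) * (((Real.exp l) ^ 2)⁻¹ * Real.exp (2 * l)) := by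
          unfold C1; ring
      _ = _ := by rw [h4, mul_one]

end Crest.Agent.R234.LowF8_471
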