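import Mathlib

/-!
Row 234, (F4) LOW FREQUENCY, real-variable half (helper161).

`D` = scale invariant height excess `I / r^2`, `W = r^-2 (E - I/2)`, `τ = - log (r/s)` (going down).
Main result `qlow`: from
 (a) `D' ≤ -4 W + a S`, (b) `W' ≤ K (κ e^-τ + S) S`, (c) `W ≥ -K (κ e^-τ + S²)`
(valid whenever `S ≤ ε0` bounds `D` on `[-c, τ]`) it follows that `W 0 ≥ -θ D0`
as soon as `κ`, `D0` are small (depending on `θ, K, ε0`).
-/

namespace Crest.Agent.R234.Low_161

open Set Filter Topology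

/-- First touching point argument with history. -/
theorem first_touch {D B D' B' : ℝ → ℝ} {T : ℝ}
    (hD : ∀ τ ∈ Icc 0 T, HasDerivAt D (D' τ) τ) (hB : ∀ τ ∈ Icc 0 T, HasDerivAt B (B' τ) τ)
    (h0 : D 0 ≤ B 0)
    (h : ∀ τ ∈ Ico 0 T, (∀ t ∈ Icc 0 τ, D t ≤ B t) → D τ = B τ → D' τ < B' τ) :
    ∀ τ ∈ Icc 0 T, D τ ≤ B τ := by
  by_contra hcon
  push Not at hcon
  obtain ⟨τ1, hτ1, hlt1⟩ := hcon
  set U : Set ℝ := {τ | τ ∈ Icc 0 T ∧ B τ < D τ} with hU
  have hUne : U.Nonempty := ⟨τ1, hτ1, hlt1⟩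
  have hUbdd : BddBelow U := ⟨0, fun x hx => hx.1.1⟩
  set τ0 := sInf U with hτ0
  have h0τ : 0 ≤ τ0 := le_csInf hUne fun x hx => hx.1.1
  have hτ01 : τ0 ≤ τ1 := csInf_le hUbdd ⟨hτ1, hlt1⟩
  have hmem : τ0 ∈ Icc 0 T := ⟨h0τ, hτ01.trans hτ1.2⟩
  have hcD : ContinuousAt D τ0 := (hD τ0 hmem).continuousAt
  have hcB : ContinuousAt B τ0 := (hB τ0 hmem).continuousAt
  have hlow : ∀ t, 0 ≤ t → t < τ0 → D t ≤ B t := by
    intro t ht htl
    by_contra hc
    push Not at hc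
    exact absurd (csInf_le hUbdd (show t ∈ U from ⟨⟨ht, (htl.le.trans hmem.2)⟩, hc⟩))
      (not_le.2 htl)
  have hle0 : D τ0 ≤ B τ0 := by
    rcases eq_or_lt_of_le h0τ with he | hlt
    · rw [← he]; exact h0
    · have hev : ∀ᶠ t in 𝓝[<] τ0, D t ≤ B t := by
        have : Ioo 0 τ0 ∈ 𝓝[<] τ0 := Ioo_mem_nhdsLT hlt
        filter_upwards [this] with t ht
        exact hlow t ht.1.le ht.2
      exact le_of_tendsto_of_tendsto (hcD.tendsto.mono_left nhdsWithin_le_nhds)
        (hcB.tendsto.mono_left nhdsWithin_le_nhds) hev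
  have hne : τ0 ≠ τ1 := by
    intro he
    rw [← he] at hlt1
    exact absurd hle0 (not_le.2 hlt1)
  have hlt : τ0 < τ1 := lt_of_le_of_ne hτ01 hne
  have hT : τ0 < T := lt_of_lt_of_le hlt hτ1.2
  -- points of `U` accumulate at `τ0` from the right
  have hfr : ∃ᶠ t in 𝓝[>] τ0, B t < D t := by
    rw [frequently_iff]
    intro V hV
    obtain ⟨u, hu, huV⟩ := (mem_nhdsGT_iff_exists_Ioo_subset' hlt).1 hV
    obtain ⟨x, hxU, hxu⟩ := exists_lt_of_csInf_lt hUne (show sInf U < u from hu)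
    have hx0 : τ0 ≤ x := csInf_le hUbdd hxU
    have hx0' : τ0 ≠ x := by
      intro he
      rw [← he] at hxU
      exact absurd hle0 (not_le.2 hxU.2)
    exact ⟨x, huV ⟨lt_of_le_of_ne hx0 hx0', hxu⟩, hxU.2⟩
  have hge0 : B τ0 ≤ D τ0 := by
    by_contra hc
    push Not at hc
    have hev : ∀ᶠ t in 𝓝 τ0, D t < B t := hcD.eventually_lt hcB hc
    have hev' : ∀ᶠ t in 𝓝[>] τ0, D t < B t := hev.filter_mono nhdsWithin_le_nhds
    obtain ⟨t, ht1, ht2⟩ := (hfr.and_eventually hev').exists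
    exact lt_asymm ht1 ht2
  have heq : D τ0 = B τ0 := le_antisymm hle0 hge0
  have hder := h τ0 ⟨h0τ, hT⟩ (by
    intro t ht
    rcases eq_or_lt_of_le ht.2 with he | hl
    · rw [he]; exact hle0
    · exact hlow t ht.1 hl) heq
  have hd : HasDerivAt (fun t => B t - D t) (B' τ0 - D' τ0) τ0 :=
    (hB τ0 hmem).sub (hD τ0 hmem)
  have hpos : 0 < B' τ0 - D' τ0 := by linarith
  have hsl := (hasDerivAt_iff_tendsto_slope.1 hd)
  have hev : ∀ᶠ t in 𝓝[≠] τ0, 0 < slope (fun t => B t - D t) τ0 t :=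
    hsl.eventually (lt_mem_nhds hpos)
  have hev2 : ∀ᶠ t in 𝓝[>] τ0, 0 < slope (fun t => B t - D t) τ0 t :=
    hev.filter_mono (nhdsWithin_mono _ (fun x hx => ne_of_gt hx))
  obtain ⟨t, ⟨ht1, ht2⟩, ht3⟩ :=
    ((hfr.and_eventually hev2).and_eventually self_mem_nhdsWithin).exists
  have ht3' : τ0 < t := ht3
  rw [slope_def_field] at ht2
  have h1 : 0 < t - τ0 := by linarith
  have h2 : 0 < (B t - D t) - (B τ0 - D τ0) := by
    have := mul_pos ht2 h1
    rwa [div_mul_cancel₀ _ h1.ne'] at this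
  rw [heq] at h2
  linarith

/-- Real-variable half of (F4), general exponent `q ∈ (0,1]`. `κ1` depends only on `q, θ, K, ε0`. -/
theorem qlow_q {q a K ε0 θ : ℝ} (hq : 0 < q) (hq1 : q ≤ 1) (ha8 : a ≤ q / 8) (hK : 1 ≤ K)
    (hε : 0 < ε0) (hε1 : ε0 ≤ 1) (hθ : 0 < θ) (hθ1 : θ ≤ 1) :
    ∃ κ1 : ℝ, 0 < κ1 ∧ κ1 ≤ 1 ∧ ∀ (c κ D0 : ℝ) (D W D' W' : ℝ → ℝ), 0 ≤ c → 0 ≤ κ → κ ≤ κ1 →
      0 ≤ D0 → D0 ≤ κ1 →
      (∀ t ∈ Icc (-c) 0, D t ≤ D0) →
      (∀ τ, 0 ≤ τ → HasDerivAt D (D' τ) τ) → (∀ τ, 0 ≤ τ → HasDerivAt W (W' τ) τ) →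
      (∀ τ, 0 ≤ τ → ∀ S, 0 < S → S ≤ ε0 → (∀ t ∈ Icc (-c) τ, D t ≤ S) →
        D' τ ≤ -4 * W τ + a * S ∧ W' τ ≤ K * (κ * Real.exp (-τ) + S ^ q) * S ∧
        -K * (κ * Real.exp (-τ) + S ^ (1 + q)) ≤ W τ) →
      -θ * D0 ≤ W 0 := by
  -- constants
  obtain ⟨M, hM⟩ : ∃ M : ℝ, M = 40 / (θ * ε0 * q) := ⟨_, rfl⟩
  have hθε : 0 < θ * ε0 * q := mul_pos (mul_pos hθ hε) hq
  have hMpos : 0 < M := by rw [hM]; positivity
  have hM1 : M * (θ * ε0 * q) = 40 := by rw [hM]; field_simp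
  have hMθ : 40 ≤ M * θ := by
    have h1 : θ * ε0 * q ≤ θ := by
      calc θ * ε0 * q ≤ θ * 1 * 1 := by
            apply mul_le_mul (mul_le_mul_of_nonneg_left hε1 hθ.le) hq1 hq.le (by positivity)
        _ = θ := by ring
    have := mul_le_mul_of_nonneg_left h1 hMpos.le
    linarith
  have hMq : 40 ≤ M * q := by
    have h1 : θ * ε0 * q ≤ q := by
      calc θ * ε0 * q ≤ 1 * 1 * q := by
            apply mul_le_mul_of_nonneg_right _ hq.le
            exact mul_le_mul hθ1 hε1 hε.le zero_le_one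
        _ = q := by ring
    have := mul_le_mul_of_nonneg_left h1 hMpos.le
    linarith
  have hM40 : 40 ≤ M := by
    have : M * θ ≤ M * 1 := mul_le_mul_of_nonneg_left hθ1 hMpos.le
    linarith
  have hMε : 40 ≤ M * ε0 := by
    have h1 : θ * ε0 * q ≤ ε0 := by
      calc θ * ε0 * q ≤ 1 * ε0 * 1 := by
            apply mul_le_mul (mul_le_mul_of_nonneg_right hθ1 hε.le) hq1 hq.le (by positivity)
        _ = ε0 := by ring
    have := mul_le_mul_of_nonneg_left h1 hMpos.le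
    linarith
  have hKpos : 0 < K := by linarith
  obtain ⟨e1, he1⟩ : ∃ e1 : ℝ, e1 = q / (32 * K * M ^ 2) := ⟨_, rfl⟩
  have he1pos : 0 < e1 := by rw [he1]; positivity
  have hKMe1 : K * M ^ 2 * e1 = q / 32 := by
    rw [he1]; field_simp
  have hKM1 : 1 ≤ K * M ^ 2 :=
    one_le_mul_of_one_le_of_one_le hK (one_le_pow₀ (by linarith))
  have he11 : e1 ≤ 1 := by
    have h3 : e1 ≤ K * M ^ 2 * e1 := le_mul_of_one_le_left he1pos.le hKM1
    linarith
  obtain ⟨e2, he2⟩ : ∃ e2 : ℝ, e2 = e1 ^ (1 / q) := ⟨_, rfl⟩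
  have he2pos : 0 < e2 := by rw [he2]; exact Real.rpow_pos_of_pos he1pos _
  have he2q : e2 ^ q = e1 := by
    rw [he2, ← Real.rpow_mul he1pos.le, one_div_mul_cancel hq.ne', Real.rpow_one]
  have he2e1 : e2 ≤ e1 := by
    rw [he2]
    calc e1 ^ (1 / q) ≤ e1 ^ (1 : ℝ) :=
          Real.rpow_le_rpow_of_exponent_ge he1pos he11 ((one_le_div hq).2 hq1)
      _ = e1 := Real.rpow_one _
  refine ⟨e2 / (8 * K), by positivity, ?_, ?_⟩
  · rw [div_le_one (by positivity)]
    linarith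
  intro c κ D0 D W D' W' hc hκ hκ1 hD0 hD01 hDc hD hW hyp
  by_contra hcon
  push Not at hcon
  -- `w = -W`
  have hw0 : θ * D0 < -W 0 := by linarith
  have hw0pos : 0 < -W 0 := lt_of_le_of_lt (mul_nonneg hθ.le hD0) hw0
  -- the maximum point
  obtain ⟨T0, hT0, hT0'⟩ : ∃ T0 : ℝ, 0 ≤ T0 ∧ e2 * Real.exp (-T0) ≤ min e2 (-W 0) := by
    have hlim : Tendsto (fun t : ℝ => e2 * Real.exp (-t)) atTop (𝓝 (e2 * 0)) :=
      (Real.tendsto_exp_neg_atTop_nhds_zero).const_mul e2
    rw [mul_zero] at hlim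
    have hm : 0 < min e2 (-W 0) := lt_min he2pos hw0pos
    obtain ⟨T0, h1, h2⟩ := ((hlim.eventually (gt_mem_nhds hm)).and (eventually_ge_atTop 0)).exists
    exact ⟨T0, h2, h1.le⟩
  have hcW : ContinuousOn W (Icc 0 T0) := fun t ht => (hW t ht.1).continuousAt.continuousWithinAt
  have hcG : ContinuousOn (fun t => min (e2 * Real.exp (-t)) (-W t)) (Icc 0 T0) := by
    have h1 : ContinuousOn (fun t => e2 * Real.exp (-t)) (Icc 0 T0) :=
      Continuous.continuousOn (by fun_prop)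
    exact continuous_min.comp_continuousOn (h1.prodMk hcW.neg)
  obtain ⟨t0, ht0, hmax⟩ := isCompact_Icc.exists_isMaxOn (nonempty_Icc.2 hT0) hcG
  obtain ⟨m, hm⟩ : ∃ m : ℝ, m = min (e2 * Real.exp (-t0)) (-W t0) := ⟨_, rfl⟩
  have hmmax : ∀ t ∈ Icc 0 T0, min (e2 * Real.exp (-t)) (-W t) ≤ m := by
    intro t ht
    rw [hm]
    exact hmax ht
  have hm0 : min e2 (-W 0) ≤ m := by
    have := hmmax 0 ⟨le_refl _, hT0⟩
    simpa using this
  have hmpos : 0 < m := lt_of_lt_of_le (lt_min he2pos hw0pos) hm0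
  have hme2 : m ≤ e2 * Real.exp (-t0) := by rw [hm]; exact min_le_left _ _
  have hmw : m ≤ -W t0 := by rw [hm]; exact min_le_right _ _
  obtain ⟨T, hT⟩ : ∃ T : ℝ, T = Real.log (e2 / m) := ⟨_, rfl⟩
  have hexpT : e2 * Real.exp (-T) = m := by
    rw [hT, Real.exp_neg, Real.exp_log (by positivity)]
    field_simp
  have ht0T : t0 ≤ T := by
    have h1 : Real.exp (-T) ≤ Real.exp (-t0) := by
      rw [← hexpT] at hme2
      exact le_of_mul_le_mul_left hme2 he2pos
    have := Real.exp_le_exp.1 h1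
    linarith
  have hT0T : T ≤ T0 := by
    have h1 : e2 * Real.exp (-T0) ≤ e2 * Real.exp (-T) := by
      rw [hexpT]; exact hT0'.trans hm0
    have := Real.exp_le_exp.1 (le_of_mul_le_mul_left h1 he2pos)
    linarith
  have hTnn : 0 ≤ T := ht0.1.trans ht0T
  have hwm : ∀ t, 0 ≤ t → t < T → -W t ≤ m := by
    intro t ht htT
    have h1 := hmmax t ⟨ht, (htT.le.trans hT0T)⟩
    have h2 : m < e2 * Real.exp (-t) := by
      rw [← hexpT]
      exact mul_lt_mul_of_pos_left (Real.exp_lt_exp.2 (by linarith)) he2pos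
    rcases min_le_iff.1 h1 with h3 | h3
    · exact absurd h3 (not_le.2 h2)
    · exact h3
  -- `D0 ≤ M m`
  have hκ1e : e2 / (8 * K) ≤ e2 := by
    rw [div_le_iff₀ (by positivity)]
    exact le_mul_of_one_le_right he2pos.le (by linarith)
  have hD0m : D0 ≤ M * m := by
    rcases le_total e2 (-W 0) with h | h
    · rw [min_eq_left h] at hm0
      have h1 : D0 ≤ e2 := hD01.trans hκ1e
      have h2 : 1 * m ≤ M * m := mul_le_mul_of_nonneg_right (by linarith) hmpos.le
      linarith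
    · rw [min_eq_right h] at hm0
      have h1 : θ * D0 ≤ m := hw0.le.trans hm0
      have h2 : 40 * D0 ≤ M * m := by
        calc 40 * D0 ≤ M * θ * D0 := mul_le_mul_of_nonneg_right hMθ hD0
          _ = M * (θ * D0) := by ring
          _ ≤ M * m := mul_le_mul_of_nonneg_left h1 hMpos.le
      linarith
  -- barrier
  obtain ⟨B, hB⟩ : ∃ B : ℝ → ℝ, B = fun t => M * m * Real.exp (q / 4 * t) := ⟨_, rfl⟩
  have hBval : ∀ t, B t = M * m * Real.exp (q / 4 * t) := fun t => by rw [hB]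
  have hBder : ∀ t, HasDerivAt B (q / 4 * B t) t := by
    intro t
    have h1 : HasDerivAt (fun t : ℝ => Real.exp (q / 4 * t))
        (Real.exp (q / 4 * t) * (q / 4 * 1)) t := ((hasDerivAt_id t).const_mul (q / 4)).exp
    have h2 := h1.const_mul (M * m)
    rw [hBval t, hB]
    exact h2.congr_deriv (by ring)
  have hMm : 0 < M * m := mul_pos hMpos hmpos
  have hBpos : ∀ t, 0 < B t := fun t => by rw [hBval]; positivity
  have hBmono : ∀ s t, s ≤ t → B s ≤ B t := by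
    intro s t hst
    rw [hBval, hBval]
    exact mul_le_mul_of_nonneg_left (Real.exp_le_exp.2
      (mul_le_mul_of_nonneg_left hst (by linarith))) hMm.le
  have hB0 : M * m = B 0 := by rw [hBval]; simp
  have hBmM : ∀ t, 0 ≤ t → M * m ≤ B t := fun t ht => by rw [hB0]; exact hBmono 0 t ht
  -- size of the barrier on `[0, T]`
  have hBε : ∀ t, t ≤ T → B t ≤ M * e2 := by
    intro t ht
    refine (hBmono t T ht).trans ?_
    rw [hBval]
    have : m * Real.exp (q / 4 * T) ≤ e2 := by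
      rw [← hexpT, mul_assoc, ← Real.exp_add]
      have h0 : q / 4 * T ≤ 1 * T := mul_le_mul_of_nonneg_right (by linarith) hTnn
      have : Real.exp (-T + q / 4 * T) ≤ 1 := Real.exp_le_one_iff.2 (by linarith)
      exact mul_le_of_le_one_right he2pos.le this
    calc M * m * Real.exp (q / 4 * T) = M * (m * Real.exp (q / 4 * T)) := by ring
      _ ≤ M * e2 := mul_le_mul_of_nonneg_left this hMpos.le
  have hMe1 : M * e1 ≤ ε0 := by
    have h1 : K * M * (M * e1) = q / 32 := by rw [← hKMe1]; ring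
    have h2 : M * (M * e1) ≤ 1 := by
      have h0 : 0 ≤ M * (M * e1) := by positivity
      calc M * (M * e1) ≤ K * (M * (M * e1)) := le_mul_of_one_le_left h0 hK
        _ = K * M * (M * e1) := by ring
        _ = q / 32 := h1
        _ ≤ 1 := by linarith
    have h3 : M * (M * e1) ≤ M * ε0 := by linarith
    exact le_of_mul_le_mul_left h3 hMpos
  have hMe2 : M * e2 ≤ ε0 := (mul_le_mul_of_nonneg_left he2e1 hMpos.le).trans hMe1
  -- history: `B τ` is an admissible bound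
  have hist : ∀ τ, 0 ≤ τ → (∀ t ∈ Icc 0 τ, D t ≤ B t) → ∀ t ∈ Icc (-c) τ, D t ≤ B τ := by
    intro τ hτ h t ht
    rcases le_total t 0 with h1 | h1
    · exact ((hDc t ⟨ht.1, h1⟩).trans hD0m).trans (hBmM τ hτ)
    · exact (h t ⟨h1, ht.2⟩).trans (hBmono t τ ht.2)
  have hD0B : D 0 ≤ B 0 := by
    rw [← hB0]
    exact (hDc 0 ⟨by linarith, le_refl _⟩).trans hD0m
  have hDB : ∀ τ ∈ Icc 0 T, D τ ≤ B τ := by
    apply first_touch (D' := D') (B' := fun t => q / 4 * B t) (fun τ hτ => hD τ hτ.1)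
      (fun τ _ => hBder τ) hD0B
    intro τ hτ hh _
    have h1 := (hyp τ hτ.1 (B τ) (hBpos τ) ((hBε τ hτ.2.le).trans hMe2) (hist τ hτ.1 hh)).1
    have h2 := hwm τ hτ.1 hτ.2
    have h3 : a * B τ ≤ q / 8 * B τ := mul_le_mul_of_nonneg_right ha8 (hBpos τ).le
    have h4 : M * m ≤ B τ := hBmM τ hτ.1
    have h5 : 40 * m ≤ q * (M * m) := by
      calc 40 * m ≤ M * q * m := mul_le_mul_of_nonneg_right hMq hmpos.le
        _ = q * (M * m) := by ring
    have h6 : q * (M * m) ≤ q * B τ := mul_le_mul_of_nonneg_left h4 hq.le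
    show D' τ < q / 4 * B τ
    linarith
  -- powers of the barrier
  have hBq : ∀ t, B t ^ q = (M * m) ^ q * Real.exp (q * (q / 4 * t)) := by
    intro t
    rw [hBval, Real.mul_rpow hMm.le (Real.exp_pos _).le, ← Real.exp_mul]
    congr 2
    ring
  obtain ⟨Z, hZ⟩ : ∃ Z : ℝ, Z = (M * m) ^ q * (M * m) := ⟨_, rfl⟩
  have hZpos : 0 < Z := by rw [hZ]; positivity
  have hBq1 : ∀ t, B t ^ q * B t = Z * Real.exp (q / 4 * (1 + q) * t) := by
    intro t
    rw [hBq, hBval, hZ]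
    have : Real.exp (q / 4 * (1 + q) * t) = Real.exp (q * (q / 4 * t)) * Real.exp (q / 4 * t) := by
      rw [← Real.exp_add]; congr 1; ring
    rw [this]; ring
  have hBq2 : ∀ t, B t ^ (1 + q) = Z * Real.exp (q / 4 * (1 + q) * t) := by
    intro t
    rw [← hBq1 t, Real.rpow_add (hBpos t), Real.rpow_one, mul_comm]
  -- the growth of `W` between `t0` and `T`
  have hq4 : 0 < 1 - q / 4 := by linarith
  have hq5 : 0 < q / 4 * (1 + q) := by positivity
  obtain ⟨P, hP⟩ : ∃ P : ℝ → ℝ, P = fun t => K * (-(κ * (M * m) / (1 - q / 4)) *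
      Real.exp (-((1 - q / 4) * t)) + Z / (q / 4 * (1 + q)) *
      Real.exp (q / 4 * (1 + q) * t)) := ⟨_, rfl⟩
  have hPval : ∀ t, P t = K * (-(κ * (M * m) / (1 - q / 4)) *
      Real.exp (-((1 - q / 4) * t)) + Z / (q / 4 * (1 + q)) *
      Real.exp (q / 4 * (1 + q) * t)) := fun t => by rw [hP]
  have hPder : ∀ t, HasDerivAt P (K * (κ * Real.exp (-t) + B t ^ q) * B t) t := by
    intro t
    have h1 : HasDerivAt (fun t : ℝ => Real.exp (-((1 - q / 4) * t)))
        (Real.exp (-((1 - q / 4) * t)) * (-((1 - q / 4) * 1))) t :=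
      (((hasDerivAt_id t).const_mul (1 - q / 4)).neg).exp
    have h2 : HasDerivAt (fun t : ℝ => Real.exp (q / 4 * (1 + q) * t))
        (Real.exp (q / 4 * (1 + q) * t) * (q / 4 * (1 + q) * 1)) t :=
      ((hasDerivAt_id t).const_mul (q / 4 * (1 + q))).exp
    have h3 := ((h1.const_mul (-(κ * (M * m) / (1 - q / 4)))).add
      (h2.const_mul (Z / (q / 4 * (1 + q))))).const_mul K
    have e1' : Real.exp (-((1 - q / 4) * t)) = Real.exp (-t) * Real.exp (q / 4 * t) := by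
      rw [← Real.exp_add]; congr 1; ring
    have e2' : K * (κ * Real.exp (-t) + B t ^ q) * B t =
        K * (κ * (M * m) * (Real.exp (-t) * Real.exp (q / 4 * t)) +
          Z * Real.exp (q / 4 * (1 + q) * t)) := by
      rw [← hBq1 t, hBval t]; ring
    rw [e2', hP]
    refine h3.congr_deriv ?_
    rw [e1']
    have hA : κ * (M * m) / (1 - q / 4) * (1 - q / 4) = κ * (M * m) := div_mul_cancel₀ _ hq4.ne'
    have hC : Z / (q / 4 * (1 + q)) * (q / 4 * (1 + q)) = Z := div_mul_cancel₀ _ hq5.ne'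
    linear_combination (K * (Real.exp (-t) * Real.exp (q / 4 * t))) * hA +
      (K * Real.exp (q / 4 * (1 + q) * t)) * hC
  have hanti : AntitoneOn (fun t => W t - P t) (Icc t0 T) := by
    have hd : ∀ t ∈ Icc t0 T, HasDerivAt (fun t => W t - P t)
        (W' t - K * (κ * Real.exp (-t) + B t ^ q) * B t) t := fun t ht =>
      (hW t (ht0.1.trans ht.1)).sub (hPder t)
    apply antitoneOn_of_deriv_nonpos (convex_Icc _ _)
    · exact fun t ht => (hd t ht).continuousAt.continuousWithinAt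
    · intro t ht
      rw [interior_Icc] at ht
      exact (hd t ⟨ht.1.le, ht.2.le⟩).differentiableAt.differentiableWithinAt
    · intro t ht
      rw [interior_Icc] at ht
      have ht' : t ∈ Icc t0 T := ⟨ht.1.le, ht.2.le⟩
      rw [(hd t ht').deriv]
      have h00 : 0 ≤ t := ht0.1.trans ht'.1
      have h1 := (hyp t h00 (B t) (hBpos t) ((hBε t ht'.2).trans hMe2)
        (hist t h00 (fun s hs => hDB s ⟨hs.1, hs.2.trans ht'.2⟩))).2.1
      linarith
  have hWT : W T - P T ≤ W t0 - P t0 := hanti ⟨le_refl _, ht0T⟩ ⟨ht0T, le_refl _⟩ ht0T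
  have hbot := (hyp T hTnn (B T) (hBpos T) ((hBε T le_rfl).trans hMe2)
        (hist T hTnn (fun s hs => hDB s hs))).2.2
  -- numerical estimates
  have hZe : Z * Real.exp (q / 4 * (1 + q) * T) ≤ M ^ 2 * m * e1 := by
    have h1 : M ^ q ≤ M := by
      calc M ^ q ≤ M ^ (1 : ℝ) := Real.rpow_le_rpow_of_exponent_le (by linarith) hq1
        _ = M := Real.rpow_one _
    have h2 : m ^ q = e1 * Real.exp (-(q * T)) := by
      rw [← hexpT, Real.mul_rpow he2pos.le (Real.exp_pos _).le, he2q, ← Real.exp_mul]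
      congr 2
      ring
    have h3 : Real.exp (-(q * T)) * Real.exp (q / 4 * (1 + q) * T) ≤ 1 := by
      rw [← Real.exp_add]
      apply Real.exp_le_one_iff.2
      have h4 : q / 4 * (1 + q) * T ≤ q * T := by
        apply mul_le_mul_of_nonneg_right _ hTnn
        calc q / 4 * (1 + q) ≤ q / 4 * 4 := mul_le_mul_of_nonneg_left (by linarith) (by linarith)
          _ = q := by ring
      linarith
    have h5 : Z = M ^ q * (m ^ q * (M * m)) := by
      rw [hZ, Real.mul_rpow hMpos.le hmpos.le]; ring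
    calc Z * Real.exp (q / 4 * (1 + q) * T)
        = M ^ q * (M * m * e1) * (Real.exp (-(q * T)) * Real.exp (q / 4 * (1 + q) * T)) := by
          rw [h5, h2]; ring
      _ ≤ M ^ q * (M * m * e1) * 1 := mul_le_mul_of_nonneg_left h3 (by positivity)
      _ ≤ M * (M * m * e1) * 1 := by
          apply mul_le_mul_of_nonneg_right _ zero_le_one
          exact mul_le_mul_of_nonneg_right h1 (by positivity)
      _ = M ^ 2 * m * e1 := by ring
  have hPT : P T - P t0 ≤ m * (K * (4 / 3 * κ * M + 4 / q * (M ^ 2 * e1))) := by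
    rw [hPval, hPval]
    have h1 : Real.exp (-((1 - q / 4) * t0)) ≤ 1 :=
      Real.exp_le_one_iff.2 (by have := mul_nonneg hq4.le ht0.1; linarith)
    have h2 : 0 ≤ κ * (M * m) / (1 - q / 4) * Real.exp (-((1 - q / 4) * T)) := by positivity
    have h3 : 0 ≤ Z / (q / 4 * (1 + q)) * Real.exp (q / 4 * (1 + q) * t0) := by positivity
    have h4 : κ * (M * m) / (1 - q / 4) * Real.exp (-((1 - q / 4) * t0)) ≤
        m * (4 / 3 * κ * M) := by
      have h41 : κ * (M * m) / (1 - q / 4) ≤ 4 / 3 * (κ * (M * m)) := by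
        rw [div_le_iff₀ hq4]
        have h42 : 0 ≤ κ * (M * m) := by positivity
        have h43 : (1 : ℝ) ≤ 4 / 3 * (1 - q / 4) := by linarith
        calc κ * (M * m) = κ * (M * m) * 1 := (mul_one _).symm
          _ ≤ κ * (M * m) * (4 / 3 * (1 - q / 4)) := mul_le_mul_of_nonneg_left h43 h42
          _ = 4 / 3 * (κ * (M * m)) * (1 - q / 4) := by ring
      calc κ * (M * m) / (1 - q / 4) * Real.exp (-((1 - q / 4) * t0))
          ≤ κ * (M * m) / (1 - q / 4) * 1 := mul_le_mul_of_nonneg_left h1 (by positivity)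
        _ ≤ 4 / 3 * (κ * (M * m)) := by rw [mul_one]; exact h41
        _ = m * (4 / 3 * κ * M) := by ring
    have h5 : Z / (q / 4 * (1 + q)) * Real.exp (q / 4 * (1 + q) * T) ≤
        m * (4 / q * (M ^ 2 * e1)) := by
      have h51 : Z / (q / 4 * (1 + q)) * Real.exp (q / 4 * (1 + q) * T) =
          (Z * Real.exp (q / 4 * (1 + q) * T)) / (q / 4 * (1 + q)) := by ring
      rw [h51, div_le_iff₀ hq5]
      have h52 : (1 : ℝ) ≤ 4 / q * (q / 4 * (1 + q)) := by
        have : 4 / q * (q / 4 * (1 + q)) = 1 + q := by field_simp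
        rw [this]; linarith
      have h53 : 0 ≤ M ^ 2 * m * e1 := by positivity
      calc Z * Real.exp (q / 4 * (1 + q) * T) ≤ M ^ 2 * m * e1 * 1 := by rw [mul_one]; exact hZe
        _ ≤ M ^ 2 * m * e1 * (4 / q * (q / 4 * (1 + q))) := mul_le_mul_of_nonneg_left h52 h53
        _ = m * (4 / q * (M ^ 2 * e1)) * (q / 4 * (1 + q)) := by ring
    have h8 : (-(κ * (M * m) / (1 - q / 4)) * Real.exp (-((1 - q / 4) * T)) +
        Z / (q / 4 * (1 + q)) * Real.exp (q / 4 * (1 + q) * T)) -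
        (-(κ * (M * m) / (1 - q / 4)) * Real.exp (-((1 - q / 4) * t0)) +
        Z / (q / 4 * (1 + q)) * Real.exp (q / 4 * (1 + q) * t0)) ≤
        m * (4 / 3 * κ * M + 4 / q * (M ^ 2 * e1)) := by
      have e1' : m * (4 / 3 * κ * M + 4 / q * (M ^ 2 * e1)) =
          m * (4 / 3 * κ * M) + m * (4 / q * (M ^ 2 * e1)) := by ring
      rw [e1']
      linarith
    calc K * (-(κ * (M * m) / (1 - q / 4)) * Real.exp (-((1 - q / 4) * T)) +
        Z / (q / 4 * (1 + q)) * Real.exp (q / 4 * (1 + q) * T)) -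
        K * (-(κ * (M * m) / (1 - q / 4)) * Real.exp (-((1 - q / 4) * t0)) +
        Z / (q / 4 * (1 + q)) * Real.exp (q / 4 * (1 + q) * t0))
        = K * ((-(κ * (M * m) / (1 - q / 4)) * Real.exp (-((1 - q / 4) * T)) +
        Z / (q / 4 * (1 + q)) * Real.exp (q / 4 * (1 + q) * T)) -
        (-(κ * (M * m) / (1 - q / 4)) * Real.exp (-((1 - q / 4) * t0)) +
        Z / (q / 4 * (1 + q)) * Real.exp (q / 4 * (1 + q) * t0))) := by ring
      _ ≤ K * (m * (4 / 3 * κ * M + 4 / q * (M ^ 2 * e1))) :=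
          mul_le_mul_of_nonneg_left h8 hKpos.le
      _ = m * (K * (4 / 3 * κ * M + 4 / q * (M ^ 2 * e1))) := by ring
  have hκe : 8 * K * κ ≤ e2 := by
    have := (le_div_iff₀ (by positivity : (0:ℝ) < 8 * K)).1 hκ1
    linarith
  have hKκM : K * κ * M ≤ 1 / 64 := by
    have h1 : 8 * K * κ * M ≤ e1 * M := mul_le_mul_of_nonneg_right (hκe.trans he2e1) hMpos.le
    have h2 : e1 * M ≤ K * M ^ 2 * e1 := by
      have : 1 ≤ K * M := one_le_mul_of_one_le_of_one_le hK (by linarith)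
      calc e1 * M = 1 * (e1 * M) := by ring
        _ ≤ K * M * (e1 * M) := mul_le_mul_of_nonneg_right this (by positivity)
        _ = K * M ^ 2 * e1 := by ring
    linarith
  have hfac : K * (4 / 3 * κ * M + 4 / q * (M ^ 2 * e1)) ≤ 1 / 2 := by
    have : K * (4 / 3 * κ * M + 4 / q * (M ^ 2 * e1)) =
        4 / 3 * (K * κ * M) + 4 / q * (K * M ^ 2 * e1) := by ring
    rw [this, hKMe1]
    have h2 : 4 / q * (q / 32) = 1 / 8 := by
      have h21 : 4 / q * (q / 32) = (q / q) * (4 / 32) := by ring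
      rw [h21, div_self hq.ne']
      norm_num
    rw [h2]
    linarith
  have hWT2 : W T ≤ -(m / 2) := by
    have h1 : m * (K * (4 / 3 * κ * M + 4 / q * (M ^ 2 * e1))) ≤ m * (1 / 2) :=
      mul_le_mul_of_nonneg_left hfac hmpos.le
    linarith
  -- bottom
  have hb1 : K * (κ * Real.exp (-T)) ≤ m / 8 := by
    have h1 : 8 * K * κ * Real.exp (-T) ≤ e2 * Real.exp (-T) :=
      mul_le_mul_of_nonneg_right hκe (Real.exp_pos _).le
    rw [hexpT] at h1
    linarith
  have hb2 : K * B T ^ (1 + q) ≤ m / 8 := by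
    rw [hBq2]
    calc K * (Z * Real.exp (q / 4 * (1 + q) * T)) ≤ K * (M ^ 2 * m * e1) :=
          mul_le_mul_of_nonneg_left hZe hKpos.le
      _ = (K * M ^ 2 * e1) * m := by ring
      _ = q * m / 32 := by rw [hKMe1]; ring
      _ ≤ m / 8 := by
          have : q * m ≤ 1 * m := mul_le_mul_of_nonneg_right hq1 hmpos.le
          linarith
  have : -(m / 4) ≤ W T := by
    have h1 : -K * (κ * Real.exp (-T) + B T ^ (1 + q)) =
        -(K * (κ * Real.exp (-T)) + K * B T ^ (1 + q)) := by ring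
    rw [h1] at hbot
    linarith
  linarith

end Crest.Agent.R234.Low_161
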