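import Crest.Agent.R234.Lr1_456

/-!
# Row 234 (helper456): masses over the base balls of a block chart

* `Gr.mass_up`, `Gr.mass_low` : sandwich of `{z ∈ Kr, |ch.x z| < r}` between balls about `x`
* **`mass_reg`** : the two mass conditions of helper618's total variation theorem at all scales
  `e^(-T) S ≤ s ≤ S`
-/

set_option autoImplicit false

open MeasureTheory Filter Topology Set Function
open scoped ENNReal NNReal ContDiff InnerProductSpace
open Crest.GeometryTopology.Submanifold Crest.Agent.R234.Vf_884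
open Crest.Agent.R234.Main_456

noncomputable section

namespace Crest.Agent.R234.Gi_456

variable {m n k : ℕ}

local notation "adj" => ContinuousLinearMap.adjoint

variable {π : Euc k →L[ℝ] Euc m} {ρ : Euc k →L[ℝ] Euc n} {x : Euc k} {S : ℝ} {w : Euc m → Euc n}
  {U : Set (Euc k)} {V : Measure (Euc k × L k)} {ε κ : ℝ}

/-- the situation of a flat block -/
structure Fb (m : ℕ) {k n : ℕ} (U : Set (Euc k)) (V : Measure (Euc k × L k)) (Q : ℕ) (x : Euc k)
    (S : ℝ) (π : Euc k →L[ℝ] Euc m) (ρ : Euc k →L[ℝ] Euc n) (w : Euc m → Euc n) (ε κ om : ℝ) :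
    Prop where
  gr : Gr S w
  fr : Frame π ρ
  st : Stat m k U V
  sub : Metric.closedBall x (8 * S) ⊆ U
  th : Th m V x = (Q : ℝ≥0∞)
  drop : rat m V x (4 * S) ≤ (Q : ℝ≥0∞) + ENNReal.ofReal om
  sup : ∀ᵐ p ∂V, p.1 ∈ Metric.ball x (4 * S) → ‖ρ (p.1 - x)‖ ≤ ε * S
  ε0 : 0 ≤ ε
  ε1 : ε ≤ 1 / 16
  κ1 : κ ≤ 1 / 64
  om0 : 0 ≤ om
  d1 : ∀ X : Euc m, ‖X‖ ≤ 3 * S → ‖fderiv ℝ w X‖ ≤ κ
  w0 : ‖w 0‖ ≤ κ * S

namespace Fb

variable {Q : ℕ} {om : ℝ} (h : Fb m U V Q x S π ρ w ε κ om)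

include h

theorem S0 : 0 < S := h.gr.pos

theorem κ0 : 0 ≤ κ := (norm_nonneg _).trans (h.d1 0 (by have := h.S0; simp; positivity))

theorem w_le (X : Euc m) (hX : ‖X‖ ≤ 3 * S) : ‖w X‖ ≤ 4 * κ * S := by
  have hS := h.S0
  have h1 := (convex_closedBall (0 : Euc m) (3 * S)).norm_image_sub_le_of_norm_fderiv_le
    (𝕜 := ℝ) (f := w) (C := κ) (fun y _ => h.gr.differentiable y)
    (fun y hy => h.d1 y (mem_closedBall_zero_iff.1 hy))
    (Metric.mem_closedBall_self (by positivity)) (mem_closedBall_zero_iff.2 hX)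
  rw [sub_zero] at h1
  have h2 := norm_le_norm_add_norm_sub' (w X) (w 0)
  have h3 := h.w0
  have h4 : κ * ‖X‖ ≤ κ * (3 * S) := mul_le_mul_of_nonneg_left hX h.κ0
  linarith

theorem w8 (X : Euc m) (hX : ‖X‖ ≤ 3 * S) : ‖w X‖ ≤ S / 8 := by
  have h1 := h.w_le X hX
  have h2 := h.κ1
  have hS := h.S0
  nlinarith

theorem loc (hU : IsOpen U) :
    GL_394.Loc (ch π ρ x S w 0) U (tube π ρ x S w) (Kr π ρ x S w) V (Real.log S) :=
  h.gr.loc_reg h.fr h.st hU h.sub h.sup (by have := h.ε1; linarith) h.w8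

/-- a.e. point of the region over `{|ch.x| < r}` lies in the ball of radius `r + θ S` -/
theorem ae_up (r : ℝ) : ∀ᵐ p ∂V,
    p.1 ∈ {z ∈ Kr π ρ x S w | ‖(ch π ρ x S w 0).x z‖ < r} →
      p.1 ∈ Metric.ball x (r + (2 * ε + 4 * κ) * S) := by
  have hS := h.S0
  filter_upwards [h.sup] with p hp h1
  have h2 := h.gr.Kr_subset_closedBall h.fr h.w8 h1.1
  rw [mem_closedBall_iff_norm] at h2
  have h3 := hp (mem_ball_iff_norm.2 (by linarith))
  have h4 := h.gr.two_sided h.fr (by have := h.κ1; linarith) h.ε0 h.d1 h.w0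
    (h.gr.Kr_subset_tube h1.1) h3 h.ε1 h1.1.1
  rw [mem_ball_iff_norm]
  have h5 := (abs_le.1 h4).2
  have h6 := h1.2
  linarith

/-- a.e. point of the ball of radius `s` lies in the region over `{|ch.x| < s + θ S}` -/
theorem ae_low {s : ℝ} (hs : s ≤ 2 * S) : ∀ᵐ p ∂V, p.1 ∈ Metric.ball x s →
    p.1 ∈ {z ∈ Kr π ρ x S w | ‖(ch π ρ x S w 0).x z‖ < s + (2 * ε + 4 * κ) * S} := by
  have hS := h.S0
  filter_upwards [h.sup] with p hp h1
  rw [mem_ball_iff_norm] at h1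
  have h3 := hp (mem_ball_iff_norm.2 (by linarith))
  have h2 : ‖π (p.1 - x)‖ ≤ 2 * S := (norm_pi_le' h.fr _).trans (by linarith)
  have h5 : ‖ρ (p.1 - x) - w (π (p.1 - x))‖ ≤ (ε + 4 * κ) * S :=
    Gr.hgt_le (fun X hX => h.w_le X hX) h3 (by linarith)
  have h6 : (ε + 4 * κ) * S ≤ S / 2 := by
    have := h.ε1; have := h.κ1
    nlinarith
  have hK : p.1 ∈ Kr π ρ x S w := ⟨h2, h5.trans h6⟩
  have h4 := h.gr.two_sided h.fr (by have := h.κ1; linarith) h.ε0 h.d1 h.w0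
    (h.gr.Kr_subset_tube hK) h3 h.ε1 h2
  refine ⟨hK, ?_⟩
  have h7 := (abs_le.1 h4).1
  linarith

theorem fin_ball {s : ℝ} (hs : s ≤ 8 * S) : V (Metric.ball x s ×ˢ univ) ≠ ⊤ := by
  have h1 := h.st.fin (Metric.closedBall x s) (isCompact_closedBall x s)
    ((Metric.closedBall_subset_closedBall hs).trans h.sub)
  exact (lt_of_le_of_lt (measure_mono (Set.prod_mono Metric.ball_subset_closedBall Subset.rfl))
    h1).ne

theorem mass_up {r : ℝ} (hr : r + (2 * ε + 4 * κ) * S ≤ 8 * S) :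
    V.real ({z ∈ Kr π ρ x S w | ‖(ch π ρ x S w 0).x z‖ < r} ×ˢ univ) ≤
      V.real (Metric.ball x (r + (2 * ε + 4 * κ) * S) ×ˢ univ) := by
  refine ENNReal.toReal_mono (h.fin_ball hr) (measure_mono_ae ?_)
  filter_upwards [h.ae_up r] with p hp h1
  exact ⟨hp h1.1, trivial⟩

theorem mass_low {s : ℝ} (hs : s ≤ 2 * S) :
    V.real (Metric.ball x s ×ˢ univ) ≤
      V.real ({z ∈ Kr π ρ x S w | ‖(ch π ρ x S w 0).x z‖ < s + (2 * ε + 4 * κ) * S} ×ˢ univ) := by
  have hS := h.S0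
  refine ENNReal.toReal_mono ?_ (measure_mono_ae ?_)
  · have h1 : V ({z ∈ Kr π ρ x S w | ‖(ch π ρ x S w 0).x z‖ < s + (2 * ε + 4 * κ) * S} ×ˢ univ) ≤
        V (Kr π ρ x S w ×ˢ univ) := measure_mono (Set.prod_mono (fun z hz => hz.1) Subset.rfl)
    refine (lt_of_le_of_lt h1 (h.st.fin _ (h.gr.isCompact_Kr h.fr h.w8) ?_)).ne
    exact (h.gr.Kr_subset_closedBall h.fr h.w8).trans
      ((Metric.closedBall_subset_closedBall (by linarith)).trans h.sub)
  · filter_upwards [h.ae_low hs] with p hp h1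
    exact ⟨hp h1.1, trivial⟩

/-- masses of balls -/
theorem ball_low (hm : 1 ≤ m) {s : ℝ} (hs0 : 0 < s) (hs : s ≤ 4 * S) :
    Q * (ome m * s ^ m) ≤ V.real (Metric.ball x s ×ˢ univ) := by
  have hU : Metric.ball x s ⊆ U := Metric.ball_subset_closedBall.trans
    ((Metric.closedBall_subset_closedBall (by have := h.S0; linarith)).trans h.sub)
  have h1 := mul_le_mass h.st hm hs0 hU (c := (Q : ℝ≥0∞)) h.th.ge
  rw [mass_apply V Metric.isOpen_ball.measurableSet, ← prod_univ_eq] at h1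
  have h2 := ENNReal.toReal_mono (h.fin_ball (by have := h.S0; linarith)) h1
  rw [ENNReal.toReal_mul, ENNReal.toReal_natCast, ENNReal.toReal_ofReal
    (den_pos m hs0).le] at h2
  exact h2

theorem ball_up (hm : 1 ≤ m) {s : ℝ} (hs0 : 0 < s) (hs : s ≤ 4 * S) :
    V.real (Metric.ball x s ×ˢ univ) ≤ (Q + om) * (ome m * s ^ m) := by
  have hS := h.S0
  have hU : Metric.ball x (4 * S) ⊆ U := Metric.ball_subset_closedBall.trans
    ((Metric.closedBall_subset_closedBall (by linarith)).trans h.sub)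
  have h1 := (rat_mono h.st hm hs0 hs hU).trans h.drop
  unfold rat at h1
  rw [ENNReal.div_le_iff_le_mul (Or.inl (by
    rw [ne_eq, ENNReal.ofReal_eq_zero, not_le]; exact den_pos m hs0))
    (Or.inl ENNReal.ofReal_ne_top), mass_apply V Metric.isOpen_ball.measurableSet,
    ← prod_univ_eq] at h1
  have h3 : ((Q : ℝ≥0∞) + ENNReal.ofReal om) * ENNReal.ofReal (ome m * s ^ m) =
      ENNReal.ofReal ((Q + om) * (ome m * s ^ m)) := by
    have ho : 0 ≤ om := h.om0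
    have hQ : (0 : ℝ) ≤ (Q : ℝ) + om := by positivity
    rw [ENNReal.ofReal_mul (p := (Q : ℝ) + om) hQ, ENNReal.ofReal_add (by positivity) ho,
      ENNReal.ofReal_natCast]
  rw [h3] at h1
  have h2 := ENNReal.toReal_mono ENNReal.ofReal_ne_top h1
  rwa [ENNReal.toReal_ofReal (by
    have := h.om0; have := den_pos m hs0; positivity)] at h2

end Fb

theorem exists_a (m Q : ℕ) : ∃ a : ℝ, 0 < a ∧ a ≤ 1 / 64 ∧
    ((Q : ℝ) + a) * (1 + a) ^ m ≤ Q + 1 / 4 ∧ (Q : ℝ) - 1 / 4 ≤ Q * (1 - a) ^ m := by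
  have c1 : Tendsto (fun a : ℝ => ((Q : ℝ) + a) * (1 + a) ^ m) (𝓝[>] 0) (𝓝 Q) := by
    have h : Continuous fun a : ℝ => ((Q : ℝ) + a) * (1 + a) ^ m := by fun_prop
    have := h.tendsto 0
    simp only [add_zero, one_pow, mul_one] at this
    exact this.mono_left nhdsWithin_le_nhds
  have c2 : Tendsto (fun a : ℝ => (Q : ℝ) * (1 - a) ^ m) (𝓝[>] 0) (𝓝 Q) := by
    have h : Continuous fun a : ℝ => (Q : ℝ) * (1 - a) ^ m := by fun_prop
    have := h.tendsto 0
    simp only [sub_zero, one_pow, mul_one] at this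
    exact this.mono_left nhdsWithin_le_nhds
  have e1 := c1.eventually (ge_mem_nhds (show (Q : ℝ) < Q + 1 / 4 by linarith))
  have e2 := c2.eventually (le_mem_nhds (show (Q : ℝ) - 1 / 4 < Q by linarith))
  have e3 : ∀ᶠ a in 𝓝[>] (0:ℝ), a ∈ Ioo (0:ℝ) (1 / 64) := Ioo_mem_nhdsGT (by norm_num)
  obtain ⟨a, h1, h2, h3⟩ := (e1.and (e2.and e3)).exists
  exact ⟨a, h3.1, h3.2.le, h1, h2⟩

/-- **(L2) masses over the base balls**, all scales `e^(-T) S ≤ s ≤ S` -/
theorem mass_reg (m Q : ℕ) (hm : 1 ≤ m) (T : ℝ) (hT : 0 ≤ T) : ∃ δ : ℝ, 0 < δ ∧ δ ≤ 1 / 64 ∧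
    ∀ {k n : ℕ} {U : Set (Euc k)} {V : Measure (Euc k × L k)} {x : Euc k} {S : ℝ}
      {π : Euc k →L[ℝ] Euc m} {ρ : Euc k →L[ℝ] Euc n} {w : Euc m → Euc n} {ε κ om : ℝ},
      Fb m U V Q x S π ρ w ε κ om → ε ≤ δ → κ ≤ δ → om ≤ δ →
        ∀ s : ℝ, Real.exp (-T) * S ≤ s → s ≤ S →
          |V.real ({z ∈ Kr π ρ x S w | ‖(ch π ρ x S w 0).x z‖ < s / 4} ×ˢ univ) -
            Q * volume.real (Metric.ball (0 : Euc m) (s / 4))| ≤
            volume.real (Metric.ball (0 : Euc m) (s / 4)) / 4 ∧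
          V.real ({z ∈ Kr π ρ x S w | ‖(ch π ρ x S w 0).x z‖ < 2 * s} ×ˢ univ) ≤
            (Q + 1) * (ome m * 3 ^ m) * s ^ m := by
  obtain ⟨a, ha0, ha1, ha2, ha3⟩ := exists_a m Q
  have hE : 0 < Real.exp (-T) := Real.exp_pos _
  have hE1 : Real.exp (-T) ≤ 1 := Real.exp_le_one_iff.2 (by linarith)
  refine ⟨a * Real.exp (-T) / 24, by positivity, by nlinarith, ?_⟩
  intro k n U V x S π ρ w ε κ om h hε hκ hom s hs1 hs2
  have hS := h.S0
  have hs0 : 0 < s := lt_of_lt_of_le (by positivity) hs1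
  have hκ0 := h.κ0
  have hε0 := h.ε0
  have ho := ome_pos m
  -- `θ S ≤ a s / 4`
  have hθ : (2 * ε + 4 * κ) * S ≤ a * (s / 4) := by
    calc (2 * ε + 4 * κ) * S ≤ (a * Real.exp (-T) / 4) * S := by
          refine mul_le_mul_of_nonneg_right ?_ hS.le
          linarith
      _ = a / 4 * (Real.exp (-T) * S) := by ring
      _ ≤ a / 4 * s := by gcongr
      _ = a * (s / 4) := by ring
  have hθ0 : 0 ≤ (2 * ε + 4 * κ) * S := by positivity
  have hom' : om ≤ a := hom.trans (by nlinarith)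
  have hvol : volume.real (Metric.ball (0 : Euc m) (s / 4)) = ome m * (s / 4) ^ m := by
    rw [measureReal_def, volume_ball_eq m 0 (by positivity), ENNReal.toReal_ofReal
      (den_pos m (by positivity)).le]
  have hr0 : 0 < s / 4 := by positivity
  have hden : 0 < ome m * (s / 4) ^ m := den_pos m hr0
  have hQ0 : (0 : ℝ) ≤ Q := Nat.cast_nonneg Q
  constructor
  · rw [hvol, abs_le]
    constructor
    · -- lower
      have h1 := h.mass_low (s := s / 4 - (2 * ε + 4 * κ) * S) (by linarith)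
      rw [sub_add_cancel] at h1
      have hp : 0 < s / 4 - (2 * ε + 4 * κ) * S := by nlinarith
      have h2 := h.ball_low hm hp (by linarith)
      have h3 : ((1 - a) * (s / 4)) ^ m ≤ (s / 4 - (2 * ε + 4 * κ) * S) ^ m := by
        refine pow_le_pow_left₀ ?_ (by linarith) m
        have : 0 ≤ 1 - a := by linarith
        positivity
      rw [mul_pow] at h3
      have h4 : (Q : ℝ) * (ome m * ((1 - a) ^ m * (s / 4) ^ m)) ≤
          Q * (ome m * (s / 4 - (2 * ε + 4 * κ) * S) ^ m) := by gcongr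
      have h5 : (Q - 1 / 4) * (ome m * (s / 4) ^ m) ≤
          (Q * (1 - a) ^ m) * (ome m * (s / 4) ^ m) := mul_le_mul_of_nonneg_right ha3 hden.le
      nlinarith
    · -- upper
      have h1 := h.mass_up (r := s / 4) (by nlinarith)
      have hp : 0 < s / 4 + (2 * ε + 4 * κ) * S := by positivity
      have h2 := h.ball_up hm hp (by nlinarith)
      have h3 : (s / 4 + (2 * ε + 4 * κ) * S) ^ m ≤ ((1 + a) * (s / 4)) ^ m :=
        pow_le_pow_left₀ hp.le (by linarith) m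
      rw [mul_pow] at h3
      have hom0 := h.om0
      have h4 : ((Q : ℝ) + om) * (ome m * (s / 4 + (2 * ε + 4 * κ) * S) ^ m) ≤
          (Q + a) * (ome m * ((1 + a) ^ m * (s / 4) ^ m)) := by gcongr
      have h5 : ((Q + a) * (1 + a) ^ m) * (ome m * (s / 4) ^ m) ≤
          (Q + 1 / 4) * (ome m * (s / 4) ^ m) := mul_le_mul_of_nonneg_right ha2 hden.le
      nlinarith
  · have h1 := h.mass_up (r := 2 * s) (by nlinarith)
    have hp : 0 < 2 * s + (2 * ε + 4 * κ) * S := by positivity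
    have h2 := h.ball_up hm hp (by nlinarith)
    have h3 : (2 * s + (2 * ε + 4 * κ) * S) ^ m ≤ (3 * s) ^ m :=
      pow_le_pow_left₀ hp.le (by nlinarith) m
    rw [mul_pow] at h3
    have hom0 := h.om0
    have h4 : ((Q : ℝ) + om) * (ome m * (2 * s + (2 * ε + 4 * κ) * S) ^ m) ≤
        (Q + 1) * (ome m * (3 ^ m * s ^ m)) := by
      gcongr
      linarith
    calc _ ≤ _ := h1
      _ ≤ _ := h2
      _ ≤ _ := h4
      _ = _ := by ring

end Crest.Agent.R234.Gi_456
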