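import Crest.Agent.R234.F10w_188
import Crest.Agent.R234.End4_395
import Crest.Agent.R234.Mx17_397

/-!
# Row 234, (F8) START (helper214), part 1: bounds of a reference, integrability, `LowV`

* `Wb M a` : `|u|, |Du|, |D²u| ≤ a ≤ 1/8` everywhere; `Wb.gr : Gr M.S M.w` and the bounds of `M.w`.
* `exists_wb` : from `MG`.
* `lowV : LowV`.
-/

set_option autoImplicit false
set_option linter.unusedVariables false

open MeasureTheory Filter Topology Set
open scoped ENNReal NNReal ContDiff InnerProductSpace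
open Crest.GeometryTopology.Submanifold Crest.Agent.R234.Vf_884
open Crest.Agent.R234.Main_456 (Frame Msys hgt)
open Crest.Agent.R234.MG_570 (MG)
open Crest.Agent.R234.Gi_456
open Crest.Agent.R234.GL_394 (Ok On VK II)
open Crest.Agent.R234.GI_640 (g3 g31)
open Crest.Agent.R234.Stp_518
open Crest.Agent.R234.End_395 (Cmp cmp_ch ig norm_x_le)

noncomputable section

namespace Crest.Agent.R234.Lvs_214

variable {m n k : ℕ}

local notation "adj" => ContinuousLinearMap.adjoint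

/-- `C²` bounds of a reference in block units. -/
structure Wb (M : Mo m n k) (a : ℝ) : Prop where
  a0 : 0 ≤ a
  a8 : a ≤ 1 / 8
  cd : ContDiff ℝ 4 M.u
  b0 : ∀ X, ‖M.u X‖ ≤ a
  b1 : ∀ X, ‖fderiv ℝ M.u X‖ ≤ a
  b2 : ∀ X, ‖fderiv ℝ (fderiv ℝ M.u) X‖ ≤ a

theorem exists_wb (m n : ℕ) {N : ℕ} (hN : 2 ≤ N) : ∃ C : ℝ, 1 ≤ C ∧
    ∀ {k : ℕ} {M : Mo m n k} {κ r : ℝ}, 0 ≤ κ → C * κ ≤ 1 / 8 → MG N κ r M.u → Wb M (C * κ) := by
  obtain ⟨C, hC, H⟩ := Mx17_397.bdP m n N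
  refine ⟨max 1 C, le_max_left _ _, ?_⟩
  intro k M κ r hκ hs hmg
  obtain ⟨h1, h2⟩ := H κ r M.u hmg
  have hle : C * κ ≤ max 1 C * κ := mul_le_mul_of_nonneg_right (le_max_right _ _) hκ
  have h4 : (4 : WithTop ℕ∞) ≤ (((N + 2 : ℕ) : ℕ∞) : WithTop ℕ∞) := by
    have h3 : (4 : ℕ∞) ≤ ((N + 2 : ℕ) : ℕ∞) := by exact_mod_cast (by omega : 4 ≤ N + 2)
    rw [show (4 : WithTop ℕ∞) = ((4 : ℕ∞) : WithTop ℕ∞) from rfl]
    exact WithTop.coe_le_coe.2 h3
  refine ⟨by positivity, hs, h1.of_le h4, fun X => ?_, fun X => ?_, fun X => ?_⟩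
  · have h := h2 0 (by omega) X
    rw [norm_iteratedFDeriv_zero] at h
    exact h.trans hle
  · have h := h2 1 (by omega) X
    rw [norm_iteratedFDeriv_one] at h
    exact h.trans hle
  · have h := h2 2 (by omega) X
    rw [← norm_iteratedFDeriv_fderiv, norm_iteratedFDeriv_one] at h
    exact h.trans hle

namespace Wb

variable {M : Mo m n k} {a : ℝ}

theorem dw (h : Wb M a) (X : Euc m) : fderiv ℝ M.w X = fderiv ℝ M.u (M.S⁻¹ • X) := by
  have hS := M.S_pos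
  have h1 : HasFDerivAt M.u (fderiv ℝ M.u (M.S⁻¹ • X)) (M.S⁻¹ • X) :=
    ((h.cd.differentiable (by norm_num)) _).hasFDerivAt
  have h2 : HasFDerivAt (fun X : Euc m => M.S⁻¹ • X)
      (M.S⁻¹ • ContinuousLinearMap.id ℝ (Euc m)) X := (hasFDerivAt_id X).const_smul M.S⁻¹
  have h3 : HasFDerivAt M.w _ X := (h1.comp X h2).const_smul M.S
  rw [h3.fderiv]
  ext1 v
  simp only [ContinuousLinearMap.comp_apply, _root_.smul_apply, ContinuousLinearMap.id_apply,
    map_smul, smul_smul]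
  rw [mul_inv_cancel₀ hS.ne', one_smul]

theorem d1 (h : Wb M a) (X : Euc m) : ‖fderiv ℝ M.w X‖ ≤ a := by
  rw [h.dw]
  exact h.b1 _

theorem ddw (h : Wb M a) (X : Euc m) : fderiv ℝ (fderiv ℝ M.w) X =
    M.S⁻¹ • fderiv ℝ (fderiv ℝ M.u) (M.S⁻¹ • X) := by
  have e : fderiv ℝ M.w = fun X => fderiv ℝ M.u (M.S⁻¹ • X) := funext h.dw
  rw [e]
  have h0 : ContDiff ℝ 1 (fderiv ℝ M.u) := h.cd.fderiv_right (by norm_num)
  have h1 : HasFDerivAt (fderiv ℝ M.u) (fderiv ℝ (fderiv ℝ M.u) (M.S⁻¹ • X)) (M.S⁻¹ • X) :=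
    ((h0.differentiable (by norm_num)) _).hasFDerivAt
  have h2 : HasFDerivAt (fun X : Euc m => M.S⁻¹ • X)
      (M.S⁻¹ • ContinuousLinearMap.id ℝ (Euc m)) X := (hasFDerivAt_id X).const_smul M.S⁻¹
  have h3 : HasFDerivAt (fun X => fderiv ℝ M.u (M.S⁻¹ • X)) _ X := h1.comp X h2
  rw [h3.fderiv]
  ext1 v
  simp only [ContinuousLinearMap.comp_apply, _root_.smul_apply, ContinuousLinearMap.id_apply,
    map_smul]

theorem d2 (h : Wb M a) (X : Euc m) : M.S * ‖fderiv ℝ (fderiv ℝ M.w) X‖ ≤ a := by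
  have hS := M.S_pos
  rw [h.ddw]
  have h1 : ‖M.S⁻¹ • fderiv ℝ (fderiv ℝ M.u) (M.S⁻¹ • X)‖ ≤
      ‖M.S⁻¹‖ * ‖fderiv ℝ (fderiv ℝ M.u) (M.S⁻¹ • X)‖ := ContinuousLinearMap.opNorm_smul_le _ _
  rw [norm_inv, Real.norm_of_nonneg hS.le] at h1
  calc M.S * ‖M.S⁻¹ • fderiv ℝ (fderiv ℝ M.u) (M.S⁻¹ • X)‖
      ≤ M.S * (M.S⁻¹ * ‖fderiv ℝ (fderiv ℝ M.u) (M.S⁻¹ • X)‖) := by gcongr
    _ = ‖fderiv ℝ (fderiv ℝ M.u) (M.S⁻¹ • X)‖ := by
      rw [← mul_assoc, mul_inv_cancel₀ hS.ne', one_mul]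
    _ ≤ a := h.b2 _

theorem gr (h : Wb M a) : Gr M.S M.w where
  pos := M.S_pos
  cd := by
    have h1 : ContDiff ℝ 4 fun X : Euc m => M.S⁻¹ • X := contDiff_const_smul _
    exact (h.cd.comp h1).const_smul M.S
  d1 := fun X => (h.d1 X).trans h.a8
  d2 := fun X => by
    have hS := M.S_pos
    have h1 := (h.d2 X).trans h.a8
    rw [le_div_iff₀ (by positivity)]
    nlinarith

theorem w_le (h : Wb M a) (X : Euc m) : ‖M.w X‖ ≤ a * M.S := by
  have hS := M.S_pos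
  show ‖M.S • M.u (M.S⁻¹ • X)‖ ≤ _
  rw [norm_smul, Real.norm_of_nonneg hS.le, mul_comm]
  exact mul_le_mul_of_nonneg_right (h.b0 _) hS.le

theorem reg_tube (h : Wb M a) {x : Euc k} (hf : Frame M.π M.ρ) :
    M.reg x ⊆ tube M.π M.ρ x M.S M.w :=
  h.gr.Kc_subset hf 0 (by have := M.S_pos; linarith)

theorem mem_reg (h : Wb M a) {x : Euc k} (hf : Frame M.π M.ρ) {z : Euc k} :
    z ∈ M.reg x ↔ z ∈ tube M.π M.ρ x M.S M.w ∧ ‖foot M.π M.ρ x M.S M.w z‖ ≤ 2 * M.S ∧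
      ‖yy M.π M.ρ x M.S M.w z‖ ≤ M.S / 2 := by
  have h1 := h.gr.mem_Kc hf (x := x) (X0 := 0) (R := 2 * M.S) (t := M.S / 2)
    (by have := M.S_pos; linarith) (z := z)
  rwa [sub_zero] at h1

theorem isCompact_reg (h : Wb M a) (x : Euc k) : IsCompact (M.reg x) := h.gr.isCompact_Kc _ _ _

theorem measurableSet_reg (h : Wb M a) (x : Euc k) : MeasurableSet (M.reg x) :=
  (h.isCompact_reg x).isClosed.measurableSet

theorem reg_sub_ball (h : Wb M a) {x : Euc k} (hf : Frame M.π M.ρ) :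
    M.reg x ⊆ Metric.closedBall x (8 * M.S) := by
  have hS := M.S_pos
  intro z hz
  have h1 := h.gr.Kc_subset_closedBall hf (x := x) (0 : Euc m) (R := 2 * M.S) (t := M.S / 2)
    (by linarith) hz
  rw [mem_closedBall_iff_norm] at h1 ⊢
  have e : z - x = (z - pm M.π M.ρ x M.w 0) + adj M.ρ (M.w 0) := by
    rw [pm, map_zero]; abel
  have h2 : ‖adj M.ρ (M.w 0)‖ = ‖M.w 0‖ := norm_adj_rho hf _
  have h3 := h.w_le 0
  have h4 := h.a8
  rw [e]
  refine (norm_add_le _ _).trans ?_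
  rw [h2]
  nlinarith

theorem ok (h : Wb M a) {x : Euc k} (hf : Frame M.π M.ρ) : Ok (M.ch x) (M.reg x) univ :=
  h.gr.ok hf 0 (h.isCompact_reg x) (h.reg_tube hf)

theorem cmp (h : Wb M a) {x : Euc k} (hf : Frame M.π M.ρ) {l : ℝ} (hl : l ≤ M.lb) :
    Cmp (M.ch x) (M.reg x) (fun z => hgt M.π M.ρ x M.S M.u z) (fun z => M.π (z - x)) l :=
  cmp_ch h.gr hf h.a0 h.d1 h.d2 (Real.exp_le_exp.2 hl) h.a8 (h.reg_tube hf)

theorem mu_pos (M : Mo m n k) (x : Euc k) (v : Euc m) : 0 < (M.ch x).mu v :=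
  muG_pos (fun v u hu => giB_pos M.w 0 v u hu) v

theorem f_nonneg (M : Mo m n k) (x z : Euc k) : 0 ≤ (M.ch x).f z := by
  show 0 ≤ ‖Bt M.π M.ρ M.w (foot M.π M.ρ x M.S M.w z) (yy M.π M.ρ x M.S M.w z)‖ ^ 2 / 2
  positivity

/-- the integrand of `I` is non-negative everywhere -/
theorem ig_nonneg (M : Mo m n k) (x : Euc k) (l : ℝ) (q : Euc k × L k) :
    0 ≤ ig (M.ch x) g31 l q := by
  have h1 := GI_640.g31_nonpos (Real.exp (-2 * l) * ‖(M.ch x).x q.1‖ ^ 2)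
  have h2 := f_nonneg M x q.1
  have h3 := (mu_pos M x ((M.ch x).x q.1)).le
  exact mul_nonneg (mul_nonneg h2 h3) (by linarith)

end Wb

/-- integrability over a compact piece, functions of the point. -/
theorem int_VK {V : Measure (Euc k × L k)} {K : Set (Euc k)} (hK : IsCompact K)
    (hV : V (K ×ˢ univ) < ⊤) {F : Euc k → ℝ} (hF : ContinuousOn F K) :
    Integrable (fun p : Euc k × L k => F p.1) (VK V K) := by
  have hm : MeasurableSet (K ×ˢ (univ : Set (L k))) :=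
    hK.isClosed.measurableSet.prod MeasurableSet.univ
  obtain ⟨C, hC⟩ := hK.exists_bound_of_continuousOn hF
  have hfin : IsFiniteMeasure (VK V K) := ⟨by
    unfold VK
    rwa [Measure.restrict_apply_univ]⟩
  have h1 : ContinuousOn (fun p : Euc k × L k => F p.1) (K ×ˢ univ) :=
    hF.comp continuousOn_fst fun p hp => hp.1
  refine Integrable.mono' (integrable_const C) (h1.aestronglyMeasurable hm) ?_
  filter_upwards [ae_restrict_mem hm] with p hp
  exact hC _ hp.1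

theorem continuousOn_ig0 {c : GL_394.Ch m k} {K : Set (Euc k)} (hok : Ok c K univ) (l : ℝ) :
    ContinuousOn (fun z => (c.f z * c.mu (c.x z)) * (-4 * g31 (Real.exp (-2 * l) * ‖c.x z‖ ^ 2)))
      K := by
  have h1 : ContinuousOn c.f K := fun z hz => (hok.hf z hz).continuousAt.continuousWithinAt
  have h2 : ContinuousOn c.x K := fun z hz => (hok.hx z hz).continuousAt.continuousWithinAt
  have h3 : ContinuousOn (fun z => c.mu (c.x z)) K := hok.cmu.comp h2 fun z hz => hok.mem z hz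
  have h4 : ContinuousOn (fun z => g31 (Real.exp (-2 * l) * ‖c.x z‖ ^ 2)) K :=
    GI_640.continuous_g31.comp_continuousOn (continuousOn_const.mul (h2.norm.pow 2))
  exact (h1.mul h3).mul (continuousOn_const.mul h4)

theorem int_ig {c : GL_394.Ch m k} {V : Measure (Euc k × L k)} {K : Set (Euc k)}
    (hok : Ok c K univ) (hV : V (K ×ˢ univ) < ⊤) (l : ℝ) : Integrable (ig c g31 l) (VK V K) :=
  int_VK hok.cpt hV (continuousOn_ig0 hok l)

/-! ### `LowV` -/

/-- pointwise part of `LowV`. -/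
theorem low_pt {M : Mo m n k} {a T l : ℝ} (h : Wb M a) {x : Euc k} (hf : Frame M.π M.ρ)
    (hT : M.lb - T ≤ l) (hl : l ≤ M.lb) (ha : 100 * a ≤ Real.exp (-T)) {z : Euc k}
    (hz : ‖z - x‖ ≤ Real.exp (l - 3)) :
    z ∈ M.reg x ∧ ∀ P : L k, ‖hgt M.π M.ρ x M.S M.u z‖ ^ 2 ≤ ig (M.ch x) g31 l (z, P) := by
  have hS := M.S_pos
  have hE := Real.exp_pos l
  have hSl : Real.exp l ≤ M.S := Real.exp_le_exp.2 hl
  have hST : M.S * Real.exp (-T) ≤ Real.exp l := by
    rw [Mo.S, ← Real.exp_add]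
    exact Real.exp_le_exp.2 (by linarith)
  have h3 : Real.exp (l - 3) ≤ 1 / 20 * Real.exp l := by
    have e1 : (20 : ℝ) ≤ Real.exp 3 := by
      have h1 : Real.exp 3 = Real.exp 1 ^ 3 := by rw [← Real.exp_nat_mul]; norm_num
      rw [h1]
      have h2 : (2.7182818283 : ℝ) < Real.exp 1 := Real.exp_one_gt_d9
      calc (20 : ℝ) ≤ 2.7182818283 ^ 3 := by norm_num
        _ ≤ Real.exp 1 ^ 3 := pow_le_pow_left₀ (by norm_num) h2.le 3
    have e2 : Real.exp (l - 3) * Real.exp 3 = Real.exp l := by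
      rw [← Real.exp_add]; congr 1; ring
    have := Real.exp_pos (l - 3)
    nlinarith
  have hw : ‖M.w (M.π (z - x))‖ ≤ 1 / 100 * Real.exp l := by
    have h1 := h.w_le (M.π (z - x))
    nlinarith
  have hπ : ‖M.π (z - x)‖ ≤ 1 / 20 * Real.exp l := (norm_pi_le' hf _).trans (hz.trans h3)
  have hρ : ‖M.ρ (z - x)‖ ≤ 1 / 20 * Real.exp l := (norm_rho_le' hf _).trans (hz.trans h3)
  have hh : ‖M.ρ (z - x) - M.w (M.π (z - x))‖ ≤ 6 / 100 * Real.exp l :=
    (norm_sub_le _ _).trans (by linarith)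
  have ht : z ∈ tube M.π M.ρ x M.S M.w := by
    show ‖M.ρ (z - x) - M.w (M.π (z - x))‖ < M.S
    linarith
  have hg := h.gr
  have hy := hg.norm_yy_le ht
  have hfo := hg.norm_foot_sub ht
  have hfo2 : ‖foot M.π M.ρ x M.S M.w z‖ ≤ 65 / 1000 * Real.exp l := by
    have := norm_le_norm_add_norm_sub' (foot M.π M.ρ x M.S M.w z) (M.π (z - x))
    linarith
  have hreg : z ∈ M.reg x := (h.mem_reg hf).2 ⟨ht, by linarith, by linarith⟩
  refine ⟨hreg, fun P => ?_⟩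
  have hc := h.cmp hf hl (x := x)
  have hx : ‖(M.ch x).x z‖ ≤ 1 / 10 * Real.exp l := by
    have := norm_x_le (π := M.π) (ρ := M.ρ) (x := x) hg z
    show ‖(ch M.π M.ρ x M.S M.w 0).x z‖ ≤ _
    linarith
  have hmu := (hc.mu z hreg (by linarith)).1
  have hf2 := hc.f2 z hreg
  have harg : Real.exp (-2 * l) * ‖(M.ch x).x z‖ ^ 2 ≤ 1 / 100 := by
    have e1 : ‖(M.ch x).x z‖ ^ 2 ≤ (1 / 10 * Real.exp l) ^ 2 :=
      pow_le_pow_left₀ (norm_nonneg _) hx 2
    have e2 : Real.exp (-2 * l) * Real.exp l ^ 2 = 1 := by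
      rw [← Real.exp_nat_mul, ← Real.exp_add]
      have : -2 * l + ((2 : ℕ) : ℝ) * l = 0 := by push_cast; ring
      rw [this, Real.exp_zero]
    have e3 := Real.exp_pos (-2 * l)
    calc Real.exp (-2 * l) * ‖(M.ch x).x z‖ ^ 2 ≤ Real.exp (-2 * l) * (1 / 10 * Real.exp l) ^ 2 := by
          gcongr
      _ = 1 / 100 * (Real.exp (-2 * l) * Real.exp l ^ 2) := by ring
      _ = 1 / 100 := by rw [e2, mul_one]
  have hg31 : 10 ≤ -4 * g31 (Real.exp (-2 * l) * ‖(M.ch x).x z‖ ^ 2) := by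
    set t := Real.exp (-2 * l) * ‖(M.ch x).x z‖ ^ 2 with ht
    have e1 : (99 / 100 : ℝ) ≤ max 0 (1 - t) := le_max_of_le_right (by linarith)
    unfold GI_640.g31
    nlinarith
  have hf0 := Wb.f_nonneg M x z
  show _ ≤ ((M.ch x).f z * (M.ch x).mu ((M.ch x).x z)) *
    (-4 * g31 (Real.exp (-2 * l) * ‖(M.ch x).x z‖ ^ 2))
  have hfm : 1 / 2 * (M.ch x).f z ≤ (M.ch x).f z * (M.ch x).mu ((M.ch x).x z) := by nlinarith
  have hfm0 : 0 ≤ (M.ch x).f z * (M.ch x).mu ((M.ch x).x z) := le_trans (by positivity) hfm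
  nlinarith

theorem lowV : F10w_188.LowV := by
  intro m n k N T hm hN
  obtain ⟨C, hC1, HC⟩ := exists_wb m n hN
  have hC0 : 0 < C := by linarith
  refine ⟨min (1 / (8 * C)) (Real.exp (-T) / (100 * C)), Real.exp ((m + 2) * 3), ?_, Real.exp_pos _, ?_⟩
  · exact lt_min (by positivity) (by have := Real.exp_pos (-T); positivity)
  intro V x M l hf hκ hκ1 hmg hT hl hV
  have h1 : C * M.κ ≤ 1 / 8 := by
    have := hκ1.trans (min_le_left _ _)
    rw [le_div_iff₀ (by positivity)] at this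
    linarith
  have h2 : 100 * (C * M.κ) ≤ Real.exp (-T) := by
    have := hκ1.trans (min_le_right _ _)
    rw [le_div_iff₀ (by positivity)] at this
    linarith
  have h := HC hκ h1 hmg
  have hok := h.ok hf (x := x)
  have hfin : V (M.reg x ×ˢ univ) < ⊤ :=
    lt_of_le_of_lt (measure_mono (prod_mono (h.reg_sub_ball hf) le_rfl)) hV
  have hint := int_ig hok hfin l
  have hbm : MeasurableSet ((Prod.fst : Euc k × L k → Euc k) ⁻¹' Metric.ball x (Real.exp (l - 3))) :=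
    measurable_fst Metric.isOpen_ball.measurableSet
  have hrm : MeasurableSet (M.reg x ×ˢ (univ : Set (L k))) :=
    (h.measurableSet_reg x).prod MeasurableSet.univ
  have key : ∫ p in Prod.fst ⁻¹' (Metric.ball x (Real.exp (l - 3))),
      ‖hgt M.π M.ρ x M.S M.u p.1‖ ^ 2 ∂V ≤ ∫ p, ig (M.ch x) g31 l p ∂(VK V (M.reg x)) := by
    have hsub : (Prod.fst : Euc k × L k → Euc k) ⁻¹' Metric.ball x (Real.exp (l - 3)) ⊆
        M.reg x ×ˢ univ := by
      intro p hp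
      have hp' : p.1 ∈ Metric.ball x (Real.exp (l - 3)) := hp
      rw [mem_ball_iff_norm] at hp'
      exact ⟨(low_pt h hf hT hl h2 hp'.le).1, mem_univ _⟩
    have hint2 : IntegrableOn (ig (M.ch x) g31 l)
        (Prod.fst ⁻¹' (Metric.ball x (Real.exp (l - 3)))) V := by
      have : IntegrableOn (ig (M.ch x) g31 l) (M.reg x ×ˢ univ) V := hint
      exact this.mono_set hsub
    calc ∫ p in Prod.fst ⁻¹' (Metric.ball x (Real.exp (l - 3))),
          ‖hgt M.π M.ρ x M.S M.u p.1‖ ^ 2 ∂V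
        ≤ ∫ p in Prod.fst ⁻¹' (Metric.ball x (Real.exp (l - 3))), ig (M.ch x) g31 l p ∂V := by
          refine integral_mono_of_nonneg (Eventually.of_forall fun p => by positivity) hint2 ?_
          filter_upwards [ae_restrict_mem hbm] with p hp
          have hp' : p.1 ∈ Metric.ball x (Real.exp (l - 3)) := hp
          rw [mem_ball_iff_norm] at hp'
          exact (low_pt h hf hT hl h2 hp'.le).2 p.2
      _ ≤ ∫ p in M.reg x ×ˢ univ, ig (M.ch x) g31 l p ∂V :=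
          setIntegral_mono_set hint (Eventually.of_forall fun p => Wb.ig_nonneg M x l p)
            (LE.le.eventuallyLE hsub)
  have hE := Real.exp_pos (-((m + 2) * (l - 3)))
  calc Real.exp (-((m + 2) * (l - 3))) * ∫ p in Prod.fst ⁻¹' (Metric.ball x (Real.exp (l - 3))),
        ‖hgt M.π M.ρ x M.S M.u p.1‖ ^ 2 ∂V
      ≤ Real.exp (-((m + 2) * (l - 3))) * ∫ p, ig (M.ch x) g31 l p ∂(VK V (M.reg x)) := by
        gcongr
    _ = Real.exp ((m + 2) * 3) * (Real.exp (-2 * l) * M.I x V l) := by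
        show _ = Real.exp ((m + 2) * 3) * (Real.exp (-2 * l) *
          (Real.exp (-m * l) * ∫ p, ig (M.ch x) g31 l p ∂(VK V (M.reg x))))
        rw [← mul_assoc, ← mul_assoc, ← Real.exp_add, ← Real.exp_add]
        congr 2
        ring

end Crest.Agent.R234.Lvs_214
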