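import Mathlib

/-!
# Row 234, the case `m = 1` (helper770), file a: integer slices

One-dimensional area formula with integer multiplicities for a differentiable real function.
-/

set_option autoImplicit false

open MeasureTheory Set ENNReal
open scoped NNReal

namespace Crest.Agent.R234.M1_770

/-- a value which is a natural number or infinite -/
def IsInt (x : ℝ≥0∞) : Prop := x = ⊤ ∨ ∃ n : ℕ, x = n

theorem IsInt.zero : IsInt 0 := Or.inr ⟨0, by simp⟩

theorem IsInt.natCast (n : ℕ) : IsInt (n : ℝ≥0∞) := Or.inr ⟨n, rfl⟩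

theorem IsInt.mul {x y : ℝ≥0∞} (hx : IsInt x) (hy : IsInt y) : IsInt (x * y) := by
  rcases hx with rfl | ⟨a, rfl⟩
  · rcases eq_or_ne y 0 with rfl | h
    · simpa using IsInt.zero
    · exact Or.inl (ENNReal.top_mul h)
  · rcases hy with rfl | ⟨b, rfl⟩
    · rcases Nat.eq_zero_or_pos a with rfl | h
      · simpa using IsInt.zero
      · exact Or.inl (ENNReal.mul_top (by exact_mod_cast h.ne'))
    · exact Or.inr ⟨a * b, by push_cast; rfl⟩

theorem isInt_tsum {ι : Type*} (a : ι → ℝ≥0∞) (h : ∀ i, IsInt (a i)) : IsInt (∑' i, a i) := by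
  classical
  by_cases ht : ∑' i, a i = ⊤
  · exact Or.inl ht
  · have hf := ENNReal.finite_const_le_of_tsum_ne_top ht (one_ne_zero)
    have hne : ∀ i, a i ≠ ⊤ := fun i hi => ht (by
      have := ENNReal.le_tsum (f := a) i
      rw [hi] at this
      exact top_unique this)
    have hn : ∀ i, ∃ n : ℕ, a i = n := fun i => (h i).resolve_left (hne i)
    choose n hn using hn
    have h0 : ∀ i, i ∉ hf.toFinset → a i = 0 := by
      intro i hi
      have : ¬ (1 : ℝ≥0∞) ≤ a i := by simpa using hi
      rw [hn i] at this ⊢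
      have h1 : n i < 1 := by
        by_contra hc
        exact this (by exact_mod_cast Nat.le_of_not_lt hc)
      have : n i = 0 := by omega
      simp [this]
    refine Or.inr ⟨∑ i ∈ hf.toFinset, n i, ?_⟩
    rw [tsum_eq_sum h0]
    push_cast
    exact Finset.sum_congr rfl fun i _ => hn i

theorem isInt_indicator {α : Type*} (s : Set α) (x : α) :
    IsInt (s.indicator (fun _ => (1 : ℝ≥0∞)) x) := by
  classical
  rw [Set.indicator_apply]
  split_ifs
  · exact Or.inr ⟨1, by simp⟩
  · exact IsInt.zero

/-- a linear approximation with a small constant is injective -/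
theorem injOn_of_approx {u : ℝ → ℝ} {A : ℝ →L[ℝ] ℝ} {s : Set ℝ} (hA : A ≠ 0)
    (h : ApproximatesLinearOn u A s (‖A‖₊ / 2)) : InjOn u s := by
  intro x hx y hy hxy
  by_contra hne
  have h1 := h x hx y hy
  rw [hxy, sub_self, zero_sub, norm_neg] at h1
  have h2 : ‖A (x - y)‖ = ‖A‖ * ‖x - y‖ := by
    have h3 : A (x - y) = (x - y) * A 1 := by
      have := A.map_smul (x - y) 1
      simpa [smul_eq_mul] using this
    have h4 : ‖A‖ = ‖A 1‖ := by
      have := ContinuousLinearMap.norm_toSpanSingleton (𝕜 := ℝ) (A 1)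
      rw [← this]
      congr 1
      ext
      simp
    rw [h3, norm_mul, h4, mul_comm]
  rw [h2] at h1
  have h5 : 0 < ‖x - y‖ := norm_pos_iff.2 (sub_ne_zero.2 hne)
  have h6 : 0 < ‖A‖ := norm_pos_iff.2 hA
  have h7 : ((‖A‖₊ / 2 : ℝ≥0) : ℝ) = ‖A‖ / 2 := by simp
  rw [h7] at h1
  nlinarith [mul_pos h6 h5]

/-- **integer slices**: the image under `u` of the measure `q |u'| dt` on `S` has a density with
values in `ℕ ∪ {∞}`. -/
theorem exists_slices {u u' : ℝ → ℝ} {S : Set ℝ} (hS : MeasurableSet S)
    (hu : ∀ t ∈ S, HasDerivAt u (u' t) t) (hm : Measurable u') {q : ℝ → ℕ} (hq : Measurable q) :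
    ∃ N : ℝ → ℝ≥0∞, Measurable N ∧ (∀ r, IsInt (N r)) ∧
      ∀ h : ℝ → ℝ≥0∞, Measurable h →
        ∫⁻ t in S, q t * (ENNReal.ofReal |u' t| * h (u t)) = ∫⁻ r, N r * h r := by
  classical
  set S' : Set ℝ := S ∩ {t | u' t ≠ 0} with hS'
  have hS'm : MeasurableSet S' :=
    hS.inter (hm (MeasurableSet.compl (measurableSet_singleton 0)))
  obtain ⟨T, A, hTd, hTm, hTc, hTa, hTy⟩ :=
    exists_partition_approximatesLinearOn_of_hasFDerivWithinAt u S'
      (fun t => ContinuousLinearMap.toSpanSingleton ℝ (u' t))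
      (fun t ht => (hu t ht.1).hasDerivWithinAt.hasFDerivWithinAt)
      (fun A => if A = 0 then 1 else ‖A‖₊ / 2) (by
        intro A
        by_cases h : A = 0
        · simp [h]
        · simp [h])
  set P : ℕ × ℕ → Set ℝ := fun n => (S' ∩ T n.1) ∩ q ⁻¹' {n.2} with hP
  have hPm : ∀ n, MeasurableSet (P n) := fun n =>
    (hS'm.inter (hTm _)).inter (hq (measurableSet_singleton _))
  have hPinj : ∀ n, InjOn u (P n) := by
    intro n
    refine InjOn.mono inter_subset_left ?_
    rcases S'.eq_empty_or_nonempty with he | hne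
    · rw [he, empty_inter]
      exact injOn_empty u
    · obtain ⟨y, hy, hAy⟩ := hTy hne n.1
      have hA : A n.1 ≠ 0 := by
        rw [hAy]
        intro h
        have := congrArg (fun L : ℝ →L[ℝ] ℝ => L 1) h
        simp at this
        exact hy.2 this
      have := hTa n.1
      rw [if_neg hA] at this
      exact injOn_of_approx hA this
  have hPS : ∀ n, P n ⊆ S := fun n t ht => ht.1.1.1
  have hPd : Pairwise (Function.onFun Disjoint P) := by
    intro a b hab
    rw [Function.onFun, Set.disjoint_left]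
    intro t hta htb
    by_cases h1 : a.1 = b.1
    · apply hab
      refine Prod.ext h1 ?_
      have h2 : q t = a.2 := hta.2
      have h3 : q t = b.2 := htb.2
      rw [← h2, ← h3]
    · exact Set.disjoint_left.1 (hTd h1) hta.1.2 htb.1.2
  have hPU : ⋃ n, P n = S' := by
    ext t
    simp only [mem_iUnion]
    constructor
    · rintro ⟨n, hn⟩
      exact hn.1.1
    · intro ht
      obtain ⟨i, hi⟩ := mem_iUnion.1 (hTc ht)
      exact ⟨(i, q t), ⟨ht, hi⟩, rfl⟩
  have hI : ∀ n, MeasurableSet (u '' P n) := fun n =>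
    measurable_image_of_fderivWithin (hPm n)
      (fun t ht => (hu t (hPS n ht)).hasDerivWithinAt.hasFDerivWithinAt) (hPinj n)
  refine ⟨fun r => ∑' n : ℕ × ℕ, (n.2 : ℝ≥0∞) * (u '' P n).indicator (fun _ => 1) r, ?_, ?_, ?_⟩
  · refine Measurable.ennreal_tsum fun n => ?_
    exact (measurable_const.indicator (hI n)).const_mul _
  · intro r
    exact isInt_tsum _ fun n => (IsInt.natCast _).mul (isInt_indicator _ _)
  · intro h hh
    have h1 : ∫⁻ t in S, q t * (ENNReal.ofReal |u' t| * h (u t))
        = ∫⁻ t in S', q t * (ENNReal.ofReal |u' t| * h (u t)) := by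
      rw [hS', ← lintegral_indicator hS, ← lintegral_indicator hS'm]
      refine lintegral_congr fun t => ?_
      by_cases ht : t ∈ S
      · by_cases h0 : u' t = 0
        · have : t ∉ S' := fun h' => h'.2 h0
          rw [indicator_of_mem ht, indicator_of_notMem this, h0]
          simp
        · rw [indicator_of_mem ht, indicator_of_mem (show t ∈ S' from ⟨ht, h0⟩)]
      · rw [indicator_of_notMem ht, indicator_of_notMem (show t ∉ S' from fun h' => ht h'.1)]
    rw [h1, ← hPU, lintegral_iUnion hPm hPd]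
    have h2 : ∀ n, ∫⁻ t in P n, q t * (ENNReal.ofReal |u' t| * h (u t))
        = ∫⁻ r, (n.2 : ℝ≥0∞) * ((u '' P n).indicator (fun _ => 1) r) * h r := by
      intro n
      have h3 : ∫⁻ t in P n, q t * (ENNReal.ofReal |u' t| * h (u t))
          = ∫⁻ t in P n, (n.2 : ℝ≥0∞) * (ENNReal.ofReal |u' t| * h (u t)) := by
        refine setLIntegral_congr_fun (hPm n) ?_
        intro t ht
        have h4 : q t = n.2 := ht.2
        simp only [h4]
      rw [h3, lintegral_const_mul' _ _ (ENNReal.natCast_ne_top _),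
        ← lintegral_image_eq_lintegral_abs_deriv_mul (hPm n)
          (fun t ht => (hu t (hPS n ht)).hasDerivWithinAt) (hPinj n) h,
        ← lintegral_indicator (hI n)]
      simp_rw [mul_assoc]
      rw [lintegral_const_mul' _ _ (ENNReal.natCast_ne_top _)]
      congr 1
      refine lintegral_congr fun r => ?_
      by_cases hr : r ∈ u '' P n
      · rw [indicator_of_mem hr, indicator_of_mem hr, one_mul]
      · rw [indicator_of_notMem hr, indicator_of_notMem hr, zero_mul]
    simp_rw [h2]
    rw [← lintegral_tsum fun n => ?_]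
    · refine lintegral_congr fun r => ?_
      rw [ENNReal.tsum_mul_right]
    · exact (((measurable_const.indicator (hI n)).const_mul _).mul hh).aemeasurable

end Crest.Agent.R234.M1_770
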