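import Crest.Agent.R234.M1a_770

/-!
# Row 234, the case `m = 1` (helper770), file b: countable families of weighted curves

`Net E` : countably many `C^1` curves with parameter sets and integer multiplicities,
`Net.α` the parameter measure on `ℕ × ℝ`, `Net.Stat U` stationarity, `Net.mass`.
-/

set_option autoImplicit false

open MeasureTheory Set ENNReal
open scoped NNReal RealInnerProductSpace

namespace Crest.Agent.R234.M1_770

variable (E : Type*) [NormedAddCommGroup E] [InnerProductSpace ℝ E]

/-- countably many `C^1` curves with parameter sets and integer multiplicities -/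
structure Net where
  g : ℕ → ℝ → E
  S : ℕ → Set ℝ
  q : ℕ → ℝ → ℕ
  meas : ∀ i, MeasurableSet (S i)
  cd : ∀ i, ContDiff ℝ 1 (g i)
  imm : ∀ i, ∀ t ∈ S i, deriv (g i) t ≠ 0
  qm : ∀ i, Measurable (q i)
  qpos : ∀ i, ∀ t ∈ S i, 1 ≤ q i t

variable {E}

namespace Net

variable (N : Net E)

/-- the parameter measure -/
noncomputable def α : Measure (ℕ × ℝ) :=
  Measure.sum fun i => (((volume.restrict (N.S i)).withDensity
    (fun t => (N.q i t : ℝ≥0∞))).map (fun t => (i, t)))

/-- position -/
def G (p : ℕ × ℝ) : E := N.g p.1 p.2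

/-- velocity -/
noncomputable def G' (p : ℕ × ℝ) : E := deriv (N.g p.1) p.2

theorem lintegral_α {f : ℕ × ℝ → ℝ≥0∞} (hf : Measurable f) :
    ∫⁻ p, f p ∂N.α = ∑' i, ∫⁻ t in N.S i, N.q i t * f (i, t) := by
  rw [α, lintegral_sum_measure]
  congr 1
  funext i
  rw [lintegral_map hf (by fun_prop), lintegral_withDensity_eq_lintegral_mul _
    (by have := N.qm i; fun_prop) (by fun_prop)]
  rfl

theorem ae_α {P : ℕ × ℝ → Prop} (h : ∀ i, ∀ t ∈ N.S i, P (i, t)) : ∀ᵐ p ∂N.α, P p := by
  have h0 : N.α ((⋃ i, (fun t : ℝ => (i, t)) '' (N.S i))ᶜ) = 0 := by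
    have hm : MeasurableSet ((⋃ i, (fun t : ℝ => (i, t)) '' (N.S i))ᶜ) := by
      refine (MeasurableSet.iUnion fun i => ?_).compl
      exact ((MeasurableEmbedding.of_measurable_inverse (f := fun t : ℝ => (i, t))
        (g := Prod.snd) (by fun_prop) (by
          have : range (fun t : ℝ => (i, t)) = Prod.fst ⁻¹' {i} := by
            ext p
            constructor
            · rintro ⟨t, rfl⟩; rfl
            · intro hp
              exact ⟨p.2, by rw [← (show p.1 = i from hp)]⟩
          rw [this]
          exact measurable_fst (measurableSet_singleton i)) measurable_snd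
          (fun t => rfl)).measurableSet_image).2 (N.meas i)
    rw [← lintegral_indicator_one hm, lintegral_α N (by exact measurable_one.indicator hm)]
    refine ENNReal.tsum_eq_zero.2 fun i => ?_
    refine (lintegral_congr_ae ?_).trans lintegral_zero
    refine (ae_restrict_iff' (N.meas i)).2 (Filter.Eventually.of_forall fun t ht => ?_)
    have : (i, t) ∉ (⋃ i, (fun t : ℝ => (i, t)) '' (N.S i))ᶜ := by
      simp only [mem_compl_iff, not_not, mem_iUnion]
      exact ⟨i, t, ht, rfl⟩
    simp only [indicator_of_notMem this, mul_zero]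
  refine measure_mono_null ?_ h0
  intro p hp
  simp only [mem_compl_iff, mem_iUnion, not_exists]
  rintro i ⟨t, ht, rfl⟩
  exact hp (h i t ht)

section

variable [MeasurableSpace E] [BorelSpace E]

@[fun_prop]
theorem measurable_G : Measurable N.G := by
  have : N.G = fun p : ℕ × ℝ => N.g p.1 p.2 := rfl
  rw [this]
  exact measurable_from_prod_countable_right fun i => (N.cd i).continuous.measurable

@[fun_prop]
theorem measurable_G' : Measurable N.G' := by
  have : N.G' = fun p : ℕ × ℝ => deriv (N.g p.1) p.2 := rfl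
  rw [this]
  exact measurable_from_prod_countable_right fun i =>
    ((N.cd i).continuous_deriv le_rfl).measurable

/-- the mass in a set -/
noncomputable def mass (A : Set E) : ℝ≥0∞ :=
  ∫⁻ p in N.G ⁻¹' A, ENNReal.ofReal ‖N.G' p‖ ∂N.α

end

/-- stationarity in `U` -/
def Stat (U : Set E) : Prop :=
  ∀ X : E → E, ContDiff ℝ 1 X → HasCompactSupport X → tsupport X ⊆ U →
    ∫ p, ⟪fderiv ℝ X (N.G p) (N.G' p), N.G' p⟫ / ‖N.G' p‖ ∂N.α = 0

end Net

end Crest.Agent.R234.M1_770
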