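import Crest.Agent.R234.M1b_770

/-!
# Row 234, the case `m = 1` (helper770), file c: radial test fields
-/

set_option autoImplicit false

open MeasureTheory Set ENNReal
open scoped NNReal RealInnerProductSpace Topology

namespace Crest.Agent.R234.M1_770

variable {E : Type*} [NormedAddCommGroup E] [InnerProductSpace ℝ E]

section Field

variable {a b : ℝ} {h : ℝ → ℝ} (x₀ : E)

/-- primitive vanishing beyond `b` -/
noncomputable def prim (h : ℝ → ℝ) (b r : ℝ) : ℝ := ∫ t in r..b, h t

theorem hasDerivAt_prim (hc : Continuous h) (r : ℝ) : HasDerivAt (prim h b) (-h r) r :=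
  intervalIntegral.integral_hasDerivAt_left (hc.intervalIntegrable _ _)
    (hc.stronglyMeasurableAtFilter _ _) hc.continuousAt

theorem contDiff_prim (hc : Continuous h) : ContDiff ℝ 1 (prim h b) := by
  rw [contDiff_one_iff_deriv]
  refine ⟨fun r => (hasDerivAt_prim hc r).differentiableAt, ?_⟩
  have : deriv (prim h b) = fun r => -h r := funext fun r => (hasDerivAt_prim hc r).deriv
  rw [this]
  exact hc.neg

theorem prim_of_le (hc : Continuous h) (ha : ∀ t ≤ a, h t = 0) {r : ℝ} (hr : r ≤ a) :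
    prim h b r = prim h b a := by
  rw [prim, prim, ← intervalIntegral.integral_add_adjacent_intervals (a := r) (b := a) (c := b)
    (hc.intervalIntegrable _ _) (hc.intervalIntegrable _ _)]
  have : ∫ t in r..a, h t = ∫ t in r..a, (0 : ℝ) := by
    refine intervalIntegral.integral_congr fun t ht => ?_
    rw [uIcc_of_le hr] at ht
    exact ha t ht.2
  rw [this]
  simp

theorem prim_of_ge (hb : ∀ t, b ≤ t → h t = 0) {r : ℝ} (hr : b ≤ r) : prim h b r = 0 := by
  rw [prim]
  have : ∫ t in r..b, h t = ∫ t in r..b, (0 : ℝ) := by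
    refine intervalIntegral.integral_congr fun t ht => ?_
    rw [uIcc_of_ge hr] at ht
    exact hb t ht.1
  rw [this]
  simp

/-- the radial field -/
noncomputable def rad (h : ℝ → ℝ) (b : ℝ) (x : E) : E := prim h b ‖x - x₀‖ • (x - x₀)

theorem hasFDerivAt_norm_sub {x : E} (hx : x ≠ x₀) :
    HasFDerivAt (fun y : E => ‖y - x₀‖) ((1 / ‖x - x₀‖) • innerSL ℝ (x - x₀)) x := by
  have h0 : ‖x - x₀‖ ≠ 0 := norm_ne_zero_iff.2 (sub_ne_zero.2 hx)
  have h1 : HasFDerivAt (fun y : E => y - x₀) (ContinuousLinearMap.id ℝ E) x :=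
    (hasFDerivAt_id x).sub_const x₀
  have h2 := h1.norm_sq
  have h3 := h2.sqrt (by positivity)
  have h4 : (fun y : E => √(‖y - x₀‖ ^ 2)) = fun y => ‖y - x₀‖ := by
    funext y
    exact Real.sqrt_sq (norm_nonneg _)
  rw [h4] at h3
  convert h3 using 1
  ext v
  simp only [smul_apply, innerSL_apply_apply, smul_eq_mul,
    ContinuousLinearMap.comp_id, Real.sqrt_sq (norm_nonneg (x - x₀)), nsmul_eq_mul]
  field_simp
  norm_num

theorem rad_eventuallyEq (hc : Continuous h) (ha : ∀ t ≤ a, h t = 0) {x : E}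
    (hx : ‖x - x₀‖ < a) : rad x₀ h b =ᶠ[𝓝 x] fun y => prim h b a • (y - x₀) := by
  have : {y : E | ‖y - x₀‖ < a} ∈ 𝓝 x :=
    (isOpen_lt (by fun_prop) continuous_const).mem_nhds hx
  filter_upwards [this] with y hy
  rw [rad, prim_of_le hc ha (le_of_lt hy)]

theorem contDiff_rad (hc : Continuous h) (ha : ∀ t ≤ a, h t = 0) (ha0 : 0 < a) :
    ContDiff ℝ 1 (rad x₀ h b) := by
  rw [contDiff_iff_contDiffAt]
  intro x
  by_cases hx : ‖x - x₀‖ < a
  · refine ContDiffAt.congr_of_eventuallyEq ?_ (rad_eventuallyEq x₀ hc ha hx)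
    fun_prop
  · have h0 : x - x₀ ≠ 0 := by
      intro h
      rw [h, norm_zero] at hx
      exact hx ha0
    have h1 : ContDiffAt ℝ 1 (fun y : E => ‖y - x₀‖) x := by
      have := (contDiffAt_norm ℝ h0 (n := 1)).comp x
        (show ContDiffAt ℝ 1 (fun y : E => y - x₀) x by fun_prop)
      exact this
    have h2 : ContDiffAt ℝ 1 (fun y : E => prim h b ‖y - x₀‖) x :=
      (contDiff_prim hc).contDiffAt.comp x h1
    exact h2.smul (by fun_prop)

theorem inner_fderiv_rad (hc : Continuous h) (ha : ∀ t ≤ a, h t = 0) (ha0 : 0 < a) (x v : E) :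
    ⟪fderiv ℝ (rad x₀ h b) x v, v⟫ =
      prim h b ‖x - x₀‖ * ‖v‖ ^ 2 - h ‖x - x₀‖ * (⟪x - x₀, v⟫ ^ 2 / ‖x - x₀‖) := by
  by_cases hx : ‖x - x₀‖ < a
  · rw [(rad_eventuallyEq x₀ hc ha hx).fderiv_eq, ha _ hx.le, prim_of_le hc ha hx.le]
    have : fderiv ℝ (fun y : E => prim h b a • (y - x₀)) x
        = prim h b a • ContinuousLinearMap.id ℝ E :=
      (((hasFDerivAt_id x).sub_const x₀).const_smul _).fderiv
    rw [this]
    simp [inner_smul_left, real_inner_self_eq_norm_sq]
  · have h0 : x ≠ x₀ := by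
      intro h
      rw [h, sub_self, norm_zero] at hx
      exact hx ha0
    have hn : ‖x - x₀‖ ≠ 0 := norm_ne_zero_iff.2 (sub_ne_zero.2 h0)
    have h1 := (hasDerivAt_prim (b := b) hc ‖x - x₀‖).comp_hasFDerivAt x
      (hasFDerivAt_norm_sub x₀ h0)
    have h2 : HasFDerivAt (fun y : E => y - x₀) (ContinuousLinearMap.id ℝ E) x :=
      (hasFDerivAt_id x).sub_const x₀
    have h3 := h1.smul h2
    have h4 : fderiv ℝ (rad x₀ h b) x = _ := h3.fderiv
    rw [h4]
    simp only [Function.comp, add_apply, smul_apply,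
      ContinuousLinearMap.id_apply, ContinuousLinearMap.smulRight_apply, innerSL_apply_apply,
      inner_add_left, inner_smul_left, real_inner_self_eq_norm_sq, smul_eq_mul,
      RCLike.conj_to_real]
    ring

theorem rad_eq_zero (hb : ∀ t, b ≤ t → h t = 0) {x : E} (hx : b ≤ ‖x - x₀‖) :
    rad x₀ h b x = 0 := by
  rw [rad, prim_of_ge hb hx, zero_smul]

theorem tsupport_rad (hb : ∀ t, b ≤ t → h t = 0) :
    tsupport (rad x₀ h b) ⊆ Metric.closedBall x₀ b := by
  refine closure_minimal ?_ Metric.isClosed_closedBall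
  intro x hx
  rw [Metric.mem_closedBall, dist_eq_norm]
  by_contra hc
  exact hx (rad_eq_zero x₀ hb (not_le.1 hc).le)

theorem hasCompactSupport_rad [FiniteDimensional ℝ E] (hb : ∀ t, b ≤ t → h t = 0) :
    HasCompactSupport (rad x₀ h b) :=
  haveI : ProperSpace E := FiniteDimensional.proper ℝ E
  HasCompactSupport.of_support_subset_isCompact (isCompact_closedBall x₀ b)
    ((subset_tsupport _).trans (tsupport_rad x₀ hb))

end Field

end Crest.Agent.R234.M1_770
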