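import Crest.Agent.R234.M1c_770

/-!
# Row 234, the case `m = 1` (helper770), file d: the radial identity
-/

set_option autoImplicit false
set_option linter.unusedSectionVars false
set_option linter.style.haveILetI false

open MeasureTheory Set ENNReal
open scoped NNReal RealInnerProductSpace Topology

namespace Crest.Agent.R234.M1_770

variable {E : Type*} [NormedAddCommGroup E] [InnerProductSpace ℝ E]

theorem ofReal_prim {h : ℝ → ℝ} {b : ℝ} (hc : Continuous h) (h0 : ∀ t, 0 ≤ h t)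
    (hb : ∀ t, b ≤ t → h t = 0) (r : ℝ) :
    ENNReal.ofReal (prim h b r) = ∫⁻ t in Ici r, ENNReal.ofReal (h t) := by
  rw [setLIntegral_congr (show Ici r =ᵐ[volume] Ioi r from Ioi_ae_eq_Ici.symm)]
  rcases le_total r b with hr | hr
  · have h1 : Ioi r = Ioc r b ∪ Ioi b := (Ioc_union_Ioi_eq_Ioi hr).symm
    rw [h1, lintegral_union measurableSet_Ioi (by
      rw [Set.disjoint_left]; intro t ht ht'; exact absurd ht.2 (not_le.2 ht'))]
    have h2 : ∫⁻ t in Ioi b, ENNReal.ofReal (h t) = 0 := by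
      rw [setLIntegral_congr_fun measurableSet_Ioi (g := fun _ => 0)
        (fun t ht => by simp [hb t (le_of_lt ht)])]
      simp
    rw [h2, add_zero, prim, intervalIntegral.integral_of_le hr,
      ofReal_integral_eq_lintegral_ofReal]
    · exact (hc.integrableOn_Icc).mono_set Ioc_subset_Icc_self
    · exact Filter.Eventually.of_forall fun t => h0 t
  · rw [prim_of_ge hb hr, ENNReal.ofReal_zero]
    rw [setLIntegral_congr_fun measurableSet_Ioi (g := fun _ => 0)
        (fun t ht => by simp [hb t (hr.trans (le_of_lt ht))])]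
    simp

theorem prim_nonneg {h : ℝ → ℝ} {b : ℝ} (h0 : ∀ t, 0 ≤ h t)
    (hb : ∀ t, b ≤ t → h t = 0) (r : ℝ) : 0 ≤ prim h b r := by
  rcases le_total r b with hr | hr
  · exact intervalIntegral.integral_nonneg hr fun t _ => h0 t
  · exact (prim_of_ge hb hr).ge

theorem prim_le {h : ℝ → ℝ} {b : ℝ} (hc : Continuous h) (h1 : ∀ t, h t ≤ 1)
    (hb : ∀ t, b ≤ t → h t = 0) {r : ℝ} (hr0 : 0 ≤ r) (hb0 : 0 ≤ b) : prim h b r ≤ b := by
  rcases le_total r b with hr | hr
  · have := intervalIntegral.integral_mono_on hr (hc.intervalIntegrable _ _)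
      (continuous_const.intervalIntegrable (μ := volume) r b) (fun t _ => h1 t)
    rw [prim]
    refine this.trans ?_
    simp
    exact hr0
  · rw [prim_of_ge hb hr]
    exact hb0

namespace Net

variable (N : Net E) (x₀ : E)

instance : SFinite N.α := by
  unfold α
  infer_instance

/-- distance to `x₀` -/
noncomputable def rho (p : ℕ × ℝ) : ℝ := ‖N.G p - x₀‖

/-- scalar product of position and velocity -/
noncomputable def sc (p : ℕ × ℝ) : ℝ := ⟪N.G p - x₀, N.G' p⟫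

theorem rho_nonneg (p : ℕ × ℝ) : 0 ≤ N.rho x₀ p := norm_nonneg _

theorem abs_sc_le (p : ℕ × ℝ) : |N.sc x₀ p| ≤ N.rho x₀ p * ‖N.G' p‖ := abs_real_inner_le_norm _ _

/-- the quantity `ρ (τ·x̂)² |γ'|` -/
noncomputable def kf (p : ℕ × ℝ) : ℝ := N.sc x₀ p ^ 2 / N.rho x₀ p / ‖N.G' p‖

theorem kf_nonneg (p : ℕ × ℝ) : 0 ≤ N.kf x₀ p :=
  div_nonneg (div_nonneg (sq_nonneg _) (N.rho_nonneg x₀ p)) (norm_nonneg _)

theorem sc_sq_le (p : ℕ × ℝ) : N.sc x₀ p ^ 2 ≤ (N.rho x₀ p * ‖N.G' p‖) ^ 2 := by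
  rw [← sq_abs (N.sc x₀ p)]
  exact pow_le_pow_left₀ (abs_nonneg _) (N.abs_sc_le x₀ p) 2

theorem kf_le (p : ℕ × ℝ) : N.kf x₀ p ≤ N.rho x₀ p * ‖N.G' p‖ := by
  rw [kf, div_div]
  have h0 : 0 ≤ N.rho x₀ p * ‖N.G' p‖ := mul_nonneg (N.rho_nonneg x₀ p) (norm_nonneg _)
  rcases h0.eq_or_lt with h | h
  · rw [← h, _root_.div_zero]
  · rw [div_le_iff₀ h]
    have := N.sc_sq_le x₀ p
    rwa [sq (N.rho x₀ p * ‖N.G' p‖)] at this

variable [MeasurableSpace E] [BorelSpace E]

@[fun_prop]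
theorem measurable_rho : Measurable (N.rho x₀) := by
  unfold rho
  fun_prop

variable [FiniteDimensional ℝ E]

@[fun_prop]
theorem measurable_sc : Measurable (N.sc x₀) := by
  haveI : SecondCountableTopology E := inferInstance
  unfold sc
  exact Measurable.inner (by fun_prop) (by fun_prop)

@[fun_prop]
theorem measurable_kf : Measurable (N.kf x₀) := by
  unfold kf
  fun_prop

/-- mass of the closed ball -/
noncomputable def m (r : ℝ) : ℝ≥0∞ :=
  ∫⁻ p in {p | N.rho x₀ p ≤ r}, ENNReal.ofReal ‖N.G' p‖ ∂N.α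

theorem m_eq (r : ℝ) : N.m x₀ r = N.mass (Metric.closedBall x₀ r) := by
  rw [m, mass]
  congr 2
  ext p
  simp [rho, dist_eq_norm]

theorem m_mono : Monotone (N.m x₀) := fun _ _ h =>
  lintegral_mono_set fun _ hp => le_trans hp h

@[fun_prop]
theorem measurable_m : Measurable (N.m x₀) := (N.m_mono x₀).measurable

theorem mset_le (r : ℝ) : MeasurableSet {p | N.rho x₀ p ≤ r} :=
  measurableSet_le (by fun_prop) measurable_const

theorem integrableOn_w {b : ℝ} (hfin : N.m x₀ b < ⊤) :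
    IntegrableOn (fun p => ‖N.G' p‖) {p | N.rho x₀ p ≤ b} N.α := by
  refine ⟨by fun_prop, ?_⟩
  rw [hasFiniteIntegral_iff_ofReal (Filter.Eventually.of_forall fun p => norm_nonneg _)]
  exact hfin

/-- **the radial identity** -/
theorem radial {U : Set E} (hS : N.Stat U) {h : ℝ → ℝ} {a b : ℝ} (ha0 : 0 < a)
    (hb0 : 0 ≤ b) (hU : Metric.closedBall x₀ b ⊆ U) (hfin : N.m x₀ b < ⊤) (hc : Continuous h)
    (h0 : ∀ t, 0 ≤ h t) (h1 : ∀ t, h t ≤ 1) (ha : ∀ t ≤ a, h t = 0) (hb : ∀ t, b ≤ t → h t = 0) :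
    ∫⁻ p, ENNReal.ofReal (h (N.rho x₀ p)) * ENNReal.ofReal (N.kf x₀ p) ∂N.α =
      ∫⁻ t, ENNReal.ofReal (h t) * N.m x₀ t := by
  have hst := hS (rad x₀ h b) (contDiff_rad x₀ hc ha ha0) (hasCompactSupport_rad x₀ hb)
    ((tsupport_rad x₀ hb).trans hU)
  have hpc : Continuous (prim h b) := (contDiff_prim hc).continuous
  have hI1 : Integrable (fun p => prim h b (N.rho x₀ p) * ‖N.G' p‖) N.α := by
    have h2 : (fun p => prim h b (N.rho x₀ p) * ‖N.G' p‖) =
        ({p | N.rho x₀ p ≤ b}).indicator (fun p => prim h b (N.rho x₀ p) * ‖N.G' p‖) := by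
      funext p
      by_cases hp : N.rho x₀ p ≤ b
      · rw [indicator_of_mem (show p ∈ {p | N.rho x₀ p ≤ b} from hp)]
      · rw [indicator_of_notMem (show p ∉ {p | N.rho x₀ p ≤ b} from hp),
          prim_of_ge hb (le_of_not_ge hp), zero_mul]
    rw [h2, integrable_indicator_iff (N.mset_le x₀ b)]
    refine Integrable.bdd_mul (c := b) (N.integrableOn_w x₀ hfin) ?_ ?_
    · exact (hpc.measurable.comp (N.measurable_rho x₀)).aestronglyMeasurable
    · refine Filter.Eventually.of_forall fun p => ?_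
      rw [Real.norm_eq_abs, abs_of_nonneg (prim_nonneg h0 hb _)]
      exact prim_le hc h1 hb (N.rho_nonneg x₀ p) hb0
  have hI2 : Integrable (fun p => h (N.rho x₀ p) * N.kf x₀ p) N.α := by
    have h2 : (fun p => h (N.rho x₀ p) * N.kf x₀ p) =
        ({p | N.rho x₀ p ≤ b}).indicator (fun p => h (N.rho x₀ p) * N.kf x₀ p) := by
      funext p
      by_cases hp : N.rho x₀ p ≤ b
      · rw [indicator_of_mem (show p ∈ {p | N.rho x₀ p ≤ b} from hp)]
      · rw [indicator_of_notMem (show p ∉ {p | N.rho x₀ p ≤ b} from hp),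
          hb _ (le_of_not_ge hp), zero_mul]
    rw [h2, integrable_indicator_iff (N.mset_le x₀ b)]
    refine Integrable.mono' ((N.integrableOn_w x₀ hfin).const_mul b) ?_ ?_
    · exact ((hc.measurable.comp (N.measurable_rho x₀)).mul
        (N.measurable_kf x₀)).aestronglyMeasurable
    · refine (ae_restrict_iff' (N.mset_le x₀ b)).2
        (Filter.Eventually.of_forall fun p hp => ?_)
      rw [Real.norm_eq_abs, abs_of_nonneg (mul_nonneg (h0 _) (N.kf_nonneg x₀ p))]
      calc h (N.rho x₀ p) * N.kf x₀ p ≤ 1 * (N.rho x₀ p * ‖N.G' p‖) :=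
            mul_le_mul (h1 _) (N.kf_le x₀ p) (N.kf_nonneg x₀ p) zero_le_one
        _ ≤ b * ‖N.G' p‖ := by
            rw [one_mul]
            exact mul_le_mul_of_nonneg_right hp (norm_nonneg _)
  have hEq : ∫ p, prim h b (N.rho x₀ p) * ‖N.G' p‖ ∂N.α =
      ∫ p, h (N.rho x₀ p) * N.kf x₀ p ∂N.α := by
    have h3 : ∀ p, ⟪fderiv ℝ (rad x₀ h b) (N.G p) (N.G' p), N.G' p⟫ / ‖N.G' p‖ =
        prim h b (N.rho x₀ p) * ‖N.G' p‖ - h (N.rho x₀ p) * N.kf x₀ p := by
      intro p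
      rw [inner_fderiv_rad x₀ hc ha ha0, kf]
      change (prim h b (N.rho x₀ p) * ‖N.G' p‖ ^ 2 - h (N.rho x₀ p) *
        (N.sc x₀ p ^ 2 / N.rho x₀ p)) / ‖N.G' p‖ = _
      rcases eq_or_ne ‖N.G' p‖ 0 with hw | hw
      · rw [hw]; simp
      · field_simp
    simp_rw [h3] at hst
    rw [integral_sub hI1 hI2] at hst
    linarith
  have hL : ∫⁻ p, ENNReal.ofReal (h (N.rho x₀ p)) * ENNReal.ofReal (N.kf x₀ p) ∂N.α =
      ENNReal.ofReal (∫ p, h (N.rho x₀ p) * N.kf x₀ p ∂N.α) := by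
    rw [ofReal_integral_eq_lintegral_ofReal hI2
      (Filter.Eventually.of_forall fun p => mul_nonneg (h0 _) (N.kf_nonneg x₀ p))]
    simp_rw [ENNReal.ofReal_mul (h0 _)]
  have hR : ENNReal.ofReal (∫ p, prim h b (N.rho x₀ p) * ‖N.G' p‖ ∂N.α) =
      ∫⁻ p, ENNReal.ofReal (prim h b (N.rho x₀ p)) * ENNReal.ofReal ‖N.G' p‖ ∂N.α := by
    rw [ofReal_integral_eq_lintegral_ofReal hI1
      (Filter.Eventually.of_forall fun p => mul_nonneg (prim_nonneg h0 hb _) (norm_nonneg _))]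
    simp_rw [ENNReal.ofReal_mul (prim_nonneg h0 hb _)]
  rw [hL, ← hEq, hR]
  have h4 : ∀ p, ENNReal.ofReal (prim h b (N.rho x₀ p)) * ENNReal.ofReal ‖N.G' p‖ =
      ∫⁻ t, ENNReal.ofReal (h t) * ({q : (ℕ × ℝ) × ℝ | N.rho x₀ q.1 ≤ q.2}).indicator
        (fun q => ENNReal.ofReal ‖N.G' q.1‖) (p, t) := by
    intro p
    rw [ofReal_prim hc h0 hb, ← lintegral_indicator measurableSet_Ici,
      ← lintegral_mul_const _ (by
        exact (Measurable.indicator (by have := hc.measurable; fun_prop) measurableSet_Ici))]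
    refine lintegral_congr fun t => ?_
    by_cases ht : N.rho x₀ p ≤ t
    · rw [indicator_of_mem (show t ∈ Ici (N.rho x₀ p) from ht),
        indicator_of_mem (show (p, t) ∈ {q : (ℕ × ℝ) × ℝ | N.rho x₀ q.1 ≤ q.2} from ht)]
    · rw [indicator_of_notMem (show t ∉ Ici (N.rho x₀ p) from ht),
        indicator_of_notMem (show (p, t) ∉ {q : (ℕ × ℝ) × ℝ | N.rho x₀ q.1 ≤ q.2} from ht),
        zero_mul, mul_zero]
  simp_rw [h4]
  rw [lintegral_lintegral_swap]
  · refine lintegral_congr fun t => ?_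
    rw [lintegral_const_mul]
    · congr 1
      rw [m, ← lintegral_indicator (N.mset_le x₀ t)]
      refine lintegral_congr fun p => ?_
      by_cases ht : N.rho x₀ p ≤ t
      · rw [indicator_of_mem (show p ∈ {p | N.rho x₀ p ≤ t} from ht),
          indicator_of_mem (show (p, t) ∈ {q : (ℕ × ℝ) × ℝ | N.rho x₀ q.1 ≤ q.2} from ht)]
      · rw [indicator_of_notMem (show p ∉ {p | N.rho x₀ p ≤ t} from ht),
          indicator_of_notMem (show (p, t) ∉ {q : (ℕ × ℝ) × ℝ | N.rho x₀ q.1 ≤ q.2} from ht)]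
    · have hm : Measurable (({q : (ℕ × ℝ) × ℝ | N.rho x₀ q.1 ≤ q.2}).indicator
        (fun q => ENNReal.ofReal ‖N.G' q.1‖)) :=
        Measurable.indicator (by fun_prop) (measurableSet_le (by fun_prop) (by fun_prop))
      exact hm.comp (by fun_prop)
  · have hm : Measurable (({q : (ℕ × ℝ) × ℝ | N.rho x₀ q.1 ≤ q.2}).indicator
        (fun q => ENNReal.ofReal ‖N.G' q.1‖)) :=
        Measurable.indicator (by fun_prop) (measurableSet_le (by fun_prop) (by fun_prop))
    have : Measurable fun q : (ℕ × ℝ) × ℝ => ENNReal.ofReal (h q.2) := by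
      have := hc.measurable
      fun_prop
    exact (this.mul hm).aemeasurable

end Net

end Crest.Agent.R234.M1_770
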