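import Crest.Agent.R234.M1d_770

/-!
# Row 234, the case `m = 1` (helper770), file e: the measure identity `κ = m(t) dt`
-/

set_option autoImplicit false
set_option linter.unusedSectionVars false

open MeasureTheory Set ENNReal Filter
open scoped NNReal RealInnerProductSpace Topology

namespace Crest.Agent.R234.M1_770

/-- continuous approximation of the indicator of `(a, b]` -/
noncomputable def chi (a b c t : ℝ) : ℝ := min 1 (max 0 (c * (t - a))) * min 1 (max 0 (1 - c * (t - b)))

theorem continuous_chi (a b c : ℝ) : Continuous (chi a b c) := by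
  unfold chi
  fun_prop

theorem chi_nonneg (a b c t : ℝ) : 0 ≤ chi a b c t :=
  mul_nonneg (le_min zero_le_one (le_max_left _ _)) (le_min zero_le_one (le_max_left _ _))

theorem chi_le_one (a b c t : ℝ) : chi a b c t ≤ 1 :=
  mul_le_one₀ (min_le_left _ _) (le_min zero_le_one (le_max_left _ _)) (min_le_left _ _)

theorem chi_of_le {a b c t : ℝ} (hc : 0 ≤ c) (h : t ≤ a) : chi a b c t = 0 := by
  have : c * (t - a) ≤ 0 := mul_nonpos_of_nonneg_of_nonpos hc (by linarith)
  rw [chi, max_eq_left this]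
  simp

theorem chi_of_ge {a b c t : ℝ} (h : 1 ≤ c * (t - b)) : chi a b c t = 0 := by
  have : 1 - c * (t - b) ≤ 0 := by linarith
  rw [chi, max_eq_left this]
  simp

theorem tendsto_chi {a b : ℝ} (n₀ : ℝ) (t : ℝ) :
    Tendsto (fun n : ℕ => chi a b ((n : ℝ) + n₀) t) atTop
      (𝓝 ((Ioc a b).indicator (fun _ => 1) t)) := by
  have hn : Tendsto (fun n : ℕ => (n : ℝ) + n₀) atTop atTop :=
    tendsto_atTop_add_const_right _ _ tendsto_natCast_atTop_atTop
  rcases le_or_gt t a with h | h
  · rw [indicator_of_notMem (fun h' => absurd h'.1 (not_lt.2 h))]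
    refine tendsto_const_nhds.congr' ?_
    filter_upwards [hn.eventually_ge_atTop 0] with n hn
    exact (chi_of_le hn h).symm
  · rcases le_or_gt t b with h' | h'
    · rw [indicator_of_mem (show t ∈ Ioc a b from ⟨h, h'⟩)]
      refine tendsto_const_nhds.congr' ?_
      filter_upwards [hn.eventually_ge_atTop (1 / (t - a)), hn.eventually_ge_atTop 0] with n hn hn0
      have h1 : 0 < t - a := by linarith
      have h2 : 1 ≤ ((n : ℝ) + n₀) * (t - a) := by
        rwa [div_le_iff₀ h1] at hn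
      have h3 : ((n : ℝ) + n₀) * (t - b) ≤ 0 :=
        mul_nonpos_of_nonneg_of_nonpos hn0 (by linarith)
      rw [chi, max_eq_right (by linarith), min_eq_left h2, max_eq_right (by linarith),
        min_eq_left (by linarith), mul_one]
    · rw [indicator_of_notMem (fun h'' => absurd h''.2 (not_le.2 h'))]
      refine tendsto_const_nhds.congr' ?_
      filter_upwards [hn.eventually_ge_atTop (1 / (t - b))] with n hn
      have h1 : 0 < t - b := by linarith
      have h2 : 1 ≤ ((n : ℝ) + n₀) * (t - b) := by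
        rwa [div_le_iff₀ h1] at hn
      exact (chi_of_ge h2).symm

theorem tendsto_ofReal_chi {a b : ℝ} (n₀ : ℝ) (t : ℝ) :
    Tendsto (fun n : ℕ => ENNReal.ofReal (chi a b ((n : ℝ) + n₀) t)) atTop
      (𝓝 ((Ioc a b).indicator (fun _ => 1) t)) := by
  have h1 := (ENNReal.continuous_ofReal.tendsto _).comp (tendsto_chi (a := a) (b := b) n₀ t)
  have h2 : ENNReal.ofReal ((Ioc a b).indicator (fun _ => (1 : ℝ)) t) =
      (Ioc a b).indicator (fun _ => (1 : ℝ≥0∞)) t := by
    by_cases h : t ∈ Ioc a b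
    · rw [indicator_of_mem h, indicator_of_mem h, ENNReal.ofReal_one]
    · rw [indicator_of_notMem h, indicator_of_notMem h, ENNReal.ofReal_zero]
  rw [h2] at h1
  exact h1

variable {E : Type*} [NormedAddCommGroup E] [InnerProductSpace ℝ E]
variable [MeasurableSpace E] [BorelSpace E] [FiniteDimensional ℝ E]

namespace Net

variable (N : Net E) (x₀ : E)

theorem lintegral_kf_le {b : ℝ} (hb : 0 ≤ b) :
    ∫⁻ p in {p | N.rho x₀ p ≤ b}, ENNReal.ofReal (N.kf x₀ p) ∂N.α ≤ ENNReal.ofReal b * N.m x₀ b := by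
  rw [m, ← lintegral_const_mul _ (by fun_prop)]
  refine setLIntegral_mono (by fun_prop) fun p hp => ?_
  rw [← ENNReal.ofReal_mul hb]
  refine ENNReal.ofReal_le_ofReal ((N.kf_le x₀ p).trans ?_)
  exact mul_le_mul_of_nonneg_right hp (norm_nonneg _)

/-- **the identity on intervals** -/
theorem ioc {U : Set E} (hS : N.Stat U) {a b R : ℝ} (ha0 : 0 < a) (hab : a ≤ b) (hbR : b < R)
    (hU : Metric.closedBall x₀ R ⊆ U) (hfin : N.m x₀ R < ⊤) :
    ∫⁻ p in {p | N.rho x₀ p ∈ Ioc a b}, ENNReal.ofReal (N.kf x₀ p) ∂N.α =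
      ∫⁻ t in Ioc a b, N.m x₀ t := by
  have hR0 : 0 ≤ R := by linarith
  obtain ⟨n₀, hn₀⟩ := exists_nat_ge (1 / (R - b))
  have hRb : 0 < R - b := by linarith
  have hn1 : ∀ n : ℕ, 1 ≤ ((n : ℝ) + n₀) * (R - b) := by
    intro n
    rw [div_le_iff₀ hRb] at hn₀
    have : 0 ≤ (n : ℝ) * (R - b) := by positivity
    nlinarith
  have hge : ∀ (n : ℕ) (t : ℝ), R ≤ t → chi a b ((n : ℝ) + n₀) t = 0 := by
    intro n t ht
    refine chi_of_ge ((hn1 n).trans ?_)
    exact mul_le_mul_of_nonneg_left (by linarith) (by positivity)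
  have hle : ∀ (n : ℕ) (t : ℝ), t ≤ a → chi a b ((n : ℝ) + n₀) t = 0 := fun n t ht =>
    chi_of_le (by positivity) ht
  have key : ∀ n : ℕ,
      ∫⁻ p, ENNReal.ofReal (chi a b ((n : ℝ) + n₀) (N.rho x₀ p)) * ENNReal.ofReal (N.kf x₀ p) ∂N.α =
        ∫⁻ t, ENNReal.ofReal (chi a b ((n : ℝ) + n₀) t) * N.m x₀ t := fun n =>
    N.radial x₀ hS ha0 hR0 hU hfin (continuous_chi _ _ _) (chi_nonneg _ _ _)
      (chi_le_one _ _ _) (hle n) (hge n)
  have hms : MeasurableSet {p | N.rho x₀ p ∈ Ioc a b} := N.measurable_rho x₀ measurableSet_Ioc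
  have hkt : ∀ p, ENNReal.ofReal (N.kf x₀ p) ≠ ⊤ := fun p => ENNReal.ofReal_ne_top
  -- left side
  have hL : Tendsto (fun n : ℕ => ∫⁻ p, ENNReal.ofReal (chi a b ((n : ℝ) + n₀) (N.rho x₀ p)) *
      ENNReal.ofReal (N.kf x₀ p) ∂N.α) atTop
      (𝓝 (∫⁻ p, (Ioc a b).indicator (fun _ => 1) (N.rho x₀ p) *
        ENNReal.ofReal (N.kf x₀ p) ∂N.α)) := by
    refine tendsto_lintegral_of_dominated_convergence
      (({p | N.rho x₀ p ≤ R}).indicator fun p => ENNReal.ofReal (N.kf x₀ p)) ?_ ?_ ?_ ?_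
    · intro n
      have := (continuous_chi a b ((n : ℝ) + n₀)).measurable
      fun_prop
    · intro n
      refine Eventually.of_forall fun p => ?_
      by_cases hp : N.rho x₀ p ≤ R
      · rw [indicator_of_mem (show p ∈ {p | N.rho x₀ p ≤ R} from hp)]
        have h1 : ENNReal.ofReal (chi a b ((n : ℝ) + n₀) (N.rho x₀ p)) ≤ 1 := by
          rw [← ENNReal.ofReal_one]
          exact ENNReal.ofReal_le_ofReal (chi_le_one _ _ _ _)
        exact (mul_le_mul_left h1 _).trans (one_mul _).le
      · simp only [hge n _ (le_of_not_ge hp), ENNReal.ofReal_zero, zero_mul]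
        exact zero_le
    · rw [lintegral_indicator (N.mset_le x₀ R)]
      exact ((N.lintegral_kf_le x₀ hR0).trans_lt (ENNReal.mul_lt_top ENNReal.ofReal_lt_top
        hfin)).ne
    · refine Eventually.of_forall fun p => ?_
      exact ENNReal.Tendsto.mul_const (tendsto_ofReal_chi _ _) (Or.inr (hkt p))
  -- right side
  have hRt : Tendsto (fun n : ℕ => ∫⁻ t, ENNReal.ofReal (chi a b ((n : ℝ) + n₀) t) * N.m x₀ t)
      atTop (𝓝 (∫⁻ t, (Ioc a b).indicator (fun _ => 1) t * N.m x₀ t)) := by
    have hb2 : ∀ (n : ℕ) (t : ℝ), ENNReal.ofReal (chi a b ((n : ℝ) + n₀) t) * N.m x₀ t ≤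
        (Ioc a R).indicator (fun _ => N.m x₀ R) t := by
      intro n t
      by_cases ht : t ∈ Ioc a R
      · rw [indicator_of_mem ht]
        calc _ ≤ 1 * N.m x₀ R := by
              gcongr
              · rw [← ENNReal.ofReal_one]
                exact ENNReal.ofReal_le_ofReal (chi_le_one _ _ _ _)
              · exact N.m_mono x₀ ht.2
          _ = _ := one_mul _
      · have : chi a b ((n : ℝ) + n₀) t = 0 := by
          rcases le_or_gt t a with h | h
          · exact hle n t h
          · exact hge n t (le_of_lt (not_le.1 fun h' => ht ⟨h, h'⟩))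
        rw [this, ENNReal.ofReal_zero, zero_mul]
        exact zero_le
    refine tendsto_lintegral_of_dominated_convergence _ ?_
      (fun n => Eventually.of_forall (hb2 n)) ?_ ?_
    · intro n
      have := (continuous_chi a b ((n : ℝ) + n₀)).measurable
      fun_prop
    · rw [lintegral_indicator measurableSet_Ioc, lintegral_const]
      refine (ENNReal.mul_lt_top hfin ?_).ne
      simp
    · filter_upwards [(show ∀ᵐ t : ℝ, True from Eventually.of_forall fun _ => trivial)] with t _
      by_cases ht : t ≤ R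
      · exact ENNReal.Tendsto.mul_const (tendsto_ofReal_chi _ _)
          (Or.inr ((N.m_mono x₀ ht).trans_lt hfin).ne)
      · have h1 : (Ioc a b).indicator (fun _ => (1 : ℝ≥0∞)) t = 0 :=
          indicator_of_notMem (fun h => ht (h.2.trans hbR.le)) _
        rw [h1, zero_mul]
        refine tendsto_const_nhds.congr fun n => ?_
        rw [hge n t (le_of_not_ge ht), ENNReal.ofReal_zero, zero_mul]
  have hEq := tendsto_nhds_unique (hL.congr key) hRt
  have e1 : ∫⁻ p, (Ioc a b).indicator (fun _ => 1) (N.rho x₀ p) *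
      ENNReal.ofReal (N.kf x₀ p) ∂N.α =
      ∫⁻ p in {p | N.rho x₀ p ∈ Ioc a b}, ENNReal.ofReal (N.kf x₀ p) ∂N.α := by
    rw [← lintegral_indicator hms]
    refine lintegral_congr fun p => ?_
    by_cases hp : N.rho x₀ p ∈ Ioc a b
    · rw [indicator_of_mem hp, indicator_of_mem (show p ∈ {p | N.rho x₀ p ∈ Ioc a b} from hp),
        one_mul]
    · rw [indicator_of_notMem hp,
        indicator_of_notMem (show p ∉ {p | N.rho x₀ p ∈ Ioc a b} from hp), zero_mul]
  have e2 : ∫⁻ t, (Ioc a b).indicator (fun _ => 1) t * N.m x₀ t = ∫⁻ t in Ioc a b, N.m x₀ t := by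
    rw [← lintegral_indicator measurableSet_Ioc]
    refine lintegral_congr fun t => ?_
    by_cases hp : t ∈ Ioc a b
    · rw [indicator_of_mem hp, indicator_of_mem hp, one_mul]
    · rw [indicator_of_notMem hp, indicator_of_notMem hp, zero_mul]
  rw [e1, e2] at hEq
  exact hEq

/-- the measure `κ` -/
noncomputable def kap : Measure ℝ :=
  (N.α.withDensity fun p => ENNReal.ofReal (N.kf x₀ p)).map (N.rho x₀)

theorem lintegral_kap {h : ℝ → ℝ≥0∞} (hh : Measurable h) {s : Set ℝ} (hs : MeasurableSet s) :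
    ∫⁻ t in s, h t ∂(N.kap x₀) =
      ∫⁻ p in {p | N.rho x₀ p ∈ s}, ENNReal.ofReal (N.kf x₀ p) * h (N.rho x₀ p) ∂N.α := by
  have hms : MeasurableSet {p | N.rho x₀ p ∈ s} := N.measurable_rho x₀ hs
  rw [kap, ← lintegral_indicator hs, lintegral_map (hh.indicator hs) (by fun_prop),
    lintegral_withDensity_eq_lintegral_mul _ (by fun_prop)
      (show Measurable (fun p => s.indicator h (N.rho x₀ p)) from
        (hh.indicator hs).comp (N.measurable_rho x₀)), ← lintegral_indicator hms]
  refine lintegral_congr fun p => ?_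
  simp only [Pi.mul_apply]
  by_cases hp : N.rho x₀ p ∈ s
  · rw [indicator_of_mem hp, indicator_of_mem (show p ∈ {p | N.rho x₀ p ∈ s} from hp)]
  · rw [indicator_of_notMem hp, indicator_of_notMem (show p ∉ {p | N.rho x₀ p ∈ s} from hp),
      mul_zero]

theorem kap_apply {s : Set ℝ} (hs : MeasurableSet s) :
    N.kap x₀ s = ∫⁻ p in {p | N.rho x₀ p ∈ s}, ENNReal.ofReal (N.kf x₀ p) ∂N.α := by
  rw [← setLIntegral_one, N.lintegral_kap x₀ measurable_const hs]
  simp

/-- **`κ = m(t) dt` on `(a, b]`** -/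
theorem kap_eq {U : Set E} (hS : N.Stat U) {a b R : ℝ} (ha0 : 0 < a) (hbR : b < R)
    (hU : Metric.closedBall x₀ R ⊆ U) (hfin : N.m x₀ R < ⊤) :
    (N.kap x₀).restrict (Ioc a b) = (volume.withDensity (N.m x₀)).restrict (Ioc a b) := by
  have hI : ∀ c d, a ≤ c → c ≤ d → d ≤ b →
      N.kap x₀ (Ioc c d) = (volume.withDensity (N.m x₀)) (Ioc c d) := by
    intro c d hc hcd hd
    rw [N.kap_apply x₀ measurableSet_Ioc, withDensity_apply _ measurableSet_Ioc]
    exact N.ioc x₀ hS (ha0.trans_le hc) hcd (hd.trans_lt hbR) hU hfin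
  have : IsFiniteMeasure ((N.kap x₀).restrict (Ioc a b)) := by
    refine ⟨?_⟩
    rw [Measure.restrict_apply MeasurableSet.univ, univ_inter]
    rcases le_total a b with hab | hab
    · rw [hI a b le_rfl hab le_rfl, withDensity_apply _ measurableSet_Ioc]
      calc ∫⁻ t in Ioc a b, N.m x₀ t ≤ ∫⁻ _t in Ioc a b, N.m x₀ R :=
            setLIntegral_mono measurable_const fun t ht => N.m_mono x₀ (ht.2.trans hbR.le)
        _ < ⊤ := by
            rw [lintegral_const]
            exact ENNReal.mul_lt_top hfin (by simp)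
    · rw [Ioc_eq_empty (not_lt.2 hab)]
      simp
  refine Measure.ext_of_Ioc _ _ fun c d hcd => ?_
  rw [Measure.restrict_apply measurableSet_Ioc, Measure.restrict_apply measurableSet_Ioc,
    Ioc_inter_Ioc]
  rcases le_or_gt (max c a) (min d b) with h | h
  · exact hI _ _ (le_max_right _ _) h (min_le_right _ _)
  · rw [Ioc_eq_empty (not_lt.2 h.le)]
    simp

end Net

end Crest.Agent.R234.M1_770
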