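import Crest.Agent.R234.M1e_770

/-!
# Row 234, the case `m = 1` (helper770), file f: integer slices and the conical radius
-/

set_option autoImplicit false
set_option linter.unusedSectionVars false

open MeasureTheory Set ENNReal Filter
open scoped NNReal RealInnerProductSpace Topology

namespace Crest.Agent.R234.M1_770

variable {E : Type*} [NormedAddCommGroup E] [InnerProductSpace ℝ E]
variable [MeasurableSpace E] [BorelSpace E] [FiniteDimensional ℝ E]

namespace Net

variable (N : Net E) (x₀ : E)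

/-- **integer slices by spheres** -/
theorem exists_sl : ∃ Nf : ℝ → ℝ≥0∞, Measurable Nf ∧ (∀ r, IsInt (Nf r)) ∧
    ∀ h : ℝ → ℝ≥0∞, Measurable h →
      ∫⁻ p, ENNReal.ofReal (|N.sc x₀ p| / N.rho x₀ p) * h (N.rho x₀ p) ∂N.α =
        ∫⁻ r, Nf r * h r := by
  have hex : ∀ i, ∃ Nf : ℝ → ℝ≥0∞, Measurable Nf ∧ (∀ r, IsInt (Nf r)) ∧
      ∀ h : ℝ → ℝ≥0∞, Measurable h →
        ∫⁻ t in N.S i ∩ {t | N.g i t ≠ x₀}, N.q i t *
          (ENNReal.ofReal |N.sc x₀ (i, t) / N.rho x₀ (i, t)| * h (‖N.g i t - x₀‖)) =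
          ∫⁻ r, Nf r * h r := by
    intro i
    have hgm : Measurable (N.g i) := (N.cd i).continuous.measurable
    refine exists_slices (u := fun t => ‖N.g i t - x₀‖)
      (u' := fun t => N.sc x₀ (i, t) / N.rho x₀ (i, t))
      ((N.meas i).inter (hgm (measurableSet_singleton x₀).compl)) ?_ ?_ (N.qm i)
    · intro t ht
      have h1 : HasDerivAt (N.g i) (deriv (N.g i) t) t :=
        ((N.cd i).differentiable one_ne_zero t).hasDerivAt
      have h2 := (hasFDerivAt_norm_sub x₀ ht.2).comp_hasDerivAt t h1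
      have h3 : ((1 / ‖N.g i t - x₀‖) • innerSL ℝ (N.g i t - x₀)) (deriv (N.g i) t) =
          N.sc x₀ (i, t) / N.rho x₀ (i, t) := by
        change 1 / ‖N.g i t - x₀‖ * ⟪N.g i t - x₀, deriv (N.g i) t⟫ = _
        rw [one_div, inv_mul_eq_div]
        rfl
      rw [← h3]
      exact h2
    · fun_prop
  choose Nf hm hint hNf using hex
  refine ⟨fun r => ∑' i, Nf i r, Measurable.tsum hm, fun r => isInt_tsum _ fun i => hint i r,
    fun h hh => ?_⟩
  rw [N.lintegral_α (by fun_prop)]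
  simp_rw [← ENNReal.tsum_mul_right]
  rw [lintegral_tsum (f := fun i r => Nf i r * h r) fun i => ((hm i).mul hh).aemeasurable]
  congr 1
  funext i
  rw [← hNf i h hh]
  have hgm : Measurable (N.g i) := (N.cd i).continuous.measurable
  have hm2 : MeasurableSet (N.S i ∩ {t | N.g i t ≠ x₀}) :=
    (N.meas i).inter (hgm (measurableSet_singleton x₀).compl)
  rw [← lintegral_indicator (N.meas i), ← lintegral_indicator hm2]
  refine lintegral_congr fun t => ?_
  by_cases ht : t ∈ N.S i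
  · rw [indicator_of_mem ht]
    by_cases hx : N.g i t = x₀
    · rw [indicator_of_notMem (fun h => h.2 hx)]
      have : N.rho x₀ (i, t) = 0 := by
        rw [rho, G, hx, sub_self, norm_zero]
      rw [this, _root_.div_zero, ENNReal.ofReal_zero, zero_mul, mul_zero]
    · rw [indicator_of_mem (show t ∈ N.S i ∩ {t | N.g i t ≠ x₀} from ⟨ht, hx⟩), abs_div,
        abs_of_nonneg (N.rho_nonneg x₀ (i, t))]
      rfl
  · rw [indicator_of_notMem ht, indicator_of_notMem (fun h => ht h.1)]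

/-- the mass ratio -/
noncomputable def M (r : ℝ) : ℝ≥0∞ := N.m x₀ r * ENNReal.ofReal (1 / r)

theorem measurableSet_rho {s : Set ℝ} (hs : MeasurableSet s) :
    MeasurableSet {p | N.rho x₀ p ∈ s} := N.measurable_rho x₀ hs

/-- `κ` against Borel functions -/
theorem lintegral_kf {U : Set E} (hS : N.Stat U) {a b R : ℝ} (ha0 : 0 < a) (hbR : b < R)
    (hU : Metric.closedBall x₀ R ⊆ U) (hfin : N.m x₀ R < ⊤) {h : ℝ → ℝ≥0∞} (hh : Measurable h)
    {s : Set ℝ} (hs : MeasurableSet s) (hsub : s ⊆ Ioc a b) :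
    ∫⁻ p in {p | N.rho x₀ p ∈ s}, ENNReal.ofReal (N.kf x₀ p) * h (N.rho x₀ p) ∂N.α =
      ∫⁻ t in s, h t * N.m x₀ t := by
  rw [← N.lintegral_kap x₀ hh hs]
  have h1 : (N.kap x₀).restrict s = (volume.withDensity (N.m x₀)).restrict s := by
    have := congrArg (fun μ : Measure ℝ => μ.restrict s) (N.kap_eq x₀ hS ha0 hbR hU hfin)
    simp only [Measure.restrict_restrict hs, inter_eq_left.2 hsub] at this
    exact this
  rw [h1, restrict_withDensity hs, lintegral_withDensity_eq_lintegral_mul _ (by fun_prop) hh]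
  simp_rw [Pi.mul_apply, mul_comm]

theorem kf_div_le (p : ℕ × ℝ) : N.kf x₀ p * (1 / N.rho x₀ p) ≤ |N.sc x₀ p| / N.rho x₀ p := by
  rw [mul_one_div]
  rcases (N.rho_nonneg x₀ p).eq_or_lt with h | h
  · rw [← h]; simp
  · refine div_le_div_of_nonneg_right ?_ h.le
    rw [kf, div_div]
    have h0 : 0 ≤ N.rho x₀ p * ‖N.G' p‖ := mul_nonneg (N.rho_nonneg x₀ p) (norm_nonneg _)
    rcases h0.eq_or_lt with h1 | h1
    · rw [← h1, _root_.div_zero]; exact abs_nonneg _
    · rw [div_le_iff₀ h1, ← sq_abs, sq]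
      exact mul_le_mul_of_nonneg_left (N.abs_sc_le x₀ p) (abs_nonneg _)

theorem kf_div_sq_le (p : ℕ × ℝ) :
    N.kf x₀ p * (1 / N.rho x₀ p ^ 2) ≤ ‖N.G' p‖ * (1 / N.rho x₀ p) := by
  rcases (N.rho_nonneg x₀ p).eq_or_lt with h | h
  · rw [← h]; simp
  · have := N.kf_le x₀ p
    rw [mul_one_div, mul_one_div, div_le_div_iff₀ (by positivity) h]
    nlinarith [norm_nonneg (N.G' p), N.kf_nonneg x₀ p]

/-- the density of slices is at least the mass ratio -/
theorem M_le {U : Set E} (hS : N.Stat U) {R : ℝ}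
    (hU : Metric.closedBall x₀ R ⊆ U) (hfin : N.m x₀ R < ⊤) {Nf : ℝ → ℝ≥0∞}
    (hNf : ∀ h : ℝ → ℝ≥0∞, Measurable h →
      ∫⁻ p, ENNReal.ofReal (|N.sc x₀ p| / N.rho x₀ p) * h (N.rho x₀ p) ∂N.α =
        ∫⁻ r, Nf r * h r) {a b : ℝ} (ha0 : 0 < a) (hbR : b < R) :
    ∀ᵐ t ∂(volume.restrict (Ioc a b)), N.M x₀ t ≤ Nf t := by
  refine ae_le_of_forall_setLIntegral_le_of_sigmaFinite (by unfold M; fun_prop) fun s hs _ => ?_
  rw [Measure.restrict_restrict hs]
  set s' := s ∩ Ioc a b with hs'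
  have hs'm : MeasurableSet s' := hs.inter measurableSet_Ioc
  have h1 := N.lintegral_kf x₀ hS ha0 hbR hU hfin (h := fun t => ENNReal.ofReal (1 / t))
    (by fun_prop) hs'm inter_subset_right
  have h2 : ∫⁻ t in s', N.M x₀ t = ∫⁻ t in s', ENNReal.ofReal (1 / t) * N.m x₀ t := by
    unfold M
    simp_rw [mul_comm]
  rw [h2, ← h1]
  have h3 := hNf (s'.indicator fun _ => 1) (measurable_const.indicator hs'm)
  have h4 : ∫⁻ r, Nf r * s'.indicator (fun _ => 1) r = ∫⁻ r in s', Nf r := by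
    rw [← lintegral_indicator hs'm]
    refine lintegral_congr fun r => ?_
    by_cases hr : r ∈ s'
    · rw [indicator_of_mem hr, indicator_of_mem hr, mul_one]
    · rw [indicator_of_notMem hr, indicator_of_notMem hr, mul_zero]
  rw [← h4, ← h3, ← lintegral_indicator (N.measurableSet_rho x₀ hs'm)]
  refine lintegral_mono fun p => ?_
  by_cases hp : N.rho x₀ p ∈ s'
  · rw [indicator_of_mem (show p ∈ {p | N.rho x₀ p ∈ s'} from hp), indicator_of_mem hp, mul_one,
      ← ENNReal.ofReal_mul (N.kf_nonneg x₀ p)]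
    exact ENNReal.ofReal_le_ofReal (N.kf_div_le x₀ p)
  · rw [indicator_of_notMem (show p ∉ {p | N.rho x₀ p ∈ s'} from hp)]
    exact zero_le

/-- layer cake for `1 / max ρ a` -/
theorem ofReal_one_div_max {a b r : ℝ} (ha : 0 < a) (hab : a ≤ b) (hr : r ≤ b) :
    ENNReal.ofReal (1 / max r a) = ENNReal.ofReal (1 / b) +
      ∫⁻ t in Ioc a b, (Ici r).indicator (fun t => ENNReal.ofReal (1 / t ^ 2)) t := by
  set c := max r a with hc
  have hc0 : 0 < c := ha.trans_le (le_max_right _ _)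
  have hcb : c ≤ b := max_le hr hab
  have h1 : ∫⁻ t in Ioc a b, (Ici r).indicator (fun t => ENNReal.ofReal (1 / t ^ 2)) t =
      ∫⁻ t in Ioc c b, ENNReal.ofReal (1 / t ^ 2) := by
    rw [lintegral_indicator measurableSet_Ici, Measure.restrict_restrict measurableSet_Ici]
    refine setLIntegral_congr ?_
    have h2 : Ioc c b =ᵐ[volume] Icc c b := Ioc_ae_eq_Icc
    refine (ae_eq_set.2 ⟨?_, ?_⟩ : (Ici r ∩ Ioc a b : Set ℝ) =ᵐ[volume] (Ioc c b : Set ℝ))
    · refine measure_mono_null (t := {c}) ?_ (by simp)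
      intro t ht
      simp only [Set.mem_sdiff, mem_inter_iff, mem_Ici, mem_Ioc, not_and, not_le] at ht
      obtain ⟨⟨h3, h4, h5⟩, h6⟩ := ht
      have h7 : c ≤ t := max_le h3 h4.le
      rcases h7.eq_or_lt with h8 | h8
      · exact h8.symm
      · exact absurd h5 (not_le.2 (h6 h8))
    · refine measure_mono_null (t := ∅) ?_ (by simp)
      intro t ht
      simp only [Set.mem_sdiff, mem_inter_iff, mem_Ici, mem_Ioc, not_and, not_le] at ht
      obtain ⟨⟨h3, h4⟩, h5⟩ := ht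
      exact absurd h4 (not_le.2 (h5 ((le_max_left r a).trans h3.le)
        ((le_max_right r a).trans_lt h3)))
  rw [h1]
  have h2 : ∀ t ∈ uIcc c b, HasDerivAt (fun t : ℝ => -(1 / t)) (1 / t ^ 2) t := by
    intro t ht
    rw [uIcc_of_le hcb] at ht
    have ht0 : t ≠ 0 := (hc0.trans_le ht.1).ne'
    have h3 : HasDerivAt (fun y : ℝ => -y⁻¹) (- -(t ^ 2)⁻¹) t := (hasDerivAt_inv ht0).neg
    simpa [one_div] using h3
  have h4 : ContinuousOn (fun t : ℝ => 1 / t ^ 2) (uIcc c b) := by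
    intro t ht
    rw [uIcc_of_le hcb] at ht
    have ht0 : t ^ 2 ≠ 0 := pow_ne_zero 2 (hc0.trans_le ht.1).ne'
    exact (continuousAt_const.div (continuous_pow 2).continuousAt ht0).continuousWithinAt
  have h3 := intervalIntegral.integral_eq_sub_of_hasDerivAt h2 h4.intervalIntegrable
  rw [intervalIntegral.integral_of_le hcb] at h3
  have h5 : ∫⁻ t in Ioc c b, ENNReal.ofReal (1 / t ^ 2) =
      ENNReal.ofReal (∫ t in Ioc c b, 1 / t ^ 2) := by
    rw [ofReal_integral_eq_lintegral_ofReal]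
    · rw [uIcc_of_le hcb] at h4
      exact (h4.integrableOn_Icc).mono_set Ioc_subset_Icc_self
    · exact Eventually.of_forall fun t => by positivity
  have hb0 : 0 < b := hc0.trans_le hcb
  have h6 : 1 / b ≤ 1 / c := one_div_le_one_div_of_le hc0 hcb
  rw [h5, h3, ← ENNReal.ofReal_add (by positivity) (by linarith)]
  congr 1
  ring

end Net

end Crest.Agent.R234.M1_770
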