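import Crest.Agent.R234.M1f_770

/-!
# Row 234, the case `m = 1` (helper770), file g: monotonicity identity and conical radius
-/

set_option autoImplicit false
set_option linter.unusedSectionVars false

open MeasureTheory Set ENNReal Filter
open scoped NNReal RealInnerProductSpace Topology

namespace Crest.Agent.R234.M1_770

variable {E : Type*} [NormedAddCommGroup E] [InnerProductSpace ℝ E]
variable [MeasurableSpace E] [BorelSpace E] [FiniteDimensional ℝ E]

namespace Net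

variable (N : Net E) (x₀ : E)

/-- `∫_{a < ρ ≤ b} |γ'| / ρ` -/
noncomputable def AA (a b : ℝ) : ℝ≥0∞ :=
  ∫⁻ p in {p | N.rho x₀ p ∈ Ioc a b}, ENNReal.ofReal (‖N.G' p‖ * (1 / N.rho x₀ p)) ∂N.α

/-- `∫_{a < ρ ≤ b} (τ·x̂)² |γ'| / ρ` -/
noncomputable def BB (a b : ℝ) : ℝ≥0∞ :=
  ∫⁻ p in {p | N.rho x₀ p ∈ Ioc a b}, ENNReal.ofReal (N.kf x₀ p * (1 / N.rho x₀ p ^ 2)) ∂N.α

theorem BB_le (a b : ℝ) : N.BB x₀ a b ≤ N.AA x₀ a b :=
  lintegral_mono fun p => ENNReal.ofReal_le_ofReal (N.kf_div_sq_le x₀ p)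

theorem BB_eq {U : Set E} (hS : N.Stat U) {a b R : ℝ} (ha0 : 0 < a) (hbR : b < R)
    (hU : Metric.closedBall x₀ R ⊆ U) (hfin : N.m x₀ R < ⊤) :
    N.BB x₀ a b = ∫⁻ t in Ioc a b, ENNReal.ofReal (1 / t ^ 2) * N.m x₀ t := by
  rw [← N.lintegral_kf x₀ hS ha0 hbR hU hfin (h := fun t => ENNReal.ofReal (1 / t ^ 2))
    (by fun_prop) measurableSet_Ioc subset_rfl, BB]
  refine lintegral_congr fun p => ?_
  rw [ENNReal.ofReal_mul (N.kf_nonneg x₀ p)]

theorem AA_lt_top {a b : ℝ} (ha0 : 0 < a) (hfin : N.m x₀ b < ⊤) : N.AA x₀ a b < ⊤ := by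
  have h1 : N.AA x₀ a b ≤ ∫⁻ p in {p | N.rho x₀ p ≤ b},
      ENNReal.ofReal (1 / a) * ENNReal.ofReal ‖N.G' p‖ ∂N.α := by
    rw [AA, ← lintegral_indicator (N.measurableSet_rho x₀ measurableSet_Ioc),
      ← lintegral_indicator (N.mset_le x₀ b)]
    refine lintegral_mono fun p => ?_
    by_cases hp : N.rho x₀ p ∈ Ioc a b
    · rw [indicator_of_mem (show p ∈ {p | N.rho x₀ p ∈ Ioc a b} from hp),
        indicator_of_mem (show p ∈ {p | N.rho x₀ p ≤ b} from hp.2),
        ← ENNReal.ofReal_mul (by positivity)]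
      refine ENNReal.ofReal_le_ofReal ?_
      rw [mul_comm]
      exact mul_le_mul_of_nonneg_right (one_div_le_one_div_of_le ha0 hp.1.le) (norm_nonneg _)
    · rw [indicator_of_notMem (show p ∉ {p | N.rho x₀ p ∈ Ioc a b} from hp)]
      exact zero_le
  refine h1.trans_lt ?_
  rw [lintegral_const_mul _ (by fun_prop)]
  exact ENNReal.mul_lt_top ENNReal.ofReal_lt_top hfin

/-- **the monotonicity identity** -/
theorem mono_identity {U : Set E} (hS : N.Stat U) {a b R : ℝ} (ha0 : 0 < a) (hab : a ≤ b)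
    (hbR : b < R) (hU : Metric.closedBall x₀ R ⊆ U) (hfin : N.m x₀ R < ⊤) :
    N.M x₀ a + N.AA x₀ a b = N.M x₀ b + N.BB x₀ a b := by
  have hle := N.mset_le x₀ b
  have hsplit : {p | N.rho x₀ p ≤ b} = {p | N.rho x₀ p ≤ a} ∪ {p | N.rho x₀ p ∈ Ioc a b} := by
    ext p
    simp only [Set.mem_ofPred_eq, mem_union, mem_Ioc]
    constructor
    · intro h
      rcases le_or_gt (N.rho x₀ p) a with h' | h'
      · exact Or.inl h'
      · exact Or.inr ⟨h', h⟩
    · rintro (h | h)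
      · exact h.trans hab
      · exact h.2
  have hdis : Disjoint {p | N.rho x₀ p ≤ a} {p | N.rho x₀ p ∈ Ioc a b} := by
    rw [Set.disjoint_left]
    intro p h h'
    exact absurd h (not_le.2 h'.1)
  -- left
  have hL : ∫⁻ p in {p | N.rho x₀ p ≤ b},
      ENNReal.ofReal ‖N.G' p‖ * ENNReal.ofReal (1 / max (N.rho x₀ p) a) ∂N.α =
      N.M x₀ a + N.AA x₀ a b := by
    rw [hsplit, lintegral_union (N.measurableSet_rho x₀ measurableSet_Ioc) hdis]
    congr 1
    · rw [M, m, ← lintegral_mul_const _ (by fun_prop)]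
      refine setLIntegral_congr_fun (N.mset_le x₀ a) fun p hp => ?_
      rw [max_eq_right (show N.rho x₀ p ≤ a from hp)]
    · refine setLIntegral_congr_fun (N.measurableSet_rho x₀ measurableSet_Ioc) fun p hp => ?_
      rw [max_eq_left (le_of_lt hp.1), ENNReal.ofReal_mul (norm_nonneg _)]
  have hR : ∫⁻ p in {p | N.rho x₀ p ≤ b},
      ENNReal.ofReal ‖N.G' p‖ * ENNReal.ofReal (1 / max (N.rho x₀ p) a) ∂N.α =
      N.M x₀ b + N.BB x₀ a b := by
    have h1 : ∫⁻ p in {p | N.rho x₀ p ≤ b},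
      ENNReal.ofReal ‖N.G' p‖ * ENNReal.ofReal (1 / max (N.rho x₀ p) a) ∂N.α =
      ∫⁻ p in {p | N.rho x₀ p ≤ b}, (ENNReal.ofReal ‖N.G' p‖ * ENNReal.ofReal (1 / b) +
        ∫⁻ t in Ioc a b, ({q : (ℕ × ℝ) × ℝ | N.rho x₀ q.1 ≤ q.2}).indicator
          (fun q => ENNReal.ofReal ‖N.G' q.1‖ * ENNReal.ofReal (1 / q.2 ^ 2)) (p, t)) ∂N.α := by
      refine setLIntegral_congr_fun hle fun p hp => ?_
      rw [ofReal_one_div_max ha0 hab hp, mul_add, ← lintegral_const_mul _ (by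
        exact Measurable.indicator (by fun_prop) measurableSet_Ici)]
      congr 1
      refine lintegral_congr fun t => ?_
      by_cases ht : N.rho x₀ p ≤ t
      · rw [indicator_of_mem (show t ∈ Ici (N.rho x₀ p) from ht),
          indicator_of_mem (show (p, t) ∈ {q : (ℕ × ℝ) × ℝ | N.rho x₀ q.1 ≤ q.2} from ht)]
      · rw [indicator_of_notMem (show t ∉ Ici (N.rho x₀ p) from ht),
          indicator_of_notMem (show (p, t) ∉ {q : (ℕ × ℝ) × ℝ | N.rho x₀ q.1 ≤ q.2} from ht),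
          mul_zero]
    have hjm : Measurable (({q : (ℕ × ℝ) × ℝ | N.rho x₀ q.1 ≤ q.2}).indicator
          (fun q => ENNReal.ofReal ‖N.G' q.1‖ * ENNReal.ofReal (1 / q.2 ^ 2))) :=
      Measurable.indicator (by fun_prop) (measurableSet_le (by fun_prop) (by fun_prop))
    rw [h1, lintegral_add_left (by fun_prop), lintegral_mul_const _ (by fun_prop)]
    congr 1
    rw [lintegral_lintegral_swap (f := fun p t =>
      ({q : (ℕ × ℝ) × ℝ | N.rho x₀ q.1 ≤ q.2}).indicator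
          (fun q => ENNReal.ofReal ‖N.G' q.1‖ * ENNReal.ofReal (1 / q.2 ^ 2)) (p, t))
      hjm.aemeasurable, N.BB_eq x₀ hS ha0 hbR hU hfin]
    refine setLIntegral_congr_fun measurableSet_Ioc fun t ht => ?_
    rw [m, ← lintegral_const_mul _ (by fun_prop), ← lintegral_indicator (N.mset_le x₀ t),
      ← lintegral_indicator hle]
    refine lintegral_congr fun p => ?_
    by_cases h : N.rho x₀ p ≤ t
    · rw [indicator_of_mem (show p ∈ {p | N.rho x₀ p ≤ b} from h.trans ht.2),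
        indicator_of_mem (show p ∈ {p | N.rho x₀ p ≤ t} from h),
        indicator_of_mem (show (p, t) ∈ {q : (ℕ × ℝ) × ℝ | N.rho x₀ q.1 ≤ q.2} from h), mul_comm]
    · rw [indicator_of_notMem (show p ∉ {p | N.rho x₀ p ≤ t} from h)]
      by_cases h' : N.rho x₀ p ≤ b
      · rw [indicator_of_mem (show p ∈ {p | N.rho x₀ p ≤ b} from h'),
          indicator_of_notMem (show (p, t) ∉ {q : (ℕ × ℝ) × ℝ | N.rho x₀ q.1 ≤ q.2} from h)]
      · rw [indicator_of_notMem (show p ∉ {p | N.rho x₀ p ≤ b} from h')]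
  rw [← hL, hR]

theorem M_mono {U : Set E} (hS : N.Stat U) {a b R : ℝ} (ha0 : 0 < a) (hab : a ≤ b)
    (hbR : b < R) (hU : Metric.closedBall x₀ R ⊆ U) (hfin : N.m x₀ R < ⊤) :
    N.M x₀ a ≤ N.M x₀ b := by
  have h1 := N.mono_identity x₀ hS ha0 hab hbR hU hfin
  have h2 : N.AA x₀ a b < ⊤ := N.AA_lt_top x₀ ha0 ((N.m_mono x₀ hbR.le).trans_lt hfin)
  have h3 : N.M x₀ a + N.AA x₀ a b ≤ N.M x₀ b + N.AA x₀ a b :=
    h1.le.trans (add_le_add le_rfl (N.BB_le x₀ a b))
  exact (ENNReal.add_le_add_iff_right h2.ne).1 h3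

theorem M_lt_top {b : ℝ} (hfin : N.m x₀ b < ⊤) : N.M x₀ b < ⊤ :=
  ENNReal.mul_lt_top hfin ENNReal.ofReal_lt_top

theorem lintegral_one_div {a b : ℝ} (ha : 0 < a) (hab : a ≤ b) :
    ∫⁻ t in Ioc a b, ENNReal.ofReal (1 / t) = ENNReal.ofReal (Real.log (b / a)) := by
  rw [← integral_one_div_of_pos ha (ha.trans_le hab), intervalIntegral.integral_of_le hab,
    ofReal_integral_eq_lintegral_ofReal]
  · have h4 : ContinuousOn (fun t : ℝ => 1 / t) (Icc a b) := by
      intro t ht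
      exact (continuousAt_const.div continuousAt_id (ha.trans_le ht.1).ne').continuousWithinAt
    exact (h4.integrableOn_Icc).mono_set Ioc_subset_Icc_self
  · exact (ae_restrict_iff' measurableSet_Ioc).2 (Eventually.of_forall fun t ht =>
      one_div_nonneg.2 (ha.trans ht.1).le)

/-- **a radius at which the mass ratio is minimal** -/
theorem exists_radius {U : Set E} (hS : N.Stat U) {R : ℝ} (hR : 0 < R)
    (hU : Metric.closedBall x₀ R ⊆ U) (hfin : N.m x₀ R < ⊤) :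
    ∃ r, 0 < r ∧ r < R ∧ ∀ a, 0 < a → a ≤ r → N.M x₀ a = N.M x₀ r := by
  by_contra hcon
  push Not at hcon
  obtain ⟨Nf, hNm, hNi, hNf⟩ := N.exists_sl x₀
  -- the limit density
  set θ : ℝ≥0∞ := ⨅ r : Ioo (0 : ℝ) R, N.M x₀ r with hθ
  have hgt : ∀ r, 0 < r → r < R → θ < N.M x₀ r := by
    intro r hr hrR
    obtain ⟨a, ha0, har, hne⟩ := hcon r hr hrR
    have h1 : N.M x₀ a < N.M x₀ r :=
      lt_of_le_of_ne (N.M_mono x₀ hS ha0 har hrR hU hfin) hne
    exact (iInf_le (fun r : Ioo (0 : ℝ) R => N.M x₀ r) ⟨a, ha0, har.trans_lt hrR⟩).trans_lt h1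
  have hfinr : ∀ r, r ≤ R → N.m x₀ r < ⊤ := fun r hr => (N.m_mono x₀ hr).trans_lt hfin
  have hθt : θ < ⊤ := (hgt (R / 2) (by linarith) (by linarith)).trans
    (N.M_lt_top x₀ (hfinr _ (by linarith)))
  -- the next integer
  set n₀ : ℕ := ⌊θ.toReal⌋₊ + 1 with hn₀
  have hθn : θ < n₀ := by
    rw [← ENNReal.ofReal_toReal hθt.ne, ← ENNReal.ofReal_natCast]
    exact (ENNReal.ofReal_lt_ofReal_iff (by positivity)).2 (by
      rw [hn₀]; push_cast; exact Nat.lt_floor_add_one _)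
  have hint : ∀ x : ℝ≥0∞, IsInt x → θ < x → (n₀ : ℝ≥0∞) ≤ x := by
    rintro x (rfl | ⟨j, rfl⟩) hx
    · exact le_top
    · have h1 : θ.toReal < j := by
        have := (ENNReal.toReal_lt_toReal hθt.ne (ENNReal.natCast_ne_top j)).2 hx
        simpa using this
      have h2 : ⌊θ.toReal⌋₊ < j := (Nat.floor_lt ENNReal.toReal_nonneg).2 h1
      exact_mod_cast h2
  obtain ⟨b', hb'⟩ : ∃ r : Ioo (0 : ℝ) R, N.M x₀ r < n₀ := iInf_lt_iff.1 hθn
  obtain ⟨b, hb0, hbR⟩ := b'
  simp only at hb'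
  -- the estimate on `(a, b]`
  have key : ∀ a, 0 < a → a ≤ b → (n₀ : ℝ≥0∞) * ENNReal.ofReal (Real.log (b / a)) ≤
      N.M x₀ b + N.M x₀ b * ENNReal.ofReal (Real.log (b / a)) := by
    intro a ha hab
    have h1 : (n₀ : ℝ≥0∞) * ENNReal.ofReal (Real.log (b / a)) ≤
        ∫⁻ t in Ioc a b, Nf t * ENNReal.ofReal (1 / t) := by
      rw [← lintegral_one_div ha hab, ← lintegral_const_mul _ (by fun_prop)]
      refine lintegral_mono_ae ?_
      filter_upwards [N.M_le x₀ hS hU hfin hNf ha hbR,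
        ae_restrict_mem (μ := volume) (measurableSet_Ioc (a := a) (b := b))] with t ht htm
      exact mul_le_mul_left (hint _ (hNi t)
        ((hgt t (ha.trans htm.1) (htm.2.trans_lt hbR)).trans_le ht)) _
    have h2 : ∫⁻ t in Ioc a b, Nf t * ENNReal.ofReal (1 / t) ≤ N.AA x₀ a b := by
      have h3 := hNf ((Ioc a b).indicator fun t => ENNReal.ofReal (1 / t))
        (Measurable.indicator (by fun_prop) measurableSet_Ioc)
      have h4 : ∫⁻ r, Nf r * (Ioc a b).indicator (fun t => ENNReal.ofReal (1 / t)) r =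
          ∫⁻ t in Ioc a b, Nf t * ENNReal.ofReal (1 / t) := by
        rw [← lintegral_indicator measurableSet_Ioc]
        refine lintegral_congr fun r => ?_
        by_cases hr : r ∈ Ioc a b
        · rw [indicator_of_mem hr, indicator_of_mem hr]
        · rw [indicator_of_notMem hr, indicator_of_notMem hr, mul_zero]
      rw [← h4, ← h3, AA, ← lintegral_indicator (N.measurableSet_rho x₀ measurableSet_Ioc)]
      refine lintegral_mono fun p => ?_
      by_cases hp : N.rho x₀ p ∈ Ioc a b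
      · rw [indicator_of_mem (show p ∈ {p | N.rho x₀ p ∈ Ioc a b} from hp), indicator_of_mem hp,
          ← ENNReal.ofReal_mul (div_nonneg (abs_nonneg _) (N.rho_nonneg x₀ p))]
        refine ENNReal.ofReal_le_ofReal ?_
        have hρ : 0 < N.rho x₀ p := ha.trans hp.1
        refine mul_le_mul_of_nonneg_right ?_ (by positivity)
        rw [div_le_iff₀ hρ, mul_comm]
        exact N.abs_sc_le x₀ p
      · rw [indicator_of_notMem (show p ∉ {p | N.rho x₀ p ∈ Ioc a b} from hp),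
          indicator_of_notMem hp, mul_zero]
    have h5 : N.AA x₀ a b ≤ N.M x₀ b + N.BB x₀ a b := by
      rw [← N.mono_identity x₀ hS ha hab hbR hU hfin]
      exact le_add_self
    have h6 : N.BB x₀ a b ≤ N.M x₀ b * ENNReal.ofReal (Real.log (b / a)) := by
      rw [N.BB_eq x₀ hS ha hbR hU hfin, ← lintegral_one_div ha hab,
        ← lintegral_const_mul _ (by fun_prop)]
      refine setLIntegral_mono (by fun_prop) fun t ht => ?_
      have ht0 : 0 < t := ha.trans ht.1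
      have h7 : ENNReal.ofReal (1 / t ^ 2) * N.m x₀ t = N.M x₀ t * ENNReal.ofReal (1 / t) := by
        rw [M, mul_assoc, ← ENNReal.ofReal_mul (by positivity), mul_comm]
        congr 2
        field_simp
      rw [h7]
      exact mul_le_mul_left (N.M_mono x₀ hS ht0 ht.2 hbR hU hfin) _
    exact h1.trans (h2.trans (h5.trans (add_le_add le_rfl h6)))
  -- contradiction for small `a`
  have hMt : N.M x₀ b < ⊤ := N.M_lt_top x₀ (hfinr _ hbR.le)
  set c : ℝ := (N.M x₀ b).toReal with hc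
  have hcn : c < n₀ := by
    have := (ENNReal.toReal_lt_toReal hMt.ne (ENNReal.natCast_ne_top n₀)).2 hb'
    simpa using this
  have hc0 : 0 ≤ c := ENNReal.toReal_nonneg
  set L : ℝ := c / (n₀ - c) + 1 with hL
  have hL0 : 0 < L := by
    have : 0 ≤ c / (n₀ - c) := div_nonneg hc0 (by linarith)
    linarith
  have ha0 : 0 < b * Real.exp (-L) := mul_pos hb0 (Real.exp_pos _)
  have hab : b * Real.exp (-L) ≤ b := by
    have : Real.exp (-L) ≤ 1 := Real.exp_le_one_iff.2 (by linarith)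
    nlinarith
  have hk := key _ ha0 hab
  have hlog : Real.log (b / (b * Real.exp (-L))) = L := by
    rw [div_mul_eq_div_div, div_self hb0.ne', one_div, ← Real.exp_neg, neg_neg, Real.log_exp]
  rw [hlog, ← ENNReal.ofReal_toReal hMt.ne, ← hc, ← ENNReal.ofReal_natCast,
    ← ENNReal.ofReal_mul (by positivity), ← ENNReal.ofReal_mul hc0,
    ← ENNReal.ofReal_add hc0 (by positivity), ENNReal.ofReal_le_ofReal_iff (by positivity)] at hk
  have h8 : (n₀ - c) * L = c + (n₀ - c) := by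
    rw [hL]
    have : (n₀ : ℝ) - c ≠ 0 := by linarith
    field_simp
  nlinarith

/-- **V is conical near every point of `U`** -/
theorem conical {U : Set E} (hS : N.Stat U) {R : ℝ} (hR : 0 < R)
    (hU : Metric.closedBall x₀ R ⊆ U) (hfin : N.m x₀ R < ⊤) :
    ∃ r, 0 < r ∧ r < R ∧ ∀ᵐ p ∂N.α, 0 < N.rho x₀ p → N.rho x₀ p ≤ r →
      |N.sc x₀ p| = N.rho x₀ p * ‖N.G' p‖ := by
  obtain ⟨r, hr0, hrR, hr⟩ := N.exists_radius x₀ hS hR hU hfin
  refine ⟨r, hr0, hrR, ?_⟩
  have hfinr : ∀ r, r ≤ R → N.m x₀ r < ⊤ := fun r hr => (N.m_mono x₀ hr).trans_lt hfin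
  have h1 : ∀ a, 0 < a → a ≤ r → ∀ᵐ p ∂N.α, N.rho x₀ p ∈ Ioc a r →
      |N.sc x₀ p| = N.rho x₀ p * ‖N.G' p‖ := by
    intro a ha har
    have h2 := N.mono_identity x₀ hS ha har hrR hU hfin
    rw [hr a ha har] at h2
    have hMt : N.M x₀ r < ⊤ := N.M_lt_top x₀ (hfinr _ hrR.le)
    have h3 : N.AA x₀ a r = N.BB x₀ a r := (ENNReal.add_right_inj hMt.ne).1 h2
    have hAt : N.AA x₀ a r < ⊤ := N.AA_lt_top x₀ ha (hfinr _ hrR.le)
    have h4 := ae_eq_of_ae_le_of_lintegral_le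
      (μ := N.α.restrict {p | N.rho x₀ p ∈ Ioc a r})
      (f := fun p => ENNReal.ofReal (N.kf x₀ p * (1 / N.rho x₀ p ^ 2)))
      (g := fun p => ENNReal.ofReal (‖N.G' p‖ * (1 / N.rho x₀ p)))
      (Eventually.of_forall fun p => ENNReal.ofReal_le_ofReal (N.kf_div_sq_le x₀ p))
      ((N.BB_le x₀ a r).trans_lt hAt).ne (by fun_prop) h3.le
    have h5 := (ae_restrict_iff' (N.measurableSet_rho x₀ measurableSet_Ioc)).1 h4
    filter_upwards [h5] with p hp hpm
    have h6 := hp hpm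
    have hρ : 0 < N.rho x₀ p := ha.trans hpm.1
    have h7 : N.kf x₀ p * (1 / N.rho x₀ p ^ 2) = ‖N.G' p‖ * (1 / N.rho x₀ p) := by
      rwa [ENNReal.ofReal_eq_ofReal_iff (mul_nonneg (N.kf_nonneg x₀ p) (by positivity))
        (mul_nonneg (norm_nonneg _) (by positivity))] at h6
    rcases (norm_nonneg (N.G' p)).eq_or_lt with hw | hw
    · rw [← hw, mul_zero]
      have := N.abs_sc_le x₀ p
      rw [← hw, mul_zero] at this
      exact le_antisymm this (abs_nonneg _)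
    · rw [kf] at h7
      have h8 : N.sc x₀ p ^ 2 = (N.rho x₀ p * ‖N.G' p‖) ^ 2 := by
        field_simp at h7
        nlinarith
      have h9 := congrArg Real.sqrt h8
      rwa [Real.sqrt_sq_eq_abs, Real.sqrt_sq (by positivity)] at h9
  have h2 : ∀ᵐ p ∂N.α, ∀ j : ℕ, N.rho x₀ p ∈ Ioc (r / (j + 1)) r →
      |N.sc x₀ p| = N.rho x₀ p * ‖N.G' p‖ := by
    rw [ae_all_iff]
    intro j
    refine h1 _ (by positivity) ?_
    rw [div_le_iff₀ (by positivity)]
    nlinarith [(Nat.cast_nonneg j : (0 : ℝ) ≤ j)]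
  filter_upwards [h2] with p hp h0 hle
  obtain ⟨j, hj⟩ := exists_nat_gt (r / N.rho x₀ p)
  refine hp j ⟨?_, hle⟩
  rw [div_lt_iff₀ (by positivity)]
  rw [div_lt_iff₀ h0] at hj
  nlinarith

end Net

end Crest.Agent.R234.M1_770
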