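import Crest.Agent.R234.M1g_770

/-!
# Row 234, the case `m = 1` (helper770), file h: near an isolated point the support is a line
-/

set_option autoImplicit false
set_option linter.unusedSectionVars false

open MeasureTheory Set ENNReal Filter
open scoped NNReal RealInnerProductSpace Topology

namespace Crest.Agent.R234.M1_770

variable {E : Type*} [NormedAddCommGroup E] [InnerProductSpace ℝ E]
variable [MeasurableSpace E] [BorelSpace E] [FiniteDimensional ℝ E]

/-- points of the line through `y` in direction `e` -/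
def line (y e : E) : Set E := {x | x - y = ⟪x - y, e⟫ • e}

theorem isClosed_line (y e : E) : IsClosed (line y e) :=
  isClosed_eq (by fun_prop) (by fun_prop)

theorem mem_line_iff {y e : E} (he : ‖e‖ = 1) {x : E} : x ∈ line y e ↔ ∃ t : ℝ, x = y + t • e := by
  constructor
  · intro h
    refine ⟨⟪x - y, e⟫, ?_⟩
    rw [← (show x - y = ⟪x - y, e⟫ • e from h)]
    abel
  · rintro ⟨t, rfl⟩
    change y + t • e - y = ⟪y + t • e - y, e⟫ • e
    rw [add_sub_cancel_left, inner_smul_left, real_inner_self_eq_norm_sq, he]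
    simp

theorem inner_line {y e : E} (he : ‖e‖ = 1) (t : ℝ) : ⟪y + t • e - y, e⟫ = t := by
  rw [add_sub_cancel_left, inner_smul_left, real_inner_self_eq_norm_sq, he]
  simp

/-- the equality case of Cauchy-Schwarz -/
theorem exists_smul_of_abs {x v : E} (hx : x ≠ 0) (hv : v ≠ 0) (h : |⟪x, v⟫| = ‖x‖ * ‖v‖) :
    ∃ r : ℝ, r ≠ 0 ∧ v = r • x := by
  have h1 : |⟪x, v⟫ / (‖x‖ * ‖v‖)| = 1 := by
    rw [abs_div, h, abs_of_nonneg (by positivity : (0 : ℝ) ≤ ‖x‖ * ‖v‖), div_self]
    exact mul_ne_zero (norm_ne_zero_iff.2 hx) (norm_ne_zero_iff.2 hv)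
  exact ((abs_real_inner_div_norm_mul_norm_eq_one_iff x v).1 h1).2

namespace Net

variable (N : Net E)

theorem ae_ne : ∀ᵐ p ∂N.α, N.G' p ≠ 0 := N.ae_α fun i t ht => N.imm i t ht

/-- **conical at two points: contained in the line through them** -/
theorem ae_line {x₀ y : E} (hxy : y ≠ x₀) {r r' s : ℝ}
    (h1 : ∀ᵐ p ∂N.α, 0 < N.rho x₀ p → N.rho x₀ p ≤ r → |N.sc x₀ p| = N.rho x₀ p * ‖N.G' p‖)
    (h2 : ∀ᵐ p ∂N.α, 0 < N.rho y p → N.rho y p ≤ r' → |N.sc y p| = N.rho y p * ‖N.G' p‖)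
    (hs : s ≤ r') (hs2 : s ≤ r - ‖y - x₀‖) (hs3 : s ≤ ‖y - x₀‖) :
    ∀ᵐ p ∂N.α, N.G p ∈ Metric.ball y s →
      (∃ c : ℝ, N.G' p = c • (‖y - x₀‖⁻¹ • (y - x₀))) ∧
        ∃ t : ℝ, N.G p = y + t • (‖y - x₀‖⁻¹ • (y - x₀)) := by
  have hn : ‖y - x₀‖ ≠ 0 := norm_ne_zero_iff.2 (sub_ne_zero.2 hxy)
  filter_upwards [h1, h2, N.ae_ne] with p hp1 hp2 hp3 hp
  rw [Metric.mem_ball, dist_eq_norm] at hp
  have ha : N.G p ≠ x₀ := by
    intro h
    rw [h, ← norm_neg, neg_sub] at hp
    linarith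
  have hρ : 0 < N.rho x₀ p := norm_pos_iff.2 (sub_ne_zero.2 ha)
  have hρr : N.rho x₀ p ≤ r := by
    have : ‖N.G p - x₀‖ ≤ ‖N.G p - y‖ + ‖y - x₀‖ := norm_sub_le_norm_sub_add_norm_sub _ _ _
    change ‖N.G p - x₀‖ ≤ r
    linarith
  obtain ⟨c, hc0, hc⟩ := exists_smul_of_abs (sub_ne_zero.2 ha) hp3 (hp1 hρ hρr)
  by_cases hy : N.G p = y
  · refine ⟨⟨c * ‖y - x₀‖, ?_⟩, 0, by rw [zero_smul, add_zero, hy]⟩
    rw [hc, hy, smul_smul, mul_assoc, mul_inv_cancel₀ hn, mul_one]
  · have hρy : 0 < N.rho y p := norm_pos_iff.2 (sub_ne_zero.2 hy)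
    obtain ⟨d, hd0, hd⟩ := exists_smul_of_abs (sub_ne_zero.2 hy) hp3
      (hp2 hρy (by change ‖N.G p - y‖ ≤ r'; linarith))
    have h4 : (d - c) • (N.G p - y) = c • (y - x₀) := by
      have h5 : c • (N.G p - x₀) = d • (N.G p - y) := by rw [← hc, hd]
      have h6 : N.G p - x₀ = (N.G p - y) + (y - x₀) := by abel
      rw [h6, smul_add] at h5
      rw [sub_smul, ← h5]
      abel
    have h7 : d - c ≠ 0 := by
      intro h
      rw [h, zero_smul] at h4
      rcases smul_eq_zero.1 h4.symm with h | h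
      · exact hc0 h
      · exact hxy (sub_eq_zero.1 h)
    have h8 : N.G p - y = ((d - c)⁻¹ * c) • (y - x₀) := by
      rw [← smul_smul, ← h4, smul_smul, inv_mul_cancel₀ h7, one_smul]
    have h9 : ∀ a : ℝ, a • (y - x₀) = (a * ‖y - x₀‖) • (‖y - x₀‖⁻¹ • (y - x₀)) := by
      intro a
      rw [smul_smul, mul_assoc, mul_inv_cancel₀ hn, mul_one]
    refine ⟨⟨d * ((d - c)⁻¹ * c) * ‖y - x₀‖, ?_⟩, ((d - c)⁻¹ * c) * ‖y - x₀‖, ?_⟩
    · rw [hd, h8, smul_smul, h9]
    · rw [← h9, ← h8]
      abel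

/-- the support -/
def supp : Set E := {x | ∀ ρ : ℝ, 0 < ρ → 0 < N.mass (Metric.ball x ρ)}

/-- primitive of a function with zero integral -/
theorem exists_prim {b : ℝ → ℝ} (hb : Continuous b) {s : ℝ} (hs : ∀ t, s ≤ |t| → b t = 0)
    (h0 : 0 ≤ s) (hint : ∫ t, b t = 0) : ∃ A : ℝ → ℝ, ContDiff ℝ 1 A ∧ (∀ t, HasDerivAt A (b t) t) ∧
      ∀ t, s ≤ |t| → A t = 0 := by
  refine ⟨fun t => - prim b s t, (contDiff_prim hb).neg, ?_, ?_⟩
  · intro t
    have h3 : HasDerivAt (fun t => - prim b s t) (- -b t) t := (hasDerivAt_prim (b := s) hb t).neg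
    rwa [neg_neg] at h3
  · intro t ht
    change - prim b s t = 0
    rcases le_abs.1 ht with h | h
    · rw [prim_of_ge (fun u hu => hs u (le_abs.2 (Or.inl hu))) h, neg_zero]
    · have h1 : t ≤ -s := by linarith
      have h2 : prim b s t = prim b s (-s) :=
        prim_of_le hb (fun u hu => hs u (le_abs.2 (Or.inr (by linarith)))) h1
      rw [h2, prim, intervalIntegral.integral_of_le (by linarith)]
      have h3 : ∫ t in Ioc (-s) s, b t = ∫ t, b t := by
        rw [← integral_indicator measurableSet_Ioc]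
        congr 1
        funext u
        by_cases hu : u ∈ Ioc (-s) s
        · rw [indicator_of_mem hu]
        · rw [indicator_of_notMem hu]
          refine (hs u ?_).symm
          by_contra hc
          rw [not_le, abs_lt] at hc
          exact hu ⟨hc.1, hc.2.le⟩
      rw [h3, hint, neg_zero]

/-- translation invariance along the line -/
theorem integral_line {U : Set E} (hS : N.Stat U) {y e : E} (he : ‖e‖ = 1) {s : ℝ}
    (hU : Metric.ball y s ⊆ U)
    (hl : ∀ᵐ p ∂N.α, N.G p ∈ Metric.ball y s →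
      (∃ c : ℝ, N.G' p = c • e) ∧ ∃ t : ℝ, N.G p = y + t • e)
    {b : ℝ → ℝ} (hb : Continuous b) {s' : ℝ} (hs' : s' < s) (h0 : 0 < s')
    (hbs : ∀ t, s' ≤ |t| → b t = 0) (hint : ∫ t, b t = 0) :
    ∫ p, (N.G ⁻¹' Metric.ball y s).indicator (fun p => ‖N.G' p‖ * b ⟪N.G p - y, e⟫) p ∂N.α = 0 := by
  obtain ⟨A, hAc, hAd, hA0⟩ := exists_prim hb hbs h0.le hint
  let f : ContDiffBump y := ⟨(2 * s' + s) / 3, (s' + 2 * s) / 3, by linarith, by linarith⟩
  have hfi : f.rIn = (2 * s' + s) / 3 := rfl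
  have hfo : f.rOut = (s' + 2 * s) / 3 := rfl
  set ψ : E → ℝ := fun x => A ⟪x - y, e⟫ * f x with hψ
  have hfc : ContDiff ℝ 1 (f : E → ℝ) := f.contDiff
  have hψc : ContDiff ℝ 1 ψ := by
    refine ContDiff.mul (hAc.comp ?_) hfc
    exact (show ContDiff ℝ 1 (fun x : E => x - y) by fun_prop).inner ℝ contDiff_const
  have hts : tsupport ψ ⊆ Metric.closedBall y f.rOut := by
    rw [← f.tsupport_eq]
    exact tsupport_mul_subset_right
  have htb : tsupport ψ ⊆ Metric.ball y s :=
    hts.trans (Metric.closedBall_subset_ball (by rw [hfo]; linarith))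
  have : ProperSpace E := FiniteDimensional.proper ℝ E
  have hcs : HasCompactSupport ψ :=
    HasCompactSupport.of_support_subset_isCompact (isCompact_closedBall y f.rOut)
      ((subset_tsupport _).trans hts)
  have hX := hS (fun x => ψ x • e) (by fun_prop) (hcs.smul_right) (by
    refine Subset.trans ?_ (htb.trans hU)
    exact closure_mono (Function.support_smul_subset_left ψ (fun _ => e)))
  rw [← hX]
  refine integral_congr_ae ?_
  filter_upwards [hl, N.ae_ne] with p hp hp0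
  have hfd : fderiv ℝ (fun x => ψ x • e) (N.G p) (N.G' p) = (fderiv ℝ ψ (N.G p) (N.G' p)) • e := by
    have h1 : HasFDerivAt (fun x => ψ x • e) ((fderiv ℝ ψ (N.G p)).smulRight e) (N.G p) :=
      ((hψc.differentiable one_ne_zero (N.G p)).hasFDerivAt).smul_const e
    rw [h1.fderiv]
    rfl
  rw [hfd]
  by_cases hm : N.G p ∈ Metric.ball y s
  · rw [indicator_of_mem (show p ∈ N.G ⁻¹' Metric.ball y s from hm)]
    obtain ⟨⟨c, hc⟩, t, ht⟩ := hp hm
    have hc0 : c ≠ 0 := by
      rintro rfl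
      rw [zero_smul] at hc
      exact hp0 hc
    have hw : ‖N.G' p‖ = |c| := by rw [hc, norm_smul, he, mul_one, Real.norm_eq_abs]
    have hd : fderiv ℝ ψ (N.G p) e = b t := by
      rcases lt_or_ge |t| f.rIn with h | h
      · have hmem : N.G p ∈ Metric.ball y f.rIn := by
          rw [Metric.mem_ball, dist_eq_norm, ht, add_sub_cancel_left, norm_smul, he, mul_one]
          exact h
        have h2 : ψ =ᶠ[𝓝 (N.G p)] fun x => A ⟪x - y, e⟫ := by
          filter_upwards [Metric.isOpen_ball.mem_nhds hmem] with x hx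
          rw [hψ]
          simp only
          rw [f.one_of_mem_closedBall (Metric.ball_subset_closedBall hx), mul_one]
        rw [h2.fderiv_eq]
        have h3 : HasFDerivAt (fun x : E => ⟪x - y, e⟫) ((innerSL ℝ).flip e) (N.G p) := by
          have h4 : HasFDerivAt (fun x : E => (innerSL ℝ).flip e (x - y))
              (((innerSL ℝ).flip e).comp (ContinuousLinearMap.id ℝ E)) (N.G p) :=
            ((innerSL ℝ).flip e).hasFDerivAt.comp _ ((hasFDerivAt_id _).sub_const y)
          exact h4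
        have h5 := (hAd ⟪N.G p - y, e⟫).comp_hasFDerivAt (N.G p) h3
        have h6 : fderiv ℝ (fun x : E => A ⟪x - y, e⟫) (N.G p) = _ := h5.fderiv
        rw [h6, smul_apply]
        change b ⟪N.G p - y, e⟫ • ⟪e, e⟫ = b t
        rw [real_inner_self_eq_norm_sq, he, ht, inner_line he]
        simp
      · have h2 : ψ =ᶠ[𝓝 (N.G p)] fun _ => 0 := by
          have h3 : {x : E | s' < |⟪x - y, e⟫|} ∈ 𝓝 (N.G p) := by
            refine (isOpen_lt continuous_const (by fun_prop)).mem_nhds ?_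
            change s' < |⟪N.G p - y, e⟫|
            rw [ht, inner_line he]
            rw [hfi] at h
            linarith
          filter_upwards [h3] with x hx
          rw [hψ]
          simp only
          rw [hA0 _ (le_of_lt hx), zero_mul]
        rw [h2.fderiv_eq, hbs t (by rw [hfi] at h; linarith)]
        simp
    rw [hc, map_smul, hd, ht, inner_line he, smul_eq_mul, norm_smul, he, mul_one,
      Real.norm_eq_abs, inner_smul_left, inner_smul_right, real_inner_self_eq_norm_sq, he]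
    have h3 : |c| ≠ 0 := abs_ne_zero.2 hc0
    simp only [RCLike.conj_to_real, one_pow, mul_one]
    rw [eq_div_iff h3]
    have : |c| * |c| = c * c := abs_mul_abs_self c
    linear_combination (b t) * this
  · rw [indicator_of_notMem (show p ∉ N.G ⁻¹' Metric.ball y s from hm)]
    have h1 : fderiv ℝ ψ (N.G p) = 0 := by
      have h2 : ψ =ᶠ[𝓝 (N.G p)] fun _ => 0 := by
        have : (tsupport ψ)ᶜ ∈ 𝓝 (N.G p) :=
          (isClosed_tsupport ψ).isOpen_compl.mem_nhds fun h => hm (htb h)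
        filter_upwards [this] with x hx
        exact image_eq_zero_of_notMem_tsupport hx
      rw [h2.fderiv_eq]
      simp
    rw [h1]
    simp

end Net

end Crest.Agent.R234.M1_770
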