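import Crest.Agent.R234.M1h_770
import Crest.Prelude.Def_Submanifold

/-!
# Row 234, the case `m = 1` (helper770), file i: the support near a regular point is a segment
-/

set_option autoImplicit false
set_option linter.unusedSectionVars false

open MeasureTheory Set ENNReal Filter
open scoped NNReal RealInnerProductSpace Topology
open Crest.GeometryTopology.Submanifold

namespace Crest.Agent.R234.M1_770

section

variable {E : Type*} [NormedAddCommGroup E] [InnerProductSpace ℝ E]
variable [MeasurableSpace E] [BorelSpace E] [FiniteDimensional ℝ E]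

/-- tent function -/
noncomputable def tent (η c t : ℝ) : ℝ := max 0 (1 - |t - c| / η)

theorem continuous_tent (η c : ℝ) : Continuous (tent η c) := by
  unfold tent
  fun_prop

theorem tent_nonneg (η c t : ℝ) : 0 ≤ tent η c t := le_max_left _ _

theorem tent_eq_zero {η c t : ℝ} (hη : 0 < η) (h : η ≤ |t - c|) : tent η c t = 0 := by
  have : 1 ≤ |t - c| / η := (one_le_div hη).2 h
  exact max_eq_left (by linarith)

theorem tent_pos {η c t : ℝ} (hη : 0 < η) (h : |t - c| < η) : 0 < tent η c t := by
  have : |t - c| / η < 1 := (div_lt_one hη).2 h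
  exact lt_max_of_lt_right (by linarith)

theorem tent_le_one {η c t : ℝ} (hη : 0 < η) : tent η c t ≤ 1 :=
  max_le zero_le_one (by have : 0 ≤ |t - c| / η := by positivity
                         linarith)

theorem integrable_tent {η c : ℝ} (hη : 0 < η) : Integrable (tent η c) := by
  refine (continuous_tent η c).integrable_of_hasCompactSupport ?_
  refine HasCompactSupport.intro (isCompact_Icc (a := c - η) (b := c + η)) fun t ht => ?_
  refine tent_eq_zero hη ?_
  by_contra h
  rw [not_le, abs_lt] at h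
  exact ht ⟨by linarith, by linarith⟩

theorem integral_tent (η c : ℝ) : ∫ t, tent η c t = ∫ t, tent η 0 t := by
  have : (fun t => tent η c t) = fun t => tent η 0 (t - c) := by
    funext t
    simp [tent]
  rw [this]
  exact integral_sub_right_eq_self (fun t => tent η 0 t) c

namespace Net

variable (N : Net E)

theorem mass_mono {A B : Set E} (h : A ⊆ B) : N.mass A ≤ N.mass B :=
  lintegral_mono_set (preimage_mono h)

theorem mass_ball_le (y : E) (s : ℝ) : N.mass (Metric.ball y s) ≤ N.m y s := by
  rw [N.m_eq]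
  exact N.mass_mono Metric.ball_subset_closedBall

/-- positivity propagates along the line -/
theorem mem_supp {U : Set E} (hS : N.Stat U) {y e : E} (he : ‖e‖ = 1) {s : ℝ}
    (hU : Metric.ball y s ⊆ U) (hfin : N.m y s < ⊤)
    (hl : ∀ᵐ p ∂N.α, N.G p ∈ Metric.ball y s →
      (∃ c : ℝ, N.G' p = c • e) ∧ ∃ t : ℝ, N.G p = y + t • e)
    (hy : y ∈ N.supp) {c : ℝ} (hc : |c| < s) : y + c • e ∈ N.supp := by
  intro δ hδ
  by_contra hcon
  have hz : N.mass (Metric.ball (y + c • e) δ) = 0 := by
    rcases eq_or_ne (N.mass (Metric.ball (y + c • e) δ)) 0 with h | h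
    · exact h
    · exact absurd (pos_iff_ne_zero.2 h) hcon
  obtain ⟨η, hη0, hηδ, hηs⟩ : ∃ η : ℝ, 0 < η ∧ η ≤ δ ∧ |c| + 2 * η < s :=
    ⟨min δ ((s - |c|) / 3), lt_min hδ (by linarith), min_le_left _ _, by
      have := min_le_right δ ((s - |c|) / 3)
      linarith⟩
  set b : ℝ → ℝ := fun t => tent η 0 t - tent η c t with hb
  have hbc : Continuous b := (continuous_tent η 0).sub (continuous_tent η c)
  have hc0 : 0 ≤ |c| := abs_nonneg c
  have hint : ∫ t, b t = 0 := by
    rw [hb, integral_sub (integrable_tent hη0) (integrable_tent hη0), integral_tent η c, sub_self]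
  have hI := N.integral_line hS he hU hl hbc (s' := |c| + η) (by linarith) (by linarith) (by
    intro t ht
    rw [hb]
    simp only
    have h1 : η ≤ |t - 0| := by rw [sub_zero]; linarith
    have h2 : η ≤ |t - c| := by
      have := abs_sub_abs_le_abs_sub t c
      linarith
    rw [tent_eq_zero hη0 h1, tent_eq_zero hη0 h2, sub_zero]) hint
  have hms : MeasurableSet (N.G ⁻¹' Metric.ball y s) := N.measurable_G measurableSet_ball
  have hwint : IntegrableOn (fun p => ‖N.G' p‖) (N.G ⁻¹' Metric.ball y s) N.α := by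
    refine (N.integrableOn_w y hfin).mono_set ?_
    intro p hp
    exact (Metric.mem_ball.1 hp).le.trans' (by rw [dist_eq_norm]; rfl)
  have htint : ∀ c', IntegrableOn (fun p => ‖N.G' p‖ * tent η c' ⟪N.G p - y, e⟫)
      (N.G ⁻¹' Metric.ball y s) N.α := by
    intro c'
    refine Integrable.mul_bdd (c := 1) hwint ?_ ?_
    · have := (continuous_tent η c').measurable
      have h2 : Measurable fun p => ⟪N.G p - y, e⟫ :=
        Measurable.inner (by fun_prop) measurable_const
      exact (this.comp h2).aestronglyMeasurable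
    · refine Eventually.of_forall fun p => ?_
      rw [Real.norm_eq_abs, abs_of_nonneg (tent_nonneg _ _ _)]
      exact tent_le_one hη0
  rw [integral_indicator hms] at hI
  have h3 : ∀ p, ‖N.G' p‖ * b ⟪N.G p - y, e⟫ =
      ‖N.G' p‖ * tent η 0 ⟪N.G p - y, e⟫ - ‖N.G' p‖ * tent η c ⟪N.G p - y, e⟫ := by
    intro p
    rw [hb]
    ring
  simp_rw [h3] at hI
  rw [integral_sub (htint 0) (htint c)] at hI
  -- the second integral vanishes
  have hzm : ∀ᵐ p ∂N.α, N.G p ∉ Metric.ball (y + c • e) δ := by
    have h4 : N.mass (Metric.ball (y + c • e) δ) = 0 := hz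
    rw [mass, lintegral_eq_zero_iff (by fun_prop)] at h4
    have h5 := (ae_restrict_iff' (N.measurable_G measurableSet_ball)).1 h4
    filter_upwards [h5, N.ae_ne] with p hp hp0 hmem
    have h6 := hp hmem
    simp only [Pi.zero_apply, ENNReal.ofReal_eq_zero] at h6
    exact absurd h6 (not_le.2 (norm_pos_iff.2 hp0))
  have h6 : ∫ p in N.G ⁻¹' Metric.ball y s, ‖N.G' p‖ * tent η c ⟪N.G p - y, e⟫ ∂N.α = 0 := by
    rw [← integral_zero (ℕ × ℝ) ℝ (μ := N.α.restrict (N.G ⁻¹' Metric.ball y s))]
    refine setIntegral_congr_ae hms ?_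
    filter_upwards [hl, hzm] with p hp hpz hpm
    obtain ⟨-, t, ht⟩ := hp hpm
    rw [ht, inner_line he, tent_eq_zero hη0, mul_zero]
    by_contra h
    rw [not_le] at h
    refine hpz ?_
    rw [Metric.mem_ball, dist_eq_norm, ht, add_sub_add_left_eq_sub, ← sub_smul, norm_smul, he,
      mul_one]
    exact h.trans_le hηδ
  rw [h6, sub_zero] at hI
  -- hence no mass near `y`
  have h7 : ∀ᵐ p ∂(N.α.restrict (N.G ⁻¹' Metric.ball y s)),
      ‖N.G' p‖ * tent η 0 ⟪N.G p - y, e⟫ = 0 := by
    have := (integral_eq_zero_iff_of_nonneg_ae (Eventually.of_forall fun p =>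
      mul_nonneg (norm_nonneg (N.G' p)) (tent_nonneg η 0 ⟪N.G p - y, e⟫)) (htint 0)).1 hI
    exact this
  have h8 := (ae_restrict_iff' hms).1 h7
  have h9 : N.mass (Metric.ball y η) = 0 := by
    rw [mass, lintegral_eq_zero_iff (by fun_prop)]
    refine (ae_restrict_iff' (N.measurable_G measurableSet_ball)).2 ?_
    filter_upwards [h8] with p hp hpm
    have h10 : N.G p ∈ Metric.ball y s :=
      Metric.ball_subset_ball (by linarith) hpm
    rcases mul_eq_zero.1 (hp h10) with h | h
    · simp [h]
    · exfalso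
      have h11 : |⟪N.G p - y, e⟫ - 0| < η := by
        rw [sub_zero]
        refine (abs_real_inner_le_norm _ _).trans_lt ?_
        rw [he, mul_one, ← dist_eq_norm]
        exact hpm
      exact (tent_pos hη0 h11).ne' h
  exact (hy η hη0).ne' h9

/-- **the support near `y` is a segment** -/
theorem supp_inter {U : Set E} (hS : N.Stat U) {y e : E} (he : ‖e‖ = 1) {s : ℝ}
    (hU : Metric.ball y s ⊆ U) (hfin : N.m y s < ⊤)
    (hl : ∀ᵐ p ∂N.α, N.G p ∈ Metric.ball y s →
      (∃ c : ℝ, N.G' p = c • e) ∧ ∃ t : ℝ, N.G p = y + t • e)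
    (hy : y ∈ N.supp) : N.supp ∩ Metric.ball y s = line y e ∩ Metric.ball y s := by
  ext x
  constructor
  · rintro ⟨hx, hxs⟩
    refine ⟨?_, hxs⟩
    by_contra hxl
    have hop : (line y e)ᶜ ∩ Metric.ball y s ∈ 𝓝 x :=
      ((isClosed_line y e).isOpen_compl.inter Metric.isOpen_ball).mem_nhds ⟨hxl, hxs⟩
    obtain ⟨ε, hε, hsub⟩ := Metric.mem_nhds_iff.1 hop
    refine (hx ε hε).ne' ?_
    rw [mass, lintegral_eq_zero_iff (by fun_prop)]
    refine (ae_restrict_iff' (N.measurable_G measurableSet_ball)).2 ?_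
    filter_upwards [hl] with p hp hpm
    obtain ⟨h1, h2⟩ := hsub hpm
    obtain ⟨-, t, ht⟩ := hp h2
    exact absurd ((mem_line_iff he).2 ⟨t, ht⟩) h1
  · rintro ⟨hx, hxs⟩
    refine ⟨?_, hxs⟩
    obtain ⟨t, rfl⟩ := (mem_line_iff he).1 hx
    refine N.mem_supp hS he hU hfin hl hy ?_
    rw [Metric.mem_ball, dist_eq_norm, add_sub_cancel_left, norm_smul, he, mul_one] at hxs
    exact hxs

end Net

end

/-- a segment is a one-dimensional submanifold -/
theorem isSubmanifold_line {k : ℕ} {y e : Euc k} (he : ‖e‖ = 1) (s : ℝ) :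
    IsSubmanifold 1 k (line y e ∩ Metric.ball y s) := by
  rintro p ⟨hp, hps⟩
  have hcont : Continuous fun a : Euc 1 => p + a 0 • e := by fun_prop
  have hinj : Function.Injective fun a : Euc 1 => p + a 0 • e := by
    intro a b hab
    have h1 : a 0 • e = b 0 • e := add_left_cancel hab
    have h2 : e ≠ 0 := by
      rintro rfl
      simp at he
    have h3 : a 0 = b 0 := smul_left_injective ℝ h2 h1
    ext i
    rw [Subsingleton.elim i 0]
    exact h3
  have hline : ∀ a : Euc 1, p + a 0 • e ∈ line y e := by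
    intro a
    obtain ⟨t, rfl⟩ := (mem_line_iff he).1 hp
    exact (mem_line_iff he).2 ⟨t + a 0, by rw [add_smul]; abel⟩
  refine ⟨fun a => p + a 0 • e, (fun a : Euc 1 => p + a 0 • e) ⁻¹' Metric.ball y s, ?_⟩
  refine ⟨Metric.isOpen_ball.preimage hcont, ?_, ?_, ?_, hinj.injOn, ?_, ?_⟩
  · simpa using hps
  · simp
  · exact ContDiff.contDiffOn (by fun_prop)
  · intro x _
    have h1 : HasFDerivAt (fun a : Euc 1 => p + a 0 • e)
        ((EuclideanSpace.proj (0 : Fin 1) : Euc 1 →L[ℝ] ℝ).smulRight e) x := by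
      have := ((EuclideanSpace.proj (0 : Fin 1) : Euc 1 →L[ℝ] ℝ).hasFDerivAt
        (x := x)).smul_const e |>.const_add p
      exact this
    rw [h1.fderiv]
    intro a b hab
    have h2 : a 0 • e = b 0 • e := hab
    exact hinj (show p + a 0 • e = p + b 0 • e by rw [h2])
  · intro W hW hWo
    refine ⟨{x | EuclideanSpace.single (0 : Fin 1) ⟪x - p, e⟫ ∈ W} ∩ Metric.ball y s, ?_, ?_⟩
    · refine IsOpen.inter ?_ Metric.isOpen_ball
      have hc : Continuous fun x : Euc k => (EuclideanSpace.single (0 : Fin 1) ⟪x - p, e⟫ : Euc 1) := by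
        have h1 : Continuous fun x : Euc k => ⟪x - p, e⟫ := by fun_prop
        have h2 : Continuous fun t : ℝ => (EuclideanSpace.single (0 : Fin 1) t : Euc 1) := by
          have h3 : (fun t : ℝ => (EuclideanSpace.single (0 : Fin 1) t : Euc 1)) =
              fun t => t • EuclideanSpace.single (0 : Fin 1) (1 : ℝ) := by
            funext t
            ext i
            rw [Subsingleton.elim i 0]
            simp
          rw [h3]
          fun_prop
        exact h2.comp h1
      exact hWo.preimage hc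
    · ext x
      constructor
      · rintro ⟨a, ha, rfl⟩
        refine ⟨⟨hline a, hW ha⟩, ?_, hW ha⟩
        have h1 : ⟪p + a 0 • e - p, e⟫ = a 0 := inner_line he _
        have h2 : (EuclideanSpace.single (0 : Fin 1) (a 0) : Euc 1) = a := by
          ext i
          rw [Subsingleton.elim i 0]
          simp
        change EuclideanSpace.single (0 : Fin 1) ⟪p + a 0 • e - p, e⟫ ∈ W
        rw [h1, h2]
        exact ha
      · rintro ⟨⟨hx, -⟩, hxW, -⟩
        refine ⟨_, hxW, ?_⟩
        obtain ⟨t, rfl⟩ := (mem_line_iff he).1 hp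
        obtain ⟨u, rfl⟩ := (mem_line_iff he).1 hx
        have h1 : y + u • e - (y + t • e) = (u - t) • e := by
          rw [sub_smul]; abel
        have h2 : ⟪y + u • e - (y + t • e), e⟫ = u - t := by
          rw [h1, inner_smul_left, real_inner_self_eq_norm_sq, he]; simp
        simp only [h2]
        rw [show (EuclideanSpace.single (0 : Fin 1) (u - t) : Euc 1) 0 = u - t by simp, sub_smul]
        abel

end Crest.Agent.R234.M1_770
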