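import Crest.Agent.R234.M1i_770
import Crest.Prelude.Def_Varifold

/-!
# Row 234, the case `m = 1` (helper770), file j: frozen data and the theorem

`singularSet_countable : (singularSet 1 k U D).Countable`, `dimH_le` : `S0362` for `m = 1`.
-/

set_option autoImplicit false
set_option linter.unusedSectionVars false

open MeasureTheory Set ENNReal Filter
open scoped NNReal RealInnerProductSpace Topology
open Crest.GeometryTopology.Submanifold

namespace Crest.Agent.R234.M1_770

variable {k : ℕ}

/-- the isomorphism `Euc 1 ≃ ℝ` -/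
noncomputable def eqv : Euc 1 ≃ᵐ ℝ :=
  (MeasurableEquiv.toLp 2 (Fin 1 → ℝ)).symm.trans (MeasurableEquiv.funUnique (Fin 1) ℝ)

theorem mp_eqv : MeasurePreserving eqv volume volume :=
  (EuclideanSpace.volume_preserving_symm_measurableEquiv_toLp (Fin 1)).trans
    (volume_preserving_funUnique (Fin 1) ℝ)

theorem mp_eqv_symm : MeasurePreserving eqv.symm volume volume := mp_eqv.symm

theorem eqv_symm_apply (t : ℝ) : eqv.symm t = t • stdVec 1 0 := by
  ext i
  rw [Subsingleton.elim i 0]
  have : (eqv.symm t : Euc 1) 0 = t := by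
    change eqv (eqv.symm t) = t
    exact eqv.apply_symm_apply t
  rw [this]
  simp [stdVec]

/-- the chart along the real line -/
noncomputable def gg (f : Euc 1 → Euc k) (t : ℝ) : Euc k := f (eqv.symm t)

theorem gg_eq (f : Euc 1 → Euc k) : gg f = fun t => f (t • stdVec 1 0) :=
  funext fun t => by rw [gg, eqv_symm_apply]

theorem contDiff_gg {f : Euc 1 → Euc k} (hf : ContDiff ℝ 1 f) : ContDiff ℝ 1 (gg f) := by
  rw [gg_eq]
  fun_prop

theorem deriv_gg {f : Euc 1 → Euc k} (hf : ContDiff ℝ 1 f) (t : ℝ) :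
    deriv (gg f) t = pd f (eqv.symm t) 0 := by
  have h1 : HasFDerivAt f (fderiv ℝ f (eqv.symm t)) (eqv.symm t) :=
    (hf.differentiable one_ne_zero _).hasFDerivAt
  have h2 : HasDerivAt (fun t : ℝ => t • stdVec 1 0) (stdVec 1 0) t := by
    simpa using (hasDerivAt_id t).smul_const (stdVec 1 0)
  rw [eqv_symm_apply] at h1
  have h3 := h1.comp_hasDerivAt t h2
  rw [pd, eqv_symm_apply, gg_eq]
  exact h3.deriv

theorem jac_eq (f : Euc 1 → Euc k) (a : Euc 1) : jac f a = ‖pd f a 0‖ := by
  rw [jac, Matrix.det_fin_one]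
  change √(⟪pd f a 0, pd f a 0⟫) = _
  rw [real_inner_self_eq_norm_sq, Real.sqrt_sq (norm_nonneg _)]

theorem tangentAt_eq (f : Euc 1 → Euc k) (a : Euc 1) :
    tangentAt f a = Submodule.span ℝ {pd f a 0} := by
  rw [tangentAt, Set.range_unique]
  rfl

theorem trace_eq (A : Euc k →L[ℝ] Euc k) (v : Euc k) :
    LinearMap.trace ℝ (Euc k)
      (A.comp (Submodule.span ℝ {v}).starProjection).toLinearMap = ⟪v, A v⟫ / ‖v‖ ^ 2 := by
  have : (A.comp (Submodule.span ℝ {v}).starProjection).toLinearMap =
      LinearMap.smulRight ((‖v‖ ^ 2)⁻¹ • (innerSL ℝ v).toLinearMap) (A v) := by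
    ext1 w
    simp only [ContinuousLinearMap.coe_coe,
      ContinuousLinearMap.comp_apply, Submodule.starProjection_singleton, map_smul,
      LinearMap.smulRight_apply, LinearMap.smul_apply, innerSL_apply_apply, smul_eq_mul]
    congr 1
    simp
    ring
  rw [this, LinearMap.trace_smulRight]
  simp only [LinearMap.smul_apply, ContinuousLinearMap.coe_coe, innerSL_apply_apply, smul_eq_mul]
  rw [inv_mul_eq_div]

theorem integrand_eq {f : Euc 1 → Euc k} (X : Euc k → Euc k) (a : Euc 1) :
    jac f a * LinearMap.trace ℝ (Euc k)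
      ((fderiv ℝ X (f a)).comp (tangentAt f a).starProjection).toLinearMap =
      ⟪fderiv ℝ X (f a) (pd f a 0), pd f a 0⟫ / ‖pd f a 0‖ := by
  rw [jac_eq, tangentAt_eq, trace_eq, real_inner_comm]
  rcases eq_or_ne ‖pd f a 0‖ 0 with h | h
  · rw [h]; simp
  · field_simp

variable {U : Set (Euc k)} {D : VarifoldData 1 k}

/-- the net of frozen data -/
noncomputable def toNet (hD : IsIntegralVarifoldIn U D) : Net (Euc k) where
  g i := gg (D.chart i)
  S i := eqv.symm ⁻¹' D.dom i
  q i t := D.mult i (eqv.symm t)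
  meas i := eqv.symm.measurable (hD.measurableSet i)
  cd i := contDiff_gg (hD.contDiff i)
  imm i t ht := by
    rw [deriv_gg (hD.contDiff i), pd]
    intro h
    have := hD.injective_fderiv i _ ht (h.trans (map_zero (fderiv ℝ (D.chart i) _)).symm)
    have h2 := congrArg (fun v : Euc 1 => v 0) this
    simp [stdVec] at h2
  qm i := (hD.measurable_mult i).comp eqv.symm.measurable
  qpos i t ht := hD.mult_pos i _ ht

theorem weight_eq (hD : IsIntegralVarifoldIn U D) {A : Set (Euc k)} (hA : MeasurableSet A) :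
    weight D A = (toNet hD).mass A := by
  have hGm : MeasurableSet ((toNet hD).G ⁻¹' A) := (toNet hD).measurable_G hA
  rw [Net.mass, ← lintegral_indicator hGm, Net.lintegral_α _
    (Measurable.indicator (by fun_prop) hGm), weight, Measure.sum_apply _ hA]
  congr 1
  funext i
  have hc : Measurable (D.chart i) := (hD.contDiff i).continuous.measurable
  rw [Measure.map_apply hc hA, withDensity_apply _ (hc hA),
    Measure.restrict_restrict (hc hA)]
  have hpm : MeasurableSet (D.chart i ⁻¹' A ∩ D.dom i) := (hc hA).inter (hD.measurableSet i)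
  rw [← mp_eqv_symm.setLIntegral_comp_preimage_emb eqv.symm.measurableEmbedding,
    ← lintegral_indicator (eqv.symm.measurable hpm),
    ← lintegral_indicator ((toNet hD).meas i)]
  refine lintegral_congr fun t => ?_
  by_cases hS : eqv.symm t ∈ D.dom i
  · rw [indicator_of_mem (s := (toNet hD).S i) (show t ∈ (toNet hD).S i from hS)]
    by_cases ht : D.chart i (eqv.symm t) ∈ A
    · rw [indicator_of_mem (show t ∈ eqv.symm ⁻¹' (D.chart i ⁻¹' A ∩ D.dom i) from ⟨ht, hS⟩),
        indicator_of_mem (show (i, t) ∈ (toNet hD).G ⁻¹' A from ht)]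
      rw [ENNReal.ofReal_mul (by positivity), ENNReal.ofReal_natCast, jac_eq]
      rw [Net.G']
      change _ = _ * ENNReal.ofReal ‖deriv (gg (D.chart i)) t‖
      rw [deriv_gg (hD.contDiff i)]
      rfl
    · rw [indicator_of_notMem (show t ∉ eqv.symm ⁻¹' (D.chart i ⁻¹' A ∩ D.dom i) from
        fun h => ht h.1), indicator_of_notMem (show (i, t) ∉ (toNet hD).G ⁻¹' A from ht),
        mul_zero]
  · rw [indicator_of_notMem (s := (toNet hD).S i) (show t ∉ (toNet hD).S i from hS),
      indicator_of_notMem (show t ∉ eqv.symm ⁻¹' (D.chart i ⁻¹' A ∩ D.dom i) from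
        fun h => hS h.2)]

theorem mass_compact (hD : IsIntegralVarifoldIn U D) {K : Set (Euc k)} (hK : IsCompact K)
    (hKU : K ⊆ U) : (toNet hD).mass K < ⊤ := by
  rw [← weight_eq hD hK.measurableSet]
  exact hD.locallyFinite K hK hKU

theorem stat (hD : IsIntegralVarifoldIn U D) (hst : IsStationaryIn U D) : (toNet hD).Stat U := by
  intro X hX hXc hXU
  set N := toNet hD with hN
  have hfc : Continuous (fderiv ℝ X) := hX.continuous_fderiv one_ne_zero
  have hfm : Measurable fun p : ℕ × ℝ => fderiv ℝ X (N.G p) (N.G' p) := by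
    have h1 : Continuous fun z : Euc k × Euc k => fderiv ℝ X z.1 z.2 := by
      fun_prop
    exact h1.measurable.comp (N.measurable_G.prodMk N.measurable_G')
  have hm : Measurable fun p : ℕ × ℝ => ⟪fderiv ℝ X (N.G p) (N.G' p), N.G' p⟫ / ‖N.G' p‖ :=
    (hfm.inner N.measurable_G').div N.measurable_G'.norm
  -- integrability
  obtain ⟨C, hC⟩ := (hXc.fderiv (𝕜 := ℝ)).exists_bound_of_continuous hfc
  have hC0 : 0 ≤ C := (norm_nonneg _).trans (hC 0)
  have hGm : MeasurableSet (N.G ⁻¹' tsupport X) := N.measurable_G (isClosed_tsupport X).measurableSet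
  have hint : Integrable (fun p => ⟪fderiv ℝ X (N.G p) (N.G' p), N.G' p⟫ / ‖N.G' p‖) N.α := by
    have h1 : (fun p => ⟪fderiv ℝ X (N.G p) (N.G' p), N.G' p⟫ / ‖N.G' p‖) =
        (N.G ⁻¹' tsupport X).indicator
          fun p => ⟪fderiv ℝ X (N.G p) (N.G' p), N.G' p⟫ / ‖N.G' p‖ := by
      funext p
      by_cases hp : N.G p ∈ tsupport X
      · rw [indicator_of_mem (show p ∈ N.G ⁻¹' tsupport X from hp)]
      · rw [indicator_of_notMem (show p ∉ N.G ⁻¹' tsupport X from hp)]
        have h2 : fderiv ℝ X (N.G p) = 0 := by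
          by_contra h
          exact hp (support_fderiv_subset ℝ h)
        rw [h2]
        simp
    rw [h1, integrable_indicator_iff hGm]
    have h3 : IntegrableOn (fun p => ‖N.G' p‖) (N.G ⁻¹' tsupport X) N.α := by
      refine ⟨(N.measurable_G'.norm).aestronglyMeasurable, ?_⟩
      rw [hasFiniteIntegral_iff_ofReal (Eventually.of_forall fun p => norm_nonneg _)]
      exact mass_compact hD hXc.isCompact hXU
    refine Integrable.mono' (h3.const_mul C) hm.aestronglyMeasurable
      (Eventually.of_forall fun p => ?_)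
    rw [norm_div, norm_norm, Real.norm_eq_abs]
    rcases (norm_nonneg (N.G' p)).eq_or_lt with h | h
    · rw [← h]; simp
    · rw [div_le_iff₀ h]
      calc |⟪fderiv ℝ X (N.G p) (N.G' p), N.G' p⟫| ≤
            ‖fderiv ℝ X (N.G p) (N.G' p)‖ * ‖N.G' p‖ := abs_real_inner_le_norm _ _
        _ ≤ (C * ‖N.G' p‖) * ‖N.G' p‖ := by
            refine mul_le_mul_of_nonneg_right ?_ (norm_nonneg _)
            exact ((fderiv ℝ X (N.G p)).le_opNorm _).trans
              (mul_le_mul_of_nonneg_right (hC _) (norm_nonneg _))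
  have h0 := hst X hX hXc hXU
  rw [firstVariation] at h0
  rw [← h0]
  have hint' := hint
  rw [Net.α] at hint' ⊢
  rw [integral_sum_measure hint']
  congr 1
  funext i
  have hmi : AEStronglyMeasurable (fun p => ⟪fderiv ℝ X (N.G p) (N.G' p), N.G' p⟫ / ‖N.G' p‖)
      (Measure.map (fun t : ℝ => (i, t))
        ((volume.restrict (N.S i)).withDensity fun t => (N.q i t : ℝ≥0∞))) :=
    hm.aestronglyMeasurable
  rw [integral_map (by fun_prop) hmi, integral_withDensity_eq_integral_toReal_smul
    (by have := N.qm i; fun_prop) (Eventually.of_forall fun t => by simp)]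
  rw [← mp_eqv_symm.setIntegral_preimage_emb eqv.symm.measurableEmbedding]
  refine setIntegral_congr_fun (N.meas i) fun t ht => ?_
  simp only [ENNReal.toReal_natCast, smul_eq_mul]
  rw [mul_assoc, integrand_eq]
  rw [Net.G', Net.G]
  change (D.mult i (eqv.symm t) : ℝ) * (⟪fderiv ℝ X (gg (D.chart i) t)
    (deriv (gg (D.chart i)) t), deriv (gg (D.chart i)) t⟫ / ‖deriv (gg (D.chart i)) t‖) = _
  rw [deriv_gg (hD.contDiff i)]
  rfl

theorem support_eq (hD : IsIntegralVarifoldIn U D) : support D = (toNet hD).supp := by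
  ext x
  constructor
  · intro h ρ hρ
    rw [← weight_eq hD measurableSet_ball]
    exact h ρ hρ
  · intro h ρ hρ
    rw [weight_eq hD measurableSet_ball]
    exact h ρ hρ

theorem m_lt_top (hD : IsIntegralVarifoldIn U D) {x : Euc k} {R : ℝ}
    (h : Metric.closedBall x R ⊆ U) : (toNet hD).m x R < ⊤ := by
  rw [Net.m_eq]
  exact mass_compact hD (isCompact_closedBall x R) h

/-- **every point of `U` has a punctured neighbourhood without singular points** -/
theorem isolated (hU : IsOpen U) (hD : IsIntegralVarifoldIn U D) (hst : IsStationaryIn U D)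
    {x : Euc k} (hx : x ∈ U) : ∃ r, 0 < r ∧ ∀ y ∈ Metric.ball x r, y ∈ singularSet 1 k U D →
      y = x := by
  set N := toNet hD with hN
  have hS : N.Stat U := stat hD hst
  have hcb : ∀ z ∈ U, ∃ R, 0 < R ∧ Metric.closedBall z R ⊆ U := fun z hz =>
    Metric.nhds_basis_closedBall.mem_iff.1 (hU.mem_nhds hz)
  obtain ⟨R, hR, hRU⟩ := hcb x hx
  obtain ⟨r, hr, hrR, hc⟩ := N.conical x hS hR hRU (m_lt_top hD hRU)
  refine ⟨r, hr, fun y hy hsing => ?_⟩
  by_contra hne
  obtain ⟨hyU, hys, hyn⟩ := hsing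
  obtain ⟨R', hR', hRU'⟩ := hcb y hyU
  obtain ⟨r', hr', hrR', hc'⟩ := N.conical y hS hR' hRU' (m_lt_top hD hRU')
  have hnorm : 0 < ‖y - x‖ := norm_pos_iff.2 (sub_ne_zero.2 hne)
  rw [Metric.mem_ball, dist_eq_norm] at hy
  set s := min r' (min (r - ‖y - x‖) ‖y - x‖) with hs
  have hs0 : 0 < s := lt_min hr' (lt_min (by linarith) hnorm)
  have hs1 : s ≤ r' := min_le_left _ _
  have hs2 : s ≤ r - ‖y - x‖ := (min_le_right _ _).trans (min_le_left _ _)
  have hs3 : s ≤ ‖y - x‖ := (min_le_right _ _).trans (min_le_right _ _)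
  have hl := N.ae_line hne hc hc' hs1 hs2 hs3
  set e : Euc k := ‖y - x‖⁻¹ • (y - x) with he
  have he1 : ‖e‖ = 1 := by
    rw [he, norm_smul, norm_inv, norm_norm, inv_mul_cancel₀ hnorm.ne']
  have hsR : s < R' := hs1.trans_lt hrR'
  have hballU : Metric.ball y s ⊆ U :=
    (Metric.ball_subset_closedBall.trans (Metric.closedBall_subset_closedBall hsR.le)).trans hRU'
  have hfin : N.m y s < ⊤ := (N.m_mono y hsR.le).trans_lt (m_lt_top hD hRU')
  have hsupp := N.supp_inter hS he1 hballU hfin hl (by
    rw [← support_eq hD]; exact hys)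
  refine hyn ⟨Metric.ball y s, Metric.isOpen_ball, Metric.mem_ball_self hs0, ?_⟩
  rw [support_eq hD, hsupp]
  exact isSubmanifold_line he1 s

/-- **the singular set is countable** -/
theorem singularSet_countable (hU : IsOpen U) (hD : IsIntegralVarifoldIn U D)
    (hst : IsStationaryIn U D) : (singularSet 1 k U D).Countable := by
  have : DiscreteTopology (singularSet 1 k U D) := by
    rw [discreteTopology_iff_singleton_mem_nhds]
    rintro ⟨x, hx⟩
    obtain ⟨r, hr, h⟩ := isolated hU hD hst hx.1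
    rw [nhds_subtype_eq_comap]
    refine ⟨Metric.ball x r, Metric.ball_mem_nhds x hr, ?_⟩
    rintro ⟨y, hy⟩ hyb
    exact Subtype.ext (h y hyb hy)
  have : Countable (singularSet 1 k U D) := countable_of_Lindelof_of_discrete
  exact Set.countable_coe_iff.1 this

/-- **`S0362` for `m = 1`** -/
theorem dimH_le (hU : IsOpen U) (hD : IsIntegralVarifoldIn U D)
    (hst : IsStationaryIn U D) : dimH (singularSet 1 k U D) ≤ ((1 : ℕ) : ENNReal) - 1 := by
  rw [(singularSet_countable hU hD hst).dimH_zero]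
  exact zero_le


end Crest.Agent.R234.M1_770
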