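import Crest.Agent.R234.Pr1_937

/-!
Row 234, VF-PROD (helper937), file 6: if `S × ℝ` is a submanifold, so is `S`.
-/

set_option autoImplicit false

open MeasureTheory Crest.GeometryTopology.Submanifold Filter Topology
open scoped ENNReal InnerProductSpace

noncomputable section

namespace Crest.Agent.R234.Pr_937

variable {m k : ℕ}

theorem norm_e : ‖e k‖ = 1 := by simp [e]

/-- transversality of the parametrisation to the horizontal hyperplane. -/
theorem vert_ne_zero {M : Set (Euc (k + 1))} {q : Euc (k + 1)} {f : Euc m → Euc (k + 1)}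
    {V : Set (Euc m)} (hf : IsLocalParam m (k + 1) M q f V)
    (hM : ∀ᶠ s : ℝ in 𝓝[>] 0, q + s • e k ∈ M) : ∃ v, ht k (fderiv ℝ f 0 v) ≠ 0 := by
  by_contra hcon
  push Not at hcon
  set A := fderiv ℝ f 0 with hA
  obtain ⟨K, hK0, hK⟩ := LinearMap.exists_antilipschitzWith A.toLinearMap
    (LinearMap.ker_eq_bot.2 (hf.injective_fderiv 0 hf.zero_mem))
  have hKn : ∀ v, ‖v‖ ≤ K * ‖A v‖ := fun v => by
    have := hK.le_mul_norm_sub (x := v) (y := 0)
    simpa using this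
  have hKpos : (0 : ℝ) < K := by exact_mod_cast hK0
  have hd : HasFDerivAt f A 0 :=
    ((hf.contDiffOn.contDiffAt (hf.isOpen.mem_nhds hf.zero_mem)).differentiableAt
      (by simp)).hasFDerivAt
  have hlo := hd.isLittleO.def (c := 1 / (4 * K)) (by positivity)
  obtain ⟨δ, hδ, hball⟩ := Metric.mem_nhds_iff.1 (inter_mem hlo (hf.isOpen.mem_nhds hf.zero_mem))
  obtain ⟨U2, hU2o, hU2⟩ := hf.image_open (Metric.ball 0 δ) (fun z hz => (hball hz).2)
    Metric.isOpen_ball
  have hqU : q ∈ U2 := by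
    have h1 : q ∈ f '' Metric.ball 0 δ := ⟨0, Metric.mem_ball_self hδ, hf.map_zero⟩
    rw [hU2] at h1
    exact h1.2
  have hcont : Tendsto (fun s : ℝ => q + s • e k) (𝓝[>] 0) (𝓝 q) := by
    have h1 : Continuous fun s : ℝ => q + s • e k := by fun_prop
    have h2 := h1.tendsto 0
    simp only [zero_smul, add_zero] at h2
    exact h2.mono_left nhdsWithin_le_nhds
  have hev : ∀ᶠ s : ℝ in 𝓝[>] 0, q + s • e k ∈ U2 := hcont (hU2o.mem_nhds hqU)
  obtain ⟨s, ⟨hs1, hs2⟩, hs0⟩ := ((hM.and hev).and self_mem_nhdsWithin).exists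
  have hs0 : 0 < s := hs0
  have h1 : q + s • e k ∈ f '' Metric.ball 0 δ := by
    rw [hU2]
    exact ⟨hs1, hs2⟩
  obtain ⟨z, hz, hzq⟩ := h1
  have h2 : ‖f z - f 0 - A (z - 0)‖ ≤ 1 / (4 * K) * ‖z - 0‖ := (hball hz).1
  rw [sub_zero, hzq, hf.map_zero, add_sub_cancel_left] at h2
  have h3 : |ht k (s • e k - A z)| ≤ ‖s • e k - A z‖ := abs_ht_le _
  rw [map_sub, hcon z, map_smul, ht_e, smul_eq_mul, mul_one, sub_zero, abs_of_pos hs0] at h3
  have h4 : ‖A z‖ ≤ ‖s • e k‖ + ‖s • e k - A z‖ := by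
    have := norm_sub_le (s • e k) (s • e k - A z)
    rw [sub_sub_cancel] at this
    exact this
  rw [norm_smul, norm_e, mul_one, Real.norm_eq_abs, abs_of_pos hs0] at h4
  have h5 := hKn z
  have h6 : 1 / (4 * K) * ‖z‖ ≤ (1 / 4) * ‖A z‖ := by
    calc 1 / (4 * K) * ‖z‖ ≤ 1 / (4 * K) * (K * ‖A z‖) := by gcongr
      _ = (1 / 4) * ‖A z‖ := by field_simp
  nlinarith [norm_nonneg (A z)]

/-- a linear chart of the kernel of a non-zero functional. -/
theorem exists_Q (T : Euc (m + 1) →L[ℝ] ℝ) (hT : ∃ v, T v ≠ 0) :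
    ∃ Q : Euc (m + 1) →L[ℝ] Euc m, ∀ v, T v = 0 → Q v = 0 → v = 0 := by
  have h1 : Module.finrank ℝ (LinearMap.ker T.toLinearMap) = m := by
    have h2 := LinearMap.finrank_range_add_finrank_ker T.toLinearMap
    have h3 : LinearMap.range T.toLinearMap = ⊤ := by
      refine LinearMap.range_eq_top.2 ?_
      refine LinearMap.surjective_of_ne_zero ?_
      obtain ⟨v, hv⟩ := hT
      intro h
      exact hv (by rw [← ContinuousLinearMap.coe_coe, h]; rfl)
    rw [h3, finrank_top, Module.finrank_self, finrank_euclideanSpace_fin] at h2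
    omega
  have h2 : Module.finrank ℝ (LinearMap.ker T.toLinearMap) = Module.finrank ℝ (Euc m) := by
    rw [h1, finrank_euclideanSpace_fin]
  let ψ : LinearMap.ker T.toLinearMap ≃L[ℝ] Euc m := ContinuousLinearEquiv.ofFinrankEq h2
  refine ⟨ψ.toContinuousLinearMap ∘L (LinearMap.ker T.toLinearMap).orthogonalProjectionOnto, ?_⟩
  intro v hv hQ
  have hQ : ψ ((LinearMap.ker T.toLinearMap).orthogonalProjectionOnto v) = 0 := hQ
  have h3 : (LinearMap.ker T.toLinearMap).orthogonalProjectionOnto v = 0 := by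
    rwa [ContinuousLinearEquiv.map_eq_zero_iff] at hQ
  have h4 : v ∈ LinearMap.ker T.toLinearMap := hv
  have h5 := Submodule.orthogonalProjectionOnto_mem_subspace_eq_self
    (K := LinearMap.ker T.toLinearMap) ⟨v, h4⟩
  have h6 : (⟨v, h4⟩ : LinearMap.ker T.toLinearMap) = 0 := by rw [← h5]; exact h3
  exact congrArg Subtype.val h6

theorem exists_equiv (B : Euc m →L[ℝ] Euc m) (hB : Function.Injective B) :
    B ∈ Set.range ((↑) : (Euc m ≃L[ℝ] Euc m) → Euc m →L[ℝ] Euc m) := by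
  have h1 : LinearMap.ker B.toLinearMap = ⊥ := LinearMap.ker_eq_bot.2 hB
  have h2 : LinearMap.range B.toLinearMap = ⊤ := LinearMap.ker_eq_bot_iff_range_eq_top.1 h1
  exact ⟨ContinuousLinearEquiv.ofBijective B h1 h2, by ext1 v; rfl⟩

/-- horizontal slice of a local parametrisation. -/
theorem slice_param {S : Set (Euc k)} {W' : Set (Euc (k + 1))} (hW' : IsOpen W') {t0 : ℝ}
    {y : Euc k} (hyS : y ∈ S) (hyW : J k (t0, y) ∈ W') {f : Euc (m + 1) → Euc (k + 1)}
    {V : Set (Euc (m + 1))}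
    (hf : IsLocalParam (m + 1) (k + 1) ({w | pr k w ∈ S} ∩ W') (J k (t0, y)) f V) :
    ∃ (g : Euc m → Euc k) (V' : Set (Euc m)),
      IsLocalParam m k (S ∩ {x | J k (t0, x) ∈ W'}) y g V' := by
  -- transversality
  have hT : ∃ v, (ht k ∘L fderiv ℝ f 0) v ≠ 0 := by
    refine vert_ne_zero hf ?_
    have hcont : Tendsto (fun s : ℝ => J k (t0, y) + s • e k) (𝓝[>] 0) (𝓝 (J k (t0, y))) := by
      have h1 : Continuous fun s : ℝ => J k (t0, y) + s • e k := by fun_prop
      have h2 := h1.tendsto 0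
      simp only [zero_smul, add_zero] at h2
      exact h2.mono_left nhdsWithin_le_nhds
    filter_upwards [hcont (hW'.mem_nhds hyW)] with s hs
    refine ⟨?_, hs⟩
    simpa using hyS
  obtain ⟨Q, hQ⟩ := exists_Q _ hT
  set Φ : Euc (m + 1) → Euc (m + 1) := fun z => J m (ht k (f z) - t0, Q z) with hΦdef
  have hΦs : ContDiffOn ℝ (⊤ : ℕ∞) Φ V := by
    have h1 : ContDiffOn ℝ (⊤ : ℕ∞) (fun z => (ht k (f z) - t0) • e m + emb m (Q z)) V :=
      ((((ht k).contDiff.comp_contDiffOn hf.contDiffOn).sub contDiffOn_const).smul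
        contDiffOn_const).add ((emb m).contDiff.comp_contDiffOn Q.contDiff.contDiffOn)
    exact h1
  have hfd : ∀ z ∈ V, HasFDerivAt f (fderiv ℝ f z) z := fun z hz =>
    ((hf.contDiffOn.contDiffAt (hf.isOpen.mem_nhds hz)).differentiableAt (by simp)).hasFDerivAt
  have hΦd : ∀ z ∈ V, HasFDerivAt Φ (fderiv ℝ Φ z) z := fun z hz =>
    ((hΦs.contDiffAt (hf.isOpen.mem_nhds hz)).differentiableAt (by simp)).hasFDerivAt
  have hΦ0 : ∀ v, fderiv ℝ Φ 0 v = J m (ht k (fderiv ℝ f 0 v), Q v) := by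
    intro v
    have h1 : HasFDerivAt Φ ((ht k ∘L fderiv ℝ f 0).smulRight (e m) + emb m ∘L Q) 0 := by
      have h2 : HasFDerivAt (fun z => ht k (f z) - t0) (ht k ∘L fderiv ℝ f 0) 0 :=
        ((ht k).hasFDerivAt.comp 0 (hfd 0 hf.zero_mem)).sub_const t0
      exact (h2.smul_const (e m)).add ((emb m).hasFDerivAt.comp 0 Q.hasFDerivAt)
    rw [h1.fderiv]
    simp [J]
  have hB0 : fderiv ℝ Φ 0 ∈ Set.range
      ((↑) : (Euc (m + 1) ≃L[ℝ] Euc (m + 1)) → Euc (m + 1) →L[ℝ] Euc (m + 1)) := by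
    refine exists_equiv _ ?_
    rw [injective_iff_map_eq_zero]
    intro v hv
    rw [hΦ0] at hv
    refine hQ v ?_ ?_
    · simpa using congrArg (ht m) hv
    · simpa using congrArg (pr m) hv
  set N0 : Set (Euc (m + 1)) := V ∩ fderiv ℝ Φ ⁻¹' Set.range
      ((↑) : (Euc (m + 1) ≃L[ℝ] Euc (m + 1)) → Euc (m + 1) →L[ℝ] Euc (m + 1)) with hN0
  have hN0o : IsOpen N0 :=
    (hΦs.continuousOn_fderiv_of_isOpen hf.isOpen (by simp)).isOpen_inter_preimage hf.isOpen
      ContinuousLinearEquiv.isOpen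
  obtain ⟨B, hB⟩ := hB0
  have hΦ0at : ContDiffAt ℝ (⊤ : ℕ∞) Φ 0 := hΦs.contDiffAt (hf.isOpen.mem_nhds hf.zero_mem)
  have hBd : HasFDerivAt Φ (B : Euc (m + 1) →L[ℝ] Euc (m + 1)) 0 := by
    have : (B : Euc (m + 1) →L[ℝ] Euc (m + 1)) = fderiv ℝ Φ 0 := hB
    rw [this]
    exact hΦd 0 hf.zero_mem
  set P := (hΦ0at.toOpenPartialHomeomorph Φ hBd (by simp)).restrOpen N0 hN0o with hP
  have hPc : ∀ z, P z = Φ z := fun z => rfl
  have hPs : ∀ z, z ∈ P.source → z ∈ N0 := fun z hz => hz.2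
  have h0s : (0 : Euc (m + 1)) ∈ P.source :=
    ⟨hΦ0at.mem_toOpenPartialHomeomorph_source hBd (by simp), hf.zero_mem, B, hB⟩
  have hΦ00 : Φ 0 = 0 := by
    simp only [hΦdef]
    rw [hf.map_zero, ht_J, sub_self, map_zero]
    simp [J]
  -- the slice
  set ι : Euc m → Euc (m + 1) := fun a => J m (0, a) with hι
  have hιc : Continuous ι := continuous_J.comp (by fun_prop)
  have hιd : ContDiff ℝ (⊤ : ℕ∞) ι := by
    have h1 : ContDiff ℝ (⊤ : ℕ∞) fun a : Euc m => (0 : ℝ) • e m + emb m a :=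
      contDiff_const.add (emb m).contDiff
    exact h1
  set g : Euc m → Euc (m + 1) := fun a => P.symm (ι a) with hg
  set V' : Set (Euc m) := ι ⁻¹' P.target with hV'
  have hV'o : IsOpen V' := P.open_target.preimage hιc
  have hι0 : ι 0 = 0 := by simp [hι, J]
  have hgs : ∀ a ∈ V', g a ∈ P.source := fun a ha => P.map_target ha
  have hgV : ∀ a ∈ V', g a ∈ V := fun a ha => (hPs _ (hgs a ha)).1
  have hPg : ∀ a ∈ V', Φ (g a) = J m (0, a) := fun a ha => P.right_inv ha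
  have hgt : ∀ a ∈ V', ht k (f (g a)) = t0 := fun a ha => by
    have := congrArg (ht m) (hPg a ha)
    simp only [hΦdef, ht_J] at this
    linarith
  have hgQ : ∀ a ∈ V', Q (g a) = a := fun a ha => by
    have := congrArg (pr m) (hPg a ha)
    simpa only [hΦdef, pr_J] using this
  have h0V' : (0 : Euc m) ∈ V' := by
    change ι 0 ∈ P.target
    rw [hι0, ← hΦ00]
    exact P.map_source h0s
  have hg0 : g 0 = 0 := by
    have h1 := P.left_inv h0s
    rw [hPc, hΦ00] at h1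
    change P.symm (ι 0) = 0
    rw [hι0]
    exact h1
  have hgJ : ∀ a ∈ V', J k (t0, pr k (f (g a))) = f (g a) := fun a ha => by
    rw [← hgt a ha]
    exact J_split _
  have hgd : ∀ a ∈ V', ContDiffAt ℝ (⊤ : ℕ∞) g a := by
    intro a ha
    have hz := hPs _ (hgs a ha)
    obtain ⟨B', hB'⟩ := hz.2
    have h1 : ContDiffAt ℝ (⊤ : ℕ∞) P.symm (ι a) := by
      refine P.contDiffAt_symm (f₀' := B') ha ?_ ?_
      · have : (B' : Euc (m + 1) →L[ℝ] Euc (m + 1)) = fderiv ℝ Φ (g a) := hB'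
        rw [this]
        exact hΦd _ hz.1
      · exact hΦs.contDiffAt (hf.isOpen.mem_nhds hz.1)
    exact h1.comp a hιd.contDiffAt
  refine ⟨fun a => pr k (f (g a)), V', hV'o, h0V', ?_, ?_, ?_, ?_, ?_⟩
  · rw [hg0, hf.map_zero, pr_J]
  · intro a ha
    refine ContDiffAt.contDiffWithinAt ?_
    exact (pr k).contDiff.contDiffAt.comp a
      ((hf.contDiffOn.contDiffAt (hf.isOpen.mem_nhds (hgV a ha))).comp a (hgd a ha))
  · intro a ha b hb hab
    have hab : pr k (f (g a)) = pr k (f (g b)) := hab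
    have h1 : f (g a) = f (g b) := by
      rw [← hgJ a ha, ← hgJ b hb, hab]
    have h2 := hf.injOn (hgV a ha) (hgV b hb) h1
    rw [← hgQ a ha, ← hgQ b hb, h2]
  · intro a ha
    have hgda : HasFDerivAt g (fderiv ℝ g a) a :=
      ((hgd a ha).differentiableAt (by simp)).hasFDerivAt
    have hfg : HasFDerivAt (fun b => f (g b)) (fderiv ℝ f (g a) ∘L fderiv ℝ g a) a :=
      (hfd _ (hgV a ha)).comp a hgda
    have h1 : HasFDerivAt (fun b => pr k (f (g b)))
        (pr k ∘L (fderiv ℝ f (g a) ∘L fderiv ℝ g a)) a := (pr k).hasFDerivAt.comp a hfg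
    have h2 : HasFDerivAt (fun b => ht k (f (g b)))
        (ht k ∘L (fderiv ℝ f (g a) ∘L fderiv ℝ g a)) a := (ht k).hasFDerivAt.comp a hfg
    have h3 : HasFDerivAt (fun b => ht k (f (g b))) (0 : Euc m →L[ℝ] ℝ) a := by
      refine (hasFDerivAt_const t0 a).congr_of_eventuallyEq ?_
      filter_upwards [hV'o.mem_nhds ha] with b hb using hgt b hb
    have h4 : HasFDerivAt (fun b => Q (g b)) (Q ∘L fderiv ℝ g a) a := Q.hasFDerivAt.comp a hgda
    have h5 : HasFDerivAt (fun b => Q (g b)) (ContinuousLinearMap.id ℝ (Euc m)) a := by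
      refine (hasFDerivAt_id a).congr_of_eventuallyEq ?_
      filter_upwards [hV'o.mem_nhds ha] with b hb using hgQ b hb
    rw [h1.fderiv, injective_iff_map_eq_zero]
    intro v hv
    have h6 : fderiv ℝ f (g a) (fderiv ℝ g a v) = 0 := by
      rw [← J_split (fderiv ℝ f (g a) (fderiv ℝ g a v))]
      have h7 : ht k (fderiv ℝ f (g a) (fderiv ℝ g a v)) = 0 :=
        congrArg (fun A : Euc m →L[ℝ] ℝ => A v) (h2.unique h3)
      have h8 : pr k (fderiv ℝ f (g a) (fderiv ℝ g a v)) = 0 := hv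
      rw [h7, h8]
      simp [J]
    have h7 : fderiv ℝ g a v = 0 :=
      hf.injective_fderiv _ (hgV a ha) (by rw [h6, map_zero])
    have h8 : Q (fderiv ℝ g a v) = v := congrArg (fun A : Euc m →L[ℝ] Euc m => A v) (h4.unique h5)
    rw [← h8, h7, map_zero]
  · intro W1 hW1 hW1o
    obtain ⟨U2, hU2o, hU2⟩ := hf.image_open (P.source ∩ Q ⁻¹' W1)
      (fun z hz => (hPs _ hz.1).1) (P.open_source.inter (hW1o.preimage Q.continuous))
    refine ⟨{x | J k (t0, x) ∈ U2}, hU2o.preimage (continuous_J.comp (by fun_prop)), ?_⟩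
    ext x
    constructor
    · rintro ⟨a, ha, rfl⟩
      have haV := hW1 ha
      have h1 : f (g a) ∈ f '' (P.source ∩ Q ⁻¹' W1) :=
        ⟨g a, ⟨hgs a haV, by change Q (g a) ∈ W1; rwa [hgQ a haV]⟩, rfl⟩
      rw [hU2] at h1
      refine ⟨⟨h1.1.1, ?_⟩, ?_⟩
      · change J k (t0, pr k (f (g a))) ∈ W'
        rw [hgJ a haV]
        exact h1.1.2
      · change J k (t0, pr k (f (g a))) ∈ U2
        rw [hgJ a haV]
        exact h1.2
    · rintro ⟨⟨hxS, hxW⟩, hxU⟩
      have h1 : J k (t0, x) ∈ f '' (P.source ∩ Q ⁻¹' W1) := by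
        rw [hU2]
        refine ⟨⟨?_, hxW⟩, hxU⟩
        change pr k (J k (t0, x)) ∈ S
        rwa [pr_J]
      obtain ⟨z, ⟨hzs, hzW⟩, hz⟩ := h1
      refine ⟨Q z, hzW, ?_⟩
      have h2 : ι (Q z) = P z := by
        rw [hPc]
        simp only [hι, hΦdef]
        rw [hz, ht_J, sub_self]
      have h3 : g (Q z) = z := by
        change P.symm (ι (Q z)) = z
        rw [h2]
        exact P.left_inv hzs
      simp only
      rw [h3, hz, pr_J]

/-- if `S × ℝ` is a submanifold near a point, so is `S`. -/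
theorem slice_submanifold {S : Set (Euc k)} {W' : Set (Euc (k + 1))} (hW' : IsOpen W') (t0 : ℝ)
    (h : IsSubmanifold (m + 1) (k + 1) ({w | pr k w ∈ S} ∩ W')) :
    IsSubmanifold m k (S ∩ {x | J k (t0, x) ∈ W'}) := by
  rintro y ⟨hyS, hyW⟩
  obtain ⟨f, V, hf⟩ := h (J k (t0, y)) ⟨by simpa using hyS, hyW⟩
  exact slice_param hW' hyS hyW hf

end Crest.Agent.R234.Pr_937
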