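import Crest.Agent.R234.Pr1_937

/-!
Row 234, VF-PROD (helper937), file 7: Hausdorff dimension of a product with a line.
-/

set_option autoImplicit false

open MeasureTheory Crest.GeometryTopology.Submanifold Metric
open scoped ENNReal InnerProductSpace NNReal

noncomputable section

namespace Crest.Agent.R234.Pr_937

variable {k : ℕ}

theorem edist_J (x : ℝ) (y y' : Euc k) : edist (J k (x, y)) (J k (x, y')) = edist y y' := by
  rw [edist_dist, edist_dist, dist_eq_norm, dist_eq_norm, J_sub]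
  congr 1
  have h := norm_sq_J ((x, y) - (x, y') : ℝ × Euc k)
  simp only [Prod.fst_sub, Prod.snd_sub, sub_self] at h
  have h2 : ‖J k ((x, y) - (x, y'))‖ ^ 2 = ‖y - y'‖ ^ 2 := by
    rw [h]
    simp
  exact (pow_left_inj₀ (norm_nonneg _) (norm_nonneg _) two_ne_zero).1 h2

theorem edist_ht_le (w w' : Euc (k + 1)) : edist (ht k w) (ht k w') ≤ edist w w' := by
  rw [edist_dist, edist_dist, dist_eq_norm, dist_eq_norm, ← map_sub]
  exact ENNReal.ofReal_le_ofReal (abs_ht_le _)

/-- Fubini for null sets of Hausdorff measures. -/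
theorem hausdorff_slice {A : Set (Euc k)} {s : ℝ} (hs : 0 ≤ s)
    (h : μH[s + 1] {w : Euc (k + 1) | pr k w ∈ A ∧ ht k w ∈ Set.Icc (0:ℝ) 1} = 0) :
    μH[s] A = 0 := by
  rw [Measure.hausdorffMeasure_apply] at h ⊢
  refine le_antisymm (iSup₂_le fun r hr => ?_) bot_le
  refine ENNReal.le_of_forall_pos_le_add fun ε hε _ => ?_
  rw [zero_add]
  have hr' : (0 : ℝ≥0∞) < min r 1 := lt_min hr one_pos
  have h1 := le_iSup₂ (f := fun (r : ℝ≥0∞) (_ : 0 < r) =>
    ⨅ (t : ℕ → Set (Euc (k + 1))) (_ : {w : Euc (k + 1) | pr k w ∈ A ∧ ht k w ∈ Set.Icc (0:ℝ) 1}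
      ⊆ ⋃ n, t n) (_ : ∀ n, ediam (t n) ≤ r),
      ∑' n, ⨆ _ : (t n).Nonempty, ediam (t n) ^ (s + 1)) (min r 1) hr'
  rw [h] at h1
  have hε2 : (0 : ℝ≥0∞) < ε / 2 := ENNReal.half_pos (by exact_mod_cast hε.ne')
  have h2 := h1.trans_lt hε2
  simp only [iInf_lt_iff] at h2
  obtain ⟨t, hcov, hdiam, hsum⟩ := h2
  classical
  set I : ℕ → Set ℝ := fun n => if h : (t n).Nonempty then
    Metric.closedEBall (ht k h.some) (ediam (t n)) else ∅ with hI
  have hIm : ∀ n, MeasurableSet (I n) := by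
    intro n
    simp only [hI]
    split_ifs
    · exact Metric.isClosed_closedEBall.measurableSet
    · exact MeasurableSet.empty
  set G : ℝ → ℝ≥0∞ := fun x => ∑' n, (I n).indicator (fun _ => ediam (t n) ^ s) x with hG
  have hGm : Measurable G := Measurable.tsum fun n => measurable_const.indicator (hIm n)
  have hGi : ∫⁻ x in Set.Icc (0 : ℝ) 1, G x ≤ ε := by
    calc ∫⁻ x in Set.Icc (0 : ℝ) 1, G x ≤ ∫⁻ x, G x := setLIntegral_le_lintegral _ _
      _ = ∑' n, ∫⁻ x, (I n).indicator (fun _ => ediam (t n) ^ s) x :=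
          lintegral_tsum fun n => (measurable_const.indicator (hIm n)).aemeasurable
      _ ≤ ∑' n, 2 * ⨆ _ : (t n).Nonempty, ediam (t n) ^ (s + 1) := by
          refine ENNReal.tsum_le_tsum fun n => ?_
          rw [lintegral_indicator_const (hIm n)]
          by_cases hn : (t n).Nonempty
          · have h3 : I n = Metric.closedEBall (ht k hn.some) (ediam (t n)) := by
              simp only [hI]
              rw [dif_pos hn]
            rw [h3, iSup_pos hn, ENNReal.rpow_add_of_nonneg _ _ hs zero_le_one,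
              ENNReal.rpow_one, Real.volume_closedEBall]
            refine le_of_eq ?_
            ring
          · have h3 : I n = ∅ := by
              simp only [hI]
              rw [dif_neg hn]
            rw [h3, measure_empty, mul_zero]
            exact bot_le
      _ = 2 * ∑' n, ⨆ _ : (t n).Nonempty, ediam (t n) ^ (s + 1) := ENNReal.tsum_mul_left
      _ ≤ 2 * (ε / 2) := by gcongr
      _ = ε := ENNReal.mul_div_cancel (by norm_num) (by norm_num)
  have hprob : IsProbabilityMeasure ((volume : Measure ℝ).restrict (Set.Icc 0 1)) := ⟨by simp⟩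
  obtain ⟨x, hx, hGx⟩ := exists_notMem_null_le_lintegral
    (μ := (volume : Measure ℝ).restrict (Set.Icc 0 1)) (f := G) (N := (Set.Icc 0 1)ᶜ)
    hGm.aemeasurable (by simp)
  have hx : x ∈ Set.Icc (0 : ℝ) 1 := by simpa using hx
  have hle : ∀ n, ediam {y : Euc k | J k (x, y) ∈ t n} ≤ ediam (t n) := fun n => by
    refine ediam_le fun y hy y' hy' => ?_
    rw [← edist_J x y y']
    exact edist_le_ediam_of_mem hy hy'
  refine (iInf_le _ fun n => {y : Euc k | J k (x, y) ∈ t n}).trans ?_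
  refine (iInf_le _ ?_).trans ((iInf_le _ ?_).trans ?_)
  · intro y hy
    have h3 : J k (x, y) ∈ ⋃ n, t n := hcov ⟨by rwa [pr_J], by rwa [ht_J]⟩
    obtain ⟨n, hn⟩ := Set.mem_iUnion.1 h3
    exact Set.mem_iUnion.2 ⟨n, hn⟩
  · intro n
    exact (hle n).trans ((hdiam n).trans (min_le_left _ _))
  · refine le_trans ?_ (hGx.trans hGi)
    refine ENNReal.tsum_le_tsum fun n => ?_
    refine iSup_le fun hne => ?_
    obtain ⟨y, hy⟩ := hne
    have hy : J k (x, y) ∈ t n := hy
    have hn : (t n).Nonempty := ⟨_, hy⟩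
    have hxI : x ∈ I n := by
      simp only [hI]
      rw [dif_pos hn]
      change edist x (ht k hn.some) ≤ ediam (t n)
      have h3 := edist_ht_le (J k (x, y)) hn.some
      rw [ht_J] at h3
      exact h3.trans (edist_le_ediam_of_mem hy hn.some_mem)
    rw [Set.indicator_of_mem hxI]
    exact ENNReal.rpow_le_rpow (hle n) hs

/-- dimension of a product with a line. -/
theorem dimH_of_prod {A : Set (Euc k)} {m : ℕ} (hm : 1 ≤ m)
    (h : dimH {w : Euc (k + 1) | pr k w ∈ A} ≤ m) : dimH A ≤ (m : ℝ≥0∞) - 1 := by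
  have h0 : (m : ℝ≥0∞) - 1 = ((m - 1 : ℕ) : ℝ≥0∞) := by
    rw [ENNReal.natCast_sub, Nat.cast_one]
  rw [h0]
  refine ENNReal.le_of_forall_pos_le_add fun ε hε _ => ?_
  have h1 : dimH {w : Euc (k + 1) | pr k w ∈ A ∧ ht k w ∈ Set.Icc (0:ℝ) 1}
      < ((((m - 1 : ℕ) : ℝ≥0) + ε + 1 : ℝ≥0) : ℝ≥0∞) := by
    refine lt_of_le_of_lt ((dimH_mono fun w hw => hw.1).trans h) ?_
    have h2 : (m : ℝ≥0) < ((m - 1 : ℕ) : ℝ≥0) + ε + 1 := by
      have h3 : (m : ℝ≥0) = ((m - 1 : ℕ) : ℝ≥0) + 1 := by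
        have : m = m - 1 + 1 := by omega
        conv_lhs => rw [this]
        push_cast
        rfl
      rw [h3, add_right_comm]
      exact lt_add_of_pos_right _ hε
    exact_mod_cast h2
  have h2 := hausdorffMeasure_of_dimH_lt h1
  have h3 : μH[((((m - 1 : ℕ) : ℝ≥0) + ε : ℝ≥0) : ℝ)] A = 0 := by
    refine hausdorff_slice (NNReal.coe_nonneg _) ?_
    rw [← h2]
    norm_cast
  have h4 := dimH_le_of_hausdorffMeasure_ne_top (d := ((m - 1 : ℕ) : ℝ≥0) + ε) (s := A)
    (by rw [h3]; exact ENNReal.zero_ne_top)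
  exact_mod_cast h4

end Crest.Agent.R234.Pr_937
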