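import Crest.Agent.R234.Pr5_937
import Crest.Agent.R234.Pr6_937
import Crest.Agent.R234.Pr7_937

/-!
Row 234, VF-PROD (helper937), file 8: the dimension bound in dimension `m + 1` gives the
dimension bound in dimension `m` (product with a line, literal frozen definitions).
-/

set_option autoImplicit false

open MeasureTheory Crest.GeometryTopology.Submanifold
open scoped ENNReal InnerProductSpace

noncomputable section

namespace Crest.Agent.R234.Pr_937

variable {m k : ℕ}

/-- the statement of S0362 in dimension `m`, ambient dimension `k`. -/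
def St (m k : ℕ) : Prop :=
  ∀ U : Set (Euc k), IsOpen U → ∀ D : VarifoldData m k, IsIntegralVarifoldIn U D →
    IsStationaryIn U D → dimH (singularSet m k U D) ≤ (m : ENNReal) - 1

/-- singular points of the product. -/
theorem singularSet_prodData {U : Set (Euc k)} {D : VarifoldData m k}
    (hD : IsIntegralVarifoldIn U D) {w : Euc (k + 1)} (hw : pr k w ∈ singularSet m k U D) :
    w ∈ singularSet (m + 1) (k + 1) {w | pr k w ∈ U} (prodData D) := by
  obtain ⟨h1, h2, h3⟩ := hw
  refine ⟨h1, (support_prodData hD w).2 h2, ?_⟩
  rintro ⟨W', hW'o, hwW, hsub⟩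
  refine h3 ⟨{x | J k (ht k w, x) ∈ W'}, hW'o.preimage (continuous_J.comp (by fun_prop)), ?_, ?_⟩
  · change J k (ht k w, pr k w) ∈ W'
    rwa [J_split]
  · have h4 : support (prodData D) = {w | pr k w ∈ support D} := by
      ext v
      exact support_prodData hD v
    rw [h4] at hsub
    exact slice_submanifold hW'o (ht k w) hsub

theorem step (hm : 1 ≤ m) (h : St (m + 1) (k + 1)) : St m k := by
  intro U hU D hD hs
  refine dimH_of_prod hm ?_
  refine (dimH_mono fun w hw => singularSet_prodData hD hw).trans ?_
  refine (h {w | pr k w ∈ U} (hU.preimage (pr k).continuous) (prodData D)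
    (isIntegral_prodData hD) (isStationary_prodData hD hs)).trans_eq ?_
  rw [Nat.cast_add, Nat.cast_one]
  exact ENNReal.add_sub_cancel_right ENNReal.one_ne_top

theorem step_many (hm : 1 ≤ m) (j : ℕ) (h : St (m + j) (k + j)) : St m k := by
  induction j with
  | zero => exact h
  | succ j ih => exact ih (step (by omega) h)

/-- it is enough to prove S0362 for all large dimensions. -/
theorem reduction (M : ℕ) (h : ∀ m, M ≤ m → ∀ n, 1 ≤ n → St m (m + n)) :
    ∀ m, 1 ≤ m → ∀ n, 1 ≤ n → St m (m + n) := by
  intro m hm n hn
  refine step_many hm M ?_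
  have h1 := h (m + M) (by omega) n hn
  have h2 : m + n + M = m + M + n := by omega
  rw [h2]
  exact h1

end Crest.Agent.R234.Pr_937
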