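import Crest.Agent.R234.Main2_456
import Crest.Agent.R234.Fa4_694
import Crest.Agent.R234.Pr8_937

/-!
# Row 234, VF-MAIN (helper456), version 3

`FA_of`: the node `FA` from 694's `select` and the two Allard/integrality nodes `Hint`, `Hone`.
`main3`: S0362 for all `m, n ≥ 1` from `Hint`, `Hone`, `Dbl`, `Pin` (937's `reduction` used).
-/

set_option autoImplicit false
set_option linter.unusedVariables false

open MeasureTheory Filter Topology Set
open scoped ENNReal NNReal
open Crest.GeometryTopology.Submanifold Crest.Agent.R234.Vf_884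
open Crest.Agent.R234.Strat3_842 Crest.Agent.R234.Fa_694

noncomputable section

namespace Crest.Agent.R234.Main_456

/-- integral density at points with arbitrarily flat scales (947, 694). -/
def Hint (m k : ℕ) : Prop :=
  ∀ (U : Set (Euc k)), IsOpen U → ∀ D : VarifoldData m k, IsIntegralVarifoldIn U D →
    IsStationaryIn U D → ∀ x ∈ U, x ∈ support D → x ∉ NF m (VD D) →
      ∃ Q : ℕ, Th m (VD D) x = (Q : ℝ≥0∞)

/-- Allard at such points of density at most one (640, 182, 625, 3). -/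
def Hone (m k : ℕ) : Prop :=
  ∀ (U : Set (Euc k)), IsOpen U → ∀ D : VarifoldData m k, IsIntegralVarifoldIn U D →
    IsStationaryIn U D → ∀ x ∈ U, x ∈ support D → x ∉ NF m (VD D) → Th m (VD D) x ≤ 1 →
      x ∉ singularSet m k U D

variable {m k : ℕ}

theorem sel_of {U : Set (Euc k)} {D : VarifoldData m k} (hD : IsIntegralVarifoldIn U D)
    (hst : IsStationaryIn U D) (hm : 1 ≤ m) (hU : IsOpen U)
    (hint : ∀ x ∈ U, x ∈ support D → x ∉ NF m (VD D) → ∃ Q : ℕ, Th m (VD D) x = Q)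
    (hone : ∀ x ∈ U, x ∈ support D → x ∉ NF m (VD D) → Th m (VD D) x ≤ 1 →
      x ∉ singularSet m k U D)
    (hdim : (m : ℝ≥0∞) - 1 < dimH (singularSet m k U D)) :
    ∃ (s : ℝ) (Q : ℕ) (c : ℝ) (x : Euc k) (r : ℕ → ℝ) (P : ℕ → L k), Sel m k U D s Q c x r P := by
  have hdim' : ((m - 1 : ℕ) : ℝ≥0∞) < dimH (singularSet m k U D) := by
    rwa [ENNReal.natCast_sub, Nat.cast_one]
  obtain ⟨s, hs, Q, hQ, x, hx, hTh, hcont, hflat⟩ := select hD hst hm hU hdim' hint hone
  have hV := stat_VD hD hst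
  obtain ⟨R0, hR0, hR0U⟩ := Metric.isOpen_iff.1 hU x hx.1
  -- choice of the scales
  have hch : ∀ i : ℕ, ∃ (r : ℝ) (P : L k), 0 < r ∧ r ≤ 1 / ((i : ℝ) + 1) ∧
      ((i : ℝ) + 1) * r < R0 ∧
      ENNReal.ofReal (1 / 2) * ENNReal.ofReal r ^ s ≤
        cont s ({y ∈ singularSet m k U D | Th m (VD D) y = Q} ∩ Metric.closedBall x r) ∧
      P ∈ G m k ∧ ∫ p in Metric.ball x (((i : ℝ) + 1) * r) ×ˢ univ,
        ((((i : ℝ) + 1) * r) ^ 2 * tilt P p + height P x p) ∂(VD D) ≤
          (1 / ((i : ℝ) + 1) ^ (m + 3)) * (((i : ℝ) + 1) * r) ^ (m + 2) := by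
    intro i
    have hi : (0:ℝ) < (i : ℝ) + 1 := by positivity
    obtain ⟨r₀, hr₀, h0⟩ := hflat (1 / 2) (by norm_num) (1 / ((i : ℝ) + 1) ^ (m + 3))
      (by positivity) ((i : ℝ) + 1) (by linarith [(Nat.cast_nonneg i : (0:ℝ) ≤ i)])
    obtain ⟨r, hr, hr1, hc⟩ := hcont (1 / 2) (by norm_num)
      (min (min r₀ (1 / ((i : ℝ) + 1))) (R0 / (2 * ((i : ℝ) + 1))))
      (lt_min (lt_min hr₀ (by positivity)) (by positivity))
    obtain ⟨P, hP, hI⟩ := h0 r hr ((hr1.trans (min_le_left _ _)).trans (min_le_left _ _)) hc.le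
    refine ⟨r, P, hr, (hr1.trans (min_le_left _ _)).trans (min_le_right _ _), ?_, hc.le, hP, hI⟩
    have h2 : r ≤ R0 / (2 * ((i : ℝ) + 1)) := hr1.trans (min_le_right _ _)
    have h3 : ((i : ℝ) + 1) * r ≤ ((i : ℝ) + 1) * (R0 / (2 * ((i : ℝ) + 1))) := by gcongr
    have h4 : ((i : ℝ) + 1) * (R0 / (2 * ((i : ℝ) + 1))) = R0 / 2 := by field_simp
    linarith
  choose r P hr hr1 hr2 hc hP hI using hch
  have hlim : Tendsto r atTop (𝓝 0) :=
    squeeze_zero (fun i => (hr i).le) hr1 tendsto_one_div_add_atTop_nhds_zero_nat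
  refine ⟨s, Q, 1 / 2, x, r, P, ?_⟩
  refine { hs := ?_, hQ := hQ, hc := by norm_num, mem := ⟨hx, hTh⟩, pos := hr, lim := hlim,
           cont := hc, near := ?_ }
  · rwa [Nat.cast_sub hm, Nat.cast_one] at hs
  · intro R hR ε hε
    have e1 : ∀ᶠ i : ℕ in atTop, R ≤ (i : ℝ) + 1 := by
      filter_upwards [eventually_ge_atTop ⌈R⌉₊] with i hi
      have := (Nat.le_ceil R).trans (Nat.cast_le.2 hi)
      linarith
    have e2 : ∀ᶠ i : ℕ in atTop, 1 / ((i : ℝ) + 1) ≤ ε * R ^ (m + 2) := by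
      have h := (tendsto_one_div_add_atTop_nhds_zero_nat (𝕜 := ℝ)).eventually
        (gt_mem_nhds (show (0:ℝ) < ε * R ^ (m + 2) by positivity))
      filter_upwards [h] with i hi using hi.le
    have e3 : ∀ᶠ i : ℕ in atTop, rat m (VD D) x (R * r i) ≤ (Q : ℝ≥0∞) + ENNReal.ofReal ε := by
      have h1 : Tendsto (fun i => R * r i) atTop (𝓝[>] 0) := by
        refine tendsto_nhdsWithin_iff.2 ⟨?_, Eventually.of_forall fun i => mul_pos hR (hr i)⟩
        have := hlim.const_mul R
        rwa [mul_zero] at this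
      have h2 := (tendsto_rat hV hm hR0 hR0U).comp h1
      rw [hTh] at h2
      have h3 : (Q : ℝ≥0∞) < (Q : ℝ≥0∞) + ENNReal.ofReal ε :=
        ENNReal.lt_add_right (ENNReal.natCast_ne_top Q) (by simpa using hε)
      filter_upwards [h2.eventually (gt_mem_nhds h3)] with i hi using le_of_lt hi
    filter_upwards [e1, e2, e3] with i h1 h2 h3
    refine ⟨hP i, ?_, h3⟩
    have hi : (0:ℝ) < (i : ℝ) + 1 := by positivity
    have hri := hr i
    have hsub : Metric.ball x (R * r i) ⊆ Metric.ball x (((i : ℝ) + 1) * r i) :=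
      Metric.ball_subset_ball (by gcongr)
    have hfin : VD D (Metric.ball x (((i : ℝ) + 1) * r i) ×ˢ univ) < ⊤ := by
      refine (measure_mono (Set.prod_mono Metric.ball_subset_closedBall Subset.rfl)).trans_lt
        (hV.fin _ (isCompact_closedBall x (((i : ℝ) + 1) * r i)) ?_)
      exact (Metric.closedBall_subset_ball (hr2 i)).trans hR0U
    have hfin' : VD D (Metric.ball x (R * r i) ×ˢ univ) < ⊤ :=
      (measure_mono (Set.prod_mono hsub Subset.rfl)).trans_lt hfin
    have hint1 : ∀ a : ℝ, Continuous fun p : Euc k × L k => a * tilt (P i) p + height (P i) x p :=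
      fun a => (continuous_const.mul (continuous_tilt (P i))).add (continuous_height (P i) x)
    calc ∫ p in Metric.ball x (R * r i) ×ˢ univ,
          ((R * r i) ^ 2 * tilt (P i) p + height (P i) x p) ∂(VD D)
        ≤ ∫ p in Metric.ball x (R * r i) ×ˢ univ,
          ((((i : ℝ) + 1) * r i) ^ 2 * tilt (P i) p + height (P i) x p) ∂(VD D) := by
          refine setIntegral_mono_ae_restrict
            (integrableOn_of_bdd hV.conc hfin' (hint1 _))
            (integrableOn_of_bdd hV.conc hfin' (hint1 _)) ?_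
          filter_upwards [ae_restrict_of_ae hV.conc] with p hp
          have ht : 0 ≤ tilt (P i) p := tr_perp_nonneg hp (hP i)
          have : (R * r i) ^ 2 ≤ (((i : ℝ) + 1) * r i) ^ 2 := by gcongr
          have := mul_le_mul_of_nonneg_right this ht
          linarith
      _ ≤ ∫ p in Metric.ball x (((i : ℝ) + 1) * r i) ×ˢ univ,
          ((((i : ℝ) + 1) * r i) ^ 2 * tilt (P i) p + height (P i) x p) ∂(VD D) := by
          refine setIntegral_mono_set (integrableOn_of_bdd hV.conc hfin (hint1 _)) ?_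
            (Set.prod_mono hsub Subset.rfl).eventuallyLE
          filter_upwards [ae_restrict_of_ae hV.conc] with p hp
          have ht : 0 ≤ tilt (P i) p := tr_perp_nonneg hp (hP i)
          have hh : 0 ≤ height (P i) x p := by unfold height; positivity
          have : (0:ℝ) ≤ (((i : ℝ) + 1) * r i) ^ 2 * tilt (P i) p := by positivity
          simp only [Pi.zero_apply]
          linarith
      _ ≤ (1 / ((i : ℝ) + 1) ^ (m + 3)) * (((i : ℝ) + 1) * r i) ^ (m + 2) := hI i
      _ = 1 / ((i : ℝ) + 1) * r i ^ (m + 2) := by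
          have e : ((i : ℝ) + 1) ^ (m + 3) = ((i : ℝ) + 1) ^ (m + 2) * ((i : ℝ) + 1) := pow_succ _ _
          have e' : ((i : ℝ) + 1) ^ (m + 2) ≠ 0 := by positivity
          rw [mul_pow, e]
          generalize ((i : ℝ) + 1) ^ (m + 2) = b at e'
          field_simp
      _ ≤ ε * R ^ (m + 2) * r i ^ (m + 2) := by gcongr
      _ = ε * (R * r i) ^ (m + 2) := by rw [mul_pow]; ring

/-- the node `FA`. -/
theorem FA_of (h1 : ∀ m k, Hint m k) (h2 : ∀ m k, Hone m k) : FA := by
  intro m k hm U hU D hD hs hdim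
  exact sel_of hD hs hm hU (h1 m k U hU D hD hs) (h2 m k U hU D hD hs) hdim

/-- **the top level, version 3**. -/
theorem main3 (h1 : ∀ m n, 3 ≤ m → 1 ≤ n → Hint m (m + n)) (h2 : ∀ m n, 3 ≤ m → 1 ≤ n → Hone m (m + n))
    (h3 : Dbl) (h4 : Pin) : ∀ m n : ℕ, 1 ≤ m → 1 ≤ n → S m n := by
  intro m n hm hn
  refine Pr_937.reduction 3 ?_ m hm n hn
  intro m hm n hn U hU D hD hs
  by_contra hcon
  obtain ⟨s, Q, c, x, r, P, h⟩ := sel_of hD hs (by omega) hU (h1 m n hm hn U hU D hD hs)
    (h2 m n hm hn U hU D hD hs) (not_le.1 hcon)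
  exact noSel_of h3 h4 m n hm hn U hU D hD hs s Q c x r P h

end Crest.Agent.R234.Main_456
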