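import Crest.Agent.R234.Main3_456
import Crest.Agent.R234.In6_947

/-!
# Row 234, VF-MAIN (helper456), version 4: `Hint` closed by 947's `Th_integer`

Open inputs after this file: `Hone` (182), `Dbl` (188), `Pin` (3).
-/

set_option autoImplicit false
set_option linter.unusedVariables false

open MeasureTheory Filter Topology Set
open scoped ENNReal NNReal
open Crest.GeometryTopology.Submanifold Crest.Agent.R234.Vf_884

noncomputable section

namespace Crest.Agent.R234.Main_456

theorem hint (m k : ℕ) (hm : 1 ≤ m) : Hint m k :=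
  fun U hU D hD hs x hx _ hn => In_947.Th_integer hD hs hm hU hx hn

/-- **the top level, version 4**. -/
theorem main4 (h2 : ∀ m n, 3 ≤ m → 1 ≤ n → Hone m (m + n)) (h3 : Dbl) (h4 : Pin) :
    ∀ m n : ℕ, 1 ≤ m → 1 ≤ n → S m n :=
  main3 (fun m n hm hn => hint m (m + n) (by omega)) h2 h3 h4

end Crest.Agent.R234.Main_456
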