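import Crest.Agent.R234.Main4_456
import Crest.Agent.R234.Al9_182

/-!
# Row 234, VF-MAIN (helper456), version 5: `Hone` closed by 182's `hone`

Open inputs after this file: `Dbl` (188, 518) and `Pin` (3).
-/

set_option autoImplicit false
set_option linter.unusedVariables false

open MeasureTheory Filter Topology Set
open scoped ENNReal NNReal
open Crest.GeometryTopology.Submanifold Crest.Agent.R234.Vf_884

noncomputable section

namespace Crest.Agent.R234.Main_456

theorem hone' (m k : ℕ) (hm : 1 ≤ m) : Hone m k :=
  fun U hU D hD hs => Al9_182.hone hU hm hD hs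

/-- **the top level, version 5**. -/
theorem main5 (h3 : Dbl) (h4 : Pin) : ∀ m n : ℕ, 1 ≤ m → 1 ≤ n → S m n :=
  main4 (fun m n hm hn => hone' m (m + n) (by omega)) h3 h4

/-- the selection of a bad point is unconditional (`FA`). -/
theorem fa5 : FA := by
  intro m k hm U hU D hD hs hdim
  exact sel_of hD hs hm hU (hint m k hm U hU D hD hs) (hone' m k hm U hU D hD hs) hdim

end Crest.Agent.R234.Main_456
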