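import Crest.Agent.R234.Pd3_435

/-!
# Row 234, VF-F11 (helper435): V-level instance of `Pin3_3.Data`, part 4: the field `bar`
-/

set_option autoImplicit false
set_option linter.unusedVariables false
set_option linter.unusedSectionVars false

open MeasureTheory Filter Topology Set Metric
open scoped ENNReal NNReal ContDiff InnerProductSpace
open Crest.GeometryTopology.Submanifold Crest.Agent.R234.Vf_884
open Crest.Agent.R234.Main_456 Crest.Agent.R234.F11_435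
open Crest.Agent.R234.Pin3_3 (BB HH)

noncomputable section

namespace Crest.Agent.R234.Pd_435

variable {m n k : ℕ}

/-- the fixed profile -/
def prf (t : ℝ) : ℝ := Real.smoothTransition (4 / 3 * (1 - t))

theorem prf_nonneg (t : ℝ) : 0 ≤ prf t := Real.smoothTransition.nonneg _
theorem prf_le_one (t : ℝ) : prf t ≤ 1 := Real.smoothTransition.le_one _

theorem prf_eq_one {t : ℝ} (ht : t ≤ 1 / 4) : prf t = 1 :=
  Real.smoothTransition.one_of_one_le (by linarith)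

theorem prf_eq_zero {t : ℝ} (ht : 1 ≤ t) : prf t = 0 :=
  Real.smoothTransition.zero_of_nonpos (by linarith)

theorem contDiff_prf : ContDiff ℝ ∞ prf := by
  unfold prf
  exact Real.smoothTransition.contDiff.comp (by fun_prop)

theorem continuous_prf : Continuous prf := contDiff_prf.continuous

/-- affine coordinates -/
def cof (o : Option (Fin m)) (v : Euc m) : ℝ := match o with
  | none => 1
  | some j => v j

theorem contDiff_cof (o : Option (Fin m)) : ContDiff ℝ ∞ (cof o) := by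
  rcases o with _ | j
  · exact contDiff_const
  · exact (EuclideanSpace.proj j : Euc m →L[ℝ] ℝ).contDiff

/-- the fixed test functions -/
def Gf (o o' : Option (Fin m)) (v : Euc m) : ℝ := prf (‖v‖ ^ 2) * (cof o v * cof o' v)

theorem contDiff_Gf (o o' : Option (Fin m)) : ContDiff ℝ ∞ (Gf o o') := by
  unfold Gf
  exact (contDiff_prf.comp (contDiff_norm_sq ℝ)).mul ((contDiff_cof o).mul (contDiff_cof o'))

theorem tsupport_Gf (o o' : Option (Fin m)) : tsupport (Gf o o') ⊆ closedBall 0 1 := by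
  refine closure_minimal ?_ isClosed_closedBall
  intro v hv
  rw [mem_closedBall_zero_iff]
  by_contra hcon
  push Not at hcon
  refine hv ?_
  unfold Gf
  rw [prf_eq_zero (one_le_pow₀ hcon.le), zero_mul]

theorem exists_Gf_bound (m K : ℕ) : ∃ M : ℝ, 1 ≤ M ∧ ∀ (o o' : Option (Fin m)), ∀ j ≤ K, ∀ v,
    ‖iteratedFDeriv ℝ j (Gf o o') v‖ ≤ M := by
  have hb : ∀ (q : Option (Fin m) × Option (Fin m) × Fin (K + 1)), ∃ B : ℝ, ∀ v,
      ‖iteratedFDeriv ℝ q.2.2 (Gf q.1 q.2.1) v‖ ≤ B := by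
    intro q
    have h1 : Continuous (iteratedFDeriv ℝ q.2.2 (Gf q.1 q.2.1)) :=
      (contDiff_Gf q.1 q.2.1).continuous_iteratedFDeriv (m := q.2.2) (by exact_mod_cast le_top)
    have h2 : HasCompactSupport (Gf q.1 q.2.1) :=
      HasCompactSupport.of_support_subset_isCompact (isCompact_closedBall 0 1)
        ((subset_tsupport _).trans (tsupport_Gf _ _))
    have h3 : HasCompactSupport (iteratedFDeriv ℝ q.2.2 (Gf q.1 q.2.1)) := h2.iteratedFDeriv _
    obtain ⟨B, hB⟩ := h1.bounded_above_of_compact_support h3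
    exact ⟨B, hB⟩
  choose B hB using hb
  refine ⟨1 + ∑ q, |B q|, by
    have : 0 ≤ ∑ q, |B q| := Finset.sum_nonneg fun q _ => abs_nonneg _
    linarith, ?_⟩
  intro o o' j hj v
  have h1 := hB (o, o', ⟨j, by omega⟩) v
  refine h1.trans ((le_abs_self _).trans ?_)
  have h2 := Finset.single_le_sum (f := fun q => |B q|) (fun q _ => abs_nonneg _)
    (Finset.mem_univ (o, o', (⟨j, by omega⟩ : Fin (K + 1))))
  linarith

/-- derivatives of rescaled functions -/
theorem iter_scale {f : Euc m → ℝ} (hf : ContDiff ℝ ∞ f) {t : ℝ} (ht : 0 < t) (j : ℕ) (v : Euc m) :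
    ‖iteratedFDeriv ℝ j (fun v => f (t⁻¹ • v)) v‖ ≤ (t⁻¹) ^ j * ‖iteratedFDeriv ℝ j f (t⁻¹ • v)‖ := by
  set g : Euc m →L[ℝ] Euc m := t⁻¹ • ContinuousLinearMap.id ℝ (Euc m) with hg
  have h1 : (fun v => f (t⁻¹ • v)) = f ∘ g := by
    ext v; simp [hg]
  rw [h1, ContinuousLinearMap.iteratedFDeriv_comp_right g (hf.of_le (by exact_mod_cast le_top :
    ((j : ℕ∞) : WithTop ℕ∞) ≤ ((⊤ : ℕ∞) : WithTop ℕ∞))) v le_rfl]
  refine (ContinuousMultilinearMap.norm_compContinuousLinearMap_le _ _).trans ?_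
  have h2 : ‖g‖ ≤ t⁻¹ := by
    rw [hg, norm_smul, norm_inv, Real.norm_of_nonneg ht.le]
    have := ContinuousLinearMap.norm_id_le (𝕜 := ℝ) (E := Euc m)
    have h3 : 0 ≤ t⁻¹ := by positivity
    nlinarith
  have h3 : g v = t⁻¹ • v := by simp [hg]
  rw [h3, mul_comm, Finset.prod_const, Finset.card_univ, Fintype.card_fin]
  gcongr

/-- scale factors -/
def scf (t : ℝ) (o : Option (Fin m)) : ℝ := match o with
  | none => 1
  | some _ => t

theorem scf_nonneg {t : ℝ} (ht : 0 ≤ t) (o : Option (Fin m)) : 0 ≤ scf t o := by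
  rcases o with _ | j
  · exact zero_le_one
  · exact ht

theorem scf_le_one {t : ℝ} (ht : t ≤ 1) (o : Option (Fin m)) : scf t o ≤ 1 := by
  rcases o with _ | j
  · exact le_rfl
  · exact ht

theorem cof_eq {t : ℝ} (ht : t ≠ 0) (o : Option (Fin m)) (v : Euc m) :
    cof o v = scf t o * cof o (t⁻¹ • v) := by
  rcases o with _ | j
  · simp [cof, scf]
  · simp only [cof, scf, PiLp.smul_apply, smul_eq_mul]
    field_simp

/-- coefficients of an affine function -/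
def Av (a₀ : ℝ) (a₁ : Euc m) (o : Option (Fin m)) : ℝ := match o with
  | none => a₀
  | some j => a₁ j

theorem sum_Av (a₀ : ℝ) (a₁ : Euc m) (v : Euc m) : ∑ o, Av a₀ a₁ o * cof o v = a₀ + ⟪a₁, v⟫_ℝ := by
  rw [Fintype.sum_option]
  simp only [Av, cof, mul_one]
  congr 1
  rw [PiLp.inner_apply]
  refine Finset.sum_congr rfl fun j _ => ?_
  simp [mul_comm]

theorem abs_Av_le (a₀ : ℝ) (a₁ : Euc m) (o : Option (Fin m)) : |Av a₀ a₁ o| ≤ |a₀| + ‖a₁‖ := by
  rcases o with _ | j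
  · simp only [Av]
    linarith [norm_nonneg a₁]
  · simp only [Av]
    have h1 := PiLp.norm_apply_le a₁ j
    rw [Real.norm_eq_abs] at h1
    linarith [abs_nonneg a₀]

/-- coefficients of a vector valued affine function -/
def Bv (b₀ : Euc n) (B : Euc m →L[ℝ] Euc n) (o : Option (Fin m)) : Euc n := match o with
  | none => b₀
  | some j => B (EuclideanSpace.single j 1)

theorem sum_Bv (b₀ : Euc n) (B : Euc m →L[ℝ] Euc n) (v : Euc m) :
    ∑ o, cof o v • Bv b₀ B o = b₀ + B v := by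
  rw [Fintype.sum_option]
  simp only [Bv, cof, one_smul]
  congr 1
  have h1 : v = ∑ j, v j • EuclideanSpace.single j (1:ℝ) := by
    ext i
    simp [Finset.sum_apply, Pi.single_apply]
  conv_rhs => rw [h1]
  rw [map_sum]
  simp

theorem norm_Bv_le (b₀ : Euc n) (B : Euc m →L[ℝ] Euc n) (o : Option (Fin m)) :
    ‖Bv b₀ B o‖ ≤ ‖b₀‖ + ‖B‖ := by
  rcases o with _ | j
  · simp only [Bv]
    linarith [norm_nonneg B]
  · simp only [Bv]
    have h1 := B.le_opNorm (EuclideanSpace.single j 1)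
    simp only [PiLp.norm_single, norm_one, mul_one] at h1
    linarith [norm_nonneg b₀]

theorem Gf_scale {t : ℝ} (ht : 0 < t) (o o' : Option (Fin m)) (v : Euc m) :
    prf (‖v‖ ^ 2 / t ^ 2) * (cof o v * cof o' v) =
      scf t o * scf t o' * Gf o o' (t⁻¹ • v) := by
  unfold Gf
  have h1 : ‖t⁻¹ • v‖ ^ 2 = ‖v‖ ^ 2 / t ^ 2 := by
    rw [norm_smul, norm_inv, Real.norm_of_nonneg ht.le]
    field_simp
  rw [h1, cof_eq ht.ne' o v, cof_eq ht.ne' o' v]
  ring

variable {U : Set (Euc k)} {V : Measure (Euc k × L k)} {Q K : ℕ} {x : Euc k} {r : ℝ}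
  {π : Euc k →L[ℝ] Euc m} {ρ : Euc k →L[ℝ] Euc n} {u : Euc m → Euc n} {ε C : ℝ}
  {z : Euc m} {zh : Euc k}

/-- continuous functions are integrable for `nu` -/
theorem Cx.int_nu (h : Cx U V Q K x r π ρ u ε C) {F : Type*} [NormedAddCommGroup F]
    [SecondCountableTopologyEither (Euc k × L k) F]
    {f : Euc k × L k → F} (hf : Continuous f) : Integrable f (nu V π ρ x r) := by
  have := h.fin_nu
  have hK : IsCompact (closedBall x (64 * r) ×ˢ G m k) :=
    (isCompact_closedBall _ _).prod (isCompact_G m k)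
  obtain ⟨B, hB⟩ := hK.exists_bound_of_continuousOn hf.continuousOn
  refine Integrable.of_bound hf.aestronglyMeasurable B ?_
  unfold nu
  refine Measure.ae_smul_measure_le _ ?_
  filter_upwards [ae_restrict_mem (measurableSet_bx π ρ x (8 * r)),
    ae_restrict_of_ae h.st.conc] with p hp hp2
  exact hB p ⟨ball_subset_closedBall (box_subset_ball h.ref.frame h.hr hp.1), hp2⟩

/-- the moments against the fixed test functions -/
theorem Cx.moment (h : Cx U V Q K x r π ρ u ε C) (hz : Ctr V π x r z zh) {M t₀ t : ℝ}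
    (hM1 : 1 ≤ M)
    (hM : ∀ (o o' : Option (Fin m)), ∀ j ≤ K, ∀ v, ‖iteratedFDeriv ℝ j (Gf o o') v‖ ≤ M)
    (ht₀ : 0 < t₀) (ht : t₀ ≤ t) (ht1 : t ≤ 1) (o o' : Option (Fin m)) :
    ‖∫ q, Gf o o' (t⁻¹ • (Xr π x r q - z)) • Yr π ρ x r u q ∂(nu V π ρ x r)‖ ≤
      M * (t₀⁻¹) ^ K * ε * √(sep V π ρ x r u 8 / r ^ (m + 2)) := by
  have hr := h.hr
  have ht0 : 0 < t := ht₀.trans_le ht
  have hsep0 : 0 ≤ sep V π ρ x r u 8 := integral_nonneg fun p => by positivity
  set η : Euc m → ℝ := fun v => Gf o o' (t⁻¹ • v) with hη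
  have hηc : ContDiff ℝ ∞ η := (contDiff_Gf o o').comp (contDiff_const_smul _)
  have hηs : tsupport η ⊆ Metric.ball 0 7 := by
    have h1 : Function.support η ⊆ closedBall 0 t := by
      intro v hv
      have h2 : t⁻¹ • v ∈ closedBall (0 : Euc m) 1 :=
        tsupport_Gf o o' (subset_tsupport _ (Function.mem_support.2 hv))
      rw [mem_closedBall_zero_iff, norm_smul, norm_inv, Real.norm_of_nonneg ht0.le,
        inv_mul_le_iff₀ ht0, mul_one] at h2
      simpa using h2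
    refine (closure_minimal h1 isClosed_closedBall).trans (closedBall_subset_ball (by linarith))
  have ht₀1 : t₀ ≤ 1 := ht.trans ht1
  have hinv : 1 ≤ t₀⁻¹ := one_le_inv_iff₀.2 ⟨ht₀, ht₀1⟩
  have hB : ∀ j ≤ K, ∀ v, ‖iteratedFDeriv ℝ j η v‖ ≤ M * (t₀⁻¹) ^ K := by
    intro j hj v
    refine (iter_scale (contDiff_Gf o o') ht0 j v).trans ?_
    calc (t⁻¹) ^ j * ‖iteratedFDeriv ℝ j (Gf o o') (t⁻¹ • v)‖ ≤ (t₀⁻¹) ^ j * M := by
          gcongr
          exact hM o o' j hj _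
      _ ≤ (t₀⁻¹) ^ K * M := by
          gcongr
      _ = _ := mul_comm _ _
  have h1 := mean_z h.ref hr hz.mem hηc hηs (B := M * (t₀⁻¹) ^ K) (by positivity) hB
  have h2 : ∫ q, Gf o o' (t⁻¹ • (Xr π x r q - z)) • Yr π ρ x r u q ∂(nu V π ρ x r) =
      (r ^ m)⁻¹ • r⁻¹ • ∫ p in box π ρ x (8 * r) ×ˢ univ,
        η (r⁻¹ • π (p.1 - zh)) • hgt π ρ x r u p.1 ∂V := by
    rw [← setIntegral_univ, setIntegral_nu hr MeasurableSet.univ, univ_inter]
    congr 1
    rw [← integral_smul r⁻¹]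
    refine integral_congr_ae (ae_of_all _ fun q => ?_)
    simp only [hη, Yr]
    rw [← h.c_pi hz, smul_comm]
    rfl
  rw [h2, norm_smul, norm_smul, norm_inv, norm_inv, Real.norm_of_nonneg hr.le,
    Real.norm_of_nonneg (by positivity : (0:ℝ) ≤ r ^ m)]
  set J := ‖∫ p in box π ρ x (8 * r) ×ˢ univ,
        η (r⁻¹ • π (p.1 - zh)) • hgt π ρ x r u p.1 ∂V‖ with hJ
  have h3 : J ≤ √((M * (t₀⁻¹) ^ K) ^ 2 * (ε ^ 2 * r ^ m * sep V π ρ x r u 8)) :=
    Real.le_sqrt_of_sq_le h1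
  have h4 : √((M * (t₀⁻¹) ^ K) ^ 2 * (ε ^ 2 * r ^ m * sep V π ρ x r u 8)) =
      (M * (t₀⁻¹) ^ K) * ε * √(sep V π ρ x r u 8 / r ^ (m + 2)) * (r ^ m * r) := by
    have h5 : (M * (t₀⁻¹) ^ K) ^ 2 * (ε ^ 2 * r ^ m * sep V π ρ x r u 8) =
        ((M * (t₀⁻¹) ^ K) * ε * (r ^ m * r)) ^ 2 * (sep V π ρ x r u 8 / r ^ (m + 2)) := by
      rw [pow_add]
      field_simp
    rw [h5, Real.sqrt_mul (by positivity), Real.sqrt_sq (by have := h.e0; positivity)]
    ring
  rw [h4] at h3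
  calc (r ^ m)⁻¹ * (r⁻¹ * J) ≤ (r ^ m)⁻¹ * (r⁻¹ *
        ((M * (t₀⁻¹) ^ K) * ε * √(sep V π ρ x r u 8 / r ^ (m + 2)) * (r ^ m * r))) := by gcongr
    _ = _ := by field_simp

/-- field `bar` -/
theorem Cx.f_bar (h : Cx U V Q K x r π ρ u ε C) (hz : Ctr V π x r z zh) {M t₀ t : ℝ}
    (hM1 : 1 ≤ M)
    (hM : ∀ (o o' : Option (Fin m)), ∀ j ≤ K, ∀ v, ‖iteratedFDeriv ℝ j (Gf o o') v‖ ≤ M)
    (ht₀ : 0 < t₀) (ht : t₀ ≤ t) (ht1 : t ≤ 1) (a₀ : ℝ) (a₁ : Euc m) (b₀ : Euc n)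
    (B : Euc m →L[ℝ] Euc n) :
    |∫ q, prf (‖Xr π x r q - z‖ ^ 2 / t ^ 2) * ((a₀ + ⟪a₁, Xr π x r q - z⟫_ℝ) *
      ⟪b₀ + B (Xr π x r q - z), Yr π ρ x r u q⟫_ℝ) ∂(nu V π ρ x r)| ≤
      ((m + 1) ^ 2 * M * (t₀⁻¹) ^ K * ε) * (|a₀| + ‖a₁‖) * (‖b₀‖ + ‖B‖) *
        √(sep V π ρ x r u 8 / r ^ (m + 2)) := by
  have hr := h.hr
  have ht0 : 0 < t := ht₀.trans_le ht
  have hXc : Continuous (Xr π x r : Euc k × L k → Euc m) := continuous_Xr
  have hexp : ∀ q : Euc k × L k, prf (‖Xr π x r q - z‖ ^ 2 / t ^ 2) *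
      ((a₀ + ⟪a₁, Xr π x r q - z⟫_ℝ) * ⟪b₀ + B (Xr π x r q - z), Yr π ρ x r u q⟫_ℝ) =
      ∑ o, ∑ o', (Av a₀ a₁ o * scf t o * scf t o') *
        ⟪Bv b₀ B o', Gf o o' (t⁻¹ • (Xr π x r q - z)) • Yr π ρ x r u q⟫_ℝ := by
    intro q
    set v := Xr π x r q - z with hv
    rw [← sum_Av a₀ a₁ v, ← sum_Bv b₀ B v, sum_inner, Finset.sum_mul_sum, Finset.mul_sum]
    refine Finset.sum_congr rfl fun o _ => ?_
    rw [Finset.mul_sum]
    refine Finset.sum_congr rfl fun o' _ => ?_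
    rw [real_inner_smul_left, real_inner_smul_right]
    have h1 := Gf_scale ht0 o o' v
    calc prf (‖v‖ ^ 2 / t ^ 2) * (Av a₀ a₁ o * cof o v * (cof o' v * ⟪Bv b₀ B o', Yr π ρ x r u q⟫_ℝ))
        = (prf (‖v‖ ^ 2 / t ^ 2) * (cof o v * cof o' v)) *
          (Av a₀ a₁ o * ⟪Bv b₀ B o', Yr π ρ x r u q⟫_ℝ) := by ring
      _ = _ := by rw [h1]; ring
  have hGi : ∀ o o' : Option (Fin m), Integrable
      (fun q => Gf o o' (t⁻¹ • (Xr π x r q - z)) • Yr π ρ x r u q) (nu V π ρ x r) := by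
    intro o o'
    refine h.int_nu ?_
    have h1 := (contDiff_Gf o o').continuous
    have h2 : Continuous fun q : Euc k × L k => t⁻¹ • (Xr π x r q - z) := by
      have : Continuous fun q : Euc k × L k => Xr π x r q - z := hXc.sub continuous_const
      exact Continuous.const_smul (M := ℝ) this _
    exact Continuous.smul (M := ℝ) (h1.comp h2) h.continuous_Yr
  simp only [hexp]
  rw [integral_finsetSum _ fun o _ => integrable_finsetSum _ fun o' _ =>
    ((hGi o o').const_inner _).const_mul _]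
  refine (Finset.abs_sum_le_sum_abs _ _).trans ?_
  have hterm : ∀ o o' : Option (Fin m), |∫ q, (Av a₀ a₁ o * scf t o * scf t o') *
        ⟪Bv b₀ B o', Gf o o' (t⁻¹ • (Xr π x r q - z)) • Yr π ρ x r u q⟫_ℝ ∂(nu V π ρ x r)| ≤
      (|a₀| + ‖a₁‖) * (‖b₀‖ + ‖B‖) * (M * (t₀⁻¹) ^ K * ε * √(sep V π ρ x r u 8 / r ^ (m + 2))) := by
    intro o o'
    rw [integral_const_mul, integral_inner (hGi o o'), abs_mul]
    have h1 : |Av a₀ a₁ o * scf t o * scf t o'| ≤ |a₀| + ‖a₁‖ := by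
      rw [abs_mul, abs_mul, abs_of_nonneg (scf_nonneg ht0.le o), abs_of_nonneg (scf_nonneg ht0.le o')]
      calc |Av a₀ a₁ o| * scf t o * scf t o' ≤ (|a₀| + ‖a₁‖) * 1 * 1 := by
            have := scf_nonneg ht0.le o
            have := scf_nonneg ht0.le o'
            gcongr
            · exact abs_Av_le _ _ _
            · exact scf_le_one ht1 _
            · exact scf_le_one ht1 _
        _ = _ := by ring
    have h2 : |⟪Bv b₀ B o', ∫ q, Gf o o' (t⁻¹ • (Xr π x r q - z)) • Yr π ρ x r u q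
        ∂(nu V π ρ x r)⟫_ℝ| ≤ (‖b₀‖ + ‖B‖) *
        (M * (t₀⁻¹) ^ K * ε * √(sep V π ρ x r u 8 / r ^ (m + 2))) := by
      refine (abs_real_inner_le_norm _ _).trans ?_
      gcongr
      · exact norm_Bv_le _ _ _
      · exact h.moment hz hM1 hM ht₀ ht ht1 o o'
    calc _ ≤ (|a₀| + ‖a₁‖) * ((‖b₀‖ + ‖B‖) *
        (M * (t₀⁻¹) ^ K * ε * √(sep V π ρ x r u 8 / r ^ (m + 2)))) := by gcongr
      _ = _ := by ring
  calc ∑ o, |∫ q, ∑ o', (Av a₀ a₁ o * scf t o * scf t o') *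
        ⟪Bv b₀ B o', Gf o o' (t⁻¹ • (Xr π x r q - z)) • Yr π ρ x r u q⟫_ℝ ∂(nu V π ρ x r)|
      ≤ ∑ o : Option (Fin m), ∑ o' : Option (Fin m), (|a₀| + ‖a₁‖) * (‖b₀‖ + ‖B‖) *
        (M * (t₀⁻¹) ^ K * ε * √(sep V π ρ x r u 8 / r ^ (m + 2))) := by
        refine Finset.sum_le_sum fun o _ => ?_
        rw [integral_finsetSum _ fun o' _ => ((hGi o o').const_inner _).const_mul _]
        refine (Finset.abs_sum_le_sum_abs _ _).trans ?_
        exact Finset.sum_le_sum fun o' _ => hterm o o'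
    _ = _ := by
        simp only [Finset.sum_const, Finset.card_univ, Fintype.card_option, Fintype.card_fin,
          nsmul_eq_mul]
        push_cast
        ring

end Crest.Agent.R234.Pd_435
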