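import Crest.Agent.R234.Pin7_3
import Crest.Agent.R234.Pd4_435
import Crest.Agent.R234.NearZ_148

/-!
R234 (helper3), VF-PIN part 8 (P-GLUE): `PinDataK` from 435's fields (`Pd2..Pd4_435`), `QLeb` and the
per-centre data `CtrK` (fields `fd`, `top`, `up`, `lo`, `J` and the size of `I` at the top).
-/

open MeasureTheory Set Metric
open scoped RealInnerProductSpace ENNReal

namespace Crest.Agent.R234.Pin8_3

set_option linter.unusedSectionVars false
set_option linter.unusedVariables false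

open Crest.Agent.R234.Pin1_3 Crest.Agent.R234.Pin2_3 Crest.Agent.R234.Pin3_3
open Crest.Agent.R234.Pin6_3 Crest.Agent.R234.Pin7_3
open Crest.GeometryTopology.Submanifold Crest.Agent.R234.Vf_884
open Crest.Agent.R234.Main_456 Crest.Agent.R234.Pd_435
open Crest.Agent.R234.AS_456 (hp vp)

/-- the frequency data at one centre `zh` (foot `z = r⁻¹ π (zh - x)`, height `r⁻¹ hgt zh`). -/
structure CtrData {m n k : ℕ} (V : Measure (Euc k × L k)) (x : Euc k) (r : ℝ)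
    (π' : Euc k →L[ℝ] Euc m) (ρ : Euc k →L[ℝ] Euc n) (u : Euc m → Euc n) (zh : Euc k)
    (F I e b R : ℝ → ℝ) (C η lm : ℝ) : Prop where
  fd : FD F I e b R η lm (-3)
  top : NN F I (-3) ≤ C
  up : ∀ l ∈ Icc lm (-3), Real.exp l ^ m * I l ≤ C *
    ∫ ω in BB (Xr π' x r) (r⁻¹ • π' (zh - x)) (Real.exp l),
      ‖Yr π' ρ x r u ω - r⁻¹ • hgt π' ρ x r u zh‖ ^ 2 ∂(nu V π' ρ x r)
  lo : ∀ l ∈ Icc lm (-3), ∫ ω in BB (Xr π' x r) (r⁻¹ • π' (zh - x)) (Real.exp l / 2),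
      ‖Yr π' ρ x r u ω - r⁻¹ • hgt π' ρ x r u zh‖ ^ 2 ∂(nu V π' ρ x r) ≤
    C * (Real.exp l ^ m * I l)
  J : ∀ l ∈ Icc lm (-3), ∀ α, 0 ≤ α → α ≤ 2 * C →
    ∫ ω in BB (Xr π' x r) (r⁻¹ • π' (zh - x)) (Real.exp l / 2),
      ‖er (Tr π' ρ x r u ω) (Xr π' x r ω) (r⁻¹ • π' (zh - x)) (Yr π' ρ x r u ω)
        (r⁻¹ • hgt π' ρ x r u zh) α‖ ^ 2 ∂(nu V π' ρ x r) ≤
      Real.exp l ^ m * (C * (R l - 2 * α * e l + α ^ 2 * I l) + η * I l)
  sep : Main_456.sep V π' ρ x r u 8 / r ^ (m + 2) ≤ C * I (-3)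

/-- per-centre input: 435 (`up`, `lo`, `J`, `sep`) and 534 (`fd`, `top`). -/
def CtrK (m n K : ℕ) : Prop :=
  ∀ (Q : ℕ) (C : ℝ), 2 ≤ Q → ∃ C₀ : ℝ, 1 ≤ C₀ ∧ ∀ C₁ : ℝ, C₀ ≤ C₁ →
    ∀ (lm η : ℝ), lm < -3 → 0 < η → ∃ ε₀ : ℝ, 0 < ε₀ ∧ ∀ ε : ℝ, 0 < ε → ε ≤ ε₀ →
      ∀ (U : Set (Euc (m + n))), IsOpen U → ∀ D : VarifoldData m (m + n),
        IsIntegralVarifoldIn U D → IsStationaryIn U D → ∀ (x : Euc (m + n)) (r : ℝ)
        (π' : Euc (m + n) →L[ℝ] Euc m) (ρ : Euc (m + n) →L[ℝ] Euc n) (u : Euc m → Euc n),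
          Cx U (VD D) Q K x r π' ρ u ε C → Th m (VD D) x = (Q : ℝ≥0∞) →
          ∀ zh ∈ closedBall x r, (Q : ℝ≥0∞) ≤ Th m (VD D) zh →
            ∃ F I e b R : ℝ → ℝ, CtrData (VD D) x r π' ρ u zh F I e b R C₁ η lm

theorem nearQ_mono {m k : ℕ} {V : Measure (Euc k × L k)} {Q : ℕ} {x : Euc k} {r ε ε' : ℝ} {P : L k}
    (hr : 0 ≤ r) (h : NearQ m V Q x r ε P) (hε : ε ≤ ε') : NearQ m V Q x r ε' P := by
  obtain ⟨h1, h2, h3⟩ := h
  refine ⟨h1, h2.trans (by gcongr), h3.trans ?_⟩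
  gcongr

/-- **P-GLUE**. -/
theorem pinDataK_of {m n K : ℕ} (hm : 3 ≤ m) (hK : 2 ≤ K) (hQL : QLeb) (hC : CtrK m n K) :
    PinDataK m n K := by
  intro Q C hQ
  have hm1 : 1 ≤ m := by omega
  obtain ⟨C₀, hC₀, hctr⟩ := hC Q C hQ
  have home := ome_pos m
  have h31 : Real.exp (-3) ≤ 1 := Real.exp_le_one_iff.2 (by norm_num)
  obtain ⟨C₁, hC₁⟩ : ∃ C₁ : ℝ, C₀ ≤ C₁ ∧ (Q + 1) * ome m * 4 ^ m ≤ C₁ ∧ (ome m)⁻¹ ≤ C₁ ∧
      2 * (ome m)⁻¹ ≤ C₁ ∧ (Q * (5 ^ m * ome m * 2 ^ m) + 1 : ℝ) ≤ C₁ :=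
    ⟨max C₀ (max ((Q + 1) * ome m * 4 ^ m) (max ((ome m)⁻¹) (max (2 * (ome m)⁻¹)
      (Q * (5 ^ m * ome m * 2 ^ m) + 1)))), by simp, by simp, by simp, by simp, by simp⟩
  obtain ⟨hC₁a, hC₁b, hC₁c, hC₁d, hC₁e⟩ := hC₁
  have hC₁1 : 1 ≤ C₁ := hC₀.trans hC₁a
  refine ⟨C₁, hC₁1, fun lm η' hlm hη' => ?_⟩
  -- `η ≤ 1`
  obtain ⟨η, hηdef⟩ : ∃ η, η = min η' (1 / 2) := ⟨_, rfl⟩
  have hη : 0 < η := by rw [hηdef]; exact lt_min hη' (by norm_num)
  have hη1 : η ≤ 1 / 2 := by rw [hηdef]; exact min_le_right _ _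
  have hηη : η ≤ η' := by rw [hηdef]; exact min_le_left _ _
  obtain ⟨ε₀, hε₀, hctr⟩ := hctr C₁ hC₁a lm η hlm hη
  obtain ⟨t₀, ht₀def⟩ : ∃ t₀, t₀ = Real.exp lm := ⟨_, rfl⟩
  have ht₀ : 0 < t₀ := by rw [ht₀def]; exact Real.exp_pos _
  have ht₀1 : t₀ ≤ 1 := by rw [ht₀def]; exact Real.exp_le_one_iff.2 (by linarith)
  obtain ⟨η₂, hη₂⟩ : ∃ η₂, η₂ = (η * t₀) * (η * t₀ ^ m) / 2 ^ (m + 1) := ⟨_, rfl⟩
  have hη₂0 : 0 < η₂ := by rw [hη₂]; positivity
  obtain ⟨εQ, hεQ, hQL'⟩ := hQL m (m + n) Q hm1 (by omega) η₂ hη₂0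
  obtain ⟨εZ, hεZ, hZ⟩ := NearZ_148.nearZ hQL m (m + n) Q hm1 (by omega) 1 εQ one_pos hεQ
  obtain ⟨M, hM1, hM⟩ := exists_Gf_bound m K
  obtain ⟨d, hd⟩ : ∃ d, d = min (t₀ / 8) (η / 2) := ⟨_, rfl⟩
  have hd0 : 0 < d := by rw [hd]; exact lt_min (by positivity) (by positivity)
  have hd1 : d ≤ t₀ / 8 := by rw [hd]; exact min_le_left _ _
  have hd2 : d ≤ η / 2 := by rw [hd]; exact min_le_right _ _
  have hhc := Cx.hc_pos m Q
  obtain ⟨ε, hε, hε1, hε2, hε3, hε4, hε5, hε6⟩ : ∃ ε : ℝ, 0 < ε ∧ ε ≤ ε₀ ∧ ε ≤ 1 / 4 ∧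
      ε ≤ 1 / (64 * m) ∧ ε ≤ d ^ 2 / Cx.hc m Q ∧ ε ≤ εZ ∧
      ε ≤ η / ((m + 1) ^ 2 * M * (t₀⁻¹) ^ K * √C₁) := by
    have hm0 : (0:ℝ) < m := by exact_mod_cast hm1
    refine ⟨min ε₀ (min (1 / 4) (min (1 / (64 * m)) (min (d ^ 2 / Cx.hc m Q) (min εZ
      (η / ((m + 1) ^ 2 * M * (t₀⁻¹) ^ K * √C₁)))))), ?_, by simp, by simp, by simp, by simp,
      by simp, by simp⟩
    have : 0 < √C₁ := Real.sqrt_pos.2 (by linarith)
    refine lt_min hε₀ (lt_min (by norm_num) (lt_min (by positivity) (lt_min (by positivity)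
      (lt_min hεZ (by positivity)))))
  have hsm : √(Cx.hc m Q * ε) ≤ d := by
    rw [Real.sqrt_le_left hd0.le]
    calc Cx.hc m Q * ε ≤ Cx.hc m Q * (d ^ 2 / Cx.hc m Q) := by gcongr
      _ = d ^ 2 := by field_simp
  refine ⟨ε, hε, fun U hU D hD hst x r hr hxU hTh π' ρ u href => ?_⟩
  have hcx : Cx U (VD D) Q K x r π' ρ u ε C := by
    refine ⟨hm1, stat_VD hD hst, ?_, hr, hxU, href, hK, hε.le, by linarith, ?_, hε2⟩
    · filter_upwards [Al7_182.ae_mem_spt (VD D)] with p hp hpU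
      have h1 : p.1 ∈ support D := by
        intro ρ hρ
        have := hp ρ hρ
        rwa [mass_VD hD] at this
      exact one_le_Th hD hst hm1 hU hpU h1
    · have hm0 : (0:ℝ) < m := by exact_mod_cast hm1
      calc 64 * (m:ℝ) * ε ^ 2 = (64 * m * ε) * ε := by ring
        _ ≤ (64 * m * (1 / (64 * m))) * 1 := by gcongr; linarith
        _ = 1 := by field_simp
  have hQ1 : (1 : ℝ≥0∞) ≤ (Q : ℝ≥0∞) := by exact_mod_cast (by omega : 1 ≤ Q)
  have hQLx : QL (VD D) π' x r Q η₂ := by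
    have h1 : NearQ m (VD D) Q x (4 * (2 * r)) εQ (hp π') := by
      refine hZ U hU D hD hst x r hr ?_ hTh.ge (hp π') (nearQ_mono (by positivity) href.near hε5) x
        (mem_closedBall_self (by positivity)) hTh.ge _ (by linarith) (by linarith)
      exact (closedBall_subset_closedBall (by linarith)).trans hxU
    exact hQL' U hU D hD hst x (2 * r) (by positivity)
      ((closedBall_subset_closedBall (by linarith)).trans hxU) hTh.ge π' href.frame.coπ h1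
  constructor
  · intro z hz z' hz' hzQ hzQ'
    have hb : ∀ {z}, z ∈ closedBall x r → z ∈ ball x (32 * r) := by
      intro z hz
      rw [mem_closedBall] at hz
      rw [mem_ball]; linarith
    have h1 := hcx.rho_small (hb hz) (hQ1.trans hzQ)
    have h2 := hcx.rho_small (hb hz') (hQ1.trans hzQ')
    have h3 : ρ (z - z') = ρ (z - x) - ρ (z' - x) := by rw [← map_sub]; congr 1; abel
    rw [h3]
    refine (norm_sub_le _ _).trans ?_
    have h4 : √(Cx.hc m Q * ε) * r ≤ η / 2 * r := by gcongr; exact hsm.trans hd2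
    have h5 : η * r ≤ η' * r := by gcongr
    linarith
  · intro A zh hA
    have hch : ∀ a : Euc m, ∃ F I e b R : ℝ → ℝ, a ∈ A →
        CtrData (VD D) x r π' ρ u (zh a) F I e b R C₁ η lm := by
      intro a
      by_cases ha : a ∈ A
      · obtain ⟨F, I, e, b, R, h⟩ := hctr ε hε hε1 U hU D hD hst x r π' ρ u hcx hTh (zh a)
          (hA a ha).1 (hA a ha).2.1
        exact ⟨F, I, e, b, R, fun _ => h⟩
      · exact ⟨0, 0, 0, 0, 0, fun h => absurd h ha⟩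
    choose F I e b R hdat using hch
    refine ⟨Euc (m + n) × L (m + n), inferInstance, nu (VD D) π' ρ x r, Xr π' x r, Yr π' ρ x r u,
      Tr π' ρ x r u, fun a => r⁻¹ • hgt π' ρ x r u (zh a), F, I, e, b, R, prf, ?_⟩
    have hctrs : ∀ a ∈ A, Ctr (VD D) π' x r a (zh a) := fun a ha =>
      ⟨(hA a ha).1, hQ1.trans (hA a ha).2.1, (hA a ha).2.2⟩
    have hfin := hcx.fin_nu
    have hmain : Data m (nu (VD D) π' ρ x r) (Xr π' x r) (Yr π' ρ x r u) (Tr π' ρ x r u) A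
        (fun a => r⁻¹ • hgt π' ρ x r u (zh a)) F I e b R prf C₁ η lm (-3) := by
      refine ⟨hfin, continuous_Xr.measurable, hcx.continuous_Yr.aestronglyMeasurable,
        hcx.continuous_Tr.aestronglyMeasurable, hcx.f_bd, continuous_prf, prf_nonneg, prf_le_one,
        fun t ht => prf_eq_one ht, fun t ht => prf_eq_zero ht, fun z hz => (hdat z hz).fd,
        fun z hz => (hdat z hz).top, ?_, ?_, ?_, ?_, ?_, ?_, ?_, ?_, ?_⟩
      · intro z hz l hl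
        have h1 := (hdat z hz).up l hl
        rw [(hA z hz).2.2] at h1
        exact h1
      · intro z hz l hl
        have h1 := (hdat z hz).lo l hl
        rw [(hA z hz).2.2] at h1
        exact h1
      · intro z hz l hl α h0 h1
        have h1 := (hdat z hz).J l hl α h0 h1
        rw [(hA z hz).2.2] at h1
        exact h1
      · intro z hz t h0 h1
        rw [← ht₀def] at h0
        replace h1 := h1.trans h31
        have ht : 0 < t := ht₀.trans_le h0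
        filter_upwards [hcx.f_sup (hctrs z hz) ht h1 (hsm.trans (by linarith))] with ω hω hb
        refine (hω hb).trans ?_
        have : 0 ≤ HH (nu (VD D) π' ρ x r) (Xr π' x r) (Yr π' ρ x r u) z (2 * t) :=
          integral_nonneg fun _ => by positivity
        gcongr
      · intro z hz t h0 h1
        rw [← ht₀def] at h0
        replace h1 := h1.trans h31
        have ht : 0 < t := ht₀.trans_le h0
        refine (hcx.f_hgt (hctrs z hz) ht h1).trans ?_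
        have : 0 ≤ HH (nu (VD D) π' ρ x r) (Xr π' x r) (Yr π' ρ x r u) z t :=
          integral_nonneg fun _ => by positivity
        gcongr
      · intro z hz t h0 h1
        rw [← ht₀def] at h0
        replace h1 := h1.trans h31
        have ht : 0 < t := ht₀.trans_le h0
        refine (hcx.f_mass (hctrs z hz) ht (by linarith) (hsm.trans (by linarith))).trans ?_
        gcongr
      · intro z hz t h0 h1
        rw [← ht₀def] at h0
        replace h1 := h1.trans h31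
        have ht : 0 < t := ht₀.trans_le h0
        refine (hcx.f_massl (hctrs z hz) ht (by linarith)).trans ?_
        gcongr
      · intro z hz t h0 h1 w hw s b hb
        rw [← ht₀def] at h0
        replace h1 := h1.trans h31
        have ht : 0 < t := ht₀.trans_le h0
        refine (hcx.f_slab (hctrs z hz) hη (by linarith) ht₀ hQLx (le_of_eq ?_) hw h0 h1 hb
          (hsm.trans (by linarith))).trans ?_
        · rw [hη₂]; field_simp
        · gcongr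
      · intro z hz t h0 h1 a₀ a₁ b₀ B
        rw [← ht₀def] at h0
        replace h1 := h1.trans h31
        refine (hcx.f_bar (hctrs z hz) hM1 hM ht₀ h0 h1 a₀ a₁ b₀ B).trans ?_
        have h2 := (hdat z hz).sep
        have h3 : √(Main_456.sep (VD D) π' ρ x r u 8 / r ^ (m + 2)) ≤ √C₁ * √(I z (-3)) := by
          rw [← Real.sqrt_mul (by linarith)]
          exact Real.sqrt_le_sqrt h2
        have hsC : 0 < √C₁ := Real.sqrt_pos.2 (by linarith)
        calc ((m + 1) ^ 2 * M * (t₀⁻¹) ^ K * ε) * (|a₀| + ‖a₁‖) * (‖b₀‖ + ‖B‖) *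
              √(Main_456.sep (VD D) π' ρ x r u 8 / r ^ (m + 2))
            ≤ ((m + 1) ^ 2 * M * (t₀⁻¹) ^ K * ε) * (|a₀| + ‖a₁‖) * (‖b₀‖ + ‖B‖) *
              (√C₁ * √(I z (-3))) := by gcongr
          _ = (((m + 1) ^ 2 * M * (t₀⁻¹) ^ K * √C₁) * ε) * (|a₀| + ‖a₁‖) * (‖b₀‖ + ‖B‖) *
              √(I z (-3)) := by ring
          _ ≤ (((m + 1) ^ 2 * M * (t₀⁻¹) ^ K * √C₁) * (η / ((m + 1) ^ 2 * M * (t₀⁻¹) ^ K * √C₁))) *
              (|a₀| + ‖a₁‖) * (‖b₀‖ + ‖B‖) * √(I z (-3)) := by gcongr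
          _ = _ := by field_simp
    exact Data.mono_eta hmain (by linarith) hη.le hη1 hηη

/-- `PinData` from `QLeb` and the per-centre data. -/
theorem pinData_of (hQL : QLeb)
    (h : ∀ m n : ℕ, 3 ≤ m → 1 ≤ n → ∃ K₁ : ℕ, ∀ K : ℕ, K₁ ≤ K → CtrK m n K) : PinData := by
  intro m n hm hn
  obtain ⟨K₁, hK₁⟩ := h m n hm hn
  exact ⟨max K₁ 2, fun K hK => pinDataK_of hm ((le_max_right _ _).trans hK) hQL
    (hK₁ K ((le_max_left _ _).trans hK))⟩

end Crest.Agent.R234.Pin8_3
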