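import Crest.Agent.R234.Skel_884
import Crest.Agent.R234.Pin8_3

/-!
# Row 234, VF-MAIN (helper456), version 6

S0362 and S0363 from: `DblE` (the doubling node for all large `K`), `QLeb`, `CtrE` (per-centre
input of the pinching node, all large `K`).
-/

set_option autoImplicit false

open MeasureTheory Crest.GeometryTopology.Submanifold
open scoped ENNReal

noncomputable section

namespace Crest.Agent.R234.Main_456

open Crest.Agent.R234

/-- the doubling node for all large `K` (188, 518) -/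
def DblE : Prop := ∀ m n : ℕ, 3 ≤ m → 1 ≤ n → ∃ K₀ : ℕ, ∀ K : ℕ, K₀ ≤ K → Pin7_3.DblK m n K

/-- the per-centre input of the pinching node (435, 534) -/
def CtrE : Prop := ∀ m n : ℕ, 3 ≤ m → 1 ≤ n → ∃ K₁ : ℕ, ∀ K : ℕ, K₁ ≤ K → Pin8_3.CtrK m n K

theorem noSel6 (hD : DblE) (hQL : QLeb) (hC : CtrE) : NoSel :=
  Pin7_3.noSel_of_pinData hD (Pin8_3.pinData_of hQL hC)

/-- **S0362, version 6** -/
theorem s0362_6 (hD : DblE) (hQL : QLeb) (hC : CtrE)
    (m n : ℕ) (hm : 1 ≤ m) (hn : 1 ≤ n) (U : Set (EuclideanSpace ℝ (Fin (m + n))))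
    (hU : IsOpen U) (D : VarifoldData m (m + n)) (hDi : IsIntegralVarifoldIn U D)
    (hstat : IsStationaryIn U D) :
    dimH (singularSet m (m + n) U D) ≤ (m : ENNReal) - 1 :=
  main Pr_937.prodStep (Fa_694.fa Skel_884.hInt Skel_884.hOne) (noSel6 hD hQL hC)
    m n hm hn U hU D hDi hstat

/-- **S0363, version 6** -/
theorem s0363_6 (hD : DblE) (hQL : QLeb) (hC : CtrE)
    (m n : ℕ) (hm : 1 ≤ m) (hn : 1 ≤ n) (R : ℝ) (hR : 0 < R)
    (D : VarifoldData m (m + n + 1)) (hDi : IsIntegralVarifoldIn Set.univ D)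
    (hsph : ∀ i, D.chart i '' D.dom i ⊆ Metric.sphere (0 : EuclideanSpace ℝ (Fin (m + n + 1))) R)
    (hstat : ∀ X : EuclideanSpace ℝ (Fin (m + n + 1)) → EuclideanSpace ℝ (Fin (m + n + 1)),
      ContDiff ℝ 1 X → HasCompactSupport X →
      (∀ x ∈ Metric.sphere (0 : EuclideanSpace ℝ (Fin (m + n + 1))) R, inner ℝ (X x) x = 0) →
      firstVariation D X = 0) :
    μH[(m : ℝ)] (singularSet m (m + n + 1) Set.univ D) = 0 :=
  Co7_696.s0363_of (fun m n hm hn U hU D hD' hs => s0362_6 hD hQL hC m n hm hn U hU D hD' hs)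
    m n hm hn R hR D hDi hsph hstat

end Crest.Agent.R234.Main_456
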