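import Crest.Agent.R234.Stp1_518
import Crest.Agent.R234.Lk1_456

/-!
# Row 234, MONO-I (helper757; post 8754 of helper518)

* `II_mono` : `II l ≤ exp (m (l' - l)) II l'` for `l ≤ l'`, any chart which is `Ok` on `K`.
* `II_pos_mono` : `0 < II l → 0 < II l'`.
* `Mo.I_mono`, `Mo.I_pos_mono`, `Mo.I_nonneg` : the same for the functional `M.I` of a reference
  with `Gr M.S M.w` and a varifold which is stationary near the region.
-/

set_option autoImplicit false

open MeasureTheory Filter Topology Set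
open scoped ENNReal NNReal ContDiff
open Crest.GeometryTopology.Submanifold Crest.Agent.R234.Vf_884
open Crest.Agent.R234.Main_456 (Frame)
open Crest.Agent.R234.GL_394 Crest.Agent.R234.Cy_870

noncomputable section

namespace Crest.Agent.R234.Mono_757

variable {m n k : ℕ}

theorem g31_nonpos (t : ℝ) : GI_640.g31 t ≤ 0 := by
  unfold GI_640.g31
  have : 0 ≤ 3 * max 0 (1 - t) ^ 2 := by positivity
  linarith

/-- `-g31` is antitone. -/
theorem neg_g31_anti {s t : ℝ} (h : s ≤ t) : -GI_640.g31 t ≤ -GI_640.g31 s := by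
  unfold GI_640.g31
  rw [neg_neg, neg_neg]
  have h1 : max 0 (1 - t) ≤ max 0 (1 - s) := max_le_max le_rfl (by linarith)
  have h0 : (0 : ℝ) ≤ max 0 (1 - t) := le_max_left _ _
  gcongr

section II

variable {c : Ch m k} {K : Set (Euc k)} {D : Set (Euc m)} {V : Measure (Euc k × L k)}

theorem continuous_g31 : Continuous GI_640.g31 := by
  unfold GI_640.g31
  fun_prop

/-- the integral is monotone in the level. -/
theorem int_mono (h : Ok c K D) (hV : On V m K) {l l' : ℝ} (hl : l ≤ l') :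
    ∫ p, (2 * (c.f p.1 * c.mu (c.x p.1))) *
      (-2 * GI_640.g31 (Real.exp (-2 * l) * ‖c.x p.1‖ ^ 2)) ∂V ≤
    ∫ p, (2 * (c.f p.1 * c.mu (c.x p.1))) *
      (-2 * GI_640.g31 (Real.exp (-2 * l') * ‖c.x p.1‖ ^ 2)) ∂V := by
  have hq : Continuous fun t => -2 * GI_640.g31 t := continuous_const.mul continuous_g31
  refine integral_mono_ae
    (h.int hV (continuousOn_const.mul h.cfmu) hq l (F := fun p => 2 * (c.f p.1 * c.mu (c.x p.1))))
    (h.int hV (continuousOn_const.mul h.cfmu) hq l' (F := fun p => 2 * (c.f p.1 * c.mu (c.x p.1))))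
    ?_
  filter_upwards [hV.mem] with p hp
  have h1 : 0 ≤ 2 * (c.f p.1 * c.mu (c.x p.1)) :=
    mul_nonneg zero_le_two (mul_nonneg (h.f_nonneg hp.1) (h.mupos _ (h.mem _ hp.1)).le)
  refine mul_le_mul_of_nonneg_left ?_ h1
  have h2 : Real.exp (-2 * l') * ‖c.x p.1‖ ^ 2 ≤ Real.exp (-2 * l) * ‖c.x p.1‖ ^ 2 := by
    have : Real.exp (-2 * l') ≤ Real.exp (-2 * l) := Real.exp_le_exp.2 (by linarith)
    gcongr
  have h3 := neg_g31_anti h2
  linarith

/-- **MONO-I**, general chart. -/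
theorem II_mono (h : Ok c K D) (hV : On V m K) {l l' : ℝ} (hl : l ≤ l') :
    II c V GI_640.g31 l ≤ Real.exp (m * (l' - l)) * II c V GI_640.g31 l' := by
  rw [II_eq, II_eq, ← mul_assoc, ← Real.exp_add]
  have e : (m : ℝ) * (l' - l) + -m * l' = -m * l := by ring
  rw [e]
  exact mul_le_mul_of_nonneg_left (int_mono h hV hl) (Real.exp_pos _).le

theorem II_pos_mono (h : Ok c K D) (hV : On V m K) {l l' : ℝ} (hl : l ≤ l')
    (h0 : 0 < II c V GI_640.g31 l) : 0 < II c V GI_640.g31 l' := by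
  have h1 := h0.trans_le (II_mono h hV hl)
  exact (pos_iff_pos_of_mul_pos h1).1 (Real.exp_pos _)

theorem log_II_mono (h : Ok c K D) (hV : On V m K) {l l' : ℝ} (hl : l ≤ l')
    (h0 : 0 < II c V GI_640.g31 l) :
    Real.log (II c V GI_640.g31 l) ≤ Real.log (II c V GI_640.g31 l') + m * (l' - l) := by
  have h1 := Real.log_le_log h0 (II_mono h hV hl)
  rw [Real.log_mul (Real.exp_pos _).ne' (II_pos_mono h hV hl h0).ne', Real.log_exp] at h1
  linarith

end II

end Crest.Agent.R234.Mono_757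

namespace Crest.Agent.R234.Stp_518.Mo

open Crest.Agent.R234.Mono_757

variable {m n k : ℕ} {M : Mo m n k} {x : Euc k} {V : Measure (Euc k × L k)} {U : Set (Euc k)}

theorem reg_subset_tube (hg : Gi_456.Gr M.S M.w) (hf : Frame M.π M.ρ) :
    M.reg x ⊆ Gi_456.tube M.π M.ρ x M.S M.w :=
  hg.Kc_subset hf 0 (by have := M.S_pos; linarith)

theorem reg_compact (hg : Gi_456.Gr M.S M.w) : IsCompact (M.reg x) :=
  hg.isCompact_Kc 0 _ _

/-- the chart is `Ok` on the region. -/
theorem ok (hg : Gi_456.Gr M.S M.w) (hf : Frame M.π M.ρ) :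
    Ok (M.ch x) (M.reg x) univ :=
  hg.ok hf 0 (reg_compact hg) (reg_subset_tube hg hf)

theorem on_of_subset (hg : Gi_456.Gr M.S M.w) (hV : Stat m k U V)
    (hU : M.reg x ⊆ U) : On (M.VM x V) m (M.reg x) where
  fin := ⟨by
    unfold Mo.VM VK
    rw [Measure.restrict_apply_univ]
    exact hV.fin _ (reg_compact hg) hU⟩
  mem := by
    unfold Mo.VM VK
    have hmeas : MeasurableSet (M.reg x ×ˢ (univ : Set (Vf_884.L k))) :=
      (reg_compact hg).isClosed.measurableSet.prod MeasurableSet.univ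
    filter_upwards [ae_restrict_of_ae hV.conc, ae_restrict_mem hmeas] with p hp hp2
    exact ⟨hp2.1, hp⟩

theorem I_nonneg (hg : Gi_456.Gr M.S M.w) (hf : Frame M.π M.ρ)
    (hV : On (M.VM x V) m (M.reg x)) (l : ℝ) : 0 ≤ M.I x V l :=
  II_nonneg (ok hg hf) hV (fun t _ => g31_nonpos t) l

/-- **MONO-I** -/
theorem I_mono (hg : Gi_456.Gr M.S M.w) (hf : Frame M.π M.ρ)
    (hV : On (M.VM x V) m (M.reg x)) {l l' : ℝ} (hl : l ≤ l') :
    M.I x V l ≤ Real.exp (m * (l' - l)) * M.I x V l' :=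
  II_mono (ok hg hf) hV hl

theorem I_pos_mono (hg : Gi_456.Gr M.S M.w) (hf : Frame M.π M.ρ)
    (hV : On (M.VM x V) m (M.reg x)) {l l' : ℝ} (hl : l ≤ l') (h0 : 0 < M.I x V l) :
    0 < M.I x V l' :=
  II_pos_mono (ok hg hf) hV hl h0

theorem log_I_mono (hg : Gi_456.Gr M.S M.w) (hf : Frame M.π M.ρ)
    (hV : On (M.VM x V) m (M.reg x)) {l l' : ℝ} (hl : l ≤ l') (h0 : 0 < M.I x V l) :
    Real.log (M.I x V l) ≤ Real.log (M.I x V l') + m * (l' - l) :=
  log_II_mono (ok hg hf) hV hl h0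

end Crest.Agent.R234.Stp_518.Mo
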