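import Crest.Agent.R234.Mono1_757
import Crest.Agent.R234.Stp2_518
import Crest.Agent.R234.Mx17_397

/-!
# Row 234, MONO-I, part 2 (helper757): instance for the references of the chain

* `fderiv_w`, `fderiv2_w` : the derivatives of `M.w`.
* `exists_gr` : for every order `N ≥ 2` there is `κ₁ > 0` such that `MG N κ R u` with `κ ≤ κ₁` gives
  `Gr M.S M.w` and `‖M.w X‖ ≤ η S` (any `R`).
* `mono_sit` : `Sit`, `κ ≤ κ₁` ⟹ `0 ≤ I l`, `I l ≤ exp (m (l' - l)) I l'`, `0 < I l → 0 < I l'`, and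
  the logarithmic form, for all `l ≤ l'`.
-/

set_option autoImplicit false

open MeasureTheory Filter Topology Set
open scoped ENNReal NNReal ContDiff
open Crest.GeometryTopology.Submanifold Crest.Agent.R234.Vf_884
open Crest.Agent.R234.Main_456 (Frame)
open Crest.Agent.R234.MG_570 (MG)
open Crest.Agent.R234.GL_394 Crest.Agent.R234.Cy_870

noncomputable section

namespace Crest.Agent.R234.Stp_518.Mo

variable {m n k : ℕ} {M : Mo m n k}

theorem hasFDerivAt_w {X : Euc m} (hu : DifferentiableAt ℝ M.u (M.S⁻¹ • X)) :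
    HasFDerivAt M.w (fderiv ℝ M.u (M.S⁻¹ • X)) X := by
  have hS := M.S_pos
  have h1 : HasFDerivAt (fun X : Euc m => M.S⁻¹ • X)
      (M.S⁻¹ • ContinuousLinearMap.id ℝ (Euc m)) X :=
    (M.S⁻¹ • ContinuousLinearMap.id ℝ (Euc m)).hasFDerivAt
  have h2 := (hu.hasFDerivAt.comp X h1).const_smul M.S
  refine (h2.congr_fderiv ?_)
  ext1 v
  simp only [ContinuousLinearMap.smul_apply, ContinuousLinearMap.comp_apply,
    ContinuousLinearMap.id_apply, map_smul, smul_smul, mul_inv_cancel₀ hS.ne', one_smul]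

theorem fderiv_w (hu : Differentiable ℝ M.u) :
    fderiv ℝ M.w = fun X => fderiv ℝ M.u (M.S⁻¹ • X) :=
  funext fun _ => (hasFDerivAt_w (hu _)).fderiv

theorem norm_fderiv2_w (hu : Differentiable ℝ M.u) (hu2 : Differentiable ℝ (fderiv ℝ M.u))
    (X : Euc m) :
    ‖fderiv ℝ (fderiv ℝ M.w) X‖ ≤ M.S⁻¹ * ‖fderiv ℝ (fderiv ℝ M.u) (M.S⁻¹ • X)‖ := by
  have hS := M.S_pos
  rw [fderiv_w hu]
  have h1 : HasFDerivAt (fun X : Euc m => M.S⁻¹ • X)
      (M.S⁻¹ • ContinuousLinearMap.id ℝ (Euc m)) X :=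
    (M.S⁻¹ • ContinuousLinearMap.id ℝ (Euc m)).hasFDerivAt
  have h2 : HasFDerivAt (fun X : Euc m => fderiv ℝ M.u (M.S⁻¹ • X))
      ((fderiv ℝ (fderiv ℝ M.u) (M.S⁻¹ • X)) ∘L (M.S⁻¹ • ContinuousLinearMap.id ℝ (Euc m))) X :=
    (hu2 (M.S⁻¹ • X)).hasFDerivAt.comp X h1
  rw [h2.fderiv]
  refine (ContinuousLinearMap.opNorm_comp_le _ _).trans ?_
  rw [mul_comm]
  refine mul_le_mul_of_nonneg_right ?_ (norm_nonneg _)
  rw [norm_smul, Real.norm_of_nonneg (inv_pos.2 hS).le]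
  exact mul_le_of_le_one_right (inv_pos.2 hS).le ContinuousLinearMap.norm_id_le

end Crest.Agent.R234.Stp_518.Mo

namespace Crest.Agent.R234.Mono_757

open Crest.Agent.R234.Stp_518

theorem norm_fderiv_eq {m n : ℕ} (u : Euc m → Euc n) (y : Euc m) :
    ‖fderiv ℝ u y‖ = ‖iteratedFDeriv ℝ 1 u y‖ := (norm_iteratedFDeriv_one u).symm

theorem norm_fderiv2_eq {m n : ℕ} (u : Euc m → Euc n) (y : Euc m) :
    ‖fderiv ℝ (fderiv ℝ u) y‖ = ‖iteratedFDeriv ℝ 2 u y‖ := by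
  rw [← norm_iteratedFDeriv_fderiv (n := 1), norm_iteratedFDeriv_one]

/-- the references with small `κ` are graphs in the sense of `Gr`. -/
theorem exists_gr (m n N : ℕ) (hN : 2 ≤ N) {η : ℝ} (hη : 0 < η) : ∃ κ₁ : ℝ, 0 < κ₁ ∧
    ∀ (k : ℕ) (M : Mo m n k) (R : ℝ), M.κ ≤ κ₁ → MG N M.κ R M.u →
      Gi_456.Gr M.S M.w ∧ ∀ X, ‖M.w X‖ ≤ η * M.S := by
  obtain ⟨C, hC0, hC⟩ := Mx17_397.bdP m n N
  have hC1 : 0 < C + 1 := by linarith
  set δ : ℝ := min η (1 / 8) with hδ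
  have hδ0 : 0 < δ := lt_min hη (by norm_num)
  refine ⟨δ / (C + 1), by positivity, ?_⟩
  intro k M R hκ hM
  have hS := M.S_pos
  obtain ⟨hcd, hb⟩ := hC _ _ _ hM
  have hCκ : C * M.κ ≤ δ := by
    have h1 : C * M.κ ≤ C * (δ / (C + 1)) := mul_le_mul_of_nonneg_left hκ hC0
    have h2 : C * (δ / (C + 1)) ≤ (C + 1) * (δ / (C + 1)) :=
      mul_le_mul_of_nonneg_right (by linarith) (by positivity)
    have h3 : (C + 1) * (δ / (C + 1)) = δ := by field_simp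
    linarith
  have hcd4 : ContDiff ℝ 4 M.u := by
    refine hcd.of_le ?_
    have h4 : ((4 : ℕ) : ℕ∞) ≤ ((N + 2 : ℕ) : ℕ∞) := by
      have : (4 : ℕ) ≤ N + 2 := by omega
      exact_mod_cast this
    exact WithTop.coe_le_coe.2 h4
  have hd : Differentiable ℝ M.u := hcd4.differentiable (by norm_num)
  have hd2 : Differentiable ℝ (fderiv ℝ M.u) :=
    (hcd4.fderiv_right (m := 3) (by norm_num)).differentiable (by norm_num)
  have b1 : ∀ y, ‖fderiv ℝ M.u y‖ ≤ 1 / 8 := by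
    intro y
    rw [norm_fderiv_eq]
    exact (hb 1 (by omega) y).trans (hCκ.trans (min_le_right _ _))
  have b2 : ∀ y, ‖fderiv ℝ (fderiv ℝ M.u) y‖ ≤ 1 / 8 := by
    intro y
    rw [norm_fderiv2_eq]
    exact (hb 2 (by omega) y).trans (hCκ.trans (min_le_right _ _))
  refine ⟨⟨hS, ?_, ?_, ?_⟩, ?_⟩
  · show ContDiff ℝ 4 (fun X : Euc m => M.S • M.u (M.S⁻¹ • X))
    exact (hcd4.comp (contDiff_const_smul _)).const_smul _
  · intro X
    rw [Mo.fderiv_w hd]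
    exact b1 _
  · intro X
    refine (Mo.norm_fderiv2_w hd hd2 X).trans ?_
    have h1 := b2 (M.S⁻¹ • X)
    have h2 : M.S⁻¹ * ‖fderiv ℝ (fderiv ℝ M.u) (M.S⁻¹ • X)‖ ≤ M.S⁻¹ * (1 / 8) :=
      mul_le_mul_of_nonneg_left h1 (inv_pos.2 hS).le
    refine h2.trans (le_of_eq ?_)
    field_simp
  · intro X
    show ‖M.S • M.u (M.S⁻¹ • X)‖ ≤ _
    rw [norm_smul, Real.norm_of_nonneg hS.le, mul_comm]
    refine mul_le_mul_of_nonneg_right ?_ hS.le
    have h1 := hb 0 (by omega) (M.S⁻¹ • X)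
    rw [norm_iteratedFDeriv_zero] at h1
    exact h1.trans (hCκ.trans (min_le_left _ _))

/-- the region lies in the ball of radius `3 S`. -/
theorem reg_subset_ball {m n k : ℕ} {M : Mo m n k} {x : Euc k} (hg : Gi_456.Gr M.S M.w)
    (hf : Frame M.π M.ρ) (h0 : ‖M.w 0‖ ≤ 1 / 8 * M.S) :
    M.reg x ⊆ Metric.closedBall x (3 * M.S) := by
  have hS := M.S_pos
  intro z hz
  have h1 := hg.Kc_subset_closedBall hf 0 (R := 2 * M.S) (t := M.S / 2) (x := x)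
    (by linarith) hz
  rw [mem_closedBall_iff_norm] at h1 ⊢
  have h2 : ‖Gi_456.pm M.π M.ρ x M.w 0 - x‖ ≤ 1 / 8 * M.S := by
    have e : Gi_456.pm M.π M.ρ x M.w 0 - x = ContinuousLinearMap.adjoint M.π 0 + ContinuousLinearMap.adjoint M.ρ (M.w 0) := by
      unfold Gi_456.pm
      abel
    have h3 := Gi_456.norm_sq_frame hf 0 (M.w 0)
    rw [← e, norm_zero] at h3
    have h4 : ‖Gi_456.pm M.π M.ρ x M.w 0 - x‖ ^ 2 ≤ (1 / 8 * M.S) ^ 2 := by
      rw [h3]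
      have := pow_le_pow_left₀ (norm_nonneg _) h0 2
      linarith
    exact abs_le_of_sq_le_sq' h4 (by positivity) |>.2
  have h5 : z - x = (z - Gi_456.pm M.π M.ρ x M.w 0) + (Gi_456.pm M.π M.ρ x M.w 0 - x) := by abel
  rw [h5]
  refine (norm_add_le _ _).trans ?_
  linarith

/-- **MONO-I** for the references of the chain. -/
theorem mono_sit (m n N : ℕ) (hN : 2 ≤ N) : ∃ κ₁ : ℝ, 0 < κ₁ ∧
    ∀ (k : ℕ) (U : Set (Euc k)) (D : VarifoldData m k) (Q : ℕ) (x : Euc k) (M : Mo m n k)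
      (ε Λ R : ℝ), Sit U D Q x M ε Λ → M.κ ≤ κ₁ → MG N M.κ R M.u →
      On (M.VM x (VD D)) m (M.reg x) ∧ (∀ l, 0 ≤ M.I x (VD D) l) ∧
      ∀ l l' : ℝ, l ≤ l' →
        M.I x (VD D) l ≤ Real.exp (m * (l' - l)) * M.I x (VD D) l' ∧
        (0 < M.I x (VD D) l → 0 < M.I x (VD D) l' ∧
          Real.log (M.I x (VD D) l) ≤ Real.log (M.I x (VD D) l') + m * (l' - l)) := by
  obtain ⟨κ₁, hκ₁, hgr⟩ := exists_gr m n N hN (η := 1 / 8) (by norm_num)
  refine ⟨κ₁, hκ₁, ?_⟩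
  intro k U D Q x M ε Λ R hs hκ hM
  obtain ⟨hg, hw⟩ := hgr k M R hκ hM
  have hf := hs.pack.frame
  have hS := M.S_pos
  have hsub : M.reg x ⊆ U := by
    refine (reg_subset_ball hg hf (hw 0)).trans ?_
    refine (Metric.closedBall_subset_closedBall ?_).trans hs.sub
    linarith
  have hon : On (M.VM x (VD D)) m (M.reg x) :=
    Mo.on_of_subset hg (stat_VD hs.int hs.st) hsub
  refine ⟨hon, fun l => Mo.I_nonneg hg hf hon l, fun l l' hl => ?_⟩
  exact ⟨Mo.I_mono hg hf hon hl, fun h0 => ⟨Mo.I_pos_mono hg hf hon hl h0,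
    Mo.log_I_mono hg hf hon hl h0⟩⟩

end Crest.Agent.R234.Mono_757
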