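import Crest.Agent.R234.Mx9_397

/-!
# Row 234, VF-MINEX part 10 (helper397): interior regularity, one derivative at a time

`gain`: `u ∈ (X F (N+2))^κ` small and minimal where `χ ≠ 0` ⟹ `χ u = z`, `z ∈ (X F (N+3))^κ`,
`‖z‖ ≤ C ‖u‖`.
-/

set_option autoImplicit false
set_option linter.unusedSectionVars false

open MeasureTheory Complex Filter Real
open scoped ContDiff Topology InnerProductSpace FourierTransform SchwartzMap

noncomputable section

namespace Crest.Agent.R234.Mx10_397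

open Crest.Agent.R086.Wie Crest.Agent.R234.Mx1_397 Crest.Agent.R234.Mx2_397
  Crest.Agent.R234.Mx3_397 Crest.Agent.R234.Mx4_397 Crest.Agent.R234.Mx5_397
  Crest.Agent.R234.Mx6_397 Crest.Agent.R234.Mx8_397 Crest.Agent.R234.Mx9_397
  Crest.Agent.R234.Ell1_3

section lin

variable {F : Type*} [NormedAddCommGroup F] [InnerProductSpace ℝ F] [FiniteDimensional ℝ F]
  [MeasurableSpace F] [BorelSpace F]
variable {ι κ : Type*} [Fintype ι] [Fintype κ]

theorem inclV_mul {M N : ℕ} (h : M ≤ N) (a b : X F N) :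
    inclV h (a * b) = inclV h a * inclV h b :=
  ev_inj fun x => by rw [ev_inclV, ev_mul, ev_mul, ev_inclV, ev_inclV]

theorem inclV_D {M N : ℕ} (h : M ≤ N) (v : F) (a : X F (N + 1)) :
    inclV h (D v a) = D v (inclV (Nat.succ_le_succ h) a) := by
  refine XG.ext ?_
  filter_upwards [den_inclV h (D v a), den_mlt (measurable_dsym v) (dsym_hC v) a,
    den_mlt (measurable_dsym v) (dsym_hC v) (inclV (Nat.succ_le_succ h) a),
    den_inclV (Nat.succ_le_succ h) a] with ξ h1 h2 h3 h4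
  rw [h1]
  show XG.den (mlt (dsym v) (measurable_dsym v) (2 * π * ‖v‖) (dsym_hC v) a) ξ = _
  rw [h2]
  show _ = XG.den (mlt (dsym v) (measurable_dsym v) (2 * π * ‖v‖) (dsym_hC v)
    (inclV (Nat.succ_le_succ h) a)) ξ
  rw [h3, h4]

theorem ev_D_mul {N : ℕ} (v : F) (a b : X F (N + 1)) (x : F) :
    ev (D v (a * b)) x = ev (D v a) x * ev b x + ev a x * ev (D v b) x := by
  rw [← fderiv_ev, ← fderiv_ev, ← fderiv_ev]
  have h1 : (fun x => ev (a * b) x) = fun x => ev a x * ev b x := funext fun x => ev_mul a b x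
  rw [h1]
  have h2 := (differentiable_ev a x).hasFDerivAt.mul (differentiable_ev b x).hasFDerivAt
  have h3 : fderiv ℝ (fun x => ev a x * ev b x) x = _ := h2.fderiv
  rw [h3]
  simp only [add_apply, smul_apply, smul_eq_mul]
  ring

theorem D_mul {N : ℕ} (v : F) (a b : X F (N + 1)) :
    D v (a * b) = D v a * inclV (Nat.le_succ N) b + inclV (Nat.le_succ N) a * D v b :=
  ev_inj fun x => by
    rw [ev_D_mul, ev_add, ev_mul, ev_mul, ev_inclV, ev_inclV]

/-- second derivatives of a product -/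
theorem ev_DD_mul {N : ℕ} (v w : F) (a b : X F (N + 2)) (x : F) :
    ev (D v (D w (a * b))) x = ev (D v (D w a)) x * ev b x + ev (D w a) x * ev (D v b) x
      + ev (D v a) x * ev (D w b) x + ev a x * ev (D v (D w b)) x := by
  rw [D_mul w a b, map_add, ev_add, ev_D_mul, ev_D_mul, ← inclV_D (Nat.le_succ N),
    ← inclV_D (Nat.le_succ N), ev_inclV, ev_inclV, ev_inclV, ev_inclV]
  ring

theorem den_sum {N : ℕ} {τ : Type*} (s : Finset τ) (a : τ → X F N) :
    XG.den (∑ i ∈ s, a i) =ᵐ[volume] fun ξ => ∑ i ∈ s, XG.den (a i) ξ := by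
  classical
  induction s using Finset.induction_on with
  | empty =>
    simp only [Finset.sum_empty]
    exact XG.den_zero
  | insert i s hi ih =>
    rw [Finset.sum_insert hi]
    filter_upwards [XG.den_add (a i) (∑ i ∈ s, a i), ih] with ξ h1 h2
    rw [h1, h2, Finset.sum_insert hi]

/-! ### the smoothing operator -/

theorem contDiff_psi (c : F) : ContDiff ℝ ∞ (psi c) := (bmp c).contDiff_normed

theorem compact_psi (c : F) : HasCompactSupport (psi c) := (bmp c).hasCompactSupport_normed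

theorem abs_ph_le (c ξ : F) : |ph c ξ| ≤ ‖𝓕 (toS (psi c) (compact_psi c) (contDiff_psi c)) ξ‖ := by
  rw [SchwartzMap.fourier_coe, Real.fourier_eq]
  have h1 : (ph c ξ) = (∫ v, Real.fourierChar (-⟪v, ξ⟫_ℝ) •
      (toS (psi c) (compact_psi c) (contDiff_psi c)) v).re := by
    unfold ph
    have h2 : ∀ v : F, Real.cos (2 * π * ⟪ξ, v⟫_ℝ) * psi c v
        = (Real.fourierChar (-⟪v, ξ⟫_ℝ) • (toS (psi c) (compact_psi c) (contDiff_psi c)) v).re := by
      intro v
      rw [toS_apply, Circle.smul_def, smul_eq_mul, Complex.re_mul_ofReal, Real.fourierChar_apply,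
        real_inner_comm]
      congr 1
      rw [Complex.exp_ofReal_mul_I_re, mul_neg, Real.cos_neg]
    rw [integral_congr_ae (Eventually.of_forall h2)]
    have h3 : Integrable fun v : F => (toS (psi c) (compact_psi c) (contDiff_psi c)) v :=
      (toS (psi c) (compact_psi c) (contDiff_psi c)).integrable
    exact Complex.reCLM.integral_comp_comm ((Real.fourierIntegral_convergent_iff ξ).2 h3)
  rw [h1]
  exact Complex.abs_re_le_norm _

theorem ph_decay (c : F) (M : ℕ) : ∃ C : ℝ, 0 ≤ C ∧ ∀ ξ, |ph c ξ| * wt M ξ ≤ C := by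
  set φ : 𝓢(F, ℂ) := 𝓕 (toS (psi c) (compact_psi c) (contDiff_psi c)) with hφ
  refine ⟨2 ^ M * ((Finset.Iic (M, 0)).sup (schwartzSeminormFamily ℂ F ℂ) φ),
    by positivity, fun ξ => ?_⟩
  have h := SchwartzMap.one_add_le_sup_seminorm_apply (𝕜 := ℂ) (m := (M, 0)) (k := M)
    (n := 0) le_rfl le_rfl φ ξ
  rw [norm_iteratedFDeriv_zero] at h
  unfold wt
  rw [mul_comm]
  refine (mul_le_mul_of_nonneg_left (abs_ph_le c ξ) (by positivity)).trans h

/-- constant of the smoothing operator -/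
def cPs (c : F) (M : ℕ) : ℝ := (ph_decay c M).choose

theorem cPs_nonneg (c : F) (M : ℕ) : 0 ≤ cPs c M := (ph_decay c M).choose_spec.1

theorem ph_hC (c : F) {M N : ℕ} (ξ : F) : ‖((ph c ξ : ℝ) : ℂ)‖ * wt M ξ ≤ cPs c M * wt N ξ := by
  have h := (ph_decay c M).choose_spec.2 ξ
  rw [Complex.norm_real, Real.norm_eq_abs]
  refine h.trans ?_
  have := one_le_wt N ξ
  have h0 := cPs_nonneg c M
  unfold cPs at *
  nlinarith

/-- smoothing: convolution with the (symmetrised) bump -/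
def Ps (c : F) {M N : ℕ} : X F N →L[ℂ] X F M :=
  mlt (fun ξ => ((ph c ξ : ℝ) : ℂ)) (Complex.measurable_ofReal.comp (continuous_ph c).measurable)
    (cPs c M) (ph_hC c)

theorem den_Ps (c : F) {M N : ℕ} (a : X F N) :
    XG.den (Ps c a : X F M) =ᵐ[volume] fun ξ => (ph c ξ : ℂ) * XG.den a ξ := den_mlt _ _ a

theorem norm_Ps_le (c : F) {M N : ℕ} (a : X F N) : ‖(Ps c a : X F M)‖ ≤ cPs c M * ‖a‖ :=
  norm_mlt_le _ _ (cPs_nonneg c M) a

theorem den_G {c : F} (hc : ‖c‖ = 11 / 2) {N : ℕ} (a : X F N) :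
    XG.den (G hc a) =ᵐ[volume] fun ξ => gsym c ξ * XG.den a ξ := den_mlt _ _ a

theorem inclV_G {c : F} (hc : ‖c‖ = 11 / 2) {M N : ℕ} (h : M ≤ N) (a : X F N) :
    inclV (Nat.add_le_add_right h 2) (G hc a) = G hc (inclV h a) := by
  refine XG.ext ?_
  filter_upwards [den_inclV (Nat.add_le_add_right h 2) (G hc a), den_G hc a,
    den_G hc (inclV h a), den_inclV h a] with ξ h1 h2 h3 h4
  rw [h1, h2, h3, h4]

theorem inclV_Ps (c : F) {M M' N : ℕ} (h : M ≤ M') (a : X F N) :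
    inclV h (Ps c a : X F M') = (Ps c a : X F M) := by
  refine XG.ext ?_
  filter_upwards [den_inclV h (Ps c a : X F M'), den_Ps (M := M') c a, den_Ps (M := M) c a]
    with ξ h1 h2 h3
  rw [h1, h2, h3]

/-- `a = G Δ a + ψ * a` -/
theorem G_lap {c : F} (hc : ‖c‖ = 11 / 2) (e : OrthonormalBasis ι ℝ F) {N : ℕ} (a : X F (N + 2)) :
    a = G hc (∑ i, D (e i) (D (e i) a)) + Ps c a := by
  refine XG.ext ?_
  have hDD : ∀ᵐ ξ, ∀ i, XG.den (D (e i) (D (e i) a)) ξ
      = dsym (e i) ξ * (dsym (e i) ξ * XG.den a ξ) :=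
    (ae_all_iff).2 fun i => den_DD (e i) (e i) a
  filter_upwards [XG.den_add (G hc (∑ i, D (e i) (D (e i) a))) (Ps c a : X F (N + 2)),
    den_G hc (∑ i, D (e i) (D (e i) a)), den_sum Finset.univ fun i => D (e i) (D (e i) a),
    den_Ps (M := N + 2) c a, hDD] with ξ h1 h2 h3 h4 h5
  rw [h1, h2, h3, h4, Finset.sum_congr rfl fun i _ => h5 i]
  have h6 : gsym c ξ * ∑ i, dsym (e i) ξ * (dsym (e i) ξ * XG.den a ξ)
      = (∑ i, dsym (e i) ξ * (dsym (e i) ξ * gsym c ξ)) * XG.den a ξ := by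
    rw [Finset.sum_mul, Finset.mul_sum]
    exact Finset.sum_congr rfl fun i _ => by ring
  rw [h6, dsym_gsym c e]
  ring

/-! ### coefficients one level up -/

/-- Gram matrix at level `N+1` -/
def H1 {N : ℕ} (e : OrthonormalBasis ι ℝ F) (u : κ → X F (N + 2)) : ι → ι → X F (N + 1) :=
  fun i j => ∑ α, D (e i) (u α) * D (e j) (u α)

theorem norm_H1_le {N : ℕ} (e : OrthonormalBasis ι ℝ F) (u : κ → X F (N + 2)) :
    ‖H1 e u‖ ≤ cH κ * ‖u‖ ^ 2 := by
  have hp := Real.pi_pos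
  have hc := cH_nonneg (κ := κ)
  refine (pi_norm_le_iff_of_nonneg (by positivity)).2 fun i =>
    (pi_norm_le_iff_of_nonneg (by positivity)).2 fun j => ?_
  unfold H1
  have hD : ∀ i α, ‖D (e i) (u α)‖ ≤ 2 * π * ‖u‖ := fun i α => by
    refine (norm_D_le (e i) (u α)).trans ?_
    rw [e.norm_eq_one, mul_one]
    exact mul_le_mul_of_nonneg_left (norm_le_pi_norm u α) (by positivity)
  calc ‖∑ α, D (e i) (u α) * D (e j) (u α)‖ ≤ ∑ _α : κ, (2 * π * ‖u‖) * (2 * π * ‖u‖) := by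
        refine (norm_sum_le _ _).trans (Finset.sum_le_sum fun α _ => ?_)
        exact (norm_mul_le _ _).trans (mul_le_mul (hD i α) (hD j α) (norm_nonneg _) (by positivity))
    _ = _ := by
        rw [Finset.sum_const, Finset.card_univ, nsmul_eq_mul]
        unfold cH
        ring

theorem Sm.card_le1 {r : ℝ} (hr : Sm ι κ r) {N : ℕ} (e : OrthonormalBasis ι ℝ F)
    {u : κ → X F (N + 2)} (hu : ‖u‖ ≤ r) : Fintype.card ι * ‖H1 e u‖ ≤ 1 / 2 := by
  have hc := cH_nonneg (κ := κ)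
  refine le_trans ?_ hr
  refine mul_le_mul_of_nonneg_left ((norm_H1_le e u).trans ?_) (by positivity)
  gcongr

theorem incl_H1 {N : ℕ} (e : OrthonormalBasis ι ℝ F) (u : κ → X F (N + 2)) (i j : ι) :
    inclV (Nat.le_succ N) (H1 e u i j) = Hm e u i j := by
  unfold H1 Hm
  rw [map_sum]
  exact Finset.sum_congr rfl fun α _ => inclV_mul _ _ _

theorem incl_qi {r : ℝ} (hr : Sm ι κ r) {N : ℕ} (e : OrthonormalBasis ι ℝ F)
    {u : κ → X F (N + 2)} (hu : ‖u‖ ≤ r) (i j : ι) :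
    inclV (Nat.le_succ N) (qi (H1 e u) i j) = qi (Hm e u) i j := by
  have h1 : (fun i j => inclV (Nat.le_succ N) (qi (H1 e u) i j)) = qi (Hm e u) := by
    refine qi_unique (hr.card_le e hu) ?_
    funext i j
    have h2 : qi (H1 e u) i j = -H1 e u i j - ∑ l, H1 e u i l * qi (H1 e u) l j :=
      congrFun (congrFun (qi_eq (Sm.card_le1 hr e hu)) i) j
    show inclV (Nat.le_succ N) (qi (H1 e u) i j) = -Hm e u i j
      - ∑ l, Hm e u i l * inclV (Nat.le_succ N) (qi (H1 e u) l j)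
    conv_lhs => rw [h2]
    rw [map_sub, map_neg, map_sum, incl_H1]
    congr 1
    exact Finset.sum_congr rfl fun l _ => by rw [inclV_mul, incl_H1]
  exact congrFun (congrFun h1 i) j

end lin

section step

variable {F V : Type} [NormedAddCommGroup F] [InnerProductSpace ℝ F] [FiniteDimensional ℝ F]
  [MeasurableSpace F] [BorelSpace F]
  [NormedAddCommGroup V] [InnerProductSpace ℝ V] [FiniteDimensional ℝ V]
variable {κ : Type*} [Fintype κ]

/-- the cut-off in `X F M` -/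
def cs (M : ℕ) {χ : F → ℝ} (hχ : IsCut χ) : X F M := toX M (toS χ hχ.compact hχ.smooth)

theorem ev_cs (M : ℕ) {χ : F → ℝ} (hχ : IsCut χ) (x : F) : ev (cs M hχ) x = (χ x : ℂ) := by
  unfold cs
  rw [ev_toX, toS_apply]

theorem star_cs (M : ℕ) {χ : F → ℝ} (hχ : IsCut χ) : star (cs M hχ) = cs M hχ :=
  star_toX_toS M _ _ _

theorem inclV_cs {M N : ℕ} (h : M ≤ N) {χ : F → ℝ} (hχ : IsCut χ) :
    inclV h (cs N hχ) = cs M hχ := ev_inj fun x => by rw [ev_inclV, ev_cs, ev_cs]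

local notation "eF" => stdOrthonormalBasis ℝ F

/-- right side of the equation of `χ u`, level `N+1` -/
def FX {N : ℕ} {χ : F → ℝ} (hχ : IsCut χ) (u : κ → X F (N + 2)) : κ → X F (N + 1) := fun α =>
  ∑ i, ((2 : ℂ) • (D (eF i) (cs (N + 2) hχ) * D (eF i) (u α))
      + inclV (Nat.le_succ (N + 1)) (u α) * D (eF i) (D (eF i) (cs (N + 3) hχ)))
    + ∑ i, ∑ j, qi (H1 (eF) u) i j * (D (eF i) (cs (N + 2) hχ) * D (eF j) (u α)
      + D (eF j) (cs (N + 2) hχ) * D (eF i) (u α)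
      + inclV (Nat.le_succ (N + 1)) (u α) * D (eF i) (D (eF j) (cs (N + 3) hχ)))

/-- the constant of `FX` -/
def cF (N : ℕ) {χ : F → ℝ} (hχ : IsCut χ) : ℝ :=
  (Module.finrank ℝ F + (Module.finrank ℝ F) ^ 2 * 1) *
    (2 * (2 * π) ^ 2 * ‖cs (N + 2) hχ‖ + (2 * π) ^ 2 * ‖cs (N + 3) hχ‖)

theorem norm_FX_le {r : ℝ} (hr : Sm (Fin (Module.finrank ℝ F)) κ r) {N : ℕ} {χ : F → ℝ}
    (hχ : IsCut χ) {u : κ → X F (N + 2)} (hu : ‖u‖ ≤ r) : ‖FX hχ u‖ ≤ cF N hχ * ‖u‖ := by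
  have hp := Real.pi_pos
  have hcF : 0 ≤ cF N hχ := by unfold cF; positivity
  set A := 2 * (2 * π) ^ 2 * ‖cs (N + 2) hχ‖ + (2 * π) ^ 2 * ‖cs (N + 3) hχ‖ with hA
  have hA0 : 0 ≤ A := by positivity
  refine (pi_norm_le_iff_of_nonneg (by positivity)).2 fun α => ?_
  have h1 : ∀ i, ‖D (eF i) (cs (N + 2) hχ)‖ ≤ 2 * π * ‖cs (N + 2) hχ‖ := fun i => by
    refine (norm_D_le _ _).trans ?_
    rw [(eF).norm_eq_one, mul_one]
  have h2 : ∀ i, ‖D (eF i) (u α)‖ ≤ 2 * π * ‖u‖ := fun i => by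
    refine (norm_D_le _ _).trans ?_
    rw [(eF).norm_eq_one, mul_one]
    exact mul_le_mul_of_nonneg_left (norm_le_pi_norm u α) (by positivity)
  have h3 : ∀ i j, ‖D (eF i) (D (eF j) (cs (N + 3) hχ))‖ ≤ (2 * π) ^ 2 * ‖cs (N + 3) hχ‖ :=
    fun i j => by
      refine (norm_D_le _ _).trans ?_
      rw [(eF).norm_eq_one, mul_one]
      have := norm_D_le (eF j) (cs (N + 3) hχ)
      rw [(eF).norm_eq_one, mul_one] at this
      calc _ ≤ 2 * π * (2 * π * ‖cs (N + 3) hχ‖) := mul_le_mul_of_nonneg_left this (by positivity)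
        _ = _ := by ring
  have h4 : ‖inclV (Nat.le_succ (N + 1)) (u α)‖ ≤ ‖u‖ :=
    (norm_inclV_le _ _).trans (norm_le_pi_norm u α)
  have h5 : ∀ i j, ‖D (eF i) (cs (N + 2) hχ) * D (eF j) (u α)
      + D (eF j) (cs (N + 2) hχ) * D (eF i) (u α)
      + inclV (Nat.le_succ (N + 1)) (u α) * D (eF i) (D (eF j) (cs (N + 3) hχ))‖ ≤ A * ‖u‖ :=
    fun i j => by
      calc _ ≤ ‖D (eF i) (cs (N + 2) hχ)‖ * ‖D (eF j) (u α)‖
            + ‖D (eF j) (cs (N + 2) hχ)‖ * ‖D (eF i) (u α)‖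
            + ‖inclV (Nat.le_succ (N + 1)) (u α)‖ * ‖D (eF i) (D (eF j) (cs (N + 3) hχ))‖ :=
            (norm_add_le _ _).trans (add_le_add ((norm_add_le _ _).trans
              (add_le_add (norm_mul_le _ _) (norm_mul_le _ _))) (norm_mul_le _ _))
        _ ≤ (2 * π * ‖cs (N + 2) hχ‖) * (2 * π * ‖u‖) + (2 * π * ‖cs (N + 2) hχ‖) * (2 * π * ‖u‖)
            + ‖u‖ * ((2 * π) ^ 2 * ‖cs (N + 3) hχ‖) :=
            add_le_add (add_le_add (mul_le_mul (h1 i) (h2 j) (norm_nonneg _) (by positivity))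
              (mul_le_mul (h1 j) (h2 i) (norm_nonneg _) (by positivity)))
              (mul_le_mul h4 (h3 i j) (norm_nonneg _) (by positivity))
        _ = _ := by rw [hA]; ring
  have h6 : ∀ i, ‖(2 : ℂ) • (D (eF i) (cs (N + 2) hχ) * D (eF i) (u α))
      + inclV (Nat.le_succ (N + 1)) (u α) * D (eF i) (D (eF i) (cs (N + 3) hχ))‖ ≤ A * ‖u‖ :=
    fun i => by
      calc _ ≤ 2 * (‖D (eF i) (cs (N + 2) hχ)‖ * ‖D (eF i) (u α)‖)
            + ‖inclV (Nat.le_succ (N + 1)) (u α)‖ * ‖D (eF i) (D (eF i) (cs (N + 3) hχ))‖ := by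
            refine (norm_add_le _ _).trans (add_le_add ?_ (norm_mul_le _ _))
            rw [norm_smul, Complex.norm_two]
            exact mul_le_mul_of_nonneg_left (norm_mul_le _ _) (by norm_num)
        _ ≤ 2 * ((2 * π * ‖cs (N + 2) hχ‖) * (2 * π * ‖u‖))
            + ‖u‖ * ((2 * π) ^ 2 * ‖cs (N + 3) hχ‖) :=
            add_le_add (mul_le_mul_of_nonneg_left
              (mul_le_mul (h1 i) (h2 i) (norm_nonneg _) (by positivity)) (by norm_num))
              (mul_le_mul h4 (h3 i i) (norm_nonneg _) (by positivity))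
        _ = _ := by rw [hA]; ring
  have hn : (Module.finrank ℝ F : ℝ) = 0 ∨ (1 : ℝ) ≤ Module.finrank ℝ F := by
    rcases Nat.eq_zero_or_pos (Module.finrank ℝ F) with h | h
    · left; exact_mod_cast h
    · right; exact_mod_cast h
  have h7 : (Module.finrank ℝ F : ℝ) * ‖qi (H1 (eF) u)‖ ≤ 1 := by
    have := card_norm_qi_le (Sm.card_le1 hr (eF) hu)
    rwa [Fintype.card_fin] at this
  unfold FX
  calc _ ≤ ∑ i : Fin (Module.finrank ℝ F), A * ‖u‖
        + ∑ i : Fin (Module.finrank ℝ F), ∑ j : Fin (Module.finrank ℝ F),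
          ‖qi (H1 (eF) u)‖ * (A * ‖u‖) := by
        refine (norm_add_le _ _).trans (add_le_add ((norm_sum_le _ _).trans
          (Finset.sum_le_sum fun i _ => h6 i)) ((norm_sum_le _ _).trans
          (Finset.sum_le_sum fun i _ => (norm_sum_le _ _).trans
          (Finset.sum_le_sum fun j _ => ?_))))
        exact (norm_mul_le _ _).trans (mul_le_mul (norm_ent _ i j) (h5 i j) (norm_nonneg _)
          (norm_nonneg _))
    _ = (Module.finrank ℝ F) * (A * ‖u‖) + (Module.finrank ℝ F) *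
          ((Module.finrank ℝ F * ‖qi (H1 (eF) u)‖) * (A * ‖u‖)) := by
        simp only [Finset.sum_const, Finset.card_univ, Fintype.card_fin, nsmul_eq_mul]
        ring
    _ ≤ (Module.finrank ℝ F) * (A * ‖u‖) + (Module.finrank ℝ F) ^ 2 * (1 * (A * ‖u‖)) := by
        have h8 : 0 ≤ A * ‖u‖ := by positivity
        have h9 : (Module.finrank ℝ F : ℝ) ≤ (Module.finrank ℝ F : ℝ) ^ 2 := by
          rcases hn with h | h
          · rw [h]; norm_num
          · nlinarith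
        refine add_le_add le_rfl ?_
        calc _ ≤ (Module.finrank ℝ F : ℝ) * (1 * (A * ‖u‖)) := by gcongr
          _ ≤ _ := by gcongr
    _ = _ := by unfold cF; ring

/-- the cut-off solution at level `N+2` -/
def vX {N : ℕ} {χ : F → ℝ} (hχ : IsCut χ) (u : κ → X F (N + 2)) : κ → X F (N + 2) :=
  fun α => cs (N + 2) hχ * u α

theorem eq_vX (b : OrthonormalBasis κ ℝ V) {r : ℝ} (hr : Sm (Fin (Module.finrank ℝ F)) κ r)
    {N : ℕ} {χ : F → ℝ} (hχ : IsCut χ) {u : κ → X F (N + 2)} (hu1 : ‖u‖ ≤ r)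
    (hu : ∀ α, star (u α) = u α) (hM : ∀ x, χ x ≠ 0 → msop (syn b u) x = 0) (α : κ) :
    ∑ i, D (eF i) (D (eF i) (vX hχ u α)) = inclV (Nat.le_succ N) (FX hχ u α)
      - ∑ i, ∑ j, qi (Hm (eF) u) i j * Qd (eF) (vX hχ u) i j α := by
  refine ev_inj fun x => ?_
  have hreal := ev_real (star_MX hr (eF) hu1 hu α) x
  have hzero : (χ x : ℂ) * ev (MX (eF) u α) x = 0 := by
    rw [← hreal, ev_MX b hr hu1 hu]
    by_cases h : χ x = 0
    · rw [h, Complex.ofReal_zero, zero_mul]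
    · rw [hM x h, inner_zero_right, Complex.ofReal_zero, mul_zero]
  have hv : ∀ i j, ev (D (eF i) (D (eF j) (vX hχ u α))) x
      = ev (D (eF i) (D (eF j) (cs (N + 2) hχ))) x * ev (u α) x
        + ev (D (eF j) (cs (N + 2) hχ)) x * ev (D (eF i) (u α)) x
        + ev (D (eF i) (cs (N + 2) hχ)) x * ev (D (eF j) (u α)) x
        + ev (cs (N + 2) hχ) x * ev (D (eF i) (D (eF j) (u α))) x := fun i j =>
    ev_DD_mul _ _ _ _ x
  have hc3 : ∀ i j, ev (D (eF i) (D (eF j) (cs (N + 3) hχ))) x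
      = ev (D (eF i) (D (eF j) (cs (N + 2) hχ))) x := fun i j => by
    rw [← inclV_cs (Nat.le_succ (N + 2)) hχ, ← inclV_D (Nat.le_succ (N + 1)),
      ← inclV_D (Nat.le_succ N), ev_inclV]
  have hk : ∀ i j, ev (qi (H1 (eF) u) i j) x = ev (qi (Hm (eF) u) i j) x := fun i j => by
    rw [← incl_qi hr (eF) hu1, ev_inclV]
  rw [ev_sum, ev_sub, ev_inclV]
  unfold FX
  rw [ev_add, ev_sum, ev_sum, ev_sum]
  have e1 : ∑ i, ev (D (eF i) (D (eF i) (vX hχ u α))) x
      = ∑ i, ev ((2 : ℂ) • (D (eF i) (cs (N + 2) hχ) * D (eF i) (u α))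
        + inclV (Nat.le_succ (N + 1)) (u α) * D (eF i) (D (eF i) (cs (N + 3) hχ))) x
        + (χ x : ℂ) * ∑ i, ev (Qd (eF) u i i α) x := by
    rw [Finset.mul_sum, ← Finset.sum_add_distrib]
    refine Finset.sum_congr rfl fun i _ => ?_
    rw [hv, ev_add, ev_smul, ev_mul, ev_mul, ev_inclV, hc3, ev_cs]
    unfold Qd
    ring
  have e2 : ∑ i, ev (∑ j, qi (H1 (eF) u) i j * (D (eF i) (cs (N + 2) hχ) * D (eF j) (u α)
        + D (eF j) (cs (N + 2) hχ) * D (eF i) (u α)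
        + inclV (Nat.le_succ (N + 1)) (u α) * D (eF i) (D (eF j) (cs (N + 3) hχ)))) x
      = ∑ i, ev (∑ j, qi (Hm (eF) u) i j * Qd (eF) (vX hχ u) i j α) x
        - (χ x : ℂ) * ∑ i, ∑ j, ev (qi (Hm (eF) u) i j) x * ev (Qd (eF) u i j α) x := by
    rw [Finset.mul_sum, ← Finset.sum_sub_distrib]
    refine Finset.sum_congr rfl fun i _ => ?_
    rw [ev_sum, ev_sum, Finset.mul_sum, ← Finset.sum_sub_distrib]
    refine Finset.sum_congr rfl fun j _ => ?_
    rw [ev_mul, ev_add, ev_add, ev_mul, ev_mul, ev_mul, ev_inclV, hc3, hk, ev_mul]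
    show _ = ev (qi (Hm (eF) u) i j) x * ev (D (eF i) (D (eF j) (vX hχ u α))) x
      - (χ x : ℂ) * (ev (qi (Hm (eF) u) i j) x * ev (D (eF i) (D (eF j) (u α))) x)
    rw [hv, ev_cs]
    ring
  have e3 : (χ x : ℂ) * ∑ i, ev (Qd (eF) u i i α) x
      + (χ x : ℂ) * ∑ i, ∑ j, ev (qi (Hm (eF) u) i j) x * ev (Qd (eF) u i j α) x = 0 := by
    rw [← mul_add]
    refine Eq.trans ?_ hzero
    congr 1
    unfold MX Bf
    rw [ev_add, ev_sum, ev_sum]
    congr 1
    refine Finset.sum_congr rfl fun i _ => ?_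
    rw [ev_sum]
    exact Finset.sum_congr rfl fun j _ => (ev_mul _ _ x).symm
  rw [e1, e2]
  linear_combination e3

end step

end Crest.Agent.R234.Mx10_397
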