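import Crest.Agent.R234.Mx10_397

/-!
# Row 234, VF-MINEX part 11 (helper397): interior regularity of minimal graphs

* `gain`: `u ∈ (X F (N+2))^κ` small, minimal where `χ ≠ 0` ⟹ `χ u = z ∈ (X F (N+3))^κ`, `‖z‖ ≤ C‖u‖`;
* `intreg`: minimal on `ball 0 r` ⟹ on `ball 0 r'` equal to an element of `(X F M)^κ`, any `M`.
-/

set_option autoImplicit false
set_option linter.unusedSectionVars false

open MeasureTheory Complex Filter Real
open scoped ContDiff Topology InnerProductSpace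

noncomputable section

namespace Crest.Agent.R234.Mx11_397

open Crest.Agent.R086.Wie Crest.Agent.R234.Mx1_397 Crest.Agent.R234.Mx2_397
  Crest.Agent.R234.Mx3_397 Crest.Agent.R234.Mx4_397 Crest.Agent.R234.Mx5_397
  Crest.Agent.R234.Mx6_397 Crest.Agent.R234.Mx8_397 Crest.Agent.R234.Mx9_397
  Crest.Agent.R234.Mx10_397 Crest.Agent.R234.Ell1_3

section lin

variable {F : Type*} [NormedAddCommGroup F] [InnerProductSpace ℝ F] [FiniteDimensional ℝ F]
  [MeasurableSpace F] [BorelSpace F]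
variable {ι κ : Type*} [Fintype ι] [Fintype κ]

/-- the linear operator `z ↦ Σ k_ij ∂_i∂_j z` -/
def Lk {N : ℕ} (e : OrthonormalBasis ι ℝ F) (k : ι → ι → X F N) (z : κ → X F (N + 2)) :
    κ → X F N := fun α => ∑ i, ∑ j, k i j * Qd e z i j α

theorem Lk_sub {N : ℕ} (e : OrthonormalBasis ι ℝ F) (k : ι → ι → X F N)
    (z z' : κ → X F (N + 2)) : Lk e k (z - z') = Lk e k z - Lk e k z' := by
  funext α
  show ∑ i, ∑ j, k i j * Qd e (z - z') i j α
    = ∑ i, ∑ j, k i j * Qd e z i j α - ∑ i, ∑ j, k i j * Qd e z' i j α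
  rw [← Finset.sum_sub_distrib]
  refine Finset.sum_congr rfl fun i _ => ?_
  rw [← Finset.sum_sub_distrib]
  exact Finset.sum_congr rfl fun j _ => by rw [Qd_sub, mul_sub]

theorem norm_Lk_le {N : ℕ} (e : OrthonormalBasis ι ℝ F) (k : ι → ι → X F N)
    (z : κ → X F (N + 2)) :
    ‖Lk e k z‖ ≤ (Fintype.card ι) ^ 2 * (2 * π) ^ 2 * ‖k‖ * ‖z‖ := by
  have hp := Real.pi_pos
  refine (pi_norm_le_iff_of_nonneg (by positivity)).2 fun α => ?_
  calc ‖Lk e k z α‖ ≤ ∑ i : ι, ∑ j : ι, ‖k‖ * ((2 * π) ^ 2 * ‖z‖) :=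
        (norm_sum_le _ _).trans (Finset.sum_le_sum fun i _ => (norm_sum_le _ _).trans
          (Finset.sum_le_sum fun j _ => (norm_mul_le _ _).trans
            (mul_le_mul (norm_ent k i j) (norm_Qd_le e z i j α) (norm_nonneg _) (norm_nonneg _))))
    _ = _ := by
        simp only [Finset.sum_const, Finset.card_univ, nsmul_eq_mul]
        ring

/-- `G` on vectors -/
def Gv {c : F} (hc : ‖c‖ = 11 / 2) {N : ℕ} (f : κ → X F N) : κ → X F (N + 2) := fun α => G hc (f α)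

theorem norm_Gv_le {c : F} (hc : ‖c‖ = 11 / 2) {N : ℕ} (f : κ → X F N) :
    ‖Gv hc f‖ ≤ 72 * ‖f‖ := by
  refine (pi_norm_le_iff_of_nonneg (by positivity)).2 fun α => ?_
  exact (norm_G_le hc (f α)).trans (mul_le_mul_of_nonneg_left (norm_le_pi_norm f α) (by norm_num))

theorem Gv_sub {c : F} (hc : ‖c‖ = 11 / 2) {N : ℕ} (f g : κ → X F N) :
    Gv hc (f - g) = Gv hc f - Gv hc g := by
  funext α
  show G hc (f α - g α) = _
  rw [map_sub]
  rfl

/-- inclusion on vectors -/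
def Iv {M N : ℕ} (h : M ≤ N) (z : κ → X F N) : κ → X F M := fun α => inclV h (z α)

theorem Iv_Lk {N : ℕ} (e : OrthonormalBasis ι ℝ F) (k : ι → ι → X F (N + 1))
    (z : κ → X F (N + 1 + 2)) :
    Iv (Nat.le_succ N) (Lk e k z) = Lk e (fun i j => inclV (Nat.le_succ N) (k i j))
      (Iv (Nat.le_succ (N + 2)) z) := by
  funext α
  show inclV (Nat.le_succ N) (∑ i, ∑ j, k i j * D (e i) (D (e j) (z α)))
    = ∑ i, ∑ j, inclV (Nat.le_succ N) (k i j) * D (e i) (D (e j) (inclV (Nat.le_succ (N + 2)) (z α)))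
  rw [map_sum]
  refine Finset.sum_congr rfl fun i _ => ?_
  rw [map_sum]
  refine Finset.sum_congr rfl fun j _ => ?_
  rw [inclV_mul, inclV_D, inclV_D]

theorem Iv_Gv {c : F} (hc : ‖c‖ = 11 / 2) {N : ℕ} (f : κ → X F (N + 1)) :
    Iv (Nat.le_succ (N + 2)) (Gv hc f : κ → X F (N + 1 + 2)) = Gv hc (Iv (Nat.le_succ N) f) := by
  funext α
  exact inclV_G hc (Nat.le_succ N) (f α)

/-- the linear equation `z = G(f - Σ k_ij ∂_i∂_j z) + g` -/
theorem exists_lin {c : F} (hc : ‖c‖ = 11 / 2) {N : ℕ} (e : OrthonormalBasis ι ℝ F)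
    (k : ι → ι → X F N) (hk : 72 * ((Fintype.card ι) ^ 2 * (2 * π) ^ 2 * ‖k‖) ≤ 1 / 2)
    (f : κ → X F N) (g : κ → X F (N + 2)) :
    ∃ z : κ → X F (N + 2), z = Gv hc (f - Lk e k z) + g ∧ ‖z‖ ≤ 2 * (72 * ‖f‖ + ‖g‖) := by
  obtain ⟨z, _, h1, h2, _⟩ := exists_fix (fun z : κ → X F (N + 2) => Gv hc (f - Lk e k z) + g)
    (r := 2 * ‖Gv hc (f - Lk e k 0) + g‖) (by positivity)
    (fun x y _ _ => by
      have e1 : (Gv hc (f - Lk e k x) + g) - (Gv hc (f - Lk e k y) + g)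
          = -(Gv hc (Lk e k (x - y))) := by
        rw [Lk_sub, Gv_sub, Gv_sub, Gv_sub]; abel
      rw [e1, norm_neg]
      refine (norm_Gv_le hc _).trans ?_
      have h3 := norm_Lk_le e k (x - y)
      have h4 := norm_nonneg (x - y)
      nlinarith)
    (by linarith [norm_nonneg (Gv hc (f - Lk e k 0) + g)])
  have e0 : Lk e k (0 : κ → X F (N + 2)) = 0 := by
    have := Lk_sub e k (0 : κ → X F (N + 2)) 0
    rwa [sub_zero, sub_self] at this
  rw [e0, sub_zero] at h1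
  refine ⟨z, h2.symm, h1.trans (mul_le_mul_of_nonneg_left ?_ (by norm_num))⟩
  exact (norm_add_le _ _).trans (add_le_add (norm_Gv_le hc f) le_rfl)

theorem lin_unique {c : F} (hc : ‖c‖ = 11 / 2) {N : ℕ} (e : OrthonormalBasis ι ℝ F)
    (k : ι → ι → X F N) (hk : 72 * ((Fintype.card ι) ^ 2 * (2 * π) ^ 2 * ‖k‖) ≤ 1 / 2)
    (f : κ → X F N) (g : κ → X F (N + 2)) {z z' : κ → X F (N + 2)}
    (hz : z = Gv hc (f - Lk e k z) + g) (hz' : z' = Gv hc (f - Lk e k z') + g) : z = z' := by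
  have h1 : z - z' = -(Gv hc (Lk e k (z - z'))) := by
    rw [Lk_sub, Gv_sub]
    nth_rewrite 1 [hz, hz']
    rw [Gv_sub, Gv_sub]
    abel
  have h2 : ‖z - z'‖ ≤ 1 / 2 * ‖z - z'‖ := by
    calc ‖z - z'‖ = ‖Gv hc (Lk e k (z - z'))‖ := by
          nth_rewrite 1 [h1]
          rw [norm_neg]
      _ ≤ 72 * ((Fintype.card ι) ^ 2 * (2 * π) ^ 2 * ‖k‖ * ‖z - z'‖) :=
          (norm_Gv_le hc _).trans (mul_le_mul_of_nonneg_left (norm_Lk_le e k _) (by norm_num))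
      _ = 72 * ((Fintype.card ι) ^ 2 * (2 * π) ^ 2 * ‖k‖) * ‖z - z'‖ := by ring
      _ ≤ _ := mul_le_mul_of_nonneg_right hk (norm_nonneg _)
  have h3 : ‖z - z'‖ = 0 := by linarith [norm_nonneg (z - z')]
  exact sub_eq_zero.1 (norm_eq_zero.1 h3)

end lin

section step

variable {F V : Type} [NormedAddCommGroup F] [InnerProductSpace ℝ F] [FiniteDimensional ℝ F]
  [MeasurableSpace F] [BorelSpace F]
  [NormedAddCommGroup V] [InnerProductSpace ℝ V] [FiniteDimensional ℝ V]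
variable {κ : Type*} [Fintype κ]

local notation "eF" => stdOrthonormalBasis ℝ F

/-- **gain of one derivative** -/
theorem gain {c : F} (hc : ‖c‖ = 11 / 2) (b : OrthonormalBasis κ ℝ V) (N : ℕ) {χ : F → ℝ}
    (hχ : IsCut χ) : ∃ ε C : ℝ, 0 < ε ∧ 0 ≤ C ∧ ∀ u : κ → X F (N + 2), (∀ α, star (u α) = u α) →
      ‖u‖ ≤ ε → (∀ x, χ x ≠ 0 → msop (syn b u) x = 0) →
      ∃ z : κ → X F (N + 1 + 2), (∀ α, star (z α) = z α) ∧ ‖z‖ ≤ C * ‖u‖ ∧
        ∀ α x, ev (z α) x = (χ x : ℂ) * ev (u α) x := by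
  obtain ⟨r, hr0, hr1, hr⟩ := exists_Sm (Fin (Module.finrank ℝ F)) κ
  have hcH := cH_nonneg (κ := κ)
  have hp := Real.pi_pos
  obtain ⟨ε, he0, he1, he2, he3⟩ := exists_small (a := r)
    (C := 72 * ((Module.finrank ℝ F : ℝ) ^ 2 * (2 * π) ^ 2 * (2 * cH κ))) hr0 (by positivity)
  have hcF : 0 ≤ cF N hχ := by unfold cF; positivity
  have hPs := cPs_nonneg c (N + 1 + 2)
  refine ⟨ε, 2 * (72 * cF N hχ + cPs c (N + 1 + 2) * ‖cs (N + 2) hχ‖), he0, by positivity,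
    fun u hus hu hM => ?_⟩
  have hur : ‖u‖ ≤ r := hu.trans he1
  have hcard1 := Sm.card_le1 hr (eF) hur
  have hcard0 := hr.card_le (eF) hur
  have hK1 : 72 * ((Fintype.card (Fin (Module.finrank ℝ F)) : ℝ) ^ 2 * (2 * π) ^ 2
      * ‖qi (H1 (eF) u)‖) ≤ 1 / 2 := by
    refine le_trans ?_ he3
    rw [Fintype.card_fin]
    have h1 : ‖qi (H1 (eF) u)‖ ≤ 2 * (cH κ * ε ^ 2) := by
      refine (norm_qi_le hcard1).trans (mul_le_mul_of_nonneg_left ?_ (by norm_num))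
      refine (norm_H1_le (eF) u).trans ?_
      gcongr
    calc _ ≤ 72 * ((Module.finrank ℝ F : ℝ) ^ 2 * (2 * π) ^ 2 * (2 * (cH κ * ε ^ 2))) := by gcongr
      _ = _ := by ring
  have hK0 : 72 * ((Fintype.card (Fin (Module.finrank ℝ F)) : ℝ) ^ 2 * (2 * π) ^ 2
      * ‖qi (Hm (eF) u)‖) ≤ 1 / 2 := by
    refine le_trans ?_ he3
    rw [Fintype.card_fin]
    have h1 : ‖qi (Hm (eF) u)‖ ≤ 2 * (cH κ * ε ^ 2) := by
      refine (norm_qi_le hcard0).trans (mul_le_mul_of_nonneg_left ?_ (by norm_num))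
      refine (norm_Hm_le (eF) u).trans ?_
      gcongr
    calc _ ≤ 72 * ((Module.finrank ℝ F : ℝ) ^ 2 * (2 * π) ^ 2 * (2 * (cH κ * ε ^ 2))) := by gcongr
      _ = _ := by ring
  obtain ⟨z, hz, hzn⟩ := exists_lin hc (eF) (qi (H1 (eF) u)) hK1 (FX hχ u)
    (fun α => (Ps c (vX hχ u α) : X F (N + 1 + 2)))
  -- the restriction of `z` solves the equation of `χ u`
  have h1 : Iv (Nat.le_succ (N + 2)) z = Gv hc (Iv (Nat.le_succ N) (FX hχ u)
      - Lk (eF) (qi (Hm (eF) u)) (Iv (Nat.le_succ (N + 2)) z))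
      + fun α => (Ps c (vX hχ u α) : X F (N + 2)) := by
    have h2 : (fun i j => inclV (Nat.le_succ N) (qi (H1 (eF) u) i j)) = qi (Hm (eF) u) := by
      funext i j
      exact incl_qi hr (eF) hur i j
    have h3 := Iv_Lk (eF) (qi (H1 (eF) u)) z
    rw [h2] at h3
    rw [← h3]
    funext α
    have h4 : z α = G hc (FX hχ u α - Lk (eF) (qi (H1 (eF) u)) z α) + Ps c (vX hχ u α) :=
      congrFun hz α
    show inclV (Nat.le_succ (N + 2)) (z α) = G hc (inclV (Nat.le_succ N) (FX hχ u α)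
      - inclV (Nat.le_succ N) (Lk (eF) (qi (H1 (eF) u)) z α)) + Ps c (vX hχ u α)
    conv_lhs => rw [h4]
    rw [map_add, ← map_sub (inclV (Nat.le_succ N)), ← inclV_G hc (Nat.le_succ N),
      inclV_Ps c (Nat.le_succ (N + 2))]
  have h5 : vX hχ u = Gv hc (Iv (Nat.le_succ N) (FX hχ u)
      - Lk (eF) (qi (Hm (eF) u)) (vX hχ u)) + fun α => (Ps c (vX hχ u α) : X F (N + 2)) := by
    funext α
    have h6 := G_lap hc (eF) (vX hχ u α)
    rw [eq_vX b hr hχ hur hus hM α] at h6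
    exact h6
  have h7 := lin_unique hc (eF) (qi (Hm (eF) u)) hK0 _ _ h1 h5
  have h8 : ∀ α x, ev (z α) x = (χ x : ℂ) * ev (u α) x := fun α x => by
    have h9 : inclV (Nat.le_succ (N + 2)) (z α) = vX hχ u α := congrFun h7 α
    rw [← ev_inclV (Nat.le_succ (N + 2)), h9]
    unfold vX
    rw [ev_mul, ev_cs]
  refine ⟨z, fun α => ev_inj fun x => ?_, hzn.trans ?_, h8⟩
  · rw [ev_star, h8, map_mul, Complex.conj_ofReal, ← ev_star, hus]
  · have h10 : ‖fun α => (Ps c (vX hχ u α) : X F (N + 1 + 2))‖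
        ≤ cPs c (N + 1 + 2) * (‖cs (N + 2) hχ‖ * ‖u‖) := by
      refine (pi_norm_le_iff_of_nonneg (by positivity)).2 fun α => ?_
      refine (norm_Ps_le c _).trans (mul_le_mul_of_nonneg_left ?_ hPs)
      unfold vX
      exact (norm_mul_le _ _).trans (mul_le_mul_of_nonneg_left (norm_le_pi_norm u α) (norm_nonneg _))
    have h11 := norm_FX_le hr hχ hur (N := N)
    calc 2 * (72 * ‖FX hχ u‖ + ‖fun α => (Ps c (vX hχ u α) : X F (N + 1 + 2))‖)
        ≤ 2 * (72 * (cF N hχ * ‖u‖) + cPs c (N + 1 + 2) * (‖cs (N + 2) hχ‖ * ‖u‖)) := by gcongr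
      _ = _ := by ring

/-- the cut-off between two radii -/
theorem exists_cut {r' r : ℝ} (h0 : 0 < r') (h1 : r' < r) (h2 : r ≤ 2) :
    ∃ χ : F → ℝ, IsCut χ ∧ (∀ x, ‖x‖ ≤ r' → χ x = 1) ∧ ∀ x, χ x ≠ 0 → ‖x‖ < r := by
  let B : ContDiffBump (0 : F) := ⟨r', (r' + r) / 2, h0, by linarith⟩
  have hB : B.rOut = (r' + r) / 2 := rfl
  refine ⟨B, ⟨B.contDiff, ?_⟩, fun x hx => B.one_of_mem_closedBall (mem_closedBall_zero_iff.2 hx),
    fun x hx => ?_⟩
  · rw [B.tsupport_eq]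
    exact Metric.closedBall_subset_ball (by rw [hB]; linarith)
  · have h3 : x ∈ Function.support B := hx
    rw [B.support_eq, mem_ball_zero_iff, hB] at h3
    linarith

/-- **interior regularity**: any number of derivatives, quantitative -/
theorem intreg {c : F} (hc : ‖c‖ = 11 / 2) (b : OrthonormalBasis κ ℝ V) (j : ℕ) :
    ∀ (N M : ℕ), M ≤ N + 2 + j → ∀ r' r : ℝ, 0 < r' → r' < r → r ≤ 2 →
      ∃ ε C : ℝ, 0 < ε ∧ 0 ≤ C ∧ ∀ u : κ → X F (N + 2), (∀ α, star (u α) = u α) → ‖u‖ ≤ ε →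
        (∀ x, ‖x‖ < r → msop (syn b u) x = 0) →
        ∃ z : κ → X F M, (∀ α, star (z α) = z α) ∧ ‖z‖ ≤ C * ‖u‖ ∧
          ∀ α x, ‖x‖ ≤ r' → ev (z α) x = ev (u α) x := by
  induction j with
  | zero =>
    intro N M hM r' r _ _ _
    refine ⟨1, 1, one_pos, zero_le_one, fun u hus _ _ =>
      ⟨fun α => inclV hM (u α), fun α => ?_, ?_, fun α x _ => ev_inclV _ _ x⟩⟩
    · rw [star_inclV, hus]
    · rw [one_mul]
      refine (pi_norm_le_iff_of_nonneg (norm_nonneg _)).2 fun α => ?_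
      exact (norm_inclV_le _ _).trans (norm_le_pi_norm u α)
  | succ j ih =>
    intro N M hM r' r h0 h1 h2
    set ρ : ℝ := (r' + r) / 2 with hρ
    have hρ1 : r' < ρ := by rw [hρ]; linarith
    have hρ2 : ρ < r := by rw [hρ]; linarith
    obtain ⟨χ, hχ, hχ1, hχ2⟩ := exists_cut (F := F) (h0.trans hρ1) hρ2 h2
    obtain ⟨ε1, C1, he1, hC1, H1'⟩ := gain hc b N hχ
    obtain ⟨ε2, C2, he2, hC2, H2⟩ := ih (N + 1) M (by omega) r' ρ h0 hρ1 (hρ2.le.trans h2)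
    refine ⟨min ε1 (ε2 / (C1 + 1)), C2 * C1, by positivity, by positivity,
      fun u hus hu hM' => ?_⟩
    obtain ⟨z, hzs, hzn, hz⟩ := H1' u hus (hu.trans (min_le_left _ _))
      fun x hx => hM' x (hχ2 x hx)
    have hz2 : ‖z‖ ≤ ε2 := by
      refine hzn.trans ((mul_le_mul_of_nonneg_left (hu.trans (min_le_right _ _)) hC1).trans ?_)
      rw [mul_div_assoc', div_le_iff₀ (by positivity)]
      nlinarith
    have hzu : ∀ x, ‖x‖ < ρ → syn b z =ᶠ[𝓝 x] syn b u := fun x hx => by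
      filter_upwards [(isOpen_lt continuous_norm continuous_const).mem_nhds hx] with y hy
      unfold syn
      refine Finset.sum_congr rfl fun α _ => ?_
      rw [hz, hχ1 y (le_of_lt hy), Complex.ofReal_one, one_mul]
    obtain ⟨z', hzs', hzn', hz'⟩ := H2 z hzs hz2 fun x hx => by
      rw [msop_congr (hzu x hx), hM' x (hx.trans hρ2)]
    refine ⟨z', hzs', hzn'.trans ?_, fun α x hx => ?_⟩
    · rw [mul_assoc]
      exact mul_le_mul_of_nonneg_left hzn hC2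
    · rw [hz' α x hx, hz, hχ1 x (hx.trans hρ1.le), Complex.ofReal_one, one_mul]

end step

end Crest.Agent.R234.Mx11_397
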