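import Crest.Agent.R234.Mx5_397

/-!
# Row 234, VF-MINEX part 12 (helper397): divergence form and smoothness of minimal graphs

`div flx(Du) = dns(Du) (1 - q g⁻¹ qᵀ) msop u`, `q = Du`: `C²` solutions of `msop u = 0` are weak
solutions, hence `C^∞` (helper3's `mss_smooth`) when the gradient is small.
-/

set_option autoImplicit false
set_option linter.unusedSectionVars false

open MeasureTheory Filter Real
open scoped ContDiff Topology InnerProductSpace

noncomputable section

namespace Crest.Agent.R234.Mx12_397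

open Crest.Agent.R234.Mx5_397 Crest.Agent.R234.Ell1_3

/-! ### Jacobi's formula (entrywise; adapted from R208/N3) -/

section jacobi

variable {ι : Type*} [Fintype ι] [DecidableEq ι]

attribute [local instance] Matrix.normedAddCommGroup Matrix.normedSpace

omit [DecidableEq ι] in
theorem hasFDerivAt_entry (i j : ι) (A : Matrix ι ι ℝ) :
    ∃ L : Matrix ι ι ℝ →L[ℝ] ℝ, HasFDerivAt (fun B : Matrix ι ι ℝ => B i j) L A := by
  have h1 : HasFDerivAt (fun B : Matrix ι ι ℝ => (B i : ι → ℝ))
      (ContinuousLinearMap.proj (R := ℝ) (φ := fun _ : ι => ι → ℝ) i) A :=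
    (ContinuousLinearMap.proj (R := ℝ) (φ := fun _ : ι => ι → ℝ) i).hasFDerivAt
  have h2 : HasFDerivAt (fun r : ι → ℝ => r j)
      (ContinuousLinearMap.proj (R := ℝ) (φ := fun _ : ι => ℝ) j) (A i) :=
    (ContinuousLinearMap.proj (R := ℝ) (φ := fun _ : ι => ℝ) j).hasFDerivAt
  exact ⟨_, (h2.comp A h1 : HasFDerivAt ((fun r : ι → ℝ => r j) ∘
    (fun B : Matrix ι ι ℝ => (B i : ι → ℝ))) _ A)⟩

theorem differentiableAt_det (A : Matrix ι ι ℝ) :
    DifferentiableAt ℝ (fun B : Matrix ι ι ℝ => B.det) A := by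
  simp only [Matrix.det_apply]
  refine DifferentiableAt.fun_sum fun σ _ => ?_
  refine DifferentiableAt.fun_const_smul ?_ _
  choose L hL using fun (i : ι) => hasFDerivAt_entry (σ i) i A
  exact (HasFDerivAt.finsetProd (u := Finset.univ)
    (g := fun i (B : Matrix ι ι ℝ) => B (σ i) i)
    (x := A) (fun i _ => hL i)).differentiableAt

theorem hasDerivAt_det_one_add (B : Matrix ι ι ℝ) :
    HasDerivAt (fun t : ℝ => (1 + t • B).det) B.trace 0 := by
  have h : ∀ t : ℝ, (1 + t • B).det = 1 + B.trace * t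
      + (((1 : Matrix ι ι (Polynomial ℝ)) + (Polynomial.X : Polynomial ℝ) •
        B.map Polynomial.C).det.divX.divX.eval t) * t ^ 2 := by
    intro t; exact Matrix.det_one_add_smul _ _
  simp only [h]
  have h0 : HasDerivAt (fun t : ℝ => t) 1 0 := hasDerivAt_id 0
  have h1 := (((1 : Matrix ι ι (Polynomial ℝ)) + (Polynomial.X : Polynomial ℝ) •
        B.map Polynomial.C).det.divX.divX).hasDerivAt (0 : ℝ)
  have h2 := ((h0.const_mul B.trace).const_add 1).add (h1.mul (h0.pow 2))
  refine h2.congr_deriv ?_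
  simp

theorem hasDerivAt_det {A : ℝ → Matrix ι ι ℝ} {A' G : Matrix ι ι ℝ} {x : ℝ}
    (hA : ∀ i j, HasDerivAt (fun t => A t i j) (A' i j) x) (hG : A x * G = 1) :
    HasDerivAt (fun t => (A t).det) ((A x).det * (G * A').trace) x := by
  have hA' : HasDerivAt A A' x := hasDerivAt_pi.2 fun i => hasDerivAt_pi.2 fun j => hA i j
  have h1 := (differentiableAt_det (A x)).hasFDerivAt
  have h2 := h1.comp_hasDerivAt x hA'
  refine h2.congr_deriv ?_
  have h3 : HasDerivAt (fun t : ℝ => A x + t • A') A' 0 := by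
    have := ((hasDerivAt_id (0 : ℝ)).smul_const A').const_add (A x)
    rw [one_smul] at this
    exact this
  have h4 : HasFDerivAt (fun B : Matrix ι ι ℝ => B.det)
      (fderiv ℝ (fun B : Matrix ι ι ℝ => B.det) (A x)) (A x + (0 : ℝ) • A') := by
    simpa using h1
  have h5 := h4.comp_hasDerivAt (0 : ℝ) h3
  have h6 : ((fun B : Matrix ι ι ℝ => B.det) ∘ fun t : ℝ => A x + t • A')
      = fun t : ℝ => (A x).det * (1 + t • (G * A')).det := by
    ext t
    simp only [Function.comp]
    rw [← Matrix.det_mul, Matrix.mul_add, Matrix.mul_one, Matrix.mul_smul, ← Matrix.mul_assoc,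
      hG, Matrix.one_mul]
  rw [h6] at h5
  have h7 := (hasDerivAt_det_one_add (G * A')).const_mul (A x).det
  exact h5.unique h7

end jacobi

variable {F V : Type} [NormedAddCommGroup F] [InnerProductSpace ℝ F] [FiniteDimensional ℝ F]
  [NormedAddCommGroup V] [InnerProductSpace ℝ V] [FiniteDimensional ℝ V]

local notation "eF" => stdOrthonormalBasis ℝ F

/-- symmetry of the inverse metric operator -/
theorem ginv_symm (q : F →L[ℝ] V) (x y : F) : ⟪ginv q x, y⟫_ℝ = ⟪x, ginv q y⟫_ℝ := by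
  have h1 : ∀ z, gop q (ginv q z) = z := fun z => by
    have := congrArg (fun T : F →L[ℝ] F => T z) (gop_ginv q)
    simpa using this
  have h2 : ∀ a c, ⟪gop q a, c⟫_ℝ = ⟪a, gop q c⟫_ℝ := fun a c => by
    rw [real_inner_comm, gop_inner, gop_inner, real_inner_comm c a, real_inner_comm (q c) (q a)]
  conv_rhs => rw [← h1 x]
  rw [h2, h1]

theorem sum_inner_smul (x : F) : ∑ i, ⟪eF i, x⟫_ℝ • eF i = x := (eF).sum_repr' x

/-- the trace `Σ ⟨q g⁻¹ e_j, S e_j⟩` -/
def sg (q S : F →L[ℝ] V) : ℝ := ∑ j, ⟪q (ginv q (eF j)), S (eF j)⟫_ℝ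

theorem fderiv_gdet (q S : F →L[ℝ] V) : fderiv ℝ gdet q S = gdet q * (2 * sg q S) := by
  classical
  set A : ℝ → Matrix (Fin (Module.finrank ℝ F)) (Fin (Module.finrank ℝ F)) ℝ :=
    fun t => gmat (q + t • S) with hA
  set A' : Matrix (Fin (Module.finrank ℝ F)) (Fin (Module.finrank ℝ F)) ℝ :=
    Matrix.of fun i j => ⟪S (eF i), q (eF j)⟫_ℝ + ⟪q (eF i), S (eF j)⟫_ℝ with hA'
  set Gm : Matrix (Fin (Module.finrank ℝ F)) (Fin (Module.finrank ℝ F)) ℝ :=
    Matrix.of fun i j => ⟪eF i, ginv q (eF j)⟫_ℝ with hG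
  have hG1 : A 0 * Gm = 1 := by
    ext i k
    rw [Matrix.mul_apply, Matrix.one_apply]
    have h1 : ∀ j, A 0 i j * Gm j k = ⟪eF j, ginv q (eF k)⟫_ℝ * ⟪eF i, gop q (eF j)⟫_ℝ := fun j => by
      have h2 : A 0 i j = ⟪eF i, gop q (eF j)⟫_ℝ := by
        rw [gop_inner, hA]
        simp only [zero_smul, add_zero, gmat, Matrix.of_apply]
        rw [(orthonormal_iff_ite.1 (eF).orthonormal) i j]
      rw [h2, hG, Matrix.of_apply, mul_comm]
    rw [Finset.sum_congr rfl fun j _ => h1 j]
    have h3 : ∑ j, ⟪eF j, ginv q (eF k)⟫_ℝ * ⟪eF i, gop q (eF j)⟫_ℝ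
        = ⟪eF i, gop q (ginv q (eF k))⟫_ℝ := by
      conv_rhs => rw [← sum_inner_smul (ginv q (eF k)), map_sum, inner_sum]
      exact Finset.sum_congr rfl fun j _ => by rw [map_smul, inner_smul_right]
    have h4 : gop q (ginv q (eF k)) = eF k := by
      have := congrArg (fun T : F →L[ℝ] F => T (eF k)) (gop_ginv q)
      simpa using this
    rw [h3, h4]
    exact (orthonormal_iff_ite.1 (eF).orthonormal) i k
  have hd : ∀ i j, HasDerivAt (fun t => A t i j) (A' i j) 0 := fun i j => by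
    have h1 : ∀ k, HasDerivAt (fun t : ℝ => (q + t • S) (eF k)) (S (eF k)) 0 := fun k => by
      have h2 : (fun t : ℝ => (q + t • S) (eF k)) = fun t : ℝ => q (eF k) + t • S (eF k) := by
        funext t; rfl
      rw [h2]
      have := ((hasDerivAt_id (0 : ℝ)).smul_const (S (eF k))).const_add (q (eF k))
      rw [one_smul] at this
      exact this
    have h3 := ((h1 i).inner ℝ (h1 j)).const_add (if i = j then (1 : ℝ) else 0)
    refine h3.congr_deriv ?_
    simp only [zero_smul, add_zero]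
    rw [hA', Matrix.of_apply]
    ring
  have h1 := hasDerivAt_det hd hG1
  have h2 : HasDerivAt (fun t : ℝ => gdet (q + t • S)) (fderiv ℝ gdet q S) 0 := by
    have h3 : HasFDerivAt (gdet : (F →L[ℝ] V) → ℝ) (fderiv ℝ gdet q) (q + (0 : ℝ) • S) := by
      rw [zero_smul, add_zero]
      exact (gdet_contDiff.differentiable (by simp) _).hasFDerivAt
    have h4 : HasDerivAt (fun t : ℝ => q + t • S) S 0 := by
      have := ((hasDerivAt_id (0 : ℝ)).smul_const S).const_add q
      rw [one_smul] at this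
      exact this
    exact h3.comp_hasDerivAt (0 : ℝ) h4
  have h5 : (fun t : ℝ => gdet (q + t • S)) = fun t => (A t).det := by
    funext t
    rw [gdet_eq]
  rw [h5] at h2
  have h6 := h2.unique h1
  rw [h6]
  have h7 : (A 0).det = gdet q := by
    rw [gdet_eq, hA]
    simp
  rw [h7]
  congr 1
  -- the trace
  have hGs : ∀ i j, Gm i j = Gm j i := fun i j => by
    rw [hG, Matrix.of_apply, Matrix.of_apply, ← ginv_symm, real_inner_comm]
  have h8 : sg q S = ∑ i, ∑ j, Gm i j * ⟪q (eF i), S (eF j)⟫_ℝ := by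
    unfold sg
    rw [Finset.sum_comm]
    refine Finset.sum_congr rfl fun j _ => ?_
    conv_lhs => rw [← sum_inner_smul (ginv q (eF j)), map_sum, sum_inner]
    refine Finset.sum_congr rfl fun i _ => ?_
    rw [map_smul, inner_smul_left]
    rfl
  rw [Matrix.trace, h8, two_mul]
  have h9 : ∀ i, (Gm * A').diag i = ∑ j, Gm i j * ⟪S (eF j), q (eF i)⟫_ℝ
      + ∑ j, Gm i j * ⟪q (eF j), S (eF i)⟫_ℝ := fun i => by
    rw [Matrix.diag_apply, Matrix.mul_apply, ← Finset.sum_add_distrib]
    refine Finset.sum_congr rfl fun j _ => ?_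
    rw [hA', Matrix.of_apply]; ring
  rw [Finset.sum_congr rfl fun i _ => h9 i, Finset.sum_add_distrib]
  congr 1
  · exact Finset.sum_congr rfl fun i _ => Finset.sum_congr rfl fun j _ => by rw [real_inner_comm]
  · rw [Finset.sum_comm]
    exact Finset.sum_congr rfl fun i _ => Finset.sum_congr rfl fun j _ => by rw [hGs]

theorem fderiv_dns (q S : F →L[ℝ] V) : fderiv ℝ dns q S = dns q * sg q S := by
  have h1 : HasFDerivAt (gdet : (F →L[ℝ] V) → ℝ) (fderiv ℝ gdet q) q :=
    (gdet_contDiff.differentiable (by simp) _).hasFDerivAt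
  have h2 := (h1.sqrt (gdet_pos q).ne').fderiv
  have h3 : fderiv ℝ dns q = (1 / (2 * √(gdet q))) • fderiv ℝ gdet q := h2
  rw [h3, smul_apply, fderiv_gdet, smul_eq_mul]
  have h4 : 0 < √(gdet q) := Real.sqrt_pos.2 (gdet_pos q)
  have h5 : gdet q = √(gdet q) * √(gdet q) := (Real.mul_self_sqrt (gdet_pos q).le).symm
  unfold dns
  field_simp
  rw [sq, ← h5]

theorem hasFDerivAt_gop (q : F →L[ℝ] V) : ∃ L : (F →L[ℝ] V) →L[ℝ] (F →L[ℝ] F),
    HasFDerivAt gop L q ∧ ∀ S, L S = (ContinuousLinearMap.adjoint S) ∘L q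
      + (ContinuousLinearMap.adjoint q) ∘L S := by
  have h1 : HasFDerivAt (fun q : F →L[ℝ] V => adjL q) (adjL (F := F) (V := V)) q :=
    (adjL (F := F) (V := V)).hasFDerivAt
  have h2 := (h1.clm_comp (hasFDerivAt_id q)).const_add (ContinuousLinearMap.id ℝ F)
  refine ⟨_, h2, fun S => ?_⟩
  ext x
  simp [add_comm]

theorem hasFDerivAt_ginv (q : F →L[ℝ] V) : ∃ L : (F →L[ℝ] V) →L[ℝ] (F →L[ℝ] F),
    HasFDerivAt ginv L q ∧ ∀ S, L S = -(ginv q ∘L ((ContinuousLinearMap.adjoint S) ∘L q
      + (ContinuousLinearMap.adjoint q) ∘L S) ∘L ginv q) := by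
  obtain ⟨u, hu⟩ := gop_isUnit q
  obtain ⟨L, hL, hLS⟩ := hasFDerivAt_gop q
  have h1 := hasFDerivAt_ringInverse (𝕜 := ℝ) u
  rw [hu] at h1
  have h2 := h1.comp q hL
  refine ⟨_, h2, fun S => ?_⟩
  have h3 : ginv q = ((u⁻¹ : (F →L[ℝ] F)ˣ) : F →L[ℝ] F) := by
    unfold ginv
    rw [← hu, Ring.inverse_unit]
  rw [h3, ContinuousLinearMap.comp_apply, hLS]
  simp only [neg_apply, ContinuousLinearMap.mulLeftRight_apply]
  rfl

/-- derivative of the flux -/
theorem fderiv_flx (q S : F →L[ℝ] V) (e : F) :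
    fderiv ℝ flx q S e = dns q • (sg q S • q (ginv q e) + S (ginv q e)
      - q (ginv q (ContinuousLinearMap.adjoint S (q (ginv q e))
        + ContinuousLinearMap.adjoint q (S (ginv q e))))) := by
  have h1 : HasFDerivAt (dns : (F →L[ℝ] V) → ℝ) (fderiv ℝ dns q) q :=
    (dns_contDiff.differentiable (by simp) _).hasFDerivAt
  obtain ⟨L, hL, hLS⟩ := hasFDerivAt_ginv q
  have h2 := h1.smul ((hasFDerivAt_id q).clm_comp hL)
  have h3 : fderiv ℝ flx q = _ := h2.fderiv
  rw [h3]
  simp only [add_apply, smul_apply, ContinuousLinearMap.smulRight_apply, id_eq,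
    ContinuousLinearMap.coe_id', ContinuousLinearMap.comp_apply,
    ContinuousLinearMap.compL_apply, ContinuousLinearMap.flip_apply, hLS, fderiv_dns,
    neg_apply, map_neg, map_add]
  module

/-- **the divergence identity** for symmetric second derivatives -/
theorem div_flx (q : F →L[ℝ] V) (S : Fin (Module.finrank ℝ F) → F →L[ℝ] V)
    (hS : ∀ i j, S i (eF j) = S j (eF i)) :
    ∑ i, fderiv ℝ flx q (S i) (eF i) = dns q • ((∑ i, S i (ginv q (eF i)))
      - q (ginv q (ContinuousLinearMap.adjoint q (∑ i, S i (ginv q (eF i)))))) := by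
  have h1 : ∑ i, ContinuousLinearMap.adjoint (S i) (q (ginv q (eF i))) = ∑ k, sg q (S k) • eF k := by
    refine onb_ext (eF) fun k => ?_
    have ho : ∀ n, ⟪eF k, eF n⟫_ℝ = if k = n then 1 else 0 :=
      fun n => (orthonormal_iff_ite.1 (eF).orthonormal) k n
    rw [inner_sum, inner_sum]
    simp only [inner_smul_right, ho]
    simp only [mul_ite, mul_one, mul_zero, Finset.sum_ite_eq, Finset.mem_univ, if_true]
    unfold sg
    refine Finset.sum_congr rfl fun i _ => ?_
    rw [ContinuousLinearMap.adjoint_inner_right, hS i k, real_inner_comm]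
  simp only [fderiv_flx]
  rw [← Finset.smul_sum]
  congr 1
  rw [Finset.sum_sub_distrib, Finset.sum_add_distrib]
  have h2 : ∑ i, q (ginv q (ContinuousLinearMap.adjoint (S i) (q (ginv q (eF i)))
      + ContinuousLinearMap.adjoint q (S i (ginv q (eF i)))))
      = q (ginv q (∑ k, sg q (S k) • eF k))
        + q (ginv q (ContinuousLinearMap.adjoint q (∑ i, S i (ginv q (eF i))))) := by
    rw [← h1]
    simp only [map_add, map_sum, Finset.sum_add_distrib]
  rw [h2]
  simp only [map_sum, map_smul]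
  abel

section weak

variable [MeasurableSpace F] [BorelSpace F]

theorem integral_fderiv_apply_eq_zero {g : F → V} (hg : ContDiff ℝ 1 g)
    (hc : HasCompactSupport g) (v : F) : ∫ x, fderiv ℝ g x v = 0 := by
  have hcont : Continuous fun x => fderiv ℝ g x v :=
    (hg.continuous_fderiv one_ne_zero).clm_apply continuous_const
  have hcs : HasCompactSupport fun x => fderiv ℝ g x v := hc.fderiv_apply ℝ v
  have h := integral_smul_fderiv_eq_neg_fderiv_smul_of_integrable
    (μ := (volume : Measure F)) (𝕜 := ℝ) (f := fun _ : F => (1 : ℝ))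
    (g := g) (v := v) (by simp) (by simpa using hcont.integrable_of_hasCompactSupport hcs)
    (by simpa using hg.continuous.integrable_of_hasCompactSupport hc)
    (fun x _ => differentiableAt_const _)
    (fun x _ => (hg.differentiable one_ne_zero).differentiableAt)
  simpa using h

/-- **weak form**: `C²` solutions of `msop u = 0` are weak solutions -/
theorem weak_of_msop {U : Set F} (hU : IsOpen U) {u : F → V} (hu : ContDiffOn ℝ 2 u U)
    (hM : ∀ x ∈ U, msop u x = 0) (ζ : F → ℝ) (hζ : ContDiff ℝ ∞ ζ) (hc : HasCompactSupport ζ)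
    (hs : tsupport ζ ⊆ U) : ∫ z, flx (fderiv ℝ u z) (gradient ζ z) = 0 := by
  have h1 : ContDiffOn ℝ 1 (fderiv ℝ u) U := hu.fderiv_of_isOpen hU (by norm_num)
  have h2 : ContDiffOn ℝ 1 (fun x => flx (fderiv ℝ u x)) U :=
    (flx_contDiff.of_le (by exact_mod_cast le_top)).comp_contDiffOn h1
  set Ξ : Fin (Module.finrank ℝ F) → F → V := fun i x => ζ x • flx (fderiv ℝ u x) (eF i) with hΞ
  have hζ0 : ∀ x ∉ tsupport ζ, ζ =ᶠ[𝓝 x] 0 := fun x hx => notMem_tsupport_iff_eventuallyEq.1 hx
  have hC1 : ∀ i, ContDiff ℝ 1 (Ξ i) := fun i => by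
    rw [contDiff_iff_contDiffAt]
    intro x
    by_cases hx : x ∈ tsupport ζ
    · exact ((hζ.of_le (by exact_mod_cast le_top)).contDiffAt).smul
        ((h2.contDiffAt (hU.mem_nhds (hs hx))).clm_apply contDiffAt_const)
    · refine contDiffAt_const (c := (0 : V)) |>.congr_of_eventuallyEq ?_
      filter_upwards [hζ0 x hx] with y hy
      rw [hΞ]
      simp only [hy, Pi.zero_apply, zero_smul]
  have hcs : ∀ i, HasCompactSupport (Ξ i) := fun i => hc.smul_right
  have hpt : ∀ z, flx (fderiv ℝ u z) (gradient ζ z) = ∑ i, fderiv ℝ (Ξ i) z (eF i) := fun z => by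
    by_cases hz : z ∈ tsupport ζ
    · have hzU := hs hz
      have a1 : HasFDerivAt (fderiv ℝ u) (fderiv ℝ (fderiv ℝ u) z) z :=
        ((h1.contDiffAt (hU.mem_nhds hzU)).differentiableAt one_ne_zero).hasFDerivAt
      have a2 : HasFDerivAt flx (fderiv ℝ flx (fderiv ℝ u z)) (fderiv ℝ u z) :=
        (flx_contDiff.differentiable (by simp) _).hasFDerivAt
      have a3 := a2.comp z a1
      have a4 : HasFDerivAt ζ (fderiv ℝ ζ z) z := (hζ.differentiable (by simp) z).hasFDerivAt
      have a5 : ∀ i, fderiv ℝ (Ξ i) z (eF i) = fderiv ℝ ζ z (eF i) • flx (fderiv ℝ u z) (eF i)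
          + ζ z • fderiv ℝ flx (fderiv ℝ u z) (fderiv ℝ (fderiv ℝ u) z (eF i)) (eF i) := fun i => by
        have a6 := a4.smul (a3.clm_apply (hasFDerivAt_const (eF i) z))
        have a7 : fderiv ℝ (Ξ i) z = _ := a6.fderiv
        rw [a7]
        simp
        abel
      rw [Finset.sum_congr rfl fun i _ => a5 i, Finset.sum_add_distrib, ← Finset.smul_sum]
      have hsymm : ∀ a c, fderiv ℝ (fderiv ℝ u) z a c = fderiv ℝ (fderiv ℝ u) z c a := by
        have hcd : ContDiffAt ℝ 2 u z := hu.contDiffAt (hU.mem_nhds hzU)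
        intro a c
        exact (hcd.isSymmSndFDerivAt (by simp)).eq a c
      have a8 := div_flx (fderiv ℝ u z) (fun i => fderiv ℝ (fderiv ℝ u) z (eF i))
        (fun i j => hsymm (eF i) (eF j))
      have a9 : ∑ i, fderiv ℝ (fderiv ℝ u) z (eF i) (ginv (fderiv ℝ u z) (eF i)) = 0 := by
        rw [← hM z hzU]
        unfold msop
        exact Finset.sum_congr rfl fun i _ => hsymm _ _
      rw [a8, a9]
      simp only [map_zero, sub_zero, smul_zero, add_zero]
      conv_lhs => rw [← sum_inner_smul (gradient ζ z), map_sum]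
      refine Finset.sum_congr rfl fun i _ => ?_
      rw [map_smul]
      congr 1
      rw [real_inner_comm, gradient, InnerProductSpace.toDual_symm_apply]
    · have b1 : gradient ζ z = 0 := by
        rw [gradient, (hζ0 z hz).fderiv_eq]
        simp
      have b2 : ∀ i, fderiv ℝ (Ξ i) z = 0 := fun i => by
        have : Ξ i =ᶠ[𝓝 z] fun _ => (0 : V) := by
          filter_upwards [hζ0 z hz] with y hy
          rw [hΞ]
          simp only [hy, Pi.zero_apply, zero_smul]
        rw [this.fderiv_eq]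
        simp
      rw [b1, map_zero]
      simp [b2]
  rw [integral_congr_ae (Eventually.of_forall hpt), integral_finsetSum]
  · exact Finset.sum_eq_zero fun i _ => integral_fderiv_apply_eq_zero (hC1 i) (hcs i) (eF i)
  · intro i _
    have hcont : Continuous fun x => fderiv ℝ (Ξ i) x (eF i) :=
      ((hC1 i).continuous_fderiv one_ne_zero).clm_apply continuous_const
    exact hcont.integrable_of_hasCompactSupport ((hcs i).fderiv_apply ℝ (eF i))

end weak

/-- **smoothness of `C²` minimal graphs with small gradient** -/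
theorem exists_smooth (F V : Type) [NormedAddCommGroup F] [InnerProductSpace ℝ F]
    [FiniteDimensional ℝ F] [NormedAddCommGroup V] [InnerProductSpace ℝ V]
    [FiniteDimensional ℝ V] : ∃ p₀ : ℝ, 0 < p₀ ∧ ∀ (U : Set F) (u : F → V), IsOpen U →
      ContDiffOn ℝ 2 u U → (∀ x ∈ U, msop u x = 0) → (∀ x ∈ U, ‖fderiv ℝ u x‖ < p₀) →
      ContDiffOn ℝ ∞ u U := by
  let _ : MeasurableSpace F := borel F
  have _ : BorelSpace F := ⟨rfl⟩
  obtain ⟨p₀, hp, H⟩ := mss_smooth F V (α := 1 / 2) (by norm_num) (by norm_num)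
  refine ⟨p₀, hp, fun U u hU hu hM hg => H U u (fderiv ℝ u) hU (fun z hz => ?_) (fun x hx => ?_)
    hg (weak_of_msop hU hu hM)⟩
  · exact ((hu.contDiffAt (hU.mem_nhds hz)).differentiableAt (by norm_num)).hasFDerivAt
  · have h1 : ContDiffOn ℝ 1 (fderiv ℝ u) U := hu.fderiv_of_isOpen hU (by norm_num)
    have h2 : ContDiffAt ℝ 1 (fderiv ℝ u) x := h1.contDiffAt (hU.mem_nhds hx)
    obtain ⟨K, t, ht, hK⟩ := h2.exists_lipschitzOnWith
    obtain ⟨r, hr, hrt⟩ := Metric.mem_nhds_iff.1 ht
    refine ⟨min r (1 / 2), by positivity, K, fun z hz z' hz' => ?_⟩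
    have hz1 : z ∈ t := hrt (Metric.ball_subset_ball (min_le_left _ _) hz)
    have hz2 : z' ∈ t := hrt (Metric.ball_subset_ball (min_le_left _ _) hz')
    have h3 := hK.dist_le_mul z hz1 z' hz2
    rw [dist_eq_norm, dist_eq_norm] at h3
    refine h3.trans (mul_le_mul_of_nonneg_left ?_ K.coe_nonneg)
    have h4 : ‖z - z'‖ ≤ 1 := by
      have a1 := (Metric.mem_ball.1 (Metric.ball_subset_ball (min_le_right r (1 / 2)) hz)).le
      have a2 := (Metric.mem_ball.1 (Metric.ball_subset_ball (min_le_right r (1 / 2)) hz')).le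
      have a3 := dist_triangle_right z z' x
      rw [← dist_eq_norm]
      linarith
    calc ‖z - z'‖ = ‖z - z'‖ ^ (1 : ℝ) := (Real.rpow_one _).symm
      _ ≤ ‖z - z'‖ ^ (1 / 2 : ℝ) := by
        rcases eq_or_lt_of_le (norm_nonneg (z - z')) with h | h
        · rw [← h]; simp
        · exact Real.rpow_le_rpow_of_exponent_ge h h4 (by norm_num)

end Crest.Agent.R234.Mx12_397
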