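import Crest.Agent.R234.Mx11_397
import Crest.Agent.R234.Mx12_397

/-!
# Row 234, VF-MINEX part 13 (helper397): invariance of `msop`; globally smooth references

* `msop_eq_sum` (any orthonormal basis), `msop_scale`, `msop_translate`;
* `smooth_ref`: `a ∈ (X F (N+2))^κ` small, minimal on `ball 0 r` ⟹ globally `C^∞` map equal to
  `syn b a` on `ball 0 r'`, with `C^M` bounds on all of `F`.
-/

set_option autoImplicit false
set_option linter.unusedSectionVars false

open MeasureTheory Complex Filter Real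
open scoped ContDiff Topology InnerProductSpace

noncomputable section

namespace Crest.Agent.R234.Mx13_397

open Crest.Agent.R086.Wie Crest.Agent.R234.Mx1_397 Crest.Agent.R234.Mx2_397
  Crest.Agent.R234.Mx3_397 Crest.Agent.R234.Mx4_397 Crest.Agent.R234.Mx5_397
  Crest.Agent.R234.Mx6_397 Crest.Agent.R234.Mx8_397 Crest.Agent.R234.Mx9_397
  Crest.Agent.R234.Mx10_397 Crest.Agent.R234.Mx11_397 Crest.Agent.R234.Mx12_397
  Crest.Agent.R234.Ell1_3

section inv

variable {F V : Type} [NormedAddCommGroup F] [InnerProductSpace ℝ F] [FiniteDimensional ℝ F]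
  [NormedAddCommGroup V] [InnerProductSpace ℝ V] [FiniteDimensional ℝ V]
variable {ι κ : Type*} [Fintype ι] [Fintype κ]

/-- basis independence of the trace of `B (T ·) ·` -/
theorem sum_bilin_eq (e : OrthonormalBasis ι ℝ F) (e' : OrthonormalBasis κ ℝ F)
    (B : F →L[ℝ] F →L[ℝ] V) (T : F →L[ℝ] F) :
    ∑ k, B (T (e' k)) (e' k) = ∑ i, B (T (e i)) (e i) := by
  classical
  have h1 : ∀ k, B (T (e' k)) (e' k)
      = ∑ i, ∑ j, (⟪e i, e' k⟫_ℝ * ⟪e j, e' k⟫_ℝ) • B (T (e i)) (e j) := fun k => by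
    have h2 : B (T (e' k)) = ∑ i, ⟪e i, e' k⟫_ℝ • B (T (e i)) := by
      conv_lhs => rw [← e.sum_repr' (e' k)]
      rw [map_sum, map_sum]
      exact Finset.sum_congr rfl fun i _ => by rw [map_smul, map_smul]
    rw [h2, sum_apply]
    refine Finset.sum_congr rfl fun i _ => ?_
    rw [smul_apply]
    conv_lhs => rw [← e.sum_repr' (e' k), map_sum, Finset.smul_sum]
    refine Finset.sum_congr rfl fun j _ => ?_
    rw [map_smul, smul_smul]
    congr 1
    have h3 : ⟪e i, ∑ i, ⟪e i, e' k⟫_ℝ • e i⟫_ℝ = ⟪e i, e' k⟫_ℝ := by rw [e.sum_repr' (e' k)]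
    rw [h3]
  rw [Finset.sum_congr rfl fun k _ => h1 k, Finset.sum_comm]
  refine Finset.sum_congr rfl fun i _ => ?_
  rw [Finset.sum_comm]
  have h4 : ∀ j, ∑ k, (⟪e i, e' k⟫_ℝ * ⟪e j, e' k⟫_ℝ) • B (T (e i)) (e j)
      = (if i = j then (1 : ℝ) else 0) • B (T (e i)) (e j) := fun j => by
    rw [← Finset.sum_smul]
    congr 1
    have h5 := e'.sum_inner_mul_inner (e i) (e j)
    rw [(orthonormal_iff_ite.1 e.orthonormal) i j] at h5
    rw [← h5]
    exact Finset.sum_congr rfl fun k _ => by rw [real_inner_comm (e j)]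
  rw [Finset.sum_congr rfl fun j _ => h4 j]
  simp

theorem msop_eq_sum (e : OrthonormalBasis ι ℝ F) (u : F → V) (x : F) :
    msop u x = ∑ i, fderiv ℝ (fderiv ℝ u) x (ginv (fderiv ℝ u x) (e i)) (e i) :=
  sum_bilin_eq e (stdOrthonormalBasis ℝ F) (fderiv ℝ (fderiv ℝ u) x) (ginv (fderiv ℝ u x))

theorem fderiv_scale {W : Type} [NormedAddCommGroup W] [NormedSpace ℝ W] {r : ℝ} (hr : r ≠ 0)
    (u : F → W) (x : F) : fderiv ℝ (fun x => u (r • x)) x = r • fderiv ℝ u (r • x) := by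
  have h1 := ContinuousLinearEquiv.comp_right_fderiv (𝕜 := ℝ)
    (ContinuousLinearEquiv.smulLeft (R₁ := ℝ) (M₁ := F) (Units.mk0 r hr)) (f := u) (x := x)
  have h2 : (u ∘ (ContinuousLinearEquiv.smulLeft (R₁ := ℝ) (M₁ := F) (Units.mk0 r hr)))
      = fun x => u (r • x) := rfl
  rw [h2] at h1
  rw [h1]
  ext v
  show fderiv ℝ u (r • x) (r • v) = r • fderiv ℝ u (r • x) v
  rw [map_smul]

theorem fderiv_scale1 {r : ℝ} (hr : r ≠ 0) (u : F → V) :
    fderiv ℝ (fun x => r⁻¹ • u (r • x)) = fun x => fderiv ℝ u (r • x) := by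
  funext x
  have h1 := ContinuousLinearEquiv.comp_fderiv (𝕜 := ℝ)
    (ContinuousLinearEquiv.smulLeft (R₁ := ℝ) (M₁ := V) (Units.mk0 r⁻¹ (inv_ne_zero hr)))
    (f := fun x => u (r • x)) (x := x)
  have h2 : ((ContinuousLinearEquiv.smulLeft (R₁ := ℝ) (M₁ := V) (Units.mk0 r⁻¹ (inv_ne_zero hr)))
      ∘ fun x => u (r • x)) = fun x => r⁻¹ • u (r • x) := rfl
  rw [h2] at h1
  rw [h1, fderiv_scale hr]
  ext v
  show r⁻¹ • (r • fderiv ℝ u (r • x)) v = _
  rw [smul_apply, smul_smul, inv_mul_cancel₀ hr, one_smul]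

/-- scaling -/
theorem msop_scale {r : ℝ} (hr : r ≠ 0) (u : F → V) (x : F) :
    msop (fun x => r⁻¹ • u (r • x)) x = r • msop u (r • x) := by
  unfold msop
  rw [fderiv_scale1 hr, fderiv_scale hr, Finset.smul_sum]
  exact Finset.sum_congr rfl fun i _ => rfl

theorem msop_translate (a : F) (u : F → V) (x : F) :
    msop (fun x => u (x + a)) x = msop u (x + a) := by
  unfold msop
  have h1 : fderiv ℝ (fun x => u (x + a)) = fun x => fderiv ℝ u (x + a) := by
    funext y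
    rw [fderiv_comp_add_right]
  rw [h1, fderiv_comp_add_right]

theorem msop_add_const (c : V) (u : F → V) (x : F) :
    msop (fun x => u x + c) x = msop u x := by
  unfold msop
  have h1 : fderiv ℝ (fun x => u x + c) = fderiv ℝ u := by
    funext y
    rw [fderiv_add_const]
  rw [h1]

end inv

section ref

variable {F V : Type} [NormedAddCommGroup F] [InnerProductSpace ℝ F] [FiniteDimensional ℝ F]
  [MeasurableSpace F] [BorelSpace F]
  [NormedAddCommGroup V] [InnerProductSpace ℝ V] [FiniteDimensional ℝ V]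
variable {κ : Type*} [Fintype κ]

/-- **globally smooth references** -/
theorem smooth_ref {c : F} (hc : ‖c‖ = 11 / 2) (b : OrthonormalBasis κ ℝ V) (N M : ℕ)
    {r' r : ℝ} (h0 : 0 < r') (h1 : r' < r) (h2 : r ≤ 2) :
    ∃ ε C : ℝ, 0 < ε ∧ 0 ≤ C ∧ ∀ a : κ → X F (N + 2), (∀ α, star (a α) = a α) → ‖a‖ ≤ ε →
      (∀ x, ‖x‖ < r → msop (syn b a) x = 0) →
      ∃ (u : F → V) (z : κ → X F M), ContDiff ℝ ∞ u ∧ (∀ α, star (z α) = z α) ∧ ‖z‖ ≤ C * ‖a‖ ∧
        u = syn b z ∧ (∀ x, ‖x‖ ≤ r' → u x = syn b a x) ∧ (∀ x, ‖x‖ < r' → msop u x = 0) ∧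
        (∀ x, r ≤ ‖x‖ → u x = 0) ∧ ∀ j ≤ M, ∀ x, ‖iteratedFDeriv ℝ j u x‖ ≤ C * ‖a‖ := by
  set ρ : ℝ := (r' + r) / 2 with hρ
  have hρ1 : r' < ρ := by rw [hρ]; linarith
  have hρ2 : ρ < r := by rw [hρ]; linarith
  obtain ⟨p₀, hp, HP⟩ := exists_smooth F V
  obtain ⟨ε1, C1, he1, hC1, H1'⟩ := intreg hc b M N M (by omega) ρ r (h0.trans hρ1) hρ2 h2
  obtain ⟨χ, hχ, hχ1, hχ2⟩ := exists_cut (F := F) h0 hρ1 (hρ2.le.trans h2)
  set Cg : ℝ := Fintype.card κ * (2 * π) ^ (N + 2) with hCg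
  have hpi := Real.pi_pos
  have hCg0 : 0 ≤ Cg := by positivity
  set C2 : ℝ := ‖cs (F := F) M hχ‖ * C1 with hC2
  have hC20 : 0 ≤ C2 := by positivity
  refine ⟨min ε1 (p₀ / (Cg + 1) / 2), max C2 (Fintype.card κ * (2 * π) ^ M * C2),
    by positivity, le_trans hC20 (le_max_left _ _), fun a has ha hM => ?_⟩
  obtain ⟨z, hzs, hzn, hz⟩ := H1' a has (ha.trans (min_le_left _ _)) hM
  set z' : κ → X F M := fun α => cs M hχ * z α with hz'
  have hz's : ∀ α, star (z' α) = z' α := fun α => by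
    show star (cs M hχ * z α) = _
    rw [star_mul, star_cs, hzs, mul_comm]
  have hz'n : ‖z'‖ ≤ C2 * ‖a‖ := by
    refine (pi_norm_le_iff_of_nonneg (by positivity)).2 fun α => ?_
    refine (norm_mul_le _ _).trans ?_
    rw [hC2, mul_assoc]
    exact mul_le_mul_of_nonneg_left ((norm_le_pi_norm z α).trans hzn) (norm_nonneg _)
  have hgrad : ∀ x, ‖fderiv ℝ (syn b a) x‖ < p₀ := fun x => by
    have h3 := norm_iteratedFDeriv_syn_le b a (j := 1) (by omega) x
    have h4 : ‖fderiv ℝ (syn b a) x‖ = ‖iteratedFDeriv ℝ 1 (syn b a) x‖ :=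
      (norm_iteratedFDeriv_one _ ).symm
    rw [h4]
    refine lt_of_le_of_lt h3 ?_
    have h5 : ‖a‖ ≤ p₀ / (Cg + 1) / 2 := ha.trans (min_le_right _ _)
    calc (Fintype.card κ : ℝ) * ((2 * π) ^ (N + 2) * ‖a‖) = Cg * ‖a‖ := by rw [hCg]; ring
      _ ≤ Cg * (p₀ / (Cg + 1) / 2) := by gcongr
      _ < p₀ := by
        rw [div_div, mul_div_assoc', div_lt_iff₀ (by positivity)]
        nlinarith
  have hCD : ContDiffOn ℝ ∞ (syn b a) (Metric.ball 0 r) := by
    refine HP (Metric.ball 0 r) (syn b a) Metric.isOpen_ball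
      (((contDiff_syn b a).of_le ?_).contDiffOn) (fun x hx => hM x (mem_ball_zero_iff.1 hx))
      (fun x _ => hgrad x)
    norm_cast
    omega
  have hu : ∀ x, syn b z' x = χ x • syn b a x := fun x => by
    refine onb_ext b fun α => ?_
    rw [inner_syn, inner_smul_right, inner_syn]
    show (ev (cs M hχ * z α) x).re = _
    rw [re_ev_mul (star_cs M hχ), ev_cs, Complex.ofReal_re]
    by_cases hx : χ x = 0
    · rw [hx, zero_mul, zero_mul]
    · rw [hz α x (hχ2 x hx).le]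
  have hu1 : ∀ x, ‖x‖ < r' → syn b z' =ᶠ[𝓝 x] syn b a := fun x hx => by
    filter_upwards [(isOpen_lt continuous_norm continuous_const).mem_nhds hx] with y hy
    rw [hu, hχ1 y (le_of_lt hy), one_smul]
  refine ⟨syn b z', z', ?_, hz's, hz'n.trans ?_, rfl, fun x hx => ?_, fun x hx => ?_,
    fun x hx => ?_, fun j hj x => ?_⟩
  · rw [contDiff_iff_contDiffAt]
    intro x
    rcases lt_or_ge ‖x‖ r with hx | hx
    · have h3 : ContDiffAt ℝ ∞ (fun x => χ x • syn b a x) x :=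
        hχ.smooth.contDiffAt.smul (hCD.contDiffAt (Metric.isOpen_ball.mem_nhds
          (mem_ball_zero_iff.2 hx)))
      exact h3.congr_of_eventuallyEq (Eventually.of_forall hu)
    · have h3 : syn b z' =ᶠ[𝓝 x] fun _ => (0 : V) := by
        have h4 : ρ < ‖x‖ := lt_of_lt_of_le hρ2 hx
        filter_upwards [(isOpen_lt continuous_const continuous_norm).mem_nhds h4] with y hy
        rw [hu]
        have h5 : χ y = 0 := by
          by_contra h6
          have h7 := hχ2 y h6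
          have h8 : ρ < ‖y‖ := hy
          linarith
        rw [h5, zero_smul]
      exact contDiffAt_const.congr_of_eventuallyEq h3
  · exact mul_le_mul_of_nonneg_right (le_max_left _ _) (norm_nonneg _)
  · rw [hu, hχ1 x hx, one_smul]
  · rw [msop_congr (hu1 x hx)]
    exact hM x (hx.trans h1)
  · rw [hu]
    have h5 : χ x = 0 := by
      by_contra h6
      have h7 := hχ2 x h6
      linarith
    rw [h5, zero_smul]
  · refine (norm_iteratedFDeriv_syn_le b z' hj x).trans ?_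
    calc (Fintype.card κ : ℝ) * ((2 * π) ^ M * ‖z'‖)
        ≤ (Fintype.card κ : ℝ) * ((2 * π) ^ M * (C2 * ‖a‖)) := by gcongr
      _ = (Fintype.card κ * (2 * π) ^ M * C2) * ‖a‖ := by ring
      _ ≤ _ := mul_le_mul_of_nonneg_right (le_max_right _ _) (norm_nonneg _)

end ref

end Crest.Agent.R234.Mx13_397
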