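import Crest.Agent.R234.Mx7_397
import Crest.Agent.R234.Mx13_397

/-!
# Row 234, VF-MINEX part 14 (helper397): existence theorems with `C^∞` output

* `exists_minimal_smooth`: `w` smooth small on `ball 0 2`, `msop w = O(δ)` ⟹ `u ∈ C^∞(F)` minimal on
  `ball 0 (5/4)`, `D^j(u - w) = O(δ)` there, `D^j u` small on all of `F`.
-/

set_option autoImplicit false
set_option linter.unusedSectionVars false

open MeasureTheory Complex Filter Real
open scoped ContDiff Topology InnerProductSpace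

noncomputable section

namespace Crest.Agent.R234.Mx14_397

open Crest.Agent.R086.Wie Crest.Agent.R234.Mx1_397 Crest.Agent.R234.Mx2_397
  Crest.Agent.R234.Mx3_397 Crest.Agent.R234.Mx4_397 Crest.Agent.R234.Mx5_397
  Crest.Agent.R234.Mx6_397 Crest.Agent.R234.Mx7_397 Crest.Agent.R234.Mx8_397
  Crest.Agent.R234.Mx11_397 Crest.Agent.R234.Mx12_397 Crest.Agent.R234.Mx13_397
  Crest.Agent.R234.Ell1_3

section X

variable {F V : Type} [NormedAddCommGroup F] [InnerProductSpace ℝ F] [FiniteDimensional ℝ F]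
  [MeasurableSpace F] [BorelSpace F]
  [NormedAddCommGroup V] [InnerProductSpace ℝ V] [FiniteDimensional ℝ V]
variable {κ : Type*} [Fintype κ]

/-- abstract existence with the element of the algebra kept -/
theorem exists_minX {c : F} (hc : ‖c‖ = 11 / 2) (b : OrthonormalBasis κ ℝ V) (N : ℕ) :
    ∃ ε C : ℝ, 0 < ε ∧ 0 ≤ C ∧ Sm (Fin (Module.finrank ℝ F)) κ ε ∧
      ∀ (w : F → V) (hw : ContDiffOn ℝ ∞ w (Metric.ball 0 2)), ‖wX b (N + 2) hw‖ ≤ ε →
      ∃ a : κ → X F (N + 2), (∀ α, star (a α) = a α) ∧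
        ‖a - wX b (N + 2) hw‖ ≤ 144 * ‖RX b N hw‖ ∧ ‖a‖ ≤ C * ‖wX b (N + 2) hw‖ ∧
        ∀ x, ‖x‖ < 3 / 2 → msop (syn b a) x = 0 := by
  obtain ⟨ε₀, he0, H⟩ := core hc b N
  obtain ⟨r, hr0, hr1, hr⟩ := exists_Sm (Fin (Module.finrank ℝ F)) κ
  have hcB := cB_nonneg (ι := Fin (Module.finrank ℝ F)) (κ := κ)
  have hcH := cH_nonneg (κ := κ)
  set A : ℝ := ‖zX F N‖ * (Module.finrank ℝ F * (2 * π) ^ 2 + cB (Fin (Module.finrank ℝ F)) κ)
    with hA
  have hA0 : 0 ≤ A := by positivity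
  set ε : ℝ := min r (min ε₀ (ε₀ / (A + 1))) with hε
  have hε0 : 0 < ε := by positivity
  have hεr : ε ≤ r := min_le_left _ _
  have hεe : ε ≤ ε₀ := (min_le_right _ _).trans (min_le_left _ _)
  have hεA : ε ≤ ε₀ / (A + 1) := (min_le_right _ _).trans (min_le_right _ _)
  have hSm : Sm (Fin (Module.finrank ℝ F)) κ ε := by
    refine le_trans ?_ hr
    gcongr
  refine ⟨ε, 144 * A + 1, hε0, by positivity, hSm, fun w hw hwε => ?_⟩
  have hR1 := norm_RX_le b N hSm hw hwε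
  have hR3 : ‖RX b N hw‖ ≤ A * ‖wX b (N + 2) hw‖ := by
    refine hR1.trans ?_
    have h1 : ‖wX b (N + 2) hw‖ ^ 3 ≤ ‖wX b (N + 2) hw‖ :=
      pow_le_of_le_one (norm_nonneg _) (hwε.trans (hεr.trans hr1)) (by norm_num)
    calc _ ≤ ‖zX F N‖ * (Module.finrank ℝ F * ((2 * π) ^ 2 * ‖wX b (N + 2) hw‖)
          + cB (Fin (Module.finrank ℝ F)) κ * ‖wX b (N + 2) hw‖) := by gcongr
      _ = A * ‖wX b (N + 2) hw‖ := by rw [hA]; ring
  have hR2 : ‖RX b N hw‖ ≤ ε₀ := by
    refine hR3.trans ?_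
    calc _ ≤ A * (ε₀ / (A + 1)) := by gcongr; exact hwε.trans hεA
      _ ≤ ε₀ := by
        rw [mul_div_assoc', div_le_iff₀ (by positivity)]
        nlinarith
  obtain ⟨f, hfs, hfR, hf⟩ := H w hw (RX b N hw) (star_RX hSm b N hw hwε)
    (ev_RX hSm b N hw hwε) (hwε.trans hεe) hR2
  have hGf : ‖fun α => G hc (f α)‖ ≤ 144 * ‖RX b N hw‖ := by
    refine (pi_norm_le_iff_of_nonneg (by positivity)).2 fun α => ?_
    refine (norm_G_le hc (f α)).trans ?_
    have h3 := (norm_le_pi_norm f α).trans hfR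
    linarith
  have hsub : (fun α => wX b (N + 2) hw α + G hc (f α)) - wX b (N + 2) hw
      = fun α => G hc (f α) := by
    funext α
    rw [Pi.sub_apply, add_sub_cancel_left]
  refine ⟨fun α => wX b (N + 2) hw α + G hc (f α), fun α => ?_, ?_, ?_, hf⟩
  · rw [star_add, star_wX, G_star, hfs]
  · rw [hsub]; exact hGf
  · have h1 : ‖(fun α => wX b (N + 2) hw α + G hc (f α))‖
        ≤ ‖(fun α => wX b (N + 2) hw α + G hc (f α)) - wX b (N + 2) hw‖ + ‖wX b (N + 2) hw‖ := by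
      have := norm_add_le ((fun α => wX b (N + 2) hw α + G hc (f α)) - wX b (N + 2) hw)
        (wX b (N + 2) hw)
      rwa [sub_add_cancel] at this
    rw [hsub] at h1
    nlinarith

end X

/-- **existence of smooth minimal graphs near approximate ones** -/
theorem exists_minimal_smooth (F V : Type) [NormedAddCommGroup F] [InnerProductSpace ℝ F]
    [FiniteDimensional ℝ F] [NormedAddCommGroup V] [InnerProductSpace ℝ V] [FiniteDimensional ℝ V]
    (N : ℕ) : ∃ (K : ℕ) (ε C : ℝ), 0 < ε ∧ 0 ≤ C ∧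
    ∀ w : F → V, ContDiffOn ℝ ∞ w (Metric.ball 0 2) → ∀ A, 0 ≤ A → A ≤ ε →
      (∀ j ≤ K, ∀ x ∈ Metric.ball (0 : F) 2, ‖iteratedFDeriv ℝ j w x‖ ≤ A) →
      ∀ δ, 0 ≤ δ →
      (∀ j ≤ K, ∀ x ∈ Metric.ball (0 : F) 2, ‖iteratedFDeriv ℝ j (msop w) x‖ ≤ δ) →
      ∃ u : F → V, ContDiff ℝ ∞ u ∧ (∀ x, ‖x‖ < 5 / 4 → msop u x = 0) ∧
        (∀ j ≤ N, ∀ x, ‖x‖ < 5 / 4 → ‖iteratedFDeriv ℝ j (fun y => u y - w y) x‖ ≤ C * δ) ∧
        (∀ j ≤ N, ∀ x, ‖iteratedFDeriv ℝ j u x‖ ≤ C * A) ∧ ∀ x, 3 / 2 ≤ ‖x‖ → u x = 0 := by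
  rcases subsingleton_or_nontrivial F with hF | hF
  · refine ⟨0, 1, 1, one_pos, zero_le_one, fun w hw A hA _ hb δ hδ _ => ?_⟩
    have hw0 : w = fun _ => w 0 := funext fun y => by rw [Subsingleton.elim y 0]
    refine ⟨w, ?_, fun x _ => msop_subsingleton w x, fun j _ x _ => ?_, fun j _ x => ?_,
      fun x hx => ?_⟩
    · rw [hw0]
      exact contDiff_const
    · simp only [sub_self]
      rw [iteratedFDeriv_fun_zero]
      simp only [Pi.zero_apply, norm_zero, one_mul]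
      exact hδ
    · have hx : x = 0 := Subsingleton.elim _ _
      rcases Nat.eq_zero_or_pos j with rfl | hj
      · rw [one_mul]
        exact hb 0 le_rfl x (by rw [hx]; exact Metric.mem_ball_self (by norm_num))
      · rw [hw0, iteratedFDeriv_const_of_ne (by omega)]
        simp only [Pi.zero_apply, norm_zero, one_mul]
        exact hA
    · have hx0 : x = 0 := Subsingleton.elim _ _
      rw [hx0, norm_zero] at hx
      norm_num at hx
  let _ : MeasurableSpace F := borel F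
  have _ : BorelSpace F := ⟨rfl⟩
  obtain ⟨c, hc⟩ := exists_norm_eq F (by norm_num : (0 : ℝ) ≤ 11 / 2)
  set b := stdOrthonormalBasis ℝ V with hb
  obtain ⟨ε, C, he0, hC0, hSm, H⟩ := exists_minX hc b N
  obtain ⟨ε', C', he'0, hC'0, H'⟩ := smooth_ref hc b N N (r' := 5 / 4) (r := 3 / 2)
    (by norm_num) (by norm_num) (by norm_num)
  obtain ⟨K1, C1, hC10, H1⟩ := exists_wX_bound (F := F) b (N + 2)
  obtain ⟨K2, C2, hC20, H2⟩ := exists_RX_bound (F := F) b N
  set Cn : ℝ := Fintype.card (Fin (Module.finrank ℝ V)) * ((2 * π) ^ (N + 2) * 144) with hCn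
  have hpi := Real.pi_pos
  have hCn0 : 0 ≤ Cn := by positivity
  refine ⟨max K1 K2, min (ε / (C1 + 1)) (ε' / (C * C1 + 1)), max (Cn * C2) (C' * (C * C1)),
    by positivity, le_trans (by positivity : (0 : ℝ) ≤ Cn * C2) (le_max_left _ _),
    fun w hw A hA hAε hbd δ hδ hM => ?_⟩
  have h0 : ‖wX b (N + 2) hw‖ ≤ C1 * A := H1 w hw A hA
    fun j hj x hx => hbd j (hj.trans (le_max_left _ _)) x hx
  have h1 : ‖wX b (N + 2) hw‖ ≤ ε := by
    refine h0.trans ((mul_le_mul_of_nonneg_left (hAε.trans (min_le_left _ _)) hC10).trans ?_)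
    rw [mul_div_assoc', div_le_iff₀ (by positivity)]
    nlinarith
  obtain ⟨a, has, ha1, ha2, ha3⟩ := H w hw h1
  have h2 : ‖a‖ ≤ C * C1 * A := by
    refine ha2.trans ?_
    rw [mul_assoc]
    exact mul_le_mul_of_nonneg_left h0 hC0
  have h3 : ‖a‖ ≤ ε' := by
    refine h2.trans ((mul_le_mul_of_nonneg_left (hAε.trans (min_le_right _ _))
      (by positivity)).trans ?_)
    rw [mul_div_assoc', div_le_iff₀ (by positivity)]
    nlinarith
  obtain ⟨u, z, hu1, _, _, _, hu2, hu3, hu4, hu5⟩ := H' a has h3 ha3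
  refine ⟨u, hu1, hu3, fun j hj x hx => ?_, fun j hj x => ?_, hu4⟩
  · have h4 : (fun y => u y - w y) =ᶠ[𝓝 x] syn b (a - wX b (N + 2) hw) := by
      filter_upwards [(isOpen_lt continuous_norm continuous_const).mem_nhds hx,
        syn_wX_eventuallyEq b (N + 2) hw (x := x) (by linarith)] with y hy hy2
      rw [hu2 y (le_of_lt hy), ← hy2]
      refine onb_ext b fun α => ?_
      rw [inner_sub_right, inner_syn, inner_syn, inner_syn, Pi.sub_apply, ev_sub, Complex.sub_re]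
    rw [(Filter.EventuallyEq.iteratedFDeriv ℝ h4 j).eq_of_nhds]
    refine (norm_iteratedFDeriv_syn_le b _ (hj.trans (by omega)) x).trans ?_
    have h5 := H2 w hw ε hSm h1 δ hδ fun j hj x hx => hM j (hj.trans (le_max_right _ _)) x hx
    calc _ ≤ (Fintype.card (Fin (Module.finrank ℝ V)) : ℝ) * ((2 * π) ^ (N + 2) *
          (144 * (C2 * δ))) := by
            have h6 := ha1.trans (mul_le_mul_of_nonneg_left h5 (by norm_num : (0 : ℝ) ≤ 144))
            gcongr
      _ = (Cn * C2) * δ := by rw [hCn]; ring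
      _ ≤ _ := mul_le_mul_of_nonneg_right (le_max_left _ _) hδ
  · refine (hu5 j hj x).trans ?_
    calc C' * ‖a‖ ≤ C' * (C * C1 * A) := by gcongr
      _ = (C' * (C * C1)) * A := by ring
      _ ≤ _ := mul_le_mul_of_nonneg_right (le_max_right _ _) hA

end Crest.Agent.R234.Mx14_397
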