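import Crest.Agent.R234.Mx13_397
import Crest.Agent.R234.MgDefs2_570

/-!
# Row 234, VF-MINEX part 15 (helper397): `C^K` functions in the Wiener space; node F2-REG

* `exists_CK`: `f ∈ C^{M+m+1}` supported in `closedBall 0 2` ⟹ `f = ev a`, `‖a‖_M ≤ C sup |D^j f|`;
* `regP2 : RegP2` (interior regularity of reference minimal graphs, loss `ε^{-p}`).
-/

set_option autoImplicit false
set_option linter.unusedSectionVars false

open MeasureTheory Complex Filter Real
open scoped ContDiff Topology InnerProductSpace FourierTransform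

noncomputable section

namespace Crest.Agent.R234.Mx15_397

open Crest.Agent.R086.Wie Crest.Agent.R234.Mx1_397 Crest.Agent.R234.Mx2_397
  Crest.Agent.R234.Mx3_397 Crest.Agent.R234.Mx4_397 Crest.Agent.R234.Mx5_397
  Crest.Agent.R234.Mx6_397 Crest.Agent.R234.Mx8_397 Crest.Agent.R234.Mx11_397
  Crest.Agent.R234.Mx12_397 Crest.Agent.R234.Mx13_397 Crest.Agent.R234.Ell1_3

section CK

variable (F : Type*) [NormedAddCommGroup F] [InnerProductSpace ℝ F] [FiniteDimensional ℝ F]
  [MeasurableSpace F] [BorelSpace F]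

/-- **`C^K` functions with support in the ball of radius 2** -/
theorem exists_CK (M : ℕ) : ∃ C : ℝ, 0 ≤ C ∧ ∀ (f : F → ℝ) (A : ℝ), 0 ≤ A →
    ContDiff ℝ (M + Module.finrank ℝ F + 1 : ℕ) f → (∀ x, 2 < ‖x‖ → f x = 0) →
    (∀ j ≤ M + Module.finrank ℝ F + 1, ∀ x, ‖iteratedFDeriv ℝ j f x‖ ≤ A) →
    ∃ a : X F M, star a = a ∧ (∀ x, ev a x = (f x : ℂ)) ∧ ‖a‖ ≤ C * A := by
  set m := Module.finrank ℝ F with hm
  set K := M + m + 1 with hK
  set B := ∫ x : F, (1 + ‖x‖) ^ (-((m : ℝ) + 1)) with hB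
  have hB0 : 0 ≤ B := integral_nonneg fun x => by positivity
  set vol := (volume (Metric.closedBall (0 : F) 2)).toReal with hvol
  have hvol0 : 0 ≤ vol := ENNReal.toReal_nonneg
  set C1 : ℝ := 2 ^ K * (2 * (2 ^ K * ((K + 1) * vol))) with hC1
  have hC10 : 0 ≤ C1 := by positivity
  refine ⟨C1 * B, by positivity, fun f A hA hf hsupp hbd => ?_⟩
  set g : F → ℂ := fun x => (f x : ℂ) with hg
  have hgf : g = Complex.ofRealCLM ∘ f := rfl
  have hgC : ContDiff ℝ K g := Complex.ofRealCLM.contDiff.comp hf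
  have hgd : ∀ j ≤ K, ∀ x, ‖iteratedFDeriv ℝ j g x‖ ≤ A := fun j hj x => by
    rw [hgf]
    refine (Complex.ofRealCLM.norm_iteratedFDeriv_comp_left (hf.contDiffAt (x := x))
      (by exact_mod_cast hj)).trans ?_
    rw [Complex.ofRealCLM_norm, one_mul]
    exact hbd j hj x
  have hgz : ∀ x, 2 < ‖x‖ → g x = 0 := fun x hx => by
    show ((f x : ℝ) : ℂ) = 0
    rw [hsupp x hx, Complex.ofReal_zero]
  have hcs : HasCompactSupport g :=
    HasCompactSupport.intro (isCompact_closedBall (0 : F) 2) fun x hx => hgz x (by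
      rw [mem_closedBall_zero_iff, not_le] at hx; exact hx)
  have hdz : ∀ j : ℕ, ∀ x, 2 < ‖x‖ → iteratedFDeriv ℝ j g x = 0 := fun j x hx => by
    have h4 : g =ᶠ[𝓝 x] fun _ => (0 : ℂ) := by
      filter_upwards [(isOpen_lt continuous_const continuous_norm).mem_nhds hx] with y hy
      exact hgz y hy
    rw [(Filter.EventuallyEq.iteratedFDeriv ℝ h4 j).eq_of_nhds]
    simp only [iteratedFDeriv_fun_zero, Pi.zero_apply]
  have hint : ∀ n ≤ K, Integrable (fun v => ‖iteratedFDeriv ℝ n g v‖) := fun n hn => by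
    have h1 : Continuous (iteratedFDeriv ℝ n g) := hgC.continuous_iteratedFDeriv (by exact_mod_cast hn)
    exact h1.norm.integrable_of_hasCompactSupport (hcs.iteratedFDeriv n).norm
  have hint2 : ∀ n ≤ K, ∫ v, ‖iteratedFDeriv ℝ n g v‖ ≤ A * vol := fun n hn => by
    have h1 : ∫ v, ‖iteratedFDeriv ℝ n g v‖ = ∫ v in Metric.closedBall (0 : F) 2,
        ‖iteratedFDeriv ℝ n g v‖ := by
      refine (setIntegral_eq_integral_of_forall_compl_eq_zero fun x hx => ?_).symm
      rw [mem_closedBall_zero_iff, not_le] at hx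
      rw [hdz n x hx, norm_zero]
    rw [h1]
    calc _ ≤ ∫ _v in Metric.closedBall (0 : F) 2, A :=
          setIntegral_mono ((hint n hn).integrableOn)
            (integrableOn_const (measure_closedBall_lt_top.ne)) fun v => hgd n hn v
      _ = _ := by
        rw [setIntegral_const, smul_eq_mul, mul_comm]
        rfl
  have hdec : ∀ n ≤ K, ∀ w, ‖w‖ ^ n * ‖𝓕 g w‖ ≤ 2 ^ K * ((K + 1) * vol) * A := fun n hn w => by
    have h1 := Real.pow_mul_norm_iteratedFDeriv_fourier_le (K := 0) (N := (K : ℕ∞)) hgC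
      (fun k n hk hn => by
        have hk0 : k = 0 := by simpa using hk
        subst hk0
        simpa using hint n (by exact_mod_cast hn)) (k := 0) (n := n) le_rfl
        (by exact_mod_cast hn) w
    rw [norm_iteratedFDeriv_zero] at h1
    refine h1.trans ?_
    have h2 : ∑ p ∈ Finset.range (0 + 1) ×ˢ Finset.range (n + 1),
        ∫ v, ‖v‖ ^ p.1 * ‖iteratedFDeriv ℝ p.2 g v‖ ≤ (K + 1) * (A * vol) := by
      rw [Finset.sum_product]
      simp only [zero_add, Finset.range_one, Finset.sum_singleton, pow_zero, one_mul]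
      calc _ ≤ ∑ _j ∈ Finset.range (n + 1), A * vol :=
            Finset.sum_le_sum fun j hj => hint2 j (by
              have := Finset.mem_range.1 hj
              omega)
        _ = ((n : ℝ) + 1) * (A * vol) := by
            rw [Finset.sum_const, Finset.card_range, nsmul_eq_mul]
            push_cast; ring
        _ ≤ _ := by
            have : (n : ℝ) ≤ K := by exact_mod_cast hn
            gcongr
    have h3 : ((2 : ℝ) * π) ^ 0 * (2 * ((0 : ℕ) : ℝ) + 2) ^ n ≤ 2 ^ K := by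
      simp only [pow_zero, one_mul, Nat.cast_zero, mul_zero, zero_add]
      exact pow_le_pow_right₀ (by norm_num) hn
    calc _ ≤ 2 ^ K * ((K + 1) * (A * vol)) := mul_le_mul h3 h2
          (Finset.sum_nonneg fun p _ => integral_nonneg fun v => by positivity) (by positivity)
      _ = _ := by ring
  have hdecK : ∀ w, (1 + ‖w‖) ^ K * ‖𝓕 g w‖ ≤ C1 * A := fun w => by
    have h1 : (1 + ‖w‖) ^ K ≤ 2 ^ K * (1 + ‖w‖ ^ K) := by
      refine (add_pow_le zero_le_one (norm_nonneg w) K).trans ?_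
      rw [one_pow]
      refine mul_le_mul_of_nonneg_right (pow_le_pow_right₀ (by norm_num) (by omega)) (by positivity)
    have h2 := hdec K le_rfl w
    have h3 := hdec 0 (Nat.zero_le _) w
    rw [pow_zero, one_mul] at h3
    calc (1 + ‖w‖) ^ K * ‖𝓕 g w‖ ≤ (2 ^ K * (1 + ‖w‖ ^ K)) * ‖𝓕 g w‖ :=
          mul_le_mul_of_nonneg_right h1 (norm_nonneg _)
      _ = 2 ^ K * (‖𝓕 g w‖ + ‖w‖ ^ K * ‖𝓕 g w‖) := by ring
      _ ≤ 2 ^ K * (2 ^ K * ((K + 1) * vol) * A + 2 ^ K * ((K + 1) * vol) * A) := by gcongr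
      _ = _ := by rw [hC1]; ring
  have hwt : ∀ w, wt M w * ‖𝓕 g w‖ ≤ (C1 * A) * (1 + ‖w‖) ^ (-((m : ℝ) + 1)) := fun w => by
    have h1 : (0 : ℝ) < 1 + ‖w‖ := by positivity
    have h2 : (1 + ‖w‖) ^ (-((m : ℝ) + 1)) = ((1 + ‖w‖) ^ (m + 1))⁻¹ := by
      rw [rpow_neg h1.le, ← Nat.cast_succ, rpow_natCast]
    rw [h2, ← div_eq_mul_inv, le_div_iff₀ (by positivity)]
    unfold wt
    calc (1 + ‖w‖) ^ M * ‖𝓕 g w‖ * (1 + ‖w‖) ^ (m + 1) = (1 + ‖w‖) ^ K * ‖𝓕 g w‖ := by
          rw [hK, add_assoc, pow_add]; ring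
      _ ≤ _ := hdecK w
  have hgint : Integrable g := by
    have := hgC.continuous.integrable_of_hasCompactSupport (μ := (volume : Measure F)) hcs
    exact this
  have hcont : Continuous (𝓕 g) := by
    exact VectorFourier.fourierIntegral_continuous Real.continuous_fourierChar
      (by exact continuous_inner) hgint
  have hbint : Integrable (fun x : F => (1 + ‖x‖) ^ (-((m : ℝ) + 1))) :=
    integrable_one_add_norm (by rw [hm]; linarith)
  have hW : WInt M (𝓕 g) := by
    rw [WInt, gint_iff hcont.aestronglyMeasurable]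
    refine (hbint.const_mul (C1 * A)).mono
      ((continuous_wt M).mul hcont.norm).aestronglyMeasurable (Eventually.of_forall fun w => ?_)
    simp only [wtV_apply]
    rw [Real.norm_of_nonneg (mul_nonneg (wt_nonneg M w) (norm_nonneg _))]
    exact (hwt w).trans (le_abs_self _)
  have hev : ∀ x, ev (XG.mk (𝓕 g) hW) x = (f x : ℂ) := fun x => by
    have h1 : ev (XG.mk (𝓕 g) hW) x = 𝓕⁻ (𝓕 g) x := by
      rw [ev_eq, Real.fourierInv_eq]
      exact integral_congr_ae ((XG.den_mk hW).mono fun ξ hξ => by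
        simp only [hξ]
        rfl)
    rw [h1, hgC.continuous.fourierInv_fourier_eq hgint hW.integrable]
  refine ⟨XG.mk (𝓕 g) hW, ev_inj fun x => ?_, hev, ?_⟩
  · rw [ev_star, hev, Complex.conj_ofReal]
  · rw [XG.norm_mk]
    calc ∫ x, (wtV F M) x * ‖𝓕 g x‖ ≤ ∫ x, (C1 * A) * (1 + ‖x‖) ^ (-((m : ℝ) + 1)) :=
          integral_mono hW.norm_int (hbint.const_mul _) fun x => hwt x
      _ = _ := by rw [integral_const_mul]; ring

end CK

end Crest.Agent.R234.Mx15_397
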