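import Crest.Agent.R234.Mx15_397

/-!
# Row 234, VF-MINEX part 16 (helper397): node F2-REG

`reg_pt`: pointwise bounds `‖D^j u(x₀)‖ ≤ C ‖a‖ / ε^J`, `u = syn b a` minimal on `ball x₀ ε`;
`regP2 : RegP2`.
-/

set_option autoImplicit false
set_option linter.unusedSectionVars false

open MeasureTheory Complex Filter Real
open scoped ContDiff Topology InnerProductSpace

noncomputable section

namespace Crest.Agent.R234.Mx16_397

open Crest.Agent.R086.Wie Crest.Agent.R234.Mx1_397 Crest.Agent.R234.Mx2_397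
  Crest.Agent.R234.Mx3_397 Crest.Agent.R234.Mx4_397 Crest.Agent.R234.Mx5_397
  Crest.Agent.R234.Mx6_397 Crest.Agent.R234.Mx8_397 Crest.Agent.R234.Mx11_397
  Crest.Agent.R234.Mx12_397 Crest.Agent.R234.Mx13_397 Crest.Agent.R234.Mx15_397
  Crest.Agent.R234.Ell1_3

section gen

variable {F : Type*} [NormedAddCommGroup F] [InnerProductSpace ℝ F] [FiniteDimensional ℝ F]
  [MeasurableSpace F] [BorelSpace F]

theorem IsCut.exists_mul_boundK {η : F → ℝ} (h : IsCut η) (K : ℕ) :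
    ∃ C : ℝ, 0 ≤ C ∧ ∀ (w : F → ℝ) (A : ℝ), 0 ≤ A → ContDiff ℝ K w →
      (∀ j ≤ K, ∀ x ∈ Metric.ball (0 : F) 2, ‖iteratedFDeriv ℝ j w x‖ ≤ A) →
      ∀ j ≤ K, ∀ x, ‖iteratedFDeriv ℝ j (fun x => η x * w x) x‖ ≤ C * A := by
  obtain ⟨C, hC0, hC⟩ := h.exists_bound K
  refine ⟨2 ^ K * C, by positivity, fun w A hA hw hb j hj x => ?_⟩
  by_cases hx : x ∈ tsupport η
  · have hx2 := h.supp hx
    have h2 := norm_iteratedFDeriv_mul_le (𝕜 := ℝ) (N := (K : ℕ))
      (h.smooth.of_le (by exact_mod_cast le_top)) hw x (n := j) (by exact_mod_cast hj)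
    refine h2.trans ?_
    calc ∑ i ∈ Finset.range (j + 1), (j.choose i : ℝ) * ‖iteratedFDeriv ℝ i η x‖ *
          ‖iteratedFDeriv ℝ (j - i) w x‖
        ≤ ∑ i ∈ Finset.range (j + 1), (j.choose i : ℝ) * C * A := by
          refine Finset.sum_le_sum fun i hi => ?_
          have hi' : i ≤ j := by
            have := Finset.mem_range.1 hi
            omega
          have h3 := hC i (hi'.trans hj) x
          have h4 := hb (j - i) (by omega) x hx2
          gcongr
      _ = 2 ^ j * (C * A) := by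
          rw [← Finset.sum_mul, ← Finset.sum_mul]
          have h5 : (∑ i ∈ Finset.range (j + 1), (j.choose i : ℝ)) = 2 ^ j := by
            exact_mod_cast Nat.sum_range_choose j
          rw [h5]; ring
      _ ≤ 2 ^ K * C * A := by
          rw [mul_assoc]
          exact mul_le_mul_of_nonneg_right (pow_le_pow_right₀ (by norm_num) hj) (by positivity)
  · have h1 : (fun x => η x * w x) =ᶠ[𝓝 x] fun _ => (0 : ℝ) := by
      filter_upwards [(isClosed_tsupport η).isOpen_compl.mem_nhds hx] with y hy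
      have : η y = 0 := by
        by_contra h2
        exact hy (subset_tsupport η h2)
      rw [this, zero_mul]
    have h5 : iteratedFDeriv ℝ j (fun x => η x * w x) x = 0 := by
      rw [(Filter.EventuallyEq.iteratedFDeriv ℝ h1 j).eq_of_nhds]
      simp only [iteratedFDeriv_fun_zero, Pi.zero_apply]
    rw [h5, norm_zero]
    positivity

variable {W : Type*} [NormedAddCommGroup W] [NormedSpace ℝ W]

/-- iterated derivatives under `y ↦ s y + x₀` -/
theorem norm_iteratedFDeriv_affine_le {s : ℝ} (hs : s ≠ 0) (f : F → W) (x₀ y : F) (j : ℕ) :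
    ‖iteratedFDeriv ℝ j (fun y => f (s • y + x₀)) y‖
      ≤ |s| ^ j * ‖iteratedFDeriv ℝ j f (s • y + x₀)‖ := by
  set g := ContinuousLinearEquiv.smulLeft (R₁ := ℝ) (M₁ := F) (Units.mk0 s hs) with hg
  have h1 : (fun y => f (s • y + x₀)) = (fun z => f (z + x₀)) ∘ g := rfl
  have h2 := g.iteratedFDerivWithin_comp_right (fun z => f (z + x₀))
    (uniqueDiffOn_univ (𝕜 := ℝ) (E := F)) (x := y) (Set.mem_univ _) j
  rw [Set.preimage_univ, iteratedFDerivWithin_univ, iteratedFDerivWithin_univ,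
    iteratedFDeriv_comp_add_right] at h2
  rw [h1, h2]
  have h3 : g y = s • y := rfl
  rw [h3]
  refine (ContinuousMultilinearMap.norm_compContinuousLinearMap_le _ _).trans ?_
  rw [mul_comm]
  refine mul_le_mul_of_nonneg_right ?_ (norm_nonneg _)
  rw [Finset.prod_const, Finset.card_univ, Fintype.card_fin]
  refine pow_le_pow_left₀ (norm_nonneg _) ?_ j
  refine ContinuousLinearMap.opNorm_le_bound _ (abs_nonneg s) fun v => ?_
  have h4 : (g : F →L[ℝ] F) v = s • v := rfl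
  rw [h4, norm_smul, Real.norm_eq_abs]

end gen

section reg

variable {F V : Type} [NormedAddCommGroup F] [InnerProductSpace ℝ F] [FiniteDimensional ℝ F]
  [MeasurableSpace F] [BorelSpace F]
  [NormedAddCommGroup V] [InnerProductSpace ℝ V] [FiniteDimensional ℝ V]
variable {κ : Type*} [Fintype κ]

/-- the blow-up of `u` at `x₀` -/
def bl (u : F → V) (x₀ : F) (s : ℝ) (y : F) : V := s⁻¹ • (u (s • y + x₀) + -u x₀)

theorem fderiv_bl {s : ℝ} (hs : s ≠ 0) (u : F → V) (x₀ : F) :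
    fderiv ℝ (bl u x₀ s) = fun y => fderiv ℝ u (s • y + x₀) := by
  have h1 := fderiv_scale1 (F := F) (V := V) hs (fun x => u (x + x₀) + -u x₀)
  have h2 : (fun x => s⁻¹ • (fun x => u (x + x₀) + -u x₀) (s • x)) = bl u x₀ s := rfl
  rw [h2] at h1
  rw [h1]
  funext y
  rw [fderiv_add_const, fderiv_comp_add_right]

theorem msop_bl {s : ℝ} (hs : s ≠ 0) (u : F → V) (x₀ y : F) :
    msop (bl u x₀ s) y = s • msop u (s • y + x₀) := by
  have h1 := msop_scale (F := F) (V := V) hs (fun x => u (x + x₀) + -u x₀) y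
  have h2 : (fun x => s⁻¹ • (fun x => u (x + x₀) + -u x₀) (s • x)) = bl u x₀ s := rfl
  rw [h2] at h1
  rw [h1, msop_add_const, msop_translate]

theorem norm_iteratedFDeriv_bl_le {s : ℝ} (hs : 0 < s) (u : F → V) (x₀ y : F) (j : ℕ) :
    ‖iteratedFDeriv ℝ (j + 1) (bl u x₀ s) y‖
      ≤ s ^ j * ‖iteratedFDeriv ℝ (j + 1) u (s • y + x₀)‖ := by
  rw [← norm_iteratedFDeriv_fderiv, ← norm_iteratedFDeriv_fderiv, fderiv_bl hs.ne']
  have := norm_iteratedFDeriv_affine_le hs.ne' (fderiv ℝ u) x₀ y j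
  rwa [abs_of_pos hs] at this

theorem norm_iteratedFDeriv_unbl_le {s : ℝ} (hs : 0 < s) (u : F → V) (x₀ : F) (j : ℕ) :
    ‖iteratedFDeriv ℝ (j + 1) u x₀‖ ≤ (s⁻¹) ^ j * ‖iteratedFDeriv ℝ (j + 1) (bl u x₀ s) 0‖ := by
  rw [← norm_iteratedFDeriv_fderiv, ← norm_iteratedFDeriv_fderiv]
  have h1 : fderiv ℝ u = fun x => fderiv ℝ (bl u x₀ s) (s⁻¹ • x + -(s⁻¹ • x₀)) := by
    rw [fderiv_bl hs.ne']
    funext x
    simp only
    congr 1
    rw [smul_add, smul_smul, mul_inv_cancel₀ hs.ne', one_smul, smul_neg, smul_smul,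
      mul_inv_cancel₀ hs.ne', one_smul]
    abel
  have h2 := norm_iteratedFDeriv_affine_le (inv_ne_zero hs.ne') (fderiv ℝ (bl u x₀ s))
    (-(s⁻¹ • x₀)) x₀ j
  rw [← h1, add_neg_cancel, abs_of_pos (inv_pos.2 hs)] at h2
  exact h2

theorem norm_iteratedFDeriv_inner_leK (b : OrthonormalBasis κ ℝ V) {w : F → V} {x : F} {K : ℕ}
    (hw : ContDiffAt ℝ K w x) {j : ℕ} (hj : j ≤ K) (α : κ) :
    ‖iteratedFDeriv ℝ j (fun x => ⟪b α, w x⟫_ℝ) x‖ ≤ ‖iteratedFDeriv ℝ j w x‖ := by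
  have h3 : (fun x => ⟪b α, w x⟫_ℝ) = (innerSL ℝ (b α)) ∘ w := rfl
  rw [h3]
  refine ((innerSL ℝ (b α)).norm_iteratedFDeriv_comp_left hw (by exact_mod_cast hj)).trans ?_
  rw [innerSL_apply_norm, b.norm_eq_one, one_mul]

/-- **pointwise interior regularity** -/
theorem reg_pt {c : F} (hc : ‖c‖ = 11 / 2) (b : OrthonormalBasis κ ℝ V) (N : ℕ)
    (hN : Module.finrank ℝ F + 1 ≤ N) (J : ℕ) :
    ∃ κ₀ C : ℝ, 0 < κ₀ ∧ 0 ≤ C ∧ ∀ (a : κ → X F (N + 2)), (∀ α, star (a α) = a α) → ‖a‖ ≤ κ₀ →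
      ∀ (x₀ : F) (ε : ℝ), 0 < ε → ε ≤ 1 → (∀ x, ‖x - x₀‖ < ε → msop (syn b a) x = 0) →
      ∀ j ≤ J, ‖iteratedFDeriv ℝ j (syn b a) x₀‖ ≤ C * ‖a‖ / ε ^ J := by
  obtain ⟨χ, hχ, hχ1, -⟩ := exists_cut (F := F) one_pos (by norm_num : (1 : ℝ) < 2) le_rfl
  obtain ⟨C1, hC10, H1⟩ := exists_CK F 2
  set K := 2 + Module.finrank ℝ F + 1 with hK
  obtain ⟨C2, hC20, H2⟩ := IsCut.exists_mul_boundK hχ K
  obtain ⟨εJ, C3, hεJ, hC30, H3⟩ := intreg hc b J 0 J (by omega) (1 / 2) 1 (by norm_num)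
    (by norm_num) (by norm_num)
  have hpi := Real.pi_pos
  set Cg : ℝ := Fintype.card κ * (2 * π) ^ (N + 2) with hCg
  have hCg0 : 0 ≤ Cg := by positivity
  set D : ℝ := C1 * (C2 * (2 * Cg)) with hD
  have hD0 : 0 ≤ D := by positivity
  set E : ℝ := Fintype.card κ * ((2 * π) ^ J * (C3 * D)) with hE
  have hE0 : 0 ≤ E := by positivity
  refine ⟨εJ / (D + 1), 2 ^ J * E + Cg, by positivity, by positivity,
    fun a has ha x₀ ε hε hε1 hM => ?_⟩
  have hder : ∀ j ≤ N + 2, ∀ x, ‖iteratedFDeriv ℝ j (syn b a) x‖ ≤ Cg * ‖a‖ := fun j hj x => by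
    refine (norm_iteratedFDeriv_syn_le b a hj x).trans (le_of_eq ?_)
    rw [hCg]; ring
  set s : ℝ := ε / 2 with hs
  have hs0 : 0 < s := by rw [hs]; linarith
  have hs1 : s ≤ 1 := by rw [hs]; linarith
  set w := bl (syn b a) x₀ s with hw
  have hcd : ContDiff ℝ (N + 2 : ℕ) (syn b a) := contDiff_syn b a
  have hwcd : ContDiff ℝ (N + 2 : ℕ) w := by
    have h1 : ContDiff ℝ (N + 2 : ℕ) fun y : F => s • y + x₀ :=
      (contDiff_id.const_smul s).add contDiff_const
    exact ((hcd.comp h1).add contDiff_const).const_smul s⁻¹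
  have hwK : ContDiff ℝ K w := hwcd.of_le (by
    norm_cast
    omega)
  -- bounds of `w` on the ball of radius 2
  have hwb : ∀ j ≤ K, ∀ y ∈ Metric.ball (0 : F) 2, ‖iteratedFDeriv ℝ j w y‖ ≤ 2 * Cg * ‖a‖ := by
    intro j hj y hy
    have hy' := mem_ball_zero_iff.1 hy
    rcases Nat.eq_zero_or_pos j with rfl | hj0
    · rw [norm_iteratedFDeriv_zero]
      have h1 : ‖syn b a (s • y + x₀) - syn b a x₀‖ ≤ Cg * ‖a‖ * ‖(s • y + x₀) - x₀‖ := by
        refine Convex.norm_image_sub_le_of_norm_fderiv_le (𝕜 := ℝ) (s := Set.univ)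
          (fun x _ => (hcd.differentiable (by simp)) x) (fun x _ => ?_) convex_univ
          (Set.mem_univ _) (Set.mem_univ _)
        rw [← norm_iteratedFDeriv_one]
        exact hder 1 (by omega) x
      have h2 : ‖(s • y + x₀) - x₀‖ ≤ s * 2 := by
        rw [add_sub_cancel_right, norm_smul, Real.norm_of_nonneg hs0.le]
        gcongr
      show ‖s⁻¹ • (syn b a (s • y + x₀) + -syn b a x₀)‖ ≤ _
      rw [norm_smul, norm_inv, Real.norm_of_nonneg hs0.le, ← sub_eq_add_neg,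
        inv_mul_le_iff₀ hs0]
      calc _ ≤ Cg * ‖a‖ * (s * 2) := h1.trans (mul_le_mul_of_nonneg_left h2 (by positivity))
        _ = _ := by ring
    · obtain ⟨i, rfl⟩ : ∃ i, j = i + 1 := ⟨j - 1, by omega⟩
      refine (norm_iteratedFDeriv_bl_le hs0 (syn b a) x₀ y i).trans ?_
      have h1 := hder (i + 1) (by omega) (s • y + x₀)
      have h2 : s ^ i ≤ 1 := pow_le_one₀ hs0.le hs1
      calc s ^ i * ‖iteratedFDeriv ℝ (i + 1) (syn b a) (s • y + x₀)‖ ≤ 1 * (Cg * ‖a‖) := by gcongr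
        _ ≤ _ := by
          have : 0 ≤ Cg * ‖a‖ := by positivity
          linarith
  -- the element of `X 2`
  have hz : ∀ α, ∃ z : X F 2, star z = z ∧ (∀ x, ev z x = ((χ x * ⟪b α, w x⟫_ℝ : ℝ) : ℂ)) ∧
      ‖z‖ ≤ C1 * (C2 * (2 * Cg * ‖a‖)) := fun α => by
    refine H1 (fun x => χ x * ⟪b α, w x⟫_ℝ) (C2 * (2 * Cg * ‖a‖)) (by positivity) ?_ ?_ ?_
    · exact (hχ.smooth.of_le (by exact_mod_cast le_top)).mul (contDiff_const.inner ℝ hwK)
    · intro x hx
      rw [hχ.zero hx.le, zero_mul]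
    · refine H2 (fun x => ⟪b α, w x⟫_ℝ) (2 * Cg * ‖a‖) (by positivity)
        (contDiff_const.inner ℝ hwK) fun j hj x hx => ?_
      exact (norm_iteratedFDeriv_inner_leK b hwK.contDiffAt hj α).trans (hwb j hj x hx)
  choose z hzs hzev hzn using hz
  have hzn' : ‖z‖ ≤ D * ‖a‖ := by
    refine (pi_norm_le_iff_of_nonneg (by positivity)).2 fun α => (hzn α).trans (le_of_eq ?_)
    rw [hD]; ring
  have hzε : ‖z‖ ≤ εJ := by
    refine hzn'.trans ((mul_le_mul_of_nonneg_left ha hD0).trans ?_)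
    rw [mul_div_assoc', div_le_iff₀ (by positivity)]
    nlinarith
  have hsynz : ∀ x, syn b z x = χ x • w x := fun x => by
    refine onb_ext b fun α => ?_
    rw [inner_syn, inner_smul_right, hzev, Complex.ofReal_re]
  have hzw : ∀ x, ‖x‖ < 1 → syn b z =ᶠ[𝓝 x] w := fun x hx => by
    filter_upwards [(isOpen_lt continuous_norm continuous_const).mem_nhds hx] with y hy
    rw [hsynz, hχ1 y (le_of_lt hy), one_smul]
  obtain ⟨z', _, hz'n, hz'⟩ := H3 z hzs hzε fun x hx => by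
    rw [msop_congr (hzw x hx), hw, msop_bl hs0.ne', hM, smul_zero]
    rw [add_sub_cancel_right, norm_smul, Real.norm_of_nonneg hs0.le, hs]
    nlinarith
  have hwz' : w =ᶠ[𝓝 0] syn b z' := by
    have h1 : ‖(0 : F)‖ < 1 / 2 := by rw [norm_zero]; norm_num
    filter_upwards [(isOpen_lt continuous_norm continuous_const).mem_nhds h1,
      hzw 0 (by rw [norm_zero]; norm_num)] with y hy hy2
    rw [← hy2]
    unfold syn
    refine Finset.sum_congr rfl fun α _ => ?_
    rw [hz' α y (le_of_lt hy)]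
  have hwj : ∀ j ≤ J, ‖iteratedFDeriv ℝ j w 0‖ ≤ E * ‖a‖ := fun j hj => by
    rw [(Filter.EventuallyEq.iteratedFDeriv ℝ hwz' j).eq_of_nhds]
    refine (norm_iteratedFDeriv_syn_le b z' hj 0).trans ?_
    calc (Fintype.card κ : ℝ) * ((2 * π) ^ J * ‖z'‖)
        ≤ Fintype.card κ * ((2 * π) ^ J * (C3 * (D * ‖a‖))) := by
          have := hz'n.trans (mul_le_mul_of_nonneg_left hzn' hC30)
          gcongr
      _ = _ := by rw [hE]; ring
  intro j hj
  have hεJ1 : ε ^ J ≤ 1 := pow_le_one₀ hε.le hε1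
  rw [le_div_iff₀ (by positivity)]
  rcases Nat.eq_zero_or_pos j with rfl | hj0
  · calc _ ≤ (Cg * ‖a‖) * 1 := mul_le_mul (hder 0 (by omega) x₀) hεJ1 (by positivity) (by positivity)
      _ ≤ _ := by
        have : 0 ≤ 2 ^ J * E * ‖a‖ := by positivity
        linarith
  · obtain ⟨i, rfl⟩ : ∃ i, j = i + 1 := ⟨j - 1, by omega⟩
    have h1 := norm_iteratedFDeriv_unbl_le hs0 (syn b a) x₀ i
    have h2 := hwj (i + 1) hj
    have h3 : (s⁻¹) ^ i * ε ^ J ≤ 2 ^ J := by
      have h4 : s⁻¹ * ε = 2 := by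
        rw [hs]
        field_simp
      have h5 : ε ^ J ≤ ε ^ i := pow_le_pow_of_le_one hε.le hε1 (by omega)
      calc (s⁻¹) ^ i * ε ^ J ≤ (s⁻¹) ^ i * ε ^ i := by gcongr
        _ = 2 ^ i := by rw [← mul_pow, h4]
        _ ≤ 2 ^ J := pow_le_pow_right₀ (by norm_num) (by omega)
    calc ‖iteratedFDeriv ℝ (i + 1) (syn b a) x₀‖ * ε ^ J
        ≤ ((s⁻¹) ^ i * (E * ‖a‖)) * ε ^ J := by
          refine mul_le_mul_of_nonneg_right (h1.trans ?_) (by positivity)
          exact mul_le_mul_of_nonneg_left h2 (by positivity)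
      _ = ((s⁻¹) ^ i * ε ^ J) * (E * ‖a‖) := by ring
      _ ≤ 2 ^ J * (E * ‖a‖) := mul_le_mul_of_nonneg_right h3 (by positivity)
      _ ≤ _ := by
        have : 0 ≤ Cg * ‖a‖ := by positivity
        nlinarith

/-- smoothness on the ball where the system holds -/
theorem exists_smooth_syn (b : OrthonormalBasis κ ℝ V) (N : ℕ) :
    ∃ κ₀ : ℝ, 0 < κ₀ ∧ ∀ (a : κ → X F (N + 2)), ‖a‖ ≤ κ₀ → ∀ U : Set F, IsOpen U →
      (∀ x ∈ U, msop (syn b a) x = 0) → ContDiffOn ℝ ∞ (syn b a) U := by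
  obtain ⟨p₀, hp, HP⟩ := exists_smooth F V
  have hpi := Real.pi_pos
  set Cg : ℝ := Fintype.card κ * (2 * π) ^ (N + 2) with hCg
  have hCg0 : 0 ≤ Cg := by positivity
  refine ⟨p₀ / (Cg + 1) / 2, by positivity, fun a ha U hU hM => ?_⟩
  refine HP U (syn b a) hU (((contDiff_syn b a).of_le ?_).contDiffOn) hM fun x _ => ?_
  · norm_cast
    omega
  · rw [← norm_iteratedFDeriv_one]
    refine lt_of_le_of_lt (norm_iteratedFDeriv_syn_le b a (j := 1) (by omega) x) ?_
    calc (Fintype.card κ : ℝ) * ((2 * π) ^ (N + 2) * ‖a‖) = Cg * ‖a‖ := by rw [hCg]; ring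
      _ ≤ Cg * (p₀ / (Cg + 1) / 2) := by gcongr
      _ < p₀ := by
        rw [div_div, mul_div_assoc', div_lt_iff₀ (by positivity)]
        nlinarith

end reg

/-! ### the literal node -/

open Crest.GeometryTopology.Submanifold Crest.Agent.R234.MG_570
open Crest.Agent.R234.Main_456 (Msys)

theorem Msys_eq {m n : ℕ} (u : Euc m → Euc n) (z : Euc m) : Msys u z = msop u z := by
  rw [msop_eq_sum (EuclideanSpace.basisFun (Fin m) ℝ)]
  unfold Msys
  refine Finset.sum_congr rfl fun i _ => ?_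
  have : stdVec m i = EuclideanSpace.basisFun (Fin m) ℝ i := by
    rw [EuclideanSpace.basisFun_apply]
    rfl
  rw [this]

theorem rep_syn {m n N : ℕ} {a : XV m n N} {u : Euc m → Euc n} (h : Rep a u) :
    u = syn (EuclideanSpace.basisFun (Fin n) ℝ) a := by
  funext x
  refine onb_ext (EuclideanSpace.basisFun (Fin n) ℝ) fun α => ?_
  rw [inner_syn, ← h x α, Complex.ofReal_re, EuclideanSpace.basisFun_apply,
    EuclideanSpace.inner_single_left]
  simp

theorem syn_rep {m n N : ℕ} {a : XV m n N} (ha : IsReal a) :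
    Rep a (syn (EuclideanSpace.basisFun (Fin n) ℝ) a) := by
  intro x α
  have h := inner_syn (EuclideanSpace.basisFun (Fin n) ℝ) a x α
  have h2 : ⟪EuclideanSpace.basisFun (Fin n) ℝ α,
      syn (EuclideanSpace.basisFun (Fin n) ℝ) a x⟫_ℝ
      = syn (EuclideanSpace.basisFun (Fin n) ℝ) a x α := by
    rw [EuclideanSpace.basisFun_apply, EuclideanSpace.inner_single_left]; simp
  rw [h2] at h
  rw [h, ev_real (ha α)]

/-- **node F2-REG** -/
theorem regP2 : RegP2 := by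
  intro m n
  refine ⟨m + 1, fun N hN J => ?_⟩
  rcases Nat.eq_zero_or_pos m with rfl | hm
  · have hsub : Subsingleton (Euc 0) := by
      refine ⟨fun x y => ?_⟩
      ext i
      exact i.elim0
    set b := EuclideanSpace.basisFun (Fin n) ℝ with hb
    have hpi := Real.pi_pos
    refine ⟨1, one_pos, Fintype.card (Fin n) * (2 * π) ^ (N + 2) + 1, by positivity, 0,
      fun κ r ε u _ hε hε1 _ _ hMG => ?_⟩
    obtain ⟨a, _, ha, hrep, _⟩ := hMG
    have hu0 : u = fun _ => u 0 := funext fun y => by rw [Subsingleton.elim y 0]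
    have hκ : 0 ≤ κ := (norm_nonneg _).trans ha
    refine ⟨by rw [hu0]; exact contDiffOn_const, fun x _ j _ => ?_⟩
    rw [pow_zero, div_one]
    rcases Nat.eq_zero_or_pos j with rfl | hj
    · have h1 := norm_iteratedFDeriv_syn_le b a (j := 0) (Nat.zero_le _) x
      rw [← rep_syn hrep] at h1
      refine h1.trans ?_
      calc _ = (Fintype.card (Fin n) * (2 * π) ^ (N + 2)) * ‖a‖ := by ring
        _ ≤ (Fintype.card (Fin n) * (2 * π) ^ (N + 2)) * κ := by gcongr
        _ ≤ _ := by nlinarith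
    · rw [hu0, iteratedFDeriv_const_of_ne (by omega)]
      simp only [Pi.zero_apply, norm_zero]
      positivity
  have hnt : Nontrivial (Euc m) := by
    have : 0 < Module.finrank ℝ (Euc m) := by
      rw [finrank_euclideanSpace, Fintype.card_fin]; exact hm
    exact Module.nontrivial_of_finrank_pos this
  obtain ⟨c, hc⟩ := exists_norm_eq (Euc m) (by norm_num : (0 : ℝ) ≤ 11 / 2)
  set b := EuclideanSpace.basisFun (Fin n) ℝ with hb
  obtain ⟨κ1, C1, hκ1, hC1, H1⟩ := reg_pt hc b N (by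
    rw [finrank_euclideanSpace, Fintype.card_fin]; exact hN) J
  obtain ⟨κ2, hκ2, H2⟩ := exists_smooth_syn (F := Euc m) b N
  refine ⟨min κ1 κ2, by positivity, C1 + 1, by positivity, J,
    fun κ r ε u hκ hε hε1 hεr hr hMG => ?_⟩
  obtain ⟨a, hreal, ha, hrep, hM⟩ := hMG
  have hu := rep_syn hrep
  have hM' : ∀ z ∈ Metric.ball (0 : Euc m) r, msop (syn b a) z = 0 := fun z hz => by
    rw [← hu, ← Msys_eq]
    exact hM z hz
  have hκ0 : 0 ≤ κ := (norm_nonneg _).trans ha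
  refine ⟨?_, fun x hx j hj => ?_⟩
  · rw [hu]
    exact (H2 a (ha.trans (hκ.trans (min_le_right _ _))) _ Metric.isOpen_ball hM').of_le
      (by exact_mod_cast le_top)
  · have h1 := H1 a hreal (ha.trans (hκ.trans (min_le_left _ _))) x ε hε hε1 (fun y hy => by
      refine hM' y (mem_ball_zero_iff.2 ?_)
      have h2 := mem_ball_zero_iff.1 hx
      have h3 := norm_add_le (y - x) x
      rw [sub_add_cancel] at h3
      linarith) j hj
    rw [← hu] at h1
    refine h1.trans ?_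
    rw [div_le_div_iff_of_pos_right (by positivity)]
    calc C1 * ‖a‖ ≤ C1 * κ := by gcongr
      _ ≤ _ := by nlinarith

end Crest.Agent.R234.Mx16_397
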