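import Crest.Agent.R086.Wie

/-!
# Row 234, VF-MINEX part 1 (helper397): synthesis for the weighted Wiener algebra

`X F N` = densities `a ∈ L¹(F, (1+‖ξ‖)^N dξ)` (R086/Wie). `ev a x = ∫ e^{2πi⟨ξ,x⟩} a(ξ) dξ`:
multiplicative, compatible with conjugation, `C^N` with bounds, derivatives.
-/

set_option autoImplicit false
set_option linter.unusedSectionVars false

open MeasureTheory Complex Filter Real
open scoped ContDiff FourierTransform Topology InnerProductSpace

noncomputable section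

namespace Crest.Agent.R234.Mx1_397

open Crest.Agent.R086.Wie

variable {F : Type*} [NormedAddCommGroup F] [InnerProductSpace ℝ F] [FiniteDimensional ℝ F]
  [MeasurableSpace F] [BorelSpace F]

/-- synthesis -/
def ev {N : ℕ} (a : X F N) (x : F) : ℂ := 𝓕⁻ (XG.den a) x

/-- the character -/
def chr (x ξ : F) : ℂ := (𝐞 ⟪ξ, x⟫_ℝ : Circle)

theorem norm_chr (x ξ : F) : ‖chr x ξ‖ = 1 := Circle.norm_coe _

theorem chr_add (x ξ η : F) : chr x (ξ + η) = chr x ξ * chr x η := by
  unfold chr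
  rw [inner_add_left, AddChar.map_add_eq_mul, Circle.coe_mul]

theorem continuous_chr (x : F) : Continuous (chr x) := by
  unfold chr
  exact continuous_subtype_val.comp (Real.continuous_fourierChar.comp
    (continuous_id.inner continuous_const))

theorem chr_neg_conj (x ξ : F) : (starRingEnd ℂ) (chr x (-ξ)) = chr x ξ := by
  unfold chr
  rw [inner_neg_left, AddChar.map_neg_eq_inv, ← Circle.coe_inv_eq_conj, inv_inv]

theorem ev_eq {N : ℕ} (a : X F N) (x : F) : ev a x = ∫ ξ, chr x ξ * XG.den a ξ := by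
  unfold ev
  rw [Real.fourierInv_eq]
  rfl

theorem integrable_chr_mul {N : ℕ} (a : X F N) (x : F) :
    Integrable (fun ξ => chr x ξ * XG.den a ξ) :=
  (XG.integrable_den a).bdd_mul (continuous_chr x).aestronglyMeasurable
    (Eventually.of_forall fun ξ => (norm_chr x ξ).le)

theorem norm_ev_le {N : ℕ} (a : X F N) (x : F) : ‖ev a x‖ ≤ ‖a‖ := by
  rw [ev_eq]
  refine (norm_integral_le_integral_norm _).trans (le_trans (le_of_eq ?_) (XG.integral_norm_le a))
  refine integral_congr_ae (Eventually.of_forall fun ξ => ?_)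
  simp only [norm_mul, norm_chr, one_mul]

theorem ev_congr {N M : ℕ} {a : X F N} {b : X F M} (h : XG.den a =ᵐ[volume] XG.den b) (x : F) :
    ev a x = ev b x := by
  rw [ev_eq, ev_eq]
  exact integral_congr_ae (h.mono fun ξ hξ => by simp only [hξ])

theorem ev_add {N : ℕ} (a b : X F N) (x : F) : ev (a + b) x = ev a x + ev b x := by
  rw [ev_eq, ev_eq, ev_eq, ← integral_add (integrable_chr_mul a x) (integrable_chr_mul b x)]
  exact integral_congr_ae ((XG.den_add a b).mono fun ξ hξ => by simp only [hξ]; ring)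

theorem ev_smul {N : ℕ} (c : ℂ) (a : X F N) (x : F) : ev (c • a) x = c * ev a x := by
  rw [ev_eq, ev_eq, ← integral_const_mul]
  exact integral_congr_ae ((XG.den_smul c a).mono fun ξ hξ => by simp only [hξ]; ring)

theorem ev_neg {N : ℕ} (a : X F N) (x : F) : ev (-a) x = -ev a x := by
  have h := ev_smul (-1) a x
  rw [neg_one_smul] at h
  rw [h]; ring

theorem ev_sub {N : ℕ} (a b : X F N) (x : F) : ev (a - b) x = ev a x - ev b x := by
  rw [sub_eq_add_neg, ev_add, ev_neg, sub_eq_add_neg]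

theorem ev_zero {N : ℕ} (x : F) : ev (0 : X F N) x = 0 := by
  have h := ev_smul (0 : ℂ) (0 : X F N) x
  rwa [zero_smul, zero_mul] at h

/-- evaluation as a linear map -/
def evL {N : ℕ} (x : F) : X F N →ₗ[ℂ] ℂ where
  toFun a := ev a x
  map_add' a b := ev_add a b x
  map_smul' c a := ev_smul c a x

theorem ev_sum {N : ℕ} {ι : Type*} (s : Finset ι) (a : ι → X F N) (x : F) :
    ev (∑ i ∈ s, a i) x = ∑ i ∈ s, ev (a i) x :=
  map_sum (evL (N := N) x) a s

theorem ev_mul {N : ℕ} (a b : X F N) (x : F) : ev (a * b) x = ev a x * ev b x := by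
  rw [ev_eq, XG.integral_mul_den_mul a b (continuous_chr x).measurable
    (fun ξ => (norm_chr x ξ).le), ev_eq, ev_eq, ← integral_mul_const]
  refine integral_congr_ae (Eventually.of_forall fun ξ => ?_)
  simp only
  rw [← integral_const_mul]
  refine integral_congr_ae (Eventually.of_forall fun η => ?_)
  simp only [chr_add]
  ring

theorem ev_star {N : ℕ} (a : X F N) (x : F) : ev (star a) x = (starRingEnd ℂ) (ev a x) := by
  rw [ev_eq, ev_eq, ← integral_conj, ← integral_neg_eq_self]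
  refine integral_congr_ae ?_
  filter_upwards [XG.ae_neg (XG.den_star a)] with ξ hξ
  rw [hξ, neg_neg, map_mul, ← chr_neg_conj x (-ξ), neg_neg]

/-- an element fixed by the involution has real synthesis -/
theorem ev_real {N : ℕ} {a : X F N} (h : star a = a) (x : F) : ((ev a x).re : ℂ) = ev a x := by
  have h1 := ev_star a x
  rw [h] at h1
  exact (Complex.conj_eq_iff_re.1 h1.symm)

/-! ### differentiation -/

theorem wt_succ_norm (N : ℕ) (ξ : F) : ‖ξ‖ * wt N ξ ≤ wt (N + 1) ξ := by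
  unfold wt
  rw [pow_succ]
  have h1 : (0 : ℝ) ≤ (1 + ‖ξ‖) ^ N := by positivity
  nlinarith [norm_nonneg ξ]

/-- the symbol of the directional derivative -/
def dsym (v ξ : F) : ℂ := 2 * π * I * ((⟪ξ, v⟫_ℝ : ℝ) : ℂ)

theorem norm_dsym_le (v ξ : F) : ‖dsym v ξ‖ ≤ 2 * π * ‖v‖ * ‖ξ‖ := by
  unfold dsym
  rw [norm_mul, norm_mul, norm_mul, norm_I, mul_one, Complex.norm_two, Complex.norm_real,
    Complex.norm_real, Real.norm_of_nonneg Real.pi_pos.le]
  have h := norm_inner_le_norm (𝕜 := ℝ) ξ v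
  have hp := Real.pi_pos
  calc 2 * π * ‖⟪ξ, v⟫_ℝ‖ ≤ 2 * π * (‖ξ‖ * ‖v‖) := by gcongr
    _ = _ := by ring

theorem continuous_dsym (v : F) : Continuous (dsym v) := by
  unfold dsym
  exact continuous_const.mul (Complex.continuous_ofReal.comp (continuous_id.inner continuous_const))

theorem measurable_dsym (v : F) : Measurable (dsym v) := (continuous_dsym v).measurable

/-- general Fourier multiplier with loss/gain of weight: `‖φ ξ‖ (1+‖ξ‖)^M ≤ C (1+‖ξ‖)^N`. -/
def mlt {M N : ℕ} (φ : F → ℂ) (hφ : Measurable φ) (C : ℝ)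
    (hC : ∀ ξ, ‖φ ξ‖ * wt M ξ ≤ C * wt N ξ) : X F N →L[ℂ] X F M :=
  XG.lift (fun a ξ => φ ξ * a ξ)
    (fun a ha => by
      have hm : AEStronglyMeasurable (fun ξ => φ ξ * a ξ) (volume : Measure F) :=
        hφ.aestronglyMeasurable.mul ha.integrable.aestronglyMeasurable
      rw [gint_iff hm]
      refine (ha.norm_int.const_mul C).mono
        ((continuous_wt M).aestronglyMeasurable.mul hm.norm) (Eventually.of_forall fun ξ => ?_)
      have h1 : 0 ≤ wt M ξ * ‖φ ξ * a ξ‖ := mul_nonneg (wt_nonneg M ξ) (norm_nonneg _)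
      have h2 := mul_le_mul_of_nonneg_right (hC ξ) (norm_nonneg (a ξ))
      simp only [wtV_apply]
      rw [Real.norm_of_nonneg h1, norm_mul]
      refine le_trans ?_ (le_abs_self _)
      calc wt M ξ * (‖φ ξ‖ * ‖a ξ‖) = ‖φ ξ‖ * wt M ξ * ‖a ξ‖ := by ring
        _ ≤ _ := h2
        _ = _ := by ring)
    (fun _ _ _ _ => Eventually.of_forall fun x => by simp only [mul_add])
    (fun _ _ _ => Eventually.of_forall fun x => by simp only; ring)
    (fun _ _ _ h => h.mono fun x hx => by simp only [hx]) C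
    (fun a ha => by
      have hm : AEStronglyMeasurable (fun ξ => φ ξ * a ξ) (volume : Measure F) :=
        hφ.aestronglyMeasurable.mul ha.integrable.aestronglyMeasurable
      have key : ∀ ξ : F, wt M ξ * ‖φ ξ * a ξ‖ ≤ C * (wt N ξ * ‖a ξ‖) := fun ξ => by
        have h2 := mul_le_mul_of_nonneg_right (hC ξ) (norm_nonneg (a ξ))
        rw [norm_mul]
        calc wt M ξ * (‖φ ξ‖ * ‖a ξ‖) = ‖φ ξ‖ * wt M ξ * ‖a ξ‖ := by ring
          _ ≤ _ := h2
          _ = _ := by ring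
      rw [← integral_const_mul]
      have hi := (ha.norm_int.const_mul C)
      refine integral_mono_of_nonneg (Eventually.of_forall fun ξ => ?_) hi
        (Eventually.of_forall fun ξ => ?_)
      · exact mul_nonneg (wt_nonneg M ξ) (norm_nonneg _)
      · exact key ξ)

theorem den_mlt {M N : ℕ} {φ : F → ℂ} (hφ : Measurable φ) {C : ℝ}
    (hC : ∀ ξ, ‖φ ξ‖ * wt M ξ ≤ C * wt N ξ) (a : X F N) :
    XG.den (mlt φ hφ C hC a) =ᵐ[volume] fun ξ => φ ξ * XG.den a ξ := XG.den_lift _ _ _ _ _ _ _ a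

theorem norm_mlt_le {M N : ℕ} {φ : F → ℂ} (hφ : Measurable φ) {C : ℝ}
    (hC : ∀ ξ, ‖φ ξ‖ * wt M ξ ≤ C * wt N ξ) (hC0 : 0 ≤ C) (a : X F N) :
    ‖mlt φ hφ C hC a‖ ≤ C * ‖a‖ :=
  ((mlt φ hφ C hC).le_opNorm a).trans
    (mul_le_mul_of_nonneg_right (XG.norm_lift_le _ _ _ _ _ _ _ hC0) (norm_nonneg _))

theorem ev_mlt {M N : ℕ} {φ : F → ℂ} (hφ : Measurable φ) {C : ℝ}
    (hC : ∀ ξ, ‖φ ξ‖ * wt M ξ ≤ C * wt N ξ) (a : X F N) (x : F) :
    ev (mlt φ hφ C hC a) x = ∫ ξ, chr x ξ * (φ ξ * XG.den a ξ) := by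
  rw [ev_eq]
  exact integral_congr_ae ((den_mlt hφ hC a).mono fun ξ hξ => by simp only [hξ])

/-- multipliers whose symbol satisfies `φ(-ξ) = conj φ(ξ)` commute with the involution -/
theorem mlt_star {M N : ℕ} {φ : F → ℂ} (hφ : Measurable φ) {C : ℝ}
    (hC : ∀ ξ, ‖φ ξ‖ * wt M ξ ≤ C * wt N ξ) (hs : ∀ ξ, φ (-ξ) = (starRingEnd ℂ) (φ ξ))
    (a : X F N) : star (mlt φ hφ C hC a) = mlt φ hφ C hC (star a) := by
  refine XG.ext ?_
  filter_upwards [XG.den_star (mlt φ hφ C hC a), XG.ae_neg (den_mlt hφ hC a),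
    den_mlt hφ hC (star a), XG.den_star a] with ξ h1 h2 h3 h4
  rw [h1, h2, h3, h4, map_mul, hs, Complex.conj_conj]

theorem dsym_hC {N : ℕ} (v ξ : F) :
    ‖dsym v ξ‖ * wt N ξ ≤ (2 * π * ‖v‖) * wt (N + 1) ξ := by
  have h1 := mul_le_mul_of_nonneg_right (norm_dsym_le v ξ) (wt_nonneg N ξ)
  have h2 := wt_succ_norm N ξ
  have h3 : 0 ≤ 2 * π * ‖v‖ := by positivity
  calc _ ≤ 2 * π * ‖v‖ * ‖ξ‖ * wt N ξ := h1
    _ = 2 * π * ‖v‖ * (‖ξ‖ * wt N ξ) := by ring
    _ ≤ _ := mul_le_mul_of_nonneg_left h2 h3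

/-- directional derivative -/
def D {N : ℕ} (v : F) : X F (N + 1) →L[ℂ] X F N :=
  mlt (dsym v) (measurable_dsym v) (2 * π * ‖v‖) (dsym_hC v)

theorem norm_D_le {N : ℕ} (v : F) (a : X F (N + 1)) : ‖D v a‖ ≤ 2 * π * ‖v‖ * ‖a‖ :=
  norm_mlt_le _ _ (by positivity) a

theorem D_star {N : ℕ} (v : F) (a : X F (N + 1)) : star (D v a) = D v (star a) := by
  refine mlt_star _ _ (fun ξ => ?_) a
  unfold dsym
  simp only [inner_neg_left, map_mul, Complex.conj_ofNat, Complex.conj_ofReal, Complex.conj_I,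
    Complex.ofReal_neg]
  ring

theorem integrable_norm_pow {N : ℕ} (a : X F N) {n : ℕ} (hn : n ≤ N) :
    Integrable (fun ξ : F => ‖ξ‖ ^ n * ‖XG.den a ξ‖) := by
  refine (XG.gint_den a).norm_int.mono
    ((continuous_norm.pow n).aestronglyMeasurable.mul
      (XG.integrable_den a).aestronglyMeasurable.norm) (Eventually.of_forall fun ξ => ?_)
  have h1 : ‖ξ‖ ^ n ≤ wt N ξ := by
    unfold wt
    calc ‖ξ‖ ^ n ≤ (1 + ‖ξ‖) ^ n := by gcongr; linarith
      _ ≤ (1 + ‖ξ‖) ^ N := pow_le_pow_right₀ (by linarith [norm_nonneg ξ]) hn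
  rw [Real.norm_of_nonneg (by positivity), wtV_apply,
    Real.norm_of_nonneg (mul_nonneg (wt_nonneg N ξ) (norm_nonneg _))]
  exact mul_le_mul_of_nonneg_right h1 (norm_nonneg _)

theorem hasFDerivAt_ev {N : ℕ} (a : X F (N + 1)) (x : F) :
    ∃ L : F →L[ℝ] ℂ, HasFDerivAt (fun x => ev a x) L x ∧ ∀ v, L v = ev (D v a) x := by
  have hi : Integrable (XG.den a) := XG.integrable_den a
  have hv : Integrable (fun ξ : F => ‖ξ‖ * ‖XG.den a ξ‖) := by
    have := integrable_norm_pow a (n := 1) (by omega)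
    simpa using this
  have h1 := Real.hasFDerivAt_fourier hi hv (-x)
  have h2 : HasFDerivAt (fun x : F => -x) (-(ContinuousLinearMap.id ℝ F)) x :=
    (hasFDerivAt_id x).neg
  have h3 := h1.comp x h2
  refine ⟨_, h3.congr_of_eventuallyEq (Eventually.of_forall fun y => ?_), fun v => ?_⟩
  · show ev a y = 𝓕 (XG.den a) (-y)
    unfold ev
    rw [Real.fourierInv_eq_fourier_neg]
  · have hint : Integrable (fun ξ : F =>
        VectorFourier.fourierSMulRight (innerSL ℝ) (XG.den a) ξ) := by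
      refine (hv.const_mul (2 * π * ‖innerSL ℝ (E := F)‖)).mono
        (hi.aestronglyMeasurable.fourierSMulRight) (Eventually.of_forall fun ξ => ?_)
      refine (VectorFourier.norm_fourierSMulRight_le _ _ _).trans ?_
      rw [← mul_assoc]
      exact le_abs_self _
    rw [ContinuousLinearMap.comp_apply, neg_apply,
      ContinuousLinearMap.id_apply, map_neg,
      Real.fourier_continuousLinearMap_apply hint, Real.fourier_eq, ← integral_neg]
    unfold D
    rw [ev_mlt]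
    refine integral_congr_ae (Eventually.of_forall fun ξ => ?_)
    simp only [VectorFourier.fourierSMulRight_apply, inner_neg_right, neg_neg]
    unfold chr dsym
    rw [Circle.smul_def, smul_eq_mul, smul_eq_mul, Complex.real_smul]
    have e : ((innerSL ℝ) ξ) v = ⟪ξ, v⟫_ℝ := rfl
    rw [e]
    ring

theorem contDiff_ev {N : ℕ} (a : X F N) : ContDiff ℝ N (fun x => ev a x) := by
  have h1 : ContDiff ℝ N (𝓕 (XG.den a)) :=
    Real.contDiff_fourier (N := (N : ℕ∞)) fun n hn => integrable_norm_pow a (by exact_mod_cast hn)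
  have h2 : (fun x => ev a x) = fun x : F => 𝓕 (XG.den a) (-x) := by
    funext y
    unfold ev
    rw [Real.fourierInv_eq_fourier_neg]
  rw [h2]
  exact h1.comp contDiff_neg

theorem differentiable_ev {N : ℕ} (a : X F (N + 1)) : Differentiable ℝ (fun x => ev a x) :=
  fun x => by
    obtain ⟨L, hL, _⟩ := hasFDerivAt_ev a x
    exact hL.differentiableAt

theorem fderiv_ev {N : ℕ} (a : X F (N + 1)) (x v : F) :
    fderiv ℝ (fun x => ev a x) x v = ev (D v a) x := by
  obtain ⟨L, hL, h⟩ := hasFDerivAt_ev a x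
  rw [hL.fderiv, h]

theorem norm_iteratedFDeriv_ev_le {N : ℕ} (a : X F N) {n : ℕ} (hn : n ≤ N) (x : F) :
    ‖iteratedFDeriv ℝ n (fun x => ev a x) x‖ ≤ (2 * π) ^ n * ‖a‖ := by
  have h2 : (fun x => ev a x) = fun x : F => 𝓕 (XG.den a) (-x) := by
    funext y
    unfold ev
    rw [Real.fourierInv_eq_fourier_neg]
  have h7 : ‖iteratedFDeriv ℝ n (fun x : F => 𝓕 (XG.den a) (-x)) x‖
      = ‖iteratedFDeriv ℝ n (𝓕 (XG.den a)) (-x)‖ :=
    (LinearIsometryEquiv.neg ℝ (E := F)).norm_iteratedFDeriv_comp_right (𝓕 (XG.den a)) x n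
  rw [h2, h7,
    Real.iteratedFDeriv_fourier (N := (N : ℕ∞))
      (fun n hn => integrable_norm_pow a (by exact_mod_cast hn))
      (XG.integrable_den a).aestronglyMeasurable (by exact_mod_cast hn)]
  refine (VectorFourier.norm_fourierIntegral_le_integral_norm _ _ _ _ _).trans ?_
  have hp : (0 : ℝ) ≤ (2 * π) ^ n := by positivity
  rw [XG.norm_eq, ← integral_const_mul]
  refine integral_mono_of_nonneg (Eventually.of_forall fun ξ => norm_nonneg _)
    ((XG.gint_den a).norm_int.const_mul _) (Eventually.of_forall fun ξ => ?_)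
  simp only
  refine (VectorFourier.norm_fourierPowSMulRight_le _ _ _ _).trans ?_
  have h1 : ‖ξ‖ ^ n ≤ wt N ξ := by
    unfold wt
    calc ‖ξ‖ ^ n ≤ (1 + ‖ξ‖) ^ n := by gcongr; linarith
      _ ≤ (1 + ‖ξ‖) ^ N := pow_le_pow_right₀ (by linarith [norm_nonneg ξ]) hn
  have h3 : ‖innerSL ℝ (E := F)‖ ≤ 1 := norm_innerSL_le _
  have h4 : (2 * π * ‖innerSL ℝ (E := F)‖) ^ n ≤ (2 * π) ^ n := by
    have hp' := Real.pi_pos
    refine pow_le_pow_left₀ (by positivity) ?_ n
    nlinarith [norm_nonneg (innerSL ℝ (E := F))]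
  rw [wtV_apply, mul_assoc]
  have h5 : ‖ξ‖ ^ n * ‖XG.den a ξ‖ ≤ wt N ξ * ‖XG.den a ξ‖ :=
    mul_le_mul_of_nonneg_right h1 (norm_nonneg _)
  exact mul_le_mul h4 h5 (by positivity) hp

end Crest.Agent.R234.Mx1_397
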