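import Crest.Agent.R234.Mx1_397

/-!
# Row 234, VF-MINEX part 2 (helper397): a right inverse of the Laplacian near the origin

`G c : X F N → X F (N+2)` has the bounded symbol `-(1 - ψ̂(ξ)) / (4π²|ξ|²)`, `ψ` a bump of integral one
supported in `5 < |y| < 6`; `Δ ev (G f) = ev f` on `|x| < 3` whenever `ev f` vanishes for `|z| ≥ 2`.
-/

set_option autoImplicit false
set_option linter.unusedSectionVars false

open MeasureTheory Complex Filter Real
open scoped ContDiff FourierTransform Topology InnerProductSpace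

noncomputable section

namespace Crest.Agent.R234.Mx2_397

open Crest.Agent.R086.Wie Crest.Agent.R234.Mx1_397

variable {F : Type*} [NormedAddCommGroup F] [InnerProductSpace ℝ F] [FiniteDimensional ℝ F]
  [MeasurableSpace F] [BorelSpace F]

/-- the bump at `c` -/
def bmp (c : F) : ContDiffBump c := ⟨1 / 4, 1 / 2, by norm_num, by norm_num⟩

/-- normalised bump -/
def psi (c y : F) : ℝ := (bmp c).normed volume y

theorem psi_nonneg (c y : F) : 0 ≤ psi c y := (bmp c).nonneg_normed y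

theorem integral_psi (c : F) : ∫ y, psi c y = 1 := (bmp c).integral_normed

theorem integrable_psi (c : F) : Integrable (psi c) := (bmp c).integrable_normed

theorem continuous_psi (c : F) : Continuous (psi c) := (bmp c).continuous_normed

theorem psi_ne {c y : F} (hc : ‖c‖ = 11 / 2) (h : psi c y ≠ 0) : 5 < ‖y‖ ∧ ‖y‖ < 6 := by
  have h1 : y ∈ Function.support ((bmp c).normed (volume : Measure F)) := h
  rw [(bmp c).support_normed_eq, Metric.mem_ball, dist_eq_norm] at h1
  have h2 : (bmp c).rOut = 1 / 2 := rfl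
  rw [h2] at h1
  have h3 : ‖c‖ ≤ ‖y‖ + ‖y - c‖ := by
    have := norm_sub_le y (y - c)
    rwa [sub_sub_cancel] at this
  have h4 : ‖y‖ ≤ ‖y - c‖ + ‖c‖ := by
    have := norm_add_le (y - c) c
    rwa [sub_add_cancel] at this
  constructor <;> linarith

/-- the symmetrised transform of the bump -/
def ph (c ξ : F) : ℝ := ∫ y, Real.cos (2 * π * ⟪ξ, y⟫_ℝ) * psi c y

theorem integrable_cos (c ξ : F) : Integrable fun y => Real.cos (2 * π * ⟪ξ, y⟫_ℝ) * psi c y :=
  (integrable_psi c).bdd_mul (c := 1)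
    (Real.continuous_cos.comp (continuous_const.mul
      (continuous_const.inner continuous_id))).aestronglyMeasurable
    (Eventually.of_forall fun y => by
      rw [Real.norm_eq_abs]
      exact Real.abs_cos_le_one _)

theorem ph_zero (c : F) : ph c 0 = 1 := by
  unfold ph
  simp only [inner_zero_left, mul_zero, Real.cos_zero, one_mul]
  exact integral_psi c

theorem ph_neg (c ξ : F) : ph c (-ξ) = ph c ξ := by
  unfold ph
  refine integral_congr_ae (Eventually.of_forall fun y => ?_)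
  simp only
  rw [inner_neg_left, mul_neg, Real.cos_neg]

theorem continuous_ph (c : F) : Continuous (ph c) := by
  unfold ph
  refine continuous_of_dominated (bound := psi c) (fun ξ => (integrable_cos c ξ).1)
    (fun ξ => Eventually.of_forall fun y => ?_) (integrable_psi c)
    (Eventually.of_forall fun y => ?_)
  · rw [norm_mul, Real.norm_of_nonneg (psi_nonneg c y), Real.norm_eq_abs]
    exact mul_le_of_le_one_left (psi_nonneg c y) (Real.abs_cos_le_one _)
  · exact (Real.continuous_cos.comp (continuous_const.mul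
      (continuous_id.inner continuous_const))).mul continuous_const

theorem one_sub_ph (c ξ : F) :
    1 - ph c ξ = ∫ y, (1 - Real.cos (2 * π * ⟪ξ, y⟫_ℝ)) * psi c y := by
  have h := integral_sub (integrable_psi c) (integrable_cos c ξ)
  rw [integral_psi] at h
  unfold ph
  rw [← h]
  refine integral_congr_ae (Eventually.of_forall fun y => ?_)
  simp only; ring

theorem one_sub_ph_nonneg (c ξ : F) : 0 ≤ 1 - ph c ξ := by
  rw [one_sub_ph]
  refine integral_nonneg fun y => mul_nonneg ?_ (psi_nonneg c y)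
  linarith [Real.cos_le_one (2 * π * ⟪ξ, y⟫_ℝ)]

theorem integrable_one_sub (c ξ : F) :
    Integrable fun y => (1 - Real.cos (2 * π * ⟪ξ, y⟫_ℝ)) * psi c y := by
  have := (integrable_psi c).sub (integrable_cos c ξ)
  refine this.congr (Eventually.of_forall fun y => ?_)
  simp only [Pi.sub_apply]; ring

theorem one_sub_ph_le_two (c ξ : F) : 1 - ph c ξ ≤ 2 := by
  rw [one_sub_ph]
  calc _ ≤ ∫ y, 2 * psi c y := by
        refine integral_mono (integrable_one_sub c ξ) ((integrable_psi c).const_mul 2) fun y => ?_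
        refine mul_le_mul_of_nonneg_right ?_ (psi_nonneg c y)
        linarith [Real.neg_one_le_cos (2 * π * ⟪ξ, y⟫_ℝ)]
    _ = 2 := by rw [integral_const_mul, integral_psi, mul_one]

theorem one_sub_ph_le {c : F} (hc : ‖c‖ = 11 / 2) (ξ : F) :
    1 - ph c ξ ≤ 72 * π ^ 2 * ‖ξ‖ ^ 2 := by
  rw [one_sub_ph]
  calc _ ≤ ∫ y, (72 * π ^ 2 * ‖ξ‖ ^ 2) * psi c y := by
        refine integral_mono (integrable_one_sub c ξ) ((integrable_psi c).const_mul _) fun y => ?_
        simp only
        by_cases h : psi c y = 0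
        · rw [h, mul_zero, mul_zero]
        refine mul_le_mul_of_nonneg_right ?_ (psi_nonneg c y)
        have h1 := Real.one_sub_sq_div_two_le_cos (x := 2 * π * ⟪ξ, y⟫_ℝ)
        have h2 := abs_real_inner_le_norm ξ y
        have h3 : |⟪ξ, y⟫_ℝ| ≤ 6 * ‖ξ‖ := by
          refine h2.trans ?_
          nlinarith [(psi_ne hc h).2, norm_nonneg ξ]
        have h4 : ⟪ξ, y⟫_ℝ ^ 2 ≤ (6 * ‖ξ‖) ^ 2 := by
          rw [← sq_abs]
          exact pow_le_pow_left₀ (abs_nonneg _) h3 2
        have hp : 0 < π ^ 2 := by positivity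
        nlinarith
    _ = _ := by rw [integral_const_mul, integral_psi, mul_one]

/-- the symbol of the right inverse -/
def gsym (c ξ : F) : ℂ := ((-(1 - ph c ξ) / (4 * π ^ 2 * ‖ξ‖ ^ 2) : ℝ) : ℂ)

theorem measurable_gsym (c : F) : Measurable (gsym c) := by
  unfold gsym
  refine Complex.measurable_ofReal.comp ?_
  exact ((measurable_const.sub (continuous_ph c).measurable).neg).div
    (measurable_const.mul (measurable_norm.pow_const 2))

theorem gsym_neg (c ξ : F) : gsym c (-ξ) = (starRingEnd ℂ) (gsym c ξ) := by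
  unfold gsym
  rw [Complex.conj_ofReal, ph_neg, norm_neg]

theorem norm_gsym_mul_le {c : F} (hc : ‖c‖ = 11 / 2) (ξ : F) :
    ‖gsym c ξ‖ * (1 + ‖ξ‖) ^ 2 ≤ 72 := by
  unfold gsym
  rw [Complex.norm_real, Real.norm_eq_abs, abs_div, abs_neg, abs_of_nonneg (one_sub_ph_nonneg c ξ),
    abs_of_nonneg (by positivity)]
  have hp : 0 < π ^ 2 := by positivity
  rcases eq_or_ne ξ 0 with rfl | h0
  · simp
  have hx : 0 < ‖ξ‖ := norm_pos_iff.2 h0
  have hd : 0 < 4 * π ^ 2 * ‖ξ‖ ^ 2 := by positivity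
  rw [div_mul_eq_mul_div, div_le_iff₀ hd]
  rcases le_or_gt ‖ξ‖ 1 with h1 | h1
  · have h2 := one_sub_ph_le hc ξ
    have h3 : (1 + ‖ξ‖) ^ 2 ≤ 4 := by nlinarith
    calc (1 - ph c ξ) * (1 + ‖ξ‖) ^ 2 ≤ (72 * π ^ 2 * ‖ξ‖ ^ 2) * 4 :=
          mul_le_mul h2 h3 (by positivity) (by positivity)
      _ = _ := by ring
  · have h2 := one_sub_ph_le_two c ξ
    have h3 : (1 + ‖ξ‖) ^ 2 ≤ 4 * ‖ξ‖ ^ 2 := by nlinarith
    have h4 : (1 : ℝ) ≤ π ^ 2 := by
      have := Real.pi_gt_three
      nlinarith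
    calc (1 - ph c ξ) * (1 + ‖ξ‖) ^ 2 ≤ 2 * (4 * ‖ξ‖ ^ 2) :=
          mul_le_mul h2 h3 (by positivity) (by norm_num)
      _ ≤ 72 * (4 * π ^ 2 * ‖ξ‖ ^ 2) := by nlinarith [sq_nonneg ‖ξ‖]

theorem gsym_hC {c : F} (hc : ‖c‖ = 11 / 2) {N : ℕ} (ξ : F) :
    ‖gsym c ξ‖ * wt (N + 2) ξ ≤ 72 * wt N ξ := by
  unfold wt
  rw [pow_add]
  have h1 := norm_gsym_mul_le hc ξ
  have h2 : 0 ≤ (1 + ‖ξ‖) ^ N := by positivity
  calc ‖gsym c ξ‖ * ((1 + ‖ξ‖) ^ N * (1 + ‖ξ‖) ^ 2)
      = (‖gsym c ξ‖ * (1 + ‖ξ‖) ^ 2) * (1 + ‖ξ‖) ^ N := by ring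
    _ ≤ _ := mul_le_mul_of_nonneg_right h1 h2

/-- the right inverse -/
def G {c : F} (hc : ‖c‖ = 11 / 2) {N : ℕ} : X F N →L[ℂ] X F (N + 2) :=
  mlt (gsym c) (measurable_gsym c) 72 (gsym_hC hc)

theorem norm_G_le {c : F} (hc : ‖c‖ = 11 / 2) {N : ℕ} (a : X F N) : ‖G hc a‖ ≤ 72 * ‖a‖ :=
  norm_mlt_le _ _ (by norm_num) a

theorem G_star {c : F} (hc : ‖c‖ = 11 / 2) {N : ℕ} (a : X F N) : star (G hc a) = G hc (star a) :=
  mlt_star _ _ (gsym_neg c) a

variable {ι : Type*} [Fintype ι]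

theorem den_DD {N : ℕ} (v w : F) (a : X F (N + 2)) :
    XG.den (D v (D w a)) =ᵐ[volume] fun ξ => dsym v ξ * (dsym w ξ * XG.den a ξ) := by
  filter_upwards [den_mlt (measurable_dsym v) (dsym_hC v) (D w a),
    den_mlt (measurable_dsym w) (dsym_hC w) a] with ξ h1 h2
  rw [show D v (D w a) = mlt (dsym v) (measurable_dsym v) (2 * π * ‖v‖) (dsym_hC v) (D w a) from rfl,
    h1, show D w a = mlt (dsym w) (measurable_dsym w) (2 * π * ‖w‖) (dsym_hC w) a from rfl, h2]

theorem ev_DD {N : ℕ} (v w : F) (a : X F (N + 2)) (x : F) :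
    ev (D v (D w a)) x = ∫ ξ, chr x ξ * (dsym v ξ * (dsym w ξ * XG.den a ξ)) := by
  rw [ev_eq]
  exact integral_congr_ae ((den_DD v w a).mono fun ξ hξ => by simp only [hξ])

theorem sum_dsym_sq (e : OrthonormalBasis ι ℝ F) (ξ : F) :
    ∑ i, dsym (e i) ξ * dsym (e i) ξ = -((4 * π ^ 2 * ‖ξ‖ ^ 2 : ℝ) : ℂ) := by
  have h1 : ∑ i, ⟪ξ, e i⟫_ℝ ^ 2 = ‖ξ‖ ^ 2 := by
    have := e.sum_sq_norm_inner_left ξ
    simpa [Real.norm_eq_abs, sq_abs] using this
  have h2 : ∀ i, dsym (e i) ξ * dsym (e i) ξ = ((-(4 * π ^ 2) * ⟪ξ, e i⟫_ℝ ^ 2 : ℝ) : ℂ) := fun i => by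
    unfold dsym
    push_cast
    have : (I : ℂ) ^ 2 = -1 := Complex.I_sq
    calc _ = 4 * (π : ℂ) ^ 2 * (I ^ 2) * (⟪ξ, e i⟫_ℝ : ℂ) ^ 2 := by ring
      _ = _ := by rw [this]; ring
  rw [Finset.sum_congr rfl fun i _ => h2 i, ← Complex.ofReal_sum, ← Finset.mul_sum, h1]
  push_cast
  ring

theorem dsym_gsym (c : F) (e : OrthonormalBasis ι ℝ F) (ξ : F) :
    ∑ i, dsym (e i) ξ * (dsym (e i) ξ * gsym c ξ) = 1 - (ph c ξ : ℂ) := by
  have h : ∑ i, dsym (e i) ξ * (dsym (e i) ξ * gsym c ξ)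
      = (∑ i, dsym (e i) ξ * dsym (e i) ξ) * gsym c ξ := by
    rw [Finset.sum_mul]
    exact Finset.sum_congr rfl fun i _ => by ring
  rw [h, sum_dsym_sq]
  unfold gsym
  rw [← Complex.ofReal_neg, ← Complex.ofReal_mul]
  rcases eq_or_ne ξ 0 with rfl | h0
  · rw [ph_zero]; simp
  have hx : 0 < ‖ξ‖ := norm_pos_iff.2 h0
  have hp := Real.pi_pos
  rw [show -(4 * π ^ 2 * ‖ξ‖ ^ 2) * (-(1 - ph c ξ) / (4 * π ^ 2 * ‖ξ‖ ^ 2)) = 1 - ph c ξ by
    field_simp]
  push_cast; ring

/-- the mean over the bump of the values at `x ± y` -/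
theorem ev_ph {N : ℕ} (c : F) (f : X F N) (x : F) :
    ∫ ξ, chr x ξ * ((ph c ξ : ℂ) * XG.den f ξ)
      = ∫ y, (psi c y : ℂ) * ((ev f (x + y) + ev f (x - y)) / 2) := by
  have hcos : ∀ ξ y : F, ((Real.cos (2 * π * ⟪ξ, y⟫_ℝ) : ℝ) : ℂ)
      = (chr y ξ + chr (-y) ξ) / 2 := fun ξ y => by
    unfold chr
    rw [inner_neg_right, Real.fourierChar_apply, Real.fourierChar_apply, Complex.ofReal_cos,
      Complex.cos]
    push_cast
    ring_nf
  have hadd : ∀ x y ξ : F, chr x ξ * chr y ξ = chr (x + y) ξ := fun x y ξ => by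
    unfold chr
    rw [inner_add_right, AddChar.map_add_eq_mul, Circle.coe_mul]
  have h1 : ∀ ξ, chr x ξ * ((ph c ξ : ℂ) * XG.den f ξ)
      = ∫ y, chr x ξ * (((Real.cos (2 * π * ⟪ξ, y⟫_ℝ) : ℝ) : ℂ) * (psi c y : ℂ) * XG.den f ξ) :=
    fun ξ => by
      rw [integral_const_mul, integral_mul_const]
      congr 2
      unfold ph
      rw [← integral_complex_ofReal]
      exact integral_congr_ae (Eventually.of_forall fun y => by simp only; push_cast; rfl)
  rw [integral_congr_ae (Eventually.of_forall h1)]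
  have hint : Integrable (Function.uncurry fun (ξ y : F) =>
      chr x ξ * (((Real.cos (2 * π * ⟪ξ, y⟫_ℝ) : ℝ) : ℂ) * (psi c y : ℂ) * XG.den f ξ))
      (volume.prod volume) := by
    have h2 : Integrable (fun z : F × F => XG.den f z.1 * (psi c z.2 : ℂ)) (volume.prod volume) :=
      (XG.integrable_den f).mul_prod (integrable_psi c).ofReal
    have h3 : Integrable (fun z : F × F => (chr x z.1 *
        ((Real.cos (2 * π * ⟪z.1, z.2⟫_ℝ) : ℝ) : ℂ)) * (XG.den f z.1 * (psi c z.2 : ℂ)))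
        (volume.prod volume) := by
      refine h2.bdd_mul (c := 1) ?_ (Eventually.of_forall fun z => ?_)
      · refine Continuous.aestronglyMeasurable ?_
        exact ((continuous_chr x).comp continuous_fst).mul (Complex.continuous_ofReal.comp
          (Real.continuous_cos.comp (continuous_const.mul (continuous_fst.inner continuous_snd))))
      · rw [norm_mul, norm_chr, one_mul, Complex.norm_real, Real.norm_eq_abs]
        exact Real.abs_cos_le_one _
    refine h3.congr (Eventually.of_forall fun z => ?_)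
    simp only [Function.uncurry]
    ring
  rw [integral_integral_swap hint]
  refine integral_congr_ae (Eventually.of_forall fun y => ?_)
  simp only
  have h4 : ∀ ξ, chr x ξ * (((Real.cos (2 * π * ⟪ξ, y⟫_ℝ) : ℝ) : ℂ) * (psi c y : ℂ) * XG.den f ξ)
      = ((psi c y : ℂ) / 2) * (chr (x + y) ξ * XG.den f ξ + chr (x - y) ξ * XG.den f ξ) :=
    fun ξ => by
      rw [hcos, sub_eq_add_neg x y, ← hadd, ← hadd]
      ring
  rw [integral_congr_ae (Eventually.of_forall h4), integral_const_mul,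
    integral_add (integrable_chr_mul f _) (integrable_chr_mul f _), ← ev_eq, ← ev_eq]
  ring

/-- **right inverse of the Laplacian** -/
theorem lap_G {c : F} (hc : ‖c‖ = 11 / 2) (e : OrthonormalBasis ι ℝ F) {N : ℕ} (f : X F N)
    (hf : ∀ z, 2 ≤ ‖z‖ → ev f z = 0) {x : F} (hx : ‖x‖ < 3) :
    ∑ i, ev (D (e i) (D (e i) (G hc f))) x = ev f x := by
  have h0 : ∀ i, Integrable fun ξ => chr x ξ * (dsym (e i) ξ * (dsym (e i) ξ *
      XG.den (G hc f) ξ)) := fun i => by
    refine (integrable_chr_mul (D (e i) (D (e i) (G hc f))) x).congr ?_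
    exact (den_DD (e i) (e i) (G hc f)).mono fun ξ hξ => by simp only [hξ]
  rw [Finset.sum_congr rfl fun i _ => ev_DD (e i) (e i) (G hc f) x,
    ← integral_finsetSum _ fun i _ => h0 i]
  have h1 : (fun ξ => ∑ i, chr x ξ * (dsym (e i) ξ * (dsym (e i) ξ * XG.den (G hc f) ξ)))
      =ᵐ[volume] fun ξ => chr x ξ * XG.den f ξ - chr x ξ * ((ph c ξ : ℂ) * XG.den f ξ) := by
    filter_upwards [den_mlt (measurable_gsym c) (gsym_hC hc) f] with ξ hξ
    have h2 : XG.den (G hc f) ξ = gsym c ξ * XG.den f ξ := hξ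
    rw [h2]
    have h3 : ∑ i, chr x ξ * (dsym (e i) ξ * (dsym (e i) ξ * (gsym c ξ * XG.den f ξ)))
        = chr x ξ * (∑ i, dsym (e i) ξ * (dsym (e i) ξ * gsym c ξ)) * XG.den f ξ := by
      rw [Finset.mul_sum, Finset.sum_mul]
      exact Finset.sum_congr rfl fun i _ => by ring
    rw [h3, dsym_gsym c e]
    ring
  have h5 : Integrable fun ξ => chr x ξ * ((ph c ξ : ℂ) * XG.den f ξ) := by
    have h6 : Integrable fun ξ => (ph c ξ : ℂ) * (chr x ξ * XG.den f ξ) := by
      refine (integrable_chr_mul f x).bdd_mul (c := 1)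
        (Complex.continuous_ofReal.comp (continuous_ph c)).aestronglyMeasurable
        (Eventually.of_forall fun ξ => ?_)
      rw [Complex.norm_real, Real.norm_eq_abs, abs_le]
      constructor
      · linarith [one_sub_ph_le_two c ξ]
      · linarith [one_sub_ph_nonneg c ξ]
    exact h6.congr (Eventually.of_forall fun ξ => by simp only; ring)
  rw [integral_congr_ae h1, integral_sub (integrable_chr_mul f x) h5, ← ev_eq, ev_ph]
  have h7 : ∫ y, (psi c y : ℂ) * ((ev f (x + y) + ev f (x - y)) / 2) = 0 := by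
    rw [← integral_zero F ℂ]
    refine integral_congr_ae (Eventually.of_forall fun y => ?_)
    simp only
    by_cases h : psi c y = 0
    · rw [h, Complex.ofReal_zero, zero_mul]
    · have h8 := (psi_ne hc h).1
      have h9 : 2 ≤ ‖x + y‖ := by
        have := norm_sub_le (x + y) x
        rw [add_sub_cancel_left] at this
        linarith
      have h10 : 2 ≤ ‖x - y‖ := by
        have := norm_sub_le x (x - y)
        rw [sub_sub_cancel] at this
        linarith
      rw [hf _ h9, hf _ h10]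
      simp
  rw [h7, sub_zero]

end Crest.Agent.R234.Mx2_397
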