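import Crest.Agent.R234.Mx2_397

/-!
# Row 234, VF-MINEX part 3 (helper397): smooth cut-off functions as elements of the Wiener algebra
-/

set_option autoImplicit false
set_option linter.unusedSectionVars false

open MeasureTheory Complex Filter Real
open scoped ContDiff FourierTransform Topology InnerProductSpace SchwartzMap

noncomputable section

namespace Crest.Agent.R234.Mx3_397

open Crest.Agent.R086.Wie Crest.Agent.R234.Mx1_397 Crest.Agent.R234.Mx2_397

variable {F : Type*} [NormedAddCommGroup F] [InnerProductSpace ℝ F] [FiniteDimensional ℝ F]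
  [MeasurableSpace F] [BorelSpace F]

/-! ### Schwartz functions as densities -/

/-- the exponent of integrability of `(1+‖x‖)⁻ⁿ` -/
theorem exists_pow : ∃ n : ℕ, Integrable (fun x : F => (1 + ‖x‖) ^ (-(n : ℝ))) :=
  (inferInstance : (volume : Measure F).HasTemperateGrowth).exists_integrable

theorem wt_mul_le (N n : ℕ) (g : 𝓢(F, ℂ)) (x : F) :
    wt N x * ‖g x‖ ≤ (2 ^ (N + n) * ((Finset.Iic (N + n, 0)).sup
      (schwartzSeminormFamily ℂ F ℂ) g)) * (1 + ‖x‖) ^ (-(n : ℝ)) := by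
  have h := SchwartzMap.one_add_le_sup_seminorm_apply (𝕜 := ℂ) (m := (N + n, 0)) (k := N + n)
    (n := 0) le_rfl le_rfl g x
  rw [norm_iteratedFDeriv_zero] at h
  have h1 : (0 : ℝ) < (1 + ‖x‖) ^ n := by positivity
  rw [rpow_neg (by positivity), rpow_natCast, ← div_eq_mul_inv, le_div_iff₀ h1]
  unfold wt
  calc (1 + ‖x‖) ^ N * ‖g x‖ * (1 + ‖x‖) ^ n = (1 + ‖x‖) ^ (N + n) * ‖g x‖ := by
        rw [pow_add]; ring
    _ ≤ _ := h

theorem wint_schwartz (N : ℕ) (g : 𝓢(F, ℂ)) : WInt N (g : F → ℂ) := by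
  obtain ⟨n, hn⟩ := exists_pow (F := F)
  rw [WInt, gint_iff g.continuous.aestronglyMeasurable]
  refine (hn.const_mul (2 ^ (N + n) * ((Finset.Iic (N + n, 0)).sup
      (schwartzSeminormFamily ℂ F ℂ) g))).mono
    ((continuous_wt N).mul g.continuous.norm).aestronglyMeasurable
    (Eventually.of_forall fun x => ?_)
  simp only [wtV_apply]
  rw [Real.norm_of_nonneg (mul_nonneg (wt_nonneg N x) (norm_nonneg _))]
  exact (wt_mul_le N n g x).trans (le_abs_self _)

/-- Schwartz functions as densities -/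
def dn (N : ℕ) : 𝓢(F, ℂ) →L[ℂ] X F N :=
  SchwartzMap.mkCLMtoNormedSpace (𝕜 := ℂ) (𝕜' := ℂ) (σ := RingHom.id ℂ)
    (fun g => XG.mk (g : F → ℂ) (wint_schwartz N g))
    (fun f g => (XG.mk_congr _ _ (Eventually.of_forall fun x => rfl)).trans
      (XG.mk_add (wint_schwartz N f) (wint_schwartz N g)))
    (fun c g => (XG.mk_congr _ _ (Eventually.of_forall fun x => rfl)).trans
      (XG.mk_smul c (wint_schwartz N g)))
    (by
      obtain ⟨n, hn⟩ := exists_pow (F := F)
      refine ⟨Finset.Iic (N + n, 0), 2 ^ (N + n) * ∫ x : F, (1 + ‖x‖) ^ (-(n : ℝ)),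
        mul_nonneg (by positivity) (integral_nonneg fun x => by positivity), fun g => ?_⟩
      rw [XG.norm_mk]
      calc ∫ x, (wtV F N) x * ‖g x‖
          ≤ ∫ x, (2 ^ (N + n) * ((Finset.Iic (N + n, 0)).sup
            (schwartzSeminormFamily ℂ F ℂ) g)) * (1 + ‖x‖) ^ (-(n : ℝ)) :=
            integral_mono (wint_schwartz N g).norm_int (hn.const_mul _)
              fun x => wt_mul_le N n g x
        _ = _ := by rw [integral_const_mul]; ring)

theorem den_dn (N : ℕ) (g : 𝓢(F, ℂ)) : XG.den (dn N g) =ᵐ[volume] g :=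
  XG.den_mk (wint_schwartz N g)

/-- the analysis of a Schwartz function -/
def toX (N : ℕ) : 𝓢(F, ℂ) →L[ℂ] X F N := (dn N).comp (SchwartzMap.fourierTransformCLM ℂ)

theorem den_toX (N : ℕ) (g : 𝓢(F, ℂ)) : XG.den (toX N g) =ᵐ[volume] 𝓕 (g : F → ℂ) :=
  den_dn N (𝓕 g)

theorem ev_toX (N : ℕ) (g : 𝓢(F, ℂ)) (x : F) : ev (toX N g) x = g x := by
  have h1 : ev (toX N g) x = 𝓕⁻ (𝓕 (g : F → ℂ)) x := by
    rw [ev_eq, Real.fourierInv_eq]
    exact integral_congr_ae ((den_toX N g).mono fun ξ hξ => by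
      simp only [hξ]
      rfl)
  rw [h1, ← SchwartzMap.fourier_coe, ← SchwartzMap.fourierInv_coe, FourierTransform.fourierInv_fourier_eq]

/-- **norm bound for compactly supported functions** -/
theorem exists_toX_bound (N : ℕ) : ∃ (K : ℕ) (C : ℝ), 0 ≤ C ∧ ∀ (g : 𝓢(F, ℂ)) (A : ℝ), 0 ≤ A →
    (∀ x, 2 < ‖x‖ → g x = 0) → (∀ j ≤ K, ∀ x, ‖iteratedFDeriv ℝ j g x‖ ≤ A) →
    ‖toX N g‖ ≤ C * A := by
  let q : Seminorm ℂ 𝓢(F, ℂ) := (normSeminorm ℂ (X F N)).comp (toX N).toLinearMap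
  have hq : Continuous q := continuous_norm.comp (toX (F := F) N).continuous
  obtain ⟨s, C, _, hC⟩ := Seminorm.bound_of_continuous (schwartz_withSeminorms ℂ F ℂ) q hq
  refine ⟨s.sup Prod.snd, C * 2 ^ (s.sup Prod.fst), by positivity, fun g A hA hg hj => ?_⟩
  have h1 : ‖toX N g‖ ≤ C * (s.sup (schwartzSeminormFamily ℂ F ℂ)) g := hC g
  have h2 : (s.sup (schwartzSeminormFamily ℂ F ℂ)) g ≤ 2 ^ (s.sup Prod.fst) * A := by
    refine Seminorm.finset_sup_apply_le (by positivity) fun p hp => ?_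
    refine SchwartzMap.seminorm_le_bound ℂ p.1 p.2 g (by positivity) fun x => ?_
    rcases le_or_gt ‖x‖ 2 with hx | hx
    · have h3 : ‖x‖ ^ p.1 ≤ 2 ^ (s.sup Prod.fst) := by
        calc ‖x‖ ^ p.1 ≤ 2 ^ p.1 := pow_le_pow_left₀ (norm_nonneg _) hx _
          _ ≤ 2 ^ (s.sup Prod.fst) := pow_le_pow_right₀ (by norm_num) (Finset.le_sup (f := Prod.fst) hp)
      exact mul_le_mul h3 (hj p.2 (Finset.le_sup (f := Prod.snd) hp) x) (norm_nonneg _) (by positivity)
    · have h4 : (g : F → ℂ) =ᶠ[𝓝 x] fun _ => (0 : ℂ) := by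
        filter_upwards [(isOpen_lt continuous_const continuous_norm).mem_nhds hx] with y hy
        exact hg y hy
      have h5 : iteratedFDeriv ℝ p.2 g x = 0 := by
        rw [(Filter.EventuallyEq.iteratedFDeriv ℝ h4 p.2).eq_of_nhds]
        simp only [iteratedFDeriv_fun_zero, Pi.zero_apply]
      rw [h5, norm_zero, mul_zero]
      positivity
  calc ‖toX N g‖ ≤ C * (s.sup (schwartzSeminormFamily ℂ F ℂ)) g := h1
    _ ≤ C * (2 ^ (s.sup Prod.fst) * A) := mul_le_mul_of_nonneg_left h2 C.coe_nonneg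
    _ = _ := by ring

/-! ### real smooth compactly supported functions -/

/-- real smooth function with compact support, as a Schwartz function -/
def toS (g : F → ℝ) (h1 : HasCompactSupport g) (h2 : ContDiff ℝ ∞ g) : 𝓢(F, ℂ) :=
  (h1.comp_left (g := fun t : ℝ => (t : ℂ)) Complex.ofReal_zero).toSchwartzMap
    (Complex.ofRealCLM.contDiff.comp h2)

theorem toS_apply (g : F → ℝ) (h1 : HasCompactSupport g) (h2 : ContDiff ℝ ∞ g) (x : F) :
    toS g h1 h2 x = (g x : ℂ) := rfl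

theorem norm_iteratedFDeriv_toS (g : F → ℝ) (h1 : HasCompactSupport g) (h2 : ContDiff ℝ ∞ g)
    (j : ℕ) (x : F) : ‖iteratedFDeriv ℝ j (toS g h1 h2) x‖ ≤ ‖iteratedFDeriv ℝ j g x‖ := by
  have h3 : (toS g h1 h2 : F → ℂ) = Complex.ofRealCLM ∘ g := rfl
  rw [h3]
  have h4 := Complex.ofRealCLM.norm_iteratedFDeriv_comp_left
    (h2.contDiffAt (x := x)) (n := j) (by exact_mod_cast le_top)
  refine h4.trans ?_
  rw [Complex.ofRealCLM_norm, one_mul]

theorem star_toX_toS (N : ℕ) (g : F → ℝ) (h1 : HasCompactSupport g) (h2 : ContDiff ℝ ∞ g) :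
    star (toX N (toS g h1 h2)) = toX N (toS g h1 h2) := by
  refine XG.ext ?_
  filter_upwards [XG.den_star (toX N (toS g h1 h2)), XG.ae_neg (den_toX N (toS g h1 h2)),
    den_toX N (toS g h1 h2)] with ξ a1 a2 a3
  rw [a1, a2, a3, Real.fourier_eq, Real.fourier_eq, ← integral_conj]
  refine integral_congr_ae (Eventually.of_forall fun v => ?_)
  simp only
  rw [toS_apply, Circle.smul_def, Circle.smul_def, smul_eq_mul, smul_eq_mul, map_mul,
    Complex.conj_ofReal, inner_neg_right, neg_neg, AddChar.map_neg_eq_inv, Circle.coe_inv_eq_conj]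

/-- a cut-off: smooth with (closed) support in the open ball of radius 2 -/
structure IsCut (η : F → ℝ) : Prop where
  smooth : ContDiff ℝ ∞ η
  supp : tsupport η ⊆ Metric.ball 0 2

theorem IsCut.compact {η : F → ℝ} (h : IsCut η) : HasCompactSupport η :=
  HasCompactSupport.of_support_subset_isCompact (isCompact_closedBall (0 : F) 2)
    ((subset_tsupport η).trans (h.supp.trans Metric.ball_subset_closedBall))

theorem IsCut.zero {η : F → ℝ} (h : IsCut η) {x : F} (hx : 2 ≤ ‖x‖) : η x = 0 := by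
  by_contra h1
  have h2 := h.supp (subset_tsupport η h1)
  rw [mem_ball_zero_iff] at h2
  linarith

theorem IsCut.contDiff {η : F → ℝ} (h : IsCut η) {w : F → ℝ}
    (hw : ContDiffOn ℝ ∞ w (Metric.ball 0 2)) : ContDiff ℝ ∞ fun x => η x * w x := by
  rw [contDiff_iff_contDiffAt]
  intro x
  by_cases hx : x ∈ tsupport η
  · exact h.smooth.contDiffAt.mul (hw.contDiffAt (Metric.isOpen_ball.mem_nhds (h.supp hx)))
  · have h1 : (fun x => η x * w x) =ᶠ[𝓝 x] fun _ => (0 : ℝ) := by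
      filter_upwards [(isClosed_tsupport η).isOpen_compl.mem_nhds hx] with y hy
      have : η y = 0 := by
        by_contra h2
        exact hy (subset_tsupport η h2)
      rw [this, zero_mul]
    exact contDiffAt_const.congr_of_eventuallyEq h1

theorem IsCut.compact_mul {η : F → ℝ} (h : IsCut η) (w : F → ℝ) :
    HasCompactSupport fun x => η x * w x := h.compact.mul_right

theorem IsCut.exists_bound {η : F → ℝ} (h : IsCut η) (K : ℕ) :
    ∃ C : ℝ, 0 ≤ C ∧ ∀ j ≤ K, ∀ x, ‖iteratedFDeriv ℝ j η x‖ ≤ C := by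
  have h1 : ∀ j : ℕ, ∃ C, ∀ x, ‖iteratedFDeriv ℝ j η x‖ ≤ C := fun j => by
    have h2 : Continuous (iteratedFDeriv ℝ j η) :=
      h.smooth.continuous_iteratedFDeriv (by exact_mod_cast le_top)
    obtain ⟨C, hC⟩ := h2.norm.bddAbove_range_of_hasCompactSupport (h.compact.iteratedFDeriv j).norm
    exact ⟨C, fun x => hC ⟨x, rfl⟩⟩
  choose C hC using h1
  refine ⟨∑ j ∈ Finset.range (K + 1), C j, Finset.sum_nonneg fun j _ =>
    (norm_nonneg _).trans (hC j 0), fun j hj x => (hC j x).trans ?_⟩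
  exact Finset.single_le_sum (f := C) (fun i _ => (norm_nonneg _).trans (hC i 0))
    (Finset.mem_range.2 (by omega))

theorem IsCut.exists_mul_bound {η : F → ℝ} (h : IsCut η) (K : ℕ) :
    ∃ C : ℝ, 0 ≤ C ∧ ∀ (w : F → ℝ) (A : ℝ), 0 ≤ A → ContDiffOn ℝ ∞ w (Metric.ball 0 2) →
      (∀ j ≤ K, ∀ x ∈ Metric.ball (0 : F) 2, ‖iteratedFDeriv ℝ j w x‖ ≤ A) →
      ∀ j ≤ K, ∀ x, ‖iteratedFDeriv ℝ j (fun x => η x * w x) x‖ ≤ C * A := by
  obtain ⟨C, hC0, hC⟩ := h.exists_bound K
  refine ⟨2 ^ K * C, by positivity, fun w A hA hw hb j hj x => ?_⟩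
  by_cases hx : x ∈ Metric.ball (0 : F) 2
  · have h1 : ∀ (f : F → ℝ) (i : ℕ), iteratedFDeriv ℝ i f x
        = iteratedFDerivWithin ℝ i f (Metric.ball 0 2) x := fun f i =>
      (iteratedFDerivWithin_of_isOpen i Metric.isOpen_ball hx).symm
    have h2 := norm_iteratedFDerivWithin_mul_le (𝕜 := ℝ) (h.smooth.contDiffOn (s := Metric.ball 0 2))
      hw Metric.isOpen_ball.uniqueDiffOn hx (n := j) (by exact_mod_cast le_top)
    rw [h1]
    refine h2.trans ?_
    calc ∑ i ∈ Finset.range (j + 1), (j.choose i : ℝ) *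
          ‖iteratedFDerivWithin ℝ i η (Metric.ball 0 2) x‖ *
          ‖iteratedFDerivWithin ℝ (j - i) w (Metric.ball 0 2) x‖
        ≤ ∑ i ∈ Finset.range (j + 1), (j.choose i : ℝ) * C * A := by
          refine Finset.sum_le_sum fun i hi => ?_
          have hi' : i ≤ j := by
            have := Finset.mem_range.1 hi
            omega
          rw [← h1, ← h1]
          have h3 := hC i (hi'.trans hj) x
          have h4 := hb (j - i) (by omega) x hx
          gcongr
      _ = 2 ^ j * (C * A) := by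
          rw [← Finset.sum_mul, ← Finset.sum_mul]
          have h5 : (∑ i ∈ Finset.range (j + 1), (j.choose i : ℝ)) = 2 ^ j := by
            exact_mod_cast Nat.sum_range_choose j
          rw [h5]; ring
      _ ≤ 2 ^ K * C * A := by
          rw [mul_assoc]
          exact mul_le_mul_of_nonneg_right (pow_le_pow_right₀ (by norm_num) hj) (by positivity)
  · have h0 : x ∉ tsupport η := fun h1 => hx (h.supp h1)
    have h1 : (fun x => η x * w x) =ᶠ[𝓝 x] fun _ => (0 : ℝ) := by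
      filter_upwards [(isClosed_tsupport η).isOpen_compl.mem_nhds h0] with y hy
      have : η y = 0 := by
        by_contra h2
        exact hy (subset_tsupport η h2)
      rw [this, zero_mul]
    have h5 : iteratedFDeriv ℝ j (fun x => η x * w x) x = 0 := by
      rw [(Filter.EventuallyEq.iteratedFDeriv ℝ h1 j).eq_of_nhds]
      simp only [iteratedFDeriv_fun_zero, Pi.zero_apply]
    rw [h5, norm_zero]
    positivity

/-- the element of the Wiener algebra attached to `η w` -/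
def cutX (N : ℕ) {η : F → ℝ} (h : IsCut η) {w : F → ℝ}
    (hw : ContDiffOn ℝ ∞ w (Metric.ball 0 2)) : X F N :=
  toX N (toS _ (h.compact_mul w) (h.contDiff hw))

theorem ev_cutX (N : ℕ) {η : F → ℝ} (h : IsCut η) {w : F → ℝ}
    (hw : ContDiffOn ℝ ∞ w (Metric.ball 0 2)) (x : F) :
    ev (cutX N h hw) x = ((η x * w x : ℝ) : ℂ) := by
  unfold cutX
  rw [ev_toX, toS_apply]

theorem star_cutX (N : ℕ) {η : F → ℝ} (h : IsCut η) {w : F → ℝ}
    (hw : ContDiffOn ℝ ∞ w (Metric.ball 0 2)) : star (cutX N h hw) = cutX N h hw :=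
  star_toX_toS N _ _ _

theorem exists_cutX_bound (N : ℕ) {η : F → ℝ} (h : IsCut η) :
    ∃ (K : ℕ) (C : ℝ), 0 ≤ C ∧ ∀ (w : F → ℝ) (hw : ContDiffOn ℝ ∞ w (Metric.ball 0 2)) (A : ℝ),
      0 ≤ A → (∀ j ≤ K, ∀ x ∈ Metric.ball (0 : F) 2, ‖iteratedFDeriv ℝ j w x‖ ≤ A) →
      ‖cutX N h hw‖ ≤ C * A := by
  obtain ⟨K, C, hC0, hC⟩ := exists_toX_bound (F := F) N
  obtain ⟨C', hC'0, hC'⟩ := h.exists_mul_bound K
  refine ⟨K, C * C', by positivity, fun w hw A hA hb => ?_⟩
  rw [mul_assoc]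
  refine hC _ (C' * A) (by positivity) (fun x hx => ?_) (fun j hj x => ?_)
  · rw [toS_apply, h.zero hx.le, zero_mul, Complex.ofReal_zero]
  · exact (norm_iteratedFDeriv_toS _ _ _ j x).trans (hC' w A hA hw hb j hj x)

end Crest.Agent.R234.Mx3_397
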