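import Crest.Agent.R234.Mx3_397
import Crest.Agent.R234.Mx4_397
import Crest.Agent.R234.Ell1_3

/-!
# Row 234, VF-MINEX part 5 (helper397): the minimal surface operator of functions `F → V`

`msop u x = Σ g^{ij}(Du x) ∂_i∂_j u(x)`. `core`: every small smooth `w` on `ball 0 2` is corrected
by `G f`, `‖f‖ ≤ 2‖R‖`, `ev R = ζ · msop w`, to a solution of `msop = 0` on `ball 0 (3/2)`.
-/

set_option autoImplicit false
set_option linter.unusedSectionVars false

open MeasureTheory Complex Filter Real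
open scoped ContDiff Topology InnerProductSpace

noncomputable section

namespace Crest.Agent.R234.Mx5_397

open Crest.Agent.R086.Wie Crest.Agent.R234.Mx1_397 Crest.Agent.R234.Mx2_397
  Crest.Agent.R234.Mx3_397 Crest.Agent.R234.Mx4_397 Crest.Agent.R234.Ell1_3

theorem onb_ext {E ι : Type*} [NormedAddCommGroup E] [InnerProductSpace ℝ E] [Fintype ι]
    (e : OrthonormalBasis ι ℝ E) {x y : E} (h : ∀ i, ⟪e i, x⟫_ℝ = ⟪e i, y⟫_ℝ) : x = y := by
  rw [← e.sum_repr' x, ← e.sum_repr' y]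
  exact Finset.sum_congr rfl fun i _ => by rw [h i]

section msop

variable {F V : Type} [NormedAddCommGroup F] [InnerProductSpace ℝ F] [FiniteDimensional ℝ F]
  [NormedAddCommGroup V] [InnerProductSpace ℝ V] [FiniteDimensional ℝ V]
variable {ι κ : Type*} [Fintype ι] [Fintype κ]

theorem ginv_basis (e : OrthonormalBasis ι ℝ F) (b : OrthonormalBasis κ ℝ V) (q : F →L[ℝ] V)
    (k : ι → ι → ℝ)
    (hk : ∀ i j, k i j = -(∑ α, ⟪b α, q (e i)⟫_ℝ * ⟪b α, q (e j)⟫_ℝ)
      - ∑ l, (∑ α, ⟪b α, q (e i)⟫_ℝ * ⟪b α, q (e l)⟫_ℝ) * k l j) (j : ι) :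
    ginv q (e j) = e j + ∑ i, k i j • e i := by
  classical
  have h1 : gop q (e j + ∑ i, k i j • e i) = e j := by
    refine onb_ext e fun i => ?_
    rw [gop_inner]
    have hq : ∀ l, ⟪q (e i), q (e l)⟫_ℝ = ∑ α, ⟪b α, q (e i)⟫_ℝ * ⟪b α, q (e l)⟫_ℝ := fun l => by
      rw [← b.sum_inner_mul_inner (q (e i)) (q (e l))]
      exact Finset.sum_congr rfl fun α _ => by rw [real_inner_comm (b α)]
    have ho : ∀ l, ⟪e i, e l⟫_ℝ = if i = l then 1 else 0 :=
      fun l => (orthonormal_iff_ite.1 e.orthonormal) i l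
    have h2 : ⟪e i, ∑ l, k l j • e l⟫_ℝ = k i j := by
      rw [inner_sum]
      simp only [inner_smul_right, ho]
      simp
    have h3 : ⟪q (e i), q (∑ l, k l j • e l)⟫_ℝ
        = ∑ l, (∑ α, ⟪b α, q (e i)⟫_ℝ * ⟪b α, q (e l)⟫_ℝ) * k l j := by
      rw [map_sum, inner_sum]
      refine Finset.sum_congr rfl fun l _ => ?_
      rw [map_smul, inner_smul_right, hq, mul_comm]
    rw [inner_add_right, h2, map_add, inner_add_right, h3, hq, hk i j]
    ring
  have h2 := congrArg (ginv q) h1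
  have h3 := congrArg (fun T : F →L[ℝ] F => T (e j + ∑ i, k i j • e i)) (ginv_gop q)
  simp only [ContinuousLinearMap.comp_apply, ContinuousLinearMap.id_apply] at h3
  rw [h3] at h2
  exact h2.symm

/-- the (non-divergence) minimal surface operator `Σ g^{ij}(Du) ∂_i∂_j u` -/
def msop (u : F → V) (x : F) : V :=
  ∑ i, fderiv ℝ (fderiv ℝ u) x (ginv (fderiv ℝ u x) (stdOrthonormalBasis ℝ F i))
    (stdOrthonormalBasis ℝ F i)

theorem msop_congr {u v : F → V} {x : F} (h : u =ᶠ[𝓝 x] v) : msop u x = msop v x := by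
  unfold msop
  rw [h.fderiv.fderiv_eq, h.fderiv_eq]

theorem msop_inner (b : OrthonormalBasis κ ℝ V) (u : F → V) (x : F)
    (k : Fin (Module.finrank ℝ F) → Fin (Module.finrank ℝ F) → ℝ)
    (hk : ∀ i j, k i j = -(∑ α, ⟪b α, fderiv ℝ u x (stdOrthonormalBasis ℝ F i)⟫_ℝ
        * ⟪b α, fderiv ℝ u x (stdOrthonormalBasis ℝ F j)⟫_ℝ)
      - ∑ l, (∑ α, ⟪b α, fderiv ℝ u x (stdOrthonormalBasis ℝ F i)⟫_ℝ
        * ⟪b α, fderiv ℝ u x (stdOrthonormalBasis ℝ F l)⟫_ℝ) * k l j) (α : κ) :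
    ⟪b α, msop u x⟫_ℝ
      = ∑ i, ⟪b α, fderiv ℝ (fderiv ℝ u) x (stdOrthonormalBasis ℝ F i)
          (stdOrthonormalBasis ℝ F i)⟫_ℝ
        + ∑ i, ∑ j, k i j * ⟪b α, fderiv ℝ (fderiv ℝ u) x (stdOrthonormalBasis ℝ F i)
          (stdOrthonormalBasis ℝ F j)⟫_ℝ := by
  unfold msop
  rw [inner_sum]
  have h1 : ∀ j, ⟪b α, fderiv ℝ (fderiv ℝ u) x (ginv (fderiv ℝ u x) (stdOrthonormalBasis ℝ F j))
      (stdOrthonormalBasis ℝ F j)⟫_ℝ
      = ⟪b α, fderiv ℝ (fderiv ℝ u) x (stdOrthonormalBasis ℝ F j)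
          (stdOrthonormalBasis ℝ F j)⟫_ℝ
        + ∑ i, k i j * ⟪b α, fderiv ℝ (fderiv ℝ u) x (stdOrthonormalBasis ℝ F i)
          (stdOrthonormalBasis ℝ F j)⟫_ℝ := fun j => by
    rw [ginv_basis (stdOrthonormalBasis ℝ F) b (fderiv ℝ u x) k hk j, map_add, map_sum,
      add_apply, inner_add_right]
    congr 1
    rw [sum_apply, inner_sum]
    refine Finset.sum_congr rfl fun i _ => ?_
    rw [map_smul, smul_apply, inner_smul_right]
  rw [Finset.sum_congr rfl fun j _ => h1 j, Finset.sum_add_distrib]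
  congr 1
  exact Finset.sum_comm

/-- smoothness of the operator -/
theorem msop_contDiffOn {u : F → V} {s : Set F} (hs : IsOpen s) (hu : ContDiffOn ℝ ∞ u s) :
    ContDiffOn ℝ ∞ (msop u) s := by
  have h1 : ContDiffOn ℝ ∞ (fderiv ℝ u) s := hu.fderiv_of_isOpen hs (by exact le_rfl)
  have h2 : ContDiffOn ℝ ∞ (fderiv ℝ (fderiv ℝ u)) s := h1.fderiv_of_isOpen hs (by exact le_rfl)
  unfold msop
  refine ContDiffOn.sum fun i _ => ?_
  refine ContDiffOn.clm_apply (h2.clm_apply ?_) contDiffOn_const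
  exact (ginv_contDiff.comp_contDiffOn h1).clm_apply contDiffOn_const

end msop

/-! ### synthesised maps -/

section syn

variable {F V : Type} [NormedAddCommGroup F] [InnerProductSpace ℝ F] [FiniteDimensional ℝ F]
  [MeasurableSpace F] [BorelSpace F]
  [NormedAddCommGroup V] [InnerProductSpace ℝ V] [FiniteDimensional ℝ V]
variable {κ : Type*} [Fintype κ]

/-- the map `F → V` with components `Re ev (u α)` -/
def syn (b : OrthonormalBasis κ ℝ V) {N : ℕ} (u : κ → X F N) (x : F) : V :=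
  ∑ α, (ev (u α) x).re • b α

theorem inner_syn (b : OrthonormalBasis κ ℝ V) {N : ℕ} (u : κ → X F N) (x : F) (α : κ) :
    ⟪b α, syn b u x⟫_ℝ = (ev (u α) x).re := by
  classical
  unfold syn
  have ho : ∀ l, ⟪b α, b l⟫_ℝ = if α = l then 1 else 0 :=
    fun l => (orthonormal_iff_ite.1 b.orthonormal) α l
  rw [inner_sum]
  simp only [inner_smul_right, ho]
  simp

theorem syn_add (b : OrthonormalBasis κ ℝ V) {N : ℕ} (u v : κ → X F N) (x : F) :
    syn b (fun α => u α + v α) x = syn b u x + syn b v x := by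
  unfold syn
  rw [← Finset.sum_add_distrib]
  refine Finset.sum_congr rfl fun α _ => ?_
  rw [ev_add, Complex.add_re, add_smul]

theorem contDiff_syn (b : OrthonormalBasis κ ℝ V) {N : ℕ} (u : κ → X F N) :
    ContDiff ℝ N (syn b u) := by
  unfold syn
  refine ContDiff.sum fun α _ => ?_
  exact (Complex.reCLM.contDiff.comp (contDiff_ev (u α))).smul contDiff_const

theorem hasFDerivAt_syn (b : OrthonormalBasis κ ℝ V) {N : ℕ} (u : κ → X F (N + 1)) (x : F) :
    ∃ L : F →L[ℝ] V, HasFDerivAt (syn b u) L x ∧ ∀ v, L v = syn b (fun α => D v (u α)) x := by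
  choose L hL hLv using fun α => hasFDerivAt_ev (u α) x
  refine ⟨∑ α, (Complex.reCLM ∘L L α).smulRight (b α), ?_, fun v => ?_⟩
  · unfold syn
    refine HasFDerivAt.fun_sum fun α _ => ?_
    exact ((Complex.reCLM.hasFDerivAt.comp x (hL α))).smul_const (b α)
  · unfold syn
    rw [sum_apply]
    refine Finset.sum_congr rfl fun α _ => ?_
    rw [ContinuousLinearMap.smulRight_apply, ContinuousLinearMap.comp_apply, hLv]
    rfl

theorem fderiv_syn (b : OrthonormalBasis κ ℝ V) {N : ℕ} (u : κ → X F (N + 1)) (x v : F) :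
    fderiv ℝ (syn b u) x v = syn b (fun α => D v (u α)) x := by
  obtain ⟨L, hL, h⟩ := hasFDerivAt_syn b u x
  rw [hL.fderiv, h]

theorem fderiv2_syn (b : OrthonormalBasis κ ℝ V) {N : ℕ} (u : κ → X F (N + 2)) (x v v' : F) :
    fderiv ℝ (fderiv ℝ (syn b u)) x v v' = syn b (fun α => D v (D v' (u α))) x := by
  have h1 : ContDiff ℝ 1 (fderiv ℝ (syn b u)) :=
    (contDiff_syn b u).fderiv_right (m := 1) (by
      norm_cast
      omega)
  have h2 : HasFDerivAt (fderiv ℝ (syn b u)) (fderiv ℝ (fderiv ℝ (syn b u)) x) x :=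
    (h1.differentiable one_ne_zero x).hasFDerivAt
  have h3 : fderiv ℝ (fun y => fderiv ℝ (syn b u) y v') x v
      = fderiv ℝ (fderiv ℝ (syn b u)) x v v' := by
    have := (h2.clm_apply (hasFDerivAt_const v' x)).fderiv
    rw [this]
    simp
  rw [← h3]
  have h4 : (fun y => fderiv ℝ (syn b u) y v') = syn b (fun α => D v' (u α)) := by
    funext y
    exact fderiv_syn b u y v'
  rw [h4]
  exact fderiv_syn b (fun α => D v' (u α)) x v

theorem re_ev_mul {N : ℕ} {a : X F N} (ha : star a = a) (c : X F N) (x : F) :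
    (ev (a * c) x).re = (ev a x).re * (ev c x).re := by
  rw [ev_mul, ← ev_real ha x, Complex.re_ofReal_mul, Complex.ofReal_re]

theorem re_ev_sum {N : ℕ} {ι : Type*} (s : Finset ι) (a : ι → X F N) (x : F) :
    (ev (∑ i ∈ s, a i) x).re = ∑ i ∈ s, (ev (a i) x).re := by
  rw [ev_sum, Complex.re_sum]

/-- **components of the operator on synthesised maps** -/
theorem inner_msop_syn (b : OrthonormalBasis κ ℝ V) {N : ℕ} {r : ℝ}
    (hr : Sm (Fin (Module.finrank ℝ F)) κ r) {u : κ → X F (N + 2)} (hu1 : ‖u‖ ≤ r)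
    (hu : ∀ α, star (u α) = u α) (x : F) (α : κ) :
    ⟪b α, msop (syn b u) x⟫_ℝ = ∑ i, (ev (Qd (stdOrthonormalBasis ℝ F) u i i α) x).re
      + (ev (Bf (stdOrthonormalBasis ℝ F) u α) x).re := by
  set e := stdOrthonormalBasis ℝ F with he
  have hp : ∀ i α, ⟪b α, fderiv ℝ (syn b u) x (e i)⟫_ℝ = (ev (Pd e u i α) x).re := fun i α => by
    rw [fderiv_syn, inner_syn]
    unfold Pd
    rw [ev_inclV]
  have hq : ∀ i j α, ⟪b α, fderiv ℝ (fderiv ℝ (syn b u)) x (e i) (e j)⟫_ℝ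
      = (ev (Qd e u i j α) x).re := fun i j α => by
    rw [fderiv2_syn, inner_syn]
    rfl
  have hH : ∀ i j, (ev (Hm e u i j) x).re = ∑ α, ⟪b α, fderiv ℝ (syn b u) x (e i)⟫_ℝ
      * ⟪b α, fderiv ℝ (syn b u) x (e j)⟫_ℝ := fun i j => by
    unfold Hm
    rw [re_ev_sum]
    refine Finset.sum_congr rfl fun α _ => ?_
    rw [re_ev_mul (star_Pd e hu i α), hp, hp]
  rw [msop_inner b (syn b u) x (fun i j => (ev (qi (Hm e u) i j) x).re) (fun i j => ?_) α]
  · congr 1
    · exact Finset.sum_congr rfl fun i _ => hq i i α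
    · unfold Bf
      rw [re_ev_sum]
      refine Finset.sum_congr rfl fun i _ => ?_
      rw [re_ev_sum]
      refine Finset.sum_congr rfl fun j _ => ?_
      rw [re_ev_mul (star_qi (hr.card_le e hu1) (star_Hm e hu) i j), hq]
  · have h2 := congrFun (congrFun (qi_eq (hr.card_le e hu1)) i) j
    have h3 : qi (Hm e u) i j = -Hm e u i j - ∑ l, Hm e u i l * qi (Hm e u) l j := h2
    conv_lhs => rw [h3]
    rw [ev_sub, Complex.sub_re, ev_neg, Complex.neg_re, hH, re_ev_sum]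
    congr 1
    refine Finset.sum_congr rfl fun l _ => ?_
    rw [re_ev_mul (star_Hm e hu i l), hH]

/-! ### the two cut-offs -/

variable (F) in
/-- inner cut-off, one on `closedBall 0 (3/2)` -/
def zb : ContDiffBump (0 : F) := ⟨3 / 2, 5 / 3, by norm_num, by norm_num⟩

variable (F) in
/-- outer cut-off, one on `closedBall 0 (7/4)` -/
def nb : ContDiffBump (0 : F) := ⟨7 / 4, 15 / 8, by norm_num, by norm_num⟩

theorem isCut_zb : IsCut (zb F) where
  smooth := (zb F).contDiff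
  supp := by
    rw [(zb F).tsupport_eq]
    exact Metric.closedBall_subset_ball (by show (5 / 3 : ℝ) < 2; norm_num)

theorem isCut_nb : IsCut (nb F) where
  smooth := (nb F).contDiff
  supp := by
    rw [(nb F).tsupport_eq]
    exact Metric.closedBall_subset_ball (by show (15 / 8 : ℝ) < 2; norm_num)

theorem zb_one {x : F} (hx : ‖x‖ ≤ 3 / 2) : zb F x = 1 :=
  (zb F).one_of_mem_closedBall (mem_closedBall_zero_iff.2 hx)

theorem nb_one {x : F} (hx : ‖x‖ ≤ 7 / 4) : nb F x = 1 :=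
  (nb F).one_of_mem_closedBall (mem_closedBall_zero_iff.2 hx)

theorem zb_zero {x : F} (hx : 5 / 3 ≤ ‖x‖) : zb F x = 0 := by
  have h : x ∉ Function.support (zb F) := by
    rw [(zb F).support_eq, mem_ball_zero_iff]
    exact not_lt.2 hx
  simpa using h

theorem contDiffOn_inner (b : OrthonormalBasis κ ℝ V) {w : F → V}
    (hw : ContDiffOn ℝ ∞ w (Metric.ball 0 2)) (α : κ) :
    ContDiffOn ℝ ∞ (fun x => ⟪b α, w x⟫_ℝ) (Metric.ball 0 2) := contDiffOn_const.inner ℝ hw

/-- the cut-off map as an element of the Wiener algebra -/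
def wX (b : OrthonormalBasis κ ℝ V) (N : ℕ) {w : F → V}
    (hw : ContDiffOn ℝ ∞ w (Metric.ball 0 2)) : κ → X F N :=
  fun α => cutX N isCut_nb (contDiffOn_inner b hw α)

theorem star_wX (b : OrthonormalBasis κ ℝ V) (N : ℕ) {w : F → V}
    (hw : ContDiffOn ℝ ∞ w (Metric.ball 0 2)) (α : κ) : star (wX b N hw α) = wX b N hw α :=
  star_cutX N _ _

theorem syn_wX (b : OrthonormalBasis κ ℝ V) (N : ℕ) {w : F → V}
    (hw : ContDiffOn ℝ ∞ w (Metric.ball 0 2)) (x : F) : syn b (wX b N hw) x = nb F x • w x := by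
  refine onb_ext b fun α => ?_
  rw [inner_syn, inner_smul_right]
  unfold wX
  rw [ev_cutX, Complex.ofReal_re]

theorem syn_wX_eventuallyEq (b : OrthonormalBasis κ ℝ V) (N : ℕ) {w : F → V}
    (hw : ContDiffOn ℝ ∞ w (Metric.ball 0 2)) {x : F} (hx : ‖x‖ < 7 / 4) :
    syn b (wX b N hw) =ᶠ[𝓝 x] w := by
  filter_upwards [(isOpen_lt continuous_norm continuous_const).mem_nhds hx] with y hy
  rw [syn_wX, nb_one (le_of_lt hy), one_smul]

variable (F) in
/-- the inner cut-off as an element of the Wiener algebra -/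
def zX (N : ℕ) : X F N :=
  cutX N (isCut_zb (F := F)) (w := fun _ => (1 : ℝ)) contDiffOn_const

theorem ev_zX (N : ℕ) (x : F) : (ev (zX F N) x).re = zb F x := by
  unfold zX
  rw [ev_cutX, Complex.ofReal_re, mul_one]

theorem star_zX (N : ℕ) : star (zX F N) = zX F N := star_cutX N _ _

/-- **core theorem** -/
theorem core {c : F} (hc : ‖c‖ = 11 / 2) (b : OrthonormalBasis κ ℝ V) (N : ℕ) :
    ∃ ε : ℝ, 0 < ε ∧ ∀ (w : F → V) (hw : ContDiffOn ℝ ∞ w (Metric.ball 0 2)) (R : κ → X F N),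
      (∀ α, star (R α) = R α) → (∀ α x, (ev (R α) x).re = zb F x * ⟪b α, msop w x⟫_ℝ) →
      ‖wX b (N + 2) hw‖ ≤ ε → ‖R‖ ≤ ε →
      ∃ f : κ → X F N, (∀ α, star (f α) = f α) ∧ ‖f‖ ≤ 2 * ‖R‖ ∧
        (∀ x, ‖x‖ < 3 / 2 → msop (syn b (fun α => wX b (N + 2) hw α + G hc (f α))) x = 0) := by
  obtain ⟨ε, he0, hr, H⟩ := exists_X hc (Fin (Module.finrank ℝ F)) κ (stdOrthonormalBasis ℝ F) N
    (norm_nonneg (zX F N))
  refine ⟨ε, he0, fun w hw R hRs hR hwε hRε => ?_⟩
  set e := stdOrthonormalBasis ℝ F with he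
  set W := wX b (N + 2) hw with hW
  have hWs : ∀ α, star (W α) = W α := star_wX b (N + 2) hw
  obtain ⟨f, hfs, hfR, hU1, hf⟩ := H W (zX F N) R le_rfl (star_zX N) hWs hRs hwε hRε
  refine ⟨f, hfs, hfR, fun x hx => ?_⟩
  set U : κ → X F (N + 2) := fun α => W α + G hc (f α) with hU
  have hUs : ∀ α, star (U α) = U α := fun α => by
    show star (W α + G hc (f α)) = _
    rw [star_add, hWs, G_star, hfs]
  have hW1 : ‖W‖ ≤ 145 * ε := hwε.trans (by linarith)
  -- evaluation of the fixed point equation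
  have hfx : ∀ α y, (ev (f α) y).re = -(zb F y * ⟪b α, msop w y⟫_ℝ)
      - zb F y * ((ev (Bf e U α) y).re - (ev (Bf e W α) y).re) := fun α y => by
    conv_lhs => rw [hf α]
    rw [ev_sub, Complex.sub_re, ev_neg, Complex.neg_re, hR, re_ev_mul (star_zX N), ev_zX,
      ev_sub, Complex.sub_re]
  have hf0 : ∀ α y, 2 ≤ ‖y‖ → ev (f α) y = 0 := fun α y hy => by
    rw [← ev_real (hfs α) y, hfx, zb_zero (by linarith)]
    simp
  refine onb_ext b fun α => ?_
  rw [inner_zero_right, inner_msop_syn b hr hU1 hUs]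
  have h1 : ∀ i, (ev (Qd e U i i α) x).re = (ev (Qd e W i i α) x).re
      + (ev (D (e i) (D (e i) (G hc (f α)))) x).re := fun i => by
    have h2 : Qd e U i i α = Qd e W i i α + D (e i) (D (e i) (G hc (f α))) := by
      show D (e i) (D (e i) (W α + G hc (f α))) = _
      rw [map_add, map_add]
      rfl
    rw [h2, ev_add, Complex.add_re]
  have h3 : ∑ i, (ev (D (e i) (D (e i) (G hc (f α)))) x).re = (ev (f α) x).re := by
    rw [← lap_G hc e (f α) (hf0 α) (x := x) (by linarith), Complex.re_sum]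
  rw [Finset.sum_congr rfl fun i _ => h1 i, Finset.sum_add_distrib, h3, hfx,
    zb_one hx.le, one_mul, one_mul]
  have h4 : ⟪b α, msop w x⟫_ℝ = ∑ i, (ev (Qd e W i i α) x).re + (ev (Bf e W α) x).re := by
    rw [← inner_msop_syn b hr hW1 hWs]
    rw [msop_congr (syn_wX_eventuallyEq b (N + 2) hw (by linarith))]
  rw [h4]
  ring

end syn

end Crest.Agent.R234.Mx5_397
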