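import Crest.Agent.R234.Mx5_397

/-!
# Row 234, VF-MINEX part 6 (helper397): existence of minimal graphs near approximate ones

`exists_minimal_approx`, `exists_minimal_harmonic` (function level, any codimension).
-/

set_option autoImplicit false
set_option linter.unusedSectionVars false

open MeasureTheory Complex Filter Real
open scoped ContDiff Topology InnerProductSpace FourierTransform SchwartzMap

noncomputable section

namespace Crest.Agent.R234.Mx6_397

open Crest.Agent.R086.Wie Crest.Agent.R234.Mx1_397 Crest.Agent.R234.Mx2_397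
  Crest.Agent.R234.Mx3_397 Crest.Agent.R234.Mx4_397 Crest.Agent.R234.Mx5_397
  Crest.Agent.R234.Ell1_3

/-! ### injectivity of the synthesis -/

section inj

variable {F : Type*} [NormedAddCommGroup F] [InnerProductSpace ℝ F] [FiniteDimensional ℝ F]
  [MeasurableSpace F] [BorelSpace F]

theorem ev_inj0 {N : ℕ} {a : X F N} (h : ∀ x, ev a x = 0) : a = 0 := by
  have h1 : ∀ᵐ ξ, XG.den a ξ = 0 := by
    refine ae_eq_zero_of_integral_contDiff_smul_eq_zero
      (XG.integrable_den a).locallyIntegrable fun g hg hs => ?_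
    set φ : 𝓢(F, ℂ) := 𝓕 (toS g hs hg) with hφ
    have h2 : ∫ x, φ x * ev a x = 0 := by
      rw [← integral_zero F ℂ]
      exact integral_congr_ae (Eventually.of_forall fun x => by simp only [h, mul_zero])
    have h3 : ∀ x, φ x * ev a x = ∫ ξ, φ x * (chr x ξ * XG.den a ξ) := fun x => by
      rw [integral_const_mul, ← ev_eq]
    have hint : Integrable (Function.uncurry fun (x ξ : F) => φ x * (chr x ξ * XG.den a ξ))
        (volume.prod volume) := by
      have a1 : Integrable (fun z : F × F => φ z.1 * XG.den a z.2) (volume.prod volume) :=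
        φ.integrable.mul_prod (XG.integrable_den a)
      have a2 : Integrable (fun z : F × F => chr z.1 z.2 * (φ z.1 * XG.den a z.2))
          (volume.prod volume) := by
        refine a1.bdd_mul (c := 1) ?_ (Eventually.of_forall fun z => (norm_chr _ _).le)
        refine Continuous.aestronglyMeasurable ?_
        unfold chr
        exact continuous_subtype_val.comp (Real.continuous_fourierChar.comp
          (continuous_snd.inner continuous_fst))
      refine a2.congr (Eventually.of_forall fun z => ?_)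
      simp only [Function.uncurry]
      ring
    rw [integral_congr_ae (Eventually.of_forall h3), integral_integral_swap hint] at h2
    rw [← h2]
    refine integral_congr_ae (Eventually.of_forall fun ξ => ?_)
    simp only
    have h4 : 𝓕⁻ (φ : F → ℂ) ξ = (g ξ : ℂ) := by
      rw [← SchwartzMap.fourierInv_coe, hφ, FourierTransform.fourierInv_fourier_eq, toS_apply]
    have h5 : ∫ x, φ x * (chr x ξ * XG.den a ξ) = 𝓕⁻ (φ : F → ℂ) ξ * XG.den a ξ := by
      rw [Real.fourierInv_eq, ← integral_mul_const]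
      refine integral_congr_ae (Eventually.of_forall fun x => ?_)
      simp only
      rw [Circle.smul_def, smul_eq_mul]
      unfold chr
      rw [real_inner_comm]
      ring
    rw [h5, h4, Complex.real_smul]
  refine XG.ext ?_
  filter_upwards [h1, XG.den_zero (μ := (volume : Measure F)) (W := wtV F N)] with ξ a1 a2
  rw [a1, a2]

theorem ev_inj {N : ℕ} {a b : X F N} (h : ∀ x, ev a x = ev b x) : a = b := by
  refine sub_eq_zero.1 (ev_inj0 fun x => ?_)
  rw [ev_sub, h, sub_self]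

/-- real version -/
theorem ev_inj_re {N : ℕ} {a b : X F N} (ha : star a = a) (hb : star b = b)
    (h : ∀ x, (ev a x).re = (ev b x).re) : a = b :=
  ev_inj fun x => by rw [← ev_real ha x, ← ev_real hb x, h]

end inj

section main

variable {F V : Type} [NormedAddCommGroup F] [InnerProductSpace ℝ F] [FiniteDimensional ℝ F]
  [MeasurableSpace F] [BorelSpace F]
  [NormedAddCommGroup V] [InnerProductSpace ℝ V] [FiniteDimensional ℝ V]
variable {κ : Type*} [Fintype κ]

theorem norm_iteratedFDeriv_inner_le (b : OrthonormalBasis κ ℝ V) {w : F → V} {x : F}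
    (hw : ContDiffAt ℝ ∞ w x) (j : ℕ) (α : κ) :
    ‖iteratedFDeriv ℝ j (fun x => ⟪b α, w x⟫_ℝ) x‖ ≤ ‖iteratedFDeriv ℝ j w x‖ := by
  have h3 : (fun x => ⟪b α, w x⟫_ℝ) = (innerSL ℝ (b α)) ∘ w := rfl
  rw [h3]
  refine ((innerSL ℝ (b α)).norm_iteratedFDeriv_comp_left hw
    (by exact_mod_cast le_top)).trans ?_
  rw [innerSL_apply_norm, b.norm_eq_one, one_mul]

theorem norm_iteratedFDeriv_syn_le (b : OrthonormalBasis κ ℝ V) {N : ℕ} (u : κ → X F N) {j : ℕ}
    (hj : j ≤ N) (x : F) :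
    ‖iteratedFDeriv ℝ j (syn b u) x‖ ≤ Fintype.card κ * ((2 * π) ^ N * ‖u‖) := by
  have h0 : ∀ α, ContDiff ℝ N fun x => (ev (u α) x).re • b α := fun α =>
    (Complex.reCLM.contDiff.comp (contDiff_ev (u α))).smul contDiff_const
  have h1 : iteratedFDeriv ℝ j (syn b u) x
      = ∑ α, iteratedFDeriv ℝ j (fun x => (ev (u α) x).re • b α) x := by
    unfold syn
    exact iteratedFDeriv_fun_sum_apply fun α _ =>
      ((h0 α).of_le (by exact_mod_cast hj)).contDiffAt
  have hp : (1 : ℝ) ≤ 2 * π := by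
    have := Real.pi_gt_three
    linarith
  rw [h1]
  calc ‖∑ α, iteratedFDeriv ℝ j (fun x => (ev (u α) x).re • b α) x‖
      ≤ ∑ _α : κ, (2 * π) ^ N * ‖u‖ := by
        refine (norm_sum_le _ _).trans (Finset.sum_le_sum fun α _ => ?_)
        have h2 : (fun x => (ev (u α) x).re • b α)
            = (Complex.reCLM.smulRight (b α)) ∘ (fun x => ev (u α) x) := rfl
        rw [h2]
        refine ((Complex.reCLM.smulRight (b α)).norm_iteratedFDeriv_comp_left
          (contDiff_ev (u α)).contDiffAt (by exact_mod_cast hj)).trans ?_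
        have h3 : ‖Complex.reCLM.smulRight (b α)‖ ≤ 1 := by
          rw [ContinuousLinearMap.norm_smulRight_apply, b.norm_eq_one, mul_one,
            Complex.reCLM_norm]
        calc ‖Complex.reCLM.smulRight (b α)‖ * ‖iteratedFDeriv ℝ j (fun x => ev (u α) x) x‖
            ≤ 1 * ((2 * π) ^ j * ‖u α‖) := by
              refine mul_le_mul h3 (norm_iteratedFDeriv_ev_le (u α) hj x) (norm_nonneg _)
                zero_le_one
          _ ≤ (2 * π) ^ N * ‖u‖ := by
              rw [one_mul]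
              exact mul_le_mul (pow_le_pow_right₀ hp hj) (norm_le_pi_norm u α) (norm_nonneg _)
                (by positivity)
    _ = _ := by rw [Finset.sum_const, Finset.card_univ, nsmul_eq_mul]

theorem exists_wX_bound (b : OrthonormalBasis κ ℝ V) (N : ℕ) :
    ∃ (K : ℕ) (C : ℝ), 0 ≤ C ∧ ∀ (w : F → V) (hw : ContDiffOn ℝ ∞ w (Metric.ball 0 2)) (A : ℝ),
      0 ≤ A → (∀ j ≤ K, ∀ x ∈ Metric.ball (0 : F) 2, ‖iteratedFDeriv ℝ j w x‖ ≤ A) →
      ‖wX b N hw‖ ≤ C * A := by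
  obtain ⟨K, C, hC0, hC⟩ := exists_cutX_bound N (isCut_nb (F := F))
  refine ⟨K, C, hC0, fun w hw A hA h => (pi_norm_le_iff_of_nonneg (by positivity)).2 fun α => ?_⟩
  refine hC _ _ A hA fun j hj x hx => ?_
  exact (norm_iteratedFDeriv_inner_le b (hw.contDiffAt (Metric.isOpen_ball.mem_nhds hx)) j α).trans
    (h j hj x hx)

/-- the defect of the datum -/
def RX (b : OrthonormalBasis κ ℝ V) (N : ℕ) {w : F → V}
    (hw : ContDiffOn ℝ ∞ w (Metric.ball 0 2)) : κ → X F N :=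
  fun α => zX F N * (∑ i, Qd (stdOrthonormalBasis ℝ F) (wX b (N + 2) hw) i i α
    + Bf (stdOrthonormalBasis ℝ F) (wX b (N + 2) hw) α)

theorem star_RX {r : ℝ} (hr : Sm (Fin (Module.finrank ℝ F)) κ r)
    (b : OrthonormalBasis κ ℝ V) (N : ℕ) {w : F → V}
    (hw : ContDiffOn ℝ ∞ w (Metric.ball 0 2)) (hwr : ‖wX b (N + 2) hw‖ ≤ r) (α : κ) :
    star (RX b N hw α) = RX b N hw α := by
  unfold RX
  rw [star_mul, star_zX, star_add, star_sum,
    star_Bf hr (stdOrthonormalBasis ℝ F) hwr (star_wX b (N + 2) hw), mul_comm,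
    Finset.sum_congr rfl fun i _ => star_Qd (stdOrthonormalBasis ℝ F) (star_wX b (N + 2) hw) i i α]

theorem ev_RX {r : ℝ} (hr : Sm (Fin (Module.finrank ℝ F)) κ r)
    (b : OrthonormalBasis κ ℝ V) (N : ℕ) {w : F → V}
    (hw : ContDiffOn ℝ ∞ w (Metric.ball 0 2)) (hwr : ‖wX b (N + 2) hw‖ ≤ r) (α : κ) (x : F) :
    (ev (RX b N hw α) x).re = zb F x * ⟪b α, msop w x⟫_ℝ := by
  unfold RX
  rw [re_ev_mul (star_zX N), ev_zX, ev_add, Complex.add_re, re_ev_sum,
    ← inner_msop_syn b hr hwr (star_wX b (N + 2) hw)]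
  rcases lt_or_ge ‖x‖ (5 / 3) with hx | hx
  · rw [msop_congr (syn_wX_eventuallyEq b (N + 2) hw (by linarith))]
  · rw [zb_zero hx, zero_mul, zero_mul]

theorem contDiffOn_msop_inner (b : OrthonormalBasis κ ℝ V) {w : F → V}
    (hw : ContDiffOn ℝ ∞ w (Metric.ball 0 2)) (α : κ) :
    ContDiffOn ℝ ∞ (fun x => ⟪b α, msop w x⟫_ℝ) (Metric.ball 0 2) :=
  contDiffOn_const.inner ℝ (msop_contDiffOn Metric.isOpen_ball hw)

theorem RX_eq {r : ℝ} (hr : Sm (Fin (Module.finrank ℝ F)) κ r)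
    (b : OrthonormalBasis κ ℝ V) (N : ℕ) {w : F → V}
    (hw : ContDiffOn ℝ ∞ w (Metric.ball 0 2)) (hwr : ‖wX b (N + 2) hw‖ ≤ r) (α : κ) :
    RX b N hw α = cutX N (isCut_zb (F := F)) (contDiffOn_msop_inner b hw α) :=
  ev_inj_re (star_RX hr b N hw hwr α) (star_cutX N _ _) fun x => by
    rw [ev_RX hr b N hw hwr, ev_cutX, Complex.ofReal_re]

theorem exists_RX_bound (b : OrthonormalBasis κ ℝ V) (N : ℕ) :
    ∃ (K : ℕ) (C : ℝ), 0 ≤ C ∧ ∀ (w : F → V) (hw : ContDiffOn ℝ ∞ w (Metric.ball 0 2)) (r : ℝ),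
      Sm (Fin (Module.finrank ℝ F)) κ r → ‖wX b (N + 2) hw‖ ≤ r → ∀ A, 0 ≤ A →
      (∀ j ≤ K, ∀ x ∈ Metric.ball (0 : F) 2, ‖iteratedFDeriv ℝ j (msop w) x‖ ≤ A) →
      ‖RX b N hw‖ ≤ C * A := by
  obtain ⟨K, C, hC0, hC⟩ := exists_cutX_bound N (isCut_zb (F := F))
  refine ⟨K, C, hC0, fun w hw r hr hwr A hA h =>
    (pi_norm_le_iff_of_nonneg (by positivity)).2 fun α => ?_⟩
  rw [RX_eq hr b N hw hwr]
  refine hC _ _ A hA fun j hj x hx => ?_
  exact (norm_iteratedFDeriv_inner_le b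
    ((msop_contDiffOn Metric.isOpen_ball hw).contDiffAt (Metric.isOpen_ball.mem_nhds hx)) j α).trans
    (h j hj x hx)

theorem norm_RX_le (b : OrthonormalBasis κ ℝ V) (N : ℕ) {r : ℝ}
    (hr : Sm (Fin (Module.finrank ℝ F)) κ r) {w : F → V}
    (hw : ContDiffOn ℝ ∞ w (Metric.ball 0 2)) (hwr : ‖wX b (N + 2) hw‖ ≤ r) :
    ‖RX b N hw‖ ≤ ‖zX F N‖ * (Module.finrank ℝ F * ((2 * π) ^ 2 * ‖wX b (N + 2) hw‖)
      + cB (Fin (Module.finrank ℝ F)) κ * ‖wX b (N + 2) hw‖ ^ 3) := by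
  have hcB := cB_nonneg (ι := Fin (Module.finrank ℝ F)) (κ := κ)
  refine (pi_norm_le_iff_of_nonneg (by positivity)).2 fun α => ?_
  unfold RX
  refine (norm_mul_le _ _).trans (mul_le_mul_of_nonneg_left ?_ (norm_nonneg _))
  refine (norm_add_le _ _).trans (add_le_add ?_ ?_)
  · calc _ ≤ ∑ _i : Fin (Module.finrank ℝ F), (2 * π) ^ 2 * ‖wX b (N + 2) hw‖ :=
          (norm_sum_le _ _).trans (Finset.sum_le_sum fun i _ => norm_Qd_le _ _ i i α)
      _ = _ := by rw [Finset.sum_const, Finset.card_univ, Fintype.card_fin, nsmul_eq_mul]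
  · exact (norm_le_pi_norm _ α).trans (norm_Bf_le hr (stdOrthonormalBasis ℝ F) hwr)

/-- **existence, abstract form** -/
theorem exists_min {c : F} (hc : ‖c‖ = 11 / 2) (b : OrthonormalBasis κ ℝ V) (N : ℕ) :
    ∃ ε C : ℝ, 0 < ε ∧ 0 ≤ C ∧ Sm (Fin (Module.finrank ℝ F)) κ ε ∧
      ∀ (w : F → V) (hw : ContDiffOn ℝ ∞ w (Metric.ball 0 2)),
      ‖wX b (N + 2) hw‖ ≤ ε →
      ∃ u : F → V, ContDiff ℝ (N + 2 : ℕ) u ∧ (∀ x, ‖x‖ < 3 / 2 → msop u x = 0) ∧
        ∀ j ≤ N + 2, ∀ x, ‖x‖ < 7 / 4 →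
          ‖iteratedFDeriv ℝ j (fun y => u y - w y) x‖ ≤ C * ‖RX b N hw‖ := by
  obtain ⟨ε₀, he0, H⟩ := core hc b N
  obtain ⟨r, hr0, hr1, hr⟩ := exists_Sm (Fin (Module.finrank ℝ F)) κ
  have hcB := cB_nonneg (ι := Fin (Module.finrank ℝ F)) (κ := κ)
  have hcH := cH_nonneg (κ := κ)
  set A : ℝ := ‖zX F N‖ * (Module.finrank ℝ F * (2 * π) ^ 2 + cB (Fin (Module.finrank ℝ F)) κ)
    with hA
  have hA0 : 0 ≤ A := by positivity
  set ε : ℝ := min r (min ε₀ (ε₀ / (A + 1))) with hε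
  have hε0 : 0 < ε := by positivity
  have hεr : ε ≤ r := min_le_left _ _
  have hεe : ε ≤ ε₀ := (min_le_right _ _).trans (min_le_left _ _)
  have hεA : ε ≤ ε₀ / (A + 1) := (min_le_right _ _).trans (min_le_right _ _)
  have hSm : Sm (Fin (Module.finrank ℝ F)) κ ε := by
    refine le_trans ?_ hr
    gcongr
  refine ⟨ε, Fintype.card κ * ((2 * π) ^ (N + 2) * (72 * 2)), hε0, by positivity, hSm,
    fun w hw hwε => ?_⟩
  have hR1 := norm_RX_le b N hSm hw hwε
  have hR2 : ‖RX b N hw‖ ≤ ε₀ := by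
    refine hR1.trans ?_
    have h1 : ‖wX b (N + 2) hw‖ ^ 3 ≤ ‖wX b (N + 2) hw‖ :=
      pow_le_of_le_one (norm_nonneg _) (hwε.trans (hεr.trans hr1)) (by norm_num)
    calc _ ≤ ‖zX F N‖ * (Module.finrank ℝ F * ((2 * π) ^ 2 * ‖wX b (N + 2) hw‖)
          + cB (Fin (Module.finrank ℝ F)) κ * ‖wX b (N + 2) hw‖) := by gcongr
      _ = A * ‖wX b (N + 2) hw‖ := by rw [hA]; ring
      _ ≤ A * (ε₀ / (A + 1)) := by gcongr; exact hwε.trans hεA
      _ ≤ ε₀ := by
        rw [mul_div_assoc', div_le_iff₀ (by positivity)]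
        nlinarith
  obtain ⟨f, hfs, hfR, hf⟩ := H w hw (RX b N hw) (star_RX hSm b N hw hwε)
    (ev_RX hSm b N hw hwε) (hwε.trans hεe) hR2
  refine ⟨_, contDiff_syn b _, hf, fun j hj x hx => ?_⟩
  have h1 : (fun y => syn b (fun α => wX b (N + 2) hw α + G hc (f α)) y - w y)
      =ᶠ[𝓝 x] syn b (fun α => G hc (f α)) := by
    filter_upwards [(syn_wX_eventuallyEq b (N + 2) hw hx)] with y hy
    rw [syn_add, hy]
    abel
  rw [(Filter.EventuallyEq.iteratedFDeriv ℝ h1 j).eq_of_nhds]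
  refine (norm_iteratedFDeriv_syn_le b _ hj x).trans ?_
  have h2 : ‖fun α => G hc (f α)‖ ≤ 72 * 2 * ‖RX b N hw‖ := by
    refine (pi_norm_le_iff_of_nonneg (by positivity)).2 fun α => ?_
    refine (norm_G_le hc (f α)).trans ?_
    have h3 := (norm_le_pi_norm f α).trans hfR
    linarith
  calc Fintype.card κ * ((2 * π) ^ (N + 2) * ‖fun α => G hc (f α)‖)
      ≤ Fintype.card κ * ((2 * π) ^ (N + 2) * (72 * 2 * ‖RX b N hw‖)) := by gcongr
    _ = _ := by ring

end main

end Crest.Agent.R234.Mx6_397
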