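import Crest.Agent.R234.Mx6_397

/-!
# Row 234, VF-MINEX part 7 (helper397): function-level existence theorems

* `exists_minimal_approx`: `w` small smooth on `ball 0 2`, `msop w = O(δ)` ⟹ `u` minimal on
  `ball 0 (3/2)` with `u - w = O(δ)`;
* `exists_minimal_harmonic`: `w` harmonic, `O(A)` ⟹ `u - w = O(A³)`.
-/

set_option autoImplicit false
set_option linter.unusedSectionVars false

open MeasureTheory Complex Filter Real
open scoped ContDiff Topology InnerProductSpace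

noncomputable section

namespace Crest.Agent.R234.Mx7_397

open Crest.Agent.R086.Wie Crest.Agent.R234.Mx1_397 Crest.Agent.R234.Mx2_397
  Crest.Agent.R234.Mx3_397 Crest.Agent.R234.Mx4_397 Crest.Agent.R234.Mx5_397
  Crest.Agent.R234.Mx6_397 Crest.Agent.R234.Ell1_3

variable (F V : Type) [NormedAddCommGroup F] [InnerProductSpace ℝ F] [FiniteDimensional ℝ F]
  [NormedAddCommGroup V] [InnerProductSpace ℝ V] [FiniteDimensional ℝ V]

variable {F V} in
theorem msop_subsingleton [Subsingleton F] (u : F → V) (x : F) : msop u x = 0 := by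
  unfold msop
  have : Module.finrank ℝ F = 0 := Module.finrank_zero_of_subsingleton
  refine Finset.sum_eq_zero fun i _ => ?_
  exact absurd i.2 (by omega)

/-- **existence of a minimal graph near an approximate one** -/
theorem exists_minimal_approx (N : ℕ) : ∃ (K : ℕ) (ε C : ℝ), 0 < ε ∧ 0 ≤ C ∧
    ∀ w : F → V, ContDiffOn ℝ ∞ w (Metric.ball 0 2) →
      (∀ j ≤ K, ∀ x ∈ Metric.ball (0 : F) 2, ‖iteratedFDeriv ℝ j w x‖ ≤ ε) →
      ∀ δ, 0 ≤ δ →
      (∀ j ≤ K, ∀ x ∈ Metric.ball (0 : F) 2, ‖iteratedFDeriv ℝ j (msop w) x‖ ≤ δ) →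
      ∃ u : F → V, ContDiff ℝ (N + 2 : ℕ) u ∧ (∀ x, ‖x‖ < 3 / 2 → msop u x = 0) ∧
        ∀ j ≤ N + 2, ∀ x, ‖x‖ < 7 / 4 → ‖iteratedFDeriv ℝ j (fun y => u y - w y) x‖ ≤ C * δ := by
  rcases subsingleton_or_nontrivial F with hF | hF
  · refine ⟨0, 1, 0, one_pos, le_rfl, fun w hw _ δ _ _ => ⟨w, ?_, fun x _ =>
      msop_subsingleton w x, fun j _ x _ => ?_⟩⟩
    · have hw0 : w = fun _ => w 0 := funext fun y => by rw [Subsingleton.elim y 0]
      rw [hw0]
      exact contDiff_const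
    · simp only [sub_self]
      rw [iteratedFDeriv_fun_zero]
      simp
  let _ : MeasurableSpace F := borel F
  have _ : BorelSpace F := ⟨rfl⟩
  obtain ⟨c, hc⟩ := exists_norm_eq F (by norm_num : (0 : ℝ) ≤ 11 / 2)
  set b := stdOrthonormalBasis ℝ V with hb
  obtain ⟨ε, C, he0, hC0, hSm, H⟩ := exists_min hc b N
  obtain ⟨K1, C1, hC10, H1⟩ := exists_wX_bound (F := F) b (N + 2)
  obtain ⟨K2, C2, hC20, H2⟩ := exists_RX_bound (F := F) b N
  refine ⟨max K1 K2, ε / (C1 + 1), C * C2, by positivity, by positivity,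
    fun w hw hε δ hδ hM => ?_⟩
  have h1 : ‖wX b (N + 2) hw‖ ≤ ε := by
    refine (H1 w hw (ε / (C1 + 1)) (by positivity)
      fun j hj x hx => hε j (hj.trans (le_max_left _ _)) x hx).trans ?_
    rw [mul_div_assoc', div_le_iff₀ (by positivity)]
    nlinarith
  obtain ⟨u, hu1, hu2, hu3⟩ := H w hw h1
  refine ⟨u, hu1, hu2, fun j hj x hx => (hu3 j hj x hx).trans ?_⟩
  rw [mul_assoc]
  exact mul_le_mul_of_nonneg_left (H2 w hw ε hSm h1 δ hδ
    fun j hj x hx => hM j (hj.trans (le_max_right _ _)) x hx) hC0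

section harm

variable {F V}
variable [MeasurableSpace F] [BorelSpace F] {κ : Type*} [Fintype κ]

/-- the part `Σ ∂_i∂_i` of the datum on the inner cut-off vanishes for harmonic data -/
theorem RX_harm (b : OrthonormalBasis κ ℝ V) (N : ℕ) {w : F → V}
    (hw : ContDiffOn ℝ ∞ w (Metric.ball 0 2))
    (hh : ∀ x ∈ Metric.ball (0 : F) 2, ∑ i, fderiv ℝ (fderiv ℝ w) x
      (stdOrthonormalBasis ℝ F i) (stdOrthonormalBasis ℝ F i) = 0) (α : κ) :
    RX b N hw α = zX F N * Bf (stdOrthonormalBasis ℝ F) (wX b (N + 2) hw) α := by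
  unfold RX
  rw [mul_add]
  have h1 : zX F N * ∑ i, Qd (stdOrthonormalBasis ℝ F) (wX b (N + 2) hw) i i α = 0 := by
    refine ev_inj_re ?_ (star_zero _) fun x => ?_
    · rw [star_mul, star_sum, star_zX, mul_comm,
        Finset.sum_congr rfl fun i _ => star_Qd (stdOrthonormalBasis ℝ F)
          (star_wX b (N + 2) hw) i i α]
    · rw [re_ev_mul (star_zX N), ev_zX, re_ev_sum, ev_zero, Complex.zero_re]
      rcases lt_or_ge ‖x‖ (5 / 3) with hx | hx
      · have h2 : ∀ i, (ev (Qd (stdOrthonormalBasis ℝ F) (wX b (N + 2) hw) i i α) x).re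
            = ⟪b α, fderiv ℝ (fderiv ℝ w) x (stdOrthonormalBasis ℝ F i)
              (stdOrthonormalBasis ℝ F i)⟫_ℝ := fun i => by
          have h3 := syn_wX_eventuallyEq b (N + 2) hw (x := x) (by linarith)
          rw [← h3.fderiv.fderiv_eq, fderiv2_syn, inner_syn]
          rfl
        rw [Finset.sum_congr rfl fun i _ => h2 i, ← inner_sum,
          hh x (mem_ball_zero_iff.2 (by linarith)), inner_zero_right, mul_zero]
      · rw [zb_zero hx, zero_mul]
  rw [h1, zero_add]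

end harm

/-- **minimal graphs near small harmonic ones** -/
theorem exists_minimal_harmonic (N : ℕ) : ∃ (K : ℕ) (ε C : ℝ), 0 < ε ∧ 0 ≤ C ∧
    ∀ w : F → V, ContDiffOn ℝ ∞ w (Metric.ball 0 2) →
      (∀ x ∈ Metric.ball (0 : F) 2, ∑ i, fderiv ℝ (fderiv ℝ w) x
        (stdOrthonormalBasis ℝ F i) (stdOrthonormalBasis ℝ F i) = 0) →
      ∀ A, 0 ≤ A → A ≤ ε →
      (∀ j ≤ K, ∀ x ∈ Metric.ball (0 : F) 2, ‖iteratedFDeriv ℝ j w x‖ ≤ A) →
      ∃ u : F → V, ContDiff ℝ (N + 2 : ℕ) u ∧ (∀ x, ‖x‖ < 3 / 2 → msop u x = 0) ∧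
        ∀ j ≤ N + 2, ∀ x, ‖x‖ < 7 / 4 →
          ‖iteratedFDeriv ℝ j (fun y => u y - w y) x‖ ≤ C * A ^ 3 := by
  rcases subsingleton_or_nontrivial F with hF | hF
  · refine ⟨0, 1, 0, one_pos, le_rfl, fun w hw _ A _ _ _ => ⟨w, ?_, fun x _ =>
      msop_subsingleton w x, fun j _ x _ => ?_⟩⟩
    · have hw0 : w = fun _ => w 0 := funext fun y => by rw [Subsingleton.elim y 0]
      rw [hw0]
      exact contDiff_const
    · simp only [sub_self]
      rw [iteratedFDeriv_fun_zero]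
      simp
  let _ : MeasurableSpace F := borel F
  have _ : BorelSpace F := ⟨rfl⟩
  obtain ⟨c, hc⟩ := exists_norm_eq F (by norm_num : (0 : ℝ) ≤ 11 / 2)
  set b := stdOrthonormalBasis ℝ V with hb
  obtain ⟨ε, C, he0, hC0, hSm, H⟩ := exists_min hc b N
  obtain ⟨K1, C1, hC10, H1⟩ := exists_wX_bound (F := F) b (N + 2)
  have hcB := cB_nonneg (ι := Fin (Module.finrank ℝ F)) (κ := Fin (Module.finrank ℝ V))
  refine ⟨K1, ε / (C1 + 1),
    C * (‖zX F N‖ * (cB (Fin (Module.finrank ℝ F)) (Fin (Module.finrank ℝ V)) * C1 ^ 3)),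
    by positivity, by positivity, fun w hw hh A hA hAε hb' => ?_⟩
  have h0 := H1 w hw A hA hb'
  have h1 : ‖wX b (N + 2) hw‖ ≤ ε := by
    refine h0.trans ((mul_le_mul_of_nonneg_left hAε hC10).trans ?_)
    rw [mul_div_assoc', div_le_iff₀ (by positivity)]
    nlinarith
  obtain ⟨u, hu1, hu2, hu3⟩ := H w hw h1
  refine ⟨u, hu1, hu2, fun j hj x hx => (hu3 j hj x hx).trans ?_⟩
  rw [mul_assoc]
  refine mul_le_mul_of_nonneg_left ?_ hC0
  have h2 : ‖RX b N hw‖ ≤ ‖zX F N‖ * ‖Bf (stdOrthonormalBasis ℝ F) (wX b (N + 2) hw)‖ := by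
    refine (pi_norm_le_iff_of_nonneg (by positivity)).2 fun α => ?_
    rw [RX_harm b N hw hh]
    exact (norm_mul_le _ _).trans (mul_le_mul_of_nonneg_left (norm_le_pi_norm _ α) (norm_nonneg _))
  refine h2.trans ?_
  rw [mul_assoc]
  refine mul_le_mul_of_nonneg_left ?_ (norm_nonneg _)
  refine (norm_Bf_le hSm (stdOrthonormalBasis ℝ F) h1).trans ?_
  rw [mul_assoc, ← mul_pow]
  exact mul_le_mul_of_nonneg_left (pow_le_pow_left₀ (norm_nonneg _) h0 3) hcB

end Crest.Agent.R234.Mx7_397
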