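import Crest.Agent.R234.Mx6_397

/-!
# Row 234, VF-MINEX part 8 (helper397): defect form and Newton step in the Wiener algebra

* `exists_min_defect`: `w` small in `(X F (N+2))^κ`, `R` small, `ev R = M(ev w)` on `O` ⟹
  `w₁`, `‖w₁ - w‖ ≤ 144 ‖R‖`, `M(ev w₁) = 0` on `O`.
* `MX`, `LX`: the operator and its linearisation as elements of `X F N`,
  `norm_MX_taylor`: `‖MX (u+v) - MX u - LX u v‖ ≤ C ‖v‖²`.
* `newton`: one Newton step.
-/

set_option autoImplicit false
set_option linter.unusedSectionVars false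

open MeasureTheory Complex Filter Real
open scoped ContDiff Topology InnerProductSpace

noncomputable section

namespace Crest.Agent.R234.Mx8_397

open Crest.Agent.R086.Wie Crest.Agent.R234.Mx1_397 Crest.Agent.R234.Mx2_397
  Crest.Agent.R234.Mx3_397 Crest.Agent.R234.Mx4_397 Crest.Agent.R234.Mx5_397
  Crest.Agent.R234.Mx6_397 Crest.Agent.R234.Ell1_3

/-! ### more on the quasi-inverse -/

section qi

variable {A : Type*} [NonUnitalNormedCommRing A] {ι : Type*} [Fintype ι]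

theorem mm_assoc (a b c : ι → ι → A) : mm (mm a b) c = mm a (mm b c) := by
  funext i j
  simp only [mm, Finset.sum_mul, Finset.mul_sum]
  rw [Finset.sum_comm]
  exact Finset.sum_congr rfl fun l _ => Finset.sum_congr rfl fun k _ => mul_assoc _ _ _

theorem mm_add_left (a b c : ι → ι → A) : mm (a + b) c = mm a c + mm b c := by
  funext i j
  simp only [mm, Pi.add_apply, add_mul, Finset.sum_add_distrib]

theorem mm_add_right (a b c : ι → ι → A) : mm a (b + c) = mm a b + mm a c := by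
  funext i j
  simp only [mm, Pi.add_apply, mul_add, Finset.sum_add_distrib]

theorem mm_neg_left (a c : ι → ι → A) : mm (-a) c = -mm a c := by
  funext i j
  simp only [mm, Pi.neg_apply, neg_mul, Finset.sum_neg_distrib]

theorem mm_neg_right (a c : ι → ι → A) : mm a (-c) = -mm a c := by
  funext i j
  simp only [mm, Pi.neg_apply, mul_neg, Finset.sum_neg_distrib]

variable [CompleteSpace A]

/-- `K` is also a left quasi-inverse -/
theorem qi_left {h : ι → ι → A} (hh : Fintype.card ι * ‖h‖ ≤ 1 / 2) :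
    qi h = -h - mm (qi h) h := by
  set K := qi h with hK
  have h0 : K = -h - mm h K := qi_eq hh
  have h1 : mm h K = -h - K := by
    have h2 : K + (h + mm h K) = 0 := by
      nth_rewrite 1 [h0]; abel
    have h3 : mm h K = -h - K + (K + (h + mm h K)) := by abel
    rw [h2, add_zero] at h3
    exact h3
  set L := h + K + mm K h with hL
  have h2 : mm h L = -L := by
    rw [hL, mm_add_right, mm_add_right, ← mm_assoc, h1, mm_sub_left, mm_neg_left]
    abel
  have h3 := norm_mm_le h L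
  rw [h2, norm_neg] at h3
  have h4 : ‖L‖ = 0 := by nlinarith [norm_nonneg L]
  have h5 : L = 0 := norm_eq_zero.1 h4
  have h6 : K = -h - mm K h + L := by rw [hL]; abel
  rw [h5, add_zero] at h6
  exact h6

/-- symmetric matrices have symmetric quasi-inverse -/
theorem qi_symm {h : ι → ι → A} (hh : Fintype.card ι * ‖h‖ ≤ 1 / 2)
    (hs : ∀ i j, h i j = h j i) (i j : ι) : qi h i j = qi h j i := by
  set K := qi h with hK
  have h0 : K = -h - mm h K := qi_eq hh
  have h1 : K = -h - mm K h := qi_left hh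
  set E : ι → ι → A := (fun i j => K j i) - K with hE
  have h2 : E = -mm E h := by
    funext i j
    have a1 := congrFun (congrFun h0 j) i
    have a2 := congrFun (congrFun h1 i) j
    show K j i - K i j = -∑ l, (K l i - K i l) * h l j
    rw [a1, a2]
    show (-h j i - ∑ l, h j l * K l i) - (-h i j - ∑ l, K i l * h l j) = _
    rw [hs j i]
    have e1 : ∑ l, (K l i - K i l) * h l j = ∑ l, h j l * K l i - ∑ l, K i l * h l j := by
      rw [← Finset.sum_sub_distrib]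
      refine Finset.sum_congr rfl fun l _ => ?_
      rw [sub_mul, hs l j, mul_comm (h j l)]
    rw [e1]
    abel
  have h3 : ‖E‖ ≤ Fintype.card ι * ‖E‖ * ‖h‖ := by
    calc ‖E‖ = ‖mm E h‖ := by
          nth_rewrite 1 [h2]
          rw [norm_neg]
      _ ≤ _ := norm_mm_le E h
  have h4 : ‖E‖ = 0 := by nlinarith [norm_nonneg E]
  have h5 := congrFun (congrFun (norm_eq_zero.1 h4) i) j
  have h6 : K j i - K i j = 0 := h5
  exact (sub_eq_zero.1 h6).symm

/-- `(1+K) x` -/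
def opL (K x : ι → ι → A) : ι → ι → A := x + mm K x

/-- `x (1+K)` -/
def opR (K x : ι → ι → A) : ι → ι → A := x + mm x K

theorem norm_opL_le {K : ι → ι → A} (hK : Fintype.card ι * ‖K‖ ≤ 1) (x : ι → ι → A) :
    ‖opL K x‖ ≤ 2 * ‖x‖ := by
  unfold opL
  refine (norm_add_le _ _).trans ?_
  have := norm_mm_le K x
  nlinarith [norm_nonneg x]

theorem norm_opR_le {K : ι → ι → A} (hK : Fintype.card ι * ‖K‖ ≤ 1) (x : ι → ι → A) :
    ‖opR K x‖ ≤ 2 * ‖x‖ := by
  unfold opR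
  refine (norm_add_le _ _).trans ?_
  have := norm_mm_le x K
  nlinarith [norm_nonneg x]

theorem card_norm_qi_le {h : ι → ι → A} (hh : Fintype.card ι * ‖h‖ ≤ 1 / 2) :
    Fintype.card ι * ‖qi h‖ ≤ 1 := by
  have h1 := norm_qi_le hh
  have h2 : (0 : ℝ) ≤ Fintype.card ι := by positivity
  nlinarith

/-- the difference of two quasi-inverses -/
theorem qi_sub_eq {h h' : ι → ι → A} (hh : Fintype.card ι * ‖h‖ ≤ 1 / 2)
    (hh' : Fintype.card ι * ‖h'‖ ≤ 1 / 2) :
    qi h' - qi h = -opL (qi h) (opR (qi h') (h' - h)) := by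
  set K := qi h with hK
  set K' := qi h' with hK'
  have a1 : K' = -h' - mm h' K' := qi_eq hh'
  have a2 : K = -h - mm K h := qi_left hh
  have b1 : mm h' K' = -h' - K' := by
    have h3 : mm h' K' = -h' - K' + (K' + (h' + mm h' K')) := by abel
    have h2 : K' + (h' + mm h' K') = 0 := by
      nth_rewrite 1 [a1]; abel
    rw [h2, add_zero] at h3
    exact h3
  have b2 : mm K h = -h - K := by
    have h3 : mm K h = -h - K + (K + (h + mm K h)) := by abel
    have h2 : K + (h + mm K h) = 0 := by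
      nth_rewrite 1 [a2]; abel
    rw [h2, add_zero] at h3
    exact h3
  unfold opL opR
  rw [mm_add_right, ← mm_assoc, mm_sub_left, mm_sub_right, b1, b2, mm_sub_left, mm_sub_left,
    mm_assoc, b1, mm_neg_left, mm_sub_right, mm_neg_right]
  abel

/-- the derivative of the quasi-inverse -/
def Kp (h d : ι → ι → A) : ι → ι → A := -opL (qi h) (opR (qi h) d)

theorem qi_taylor {h h' d : ι → ι → A} (hh : Fintype.card ι * ‖h‖ ≤ 1 / 2)
    (hh' : Fintype.card ι * ‖h'‖ ≤ 1 / 2) :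
    ‖qi h' - qi h - Kp h d‖ ≤ 4 * ‖h' - h - d‖ + 8 * (Fintype.card ι * ‖d‖ * ‖h' - h‖) := by
  have e1 : qi h' - qi h - Kp h d
      = -opL (qi h) (opR (qi h') (h' - h - d) + mm d (qi h' - qi h)) := by
    conv_lhs => rw [qi_sub_eq hh hh']
    unfold Kp opL opR
    simp only [mm_sub_left, mm_sub_right, mm_add_right]
    abel
  rw [e1, norm_neg]
  refine (norm_opL_le (card_norm_qi_le hh) _).trans ?_
  have h1 := norm_opR_le (card_norm_qi_le hh') (h' - h - d)
  have h2 := norm_mm_le d (qi h' - qi h)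
  have h3 := norm_qi_sub_le hh' hh
  have h4 : (0 : ℝ) ≤ Fintype.card ι * ‖d‖ := by positivity
  have h5 := norm_add_le (opR (qi h') (h' - h - d)) (mm d (qi h' - qi h))
  have h6 : (Fintype.card ι : ℝ) * ‖d‖ * ‖qi h' - qi h‖ ≤ Fintype.card ι * ‖d‖ * (4 * ‖h' - h‖) :=
    mul_le_mul_of_nonneg_left h3 h4
  linarith

end qi

/-! ### the operator and its linearisation -/

section ops

variable {F : Type*} [NormedAddCommGroup F] [InnerProductSpace ℝ F] [FiniteDimensional ℝ F]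
  [MeasurableSpace F] [BorelSpace F]
variable {ι κ : Type*} [Fintype ι] [Fintype κ]

/-- the minimal surface operator as an element of the algebra -/
def MX {N : ℕ} (e : OrthonormalBasis ι ℝ F) (u : κ → X F (N + 2)) : κ → X F N :=
  fun α => ∑ i, Qd e u i i α + Bf e u α

/-- the derivative of the Gram matrix -/
def Hp {N : ℕ} (e : OrthonormalBasis ι ℝ F) (u v : κ → X F (N + 2)) : ι → ι → X F N :=
  fun i j => ∑ α, (Pd e v i α * Pd e u j α + Pd e u i α * Pd e v j α)

/-- the linearisation at `u` -/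
def LX {N : ℕ} (e : OrthonormalBasis ι ℝ F) (u v : κ → X F (N + 2)) : κ → X F N :=
  fun α => ∑ i, Qd e v i i α + ∑ i, ∑ j, (qi (Hm e u) i j * Qd e v i j α
    + Kp (Hm e u) (Hp e u v) i j * Qd e u i j α)

theorem Pd_add {N : ℕ} (e : OrthonormalBasis ι ℝ F) (u v : κ → X F (N + 2)) (i : ι) (α : κ) :
    Pd e (u + v) i α = Pd e u i α + Pd e v i α := by
  unfold Pd
  rw [Pi.add_apply, map_add, map_add]

theorem Qd_add {N : ℕ} (e : OrthonormalBasis ι ℝ F) (u v : κ → X F (N + 2)) (i j : ι) (α : κ) :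
    Qd e (u + v) i j α = Qd e u i j α + Qd e v i j α := by
  unfold Qd
  rw [Pi.add_apply, map_add, map_add]

theorem Hm_add_sub {N : ℕ} (e : OrthonormalBasis ι ℝ F) (u v : κ → X F (N + 2)) :
    Hm e (u + v) - Hm e u - Hp e u v = Hm e v := by
  funext i j
  show (∑ α, Pd e (u + v) i α * Pd e (u + v) j α) - (∑ α, Pd e u i α * Pd e u j α)
    - (∑ α, (Pd e v i α * Pd e u j α + Pd e u i α * Pd e v j α)) = ∑ α, Pd e v i α * Pd e v j α
  rw [← Finset.sum_sub_distrib, ← Finset.sum_sub_distrib]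
  refine Finset.sum_congr rfl fun α _ => ?_
  rw [Pd_add, Pd_add, add_mul, mul_add, mul_add]
  abel

theorem norm_Hp_le {N : ℕ} (e : OrthonormalBasis ι ℝ F) (u v : κ → X F (N + 2)) :
    ‖Hp e u v‖ ≤ 2 * cH κ * (‖u‖ * ‖v‖) := by
  have hp := Real.pi_pos
  have hc := cH_nonneg (κ := κ)
  refine (pi_norm_le_iff_of_nonneg (by positivity)).2 fun i =>
    (pi_norm_le_iff_of_nonneg (by positivity)).2 fun j => ?_
  unfold Hp
  calc ‖∑ α, (Pd e v i α * Pd e u j α + Pd e u i α * Pd e v j α)‖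
      ≤ ∑ _α : κ, 2 * (2 * π) ^ 2 * (‖u‖ * ‖v‖) := by
        refine (norm_sum_le _ _).trans (Finset.sum_le_sum fun α _ => ?_)
        have a1 := norm_Pd_le e v i α
        have a2 := norm_Pd_le e u j α
        have a3 := norm_Pd_le e u i α
        have a4 := norm_Pd_le e v j α
        calc _ ≤ ‖Pd e v i α‖ * ‖Pd e u j α‖ + ‖Pd e u i α‖ * ‖Pd e v j α‖ :=
              (norm_add_le _ _).trans (add_le_add (norm_mul_le _ _) (norm_mul_le _ _))
          _ ≤ (2 * π * ‖v‖) * (2 * π * ‖u‖) + (2 * π * ‖u‖) * (2 * π * ‖v‖) := by gcongr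
          _ = _ := by ring
    _ = _ := by
        rw [Finset.sum_const, Finset.card_univ, nsmul_eq_mul]
        unfold cH
        ring

/-- the constant of the Taylor remainder -/
def cT (ι κ : Type*) [Fintype ι] [Fintype κ] : ℝ :=
  (Fintype.card ι) ^ 2 * ((4 * cH κ + 32 * (Fintype.card ι * (cH κ) ^ 2) + 8 * cH κ) * (2 * π) ^ 2)

theorem cT_nonneg : 0 ≤ cT ι κ := by
  have hc := cH_nonneg (κ := κ)
  unfold cT; positivity

theorem norm_MX_taylor {r : ℝ} (hr : Sm ι κ r) (hr1 : r ≤ 1) {N : ℕ} (e : OrthonormalBasis ι ℝ F)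
    {u v : κ → X F (N + 2)} (hu : ‖u‖ ≤ r) (huv : ‖u + v‖ ≤ r) :
    ‖MX e (u + v) - MX e u - LX e u v‖ ≤ cT ι κ * ‖v‖ ^ 2 := by
  have hp := Real.pi_pos
  have hc := cH_nonneg (κ := κ)
  have hcT := cT_nonneg (ι := ι) (κ := κ)
  have hH := hr.card_le e hu
  have hH' := hr.card_le e huv
  have hu1 : ‖u‖ ≤ 1 := hu.trans hr1
  have huv1 : ‖u + v‖ ≤ 1 := huv.trans hr1
  have hd : ‖Hm e (u + v) - Hm e u‖ ≤ 2 * cH κ * ‖v‖ := by
    refine (norm_Hm_sub_le e (u + v) u).trans ?_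
    rw [add_sub_cancel_left]
    calc cH κ * ((‖u + v‖ + ‖u‖) * ‖v‖) ≤ cH κ * ((1 + 1) * ‖v‖) := by gcongr
      _ = _ := by ring
  have hK : ‖qi (Hm e (u + v)) - qi (Hm e u)‖ ≤ 8 * cH κ * ‖v‖ := by
    refine (norm_qi_sub_le hH' hH).trans ?_
    linarith
  have hHp : ‖Hp e u v‖ ≤ 2 * cH κ * ‖v‖ := by
    refine (norm_Hp_le e u v).trans ?_
    calc 2 * cH κ * (‖u‖ * ‖v‖) ≤ 2 * cH κ * (1 * ‖v‖) := by gcongr
      _ = _ := by ring
  have hT : ‖qi (Hm e (u + v)) - qi (Hm e u) - Kp (Hm e u) (Hp e u v)‖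
      ≤ (4 * cH κ + 32 * (Fintype.card ι * (cH κ) ^ 2)) * ‖v‖ ^ 2 := by
    refine (qi_taylor hH hH').trans ?_
    rw [Hm_add_sub]
    calc 4 * ‖Hm e v‖ + 8 * (Fintype.card ι * ‖Hp e u v‖ * ‖Hm e (u + v) - Hm e u‖)
        ≤ 4 * (cH κ * ‖v‖ ^ 2) + 8 * (Fintype.card ι * (2 * cH κ * ‖v‖) * (2 * cH κ * ‖v‖)) := by
          have := norm_Hm_le e v
          gcongr
      _ = _ := by ring
  refine (pi_norm_le_iff_of_nonneg (by positivity)).2 fun α => ?_
  have e1 : (MX e (u + v) - MX e u - LX e u v) α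
      = ∑ i, ∑ j, ((qi (Hm e (u + v)) - qi (Hm e u) - Kp (Hm e u) (Hp e u v)) i j * Qd e u i j α
        + (qi (Hm e (u + v)) - qi (Hm e u)) i j * Qd e v i j α) := by
    show (∑ i, Qd e (u + v) i i α + ∑ i, ∑ j, qi (Hm e (u + v)) i j * Qd e (u + v) i j α)
      - (∑ i, Qd e u i i α + ∑ i, ∑ j, qi (Hm e u) i j * Qd e u i j α)
      - (∑ i, Qd e v i i α + ∑ i, ∑ j, (qi (Hm e u) i j * Qd e v i j α
        + Kp (Hm e u) (Hp e u v) i j * Qd e u i j α)) = _
    have e2 : ∑ i, Qd e (u + v) i i α = ∑ i, Qd e u i i α + ∑ i, Qd e v i i α := by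
      rw [← Finset.sum_add_distrib]
      exact Finset.sum_congr rfl fun i _ => Qd_add e u v i i α
    have e3 : ∑ i, ∑ j, ((qi (Hm e (u + v)) - qi (Hm e u) - Kp (Hm e u) (Hp e u v)) i j
          * Qd e u i j α + (qi (Hm e (u + v)) - qi (Hm e u)) i j * Qd e v i j α)
        = ∑ i, ∑ j, qi (Hm e (u + v)) i j * Qd e (u + v) i j α
          - ∑ i, ∑ j, qi (Hm e u) i j * Qd e u i j α
          - ∑ i, ∑ j, (qi (Hm e u) i j * Qd e v i j α
            + Kp (Hm e u) (Hp e u v) i j * Qd e u i j α) := by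
      rw [← Finset.sum_sub_distrib, ← Finset.sum_sub_distrib]
      refine Finset.sum_congr rfl fun i _ => ?_
      rw [← Finset.sum_sub_distrib, ← Finset.sum_sub_distrib]
      refine Finset.sum_congr rfl fun j _ => ?_
      rw [Qd_add, mul_add]
      simp only [Pi.sub_apply, sub_mul]
      abel
    rw [e2, e3]
    abel
  rw [e1]
  calc _ ≤ ∑ i : ι, ∑ j : ι, (4 * cH κ + 32 * (Fintype.card ι * (cH κ) ^ 2) + 8 * cH κ)
        * (2 * π) ^ 2 * ‖v‖ ^ 2 := by
        refine (norm_sum_le _ _).trans (Finset.sum_le_sum fun i _ =>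
          (norm_sum_le _ _).trans (Finset.sum_le_sum fun j _ => ?_))
        have a1 := (norm_ent (qi (Hm e (u + v)) - qi (Hm e u) - Kp (Hm e u) (Hp e u v)) i j).trans hT
        have a2 := norm_Qd_le e u i j α
        have a3 := (norm_ent (qi (Hm e (u + v)) - qi (Hm e u)) i j).trans hK
        have a4 := norm_Qd_le e v i j α
        have a5 : (2 * π) ^ 2 * ‖u‖ ≤ (2 * π) ^ 2 * 1 := by gcongr
        calc _ ≤ _ := (norm_add_le _ _).trans (add_le_add (norm_mul_le _ _) (norm_mul_le _ _))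
          _ ≤ ((4 * cH κ + 32 * (Fintype.card ι * (cH κ) ^ 2)) * ‖v‖ ^ 2) * ((2 * π) ^ 2 * 1)
              + (8 * cH κ * ‖v‖) * ((2 * π) ^ 2 * ‖v‖) :=
              add_le_add (mul_le_mul a1 (a2.trans a5) (norm_nonneg _) (by positivity))
                (mul_le_mul a3 a4 (norm_nonneg _) (by positivity))
          _ = _ := by ring
    _ = _ := by
        simp only [Finset.sum_const, Finset.card_univ, nsmul_eq_mul]
        unfold cT
        ring

theorem star_MX {r : ℝ} (hr : Sm ι κ r) {N : ℕ} (e : OrthonormalBasis ι ℝ F)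
    {u : κ → X F (N + 2)} (hu1 : ‖u‖ ≤ r) (hu : ∀ α, star (u α) = u α) (α : κ) :
    star (MX e u α) = MX e u α := by
  unfold MX
  rw [star_add, star_sum, star_Bf hr e hu1 hu,
    Finset.sum_congr rfl fun i _ => star_Qd e hu i i α]

end ops

section main

variable {F V : Type} [NormedAddCommGroup F] [InnerProductSpace ℝ F] [FiniteDimensional ℝ F]
  [MeasurableSpace F] [BorelSpace F]
  [NormedAddCommGroup V] [InnerProductSpace ℝ V] [FiniteDimensional ℝ V]
variable {κ : Type*} [Fintype κ]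

theorem ev_MX (b : OrthonormalBasis κ ℝ V) {N : ℕ} {r : ℝ}
    (hr : Sm (Fin (Module.finrank ℝ F)) κ r) {u : κ → X F (N + 2)} (hu1 : ‖u‖ ≤ r)
    (hu : ∀ α, star (u α) = u α) (x : F) (α : κ) :
    (ev (MX (stdOrthonormalBasis ℝ F) u α) x).re = ⟪b α, msop (syn b u) x⟫_ℝ := by
  unfold MX
  rw [inner_msop_syn b hr hu1 hu, ev_add, Complex.add_re, re_ev_sum]

/-- **existence from a small defect, arbitrary elements of the algebra** -/
theorem exists_min_defect {c : F} (hc : ‖c‖ = 11 / 2) (b : OrthonormalBasis κ ℝ V) (N : ℕ) :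
    ∃ ε : ℝ, 0 < ε ∧ Sm (Fin (Module.finrank ℝ F)) κ (145 * ε) ∧
      ∀ (w : κ → X F (N + 2)) (R : κ → X F N) (O : Set F),
      (∀ α, star (w α) = w α) → (∀ α, star (R α) = R α) → ‖w‖ ≤ ε → ‖R‖ ≤ ε →
      (∀ α x, 2 ≤ ‖x‖ → ev (R α) x = 0) →
      (∀ x ∈ O, ‖x‖ ≤ 3 / 2) →
      (∀ α, ∀ x ∈ O, (ev (R α) x).re = ⟪b α, msop (syn b w) x⟫_ℝ) →
      ∃ w₁ : κ → X F (N + 2), (∀ α, star (w₁ α) = w₁ α) ∧ ‖w₁ - w‖ ≤ 144 * ‖R‖ ∧
        ‖w₁‖ ≤ 145 * ε ∧ ∀ x ∈ O, msop (syn b w₁) x = 0 := by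
  obtain ⟨ε, he0, hr, H⟩ := exists_X hc (Fin (Module.finrank ℝ F)) κ (stdOrthonormalBasis ℝ F) N
    (norm_nonneg (zX F N))
  refine ⟨ε, he0, hr, fun W R O hWs hRs hwε hRε hR2 hO hRO => ?_⟩
  set e := stdOrthonormalBasis ℝ F with he
  obtain ⟨f, hfs, hfR, hU1, hf⟩ := H W (zX F N) R le_rfl (star_zX N) hWs hRs hwε hRε
  set U : κ → X F (N + 2) := fun α => W α + G hc (f α) with hU
  have hUs : ∀ α, star (U α) = U α := fun α => by
    show star (W α + G hc (f α)) = _
    rw [star_add, hWs, G_star, hfs]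
  have hW1 : ‖W‖ ≤ 145 * ε := hwε.trans (by linarith)
  refine ⟨U, hUs, ?_, hU1, fun x hx => ?_⟩
  · refine (pi_norm_le_iff_of_nonneg (by positivity)).2 fun α => ?_
    have h1 : (U - W) α = G hc (f α) := by
      show W α + G hc (f α) - W α = _
      abel
    rw [h1]
    have h2 := norm_G_le hc (f α)
    have h3 := (norm_le_pi_norm f α).trans hfR
    linarith
  have hfx : ∀ α y, (ev (f α) y).re = -(ev (R α) y).re
      - zb F y * ((ev (Bf e U α) y).re - (ev (Bf e W α) y).re) := fun α y => by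
    conv_lhs => rw [hf α]
    rw [ev_sub, Complex.sub_re, ev_neg, Complex.neg_re, re_ev_mul (star_zX N), ev_zX,
      ev_sub, Complex.sub_re]
  have hf0 : ∀ α y, 2 ≤ ‖y‖ → ev (f α) y = 0 := fun α y hy => by
    rw [← ev_real (hfs α) y, hfx, zb_zero (by linarith), hR2 α y hy]
    simp
  have hx32 := hO x hx
  refine onb_ext b fun α => ?_
  rw [inner_zero_right, inner_msop_syn b hr hU1 hUs]
  have h1 : ∀ i, (ev (Qd e U i i α) x).re = (ev (Qd e W i i α) x).re
      + (ev (D (e i) (D (e i) (G hc (f α)))) x).re := fun i => by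
    have h2 : Qd e U i i α = Qd e W i i α + D (e i) (D (e i) (G hc (f α))) := by
      show D (e i) (D (e i) (W α + G hc (f α))) = _
      rw [map_add, map_add]
      rfl
    rw [h2, ev_add, Complex.add_re]
  have h3 : ∑ i, (ev (D (e i) (D (e i) (G hc (f α)))) x).re = (ev (f α) x).re := by
    rw [← lap_G hc e (f α) (hf0 α) (x := x) (by linarith), Complex.re_sum]
  rw [Finset.sum_congr rfl fun i _ => h1 i, Finset.sum_add_distrib, h3, hfx,
    zb_one hx32, one_mul, hRO α x hx, inner_msop_syn b hr hW1 hWs]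
  ring

/-- **one Newton step**: `u` minimal on the set where `χ ≠ 0`, `v` an approximate Jacobi field
there (`‖χ LX u v‖ ≤ δ`); `χ = 1` on `O`. -/
theorem newton {c : F} (hc : ‖c‖ = 11 / 2) (b : OrthonormalBasis κ ℝ V) (N : ℕ) :
    ∃ ε : ℝ, 0 < ε ∧ Sm (Fin (Module.finrank ℝ F)) κ (145 * ε) ∧
      ∀ (u v : κ → X F (N + 2)) (χ : X F N) (O : Set F) (δ : ℝ),
      (∀ α, star (u α) = u α) → (∀ α, star (v α) = v α) → star χ = χ → 0 ≤ δ →
      ‖u‖ ≤ ε → ‖u + v‖ ≤ ε →
      (∀ x, 2 ≤ ‖x‖ → (ev χ x).re = 0) →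
      (∀ x, (ev χ x).re ≠ 0 → msop (syn b u) x = 0) →
      (∀ x ∈ O, ‖x‖ ≤ 3 / 2 ∧ (ev χ x).re = 1) →
      (∀ α, ‖χ * LX (stdOrthonormalBasis ℝ F) u v α‖ ≤ δ) →
      δ + cT (Fin (Module.finrank ℝ F)) κ * ‖χ‖ * ‖v‖ ^ 2 ≤ ε →
      ∃ w₁ : κ → X F (N + 2), (∀ α, star (w₁ α) = w₁ α) ∧
        ‖w₁ - (u + v)‖ ≤ 144 * (δ + cT (Fin (Module.finrank ℝ F)) κ * ‖χ‖ * ‖v‖ ^ 2) ∧
        ‖w₁‖ ≤ 145 * ε ∧ ∀ x ∈ O, msop (syn b w₁) x = 0 := by
  obtain ⟨ε₀, he0, hr, H⟩ := exists_min_defect hc b N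
  have hcT := cT_nonneg (ι := Fin (Module.finrank ℝ F)) (κ := κ)
  have hcH := cH_nonneg (κ := κ)
  set ε : ℝ := min ε₀ 1 with hε
  have hε0 : 0 < ε := by positivity
  have h10 : ε ≤ ε₀ := min_le_left _ _
  have h11 : ε ≤ 1 := min_le_right _ _
  have hr' : Sm (Fin (Module.finrank ℝ F)) κ (145 * ε) := by
    refine le_trans ?_ hr
    gcongr
  have hrε : Sm (Fin (Module.finrank ℝ F)) κ ε := by
    refine le_trans ?_ hr
    have : ε ≤ 145 * ε₀ := by linarith
    gcongr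
  refine ⟨ε, hε0, hr', fun u v χ O δ hus hvs hχs hδ hu huv hχ2 hχu hO hL hsmall => ?_⟩
  set e := stdOrthonormalBasis ℝ F with he
  have huvs : ∀ α, star ((u + v) α) = (u + v) α := fun α => by
    rw [Pi.add_apply, star_add, hus, hvs]
  set R : κ → X F N := fun α => χ * MX e (u + v) α with hRdef
  have hRα : ∀ α, ‖R α‖ ≤ δ + cT (Fin (Module.finrank ℝ F)) κ * ‖χ‖ * ‖v‖ ^ 2 := fun α => by
    have h1 : χ * MX e u α = 0 := by
      refine ev_inj_re ?_ (star_zero _) fun x => ?_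
      · rw [star_mul, hχs, star_MX hrε e hu hus, mul_comm]
      · rw [re_ev_mul hχs, ev_MX b hrε hu hus, ev_zero, Complex.zero_re]
        by_cases h : (ev χ x).re = 0
        · rw [h, zero_mul]
        · rw [hχu x h, inner_zero_right, mul_zero]
    have h2 : R α = χ * (MX e (u + v) - MX e u - LX e u v) α + χ * LX e u v α := by
      show χ * MX e (u + v) α = _
      simp only [Pi.sub_apply, mul_sub, h1]
      abel
    rw [h2]
    have h3 := norm_MX_taylor hrε h11 e hu huv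
    have h4 : ‖χ * (MX e (u + v) - MX e u - LX e u v) α‖
        ≤ ‖χ‖ * (cT (Fin (Module.finrank ℝ F)) κ * ‖v‖ ^ 2) :=
      (norm_mul_le _ _).trans (mul_le_mul_of_nonneg_left
        ((norm_le_pi_norm _ α).trans h3) (norm_nonneg _))
    refine (norm_add_le _ _).trans ?_
    have h5 := hL α
    linarith
  have hRn : ‖R‖ ≤ δ + cT (Fin (Module.finrank ℝ F)) κ * ‖χ‖ * ‖v‖ ^ 2 :=
    (pi_norm_le_iff_of_nonneg (by positivity)).2 hRα
  have hRs : ∀ α, star (R α) = R α := fun α => by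
    show star (χ * MX e (u + v) α) = _
    rw [star_mul, hχs, star_MX hrε e huv huvs, mul_comm]
  have hRev : ∀ α x, (ev (R α) x).re = (ev χ x).re * (ev (MX e (u + v) α) x).re :=
    fun α x => re_ev_mul hχs _ x
  obtain ⟨w₁, h1, h2, h3, h4⟩ := H (u + v) R O huvs hRs
    (huv.trans h10) (hRn.trans (hsmall.trans h10))
    (fun α x hx => by
      rw [← ev_real (hRs α) x, hRev, hχ2 x hx, zero_mul, Complex.ofReal_zero])
    (fun x hx => (hO x hx).1)
    (fun α x hx => by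
      rw [hRev, (hO x hx).2, one_mul, ev_MX b hrε huv huvs])
  refine ⟨w₁, h1, h2.trans (mul_le_mul_of_nonneg_left hRn (by norm_num)), ?_, h4⟩
  have h5 : ‖w₁‖ ≤ ‖w₁ - (u + v)‖ + ‖u + v‖ := by
    have := norm_add_le (w₁ - (u + v)) (u + v)
    rwa [sub_add_cancel] at this
  have h6 : ‖w₁ - (u + v)‖ ≤ 144 * ε :=
    h2.trans (mul_le_mul_of_nonneg_left (hRn.trans hsmall) (by norm_num))
  linarith

end main

end Crest.Agent.R234.Mx8_397
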