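import Crest.Agent.R234.Dom2_309

/-!
Row 234, node N0 (helper309), file a: contact frame + bump, abstract form.
`b₁ = β + γ` (`β` = tall part inside `‖z‖ ≤ 1 - lam`), obstacle for `β - (b₂ + e)`.
-/

open MeasureTheory Filter Topology Set Metric
open scoped ENNReal NNReal

namespace Crest.Agent.R234.N0_309

open Crest.Agent.R234.Pot_425 Crest.Agent.R234.Dom_309

noncomputable section

set_option linter.unusedSectionVars false

variable {F : Type*} [NormedAddCommGroup F] [InnerProductSpace ℝ F] [FiniteDimensional ℝ F]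
  [MeasurableSpace F] [BorelSpace F]

variable {m : ℕ} {τ : ℝ}

/-- abstract N0 on the closed ball of radius `1 - τ`. -/
theorem contact_bump (hm : m = Module.finrank ℝ F) (hm0 : 0 < m) (hτ : 0 < τ) (hτ1 : τ ≤ 1)
    (β γ b₂ e : Measure (XB F τ)) [IsFiniteMeasure β] [IsFiniteMeasure γ] [IsFiniteMeasure b₂]
    [IsFiniteMeasure e] (hb : ∀ y ∈ β.support, ‖(y : F)‖ ≤ 1 - 2 * τ) :
    ∃ ε : Measure (XB F τ), IsFiniteMeasure ε ∧
      (∫ z : XB F τ, (1 - ‖(z : F)‖ ^ 2) ∂(β + γ) - ∫ z : XB F τ, (1 - ‖(z : F)‖ ^ 2) ∂b₂ ≤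
        ε.real univ + ∫ z : XB F τ, (1 - ‖(z : F)‖ ^ 2) ∂γ + e.real univ + τ ^ 2 * β.real univ) ∧
      (∀ x ∈ ε.support, ∃ y ∈ β.support, ‖(x : F) - (y : F)‖ ≤ τ) ∧
      (∀ x ∈ ε.support, ∀ (w : Wt) (s : ℝ), 0 ≤ s → ‖(x : F)‖ + s ≤ 1 →
        0 ≤ SS m τ w ε (x : F) s ∧
          SS m τ w ε (x : F) s ≤ SS m τ w β (x : F) s - SS m τ w (b₂ + e) (x : F) s) := by
  obtain ⟨ε, hε, hdom, hsupp, _, hSS⟩ := contact_loc hm hm0 hτ β (b₂ + e) hb
  refine ⟨ε, hε, ?_, hsupp, hSS⟩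
  have h := bump_dom hm hm0 hτ β (b₂ + e) ε hdom
  have hc : Continuous fun z : XB F τ => (1 - ‖(z : F)‖ ^ 2) := by fun_prop
  have i1 := integrable_cont β hc
  have i2 := integrable_cont γ hc
  have i3 := integrable_cont b₂ hc
  have i4 := integrable_cont e hc
  have i5 := integrable_cont ε hc
  rw [integral_add_measure i3 i4] at h
  rw [integral_add_measure i1 i2]
  have hle : ∀ (μ : Measure (XB F τ)) [IsFiniteMeasure μ],
      ∫ z : XB F τ, (1 - ‖(z : F)‖ ^ 2) ∂μ ≤ μ.real univ := by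
    intro μ _
    have h1 : ∫ z : XB F τ, (1 - ‖(z : F)‖ ^ 2) ∂μ ≤ ∫ _ : XB F τ, (1 : ℝ) ∂μ :=
      integral_mono (integrable_cont μ hc) (integrable_const _) fun z => by
        simp only
        nlinarith [norm_nonneg (z : F)]
    rw [integral_const, smul_eq_mul, mul_one] at h1
    exact h1
  have h1 := hle ε
  have h2 := hle e
  linarith

end

end Crest.Agent.R234.N0_309
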