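import Crest.Agent.R234.Avg6_387
import Crest.Agent.R234.Core0_809

/-!
# Row 234, VF-REP (helper387)

The anomaly of (the part of) an integral varifold as a difference of two measures on the closed ball
`‖z‖ ≤ 1 - τ`: `b₁ = π_#((1 - J - tl/2)₊ V) + (N - Q)₊ dx`, `b₂ = π_#((1 - J - tl/2)₋ V) + (Q - N)₊ dx`.
-/

set_option autoImplicit false

open MeasureTheory Set Function Filter Topology Metric
open Crest.GeometryTopology.Submanifold
open Crest.Agent.R234.Vf_884 Crest.Agent.R234.Ar_870 Crest.Agent.R234.Cy_870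
open Crest.Agent.R234.Pot_425 Crest.Agent.R234.Avg_387
open scoped ENNReal NNReal InnerProductSpace

noncomputable section

namespace Crest.Agent.R234.Rep_387

variable {m n k : ℕ} {τ : ℝ}

/-! ### measures with densities over the base -/

/-- `π_#(ρ₊ W) + ν₊ dx` -/
def mk (W : Measure (Euc k × L k)) (π : Euc k →L[ℝ] Euc m) (ρ : L k → ℝ) (ν : Euc m → ℝ) :
    Measure (Euc m) :=
  (W.withDensity fun p => ENNReal.ofReal (ρ p.2)).map (fun p => π p.1) +
    (volume : Measure (Euc m)).withDensity fun x => ENNReal.ofReal (ν x)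

variable {W : Measure (Euc k × L k)} {π : Euc k →L[ℝ] Euc m} {ρ : L k → ℝ} {ν : Euc m → ℝ}

theorem measurable_base (π : Euc k →L[ℝ] Euc m) : Measurable fun p : Euc k × L k => π p.1 :=
  π.continuous.measurable.comp measurable_fst

theorem finite_wd [IsFiniteMeasure W] {C : ℝ} (hC : ∀ᵐ p ∂W, ρ p.2 ≤ C) :
    IsFiniteMeasure (W.withDensity fun p => ENNReal.ofReal (ρ p.2)) := by
  refine isFiniteMeasure_withDensity ?_
  have h1 : ∫⁻ p, ENNReal.ofReal (ρ p.2) ∂W ≤ ∫⁻ _, ENNReal.ofReal C ∂W := by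
    refine lintegral_mono_ae ?_
    filter_upwards [hC] with p hp
    exact ENNReal.ofReal_le_ofReal hp
  refine (h1.trans_lt ?_).ne
  rw [lintegral_const]
  exact ENNReal.mul_lt_top ENNReal.ofReal_lt_top (measure_lt_top _ _)

theorem finite_vol {A : Set (Euc m)} (hA : MeasurableSet A) (hν : IntegrableOn ν A) :
    ((volume : Measure (Euc m)).withDensity fun x => ENNReal.ofReal (ν x)) A < ⊤ := by
  rw [withDensity_apply _ hA]
  exact hν.lintegral_lt_top

theorem mk_lt_top [IsFiniteMeasure W] {C : ℝ} (hC : ∀ᵐ p ∂W, ρ p.2 ≤ C) {A : Set (Euc m)}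
    (hA : MeasurableSet A) (hν : IntegrableOn ν A) : mk W π ρ ν A < ⊤ := by
  have := finite_wd hC
  unfold mk
  rw [Measure.add_apply]
  refine ENNReal.add_lt_top.2 ⟨?_, finite_vol hA hν⟩
  exact measure_lt_top _ _

/-- **integration against `mk`** -/
theorem setIntegral_mk [IsFiniteMeasure W] (hρ : Measurable ρ) {C : ℝ}
    (hC : ∀ᵐ p ∂W, ρ p.2 ≤ C) (hνm : Measurable ν) {A : Set (Euc m)}
    (hA : MeasurableSet A) (hν : IntegrableOn ν A) {φ : Euc m → ℝ} (hφ : Measurable φ) {K : ℝ}
    (hK : ∀ x, |φ x| ≤ K) :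
    ∫ z in A, φ z ∂(mk W π ρ ν) =
      (∫ p in {p : Euc k × L k | π p.1 ∈ A}, max (ρ p.2) 0 * φ (π p.1) ∂W) +
        ∫ x in A, max (ν x) 0 * φ x := by
  have hf1 := finite_wd hC
  have hf2 := finite_vol hA hν
  have hfin2 : IsFiniteMeasure
      (((volume : Measure (Euc m)).withDensity fun x => ENNReal.ofReal (ν x)).restrict A) :=
    ⟨by rw [Measure.restrict_apply_univ]; exact hf2⟩
  unfold mk
  rw [Measure.restrict_add, integral_add_measure]
  · congr 1
    · rw [setIntegral_map hA hφ.aestronglyMeasurable (measurable_base π).aemeasurable]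
      have hA' : MeasurableSet ((fun p : Euc k × L k => π p.1) ⁻¹' A) := measurable_base π hA
      have hρ' : Measurable fun p : Euc k × L k => ENNReal.ofReal (ρ p.2) :=
        (hρ.comp measurable_snd).ennreal_ofReal
      rw [setIntegral_withDensity_eq_setIntegral_toReal_smul hρ'
        (Eventually.of_forall fun p => ENNReal.ofReal_lt_top) _ hA']
      refine setIntegral_congr_fun hA' fun p _ => ?_
      simp only [ENNReal.toReal_ofReal', smul_eq_mul]
    · rw [setIntegral_withDensity_eq_setIntegral_toReal_smul hνm.ennreal_ofReal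
        (Eventually.of_forall fun p => ENNReal.ofReal_lt_top) _ hA]
      refine setIntegral_congr_fun hA fun p _ => ?_
      simp only [ENNReal.toReal_ofReal', smul_eq_mul]
  · exact Integrable.of_bound hφ.aestronglyMeasurable K
      (Eventually.of_forall fun x => hK x)
  · exact Integrable.of_bound hφ.aestronglyMeasurable K
      (Eventually.of_forall fun x => hK x)

/-- restriction to the closed ball, as a measure on the compact space `XB` -/
def toXB (τ : ℝ) (B : Measure (Euc m)) : Measure (XB (Euc m) τ) :=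
  B.comap (Subtype.val : XB (Euc m) τ → Euc m)

theorem integral_toXB (B : Measure (Euc m)) (φ : Euc m → ℝ) :
    ∫ z : XB (Euc m) τ, φ (z : Euc m) ∂(toXB τ B) = ∫ z in closedBall (0 : Euc m) (1 - τ), φ z ∂B :=
  integral_subtype_comap measurableSet_closedBall φ

theorem toXB_apply (B : Measure (Euc m)) (A : Set (Euc m)) :
    toXB τ B {z : XB (Euc m) τ | (z : Euc m) ∈ A} = B (A ∩ closedBall (0 : Euc m) (1 - τ)) := by
  unfold toXB
  rw [(MeasurableEmbedding.subtype_coe measurableSet_closedBall).comap_apply]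
  congr 1
  ext z
  constructor
  · rintro ⟨w, hw, rfl⟩
    exact ⟨hw, w.2⟩
  · rintro ⟨h1, h2⟩
    exact ⟨⟨z, h2⟩, h1, rfl⟩

theorem finite_toXB {B : Measure (Euc m)} (h : B (closedBall (0 : Euc m) (1 - τ)) < ⊤) :
    IsFiniteMeasure (toXB τ B) := by
  refine ⟨?_⟩
  have h1 := toXB_apply (τ := τ) B univ
  simp only [mem_univ, univ_inter] at h1
  have h2 : {z : XB (Euc m) τ | True} = univ := by ext; simp
  rw [h2] at h1
  rw [h1]
  exact h

/-! ### the two measures -/

variable {D : VarifoldData m k} {U : Set (Euc k)} {W₀ : Set (Euc k)} {Q : ℝ}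

/-- the planar part of the anomaly `1 - J - tl/2` -/
def an (π : Euc k →L[ℝ] Euc m) (P : L k) : ℝ := 1 - Jh π P - tl π P / 2

theorem continuous_an (π : Euc k →L[ℝ] Euc m) : Continuous (an π : L k → ℝ) := by
  unfold an
  exact (continuous_const.sub (continuous_Jh π)).sub ((measurable_tl π).div_const 2)

theorem an_le (hπ : IsCo π) {P : L k} (hP : P ∈ G m k) : an π P ≤ 1 := by
  have h1 := Jh_nonneg π P
  have h2 := tl_nonneg hπ (isPr_of_G hP)
  unfold an; linarith

theorem neg_an_le (hπ : IsCo π) {P : L k} (hP : P ∈ G m k) : -an π P ≤ m := by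
  have h1 := Jh_le_one hπ (isPr_of_G hP)
  have h2 := tl_le hπ (isPr_of_G hP)
  have h3 := tl_nonneg hπ (isPr_of_G hP)
  unfold an; linarith

/-- `π_#((1 - J - tl/2)₊ V) + (N - Q)₊ dx` on the base -/
def B1 (S : Sheets D π) (W₀ : Set (Euc k)) (Q : ℝ) : Measure (Euc m) :=
  mk ((VD D).restrict (W₀ ×ˢ univ)) π (an π) fun x => (S.N W₀ x).toReal - Q

/-- `π_#((1 - J - tl/2)₋ V) + (Q - N)₊ dx` on the base -/
def B2 (S : Sheets D π) (W₀ : Set (Euc k)) (Q : ℝ) : Measure (Euc m) :=
  mk ((VD D).restrict (W₀ ×ˢ univ)) π (fun P => -an π P) fun x => Q - (S.N W₀ x).toReal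

/-- `b₁` on the compact ball -/
def b1 (S : Sheets D π) (W₀ : Set (Euc k)) (Q τ : ℝ) : Measure (XB (Euc m) τ) :=
  toXB τ (B1 S W₀ Q)

/-- `b₂` on the compact ball -/
def b2 (S : Sheets D π) (W₀ : Set (Euc k)) (Q τ : ℝ) : Measure (XB (Euc m) τ) :=
  toXB τ (B2 S W₀ Q)

section

variable (S : Sheets D π) (hD : IsIntegralVarifoldIn U D) (hπ : IsCo π)
  (hW : MeasurableSet W₀) (hfin : VD D (W₀ ×ˢ univ) < ⊤)

include hfin in
theorem finite_W : IsFiniteMeasure ((VD D).restrict (W₀ ×ˢ univ)) :=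
  ⟨by rw [Measure.restrict_apply_univ]; exact hfin⟩

include hfin in
theorem fin_A (A : Set (Euc m)) : VD D ((W₀ ∩ π ⁻¹' A) ×ˢ univ) < ⊤ :=
  (measure_mono (prod_mono inter_subset_left subset_rfl)).trans_lt hfin

include hW in
theorem measurable_N' : Measurable fun x => (S.N W₀ x).toReal :=
  (S.measurable_N hW).ennreal_toReal

include hD hπ hW hfin in
theorem integrableOn_N' {A : Set (Euc m)} (hA : MeasurableSet A) :
    IntegrableOn (fun x => (S.N W₀ x).toReal) A :=
  S.integrableOn_N hD hπ hW hA (fin_A hfin A)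

include hD hπ hW hfin in
theorem iN1 {A : Set (Euc m)} (hA : MeasurableSet A) (hvA : volume A < ⊤) (Q : ℝ) :
    IntegrableOn (fun x => (S.N W₀ x).toReal - Q) A :=
  (integrableOn_N' S hD hπ hW hfin hA).sub (integrableOn_const hvA.ne)

include hD hπ hW hfin in
theorem iN2 {A : Set (Euc m)} (hA : MeasurableSet A) (hvA : volume A < ⊤) (Q : ℝ) :
    IntegrableOn (fun x => Q - (S.N W₀ x).toReal) A :=
  Integrable.sub (integrableOn_const hvA.ne) (integrableOn_N' S hD hπ hW hfin hA)

include hD hπ hW hfin in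
/-- **integration against `B₁`** -/
theorem setIntegral_B1 {A : Set (Euc m)} (hA : MeasurableSet A) (hvA : volume A < ⊤)
    {φ : Euc m → ℝ} (hφ : Measurable φ) {K : ℝ} (hK : ∀ x, |φ x| ≤ K) :
    ∫ z in A, φ z ∂(B1 S W₀ Q) =
      (∫ p in {p : Euc k × L k | π p.1 ∈ A}, max (an π p.2) 0 * φ (π p.1)
        ∂((VD D).restrict (W₀ ×ˢ univ))) +
        ∫ x in A, max ((S.N W₀ x).toReal - Q) 0 * φ x := by
  have := finite_W hfin
  refine setIntegral_mk (continuous_an π).measurable (C := 1) ?_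
    ((measurable_N' S hW).sub_const Q) hA (iN1 S hD hπ hW hfin hA hvA Q) hφ hK
  filter_upwards [ae_restrict_of_ae (VD_conc hD)] with p hp
  exact an_le hπ hp

include hD hπ hW hfin in
/-- **integration against `B₂`** -/
theorem setIntegral_B2 {A : Set (Euc m)} (hA : MeasurableSet A) (hvA : volume A < ⊤)
    {φ : Euc m → ℝ} (hφ : Measurable φ) {K : ℝ} (hK : ∀ x, |φ x| ≤ K) :
    ∫ z in A, φ z ∂(B2 S W₀ Q) =
      (∫ p in {p : Euc k × L k | π p.1 ∈ A}, max (-an π p.2) 0 * φ (π p.1)
        ∂((VD D).restrict (W₀ ×ˢ univ))) +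
        ∫ x in A, max (Q - (S.N W₀ x).toReal) 0 * φ x := by
  have := finite_W hfin
  refine setIntegral_mk (continuous_an π).neg.measurable (C := m) ?_
    (measurable_const.sub (measurable_N' S hW)) hA (iN2 S hD hπ hW hfin hA hvA Q) hφ hK
  filter_upwards [ae_restrict_of_ae (VD_conc hD)] with p hp
  exact neg_an_le hπ hp

include hD hπ hW hfin in
theorem B1_lt_top {A : Set (Euc m)} (hA : MeasurableSet A) (hvA : volume A < ⊤) :
    B1 S W₀ Q A < ⊤ := by
  have := finite_W hfin
  refine mk_lt_top (C := 1) ?_ hA (iN1 S hD hπ hW hfin hA hvA Q)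
  filter_upwards [ae_restrict_of_ae (VD_conc hD)] with p hp
  exact an_le hπ hp

include hD hπ hW hfin in
theorem B2_lt_top {A : Set (Euc m)} (hA : MeasurableSet A) (hvA : volume A < ⊤) :
    B2 S W₀ Q A < ⊤ := by
  have := finite_W hfin
  refine mk_lt_top (C := m) ?_ hA (iN2 S hD hπ hW hfin hA hvA Q)
  filter_upwards [ae_restrict_of_ae (VD_conc hD)] with p hp
  exact neg_an_le hπ hp

include hD hπ hW hfin in
theorem finite_b1 : IsFiniteMeasure (b1 S W₀ Q τ) :=
  finite_toXB (B1_lt_top S hD hπ hW hfin measurableSet_closedBall measure_closedBall_lt_top)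

include hD hπ hW hfin in
theorem finite_b2 : IsFiniteMeasure (b2 S W₀ Q τ) :=
  finite_toXB (B2_lt_top S hD hπ hW hfin measurableSet_closedBall measure_closedBall_lt_top)

include hD hπ hW hfin in
/-- **the signed identity**: for bounded `φ` vanishing off `A` (finite volume)
`∫_A φ dB₁ - ∫_A φ dB₂ = ∫ φ(π p) (1 - tl/2) dV - Q ∫ φ dx` -/
theorem B1_sub_B2 {A : Set (Euc m)} (hA : MeasurableSet A) (hvA : volume A < ⊤)
    {φ : Euc m → ℝ} (hφ : Measurable φ) {K : ℝ} (hK : ∀ x, |φ x| ≤ K) (h0 : ∀ x, x ∉ A → φ x = 0) :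
    ∫ z in A, φ z ∂(B1 S W₀ Q) - ∫ z in A, φ z ∂(B2 S W₀ Q) =
      ∫ p, φ (π p.1) * (1 - tl π p.2 / 2) ∂((VD D).restrict (W₀ ×ˢ univ)) - Q * ∫ z, φ z := by
  have hfW := finite_W hfin
  set W := (VD D).restrict (W₀ ×ˢ univ) with hWdef
  have hconc : ∀ᵐ p ∂W, p.2 ∈ G m k := ae_restrict_of_ae (VD_conc hD)
  rw [setIntegral_B1 S hD hπ hW hfin hA hvA hφ hK, setIntegral_B2 S hD hπ hW hfin hA hvA hφ hK]
  have hφm : Measurable fun p : Euc k × L k => φ (π p.1) := hφ.comp (measurable_base π)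
  -- integrability over W
  have iW : ∀ {f : L k → ℝ}, Continuous f → ∀ {C : ℝ}, (∀ P ∈ G m k, |f P| ≤ C) →
      Integrable (fun p : Euc k × L k => f p.2 * φ (π p.1)) W := by
    intro f hf C hC
    refine Integrable.of_bound ((hf.measurable.comp measurable_snd).mul hφm).aestronglyMeasurable
      (C * K) ?_
    filter_upwards [hconc] with p hp
    rw [Real.norm_eq_abs, abs_mul]
    exact mul_le_mul (hC _ hp) (hK _) (abs_nonneg _) ((abs_nonneg _).trans (hC _ hp))
  have hanC : ∀ P ∈ G m k, |an π P| ≤ 1 + m := by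
    intro P hP
    have h1 := an_le hπ hP
    have h2 := neg_an_le hπ hP
    have h3 : (0:ℝ) ≤ m := Nat.cast_nonneg m
    rw [abs_le]; constructor <;> linarith
  have hmaxC : ∀ P ∈ G m k, |max (an π P) 0| ≤ 1 + m := by
    intro P hP
    rw [abs_of_nonneg (le_max_right _ _)]
    have h3 : (0:ℝ) ≤ m := Nat.cast_nonneg m
    exact max_le ((le_abs_self _).trans (hanC P hP)) (by linarith)
  have hmaxC' : ∀ P ∈ G m k, |max (-an π P) 0| ≤ 1 + m := by
    intro P hP
    rw [abs_of_nonneg (le_max_right _ _)]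
    have h3 : (0:ℝ) ≤ m := Nat.cast_nonneg m
    exact max_le ((neg_le_abs _).trans (hanC P hP)) (by linarith)
  have hJC : ∀ P ∈ G m k, |Jh π P| ≤ 1 := by
    intro P hP
    rw [abs_of_nonneg (Jh_nonneg _ _)]
    exact Jh_le_one hπ (isPr_of_G hP)
  have htC : ∀ P ∈ G m k, |1 - tl π P / 2| ≤ 1 + m := by
    intro P hP
    have h1 := tl_nonneg hπ (isPr_of_G hP)
    have h2 := tl_le hπ (isPr_of_G hP)
    have h3 : (0:ℝ) ≤ m := Nat.cast_nonneg m
    rw [abs_le]; constructor <;> linarith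
  have i1 := iW (f := fun P => max (an π P) 0) ((continuous_an π).max continuous_const) hmaxC
  have i2 := iW (f := fun P => max (-an π P) 0) ((continuous_an π).neg.max continuous_const) hmaxC'
  have i3 := iW (continuous_Jh π) hJC
  have i4 := iW (f := fun P => 1 - tl π P / 2)
    (continuous_const.sub ((measurable_tl π).div_const 2)) htC
  -- drop the set
  have e1 : ∀ f : L k → ℝ, ∫ p in {p : Euc k × L k | π p.1 ∈ A}, f p.2 * φ (π p.1) ∂W =
      ∫ p, f p.2 * φ (π p.1) ∂W := fun f =>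
    setIntegral_eq_integral_of_forall_compl_eq_zero fun p hp => by
      rw [h0 _ (by simpa using hp), mul_zero]
  have e2 : ∀ f : Euc m → ℝ, ∫ x in A, f x * φ x = ∫ x, f x * φ x := fun f =>
    setIntegral_eq_integral_of_forall_compl_eq_zero fun x hx => by rw [h0 _ hx, mul_zero]
  rw [e1 fun P => max (an π P) 0, e1 fun P => max (-an π P) 0,
    e2 fun x => max ((S.N W₀ x).toReal - Q) 0, e2 fun x => max (Q - (S.N W₀ x).toReal) 0]
  -- integrability over the base
  have jA : ∀ {f : Euc m → ℝ}, IntegrableOn f A → Integrable fun x => f x * φ x := by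
    intro f hf
    have h1 : IntegrableOn (fun x => f x * φ x) A :=
      hf.mul_bdd hφ.aestronglyMeasurable (Eventually.of_forall fun x => hK x)
    refine (integrableOn_iff_integrable_of_support_subset ?_).1 h1
    intro x hx
    by_contra hxA
    exact hx (by simp only [h0 x hxA, mul_zero])
  have jN := jA (integrableOn_N' S hD hπ hW hfin hA)
  have jN1 := jA (iN1 S hD hπ hW hfin hA hvA Q)
  have jc : Integrable fun x : Euc m => Q * φ x := jA (f := fun _ => Q) (integrableOn_const hvA.ne)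
  have j1 : Integrable fun x => max ((S.N W₀ x).toReal - Q) 0 * φ x :=
    jA ((iN1 S hD hπ hW hfin hA hvA Q).pos_part)
  have j2 : Integrable fun x => max (Q - (S.N W₀ x).toReal) 0 * φ x :=
    jA ((iN2 S hD hπ hW hfin hA hvA Q).pos_part)
  have e3 : ∫ p, max (an π p.2) 0 * φ (π p.1) ∂W - ∫ p, max (-an π p.2) 0 * φ (π p.1) ∂W =
      ∫ p, (1 - tl π p.2 / 2) * φ (π p.1) ∂W - ∫ p, Jh π p.2 * φ (π p.1) ∂W := by
    rw [← integral_sub i1 i2, ← integral_sub i4 i3]
    refine integral_congr_ae (Eventually.of_forall fun p => ?_)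
    simp only
    have h5 : max (an π p.2) 0 - max (-an π p.2) 0 = an π p.2 := by
      rcases le_total (an π p.2) 0 with h | h
      · rw [max_eq_right h, max_eq_left (by linarith)]; ring
      · rw [max_eq_left h, max_eq_right (by linarith)]; ring
    rw [← sub_mul, ← sub_mul, h5]
    unfold an; ring
  have e4 : (∫ x, max ((S.N W₀ x).toReal - Q) 0 * φ x) -
      (∫ x, max (Q - (S.N W₀ x).toReal) 0 * φ x) =
      (∫ x, (S.N W₀ x).toReal * φ x) - Q * ∫ x, φ x := by
    rw [← integral_sub j1 j2, ← integral_const_mul, ← integral_sub jN jc]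
    refine integral_congr_ae (Eventually.of_forall fun x => ?_)
    simp only
    rcases le_total ((S.N W₀ x).toReal - Q) 0 with h | h
    · rw [max_eq_right h, max_eq_left (by linarith)]; ring
    · rw [max_eq_left h, max_eq_right (by linarith)]; ring
  have e5 := S.area_real hD hπ hW hA (fin_A hfin A) hφ hK h0
  have e6 : ∫ p, φ (π p.1) * (1 - tl π p.2 / 2) ∂W = ∫ p, (1 - tl π p.2 / 2) * φ (π p.1) ∂W :=
    integral_congr_ae (Eventually.of_forall fun p => mul_comm _ _)
  rw [e6]
  have e7 : ∫ p, Jh π p.2 * φ (π p.1) ∂W = ∫ x, (S.N W₀ x).toReal * φ x := e5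
  linarith

include hD hπ hW hfin in
/-- **`Rep` for `b₁`, `b₂`** -/
theorem rep :
    Rep (b1 S W₀ Q τ) (b2 S W₀ Q τ) ((VD D).restrict (W₀ ×ˢ univ)) π Q where
  rep φ hφ h0 := by
    obtain ⟨K, hK⟩ := (isCompact_closedBall (0 : Euc m) (1 - τ)).exists_bound_of_continuousOn
      hφ.continuousOn
    have hz : ∀ x, x ∉ closedBall (0 : Euc m) (1 - τ) → φ x = 0 := by
      intro x hx
      refine h0 x ?_
      have : 1 - τ < ‖x‖ := by simpa using hx
      exact this.le
    have hK' : ∀ x, |φ x| ≤ max K 0 := by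
      intro x
      by_cases hx : x ∈ closedBall (0 : Euc m) (1 - τ)
      · exact (hK x hx).trans (le_max_left _ _)
      · rw [hz x hx, abs_zero]; exact le_max_right _ _
    unfold b1 b2
    rw [integral_toXB, integral_toXB]
    exact B1_sub_B2 S hD hπ hW hfin measurableSet_closedBall measure_closedBall_lt_top
      hφ.measurable hK' hz

/-- the part of `b₁` over a set `T` of the base -/
def beta (S : Sheets D π) (W₀ : Set (Euc k)) (Q τ : ℝ) (T : Set (Euc m)) :
    Measure (XB (Euc m) τ) :=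
  (b1 S W₀ Q τ).restrict {z | (z : Euc m) ∈ T}

theorem beta_add_gamma {T : Set (Euc m)} (hT : MeasurableSet T) :
    beta S W₀ Q τ T + beta S W₀ Q τ Tᶜ = b1 S W₀ Q τ := by
  unfold beta
  have h1 : MeasurableSet {z : XB (Euc m) τ | (z : Euc m) ∈ T} := measurable_subtype_coe hT
  exact Measure.restrict_add_restrict_compl h1

include hD hπ hW hfin in
/-- **integration against `β`** (any `T`; `T = univ` gives `b₁`) -/
theorem integral_beta {T : Set (Euc m)} (hT : MeasurableSet T) {φ : Euc m → ℝ} (hφ : Measurable φ)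
    {K : ℝ} (hK : ∀ x, |φ x| ≤ K) :
    ∫ z, φ (z : Euc m) ∂(beta S W₀ Q τ T) =
      (∫ p in {p : Euc k × L k | π p.1 ∈ T ∩ closedBall (0 : Euc m) (1 - τ)},
        max (an π p.2) 0 * φ (π p.1) ∂((VD D).restrict (W₀ ×ˢ univ))) +
        ∫ x in T ∩ closedBall (0 : Euc m) (1 - τ), max ((S.N W₀ x).toReal - Q) 0 * φ x := by
  have h1 : MeasurableSet {z : XB (Euc m) τ | (z : Euc m) ∈ T} := measurable_subtype_coe hT
  have e1 : ∫ z, φ (z : Euc m) ∂(beta S W₀ Q τ T) =
      ∫ z : XB (Euc m) τ, T.indicator φ (z : Euc m) ∂(b1 S W₀ Q τ) := by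
    unfold beta
    rw [← integral_indicator h1]
    refine integral_congr_ae (Eventually.of_forall fun z => ?_)
    by_cases hz : (z : Euc m) ∈ T
    · rw [indicator_of_mem (by exact hz)]
      exact (indicator_of_mem hz _).symm
    · rw [indicator_of_notMem (by exact hz)]
      exact (indicator_of_notMem hz _).symm
  rw [e1]
  unfold b1
  rw [integral_toXB, setIntegral_indicator hT, inter_comm]
  exact setIntegral_B1 S hD hπ hW hfin (hT.inter measurableSet_closedBall)
    ((measure_mono inter_subset_right).trans_lt measure_closedBall_lt_top) hφ hK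

include hD hπ hW hfin in
theorem finite_beta (T : Set (Euc m)) : IsFiniteMeasure (beta S W₀ Q τ T) := by
  have := finite_b1 (Q := Q) (τ := τ) S hD hπ hW hfin
  unfold beta
  infer_instance

/-- `β` is carried by `T` -/
theorem beta_compl {T : Set (Euc m)} (hT : MeasurableSet T) :
    beta S W₀ Q τ T {z | (z : Euc m) ∉ T} = 0 := by
  unfold beta
  have h1 : MeasurableSet {z : XB (Euc m) τ | (z : Euc m) ∈ T} := measurable_subtype_coe hT
  have h2 : MeasurableSet {z : XB (Euc m) τ | (z : Euc m) ∉ T} := h1.compl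
  rw [Measure.restrict_apply h2]
  have : {z : XB (Euc m) τ | (z : Euc m) ∉ T} ∩ {z : XB (Euc m) τ | (z : Euc m) ∈ T} = ∅ := by
    ext z; simp
  rw [this, measure_empty]

/-- the support of `β` lies in the closure of `T` -/
theorem beta_support {T : Set (Euc m)} (hT : MeasurableSet T) {z : XB (Euc m) τ}
    (hz : z ∈ (beta S W₀ Q τ T).support) : (z : Euc m) ∈ closure T := by
  by_contra hcon
  have hopen : IsOpen {z : XB (Euc m) τ | (z : Euc m) ∉ closure T} :=
    (isClosed_closure.preimage continuous_subtype_val).isOpen_compl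
  have h1 : {z : XB (Euc m) τ | (z : Euc m) ∉ closure T} ∈ 𝓝 z := hopen.mem_nhds hcon
  rw [Measure.mem_support_iff_forall] at hz
  have h2 := hz _ h1
  have h3 : beta S W₀ Q τ T {z | (z : Euc m) ∉ closure T} ≤
      beta S W₀ Q τ T {z | (z : Euc m) ∉ T} :=
    measure_mono fun w hw hwT => hw (subset_closure hwT)
  rw [beta_compl S hT] at h3
  exact absurd h2 (not_lt.2 h3)

end

/-! ### the class of the core -/

open Crest.Agent.R234.Core_809 in
theorem rep_part {κ : Euc k →L[ℝ] Euc n} {Dd : VarifoldData m k} (S : Sheets Dd π)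
    (hD : IsIntegralVarifoldIn U Dd) (hs : Split π κ) (hU : Cy_870.cyl π κ 0 4 1 ⊆ U)
    (τ Q : ℝ) :
    Rep (b1 S (Cy_870.cyl π κ 0 4 1) Q τ) (b2 S (Cy_870.cyl π κ 0 4 1) Q τ) (part π κ Dd) π Q :=
  rep S hD hs.hh (isClosed_cyl π κ 0 4 1).measurableSet
    (VD_fin hD (isCompact_cyl hs 0 4 1) hU)

end Crest.Agent.R234.Rep_387
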