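import Crest.Agent.R234.N0a_309
import Crest.Agent.R234.Rep1_387

/-!
Row 234, node N0 (helper309), file b: from measures on the base to the contact problem on the closed
ball of radius `1 - τ`.  `B₁, B₂` = positive and negative part of the anomaly, `E` = absorption of the
almost stationarity, `T` = tall points of the base, `lam` = width of the boundary layer.
-/

set_option autoImplicit false

open MeasureTheory Filter Topology Set Metric
open scoped ENNReal NNReal

namespace Crest.Agent.R234.N0_309

open Crest.GeometryTopology.Submanifold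
open Crest.Agent.R234.Vf_884
open Crest.Agent.R234.Pot_425 Crest.Agent.R234.Dom_309 Crest.Agent.R234.Rep_387
open Crest.Agent.R234.Loc1_290 (bump bump_nonneg bump_le_one)

noncomputable section

variable {m : ℕ} {τ lam : ℝ} {T : Set (Euc m)}

/-- the tall part of the base, away from the boundary. -/
def tall (T : Set (Euc m)) (lam : ℝ) : Set (Euc m) := T ∩ closedBall 0 (1 - lam)

theorem measurableSet_tall (hT : MeasurableSet T) : MeasurableSet (tall T lam) :=
  hT.inter measurableSet_closedBall

theorem bump_eq {z : Euc m} (hz : ‖z‖ ≤ 1) : bump 1 (0 : Euc m) z = 1 - ‖z‖ ^ 2 := by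
  unfold bump
  rw [sub_zero, one_pow, div_one, max_eq_right]
  nlinarith [norm_nonneg z]

theorem continuous_bump : Continuous fun z : Euc m => bump 1 (0 : Euc m) z := by
  unfold bump
  fun_prop

theorem toXB_univ (B : Measure (Euc m)) :
    toXB τ B univ = B (closedBall (0 : Euc m) (1 - τ)) := by
  have h := toXB_apply (τ := τ) B univ
  simp only [mem_univ, univ_inter] at h
  have h2 : {z : XB (Euc m) τ | True} = univ := by ext; simp
  rw [h2] at h
  exact h

theorem toXB_add (B C : Measure (Euc m)) : toXB τ (B + C) = toXB τ B + toXB τ C := by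
  have he : MeasurableEmbedding (Subtype.val : XB (Euc m) τ → Euc m) :=
    MeasurableEmbedding.subtype_coe measurableSet_closedBall
  ext A hA
  unfold toXB
  rw [Measure.add_apply, he.comap_apply, he.comap_apply, he.comap_apply, Measure.add_apply]

/-- the anomaly tested with the bump, on the closed ball of radius `1 - τ`. -/
theorem bump_toXB (hτ : 0 < τ) {B1 B2 : Measure (Euc m)}
    (h1 : B1 (closedBall 0 1) < ⊤) (h2 : B2 (closedBall 0 1) < ⊤) :
    ∫ z in closedBall (0 : Euc m) 1, bump 1 (0 : Euc m) z ∂B1 -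
        ∫ z in closedBall (0 : Euc m) 1, bump 1 (0 : Euc m) z ∂B2 ≤
      ∫ z : XB (Euc m) τ, (1 - ‖(z : Euc m)‖ ^ 2) ∂(toXB τ B1) -
        ∫ z : XB (Euc m) τ, (1 - ‖(z : Euc m)‖ ^ 2) ∂(toXB τ B2) +
      2 * τ * B1.real (closedBall (0 : Euc m) 1) := by
  have hsub : closedBall (0 : Euc m) (1 - τ) ⊆ closedBall 0 1 :=
    closedBall_subset_closedBall (by linarith)
  have key : ∀ B : Measure (Euc m),
      ∫ z : XB (Euc m) τ, (1 - ‖(z : Euc m)‖ ^ 2) ∂(toXB τ B) =
        ∫ z in closedBall (0 : Euc m) (1 - τ), bump 1 (0 : Euc m) z ∂B := by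
    intro B
    rw [integral_toXB B fun z => 1 - ‖z‖ ^ 2]
    refine setIntegral_congr_fun measurableSet_closedBall fun z hz => ?_
    exact (bump_eq (mem_closedBall_zero_iff.1 (hsub hz))).symm
  have hint : ∀ B : Measure (Euc m), B (closedBall 0 1) < ⊤ →
      IntegrableOn (fun z : Euc m => bump 1 (0 : Euc m) z) (closedBall 0 1) B := by
    intro B hB
    refine IntegrableOn.of_bound hB continuous_bump.aestronglyMeasurable 1
      (Eventually.of_forall fun z => ?_)
    rw [Real.norm_eq_abs, abs_of_nonneg (bump_nonneg _ _ _)]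
    exact bump_le_one _ _ _
  rw [key, key]
  have e1 : ∫ z in closedBall (0 : Euc m) 1, bump 1 (0 : Euc m) z ∂B1 ≤
      ∫ z in closedBall (0 : Euc m) (1 - τ), bump 1 (0 : Euc m) z ∂B1 +
        2 * τ * B1.real (closedBall (0 : Euc m) 1) := by
    have h3 : ∫ z in closedBall (0 : Euc m) 1, bump 1 (0 : Euc m) z ∂B1 =
        ∫ z in closedBall (0 : Euc m) (1 - τ), bump 1 (0 : Euc m) z ∂B1 +
        ∫ z in closedBall (0 : Euc m) 1 \ closedBall (0 : Euc m) (1 - τ),
          bump 1 (0 : Euc m) z ∂B1 := by
      rw [setIntegral_sdiff measurableSet_closedBall (hint B1 h1) hsub]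
      ring
    have h4 : ∫ z in closedBall (0 : Euc m) 1 \ closedBall (0 : Euc m) (1 - τ),
        bump 1 (0 : Euc m) z ∂B1 ≤ 2 * τ * B1.real (closedBall (0 : Euc m) 1) := by
      have hm : MeasurableSet (closedBall (0 : Euc m) 1 \ closedBall (0 : Euc m) (1 - τ)) :=
        measurableSet_closedBall.diff measurableSet_closedBall
      have hfin : B1 (closedBall (0 : Euc m) 1 \ closedBall (0 : Euc m) (1 - τ)) < ⊤ :=
        (measure_mono sdiff_subset).trans_lt h1
      have h5 : ∫ z in closedBall (0 : Euc m) 1 \ closedBall (0 : Euc m) (1 - τ),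
          bump 1 (0 : Euc m) z ∂B1 ≤
          ∫ z in closedBall (0 : Euc m) 1 \ closedBall (0 : Euc m) (1 - τ), (2 * τ) ∂B1 := by
        refine setIntegral_mono_on ((hint B1 h1).mono_set sdiff_subset)
          (integrableOn_const hfin.ne) hm fun z hz => ?_
        have hz1 : ‖z‖ ≤ 1 := mem_closedBall_zero_iff.1 hz.1
        have hz2 : 1 - τ < ‖z‖ := by
          by_contra hcon
          exact hz.2 (mem_closedBall_zero_iff.2 (not_lt.1 hcon))
        rw [bump_eq hz1]
        nlinarith
      refine h5.trans ?_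
      rw [setIntegral_const, smul_eq_mul, mul_comm]
      refine mul_le_mul_of_nonneg_left ?_ (by linarith)
      exact measureReal_mono sdiff_subset h1.ne
    linarith
  have e2 : ∫ z in closedBall (0 : Euc m) (1 - τ), bump 1 (0 : Euc m) z ∂B2 ≤
      ∫ z in closedBall (0 : Euc m) 1, bump 1 (0 : Euc m) z ∂B2 :=
    setIntegral_mono_set (hint B2 h2) (Eventually.of_forall fun z => bump_nonneg _ _ _)
      hsub.eventuallyLE
  linarith

/-- **N0, measures on the base** -/
theorem contact_measures (hm0 : 0 < m) (hτ : 0 < τ) (hτ1 : 2 * τ ≤ lam) (hlam : lam ≤ 1)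
    {B1 B2 E : Measure (Euc m)} (h1 : B1 (closedBall 0 1) < ⊤) (h2 : B2 (closedBall 0 1) < ⊤)
    (h3 : E (closedBall 0 1) < ⊤) (hT : MeasurableSet T) :
    ∃ ε : Measure (XB (Euc m) τ), IsFiniteMeasure ε ∧
      (∫ z in closedBall (0 : Euc m) 1, bump 1 (0 : Euc m) z ∂B1 -
        ∫ z in closedBall (0 : Euc m) 1, bump 1 (0 : Euc m) z ∂B2 ≤
        ε.real univ + B1.real (closedBall 0 1 \ T) + E.real (closedBall 0 1) +
          (2 * lam + 3 * τ) * B1.real (closedBall 0 1)) ∧
      (∀ x ∈ ε.support, ∃ y ∈ closure (tall T lam), ‖(x : Euc m) - y‖ ≤ τ) ∧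
      (∀ x ∈ ε.support, ∀ (w : Wt) (s : ℝ), 0 ≤ s → ‖(x : Euc m)‖ + s ≤ 1 →
        0 ≤ SS m τ w ε (x : Euc m) s ∧
          SS m τ w ε (x : Euc m) s ≤
            SS m τ w ((toXB τ B1).restrict {z | (z : Euc m) ∈ tall T lam}) (x : Euc m) s -
              SS m τ w (toXB τ B2 + toXB τ E) (x : Euc m) s) := by
  have hτ1' : τ ≤ 1 := by linarith
  have hsub : closedBall (0 : Euc m) (1 - τ) ⊆ closedBall 0 1 :=
    closedBall_subset_closedBall (by linarith)
  have hf : ∀ B : Measure (Euc m), B (closedBall 0 1) < ⊤ → IsFiniteMeasure (toXB τ B) :=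
    fun B hB => finite_toXB ((measure_mono hsub).trans_lt hB)
  have hf1 := hf B1 h1
  have hf2 := hf B2 h2
  have hf3 := hf E h3
  set A : Set (XB (Euc m) τ) := {z | (z : Euc m) ∈ tall T lam} with hAdef
  have hA : MeasurableSet A := measurable_subtype_coe (measurableSet_tall hT)
  set β := (toXB τ B1).restrict A with hβ
  set γ := (toXB τ B1).restrict Aᶜ with hγ
  have hsum : β + γ = toXB τ B1 := Measure.restrict_add_restrict_compl hA
  have hsuppβ : ∀ y ∈ β.support, (y : Euc m) ∈ closure (tall T lam) := by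
    intro y hy
    by_contra hcon
    have hopen : IsOpen {z : XB (Euc m) τ | (z : Euc m) ∉ closure (tall T lam)} :=
      (isClosed_closure.preimage continuous_subtype_val).isOpen_compl
    have h4 : {z : XB (Euc m) τ | (z : Euc m) ∉ closure (tall T lam)} ∈ 𝓝 y :=
      hopen.mem_nhds hcon
    rw [Measure.mem_support_iff_forall] at hy
    have h5 := hy _ h4
    have h6 : β {z : XB (Euc m) τ | (z : Euc m) ∉ closure (tall T lam)} = 0 := by
      rw [hβ, Measure.restrict_apply hopen.measurableSet]
      have : {z : XB (Euc m) τ | (z : Euc m) ∉ closure (tall T lam)} ∩ A = ∅ := by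
        ext z
        simp only [mem_inter_iff, mem_empty_iff_false, iff_false, not_and]
        exact fun h7 h8 => h7 (subset_closure h8)
      rw [this, measure_empty]
    exact absurd h5 (by rw [h6]; exact lt_irrefl _)
  have hnorm : ∀ y ∈ β.support, ‖(y : Euc m)‖ ≤ 1 - 2 * τ := by
    intro y hy
    have h4 := hsuppβ y hy
    have h5 : closure (tall T lam) ⊆ closedBall (0 : Euc m) (1 - lam) :=
      closure_minimal inter_subset_right isClosed_closedBall
    have h6 := mem_closedBall_zero_iff.1 (h5 h4)
    linarith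
  obtain ⟨ε, hε, hbump, hsupp, hSS⟩ := contact_bump (F := Euc m) (m := m)
    (by rw [finrank_euclideanSpace_fin]) hm0 hτ hτ1' β γ (toXB τ B2) (toXB τ E) hnorm
  refine ⟨ε, hε, ?_, ?_, hSS⟩
  · have h4 := bump_toXB hτ h1 h2
    rw [hsum] at hbump
    -- the part of `γ`
    have hγle : ∫ z : XB (Euc m) τ, (1 - ‖(z : Euc m)‖ ^ 2) ∂γ ≤
        B1.real (closedBall 0 1 \ T) + 2 * lam * B1.real (closedBall 0 1) := by
      have hD : MeasurableSet {z : XB (Euc m) τ | (z : Euc m) ∉ T} :=
        (measurable_subtype_coe hT).compl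
      have hcz : Continuous fun z : XB (Euc m) τ => (1 - ‖(z : Euc m)‖ ^ 2) := by fun_prop
      have h5 : ∫ z : XB (Euc m) τ, (1 - ‖(z : Euc m)‖ ^ 2) ∂γ ≤
          ∫ z : XB (Euc m) τ, ({z : XB (Euc m) τ | (z : Euc m) ∉ T}.indicator
            (fun _ => (1 : ℝ)) z + 2 * lam) ∂γ := by
        refine integral_mono_ae (integrable_cont γ hcz)
          (((integrable_const (1 : ℝ)).indicator hD).add (integrable_const _)) ?_
        rw [hγ]
        filter_upwards [ae_restrict_mem hA.compl] with z hz
        by_cases hzT : (z : Euc m) ∈ T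
        · have hz2 : 1 - lam < ‖(z : Euc m)‖ := by
            by_contra hcon
            exact hz ⟨hzT, mem_closedBall_zero_iff.2 (not_lt.1 hcon)⟩
          rw [indicator_of_notMem (by simpa using hzT), zero_add]
          nlinarith
        · rw [indicator_of_mem (by simpa using hzT)]
          have := sq_nonneg ‖(z : Euc m)‖
          linarith
      refine h5.trans ?_
      rw [integral_add ((integrable_const (1 : ℝ)).indicator hD) (integrable_const _),
        integral_indicator_const _ hD, integral_const, smul_eq_mul, smul_eq_mul, mul_one]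
      have h6 : γ.real {z : XB (Euc m) τ | (z : Euc m) ∉ T} ≤ B1.real (closedBall 0 1 \ T) := by
        have h7 : γ.real {z : XB (Euc m) τ | (z : Euc m) ∉ T} ≤
            (toXB τ B1).real {z : XB (Euc m) τ | (z : Euc m) ∉ T} := by
          rw [hγ]
          exact ENNReal.toReal_mono (measure_ne_top _ _) (Measure.restrict_apply_le _ _)
        refine h7.trans ?_
        have h8 : (toXB τ B1) {z : XB (Euc m) τ | (z : Euc m) ∉ T} =
            B1 (Tᶜ ∩ closedBall (0 : Euc m) (1 - τ)) := toXB_apply B1 Tᶜ
        rw [measureReal_def, measureReal_def, h8]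
        refine ENNReal.toReal_mono ((measure_mono sdiff_subset).trans_lt h1).ne
          (measure_mono ?_)
        intro z hz
        exact ⟨hsub hz.2, hz.1⟩
      have h9 : γ.real univ ≤ B1.real (closedBall 0 1) := by
        have h10 : γ.real univ ≤ (toXB τ B1).real univ := by
          rw [hγ]
          exact ENNReal.toReal_mono (measure_ne_top _ _) (Measure.restrict_apply_le _ _)
        refine h10.trans ?_
        rw [measureReal_def, measureReal_def, toXB_univ]
        exact ENNReal.toReal_mono h1.ne (measure_mono hsub)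
      have h10 : γ.real univ * (2 * lam) ≤ 2 * lam * B1.real (closedBall 0 1) := by
        rw [mul_comm]
        exact mul_le_mul_of_nonneg_left h9 (by linarith)
      linarith
    have hEle : (toXB τ E).real univ ≤ E.real (closedBall 0 1) := by
      rw [measureReal_def, measureReal_def, toXB_univ]
      exact ENNReal.toReal_mono h3.ne (measure_mono hsub)
    have hβle : β.real univ ≤ B1.real (closedBall 0 1) := by
      have h10 : β.real univ ≤ (toXB τ B1).real univ := by
        rw [hβ]
        exact ENNReal.toReal_mono (measure_ne_top _ _) (Measure.restrict_apply_le _ _)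
      refine h10.trans ?_
      rw [measureReal_def, measureReal_def, toXB_univ]
      exact ENNReal.toReal_mono h1.ne (measure_mono hsub)
    have h6 : τ ^ 2 * β.real univ ≤ τ * B1.real (closedBall 0 1) := by
      have h7 : τ ^ 2 ≤ τ := by nlinarith
      have h8 : 0 ≤ β.real univ := measureReal_nonneg
      calc τ ^ 2 * β.real univ ≤ τ * β.real univ := mul_le_mul_of_nonneg_right h7 h8
        _ ≤ _ := mul_le_mul_of_nonneg_left hβle hτ.le
    linarith
  · intro x hx
    obtain ⟨y, hy, hxy⟩ := hsupp x hx
    exact ⟨y, hsuppβ y hy, hxy⟩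

end

end Crest.Agent.R234.N0_309
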