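import Crest.Agent.R234.Pair5_762
import Crest.Agent.R234.Cy7_870

/-!
Row 234 (helper762), VF-PAIR-Q, file 6: the quantitative pair inequality in the language of
helper870 (cylinders `CylStat`, tilt `tl`), in the form used by the hole lemma (helper746).
-/

set_option autoImplicit false

open MeasureTheory Crest.GeometryTopology.Submanifold Filter Topology Set
open scoped ENNReal InnerProductSpace

noncomputable section

namespace Crest.Agent.R234.Pair6_762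

open Crest.Agent.R234.Vf_884 Crest.Agent.R234.In_947
  Crest.Agent.R234.Pair2_762 Crest.Agent.R234.Pair3_762 Crest.Agent.R234.Pair4_762
  Crest.Agent.R234.Pair5_762 Crest.Agent.R234.Ar_870
open Crest.Agent.R234.Cy_870 (Split CylStat Shh)

variable {m n k : ℕ} {π : Euc k →L[ℝ] Euc m} {κ : Euc k →L[ℝ] Euc n}

/-- the horizontal projection. -/
def hp (π : Euc k →L[ℝ] Euc m) : L k := ContinuousLinearMap.adjoint π ∘L π

theorem pi_hp (hs : Split π κ) (u : Euc k) : π (hp π u) = π u :=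
  congrArg (fun T : L m => T (π u)) hs.hh

theorem norm_hp (hs : Split π κ) (u : Euc k) : ‖hp π u‖ = ‖π u‖ := norm_adjoint_co hs.hh _

theorem norm_sub_hp (hs : Split π κ) (u : Euc k) : ‖u - hp π u‖ = ‖κ u‖ := by
  have h1 : u - hp π u = ContinuousLinearMap.adjoint κ (κ u) := by
    have : hp π u + ContinuousLinearMap.adjoint κ (κ u) = u :=
      congrArg (fun T : L k => T u) hs.sum
    rw [sub_eq_iff_eq_add, add_comm]
    exact this.symm
  rw [h1]
  exact norm_adjoint_co hs.vv _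

theorem hp_mem_G (hs : Split π κ) : hp π ∈ G m k := by
  refine ⟨?_, ?_, ?_⟩
  · ext1 u
    show ContinuousLinearMap.adjoint π (π (hp π u)) = _
    rw [pi_hp hs]; rfl
  · rw [ContinuousLinearMap.isSelfAdjoint_iff']
    unfold hp
    rw [ContinuousLinearMap.adjoint_comp, ContinuousLinearMap.adjoint_adjoint]
  · unfold hp
    rw [Cy_870.tr_cyc, hs.hh, tr_one]

theorem tilt_eq_tl (π : Euc k →L[ℝ] Euc m) {S : L k} (hS : S ∈ G m k) : tilt (hp π) S = tl π S := by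
  have h1 : tr (hp π ∘L S) = tr (Shh π S) := by
    unfold hp Shh
    rw [ContinuousLinearMap.comp_assoc, Cy_870.tr_cyc, ContinuousLinearMap.comp_assoc]
  rw [Cy_870.tl_eq, tilt, h1, hS.2.2]

/-- finite measures over a bounded cylinder (no stationarity). -/
structure CylBase (W : Measure (Euc k × L k)) (π : Euc k →L[ℝ] Euc m) (κ : Euc k →L[ℝ] Euc n) :
    Prop where
  sp : Split π κ
  base : Pt_615.HBase m W

theorem base_of_cyl {W : Measure (Euc k × L k)} {x₀ : Euc m} {R h₀ : ℝ}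
    (h : CylStat W π κ x₀ R h₀) : CylBase W π κ := by
  refine ⟨h.sp, h.conc, ‖x₀‖ + |R| + |h₀|, ?_⟩
  filter_upwards [h.base, h.hgt] with p h1 h2
  have h3 := h.sp.norm_sq p.1
  have h4 : ‖π p.1‖ ≤ ‖x₀‖ + |R| := by
    have := norm_sub_norm_le (π p.1) x₀
    have h4 := le_abs_self R
    linarith
  have h5 : ‖κ p.1‖ ≤ |h₀| := h2.trans (le_abs_self _)
  have h6 : ‖p.1‖ ^ 2 ≤ (‖x₀‖ + |R| + |h₀|) ^ 2 := by
    rw [h3]
    nlinarith [norm_nonneg (π p.1), norm_nonneg (κ p.1), norm_nonneg x₀, abs_nonneg R,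
      abs_nonneg h₀]
  exact (sq_le_sq₀ (norm_nonneg _) (by positivity)).1 h6

theorem hstat_of_cyl {W : Measure (Euc k × L k)} {x₀ : Euc m} {R h₀ : ℝ}
    (h : CylStat W π κ x₀ R h₀) : Pt_615.HStat m (hp π) {y | ‖π y - x₀‖ < R} W := by
  refine ⟨(base_of_cyl h).base, fun X hX h0 => ?_⟩
  refine h.stat X hX fun p hp' => h0 p ?_
  intro hcon
  have h1 : ‖π (hp π p) - x₀‖ < R := hcon
  rw [pi_hp h.sp] at h1
  linarith

/-! ### the cut-off -/

/-- the profile: `1` on `[0, 9/4]`, `0` on `[4, ∞)`. -/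
def ct (s : ℝ) : ℝ := pp (1 - pp (s - 9 / 4) * (16 / 49))

theorem ct_nonneg (s : ℝ) : 0 ≤ ct s := pp_nonneg _

theorem ct_le_one (s : ℝ) : ct s ≤ 1 := by
  refine pp_le_one ?_
  have := pp_nonneg (s - 9 / 4)
  linarith

theorem ct_eq_one {s : ℝ} (hs : s ≤ 9 / 4) : ct s = 1 := by
  unfold ct pp
  rw [max_eq_right (by linarith : s - 9 / 4 ≤ 0)]
  norm_num

theorem ct_eq_zero {s : ℝ} (hs : 4 ≤ s) : ct s = 0 := by
  have h1 : 49 / 16 ≤ pp (s - 9 / 4) := by
    unfold pp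
    rw [max_eq_left (by linarith : 0 ≤ s - 9 / 4)]
    nlinarith
  have h2 : max (1 - pp (s - 9 / 4) * (16 / 49)) 0 = 0 := max_eq_right (by linarith)
  show (max (1 - pp (s - 9 / 4) * (16 / 49)) 0) ^ 2 = 0
  rw [h2]; norm_num

/-- derivative of the profile. -/
def ct' (s : ℝ) : ℝ :=
  2 * max (1 - pp (s - 9 / 4) * (16 / 49)) 0 * (-(2 * max (s - 9 / 4) 0 * (16 / 49)))

theorem hasDerivAt_ct (s : ℝ) : HasDerivAt ct (ct' s) s := by
  have h0 : HasDerivAt (fun s : ℝ => s - 9 / 4) 1 s := (hasDerivAt_id s).sub_const _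
  have h1 := ((hasDerivAt_pp (s - 9 / 4)).comp s h0).mul_const (16 / 49)
  have h2 := h1.const_sub 1
  have h3 := (hasDerivAt_pp (1 - pp (s - 9 / 4) * (16 / 49))).comp s h2
  refine h3.congr_deriv ?_
  unfold ct'
  ring

theorem contDiff_ct : ContDiff ℝ 1 ct := by
  unfold ct
  exact contDiff_pp.comp (contDiff_const.sub
    ((contDiff_pp.comp (contDiff_id.sub contDiff_const)).mul contDiff_const))

theorem abs_ct'_le (s : ℝ) : |ct' s| ≤ 16 / 7 := by
  rcases le_or_gt s 4 with hs | hs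
  · unfold ct'
    rw [abs_mul, abs_neg]
    have h1 : |2 * max (1 - pp (s - 9 / 4) * (16 / 49)) 0| ≤ 2 := by
      rw [abs_of_nonneg (by positivity)]
      have := pp_nonneg (s - 9 / 4)
      have : max (1 - pp (s - 9 / 4) * (16 / 49)) 0 ≤ 1 := max_le (by linarith) zero_le_one
      linarith
    have h2 : |2 * max (s - 9 / 4) 0 * (16 / 49)| ≤ 8 / 7 := by
      rw [abs_of_nonneg (by positivity)]
      have : max (s - 9 / 4) 0 ≤ 7 / 4 := max_le (by linarith) (by norm_num)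
      linarith
    calc _ ≤ (2 : ℝ) * (8 / 7) := mul_le_mul h1 h2 (abs_nonneg _) (by norm_num)
      _ = 16 / 7 := by norm_num
  · have h1 : ct' s = 0 := by
      have h2 : max (1 - pp (s - 9 / 4) * (16 / 49)) 0 = 0 := by
        refine max_eq_right ?_
        unfold pp
        rw [max_eq_left (by linarith : 0 ≤ s - 9 / 4)]
        nlinarith
      unfold ct'
      rw [h2]; ring
    rw [h1, abs_zero]; norm_num

/-- the cut-off over the ball: `1` over `B_(3r/2)(x)`, `0` off `B_(2r)(x)`. -/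
def cu (π : Euc k →L[ℝ] Euc m) (x : Euc m) (r : ℝ) (z : Euc k) : ℝ :=
  ct (‖π z - x‖ ^ 2 * (r ^ 2)⁻¹)

variable {x x₀ : Euc m} {r : ℝ}

theorem continuous_cu (π : Euc k →L[ℝ] Euc m) (x : Euc m) (r : ℝ) : Continuous (cu π x r) := by
  unfold cu
  exact contDiff_ct.continuous.comp (by fun_prop)

theorem cu_eq_one (hr : 0 < r) {z : Euc k} (hz : ‖π z - x‖ ≤ 3 / 2 * r) : cu π x r z = 1 := by
  refine ct_eq_one ?_
  rw [← div_eq_mul_inv, div_le_iff₀ (by positivity)]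
  have := pow_le_pow_left₀ (norm_nonneg _) hz 2
  nlinarith

theorem cu_eq_zero (hr : 0 < r) {z : Euc k} (hz : 2 * r ≤ ‖π z - x‖) : cu π x r z = 0 := by
  refine ct_eq_zero ?_
  rw [← div_eq_mul_inv, le_div_iff₀ (by positivity)]
  have := pow_le_pow_left₀ (by positivity) hz 2
  nlinarith

theorem cut_cu (hs : Split π κ) (hr : 0 < r) {R : ℝ} (hR : ‖x - x₀‖ + 2 * r ≤ R) :
    Cut (hp π) {y | ‖π y - x₀‖ < R} (10 / r) (cu π x r) := by
  have hfd : ∀ z, HasFDerivAt (cu π x r) ((ct' (‖π z - x‖ ^ 2 * (r ^ 2)⁻¹) * (2 * (r ^ 2)⁻¹)) •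
      ((innerSL ℝ (π z - x)) ∘L π)) z := by
    intro z
    have h1 : HasFDerivAt (fun y : Euc k => π y - x) π z := π.hasFDerivAt.sub_const x
    have h2 := h1.norm_sq.mul_const ((r ^ 2)⁻¹)
    have h3 := (hasDerivAt_ct (‖π z - x‖ ^ 2 * (r ^ 2)⁻¹)).comp_hasFDerivAt z h2
    refine h3.congr_fderiv ?_
    ext1 v
    simp only [smul_apply, ContinuousLinearMap.comp_apply, smul_eq_mul, nsmul_eq_mul]
    push_cast
    ring
  refine ⟨?_, fun z => ?_, fun z hz => ?_, fun z => ct_nonneg _, fun z => ct_le_one _,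
    fun z => ?_⟩
  · unfold cu
    exact contDiff_ct.comp (((π.contDiff.sub contDiff_const).norm_sq ℝ).mul contDiff_const)
  · unfold cu
    rw [pi_hp hs]
  · refine cu_eq_zero hr ?_
    have h1 : ¬ ‖π (hp π z) - x₀‖ < R := hz
    rw [pi_hp hs, not_lt] at h1
    have h2 : ‖π z - x₀‖ ≤ ‖π z - x‖ + ‖x - x₀‖ := norm_sub_le_norm_sub_add_norm_sub _ _ _
    linarith
  · rw [(hfd z).fderiv]
    refine ContinuousLinearMap.opNorm_le_bound _ (by positivity) fun v => ?_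
    rcases le_or_gt (2 * r) ‖π z - x‖ with h | h
    · have h1 : ct' (‖π z - x‖ ^ 2 * (r ^ 2)⁻¹) = 0 := by
        have h2 : HasDerivAt ct 0 (‖π z - x‖ ^ 2 * (r ^ 2)⁻¹) := by
          have h3 : 4 ≤ ‖π z - x‖ ^ 2 * (r ^ 2)⁻¹ := by
            rw [← div_eq_mul_inv, le_div_iff₀ (by positivity)]
            have := pow_le_pow_left₀ (by positivity) h 2
            nlinarith
          have h4 : IsLocalMin ct (‖π z - x‖ ^ 2 * (r ^ 2)⁻¹) :=
            Filter.Eventually.of_forall fun y => by rw [ct_eq_zero h3]; exact ct_nonneg _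
          have h5 := h4.hasDerivAt_eq_zero (hasDerivAt_ct _)
          have h6 := hasDerivAt_ct (‖π z - x‖ ^ 2 * (r ^ 2)⁻¹)
          rwa [h5] at h6
        exact (hasDerivAt_ct _).unique h2
      rw [h1]
      simp only [zero_mul, zero_smul, zero_apply, norm_zero]
      positivity
    · have e : ((ct' (‖π z - x‖ ^ 2 * (r ^ 2)⁻¹) * (2 * (r ^ 2)⁻¹)) •
          ((innerSL ℝ (π z - x)) ∘L π)) v
          = ct' (‖π z - x‖ ^ 2 * (r ^ 2)⁻¹) * (2 * (r ^ 2)⁻¹) * ⟪π z - x, π v⟫_ℝ := rfl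
      rw [e, Real.norm_eq_abs, abs_mul, abs_mul, abs_of_nonneg (by positivity : 0 ≤ 2 * (r ^ 2)⁻¹)]
      have h1 := abs_ct'_le (‖π z - x‖ ^ 2 * (r ^ 2)⁻¹)
      have h2 : ‖π v‖ ≤ ‖v‖ := by
        rw [← norm_hp hs]; exact G_norm_apply_le (hp_mem_G hs) v
      have h3 : |⟪π z - x, π v⟫_ℝ| ≤ 2 * r * ‖v‖ :=
        (abs_real_inner_le_norm _ _).trans (mul_le_mul h.le h2 (norm_nonneg _) (by positivity))
      calc |ct' (‖π z - x‖ ^ 2 * (r ^ 2)⁻¹)| * (2 * (r ^ 2)⁻¹) * |⟪π z - x, π v⟫_ℝ|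
          ≤ 16 / 7 * (2 * (r ^ 2)⁻¹) * (2 * r * ‖v‖) := by
            refine mul_le_mul ?_ h3 (abs_nonneg _) (by positivity)
            exact mul_le_mul_of_nonneg_right h1 (by positivity)
        _ = 64 / 7 / r * ‖v‖ := by field_simp; ring
        _ ≤ 10 / r * ‖v‖ := by
            refine mul_le_mul_of_nonneg_right ?_ (norm_nonneg _)
            exact div_le_div_of_nonneg_right (by norm_num) hr.le

/-! ### the inequality -/

/-- the part over the ball `B_s(y)` of the base. -/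
def ov (π : Euc k →L[ℝ] Euc m) (y : Euc m) (s : ℝ) : Set (Euc k × L k) := {p | ‖π p.1 - y‖ < s}

theorem isOpen_ov (π : Euc k →L[ℝ] Euc m) (y : Euc m) (s : ℝ) : IsOpen (ov π y s) :=
  isOpen_lt (by fun_prop) continuous_const

/-- tilt energy over `B_s(y)`. -/
def eb (W : Measure (Euc k × L k)) (π : Euc k →L[ℝ] Euc m) (y : Euc m) (s : ℝ) : ℝ :=
  ∫ p in ov π y s, tl π p.2 ∂W

section

variable {W : Measure (Euc k × L k)} {M σ c τ h R h₀ : ℝ}

theorem tl_ae (hW : CylBase W π κ) : ∀ᵐ p ∂W, tilt (hp π) p.2 = tl π p.2 := by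
  filter_upwards [hW.base.conc] with p h1
  exact tilt_eq_tl π h1

theorem tl_ae_nonneg (hW : CylBase W π κ) : ∀ᵐ p ∂W, 0 ≤ tl π p.2 := by
  filter_upwards [hW.base.conc] with p h1
  rw [← tilt_eq_tl π h1]
  exact tilt_nonneg (hp_mem_G hW.sp) h1

theorem integrable_tl [IsFiniteMeasure W] (hW : CylBase W π κ) :
    Integrable (fun p => tl π p.2) W :=
  (integrable_one hW.base (continuous_tilt_snd (hp π))).congr (tl_ae hW)

theorem nb_subset (hs : Split π κ) (z : Euc k) :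
    nb (hp π) τ (cu π x r) z ⊆ ov π (π z) τ := by
  intro p hp'
  obtain ⟨-, -, h3⟩ := hp'
  show ‖π p.1 - π z‖ < τ
  rw [← map_sub, ← norm_neg, ← map_neg, neg_sub, ← norm_hp hs]
  exact h3

theorem S0_subset (hr : 0 < r) : S0 (cu π x r) ⊆ ov π x (2 * r) := by
  intro p hp'
  by_contra hcon
  exact hp' (cu_eq_zero hr (not_lt.1 hcon))

theorem mem_of_nb (hr : 0 < r) {z : Euc k} (h : cu π x r z ≠ 0) : ‖π z - x‖ < 2 * r := by
  by_contra hcon
  exact h (cu_eq_zero hr (not_lt.1 hcon))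

/-- hypotheses `(M)`, `(σ)` for the cut-off `cu`. -/
theorem hyps [IsFiniteMeasure W] (hW : CylBase W π κ) (hr : 0 < r) (hτ : 0 < τ) (hM0 : 0 < M)
    (hM : ∀ y, ‖y - x‖ < 2 * r → W.real (ov π y τ) ≤ M * τ ^ m)
    (hσ : ∀ y, ‖y - x‖ < 2 * r → eb W π y τ ≤ σ ^ 2 * τ ^ m) :
    (∀ᵐ z ∂W, W.real (nb (hp π) τ (cu π x r) z.1) ≤ M * τ ^ m) ∧
    (∀ᵐ z ∂W, ∫ z' in nb (hp π) τ (cu π x r) z.1, tilt (hp π) z'.2 ∂W ≤ σ ^ 2 * τ ^ m) := by
  constructor
  · refine Filter.Eventually.of_forall fun z => ?_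
    by_cases hz : cu π x r z.1 = 0
    · rw [nb_eq_empty hz, measureReal_empty]; positivity
    · exact (measureReal_mono (nb_subset hW.sp z.1)).trans (hM _ (mem_of_nb hr hz))
  · refine Filter.Eventually.of_forall fun z => ?_
    by_cases hz : cu π x r z.1 = 0
    · rw [nb_eq_empty hz]; simp only [setIntegral_empty]; positivity
    · refine le_trans ?_ (hσ _ (mem_of_nb hr hz))
      rw [setIntegral_congr_ae₀ (g := fun p => tl π p.2)
        (isOpen_nb (continuous_cu π x r) z.1).measurableSet.nullMeasurableSet (by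
        filter_upwards [tl_ae hW] with p h1 _ using h1)]
      exact setIntegral_mono_set (integrable_tl hW).integrableOn
        (ae_restrict_of_ae (tl_ae_nonneg hW)) (nb_subset hW.sp z.1).eventuallyLE

theorem rhs_le [IsFiniteMeasure W] (hW : CylBase W π κ) (hr : 0 < r) (hτ : 0 < τ) (hh : 0 < h)
    (hM0 : 0 < M) (hσ0 : 0 < σ) :
    rhs (hp π) W (cu π x r) h τ (10 / r) M σ
      ≤ h * (30 / r * M * √(eb W π x (2 * r) * W.real (ov π x (2 * r)))
        + 4 / τ * (σ * √M * eb W π x (2 * r))) := by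
  have h1 : ∫ z in S0 (cu π x r), tilt (hp π) z.2 ∂W ≤ eb W π x (2 * r) := by
    rw [setIntegral_congr_ae₀ (g := fun p => tl π p.2)
        (isOpen_S0 (continuous_cu π x r)).measurableSet.nullMeasurableSet (by
        filter_upwards [tl_ae hW] with p h1 _ using h1)]
    exact setIntegral_mono_set (integrable_tl hW).integrableOn
        (ae_restrict_of_ae (tl_ae_nonneg hW)) (S0_subset hr).eventuallyLE
  have h0 : 0 ≤ ∫ z in S0 (cu π x r), tilt (hp π) z.2 ∂W := by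
    refine setIntegral_nonneg_of_ae ?_
    filter_upwards [hW.base.conc] with p h2
    exact tilt_nonneg (hp_mem_G hW.sp) h2
  have h2 : W.real (S0 (cu π x r)) ≤ W.real (ov π x (2 * r)) := measureReal_mono (S0_subset hr)
  unfold rhs
  have e1 : 3 * (10 / r) * M = 30 / r * M := by ring
  rw [e1]
  have h3 : √((∫ z in S0 (cu π x r), tilt (hp π) z.2 ∂W) * W.real (S0 (cu π x r)))
      ≤ √(eb W π x (2 * r) * W.real (ov π x (2 * r))) :=
    Real.sqrt_le_sqrt (mul_le_mul h1 h2 measureReal_nonneg (h0.trans h1))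
  gcongr

/-- **(DV), general `W`.** `W` = any bounded measure on `(x, S)`, with the defect of
stationarity `err`.  The points of `A` are `(h, τ)`-small. -/
theorem dv_small_fv [IsFiniteMeasure W] (hW : CylBase W π κ) (hτ : 0 < τ) (hτr : τ ≤ r)
    (hh : 0 < h) (hM0 : 0 < M) (hσ0 : 0 < σ) (hc0 : 0 < c)
    (hM : ∀ y, ‖y - x‖ < 2 * r → W.real (ov π y τ) ≤ M * τ ^ m)
    (hσ : ∀ y, ‖y - x‖ < 2 * r → eb W π y τ ≤ σ ^ 2 * τ ^ m)
    {A : Set (Euc k × L k)} (hA : MeasurableSet A) (hAx : A ⊆ ov π x r)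
    (hc : ∀ᵐ z ∂W, z ∈ A →
      c * τ ^ m ≤ W.real {p | ‖π (z.1 - p.1)‖ ≤ τ / 2 ∧ ‖κ (z.1 - p.1)‖ ≤ h}) :
    ∫ z in A, vv (hp π) z.2 ∂W ≤ 32 / 3 / c *
      (h * (30 / r * M * √(eb W π x (2 * r) * W.real (ov π x (2 * r)))
        + 4 / τ * (σ * √M * eb W π x (2 * r))) + |err (hp π) W (cu π x r) h τ| / τ ^ m) := by
  have hr : 0 < r := hτ.trans_le hτr
  have hH : hp π ∈ G m k := hp_mem_G hW.sp
  have hφ := cut_cu (x := x) (x₀ := x) hW.sp hr (R := 2 * r) (by simp)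
  obtain ⟨hM', hσ'⟩ := hyps hW hr hτ hM0 hM hσ
  have h1 := energy_fv hW.base hH hφ hτ hh hM0 hσ0 hM' hσ'
  have h2 := lower_gen (c := c) hW.base hH hφ hτ hh
    (measurableSet_close (H := hp π) (h := h) (τ := τ) hφ.smooth.continuous) hA
    (f := fun z => vv (hp π) z.2) ((continuous_vv (hp π)).comp continuous_snd)
    (Filter.Eventually.of_forall fun z => vv_nonneg _ _)
    (fun q hq g1 g2 => ⟨hq, by
      have := mx_nonneg (hp π) q.1.2 q.2.2
      have := vv_nonneg (hp π) q.2.2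
      linarith⟩) (by
      filter_upwards [hc] with z hz hzA
      refine (hz hzA).trans (measureReal_mono ?_)
      intro p hp'
      obtain ⟨p1, p2⟩ := hp'
      have g1 : ‖π z.1 - x‖ < r := hAx hzA
      have g2 : ‖π p.1 - x‖ ≤ ‖π z.1 - x‖ + ‖π (z.1 - p.1)‖ := by
        have : π p.1 - x = (π z.1 - x) - π (z.1 - p.1) := by rw [map_sub]; abel
        rw [this]
        exact norm_sub_le _ _
      show close (hp π) h τ (cu π x r) z.1 p.1
      refine ⟨cu_eq_one hr (by linarith), cu_eq_one hr (by linarith), ?_, ?_⟩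
      · rw [norm_hp hW.sp]; exact p1
      · rw [norm_sub_hp hW.sp]; exact p2)
  have h3 := rhs_le (x := x) hW hr hτ hh hM0 hσ0
  have hτm : 0 < τ ^ m := pow_pos hτ m
  refine div_aux hc0 hτm (h2.trans (h1.trans ?_))
  rw [mul_add, mul_assoc 2 (τ ^ m) (|err (hp π) W (cu π x r) h τ| / τ ^ m),
    mul_div_cancel₀ _ hτm.ne']
  gcongr

theorem err_eq_zero [IsFiniteMeasure W] (hW : CylStat W π κ x₀ R h₀) (hr : 0 < r)
    (hR : ‖x - x₀‖ + 2 * r ≤ R) : err (hp π) W (cu π x r) h τ = 0 := by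
  have hV := hstat_of_cyl hW
  have hH : hp π ∈ G m k := hp_mem_G hW.sp
  have hφ := cut_cu (x := x) (x₀ := x₀) hW.sp hr hR
  have hw := ker_ww (τ := τ) hφ (G_idem_apply hH)
  have hψ := vert_th (h := h) hH
  unfold err
  have h3 : ∀ z', Pt_615.FV W (Pt_615.Xf (ww (hp π) τ (cu π x r)) (th (hp π) h) z') = 0 :=
    fun z' => hV.stat _ (Pt_615.contDiff_Xf hw hψ z') (Pt_615.Xf_supp hw z')
  have h4 : ∀ z, Pt_615.FV W (Pt_615.Yf (hp π) (ww (hp π) τ (cu π x r)) (th (hp π) h) z) = 0 :=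
    fun z => hV.stat _ (Pt_615.contDiff_Yf hw hψ z) (Pt_615.Yf_supp hw z)
  simp only [h3, h4, integral_zero, add_zero]

/-- **(DV), stationary `W`, small points.** -/
theorem dv_small (hW : CylStat W π κ x₀ R h₀) (hR : ‖x - x₀‖ + 2 * r ≤ R)
    (hτ : 0 < τ) (hτr : τ ≤ r) (hh : 0 < h) (hM0 : 0 < M) (hσ0 : 0 < σ) (hc0 : 0 < c)
    (hM : ∀ y, ‖y - x‖ < 2 * r → W.real (ov π y τ) ≤ M * τ ^ m)
    (hσ : ∀ y, ‖y - x‖ < 2 * r → eb W π y τ ≤ σ ^ 2 * τ ^ m)
    {A : Set (Euc k × L k)} (hA : MeasurableSet A) (hAx : A ⊆ ov π x r)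
    (hc : ∀ᵐ z ∂W, z ∈ A →
      c * τ ^ m ≤ W.real {p | ‖π (z.1 - p.1)‖ ≤ τ / 2 ∧ ‖κ (z.1 - p.1)‖ ≤ h}) :
    ∫ z in A, vv (hp π) z.2 ∂W ≤ 32 / 3 / c *
      (h * (30 / r * M * √(eb W π x (2 * r) * W.real (ov π x (2 * r)))
        + 4 / τ * (σ * √M * eb W π x (2 * r)))) := by
  haveI : IsFiniteMeasure W := ⟨hW.fin⟩
  have h1 := dv_small_fv (base_of_cyl hW) hτ hτr hh hM0 hσ0 hc0 hM hσ hA hAx hc
  rw [err_eq_zero hW (hτ.trans_le hτr) hR, abs_zero, zero_div, add_zero] at h1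
  exact h1

theorem tl_sq_le {S : L k} (hs : Split π κ) (hS : S ∈ G m k) :
    tl π S ^ 2 ≤ k * vv (hp π) S := by
  rw [← tilt_eq_tl π hS]
  exact tilt_sq_le (hp_mem_G hs)

theorem ball_sub (hs : Split π κ) (z : Euc k × L k) :
    {p : Euc k × L k | ‖z.1 - p.1‖ ≤ h / 2} ⊆
      {p | ‖π (z.1 - p.1)‖ ≤ h / 2 ∧ ‖κ (z.1 - p.1)‖ ≤ h} := by
  intro p hp'
  have h1 := hs.norm_sq (z.1 - p.1)
  have h2 : ‖z.1 - p.1‖ ≤ h / 2 := hp'
  have h3 : ‖π (z.1 - p.1)‖ ≤ ‖z.1 - p.1‖ := by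
    refine (sq_le_sq₀ (norm_nonneg _) (norm_nonneg _)).1 ?_
    nlinarith [sq_nonneg ‖κ (z.1 - p.1)‖]
  have h4 : ‖κ (z.1 - p.1)‖ ≤ ‖z.1 - p.1‖ := by
    refine (sq_le_sq₀ (norm_nonneg _) (norm_nonneg _)).1 ?_
    nlinarith [sq_nonneg ‖π (z.1 - p.1)‖]
  have h5 := norm_nonneg (z.1 - p.1)
  exact ⟨h3.trans h2, by linarith⟩

/-- **(DV) of 504 #5747 (the form of 746): density `≥ c` at scale `h / 2`.** -/
theorem dv (hW : CylStat W π κ x₀ R h₀) (hR : ‖x - x₀‖ + 2 * r ≤ R)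
    (hh : 0 < h) (hhr : h ≤ r) (hM0 : 0 < M) (hσ0 : 0 < σ) (hc0 : 0 < c)
    (hM : ∀ y, ‖y - x‖ < 2 * r → W.real (ov π y h) ≤ M * h ^ m)
    (hσ : ∀ y, ‖y - x‖ < 2 * r → eb W π y h ≤ σ ^ 2 * h ^ m)
    (hc : ∀ᵐ z ∂W, ‖π z.1 - x‖ < r → c * h ^ m ≤ W.real {p | ‖z.1 - p.1‖ ≤ h / 2}) :
    ∫ z in ov π x r, tl π z.2 ^ 2 ∂W ≤ k / c *
      (320 * M * (h / r) * √(eb W π x (2 * r) * W.real (ov π x (2 * r)))
        + 43 * σ * √M * eb W π x (2 * r)) := by
  haveI : IsFiniteMeasure W := ⟨hW.fin⟩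
  have hr : 0 < r := hh.trans_le hhr
  have hB := base_of_cyl hW
  have h1 := dv_small hW hR hh hhr hh hM0 hσ0 hc0 hM hσ
    (isOpen_ov π x r).measurableSet subset_rfl (by
      filter_upwards [hc] with z hz hzA
      exact (hz hzA).trans (measureReal_mono (ball_sub hW.sp z)))
  have h2 : ∫ z in ov π x r, tl π z.2 ^ 2 ∂W ≤ ∫ z in ov π x r, k * vv (hp π) z.2 ∂W := by
    have hi : Integrable (fun z : Euc k × L k => k * vv (hp π) z.2) W :=
      integrable_one hB.base (continuous_const.mul ((continuous_vv (hp π)).comp continuous_snd))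
    refine integral_mono_of_nonneg (Filter.Eventually.of_forall fun z => sq_nonneg _)
      hi.restrict (ae_restrict_of_ae ?_)
    filter_upwards [hW.conc] with z hz
    exact tl_sq_le hW.sp hz
  rw [integral_const_mul] at h2
  refine h2.trans ?_
  have he0 : 0 ≤ eb W π x (2 * r) := setIntegral_nonneg_of_ae (tl_ae_nonneg hB)
  have h3 : (k : ℝ) * ∫ z in ov π x r, vv (hp π) z.2 ∂W ≤ k * (32 / 3 / c *
      (h * (30 / r * M * √(eb W π x (2 * r) * W.real (ov π x (2 * r)))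
        + 4 / h * (σ * √M * eb W π x (2 * r))))) :=
    mul_le_mul_of_nonneg_left h1 (Nat.cast_nonneg k)
  refine h3.trans ?_
  have e1 : (k : ℝ) * (32 / 3 / c *
      (h * (30 / r * M * √(eb W π x (2 * r) * W.real (ov π x (2 * r)))
        + 4 / h * (σ * √M * eb W π x (2 * r)))))
      = k / c * (320 * M * (h / r) * √(eb W π x (2 * r) * W.real (ov π x (2 * r)))
        + 128 / 3 * (σ * √M * eb W π x (2 * r))) := by
    field_simp
    ring
  rw [e1]
  refine mul_le_mul_of_nonneg_left ?_ (by positivity)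
  have h4 : 0 ≤ σ * √M * eb W π x (2 * r) := by positivity
  linarith

end

end Crest.Agent.R234.Pair6_762
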