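import Crest.Agent.R234.Th13_164

/-!
# Row 234, VF-THETA part 14 (helper164)

`THETA_set` (309): `A` any set of centres without bad radii in `[t, r/2]`: `N` is close to `Q` at all these scales and
`∫_A |N - Q| ≤ K ∫_(t-neighbourhood of A) tl 1_(tl > σ) dW`.
-/

set_option autoImplicit false

open Set Filter Topology MeasureTheory Metric
open Crest.GeometryTopology.Submanifold
open Crest.Agent.R234.Vf_884 Crest.Agent.R234.Ar_870 Crest.Agent.R234.Cy_870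
open scoped ENNReal NNReal ContDiff InnerProductSpace

noncomputable section

namespace Crest.Agent.R234.Th_164

variable {d : ℕ}

set_option maxHeartbeats 800000 in
/-- abstract form -/
theorem set_abs {C : ℝ} (hSC : SC2 d C) (Q : ℕ) {C₁ : ℝ} (hC₁ : 0 ≤ C₁) {ε : ℝ} (hε : 0 < ε)
    (hε1 : ε ≤ 1) (hεω : ε * (1 + 4 ^ d) < om d) :
    ∃ c₁ : ℝ, 0 < c₁ ∧ c₁ ≤ 1 / 2 ∧ ∃ δ₄ : ℝ, 0 < δ₄ ∧ δ₄ ≤ 1 ∧ ∃ δ₁ : ℝ, 0 < δ₁ ∧ δ₁ ≤ 1 ∧
      ∃ δ₂ : ℝ, 0 < δ₂ ∧ δ₂ ≤ δ₁ ∧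
      ∀ (c₀ g : ℝ) (R : Set (Eu d)) (N : Eu d → ℝ) (μ e es G : Measure (Eu d)),
        0 ≤ c₀ → c₀ ≤ c₁ → 0 ≤ g → Hyp C₁ c₀ g R N μ e es G →
        ∀ (c : Eu d) (r : ℝ), 0 < r → ball c (4 * r) ⊆ R → g * r ≤ δ₂ →
          μ (ball c (4 * r)) ≤ ENNReal.ofReal ((Q + 1) * om d * (4 * r) ^ d) →
          e (ball c (4 * r)) ≤ ENNReal.ofReal (δ₂ * r ^ d) →
          es (ball c r) ≤ ENNReal.ofReal (δ₂ * r ^ d) →
          |μ.real (ball c r) - Q * om d * r ^ d| ≤ om d / 4 * r ^ d →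
        ∀ (A : Set (Eu d)) (t : ℝ), A ⊆ ball c (r / 2) → 0 < t → t ≤ r / 16 →
          (∀ x ∈ A, ∀ ρ, t ≤ ρ → ρ ≤ r / 2 → es (ball x ρ) ≤ ENNReal.ofReal (δ₁ * ρ ^ d)) →
          (∀ x ∈ A, ∀ ρ, t ≤ ρ → ρ ≤ r / 2 → ∫ y in ball x ρ, |N y - Q| ≤ ε * ρ ^ d ∧
            μ (ball x ρ) ≤ ENNReal.ofReal (2 * (Q * om d + ε + 1) * ρ ^ d)) ∧
          (∀ᵐ x, x ∈ A → x ∉ Bad δ₄ t es A → N x = Q) ∧
          (∀ x ∈ Bad δ₄ t es A, ∃ ρ, 0 < ρ ∧ ρ ≤ t ∧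
            ENNReal.ofReal (δ₄ * ρ ^ d) < es (ball x ρ) ∧
            (∀ s, 3 * ρ ≤ s → s ≤ 8 * t → es (ball x s) ≤ ENNReal.ofReal (δ₄ * s ^ d) ∧
              ∫ y in ball x s, |N y - Q| ≤ 4 ^ d * ε * s ^ d ∧
              μ (ball x s) ≤ ENNReal.ofReal (2 * (Q * om d + 4 ^ d * ε + 1) * s ^ d))) := by
  have hom := om_pos d
  have h32 : (1 : ℝ) ≤ 32 ^ d := one_le_pow₀ (by norm_num)
  have h8 : (1 : ℝ) ≤ 8 ^ d := one_le_pow₀ (by norm_num)
  have h4 : (1 : ℝ) ≤ 4 ^ d := one_le_pow₀ (by norm_num)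
  set ε' : ℝ := ε / 32 ^ d with hε'
  have hε'0 : 0 < ε' := by positivity
  have hε'ε : ε' ≤ ε := div_le_self hε.le h32
  have hε'ω : ε' * (1 + 4 ^ d) < om d := lt_of_le_of_lt (by gcongr) hεω
  obtain ⟨a₁, ha1, ha1', b₁, hb1, hb1', hT⟩ := TH1 hSC Q hC₁ hε'0 (hε'ε.trans hε1) hε'ω
  obtain ⟨a₂, ha2, ha2', b₂, hb2, hb2', hCov⟩ := cover hSC Q hC₁ hε hε1 hεω
  obtain ⟨a₃, ha3, ha3', b₃, hb3, hb3', d₃, hd3, hd3', K, hK, hO⟩ :=
    one_scale hSC Q hC₁ hε'0 (hε'ε.trans hε1) hε'ω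
  refine ⟨min a₁ (min a₂ a₃), lt_min ha1 (lt_min ha2 ha3), (min_le_left _ _).trans ha1', b₂, hb2,
    hb2', min b₁ (b₂ / 8 ^ d), lt_min hb1 (by positivity), (min_le_left _ _).trans hb1',
    min d₃ (min b₁ (b₂ / 8 ^ d)), lt_min hd3 (lt_min hb1 (by positivity)), min_le_right _ _, ?_⟩
  intro c₀ g R N μ e es G hc0 hc01 hg0 H c r hr hcR hgr hμ he hes hnear A t hA ht htr hbad
  have hgd3 : g * r ≤ d₃ := hgr.trans (min_le_left _ _)
  have hgb1 : g * r ≤ b₁ := hgr.trans ((min_le_right _ _).trans (min_le_left _ _))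
  have hgb2 : g * r ≤ b₂ := hgr.trans ((min_le_right _ _).trans ((min_le_right _ _).trans
    (div_le_self hb2.le h8)))
  have hδd3 : min d₃ (min b₁ (b₂ / 8 ^ d)) ≤ d₃ := min_le_left _ _
  have hrd : 0 < r ^ d := pow_pos hr d
  obtain ⟨k1, -⟩ := hO c₀ g R N μ e es G hc0 (hc01.trans ((min_le_right _ _).trans (min_le_right _ _)))
    hg0 H c r hr hcR hgd3 hμ (he.trans (ENNReal.ofReal_le_ofReal (by gcongr)))
    (hes.trans (ENNReal.ofReal_le_ofReal (by gcongr))) hnear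
  have hRr : ball c r ⊆ R := (ball_subset_ball (by linarith)).trans hcR
  have hNr := H.int.mono_set hRr
  have hQr : IntegrableOn (fun _ : Eu d => (Q : ℝ)) (ball c r) :=
    integrableOn_const measure_ball_lt_top.ne
  have hNQ : IntegrableOn (fun y => |N y - (Q : ℝ)|) (ball c r) := (hNr.sub hQr).abs
  have hsubx : ∀ x ∈ A, ∀ ρ, ρ ≤ r / 2 → ball x ρ ⊆ ball c r := by
    intro x hx ρ hρ
    refine ball_subset_ball' ?_
    linarith [mem_ball.1 (hA hx)]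
  have hscale : ∀ x ∈ A, ∀ ρ, t ≤ ρ → ρ ≤ r / 2 → ∫ y in ball x ρ, |N y - Q| ≤ 4 ^ d * ε' * ρ ^ d := by
    intro x hx ρ h1 h2
    refine hT c₀ g R N μ e es G hc0 (hc01.trans (min_le_left _ _)) hg0 H x t (r / 2)
      ((hsubx x hx _ le_rfl).trans hRr) ?_ ?_ ?_ ρ (ht.trans_le h1) h1 h2
    · exact le_trans (by nlinarith) hgb1
    · calc ∫ y in ball x (r / 2), |N y - Q| ≤ ∫ y in ball c r, |N y - Q| :=
            setIntegral_mono_set hNQ (Eventually.of_forall fun y => abs_nonneg _)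
              (hsubx x hx _ le_rfl).eventuallyLE
        _ ≤ ε' * (r / 16) ^ d := k1
        _ ≤ ε' * (r / 2) ^ d := by gcongr; linarith
    · intro s hs0 hs1 hs2
      refine (hbad x hx s hs1 hs2).trans (ENNReal.ofReal_le_ofReal ?_)
      gcongr
      exact min_le_left _ _
  have h32a : 4 ^ d * ε' * 8 ^ d = ε := by
    rw [hε']
    have : (32 : ℝ) ^ d = 4 ^ d * 8 ^ d := by rw [← mul_pow]; norm_num
    rw [this]
    field_simp
  have h4ε : 4 ^ d * ε' ≤ ε := by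
    calc 4 ^ d * ε' ≤ 4 ^ d * ε' * 8 ^ d := le_mul_of_one_le_right (by positivity) h8
      _ = ε := h32a
  refine ⟨fun x hx ρ h1 h2 => ?_, ?_⟩
  · have hρ0 : 0 < ρ := ht.trans_le h1
    have h3 := hscale x hx ρ h1 h2
    have h3' : ∫ y in ball x ρ, |N y - Q| ≤ ε * ρ ^ d := h3.trans (by gcongr)
    refine ⟨h3', ?_⟩
    have hR' : ball x ρ ⊆ R := (hsubx x hx ρ h2).trans hRr
    have hN := integral_N_le (Q := Q) hρ0 (H.int.mono_set hR') h3'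
    have h5 : min b₁ (b₂ / 8 ^ d) ≤ 1 := (min_le_left _ _).trans hb1'
    refine (H.μ_le hc0 (hc01.trans ((min_le_left _ _).trans ha1')) measurableSet_ball hR' hN
      (by have := lt_min hb1 (show 0 < b₂ / 8 ^ d by positivity); positivity)
      (hbad x hx ρ h1 h2)).trans (ENNReal.ofReal_le_ofReal ?_)
    have h6 : min b₁ (b₂ / 8 ^ d) * ρ ^ d ≤ 1 * ρ ^ d := by gcongr
    calc 2 * ((Q * om d + ε) * ρ ^ d) + 2 * (min b₁ (b₂ / 8 ^ d) * ρ ^ d)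
        ≤ 2 * ((Q * om d + ε) * ρ ^ d) + 2 * (1 * ρ ^ d) := by linarith
      _ = 2 * (Q * om d + ε + 1) * ρ ^ d := by ring
  · refine hCov c₀ g R N μ e es G hc0 (hc01.trans ((min_le_right _ _).trans (min_le_left _ _))) hg0 H
      A t ht ?_ (fun x hx => (hsubx x hx _ (by linarith)).trans hRr) ?_ ?_
    · exact le_trans (by nlinarith) hgb2
    · intro x hx
      calc ∫ y in ball x (8 * t), |N y - Q| ≤ 4 ^ d * ε' * (8 * t) ^ d :=
            hscale x hx _ (by linarith) (by linarith)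
        _ = 4 ^ d * ε' * 8 ^ d * t ^ d := by rw [mul_pow]; ring
        _ = ε * t ^ d := by rw [h32a]
    · intro x hx
      refine (hbad x hx (8 * t) (by linarith) (by linarith)).trans (ENNReal.ofReal_le_ofReal ?_)
      calc min b₁ (b₂ / 8 ^ d) * (8 * t) ^ d ≤ b₂ / 8 ^ d * (8 * t) ^ d := by
            gcongr
            exact min_le_right _ _
        _ = b₂ * t ^ d := by rw [mul_pow]; field_simp

section varifold

variable {m k : ℕ} {π : Euc k →L[ℝ] Euc m} {W : Measure (Euc k × L k)} {R : Set (Euc m)}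
  {N : Euc m → ℝ≥0∞} {δ h : ℝ} {q : Euc k → ℝ}

set_option maxHeartbeats 800000 in
/-- **THETA for a set of centres** (309). -/
theorem THETA_set (m Q : ℕ) : ∃ σ δ₁ δ₃ δ₄ K : ℝ, 0 < σ ∧ σ ≤ 1 / 4 ∧ 0 < δ₁ ∧ δ₁ ≤ 1 ∧ 0 < δ₃ ∧
    δ₃ ≤ δ₁ ∧ 0 < δ₄ ∧ 0 < K ∧
    ∀ (k : ℕ) (π : Euc k →L[ℝ] Euc m) (W : Measure (Euc k × L k)) (R : Set (Euc m))
      (N : Euc m → ℝ≥0∞) (δ h : ℝ) (q : Euc k → ℝ), Setup π W R N δ h q → δ * h ≤ δ₃ →
      ∀ (c : Euc m) (r : ℝ), 0 < r → ball c (4 * r) ⊆ R → δ * (m + h) * r ≤ δ₃ →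
      W.real ((fun p => π p.1) ⁻¹' ball c (4 * r)) ≤ (Q + 1) * om m * (4 * r) ^ m →
      ∫ p in (fun p => π p.1) ⁻¹' ball c (4 * r), tl π p.2 ∂W ≤ δ₃ * r ^ m →
      |W.real ((fun p => π p.1) ⁻¹' ball c r) - Q * om m * r ^ m| ≤ om m / 4 * r ^ m →
      ∀ (A : Set (Euc m)) (t : ℝ), A ⊆ ball c (r / 2) → 0 < t → t ≤ r / 16 →
        (∀ x ∈ A, ∀ ρ, t ≤ ρ → ρ ≤ r / 2 →
          ∫ p in (fun p => π p.1) ⁻¹' ball x ρ, ws π σ p ∂W ≤ δ₁ * ρ ^ m) →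
      (∀ x ∈ A, ∀ ρ, t ≤ ρ → ρ ≤ r / 2 → ∫ y in ball x ρ, |(N y).toReal - Q| ≤ K * ρ ^ m ∧
        W.real ((fun p => π p.1) ⁻¹' ball x ρ) ≤ K * ρ ^ m) ∧
      (∀ᵐ x, x ∈ A → x ∉ Bad δ₄ t (wM W π (ws π σ)) A → N x = Q) ∧
      (volume (Bad δ₄ t (wM W π (ws π σ)) A)).toReal ≤
        K * ∫ p in (fun p => π p.1) ⁻¹' (⋃ x ∈ A, ball x (2 * t)), ws π σ p ∂W ∧
      (muM W π (Bad δ₄ t (wM W π (ws π σ)) A)).toReal ≤
        K * ∫ p in (fun p => π p.1) ⁻¹' (⋃ x ∈ A, ball x (2 * t)), ws π σ p ∂W ∧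
      (MeasurableSet A → ∫ y in A, |(N y).toReal - Q| ≤
        K * ∫ p in (fun p => π p.1) ⁻¹' (⋃ x ∈ A, ball x (2 * t)), ws π σ p ∂W) := by
  obtain ⟨ε, hε, hε1, hεω⟩ := exists_eps m
  obtain ⟨c₁, hc1, hc1', δ₄, hδ4, hδ4', δ₁, hδ1, hδ1', δ₂, hδ2, hδ21, hT⟩ :=
    set_abs (sc2 m) Q (C₁ := m + 2) (by positivity) hε hε1 hεω
  have hom := om_pos m
  have hQn : (0 : ℝ) ≤ Q := Nat.cast_nonneg Q
  set M₀ : ℝ := (Q + 1) * om m * 4 ^ m with hM₀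
  have hM0 : 0 < M₀ := by positivity
  set δ₃ : ℝ := min (c₁ / 2) (δ₂ / (1 + M₀)) with hδ₃
  have hδ3 : 0 < δ₃ := lt_min (by positivity) (by positivity)
  have hδ3a : δ₃ ≤ c₁ / 2 := min_le_left _ _
  have hδ3b : δ₃ ≤ δ₂ / (1 + M₀) := min_le_right _ _
  have hδ32 : δ₃ ≤ δ₂ := hδ3b.trans (div_le_self hδ2.le (by linarith))
  set K₁ : ℝ := 6 ^ m * (om m + 2 * (Q * om m + 4 ^ m * ε + 1) + 4 ^ m * ε) / δ₄ with hK₁
  set K : ℝ := K₁ + (ε + 2 * (Q * om m + ε + 1)) with hK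
  have hK10 : 0 < K₁ := by positivity
  have hKK1 : K₁ ≤ K := by rw [hK]; have : 0 ≤ ε + 2 * (Q * om m + ε + 1) := by positivity
                           linarith
  have hKε : ε ≤ K := by rw [hK]; have : 0 ≤ 2 * (Q * om m + ε + 1) := by positivity
                         linarith
  have hKm : 2 * (Q * om m + ε + 1) ≤ K := by rw [hK]; linarith
  refine ⟨c₁ / 2, δ₁, δ₃, δ₄, K, by positivity, by linarith, hδ1, hδ1', hδ3, hδ32.trans hδ21, hδ4,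
    by positivity, ?_⟩
  intro k π W R N δ h q hS hδh c r hr hcR hgr hmass htilt hnear A t hA ht htr hbad
  have := hS.fin
  have H := hS.hyp (σ := c₁ / 2) (by positivity)
  have hrm : 0 < r ^ m := pow_pos hr m
  have hsub : ball c r ⊆ ball c (4 * r) := ball_subset_ball (by linarith)
  have hδh0 : 0 ≤ δ * h := mul_nonneg hS.δ_nonneg hS.h_nonneg
  have hμ4 : muM W π (ball c (4 * r)) ≤ ENNReal.ofReal ((Q + 1) * om m * (4 * r) ^ m) := by
    rw [muM_apply W measurableSet_ball, ← ENNReal.ofReal_toReal (measure_ne_top W _)]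
    exact ENNReal.ofReal_le_ofReal hmass
  have he4 : wM W π (we π δ q) (ball c (4 * r)) ≤ ENNReal.ofReal (δ₂ * r ^ m) := by
    refine (hS.we_le htilt hmass).trans (ENNReal.ofReal_le_ofReal ?_)
    have e3 : δ * h * ((Q + 1) * om m * (4 * r) ^ m) ≤ δ₃ * M₀ * r ^ m := by
      rw [hM₀, mul_pow]
      calc δ * h * ((Q + 1) * om m * (4 ^ m * r ^ m)) ≤ δ₃ * ((Q + 1) * om m * (4 ^ m * r ^ m)) := by
            gcongr
        _ = _ := by ring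
    calc _ ≤ δ₃ * r ^ m + δ₃ * M₀ * r ^ m := by linarith
      _ = δ₃ * (1 + M₀) * r ^ m := by ring
      _ ≤ δ₂ / (1 + M₀) * (1 + M₀) * r ^ m := by gcongr
      _ = δ₂ * r ^ m := by field_simp
  have hws0 := hS.ae_ws_nonneg (c₁ / 2)
  have hwsi := hS.integrable_ws (c₁ / 2)
  have hes1 : wM W π (ws π (c₁ / 2)) (ball c r) ≤ ENNReal.ofReal (δ₂ * r ^ m) := by
    refine wM_le hws0 hwsi measurableSet_ball ?_
    calc ∫ p in (fun p => π p.1) ⁻¹' ball c r, ws π (c₁ / 2) p ∂W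
        ≤ ∫ p in (fun p => π p.1) ⁻¹' ball c r, tl π p.2 ∂W :=
          integral_mono_ae hwsi.integrableOn hS.integrable_tl.integrableOn
            (ae_restrict_of_ae (hS.ws_le_tl _))
      _ ≤ ∫ p in (fun p => π p.1) ⁻¹' ball c (4 * r), tl π p.2 ∂W :=
          setIntegral_mono_set hS.integrable_tl.integrableOn (ae_restrict_of_ae hS.ae_tl_nonneg)
            (preimage_mono hsub).eventuallyLE
      _ ≤ δ₃ * r ^ m := htilt
      _ ≤ δ₂ * r ^ m := by gcongr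
  have hnear' : |(muM W π).real (ball c r) - Q * om m * r ^ m| ≤ om m / 4 * r ^ m := by
    rw [measureReal_def, muM_apply W measurableSet_ball]
    exact hnear
  obtain ⟨k1, k2, k3⟩ := hT _ _ R _ _ _ _ _ (by positivity) (by linarith)
    (mul_nonneg hS.δ_nonneg (add_nonneg (Nat.cast_nonneg m) hS.h_nonneg)) H c r hr hcR
    (hgr.trans hδ32) hμ4 he4 hes1 hnear' A t hA ht htr
    (fun x hx ρ h1 h2 => wM_le hws0 hwsi measurableSet_ball (hbad x hx ρ h1 h2))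
  have hBR : ∀ x ∈ A, ball x (8 * t) ⊆ R := by
    intro x hx
    refine (ball_subset_ball' ?_).trans hcR
    linarith [mem_ball.1 (hA hx)]
  obtain ⟨s1, s2, s3⟩ := sums hε hδ4 H ht hBR k2 k3
  have hOm : MeasurableSet (⋃ x ∈ A, ball x (2 * t)) :=
    (isOpen_biUnion fun x _ => isOpen_ball).measurableSet
  have hU : (⋃ x ∈ A, closedBall x t) ⊆ ⋃ x ∈ A, ball x (2 * t) :=
    iUnion₂_mono fun x _ => closedBall_subset_ball (by linarith)
  have hfin : wM W π (ws π (c₁ / 2)) (⋃ x ∈ A, ball x (2 * t)) ≠ ⊤ :=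
    ne_top_of_le_ne_top ENNReal.ofReal_ne_top (wM_le hws0 hwsi hOm le_rfl)
  have hreal : (wM W π (ws π (c₁ / 2)) (⋃ x ∈ A, ball x (2 * t))).toReal =
      ∫ p in (fun p => π p.1) ⁻¹' (⋃ x ∈ A, ball x (2 * t)), ws π (c₁ / 2) p ∂W := by
    rw [← measureReal_def]
    exact wM_real (measurable_ws π _) hws0 hOm
  have hconv : ∀ (a : ℝ≥0∞) (b : ℝ), 0 ≤ b → 6 ^ m * b / δ₄ ≤ K₁ →
      a ≤ ENNReal.ofReal (6 ^ m * b / δ₄) * wM W π (ws π (c₁ / 2)) (⋃ x ∈ A, closedBall x t) →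
      a.toReal ≤ K * ∫ p in (fun p => π p.1) ⁻¹' (⋃ x ∈ A, ball x (2 * t)), ws π (c₁ / 2) p ∂W := by
    intro a b hb hb1 ha
    have h1 : a ≤ ENNReal.ofReal K * wM W π (ws π (c₁ / 2)) (⋃ x ∈ A, ball x (2 * t)) :=
      ha.trans (mul_le_mul' (ENNReal.ofReal_le_ofReal (hb1.trans hKK1)) (measure_mono hU))
    have h2 := ENNReal.toReal_mono (ENNReal.mul_ne_top ENNReal.ofReal_ne_top hfin) h1
    rw [ENNReal.toReal_mul, ENNReal.toReal_ofReal (by positivity), hreal] at h2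
    exact h2
  refine ⟨fun x hx ρ h1 h2 => ?_, ?_, hconv _ _ hom.le ?_ s1,
    hconv _ (2 * (Q * om m + 4 ^ m * ε + 1)) (by positivity) ?_ s2, ?_⟩
  · obtain ⟨i1, i2⟩ := k1 x hx ρ h1 h2
    have hρ0 : 0 < ρ := ht.trans_le h1
    refine ⟨i1.trans (by gcongr), ?_⟩
    rw [muM_apply W measurableSet_ball] at i2
    exact (ENNReal.toReal_le_of_le_ofReal (by positivity) i2).trans (by gcongr)
  · have hlt := hS.area.ae_lt_top hS.co hS.conc hS.isOpen.measurableSet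
    rw [ae_restrict_iff' hS.isOpen.measurableSet] at hlt
    filter_upwards [k2, hlt] with x hx hlx h1 h2
    have h3 := hx h1 h2
    have hxR : x ∈ R := hBR x h1 (mem_ball_self (by positivity))
    rw [← ENNReal.ofReal_toReal (hlx hxR).ne, h3, ENNReal.ofReal_natCast]
  · rw [hK₁]
    gcongr
    linarith [show 0 ≤ 2 * (Q * om m + 4 ^ m * ε + 1) + 4 ^ m * ε by positivity]
  · rw [hK₁]
    gcongr
    linarith [show 0 ≤ 4 ^ m * ε by positivity]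
  · intro hAm
    have hRb : A ⊆ R := fun x hx => hBR x hx (mem_ball_self (by positivity))
    have hfA : volume A ≠ ⊤ := ne_top_of_le_ne_top measure_ball_lt_top.ne (measure_mono hA)
    have hNi := (hS.area.integrableOn hS.co hS.conc hS.isOpen.measurableSet).mono_set hRb
    have hQi : IntegrableOn (fun _ : Euc m => (Q : ℝ)) A := integrableOn_const hfA
    have e1 : ∫ y in A, |(N y).toReal - Q| =
        (∫⁻ y in A, ENNReal.ofReal |(N y).toReal - Q|).toReal := by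
      rw [integral_eq_lintegral_of_nonneg_ae (Eventually.of_forall fun y => abs_nonneg _)]
      exact (hNi.sub hQi).abs.aestronglyMeasurable
    rw [e1]
    refine hconv _ _ (by positivity) ?_ (s3 hAm)
    rw [hK₁]
    gcongr
    linarith [show 0 ≤ om m + 2 * (Q * om m + 4 ^ m * ε + 1) by positivity]

end varifold

end Crest.Agent.R234.Th_164
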