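import Crest.Agent.R234.N0d_309
import Crest.Agent.R234.Th14_164
import Crest.Agent.R234.Pair6_762

/-!
Row 234, node N0 (helper309), file e: the part of `b₁` off the tall set is bounded by `∫_A |S_vv|²`,
`A` = the points over the `h/4`-neighbourhood of the complement of the tall set.
-/

set_option autoImplicit false

open MeasureTheory Filter Topology Set Metric
open scoped ENNReal NNReal

namespace Crest.Agent.R234.N0_309

open Crest.GeometryTopology.Submanifold
open Crest.Agent.R234.Vf_884 Crest.Agent.R234.Ar_870 Crest.Agent.R234.Cy_870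
open Crest.Agent.R234.Rep_387 Crest.Agent.R234.In_947
open Crest.Agent.R234.Pair2_762 (vv vv_nonneg hs_qSr symm_one_sub idem_one_sub continuous_vv)
open Crest.Agent.R234.Pair6_762 (hp hp_mem_G)
open Crest.Agent.R234.Th_164 (ws ws_le measurable_ws ws_nonneg)
open Crest.Agent.R234.N5_372 (eM)

noncomputable section

variable {m n k : ℕ} {π : Euc k →L[ℝ] Euc m} {κ : Euc k →L[ℝ] Euc n}

theorem qq_eq_vv (hs : Split π κ) {P : L k} (hP : P ∈ G m k) : qq π P = vv (hp π) P := by
  have hH := hp_mem_G (m := m) (k := k) hs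
  have h1 := hs_qSr hH hP (symm_one_sub hH) (idem_one_sub hH)
  unfold vv
  rw [h1]
  rfl

theorem qq_nonneg' (hs : Split π κ) {P : L k} (hP : P ∈ G m k) : 0 ≤ qq π P := by
  rw [qq_eq_vv hs hP]
  exact vv_nonneg _ _

theorem tl_sq_le_qq (hs : Split π κ) {P : L k} (hP : P ∈ G m k) :
    tl π P ^ 2 ≤ m * qq π P := by
  rw [Ptv_427.tl_eq_tilt π hP]
  exact Ptv_427.tilt_sq_le (Ptv_427.co_mem_G hs.hh) hP

theorem ws_le_qq (hs : Split π κ) {σ : ℝ} (hσ : 0 < σ) {p : Euc k × L k} (hP : p.2 ∈ G m k) :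
    ws π σ p ≤ m / σ * qq π p.2 := by
  refine (ws_le hσ hs.hh hP).trans ?_
  rw [div_le_iff₀ hσ]
  have h1 := tl_sq_le_qq hs hP
  calc tl π p.2 ^ 2 ≤ m * qq π p.2 := h1
    _ = m / σ * qq π p.2 * σ := by field_simp

variable {Dd : VarifoldData m k} {U : Set (Euc k)} {W₀ : Set (Euc k)} {Q : ℝ}

/-- **`b₁` off the tall set** -/
theorem gamma_le (S : Sheets Dd π) (hD : IsIntegralVarifoldIn U Dd) (hs : Split π κ)
    (hW : MeasurableSet W₀) (hfin : VD Dd (W₀ ×ˢ univ) < ⊤) {σ Kθ t' h : ℝ} (hσ : 0 < σ)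
    (hKθ : 0 ≤ Kθ) (h2t : 2 * t' ≤ h / 4) {B : Set (Euc m)} (hB : MeasurableSet B)
    (hBv : volume B < ⊤) (hh : 0 < h)
    (hth : ∫ x in B, |(S.N W₀ x).toReal - Q| ≤
      Kθ * ∫ p in (fun p : Euc k × L k => π p.1) ⁻¹' (⋃ x ∈ B, ball x (2 * t')), ws π σ p
        ∂((VD Dd).restrict (W₀ ×ˢ univ))) :
    (m / 2 : ℝ) * (∫ p in {p : Euc k × L k | π p.1 ∈ B}, qq π p.2
        ∂((VD Dd).restrict (W₀ ×ˢ univ))) +
      ∫ x in B, max ((S.N W₀ x).toReal - Q) 0 ≤
    (m / 2 + Kθ * (m / σ)) *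
      ∫ p in (fun p : Euc k × L k => π p.1) ⁻¹' (thickening (h / 4) B), vv (hp π) p.2
        ∂((VD Dd).restrict (W₀ ×ˢ univ)) := by
  set W := (VD Dd).restrict (W₀ ×ˢ (univ : Set (L k))) with hWdef
  have hfW : IsFiniteMeasure W := finite_W hfin
  have hconc : ∀ᵐ p ∂W, p.2 ∈ G m k := ae_restrict_of_ae (VD_conc hD)
  set A : Set (Euc k × L k) := (fun p : Euc k × L k => π p.1) ⁻¹' (thickening (h / 4) B)
    with hA
  have hAm : MeasurableSet A :=
    (π.continuous.comp continuous_fst).measurable isOpen_thickening.measurableSet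
  have iq : Integrable (fun p : Euc k × L k => qq π p.2) W :=
    integrableOn_cont hD hfin (continuous_qq π)
  have e1 : ∫ p in A, vv (hp π) p.2 ∂W = ∫ p in A, qq π p.2 ∂W := by
    refine integral_congr_ae ?_
    filter_upwards [ae_restrict_of_ae hconc] with p hp
    exact (qq_eq_vv hs hp).symm
  rw [e1]
  have hq0 : ∀ᵐ p ∂(W.restrict A), 0 ≤ qq π p.2 := by
    filter_upwards [ae_restrict_of_ae hconc] with p hp
    exact qq_nonneg' hs hp
  have h1 : ∫ p in {p : Euc k × L k | π p.1 ∈ B}, qq π p.2 ∂W ≤ ∫ p in A, qq π p.2 ∂W := by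
    refine setIntegral_mono_set iq.integrableOn hq0 (Eventually.of_forall fun p hp => ?_)
    exact self_subset_thickening (by linarith) B hp
  have h2 : ∫ p in (fun p : Euc k × L k => π p.1) ⁻¹' (⋃ x ∈ B, ball x (2 * t')), ws π σ p ∂W ≤
      m / σ * ∫ p in A, qq π p.2 ∂W := by
    have hsub : (fun p : Euc k × L k => π p.1) ⁻¹' (⋃ x ∈ B, ball x (2 * t')) ⊆ A := by
      intro p hp
      obtain ⟨x, hx, hpx⟩ := mem_iUnion₂.1 hp
      exact mem_thickening_iff.2 ⟨x, hx, (mem_ball.1 hpx).trans_le h2t⟩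
    have iws : Integrable (fun p : Euc k × L k => ws π σ p) W := by
      refine Integrable.of_bound (measurable_ws π σ).aestronglyMeasurable m ?_
      filter_upwards [hconc] with p hp
      rw [Real.norm_eq_abs, abs_of_nonneg (ws_nonneg hs.hh hp)]
      have h3 := tl_nonneg hs.hh (isPr_of_G hp)
      have h4 := tl_le hs.hh (isPr_of_G hp)
      unfold ws
      by_cases hs' : p ∈ {p : Euc k × L k | σ < tl π p.2}
      · rw [indicator_of_mem hs']; exact h4
      · rw [indicator_of_notMem hs']; positivity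
    rw [← integral_const_mul]
    calc ∫ p in (fun p : Euc k × L k => π p.1) ⁻¹' (⋃ x ∈ B, ball x (2 * t')), ws π σ p ∂W
        ≤ ∫ p in A, ws π σ p ∂W := by
          refine setIntegral_mono_set iws.integrableOn ?_ (Eventually.of_forall hsub)
          filter_upwards [ae_restrict_of_ae hconc] with p hp
          exact ws_nonneg hs.hh hp
      _ ≤ ∫ p in A, m / σ * qq π p.2 ∂W := by
          refine integral_mono_ae iws.integrableOn (iq.integrableOn.const_mul _) ?_
          filter_upwards [ae_restrict_of_ae hconc] with p hp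
          exact ws_le_qq hs hσ hp
  have h3 : ∫ x in B, max ((S.N W₀ x).toReal - Q) 0 ≤ ∫ x in B, |(S.N W₀ x).toReal - Q| := by
    have i1 := iN1 S hD hs.hh hW hfin hB hBv Q
    refine setIntegral_mono_on i1.pos_part i1.abs hB fun x _ => ?_
    exact max_le (le_abs_self _) (abs_nonneg _)
  have h4 := h3.trans (hth.trans (mul_le_mul_of_nonneg_left h2 hKθ))
  have h5 : (m / 2 : ℝ) * (∫ p in {p : Euc k × L k | π p.1 ∈ B}, qq π p.2 ∂W) ≤
      (m / 2 : ℝ) * ∫ p in A, qq π p.2 ∂W := mul_le_mul_of_nonneg_left h1 (by positivity)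
  calc _ ≤ (m / 2 : ℝ) * (∫ p in A, qq π p.2 ∂W) + Kθ * (m / σ * ∫ p in A, qq π p.2 ∂W) :=
        add_le_add h5 h4
    _ = _ := by ring

end

end Crest.Agent.R234.N0_309
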