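import Crest.Agent.R234.Th7_164

/-!
Row 234, VF-THETA part 8 (helper164): the frozen data, stationary case; the final inequalities
`∫_B |N - Q| ≤ C ∫ tl 1_(tl > σ)` and `|b| ≤ C ∫ tl²`.
-/

set_option autoImplicit false

open Set Filter Topology MeasureTheory Metric
open Crest.GeometryTopology.Submanifold
open Crest.Agent.R234.Vf_884 Crest.Agent.R234.Ar_870 Crest.Agent.R234.Cy_870
open scoped ENNReal NNReal ContDiff InnerProductSpace

noncomputable section

namespace Crest.Agent.R234.Th_164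

variable {m n k : ℕ} {π : Euc k →L[ℝ] Euc m}

/-- the area formula for the frozen data -/
theorem area_VD {U : Set (Euc k)} {D : VarifoldData m k} (hD : IsIntegralVarifoldIn U D)
    (hπ : IsCo π) (S : Sheets D π) {C : Set (Euc k)} (hC : MeasurableSet C) {R : Set (Euc m)}
    (hR : MeasurableSet R) (hfin : VD D ((C ∩ π ⁻¹' R) ×ˢ univ) < ⊤) :
    Area ((VD D).restrict (C ×ˢ univ)) π R (S.N C) where
  meas := S.measurable_N hC
  nat := S.ae_N_nat hD hπ hC hR hfin
  area _ hg _ := S.area_W hC hg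

/-- **`Hyp` in a cylinder, stationary case** -/
theorem hyp_stat {W : Measure (Euc k × L k)} {κ : Euc k →L[ℝ] Euc n} {x₀ : Euc m} {R h₀ : ℝ}
    (h : CylStat W π κ x₀ R h₀) {N : Euc m → ℝ≥0∞} (hN : Area W π (ball x₀ R) N) {σ : ℝ}
    (hσ : 0 ≤ σ) :
    Hyp (m + 2) σ 0 (ball x₀ R) (fun x => (N x).toReal) (muM W π)
      (wM W π (fun p => tl π p.2)) (wM W π (ws π σ)) (wM W π (fun _ => 0)) := by
  have : IsFiniteMeasure W := ⟨h.fin⟩
  have h1 := hyp_of (W := W) (π := π) (R := ball x₀ R) (N := N) (δ := 0) (h := 0) (σ := σ)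
    (q := fun _ => 0) h.sp.hh h.conc isOpen_ball hN le_rfl zero_le_one hσ le_rfl measurable_const
    (fun _ => le_rfl) (Eventually.of_forall fun _ => le_rfl) (by
      intro ξ hξ hξc hξR
      have h2 : FV W (fun p => ContinuousLinearMap.adjoint π (ξ (π p))) = 0 := by
        refine h.stat _ ?_ ?_
        · exact (ContinuousLinearMap.adjoint π).contDiff.comp
            ((hξ.of_le (by exact_mod_cast le_top)).comp π.contDiff)
        · intro p hp
          have h3 : ξ (π p) = 0 := by
            refine image_eq_zero_of_notMem_tsupport fun hm => ?_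
            have h4 := hξR hm
            rw [mem_ball, dist_eq_norm] at h4
            linarith
          rw [h3, map_zero]
      rw [h2]
      simp [wg])
  have e1 : we π 0 (fun _ => 0) = fun p : Euc k × L k => tl π p.2 := by
    funext p; simp [we]
  have e2 : wg π 0 (fun _ => 0) = fun _ : Euc k × L k => (0 : ℝ) := by
    funext p; simp [wg]
  rw [e1, e2] at h1
  simpa using h1

/-- the steep weight is at most `tl² / σ` -/
theorem ws_le {σ : ℝ} (hσ : 0 < σ) (hπ : IsCo π) {p : Euc k × L k} (hp : p.2 ∈ G m k) :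
    ws π σ p ≤ tl π p.2 ^ 2 / σ := by
  have ht := tl_nonneg hπ (isPr_of_G hp)
  unfold ws
  by_cases hs : p ∈ {p : Euc k × L k | σ < tl π p.2}
  · rw [Set.indicator_of_mem hs]
    have hs' : σ < tl π p.2 := hs
    rw [le_div_iff₀ hσ]
    nlinarith
  · rw [Set.indicator_of_notMem hs]
    positivity

theorem ws_nonneg {σ : ℝ} (hπ : IsCo π) {p : Euc k × L k} (hp : p.2 ∈ G m k) : 0 ≤ ws π σ p := by
  have ht := tl_nonneg hπ (isPr_of_G hp)
  unfold ws
  by_cases hs : p ∈ {p : Euc k × L k | σ < tl π p.2}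
  · rw [Set.indicator_of_mem hs]; exact ht
  · rw [Set.indicator_of_notMem hs]

theorem measurable_ws (π : Euc k →L[ℝ] Euc m) (σ : ℝ) :
    Measurable (ws π σ : Euc k × L k → ℝ) :=
  (measurable_tl2 π).indicator (measurableSet_lt measurable_const (measurable_tl2 π))

/-- `|b| ≤ (1/2) ∫ tl² + ∫ |N - Q|` tested with a bounded function -/
theorem abs_b_le {W : Measure (Euc k × L k)} [IsFiniteMeasure W] (hπ : IsCo π)
    (hc : ∀ᵐ p ∂W, p.2 ∈ G m k) {R : Set (Euc m)} (hR : MeasurableSet R) (hRf : volume R ≠ ⊤)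
    {N : Euc m → ℝ≥0∞} (hN : Area W π R N) (Q : ℝ) {f : Euc m → ℝ} (hf : Continuous f)
    (hf1 : ∀ x, |f x| ≤ 1) {B : Set (Euc m)} (hB : MeasurableSet B) (hBR : B ⊆ R)
    (hf0 : ∀ x, x ∉ B → f x = 0) :
    |(∫ p, f (π p.1) ∂W) - Q * (∫ x, f x) - 1 / 2 * ∫ p, tl π p.2 * f (π p.1) ∂W| ≤
      1 / 2 * (∫ p in (fun p => π p.1) ⁻¹' B, tl π p.2 ^ 2 ∂W) + ∫ x in B, |(N x).toReal - Q| := by
  have hfm : Measurable fun p : Euc k × L k => f (π p.1) := hf.measurable.comp (measurable_base π)
  have hJm : Measurable fun p : Euc k × L k => Jh π p.2 :=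
    (continuous_Jh π).measurable.comp measurable_snd
  have hi0 : Integrable (fun p : Euc k × L k => f (π p.1)) W :=
    Integrable.of_bound hfm.aestronglyMeasurable 1 (Eventually.of_forall fun p => hf1 _)
  have hiJ : Integrable (fun p : Euc k × L k => Jh π p.2 * f (π p.1)) W := by
    refine Integrable.of_bound (hJm.mul hfm).aestronglyMeasurable 1 ?_
    filter_upwards [hc] with p hp
    rw [Real.norm_eq_abs, abs_mul, abs_of_nonneg (Jh_nonneg _ _)]
    have h1 := Jh_le_one hπ (isPr_of_G hp)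
    have h2 := hf1 (π p.1)
    have h3 := Jh_nonneg π p.2
    calc Jh π p.2 * |f (π p.1)| ≤ 1 * 1 := by gcongr
      _ = 1 := one_mul 1
  have hit : Integrable (fun p : Euc k × L k => tl π p.2 * f (π p.1)) W := by
    refine Integrable.of_bound ((measurable_tl2 π).mul hfm).aestronglyMeasurable m ?_
    filter_upwards [hc] with p hp
    have h1 := tl_le hπ (isPr_of_G hp)
    have h0 := tl_nonneg hπ (isPr_of_G hp)
    rw [Real.norm_eq_abs, abs_mul, abs_of_nonneg h0]
    calc tl π p.2 * |f (π p.1)| ≤ m * 1 := by gcongr; exact hf1 _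
      _ = m := mul_one _
  have hit2 : Integrable (fun p : Euc k × L k => tl π p.2 ^ 2) W := by
    refine Integrable.of_bound ((measurable_tl2 π).pow_const 2).aestronglyMeasurable (m ^ 2) ?_
    filter_upwards [hc] with p hp
    have h1 := tl_le hπ (isPr_of_G hp)
    have h0 := tl_nonneg hπ (isPr_of_G hp)
    rw [Real.norm_eq_abs, abs_of_nonneg (by positivity)]
    gcongr
  have hNi := hN.integrableOn hπ hc hR
  have hiNf : IntegrableOn (fun x => (N x).toReal * f x) R :=
    hNi.mul_bdd hf.aestronglyMeasurable (Eventually.of_forall fun x => hf1 x)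
  have hQf : IntegrableOn (fun x => Q * f x) R := by
    refine Integrable.const_mul ?_ Q
    exact IntegrableOn.of_bound (lt_top_iff_ne_top.2 hRf) hf.aestronglyMeasurable 1
      (Eventually.of_forall fun x => hf1 x)
  have hQc : IntegrableOn (fun _ : Euc m => Q) R := integrableOn_const hRf
  have e1 : ∫ x, f x = ∫ x in R, f x :=
    (setIntegral_eq_integral_of_forall_compl_eq_zero fun x hx => hf0 x fun h => hx (hBR h)).symm
  have e2 := hN.integral_eq hπ hc hR hf (fun x hx => hf0 x fun h => hx (hBR h)) hf1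
  have hs1 : Integrable (fun p : Euc k × L k => f (π p.1) - Jh π p.2 * f (π p.1)) W := hi0.sub hiJ
  have hit' : Integrable (fun p : Euc k × L k => 1 / 2 * (tl π p.2 * f (π p.1))) W :=
    hit.const_mul _
  have e3 : (∫ p, f (π p.1) ∂W) - Q * (∫ x, f x) - 1 / 2 * ∫ p, tl π p.2 * f (π p.1) ∂W =
      (∫ p, (f (π p.1) - Jh π p.2 * f (π p.1) - 1 / 2 * (tl π p.2 * f (π p.1))) ∂W) +
        ∫ x in R, ((N x).toReal * f x - Q * f x) := by
    rw [integral_sub hs1 hit', integral_sub hi0 hiJ, integral_const_mul,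
      integral_sub hiNf hQf, integral_const_mul, e2, e1]
    ring
  rw [e3]
  refine (abs_add_le _ _).trans (add_le_add ?_ ?_)
  · have hTm : MeasurableSet ((fun p : Euc k × L k => π p.1) ⁻¹' B) := measurable_base π hB
    rw [← integral_indicator hTm, ← integral_const_mul]
    refine abs_integral_le_integral_abs.trans ?_
    refine integral_mono_ae ((hi0.sub hiJ).sub (hit.const_mul _)).abs
      ((hit2.indicator hTm).const_mul _) ?_
    filter_upwards [hc] with p hp
    have h1 := abs_anom_le hπ (isPr_of_G hp)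
    change |f (π p.1) - Jh π p.2 * f (π p.1) - 1 / 2 * (tl π p.2 * f (π p.1))| ≤
      1 / 2 * ((fun p : Euc k × L k => π p.1) ⁻¹' B).indicator (fun p => tl π p.2 ^ 2) p
    have e4 : f (π p.1) - Jh π p.2 * f (π p.1) - 1 / 2 * (tl π p.2 * f (π p.1)) =
        (1 - Jh π p.2 - tl π p.2 / 2) * f (π p.1) := by ring
    rw [e4, abs_mul]
    by_cases hpB : π p.1 ∈ B
    · have hmem : p ∈ (fun p : Euc k × L k => π p.1) ⁻¹' B := hpB
      rw [Set.indicator_of_mem hmem]
      calc |1 - Jh π p.2 - tl π p.2 / 2| * |f (π p.1)| ≤ (tl π p.2 ^ 2 / 2) * 1 := by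
            gcongr
            exact hf1 _
        _ = 1 / 2 * tl π p.2 ^ 2 := by ring
    · have hmem : p ∉ (fun p : Euc k × L k => π p.1) ⁻¹' B := hpB
      rw [Set.indicator_of_notMem hmem, hf0 _ hpB]
      simp
  · refine abs_integral_le_integral_abs.trans ?_
    have e5 : ∫ x in B, |(N x).toReal - Q| = ∫ x in R, B.indicator (fun x => |(N x).toReal - Q|) x := by
      rw [setIntegral_indicator hB, inter_eq_right.2 hBR]
    rw [e5]
    have hNQ : IntegrableOn (fun x => |(N x).toReal - Q|) R := (hNi.sub hQc).abs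
    refine integral_mono (hiNf.sub hQf).abs (hNQ.indicator hB) fun x => ?_
    change |(N x).toReal * f x - Q * f x| ≤ B.indicator (fun x => |(N x).toReal - Q|) x
    rw [← sub_mul, abs_mul]
    by_cases hxB : x ∈ B
    · rw [Set.indicator_of_mem hxB]
      calc |(N x).toReal - Q| * |f x| ≤ |(N x).toReal - Q| * 1 := by gcongr; exact hf1 x
        _ = _ := mul_one _
    · rw [Set.indicator_of_notMem hxB, hf0 x hxB]
      simp

end Crest.Agent.R234.Th_164
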