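import Crest.Agent.R234.N0p_309
import Crest.Agent.R234.Ex3_46
import Crest.Agent.R234.Th8_164

/-!
Row 234, node N0 (helper309), file i: 173's input structure `In` in the class (`InProp`).
-/

set_option autoImplicit false

open MeasureTheory Filter Topology Set Metric
open scoped ENNReal NNReal

namespace Crest.Agent.R234.N0_309

open Crest.GeometryTopology.Submanifold
open Crest.Agent.R234.Vf_884 Crest.Agent.R234.Ar_870 Crest.Agent.R234.Cy_870
open Crest.Agent.R234.Core_809 (Cls part en Yh Lam hOf tOf lamOf)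
open Crest.Agent.R234.Crs_173 (In)
open Crest.Agent.R234.Ex_46

noncomputable section

variable {m n k : ℕ} {π : Euc k →L[ℝ] Euc m} {κ : Euc k →L[ℝ] Euc n} {U : Set (Euc k)}
  {D : VarifoldData m k}

/-- upper mass bound in all balls (46's `ubd` for version 3 of the class) -/
theorem ubd3 (hD : IsIntegralVarifoldIn U D) (sp : Split π κ)
    (dom : cyl π κ 0 5 2 ⊆ U) (hE : ∃ T T' : Euc k → Euc k, Dif T T' ∧
      (∀ z, ‖fderiv ℝ T z - ContinuousLinearMap.id ℝ (Euc k)‖ ≤ 1 / 16) ∧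
      IsStationaryIn (T' ⁻¹' U) (trans T D)) (hm : 1 ≤ m) {K : ℝ}
    (hfin : VD D (cyl π κ 0 5 2 ×ˢ univ) < ⊤)
    (big : (VD D).real (cyl π κ 0 5 2 ×ˢ univ) ≤ K) (z : Euc k) {r : ℝ} (hr : 0 < r) :
    ((VD D).restrict (cyl π κ 0 4 1 ×ˢ univ)).real (closedBall z r ×ˢ univ) ≤ 3 ^ m * K * r ^ m := by
  have hK : 0 ≤ K := measureReal_nonneg.trans big
  have hm5 := Ex_46.measurableSet_cyl π κ 0 5 2
  have h45 : cyl π κ 0 4 1 ⊆ cyl π κ 0 5 2 := fun w hw =>
    ⟨hw.1.trans (by norm_num), hw.2.trans (by norm_num)⟩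
  have hK' : weight D (cyl π κ 0 5 2) ≤ ENNReal.ofReal K := by
    rw [← VD_prod_univ hD hm5]
    exact (ENNReal.le_ofReal_iff_toReal_le hfin.ne hK).2 big
  have hset : (closedBall z r ×ˢ univ : Set (Euc k × L k)) ∩ cyl π κ 0 4 1 ×ˢ univ =
      (closedBall z r ∩ cyl π κ 0 4 1) ×ˢ univ := by
    rw [Set.prod_inter_prod, univ_inter]
  rw [measureReal_def, Measure.restrict_apply (measurableSet_closedBall.prod MeasurableSet.univ),
    hset, VD_prod_univ hD (measurableSet_closedBall.inter (Ex_46.measurableSet_cyl π κ 0 4 1))]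
  refine ENNReal.toReal_le_of_le_ofReal (by positivity) ?_
  rcases (closedBall z r ∩ cyl π κ 0 4 1).eq_empty_or_nonempty with h0 | ⟨z₁, hz₁, hz₁c⟩
  · rw [h0, measure_empty]; exact bot_le
  have hrr : closedBall z r ⊆ closedBall z₁ (2 * r) := by
    refine closedBall_subset_closedBall' ?_
    rw [mem_closedBall, dist_comm] at hz₁
    linarith
  rcases le_or_gt 1 (2 * r) with h1 | h1
  · refine (measure_mono (inter_subset_right.trans h45)).trans (hK'.trans ?_)
    refine ENNReal.ofReal_le_ofReal ?_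
    have h2 : 1 ≤ (3 * r) ^ m := one_le_pow₀ (by linarith)
    calc K = 1 * K := (one_mul K).symm
      _ ≤ (3 * r) ^ m * K := mul_le_mul_of_nonneg_right h2 hK
      _ = _ := by rw [mul_pow]; ring
  · obtain ⟨T, T', hT, hg, hs⟩ := hE
    have hb : ball z₁ 1 ⊆ U :=
      (ball_subset_closedBall.trans (closedBall_subset_cyl sp hz₁c)).trans dom
    have h2 := up_mass hD hT hg hs hm (z := z₁) (by positivity : 0 < 2 * r) h1 hb
    refine (measure_mono (inter_subset_left.trans hrr)).trans (h2.trans ?_)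
    have h3 : weight D (ball z₁ 1) ≤ ENNReal.ofReal K :=
      (measure_mono (ball_subset_closedBall.trans (closedBall_subset_cyl sp hz₁c))).trans hK'
    refine (mul_le_mul_right h3 _).trans ?_
    rw [← ENNReal.ofReal_mul (by positivity)]
    refine ENNReal.ofReal_le_ofReal ?_
    have h4 : ((17 / 15 : ℝ) ^ 2 * (2 * r / 1)) ^ m ≤ (3 * r) ^ m := by
      refine pow_le_pow_left₀ (by positivity) ?_ m
      linarith
    calc ((17 / 15 : ℝ) ^ 2 * (2 * r / 1)) ^ m * K ≤ (3 * r) ^ m * K :=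
          mul_le_mul_of_nonneg_right h4 hK
      _ = _ := by rw [mul_pow]; ring

theorem fin5 {Q : ℕ} {δ d : ℝ} (h : Cls Q δ d π κ U D) :
    VD D (cyl π κ 0 5 2 ×ˢ univ) < ⊤ :=
  VD_fin h.int (isCompact_cyl h.sp 0 5 2) h.dom'

theorem fin4 {Q : ℕ} {δ d : ℝ} (h : Cls Q δ d π κ U D) :
    VD D (cyl π κ 0 4 1 ×ˢ univ) < ⊤ :=
  VD_fin h.int (isCompact_cyl h.sp 0 4 1) h.dom

theorem cylAS_of_cls {Q : ℕ} {δ d : ℝ} (hd1 : d < 1)
    (h : Cls Q δ d π κ U D) : Asl_214.CylAS (part π κ D) π κ 0 4 (√d) δ := by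
  refine Asl_214.cylAS_of_AS h.as h.sp (h₀ := √d) (h₁ := 1) ?_ one_pos h.dom ?_
  · rw [Real.sqrt_lt' one_pos]; linarith
  · filter_upwards [h.hgt] with p hp hpc
    exact Real.le_sqrt_of_sq_le (hp hpc)

/-- **N0-IN** -/
theorem inProp : InProp := by
  intro m n Q hm
  refine ⟨3 ^ m * ((Q + 1) * (ome m * 5 ^ m)), by have := ome_pos m; positivity, ?_⟩
  intro k π κ U Dd δ D hD hD1 hδ hδ1 h S
  exact
    { cyl := cylAS_of_cls hD1 h
      area := by
        have hfin : VD Dd ((cyl π κ 0 4 1 ∩ π ⁻¹' ball 0 4) ×ˢ univ) < ⊤ :=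
          (measure_mono (prod_mono inter_subset_left subset_rfl)).trans_lt (fin4 h)
        exact Th_164.area_VD h.int h.sp.hh S (Ex_46.measurableSet_cyl π κ 0 4 1)
          measurableSet_ball hfin
      mass := h.mass
      ub := fun z r hr _ => ubd3 h.int h.sp h.dom' h.ex hm (fin5 h) h.big z hr
      δ0 := hδ
      hh := Real.sqrt_nonneg _ }

end

end Crest.Agent.R234.N0_309
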