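import Crest.Agent.R234.N0i_309

/-!
Row 234, node N0 (helper309), file q: `N0Prop` from its inputs.
-/

set_option autoImplicit false

open MeasureTheory Filter Topology Set Metric
open scoped ENNReal NNReal

namespace Crest.Agent.R234.N0_309

open Crest.GeometryTopology.Submanifold
open Crest.Agent.R234.Vf_884 Crest.Agent.R234.Ar_870 Crest.Agent.R234.Cy_870
open Crest.Agent.R234.In_947
open Crest.Agent.R234.Rep_387 Crest.Agent.R234.Raw_387
open Crest.Agent.R234.Pair2_762 (vv)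
open Crest.Agent.R234.Pair6_762 (hp)
open Crest.Agent.R234.Th_164 (ws ws_nonneg measurable_ws)
open Crest.Agent.R234.N5_372 (eM)
open Crest.Agent.R234.Core_809 (Cls part en Yh Lam hOf tOf lamOf tauOf blOf dsOf anom N0Prop)
open Crest.Agent.R234.Crs_173 (In)
open Crest.Agent.R234.Loc1_290 (bump)

noncomputable section

variable {m n k : ℕ} {π : Euc k →L[ℝ] Euc m} {κ : Euc k →L[ℝ] Euc n} {U : Set (Euc k)}
  {Dd : VarifoldData m k}

theorem lam_ge {L D : ℝ} (hD : 0 < D) (h : D ≤ Real.exp (-L)) : L ≤ Lam D := by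
  unfold Lam
  rw [one_div, Real.log_inv]
  have := Real.log_le_log hD h
  rw [Real.log_exp] at this
  linarith

/-- numbers of the final estimate -/
theorem real_final {L a Cs D E R v A1 C Kθ K2 δ h ds : ℝ} (hD : 0 < D) (hD1 : D < 1)
    (ha : a = Cs + 1) (hL : 1 ≤ L) (hA1 : 0 ≤ A1) (_hC : 0 ≤ C) (hKθ : 0 ≤ Kθ) (hK2 : 0 ≤ K2)
    (hE0 : 0 ≤ E) (hE : E ≤ D) (hδ : 0 ≤ δ) (hR : δ * E ≤ R)
    (hL2 : 2 * (A1 * C + 7 * K2 + 3 * (1 / 2 + Kθ)) ≤ L)
    (hv : v ≤ C * R + C * (L ^ (-a) * D)) (hh : h = √D * L ^ (-a))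
    (hds : ds ≤ 7 * (δ + L ^ (-a))) :
    1 / 2 * L ^ (-Cs) * D + A1 * v + K2 * ds * E +
      (2 * L ^ (-a) + 3 * (h / 4)) * (1 / 2 * E + Kθ * E) ≤
      (A1 * C + 7 * K2 + 1) * R + L ^ (-Cs) * D := by
  have hL0 : 0 < L := by linarith
  have hP : L ^ (-a) = L ^ (-Cs) * L⁻¹ := by
    rw [ha, neg_add, Real.rpow_add hL0, Real.rpow_neg_one]
  have hp0 : 0 < L ^ (-a) := Real.rpow_pos_of_pos hL0 _
  have hq0 : 0 < L ^ (-Cs) := Real.rpow_pos_of_pos hL0 _
  have hsq : √D ≤ 1 := Real.sqrt_le_one.2 hD1.le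
  have hh1 : h ≤ L ^ (-a) := by
    rw [hh]
    calc √D * L ^ (-a) ≤ 1 * L ^ (-a) := mul_le_mul_of_nonneg_right hsq hp0.le
      _ = _ := one_mul _
  have hR0 : 0 ≤ R := (mul_nonneg hδ hE0).trans hR
  have h1 : A1 * v ≤ A1 * C * R + A1 * C * (L ^ (-a) * D) := by
    have := mul_le_mul_of_nonneg_left hv hA1
    calc A1 * v ≤ A1 * (C * R + C * (L ^ (-a) * D)) := this
      _ = _ := by ring
  have h2 : K2 * ds * E ≤ 7 * K2 * R + 7 * K2 * (L ^ (-a) * D) := by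
    have e1 : ds * E ≤ 7 * (R + L ^ (-a) * D) := by
      calc ds * E ≤ (7 * (δ + L ^ (-a))) * E := mul_le_mul_of_nonneg_right hds hE0
        _ = 7 * (δ * E + L ^ (-a) * E) := by ring
        _ ≤ 7 * (R + L ^ (-a) * D) := by
          have := add_le_add hR (mul_le_mul_of_nonneg_left hE hp0.le)
          linarith
    calc K2 * ds * E = K2 * (ds * E) := by ring
      _ ≤ K2 * (7 * (R + L ^ (-a) * D)) := mul_le_mul_of_nonneg_left e1 hK2
      _ = _ := by ring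
  have h3 : (2 * L ^ (-a) + 3 * (h / 4)) * (1 / 2 * E + Kθ * E) ≤
      3 * (1 / 2 + Kθ) * (L ^ (-a) * D) := by
    have e1 : 2 * L ^ (-a) + 3 * (h / 4) ≤ 3 * L ^ (-a) := by linarith
    have e2 : 1 / 2 * E + Kθ * E ≤ (1 / 2 + Kθ) * D := by
      rw [← add_mul]
      exact mul_le_mul_of_nonneg_left hE (by linarith)
    have e3 : 0 ≤ 1 / 2 * E + Kθ * E := by positivity
    calc _ ≤ (3 * L ^ (-a)) * ((1 / 2 + Kθ) * D) :=
          mul_le_mul e1 e2 e3 (by positivity)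
      _ = _ := by ring
  have h4 : (A1 * C + 7 * K2 + 3 * (1 / 2 + Kθ)) * (L ^ (-a) * D) ≤
      1 / 2 * (L ^ (-Cs) * D) := by
    have e1 : (A1 * C + 7 * K2 + 3 * (1 / 2 + Kθ)) * L⁻¹ ≤ 1 / 2 := by
      rw [← div_eq_mul_inv, div_le_iff₀ hL0]
      linarith
    calc _ = ((A1 * C + 7 * K2 + 3 * (1 / 2 + Kθ)) * L⁻¹) * (L ^ (-Cs) * D) := by
          rw [hP]; ring
      _ ≤ _ := mul_le_mul_of_nonneg_right e1 (by positivity)
  have h5 : (A1 * C + 7 * K2 + 1) * R = A1 * C * R + 7 * K2 * R + R := by ring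
  have h6 : (A1 * C + 7 * K2 + 3 * (1 / 2 + Kθ)) * (L ^ (-a) * D) = A1 * C * (L ^ (-a) * D) +
      7 * K2 * (L ^ (-a) * D) + 3 * (1 / 2 + Kθ) * (L ^ (-a) * D) := by ring
  have h7 : 1 / 2 * L ^ (-Cs) * D = 1 / 2 * (L ^ (-Cs) * D) := by ring
  rw [h5, h7]
  rw [h6] at h4
  linarith

set_option maxHeartbeats 1000000 in
/-- **N0** from its inputs -/
theorem n0Prop_of (hIn : InProp) (hTh : ThetaProp) (hSm : SmallProp) (hVV : VVProp) :
    N0Prop := by
  intro m n Q hm hn hQ K hK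
  have hm1 : 1 ≤ m := by lia
  obtain ⟨C₀, hC₀, hIn⟩ := hIn m n Q hm1
  obtain ⟨σ, Kθ, cθ, hσ, hKθ, hcθ, hTh⟩ := hTh m Q C₀ hm1 hC₀
  obtain ⟨c, hc, hSm⟩ := hSm m n Q hm hn hQ
  obtain ⟨C, hC, hVV⟩ := hVV m Q C₀ c hm1 hC₀ hc
  set cS : ℝ := min cθ c with hcS
  have hcS0 : 0 < cS := lt_min hcθ hc
  set A1 : ℝ := m / 2 + Kθ * (m / σ) with hA1
  have hA10 : 0 ≤ A1 := by positivity
  set K2 : ℝ := K * m / 2 with hK2
  have hK20 : 0 ≤ K2 := by positivity
  refine ⟨cS, A1 * C + 7 * K2 + 1, hcS0, by positivity, fun Cs hCs => ?_⟩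
  set a : ℝ := Cs + 1 with ha
  have ha1 : 1 ≤ a := by linarith
  obtain ⟨D1, hD1, hD11, hTh⟩ := hTh cS a hcS0 (min_le_left _ _) ha1
  obtain ⟨D2, hD2, hD21, hSm⟩ := hSm cS a hcS0 (min_le_right _ _) ha1
  obtain ⟨D3, hD3, hD31, hVV⟩ := hVV a ha1
  set L2 : ℝ := 1 + 2 * (A1 * C + 7 * K2 + 3 * (1 / 2 + Kθ)) with hL2
  refine ⟨min (min D1 D2) (min D3 (Real.exp (-L2))), by positivity,
    (min_le_left _ _).trans_lt ((min_le_left _ _).trans_lt hD11), ?_⟩
  intro k π κ U Dd δ D hD hDD hδ hδ4 hcls S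
  have hDa : D ≤ D1 := hDD.trans ((min_le_left _ _).trans (min_le_left _ _))
  have hDb : D ≤ D2 := hDD.trans ((min_le_left _ _).trans (min_le_right _ _))
  have hDc : D ≤ D3 := hDD.trans ((min_le_right _ _).trans (min_le_left _ _))
  have hDd : D ≤ Real.exp (-L2) := hDD.trans ((min_le_right _ _).trans (min_le_right _ _))
  have hDlt : D < 1 := hDa.trans_lt hD11
  have hL := lam_ge hD hDd
  have hC'0 : 0 ≤ A1 * C + 7 * K2 + 3 * (1 / 2 + Kθ) := by positivity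
  have hL1 : 1 ≤ Lam D := by linarith
  have hL0 : 0 < Lam D := by linarith
  have hδ1 : δ ≤ Lam D ^ (-1 : ℝ) :=
    hδ4.trans (Real.rpow_le_rpow_of_exponent_le hL1 (by norm_num))
  have hδle : δ ≤ 1 := by
    refine hδ1.trans ?_
    rw [Real.rpow_neg_one]
    exact inv_le_one_of_one_le₀ hL1
  have hin := hIn k π κ U Dd δ D hD hDlt hδ hδle hcls S
  obtain ⟨ht1, ht2⟩ := hTh n k π κ (part π κ Dd) _ δ D hD hDa hδ hδ1 hin hcls.en
  have hs := hSm k π κ U Dd δ D hD hDb hδ hδ1 hcls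
  set B : Set (Euc m) := lowSet (part π κ Dd) π cS a D with hB
  have hB1 : B ⊆ closedBall (0 : Euc m) 1 := sdiff_subset
  have hv := hVV n k π κ (part π κ Dd) _ δ D hD hDc hδ hδ1 hin hcls.en B hB1 hs
  have hBm : MeasurableSet B := measurableSet_closedBall.diff measurableSet_tallT
  have hBv : volume B < ⊤ := (measure_mono hB1).trans_lt measure_closedBall_lt_top
  have hWm := Ex_46.measurableSet_cyl π κ 0 4 1
  have hfin4 := fin4 hcls
  have hp0 : 0 < Lam D ^ (-a) := Real.rpow_pos_of_pos hL0 _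
  have hp1 : Lam D ^ (-a) ≤ 1 := Real.rpow_le_one_of_one_le_of_nonpos hL1 (by linarith)
  have hsD : 0 < √D := Real.sqrt_pos.2 hD
  have hsD1 : √D ≤ 1 := Real.sqrt_le_one.2 hDlt.le
  have hh0 : 0 < hOf a D := mul_pos hsD hp0
  have hh1 : hOf a D ≤ Lam D ^ (-a) := by
    calc √D * Lam D ^ (-a) ≤ 1 * Lam D ^ (-a) := mul_le_mul_of_nonneg_right hsD1 hp0.le
      _ = _ := one_mul _
  have hτ0 : 0 < tauOf a D := by unfold tauOf; positivity
  have hconc : ∀ᵐ p ∂(part π κ Dd), p.2 ∈ G m k := ae_restrict_of_ae (VD_conc hcls.int)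
  have hff : IsFiniteMeasure (part π κ Dd) := finite_W hfin4
  have iws : Integrable (fun p : Euc k × L k => ws π σ p) (part π κ Dd) :=
    (Crs_173.integrable_ws hin.cyl σ).1
  have hws0 : ∀ᵐ p ∂(part π κ Dd), 0 ≤ ws π σ p := by
    filter_upwards [hconc] with p hp
    exact ws_nonneg hcls.sp.hh hp
  -- the theta input in the form of `gamma_le`
  have hth : ∫ x in B, |(S.N (Cy_870.cyl π κ 0 4 1) x).toReal - Q| ≤
      Kθ * ∫ p in (fun p : Euc k × L k => π p.1) ⁻¹' (⋃ x ∈ B, ball x (2 * (hOf a D / 8))),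
        ws π σ p ∂(part π κ Dd) := by
    refine ht2.trans (mul_le_mul_of_nonneg_left ?_ hKθ)
    refine setIntegral_mono_set iws.integrableOn (ae_restrict_of_ae hws0)
      (Eventually.of_forall fun p hp => ?_)
    have h1 : cthickening (hOf a D / 8) B ⊆ ⋃ x ∈ B, ball x (2 * (hOf a D / 8)) := by
      rw [← thickening_eq_biUnion_ball]
      exact cthickening_subset_thickening' (by positivity) (by linarith) B
    exact h1 hp
  have hg := gamma_le (κ := κ) (W₀ := Cy_870.cyl π κ 0 4 1) (Q := (Q : ℝ)) S hcls.int hcls.sp hWm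
    hfin4 (σ := σ) (Kθ := Kθ) (t' := hOf a D / 8) (h := hOf a D) hσ hKθ (by linarith)
    hBm hBv hh0 hth
  have hE0 : 0 ≤ en π κ Dd := by
    unfold en
    refine integral_nonneg_of_ae ?_
    filter_upwards [hconc] with p hp
    exact tl_nonneg hcls.sp.hh (isPr_of_G hp)
  have hG3 : ∫ x in closedBall (0 : Euc m) 1,
      max ((S.N (Cy_870.cyl π κ 0 4 1) x).toReal - Q) 0 ≤ Kθ * en π κ Dd := by
    have i1 := iN1 S hcls.int hcls.sp.hh hWm hfin4 (A := closedBall (0 : Euc m) 1)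
      measurableSet_closedBall measure_closedBall_lt_top Q
    refine le_trans ?_ ht1
    exact setIntegral_mono_on i1.pos_part i1.abs measurableSet_closedBall fun x _ =>
      max_le (le_abs_self _) (abs_nonneg _)
  have hds0 : 0 ≤ dsOf a δ D := by
    have h1 : 0 ≤ max δ (Lam D ^ (-a)) := hδ.trans (le_max_left _ _)
    unfold dsOf
    linarith
  have hds1 : dsOf a δ D ≤ 7 * (δ + Lam D ^ (-a)) := by
    have h1 : max δ (Lam D ^ (-a)) ≤ δ + Lam D ^ (-a) := max_le (by linarith) (by linarith)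
    unfold dsOf
    linarith
  have key := out_or (κ := κ) (W₀ := Cy_870.cyl π κ 0 4 1) (Q := (Q : ℝ)) (τ := tauOf a D)
    (bl := blOf a D) (c := K2 * dsOf a δ D) (M := 1 / 2 * Lam D ^ (-Cs) * D)
    (h := hOf a D) (t := tOf a D) (lam := lamOf cS a D)
    S hcls.int hcls.sp hWm hfin4 (by lia) hτ0
    (by unfold tauOf blOf; linarith) hp1 (mul_nonneg hK20 hds0) le_rfl le_rfl hG3
  rcases key with key | key
  · left
    have hR : δ * en π κ Dd ≤ δ * (en π κ Dd + √(en π κ Dd * Yh π κ Dd)) +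
        δ ^ 2 * Yh π κ Dd := by
      have h1 : 0 ≤ Yh π κ Dd := integral_nonneg fun p => sq_nonneg _
      have h2 : 0 ≤ √(en π κ Dd * Yh π κ Dd) := Real.sqrt_nonneg _
      have h3 : δ * en π κ Dd ≤ δ * (en π κ Dd + √(en π κ Dd * Yh π κ Dd)) :=
        mul_le_mul_of_nonneg_left (by linarith) hδ
      have h4 : 0 ≤ δ ^ 2 * Yh π κ Dd := by positivity
      linarith
    have hfinal := real_final (Cs := Cs) (K2 := K2) (h := hOf a D) (ds := dsOf a δ D)
      hD hDlt ha hL1 hA10 hC hKθ hK20 hE0 hcls.en hδ hR (by linarith) hv rfl hds1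
    refine key.trans (le_trans ?_ hfinal)
    exact add_le_add (add_le_add (add_le_add le_rfl hg) le_rfl) le_rfl
  · right
    obtain ⟨ε, hε⟩ := key
    exact ⟨ε, hε⟩

end

end Crest.Agent.R234.N0_309
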