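import Crest.Agent.R234.N5a_372

/-!
Row 234, node N5 (LOCAL) of the core (helper372), part 2: area formula on the base, the measures
`al = a + holes ≥ 0` and `hM` (holes), the lower bound `e ≤ 2 al + qM`, the bound of the anomaly.
-/

set_option autoImplicit false

open MeasureTheory Metric Set Filter Topology
open Crest.GeometryTopology.Submanifold
open Crest.Agent.R234.Vf_884 Crest.Agent.R234.Ar_870 Crest.Agent.R234.Cy_870
open scoped ENNReal NNReal InnerProductSpace

noncomputable section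

namespace Crest.Agent.R234.N5_372

variable {m n k : ℕ} {π : Euc k →L[ℝ] Euc m} {κ : Euc k →L[ℝ] Euc n} {W : Measure (Euc k × L k)}
  {x x₀ : Euc m} {R h₀ : ℝ} {NN : Euc m → ℝ≥0∞} {Q : ℝ≥0∞} {B : Set (Euc m)}

/-- `π_# (Jh W) = NN dx` on `B`. -/
structure AreaAt (W : Measure (Euc k × L k)) (π : Euc k →L[ℝ] Euc m) (NN : Euc m → ℝ≥0∞)
    (B : Set (Euc m)) : Prop where
  meas : Measurable NN
  mB : MeasurableSet B
  area : (bm W π (Jh π)).restrict B = (volume.withDensity NN).restrict B

theorem AreaAt.mono (h : AreaAt W π NN B) {A : Set (Euc m)} (hA : MeasurableSet A) (hAB : A ⊆ B) :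
    AreaAt W π NN A where
  meas := h.meas
  mB := hA
  area := by
    have h1 := congrArg (fun μ : Measure (Euc m) => μ.restrict A) h.area
    simp only [Measure.restrict_restrict hA, inter_eq_self_of_subset_left hAB] at h1
    exact h1

/-- the mass on the base. -/
def mM (W : Measure (Euc k × L k)) (π : Euc k →L[ℝ] Euc m) : Measure (Euc m) :=
  W.map fun p => π p.1

/-- excess plus holes: a positive measure. -/
def al (W : Measure (Euc k × L k)) (π : Euc k →L[ℝ] Euc m) (NN : Euc m → ℝ≥0∞) (Q : ℝ≥0∞) :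
    Measure (Euc m) :=
  bm W π (fun P => 1 - Jh π P) + volume.withDensity fun x => NN x - Q

/-- holes. -/
def hM (NN : Euc m → ℝ≥0∞) (Q : ℝ≥0∞) : Measure (Euc m) := volume.withDensity fun x => Q - NN x

theorem measurable_of_cont {c : L k → ℝ} (hc : Continuous c) :
    Measurable fun p : Euc k × L k => c p.2 := hc.measurable.comp measurable_snd

theorem bm_integral {c : L k → ℝ} (hc : Continuous c) (h0 : ∀ᵐ p ∂W, 0 ≤ c p.2)
    {φ : Euc m → ℝ} (hφ : Measurable φ) :
    ∫ z, φ z ∂(bm W π c) = ∫ p, c p.2 * φ (π p.1) ∂W := by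
  unfold bm
  rw [integral_map (measurable_base π).aemeasurable hφ.aestronglyMeasurable,
    integral_withDensity_eq_integral_toReal_smul (measurable_of_cont hc).ennreal_ofReal
      (Eventually.of_forall fun _ => ENNReal.ofReal_lt_top)]
  refine integral_congr_ae ?_
  filter_upwards [h0] with p hp
  simp only [smul_eq_mul, ENNReal.toReal_ofReal hp]

theorem bm_mono {c c' : L k → ℝ} (h : ∀ᵐ p ∂W, c p.2 ≤ c' p.2) (A : Set (Euc m)) :
    bm W π c A ≤ bm W π c' A := by
  unfold bm
  refine Measure.map_mono ?_ (measurable_base π) A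
  refine withDensity_mono ?_
  filter_upwards [h] with p hp
  exact ENNReal.ofReal_le_ofReal hp

theorem mM_apply {A : Set (Euc m)} (hA : MeasurableSet A) : mM W π A = W (ov π A) := by
  unfold mM
  rw [Measure.map_apply (measurable_base π) hA]
  rfl

theorem Jh_bounds (h : CF W π κ x₀ R) :
    ∀ᵐ p ∂W, 0 ≤ Jh π p.2 ∧ Jh π p.2 ≤ 1 ∧ 0 ≤ tl π p.2 ∧ tl π p.2 ≤ m ∧
      1 - Jh π p.2 ≤ tl π p.2 ∧ |1 - Jh π p.2 - tl π p.2 / 2| ≤ tl π p.2 ^ 2 / 2 := by
  filter_upwards [h.conc] with p hp
  have hPr := isPr_of_G hp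
  exact ⟨Jh_nonneg _ _, Jh_le_one h.sp.hh hPr, tl_nonneg h.sp.hh hPr, tl_le h.sp.hh hPr,
    one_sub_Jh_le h.sp.hh hPr, abs_anom_le h.sp.hh hPr⟩

theorem continuous_tl (π : Euc k →L[ℝ] Euc m) : Continuous (tl π : L k → ℝ) := measurable_tl π

theorem bm_le_mM {c : L k → ℝ} {C : ℝ} (h : ∀ᵐ p ∂W, c p.2 ≤ C) {A : Set (Euc m)}
    (hA : MeasurableSet A) : bm W π c A ≤ ENNReal.ofReal C * mM W π A := by
  rw [bm_apply _ _ _ hA, mM_apply hA, ← setLIntegral_const]
  refine setLIntegral_mono_ae' (measurableSet_ov hA) ?_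
  filter_upwards [h] with p hp _
  exact ENNReal.ofReal_le_ofReal hp

theorem mM_eq (h : CF W π κ x₀ R) {A : Set (Euc m)} (hA : MeasurableSet A) :
    mM W π A = bm W π (fun P => 1 - Jh π P) A + bm W π (Jh π) A := by
  have hm1 : Measurable fun p : Euc k × L k => ENNReal.ofReal (1 - Jh π p.2) :=
    (measurable_of_cont (c := fun P => 1 - Jh π P)
      (continuous_const.sub (continuous_Jh π))).ennreal_ofReal
  rw [bm_apply _ _ _ hA, bm_apply _ _ _ hA, mM_apply hA, ← lintegral_add_left hm1]
  have h1 : ∀ᵐ p ∂(W.restrict (ov π A)),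
      ENNReal.ofReal (1 - Jh π p.2) + ENNReal.ofReal (Jh π p.2) = 1 := by
    filter_upwards [ae_restrict_of_ae (Jh_bounds h)] with p hp
    rw [← ENNReal.ofReal_add (by linarith [hp.2.1]) hp.1]
    simp
  rw [lintegral_congr_ae h1, lintegral_one, Measure.restrict_apply_univ]

theorem al_add (h : CF W π κ x₀ R) (ha : AreaAt W π NN B) {A : Set (Euc m)}
    (hA : MeasurableSet A) (hAB : A ⊆ B) :
    al W π NN Q A + Q * volume A = mM W π A + hM NN Q A := by
  have h1 : bm W π (Jh π) A = ∫⁻ x in A, NN x := by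
    have h2 := congrArg (fun μ : Measure (Euc m) => μ A) ha.area
    simp only [Measure.restrict_apply hA, inter_eq_self_of_subset_left hAB,
      withDensity_apply _ hA] at h2
    exact h2
  unfold al hM
  have hm1 : Measurable fun x => NN x - Q := ha.meas.sub measurable_const
  rw [Measure.add_apply, withDensity_apply _ hA, withDensity_apply _ hA, mM_eq h hA, h1, add_assoc,
    add_assoc, ← setLIntegral_const, ← lintegral_add_left hm1, ← lintegral_add_left ha.meas]
  congr 2
  funext x
  rw [tsub_add_eq_max, add_comm, tsub_add_eq_max, max_comm]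

/-- `al` is at most the tilt energy plus the folds. -/
theorem al_le (h : CF W π κ x₀ R) {A : Set (Euc m)} (hA : MeasurableSet A) :
    al W π NN Q A ≤ eM W π A + ∫⁻ x in A, (NN x - Q) := by
  unfold al eM
  rw [Measure.add_apply, withDensity_apply _ hA]
  refine add_le_add ?_ le_rfl
  refine bm_mono ?_ A
  filter_upwards [Jh_bounds h] with p hp
  exact hp.2.2.2.2.1

/-- LOW: `e ≤ 2 al + qM`. -/
theorem eM_le (h : CF W π κ x₀ R) {A : Set (Euc m)} (hA : MeasurableSet A) :
    eM W π A ≤ 2 * al W π NN Q A + qM W π A := by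
  have h1 : eM W π A ≤ 2 * bm W π (fun P => 1 - Jh π P) A + qM W π A := by
    unfold eM qM
    have hm1 : Measurable fun p : Euc k × L k => 2 * ENNReal.ofReal (1 - Jh π p.2) :=
      ((measurable_of_cont (c := fun P => 1 - Jh π P)
        (continuous_const.sub (continuous_Jh π))).ennreal_ofReal).const_mul _
    rw [bm_apply _ _ _ hA, bm_apply _ _ _ hA, bm_apply _ _ _ hA, ← lintegral_const_mul' _ _ (by simp),
      ← lintegral_add_left hm1]
    refine setLIntegral_mono_ae' (measurableSet_ov hA) ?_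
    filter_upwards [Jh_bounds h] with p hp _
    have h2 : (2:ℝ≥0∞) = ENNReal.ofReal 2 := by simp
    rw [h2, ← ENNReal.ofReal_mul (by norm_num), ← ENNReal.ofReal_add (by linarith [hp.2.1])
      (sq_nonneg _)]
    refine ENNReal.ofReal_le_ofReal ?_
    have := (abs_le.1 hp.2.2.2.2.2).1
    linarith
  refine h1.trans (add_le_add ?_ le_rfl)
  refine mul_le_mul_right ?_ _
  unfold al
  rw [Measure.add_apply]
  exact le_self_add

/-- the anomaly of a test function is bounded by the quartic energy and `|N - Q|`. -/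
theorem abs_anomaly_le (h : CF W π κ x₀ R) {Qr : ℝ}
    (ha : AreaAt W π NN B) (hfin : volume B < ⊤)
    {φ : Euc m → ℝ} (hφ : Measurable φ) (h1 : ∀ z, |φ z| ≤ 1) (h0 : ∀ z, z ∉ B → φ z = 0) :
    |(∫ p, φ (π p.1) ∂W) - Qr * (∫ z, φ z) - (1 / 2) * (∫ p, tl π p.2 * φ (π p.1) ∂W)| ≤
      (1 / 2) * (qM W π B).toReal + ∫ z in B, |(NN z).toReal - Qr| := by
  have hfW : IsFiniteMeasure W := ⟨h.fin⟩
  have hφm : Measurable fun p : Euc k × L k => φ (π p.1) := hφ.comp (measurable_base π)
  -- integrability on W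
  have hi : ∀ {c : L k → ℝ} {C : ℝ}, Continuous c → (∀ᵐ p ∂W, |c p.2| ≤ C) →
      Integrable (fun p => c p.2 * φ (π p.1)) W := by
    intro c C hc hC
    refine Integrable.of_bound ((measurable_of_cont hc).mul hφm).aestronglyMeasurable C ?_
    filter_upwards [hC] with p hp
    rw [norm_mul]
    calc ‖c p.2‖ * ‖φ (π p.1)‖ ≤ C * 1 := mul_le_mul hp (h1 _) (norm_nonneg _)
          ((abs_nonneg _).trans hp)
      _ = C := mul_one C
  have hbJ : ∀ᵐ p ∂W, |Jh π p.2| ≤ 1 := by
    filter_upwards [Jh_bounds h] with p hp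
    rw [abs_of_nonneg hp.1]; exact hp.2.1
  have hbt : ∀ᵐ p ∂W, |tl π p.2| ≤ m := by
    filter_upwards [Jh_bounds h] with p hp
    rw [abs_of_nonneg hp.2.2.1]; exact hp.2.2.2.1
  have iJ := hi (continuous_Jh π) hbJ
  have it := hi (continuous_tl π) hbt
  have i1 : Integrable (fun p : Euc k × L k => φ (π p.1)) W := by
    have := hi (c := fun _ => 1) (C := 1) continuous_const (Eventually.of_forall fun _ => by simp)
    simpa using this
  -- the area formula
  have hbJB : bm W π (Jh π) B < ⊤ := by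
    refine lt_of_le_of_lt (bm_le_mM (C := 1) ?_ ha.mB) ?_
    · filter_upwards [Jh_bounds h] with p hp using hp.2.1
    · rw [mM_apply ha.mB]
      simp
  have hNB : ∫⁻ x in B, NN x < ⊤ := by
    have h2 := congrArg (fun μ : Measure (Euc m) => μ B) ha.area
    simp only [Measure.restrict_apply ha.mB, inter_self, withDensity_apply _ ha.mB] at h2
    rw [← h2]; exact hbJB
  have hNfin : ∀ᵐ x ∂(volume.restrict B), NN x < ⊤ :=
    ae_lt_top ha.meas hNB.ne
  have hNint : IntegrableOn (fun z => (NN z).toReal) B := by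
    refine ⟨ha.meas.ennreal_toReal.aestronglyMeasurable, ?_⟩
    rw [hasFiniteIntegral_iff_norm]
    refine lt_of_le_of_lt (lintegral_mono fun z => ?_) hNB
    rw [Real.norm_of_nonneg ENNReal.toReal_nonneg]
    exact ENNReal.ofReal_toReal_le
  have harea : ∫ p, Jh π p.2 * φ (π p.1) ∂W = ∫ z in B, (NN z).toReal * φ z := by
    rw [← bm_integral (continuous_Jh π) (by filter_upwards [Jh_bounds h] with p hp using hp.1) hφ]
    have h2 : ∫ z, φ z ∂(bm W π (Jh π)) = ∫ z in B, φ z ∂(bm W π (Jh π)) :=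
      (setIntegral_eq_integral_of_forall_compl_eq_zero fun z hz => h0 z hz).symm
    rw [h2, ha.area, restrict_withDensity ha.mB,
      integral_withDensity_eq_integral_toReal_smul ha.meas hNfin]
    simp only [smul_eq_mul]
  have hQi : Qr * ∫ z, φ z = ∫ z in B, Qr * φ z := by
    rw [integral_const_mul]
    congr 1
    exact (setIntegral_eq_integral_of_forall_compl_eq_zero fun z hz => h0 z hz).symm
  have hφB : IntegrableOn φ B := by
    refine IntegrableOn.of_bound hfin hφ.aestronglyMeasurable 1 ?_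
    exact Eventually.of_forall h1
  have hNφ : IntegrableOn (fun z => (NN z).toReal * φ z) B :=
    hNint.mul_bdd hφ.aestronglyMeasurable (Eventually.of_forall h1)
  have e1 : (∫ p, φ (π p.1) ∂W) - Qr * (∫ z, φ z) - (1 / 2) * (∫ p, tl π p.2 * φ (π p.1) ∂W) =
      (∫ p, (1 - Jh π p.2 - tl π p.2 / 2) * φ (π p.1) ∂W) +
        ∫ z in B, ((NN z).toReal - Qr) * φ z := by
    have e2 : ∫ p, (1 - Jh π p.2 - tl π p.2 / 2) * φ (π p.1) ∂W =
        ∫ p, φ (π p.1) ∂W - ∫ p, Jh π p.2 * φ (π p.1) ∂W -
          (1 / 2) * ∫ p, tl π p.2 * φ (π p.1) ∂W := by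
      have i4 : Integrable (fun p : Euc k × L k => φ (π p.1) - Jh π p.2 * φ (π p.1)) W :=
        i1.sub iJ
      have i5 : Integrable (fun p : Euc k × L k => 1 / 2 * (tl π p.2 * φ (π p.1))) W :=
        it.const_mul _
      rw [← integral_const_mul, ← integral_sub i1 iJ, ← integral_sub i4 i5]
      refine integral_congr_ae (Eventually.of_forall fun p => ?_)
      simp only
      ring
    have e3 : ∫ z in B, ((NN z).toReal - Qr) * φ z =
        (∫ z in B, (NN z).toReal * φ z) - ∫ z in B, Qr * φ z := by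
      have i6 : IntegrableOn (fun z => Qr * φ z) B := hφB.const_mul _
      rw [← integral_sub hNφ i6]
      refine integral_congr_ae (Eventually.of_forall fun p => ?_)
      simp only
      ring
    rw [hQi, e2, e3, harea]
    ring
  rw [e1]
  refine (abs_add_le _ _).trans (add_le_add ?_ ?_)
  · have h2 : |∫ p, (1 - Jh π p.2 - tl π p.2 / 2) * φ (π p.1) ∂W| ≤
        ∫ p in ov π B, tl π p.2 ^ 2 / 2 ∂W := by
      have h3 : ∫ p, (1 - Jh π p.2 - tl π p.2 / 2) * φ (π p.1) ∂W =
          ∫ p in ov π B, (1 - Jh π p.2 - tl π p.2 / 2) * φ (π p.1) ∂W := by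
        refine (setIntegral_eq_integral_of_forall_compl_eq_zero fun p hp => ?_).symm
        rw [h0 _ hp, mul_zero]
      rw [h3]
      have i2 : Integrable (fun p : Euc k × L k => tl π p.2 ^ 2 / 2) W := by
        refine Integrable.of_bound (((continuous_tl π).comp continuous_snd).pow 2
          |>.div_const 2).aestronglyMeasurable ((m:ℝ) ^ 2 / 2) ?_
        filter_upwards [hbt] with p hp
        rw [Real.norm_eq_abs, abs_div, abs_pow, abs_two]
        gcongr
      rw [← Real.norm_eq_abs]
      refine norm_integral_le_of_norm_le i2.integrableOn ?_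
      filter_upwards [ae_restrict_of_ae (Jh_bounds h)] with p hp
      rw [norm_mul]
      calc ‖1 - Jh π p.2 - tl π p.2 / 2‖ * ‖φ (π p.1)‖ ≤ (tl π p.2 ^ 2 / 2) * 1 :=
            mul_le_mul hp.2.2.2.2.2 (h1 _) (norm_nonneg _) (by positivity)
        _ = _ := mul_one _
    refine h2.trans (le_of_eq ?_)
    have h4 : (qM W π B).toReal = ∫ p in ov π B, tl π p.2 ^ 2 ∂W := by
      unfold qM
      rw [bm_apply _ _ _ ha.mB, integral_eq_lintegral_of_nonneg_ae
        (Eventually.of_forall fun p => sq_nonneg _)]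
      exact (((continuous_tl π).comp continuous_snd).pow 2).aestronglyMeasurable
    rw [h4, ← integral_const_mul]
    refine integral_congr_ae (Eventually.of_forall fun p => ?_)
    simp only
    ring
  · rw [← Real.norm_eq_abs]
    have i3 : IntegrableOn (fun z => |(NN z).toReal - Qr|) B := by
      have : IntegrableOn (fun z => (NN z).toReal - Qr) B :=
        hNint.sub (integrableOn_const (hs := hfin.ne))
      exact this.abs
    refine norm_integral_le_of_norm_le i3 (Eventually.of_forall fun z => ?_)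
    rw [norm_mul]
    calc ‖(NN z).toReal - Qr‖ * ‖φ z‖ ≤ |(NN z).toReal - Qr| * 1 :=
          mul_le_mul le_rfl (h1 _) (norm_nonneg _) (abs_nonneg _)
      _ = _ := mul_one _

end Crest.Agent.R234.N5_372
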