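import Crest.Agent.R234.Proj3_929

/-! Row 234, VF-PROJ (task 1505), part 4: `SC1` does not depend on the orthonormal basis and is
invariant under isometries; the results for a subspace `L` of the base. -/

namespace Crest.Agent.R234.Proj_929

open MeasureTheory Set Metric Crest.Agent.R234.Rig_300
open scoped ENNReal

set_option linter.unusedSectionVars false

noncomputable section

universe u

variable {F G G' : Type*} [NormedAddCommGroup F] [InnerProductSpace ℝ F] [FiniteDimensional ℝ F]
  [NormedAddCommGroup G] [InnerProductSpace ℝ G] [FiniteDimensional ℝ G]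
  [NormedAddCommGroup G'] [InnerProductSpace ℝ G'] [FiniteDimensional ℝ G']
  {I J : Type*} [Fintype I] [Fintype J]

theorem sum_basis (b : OrthonormalBasis I ℝ G) (b' : OrthonormalBasis J ℝ G)
    (B : G →L[ℝ] G →L[ℝ] ℝ) : ∑ i, B (b i) (b i) = ∑ j, B (b' j) (b' j) := by
  have h1 : ∀ i, B (b i) (b i) = ∑ j, inner ℝ (b' j) (b i) * B (b i) (b' j) := by
    intro i
    have h := b'.sum_repr' (b i)
    calc B (b i) (b i) = B (b i) (∑ j, inner ℝ (b' j) (b i) • b' j) := by rw [h]
      _ = _ := by simp [map_sum]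
  have h2 : ∀ j, B (b' j) (b' j) = ∑ i, inner ℝ (b' j) (b i) * B (b i) (b' j) := by
    intro j
    have h := b.sum_repr' (b' j)
    calc B (b' j) (b' j) = B (∑ i, inner ℝ (b i) (b' j) • b i) (b' j) := by rw [h]
      _ = ∑ i, inner ℝ (b i) (b' j) * B (b i) (b' j) := by
          simp [map_sum]
      _ = _ := by
          refine Finset.sum_congr rfl fun i _ => ?_
          rw [real_inner_comm]
  simp only [h1, h2]
  exact Finset.sum_comm

theorem lap_basis (b : OrthonormalBasis I ℝ G) (b' : OrthonormalBasis J ℝ G) (U : G → ℝ) :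
    lap b U = lap b' U := by
  funext x
  exact sum_basis b b' _

theorem d2_comp (T : G ≃ₗᵢ[ℝ] G') {U : G' → ℝ} (hU : ContDiff ℝ (⊤ : ℕ∞) U) (y v w : G) :
    fderiv ℝ (fderiv ℝ (U ∘ T)) y v w = fderiv ℝ (fderiv ℝ U) (T y) (T v) (T w) := by
  have hT : ∀ y, HasFDerivAt (T : G → G') (T.toContinuousLinearEquiv : G →L[ℝ] G') y :=
    fun y => T.toContinuousLinearEquiv.hasFDerivAt
  have h1 : fderiv ℝ (U ∘ T) = fun y => (fderiv ℝ U (T y)).comp
      (T.toContinuousLinearEquiv : G →L[ℝ] G') := by
    funext y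
    exact (((hU.differentiable (by simp) (T y)).hasFDerivAt).comp y (hT y)).fderiv
  have h2 : HasFDerivAt (fun y => fderiv ℝ U (T y)) _ y :=
    (((dU_contDiff hU).differentiable (by simp) (T y)).hasFDerivAt).comp y (hT y)
  have h3 := h2.clm_comp (hasFDerivAt_const (T.toContinuousLinearEquiv : G →L[ℝ] G') y)
  rw [h1, h3.fderiv]
  simp

theorem d1_comp (T : G ≃ₗᵢ[ℝ] G') {U : G' → ℝ} (hU : ContDiff ℝ (⊤ : ℕ∞) U) (y v : G) :
    fderiv ℝ (U ∘ T) y v = fderiv ℝ U (T y) (T v) := by
  have hT : HasFDerivAt (T : G → G') (T.toContinuousLinearEquiv : G →L[ℝ] G') y :=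
    T.toContinuousLinearEquiv.hasFDerivAt
  rw [(((hU.differentiable (by simp) (T y)).hasFDerivAt).comp y hT).fderiv]
  rfl

theorem d1_norm (T : G ≃ₗᵢ[ℝ] G') {U : G' → ℝ} (hU : ContDiff ℝ (⊤ : ℕ∞) U) (y : G) :
    ‖fderiv ℝ (U ∘ T) y‖ ≤ ‖fderiv ℝ U (T y)‖ := by
  refine ContinuousLinearMap.opNorm_le_bound _ (norm_nonneg _) fun v => ?_
  rw [d1_comp T hU]
  refine (ContinuousLinearMap.le_opNorm _ _).trans ?_
  rw [T.norm_map]

theorem d2_norm (T : G ≃ₗᵢ[ℝ] G') {U : G' → ℝ} (hU : ContDiff ℝ (⊤ : ℕ∞) U) (y : G) :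
    ‖fderiv ℝ (fderiv ℝ (U ∘ T)) y‖ ≤ ‖fderiv ℝ (fderiv ℝ U) (T y)‖ := by
  refine ContinuousLinearMap.opNorm_le_bound _ (ContinuousLinearMap.opNorm_nonneg _) fun v => ?_
  refine ContinuousLinearMap.opNorm_le_bound _
    (mul_nonneg (ContinuousLinearMap.opNorm_nonneg _) (norm_nonneg _)) fun w => ?_
  rw [d2_comp T hU]
  refine (ContinuousLinearMap.le_opNorm _ _).trans ?_
  rw [T.norm_map]
  gcongr
  refine (ContinuousLinearMap.le_opNorm _ _).trans ?_
  rw [T.norm_map]

variable [MeasurableSpace F] [BorelSpace F] [MeasurableSpace G] [BorelSpace G]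
  [MeasurableSpace G'] [BorelSpace G']

/-- `SC1` is invariant under isometries and independent of the basis. -/
theorem SC1.congr {b' : OrthonormalBasis J ℝ G'} (h : SC1 b') (T : G ≃ₗᵢ[ℝ] G')
    (b : OrthonormalBasis I ℝ G) : SC1 b := by
  obtain ⟨C, hC, h⟩ := h
  refine ⟨C, hC, ?_⟩
  intro A Em Gm _ _ _ x₀ r M δ hr hδ hδM hA hE hG hH S hS hSr
  have hTm : Measurable (T : G → G') := T.continuous.measurable
  have hTe : MeasurableEmbedding (T : G → G') := T.toHomeomorph.measurableEmbedding
  have hfA : IsFiniteMeasure (A.map T) := inferInstance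
  have hfE : IsFiniteMeasure (Em.map T) := inferInstance
  have hfG : IsFiniteMeasure (Gm.map T) := inferInstance
  have hb : ∀ ρ, (T : G → G') ⁻¹' ball (T x₀) ρ = ball x₀ ρ := fun ρ => T.isometry.preimage_ball _ _
  have hm : ∀ (μ : Measure G) ρ, μ.map T (ball (T x₀) ρ) = μ (ball x₀ ρ) := by
    intro μ ρ
    rw [Measure.map_apply hTm measurableSet_ball, hb]
  have key := h (A.map T) (Em.map T) (Gm.map T) (T x₀) r M δ hr hδ hδM
    (by rw [hm]; exact hA) (by rw [hm]; exact hE) (by rw [hm]; exact hG) (by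
      intro U hU hUc hUs
      have hU' : ContDiff ℝ (⊤ : ℕ∞) (U ∘ T) := hU.comp T.contDiff
      have hUc' : HasCompactSupport (U ∘ T) := hUc.comp_homeomorph T.toHomeomorph
      have hUs' : tsupport (U ∘ T) ⊆ ball x₀ (4 * r) := by
        rw [← hb]
        refine closure_minimal (fun y hy => ?_) ?_ |>.trans (preimage_mono hUs)
        · exact subset_tsupport U hy
        · exact (isClosed_tsupport U).preimage T.continuous
      have h1 := hH (U ∘ T) hU' hUc' hUs'
      have e1 : ∫ y, lap b' U y ∂(A.map T) = ∫ y, lap b (U ∘ T) y ∂A := by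
        rw [hTe.integral_map]
        refine integral_congr_ae (Filter.Eventually.of_forall fun y => ?_)
        show lap b' U (T y) = lap b (U ∘ T) y
        rw [lap_basis b' (b.map T)]
        refine Finset.sum_congr rfl fun i _ => ?_
        rw [d2_comp T hU, b.map_apply]
      have c1 : Continuous (fun y => ‖fderiv ℝ U y‖) := (hU.continuous_fderiv (by simp)).norm
      have c2 : Continuous (fun y => ‖fderiv ℝ (fderiv ℝ U) y‖) :=
        ((dU_contDiff hU).continuous_fderiv (by simp)).norm
      have s1 : HasCompactSupport (fun y => ‖fderiv ℝ U y‖) := (hUc.fderiv ℝ).norm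
      have s2 : HasCompactSupport (fun y => ‖fderiv ℝ (fderiv ℝ U) y‖) := d2_compact hUc
      have f1 : Integrable (fun y => ‖fderiv ℝ U (T y)‖) Gm :=
        (c1.comp T.continuous).integrable_of_hasCompactSupport (s1.comp_homeomorph T.toHomeomorph)
      have f2 : Integrable (fun y => ‖fderiv ℝ (fderiv ℝ U) (T y)‖) Em :=
        (c2.comp T.continuous).integrable_of_hasCompactSupport (s2.comp_homeomorph T.toHomeomorph)
      rw [e1, hTe.integral_map, hTe.integral_map]
      refine h1.trans (add_le_add ?_ ?_)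
      · refine integral_mono_of_nonneg
          (Filter.Eventually.of_forall fun _ => ContinuousLinearMap.opNorm_nonneg _) f2
          (Filter.Eventually.of_forall fun y => d2_norm T hU y)
      · refine integral_mono_of_nonneg (Filter.Eventually.of_forall fun _ => norm_nonneg _) f1
          (Filter.Eventually.of_forall fun y => d1_norm T hU y))
    (T '' S) (hTe.measurableSet_image.2 hS) (by
      rintro _ ⟨y, hy, rfl⟩
      have := hSr hy
      rw [← hb] at this
      exact this)
  have e2 : A.map T (T '' S) = A S := by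
    rw [hTe.map_apply, preimage_image_eq _ T.injective]
  have e3 : volume (T '' S) = volume S := by
    rw [← T.measurePreserving.map_eq, hTe.map_apply, preimage_image_eq _ T.injective]
  have e4 : Module.finrank ℝ G' = Module.finrank ℝ G := T.toLinearEquiv.finrank_eq.symm
  rw [e2, e3, e4] at key
  exact key

/-- from the euclidean space to every space of the same dimension. -/
theorem SC1.of_euclidean {d : ℕ} {b' : OrthonormalBasis J ℝ (EuclideanSpace ℝ (Fin d))}
    (h : SC1 b') (hd : Module.finrank ℝ G = d) (b : OrthonormalBasis I ℝ G) : SC1 b := by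
  subst hd
  exact h.congr (stdOrthonormalBasis ℝ G).repr b

end

end Crest.Agent.R234.Proj_929
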