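import Crest.Agent.R234.N5b_372
import Crest.Agent.R234.Proj4_929
import Crest.Agent.R234.AS_456

/-!
Row 234, node N5 (LOCAL) of the core (helper372), part 3: the divergence inequality of the measure
`al` on the base (929's `DivErr`) with error measure `holes + tl² + almost-stationarity errors`;
horizontal almost stationarity `HDiv` from `CylStat` and from `AS π U δ`.
-/

set_option autoImplicit false

open MeasureTheory Metric Set Filter Topology
open Crest.GeometryTopology.Submanifold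
open Crest.Agent.R234.Vf_884 Crest.Agent.R234.Ar_870 Crest.Agent.R234.Cy_870
open scoped ENNReal NNReal InnerProductSpace

noncomputable section

namespace Crest.Agent.R234.N5_372

variable {m n k : ℕ} {π : Euc k →L[ℝ] Euc m} {κ : Euc k →L[ℝ] Euc n} {W : Measure (Euc k × L k)}
  {x x₀ : Euc m} {R h₀ : ℝ} {NN : Euc m → ℝ≥0∞} {Q : ℝ≥0∞} {B : Set (Euc m)}

/-- horizontal almost stationarity over `B`, error measure `kA` on the base. -/
def HDiv (W : Measure (Euc k × L k)) (π : Euc k →L[ℝ] Euc m) (kA : Measure (Euc m))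
    (B : Set (Euc m)) : Prop :=
  ∀ ζ : Euc m → ℝ, ContDiff ℝ (⊤ : ℕ∞) ζ → HasCompactSupport ζ → tsupport ζ ⊆ B → ∀ ξ : Euc m,
    |∫ p, fderiv ℝ ζ (π p.1) (Shh π p.2 ξ) ∂W| ≤ ‖ξ‖ * ∫ y, (‖fderiv ℝ ζ y‖ + |ζ y|) ∂kA

theorem HDiv.mono {kA : Measure (Euc m)} (h : HDiv W π kA B) {A : Set (Euc m)} (hAB : A ⊆ B) :
    HDiv W π kA A := fun ζ h1 h2 h3 ξ => h ζ h1 h2 (h3.trans hAB) ξ

theorem norm_pi_le (hs : Split π κ) (u : Euc k) : ‖π u‖ ≤ ‖u‖ := by
  have h1 := hs.norm_sq u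
  nlinarith [norm_nonneg (π u), norm_nonneg u, sq_nonneg ‖κ u‖]

theorem norm_Shh_le (hs : Split π κ) {P : L k} (hP : IsPr P) (v : Euc m) :
    ‖Shh π P v‖ ≤ ‖v‖ := by
  calc ‖Shh π P v‖ = ‖π (P (ContinuousLinearMap.adjoint π v))‖ := rfl
    _ ≤ ‖P (ContinuousLinearMap.adjoint π v)‖ := norm_pi_le hs _
    _ ≤ ‖ContinuousLinearMap.adjoint π v‖ := norm_pr_le hP _
    _ = ‖v‖ := norm_adjoint_co hs.hh v

theorem int_deriv_zero {ζ : Euc m → ℝ} (h1 : ContDiff ℝ (⊤ : ℕ∞) ζ) (h2 : HasCompactSupport ζ)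
    (ξ : Euc m) : ∫ y, fderiv ℝ ζ y ξ = 0 := by
  have hc : Continuous fun y => fderiv ℝ ζ y ξ :=
    (h1.continuous_fderiv (by simp)).clm_apply continuous_const
  have hs : HasCompactSupport fun y => fderiv ℝ ζ y ξ :=
    h2.fderiv_apply ℝ ξ
  have hi := hc.integrable_of_hasCompactSupport hs (μ := (volume : Measure (Euc m)))
  have hi2 := h1.continuous.integrable_of_hasCompactSupport h2 (μ := (volume : Measure (Euc m)))
  have h := integral_mul_fderiv_eq_neg_fderiv_mul_of_integrable (μ := (volume : Measure (Euc m)))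
    (f := fun _ : Euc m => (1:ℝ)) (g := ζ) (v := ξ) (by simp) (by simpa using hi)
    (by simpa using hi2) (fun _ _ => differentiableAt_const _)
    (fun y _ => h1.differentiable (by simp) y)
  simpa using h

theorem al_restrict (h : CF W π κ x₀ R) (ha : AreaAt W π NN B) :
    (al W π NN Q).restrict B + Q • (volume : Measure (Euc m)).restrict B =
      (mM W π).restrict B + (hM NN Q).restrict B := by
  ext A hA
  have h1 := al_add (Q := Q) h ha (hA.inter ha.mB) inter_subset_right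
  rw [Measure.add_apply, Measure.add_apply, Measure.smul_apply, Measure.restrict_apply hA,
    Measure.restrict_apply hA, Measure.restrict_apply hA, Measure.restrict_apply hA, smul_eq_mul]
  exact h1

theorem mM_finite (h : CF W π κ x₀ R) : IsFiniteMeasure (mM W π) := by
  refine ⟨?_⟩
  rw [mM_apply MeasurableSet.univ]
  exact lt_of_le_of_lt (measure_mono (subset_univ _)) h.fin

theorem hM_le (NN : Euc m → ℝ≥0∞) (Q : ℝ≥0∞) {A : Set (Euc m)} (hA : MeasurableSet A) :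
    hM NN Q A ≤ Q * volume A := by
  unfold hM
  rw [withDensity_apply _ hA, ← setLIntegral_const]
  exact lintegral_mono fun y => tsub_le_self

/-- **DIV** on the base. -/
theorem divErr (h : CF W π κ x₀ R) (ha : AreaAt W π NN B) (hB : volume B < ⊤) (hQ : Q ≠ ⊤)
    {kA : Measure (Euc m)} (hk : kA B < ⊤) (hd : HDiv W π kA B) {s : ℝ} (hs : 0 < s) (hs1 : s ≤ 1) :
    Proj_929.DivErr (al W π NN Q) W (fun p => π p.1) (fun p => qop π p.2)
      (hM NN Q + qM W π + kA) s B := by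
  intro ζ h1 h2 h3 ξ
  have hfW : IsFiniteMeasure W := ⟨h.fin⟩
  have hfM := mM_finite h
  set φ : Euc m → ℝ := fun y => fderiv ℝ ζ y ξ with hφ
  have hcD : Continuous (fderiv ℝ ζ) := h1.continuous_fderiv (by simp)
  have hcφ : Continuous φ := hcD.clm_apply continuous_const
  have hsφ : HasCompactSupport φ := h2.fderiv_apply ℝ ξ
  have hDz : ∀ y, y ∉ B → fderiv ℝ ζ y = 0 := by
    intro y hy
    by_contra hne
    exact hy (h3 (support_fderiv_subset ℝ hne))
  have hφz : ∀ y, y ∉ B → φ y = 0 := by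
    intro y hy
    simp only [hφ, hDz y hy, _root_.zero_apply]
  have hζz : ∀ y, y ∉ B → ζ y = 0 := by
    intro y hy
    exact image_eq_zero_of_notMem_tsupport fun hc => hy (h3 hc)
  obtain ⟨Cφ, hCφ⟩ := hcφ.bounded_above_of_compact_support hsφ
  -- finiteness on B
  have hmMB : mM W π B < ⊤ := measure_lt_top _ _
  have hhB : hM NN Q B < ⊤ := lt_of_le_of_lt (hM_le NN Q ha.mB) (ENNReal.mul_lt_top hQ.lt_top hB)
  have haB : al W π NN Q B < ⊤ := by
    have h4 := al_add (Q := Q) h ha ha.mB subset_rfl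
    refine lt_of_le_of_lt (le_self_add.trans h4.le) (ENNReal.add_lt_top.2 ⟨hmMB, hhB⟩)
  have i1 : IntegrableOn φ B (al W π NN Q) :=
    IntegrableOn.of_bound haB hcφ.aestronglyMeasurable Cφ (Eventually.of_forall hCφ)
  have i2 : IntegrableOn φ B (volume : Measure (Euc m)) :=
    IntegrableOn.of_bound hB hcφ.aestronglyMeasurable Cφ (Eventually.of_forall hCφ)
  have i3 : IntegrableOn φ B (mM W π) :=
    IntegrableOn.of_bound hmMB hcφ.aestronglyMeasurable Cφ (Eventually.of_forall hCφ)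
  have i4 : IntegrableOn φ B (hM NN Q) :=
    IntegrableOn.of_bound hhB hcφ.aestronglyMeasurable Cφ (Eventually.of_forall hCφ)
  have e1 : ∫ y in B, φ y ∂(al W π NN Q) + Q.toReal * ∫ y in B, φ y =
      ∫ y in B, φ y ∂(mM W π) + ∫ y in B, φ y ∂(hM NN Q) := by
    have h5 := congrArg (fun μ : Measure (Euc m) => ∫ y, φ y ∂μ) (al_restrict (Q := Q) h ha)
    rw [integral_add_measure i1 (i2.integrable.smul_measure hQ), integral_add_measure i3 i4,
      integral_smul_measure, smul_eq_mul] at h5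
    exact h5
  have e2 : ∫ y in B, φ y = 0 := by
    rw [setIntegral_eq_integral_of_forall_compl_eq_zero hφz]
    exact int_deriv_zero h1 h2 ξ
  have e3 : ∫ y, φ y ∂(al W π NN Q) = ∫ y in B, φ y ∂(al W π NN Q) :=
    (setIntegral_eq_integral_of_forall_compl_eq_zero hφz).symm
  have e4 : ∫ y in B, φ y ∂(mM W π) = ∫ p, φ (π p.1) ∂W := by
    rw [setIntegral_eq_integral_of_forall_compl_eq_zero hφz]
    unfold mM
    rw [integral_map (measurable_base π).aemeasurable hcφ.aestronglyMeasurable]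
  -- the operator
  have hcp : Continuous fun p : Euc k × L k => π p.1 := π.continuous.comp continuous_fst
  have hcS : Continuous fun p : Euc k × L k => Shh π p.2 ξ :=
    ((continuous_Shh π).comp continuous_snd).clm_apply continuous_const
  obtain ⟨CD, hCD⟩ := hcD.bounded_above_of_compact_support (h2.fderiv ℝ)
  have hφW : Integrable (fun p : Euc k × L k => φ (π p.1)) W :=
    Integrable.of_bound (hcφ.comp hcp).aestronglyMeasurable Cφ
      (Eventually.of_forall fun p => hCφ _)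
  have hSle : ∀ᵐ p ∂W, ‖Shh π p.2 ξ‖ ≤ ‖ξ‖ := by
    filter_upwards [h.conc] with p hp
    exact norm_Shh_le h.sp (isPr_of_G hp) ξ
  have hSW : Integrable (fun p : Euc k × L k => fderiv ℝ ζ (π p.1) (Shh π p.2 ξ)) W := by
    refine Integrable.of_bound ((hcD.comp hcp).clm_apply hcS).aestronglyMeasurable (CD * ‖ξ‖) ?_
    filter_upwards [hSle] with p hp
    calc ‖fderiv ℝ ζ (π p.1) (Shh π p.2 ξ)‖ ≤ ‖fderiv ℝ ζ (π p.1)‖ * ‖Shh π p.2 ξ‖ :=
          ContinuousLinearMap.le_opNorm _ _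
      _ ≤ CD * ‖ξ‖ := mul_le_mul (hCD _) hp (norm_nonneg _) ((norm_nonneg _).trans (hCD (π p.1)))
  have e5 : ∫ p, fderiv ℝ ζ (π p.1) (qop π p.2 ξ) ∂W =
      (∫ p, φ (π p.1) ∂W) - ∫ p, fderiv ℝ ζ (π p.1) (Shh π p.2 ξ) ∂W := by
    rw [← integral_sub hφW hSW]
    refine integral_congr_ae (Eventually.of_forall fun p => ?_)
    simp only [hφ, qop, _root_.sub_apply, ContinuousLinearMap.id_apply, map_sub]
  have e6 : ∫ y, fderiv ℝ ζ y ξ ∂(al W π NN Q) - ∫ p, fderiv ℝ ζ (π p.1) (qop π p.2 ξ) ∂W =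
      (∫ y in B, φ y ∂(hM NN Q)) + ∫ p, fderiv ℝ ζ (π p.1) (Shh π p.2 ξ) ∂W := by
    have e3' : ∫ y, fderiv ℝ ζ y ξ ∂(al W π NN Q) = ∫ y in B, φ y ∂(al W π NN Q) := e3
    rw [e5, e3']
    rw [e2, mul_zero, add_zero, e4] at e1
    rw [e1]
    ring
  rw [e6]
  refine (abs_add_le _ _).trans ?_
  -- the right-hand side
  set ψ : Euc m → ℝ := fun y => ‖fderiv ℝ ζ y‖ + |ζ y| / s with hψ
  have hcψ : Continuous ψ := hcD.norm.add (h1.continuous.abs.div_const s)
  have hψ0 : ∀ y, 0 ≤ ψ y := fun y => by positivity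
  have hψz : ∀ y, y ∉ B → ψ y = 0 := by
    intro y hy
    simp only [hψ, hDz y hy, hζz y hy]
    simp
  have hsψ : HasCompactSupport ψ := by
    refine HasCompactSupport.intro (K := tsupport ζ) h2 fun y hy => ?_
    have h7 : fderiv ℝ ζ y = 0 := by
      by_contra hne
      exact hy (support_fderiv_subset ℝ hne)
    simp only [hψ, h7, image_eq_zero_of_notMem_tsupport hy]
    simp
  obtain ⟨Cψ, hCψ⟩ := hcψ.bounded_above_of_compact_support hsψ
  have hqB : qM W π B < ⊤ := by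
    unfold qM
    refine lt_of_le_of_lt (bm_le_mM (C := (m:ℝ) ^ 2) ?_ ha.mB)
      (ENNReal.mul_lt_top ENNReal.ofReal_lt_top hmMB)
    filter_upwards [Jh_bounds h] with p hp
    exact pow_le_pow_left₀ hp.2.2.1 hp.2.2.2.1 2
  have j1 : IntegrableOn ψ B (hM NN Q) :=
    IntegrableOn.of_bound hhB hcψ.aestronglyMeasurable Cψ (Eventually.of_forall hCψ)
  have j2 : IntegrableOn ψ B (qM W π) :=
    IntegrableOn.of_bound hqB hcψ.aestronglyMeasurable Cψ (Eventually.of_forall hCψ)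
  have j3 : IntegrableOn ψ B kA :=
    IntegrableOn.of_bound hk hcψ.aestronglyMeasurable Cψ (Eventually.of_forall hCψ)
  have r1 : ∫ y, ψ y ∂(hM NN Q + qM W π + kA) =
      ((∫ y in B, ψ y ∂(hM NN Q)) + ∫ y in B, ψ y ∂(qM W π)) + ∫ y in B, ψ y ∂kA := by
    rw [← setIntegral_eq_integral_of_forall_compl_eq_zero (s := B) hψz, Measure.restrict_add,
      Measure.restrict_add, integral_add_measure (j1.integrable.add_measure j2) j3,
      integral_add_measure j1 j2]
  have r2 : |∫ y in B, φ y ∂(hM NN Q)| ≤ ‖ξ‖ * ∫ y in B, ψ y ∂(hM NN Q) := by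
    rw [← Real.norm_eq_abs, ← integral_const_mul]
    refine norm_integral_le_of_norm_le (j1.integrable.const_mul _) (Eventually.of_forall fun y => ?_)
    calc ‖φ y‖ ≤ ‖fderiv ℝ ζ y‖ * ‖ξ‖ := ContinuousLinearMap.le_opNorm _ _
      _ ≤ ψ y * ‖ξ‖ := by
          refine mul_le_mul_of_nonneg_right ?_ (norm_nonneg _)
          simp only [hψ]
          have : 0 ≤ |ζ y| / s := by positivity
          linarith
      _ = ‖ξ‖ * ψ y := mul_comm _ _
  have r3 : ∫ y, (‖fderiv ℝ ζ y‖ + |ζ y|) ∂kA ≤ ∫ y in B, ψ y ∂kA := by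
    rw [setIntegral_eq_integral_of_forall_compl_eq_zero hψz]
    refine integral_mono_of_nonneg (Eventually.of_forall fun y => by positivity) ?_
      (Eventually.of_forall fun y => ?_)
    · rw [← integrableOn_iff_integrable_of_support_subset (s := B)]
      · exact j3
      · intro y hy
        by_contra hyB
        exact hy (hψz y hyB)
    · simp only [hψ]
      have : |ζ y| ≤ |ζ y| / s := by
        rw [le_div_iff₀ hs]
        exact mul_le_of_le_one_right (abs_nonneg _) hs1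
      linarith
  have r4 : 0 ≤ ∫ y in B, ψ y ∂(qM W π) := integral_nonneg hψ0
  have r5 := hd ζ h1 h2 h3 ξ
  rw [r1]
  have hξ := norm_nonneg ξ
  have r6 : ‖ξ‖ * ∫ y, (‖fderiv ℝ ζ y‖ + |ζ y|) ∂kA ≤ ‖ξ‖ * ∫ y in B, ψ y ∂kA :=
    mul_le_mul_of_nonneg_left r3 hξ
  have r7 : 0 ≤ ‖ξ‖ * ∫ y in B, ψ y ∂(qM W π) := mul_nonneg hξ r4
  rw [mul_add, mul_add]
  linarith

/-! ### horizontal fields -/

/-- the horizontal field `ζ(π z) π†ξ`. -/
def hX (π : Euc k →L[ℝ] Euc m) (ζ : Euc m → ℝ) (ξ : Euc m) (z : Euc k) : Euc k :=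
  ζ (π z) • ContinuousLinearMap.adjoint π ξ

theorem contDiff_hX {ζ : Euc m → ℝ} (h : ContDiff ℝ (⊤ : ℕ∞) ζ) (ξ : Euc m) :
    ContDiff ℝ 1 (hX π ζ ξ) := by
  unfold hX
  exact (((h.of_le (by exact_mod_cast le_top)).comp π.contDiff).smul contDiff_const)

theorem fderiv_hX {ζ : Euc m → ℝ} (h : ContDiff ℝ (⊤ : ℕ∞) ζ) (ξ : Euc m) (z : Euc k) :
    fderiv ℝ (hX π ζ ξ) z =
      (fderiv ℝ ζ (π z) ∘L π).smulRight (ContinuousLinearMap.adjoint π ξ) := by
  have h1 : HasFDerivAt (fun z => ζ (π z)) (fderiv ℝ ζ (π z) ∘L π) z :=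
    (h.differentiable (by simp) (π z)).hasFDerivAt.comp z π.hasFDerivAt
  exact (h1.smul_const (ContinuousLinearMap.adjoint π ξ)).fderiv

theorem tr_hX {ζ : Euc m → ℝ} (h : ContDiff ℝ (⊤ : ℕ∞) ζ) (ξ : Euc m) (z : Euc k) (P : L k) :
    tr ((fderiv ℝ (hX π ζ ξ) z) ∘L P) = fderiv ℝ ζ (π z) (Shh π P ξ) := by
  rw [fderiv_hX h, tr_smulRight_comp]
  rfl

theorem hX_zero {ζ : Euc m → ℝ} {ξ : Euc m} (h3 : tsupport ζ ⊆ ball x₀ R) {p : Euc k}
    (hp : R ≤ ‖π p - x₀‖) : hX π ζ ξ p = 0 := by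
  have h5 : ζ (π p) = 0 := image_eq_zero_of_notMem_tsupport fun hc => by
    have := h3 hc
    rw [mem_ball, dist_eq_norm] at this
    linarith
  unfold hX
  rw [h5, zero_smul]

theorem hdiv_of_cylStat (h : CylStat W π κ x₀ R h₀) : HDiv W π 0 (ball x₀ R) := by
  intro ζ h1 h2 h3 ξ
  have h4 := h.stat (hX π ζ ξ) (contDiff_hX h1 ξ) fun p hp => hX_zero h3 hp
  unfold FV at h4
  simp only [tr_hX h1] at h4
  rw [h4]
  simp

/-- the almost-stationarity error measure on the base. -/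
def kAS (W : Measure (Euc k × L k)) (π : Euc k →L[ℝ] Euc m) (δ : ℝ) : Measure (Euc m) :=
  (W.withDensity fun p => ENNReal.ofReal (δ * (tl π p.2 + ‖AS_456.vp π p.1‖ ^ 2))).map
    fun p => π p.1

open AS_456 in
/-- **no vertical cut-off** for almost stationary varifolds. -/
theorem fv_cyl_AS {U : Set (Euc k)} {V : Measure (Euc k × L k)} {δ : ℝ} (hV : AS π U δ V)
    (hs : Split π κ) {h₁ : ℝ} (h01 : h₀ < h₁) (h1pos : 0 < h₁)
    (hU : Cy_870.cyl π κ x₀ R h₁ ⊆ U)
    (hgap : ∀ᵐ p ∂V, p.1 ∈ Cy_870.cyl π κ x₀ R h₁ → ‖κ p.1‖ ≤ h₀)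
    {X : Euc k → Euc k} (hX : ContDiff ℝ 1 X) (h0 : ∀ p, R ≤ ‖π p - x₀‖ → X p = 0) :
    |FV (V.restrict (Cy_870.cyl π κ x₀ R h₁ ×ˢ univ)) X| ≤
      ∫ p, err π δ X p ∂(V.restrict (Cy_870.cyl π κ x₀ R h₁ ×ˢ univ)) := by
  -- the cut-off
  set c : ContDiffBump (0 : Euc n) := ⟨(max h₀ 0 + 2 * h₁) / 3, (2 * max h₀ 0 + 4 * h₁) / 6 +
    (h₁ - max h₀ 0) / 6, by have := le_max_right h₀ 0; linarith, by
      have h2 : max h₀ 0 < h₁ := max_lt h01 h1pos
      have := le_max_right h₀ 0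
      linarith⟩ with hc
  have hm : max h₀ 0 < h₁ := max_lt h01 h1pos
  have hrin : max h₀ 0 < c.rIn := by
    simp only [hc]; linarith
  have hrout : c.rOut ≤ h₁ := by
    simp only [hc]; linarith [le_max_right h₀ 0]
  set η : Euc k → ℝ := fun p => c (κ p) with hη
  have hηs : ContDiff ℝ 1 η := c.contDiff.comp κ.contDiff
  set Y : Euc k → Euc k := fun p => η p • X p with hY
  have hYs : ContDiff ℝ 1 Y := hηs.smul hX
  have hY0 : ∀ p, p ∉ Cy_870.cyl π κ x₀ R h₁ → Y p = 0 := by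
    intro p hp
    simp only [hY]
    by_cases h2 : ‖π p - x₀‖ ≤ R
    · have h3 : h₁ < ‖κ p‖ := by
        by_contra hcon
        exact hp ⟨h2, not_lt.1 hcon⟩
      have h4 : η p = 0 := by
        simp only [hη]
        refine c.zero_of_le_dist ?_
        rw [dist_zero_right]
        linarith
      rw [h4, zero_smul]
    · rw [h0 p (not_le.1 h2).le, smul_zero]
  have hsup : tsupport Y ⊆ Cy_870.cyl π κ x₀ R h₁ := by
    refine closure_minimal ?_ (isClosed_cyl π κ x₀ R h₁)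
    intro p hp
    by_contra hcon
    exact hp (hY0 p hcon)
  have hcpt := isCompact_cyl (n := n) hs x₀ R h₁
  have hst := hV.fv Y hYs (HasCompactSupport.of_support_subset_isCompact hcpt
    (subset_closure.trans hsup)) (hsup.trans hU)
  have hmeas : MeasurableSet (Cy_870.cyl π κ x₀ R h₁ ×ˢ (univ : Set (L k))) :=
    (isClosed_cyl π κ x₀ R h₁).measurableSet.prod MeasurableSet.univ
  have hnear : ∀ᵐ p ∂V, p ∈ Cy_870.cyl π κ x₀ R h₁ ×ˢ (univ : Set (L k)) →
      fderiv ℝ X p.1 = fderiv ℝ Y p.1 ∧ X p.1 = Y p.1 := by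
    filter_upwards [hgap] with p hp hpm
    have h2 := hp hpm.1
    have h4 : ∀ᶠ q in 𝓝 p.1, ‖κ q‖ < c.rIn := by
      refine (κ.continuous.norm.continuousAt).eventually_lt continuousAt_const ?_
      exact lt_of_le_of_lt (h2.trans (le_max_left h₀ 0)) hrin
    have h5 : X =ᶠ[𝓝 p.1] Y := by
      filter_upwards [h4] with q hq
      simp only [hY, hη]
      rw [c.one_of_mem_closedBall, one_smul]
      rw [mem_closedBall_zero_iff]
      exact hq.le
    exact ⟨h5.fderiv_eq, h5.eq_of_nhds⟩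
  have z1 : ∀ p : Euc k × L k, p ∉ Cy_870.cyl π κ x₀ R h₁ ×ˢ (univ : Set (L k)) →
      tr ((fderiv ℝ Y p.1) ∘L p.2) = 0 := by
    intro p hp
    have h2 : p.1 ∉ Cy_870.cyl π κ x₀ R h₁ := fun h => hp ⟨h, trivial⟩
    have h3 : fderiv ℝ Y p.1 = 0 := by
      by_contra hne
      exact h2 (hsup (support_fderiv_subset ℝ hne))
    rw [h3, ContinuousLinearMap.zero_comp, map_zero]
  have z2 : ∀ p : Euc k × L k, p ∉ Cy_870.cyl π κ x₀ R h₁ ×ˢ (univ : Set (L k)) →
      err π δ Y p = 0 := by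
    intro p hp
    have h2 : p.1 ∉ Cy_870.cyl π κ x₀ R h₁ := fun h => hp ⟨h, trivial⟩
    exact err_eq_zero (fun hc => h2 (hsup hc)) δ
  have e1 : ∫ p in Cy_870.cyl π κ x₀ R h₁ ×ˢ univ, tr ((fderiv ℝ X p.1) ∘L p.2) ∂V =
      ∫ p in Cy_870.cyl π κ x₀ R h₁ ×ˢ univ, tr ((fderiv ℝ Y p.1) ∘L p.2) ∂V := by
    refine setIntegral_congr_ae hmeas ?_
    filter_upwards [hnear] with p hp hpm
    rw [(hp hpm).1]
  have e2 : ∫ p in Cy_870.cyl π κ x₀ R h₁ ×ˢ univ, err π δ X p ∂V =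
      ∫ p in Cy_870.cyl π κ x₀ R h₁ ×ˢ univ, err π δ Y p ∂V := by
    refine setIntegral_congr_ae hmeas ?_
    filter_upwards [hnear] with p hp hpm
    unfold err
    rw [(hp hpm).1, (hp hpm).2]
  have e3 : ∫ p in Cy_870.cyl π κ x₀ R h₁ ×ˢ univ, tr ((fderiv ℝ Y p.1) ∘L p.2) ∂V =
      ∫ p, tr ((fderiv ℝ Y p.1) ∘L p.2) ∂V := setIntegral_eq_integral_of_forall_compl_eq_zero z1
  have e4 : ∫ p in Cy_870.cyl π κ x₀ R h₁ ×ˢ univ, err π δ Y p ∂V =
      ∫ p, err π δ Y p ∂V := setIntegral_eq_integral_of_forall_compl_eq_zero z2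
  unfold FV
  rw [e1, e2, e3, e4]
  exact hst

theorem norm_vp (hs : Split π κ) (z : Euc k) : ‖AS_456.vp π z‖ = ‖κ z‖ := by
  have h1 : AS_456.vp π z = ContinuousLinearMap.adjoint κ (κ z) := by
    have h2 := congrArg (fun A : L k => A z) hs.sum
    simp only [_root_.add_apply, ContinuousLinearMap.comp_apply,
      ContinuousLinearMap.id_apply] at h2
    unfold AS_456.vp AS_456.hp
    rw [_root_.sub_apply, ContinuousLinearMap.id_apply, ContinuousLinearMap.comp_apply]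
    rw [sub_eq_iff_eq_add, add_comm]
    exact h2.symm
  rw [h1]
  exact norm_adjoint_co (π := κ) hs.vv (κ z)

theorem errA_hX (hs : Split π κ) {ζ : Euc m → ℝ} (h : ContDiff ℝ (⊤ : ℕ∞) ζ) (ξ : Euc m) {δ : ℝ}
    (hδ : 0 ≤ δ) {p : Euc k × L k} (hp : p.2 ∈ G m k) :
    AS_456.err π δ (hX π ζ ξ) p ≤
      ‖ξ‖ * ((δ * (tl π p.2 + ‖AS_456.vp π p.1‖ ^ 2)) * (‖fderiv ℝ ζ (π p.1)‖ + |ζ (π p.1)|)) := by
  have hπξ : π (ContinuousLinearMap.adjoint π ξ) = ξ := by
    have h2 := congrArg (fun A : L m => A ξ) hs.hh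
    simpa using h2
  have hvp : AS_456.vp π (ContinuousLinearMap.adjoint π ξ) = 0 := by
    unfold AS_456.vp AS_456.hp
    rw [_root_.sub_apply, ContinuousLinearMap.id_apply, ContinuousLinearMap.comp_apply, hπξ,
      sub_self]
  have hhp : AS_456.hp π (ContinuousLinearMap.adjoint π ξ) = ContinuousLinearMap.adjoint π ξ := by
    unfold AS_456.hp
    rw [ContinuousLinearMap.comp_apply, hπξ]
  have hπvp : ∀ z, π (AS_456.vp π z) = 0 := by
    intro z
    have h2 := congrArg (fun A : L m => A (π z)) hs.hh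
    simp only [ContinuousLinearMap.comp_apply, ContinuousLinearMap.id_apply] at h2
    unfold AS_456.vp AS_456.hp
    rw [_root_.sub_apply, ContinuousLinearMap.id_apply, ContinuousLinearMap.comp_apply, map_sub, h2,
      sub_self]
  have hπhp : ∀ z, π (AS_456.hp π z) = π z := by
    intro z
    have h2 := congrArg (fun A : L m => A (π z)) hs.hh
    simp only [ContinuousLinearMap.comp_apply, ContinuousLinearMap.id_apply] at h2
    unfold AS_456.hp
    rw [ContinuousLinearMap.comp_apply, h2]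
  set A := (fderiv ℝ ζ (π p.1) ∘L π).smulRight (ContinuousLinearMap.adjoint π ξ) with hA
  have a1 : AS_456.hp π ∘L A ∘L AS_456.hp π = A := by
    ext1 z
    simp only [hA, ContinuousLinearMap.comp_apply, ContinuousLinearMap.smulRight_apply, map_smul,
      hhp, hπhp]
  have a2 : AS_456.hp π ∘L A ∘L AS_456.vp π = 0 := by
    ext1 z
    simp only [hA, ContinuousLinearMap.comp_apply, ContinuousLinearMap.smulRight_apply,
      hπvp, map_zero, zero_smul, _root_.zero_apply]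
  have a3 : AS_456.vp π ∘L A ∘L AS_456.hp π = 0 := by
    ext1 z
    simp only [hA, ContinuousLinearMap.comp_apply, ContinuousLinearMap.smulRight_apply, map_smul,
      hvp, smul_zero, _root_.zero_apply]
  have a4 : AS_456.vp π ∘L A ∘L AS_456.vp π = 0 := by
    ext1 z
    simp only [hA, ContinuousLinearMap.comp_apply, ContinuousLinearMap.smulRight_apply, map_smul,
      hvp, smul_zero, _root_.zero_apply]
  have a5 : AS_456.vp π (hX π ζ ξ p.1) = 0 := by
    unfold hX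
    rw [map_smul, hvp, smul_zero]
  have a6 : ‖AS_456.hp π (hX π ζ ξ p.1)‖ = |ζ (π p.1)| * ‖ξ‖ := by
    unfold hX
    rw [map_smul, hhp, norm_smul, norm_adjoint_co hs.hh, Real.norm_eq_abs]
  have a7 : ‖A‖ ≤ ‖fderiv ℝ ζ (π p.1)‖ * ‖ξ‖ := by
    refine ContinuousLinearMap.opNorm_le_bound _ (by positivity) fun z => ?_
    rw [hA, ContinuousLinearMap.smulRight_apply, norm_smul, norm_adjoint_co hs.hh,
      ContinuousLinearMap.comp_apply]
    calc ‖fderiv ℝ ζ (π p.1) (π z)‖ * ‖ξ‖ ≤ (‖fderiv ℝ ζ (π p.1)‖ * ‖π z‖) * ‖ξ‖ := by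
          gcongr
          exact ContinuousLinearMap.le_opNorm _ _
      _ ≤ (‖fderiv ℝ ζ (π p.1)‖ * ‖z‖) * ‖ξ‖ := by
          gcongr
          exact norm_pi_le hs z
      _ = _ := by ring
  unfold AS_456.err AS_456.errA
  rw [fderiv_hX h, ← hA, a1, a2, a3, a4, a5, a6]
  simp only [norm_zero, add_zero, mul_zero]
  have ht := tl_nonneg hs.hh (isPr_of_G hp)
  have hf : 0 ≤ δ * (tl π p.2 + ‖AS_456.vp π p.1‖ ^ 2) := by positivity
  calc δ * (tl π p.2 + ‖AS_456.vp π p.1‖ ^ 2) * (‖A‖ + |ζ (π p.1)| * ‖ξ‖) ≤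
      δ * (tl π p.2 + ‖AS_456.vp π p.1‖ ^ 2) * (‖fderiv ℝ ζ (π p.1)‖ * ‖ξ‖ +
        |ζ (π p.1)| * ‖ξ‖) := by gcongr
    _ = _ := by ring

theorem measurable_kdens (π : Euc k →L[ℝ] Euc m) (δ : ℝ) :
    Continuous fun p : Euc k × L k => δ * (tl π p.2 + ‖AS_456.vp π p.1‖ ^ 2) :=
  continuous_const.mul (((continuous_tl π).comp continuous_snd).add
    (((AS_456.vp π).continuous.comp continuous_fst).norm.pow 2))

theorem integral_kAS (hs : Split π κ) {δ : ℝ} (hδ : 0 ≤ δ) (hc : ∀ᵐ p ∂W, p.2 ∈ G m k)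
    {ψ : Euc m → ℝ} (hψ : Measurable ψ) :
    ∫ y, ψ y ∂(kAS W π δ) =
      ∫ p, (δ * (tl π p.2 + ‖AS_456.vp π p.1‖ ^ 2)) * ψ (π p.1) ∂W := by
  unfold kAS
  rw [integral_map (measurable_base π).aemeasurable hψ.aestronglyMeasurable,
    integral_withDensity_eq_integral_toReal_smul
      (measurable_kdens π δ).measurable.ennreal_ofReal
      (Eventually.of_forall fun _ => ENNReal.ofReal_lt_top)]
  refine integral_congr_ae ?_
  filter_upwards [hc] with p hp
  have ht := tl_nonneg hs.hh (isPr_of_G hp)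
  rw [smul_eq_mul, ENNReal.toReal_ofReal (by positivity)]

/-- the part of an almost stationary varifold in a closed solid cylinder with a gap. -/
theorem hdiv_of_AS {U : Set (Euc k)} {V : Measure (Euc k × L k)} {δ : ℝ} (hδ : 0 ≤ δ)
    (hV : AS_456.AS π U δ V)
    (hs : Split π κ) {h₁ : ℝ} (h01 : h₀ < h₁) (h1pos : 0 < h₁)
    (hU : Cy_870.cyl π κ x₀ R h₁ ⊆ U)
    (hgap : ∀ᵐ p ∂V, p.1 ∈ Cy_870.cyl π κ x₀ R h₁ → ‖κ p.1‖ ≤ h₀) :
    HDiv (V.restrict (Cy_870.cyl π κ x₀ R h₁ ×ˢ univ)) π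
      (kAS (V.restrict (Cy_870.cyl π κ x₀ R h₁ ×ˢ univ)) π δ) (ball x₀ R) := by
  intro ζ h1 h2 h3 ξ
  have h4 := fv_cyl_AS hV hs h01 h1pos hU hgap (contDiff_hX h1 ξ) fun p hp => hX_zero h3 hp
  unfold FV at h4
  simp only [tr_hX h1] at h4
  refine h4.trans ?_
  set W := V.restrict (Cy_870.cyl π κ x₀ R h₁ ×ˢ univ) with hW
  have hmeas : MeasurableSet (Cy_870.cyl π κ x₀ R h₁ ×ˢ (univ : Set (L k))) :=
    (isClosed_cyl π κ x₀ R h₁).measurableSet.prod MeasurableSet.univ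
  have hfin : IsFiniteMeasure W := ⟨by
    rw [hW, Measure.restrict_apply_univ]
    exact hV.fin _ (isCompact_cyl hs x₀ R h₁) hU⟩
  have hconc : ∀ᵐ p ∂W, p.2 ∈ G m k := ae_restrict_of_ae hV.conc
  have hκ : ∀ᵐ p ∂W, ‖κ p.1‖ ≤ h₁ := by
    filter_upwards [ae_restrict_mem hmeas] with p hp using hp.1.2
  set ψ : Euc m → ℝ := fun y => ‖fderiv ℝ ζ y‖ + |ζ y| with hψ
  have hcD : Continuous (fderiv ℝ ζ) := h1.continuous_fderiv (by simp)
  have hcψ : Continuous ψ := hcD.norm.add h1.continuous.abs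
  have hsψ : HasCompactSupport ψ := by
    refine HasCompactSupport.intro (K := tsupport ζ) h2 fun y hy => ?_
    have h7 : fderiv ℝ ζ y = 0 := by
      by_contra hne
      exact hy (support_fderiv_subset ℝ hne)
    simp only [hψ, h7, image_eq_zero_of_notMem_tsupport hy]
    simp
  obtain ⟨Cψ, hCψ⟩ := hcψ.bounded_above_of_compact_support hsψ
  have hψ0 : ∀ y, 0 ≤ ψ y := fun y => by positivity
  rw [integral_kAS hs hδ hconc hcψ.measurable, ← integral_const_mul]
  refine integral_mono_of_nonneg ?_ ?_ ?_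
  · filter_upwards [hconc] with p hp
    have ht := tl_nonneg hs.hh (isPr_of_G hp)
    simp only [AS_456.err, AS_456.errA, Pi.zero_apply]
    positivity
  · refine Integrable.const_mul ?_ _
    refine Integrable.of_bound ((measurable_kdens π δ).mul (hcψ.comp (π.continuous.comp
      continuous_fst))).aestronglyMeasurable ((δ * (m + h₁ ^ 2)) * Cψ) ?_
    filter_upwards [hconc, hκ] with p hp hpκ
    have hPr := isPr_of_G hp
    have ht := tl_nonneg hs.hh hPr
    have ht2 := tl_le hs.hh hPr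
    rw [norm_mul, Real.norm_of_nonneg (by positivity), norm_vp hs]
    have h5 := hCψ (π p.1)
    have h6 : 0 ≤ Cψ := (norm_nonneg _).trans h5
    gcongr
  · filter_upwards [hconc] with p hp
    exact errA_hX hs h1 ξ hδ hp

theorem kAS_apply_le (hs : Split π κ) {δ : ℝ} (hδ : 0 ≤ δ) (hc : ∀ᵐ p ∂W, p.2 ∈ G m k)
    (hh : ∀ᵐ p ∂W, ‖κ p.1‖ ≤ h₀) {A : Set (Euc m)} (hA : MeasurableSet A) :
    kAS W π δ A ≤ ENNReal.ofReal δ * (eM W π A + ENNReal.ofReal (h₀ ^ 2) * mM W π A) := by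
  unfold kAS eM
  rw [Measure.map_apply (measurable_base π) hA,
    withDensity_apply _ (measurable_base π hA), bm_apply _ _ _ hA, mM_apply hA]
  have hm1 : Measurable fun p : Euc k × L k => ENNReal.ofReal (tl π p.2) :=
    (measurable_of_cont (continuous_tl π)).ennreal_ofReal
  rw [← setLIntegral_const, ← lintegral_add_left hm1, ← lintegral_const_mul' _ _ (by simp)]
  refine setLIntegral_mono_ae' (measurableSet_ov hA) ?_
  filter_upwards [hc, hh] with p hp hpκ _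
  have ht := tl_nonneg hs.hh (isPr_of_G hp)
  rw [← ENNReal.ofReal_add ht (sq_nonneg _), ← ENNReal.ofReal_mul hδ]
  refine ENNReal.ofReal_le_ofReal ?_
  rw [norm_vp hs]
  gcongr

end Crest.Agent.R234.N5_372
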