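import Crest.Agent.R234.N5c_372

/-!
Row 234, node N5 (LOCAL) of the core (helper372), part 4: the assembly.  At one centre `x` and one
scale `s = e^l`: fat simplex with small radial energies ==> (hole lemma, theta lemma) the anomaly and
the energy over sets with small projection on the span of the simplex are `≤ ω G s^{m-2}`.
-/

set_option autoImplicit false

open MeasureTheory Metric Set Filter Topology
open Crest.GeometryTopology.Submanifold
open Crest.Agent.R234.Vf_884 Crest.Agent.R234.Ar_870 Crest.Agent.R234.Cy_870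
open scoped ENNReal NNReal InnerProductSpace

noncomputable section

namespace Crest.Agent.R234.N5_372

variable {m n k d : ℕ} {π : Euc k →L[ℝ] Euc m} {κ : Euc k →L[ℝ] Euc n}
  {W : Measure (Euc k × L k)} {x x₀ : Euc m} {R h₀ : ℝ} {NN : Euc m → ℝ≥0∞} {Q : ℝ≥0∞}
  {B : Set (Euc m)} {g g1 g2 : ℝ → ℝ}

theorem norm_qop_le (hs : Split π κ) {P : L k} (hP : P ∈ G m k) : ‖qop π P‖ ≤ tl π P := by
  have hq := psd_qop hs.hh (isPr_of_G hP)
  have ht := tl_nonneg hs.hh (isPr_of_G hP)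
  have h1 : ‖qop π P‖ ≤ Real.sqrt (‖qop π P‖ * tl π P) := by
    refine ContinuousLinearMap.opNorm_le_bound _ (Real.sqrt_nonneg _) fun w => ?_
    have h2 := hq.norm_sq_le w
    have h3 : ⟪qop π P w, w⟫_ℝ ≤ ‖w‖ ^ 2 * tl π P := by
      rw [inner_qop]; exact qf_le_tl hs hP w
    have h4 : ‖qop π P w‖ ^ 2 ≤ (Real.sqrt (‖qop π P‖ * tl π P) * ‖w‖) ^ 2 := by
      rw [mul_pow, Real.sq_sqrt (by positivity)]
      calc ‖qop π P w‖ ^ 2 ≤ ‖qop π P‖ * ⟪qop π P w, w⟫_ℝ := h2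
        _ ≤ ‖qop π P‖ * (‖w‖ ^ 2 * tl π P) := by gcongr
        _ = _ := by ring
    exact (sq_le_sq₀ (norm_nonneg _) (by positivity)).1 h4
  have h5 : ‖qop π P‖ ^ 2 ≤ ‖qop π P‖ * tl π P := by
    have := pow_le_pow_left₀ (norm_nonneg _) h1 2
    rwa [Real.sq_sqrt (by positivity)] at this
  rcases eq_or_lt_of_le (norm_nonneg (qop π P)) with h6 | h6
  · rw [← h6]; exact ht
  · rw [sq] at h5
    exact le_of_mul_le_mul_left h5 h6

/-- the isometry onto a subspace given by its standard orthonormal basis. -/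
def iso (S : Submodule ℝ (Euc m)) (h : Module.finrank ℝ S = d) :
    EuclideanSpace ℝ (Fin d) →ₗᵢ[ℝ] Euc m :=
  S.subtypeₗᵢ.comp ((stdOrthonormalBasis ℝ S).reindex (finCongr h)).repr.symm.toLinearIsometry

theorem tL_iso (S : Submodule ℝ (Euc m)) (h : Module.finrank ℝ S = d) (P : L k) :
    Proj_929.tL (EuclideanSpace.basisFun (Fin d) ℝ) (iso S h) (qop π P) = eL π S P := by
  subst h
  unfold Proj_929.tL eL
  refine Finset.sum_congr rfl fun i _ => ?_
  have h1 : iso S rfl (EuclideanSpace.basisFun (Fin (Module.finrank ℝ S)) ℝ i) =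
      (stdOrthonormalBasis ℝ S i : Euc m) := by
    unfold iso
    simp
  rw [h1, inner_qop]

theorem range_iso (S : Submodule ℝ (Euc m)) (h : Module.finrank ℝ S = d) :
    LinearMap.range (iso S h).toLinearMap = S := by
  ext z
  constructor
  · rintro ⟨w, rfl⟩
    exact Submodule.coe_mem _
  · intro hz
    refine ⟨((stdOrthonormalBasis ℝ S).reindex (finCongr h)).repr ⟨z, hz⟩, ?_⟩
    simp [iso]

theorem exists_cover (m : ℕ) : ∃ T : Finset (Euc m), (∀ t ∈ T, ‖t‖ ≤ 1) ∧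
    closedBall (0 : Euc m) 1 ⊆ ⋃ t ∈ T, ball t (1 / 8) := by
  obtain ⟨t, ht, hf, hc⟩ := (isCompact_closedBall (0 : Euc m) 1).finite_cover_balls
    (by norm_num : (0:ℝ) < 1 / 8)
  refine ⟨hf.toFinset, fun y hy => ?_, ?_⟩
  · have := ht (hf.mem_toFinset.1 hy)
    simpa using this
  · simpa using hc

theorem finrank_fat {v : Fin d → Euc m} {l K : ℝ}
    (hfat : ∀ (c : Fin d → ℝ) (i : Fin d), |c i| * Real.exp l ≤ K * ‖∑ j, c j • v j‖) :
    Module.finrank ℝ (Submodule.span ℝ (range v)) = d := by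
  have h1 : LinearIndependent ℝ v := by
    rw [Fintype.linearIndependent_iff]
    intro c hc i
    have h2 := hfat c i
    rw [hc, norm_zero, mul_zero] at h2
    have h3 := Real.exp_pos l
    have h4 : |c i| ≤ 0 := by
      by_contra h5
      push Not at h5
      have := mul_pos h5 h3
      linarith
    exact abs_nonpos_iff.1 h4
  rw [finrank_span_eq_card h1, Fintype.card_fin]

theorem bm_real {c : L k → ℝ} (hc : Continuous c) (h0 : ∀ᵐ p ∂W, 0 ≤ c p.2) {A : Set (Euc m)}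
    (hA : MeasurableSet A) : (bm W π c A).toReal = ∫ p in ov π A, c p.2 ∂W := by
  rw [bm_apply _ _ _ hA, integral_eq_lintegral_of_nonneg_ae (ae_restrict_of_ae h0)]
  exact (hc.comp continuous_snd).aestronglyMeasurable

theorem bm_lt_top (h : CF W π κ x₀ R) {c : L k → ℝ} {C : ℝ} (hc : ∀ᵐ p ∂W, c p.2 ≤ C)
    {A : Set (Euc m)} (hA : MeasurableSet A) : bm W π c A < ⊤ := by
  have := mM_finite h
  exact lt_of_le_of_lt (bm_le_mM hc hA) (ENNReal.mul_lt_top ENNReal.ofReal_lt_top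
    (measure_lt_top _ _))

theorem AreaAt.ae_lt_top (h : CF W π κ x₀ R) (ha : AreaAt W π NN B) :
    ∀ᵐ z ∂((volume : Measure (Euc m)).restrict B), NN z < ⊤ := by
  have hbJB : bm W π (Jh π) B < ⊤ := by
    refine bm_lt_top h (C := 1) ?_ ha.mB
    filter_upwards [Jh_bounds h] with p hp using hp.2.1
  have hNB : ∫⁻ x in B, NN x < ⊤ := by
    have h2 := congrArg (fun μ : Measure (Euc m) => μ B) ha.area
    simp only [Measure.restrict_apply ha.mB, inter_self, withDensity_apply _ ha.mB] at h2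
    rw [← h2]; exact hbJB
  exact MeasureTheory.ae_lt_top ha.meas hNB.ne

theorem tsub_le_abs {a : ℝ≥0∞} (ha : a < ⊤) (q : ℕ) :
    a - (q : ℝ≥0∞) ≤ ENNReal.ofReal |a.toReal - q| := by
  lift a to NNReal using ha.ne
  have h1 : (a : ℝ≥0∞) - (q : ℝ≥0∞) = ENNReal.ofReal ((a : ℝ) - q) := by
    rw [ENNReal.ofReal_sub _ (Nat.cast_nonneg q), ENNReal.ofReal_coe_nnreal,
      ENNReal.ofReal_natCast]
  rw [h1]
  exact ENNReal.ofReal_le_ofReal (by simpa using le_abs_self ((a : ℝ) - q))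

theorem tsub_le_abs' (a : ℝ≥0∞) (q : ℕ) :
    (q : ℝ≥0∞) - a ≤ ENNReal.ofReal |a.toReal - q| := by
  rcases eq_or_ne a ⊤ with rfl | ha
  · simp
  · lift a to NNReal using ha
    have h1 : (q : ℝ≥0∞) - (a : ℝ≥0∞) = ENNReal.ofReal (q - (a : ℝ)) := by
      rw [ENNReal.ofReal_sub _ (NNReal.coe_nonneg a), ENNReal.ofReal_coe_nnreal,
        ENNReal.ofReal_natCast]
    rw [h1]
    refine ENNReal.ofReal_le_ofReal ?_
    rw [abs_sub_comm]
    simpa using le_abs_self ((q : ℝ) - (a : ℝ))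

theorem exp_six : 400 ≤ Real.exp 6 := by
  have h1 : Real.exp 6 = Real.exp 1 ^ 6 := by
    rw [← Real.exp_nat_mul]; norm_num
  have h2 : (2.7182818283 : ℝ) ≤ Real.exp 1 := Real.exp_one_gt_d9.le
  rw [h1]
  calc (400:ℝ) ≤ 2.7182818283 ^ 6 := by norm_num
    _ ≤ _ := pow_le_pow_left₀ (by norm_num) h2 6

/-- radii: a point of `B_8s(x)` is within `e^(l+3)/2` of a vertex in `B_2s(x)`. -/
theorem rad_le {x y z : Euc m} {l : ℝ} (hz : z ∈ ball x (8 * Real.exp l))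
    (hy : ‖y - x‖ ≤ 2 * Real.exp l) : ‖z - y‖ ^ 2 ≤ 1 / 4 * Real.exp (2 * (l + 3)) := by
  rw [mem_ball, dist_eq_norm] at hz
  have h1 : ‖z - y‖ ≤ 10 * Real.exp l := by
    calc ‖z - y‖ = ‖(z - x) - (y - x)‖ := by congr 1; abel
      _ ≤ ‖z - x‖ + ‖y - x‖ := norm_sub_le _ _
      _ ≤ _ := by linarith
  have h2 : Real.exp (2 * (l + 3)) = Real.exp l ^ 2 * Real.exp 6 := by
    rw [← Real.exp_nat_mul, ← Real.exp_add]; congr 1; push_cast; ring
  calc ‖z - y‖ ^ 2 ≤ (10 * Real.exp l) ^ 2 := pow_le_pow_left₀ (norm_nonneg _) h1 2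
    _ = 100 * Real.exp l ^ 2 := by ring
    _ ≤ 1 / 4 * (Real.exp l ^ 2 * Real.exp 6) := by
        have := exp_six
        have h3 : 0 ≤ Real.exp l ^ 2 := by positivity
        nlinarith
    _ = _ := by rw [h2]

/-- the energy along the span of the simplex in `B_8s(x)`. -/
theorem lM_ball_le (hd : d + 2 = m) (h : CF W π κ x₀ R) (hg : Prof g g1 g2) {c₀ : ℝ} (hc₀ : 0 < c₀)
    (hc : ∀ t, 0 ≤ t → t ≤ 1 / 4 → c₀ ≤ -g1 t) {y : Euc m} {v : Fin d → Euc m} {l K r : ℝ}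
    (hfat : ∀ (c : Fin d → ℝ) (i : Fin d), |c i| * Real.exp l ≤ K * ‖∑ j, c j • v j‖)
    (hy : ‖y - x‖ ≤ 2 * Real.exp l) (hv : ∀ i, ‖y + v i - x‖ ≤ 2 * Real.exp l)
    (hr0 : RR W π y g1 (l + 3) ≤ r) (hrv : ∀ i, RR W π (y + v i) g1 (l + 3) ≤ r) :
    lM W π (Submodule.span ℝ (range v)) (ball x (8 * Real.exp l)) ≤
      ENNReal.ofReal (2 * d ^ 3 * K ^ 2 / c₀ * Real.exp (3 * m) * r * Real.exp l ^ d) := by
  have h1 := lM_le h hg hc₀ hc hfat (A := ball x (8 * Real.exp l)) measurableSet_ball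
    (fun z hz => rad_le hz hy) (fun i z hz => rad_le hz (hv i)) hr0 hrv
  refine h1.trans (le_of_eq ?_)
  congr 1
  have h2 : Real.exp (-2 * l) * Real.exp (m * (l + 3)) = Real.exp (3 * m) * Real.exp l ^ d := by
    rw [← Real.exp_nat_mul, ← Real.exp_add, ← Real.exp_add]
    congr 1
    have : (m:ℝ) = d + 2 := by rw [← hd]; push_cast; ring
    rw [this]; ring
  calc 2 * (d:ℝ) ^ 3 * K ^ 2 / c₀ * Real.exp (-2 * l) * Real.exp (m * (l + 3)) * r =
      2 * (d:ℝ) ^ 3 * K ^ 2 / c₀ * (Real.exp (-2 * l) * Real.exp (m * (l + 3))) * r := by ring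
    _ = _ := by rw [h2]; ring

/-- data of one centre and scale, the estimates in numbers. -/
structure Est (W : Measure (Euc k × L k)) (π : Euc k →L[ℝ] Euc m) (NN : Euc m → ℝ≥0∞) (Q : ℕ)
    (kA : Measure (Euc m)) (S : Submodule ℝ (Euc m)) (x : Euc m) (s d₁ d₂ d₃ Y : ℝ) : Prop where
  eB : eM W π (ball x (2 * s)) ≤ ENNReal.ofReal Y
  qB : qM W π (ball x (2 * s)) ≤ ENNReal.ofReal (d₁ * Y)
  tB : ∫⁻ z in ball x (2 * s), ENNReal.ofReal |(NN z).toReal - Q| ≤ ENNReal.ofReal (d₂ * Y)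
  kB : kA (ball x (2 * s)) ≤ ENNReal.ofReal (d₃ * Y)
  lB : lM W π S (ball x (2 * s)) ≤ ENNReal.ofReal (d₃ * Y)

variable {Qn : ℕ} {kA : Measure (Euc m)} {S : Submodule ℝ (Euc m)} {s d₁ d₂ d₃ Y : ℝ}

theorem Est.nnq_le (hE : Est W π NN Qn kA S x s d₁ d₂ d₃ Y) (h : CF W π κ x₀ R)
    (ha : AreaAt W π NN (ball x (2 * s))) :
    ∫⁻ z in ball x (2 * s), (NN z - (Qn : ℝ≥0∞)) ≤ ENNReal.ofReal (d₂ * Y) := by
  refine le_trans (lintegral_mono_ae ?_) hE.tB
  filter_upwards [ha.ae_lt_top h] with z hz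
  exact tsub_le_abs hz Qn

theorem Est.hM_le (hE : Est W π NN Qn kA S x s d₁ d₂ d₃ Y) :
    hM NN (Qn : ℝ≥0∞) (ball x (2 * s)) ≤ ENNReal.ofReal (d₂ * Y) := by
  unfold hM
  rw [withDensity_apply _ measurableSet_ball]
  exact (lintegral_mono fun z => tsub_le_abs' (NN z) Qn).trans hE.tB

theorem Est.al_le (hE : Est W π NN Qn kA S x s d₁ d₂ d₃ Y) (h : CF W π κ x₀ R)
    (ha : AreaAt W π NN (ball x (2 * s))) (hY : 0 ≤ Y) (hd₂ : 0 ≤ d₂) (hd₂1 : d₂ ≤ 1) :
    al W π NN (Qn : ℝ≥0∞) (ball x (2 * s)) ≤ ENNReal.ofReal (2 * Y) := by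
  refine (N5_372.al_le h measurableSet_ball).trans ?_
  calc eM W π (ball x (2 * s)) + ∫⁻ z in ball x (2 * s), (NN z - (Qn : ℝ≥0∞)) ≤
      ENNReal.ofReal Y + ENNReal.ofReal (d₂ * Y) := add_le_add hE.eB (hE.nnq_le h ha)
    _ = ENNReal.ofReal (Y + d₂ * Y) := (ENNReal.ofReal_add hY (by positivity)).symm
    _ ≤ _ := ENNReal.ofReal_le_ofReal (by nlinarith)

theorem Est.data (hE : Est W π NN Qn kA S x s d₁ d₂ d₃ Y) (h : CF W π κ x₀ R)
    (ha : AreaAt W π NN (ball x (2 * s))) (hdv : HDiv W π kA (ball x (2 * s)))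
    (hs : 0 < s) (hs1 : s ≤ 1) (hY : 0 ≤ Y) (hd₁ : 0 ≤ d₁) (hd₂ : 0 ≤ d₂) (hd₂1 : d₂ ≤ 1)
    (hd₃ : 0 ≤ d₃) {δ : ℝ} (hδ0 : 0 ≤ δ) (hδ1 : δ ≤ 1) (hsum : d₂ + d₁ + d₃ ≤ δ)
    (hd₃δ : d₃ ≤ δ ^ 2) (hS : Module.finrank ℝ S = d) {x' : Euc m} (hx' : ‖x' - x‖ ≤ s) :
    Proj_929.Data (EuclideanSpace.basisFun (Fin d) ℝ) (iso S hS) (al W π NN (Qn : ℝ≥0∞))
      (hM NN (Qn : ℝ≥0∞) + qM W π + kA) W (fun p => π p.1) (fun p => qop π p.2) x' (s / 8)
      (2 * Y) (δ * Y) := by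
  have hsub : ball x' (6 * (s / 8)) ⊆ ball x (2 * s) := by
    intro z hz
    rw [mem_ball, dist_eq_norm] at hz ⊢
    calc ‖z - x‖ = ‖(z - x') + (x' - x)‖ := by congr 1; abel
      _ ≤ ‖z - x'‖ + ‖x' - x‖ := norm_add_le _ _
      _ < _ := by linarith
  have hov : ov π (ball x' (6 * (s / 8))) = (fun p : Euc k × L k => π p.1) ⁻¹' ball x' (6 * (s / 8)) :=
    rfl
  have hfW : IsFiniteMeasure W := ⟨h.fin⟩
  have htl : ∀ᵐ p ∂W, 0 ≤ tl π p.2 := by
    filter_upwards [Jh_bounds h] with p hp using hp.2.2.1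
  have heL : ∀ᵐ p ∂W, 0 ≤ eL π S p.2 := by
    filter_upwards [h.conc] with p hp using eL_nonneg h.sp.hh (isPr_of_G hp) S
  have hLr : ∫ p in (fun p : Euc k × L k => π p.1) ⁻¹' ball x' (6 * (s / 8)),
      Proj_929.tL (EuclideanSpace.basisFun (Fin d) ℝ) (iso S hS) (qop π p.2) ∂W ≤ d₃ * Y := by
    simp only [tL_iso]
    rw [← hov, ← bm_real (continuous_eL π S) heL measurableSet_ball]
    refine ENNReal.toReal_le_of_le_ofReal (by positivity) ?_
    exact (measure_mono hsub).trans hE.lB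
  have hL0 : 0 ≤ ∫ p in (fun p : Euc k × L k => π p.1) ⁻¹' ball x' (6 * (s / 8)),
      Proj_929.tL (EuclideanSpace.basisFun (Fin d) ℝ) (iso S hS) (qop π p.2) ∂W := by
    simp only [tL_iso]
    exact integral_nonneg_of_ae (ae_restrict_of_ae heL)
  have hQc : Continuous fun p : Euc k × L k => qop π p.2 :=
    (continuous_const.sub (continuous_Shh π)).comp continuous_snd
  have hQr : ∫ p in (fun p : Euc k × L k => π p.1) ⁻¹' ball x' (6 * (s / 8)), ‖qop π p.2‖ ∂W ≤ Y := by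
    have h1 : ∫ p in (fun p : Euc k × L k => π p.1) ⁻¹' ball x' (6 * (s / 8)), ‖qop π p.2‖ ∂W ≤
        ∫ p in ov π (ball x' (6 * (s / 8))), tl π p.2 ∂W := by
      refine integral_mono_of_nonneg (Eventually.of_forall fun p => norm_nonneg _) ?_ ?_
      · refine Integrable.integrableOn ?_
        refine Integrable.of_bound ((continuous_tl π).comp
          continuous_snd).aestronglyMeasurable (m : ℝ) ?_
        filter_upwards [Jh_bounds h] with p hp
        rw [Real.norm_of_nonneg hp.2.2.1]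
        exact hp.2.2.2.1
      · filter_upwards [ae_restrict_of_ae h.conc] with p hp
        exact norm_qop_le h.sp hp
    refine h1.trans ?_
    rw [← bm_real (continuous_tl π) htl measurableSet_ball]
    refine ENNReal.toReal_le_of_le_ofReal hY ?_
    exact (measure_mono hsub).trans hE.eB
  have hQ0 : 0 ≤ ∫ p in (fun p : Euc k × L k => π p.1) ⁻¹' ball x' (6 * (s / 8)), ‖qop π p.2‖ ∂W :=
    integral_nonneg fun p => norm_nonneg _
  have hkt : kA (ball x (2 * s)) < ⊤ := lt_of_le_of_lt hE.kB ENNReal.ofReal_lt_top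
  refine ⟨by positivity, measurable_base π, ?_, ?_, ?_, ?_, ?_, ?_, ?_, ?_⟩
  · filter_upwards [ae_restrict_of_ae h.conc] with p hp
    exact psd_qop h.sp.hh (isPr_of_G hp)
  · refine Integrable.integrableOn ?_
    refine Integrable.of_bound hQc.aestronglyMeasurable (m : ℝ) ?_
    filter_upwards [h.conc, Jh_bounds h] with p hp hp2
    exact (norm_qop_le h.sp hp).trans hp2.2.2.2.1
  · exact divErr h (ha.mono measurableSet_ball hsub) measure_ball_lt_top (ENNReal.natCast_ne_top _)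
      (lt_of_le_of_lt (measure_mono hsub) hkt) (hdv.mono hsub) (by positivity) (by linarith)
  · nlinarith
  · exact (measure_mono hsub).trans (hE.al_le h ha hY hd₂ hd₂1)
  · refine (measure_mono hsub).trans ?_
    rw [Measure.add_apply, Measure.add_apply]
    calc hM NN (Qn : ℝ≥0∞) (ball x (2 * s)) + qM W π (ball x (2 * s)) + kA (ball x (2 * s)) ≤
        ENNReal.ofReal (d₂ * Y) + ENNReal.ofReal (d₁ * Y) + ENNReal.ofReal (d₃ * Y) :=
          add_le_add (add_le_add hE.hM_le hE.qB) hE.kB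
      _ = ENNReal.ofReal (d₂ * Y + d₁ * Y + d₃ * Y) := by
          rw [ENNReal.ofReal_add (by positivity) (by positivity),
            ENNReal.ofReal_add (by positivity) (by positivity)]
      _ ≤ _ := ENNReal.ofReal_le_ofReal (by nlinarith)
  · refine hLr.trans ?_
    have : d₃ ≤ δ := by linarith
    gcongr
  · rw [show δ * Y = Real.sqrt ((δ * Y) ^ 2) from (Real.sqrt_sq (by positivity)).symm]
    refine Real.sqrt_le_sqrt ?_
    calc _ ≤ Y * (d₃ * Y) := mul_le_mul hQr hLr hL0 hY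
      _ ≤ Y * (δ ^ 2 * Y) := by gcongr
      _ = _ := by ring

/-- the anomaly of a test function supported in `B_2s(x)`. -/
theorem Est.anomaly (hE : Est W π NN Qn kA S x s d₁ d₂ d₃ Y) (h : CF W π κ x₀ R)
    (ha : AreaAt W π NN (ball x (2 * s))) (hY : 0 ≤ Y) (hd₁ : 0 ≤ d₁) (hd₂ : 0 ≤ d₂)
    {φ : Euc m → ℝ} (hφ : Measurable φ) (h1 : ∀ z, |φ z| ≤ 1)
    (h0 : ∀ z, z ∉ ball x (2 * s) → φ z = 0) :
    |(∫ p, φ (π p.1) ∂W) - Qn * (∫ z, φ z) - (1 / 2) * (∫ p, tl π p.2 * φ (π p.1) ∂W)| ≤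
      (d₁ / 2 + d₂) * Y := by
  refine (abs_anomaly_le h ha measure_ball_lt_top hφ h1 h0).trans ?_
  have e1 : (qM W π (ball x (2 * s))).toReal ≤ d₁ * Y :=
    ENNReal.toReal_le_of_le_ofReal (by positivity) hE.qB
  have e2 : ∫ z in ball x (2 * s), |(NN z).toReal - Qn| ≤ d₂ * Y := by
    have hm : Measurable fun z => |(NN z).toReal - (Qn : ℝ)| :=
      continuous_abs.measurable.comp (ha.meas.ennreal_toReal.sub_const _)
    rw [integral_eq_lintegral_of_nonneg_ae (Eventually.of_forall fun z => abs_nonneg _)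
      hm.aestronglyMeasurable]
    exact ENNReal.toReal_le_of_le_ofReal (by positivity) hE.tB
  linarith

/-- the energy over sets with small projection. -/
theorem exists_energy (m : ℕ) (hSC : Proj_929.SC1 (EuclideanSpace.basisFun (Fin d) ℝ)) :
    ∃ C : ℝ, 0 < C ∧ ∀ {n k : ℕ} {π : Euc k →L[ℝ] Euc m} {κ : Euc k →L[ℝ] Euc n}
      {W : Measure (Euc k × L k)} {x₀ : Euc m} {R : ℝ} {NN : Euc m → ℝ≥0∞} {Qn : ℕ}
      {kA : Measure (Euc m)} {S : Submodule ℝ (Euc m)} {x : Euc m} {s d₁ d₂ d₃ Y δ θ : ℝ},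
      Est W π NN Qn kA S x s d₁ d₂ d₃ Y → CF W π κ x₀ R →
      AreaAt W π NN (ball x (2 * s)) → HDiv W π kA (ball x (2 * s)) →
      0 < s → s ≤ 1 → 0 ≤ Y → 0 ≤ d₁ → 0 ≤ d₂ → d₂ ≤ 1 → 0 ≤ d₃ → 0 ≤ δ → δ ≤ 1 →
      d₂ + d₁ + d₃ ≤ δ → d₃ ≤ δ ^ 2 → 0 ≤ θ → ∀ (hS : Module.finrank ℝ S = d),
      ∀ N : Set (Euc m), N ⊆ closedBall x s →
        volume (Proj_929.pr (iso S hS) '' N) ≤ ENNReal.ofReal (θ * s ^ d) →
        eM W π N ≤ ENNReal.ofReal (C * (θ + Real.sqrt δ) * Y) := by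
  obtain ⟨C, hC0, hC⟩ := Proj_929.energy_le.{0} (F := Euc m) (EuclideanSpace.basisFun (Fin d) ℝ) hSC
  obtain ⟨T, hT1, hTc⟩ := exists_cover m
  refine ⟨(C + 1) * (2 * 8 ^ d) * (T.card + 1), by positivity, ?_⟩
  intro n k π κ W x₀ R NN Qn kA S x s d₁ d₂ d₃ Y δ θ hE h ha hdv hs hs1 hY hd₁ hd₂ hd₂1 hd₃ hδ0 hδ1
    hsum hd₃δ hθ hS N hN hvol
  have hsd : 0 < s ^ d := by positivity
  -- one ball
  have key : ∀ t ∈ T, eM W π (N ∩ ball (x + s • t) (s / 8)) ≤
      ENNReal.ofReal ((C + 1) * (2 * 8 ^ d) * (θ + Real.sqrt δ) * Y) := by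
    intro t ht
    have hx' : ‖(x + s • t) - x‖ ≤ s := by
      rw [add_sub_cancel_left, norm_smul, Real.norm_of_nonneg hs.le]
      exact mul_le_of_le_one_right hs.le (hT1 t ht)
    have D := hE.data h ha hdv hs hs1 hY hd₁ hd₂ hd₂1 hd₃ hδ0 hδ1 hsum hd₃δ hS hx'
    have h1 := hC _ _ _ _ _ _ _ _ _ _ D (eM W π) (fun A hA _ => by
      refine (eM_le (NN := NN) (Q := (Qn : ℝ≥0∞)) h hA).trans (add_le_add le_rfl ?_)
      rw [Measure.add_apply, Measure.add_apply, add_comm (hM NN (Qn : ℝ≥0∞) A)]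
      exact le_self_add.trans le_self_add) (N ∩ ball (x + s • t) (s / 8)) inter_subset_right
    refine h1.trans ?_
    have hfr : Module.finrank ℝ (EuclideanSpace ℝ (Fin d)) = d := finrank_euclideanSpace_fin
    rw [hfr]
    have h2 : volume (Proj_929.pr (iso S hS) '' (N ∩ ball (x + s • t) (s / 8))) ≤
        ENNReal.ofReal (θ * s ^ d) :=
      (measure_mono (image_mono inter_subset_left)).trans hvol
    have hq : Real.sqrt (2 * Y * (δ * Y)) ≤ 2 * Real.sqrt δ * Y := by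
      rw [show 2 * Real.sqrt δ * Y = Real.sqrt ((2 * Real.sqrt δ * Y) ^ 2) from
        (Real.sqrt_sq (by positivity)).symm]
      refine Real.sqrt_le_sqrt ?_
      rw [mul_pow, mul_pow, Real.sq_sqrt hδ0]
      nlinarith [mul_nonneg hδ0 (sq_nonneg Y)]
    calc ENNReal.ofReal (C * (2 * Y) / (s / 8) ^ d) *
          volume (Proj_929.pr (iso S hS) '' (N ∩ ball (x + s • t) (s / 8))) +
          ENNReal.ofReal (C * Real.sqrt (2 * Y * (δ * Y)))
        ≤ ENNReal.ofReal (C * (2 * Y) / (s / 8) ^ d) * ENNReal.ofReal (θ * s ^ d) +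
          ENNReal.ofReal (C * (2 * Real.sqrt δ * Y)) := by
          gcongr
      _ = ENNReal.ofReal (C * (2 * Y) / (s / 8) ^ d * (θ * s ^ d) + C * (2 * Real.sqrt δ * Y)) := by
          rw [← ENNReal.ofReal_mul (by positivity), ← ENNReal.ofReal_add (by positivity)
            (by positivity)]
      _ ≤ _ := by
          refine ENNReal.ofReal_le_ofReal ?_
          have e1 : C * (2 * Y) / (s / 8) ^ d * (θ * s ^ d) = C * (2 * 8 ^ d) * θ * Y := by
            rw [div_pow]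
            field_simp
          rw [e1]
          have e2 : (1:ℝ) ≤ 8 ^ d := one_le_pow₀ (by norm_num)
          have hq0 := Real.sqrt_nonneg δ
          have e3 : C * (2 * Real.sqrt δ * Y) ≤ C * (2 * 8 ^ d) * Real.sqrt δ * Y := by
            have : C * (2 * Real.sqrt δ * Y) * 1 ≤ C * (2 * Real.sqrt δ * Y) * 8 ^ d :=
              mul_le_mul_of_nonneg_left e2 (by positivity)
            calc C * (2 * Real.sqrt δ * Y) = C * (2 * Real.sqrt δ * Y) * 1 := by ring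
              _ ≤ _ := this
              _ = _ := by ring
          have e4 : 0 ≤ (2 * 8 ^ d) * (θ + Real.sqrt δ) * Y := by positivity
          calc C * (2 * 8 ^ d) * θ * Y + C * (2 * Real.sqrt δ * Y) ≤
              C * (2 * 8 ^ d) * θ * Y + C * (2 * 8 ^ d) * Real.sqrt δ * Y := by linarith
            _ = C * ((2 * 8 ^ d) * (θ + Real.sqrt δ) * Y) := by ring
            _ ≤ (C + 1) * ((2 * 8 ^ d) * (θ + Real.sqrt δ) * Y) := by nlinarith
            _ = _ := by ring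
  -- the sum
  have hcov : N ⊆ ⋃ t ∈ T, N ∩ ball (x + s • t) (s / 8) := by
    intro z hz
    have h1 : s⁻¹ • (z - x) ∈ closedBall (0 : Euc m) 1 := by
      have h2 := hN hz
      rw [mem_closedBall, dist_eq_norm] at h2
      rw [mem_closedBall_zero_iff, norm_smul, norm_inv, Real.norm_of_nonneg hs.le,
        inv_mul_le_iff₀ hs, mul_one]
      exact h2
    have h3 := hTc h1
    simp only [mem_iUnion, exists_prop] at h3 ⊢
    obtain ⟨t, ht, h4⟩ := h3
    refine ⟨t, ht, hz, ?_⟩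
    rw [mem_ball, dist_eq_norm] at h4 ⊢
    have h5 : z - (x + s • t) = s • (s⁻¹ • (z - x) - t) := by
      rw [smul_sub, smul_smul, mul_inv_cancel₀ hs.ne', one_smul]
      abel
    rw [h5, norm_smul, Real.norm_of_nonneg hs.le]
    calc s * ‖s⁻¹ • (z - x) - t‖ < s * (1 / 8) := by gcongr
      _ = s / 8 := by ring
  calc eM W π N ≤ eM W π (⋃ t ∈ T, N ∩ ball (x + s • t) (s / 8)) := measure_mono hcov
    _ ≤ ∑ t ∈ T, eM W π (N ∩ ball (x + s • t) (s / 8)) := measure_biUnion_finset_le _ _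
    _ ≤ ∑ _t ∈ T, ENNReal.ofReal ((C + 1) * (2 * 8 ^ d) * (θ + Real.sqrt δ) * Y) :=
        Finset.sum_le_sum key
    _ = ENNReal.ofReal (T.card * ((C + 1) * (2 * 8 ^ d) * (θ + Real.sqrt δ) * Y)) := by
        rw [Finset.sum_const, nsmul_eq_mul, ENNReal.ofReal_mul (Nat.cast_nonneg _),
          ENNReal.ofReal_natCast]
    _ ≤ _ := by
        refine ENNReal.ofReal_le_ofReal ?_
        have hq0 := Real.sqrt_nonneg δ
        have e4 : 0 ≤ (C + 1) * (2 * 8 ^ d) * (θ + Real.sqrt δ) * Y := by positivity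
        nlinarith

/-- **N5 LOCAL**, one centre `x`, one scale `s = e^l ≤ 1`.  `ηH` = smallness of the hole lemma,
`δH` = its input, `C₁` = constant of the theta lemma, `kA` = almost stationarity error. -/
theorem local_small (hd : d + 2 = m)
    (hSC : Proj_929.SC1 (EuclideanSpace.basisFun (Fin d) ℝ)) {c₀ C₁ : ℝ} (hc₀ : 0 < c₀)
    (hC₁ : 0 ≤ C₁) {ω : ℝ} (hω : 0 < ω) :
    ∃ θ > 0, ∃ ηH > 0, ∀ δH K : ℝ, 0 < δH → ∃ η > 0,
      ∀ {n k : ℕ} {π : Euc k →L[ℝ] Euc m} {κ : Euc k →L[ℝ] Euc n} {W : Measure (Euc k × L k)}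
        {x₀ : Euc m} {R : ℝ} {NN : Euc m → ℝ≥0∞} {Qn : ℕ} {kA : Measure (Euc m)}
        {g g1 g2 : ℝ → ℝ} {x y : Euc m} {v : Fin d → Euc m} {l G : ℝ},
        CF W π κ x₀ R → Prof g g1 g2 → (∀ t, 0 ≤ t → t ≤ 1 / 4 → c₀ ≤ -g1 t) → l ≤ 0 →
        AreaAt W π NN (ball x (2 * Real.exp l)) → HDiv W π kA (ball x (2 * Real.exp l)) →
        (∀ (c : Fin d → ℝ) (i : Fin d), |c i| * Real.exp l ≤ K * ‖∑ j, c j • v j‖) →
        ‖y - x‖ ≤ 2 * Real.exp l → (∀ i, ‖y + v i - x‖ ≤ 2 * Real.exp l) →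
        RR W π y g1 (l + 3) ≤ η * G → (∀ i, RR W π (y + v i) g1 (l + 3) ≤ η * G) →
        eM W π (ball x (2 * Real.exp l)) ≤ ENNReal.ofReal (G * Real.exp l ^ d) →
        kA (ball x (2 * Real.exp l)) ≤ ENNReal.ofReal (η * G * Real.exp l ^ d) →
        (∀ S : Submodule ℝ (Euc m), Module.finrank ℝ S = d →
          lM W π S (ball x (8 * Real.exp l)) ≤ ENNReal.ofReal (δH * G * Real.exp l ^ d) →
          qM W π (ball x (4 * Real.exp l)) ≤ ENNReal.ofReal (ηH * G * Real.exp l ^ d)) →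
        (∫⁻ z in ball x (2 * Real.exp l), ENNReal.ofReal |(NN z).toReal - Qn| ≤
          ENNReal.ofReal C₁ * qM W π (ball x (4 * Real.exp l))) →
        (∀ φ : Euc m → ℝ, Measurable φ → (∀ z, |φ z| ≤ 1) →
          (∀ z, z ∉ ball x (2 * Real.exp l) → φ z = 0) →
          |(∫ p, φ (π p.1) ∂W) - Qn * (∫ z, φ z) - (1 / 2) * (∫ p, tl π p.2 * φ (π p.1) ∂W)| ≤
            ω * G * Real.exp l ^ d) ∧
        ∃ hS : Module.finrank ℝ (Submodule.span ℝ (range v)) = d,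
          ∀ N : Set (Euc m), N ⊆ closedBall x (Real.exp l) →
            volume (Proj_929.pr (iso _ hS) '' N) ≤ ENNReal.ofReal (θ * Real.exp l ^ d) →
            eM W π N ≤ ENNReal.ofReal (ω * G * Real.exp l ^ d) := by
  obtain ⟨C, hC0, hC⟩ := exists_energy m hSC
  set δ : ℝ := min 1 ((ω / (2 * C)) ^ 2) with hδdef
  have hδ : 0 < δ := by positivity
  have hδ1 : δ ≤ 1 := min_le_left _ _
  have hδs : Real.sqrt δ ≤ ω / (2 * C) := by
    calc Real.sqrt δ ≤ Real.sqrt ((ω / (2 * C)) ^ 2) := Real.sqrt_le_sqrt (min_le_right _ _)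
      _ = _ := Real.sqrt_sq (by positivity)
  set ηH : ℝ := min (δ / (2 * (C₁ + 1))) (ω / (C₁ + 1)) with hηH
  have hηH0 : 0 < ηH := by positivity
  have hηH1 : (C₁ + 1) * ηH ≤ δ / 2 := by
    calc (C₁ + 1) * ηH ≤ (C₁ + 1) * (δ / (2 * (C₁ + 1))) := by
          gcongr; exact min_le_left _ _
      _ = δ / 2 := by field_simp
  have hηH2 : (C₁ + 1) * ηH ≤ ω := by
    calc (C₁ + 1) * ηH ≤ (C₁ + 1) * (ω / (C₁ + 1)) := by
          gcongr; exact min_le_right _ _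
      _ = ω := by field_simp
  refine ⟨ω / (2 * C), by positivity, ηH, hηH0, ?_⟩
  intro δH K hδH
  set CL : ℝ := 2 * d ^ 3 * K ^ 2 / c₀ * Real.exp (3 * m) with hCL
  have hCL0 : 0 ≤ CL := by positivity
  set η : ℝ := min (δ ^ 2 / 2) (min (δ ^ 2 / 2) δH / (CL + 1)) with hη
  have hη0 : 0 < η := by positivity
  have hη1 : η ≤ δ ^ 2 / 2 := min_le_left _ _
  have hη2 : CL * η ≤ min (δ ^ 2 / 2) δH := by
    calc CL * η ≤ (CL + 1) * η := by nlinarith
      _ ≤ (CL + 1) * (min (δ ^ 2 / 2) δH / (CL + 1)) := by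
          gcongr; exact min_le_right _ _
      _ = _ := by field_simp
  have hη3 : CL * η ≤ δ ^ 2 / 2 := hη2.trans (min_le_left _ _)
  have hη4 : CL * η ≤ δH := hη2.trans (min_le_right _ _)
  refine ⟨η, hη0, ?_⟩
  intro n k π κ W x₀ R NN Qn kA g g1 g2 x y v l G h hg hc hl ha hdv hfat hy hv hr0 hrv he hk hH hT
  set s := Real.exp l with hs
  have hs0 : 0 < s := Real.exp_pos l
  have hs1 : s ≤ 1 := Real.exp_le_one_iff.2 hl
  have hS := finrank_fat hfat
  set S := Submodule.span ℝ (range v) with hSdef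
  have hG : 0 ≤ G := by
    have h1 := (h.RR_nonneg hg (l + 3)).trans hr0
    by_contra h2
    push Not at h2
    have := mul_neg_of_pos_of_neg hη0 h2
    linarith
  set Y : ℝ := G * s ^ d with hY
  have hY0 : 0 ≤ Y := by positivity
  have hl8 := lM_ball_le (x := x) hd h hg hc₀ hc hfat hy hv hr0 hrv
  have hl8' : lM W π S (ball x (8 * s)) ≤ ENNReal.ofReal (CL * η * Y) := by
    refine hl8.trans (le_of_eq ?_)
    congr 1
    rw [hCL, hY]; ring
  have hq4 : qM W π (ball x (4 * s)) ≤ ENNReal.ofReal (ηH * Y) := by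
    have h1 := hH S hS (hl8'.trans (ENNReal.ofReal_le_ofReal (by
      rw [hY]
      calc CL * η * (G * s ^ d) ≤ δH * (G * s ^ d) := by gcongr
        _ = _ := by ring)))
    rw [mul_assoc] at h1
    exact h1
  have hb24 : ball x (2 * s) ⊆ ball x (4 * s) := ball_subset_ball (by linarith)
  have hb28 : ball x (2 * s) ⊆ ball x (8 * s) := ball_subset_ball (by linarith)
  have hE : Est W π NN Qn kA S x s ηH (C₁ * ηH) (δ ^ 2 / 2) Y := by
    refine ⟨he, (measure_mono hb24).trans hq4, ?_, ?_, ?_⟩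
    · refine hT.trans ?_
      calc ENNReal.ofReal C₁ * qM W π (ball x (4 * s)) ≤
          ENNReal.ofReal C₁ * ENNReal.ofReal (ηH * Y) := by gcongr
        _ = ENNReal.ofReal (C₁ * (ηH * Y)) := (ENNReal.ofReal_mul hC₁).symm
        _ = _ := by ring_nf
    · refine hk.trans (ENNReal.ofReal_le_ofReal ?_)
      rw [mul_assoc]
      gcongr
    · refine (measure_mono hb28).trans (hl8'.trans (ENNReal.ofReal_le_ofReal ?_))
      gcongr
  have hd1 : C₁ * ηH ≤ 1 := by nlinarith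
  have hδ2 : δ ^ 2 ≤ δ := by nlinarith
  refine ⟨fun φ hφ h1 h0 => ?_, hS, fun N hN hvol => ?_⟩
  · refine (hE.anomaly h ha hY0 hηH0.le (by positivity) hφ h1 h0).trans ?_
    rw [mul_assoc, ← hY]
    gcongr
    nlinarith
  · have h3 := hC hE h ha hdv hs0 hs1 hY0 hηH0.le (by positivity) hd1 (by positivity) hδ.le hδ1
      (by nlinarith) (by nlinarith) (by positivity : (0:ℝ) ≤ ω / (2 * C)) hS N hN hvol
    refine h3.trans (ENNReal.ofReal_le_ofReal ?_)
    rw [mul_assoc ω, ← hY]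
    have h4 : C * (ω / (2 * C) + Real.sqrt δ) ≤ ω := by
      calc C * (ω / (2 * C) + Real.sqrt δ) ≤ C * (ω / (2 * C) + ω / (2 * C)) := by gcongr
        _ = ω := by field_simp; ring
    gcongr

end Crest.Agent.R234.N5_372
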