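import Crest.Agent.R234.Thin2_561

/-!
# Row 234, node N4 THIN of the core (helper561), part 3: the inequality

`thin_core` : if the tilt energy in the directions of `ν^⊥` is at most `t² G` in the ball and the anomaly
functional is at most `ω G` in the ball, then `2 b + R ≥ E - K (t² + 2 t + 2 ω) G` up to the first variation
term of the field `χ ⟨ν, x'-x⟩ ν` (`0` for stationary varifolds).
-/

set_option autoImplicit false
set_option linter.unusedSectionVars false

open MeasureTheory Set Function Filter Topology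
open Crest.GeometryTopology.Submanifold
open Crest.Agent.R234.Vf_884 Crest.Agent.R234.Ar_870 Crest.Agent.R234.Cy_870
open Crest.Agent.R234.Rig_300
open scoped ENNReal NNReal InnerProductSpace

noncomputable section

namespace Crest.Agent.R234.Thin_561

variable {m n k : ℕ}

variable {π : Euc k →L[ℝ] Euc m} {κ : Euc k →L[ℝ] Euc n} {x ν : Euc m} {L₀ : ℝ}
  {V : Measure (Euc k × L k)} {g g1 g2 : ℝ → ℝ}

/-- the part of `V` over the open ball of radius `e^l` about `x` -/
def BB (π : Euc k →L[ℝ] Euc m) (x : Euc m) (l : ℝ) : Set (Euc k × L k) :=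
  {p | ‖π p.1 - x‖ ^ 2 < Real.exp (2 * l)}

/-- sharp tilt energy `s^{2-m} ∫_{B_s(x)} tl dV` -/
def eB (V : Measure (Euc k × L k)) (π : Euc k →L[ℝ] Euc m) (x : Euc m) (l : ℝ) : ℝ :=
  Real.exp ((2 - m) * l) * ∫ p in BB π x l, tl π p.2 ∂V

/-- sharp tilt energy in the directions of `ν^⊥` -/
def eHB (V : Measure (Euc k × L k)) (π : Euc k →L[ℝ] Euc m) (x ν : Euc m) (l : ℝ) : ℝ :=
  Real.exp ((2 - m) * l) * ∫ p in BB π x l, eH π p.2 ν ∂V

/-- the anomaly functional is at most `B` in the ball of radius `e^l` about `x` -/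
def BSm (V : Measure (Euc k × L k)) (π : Euc k →L[ℝ] Euc m) (Q : ℝ) (x : Euc m) (l B : ℝ) : Prop :=
  ∀ ψ : Euc m → ℝ, Continuous ψ → (∀ v, 0 ≤ ψ v) → (∀ v, ψ v ≤ 1) →
    (∀ v, Real.exp l ≤ ‖v - x‖ → ψ v = 0) → |Real.exp ((2 - m) * l) * bF V π Q ψ| ≤ B

theorem isOpen_BB (π : Euc k →L[ℝ] Euc m) (x : Euc m) (l : ℝ) : IsOpen (BB π x l) :=
  isOpen_lt (((π.continuous.comp continuous_fst).sub continuous_const).norm.pow 2)
    continuous_const

theorem mem_BB {p : Euc k × L k} {l : ℝ} : p ∈ BB π x l ↔ ‖π p.1 - x‖ ^ 2 < Real.exp (2 * l) :=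
  Iff.rfl

theorem BB_lt_top (h : Fr V π κ x L₀) {l : ℝ} (hl : l ≤ L₀) : V (BB π x l) < ⊤ := by
  refine (measure_mono ?_).trans_lt h.fin
  intro p hp
  exact lt_of_lt_of_le (mem_BB.1 hp) (Real.exp_le_exp.2 (by linarith))

theorem scaled_lt {p : Euc k × L k} {l : ℝ} :
    Real.exp (-2 * l) * ‖π p.1 - x‖ ^ 2 < 1 ↔ p ∈ BB π x l := by
  rw [mem_BB]
  have h1 : Real.exp (2 * l) * Real.exp (-2 * l) = 1 := by
    rw [← Real.exp_add]; norm_num
  have h2 := Real.exp_pos (2 * l)
  have h3 := Real.exp_pos (-2 * l)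
  constructor
  · intro h
    calc ‖π p.1 - x‖ ^ 2 = Real.exp (2 * l) * (Real.exp (-2 * l) * ‖π p.1 - x‖ ^ 2) := by
          rw [← mul_assoc, h1, one_mul]
      _ < Real.exp (2 * l) * 1 := mul_lt_mul_of_pos_left h h2
      _ = _ := mul_one _
  · intro h
    calc Real.exp (-2 * l) * ‖π p.1 - x‖ ^ 2 < Real.exp (-2 * l) * Real.exp (2 * l) :=
          mul_lt_mul_of_pos_left h h3
      _ = 1 := by rw [mul_comm, h1]

/-- an integral with a kernel supported in the ball -/
theorem ker_le (h : Fr V π κ x L₀) {l : ℝ} (hl : l ≤ L₀) {c F : Euc k × L k → ℝ}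
    (hF : AEStronglyMeasurable F V) {CF : ℝ} (hFb : ∀ᵐ p ∂V, p ∈ BB π x l → |F p| ≤ CF)
    {f : ℝ → ℝ} (hf0 : ∀ t, 1 ≤ t → f t = 0) {K : ℝ} (hK : ∀ t, 0 ≤ t → |f t| ≤ K)
    (hc : ∀ᵐ p ∂V, p ∈ BB π x l → |c p| ≤ F p) :
    |∫ p, c p * f (Real.exp (-2 * l) * ‖π p.1 - x‖ ^ 2) ∂V| ≤ K * ∫ p in BB π x l, F p ∂V := by
  have hK0 : 0 ≤ K := (abs_nonneg _).trans (hK 0 le_rfl)
  have hBm : MeasurableSet (BB (k := k) π x l) := (isOpen_BB π x l).measurableSet
  have hFi : IntegrableOn F (BB π x l) V := by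
    have : IsFiniteMeasure (V.restrict (BB π x l)) :=
      ⟨by rw [Measure.restrict_apply_univ]; exact BB_lt_top h hl⟩
    refine Integrable.mono' (integrable_const CF) hF.restrict ?_
    rw [ae_restrict_iff' hBm]
    exact hFb
  rw [← integral_const_mul, ← integral_indicator hBm]
  refine (abs_integral_le_integral_abs).trans ?_
  refine integral_mono_of_nonneg (Eventually.of_forall fun p => abs_nonneg _) ?_ ?_
  · rw [integrable_indicator_iff hBm]
    exact hFi.const_mul K
  · filter_upwards [hc] with p hp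
    by_cases hpB : p ∈ BB π x l
    · rw [indicator_of_mem hpB, abs_mul, mul_comm]
      exact mul_le_mul (hK _ (by positivity)) (hp hpB) (abs_nonneg _) hK0
    · rw [indicator_of_notMem hpB]
      have h1 : ¬ (Real.exp (-2 * l) * ‖π p.1 - x‖ ^ 2 < 1) := fun h => hpB (scaled_lt.1 h)
      rw [hf0 _ (not_lt.1 h1), mul_zero, abs_zero]

theorem continuous_qf_const (π : Euc k →L[ℝ] Euc m) (ν : Euc m) :
    Continuous fun p : Euc k × L k => qf π p.2 ν := by
  unfold qf
  exact continuous_const.sub (continuous_const.inner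
    (((continuous_Shh π).comp continuous_snd).clm_apply continuous_const))

theorem continuous_eH (π : Euc k →L[ℝ] Euc m) (ν : Euc m) :
    Continuous fun p : Euc k × L k => eH π p.2 ν := by
  unfold eH
  exact ((measurable_tl π).comp continuous_snd).sub (continuous_qf_const π ν)

theorem eH_bd (h : Fr V π κ x L₀) (hν : ‖ν‖ = 1) : ∀ᵐ p ∂V, |eH π p.2 ν| ≤ m := by
  filter_upwards [h.conc] with p hp
  rw [abs_of_nonneg (eH_nonneg h.sp.hh (isPr_of_G hp) hν)]
  exact (eH_le_tl h.sp.hh (isPr_of_G hp)).trans (tl_le h.sp.hh (isPr_of_G hp))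

/-- **N4, core inequality** -/
theorem thin_core (h : Fr V π κ x L₀) (hg : Prof g g1 g2) (Q : ℝ) {l : ℝ} (hl : l ≤ L₀)
    (hν : ‖ν‖ = 1) {K : ℝ} (hK : ∀ t, 0 ≤ t → |g t| ≤ K) (hK1 : ∀ t, 0 ≤ t → |g1 t| ≤ K)
    {t G ω : ℝ} (ht : 0 < t) (hG : eB V π x l ≤ G) (hH : eHB V π x ν l ≤ t ^ 2 * G)
    (hb : BSm V π Q x l (ω * G)) :
    EE V π x g Q l - K * (t ^ 2 + 2 * t + 2 * ω) * G +
        Real.exp ((2 - m) * l) * FV V (Xν π x ν g l) ≤
      2 * bb V π x g Q l + RR V π x g1 l := by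
  have hK0 : 0 ≤ K := (abs_nonneg _).trans (hK 0 le_rfl)
  have hE0 : 0 < Real.exp ((2 - m) * l) := Real.exp_pos _
  have hBm : MeasurableSet (BB (k := k) π x l) := (isOpen_BB π x l).measurableSet
  have hfin : IsFiniteMeasure (V.restrict (BB π x l)) :=
    ⟨by rw [Measure.restrict_apply_univ]; exact BB_lt_top h hl⟩
  have htlb : ∀ᵐ p ∂V, |tl π p.2| ≤ m := by
    filter_upwards [h.conc] with p hp
    rw [abs_of_nonneg (tl_nonneg h.sp.hh (isPr_of_G hp))]
    exact tl_le h.sp.hh (isPr_of_G hp)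
  have hti : IntegrableOn (fun p : Euc k × L k => tl π p.2) (BB π x l) V :=
    Integrable.mono' (integrable_const (m:ℝ)) (aestronglyMeasurable_tl π V).restrict
      (ae_restrict_of_ae htlb)
  have hei : IntegrableOn (fun p : Euc k × L k => eH π p.2 ν) (BB π x l) V :=
    Integrable.mono' (integrable_const (m:ℝ)) (continuous_eH π ν).aestronglyMeasurable.restrict
      (ae_restrict_of_ae (eH_bd h hν))
  -- term A
  have hA : |∫ p, eH π p.2 ν * g (Real.exp (-2 * l) * ‖π p.1 - x‖ ^ 2) ∂V| ≤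
      K * ∫ p in BB π x l, eH π p.2 ν ∂V := by
    refine ker_le h hl (F := fun p => eH π p.2 ν) (continuous_eH π ν).aestronglyMeasurable
      (CF := m) ?_ hg.k0.zero hK ?_
    · filter_upwards [eH_bd (x := x) h hν] with p hp _ using hp
    · filter_upwards [h.conc] with p hp _
      rw [abs_of_nonneg (eH_nonneg h.sp.hh (isPr_of_G hp) hν)]
  -- term B
  have hB : |∫ p, cc π p.2 (π p.1 - x) ν *
      (-2 * g1 (Real.exp (-2 * l) * ‖π p.1 - x‖ ^ 2)) ∂V| ≤
      (2 * K) * ∫ p in BB π x l,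
        Real.exp (2 * l) * ((t * tl π p.2 + eH π p.2 ν / t) / 2) ∂V := by
    refine ker_le h hl (c := fun p => cc π p.2 (π p.1 - x) ν)
      (F := fun p => Real.exp (2 * l) * ((t * tl π p.2 + eH π p.2 ν / t) / 2))
      (f := fun t => -2 * g1 t) ?_ (CF := Real.exp (2 * l) * ((t * m + m / t) / 2)) ?_ ?_ ?_ ?_
    · exact (continuous_const.mul (((continuous_const.mul
        ((measurable_tl π).comp continuous_snd)).add
          ((continuous_eH π ν).div_const t)).div_const 2)).aestronglyMeasurable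
    · filter_upwards [h.conc] with p hp _
      have e1 := tl_nonneg h.sp.hh (isPr_of_G hp)
      have e2 := tl_le h.sp.hh (isPr_of_G hp)
      have e3 := eH_nonneg h.sp.hh (isPr_of_G hp) hν
      have e4 := (eH_le_tl (ν := ν) h.sp.hh (isPr_of_G hp)).trans e2
      rw [abs_of_nonneg (by positivity)]
      gcongr
    · intro t ht
      rw [hg.k0.zero' t ht, mul_zero]
    · intro t ht
      rw [abs_mul]
      have : |(-2:ℝ)| = 2 := by norm_num
      rw [this]
      exact mul_le_mul_of_nonneg_left (hK1 t ht) two_pos.le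
    · filter_upwards [h.conc] with p hp hpB
      have e0 := abs_cc_le h.sp hp hν (π p.1 - x) ht
      have e1 := tl_nonneg h.sp.hh (isPr_of_G hp)
      have e3 := eH_nonneg h.sp.hh (isPr_of_G hp) hν
      exact e0.trans (mul_le_mul_of_nonneg_right (mem_BB.1 hpB).le (by positivity))
  have hB2 : ∫ p in BB π x l, Real.exp (2 * l) * ((t * tl π p.2 + eH π p.2 ν / t) / 2) ∂V =
      Real.exp (2 * l) * ((t * ∫ p in BB π x l, tl π p.2 ∂V) / 2 +
        (∫ p in BB π x l, eH π p.2 ν ∂V) / t / 2) := by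
    rw [integral_const_mul]
    congr 1
    have e1 : ∀ p : Euc k × L k, (t * tl π p.2 + eH π p.2 ν / t) / 2 =
        (t / 2) * tl π p.2 + (1 / t / 2) * eH π p.2 ν := fun p => by ring
    simp only [e1]
    rw [integral_add (hti.const_mul _) (hei.const_mul _), integral_const_mul, integral_const_mul]
    ring
  -- the weight ψ
  have hψc : Continuous (ψν x ν g1 l) := by
    unfold ψν
    exact continuous_const.mul (((continuous_const.inner (continuous_id.sub
      continuous_const)).pow 2).mul (hg.k0.cont.comp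
        (continuous_const.mul ((continuous_id.sub continuous_const).norm.pow 2))))
  have hψ0 : ∀ v, 0 ≤ ψν x ν g1 l v := by
    intro v
    unfold ψν
    have h1 := hg.anti (Real.exp (-2 * l) * ‖v - x‖ ^ 2) (by positivity)
    have h2 : 0 ≤ ⟪ν, v - x⟫_ℝ ^ 2 * -g1 (Real.exp (-2 * l) * ‖v - x‖ ^ 2) :=
      mul_nonneg (sq_nonneg _) (by linarith)
    have h3 := mul_nonneg (mul_nonneg (zero_le_two (α := ℝ)) (Real.exp_pos (-2 * l)).le) h2
    nlinarith [h3]
  have hψz : ∀ v, Real.exp l ≤ ‖v - x‖ → ψν x ν g1 l v = 0 := by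
    intro v hv
    unfold ψν
    rw [hg.k0.zero' _ (Ker.one_le_of x hv), mul_zero, mul_zero]
  have hψK : ∀ v, ψν x ν g1 l v ≤ 2 * K := by
    intro v
    rcases le_or_gt (Real.exp l) ‖v - x‖ with h1 | h1
    · rw [hψz v h1]; positivity
    · have h2 : Real.exp (-2 * l) * ‖v - x‖ ^ 2 ≤ 1 := by
        have e1 : ‖v - x‖ ^ 2 ≤ Real.exp l ^ 2 := pow_le_pow_left₀ (norm_nonneg _) h1.le 2
        have e2 : Real.exp (-2 * l) * Real.exp l ^ 2 = 1 := by
          rw [← Real.exp_nat_mul, ← Real.exp_add]; norm_num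
        calc Real.exp (-2 * l) * ‖v - x‖ ^ 2 ≤ Real.exp (-2 * l) * Real.exp l ^ 2 := by gcongr
          _ = 1 := e2
      have h3 : ⟪ν, v - x⟫_ℝ ^ 2 ≤ ‖v - x‖ ^ 2 := by
        rw [← sq_abs]
        refine pow_le_pow_left₀ (abs_nonneg _) ?_ 2
        refine (abs_real_inner_le_norm _ _).trans ?_
        rw [hν, one_mul]
      have h4 := hK1 (Real.exp (-2 * l) * ‖v - x‖ ^ 2) (by positivity)
      have h5 := neg_abs_le (g1 (Real.exp (-2 * l) * ‖v - x‖ ^ 2))
      have h6 : Real.exp (-2 * l) * ⟪ν, v - x⟫_ℝ ^ 2 ≤ 1 :=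
        (mul_le_mul_of_nonneg_left h3 (Real.exp_pos _).le).trans h2
      have h7 : 0 ≤ Real.exp (-2 * l) * ⟪ν, v - x⟫_ℝ ^ 2 := by positivity
      unfold ψν
      have h8 : -2 * Real.exp (-2 * l) * (⟪ν, v - x⟫_ℝ ^ 2 *
          g1 (Real.exp (-2 * l) * ‖v - x‖ ^ 2)) =
          2 * ((Real.exp (-2 * l) * ⟪ν, v - x⟫_ℝ ^ 2) *
            -g1 (Real.exp (-2 * l) * ‖v - x‖ ^ 2)) := by ring
      rw [h8]
      have h9 : (Real.exp (-2 * l) * ⟪ν, v - x⟫_ℝ ^ 2) *
            -g1 (Real.exp (-2 * l) * ‖v - x‖ ^ 2) ≤ 1 * K := by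
        refine mul_le_mul h6 (by linarith) ?_ zero_le_one
        linarith [hg.anti (Real.exp (-2 * l) * ‖v - x‖ ^ 2) (by positivity)]
      linarith
  -- lower bound of a(ψ)
  have ha : -(2 * K * (ω * G)) ≤ Real.exp ((2 - m) * l) * aF V π Q (ψν x ν g1 l) := by
    have htl0 : 0 ≤ ∫ p, tl π p.2 * ψν x ν g1 l (π p.1) ∂V := by
      refine integral_nonneg_of_ae ?_
      filter_upwards [h.conc] with p hp
      exact mul_nonneg (tl_nonneg h.sp.hh (isPr_of_G hp)) (hψ0 _)
    have h1 : Real.exp ((2 - m) * l) * bF V π Q (ψν x ν g1 l) ≤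
        Real.exp ((2 - m) * l) * aF V π Q (ψν x ν g1 l) := by
      refine mul_le_mul_of_nonneg_left ?_ hE0.le
      unfold bF
      linarith
    refine le_trans ?_ h1
    rcases eq_or_lt_of_le hK0 with hKz | hKp
    · have h2 : ψν x ν g1 l = fun _ => 0 := by
        funext v
        have := hψK v
        rw [← hKz, mul_zero] at this
        exact le_antisymm this (hψ0 v)
      have h3 : bF V π Q (ψν x ν g1 l) = 0 := by
        rw [h2]; unfold bF aF; simp
      rw [h3, ← hKz]; simp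
    · have h2 := hb (fun v => (2 * K)⁻¹ * ψν x ν g1 l v) (continuous_const.mul hψc)
        (fun v => mul_nonneg (by positivity) (hψ0 v))
        (fun v => by
          rw [inv_mul_le_iff₀ (by positivity), mul_one]
          exact hψK v)
        (fun v hv => by rw [hψz v hv, mul_zero])
      have h3 : bF V π Q (fun v => (2 * K)⁻¹ * ψν x ν g1 l v) =
          (2 * K)⁻¹ * bF V π Q (ψν x ν g1 l) := by
        unfold bF aF
        rw [integral_const_mul, integral_const_mul]
        have e1 : ∫ p, tl π p.2 * ((2 * K)⁻¹ * ψν x ν g1 l (π p.1)) ∂V =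
            (2 * K)⁻¹ * ∫ p, tl π p.2 * ψν x ν g1 l (π p.1) ∂V := by
          rw [← integral_const_mul]
          refine integral_congr_ae (Eventually.of_forall fun p => ?_)
          simp only
          ring
        rw [e1]
        ring
      rw [h3] at h2
      have h4 := (abs_le.1 h2).1
      have h5 : Real.exp ((2 - m) * l) * bF V π Q (ψν x ν g1 l) =
          2 * K * (Real.exp ((2 - m) * l) * ((2 * K)⁻¹ * bF V π Q (ψν x ν g1 l))) := by
        field_simp
      rw [h5]
      nlinarith [h4, hKp]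
  -- assembly
  have hid := identity (g1 := g1) h hg.k0 Q hl hν
  have hA' : Real.exp ((2 - m) * l) *
      (∫ p, eH π p.2 ν * g (Real.exp (-2 * l) * ‖π p.1 - x‖ ^ 2) ∂V) ≤ K * (t ^ 2 * G) := by
    have h1 := (le_abs_self _).trans hA
    calc Real.exp ((2 - m) * l) *
        (∫ p, eH π p.2 ν * g (Real.exp (-2 * l) * ‖π p.1 - x‖ ^ 2) ∂V)
        ≤ Real.exp ((2 - m) * l) * (K * ∫ p in BB π x l, eH π p.2 ν ∂V) := by gcongr
      _ = K * eHB V π x ν l := by unfold eHB; ring
      _ ≤ K * (t ^ 2 * G) := by gcongr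
  have hB' : -(K * (2 * t) * G) ≤ Real.exp (-m * l) * (∫ p, cc π p.2 (π p.1 - x) ν *
      (-2 * g1 (Real.exp (-2 * l) * ‖π p.1 - x‖ ^ 2)) ∂V) := by
    have h1 := (abs_le.1 hB).1
    rw [hB2] at h1
    have h6 : Real.exp (-m * l) * Real.exp (2 * l) = Real.exp ((2 - m) * l) := by
      rw [← Real.exp_add]; congr 1; ring
    have h2 : Real.exp (-m * l) * ((2 * K) * (Real.exp (2 * l) *
        ((t * ∫ p in BB π x l, tl π p.2 ∂V) / 2 + (∫ p in BB π x l, eH π p.2 ν ∂V) / t / 2))) ≤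
        K * (2 * t) * G := by
      have e1 : Real.exp (-m * l) * ((2 * K) * (Real.exp (2 * l) *
        ((t * ∫ p in BB π x l, tl π p.2 ∂V) / 2 + (∫ p in BB π x l, eH π p.2 ν ∂V) / t / 2))) =
          K * (t * eB V π x l + eHB V π x ν l / t) := by
        unfold eB eHB
        rw [← h6]
        ring
      rw [e1]
      have e2 : eHB V π x ν l / t ≤ t * G := by
        rw [div_le_iff₀ ht]
        calc eHB V π x ν l ≤ t ^ 2 * G := hH
          _ = t * G * t := by ring
      have e3 : t * eB V π x l ≤ t * G := mul_le_mul_of_nonneg_left hG ht.le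
      calc K * (t * eB V π x l + eHB V π x ν l / t) ≤ K * (t * G + t * G) := by gcongr
        _ = K * (2 * t) * G := by ring
    have h3 : Real.exp (-m * l) * (-((2 * K) * (Real.exp (2 * l) *
        ((t * ∫ p in BB π x l, tl π p.2 ∂V) / 2 + (∫ p in BB π x l, eH π p.2 ν ∂V) / t / 2)))) ≤
        Real.exp (-m * l) * (∫ p, cc π p.2 (π p.1 - x) ν *
      (-2 * g1 (Real.exp (-2 * l) * ‖π p.1 - x‖ ^ 2)) ∂V) :=
      mul_le_mul_of_nonneg_left h1 (Real.exp_pos _).le
    linarith
  rw [hid]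
  linarith

/-- second half of N4: `b_x(l) ≤ K ω G` -/
theorem bb_le (hg : Prof g g1 g2) (Q : ℝ) {l : ℝ}
    {K : ℝ} (hK : ∀ t, 0 ≤ t → |g t| ≤ K) {B : ℝ}
    (hb : BSm V π Q x l B) : |bb V π x g Q l| ≤ K * B := by
  have hK0 : 0 ≤ K := (abs_nonneg _).trans (hK 0 le_rfl)
  set φ : Euc m → ℝ := fun v => g (Real.exp (-2 * l) * ‖v - x‖ ^ 2) with hφ
  have hnn : ∀ t, 0 ≤ t → 0 ≤ g t := by
    intro t ht
    by_contra hneg
    have hanti : AntitoneOn g (Ici 0) := by
      refine antitoneOn_of_deriv_nonpos (convex_Ici 0) hg.k0.continuous.continuousOn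
        (fun t _ => (hg.k0.der t).differentiableAt.differentiableWithinAt) ?_
      intro t ht
      rw [interior_Ici] at ht
      rw [(hg.k0.der t).deriv]
      exact hg.anti t (le_of_lt ht)
    have h1 := hanti (mem_Ici.2 ht) (mem_Ici.2 (ht.trans (le_max_left t 1))) (le_max_left t 1)
    rw [hg.k0.zero _ (le_max_right t 1)] at h1
    exact hneg h1
  have hcφ : Continuous φ :=
    hg.k0.continuous.comp (continuous_const.mul ((continuous_id.sub continuous_const).norm.pow 2))
  have hbb : bb V π x g Q l = Real.exp ((2 - m) * l) * bF V π Q φ := by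
    unfold bb EE ee bF aF
    simp only [one_mul, hφ]
    ring
  rw [hbb]
  rcases eq_or_lt_of_le hK0 with hKz | hKp
  · have h2 : φ = fun _ => 0 := by
      funext v
      have := hK (Real.exp (-2 * l) * ‖v - x‖ ^ 2) (by positivity)
      rw [← hKz] at this
      exact abs_eq_zero.1 (le_antisymm this (abs_nonneg _))
    have h3 : bF V π Q φ = 0 := by
      rw [h2]; unfold bF aF; simp
    rw [h3, ← hKz]; simp
  · have h2 := hb (fun v => K⁻¹ * φ v) (continuous_const.mul hcφ)
      (fun v => mul_nonneg (by positivity) (hnn _ (by positivity)))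
      (fun v => by
        rw [inv_mul_le_iff₀ hKp, mul_one]
        exact (le_abs_self _).trans (hK _ (by positivity)))
      (fun v hv => by
        simp only [hφ]
        rw [hg.k0.zero _ (Ker.one_le_of x hv), mul_zero])
    have h3 : bF V π Q (fun v => K⁻¹ * φ v) = K⁻¹ * bF V π Q φ := by
      unfold bF aF
      rw [integral_const_mul, integral_const_mul]
      have e1 : ∫ p, tl π p.2 * (K⁻¹ * φ (π p.1)) ∂V = K⁻¹ * ∫ p, tl π p.2 * φ (π p.1) ∂V := by
        rw [← integral_const_mul]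
        refine integral_congr_ae (Eventually.of_forall fun p => ?_)
        simp only
        ring
      rw [e1]
      ring
    rw [h3] at h2
    have h4 : Real.exp ((2 - m) * l) * (K⁻¹ * bF V π Q φ) =
        K⁻¹ * (Real.exp ((2 - m) * l) * bF V π Q φ) := by ring
    rw [h4, abs_mul, abs_of_pos (inv_pos.2 hKp), inv_mul_le_iff₀ hKp] at h2
    exact h2

end Crest.Agent.R234.Thin_561
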