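import Crest.Agent.R234.N5d_372
import Crest.Agent.R234.Sc13_173
import Crest.Agent.R234.Thin3_561

/-!
Row 234, node N5 (LOCAL) of the core (helper372), part 5: the strong constancy lemma of helper173 in
helper929's form, and the output of N5 in the form `BSm` of helper561.
-/

set_option autoImplicit false

open MeasureTheory Metric Set Filter Topology
open Crest.GeometryTopology.Submanifold
open Crest.Agent.R234.Vf_884 Crest.Agent.R234.Ar_870 Crest.Agent.R234.Cy_870
open scoped ENNReal NNReal InnerProductSpace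

noncomputable section

namespace Crest.Agent.R234.N5_372

/-- the strong constancy lemma in helper929's form. -/
theorem sc1 (d : ℕ) : Proj_929.SC1 (EuclideanSpace.basisFun (Fin d) ℝ) := by
  refine ⟨Sc173.Csc d, Sc173.Csc_nonneg d, ?_⟩
  intro A Em Gm _ _ _ x₀ r M δ hr hδ hδM hA hE hG hH S hS hSr
  have hM : 0 ≤ M := hδ.trans hδM
  have h1 := Sc173.SC1 (EuclideanSpace.basisFun (Fin d) ℝ) hr hM hδ hA hE hG
    (fun U h1 h2 h3 => hH U h1 h2 h3) hS hSr
  have hfr : Module.finrank ℝ (EuclideanSpace ℝ (Fin d)) = d := finrank_euclideanSpace_fin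
  rw [hfr, ← ENNReal.ofReal_toReal (measure_ne_top A S)]
  refine ENNReal.ofReal_le_ofReal ?_
  have h2 : M * (volume S).toReal / r ^ d = M * (volume.real S / r ^ d) := by
    rw [mul_div_assoc]; rfl
  rw [h2]
  exact h1

variable {m n k d : ℕ} {π : Euc k →L[ℝ] Euc m} {W : Measure (Euc k × L k)} {x : Euc m}

theorem bsm_of (hd : d + 2 = m) {Q B l : ℝ}
    (h : ∀ φ : Euc m → ℝ, Measurable φ → (∀ z, |φ z| ≤ 1) →
      (∀ z, z ∉ ball x (2 * Real.exp l) → φ z = 0) →
      |(∫ p, φ (π p.1) ∂W) - Q * (∫ z, φ z) - (1 / 2) * (∫ p, tl π p.2 * φ (π p.1) ∂W)| ≤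
        B * Real.exp l ^ d) : Thin_561.BSm W π Q x l B := by
  intro ψ hψ h0 h1 hz
  have h2 := h ψ hψ.measurable (fun z => by rw [abs_of_nonneg (h0 z)]; exact h1 z) (fun z hz' => by
    refine hz z ?_
    rw [mem_ball, dist_eq_norm, not_lt] at hz'
    have := Real.exp_pos l
    linarith)
  unfold Thin_561.bF Thin_561.aF
  have e1 : (∫ p, ψ (π p.1) ∂W) - Q * (∫ z, ψ z) - (∫ p, tl π p.2 * ψ (π p.1) ∂W) / 2 =
      (∫ p, ψ (π p.1) ∂W) - Q * (∫ z, ψ z) - (1 / 2) * (∫ p, tl π p.2 * ψ (π p.1) ∂W) := by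
    ring
  rw [e1, abs_mul, abs_of_pos (Real.exp_pos _)]
  have e2 : Real.exp ((2 - m) * l) * Real.exp l ^ d = 1 := by
    rw [← Real.exp_nat_mul, ← Real.exp_add]
    have : (m : ℝ) = d + 2 := by rw [← hd]; push_cast; ring
    rw [this]
    have : (2 - ((d:ℝ) + 2)) * l + d * l = 0 := by ring
    rw [this, Real.exp_zero]
  calc Real.exp ((2 - m) * l) * |_| ≤ Real.exp ((2 - m) * l) * (B * Real.exp l ^ d) := by
        gcongr
    _ = B * (Real.exp ((2 - m) * l) * Real.exp l ^ d) := by ring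
    _ = B := by rw [e2, mul_one]

end Crest.Agent.R234.N5_372
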