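import Crest.Agent.R234.N5e_372
import Crest.Agent.R234.Hol5_746

/-!
Row 234, node N5 (LOCAL) of the core (helper372), part 6: N5 for almost stationary varifolds in a
cylinder (`CylAS` of helper214, `Area` and `THETA` of helper164); the hole lemma at one centre and one
scale is the only remaining input.
-/

set_option autoImplicit false

open MeasureTheory Metric Set Filter Topology
open Crest.GeometryTopology.Submanifold
open Crest.Agent.R234.Vf_884 Crest.Agent.R234.Ar_870 Crest.Agent.R234.Cy_870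
open scoped ENNReal NNReal InnerProductSpace

noncomputable section

namespace Crest.Agent.R234.N5_372

variable {m n k d : ℕ} {π : Euc k →L[ℝ] Euc m} {κ : Euc k →L[ℝ] Euc n}
  {W : Measure (Euc k × L k)} {x x₀ : Euc m} {R h₀ δ : ℝ} {NN : Euc m → ℝ≥0∞}
  {B D : Set (Euc m)} {g g1 g2 : ℝ → ℝ}

theorem cf_of_cylAS (h : Asl_214.CylAS W π κ x₀ R h₀ δ) : CF W π κ x₀ R :=
  ⟨h.sp, h.conc, h.fin, h.base⟩

theorem areaAt_of_area (h : Th_164.Area W π D NN) (hB : MeasurableSet B) (hBD : B ⊆ D) :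
    AreaAt W π NN B where
  meas := h.meas
  mB := hB
  area := by
    ext A hA
    rw [Measure.restrict_apply hA, Measure.restrict_apply hA, withDensity_apply _ (hA.inter hB),
      bm_apply _ _ _ (hA.inter hB), h.lintegral_N (hA.inter hB) (inter_subset_right.trans hBD)]
    rfl

/-- `HDiv` from a bound of the first variation on the horizontal fields. -/
theorem hdiv_of_fv (hs : Split π κ) (hδ : 0 ≤ δ) (hfin : W univ < ⊤)
    (hconc : ∀ᵐ p ∂W, p.2 ∈ G m k) (hκ : ∀ᵐ p ∂W, ‖κ p.1‖ ≤ h₀)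
    (hfv : ∀ ζ : Euc m → ℝ, ContDiff ℝ (⊤ : ℕ∞) ζ → HasCompactSupport ζ → tsupport ζ ⊆ B →
      ∀ ξ : Euc m, |FV W (hX π ζ ξ)| ≤ ∫ p, AS_456.err π δ (hX π ζ ξ) p ∂W) :
    HDiv W π (kAS W π δ) B := by
  intro ζ h1 h2 h3 ξ
  have h4 := hfv ζ h1 h2 h3 ξ
  unfold FV at h4
  simp only [tr_hX h1] at h4
  refine h4.trans ?_
  have : IsFiniteMeasure W := ⟨hfin⟩
  set ψ : Euc m → ℝ := fun y => ‖fderiv ℝ ζ y‖ + |ζ y| with hψ
  have hcD : Continuous (fderiv ℝ ζ) := h1.continuous_fderiv (by simp)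
  have hcψ : Continuous ψ := hcD.norm.add h1.continuous.abs
  have hsψ : HasCompactSupport ψ := by
    refine HasCompactSupport.intro (K := tsupport ζ) h2 fun y hy => ?_
    have h7 : fderiv ℝ ζ y = 0 := by
      by_contra hne
      exact hy (support_fderiv_subset ℝ hne)
    simp only [hψ, h7, image_eq_zero_of_notMem_tsupport hy]
    simp
  obtain ⟨Cψ, hCψ⟩ := hcψ.bounded_above_of_compact_support hsψ
  have hψ0 : ∀ y, 0 ≤ ψ y := fun y => by positivity
  rw [integral_kAS hs hδ hconc hcψ.measurable, ← integral_const_mul]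
  refine integral_mono_of_nonneg ?_ ?_ ?_
  · filter_upwards [hconc] with p hp
    have ht := tl_nonneg hs.hh (isPr_of_G hp)
    simp only [AS_456.err, AS_456.errA, Pi.zero_apply]
    positivity
  · refine Integrable.const_mul ?_ _
    refine Integrable.of_bound ((measurable_kdens π δ).mul (hcψ.comp (π.continuous.comp
      continuous_fst))).aestronglyMeasurable ((δ * (m + h₀ ^ 2)) * Cψ) ?_
    filter_upwards [hconc, hκ] with p hp hpκ
    have hPr := isPr_of_G hp
    have ht := tl_nonneg hs.hh hPr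
    have ht2 := tl_le hs.hh hPr
    rw [norm_mul, Real.norm_of_nonneg (by positivity), norm_vp hs]
    have h5 := hCψ (π p.1)
    have h6 : 0 ≤ Cψ := (norm_nonneg _).trans h5
    gcongr
  · filter_upwards [hconc] with p hp
    exact errA_hX hs h1 ξ hδ hp

theorem hdiv_of_cylAS (h : Asl_214.CylAS W π κ x₀ R h₀ δ) (hδ : 0 ≤ δ) :
    HDiv W π (kAS W π δ) (ball x₀ R) :=
  hdiv_of_fv h.sp hδ h.fin h.conc h.hgt fun ζ h1 _ h3 ξ =>
    h.fv _ (contDiff_hX h1 ξ) fun p hp => hX_zero h3 hp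

theorem le_ofReal_of_real {X : Type*} [MeasurableSpace X] {μ : Measure X} {A : Set X}
    (h : μ A ≠ ⊤) {c : ℝ} (hc : μ.real A ≤ c) : μ A ≤ ENNReal.ofReal c := by
  rw [← ENNReal.ofReal_toReal h]
  exact ENNReal.ofReal_le_ofReal hc

theorem real_le_of_le_ofReal {X : Type*} [MeasurableSpace X] {μ : Measure X} {A : Set X}
    {c : ℝ} (hc : 0 ≤ c) (h : μ A ≤ ENNReal.ofReal c) : μ.real A ≤ c :=
  ENNReal.toReal_le_of_le_ofReal hc h

theorem CF.eM_lt (h : CF W π κ x₀ R) {A : Set (Euc m)} (hA : MeasurableSet A) :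
    eM W π A < ⊤ := bm_lt_top h (C := m) (by
  filter_upwards [Jh_bounds h] with p hp using hp.2.2.2.1) hA

theorem CF.qM_lt (h : CF W π κ x₀ R) {A : Set (Euc m)} (hA : MeasurableSet A) :
    qM W π A < ⊤ := bm_lt_top h (C := (m : ℝ) ^ 2) (by
  filter_upwards [Jh_bounds h] with p hp using pow_le_pow_left₀ hp.2.2.1 hp.2.2.2.1 2) hA

theorem CF.lM_lt (h : CF W π κ x₀ R) (S : Submodule ℝ (Euc m)) {A : Set (Euc m)}
    (hA : MeasurableSet A) : lM W π S A < ⊤ := bm_lt_top h (C := m) (by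
  filter_upwards [h.conc] with p hp using eL_le (isPr_of_G hp) S) hA

theorem CF.eM_real (h : CF W π κ x₀ R) {A : Set (Euc m)} (hA : MeasurableSet A) :
    (eM W π).real A = ∫ p in ov π A, tl π p.2 ∂W :=
  bm_real (continuous_tl π) (by filter_upwards [Jh_bounds h] with p hp using hp.2.2.1) hA

theorem CF.qM_real {A : Set (Euc m)} (hA : MeasurableSet A) :
    (qM W π).real A = ∫ p in ov π A, tl π p.2 ^ 2 ∂W :=
  bm_real ((continuous_tl π).pow 2) (Eventually.of_forall fun p => sq_nonneg _) hA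

/-- **N5 LOCAL for almost stationary varifolds** (`CylAS`), one centre `x`, one scale `s = e^l`;
input: the hole lemma at `(x, 4s)`. -/
theorem local_cylAS (hd : d + 2 = m) (Q : ℕ) {c₀ : ℝ} (hc₀ : 0 < c₀) :
    ∃ δ₃ > 0, ∀ ω : ℝ, 0 < ω → ∃ θ > 0, ∃ ηH > 0, ∀ δH K : ℝ, 0 < δH → ∃ η > 0,
      ∀ {n k : ℕ} {π : Euc k →L[ℝ] Euc m} {κ : Euc k →L[ℝ] Euc n} {W : Measure (Euc k × L k)}
        {x₀ : Euc m} {R h₀ δ : ℝ} {N : Euc m → ℝ≥0∞} {g g1 g2 : ℝ → ℝ} {x y : Euc m}
        {v : Fin d → Euc m} {l G : ℝ},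
        Asl_214.CylAS W π κ x₀ R h₀ δ → 0 ≤ δ → δ ≤ η → 0 ≤ h₀ → h₀ ≤ 1 →
        Th_164.Area W π (ball x₀ R) N →
        Prof g g1 g2 → (∀ t, 0 ≤ t → t ≤ 1 / 4 → c₀ ≤ -g1 t) → l ≤ 0 →
        ball x (16 * Real.exp l) ⊆ ball x₀ R →
        W.real (ov π (ball x (16 * Real.exp l))) ≤ (Q + 1) * Th_164.om m * (16 * Real.exp l) ^ m →
        |W.real (ov π (ball x (4 * Real.exp l))) - Q * Th_164.om m * (4 * Real.exp l) ^ m| ≤
          Th_164.om m / 4 * (4 * Real.exp l) ^ m →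
        (eM W π).real (ball x (16 * Real.exp l)) ≤ δ₃ * (4 * Real.exp l) ^ m →
        (∀ (c : Fin d → ℝ) (i : Fin d), |c i| * Real.exp l ≤ K * ‖∑ j, c j • v j‖) →
        ‖y - x‖ ≤ 2 * Real.exp l → (∀ i, ‖y + v i - x‖ ≤ 2 * Real.exp l) →
        RR W π y g1 (l + 3) ≤ η * G → (∀ i, RR W π (y + v i) g1 (l + 3) ≤ η * G) →
        (eM W π).real (ball x (2 * Real.exp l)) ≤ G * Real.exp l ^ d →
        δ * h₀ ^ 2 * Real.exp l ^ 2 ≤ η * G →
        (∀ S : Submodule ℝ (Euc m), Module.finrank ℝ S = d →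
          (lM W π S).real (ball x (8 * Real.exp l)) ≤ δH * G * Real.exp l ^ d →
          (qM W π).real (ball x (4 * Real.exp l)) ≤ ηH * G * Real.exp l ^ d) →
        (∀ φ : Euc m → ℝ, Measurable φ → (∀ z, |φ z| ≤ 1) →
          (∀ z, z ∉ ball x (2 * Real.exp l) → φ z = 0) →
          |(∫ p, φ (π p.1) ∂W) - Q * (∫ z, φ z) - (1 / 2) * (∫ p, tl π p.2 * φ (π p.1) ∂W)| ≤
            ω * G * Real.exp l ^ d) ∧
        Thin_561.BSm W π Q x l (ω * G) ∧
        ∃ hS : Module.finrank ℝ (Submodule.span ℝ (range v)) = d,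
          ∀ N' : Set (Euc m), N' ⊆ closedBall x (Real.exp l) →
            volume (Proj_929.pr (iso _ hS) '' N') ≤ ENNReal.ofReal (θ * Real.exp l ^ d) →
            eM W π N' ≤ ENNReal.ofReal (ω * G * Real.exp l ^ d) := by
  obtain ⟨σ, δ₁, δ₃, KT, hσ, -, -, -, hδ₃, -, hKT, hTh⟩ := Th_164.THETA m Q
  refine ⟨δ₃, hδ₃, ?_⟩
  intro ω hω
  have hC₁ : 0 ≤ KT / σ := by positivity
  obtain ⟨θ, hθ, ηH, hηH, hloc⟩ := local_small hd (sc1 d) hc₀ hC₁ hω
  refine ⟨θ, hθ, ηH, hηH, ?_⟩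
  intro δH K hδH
  obtain ⟨η', hη', hloc⟩ := hloc δH K hδH
  have hom := Th_164.om_pos m
  set Cm : ℝ := (Q + 1) * Th_164.om m * 16 ^ m with hCm
  have hCm0 : 0 < Cm := by positivity
  set η : ℝ := min (η' / 2) (min (η' / (2 * Cm)) (min (δ₃ / (4 * (m + 1))) 1)) with hη
  have hη0 : 0 < η := by positivity
  have e1 : η ≤ η' / 2 := min_le_left _ _
  have e2 : η ≤ η' / (2 * Cm) := (min_le_right _ _).trans (min_le_left _ _)
  have e3 : η ≤ δ₃ / (4 * (m + 1)) :=
    (min_le_right _ _).trans ((min_le_right _ _).trans (min_le_left _ _))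
  have e4 : η ≤ 1 := (min_le_right _ _).trans ((min_le_right _ _).trans (min_le_right _ _))
  refine ⟨η, hη0, ?_⟩
  intro n k π κ W x₀ R h₀ δ N g g1 g2 x y v l G h hδ hδη hh0 hh1 hN hg hc hl hdom hmass hnear htilt
    hfat hy hv hr0 hrv he hdh hH
  have hcf := cf_of_cylAS h
  set s := Real.exp l with hs
  have hs0 : 0 < s := Real.exp_pos l
  have hs1 : s ≤ 1 := Real.exp_le_one_iff.2 hl
  have hfW : IsFiniteMeasure W := ⟨h.fin⟩
  have hG : 0 ≤ G := by
    have h1 := (hcf.RR_nonneg hg (l + 3)).trans hr0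
    by_contra h2
    push Not at h2
    have := mul_neg_of_pos_of_neg hη0 h2
    linarith
  have hb2 : ball x (2 * s) ⊆ ball x (16 * s) := ball_subset_ball (by linarith)
  have hb4 : ball x (4 * s) ⊆ ball x (16 * s) := ball_subset_ball (by linarith)
  have hsd : 0 < s ^ d := by positivity
  have hsm : s ^ m = s ^ d * s ^ 2 := by rw [← pow_add, hd]
  -- THETA at `(x, 4s)`
  have hset := Hol_746.setup_of_cylAS h hδ (hδη.trans e4) hN
  have hm0 : (0:ℝ) ≤ m := Nat.cast_nonneg m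
  have hδ3 : δ * (4 * (m + 1)) ≤ δ₃ := by
    have := hδη.trans e3
    rwa [le_div_iff₀ (by positivity)] at this
  have hh2 : h₀ ^ 2 ≤ 1 := pow_le_one₀ hh0 hh1
  have hT := hTh k π W (ball x₀ R) N δ (h₀ ^ 2) _ hset (by nlinarith [mul_nonneg hδ hm0])
    x (4 * s) (by positivity) (by
      rw [show 4 * (4 * s) = 16 * s by ring]; exact hdom) (by
      calc δ * (m + h₀ ^ 2) * (4 * s) ≤ δ * (m + 1) * (4 * 1) := by gcongr
        _ ≤ δ₃ := by linarith) (by
      rw [show 4 * (4 * s) = 16 * s by ring]; exact hmass) (by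
      rw [show 4 * (4 * s) = 16 * s by ring]
      have h5 := hcf.eM_real (A := ball x (16 * s)) measurableSet_ball
      rw [h5] at htilt
      exact htilt) hnear
  obtain ⟨-, -, -, -, hT1, hT2, -⟩ := hT
  have hT3 : ∫ z in ball x (2 * s), |(N z).toReal - Q| ≤ KT / σ * (qM W π).real (ball x (4 * s)) := by
    have h5 : (4 * s) / 2 = 2 * s := by ring
    rw [h5] at hT1
    refine hT1.trans ?_
    rw [CF.qM_real measurableSet_ball]
    calc KT * _ ≤ KT * (σ⁻¹ * ∫ p in (fun p : Euc k × L k => π p.1) ⁻¹' ball x (4 * s),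
          tl π p.2 ^ 2 ∂W) := by gcongr
      _ = _ := by rw [div_eq_mul_inv]; ring_nf; rfl
  have hNint : IntegrableOn (fun z => |(N z).toReal - (Q : ℝ)|) (ball x (2 * s)) := by
    have h6 : IntegrableOn (fun z => (N z).toReal) (ball x₀ R) :=
      hN.integrableOn h.sp.hh h.conc measurableSet_ball
    exact ((h6.mono_set (hb2.trans hdom)).sub
      (integrableOn_const (hs := measure_ball_lt_top.ne))).abs
  have hT4 : ∫⁻ z in ball x (2 * s), ENNReal.ofReal |(N z).toReal - Q| ≤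
      ENNReal.ofReal (KT / σ) * qM W π (ball x (4 * s)) := by
    rw [← ofReal_integral_eq_lintegral_ofReal hNint (Eventually.of_forall fun z => abs_nonneg _),
      ← ENNReal.ofReal_toReal (hcf.qM_lt (A := ball x (4 * s)) measurableSet_ball).ne,
      ← ENNReal.ofReal_mul hC₁]
    exact ENNReal.ofReal_le_ofReal hT3
  -- the error measure
  have hmM : mM W π (ball x (2 * s)) ≤ ENNReal.ofReal (Cm * s ^ m) := by
    rw [mM_apply measurableSet_ball]
    refine (measure_mono (preimage_mono hb2)).trans ?_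
    refine (le_ofReal_of_real (measure_ne_top _ _) hmass).trans (le_of_eq ?_)
    rw [hCm, mul_pow]; ring_nf
  have he' : eM W π (ball x (2 * s)) ≤ ENNReal.ofReal (G * s ^ d) :=
    le_ofReal_of_real (hcf.eM_lt measurableSet_ball).ne he
  have hkA : kAS W π δ (ball x (2 * s)) ≤ ENNReal.ofReal (η' * G * s ^ d) := by
    refine (kAS_apply_le h.sp hδ h.conc h.hgt measurableSet_ball).trans ?_
    calc ENNReal.ofReal δ * (eM W π (ball x (2 * s)) +
          ENNReal.ofReal (h₀ ^ 2) * mM W π (ball x (2 * s))) ≤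
        ENNReal.ofReal δ * (ENNReal.ofReal (G * s ^ d) +
          ENNReal.ofReal (h₀ ^ 2) * ENNReal.ofReal (Cm * s ^ m)) := by gcongr
      _ = ENNReal.ofReal (δ * (G * s ^ d + h₀ ^ 2 * (Cm * s ^ m))) := by
          rw [← ENNReal.ofReal_mul (by positivity), ← ENNReal.ofReal_add (by positivity)
            (by positivity), ← ENNReal.ofReal_mul hδ]
      _ ≤ _ := by
          refine ENNReal.ofReal_le_ofReal ?_
          rw [hsm]
          have f1 : δ * (G * s ^ d) ≤ η' / 2 * (G * s ^ d) := by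
            have := hδη.trans e1
            gcongr
          have f2 : δ * h₀ ^ 2 * s ^ 2 * Cm ≤ η' / 2 * G := by
            calc δ * h₀ ^ 2 * s ^ 2 * Cm ≤ (η * G) * Cm := by gcongr
              _ ≤ (η' / (2 * Cm) * G) * Cm := by gcongr
              _ = η' / 2 * G := by field_simp
          have f3 : δ * h₀ ^ 2 * s ^ 2 * Cm * s ^ d ≤ η' / 2 * G * s ^ d := by gcongr
          calc δ * (G * s ^ d + h₀ ^ 2 * (Cm * (s ^ d * s ^ 2))) =
              δ * (G * s ^ d) + δ * h₀ ^ 2 * s ^ 2 * Cm * s ^ d := by ring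
            _ ≤ η' / 2 * (G * s ^ d) + η' / 2 * G * s ^ d := add_le_add f1 f3
            _ = _ := by ring
  have hη'1 : η ≤ η' := e1.trans (by linarith)
  have hres := hloc hcf hg hc hl (areaAt_of_area hN measurableSet_ball (hb2.trans hdom))
    ((hdiv_of_cylAS h hδ).mono (hb2.trans hdom)) hfat hy hv
    (hr0.trans (by gcongr)) (fun i => (hrv i).trans (by gcongr)) he' hkA (fun S hS hl8 => by
      have h7 := hH S hS (real_le_of_le_ofReal (by positivity) hl8)
      exact le_ofReal_of_real (hcf.qM_lt measurableSet_ball).ne h7) hT4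
  exact ⟨hres.1, bsm_of hd hres.1, hres.2⟩

end Crest.Agent.R234.N5_372
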