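import Crest.Agent.R234.N5f_372

/-!
Row 234, node N5 (LOCAL) of the core (helper372), part 7: N5 for `CylAS` with the theta lemma
(helper164: `∫_{B_2s} |N - Q| ≤ C₁ qM (B_4s)`) and the hole lemma (helper746) at one centre and one
scale as inputs.
-/

set_option autoImplicit false

open MeasureTheory Metric Set Filter Topology
open Crest.GeometryTopology.Submanifold
open Crest.Agent.R234.Vf_884 Crest.Agent.R234.Ar_870 Crest.Agent.R234.Cy_870
open scoped ENNReal NNReal InnerProductSpace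

noncomputable section

namespace Crest.Agent.R234.N5_372

variable {m d : ℕ}

/-- **N5 LOCAL for almost stationary varifolds** (`CylAS`), one centre `x`, one scale `s = e^l`;
inputs: theta lemma at `(x, 2s)`, hole lemma at `(x, 4s)`. -/
theorem local_cyl (hd : d + 2 = m) {c₀ C₁ CM : ℝ} (hc₀ : 0 < c₀) (hC₁ : 0 ≤ C₁) (hCM : 0 ≤ CM)
    {ω : ℝ} (hω : 0 < ω) :
    ∃ θ > 0, ∃ ηH > 0, ∀ δH K : ℝ, 0 < δH → ∃ η > 0,
      ∀ {n k : ℕ} {π : Euc k →L[ℝ] Euc m} {κ : Euc k →L[ℝ] Euc n} {W : Measure (Euc k × L k)}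
        {x₀ : Euc m} {R h₀ δ : ℝ} {N : Euc m → ℝ≥0∞} {Q : ℕ} {g g1 g2 : ℝ → ℝ} {x y : Euc m}
        {v : Fin d → Euc m} {l G : ℝ},
        Asl_214.CylAS W π κ x₀ R h₀ δ → 0 ≤ δ → δ ≤ η →
        Th_164.Area W π (ball x₀ R) N →
        Prof g g1 g2 → (∀ t, 0 ≤ t → t ≤ 1 / 4 → c₀ ≤ -g1 t) → l ≤ 0 →
        ball x (2 * Real.exp l) ⊆ ball x₀ R →
        W.real (ov π (ball x (2 * Real.exp l))) ≤ CM * Real.exp l ^ m →
        (∀ (c : Fin d → ℝ) (i : Fin d), |c i| * Real.exp l ≤ K * ‖∑ j, c j • v j‖) →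
        ‖y - x‖ ≤ 2 * Real.exp l → (∀ i, ‖y + v i - x‖ ≤ 2 * Real.exp l) →
        RR W π y g1 (l + 3) ≤ η * G → (∀ i, RR W π (y + v i) g1 (l + 3) ≤ η * G) →
        (eM W π).real (ball x (2 * Real.exp l)) ≤ G * Real.exp l ^ d →
        δ * h₀ ^ 2 * Real.exp l ^ 2 ≤ η * G →
        (∀ S : Submodule ℝ (Euc m), Module.finrank ℝ S = d →
          (lM W π S).real (ball x (8 * Real.exp l)) ≤ δH * G * Real.exp l ^ d →
          (qM W π).real (ball x (4 * Real.exp l)) ≤ ηH * G * Real.exp l ^ d) →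
        ∫ z in ball x (2 * Real.exp l), |(N z).toReal - Q| ≤
          C₁ * (qM W π).real (ball x (4 * Real.exp l)) →
        (∀ φ : Euc m → ℝ, Measurable φ → (∀ z, |φ z| ≤ 1) →
          (∀ z, z ∉ ball x (2 * Real.exp l) → φ z = 0) →
          |(∫ p, φ (π p.1) ∂W) - Q * (∫ z, φ z) - (1 / 2) * (∫ p, tl π p.2 * φ (π p.1) ∂W)| ≤
            ω * G * Real.exp l ^ d) ∧
        Thin_561.BSm W π Q x l (ω * G) ∧
        ∃ hS : Module.finrank ℝ (Submodule.span ℝ (range v)) = d,
          ∀ N' : Set (Euc m), N' ⊆ closedBall x (Real.exp l) →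
            volume (Proj_929.pr (iso _ hS) '' N') ≤ ENNReal.ofReal (θ * Real.exp l ^ d) →
            eM W π N' ≤ ENNReal.ofReal (ω * G * Real.exp l ^ d) := by
  obtain ⟨θ, hθ, ηH, hηH, hloc⟩ := local_small hd (sc1 d) hc₀ hC₁ hω
  refine ⟨θ, hθ, ηH, hηH, ?_⟩
  intro δH K hδH
  obtain ⟨η', hη', hloc⟩ := hloc δH K hδH
  set Cm : ℝ := CM + 1 with hCm
  have hCm0 : 0 < Cm := by positivity
  set η : ℝ := min (η' / 2) (min (η' / (2 * Cm)) 1) with hη
  have hη0 : 0 < η := by positivity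
  have e1 : η ≤ η' / 2 := min_le_left _ _
  have e2 : η ≤ η' / (2 * Cm) := (min_le_right _ _).trans (min_le_left _ _)
  refine ⟨η, hη0, ?_⟩
  intro n k π κ W x₀ R h₀ δ N Q g g1 g2 x y v l G h hδ hδη hN hg hc hl hdom hmass
    hfat hy hv hr0 hrv he hdh hH hT3
  have hcf := cf_of_cylAS h
  set s := Real.exp l with hs
  have hs0 : 0 < s := Real.exp_pos l
  have hs1 : s ≤ 1 := Real.exp_le_one_iff.2 hl
  have hfW : IsFiniteMeasure W := ⟨h.fin⟩
  have hG : 0 ≤ G := by
    have h1 := (hcf.RR_nonneg hg (l + 3)).trans hr0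
    by_contra h2
    push Not at h2
    have := mul_neg_of_pos_of_neg hη0 h2
    linarith
  have hsd : 0 < s ^ d := by positivity
  have hsm : s ^ m = s ^ d * s ^ 2 := by rw [← pow_add, hd]
  have hNint : IntegrableOn (fun z => |(N z).toReal - (Q : ℝ)|) (ball x (2 * s)) := by
    have h6 : IntegrableOn (fun z => (N z).toReal) (ball x₀ R) :=
      hN.integrableOn h.sp.hh h.conc measurableSet_ball
    exact ((h6.mono_set hdom).sub
      (integrableOn_const (hs := measure_ball_lt_top.ne))).abs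
  have hT4 : ∫⁻ z in ball x (2 * s), ENNReal.ofReal |(N z).toReal - Q| ≤
      ENNReal.ofReal C₁ * qM W π (ball x (4 * s)) := by
    rw [← ofReal_integral_eq_lintegral_ofReal hNint (Eventually.of_forall fun z => abs_nonneg _),
      ← ENNReal.ofReal_toReal (hcf.qM_lt (A := ball x (4 * s)) measurableSet_ball).ne,
      ← ENNReal.ofReal_mul hC₁]
    exact ENNReal.ofReal_le_ofReal hT3
  -- the error measure
  have hmM : mM W π (ball x (2 * s)) ≤ ENNReal.ofReal (Cm * s ^ m) := by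
    rw [mM_apply measurableSet_ball]
    refine (le_ofReal_of_real (measure_ne_top _ _) hmass).trans (ENNReal.ofReal_le_ofReal ?_)
    rw [hCm]
    gcongr
    linarith
  have he' : eM W π (ball x (2 * s)) ≤ ENNReal.ofReal (G * s ^ d) :=
    le_ofReal_of_real (hcf.eM_lt measurableSet_ball).ne he
  have hkA : kAS W π δ (ball x (2 * s)) ≤ ENNReal.ofReal (η' * G * s ^ d) := by
    refine (kAS_apply_le h.sp hδ h.conc h.hgt measurableSet_ball).trans ?_
    calc ENNReal.ofReal δ * (eM W π (ball x (2 * s)) +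
          ENNReal.ofReal (h₀ ^ 2) * mM W π (ball x (2 * s))) ≤
        ENNReal.ofReal δ * (ENNReal.ofReal (G * s ^ d) +
          ENNReal.ofReal (h₀ ^ 2) * ENNReal.ofReal (Cm * s ^ m)) := by gcongr
      _ = ENNReal.ofReal (δ * (G * s ^ d + h₀ ^ 2 * (Cm * s ^ m))) := by
          rw [← ENNReal.ofReal_mul (by positivity), ← ENNReal.ofReal_add (by positivity)
            (by positivity), ← ENNReal.ofReal_mul hδ]
      _ ≤ _ := by
          refine ENNReal.ofReal_le_ofReal ?_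
          rw [hsm]
          have f1 : δ * (G * s ^ d) ≤ η' / 2 * (G * s ^ d) := by
            have := hδη.trans e1
            gcongr
          have f2 : δ * h₀ ^ 2 * s ^ 2 * Cm ≤ η' / 2 * G := by
            calc δ * h₀ ^ 2 * s ^ 2 * Cm ≤ (η * G) * Cm := by gcongr
              _ ≤ (η' / (2 * Cm) * G) * Cm := by gcongr
              _ = η' / 2 * G := by field_simp
          have f3 : δ * h₀ ^ 2 * s ^ 2 * Cm * s ^ d ≤ η' / 2 * G * s ^ d := by gcongr
          calc δ * (G * s ^ d + h₀ ^ 2 * (Cm * (s ^ d * s ^ 2))) =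
              δ * (G * s ^ d) + δ * h₀ ^ 2 * s ^ 2 * Cm * s ^ d := by ring
            _ ≤ η' / 2 * (G * s ^ d) + η' / 2 * G * s ^ d := add_le_add f1 f3
            _ = _ := by ring
  have hη'1 : η ≤ η' := e1.trans (by linarith)
  have hres := hloc hcf hg hc hl (areaAt_of_area hN measurableSet_ball hdom)
    ((hdiv_of_cylAS h hδ).mono hdom) hfat hy hv
    (hr0.trans (by gcongr)) (fun i => (hrv i).trans (by gcongr)) he' hkA (fun S hS hl8 => by
      have h7 := hH S hS (real_le_of_le_ofReal (by positivity) hl8)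
      exact le_ofReal_of_real (hcf.qM_lt measurableSet_ball).ne h7) hT4
  exact ⟨hres.1, bsm_of hd hres.1, hres.2⟩

end Crest.Agent.R234.N5_372
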