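import Crest.Agent.R234.N5g_372
import Crest.Agent.R234.Hol7_746

/-!
Row 234, node N5 (LOCAL) of the core (helper372), part 8: N5 in the class `HSit` of helper746
(hole lemma discharged), all centres and scales.
-/

set_option autoImplicit false

open MeasureTheory Metric Set Filter Topology
open Crest.GeometryTopology.Submanifold
open Crest.Agent.R234.Vf_884 Crest.Agent.R234.Ar_870 Crest.Agent.R234.Cy_870
open scoped ENNReal NNReal InnerProductSpace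

noncomputable section

namespace Crest.Agent.R234.N5_372

/-- the hole lemma in the class `HSit` (conclusion of `Hol_746.hole_at`). -/
def HoleC (m k : ℕ) (C₀ c₀ : ℝ) : Prop :=
  ∀ η : ℝ, 0 < η → ∃ δH > 0, ∃ lam > 0, ∃ d0 > 0, ∀ (n : ℕ) (π : Euc k →L[ℝ] Euc m)
    (κ : Euc k →L[ℝ] Euc n) (W : Measure (Euc k × L k)) (x₀ : Euc m) (R h₀ δ : ℝ),
    Hol_746.HSit C₀ c₀ W π κ x₀ R h₀ δ → δ ≤ d0 →
    ∀ S : Submodule ℝ (Euc m), Module.finrank ℝ S + 2 = m → ∀ (x : Euc m) (s E : ℝ), 0 < s →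
    s ≤ 1 → h₀ ≤ s → ‖x - x₀‖ + 2 * s ≤ R → (eM W π).real (ball x (2 * s)) ≤ E * s ^ (m - 2) →
    lam * E ≤ s ^ 2 → (lM W π S).real (ball x (2 * s)) ≤ δH * E * s ^ (m - 2) →
    (qM W π).real (ball x s) ≤ η * E * s ^ (m - 2)

theorem holeC_of {m k : ℕ} (hm : 2 ≤ m) {C₀ c₀ : ℝ} (hC₀ : 0 < C₀) (hc₀ : 0 < c₀)
    (hLog : ∀ C > 0, ∀ c > 0, Hol_746.LogH m k C c)
    (hDv : ∀ C > 0, ∀ c > 0, Hol_746.DvH m k C c) : HoleC m k C₀ c₀ := by
  intro η hη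
  exact Hol_746.hole_at hm hC₀ hc₀ hLog hDv hη

/-- **N5 LOCAL in the class** `HSit`. -/
theorem local_class {m d k : ℕ} (hd : d + 2 = m) {C₀ c₀ : ℝ} (hHole : HoleC m k C₀ c₀)
    {cP C₁ CM : ℝ} (hcP : 0 < cP) (hC₁ : 0 ≤ C₁) (hCM : 0 ≤ CM) {ω : ℝ} (hω : 0 < ω) :
    ∃ θ > 0, ∀ K : ℝ, ∃ η > 0, ∃ lam > 0,
      ∀ {n : ℕ} {π : Euc k →L[ℝ] Euc m} {κ : Euc k →L[ℝ] Euc n} {W : Measure (Euc k × L k)}
        {x₀ : Euc m} {R h₀ δ : ℝ} {N : Euc m → ℝ≥0∞} {Q : ℕ} {g g1 g2 : ℝ → ℝ} {x y : Euc m}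
        {v : Fin d → Euc m} {l G : ℝ},
        Hol_746.HSit C₀ c₀ W π κ x₀ R h₀ δ → δ ≤ η →
        Th_164.Area W π (ball x₀ R) N →
        Prof g g1 g2 → (∀ t, 0 ≤ t → t ≤ 1 / 4 → cP ≤ -g1 t) →
        4 * Real.exp l ≤ 1 → h₀ ≤ 4 * Real.exp l → ‖x - x₀‖ + 8 * Real.exp l ≤ R →
        W.real (ov π (ball x (2 * Real.exp l))) ≤ CM * Real.exp l ^ m →
        (∀ (c : Fin d → ℝ) (i : Fin d), |c i| * Real.exp l ≤ K * ‖∑ j, c j • v j‖) →
        ‖y - x‖ ≤ 2 * Real.exp l → (∀ i, ‖y + v i - x‖ ≤ 2 * Real.exp l) →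
        RR W π y g1 (l + 3) ≤ η * G → (∀ i, RR W π (y + v i) g1 (l + 3) ≤ η * G) →
        (eM W π).real (ball x (8 * Real.exp l)) ≤ G * Real.exp l ^ d →
        δ * h₀ ^ 2 * Real.exp l ^ 2 ≤ η * G → G ≤ lam * Real.exp l ^ 2 →
        ∫ z in ball x (2 * Real.exp l), |(N z).toReal - Q| ≤
          C₁ * (qM W π).real (ball x (4 * Real.exp l)) →
        (∀ φ : Euc m → ℝ, Measurable φ → (∀ z, |φ z| ≤ 1) →
          (∀ z, z ∉ ball x (2 * Real.exp l) → φ z = 0) →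
          |(∫ p, φ (π p.1) ∂W) - Q * (∫ z, φ z) - (1 / 2) * (∫ p, tl π p.2 * φ (π p.1) ∂W)| ≤
            ω * G * Real.exp l ^ d) ∧
        Thin_561.BSm W π Q x l (ω * G) ∧
        ∃ hS : Module.finrank ℝ (Submodule.span ℝ (range v)) = d,
          ∀ N' : Set (Euc m), N' ⊆ closedBall x (Real.exp l) →
            volume (Proj_929.pr (iso _ hS) '' N') ≤ ENNReal.ofReal (θ * Real.exp l ^ d) →
            eM W π N' ≤ ENNReal.ofReal (ω * G * Real.exp l ^ d) := by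
  obtain ⟨θ, hθ, ηH, hηH, hloc⟩ := local_cyl hd hcP hC₁ hCM hω
  refine ⟨θ, hθ, ?_⟩
  intro K
  obtain ⟨δH, hδH, lamH, hlamH, d0, hd0, hhole⟩ := hHole ηH hηH
  obtain ⟨η', hη', hloc⟩ := hloc δH K hδH
  have h4d : (0:ℝ) < 4 ^ d := by positivity
  refine ⟨min η' d0, by positivity, 16 * 4 ^ d / lamH, by positivity, ?_⟩
  intro n π κ W x₀ R h₀ δ N Q g g1 g2 x y v l G H hδη hN hg hc hl4 hh hx hmass hfat hy hv hr0 hrv
    he hdh hGl hT
  have hcf := cf_of_cylAS H.as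
  set s := Real.exp l with hs
  have hs0 : 0 < s := Real.exp_pos l
  have hl0 : l ≤ 0 := by
    have h1 : Real.exp l ≤ 1 := by rw [← hs]; linarith
    exact Real.exp_le_one_iff.1 h1
  have hη1 : min η' d0 ≤ η' := min_le_left _ _
  have hG : 0 ≤ G := by
    have h1 := (hcf.RR_nonneg hg (l + 3)).trans hr0
    by_contra h2
    push Not at h2
    have h3 : 0 < min η' d0 := by positivity
    have := mul_neg_of_pos_of_neg h3 h2
    linarith
  have hfe := H.fin_e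
  have hsub : ball x (2 * s) ⊆ ball x (8 * s) := ball_subset_ball (by linarith)
  have hdom : ball x (2 * s) ⊆ ball x₀ R := by
    apply ball_subset_ball'
    rw [dist_eq_norm]
    linarith
  have hmd : m - 2 = d := by omega
  have hpow : G / 4 ^ d * (4 * s) ^ (m - 2) = G * s ^ d := by
    rw [hmd, mul_pow]; field_simp
  refine hloc H.as H.δ_nonneg (hδη.trans hη1) hN hg hc hl0 hdom hmass hfat hy hv
    (hr0.trans (by gcongr)) (fun i => (hrv i).trans (by gcongr))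
    ((measureReal_mono hsub).trans he) (hdh.trans (by gcongr)) (fun S hS hl8 => ?_) hT
  have h2 := hhole n π κ W x₀ R h₀ δ H (hδη.trans (min_le_right _ _)) S (by omega) x (4 * s)
    (G / 4 ^ d) (by positivity) hl4 hh (by linarith) (by
      rw [hpow, show 2 * (4 * s) = 8 * s by ring]; exact he) (by
      calc lamH * (G / 4 ^ d) ≤ lamH * ((16 * 4 ^ d / lamH * s ^ 2) / 4 ^ d) := by gcongr
        _ = (4 * s) ^ 2 := by field_simp; ring) (by
      rw [mul_assoc, hpow, show 2 * (4 * s) = 8 * s by ring, ← mul_assoc]; exact hl8)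
  rw [mul_assoc, hpow, ← mul_assoc] at h2
  exact h2

end Crest.Agent.R234.N5_372
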