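import Crest.Agent.R234.Th14_164

/-!
Row 234, VF-THETA part 15 (helper164): the area formula tested with bounded Borel functions; THETA at one
ball from closeness in the language of N0-COARSE (`∫ |N - Q|` and `∫ tl` small at one scale).
-/

set_option autoImplicit false

open Set Filter Topology MeasureTheory Metric
open Crest.GeometryTopology.Submanifold
open Crest.Agent.R234.Vf_884 Crest.Agent.R234.Ar_870 Crest.Agent.R234.Cy_870
open scoped ENNReal NNReal ContDiff InnerProductSpace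

noncomputable section

namespace Crest.Agent.R234.Th_164

variable {m n k : ℕ} {π : Euc k →L[ℝ] Euc m}

namespace Area

variable {W : Measure (Euc k × L k)} {R : Set (Euc m)} {N : Euc m → ℝ≥0∞}

/-- area formula, real form, Borel functions -/
theorem integral_eqB (hN : Area W π R N) [IsFiniteMeasure W] (hπ : IsCo π)
    (hc : ∀ᵐ p ∂W, p.2 ∈ G m k) (hR : MeasurableSet R) {g : Euc m → ℝ} (hg : Measurable g)
    (hg0 : ∀ x, x ∉ R → g x = 0) {C : ℝ} (hC : ∀ x, |g x| ≤ C) :
    ∫ p, Jh π p.2 * g (π p.1) ∂W = ∫ x in R, (N x).toReal * g x := by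
  have hJm : Measurable fun p : Euc k × L k => Jh π p.2 :=
    (continuous_Jh π).measurable.comp measurable_snd
  -- nonnegative functions
  have key : ∀ g : Euc m → ℝ, Measurable g → (∀ x, 0 ≤ g x) → (∀ x, x ∉ R → g x = 0) →
      ∫ p, Jh π p.2 * g (π p.1) ∂W = ∫ x in R, (N x).toReal * g x := by
    intro g hg hgn hg0
    rw [integral_eq_lintegral_of_nonneg_ae
      (Eventually.of_forall fun p => mul_nonneg (Jh_nonneg _ _) (hgn _))
      (hJm.mul (hg.comp (measurable_base π))).aestronglyMeasurable,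
      integral_eq_lintegral_of_nonneg_ae
      (Eventually.of_forall fun x => mul_nonneg ENNReal.toReal_nonneg (hgn _))
      ((hN.meas.ennreal_toReal.mul hg).aestronglyMeasurable)]
    congr 1
    have h1 : ∀ p : Euc k × L k, ENNReal.ofReal (Jh π p.2 * g (π p.1)) =
        ENNReal.ofReal (Jh π p.2) * ENNReal.ofReal (g (π p.1)) := fun p =>
      ENNReal.ofReal_mul (Jh_nonneg _ _)
    simp_rw [h1]
    rw [hN.area (fun x => ENNReal.ofReal (g x)) hg.ennreal_ofReal
      (fun x hx => by rw [hg0 x hx, ENNReal.ofReal_zero])]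
    rw [← lintegral_indicator hR]
    have h2 := hN.ae_lt_top hπ hc hR
    rw [ae_restrict_iff' hR] at h2
    refine lintegral_congr_ae ?_
    filter_upwards [h2] with x hx
    by_cases hxR : x ∈ R
    · rw [Set.indicator_of_mem hxR, ENNReal.ofReal_mul ENNReal.toReal_nonneg,
        ENNReal.ofReal_toReal (hx hxR).ne]
    · rw [Set.indicator_of_notMem hxR, hg0 x hxR]; simp
  have hp := key (fun x => max (g x) 0) (hg.max measurable_const) (fun x => le_max_right _ _)
    (fun x hx => by rw [hg0 x hx]; simp)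
  have hn := key (fun x => max (-g x) 0) (hg.neg.max measurable_const) (fun x => le_max_right _ _)
    (fun x hx => by rw [hg0 x hx]; simp)
  have hbW : ∀ f : Euc m → ℝ, Measurable f → (∀ x, |f x| ≤ C) →
      Integrable (fun p : Euc k × L k => Jh π p.2 * f (π p.1)) W := by
    intro f hf hfC
    refine Integrable.of_bound
      (hJm.mul (hf.comp (measurable_base π))).aestronglyMeasurable C ?_
    filter_upwards [hc] with p hp
    rw [Real.norm_eq_abs, abs_mul, abs_of_nonneg (Jh_nonneg _ _)]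
    calc Jh π p.2 * |f (π p.1)| ≤ 1 * |f (π p.1)| := by
          gcongr
          exact Jh_le_one hπ (isPr_of_G hp)
      _ ≤ C := by rw [one_mul]; exact hfC _
  have hbN : ∀ f : Euc m → ℝ, Measurable f → (∀ x, |f x| ≤ C) →
      Integrable (fun x => (N x).toReal * f x) (volume.restrict R) := by
    intro f hf hfC
    exact (hN.integrableOn hπ hc hR).mul_bdd hf.aestronglyMeasurable
      (Eventually.of_forall fun x => by rw [Real.norm_eq_abs]; exact hfC x)
  have hC0 : 0 ≤ C := (abs_nonneg _).trans (hC 0)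
  have hCp : ∀ x, |max (g x) 0| ≤ C := fun x => by
    rw [abs_of_nonneg (le_max_right _ _)]
    exact max_le ((le_abs_self _).trans (hC x)) hC0
  have hCn : ∀ x, |max (-g x) 0| ≤ C := fun x => by
    rw [abs_of_nonneg (le_max_right _ _)]
    exact max_le ((neg_le_abs _).trans (hC x)) hC0
  have hsplit : ∀ x, g x = max (g x) 0 - max (-g x) 0 := by
    intro x
    rcases le_total 0 (g x) with h | h
    · rw [max_eq_left h, max_eq_right (by linarith)]; ring
    · rw [max_eq_right h, max_eq_left (by linarith)]; ring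
  calc ∫ p, Jh π p.2 * g (π p.1) ∂W
      = ∫ p, (Jh π p.2 * max (g (π p.1)) 0 - Jh π p.2 * max (-g (π p.1)) 0) ∂W := by
        refine integral_congr_ae (Eventually.of_forall fun p => ?_)
        change Jh π p.2 * g (π p.1) = Jh π p.2 * max (g (π p.1)) 0 - Jh π p.2 * max (-g (π p.1)) 0
        rw [← mul_sub, ← hsplit]
    _ = (∫ p, Jh π p.2 * max (g (π p.1)) 0 ∂W) - ∫ p, Jh π p.2 * max (-g (π p.1)) 0 ∂W :=
        integral_sub (hbW _ (hg.max measurable_const) hCp)
          (hbW _ (hg.neg.max measurable_const) hCn)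
    _ = (∫ x in R, (N x).toReal * max (g x) 0) - ∫ x in R, (N x).toReal * max (-g x) 0 := by
        rw [hp, hn]
    _ = ∫ x in R, ((N x).toReal * max (g x) 0 - (N x).toReal * max (-g x) 0) :=
        (integral_sub (hbN _ (hg.max measurable_const) hCp)
          (hbN _ (hg.neg.max measurable_const) hCn)).symm
    _ = _ := by
        refine integral_congr_ae (Eventually.of_forall fun x => ?_)
        change (N x).toReal * max (g x) 0 - (N x).toReal * max (-g x) 0 = (N x).toReal * g x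
        rw [← mul_sub, ← hsplit]

end Area

/-- `|b| ≤ (1/2) ∫ tl² + ∫ |N - Q|` tested with a bounded function -/
theorem abs_b_leB {W : Measure (Euc k × L k)} [IsFiniteMeasure W] (hπ : IsCo π)
    (hc : ∀ᵐ p ∂W, p.2 ∈ G m k) {R : Set (Euc m)} (hR : MeasurableSet R) (hRf : volume R ≠ ⊤)
    {N : Euc m → ℝ≥0∞} (hN : Area W π R N) (Q : ℝ) {f : Euc m → ℝ} (hf : Measurable f)
    (hf1 : ∀ x, |f x| ≤ 1) {B : Set (Euc m)} (hB : MeasurableSet B) (hBR : B ⊆ R)
    (hf0 : ∀ x, x ∉ B → f x = 0) :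
    |(∫ p, f (π p.1) ∂W) - Q * (∫ x, f x) - 1 / 2 * ∫ p, tl π p.2 * f (π p.1) ∂W| ≤
      1 / 2 * (∫ p in (fun p => π p.1) ⁻¹' B, tl π p.2 ^ 2 ∂W) + ∫ x in B, |(N x).toReal - Q| := by
  have hfm : Measurable fun p : Euc k × L k => f (π p.1) := hf.comp (measurable_base π)
  have hJm : Measurable fun p : Euc k × L k => Jh π p.2 :=
    (continuous_Jh π).measurable.comp measurable_snd
  have hi0 : Integrable (fun p : Euc k × L k => f (π p.1)) W :=
    Integrable.of_bound hfm.aestronglyMeasurable 1 (Eventually.of_forall fun p => hf1 _)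
  have hiJ : Integrable (fun p : Euc k × L k => Jh π p.2 * f (π p.1)) W := by
    refine Integrable.of_bound (hJm.mul hfm).aestronglyMeasurable 1 ?_
    filter_upwards [hc] with p hp
    rw [Real.norm_eq_abs, abs_mul, abs_of_nonneg (Jh_nonneg _ _)]
    have h1 := Jh_le_one hπ (isPr_of_G hp)
    have h2 := hf1 (π p.1)
    have h3 := Jh_nonneg π p.2
    calc Jh π p.2 * |f (π p.1)| ≤ 1 * 1 := by gcongr
      _ = 1 := one_mul 1
  have hit : Integrable (fun p : Euc k × L k => tl π p.2 * f (π p.1)) W := by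
    refine Integrable.of_bound ((measurable_tl2 π).mul hfm).aestronglyMeasurable m ?_
    filter_upwards [hc] with p hp
    have h1 := tl_le hπ (isPr_of_G hp)
    have h0 := tl_nonneg hπ (isPr_of_G hp)
    rw [Real.norm_eq_abs, abs_mul, abs_of_nonneg h0]
    calc tl π p.2 * |f (π p.1)| ≤ m * 1 := by gcongr; exact hf1 _
      _ = m := mul_one _
  have hit2 : Integrable (fun p : Euc k × L k => tl π p.2 ^ 2) W := by
    refine Integrable.of_bound ((measurable_tl2 π).pow_const 2).aestronglyMeasurable (m ^ 2) ?_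
    filter_upwards [hc] with p hp
    have h1 := tl_le hπ (isPr_of_G hp)
    have h0 := tl_nonneg hπ (isPr_of_G hp)
    rw [Real.norm_eq_abs, abs_of_nonneg (by positivity)]
    gcongr
  have hNi := hN.integrableOn hπ hc hR
  have hiNf : IntegrableOn (fun x => (N x).toReal * f x) R :=
    hNi.mul_bdd hf.aestronglyMeasurable (Eventually.of_forall fun x => hf1 x)
  have hQf : IntegrableOn (fun x => Q * f x) R := by
    refine Integrable.const_mul ?_ Q
    exact IntegrableOn.of_bound (lt_top_iff_ne_top.2 hRf) hf.aestronglyMeasurable 1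
      (Eventually.of_forall fun x => hf1 x)
  have hQc : IntegrableOn (fun _ : Euc m => Q) R := integrableOn_const hRf
  have e1 : ∫ x, f x = ∫ x in R, f x :=
    (setIntegral_eq_integral_of_forall_compl_eq_zero fun x hx => hf0 x fun h => hx (hBR h)).symm
  have e2 := hN.integral_eqB hπ hc hR hf (fun x hx => hf0 x fun h => hx (hBR h)) hf1
  have hs1 : Integrable (fun p : Euc k × L k => f (π p.1) - Jh π p.2 * f (π p.1)) W := hi0.sub hiJ
  have hit' : Integrable (fun p : Euc k × L k => 1 / 2 * (tl π p.2 * f (π p.1))) W :=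
    hit.const_mul _
  have e3 : (∫ p, f (π p.1) ∂W) - Q * (∫ x, f x) - 1 / 2 * ∫ p, tl π p.2 * f (π p.1) ∂W =
      (∫ p, (f (π p.1) - Jh π p.2 * f (π p.1) - 1 / 2 * (tl π p.2 * f (π p.1))) ∂W) +
        ∫ x in R, ((N x).toReal * f x - Q * f x) := by
    rw [integral_sub hs1 hit', integral_sub hi0 hiJ, integral_const_mul,
      integral_sub hiNf hQf, integral_const_mul, e2, e1]
    ring
  rw [e3]
  refine (abs_add_le _ _).trans (add_le_add ?_ ?_)
  · have hTm : MeasurableSet ((fun p : Euc k × L k => π p.1) ⁻¹' B) := measurable_base π hB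
    rw [← integral_indicator hTm, ← integral_const_mul]
    refine abs_integral_le_integral_abs.trans ?_
    refine integral_mono_ae ((hi0.sub hiJ).sub (hit.const_mul _)).abs
      ((hit2.indicator hTm).const_mul _) ?_
    filter_upwards [hc] with p hp
    have h1 := abs_anom_le hπ (isPr_of_G hp)
    change |f (π p.1) - Jh π p.2 * f (π p.1) - 1 / 2 * (tl π p.2 * f (π p.1))| ≤
      1 / 2 * ((fun p : Euc k × L k => π p.1) ⁻¹' B).indicator (fun p => tl π p.2 ^ 2) p
    have e4 : f (π p.1) - Jh π p.2 * f (π p.1) - 1 / 2 * (tl π p.2 * f (π p.1)) =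
        (1 - Jh π p.2 - tl π p.2 / 2) * f (π p.1) := by ring
    rw [e4, abs_mul]
    by_cases hpB : π p.1 ∈ B
    · have hmem : p ∈ (fun p : Euc k × L k => π p.1) ⁻¹' B := hpB
      rw [Set.indicator_of_mem hmem]
      calc |1 - Jh π p.2 - tl π p.2 / 2| * |f (π p.1)| ≤ (tl π p.2 ^ 2 / 2) * 1 := by
            gcongr
            exact hf1 _
        _ = 1 / 2 * tl π p.2 ^ 2 := by ring
    · have hmem : p ∉ (fun p : Euc k × L k => π p.1) ⁻¹' B := hpB
      rw [Set.indicator_of_notMem hmem, hf0 _ hpB]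
      simp
  · refine abs_integral_le_integral_abs.trans ?_
    have e5 : ∫ x in B, |(N x).toReal - Q| = ∫ x in R, B.indicator (fun x => |(N x).toReal - Q|) x := by
      rw [setIntegral_indicator hB, inter_eq_right.2 hBR]
    rw [e5]
    have hNQ : IntegrableOn (fun x => |(N x).toReal - Q|) R := (hNi.sub hQc).abs
    refine integral_mono (hiNf.sub hQf).abs (hNQ.indicator hB) fun x => ?_
    change |(N x).toReal * f x - Q * f x| ≤ B.indicator (fun x => |(N x).toReal - Q|) x
    rw [← sub_mul, abs_mul]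
    by_cases hxB : x ∈ B
    · rw [Set.indicator_of_mem hxB]
      calc |(N x).toReal - Q| * |f x| ≤ |(N x).toReal - Q| * 1 := by gcongr; exact hf1 x
        _ = _ := mul_one _
    · rw [Set.indicator_of_notMem hxB, hf0 x hxB]
      simp

/-- `∫ f(π) dW - Q ∫ f` for bounded Borel functions `f` supported in `B` -/
theorem abs_test_le {W : Measure (Euc k × L k)} [IsFiniteMeasure W] (hπ : IsCo π)
    (hc : ∀ᵐ p ∂W, p.2 ∈ G m k) {R : Set (Euc m)} (hR : MeasurableSet R) (hRf : volume R ≠ ⊤)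
    {N : Euc m → ℝ≥0∞} (hN : Area W π R N) (Q : ℝ) {f : Euc m → ℝ} (hf : Measurable f) {Cf : ℝ}
    (hCf : 0 < Cf) (hf1 : ∀ x, |f x| ≤ Cf) {B : Set (Euc m)} (hB : MeasurableSet B) (hBR : B ⊆ R)
    (hf0 : ∀ x, x ∉ B → f x = 0) :
    |(∫ p, f (π p.1) ∂W) - Q * (∫ x, f x)| ≤
      Cf * ((1 + m) / 2 * (∫ p in (fun p => π p.1) ⁻¹' B, tl π p.2 ∂W) +
        ∫ x in B, |(N x).toReal - Q|) := by
  -- normalisation `|f| ≤ 1`
  have key : ∀ f : Euc m → ℝ, Measurable f → (∀ x, |f x| ≤ 1) → (∀ x, x ∉ B → f x = 0) →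
      |(∫ p, f (π p.1) ∂W) - Q * (∫ x, f x)| ≤
        (1 + m) / 2 * (∫ p in (fun p => π p.1) ⁻¹' B, tl π p.2 ∂W) +
          ∫ x in B, |(N x).toReal - Q| := by
    intro f hf hf1 hf0
    have hTm : MeasurableSet ((fun p : Euc k × L k => π p.1) ⁻¹' B) := measurable_base π hB
    have htl0 : ∀ᵐ p ∂W, 0 ≤ tl π p.2 := by
      filter_upwards [hc] with p hp
      exact tl_nonneg hπ (isPr_of_G hp)
    have hti : Integrable (fun p : Euc k × L k => tl π p.2) W := by
      refine Integrable.of_bound (measurable_tl2 π).aestronglyMeasurable m ?_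
      filter_upwards [hc, htl0] with p hp hp0
      rw [Real.norm_eq_abs, abs_of_nonneg hp0]
      exact tl_le hπ (isPr_of_G hp)
    have h1 := abs_b_leB hπ hc hR hRf hN Q hf hf1 hB hBR hf0
    have h2 : ∫ p in (fun p => π p.1) ⁻¹' B, tl π p.2 ^ 2 ∂W ≤
        m * ∫ p in (fun p => π p.1) ⁻¹' B, tl π p.2 ∂W := by
      rw [← integral_const_mul]
      refine integral_mono_of_nonneg (Eventually.of_forall fun p => by positivity)
        (hti.integrableOn.const_mul _) ?_
      filter_upwards [ae_restrict_of_ae hc, ae_restrict_of_ae htl0] with p hp hp0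
      have := tl_le hπ (isPr_of_G hp)
      calc tl π p.2 ^ 2 = tl π p.2 * tl π p.2 := by ring
        _ ≤ m * tl π p.2 := by gcongr
    have h3 : |∫ p, tl π p.2 * f (π p.1) ∂W| ≤ ∫ p in (fun p => π p.1) ⁻¹' B, tl π p.2 ∂W := by
      rw [← integral_indicator hTm]
      refine abs_integral_le_integral_abs.trans ?_
      refine integral_mono_of_nonneg (Eventually.of_forall fun p => abs_nonneg _)
        (hti.indicator hTm) ?_
      filter_upwards [htl0] with p hp0
      change |tl π p.2 * f (π p.1)| ≤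
        ((fun p : Euc k × L k => π p.1) ⁻¹' B).indicator (fun p => tl π p.2) p
      rw [abs_mul, abs_of_nonneg hp0]
      by_cases hpB : π p.1 ∈ B
      · have hmem : p ∈ (fun p : Euc k × L k => π p.1) ⁻¹' B := hpB
        rw [Set.indicator_of_mem hmem]
        calc tl π p.2 * |f (π p.1)| ≤ tl π p.2 * 1 := by gcongr; exact hf1 _
          _ = _ := mul_one _
      · have hmem : p ∉ (fun p : Euc k × L k => π p.1) ⁻¹' B := hpB
        rw [Set.indicator_of_notMem hmem, hf0 _ hpB]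
        simp
    have h4 : (∫ p, f (π p.1) ∂W) - Q * (∫ x, f x) =
        ((∫ p, f (π p.1) ∂W) - Q * (∫ x, f x) - 1 / 2 * ∫ p, tl π p.2 * f (π p.1) ∂W) +
          1 / 2 * ∫ p, tl π p.2 * f (π p.1) ∂W := by ring
    rw [h4]
    refine (abs_add_le _ _).trans ?_
    have h5 : |1 / 2 * ∫ p, tl π p.2 * f (π p.1) ∂W| ≤
        1 / 2 * ∫ p in (fun p => π p.1) ⁻¹' B, tl π p.2 ∂W := by
      rw [abs_mul, abs_of_pos (by norm_num : (0 : ℝ) < 1 / 2)]
      gcongr
    linarith
  have h1 := key (fun x => Cf⁻¹ * f x) (hf.const_mul _) (fun x => by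
    rw [abs_mul, abs_of_pos (by positivity : (0 : ℝ) < Cf⁻¹), inv_mul_le_iff₀ hCf, mul_one]
    exact hf1 x) (fun x hx => by rw [hf0 x hx, mul_zero])
  rw [integral_const_mul, integral_const_mul] at h1
  have h2 : Cf⁻¹ * (∫ p, f (π p.1) ∂W) - Q * (Cf⁻¹ * ∫ x, f x) =
      Cf⁻¹ * ((∫ p, f (π p.1) ∂W) - Q * ∫ x, f x) := by ring
  rw [h2, abs_mul, abs_of_pos (by positivity : (0 : ℝ) < Cf⁻¹), inv_mul_le_iff₀ hCf] at h1
  exact h1

section varifold

variable {W : Measure (Euc k × L k)} {R : Set (Euc m)} {N : Euc m → ℝ≥0∞} {δ h : ℝ}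
  {q : Euc k → ℝ}

/-- the mass of a ball from `∫ |N - Q|` and `∫ tl` -/
theorem Setup.near (hS : Setup π W R N δ h q) (Q : ℝ) {x : Euc m} {r : ℝ} (hr : 0 < r)
    (hxr : ball x r ⊆ R) :
    |W.real ((fun p => π p.1) ⁻¹' ball x r) - Q * om m * r ^ m| ≤
      (1 + m) / 2 * (∫ p in (fun p => π p.1) ⁻¹' ball x r, tl π p.2 ∂W) +
        ∫ y in ball x r, |(N y).toReal - Q| := by
  have := hS.fin
  have hS' := hS.mono isOpen_ball hxr
  have h1 := abs_test_le (W := W) hS.co hS.conc measurableSet_ball measure_ball_lt_top.ne hS'.area Q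
    (f := (ball x r).indicator 1) (measurable_one.indicator measurableSet_ball) one_pos
    (fun y => by
      by_cases hy : y ∈ ball x r
      · rw [Set.indicator_of_mem hy]; simp
      · rw [Set.indicator_of_notMem hy]; simp) measurableSet_ball subset_rfl
    (fun y hy => Set.indicator_of_notMem hy _)
  have e1 : ∫ p, (ball x r).indicator (1 : Euc m → ℝ) (π p.1) ∂W =
      W.real ((fun p => π p.1) ⁻¹' ball x r) := by
    have hTm : MeasurableSet ((fun p : Euc k × L k => π p.1) ⁻¹' ball x r) :=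
      measurable_base π measurableSet_ball
    have e : (fun p : Euc k × L k => (ball x r).indicator (1 : Euc m → ℝ) (π p.1)) =
        ((fun p : Euc k × L k => π p.1) ⁻¹' ball x r).indicator 1 := by
      funext p; simp [Set.indicator]
    rw [e, integral_indicator_one hTm]
  have e2 : ∫ y, (ball x r).indicator (1 : Euc m → ℝ) y = om m * r ^ m := by
    rw [integral_indicator_one measurableSet_ball, vol_ball x hr]
  rw [e1, e2, one_mul, ← mul_assoc] at h1
  exact h1

set_option maxHeartbeats 800000 in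
/-- **THETA at one ball, from closeness** (`∫ |N - Q|` and `∫ tl` small over `ball x (4 r)`). -/
theorem win (m Q : ℕ) : ∃ σ δ₁ ε K : ℝ, 0 < σ ∧ σ ≤ 1 / 4 ∧ 0 < δ₁ ∧ δ₁ ≤ 1 ∧ 0 < ε ∧ ε ≤ δ₁ ∧
    0 < K ∧
    ∀ (k : ℕ) (π : Euc k →L[ℝ] Euc m) (W : Measure (Euc k × L k)) (R : Set (Euc m))
      (N : Euc m → ℝ≥0∞) (δ h : ℝ) (q : Euc k → ℝ), Setup π W R N δ h q → δ * h ≤ ε →
      ∀ (c : Euc m) (r : ℝ), 0 < r → ball c (4 * r) ⊆ R → δ * (m + h) * r ≤ ε →
      ∫ y in ball c (4 * r), |(N y).toReal - Q| ≤ ε * r ^ m →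
      ∫ p in (fun p => π p.1) ⁻¹' ball c (4 * r), tl π p.2 ∂W ≤ ε * r ^ m →
      (∀ᵐ x, x ∈ ball c (r / 2) → x ∉ Bad δ₁ (r / 16) (wM W π (ws π σ)) (ball c (r / 2)) →
        N x = Q) ∧
      (∀ x ∈ Bad δ₁ (r / 16) (wM W π (ws π σ)) (ball c (r / 2)), ∃ ρ, 0 < ρ ∧ ρ ≤ r / 16 ∧
        δ₁ * ρ ^ m < ∫ p in (fun p => π p.1) ⁻¹' ball x ρ, ws π σ p ∂W ∧
        (∀ t, 3 * ρ ≤ t → t ≤ r / 2 →
          ∫ p in (fun p => π p.1) ⁻¹' ball x t, ws π σ p ∂W ≤ δ₁ * t ^ m ∧
          ∫ y in ball x t, |(N y).toReal - Q| ≤ K * t ^ m ∧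
          W.real ((fun p => π p.1) ⁻¹' ball x t) ≤ K * t ^ m)) ∧
      (volume (Bad δ₁ (r / 16) (wM W π (ws π σ)) (ball c (r / 2)))).toReal ≤
        K * ∫ p in (fun p => π p.1) ⁻¹' ball c r, ws π σ p ∂W ∧
      (muM W π (Bad δ₁ (r / 16) (wM W π (ws π σ)) (ball c (r / 2)))).toReal ≤
        K * ∫ p in (fun p => π p.1) ⁻¹' ball c r, ws π σ p ∂W ∧
      ∫ y in ball c (r / 2), |(N y).toReal - Q| ≤
        K * ∫ p in (fun p => π p.1) ⁻¹' ball c r, ws π σ p ∂W ∧
      (∫ p in (fun p => π p.1) ⁻¹' ball c r, ws π σ p ∂W ≤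
        σ⁻¹ * ∫ p in (fun p => π p.1) ⁻¹' ball c r, tl π p.2 ^ 2 ∂W) ∧
      ∫ y in ball c (r / 2), |(N y).toReal - Q| ≤
        K / σ * ∫ p in (fun p => π p.1) ⁻¹' ball c r, tl π p.2 ^ 2 ∂W ∧
      ∀ f : Euc m → ℝ, Measurable f → (∀ x, |f x| ≤ 1) → (∀ x, x ∉ ball c (r / 2) → f x = 0) →
        |(∫ p, f (π p.1) ∂W) - Q * (∫ x, f x) - 1 / 2 * ∫ p, tl π p.2 * f (π p.1) ∂W| ≤
          (1 / 2 + K / σ) * ∫ p in (fun p => π p.1) ⁻¹' ball c r, tl π p.2 ^ 2 ∂W := by
  obtain ⟨σ, δ₁, δ₃, K, hσ, hσ1, hδ1, hδ1', hδ3, hδ31, hK, hT⟩ := THETA m Q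
  have hom := om_pos m
  set ε : ℝ := min δ₃ (om m / (4 * (m + 3))) with hε
  have hε0 : 0 < ε := lt_min hδ3 (by positivity)
  have hε3 : ε ≤ δ₃ := min_le_left _ _
  have hεo : ε ≤ om m / (4 * (m + 3)) := min_le_right _ _
  have hεo' : (m + 3) * ε ≤ om m / 4 := by
    calc (m + 3) * ε ≤ (m + 3) * (om m / (4 * (m + 3))) := by gcongr
      _ = om m / 4 := by field_simp
  refine ⟨σ, δ₁, ε, K, hσ, hσ1, hδ1, hδ1', hε0, hε3.trans hδ31, hK, ?_⟩
  intro k π W R N δ h q hS hδh c r hr hcR hgr hN ht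
  have := hS.fin
  have hrm : 0 < r ^ m := pow_pos hr m
  have h4 : (1 : ℝ) ≤ 4 ^ m := one_le_pow₀ (by norm_num)
  have hsubr : ball c r ⊆ ball c (4 * r) := ball_subset_ball (by linarith)
  have hNi : IntegrableOn (fun y => |(N y).toReal - (Q : ℝ)|) (ball c (4 * r)) := by
    have hS4 := hS.mono isOpen_ball hcR
    exact ((hS4.area.integrableOn hS.co hS.conc measurableSet_ball).sub
      (integrableOn_const measure_ball_lt_top.ne)).abs
  have hN' : ∫ y in ball c r, |(N y).toReal - Q| ≤ ε * r ^ m :=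
    (setIntegral_mono_set hNi (Eventually.of_forall fun y => abs_nonneg _)
      hsubr.eventuallyLE).trans hN
  have ht' : ∫ p in (fun p => π p.1) ⁻¹' ball c r, tl π p.2 ∂W ≤ ε * r ^ m :=
    (setIntegral_mono_set hS.integrable_tl.integrableOn (ae_restrict_of_ae hS.ae_tl_nonneg)
      (preimage_mono hsubr).eventuallyLE).trans ht
  have n1 := hS.near Q hr (hsubr.trans hcR)
  have n4 := hS.near Q (by positivity : 0 < 4 * r) hcR
  have hm0 : (0 : ℝ) ≤ m := Nat.cast_nonneg m
  have b1 : (1 + m) / 2 * (∫ p in (fun p => π p.1) ⁻¹' ball c r, tl π p.2 ∂W) +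
        ∫ y in ball c r, |(N y).toReal - Q| ≤ (m + 3) * ε * r ^ m := by
    calc _ ≤ (1 + m) / 2 * (ε * r ^ m) + ε * r ^ m := by gcongr
      _ = ((1 + m) / 2 + 1) * (ε * r ^ m) := by ring
      _ ≤ (m + 3) * (ε * r ^ m) := mul_le_mul_of_nonneg_right (by linarith) (by positivity)
      _ = _ := by ring
  have b4 : (1 + m) / 2 * (∫ p in (fun p => π p.1) ⁻¹' ball c (4 * r), tl π p.2 ∂W) +
        ∫ y in ball c (4 * r), |(N y).toReal - Q| ≤ (m + 3) * ε * r ^ m := by
    calc _ ≤ (1 + m) / 2 * (ε * r ^ m) + ε * r ^ m := by gcongr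
      _ = ((1 + m) / 2 + 1) * (ε * r ^ m) := by ring
      _ ≤ (m + 3) * (ε * r ^ m) := mul_le_mul_of_nonneg_right (by linarith) (by positivity)
      _ = _ := by ring
  have c1 : (m + 3) * ε * r ^ m ≤ om m / 4 * r ^ m := by gcongr
  have hmass : W.real ((fun p => π p.1) ⁻¹' ball c (4 * r)) ≤ (Q + 1) * om m * (4 * r) ^ m := by
    have h1 := (le_abs_self _).trans (n4.trans (b4.trans c1))
    have h2 : om m / 4 * r ^ m ≤ om m * (4 * r) ^ m := by
      rw [mul_pow]
      have : om m / 4 * r ^ m ≤ om m * (1 * r ^ m) := by nlinarith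
      refine this.trans ?_
      gcongr
    linarith
  obtain ⟨t1, t2, t3, t4, t5, t6, _⟩ := hT k π W R N δ h q hS (hδh.trans hε3) c r hr hcR
    (hgr.trans hε3) hmass (ht.trans (by gcongr)) (n1.trans (b1.trans c1))
  have t7 : ∫ y in ball c (r / 2), |(N y).toReal - Q| ≤
      K / σ * ∫ p in (fun p => π p.1) ⁻¹' ball c r, tl π p.2 ^ 2 ∂W := by
    refine t5.trans ?_
    calc _ ≤ K * (σ⁻¹ * ∫ p in (fun p => π p.1) ⁻¹' ball c r, tl π p.2 ^ 2 ∂W) := by gcongr
      _ = _ := by ring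
  refine ⟨t1, t2, t3, t4, t5, t6, t7, ?_⟩
  intro f hf hf1 hf0
  have hsub : ball c (r / 2) ⊆ ball c r := ball_subset_ball (by linarith)
  have hsub4 : ball c (r / 2) ⊆ ball c (4 * r) := ball_subset_ball (by linarith)
  have hS4 := hS.mono isOpen_ball hcR
  have hit2 : Integrable (fun p : Euc k × L k => tl π p.2 ^ 2) W := by
    refine Integrable.of_bound ((measurable_tl2 π).pow_const 2).aestronglyMeasurable (m ^ 2) ?_
    filter_upwards [hS.conc] with p hp
    have h1 := tl_le hS.co (isPr_of_G hp)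
    have h0 := tl_nonneg hS.co (isPr_of_G hp)
    rw [Real.norm_eq_abs, abs_of_nonneg (by positivity)]
    gcongr
  refine (abs_b_leB (W := W) hS.co hS.conc measurableSet_ball measure_ball_lt_top.ne hS4.area
    (Q : ℝ) hf hf1 (B := ball c (r / 2)) measurableSet_ball hsub4 hf0).trans ?_
  have h2 : ∫ p in (fun p => π p.1) ⁻¹' ball c (r / 2), tl π p.2 ^ 2 ∂W ≤
      ∫ p in (fun p => π p.1) ⁻¹' ball c r, tl π p.2 ^ 2 ∂W :=
    setIntegral_mono_set hit2.integrableOn (Eventually.of_forall fun p => by positivity)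
      (preimage_mono hsub).eventuallyLE
  linarith

end varifold

end Crest.Agent.R234.Th_164
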