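import Crest.Agent.R234.Thin7_561
import Crest.Agent.R234.N5e_372
import Crest.Agent.R234.Core2_809

/-!
# Row 234, N4-AV (helper561), part 1: averaged vertices

`Gen.eM_le_eea` : energy over a ball by the averaged energy; `Gen.exists_vertex` : one translation for
which all the ordinary radial energies of the vertices are small; `N5K` : class level form of N5 (ordinary
vertices); `n5_av` : the same for averaged vertices.
-/

set_option autoImplicit false
set_option linter.unusedSectionVars false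

open MeasureTheory Set Function Filter Topology Metric
open Crest.GeometryTopology.Submanifold
open Crest.Agent.R234.Vf_884 Crest.Agent.R234.Ar_870 Crest.Agent.R234.Cy_870
open Crest.Agent.R234.Avg_387 Crest.Agent.R234.N5_372
open scoped ENNReal NNReal InnerProductSpace

noncomputable section

namespace Crest.Agent.R234.Thin_561

variable {m n k d : ℕ}

variable {π : Euc k →L[ℝ] Euc m} {κ : Euc k →L[ℝ] Euc n} {x y z ν : Euc m} {L₀ : ℝ}
  {V W : Measure (Euc k × L k)} {g g1 g2 : ℝ → ℝ} {x₀ : Euc m} {R h₀ τ δ : ℝ} {dw : Euc m → ℝ}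

/-- the energy over a base set as a real integral -/
theorem Gen.eM_eq (h : Gen W π κ) {A : Set (Euc m)} (hA : MeasurableSet A) :
    eM W π A = ENNReal.ofReal (∫ p in ov π A, tl π p.2 ∂W) := by
  rw [eM, bm_apply W π _ hA, ofReal_integral_eq_lintegral_ofReal h.integrable_tl.integrableOn]
  exact ae_restrict_of_ae (by filter_upwards [h.tl_ae] with p hp using hp.1)

theorem Gen.eM_toReal (h : Gen W π κ) {A : Set (Euc m)} (hA : MeasurableSet A) :
    (eM W π A).toReal = ∫ p in ov π A, tl π p.2 ∂W := by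
  rw [h.eM_eq hA, ENNReal.toReal_ofReal]
  refine integral_nonneg_of_ae ?_
  exact ae_restrict_of_ae (by filter_upwards [h.tl_ae] with p hp using hp.1)

/-- the energy over a ball by the averaged energy -/
theorem Gen.eM_le_eea (h : Gen W π κ) (hw : CW dw τ) (hg : Prof g g1 g2) {c r l : ℝ}
    (hcr : ∀ t, 0 ≤ t → t ≤ 1 / 4 → c ≤ g t) (hr : r + τ ≤ Real.exp l / 2) (x : Euc m) :
    c * (∫ h, dw h) * (Real.exp ((2 - m) * l) * (eM W π (closedBall x r)).toReal) ≤
      eea dw W π g x l := by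
  rw [h.eM_toReal measurableSet_closedBall]
  set T : ℝ := ∫ p in ov π (closedBall x r), tl π p.2 ∂W with hT
  have hBm : MeasurableSet (ov (k := k) π (closedBall x r)) :=
    measurableSet_ov measurableSet_closedBall
  have key : ∀ y ∈ closedBall (0 : Euc m) τ,
      c * (Real.exp ((2 - m) * l) * T) ≤ ee W π (x - y) g l := by
    intro y hy
    have hy1 : ‖y‖ ≤ τ := by simpa using hy
    have i1 : Integrable (fun p : Euc k × L k => tl π p.2 *
        g (Real.exp (-2 * l) * ‖π p.1 - (x - y)‖ ^ 2)) W :=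
      (h.fr (x - y) l).integrable_c (aestronglyMeasurable_tl π W) (h.fr (x - y) l).tl_bound hg.k0
        le_rfl
    have h1 : c * T ≤ ∫ p, tl π p.2 * g (Real.exp (-2 * l) * ‖π p.1 - (x - y)‖ ^ 2) ∂W := by
      rw [hT, ← integral_const_mul, ← integral_indicator hBm]
      refine integral_mono_ae ?_ i1 ?_
      · rw [integrable_indicator_iff hBm]
        exact h.integrable_tl.integrableOn.const_mul c
      · filter_upwards [h.tl_ae] with p hp
        by_cases hpB : p ∈ ov π (closedBall x r)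
        · rw [indicator_of_mem hpB]
          have h2 : ‖π p.1 - x‖ ≤ r := by
            have : π p.1 ∈ closedBall x r := hpB
            rwa [mem_closedBall, dist_eq_norm] at this
          have h3 : ‖π p.1 - (x - y)‖ ≤ Real.exp l / 2 := by
            have e1 : π p.1 - (x - y) = (π p.1 - x) + y := by abel
            rw [e1]
            refine (norm_add_le _ _).trans ?_
            linarith
          have h4 : Real.exp (-2 * l) * ‖π p.1 - (x - y)‖ ^ 2 ≤ 1 / 4 := by
            have e1 : ‖π p.1 - (x - y)‖ ^ 2 ≤ (Real.exp l / 2) ^ 2 :=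
              pow_le_pow_left₀ (norm_nonneg _) h3 2
            have e2 : Real.exp (-2 * l) * (Real.exp l / 2) ^ 2 = 1 / 4 := by
              have e3 : Real.exp (-2 * l) * Real.exp l ^ 2 = 1 := by
                rw [← Real.exp_nat_mul, ← Real.exp_add]; norm_num
              rw [div_pow, ← mul_div_assoc, e3]; norm_num
            calc _ ≤ Real.exp (-2 * l) * (Real.exp l / 2) ^ 2 := by gcongr
              _ = 1 / 4 := e2
          have h5 := hcr _ (by positivity) h4
          rw [mul_comm]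
          exact mul_le_mul_of_nonneg_left h5 hp.1
        · rw [indicator_of_notMem hpB]
          exact mul_nonneg hp.1 (Prof.nonneg hg _ (by positivity))
    have h2 := mul_le_mul_of_nonneg_left h1 (Real.exp_pos ((2 - m) * l)).le
    unfold ee
    calc c * (Real.exp ((2 - m) * l) * T) = Real.exp ((2 - m) * l) * (c * T) := by ring
      _ ≤ _ := h2
  have i2 : Integrable fun y : Euc m => dw y * (c * (Real.exp ((2 - m) * l) * T)) :=
    hw.integrable (f := fun _ => c * (Real.exp ((2 - m) * l) * T)) continuousOn_const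
  have i3 : Integrable fun y : Euc m => dw y * ee W π (x - y) g l :=
    (CO_of_cont (h.cont2_ee hg.k0) x τ (l + 1)).integrable hw (by linarith : l < l + 1)
  have h6 : ∫ y, dw y * (c * (Real.exp ((2 - m) * l) * T)) ≤ ∫ y, dw y * ee W π (x - y) g l := by
    refine integral_mono i2 i3 fun y => ?_
    by_cases hy : y ∈ closedBall (0 : Euc m) τ
    · exact mul_le_mul_of_nonneg_left (key y hy) (hw.nonneg y)
    · simp only [hw.zero' hy, zero_mul]; exact le_rfl
  rw [integral_mul_const] at h6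
  calc _ = (∫ h, dw h) * (c * (Real.exp ((2 - m) * l) * T)) := by ring
    _ ≤ _ := h6

/-- one translation for which all the radial energies of the vertices are small -/
theorem Gen.exists_vertex (h : Gen W π κ) (hw : CW dw τ) (hM : 0 < ∫ h, dw h)
    (hg : Prof g g1 g2) {v : Fin d → Euc m} {l B : ℝ} (h0 : RRa dw W π g1 y l ≤ B)
    (hi : ∀ i, RRa dw W π g1 (y + v i) l ≤ B) :
    ∃ a ∈ closedBall (0 : Euc m) τ, RR W π (y - a) g1 l ≤ (d + 1) * B / (∫ h, dw h) ∧
      ∀ i, RR W π (y - a + v i) g1 l ≤ (d + 1) * B / (∫ h, dw h) := by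
  have cR := h.cont2_RR hg.k1
  set q : Euc m → ℝ → ℝ := fun z t => RR W π z g1 t + ∑ i, RR W π (z + v i) g1 t with hq
  have cq : Continuous (uncurry q) := by
    refine cR.add ?_
    refine continuous_finsetSum _ fun i _ => ?_
    exact cR.comp (((continuous_fst.add continuous_const).prodMk continuous_snd))
  have hco := CO_of_cont cq y τ (l + 1)
  obtain ⟨a, ha, h1⟩ := exists_le_mean hw hM hco (by linarith : l < l + 1)
  have h2 : av dw q y l ≤ (d + 1) * B := by
    have iR : ∀ (z : Euc m), Integrable fun u : Euc m => dw u * RR W π (z - u) g1 l :=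
      fun z => (CO_of_cont cR z τ (l + 1)).integrable hw (by linarith : l < l + 1)
    have e1 : av dw q y l = RRa dw W π g1 y l + ∑ i, RRa dw W π g1 (y + v i) l := by
      have iS : Integrable fun u : Euc m => ∑ i, dw u * RR W π (y + v i - u) g1 l :=
        integrable_finsetSum _ fun i _ => iR _
      have q3 := integral_add (iR y) iS
      have q4 := integral_finsetSum (μ := (volume : Measure (Euc m))) Finset.univ
        (f := fun i u => dw u * RR W π (y + v i - u) g1 l) (fun i _ => iR _)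
      have e2 : av dw q y l = ∫ u, (dw u * RR W π (y - u) g1 l +
          ∑ i, dw u * RR W π (y + v i - u) g1 l) := by
        unfold av
        refine integral_congr_ae (Eventually.of_forall fun u => ?_)
        simp only [hq]
        rw [mul_add, Finset.mul_sum]
        congr 1
        refine Finset.sum_congr rfl fun i _ => ?_
        have : y - u + v i = y + v i - u := by abel
        rw [this]
      rw [e2, q3, q4]
      rfl
    rw [e1]
    have e3 : ∑ i, RRa dw W π g1 (y + v i) l ≤ ∑ _i : Fin d, B := Finset.sum_le_sum fun i _ => hi i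
    rw [Finset.sum_const, Finset.card_univ, Fintype.card_fin, nsmul_eq_mul] at e3
    linarith
  have h3 : q (y - a) l ≤ (d + 1) * B / (∫ h, dw h) := by
    rw [le_div_iff₀ hM]
    exact h1.trans h2
  have h4 : 0 ≤ ∑ i, RR W π (y - a + v i) g1 l := Finset.sum_nonneg fun i _ => h.RR_nonneg hg _ _
  have h5 := h.RR_nonneg hg (y - a) l
  refine ⟨a, ha, ?_, fun i => ?_⟩
  · simp only [hq] at h3; linarith
  · have h6 := Finset.single_le_sum (f := fun i => RR W π (y - a + v i) g1 l)
      (fun i _ => h.RR_nonneg hg _ _) (Finset.mem_univ i)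
    simp only [hq] at h3
    linarith

/-- the conclusions of N5 at one centre and one scale -/
def N5out (W : Measure (Euc k × L k)) (π : Euc k →L[ℝ] Euc m) (Qn d : ℕ) (v : Fin d → Euc m)
    (x : Euc m) (l ω θ G : ℝ) : Prop :=
  (∀ φ : Euc m → ℝ, Measurable φ → (∀ z, |φ z| ≤ 1) →
    (∀ z, z ∉ ball x (2 * Real.exp l) → φ z = 0) →
    |(∫ p, φ (π p.1) ∂W) - Qn * (∫ z, φ z) - (1 / 2) * (∫ p, tl π p.2 * φ (π p.1) ∂W)| ≤
      ω * G * Real.exp l ^ d) ∧
  ∃ hS : Module.finrank ℝ (Submodule.span ℝ (range v)) = d,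
    ∀ N : Set (Euc m), N ⊆ closedBall x (Real.exp l) →
      volume (Proj_929.pr (iso _ hS) '' N) ≤ ENNReal.ofReal (θ * Real.exp l ^ d) →
      eM W π N ≤ ENNReal.ofReal (ω * G * Real.exp l ^ d)

/-- **class level form of N5**, ordinary vertices: centres `x ∈ X`, scales `e^l`, `lmin ≤ l ≤ lmax`,
`gm l` a lower bound of the energy parameter `G` -/
def N5K (W : Measure (Euc k × L k)) (π : Euc k →L[ℝ] Euc m) (g1 : ℝ → ℝ) (Qn d : ℕ)
    (X : Set (Euc m)) (lmin lmax : ℝ) (gm : ℝ → ℝ) (ω θ K η : ℝ) : Prop :=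
  ∀ x ∈ X, ∀ l, lmin ≤ l → l ≤ lmax → ∀ (y : Euc m) (v : Fin d → Euc m),
    (∀ (c : Fin d → ℝ) (i : Fin d), |c i| * Real.exp l ≤ K * ‖∑ j, c j • v j‖) →
    ‖y - x‖ ≤ 2 * Real.exp l → (∀ i, ‖y + v i - x‖ ≤ 2 * Real.exp l) → ∀ G, gm l ≤ G →
    eM W π (closedBall x (8 * Real.exp l)) ≤ ENNReal.ofReal (G * Real.exp l ^ d) →
    RR W π y g1 (l + 3) ≤ η * G → (∀ i, RR W π (y + v i) g1 (l + 3) ≤ η * G) →
    N5out W π Qn d v x l ω θ G

/-- the constant between the averaged energy and `G` -/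
def Cg (d : ℕ) (c M : ℝ) : ℝ := Real.exp (3 * d) / (c * M)

theorem exp_three : (20 : ℝ) ≤ Real.exp 3 := by
  have h1 : (2.7182818283 : ℝ) < Real.exp 1 := Real.exp_one_gt_d9
  have h2 : Real.exp 3 = Real.exp 1 ^ 3 := by rw [← Real.exp_nat_mul]; norm_num
  rw [h2]
  have h3 : (2.7182818283 : ℝ) ^ 3 ≤ Real.exp 1 ^ 3 := pow_le_pow_left₀ (by norm_num) h1.le 3
  linarith [show (20 : ℝ) ≤ 2.7182818283 ^ 3 by norm_num]

/-- energy over `closedBall x (8 e^l)` by the averaged energy at scale `l + 3` -/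
theorem Gen.eM8 (h : Gen W π κ) (hdm : d + 2 = m) (hw : CW dw τ) (hg : Prof g g1 g2)
    {c l A : ℝ} (hc : 0 < c) (hM : 0 < ∫ h, dw h)
    (hcr : ∀ t, 0 ≤ t → t ≤ 1 / 4 → c ≤ g t) (hτ : τ ≤ 2 * Real.exp l)
    (hA : eea dw W π g x (l + 3) ≤ A) :
    (eM W π (closedBall x (8 * Real.exp l))).toReal ≤ Cg d c (∫ h, dw h) * A * Real.exp l ^ d := by
  have h1 := h.eM_le_eea hw hg (c := c) (r := 8 * Real.exp l) (l := l + 3) hcr (by
    rw [Real.exp_add]
    nlinarith [exp_three, Real.exp_pos l]) x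
  have hm : ((m : ℕ) : ℝ) = d + 2 := by rw [← hdm]; push_cast; ring
  have h2 : Real.exp ((2 - m) * (l + 3)) = (Real.exp l ^ d)⁻¹ * (Real.exp (3 * d))⁻¹ := by
    rw [← Real.exp_nat_mul, ← Real.exp_neg, ← Real.exp_neg, ← Real.exp_add, hm]
    congr 1
    ring
  rw [h2] at h1
  have h3 := h1.trans hA
  have hE : 0 < Real.exp l ^ d := by positivity
  have hE3 : 0 < Real.exp (3 * (d:ℝ)) := Real.exp_pos _
  unfold Cg
  have h4 : (eM W π (closedBall x (8 * Real.exp l))).toReal =
      (Real.exp (3 * d) / (c * (∫ h, dw h))) * (c * (∫ h, dw h) *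
        ((Real.exp l ^ d)⁻¹ * (Real.exp (3 * d))⁻¹ *
          (eM W π (closedBall x (8 * Real.exp l))).toReal)) * Real.exp l ^ d := by
    field_simp
  rw [h4]
  gcongr

theorem Gen.eM_ne_top (h : Gen W π κ) {A : Set (Euc m)} (hA : MeasurableSet A) :
    eM W π A ≠ ⊤ := by
  rw [h.eM_eq hA]
  exact ENNReal.ofReal_ne_top

/-- **N5 for averaged vertices** -/
theorem n5_av (hdm : d + 2 = m) (h : Gen W π κ) (hw : CW dw τ) (hM : 0 < ∫ h, dw h)
    (hg : Prof g g1 g2) {c : ℝ} (hc : 0 < c) (hcr : ∀ t, 0 ≤ t → t ≤ 1 / 4 → c ≤ g t)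
    {Qn : ℕ} {X : Set (Euc m)} {lmin lmax : ℝ} {gm : ℝ → ℝ} {ω θ K η : ℝ}
    (hN : N5K W π g1 Qn d X lmin lmax gm ω θ K η) {l : ℝ} (hx : x ∈ X) (hl1 : lmin ≤ l)
    (hl2 : l ≤ lmax) (hτ : τ ≤ 2 * Real.exp l) {v : Fin d → Euc m}
    (hfat : ∀ (c : Fin d → ℝ) (i : Fin d), |c i| * Real.exp l ≤ K * ‖∑ j, c j • v j‖)
    (hy : ‖y - x‖ + τ ≤ 2 * Real.exp l) (hv : ∀ i, ‖y + v i - x‖ + τ ≤ 2 * Real.exp l)
    {A η₁ : ℝ} (hA : eea dw W π g x (l + 3) ≤ A) (hgm : gm l ≤ Cg d c (∫ h, dw h) * A)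
    (hR : RRa dw W π g1 y (l + 3) ≤ η₁ * A) (hRi : ∀ i, RRa dw W π g1 (y + v i) (l + 3) ≤ η₁ * A)
    (hη : (d + 1) * η₁ / (∫ h, dw h) ≤ η * Cg d c (∫ h, dw h)) :
    N5out W π Qn d v x l ω θ (Cg d c (∫ h, dw h) * A) := by
  have hA0 : 0 ≤ A := by
    refine le_trans ?_ hA
    unfold eea av
    refine integral_nonneg fun u => mul_nonneg (hw.nonneg u) ?_
    unfold ee
    refine mul_nonneg (Real.exp_pos _).le (integral_nonneg_of_ae ?_)
    filter_upwards [h.tl_ae] with p hp
    exact mul_nonneg hp.1 (Prof.nonneg hg _ (by positivity))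
  obtain ⟨a, ha, h1, h2⟩ := h.exists_vertex hw hM hg hR hRi
  have ha1 : ‖a‖ ≤ τ := by simpa using ha
  have hle : (d + 1) * (η₁ * A) / (∫ h, dw h) ≤ η * (Cg d c (∫ h, dw h) * A) := by
    calc (d + 1) * (η₁ * A) / (∫ h, dw h) = ((d + 1) * η₁ / (∫ h, dw h)) * A := by ring
      _ ≤ (η * Cg d c (∫ h, dw h)) * A := by gcongr
      _ = _ := by ring
  refine hN x hx l hl1 hl2 (y - a) v hfat ?_ ?_ _ hgm ?_ (h1.trans hle)
    (fun i => (h2 i).trans hle)
  · have e1 : y - a - x = (y - x) - a := by abel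
    rw [e1]
    refine (norm_sub_le _ _).trans ?_
    linarith
  · intro i
    have e1 : y - a + v i - x = (y + v i - x) - a := by abel
    rw [e1]
    refine (norm_sub_le _ _).trans ?_
    linarith [hv i]
  · rw [← ENNReal.ofReal_toReal (h.eM_ne_top measurableSet_closedBall)]
    exact ENNReal.ofReal_le_ofReal (h.eM8 hdm hw hg hc hM hcr hτ hA)

end Crest.Agent.R234.Thin_561
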