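import Crest.Agent.R234.N5h_372
import Crest.Agent.R234.Hol9_746
import Crest.Agent.R234.Ins1_387
import Crest.Agent.R234.Crs6_173
import Crest.Agent.R234.Thv1_561
import Crest.Agent.R234.Th15_164

/-!
Row 234, node N5 (LOCAL) of the core (helper372), part 9: helper561's `N5K` for the class `Cls` of the
core (all inputs discharged).
-/

set_option autoImplicit false

open MeasureTheory Metric Set Filter Topology
open Crest.GeometryTopology.Submanifold
open Crest.Agent.R234.Vf_884 Crest.Agent.R234.Ar_870 Crest.Agent.R234.Cy_870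
open Crest.Agent.R234.Core_809
open scoped ENNReal NNReal InnerProductSpace

noncomputable section

namespace Crest.Agent.R234.N5_372

theorem holeC {m k : ℕ} (hm : 2 ≤ m) {C₀ c₀ : ℝ} (hC₀ : 0 < C₀) (hc₀ : 0 < c₀) :
    HoleC m k C₀ c₀ := fun _ hη => Hol_746.hole hm hC₀ hc₀ hη

/-- a split fixes the dimension -/
theorem dim_split {m n k : ℕ} {π : Euc k →L[ℝ] Euc m} {κ : Euc k →L[ℝ] Euc n} (h : Split π κ) :
    k = m + n := by
  have e1 : LinearMap.trace ℝ (Euc k) (((ContinuousLinearMap.adjoint π).toLinearMap) ∘ₗ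
      π.toLinearMap) = m := by
    rw [LinearMap.trace_comp_comm']
    have h1 : π.toLinearMap ∘ₗ (ContinuousLinearMap.adjoint π).toLinearMap = LinearMap.id := by
      ext1 v
      exact congrArg (fun T : Euc m →L[ℝ] Euc m => T v) h.hh
    rw [h1, LinearMap.trace_id, finrank_euclideanSpace_fin]
  have e2 : LinearMap.trace ℝ (Euc k) (((ContinuousLinearMap.adjoint κ).toLinearMap) ∘ₗ
      κ.toLinearMap) = n := by
    rw [LinearMap.trace_comp_comm']
    have h1 : κ.toLinearMap ∘ₗ (ContinuousLinearMap.adjoint κ).toLinearMap = LinearMap.id := by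
      ext1 v
      exact congrArg (fun T : Euc n →L[ℝ] Euc n => T v) h.vv
    rw [h1, LinearMap.trace_id, finrank_euclideanSpace_fin]
  have e3 : ((ContinuousLinearMap.adjoint π).toLinearMap) ∘ₗ π.toLinearMap +
      ((ContinuousLinearMap.adjoint κ).toLinearMap) ∘ₗ κ.toLinearMap = LinearMap.id := by
    ext1 v
    exact congrArg (fun T : L k => T v) h.sum
  have e4 := congrArg (LinearMap.trace ℝ (Euc k)) e3
  rw [map_add, e1, e2, LinearMap.trace_id, finrank_euclideanSpace_fin] at e4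
  exact_mod_cast e4.symm

/-- multiplicity, anomaly, mass and energy at the scales `A h₀ ≤ s ≤ 1/64` (164, 173) -/
theorem t1_in (m Q : ℕ) {C₀ : ℝ} (hC₀ : 0 ≤ C₀) : ∃ A C₁ c : ℝ, 1 ≤ A ∧ 0 ≤ C₁ ∧ 0 < c ∧ c ≤ 1 ∧
    ∀ {n k : ℕ} {π : Euc k →L[ℝ] Euc m} {κ : Euc k →L[ℝ] Euc n} {W : Measure (Euc k × L k)}
      {N : Euc m → ℝ≥0∞} {h₀ δ : ℝ}, Crs_173.In W π κ N Q C₀ h₀ δ → δ ≤ c → h₀ ^ 2 ≤ c →
      ∫ p, tl π p.2 ∂W ≤ c → ∀ x ∈ closedBall (0 : Euc m) 3, ∀ s, 0 < s → A * h₀ ≤ s → s ≤ 1 / 64 →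
        (∫ y in ball x (2 * s), |(N y).toReal - Q| ≤ C₁ * (qM W π).real (ball x (4 * s))) ∧
        (∀ φ : Euc m → ℝ, Measurable φ → (∀ z, |φ z| ≤ 1) → (∀ z, z ∉ ball x (2 * s) → φ z = 0) →
          |(∫ p, φ (π p.1) ∂W) - Q * (∫ z, φ z) - (1 / 2) * (∫ p, tl π p.2 * φ (π p.1) ∂W)| ≤
            C₁ * (qM W π).real (ball x (4 * s))) ∧
        W.real (ov π (ball x (2 * s))) ≤ A * s ^ m ∧
        (eM W π).real (ball x (8 * s)) ≤ A * (h₀ / s) ^ 2 * s ^ m := by
  obtain ⟨σ, δ₁, ε, KT, hσ, -, -, -, hε, -, hKT, hwin⟩ := Th_164.win m Q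
  have h4m : (0:ℝ) < 4 ^ m := by positivity
  obtain ⟨A₀, c₀, hA₀, hc₀, hc₁, hcrs⟩ := Crs_173.coarse m Q hC₀ (ε := ε / 4 ^ m) (by positivity)
  have h41 : (1:ℝ) ≤ 4 ^ m := one_le_pow₀ (by norm_num)
  have h8m : (0:ℝ) < 8 ^ m := by positivity
  have h81 : (1:ℝ) ≤ 8 ^ m := one_le_pow₀ (by norm_num)
  have h28 : (2:ℝ) ^ m ≤ 8 ^ m := pow_le_pow_left₀ (by norm_num) (by norm_num) m
  set A : ℝ := A₀ * 8 ^ m + A₀ * 4 ^ m / ε with hA
  have hAA : A₀ * 8 ^ m ≤ A := by rw [hA]; have : 0 ≤ A₀ * 4 ^ m / ε := by positivity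
                                  linarith
  have hA0A : A₀ ≤ A := le_trans (by nlinarith) hAA
  have hAε : A₀ * 4 ^ m / ε ≤ A := by
    rw [hA]; have : 0 ≤ A₀ * 8 ^ m := by positivity
    linarith
  have hA1 : 1 ≤ A := hA₀.trans hA0A
  have hm0 : (0:ℝ) ≤ m := Nat.cast_nonneg m
  refine ⟨A, 1 / 2 + KT / σ, min c₀ (min (ε / (m + 1)) 1), hA1, by positivity, by positivity,
    (min_le_right _ _).trans (min_le_right _ _), ?_⟩
  intro n k π κ W N h₀ δ h hδ hh hE x hx s hs hAs hs1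
  have hcf := cf_of_cylAS h.cyl
  have hfW : IsFiniteMeasure W := ⟨h.cyl.fin⟩
  have hδ1 : δ ≤ 1 := hδ.trans ((min_le_right _ _).trans (min_le_right _ _))
  have hh1 : h₀ ^ 2 ≤ 1 := hh.trans ((min_le_right _ _).trans (min_le_right _ _))
  have hδε : δ * (m + 1) ≤ ε := by
    have h1 : δ ≤ ε / (m + 1) := hδ.trans ((min_le_right _ _).trans (min_le_left _ _))
    rwa [le_div_iff₀ (by positivity)] at h1
  have hh0 := h.hh
  have hA0s : A₀ * h₀ ≤ s := le_trans (by gcongr) hAs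
  have hx3 : ‖x‖ ≤ 3 := by simpa using hx
  -- scales
  have hcr : ∀ a : ℝ, 1 ≤ a → a ≤ 16 → ∫ y in ball x (a * s), |(N y).toReal - Q| ≤
      ε / 4 ^ m * (a * s) ^ m ∧ Asl_214.MB W π x (a * s) ≤ A₀ * (a * s) ^ m ∧
      Asl_214.TB W π x (a * s) ≤ A₀ * (h₀ / (a * s)) ^ 2 * (a * s) ^ m := fun a ha ha' =>
    hcrs h (hδ.trans (min_le_left _ _)) (hh.trans (min_le_left _ _))
      (hE.trans (min_le_left _ _)) x hx (a * s) (by positivity) (hA0s.trans (by nlinarith))
      (by nlinarith)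
  have hTB : ∀ ρ : ℝ, Asl_214.TB W π x ρ = (eM W π).real (ball x ρ) := by
    intro ρ
    rw [hcf.eM_real measurableSet_ball]
    unfold Asl_214.TB
    rw [Crs_173.ovr_eq]
    rfl
  -- the number `h₀ / s`
  have hq : h₀ / s ≤ 1 / A := by
    rw [div_le_div_iff₀ hs (by linarith)]
    linarith
  have hq0 : 0 ≤ h₀ / s := by positivity
  obtain ⟨w1, w2, w3⟩ := hcr 16 (by norm_num) le_rfl
  have hset := Hol_746.setup_of_cylAS h.cyl h.δ0 hδ1 h.area
  have hT16 : ∫ p in (fun p : Euc k × L k => π p.1) ⁻¹' ball x (4 * (4 * s)), tl π p.2 ∂W ≤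
      ε * (4 * s) ^ m := by
    have e1 : (4:ℝ) * (4 * s) = 16 * s := by ring
    rw [e1]
    have h1 : ∫ p in (fun p : Euc k × L k => π p.1) ⁻¹' ball x (16 * s), tl π p.2 ∂W =
        Asl_214.TB W π x (16 * s) := by
      unfold Asl_214.TB
      rw [Crs_173.ovr_eq]
    rw [h1]
    refine w3.trans ?_
    have h2 : (h₀ / (16 * s)) ^ 2 ≤ 1 / A := by
      have e2 : h₀ / (16 * s) = (h₀ / s) / 16 := by field_simp
      have h5 : (h₀ / s) / 16 ≤ 1 := by
        have : 1 / A ≤ 1 := by rw [div_le_one (by linarith)]; exact hA1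
        linarith
      calc (h₀ / (16 * s)) ^ 2 = (h₀ / s / 16) * (h₀ / s / 16) := by rw [e2]; ring
        _ ≤ (h₀ / s / 16) * 1 := by gcongr
        _ ≤ 1 / A := by linarith
    calc A₀ * (h₀ / (16 * s)) ^ 2 * (16 * s) ^ m ≤ A₀ * (1 / A) * (16 * s) ^ m := by gcongr
      _ = (A₀ * 4 ^ m / A) * (4 * s) ^ m := by
          have e3 : (16 * s) ^ m = 4 ^ m * (4 * s) ^ m := by rw [← mul_pow]; ring_nf
          rw [e3]; field_simp
      _ ≤ ε * (4 * s) ^ m := by
          gcongr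
          rw [div_le_iff₀ (by linarith)]
          rw [div_le_iff₀ hε] at hAε
          linarith
  have hw := hwin k π W (ball 0 4) N δ (h₀ ^ 2) _ hset (by nlinarith [h.δ0, sq_nonneg h₀])
    x (4 * s) (by positivity) (by
      apply ball_subset_ball'
      rw [dist_zero_right]
      linarith) (by
      have h3 : δ * (m + h₀ ^ 2) * (4 * s) ≤ δ * (m + 1) * 1 := by
        have := h.δ0
        gcongr
        linarith
      linarith) (by
      rw [show 4 * (4 * s) = 16 * s by ring]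
      refine w1.trans (le_of_eq ?_)
      have e3 : (16 * s) ^ m = 4 ^ m * (4 * s) ^ m := by rw [← mul_pow]; ring_nf
      rw [e3]; field_simp) hT16
  obtain ⟨-, -, -, -, -, -, hT1, hT2⟩ := hw
  have hqe : (∫ p in (fun p : Euc k × L k => π p.1) ⁻¹' ball x (4 * s), tl π p.2 ^ 2 ∂W) =
      (qM W π).real (ball x (4 * s)) := by
    rw [CF.qM_real measurableSet_ball]; rfl
  have h42 : (4 * s) / 2 = 2 * s := by ring
  rw [hqe, h42] at hT1
  have hq0' : 0 ≤ (qM W π).real (ball x (4 * s)) := measureReal_nonneg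
  refine ⟨hT1.trans (by gcongr; linarith), fun φ h1 h2 h3 => ?_, ?_, ?_⟩
  · have h4 := hT2 φ h1 h2 (by rw [h42]; exact h3)
    rw [hqe] at h4
    exact h4
  · obtain ⟨-, m1, -⟩ := hcr 2 (by norm_num) (by norm_num)
    have e1 : W.real (ov π (ball x (2 * s))) = Asl_214.MB W π x (2 * s) := by
      unfold Asl_214.MB
      rw [Crs_173.ovr_eq]
      rfl
    rw [e1]
    refine m1.trans ?_
    rw [mul_pow, ← mul_assoc]
    gcongr
    exact le_trans (by gcongr) hAA
  · obtain ⟨-, -, m1⟩ := hcr 8 (by norm_num) (by norm_num)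
    rw [hTB] at m1
    refine m1.trans ?_
    have e2 : (h₀ / (8 * s)) ^ 2 ≤ (h₀ / s) ^ 2 := by
      apply pow_le_pow_left₀ (by positivity)
      apply div_le_div_of_nonneg_left hh0 hs
      linarith
    calc A₀ * (h₀ / (8 * s)) ^ 2 * (8 * s) ^ m ≤ A₀ * (h₀ / s) ^ 2 * (8 * s) ^ m := by gcongr
      _ = A₀ * 8 ^ m * (h₀ / s) ^ 2 * s ^ m := by rw [mul_pow]; ring
      _ ≤ _ := by gcongr

theorem CF.qM_real_le {m n k : ℕ} {W : Measure (Euc k × L k)} {π : Euc k →L[ℝ] Euc m}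
    {κ : Euc k →L[ℝ] Euc n} {x₀ : Euc m} {R : ℝ} (h : CF W π κ x₀ R) {A : Set (Euc m)}
    (hA : MeasurableSet A) : (qM W π).real A ≤ m * (eM W π).real A := by
  have hfW : IsFiniteMeasure W := ⟨h.fin⟩
  rw [CF.qM_real hA, h.eM_real hA, ← integral_const_mul]
  have hm : AEStronglyMeasurable (fun p : Euc k × L k => tl π p.2) W :=
    ((continuous_tl π).comp continuous_snd).aestronglyMeasurable
  have i1 : Integrable (fun p : Euc k × L k => tl π p.2) W := by
    refine Integrable.of_bound hm m ?_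
    filter_upwards [Jh_bounds h] with p hp
    rw [Real.norm_eq_abs, abs_of_nonneg hp.2.2.1]
    exact hp.2.2.2.1
  have i2 : Integrable (fun p : Euc k × L k => tl π p.2 ^ 2) W := by
    refine Integrable.of_bound (hm.pow 2) ((m:ℝ) ^ 2) ?_
    filter_upwards [Jh_bounds h] with p hp
    rw [Real.norm_eq_abs, abs_of_nonneg (sq_nonneg _)]
    exact pow_le_pow_left₀ hp.2.2.1 hp.2.2.2.1 2
  refine integral_mono_ae i2.integrableOn (i1.const_mul _).integrableOn ?_
  refine ae_restrict_of_ae ?_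
  filter_upwards [Jh_bounds h] with p hp
  have h1 := hp.2.2.1
  have h2 := hp.2.2.2.1
  show tl π p.2 ^ 2 ≤ m * tl π p.2
  rw [pow_two]
  exact mul_le_mul_of_nonneg_right h2 h1

/-- **561's `N5K` for the class of the core**, unconditional. -/
theorem n5K_cls {m d : ℕ} (hd : d + 2 = m) (n Q : ℕ) {cP : ℝ} (hcP : 0 < cP) {ω : ℝ}
    (hω : 0 < ω) :
    ∃ θ > 0, ∀ K : ℝ, ∃ η > 0, ∃ A ≥ 1, ∃ c > 0, c ≤ 1 ∧
      ∀ {k : ℕ} {π : Euc k →L[ℝ] Euc m} {κ : Euc k →L[ℝ] Euc n} {U : Set (Euc k)}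
        {Dd : VarifoldData m k} {δ D : ℝ} {g g1 g2 : ℝ → ℝ} {lmin lmax : ℝ} {gm : ℝ → ℝ},
        Cls Q δ D π κ U Dd → 0 ≤ δ → δ ≤ c → D ≤ c → Prof g g1 g2 →
        (∀ t, 0 ≤ t → t ≤ 1 / 4 → cP ≤ -g1 t) → A * √D ≤ Real.exp lmin → Real.exp lmax ≤ c →
        (∀ l, lmin ≤ l → l ≤ lmax → δ * D * Real.exp l ^ 2 ≤ η * gm l) →
        Thin_561.N5K (part π κ Dd) π g1 Q d (closedBall 0 3) lmin lmax gm ω θ K η := by
  have hm1 : 1 ≤ m := by omega
  have hm2 : 2 ≤ m := by omega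
  obtain ⟨A₁, C₁, c₁, hA₁, hC₁, hc₁, hc₁', hT1⟩ := t1_in m Q (Ins_387.C0_nonneg m Q)
  obtain ⟨θ, hθ, hloc⟩ := local_class hd (holeC (k := m + n) hm2 (Hol_746.CU0_pos m Q)
    (Hol_746.cL0_pos m)) hcP hC₁ (CM := A₁) (by linarith) hω
  refine ⟨θ, hθ, ?_⟩
  intro K
  obtain ⟨η, hη, lam, hlam, hloc⟩ := hloc K
  have hm0 : (0:ℝ) ≤ m := Nat.cast_nonneg m
  set A : ℝ := A₁ + A₁ * (C₁ * m + 1) / (ω * lam) with hA
  have hAA : A₁ ≤ A := by
    rw [hA]; have : 0 ≤ A₁ * (C₁ * m + 1) / (ω * lam) := by positivity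
    linarith
  have hA1 : 1 ≤ A := hA₁.trans hAA
  have hAω : A₁ * (C₁ * m + 1) / (ω * lam) ≤ A := by rw [hA]; linarith
  refine ⟨η, hη, A, hA1, min c₁ (min η (1 / 64)), by positivity, (min_le_left _ _).trans hc₁', ?_⟩
  intro k π κ U Dd δ D g g1 g2 lmin lmax gm hcls hδ0 hδ hD hg hc hlmin hlmax hgm
  obtain rfl : k = m + n := dim_split hcls.sp
  have hD1 : D ≤ 1 / 64 := hD.trans ((min_le_right _ _).trans (min_le_right _ _))
  obtain ⟨S⟩ := exists_sheets_VD hcls.int π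
  have hin := Ins_387.in_of_cls hcls hm1 (by linarith) hδ0 S
  have hδη : δ ≤ η := hδ.trans ((min_le_right _ _).trans (min_le_left _ _))
  have hsit := Hol_746.hsit_of_cls hm1 hcls hδ0
    (hδ.trans ((min_le_left _ _).trans hc₁')) (by linarith)
  have hD0 : 0 ≤ D := by
    refine le_trans (integral_nonneg_of_ae ?_) hcls.en
    filter_upwards [Jh_bounds (cf_of_cylAS hin.cyl)] with p hp using hp.2.2.1
  have hsq : √D ^ 2 = D := Real.sq_sqrt hD0
  have hcf := cf_of_cylAS hin.cyl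
  intro x hx l hl1 hl2 y v hfat hy hv G hG he hr0 hrv
  set s := Real.exp l with hs
  have hs0 : 0 < s := Real.exp_pos l
  have hsmin : A * √D ≤ s := hlmin.trans (Real.exp_le_exp.2 hl1)
  have hs1 : s ≤ 1 / 64 := (Real.exp_le_exp.2 hl2).trans
    (hlmax.trans ((min_le_right _ _).trans (min_le_right _ _)))
  have hsD := Real.sqrt_nonneg D
  obtain ⟨t1, t2, t3, t4⟩ := hT1 hin (hδ.trans (min_le_left _ _))
    (by rw [hsq]; exact hD.trans (min_le_left _ _))
    (hcls.en.trans (hD.trans (min_le_left _ _))) x hx s hs0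
    (le_trans (by gcongr) hsmin) hs1
  have hx3 : ‖x‖ ≤ 3 := by simpa using hx
  have hG0 : 0 ≤ G := by
    have h1 := (hcf.RR_nonneg hg (l + 3)).trans hr0
    by_contra h2
    push Not at h2
    have := mul_neg_of_pos_of_neg hη h2
    linarith
  have hsd : 0 < s ^ d := by positivity
  have hsm : s ^ m = s ^ d * s ^ 2 := by rw [← pow_add, hd]
  rcases le_or_gt G (lam * s ^ 2) with hGl | hGl
  · -- the main case
    have h8 : (eM (part π κ Dd) π).real (ball x (8 * s)) ≤ G * s ^ d :=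
      real_le_of_le_ofReal (by positivity) ((measure_mono ball_subset_closedBall).trans he)
    have h1 := hloc (N := S.N (Cy_870.cyl π κ 0 4 1)) (Q := Q) hsit hδη hin.area hg hc
      (by rw [← hs]; linarith) (by
        rw [← hs]
        have : 1 * √D ≤ A * √D := by gcongr
        linarith) (by rw [← hs, sub_zero]; linarith) t3 hfat hy hv hr0 hrv h8 (by
        rw [hsq]
        exact (hgm l hl1 hl2).trans (by gcongr)) hGl t1
    exact ⟨h1.1, h1.2.2⟩
  · -- the trivial case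
    have hq : √D / s ≤ 1 / A := by
      rw [div_le_div_iff₀ hs0 (by linarith)]
      linarith
    have hq0 : 0 ≤ √D / s := by positivity
    have hq2 : (√D / s) ^ 2 ≤ 1 / A := by
      have h5 : √D / s ≤ 1 := by
        have : 1 / A ≤ 1 := by rw [div_le_one (by linarith)]; exact hA1
        linarith
      calc (√D / s) ^ 2 = (√D / s) * (√D / s) := by ring
        _ ≤ (√D / s) * 1 := by gcongr
        _ ≤ 1 / A := by linarith
    have hmain : (C₁ * m + 1) * (A₁ * (√D / s) ^ 2 * s ^ m) ≤ ω * G * s ^ d := by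
      have h5 : (C₁ * m + 1) * (A₁ * (1 / A)) ≤ ω * lam := by
        have h6 := hAω
        rw [div_le_iff₀ (by positivity)] at h6
        rw [mul_one_div, ← mul_div_assoc, div_le_iff₀ (by linarith)]
        linarith
      calc (C₁ * m + 1) * (A₁ * (√D / s) ^ 2 * s ^ m) ≤
            (C₁ * m + 1) * (A₁ * (1 / A) * s ^ m) := by gcongr
        _ = ((C₁ * m + 1) * (A₁ * (1 / A))) * (s ^ d * s ^ 2) := by rw [hsm]; ring
        _ ≤ (ω * lam) * (s ^ d * s ^ 2) := by gcongr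
        _ = ω * (lam * s ^ 2) * s ^ d := by ring
        _ ≤ ω * G * s ^ d := by gcongr
    have he8 : (eM (part π κ Dd) π).real (ball x (8 * s)) ≤ ω * G * s ^ d := by
      refine t4.trans (le_trans ?_ hmain)
      have h5 : 0 ≤ C₁ * m := by positivity
      have h6 : 0 ≤ A₁ * (√D / s) ^ 2 * s ^ m := by positivity
      nlinarith
    refine ⟨fun φ h1 h2 h3 => ?_, finrank_fat hfat, fun N hN _ => ?_⟩
    · refine (t2 φ h1 h2 h3).trans ?_
      have h4 : (qM (part π κ Dd) π).real (ball x (4 * s)) ≤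
          m * (A₁ * (√D / s) ^ 2 * s ^ m) := by
        refine (hcf.qM_real_le measurableSet_ball).trans ?_
        have h5 : (eM (part π κ Dd) π).real (ball x (4 * s)) ≤
            (eM (part π κ Dd) π).real (ball x (8 * s)) :=
          measureReal_mono (ball_subset_ball (by linarith)) (hcf.eM_lt measurableSet_ball).ne
        exact mul_le_mul_of_nonneg_left (h5.trans t4) hm0
      have h5 := mul_le_mul_of_nonneg_left h4 hC₁
      have h6 : 0 ≤ A₁ * (√D / s) ^ 2 * s ^ m := by positivity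
      nlinarith
    · have h1 : N ⊆ ball x (8 * s) := hN.trans (closedBall_subset_ball (by linarith))
      refine (measure_mono h1).trans ?_
      exact le_ofReal_of_real (hcf.eM_lt measurableSet_ball).ne he8

end Crest.Agent.R234.N5_372
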