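import Crest.Agent.R234.Thv5_561
import Crest.Agent.R234.Core6_809
import Crest.Agent.R234.Par2_504

/-!
# Row 234 (helper561): the facts about contact situations used by NTHIN and NLOC

`Facts` : averaged setting, comparison of the sharp quantities with the averages, lower bound,
masses, for `X : Sit`; `FactsP` : for all situations with large `Λ`; `N5Sit` : N5 at the situations.
-/

set_option autoImplicit false
set_option linter.unusedSectionVars false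

open MeasureTheory Set Function Filter Topology Metric
open Crest.GeometryTopology.Submanifold
open Crest.Agent.R234.Vf_884 Crest.Agent.R234.Ar_870 Crest.Agent.R234.Cy_870
open Crest.Agent.R234.Avg_387 Crest.Agent.R234.N5_372 Crest.Agent.R234.Asl_214
open Crest.Agent.R234.Raw_387 Crest.Agent.R234.Shp_98 Crest.Agent.R234.Core_809
open Crest.Agent.R234.Pot_425
open Crest.Agent.R234.Well_761 (WCfg)
open scoped ENNReal NNReal InnerProductSpace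

noncomputable section

namespace Crest.Agent.R234.Thin_561

/-- log of the bottom scale -/
def L0 {m n : ℕ} {a : ℝ} (X : Sit m n a) : ℝ := Real.log (s0Of m a X.D)

/-- first admissible `t` -/
def ll {m n : ℕ} {a : ℝ} (X : Sit m n a) : ℝ := Real.log (Lam X.D)

/-- length of the window -/
def TT' {m n : ℕ} {a : ℝ} (X : Sit m n a) : ℝ := TOf m a X.D

/-- lower bound of the profile on `[0, 1/4]` -/
def cg0 : ℝ := 81 / 256

/-- lower bound of minus its derivative on `[0, 1/4]` -/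
def cg1 : ℝ := 27 / 16

/-- **the facts about one contact situation** (`om` = small number) -/
structure Facts {m n : ℕ} {a : ℝ} (Q : ℕ) (K cS CE CM c' om : ℝ) (X : Sit m n a) : Prop where
  avs : AvS X.V X.π X.κ 0 4 (√X.D) X.δ (dd m (tauOf a X.D)) (tauOf a X.D) w0.θ w0.θ' w2 4 cg0 cg1
    (Md m) X.Z (ll X) (TT' X) (s0Of m a X.D / 2)
  aR : ∀ x ∈ X.Z, ∀ l, L0 X + ll X ≤ l → l ≤ L0 X + TT' X → X.aR x l ≤ X.sR Q K cS x l
  ae : ∀ x ∈ X.Z, ∀ l, L0 X + ll X ≤ l → l ≤ L0 X + TT' X → X.ae x l ≤ X.se Q K cS x l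
  sE : ∀ x ∈ X.Z, ∀ l, L0 X + ll X ≤ l → l + 4 ≤ L0 X + TT' X →
    X.sE Q K x l ≤ X.aE Q x l + om * X.se Q K cS x (l + 4)
  sE' : ∀ x ∈ X.Z, ∀ l, L0 X + ll X ≤ l → l + 4 ≤ L0 X + TT' X →
    X.sE Q K x l ≤ CE * X.se Q K cS x (l + 4)
  sE0 : ∀ x ∈ X.Z, ∀ l, L0 X + ll X ≤ l → l ≤ L0 X + TT' X → 0 ≤ X.sE Q K x l
  low : ∀ x ∈ X.Z, ∀ l, L0 X + ll X ≤ l → l ≤ L0 X + TT' X →
    Lam X.D ^ (-c') * X.D ≤ X.se Q K cS x l
  mb : ∀ x ∈ X.Z, ∀ l, L0 X + ll X ≤ l → l ≤ L0 X + TT' X → ∀ y ∈ closedBall x (tauOf a X.D),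
    mb X.V X.π y l ≤ CM
  ball : X.Z ⊆ closedBall 0 1

/-- **the facts for all contact situations** with large `Λ` -/
def FactsP (m n Q : ℕ) (K cS a : ℝ) : Prop :=
  ∃ CE CM c' : ℝ, 0 ≤ CE ∧ 0 ≤ CM ∧ 0 ≤ c' ∧ c' + 1 ≤ 100 * (m + 1) * (a + 1) ∧
    ∀ om : ℝ, 0 < om → ∃ l0 : ℝ, ∀ X : Sit m n a, IsSit Q K cS X → l0 ≤ Real.log (Lam X.D) →
      Facts Q K cS CE CM c' om X

/-- **N5 at the contact situations** (helper372's `n5K_cls` at `V`) -/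
def N5Sit (m n Q : ℕ) (K cS a : ℝ) : Prop :=
  ∀ om : ℝ, 0 < om → ∃ θ : ℝ, 0 < θ ∧ ∀ kf : ℝ, ∃ η : ℝ, 0 < η ∧ ∃ l0 : ℝ,
    ∀ X : Sit m n a, IsSit Q K cS X → l0 ≤ Real.log (Lam X.D) →
      N5K X.V X.π w0.θ' Q (m - 2) (closedBall 0 2) (Real.log (s0Of m a X.D))
        (Real.log (stOf m a X.D)) (fun _ => Lam X.D ^ (-(100 * (m + 1) * (a + 1))) * X.D)
        om θ kf η

/-- **the well half at the contact situations** (helper822's `well_sit`) -/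
def WellSit (m n Q : ℕ) (K cS a : ℝ) : Prop :=
  ∃ c1 : ℝ, 0 < c1 ∧ ∃ Cw : ℝ, 0 ≤ Cw ∧ ∀ c' : ℝ, ∀ θ : ℝ, 0 < θ → ∃ Θ : ℝ, 0 < Θ ∧ ∃ l0 : ℝ,
    ∀ X : Sit m n a, IsSit Q K cS X → l0 ≤ Real.log (Lam X.D) → ∀ x ∈ X.Z, ∀ t, ll X ≤ t →
      t + 8 ≤ TT' X → ∀ c : WCfg (Euc n), c.q ^ 2 ≤ q1Of X.D → ∀ A : ℝ,
      X.ae x (t + L0 X + 4) ≤ A → Lam X.D ^ (-c') * X.D ≤ A → Θ * t * A ≤ c.q ^ 2 →
      X.aI x c (t + L0 X + 1) ≤ c1 * c.q ^ 2 →
      ∀ pL : Euc m → Euc (m - 2), LipschitzWith 1 pL → ∀ w : ℝ, 0 ≤ w →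
      (∀ N : Set (Euc m), N ⊆ closedBall x (Real.exp (t + L0 X + 1)) →
        volume (pL '' N) ≤ ENNReal.ofReal (θ * Real.exp (t + L0 X + 1) ^ (m - 2)) →
        eM X.V X.π N ≤ ENNReal.ofReal w) →
      X.ae x (t + L0 X) ≤
        Fm (dd m (tauOf a X.D)) X.V X.π X.κ w0.θ x (toWP c) (t + L0 X) +
        av (dd m (tauOf a X.D)) (f2 X.V X.π X.κ (dFW (toWP c)) w0.θ) x (t + L0 X) +
        Cw * (Real.exp ((2 - m) * (t + L0 X)) * w)

end Crest.Agent.R234.Thin_561
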