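import Crest.Agent.R234.N5i_372
import Crest.Agent.R234.Thf1_561

/-!
Row 234, node N5 (LOCAL) of the core (helper372), part 10: helper561's `N5Sit` (N5 at the contact
situations `X : Sit` of the core).
-/

set_option autoImplicit false

open MeasureTheory Metric Set Filter Topology
open Crest.GeometryTopology.Submanifold
open Crest.Agent.R234.Vf_884 Crest.Agent.R234.Ar_870 Crest.Agent.R234.Cy_870
open Crest.Agent.R234.Core_809 Crest.Agent.R234.Par_504

noncomputable section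

namespace Crest.Agent.R234.N5_372

theorem w0_low {t : ℝ} (_ht : 0 ≤ t) (ht' : t ≤ 1 / 4) : (27 / 16 : ℝ) ≤ -w0.θ' t := by
  change (27 / 16 : ℝ) ≤ - -(4 * (max (1 - t) 0) ^ 3)
  have h1 : (3 / 4 : ℝ) ≤ max (1 - t) 0 := le_trans (by linarith) (le_max_left _ _)
  have h2 : (3 / 4 : ℝ) ^ 3 ≤ (max (1 - t) 0) ^ 3 := pow_le_pow_left₀ (by norm_num) h1 3
  norm_num at h2 ⊢
  linarith

/-- **N5 at the contact situations** -/
theorem n5Sit {m n Q : ℕ} (hm : 2 ≤ m) {K cS a : ℝ} (ha : 1 ≤ a) :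
    Thin_561.N5Sit m n Q K cS a := by
  intro om hom
  obtain ⟨θ, hθ, h⟩ := n5K_cls (m := m) (d := m - 2) (by omega) n Q (cP := 27 / 16) (by norm_num)
    hom
  refine ⟨θ, hθ, fun kf => ?_⟩
  obtain ⟨η, hη, A, hA, c, hc, hc1, h⟩ := h kf
  refine ⟨η, hη, ?_⟩
  have h4 : (0 : ℝ) ≤ m := Nat.cast_nonneg m
  have hb : 0 < Par_504.bb m a := by unfold Par_504.bb; positivity
  obtain ⟨l0, hl0⟩ := ev_l ((ev_le A (show Lt (-1 / 2) 0 (-1 / 2) (Par_504.bb m a) from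
      Or.inr ⟨rfl, hb⟩)).and
    ((ev_small 1 hc (show Lt 0 (-Par_504.bb m a) 0 0 from Or.inr ⟨rfl, by linarith⟩)).and
    ((ev_small 1 hη (show Lt 0 (-Par_504.bb m a) 0 0 from Or.inr ⟨rfl, by linarith⟩)).and
    ((ev_small 1 hc (show Lt (-1) 0 0 0 from Or.inl (by norm_num))).and
    (ev_small 1 hc (show Lt 0 (-4) 0 0 from Or.inr ⟨rfl, by norm_num⟩))))))
  refine ⟨l0, fun Y hY hl => ?_⟩
  obtain ⟨e1, e2, e3, e4, e5⟩ := hl0 Y.D hY.D0 hY.D1 hl
  rw [← s0Of_eq hY.D0 hY.D1, ← sqrt_D_eq hY.D0] at e1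
  rw [one_mul, ← stOf_eq hY.D0 hY.D1] at e2 e3
  rw [one_mul, ← D_eq hY.D0] at e4
  rw [one_mul, ← rpow_eq hY.D0 hY.D1] at e5
  have hst := stOf_pos (m := m) (a := a) hY.D0 hY.D1
  have hs0 := s0Of_pos (m := m) (a := a) hY.D0 hY.D1
  have hδ : Y.δ ≤ c := hY.δ1.trans e5
  have key := h (lmin := Real.log (s0Of m a Y.D)) (lmax := Real.log (stOf m a Y.D))
    (gm := fun _ => Lam Y.D ^ (-(100 * (m + 1) * (a + 1))) * Y.D) hY.cls hY.δ0 hδ e4 prof0
    (fun t h1 h2 => w0_low h1 h2) (by rw [Real.exp_log hs0]; exact e1)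
    (by rw [Real.exp_log hst]; exact e2) (fun l _ hl2 => by
      change Y.δ * Y.D * Real.exp l ^ 2 ≤ η * (stOf m a Y.D * Y.D)
      have h5 : Real.exp l ≤ stOf m a Y.D := by
        rw [← Real.exp_log hst]; exact Real.exp_le_exp.2 hl2
      have h6 := hY.D0
      have h7 := hY.δ0
      calc Y.δ * Y.D * Real.exp l ^ 2 ≤ 1 * Y.D * stOf m a Y.D ^ 2 := by
            gcongr
            exact hδ.trans hc1
        _ = stOf m a Y.D * (stOf m a Y.D * Y.D) := by ring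
        _ ≤ η * (stOf m a Y.D * Y.D) := by gcongr)
  intro x hx l hl1 hl2
  exact key x (closedBall_subset_closedBall (by norm_num) hx) l hl1 hl2

end Crest.Agent.R234.N5_372
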