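import Crest.Agent.R234.Nb1_290

/-!
# R234: the chain of steps for the frequency bound (F-c)

`Inv` is the invariant carried along the steps: `N` frequency, `K ≥ 8 N` inverse step size,
`L = log 1/J` (`J` scale invariant separation), `S` the accumulated metric errors.
-/

set_option linter.unusedVariables false

open Set Filter
open scoped Topology

namespace Crest.Agent.R234.Nb_290

/-- the invariant -/
structure Inv (A Ls C₀ S N K L : ℝ) : Prop where
  hL : Ls ≤ L
  hK : 32 ≤ K
  hNK : 8 * N ≤ K
  hKL : K ≤ 2 * L ^ 2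
  hb : Real.log (8 * max N 4) + 4 * A / L ≤ 2 * Real.log L + S
  hc : Real.log (max N 4) + 4 * A / L ≤ Real.log C₀ + 4 * A / Ls + S

/-- the top state -/
theorem Inv.start {A Ls C₀ N L : ℝ} (hA : 0 ≤ A) (hLs : 4 ≤ Ls) (hL : Ls ≤ L) (hN : N ≤ C₀)
    (hC : 4 ≤ C₀) (hb : Real.log (8 * max N 4) + 4 * A / L ≤ 2 * Real.log L) :
    Inv A Ls C₀ 0 N (max 32 (8 * N)) L where
  hL := hL
  hK := le_max_left _ _
  hNK := le_max_right _ _
  hKL := by
    have hL0 : 0 < L := by linarith
    have h1 : Real.log (8 * max N 4) ≤ Real.log (L ^ 2) := by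
      rw [Real.log_pow]
      have : 0 ≤ 4 * A / L := by positivity
      push_cast
      linarith
    have h2 : 8 * max N 4 ≤ L ^ 2 := by
      rwa [Real.log_le_log_iff (by positivity) (by positivity)] at h1
    refine max_le ?_ ?_
    · have := le_max_right N 4
      nlinarith
    · have := le_max_left N 4
      nlinarith
  hb := by rw [add_zero]; exact hb
  hc := by
    have h1 : Real.log (max N 4) ≤ Real.log C₀ :=
      Real.log_le_log (by positivity) (max_le hN hC)
    have h2 : 4 * A / L ≤ 4 * A / Ls :=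
      div_le_div_of_nonneg_left (by positivity) (by linarith) hL
    linarith

/-- one transition; `S' - S` is what the metric errors cost (`S'` is reset by the user to anything
nonnegative whenever the inequality allows it; usually `S = β₀ - B` with a budget `B ∈ [0, β₀]`). -/
theorem Inv.next {A Ls C₀ S S' N K L N' L' : ℝ} (h : Inv A Ls C₀ S N K L) (hA : 0 ≤ A)
    (hLs : 4 ≤ Ls) (hA2 : Real.log 32 + 4 * A / Ls ≤ 2 * Real.log Ls) (hC : 4 ≤ C₀)
    (hS' : 0 ≤ S') (hS'2 : S' ≤ Real.log 2)
    (hN : max N' 1 ≤ max N 1 * Real.exp (A / (K * L ^ 2) + (S' - S)))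
    (hup : 2 ≤ N' → L + 1 / K ≤ L') (hdn : L - 6 / K - 1 / 16 ≤ L') (hL' : Ls ≤ L') :
    Inv A Ls C₀ S' N' (max (K / 2) (max 32 (8 * N'))) L' := by
  obtain ⟨d, hd⟩ : ∃ d, d = S' - S := ⟨_, rfl⟩
  rw [← hd] at hN
  obtain rfl : S' = S + d := by linarith
  have hK := h.hK
  have hK0 : 0 < K := by linarith
  have hL0 : 0 < L := by linarith [h.hL]
  have hL0' : 0 < L' := by linarith
  have hL1 : 4 ≤ L := by linarith [h.hL]
  have hmono : 4 * A / L' ≤ 4 * A / Ls :=
    div_le_div_of_nonneg_left (by positivity) (by linarith) hL'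
  have hlogmono : Real.log Ls ≤ Real.log L' := Real.log_le_log (by linarith) hL'
  -- the growth estimate when `N' ≥ 4`
  have hbig : 4 ≤ N' → Real.log (max N' 4) + 4 * A / L' ≤ Real.log (max N 4) + 4 * A / L + d ∧
      L ≤ L' := by
    intro h4
    have h1 := hup (by linarith)
    have h1K : 0 < 1 / K := by positivity
    have hLL : L ≤ L' := by linarith
    refine ⟨?_, hLL⟩
    have h2 : max N' 4 ≤ max N 4 * Real.exp (A / (K * L ^ 2) + d) := by
      rw [max_eq_left h4]
      have h3 : N' ≤ max N' 1 := le_max_left _ _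
      refine h3.trans (hN.trans ?_)
      refine mul_le_mul_of_nonneg_right ?_ (Real.exp_pos _).le
      exact max_le_max le_rfl (by norm_num)
    have h3 : Real.log (max N' 4) ≤ Real.log (max N 4) + (A / (K * L ^ 2) + d) := by
      have h4' : Real.log (max N' 4) ≤ Real.log (max N 4 * Real.exp (A / (K * L ^ 2) + d)) :=
        Real.log_le_log (by positivity) h2
      rwa [Real.log_mul (by positivity) (Real.exp_pos _).ne', Real.log_exp] at h4'
    -- `4A/L - 4A/L' ≥ A/(K L²)`
    have h5 : A / (K * L ^ 2) ≤ 4 * A / L - 4 * A / L' := by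
      have h6 : 4 * A / L - 4 * A / L' = 4 * A * (L' - L) / (L * L') := by
        field_simp
      have h7 : 4 * A / L' ≤ 4 * A / (L + 1 / K) :=
        div_le_div_of_nonneg_left (by positivity) (by positivity) h1
      have h8 : 4 * A / L - 4 * A / (L + 1 / K) = 4 * A * (1 / K) / (L * (L + 1 / K)) := by
        field_simp
        ring
      have h9 : A / (K * L ^ 2) ≤ 4 * A * (1 / K) / (L * (L + 1 / K)) := by
        rw [div_le_div_iff₀ (by positivity) (by positivity)]
        have h10 : L + 1 / K ≤ 4 * L := by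
          have : 1 / K ≤ 1 := by rw [div_le_one hK0]; linarith
          linarith
        have h11 : A * (L * (L + 1 / K)) ≤ A * (L * (4 * L)) := by gcongr
        have h12 : 4 * A * (1 / K) * (K * L ^ 2) = A * (L * (4 * L)) := by
          field_simp
        linarith
      linarith
    linarith
  have hb' : Real.log (8 * max N' 4) + 4 * A / L' ≤ 2 * Real.log L' + (S + d) := by
    rcases lt_or_ge N' 4 with h4 | h4
    · rw [max_eq_right h4.le]
      norm_num
      linarith
    · obtain ⟨h1, h2⟩ := hbig h4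
      have h3 := h.hb
      have h5 : Real.log L ≤ Real.log L' := Real.log_le_log hL0 h2
      have h6 : Real.log (8 * max N' 4) = Real.log 8 + Real.log (max N' 4) :=
        Real.log_mul (by norm_num) (by positivity)
      have h7 : Real.log (8 * max N 4) = Real.log 8 + Real.log (max N 4) :=
        Real.log_mul (by norm_num) (by positivity)
      rw [h6]
      rw [h7] at h3
      linarith
  refine ⟨hL', ?_, ?_, ?_, hb', ?_⟩
  · exact le_max_of_le_right (le_max_left _ _)
  · exact le_max_of_le_right (le_max_right _ _)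
  · refine max_le ?_ (max_le ?_ ?_)
    · have h1 := h.hKL
      have h2 : L ≤ L' + 1 / 4 := by
        have h3 : 6 / K ≤ 6 / 32 := by
          rw [div_le_div_iff₀ hK0 (by norm_num)]; linarith
        linarith
      nlinarith
    · nlinarith
    · rcases lt_or_ge N' 4 with h4 | h4
      · nlinarith
      · have h5 : 0 ≤ 4 * A / L' := by positivity
        rw [max_eq_left h4] at hb'
        have h6 : Real.log (8 * N') ≤ Real.log (2 * L' ^ 2) := by
          have h7 : Real.log (2 * L' ^ 2) = Real.log 2 + 2 * Real.log L' := by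
            rw [Real.log_mul (by norm_num) (by positivity), Real.log_pow]
            push_cast
            ring
          rw [h7]
          linarith
        rwa [Real.log_le_log_iff (by positivity) (by positivity)] at h6
  · rcases lt_or_ge N' 4 with h4 | h4
    · rw [max_eq_right h4.le]
      have : Real.log 4 ≤ Real.log C₀ := Real.log_le_log (by norm_num) hC
      linarith
    · have h1 := (hbig h4).1
      have h3 := h.hc
      linarith

/-- the bound -/
theorem Inv.bound {A Ls C₀ S N K L : ℝ} (h : Inv A Ls C₀ S N K L) (hA : 0 ≤ A)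
    (hLs : 4 ≤ Ls) (hC : 4 ≤ C₀) (hsm : 4 * A / Ls + S ≤ Real.log 2) : N ≤ 2 * C₀ := by
  have h1 := h.hc
  have hL0 : 0 < L := by linarith [h.hL]
  have h2 : 0 ≤ 4 * A / L := by positivity
  have h3 : Real.log (max N 4) ≤ Real.log (2 * C₀) := by
    rw [Real.log_mul (by norm_num) (by positivity)]
    linarith
  rw [Real.log_le_log_iff (by positivity) (by positivity)] at h3
  exact (le_max_left _ _).trans h3

variable {a b₀ δ w : ℝ} {I E e b R : ℝ → ℝ}

/-- **the transition of states**: one step with the old reference surface followed by the change of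
the reference surface (`I'`, `E'`). -/
theorem StepData.transition (h : StepData a b₀ δ w I E e b R) (hδ : 0 ≤ δ) (hw : 0 ≤ w)
    {y K K' ρ : ℝ} (hK : 32 ≤ K) (hy1 : y ≤ 1 / 100) (hab : b₀ - a = 2 / K)
    (hy : δ + w * Real.exp 10 / I b₀ ≤ y) (hN0 : 8 * Fr E I b₀ ≤ K)
    {I' E' : ℝ → ℝ} (hρ : 0 ≤ ρ) (hρK : ρ ≤ 1 / K) (hI'a : 0 < I' a)
    (hjN : max (Fr E' I' a) 1 ≤ max (Fr E I a) 1 * Real.exp ρ)
    (hjI : |Real.log (I' a) - Real.log (I a)| ≤ ρ) (hK' : K / 2 ≤ K')
    (hI'c : 0 < I' (a + 1 / K'))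
    (hjG : Real.log (I' (a + 1 / K')) ≤ Real.log (I (a + 1 / K')) + ρ) :
    max (Fr E' I' a) 1 ≤ max (Fr E I b₀) 1 * Real.exp (44 * y / K + ρ) ∧
      (2 ≤ Fr E' I' a →
        (2 * b₀ - Real.log (I b₀)) + 1 / K ≤ 2 * a - Real.log (I' a)) ∧
      ((2 * b₀ - Real.log (I b₀)) - 6 / K - 1 / 16 ≤ 2 * a - Real.log (I' a)) ∧
      Real.log (I' (a + 1 / K')) ≤ Real.log (I' a) + 10 := by
  have hK0 : 0 < K := by linarith
  have hab0 : a ≤ b₀ := by
    have : 0 < 2 / K := by positivity
    linarith
  obtain ⟨s1, s2, s3, s4⟩ := h.step hδ hw hK hy1 hab0 hab.le hy hN0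
  have hy0 : 0 ≤ y := by
    have hIb := h.hI b₀ (right_mem_Icc.mpr hab0)
    have : 0 ≤ w * Real.exp 10 / I b₀ := by positivity
    linarith
  have hjI' := abs_le.mp hjI
  have hρ1 : ρ ≤ 1 / 32 := hρK.trans (by rw [div_le_div_iff₀ hK0 (by norm_num)]; linarith)
  refine ⟨?_, ?_, ?_, ?_⟩
  · refine hjN.trans ?_
    have h1 := s1 a b₀ le_rfl hab0 le_rfl
    calc max (Fr E I a) 1 * Real.exp ρ
        ≤ max (Fr E I b₀) 1 * Real.exp (22 * y * (b₀ - a)) * Real.exp ρ :=
          mul_le_mul_of_nonneg_right h1 (Real.exp_pos _).le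
      _ = max (Fr E I b₀) 1 * Real.exp (44 * y / K + ρ) := by
          rw [mul_assoc, ← Real.exp_add, hab]
          congr 2
          ring
  · intro h2
    have h3 : 19 / 10 ≤ Fr E I a := by
      have h4 : (2 : ℝ) ≤ max (Fr E I a) 1 * Real.exp ρ :=
        (h2.trans (le_max_left _ _)).trans hjN
      have h5 : Real.exp ρ ≤ 104 / 100 := by
        have h6 : (1 : ℝ) - 1 / 32 ≤ Real.exp (-(1 / 32)) := by
          have := Real.add_one_le_exp (-(1 / 32 : ℝ))
          linarith
        have h7 : Real.exp ρ ≤ Real.exp (1 / 32) := Real.exp_le_exp.mpr hρ1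
        rw [Real.exp_neg] at h6
        rw [le_inv_comm₀ (by norm_num) (Real.exp_pos _)] at h6
        refine h7.trans (h6.trans (by norm_num))
      have h8 : (2 : ℝ) ≤ max (Fr E I a) 1 * (104 / 100) :=
        h4.trans (mul_le_mul_of_nonneg_left h5 (le_trans zero_le_one (le_max_right _ _)))
      rcases le_total (Fr E I a) 1 with h9 | h9
      · rw [max_eq_right h9] at h8
        norm_num at h8
      · rw [max_eq_left h9] at h8
        linarith
    have h4 := s3 h3
    have h5 : 2 / K = 1 / K + 1 / K := by ring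
    linarith
  · have h5 : 6 / K = 3 * (2 / K) := by ring
    rw [h5, ← hab]
    linarith
  · have hK'0 : 0 < K' := by linarith
    have h1 : a + 1 / K' ≤ b₀ := by
      have : 1 / K' ≤ 2 / K := by
        rw [div_le_div_iff₀ hK'0 hK0]; linarith
      linarith
    have h1' : a ≤ a + 1 / K' := by
      have : 0 < 1 / K' := by positivity
      linarith
    -- `I (a + 1/K') ≤ e^{small} I b₀`
    have hall : ∀ t ∈ Icc a b₀, I b₀ ≤ Real.exp 10 * I t ∧ Fr E I t ≤ K / 4 := by
      intro t ht
      have h9 := s2 t ht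
      have hIt := h.hI t ht
      have hexp : Real.exp 9 ≤ Real.exp 10 := Real.exp_le_exp.mpr (by norm_num)
      refine ⟨h9.trans (mul_le_mul_of_nonneg_right hexp hIt.le), ?_⟩
      have h10 := s1 t b₀ ht.1 ht.2 le_rfl
      have h11 : Real.exp (22 * y * (b₀ - t)) ≤ 103 / 100 := by
        refine exp_small ?_
        have h12 : b₀ - t ≤ 2 / 32 := by
          have : 2 / K ≤ 2 / 32 := by rw [div_le_div_iff₀ hK0 (by norm_num)]; linarith
          linarith [ht.1]
        have h13 : 22 * y * (b₀ - t) ≤ 22 * y * (2 / 32) :=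
          mul_le_mul_of_nonneg_left h12 (by positivity)
        nlinarith
      have h14 : max (Fr E I b₀) 1 ≤ K / 8 := max_le (by linarith) (by linarith)
      have h15 : max (Fr E I t) 1 ≤ K / 8 * (103 / 100) :=
        h10.trans (mul_le_mul h14 h11 (Real.exp_pos _).le (by positivity))
      have h16 := le_max_left (Fr E I t) 1
      linarith
    obtain ⟨-, -, -, q4⟩ := h.est hδ hw hK (by linarith) hab.le hy hN0
      (left_mem_Icc.mpr hab0) hall
    have h2 := q4 (a + 1 / K') b₀ h1' h1 le_rfl
    have h3 := s2 a (left_mem_Icc.mpr hab0)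
    have hIa := h.hI a (left_mem_Icc.mpr hab0)
    have hIb := h.hI b₀ (right_mem_Icc.mpr hab0)
    have h4 : Real.log (I b₀) ≤ 9 + Real.log (I a) := by
      have h5 : Real.log (I b₀) ≤ Real.log (Real.exp 9 * I a) := Real.log_le_log hIb h3
      rwa [Real.log_mul (Real.exp_pos _).ne' hIa.ne', Real.log_exp] at h5
    have h6 : y * (b₀ - (a + 1 / K')) ≤ 1 / 100 * 1 := by
      refine mul_le_mul hy1 ?_ (by linarith) (by norm_num)
      have : 2 / K ≤ 1 := by rw [div_le_one hK0]; linarith
      linarith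
    linarith

end Crest.Agent.R234.Nb_290
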