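import Crest.Agent.R234.Nb2_290

/-!
# R234: abstract chain of reference surfaces (F7 of the F-list)

`𝓜` = type of reference data (frame + minimal graph); `I M`, `E M`, .. quantities relative to `M` as
functions of `l = log s`.
-/

set_option linter.unusedVariables false

open Set Filter
open scoped Topology

namespace Crest.Agent.R234.Nb_290

/-- quantities relative to reference data -/
structure Fam (𝓜 : Type*) where
  I : 𝓜 → ℝ → ℝ
  E : 𝓜 → ℝ → ℝ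
  e : 𝓜 → ℝ → ℝ
  b : 𝓜 → ℝ → ℝ
  R : 𝓜 → ℝ → ℝ
  /-- budget for the metric errors -/
  B : 𝓜 → ℝ → ℝ
  /-- admissible reference at scale `l` -/
  Good : 𝓜 → ℝ → Prop

/-- frequency relative to `M` -/
noncomputable def Fam.N {𝓜 : Type*} (F : Fam 𝓜) (M : 𝓜) (l : ℝ) : ℝ := Fr (F.E M) (F.I M) l

/-- `L = log 1/J`, `J = e^{-2l} I` -/
noncomputable def Fam.L {𝓜 : Type*} (F : Fam 𝓜) (M : 𝓜) (l : ℝ) : ℝ := 2 * l - Real.log (F.I M l)

/-- a state of the chain: reference `M`, scale `l`, inverse step size `K` -/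
structure Fam.State {𝓜 : Type*} (F : Fam 𝓜) (A Ls C₀ β₀ : ℝ) (M : 𝓜) (l K : ℝ) : Prop where
  good : F.Good M l
  Ipos : 0 < F.I M l
  B0 : 0 ≤ F.B M l
  Bβ : F.B M l ≤ β₀
  inv : Inv A Ls C₀ (β₀ - F.B M l) (F.N M l) K (F.L M l)
  growth : Real.log (F.I M (l + 1 / K)) ≤ Real.log (F.I M l) + 10

/-- the step hypothesis at a state: ODE data on `[l - 2/K, l]` and a new reference at `l - 2/K` -/
def Fam.StepHyp {𝓜 : Type*} (F : Fam 𝓜) (A Ls β₀ : ℝ) (M : 𝓜) (l K : ℝ) : Prop :=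
  ∃ δ w y ρ : ℝ, 0 ≤ δ ∧ 0 ≤ w ∧ 0 ≤ ρ ∧ ρ ≤ 1 / K ∧ y ≤ 1 / 100 ∧
    StepData (l - 2 / K) l δ w (F.I M) (F.E M) (F.e M) (F.b M) (F.R M) ∧
    δ + w * Real.exp 10 / F.I M l ≤ y ∧
    ∃ M' : 𝓜, F.Good M' (l - 2 / K) ∧ 0 ≤ F.B M' (l - 2 / K) ∧ F.B M' (l - 2 / K) ≤ β₀ ∧
      Ls ≤ F.L M' (l - 2 / K) ∧
      (∀ t ∈ Icc (l - 2 / K) l, 0 < F.I M' t ∧
        |Real.log (F.I M' t) - Real.log (F.I M t)| ≤ ρ) ∧
      max (F.N M' (l - 2 / K)) 1 ≤ max (F.N M (l - 2 / K)) 1 * Real.exp ρ ∧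
      44 * y / K + ρ ≤ A / (K * (F.L M l) ^ 2) + (F.B M l - F.B M' (l - 2 / K))

/-- one step of the chain -/
theorem Fam.State.next {𝓜 : Type*} {F : Fam 𝓜} {A Ls C₀ β₀ : ℝ} {M : 𝓜} {l K : ℝ}
    (h : F.State A Ls C₀ β₀ M l K) (hA : 0 ≤ A) (hLs : 4 ≤ Ls)
    (hA2 : Real.log 32 + 4 * A / Ls ≤ 2 * Real.log Ls) (hC : 4 ≤ C₀) (hβ : β₀ ≤ Real.log 2)
    (hs : F.StepHyp A Ls β₀ M l K) :
    ∃ M' K', F.State A Ls C₀ β₀ M' (l - 2 / K) K' ∧ K / 2 ≤ K' ∧
      K' ≤ max K (max 32 (8 * F.N M' (l - 2 / K))) ∧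
      Real.log (F.I M l) ≤ Real.log (F.I M' (l - 2 / K)) + 10 := by
  obtain ⟨δ, w, y, ρ, hδ, hw, hρ, hρK, hy1, hSD, hy, M', hG', hB', hBβ', hLs', hj, hjN, herr⟩ := hs
  have hK := h.inv.hK
  have hK0 : 0 < K := by linarith
  have h2K : 0 < 2 / K := by positivity
  set a := l - 2 / K with ha
  set K' := max (K / 2) (max 32 (8 * F.N M' a)) with hK'
  have hKK' : K / 2 ≤ K' := le_max_left _ _
  have hK'0 : 0 < K' := by linarith
  have haI : a ∈ Icc a l := left_mem_Icc.mpr (by linarith)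
  have hcI : a + 1 / K' ∈ Icc a l := by
    refine ⟨?_, ?_⟩
    · have : 0 < 1 / K' := by positivity
      linarith
    · have : 1 / K' ≤ 2 / K := by
        rw [div_le_div_iff₀ hK'0 hK0]; linarith
      linarith
  have hjc := hj _ hcI
  have hja := hj _ haI
  have hjc' := (abs_le.mp hjc.2).2
  obtain ⟨t1, t2, t3, t4⟩ := hSD.transition (K' := K') (I' := F.I M') (E' := F.E M') hδ hw hK hy1
    (by rw [ha]; ring) hy h.inv.hNK hρ hρK hja.1 hjN hja.2 hKK' hjc.1 (by linarith)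
  have hlogI : Real.log (F.I M l) ≤ Real.log (F.I M' a) + 10 := by
    obtain ⟨-, s2, -, -⟩ := hSD.step hδ hw hK hy1 (by linarith) (by rw [ha]; linarith) hy h.inv.hNK
    have h3 := s2 a haI
    have hIa := hSD.hI a haI
    have h5 : Real.log (F.I M l) ≤ Real.log (Real.exp 9 * F.I M a) := Real.log_le_log h.Ipos h3
    rw [Real.log_mul (Real.exp_pos _).ne' hIa.ne', Real.log_exp] at h5
    have h6 := (abs_le.mp hja.2).1
    have h7 : ρ ≤ 1 := hρK.trans (by rw [div_le_one hK0]; linarith)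
    linarith
  refine ⟨M', K', ⟨hG', hja.1, hB', hBβ', ?_, t4⟩, hKK', ?_, hlogI⟩
  · refine h.inv.next hA hLs hA2 hC (by linarith) (by linarith) ?_ t2 ?_ hLs'
    · refine t1.trans ?_
      refine mul_le_mul_of_nonneg_left (Real.exp_le_exp.mpr ?_)
        (le_trans zero_le_one (le_max_right _ _))
      unfold Fam.L at herr ⊢
      linarith
    · exact t3
  · refine max_le ?_ (le_max_right _ _)
    exact le_max_of_le_left (by linarith)

/-- **the chain**: from a state at `l` one can descend to every scale `l* ∈ [lb, l]` (up to `1/16`),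
the frequency stays `≤ 2 C₀` and the height grows at most linearly (in `log`). -/
theorem Fam.descend {𝓜 : Type*} (F : Fam 𝓜) {A Ls C₀ β₀ lb lt Km : ℝ} (hA : 0 ≤ A) (hLs : 4 ≤ Ls)
    (hA2 : Real.log 32 + 4 * A / Ls ≤ 2 * Real.log Ls) (hC : 4 ≤ C₀)
    (hβ : 4 * A / Ls + β₀ ≤ Real.log 2) (hKm : 16 * C₀ ≤ Km)
    (hstep : ∀ M l K, F.State A Ls C₀ β₀ M l K → K ≤ Km → lb + 1 / 16 < l → l ≤ lt →
      F.StepHyp A Ls β₀ M l K)
    {M : 𝓜} {l K : ℝ} (h : F.State A Ls C₀ β₀ M l K) (hK : K ≤ Km) (hl : l ≤ lt) {ls : ℝ}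
    (hls : lb ≤ ls) (hlsl : ls ≤ l) :
    ∃ M' l' K', F.State A Ls C₀ β₀ M' l' K' ∧ K' ≤ Km ∧ ls ≤ l' ∧ l' ≤ ls + 1 / 16 ∧ l' ≤ l ∧
      F.N M' l' ≤ 2 * C₀ ∧
      Real.log (F.I M l) ≤ Real.log (F.I M' l') + 5 * Km * (l - l') := by
  have hAL : 0 ≤ 4 * A / Ls := by
    have : 0 < Ls := by linarith
    positivity
  have hβ' : β₀ ≤ Real.log 2 := by linarith
  have hKm0 : 0 < Km := by linarith
  have hNb : ∀ M l K, F.State A Ls C₀ β₀ M l K → F.N M l ≤ 2 * C₀ := by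
    intro M l K hs
    have hB := hs.B0
    exact hs.inv.bound hA hLs hC (by linarith)
  -- induction on the number of steps
  have key : ∀ n : ℕ, ∀ M l K, F.State A Ls C₀ β₀ M l K → K ≤ Km → l ≤ lt → ls ≤ l →
      l ≤ ls + 1 / 16 + n * (2 / Km) →
      ∃ M' l' K', F.State A Ls C₀ β₀ M' l' K' ∧ K' ≤ Km ∧ ls ≤ l' ∧ l' ≤ ls + 1 / 16 ∧ l' ≤ l ∧
        F.N M' l' ≤ 2 * C₀ ∧
        Real.log (F.I M l) ≤ Real.log (F.I M' l') + 5 * Km * (l - l') := by
    intro n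
    induction n with
    | zero =>
      intro M l K hs hK _ h1 h2
      refine ⟨M, l, K, hs, hK, h1, by simpa using h2, le_rfl, hNb M l K hs, ?_⟩
      simp
    | succ n ih =>
      intro M l K hs hK hlt h1 h2
      by_cases h3 : l ≤ ls + 1 / 16
      · refine ⟨M, l, K, hs, hK, h1, h3, le_rfl, hNb M l K hs, ?_⟩
        simp
      · push Not at h3
        have hK32 := hs.inv.hK
        have hK0 : 0 < K := by linarith
        obtain ⟨M₁, K₁, hs₁, hK₁a, hK₁b, hI₁⟩ := hs.next hA hLs hA2 hC hβ'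
          (hstep M l K hs hK (by linarith) hlt)
        have h2K : 2 / Km ≤ 2 / K := by
          rw [div_le_div_iff₀ hKm0 hK0]; linarith
        have h2K' : 2 / K ≤ 1 / 16 := by
          rw [div_le_div_iff₀ hK0 (by norm_num)]; linarith
        have h2K0 : 0 < 2 / K := by positivity
        have hK₁ : K₁ ≤ Km := by
          refine hK₁b.trans (max_le hK (max_le (by linarith) ?_))
          have := hNb _ _ _ hs₁
          linarith
        obtain ⟨M', l', K', q1, q2, q3, q4, q5, q6, q7⟩ := ih M₁ (l - 2 / K) K₁ hs₁ hK₁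
          (by linarith) (by linarith) (by
            push_cast at h2
            linarith)
        refine ⟨M', l', K', q1, q2, q3, q4, by linarith, q6, ?_⟩
        have h5 : 10 ≤ 5 * Km * (2 / K) := by
          have h6 : (1 : ℝ) ≤ Km / K := by rw [le_div_iff₀ hK0]; linarith
          have h7 : 5 * Km * (2 / K) = 10 * (Km / K) := by field_simp; norm_num
          rw [h7]
          linarith
        linarith
  obtain ⟨n, hn⟩ := exists_nat_ge ((l - (ls + 1 / 16)) / (2 / Km))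
  refine key n M l K h hK hl hlsl ?_
  have h2Km : 0 < 2 / Km := by positivity
  rw [div_le_iff₀ h2Km] at hn
  linarith

/-- the top state of the chain -/
theorem Fam.State.start {𝓜 : Type*} (F : Fam 𝓜) {A Ls C₀ β₀ : ℝ} {M : 𝓜} {l : ℝ} (hA : 0 ≤ A)
    (hLs : 4 ≤ Ls) (hC : 4 ≤ C₀) (hG : F.Good M l) (hI : 0 < F.I M l) (hB0 : 0 ≤ F.B M l)
    (hBβ : F.B M l ≤ β₀) (hL : Ls ≤ F.L M l) (hN : F.N M l ≤ C₀)
    (hb : Real.log (8 * max (F.N M l) 4) + 4 * A / F.L M l ≤ 2 * Real.log (F.L M l))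
    (hgr : Real.log (F.I M (l + 1 / max 32 (8 * F.N M l))) ≤ Real.log (F.I M l) + 10) :
    F.State A Ls C₀ β₀ M l (max 32 (8 * F.N M l)) := by
  have h0 := Inv.start hA hLs hL hN hC hb
  refine ⟨hG, hI, hB0, hBβ, ⟨h0.hL, h0.hK, h0.hNK, h0.hKL, ?_, ?_⟩, hgr⟩
  · have := h0.hb
    linarith
  · have := h0.hc
    linarith

end Crest.Agent.R234.Nb_290
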