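import Crest.Agent.R234.Nb3_290

/-!
# R234: frequency bound on a window of fixed length (one reference surface)
-/

set_option linter.unusedVariables false

open Set Filter
open scoped Topology

namespace Crest.Agent.R234.Nb_290

variable {a b₀ δ w : ℝ} {I E e b R : ℝ → ℝ}

theorem StepData.mono (h : StepData a b₀ δ w I E e b R) {a' b' : ℝ} (ha : a ≤ a') (hb : b' ≤ b₀) :
    StepData a' b' δ w I E e b R where
  hI := fun l hl => h.hI l ⟨ha.trans hl.1, hl.2.trans hb⟩
  he := fun l hl => h.he l ⟨ha.trans hl.1, hl.2.trans hb⟩
  hR := fun l hl => h.hR l ⟨ha.trans hl.1, hl.2.trans hb⟩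
  hE := fun l hl => h.hE l ⟨ha.trans hl.1, hl.2.trans hb⟩
  dI := fun l hl => h.dI l ⟨ha.trans hl.1, hl.2.trans hb⟩
  dE := fun l hl => h.dE l ⟨ha.trans hl.1, hl.2.trans hb⟩
  hCS := fun l hl => h.hCS l ⟨ha.trans hl.1, hl.2.trans hb⟩
  hb := fun l hl => h.hb l ⟨ha.trans hl.1, hl.2.trans hb⟩
  hlow := fun l hl => h.hlow l ⟨ha.trans hl.1, hl.2.trans hb⟩

/-- weaker errors -/
theorem StepData.weaken (h : StepData a b₀ δ w I E e b R) {δ' w' : ℝ} (hδ : δ ≤ δ') (hw : w ≤ w') :
    StepData a b₀ δ' w' I E e b R where
  hI := h.hI
  he := h.he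
  hR := h.hR
  hE := h.hE
  dI := fun l hl => by
    obtain ⟨I', h1, h2⟩ := h.dI l hl
    refine ⟨I', h1, h2.trans ?_⟩
    have := mul_le_mul_of_nonneg_right hδ (h.hI l hl).le
    linarith
  dE := fun l hl => by
    obtain ⟨E', h1, h2⟩ := h.dE l hl
    refine ⟨E', h1, le_trans ?_ h2⟩
    have h3 := h.hI l hl
    have h4 := h.he l hl
    have := mul_le_mul_of_nonneg_right hδ (by linarith : 0 ≤ e l + I l)
    linarith
  hCS := fun l hl => by
    have := mul_le_mul_of_nonneg_right hδ (h.hI l hl).le
    have h2 := h.hCS l hl
    linarith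
  hb := fun l hl => by
    have := mul_le_mul_of_nonneg_right hδ (h.hI l hl).le
    have h2 := h.hb l hl
    linarith
  hlow := h.hlow

/-- **window of arbitrary length**, one reference surface -/
theorem StepData.window (h : StepData a b₀ δ w I E e b R) (hδ : 0 ≤ δ) (hw : 0 ≤ w) {y K : ℝ}
    (hK : 32 ≤ K) (hy1 : y ≤ 1 / 100) (hab : a ≤ b₀)
    (hy : δ + w * Real.exp (19 + 5 * K * (b₀ - a)) / I b₀ ≤ y)
    (hN0 : 16 * Fr E I b₀ ≤ K) (hyA : y * (b₀ - a) ≤ 1 / 100) {l : ℝ} (hl : l ∈ Icc a b₀) :
    max (Fr E I l) 1 ≤ max (Fr E I b₀) 1 * Real.exp (22 * y * (b₀ - l)) ∧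
      I b₀ ≤ Real.exp (10 + 5 * K * (b₀ - l)) * I l ∧
      Real.log (I l) ≤ Real.log (I b₀) + y * (b₀ - l) := by
  have hK0 : 0 < K := by linarith
  have hIb := h.hI b₀ (right_mem_Icc.mpr hab)
  have hy0 : 0 ≤ y := by
    have : 0 ≤ w * Real.exp (19 + 5 * K * (b₀ - a)) / I b₀ := by positivity
    linarith
  -- induction on the number of steps of length `2/K`
  have key : ∀ n : ℕ, ∀ t ∈ Icc a b₀, b₀ - t ≤ n * (2 / K) →
      max (Fr E I t) 1 ≤ max (Fr E I b₀) 1 * Real.exp (22 * y * (b₀ - t)) ∧
        Real.log (I b₀) ≤ Real.log (I t) + 9 + 9 / 2 * K * (b₀ - t) ∧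
        Real.log (I t) ≤ Real.log (I b₀) + y * (b₀ - t) ∧
        (b₀ - t = n * (2 / K) → Real.log (I b₀) ≤ Real.log (I t) + 9 / 2 * K * (b₀ - t)) := by
    intro n
    induction n with
    | zero =>
      intro t ht hn
      have h1 : t = b₀ := by
        simp only [Nat.cast_zero, zero_mul] at hn
        linarith [ht.2]
      subst h1
      simp
    | succ n ih =>
      intro t ht hn
      by_cases hcase : b₀ - t ≤ n * (2 / K)
      · obtain ⟨q1, q2, q3, q4⟩ := ih t ht hcase
        refine ⟨q1, q2, q3, fun heq => ?_⟩
        exfalso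
        rw [heq] at hcase
        push_cast at hcase
        have : 0 < 2 / K := by positivity
        nlinarith
      · push Not at hcase
        -- top point of the last step
        set s := b₀ - n * (2 / K) with hs
        have hts : t ≤ s := by rw [hs]; linarith
        have hsb : s ≤ b₀ := by
          have : 0 ≤ (n : ℝ) * (2 / K) := by positivity
          rw [hs]; linarith
        have hsI : s ∈ Icc a b₀ := ⟨ht.1.trans hts, hsb⟩
        have hbs : b₀ - s = n * (2 / K) := by rw [hs]; ring
        obtain ⟨q1, q2, q3, q4⟩ := ih s hsI hbs.le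
        have q4' := q4 hbs
        have hst : s - t ≤ 2 / K := by
          push_cast at hn
          rw [hs]
          linarith
        have hIs := h.hI s hsI
        have hIt := h.hI t ht
        -- step on `[t, s]`
        have hSD : StepData t s δ w I E e b R := h.mono ht.1 hsb
        have hys : δ + w * Real.exp 10 / I s ≤ y := by
          have h1 : w * Real.exp 10 / I s ≤ w * Real.exp (19 + 5 * K * (b₀ - a)) / I b₀ := by
            rw [div_le_div_iff₀ hIs hIb]
            have h2 : I b₀ ≤ Real.exp (9 + 5 * K * (b₀ - a)) * I s := by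
              calc I b₀ = Real.exp (Real.log (I b₀)) := (Real.exp_log hIb).symm
                _ ≤ Real.exp (9 + 5 * K * (b₀ - a) + Real.log (I s)) := by
                  refine Real.exp_le_exp.mpr ?_
                  have h3 : 9 / 2 * K * (b₀ - s) ≤ 5 * K * (b₀ - a) := by
                    have h4 : b₀ - s ≤ b₀ - a := by linarith [hsI.1]
                    have h5 : 0 ≤ b₀ - s := by linarith
                    nlinarith
                  linarith
                _ = Real.exp (9 + 5 * K * (b₀ - a)) * I s := by
                  rw [Real.exp_add, Real.exp_log hIs]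
            calc w * Real.exp 10 * I b₀
                ≤ w * Real.exp 10 * (Real.exp (9 + 5 * K * (b₀ - a)) * I s) :=
                  mul_le_mul_of_nonneg_left h2 (by positivity)
              _ = w * (Real.exp 10 * Real.exp (9 + 5 * K * (b₀ - a))) * I s := by ring
              _ = w * Real.exp (19 + 5 * K * (b₀ - a)) * I s := by
                  rw [← Real.exp_add]; ring_nf
          linarith
        have hexps : Real.exp (22 * y * (b₀ - s)) ≤ 5 / 4 := by
          have h1 : 22 * y * (b₀ - s) ≤ 22 / 100 := by
            have h4 : y * (b₀ - s) ≤ y * (b₀ - a) :=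
              mul_le_mul_of_nonneg_left (by linarith [hsI.1]) hy0
            nlinarith
          have h3 : (1 : ℝ) - 22 / 100 ≤ Real.exp (-(22 / 100)) := by
            have := Real.add_one_le_exp (-(22 / 100 : ℝ))
            linarith
          have h5 : Real.exp (22 * y * (b₀ - s)) ≤ Real.exp (22 / 100) := Real.exp_le_exp.mpr h1
          rw [Real.exp_neg, le_inv_comm₀ (by norm_num) (Real.exp_pos _)] at h3
          -- 1/0.78 = 1.282 > 1.25, use the square root trick
          have h6 : Real.exp (11 / 100) ≤ 100 / 89 := by
            have h7 : (1 : ℝ) - 11 / 100 ≤ Real.exp (-(11 / 100)) := by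
              have := Real.add_one_le_exp (-(11 / 100 : ℝ))
              linarith
            rw [Real.exp_neg, le_inv_comm₀ (by norm_num) (Real.exp_pos _)] at h7
            refine h7.trans (by norm_num)
          have h8 : Real.exp (22 / 100) = Real.exp (11 / 100) * Real.exp (11 / 100) := by
            rw [← Real.exp_add]; norm_num
          rw [h8] at h5
          have h12 : Real.exp (22 / 100) ≤ 5 / 4 := by
            have h13 : Real.exp (1 / 50) ≤ 103 / 100 := exp_small le_rfl
            have h14 : Real.exp (22 / 100) = Real.exp (1 / 50) ^ 11 := by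
              rw [← Real.exp_nat_mul]; norm_num
            have h15 : Real.exp (1 / 50) ≤ 50 / 49 := by
              have h16 : (1 : ℝ) - 1 / 50 ≤ Real.exp (-(1 / 50)) := by
                have := Real.add_one_le_exp (-(1 / 50 : ℝ))
                linarith
              rw [Real.exp_neg, le_inv_comm₀ (by norm_num) (Real.exp_pos _)] at h16
              refine h16.trans (by norm_num)
            rw [h14]
            calc Real.exp (1 / 50) ^ 11 ≤ (50 / 49) ^ 11 :=
                  pow_le_pow_left₀ (Real.exp_pos _).le h15 11
              _ ≤ 5 / 4 := by norm_num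
          rw [h8] at h12
          exact h5.trans h12
        have hNs : 8 * Fr E I s ≤ K := by
          have h1 : max (Fr E I b₀) 1 ≤ K / 16 := by
            refine max_le (by linarith) ?_
            linarith
          have h2 : max (Fr E I s) 1 ≤ K / 16 * (5 / 4) :=
            q1.trans (mul_le_mul h1 hexps (Real.exp_pos _).le (by positivity))
          have h3 := le_max_left (Fr E I s) 1
          linarith
        obtain ⟨s1, s2, s3, s4⟩ := hSD.step hδ hw hK hy1 hts hst hys hNs
        have p1 := s1 t s le_rfl hts le_rfl
        have p2 := s2 t (left_mem_Icc.mpr hts)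
        have p2' : Real.log (I s) ≤ 9 + Real.log (I t) := by
          have h5 : Real.log (I s) ≤ Real.log (Real.exp 9 * I t) := Real.log_le_log hIs p2
          rwa [Real.log_mul (Real.exp_pos _).ne' hIt.ne', Real.log_exp] at h5
        -- lower bound for the growth of `I`
        have p3 : Real.log (I t) ≤ Real.log (I s) + y * (s - t) := by
          have hall : ∀ u ∈ Icc t s, I s ≤ Real.exp 10 * I u ∧ Fr E I u ≤ K / 4 := by
            intro u hu
            have h9 := s2 u hu
            have hIu := hSD.hI u hu
            have hexp : Real.exp 9 ≤ Real.exp 10 := Real.exp_le_exp.mpr (by norm_num)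
            refine ⟨h9.trans (mul_le_mul_of_nonneg_right hexp hIu.le), ?_⟩
            have h10 := s1 u s hu.1 hu.2 le_rfl
            have h11 : Real.exp (22 * y * (s - u)) ≤ 103 / 100 := by
              refine exp_small ?_
              have h12 : s - u ≤ 2 / 32 := by
                have : 2 / K ≤ 2 / 32 := by rw [div_le_div_iff₀ hK0 (by norm_num)]; linarith
                linarith [hu.1]
              have h13 : 22 * y * (s - u) ≤ 22 * y * (2 / 32) :=
                mul_le_mul_of_nonneg_left h12 (by positivity)
              nlinarith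
            have h14 : max (Fr E I s) 1 ≤ K / 8 := max_le (by linarith) (by linarith)
            have h15 : max (Fr E I u) 1 ≤ K / 8 * (103 / 100) :=
              h10.trans (mul_le_mul h14 h11 (Real.exp_pos _).le (by positivity))
            have h16 := le_max_left (Fr E I u) 1
            linarith
          obtain ⟨-, -, -, r4⟩ := hSD.est hδ hw hK (by linarith) hst hys hNs
            (left_mem_Icc.mpr hts) hall
          have := r4 t s le_rfl hts le_rfl
          linarith
        refine ⟨?_, ?_, ?_, ?_⟩
        · calc max (Fr E I t) 1 ≤ max (Fr E I s) 1 * Real.exp (22 * y * (s - t)) := p1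
            _ ≤ max (Fr E I b₀) 1 * Real.exp (22 * y * (b₀ - s)) * Real.exp (22 * y * (s - t)) :=
              mul_le_mul_of_nonneg_right q1 (Real.exp_pos _).le
            _ = max (Fr E I b₀) 1 * Real.exp (22 * y * (b₀ - t)) := by
              rw [mul_assoc, ← Real.exp_add]; ring_nf
        · have h5 : 0 ≤ 9 / 2 * K * (s - t) := by
            have : 0 ≤ s - t := by linarith
            positivity
          have h6 : 9 / 2 * K * (b₀ - s) + 9 / 2 * K * (s - t) = 9 / 2 * K * (b₀ - t) := by ring
          linarith
        · have h6 : y * (b₀ - s) + y * (s - t) = y * (b₀ - t) := by ring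
          linarith
        · intro heq
          have h7 : s - t = 2 / K := by
            push_cast at heq
            rw [hs]
            linarith
          have h8 : 9 / 2 * K * (s - t) = 9 := by
            rw [h7]; field_simp
          have h6 : 9 / 2 * K * (b₀ - s) + 9 / 2 * K * (s - t) = 9 / 2 * K * (b₀ - t) := by ring
          linarith
  obtain ⟨n, hn⟩ := exists_nat_ge ((b₀ - l) / (2 / K))
  have h2K : 0 < 2 / K := by positivity
  rw [div_le_iff₀ h2K] at hn
  obtain ⟨q1, q2, q3, -⟩ := key n l hl hn
  refine ⟨q1, ?_, q3⟩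
  have hIl := h.hI l hl
  calc I b₀ = Real.exp (Real.log (I b₀)) := (Real.exp_log hIb).symm
    _ ≤ Real.exp (10 + 5 * K * (b₀ - l) + Real.log (I l)) := by
      refine Real.exp_le_exp.mpr ?_
      have h3 : 9 / 2 * K * (b₀ - l) ≤ 5 * K * (b₀ - l) := by
        have h5 : 0 ≤ b₀ - l := by linarith [hl.2]
        nlinarith
      linarith
    _ = Real.exp (10 + 5 * K * (b₀ - l)) * I l := by
      rw [Real.exp_add, Real.exp_log hIl]

end Crest.Agent.R234.Nb_290
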