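import Crest.Agent.R234.Ng9_290

/-!
# Row 234, node F7-GL, part 10 (helper290): `GLP` from the bound of the anomaly

* `BbP` : the bound of the anomaly `M.b` in a block chart (from F3);
* `glp_of : BbP → GLP`.
-/

set_option autoImplicit false
set_option linter.unusedVariables false
set_option linter.unusedSectionVars false
set_option maxSynthPendingDepth 3

open MeasureTheory Set Function Filter Topology Metric
open Crest.GeometryTopology.Submanifold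
open Crest.Agent.R234.Vf_884 Crest.Agent.R234.Ar_870
open Crest.Agent.R234.Main_456 (Frame Msys)
open Crest.Agent.R234.Gi_456
open Crest.Agent.R234.GL_394
open Crest.Agent.R234.GI_640 (g3 g31 g32)
open Crest.Agent.R234.MG_570 (MG)
open Crest.Agent.R234.Stp_518
open Crest.Agent.R234.Tv_618 (KT Wr ttot)
open scoped ENNReal NNReal InnerProductSpace ContDiff

noncomputable section

namespace Crest.Agent.R234.Ng_290

/-- **bound of the anomaly in a block chart** (from F3) -/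
def BbP : Prop := ∀ (m n Q : ℕ), 3 ≤ m → 1 ≤ n → 1 ≤ Q → ∃ N₀ : ℕ, ∀ N : ℕ, N₀ ≤ N →
  ∀ T Λ : ℝ, ∃ Cb : ℝ, 0 ≤ Cb ∧ ∀ q : ℕ, ∃ κ₀ ε L₁ : ℝ, 0 < κ₀ ∧ 0 < ε ∧
    ∀ (U : Set (Euc (m + n))) (D : VarifoldData m (m + n)) (x : Euc (m + n))
      (M : Mo m n (m + n)) (a cT K : ℝ),
      Sit U D Q x M ε Λ → 0 ≤ M.κ → M.κ ≤ κ₀ → MG N M.κ (Real.exp (cT - M.lb)) M.u →
      4 ≤ K → a ≤ cT - 1 / K → M.lb - T ≤ a → cT ≤ M.lb → 0 < M.I x (VD D) cT →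
      L₁ ≤ lam (M.I x (VD D)) cT → K ≤ lam (M.I x (VD D)) cT ^ 3 →
      ∀ l ∈ Icc a (cT - 1 / K), M.b x (VD D) Q l ≤
        Cb * (M.κ * Real.exp (cT - M.lb) + ‖fderiv ℝ M.u 0‖) * M.I x (VD D) l +
          (lam (M.I x (VD D)) cT ^ q)⁻¹ * M.I x (VD D) cT

theorem FlatPack.mono {m n k : ℕ} {D : VarifoldData m k} {x : Euc k} {Q : ℕ} {t ε ε' Λ : ℝ}
    {π : Euc k →L[ℝ] Euc m} {ρ : Euc k →L[ℝ] Euc n} (h : Top_395.FlatPack D x Q t ε Λ π ρ)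
    (ht : 0 ≤ t) (hε : ε ≤ ε') : Top_395.FlatPack D x Q t ε' Λ π ρ where
  frame := h.frame
  sup := fun z h1 h2 => (h.sup z h1 h2).trans (by gcongr)
  supae := by
    filter_upwards [h.supae] with p hp h1
    exact (hp h1).trans (by gcongr)
  near := ⟨h.near.1, h.near.2.1.trans (by gcongr), h.near.2.2.trans (by gcongr)⟩
  cyl := by
    intro A hA
    obtain ⟨h1, h2, h3, h4, h5, h6⟩ := h.cyl A hA
    refine ⟨h1, h2, h3, h4, ?_, h6⟩
    filter_upwards [h5] with p hp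
    exact hp.trans hε
  mass_le := h.mass_le
  le_mass := h.le_mass

theorem Sit.mono {m n k : ℕ} {U : Set (Euc k)} {D : VarifoldData m k} {Q : ℕ} {x : Euc k}
    {M : Mo m n k} {ε ε' Λ : ℝ} (h : Sit U D Q x M ε Λ) (hε : ε ≤ ε') : Sit U D Q x M ε' Λ :=
  ⟨h.opn, h.int, h.st, h.Q1, h.Th, h.sub, FlatPack.mono h.pack M.S_pos.le hε⟩

/-- `e^(-lam) = e^(-2l) I` -/
theorem exp_neg_lam {I : ℝ → ℝ} {l : ℝ} (h : 0 < I l) :
    Real.exp (-lam I l) = Real.exp (-2 * l) * I l := by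
  unfold lam
  rw [show -(2 * l - Real.log (I l)) = -2 * l + Real.log (I l) by ring, Real.exp_add,
    Real.exp_log h]

/-- powers of `K ≤ L^3` against `H = e^(-L)` -/
theorem beatK {P : ℝ} (hP : 0 ≤ P) (p : ℕ) : ∃ L0 : ℝ, 1 ≤ L0 ∧ ∀ L K : ℝ, L0 ≤ L → 0 ≤ K →
    K ≤ L ^ 3 → P * K ^ p * Real.exp (-L) ≤ 1 := by
  obtain ⟨L0, h0, h1⟩ := beat2 (P := P) (A := 1) (θ := 1) hP zero_le_one one_pos p 3 0
  refine ⟨L0, h0, fun L K hL hK hK3 => ?_⟩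
  have h2 := h1 L K (Real.exp (-L)) hL hK (by rw [one_mul]; exact hK3) (Real.exp_pos _).le
    (by rw [one_mul])
  rw [Real.rpow_one, pow_zero, inv_one] at h2
  exact h2

theorem exists_min7 {a1 a2 a3 a4 a5 a6 a7 : ℝ} (h1 : 0 < a1) (h2 : 0 < a2) (h3 : 0 < a3)
    (h4 : 0 < a4) (h5 : 0 < a5) (h6 : 0 < a6) (h7 : 0 < a7) : ∃ x : ℝ, 0 < x ∧ x ≤ a1 ∧ x ≤ a2 ∧
      x ≤ a3 ∧ x ≤ a4 ∧ x ≤ a5 ∧ x ≤ a6 ∧ x ≤ a7 := by
  refine ⟨min a1 (min a2 (min a3 (min a4 (min a5 (min a6 a7))))), by positivity, ?_, ?_, ?_, ?_,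
    ?_, ?_, ?_⟩ <;> simp

theorem hlow3 : ∀ a t : ℝ, 0 ≤ t → t ≤ a → a ≤ 1 → 3 * (1 - a) ^ 2 ≤ -g31 t :=
  fun a t _ ht ha => GI_640.g31_lower' ha ht

/-- numbers of the scale `sN` -/
theorem sN_num {cT K lb T : ℝ} (hK : 1 ≤ K) (hT : lb - T ≤ cT) (hc : cT ≤ lb) :
    Real.exp (-(T + 2)) * Real.exp lb ≤ sN cT K ∧ sN cT K ≤ Real.exp lb ∧
      (1 + eN K) * sN cT K ≤ 2 * sN cT K ∧ (1 + eN K) * sN cT K ≤ Real.exp lb ∧
      (1 + eN K) * sN cT K ≤ Real.exp (cT - 1 / (4 * K)) ∧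
      sN cT K / 4 ≤ Real.exp (cT - 1 / (4 * K)) := by
  have hK0 : 0 < K := by linarith
  have hse := sN_pos hK (cT := cT)
  have hsm2 := sN_mul hK (cT := cT)
  have he1 := eN_le hK
  have he0 := eN_pos hK
  have hr34 : Real.exp (cT - 3 / (4 * K)) ≤ Real.exp (cT - 1 / (4 * K)) := by
    refine Real.exp_le_exp.2 ?_
    have : 1 / (4 * K) ≤ 3 / (4 * K) := by gcongr; norm_num
    linarith
  have hr35 : Real.exp (cT - 1 / (4 * K)) ≤ Real.exp lb := by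
    refine Real.exp_le_exp.2 ?_
    have : 0 < 1 / (4 * K) := by positivity
    linarith
  have h7 : sN cT K ≤ (1 + eN K) * sN cT K := by nlinarith
  refine ⟨?_, (sN_le hK).trans (Real.exp_le_exp.2 hc), by nlinarith, ?_, ?_, ?_⟩
  · refine le_trans ?_ (sN_ge hK)
    rw [← Real.exp_add]
    have h2 : Real.exp (-(T + 2) + lb) ≤ Real.exp (cT - 2) := Real.exp_le_exp.2 (by linarith)
    refine h2.trans ?_
    rw [show cT - 2 = (cT - 1) - 1 by ring, Real.exp_sub (cT - 1) 1]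
    have h5 := Real.exp_one_gt_d9
    have h6 := Real.exp_pos (cT - 1)
    exact div_le_div_of_nonneg_left h6.le (by norm_num) (by linarith)
  · rw [hsm2]; exact hr34.trans hr35
  · rw [hsm2]; exact hr34
  · rw [hsm2] at h7
    have h8 := h7.trans hr34
    linarith

/-- **the total variation input of a block chart** -/
theorem tv_blk (m n Q : ℕ) (hm : 1 ≤ m) (T : ℝ) (hT : 0 ≤ T) : ∃ κ₁ : ℝ, 0 < κ₁ ∧
    ∃ Ct : ℝ, 0 ≤ Ct ∧ ∀ {C ε Λ cT K : ℝ} {U : Set (Euc (m + n))} {D : VarifoldData m (m + n)}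
      {x : Euc (m + n)} {M : Mo m n (m + n)}, Sit U D Q x M ε Λ → 0 < ε → ε ≤ κ₁ → 0 ≤ M.κ →
      1 ≤ C → C * M.κ ≤ κ₁ → MgF m n C M.κ (Real.exp (cT - M.lb)) M.S M.u M.w → 1 ≤ K →
      M.lb - T ≤ cT → cT ≤ M.lb →
      Cd1 U (VD D) (M.reg x) M.π M.ρ x M.S M.w 0 M.lb (C * (M.κ * Real.exp (cT - M.lb))) cT K ∧
      (Cd m 3 * K ^ 2 * (Real.exp (-2 * cT) * II (ch M.π M.ρ x M.S M.w 0)
        (VK (VD D) (M.reg x)) g31 cT) ≤ ((64 * K)⁻¹) ^ (m + 2) →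
      ∃ (e2 : Measure (Euc m)) (sig : ℝ),
      TV (ch M.π M.ρ x M.S M.w 0) (VK (VD D) (K1 M.π M.ρ x M.S M.w 0 (M.reg x)
        (hf1 m 3 cT K (Real.exp (-2 * cT) *
          II (ch M.π M.ρ x M.S M.w 0) (VK (VD D) (M.reg x)) g31 cT)) cT K)) Q
        ((1 + eN K / 2) * sN cT K) Ct
        ((C * (M.κ * Real.exp (cT - M.lb))) / (sN cT K) ^ 2) sig e2 ∧ 0 ≤ sig ∧
      sig ≤ Ct * ((eN K)⁻¹) ^ (2 * m + 2) * (sN cT K) ^ (m + 1) *
        (tN (ch M.π M.ρ x M.S M.w 0) (VK (VD D) (K1 M.π M.ρ x M.S M.w 0 (M.reg x)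
        (hf1 m 3 cT K (Real.exp (-2 * cT) *
          II (ch M.π M.ρ x M.S M.w 0) (VK (VD D) (M.reg x)) g31 cT)) cT K)) cT K
            (C * (M.κ * Real.exp (cT - M.lb))) *
          tN (ch M.π M.ρ x M.S M.w 0) (VK (VD D) (K1 M.π M.ρ x M.S M.w 0 (M.reg x)
        (hf1 m 3 cT K (Real.exp (-2 * cT) *
          II (ch M.π M.ρ x M.S M.w 0) (VK (VD D) (M.reg x)) g31 cT)) cT K)) cT K
            (C * (M.κ * Real.exp (cT - M.lb))) ^ (1 / (m : ℝ)))) := by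
  have ho := ome_pos m
  have hΛ' : (0:ℝ) ≤ (Q + 1) * (ome m * 3 ^ m) := by positivity
  obtain ⟨κt, hκt, Ct, hCt, hTv⟩ := exists_tv m n Q hm hΛ'
  obtain ⟨δ, hδ, hδ1, hMs⟩ := masses m Q hm (T + 2) (by linarith)
  obtain ⟨κ₁, hκ₁0, k1, k2, k3, k4, -, -, -⟩ := exists_min7 (a1 := 1 / 64) (a2 := 1 / ((m:ℝ) + 1))
    (a3 := κt) (a4 := δ) (a5 := 1) (a6 := 1) (a7 := 1) (by norm_num) (by positivity) hκt hδ
    one_pos one_pos one_pos
  refine ⟨κ₁, hκ₁0, Ct, hCt, ?_⟩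
  intro C ε Λ cT K U D x M hS hε0 hε hκ0 hC1 hCκ hF hK hlT hcT
  have hC0 : 0 < C := by linarith
  have hE1 : Real.exp (cT - M.lb) ≤ 1 := Real.exp_le_one_iff.2 (by linarith)
  have hE0 := Real.exp_pos (cT - M.lb)
  have hκ'1 : C * (M.κ * Real.exp (cT - M.lb)) ≤ κ₁ := by
    calc C * (M.κ * Real.exp (cT - M.lb)) = C * M.κ * Real.exp (cT - M.lb) := by ring
      _ ≤ C * M.κ * 1 := mul_le_mul_of_nonneg_left hE1 (by positivity)
      _ ≤ κ₁ := by rw [mul_one]; exact hCκ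
  have hm0 : (0:ℝ) ≤ m := Nat.cast_nonneg m
  have hmκ : (m:ℝ) * (C * M.κ) ≤ 1 := by
    have h1 := hCκ.trans k2
    rw [le_div_iff₀ (by positivity)] at h1
    nlinarith [mul_nonneg hC0.le hκ0]
  have h8 : 8 * (C * M.κ) ≤ 1 := by linarith
  have h16 : ε ≤ 1 / 8 := by linarith
  have hcd := cd1_of_sit hm hS h16 hC1 hκ0 h8 hmκ hF hK hcT
  refine ⟨hcd, fun hsm => ?_⟩
  have hH0 : 0 ≤ Real.exp (-2 * cT) *
      II (ch M.π M.ρ x M.S M.w 0) (VK (VD D) (M.reg x)) g31 cT :=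
    mul_nonneg (Real.exp_pos _).le (II_nonneg hcd.ok hcd.isOn pf_cubic.pr.anti cT)
  have hae := hcd.fine hm pf_cubic (by norm_num : (0:ℝ) < 3) hlow3 hsm
  have hh0 := hf1_nonneg (m := m) (cT := cT) (N := K) (by norm_num : (0:ℝ) < 3) hH0
  have hh1 := hf1_le (cT := cT) (m := m) (by norm_num : (0:ℝ) < 3) hH0 hK hsm
  obtain ⟨hl, hs⟩ := hcd.loc1 hae
  have hfb := fb_of_sit hS hε0.le (by linarith) (hCκ.trans k1) hF
  obtain ⟨n1, n2, n3, n4, n5, n6⟩ := sN_num hK hlT hcT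
  obtain ⟨hm1', hm2'⟩ := hMs hfb hS.opn (hε.trans k4) (hCκ.trans k4) (hε.trans k4) hl (sN cT K)
    n1 n2 ((1 + eN K) * sN cT K) n3 n4 n5 n6
  exact hTv hcd hS.int (hκ'1.trans k3) hh0 hh1 hae hm1' hm2'

set_option maxHeartbeats 1000000 in
theorem glp_of (hB : BbP) : GLP := by
  intro m n Q hm hn hQ
  have hm1 : 1 ≤ m := by omega
  obtain ⟨N₀, hN₀⟩ := hB m n Q hm hn hQ
  refine ⟨max N₀ 2, fun N hN T Λ => ?_⟩
  obtain ⟨Cb, hCb, hBb⟩ := hN₀ N (le_trans (le_max_left _ _) hN) T Λ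
  obtain ⟨C, hC1, hMg⟩ := mg_facts m n N (le_trans (le_max_right _ _) hN)
  have hC0 : 0 < C := by linarith
  obtain ⟨T', hT'0, hTT'⟩ : ∃ T' : ℝ, 0 ≤ T' ∧ T ≤ T' := ⟨max T 0, le_max_right _ _, le_max_left _ _⟩
  obtain ⟨κt, hκt, Ct, hCt, hTv⟩ := tv_blk m n Q hm1 T' hT'0
  have hA := Ac_nonneg m n
  have hC2 := C2_nonneg hCt (by norm_num : (0:ℝ) ≤ 6)
  have hCg : 0 ≤ Cg m 6 (m + 8) := Cg_nonneg (by norm_num) (by positivity)
  refine ⟨max 1 (C2 Ct 6), (Cg m 6 (m + 8) + C2 Ct 6) * (2 * Ac m n) * C + Cb, le_max_left _ _,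
    by positivity, fun q => ?_⟩
  obtain ⟨κB, εB, LB, hκB, hεB, hBq⟩ := hBb (q + 1)
  -- constants of the heights
  have hPF : 0 ≤ PF m (Ac m n) 6 (m + 8) (C1s m) 3 Ct T' := by
    have e1 : 0 ≤ Pt m (C1s m) 3 := by have := C1s_nonneg m; unfold Pt; positivity
    have e2 := Real.rpow_nonneg e1 (1 / (m : ℝ))
    have e3 := C1s_nonneg m
    have e4 : 0 ≤ Ph m (C1s m) 3 T' := by unfold Ph; positivity
    unfold PF Pw Ps
    positivity
  have hCd := Cd_pos (m := m) (by norm_num : (0:ℝ) < 3)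
  have hPh : 0 ≤ Ph m (C1s m) 3 T' := by have := C1s_nonneg m; unfold Ph; positivity
  obtain ⟨La, hLa1, hLa⟩ := beat2 (P := PF m (Ac m n) 6 (m + 8) (C1s m) 3 Ct T') (A := 1)
    hPF zero_le_one (th0_pos (m := m)) (2 * m + 10) 3 (q + 1)
  obtain ⟨Lc, hLc1, hLc⟩ := beatK (P := Cd m 3 * 64 ^ (m + 2)) (by positivity) (m + 4)
  obtain ⟨Ld, hLd1, hLd⟩ := beatK hPh (m + 2)
  obtain ⟨κ₁, hκ₁0, k1, k2, k3, k4, -, -, -⟩ := exists_min7 (a1 := 1 / 64)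
    (a2 := 1 / (Ac m n + 1)) (a3 := κt) (a4 := 1 / (4 * Real.exp 2)) (a5 := 1) (a6 := 1) (a7 := 1)
    (by norm_num) (by positivity) hκt (by positivity) one_pos one_pos one_pos
  obtain ⟨κ₀, hκ₀0, k5, k6, -, -, -, -, -⟩ := exists_min7 (a1 := κB)
    (a2 := κ₁ / C) (a3 := 1) (a4 := 1) (a5 := 1) (a6 := 1) (a7 := 1)
    hκB (by positivity) one_pos one_pos one_pos one_pos one_pos
  obtain ⟨ε, hε0, hε1, hε2, -, -, -, -, -⟩ := exists_min7 (a1 := εB)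
    (a2 := κt) (a3 := 1) (a4 := 1) (a5 := 1) (a6 := 1) (a7 := 1)
    hεB hκt one_pos one_pos one_pos one_pos one_pos
  refine ⟨κ₀, ε, max LB (max La (max Lc (max Ld 2))), hκ₀0, hε0, ?_⟩
  intro U D x M a cT K hS hκ0 hκle hMG hK ha haT hcT hIpos hL hKL
  have hLB : LB ≤ lam (M.I x (VD D)) cT := (le_max_left _ _).trans hL
  have hLa' : La ≤ lam (M.I x (VD D)) cT := (le_max_left _ _).trans ((le_max_right _ _).trans hL)
  have hLc' : Lc ≤ lam (M.I x (VD D)) cT := (le_max_left _ _).trans ((le_max_right _ _).trans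
    ((le_max_right _ _).trans hL))
  have hLd' : Ld ≤ lam (M.I x (VD D)) cT := (le_max_left _ _).trans ((le_max_right _ _).trans
    ((le_max_right _ _).trans ((le_max_right _ _).trans hL)))
  have hL2' : 2 ≤ lam (M.I x (VD D)) cT := (le_max_right _ _).trans ((le_max_right _ _).trans
    ((le_max_right _ _).trans ((le_max_right _ _).trans hL)))
  clear hL
  have hbb := hBq U D x M a cT K (Sit.mono hS hε1) hκ0 (hκle.trans k5) hMG hK ha haT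
    hcT hIpos hLB hKL
  have hHL := exp_neg_lam hIpos
  generalize lam (M.I x (VD D)) cT = L at *
  have hL0 : 0 < L := by linarith
  have hCκ : C * M.κ ≤ κ₁ := by
    have h1 : M.κ ≤ κ₁ / C := hκle.trans k6
    rw [le_div_iff₀ hC0] at h1
    linarith
  have hCκ0 : 0 ≤ C * M.κ := by positivity
  have hE1 : Real.exp (cT - M.lb) ≤ 1 := Real.exp_le_one_iff.2 (by linarith)
  have hE0 := Real.exp_pos (cT - M.lb)
  have hF : MgF m n C M.κ (Real.exp (cT - M.lb)) M.S M.u M.w :=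
    hMg M.κ _ M.u hMG hκ0 (by linarith) M.S M.S_pos
  have hK1 : 1 ≤ K := by linarith
  have hK0 : 0 < K := by linarith
  have hKi : 0 < 1 / K := by positivity
  obtain ⟨hcd, htv⟩ := hTv hS hε0 hε2 hκ0 hC1 (hCκ.trans k3) hF hK1 (by linarith) hcT
  have hκ'1 : C * (M.κ * Real.exp (cT - M.lb)) ≤ κ₁ := by
    calc C * (M.κ * Real.exp (cT - M.lb)) = C * M.κ * Real.exp (cT - M.lb) := by ring
      _ ≤ C * M.κ * 1 := mul_le_mul_of_nonneg_left hE1 hCκ0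
      _ ≤ κ₁ := by rw [mul_one]; exact hCκ
  -- the height
  have hH' : Real.exp (-2 * cT) * II (ch M.π M.ρ x M.S M.w 0) (VK (VD D) (M.reg x)) g31 cT =
    Real.exp (-L) := hHL.symm
  have hHe := Real.exp_pos (-L)
  have hsm : Cd m 3 * K ^ 2 * (Real.exp (-2 * cT) *
      II (ch M.π M.ρ x M.S M.w 0) (VK (VD D) (M.reg x)) g31 cT) ≤ ((64 * K)⁻¹) ^ (m + 2) := by
    have h1 := hLc L K hLc' hK0.le hKL
    rw [inv_pow, ← one_div, le_div_iff₀ (by positivity), hH']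
    calc Cd m 3 * K ^ 2 * Real.exp (-L) * (64 * K) ^ (m + 2) =
        Cd m 3 * 64 ^ (m + 2) * K ^ (m + 4) * Real.exp (-L) := by rw [mul_pow]; ring
      _ ≤ 1 := h1
  have hH1 : Ph m (C1s m) 3 T' * K ^ (m + 2) * (Real.exp (-2 * cT) *
      II (ch M.π M.ρ x M.S M.w 0) (VK (VD D) (M.reg x)) g31 cT) ≤ 1 := by
    rw [hH']; exact hLd L K hLd' hK0.le hKL
  have hH2 : Real.exp (-2 * cT) *
      II (ch M.π M.ρ x M.S M.w 0) (VK (VD D) (M.reg x)) g31 cT ≤ 1 := by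
    rw [hH']; exact Real.exp_le_one_iff.2 (by linarith)
  have hf0 : 0 ≤ ‖fderiv ℝ M.u 0‖ := norm_nonneg _
  have hδb : 0 ≤ Cb * (M.κ * Real.exp (cT - M.lb) + ‖fderiv ℝ M.u 0‖) := by positivity
  have hωb : 0 ≤ (L ^ (q + 1))⁻¹ * M.I x (VD D) cT := mul_nonneg (by positivity) hIpos.le
  have hAκ : Ac m n * (C * (M.κ * Real.exp (cT - M.lb))) ≤ 1 := by
    have h1 := hκ'1.trans k2
    rw [le_div_iff₀ (by positivity)] at h1
    nlinarith [mul_nonneg hC0.le (mul_nonneg hκ0 hE0.le)]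
  have hκe : C * (M.κ * Real.exp (cT - M.lb)) * (4 * Real.exp 2) ≤ 1 := by
    have h1 := hκ'1.trans k4
    rwa [le_div_iff₀ (by positivity)] at h1
  obtain ⟨d0, hd0, hd1, hst⟩ := hcd.stepW (T := T') (lo := a) hm1 pf_cubic
    (by norm_num : (0:ℝ) < 3) hlow3 (by linarith) (by linarith) hAκ hκe hCt hsm hH1 hH2
    (htv hsm) hδb hωb hbb
  have hfin : PF m (Ac m n) 6 (m + 8) (C1s m) 3 Ct T' * K ^ (2 * m + 10) *
      (Real.exp (-2 * cT) * II (ch M.π M.ρ x M.S M.w 0) (VK (VD D) (M.reg x)) g31 cT) ^ th0 m *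
      II (ch M.π M.ρ x M.S M.w 0) (VK (VD D) (M.reg x)) g31 cT ≤
      (L ^ (q + 1))⁻¹ * M.I x (VD D) cT := by
    rw [hH']
    have h1 := hLa L K (Real.exp (-L)) hLa' hK0.le (by rw [one_mul]; exact hKL) hHe.le
      (by rw [one_mul])
    exact mul_le_mul_of_nonneg_right h1 hIpos.le
  have h3 : (L ^ (q + 1))⁻¹ * M.I x (VD D) cT + (L ^ (q + 1))⁻¹ * M.I x (VD D) cT ≤
      (L ^ q)⁻¹ * M.I x (VD D) cT := by
    rw [← two_mul, ← mul_assoc]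
    refine mul_le_mul_of_nonneg_right ?_ hIpos.le
    rw [pow_succ, mul_inv, mul_left_comm]
    have h4 : 0 ≤ (L ^ q)⁻¹ := by positivity
    have h5 : 2 * L⁻¹ ≤ 1 := by
      rw [← div_eq_mul_inv, div_le_one hL0]; exact hL2'
    calc (L ^ q)⁻¹ * (2 * L⁻¹) ≤ (L ^ q)⁻¹ * 1 := mul_le_mul_of_nonneg_left h5 h4
      _ = _ := mul_one _
  refine ⟨_, _, ?_, ?_, hst.weaken (le_max_right _ _) ?_ le_rfl⟩
  · have h1 : 0 ≤ (Real.exp (-2 * cT) *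
        II (ch M.π M.ρ x M.S M.w 0) (VK (VD D) (M.reg x)) g31 cT) ^ th0 m := by
      rw [hH']; positivity
    have h2 : 0 ≤ II (ch M.π M.ρ x M.S M.w 0) (VK (VD D) (M.reg x)) g31 cT := hIpos.le
    exact add_nonneg (mul_nonneg (mul_nonneg (mul_nonneg hPF (by positivity)) h1) h2) hωb
  · exact (add_le_add hfin le_rfl).trans h3
  · have e2 : 0 ≤ (Cg m 6 (m + 8) + C2 Ct 6) * (2 * Ac m n) * C := by positivity
    have e3 := mul_nonneg e2 hf0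
    have e4 : (Cg m 6 (m + 8) + C2 Ct 6) * (2 * Ac m n) *
        (C * (M.κ * Real.exp (cT - M.lb))) +
        Cb * (M.κ * Real.exp (cT - M.lb) + ‖fderiv ℝ M.u 0‖) ≤
        ((Cg m 6 (m + 8) + C2 Ct 6) * (2 * Ac m n) * C + Cb) *
        (M.κ * Real.exp (cT - M.lb) + ‖fderiv ℝ M.u 0‖) := by
      have e5 : ((Cg m 6 (m + 8) + C2 Ct 6) * (2 * Ac m n) * C + Cb) *
        (M.κ * Real.exp (cT - M.lb) + ‖fderiv ℝ M.u 0‖) =
        (Cg m 6 (m + 8) + C2 Ct 6) * (2 * Ac m n) *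
        (C * (M.κ * Real.exp (cT - M.lb))) +
        Cb * (M.κ * Real.exp (cT - M.lb) + ‖fderiv ℝ M.u 0‖) +
        (Cg m 6 (m + 8) + C2 Ct 6) * (2 * Ac m n) * C * ‖fderiv ℝ M.u 0‖ := by ring
      rw [e5]
      linarith
    exact e4

end Crest.Agent.R234.Ng_290
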