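import Crest.Agent.R234.Ng10_290
import Crest.Agent.R234.F3d_433
import Crest.Agent.R234.Mx16_397

/-!
# Row 234, node F7-GL, part 11 (helper290): the anomaly in a block chart from F3

`bbP_of : (∀ m n Q, F3P m n (m + n) Q) → BbP`. (`g3_lip` is copied from helper534's Qp10.)
-/

set_option autoImplicit false
set_option linter.unusedVariables false
set_option linter.unusedSectionVars false
set_option maxSynthPendingDepth 3

open MeasureTheory Set Function Filter Topology Metric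
open Crest.GeometryTopology.Submanifold
open Crest.Agent.R234.Vf_884 Crest.Agent.R234.Ar_870
open Crest.Agent.R234.Main_456 (Frame Msys)
open Crest.Agent.R234.Gi_456
open Crest.Agent.R234.GL_394
open Crest.Agent.R234.GI_640 (g3 g31 g32)
open Crest.Agent.R234.MG_570 (MG)
open Crest.Agent.R234.Stp_518
open Crest.Agent.R234.Tv_618 (KT Wr ttot)
open scoped ENNReal NNReal InnerProductSpace ContDiff

noncomputable section

namespace Crest.Agent.R234.Ng_290

section mgs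

variable {m n : ℕ}

/-- derivatives of the scaled function -/
theorem iter_scale {N : ℕ} {u : Euc m → Euc n} (hu : ContDiff ℝ N u) {S : ℝ} (hS : 0 < S) {j : ℕ}
    (hj : j ≤ N) (Y : Euc m) : ‖iteratedFDeriv ℝ j (fun X => S • u (S⁻¹ • X)) Y‖ ≤
      S * (‖iteratedFDeriv ℝ j u (S⁻¹ • Y)‖ * (S⁻¹) ^ j) := by
  set g : Euc m →L[ℝ] Euc m := S⁻¹ • ContinuousLinearMap.id ℝ (Euc m) with hg
  have hgn : ‖g‖ ≤ S⁻¹ := by
    refine g.opNorm_le_bound (inv_nonneg.2 hS.le) fun y => ?_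
    rw [hg, ContinuousLinearMap.smul_apply, norm_smul, Real.norm_of_nonneg (inv_nonneg.2 hS.le)]
    rfl
  have h1 : (fun X => S • u (S⁻¹ • X)) = S • (u ∘ g) := by
    funext X; rfl
  have hc : ContDiff ℝ N (u ∘ g) := hu.comp g.contDiff
  rw [h1, iteratedFDeriv_const_smul_apply (hc.of_le (by exact_mod_cast hj)).contDiffAt, norm_smul,
    Real.norm_of_nonneg hS.le, g.iteratedFDeriv_comp_right hu Y (by exact_mod_cast hj)]
  refine mul_le_mul_of_nonneg_left ?_ hS.le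
  refine (ContinuousMultilinearMap.norm_compContinuousLinearMap_le _ _).trans ?_
  refine mul_le_mul_of_nonneg_left ?_ (norm_nonneg _)
  calc ∏ _i : Fin j, ‖g‖ = ‖g‖ ^ j := by simp
    _ ≤ _ := pow_le_pow_left₀ (norm_nonneg _) hgn j

/-- regularity of a reference -/
theorem mg_smooth (m n N : ℕ) (hN : 3 ≤ N) : ∃ κs : ℝ, 0 < κs ∧ ∀ (κ R : ℝ) (u : Euc m → Euc n),
    MG N κ R u → κ ≤ κs → ∀ S : ℝ, 0 < S →
      ContDiff ℝ 5 (fun X => S • u (S⁻¹ • X)) ∧
      (∃ B : ℝ, ∀ j ≤ 5, ∀ Y, ‖iteratedFDeriv ℝ j (fun X => S • u (S⁻¹ • X)) Y‖ ≤ B) ∧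
      ContDiffOn ℝ ∞ (fun X => S • u (S⁻¹ • X)) (ball 0 (R * S)) := by
  obtain ⟨C, hC, H⟩ := Mx17_397.bdP m n N
  obtain ⟨κs, hκs, Hs⟩ := Mx16_397.exists_smooth_syn (F := Euc m)
    (EuclideanSpace.basisFun (Fin n) ℝ) N
  refine ⟨κs, hκs, fun κ R u hu hκ S hS => ?_⟩
  obtain ⟨hcd, hb⟩ := H κ R u hu
  have hcd' : ContDiff ℝ ((N + 2 : ℕ) : ℕ∞ω) u := hcd
  obtain ⟨a, ha1, ha2, ha3, ha4⟩ := hu
  have hκ0 : 0 ≤ C * κ := (norm_nonneg _).trans (hb 0 (by omega) 0)
  have hSi : 0 < S⁻¹ := inv_pos.2 hS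
  have hN5 : (5 : ℕ∞ω) ≤ ((N + 2 : ℕ) : ℕ∞ω) := (Nat.cast_le (α := WithTop ℕ∞)).2
    (show 5 ≤ N + 2 by omega)
  refine ⟨((hcd'.of_le hN5).comp (contDiff_const_smul _)).const_smul S, ?_, ?_⟩
  · refine ⟨∑ j ∈ Finset.range 6, S * (C * κ * (S⁻¹) ^ j), fun j hj Y => ?_⟩
    refine (iter_scale hcd' hS (show j ≤ N + 2 by omega) Y).trans ?_
    refine le_trans ?_ (Finset.single_le_sum (f := fun j => S * (C * κ * (S⁻¹) ^ j))
      (fun i _ => by positivity) (Finset.mem_range.2 (show j < 6 by omega)))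
    have := hb j (by omega) (S⁻¹ • Y)
    gcongr
  · have h1 : ContDiffOn ℝ ∞ u (ball 0 R) := by
      rw [Mx16_397.rep_syn ha3]
      refine Hs a (ha2.trans hκ) (ball 0 R) isOpen_ball fun z hz => ?_
      have h2 := ha4 z hz
      rw [Mx16_397.Msys_eq, Mx16_397.rep_syn ha3] at h2
      exact h2
    refine (h1.comp (contDiff_const_smul S⁻¹).contDiffOn fun X hX => ?_).const_smul S
    rw [mem_ball_zero_iff] at hX ⊢
    rw [norm_smul, Real.norm_of_nonneg hSi.le, inv_mul_lt_iff₀ hS, mul_comm]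
    exact hX

/-- the derivatives in the units of the scale `s` -/
theorem MgF.der_le {C κ R S s : ℝ} {u w : Euc m → Euc n} (h : MgF m n C κ R S u w) (hS : 0 < S)
    (hs : 0 < s) (hsS : s ≤ S) (hCκ : 0 ≤ C * κ) :
    ∀ j, 1 ≤ j → j ≤ 3 → ∀ Y ∈ ball (0 : Euc m) (2 * s), s ^ (j - 1) * ‖iteratedFDeriv ℝ j w Y‖ ≤
      ‖fderiv ℝ u 0‖ + 2 * (C * κ) * (s / S) := by
  intro j h1 h2 Y hY
  have hsS0 : 0 ≤ s / S := by positivity
  have hf0 : 0 ≤ ‖fderiv ℝ u 0‖ := norm_nonneg _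
  have hprod : 0 ≤ C * κ * (s / S) := by positivity
  have hcd : ContDiff ℝ 4 w := h.gr.cd
  interval_cases j
  · rw [norm_iteratedFDeriv_one]
    have hdiff : Differentiable ℝ (fderiv ℝ w) :=
      (hcd.fderiv_right (m := 3) (by norm_num)).differentiable (by norm_num)
    have h3 := (convex_univ : Convex ℝ (univ : Set (Euc m))).norm_image_sub_le_of_norm_fderiv_le
      (𝕜 := ℝ) (f := fderiv ℝ w) (C := C * κ / S) (fun y _ => hdiff y) (fun y _ => h.d2 y)
      (mem_univ 0) (mem_univ Y)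
    have h4 : fderiv ℝ w 0 = fderiv ℝ u 0 := by
      have := h.der 0
      rwa [smul_zero] at this
    have h5 : ‖fderiv ℝ w Y‖ ≤ ‖fderiv ℝ w Y - fderiv ℝ w 0‖ + ‖fderiv ℝ w 0‖ := by
      have := norm_add_le (fderiv ℝ w Y - fderiv ℝ w 0) (fderiv ℝ w 0)
      rwa [sub_add_cancel] at this
    rw [mem_ball_zero_iff] at hY
    have h6 : C * κ / S * ‖Y - 0‖ ≤ C * κ / S * (2 * s) := by
      rw [sub_zero]
      exact mul_le_mul_of_nonneg_left hY.le (by positivity)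
    have h7 : C * κ / S * (2 * s) = 2 * (C * κ) * (s / S) := by ring
    rw [h4] at h5 h3
    simp only [Nat.sub_self, pow_zero, one_mul]
    linarith
  · have h3 := h.d2 Y
    rw [← norm_iteratedFDeriv_one, norm_iteratedFDeriv_fderiv] at h3
    have h4 : s ^ (2 - 1) * ‖iteratedFDeriv ℝ 2 w Y‖ ≤ s * (C * κ / S) := by
      simp only [show (2 - 1 : ℕ) = 1 from rfl, pow_one]
      exact mul_le_mul_of_nonneg_left h3 hs.le
    have h5 : s * (C * κ / S) = C * κ * (s / S) := by ring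
    linarith
  · have h3 := h.d3 Y
    rw [← norm_iteratedFDeriv_one, norm_iteratedFDeriv_fderiv, norm_iteratedFDeriv_fderiv] at h3
    have h4 : s ^ (3 - 1) * ‖iteratedFDeriv ℝ 3 w Y‖ ≤ s ^ 2 * (C * κ / S ^ 2) := by
      simp only [show (3 - 1 : ℕ) = 2 from rfl]
      exact mul_le_mul_of_nonneg_left h3 (by positivity)
    have h5 : s ^ 2 * (C * κ / S ^ 2) = C * κ * (s / S) * (s / S) := by field_simp
    have h6 : s / S ≤ 1 := by rw [div_le_one hS]; exact hsS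
    have h7 : C * κ * (s / S) * (s / S) ≤ C * κ * (s / S) * 1 := mul_le_mul_of_nonneg_left h6 hprod
    linarith

end mgs

section prof

variable {m : ℕ}

theorem g3_lip {a b : ℝ} (ha : 0 ≤ a) (hb : 0 ≤ b) :
    |g3 (a ^ 2) - g3 (b ^ 2)| ≤ 6 * |a - b| := by
  wlog hab : a ≤ b generalizing a b with H
  · rw [abs_sub_comm, abs_sub_comm a b]
    exact H hb ha (by linarith)
  have e0 : |a - b| = b - a := by rw [abs_sub_comm, abs_of_nonneg (by linarith)]
  rw [e0]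
  unfold g3
  rcases le_total 1 a with h1 | h1
  · have h2 : max 0 (1 - a ^ 2) = 0 := max_eq_left (by nlinarith)
    have h3 : max 0 (1 - b ^ 2) = 0 := max_eq_left (by nlinarith)
    rw [h2, h3]
    simp
    linarith
  · have h2 : max 0 (1 - a ^ 2) = 1 - a ^ 2 := max_eq_right (by nlinarith)
    rw [h2]
    have hA0 : 0 ≤ 1 - a ^ 2 := by nlinarith
    have hA1 : 1 - a ^ 2 ≤ 1 := by nlinarith [sq_nonneg a]
    rcases le_total 1 b with h4 | h4
    · have h3 : max 0 (1 - b ^ 2) = 0 := max_eq_left (by nlinarith)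
      rw [h3]
      have e1 : (1 - a ^ 2) ^ 3 ≤ 1 - a ^ 2 := by
        have := mul_nonneg hA0 hA0
        have := mul_nonneg this hA0
        nlinarith [mul_nonneg hA0 (sub_nonneg.2 hA1)]
      have e2 : 1 - a ^ 2 ≤ 2 * (b - a) := by nlinarith
      rw [zero_pow (by norm_num), sub_zero, abs_of_nonneg (by positivity)]
      linarith
    · have h3 : max 0 (1 - b ^ 2) = 1 - b ^ 2 := max_eq_right (by nlinarith)
      rw [h3]
      have hB0 : 0 ≤ 1 - b ^ 2 := by nlinarith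
      have hB1 : 1 - b ^ 2 ≤ 1 := by nlinarith [sq_nonneg b]
      have hBA : 1 - b ^ 2 ≤ 1 - a ^ 2 := by nlinarith
      set A := 1 - a ^ 2 with hA
      set B := 1 - b ^ 2 with hB
      have e1 : A ^ 3 - B ^ 3 = (A - B) * (A ^ 2 + A * B + B ^ 2) := by ring
      have e2 : A - B ≤ 2 * (b - a) := by rw [hA, hB]; nlinarith
      have e3 : 0 ≤ A - B := by linarith
      have e4 : A ^ 2 + A * B + B ^ 2 ≤ 3 := by nlinarith
      have e5 : 0 ≤ A ^ 2 + A * B + B ^ 2 := by positivity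
      rw [e1, abs_of_nonneg (mul_nonneg e3 e5)]
      calc (A - B) * (A ^ 2 + A * B + B ^ 2) ≤ (2 * (b - a)) * 3 :=
            mul_le_mul e2 e4 e5 (by linarith)
        _ = _ := by ring

theorem g3_lipw : LipschitzWith 6 (fun v : Euc m => g3 (‖v‖ ^ 2)) := by
  refine LipschitzWith.of_dist_le_mul fun v v' => ?_
  rw [Real.dist_eq, dist_eq_norm]
  have h1 := g3_lip (norm_nonneg v) (norm_nonneg v')
  have h2 := abs_norm_sub_norm_le v v'
  calc |g3 (‖v‖ ^ 2) - g3 (‖v'‖ ^ 2)| ≤ 6 * |‖v‖ - ‖v'‖| := h1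
    _ ≤ 6 * ‖v - v'‖ := by gcongr
    _ = _ := by norm_num

theorem g3_le_one {t : ℝ} (ht : 0 ≤ t) : g3 t ≤ 1 := by
  unfold g3
  refine pow_le_one₀ (le_max_left _ _) (max_le zero_le_one (by linarith))

theorem g3_zero {t : ℝ} (ht : 1 ≤ t) : g3 t = 0 := by
  unfold g3
  rw [max_eq_left (by linarith)]; norm_num

theorem g3_le_g31 {t : ℝ} (ht : 0 ≤ t) : g3 t ≤ -g31 t := by
  unfold g3 g31
  have h1 : (0:ℝ) ≤ max 0 (1 - t) := le_max_left _ _
  have h2 : max 0 (1 - t) ≤ 1 := max_le zero_le_one (by linarith)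
  nlinarith [mul_nonneg h1 h1]

end prof

end Crest.Agent.R234.Ng_290
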