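import Crest.Agent.R234.Ng11_290

/-!
# Row 234, node F7-GL, part 12 (helper290): `bbP_of`, `glp_of_F3P`
-/

set_option autoImplicit false
set_option linter.unusedVariables false
set_option linter.unusedSectionVars false
set_option maxSynthPendingDepth 3

open MeasureTheory Set Function Filter Topology Metric
open Crest.GeometryTopology.Submanifold
open Crest.Agent.R234.Vf_884 Crest.Agent.R234.Ar_870
open Crest.Agent.R234.Main_456 (Frame Msys)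
open Crest.Agent.R234.Gi_456
open Crest.Agent.R234.GL_394
open Crest.Agent.R234.GI_640 (g3 g31 g32)
open Crest.Agent.R234.MG_570 (MG)
open Crest.Agent.R234.Stp_518
open Crest.Agent.R234.Tv_618 (KT Wr ttot)
open scoped ENNReal NNReal InnerProductSpace ContDiff

noncomputable section

namespace Crest.Agent.R234.Ng_290

section ints

variable {m k : ℕ} {c : Ch m k} {K : Set (Euc k)} {D : Set (Euc m)} {V : Measure (Euc k × L k)}

/-- height over an open base ball -/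
theorem hgt_int (h : Ok c K D) (hV : On V m K) {cT N : ℝ} (hN : 1 ≤ N)
    (hmu : ∀ v : Euc m, ‖v‖ ≤ Real.exp cT → 1 / 2 ≤ c.mu v) {r : ℝ}
    (hr : r ≤ Real.exp (cT - 1 / (2 * N))) :
    ∫ p in {z | ‖c.x z‖ < r} ×ˢ univ, 2 * c.f p.1 ∂V ≤
      4 * N ^ 2 / 3 * (Real.exp (m * cT) * II c V g31 cT) := by
  refine le_trans ?_ (HH_le_II h hV pf_cubic (by norm_num : (0:ℝ) < 3) hlow3 hN hmu)
  unfold HH
  refine setIntegral_mono_set ?_ ?_ ?_
  · have cf : ContinuousOn (fun p : Euc k × L k => 2 * c.f p.1) (K ×ˢ G m k) := by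
      intro p hp
      exact (((h.hf p.1 hp.1).continuousAt.comp continuousAt_fst).const_mul 2).continuousWithinAt
    exact (hV.integrable h.cpt cf).integrableOn
  · filter_upwards [ae_restrict_of_ae hV.mem] with p hp
    have := f_nonneg h hp.1
    show 0 ≤ 2 * c.f p.1
    linarith
  · refine Eventually.of_forall fun p hp => ?_
    have h1 : ‖c.x p.1‖ < r := hp.1
    exact (h1.le.trans hr)

/-- the `g3`-height is bounded by `II` -/
theorem g3_int (h : Ok c K D) (hV : On V m K) {cT l : ℝ} (hl : l ≤ cT)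
    (hmu : ∀ v : Euc m, ‖v‖ ≤ Real.exp cT → 1 / 2 ≤ c.mu v) :
    Real.exp l ^ 2 * ((Real.exp l ^ (m + 2))⁻¹ *
      ∫ p, g3 (‖c.x p.1‖ ^ 2 / Real.exp l ^ 2) * (2 * c.f p.1) ∂V) ≤ II c V g31 l := by
  have e1 : ∀ y : ℝ, y ^ 2 / Real.exp l ^ 2 = Real.exp (-2 * l) * y ^ 2 := fun y => by
    rw [← Real.exp_nat_mul, div_eq_mul_inv, ← Real.exp_neg, mul_comm]
    congr 2
    push_cast; ring
  have e2 : Real.exp l ^ 2 * (Real.exp l ^ (m + 2))⁻¹ = Real.exp (-m * l) := by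
    rw [← Real.exp_nat_mul, ← Real.exp_nat_mul, ← Real.exp_neg, ← Real.exp_add]
    congr 1
    push_cast; ring
  rw [← mul_assoc, e2]
  unfold II
  refine mul_le_mul_of_nonneg_left ?_ (Real.exp_pos _).le
  simp only [e1]
  have i2 : Integrable (fun p : Euc k × Vf_884.L k => (c.f p.1 * c.mu (c.x p.1)) *
      (-4 * g31 (Real.exp (-2 * l) * ‖c.x p.1‖ ^ 2))) V :=
    h.int hV h.cfmu (q := fun t => -4 * g31 t) (continuous_const.mul pf_cubic.pr.k1.continuous) l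
  have cf : ContinuousOn (fun p : Euc k × Vf_884.L k => 2 * c.f p.1) (K ×ˢ G m k) := by
    intro p hp
    exact (((h.hf p.1 hp.1).continuousAt.comp continuousAt_fst).const_mul 2).continuousWithinAt
  have i1 : Integrable (fun p : Euc k × Vf_884.L k =>
      g3 (Real.exp (-2 * l) * ‖c.x p.1‖ ^ 2) * (2 * c.f p.1)) V := by
    refine (h.int hV cf (q := g3) pf_cubic.pr.k0.continuous l).congr
      (Eventually.of_forall fun p => ?_)
    exact mul_comm _ _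
  refine integral_mono_ae i1 i2 ?_
  filter_upwards [hV.mem] with p hp
  have hf := f_nonneg h hp.1
  have ht : 0 ≤ Real.exp (-2 * l) * ‖c.x p.1‖ ^ 2 := by positivity
  show g3 (Real.exp (-2 * l) * ‖c.x p.1‖ ^ 2) * (2 * c.f p.1) ≤
    (c.f p.1 * c.mu (c.x p.1)) * (-4 * g31 (Real.exp (-2 * l) * ‖c.x p.1‖ ^ 2))
  have h31 : 0 ≤ -g31 (Real.exp (-2 * l) * ‖c.x p.1‖ ^ 2) := by
    have := GI_640.g31_nonpos (Real.exp (-2 * l) * ‖c.x p.1‖ ^ 2)
    linarith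
  rcases le_or_gt ‖c.x p.1‖ (Real.exp l) with h1 | h1
  · have h2 := hmu (c.x p.1) (h1.trans (Real.exp_le_exp.2 hl))
    have h3 := g3_le_g31 ht
    have h4 : g3 (Real.exp (-2 * l) * ‖c.x p.1‖ ^ 2) * (2 * c.f p.1) ≤
        -g31 (Real.exp (-2 * l) * ‖c.x p.1‖ ^ 2) * (2 * c.f p.1) :=
      mul_le_mul_of_nonneg_right h3 (by linarith)
    have h5 : 0 ≤ c.f p.1 * -g31 (Real.exp (-2 * l) * ‖c.x p.1‖ ^ 2) := mul_nonneg hf h31
    nlinarith [mul_le_mul_of_nonneg_left h2 h5]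
  · have h2 : 1 ≤ Real.exp (-2 * l) * ‖c.x p.1‖ ^ 2 := by
      rw [← e1, one_le_div (by positivity)]
      exact pow_le_pow_left₀ (Real.exp_pos l).le h1.le 2
    rw [g3_zero h2, zero_mul]
    have h3 := h.mupos _ (h.mem _ hp.1)
    exact mul_nonneg (mul_nonneg hf h3.le) (by linarith)

end ints

/-- numbers of one level: `s = e^l`, collar `1/(8K)` -/
theorem lev_num {K cT l lb T : ℝ} (hK : 4 ≤ K) (hl : l ≤ cT - 1 / K) (hT : lb - T ≤ l)
    (hc : cT ≤ lb) :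
    Real.exp l < Real.exp lb ∧ (1 + 1 / (8 * K)) * Real.exp l ≤ Real.exp (cT - 1 / (2 * K)) ∧
      (1 + 1 / (8 * K)) * Real.exp l ≤ Real.exp (cT - 1 / (4 * K)) ∧
      (1 + 1 / (8 * K)) * Real.exp l ≤ Real.exp lb ∧
      (1 + 1 / (8 * K)) * Real.exp l ≤ Real.exp cT ∧
      (1 + 1 / (8 * K)) * Real.exp l ≤ 2 * Real.exp l ∧
      Real.exp l / 4 ≤ Real.exp (cT - 1 / (4 * K)) ∧
      Real.exp (-T) * Real.exp lb ≤ Real.exp l ∧ 0 < 1 / (8 * K) ∧ 1 / (8 * K) ≤ 1 := by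
  have hK0 : 0 < K := by linarith
  have h0 : 0 < 1 / (8 * K) := by positivity
  have hp := Real.exp_pos l
  have h1 : (1 + 1 / (8 * K)) * Real.exp l ≤ Real.exp (l + 1 / (8 * K)) := by
    rw [Real.exp_add, mul_comm (Real.exp l)]
    refine mul_le_mul_of_nonneg_right ?_ hp.le
    have := Real.add_one_le_exp (1 / (8 * K))
    linarith
  have e1 : 1 / K = 8 * (1 / (8 * K)) := by field_simp
  have e2 : 1 / (2 * K) = 4 * (1 / (8 * K)) := by field_simp; norm_num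
  have e4 : 1 / (4 * K) = 2 * (1 / (8 * K)) := by field_simp; norm_num
  rw [e1] at hl
  have h8 : 1 / (8 * K) ≤ 1 := by
    rw [div_le_one (by positivity)]; linarith
  refine ⟨Real.exp_lt_exp.2 (by linarith), h1.trans (Real.exp_le_exp.2 (by rw [e2]; linarith)),
    h1.trans (Real.exp_le_exp.2 (by rw [e4]; linarith)),
    h1.trans (Real.exp_le_exp.2 (by linarith)), h1.trans (Real.exp_le_exp.2 (by linarith)),
    by nlinarith, ?_, ?_, h0, h8⟩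
  · have h3 : Real.exp l ≤ Real.exp (cT - 1 / (4 * K)) :=
      Real.exp_le_exp.2 (by rw [e4]; linarith)
    linarith
  · rw [← Real.exp_add]
    exact Real.exp_le_exp.2 (by linarith)

/-- numbers of the height: `H = P K² e^(-L)` -/
theorem H_num {P H₀ : ℝ} (hP : 0 < P) (hH : 0 < H₀) (q : ℕ) : ∃ L0 : ℝ, 1 ≤ L0 ∧ ∀ L K : ℝ,
    L0 ≤ L → 4 ≤ K → K ≤ L ^ 3 → 0 < P * K ^ 2 * Real.exp (-L) ∧
      P * K ^ 2 * Real.exp (-L) ≤ H₀ ∧
      (Real.log (1 / (P * K ^ 2 * Real.exp (-L)))) ^ (-(4:ℝ)) ≤ 1 / (8 * K) ∧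
      (Real.log (1 / (P * K ^ 2 * Real.exp (-L)))) ^ (-((q:ℝ) + 8)) *
        (P * K ^ 2 * Real.exp (-L)) ≤ (L ^ q)⁻¹ * Real.exp (-L) := by
  obtain ⟨La, hLa1, hLa⟩ := beatK (P := P / H₀) (by positivity) 2
  obtain ⟨Lb, hLb1, hLb⟩ := beat (P := P) (θ := 1 / 2) (by norm_num) 6
  refine ⟨max La (max Lb (max 128 (2 ^ (q + 8) * P))), le_max_of_le_left hLa1, ?_⟩
  intro L K hL hK hKL
  have hL1 : La ≤ L := (le_max_left _ _).trans hL
  have hL2 : Lb ≤ L := (le_max_left _ _).trans ((le_max_right _ _).trans hL)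
  have hL3 : 128 ≤ L := (le_max_left _ _).trans ((le_max_right _ _).trans
    ((le_max_right _ _).trans hL))
  have hL4 : 2 ^ (q + 8) * P ≤ L := (le_max_right _ _).trans ((le_max_right _ _).trans
    ((le_max_right _ _).trans hL))
  have hK0 : 0 < K := by linarith
  have hL0 : 0 < L := by linarith
  have hE := Real.exp_pos (-L)
  set H := P * K ^ 2 * Real.exp (-L) with hHd
  have hH0 : 0 < H := by positivity
  have hK2 : K ^ 2 ≤ L ^ 6 := by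
    calc K ^ 2 ≤ (L ^ 3) ^ 2 := pow_le_pow_left₀ hK0.le hKL 2
      _ = L ^ 6 := by ring
  have hlog : L / 2 ≤ Real.log (1 / H) := by
    rw [Real.le_log_iff_exp_le (by positivity), le_div_iff₀ hH0]
    have h1 := hLb L hL2
    calc Real.exp (L / 2) * H = P * K ^ 2 * (Real.exp (L / 2) * Real.exp (-L)) := by
          rw [hHd]; ring
      _ = P * K ^ 2 * Real.exp (-(1 / 2 * L)) := by
          rw [← Real.exp_add]; congr 2; ring
      _ ≤ P * L ^ 6 * Real.exp (-(1 / 2 * L)) := by gcongr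
      _ = P * (L ^ 6 * Real.exp (-(1 / 2 * L))) := by ring
      _ ≤ 1 := h1
  have hL20 : 0 < L / 2 := by positivity
  refine ⟨hH0, ?_, ?_, ?_⟩
  · have h1 := hLa L K hL1 hK0.le hKL
    calc H = H₀ * (P / H₀ * K ^ 2 * Real.exp (-L)) := by rw [hHd]; field_simp
      _ ≤ H₀ * 1 := mul_le_mul_of_nonneg_left h1 hH.le
      _ = H₀ := mul_one _
  · calc (Real.log (1 / H)) ^ (-(4:ℝ)) ≤ (L / 2) ^ (-(4:ℝ)) :=
          Real.rpow_le_rpow_of_nonpos hL20 hlog (by norm_num)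
      _ = ((L / 2) ^ 4)⁻¹ := by
          rw [Real.rpow_neg hL20.le]
          congr 1
          exact_mod_cast Real.rpow_natCast (L / 2) 4
      _ ≤ 1 / (8 * K) := by
          rw [← one_div]
          refine one_div_le_one_div_of_le (by positivity) ?_
          calc 8 * K ≤ 8 * L ^ 3 := by gcongr
            _ ≤ L / 16 * L ^ 3 := by
              refine mul_le_mul_of_nonneg_right ?_ (by positivity)
              linarith
            _ = (L / 2) ^ 4 := by ring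
  · have h1 : (Real.log (1 / H)) ^ (-((q:ℝ) + 8)) ≤ (L / 2) ^ (-((q:ℝ) + 8)) :=
      Real.rpow_le_rpow_of_nonpos hL20 hlog (by
        have : (0:ℝ) ≤ q := Nat.cast_nonneg q
        linarith)
    have h2 : (L / 2) ^ (-((q:ℝ) + 8)) = ((L / 2) ^ (q + 8))⁻¹ := by
      rw [Real.rpow_neg hL20.le]
      congr 1
      exact_mod_cast Real.rpow_natCast (L / 2) (q + 8)
    rw [h2] at h1
    calc (Real.log (1 / H)) ^ (-((q:ℝ) + 8)) * H ≤ ((L / 2) ^ (q + 8))⁻¹ * H :=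
          mul_le_mul_of_nonneg_right h1 hH0.le
      _ ≤ ((L / 2) ^ (q + 8))⁻¹ * (P * L ^ 6 * Real.exp (-L)) := by
          refine mul_le_mul_of_nonneg_left ?_ (by positivity)
          rw [hHd]; gcongr
      _ = (2 ^ (q + 8) * P) * ((L ^ (q + 2))⁻¹ * Real.exp (-L)) := by
          rw [div_pow]
          field_simp
          ring
      _ ≤ L * ((L ^ (q + 2))⁻¹ * Real.exp (-L)) := mul_le_mul_of_nonneg_right hL4 (by positivity)
      _ ≤ (L ^ q)⁻¹ * Real.exp (-L) := by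
          rw [← mul_assoc]
          refine mul_le_mul_of_nonneg_right ?_ hE.le
          rw [← div_eq_mul_inv, div_le_iff₀ (by positivity), pow_add, inv_mul_cancel_left₀
            (by positivity)]
          nlinarith

/-- the body of `F3P` -/
def F3B (m n k Q : ℕ) (Λ C a C' κ₀ H₀ : ℝ) : Prop :=
  ∀ (π : Euc k →L[ℝ] Euc m) (ρ : Euc k →L[ℝ] Euc n) (x : Euc k) (w : Euc m → Euc n)
    (X0 : Euc m) (S s κ ε H : ℝ) (U K : Set (Euc k)) (Dd : VarifoldData m k) (g : ℝ → ℝ),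
  Frame π ρ → IsOpen U → IsIntegralVarifoldIn U Dd → IsStationaryIn U Dd →
  0 < s → s < S → Gr S w → (∀ X, ‖fderiv ℝ w X‖ ≤ 1 / 16) →
  (∀ X, ‖fderiv ℝ (fderiv ℝ w) X‖ ≤ 1 / (16 * S)) → ContDiff ℝ 5 w →
  (∃ B : ℝ, ∀ j ≤ 5, ∀ Y, ‖iteratedFDeriv ℝ j w Y‖ ≤ B) →
  ContDiffOn ℝ ∞ w (ball X0 ((1 + ε) * s)) → 0 ≤ κ → κ ≤ κ₀ →
  (∀ j, 1 ≤ j → j ≤ 3 → ∀ Y ∈ ball X0 (2 * s), s ^ (j - 1) * ‖iteratedFDeriv ℝ j w Y‖ ≤ κ) →
  0 < ε → ε ≤ 1 → (∀ Y ∈ ball X0 ((1 + ε) * s), Msys w Y = 0) →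
  closedBall (Foot_842.pt π ρ x w X0) (4 * s) ⊆ U →
  Loc (ch π ρ x S w X0) U (tube π ρ x S w) K (VD Dd) (Real.log ((1 + ε) * s)) →
  (∀ z ∈ K, ‖(ch π ρ x S w X0).x z‖ < (1 + ε) * s → ‖(ch π ρ x S w X0).nu z‖ ≤ s / 8) →
  (VD Dd).real ({z | z ∈ K ∧ ‖(ch π ρ x S w X0).x z‖ < (1 + ε) * s} ×ˢ univ) ≤ Λ * s ^ m →
  |(VD Dd).real ({z | z ∈ K ∧ ‖(ch π ρ x S w X0).x z‖ < 1 / 4 * s} ×ˢ univ) -
    Q * volume.real (ball (0 : Euc m) (1 / 4 * s))| ≤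
      1 / 4 * volume.real (ball (0 : Euc m) (1 / 4 * s)) →
  0 < H → H ≤ H₀ → (Real.log (1 / H)) ^ (-a) ≤ ε →
  ∫ p in {z | ‖(ch π ρ x S w X0).x z‖ < (1 + ε) * s} ×ˢ univ, 2 * (ch π ρ x S w X0).f p.1
    ∂(VK (VD Dd) K) ≤ H * s ^ (m + 2) →
  (∀ s, 0 ≤ g s) → (∀ s, 0 ≤ s → g s ≤ 1) → (∀ s, 1 ≤ s → g s = 0) →
  LipschitzWith 6 (fun v : Euc m => g (‖v‖ ^ 2)) →
  bb (ch π ρ x S w X0) (VK (VD Dd) K) g Q (Real.log s) ≤
    s ^ 2 * (C * κ ^ 2 * ((s ^ (m + 2))⁻¹ *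
      ∫ p, g (‖(ch π ρ x S w X0).x p.1‖ ^ 2 / s ^ 2) * (2 * (ch π ρ x S w X0).f p.1)
        ∂(VK (VD Dd) K)) + (Real.log (1 / H)) ^ (-C') * H)

/-- final arithmetic -/
theorem fin_arith {b s2 CF A y G Lg I1 W : ℝ} (hb : b ≤ s2 * (CF * (A * y) ^ 2 * G + Lg))
    (hG : s2 * G ≤ I1) (hI : 0 ≤ I1) (hCF : 0 ≤ CF) (hA : 0 ≤ A) (hy0 : 0 ≤ y) (hy1 : y ≤ 1)
    (hW : s2 * Lg ≤ W) : b ≤ CF * A ^ 2 * y * I1 + W := by
  have h1 : s2 * (CF * (A * y) ^ 2 * G + Lg) = CF * (A * y) ^ 2 * (s2 * G) + s2 * Lg := by ring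
  have h2 : CF * (A * y) ^ 2 * (s2 * G) ≤ CF * (A * y) ^ 2 * I1 :=
    mul_le_mul_of_nonneg_left hG (by positivity)
  have h3 : CF * (A * y) ^ 2 * I1 = CF * A ^ 2 * I1 * (y * y) := by ring
  have h4 : CF * A ^ 2 * I1 * (y * y) ≤ CF * A ^ 2 * I1 * (y * 1) := by
    have : 0 ≤ CF * A ^ 2 * I1 := by positivity
    exact mul_le_mul_of_nonneg_left (mul_le_mul_of_nonneg_left hy1 hy0) this
  have h5 : CF * A ^ 2 * I1 * (y * 1) = CF * A ^ 2 * y * I1 := by ring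
  linarith

/-- the derivatives in a block -/
theorem der_blk {m n : ℕ} {C κ e S s cT lb : ℝ} {u w : Euc m → Euc n}
    (h : MgF m n C κ (Real.exp (cT - lb)) S u w) (hS : S = Real.exp lb) (hs : 0 < s)
    (hsc : s ≤ Real.exp cT) (hc : cT ≤ lb) (hκ : 0 ≤ κ) (hC : 0 ≤ C) :
    ∀ j, 1 ≤ j → j ≤ 3 → ∀ Y ∈ ball (0 : Euc m) (2 * s), s ^ (j - 1) * ‖iteratedFDeriv ℝ j w Y‖ ≤
      (2 * C + 1) * (κ * Real.exp (cT - lb) + ‖fderiv ℝ u 0‖) := by
  intro j hj1 hj2 Y hY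
  have hS0 : 0 < S := by rw [hS]; exact Real.exp_pos _
  have hsS : s ≤ S := by rw [hS]; exact hsc.trans (Real.exp_le_exp.2 hc)
  refine (h.der_le hS0 hs hsS (by positivity) j hj1 hj2 Y hY).trans ?_
  have h1 : s / S ≤ Real.exp (cT - lb) := by
    rw [hS, Real.exp_sub]
    exact div_le_div_of_nonneg_right hsc (Real.exp_pos _).le
  have h2 : 2 * (C * κ) * (s / S) ≤ 2 * (C * κ) * Real.exp (cT - lb) :=
    mul_le_mul_of_nonneg_left h1 (by positivity)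
  have h3 : (2 * C + 1) * (κ * Real.exp (cT - lb) + ‖fderiv ℝ u 0‖) =
      ‖fderiv ℝ u 0‖ + 2 * (C * κ) * Real.exp (cT - lb) + 2 * (C * ‖fderiv ℝ u 0‖) +
        κ * Real.exp (cT - lb) := by ring
  have h4 : 0 ≤ C * ‖fderiv ℝ u 0‖ := mul_nonneg hC (norm_nonneg _)
  have h5 : 0 ≤ κ * Real.exp (cT - lb) := mul_nonneg hκ (Real.exp_pos _).le
  rw [h3]
  linarith

/-- the height integral, with the number `H` -/
theorem H_int {m : ℕ} {K cT l T' L I1 I : ℝ} (hl : cT ≤ T' + l)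
    (hI : I1 ≤ I) (hHL : Real.exp (-L) = Real.exp (-2 * cT) * I) :
    4 * K ^ 2 / 3 * (Real.exp (m * cT) * I1) ≤
      (4 / 3 * Real.exp ((m + 2) * T') * K ^ 2 * Real.exp (-L)) * Real.exp l ^ (m + 2) := by
  have h0 : I = Real.exp (2 * cT) * Real.exp (-L) := by
    rw [hHL, ← mul_assoc, ← Real.exp_add, show 2 * cT + -2 * cT = 0 by ring, Real.exp_zero,
      one_mul]
  have h2 : Real.exp (m * cT) * I1 ≤ Real.exp (m * cT) * (Real.exp (2 * cT) * Real.exp (-L)) :=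
    mul_le_mul_of_nonneg_left (hI.trans h0.le) (Real.exp_pos _).le
  have h3 : Real.exp (m * cT) * Real.exp (2 * cT) ≤
      Real.exp ((m + 2) * T') * Real.exp l ^ (m + 2) := by
    rw [← Real.exp_nat_mul, ← Real.exp_add, ← Real.exp_add]
    refine Real.exp_le_exp.2 ?_
    push_cast
    have hm0 : (0:ℝ) ≤ m := Nat.cast_nonneg m
    nlinarith
  calc 4 * K ^ 2 / 3 * (Real.exp (m * cT) * I1) ≤
        4 * K ^ 2 / 3 * (Real.exp (m * cT) * (Real.exp (2 * cT) * Real.exp (-L))) :=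
        mul_le_mul_of_nonneg_left h2 (by positivity)
    _ = 4 / 3 * K ^ 2 * Real.exp (-L) * (Real.exp (m * cT) * Real.exp (2 * cT)) := by ring
    _ ≤ 4 / 3 * K ^ 2 * Real.exp (-L) * (Real.exp ((m + 2) * T') * Real.exp l ^ (m + 2)) :=
        mul_le_mul_of_nonneg_left h3 (by positivity)
    _ = _ := by ring

/-- the error term -/
theorem err_le {l cT L I : ℝ} {q : ℕ} (hl : l ≤ cT) (hL : 0 < L)
    (hHL : Real.exp (-L) = Real.exp (-2 * cT) * I) {X : ℝ}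
    (hX : X ≤ (L ^ q)⁻¹ * Real.exp (-L)) : Real.exp l ^ 2 * X ≤ (L ^ q)⁻¹ * I := by
  have h0 : I = Real.exp (2 * cT) * Real.exp (-L) := by
    rw [hHL, ← mul_assoc, ← Real.exp_add, show 2 * cT + -2 * cT = 0 by ring, Real.exp_zero,
      one_mul]
  have h2 : Real.exp l ^ 2 ≤ Real.exp (2 * cT) := by
    rw [← Real.exp_nat_mul]
    refine Real.exp_le_exp.2 ?_
    push_cast
    linarith
  have h3 : 0 ≤ (L ^ q)⁻¹ * Real.exp (-L) := by positivity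
  calc Real.exp l ^ 2 * X ≤ Real.exp l ^ 2 * ((L ^ q)⁻¹ * Real.exp (-L)) :=
        mul_le_mul_of_nonneg_left hX (by positivity)
    _ ≤ Real.exp (2 * cT) * ((L ^ q)⁻¹ * Real.exp (-L)) := mul_le_mul_of_nonneg_right h2 h3
    _ = (L ^ q)⁻¹ * I := by rw [h0]; ring

/-- the fine heights are small against `e^(cT - T')` -/
theorem hf1_small {m : ℕ} {cT K L T' Lc : ℝ} (hK : 0 ≤ K)
    (h3 : Cd m 3 * (16 * Real.exp T') ^ (m + 2) * K ^ 2 * Real.exp (-L) ≤ 1) :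
    hf1 m 3 cT K (Real.exp (-L)) ≤ Real.exp (cT - T') / 8 := by
  have hCd := Cd_pos (m := m) (by norm_num : (0:ℝ) < 3)
  unfold hf1
  have h1 : (Cd m 3 * K ^ 2 * Real.exp (-L)) ^ th0 m ≤ (16 * Real.exp T')⁻¹ := by
    have h2 : Cd m 3 * K ^ 2 * Real.exp (-L) ≤ ((16 * Real.exp T')⁻¹) ^ (m + 2) := by
      rw [inv_pow, ← one_div, le_div_iff₀ (by positivity)]
      calc Cd m 3 * K ^ 2 * Real.exp (-L) * (16 * Real.exp T') ^ (m + 2) =
          Cd m 3 * (16 * Real.exp T') ^ (m + 2) * K ^ 2 * Real.exp (-L) := by ring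
        _ ≤ 1 := h3
    calc _ ≤ (((16 * Real.exp T')⁻¹) ^ (m + 2)) ^ th0 m :=
          Real.rpow_le_rpow (by positivity) h2 (th0_pos (m := m)).le
      _ = (16 * Real.exp T')⁻¹ := by
        rw [← Real.rpow_natCast, ← Real.rpow_mul (by positivity)]
        unfold th0
        have : ((m + 2 : ℕ) : ℝ) * (1 / ((m:ℝ) + 2)) = 1 := by push_cast; field_simp
        rw [this, Real.rpow_one]
  calc 2 * Real.exp cT * (Cd m 3 * K ^ 2 * Real.exp (-L)) ^ th0 m ≤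
        2 * Real.exp cT * (16 * Real.exp T')⁻¹ := by gcongr
    _ = Real.exp (cT - T') / 8 := by rw [Real.exp_sub]; field_simp; norm_num

/-- the level `l` -/
theorem bb_core {m n Q q : ℕ} {C T' CF κF H₀ Λ' ε Λ cT K l L h1 δ' : ℝ} {U Kf : Set (Euc (m + n))}
    {D : VarifoldData m (m + n)} {x : Euc (m + n)} {M : Mo m n (m + n)} (hC1 : 1 ≤ C)
    (hCF : 1 ≤ CF) (hF : F3B m n (m + n) Q Λ' CF 4 (q + 8) κF H₀) (hS : Sit U D Q x M ε Λ)
    (hκ0 : 0 ≤ M.κ) (h64 : C * M.κ ≤ 1 / 64)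
    (hFm : MgF m n C M.κ (Real.exp (cT - M.lb)) M.S M.u M.w) (hw5 : ContDiff ℝ 5 M.w)
    (hwB : ∃ B : ℝ, ∀ j ≤ 5, ∀ Y, ‖iteratedFDeriv ℝ j M.w Y‖ ≤ B)
    (hwS : ContDiffOn ℝ ∞ M.w (ball 0 (Real.exp (cT - M.lb) * M.S)))
    (hcd : Cd1 U (VD D) (M.reg x) M.π M.ρ x M.S M.w 0 M.lb
      (C * (M.κ * Real.exp (cT - M.lb))) cT K) (hK : 4 ≤ K) (hl : l ≤ cT - 1 / K)
    (hlT : M.lb - T' ≤ l) (hcT : cT ≤ M.lb) (hIpos : 0 < M.I x (VD D) cT) (hL0 : 0 < L)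
    (hHL : Real.exp (-L) = Real.exp (-2 * cT) * M.I x (VD D) cT)
    (hloc : Loc (ch M.π M.ρ x M.S M.w 0) U (tube M.π M.ρ x M.S M.w) Kf (VD D) (cT - 1 / (4 * K)))
    (hsub : Sub (ch M.π M.ρ x M.S M.w 0) (VD D) (M.reg x) Kf (cT - 1 / (4 * K)))
    (hKr : Kf ⊆ M.reg x) (hKsub : ∀ z ∈ Kf, 2 * (ch M.π M.ρ x M.S M.w 0).f z ≤ h1 ^ 2)
    (hh0 : 0 ≤ h1) (hh2 : h1 ≤ Real.exp (cT - T') / 8)
    (hm1 : (VD D).real ({z | z ∈ Kf ∧ ‖(ch M.π M.ρ x M.S M.w 0).x z‖ <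
      (1 + 1 / (8 * K)) * Real.exp l} ×ˢ univ) ≤ Λ' * Real.exp l ^ m)
    (hm2 : |(VD D).real ({z | z ∈ Kf ∧ ‖(ch M.π M.ρ x M.S M.w 0).x z‖ < 1 / 4 * Real.exp l} ×ˢ
        univ) - Q * volume.real (ball (0 : Euc m) (1 / 4 * Real.exp l))| ≤
      1 / 4 * volume.real (ball (0 : Euc m) (1 / 4 * Real.exp l)))
    (hyF : (2 * C + 1) * (M.κ * Real.exp (cT - M.lb) + ‖fderiv ℝ M.u 0‖) ≤ κF)
    (hy1 : M.κ * Real.exp (cT - M.lb) + ‖fderiv ℝ M.u 0‖ ≤ 1)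
    (a1 : 0 < 4 / 3 * Real.exp ((m + 2) * T') * K ^ 2 * Real.exp (-L))
    (a2 : 4 / 3 * Real.exp ((m + 2) * T') * K ^ 2 * Real.exp (-L) ≤ H₀)
    (a3 : (Real.log (1 / (4 / 3 * Real.exp ((m + 2) * T') * K ^ 2 * Real.exp (-L)))) ^ (-(4:ℝ)) ≤
      1 / (8 * K))
    (a4 : (Real.log (1 / (4 / 3 * Real.exp ((m + 2) * T') * K ^ 2 * Real.exp (-L)))) ^
      (-((q:ℝ) + 8)) * (4 / 3 * Real.exp ((m + 2) * T') * K ^ 2 * Real.exp (-L)) ≤
        (L ^ q)⁻¹ * Real.exp (-L)) :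
    M.b x (VD D) Q l ≤ CF * (2 * C + 1) ^ 2 *
      (M.κ * Real.exp (cT - M.lb) + ‖fderiv ℝ M.u 0‖) * M.I x (VD D) l +
        (L ^ q)⁻¹ * M.I x (VD D) cT := by
  have hK1 : 1 ≤ K := by linarith
  have hK0 : 0 < K := by linarith
  have hKi : 0 < 1 / K := by positivity
  obtain ⟨n1, n2, n3, n4, n5, n6, n7, n8, n9, n10⟩ := lev_num (T := T') hK hl hlT hcT
  have hRg : Reg (ch M.π M.ρ x M.S M.w 0) (tube M.π M.ρ x M.S M.w) univ := hcd.hw.reg hcd.hf 0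
  have hok1 : Ok (ch M.π M.ρ x M.S M.w 0) Kf univ :=
    hRg.ok hloc.cpt (hloc.sub.trans inter_subset_left)
  have hI1 : II (ch M.π M.ρ x M.S M.w 0) (VK (VD D) Kf) g31 cT ≤ M.I x (VD D) cT :=
    II_sub_le hcd.ok hcd.isOn pf_cubic hloc.cpt hKr cT
  have hhi := hgt_int hok1 hloc.toOn hK1 hcd.mu n2
  have hgi := g3_int hok1 hloc.toOn (l := l) (by linarith) hcd.mu
  have hlL : l ≤ cT - 1 / (4 * K) := by
    have : 1 / (4 * K) ≤ 1 / K := by
      rw [div_le_div_iff₀ (by positivity) hK0]; linarith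
    linarith
  have hbeq := hsub.bb_eq pf_cubic hlL (Q := (Q : ℝ))
  have hIeq := hsub.II_eq' pf_cubic hlL
  have hs0 := Real.exp_pos l
  have hS0 : 0 < M.S := M.S_pos
  have hC0 : 0 ≤ C := by linarith
  have hder := der_blk (e := 0) hFm rfl hs0 (Real.exp_le_exp.2 (by linarith)) hcT hκ0 hC0
  have hballs : ball (0 : Euc m) ((1 + 1 / (8 * K)) * Real.exp l) ⊆
      ball 0 (Real.exp (cT - M.lb) * M.S) := by
    refine ball_subset_ball ?_
    have h2 : Real.exp (cT - M.lb) * M.S = Real.exp cT := by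
      show Real.exp (cT - M.lb) * Real.exp M.lb = _
      rw [← Real.exp_add]; congr 1; ring
    rw [h2]; exact n5
  have hlocF : Loc (ch M.π M.ρ x M.S M.w 0) U (tube M.π M.ρ x M.S M.w) Kf (VD D)
      (Real.log ((1 + 1 / (8 * K)) * Real.exp l)) :=
    ⟨hloc.st, hloc.opU, hloc.cpt, hloc.sub, by
      filter_upwards [hloc.gap] with p hp h2 h3
      rw [Real.exp_log (by positivity)] at h3
      exact hp h2 (h3.trans n3)⟩
  have hnu : ∀ z ∈ Kf, ‖(ch M.π M.ρ x M.S M.w 0).x z‖ < (1 + 1 / (8 * K)) * Real.exp l →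
      ‖(ch M.π M.ρ x M.S M.w 0).nu z‖ ≤ Real.exp l / 8 := by
    intro z hz _
    have h3 : ‖(ch M.π M.ρ x M.S M.w 0).nu z‖ ^ 2 ≤ h1 ^ 2 := by
      rw [hok1.nusq z hz]; exact hKsub z hz
    have h4 := (pow_le_pow_iff_left₀ (norm_nonneg _) hh0 two_ne_zero).1 h3
    refine h4.trans (hh2.trans ?_)
    have h5 : Real.exp (cT - T') ≤ Real.exp l := Real.exp_le_exp.2 (by linarith)
    linarith
  have hpt : closedBall (Foot_842.pt M.π M.ρ x M.w 0) (4 * Real.exp l) ⊆ U := by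
    refine (closedBall_subset_closedBall' ?_).trans hS.sub
    have h2 : dist (Foot_842.pt M.π M.ρ x M.w 0) x ≤ M.S := by
      rw [dist_eq_norm]
      have h3 : Foot_842.pt M.π M.ρ x M.w 0 - x = ContinuousLinearMap.adjoint M.ρ (M.w 0) := by
        unfold Foot_842.pt
        rw [map_zero, add_zero]; abel
      rw [h3, norm_adj_rho hcd.hf]
      refine (hFm.d0 0).trans ?_
      calc C * M.κ * M.S ≤ 1 * M.S := mul_le_mul_of_nonneg_right (by linarith) hS0.le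
        _ = M.S := one_mul _
    have h6 : Real.exp l ≤ M.S := n1.le
    linarith
  have hint := hhi.trans (H_int (m := m) (K := K) (l := l) (T' := T') (by linarith) hI1 hHL)
  have hd2 : ∀ X, ‖fderiv ℝ (fderiv ℝ M.w) X‖ ≤ 1 / (16 * M.S) := fun X =>
    (hFm.d2 X).trans (by
      rw [div_le_div_iff₀ hS0 (by positivity)]
      have := mul_le_mul_of_nonneg_right h64 hS0.le
      linarith)
  have hd1 : ∀ X, ‖fderiv ℝ M.w X‖ ≤ 1 / 16 := fun X => (hFm.d1 X).trans (by linarith)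
  have hy0 : 0 ≤ M.κ * Real.exp (cT - M.lb) + ‖fderiv ℝ M.u 0‖ :=
    add_nonneg (mul_nonneg hκ0 (Real.exp_pos _).le) (norm_nonneg _)
  have hA0 : 0 ≤ 2 * C + 1 := by linarith
  have hmain := hF M.π M.ρ x M.w 0 M.S (Real.exp l)
    ((2 * C + 1) * (M.κ * Real.exp (cT - M.lb) + ‖fderiv ℝ M.u 0‖)) (1 / (8 * K))
    (4 / 3 * Real.exp ((m + 2) * T') * K ^ 2 * Real.exp (-L)) U Kf D g3 hcd.hf hS.opn hS.int
    hS.st hs0 n1 hFm.gr hd1 hd2 hw5 hwB (hwS.mono hballs) (mul_nonneg hA0 hy0) hyF hder n9 n10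
    (fun Y hY => hFm.mn Y (mem_ball_zero_iff.1 (hballs hY))) hpt hlocF hnu hm1 hm2 a1 a2
    a3 hint GI_640.g3_nonneg (fun s hs => g3_le_one hs) (fun s hs => g3_zero hs) g3_lipw
  rw [Real.log_exp, hbeq] at hmain
  rw [hIeq] at hgi
  have hIl : 0 ≤ II (ch M.π M.ρ x M.S M.w 0) (VK (VD D) (M.reg x)) g31 l :=
    II_nonneg hcd.ok hcd.isOn pf_cubic.pr.anti l
  exact fin_arith hmain hgi hIl (by linarith) hA0 hy0 hy1 (err_le (by linarith) hL0 hHL a4)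

end Crest.Agent.R234.Ng_290
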