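import Crest.Agent.R234.Ng12_290

/-!
# Row 234, node F7-GL, part 13 (helper290): `bbP_of`, `glp_of_F3P`
-/

set_option autoImplicit false
set_option linter.unusedVariables false
set_option linter.unusedSectionVars false
set_option maxSynthPendingDepth 3

open MeasureTheory Set Function Filter Topology Metric
open Crest.GeometryTopology.Submanifold
open Crest.Agent.R234.Vf_884 Crest.Agent.R234.Ar_870
open Crest.Agent.R234.Main_456 (Frame Msys)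
open Crest.Agent.R234.Gi_456
open Crest.Agent.R234.GL_394
open Crest.Agent.R234.GI_640 (g3 g31 g32)
open Crest.Agent.R234.MG_570 (MG)
open Crest.Agent.R234.Stp_518
open Crest.Agent.R234.Tv_618 (KT Wr ttot)
open scoped ENNReal NNReal InnerProductSpace ContDiff

noncomputable section

namespace Crest.Agent.R234.Ng_290

set_option maxHeartbeats 1000000 in
/-- **the bound of the anomaly in a block chart** -/
theorem bbP_of (hF3 : ∀ m n Q : ℕ, 3 ≤ m → 1 ≤ n → 1 ≤ Q →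
    F3d_433.F3P m n (m + n) Q) : BbP := by
  intro m n Q hm hn hQ
  have hm1 : 1 ≤ m := by omega
  refine ⟨3, fun N hN T Λ => ?_⟩
  obtain ⟨C, hC1, hMg⟩ := mg_facts m n N (by omega)
  obtain ⟨κs, hκs, hSm⟩ := mg_smooth m n N hN
  have hC0 : 0 < C := by linarith
  obtain ⟨T', hT'0, hTT'⟩ : ∃ T' : ℝ, 0 ≤ T' ∧ T ≤ T' := ⟨max T 0, le_max_right _ _, le_max_left _ _⟩
  have ho := ome_pos m
  have hΛ' : (0:ℝ) ≤ (Q + 1) * (ome m * 3 ^ m) := by positivity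
  obtain ⟨CF, hCF, hF⟩ := hF3 m n Q hm hn hQ _ hΛ'
  obtain ⟨δ, hδ, hδ1, hMs⟩ := masses m Q hm1 T' hT'0
  refine ⟨CF * (2 * C + 1) ^ 2, by positivity, fun q => ?_⟩
  obtain ⟨κF, H₀, hκF, hH₀, hH₀1, hF⟩ := hF 4 (q + 8) (by norm_num) (by positivity)
  have hFB : F3B m n (m + n) Q ((Q + 1) * (ome m * 3 ^ m)) CF 4 (q + 8) κF H₀ := hF
  clear hF
  have hCd := Cd_pos (m := m) (by norm_num : (0:ℝ) < 3)
  obtain ⟨La, hLa1, hLa⟩ := H_num (P := 4 / 3 * Real.exp ((m + 2) * T')) (by positivity) hH₀ q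
  obtain ⟨Lc, hLc1, hLc⟩ := beatK (P := Cd m 3 * 64 ^ (m + 2)) (by positivity) (m + 4)
  obtain ⟨Ld, hLd1, hLd⟩ := beatK (P := Cd m 3 * (16 * Real.exp T') ^ (m + 2)) (by positivity) 2
  obtain ⟨κ₁, hκ₁0, k1, k2, k3, -, -, -, -⟩ := exists_min7 (a1 := 1 / 64)
    (a2 := 1 / ((m:ℝ) + 1)) (a3 := δ) (a4 := 1) (a5 := 1) (a6 := 1) (a7 := 1)
    (by norm_num) (by positivity) hδ one_pos one_pos one_pos one_pos
  obtain ⟨κ₀, hκ₀0, k4, k5, k6, k7, -, -, -⟩ := exists_min7 (a1 := κs)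
    (a2 := κ₁ / C) (a3 := κF / ((2 * C + 1) * (1 + C))) (a4 := 1 / (1 + C)) (a5 := 1) (a6 := 1)
    (a7 := 1) hκs (by positivity) (by positivity) (by positivity) one_pos one_pos one_pos
  obtain ⟨ε, hε0, hε1, hε2, -, -, -, -, -⟩ := exists_min7 (a1 := 1 / 16)
    (a2 := δ) (a3 := 1) (a4 := 1) (a5 := 1) (a6 := 1) (a7 := 1)
    (by norm_num) hδ one_pos one_pos one_pos one_pos one_pos
  refine ⟨κ₀, ε, max La (max Lc Ld), hκ₀0, hε0, ?_⟩
  intro U D x M a cT K hS hκ0 hκle hMG hK ha haT hcT hIpos hL hKL l hl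
  have hLa' : La ≤ lam (M.I x (VD D)) cT := (le_max_left _ _).trans hL
  have hLc' : Lc ≤ lam (M.I x (VD D)) cT := (le_max_left _ _).trans ((le_max_right _ _).trans hL)
  have hLd' : Ld ≤ lam (M.I x (VD D)) cT := (le_max_right _ _).trans ((le_max_right _ _).trans hL)
  clear hL
  have hHL := exp_neg_lam hIpos
  generalize lam (M.I x (VD D)) cT = L at *
  have hCκ : C * M.κ ≤ κ₁ := by
    have h1 : M.κ ≤ κ₁ / C := hκle.trans k5
    rw [le_div_iff₀ hC0] at h1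
    linarith
  have hCκ0 : 0 ≤ C * M.κ := by positivity
  have hE1 : Real.exp (cT - M.lb) ≤ 1 := Real.exp_le_one_iff.2 (by linarith)
  have hE0 := Real.exp_pos (cT - M.lb)
  have h64 : C * M.κ ≤ 1 / 64 := hCκ.trans k1
  have hFm : MgF m n C M.κ (Real.exp (cT - M.lb)) M.S M.u M.w :=
    hMg M.κ _ M.u hMG hκ0 (by linarith) M.S M.S_pos
  obtain ⟨hw5, hwB, hwS⟩ := hSm M.κ _ M.u hMG (hκle.trans k4) M.S M.S_pos
  have hK1 : 1 ≤ K := by linarith
  have hK0 : 0 < K := by linarith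
  have hm0 : (0:ℝ) ≤ m := Nat.cast_nonneg m
  have hmκ : (m:ℝ) * (C * M.κ) ≤ 1 := by
    have h1 := hCκ.trans k2
    rw [le_div_iff₀ (by positivity)] at h1
    nlinarith
  have h8 : 8 * (C * M.κ) ≤ 1 := by linarith
  have h16 : ε ≤ 1 / 8 := by linarith
  have hcd := cd1_of_sit hm1 hS h16 hC1 hκ0 h8 hmκ hFm hK1 hcT
  -- the height
  have hH' : Real.exp (-2 * cT) * II (ch M.π M.ρ x M.S M.w 0) (VK (VD D) (M.reg x)) g31 cT =
    Real.exp (-L) := hHL.symm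
  have hHe := Real.exp_pos (-L)
  have hsm : Cd m 3 * K ^ 2 * (Real.exp (-2 * cT) *
      II (ch M.π M.ρ x M.S M.w 0) (VK (VD D) (M.reg x)) g31 cT) ≤ ((64 * K)⁻¹) ^ (m + 2) := by
    have h1 := hLc L K hLc' hK0.le hKL
    rw [inv_pow, ← one_div, le_div_iff₀ (by positivity), hH']
    calc Cd m 3 * K ^ 2 * Real.exp (-L) * (64 * K) ^ (m + 2) =
        Cd m 3 * 64 ^ (m + 2) * K ^ (m + 4) * Real.exp (-L) := by rw [mul_pow]; ring
      _ ≤ 1 := h1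
  have hae := hcd.fine hm1 pf_cubic (by norm_num : (0:ℝ) < 3) hlow3 hsm
  have hH0 : 0 ≤ Real.exp (-2 * cT) *
      II (ch M.π M.ρ x M.S M.w 0) (VK (VD D) (M.reg x)) g31 cT := by rw [hH']; exact hHe.le
  have hh0 := hf1_nonneg (m := m) (cT := cT) (N := K) (by norm_num : (0:ℝ) < 3) hH0
  have hh2 : hf1 m 3 cT K (Real.exp (-2 * cT) *
      II (ch M.π M.ρ x M.S M.w 0) (VK (VD D) (M.reg x)) g31 cT) ≤ Real.exp (cT - T') / 8 := by
    rw [hH']
    exact hf1_small (Lc := 0) hK0.le (hLd L K hLd' hK0.le hKL)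
  obtain ⟨hloc, hsub⟩ := hcd.loc1 hae
  have hfb := fb_of_sit hS hε0.le (by linarith) h64 hFm
  have hKi : 0 < 1 / K := by positivity
  have hlT : M.lb - T' ≤ l := by linarith [hl.1]
  obtain ⟨n1, n2, n3, n4, n5, n6, n7, n8, n9, n10⟩ := lev_num (T := T') hK hl.2 hlT hcT
  obtain ⟨hm1', hm2'⟩ := hMs hfb hS.opn hε2 (hCκ.trans k3) hε2 hloc (Real.exp l)
    n8 n1.le ((1 + 1 / (8 * K)) * Real.exp l) n6 n4 n3 n7
  have hD0 : ‖fderiv ℝ M.u 0‖ ≤ C * M.κ := by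
    have h2 := hFm.der 0
    rw [smul_zero] at h2
    rw [← h2]
    exact hFm.d1 0
  have hyκ : M.κ * Real.exp (cT - M.lb) + ‖fderiv ℝ M.u 0‖ ≤ (1 + C) * M.κ := by
    have : M.κ * Real.exp (cT - M.lb) ≤ M.κ * 1 := mul_le_mul_of_nonneg_left hE1 hκ0
    linarith
  have hy1 : M.κ * Real.exp (cT - M.lb) + ‖fderiv ℝ M.u 0‖ ≤ 1 := by
    have h2 : M.κ ≤ 1 / (1 + C) := hκle.trans k7
    rw [le_div_iff₀ (by positivity)] at h2
    linarith
  have hyF : (2 * C + 1) * (M.κ * Real.exp (cT - M.lb) + ‖fderiv ℝ M.u 0‖) ≤ κF := by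
    have h2 : M.κ ≤ κF / ((2 * C + 1) * (1 + C)) := hκle.trans k6
    rw [le_div_iff₀ (by positivity)] at h2
    calc (2 * C + 1) * (M.κ * Real.exp (cT - M.lb) + ‖fderiv ℝ M.u 0‖) ≤
          (2 * C + 1) * ((1 + C) * M.κ) := mul_le_mul_of_nonneg_left hyκ (by linarith)
      _ = M.κ * ((2 * C + 1) * (1 + C)) := by ring
      _ ≤ κF := h2
  obtain ⟨a1, a2, a3, a4⟩ := hLa L K hLa' hK hKL
  have hL0 : 0 < L := by linarith
  exact bb_core (δ' := 0) hC1 hCF hFB hS hκ0 h64 hFm hw5 hwB hwS hcd hK hl.2 hlT hcT hIpos hL0 hHL hloc hsub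
    (fun z hz => hz.1) (fun z hz => hz.2.1) hh0 hh2 hm1' hm2' hyF hy1 a1 a2 a3 a4

/-- **GLP from F3** -/
theorem glp_of_F3P (hF3 : ∀ m n Q : ℕ, 3 ≤ m → 1 ≤ n → 1 ≤ Q →
    F3d_433.F3P m n (m + n) Q) : GLP :=
  glp_of (bbP_of hF3)

end Crest.Agent.R234.Ng_290
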