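import Crest.Agent.R234.Ng13_290
import Crest.Agent.R234.F3h_433
import Crest.Agent.R234.LowF21_471

/-!
# Row 234, node F7-GL, part 14 (helper290): `GLP`, unconditional
-/

set_option autoImplicit false

open Crest.Agent.R234

namespace Crest.Agent.R234.Ng_290

/-- **F7-GL** (F3P1 from 354 / 618, F3P from 433) -/
theorem glp : Stp_518.GLP :=
  glp_of_F3P fun m n Q hm hn hQ =>
    F3h_433.f3P_of_F3P1 (by omega) (LowF21_471.f3P1 m n Q hm hn hQ)

end Crest.Agent.R234.Ng_290
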