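import Crest.Agent.R234.GL6_394
import Crest.Agent.R234.Nb5_290

/-!
# Row 234, node F7-GL, part 1 (helper290)

One-level output of VF-GL (`Out1`), the data `StepW` of the frequency lemma from `Out1` at every
level of a window, and `Out1` from 394's `gl_stat` + total variation bounds (T0), (T1).
-/

set_option autoImplicit false

open MeasureTheory Set Function Filter Topology
open Crest.GeometryTopology.Submanifold
open Crest.Agent.R234.Vf_884 Crest.Agent.R234.Ar_870 Crest.Agent.R234.Cy_870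
open Crest.Agent.R234.GL_394
open scoped ENNReal NNReal InnerProductSpace

noncomputable section

namespace Crest.Agent.R234.Ng_290

/-- output at one level: `δ` metric error (exact weights), `ω` sloppy error, `C₁` constant of the
total variation bound -/
structure Out1 (C₁ δ ω : ℝ) (I E e b R : ℝ → ℝ) (l : ℝ) : Prop where
  I0 : 0 ≤ I l
  e0 : 0 ≤ e l
  R0 : 0 ≤ R l
  E_eq : E l = e l / 2 + b l
  dI : ∃ I', HasDerivAt I I' l ∧ |I' - 2 * e l| ≤ δ * I l + ω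
  dE : ∃ E', HasDerivAt E E' l ∧ |E' - (2 * b l + R l)| ≤ δ * (e l + I l) + ω
  cs : e l ≤ √(I l * R l) + (δ * I l + ω)
  ab : |b l| ≤ C₁ * (e l + I l) + ω

variable {C₁ C₂ δ δ' ω ω' : ℝ} {I E e b R I₂ E₂ e₂ b₂ R₂ : ℝ → ℝ} {l : ℝ}

theorem Out1.mono (h : Out1 C₁ δ ω I E e b R l) (hC : C₁ ≤ C₂) (hδ : δ ≤ δ') (hω : ω ≤ ω') :
    Out1 C₂ δ' ω' I E e b R l := by
  have hI := h.I0
  have heI := add_nonneg h.e0 h.I0
  have h1 := mul_le_mul_of_nonneg_right hδ hI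
  have h2 := mul_le_mul_of_nonneg_right hδ heI
  have h3 := mul_le_mul_of_nonneg_right hC heI
  obtain ⟨I', d1, d2⟩ := h.dI
  obtain ⟨E', d3, d4⟩ := h.dE
  exact ⟨h.I0, h.e0, h.R0, h.E_eq, ⟨I', d1, by linarith⟩, ⟨E', d3, by linarith⟩,
    by linarith [h.cs], by linarith [h.ab]⟩

/-- transfer to functions which agree near `l` -/
theorem Out1.congr (h : Out1 C₁ δ ω I E e b R l) (hI : I₂ =ᶠ[𝓝 l] I) (hE : E₂ =ᶠ[𝓝 l] E)
    (he : e₂ l = e l) (hb : b₂ l = b l) (hR : R₂ l = R l) : Out1 C₁ δ ω I₂ E₂ e₂ b₂ R₂ l := by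
  have hI' := hI.eq_of_nhds
  have hE' := hE.eq_of_nhds
  obtain ⟨I', d1, d2⟩ := h.dI
  obtain ⟨E', d3, d4⟩ := h.dE
  refine ⟨by rw [hI']; exact h.I0, by rw [he]; exact h.e0, by rw [hR]; exact h.R0,
    by rw [hE', he, hb]; exact h.E_eq, ⟨I', d1.congr_of_eventuallyEq hI, ?_⟩,
    ⟨E', d3.congr_of_eventuallyEq hE, ?_⟩, ?_, ?_⟩
  · rw [hI', he]; exact d2
  · rw [hI', he, hb, hR]; exact d4
  · rw [hI', he, hR]; exact h.cs
  · rw [hI', he, hb]; exact h.ab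

/-- **`StepW` from the one-level outputs on a window** and the soft sign -/
theorem stepW_of_out {a b₀ w : ℝ} (h : ∀ l ∈ Icc a b₀, Out1 C₁ δ w I E e b R l)
    (hb : ∀ l ∈ Icc a b₀, b l ≤ δ * I l + w) : Nb_290.StepW C₁ a b₀ δ w I E e b R where
  hI l hl := (h l hl).I0
  he l hl := (h l hl).e0
  hR l hl := (h l hl).R0
  hE l hl := (h l hl).E_eq
  dI l hl := (h l hl).dI
  dE l hl := by
    obtain ⟨E', h1, h2⟩ := (h l hl).dE
    exact ⟨E', h1, by linarith [(abs_le.1 h2).1]⟩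
  hCS l hl := (h l hl).cs
  hb := hb
  hab l hl := by
    have h1 := (abs_le.1 (h l hl).ab).1
    have h2 := (h l hl).E_eq
    have h3 := (h l hl).e0
    linarith

variable {m k : ℕ} {c : Ch m k} {K W U : Set (Euc k)} {D : Set (Euc m)}
  {V : Measure (Euc k × L k)} {g g1 g2 : ℝ → ℝ} {Q c0 d0 hh C0 B : ℝ} {zN : Euc k → Euc k}

theorem Cg_nonneg (hB : 0 ≤ B) (hC : 0 ≤ C0) : 0 ≤ Cg m B C0 := by
  unfold Cg
  positivity

/-- the pure algebra from the `gl_out` form -/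
theorem out1_of {Cg₀ C₂ ω₂ O₁ c0 d0 hh r1 : ℝ} (hCg : 0 ≤ Cg₀) (hC₂ : 0 ≤ C₂) (hω₂ : 0 ≤ ω₂)
    (hc0 : 0 ≤ c0) (hd0 : 0 ≤ d0) (hc1 : c0 ≤ 1) (hO : 0 ≤ O₁)
    (hR : 0 ≤ R l) (hI : 0 ≤ I l) (he : 0 ≤ e l) (hE : E l = e l / 2 + b l)
    (dI : ∃ I', HasDerivAt I I' l ∧ |I' - 2 * e l| ≤ Cg₀ * ((c0 + d0) * I l) +
      Cg₀ * ((hh ^ 2 + d0) * O₁))
    (dE : ∃ E', HasDerivAt E E' l ∧ |E' - (2 * b l + R l)| ≤
      Cg₀ * ((c0 + d0) * e l + (c0 + d0) * I l) + r1 + Cg₀ * ((hh ^ 2 + d0) * O₁))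
    (cs : e l ≤ √(I l * R l) + (Cg₀ * ((c0 + d0) * I l) + Cg₀ * ((hh ^ 2 + d0) * O₁)))
    (T0 : |b l| ≤ C₂ * (e l + I l) + ω₂)
    (T1 : r1 ≤ c0 * (C₂ * (e l + I l) + ω₂)) :
    Out1 C₂ ((Cg₀ + C₂) * (c0 + d0)) (Cg₀ * ((hh ^ 2 + d0) * O₁) + ω₂) I E e b R l := by
  have heI := add_nonneg he hI
  have hcd := add_nonneg hc0 hd0
  have hX : 0 ≤ Cg₀ * ((hh ^ 2 + d0) * O₁) := by positivity
  have h1 : 0 ≤ C₂ * (c0 + d0) * I l := by positivity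
  obtain ⟨I', d1, d2⟩ := dI
  obtain ⟨E', d3, d4⟩ := dE
  refine ⟨hI, he, hR, hE, ⟨I', d1, ?_⟩, ⟨E', d3, ?_⟩, ?_, ?_⟩
  · refine d2.trans ?_
    have : (Cg₀ + C₂) * (c0 + d0) * I l = Cg₀ * ((c0 + d0) * I l) + C₂ * (c0 + d0) * I l := by ring
    linarith
  · refine d4.trans ?_
    have h2 : c0 * ω₂ ≤ ω₂ := by
      calc c0 * ω₂ ≤ 1 * ω₂ := mul_le_mul_of_nonneg_right hc1 hω₂
        _ = ω₂ := one_mul _
    have h3 : 0 ≤ C₂ * d0 * (e l + I l) := by positivity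
    have h4 : (Cg₀ + C₂) * (c0 + d0) * (e l + I l) =
        Cg₀ * ((c0 + d0) * e l + (c0 + d0) * I l) + c0 * (C₂ * (e l + I l)) +
        C₂ * d0 * (e l + I l) := by ring
    have h5 : c0 * (C₂ * (e l + I l) + ω₂) = c0 * (C₂ * (e l + I l)) + c0 * ω₂ := by ring
    linarith
  · refine cs.trans ?_
    have : (Cg₀ + C₂) * (c0 + d0) * I l = Cg₀ * ((c0 + d0) * I l) + C₂ * (c0 + d0) * I l := by ring
    linarith
  · linarith

/-- **one-level output** for a stationary varifold relative to a fixed reference -/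
theorem out_of_gl {L : ℝ} (hr : Reg c W D) (h : Loc c U W K V L) (hp : Pf g g1 g2 B)
    (hk : KB c K l c0 d0 hh C0 zN) (hc1 : c0 ≤ 1) (hlL : l < L)
    (hL : Metric.closedBall 0 (Real.exp L) ⊆ D) {C₂ ω₂ : ℝ} (hC₂ : 0 ≤ C₂) (hω₂ : 0 ≤ ω₂)
    (T0 : |bb c (VK V K) g Q l| ≤ C₂ * (ee c (VK V K) g l + II c (VK V K) g1 l) + ω₂)
    (T1 : Real.exp ((2 - m) * l) * |er1a c (VK V K) g Q l| ≤
      c0 * (C₂ * (ee c (VK V K) g l + II c (VK V K) g1 l) + ω₂)) :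
    Out1 C₂ ((Cg m B C0 + C₂) * (c0 + d0))
      (Cg m B C0 * ((hh ^ 2 + d0) * OO c (VK V K) l) + ω₂)
      (II c (VK V K) g1) (EE c (VK V K) g Q) (ee c (VK V K) g) (bb c (VK V K) g Q)
      (RF c (VK V K) g1 B c0 d0) l := by
  have hB : 0 ≤ B := (hp.nn 0 le_rfl).trans (hp.b0 0 le_rfl)
  have hO : 0 ≤ OO c (VK V K) l :=
    OO_nonneg (hr.ok h.cpt (h.sub.trans inter_subset_left)) h.toOn hk
  obtain ⟨g1', g2', g3', g4', g5', g6', g7'⟩ := gl_stat hr h hp hk hc1 Q hlL hL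
  exact out1_of (Cg_nonneg hB (by linarith [hk.C0n])) hC₂ hω₂ hk.c0n hk.d0n hc1 hO g1' g2' g3'
    g4' g5' g6' g7' T0 T1

end Crest.Agent.R234.Ng_290
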