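import Crest.Agent.R234.Ng2_290
import Crest.Agent.R234.GL8_394

/-!
# Row 234, node F7-GL, part 3 (helper290)

(T0), (T1) from 618's total variation measure (structure `GL_394.TV`), numerical form of the error
`w` : power of `N` times the square root of the height at the top.
-/

set_option autoImplicit false

open MeasureTheory Set Function Filter Topology
open Crest.GeometryTopology.Submanifold
open Crest.Agent.R234.Vf_884 Crest.Agent.R234.Ar_870
open Crest.Agent.R234.GL_394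
open scoped ENNReal NNReal InnerProductSpace

noncomputable section

namespace Crest.Agent.R234.Ng_290

variable {m k : ℕ} {c : Ch m k} {K Kt Kh W U : Set (Euc k)} {D : Set (Euc m)}
  {V : Measure (Euc k × L k)} {g g1 g2 : ℝ → ℝ} {Q c0 d0 hh C0 C1 B l : ℝ} {zN : Euc k → Euc k}

theorem Sub.tv {L ρ Ct kq sig : ℝ} (h : Sub c V Kt Kh L) (hρ : ρ ≤ Real.exp L)
    {e2 : Measure (Euc m)} (hT : TV c (VK V Kt) Q ρ Ct kq sig e2) :
    TV c (VK V Kh) Q ρ Ct kq sig e2 where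
  fin := hT.fin
  i F hF hb h0 := by
    have e1 : ∫ p, F (c.x p.1) * (1 - c.tau p.1 p.2 / 2) ∂(VK V Kh) =
        ∫ p, F (c.x p.1) * (1 - c.tau p.1 p.2 / 2) ∂(VK V Kt) :=
      h.int_eq (t := ρ) hρ fun p hp => by
        rw [h0 _ (by rwa [mem_closedBall_zero_iff]), zero_mul]
    rw [e1]
    exact hT.i F hF hb h0
  iii F Lf hF hL h0 := by
    have e1 : ∫ p, F (c.x p.1) * (c.tau p.1 p.2 + kq * (2 * c.f p.1)) ∂(VK V Kh) =
        ∫ p, F (c.x p.1) * (c.tau p.1 p.2 + kq * (2 * c.f p.1)) ∂(VK V Kt) :=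
      h.int_eq (t := ρ) hρ fun p hp => by
        rw [h0 _ (by rwa [mem_closedBall_zero_iff]), zero_mul]
    rw [e1]
    exact hT.iii F Lf hF hL h0

/-- the total variation constant -/
def C2 (Ct B : ℝ) : ℝ := Ct * (1 + B) + 1 / 2

theorem C2_nonneg {Ct : ℝ} (hCt : 0 ≤ Ct) (hB : 0 ≤ B) : 0 ≤ C2 Ct B := by
  unfold C2; positivity

/-- (T0), (T1) at one level -/
theorem tv_one (hm : 1 ≤ m) (h : Ok c K D) (hV : On V m K) (hp : Pf g g1 g2 B)
    (hk : KB c K l c0 d0 hh C0 zN) {ρ Ct kq sig lo : ℝ} {e2 : Measure (Euc m)} (hCt : 0 ≤ Ct)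
    (hkq : 0 ≤ kq) (hsig : 0 ≤ sig) (hT : TV c V Q ρ Ct kq sig e2) (hl : Real.exp l ≤ ρ)
    (hlo : lo ≤ l) (hk1 : kq * Real.exp (2 * l) ≤ 1) (hD : Metric.closedBall 0 (Real.exp l) ⊆ D) :
    |bb c V g Q l| ≤ C2 Ct B * (ee c V g l + II c V g1 l) +
        2 * B * Real.exp ((1 - m) * lo) * sig ∧
      Real.exp ((2 - m) * l) * |er1a c V g Q l| ≤
        c0 * (C2 Ct B * (ee c V g l + II c V g1 l) + 2 * B * Real.exp ((1 - m) * lo) * sig) := by
  have hB : 0 ≤ B := (hp.nn 0 le_rfl).trans (hp.b0 0 le_rfl)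
  have hI : 0 ≤ II c V g1 l := II_nonneg h hV hp.pr.anti l
  have he : 0 ≤ ee c V g l := ee_nonneg h hV hp hk
  have h0 := abs_bb_le h hV hp hk hCt hkq hT hl
  have h1 := er1a_le_TV h hV hp hk hCt hkq hT hl hD
  have hE : Real.exp ((1 - m) * l) ≤ Real.exp ((1 - m) * lo) := by
    refine Real.exp_le_exp.2 ?_
    have : (1:ℝ) ≤ m := by exact_mod_cast hm
    nlinarith
  have h2 : TVb c V g g1 B Ct kq sig l ≤ Ct * (1 + B) * (ee c V g l + II c V g1 l) +
      2 * B * Real.exp ((1 - m) * lo) * sig := by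
    unfold TVb
    have a1 : kq * Real.exp (2 * l) * (B * II c V g1 l) ≤ 1 * (B * II c V g1 l) :=
      mul_le_mul_of_nonneg_right hk1 (by positivity)
    have a2 : Ct * (ee c V g l + kq * Real.exp (2 * l) * (B * II c V g1 l)) ≤
        Ct * (ee c V g l + 1 * (B * II c V g1 l)) :=
      mul_le_mul_of_nonneg_left (by linarith) hCt
    have a3 : 2 * B * Real.exp ((1 - m) * l) * sig ≤ 2 * B * Real.exp ((1 - m) * lo) * sig :=
      mul_le_mul_of_nonneg_right (mul_le_mul_of_nonneg_left hE (by positivity)) hsig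
    have a4 : 0 ≤ Ct * (B * ee c V g l + II c V g1 l) := by positivity
    nlinarith
  have hc0 := hk.c0n
  have h3 : 0 ≤ ee c V g l + II c V g1 l := add_nonneg he hI
  have h4 : Ct * (1 + B) * (ee c V g l + II c V g1 l) + 1 / 2 * (ee c V g l + II c V g1 l) =
      C2 Ct B * (ee c V g l + II c V g1 l) := by unfold C2; ring
  constructor
  · refine (h0.trans h2).trans ?_
    linarith
  · refine h1.trans (mul_le_mul_of_nonneg_left ?_ hc0)
    linarith

/-- the constant of the heights: `hh² ≤ Ph N^(m+2) H` -/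
def Ph (m : ℕ) (C1 bl T : ℝ) : ℝ := C1 * 4 ^ m * Real.exp m * (4 / bl) * Real.exp (2 * T)

/-- the constant of `w` -/
def Pw (m : ℕ) (A B C0 C1 bl T : ℝ) : ℝ :=
  Cg m B C0 * (1 + A) * (√(Ph m C1 bl T) * ((4 * C1 + 1) * (4 / bl) * Real.exp (m * T)))

set_option maxHeartbeats 1000000 in
/-- **F7-GL, numerical form** : window `[lo, cT - 1/N]` of length `≤ T`;
`w = Pw N^(m+6) √H II(cT) + 2 B e^((1-m) lo) sig + ωb`, `H = e^(-2 cT) II(cT)`. -/
theorem stepW_num {LT cT N lo bl T κ A δb ωb ρ Ct kq sig : ℝ} {e2 : Measure (Euc m)} (hm : 1 ≤ m)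
    (hr : Reg c W D) (h : Loc c U W Kt V LT)
    (hcT : cT - 1 / (2 * N) ≤ LT) (hD : Metric.closedBall 0 (Real.exp cT) ⊆ D)
    (hp : Pf g g1 g2 B)
    (hbl : 0 < bl) (hlow : ∀ a t, 0 ≤ t → t ≤ a → a ≤ 1 → bl * (1 - a) ^ 2 ≤ -g1 t)
    (hmu : ∀ v : Euc m, ‖v‖ ≤ Real.exp cT → 1 / 2 ≤ c.mu v) (hN : 1 ≤ N)
    (hS : Sup c (VK V Kt) cT N C1) (hT : cT - lo ≤ T)
    (hA : 0 ≤ A) (hC0 : 0 ≤ C0) (hκ : 0 ≤ κ) (hAκ : A * κ ≤ 1) (hκ1 : κ ≤ 1)
    (hKB : ∀ l ∈ Icc lo (cT - 1 / N), ∀ hh, 0 ≤ hh → hh ≤ 1 → ∀ K' ⊆ Kt, IsCompact K' →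
      (∀ z ∈ K', ‖c.x z‖ ≤ Real.exp l → ‖c.nu z‖ ≤ hh * Real.exp l) →
      KB c K' l (A * κ) (A * κ * hh) hh C0 zN)
    (hTV : TV c (VK V Kt) Q ρ Ct kq sig e2) (hρ1 : Real.exp (cT - 1 / N) ≤ ρ)
    (hρ2 : ρ ≤ Real.exp (cT - 3 / (4 * N))) (hCt : 0 ≤ Ct) (hkq : 0 ≤ kq)
    (hkq1 : kq * Real.exp (2 * cT) ≤ 1) (hsig : 0 ≤ sig)
    (hH1 : Ph m C1 bl T * N ^ (m + 2) * (Real.exp (-2 * cT) * II c (VK V Kt) g1 cT) ≤ 1)
    (hδb : 0 ≤ δb) (hωb : 0 ≤ ωb)
    (hb : ∀ l ∈ Icc lo (cT - 1 / N), bb c (VK V Kt) g Q l ≤ δb * II c (VK V Kt) g1 l + ωb) :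
    Nb_290.StepW (C2 Ct B) lo (cT - 1 / N) ((Cg m B C0 + C2 Ct B) * (2 * A) * κ + δb)
      (Pw m A B C0 C1 bl T * N ^ (m + 6) * √(Real.exp (-2 * cT) * II c (VK V Kt) g1 cT) *
        II c (VK V Kt) g1 cT + 2 * B * Real.exp ((1 - m) * lo) * sig + ωb)
      (II c (VK V Kt) g1) (EE c (VK V Kt) g Q) (ee c (VK V Kt) g) (bb c (VK V Kt) g Q)
      (RF c (VK V Kt) g1 B (A * κ)
        (A * κ * (√(Ph m C1 bl T * N ^ (m + 2) * (Real.exp (-2 * cT) *
          II c (VK V Kt) g1 cT))))) := by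
  have hN0 : 0 < N := by linarith
  have hok : Ok c Kt D := hr.ok h.cpt (h.sub.trans inter_subset_left)
  have hOn := h.toOn
  have hB : 0 ≤ B := (hp.nn 0 le_rfl).trans (hp.b0 0 le_rfl)
  have hC1 := hS.C1n
  set I := II c (VK V Kt) g1 cT with hIdef
  have hI : 0 ≤ I := II_nonneg hok hOn hp.pr.anti cT
  set H := Real.exp (-2 * cT) * I with hHdef
  have hH0 : 0 ≤ H := by positivity
  have hPh0 : 0 ≤ Ph m C1 bl T := by unfold Ph; positivity
  set X := Ph m C1 bl T * N ^ (m + 2) * H with hX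
  have hX0 : 0 ≤ X := by positivity
  set hh := √X with hhh
  have hh0 : 0 ≤ hh := Real.sqrt_nonneg _
  have hh1 : hh ≤ 1 := by
    rw [hhh]
    calc √X ≤ √1 := Real.sqrt_le_sqrt hH1
      _ = 1 := Real.sqrt_one
  have hh2 : hh ^ 2 = X := Real.sq_sqrt hX0
  -- heights
  set h2 := X * Real.exp (2 * lo) with hh2def
  have hh2' : C1 * (4 * N * Real.exp (-(cT - 3 / (4 * N)))) ^ m *
      HH c (VK V Kt) (Real.exp (cT - 1 / (2 * N))) ≤ h2 := by
    have e1 := HH_le_II hok hOn hp hbl hlow hN hmu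
    have e2 : C1 * (4 * N * Real.exp (-(cT - 3 / (4 * N)))) ^ m *
        HH c (VK V Kt) (Real.exp (cT - 1 / (2 * N))) ≤
        C1 * (4 * N * Real.exp (-(cT - 3 / (4 * N)))) ^ m *
          (4 * N ^ 2 / bl * (Real.exp (m * cT) * I)) :=
      mul_le_mul_of_nonneg_left e1 (by positivity)
    refine e2.trans ?_
    have e3 : (4 * N * Real.exp (-(cT - 3 / (4 * N)))) ^ m =
        4 ^ m * N ^ m * Real.exp (-(m * cT) + m * (3 / (4 * N))) := by
      rw [mul_pow, mul_pow, ← Real.exp_nat_mul]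
      congr 2
      ring
    have e4 : Real.exp (-(m * cT) + m * (3 / (4 * N))) * Real.exp (m * cT) ≤ Real.exp m := by
      rw [← Real.exp_add]
      refine Real.exp_le_exp.2 ?_
      have : 3 / (4 * N) ≤ 1 := by
        rw [div_le_one (by positivity)]; linarith
      have hm0 : (0:ℝ) ≤ m := Nat.cast_nonneg m
      nlinarith
    have e5 : (1:ℝ) ≤ Real.exp (2 * T) * (Real.exp (-2 * cT) * Real.exp (2 * lo)) := by
      rw [← Real.exp_add, ← Real.exp_add]
      refine Real.one_le_exp ?_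
      linarith
    rw [e3, hh2def, hX, hHdef]
    unfold Ph
    have hpos : 0 ≤ C1 * 4 ^ m * (4 / bl) * N ^ (m + 2) * I := by positivity
    calc C1 * (4 ^ m * N ^ m * Real.exp (-(m * cT) + m * (3 / (4 * N)))) *
          (4 * N ^ 2 / bl * (Real.exp (m * cT) * I)) =
        (C1 * 4 ^ m * (4 / bl) * N ^ (m + 2) * I) *
          (Real.exp (-(m * cT) + m * (3 / (4 * N))) * Real.exp (m * cT)) := by ring
      _ ≤ (C1 * 4 ^ m * (4 / bl) * N ^ (m + 2) * I) * Real.exp m :=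
          mul_le_mul_of_nonneg_left e4 hpos
      _ = (C1 * 4 ^ m * (4 / bl) * N ^ (m + 2) * I) * Real.exp m * 1 := by ring
      _ ≤ (C1 * 4 ^ m * (4 / bl) * N ^ (m + 2) * I) * Real.exp m *
          (Real.exp (2 * T) * (Real.exp (-2 * cT) * Real.exp (2 * lo))) :=
          mul_le_mul_of_nonneg_left e5 (by positivity)
      _ = _ := by ring
  have hH := HH_nonneg hok hOn (cT - 1 / (2 * N))
  have hae := height_le hN0 hS hH hh2'
  have h34 : 1 / N = 3 / (4 * N) + 1 / (4 * N) := by field_simp; ring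
  have hN4 : 0 < 1 / (4 * N) := by positivity
  have h340 : 0 < 3 / (4 * N) := by positivity
  have h12 : 3 / (4 * N) = 1 / (2 * N) + 1 / (4 * N) := by field_simp; ring
  obtain ⟨hloc, hsub⟩ := loc_Kc (L := cT - 3 / (4 * N)) (h2 := h2) hr h (by linarith) hae
  have hok' : Ok c (Kc c Kt h2 (cT - 3 / (4 * N))) D :=
    hr.ok hloc.cpt (hloc.sub.trans inter_subset_left)
  have hKB' : ∀ l ∈ Icc lo (cT - 1 / N), KB c (Kc c Kt h2 (cT - 3 / (4 * N))) l (A * κ)
      (A * κ * hh) hh C0 zN := by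
    intro l hl
    refine hKB l hl hh hh0 hh1 _ (fun z hz => hz.1) hloc.cpt ?_
    intro z hz _
    have e1 : ‖c.nu z‖ ^ 2 ≤ (hh * Real.exp l) ^ 2 := by
      rw [hok'.nusq z hz, mul_pow, hh2, ← Real.exp_nat_mul]
      refine hz.2.1.trans ?_
      rw [hh2def]
      refine mul_le_mul_of_nonneg_left (Real.exp_le_exp.2 ?_) hX0
      push_cast
      linarith [hl.1]
    exact le_of_sq_le_sq e1 (by positivity)
  have htv := hsub.tv hρ2 hTV
  have htt : ∀ l ∈ Icc lo (cT - 1 / N),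
      |bb c (VK V Kt) g Q l| ≤ C2 Ct B * (ee c (VK V Kt) g l + II c (VK V Kt) g1 l) +
        2 * B * Real.exp ((1 - m) * lo) * sig ∧
      Real.exp ((2 - m) * l) * |er1a c (VK V Kt) g Q l| ≤
        (A * κ) * (C2 Ct B * (ee c (VK V Kt) g l + II c (VK V Kt) g1 l) +
          2 * B * Real.exp ((1 - m) * lo) * sig) := by
    intro l hl
    have hlL : l ≤ cT - 3 / (4 * N) := by linarith [hl.2]
    have h1 := tv_one (Q := Q) hm hok' hloc.toOn hp (hKB' l hl) hCt hkq hsig htv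
      ((Real.exp_le_exp.2 hl.2).trans hρ1) hl.1
      (le_trans (mul_le_mul_of_nonneg_left (Real.exp_le_exp.2 (by linarith)) hkq) hkq1)
      ((Metric.closedBall_subset_closedBall (Real.exp_le_exp.2 (by linarith))).trans hD)
    rw [hsub.bb_eq hp hlL, hsub.ee_eq' hp hlL, hsub.II_eq' hp hlL, hsub.er1a_eq hp hlL] at h1
    exact h1
  have hω : 0 ≤ 2 * B * Real.exp ((1 - m) * lo) * sig := by positivity
  have hmain := stepW_win hr h hcT hD hp hbl hlow hmu hN hS hh2' hKB' hAκ (C2_nonneg hCt hB) hω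
    (fun l hl => (htt l hl).1) (fun l hl => (htt l hl).2) hδb hωb hb
  refine hmain.weaken le_rfl ?_ ?_
  · have e1 : A * κ * hh ≤ A * κ * 1 := mul_le_mul_of_nonneg_left hh1 (by positivity)
    have e2 : 0 ≤ Cg m B C0 + C2 Ct B := add_nonneg (Cg_nonneg hB hC0) (C2_nonneg hCt hB)
    have e3 := mul_le_mul_of_nonneg_left e1 e2
    linarith
  · have e0 : 0 ≤ Cg m B C0 := Cg_nonneg hB hC0
    have e1 : hh ^ 2 + A * κ * hh ≤ (1 + A) * hh := by
      have a1 : hh * hh ≤ 1 * hh := mul_le_mul_of_nonneg_right hh1 hh0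
      have a2 : A * κ * hh ≤ A * hh := by
        refine mul_le_mul_of_nonneg_right ?_ hh0
        calc A * κ ≤ A * 1 := mul_le_mul_of_nonneg_left hκ1 hA
          _ = A := mul_one A
      rw [pow_two]
      linarith
    have e2 : OB m C1 bl N (cT - lo) I ≤ (4 * C1 + 1) * (4 / bl) * Real.exp (m * T) * N ^ 4 * I := by
      unfold OB
      have a1 : 4 * N ^ 2 * C1 + 1 ≤ (4 * C1 + 1) * N ^ 2 := by
        have : (1:ℝ) ≤ N ^ 2 := one_le_pow₀ hN
        linarith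
      have a2 : Real.exp (m * (cT - lo)) ≤ Real.exp (m * T) :=
        Real.exp_le_exp.2 (mul_le_mul_of_nonneg_left hT (Nat.cast_nonneg m))
      calc (4 * N ^ 2 * C1 + 1) * (4 * N ^ 2 / bl) * Real.exp (m * (cT - lo)) * I ≤
          ((4 * C1 + 1) * N ^ 2) * (4 * N ^ 2 / bl) * Real.exp (m * T) * I := by gcongr
        _ = _ := by ring
    have e3 : hh ≤ √(Ph m C1 bl T) * N ^ (m + 2) * √H := by
      rw [hhh, hX, Real.sqrt_mul (by positivity), Real.sqrt_mul hPh0]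
      gcongr
      have a1 : (1:ℝ) ≤ N ^ (m + 2) := one_le_pow₀ hN
      exact (Real.sqrt_le_left (by positivity)).2 (by
        nlinarith)
    have hOB : 0 ≤ OB m C1 bl N (cT - lo) I := by unfold OB; positivity
    have e4 : Cg m B C0 * ((hh ^ 2 + A * κ * hh) * OB m C1 bl N (cT - lo) I) ≤
        Pw m A B C0 C1 bl T * N ^ (m + 6) * √H * I := by
      calc Cg m B C0 * ((hh ^ 2 + A * κ * hh) * OB m C1 bl N (cT - lo) I) ≤
          Cg m B C0 * (((1 + A) * (√(Ph m C1 bl T) * N ^ (m + 2) * √H)) *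
            ((4 * C1 + 1) * (4 / bl) * Real.exp (m * T) * N ^ 4 * I)) := by
            refine mul_le_mul_of_nonneg_left ?_ e0
            refine mul_le_mul (e1.trans ?_) e2 hOB (by positivity)
            exact mul_le_mul_of_nonneg_left e3 (by positivity)
        _ = _ := by unfold Pw; ring
    linarith

end Crest.Agent.R234.Ng_290
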