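import Crest.Agent.R234.Ng3_290

/-!
# Row 234, node F7-GL, part 4 (helper290)

The total energy below the collar, `sig` of 618's (iii), and "exponential beats powers".
-/

set_option autoImplicit false
set_option linter.unusedVariables false

open MeasureTheory Set Function Filter Topology
open Crest.GeometryTopology.Submanifold
open Crest.Agent.R234.Vf_884 Crest.Agent.R234.Ar_870
open Crest.Agent.R234.GL_394
open scoped ENNReal NNReal InnerProductSpace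

noncomputable section

namespace Crest.Agent.R234.Ng_290

variable {m k : ℕ} {c : Ch m k} {K Kt Kh W U : Set (Euc k)} {D : Set (Euc m)}
  {V : Measure (Euc k × L k)} {g g1 g2 : ℝ → ℝ} {Q c0 d0 hh C0 C1 B l : ℝ} {zN : Euc k → Euc k}

/-- monotonicity of the sharp height integral -/
theorem HH_mono (h : Ok c K D) (hV : On V m K) {s t : ℝ} (hst : s ≤ t) :
    HH c V (Real.exp s) ≤ HH c V (Real.exp t) := by
  unfold HH
  have hres1 : V.restrict (Sr c (Real.exp s)) =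
      V.restrict ((K ×ˢ G m k) ∩ Sr c (Real.exp s)) := region_eq h hV s
  have hres2 : V.restrict (Sr c (Real.exp t)) =
      V.restrict ((K ×ˢ G m k) ∩ Sr c (Real.exp t)) := region_eq h hV t
  rw [hres1, hres2]
  have i3 : Integrable (fun p : Euc k × Vf_884.L k => 2 * c.f p.1) V :=
    hV.integrable h.cpt (continuousOn_const.mul (lift h.cf))
  refine setIntegral_mono_set i3.integrableOn ?_ ?_
  · filter_upwards [ae_restrict_mem (region_closed (m := m) h t).measurableSet] with p hp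
    have := h.f_nonneg hp.1.1
    simp only [Pi.zero_apply]
    linarith
  · refine LE.le.eventuallyLE ?_
    intro p hp
    exact ⟨hp.1, le_trans hp.2 (Real.exp_le_exp.2 hst)⟩

/-- constant of the total energy -/
def Pt (m : ℕ) (C1 bl : ℝ) : ℝ :=
  (2 * Real.exp 1) ^ m * (16 * C1 * Real.exp 2 + 4 * Real.exp 2) * (4 / bl)

/-- **total energy** `t = s^(-m) ∫_{|x| ≤ r'} (tau + κ 2f / s²) ≤ Pt N^4 H` -/
theorem tot_le (h : Ok c K D) (hV : On V m K) (hp : Pf g g1 g2 B) {bl : ℝ} (hbl : 0 < bl)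
    (hlow : ∀ a t, 0 ≤ t → t ≤ a → a ≤ 1 → bl * (1 - a) ^ 2 ≤ -g1 t) {cT N s κ : ℝ} (hN : 1 ≤ N)
    (hmu : ∀ v : Euc m, ‖v‖ ≤ Real.exp cT → 1 / 2 ≤ c.mu v)
    (hS : Sup c V cT N C1) (hs : Real.exp (cT - 1) / 2 ≤ s) (hκ : 0 ≤ κ) (hκ1 : κ ≤ 1) :
    (s⁻¹) ^ m * ∫ p in Sr c (Real.exp (cT - 3 / (4 * N))), (c.tau p.1 p.2 +
        κ * (2 * c.f p.1 / s ^ 2)) ∂V ≤
      Pt m C1 bl * N ^ 4 * (Real.exp (-2 * cT) * II c V g1 cT) := by
  have hN0 : 0 < N := by linarith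
  have hC1 := hS.C1n
  have hs0 : 0 < s := lt_of_lt_of_le (by positivity) hs
  have hsi : s⁻¹ ≤ 2 * Real.exp 1 * Real.exp (-cT) := by
    have h1 : s⁻¹ ≤ (Real.exp (cT - 1) / 2)⁻¹ := inv_anti₀ (by positivity) hs
    refine h1.trans (le_of_eq ?_)
    rw [inv_div, div_eq_mul_inv, ← Real.exp_neg, mul_assoc, ← Real.exp_add]
    congr 2
    ring
  have hI : 0 ≤ II c V g1 cT := II_nonneg h hV hp.pr.anti cT
  have e0 : cT - 3 / (4 * N) + 1 / (4 * N) ≤ cT - 1 / (2 * N) := by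
    have : 3 / (4 * N) = 1 / (2 * N) + 1 / (4 * N) := by field_simp; ring
    linarith
  have h340 : 0 < 1 / (4 * N) := by positivity
  obtain ⟨hg1, hg2⟩ := gap_ge (N := 4 * N) (by positivity) e0
  set l := cT - 3 / (4 * N) with hl
  set H' := HH c V (Real.exp (cT - 1 / (2 * N))) with hH'
  have hH0 : 0 ≤ H' := HH_nonneg h hV _
  have hHle : H' ≤ 4 * N ^ 2 / bl * (Real.exp (m * cT) * II c V g1 cT) :=
    HH_le_II h hV hp hbl hlow hN hmu
  have i1 : Integrable (fun p : Euc k × Vf_884.L k => c.tau p.1 p.2) V :=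
    hV.integrable h.cpt h.ctau
  have i3 : Integrable (fun p : Euc k × Vf_884.L k => 2 * c.f p.1) V :=
    hV.integrable h.cpt (continuousOn_const.mul (lift h.cf))
  have e1 : ∫ p in Sr c (Real.exp l), c.tau p.1 p.2 ∂V ≤
      C1 * ((Real.exp (cT - 1 / (2 * N)) - Real.exp l)⁻¹) ^ 2 * H' :=
    hS.s2 _ (Real.exp_pos _) le_rfl
  have e2 : HH c V (Real.exp l) ≤ H' := HH_mono h hV (by linarith)
  have e3 : ∫ p in Sr c (Real.exp l), (c.tau p.1 p.2 + κ * (2 * c.f p.1 / s ^ 2)) ∂V =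
      ∫ p in Sr c (Real.exp l), c.tau p.1 p.2 ∂V + κ * (s⁻¹) ^ 2 * HH c V (Real.exp l) := by
    have i4 : Integrable (fun p : Euc k × Vf_884.L k => κ * (s⁻¹) ^ 2 * (2 * c.f p.1)) V :=
      i3.const_mul _
    unfold HH
    rw [← integral_const_mul, ← integral_add i1.integrableOn i4.integrableOn]
    refine integral_congr_ae (Eventually.of_forall fun p => ?_)
    simp only
    rw [inv_pow]
    ring
  have e4 : ((Real.exp (cT - 1 / (2 * N)) - Real.exp l)⁻¹) ^ 2 ≤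
      16 * N ^ 2 * (Real.exp 2 * Real.exp (-2 * cT)) := by
    have h1 : ((Real.exp (cT - 1 / (2 * N)) - Real.exp l)⁻¹) ^ 2 ≤ (4 * N * Real.exp (-l)) ^ 2 :=
      pow_le_pow_left₀ (inv_nonneg.2 hg1.le) hg2 2
    refine h1.trans ?_
    have h2 : Real.exp (-l) ^ 2 ≤ Real.exp 2 * Real.exp (-2 * cT) := by
      rw [← Real.exp_nat_mul, ← Real.exp_add]
      refine Real.exp_le_exp.2 ?_
      have h3 : 3 / (4 * N) ≤ 1 := by rw [div_le_one (by positivity)]; linarith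
      push_cast
      linarith
    calc (4 * N * Real.exp (-l)) ^ 2 = 16 * N ^ 2 * Real.exp (-l) ^ 2 := by ring
      _ ≤ _ := by gcongr
  have e5 : (s⁻¹) ^ 2 ≤ 4 * (Real.exp 2 * Real.exp (-2 * cT)) := by
    have h1 : (s⁻¹) ^ 2 ≤ (2 * Real.exp 1 * Real.exp (-cT)) ^ 2 :=
      pow_le_pow_left₀ (by positivity) hsi 2
    refine h1.trans (le_of_eq ?_)
    have h2 : Real.exp 1 ^ 2 = Real.exp 2 := by rw [← Real.exp_nat_mul]; norm_num
    have h3 : Real.exp (-cT) ^ 2 = Real.exp (-2 * cT) := by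
      rw [← Real.exp_nat_mul]; congr 1; push_cast; ring
    rw [mul_pow, mul_pow, h2, h3]; ring
  have e6 : (s⁻¹) ^ m ≤ (2 * Real.exp 1) ^ m * Real.exp (-(m * cT)) := by
    have h1 : (s⁻¹) ^ m ≤ (2 * Real.exp 1 * Real.exp (-cT)) ^ m :=
      pow_le_pow_left₀ (by positivity) hsi m
    refine h1.trans (le_of_eq ?_)
    rw [mul_pow, ← Real.exp_nat_mul (-cT)]
    congr 2
    ring
  have hN2 : (1:ℝ) ≤ N ^ 2 := one_le_pow₀ hN
  have e7 : ∫ p in Sr c (Real.exp l), (c.tau p.1 p.2 + κ * (2 * c.f p.1 / s ^ 2)) ∂V ≤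
      (16 * C1 * Real.exp 2 + 4 * Real.exp 2) * (N ^ 2 * Real.exp (-2 * cT)) * H' := by
    rw [e3]
    have a1 : C1 * ((Real.exp (cT - 1 / (2 * N)) - Real.exp l)⁻¹) ^ 2 * H' ≤
        C1 * (16 * N ^ 2 * (Real.exp 2 * Real.exp (-2 * cT))) * H' := by gcongr
    have a2 : κ * (s⁻¹) ^ 2 * HH c V (Real.exp l) ≤
        1 * (4 * (Real.exp 2 * Real.exp (-2 * cT))) * H' := by
      refine mul_le_mul (mul_le_mul hκ1 e5 (by positivity) zero_le_one) e2 (HH_nonneg h hV _)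
        (by positivity)
    have a3 : 1 * (4 * (Real.exp 2 * Real.exp (-2 * cT))) * H' ≤
        N ^ 2 * (4 * (Real.exp 2 * Real.exp (-2 * cT))) * H' := by gcongr
    calc _ ≤ C1 * (16 * N ^ 2 * (Real.exp 2 * Real.exp (-2 * cT))) * H' +
          N ^ 2 * (4 * (Real.exp 2 * Real.exp (-2 * cT))) * H' := by linarith
      _ = _ := by ring
  have hfac : 0 ≤ (16 * C1 * Real.exp 2 + 4 * Real.exp 2) * (N ^ 2 * Real.exp (-2 * cT)) := by
    positivity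
  calc _ ≤ (s⁻¹) ^ m * ((16 * C1 * Real.exp 2 + 4 * Real.exp 2) *
        (N ^ 2 * Real.exp (-2 * cT)) * H') := mul_le_mul_of_nonneg_left e7 (by positivity)
    _ ≤ ((2 * Real.exp 1) ^ m * Real.exp (-(m * cT))) *
        ((16 * C1 * Real.exp 2 + 4 * Real.exp 2) * (N ^ 2 * Real.exp (-2 * cT)) *
          (4 * N ^ 2 / bl * (Real.exp (m * cT) * II c V g1 cT))) := by gcongr
    _ = (Real.exp (-(m * cT)) * Real.exp (m * cT)) * (Pt m C1 bl * N ^ 4 *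
        (Real.exp (-2 * cT) * II c V g1 cT)) := by unfold Pt; ring
    _ = _ := by rw [← Real.exp_add, neg_add_cancel, Real.exp_zero, one_mul]

/-- constant of `sig` -/
def Ps (m : ℕ) (B Ct C1 bl T : ℝ) : ℝ :=
  2 * B * Ct * 4 ^ (2 * m + 2) * Real.exp (m * T) * (Pt m C1 bl * Pt m C1 bl ^ (1 / (m : ℝ)))

/-- **618's `sig`** : `2 B e^((1-m) lo) sig ≤ Ps N^(2m+10) H^(1/m) I` -/
theorem sig_le (hm : 1 ≤ m) {B Ct C1 bl cT lo N s t I T ε : ℝ} (hB : 0 ≤ B) (hCt : 0 ≤ Ct)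
    (hC1 : 0 ≤ C1) (hbl : 0 < bl) (hN : 1 ≤ N) (hs0 : 0 ≤ s) (hs : s ≤ Real.exp cT) (hI : 0 ≤ I)
    (hε : ε⁻¹ ≤ 4 * N) (hε0 : 0 < ε) (hlo : lo ≤ cT) (hT : cT - lo ≤ T) (ht0 : 0 ≤ t)
    (ht : t ≤ Pt m C1 bl * N ^ 4 * (Real.exp (-2 * cT) * I)) :
    2 * B * Real.exp ((1 - m) * lo) * (Ct * (ε⁻¹) ^ (2 * m + 2) * s ^ (m + 1) *
      (t * t ^ (1 / (m : ℝ)))) ≤
      Ps m B Ct C1 bl T * N ^ (2 * m + 10) * (Real.exp (-2 * cT) * I) ^ (1 / (m : ℝ)) * I := by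
  have hN0 : 0 < N := by linarith
  set H := Real.exp (-2 * cT) * I with hH
  have hH0 : 0 ≤ H := by positivity
  have hP : 0 ≤ Pt m C1 bl := by unfold Pt; positivity
  have hm1 : (1:ℝ) ≤ m := by exact_mod_cast hm
  have hm0 : (0:ℝ) ≤ 1 / (m : ℝ) := by positivity
  have hm2 : 1 / (m : ℝ) ≤ 1 := by rw [div_le_one (by linarith)]; exact hm1
  have e1 : t ^ (1 / (m : ℝ)) ≤ Pt m C1 bl ^ (1 / (m : ℝ)) * N ^ 4 * H ^ (1 / (m : ℝ)) := by
    calc t ^ (1 / (m : ℝ)) ≤ (Pt m C1 bl * N ^ 4 * H) ^ (1 / (m : ℝ)) :=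
          Real.rpow_le_rpow ht0 ht hm0
      _ = Pt m C1 bl ^ (1 / (m : ℝ)) * (N ^ 4) ^ (1 / (m : ℝ)) * H ^ (1 / (m : ℝ)) := by
          rw [Real.mul_rpow (by positivity) hH0, Real.mul_rpow hP (by positivity)]
      _ ≤ _ := by
          gcongr
          calc (N ^ 4) ^ (1 / (m : ℝ)) ≤ (N ^ 4) ^ (1:ℝ) :=
                Real.rpow_le_rpow_of_exponent_le (one_le_pow₀ hN) hm2
            _ = N ^ 4 := Real.rpow_one _
  have e2 : t * t ^ (1 / (m : ℝ)) ≤ (Pt m C1 bl * N ^ 4 * H) *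
      (Pt m C1 bl ^ (1 / (m : ℝ)) * N ^ 4 * H ^ (1 / (m : ℝ))) :=
    mul_le_mul ht e1 (Real.rpow_nonneg ht0 _) (by positivity)
  have e3 : (ε⁻¹) ^ (2 * m + 2) ≤ 4 ^ (2 * m + 2) * N ^ (2 * m + 2) := by
    rw [← mul_pow]
    exact pow_le_pow_left₀ (by positivity) hε _
  have e4 : s ^ (m + 1) ≤ Real.exp ((m + 1) * cT) := by
    calc s ^ (m + 1) ≤ Real.exp cT ^ (m + 1) := pow_le_pow_left₀ hs0 hs _
      _ = _ := by rw [← Real.exp_nat_mul]; congr 1; push_cast; ring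
  have e5 : Real.exp ((1 - m) * lo) * Real.exp ((m + 1) * cT) * Real.exp (-2 * cT) ≤
      Real.exp (m * T) := by
    rw [← Real.exp_add, ← Real.exp_add]
    refine Real.exp_le_exp.2 ?_
    nlinarith
  have hp1 : 0 ≤ Pt m C1 bl ^ (1 / (m : ℝ)) := Real.rpow_nonneg hP _
  have hp2 : 0 ≤ H ^ (1 / (m : ℝ)) := Real.rpow_nonneg hH0 _
  calc 2 * B * Real.exp ((1 - m) * lo) * (Ct * (ε⁻¹) ^ (2 * m + 2) * s ^ (m + 1) *
        (t * t ^ (1 / (m : ℝ)))) ≤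
      2 * B * Real.exp ((1 - m) * lo) * (Ct * (4 ^ (2 * m + 2) * N ^ (2 * m + 2)) *
        Real.exp ((m + 1) * cT) * ((Pt m C1 bl * N ^ 4 * H) *
          (Pt m C1 bl ^ (1 / (m : ℝ)) * N ^ 4 * H ^ (1 / (m : ℝ))))) := by gcongr
    _ = (2 * B * Ct * 4 ^ (2 * m + 2) * (Pt m C1 bl * Pt m C1 bl ^ (1 / (m : ℝ))) *
        N ^ (2 * m + 10) * H ^ (1 / (m : ℝ)) * I) *
        (Real.exp ((1 - m) * lo) * Real.exp ((m + 1) * cT) * Real.exp (-2 * cT)) := by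
        have : N ^ (2 * m + 10) = N ^ (2 * m + 2) * N ^ 4 * N ^ 4 := by
          rw [← pow_add, ← pow_add]
        rw [this]
        nth_rewrite 1 [hH]
        ring
    _ ≤ (2 * B * Ct * 4 ^ (2 * m + 2) * (Pt m C1 bl * Pt m C1 bl ^ (1 / (m : ℝ))) *
        N ^ (2 * m + 10) * H ^ (1 / (m : ℝ)) * I) * Real.exp (m * T) := by gcongr
    _ = _ := by unfold Ps; ring

/-- exponential beats powers -/
theorem beat {P θ : ℝ} (hθ : 0 < θ) (p : ℕ) :
    ∃ L0 : ℝ, 1 ≤ L0 ∧ ∀ L, L0 ≤ L → P * (L ^ p * Real.exp (-(θ * L))) ≤ 1 := by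
  have h1 : Tendsto (fun L : ℝ => P * (L ^ p * Real.exp (-(θ * L)))) atTop (𝓝 (P * 0)) := by
    refine Tendsto.const_mul P ?_
    have h2 := (Real.tendsto_pow_mul_exp_neg_atTop_nhds_zero p).comp
      (tendsto_id.const_mul_atTop hθ)
    have h3 : Tendsto (fun L : ℝ => (θ⁻¹) ^ p * ((θ * L) ^ p * Real.exp (-(θ * L)))) atTop
        (𝓝 ((θ⁻¹) ^ p * 0)) := h2.const_mul _
    rw [mul_zero] at h3
    refine h3.congr fun L => ?_
    rw [mul_pow, ← mul_assoc, ← mul_assoc, ← mul_pow, inv_mul_cancel₀ hθ.ne', one_pow, one_mul]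
  rw [mul_zero] at h1
  obtain ⟨L0, hL0⟩ := eventually_atTop.1 (h1.eventually (ge_mem_nhds zero_lt_one))
  exact ⟨max 1 L0, le_max_left _ _, fun L hL => hL0 L ((le_max_right _ _).trans hL)⟩

/-- powers of `N ≤ A L^a` times a power of `H ≤ A e^(-L)` are below `L^(-q)` -/
theorem beat2 {P A θ : ℝ} (hP : 0 ≤ P) (hA : 0 ≤ A) (hθ : 0 < θ) (p a q : ℕ) :
    ∃ L0 : ℝ, 1 ≤ L0 ∧ ∀ L N H : ℝ, L0 ≤ L → 0 ≤ N → N ≤ A * L ^ a → 0 ≤ H →
      H ≤ A * Real.exp (-L) → P * N ^ p * H ^ θ ≤ (L ^ q)⁻¹ := by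
  obtain ⟨L0, h0, h1⟩ := beat (P := P * A ^ p * A ^ θ) hθ (a * p + q)
  refine ⟨L0, h0, fun L N H hL hN hN1 hH hH1 => ?_⟩
  have hL1 : 0 < L := by linarith
  have hb := h1 L hL
  have e1 : H ^ θ ≤ A ^ θ * Real.exp (-(θ * L)) := by
    calc H ^ θ ≤ (A * Real.exp (-L)) ^ θ := Real.rpow_le_rpow hH hH1 hθ.le
      _ = A ^ θ * Real.exp (-(θ * L)) := by
        rw [Real.mul_rpow hA (Real.exp_pos _).le, ← Real.exp_mul]
        congr 2; ring
  have e2 : N ^ p ≤ A ^ p * L ^ (a * p) := by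
    calc N ^ p ≤ (A * L ^ a) ^ p := pow_le_pow_left₀ hN hN1 p
      _ = _ := by rw [mul_pow, ← pow_mul]
  have hAθ : 0 ≤ A ^ θ := Real.rpow_nonneg hA θ
  rw [← one_div, le_div_iff₀ (by positivity)]
  calc P * N ^ p * H ^ θ * L ^ q ≤ P * (A ^ p * L ^ (a * p)) * (A ^ θ * Real.exp (-(θ * L))) *
        L ^ q := by
        have := Real.rpow_nonneg hH θ
        gcongr
    _ = P * A ^ p * A ^ θ * (L ^ (a * p + q) * Real.exp (-(θ * L))) := by rw [pow_add]; ring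
    _ ≤ 1 := hb

end Crest.Agent.R234.Ng_290
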