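import Crest.Agent.R234.Ng5_290
import Crest.Agent.R234.Gs7_685
import Crest.Agent.R234.Gi7_456

/-!
# Row 234, node F7-GL, part 6 (helper290)

**Fine heights by density** for 456's chart: a.e. point with `|c.x| ≤ e^(cT - 1/(4N))` has height
`≤ 2 e^cT (Cd N² H)^(1/(m+2))`, `H = e^(-2cT) II(cT)`.
-/

set_option autoImplicit false
set_option linter.unusedVariables false

open MeasureTheory Set Function Filter Topology Metric
open Crest.GeometryTopology.Submanifold
open Crest.Agent.R234.Vf_884 Crest.Agent.R234.Ar_870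
open Crest.Agent.R234.Main_456 (Frame Msys)
open Crest.Agent.R234.Gi_456
open Crest.Agent.R234.GL_394
open scoped ENNReal NNReal InnerProductSpace

noncomputable section

namespace Crest.Agent.R234.Ng_290

variable {m n k : ℕ} {U K : Set (Euc k)} {V : Measure (Euc k × L k)}
  {π : Euc k →L[ℝ] Euc m} {ρ : Euc k →L[ℝ] Euc n} {x z0 : Euc k} {r : ℝ} {w : Euc m → Euc n}
  {X0 : Euc m} {s t d Λ η : ℝ} {g g1 g2 : ℝ → ℝ} {B : ℝ}

/-- the height of the chart is `1`-Lipschitz in the tube -/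
theorem nu_lip (hf : Frame π ρ) (hw : Gr r w) {z z' : Euc k} (hz : z ∈ tube π ρ x r w)
    (hz' : z' ∈ tube π ρ x r w) :
    ‖(ch π ρ x r w X0).nu z‖ ≤ ‖(ch π ρ x r w X0).nu z'‖ + ‖z - z'‖ := by
  have h1 := hw.norm_nu_le (X0 := X0) hf hz (foot π ρ x r w z')
  have h2 := hw.sub_pm_foot (X0 := X0) hf hz'
  refine h1.trans ?_
  have h3 : z - pm π ρ x w (foot π ρ x r w z') = (ch π ρ x r w X0).nu z' + (z - z') := by
    rw [← h2]; abel
  rw [h3]
  exact norm_add_le _ _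

theorem two_f_nu (z : Euc k) : 2 * (ch π ρ x r w X0).f z = ‖(ch π ρ x r w X0).nu z‖ ^ 2 := by
  change 2 * (‖Bt π ρ w (foot π ρ x r w z) (yy π ρ x r w z)‖ ^ 2 / 2) =
    ‖Bt π ρ w (foot π ρ x r w z) (yy π ρ x r w z)‖ ^ 2
  ring

/-- `K` is over the `5/8`-tube -/
def Hlf (π : Euc k →L[ℝ] Euc m) (ρ : Euc k →L[ℝ] Euc n) (x : Euc k) (r : ℝ) (w : Euc m → Euc n)
    (K : Set (Euc k)) : Prop := ∀ z ∈ K, ‖ρ (z - x) - w (π (z - x))‖ ≤ 5 / 8 * r

/-- **density at one point of large height** -/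
theorem density_pt (hf : Frame π ρ) (hw : Gr r w)
    (h : Loc (ch π ρ x r w X0) U (tube π ρ x r w) K V Λ) (hm : 1 ≤ m)
    (hK : Hlf π ρ x r w K) (hz0 : z0 ∈ K) (hη : 0 < η) (hηr : 4 * η ≤ r)
    (hU : closedBall z0 η ⊆ U) (ht : ‖(ch π ρ x r w X0).x z0‖ + 65 / 32 * η ≤ Real.exp t)
    (htΛ : t ≤ Λ) (hη2 : 2 * η ≤ ‖(ch π ρ x r w X0).nu z0‖) (hTh : 1 ≤ Th m V z0) :
    ome m * η ^ (m + 2) ≤ HH (ch π ρ x r w X0) (VK V K) (Real.exp t) := by
  have hr := hw.pos
  have hWt : K ⊆ tube π ρ x r w := h.sub.trans inter_subset_left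
  have ht0 : z0 ∈ tube π ρ x r w := hWt hz0
  have hball : ∀ z ∈ ball z0 η, z ∈ tube π ρ x r w ∩ U ∧
      ‖(ch π ρ x r w X0).x z‖ ≤ Real.exp t ∧ η ≤ ‖(ch π ρ x r w X0).nu z‖ := by
    intro z hz
    have h0 : ‖z - z0‖ < η := by rwa [mem_ball, dist_eq_norm] at hz
    have h1 := Gv_685.hgt_sub_le (x := x) hf hw z z0
    have h2 := hK z0 hz0
    have h3 : z ∈ tube π ρ x r w := by
      change ‖ρ (z - x) - w (π (z - x))‖ < r
      linarith
    refine ⟨⟨h3, hU (ball_subset_closedBall hz)⟩, ?_, ?_⟩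
    · have h4 := Gv_685.norm_chx_sub (X0 := X0) hf hw h3 ht0
      have h5 : (ch π ρ x r w X0).x z = (ch π ρ x r w X0).x z0 +
        ((ch π ρ x r w X0).x z - (ch π ρ x r w X0).x z0) := by abel
      rw [h5]
      refine (norm_add_le _ _).trans ?_
      linarith
    · have h4 := nu_lip (X0 := X0) hf hw ht0 h3
      rw [norm_sub_rev] at h4
      linarith
  have hgap : ∀ᵐ p ∂V, p.1 ∈ ball z0 η → p.1 ∈ K := by
    filter_upwards [h.gap] with p hp hpb
    obtain ⟨h1, h2, -⟩ := hball _ hpb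
    exact hp h1 (h2.trans (Real.exp_le_exp.2 htΛ))
  have hmeasB : MeasurableSet (Prod.fst ⁻¹' ball z0 η : Set (Euc k × L k)) :=
    (isOpen_ball.preimage continuous_fst).measurableSet
  have hVfin : V (Prod.fst ⁻¹' ball z0 η) < ⊤ := by
    refine lt_of_le_of_lt (measure_mono ?_) (h.st.fin _ (isCompact_closedBall z0 η) hU)
    intro p hp
    exact ⟨ball_subset_closedBall hp, mem_univ _⟩
  have hmass : ome m * η ^ m ≤ V.real (Prod.fst ⁻¹' ball z0 η) := by
    have h1 := mul_le_mass h.st hm hη (ball_subset_closedBall.trans hU) hTh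
    rw [mass_apply V measurableSet_ball, one_mul] at h1
    have h3 := ENNReal.toReal_mono hVfin.ne h1
    rwa [ENNReal.toReal_ofReal (mul_nonneg (ome_pos m).le (by positivity))] at h3
  have e1 : V.restrict (Prod.fst ⁻¹' ball z0 η) =
      (VK V K).restrict (Prod.fst ⁻¹' ball z0 η) := by
    rw [GL_394.VK, Measure.restrict_restrict hmeasB]
    refine Measure.restrict_congr_set ?_
    filter_upwards [hgap] with p hp
    exact propext ⟨fun h1 => ⟨h1, hp h1, mem_univ _⟩, fun h1 => h1.1⟩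
  have hok : Ok (ch π ρ x r w X0) K univ := (hw.reg hf X0).ok h.cpt hWt
  have hOn := h.toOn
  have i0 : Integrable (fun p : Euc k × Vf_884.L k => 2 * (ch π ρ x r w X0).f p.1) (VK V K) :=
    hOn.integrable h.cpt (continuousOn_const.mul (lift hok.cf))
  have h6 : η ^ 2 * V.real (Prod.fst ⁻¹' ball z0 η) ≤
      ∫ p in Prod.fst ⁻¹' ball z0 η, 2 * (ch π ρ x r w X0).f p.1 ∂(VK V K) := by
    rw [← e1]
    have h7 : ∫ p in Prod.fst ⁻¹' ball z0 η, η ^ 2 ∂V =
        η ^ 2 * V.real (Prod.fst ⁻¹' ball z0 η) := by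
      rw [setIntegral_const, smul_eq_mul, mul_comm]
    rw [← h7]
    refine setIntegral_mono_on (integrableOn_const hVfin.ne) ?_ hmeasB fun p hp => ?_
    · have h8 := i0.integrableOn (s := Prod.fst ⁻¹' ball z0 η)
      unfold IntegrableOn at h8 ⊢
      rwa [← e1] at h8
    · rw [two_f_nu]
      exact pow_le_pow_left₀ hη.le (hball p.1 hp).2.2 2
  have h9 : ∫ p in Prod.fst ⁻¹' ball z0 η, 2 * (ch π ρ x r w X0).f p.1 ∂(VK V K) ≤
      HH (ch π ρ x r w X0) (VK V K) (Real.exp t) := by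
    unfold HH
    refine setIntegral_mono_set i0.integrableOn (Eventually.of_forall fun p => ?_)
      (LE.le.eventuallyLE fun p hp => (hball _ hp).2.1)
    simp only [two_f_nu, Pi.zero_apply]
    positivity
  calc ome m * η ^ (m + 2) = η ^ 2 * (ome m * η ^ m) := by ring
    _ ≤ η ^ 2 * V.real (Prod.fst ⁻¹' ball z0 η) := by gcongr
    _ ≤ _ := h6.trans h9

/-- the constant of the fine heights -/
def Cd (m : ℕ) (bl : ℝ) : ℝ := 64 / (bl * ome m)

/-- fine height -/
def hf1 (m : ℕ) (bl cT N H : ℝ) : ℝ := 2 * Real.exp cT * (Cd m bl * N ^ 2 * H) ^ th0 m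

theorem Cd_pos {bl : ℝ} (hbl : 0 < bl) : 0 < Cd m bl := by
  have := ome_pos m
  unfold Cd; positivity

theorem hf1_nonneg {bl cT N H : ℝ} (hbl : 0 < bl) (hH : 0 ≤ H) : 0 ≤ hf1 m bl cT N H := by
  have := Cd_pos (m := m) hbl
  unfold hf1
  have := Real.rpow_nonneg (by positivity : 0 ≤ Cd m bl * N ^ 2 * H) (th0 m)
  positivity

theorem hf1_le {bl cT N H : ℝ} (hbl : 0 < bl) (hH : 0 ≤ H) (hN : 1 ≤ N)
    (hsm : Cd m bl * N ^ 2 * H ≤ ((64 * N)⁻¹) ^ (m + 2)) :
    hf1 m bl cT N H ≤ Real.exp cT / (32 * N) := by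
  have h0 := Cd_pos (m := m) hbl
  have h1 : (Cd m bl * N ^ 2 * H) ^ th0 m ≤ (64 * N)⁻¹ := by
    calc _ ≤ (((64 * N)⁻¹) ^ (m + 2)) ^ th0 m :=
          Real.rpow_le_rpow (by positivity) hsm (th0_pos (m := m)).le
      _ = (64 * N)⁻¹ := by
        rw [← Real.rpow_natCast, ← Real.rpow_mul (by positivity)]
        unfold th0
        push_cast
        rw [mul_one_div_cancel (by positivity), Real.rpow_one]
  unfold hf1
  calc 2 * Real.exp cT * (Cd m bl * N ^ 2 * H) ^ th0 m ≤ 2 * Real.exp cT * (64 * N)⁻¹ :=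
        mul_le_mul_of_nonneg_left h1 (by positivity)
    _ = _ := by field_simp; norm_num

/-- **fine heights by density** -/
theorem fine_ae (hf : Frame π ρ) (hw : Gr r w) {cT N bl : ℝ}
    (h : Loc (ch π ρ x r w X0) U (tube π ρ x r w) K V Λ) (hm : 1 ≤ m)
    (hK : Hlf π ρ x r w K) (hcT : cT ≤ Λ) (hN : 1 ≤ N) (hr8 : Real.exp cT ≤ 8 * N * r)
    (hTh : ∀ᵐ p ∂V, p.1 ∈ U → 1 ≤ Th m V p.1)
    (hU : ∀ z ∈ K, closedBall z (Real.exp cT / (16 * N)) ⊆ U) (hp : Pf g g1 g2 B)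
    (hbl : 0 < bl) (hlow : ∀ a t, 0 ≤ t → t ≤ a → a ≤ 1 → bl * (1 - a) ^ 2 ≤ -g1 t)
    (hmu : ∀ v : Euc m, ‖v‖ ≤ Real.exp cT → 1 / 2 ≤ (ch π ρ x r w X0).mu v)
    (hsm : Cd m bl * N ^ 2 * (Real.exp (-2 * cT) * II (ch π ρ x r w X0) (VK V K) g1 cT) ≤
      ((64 * N)⁻¹) ^ (m + 2)) :
    ∀ᵐ p ∂(VK V K), ‖(ch π ρ x r w X0).x p.1‖ ≤ Real.exp (cT - 1 / (4 * N)) →
      2 * (ch π ρ x r w X0).f p.1 ≤
        hf1 m bl cT N (Real.exp (-2 * cT) * II (ch π ρ x r w X0) (VK V K) g1 cT) ^ 2 := by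
  have hN0 : 0 < N := by linarith
  have hWt : K ⊆ tube π ρ x r w := h.sub.trans inter_subset_left
  have hok : Ok (ch π ρ x r w X0) K univ := (hw.reg hf X0).ok h.cpt hWt
  have hOn := h.toOn
  have hmeasK : MeasurableSet (K ×ˢ (univ : Set (Vf_884.L k))) :=
    h.cpt.isClosed.measurableSet.prod MeasurableSet.univ
  set I := II (ch π ρ x r w X0) (VK V K) g1 cT with hI
  have hI0 : 0 ≤ I := II_nonneg hok hOn hp.pr.anti cT
  set H := Real.exp (-2 * cT) * I with hH
  have hH0 : 0 ≤ H := by positivity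
  have hC0 := Cd_pos (m := m) hbl
  have ho := ome_pos m
  -- the sharp integral
  have hHH : HH (ch π ρ x r w X0) (VK V K) (Real.exp (cT - 1 / (8 * N))) ≤
      64 * N ^ 2 / bl * (Real.exp (m * cT) * I) := by
    have h1 := HH_le_II (c := ch π ρ x r w X0) (N := 4 * N) hok hOn hp hbl hlow (by linarith) hmu
    have h2 : cT - 1 / (2 * (4 * N)) = cT - 1 / (8 * N) := by ring
    rw [h2] at h1
    refine h1.trans (le_of_eq ?_)
    ring
  have hfin := hf1_le (cT := cT) hbl hH0 hN hsm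
  have hh0 := hf1_nonneg (m := m) (cT := cT) (N := N) hbl hH0
  -- the radius
  have e0 : ∀ᵐ p ∂(VK V K), p ∈ K ×ˢ (univ : Set (Vf_884.L k)) := ae_restrict_mem hmeasK
  have e1 : ∀ᵐ p ∂(VK V K), p.1 ∈ U → 1 ≤ Th m V p.1 := ae_restrict_of_ae hTh
  filter_upwards [e0, e1] with p hp1 hT hps
  have hpU := h.sub.trans inter_subset_right hp1.1
  rw [two_f_nu]
  by_contra hcon
  push Not at hcon
  set ν := ‖(ch π ρ x r w X0).nu p.1‖ with hν
  have hν0 : 0 ≤ ν := norm_nonneg _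
  have hlt : hf1 m bl cT N H < ν := lt_of_pow_lt_pow_left₀ 2 hν0 hcon
  have hη₀ : 0 < Real.exp cT / (32 * N) := by positivity
  set η := min (ν / 2) (Real.exp cT / (32 * N)) with hηdef
  have hη1 : hf1 m bl cT N H / 2 < η := by
    refine lt_min (by linarith) ?_
    have h1 : Real.exp cT / (32 * N) / 2 < Real.exp cT / (32 * N) := by linarith
    have h2 : hf1 m bl cT N H / 2 ≤ Real.exp cT / (32 * N) / 2 := by linarith
    linarith
  have hη0 : 0 < η := lt_of_le_of_lt (by linarith) hη1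
  have hη2 : η ≤ Real.exp cT / (32 * N) := min_le_right _ _
  have hη3 : 2 * η ≤ ν := by
    have : η ≤ ν / 2 := min_le_left _ _
    linarith
  have hgap : Real.exp (cT - 1 / (4 * N)) + 65 / 32 * η ≤ Real.exp (cT - 1 / (8 * N)) := by
    have h1 : Real.exp (cT - 1 / (8 * N)) = Real.exp (cT - 1 / (4 * N)) *
        Real.exp (1 / (8 * N)) := by
      rw [← Real.exp_add]; congr 1; field_simp; ring
    have h2 : 1 + 1 / (8 * N) ≤ Real.exp (1 / (8 * N)) := by
      linarith [Real.add_one_le_exp (1 / (8 * N))]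
    have h3 : Real.exp cT * (3 / 4) ≤ Real.exp (cT - 1 / (4 * N)) := by
      have h4 : Real.exp (cT - 1 / (4 * N)) = Real.exp cT * Real.exp (-(1 / (4 * N))) := by
        rw [← Real.exp_add]; congr 1
      rw [h4]
      refine mul_le_mul_of_nonneg_left ?_ (Real.exp_pos _).le
      have h5 : 1 / (4 * N) ≤ 1 / 4 := by
        rw [div_le_div_iff₀ (by positivity) (by norm_num)]; linarith
      linarith [Real.add_one_le_exp (-(1 / (4 * N)))]
    rw [h1]
    have h6 : Real.exp (cT - 1 / (4 * N)) * (1 + 1 / (8 * N)) ≤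
        Real.exp (cT - 1 / (4 * N)) * Real.exp (1 / (8 * N)) :=
      mul_le_mul_of_nonneg_left h2 (Real.exp_pos _).le
    have h7 : 65 / 32 * η ≤ Real.exp (cT - 1 / (4 * N)) * (1 / (8 * N)) := by
      calc 65 / 32 * η ≤ 65 / 32 * (Real.exp cT / (32 * N)) := by linarith
        _ = (Real.exp cT * (65 / 128)) * (1 / (8 * N)) := by field_simp; norm_num
        _ ≤ (Real.exp cT * (3 / 4)) * (1 / (8 * N)) := by
            refine mul_le_mul_of_nonneg_right (mul_le_mul_of_nonneg_left ?_ (Real.exp_pos _).le)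
              (by positivity)
            norm_num
        _ ≤ _ := by gcongr
    linarith
  have h1 := density_pt (t := cT - 1 / (8 * N)) hf hw h hm hK hp1.1 hη0 (by
      have h2 : Real.exp cT / (32 * N) ≤ r / 4 := by
        rw [div_le_iff₀ (by positivity)]
        linarith
      linarith)
    ((closedBall_subset_closedBall (hη2.trans (by
      rw [div_le_div_iff₀ (by positivity) (by positivity)]
      have := Real.exp_pos cT
      nlinarith))).trans (hU _ hp1.1)) (by linarith) (by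
        have : 0 < 1 / (8 * N) := by positivity
        linarith) hη3 (hT hpU)
  have h2 : ome m * η ^ (m + 2) ≤ 64 * N ^ 2 / bl * (Real.exp (m * cT) * I) := h1.trans hHH
  have h3 : η ^ (m + 2) ≤ Real.exp cT ^ (m + 2) * (Cd m bl * N ^ 2 * H) := by
    have e4 : Real.exp (m * cT) * I = Real.exp cT ^ (m + 2) * H := by
      rw [hH, ← Real.exp_nat_mul, ← mul_assoc, ← Real.exp_add]
      congr 2
      push_cast; ring
    rw [e4] at h2
    have e5 : ome m * (Real.exp cT ^ (m + 2) * (Cd m bl * N ^ 2 * H)) =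
        64 * N ^ 2 / bl * (Real.exp cT ^ (m + 2) * H) := by
      unfold Cd; field_simp
    rw [← e5] at h2
    exact le_of_mul_le_mul_left h2 ho
  have h4 : η ≤ hf1 m bl cT N H / 2 := by
    have e6 : hf1 m bl cT N H / 2 = Real.exp cT * (Cd m bl * N ^ 2 * H) ^ th0 m := by
      unfold hf1; ring
    have e7 : (Real.exp cT * (Cd m bl * N ^ 2 * H) ^ th0 m) ^ (m + 2) =
        Real.exp cT ^ (m + 2) * (Cd m bl * N ^ 2 * H) := by
      rw [mul_pow]
      congr 1
      rw [← Real.rpow_natCast ((Cd m bl * N ^ 2 * H) ^ th0 m), ← Real.rpow_mul (by positivity)]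
      unfold th0
      push_cast
      rw [one_div_mul_cancel (by positivity), Real.rpow_one]
    rw [e6]
    refine le_of_pow_le_pow_left₀ (n := m + 2) (by omega) ?_ (by rw [e7]; exact h3)
    have := Real.rpow_nonneg (by positivity : 0 ≤ Cd m bl * N ^ 2 * H) (th0 m)
    positivity
  linarith

end Crest.Agent.R234.Ng_290
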