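import Crest.Agent.R234.Ng6_290
import Crest.Agent.R234.Gs9_685
import Crest.Agent.R234.GLK7_128
import Crest.Agent.R234.LowF9_471

/-!
# Row 234, node F7-GL, part 7 (helper290)

`Gl` for 456's chart on the compact `K1` of the fine heights; transfer of `StepW` back to `K`.
Minimality of the reference only on the open ball `|X - X0| < e^cT`.
-/

set_option autoImplicit false
set_option linter.unusedVariables false
set_option maxSynthPendingDepth 3

open MeasureTheory Set Function Filter Topology Metric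
open Crest.GeometryTopology.Submanifold
open Crest.Agent.R234.Vf_884 Crest.Agent.R234.Ar_870
open Crest.Agent.R234.Main_456 (Frame Msys)
open Crest.Agent.R234.Gi_456
open Crest.Agent.R234.GL_394
open scoped ENNReal NNReal InnerProductSpace

noncomputable section

namespace Crest.Agent.R234.Ng_290

section abs

variable {m k : ℕ} {c : Ch m k} {K Kt Kh W U : Set (Euc k)} {D : Set (Euc m)}
  {V : Measure (Euc k × L k)} {g g1 g2 : ℝ → ℝ} {Q c0 d0 hh C0 C1 B l : ℝ} {zN : Euc k → Euc k}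

/-- transfer of `StepW` -/
theorem stepW_congr {C₀ a b₀ δ w : ℝ} {I E e b R I' E' e' b' R' : ℝ → ℝ}
    (h : Nb_290.StepW C₀ a b₀ δ w I E e b R) (hI : ∀ l ∈ Icc a b₀, I' =ᶠ[𝓝 l] I)
    (hE : ∀ l ∈ Icc a b₀, E' =ᶠ[𝓝 l] E) (he : ∀ l ∈ Icc a b₀, e' l = e l)
    (hb : ∀ l ∈ Icc a b₀, b' l = b l) (hR : ∀ l ∈ Icc a b₀, R' l = R l) :
    Nb_290.StepW C₀ a b₀ δ w I' E' e' b' R' where
  hI l hl := by rw [(hI l hl).eq_of_nhds]; exact h.hI l hl
  he l hl := by rw [he l hl]; exact h.he l hl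
  hR l hl := by rw [hR l hl]; exact h.hR l hl
  hE l hl := by rw [(hE l hl).eq_of_nhds, he l hl, hb l hl]; exact h.hE l hl
  dI l hl := by
    obtain ⟨d, h1, h2⟩ := h.dI l hl
    refine ⟨d, h1.congr_of_eventuallyEq (hI l hl), ?_⟩
    rw [(hI l hl).eq_of_nhds, he l hl]; exact h2
  dE l hl := by
    obtain ⟨d, h1, h2⟩ := h.dE l hl
    refine ⟨d, h1.congr_of_eventuallyEq (hE l hl), ?_⟩
    rw [(hI l hl).eq_of_nhds, he l hl, hb l hl, hR l hl]; exact h2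
  hCS l hl := by
    rw [(hI l hl).eq_of_nhds, he l hl, hR l hl]; exact h.hCS l hl
  hb l hl := by rw [(hI l hl).eq_of_nhds, hb l hl]; exact h.hb l hl
  hab l hl := by
    rw [(hI l hl).eq_of_nhds, (hE l hl).eq_of_nhds, he l hl]; exact h.hab l hl

theorem Sub.stepW {L C₀ a b₀ δ w : ℝ} (h : Sub c V Kt Kh L) (hp : Pf g g1 g2 B) (hb0 : b₀ < L)
    (hs : Nb_290.StepW C₀ a b₀ δ w (II c (VK V Kh) g1) (EE c (VK V Kh) g Q) (ee c (VK V Kh) g)
      (bb c (VK V Kh) g Q) (RF c (VK V Kh) g1 B c0 d0)) :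
    Nb_290.StepW C₀ a b₀ δ w (II c (VK V Kt) g1) (EE c (VK V Kt) g Q) (ee c (VK V Kt) g)
      (bb c (VK V Kt) g Q) (RF c (VK V Kt) g1 B c0 d0) := by
  refine stepW_congr hs ?_ ?_ ?_ ?_ ?_
  · intro l hl
    filter_upwards [Iio_mem_nhds (lt_of_le_of_lt hl.2 hb0)] with l' hl'
    exact (h.II_eq' hp (le_of_lt hl')).symm
  · intro l hl
    filter_upwards [Iio_mem_nhds (lt_of_le_of_lt hl.2 hb0)] with l' hl'
    exact (h.EE_eq hp (le_of_lt hl')).symm
  · exact fun l hl => (h.ee_eq' hp (hl.2.trans hb0.le)).symm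
  · exact fun l hl => (h.bb_eq hp (hl.2.trans hb0.le)).symm
  · exact fun l hl => (h.RF_eq hp (hl.2.trans hb0.le)).symm

/-- the height functional is monotone in the compact -/
theorem II_sub_le (h : Ok c Kt D) (hV : On (VK V Kt) m Kt) (hp : Pf g g1 g2 B) (hKh : IsCompact Kh)
    (hsub : Kh ⊆ Kt) (l : ℝ) : II c (VK V Kh) g1 l ≤ II c (VK V Kt) g1 l := by
  unfold II
  refine mul_le_mul_of_nonneg_left ?_ (Real.exp_pos _).le
  have i2 : Integrable (fun p : Euc k × Vf_884.L k => (c.f p.1 * c.mu (c.x p.1)) *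
      (-4 * g1 (Real.exp (-2 * l) * ‖c.x p.1‖ ^ 2))) (VK V Kt) :=
    h.int hV h.cfmu (q := fun t => -4 * g1 t) (continuous_const.mul hp.pr.k1.continuous) l
  have hr : VK V Kh = (VK V Kt).restrict (Kh ×ˢ univ) := by
    unfold VK
    rw [Measure.restrict_restrict (hKh.isClosed.measurableSet.prod MeasurableSet.univ)]
    congr 1
    ext p
    constructor
    · exact fun hp => ⟨hp, hsub hp.1, hp.2⟩
    · exact fun hp => hp.1
  rw [hr]
  refine setIntegral_le_integral i2 ?_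
  filter_upwards [hV.mem] with p hpm
  have h1 := h.f_nonneg hpm.1
  have h2 := h.mupos _ (h.mem _ hpm.1)
  have h3 := hp.pr.anti (Real.exp (-2 * l) * ‖c.x p.1‖ ^ 2) (by positivity)
  exact mul_nonneg (mul_nonneg h1 h2.le) (by linarith)

theorem Sup.mono {cT N C1' : ℝ} (hS : Sup c V cT N C1) (hC : C1 ≤ C1')
    (hH : 0 ≤ HH c V (Real.exp (cT - 1 / (2 * N))))
    (hN : 1 ≤ N) : Sup c V cT N C1' where
  C1n := hS.C1n.trans hC
  s1 := by
    have hN0 : 0 < N := by linarith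
    have e0 : cT - 3 / (4 * N) + 1 / (4 * N) ≤ cT - 1 / (2 * N) := by
      have : 3 / (4 * N) = 1 / (2 * N) + 1 / (4 * N) := by field_simp; ring
      linarith
    obtain ⟨h1, -⟩ := gap_ge (N := 4 * N) (by positivity) e0
    filter_upwards [hS.s1] with p hp hx
    refine (hp hx).trans ?_
    have := inv_nonneg.2 h1.le
    gcongr
  s2 s hs hs1 := by
    refine (hS.s2 s hs hs1).trans ?_
    gcongr

end abs

section chart

variable {m n k : ℕ} {U K : Set (Euc k)} {V : Measure (Euc k × L k)}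
  {π : Euc k →L[ℝ] Euc m} {ρ : Euc k →L[ℝ] Euc n} {x z0 : Euc k} {r : ℝ} {w : Euc m → Euc n}
  {X0 : Euc m} {s t d Λ η : ℝ} {g g1 g2 : ℝ → ℝ} {B Q : ℝ}

/-- the constant of (S1), (S2) -/
def C1s (m : ℕ) : ℝ := 2 * (4 * m) ^ m / ome m + 128 * Gs_685.Kst ^ 2 + 4 * m

theorem C1s_nonneg (m : ℕ) : 0 ≤ C1s m := by
  have := ome_pos m
  unfold C1s; positivity

/-- the constant of the coefficients -/
def Ac (m n : ℕ) : ℝ := 4 * GLK_128.Ck m n

theorem Ac_nonneg (m n : ℕ) : 0 ≤ Ac m n := by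
  have := GLK_128.Ck_nonneg m n
  unfold Ac; positivity

/-- **the concrete data of one window** -/
structure Cd1 (U : Set (Euc k)) (V : Measure (Euc k × L k)) (K : Set (Euc k))
    (π : Euc k →L[ℝ] Euc m) (ρ : Euc k →L[ℝ] Euc n) (x : Euc k) (r : ℝ) (w : Euc m → Euc n)
    (X0 : Euc m) (Λ κ cT N : ℝ) : Prop where
  hf : Frame π ρ
  hw : Gr r w
  loc : Loc (ch π ρ x r w X0) U (tube π ρ x r w) K V Λ
  half : Hlf π ρ x r w K
  hcT : cT ≤ Λ
  hN : 1 ≤ N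
  hr : Real.exp cT ≤ r
  hTh : ∀ᵐ p ∂V, p.1 ∈ U → 1 ≤ Th m V p.1
  hU : ∀ z ∈ K, closedBall z r ⊆ U
  κ0 : 0 ≤ κ
  κ1 : κ ≤ 1 / 2
  κm : m * κ ≤ 1
  d2 : ∀ X, ‖X - X0‖ ≤ Real.exp cT → ‖fderiv ℝ (fderiv ℝ w) X‖ ≤ κ * Real.exp (-cT)
  d3 : ∀ X, ‖X - X0‖ ≤ Real.exp cT → ‖fderiv ℝ (fderiv ℝ (fderiv ℝ w)) X‖ ≤ κ * Real.exp (-2 * cT)
  mn : ∀ X, ‖X - X0‖ < Real.exp cT → Msys w X = 0

namespace Cd1

variable {κ cT N : ℝ} (h : Cd1 U V K π ρ x r w X0 Λ κ cT N)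
include h

theorem ok : Ok (ch π ρ x r w X0) K univ :=
  (h.hw.reg h.hf X0).ok h.loc.cpt (h.loc.sub.trans inter_subset_left)

theorem hy {K' : Set (Euc k)} (hK' : K' ⊆ K) {l hb : ℝ} (hl : l < cT) (h0 : 0 ≤ hb) (h1 : hb ≤ 1)
    (hnu : ∀ z ∈ K', ‖(ch π ρ x r w X0).x z‖ ≤ Real.exp l →
      ‖(ch π ρ x r w X0).nu z‖ ≤ hb * Real.exp l) :
    GLK_128.Hy π ρ x r w X0 K' l (1 / 8) (κ * Real.exp (-cT)) (κ * Real.exp (-2 * cT)) hb where
  gr := h.hw
  fr := h.hf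
  sub := (hK'.trans h.loc.sub).trans inter_subset_left
  k1 X _ := h.hw.d1 X
  k2 X hX := h.d2 X (hX.trans (Real.exp_le_exp.2 hl.le))
  k3 X hX := h.d3 X (hX.trans (Real.exp_le_exp.2 hl.le))
  k1le := by norm_num
  k2s := by
    have h2 : Real.exp (-cT) * Real.exp l ≤ 1 := by
      rw [← Real.exp_add]; exact Real.exp_le_one_iff.2 (by linarith)
    have h3 := h.κ0
    calc κ * Real.exp (-cT) * Real.exp l = κ * (Real.exp (-cT) * Real.exp l) := by ring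
      _ ≤ κ * 1 := mul_le_mul_of_nonneg_left h2 h3
      _ ≤ 1 / 2 := by linarith [h.κ1]
  hb0 := h0
  hb1 := h1
  min X hX := by
    have h2 : ‖X - X0‖ < Real.exp cT := lt_of_le_of_lt hX (Real.exp_lt_exp.2 hl)
    have h3 : Continuous fun X : Euc m => ‖X - X0‖ := (continuous_id.sub continuous_const).norm
    filter_upwards [h3.continuousAt.eventually (gt_mem_nhds h2)] with X' hX'
    exact h.mn X' hX'
  nu := hnu

theorem kb {K' : Set (Euc k)} (hK' : K' ⊆ K) (hKc : IsCompact K') {l hb : ℝ} (hl : l < cT)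
    (h0 : 0 ≤ hb) (h1 : hb ≤ 1)
    (hnu : ∀ z ∈ K', ‖(ch π ρ x r w X0).x z‖ ≤ Real.exp l →
      ‖(ch π ρ x r w X0).nu z‖ ≤ hb * Real.exp l) :
    KB (ch π ρ x r w X0) K' l (Ac m n * κ) (Ac m n * κ * hb) hb (m + 8)
      (GLK_128.zN π ρ x r w X0) := by
  have hH := h.hy hK' hl h0 h1 hnu
  have hC := GLK_128.Ck_nonneg m n
  have hκ := h.κ0
  have hκ1 := h.κ1
  have a0 : Real.exp (-cT) * Real.exp l ≤ 1 := by
    rw [← Real.exp_add]; exact Real.exp_le_one_iff.2 (by linarith)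
  have a2 : κ * Real.exp (-cT) * Real.exp l ≤ κ := by
    calc κ * Real.exp (-cT) * Real.exp l = κ * (Real.exp (-cT) * Real.exp l) := by ring
      _ ≤ κ * 1 := mul_le_mul_of_nonneg_left a0 hκ
      _ = κ := mul_one _
  have a3 : κ * Real.exp (-2 * cT) * Real.exp (2 * l) ≤ κ := by
    have : Real.exp (-2 * cT) * Real.exp (2 * l) ≤ 1 := by
      rw [← Real.exp_add]; exact Real.exp_le_one_iff.2 (by linarith)
    calc κ * Real.exp (-2 * cT) * Real.exp (2 * l) = κ * (Real.exp (-2 * cT) * Real.exp (2 * l)) := by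
          ring
      _ ≤ κ * 1 := mul_le_mul_of_nonneg_left this hκ
      _ = κ := mul_one _
  have b2 : 0 ≤ κ * Real.exp (-cT) * Real.exp l := by positivity
  have b3 : 0 ≤ κ * Real.exp (-2 * cT) * Real.exp (2 * l) := by positivity
  set A2 := κ * Real.exp (-cT) * Real.exp l
  set A3 := κ * Real.exp (-2 * cT) * Real.exp (2 * l)
  have hok' : Ok (ch π ρ x r w X0) K' univ :=
    (h.hw.reg h.hf X0).ok hKc ((hK'.trans h.loc.sub).trans inter_subset_left)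
  refine LowF9_471.KB_mono hH.kb hok' ?_ ?_ le_rfl
  · unfold GLK_128.cc Ac
    have e1 : A2 ^ 2 ≤ κ := by
      calc A2 ^ 2 = A2 * A2 := by ring
        _ ≤ κ * 1 := mul_le_mul a2 (a2.trans (by linarith)) b2 hκ
        _ = κ := mul_one _
    have e2 : A2 * A3 ≤ κ := by
      calc A2 * A3 ≤ κ * 1 := mul_le_mul a2 (a3.trans (by linarith)) b3 hκ
        _ = κ := mul_one _
    have e3 : 1 / 8 * A2 + A2 ^ 2 + A2 * A3 + 1 / 8 * A3 ≤ 4 * κ := by linarith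
    calc GLK_128.Ck m n * (1 / 8 * A2 + A2 ^ 2 + A2 * A3 + 1 / 8 * A3) ≤
          GLK_128.Ck m n * (4 * κ) := mul_le_mul_of_nonneg_left e3 hC
      _ = _ := by ring
  · unfold GLK_128.dd Ac
    have e3 : (A2 + A3) * hb ≤ (4 * κ) * hb := mul_le_mul_of_nonneg_right (by linarith) h0
    calc GLK_128.Ck m n * ((A2 + A3) * hb) ≤ GLK_128.Ck m n * ((4 * κ) * hb) :=
          mul_le_mul_of_nonneg_left e3 hC
      _ = _ := by ring

theorem tau0 : ∀ p ∈ K ×ˢ G m k, 0 ≤ (ch π ρ x r w X0).tau p.1 p.2 := by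
  intro p hp
  exact GLK_128.tau0_nonneg (frame_fr h.hf)
    (h.hw.inv (foot π ρ x r w p.1) (Y := yy π ρ x r w p.1)
      (h.hw.norm_yy_lt (h.loc.sub.trans inter_subset_left hp.1)).le) (Gv_685.pj_of_G hp.2)

theorem mu : ∀ v : Euc m, ‖v‖ ≤ Real.exp cT → 1 / 2 ≤ (ch π ρ x r w X0).mu v := by
  intro v hv
  have hr := h.hw.pos
  have b : Bs w X0 (3 * (1 / 8 * (1 / (8 * r)))) (Real.exp cT) := by
    refine ⟨?_, fun u _ => ?_⟩
    · have h1 := h.hr
      have h2 : 3 * (1 / 8 * (1 / (8 * r))) * Real.exp cT = 3 / 64 * (Real.exp cT / r) := by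
        field_simp; norm_num
      rw [h2]
      have h3 : Real.exp cT / r ≤ 1 := by rw [div_le_one hr]; exact h1
      linarith
    · have h1 := h.hw.d1 (pt w X0 u)
      have h2 := h.hw.d2 (pt w X0 u)
      have h3 : (0:ℝ) ≤ 1 / (8 * r) := by positivity
      gcongr
  have h1 := (b.all (π := π) (ρ := ρ) (x := x) h.hw hv).2.2.2.1
  linarith

theorem isOn : On (VK V K) m K := h.loc.toOn

/-- the fine heights -/
theorem fine (hm : 1 ≤ m) (hp : Pf g g1 g2 B) {bl : ℝ} (hbl : 0 < bl)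
    (hlow : ∀ a t, 0 ≤ t → t ≤ a → a ≤ 1 → bl * (1 - a) ^ 2 ≤ -g1 t)
    (hsm : Cd m bl * N ^ 2 * (Real.exp (-2 * cT) * II (ch π ρ x r w X0) (VK V K) g1 cT) ≤
      ((64 * N)⁻¹) ^ (m + 2)) :
    ∀ᵐ p ∂(VK V K), ‖(ch π ρ x r w X0).x p.1‖ ≤ Real.exp (cT - 1 / (4 * N)) →
      2 * (ch π ρ x r w X0).f p.1 ≤
        hf1 m bl cT N (Real.exp (-2 * cT) * II (ch π ρ x r w X0) (VK V K) g1 cT) ^ 2 := by
  have hN := h.hN
  have hr := h.hw.pos
  refine fine_ae h.hf h.hw h.loc hm h.half h.hcT hN ?_ h.hTh ?_ hp hbl hlow h.mu hsm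
  · have h1 := h.hr
    nlinarith
  · intro z hz
    refine (closedBall_subset_closedBall ?_).trans (h.hU z hz)
    rw [div_le_iff₀ (by positivity)]
    have h1 := h.hr
    nlinarith

end Cd1

/-- the compact of the fine heights -/
def K1 (π : Euc k →L[ℝ] Euc m) (ρ : Euc k →L[ℝ] Euc n) (x : Euc k) (r : ℝ) (w : Euc m → Euc n)
    (X0 : Euc m) (K : Set (Euc k)) (h1 cT N : ℝ) : Set (Euc k) :=
  Kc (ch π ρ x r w X0) K (h1 ^ 2) (cT - 1 / (4 * N))

namespace Cd1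

variable {κ cT N : ℝ} (h : Cd1 U V K π ρ x r w X0 Λ κ cT N)
include h

theorem loc1 {h1 : ℝ} (hae : ∀ᵐ p ∂(VK V K), ‖(ch π ρ x r w X0).x p.1‖ ≤
      Real.exp (cT - 1 / (4 * N)) → 2 * (ch π ρ x r w X0).f p.1 ≤ h1 ^ 2) :
    Loc (ch π ρ x r w X0) U (tube π ρ x r w) (K1 π ρ x r w X0 K h1 cT N) V (cT - 1 / (4 * N)) ∧
      Sub (ch π ρ x r w X0) V K (K1 π ρ x r w X0 K h1 cT N) (cT - 1 / (4 * N)) := by
  have hN := h.hN
  refine loc_Kc (h.hw.reg h.hf X0) h.loc ?_ hae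
  have : 0 < 1 / (4 * N) := by positivity
  linarith [h.hcT]

/-- **(S1), (S2) on `K1`** -/
theorem sup1 (hm : 1 ≤ m) {h1 : ℝ} (h10 : 0 ≤ h1) (h11 : h1 ≤ Real.exp cT / (32 * N))
    (hae : ∀ᵐ p ∂(VK V K), ‖(ch π ρ x r w X0).x p.1‖ ≤
      Real.exp (cT - 1 / (4 * N)) → 2 * (ch π ρ x r w X0).f p.1 ≤ h1 ^ 2) :
    Sup (ch π ρ x r w X0) (VK V (K1 π ρ x r w X0 K h1 cT N)) cT N (C1s m) := by
  have hN := h.hN
  have hN0 : 0 < N := by linarith
  have hr := h.hw.pos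
  have hm0 : (1:ℝ) ≤ m := by exact_mod_cast hm
  have hE := Real.exp_pos cT
  have hrc := h.hr
  obtain ⟨hl, hs⟩ := h.loc1 hae
  have hEN : Real.exp cT / (32 * N) ≤ Real.exp cT / 32 := by
    refine div_le_div_of_nonneg_left hE.le (by norm_num) (by linarith)
  have hKt : ∀ z ∈ K1 π ρ x r w X0 K h1 cT N, z ∈ tube π ρ x r w := fun z hz =>
    h.loc.sub.trans inter_subset_left hz.1
  have hnu : ∀ z ∈ K1 π ρ x r w X0 K h1 cT N, ‖(ch π ρ x r w X0).nu z‖ ≤ h1 := by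
    intro z hz
    have h2 := hz.2.1
    rw [two_f_nu] at h2
    exact le_of_sq_le_sq h2 h10
  have hyy : ∀ z ∈ K1 π ρ x r w X0 K h1 cT N, ‖yy π ρ x r w z‖ ≤ h1 := fun z hz =>
    (le_norm_nu (w := w) h.hf (foot π ρ x r w z) (yy π ρ x r w z)).trans (hnu z hz)
  have hK : ∀ z ∈ K1 π ρ x r w X0 K h1 cT N, ‖ρ (z - x) - w (π (z - x))‖ ≤ 2 * h1 := by
    intro z hz
    have h2 := h.hw.norm_yy_sub' (hKt z hz)
    have h3 := hyy z hz
    have h4 := h.hw.d1 (foot π ρ x r w z)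
    have h5 : ρ (z - x) - w (π (z - x)) = yy π ρ x r w z -
      (yy π ρ x r w z - (ρ (z - x) - w (π (z - x)))) := by abel
    rw [h5]
    refine (norm_sub_le _ _).trans ?_
    have h6 : ‖fderiv ℝ w (foot π ρ x r w z)‖ * ‖yy π ρ x r w z‖ ≤ 1 / 8 * h1 :=
      mul_le_mul h4 h3 (norm_nonneg _) (by norm_num)
    linarith
  have hS := Gv_685.sup_inst' (κ := κ * Real.exp (-cT)) (M := m) (h0 := 2 * h1) h.hf h.hw hl hm
    (by linarith) hK (by linarith) h.hTh hN (by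
      have : 1 / (4 * N) ≤ 1 / (2 * N) := by
        rw [div_le_div_iff₀ (by positivity) (by positivity)]; linarith
      linarith) hm0 (by nlinarith)
    (fun z hz _ => (closedBall_subset_closedBall (by
      rw [div_le_iff₀ (by positivity)]; nlinarith)).trans (h.hU z hz.1))
    (fun X hX => h.mn X (lt_of_le_of_lt hX ?_))
    (fun X hX => h.d2 X (hX.trans (Real.exp_le_exp.2 (by
      have : 0 < 1 / (2 * N) := by positivity
      linarith))))
    (fun z hz _ => ?_)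
  · refine hS.mono ?_ (HH_nonneg ((h.hw.reg h.hf X0).ok hl.cpt (hl.sub.trans inter_subset_left))
      hl.toOn _) hN
    unfold Gv_685.CS C1s
    have e1 : κ * Real.exp (-cT) * Real.exp cT = κ := by
      rw [mul_assoc, ← Real.exp_add, neg_add_cancel, Real.exp_zero, mul_one]
    rw [e1]
    have e2 : κ ^ 2 ≤ 1 := by
      have := h.κ0
      have := h.κ1
      nlinarith
    have e3 : 4 * (m:ℝ) * κ ^ 2 ≤ 4 * m * 1 := mul_le_mul_of_nonneg_left e2 (by positivity)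
    linarith
  · have e1 := one_sub_exp_ge (u := 1 / (2 * N)) (by positivity) (by
      rw [div_le_one (by positivity)]; linarith)
    have e2 : Real.exp (cT - 1 / (2 * N)) = Real.exp cT * Real.exp (-(1 / (2 * N))) := by
      rw [← Real.exp_add]; congr 1
    rw [e2]
    have e3 : Real.exp cT * Real.exp (-(1 / (2 * N))) ≤ Real.exp cT * (1 - 1 / (2 * N) / 2) :=
      mul_le_mul_of_nonneg_left (by linarith) hE.le
    have e4 : Real.exp cT * (1 - 1 / (2 * N) / 2) = Real.exp cT - 8 * (Real.exp cT / (32 * N)) := by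
      field_simp; ring
    have e5 : 0 < Real.exp cT / (32 * N) := by positivity
    linarith
  · have e1 := hyy z hz
    have e2 : 12 * (m:ℝ) * (κ * Real.exp (-cT)) * ‖yy π ρ x r w z‖ ≤
        12 * m * (κ * Real.exp (-cT)) * (Real.exp cT / 32) := by
      have := h.κ0
      exact mul_le_mul_of_nonneg_left ((e1.trans h11).trans hEN) (by positivity)
    refine e2.trans ?_
    have e3 : 12 * (m:ℝ) * (κ * Real.exp (-cT)) * (Real.exp cT / 32) =
        3 / 8 * (m * κ) * (Real.exp (-cT) * Real.exp cT) := by ring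
    rw [e3, ← Real.exp_add, neg_add_cancel, Real.exp_zero]
    linarith [h.κm]

/-- **`Gl` for 456's chart on `K1`** -/
theorem gl (hm : 1 ≤ m) {h1 Ct lo : ℝ} (h10 : 0 ≤ h1) (h11 : h1 ≤ Real.exp cT / (32 * N))
    (hae : ∀ᵐ p ∂(VK V K), ‖(ch π ρ x r w X0).x p.1‖ ≤
      Real.exp (cT - 1 / (4 * N)) → 2 * (ch π ρ x r w X0).f p.1 ≤ h1 ^ 2)
    (htv : ∃ (e2 : Measure (Euc m)) (sig : ℝ),
      TV (ch π ρ x r w X0) (VK V (K1 π ρ x r w X0 K h1 cT N)) Q ((1 + eN N / 2) * sN cT N) Ct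
        (κ / (sN cT N) ^ 2) sig e2 ∧ 0 ≤ sig ∧
      sig ≤ Ct * ((eN N)⁻¹) ^ (2 * m + 2) * (sN cT N) ^ (m + 1) *
        (tN (ch π ρ x r w X0) (VK V (K1 π ρ x r w X0 K h1 cT N)) cT N κ *
          tN (ch π ρ x r w X0) (VK V (K1 π ρ x r w X0 K h1 cT N)) cT N κ ^ (1 / (m : ℝ)))) :
    Gl (ch π ρ x r w X0) (tube π ρ x r w) univ U (K1 π ρ x r w X0 K h1 cT N) V Q (Ac m n) (m + 8)
      (C1s m) Ct κ (cT - 1 / (4 * N)) cT lo N (GLK_128.zN π ρ x r w X0) where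
  reg := h.hw.reg h.hf X0
  loc := (h.loc1 hae).1
  hcT := by
    have hN := h.hN
    have hN0 : 0 < N := by linarith
    have h2 : 1 / (4 * N) ≤ 1 / (2 * N) := by
      rw [div_le_div_iff₀ (by positivity) (by positivity)]; linarith
    exact sub_le_sub_left h2 cT
  hD := subset_univ _
  hmu := h.mu
  tau0 := fun p hp => h.tau0 p ⟨hp.1.1, hp.2⟩
  sup := h.sup1 hm h10 h11 hae
  kb := by
    intro l hl hh h0 h1 K' hK' hKc hnu
    have hN := h.hN
    refine h.kb (hK'.trans fun z hz => hz.1) hKc ?_ h0 h1 hnu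
    have hN0 : 0 < N := by linarith
    have h2 : 0 < 1 / N := by positivity
    linarith [hl.2]
  tv := htv

set_option maxHeartbeats 1000000 in
/-- **F7-GL for 456's chart** (functionals over `K`) -/
theorem stepW (hm : 1 ≤ m) {Ct lo bl T δb ωb : ℝ} (hp : Pf g g1 g2 B) (hbl : 0 < bl)
    (hlow : ∀ a t, 0 ≤ t → t ≤ a → a ≤ 1 → bl * (1 - a) ^ 2 ≤ -g1 t)
    (hlo : lo ≤ cT) (hT : cT - lo ≤ T) (hAκ : Ac m n * κ ≤ 1) (hκ1 : κ * (4 * Real.exp 2) ≤ 1)
    (hCt : 0 ≤ Ct)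
    (hsm : Cd m bl * N ^ 2 * (Real.exp (-2 * cT) * II (ch π ρ x r w X0) (VK V K) g1 cT) ≤
      ((64 * N)⁻¹) ^ (m + 2))
    (hH1 : Ph m (C1s m) bl T * N ^ (m + 2) *
      (Real.exp (-2 * cT) * II (ch π ρ x r w X0) (VK V K) g1 cT) ≤ 1)
    (hH2 : Real.exp (-2 * cT) * II (ch π ρ x r w X0) (VK V K) g1 cT ≤ 1)
    (htv : ∃ (e2 : Measure (Euc m)) (sig : ℝ),
      TV (ch π ρ x r w X0) (VK V (K1 π ρ x r w X0 K (hf1 m bl cT N (Real.exp (-2 * cT) *
          II (ch π ρ x r w X0) (VK V K) g1 cT)) cT N)) Q ((1 + eN N / 2) * sN cT N) Ct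
        (κ / (sN cT N) ^ 2) sig e2 ∧ 0 ≤ sig ∧
      sig ≤ Ct * ((eN N)⁻¹) ^ (2 * m + 2) * (sN cT N) ^ (m + 1) *
        (tN (ch π ρ x r w X0) (VK V (K1 π ρ x r w X0 K (hf1 m bl cT N (Real.exp (-2 * cT) *
          II (ch π ρ x r w X0) (VK V K) g1 cT)) cT N)) cT N κ *
          tN (ch π ρ x r w X0) (VK V (K1 π ρ x r w X0 K (hf1 m bl cT N (Real.exp (-2 * cT) *
          II (ch π ρ x r w X0) (VK V K) g1 cT)) cT N)) cT N κ ^ (1 / (m : ℝ))))
    (hδb : 0 ≤ δb) (hωb : 0 ≤ ωb)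
    (hb : ∀ l ∈ Icc lo (cT - 1 / N), bb (ch π ρ x r w X0) (VK V K) g Q l ≤
      δb * II (ch π ρ x r w X0) (VK V K) g1 l + ωb) :
    ∃ d0 : ℝ, 0 ≤ d0 ∧ d0 ≤ Ac m n * κ ∧
    Nb_290.StepW (C2 Ct B) lo (cT - 1 / N) ((Cg m B (m + 8) + C2 Ct B) * (2 * Ac m n) * κ + δb)
      (PF m (Ac m n) B (m + 8) (C1s m) bl Ct T * N ^ (2 * m + 10) *
        (Real.exp (-2 * cT) * II (ch π ρ x r w X0) (VK V K) g1 cT) ^ th0 m *
        II (ch π ρ x r w X0) (VK V K) g1 cT + ωb)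
      (II (ch π ρ x r w X0) (VK V K) g1) (EE (ch π ρ x r w X0) (VK V K) g Q)
      (ee (ch π ρ x r w X0) (VK V K) g) (bb (ch π ρ x r w X0) (VK V K) g Q)
      (RF (ch π ρ x r w X0) (VK V K) g1 B (Ac m n * κ) d0) := by
  have hN := h.hN
  have hN0 : 0 < N := by linarith
  have hB : 0 ≤ B := (hp.nn 0 le_rfl).trans (hp.b0 0 le_rfl)
  have hC1 := C1s_nonneg m
  have hA := Ac_nonneg m n
  have hκ0 := h.κ0
  set c := ch π ρ x r w X0 with hc
  set H := Real.exp (-2 * cT) * II c (VK V K) g1 cT with hHdef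
  have hI0 : 0 ≤ II c (VK V K) g1 cT := II_nonneg h.ok h.isOn hp.pr.anti cT
  have hH0 : 0 ≤ H := by positivity
  have hh0 := hf1_nonneg (m := m) (cT := cT) (N := N) hbl hH0
  have hh1 := hf1_le (cT := cT) hbl hH0 hN hsm
  have hae := h.fine hm hp hbl hlow hsm
  set h1 := hf1 m bl cT N H with hh1def
  set Kf := K1 π ρ x r w X0 K h1 cT N with hKf
  obtain ⟨hl, hs⟩ := h.loc1 hae
  have hG := h.gl hm hh0 hh1 hae htv (lo := lo)
  have hIle : II c (VK V Kf) g1 cT ≤ II c (VK V K) g1 cT :=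
    II_sub_le h.ok h.isOn hp hl.cpt (fun z hz => hz.1) cT
  have hok1 : Ok c Kf univ := (h.hw.reg h.hf X0).ok hl.cpt (hl.sub.trans inter_subset_left)
  have hI1 : 0 ≤ II c (VK V Kf) g1 cT := II_nonneg hok1 hl.toOn hp.pr.anti cT
  have hHle : Real.exp (-2 * cT) * II c (VK V Kf) g1 cT ≤ H :=
    mul_le_mul_of_nonneg_left hIle (Real.exp_pos _).le
  have hH1' : 0 ≤ Real.exp (-2 * cT) * II c (VK V Kf) g1 cT := by positivity
  have hPh : 0 ≤ Ph m (C1s m) bl T := by unfold Ph; positivity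
  have hX : Ph m (C1s m) bl T * N ^ (m + 2) * (Real.exp (-2 * cT) * II c (VK V Kf) g1 cT) ≤ 1 :=
    (mul_le_mul_of_nonneg_left hHle (by positivity)).trans hH1
  have hlt : cT - 1 / N < cT - 1 / (4 * N) := by
    have : 1 / (4 * N) < 1 / N := by
      rw [div_lt_div_iff₀ (by positivity) (by positivity)]; linarith
    linarith
  have hmain := hG.stepW (T := T) (δb := δb) (ωb := ωb) hm hp hbl hlow hN hlo hT hA (by positivity)
    hκ0 hAκ hκ1 hCt hX (hHle.trans hH2) hδb hωb (by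
      intro l hl'
      have hlL : l ≤ cT - 1 / (4 * N) := hl'.2.trans hlt.le
      rw [hs.bb_eq hp hlL, hs.II_eq' hp hlL]
      exact hb l hl')
  have h2 := hs.stepW hp hlt hmain
  refine ⟨_, ?_, ?_, h2.weaken le_rfl le_rfl ?_⟩
  · positivity
  · calc Ac m n * κ * √(Ph m (C1s m) bl T * N ^ (m + 2) * (Real.exp (-2 * cT) *
          II c (VK V Kf) g1 cT)) ≤ Ac m n * κ * 1 := by
          refine mul_le_mul_of_nonneg_left ?_ (by positivity)
          calc _ ≤ √1 := Real.sqrt_le_sqrt hX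
            _ = 1 := Real.sqrt_one
      _ = _ := mul_one _
  · have hPF : 0 ≤ PF m (Ac m n) B (m + 8) (C1s m) bl Ct T := by
      have e0 : 0 ≤ Cg m B (m + 8) := Cg_nonneg hB (by positivity)
      have e1 : 0 ≤ Pt m (C1s m) bl := by unfold Pt; positivity
      have e2 := Real.rpow_nonneg e1 (1 / (m : ℝ))
      unfold PF Pw Ps
      positivity
    have hθ := th0_pos (m := m)
    have e3 : (Real.exp (-2 * cT) * II c (VK V Kf) g1 cT) ^ th0 m ≤ H ^ th0 m :=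
      Real.rpow_le_rpow hH1' hHle hθ.le
    have e4 := Real.rpow_nonneg hH1' (th0 m)
    gcongr

end Cd1

end chart

end Crest.Agent.R234.Ng_290
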