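import Crest.Agent.R234.Ng7_290
import Crest.Agent.R234.Lk1_456
import Crest.Agent.R234.Lr2_456
import Crest.Agent.R234.Mx17_397
import Crest.Agent.R234.Stp2_518
import Crest.Agent.R234.Gs5_685
import Crest.Agent.R234.Grot8_842

/-!
# Row 234, node F7-GL, part 8 (helper290)

From 518's situation `Sit` and the class `MG` to the concrete data `Cd1` of one window.
-/

set_option autoImplicit false
set_option linter.unusedVariables false
set_option maxSynthPendingDepth 3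

open MeasureTheory Set Function Filter Topology Metric
open Crest.GeometryTopology.Submanifold
open Crest.Agent.R234.Vf_884 Crest.Agent.R234.Ar_870
open Crest.Agent.R234.Main_456 (Frame Msys)
open Crest.Agent.R234.Gi_456
open Crest.Agent.R234.GL_394
open Crest.Agent.R234.MG_570 (MG)
open Crest.Agent.R234.Stp_518
open scoped ENNReal NNReal InnerProductSpace ContDiff

noncomputable section

namespace Crest.Agent.R234.Ng_290

local notation "adj" => ContinuousLinearMap.adjoint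

section mg

variable {m n : ℕ}

theorem fderiv_cs {E F : Type*} [NormedAddCommGroup E] [NormedSpace ℝ E] [NormedAddCommGroup F]
    [NormedSpace ℝ F] (f : E → F) (t : ℝ) (x : E) :
    fderiv ℝ (fun x => f (t • x)) x = t • fderiv ℝ f (t • x) :=
  fderiv_comp_smul (f := f) (x := x) t

/-- facts about the class in physical units -/
structure MgF (m n : ℕ) (C κ R S : ℝ) (u w : Euc m → Euc n) : Prop where
  gr : Gr S w
  d1 : ∀ X, ‖fderiv ℝ w X‖ ≤ C * κ
  d2 : ∀ X, ‖fderiv ℝ (fderiv ℝ w) X‖ ≤ C * κ / S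
  d3 : ∀ X, ‖fderiv ℝ (fderiv ℝ (fderiv ℝ w)) X‖ ≤ C * κ / S ^ 2
  d0 : ∀ X, ‖w X‖ ≤ C * κ * S
  mn : ∀ X, ‖X‖ < R * S → Msys w X = 0
  der : ∀ X, fderiv ℝ w X = fderiv ℝ u (S⁻¹ • X)

theorem mg_facts (m n N : ℕ) (hN : 2 ≤ N) : ∃ C : ℝ, 1 ≤ C ∧ ∀ (κ R : ℝ) (u : Euc m → Euc n),
    MG N κ R u → 0 ≤ κ → 8 * (C * κ) ≤ 1 → ∀ S : ℝ, 0 < S →
      MgF m n C κ R S u (fun X => S • u (S⁻¹ • X)) := by
  obtain ⟨C₀, hC₀, H⟩ := Mx17_397.bdP m n N
  refine ⟨max C₀ 1, le_max_right _ _, ?_⟩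
  intro κ R u hu hκ hκ1 S hS
  obtain ⟨hcd, hb⟩ := H κ R u hu
  set C := max C₀ 1 with hC
  have hCC : C₀ * κ ≤ C * κ := mul_le_mul_of_nonneg_right (le_max_left _ _) hκ
  have hSi : 0 < S⁻¹ := inv_pos.2 hS
  have hw : (fun X => S • u (S⁻¹ • X)) = Grot_842.sc S⁻¹ u := by
    funext X; simp [Grot_842.sc]
  have h1 : ∀ y, ‖fderiv ℝ u y‖ ≤ C * κ := fun y => by
    have := hb 1 (by omega) y
    rw [norm_iteratedFDeriv_one] at this
    exact this.trans hCC
  have h2 : ∀ y, ‖fderiv ℝ (fderiv ℝ u) y‖ ≤ C * κ := fun y => by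
    have := hb 2 (by omega) y
    rw [← norm_iteratedFDeriv_fderiv, norm_iteratedFDeriv_one] at this
    exact this.trans hCC
  have h3 : ∀ y, ‖fderiv ℝ (fderiv ℝ (fderiv ℝ u)) y‖ ≤ C * κ := fun y => by
    have := hb 3 (by omega) y
    rw [← norm_iteratedFDeriv_fderiv, ← norm_iteratedFDeriv_fderiv, norm_iteratedFDeriv_one] at this
    exact this.trans hCC
  have e1 : fderiv ℝ (Grot_842.sc S⁻¹ u) = fun X => fderiv ℝ u (S⁻¹ • X) :=
    funext (Grot_842.fderiv_sc hSi.ne' u)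
  have e2 : fderiv ℝ (fderiv ℝ (Grot_842.sc S⁻¹ u)) =
      fun X => S⁻¹ • fderiv ℝ (fderiv ℝ u) (S⁻¹ • X) := by
    rw [e1]; exact funext (fderiv_cs (fderiv ℝ u) S⁻¹)
  have e3 : fderiv ℝ (fderiv ℝ (fderiv ℝ (Grot_842.sc S⁻¹ u))) =
      fun X => S⁻¹ • S⁻¹ • fderiv ℝ (fderiv ℝ (fderiv ℝ u)) (S⁻¹ • X) := by
    rw [e2]
    funext X
    have e4 : fderiv ℝ (fun X => S⁻¹ • fderiv ℝ (fderiv ℝ u) (S⁻¹ • X)) X =
        S⁻¹ • fderiv ℝ (fun X => fderiv ℝ (fderiv ℝ u) (S⁻¹ • X)) X :=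
      congrFun (fderiv_const_smul_field (R := ℝ)
        (f := fun X => fderiv ℝ (fderiv ℝ u) (S⁻¹ • X)) S⁻¹) X
    rw [e4, fderiv_cs]
  have hcd4 : ContDiff ℝ 4 u := by
    refine hcd.of_le ?_
    exact (Nat.cast_le (α := WithTop ℕ∞)).2 (show 4 ≤ N + 2 by omega)
  rw [hw]
  refine ⟨⟨hS, ?_, ?_, ?_⟩, ?_, ?_, ?_, ?_, ?_, ?_⟩
  · rw [← hw]
    exact (hcd4.comp (contDiff_const_smul _)).const_smul S
  · intro X
    rw [e1]
    exact (h1 _).trans (by linarith)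
  · intro X
    rw [e2]
    simp only [norm_smul, Real.norm_of_nonneg hSi.le]
    calc S⁻¹ * ‖fderiv ℝ (fderiv ℝ u) (S⁻¹ • X)‖ ≤ S⁻¹ * (1 / 8) := by
          refine mul_le_mul_of_nonneg_left ((h2 _).trans ?_) hSi.le
          linarith
      _ = 1 / (8 * S) := by field_simp
  · intro X
    rw [e1]
    exact h1 _
  · intro X
    rw [e2]
    simp only [norm_smul, Real.norm_of_nonneg hSi.le]
    calc S⁻¹ * ‖fderiv ℝ (fderiv ℝ u) (S⁻¹ • X)‖ ≤ S⁻¹ * (C * κ) :=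
          mul_le_mul_of_nonneg_left (h2 _) hSi.le
      _ = C * κ / S := by field_simp
  · intro X
    rw [e3]
    simp only [norm_smul, Real.norm_of_nonneg hSi.le]
    calc S⁻¹ * (S⁻¹ * ‖fderiv ℝ (fderiv ℝ (fderiv ℝ u)) (S⁻¹ • X)‖) ≤ S⁻¹ * (S⁻¹ * (C * κ)) := by
          gcongr
          exact h3 _
      _ = C * κ / S ^ 2 := by field_simp
  · intro X
    have h0 : ‖u (S⁻¹ • X)‖ ≤ C * κ := by
      have := hb 0 (by omega) (S⁻¹ • X)
      rw [norm_iteratedFDeriv_zero] at this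
      exact this.trans hCC
    rw [← hw]
    simp only [norm_smul, Real.norm_of_nonneg hS.le]
    calc S * ‖u (S⁻¹ • X)‖ ≤ S * (C * κ) := by gcongr
      _ = _ := by ring
  · intro X hX
    rw [Grot_842.Msys_sc hSi.ne']
    obtain ⟨a, -, -, -, h4⟩ := hu
    have h5 : S⁻¹ • X ∈ Metric.ball (0 : Euc m) R := by
      rw [mem_ball_zero_iff, norm_smul, Real.norm_of_nonneg hSi.le, inv_mul_lt_iff₀ hS, mul_comm]
      exact hX
    rw [h4 _ h5, smul_zero]
  · intro X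
    rw [e1]

end mg

section blk

variable {m n : ℕ}

/-- **`Cd1` of a block chart** -/
theorem cd1_of_sit {Q : ℕ} {C ε Λ cT K : ℝ} {U : Set (Euc (m + n))}
    {D : VarifoldData m (m + n)} {x : Euc (m + n)} {M : Mo m n (m + n)} (hm : 1 ≤ m)
    (h : Sit U D Q x M ε Λ) (hε : ε ≤ 1 / 8) (hC : 1 ≤ C) (hκ0 : 0 ≤ M.κ)
    (hκ1 : 8 * (C * M.κ) ≤ 1) (hκm : m * (C * M.κ) ≤ 1)
    (hF : MgF m n C M.κ (Real.exp (cT - M.lb)) M.S M.u M.w) (hK : 1 ≤ K) (hcT : cT ≤ M.lb) :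
    Cd1 U (VD D) (M.reg x) M.π M.ρ x M.S M.w 0 M.lb (C * (M.κ * Real.exp (cT - M.lb))) cT K := by
  have hS : 0 < M.S := M.S_pos
  have hf := h.pack.frame
  have hw := hF.gr
  have hE : Real.exp cT ≤ M.S := Real.exp_le_exp.2 hcT
  have hSe : M.S = Real.exp M.lb := rfl
  have hX1 : Real.exp (cT - M.lb) ≤ 1 := Real.exp_le_one_iff.2 (by linarith)
  have hXe : Real.exp (cT - M.lb) * Real.exp (-cT) = M.S⁻¹ := by
    rw [hSe, ← Real.exp_neg, ← Real.exp_add]; congr 1; ring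
  have hX0 := Real.exp_pos (cT - M.lb)
  have hw8 : ∀ X, ‖M.w X‖ ≤ M.S / 8 := fun X => (hF.d0 X).trans (by nlinarith)
  have hCκ : 0 ≤ C * M.κ := by positivity
  have hκ' : C * (M.κ * Real.exp (cT - M.lb)) ≤ C * M.κ := by
    calc C * (M.κ * Real.exp (cT - M.lb)) = C * M.κ * Real.exp (cT - M.lb) := by ring
      _ ≤ C * M.κ * 1 := mul_le_mul_of_nonneg_left hX1 hCκ
      _ = C * M.κ := mul_one _
  have hpm : ‖pm M.π M.ρ x M.w 0 - x‖ ≤ M.S / 8 := by
    have h1 : pm M.π M.ρ x M.w 0 - x = adj M.ρ (M.w 0) := by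
      rw [pm, map_zero, add_zero]; abel
    rw [h1, norm_adj_rho hf]
    exact hw8 0
  have h65 : 65 / 64 * (M.S / 2) < M.S := by linarith
  have hsubB : M.reg x ⊆ closedBall x (3 * M.S) := by
    intro z hz
    have h1 := hw.Kc_subset_closedBall hf 0 h65 (R := 2 * M.S) hz
    rw [mem_closedBall, dist_eq_norm] at h1 ⊢
    have h2 : z - x = (z - pm M.π M.ρ x M.w 0) + (pm M.π M.ρ x M.w 0 - x) := by abel
    rw [h2]
    refine (norm_add_le _ _).trans ?_
    linarith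
  have hV : Stat m (m + n) U (VD D) := stat_VD h.int h.st
  have hloc : Loc (ch M.π M.ρ x M.S M.w 0) U (tube M.π M.ρ x M.S M.w) (M.reg x) (VD D) M.lb := by
    refine hw.loc' hf hV h.opn h65 ?_ (by rw [← hSe]; linarith) ?_
    · refine (closedBall_subset_closedBall' ?_).trans h.sub
      rw [dist_eq_norm]
      linarith
    · filter_upwards [h.pack.supae] with p hp hpU hpt hpi
      rw [sub_zero] at hpi
      have h2 : ‖M.ρ (p.1 - x) - M.w (M.π (p.1 - x))‖ < M.S := hpt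
      have h3 := hw8 (M.π (p.1 - x))
      have h4 := norm_le_norm_add_norm_sub' (M.ρ (p.1 - x)) (M.w (M.π (p.1 - x)))
      have h5 := norm_le_add hf (p.1 - x)
      have h6 : p.1 ∈ ball x (4 * M.S) := by
        rw [mem_ball, dist_eq_norm]; linarith
      have h7 := hp h6
      refine (norm_sub_le _ _).trans ?_
      nlinarith
  refine
    { hf := hf, hw := hw, loc := hloc, half := ?_, hcT := hcT, hN := hK, hr := hE
      hTh := ?_, hU := ?_, κ0 := by positivity, κ1 := by linarith, κm := ?_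
      d2 := ?_, d3 := ?_, mn := ?_ }
  · intro z hz
    obtain ⟨h1, -, h2⟩ := (hw.mem_Kc hf h65).1 hz
    have h3 := hw.norm_yy_sub' h1
    have h4 := hw.d1 (foot M.π M.ρ x M.S M.w z)
    have h5 : M.ρ (z - x) - M.w (M.π (z - x)) = yy M.π M.ρ x M.S M.w z -
      (yy M.π M.ρ x M.S M.w z - (M.ρ (z - x) - M.w (M.π (z - x)))) := by abel
    rw [h5]
    refine (norm_sub_le _ _).trans ?_
    have h6 : ‖fderiv ℝ M.w (foot M.π M.ρ x M.S M.w z)‖ * ‖yy M.π M.ρ x M.S M.w z‖ ≤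
        1 / 8 * (M.S / 2) := mul_le_mul h4 h2 (norm_nonneg _) (by norm_num)
    linarith
  · filter_upwards [Gu_685.ae_one_le h.opn h.int h.st hm] with p hp hpU
    exact (hp hpU).2
  · intro z hz
    have h1 := hsubB hz
    rw [mem_closedBall] at h1
    exact (closedBall_subset_closedBall' (by linarith)).trans h.sub
  · calc (m:ℝ) * (C * (M.κ * Real.exp (cT - M.lb))) ≤ m * (C * M.κ) :=
          mul_le_mul_of_nonneg_left hκ' (Nat.cast_nonneg m)
      _ ≤ 1 := hκm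
  · intro X _
    refine (hF.d2 X).trans (le_of_eq ?_)
    rw [div_eq_mul_inv, ← hXe]; ring
  · intro X _
    refine (hF.d3 X).trans ?_
    have h1 : Real.exp (-2 * cT) = Real.exp (-cT) * Real.exp (-cT) := by
      rw [← Real.exp_add]; congr 1; ring
    rw [h1, div_eq_mul_inv, pow_two, mul_inv]
    have h2 : M.S⁻¹ ≤ Real.exp (-cT) := by
      rw [hSe, ← Real.exp_neg]; exact Real.exp_le_exp.2 (by linarith)
    calc C * M.κ * (M.S⁻¹ * M.S⁻¹) ≤ C * M.κ * (M.S⁻¹ * Real.exp (-cT)) := by gcongr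
      _ = _ := by rw [← hXe]; ring
  · intro X hX
    rw [sub_zero] at hX
    refine hF.mn X ?_
    rwa [hSe, ← Real.exp_add, sub_add_cancel]

end blk

end Crest.Agent.R234.Ng_290
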