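import Crest.Agent.R234.Ng8_290
import Crest.Agent.R234.Tv10_618
import Crest.Agent.R234.GLK9_128

/-!
# Row 234, node F7-GL, part 9 (helper290)

The total variation input on the compact of the fine heights: `KT` from 128's facts, masses from
456's `mass_reg`, 618's `tv_gl`. Section `tvm` is copied from helper534's Qp6 (change of constants
in `TV`).
-/

set_option autoImplicit false
set_option linter.unusedVariables false
set_option linter.unusedSectionVars false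
set_option maxSynthPendingDepth 3

open MeasureTheory Set Function Filter Topology Metric
open Crest.GeometryTopology.Submanifold
open Crest.Agent.R234.Vf_884 Crest.Agent.R234.Ar_870
open Crest.Agent.R234.Main_456 (Frame Msys)
open Crest.Agent.R234.Gi_456
open Crest.Agent.R234.GL_394
open Crest.Agent.R234.MG_570 (MG)
open Crest.Agent.R234.Stp_518
open Crest.Agent.R234.Tv_618 (KT Wr ttot)
open scoped ENNReal NNReal InnerProductSpace ContDiff

noncomputable section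

namespace Crest.Agent.R234.Ng_290

local notation "adj" => ContinuousLinearMap.adjoint

section kt

variable {m n k : ℕ} {π : Euc k →L[ℝ] Euc m} {ρ : Euc k →L[ℝ] Euc n} {x : Euc k} {r : ℝ}
  {w : Euc m → Euc n} {X0 : Euc m} {K : Set (Euc k)} {l K1 K2 K3 hb : ℝ}

theorem kt_of_hy (h : GLK_128.Hy π ρ x r w X0 K l K1 K2 K3 hb) {s R : ℝ} (hs : 0 < s)
    (h1 : s ≤ Real.exp l) (h2 : Real.exp l ≤ 2 * s) (hR : R ≤ Real.exp l) (hb2 : 2 * hb ≤ 1) :
    KT (ch π ρ x r w X0) K s R (GLK_128.Cn m) (GLK_128.kp m n K1 K2 K3 hb l) where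
  jb v hv := h.jb (hv.le.trans hR)
  lb v hv := by
    have h3 := h.lb (hv.le.trans hR)
    exact (mul_le_mul_of_nonneg_right h1 (norm_nonneg _)).trans h3
  t0 p hp hr := ⟨h.tau_nonneg hp, h.tau_le hp⟩
  q1 z hz hr := h.q1 hs h2 hb2 hz (hr.le.trans hR)
  an p hp hr := h.an hs h1 hp (hr.le.trans hR)
  hT p hp hr := h.hT hs h1 hp (hr.le.trans hR)
  k3 p hp hr v := h.kk3 hs h1 hp (hr.le.trans hR) v

end kt

section ktm

variable {m k : ℕ} {c : Ch m k} {K : Set (Euc k)} {s R C₀ κ κ' : ℝ}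

theorem kt_mono (h : KT c K s R C₀ κ) (hs : 0 < s) (hC : 0 ≤ C₀) (hκ : κ ≤ κ')
    (hf : ∀ z ∈ K, 0 ≤ c.f z) : KT c K s R C₀ κ' where
  jb v hv := (h.jb v hv).trans hκ
  lb v hv := (h.lb v hv).trans hκ
  t0 := h.t0
  q1 := h.q1
  an p hp hr := by
    have h1 := hf p.1 hp.1
    refine (h.an p hp hr).trans ?_
    gcongr
  hT p hp hr := by
    have h1 := hf p.1 hp.1
    refine (h.hT p hp hr).trans ?_
    gcongr
  k3 p hp hr v := by
    have h1 := hf p.1 hp.1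
    have h2 := (h.t0 p hp hr).1
    refine (h.k3 p hp hr v).trans ?_
    gcongr

end ktm

section tvm

variable {m k : ℕ} {c : Ch m k} {K : Set (Euc k)} {D : Set (Euc m)} {V : Measure (Euc k × L k)}

theorem f_nonneg (h : Ok c K D) {z : Euc k} (hz : z ∈ K) : 0 ≤ c.f z := by
  have := h.nusq z hz
  have := sq_nonneg ‖c.nu z‖
  linarith

theorem tv_mono (h : Ok c K D) (hV : On V m K)
    (htau : ∀ p ∈ K ×ˢ G m k, 0 ≤ c.tau p.1 p.2) {Q ρ C1 Ca kq sig : ℝ} {e2 : Measure (Euc m)}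
    (hCa : 1 ≤ Ca) (hC1 : 0 ≤ C1) (hkq : 0 ≤ kq) (hT : TV c V Q ρ C1 (Ca * kq) sig e2) :
    TV c V Q ρ (C1 * Ca) kq sig e2 where
  fin := hT.fin
  i := hT.i
  iii := by
    intro F Lf hF hL hF0
    refine (hT.iii F Lf hF hL hF0).trans ?_
    have cF : ContinuousOn (fun p : Euc k × L k => F (c.x p.1)) (K ×ˢ G m k) := by
      refine hL.continuous.comp_continuousOn ?_
      intro p hp
      exact ((h.hx p.1 hp.1).continuousAt.comp continuousAt_fst).continuousWithinAt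
    have cf : ContinuousOn (fun p : Euc k × L k => c.f p.1) (K ×ˢ G m k) := by
      intro p hp
      exact ((h.hf p.1 hp.1).continuousAt.comp continuousAt_fst).continuousWithinAt
    have hi : ∀ a : ℝ, Integrable (fun p : Euc k × L k =>
        F (c.x p.1) * (c.tau p.1 p.2 + a * (2 * c.f p.1))) V := fun a =>
      hV.integrable h.cpt (cF.mul (h.ctau.add (continuousOn_const.mul
        (continuousOn_const.mul cf))))
    have h1 : ∫ p, F (c.x p.1) * (c.tau p.1 p.2 + Ca * kq * (2 * c.f p.1)) ∂V ≤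
        Ca * ∫ p, F (c.x p.1) * (c.tau p.1 p.2 + kq * (2 * c.f p.1)) ∂V := by
      rw [← integral_const_mul]
      refine integral_mono_ae (hi _) ((hi _).const_mul _) ?_
      filter_upwards [hV.mem] with p hp
      have h2 := hF (c.x p.1)
      have h3 := htau p hp
      have h4 := f_nonneg h hp.1
      have h5 : c.tau p.1 p.2 ≤ Ca * c.tau p.1 p.2 := le_mul_of_one_le_left h3 hCa
      calc F (c.x p.1) * (c.tau p.1 p.2 + Ca * kq * (2 * c.f p.1)) ≤
            F (c.x p.1) * (Ca * c.tau p.1 p.2 + Ca * kq * (2 * c.f p.1)) := by gcongr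
        _ = _ := by ring
    have h6 := mul_le_mul_of_nonneg_left h1 hC1
    have h7 : C1 * (Ca * ∫ p, F (c.x p.1) * (c.tau p.1 p.2 + kq * (2 * c.f p.1)) ∂V) =
        C1 * Ca * ∫ p, F (c.x p.1) * (c.tau p.1 p.2 + kq * (2 * c.f p.1)) ∂V := by ring
    linarith

theorem TV.mono_C (h : Ok c K D) (hV : On V m K)
    (htau : ∀ p ∈ K ×ˢ G m k, 0 ≤ c.tau p.1 p.2) {Q ρ C1 C2 kq sig : ℝ} {e2 : Measure (Euc m)}
    (hC : C1 ≤ C2) (hkq : 0 ≤ kq) (hT : TV c V Q ρ C1 kq sig e2) :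
    TV c V Q ρ C2 kq sig e2 where
  fin := hT.fin
  i := hT.i
  iii := by
    intro F Lf hF hL hF0
    refine (hT.iii F Lf hF hL hF0).trans ?_
    have h1 : 0 ≤ ∫ p, F (c.x p.1) * (c.tau p.1 p.2 + kq * (2 * c.f p.1)) ∂V := by
      refine integral_nonneg_of_ae ?_
      filter_upwards [hV.mem] with p hp
      have h2 := hF (c.x p.1)
      have h3 := htau p hp
      have h4 := f_nonneg h hp.1
      show 0 ≤ F (c.x p.1) * (c.tau p.1 p.2 + kq * (2 * c.f p.1))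
      positivity
    have h2 := mul_le_mul_of_nonneg_right hC h1
    linarith

theorem tN_int (h : Ok c K D) (hV : On V m K) (a : ℝ) :
    Integrable (fun p : Euc k × L k => c.tau p.1 p.2 + a * (2 * c.f p.1)) V := by
  have cf : ContinuousOn (fun p : Euc k × L k => c.f p.1) (K ×ˢ G m k) := by
    intro p hp
    exact ((h.hf p.1 hp.1).continuousAt.comp continuousAt_fst).continuousWithinAt
  exact hV.integrable h.cpt (h.ctau.add (continuousOn_const.mul (continuousOn_const.mul cf)))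

theorem sN_pos' {cT N : ℝ} (hN : 0 ≤ N) : 0 < sN cT N := by
  unfold sN eN
  positivity

theorem tN_eq (c : Ch m k) (V : Measure (Euc k × L k)) (cT N κ : ℝ) :
    tN c V cT N κ = ((sN cT N)⁻¹) ^ m *
      ∫ p in Sr c (Real.exp (cT - 3 / (4 * N))),
        (c.tau p.1 p.2 + κ * ((sN cT N) ^ 2)⁻¹ * (2 * c.f p.1)) ∂V := by
  unfold tN
  congr 2
  funext p
  ring

theorem tN_nonneg (h : Ok c K D) (hV : On V m K)
    (htau : ∀ p ∈ K ×ˢ G m k, 0 ≤ c.tau p.1 p.2) {cT N κ : ℝ} (hN : 0 ≤ N) (hκ : 0 ≤ κ) :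
    0 ≤ tN c V cT N κ := by
  have hs := sN_pos' (cT := cT) hN
  rw [tN_eq]
  refine mul_nonneg (by positivity) ?_
  refine integral_nonneg_of_ae ?_
  filter_upwards [ae_restrict_of_ae hV.mem] with p hp
  have h3 := htau p hp
  have h4 := f_nonneg h hp.1
  show 0 ≤ c.tau p.1 p.2 + κ * ((sN cT N) ^ 2)⁻¹ * (2 * c.f p.1)
  positivity

theorem tN_mul_le (h : Ok c K D) (hV : On V m K)
    (htau : ∀ p ∈ K ×ˢ G m k, 0 ≤ c.tau p.1 p.2) {cT N κ Ca : ℝ} (hN : 0 ≤ N) (hκ : 0 ≤ κ)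
    (hCa : 1 ≤ Ca) : tN c V cT N (Ca * κ) ≤ Ca * tN c V cT N κ := by
  have hs := sN_pos' (cT := cT) hN
  rw [tN_eq, tN_eq, mul_left_comm Ca]
  refine mul_le_mul_of_nonneg_left ?_ (pow_nonneg (inv_nonneg.2 hs.le) m)
  rw [← integral_const_mul]
  refine integral_mono_ae (tN_int h hV _).integrableOn ((tN_int h hV _).integrableOn.const_mul _) ?_
  filter_upwards [ae_restrict_of_ae hV.mem] with p hp
  have h3 := htau p hp
  have h4 := f_nonneg h hp.1
  have h5 : c.tau p.1 p.2 ≤ Ca * c.tau p.1 p.2 := le_mul_of_one_le_left h3 hCa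
  calc c.tau p.1 p.2 + Ca * κ * ((sN cT N) ^ 2)⁻¹ * (2 * c.f p.1) ≤
        Ca * c.tau p.1 p.2 + Ca * κ * ((sN cT N) ^ 2)⁻¹ * (2 * c.f p.1) := by gcongr
    _ = _ := by ring

/-- the `sig` bound -/
theorem tt_le {m : ℕ} (hm : 1 ≤ m) {Ca t t' : ℝ} (hCa : 1 ≤ Ca) (ht' : 0 ≤ t')
    (htt : t' ≤ Ca * t) : t' * t' ^ (1 / (m : ℝ)) ≤ Ca ^ 2 * (t * t ^ (1 / (m : ℝ))) := by
  have hm0 : (1:ℝ) ≤ m := by exact_mod_cast hm
  have hCa0 : 0 < Ca := by linarith
  have ht : 0 ≤ t := by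
    by_contra hcon
    push Not at hcon
    have := mul_neg_of_pos_of_neg hCa0 hcon
    linarith
  have h1 : t' ^ (1 / (m : ℝ)) ≤ Ca * t ^ (1 / (m : ℝ)) := by
    calc t' ^ (1 / (m : ℝ)) ≤ (Ca * t) ^ (1 / (m : ℝ)) := by
          apply Real.rpow_le_rpow ht' htt; positivity
      _ = Ca ^ (1 / (m : ℝ)) * t ^ (1 / (m : ℝ)) := Real.mul_rpow hCa0.le ht
      _ ≤ Ca * t ^ (1 / (m : ℝ)) := by
          apply mul_le_mul_of_nonneg_right _ (Real.rpow_nonneg ht _)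
          calc Ca ^ (1 / (m : ℝ)) ≤ Ca ^ (1:ℝ) := by
                apply Real.rpow_le_rpow_of_exponent_le hCa
                rw [div_le_one (by linarith)]; exact hm0
            _ = Ca := Real.rpow_one _
  calc t' * t' ^ (1 / (m : ℝ)) ≤ (Ca * t) * (Ca * t ^ (1 / (m : ℝ))) :=
        mul_le_mul htt h1 (Real.rpow_nonneg ht' _) (by positivity)
    _ = _ := by ring

end tvm

section loc

variable {m k : ℕ} {c : Ch m k} {U W K K' : Set (Euc k)} {V : Measure (Euc k × L k)} {L : ℝ}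

theorem wr_ae {L' : ℝ} (h1 : Loc c U W K V L) (h2 : Loc c U W K' V L') {r : ℝ}
    (hr : r ≤ Real.exp L) (hr' : r ≤ Real.exp L') :
    (Wr c K r ×ˢ (univ : Set (Vf_884.L k)) : Set (Euc k × Vf_884.L k)) =ᵐ[V] (Wr c K' r ×ˢ univ) := by
  filter_upwards [h1.gap, h2.gap] with p hp hp'
  refine propext ⟨fun h => ?_, fun h => ?_⟩
  · have h3 : p.1 ∈ K ∧ ‖c.x p.1‖ < r := h.1
    exact ⟨⟨hp' (h1.sub h3.1) (h3.2.le.trans hr'), h3.2⟩, trivial⟩
  · have h3 : p.1 ∈ K' ∧ ‖c.x p.1‖ < r := h.1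
    exact ⟨⟨hp (h2.sub h3.1) (h3.2.le.trans hr), h3.2⟩, trivial⟩

end loc

section fb

variable {m n k : ℕ}

theorem fb_of_sit {Q : ℕ} {C ε Λ R : ℝ} {U : Set (Euc (m + n))}
    {D : VarifoldData m (m + n)} {x : Euc (m + n)} {M : Mo m n (m + n)}
    (h : Sit U D Q x M ε Λ) (hε0 : 0 ≤ ε) (hε : ε ≤ 1 / 16)
    (hκ1 : C * M.κ ≤ 1 / 64) (hF : MgF m n C M.κ R M.S M.u M.w) :
    Fb m U (VD D) Q x M.S M.π M.ρ M.w ε (C * M.κ) ε where
  gr := hF.gr
  fr := h.pack.frame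
  st := stat_VD h.int h.st
  sub := h.sub
  th := h.Th
  drop := h.pack.near.2.2
  sup := h.pack.supae
  ε0 := hε0
  ε1 := hε
  κ1 := hκ1
  om0 := hε0
  d1 X _ := hF.d1 X
  w0 := hF.d0 0

/-- **masses over the base balls**, any compact with `Loc` -/
theorem masses (m Q : ℕ) (hm : 1 ≤ m) (T : ℝ) (hT : 0 ≤ T) : ∃ δ : ℝ, 0 < δ ∧ δ ≤ 1 / 64 ∧
    ∀ {k n : ℕ} {U : Set (Euc k)} {V : Measure (Euc k × L k)} {x : Euc k} {S : ℝ}
      {π : Euc k →L[ℝ] Euc m} {ρ : Euc k →L[ℝ] Euc n} {w : Euc m → Euc n} {ε κ om : ℝ},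
      Fb m U V Q x S π ρ w ε κ om → IsOpen U → ε ≤ δ → κ ≤ δ → om ≤ δ →
        ∀ {K' : Set (Euc k)} {L : ℝ}, Loc (ch π ρ x S w 0) U (tube π ρ x S w) K' V L →
        ∀ s : ℝ, Real.exp (-T) * S ≤ s → s ≤ S → ∀ r : ℝ, r ≤ 2 * s → r ≤ S → r ≤ Real.exp L →
          s / 4 ≤ Real.exp L →
          V.real (Wr (ch π ρ x S w 0) K' r ×ˢ univ) ≤ (Q + 1) * (ome m * 3 ^ m) * s ^ m ∧
          |V.real (Wr (ch π ρ x S w 0) K' (1 / 4 * s) ×ˢ univ) -
            Q * volume.real (Metric.ball (0 : Euc m) (1 / 4 * s))| ≤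
            1 / 4 * volume.real (Metric.ball (0 : Euc m) (1 / 4 * s)) := by
  obtain ⟨δ, hδ, hδ1, H⟩ := mass_reg m Q hm T hT
  refine ⟨δ, hδ, hδ1, ?_⟩
  intro k n U V x S π ρ w ε κ om hFb hU h1 h2 h3 K' L hL s hs1 hs2 r hr hrS hrL hsL
  have hS := hFb.S0
  obtain ⟨a1, a2⟩ := H hFb h1 h2 h3 s hs1 hs2
  have hlocr := hFb.loc hU
  have e4 : (1:ℝ) / 4 * s = s / 4 := by ring
  have hs0 : 0 < s := lt_of_lt_of_le (by positivity) hs1
  have hfin : V (Wr (ch π ρ x S w 0) (Kr π ρ x S w) (2 * s) ×ˢ (univ : Set (Vf_884.L k))) ≠ ⊤ := by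
    have h5 := hlocr.st.fin _ hlocr.cpt (hlocr.sub.trans inter_subset_right)
    refine (lt_of_le_of_lt (measure_mono ?_) h5).ne
    exact Set.prod_mono (fun z hz => hz.1) Subset.rfl
  constructor
  · have h5 : V.real (Wr (ch π ρ x S w 0) K' r ×ˢ (univ : Set (Vf_884.L k))) =
        V.real (Wr (ch π ρ x S w 0) (Kr π ρ x S w) r ×ˢ univ) := by
      rw [measureReal_def, measureReal_def,
        measure_congr (wr_ae hL hlocr hrL (by rw [Real.exp_log hS]; exact hrS))]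
    rw [h5]
    refine le_trans ?_ a2
    refine ENNReal.toReal_mono hfin (measure_mono ?_)
    exact Set.prod_mono (fun z hz => ⟨hz.1, hz.2.trans_le hr⟩) Subset.rfl
  · have h5 : V.real (Wr (ch π ρ x S w 0) K' (s / 4) ×ˢ (univ : Set (Vf_884.L k))) =
        V.real (Wr (ch π ρ x S w 0) (Kr π ρ x S w) (s / 4) ×ˢ univ) := by
      rw [measureReal_def, measureReal_def,
        measure_congr (wr_ae hL hlocr hsL (by rw [Real.exp_log hS]; linarith))]
    rw [e4, h5]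
    refine a1.trans (le_of_eq (by ring))

end fb

section tvk

/-- constant of 128's small parameter -/
def Ca (m n : ℕ) : ℝ := 6 * GLK_128.Ct m n

theorem one_le_Ca (m n : ℕ) : 1 ≤ Ca m n := by
  unfold Ca GLK_128.Ct
  have h1 : 1 ≤ Real.exp m := Real.one_le_exp (Nat.cast_nonneg m)
  have h2 : (0 : ℝ) ≤ m := Nat.cast_nonneg m
  have h3 : (0 : ℝ) ≤ n := Nat.cast_nonneg n
  nlinarith

theorem Cn_nonneg (m : ℕ) : 0 ≤ GLK_128.Cn m := by
  unfold GLK_128.Cn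
  have := GLK_128.Cj_nonneg m
  have h2 : (0 : ℝ) ≤ m := Nat.cast_nonneg m
  linarith

variable {m n k : ℕ} {U : Set (Euc k)} {V : Measure (Euc k × L k)} {K : Set (Euc k)}
  {π : Euc k →L[ℝ] Euc m} {ρ : Euc k →L[ℝ] Euc n} {x : Euc k} {r : ℝ} {w : Euc m → Euc n}
  {X0 : Euc m} {Lv : ℝ}

/-- `KT` on a part of `K` with small heights -/
theorem Cd1.kt {κ cT N : ℝ} (h : Cd1 U V K π ρ x r w X0 Lv κ cT N) {K' : Set (Euc k)}
    (hK' : K' ⊆ K) {l s R hb : ℝ} (hl : l < cT) (hs : 0 < s) (h1 : s ≤ Real.exp l)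
    (h2 : Real.exp l ≤ 2 * s) (hR : R ≤ Real.exp l) (hb0 : 0 ≤ hb) (hb2 : 2 * hb ≤ 1)
    (hnu : ∀ z ∈ K', ‖(ch π ρ x r w X0).x z‖ ≤ Real.exp l →
      ‖(ch π ρ x r w X0).nu z‖ ≤ hb * Real.exp l) :
    KT (ch π ρ x r w X0) K' s R (GLK_128.Cn m) (Ca m n * κ) := by
  have hy := h.hy hK' hl hb0 (by linarith) hnu
  refine kt_mono (kt_of_hy hy hs h1 h2 hR hb2) hs (Cn_nonneg m) ?_ ?_
  · refine hy.kp_le.trans ?_
    have e1 : Real.exp (-cT) * Real.exp l ≤ 1 := by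
      rw [← Real.exp_add]; exact Real.exp_le_one_iff.2 (by linarith)
    have e2 : Real.exp (-2 * cT) * Real.exp (2 * l) ≤ 1 := by
      rw [← Real.exp_add]; exact Real.exp_le_one_iff.2 (by linarith)
    have e3 : κ * Real.exp (-cT) * Real.exp l + κ * Real.exp (-2 * cT) * Real.exp (2 * l) ≤ 2 * κ := by
      have := h.κ0
      nlinarith
    have e4 := GLK_128.Ct_pos m n
    unfold Ca
    nlinarith
  · intro z hz
    exact f_nonneg h.ok (hK' hz)

/-- **the total variation input on the compact of the fine heights** -/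
theorem exists_tv (m n Q : ℕ) (hm : 1 ≤ m) {Λ : ℝ} (hΛ : 0 ≤ Λ) : ∃ κ₀ : ℝ, 0 < κ₀ ∧
    ∃ Ct : ℝ, 0 ≤ Ct ∧ ∀ {k : ℕ} {U : Set (Euc k)} {D : VarifoldData m k} {K : Set (Euc k)}
      {π : Euc k →L[ℝ] Euc m} {ρ : Euc k →L[ℝ] Euc n} {x : Euc k} {r : ℝ} {w : Euc m → Euc n}
      {X0 : Euc m} {Lv κ cT N h1 : ℝ}, Cd1 U (VD D) K π ρ x r w X0 Lv κ cT N →
      IsIntegralVarifoldIn U D → κ ≤ κ₀ → 0 ≤ h1 → h1 ≤ Real.exp cT / (32 * N) →
      (∀ᵐ p ∂(VK (VD D) K), ‖(ch π ρ x r w X0).x p.1‖ ≤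
        Real.exp (cT - 1 / (4 * N)) → 2 * (ch π ρ x r w X0).f p.1 ≤ h1 ^ 2) →
      (VD D).real (Wr (ch π ρ x r w X0) (K1 π ρ x r w X0 K h1 cT N)
        ((1 + eN N) * sN cT N) ×ˢ univ) ≤ Λ * sN cT N ^ m →
      |(VD D).real (Wr (ch π ρ x r w X0) (K1 π ρ x r w X0 K h1 cT N) (1 / 4 * sN cT N) ×ˢ univ) -
          Q * volume.real (ball (0 : Euc m) (1 / 4 * sN cT N))| ≤
        1 / 4 * volume.real (ball (0 : Euc m) (1 / 4 * sN cT N)) →
      ∃ (e2 : Measure (Euc m)) (sig : ℝ),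
        TV (ch π ρ x r w X0) (VK (VD D) (K1 π ρ x r w X0 K h1 cT N)) Q
          ((1 + eN N / 2) * sN cT N) Ct (κ / (sN cT N) ^ 2) sig e2 ∧ 0 ≤ sig ∧
        sig ≤ Ct * ((eN N)⁻¹) ^ (2 * m + 2) * (sN cT N) ^ (m + 1) *
          (tN (ch π ρ x r w X0) (VK (VD D) (K1 π ρ x r w X0 K h1 cT N)) cT N κ *
            tN (ch π ρ x r w X0) (VK (VD D) (K1 π ρ x r w X0 K h1 cT N)) cT N κ ^ (1 / (m : ℝ))) := by
  obtain ⟨κ₁, hκ₁, C1, hC1, Ct, hCt, H⟩ := Tv_618.tv_gl (by omega : 0 < m) Q (Cn_nonneg m) hΛ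
  have hCa := one_le_Ca m n
  have hCa0 : 0 < Ca m n := by linarith
  refine ⟨κ₁ / Ca m n, by positivity, C1 * Ca m n + Ct * Ca m n ^ 2, by positivity, ?_⟩
  intro k U D K π ρ x r w X0 Lv κ cT N h1 h hint hκ h10 h11 hae hm1 hm2
  have hN := h.hN
  have hN0 : 0 < N := by linarith
  have hE := Real.exp_pos cT
  obtain ⟨hl, hsub⟩ := h.loc1 hae
  set c := ch π ρ x r w X0 with hc
  set Kf := K1 π ρ x r w X0 K h1 cT N with hKf
  have hs := sN_pos hN (cT := cT)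
  have he0 := eN_pos hN
  have he1 := eN_le hN
  have hsm := sN_mul hN (cT := cT)
  have hR : Reg c (tube π ρ x r w) univ := h.hw.reg h.hf X0
  have hKK : Kf ⊆ K := fun z hz => hz.1
  have hokf : Ok c Kf univ := hR.ok hl.cpt (hl.sub.trans inter_subset_left)
  have hkap : Ca m n * κ ≤ κ₁ := by
    rw [mul_comm]; exact (le_div_iff₀ hCa0).1 hκ
  have h34 : cT - 3 / (4 * N) < cT := by
    have : 0 < 3 / (4 * N) := by positivity
    linarith
  have hse : Real.exp (cT - 3 / (4 * N)) ≤ 2 * sN cT N := by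
    rw [← hsm]; nlinarith
  have hse' : sN cT N ≤ Real.exp (cT - 3 / (4 * N)) := by
    rw [← hsm]; nlinarith
  have hEs : Real.exp cT ≤ 8 * sN cT N := by
    have h3 := sN_ge hN (cT := cT)
    rw [Real.exp_sub] at h3
    have h4 := Real.exp_one_lt_d9
    have h5 : Real.exp cT / Real.exp 1 / 2 * (2 * Real.exp 1) = Real.exp cT := by
      field_simp
    have h6 : Real.exp cT / Real.exp 1 / 2 * (2 * Real.exp 1) ≤ sN cT N * (2 * Real.exp 1) :=
      mul_le_mul_of_nonneg_right h3 (by positivity)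
    nlinarith
  have hkt : KT c Kf (sN cT N) ((1 + eN N) * sN cT N) (GLK_128.Cn m) (Ca m n * κ) := by
    refine h.kt hKK (hb := 1 / 2) h34 hs hse' hse hsm.le (by norm_num) (by norm_num) ?_
    intro z hz hz2
    have h3 : ‖c.nu z‖ ^ 2 ≤ h1 ^ 2 := by
      have h4 := hokf.nusq z hz
      rw [h4]; exact hz.2.1
    have h4 : ‖c.nu z‖ ≤ h1 := (pow_le_pow_iff_left₀ (norm_nonneg _) h10 two_ne_zero).1 h3
    refine h4.trans (h11.trans ?_)
    have h5 : Real.exp cT / (32 * N) ≤ Real.exp cT / 32 :=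
      div_le_div_of_nonneg_left hE.le (by norm_num) (by linarith)
    linarith
  have hlv : (1 + eN N) * sN cT N ≤ Real.exp (cT - 1 / (4 * N)) := by
    rw [hsm]
    refine Real.exp_le_exp.2 ?_
    have : 1 / (4 * N) ≤ 3 / (4 * N) := by gcongr; norm_num
    linarith
  obtain ⟨e2, hT, -⟩ := H (eN N) he0 (by linarith) (Ca m n * κ) (mul_nonneg hCa0.le h.κ0) hkap
    hs hint hR hl hlv (subset_univ _) hkt hm1 hm2
  have htau : ∀ p ∈ Kf ×ˢ G m k, 0 ≤ c.tau p.1 p.2 := fun p hp => h.tau0 p ⟨hKK hp.1, hp.2⟩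
  have hV := hl.toOn
  have hN0' : (0:ℝ) ≤ N := hN0.le
  -- `ttot ≤ tN`
  have hKm : MeasurableSet (Kf ×ˢ (univ : Set (Vf_884.L k))) :=
    (hl.cpt.isClosed.prod isClosed_univ).measurableSet
  have hKap : 0 ≤ Ca m n * κ := mul_nonneg hCa0.le h.κ0
  have hpos : ∀ p ∈ Kf ×ˢ G m k,
      0 ≤ c.tau p.1 p.2 + Ca m n * κ * (2 * c.f p.1 / sN cT N ^ 2) := fun p hp => by
    have h3 := htau p hp
    have h4 := f_nonneg hokf hp.1
    positivity
  have hint1 : Integrable (fun p : Euc k × Vf_884.L k =>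
      c.tau p.1 p.2 + Ca m n * κ * (2 * c.f p.1 / sN cT N ^ 2)) (VK (VD D) Kf) := by
    refine (tN_int hokf hV (Ca m n * κ * (sN cT N ^ 2)⁻¹)).congr (Eventually.of_forall fun p => ?_)
    show c.tau p.1 p.2 + Ca m n * κ * (sN cT N ^ 2)⁻¹ * (2 * c.f p.1) = _
    ring
  have ht1 : ttot c (VD D) Kf (Ca m n * κ) (sN cT N) (1 + eN N) ≤
      tN c (VK (VD D) Kf) cT N (Ca m n * κ) := by
    unfold ttot tN
    rw [inv_pow]
    refine mul_le_mul_of_nonneg_left ?_ (by positivity)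
    have e1 : (VK (VD D) Kf).restrict (Sr c (Real.exp (cT - 3 / (4 * N)))) =
        (VD D).restrict (Sr c (Real.exp (cT - 3 / (4 * N))) ∩ Kf ×ˢ univ) := by
      unfold VK
      rw [Measure.restrict_restrict' hKm]
    rw [e1]
    refine setIntegral_mono_set ?_ ?_ ?_
    · exact IntegrableOn.mono_set (t := Kf ×ˢ univ) hint1 inter_subset_right
    · have h5 := ae_restrict_of_ae_restrict_of_subset (μ := VD D)
        (inter_subset_right : Sr c (Real.exp (cT - 3 / (4 * N))) ∩ Kf ×ˢ univ ⊆ Kf ×ˢ univ) hV.mem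
      filter_upwards [h5] with p hp
      exact hpos p hp
    · refine Eventually.of_forall fun p hp => ?_
      rw [hsm] at hp
      have h6 : p.1 ∈ Kf ∧ ‖c.x p.1‖ < Real.exp (cT - 3 / (4 * N)) := hp.1
      exact ⟨h6.2.le, h6.1, trivial⟩
  have ht0 : 0 ≤ ttot c (VD D) Kf (Ca m n * κ) (sN cT N) (1 + eN N) := by
    unfold ttot
    refine mul_nonneg (by positivity) (integral_nonneg_of_ae ?_)
    have h5 := ae_restrict_of_ae_restrict_of_subset (μ := VD D)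
      (Set.prod_mono (fun z hz => hz.1) Subset.rfl :
        Wr c Kf ((1 + eN N) * sN cT N) ×ˢ (univ : Set (Vf_884.L k)) ⊆ Kf ×ˢ univ) hV.mem
    filter_upwards [h5] with p hp
    exact hpos p hp
  have ht2 := ht1.trans (tN_mul_le hokf hV htau hN0' h.κ0 hCa)
  have ht3 := tt_le hm hCa ht0 ht2
  have hmm : (0:ℝ) ≤ C1 * Ca m n := by positivity
  have hkq : 0 ≤ κ / sN cT N ^ 2 := div_nonneg h.κ0 (by positivity)
  refine ⟨e2, Ct * (sN cT N ^ (m + 1) * (ttot c (VD D) Kf (Ca m n * κ) (sN cT N) (1 + eN N) *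
              ttot c (VD D) Kf (Ca m n * κ) (sN cT N) (1 + eN N) ^ (1 / (m : ℝ)))) /
            eN N ^ (2 * m + 2),
    TV.mono_C hokf hV htau (by nlinarith [mul_nonneg hCt (sq_nonneg (Ca m n))])
    hkq (tv_mono hokf hV htau hCa hC1 hkq ?_), ?_, ?_⟩
  · rw [← mul_div_assoc]; exact hT
  · exact div_nonneg (mul_nonneg hCt (mul_nonneg (pow_nonneg hs.le _)
      (mul_nonneg ht0 (Real.rpow_nonneg ht0 _)))) (pow_nonneg he0.le _)
  · have hsp := hs.le
    have hb1 : 0 ≤ tN c (VK (VD D) Kf) cT N κ * tN c (VK (VD D) Kf) cT N κ ^ (1 / (m : ℝ)) := by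
      have := tN_nonneg hokf hV htau hN0' h.κ0 (cT := cT)
      positivity
    calc Ct * (sN cT N ^ (m + 1) * (ttot c (VD D) Kf (Ca m n * κ) (sN cT N) (1 + eN N) *
              ttot c (VD D) Kf (Ca m n * κ) (sN cT N) (1 + eN N) ^ (1 / (m : ℝ)))) /
            eN N ^ (2 * m + 2) ≤ Ct * (sN cT N ^ (m + 1) * (Ca m n ^ 2 *
              (tN c (VK (VD D) Kf) cT N κ * tN c (VK (VD D) Kf) cT N κ ^ (1 / (m : ℝ))))) /
            eN N ^ (2 * m + 2) := by gcongr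
      _ = (Ct * Ca m n ^ 2) * ((eN N)⁻¹ ^ (2 * m + 2) * sN cT N ^ (m + 1) *
          (tN c (VK (VD D) Kf) cT N κ * tN c (VK (VD D) Kf) cT N κ ^ (1 / (m : ℝ)))) := by
          rw [inv_pow, div_eq_mul_inv]; ring
      _ ≤ (C1 * Ca m n + Ct * Ca m n ^ 2) * ((eN N)⁻¹ ^ (2 * m + 2) * sN cT N ^ (m + 1) *
          (tN c (VK (VD D) Kf) cT N κ * tN c (VK (VD D) Kf) cT N κ ^ (1 / (m : ℝ)))) := by
          refine mul_le_mul_of_nonneg_right (by linarith) ?_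
          have := eN_pos hN
          exact mul_nonneg (by positivity) hb1
      _ = _ := by ring

end tvk

end Crest.Agent.R234.Ng_290
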