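import Crest.Agent.R234.We12_822
import Crest.Agent.R234.Shp5_98

/-!
Row 234 (helper822), WELL half of `HLoc` (N7-AV): at an averaged centre, `eea - eFa` is small, i.e.
`eea ≤ Fm + av f2 + (1 + BB) K M e^{(2-m) l} w`, from `IFw (l+1) ≤ c1 q²` and N5 (small projection
⇒ small energy) on `closedBall x (e^{l+1})`.
-/

set_option autoImplicit false

open MeasureTheory Set Function Filter Topology
open Crest.GeometryTopology.Submanifold
open Crest.Agent.R234.Vf_884 Crest.Agent.R234.Ar_870 Crest.Agent.R234.Cy_870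
open Crest.Agent.R234.Wi_870 Crest.Agent.R234.Asl_214 Crest.Agent.R234.Avg_387
open Crest.Agent.R234.Shp_98
open scoped ENNReal NNReal InnerProductSpace

noncomputable section

namespace Crest.Agent.R234.We_822

variable {m : ℕ} {g g1 g2 : ℝ → ℝ} {K : ℝ}

theorem exp_neg_two_le' : Real.exp (-2 * 1) ≤ 1 / 4 := by
  have h2 : Real.exp (-2 * 1) = 1 / Real.exp 1 ^ 2 := by
    rw [one_div, ← Real.exp_nat_mul, ← Real.exp_neg]
    congr 1
    push_cast
    ring
  rw [h2]
  have := Real.exp_one_gt_d9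
  exact one_div_le_one_div_of_le (by norm_num) (by nlinarith)

section one

variable {n k : ℕ} {π : Euc k →L[ℝ] Euc m} {κ : Euc k →L[ℝ] Euc n} {x x₀ : Euc m}
  {W : Measure (Euc k × L k)} {R h₀ δ τ : ℝ} {dw : Euc m → ℝ}

/-- closed solid cylinders and `MB` -/
theorem muR_le_MB (h : CylAS W π κ x₀ R h₀ δ) (x : Euc m) {l r : ℝ}
    (hr : Real.exp l < r) : muR W π κ x l ≤ MB W π x r := by
  have : IsFiniteMeasure W := ⟨h.fin⟩
  have hcm : MeasurableSet (Well_761.cyl x (Real.exp l) (univ : Set (Euc n))) :=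
    Metric.isClosed_closedBall.measurableSet.prod MeasurableSet.univ
  unfold muR muOf MB
  rw [Measure.map_apply (measurable_bh π κ) hcm]
  refine ENNReal.toReal_mono (measure_ne_top _ _) (measure_mono ?_)
  intro p hp
  have h1 : ‖π p.1 - x‖ ≤ Real.exp l := by
    have := hp.1
    rwa [Metric.mem_closedBall, bh, dist_eq_norm] at this
  exact lt_of_le_of_lt h1 hr

/-- lower mass bound at the points of the support, one radius -/
theorem lower_TT' (hs : Split π κ) {c0 r : ℝ} (hr : 0 < r)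
    (hlow : ∀ᵐ p ∂W, ‖π p.1 - x₀‖ + r ≤ R →
      ENNReal.ofReal (c0 * r ^ m) ≤ W (Metric.closedBall p.1 r ×ˢ univ))
    {x : Euc m} {y : Euc n} (hxy : (x, y) ∈ TT W π κ) (hdom : dist x x₀ + 2 * r ≤ R) :
    ENNReal.ofReal (c0 * r ^ m) ≤
      muOf W π κ (Well_761.cyl x (2 * r) (Metric.closedBall y (2 * r))) := by
  have hpos : 0 < muOf W π κ (Metric.ball (x, y) r) :=
    (Measure.mem_support_iff_forall _).1 hxy _ (Metric.ball_mem_nhds _ hr)
  have hmap : muOf W π κ (Metric.ball (x, y) r) = W (bh π κ ⁻¹' Metric.ball (x, y) r) := by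
    unfold muOf
    rw [Measure.map_apply (measurable_bh π κ) Metric.isOpen_ball.measurableSet]
  rw [hmap] at hpos
  obtain ⟨p, hp, hpl⟩ : ∃ p, p ∈ bh π κ ⁻¹' Metric.ball (x, y) r ∧
      (‖π p.1 - x₀‖ + r ≤ R →
        ENNReal.ofReal (c0 * r ^ m) ≤ W (Metric.closedBall p.1 r ×ˢ univ)) := by
    by_contra hcon
    push Not at hcon
    have h0 : W (bh π κ ⁻¹' Metric.ball (x, y) r) = 0 := by
      refine measure_mono_null ?_ (ae_iff.1 hlow)
      intro p hp
      obtain ⟨h2, h3⟩ := hcon p hp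
      intro hcon2
      exact absurd (hcon2 h2) (not_le.2 h3)
    rw [h0] at hpos
    exact lt_irrefl _ hpos
  have hp' : dist (π p.1) x < r ∧ dist (κ p.1) y < r := by
    have h1 : dist (bh π κ p) (x, y) < r := hp
    rw [Prod.dist_eq, max_lt_iff] at h1
    exact h1
  have hd : ‖π p.1 - x₀‖ + r ≤ R := by
    have h1 : dist (π p.1) x₀ ≤ dist (π p.1) x + dist x x₀ := dist_triangle _ _ _
    rw [← dist_eq_norm]
    linarith [hp'.1]
  refine (hpl hd).trans ?_
  have hcm : MeasurableSet (Well_761.cyl x (2 * r) (Metric.closedBall y (2 * r))) :=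
    Metric.isClosed_closedBall.measurableSet.prod Metric.isClosed_closedBall.measurableSet
  unfold muOf
  rw [Measure.map_apply (measurable_bh π κ) hcm]
  refine measure_mono ?_
  rintro q ⟨hq, -⟩
  rw [Metric.mem_closedBall, dist_eq_norm] at hq
  have hn := hs.norm_sq (q.1 - p.1)
  have hq2 : ‖q.1 - p.1‖ ^ 2 ≤ r ^ 2 := pow_le_pow_left₀ (norm_nonneg _) hq 2
  have h1 : ‖π (q.1 - p.1)‖ ≤ r :=
    (sq_le_sq₀ (norm_nonneg _) hr.le).1 (by nlinarith [sq_nonneg ‖κ (q.1 - p.1)‖])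
  have h2 : ‖κ (q.1 - p.1)‖ ≤ r :=
    (sq_le_sq₀ (norm_nonneg _) hr.le).1 (by nlinarith [sq_nonneg ‖π (q.1 - p.1)‖])
  rw [map_sub, ← dist_eq_norm] at h1 h2
  refine ⟨?_, ?_⟩
  · rw [Metric.mem_closedBall]
    have := dist_triangle (π q.1) (π p.1) x
    change dist (π q.1) x ≤ 2 * r
    linarith [hp'.1]
  · rw [Metric.mem_closedBall]
    have := dist_triangle (κ q.1) (κ p.1) y
    change dist (κ q.1) y ≤ 2 * r
    linarith [hp'.2]

end one

/-- **WELL HALF OF HLoc** (N7-AV): energy at an averaged centre is the energy of the wells, up to a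
small error -/
theorem well_half {d : ℕ} (hdm : d + 2 = m) (hg : Prof g g1 g2) (hg0 : ∀ t, 0 ≤ t → 0 ≤ g t)
    (hK : Bd g g1 K) (hK' : Bd g1 g2 K) {c : ℝ} (hc : 0 < c)
    (hgc : ∀ t, 0 ≤ t → t ≤ 1 / 4 → c ≤ g t) {Kκ cκ : ℝ}
    (hκ : Well_761.Ker (kap g1) Kκ cκ) {c0 C1 M : ℝ} (hc0 : 0 < c0) (hC1 : 0 ≤ C1) (hM : 0 < M) :
    ∃ cs c1 cG : ℝ, 0 < cs ∧ 0 < c1 ∧ 0 < cG ∧
    ∀ {n k : ℕ} {π : Euc k →L[ℝ] Euc m} {κ : Euc k →L[ℝ] Euc n} {x x₀ : Euc m}
      {W : Measure (Euc k × L k)} {R h₀ δ τ : ℝ} {dw : Euc m → ℝ}, CylAS W π κ x₀ R h₀ δ →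
      0 ≤ δ → δ ≤ 1 → 0 ≤ h₀ → h₀ ≤ 1 → CW dw τ → ∫ z, dw z = M → 0 ≤ τ →
      (∀ r, 0 < r → r ≤ 1 / 2 → ∀ᵐ p ∂W, ‖π p.1 - x₀‖ + r ≤ R →
        ENNReal.ofReal (c0 * r ^ m) ≤ W (Metric.closedBall p.1 r ×ˢ univ)) →
    ∀ {v : WP n} {l b : ℝ}, 20 * τ ≤ Real.exp l → l ≤ 0 → dist x x₀ + Real.exp (l + 1) ≤ R →
      qW v ≤ 1 → qW v ≤ Real.exp l →
      IFw dw W π κ g1 x v (l + 1) ≤ c1 * qW v ^ 2 →
      (∀ x' ∈ Metric.closedBall x (Real.exp (l + 1)),
        MB W π x' (Real.exp l / 2) ≤ C1 * Real.exp l ^ m) →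
      0 ≤ b → δ * h₀ * Real.exp l ≤ b * qW v →
      (√δ + b) * (1 + Real.log (8 * Real.exp l / qW v)) ≤ cs →
    ∀ {pL : Euc m → Euc d}, LipschitzWith 1 pL → ∀ {G θ w : ℝ}, 0 ≤ G →
      N5_372.eM W π (Metric.closedBall x (Real.exp (l + 1))) ≤ ENNReal.ofReal G →
      G * (1 + Real.log (8 * Real.exp l / qW v)) ≤ cG * θ * qW v ^ 2 → 0 ≤ w →
      (∀ N : Set (Euc m), N ⊆ Metric.closedBall x (Real.exp (l + 1)) →
        volume (pL '' N) ≤ ENNReal.ofReal θ → N5_372.eM W π N ≤ ENNReal.ofReal w) →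
      eFa dw W π κ (HW v) g x l ≤ eea dw W π g x l ∧
      eea dw W π g x l ≤ Fm dw W π κ g x v l + av dw (f2 W π κ (dFW v) g) x l +
        (1 + BB) * K * M * (Real.exp ((2 - m) * l) * w) := by
  have hm : m = d + 2 := hdm.symm
  obtain ⟨cs, cup, cG, hcs, hcup, hcG, hcross⟩ := cross_as (m := m) hg hg0 hK hK' (a := 1) hc
    zero_le_one (fun t h0 h1 => hgc t h0 (h1.trans exp_neg_two_le')) hκ
    (c0 := c0 / 2 ^ m) (C1 := 4 ^ m * C1) (by positivity) (by positivity)
    (L' := Euc d) volume (by rw [finrank_euclideanSpace_fin]; exact hdm)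
  have he1 := Real.exp_pos 1
  refine ⟨cs, 2 * M * (cup * (1 / (4 * Real.exp 1)) ^ m), cG, hcs, by positivity, hcG, ?_⟩
  intro n k π κ x x₀ W R h₀ δ τ dw h h0 hδ hh hh1 hw hMw hτ hlow v l b hτl hl0 hdom hq1 hql hIF
    hmass hb0 hb hcs' pL hpL G θ w hG0 hG hGθ hw0 hN5
  set q := qW v with hqdef
  have hq : 0 < q := v.2.2
  have hSep : Well_761.Sep v.1.1 q := v.2.1
  have hel := Real.exp_pos l
  have hel1 : Real.exp (l + 1) = Real.exp l * Real.exp 1 := Real.exp_add l 1
  have he27 : (2.7 : ℝ) ≤ Real.exp 1 := by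
    have := Real.exp_one_gt_d9
    linarith
  have hel2 : 2.7 * Real.exp l ≤ Real.exp (l + 1) := by
    rw [hel1, mul_comm]
    exact mul_le_mul_of_nonneg_left he27 hel.le
  have hel3 : Real.exp l ≤ 1 := Real.exp_le_one_iff.2 hl0
  have hf := ff_of_cylAS h
  have hA := hf.afr hτ x (l + 2)
  have hHg : Hgt W π κ x (Real.log (Real.exp (l + 2) + τ)) h₀ := hgt_all h.hgt x
  -- the centre
  have cI : CO x τ (l + 2) (fun y l => IF W π κ y (FW v) g1 l) := hA.co_IF hHg (well_FW v) hg.k1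
  obtain ⟨a, ha, hIa⟩ := exists_le_mean hw (by rw [hMw]; exact hM) cI
    (by linarith : l + 1 < l + 2)
  have ha1 : ‖a‖ ≤ τ := by simpa using ha
  set x1 := x - a with hx1
  have hdx : dist x1 x ≤ τ := by
    rw [hx1, dist_eq_norm]
    have : x - a - x = -a := by abel
    rw [this, norm_neg]
    exact ha1
  rw [hMw] at hIa
  have hIF' : av dw (fun y l => IF W π κ y (FW v) g1 l) x (l + 1) ≤
      2 * M * (cup * (1 / (4 * Real.exp 1)) ^ m) * q ^ 2 := hIF
  -- the crossing energy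
  set s := Real.exp l + 2 * τ with hsdef
  set s' := Real.exp l / 4 with hs'def
  have hs0 : 0 < s := by positivity
  have hs'0 : 0 < s' := by positivity
  have h32 : 32 * s' = 8 * Real.exp l := by rw [hs'def]; ring
  have hsub1 : ∀ x' ∈ Metric.closedBall x1 s, dist x' x + Real.exp l / 2 ≤ Real.exp (l + 1) := by
    intro x' hx'
    rw [Metric.mem_closedBall] at hx'
    have := dist_triangle x' x1 x
    linarith
  have hball : Metric.closedBall x1 (s + s') ⊆ Metric.closedBall x (Real.exp (l + 1)) := by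
    refine Metric.closedBall_subset_closedBall' ?_
    linarith
  have hnu : Well_761.nu m (kap g1) (muOf W π κ) x1 (l + 1) (Well_761.wells v.1.1 q) ≤
      cup * (s' / Real.exp (l + 1)) ^ m * q ^ 2 := by
    have hmw : Measurable (Well_761.wells v.1.1 q) := (well_FW v).contF.measurable
    rw [nu_eq hg W π κ x1 (l + 1) hmw, IF_eq_nuG]
    have e1 : s' / Real.exp (l + 1) = 1 / (4 * Real.exp 1) := by
      rw [hs'def, hel1]
      field_simp
    rw [e1]
    have h2 : IF W π κ x1 (FW v) g1 (l + 1) * M ≤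
        2 * M * (cup * (1 / (4 * Real.exp 1)) ^ m) * q ^ 2 := hIa.trans hIF'
    have h3 : IF W π κ x1 (FW v) g1 (l + 1) ≤
        2 * (cup * (1 / (4 * Real.exp 1)) ^ m * q ^ 2) := by
      refine le_of_mul_le_mul_right ?_ hM
      calc _ ≤ _ := h2
        _ = _ := by ring
    have h4 : IF W π κ x1 (Well_761.wells v.1.1 q) g1 (l + 1) = IF W π κ x1 (FW v) g1 (l + 1) :=
      rfl
    rw [h4]
    linarith
  have hlow' : ∀ x' ∈ Metric.closedBall x1 s, ∀ p, (x', p) ∈ TT W π κ →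
      ENNReal.ofReal (c0 / 2 ^ m * (q / 128) ^ m) ≤
        muOf W π κ (Well_761.cyl x' (q / 128) (Metric.closedBall p (q / 128))) := by
    intro x' hx' p hp
    have h1 := hsub1 x' hx'
    have h2 : dist x' x₀ + 2 * (q / 256) ≤ R := by
      have := dist_triangle x' x x₀
      linarith
    have h3 := lower_TT' h.sp (c0 := c0) (by positivity : 0 < q / 256)
      (hlow _ (by positivity) (by linarith)) hp h2
    have e1 : 2 * (q / 256) = q / 128 := by ring
    rw [e1] at h3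
    refine le_trans (le_of_eq ?_) h3
    congr 1
    rw [div_pow, div_pow, show (256:ℝ) = 2 * 128 by norm_num, mul_pow]
    field_simp
  have htop : ∀ x' ∈ Metric.closedBall x1 s, muR W π κ x' (Real.log s') ≤
      4 ^ m * C1 * Real.exp (m * Real.log s') := by
    intro x' hx'
    have h1 := hsub1 x' hx'
    have h2 : x' ∈ Metric.closedBall x (Real.exp (l + 1)) := by
      rw [Metric.mem_closedBall]; linarith
    have h3 : muR W π κ x' (Real.log s') ≤ MB W π x' (Real.exp l / 2) := by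
      refine muR_le_MB h x' ?_
      rw [Real.exp_log hs'0]
      linarith
    refine h3.trans ((hmass x' h2).trans (le_of_eq ?_))
    have e1 : Real.exp (m * Real.log s') = s' ^ m := by
      rw [mul_comm, Real.exp_mul, Real.exp_log hs'0, Real.rpow_natCast]
    rw [e1, hs'def, div_pow]
    field_simp
  have hdx0 : dist x1 x₀ + (s + s') ≤ R := by
    have := dist_triangle x1 x x₀
    linarith
  have hcr := hcross h h0 hδ hh hh1 (x := x1) (x₀ := x₀) (C := v.1.1) (q := q) (s := s) (s' := s')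
    (t := l + 1) (b := b) hq hq1 hSep (by rw [h32]; linarith) (by linarith) hs0 (by linarith) hdx0
    hnu hlow' htop hb0 (by
      refine le_trans ?_ hb
      have : 0 ≤ δ * h₀ := mul_nonneg h0 hh
      exact mul_le_mul_of_nonneg_left (by linarith) this) (by rw [h32]; exact hcs') hpL hG0
    ((measure_mono hball).trans hG) (by rw [h32]; exact hGθ) hw0
    (fun N hN hv => hN5 N ((hN.trans Metric.ball_subset_closedBall).trans
      ((Metric.closedBall_subset_closedBall (by linarith)).trans hball)) hv)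
  -- all centres
  have key : ∀ y ∈ Metric.closedBall x τ, 0 ≤ ee W π y g l - eF W π κ y (HW v) g l ∧
      ee W π y g l - eF W π κ y (HW v) g l ≤
        (1 + BB) * K * (Real.exp ((2 - m) * l) * w) := by
    intro y hy
    have hy1 : ‖y - x1‖ + Real.exp l ≤ s := by
      rw [Metric.mem_closedBall] at hy
      have := dist_triangle y x x1
      rw [dist_comm x x1] at this
      rw [← dist_eq_norm]
      linarith
    obtain ⟨h1, h2⟩ := cross_node (fun z L₀ => h.fr z L₀) hq hSep hg.k0 hg0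
      (fun t ht => (le_abs_self _).trans (hK.b0 t ht)) hy1 hcr
    refine ⟨h1, h2.trans (le_of_eq ?_)⟩
    unfold BB
    ring
  have hl2 : l < l + 2 := by linarith
  have ce : CO x τ (l + 2) (fun y l => ee W π y g l) := hA.co_ee hg.k0
  have cF : CO x τ (l + 2) (fun y l => eF W π κ y (HW v) g l) := hA.co_eF hHg (well_FW v) hg.k0
  have cC : CO x τ (l + 2) (fun (_ : Euc m) (l : ℝ) =>
      (1 + BB) * K * (Real.exp ((2 - m) * l) * w)) :=
    CO_const (fun l : ℝ => (1 + BB) * K * (Real.exp ((2 - m) * l) * w)) (by fun_prop)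
  constructor
  · exact av_mono hw cF ce hl2 fun y hy => sub_nonneg.1 (key y hy).1
  · have h1 := av_mono hw ce (cF.add cC) hl2 fun y hy => by
      have := (key y hy).2
      linarith
    rw [av_add hw cF cC hl2] at h1
    have h2 : av dw (fun (_ : Euc m) (l : ℝ) => (1 + BB) * K * (Real.exp ((2 - m) * l) * w)) x l =
        (1 + BB) * K * M * (Real.exp ((2 - m) * l) * w) := by
      unfold av
      rw [integral_mul_const, hMw]
      ring
    rw [h2] at h1
    unfold Fm
    have h3 : eFa dw W π κ (HW v) g x l = av dw (fun y l => eF W π κ y (HW v) g l) x l := rfl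
    have h4 : eea dw W π g x l = av dw (fun y l => ee W π y g l) x l := rfl
    rw [h3, h4]
    linarith

end Crest.Agent.R234.We_822
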