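import Crest.Agent.R234.Crs6_173
import Crest.Agent.R234.We13_822
import Crest.Agent.R234.Ins1_387
import Crest.Agent.R234.Sml4_870

/-!
Row 234, NNET / NRUN instances (helper173), file 1: upper and lower mass bounds over base balls,
lower density at all radii, in the input structure `In` and in the class `Cls`.
-/

set_option autoImplicit false

open MeasureTheory Filter Topology Set Metric
open scoped ENNReal NNReal

namespace Crest.Agent.R234.Nn_173

open Crest.GeometryTopology.Submanifold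
open Crest.Agent.R234.Vf_884 Crest.Agent.R234.Ar_870 Crest.Agent.R234.Cy_870
open Crest.Agent.R234.Asl_214 Crest.Agent.R234.Crs_173 Crest.Agent.R234.Th_164
open Crest.Agent.R234.Wi_870 (muOf measurable_bh bh)
open Crest.Agent.R234.We_822 (muR muR_le_MB)
open Crest.Agent.R234.Core_809 (Cls part)

noncomputable section

variable {m n k Q : ℕ} {π : Euc k →L[ℝ] Euc m} {κ : Euc k →L[ℝ] Euc n}
  {W : Measure (Euc k × L k)} {x₀ : Euc m} {R h₀ δ : ℝ} {N : Euc m → ℝ≥0∞}

/-- the sheets are below the mass -/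
theorem lintegral_N_le (h : CylAS W π κ x₀ R h₀ δ) (hN : Area W π (ball x₀ R) N) {B : Set (Euc m)}
    (hB : MeasurableSet B) (hBR : B ⊆ ball x₀ R) :
    ∫⁻ x in B, N x ≤ W ((fun p => π p.1) ⁻¹' B) := by
  have h1 := hN.area (B.indicator 1) (measurable_one.indicator hB) (fun x hx =>
    indicator_of_notMem (fun h => hx (hBR h)) _)
  have h2 : ∫⁻ x, N x * B.indicator 1 x = ∫⁻ x in B, N x := by
    rw [← lintegral_indicator hB]
    refine lintegral_congr fun x => ?_
    by_cases hx : x ∈ B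
    · rw [indicator_of_mem hx, indicator_of_mem hx]; simp
    · rw [indicator_of_notMem hx, indicator_of_notMem hx, mul_zero]
  rw [← h2, ← h1]
  have hm : Measurable fun p : Euc k × L k => π p.1 := (π.continuous.comp continuous_fst).measurable
  calc ∫⁻ p, ENNReal.ofReal (Jh π p.2) * B.indicator 1 (π p.1) ∂W
      ≤ ∫⁻ p, ((fun p : Euc k × L k => π p.1) ⁻¹' B).indicator 1 p ∂W := by
        refine lintegral_mono_ae ?_
        filter_upwards [h.conc] with p hp
        have h3 : ENNReal.ofReal (Jh π p.2) ≤ 1 :=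
          ENNReal.ofReal_le_one.2 (Jh_le_one h.sp.hh (isPr_of_G hp))
        by_cases hx : π p.1 ∈ B
        · rw [indicator_of_mem hx, indicator_of_mem (by exact hx)]
          simpa using h3
        · rw [indicator_of_notMem hx, mul_zero]; exact bot_le
    _ = W ((fun p => π p.1) ⁻¹' B) := by
        rw [lintegral_indicator_one (hm hB)]

/-- real form -/
theorem integral_N_le (h : CylAS W π κ x₀ R h₀ δ) (hN : Area W π (ball x₀ R) N) {B : Set (Euc m)}
    (hB : MeasurableSet B) (hBR : B ⊆ ball x₀ R) :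
    ∫ x in B, (N x).toReal ≤ W.real ((fun p => π p.1) ⁻¹' B) := by
  have hfin : IsFiniteMeasure W := ⟨h.fin⟩
  have h1 := lintegral_N_le h hN hB hBR
  have h2 : ∫⁻ x in B, N x ≠ ⊤ := ne_top_of_le_ne_top (measure_ne_top _ _) h1
  rw [integral_toReal hN.meas.aemeasurable (ae_lt_top hN.meas h2)]
  exact ENNReal.toReal_mono (measure_ne_top _ _) h1

theorem MB_le_muR (h : CylAS W π κ x₀ R h₀ δ) (x : Euc m) {l : ℝ} :
    MB W π x (Real.exp l) ≤ muR W π κ x l := by
  have : IsFiniteMeasure W := ⟨h.fin⟩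
  have hcm : MeasurableSet (Well_761.cyl x (Real.exp l) (univ : Set (Euc n))) :=
    Metric.isClosed_closedBall.measurableSet.prod MeasurableSet.univ
  unfold muR muOf MB
  rw [Measure.map_apply (measurable_bh π κ) hcm]
  refine ENNReal.toReal_mono (measure_ne_top _ _) (measure_mono ?_)
  intro p hp
  rw [ovr_eq] at hp
  exact ⟨ball_subset_closedBall hp, mem_univ _⟩

theorem muR_le_univ (h : CylAS W π κ x₀ R h₀ δ) (x : Euc m) (l : ℝ) :
    muR W π κ x l ≤ W.real univ := by
  have : IsFiniteMeasure W := ⟨h.fin⟩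
  have hcm : MeasurableSet (Well_761.cyl x (Real.exp l) (univ : Set (Euc n))) :=
    Metric.isClosed_closedBall.measurableSet.prod MeasurableSet.univ
  unfold muR muOf
  rw [Measure.map_apply (measurable_bh π κ) hcm]
  exact ENNReal.toReal_mono (measure_ne_top _ _) (measure_mono (subset_univ _))

theorem muR_mono' (h : CylAS W π κ x₀ R h₀ δ) (x : Euc m) {l l' : ℝ} (hl : l ≤ l') :
    muR W π κ x l ≤ muR W π κ x l' := We_822.muR_mono (h.fr x) hl

/-- **mass bounds over base balls at all scales `≥ A h₀`** -/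
theorem mass_bounds (m Q : ℕ) (hQ : 1 ≤ Q) {C₀ : ℝ} (hC₀ : 0 ≤ C₀) :
    ∃ C1 c2 A c : ℝ, 0 < C1 ∧ 0 < c2 ∧ 1 ≤ A ∧ 0 < c ∧ c ≤ 1 / 16 ∧
      ∀ {n k : ℕ} {π : Euc k →L[ℝ] Euc m} {κ : Euc k →L[ℝ] Euc n}
      {W : Measure (Euc k × L k)} {N : Euc m → ℝ≥0∞} {h₀ δ : ℝ}, In W π κ N Q C₀ h₀ δ →
      δ ≤ c → h₀ ^ 2 ≤ c → ∫ p, tl π p.2 ∂W ≤ c → ∀ (y : Euc m) (l : ℝ), ‖y‖ ≤ 2 →
      Real.exp l ≤ 1 → A * h₀ ≤ Real.exp l →
      c2 * Real.exp (m * l) ≤ muR W π κ y l ∧ muR W π κ y l ≤ C1 * Real.exp (m * l) := by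
  have hom := om_pos m
  obtain ⟨A, c, hA, hc, hc1, hT⟩ := coarse m Q hC₀ (ε := om m / 2) (by positivity)
  refine ⟨A * 2 ^ m + (Q + 1) * (om m * 4 ^ m) * 8 ^ m, om m / 2 / 4 ^ m, A,
    min c ((1 / (4 * A)) ^ 2), by positivity, by positivity, hA, lt_min hc (by positivity),
    (min_le_left _ _).trans hc1, ?_⟩
  intro n k π κ W N h₀ δ h hδ hh hE y l hy hl hAl
  have hcoa := hT h (hδ.trans (min_le_left _ _)) (hh.trans (min_le_left _ _))
    (hE.trans (min_le_left _ _)) y (mem_closedBall_zero_iff.2 (by linarith))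
  have hfin : IsFiniteMeasure W := ⟨h.cyl.fin⟩
  have hh0 := h.hh
  have hA4 : A * h₀ ≤ 1 / 4 := by
    have h1 : h₀ ≤ 1 / (4 * A) := by
      have := hh.trans (min_le_right _ _)
      exact (sq_le_sq₀ hh0 (by positivity)).1 this
    calc A * h₀ ≤ A * (1 / (4 * A)) := mul_le_mul_of_nonneg_left h1 (by linarith)
      _ = 1 / 4 := by field_simp
  have hexp : Real.exp (m * l) = Real.exp l ^ m := by rw [← Real.exp_nat_mul]
  rw [hexp]
  have hel := Real.exp_pos l
  constructor
  · -- lower bound, at the radius `min (exp l) (1/4)`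
    obtain ⟨r, hr⟩ : ∃ r : ℝ, r = min (Real.exp l) (1 / 4) := ⟨_, rfl⟩
    have hr0 : 0 < r := by rw [hr]; exact lt_min hel (by norm_num)
    have hr4 : r ≤ 1 / 4 := by rw [hr]; exact min_le_right _ _
    have hrl : r ≤ Real.exp l := by rw [hr]; exact min_le_left _ _
    have hrA : A * h₀ ≤ r := by rw [hr]; exact le_min hAl hA4
    have hrl' : Real.exp l / 4 ≤ r := by
      rw [hr]
      refine le_min (by linarith) (by linarith)
    obtain ⟨h1, -, -⟩ := hcoa r hr0 hrA hr4
    have hBR : ball y r ⊆ ball (0 : Euc m) 4 := by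
      refine ball_subset_ball' ?_
      rw [dist_zero_right]
      linarith
    have h2 := integral_N_le h.cyl h.area (B := ball y r) measurableSet_ball hBR
    have hNi : IntegrableOn (fun y => (N y).toReal) (ball y r) :=
      (h.area.integrableOn h.cyl.sp.hh h.cyl.conc measurableSet_ball).mono_set hBR
    have hci : IntegrableOn (fun _ : Euc m => (Q : ℝ)) (ball y r) :=
      integrableOn_const measure_ball_lt_top.ne
    have h3 : Q * (om m * r ^ m) - ∫ x in ball y r, (N x).toReal ≤ om m / 2 * r ^ m := by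
      have e1 : ∫ x in ball y r, (Q : ℝ) = Q * (om m * r ^ m) := by
        rw [setIntegral_const, vol_ball y hr0, smul_eq_mul, mul_comm]
      rw [← e1, ← integral_sub hci hNi]
      refine (integral_mono (hci.sub hNi) (hNi.sub hci).abs fun x => ?_).trans h1
      have := neg_abs_le ((N x).toReal - (Q : ℝ))
      simp only [Pi.sub_apply]
      linarith
    have h4 : MB W π y r ≤ muR W π κ y l := by
      have h5 : MB W π y r ≤ muR W π κ y (Real.log r) := by
        have := MB_le_muR h.cyl y (l := Real.log r)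
        rwa [Real.exp_log hr0] at this
      refine h5.trans (muR_mono' h.cyl y ?_)
      rw [← Real.log_exp l]
      exact Real.log_le_log hr0 hrl
    have h5 : W.real ((fun p => π p.1) ⁻¹' ball y r) = MB W π y r := by
      unfold MB
      rw [ovr_eq, measureReal_def]
    rw [h5] at h2
    have hQ' : (1 : ℝ) ≤ Q := by exact_mod_cast hQ
    have h6 : om m / 2 * r ^ m ≤ MB W π y r := by
      have : om m * r ^ m ≤ Q * (om m * r ^ m) := le_mul_of_one_le_left (by positivity) hQ'
      nlinarith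
    calc om m / 2 / 4 ^ m * Real.exp l ^ m = om m / 2 * (Real.exp l / 4) ^ m := by
          rw [div_pow]; ring
      _ ≤ om m / 2 * r ^ m := by gcongr
      _ ≤ _ := h6.trans h4
  · rcases le_or_gt (Real.exp l) (1 / 8) with h8 | h8
    · obtain ⟨-, h2, -⟩ := hcoa (2 * Real.exp l) (by positivity) (by linarith) (by linarith)
      refine (muR_le_MB h.cyl y (show Real.exp l < 2 * Real.exp l by linarith)).trans (h2.trans ?_)
      rw [mul_pow, ← mul_assoc]
      refine mul_le_mul_of_nonneg_right ?_ (by positivity)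
      have : 0 ≤ ((Q : ℝ) + 1) * (om m * 4 ^ m) * 8 ^ m := by positivity
      linarith
    · refine (muR_le_univ h.cyl y l).trans ?_
      have h1 := (abs_le.1 h.mass).2
      have h2 : W.real univ ≤ (Q + 1) * (om m * 4 ^ m) := by
        have : 0 < om m * 4 ^ m := by positivity
        nlinarith
      refine h2.trans ?_
      have h3 : 1 ≤ 8 ^ m * Real.exp l ^ m := by
        rw [← mul_pow]
        exact one_le_pow₀ (by linarith)
      calc (Q + 1) * (om m * 4 ^ m) ≤ (Q + 1) * (om m * 4 ^ m) * (8 ^ m * Real.exp l ^ m) :=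
            le_mul_of_one_le_right (by positivity) h3
        _ = (Q + 1) * (om m * 4 ^ m) * 8 ^ m * Real.exp l ^ m := by ring
        _ ≤ _ := by
            refine mul_le_mul_of_nonneg_right ?_ (by positivity)
            have : 0 ≤ A * 2 ^ m := by positivity
            linarith

/-- the lower density of the part of the class, all radii at once -/
theorem low_all {D : ℝ} {U : Set (Euc k)} {Dd : VarifoldData m k} (h : Cls Q δ D π κ U Dd)
    (hm : 1 ≤ m) (hD1 : D ≤ 1 / 4) :
    ∀ᵐ p ∂(part π κ Dd), ∀ r, 0 < r → r ≤ 1 → ‖π p.1‖ + r ≤ 4 →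
      ENNReal.ofReal (ome m / 8 ^ m * r ^ m) ≤ part π κ Dd (closedBall p.1 r ×ˢ univ) := by
  have hom := ome_pos m
  have h1 : ∀ᵐ p ∂(part π κ Dd), ∀ q : ℚ, (0 : ℝ) < q → (q : ℝ) ≤ 1 / 2 → ‖π p.1 - 0‖ + q ≤ 4 →
      ENNReal.ofReal (ome m / 2 ^ m * (q : ℝ) ^ m) ≤
        part π κ Dd (closedBall p.1 q ×ˢ univ) := by
    rw [ae_all_iff]
    intro q
    by_cases hq : (0 : ℝ) < q ∧ (q : ℝ) ≤ 1 / 2
    · filter_upwards [Sml_870.low_part h hm hD1 hq.1 hq.2] with p hp _ _ h4
      exact hp h4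
    · exact Eventually.of_forall fun p h1 h2 => absurd ⟨h1, h2⟩ hq
  filter_upwards [h1] with p hp r hr hr1 hpr
  obtain ⟨q, hq1, hq2⟩ := exists_rat_btwn (show r / 4 < r / 2 by linarith)
  have hq0 : (0 : ℝ) < q := lt_trans (by positivity) hq1
  refine le_trans ?_ ((hp q hq0 (by linarith) (by rw [sub_zero]; linarith)).trans
    (measure_mono (prod_mono (closedBall_subset_closedBall (by linarith)) subset_rfl)))
  refine ENNReal.ofReal_le_ofReal ?_
  calc ome m / 8 ^ m * r ^ m = ome m / 2 ^ m * (r / 4) ^ m := by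
        rw [div_pow, show (8 : ℝ) = 2 * 4 by norm_num, mul_pow]
        field_simp
    _ ≤ ome m / 2 ^ m * (q : ℝ) ^ m := by gcongr

end

end Crest.Agent.R234.Nn_173
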