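import Crest.Agent.R234.Nn1_173
import Crest.Agent.R234.Par2_504

/-!
Row 234, NNET / NRUN instances (helper173), file 2: the geometric and numerical facts of a contact
situation `X : Core_809.Sit m n a`.
-/

set_option autoImplicit false

open MeasureTheory Filter Topology Set Metric
open scoped ENNReal NNReal

namespace Crest.Agent.R234.Nn_173

open Crest.GeometryTopology.Submanifold
open Crest.Agent.R234.Vf_884 Crest.Agent.R234.Ar_870 Crest.Agent.R234.Cy_870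
open Crest.Agent.R234.Asl_214 Crest.Agent.R234.Crs_173 Crest.Agent.R234.Th_164
open Crest.Agent.R234.We_822 (muR muR_le_MB)
open Crest.Agent.R234.Core_809 Crest.Agent.R234.Par_504
open Crest.Agent.R234.Avg_387 (dd cw_dd CW integral_dd Md)

noncomputable section

variable {m n Q : ℕ} {a K cS : ℝ}

/-- the facts of a contact situation which do not involve the contact measure -/
structure Bas (Q : ℕ) (c0 c2 C1 : ℝ) (X : Sit m n a) : Prop where
  as : CylAS X.V X.π X.κ 0 4 (√X.D) X.δ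
  D0 : 0 < X.D
  D1 : X.D < 1
  δ0 : 0 ≤ X.δ
  δ1 : X.δ * Lam X.D ^ 2 ≤ 1
  hD : (√X.D) ^ 2 = Real.exp (-Lam X.D)
  eD : X.D = Real.exp (-Lam X.D)
  τ0 : 0 < tauOf a X.D
  cw : CW (dd m (tauOf a X.D)) (tauOf a X.D)
  cM : ∫ z, dd m (tauOf a X.D) z = Md m
  τr : tauOf a X.D ≤ 3 / 4 * s0Of m a X.D
  s0 : 0 < s0Of m a X.D
  low : ∀ᵐ p ∂X.V, ∀ r, 0 < r → r ≤ 1 → ‖X.π p.1‖ + r ≤ 4 →
    ENNReal.ofReal (c0 * r ^ m) ≤ X.V (closedBall p.1 r ×ˢ univ)
  top : ∀ (y : Euc m) (l : ℝ), ‖y‖ ≤ 2 → Real.exp l ≤ 1 → tOf a X.D ≤ Real.exp l →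
    muR X.V X.π X.κ y l ≤ C1 * Real.exp (m * l)
  mas : ∀ (y : Euc m) (l : ℝ), ‖y‖ ≤ 2 → Real.exp l ≤ 1 → tOf a X.D ≤ Real.exp l →
    c2 * Real.exp (m * l) ≤ muR X.V X.π X.κ y l
  t0 : tOf a X.D ≤ s0Of m a X.D
  dom : ∀ x ∈ X.Z, ‖x‖ + 100 * (s0Of m a X.D * Real.exp (TOf m a X.D)) ≤ 1
  sT : s0Of m a X.D * Real.exp (TOf m a X.D) = stOf m a X.D
  sbot : Real.exp (-Lam X.D) * Lam X.D ^ 2 ≤ s0Of m a X.D ^ 2
  stop : ∀ b : ℕ, (b : ℝ) ≤ 2 * Par_504.bb m a →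
    (s0Of m a X.D * Real.exp (TOf m a X.D)) ^ 2 * Lam X.D ^ b ≤ 1
  q1 : Lam X.D ^ 2 * Real.exp (-Lam X.D) = q1Of X.D
  T1 : TOf m a X.D ≤ Lam X.D
  T2 : Lam X.D / 4 ≤ TOf m a X.D
  tot : X.V.real univ ≤ (Q + 1) * (om m * 4 ^ m)
  en : ∫ p, tl X.π p.2 ∂X.V ≤ X.D

theorem Lam_exp {D : ℝ} (h : 0 < D) : D = Real.exp (-Lam D) := by
  unfold Lam
  rw [one_div, Real.log_inv, neg_neg, Real.exp_log h]

/-- **the facts hold for `Λ` large** -/
theorem bas_of (m n Q : ℕ) (hm : 1 ≤ m) (hQ : 1 ≤ Q) {a : ℝ} (ha : 1 ≤ a) :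
    ∃ c0 c2 C1 : ℝ, 0 < c0 ∧ 0 < c2 ∧ 0 < C1 ∧ ∀ L : ℝ, ∃ l0 : ℝ, ∀ (X : Sit m n a) (K cS : ℝ),
      IsSit Q K cS X → l0 ≤ Real.log (Lam X.D) → L ≤ Real.log (Lam X.D) ∧ Bas Q c0 c2 C1 X := by
  obtain ⟨C1, c2, A, c, hC1, hc2, hA, hc, hc16, hmb⟩ := mass_bounds m Q hQ (Ins_387.C0_nonneg m Q)
  refine ⟨ome m / 8 ^ m, c2, C1, by have := ome_pos m; positivity, hc2, hC1, fun L => ?_⟩
  obtain ⟨l1, h1⟩ := ev_scales' m ha (max A 200)
  obtain ⟨l2, h2⟩ := ev_T m a (max 1 (max L c⁻¹))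
  obtain ⟨l3, h3⟩ := ev_l (p := fun Λ => Real.exp (-Λ) ≤ min c (1 / 4))
    ((Real.tendsto_exp_neg_atTop_nhds_zero.eventually_lt_const
      (show (0 : ℝ) < min c (1 / 4) from lt_min hc (by norm_num))).mono fun Λ h => h.le)
  refine ⟨max l1 (max l2 l3), fun X K cS hX hl => ?_⟩
  have hD := hX.D0
  have hD1 := hX.D1
  obtain ⟨e1, e2, e3, e4, e5, e6, e7⟩ := h1 X.D hD hD1 ((le_max_left _ _).trans hl)
  obtain ⟨t1, t2, t3, t4, t5, t6⟩ := h2 X.D hD hD1
    (((le_max_left _ _).trans (le_max_right _ _)).trans hl)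
  have hexp := h3 X.D hD hD1 (((le_max_right _ _).trans (le_max_right _ _)).trans hl)
  have hLD := Lam_exp hD
  have hΛ0 : 0 < Lam X.D := Par_504.Lam_pos hD hD1
  have hΛ1 : 1 ≤ Lam X.D := (le_max_left _ _).trans t6
  have hΛc : c⁻¹ ≤ Lam X.D := ((le_max_right _ _).trans (le_max_right _ _)).trans t6
  have hDc : X.D ≤ c := by rw [hLD]; exact hexp.trans (min_le_left _ _)
  have hD4 : X.D ≤ 1 / 4 := by rw [hLD]; exact hexp.trans (min_le_right _ _)
  have hsq : (√X.D) ^ 2 = X.D := Real.sq_sqrt hD.le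
  have hsD0 : 0 < √X.D := Real.sqrt_pos.2 hD
  have hτ0 : 0 < tauOf a X.D := tauOf_pos hD hD1
  have hh0 : 0 < hOf a X.D := hOf_pos hD hD1
  have ht0 : 0 < tOf a X.D := tOf_pos hD hD1
  have hs0 : 0 < s0Of m a X.D := s0Of_pos hD hD1
  have hst0 : 0 < stOf m a X.D := stOf_pos hD hD1
  have hbl0 : 0 < blOf a X.D := blOf_pos hD hD1
  have hC : (200 : ℝ) ≤ max A 200 := le_max_right _ _
  have f1 : 200 * hOf a X.D ≤ √X.D := (mul_le_mul_of_nonneg_right hC hh0.le).trans e1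
  have f2 : 200 * √X.D ≤ tOf a X.D := (mul_le_mul_of_nonneg_right hC hsD0.le).trans e2
  have f3 : 200 * tOf a X.D ≤ s0Of m a X.D := (mul_le_mul_of_nonneg_right hC ht0.le).trans e3
  have f4 : 200 * s0Of m a X.D ≤ stOf m a X.D := (mul_le_mul_of_nonneg_right hC hs0.le).trans e4
  have f5 : 200 * stOf m a X.D ≤ blOf a X.D := (mul_le_mul_of_nonneg_right hC hst0.le).trans e5
  have f2' : A * √X.D ≤ tOf a X.D :=
    (mul_le_mul_of_nonneg_right (le_max_left _ _) hsD0.le).trans e2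
  have hτh : tauOf a X.D = hOf a X.D / 4 := rfl
  have hδΛ : X.δ ≤ (Lam X.D ^ 4)⁻¹ := by
    refine hX.δ1.trans (le_of_eq ?_)
    rw [Real.rpow_neg hΛ0.le]
    congr 1
    exact_mod_cast Real.rpow_natCast (Lam X.D) 4
  have hδ1 : X.δ * Lam X.D ^ 2 ≤ 1 := by
    have h5 : X.δ * Lam X.D ^ 2 ≤ (Lam X.D ^ 4)⁻¹ * Lam X.D ^ 2 :=
      mul_le_mul_of_nonneg_right hδΛ (by positivity)
    refine h5.trans ?_
    rw [inv_mul_le_iff₀ (by positivity), mul_one]
    exact pow_le_pow_right₀ hΛ1 (by norm_num)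
  have hδc : X.δ ≤ c := by
    refine hδΛ.trans ?_
    refine inv_le_of_inv_le₀ hc (hΛc.trans ?_)
    exact le_self_pow₀ hΛ1 (by norm_num)
  have hin := Ins_387.in_of_cls hX.cls hm hD1 hX.δ0 X.S
  have hmass := hmb hin hδc (by rw [hsq]; exact hDc) (hX.cls.en.trans hDc)
  have hsT : s0Of m a X.D * Real.exp (TOf m a X.D) = stOf m a X.D := by
    rw [← exp_log_s0Of_add_T hD hD1, Real.exp_add, Real.exp_log hs0]
  have hbb : 1 ≤ Par_504.bb m a := by
    unfold Par_504.bb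
    have : (0 : ℝ) ≤ m := Nat.cast_nonneg m
    nlinarith
  refine ⟨((le_max_left _ _).trans (le_max_right _ _)).trans t5, ?_⟩
  exact
  { as := Ins_387.cylAS hX.cls hD1
    D0 := hD
    D1 := hD1
    δ0 := hX.δ0
    δ1 := hδ1
    hD := by rw [hsq]; exact hLD
    eD := hLD
    τ0 := hτ0
    cw := cw_dd hτ0
    cM := integral_dd hτ0
    τr := by linarith
    s0 := hs0
    low := by
      filter_upwards [low_all hX.cls hm hD4] with p hp r hr hr1 hpr
      exact hp r hr hr1 hpr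
    top := fun y l hy hl1 hl2 => (hmass y l hy hl1 (f2'.trans hl2)).2
    mas := fun y l hy hl1 hl2 => (hmass y l hy hl1 (f2'.trans hl2)).1
    t0 := by linarith
    dom := by
      rintro x ⟨z, hz, rfl⟩
      have h6 := hX.out.nrm z hz
      rw [hsT]
      linarith
    sT := hsT
    sbot := by
      rw [← hLD]
      unfold s0Of
      rw [mul_pow, hsq]
      have h6 : Lam X.D ≤ Lam X.D ^ (100 * ((m : ℝ) + 1) * (a + 1)) := by
        conv_lhs => rw [← Real.rpow_one (Lam X.D)]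
        exact Real.rpow_le_rpow_of_exponent_le hΛ1 hbb
      gcongr
    stop := by
      intro b hb
      rw [hsT, stOf_eq hD hD1, ← rpow_eq hD hD1, ← Real.rpow_natCast _ b, ← Real.rpow_natCast _ 2,
        ← Real.rpow_mul hΛ0.le, ← Real.rpow_add hΛ0]
      refine Real.rpow_le_one_of_one_le_of_nonpos hΛ1 ?_
      push_cast
      linarith
    q1 := by
      unfold q1Of
      rw [← hLD]
      congr 1
      exact_mod_cast (Real.rpow_natCast (Lam X.D) 2).symm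
    T1 := t2
    T2 := t1
    tot := by
      have h7 := (abs_le.1 hX.cls.mass).2
      have hom := ome_pos m
      have h8 : om m = ome m := rfl
      rw [h8]
      unfold Sit.V
      have : 0 < ome m * 4 ^ m := by positivity
      linarith
    en := hX.cls.en }

end

end Crest.Agent.R234.Nn_173
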