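import Crest.Agent.R234.Shp6_98
import Crest.Agent.R234.Fld3_387
import Crest.Agent.R234.Avg6_387
import Crest.Agent.R234.Well8_761

/-!
# Row 234 (helper98): the well part of `Core_809.Fld` over helper387's `Da`

`aIw D x c = 2 Nav (wells c.C c.q)`, `eF = deriv (aIw) / 2`; the hypotheses `hpt`, `hcs` of
`Fld_387.fld`.
-/

set_option autoImplicit false

open MeasureTheory Set Function Filter Topology Metric
open Crest.GeometryTopology.Submanifold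
open Crest.Agent.R234.Vf_884 Crest.Agent.R234.Ar_870 Crest.Agent.R234.Cy_870
open Crest.Agent.R234.Asl_214 Crest.Agent.R234.Avg_387 Crest.Agent.R234.Raw_387
open Crest.Agent.R234.Pot_425 Crest.Agent.R234.Rep_387 Crest.Agent.R234.Fld_387
open Crest.Agent.R234.Well_761 (WCfg wells)
open scoped ENNReal NNReal InnerProductSpace

noncomputable section

namespace Crest.Agent.R234.Shp_98

variable {m n k : ℕ}

/-- 761's configurations as elements of `WP` -/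
def toWP (c : WCfg (Euc n)) : WP n := ⟨(c.C, c.q), c.sep, c.hq⟩

theorem qW_toWP (c : WCfg (Euc n)) : qW (toWP c) = c.q := rfl

theorem FW_toWP (c : WCfg (Euc n)) : FW (toWP c) = wells c.C c.q := rfl

/-- averaged height over the wells -/
def aIw (D : Da m n k) (x : Euc m) (c : WCfg (Euc n)) (l : ℝ) : ℝ :=
  2 * Wi_870.Nav (dd m D.τ) D.W D.π D.κ D.w.θ' x l (wells c.C c.q)

theorem aIw_eq (D : Da m n k) (x : Euc m) (c : WCfg (Euc n)) :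
    aIw D x c = IFw (dd m D.τ) D.W D.π D.κ D.w.θ' x (toWP c) := by
  funext l
  unfold aIw Wi_870.Nav IFw IFa
  rw [FW_toWP, ← av_const_mul]
  unfold av
  refine integral_congr_ae (Eventually.of_forall fun y => ?_)
  simp only [Wi_870.IF_eq_nuG]
  ring

variable {D : Da m n k} {h₀ c₀ K₀ A D₀ a T R δa KB κ' q1 tM mM : ℝ} {g2 : ℝ → ℝ} {x : Euc m}

theorem deriv_aIw (ok : D.Ok h₀ c₀ K₀ g2) (x : Euc m) (c : WCfg (Euc n)) (l : ℝ) :
    deriv (aIw D x c) l / 2 = Fm (dd m D.τ) D.W D.π D.κ D.w.θ x (toWP c) l +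
      Gm (dd m D.τ) D.W D.π D.κ D.w.θ' g2 x (toWP c) l := by
  rw [aIw_eq, (hasDerivAt_IFw ok.ff ok.hh ok.τ0.le (cw_dd ok.τ0) ok.prof x (toWP c) l).deriv]
  ring

/-- `Us ≥ D₀ > 0` on the window -/
theorem Us_ge (ok : D.Ok h₀ c₀ K₀ g2) (hx : D.At A D₀ a T x) {l : ℝ} (hal : a ≤ l)
    (hl : l ≤ T) : D₀ ≤ D.Us x l :=
  hx.tall.trans ((hx.raw ok).Us_mono ok.K2 hal hl)

/-- the bound of the non absorbed error used for the window -/
theorem tw_le {M₀ q l s : ℝ} (hKB : 0 ≤ KB) (hδa : 0 ≤ δa) (hM₀ : 0 ≤ M₀) (hs : 0 < s)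
    (hsl : s ≤ Real.exp l) (hq : q ^ 2 ≤ q1) (htM : 0 ≤ tM) (hmM : 0 ≤ mM) :
    tw KB δa h₀ M₀ q tM mM l ≤
      KB * q1 * M₀ / 4 * (δa * (tM / s ^ 2 + h₀ ^ 2 * mM) + tM / s ^ 2) ∧
      0 ≤ tw KB δa h₀ M₀ q tM mM l := by
  have h1 : Real.exp (-2 * l) ≤ 1 / s ^ 2 := by
    have h2 : Real.exp (-2 * l) = 1 / Real.exp l ^ 2 := by
      rw [one_div, ← Real.exp_nat_mul, ← Real.exp_neg]
      congr 1
      push_cast
      ring
    rw [h2]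
    exact one_div_le_one_div_of_le (by positivity) (pow_le_pow_left₀ hs.le hsl 2)
  have h3 : Real.exp (-2 * l) * tM ≤ tM / s ^ 2 := by
    have := mul_le_mul_of_nonneg_right h1 htM
    have e : 1 / s ^ 2 * tM = tM / s ^ 2 := by ring
    rwa [e] at this
  unfold tw
  constructor
  · have h4 : KB * q ^ 2 * M₀ / 4 ≤ KB * q1 * M₀ / 4 := by
      have := mul_le_mul_of_nonneg_left hq hKB
      have := mul_le_mul_of_nonneg_right this hM₀
      linarith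
    have h5 : 0 ≤ KB * q1 * M₀ / 4 := le_trans (by positivity) h4
    refine mul_le_mul h4 ?_ (by positivity) h5
    have h6 := mul_le_mul_of_nonneg_left (add_le_add_left h3 (h₀ ^ 2 * mM)) hδa
    linarith
  · positivity

/-- everything which is used of the window in the well part -/
structure WIn (D : Da m n k) (h₀ R δa KB q1 κ' D₀ a T tM mM : ℝ) (g2 : ℝ → ℝ) (x : Euc m) :
    Prop where
  as : CylAS D.W D.π D.κ 0 R h₀ δa
  m1 : 1 ≤ m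
  hh : 0 ≤ h₀
  R1 : 1 ≤ R
  δa0 : 0 ≤ δa
  d7 : D.δ' = 7 * δa
  δ1 : D.δ ≤ 1
  K9 : 9 ≤ D.K
  κ0 : 0 ≤ κ'
  D0 : 0 < D₀
  aT : a ≤ T
  bd : Bd D.w.θ' g2 KB
  tM0 : 0 ≤ tM
  mM0 : 0 ≤ mM
  tb : ∀ l ∈ Icc a T, ∀ y ∈ closedBall x D.τ, Asl_214.tb D.W D.π y l ≤ tM
  mb : ∀ l ∈ Icc a T, ∀ y ∈ closedBall x D.τ, Asl_214.mb D.W D.π y l ≤ mM
  q10 : 0 ≤ q1
  num : 4 * (KB * q1 * Md m / 4 * (δa * (tM / Real.exp a ^ 2 + h₀ ^ 2 * mM) +
    tM / Real.exp a ^ 2)) ^ 2 ≤ κ' * D.δ * D₀ ^ 2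

theorem WIn.ht {a' : ℝ} (ok : D.Ok h₀ c₀ K₀ g2) (hx : D.At A D₀ a' T x)
    (h : WIn D h₀ R δa KB q1 κ' D₀ a T tM mM g2 x) (haa : a' ≤ a) (v : WP n)
    (hv : qW v ^ 2 ≤ q1) {l : ℝ} (hl : l ∈ Icc a T) :
    4 * tw KB δa h₀ (∫ z, dd m D.τ z) (qW v) tM mM l ^ 2 ≤ κ' * D.δ * D.Us x a ^ 2 := by
  rw [integral_dd ok.τ0]
  have hM : 0 ≤ Md m := by
    have := integral_dd (m := m) ok.τ0
    rw [← this]
    exact integral_nonneg (cw_dd ok.τ0).nonneg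
  obtain ⟨h1, h2⟩ := tw_le (h₀ := h₀) (mM := mM) (l := l) h.bd.nonneg h.δa0 hM
    (Real.exp_pos a) (Real.exp_le_exp.2 hl.1) hv h.tM0 h.mM0
  have h3 := pow_le_pow_left₀ h2 h1 2
  have h4 : D₀ ^ 2 ≤ D.Us x a ^ 2 := pow_le_pow_left₀ h.D0.le (Us_ge ok hx haa h.aT) 2
  have h5 : κ' * D.δ * D₀ ^ 2 ≤ κ' * D.δ * D.Us x a ^ 2 :=
    mul_le_mul_of_nonneg_left h4 (mul_nonneg h.κ0 ok.δ0.le)
  linarith [h.num]

/-- **`hpt` of `Fld_387.fld`** -/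
theorem hpt_Da {a' : ℝ} (ok : D.Ok h₀ c₀ K₀ g2) (hx : D.At A D₀ a' T x)
    (h : WIn D h₀ R δa KB q1 κ' D₀ a T tM mM g2 x) (haa : a' ≤ a) :
    Core_809.PtDat (fun c : WCfg (Euc n) => c.q) κ' a T q1 (D.Us x) (D.Es x) (D.Rs x)
      (fun c l => deriv (aIw D x c) l / 2) (aIw D x) (fun _ _ => 0) := by
  have f1 := ok.fβ
  have f2 := ok.fγ
  have f3 := ok.fb₂
  have h7 := h.d7
  have hδδ : 7 * δa ≤ D.δ := by rw [← h7]; exact ok.δδ
  have hU : D.Us x = Us D.K D.δ (EEa (dd m D.τ) D.W D.π D.w.θ D.Q x)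
      (eea (dd m D.τ) D.W D.π D.w.θ x) (PY (7 * δa) D.W D.π D.κ D.τ D.w x)
      (BB D.w D.β (b2s D.b₂ D.W D.π (D.K * m / 2 * D.δ)) x) := by
    rw [← h7]; rfl
  have hE : D.Es x = Es D.K D.δ (EEa (dd m D.τ) D.W D.π D.w.θ D.Q x)
      (eea (dd m D.τ) D.W D.π D.w.θ x) (PY (7 * δa) D.W D.π D.κ D.τ D.w x) := by
    rw [← h7]; rfl
  have hR : D.Rs x = Rs D.K D.δ (eea (dd m D.τ) D.W D.π D.w.θ x)
      (eta (dd m D.τ) D.W D.π D.w.θ' x) (hata D.w D.γ x) (RRa (dd m D.τ) D.W D.π D.w.θ' x)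
      (fun l => - av (dd m D.τ) (Avg_387.f1 D.W D.π D.w.θ) x l)
      (pY (7 * δa) D.W D.π D.κ D.τ D.w x) := by
    rw [← h7]; rfl
  have h1 := ptDat_AS (a := a) (x := x) h.m1 h.as h.hh h.R1 h.δa0 ok.τ0 ok.prof
    (b₁ := D.β + D.γ) rfl ok.rep ok.δ0 hδδ h.δ1 h.K9 h.aT hx.hT h.κ0
    (by rw [← hU]; exact h.D0.trans_le (Us_ge ok hx haa h.aT))
    (fun l hl => hx.hB l (haa.trans hl.1) hl.2) h.bd (tM := fun _ => tM) (mM := fun _ => mM)
    (fun _ _ => h.tM0) h.tb h.mb (q1 := q1)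
    (fun v hv l hl => by rw [← hU]; exact h.ht ok hx haa v hv hl)
  rw [← hU, ← hE, ← hR] at h1
  refine
    { haT := h1.haT
      k0 := h1.k0
      Upos := h1.Upos
      hR := h1.hR
      hU := h1.hU
      Rnn := h1.Rnn
      UE := h1.UE
      Em := h1.Em
      Inn := fun c => by rw [aIw_eq]; exact h1.Inn (toWP c)
      he := fun c hc => by
        have h2 := h1.he (toWP c) hc
        simp only [deriv_aIw ok]
        exact h2
      hρ := fun c hc => h1.hρ (toWP c) hc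
      hI := fun c hc y hy => by
        have h2 := h1.hI (toWP c) hc y hy
        simp only [deriv_aIw ok]
        rw [aIw_eq]
        exact h2
      cs := fun c hc => by
        have h2 := h1.cs (toWP c) hc
        simp only [deriv_aIw ok]
        rw [aIw_eq]
        exact h2
      rho := fun c hc => h1.rho (toWP c) hc }

/-- **`hcs` of `Fld_387.fld`** -/
theorem hcs_Da {a' : ℝ} (ok : D.Ok h₀ c₀ K₀ g2) (hx : D.At A D₀ a' T x)
    (h : WIn D h₀ R δa KB q1 κ' D₀ a T tM mM g2 x) (haa : a' ≤ a) (c : WCfg (Euc n))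
    (hc : c.q ^ 2 ≤ q1) {l : ℝ} (hl : l ∈ Icc a T) :
    (deriv (aIw D x c) l / 2) ^ 2 ≤ D.Rs x l * aIw D x c l + κ' * D.Us x l ^ 2 := by
  have f1 := ok.fβ
  have f2 := ok.fγ
  have f3 := ok.fb₂
  have h7 := h.d7
  have hδδ : 7 * δa ≤ D.δ := by rw [← h7]; exact ok.δδ
  have hU : D.Us x = Us D.K D.δ (EEa (dd m D.τ) D.W D.π D.w.θ D.Q x)
      (eea (dd m D.τ) D.W D.π D.w.θ x) (PY (7 * δa) D.W D.π D.κ D.τ D.w x)
      (BB D.w D.β (b2s D.b₂ D.W D.π (D.K * m / 2 * D.δ)) x) := by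
    rw [← h7]; rfl
  have hR : D.Rs x = Rs D.K D.δ (eea (dd m D.τ) D.W D.π D.w.θ x)
      (eta (dd m D.τ) D.W D.π D.w.θ' x) (hata D.w D.γ x) (RRa (dd m D.τ) D.W D.π D.w.θ' x)
      (fun l => - av (dd m D.τ) (Avg_387.f1 D.W D.π D.w.θ) x l)
      (pY (7 * δa) D.W D.π D.κ D.τ D.w x) := by
    rw [← h7]; rfl
  have h1 := cs_AS (a := a) (x := x) h.m1 h.as h.hh h.R1 h.δa0 ok.τ0 ok.prof
    (b₁ := D.β + D.γ) rfl ok.rep ok.δ0 hδδ h.δ1 h.K9 hx.hT h.κ0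
    (by rw [← hU]; exact h.D0.trans_le (Us_ge ok hx haa h.aT))
    h.bd (tM := fun _ => tM) (mM := fun _ => mM)
    (fun _ _ => h.tM0) h.tb h.mb (q1 := q1)
    (fun v hv l hl => by rw [← hU]; exact h.ht ok hx haa v hv hl) (v := toWP c) hc hl
  rw [← hU, ← hR] at h1
  rw [deriv_aIw ok, aIw_eq, mul_comm (D.Rs x l)]
  exact h1

end Crest.Agent.R234.Shp_98
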