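import Mathlib

/-!
Row 234 (helper822): the numbers of the well half at a contact situation.
-/

set_option autoImplicit false

open Filter Topology

noncomputable section

namespace Crest.Agent.R234.We_822

theorem log_eight_le : Real.log 8 ≤ 3 := by
  have h1 : Real.log 8 = 3 * Real.log 2 := by
    rw [show (8:ℝ) = 2 ^ 3 by norm_num, Real.log_pow]
    norm_num
  have := Real.log_two_lt_d9
  rw [h1]
  linarith

/-- **numbers of a contact situation**: `L = Λ`, `y = √D = e^{-Λ/2}`, `b = 100 (m+1) (a+1)`,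
`s0 = y Λ^b`, `st = Λ^-b`, `log Λ ≤ t`, `t + 8 ≤ log (st / s0)`, `E = e^l = s0 e^t` -/
theorem num_sit {L y b a δ t q E A : ℝ} (hL : 20 ≤ L) (hy : y = Real.exp (-(L / 2)))
    (hb : 0 ≤ b) (ha : 0 ≤ a) (hδ : δ ≤ L ^ (-4 : ℝ)) (ht : Real.log L ≤ t)
    (htT : t + 8 ≤ Real.log (L ^ (-b) / (y * L ^ b)))
    (hE : E = y * L ^ b * Real.exp t) (hq0 : 0 < q) (hq1 : q ^ 2 ≤ L ^ (2:ℝ) * y ^ 2)
    (hA : L ^ (-b) * y ^ 2 ≤ A) (hqA : A ≤ q ^ 2) :
    20 * (y * L ^ (-a) / 4) ≤ E ∧ E ≤ 1 / 1000 ∧ q ≤ 1 ∧ q ≤ E ∧ y ≤ E / 2 ∧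
      1 + Real.log (8 * E / q) ≤ (5 + 2 * b) * t ∧
      (√δ + δ * y * E / q) * (1 + Real.log (8 * E / q)) ≤ 10 / L := by
  have hL0 : 0 < L := by linarith
  have hL1 : 1 ≤ L := by linarith
  have hy0 : 0 < y := by rw [hy]; exact Real.exp_pos _
  have hlogL : 1 ≤ Real.log L := by
    rw [Real.le_log_iff_exp_le hL0]
    have := Real.exp_one_lt_d9
    linarith
  have ht1 : 1 ≤ t := hlogL.trans ht
  have hLb : 1 ≤ L ^ b := Real.one_le_rpow hL1 hb
  have hLnb : L ^ (-b) ≤ 1 := Real.rpow_le_one_of_one_le_of_nonpos hL1 (by linarith)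
  have hLnb0 : 0 < L ^ (-b) := Real.rpow_pos_of_pos hL0 _
  have hexpt : L ≤ Real.exp t := by
    rw [← Real.log_le_iff_le_exp hL0]
    exact ht
  have hE0 : 0 < E := by rw [hE]; positivity
  have hyE : L * y ≤ E := by
    rw [hE]
    have h1 : y * 1 ≤ y * L ^ b := mul_le_mul_of_nonneg_left hLb hy0.le
    have h2 : y * L ≤ y * L ^ b * Real.exp t :=
      mul_le_mul (by linarith) hexpt hL0.le (by positivity)
    linarith
  -- the top
  have hs0 : 0 < y * L ^ b := by positivity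
  have hEtop : E ≤ L ^ (-b) * Real.exp (-8) := by
    have h1 : Real.exp (t + 8) ≤ L ^ (-b) / (y * L ^ b) := by
      rw [← Real.le_log_iff_exp_le (by positivity)]
      exact htT
    rw [le_div_iff₀ hs0] at h1
    rw [Real.exp_add] at h1
    have h2 : Real.exp 8 * Real.exp (-8) = 1 := by rw [← Real.exp_add]; simp
    calc E = (Real.exp t * Real.exp 8 * (y * L ^ b)) * Real.exp (-8) := by
          rw [hE]; linear_combination (-(y * L ^ b * Real.exp t)) * h2
      _ ≤ _ := mul_le_mul_of_nonneg_right h1 (Real.exp_pos _).le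
  have he8 : Real.exp (-8) ≤ 1 / 1000 := by
    have h1 : (2.7:ℝ) ≤ Real.exp 1 := by
      have := Real.exp_one_gt_d9
      linarith
    have h2 : Real.exp 8 = Real.exp 1 ^ 8 := by rw [← Real.exp_nat_mul]; norm_num
    have h3 : (2.7:ℝ) ^ 8 ≤ Real.exp 1 ^ 8 := pow_le_pow_left₀ (by norm_num) h1 8
    rw [Real.exp_neg, inv_eq_one_div]
    refine one_div_le_one_div_of_le (by norm_num) ?_
    rw [h2]
    exact le_trans (by norm_num) h3
  have hE1000 : E ≤ 1 / 1000 := by
    refine hEtop.trans ?_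
    calc L ^ (-b) * Real.exp (-8) ≤ 1 * (1 / 1000) :=
          mul_le_mul hLnb he8 (Real.exp_pos _).le zero_le_one
      _ = _ := one_mul _
  -- `q`
  have hq2 : q ≤ L * y := by
    have h1 : L ^ (2:ℝ) = L ^ 2 := by norm_cast
    rw [h1, ← mul_pow] at hq1
    exact (sq_le_sq₀ hq0.le (by positivity)).1 hq1
  have hqlow : L ^ (-(b / 2)) * y ≤ q := by
    have h1 : (L ^ (-(b / 2)) * y) ^ 2 = L ^ (-b) * y ^ 2 := by
      rw [mul_pow, ← Real.rpow_natCast, ← Real.rpow_mul hL0.le]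
      congr 2
      push_cast
      ring
    have h2 : (L ^ (-(b / 2)) * y) ^ 2 ≤ q ^ 2 := by rw [h1]; exact hA.trans hqA
    exact (sq_le_sq₀ (by positivity) hq0.le).1 h2
  have hL2 : 0 < L ^ (-(b / 2)) := Real.rpow_pos_of_pos hL0 _
  have hL2' : L ^ (-(b / 2)) * L ^ (b / 2) = 1 := by
    rw [← Real.rpow_add hL0]; simp
  have hqi : y / q ≤ L ^ (b / 2) := by
    rw [div_le_iff₀ hq0]
    calc y = (L ^ (-(b / 2)) * L ^ (b / 2)) * y := by rw [hL2', one_mul]
      _ = L ^ (b / 2) * (L ^ (-(b / 2)) * y) := by ring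
      _ ≤ _ := mul_le_mul_of_nonneg_left hqlow (by positivity)
  have hEq0 : 0 < 8 * E / q := by positivity
  have h8 := log_eight_le
  -- the first logarithm
  have hlog1 : Real.log (8 * E / q) ≤ 3 + (3 / 2 * b) * Real.log L + t := by
    have h1 : 8 * E / q ≤ 8 * (L ^ (3 / 2 * b) * Real.exp t) := by
      have e1 : L ^ (3 / 2 * b) = L ^ b * L ^ (b / 2) := by
        rw [← Real.rpow_add hL0]; congr 1; ring
      calc 8 * E / q = 8 * (L ^ b * Real.exp t) * (y / q) := by rw [hE]; ring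
        _ ≤ 8 * (L ^ b * Real.exp t) * L ^ (b / 2) :=
          mul_le_mul_of_nonneg_left hqi (by positivity)
        _ = _ := by rw [e1]; ring
    have h2 := Real.log_le_log hEq0 h1
    rw [Real.log_mul (by norm_num) (by positivity), Real.log_mul (by positivity)
      (Real.exp_pos _).ne', Real.log_rpow hL0, Real.log_exp] at h2
    linarith
  have hbt : (3 / 2 * b) * Real.log L ≤ (3 / 2 * b) * t :=
    mul_le_mul_of_nonneg_left ht (by positivity)
  -- the second logarithm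
  have hlog2 : 1 + Real.log (8 * E / q) ≤ L := by
    have h1 : 8 * E / q ≤ 8 * (L ^ (-(b / 2)) / y) := by
      have e0 : E ≤ L ^ (-b) := hEtop.trans (by
        have : Real.exp (-8) ≤ 1 := by linarith
        calc L ^ (-b) * Real.exp (-8) ≤ L ^ (-b) * 1 :=
              mul_le_mul_of_nonneg_left this hLnb0.le
          _ = _ := mul_one _)
      have e1 : L ^ (-b) * L ^ (b / 2) = L ^ (-(b / 2)) := by
        rw [← Real.rpow_add hL0]; congr 1; ring
      calc 8 * E / q = 8 * E * (y / q) / y := by field_simp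
        _ ≤ 8 * L ^ (-b) * L ^ (b / 2) / y := by gcongr
        _ = 8 * ((L ^ (-b) * L ^ (b / 2)) / y) := by ring
        _ = _ := by rw [e1]
    have h2 := Real.log_le_log hEq0 h1
    rw [Real.log_mul (by norm_num) (by positivity), Real.log_div hL2.ne' hy0.ne',
      Real.log_rpow hL0, hy, Real.log_exp] at h2
    have h3 : 0 ≤ b / 2 * Real.log L := by positivity
    linarith
  have hlog0 : 0 ≤ 1 + Real.log (8 * E / q) := by
    have : 0 ≤ Real.log (8 * E / q) := by
      refine Real.log_nonneg ?_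
      rw [le_div_iff₀ hq0]
      linarith
    linarith
  refine ⟨?_, hE1000, ?_, ?_, ?_, ?_, ?_⟩
  · have h1 : L ^ (-a) ≤ 1 := Real.rpow_le_one_of_one_le_of_nonpos hL1 (by linarith)
    have h2 : y * L ^ (-a) ≤ y * 1 := mul_le_mul_of_nonneg_left h1 hy0.le
    have h3 : 20 * y ≤ L * y := mul_le_mul_of_nonneg_right hL hy0.le
    linarith
  · linarith
  · linarith
  · have h3 : 20 * y ≤ L * y := mul_le_mul_of_nonneg_right hL hy0.le
    linarith
  · have : 0 ≤ b * t := by positivity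
    nlinarith
  · -- the last one
    have hδ2 : L ^ (-4 : ℝ) = (L ^ (-2 : ℝ)) ^ 2 := by
      rw [← Real.rpow_natCast, ← Real.rpow_mul hL0.le]; norm_num
    have hs : √δ ≤ L ^ (-2 : ℝ) := by
      rw [Real.sqrt_le_left (by positivity)]
      rw [← hδ2]; exact hδ
    have hb2 : δ * y * E / q ≤ L ^ (-2 : ℝ) := by
      have e0 : E ≤ L ^ (-b) := hEtop.trans (by
        have : Real.exp (-8) ≤ 1 := by linarith
        calc L ^ (-b) * Real.exp (-8) ≤ L ^ (-b) * 1 :=
              mul_le_mul_of_nonneg_left this hLnb0.le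
          _ = _ := mul_one _)
      have e1 : L ^ (-b) * L ^ (b / 2) = L ^ (-(b / 2)) := by
        rw [← Real.rpow_add hL0]; congr 1; ring
      have e2 : L ^ (-(b / 2)) ≤ 1 := Real.rpow_le_one_of_one_le_of_nonpos hL1 (by linarith)
      have e3 : L ^ (-4 : ℝ) ≤ L ^ (-2 : ℝ) := Real.rpow_le_rpow_of_exponent_le hL1 (by norm_num)
      calc δ * y * E / q = δ * (E * (y / q)) := by ring
        _ ≤ L ^ (-4 : ℝ) * (L ^ (-b) * L ^ (b / 2)) := by gcongr
        _ = L ^ (-4 : ℝ) * L ^ (-(b / 2)) := by rw [e1]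
        _ ≤ L ^ (-4 : ℝ) * 1 := mul_le_mul_of_nonneg_left e2 (by positivity)
        _ ≤ L ^ (-2 : ℝ) := by rw [mul_one]; exact e3
    have h2 : L ^ (-2 : ℝ) = 1 / L ^ 2 := by
      rw [Real.rpow_neg hL0.le, inv_eq_one_div]; norm_cast
    calc (√δ + δ * y * E / q) * (1 + Real.log (8 * E / q))
        ≤ (L ^ (-2 : ℝ) + L ^ (-2 : ℝ)) * L := by gcongr
      _ = 2 / L := by rw [h2]; field_simp; ring
      _ ≤ 10 / L := by
        apply div_le_div_of_nonneg_right _ hL0.le
        norm_num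

end Crest.Agent.R234.We_822
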