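import Crest.Agent.R234.We13_822
import Crest.Agent.R234.We14_822
import Crest.Agent.R234.Thv1_561
import Crest.Agent.R234.Core4_809
import Crest.Agent.R234.Shp8_98
import Crest.Agent.R234.Ins1_387
import Crest.Agent.R234.Sml3_870

/-!
Row 234 (helper822): the well half of `HLoc` at a contact situation `X : Core_809.Sit` (form of
helper561, post 8468).
-/

set_option autoImplicit false

open MeasureTheory Set Function Filter Topology
open Crest.GeometryTopology.Submanifold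
open Crest.Agent.R234.Vf_884 Crest.Agent.R234.Ar_870 Crest.Agent.R234.Cy_870
open Crest.Agent.R234.Wi_870 Crest.Agent.R234.Asl_214 Crest.Agent.R234.Avg_387
open Crest.Agent.R234.Shp_98 Crest.Agent.R234.Core_809
open Crest.Agent.R234.Well_761 (WCfg)
open Crest.Agent.R234.N5_372 (eM)
open scoped ENNReal NNReal InnerProductSpace

noncomputable section

namespace Crest.Agent.R234.We_822

/-! ### the profile -/

theorem mx_bd {t : ℝ} (ht : 0 ≤ t) : 0 ≤ max (1 - t) 0 ∧ max (1 - t) 0 ≤ 1 ∧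
    t * max (1 - t) 0 ≤ 1 := by
  have h0 : 0 ≤ max (1 - t) 0 := le_max_right _ _
  have h1 : max (1 - t) 0 ≤ 1 := max_le (by linarith) zero_le_one
  refine ⟨h0, h1, ?_⟩
  rcases le_total t 1 with h | h
  · exact (mul_le_mul h h1 h0 zero_le_one).trans (by norm_num)
  · rw [max_eq_right (by linarith)]; norm_num

theorem bd_w0 : Bd w0.θ w0.θ' 12 where
  b0 t ht := by
    obtain ⟨h0, h1, -⟩ := mx_bd ht
    change |(max (1 - t) 0) ^ 4| ≤ 12
    rw [abs_of_nonneg (by positivity)]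
    have := pow_le_one₀ (n := 4) h0 h1
    linarith
  b1 t ht := by
    obtain ⟨h0, h1, -⟩ := mx_bd ht
    change |-(4 * (max (1 - t) 0) ^ 3)| ≤ 12
    rw [abs_neg, abs_of_nonneg (by positivity)]
    have := pow_le_one₀ (n := 3) h0 h1
    linarith
  b2 t ht := by
    obtain ⟨h0, h1, h2⟩ := mx_bd ht
    change |t * -(4 * (max (1 - t) 0) ^ 3)| ≤ 12
    have e1 : t * -(4 * (max (1 - t) 0) ^ 3) =
        -(4 * ((t * max (1 - t) 0) * (max (1 - t) 0) ^ 2)) := by ring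
    rw [e1, abs_neg, abs_of_nonneg (by positivity)]
    have h3 := pow_le_one₀ (n := 2) h0 h1
    have h4 : (t * max (1 - t) 0) * (max (1 - t) 0) ^ 2 ≤ 1 * 1 :=
      mul_le_mul h2 h3 (by positivity) zero_le_one
    linarith

theorem bd_w1 : Bd w0.θ' w2 12 where
  b0 t ht := bd_w0.b1 t ht
  b1 t ht := by
    obtain ⟨h0, h1, -⟩ := mx_bd ht
    change |12 * (max (1 - t) 0) ^ 2| ≤ 12
    rw [abs_of_nonneg (by positivity)]
    have := pow_le_one₀ (n := 2) h0 h1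
    linarith
  b2 t ht := by
    obtain ⟨h0, h1, h2⟩ := mx_bd ht
    change |t * (12 * (max (1 - t) 0) ^ 2)| ≤ 12
    have e1 : t * (12 * (max (1 - t) 0) ^ 2) = 12 * ((t * max (1 - t) 0) * max (1 - t) 0) := by
      ring
    rw [e1, abs_of_nonneg (by positivity)]
    have h4 : (t * max (1 - t) 0) * max (1 - t) 0 ≤ 1 * 1 := mul_le_mul h2 h1 h0 zero_le_one
    linarith

theorem w0_low : ∀ t, 0 ≤ t → t ≤ 1 / 4 → ((3:ℝ) / 4) ^ 4 ≤ w0.θ t := by
  intro t _ ht
  change ((3:ℝ) / 4) ^ 4 ≤ (max (1 - t) 0) ^ 4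
  exact pow_le_pow_left₀ (by norm_num) (le_max_of_le_left (by linarith)) 4

theorem ker_w0 : Well_761.Ker (kap w0.θ') (2 * 12) (2 * (27 / 16)) :=
  ker_kap prof0 (fun t ht => bd_w0.b1 t ht) (by norm_num) fun t _ ht => by
    change -(4 * (max (1 - t) 0) ^ 3) ≤ -(27 / 16)
    have h1 : ((3:ℝ) / 4) ^ 3 ≤ (max (1 - t) 0) ^ 3 :=
      pow_le_pow_left₀ (by norm_num) (le_max_of_le_left (by linarith)) 3
    norm_num at h1
    linarith

theorem w0_nonneg : ∀ t, 0 ≤ t → 0 ≤ w0.θ t := fun t _ => by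
  change 0 ≤ (max (1 - t) 0) ^ 4
  positivity

/-! ### the situation -/

variable {m n : ℕ} {a : ℝ}

theorem aI_eq (X : Sit m n a) (x : Euc m) (c : WCfg (Euc n)) (l : ℝ) :
    X.aI x c l = IFw (dd m (tauOf a X.D)) X.V X.π X.κ w0.θ' x (toWP c) l := by
  unfold Sit.aI Nav IFw IFa
  rw [FW_toWP, ← av_const_mul]
  unfold av
  refine integral_congr_ae (Eventually.of_forall fun y => ?_)
  simp only [IF_eq_nuG]
  ring

theorem Z_norm {Q : ℕ} {K cS : ℝ} {X : Sit m n a} (h : IsSit Q K cS X) {x : Euc m}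
    (hx : x ∈ X.Z) : ‖x‖ ≤ 1 - blOf a X.D + tauOf a X.D := by
  obtain ⟨y, hy, rfl⟩ := hx
  exact h.out.nrm y hy

theorem sqrt_D {D : ℝ} (hD : 0 < D) : √D = Real.exp (-(Lam D / 2)) := by
  have h1 : Real.exp (-(Lam D / 2)) ^ 2 = D := by
    rw [← Real.exp_nat_mul]
    have : ((2:ℕ):ℝ) * -(Lam D / 2) = -Lam D := by push_cast; ring
    rw [this]
    unfold Lam
    rw [one_div, Real.log_inv, neg_neg, Real.exp_log hD]
  calc √D = √(Real.exp (-(Lam D / 2)) ^ 2) := by rw [h1]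
    _ = _ := Real.sqrt_sq (Real.exp_pos _).le

theorem aux_fin {Cg cG θ A P t C Lg M q2 : ℝ} (hCg : 0 ≤ Cg) (hcG : 0 ≤ cG * θ) (hA : 0 ≤ A)
    (hP : 0 ≤ P) (_hC : 0 ≤ C) (ht : 0 ≤ t) (hLg : Lg ≤ C * t) (h2 : Cg * C ≤ M * (cG * θ))
    (hq : M * t * A ≤ q2) : Cg * A * P * Lg ≤ cG * (θ * P) * q2 := by
  have h3 : 0 ≤ t * (A * P) := by positivity
  calc Cg * A * P * Lg ≤ Cg * A * P * (C * t) := mul_le_mul_of_nonneg_left hLg (by positivity)
    _ = (Cg * C) * (t * (A * P)) := by ring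
    _ ≤ (M * (cG * θ)) * (t * (A * P)) := mul_le_mul_of_nonneg_right h2 h3
    _ = (cG * θ) * P * (M * t * A) := by ring
    _ ≤ (cG * θ) * P * q2 := mul_le_mul_of_nonneg_left hq (by positivity)
    _ = _ := by ring

set_option maxHeartbeats 1000000 in
/-- **THE WELL HALF OF HLoc AT A CONTACT SITUATION** -/
theorem well_sit {d : ℕ} (hdm : d + 2 = m) (n Q : ℕ) {a : ℝ} (ha : 0 ≤ a) :
    ∃ c1 CW : ℝ, 0 < c1 ∧ 0 < CW ∧ ∀ θ : ℝ, 0 < θ → ∃ Θ : ℝ, 0 < Θ ∧ ∃ l0 : ℝ,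
    ∀ (K cS : ℝ) (X : Sit m n a), IsSit Q K cS X → l0 ≤ Real.log (Lam X.D) →
    ∀ x ∈ X.Z, ∀ t, Real.log (Lam X.D) ≤ t → t + 8 ≤ TOf m a X.D →
    ∀ c : WCfg (Euc n), c.q ^ 2 ≤ q1Of X.D →
    ∀ A : ℝ, eea (dd m (tauOf a X.D)) X.V X.π w0.θ x (t + Real.log (s0Of m a X.D) + 4) ≤ A →
      Lam X.D ^ (-(100 * (m + 1) * (a + 1))) * X.D ≤ A → Θ * t * A ≤ c.q ^ 2 →
      X.aI x c (t + Real.log (s0Of m a X.D) + 1) ≤ c1 * c.q ^ 2 →
    ∀ {pL : Euc m → Euc d}, LipschitzWith 1 pL → ∀ {w : ℝ}, 0 ≤ w →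
      (∀ N : Set (Euc m),
        N ⊆ Metric.closedBall x (Real.exp (t + Real.log (s0Of m a X.D) + 1)) →
        volume (pL '' N) ≤
          ENNReal.ofReal (θ * Real.exp (t + Real.log (s0Of m a X.D) + 1) ^ d) →
        eM X.V X.π N ≤ ENNReal.ofReal w) →
      eea (dd m (tauOf a X.D)) X.V X.π w0.θ x (t + Real.log (s0Of m a X.D)) ≤
        Fm (dd m (tauOf a X.D)) X.V X.π X.κ w0.θ x (toWP c) (t + Real.log (s0Of m a X.D)) +
        av (dd m (tauOf a X.D)) (f2 X.V X.π X.κ (dFW (toWP c)) w0.θ) x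
          (t + Real.log (s0Of m a X.D)) +
        CW * (Real.exp ((2 - m) * (t + Real.log (s0Of m a X.D))) * w) := by
  have hm : 1 ≤ m := by lia
  have hMd := Md_pos (m := m) (by lia)
  have hC0 := Ins_387.C0_nonneg m Q
  have home : 0 < ome m := ome_pos m
  obtain ⟨cs, c1, cG, hcs, hc1, hcG, hmain⟩ := well_half hdm prof0 w0_nonneg bd_w0 bd_w1
    (c := ((3:ℝ) / 4) ^ 4) (by norm_num) w0_low ker_w0 (c0 := ome m / 2 ^ m)
    (C1 := Ins_387.C0 m Q) (M := Md m) (by positivity) hC0 hMd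
  have hBB := BB_one
  set b : ℝ := 100 * (m + 1) * (a + 1) with hb
  have hb0 : 0 ≤ b := by positivity
  refine ⟨c1, (1 + BB) * 12 * Md m, hc1, by positivity, fun θ hθ => ?_⟩
  have hCg : 0 < Thin_561.Cg d (((3:ℝ) / 4) ^ 4) (Md m) := by unfold Thin_561.Cg; positivity
  set Cg := Thin_561.Cg d (((3:ℝ) / 4) ^ 4) (Md m) with hCgdef
  refine ⟨max 1 (Cg * (5 + 2 * b) / (cG * θ)), lt_max_of_lt_left one_pos,
    Real.log (max 20 (10 / cs)), ?_⟩
  intro K cS X hX hl0 x hx t ht htT c hq1 A hA hAlow hqA hIF pL hpL w hw hN5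
  obtain ⟨hδ0, hδ1, hD0, hD1⟩ : 0 ≤ X.δ ∧ X.δ ≤ Lam X.D ^ (-4 : ℝ) ∧ 0 < X.D ∧ X.D < 1 :=
    ⟨hX.δ0, hX.δ1, hX.D0, hX.D1⟩
  have hLpos : 0 < Lam X.D := by
    unfold Lam
    exact Real.log_pos (by rw [one_div]; exact (one_lt_inv₀ hD0).2 hD1)
  have hLmax : max 20 (10 / cs) ≤ Lam X.D := (Real.log_le_log_iff (by positivity) hLpos).1 hl0
  have hL20 : 20 ≤ Lam X.D := (le_max_left _ _).trans hLmax
  have hLcs : 10 / Lam X.D ≤ cs := by
    have h1 : 10 / cs ≤ Lam X.D := (le_max_right _ _).trans hLmax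
    rw [div_le_iff₀ hcs] at h1
    rw [div_le_iff₀ hLpos]
    linarith
  set L := Lam X.D with hL
  set y := √X.D with hy
  have hy0 : 0 < y := Real.sqrt_pos.2 hD0
  have hyD : y ^ 2 = X.D := Real.sq_sqrt hD0.le
  have hs0 : s0Of m a X.D = y * L ^ b := rfl
  have hs00 : 0 < s0Of m a X.D := by rw [hs0]; positivity
  set l := t + Real.log (s0Of m a X.D) with hl
  have hlogL : 1 ≤ Real.log L := by
    rw [Real.le_log_iff_exp_le hLpos]
    have := Real.exp_one_lt_d9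
    linarith
  have ht1 : 1 ≤ t := hlogL.trans ht
  have hEl : Real.exp l = y * L ^ b * Real.exp t := by
    rw [hl, Real.exp_add, Real.exp_log hs00, hs0]; ring
  have hqpos : 0 < c.q := c.hq
  have hA0 : 0 < A := lt_of_lt_of_le (by positivity) hAlow
  have hΘ1 : 1 ≤ max 1 (Cg * (5 + 2 * b) / (cG * θ)) := le_max_left _ _
  have hqA' : A ≤ c.q ^ 2 := by
    refine le_trans ?_ hqA
    have h1 : 1 ≤ max 1 (Cg * (5 + 2 * b) / (cG * θ)) * t := by
      have := mul_le_mul hΘ1 ht1 zero_le_one (by positivity)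
      linarith
    calc A = 1 * A := (one_mul A).symm
      _ ≤ _ := mul_le_mul_of_nonneg_right h1 hA0.le
  obtain ⟨n1, n2, n3, n4, n5, n6, n7⟩ := num_sit (L := L) (y := y) (b := b) (a := a) (δ := X.δ)
    (t := t) (q := c.q) (E := Real.exp l) (A := A) hL20 (by rw [hy]; exact sqrt_D hD0) hb0 ha hδ1
    ht htT hEl hqpos (by rw [hyD]; exact hq1) (by rw [hyD]; exact hAlow) hqA'
  have hτ0 : 0 < tauOf a X.D := by unfold tauOf hOf; positivity
  have hl0' : l ≤ 0 := by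
    have : Real.exp l ≤ 1 := by linarith
    exact Real.exp_le_one_iff.1 this
  have he1 : Real.exp (l + 1) ≤ 3 * Real.exp l := by
    rw [Real.exp_add]
    have := Real.exp_one_lt_d9
    nlinarith [Real.exp_pos l]
  have hbl : 0 < blOf a X.D := by unfold blOf; positivity
  have hZ := Z_norm hX hx
  have hτ20 : 20 * tauOf a X.D ≤ Real.exp l := n1
  have hdx : dist x 0 + Real.exp (l + 1) ≤ 4 := by
    rw [dist_zero_right]
    linarith
  have hcyl : CylAS X.V X.π X.κ 0 4 (√X.D) X.δ := Ins_387.cylAS hX.cls hD1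
  have hδ1' : X.δ ≤ 1 := hδ1.trans (Real.rpow_le_one_of_one_le_of_nonpos (by linarith)
    (by norm_num))
  have hD4 : X.D ≤ 1 / 4 := by
    have h1 : y ≤ 1 / 2 := by linarith
    have h2 : y ^ 2 ≤ (1 / 2) ^ 2 := pow_le_pow_left₀ hy0.le h1 2
    rw [hyD] at h2
    norm_num at h2 ⊢
    exact h2
  have hgen : Thin_561.Gen X.V X.π X.κ := ⟨hcyl.sp, hcyl.conc, hcyl.fin⟩
  have hG := hgen.eM8 hdm (cw_dd hτ0) prof0 (x := x) (c := ((3:ℝ) / 4) ^ 4) (l := l + 1) (A := A)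
    (by norm_num) (by rw [integral_dd hτ0]; exact hMd) w0_low (by
      have : Real.exp l ≤ Real.exp (l + 1) := Real.exp_le_exp.2 (by linarith)
      linarith) (by
      have e1 : l + 1 + 3 = t + Real.log (s0Of m a X.D) + 4 := by rw [hl]; ring
      rw [e1]; exact hA)
  rw [integral_dd hτ0] at hG
  have hG' : eM X.V X.π (Metric.closedBall x (Real.exp (l + 1))) ≤
      ENNReal.ofReal (Cg * A * Real.exp (l + 1) ^ d) := by
    refine (measure_mono (Metric.closedBall_subset_closedBall (by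
      have := Real.exp_pos (l + 1)
      linarith : Real.exp (l + 1) ≤ 8 * Real.exp (l + 1)))).trans ?_
    rw [← ENNReal.ofReal_toReal (hgen.eM_ne_top measurableSet_closedBall)]
    exact ENNReal.ofReal_le_ofReal hG
  have hR := hmain (n := n) (k := X.k) (π := X.π) (κ := X.κ) (x := x) (x₀ := 0) (W := X.V)
    (R := 4) (h₀ := √X.D) (δ := X.δ) (τ := tauOf a X.D) (dw := dd m (tauOf a X.D)) hcyl hδ0 hδ1'
    hy0.le (by linarith) (cw_dd hτ0) (integral_dd hτ0) hτ0.le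
    (fun r hr hr1 => Sml_870.low_part hX.cls hm hD4 hr hr1)
    (v := toWP c) (l := l) (b := X.δ * y * Real.exp l / c.q) hτ20 hl0' hdx n3 n4
    (by
      rw [← aI_eq]
      exact hIF)
    (fun x' _ => by
      have h1 := Crs_173.mass_cyl hcyl (fun z r hr _ => Ins_387.ubd hX.cls hm z hr) x'
        (r := Real.exp l / 2) (by positivity) (by linarith) n5
      have e1 : 2 * (Real.exp l / 2) = Real.exp l := by ring
      rwa [e1] at h1)
    (by positivity)
    (by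
      change X.δ * √X.D * Real.exp l ≤ X.δ * y * Real.exp l / c.q * c.q
      rw [div_mul_cancel₀ _ hqpos.ne'])
    (n7.trans hLcs) hpL (G := Cg * A * Real.exp (l + 1) ^ d)
    (θ := θ * Real.exp (l + 1) ^ d) (w := w) (by positivity) hG' ?_ hw hN5
  · exact hR.2
  · change Cg * A * Real.exp (l + 1) ^ d * (1 + Real.log (8 * Real.exp l / c.q)) ≤
      cG * (θ * Real.exp (l + 1) ^ d) * c.q ^ 2
    have h2 : Cg * (5 + 2 * b) / (cG * θ) ≤ max 1 (Cg * (5 + 2 * b) / (cG * θ)) :=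
      le_max_right _ _
    rw [div_le_iff₀ (by positivity)] at h2
    have h4 : 0 < Real.exp (l + 1) ^ d := by positivity
    exact aux_fin (by positivity) (by positivity) hA0.le h4.le (by positivity) (by linarith) n6
      h2 hqA

end Crest.Agent.R234.We_822
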