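import Crest.Agent.R234.Well11_761
import Crest.Agent.R234.Core2_809

/-!
Row 234, VF-N8AV (helper761), file 12: NODE N8 (`Core_809.HNet`) from a list of class facts
(`NetHyp`); the constants depend on `m` and on the constants of the class only.
-/

set_option autoImplicit false
set_option linter.unusedSectionVars false

open MeasureTheory Set Function Filter Topology Metric
open Crest.GeometryTopology.Submanifold
open Crest.Agent.R234.Vf_884 Crest.Agent.R234.Ar_870 Crest.Agent.R234.Cy_870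
open Crest.Agent.R234.Wi_870 Crest.Agent.R234.Asl_214 Crest.Agent.R234.Avg_387
open Crest.Agent.R234.Core_809
open scoped ENNReal NNReal InnerProductSpace

noncomputable section

namespace Crest.Agent.R234.Well_761

variable {m n : ℕ} {g g1 g2 : ℝ → ℝ}

/-- the varifold `W` behind a contact situation, as used by N8; `Λ = log (1/D)`, window
`[a0, T]` of `t = l - log s₀` -/
structure NetHyp (g g1 : ℝ → ℝ) (M c0 c2 C1 CE β : ℝ) {k : ℕ} (d : Euc m → ℝ)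
    (W : Measure (Euc k × L k)) (π : Euc k →L[ℝ] Euc m) (κ : Euc k →L[ℝ] Euc n)
    (R h₀ δ τ Λ s₀ a0 T q1 : ℝ) (Z : Set (Euc m)) (E e : Euc m → ℝ → ℝ)
    (IF : Euc m → WCfg (Euc n) → ℝ → ℝ) : Prop where
  as : CylAS W π κ 0 R h₀ δ
  R1 : 1 ≤ R
  δ0 : 0 ≤ δ
  δ1 : δ * Λ ^ 2 ≤ 1
  h0 : 0 ≤ h₀
  hD : h₀ ^ 2 ≤ Real.exp (-Λ)
  cw : CW d τ
  cM : ∫ z, d z = M
  τ0 : 0 ≤ τ
  τr : τ ≤ 3 / 4 * s₀
  s0 : 0 < s₀
  ha0 : 1 ≤ a0
  low : ∀ᵐ p ∂W, ∀ r, 0 < r → ‖π p.1‖ + r ≤ 1 →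
    ENNReal.ofReal (c0 * r ^ m) ≤ W (Metric.closedBall p.1 r ×ˢ univ)
  top : ∀ (y : Euc m) (l : ℝ), ‖y‖ + Real.exp l ≤ 1 → s₀ ≤ Real.exp l →
    We_822.muR W π κ y l ≤ C1 * Real.exp (m * l)
  mas : ∀ x ∈ Z, ∀ l : ℝ, s₀ ≤ Real.exp l → Real.exp l ≤ s₀ * Real.exp T →
    c2 * Real.exp (m * l) ≤ We_822.muR W π κ x l
  dom : ∀ x ∈ Z, ‖x‖ + s₀ * Real.exp T ≤ 1
  sbot : Real.exp (-Λ) * Λ ^ 2 ≤ s₀ ^ 2
  stop : (s₀ * Real.exp T) ^ 2 * Λ ^ β ≤ 1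
  E0 : ∀ x ∈ Z, ∀ t ∈ Icc a0 T, 0 ≤ E x t
  ee : ∀ x ∈ Z, ∀ t ∈ Icc a0 T, eea d W π g x (Real.log s₀ + t) ≤ e x t
  el : ∀ x ∈ Z, ∀ t ∈ Icc a0 T, Real.exp (-Λ) ≤ Λ ^ β * e x t
  eu : ∀ x ∈ Z, ∀ t ∈ Icc a0 T, e x t ≤ CE * Real.exp (-Λ)
  hq1 : Λ ^ 2 * Real.exp (-Λ) ≤ q1
  IFe : ∀ x ∈ Z, ∀ w t, IF x w t = 2 * Nav d W π κ g1 x (Real.log s₀ + t) (wells w.C w.q)

theorem eventually_rpow_le_exp (a β : ℝ) :
    ∀ᶠ Λ : ℝ in atTop, a * Λ ^ β ≤ Real.exp Λ := by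
  have h1 := (tendsto_rpow_mul_exp_neg_mul_atTop_nhds_zero β 1 one_pos).const_mul a
  rw [mul_zero] at h1
  filter_upwards [h1.eventually_le_const (u := 1) one_pos] with x hx
  have h2 : Real.exp (-1 * x) * Real.exp x = 1 := by
    rw [← Real.exp_add]
    simp
  calc a * x ^ β = a * (x ^ β * Real.exp (-1 * x)) * Real.exp x := by
        rw [show a * (x ^ β * Real.exp (-1 * x)) * Real.exp x =
          a * x ^ β * (Real.exp (-1 * x) * Real.exp x) by ring, h2, mul_one]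
    _ ≤ 1 * Real.exp x := mul_le_mul_of_nonneg_right hx (Real.exp_pos x).le
    _ = _ := one_mul _

theorem sixteen_le_exp_eight : (17 : ℝ) ≤ Real.exp 8 := by
  have h1 := exp_four_ge
  have h2 : Real.exp 4 ≤ Real.exp 8 := Real.exp_le_exp.2 (by norm_num)
  linarith

set_option maxHeartbeats 1000000 in
/-- **NODE N8** -/
theorem hnet_family (m n : ℕ) {K c cg M c0 c2 C1 CE : ℝ} (P : PC g g1 g2 K c cg) (hM0 : 0 < M)
    (hc0 : 0 < c0) (hc2 : 0 < c2) (hC1 : 0 ≤ C1) (hCE : 0 ≤ CE) (β : ℝ) {c1 Θ C3 : ℝ}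
    (hc1 : 0 < c1) (hΘ : 0 ≤ Θ) :
    ∃ C0 : ℝ, 0 < C0 ∧ ∃ Λ0 : ℝ, ∀ Λ ≥ Λ0, ∀ {k : ℕ} {d : Euc m → ℝ} {W : Measure (Euc k × L k)}
      {π : Euc k →L[ℝ] Euc m} {κ : Euc k →L[ℝ] Euc n} {R h₀ δ τ s₀ a0 T q1 : ℝ}
      {Z : Set (Euc m)} {E e : Euc m → ℝ → ℝ} {IF : Euc m → WCfg (Euc n) → ℝ → ℝ},
      NetHyp g g1 M c0 c2 C1 CE β d W π κ R h₀ δ τ Λ s₀ a0 T q1 Z E e IF →
      HNet Z (fun w : WCfg (Euc n) => w.q) a0 T q1 Θ c1 C3 C0 E e IF := by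
  have hK0 := P.K0
  have hKw := Kw_nonneg hK0
  have hCw := Cw_nonneg hK0
  have hCμ := We_822.CMU_nonneg (m := m) (a := 1 / 4) P.cg0 hK0 hC1 (zero_le_one (α := ℝ))
  obtain ⟨Cμ, hCμd⟩ : ∃ Cμ, Cμ = We_822.CMU m cg (1 / 4) K C1 1 := ⟨_, rfl⟩
  rw [← hCμd] at hCμ
  obtain ⟨C₅, hC₅d⟩ : ∃ C₅, C₅ = C5 m K c M := ⟨_, rfl⟩
  have hC₅ : 1 ≤ C₅ := by rw [hC₅d]; exact one_le_C5 m K c M
  obtain ⟨Ce, hCed⟩ : ∃ Ce, Ce = 2 * 80 ^ m * Cen m cg M * 1 := ⟨_, rfl⟩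
  have hCe : 0 ≤ Ce := by
    rw [hCed]
    unfold Cen
    have := P.cg0
    positivity
  obtain ⟨cm, hcmd⟩ : ∃ cm, cm = Real.exp (-m) * (2 * c * c2) * M / C₅ / 128 := ⟨_, rfl⟩
  have hcm : 0 < cm := by
    rw [hcmd]
    have := P.c0
    positivity
  -- the threshold
  obtain ⟨Θ', hΘ'1, hΘ'2, hΘ'3, hΘ'4, hΘ'5⟩ : ∃ Θ' : ℝ, Θ ≤ Θ' ∧ 1 ≤ Θ' ∧ 128 * Ce ≤ Θ' ∧
      183 * C₅ * Kw K * Ce * 8 / c1 ≤ Θ' ∧ 183 * Kw K * Ce * 4 / cm ≤ Θ' := by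
    refine ⟨Θ + 1 + 128 * Ce + 183 * C₅ * Kw K * Ce * 8 / c1 + 183 * Kw K * Ce * 4 / cm, ?_⟩
    have e1 : 0 ≤ 128 * Ce := by positivity
    have e2 : 0 ≤ 183 * C₅ * Kw K * Ce * 8 / c1 := by positivity
    have e3 : 0 ≤ 183 * Kw K * Ce * 4 / cm := by positivity
    refine ⟨?_, ?_, ?_, ?_, ?_⟩ <;> linarith
  have hΘ'0 : 0 < Θ' := by linarith
  obtain ⟨A, hA1, hA2⟩ : ∃ A : ℝ, 1 ≤ A ∧ 24 * C₅ * K * Cμ / c1 ≤ A ^ 2 := by
    refine ⟨1 + 24 * C₅ * K * Cμ / c1, ?_, ?_⟩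
    · have : 0 ≤ 24 * C₅ * K * Cμ / c1 := by positivity
      linarith
    · have : 0 ≤ 24 * C₅ * K * Cμ / c1 := by positivity
      nlinarith
  obtain ⟨N, hN1, hN⟩ : ∃ N : ℕ, 1 ≤ N ∧ 2 ^ m * Cμ / c0 ≤ N := by
    refine ⟨⌈2 ^ m * Cμ / c0⌉₊ + 1, by lia, ?_⟩
    have := Nat.le_ceil (2 ^ m * Cμ / c0)
    push_cast
    linarith
  have hA0 : 0 < A := by linarith
  have hAN : 0 < A ^ (2 * N) := by positivity
  have hcA : 0 < c1 * (A ^ (2 * N) * Θ') := by positivity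
  refine ⟨c1 * (A ^ (2 * N) * Θ') * (|C3| + 1), by positivity, ?_⟩
  have hev : ∀ᶠ Λ : ℝ in atTop, 4 ≤ Λ ∧ 200 ^ 2 * Λ ^ β ≤ Real.exp Λ ∧ Θ' * CE ≤ Λ ∧
      A ^ (2 * N) * Θ' * CE ≤ Λ ∧ cg⁻¹ * Real.exp (m * (1 / 4)) * (16 * K) ≤ Λ ∧
      9 * C₅ * Cw K * Cμ * 8 / c1 ≤ Λ ∧ 9 * Cw K * Cμ * 4 / cm ≤ Λ := by
    filter_upwards [eventually_ge_atTop 4, eventually_rpow_le_exp (200 ^ 2) β,
      eventually_ge_atTop (Θ' * CE), eventually_ge_atTop (A ^ (2 * N) * Θ' * CE),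
      eventually_ge_atTop (cg⁻¹ * Real.exp (m * (1 / 4)) * (16 * K)),
      eventually_ge_atTop (9 * C₅ * Cw K * Cμ * 8 / c1),
      eventually_ge_atTop (9 * Cw K * Cμ * 4 / cm)] with Λ h1 h2 h3 h4 h5 h6 h7
    exact ⟨h1, h2, h3, h4, h5, h6, h7⟩
  obtain ⟨Λ0, hΛ0⟩ := eventually_atTop.1 hev
  refine ⟨Λ0, ?_⟩
  intro Λ hΛ k d W π κ R h₀ δ τ s₀ a0 T q1 Z E' e IF hS x hx t ht0 htT hdbl
  obtain ⟨l1, l2, l3, l4, l5, l6, l7⟩ := hΛ0 Λ hΛ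
  have hΛp : 0 < Λ := by linarith
  have hΛb : 0 < Λ ^ β := Real.rpow_pos_of_pos hΛp _
  have ht1 : 1 ≤ t := hS.ha0.trans ht0
  have hr0 := hS.s0
  obtain ⟨L0, hL0⟩ : ∃ L0 : ℝ, L0 = Real.log s₀ := ⟨_, rfl⟩
  have hexpL : Real.exp L0 = s₀ := by rw [hL0, Real.exp_log (by positivity)]
  have htm : t + 4 ∈ Icc a0 T := ⟨by linarith, by linarith⟩
  obtain ⟨E, hE⟩ : ∃ E : ℝ, E = e x (t + 4) := ⟨_, rfl⟩
  have hel := hS.el x hx _ htm
  have heu := hS.eu x hx _ htm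
  have hee := hS.ee x hx _ htm
  rw [← hE] at hel heu hee hdbl
  have hEp : 0 < E := by
    have h1 := Real.exp_pos (-Λ)
    by_contra hcon
    push Not at hcon
    have := mul_nonpos_of_nonneg_of_nonpos hΛb.le hcon
    linarith
  have hexp1 := Real.exp_pos (-Λ)
  have hexp2 : Real.exp (-Λ) * Real.exp Λ = 1 := by rw [← Real.exp_add, neg_add_cancel, Real.exp_zero]
  have hδ1 : δ ≤ 1 := by
    have h1 : δ * 1 ≤ δ * Λ ^ 2 := mul_le_mul_of_nonneg_left (by nlinarith) hS.δ0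
    linarith [hS.δ1]
  have hδΛ : δ * Λ ≤ 1 / Λ := by
    rw [le_div_iff₀ hΛp]
    have := hS.δ1
    linarith [show δ * Λ * Λ = δ * Λ ^ 2 by ring]
  have hδΛ0 : 0 ≤ δ * Λ := mul_nonneg hS.δ0 hΛp.le
  have hhD : h₀ ^ 2 ≤ 1 := hS.hD.trans (Real.exp_le_one_iff.2 (by linarith))
  have hh1 : h₀ ≤ 1 := by
    by_contra hcon
    push Not at hcon
    nlinarith
  -- scales
  have hs0 := Real.exp_pos (L0 + t)
  have hsT : 17 * Real.exp (L0 + t) ≤ s₀ * Real.exp T := by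
    rw [← hexpL, ← Real.exp_add]
    have h1 : Real.exp 8 * Real.exp (L0 + t) ≤ Real.exp (L0 + T) := by
      rw [← Real.exp_add]
      exact Real.exp_le_exp.2 (by linarith)
    have h2 := mul_le_mul_of_nonneg_right sixteen_le_exp_eight hs0.le
    linarith
  have hdomx := hS.dom x hx
  have hT1 : s₀ * Real.exp T ≤ 1 := by linarith [norm_nonneg x]
  have hT1' : 0 < s₀ * Real.exp T := by positivity
  have hTΛ : T ≤ Λ := by
    have h1 : Real.exp (-Λ) ≤ s₀ ^ 2 := by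
      refine le_trans ?_ hS.sbot
      have : Real.exp (-Λ) * 1 ≤ Real.exp (-Λ) * Λ ^ 2 :=
        mul_le_mul_of_nonneg_left (by nlinarith) hexp1.le
      linarith
    have h2 : s₀ ^ 2 * Real.exp T ^ 2 ≤ 1 := by
      rw [← mul_pow]
      exact pow_le_one₀ hT1'.le hT1
    have h3 : Real.exp (-Λ) * Real.exp T ^ 2 ≤ 1 :=
      (mul_le_mul_of_nonneg_right h1 (by positivity)).trans h2
    rw [← Real.exp_nat_mul, ← Real.exp_add, Real.exp_le_one_iff] at h3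
    push_cast at h3
    linarith
  have hΘt : 0 < Θ' * t * E := by positivity
  have hΘtE : E ≤ Θ' * t * E := by
    have : 1 ≤ Θ' * t := one_le_mul_of_one_le_of_one_le hΘ'2 ht1
    exact le_mul_of_one_le_left hEp.le this
  have hLgc : Real.log (64 * Real.exp (L0 + t + 1) / √(Θ' * t * E)) ≤ Λ := by
    rw [Real.log_le_iff_le_exp (by positivity), div_le_iff₀ (Real.sqrt_pos.2 hΘt)]
    have h1 : Real.exp (L0 + t + 1) ≤ 1 := by
      rw [Real.exp_add]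
      have := Real.exp_one_lt_d9
      nlinarith
    have h2 : Real.exp (-Λ) / Λ ^ β ≤ Θ' * t * E := by
      rw [div_le_iff₀ hΛb]
      calc Real.exp (-Λ) ≤ Λ ^ β * E := hel
        _ ≤ Λ ^ β * (Θ' * t * E) := mul_le_mul_of_nonneg_left hΘtE hΛb.le
        _ = _ := mul_comm _ _
    have h3 : 64 ≤ Real.exp Λ * √(Θ' * t * E) := by
      have h4 : (64 : ℝ) ^ 2 ≤ (Real.exp Λ * √(Θ' * t * E)) ^ 2 := by
        rw [mul_pow, Real.sq_sqrt hΘt.le]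
        calc (64 : ℝ) ^ 2 ≤ 200 ^ 2 := by norm_num
          _ ≤ Real.exp Λ / Λ ^ β := by rw [le_div_iff₀ hΛb]; exact l2
          _ = Real.exp Λ ^ 2 * (Real.exp (-Λ) / Λ ^ β) := by
              have : Real.exp Λ ^ 2 * (Real.exp (-Λ) / Λ ^ β) =
                Real.exp Λ * (Real.exp (-Λ) * Real.exp Λ) / Λ ^ β := by ring
              rw [this, hexp2, mul_one]
          _ ≤ _ := mul_le_mul_of_nonneg_left h2 (by positivity)
      exact (pow_le_pow_iff_left₀ (by norm_num) (by positivity) two_ne_zero).1 h4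
    linarith
  have hw1c : Θ' * t * E * Λ ≤ Real.exp (2 * (L0 + t)) := by
    have h1 : Real.exp (2 * (L0 + t)) = s₀ ^ 2 * Real.exp (2 * t) := by
      rw [← hexpL, ← Real.exp_nat_mul, ← Real.exp_add]
      congr 1
      push_cast
      ring
    have h2 : t ≤ Real.exp (2 * t) := by
      have := Real.add_one_le_exp (2 * t)
      linarith
    rw [h1]
    calc Θ' * t * E * Λ ≤ Θ' * Real.exp (2 * t) * (CE * Real.exp (-Λ)) * Λ := by gcongr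
      _ = (Θ' * CE) * (Λ * Real.exp (-Λ)) * Real.exp (2 * t) := by ring
      _ ≤ Λ * (Λ * Real.exp (-Λ)) * Real.exp (2 * t) := by gcongr
      _ = (Real.exp (-Λ) * Λ ^ 2) * Real.exp (2 * t) := by ring
      _ ≤ _ := mul_le_mul_of_nonneg_right hS.sbot (Real.exp_pos _).le
  have hw5c : 4 * δ * Λ ≤ 1 := by
    have h1 : 1 / Λ ≤ 1 / 4 := one_div_le_one_div_of_le (by norm_num) l1
    linarith [show 4 * δ * Λ = 4 * (δ * Λ) by ring]
  have hwhc : (16 * Real.exp (L0 + t)) ^ 2 * h₀ ^ 2 ≤ Θ' * t * E := by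
    refine le_trans ?_ hΘtE
    have h1 : (16 * Real.exp (L0 + t)) ^ 2 ≤ (s₀ * Real.exp T) ^ 2 :=
      pow_le_pow_left₀ (by positivity) (by linarith) 2
    have h2 : (16 * Real.exp (L0 + t)) ^ 2 * Λ ^ β ≤ 1 :=
      (mul_le_mul_of_nonneg_right h1 hΛb.le).trans hS.stop
    have h3 : (16 * Real.exp (L0 + t)) ^ 2 * h₀ ^ 2 ≤
        (16 * Real.exp (L0 + t)) ^ 2 * (Λ ^ β * E) :=
      mul_le_mul_of_nonneg_left (hS.hD.trans hel) (sq_nonneg _)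
    calc _ ≤ _ := h3
      _ = ((16 * Real.exp (L0 + t)) ^ 2 * Λ ^ β) * E := by ring
      _ ≤ 1 * E := mul_le_mul_of_nonneg_right h2 hEp.le
      _ = E := one_mul E
  have hsmc : cg⁻¹ * Real.exp (m * (1 / 4)) * (4 * K * δ * h₀ ^ 2) * (2 * Λ) ≤ 1 / 2 := by
    have hcgi : 0 < cg⁻¹ := inv_pos.2 P.cg0
    calc cg⁻¹ * Real.exp (m * (1 / 4)) * (4 * K * δ * h₀ ^ 2) * (2 * Λ)
        ≤ cg⁻¹ * Real.exp (m * (1 / 4)) * (4 * K * δ * 1) * (2 * Λ) := by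
          have := hS.δ0
          gcongr
      _ = (cg⁻¹ * Real.exp (m * (1 / 4)) * (16 * K)) * (δ * Λ) / 2 := by ring
      _ ≤ Λ * (1 / Λ) / 2 := by
          gcongr
      _ = 1 / 2 := by field_simp
  have hA1c : 3 * C5 m K c M * (2 * K * We_822.CMU m cg (1 / 4) K C1 1 / (2 * A ^ 2) +
      60 * Kw K * (2 * 80 ^ m * Cen m cg M * 1 / Θ') +
      (Kw K * (2 * 80 ^ m * Cen m cg M * 1 / Θ') +
        3 * Cw K * We_822.CMU m cg (1 / 4) K C1 1 * δ * Λ)) ≤ c1 / 2 := by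
    rw [← hCed, ← hC₅d, ← hCμd]
    have e1 : 3 * C₅ * (2 * K * Cμ / (2 * A ^ 2)) ≤ c1 / 8 := by
      rw [div_le_iff₀ hc1] at hA2
      have : 3 * C₅ * (2 * K * Cμ / (2 * A ^ 2)) = 3 * C₅ * K * Cμ / A ^ 2 := by
        field_simp
      rw [this, div_le_iff₀ (by positivity)]
      linarith
    have e2 : 3 * C₅ * (61 * Kw K * (Ce / Θ')) ≤ c1 / 8 := by
      rw [div_le_iff₀ hc1] at hΘ'4
      have : 3 * C₅ * (61 * Kw K * (Ce / Θ')) = 183 * C₅ * Kw K * Ce / Θ' := by ring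
      rw [this, div_le_iff₀ hΘ'0]
      linarith
    have e3 : 3 * C₅ * (3 * Cw K * Cμ * δ * Λ) ≤ c1 / 8 := by
      rw [div_le_iff₀ hc1] at l6
      calc 3 * C₅ * (3 * Cw K * Cμ * δ * Λ) = 9 * C₅ * Cw K * Cμ * (δ * Λ) := by ring
        _ ≤ 9 * C₅ * Cw K * Cμ * (1 / Λ) := by gcongr
        _ = (9 * C₅ * Cw K * Cμ * 8) / Λ / 8 := by ring
        _ ≤ Λ * c1 / Λ / 8 := by gcongr
        _ = c1 / 8 := by field_simp
    have e4 : 3 * C₅ * (2 * K * Cμ / (2 * A ^ 2) + 60 * Kw K * (Ce / Θ') +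
        (Kw K * (Ce / Θ') + 3 * Cw K * Cμ * δ * Λ)) =
        3 * C₅ * (2 * K * Cμ / (2 * A ^ 2)) + 3 * C₅ * (61 * Kw K * (Ce / Θ')) +
        3 * C₅ * (3 * Cw K * Cμ * δ * Λ) := by ring
    rw [e4]
    linarith
  have hA3c : 3 * (60 * Kw K * (2 * 80 ^ m * Cen m cg M * 1 / Θ') +
      (Kw K * (2 * 80 ^ m * Cen m cg M * 1 / Θ') +
        3 * Cw K * We_822.CMU m cg (1 / 4) K C1 1 * δ * Λ)) <
      Real.exp (-m) * (2 * c * c2) * M / C5 m K c M / 128 := by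
    rw [← hCed, ← hC₅d, ← hCμd, ← hcmd]
    have e2 : 3 * (61 * Kw K * (Ce / Θ')) ≤ cm / 4 := by
      rw [div_le_iff₀ hcm] at hΘ'5
      have : 3 * (61 * Kw K * (Ce / Θ')) = 183 * Kw K * Ce / Θ' := by ring
      rw [this, div_le_iff₀ hΘ'0]
      linarith
    have e3 : 3 * (3 * Cw K * Cμ * δ * Λ) ≤ cm / 4 := by
      rw [div_le_iff₀ hcm] at l7
      calc 3 * (3 * Cw K * Cμ * δ * Λ) = 9 * Cw K * Cμ * (δ * Λ) := by ring
        _ ≤ 9 * Cw K * Cμ * (1 / Λ) := by gcongr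
        _ = (9 * Cw K * Cμ * 4) / Λ / 4 := by ring
        _ ≤ Λ * cm / Λ / 4 := by gcongr
        _ = cm / 4 := by field_simp
    have e4 : 3 * (60 * Kw K * (Ce / Θ') + (Kw K * (Ce / Θ') + 3 * Cw K * Cμ * δ * Λ)) =
        3 * (61 * Kw K * (Ce / Θ')) + 3 * (3 * Cw K * Cμ * δ * Λ) := by ring
    rw [e4]
    linarith
  obtain ⟨v, v1, v2, v3⟩ := net_pt (c2 := c2) (c1 := c1) (L0 := L0) (t := t) (Θ := Θ') (E := E)
    (Lg := Λ) (A := A) (N := N) P hS.as hS.δ0 hδ1 hS.h0 hh1 hS.R1 le_rfl hS.cw hS.τ0 hS.cM hM0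
    hc0 hC1 (by simpa using hS.low)
    (by
      intro y l hy hl
      rw [dist_zero_right] at hy
      refine hS.top y l hy ?_
      rw [← hexpL]
      exact Real.exp_le_exp.2 hl)
    (by rw [hexpL]; exact hS.τr) hN1 (by rw [← hCμd]; exact hN) ht1
    (by rw [dist_zero_right]; linarith) hEp
    (by rw [add_assoc, hL0]; exact hee) hc2.le
    (by
      refine hS.mas x hx _ ?_ ?_
      · rw [← hexpL]
        exact Real.exp_le_exp.2 (by linarith)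
      · linarith)
    hA1 hΘ'0 (by linarith) hLgc hw1c hw5c hwhc hsmc hA1c (by rw [← hCed]; exact hΘ'3) hA3c
  have hE0 := hS.E0 x hx t ⟨ht0, by linarith⟩
  have hE2 : 0 < E' x t := by
    rcases hE0.lt_or_eq with h | h
    · exact h
    · rw [← h, mul_zero] at hdbl
      linarith
  have hC3p : 0 < C3 := by
    by_contra hcon
    push Not at hcon
    have := mul_nonpos_of_nonpos_of_nonneg hcon hE2.le
    linarith
  have ht0' : 0 < t := by linarith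
  have habs : |C3| = C3 := abs_of_pos hC3p
  refine ⟨v, ?_, ?_, ?_, ?_, ?_⟩
  · -- `q ^ 2 ≤ q1`
    refine v2.trans (le_trans ?_ hS.hq1)
    have e1 : t ≤ Λ := by linarith
    calc A ^ (2 * N) * (Θ' * t * E) ≤ A ^ (2 * N) * (Θ' * Λ * (CE * Real.exp (-Λ))) := by
          gcongr
      _ = (A ^ (2 * N) * Θ' * CE) * Λ * Real.exp (-Λ) := by ring
      _ ≤ Λ * Λ * Real.exp (-Λ) := by gcongr
      _ = _ := by ring
  · refine le_trans ?_ v1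
    rw [← hE]
    gcongr
  · have h1 := v3 (L0 + t + 1) ⟨by linarith, le_rfl⟩
    rw [hS.IFe x hx, ← hL0, ← add_assoc]
    exact h1
  · have h1 := v3 (L0 + t) ⟨le_rfl, by linarith⟩
    rw [hS.IFe x hx, ← hL0, habs]
    calc _ ≤ c1 * v.q ^ 2 := h1
      _ ≤ c1 * (A ^ (2 * N) * (Θ' * t * E)) := mul_le_mul_of_nonneg_left v2 hc1.le
      _ ≤ c1 * (A ^ (2 * N) * (Θ' * t * (C3 * E' x t))) := by gcongr
      _ = (c1 * (A ^ (2 * N) * Θ') * C3) * (t * E' x t) := by ring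
      _ ≤ (c1 * (A ^ (2 * N) * Θ') * (C3 + 1)) * (t * E' x t) := by
          refine mul_le_mul_of_nonneg_right ?_ (by positivity)
          exact mul_le_mul_of_nonneg_left (by linarith) hcA.le
      _ = _ := by ring
  · have h1 := v3 (L0 + t + 1) ⟨by linarith, le_rfl⟩
    rw [hS.IFe x hx, ← hL0, ← add_assoc, habs, ← hE]
    calc _ ≤ c1 * v.q ^ 2 := h1
      _ ≤ c1 * (A ^ (2 * N) * (Θ' * t * E)) := mul_le_mul_of_nonneg_left v2 hc1.le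
      _ = (c1 * (A ^ (2 * N) * Θ') * 1) * (t * E) := by ring
      _ ≤ (c1 * (A ^ (2 * N) * Θ') * (C3 + 1)) * (t * E) := by
          refine mul_le_mul_of_nonneg_right ?_ (by positivity)
          exact mul_le_mul_of_nonneg_left (by linarith) hcA.le

end Crest.Agent.R234.Well_761
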