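import Crest.Agent.R234.Nn2_173
import Crest.Agent.R234.Well12_761
import Crest.Agent.R234.We15_822
import Crest.Agent.R234.Bds7_214
import Crest.Agent.R234.Core6_809

/-!
Row 234, NNET instance (helper173), file 3: **node NNET**: `NNetP` of `Core6_809` from helper761's
`hnet_family`, helper214's window bounds, helper387's `exists_at`, and the facts `Bas`.
-/

set_option autoImplicit false

open MeasureTheory Filter Topology Set Metric
open scoped ENNReal NNReal

namespace Crest.Agent.R234.Nn_173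

open Crest.GeometryTopology.Submanifold
open Crest.Agent.R234.Vf_884 Crest.Agent.R234.Ar_870 Crest.Agent.R234.Cy_870
open Crest.Agent.R234.Asl_214 Crest.Agent.R234.Crs_173
open Crest.Agent.R234.Core_809 Crest.Agent.R234.Par_504 Crest.Agent.R234.Bds_214
open Crest.Agent.R234.Avg_387 (dd cw_dd CW integral_dd Md Md_pos)
open Crest.Agent.R234.Well_761 (PC NetHyp hnet_family)
open Crest.Agent.R234.Wi_870 (Nav)

noncomputable section

/-- the profile of the core in helper761's form -/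
theorem pc0 : PC w0.θ w0.θ' w2 12 (27 / 16) (1 / 81) where
  pr := prof0
  b := We_822.bd_w0
  b1 := We_822.bd_w1
  g0 := We_822.w0_nonneg
  c0 := by norm_num
  g1c t _ ht := by
    change -(4 * (max (1 - t) 0) ^ 3) ≤ -(27 / 16)
    have h1 : ((3:ℝ) / 4) ^ 3 ≤ (max (1 - t) 0) ^ 3 :=
      pow_le_pow_left₀ (by norm_num) (le_max_of_le_left (by linarith)) 3
    norm_num at h1
    linarith
  cg0 := by norm_num
  gc t _ ht := by
    change (1 / 81 : ℝ) ≤ (max (1 - t) 0) ^ 4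
    have h1 : Real.exp (-2 * (1 / 4)) ≤ 2 / 3 := by
      have h2 : (3 / 2 : ℝ) ≤ Real.exp (2 * (1 / 4)) := by
        have := Real.add_one_le_exp (2 * (1 / 4) : ℝ)
        linarith
      have h3 : Real.exp (-2 * (1 / 4)) * Real.exp (2 * (1 / 4)) = 1 := by
        rw [← Real.exp_add]; norm_num
      have h4 := Real.exp_pos (-2 * (1 / 4) : ℝ)
      nlinarith
    have h5 : ((1:ℝ) / 3) ^ 4 ≤ (max (1 - t) 0) ^ 4 :=
      pow_le_pow_left₀ (by norm_num) (le_max_of_le_left (by linarith)) 4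
    norm_num at h5 ⊢
    exact h5

variable {m n Q : ℕ} {a K cS : ℝ}

/-- helper214's `atP` with the explicit exponent `(2m+3)a` -/
theorem atP' (m n Q : ℕ) (hm : 2 ≤ m) {K cS a : ℝ} (hK : 9 ≤ K) (hcS : 0 < cS) (ha : 1 ≤ a) :
    ∃ A c l₁ : ℝ, Real.exp ((m : ℝ) - 2) ≤ A ∧ 0 < c ∧
    ∀ X : Sit m n a, IsSit Q K cS X → l₁ ≤ Real.log (Lam X.D) →
      (da Q K cS X).Ok (√X.D) (1 / 3) 4 w2 ∧ ∀ x ∈ X.Z,
        (da Q K cS X).At A (c * Real.exp (-((2 * m + 3) * a * Real.log (Lam X.D))) * X.D)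
          (Real.log (s0Of m a X.D) - 4) (Real.log (s0Of m a X.D) + TOf m a X.D + 5) x ∧
        (da Q K cS X).P x (Real.log (s0Of m a X.D) + TOf m a X.D + 5) ≤
          c * Real.exp (-((2 * m + 3) * a * Real.log (Lam X.D))) * X.D / (4 * A) := by
  obtain ⟨A, C, l0, hA1, hA, hC, hl0, h⟩ := Fld_387.exists_at m n Q hm hK hcS
    (Fld_387.exps m ha)
  refine ⟨A, Fld_387.cD m cS, max l0 4, hA,
    Fld_387.cD_pos (by lia) hcS, fun X hX hl => ?_⟩
  have hl1 : l0 ≤ Real.log (Lam X.D) := (le_max_left _ _).trans hl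
  have hl4 : 4 ≤ Real.log (Lam X.D) := (le_max_right _ _).trans hl
  obtain ⟨d1, d2, d3⟩ := ds_bounds ha hX.D0 hX.D1 hX.δ1 hl4
  have hδ1 : X.δ ≤ Lam X.D ^ (-1 : ℝ) := by
    refine hX.δ1.trans ?_
    rw [Lam_rpow hX.D0 hX.D1, Lam_rpow hX.D0 hX.D1]
    exact Real.exp_le_exp.2 (by linarith)
  obtain ⟨hok, hD0, hBT, hat⟩ := h X hX.cls hX.D0 hX.D1 hX.δ0 hδ1 X.ds _ d1 d2 d3 hX.out hl1
  have e1 : Fld_387.D0f m cS a X.D =
      Fld_387.cD m cS * Real.exp (-((2 * m + 3) * a * Real.log (Lam X.D))) * X.D := by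
    unfold Fld_387.D0f
    rw [Lam_rpow hX.D0 hX.D1, neg_mul]
    ring
  have e2 : Real.log (Fld_387.sT (100 * (m + 1) * (a + 1)) X.D) + 5 =
      Real.log (s0Of m a X.D) + TOf m a X.D + 5 := by
    have h1 : Fld_387.sT (100 * (m + 1) * (a + 1)) X.D = stOf m a X.D := rfl
    rw [h1, s0_add_T hX.D0 hX.D1, st_eq hX.D0 hX.D1, Real.log_exp]
  refine ⟨hok.ok, fun x hx => ?_⟩
  obtain ⟨hx1, hx2⟩ := hat x hx
  rw [e1, e2] at hx2
  have hx3 := hx1.at' hok
  rw [e1, e2] at hx3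
  exact ⟨hx3, hx2⟩

/-- **the window bounds of all contact situations** -/
theorem exists_win (hm : 3 ≤ m) (n Q : ℕ) {K cS a : ℝ} (hK : 9 ≤ K) (hcS : 0 < cS) (ha : 1 ≤ a) :
    ∃ A c C₁ l₀ : ℝ, 1 ≤ A ∧ 0 < c ∧ 0 < C₁ ∧
      ∀ X : Sit m n a, IsSit Q K cS X → l₀ ≤ Real.log (Lam X.D) →
      (da Q K cS X).Ok (√X.D) (1 / 3) 4 w2 ∧ ∀ x ∈ X.Z,
        (da Q K cS X).At A (c * Real.exp (-((2 * m + 3) * a * Real.log (Lam X.D))) * X.D)
          (Real.log (s0Of m a X.D) - 4) (Real.log (s0Of m a X.D) + TOf m a X.D + 5) x ∧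
        Win (da Q K cS X) X.ε (1 / 3) 4 A
          (c * Real.exp (-((2 * m + 3) * a * Real.log (Lam X.D))) * X.D)
          (C₁ * X.D) (Real.log (s0Of m a X.D)) (TOf m a X.D) (s0Of m a X.D / 2) x := by
  obtain ⟨A, c, l₁, hA, hc, hAt⟩ := atP' m n Q (by lia) hK hcS ha
  obtain ⟨C₁, l₂, hC₁, hco⟩ := e_coarse (m := m) (by lia) n Q K cS a ha
  obtain ⟨l₃, hT⟩ := Par_504.ev_T m a 4
  have hA1 : 1 ≤ A := by
    refine le_trans ?_ hA
    rw [← Real.exp_zero]
    refine Real.exp_le_exp.2 ?_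
    have : (3 : ℝ) ≤ m := by exact_mod_cast hm
    linarith
  refine ⟨A, c, C₁, max l₁ (max l₂ l₃), hA1, hc, hC₁, fun X hX hl => ?_⟩
  have e13 := (le_max_left _ _).trans hl
  have e14 := ((le_max_left _ _).trans (le_max_right _ _)).trans hl
  have e15 := ((le_max_right _ _).trans (le_max_right _ _)).trans hl
  obtain ⟨hok, hZ⟩ := hAt X hX e13
  have hD0 := hX.D0
  have hDl := hX.D1
  obtain ⟨t1, -, -, -, t5, -⟩ := hT X.D hD0 hDl e15
  have e12' : 1 ≤ Real.log (Lam X.D) := by linarith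
  have hT0 : 0 ≤ TOf m a X.D := by
    refine le_trans ?_ t1
    have := Par_504.Lam_pos hD0 hDl
    positivity
  refine ⟨hok, fun x hx => ?_⟩
  obtain ⟨hx1, hx2⟩ := hZ x hx
  refine ⟨hx1, ?_⟩
  have hxT := hx1.hT
  have hτ0 : 0 < (da Q K cS X).τ := hok.τ0
  refine win hok hA (by positivity) ?_ ?_ hT0 (tau_le ha hD0 hDl e12')
    hX.out.fin hx1 (fun l' h1 h2 =>
    hco X hX e14 x ?_ l' h1 h2) hx2 fun l' h1 h2 => ?_
  · exact (ds_bounds ha hD0 hDl hX.δ1 t5).2.2
  · rw [exp_log_s0 hD0 hDl]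
    ring
  · have := Real.exp_pos (Real.log (s0Of m a X.D) + TOf m a X.D + 5)
    linarith
  · obtain ⟨y, hy, rfl⟩ := hx
    have h3 := Real.exp_le_exp.2 h2
    exact (hX.out.ss y hy w0 (Real.exp l') (Real.exp_pos _).le (by linarith)).2

/-- `eea ≤ se` at the contact points -/
theorem ae_le_se {A D₀ c₀ K₀ h₀ s T : ℝ} {X : Sit m n a}
    (hok : (da Q K cS X).Ok h₀ c₀ K₀ w2) {x : Euc m} (hx : (da Q K cS X).At A D₀ s T x)
    {l : ℝ} (hl : l ≤ T) :
    X.ae x l ≤ X.se Q K cS x l := (hx.raw hok).e_le_es hl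

/-- **node NNET** -/
theorem nNetP : NNetP := by
  intro m n Q hm hn hQ
  refine ⟨9, fun K hK cS a c1 hcS ha hc1 => ?_⟩
  intro Θ C3 hΘ
  obtain ⟨A, c, C₁, l₁, hA, hc, hC₁, hwin⟩ := exists_win (m := m) hm n Q hK hcS ha
  obtain ⟨c0, c2, C1, hc0, hc2, hC1, hbas⟩ := bas_of m n Q (by lia) hQ ha
  obtain ⟨l₂, hbas⟩ := hbas (max 1 (Real.log (max (A / c) 1)))
  obtain ⟨β, hβ⟩ : ∃ β : ℝ, β = (2 * m + 3) * a + 1 := ⟨_, rfl⟩
  have hMd := Md_pos (m := m) (by lia)
  obtain ⟨C0, hC0, Λ0, hnet⟩ := hnet_family (CE := Ce m K A * C₁) m n pc0 hMd hc0 hc2 hC1.le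
    (by unfold Ce; positivity) β (c1 := c1) (Θ := Θ) (C3 := C3) hc1 hΘ.le
  refine ⟨C0, hC0, max (max l₁ l₂) (Real.log (max Λ0 1)), fun X hX hl => ?_⟩
  have hl1 := ((le_max_left _ _).trans (le_max_left _ _)).trans hl
  have hl2 := ((le_max_right _ _).trans (le_max_left _ _)).trans hl
  have hl3 := (le_max_right _ _).trans hl
  obtain ⟨hL, hB⟩ := hbas X K cS hX hl2
  obtain ⟨hok, hZ⟩ := hwin X hX hl1
  have hD0 := hB.D0
  have hD1 := hB.D1
  have hΛ0 : 0 < Lam X.D := Par_504.Lam_pos hD0 hD1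
  have hl1' : 1 ≤ Real.log (Lam X.D) := (le_max_left _ _).trans hL
  have hΛA : A / c ≤ Lam X.D := by
    have h1 := (le_max_right _ _).trans hL
    have h2 : (0 : ℝ) < max (A / c) 1 := lt_of_lt_of_le one_pos (le_max_right _ _)
    exact (le_max_left _ _).trans ((Real.log_le_log_iff h2 hΛ0).1 h1)
  have hΛ00 : Λ0 ≤ Lam X.D := by
    have h2 : (0 : ℝ) < max Λ0 1 := lt_of_lt_of_le one_pos (le_max_right _ _)
    exact (le_max_left _ _).trans ((Real.log_le_log_iff h2 hΛ0).1 hl3)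
  have hbb : β ≤ 2 * Par_504.bb m a := by
    rw [hβ]
    unfold Par_504.bb
    have : (0 : ℝ) ≤ m := Nat.cast_nonneg m
    nlinarith
  have he : ∀ x t, (X.cd Q K cS).e x t = (da Q K cS X).es x (Real.log (s0Of m a X.D) + t) := by
    intro x t
    rw [add_comm]; rfl
  have hE : ∀ x t, (X.cd Q K cS).E x t = (da Q K cS X).Es x (Real.log (s0Of m a X.D) + t) := by
    intro x t
    rw [add_comm]; rfl
  have hcl : 0 ≤ (X.cd Q K cS).l := by
    change 0 ≤ Real.log (Lam X.D)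
    linarith
  refine hnet (Lam X.D) hΛ00 (k := X.k) (d := dd m (tauOf a X.D)) (W := X.V) (π := X.π) (κ := X.κ)
    (R := 4) (h₀ := √X.D) (δ := X.δ) (τ := tauOf a X.D) (s₀ := s0Of m a X.D) ?_
  exact
  { as := hB.as
    R1 := by norm_num
    δ0 := hB.δ0
    δ1 := hB.δ1
    h0 := Real.sqrt_nonneg _
    hD := hB.hD.le
    cw := hB.cw
    cM := hB.cM
    τ0 := hB.τ0.le
    τr := hB.τr
    s0 := hB.s0
    ha0 := hl1'
    low := by
      filter_upwards [hB.low] with p hp r hr hpr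
      exact hp r hr (by linarith [norm_nonneg (X.π p.1)]) (by linarith)
    top := fun y l hy hl => by
      have h1 := norm_nonneg y
      have h2 := Real.exp_pos l
      exact hB.top y l (by linarith) (by linarith) (hB.t0.trans hl)
    mas := fun x hx l h1 h2 => by
      have h3 := hB.dom x hx
      have h4 := norm_nonneg x
      have h5 := mul_pos hB.s0 (Real.exp_pos (TOf m a X.D))
      have h6 : (X.cd Q K cS).T = TOf m a X.D := rfl
      rw [h6] at h2
      exact hB.mas x l (by linarith) (by linarith) (hB.t0.trans h1)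
    dom := fun x hx => by
      have h3 := hB.dom x hx
      have h5 := mul_pos hB.s0 (Real.exp_pos (TOf m a X.D))
      have h6 : (X.cd Q K cS).T = TOf m a X.D := rfl
      rw [h6]
      linarith
    sbot := hB.sbot
    stop := by
      have h6 : (X.cd Q K cS).T = TOf m a X.D := rfl
      have h7 : 1 ≤ Lam X.D := by
        have := Real.add_one_le_exp (Real.log (Lam X.D))
        rw [Real.exp_log hΛ0] at this
        linarith
      rw [h6, hB.sT, Par_504.stOf_eq hD0 hD1, ← Par_504.rpow_eq hD0 hD1,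
        ← Real.rpow_natCast _ 2, ← Real.rpow_mul hΛ0.le, ← Real.rpow_add hΛ0]
      refine Real.rpow_le_one_of_one_le_of_nonpos h7 ?_
      push_cast
      linarith
    E0 := fun x hx t ht => by
      obtain ⟨h1, h2⟩ := hZ x hx
      have ht0 : 0 ≤ t := hcl.trans ht.1
      rw [hE]
      have h3 := h2.Ulow t ht0 ht.2
      have h4 := h1.hB (Real.log (s0Of m a X.D) + t) (by linarith)
        (by have := ht.2; have h6 : (X.cd Q K cS).T = TOf m a X.D := rfl; rw [h6] at this; linarith)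
      have h5 : (da Q K cS X).Us x (Real.log (s0Of m a X.D) + t) =
        (da Q K cS X).Es x (Real.log (s0Of m a X.D) + t) -
          2 * (da Q K cS X).B x (Real.log (s0Of m a X.D) + t) := rfl
      have h6 : 0 ≤ c * Real.exp (-((2 * m + 3) * a * Real.log (Lam X.D))) * X.D := by positivity
      linarith
    ee := fun x hx t ht => by
      obtain ⟨h1, h2⟩ := hZ x hx
      have h6 : (X.cd Q K cS).T = TOf m a X.D := rfl
      have h7 := ht.2
      rw [h6] at h7
      rw [he]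
      exact ae_le_se hok h1 (by linarith)
    el := fun x hx t ht => by
      obtain ⟨h1, h2⟩ := hZ x hx
      have ht0 : 0 ≤ t := hcl.trans ht.1
      rw [he]
      have h3 := h2.elow t ht0 ht.2
      refine le_trans ?_ (mul_le_mul_of_nonneg_left h3 (Real.rpow_nonneg hΛ0.le _))
      have h4 : Real.exp (-((2 * m + 3) * a * Real.log (Lam X.D))) =
          Lam X.D ^ (-((2 * m + 3) * a)) := by
        rw [Real.rpow_def_of_pos hΛ0]
        congr 1
        ring
      rw [h4, ← hB.eD]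
      have h5 : Lam X.D ^ β * (c * Lam X.D ^ (-((2 * m + 3) * a)) * X.D / A) =
          (c / A) * (Lam X.D ^ β * Lam X.D ^ (-((2 * m + 3) * a))) * X.D := by ring
      rw [h5, ← Real.rpow_add hΛ0]
      have h8 : β + -((2 * m + 3) * a) = 1 := by rw [hβ]; ring
      rw [h8, Real.rpow_one]
      have h9 : 1 ≤ c / A * Lam X.D := by
        rw [div_le_iff₀ hc] at hΛA
        rw [div_mul_eq_mul_div, le_div_iff₀ (by positivity)]
        linarith
      exact le_mul_of_one_le_left hD0.le h9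
    eu := fun x hx t ht => by
      obtain ⟨h1, h2⟩ := hZ x hx
      have ht0 : 0 ≤ t := hcl.trans ht.1
      rw [he]
      refine (h2.eup t ht0 ht.2).trans (le_of_eq ?_)
      rw [← hB.eD]
      have : (da Q K cS X).K = K := rfl
      rw [this]
      ring
    hq1 := hB.q1.le
    IFe := fun x hx w t => by
      rw [add_comm]; rfl }

end

end Crest.Agent.R234.Nn_173
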