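import Crest.Agent.R234.Sw4_733

/-! # Row 234, VF-F6 (helper733), part 5: the excess changes little when the reference is switched -/

set_option autoImplicit false
set_option linter.unusedSectionVars false

open MeasureTheory Set Metric Filter Topology
open scoped ENNReal NNReal ContDiff
open Crest.Agent.R234.Ell1_3 Crest.Agent.R234.Fm_209

noncomputable section

namespace Crest.Agent.R234.Sw_733

variable {F V : Type} [NormedAddCommGroup F] [InnerProductSpace ℝ F] [FiniteDimensional ℝ F]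
  [NormedAddCommGroup V] [InnerProductSpace ℝ V] [FiniteDimensional ℝ V]
  [MeasurableSpace F] [BorelSpace F]

/-- the test function of the comparison, `χ · tr (g⁻¹ Duᵀ D(u' - u))`. -/
def Xi (χ : F → ℝ) (u u' : F → V) (v : F) : ℝ :=
  χ v * trc F (KT (fderiv ℝ u v) ∘L (fderiv ℝ u' v - fderiv ℝ u v))

variable (F V) in
/-- quadratic expansion of the density, constant depending on the spaces only. -/
theorem exists_dns : ∃ C : ℝ, 0 ≤ C ∧ ∀ q q' : F →L[ℝ] V, ‖q‖ ≤ 1 / 4 → ‖q'‖ ≤ 1 / 4 →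
    |dns q' - dns q - dns q * trc F (KT q ∘L (q' - q))| ≤ C * ‖q' - q‖ ^ 2 ∧
    |dns q' - dns q| ≤ C * ‖q' - q‖ ∧ |dns q| ≤ C := by
  obtain ⟨C, hC, hb⟩ := exists_taylor (f := (dns : (F →L[ℝ] V) → ℝ)) (dns_contDiff.of_le
    (by norm_cast)) (1 / 4)
  refine ⟨C, hC, fun q q' hq hq' => ?_⟩
  obtain ⟨h1, -, h3, -, h5⟩ := hb q (mem_closedBall_zero_iff.2 hq) q' (mem_closedBall_zero_iff.2 hq')
  rw [(hasFDerivAt_dns q).fderiv, ddns_apply, Real.norm_eq_abs] at h1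
  exact ⟨h1, by rwa [Real.norm_eq_abs] at h3, by rwa [Real.norm_eq_abs] at h5⟩

/-- the situation: heights and feet over two graphs. -/
structure Sit {Ω : Type*} [MeasurableSpace Ω] (μ : Measure Ω) (u u' : F → V) (D S : Set F)
    (a : Ω → F) (b : Ω → V) (x x' : Ω → F) (y y' : Ω → V) (R : Set Ω) : Prop where
  mx : AEMeasurable x μ
  mx' : AEMeasurable x' μ
  mR : MeasurableSet R
  SD : S ⊆ D
  cS : IsCompact S
  inn : ∀ᵐ p ∂μ, p ∈ R → Foot u (a p) (b p) (x p) (y p) ∧ Foot u' (a p) (b p) (x' p) (y' p) ∧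
    a p ∈ D ∧ x p ∈ D ∧ x' p ∈ D ∧ ‖y p‖ ≤ 1 / 4
  out : ∀ᵐ p ∂μ, p ∉ R → x p ∉ S ∧ x' p ∉ S ∧ a p ∉ S

theorem Cl.E_switch {Ω : Type*} [MeasurableSpace Ω] {μ : Measure Ω} [IsFiniteMeasure μ]
    {u u' : F → V} {D S : Set F} {κ τ : ℝ} (h : Cl u u' D κ τ) {χ : F → ℝ} {c : ℝ}
    (hχ : Tst χ c) (hS : tsupport χ ⊆ S) {a : Ω → F} {b : Ω → V} {x x' : Ω → F} {y y' : Ω → V}
    {R : Set Ω} (hs : Sit μ u u' D S a b x x' y y' R) {K : Ω → V →L[ℝ] F}
    (hK : ∀ᵐ p ∂μ, ‖K p‖ ≤ 1)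
    (hFi : Integrable (fun p => trc V (fderiv ℝ (fun v => χ v • (u' v - u v)) (a p) ∘L K p)) μ)
    (hFV : ∫ p, trc V (fderiv ℝ (fun v => χ v • (u' v - u v)) (a p) ∘L K p) ∂μ = 0)
    (hyi : IntegrableOn (fun p => ‖y p‖) R μ)
    (hKi : IntegrableOn (fun p => ‖K p - KT (fderiv ℝ u (x p))‖) R μ)
    {Cd : ℝ} (hCd : 0 ≤ Cd) (hd : ∀ q q' : F →L[ℝ] V, ‖q‖ ≤ 1 / 4 → ‖q'‖ ≤ 1 / 4 →
      |dns q' - dns q - dns q * trc F (KT q ∘L (q' - q))| ≤ Cd * ‖q' - q‖ ^ 2 ∧
      |dns q' - dns q| ≤ Cd * ‖q' - q‖ ∧ |dns q| ≤ Cd) (Q : ℝ) :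
    |(∫ p, χ (x' p) ∂μ - Q * ∫ v, χ v * dns (fderiv ℝ u' v)) -
      (∫ p, χ (x p) ∂μ - Q * ∫ v, χ v * dns (fderiv ℝ u v))| ≤
      (6 + 3 * ‖trc V‖) * c * (τ ^ 2 * μ.real R + τ * ∫ p in R, ‖y p‖ ∂μ +
        τ * ∫ p in R, ‖K p - KT (fderiv ℝ u (x p))‖ ∂μ) +
      |Q| * (c * (Cd * τ ^ 2) * volume.real S) +
      |∫ p, Xi χ u u' (x p) ∂μ - Q * ∫ v, Xi χ u u' v * dns (fderiv ℝ u v)| := by
  have hχ0 : ∀ v ∉ S, χ v = 0 := fun v hv => image_eq_zero_of_notMem_tsupport fun hc => hv (hS hc)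
  have hdχ0 : ∀ v ∉ S, fderiv ℝ χ v = 0 := fun v hv =>
    image_eq_zero_of_notMem_tsupport fun hc => hv (hS (tsupport_fderiv_subset ℝ hc))
  have hcu1 : Continuous (fderiv ℝ u) := (h.cu.fderiv_right (m := 1) (by norm_num)).continuous
  have hcu1' : Continuous (fderiv ℝ u') := (h.cu'.fderiv_right (m := 1) (by norm_num)).continuous
  have hKTc : Continuous (KT : (F →L[ℝ] V) → (V →L[ℝ] F)) := by
    have h1 : Continuous (ginv : (F →L[ℝ] V) → (F →L[ℝ] F)) := ginv_contDiff.continuous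
    have h2 : Continuous (fun q : F →L[ℝ] V => adjL q) := adjL.continuous
    exact h1.clm_comp h2
  have hXic : Continuous (Xi χ u u') := by
    refine hχ.cd.continuous.mul ((trc F).continuous.comp ?_)
    exact (hKTc.comp hcu1).clm_comp (hcu1'.sub hcu1)
  have hXi0 : ∀ v ∉ S, Xi χ u u' v = 0 := fun v hv => by rw [Xi, hχ0 v hv, zero_mul]
  -- integrability
  have iχ : ∀ {x : Ω → F}, AEMeasurable x μ → Integrable (fun p => χ (x p)) μ := by
    intro x hx
    refine Integrable.mono' (integrable_const c)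
      ((hχ.cd.continuous.measurable.comp_aemeasurable hx).aestronglyMeasurable) ?_
    filter_upwards with p
    rw [Real.norm_eq_abs]; exact hχ.b0 _
  have iΞ : Integrable (fun p => Xi χ u u' (x p)) μ := by
    obtain ⟨C, hC⟩ := hs.cS.exists_bound_of_continuousOn hXic.continuousOn
    refine Integrable.mono' (integrable_const |C|)
      ((hXic.measurable.comp_aemeasurable hs.mx).aestronglyMeasurable) ?_
    filter_upwards with p
    by_cases h1 : x p ∈ S
    · exact (hC _ h1).trans (le_abs_self C)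
    · rw [hXi0 _ h1, norm_zero]; exact abs_nonneg C
  have ix := iχ hs.mx
  have ix' := iχ hs.mx'
  -- the varifold part
  have A1 : |(∫ p, χ (x' p) ∂μ - ∫ p, χ (x p) ∂μ) - ∫ p, Xi χ u u' (x p) ∂μ| ≤
      (6 + 3 * ‖trc V‖) * c * (τ ^ 2 * μ.real R + τ * ∫ p in R, ‖y p‖ ∂μ +
        τ * ∫ p in R, ‖K p - KT (fderiv ℝ u (x p))‖ ∂μ) := by
    have e1 : (∫ p, χ (x' p) ∂μ - ∫ p, χ (x p) ∂μ) - ∫ p, Xi χ u u' (x p) ∂μ =
        ∫ p, (χ (x' p) - χ (x p) +
          trc V (fderiv ℝ (fun v => χ v • (u' v - u v)) (a p) ∘L K p) -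
          Xi χ u u' (x p)) ∂μ := by
      have k1 : Integrable (fun p => χ (x' p) - χ (x p)) μ := ix'.sub ix
      have k2 : Integrable (fun p => χ (x' p) - χ (x p) +
          trc V (fderiv ℝ (fun v => χ v • (u' v - u v)) (a p) ∘L K p)) μ := k1.add hFi
      rw [integral_sub k2 iΞ, integral_add k1 hFi, integral_sub ix' ix, hFV, add_zero]
    have e2 : ∫ p, (χ (x' p) - χ (x p) +
          trc V (fderiv ℝ (fun v => χ v • (u' v - u v)) (a p) ∘L K p) -
          Xi χ u u' (x p)) ∂μ = ∫ p in R, (χ (x' p) - χ (x p) +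
          trc V (fderiv ℝ (fun v => χ v • (u' v - u v)) (a p) ∘L K p) -
          Xi χ u u' (x p)) ∂μ := by
      rw [← integral_indicator hs.mR]
      refine integral_congr_ae ?_
      filter_upwards [hs.out] with p hp
      by_cases hR : p ∈ R
      · rw [indicator_of_mem hR]
      · rw [indicator_of_notMem hR]
        obtain ⟨h1, h2, h3⟩ := hp hR
        have h4 : fderiv ℝ (fun v => χ v • (u' v - u v)) (a p) = _ :=
          fderiv_test (w := fun v => u' v - u v) (hχ.diff (a p))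
            ((h.diff_u' (a p)).sub (h.diff_u (a p)))
        rw [hχ0 _ h1, hχ0 _ h2, hXi0 _ h1, h4, hχ0 _ h3, hdχ0 _ h3]
        simp
    rw [e1, e2]
    have e3 : (6 + 3 * ‖trc V‖) * c * (τ ^ 2 * μ.real R + τ * ∫ p in R, ‖y p‖ ∂μ +
        τ * ∫ p in R, ‖K p - KT (fderiv ℝ u (x p))‖ ∂μ) =
        ∫ p in R, (6 + 3 * ‖trc V‖) * c * (τ ^ 2 + τ * ‖y p‖ +
          τ * ‖K p - KT (fderiv ℝ u (x p))‖) ∂μ := by
      rw [integral_const_mul, integral_add _ (hKi.const_mul τ), integral_add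
        (integrable_const _) (hyi.const_mul τ), integral_const_mul, integral_const_mul,
        setIntegral_const, smul_eq_mul, mul_comm (μ.real R)]
      exact (integrable_const _).add (hyi.const_mul τ)
    rw [e3, ← Real.norm_eq_abs]
    refine norm_integral_le_of_norm_le ?_ ?_
    · exact (((integrable_const _).add (hyi.const_mul τ)).add (hKi.const_mul τ)).const_mul _
    · rw [ae_restrict_iff' hs.mR]
      filter_upwards [hs.inn, hK] with p hp hKp hR
      obtain ⟨h1, h2, h3, h4, h5, h6⟩ := hp hR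
      rw [Real.norm_eq_abs]
      exact h.test_pt hχ h1 h2 h3 h4 h5 h6 hKp
  -- the smooth part
  have ic : ∀ {f : F → ℝ}, Continuous f → (∀ v ∉ S, f v = 0) → Integrable f := by
    intro f hf h0
    exact hf.integrable_of_hasCompactSupport (HasCompactSupport.intro hs.cS h0)
  have hdnsc : Continuous (dns : (F →L[ℝ] V) → ℝ) := dns_contDiff.continuous
  have j1 : Integrable (fun v => χ v * dns (fderiv ℝ u v)) :=
    ic (hχ.cd.continuous.mul (hdnsc.comp hcu1)) fun v hv => by rw [hχ0 v hv, zero_mul]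
  have j2 : Integrable (fun v => χ v * dns (fderiv ℝ u' v)) :=
    ic (hχ.cd.continuous.mul (hdnsc.comp hcu1')) fun v hv => by rw [hχ0 v hv, zero_mul]
  have j3 : Integrable (fun v => Xi χ u u' v * dns (fderiv ℝ u v)) :=
    ic (hXic.mul (hdnsc.comp hcu1)) fun v hv => by rw [hXi0 v hv, zero_mul]
  have A2 : |((∫ v, χ v * dns (fderiv ℝ u' v)) - ∫ v, χ v * dns (fderiv ℝ u v)) -
      ∫ v, Xi χ u u' v * dns (fderiv ℝ u v)| ≤ c * (Cd * τ ^ 2) * volume.real S := by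
    have k3 : Integrable (fun v => χ v * dns (fderiv ℝ u' v) - χ v * dns (fderiv ℝ u v)) :=
      j2.sub j1
    rw [← integral_sub j2 j1, ← integral_sub k3 j3]
    have e4 : ∫ v, (χ v * dns (fderiv ℝ u' v) - χ v * dns (fderiv ℝ u v) -
        Xi χ u u' v * dns (fderiv ℝ u v)) = ∫ v in S, (χ v * dns (fderiv ℝ u' v) -
        χ v * dns (fderiv ℝ u v) - Xi χ u u' v * dns (fderiv ℝ u v)) := by
      rw [← integral_indicator hs.cS.measurableSet]
      congr 1
      funext v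
      by_cases hv : v ∈ S
      · rw [indicator_of_mem hv]
      · rw [indicator_of_notMem hv, hχ0 v hv, hXi0 v hv]; ring
    rw [e4, ← Real.norm_eq_abs]
    refine norm_setIntegral_le_of_norm_le_const hs.cS.measure_lt_top fun v hv => ?_
    rw [Real.norm_eq_abs]
    have hvD := hs.SD hv
    obtain ⟨g1, -, -⟩ := hd (fderiv ℝ u v) (fderiv ℝ u' v) ((h.d1 v hvD).trans h.κ1)
      ((h.d1' v hvD).trans h.κ1)
    have e5 : χ v * dns (fderiv ℝ u' v) - χ v * dns (fderiv ℝ u v) -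
        Xi χ u u' v * dns (fderiv ℝ u v) = χ v * (dns (fderiv ℝ u' v) - dns (fderiv ℝ u v) -
        dns (fderiv ℝ u v) * trc F (KT (fderiv ℝ u v) ∘L (fderiv ℝ u' v - fderiv ℝ u v))) := by
      rw [Xi]; ring
    rw [e5, abs_mul]
    refine mul_le_mul (hχ.b0 v) (g1.trans ?_) (abs_nonneg _) hχ.c0
    exact mul_le_mul_of_nonneg_left (pow_le_pow_left₀ (norm_nonneg _) (h.w1 v hvD) 2) hCd
  -- conclusion
  set I1 := ∫ p, χ (x' p) ∂μ
  set I2 := ∫ p, χ (x p) ∂μ
  set I3 := ∫ p, Xi χ u u' (x p) ∂μ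
  set J1 := ∫ v, χ v * dns (fderiv ℝ u' v)
  set J2 := ∫ v, χ v * dns (fderiv ℝ u v)
  set J3 := ∫ v, Xi χ u u' v * dns (fderiv ℝ u v)
  have e6 : (I1 - Q * J1) - (I2 - Q * J2) = ((I1 - I2) - I3) + (-(Q * ((J1 - J2) - J3))) +
      (I3 - Q * J3) := by ring
  rw [e6]
  refine (abs_add_le _ _).trans (add_le_add ((abs_add_le _ _).trans (add_le_add A1 ?_)) le_rfl)
  rw [abs_neg, abs_mul]
  exact mul_le_mul_of_nonneg_left A2 (abs_nonneg Q)

end Crest.Agent.R234.Sw_733
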