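import Crest.Agent.R234.Swb3_159
import Crest.Agent.R234.Gi4_456
import Crest.Agent.R234.Sw5_733

/-!
# Row 234, node F3-NORM (helper842): normal projections and areas in the rotated, zoomed frame

`NN_rot`, `NN_zoom`: the normal projection of the surface is the same in both charts.
`area_rot`, `area_zoom`: the area identity. `one_le_dns`, `exists_dns_le`.
-/

set_option autoImplicit false
set_option linter.unusedSectionVars false

open MeasureTheory Set Metric Filter Topology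
open scoped ContDiff NNReal ENNReal RealInnerProductSpace
open Crest.GeometryTopology.Submanifold

noncomputable section

namespace Crest.Agent.R234.Nrm_842

open Crest.Agent.R234.Ell1_3 Crest.Agent.R234.Main_456 Crest.Agent.R234.Grot_842
open Crest.Agent.R234.Foot_842 Crest.Agent.R234.Swb_159
open Crest.Agent.R234.Gi_456 (Gr tube IsFoot foot yy hinv frame_fr ring_inverse_eq Lo Loi Lo_Loi
  Loi_Lo det_Lo det_Lo_pos Loi_spec)
open Crest.Agent.R234.GLK_128 (A0 BB gg hh Fr Inv exists_Inv exists_inv_of_le NN TT NN_add_TT)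

local notation "adj" => ContinuousLinearMap.adjoint

variable {m n k : ℕ}

theorem inv0 (q : Euc m →L[ℝ] Euc n) : Inv q 0 (ginv q) (hinv q) (ginv q) := by
  obtain ⟨gi, hi, L, H⟩ := exists_Inv q (Y := 0) (by simp)
  have h1 : ginv q = gi := ring_inverse_eq H.g1 H.g2
  have h2 : hinv q = hi := ring_inverse_eq H.h1 H.h2
  have h3 : ginv q = L := by
    have e1 := H.l1
    have e2 := H.l2
    rw [sub_zero] at e1 e2
    exact ring_inverse_eq e1 e2
  refine ⟨?_, ?_, ?_, ?_, ?_, ?_⟩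
  · rw [h1]; exact H.g1
  · rw [h1]; exact H.g2
  · rw [h2]; exact H.h1
  · rw [h2]; exact H.h2
  · rw [h3]; exact H.l1
  · rw [h3]; exact H.l2

section Rot

variable {π : Euc k →L[ℝ] Euc m} {ρ : Euc k →L[ℝ] Euc n} {x : Euc k} {w w' : Euc m → Euc n}
  {X0 : Euc m} {q p D : Euc m →L[ℝ] Euc n} {H : Euc m →L[ℝ] Euc m} {H' : Euc n →L[ℝ] Euc n}
  {K : ℕ} {C κ : ℝ}

/-- tangent vectors in both charts -/
theorem A0_rot (hf : Frame π ρ) (hR : Rt q H H') (hD : ∀ y, D (dchg q H p y) = H' (p y - q y)) :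
    A0 (adj (rπ π ρ q H)) (adj (rρ π ρ q H')) D ∘L dchg q H p = A0 (adj π) (adj ρ) p := by
  refine ContinuousLinearMap.ext fun y => ?_
  set τ : Euc k := adj π y + adj ρ (p y) with hτ
  have e3 : π τ = y := by rw [hτ, map_add, fr_ππ hf, fr_πρ hf, add_zero]
  have e4 : ρ τ = p y := by rw [hτ, map_add, fr_ρπ hf, fr_ρρ hf, zero_add]
  have e1 : dchg q H p y = rπ π ρ q H τ := by
    rw [rπ_apply, e3, e4, dchg_apply]
  have e2 : H' (p y - q y) = rρ π ρ q H' τ := by
    rw [rρ_apply, e3, e4]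
  show adj (rπ π ρ q H) (dchg q H p y) + adj (rρ π ρ q H') (D (dchg q H p y)) = τ
  rw [hD, e1, e2]
  exact fr_full (frame_rot hf hR) τ

/-- **the tangential projections agree** -/
theorem TT_rot (hf : Frame π ρ) (hR : Rt q H H') (hD : ∀ y, D (dchg q H p y) = H' (p y - q y)) :
    TT (adj (rπ π ρ q H)) (adj (rρ π ρ q H')) D (ginv D) = TT (adj π) (adj ρ) p (ginv p) := by
  rw [TT, TT, ginv_dchg hR hD, ← A0_rot hf hR hD, ContinuousLinearMap.adjoint_comp]
  rfl

/-- **the normal projections agree** -/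
theorem NN_rot (hf : Frame π ρ) (hR : Rt q H H') (hD : ∀ y, D (dchg q H p y) = H' (p y - q y)) :
    NN (adj (rπ π ρ q H)) (adj (rρ π ρ q H')) D (hinv D) = NN (adj π) (adj ρ) p (hinv p) := by
  have h1 := NN_add_TT (frame_fr (frame_rot hf hR)) (inv0 D)
  have h2 := NN_add_TT (frame_fr hf) (inv0 p)
  rw [TT_rot hf hR hD, ← h2] at h1
  exact add_right_cancel h1

/-- derivative of the rotated graph -/
theorem dw_rot (h : Rot q H H' K C κ (shf w X0) w') {X : Euc m} (hX : ‖X - X0‖ < 15 / 16)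
    (hw : DifferentiableAt ℝ w X) (y : Euc m) :
    fderiv ℝ w' (chg q H (shf w X0) (X - X0)) (dchg q H (fderiv ℝ w X) y) =
      H' (fderiv ℝ w X y - q y) := by
  set a := X - X0 with ha
  have hv : fderiv ℝ (shf w X0) a = fderiv ℝ w X := by rw [fderiv_shf, ha, add_sub_cancel]
  have hvd : DifferentiableAt ℝ (shf w X0) a := by
    have h1 : DifferentiableAt ℝ (fun a => w (X0 + a)) a := by
      have h2 : DifferentiableAt ℝ w (X0 + a) := by rwa [ha, add_sub_cancel]
      exact h2.comp a ((differentiableAt_const _).add differentiableAt_id)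
    exact h1.sub_const _
  have := Rot.dw' h hX hvd y
  rwa [hv] at this

/-- **(a), unit scale** -/
theorem NN_chg (hf : Frame π ρ) (h : Rot q H H' K C κ (shf w X0) w') {X : Euc m}
    (hX : ‖X - X0‖ < 15 / 16) (hw : DifferentiableAt ℝ w X) :
    NN (adj (rπ π ρ q H)) (adj (rρ π ρ q H'))
        (fderiv ℝ w' (chg q H (shf w X0) (X - X0)))
        (hinv (fderiv ℝ w' (chg q H (shf w X0) (X - X0)))) =
      NN (adj π) (adj ρ) (fderiv ℝ w X) (hinv (fderiv ℝ w X)) :=
  NN_rot hf h.rt (dw_rot h hX hw)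

theorem dns_chg (h : Rot q H H' K C κ (shf w X0) w') {X : Euc m}
    (hX : ‖X - X0‖ < 15 / 16) (hw : DifferentiableAt ℝ w X) :
    dns (fderiv ℝ w X) = dns (fderiv ℝ w' (chg q H (shf w X0) (X - X0))) *
      |(dchg q H (fderiv ℝ w X)).det| :=
  dns_dchg h.rt (dw_rot h hX hw)

theorem ginv_chg (h : Rot q H H' K C κ (shf w X0) w') {X : Euc m}
    (hX : ‖X - X0‖ < 15 / 16) (hw : DifferentiableAt ℝ w X) :
    ginv (fderiv ℝ w' (chg q H (shf w X0) (X - X0))) =
      dchg q H (fderiv ℝ w X) ∘L ginv (fderiv ℝ w X) ∘L adj (dchg q H (fderiv ℝ w X)) :=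
  ginv_dchg h.rt (dw_rot h hX hw)

/-! ### the inverse of the change of base coordinate -/

/-- the inverse change of base coordinate -/
def ich (q : Euc m →L[ℝ] Euc n) (H : Euc m →L[ℝ] Euc m) (H' : Euc n →L[ℝ] Euc n)
    (w' : Euc m → Euc n) (y : Euc m) : Euc m := H y - adj q (H' (w' y))

variable {v : Euc m → Euc n}

theorem ich_chg (h : Rot q H H' K C κ v w') {a : Euc m} (ha : ‖a‖ ≤ 15 / 16) :
    ich q H H' w' (chg q H v a) = a := by
  have h1 : w' (chg q H v a) = H' (v a - q a) := h.graph a (mem_closedBall_zero_iff.2 ha)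
  rw [ich, h1]
  exact h.rt.key1 a (v a)

theorem chg_inj (h : Rot q H H' K C κ v w') : InjOn (chg q H v) (closedBall 0 (15 / 16)) := by
  intro a ha b hb hab
  rw [← ich_chg h (mem_closedBall_zero_iff.1 ha), ← ich_chg h (mem_closedBall_zero_iff.1 hb), hab]

theorem ich_ball (h : Rot q H H' K C κ v w') {y : Euc m} (hy : ‖y‖ < 7 / 8) :
    ‖ich q H H' w' y‖ < 15 / 16 ∧ chg q H v (ich q H H' w' y) = y := by
  obtain ⟨a, ha, hay⟩ := h.surj y (mem_ball_zero_iff.2 hy)
  have ha' := mem_ball_zero_iff.1 ha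
  have h1 : chg q H v a = y := hay
  have h2 := ich_chg h ha'.le
  rw [h1] at h2
  rw [h2]
  exact ⟨ha', h1⟩

theorem norm_ich_le (h : Rot q H H' K C κ v w') (y : Euc m) :
    ‖ich q H H' w' y‖ ≤ (1 + κ * (C * κ)) * ‖y‖ := by
  have hκ : 0 ≤ κ := (norm_nonneg _).trans h.q_le
  have h1 : ‖adj q (H' (w' y))‖ ≤ κ * (C * κ * ‖y‖) := by
    refine (ContinuousLinearMap.le_opNorm _ _).trans ?_
    rw [LinearIsometryEquiv.norm_map]
    exact mul_le_mul h.q_le ((h.rt.le' _).trans (h.bound0 y)) (norm_nonneg _) hκ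
  calc ‖ich q H H' w' y‖ ≤ ‖H y‖ + ‖adj q (H' (w' y))‖ := norm_sub_le _ _
    _ ≤ ‖y‖ + κ * (C * κ * ‖y‖) := add_le_add (h.rt.le y) h1
    _ = _ := by ring

theorem norm_chg_le (h : Rot q H H' K C κ v w') {a : Euc m} {c : ℝ} (hv : ‖v a‖ ≤ c * ‖a‖) :
    ‖chg q H v a‖ ≤ (1 + κ * c) * ‖a‖ := by
  have hκ : 0 ≤ κ := (norm_nonneg _).trans h.q_le
  have h1 : ‖adj q (v a)‖ ≤ κ * (c * ‖a‖) := by
    refine (ContinuousLinearMap.le_opNorm _ _).trans ?_
    rw [LinearIsometryEquiv.norm_map]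
    exact mul_le_mul h.q_le hv (norm_nonneg _) hκ
  calc ‖chg q H v a‖ ≤ ‖a + adj q (v a)‖ := h.rt.le _
    _ ≤ ‖a‖ + ‖adj q (v a)‖ := norm_add_le _ _
    _ ≤ ‖a‖ + κ * (c * ‖a‖) := by linarith
    _ = _ := by ring

end Rot

end Crest.Agent.R234.Nrm_842
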