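import Crest.Agent.R234.Shp10_98
import Crest.Agent.R234.Shp7_98

/-!
# Row 234 (helper98): `PY` at the top of the window is tiny, in the class `Cls`
-/

set_option autoImplicit false

open MeasureTheory Set Function Filter Topology Metric
open Crest.GeometryTopology.Submanifold
open Crest.Agent.R234.Vf_884 Crest.Agent.R234.Ar_870 Crest.Agent.R234.Cy_870
open Crest.Agent.R234.Pot_425 Crest.Agent.R234.Rep_387 Crest.Agent.R234.Raw_387
open Crest.Agent.R234.Asl_214 Crest.Agent.R234.Avg_387 Crest.Agent.R234.Core_809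
open scoped ENNReal NNReal InnerProductSpace

noncomputable section

namespace Crest.Agent.R234.Shp_98

open Par_504 (X X_nonneg X_pos X_pow X_div X_mul ev_le ev_le')

/-- **the field `PT` of `At`** in the class: `PY (7 δ) ≤ c Λ^-c' D` at scales `e^l ≤ Ct Λ^-b`,
`m a + c' < 2 b` -/
theorem pt_cls (m Q : ℕ) (hm : 1 ≤ m) (w : Wt) {g2 : ℝ → ℝ} (hg : Prof w.θ w.θ' g2)
    {a b c' Ct c : ℝ} (ha : 0 ≤ a) (hb : 0 < b) (hab : m * a + c' < 2 * b)
    (hc : 0 < c) :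
    ∃ Λ₀ : ℝ, 1 ≤ Λ₀ ∧ ∀ {n k : ℕ} {π : Euc k →L[ℝ] Euc m} {κ : Euc k →L[ℝ] Euc n}
    {U : Set (Euc k)} {Dd : VarifoldData m k} {δ D : ℝ}, Cls Q δ D π κ U Dd → 0 < D → D < 1 →
    Λ₀ ≤ Lam D → 0 ≤ δ → δ ≤ 1 / 16 → ∀ (x : Euc m) (l : ℝ), ‖x‖ ≤ 2 →
    √D ≤ Real.exp l → Real.exp l ≤ Ct * Lam D ^ (-b) →
      PY (7 * δ) (part π κ Dd) π κ (tauOf a D) w x l ≤ c * (Lam D ^ (-c') * D) := by
  obtain ⟨C, hC, hen⟩ := Crs_173.energy m (Ins_387.C0_nonneg m Q)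
  obtain ⟨Kg, hKg0, hKb⟩ := exists_Bd hg.k0
  have hKg : ∀ t, 0 ≤ t → w.θ t ≤ Kg := fun t ht => (le_abs_self _).trans (hKb.b0 t ht)
  have hm1 : (1 : ℝ) ≤ m := by exact_mod_cast hm
  have hMd : 0 ≤ Md m := (Md_pos (by lia)).le
  have hψ : 0 ≤ ∫ y : Euc m, w.psi y := integral_nonneg fun y => w.psi_nonneg y
  set P0 : ℝ := Kg * Md m with hP0
  set P1 : ℝ := (m - 1) / 2 * ((∫ y : Euc m, w.psi y) * (m * (1 + m / 2))) * 4 ^ m with hP1
  have hP00 : 0 ≤ P0 := mul_nonneg hKg0 hMd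
  have hP10 : 0 ≤ P1 := by
    have : (0 : ℝ) ≤ m - 1 := by linarith
    positivity
  -- conditions on `Λ`
  have ev1 : ∀ᶠ Λ : ℝ in atTop, Ct * X 0 (-b) Λ ≤ 1 / 4 :=
    Par_504.ev_small Ct (by norm_num) (Or.inr ⟨rfl, by linarith⟩)
  have ev2 : ∀ᶠ Λ : ℝ in atTop, 1 * X (-1 / 2) 0 Λ ≤ 1 / 4 :=
    Par_504.ev_small 1 (by norm_num) (Or.inl (by norm_num))
  have ev3 : ∀ᶠ Λ : ℝ in atTop, (14 * C * Ct ^ 2 * (P0 + P1)) * X (-1) (m * a - 2 * b) Λ ≤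
      c * X (-1) (-c') Λ := ev_le' _ hc (Or.inr ⟨rfl, by linarith⟩)
  obtain ⟨Λ₀, hΛ₀⟩ := eventually_atTop.1 (ev1.and (ev2.and ev3))
  refine ⟨max Λ₀ 1, le_max_right _ _, ?_⟩
  intro n k π κ U Dd δ D hcl hD hD1 hΛ hδ hδ1 x l hx hl1 hl2
  obtain ⟨h1, h2, h3⟩ := hΛ₀ (Lam D) ((le_max_left _ _).trans hΛ)
  have hΛ1 : 1 ≤ Lam D := (le_max_right _ _).trans hΛ
  have hΛ0 : 0 < Lam D := by linarith
  have hDX : D = X (-1) 0 (Lam D) := Par_504.D_eq_X hD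
  have hsD : √D = X (-1 / 2) 0 (Lam D) := Par_504.sqrt_D_eq_X hD
  rw [one_mul, ← hsD] at h2
  have hl3 : Real.exp l ≤ 1 / 4 := by
    rw [Par_504.rpow_eq_X hΛ0] at hl2
    exact hl2.trans h1
  have hcy := Ins_387.cylAS hcl hD1
  have hτ : 0 < tauOf a D := by
    unfold tauOf hOf
    have := Real.sqrt_pos.2 hD
    have := Real.rpow_pos_of_pos hΛ0 (-a)
    positivity
  have hAτ : 4 * Lam D ^ a * tauOf a D = √D := by
    unfold tauOf hOf
    have e : Lam D ^ a * Lam D ^ (-a) = 1 := by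
      rw [← Real.rpow_add hΛ0, add_neg_cancel, Real.rpow_zero]
    calc 4 * Lam D ^ a * (√D * Lam D ^ (-a) / 4) = √D * (Lam D ^ a * Lam D ^ (-a)) := by ring
      _ = √D := by rw [e, mul_one]
  have hA1 : 1 ≤ Lam D ^ a := Real.one_le_rpow hΛ1 ha
  have hτ1 : tauOf a D ≤ 1 / 4 := by
    have h5 : tauOf a D ≤ 4 * Lam D ^ a * tauOf a D := by
      have : 1 ≤ 4 * Lam D ^ a := by linarith
      nlinarith
    linarith
  have hff := ff_of_cylAS hcy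
  have key := Shp3_98.PY_le (x := x) (w := w) (δ := 7 * δ) (l := l) (M := C) (A := 4 * Lam D ^ a)
    (r₁ := √D) (r₂ := 1 / 4) hm hff hcy.hgt hτ hg hKg (by positivity) (by linarith) hl1 hl3
    (by rw [hAτ]) (by rw [hAτ]; exact h2) (fun y hy r hr1 hr2 => by
      have hr0 : 0 < r := lt_of_lt_of_le (Real.sqrt_pos.2 hD) hr1
      refine (hen hcy (fun z r hr _ => Ins_387.ubd hcl hm z hr) hδ hδ1 y ?_ r hr0 hr1 hr2).1
      rw [mem_closedBall_zero_iff]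
      have h5 := norm_add_le (y - x) x
      rw [sub_add_cancel] at h5
      linarith)
  refine key.trans ?_
  rw [Real.sq_sqrt hD.le]
  have e2 : Real.exp (2 * l) ≤ Ct ^ 2 * X 0 (-(2 * b)) (Lam D) := by
    have e3 : Real.exp (2 * l) = Real.exp l ^ 2 := by
      rw [← Real.exp_nat_mul]; norm_num
    rw [e3]
    have e4 := pow_le_pow_left₀ (Real.exp_pos l).le hl2 2
    refine e4.trans (le_of_eq ?_)
    rw [mul_pow, Par_504.rpow_eq_X hΛ0, X_pow]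
    congr 2 <;> push_cast <;> ring
  have e5 : (4 * Lam D ^ a) ^ m = 4 ^ m * X 0 (m * a) (Lam D) := by
    rw [mul_pow, Par_504.rpow_eq_X hΛ0, X_pow, mul_zero]
  have e6 : (1 : ℝ) ≤ X 0 (m * a) (Lam D) := by
    rw [← Par_504.rpow_eq_X hΛ0]
    exact Real.one_le_rpow hΛ1 (by positivity)
  have e7 : Kg * Md m + (m - 1) / 2 * ((∫ y : Euc m, w.psi y) *
      (m * (1 + m / 2) * (4 * Lam D ^ a) ^ m)) ≤ (P0 + P1) * X 0 (m * a) (Lam D) := by
    rw [e5]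
    have e8 : P0 ≤ P0 * X 0 (m * a) (Lam D) := le_mul_of_one_le_right hP00 e6
    calc _ = P0 + P1 * X 0 (m * a) (Lam D) := by rw [hP0, hP1]; ring
      _ ≤ P0 * X 0 (m * a) (Lam D) + P1 * X 0 (m * a) (Lam D) := by linarith
      _ = _ := by ring
  have hX1 := X_nonneg 0 (m * a) (Lam D)
  have hX2 := X_nonneg 0 (-(2 * b)) (Lam D)
  have e9 : D * (X 0 (-(2 * b)) (Lam D) * X 0 (m * a) (Lam D)) =
      X (-1) (m * a - 2 * b) (Lam D) := by
    have e0 : X (-1) 0 (Lam D) * (X 0 (-(2 * b)) (Lam D) * X 0 (m * a) (Lam D)) =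
        X (-1) (m * a - 2 * b) (Lam D) := by
      rw [X_mul, X_mul]
      congr 1 <;> ring
    rwa [← hDX] at e0
  have e10 : Lam D ^ (-c') * D = X (-1) (-c') (Lam D) := by
    have e0 : X 0 (-c') (Lam D) * X (-1) 0 (Lam D) = X (-1) (-c') (Lam D) := by
      rw [X_mul]
      congr 1 <;> ring
    rwa [← hDX, ← Par_504.rpow_eq_X hΛ0] at e0
  rw [e10]
  refine le_trans ?_ h3
  calc 2 * (7 * δ) * (D * C * Real.exp (2 * l) * (Kg * Md m + (m - 1) / 2 *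
        ((∫ y : Euc m, w.psi y) * (m * (1 + m / 2) * (4 * Lam D ^ a) ^ m))))
      ≤ 2 * (7 * 1) * (D * C * (Ct ^ 2 * X 0 (-(2 * b)) (Lam D)) *
        ((P0 + P1) * X 0 (m * a) (Lam D))) := by
        have hq0 : 0 ≤ Kg * Md m + (m - 1) / 2 * ((∫ y : Euc m, w.psi y) *
          (m * (1 + m / 2) * (4 * Lam D ^ a) ^ m)) := by
          have : (0 : ℝ) ≤ m - 1 := by linarith
          positivity
        have hδ' : δ ≤ 1 := by linarith
        have hC0 : 0 ≤ C := by linarith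
        gcongr
    _ = 14 * C * Ct ^ 2 * (P0 + P1) *
        (D * (X 0 (-(2 * b)) (Lam D) * X 0 (m * a) (Lam D))) := by ring
    _ = _ := by rw [e9]

end Crest.Agent.R234.Shp_98
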