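import Crest.Agent.R234.Core6_809
import Crest.Agent.R234.Fldc4_387
import Crest.Agent.R234.Shp11_98
import Crest.Agent.R234.Par2_504
import Crest.Agent.R234.Thf1_561

/-!
Row 234, NTHIN-INST (helper309), file 1: common facts for the instances NTHIN and NLOC
(561 #8600 (A), (B), (C)) at a contact situation `X : Sit m n a`.

`Cx Q K cS A C X` : 387's `OkAS`, `AtAS` for `X` on `[log s0 - 4, log st + 5]`; `exists_cx`.
-/

set_option autoImplicit false

open MeasureTheory Set Function Filter Topology Metric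
open Crest.GeometryTopology.Submanifold
open Crest.Agent.R234.Vf_884 Crest.Agent.R234.Ar_870 Crest.Agent.R234.Cy_870
open Crest.Agent.R234.Pot_425 Crest.Agent.R234.Avg_387 Crest.Agent.R234.Rep_387
open Crest.Agent.R234.Raw_387 Crest.Agent.R234.N0_309 Crest.Agent.R234.Asl_214
open Crest.Agent.R234.Core_809 Crest.Agent.R234.Fld_387
open Crest.Agent.R234.N5_372 (eM)
open scoped ENNReal NNReal

noncomputable section

namespace Crest.Agent.R234.Nti_309

variable {m n : ℕ} {a : ℝ} {Q : ℕ} {K cS A C : ℝ} {X : Sit m n a}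

/-- **a contact situation with its constants** `A`, `C` -/
structure Cx (Q : ℕ) (K cS A C : ℝ) {m n : ℕ} {a : ℝ} (X : Sit m n a) : Prop where
  sit : IsSit Q K cS X
  Λ1 : 1 ≤ Lam X.D
  δ1 : X.δ ≤ Lam X.D ^ (-1 : ℝ)
  ds1 : X.ds ≤ 1
  m2 : 2 ≤ m
  a1 : 1 ≤ a
  A1 : 1 ≤ A
  Am : Real.exp ((m:ℝ) - 2) ≤ A
  C1 : 1 ≤ C
  ok : (daOf X Q K cS X.ds).OkAS 4 (√X.D) X.δ (1 / 3) 4 12 w2
  D0 : 0 < D0f m cS a X.D
  sc : Real.log (s0Of m a X.D) ≤ Real.log (stOf m a X.D)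
  at' : ∀ x ∈ X.Z, (daOf X Q K cS X.ds).AtAS A (D0f m cS a X.D)
    (Real.log (s0Of m a X.D) - 4) (Real.log (stOf m a X.D) + 5) X.δ (√X.D) 12
    (Real.exp (-Real.log (Lam X.D))) (Lam X.D ^ (2 : ℝ) * X.D) (fun _ => C * X.D) (fun _ => C) x

theorem Lam_ge_one {L : ℝ} (hL : 0 ≤ L) {D : ℝ} (hD : 0 < D) (hD1 : D < 1)
    (h : L ≤ Real.log (Lam D)) : 1 ≤ Lam D := by
  have h1 := Fld_387.Lam_pos hD hD1
  have h2 : Real.log 1 ≤ Real.log (Lam D) := by rw [Real.log_one]; linarith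
  exact (Real.log_le_log_iff one_pos h1).1 h2

theorem exists_cx (m n Q : ℕ) (hm : 2 ≤ m) {K cS a : ℝ} (hK : 9 ≤ K) (hcS : 0 < cS)
    (ha : 1 ≤ a) : ∃ A C l0 : ℝ, 1 ≤ A ∧ 1 ≤ C ∧ 0 ≤ l0 ∧ ∀ X : Sit m n a, IsSit Q K cS X →
      l0 ≤ Real.log (Lam X.D) → Cx Q K cS A C X := by
  obtain ⟨A, C, l0, hA1, hAm, hC, hl0, h⟩ := exists_at m n Q hm hK hcS (exps m ha)
  obtain ⟨l1, hl1⟩ := Par_504.ev_ds ha (c := 1) one_pos
  refine ⟨A, C, max l0 l1, hA1, hC, hl0.trans (le_max_left _ _), fun X hX hl => ?_⟩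
  have hD := hX.D0
  have hD1 := hX.D1
  have h0 : l0 ≤ Real.log (Lam X.D) := (le_max_left _ _).trans hl
  have hΛ1 : 1 ≤ Lam X.D := Lam_ge_one hl0 hD hD1 h0
  have hΛ0 : 0 < Lam X.D := by linarith
  have hδ1 : X.δ ≤ Lam X.D ^ (-1 : ℝ) :=
    hX.δ1.trans (Real.rpow_le_rpow_of_exponent_le hΛ1 (by norm_num))
  have hds1 : X.ds ≤ 1 := hl1 X.D X.δ hD hD1 ((le_max_right _ _).trans hl) hX.δ1
  have e1 : 7 * Lam X.D ^ (-a) ≤ X.ds := by
    change 7 * Lam X.D ^ (-a) ≤ 7 * max X.δ (Lam X.D ^ (-a))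
    have := le_max_right X.δ (Lam X.D ^ (-a))
    linarith
  have e2 : 7 * X.δ ≤ X.ds := by
    change 7 * X.δ ≤ 7 * max X.δ (Lam X.D ^ (-a))
    have := le_max_left X.δ (Lam X.D ^ (-a))
    linarith
  obtain ⟨hok, hD0, hsc, hat⟩ := h X hX.cls hD hD1 hX.δ0 hδ1 X.ds _ e1 e2 hds1 hX.out h0
  exact ⟨hX, hΛ1, hδ1, hds1, hm, ha, hA1, hAm, hC, hok, hD0, hsc, fun x hx => (hat x hx).1⟩

namespace Cx

variable {x : Euc m} {l s t : ℝ}

theorem hD (h : Cx Q K cS A C X) : 0 < X.D := h.sit.D0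

theorem s0p (h : Cx Q K cS A C X) : 0 < s0Of m a X.D := Par_504.s0Of_pos h.sit.D0 h.sit.D1

theorem stp (h : Cx Q K cS A C X) : 0 < stOf m a X.D := Par_504.stOf_pos h.sit.D0 h.sit.D1

theorem τp (h : Cx Q K cS A C X) : 0 < tauOf a X.D := Par_504.tauOf_pos h.sit.D0 h.sit.D1

theorem dsp (_h : Cx Q K cS A C X) : 0 < X.ds := Par_504.dsOf_pos _h.sit.D0 _h.sit.D1

theorem ff (h : Cx Q K cS A C X) : FF X.V X.π X.κ := h.ok.ok.ff

/-- the centre as 387's `Ctr` -/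
theorem ctr (h : Cx Q K cS A C X) (hx : x ∈ X.Z) :
    Ctr m K X.ds (4 / (1 / 3)) A (D0f m cS a X.D) (Real.log (s0Of m a X.D) - 4)
      (Real.log (stOf m a X.D) + 5) (X.aE Q x) (X.ae x) (X.aet x) (X.ab Q x) (X.ag Q cS x)
      (X.aR x) (X.af x) (X.ap x) (X.aP x) (X.aB Q K cS x) :=
  (h.at' x hx).ctr h.ok h.Am h.D0 (by linarith [h.sc])

theorem aR_le_sR (h : Cx Q K cS A C X) (hx : x ∈ X.Z) (hl : l ≤ Real.log (stOf m a X.D) + 5) :
    X.aR x l ≤ X.sR Q K cS x l :=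
  (h.ctr hx).raw.R_le_Rs (by linarith [h.ok.K9, show (daOf X Q K cS X.ds).K = K from rfl]) hl

theorem ae_nonneg (h : Cx Q K cS A C X) (hx : x ∈ X.Z)
    (hl : l ≤ Real.log (stOf m a X.D) + 5) : 0 ≤ X.ae x l := (h.ctr hx).raw.e0 l hl

theorem ae_le_se (h : Cx Q K cS A C X) (hx : x ∈ X.Z) (hl : l ≤ Real.log (stOf m a X.D) + 5) :
    X.ae x l ≤ X.se Q K cS x l := (h.ctr hx).raw.e_le_es hl

theorem ae_mono (h : Cx Q K cS A C X) (hx : x ∈ X.Z) (hst : s ≤ t)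
    (ht : t ≤ Real.log (stOf m a X.D) + 5) :
    X.ae x s ≤ Real.exp ((m - 2) * (t - s)) * X.ae x t := (h.ctr hx).ce s t hst ht

theorem se_mono (h : Cx Q K cS A C X) (hx : x ∈ X.Z) (hst : s ≤ t)
    (ht : t ≤ Real.log (stOf m a X.D) + 5) :
    X.se Q K cS x s ≤ Real.exp ((m - 2) * (t - s)) * X.se Q K cS x t := (h.ctr hx).qm hst ht

theorem D0_le_se (h : Cx Q K cS A C X) (hx : x ∈ X.Z) (h1 : Real.log (s0Of m a X.D) - 3 ≤ l)
    (h2 : l ≤ Real.log (stOf m a X.D) + 5) : D0f m cS a X.D / A ≤ X.se Q K cS x l :=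
  (h.ctr hx).le_es (by linarith) h2

theorem se_pos (h : Cx Q K cS A C X) (hx : x ∈ X.Z) (h1 : Real.log (s0Of m a X.D) - 3 ≤ l)
    (h2 : l ≤ Real.log (stOf m a X.D) + 5) : 0 < X.se Q K cS x l :=
  (h.ctr hx).epos (by linarith) h2

/-- `sE ≤ CE se(l + 4)`, `CE = A e^(3(m-2))` -/
theorem sE_le_se (h : Cx Q K cS A C X) (hx : x ∈ X.Z) (h1 : Real.log (s0Of m a X.D) - 4 ≤ l)
    (h2 : l + 4 ≤ Real.log (stOf m a X.D) + 5) :
    X.sE Q K x l ≤ A * Real.exp ((m - 2) * 3) * X.se Q K cS x (l + 4) := by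
  have h3 := (h.ctr hx).eb h1 (by linarith : l + 1 ≤ Real.log (stOf m a X.D) + 5)
  have h4 := h.se_mono hx (by linarith : l + 1 ≤ l + 4) h2
  have e1 : ((m:ℝ) - 2) * (l + 4 - (l + 1)) = (m - 2) * 3 := by ring
  rw [e1] at h4
  have h5 := mul_le_mul_of_nonneg_left h4 (by linarith [h.A1] : 0 ≤ A)
  refine h3.trans (h5.trans (le_of_eq ?_))
  ring

/-- the norm of the centres -/
theorem nrm (h : Cx Q K cS A C X) (hx : x ∈ X.Z) :
    ‖x‖ + Real.exp 5 * stOf m a X.D + 2 * tauOf a X.D ≤ 1 := by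
  have h1 := (h.at' x hx).hT
  rw [Real.exp_add, Real.exp_log h.stp] at h1
  have h2 : (daOf X Q K cS X.ds).τ = tauOf a X.D := rfl
  rw [h2] at h1
  linarith

theorem nrm1 (h : Cx Q K cS A C X) (hx : x ∈ X.Z) : ‖x‖ ≤ 1 := by
  have h1 := h.nrm hx
  have h2 := h.τp
  have h3 := h.stp
  have h4 : 0 < Real.exp 5 * stOf m a X.D := by positivity
  linarith

/-- scaled mass over the balls `B_(e^l)(y)`, `y` in the averaging ball -/
theorem mb_le (h : Cx Q K cS A C X) (hx : x ∈ X.Z) {y : Euc m}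
    (hy : y ∈ closedBall x (tauOf a X.D)) (h1 : Real.log (s0Of m a X.D) - 4 ≤ l)
    (h2 : l ≤ Real.log (stOf m a X.D) + 5) : mb X.V X.π y l ≤ C :=
  (h.at' x hx).hmb l ⟨h1, h2⟩ y hy

/-- scaled tilt over the balls `B_(e^l)(y)`, `y` in the averaging ball -/
theorem tb_le (h : Cx Q K cS A C X) (hx : x ∈ X.Z) {y : Euc m}
    (hy : y ∈ closedBall x (tauOf a X.D)) (h1 : Real.log (s0Of m a X.D) - 4 ≤ l)
    (h2 : l ≤ Real.log (stOf m a X.D) + 5) : tb X.V X.π y l ≤ C * X.D :=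
  (h.at' x hx).htb l ⟨h1, h2⟩ y hy

end Cx

/-- **(A) of 561 #8600** -/
theorem Cx.avs (h : Cx Q K cS A C X) (hs : tauOf a X.D ≤ s0Of m a X.D / 2) :
    Thin_561.AvS X.V X.π X.κ 0 4 (√X.D) X.δ (dd m (tauOf a X.D)) (tauOf a X.D) w0.θ w0.θ' w2
      4 (81 / 256) (27 / 16) (Md m) X.Z (Real.log (Lam X.D)) (TOf m a X.D)
      (s0Of m a X.D / 2) where
  as := h.ok.cyl
  δ0 := h.sit.δ0
  cw := cw_dd h.τp
  Mdw := integral_dd h.τp
  pr := prof0
  bK t ht := by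
    have h1 := (w0_up ht).1
    rwa [abs_of_nonneg (Prof.nonneg prof0 t ht)]
  bK1 t ht := by
    have h1 := (w0_up ht).2
    have h2 := prof0.anti t ht
    rw [abs_of_nonpos h2]
    exact h1
  bc t h0 h1 := by
    have h2 : max (1 - t) 0 = 1 - t := max_eq_left (by linarith)
    have h3 : (3 / 4 : ℝ) ≤ 1 - t := by linarith
    change 81 / 256 ≤ (max (1 - t) 0) ^ 4
    rw [h2]
    have h4 := pow_le_pow_left₀ (by norm_num : (0:ℝ) ≤ 3 / 4) h3 4
    norm_num at h4 ⊢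
    exact h4
  bc1 t h0 h1 := by
    have h2 : max (1 - t) 0 = 1 - t := max_eq_left (by linarith)
    have h3 : (3 / 4 : ℝ) ≤ 1 - t := by linarith
    change 27 / 16 ≤ -(-(4 * (max (1 - t) 0) ^ 3))
    rw [h2]
    have h5 := pow_le_pow_left₀ (by norm_num : (0:ℝ) ≤ 3 / 4) h3 3
    norm_num at h5 ⊢
    linarith
  r0p := by linarith [h.s0p]
  τr := by
    rw [Real.exp_log (by linarith [h.Λ1])]
    have h1 := h.Λ1
    have h2 : s0Of m a X.D / 2 * 1 ≤ s0Of m a X.D / 2 * Lam X.D :=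
      mul_le_mul_of_nonneg_left h1 (by linarith [h.s0p])
    linarith
  rng x hx := by
    have h1 := h.nrm hx
    have h2 : 2 * (s0Of m a X.D / 2) * Real.exp (TOf m a X.D) = stOf m a X.D := by
      have h3 := Par_504.exp_log_s0Of_add_T (m := m) (a := a) h.sit.D0 h.sit.D1
      rw [Real.exp_add, Real.exp_log h.s0p] at h3
      linarith
    rw [h2, sub_zero]
    have h4 := h.τp
    have h5 := h.stp
    have h6 : stOf m a X.D ≤ Real.exp 5 * stOf m a X.D := by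
      have h7 : (1:ℝ) ≤ Real.exp 5 := Real.one_le_exp (by norm_num)
      have := mul_le_mul_of_nonneg_right h7 h5.le
      linarith
    linarith
  top := by
    have h2 : 2 * (s0Of m a X.D / 2) * Real.exp (TOf m a X.D) = stOf m a X.D := by
      have h3 := Par_504.exp_log_s0Of_add_T (m := m) (a := a) h.sit.D0 h.sit.D1
      rw [Real.exp_add, Real.exp_log h.s0p] at h3
      linarith
    rw [h2]
    unfold stOf
    refine Real.rpow_le_one_of_one_le_of_nonpos h.Λ1 ?_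
    have h3 : (0:ℝ) ≤ m := Nat.cast_nonneg m
    have h4 : 0 ≤ a + 1 := by linarith [h.a1]
    have h5 : 0 ≤ 100 * ((m:ℝ) + 1) * (a + 1) := by positivity
    linarith

/-! ### numbers -/

open Par_504 (X_mul X_pow X_pos X_nonneg bb ev_le' ev_l)

theorem D0f_eq {D : ℝ} (hD : 0 < D) (hD1 : D < 1) :
    D0f m cS a D = cD m cS * Par_504.X (-1) (-((2 * m + 3) * a)) (Lam D) := by
  have h1 := Par_504.Dmin_eq (m := m) (a := a) hD hD1
  unfold D0f
  rw [← h1]
  rfl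

/-- a power of `Λ` below the lower bound of `se` -/
theorem exists_low (m : ℕ) {a cS A c' c : ℝ} (hm : 0 < m) (hcS : 0 < cS) (hA : 0 < A)
    (hc : 0 < c) (h : (2 * m + 3) * a < c') : ∃ l0 : ℝ, ∀ D : ℝ, 0 < D → D < 1 →
      l0 ≤ Real.log (Lam D) → Lam D ^ (-c') * D ≤ c * (D0f m cS a D / A) := by
  have hcD := cD_pos hm hcS
  obtain ⟨l0, hl0⟩ := ev_l (ev_le' 1 (c := c * (cD m cS / A)) (by positivity)
    (show Par_504.Lt (-1) (-c') (-1) (-((2 * m + 3) * a)) from Or.inr ⟨rfl, by linarith⟩))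
  refine ⟨l0, fun D hD hD1 hl => ?_⟩
  have h1 := hl0 D hD hD1 hl
  rw [D0f_eq hD hD1, Par_504.rpow_eq hD hD1]
  have h2 : Par_504.X 0 (-c') (Lam D) * D = Par_504.X (-1) (-c') (Lam D) := by
    calc _ = Par_504.X 0 (-c') (Lam D) * Par_504.X (-1) 0 (Lam D) := by
          rw [← Par_504.D_eq hD]
      _ = _ := by rw [X_mul]; congr 1 <;> ring
  rw [h2]
  calc Par_504.X (-1) (-c') (Lam D) = 1 * Par_504.X (-1) (-c') (Lam D) := (one_mul _).symm
    _ ≤ _ := h1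
    _ = _ := by ring

/-- **`sE ≤ aE + ω se (l + 4)`** -/
theorem exists_sE (m n Q : ℕ) (hm : 2 ≤ m) {K cS a A C ω : ℝ} (hK : 0 ≤ K) (hcS : 0 < cS)
    (ha : 1 ≤ a) (hA : 1 ≤ A) (hω : 0 < ω) : ∃ l0 : ℝ, ∀ X : Sit m n a, Cx Q K cS A C X →
      l0 ≤ Real.log (Lam X.D) → ∀ x ∈ X.Z, ∀ l, Real.log (s0Of m a X.D) - 4 ≤ l →
        l + 4 ≤ Real.log (stOf m a X.D) + 5 →
        X.sE Q K x l ≤ X.aE Q x l + ω * X.se Q K cS x (l + 4) := by
  have hm0 : 0 < m := by lia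
  have hmR : (0:ℝ) ≤ m := Nat.cast_nonneg m
  have hcD := cD_pos hm0 hcS
  have ha0 : 0 ≤ a := by linarith
  have hma : 0 ≤ (m:ℝ) * a := by positivity
  -- the choice of `ds`
  set E4 : ℝ := Real.exp ((m - 2) * 4) with hE4
  have hE40 : 0 < E4 := Real.exp_pos _
  obtain ⟨l1, hl1⟩ := Par_504.ev_ds ha (c := ω / (2 * (K + 1) * E4)) (by positivity)
  -- the choice for `P`
  obtain ⟨Λ₁, hΛ₁, hP⟩ := Shp_98.pt_cls m Q (by lia) w0 prof0 (a := a)
    (b := 100 * (m + 1) * (a + 1)) (c' := (2 * m + 3) * a) (Ct := Real.exp 5)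
    (c := ω / 2 * (cD m cS / A)) ha0 (by positivity) (by nlinarith) (by positivity)
  obtain ⟨l2, hl2⟩ := Par_504.ev_scales' m ha (Real.exp 4)
  refine ⟨max (max l1 l2) (max (Real.log Λ₁) (Real.log 16)), fun X h hl x hx l h1 h2 => ?_⟩
  have hD := h.sit.D0
  have hD1 := h.sit.D1
  have hLp := Fld_387.Lam_pos hD hD1
  have hla : l1 ≤ Real.log (Lam X.D) := (le_max_left _ _).trans ((le_max_left _ _).trans hl)
  have hlb : l2 ≤ Real.log (Lam X.D) := (le_max_right _ _).trans ((le_max_left _ _).trans hl)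
  have hlc : Λ₁ ≤ Lam X.D := (Real.log_le_log_iff (by linarith) hLp).1
    ((le_max_left _ _).trans ((le_max_right _ _).trans hl))
  have hld : 16 ≤ Lam X.D := (Real.log_le_log_iff (by norm_num) hLp).1
    ((le_max_right _ _).trans ((le_max_right _ _).trans hl))
  have hds := hl1 X.D X.δ hD hD1 hla h.sit.δ1
  have hδ16 : X.δ ≤ 1 / 16 := by
    refine h.δ1.trans ?_
    rw [Real.rpow_neg_one, inv_le_comm₀ hLp (by norm_num)]
    linarith
  obtain ⟨-, s2, s3, -⟩ := hl2 X.D hD hD1 hlb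
  have hs : √X.D ≤ Real.exp l := by
    have e1 : Real.exp (Real.log (s0Of m a X.D) - 4) ≤ Real.exp l := Real.exp_le_exp.2 h1
    rw [sub_eq_add_neg, Real.exp_add, Real.exp_log h.s0p] at e1
    have e2 : (1:ℝ) ≤ Real.exp 4 := Real.one_le_exp (by norm_num)
    have e3 : 0 ≤ √X.D := Real.sqrt_nonneg _
    have e4 : √X.D ≤ tOf a X.D := by
      have := mul_le_mul_of_nonneg_right e2 e3
      linarith
    have e5 := mul_le_mul_of_nonneg_right s3 (Real.exp_pos (-4)).le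
    have e6 : Real.exp 4 * tOf a X.D * Real.exp (-4) = tOf a X.D := by
      rw [mul_right_comm, ← Real.exp_add, add_neg_cancel, Real.exp_zero, one_mul]
    rw [e6] at e5
    linarith
  have htop : Real.exp l ≤ Real.exp 5 * Lam X.D ^ (-(100 * ((m:ℝ) + 1) * (a + 1))) := by
    have e1 : l ≤ Real.log (stOf m a X.D) + 5 := by linarith
    have e2 := Real.exp_le_exp.2 e1
    rw [Real.exp_add, Real.exp_log h.stp] at e2
    have e3 : stOf m a X.D = Lam X.D ^ (-(100 * ((m:ℝ) + 1) * (a + 1))) := rfl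
    rw [← e3]
    linarith
  have hPl : X.aP x l ≤ ω / 2 * (cD m cS / A) * (Lam X.D ^ (-((2 * m + 3) * a)) * X.D) :=
    hP h.sit.cls hD hD1 hlc h.sit.δ0 hδ16 x l (by linarith [h.nrm1 hx]) hs htop
  have hse := h.D0_le_se hx (l := l + 4) (by linarith) h2
  have hse0 := h.se_pos hx (l := l + 4) (by linarith) h2
  have h3 : X.aP x l ≤ ω / 2 * X.se Q K cS x (l + 4) := by
    have e1 : ω / 2 * (cD m cS / A) * (Lam X.D ^ (-((2 * m + 3) * a)) * X.D) =
        ω / 2 * (D0f m cS a X.D / A) := by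
      unfold D0f
      ring
    rw [e1] at hPl
    exact hPl.trans (mul_le_mul_of_nonneg_left hse (by positivity))
  have h4 : K * X.ds * X.ae x l ≤ ω / 2 * X.se Q K cS x (l + 4) := by
    have e1 := h.ae_mono hx (by linarith : l ≤ l + 4) h2
    have e2 : ((m:ℝ) - 2) * (l + 4 - l) = (m - 2) * 4 := by ring
    rw [e2] at e1
    have e3 := h.ae_le_se hx h2
    have e4 := h.dsp
    have e5 : K * X.ds * E4 ≤ ω / 2 := by
      have e6 : X.ds ≤ ω / (2 * (K + 1) * E4) := hds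
      calc K * X.ds * E4 ≤ (K + 1) * (ω / (2 * (K + 1) * E4)) * E4 := by gcongr; linarith
        _ = ω / 2 := by field_simp
    calc K * X.ds * X.ae x l ≤ K * X.ds * (E4 * X.se Q K cS x (l + 4)) := by
          refine mul_le_mul_of_nonneg_left (e1.trans ?_) (by positivity)
          exact mul_le_mul_of_nonneg_left e3 hE40.le
      _ = K * X.ds * E4 * X.se Q K cS x (l + 4) := by ring
      _ ≤ _ := mul_le_mul_of_nonneg_right e5 hse0.le
  have h5 : X.sE Q K x l = X.aE Q x l + K * X.ds * X.ae x l + X.aP x l := rfl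
  rw [h5]
  linarith

theorem L0_add_TT' (h : Cx Q K cS A C X) :
    Thin_561.L0 X + Thin_561.TT' X = Real.log (stOf m a X.D) :=
  Par_504.log_s0Of_add_T h.sit.D0 h.sit.D1

/-- **(A), (B), (C) of 561: `FactsP`** -/
theorem factsP (m n Q : ℕ) (hm : 3 ≤ m) {K cS a : ℝ} (hK : 9 ≤ K) (hcS : 0 < cS)
    (ha : 1 ≤ a) : Thin_561.FactsP m n Q K cS a := by
  obtain ⟨A, C, l0, hA, hC, hl0, hcx⟩ := exists_cx m n Q (by lia) hK hcS ha
  have hmR : (3:ℝ) ≤ m := by exact_mod_cast hm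
  refine ⟨A * Real.exp ((m - 2) * 3), C, (2 * m + 3) * a + 1, by positivity, by linarith,
    by positivity, by nlinarith, fun om hom => ?_⟩
  obtain ⟨l1, hl1⟩ := exists_sE m n Q (by lia) (K := K) (C := C) (by linarith) hcS ha hA hom
  obtain ⟨l2, hl2⟩ := exists_low m (a := a) (cS := cS) (A := A) (c' := (2 * m + 3) * a + 1)
    (c := 1) (by lia) hcS (by linarith) one_pos (by linarith)
  obtain ⟨l3, hl3⟩ := Par_504.ev_scales' m ha 1
  refine ⟨max (max l0 l1) (max l2 l3), fun X hX hl => ?_⟩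
  have h := hcx X hX ((le_max_left _ _).trans ((le_max_left _ _).trans hl))
  have hD := hX.D0
  have hD1 := hX.D1
  have e1 := L0_add_TT' h
  have ell : 0 ≤ Thin_561.ll X := Real.log_nonneg h.Λ1
  have eL0 : Thin_561.L0 X = Real.log (s0Of m a X.D) := rfl
  obtain ⟨s1, s2, s3, -⟩ := hl3 X.D hD hD1 ((le_max_right _ _).trans ((le_max_right _ _).trans hl))
  have hτs : tauOf a X.D ≤ s0Of m a X.D / 2 := by
    have e2 : tauOf a X.D = hOf a X.D / 4 := rfl
    have e3 := Par_504.hOf_pos (a := a) hD hD1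
    linarith
  exact
    { avs := h.avs hτs
      aR := fun x hx l h1 h2 => h.aR_le_sR hx (by linarith)
      ae := fun x hx l h1 h2 => h.ae_le_se hx (by linarith)
      sE := fun x hx l h1 h2 => hl1 X h ((le_max_right _ _).trans ((le_max_left _ _).trans hl)) x
        hx l (by linarith) (by linarith)
      sE' := fun x hx l h1 h2 => h.sE_le_se hx (by linarith) (by linarith)
      sE0 := fun x hx l h1 h2 => (h.D0.le.trans ((h.ctr hx).U_pos (by linarith)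
        (by linarith))).trans ((h.ctr hx).UE (by linarith) (by linarith))
      low := fun x hx l h1 h2 => by
        have e2 := hl2 X.D hD hD1 ((le_max_left _ _).trans ((le_max_right _ _).trans hl))
        rw [one_mul] at e2
        exact e2.trans (h.D0_le_se hx (by linarith) (by linarith))
      mb := fun x hx l h1 h2 y hy => h.mb_le hx hy (by linarith) (by linarith)
      ball := fun x hx => mem_closedBall_zero_iff.2 (h.nrm1 hx) }

end Crest.Agent.R234.Nti_309
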