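import Mathlib

/-!
# Row 234, node F2-NU, Mathlib-only core (helper681)

A finite measure on `ℝ^m` with small divergence against `C¹` fields supported in `ball 0 r` is
close to a constant multiple of Lebesgue measure, tested on `C¹` functions supported there.

Method: the difference `ζ - (∫ ζ) b` is written as an *integral of divergences* (scalings
`e^{mt} ζ(e^t x)`, then translations); each divergence is tested separately and Fubini is used,
so no Bogovskii operator is needed.
-/

set_option autoImplicit false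
set_option linter.unusedVariables false

open MeasureTheory Filter Topology Set
open scoped ENNReal NNReal ContDiff

noncomputable section

namespace Crest.Agent.R234.Nu_681

/-- the model space -/
abbrev E (m : ℕ) := EuclideanSpace ℝ (Fin m)

variable {m : ℕ}

/-- divergence -/
def dv (Y : E m → E m) (x : E m) : ℝ :=
  LinearMap.trace ℝ (E m) (fderiv ℝ Y x : E m →ₗ[ℝ] E m)

/-- smallness of the divergence of `ν`. -/
def Small (ν : Measure (E m)) (r δ : ℝ) : Prop :=
  ∀ Y : E m → E m, ContDiff ℝ 1 Y → (∀ x, r ≤ ‖x‖ → Y x = 0) → (∀ x, ‖Y x‖ ≤ 1) →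
    (∀ x, ‖fderiv ℝ Y x‖ ≤ 1) → |∫ x, dv Y x ∂ν| ≤ δ

theorem Small.mul {ν : Measure (E m)} {r δ : ℝ} (h : Small ν r δ) {K : ℝ} (hK : 0 < K)
    {Y : E m → E m} (hY : ContDiff ℝ 1 Y) (h0 : ∀ x, r ≤ ‖x‖ → Y x = 0)
    (h1 : ∀ x, ‖Y x‖ ≤ K) (h2 : ∀ x, ‖fderiv ℝ Y x‖ ≤ K) :
    |∫ x, dv Y x ∂ν| ≤ K * δ := by
  have hd : ∀ x, fderiv ℝ (fun z => K⁻¹ • Y z) x = K⁻¹ • fderiv ℝ Y x := fun x =>
    ((hY.differentiable (by norm_num) x).hasFDerivAt.const_smul K⁻¹).fderiv
  have key := h (fun z => K⁻¹ • Y z) (contDiff_const.smul (f := fun _ => K⁻¹) (g := Y) hY)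
    (fun x hx => by simp [h0 x hx])
    (fun x => by
      rw [norm_smul, norm_inv, Real.norm_eq_abs, abs_of_pos hK]
      calc K⁻¹ * ‖Y x‖ ≤ K⁻¹ * K := by gcongr; exact h1 x
        _ = 1 := inv_mul_cancel₀ hK.ne')
    (fun x => by
      rw [hd, norm_smul, norm_inv, Real.norm_eq_abs, abs_of_pos hK]
      calc K⁻¹ * ‖fderiv ℝ Y x‖ ≤ K⁻¹ * K := by gcongr; exact h2 x
        _ = 1 := inv_mul_cancel₀ hK.ne')
  have he : ∀ x, dv (fun z => K⁻¹ • Y z) x = K⁻¹ * dv Y x := by
    intro x
    unfold dv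
    rw [hd]
    simp
  simp_rw [he] at key
  rw [integral_const_mul, abs_mul, abs_of_pos (inv_pos.2 hK)] at key
  calc |∫ x, dv Y x ∂ν| = K * (K⁻¹ * |∫ x, dv Y x ∂ν|) := by
        rw [← mul_assoc, mul_inv_cancel₀ hK.ne', one_mul]
    _ ≤ K * δ := by gcongr

/-- Fubini for a one-parameter family. -/
theorem swap {ν : Measure (E m)} [IsFiniteMeasure ν] {T B ε : ℝ} (hT : 0 ≤ T)
    {F : ℝ → E m → ℝ} (hc : Continuous fun p : ℝ × E m => F p.1 p.2)
    (hB : ∀ s ∈ Icc 0 T, ∀ x, |F s x| ≤ B) (hε : ∀ s ∈ Icc 0 T, |∫ x, F s x ∂ν| ≤ ε)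
    {f g : E m → ℝ} (hf : Integrable f ν) (hg : Integrable g ν)
    (hfg : ∀ x, f x - g x = ∫ s in (0:ℝ)..T, F s x) :
    |∫ x, f x ∂ν - ∫ x, g x ∂ν| ≤ T * ε := by
  rw [← integral_sub hf hg]
  simp_rw [hfg]
  have hint : Integrable (Function.uncurry F)
      ((volume.restrict (Set.uIoc (0:ℝ) T)).prod ν) := by
    have hm : (volume.restrict (Set.uIoc (0:ℝ) T)).prod ν
        = ((volume : Measure ℝ).prod ν).restrict (Set.uIoc (0:ℝ) T ×ˢ univ) := by
      rw [← Measure.prod_restrict, Measure.restrict_univ]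
    have hfin : IsFiniteMeasure ((volume.restrict (Set.uIoc (0:ℝ) T)).prod ν) := by
      have : IsFiniteMeasure ((volume : Measure ℝ).restrict (Set.uIoc (0:ℝ) T)) := by
        rw [Set.uIoc_of_le hT]; infer_instance
      infer_instance
    refine Integrable.of_bound (C := B) ?_ ?_
    · exact (hc.aestronglyMeasurable)
    · rw [hm]
      refine (ae_restrict_iff' ((measurableSet_uIoc).prod MeasurableSet.univ)).2
        (Eventually.of_forall ?_)
      rintro ⟨s, x⟩ hs
      rw [Set.uIoc_of_le hT] at hs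
      exact hB s ⟨hs.1.1.le, hs.1.2⟩ x
  rw [← MeasureTheory.intervalIntegral_integral_swap hint]
  have := intervalIntegral.norm_integral_le_of_norm_le_const (a := 0) (b := T) (C := ε)
    (f := fun s => ∫ x, F s x ∂ν) (by
      intro s hs
      rw [Set.uIoc_of_le hT] at hs
      exact hε s ⟨hs.1.le, hs.2⟩)
  rw [Real.norm_eq_abs, sub_zero, abs_of_nonneg hT] at this
  rw [mul_comm]
  exact this

theorem dv_smul_const {f : E m → ℝ} {x : E m} (hf : DifferentiableAt ℝ f x) (y : E m) :
    dv (fun z => f z • y) x = fderiv ℝ f x y := by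
  unfold dv
  have : fderiv ℝ (fun z => f z • y) x = (fderiv ℝ f x).smulRight y :=
    (hf.hasFDerivAt.smul_const y).fderiv
  rw [this]
  exact LinearMap.trace_smulRight (fderiv ℝ f x : E m →ₗ[ℝ] ℝ) y

theorem integrable_of_zero {ν : Measure (E m)} [IsFiniteMeasure ν] {f : E m → ℝ}
    (hf : Continuous f) {K : ℝ} (hK : ∀ x, |f x| ≤ K) : Integrable f ν :=
  Integrable.of_bound hf.aestronglyMeasurable K (Eventually.of_forall hK)

/-- translations. -/
theorem transl {ν : Measure (E m)} [IsFiniteMeasure ν] {r δ : ℝ} (h : Small ν r δ)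
    {f : E m → ℝ} (hf : ContDiff ℝ 1 f) {K ρ : ℝ} (hK : 0 < K)
    (h0 : ∀ x, ρ ≤ ‖x‖ → f x = 0) (h1 : ∀ x, |f x| ≤ K) (h2 : ∀ x, ‖fderiv ℝ f x‖ ≤ K)
    {y : E m} (hy : ‖y‖ ≤ 1) (hr : ρ + ‖y‖ ≤ r) :
    |∫ x, f (x - y) ∂ν - ∫ x, f x ∂ν| ≤ K * δ := by
  have hfd : Differentiable ℝ f := hf.differentiable (by norm_num)
  have hder : Continuous (fderiv ℝ f) := hf.continuous_fderiv (by norm_num)
  have hsub : ∀ s : ℝ, ∀ x : E m, fderiv ℝ (fun z => f (z - s • y)) x = fderiv ℝ f (x - s • y) :=
    fun s x => by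
      have h3 := (hfd (x - s • y)).hasFDerivAt.comp x ((hasFDerivAt_id x).sub_const (s • y))
      rw [ContinuousLinearMap.comp_id] at h3
      exact h3.fderiv
  have key := swap (ν := ν) (T := 1) (B := K) (ε := K * δ) zero_le_one
    (F := fun s x => -(fderiv ℝ f (x - s • y) y))
    (by
      refine (((hder.comp (continuous_snd.sub (continuous_fst.smul continuous_const))).clm_apply
        continuous_const)).neg)
    (by
      intro s _ x
      rw [abs_neg]
      calc |fderiv ℝ f (x - s • y) y| ≤ ‖fderiv ℝ f (x - s • y)‖ * ‖y‖ :=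
            (fderiv ℝ f (x - s • y)).le_opNorm y
        _ ≤ K * 1 := by gcongr; exact h2 _
        _ = K := mul_one K)
    (by
      intro s hs
      have hd := h.mul hK (Y := fun z => f (z - s • y) • y)
        ((hf.comp (contDiff_id.sub contDiff_const)).smul contDiff_const)
        (by
          intro x hx
          have : ρ ≤ ‖x - s • y‖ := by
            have h3 : ‖s • y‖ ≤ ‖y‖ := by
              rw [norm_smul, Real.norm_eq_abs, abs_of_nonneg hs.1]
              exact mul_le_of_le_one_left (norm_nonneg _) hs.2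
            have := norm_sub_norm_le x (s • y)
            linarith
          simp [h0 _ this])
        (by
          intro x
          rw [norm_smul]
          calc ‖f (x - s • y)‖ * ‖y‖ ≤ K * 1 := by
                gcongr
                exact h1 _
            _ = K := mul_one K)
        (by
          intro x
          have : fderiv ℝ (fun z => f (z - s • y) • y) x
              = (fderiv ℝ (fun z => f (z - s • y)) x).smulRight y :=
            ((hfd.comp (differentiable_id.sub_const _) x).hasFDerivAt.smul_const y).fderiv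
          rw [this, hsub, ContinuousLinearMap.norm_smulRight_apply]
          calc ‖fderiv ℝ f (x - s • y)‖ * ‖y‖ ≤ K * 1 := by
                gcongr
                exact h2 _
            _ = K := mul_one K)
      have he : ∀ x, dv (fun z => f (z - s • y) • y) x = fderiv ℝ f (x - s • y) y := by
        intro x
        rw [dv_smul_const (f := fun z => f (z - s • y)) (hfd.comp (differentiable_id.sub_const _) x),
          hsub]
      simp_rw [he] at hd
      rw [integral_neg, abs_neg]
      exact hd)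
    (f := fun x => f (x - y)) (g := f)
    (integrable_of_zero (hf.continuous.comp (continuous_id.sub continuous_const)) (fun x => h1 _))
    (integrable_of_zero hf.continuous h1)
    (by
      intro x
      have hD : ∀ s ∈ Set.uIcc (0:ℝ) 1, HasDerivAt (fun s : ℝ => f (x - s • y))
          (-(fderiv ℝ f (x - s • y) y)) s := by
        intro s _
        have h4 : HasDerivAt (fun s : ℝ => x - s • y) (-y) s := by
          have := ((hasDerivAt_id s).smul_const y).const_sub x
          simpa using this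
        have h5 : HasDerivAt (fun s : ℝ => f (x - s • y)) (fderiv ℝ f (x - s • y) (-y)) s :=
          (hfd (x - s • y)).hasFDerivAt.comp_hasDerivAt s h4
        rw [map_neg] at h5
        exact h5
      have h6 := intervalIntegral.integral_eq_sub_of_hasDerivAt hD (by
        apply Continuous.intervalIntegrable
        exact ((hder.comp (continuous_const.sub (continuous_id.smul continuous_const))).clm_apply
          continuous_const).neg)
      rw [h6]
      simp)
  simpa using key

/-- the scaled function, mass preserving. -/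
def sc (ζ : E m → ℝ) (t : ℝ) (x : E m) : ℝ := Real.exp (m * t) * ζ (Real.exp t • x)

theorem sc_hasFDerivAt {ζ : E m → ℝ} (hζ : ContDiff ℝ 1 ζ) (t : ℝ) (x : E m) :
    HasFDerivAt (sc ζ t) ((Real.exp (m * t) * Real.exp t) • fderiv ℝ ζ (Real.exp t • x)) x := by
  have h1 := (hζ.differentiable (by norm_num) (Real.exp t • x)).hasFDerivAt.comp x
    ((hasFDerivAt_id x).const_smul (Real.exp t))
  have h2 := h1.const_mul (Real.exp (m * t))
  refine HasFDerivAt.congr_fderiv h2 ?_
  ext y
  simp
  ring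

theorem scaling {ν : Measure (E m)} [IsFiniteMeasure ν] {r δ : ℝ} (h : Small ν r δ) (hr : r ≤ 2)
    {ζ : E m → ℝ} (hζ : ContDiff ℝ 1 ζ) (h0 : ∀ x, r ≤ ‖x‖ → ζ x = 0) (h1 : ∀ x, |ζ x| ≤ 1)
    (h2 : ∀ x, ‖fderiv ℝ ζ x‖ ≤ 1) {T : ℝ} (hT : 0 ≤ T) :
    |∫ x, sc ζ T x ∂ν - ∫ x, ζ x ∂ν| ≤ T * ((3 * (Real.exp (m * T) * Real.exp T)) * δ) := by
  have hder : Continuous (fderiv ℝ ζ) := hζ.continuous_fderiv (by norm_num)
  have hmT : ∀ t ∈ Icc 0 T, Real.exp (m * t) ≤ Real.exp (m * T) := by
    intro t ht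
    apply Real.exp_le_exp.2
    have : (0:ℝ) ≤ m := Nat.cast_nonneg m
    exact mul_le_mul_of_nonneg_left ht.2 this
  have heT : ∀ t ∈ Icc 0 T, Real.exp t ≤ Real.exp T := fun t ht => Real.exp_le_exp.2 ht.2
  have he1 : ∀ t ∈ Icc 0 T, 1 ≤ Real.exp t := fun t ht => Real.one_le_exp ht.1
  have he1T : 1 ≤ Real.exp T := Real.one_le_exp hT
  have hemT : 1 ≤ Real.exp (m * T) := Real.one_le_exp (by positivity)
  have hnorm : ∀ t ∈ Icc 0 T, ∀ x : E m, ‖x‖ ≤ ‖Real.exp t • x‖ := by
    intro t ht x
    rw [norm_smul, Real.norm_eq_abs, abs_of_pos (Real.exp_pos _)]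
    exact le_mul_of_one_le_left (norm_nonneg _) (he1 t ht)
  -- off the support the derivative vanishes
  have hD0 : ∀ z : E m, r < ‖z‖ → fderiv ℝ ζ z = 0 := by
    intro z hz
    have : ζ =ᶠ[𝓝 z] fun _ => (0:ℝ) := by
      filter_upwards [(isOpen_lt continuous_const continuous_norm).mem_nhds hz] with w hw
      exact h0 w (le_of_lt hw)
    rw [this.fderiv_eq]
    simp
  have hDx : ∀ t ∈ Icc 0 T, ∀ x : E m, ‖fderiv ℝ ζ (Real.exp t • x)‖ * ‖x‖ ≤ 2 := by
    intro t ht x
    by_cases hc : r < ‖Real.exp t • x‖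
    · rw [hD0 _ hc]; simp
    · have h3 : ‖x‖ ≤ 2 := ((hnorm t ht x).trans (not_lt.1 hc)).trans hr
      calc ‖fderiv ℝ ζ (Real.exp t • x)‖ * ‖x‖ ≤ 1 * 2 := by
            gcongr
            exact h2 _
        _ = 2 := one_mul _
  have hζx : ∀ t ∈ Icc 0 T, ∀ x : E m, |ζ (Real.exp t • x)| * ‖x‖ ≤ 2 := by
    intro t ht x
    by_cases hc : r ≤ ‖Real.exp t • x‖
    · rw [h0 _ hc]; simp
    · have h3 : ‖x‖ ≤ 2 := ((hnorm t ht x).trans (not_le.1 hc).le).trans hr
      calc |ζ (Real.exp t • x)| * ‖x‖ ≤ 1 * 2 := by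
            gcongr
            exact h1 _
        _ = 2 := one_mul _
  have hY : ∀ t x, HasFDerivAt (fun z => sc ζ t z • z)
      (sc ζ t x • ContinuousLinearMap.id ℝ (E m) +
        (((Real.exp (m * t) * Real.exp t) • fderiv ℝ ζ (Real.exp t • x)).smulRight x)) x :=
    fun t x => (sc_hasFDerivAt hζ t x).smul (hasFDerivAt_id x)
  have hdv : ∀ t x, dv (fun z => sc ζ t z • z) x
      = m * sc ζ t x + Real.exp (m * t) * Real.exp t * fderiv ℝ ζ (Real.exp t • x) x := by
    intro t x
    unfold dv
    rw [(hY t x).fderiv]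
    have e1 : ((sc ζ t x • ContinuousLinearMap.id ℝ (E m) +
        (((Real.exp (m * t) * Real.exp t) • fderiv ℝ ζ (Real.exp t • x)).smulRight x) :
          E m →L[ℝ] E m) : E m →ₗ[ℝ] E m)
        = sc ζ t x • LinearMap.id + (((Real.exp (m * t) * Real.exp t) •
          (fderiv ℝ ζ (Real.exp t • x) : E m →ₗ[ℝ] ℝ)).smulRight x) := by
      ext y; simp
    rw [e1, map_add, map_smul, LinearMap.trace_id, LinearMap.trace_smulRight]
    simp
    ring
  have hscc : Continuous fun p : ℝ × E m => sc ζ p.1 p.2 := by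
    unfold sc
    exact (Real.continuous_exp.comp (continuous_const.mul continuous_fst)).mul
      (hζ.continuous.comp ((Real.continuous_exp.comp continuous_fst).smul continuous_snd))
  have hscC : ∀ t, ContDiff ℝ 1 (sc ζ t) := by
    intro t
    exact contDiff_const.mul (hζ.comp (contDiff_const_smul (Real.exp t)))
  have hFc : Continuous fun p : ℝ × E m => m * sc ζ p.1 p.2 +
      Real.exp (m * p.1) * Real.exp p.1 * fderiv ℝ ζ (Real.exp p.1 • p.2) p.2 := by
    refine (continuous_const.mul hscc).add (Continuous.mul ?_ ?_)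
    · exact (Real.continuous_exp.comp (continuous_const.mul continuous_fst)).mul
        (Real.continuous_exp.comp continuous_fst)
    · exact (hder.comp ((Real.continuous_exp.comp continuous_fst).smul
        continuous_snd)).clm_apply continuous_snd
  have hscb : ∀ t ∈ Icc 0 T, ∀ x, |sc ζ t x| ≤ Real.exp (m * T) := by
    intro t ht x
    unfold sc
    rw [abs_mul, abs_of_pos (Real.exp_pos _)]
    calc Real.exp (m * t) * |ζ (Real.exp t • x)| ≤ Real.exp (m * T) * 1 := by
          gcongr
          · exact ht.2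
          · exact h1 _
      _ = _ := mul_one _
  have h2nd : ∀ t ∈ Icc 0 T, ∀ x,
      Real.exp (m * t) * Real.exp t * (‖fderiv ℝ ζ (Real.exp t • x)‖ * ‖x‖)
        ≤ Real.exp (m * T) * Real.exp T * 2 := by
    intro t ht x
    gcongr
    · exact ht.2
    · exact ht.2
    · exact hDx t ht x
  have key := swap (ν := ν) (T := T) (B := m * Real.exp (m * T) + Real.exp (m * T) * Real.exp T * 2)
    (ε := (3 * (Real.exp (m * T) * Real.exp T)) * δ) hT
    (F := fun t x => m * sc ζ t x + Real.exp (m * t) * Real.exp t * fderiv ℝ ζ (Real.exp t • x) x)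
    hFc
    (by
      intro t ht x
      refine (abs_add_le _ _).trans (add_le_add ?_ ?_)
      · rw [abs_mul, abs_of_nonneg (Nat.cast_nonneg m)]
        gcongr
        exact hscb t ht x
      · rw [abs_mul, abs_of_pos (by positivity)]
        refine le_trans ?_ (h2nd t ht x)
        gcongr
        exact (fderiv ℝ ζ (Real.exp t • x)).le_opNorm x)
    (by
      intro t ht
      have hd := h.mul (K := 3 * (Real.exp (m * T) * Real.exp T)) (by positivity)
        (Y := fun z => sc ζ t z • z)
        (ContDiff.smul (f := sc ζ t) (g := fun z : E m => z) (hscC t) contDiff_id)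
        (by
          intro x hx
          have : sc ζ t x = 0 := by
            unfold sc
            rw [h0 _ (hx.trans (hnorm t ht x)), mul_zero]
          simp [this])
        (by
          intro x
          rw [norm_smul, Real.norm_eq_abs]
          unfold sc
          rw [abs_mul, abs_of_pos (Real.exp_pos _), mul_assoc]
          calc Real.exp (m * t) * (|ζ (Real.exp t • x)| * ‖x‖)
              ≤ Real.exp (m * T) * 2 := by
                gcongr
                · exact ht.2
                · exact hζx t ht x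
            _ ≤ 3 * (Real.exp (m * T) * Real.exp T) := by nlinarith)
        (by
          intro x
          rw [(hY t x).fderiv]
          refine (norm_add_le _ _).trans ?_
          rw [norm_smul, ContinuousLinearMap.norm_smulRight_apply, norm_smul, Real.norm_eq_abs,
            Real.norm_eq_abs, abs_of_pos (by positivity : 0 < Real.exp (m * t) * Real.exp t)]
          have h3 : ‖ContinuousLinearMap.id ℝ (E m)‖ ≤ 1 := ContinuousLinearMap.norm_id_le
          have h4 : |sc ζ t x| * ‖ContinuousLinearMap.id ℝ (E m)‖ ≤ Real.exp (m * T) * 1 := by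
            gcongr
            exact hscb t ht x
          have h5 := h2nd t ht x
          rw [← mul_assoc (Real.exp (m * t) * Real.exp t)] at h5
          nlinarith)
      simp_rw [hdv] at hd
      exact hd)
    (f := fun x => sc ζ T x) (g := ζ)
    (integrable_of_zero (hscc.comp (Continuous.prodMk_right T)) (hscb T ⟨hT, le_rfl⟩))
    (integrable_of_zero hζ.continuous h1)
    (by
      intro x
      have hD : ∀ t ∈ Set.uIcc (0:ℝ) T, HasDerivAt (fun t : ℝ => sc ζ t x)
          (m * sc ζ t x + Real.exp (m * t) * Real.exp t * fderiv ℝ ζ (Real.exp t • x) x) t := by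
        intro t _
        have h3 : HasDerivAt (fun t : ℝ => Real.exp (m * t)) (Real.exp (m * t) * m) t := by
          have := ((hasDerivAt_id t).const_mul (m:ℝ)).exp
          simpa using this
        have h4 : HasDerivAt (fun t : ℝ => Real.exp t • x) (Real.exp t • x) t :=
          (Real.hasDerivAt_exp t).smul_const x
        have h5 : HasDerivAt (fun t : ℝ => ζ (Real.exp t • x))
            (fderiv ℝ ζ (Real.exp t • x) (Real.exp t • x)) t :=
          (hζ.differentiable (by norm_num) (Real.exp t • x)).hasFDerivAt.comp_hasDerivAt t h4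
        have h6 := h3.mul h5
        rw [map_smul] at h6
        refine h6.congr_deriv ?_
        unfold sc
        simp only [smul_eq_mul]
        ring
      have h6 := intervalIntegral.integral_eq_sub_of_hasDerivAt hD (by
        apply Continuous.intervalIntegrable
        exact hFc.comp (Continuous.prodMk_left x))
      rw [h6]
      congr 1
      simp [sc])
  exact key

/-- mixing translations. -/
theorem mix {ν : Measure (E m)} [IsFiniteMeasure ν] {ε K ρ : ℝ} {p f : E m → ℝ}
    (hp : Continuous p) (hps : ∀ y, ρ ≤ ‖y‖ → p y = 0) (hpi : Integrable p)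
    (hf : Continuous f) (hfK : ∀ x, |f x| ≤ K)
    (hε : ∀ y, ‖y‖ ≤ ρ → |∫ x, f (x - y) ∂ν - ∫ x, f x ∂ν| ≤ ε) :
    |∫ x, (∫ y, p y * f (x - y)) ∂ν - (∫ y, p y) * ∫ x, f x ∂ν| ≤ (∫ y, |p y|) * ε := by
  have hI : Integrable (fun z : E m × E m => p z.2 * f (z.1 - z.2))
      (ν.prod (volume : Measure (E m))) := by
    have h1 : Integrable (fun z : E m × E m => (K : ℝ) * |p z.2|)
        (ν.prod (volume : Measure (E m))) :=
      (integrable_const (μ := ν) K).mul_prod hpi.abs
    refine Integrable.mono' h1 ?_ (Eventually.of_forall ?_)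
    · exact ((hp.comp continuous_snd).mul
        (hf.comp (continuous_fst.sub continuous_snd))).aestronglyMeasurable
    · intro z
      rw [norm_mul, Real.norm_eq_abs, Real.norm_eq_abs, mul_comm]
      gcongr
      exact hfK _
  have hsw : ∫ x, (∫ y, p y * f (x - y)) ∂ν = ∫ y, (∫ x, p y * f (x - y) ∂ν) :=
    integral_integral_swap (f := fun x y => p y * f (x - y)) hI
  have hI2 : Integrable (fun y => ∫ x, p y * f (x - y) ∂ν) := hI.integral_prod_right
  rw [hsw, ← integral_mul_const, ← integral_sub hI2 (hpi.mul_const _), ← integral_mul_const]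
  refine (abs_integral_le_integral_abs).trans ?_
  refine integral_mono_of_nonneg (Eventually.of_forall fun y => abs_nonneg _)
    (hpi.abs.mul_const _) (Eventually.of_forall fun y => ?_)
  simp only
  rw [integral_const_mul, ← mul_sub, abs_mul]
  by_cases hy : ρ ≤ ‖y‖
  · rw [hps y hy]; simp
  · gcongr
    exact hε y (not_le.1 hy).le

theorem integral_sc (ζ : E m → ℝ) (T : ℝ) : ∫ x, sc ζ T x = ∫ x, ζ x := by
  unfold sc
  rw [integral_const_mul, Measure.integral_comp_smul volume ζ (Real.exp T)]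
  rw [finrank_euclideanSpace_fin, ← Real.exp_nat_mul, abs_of_pos (inv_pos.2 (Real.exp_pos _)),
    smul_eq_mul, ← mul_assoc, mul_inv_cancel₀ (Real.exp_pos _).ne', one_mul]

/-- the bump -/
def bb (m : ℕ) : ContDiffBump (0 : E m) := ⟨1 / 64, 1 / 32, by norm_num, by norm_num⟩

theorem nu (m : ℕ) : ∃ C : ℝ, 0 < C ∧ ∃ b : E m → ℝ, ContDiff ℝ ∞ b ∧
    (∀ x, 0 ≤ b x) ∧ (∀ x, 1 / 16 ≤ ‖x‖ → b x = 0) ∧ (∀ x, b x ≤ C) ∧ ∫ x, b x = 1 ∧
    ∀ (ν : Measure (E m)) (r δ : ℝ), ν univ < ⊤ → 1 / 8 ≤ r → r ≤ 2 → 0 ≤ δ →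
      Small ν r δ →
      ∀ ζ : E m → ℝ, ContDiff ℝ 1 ζ → (∀ x, r ≤ ‖x‖ → ζ x = 0) → (∀ x, |ζ x| ≤ 1) →
        (∀ x, ‖fderiv ℝ ζ x‖ ≤ 1) →
        |∫ x, ζ x ∂ν - (∫ x, ζ x) * ∫ x, b x ∂ν| ≤ C * δ := by
  set b : E m → ℝ := (bb m).normed volume with hb
  have hbs : ContDiff ℝ ∞ b := (bb m).contDiff_normed
  have hb1 : ContDiff ℝ 1 b := hbs.of_le (by exact_mod_cast le_top)
  have hb0 : ∀ x, 0 ≤ b x := (bb m).nonneg_normed
  have hbz : ∀ x, 1 / 32 ≤ ‖x‖ → b x = 0 := by
    intro x hx
    have : x ∉ Function.support b := by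
      rw [hb, (bb m).support_normed_eq]
      simp only [Metric.mem_ball, dist_zero_right, not_lt]
      exact hx
    simpa using this
  have hbc : HasCompactSupport b := (bb m).hasCompactSupport_normed
  obtain ⟨K1, hK1⟩ := hbc.exists_bound_of_continuous hbs.continuous
  obtain ⟨K2, hK2⟩ := (hbc.fderiv (𝕜 := ℝ)).exists_bound_of_continuous
    (hb1.continuous_fderiv (by norm_num))
  have hbi : ∫ x, b x = 1 := (bb m).integral_normed
  set Kb : ℝ := max 1 (max K1 K2) with hKb
  have hKb1 : 1 ≤ Kb := le_max_left _ _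
  have hbK : ∀ x, |b x| ≤ Kb := fun x =>
    (hK1 x).trans ((le_max_left _ _).trans (le_max_right _ _))
  have hbK' : ∀ x, ‖fderiv ℝ b x‖ ≤ Kb := fun x =>
    (hK2 x).trans ((le_max_right _ _).trans (le_max_right _ _))
  set T : ℝ := Real.log 64 with hTdef
  have hT : 0 ≤ T := Real.log_nonneg (by norm_num)
  have heT : Real.exp T = 64 := Real.exp_log (by norm_num)
  set Ke : ℝ := Real.exp (m * T) * Real.exp T with hKe
  have hKe1 : 1 ≤ Real.exp (m * T) := Real.one_le_exp (by positivity)
  have hKep : 0 < Ke := by positivity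
  set W : ℝ := Real.exp (m * T) * (volume (Metric.closedBall (0 : E m) 1)).toReal with hW
  have hW0 : 0 ≤ W := by positivity
  refine ⟨T * (3 * Ke) + Ke + W * Kb + Kb, by positivity, b, hbs, hb0,
    fun x hx => hbz x (by linarith), fun x => ?_, hbi, ?_⟩
  · have := (le_abs_self _).trans (hbK x)
    have h1 : 0 ≤ T * (3 * Ke) := by positivity
    have h2 : 0 ≤ W * Kb := by positivity
    linarith
  intro ν r δ hν hr1 hr2 hδ h ζ hζ h0 h1 h2
  have : IsFiniteMeasure ν := ⟨hν⟩
  -- the scaled function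
  set η : E m → ℝ := sc ζ T with hη
  have hηC : ContDiff ℝ 1 η := contDiff_const.mul (hζ.comp (contDiff_const_smul (Real.exp T)))
  have hη0 : ∀ x, 1 / 32 ≤ ‖x‖ → η x = 0 := by
    intro x hx
    rw [hη, sc, h0 _ ?_, mul_zero]
    rw [norm_smul, Real.norm_eq_abs, abs_of_pos (Real.exp_pos _), heT]
    linarith
  have hη1 : ∀ x, |η x| ≤ Real.exp (m * T) := by
    intro x
    rw [hη, sc, abs_mul, abs_of_pos (Real.exp_pos _)]
    calc Real.exp (m * T) * |ζ (Real.exp T • x)| ≤ Real.exp (m * T) * 1 := by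
          gcongr
          exact h1 _
      _ = _ := mul_one _
  have hη1' : ∀ x, |η x| ≤ Ke := by
    intro x
    refine (hη1 x).trans ?_
    rw [hKe, heT]
    nlinarith
  have hη2 : ∀ x, ‖fderiv ℝ η x‖ ≤ Ke := by
    intro x
    rw [hη, (sc_hasFDerivAt hζ T x).fderiv, norm_smul, Real.norm_eq_abs,
      abs_of_pos (by positivity : 0 < Real.exp (m * T) * Real.exp T)]
    calc Ke * ‖fderiv ℝ ζ (Real.exp T • x)‖ ≤ Ke * 1 := by
          gcongr
          exact h2 _
      _ = Ke := mul_one _
  have hηc : HasCompactSupport η :=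
    HasCompactSupport.intro (isCompact_closedBall (0 : E m) 1) (fun x hx => hη0 x (by
      simp only [Metric.mem_closedBall, dist_zero_right, not_le] at hx
      linarith))
  have hηI : Integrable η := hηC.continuous.integrable_of_hasCompactSupport hηc
  have hηint : ∫ x, η x = ∫ x, ζ x := integral_sc ζ T
  -- step 1
  have s1 := scaling h hr2 hζ h0 h1 h2 hT
  -- step 2
  have s2 := mix (ν := ν) (ε := Ke * δ) (K := Ke) (ρ := 1 / 32) (p := b) (f := η)
    hbs.continuous hbz (hbs.continuous.integrable_of_hasCompactSupport hbc) hηC.continuous hη1'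
    (fun y hy => transl h hηC hKep hη0 hη1' hη2 (by linarith) (by linarith))
  -- step 3
  have s3 := mix (ν := ν) (ε := Kb * δ) (K := Kb) (ρ := 1 / 32) (p := η) (f := b)
    hηC.continuous hη0 hηI hbs.continuous hbK
    (fun y hy => transl h hb1 (by linarith) hbz hbK hbK' (by linarith) (by linarith))
  have hcomm : ∀ x, ∫ y, b y * η (x - y) = ∫ y, η y * b (x - y) := by
    intro x
    rw [← integral_sub_left_eq_self (fun y => η y * b (x - y)) volume x]
    refine integral_congr_ae (Eventually.of_forall fun y => ?_)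
    simp only [sub_sub_cancel]
    ring
  simp_rw [hcomm] at s2
  rw [hbi, one_mul] at s2
  have hbabs : ∫ y, |b y| = 1 := by
    simp_rw [abs_of_nonneg (hb0 _)]; exact hbi
  have hηabs : ∫ y, |η y| ≤ W := by
    have : ∫ y, |η y| = ∫ y in Metric.closedBall (0 : E m) 1, |η y| := by
      rw [setIntegral_eq_integral_of_forall_compl_eq_zero]
      intro x hx
      simp only [Metric.mem_closedBall, dist_zero_right, not_le] at hx
      rw [hη0 x (by linarith), abs_zero]
    rw [this]
    have h3 := norm_setIntegral_le_of_norm_le_const (μ := (volume : Measure (E m)))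
      (s := Metric.closedBall (0 : E m) 1) (f := fun y => |η y|) (C := Real.exp (m * T))
      (by exact measure_closedBall_lt_top) (fun x _ => by
        rw [Real.norm_eq_abs, abs_abs]; exact hη1 x)
    exact (le_abs_self _).trans h3
  rw [hbabs, one_mul] at s2
  rw [hηint] at s3
  have s3' : |∫ x, (∫ y, η y * b (x - y)) ∂ν - (∫ x, ζ x) * ∫ x, b x ∂ν| ≤ W * (Kb * δ) :=
    s3.trans (by gcongr)
  have e : ∫ x, ζ x ∂ν - (∫ x, ζ x) * ∫ x, b x ∂ν =
      -(∫ x, sc ζ T x ∂ν - ∫ x, ζ x ∂ν) - (∫ x, (∫ y, η y * b (x - y)) ∂ν - ∫ x, η x ∂ν)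
        + (∫ x, (∫ y, η y * b (x - y)) ∂ν - (∫ x, ζ x) * ∫ x, b x ∂ν) := by
    rw [hη]; ring
  rw [e]
  refine (abs_add_le _ _).trans ?_
  refine (add_le_add (abs_sub _ _) le_rfl).trans ?_
  rw [abs_neg]
  calc _ ≤ T * ((3 * (Real.exp (m * T) * Real.exp T)) * δ) + Ke * δ + W * (Kb * δ) := by
        gcongr
    _ = (T * (3 * Ke) + Ke + W * Kb) * δ := by rw [hKe]; ring
    _ ≤ (T * (3 * Ke) + Ke + W * Kb + Kb) * δ :=
        mul_le_mul_of_nonneg_right (by linarith) hδ

end Crest.Agent.R234.Nu_681
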