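import Crest.Agent.R234.MgDefs2_570
import Crest.Agent.R234.Nu_681

/-!
# Row 234, node F2-NU (helper681): `nuP : MG_570.NuP`.
-/

set_option autoImplicit false

namespace Crest.Agent.R234.Nu_681

theorem nuP : MG_570.NuP := fun m _ => nu m

end Crest.Agent.R234.Nu_681
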