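import Mathlib

/-!
# R234 / Ode1_201 : the robust ODE of #5124 (2) (task 1307, VF-ODE)

`l = log s`, `U' = R ≥ 0`, `I' = 2 e + ρ`, `e² ≤ R I + κ U²`, `|ρ| ≤ κ U`, `Y = I / U`:
* `Y' ≤ 1 + 2 κ` always,
* `Y' ≤ 4 η + 2 κ` and `(log U)' ≥ 3 / Y` at the good scales `e ≥ 2 (1 - η) U`.
-/

namespace Crest.Agent.R234.Ode_201

open MeasureTheory Set Filter
open scoped Topology

/-- composition of an absolutely continuous function with a function which is Lipschitz on the
image -/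
theorem ac_comp {f φ : ℝ → ℝ} {a b K : ℝ} {s : Set ℝ} (hf : AbsolutelyContinuousOnInterval f a b)
    (hs : ∀ x ∈ uIcc a b, f x ∈ s) (hφ : ∀ x ∈ s, ∀ y ∈ s, |φ x - φ y| ≤ K * |x - y|) :
    AbsolutelyContinuousOnInterval (fun x => φ (f x)) a b := by
  rw [absolutelyContinuousOnInterval_iff] at hf ⊢
  intro ε hε
  have hK : 0 < |K| + 1 := by positivity
  obtain ⟨δ, hδ, h⟩ := hf (ε / (|K| + 1)) (by positivity)
  refine ⟨δ, hδ, fun E hE hs' => ?_⟩
  have h1 := h E hE hs'
  have h2 : ∑ i ∈ Finset.range E.1, dist (φ (f (E.2 i).1)) (φ (f (E.2 i).2))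
      ≤ ∑ i ∈ Finset.range E.1, (|K| + 1) * dist (f (E.2 i).1) (f (E.2 i).2) := by
    apply Finset.sum_le_sum
    intro i hi
    have hmem := hE.1 i hi
    rw [Real.dist_eq, Real.dist_eq]
    refine (hφ _ (hs _ hmem.1) _ (hs _ hmem.2)).trans ?_
    apply mul_le_mul_of_nonneg_right _ (abs_nonneg _)
    exact (le_abs_self K).trans (by linarith)
  rw [← Finset.mul_sum] at h2
  calc _ ≤ (|K| + 1) * ∑ i ∈ Finset.range E.1, dist (f (E.2 i).1) (f (E.2 i).2) := h2
    _ < (|K| + 1) * (ε / (|K| + 1)) := mul_lt_mul_of_pos_left h1 hK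
    _ = ε := by field_simp

/-- the data of the robust ODE on `[a, b]` -/
structure Dat (κ a b : ℝ) (U I R e ρ : ℝ → ℝ) : Prop where
  hab : a ≤ b
  k0 : 0 ≤ κ
  Upos : 0 < U a
  Inn : ∀ x ∈ Icc a b, 0 ≤ I x
  hR : IntervalIntegrable R volume a b
  he : IntervalIntegrable e volume a b
  hρ : IntervalIntegrable ρ volume a b
  hU : ∀ x ∈ Icc a b, U x = U a + ∫ t in a..x, R t
  hI : ∀ x ∈ Icc a b, I x = I a + ∫ t in a..x, (2 * e t + ρ t)
  Rnn : ∀ᵐ t, t ∈ Icc a b → 0 ≤ R t
  cs : ∀ᵐ t, t ∈ Icc a b → e t ^ 2 ≤ R t * I t + κ * U t ^ 2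
  rho : ∀ᵐ t, t ∈ Icc a b → |ρ t| ≤ κ * U t

variable {κ a b : ℝ} {U I R e ρ : ℝ → ℝ}

theorem Dat.mono (h : Dat κ a b U I R e ρ) {x y : ℝ} (hx : x ∈ Icc a b) (hy : y ∈ Icc a b)
    (hxy : x ≤ y) : U x ≤ U y := by
  have h1 : IntervalIntegrable R volume a x :=
    h.hR.mono_set (by rw [uIcc_of_le hx.1, uIcc_of_le h.hab]; exact Icc_subset_Icc_right hx.2)
  have h2 : IntervalIntegrable R volume a y :=
    h.hR.mono_set (by rw [uIcc_of_le hy.1, uIcc_of_le h.hab]; exact Icc_subset_Icc_right hy.2)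
  have h3 : IntervalIntegrable R volume x y :=
    h.hR.mono_set (by
      rw [uIcc_of_le hxy, uIcc_of_le h.hab]; exact Icc_subset_Icc hx.1 hy.2)
  have h4 := intervalIntegral.integral_interval_sub_left h2 h1
  have h5 : 0 ≤ ∫ t in x..y, R t := by
    apply intervalIntegral.integral_nonneg_of_ae_restrict hxy
    rw [EventuallyLE, ae_restrict_iff' measurableSet_Icc]
    filter_upwards [h.Rnn] with t ht htt
    exact ht ⟨hx.1.trans htt.1, htt.2.trans hy.2⟩
  rw [h.hU x hx, h.hU y hy]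
  linarith

theorem Dat.pos (h : Dat κ a b U I R e ρ) {x : ℝ} (hx : x ∈ Icc a b) : 0 < U x :=
  h.Upos.trans_le (h.mono ⟨le_refl _, h.hab⟩ hx hx.1)

/-- restriction to a subinterval -/
theorem Dat.sub (h : Dat κ a b U I R e ρ) {c d : ℝ} (hc : a ≤ c) (hcd : c ≤ d) (hd : d ≤ b) :
    Dat κ c d U I R e ρ := by
  have hsub : uIcc c d ⊆ uIcc a b := by
    rw [uIcc_of_le hcd, uIcc_of_le h.hab]; exact Icc_subset_Icc hc hd
  have hS : Icc c d ⊆ Icc a b := Icc_subset_Icc hc hd
  have hac : IntervalIntegrable R volume a c :=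
    h.hR.mono_set (by
      rw [uIcc_of_le hc, uIcc_of_le h.hab]; exact Icc_subset_Icc_right (hcd.trans hd))
  have hac' : IntervalIntegrable (fun t => 2 * e t + ρ t) volume a c :=
    ((h.he.const_mul 2).add h.hρ).mono_set (by
      rw [uIcc_of_le hc, uIcc_of_le h.hab]; exact Icc_subset_Icc_right (hcd.trans hd))
  refine ⟨hcd, h.k0, h.pos ⟨hc, hcd.trans hd⟩, fun x hx => h.Inn x (hS hx), h.hR.mono_set hsub,
    h.he.mono_set hsub, h.hρ.mono_set hsub, fun x hx => ?_, fun x hx => ?_, ?_, ?_, ?_⟩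
  · have hcx : IntervalIntegrable R volume c x :=
      h.hR.mono_set (by
        rw [uIcc_of_le hx.1, uIcc_of_le h.hab]; exact Icc_subset_Icc hc (hx.2.trans hd))
    rw [h.hU x (hS hx), h.hU c ⟨hc, hcd.trans hd⟩,
      ← intervalIntegral.integral_add_adjacent_intervals hac hcx]
    ring
  · have hcx : IntervalIntegrable (fun t => 2 * e t + ρ t) volume c x :=
      ((h.he.const_mul 2).add h.hρ).mono_set (by
        rw [uIcc_of_le hx.1, uIcc_of_le h.hab]; exact Icc_subset_Icc hc (hx.2.trans hd))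
    rw [h.hI x (hS hx), h.hI c ⟨hc, hcd.trans hd⟩,
      ← intervalIntegral.integral_add_adjacent_intervals hac' hcx]
    ring
  · filter_upwards [h.Rnn] with t ht htt using ht (hS htt)
  · filter_upwards [h.cs] with t ht htt using ht (hS htt)
  · filter_upwards [h.rho] with t ht htt using ht (hS htt)

theorem Dat.acU (h : Dat κ a b U I R e ρ) : AbsolutelyContinuousOnInterval U a b := by
  have h1 := (h.hR.absolutelyContinuousOnInterval_intervalIntegral
    (left_mem_uIcc : a ∈ uIcc a b))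
  have h2 : AbsolutelyContinuousOnInterval (fun _ : ℝ => U a) a b := by
    rw [absolutelyContinuousOnInterval_iff]
    intro ε hε
    exact ⟨1, one_pos, fun E _ _ => by simpa using hε⟩
  have h3 := h2.add h1
  rw [absolutelyContinuousOnInterval_iff] at h3 ⊢
  intro ε hε
  obtain ⟨δ, hδ, H⟩ := h3 ε hε
  refine ⟨δ, hδ, fun E hE hs => ?_⟩
  refine lt_of_le_of_lt (le_of_eq ?_) (H E hE hs)
  apply Finset.sum_congr rfl
  intro i hi
  have hm := hE.1 i hi
  rw [uIcc_of_le h.hab] at hm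
  simp only [Pi.add_apply]
  rw [h.hU _ hm.1, h.hU _ hm.2]

theorem Dat.acI (h : Dat κ a b U I R e ρ) : AbsolutelyContinuousOnInterval I a b := by
  have hint := (h.he.const_mul 2).add h.hρ
  have h1 := (hint.absolutelyContinuousOnInterval_intervalIntegral
    (left_mem_uIcc : a ∈ uIcc a b))
  have h2 : AbsolutelyContinuousOnInterval (fun _ : ℝ => I a) a b := by
    rw [absolutelyContinuousOnInterval_iff]
    intro ε hε
    exact ⟨1, one_pos, fun E _ _ => by simpa using hε⟩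
  have h3 := h2.add h1
  rw [absolutelyContinuousOnInterval_iff] at h3 ⊢
  intro ε hε
  obtain ⟨δ, hδ, H⟩ := h3 ε hε
  refine ⟨δ, hδ, fun E hE hs => ?_⟩
  refine lt_of_le_of_lt (le_of_eq ?_) (H E hE hs)
  apply Finset.sum_congr rfl
  intro i hi
  have hm := hE.1 i hi
  rw [uIcc_of_le h.hab] at hm
  simp only [Pi.add_apply]
  rw [h.hI _ hm.1, h.hI _ hm.2]

theorem Dat.acInv (h : Dat κ a b U I R e ρ) :
    AbsolutelyContinuousOnInterval (fun x => (U x)⁻¹) a b := by
  refine ac_comp (φ := fun y => y⁻¹) (s := Ici (U a)) (K := ((U a)⁻¹) ^ 2) h.acU ?_ ?_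
  · intro x hx
    rw [uIcc_of_le h.hab] at hx
    exact h.mono ⟨le_refl _, h.hab⟩ hx hx.1
  · intro x hx y hy
    have hx0 : 0 < x := h.Upos.trans_le hx
    have hy0 : 0 < y := h.Upos.trans_le hy
    have e1 : x⁻¹ - y⁻¹ = (y - x) * (x⁻¹ * y⁻¹) := by field_simp
    rw [e1, abs_mul, abs_sub_comm y x, abs_of_pos (a := x⁻¹ * y⁻¹) (by positivity), mul_comm]
    apply mul_le_mul_of_nonneg_right _ (abs_nonneg _)
    rw [sq]
    exact mul_le_mul (inv_anti₀ h.Upos hx) (inv_anti₀ h.Upos hy) (by positivity)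
      (by have := h.Upos; positivity)

theorem Dat.acLog (h : Dat κ a b U I R e ρ) :
    AbsolutelyContinuousOnInterval (fun x => Real.log (U x)) a b := by
  refine ac_comp (φ := Real.log) (s := Ici (U a)) (K := (U a)⁻¹) h.acU ?_ ?_
  · intro x hx
    rw [uIcc_of_le h.hab] at hx
    exact h.mono ⟨le_refl _, h.hab⟩ hx hx.1
  · intro x hx y hy
    have key : ∀ x y : ℝ, U a ≤ x → x ≤ y → |Real.log x - Real.log y| ≤ (U a)⁻¹ * |x - y| := by
      intro x y hx hxy
      have hx0 : 0 < x := h.Upos.trans_le hx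
      have hy0 : 0 < y := hx0.trans_le hxy
      rw [abs_sub_comm, abs_sub_comm x y, abs_of_nonneg (sub_nonneg.2 hxy),
        abs_of_nonneg (sub_nonneg.2 (Real.log_le_log hx0 hxy)), ← Real.log_div hy0.ne' hx0.ne']
      have := Real.log_le_sub_one_of_pos (div_pos hy0 hx0)
      refine this.trans ?_
      have e1 : y / x - 1 = x⁻¹ * (y - x) := by field_simp
      rw [e1]
      exact mul_le_mul_of_nonneg_right (inv_anti₀ h.Upos hx) (sub_nonneg.2 hxy)
    rcases le_total x y with hxy | hxy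
    · exact key x y hx hxy
    · rw [abs_sub_comm, abs_sub_comm x y]; exact key y x hy hxy

theorem Dat.derU (h : Dat κ a b U I R e ρ) :
    ∀ᵐ x, x ∈ Ioo a b → HasDerivAt U (R x) x := by
  filter_upwards [h.hR.ae_hasDerivAt_integral] with x hx hxx
  have h1 := hx (by rw [uIcc_of_le h.hab]; exact Ioo_subset_Icc_self hxx) a left_mem_uIcc
  have h2 := h1.const_add (U a)
  refine h2.congr_of_eventuallyEq ?_
  filter_upwards [isOpen_Ioo.mem_nhds hxx] with y hy
  exact h.hU y (Ioo_subset_Icc_self hy)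

theorem Dat.derI (h : Dat κ a b U I R e ρ) :
    ∀ᵐ x, x ∈ Ioo a b → HasDerivAt I (2 * e x + ρ x) x := by
  filter_upwards [((h.he.const_mul 2).add h.hρ).ae_hasDerivAt_integral] with x hx hxx
  have h1 := hx (by rw [uIcc_of_le h.hab]; exact Ioo_subset_Icc_self hxx) a left_mem_uIcc
  have h2 := h1.const_add (I a)
  refine h2.congr_of_eventuallyEq ?_
  filter_upwards [isOpen_Ioo.mem_nhds hxx] with y hy
  exact h.hI y (Ioo_subset_Icc_self hy)

theorem Dat.acY (h : Dat κ a b U I R e ρ) :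
    AbsolutelyContinuousOnInterval (fun x => I x * (U x)⁻¹) a b := by
  have := h.acI.mul h.acInv
  exact this

/-- the elementary inequality behind everything -/
theorem Dat.derY (h : Dat κ a b U I R e ρ) :
    ∀ᵐ x, x ∈ Ioo a b → deriv (fun x => I x * (U x)⁻¹) x
      ≤ 2 * (e x / U x) - (e x / U x) ^ 2 + 2 * κ := by
  filter_upwards [h.derU, h.derI, h.cs, h.rho] with x hU hI hcs hrho hx
  have hxI := Ioo_subset_Icc_self hx
  have hp := h.pos hxI
  have h1 : HasDerivAt (fun x => I x * (U x)⁻¹)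
      ((2 * e x + ρ x) * (U x)⁻¹ + I x * (-R x / U x ^ 2)) x :=
    (hI hx).mul ((hU hx).inv hp.ne')
  rw [h1.deriv]
  have h2 := hcs hxI
  have h3 := (abs_le.1 (hrho hxI)).2
  have e1 : (2 * e x + ρ x) * (U x)⁻¹ + I x * (-R x / U x ^ 2)
      = (2 * e x * U x + ρ x * U x - R x * I x) / U x ^ 2 := by
    field_simp
    ring
  have e2 : 2 * (e x / U x) - (e x / U x) ^ 2 + 2 * κ
      = (2 * e x * U x - e x ^ 2 + 2 * κ * U x ^ 2) / U x ^ 2 := by
    field_simp
  rw [e1, e2]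
  apply div_le_div_of_nonneg_right _ (by positivity)
  nlinarith [mul_le_mul_of_nonneg_right h3 hp.le]

theorem Dat.intY (h : Dat κ a b U I R e ρ) :
    IntervalIntegrable (deriv (fun x => I x * (U x)⁻¹)) volume a b :=
  h.acY.intervalIntegrable_deriv

/-- `Y(b) - Y(a) ≤ (1 + 2 κ) (b - a)` : whatever the signs -/
theorem Dat.Y_le (h : Dat κ a b U I R e ρ) :
    I b / U b - I a / U a ≤ (1 + 2 * κ) * (b - a) := by
  have h1 := h.acY.integral_deriv_eq_sub
  rw [div_eq_mul_inv, div_eq_mul_inv, ← h1]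
  have h2 : ∫ x in a..b, deriv (fun x => I x * (U x)⁻¹) x ≤ ∫ x in a..b, (1 + 2 * κ) := by
    apply intervalIntegral.integral_mono_ae_restrict h.hab h.intY (by simp)
    rw [EventuallyLE, ae_restrict_iff' measurableSet_Icc]
    have hne : ∀ᵐ x : ℝ, x ≠ a ∧ x ≠ b := by
      have : ∀ c : ℝ, ∀ᵐ x : ℝ, x ≠ c := fun c => by
        simp [ae_iff]
      filter_upwards [this a, this b] with x h1 h2 using ⟨h1, h2⟩
    filter_upwards [h.derY, hne] with x hx hn hxx
    have := hx ⟨lt_of_le_of_ne hxx.1 hn.1.symm, lt_of_le_of_ne hxx.2 hn.2⟩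
    nlinarith [sq_nonneg (e x / U x - 1)]
  rw [intervalIntegral.integral_const, smul_eq_mul] at h2
  linarith

theorem ae_ne_two (a b : ℝ) : ∀ᵐ x : ℝ, x ≠ a ∧ x ≠ b := by
  have : ∀ c : ℝ, ∀ᵐ x : ℝ, x ≠ c := fun c => by
    simp [ae_iff]
  filter_upwards [this a, this b] with x h1 h2 using ⟨h1, h2⟩

theorem integral_ind {a b : ℝ} (hab : a ≤ b) {Ω : Set ℝ} (hΩ : MeasurableSet Ω) :
    ∫ x in a..b, Ω.indicator (fun _ => (1 : ℝ)) x ≤ (volume (Ω ∩ Icc a b)).toReal := by
  rw [intervalIntegral.integral_of_le hab, integral_indicator hΩ, Measure.restrict_restrict hΩ]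
  simp only [integral_const, smul_eq_mul, mul_one, Measure.real, Measure.restrict_apply
      MeasurableSet.univ, univ_inter]
  apply ENNReal.toReal_mono
  · exact ne_of_lt (lt_of_le_of_lt (measure_mono inter_subset_right) (by simp))
  · exact measure_mono (inter_subset_inter_right _ Ioc_subset_Icc_self)

theorem ii_ind {a b : ℝ} {Ω : Set ℝ} (hΩ : MeasurableSet Ω) :
    IntervalIntegrable (fun x => Ω.indicator (fun _ => (1 : ℝ)) x) volume a b := by
  rw [intervalIntegrable_iff]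
  exact (integrableOn_const (by simp)).indicator hΩ

/-- on the good scales `Y' ≤ 4 η + 2 κ` -/
theorem Dat.Y_good (h : Dat κ a b U I R e ρ) {η : ℝ} {Ω : Set ℝ} (hΩ : MeasurableSet Ω)
    (h0 : 0 ≤ η)
    (hg : ∀ᵐ t, t ∈ Icc a b → t ∉ Ω → 2 * (1 - η) * U t ≤ e t) :
    I b / U b - I a / U a ≤ (volume (Ω ∩ Icc a b)).toReal + (4 * η + 2 * κ) * (b - a) := by
  have h1 := h.acY.integral_deriv_eq_sub
  rw [div_eq_mul_inv, div_eq_mul_inv, ← h1]
  have hk := h.k0
  have hi : IntervalIntegrable (fun x => Ω.indicator (fun _ => (1 : ℝ)) x + (4 * η + 2 * κ))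
      volume a b := (ii_ind hΩ).add (by simp)
  have h2 : ∫ x in a..b, deriv (fun x => I x * (U x)⁻¹) x
      ≤ ∫ x in a..b, (Ω.indicator (fun _ => (1 : ℝ)) x + (4 * η + 2 * κ)) := by
    apply intervalIntegral.integral_mono_ae_restrict h.hab h.intY hi
    rw [EventuallyLE, ae_restrict_iff' measurableSet_Icc]
    filter_upwards [h.derY, ae_ne_two a b, hg] with x hx hn hgx hxx
    have h3 := hx ⟨lt_of_le_of_ne hxx.1 hn.1.symm, lt_of_le_of_ne hxx.2 hn.2⟩
    by_cases hxΩ : x ∈ Ω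
    · simp only [indicator_of_mem hxΩ]
      nlinarith [sq_nonneg (e x / U x - 1)]
    · simp only [indicator_of_notMem hxΩ]
      have h4 := hgx hxx hxΩ
      have hp := h.pos hxx
      have h5 : 2 * (1 - η) ≤ e x / U x := by
        rw [le_div_iff₀ hp]; exact h4
      set A := e x / U x
      -- 2 A - A^2 = A (2 - A) ≤ 4 η
      by_cases hA : 2 ≤ A
      · nlinarith
      · push Not at hA
        by_cases hA0 : 0 ≤ A
        · nlinarith
        · push Not at hA0
          nlinarith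
  rw [intervalIntegral.integral_add (ii_ind hΩ) (by simp), intervalIntegral.integral_const,
    smul_eq_mul] at h2
  have h6 := integral_ind h.hab hΩ
  linarith

/-- growth of `log U` : at least `3 / S` at every good scale if `Y ≤ S` -/
theorem Dat.log_ge (h : Dat κ a b U I R e ρ) {η S : ℝ} {Ω : Set ℝ} (hΩ : MeasurableSet Ω)
    (h8 : 4 * (1 - η) ^ 2 - κ ≥ 3) (h1η : η ≤ 1) (hS : 0 < S)
    (hY : ∀ x ∈ Icc a b, I x / U x ≤ S)
    (hg : ∀ᵐ t, t ∈ Icc a b → t ∉ Ω → 2 * (1 - η) * U t ≤ e t) :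
    3 / S * ((b - a) - (volume (Ω ∩ Icc a b)).toReal) ≤ Real.log (U b) - Real.log (U a) := by
  have h1 := h.acLog.integral_deriv_eq_sub
  rw [← h1]
  have hi : IntervalIntegrable (fun x => 3 / S * (1 - Ω.indicator (fun _ => (1 : ℝ)) x))
      volume a b := by
    apply IntervalIntegrable.const_mul
    exact IntervalIntegrable.sub (by simp) (ii_ind hΩ)
  have h2 : ∫ x in a..b, 3 / S * (1 - Ω.indicator (fun _ => (1 : ℝ)) x)
      ≤ ∫ x in a..b, deriv (fun x => Real.log (U x)) x := by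
    apply intervalIntegral.integral_mono_ae_restrict h.hab hi h.acLog.intervalIntegrable_deriv
    rw [EventuallyLE, ae_restrict_iff' measurableSet_Icc]
    filter_upwards [h.derU, ae_ne_two a b, hg, h.Rnn, h.cs] with x hx hn hgx hR hcs hxx
    have h3 := hx ⟨lt_of_le_of_ne hxx.1 hn.1.symm, lt_of_le_of_ne hxx.2 hn.2⟩
    have hp := h.pos hxx
    have h4 : HasDerivAt (fun x => Real.log (U x)) (R x / U x) x := h3.log hp.ne'
    rw [h4.deriv]
    by_cases hxΩ : x ∈ Ω
    · simp only [indicator_of_mem hxΩ, sub_self, mul_zero]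
      exact div_nonneg (hR hxx) hp.le
    · simp only [indicator_of_notMem hxΩ, sub_zero, mul_one]
      have h5 := hgx hxx hxΩ
      have h6 := hcs hxx
      have hI0 := h.Inn x hxx
      have h7 : 3 * U x ^ 2 ≤ R x * I x := by
        have h9 : (2 * (1 - η) * U x) ^ 2 ≤ e x ^ 2 := by
          apply pow_le_pow_left₀ _ h5
          have : 0 ≤ 1 - η := by linarith
          positivity
        nlinarith [sq_nonneg (U x)]
      have h8' : I x ≤ S * U x := by
        have := hY x hxx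
        rwa [div_le_iff₀ hp] at this
      rw [div_le_div_iff₀ hS hp]
      -- 3 U ≤ R S
      have h10 : R x * I x ≤ R x * (S * U x) := mul_le_mul_of_nonneg_left h8' (hR hxx)
      have h11 : 3 * U x * U x ≤ R x * S * U x := by nlinarith
      exact le_of_mul_le_mul_right h11 hp
  refine le_trans ?_ h2
  rw [intervalIntegral.integral_const_mul, intervalIntegral.integral_sub (by simp) (ii_ind hΩ),
    intervalIntegral.integral_const, smul_eq_mul, mul_one]
  have h6 := integral_ind h.hab hΩ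
  apply mul_le_mul_of_nonneg_left _ (by positivity)
  linarith

/-! ### dyadic blocks -/

/-- the recursion in one block `[T, 2 T]` -/
theorem Dat.block (h : Dat κ a b U I R e ρ) {η T : ℝ} {Ω : Set ℝ} (hΩ : MeasurableSet Ω)
    (h0 : 0 ≤ η) (hT : 0 < T) (haT : a ≤ T) (hTb : 2 * T ≤ b)
    (hg : ∀ᵐ t, t ∈ Icc a b → t ∉ Ω → 2 * (1 - η) * U t ≤ e t) :
    (∀ x ∈ Icc T (2 * T), I x / U x ≤
      T * (I T / U T / T + (volume (Ω ∩ Icc T (2 * T))).toReal / T + (4 * η + 2 * κ))) ∧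
    I (2 * T) / U (2 * T) / (2 * T) ≤
      (I T / U T / T + (volume (Ω ∩ Icc T (2 * T))).toReal / T + (4 * η + 2 * κ)) / 2 := by
  have hk := h.k0
  have key : ∀ x ∈ Icc T (2 * T), I x / U x ≤
      T * (I T / U T / T + (volume (Ω ∩ Icc T (2 * T))).toReal / T + (4 * η + 2 * κ)) := by
    intro x hx
    have h1 := (h.sub haT hx.1 (hx.2.trans hTb)).Y_good hΩ h0 (by
      filter_upwards [hg] with t ht htt using ht ⟨haT.trans htt.1, htt.2.trans (hx.2.trans hTb)⟩)
    have h2 : (volume (Ω ∩ Icc T x)).toReal ≤ (volume (Ω ∩ Icc T (2 * T))).toReal := by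
      apply ENNReal.toReal_mono
      · exact ne_of_lt (lt_of_le_of_lt (measure_mono inter_subset_right) (by simp))
      · exact measure_mono (inter_subset_inter_right _ (Icc_subset_Icc_right hx.2))
    have h3 : (4 * η + 2 * κ) * (x - T) ≤ (4 * η + 2 * κ) * T :=
      mul_le_mul_of_nonneg_left (by linarith [hx.2]) (by positivity)
    have h4 : T * (I T / U T / T + (volume (Ω ∩ Icc T (2 * T))).toReal / T + (4 * η + 2 * κ))
        = I T / U T + (volume (Ω ∩ Icc T (2 * T))).toReal + (4 * η + 2 * κ) * T := by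
      field_simp
    rw [h4]
    linarith
  refine ⟨key, ?_⟩
  have h5 := key (2 * T) ⟨by linarith, le_refl _⟩
  rw [div_le_iff₀ (by positivity)]
  calc _ ≤ _ := h5
    _ = _ := by ring

theorem Dat.block_growth (h : Dat κ a b U I R e ρ) {η T : ℝ} {Ω : Set ℝ} (hΩ : MeasurableSet Ω)
    (h0 : 0 < η) (h16 : η ≤ 1 / 16) (hκ : κ ≤ η) (hT : 0 < T) (haT : a ≤ T) (hTb : 2 * T ≤ b)
    (hg : ∀ᵐ t, t ∈ Icc a b → t ∉ Ω → 2 * (1 - η) * U t ≤ e t) :
    3 / (I T / U T / T + (volume (Ω ∩ Icc T (2 * T))).toReal / T + (4 * η + 2 * κ)) *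
      (1 - (volume (Ω ∩ Icc T (2 * T))).toReal / T) ≤ Real.log (U (2 * T)) - Real.log (U T) := by
  have hk := h.k0
  have hTm : T ∈ Icc a b := ⟨haT, by linarith⟩
  have hI0 : 0 ≤ I T / U T := div_nonneg (h.Inn T hTm) (h.pos hTm).le
  have hz : 0 < I T / U T / T + (volume (Ω ∩ Icc T (2 * T))).toReal / T + (4 * η + 2 * κ) := by
    have : 0 ≤ (volume (Ω ∩ Icc T (2 * T))).toReal := ENNReal.toReal_nonneg
    positivity
  have h1 := (h.sub haT (by linarith : T ≤ 2 * T) hTb).log_ge (S := T * (I T / U T / T +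
    (volume (Ω ∩ Icc T (2 * T))).toReal / T + (4 * η + 2 * κ))) hΩ (by nlinarith)
    (by linarith) (by positivity) (h.block hΩ h0.le hT haT hTb hg).1 (by
      filter_upwards [hg] with t ht htt using ht ⟨haT.trans htt.1, htt.2.trans hTb⟩)
  refine le_trans (le_of_eq ?_) h1
  field_simp
  ring

/-- **growth over `K` dyadic blocks** : `e ≥ 2 (1 - η) U` off `Ω`, the mean density of `Ω` in the
blocks is `≤ η`, `Y(2^k0) ≤ A 2^k0`, `A ≤ η K` ⟹ `log U` grows by `≥ 3 K / (32 η)`. -/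
theorem Dat.growth {k0 K : ℕ} (h : Dat κ (2 ^ k0) (2 ^ (k0 + K)) U I R e ρ) {η A : ℝ}
    {Ω : Set ℝ} (hΩ : MeasurableSet Ω) (h0 : 0 < η) (h16 : η ≤ 1 / 16) (hκ : κ ≤ η)
    (hg : ∀ᵐ t, t ∈ Icc ((2 : ℝ) ^ k0) (2 ^ (k0 + K)) → t ∉ Ω → 2 * (1 - η) * U t ≤ e t)
    (hsum : ∑ k ∈ Finset.range K,
      (volume (Ω ∩ Icc ((2 : ℝ) ^ (k0 + k)) (2 ^ (k0 + k + 1)))).toReal / 2 ^ (k0 + k) ≤ η * K)
    (hA : I (2 ^ k0) / U (2 ^ k0) ≤ A * 2 ^ k0) (hK : A ≤ η * K) :
    3 * K / (32 * η) ≤ Real.log (U (2 ^ (k0 + K))) - Real.log (U (2 ^ k0)) := by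
  have hk := h.k0
  rcases Nat.eq_zero_or_pos K with rfl | hKpos
  · simp
  have hKr : (0 : ℝ) < K := by exact_mod_cast hKpos
  set y : ℕ → ℝ := fun k => I (2 ^ (k0 + k)) / U (2 ^ (k0 + k)) / 2 ^ (k0 + k) with hy
  set θ : ℕ → ℝ := fun k =>
    (volume (Ω ∩ Icc ((2 : ℝ) ^ (k0 + k)) (2 ^ (k0 + k + 1)))).toReal / 2 ^ (k0 + k) with hθ
  set c : ℝ := 4 * η + 2 * κ with hc
  set L : ℕ → ℝ := fun k => Real.log (U (2 ^ (k0 + k))) with hL
  have hpow : ∀ k, (2 : ℝ) * 2 ^ (k0 + k) = 2 ^ (k0 + k + 1) := fun k => by ring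
  have hle : ∀ k, k ≤ K → (2 : ℝ) ^ (k0 + k) ∈ Icc ((2 : ℝ) ^ k0) (2 ^ (k0 + K)) := fun k hk' =>
    ⟨pow_le_pow_right₀ (by norm_num) (by lia), pow_le_pow_right₀ (by norm_num) (by lia)⟩
  have hy0 : ∀ k, k ≤ K → 0 ≤ y k := fun k hk' =>
    div_nonneg (div_nonneg (h.Inn _ (hle k hk')) (h.pos (hle k hk')).le) (by positivity)
  have hθ0 : ∀ k, 0 ≤ θ k := fun k => div_nonneg ENNReal.toReal_nonneg (by positivity)
  have hθ1 : ∀ k, θ k ≤ 1 := by
    intro k
    simp only [hθ]
    rw [div_le_one (by positivity)]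
    have h1 : volume (Ω ∩ Icc ((2 : ℝ) ^ (k0 + k)) (2 ^ (k0 + k + 1)))
        ≤ ENNReal.ofReal (2 ^ (k0 + k)) := by
      refine (measure_mono inter_subset_right).trans (le_of_eq ?_)
      rw [Real.volume_Icc]
      congr 1
      ring
    have h2 := ENNReal.toReal_mono (by simp) h1
    rwa [ENNReal.toReal_ofReal (by positivity)] at h2
  have hrec : ∀ k, k < K → y (k + 1) ≤ (y k + θ k + c) / 2 := by
    intro k hk'
    have h1 := (h.block (T := 2 ^ (k0 + k)) hΩ h0.le (by positivity) (hle k hk'.le).1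
      (by rw [hpow]; exact (hle (k + 1) hk').2) hg).2
    rw [hpow] at h1
    exact h1
  have hgr : ∀ k, k < K → 3 / (y k + θ k + c) * (1 - θ k) ≤ L (k + 1) - L k := by
    intro k hk'
    have h1 := h.block_growth (T := 2 ^ (k0 + k)) hΩ h0 h16 hκ (by positivity) (hle k hk'.le).1
      (by rw [hpow]; exact (hle (k + 1) hk').2) hg
    rw [hpow] at h1
    exact h1
  have hyA : y 0 ≤ A := by
    simp only [hy, add_zero]
    rw [div_le_iff₀ (by positivity)]
    exact hA
  -- sum of the `y k`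
  have hsy : ∑ k ∈ Finset.range K, y k ≤ 2 * A + ∑ k ∈ Finset.range K, (θ k + c) := by
    have h1 : ∀ n, n ≤ K → ∑ k ∈ Finset.range n, y k + 2 * y n
        ≤ 2 * y 0 + ∑ k ∈ Finset.range n, (θ k + c) := by
      intro n
      induction n with
      | zero => intro _; simp
      | succ n ih =>
        intro hn
        rw [Finset.sum_range_succ, Finset.sum_range_succ]
        have h2 := ih (by lia)
        have h3 := hrec n (by lia)
        linarith
    have h2 := h1 K le_rfl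
    have h3 := hy0 K le_rfl
    linarith
  have hsz : ∑ k ∈ Finset.range K, (y k + θ k + c) ≤ 16 * η * K := by
    have h1 : ∑ k ∈ Finset.range K, (y k + θ k + c)
        = ∑ k ∈ Finset.range K, y k + ∑ k ∈ Finset.range K, (θ k + c) := by
      rw [← Finset.sum_add_distrib]
      exact Finset.sum_congr rfl fun k _ => by ring
    have h2 : ∑ k ∈ Finset.range K, (θ k + c) = ∑ k ∈ Finset.range K, θ k + K * c := by
      rw [Finset.sum_add_distrib]; simp
    have h3 : ∑ k ∈ Finset.range K, θ k ≤ η * K := hsum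
    rw [h1]
    nlinarith
  set T : ℝ := 16 * η with hT
  have hTpos : 0 < T := by positivity
  have hpt : ∀ k, k < K → 3 * ((2 / T) * (1 - θ k) - (y k + θ k + c) / T ^ 2)
      ≤ L (k + 1) - L k := by
    intro k hk'
    refine le_trans ?_ (hgr k hk')
    set z := y k + θ k + c with hz
    have hzpos : 0 < z := by
      have := hy0 k hk'.le
      have := hθ0 k
      simp only [hz, hc]
      positivity
    have h1 : 2 / T - z / T ^ 2 ≤ 1 / z := by
      have e1 : 1 / z - (2 / T - z / T ^ 2) = (T - z) ^ 2 / (z * T ^ 2) := by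
        field_simp
        ring
      have : 0 ≤ (T - z) ^ 2 / (z * T ^ 2) := by positivity
      linarith
    have h2 : 0 ≤ 1 - θ k := by linarith [hθ1 k]
    have h3 : (2 / T) * (1 - θ k) - z / T ^ 2 ≤ (1 / z) * (1 - θ k) := by
      have h4 := mul_le_mul_of_nonneg_right h1 h2
      have h5 : z / T ^ 2 * (1 - θ k) ≤ z / T ^ 2 := by
        have : 0 ≤ z / T ^ 2 := by positivity
        nlinarith [hθ0 k]
      nlinarith
    calc _ ≤ 3 * ((1 / z) * (1 - θ k)) := by linarith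
      _ = _ := by ring
  have htel : ∑ k ∈ Finset.range K, (L (k + 1) - L k) = L K - L 0 := Finset.sum_range_sub L K
  have hfin : ∑ k ∈ Finset.range K, 3 * ((2 / T) * (1 - θ k) - (y k + θ k + c) / T ^ 2)
      ≤ L K - L 0 := by
    rw [← htel]
    exact Finset.sum_le_sum fun k hk' => hpt k (Finset.mem_range.1 hk')
  have hval : 3 * K / (32 * η)
      ≤ ∑ k ∈ Finset.range K, 3 * ((2 / T) * (1 - θ k) - (y k + θ k + c) / T ^ 2) := by
    have e1 : ∑ k ∈ Finset.range K, 3 * ((2 / T) * (1 - θ k) - (y k + θ k + c) / T ^ 2)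
        = 3 * ((2 / T) * (K - ∑ k ∈ Finset.range K, θ k)
          - (∑ k ∈ Finset.range K, (y k + θ k + c)) / T ^ 2) := by
      rw [← Finset.mul_sum, Finset.sum_sub_distrib, ← Finset.mul_sum, Finset.sum_sub_distrib,
        ← Finset.sum_div]
      simp
    rw [e1]
    have h3 : ∑ k ∈ Finset.range K, θ k ≤ η * K := hsum
    have h4 : (∑ k ∈ Finset.range K, (y k + θ k + c)) / T ^ 2 ≤ K / T := by
      rw [div_le_div_iff₀ (by positivity) hTpos]
      calc _ ≤ (16 * η * K) * T := mul_le_mul_of_nonneg_right hsz hTpos.le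
        _ = K * T ^ 2 := by simp only [hT]; ring
    have h5 : (2 / T) * (K - η * K) ≤ (2 / T) * (K - ∑ k ∈ Finset.range K, θ k) :=
      mul_le_mul_of_nonneg_left (by linarith) (by positivity)
    have h6 : (2 / T) * (K - η * K) = (K / T) * (2 - 2 * η) := by field_simp
    have h7 : 3 * K / (32 * η) = 3 * ((K / T) * (1 / 2)) := by
      simp only [hT]; field_simp; norm_num
    have h8 : (K / T) * (1 / 2) ≤ (K / T) * (1 - 2 * η) :=
      mul_le_mul_of_nonneg_left (by linarith) (by positivity)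
    rw [h7]
    nlinarith
  have : L 0 = Real.log (U (2 ^ k0)) := by simp [hL]
  rw [← this]
  exact hval.trans hfin

end Crest.Agent.R234.Ode_201
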