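import Crest.Agent.R234.Ode1_201

/-!
# R234 / Ode2_201 : real-variable half of (6) and the contradiction of the run (#5124 (2), (6))
-/

namespace Crest.Agent.R234.Ode_201

open MeasureTheory Set Filter
open scoped Topology

variable {κ a b : ℝ} {U I R e ρ : ℝ → ℝ}

/-- `U` extended from `[a, b]` by constants -/
noncomputable def ext (a b : ℝ) (U : ℝ → ℝ) : ℝ → ℝ := fun t => U (max a (min b t))

theorem ext_eq {t : ℝ} (ht : t ∈ Icc a b) : ext a b U t = U t := by
  unfold ext
  rw [min_eq_right ht.2, max_eq_right ht.1]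

theorem Dat.ext_meas (h : Dat κ a b U I R e ρ) : Measurable (ext a b U) := by
  have h1 : ContinuousOn U (Icc a b) := by
    have := h.acU.continuousOn
    rwa [uIcc_of_le h.hab] at this
  have h2 : Continuous (ext a b U) := by
    unfold ext
    rw [← continuousOn_univ]
    refine h1.comp (by fun_prop) ?_
    intro t _
    exact ⟨le_max_left _ _, max_le h.hab (min_le_left _ _)⟩
  exact h2.measurable

theorem integral_ind_ge {a b : ℝ} (hab : a ≤ b) {Ω : Set ℝ} (hΩ : MeasurableSet Ω) :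
    (volume (Ω ∩ Icc a b)).toReal ≤ ∫ x in a..b, Ω.indicator (fun _ => (1 : ℝ)) x := by
  rw [intervalIntegral.integral_of_le hab, ← integral_Icc_eq_integral_Ioc,
    integral_indicator hΩ, Measure.restrict_restrict hΩ]
  simp [Measure.real]

/-- **(6), one block** : `E ≤ C0 t R` off `Ω0` and `U (2 T) ≤ K1 U T` ⟹ `{E > K2 U} \ Ω0` has
measure `≤ (2 C0 K1 / K2) T` in `[T, 2 T]`. -/
theorem Dat.ratio (h : Dat κ a b U I R e ρ) {T C0 K1 K2 : ℝ} {E : ℝ → ℝ} {Ω0 : Set ℝ}
    (hE : Measurable E) (hΩ : MeasurableSet Ω0) (hT : 0 < T) (haT : a ≤ T) (hTb : 2 * T ≤ b)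
    (hC0 : 0 < C0) (hK2 : 0 < K2)
    (hg : ∀ᵐ t, t ∈ Icc a b → t ∉ Ω0 → E t ≤ C0 * t * R t)
    (hK1 : U (2 * T) ≤ K1 * U T) :
    (volume (({t | K2 * ext a b U t < E t} \ Ω0) ∩ Icc T (2 * T))).toReal
      ≤ 2 * C0 * K1 / K2 * T := by
  set S : Set ℝ := ({t | K2 * ext a b U t < E t} \ Ω0) ∩ Icc T (2 * T) with hS
  have hSm : MeasurableSet S := by
    refine ((measurableSet_lt ?_ hE).diff hΩ).inter measurableSet_Icc
    exact h.ext_meas.const_mul K2
  have hTT : T ≤ 2 * T := by linarith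
  have hTm : T ∈ Icc a b := ⟨haT, by linarith⟩
  have h2Tm : 2 * T ∈ Icc a b := ⟨by linarith, hTb⟩
  have hUT := h.pos hTm
  have hsub := h.sub haT hTT hTb
  have h1 : U (2 * T) = U T + ∫ t in T..(2 * T), R t := hsub.hU _ ⟨hTT, le_rfl⟩
  set c : ℝ := K2 * U T / (2 * C0 * T) with hc
  have hcp : 0 < c := by positivity
  -- lower bound of the integral
  have h2 : c * (volume S).toReal ≤ ∫ t in T..(2 * T), R t := by
    have h3 : IntervalIntegrable (fun t => c * S.indicator (fun _ => (1 : ℝ)) t) volume T (2 * T) :=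
      (ii_ind hSm).const_mul c
    have h4 : ∫ t in T..(2 * T), c * S.indicator (fun _ => (1 : ℝ)) t ≤ ∫ t in T..(2 * T), R t := by
      apply intervalIntegral.integral_mono_ae_restrict hTT h3 hsub.hR
      rw [EventuallyLE, ae_restrict_iff' measurableSet_Icc]
      filter_upwards [hg, h.Rnn] with t ht hR htt
      have htm : t ∈ Icc a b := ⟨haT.trans htt.1, htt.2.trans hTb⟩
      by_cases hts : t ∈ S
      · simp only [indicator_of_mem hts, mul_one]
        have h5 := ht htm hts.1.2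
        have h6 : K2 * ext a b U t < E t := hts.1.1
        rw [ext_eq htm] at h6
        have h7 : U T ≤ U t := h.mono hTm htm htt.1
        have h8 : K2 * U T ≤ C0 * t * R t := by
          have := mul_le_mul_of_nonneg_left h7 hK2.le
          linarith
        have h9 : C0 * t * R t ≤ 2 * C0 * T * R t := by
          apply mul_le_mul_of_nonneg_right _ (hR htm)
          nlinarith [htt.2]
        rw [hc, div_le_iff₀ (by positivity)]
        linarith
      · simp only [indicator_of_notMem hts, mul_zero]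
        exact hR htm
    rw [intervalIntegral.integral_const_mul] at h4
    have h6 := integral_ind_ge hTT hSm
    have h5 : S ∩ Icc T (2 * T) = S := by
      rw [hS, inter_assoc, inter_self]
    rw [h5] at h6
    exact (mul_le_mul_of_nonneg_left h6 hcp.le).trans h4
  have h3 : c * (volume S).toReal ≤ K1 * U T := by linarith
  have h4 : (volume S).toReal ≤ K1 * U T / c := by
    rw [le_div_iff₀ hcp]
    linarith
  refine h4.trans (le_of_eq ?_)
  rw [hc]
  field_simp

/-- **THE RUN** (#5124 (2) + real-variable half of (6)). -/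
theorem Dat.run {k0 K : ℕ} (h : Dat κ (2 ^ k0) (2 ^ (k0 + K)) U I R e ρ) {η A H C0 K2 : ℝ}
    {E : ℝ → ℝ} {Ω0 : Set ℝ} (hE : Measurable E) (hΩ : MeasurableSet Ω0)
    (h0 : 0 < η) (h16 : η ≤ 1 / 16) (hκ : κ ≤ η) (hK : 0 < K)
    (hA : I (2 ^ k0) / U (2 ^ k0) ≤ A * 2 ^ k0) (hAK : A ≤ η * K)
    (hH0 : 0 < H) (hH : Real.log (U (2 ^ (k0 + K))) - Real.log (U (2 ^ k0)) ≤ H)
    (hsum : ∑ k ∈ Finset.range K,
      (volume (Ω0 ∩ Icc ((2 : ℝ) ^ (k0 + k)) (2 ^ (k0 + k + 1)))).toReal / 2 ^ (k0 + k)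
        ≤ η / 2 * K)
    (hC0 : 0 < C0) (hK2 : 8 * C0 * Real.exp (4 * H / (η * K)) / η ≤ K2)
    (hg6 : ∀ᵐ t, t ∈ Icc ((2 : ℝ) ^ k0) (2 ^ (k0 + K)) → t ∉ Ω0 → E t ≤ C0 * t * R t)
    (hg2 : ∀ᵐ t, t ∈ Icc ((2 : ℝ) ^ k0) (2 ^ (k0 + K)) → t ∉ Ω0 → E t ≤ K2 * U t →
      2 * (1 - η) * U t ≤ e t) :
    3 * K / (32 * η) ≤ H := by
  have hKr : (0 : ℝ) < K := by exact_mod_cast hK
  set aa : ℝ := 2 ^ k0 with haa
  set bb : ℝ := 2 ^ (k0 + K) with hbb
  set K1 : ℝ := Real.exp (4 * H / (η * K)) with hK1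
  have hK1p : 0 < K1 := Real.exp_pos _
  have hK2p : 0 < K2 := lt_of_lt_of_le (by positivity) hK2
  set B : Set ℝ := {t | K2 * ext aa bb U t < E t} with hB
  have hBm : MeasurableSet B := measurableSet_lt (h.ext_meas.const_mul K2) hE
  set Ω : Set ℝ := Ω0 ∪ B with hΩd
  have hΩm : MeasurableSet Ω := hΩ.union hBm
  refine le_trans (h.growth hΩm h0 h16 hκ ?_ ?_ hA hAK) hH
  · filter_upwards [hg2] with t ht htm htΩ
    have h1 : t ∉ Ω0 := fun h' => htΩ (Or.inl h')
    have h2 : ¬ (K2 * ext aa bb U t < E t) := fun h' => htΩ (Or.inr h')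
    rw [ext_eq htm] at h2
    exact ht htm h1 (not_lt.mp h2)
  · set L : ℕ → ℝ := fun k => Real.log (U (2 ^ (k0 + k))) with hL
    have hpow : ∀ k, (2 : ℝ) * 2 ^ (k0 + k) = 2 ^ (k0 + k + 1) := fun k => by ring
    have hle : ∀ k, k ≤ K → (2 : ℝ) ^ (k0 + k) ∈ Icc aa bb := fun k hk' =>
      ⟨pow_le_pow_right₀ (by norm_num) (by lia), pow_le_pow_right₀ (by norm_num) (by lia)⟩
    have hblk : ∀ k, k < K →
        (volume (Ω ∩ Icc ((2 : ℝ) ^ (k0 + k)) (2 ^ (k0 + k + 1)))).toReal / 2 ^ (k0 + k)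
          ≤ (volume (Ω0 ∩ Icc ((2 : ℝ) ^ (k0 + k)) (2 ^ (k0 + k + 1)))).toReal / 2 ^ (k0 + k)
            + η / 4 + η * K / (4 * H) * (L (k + 1) - L k) := by
      intro k hk
      have hP : (0 : ℝ) < 2 ^ (k0 + k) := by positivity
      have hmk := hle k hk.le
      have hmk1 := hle (k + 1) hk
      have hUk := h.pos hmk
      have hUk1 := h.pos hmk1
      have hmono : L k ≤ L (k + 1) := by
        apply Real.log_le_log hUk
        apply h.mono hmk hmk1
        exact pow_le_pow_right₀ (by norm_num) (by lia)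
      -- subadditivity
      have hs1 : (volume (Ω ∩ Icc ((2 : ℝ) ^ (k0 + k)) (2 ^ (k0 + k + 1)))).toReal
          ≤ (volume (Ω0 ∩ Icc ((2 : ℝ) ^ (k0 + k)) (2 ^ (k0 + k + 1)))).toReal
            + (volume ((B \ Ω0) ∩ Icc ((2 : ℝ) ^ (k0 + k)) (2 ^ (k0 + k + 1)))).toReal := by
        have hf1 : volume (Ω0 ∩ Icc ((2 : ℝ) ^ (k0 + k)) (2 ^ (k0 + k + 1))) ≠ ⊤ :=
          ne_of_lt (lt_of_le_of_lt (measure_mono inter_subset_right) (by simp))
        have hf2 : volume ((B \ Ω0) ∩ Icc ((2 : ℝ) ^ (k0 + k)) (2 ^ (k0 + k + 1))) ≠ ⊤ :=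
          ne_of_lt (lt_of_le_of_lt (measure_mono inter_subset_right) (by simp))
        rw [← ENNReal.toReal_add hf1 hf2]
        apply ENNReal.toReal_mono (ENNReal.add_ne_top.mpr ⟨hf1, hf2⟩)
        refine le_trans (measure_mono ?_) (measure_union_le _ _)
        rintro t ⟨ht1, ht2⟩
        by_cases h' : t ∈ Ω0
        · exact Or.inl ⟨h', ht2⟩
        · exact Or.inr ⟨⟨ht1.resolve_left h', h'⟩, ht2⟩
      -- the measure of the bad part
      have hs2 : (volume ((B \ Ω0) ∩ Icc ((2 : ℝ) ^ (k0 + k)) (2 ^ (k0 + k + 1)))).toReal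
          / 2 ^ (k0 + k) ≤ η / 4 + η * K / (4 * H) * (L (k + 1) - L k) := by
        by_cases hbad : U (2 ^ (k0 + k + 1)) ≤ K1 * U (2 ^ (k0 + k))
        · have h1 := h.ratio (T := 2 ^ (k0 + k)) (K1 := K1) hE hΩ hP hmk.1
            (by rw [hpow]; exact hmk1.2) hC0 hK2p hg6 (by rw [hpow]; exact hbad)
          rw [hpow] at h1
          have h2 : 2 * C0 * K1 / K2 ≤ η / 4 := by
            rw [div_le_iff₀ hK2p]
            rw [div_le_iff₀ h0] at hK2
            linarith
          have h3 : 0 ≤ η * K / (4 * H) * (L (k + 1) - L k) :=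
            mul_nonneg (by positivity) (by linarith)
          rw [div_le_iff₀ hP]
          calc _ ≤ 2 * C0 * K1 / K2 * 2 ^ (k0 + k) := h1
            _ ≤ η / 4 * 2 ^ (k0 + k) := mul_le_mul_of_nonneg_right h2 hP.le
            _ ≤ _ := by
              apply mul_le_mul_of_nonneg_right _ hP.le
              linarith
        · push Not at hbad
          have h1 : 4 * H / (η * K) < L (k + 1) - L k := by
            have h2 := Real.log_lt_log (by positivity) hbad
            rw [Real.log_mul hK1p.ne' hUk.ne', hK1, Real.log_exp] at h2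
            have h3 : L (k + 1) = Real.log (U (2 ^ (k0 + k + 1))) := rfl
            have h4 : L k = Real.log (U (2 ^ (k0 + k))) := rfl
            rw [h3, h4]
            linarith
          have h5 : 1 ≤ η * K / (4 * H) * (L (k + 1) - L k) := by
            have h6 : η * K / (4 * H) * (4 * H / (η * K)) = 1 := by field_simp
            have h7 := mul_lt_mul_of_pos_left h1 (show 0 < η * K / (4 * H) by positivity)
            linarith
          have h8 : (volume ((B \ Ω0) ∩ Icc ((2 : ℝ) ^ (k0 + k)) (2 ^ (k0 + k + 1)))).toReal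
              ≤ 2 ^ (k0 + k) := by
            have h9 : volume ((B \ Ω0) ∩ Icc ((2 : ℝ) ^ (k0 + k)) (2 ^ (k0 + k + 1)))
                ≤ ENNReal.ofReal (2 ^ (k0 + k)) := by
              refine (measure_mono inter_subset_right).trans (le_of_eq ?_)
              rw [Real.volume_Icc]
              congr 1
              ring
            have h10 := ENNReal.toReal_mono (by simp) h9
            rwa [ENNReal.toReal_ofReal (by positivity)] at h10
          rw [div_le_iff₀ hP]
          nlinarith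
      calc _ ≤ ((volume (Ω0 ∩ Icc ((2 : ℝ) ^ (k0 + k)) (2 ^ (k0 + k + 1)))).toReal
            + (volume ((B \ Ω0) ∩ Icc ((2 : ℝ) ^ (k0 + k)) (2 ^ (k0 + k + 1)))).toReal)
            / 2 ^ (k0 + k) := by
              apply div_le_div_of_nonneg_right hs1 hP.le
        _ ≤ _ := by
              rw [add_div]
              linarith
    have htel : ∑ k ∈ Finset.range K, (L (k + 1) - L k) = L K - L 0 := Finset.sum_range_sub L K
    have hLK : L K - L 0 ≤ H := by
      simp only [hL, add_zero]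
      exact hH
    calc _ ≤ ∑ k ∈ Finset.range K,
          ((volume (Ω0 ∩ Icc ((2 : ℝ) ^ (k0 + k)) (2 ^ (k0 + k + 1)))).toReal / 2 ^ (k0 + k)
            + η / 4 + η * K / (4 * H) * (L (k + 1) - L k)) :=
          Finset.sum_le_sum fun k hk => hblk k (Finset.mem_range.mp hk)
      _ = ∑ k ∈ Finset.range K,
          (volume (Ω0 ∩ Icc ((2 : ℝ) ^ (k0 + k)) (2 ^ (k0 + k + 1)))).toReal / 2 ^ (k0 + k)
            + K * (η / 4) + η * K / (4 * H) * (L K - L 0) := by
          rw [Finset.sum_add_distrib, Finset.sum_add_distrib, ← Finset.mul_sum, htel]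
          simp
      _ ≤ η / 2 * K + K * (η / 4) + η * K / (4 * H) * H := by
          have := mul_le_mul_of_nonneg_left hLK (show 0 ≤ η * K / (4 * H) by positivity)
          linarith
      _ = η * K := by
          field_simp
          ring

/-- **(ODE3)** pigeonhole over the mergings: increasing times `τ 0 ≤ … ≤ τ (N + 1)` with
`τ 0 ≤ 2 ^ p`, `2 ^ (p + M) ≤ τ (N + 1)`: some `[τ i, τ (i + 1)]` contains `K` consecutive dyadic
blocks as soon as `(K + 2) (N + 1) ≤ M`. -/
theorem exists_run {N p M K : ℕ} {τ : ℕ → ℝ} (h0 : τ 0 ≤ 2 ^ p) (h1 : (2 : ℝ) ^ (p + M) ≤ τ (N + 1))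
    (hK : (K + 2) * (N + 1) ≤ M) :
    ∃ i ≤ N, ∃ k, p ≤ k ∧ k + K ≤ p + M ∧ τ i ≤ 2 ^ k ∧ (2 : ℝ) ^ (k + K) ≤ τ (i + 1) := by
  by_contra hcon
  push Not at hcon
  -- by induction `τ i ≤ 2 ^ (p + (K + 2) i)`
  have key : ∀ i, i ≤ N + 1 → τ i ≤ 2 ^ (p + (K + 1) * i) := by
    intro i
    induction i with
    | zero => intro _; simpa using h0
    | succ i ih =>
      intro hi
      have h2 := ih (by lia)
      have hb : p + (K + 1) * i + K ≤ p + M := by nlinarith
      have h3 := hcon i (by lia) (p + (K + 1) * i) (by lia) hb h2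
      refine h3.le.trans ?_
      apply pow_le_pow_right₀ (by norm_num)
      nlinarith
  have h2 := key (N + 1) le_rfl
  have h3 : (2 : ℝ) ^ (p + M) ≤ 2 ^ (p + (K + 1) * (N + 1)) := h1.trans h2
  have h4 : p + M ≤ p + (K + 1) * (N + 1) := (pow_le_pow_iff_right₀ (by norm_num)).mp h3
  nlinarith

end Crest.Agent.R234.Ode_201
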