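import Crest.Agent.R234.In1_947

/-!
Row 234 (helper762), VF-PAIR-Q, file 2: pointwise estimates for the pair identity.
Block algebra of planes, the vertical truncation `th p h x = q x / √(1 + |q x|² / h²)`
(`q = 1 - p`), and the bound of the flux term.
-/

set_option autoImplicit false

open MeasureTheory Crest.GeometryTopology.Submanifold Filter Topology
open scoped ENNReal InnerProductSpace

noncomputable section

namespace Crest.Agent.R234.Pair2_762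

open Crest.Agent.R234.Vf_884 Crest.Agent.R234.In_947

variable {m k : ℕ}

/-- squared Hilbert–Schmidt norm. -/
def hs (B : L k) : ℝ := ∑ i, ‖B (stdVec k i)‖ ^ 2

theorem hs_nonneg (B : L k) : 0 ≤ hs B := by
  unfold hs; positivity

theorem continuous_hs : Continuous (hs : L k → ℝ) := by
  unfold hs
  refine continuous_finsetSum _ fun i _ => ?_
  exact ((continuous_id.clm_apply continuous_const).norm).pow 2

theorem hs_sub_ge (B B' : L k) : hs B / 2 - hs B' ≤ hs (B - B') := by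
  unfold hs
  rw [Finset.sum_div, ← Finset.sum_sub_distrib]
  refine Finset.sum_le_sum fun i _ => ?_
  have h1 : ‖B (stdVec k i)‖ ≤ ‖(B - B') (stdVec k i)‖ + ‖B' (stdVec k i)‖ := by
    have : B (stdVec k i) = (B - B') (stdVec k i) + B' (stdVec k i) := by simp
    calc ‖B (stdVec k i)‖ = ‖(B - B') (stdVec k i) + B' (stdVec k i)‖ := by rw [← this]
      _ ≤ _ := norm_add_le _ _
  nlinarith [norm_nonneg (B (stdVec k i)), norm_nonneg ((B - B') (stdVec k i)),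
    norm_nonneg (B' (stdVec k i)),
    sq_nonneg (‖(B - B') (stdVec k i)‖ - ‖B' (stdVec k i)‖)]

/-- `tr (A D r D) = ∑ ⟨D r eᵢ, A D r eᵢ⟩` for symmetric `D` and an orthogonal projection `r`. -/
theorem tr_quad {A D r : L k} (hD : ∀ x y, ⟪D x, y⟫_ℝ = ⟪x, D y⟫_ℝ)
    (hr : ∀ x y, ⟪r x, y⟫_ℝ = ⟪x, r y⟫_ℝ) (hrr : ∀ x, r (r x) = r x) :
    tr (A ∘L D ∘L r ∘L D)
      = ∑ i, ⟪D (r (stdVec k i)), A (D (r (stdVec k i)))⟫_ℝ := by
  have h1 : A ∘L D ∘L r ∘L D = (A ∘L D ∘L r) ∘L (r ∘L D) := by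
    ext1 x
    simp only [ContinuousLinearMap.comp_apply]
    rw [hrr]
  rw [h1, tr_comm, tr_eq_sum]
  refine Finset.sum_congr rfl fun i _ => ?_
  simp only [ContinuousLinearMap.comp_apply]
  rw [← hr, ← hD]

theorem tr_quad_ge {A D r p : L k} {c : ℝ} (hD : ∀ x y, ⟪D x, y⟫_ℝ = ⟪x, D y⟫_ℝ)
    (hr : ∀ x y, ⟪r x, y⟫_ℝ = ⟪x, r y⟫_ℝ) (hrr : ∀ x, r (r x) = r x)
    (hA : ∀ v, c * ‖v - p v‖ ^ 2 ≤ ⟪v, A v⟫_ℝ) :
    c * hs ((1 - p) ∘L D ∘L r) ≤ tr (A ∘L D ∘L r ∘L D) := by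
  rw [tr_quad hD hr hrr, hs, Finset.mul_sum]
  refine Finset.sum_le_sum fun i _ => ?_
  have := hA (D (r (stdVec k i)))
  simpa using this

theorem symm_one_sub {p : L k} {j : ℕ} (hp : p ∈ G j k) (x y : Euc k) :
    ⟪(1 - p) x, y⟫_ℝ = ⟪x, (1 - p) y⟫_ℝ := by
  simp only [sub_apply, one_apply_eq_self, inner_sub_left, inner_sub_right]
  rw [G_symm hp]

theorem idem_one_sub {p : L k} {j : ℕ} (hp : p ∈ G j k) (x : Euc k) :
    (1 - p) ((1 - p) x) = (1 - p) x := by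
  simp only [sub_apply, one_apply_eq_self, map_sub, G_idem_apply hp]
  abel

/-- `|q (S - S') p|²`. -/
def mx (p S S' : L k) : ℝ := hs ((1 - p) ∘L (S - S') ∘L p)

/-- `|q S q|²`. -/
def vv (p S : L k) : ℝ := hs ((1 - p) ∘L S ∘L (1 - p))

theorem mx_nonneg (p S S' : L k) : 0 ≤ mx p S S' := hs_nonneg _

theorem vv_nonneg (p S : L k) : 0 ≤ vv p S := hs_nonneg _

theorem continuous_vv (p : L k) : Continuous (vv p : L k → ℝ) :=
  continuous_hs.comp (continuous_const.clm_comp (continuous_id.clm_comp continuous_const))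

theorem continuous_mx (p : L k) : Continuous (fun q : L k × L k => mx p q.1 q.2) :=
  continuous_hs.comp (continuous_const.clm_comp
    ((continuous_fst.sub continuous_snd).clm_comp continuous_const))

/-- the left side of the pair identity is at least
`c (|q (S - S') p|² + |q S q|² + |q S' q|²)`. -/
theorem quad_ge {p A S S' : L k} {j : ℕ} {c : ℝ} (hp : p ∈ G j k) (hS : S ∈ G m k)
    (hS' : S' ∈ G m k) (hA : ∀ v, c * ‖v - p v‖ ^ 2 ≤ ⟪v, A v⟫_ℝ) :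
    c * (mx p S S' + vv p S + vv p S') ≤
      tr (A ∘L (S - S') ∘L p ∘L (S - S')) + tr (A ∘L S ∘L (1 - p) ∘L S)
        + tr (A ∘L S' ∘L (1 - p) ∘L S') := by
  have h1 := tr_quad_ge (p := p) (A := A) (c := c) (D := S - S') (r := p)
    (fun x y => by
      simp only [sub_apply, inner_sub_left, inner_sub_right]
      rw [G_symm hS, G_symm hS']) (G_symm hp) (G_idem_apply hp) hA
  have h2 := tr_quad_ge (p := p) (A := A) (c := c) (D := S) (r := 1 - p)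
    (G_symm hS) (symm_one_sub hp) (idem_one_sub hp) hA
  have h3 := tr_quad_ge (p := p) (A := A) (c := c) (D := S') (r := 1 - p)
    (G_symm hS') (symm_one_sub hp) (idem_one_sub hp) hA
  have e : c * (mx p S S' + vv p S + vv p S') = c * hs ((1 - p) ∘L (S - S') ∘L p)
      + c * hs ((1 - p) ∘L S ∘L (1 - p)) + c * hs ((1 - p) ∘L S' ∘L (1 - p)) := by
    unfold mx vv; ring
  rw [e]
  linarith

theorem hs_qSr {p S r : L k} {j : ℕ} (hp : p ∈ G j k) (hS : S ∈ G m k)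
    (hr : ∀ x y, ⟪r x, y⟫_ℝ = ⟪x, r y⟫_ℝ) (hrr : ∀ x, r (r x) = r x) :
    hs ((1 - p) ∘L S ∘L r) = tr (r ∘L S ∘L (1 - p) ∘L S) := by
  have h1 : tr (r ∘L S ∘L (1 - p) ∘L S) = tr ((1 - p) ∘L S ∘L r ∘L S) := by
    have e1 : r ∘L S ∘L (1 - p) ∘L S = (r ∘L S) ∘L ((1 - p) ∘L S) := rfl
    have e2 : (1 - p) ∘L S ∘L r ∘L S = ((1 - p) ∘L S) ∘L (r ∘L S) := rfl
    rw [e1, e2, tr_comm]
  rw [h1, tr_quad (G_symm hS) hr hrr, hs]
  refine Finset.sum_congr rfl fun i _ => ?_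
  rw [← idem_one_sub hp, ← symm_one_sub hp, real_inner_self_eq_norm_sq]
  rfl

/-- `|q S p|² + |q S q|² = tilt`. -/
theorem hs_add {p S : L k} {j : ℕ} (hp : p ∈ G j k) (hS : S ∈ G m k) :
    hs ((1 - p) ∘L S ∘L p) + vv p S = tilt p S := by
  rw [vv, hs_qSr hp hS (G_symm hp) (G_idem_apply hp),
    hs_qSr hp hS (symm_one_sub hp) (idem_one_sub hp), ← map_add]
  have h1 : p ∘L S ∘L (1 - p) ∘L S + (1 - p) ∘L S ∘L (1 - p) ∘L S
      = S ∘L ((1 - p) ∘L S) := by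
    ext1 x
    simp only [ContinuousLinearMap.comp_apply, add_apply, sub_apply, one_apply_eq_self]
    abel
  rw [h1, tr_comm, ContinuousLinearMap.comp_assoc, G_idem hS]
  exact tr_id_sub_comp p S

theorem vv_le_tilt {p S : L k} {j : ℕ} (hp : p ∈ G j k) (hS : S ∈ G m k) :
    vv p S ≤ tilt p S := by
  have := hs_add hp hS
  have := hs_nonneg ((1 - p) ∘L S ∘L p)
  linarith

/-- the key lower bound: half the tilt of `S` minus the tilt of `S'`. -/
theorem mx_add_vv_ge {p S S' : L k} {j : ℕ} (hp : p ∈ G j k) (hS : S ∈ G m k)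
    (hS' : S' ∈ G m k) : tilt p S / 2 - tilt p S' ≤ mx p S S' + vv p S := by
  have h1 := hs_sub_ge ((1 - p) ∘L S ∘L p) ((1 - p) ∘L S' ∘L p)
  have h2 : (1 - p) ∘L S ∘L p - (1 - p) ∘L S' ∘L p = (1 - p) ∘L (S - S') ∘L p := by
    ext1 x
    simp only [ContinuousLinearMap.comp_apply, sub_apply, map_sub]
  rw [h2] at h1
  have h3 := hs_add hp hS
  have h4 := hs_add hp hS'
  have h5 := vv_nonneg p S
  have h6 := vv_nonneg p S'
  unfold mx
  linarith

/-- `|q S q|² ≥ tilt² / k`. -/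
theorem tilt_sq_le {p S : L k} {j : ℕ} (hp : p ∈ G j k) :
    tilt p S ^ 2 ≤ k * vv p S := by
  have h1 : tilt p S = ∑ i, ⟪stdVec k i, ((1 - p) ∘L S ∘L (1 - p)) (stdVec k i)⟫_ℝ := by
    rw [← tr_eq_sum]
    have e1 : (1 - p) ∘L S ∘L (1 - p) = ((1 - p) ∘L S) ∘L (1 - p) := rfl
    rw [e1, tr_comm, ← ContinuousLinearMap.comp_assoc]
    have e2 : (1 - p : L k) ∘L (1 - p) = 1 - p := by
      ext1 x; exact idem_one_sub hp x
    rw [e2]
    exact (tr_id_sub_comp p S).symm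
  rw [h1]
  have hn : ∀ i : Fin k, ‖stdVec k i‖ = 1 := fun i => by simp [stdVec]
  calc (∑ i, ⟪stdVec k i, ((1 - p) ∘L S ∘L (1 - p)) (stdVec k i)⟫_ℝ) ^ 2
      ≤ (Finset.univ : Finset (Fin k)).card *
        ∑ i, ⟪stdVec k i, ((1 - p) ∘L S ∘L (1 - p)) (stdVec k i)⟫_ℝ ^ 2 :=
        sq_sum_le_card_mul_sum_sq
    _ ≤ k * vv p S := by
        rw [Finset.card_univ, Fintype.card_fin]
        refine mul_le_mul_of_nonneg_left ?_ (Nat.cast_nonneg _)
        unfold vv hs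
        refine Finset.sum_le_sum fun i _ => ?_
        rw [← sq_abs]
        refine pow_le_pow_left₀ (abs_nonneg _) ?_ 2
        refine (abs_real_inner_le_norm _ _).trans ?_
        rw [hn i, one_mul]

/-! ### the vertical truncation -/

/-- `u = 1 + |q x|² / h²`. -/
def uu (p : L k) (h : ℝ) (x : Euc k) : ℝ := 1 + ‖x - p x‖ ^ 2 / h ^ 2

/-- the vertical truncation field `q x / √(1 + |q x|² / h²)`. -/
def th (p : L k) (h : ℝ) (x : Euc k) : Euc k := (√(uu p h x))⁻¹ • (x - p x)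

section

variable {p : L k} {h : ℝ}

theorem uu_pos (p : L k) (h : ℝ) (x : Euc k) : 0 < uu p h x := by
  unfold uu; positivity

theorem one_le_uu (p : L k) (h : ℝ) (x : Euc k) : 1 ≤ uu p h x := by
  unfold uu
  have : 0 ≤ ‖x - p x‖ ^ 2 / h ^ 2 := by positivity
  linarith

theorem contDiff_uu (p : L k) (h : ℝ) : ContDiff ℝ 1 (uu p h) := by
  unfold uu
  exact contDiff_const.add (((contDiff_id.sub p.contDiff).norm_sq ℝ).div_const _)

theorem contDiff_th (p : L k) (h : ℝ) : ContDiff ℝ 1 (th p h) := by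
  unfold th
  exact (((contDiff_uu p h).sqrt fun x => (uu_pos p h x).ne').inv
    fun x => (Real.sqrt_pos.2 (uu_pos p h x)).ne').smul (contDiff_id.sub p.contDiff)

theorem uu_neg (p : L k) (h : ℝ) (x : Euc k) : uu p h (-x) = uu p h x := by
  unfold uu
  rw [map_neg, ← neg_sub', norm_neg]

theorem th_neg (p : L k) (h : ℝ) (x : Euc k) : th p h (-x) = -th p h x := by
  unfold th
  rw [uu_neg, map_neg, ← smul_neg]
  congr 1
  abel

theorem p_th {j : ℕ} (hp : p ∈ G j k) (x : Euc k) : p (th p h x) = 0 := by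
  unfold th
  rw [map_smul, map_sub, G_idem_apply hp, sub_self, smul_zero]

theorem norm_th_le (p : L k) (h : ℝ) (x : Euc k) : ‖th p h x‖ ≤ ‖x - p x‖ := by
  unfold th
  rw [norm_smul, norm_inv, Real.norm_eq_abs, abs_of_pos (Real.sqrt_pos.2 (uu_pos p h x))]
  have h1 : 1 ≤ √(uu p h x) := by
    rw [Real.one_le_sqrt]; exact one_le_uu p h x
  have h2 : (√(uu p h x))⁻¹ ≤ 1 := inv_le_one_of_one_le₀ h1
  nlinarith [norm_nonneg (x - p x)]

theorem norm_th_le_h (p : L k) (hh : 0 < h) (x : Euc k) : ‖th p h x‖ ≤ h := by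
  unfold th
  rw [norm_smul, norm_inv, Real.norm_eq_abs, abs_of_pos (Real.sqrt_pos.2 (uu_pos p h x)),
    inv_mul_le_iff₀ (Real.sqrt_pos.2 (uu_pos p h x))]
  have h1 : ‖x - p x‖ / h ≤ √(uu p h x) := by
    refine Real.le_sqrt_of_sq_le ?_
    unfold uu
    rw [div_pow]
    linarith
  rw [div_le_iff₀ hh] at h1
  exact h1

theorem hasFDerivAt_uu (p : L k) (h : ℝ) (x : Euc k) :
    HasFDerivAt (uu p h) ((2 / h ^ 2) • (innerSL ℝ (x - p x)) ∘L (1 - p)) x := by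
  have h1 : HasFDerivAt (fun y : Euc k => y - p y) ((1 : L k) - p) x :=
    (hasFDerivAt_id x).sub p.hasFDerivAt
  have h2 := (h1.norm_sq.mul_const ((h ^ 2)⁻¹)).const_add 1
  have h3 : uu p h = fun y => 1 + ‖y - p y‖ ^ 2 * (h ^ 2)⁻¹ := by
    funext y; unfold uu; rw [div_eq_mul_inv]
  rw [h3]
  refine h2.congr_fderiv ?_
  ext1 v
  simp only [smul_apply, ContinuousLinearMap.comp_apply, smul_eq_mul, nsmul_eq_mul]
  ring

/-- the derivative of the truncation. -/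
def Dth (p : L k) (h : ℝ) (x : Euc k) : L k :=
  (√(uu p h x))⁻¹ • (1 - p)
    - ((h ^ 2 * (uu p h x * √(uu p h x)))⁻¹ • ((innerSL ℝ (x - p x)) ∘L (1 - p))).smulRight
      (x - p x)

theorem hasFDerivAt_th (p : L k) (h : ℝ) (x : Euc k) : HasFDerivAt (th p h) (Dth p h x) x := by
  have hu := uu_pos p h x
  have hs : 0 < √(uu p h x) := Real.sqrt_pos.2 hu
  have h1 : HasFDerivAt (fun y : Euc k => y - p y) ((1 : L k) - p) x :=
    (hasFDerivAt_id x).sub p.hasFDerivAt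
  have h2 := (hasFDerivAt_uu p h x).sqrt hu.ne'
  have h3 : HasFDerivAt (fun y => (√(uu p h y))⁻¹)
      (-(√(uu p h x) ^ 2)⁻¹ • ((1 / (2 * √(uu p h x))) • ((2 / h ^ 2) •
        (innerSL ℝ (x - p x)) ∘L (1 - p)))) x :=
    (hasDerivAt_inv hs.ne').comp_hasFDerivAt x h2
  have h4 := h3.smul h1
  refine h4.congr_fderiv ?_
  ext1 v
  have e : (2 * √(uu p h x))⁻¹ * (2 / h ^ 2) * (√(uu p h x) ^ 2)⁻¹
      = (h ^ 2 * (uu p h x * √(uu p h x)))⁻¹ := by
    rw [Real.sq_sqrt hu.le]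
    rw [mul_inv, mul_inv, mul_inv, div_eq_mul_inv]
    ring
  simp only [Dth, add_apply, sub_apply, smul_apply, ContinuousLinearMap.smulRight_apply,
    ContinuousLinearMap.comp_apply, one_apply_eq_self, smul_eq_mul]
  rw [← e, sub_eq_add_neg (_ • (v - p v)), ← neg_smul]
  congr 2
  ring

theorem fderiv_th (p : L k) (h : ℝ) (x : Euc k) : fderiv ℝ (th p h) x = Dth p h x :=
  (hasFDerivAt_th p h x).fderiv

theorem inner_Dth {j : ℕ} (hp : p ∈ G j k) (h : ℝ) (x v w : Euc k) :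
    ⟪v, Dth p h x w⟫_ℝ = (√(uu p h x))⁻¹ * ⟪v - p v, w - p w⟫_ℝ
      - (h ^ 2 * (uu p h x * √(uu p h x)))⁻¹ * (⟪x - p x, v - p v⟫_ℝ * ⟪x - p x, w - p w⟫_ℝ) := by
  have e : ∀ a b : Euc k, ⟪a, b - p b⟫_ℝ = ⟪a - p a, b - p b⟫_ℝ := by
    intro a b
    have h1 : ⟪p a, b - p b⟫_ℝ = 0 := by
      rw [G_symm hp, map_sub, G_idem_apply hp, sub_self, inner_zero_right]
    rw [inner_sub_left, h1, sub_zero]
  have e2 : Dth p h x w = (√(uu p h x))⁻¹ • (w - p w)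
      - ((h ^ 2 * (uu p h x * √(uu p h x)))⁻¹ * ⟪x - p x, w - p w⟫_ℝ) • (x - p x) := rfl
  rw [e2, inner_sub_right v, inner_smul_right, inner_smul_right, e v w,
    e v x, real_inner_comm (x - p x) (v - p v)]
  ring

theorem Dth_symm {j : ℕ} (hp : p ∈ G j k) (h : ℝ) (x v w : Euc k) :
    ⟪Dth p h x v, w⟫_ℝ = ⟪v, Dth p h x w⟫_ℝ := by
  rw [real_inner_comm, inner_Dth hp, inner_Dth hp, real_inner_comm (v - p v)]
  ring

/-- coercivity of the derivative of the truncation. -/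
theorem Dth_ge {j : ℕ} (hp : p ∈ G j k) (hh : 0 < h) (x v : Euc k) :
    (uu p h x * √(uu p h x))⁻¹ * ‖v - p v‖ ^ 2 ≤ ⟪v, Dth p h x v⟫_ℝ := by
  rw [inner_Dth hp, real_inner_self_eq_norm_sq]
  have hu := uu_pos p h x
  have hs : 0 < √(uu p h x) := Real.sqrt_pos.2 hu
  have h1 : ⟪x - p x, v - p v⟫_ℝ * ⟪x - p x, v - p v⟫_ℝ ≤ ‖x - p x‖ ^ 2 * ‖v - p v‖ ^ 2 := by
    have := abs_real_inner_le_norm (x - p x) (v - p v)
    have h2 := pow_le_pow_left₀ (abs_nonneg _) this 2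
    rw [sq_abs, mul_pow] at h2
    nlinarith
  have h3 : (√(uu p h x))⁻¹ * ‖v - p v‖ ^ 2
      = (uu p h x * √(uu p h x))⁻¹ * (‖v - p v‖ ^ 2 * uu p h x) := by
    field_simp
  have h4 : (h ^ 2 * (uu p h x * √(uu p h x)))⁻¹
      = (uu p h x * √(uu p h x))⁻¹ * (h ^ 2)⁻¹ := by
    rw [mul_inv, mul_comm]
  rw [h3, h4, mul_assoc, ← mul_sub]
  refine mul_le_mul_of_nonneg_left ?_ (by positivity)
  have h5 : (h ^ 2)⁻¹ * (⟪x - p x, v - p v⟫_ℝ * ⟪x - p x, v - p v⟫_ℝ)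
      ≤ (h ^ 2)⁻¹ * (‖x - p x‖ ^ 2 * ‖v - p v‖ ^ 2) :=
    mul_le_mul_of_nonneg_left h1 (by positivity)
  have h6 : ‖v - p v‖ ^ 2 * uu p h x
      = ‖v - p v‖ ^ 2 + (h ^ 2)⁻¹ * (‖x - p x‖ ^ 2 * ‖v - p v‖ ^ 2) := by
    unfold uu
    field_simp
  linarith

theorem Dth_nonneg {j : ℕ} (hp : p ∈ G j k) (hh : 0 < h) (x v : Euc k) :
    0 ≤ ⟪v, Dth p h x v⟫_ℝ := by
  refine le_trans ?_ (Dth_ge hp hh x v)
  have := uu_pos p h x
  positivity

theorem third_le {j : ℕ} (hp : p ∈ G j k) (hh : 0 < h) {x : Euc k} (hx : ‖x - p x‖ ≤ h)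
    (v : Euc k) : (1 / 3 : ℝ) * ‖v - p v‖ ^ 2 ≤ ⟪v, Dth p h x v⟫_ℝ := by
  refine le_trans ?_ (Dth_ge hp hh x v)
  refine mul_le_mul_of_nonneg_right ?_ (by positivity)
  have hu := uu_pos p h x
  have h1 : uu p h x ≤ 2 := by
    unfold uu
    have : ‖x - p x‖ ^ 2 / h ^ 2 ≤ 1 := by
      rw [div_le_one (by positivity)]
      exact pow_le_pow_left₀ (norm_nonneg _) hx 2
    linarith
  have h2 : √(uu p h x) ≤ 3 / 2 := by
    rw [Real.sqrt_le_left (by norm_num)]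
    linarith
  have h3 : uu p h x * √(uu p h x) ≤ 3 := by
    nlinarith [Real.sqrt_nonneg (uu p h x)]
  rw [one_div]
  exact inv_anti₀ (by positivity) h3

end

end Crest.Agent.R234.Pair2_762
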