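import Crest.Agent.R234.Pt3_615
import Crest.Agent.R234.Pair2_762

/-!
Row 234 (helper762), VF-PAIR-Q, file 3: the kernel `φ(x) φ(x') κ(x - x')`,
`κ(x) = (1 - |H x|² / τ²)₊²`, and the pointwise bounds of the two sides of 615's identity.
-/

set_option autoImplicit false

open MeasureTheory Crest.GeometryTopology.Submanifold Filter Topology
open scoped ENNReal InnerProductSpace

noncomputable section

namespace Crest.Agent.R234.Pair3_762

open Crest.Agent.R234.Vf_884 Crest.Agent.R234.In_947 Crest.Agent.R234.Pt_615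
  Crest.Agent.R234.Pair2_762

variable {m k : ℕ}

/-! ### the profile -/

/-- `s₊²`. -/
def pp (s : ℝ) : ℝ := (max s 0) ^ 2

theorem hasDerivAt_pp (s : ℝ) : HasDerivAt pp (2 * max s 0) s := by
  rcases lt_trichotomy s 0 with h | h | h
  · rw [max_eq_right h.le, mul_zero]
    refine (hasDerivAt_const s (0 : ℝ)).congr_of_eventuallyEq ?_
    filter_upwards [Iio_mem_nhds h] with y hy
    have hy' : y < 0 := hy
    simp [pp, max_eq_right hy'.le]
  · subst h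
    rw [max_self, mul_zero, ← hasDerivWithinAt_univ, ← Set.Iic_union_Ici (a := (0 : ℝ))]
    refine HasDerivWithinAt.union ?_ ?_
    · refine (hasDerivWithinAt_const (0 : ℝ) _ (0 : ℝ)).congr (fun y hy => ?_) ?_
      · simp [pp, max_eq_right (Set.mem_Iic.1 hy)]
      · simp [pp]
    · have h1 : HasDerivWithinAt (fun y : ℝ => y ^ 2) 0 (Set.Ici 0) 0 := by
        simpa using (hasDerivAt_pow 2 (0 : ℝ)).hasDerivWithinAt
      refine h1.congr (fun y hy => ?_) ?_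
      · simp [pp, max_eq_left (Set.mem_Ici.1 hy)]
      · simp [pp]
  · rw [max_eq_left h.le]
    have h1 : HasDerivAt (fun y : ℝ => y ^ 2) (2 * s) s := by
      simpa using hasDerivAt_pow 2 s
    refine h1.congr_of_eventuallyEq ?_
    filter_upwards [Ioi_mem_nhds h] with y hy
    have hy' : 0 < y := hy
    simp [pp, max_eq_left hy'.le]

theorem contDiff_pp : ContDiff ℝ 1 pp := by
  rw [contDiff_one_iff_deriv]
  refine ⟨fun s => (hasDerivAt_pp s).differentiableAt, ?_⟩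
  have : deriv pp = fun s => 2 * max s 0 := funext fun s => (hasDerivAt_pp s).deriv
  rw [this]
  fun_prop

theorem pp_nonneg (s : ℝ) : 0 ≤ pp s := by unfold pp; positivity

theorem pp_le_one {s : ℝ} (h : s ≤ 1) : pp s ≤ 1 := by
  unfold pp
  have h1 : max s 0 ≤ 1 := max_le h zero_le_one
  have h0 : 0 ≤ max s 0 := le_max_right _ _
  nlinarith

/-! ### the kernel -/

section

variable (H : L k) (τ : ℝ)

/-- the horizontal kernel. -/
def kap (x : Euc k) : ℝ := pp (1 - ‖H x‖ ^ 2 * (τ ^ 2)⁻¹)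

/-- its derivative. -/
def Dkap (x : Euc k) : Euc k →L[ℝ] ℝ :=
  (2 * max (1 - ‖H x‖ ^ 2 * (τ ^ 2)⁻¹) 0 * (-2 * (τ ^ 2)⁻¹)) • ((innerSL ℝ (H x)) ∘L H)

theorem hasFDerivAt_kap (x : Euc k) : HasFDerivAt (kap H τ) (Dkap H τ x) x := by
  have h1 : HasFDerivAt (fun y : Euc k => H y) H x := H.hasFDerivAt
  have h2 := (h1.norm_sq.mul_const ((τ ^ 2)⁻¹)).const_sub 1
  have h3 := (hasDerivAt_pp (1 - ‖H x‖ ^ 2 * (τ ^ 2)⁻¹)).comp_hasFDerivAt x h2
  refine h3.congr_fderiv ?_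
  ext1 v
  simp only [Dkap, smul_apply, ContinuousLinearMap.comp_apply, smul_eq_mul, nsmul_eq_mul,
    neg_apply]
  push_cast
  ring

theorem contDiff_kap : ContDiff ℝ 1 (kap H τ) := by
  unfold kap
  exact contDiff_pp.comp (contDiff_const.sub ((H.contDiff.norm_sq ℝ).mul contDiff_const))

theorem kap_neg (x : Euc k) : kap H τ (-x) = kap H τ x := by
  unfold kap; rw [map_neg, norm_neg]

theorem Dkap_neg (x : Euc k) : Dkap H τ (-x) = -Dkap H τ x := by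
  unfold Dkap
  rw [map_neg, norm_neg]
  ext1 v
  simp

theorem kap_nonneg (x : Euc k) : 0 ≤ kap H τ x := pp_nonneg _

theorem kap_le_one (x : Euc k) : kap H τ x ≤ 1 := by
  refine pp_le_one ?_
  have : 0 ≤ ‖H x‖ ^ 2 * (τ ^ 2)⁻¹ := by positivity
  linarith

variable {H τ}

theorem kap_eq_zero (hτ : 0 < τ) {x : Euc k} (hx : τ ≤ ‖H x‖) : kap H τ x = 0 := by
  have h1 : 1 ≤ ‖H x‖ ^ 2 * (τ ^ 2)⁻¹ := by
    rw [← div_eq_mul_inv, one_le_div (by positivity)]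
    exact pow_le_pow_left₀ hτ.le hx 2
  unfold kap pp
  rw [max_eq_right (by linarith)]
  norm_num

theorem Dkap_eq_zero (hτ : 0 < τ) {x : Euc k} (hx : τ ≤ ‖H x‖) : Dkap H τ x = 0 := by
  have h1 : 1 ≤ ‖H x‖ ^ 2 * (τ ^ 2)⁻¹ := by
    rw [← div_eq_mul_inv, one_le_div (by positivity)]
    exact pow_le_pow_left₀ hτ.le hx 2
  unfold Dkap
  rw [max_eq_right (by linarith)]
  simp

theorem le_kap (hτ : 0 < τ) {x : Euc k} (hx : ‖H x‖ ≤ τ / 2) : 9 / 16 ≤ kap H τ x := by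
  have h1 : ‖H x‖ ^ 2 * (τ ^ 2)⁻¹ ≤ 1 / 4 := by
    rw [← div_eq_mul_inv, div_le_iff₀ (by positivity)]
    have := pow_le_pow_left₀ (norm_nonneg _) hx 2
    linarith
  unfold kap pp
  have h2 : 3 / 4 ≤ max (1 - ‖H x‖ ^ 2 * (τ ^ 2)⁻¹) 0 := le_max_of_le_left (by linarith)
  nlinarith

theorem abs_Dkap_le (hτ : 0 < τ) (hH : ∀ x, ‖H x‖ ≤ ‖x‖) (x v : Euc k) :
    |Dkap H τ x v| ≤ 4 / τ * ‖v‖ := by
  rcases le_or_gt τ ‖H x‖ with h | h
  · rw [Dkap_eq_zero hτ h, zero_apply, abs_zero]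
    positivity
  have e : Dkap H τ x v = (2 * max (1 - ‖H x‖ ^ 2 * (τ ^ 2)⁻¹) 0 * (-2 * (τ ^ 2)⁻¹))
      * ⟪H x, H v⟫_ℝ := rfl
  rw [e, abs_mul, abs_mul, abs_mul]
  have h1 : |2 * max (1 - ‖H x‖ ^ 2 * (τ ^ 2)⁻¹) 0| ≤ 2 := by
    rw [abs_mul, abs_two, abs_of_nonneg (le_max_right _ _)]
    have : max (1 - ‖H x‖ ^ 2 * (τ ^ 2)⁻¹) 0 ≤ 1 := by
      refine max_le ?_ zero_le_one
      have : 0 ≤ ‖H x‖ ^ 2 * (τ ^ 2)⁻¹ := by positivity
      linarith
    linarith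
  rw [abs_mul] at h1
  have h2 : |(-2 : ℝ)| * |(τ ^ 2)⁻¹| = 2 * (τ ^ 2)⁻¹ := by
    rw [abs_of_nonneg (by positivity : (0 : ℝ) ≤ (τ ^ 2)⁻¹)]; norm_num
  have h3 : |⟪H x, H v⟫_ℝ| ≤ τ * ‖v‖ := by
    refine (abs_real_inner_le_norm _ _).trans ?_
    exact mul_le_mul h.le (hH v) (norm_nonneg _) hτ.le
  rw [abs_mul, h2]
  calc |2| * |max (1 - ‖H x‖ ^ 2 * (τ ^ 2)⁻¹) 0| * (2 * (τ ^ 2)⁻¹) * |⟪H x, H v⟫_ℝ|
      ≤ 2 * (2 * (τ ^ 2)⁻¹) * (τ * ‖v‖) := by
        refine mul_le_mul ?_ h3 (abs_nonneg _) (by positivity)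
        exact mul_le_mul_of_nonneg_right h1 (by positivity)
    _ = 4 / τ * ‖v‖ := by field_simp; ring

end

/-! ### cut-offs -/

/-- a horizontal cut-off. -/
structure Cut (H : L k) (K : Set (Euc k)) (Λ : ℝ) (φ : Euc k → ℝ) : Prop where
  smooth : ContDiff ℝ 1 φ
  hor : ∀ x, φ x = φ (H x)
  supp : ∀ x, H x ∉ K → φ x = 0
  nonneg : ∀ x, 0 ≤ φ x
  le_one : ∀ x, φ x ≤ 1
  lip : ∀ x, ‖fderiv ℝ φ x‖ ≤ Λ

/-- the pair weight. -/
def ww (H : L k) (τ : ℝ) (φ : Euc k → ℝ) (x y : Euc k) : ℝ := φ x * φ y * kap H τ (x - y)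

variable {H : L k} {K : Set (Euc k)} {Λ τ h : ℝ} {φ : Euc k → ℝ}

theorem Cut.nonneg_lip (hφ : Cut H K Λ φ) : 0 ≤ Λ := (norm_nonneg _).trans (hφ.lip 0)

theorem Cut.fderiv_eq_zero (hφ : Cut H K Λ φ) {x : Euc k} (hx : φ x = 0) :
    fderiv ℝ φ x = 0 := by
  have : IsLocalMin φ x := Filter.Eventually.of_forall fun y => by rw [hx]; exact hφ.nonneg y
  exact this.fderiv_eq_zero

theorem ker_ww (hφ : Cut H K Λ φ) (hH : ∀ x, H (H x) = H x) : Ker H K (ww H τ φ) := by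
  refine ⟨?_, fun x y => ?_, fun x y => ?_, fun x y hx => ?_⟩
  · unfold ww
    exact ((hφ.smooth.comp contDiff_fst).mul (hφ.smooth.comp contDiff_snd)).mul
      ((contDiff_kap H τ).comp (contDiff_fst.sub contDiff_snd))
  · unfold ww
    rw [← kap_neg H τ (x - y), neg_sub, mul_comm (φ x)]
  · unfold ww
    rw [hφ.hor x, hφ.hor y]
    congr 1
    unfold kap
    rw [map_sub, map_sub, hH, hH]
  · unfold ww
    rw [hφ.supp x hx, zero_mul, zero_mul]

theorem D1_ww (hφ : Cut H K Λ φ) (hH : ∀ x, H (H x) = H x) (x y : Euc k) :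
    D1 (ww H τ φ) x y = (φ y * kap H τ (x - y)) • fderiv ℝ φ x
      + (φ x * φ y) • Dkap H τ (x - y) := by
  refine (hasFDerivAt_D1 (ker_ww (τ := τ) hφ hH) x y).unique ?_
  have h1 : HasFDerivAt φ (fderiv ℝ φ x) x :=
    (hφ.smooth.differentiable one_ne_zero x).hasFDerivAt
  have h2 : HasFDerivAt (fun z : Euc k => kap H τ (z - y)) (Dkap H τ (x - y)) x := by
    have h3 : HasFDerivAt (fun z : Euc k => z - y) (ContinuousLinearMap.id ℝ (Euc k)) x :=
      (hasFDerivAt_id x).sub_const y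
    have h4 := (hasFDerivAt_kap H τ (x - y)).comp x h3
    rwa [ContinuousLinearMap.comp_id] at h4
  have h5 := (h1.mul_const (φ y)).mul h2
  refine h5.congr_fderiv ?_
  ext1 v
  simp only [add_apply, smul_apply, smul_eq_mul]
  ring

theorem D2_ww (hφ : Cut H K Λ φ) (hH : ∀ x, H (H x) = H x) (x y : Euc k) :
    D2 (ww H τ φ) x y = (φ x * kap H τ (x - y)) • fderiv ℝ φ y
      - (φ x * φ y) • Dkap H τ (x - y) := by
  rw [D2_eq (ker_ww (τ := τ) hφ hH), D1_ww hφ hH, ← neg_sub x y, kap_neg, Dkap_neg, smul_neg,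
    ← sub_eq_add_neg, mul_comm (φ y) (φ x)]

/-! ### pointwise bounds -/

/-- the pairs that interact. -/
def near (H : L k) (τ : ℝ) (φ : Euc k → ℝ) (x y : Euc k) : Prop :=
  φ x ≠ 0 ∧ φ y ≠ 0 ∧ ‖H (x - y)‖ < τ

theorem norm_S_th_le {S : L k} (hH : H ∈ G m k) (hS : S ∈ G m k) (hh : 0 < h) (u : Euc k) :
    ‖S (th H h u)‖ ≤ √(tilt H S) * h := by
  have h1 := norm_tan_perp_sq_le hH hS (th H h u)
  rw [p_th hH, sub_zero] at h1
  have h2 : ‖S (th H h u)‖ ≤ √(tilt H S * ‖th H h u‖ ^ 2) := Real.le_sqrt_of_sq_le h1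
  rw [Real.sqrt_mul (tilt_nonneg hH hS), Real.sqrt_sq (norm_nonneg _)] at h2
  exact h2.trans (mul_le_mul_of_nonneg_left (norm_th_le_h H hh u) (Real.sqrt_nonneg _))

theorem norm_cub_le {S' : L k} (hH : H ∈ G m k) (hS' : S' ∈ G m k) (v : Euc k) :
    ‖H (H v - S' (H v))‖ ≤ tilt H S' * ‖v‖ := by
  -- `⟨H (1 - S') H v, u⟩ = ⟨(1-S') H v, (1-S') H u⟩`
  set u := H (H v - S' (H v)) with hu
  have hHu : H u = u := G_idem_apply hH _
  have h1 : ‖u‖ ^ 2 = ⟪H v - S' (H v), H u - S' (H u)⟫_ℝ := by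
    rw [← real_inner_self_eq_norm_sq]
    nth_rewrite 1 [hu]
    rw [G_symm hH, hHu, inner_sub_right]
    have h2 : ⟪H v - S' (H v), S' u⟫_ℝ = 0 := by
      rw [← G_symm hS', map_sub, G_idem_apply hS', sub_self, inner_zero_left]
    rw [h2, sub_zero]
  have h3 := norm_perp_tan_sq_le hH hS' v
  have h4 := norm_perp_tan_sq_le hH hS' u
  have ht := tilt_nonneg hH hS'
  have h5 : ‖H v - S' (H v)‖ ≤ √(tilt H S') * ‖v‖ := by
    have := Real.le_sqrt_of_sq_le h3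
    rw [Real.sqrt_mul ht, Real.sqrt_sq (norm_nonneg _)] at this
    exact this.trans (mul_le_mul_of_nonneg_left (G_norm_apply_le hH v) (Real.sqrt_nonneg _))
  have h6 : ‖H u - S' (H u)‖ ≤ √(tilt H S') * ‖u‖ := by
    have := Real.le_sqrt_of_sq_le h4
    rw [Real.sqrt_mul ht, Real.sqrt_sq (norm_nonneg _)] at this
    exact this.trans (mul_le_mul_of_nonneg_left (G_norm_apply_le hH u) (Real.sqrt_nonneg _))
  have h7 : ‖u‖ ^ 2 ≤ (√(tilt H S') * ‖v‖) * (√(tilt H S') * ‖u‖) := by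
    rw [h1]
    exact (real_inner_le_norm _ _).trans (mul_le_mul h5 h6 (norm_nonneg _) (by positivity))
  have h8 : (√(tilt H S') * ‖v‖) * (√(tilt H S') * ‖u‖) = (tilt H S' * ‖v‖) * ‖u‖ := by
    have := Real.mul_self_sqrt ht
    calc (√(tilt H S') * ‖v‖) * (√(tilt H S') * ‖u‖)
        = (√(tilt H S') * √(tilt H S')) * ‖v‖ * ‖u‖ := by ring
      _ = _ := by rw [this]
  rw [h8] at h7
  rcases eq_or_lt_of_le (norm_nonneg u) with h0 | h0
  · rw [← h0]; positivity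
  · rw [sq] at h7
    exact le_of_mul_le_mul_right h7 h0

theorem norm_cub_le' {S' : L k} (hH : H ∈ G m k) (hS' : S' ∈ G m k) (v : Euc k) :
    ‖H (H v - S' (H v))‖ ≤ ‖v‖ := by
  refine (G_norm_apply_le hH _).trans ?_
  have h1 := G_norm_sq_add hS' (H v)
  have h2 : ‖H v - S' (H v)‖ ≤ ‖H v‖ := by
    refine le_of_sq_le_sq ?_ (norm_nonneg _)
    nlinarith [sq_nonneg ‖S' (H v)‖]
  exact h2.trans (G_norm_apply_le hH v)

/-- **pointwise bound of the flux.** -/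
theorem flux_le (hφ : Cut H K Λ φ) (hH : H ∈ G m k) (hτ : 0 < τ) (hh : 0 < h)
    {q : (Euc k × L k) × (Euc k × L k)} (h1 : q.1.2 ∈ G m k) (h2 : q.2.2 ∈ G m k) :
    |Rcut H (ww H τ φ) (th H h) q| + |Rcub H (ww H τ φ) (th H h) q|
      ≤ open Classical in if near H τ φ q.1.1 q.2.1 then
        h * (3 * Λ * √(tilt H q.1.2) + 4 / τ * (√(tilt H q.1.2) * tilt H q.2.2)) else 0 := by
  have hHH := G_idem_apply hH
  unfold Rcut Rcub
  rw [D1_ww hφ hHH, D2_ww hφ hHH]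
  set x := q.1.1
  set y := q.2.1
  set S := q.1.2
  set S' := q.2.2
  set a := H (S (th H h (x - y))) with ha
  have hΛ := hφ.nonneg_lip
  have e1 : ((φ y * kap H τ (x - y)) • fderiv ℝ φ x + (φ x * φ y) • Dkap H τ (x - y)
      + ((φ x * kap H τ (x - y)) • fderiv ℝ φ y - (φ x * φ y) • Dkap H τ (x - y))) a
      = φ y * kap H τ (x - y) * fderiv ℝ φ x a + φ x * kap H τ (x - y) * fderiv ℝ φ y a := by
    simp only [add_apply, sub_apply, smul_apply, smul_eq_mul]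
    ring
  have hna : ‖a‖ ≤ √(tilt H S) * h := (G_norm_apply_le hH _).trans (norm_S_th_le hH h1 hh _)
  rw [e1]
  split_ifs with hn
  · obtain ⟨hx, hy, hxy⟩ := hn
    have hk0 := kap_nonneg H τ (x - y)
    have hk1 := kap_le_one H τ (x - y)
    have hx0 := hφ.nonneg x
    have hx1 := hφ.le_one x
    have hy0 := hφ.nonneg y
    have hy1 := hφ.le_one y
    have hT : 0 ≤ √(tilt H S) * h := by positivity
    have ht' := tilt_nonneg hH h2
    have hd : ∀ z v : Euc k, |fderiv ℝ φ z v| ≤ Λ * ‖v‖ := fun z v =>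
      ((fderiv ℝ φ z).le_opNorm v).trans (mul_le_mul_of_nonneg_right (hφ.lip z) (norm_nonneg _))
    have hb : ∀ c z : ℝ, 0 ≤ c → c ≤ 1 → |c * z| ≤ |z| := fun c z h0 h1 => by
      rw [abs_mul, abs_of_nonneg h0]
      exact mul_le_of_le_one_left (abs_nonneg _) h1
    have hyk0 : 0 ≤ φ y * kap H τ (x - y) := mul_nonneg hy0 hk0
    have hyk1 : φ y * kap H τ (x - y) ≤ 1 := mul_le_one₀ hy1 hk0 hk1
    have hxk0 : 0 ≤ φ x * kap H τ (x - y) := mul_nonneg hx0 hk0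
    have hxk1 : φ x * kap H τ (x - y) ≤ 1 := mul_le_one₀ hx1 hk0 hk1
    have hxy0 : 0 ≤ φ x * φ y := mul_nonneg hx0 hy0
    have hxy1 : φ x * φ y ≤ 1 := mul_le_one₀ hx1 hy0 hy1
    -- cut-off part
    have c1 : |φ y * kap H τ (x - y) * fderiv ℝ φ x a + φ x * kap H τ (x - y) * fderiv ℝ φ y a|
        ≤ 2 * Λ * (√(tilt H S) * h) := by
      refine (abs_add_le _ _).trans ?_
      have i1 := (hb _ (fderiv ℝ φ x a) hyk0 hyk1).trans (hd x a)
      have i2 := (hb _ (fderiv ℝ φ y a) hxk0 hxk1).trans (hd y a)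
      have i3 : Λ * ‖a‖ ≤ Λ * (√(tilt H S) * h) := mul_le_mul_of_nonneg_left hna hΛ
      linarith
    -- cubic part
    have hHa : H a = a := hHH _
    set b := H (a - S' a) with hb'
    have hb2 : b = H (H a - S' (H a)) := by rw [hHa]
    have nb1 : ‖b‖ ≤ tilt H S' * (√(tilt H S) * h) := by
      rw [hb2]
      exact (norm_cub_le hH h2 a).trans (mul_le_mul_of_nonneg_left hna ht')
    have nb2 : ‖b‖ ≤ √(tilt H S) * h := by
      rw [hb2]
      exact (norm_cub_le' hH h2 a).trans hna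
    have c2 : |((φ x * kap H τ (x - y)) • fderiv ℝ φ y - (φ x * φ y) • Dkap H τ (x - y)) b|
        ≤ Λ * (√(tilt H S) * h) + 4 / τ * (tilt H S' * (√(tilt H S) * h)) := by
      have e2 : ((φ x * kap H τ (x - y)) • fderiv ℝ φ y - (φ x * φ y) • Dkap H τ (x - y)) b
          = φ x * kap H τ (x - y) * fderiv ℝ φ y b - φ x * φ y * Dkap H τ (x - y) b := by
        simp only [sub_apply, smul_apply, smul_eq_mul]
      rw [e2]
      refine (abs_sub _ _).trans ?_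
      have i1 := (hb _ (fderiv ℝ φ y b) hxk0 hxk1).trans (hd y b)
      have i2 := (hb _ (Dkap H τ (x - y) b) hxy0 hxy1).trans
        (abs_Dkap_le hτ (G_norm_apply_le hH) (x - y) b)
      have i3 : Λ * ‖b‖ ≤ Λ * (√(tilt H S) * h) := mul_le_mul_of_nonneg_left nb2 hΛ
      have i4 : 4 / τ * ‖b‖ ≤ 4 / τ * (tilt H S' * (√(tilt H S) * h)) :=
        mul_le_mul_of_nonneg_left nb1 (by positivity)
      linarith
    refine (add_le_add c1 c2).trans (le_of_eq ?_)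
    ring
  · -- everything vanishes
    have hz : (φ x = 0 ∨ φ y = 0) ∨ τ ≤ ‖H (x - y)‖ := by
      unfold near at hn
      by_contra hcon
      push Not at hcon
      exact hn ⟨hcon.1.1, hcon.1.2, hcon.2⟩
    rcases hz with (hz | hz) | hz
    · rw [hz, hφ.fderiv_eq_zero hz]; simp
    · rw [hz, hφ.fderiv_eq_zero hz]; simp
    · rw [kap_eq_zero hτ hz, Dkap_eq_zero hτ hz]; simp

theorem vert_th (hH : H ∈ G m k) : Vert H (th H h) := by
  refine ⟨contDiff_th H h, th_neg H h, fun u => ?_, fun u => p_th hH u, fun u => ?_⟩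
  · have e : u - H u - H (u - H u) = u - H u := by
      rw [map_sub, G_idem_apply hH, sub_self, sub_zero]
    unfold th uu
    rw [e]
  · rw [fderiv_th, ContinuousLinearMap.isSelfAdjoint_iff_isSymmetric]
    intro v w
    exact Dth_symm hH h u v w

/-- **pointwise lower bound of the left side.** -/
theorem le_Lhs (hφ : Cut H K Λ φ) (hH : H ∈ G m k) (hτ : 0 < τ) (hh : 0 < h)
    {q : (Euc k × L k) × (Euc k × L k)} (h1 : q.1.2 ∈ G m k) (h2 : q.2.2 ∈ G m k) :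
    (open Classical in if φ q.1.1 = 1 ∧ φ q.2.1 = 1 ∧ ‖H (q.1.1 - q.2.1)‖ ≤ τ / 2 ∧
        ‖(q.1.1 - q.2.1) - H (q.1.1 - q.2.1)‖ ≤ h then
      3 / 16 * (mx H q.1.2 q.2.2 + vv H q.1.2 + vv H q.2.2) else 0)
      ≤ Lhs H (ww H τ φ) (th H h) q := by
  unfold Lhs Sq
  rw [fderiv_th]
  have hw0 : 0 ≤ ww H τ φ q.1.1 q.2.1 :=
    mul_nonneg (mul_nonneg (hφ.nonneg _) (hφ.nonneg _)) (kap_nonneg H τ _)
  split_ifs with hn
  · obtain ⟨hx, hy, hxy, hv⟩ := hn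
    have h3 := quad_ge hH h1 h2 (A := Dth H h (q.1.1 - q.2.1)) (c := 1 / 3)
      (fun v => third_le hH hh hv v)
    have h4 : 9 / 16 ≤ ww H τ φ q.1.1 q.2.1 := by
      unfold ww
      rw [hx, hy, one_mul, one_mul]
      exact le_kap hτ hxy
    have h5 : 0 ≤ mx H q.1.2 q.2.2 + vv H q.1.2 + vv H q.2.2 :=
      add_nonneg (add_nonneg (mx_nonneg _ _ _) (vv_nonneg _ _)) (vv_nonneg _ _)
    calc 3 / 16 * (mx H q.1.2 q.2.2 + vv H q.1.2 + vv H q.2.2)
        = 9 / 16 * (1 / 3 * (mx H q.1.2 q.2.2 + vv H q.1.2 + vv H q.2.2)) := by ring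
      _ ≤ _ := mul_le_mul h4 h3 (by positivity) hw0
  · refine mul_nonneg hw0 ?_
    have h3 := quad_ge hH h1 h2 (A := Dth H h (q.1.1 - q.2.1)) (c := 0)
      (fun v => by rw [zero_mul]; exact Dth_nonneg hH hh _ v)
    rw [zero_mul] at h3
    exact h3

end Crest.Agent.R234.Pair3_762
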