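import Crest.Agent.R234.Pair3_762

/-!
Row 234 (helper762), VF-PAIR-Q, file 4: the energy inequality (quantitative form of the pair
identity; 504's (DV)): integrals.
-/

set_option autoImplicit false

open MeasureTheory Crest.GeometryTopology.Submanifold Filter Topology
open scoped ENNReal InnerProductSpace

noncomputable section

namespace Crest.Agent.R234.Pair4_762

open Crest.Agent.R234.Vf_884 Crest.Agent.R234.In_947 Crest.Agent.R234.Pt_615
  Crest.Agent.R234.Pair2_762 Crest.Agent.R234.Pair3_762

variable {m k : ℕ}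

/-! ### real analysis -/

theorem le_sqrt_of_forall {X e v : ℝ} (he : 0 ≤ e) (hv : 0 ≤ v)
    (h : ∀ l : ℝ, 0 < l → 2 * X ≤ l * e + v / l) : X ≤ √(e * v) := by
  by_contra hcon
  have hX : √(e * v) < X := not_le.1 hcon
  have hX0 : 0 < X := lt_of_le_of_lt (Real.sqrt_nonneg _) hX
  have hX2 : e * v < X ^ 2 := by
    rw [← Real.sqrt_lt' hX0]; exact hX
  rcases eq_or_lt_of_le he with he0 | he0
  · have h1 := h ((v + 1) / X) (by positivity)
    rw [← he0, mul_zero, zero_add, div_div_eq_mul_div, le_div_iff₀ (by positivity)] at h1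
    nlinarith
  · have h1 := h (X / e) (by positivity)
    rw [div_mul_cancel₀ _ he0.ne', div_div_eq_mul_div] at h1
    have h2 : X ≤ v * e / X := by linarith
    rw [le_div_iff₀ hX0] at h2
    nlinarith

/-! ### the energy inequality -/

section

variable {H : L k} {K : Set (Euc k)} {Λ τ h M σ : ℝ} {φ : Euc k → ℝ}
  {V : Measure (Euc k × L k)}

/-- the region `{φ ≠ 0}` of phase space. -/
def S0 (φ : Euc k → ℝ) : Set (Euc k × L k) := {z | φ z.1 ≠ 0}

/-- the points interacting with `x`. -/
def nb (H : L k) (τ : ℝ) (φ : Euc k → ℝ) (x : Euc k) : Set (Euc k × L k) :=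
  {z' | near H τ φ x z'.1}

theorem isOpen_S0 (hφ : Continuous φ) : IsOpen (S0 φ) :=
  isOpen_ne_fun (hφ.comp continuous_fst) continuous_const

theorem isOpen_near (hφ : Continuous φ) :
    IsOpen {q : (Euc k × L k) × (Euc k × L k) | near H τ φ q.1.1 q.2.1} := by
  have h1 : IsOpen {q : (Euc k × L k) × (Euc k × L k) | φ q.1.1 ≠ 0} :=
    isOpen_ne_fun (hφ.comp (by fun_prop)) continuous_const
  have h2 : IsOpen {q : (Euc k × L k) × (Euc k × L k) | φ q.2.1 ≠ 0} :=
    isOpen_ne_fun (hφ.comp (by fun_prop)) continuous_const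
  have h3 : IsOpen {q : (Euc k × L k) × (Euc k × L k) | ‖H (q.1.1 - q.2.1)‖ < τ} :=
    isOpen_lt (by fun_prop) continuous_const
  exact h1.inter (h2.inter h3)

theorem isOpen_nb (hφ : Continuous φ) (x : Euc k) : IsOpen (nb H τ φ x) := by
  have h1 : IsOpen {q : Euc k × L k | φ x ≠ 0} := isOpen_const
  have h2 : IsOpen {q : Euc k × L k | φ q.1 ≠ 0} :=
    isOpen_ne_fun (hφ.comp continuous_fst) continuous_const
  have h3 : IsOpen {q : Euc k × L k | ‖H (x - q.1)‖ < τ} :=
    isOpen_lt (by fun_prop) continuous_const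
  exact h1.inter (h2.inter h3)

theorem near_symm {x y : Euc k} : near H τ φ x y ↔ near H τ φ y x := by
  unfold near
  rw [← neg_sub x y, map_neg, norm_neg]
  tauto

theorem nb_eq_empty {x : Euc k} (hx : φ x = 0) : nb H τ φ x = ∅ := by
  ext z
  simp [nb, near, hx]

theorem continuous_tilt_snd (H : L k) : Continuous fun z : Euc k × L k => tilt H z.2 :=
  (continuous_tilt H).comp continuous_snd

/-- continuous functions are integrable. -/
theorem integrable_one [IsFiniteMeasure V] (hV : HBase m V) {f : Euc k × L k → ℝ}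
    (hf : Continuous f) : Integrable f V := by
  obtain ⟨R, hR⟩ := hV.bdd
  have hCc : IsCompact (Metric.closedBall (0 : Euc k) R ×ˢ G m k) :=
    (isCompact_closedBall _ _).prod (isCompact_G m k)
  obtain ⟨B, hB⟩ := hCc.exists_bound_of_continuousOn hf.continuousOn
  refine Integrable.of_bound (C := B) (hf.aestronglyMeasurable) ?_
  filter_upwards [hR, hV.conc] with p h1 h2
  exact hB p ⟨by simpa using h1, h2⟩

/-- the pairs that interact. -/
def NN (H : L k) (τ : ℝ) (φ : Euc k → ℝ) : Set ((Euc k × L k) × (Euc k × L k)) :=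
  {q | near H τ φ q.1.1 q.2.1}

/-- the bound of the flux. -/
def gg (H : L k) (h Λ τ : ℝ) (q : (Euc k × L k) × (Euc k × L k)) : ℝ :=
  h * (3 * Λ * √(tilt H q.1.2) + 4 / τ * (√(tilt H q.1.2) * tilt H q.2.2))

/-- the flux integral: the bound of `∫∫ 1_near h (3 Λ √t + (4/τ) √t t')`. -/
theorem flux_int_le [IsFiniteMeasure V] (hV : HBase m V) (hH : H ∈ G m k) (hφ : Continuous φ)
    (hΛ : 0 ≤ Λ) (hτ : 0 < τ) (hh : 0 < h) (hM0 : 0 < M) (hσ0 : 0 < σ)
    (hM : ∀ᵐ z ∂V, V.real (nb H τ φ z.1) ≤ M * τ ^ m)
    (hσ : ∀ᵐ z ∂V, ∫ z' in nb H τ φ z.1, tilt H z'.2 ∂V ≤ σ ^ 2 * τ ^ m) :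
    ∫ q, (NN H τ φ).indicator (gg H h Λ τ) q ∂(V.prod V)
      ≤ h * τ ^ m * (3 * Λ * M * √((∫ z in S0 φ, tilt H z.2 ∂V) * V.real (S0 φ))
        + 4 / τ * (σ * √M * ∫ z in S0 φ, tilt H z.2 ∂V)) := by
  classical
  have hτm : 0 < τ ^ m := pow_pos hτ m
  set t : Euc k × L k → ℝ := fun z => tilt H z.2 with ht
  set e := ∫ z in S0 φ, t z ∂V with he
  have htc : Continuous t := continuous_tilt_snd H
  have hti : Integrable t V := integrable_one hV htc
  have hsc : Continuous fun z => √(t z) := htc.sqrt
  have hsi : Integrable (fun z => √(t z)) V := integrable_one hV hsc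
  have ht0 : ∀ᵐ z ∂V, 0 ≤ t z := by
    filter_upwards [hV.conc] with z hz
    exact tilt_nonneg hH hz
  have hS0 : MeasurableSet (S0 φ : Set (Euc k × L k)) := (isOpen_S0 hφ).measurableSet
  have he0 : 0 ≤ e := setIntegral_nonneg_of_ae (by
    filter_upwards [ht0] with z hz using hz)
  set N : Set ((Euc k × L k) × (Euc k × L k)) := {q | near H τ φ q.1.1 q.2.1} with hN
  have hNm : MeasurableSet N := (isOpen_near hφ).measurableSet
  have hind : ∀ (g : (Euc k × L k) × (Euc k × L k) → ℝ) (z z' : Euc k × L k),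
      N.indicator g (z, z') = (nb H τ φ z.1).indicator (fun z' => g (z, z')) z' :=
    fun g z z' => rfl
  have hindint : ∀ (g : (Euc k × L k) × (Euc k × L k) → ℝ) (z : Euc k × L k),
      ∫ z', N.indicator g (z, z') ∂V = ∫ z' in nb H τ φ z.1, g (z, z') ∂V := by
    intro g z
    simp only [hind]
    rw [integral_indicator (isOpen_nb hφ z.1).measurableSet]
  -- the function A
  set A : Euc k × L k → ℝ := fun z => ∫ z' in nb H τ φ z.1, t z' ∂V with hA
  have hi2 : Integrable (N.indicator fun q : (Euc k × L k) × (Euc k × L k) => t q.2)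
      (V.prod V) := (integrable_cont hV (htc.comp continuous_snd)).indicator hNm
  have hi1 : Integrable (N.indicator fun q : (Euc k × L k) × (Euc k × L k) => t q.1)
      (V.prod V) := (integrable_cont hV (htc.comp continuous_fst)).indicator hNm
  have hAi : Integrable A V := by
    refine hi2.integral_prod_left.congr (Filter.Eventually.of_forall fun z => ?_)
    exact hindint _ z
  have hA0 : ∀ z, 0 ≤ A z := fun z => setIntegral_nonneg_of_ae (by
    filter_upwards [ht0] with z hz using hz)
  have hAz : ∀ z : Euc k × L k, φ z.1 = 0 → A z = 0 := fun z hz => by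
    simp only [hA]
    rw [nb_eq_empty hz]; simp
  -- ∫ A ≤ M τ^m e
  have hAint : ∫ z, A z ∂V ≤ M * τ ^ m * e := by
    have h1 : ∫ z, A z ∂V = ∫ q, N.indicator (fun q => t q.2) q ∂(V.prod V) := by
      rw [integral_prod _ hi2]
      refine integral_congr_ae (Filter.Eventually.of_forall fun z => ?_)
      show A z = ∫ z', N.indicator (fun q => t q.2) (z, z') ∂V
      rw [hindint]
    have h2 : ∫ q, N.indicator (fun q => t q.2) q ∂(V.prod V)
        = ∫ q, N.indicator (fun q => t q.1) q ∂(V.prod V) := by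
      rw [← integral_prod_swap (N.indicator fun q => t q.1)]
      refine integral_congr_ae (Filter.Eventually.of_forall fun q => ?_)
      show N.indicator (fun q => t q.2) q = N.indicator (fun q => t q.1) q.swap
      by_cases hz : near H τ φ q.1.1 q.2.1
      · rw [Set.indicator_of_mem (show q ∈ N from hz),
          Set.indicator_of_mem (show q.swap ∈ N from near_symm.1 hz)]
        rfl
      · rw [Set.indicator_of_notMem (show q ∉ N from hz),
          Set.indicator_of_notMem (show q.swap ∉ N from fun h => hz (near_symm.1 h))]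
    have h3 : ∫ q, N.indicator (fun q => t q.1) q ∂(V.prod V)
        = ∫ z, t z * V.real (nb H τ φ z.1) ∂V := by
      rw [integral_prod _ hi1]
      refine integral_congr_ae (Filter.Eventually.of_forall fun z => ?_)
      show ∫ z', N.indicator (fun q => t q.1) (z, z') ∂V = t z * V.real (nb H τ φ z.1)
      rw [hindint]
      simp only
      rw [setIntegral_const, smul_eq_mul, mul_comm]
    rw [h1, h2, h3]
    have h5 : ∀ᵐ z ∂V, t z * V.real (nb H τ φ z.1)
        ≤ M * τ ^ m * (S0 φ).indicator t z := by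
      filter_upwards [hM, ht0] with z h1 h2
      by_cases hz : φ z.1 = 0
      · rw [nb_eq_empty hz, measureReal_empty, mul_zero,
          Set.indicator_of_notMem (show z ∉ S0 φ from fun h => h hz), mul_zero]
      · rw [Set.indicator_of_mem (show z ∈ S0 φ from hz), mul_comm]
        exact mul_le_mul_of_nonneg_right h1 h2
    have h6 : Integrable (fun z => M * τ ^ m * (S0 φ).indicator t z) V :=
      (hti.indicator hS0).const_mul _
    have h7 : ∫ z, M * τ ^ m * (S0 φ).indicator t z ∂V = M * τ ^ m * e := by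
      rw [integral_const_mul, integral_indicator hS0]
    rw [← h7]
    refine integral_mono_of_nonneg ?_ h6 h5
    filter_upwards [ht0] with z hz
    exact mul_nonneg hz measureReal_nonneg
  -- the square root term
  have hsq : ∫ z in S0 φ, √(t z) ∂V ≤ √(e * V.real (S0 φ)) := by
    refine le_sqrt_of_forall he0 measureReal_nonneg fun l hl => ?_
    have h1 : ∫ z in S0 φ, 2 * √(t z) ∂V ≤ ∫ z in S0 φ, (l * t z + 1 / l) ∂V := by
      refine integral_mono_ae (hsi.restrict.const_mul 2)
        ((hti.restrict.const_mul l).add (integrable_const _)) ?_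
      filter_upwards [ae_restrict_of_ae ht0] with z hz
      have h2 := Real.sq_sqrt hz
      have h3 : 0 ≤ (l * √(t z) - 1) ^ 2 := sq_nonneg _
      have h4 : 2 * √(t z) * l ≤ (l * t z + 1 / l) * l := by
        have : (l * t z + 1 / l) * l = l ^ 2 * t z + 1 := by field_simp
        rw [this]
        nlinarith
      exact le_of_mul_le_mul_right h4 hl
    rw [integral_const_mul, integral_add (hti.restrict.const_mul l) (integrable_const _),
      integral_const_mul, integral_const] at h1
    simp only [measureReal_restrict_apply_univ, smul_eq_mul] at h1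
    rw [mul_one_div] at h1
    exact h1
  -- the cubic term
  have hcub : ∫ z, √(t z) * A z ∂V ≤ σ * √M * τ ^ m * e := by
    set l := σ * √M * τ ^ m with hl
    have hl0 : 0 < l := by positivity
    have h1 : ∫ z, √(t z) * A z ∂V
        ≤ ∫ z, (l / 2 * (S0 φ).indicator t z + σ ^ 2 * τ ^ m / (2 * l) * A z) ∂V := by
      refine integral_mono_of_nonneg ?_
        (((hti.indicator hS0).const_mul _).add (hAi.const_mul _)) ?_
      · exact Filter.Eventually.of_forall fun z => mul_nonneg (Real.sqrt_nonneg _) (hA0 z)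
      filter_upwards [ht0, hσ] with z h2 h3
      by_cases hz : φ z.1 = 0
      · rw [hAz z hz, Set.indicator_of_notMem (show z ∉ S0 φ from fun h => h hz)]
        simp
      · rw [Set.indicator_of_mem (show z ∈ S0 φ from hz)]
        have h4 := Real.sq_sqrt h2
        have h5 : A z * A z ≤ σ ^ 2 * τ ^ m * A z := mul_le_mul_of_nonneg_right h3 (hA0 z)
        have h6 : 0 ≤ (l * √(t z) - A z) ^ 2 := sq_nonneg _
        have h7 : (√(t z) * A z) * (2 * l)
            ≤ (l / 2 * t z + σ ^ 2 * τ ^ m / (2 * l) * A z) * (2 * l) := by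
          have e1 : (l / 2 * t z + σ ^ 2 * τ ^ m / (2 * l) * A z) * (2 * l)
              = l ^ 2 * t z + σ ^ 2 * τ ^ m * A z := by
            field_simp
          rw [e1]
          nlinarith
        exact le_of_mul_le_mul_right h7 (by positivity)
    refine h1.trans ?_
    rw [integral_add ((hti.indicator hS0).const_mul _) (hAi.const_mul _), integral_const_mul,
      integral_const_mul, integral_indicator hS0, ← he]
    have h8 : σ ^ 2 * τ ^ m / (2 * l) * ∫ z, A z ∂V ≤ σ ^ 2 * τ ^ m / (2 * l) * (M * τ ^ m * e) :=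
      mul_le_mul_of_nonneg_left hAint (by positivity)
    have h9 : σ ^ 2 * τ ^ m / (2 * l) * (M * τ ^ m * e) = l / 2 * e := by
      have hMs : √M ^ 2 = M := Real.sq_sqrt hM0.le
      have e2 : σ ^ 2 * τ ^ m * (M * τ ^ m) = l ^ 2 := by
        rw [hl]
        calc σ ^ 2 * τ ^ m * (M * τ ^ m) = σ ^ 2 * τ ^ m * (√M ^ 2 * τ ^ m) := by rw [hMs]
          _ = _ := by ring
      calc σ ^ 2 * τ ^ m / (2 * l) * (M * τ ^ m * e)
          = (σ ^ 2 * τ ^ m * (M * τ ^ m)) * e / (2 * l) := by ring
        _ = l / 2 * e := by rw [e2]; field_simp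
    linarith
  -- assembly
  set g : (Euc k × L k) × (Euc k × L k) → ℝ := fun q =>
    h * (3 * Λ * √(t q.1) + 4 / τ * (√(t q.1) * t q.2)) with hg
  have hgc : Continuous g := by
    have c1 : Continuous fun q : (Euc k × L k) × (Euc k × L k) => √(t q.1) :=
      hsc.comp continuous_fst
    have c2 : Continuous fun q : (Euc k × L k) × (Euc k × L k) => t q.2 :=
      htc.comp continuous_snd
    exact continuous_const.mul ((continuous_const.mul c1).add (continuous_const.mul (c1.mul c2)))
  have hgi : Integrable (N.indicator g) (V.prod V) := (integrable_cont hV hgc).indicator hNm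
  have h1 : ∫ q, (NN H τ φ).indicator (gg H h Λ τ) q
        ∂(V.prod V) = ∫ z, (h * (3 * Λ * (√(t z) * V.real (nb H τ φ z.1))
          + 4 / τ * (√(t z) * A z))) ∂V := by
    have h2 : ∫ q, (NN H τ φ).indicator (gg H h Λ τ) q ∂(V.prod V)
        = ∫ q, N.indicator g q ∂(V.prod V) := rfl
    rw [h2, integral_prod _ hgi]
    refine integral_congr_ae (Filter.Eventually.of_forall fun z => ?_)
    show ∫ z', N.indicator g (z, z') ∂V = _
    rw [hindint]
    simp only [hg]
    rw [integral_const_mul, integral_add (integrable_const _)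
      ((hti.restrict.const_mul _).const_mul _), setIntegral_const, integral_const_mul,
      integral_const_mul, smul_eq_mul]
    ring
  rw [h1]
  have hb : ∀ᵐ z ∂V, h * (3 * Λ * (√(t z) * V.real (nb H τ φ z.1)) + 4 / τ * (√(t z) * A z))
      ≤ h * (3 * Λ * (M * τ ^ m * (S0 φ).indicator (fun z => √(t z)) z)
        + 4 / τ * (√(t z) * A z)) := by
    filter_upwards [hM] with z hz1
    refine mul_le_mul_of_nonneg_left ?_ hh.le
    refine add_le_add ?_ le_rfl
    refine mul_le_mul_of_nonneg_left ?_ (by positivity)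
    by_cases hz : φ z.1 = 0
    · rw [nb_eq_empty hz, measureReal_empty, mul_zero,
        Set.indicator_of_notMem (show z ∉ S0 φ from fun h => h hz), mul_zero]
    · rw [Set.indicator_of_mem (show z ∈ S0 φ from hz), mul_comm]
      exact mul_le_mul_of_nonneg_right hz1 (Real.sqrt_nonneg _)
  have hsAi : Integrable (fun z => √(t z) * A z) V := by
    have hi3 : Integrable (N.indicator fun q : (Euc k × L k) × (Euc k × L k) => √(t q.1) * t q.2)
        (V.prod V) := (integrable_cont hV
          ((hsc.comp continuous_fst).mul (htc.comp continuous_snd))).indicator hNm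
    refine hi3.integral_prod_left.congr (Filter.Eventually.of_forall fun z => ?_)
    show ∫ z', N.indicator (fun q => √(t q.1) * t q.2) (z, z') ∂V = _
    rw [hindint]
    simp only
    rw [integral_const_mul]
  have hri : Integrable (fun z => h * (3 * Λ * (M * τ ^ m * (S0 φ).indicator (fun z => √(t z)) z)
        + 4 / τ * (√(t z) * A z))) V :=
    ((((hsi.indicator hS0).const_mul _).const_mul _).add (hsAi.const_mul _)).const_mul _
  refine (integral_mono_of_nonneg (Filter.Eventually.of_forall fun z => ?_) hri hb).trans ?_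
  · have := hA0 z
    have h2 : 0 ≤ V.real (nb H τ φ z.1) := measureReal_nonneg
    have h3 := Real.sqrt_nonneg (t z)
    show (0 : ℝ) ≤ _
    positivity
  rw [integral_const_mul, integral_add (((hsi.indicator hS0).const_mul _).const_mul _)
    (hsAi.const_mul _), integral_const_mul, integral_const_mul, integral_const_mul,
    integral_indicator hS0]
  have hf1 : 3 * Λ * (M * τ ^ m * ∫ z in S0 φ, √(t z) ∂V)
      ≤ 3 * Λ * (M * τ ^ m * √(e * V.real (S0 φ))) := by
    gcongr
  have hf2 : 4 / τ * ∫ z, √(t z) * A z ∂V ≤ 4 / τ * (σ * √M * τ ^ m * e) := by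
    gcongr
  calc h * (3 * Λ * (M * τ ^ m * ∫ z in S0 φ, √(t z) ∂V) + 4 / τ * ∫ z, √(t z) * A z ∂V)
      ≤ h * (3 * Λ * (M * τ ^ m * √(e * V.real (S0 φ))) + 4 / τ * (σ * √M * τ ^ m * e)) := by
        gcongr
    _ = _ := by ring

end

end Crest.Agent.R234.Pair4_762
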