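import Crest.Agent.R234.Pair4_762

/-!
Row 234 (helper762), VF-PAIR-Q, file 5: the energy of the `(h, τ)`-small points.
-/

set_option autoImplicit false

open MeasureTheory Crest.GeometryTopology.Submanifold Filter Topology
open scoped ENNReal InnerProductSpace

noncomputable section

namespace Crest.Agent.R234.Pair5_762

open Crest.Agent.R234.Vf_884 Crest.Agent.R234.In_947 Crest.Agent.R234.Pt_615
  Crest.Agent.R234.Pair2_762 Crest.Agent.R234.Pair3_762 Crest.Agent.R234.Pair4_762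

variable {m k : ℕ} {H : L k} {K : Set (Euc k)} {Λ τ h M σ c : ℝ} {φ : Euc k → ℝ}
  {V : Measure (Euc k × L k)}

/-- the right side of the estimates:
`h (3 Λ M √(e vol) + (4/τ) σ √M e)`, `e`, `vol` = tilt energy and mass of `{φ ≠ 0}`. -/
def rhs (H : L k) (V : Measure (Euc k × L k)) (φ : Euc k → ℝ) (h τ Λ M σ : ℝ) : ℝ :=
  h * (3 * Λ * M * √((∫ z in S0 φ, tilt H z.2 ∂V) * V.real (S0 φ))
        + 4 / τ * (σ * √M * ∫ z in S0 φ, tilt H z.2 ∂V))

/-- the defect of stationarity against the two families of pair fields. -/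
def err (H : L k) (V : Measure (Euc k × L k)) (φ : Euc k → ℝ) (h τ : ℝ) : ℝ :=
  ∫ z', FV V (Xf (ww H τ φ) (th H h) z') ∂V + ∫ z, FV V (Yf H (ww H τ φ) (th H h) z) ∂V

/-- **The energy inequality**, general `V`. -/
theorem energy_fv [IsFiniteMeasure V] (hV : HBase m V) (hH : H ∈ G m k) (hφ : Cut H K Λ φ)
    (hτ : 0 < τ) (hh : 0 < h) (hM0 : 0 < M) (hσ0 : 0 < σ)
    (hM : ∀ᵐ z ∂V, V.real (nb H τ φ z.1) ≤ M * τ ^ m)
    (hσ : ∀ᵐ z ∂V, ∫ z' in nb H τ φ z.1, tilt H z'.2 ∂V ≤ σ ^ 2 * τ ^ m) :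
    ∫ q, Lhs H (ww H τ φ) (th H h) q ∂(V.prod V)
      ≤ 2 * τ ^ m * rhs H V φ h τ Λ M σ + 2 * |err H V φ h τ| := by
  have hHH := G_idem_apply hH
  have hw := ker_ww (τ := τ) hφ hHH
  have hψ := vert_th (h := h) hH
  have h1 := ptov_fv hV (G_idem hH) hw hψ
  have h2 := flux_int_le (φ := φ) hV hH hφ.smooth.continuous hφ.nonneg_lip hτ hh hM0 hσ0 hM hσ
  have iC := integrable_cont hV (continuous_Rcut hw hψ)
  have iB := integrable_cont hV (continuous_Rcub hw hψ)
  have hgc : Continuous (gg H h Λ τ) := by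
    have hsc : Continuous fun z : Euc k × L k => √(tilt H z.2) := (continuous_tilt_snd H).sqrt
    exact continuous_const.mul ((continuous_const.mul (hsc.comp continuous_fst)).add
      (continuous_const.mul ((hsc.comp continuous_fst).mul
        ((continuous_tilt_snd H).comp continuous_snd))))
  have iG : Integrable ((NN H τ φ).indicator (gg H h Λ τ)) (V.prod V) :=
    (integrable_cont hV hgc).indicator (isOpen_near hφ.smooth.continuous).measurableSet
  have h3 : ∫ q, (|Rcut H (ww H τ φ) (th H h) q| + |Rcub H (ww H τ φ) (th H h) q|) ∂(V.prod V)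
      ≤ ∫ q, (NN H τ φ).indicator (gg H h Λ τ) q ∂(V.prod V) := by
    refine integral_mono_ae (iC.abs.add iB.abs) iG ?_
    have hc1 : ∀ᵐ q ∂(V.prod V), q.1.2 ∈ G m k :=
      Measure.quasiMeasurePreserving_fst.ae hV.conc
    have hc2 : ∀ᵐ q ∂(V.prod V), q.2.2 ∈ G m k :=
      Measure.quasiMeasurePreserving_snd.ae hV.conc
    filter_upwards [hc1, hc2] with q g1 g2
    refine (flux_le hφ hH hτ hh g1 g2).trans (le_of_eq ?_)
    by_cases hz : near H τ φ q.1.1 q.2.1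
    · rw [Set.indicator_of_mem (show q ∈ NN H τ φ from hz), if_pos hz, gg]
    · rw [Set.indicator_of_notMem (show q ∉ NN H τ φ from hz), if_neg hz]
  rw [integral_add iC.abs iB.abs] at h3
  have h4 : |∫ q, Rcut H (ww H τ φ) (th H h) q ∂(V.prod V)|
      ≤ ∫ q, |Rcut H (ww H τ φ) (th H h) q| ∂(V.prod V) := abs_integral_le_integral_abs
  have h5 : |∫ q, Rcub H (ww H τ φ) (th H h) q ∂(V.prod V)|
      ≤ ∫ q, |Rcub H (ww H τ φ) (th H h) q| ∂(V.prod V) := abs_integral_le_integral_abs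
  have h6 : h * τ ^ m * (3 * Λ * M * √((∫ z in S0 φ, tilt H z.2 ∂V) * V.real (S0 φ))
        + 4 / τ * (σ * √M * ∫ z in S0 φ, tilt H z.2 ∂V)) = τ ^ m * rhs H V φ h τ Λ M σ := by
    unfold rhs; ring
  rw [h6] at h2
  have h7 := neg_abs_le (∫ q, Rcut H (ww H τ φ) (th H h) q ∂(V.prod V))
  have h8 := le_abs_self (∫ q, Rcub H (ww H τ φ) (th H h) q ∂(V.prod V))
  have h9 := le_abs_self (err H V φ h τ)
  unfold err at h9 ⊢
  linarith

/-- **The energy inequality**, stationary `V`. -/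
theorem energy [IsFiniteMeasure V] (hV : HStat m H K V) (hH : H ∈ G m k) (hφ : Cut H K Λ φ)
    (hτ : 0 < τ) (hh : 0 < h) (hM0 : 0 < M) (hσ0 : 0 < σ)
    (hM : ∀ᵐ z ∂V, V.real (nb H τ φ z.1) ≤ M * τ ^ m)
    (hσ : ∀ᵐ z ∂V, ∫ z' in nb H τ φ z.1, tilt H z'.2 ∂V ≤ σ ^ 2 * τ ^ m) :
    ∫ q, Lhs H (ww H τ φ) (th H h) q ∂(V.prod V) ≤ 2 * τ ^ m * rhs H V φ h τ Λ M σ := by
  have h1 := energy_fv hV.toHBase hH hφ hτ hh hM0 hσ0 hM hσ
  have hHH := G_idem_apply hH
  have hw := ker_ww (τ := τ) hφ hHH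
  have hψ := vert_th (h := h) hH
  have h2 : err H V φ h τ = 0 := by
    unfold err
    have h3 : ∀ z', FV V (Xf (ww H τ φ) (th H h) z') = 0 := fun z' =>
      hV.stat _ (contDiff_Xf hw hψ z') (Xf_supp hw z')
    have h4 : ∀ z, FV V (Yf H (ww H τ φ) (th H h) z) = 0 := fun z =>
      hV.stat _ (contDiff_Yf hw hψ z) (Yf_supp hw z)
    simp only [h3, h4, integral_zero, add_zero]
  rw [h2, abs_zero, mul_zero, add_zero] at h1
  exact h1

/-- a pair of points seen by the truncation: both in `{φ = 1}`, horizontally `τ/2`-close,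
vertically `h`-close. -/
def close (H : L k) (h τ : ℝ) (φ : Euc k → ℝ) (x y : Euc k) : Prop :=
  φ x = 1 ∧ φ y = 1 ∧ ‖H (x - y)‖ ≤ τ / 2 ∧ ‖(x - y) - H (x - y)‖ ≤ h

/-- lower bound of the left side by any nonnegative function `f` of the first point which is
`≤ |q(S-S')p|² + |qSq|² + |qS'q|²` on a set `P` of close pairs. -/
theorem lower_gen [IsFiniteMeasure V] (hV : HBase m V) (hH : H ∈ G m k) (hφ : Cut H K Λ φ)
    (hτ : 0 < τ) (hh : 0 < h) {P : Set ((Euc k × L k) × (Euc k × L k))} (hP : MeasurableSet P)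
    {A : Set (Euc k × L k)} (hA : MeasurableSet A) {f : Euc k × L k → ℝ} (hf : Continuous f)
    (hf0 : ∀ᵐ z ∂V, 0 ≤ f z)
    (hPc : ∀ q ∈ P, q.1.2 ∈ G m k → q.2.2 ∈ G m k → close H h τ φ q.1.1 q.2.1 ∧
      f q.1 ≤ mx H q.1.2 q.2.2 + vv H q.1.2 + vv H q.2.2)
    (hc : ∀ᵐ z ∂V, z ∈ A → c * τ ^ m ≤ V.real {z' | (z, z') ∈ P}) :
    3 / 16 * (c * τ ^ m) * ∫ z in A, f z ∂V
      ≤ ∫ q, Lhs H (ww H τ φ) (th H h) q ∂(V.prod V) := by
  have hHH := G_idem_apply hH
  have hw := ker_ww (τ := τ) hφ hHH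
  have hψ := vert_th (h := h) hH
  have iL := integrable_cont hV (continuous_Lhs hw hψ)
  have iP : Integrable (P.indicator fun q : (Euc k × L k) × (Euc k × L k) => 3 / 16 * f q.1)
      (V.prod V) :=
    (integrable_cont hV (continuous_const.mul (hf.comp continuous_fst))).indicator hP
  have hc1 : ∀ᵐ q ∂(V.prod V), q.1.2 ∈ G m k :=
    Measure.quasiMeasurePreserving_fst.ae hV.conc
  have hc2 : ∀ᵐ q ∂(V.prod V), q.2.2 ∈ G m k :=
    Measure.quasiMeasurePreserving_snd.ae hV.conc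
  have h1 : ∫ q, P.indicator (fun q : (Euc k × L k) × (Euc k × L k) => 3 / 16 * f q.1) q
      ∂(V.prod V) ≤ ∫ q, Lhs H (ww H τ φ) (th H h) q ∂(V.prod V) := by
    refine integral_mono_ae iP iL ?_
    filter_upwards [hc1, hc2] with q g1 g2
    refine le_trans ?_ (le_Lhs hφ hH hτ hh g1 g2)
    by_cases hq : q ∈ P
    · obtain ⟨h3, h4⟩ := hPc q hq g1 g2
      rw [Set.indicator_of_mem hq, if_pos (show φ q.1.1 = 1 ∧ φ q.2.1 = 1 ∧
        ‖H (q.1.1 - q.2.1)‖ ≤ τ / 2 ∧ ‖(q.1.1 - q.2.1) - H (q.1.1 - q.2.1)‖ ≤ h from h3)]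
      linarith
    · rw [Set.indicator_of_notMem hq]
      split_ifs
      · have := mx_nonneg H q.1.2 q.2.2
        have := vv_nonneg H q.1.2
        have := vv_nonneg H q.2.2
        positivity
      · exact le_rfl
  refine le_trans ?_ h1
  rw [integral_prod _ iP]
  have h2 : ∀ z, ∫ z', P.indicator (fun q : (Euc k × L k) × (Euc k × L k) => 3 / 16 * f q.1)
      (z, z') ∂V = V.real {z' | (z, z') ∈ P} * (3 / 16 * f z) := by
    intro z
    have h3 : ∀ z', P.indicator (fun q : (Euc k × L k) × (Euc k × L k) => 3 / 16 * f q.1) (z, z')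
        = {z' | (z, z') ∈ P}.indicator (fun _ => 3 / 16 * f z) z' := fun z' => rfl
    simp_rw [h3]
    have h5 : MeasurableSet {z' | (z, z') ∈ P} := measurable_prodMk_left hP
    rw [integral_indicator h5, setIntegral_const, smul_eq_mul]
  have iR : Integrable (fun z => V.real {z' | (z, z') ∈ P} * (3 / 16 * f z)) V :=
    iP.integral_prod_left.congr (Filter.Eventually.of_forall fun z => h2 z)
  have fi : Integrable f V := integrable_one hV hf
  have h4 : 3 / 16 * (c * τ ^ m) * ∫ z in A, f z ∂V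
      = ∫ z, A.indicator (fun z => 3 / 16 * (c * τ ^ m) * f z) z ∂V := by
    rw [integral_indicator hA, integral_const_mul]
  rw [h4]
  have h5 : ∫ z, (∫ z', P.indicator (fun q : (Euc k × L k) × (Euc k × L k) => 3 / 16 * f q.1)
      (z, z') ∂V) ∂V = ∫ z, V.real {z' | (z, z') ∈ P} * (3 / 16 * f z) ∂V :=
    integral_congr_ae (Filter.Eventually.of_forall fun z => h2 z)
  rw [h5]
  refine integral_mono_ae ((fi.const_mul _).indicator hA) iR ?_
  filter_upwards [hc, hf0] with z g1 g2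
  by_cases hz : z ∈ A
  · rw [Set.indicator_of_mem hz]
    have := mul_le_mul_of_nonneg_right (g1 hz) (mul_nonneg (by norm_num : (0 : ℝ) ≤ 3 / 16) g2)
    linarith
  · rw [Set.indicator_of_notMem hz]
    exact mul_nonneg measureReal_nonneg (mul_nonneg (by norm_num) g2)

theorem measurableSet_close (hφ : Continuous φ) :
    MeasurableSet {q : (Euc k × L k) × (Euc k × L k) | close H h τ φ q.1.1 q.2.1} := by
  have h1 : IsClosed {q : (Euc k × L k) × (Euc k × L k) | φ q.1.1 = 1} :=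
    isClosed_eq (hφ.comp (by fun_prop)) continuous_const
  have h2 : IsClosed {q : (Euc k × L k) × (Euc k × L k) | φ q.2.1 = 1} :=
    isClosed_eq (hφ.comp (by fun_prop)) continuous_const
  have h3 : IsClosed {q : (Euc k × L k) × (Euc k × L k) | ‖H (q.1.1 - q.2.1)‖ ≤ τ / 2} :=
    isClosed_le (by fun_prop) continuous_const
  have h4 : IsClosed {q : (Euc k × L k) × (Euc k × L k) |
      ‖(q.1.1 - q.2.1) - H (q.1.1 - q.2.1)‖ ≤ h} := isClosed_le (by fun_prop) continuous_const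
  exact (h1.inter (h2.inter (h3.inter h4))).measurableSet

theorem div_aux {a b c t : ℝ} (hc : 0 < c) (ht : 0 < t) (h : 3 / 16 * (c * t) * a ≤ 2 * t * b) :
    a ≤ 32 / 3 / c * b := by
  have h1 : (3 / 16 * c * a) * t ≤ (2 * b) * t := by linarith
  have h2 := le_of_mul_le_mul_right h1 ht
  have h3 : 32 / 3 / c * b = (2 * b) * (16 / 3 / c) := by ring
  have h4 : a = (3 / 16 * c * a) * (16 / 3 / c) := by field_simp
  rw [h3, h4]
  exact mul_le_mul_of_nonneg_right h2 (by positivity)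

/-- **(DV), first form.** The energy `|q S q|²` of the `(h, τ)`-small points. -/
theorem small_vv [IsFiniteMeasure V] (hV : HStat m H K V) (hH : H ∈ G m k) (hφ : Cut H K Λ φ)
    (hτ : 0 < τ) (hh : 0 < h) (hM0 : 0 < M) (hσ0 : 0 < σ) (hc0 : 0 < c)
    (hM : ∀ᵐ z ∂V, V.real (nb H τ φ z.1) ≤ M * τ ^ m)
    (hσ : ∀ᵐ z ∂V, ∫ z' in nb H τ φ z.1, tilt H z'.2 ∂V ≤ σ ^ 2 * τ ^ m)
    {A : Set (Euc k × L k)} (hA : MeasurableSet A)
    (hc : ∀ᵐ z ∂V, z ∈ A → c * τ ^ m ≤ V.real {z' | close H h τ φ z.1 z'.1}) :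
    ∫ z in A, vv H z.2 ∂V ≤ 32 / 3 / c * rhs H V φ h τ Λ M σ := by
  have h1 := lower_gen hV.toHBase hH hφ hτ hh
    (measurableSet_close (H := H) (h := h) (τ := τ) hφ.smooth.continuous) hA
    (f := fun z => vv H z.2) ((continuous_vv H).comp continuous_snd)
    (Filter.Eventually.of_forall fun z => vv_nonneg _ _)
    (fun q hq g1 g2 => ⟨hq, by
      have := mx_nonneg H q.1.2 q.2.2
      have := vv_nonneg H q.2.2
      linarith⟩) hc
  exact div_aux hc0 (pow_pos hτ m) (h1.trans (energy hV hH hφ hτ hh hM0 hσ0 hM hσ))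

/-- **(DV), second form.** The tilt energy of the points which are close to many flatter
points. -/
theorem small_tilt [IsFiniteMeasure V] (hV : HStat m H K V) (hH : H ∈ G m k)
    (hφ : Cut H K Λ φ)
    (hτ : 0 < τ) (hh : 0 < h) (hM0 : 0 < M) (hσ0 : 0 < σ) (hc0 : 0 < c)
    (hM : ∀ᵐ z ∂V, V.real (nb H τ φ z.1) ≤ M * τ ^ m)
    (hσ : ∀ᵐ z ∂V, ∫ z' in nb H τ φ z.1, tilt H z'.2 ∂V ≤ σ ^ 2 * τ ^ m)
    {A : Set (Euc k × L k)} (hA : MeasurableSet A)
    (hc : ∀ᵐ z ∂V, z ∈ A → c * τ ^ m ≤ V.real {z' | close H h τ φ z.1 z'.1 ∧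
      tilt H z'.2 ≤ tilt H z.2 / 4}) :
    ∫ z in A, tilt H z.2 ∂V ≤ 128 / 3 / c * rhs H V φ h τ Λ M σ := by
  have hPm : MeasurableSet {q : (Euc k × L k) × (Euc k × L k) | close H h τ φ q.1.1 q.2.1 ∧
      tilt H q.2.2 ≤ tilt H q.1.2 / 4} := by
    refine (measurableSet_close (H := H) (h := h) (τ := τ) hφ.smooth.continuous).inter ?_
    exact (isClosed_le ((continuous_tilt_snd H).comp continuous_snd)
      (((continuous_tilt_snd H).comp continuous_fst).div_const 4)).measurableSet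
  have h1 := lower_gen hV.toHBase hH hφ hτ hh hPm hA
    (f := fun z => tilt H z.2 / 4) ((continuous_tilt_snd H).div_const 4)
    (by
      filter_upwards [hV.conc] with z hz
      exact div_nonneg (tilt_nonneg hH hz) (by norm_num))
    (fun q hq g1 g2 => ⟨hq.1, by
      have h2 := mx_add_vv_ge hH g1 g2
      have h3 := vv_nonneg H q.2.2
      have h4 := hq.2
      have h5 : tilt H q.1.2 / 4 ≤ tilt H q.1.2 / 2 - tilt H q.2.2 := by linarith
      linarith⟩) hc
  have h2 := div_aux hc0 (pow_pos hτ m) (h1.trans (energy hV hH hφ hτ hh hM0 hσ0 hM hσ))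
  rw [integral_div] at h2
  have h3 : 128 / 3 / c * rhs H V φ h τ Λ M σ = 4 * (32 / 3 / c * rhs H V φ h τ Λ M σ) := by ring
  rw [h3]
  linarith

end Crest.Agent.R234.Pair5_762
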