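import Crest.Agent.R234.Pair6_762
import Crest.Agent.R234.AS_456

/-!
Row 234 (helper762), VF-DVAS, file 1: error densities of horizontal and vertical fields in the
class `AS`, derivative bounds of the two-point fields, the averaged vertical field.
-/

set_option autoImplicit false

open MeasureTheory Crest.GeometryTopology.Submanifold Filter Topology Set
open scoped ENNReal InnerProductSpace

noncomputable section

namespace Crest.Agent.R234.Pas_762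

open Crest.Agent.R234.Vf_884 Crest.Agent.R234.In_947
  Crest.Agent.R234.Pair2_762 Crest.Agent.R234.Pair3_762 Crest.Agent.R234.Pair4_762
  Crest.Agent.R234.Pair5_762 Crest.Agent.R234.Pair6_762 Crest.Agent.R234.Ar_870
open Crest.Agent.R234.Cy_870 (Split CylStat Shh)

variable {m n k : ℕ} {π : Euc k →L[ℝ] Euc m} {κ : Euc k →L[ℝ] Euc n}

/-! ### error densities -/

/-- `a = √τ`. -/
def af (π : Euc k →L[ℝ] Euc m) (p : Euc k × L k) : ℝ := √(tl π p.2)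

/-- `|y|`. -/
def yf (π : Euc k →L[ℝ] Euc m) (p : Euc k × L k) : ℝ := ‖AS_456.vp π p.1‖

/-- `s = √τ + |y|`. -/
def sf (π : Euc k →L[ℝ] Euc m) (p : Euc k × L k) : ℝ := √(tl π p.2) + ‖AS_456.vp π p.1‖

theorem sf_nonneg (p : Euc k × L k) : 0 ≤ sf π p := by unfold sf; positivity

theorem continuous_sf (π : Euc k →L[ℝ] Euc m) : Continuous (sf π) := by
  unfold sf
  exact (((measurable_tl π).comp continuous_snd).sqrt).add
    (((AS_456.vp π).continuous.comp continuous_fst).norm)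

theorem af_nonneg (p : Euc k × L k) : 0 ≤ af π p := Real.sqrt_nonneg _

theorem yf_nonneg (p : Euc k × L k) : 0 ≤ yf π p := norm_nonneg _

theorem sf_eq (p : Euc k × L k) : sf π p = af π p + yf π p := rfl

theorem continuous_af (π : Euc k →L[ℝ] Euc m) : Continuous (af (k := k) π) :=
  ((measurable_tl π).comp continuous_snd).sqrt

theorem continuous_yf (π : Euc k →L[ℝ] Euc m) : Continuous (yf (k := k) π) :=
  ((AS_456.vp π).continuous.comp continuous_fst).norm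

theorem hp_eq : AS_456.hp π = hp π := rfl

theorem vp_apply (z : Euc k) : AS_456.vp π z = z - hp π z := rfl

theorem hp_hp (hs : Split π κ) (v : Euc k) : hp π (hp π v) = hp π v :=
  G_idem_apply (hp_mem_G hs) v

theorem norm_hp_le (hs : Split π κ) (v : Euc k) : ‖hp π v‖ ≤ ‖v‖ :=
  G_norm_apply_le (hp_mem_G hs) v

theorem norm_vp_le (hs : Split π κ) (v : Euc k) : ‖AS_456.vp π v‖ ≤ ‖v‖ := by
  rw [vp_apply]
  have h1 := G_norm_sq_add (hp_mem_G hs) v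
  have h2 : ‖v - hp π v‖ ^ 2 ≤ ‖v‖ ^ 2 := by nlinarith [sq_nonneg ‖hp π v‖]
  exact (sq_le_sq₀ (norm_nonneg _) (norm_nonneg _)).1 h2

theorem hp_vp (hs : Split π κ) (v : Euc k) : hp π (AS_456.vp π v) = 0 := by
  rw [vp_apply, map_sub, hp_hp hs, sub_self]

theorem vp_hp (hs : Split π κ) (v : Euc k) : AS_456.vp π (hp π v) = 0 := by
  rw [vp_apply, hp_hp hs, sub_self]

/-- horizontal fields. -/
theorem errA_hor' (hs : Split π κ) {δ : ℝ} (h0 : 0 ≤ δ) {z : Euc k} {P A : L k} {v : Euc k}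
    (hA : ∀ w, hp π (A w) = A w) (hv : hp π v = v) {a b c : ℝ} (ha : ‖A ∘L hp π‖ ≤ a)
    (hb : ‖v‖ ≤ b) (hc : ‖A ∘L AS_456.vp π‖ ≤ c) (hP : P ∈ G m k) :
    AS_456.errA π δ z P A v ≤ δ * (tl π P + ‖AS_456.vp π z‖ ^ 2) * (a + b)
      + δ * (√(tl π P) + ‖AS_456.vp π z‖) * c := by
  have e1 : AS_456.hp π ∘L A ∘L AS_456.hp π = A ∘L hp π := by
    ext1 w; exact hA _
  have e2 : AS_456.hp π ∘L A ∘L AS_456.vp π = A ∘L AS_456.vp π := by
    ext1 w; exact hA _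
  have e3 : ∀ B : L k, AS_456.vp π ∘L A ∘L B = 0 := by
    intro B
    ext1 w
    show AS_456.vp π (A (B w)) = 0
    rw [← hA, vp_hp hs]
  have e4 : AS_456.vp π v = 0 := by rw [← hv, vp_hp hs]
  have e5 : AS_456.hp π v = v := hv
  have ht := tl_nonneg hs.hh (isPr_of_G hP)
  unfold AS_456.errA
  rw [e1, e2, e3, e3, e4, e5]
  have h1 : δ * (tl π P + ‖AS_456.vp π z‖ ^ 2) * (‖A ∘L hp π‖ + ‖v‖)
      ≤ δ * (tl π P + ‖AS_456.vp π z‖ ^ 2) * (a + b) := by gcongr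
  have h2 : δ * (√(tl π P) + ‖AS_456.vp π z‖) * ‖A ∘L AS_456.vp π‖
      ≤ δ * (√(tl π P) + ‖AS_456.vp π z‖) * c := by gcongr
  simp only [norm_zero, add_zero, mul_zero]
  linarith

/-- vertical fields. -/
theorem errA_ver' (hs : Split π κ) {δ : ℝ} (h0 : 0 ≤ δ) {z : Euc k} {P A : L k} {v : Euc k}
    (hA : ∀ w, hp π (A w) = 0) (hv : hp π v = 0) {a b c : ℝ}
    (ha : ‖A ∘L hp π‖ ≤ a) (hb : ‖v‖ ≤ b) (hc : ‖A ∘L AS_456.vp π‖ ≤ c) (hP : P ∈ G m k) :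
    AS_456.errA π δ z P A v ≤ δ * (√(tl π P) + ‖AS_456.vp π z‖) * (a + b)
      + δ * (tl π P + ‖AS_456.vp π z‖ * √(tl π P)) * c + √δ * tl π P * b := by
  have e1 : ∀ B : L k, AS_456.hp π ∘L A ∘L B = 0 := by
    intro B; ext1 w; exact hA _
  have hvA : ∀ w, AS_456.vp π (A w) = A w := fun w => by
    rw [vp_apply, hA, sub_zero]
  have e3 : ∀ B : L k, AS_456.vp π ∘L A ∘L B = A ∘L B := by
    intro B; ext1 w; exact hvA _
  have e4 : AS_456.vp π v = v := by rw [vp_apply, hv, sub_zero]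
  have e5 : AS_456.hp π v = 0 := hv
  have ht := tl_nonneg hs.hh (isPr_of_G hP)
  have hd := Real.sqrt_nonneg δ
  unfold AS_456.errA
  rw [e1, e1, e3, e3, e4, e5]
  have h1 : δ * (√(tl π P) + ‖AS_456.vp π z‖) * (‖A ∘L hp π‖ + ‖v‖)
      ≤ δ * (√(tl π P) + ‖AS_456.vp π z‖) * (a + b) := by gcongr
  have h2 : δ * (tl π P + ‖AS_456.vp π z‖ * √(tl π P)) * ‖A ∘L AS_456.vp π‖
      ≤ δ * (tl π P + ‖AS_456.vp π z‖ * √(tl π P)) * c := by gcongr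
  have h3 : √δ * tl π P * ‖v‖ ≤ √δ * tl π P * b := by gcongr
  simp only [norm_zero, add_zero, mul_zero, zero_add]
  have e6 : AS_456.hp π = hp π := rfl
  rw [e6]
  linarith

/-! ### derivative bounds -/

theorem norm_Dth_apply_le {j : ℕ} {p : L k} (hp' : p ∈ G j k) {h : ℝ} (hh : 0 < h)
    (x v : Euc k) : ‖Dth p h x v‖ ≤ 2 * ‖v‖ := by
  have hu := uu_pos p h x
  have hs : 0 < √(uu p h x) := Real.sqrt_pos.2 hu
  have h1 : 1 ≤ √(uu p h x) := by rw [Real.one_le_sqrt]; exact one_le_uu p h x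
  have hq : ∀ w : Euc k, ‖w - p w‖ ≤ ‖w‖ := fun w => by
    have h1 := G_norm_sq_add hp' w
    have h2 : ‖w - p w‖ ^ 2 ≤ ‖w‖ ^ 2 := by nlinarith [sq_nonneg ‖p w‖]
    exact (sq_le_sq₀ (norm_nonneg _) (norm_nonneg _)).1 h2
  have e2 : Dth p h x v = (√(uu p h x))⁻¹ • (v - p v)
      - ((h ^ 2 * (uu p h x * √(uu p h x)))⁻¹ * ⟪x - p x, v - p v⟫_ℝ) • (x - p x) := rfl
  rw [e2]
  refine (norm_sub_le _ _).trans ?_
  rw [norm_smul, norm_smul, norm_inv, Real.norm_eq_abs, abs_of_pos hs, Real.norm_eq_abs, abs_mul,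
    abs_of_nonneg (by positivity : 0 ≤ (h ^ 2 * (uu p h x * √(uu p h x)))⁻¹)]
  have h2 : (√(uu p h x))⁻¹ * ‖v - p v‖ ≤ ‖v‖ := by
    have : (√(uu p h x))⁻¹ ≤ 1 := inv_le_one_of_one_le₀ h1
    calc (√(uu p h x))⁻¹ * ‖v - p v‖ ≤ 1 * ‖v‖ :=
          mul_le_mul this (hq v) (norm_nonneg _) zero_le_one
      _ = ‖v‖ := one_mul _
  have h3 : (h ^ 2 * (uu p h x * √(uu p h x)))⁻¹ * |⟪x - p x, v - p v⟫_ℝ| * ‖x - p x‖
      ≤ ‖v‖ := by
    have h4 : |⟪x - p x, v - p v⟫_ℝ| ≤ ‖x - p x‖ * ‖v‖ :=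
      (abs_real_inner_le_norm _ _).trans (mul_le_mul_of_nonneg_left (hq v) (norm_nonneg _))
    have h5 : ‖x - p x‖ * ‖x - p x‖ ≤ h ^ 2 * uu p h x := by
      have : h ^ 2 * uu p h x = h ^ 2 + ‖x - p x‖ ^ 2 := by
        unfold uu; field_simp
      rw [this]; nlinarith [sq_nonneg h]
    calc (h ^ 2 * (uu p h x * √(uu p h x)))⁻¹ * |⟪x - p x, v - p v⟫_ℝ| * ‖x - p x‖
        ≤ (h ^ 2 * (uu p h x * √(uu p h x)))⁻¹ * (‖x - p x‖ * ‖v‖) * ‖x - p x‖ := by gcongr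
      _ = (h ^ 2 * (uu p h x * √(uu p h x)))⁻¹ * (‖x - p x‖ * ‖x - p x‖) * ‖v‖ := by ring
      _ ≤ (h ^ 2 * (uu p h x * √(uu p h x)))⁻¹ * (h ^ 2 * uu p h x) * ‖v‖ := by gcongr
      _ = (√(uu p h x))⁻¹ * ‖v‖ := by field_simp
      _ ≤ 1 * ‖v‖ := by gcongr; exact inv_le_one_of_one_le₀ h1
      _ = ‖v‖ := one_mul _
  linarith

theorem Dth_hor {j : ℕ} {p : L k} (hp' : p ∈ G j k) (h : ℝ) (x v : Euc k) :
    Dth p h x (p v) = 0 := by
  have e2 : Dth p h x (p v) = (√(uu p h x))⁻¹ • (p v - p (p v))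
      - ((h ^ 2 * (uu p h x * √(uu p h x)))⁻¹ * ⟪x - p x, p v - p (p v)⟫_ℝ) • (x - p x) := rfl
  rw [e2, G_idem_apply hp', sub_self, smul_zero, inner_zero_right, mul_zero, zero_smul, sub_zero]

theorem p_Dth {j : ℕ} {p : L k} (hp' : p ∈ G j k) (h : ℝ) (x v : Euc k) :
    p (Dth p h x v) = 0 := by
  have e2 : Dth p h x v = (√(uu p h x))⁻¹ • (v - p v)
      - ((h ^ 2 * (uu p h x * √(uu p h x)))⁻¹ * ⟪x - p x, v - p v⟫_ℝ) • (x - p x) := rfl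
  rw [e2, map_sub, map_smul, map_smul, map_sub, map_sub, G_idem_apply hp', G_idem_apply hp',
    sub_self, sub_self, smul_zero, smul_zero, sub_zero]

section

variable {H : L k} {K : Set (Euc k)} {Λ τ h : ℝ} {φ : Euc k → ℝ}

theorem ww_le_one (hφ : Cut H K Λ φ) (x y : Euc k) : ww H τ φ x y ≤ 1 := by
  unfold ww
  exact mul_le_one₀ (mul_le_one₀ (hφ.le_one x) (hφ.nonneg y) (hφ.le_one y))
    (kap_nonneg H τ _) (kap_le_one H τ _)

theorem ww_nonneg (hφ : Cut H K Λ φ) (x y : Euc k) : 0 ≤ ww H τ φ x y :=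
  mul_nonneg (mul_nonneg (hφ.nonneg x) (hφ.nonneg y)) (kap_nonneg H τ _)

theorem not_near {x y : Euc k} (h : ¬ near H τ φ x y) :
    (φ x = 0 ∨ φ y = 0) ∨ τ ≤ ‖H (x - y)‖ := by
  unfold near at h
  by_contra hcon
  push Not at hcon
  exact h ⟨hcon.1.1, hcon.1.2, hcon.2⟩

theorem ww_eq_zero (hτ : 0 < τ) {x y : Euc k} (h : ¬ near H τ φ x y) : ww H τ φ x y = 0 := by
  unfold ww
  rcases not_near h with (h | h) | h
  · rw [h]; ring
  · rw [h]; ring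
  · rw [kap_eq_zero hτ h]; ring

theorem D2_eq_zero (hφ : Cut H K Λ φ) (hH : ∀ x, H (H x) = H x) (hτ : 0 < τ) {x y : Euc k}
    (h : ¬ near H τ φ x y) : Pt_615.D2 (ww H τ φ) x y = 0 := by
  rw [D2_ww hφ hH]
  rcases not_near h with (h | h) | h
  · rw [h]; simp
  · rw [h, hφ.fderiv_eq_zero h]; simp
  · rw [kap_eq_zero hτ h, Dkap_eq_zero hτ h]; simp

theorem D1_eq_zero (hφ : Cut H K Λ φ) (hH : ∀ x, H (H x) = H x) (hτ : 0 < τ) {x y : Euc k}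
    (h : ¬ near H τ φ x y) : Pt_615.D1 (ww H τ φ) x y = 0 := by
  rw [D1_ww hφ hH]
  rcases not_near h with (h | h) | h
  · rw [h, hφ.fderiv_eq_zero h]; simp
  · rw [h]; simp
  · rw [kap_eq_zero hτ h, Dkap_eq_zero hτ h]; simp

theorem abs_D2_le (hφ : Cut H K Λ φ) (hH : ∀ x, H (H x) = H x) (hH1 : ∀ x, ‖H x‖ ≤ ‖x‖)
    (hτ : 0 < τ) (x y v : Euc k) : |Pt_615.D2 (ww H τ φ) x y v| ≤ (Λ + 4 / τ) * ‖v‖ := by
  rw [D2_ww hφ hH]
  have e2 : ((φ x * kap H τ (x - y)) • fderiv ℝ φ y - (φ x * φ y) • Dkap H τ (x - y)) v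
      = φ x * kap H τ (x - y) * fderiv ℝ φ y v - φ x * φ y * Dkap H τ (x - y) v := by
    simp only [sub_apply, smul_apply, smul_eq_mul]
  rw [e2]
  refine (abs_sub _ _).trans ?_
  have hk0 := kap_nonneg H τ (x - y)
  have hk1 := kap_le_one H τ (x - y)
  have hb : ∀ c z : ℝ, 0 ≤ c → c ≤ 1 → |c * z| ≤ |z| := fun c z h0 h1 => by
    rw [abs_mul, abs_of_nonneg h0]
    exact mul_le_of_le_one_left (abs_nonneg _) h1
  have i1 := hb (φ x * kap H τ (x - y)) (fderiv ℝ φ y v) (mul_nonneg (hφ.nonneg x) hk0)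
    (mul_le_one₀ (hφ.le_one x) hk0 hk1)
  have i2 := hb (φ x * φ y) (Dkap H τ (x - y) v) (mul_nonneg (hφ.nonneg x) (hφ.nonneg y))
    (mul_le_one₀ (hφ.le_one x) (hφ.nonneg y) (hφ.le_one y))
  have i3 : |fderiv ℝ φ y v| ≤ Λ * ‖v‖ :=
    ((fderiv ℝ φ y).le_opNorm v).trans (mul_le_mul_of_nonneg_right (hφ.lip y) (norm_nonneg _))
  have i4 := abs_Dkap_le hτ hH1 (x - y) v
  rw [add_mul]
  linarith

theorem abs_D1_le (hφ : Cut H K Λ φ) (hH : ∀ x, H (H x) = H x) (hH1 : ∀ x, ‖H x‖ ≤ ‖x‖)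
    (hτ : 0 < τ) (x y v : Euc k) : |Pt_615.D1 (ww H τ φ) x y v| ≤ (Λ + 4 / τ) * ‖v‖ := by
  rw [← Pt_615.D2_eq (ker_ww (τ := τ) hφ hH)]
  exact abs_D2_le hφ hH hH1 hτ y x v

/-- `D₁ w + D₂ w` is only the cut-off part. -/
theorem abs_D1_add_D2_le (hφ : Cut H K Λ φ) (hH : ∀ x, H (H x) = H x)
    (x y v : Euc k) :
    |Pt_615.D1 (ww H τ φ) x y v + Pt_615.D2 (ww H τ φ) x y v| ≤ 2 * Λ * ‖v‖ := by
  rw [D1_ww hφ hH, D2_ww hφ hH]
  have e1 : ((φ y * kap H τ (x - y)) • fderiv ℝ φ x + (φ x * φ y) • Dkap H τ (x - y)) v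
      + ((φ x * kap H τ (x - y)) • fderiv ℝ φ y - (φ x * φ y) • Dkap H τ (x - y)) v
      = φ y * kap H τ (x - y) * fderiv ℝ φ x v + φ x * kap H τ (x - y) * fderiv ℝ φ y v := by
    simp only [add_apply, sub_apply, smul_apply, smul_eq_mul]
    ring
  rw [e1]
  refine (abs_add_le _ _).trans ?_
  have hk0 := kap_nonneg H τ (x - y)
  have hk1 := kap_le_one H τ (x - y)
  have hb : ∀ c z : ℝ, 0 ≤ c → c ≤ 1 → |c * z| ≤ |z| := fun c z h0 h1 => by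
    rw [abs_mul, abs_of_nonneg h0]
    exact mul_le_of_le_one_left (abs_nonneg _) h1
  have hd : ∀ z v : Euc k, |fderiv ℝ φ z v| ≤ Λ * ‖v‖ := fun z v =>
      ((fderiv ℝ φ z).le_opNorm v).trans (mul_le_mul_of_nonneg_right (hφ.lip z) (norm_nonneg _))
  have i1 := (hb _ (fderiv ℝ φ x v) (mul_nonneg (hφ.nonneg y) hk0)
    (mul_le_one₀ (hφ.le_one y) hk0 hk1)).trans (hd x v)
  have i2 := (hb _ (fderiv ℝ φ y v) (mul_nonneg (hφ.nonneg x) hk0)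
    (mul_le_one₀ (hφ.le_one x) hk0 hk1)).trans (hd y v)
  linarith

end

end Crest.Agent.R234.Pas_762
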