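import Crest.Agent.R234.Pas1_762

/-!
Row 234 (helper762), VF-DVAS, file 2: the horizontal two-point fields, the averaged vertical
field and its derivative.
-/

set_option autoImplicit false

open MeasureTheory Crest.GeometryTopology.Submanifold Filter Topology Set
open scoped ENNReal InnerProductSpace

noncomputable section

namespace Crest.Agent.R234.Pas_762

open Crest.Agent.R234.Vf_884 Crest.Agent.R234.In_947
  Crest.Agent.R234.Pair2_762 Crest.Agent.R234.Pair3_762 Crest.Agent.R234.Pair4_762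
  Crest.Agent.R234.Pair5_762 Crest.Agent.R234.Pair6_762 Crest.Agent.R234.Ar_870
open Crest.Agent.R234.Cy_870 (Split CylStat Shh)

variable {m n k : ℕ} {π : Euc k →L[ℝ] Euc m} {κ : Euc k →L[ℝ] Euc n}

/-- almost stationary measures over a cylinder. -/
structure CAS (W : Measure (Euc k × L k)) (π : Euc k →L[ℝ] Euc m) (κ : Euc k →L[ℝ] Euc n)
    (x₀ : Euc m) (R h₀ δ : ℝ) : Prop where
  cb : CylBase W π κ
  hgt : ∀ᵐ p ∂W, ‖κ p.1‖ ≤ h₀
  fv : ∀ X : Euc k → Euc k, ContDiff ℝ 1 X → (∀ p, R ≤ ‖π p - x₀‖ → X p = 0) →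
    |Pt_615.FV W X| ≤ ∫ p, AS_456.err π δ X p ∂W

/-! ### the horizontal two-point field -/

section hor

variable {K : Set (Euc k)} {Λ τ h : ℝ} {φ : Euc k → ℝ} {B : L k} {b : ℝ}

/-- `y ↦ w(z, y) B θ(z - y)`. -/
def YB (π : Euc k →L[ℝ] Euc m) (τ h : ℝ) (φ : Euc k → ℝ) (B : L k) (z y : Euc k) : Euc k :=
  ww (hp π) τ φ z y • B (th (hp π) h (z - y))

/-- its derivative. -/
def DYB (π : Euc k →L[ℝ] Euc m) (τ h : ℝ) (φ : Euc k → ℝ) (B : L k) (z y : Euc k) : L k :=
  ww (hp π) τ φ z y • (-(B ∘L Dth (hp π) h (z - y)))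
    + (Pt_615.D2 (ww (hp π) τ φ) z y).smulRight (B (th (hp π) h (z - y)))

theorem hasFDerivAt_YB (hs : Split π κ) (hφ : Cut (hp π) K Λ φ) (z y : Euc k) :
    HasFDerivAt (YB π τ h φ B z) (DYB π τ h φ B z y) y := by
  have h1 := Pt_615.hasFDerivAt_D2 (ker_ww (τ := τ) hφ (hp_hp hs)) z y
  have h2 : HasFDerivAt (fun y : Euc k => B (th (hp π) h (z - y)))
      (-(B ∘L Dth (hp π) h (z - y))) y := by
    have h3 := hasFDerivAt_th (hp π) h (z - y)
    have h4 : HasFDerivAt (fun y : Euc k => z - y) (-(ContinuousLinearMap.id ℝ (Euc k))) y :=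
      (hasFDerivAt_id y).const_sub z
    have h5 := B.hasFDerivAt.comp y (h3.comp y h4)
    refine h5.congr_fderiv ?_
    ext v; simp
  exact h1.smul h2

theorem contDiff_YB (hs : Split π κ) (hφ : Cut (hp π) K Λ φ) (z : Euc k) :
    ContDiff ℝ 1 (YB π τ h φ B z) := by
  have h1 : ContDiff ℝ 1 (fun y : Euc k => ww (hp π) τ φ z y) :=
    (ker_ww (τ := τ) hφ (hp_hp hs)).smooth.comp (contDiff_const.prodMk contDiff_id)
  exact h1.smul (B.contDiff.comp ((contDiff_th (hp π) h).comp (contDiff_const.sub contDiff_id)))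

theorem DYB_apply (z y v : Euc k) :
    DYB π τ h φ B z y v = -(ww (hp π) τ φ z y • B (Dth (hp π) h (z - y) v))
      + Pt_615.D2 (ww (hp π) τ φ) z y v • B (th (hp π) h (z - y)) := by
  simp [DYB]

/-- **error density of the horizontal two-point field.** -/
theorem err_YB_le (hs : Split π κ) (hφ : Cut (hp π) K Λ φ) (hτ : 0 < τ) (hh : 0 < h)
    {δ : ℝ} (h0 : 0 ≤ δ) (hB : ∀ w, hp π (B w) = B w) (hb0 : 0 ≤ b)
    (hb : ∀ v, hp π v = 0 → ‖B v‖ ≤ b * ‖v‖) (z : Euc k) {p : Euc k × L k}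
    (hP : p.2 ∈ G m k) :
    AS_456.err π δ (YB π τ h φ B z) p ≤ (nb (hp π) τ φ z).indicator
      (fun p => δ * b * ((h * (Λ + 4 / τ) + h) * sf π p ^ 2 + 2 * sf π p)) p := by
  have hΛ := hφ.nonneg_lip
  have hd : fderiv ℝ (YB π τ h φ B z) p.1 = DYB π τ h φ B z p.1 :=
    (hasFDerivAt_YB hs hφ z p.1).fderiv
  have hth : ‖B (th (hp π) h (z - p.1))‖ ≤ b * h :=
    (hb _ (p_th (hp_mem_G hs) _)).trans
      (mul_le_mul_of_nonneg_left (norm_th_le_h (hp π) hh _) hb0)
  by_cases hn : near (hp π) τ φ z p.1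
  · rw [Set.indicator_of_mem (show p ∈ nb (hp π) τ φ z from hn)]
    have hw1 := ww_le_one (τ := τ) hφ z p.1
    have hw0 := ww_nonneg (τ := τ) hφ z p.1
    have hA : ∀ w, hp π (DYB π τ h φ B z p.1 w) = DYB π τ h φ B z p.1 w := by
      intro w
      rw [DYB_apply, map_add, map_neg, map_smul, map_smul, hB, hB]
    have hv : hp π (YB π τ h φ B z p.1) = YB π τ h φ B z p.1 := by
      unfold YB; rw [map_smul, hB]
    have ha : ‖DYB π τ h φ B z p.1 ∘L hp π‖ ≤ (Λ + 4 / τ) * (b * h) := by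
      refine ContinuousLinearMap.opNorm_le_bound _ (by positivity) fun v => ?_
      rw [ContinuousLinearMap.comp_apply, DYB_apply, Dth_hor (hp_mem_G hs), map_zero, smul_zero,
        neg_zero, zero_add, norm_smul, Real.norm_eq_abs]
      calc |Pt_615.D2 (ww (hp π) τ φ) z p.1 (hp π v)| * ‖B (th (hp π) h (z - p.1))‖
          ≤ ((Λ + 4 / τ) * ‖hp π v‖) * (b * h) :=
            mul_le_mul (abs_D2_le hφ (hp_hp hs) (norm_hp_le hs) hτ _ _ _) hth
              (norm_nonneg _) (by positivity)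
        _ ≤ ((Λ + 4 / τ) * ‖v‖) * (b * h) := by gcongr; exact norm_hp_le hs v
        _ = _ := by ring
    have hbb : ‖YB π τ h φ B z p.1‖ ≤ b * h := by
      unfold YB
      rw [norm_smul, Real.norm_eq_abs, abs_of_nonneg hw0]
      calc ww (hp π) τ φ z p.1 * ‖B (th (hp π) h (z - p.1))‖ ≤ 1 * (b * h) :=
            mul_le_mul hw1 hth (norm_nonneg _) zero_le_one
        _ = _ := one_mul _
    have hc : ‖DYB π τ h φ B z p.1 ∘L AS_456.vp π‖ ≤ 2 * b := by
      refine ContinuousLinearMap.opNorm_le_bound _ (by positivity) fun v => ?_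
      rw [ContinuousLinearMap.comp_apply, DYB_apply]
      have e1 : Pt_615.D2 (ww (hp π) τ φ) z p.1 (AS_456.vp π v) = 0 := by
        rw [← Pt_615.D2_hor (ker_ww (τ := τ) hφ (hp_hp hs)) (G_idem (hp_mem_G hs)), hp_vp hs,
          map_zero]
      rw [e1, zero_smul, add_zero, norm_neg, norm_smul, Real.norm_eq_abs, abs_of_nonneg hw0]
      calc ww (hp π) τ φ z p.1 * ‖B (Dth (hp π) h (z - p.1) (AS_456.vp π v))‖
          ≤ 1 * (b * (2 * ‖v‖)) := by
            refine mul_le_mul hw1 ?_ (norm_nonneg _) zero_le_one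
            refine (hb _ (p_Dth (hp_mem_G hs) _ _ _)).trans ?_
            refine mul_le_mul_of_nonneg_left ?_ hb0
            refine (norm_Dth_apply_le (hp_mem_G hs) hh _ _).trans ?_
            exact mul_le_mul_of_nonneg_left (norm_vp_le hs v) (by norm_num)
        _ = 2 * b * ‖v‖ := by ring
    have h1 := errA_hor' hs h0 (z := p.1) hA hv ha hbb hc hP
    unfold AS_456.err
    rw [hd]
    refine h1.trans ?_
    have ht := tl_nonneg hs.hh (isPr_of_G hP)
    have e2 : tl π p.2 + ‖AS_456.vp π p.1‖ ^ 2 ≤ sf π p ^ 2 := by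
      unfold sf
      have := Real.sq_sqrt ht
      have := Real.sqrt_nonneg (tl π p.2)
      have := norm_nonneg (AS_456.vp π p.1)
      nlinarith [mul_nonneg (Real.sqrt_nonneg (tl π p.2)) (norm_nonneg (AS_456.vp π p.1))]
    have e3 : δ * (tl π p.2 + ‖AS_456.vp π p.1‖ ^ 2) * ((Λ + 4 / τ) * (b * h) + b * h)
        ≤ δ * sf π p ^ 2 * ((Λ + 4 / τ) * (b * h) + b * h) := by gcongr
    have e4 : δ * (√(tl π p.2) + ‖AS_456.vp π p.1‖) * (2 * b) = δ * sf π p * (2 * b) := rfl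
    rw [e4]
    refine (add_le_add e3 le_rfl).trans (le_of_eq ?_)
    ring
  · rw [Set.indicator_of_notMem (show p ∉ nb (hp π) τ φ z from hn)]
    have e1 : DYB π τ h φ B z p.1 = 0 := by
      unfold DYB
      rw [ww_eq_zero hτ hn, D2_eq_zero hφ (hp_hp hs) hτ hn]
      simp
    have e2 : YB π τ h φ B z p.1 = 0 := by
      unfold YB; rw [ww_eq_zero hτ hn, zero_smul]
    unfold AS_456.err
    rw [hd, e1, e2]
    simp [AS_456.errA]

theorem continuous_bd (c₁ c₂ : ℝ) : Continuous fun p : Euc k × L k =>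
    c₁ * sf π p ^ 2 + c₂ * sf π p :=
  ((continuous_const.mul ((continuous_sf π).pow 2)).add
    (continuous_const.mul (continuous_sf π)))

variable {W : Measure (Euc k × L k)} {x₀ x : Euc m} {R h₀ δ r : ℝ}

theorem YB_supp (hs : Split π κ) (hφ : Cut (hp π) {y | ‖π y - x₀‖ < R} Λ φ) (z y : Euc k)
    (hy : R ≤ ‖π y - x₀‖) : YB π τ h φ B z y = 0 := by
  unfold YB
  rw [Pt_615.supp' (ker_ww (τ := τ) hφ (hp_hp hs)), zero_smul]
  show ¬ ‖π (hp π y) - x₀‖ < R
  rw [pi_hp hs]; exact not_lt.2 hy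

/-- **first variation of the horizontal two-point field.** -/
theorem FV_YB_le [IsFiniteMeasure W] (hW : CAS W π κ x₀ R h₀ δ)
    (hφ : Cut (hp π) {y | ‖π y - x₀‖ < R} Λ φ) (hτ : 0 < τ) (hh : 0 < h)
    (h0 : 0 ≤ δ) (hB : ∀ w, hp π (B w) = B w) (hb0 : 0 ≤ b)
    (hb : ∀ v, hp π v = 0 → ‖B v‖ ≤ b * ‖v‖) (z : Euc k) :
    |Pt_615.FV W (YB π τ h φ B z)| ≤ b * ∫ p in nb (hp π) τ φ z,
      (δ * (h * (Λ + 4 / τ) + h) * sf π p ^ 2 + δ * 2 * sf π p) ∂W := by
  have hs := hW.cb.sp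
  refine (hW.fv _ (contDiff_YB hs hφ z) (YB_supp hs hφ z)).trans ?_
  have hm : MeasurableSet (nb (k := k) (hp π) τ φ z) :=
    (isOpen_nb hφ.smooth.continuous z).measurableSet
  have hi := integrable_one hW.cb.base
    (continuous_bd (π := π) (δ * (h * (Λ + 4 / τ) + h)) (δ * 2))
  rw [← integral_indicator hm, ← integral_const_mul]
  have hm2 : ∀ᵐ p ∂W, AS_456.err π δ (YB π τ h φ B z) p ≤ b * (nb (hp π) τ φ z).indicator
      (fun p => δ * (h * (Λ + 4 / τ) + h) * sf π p ^ 2 + δ * 2 * sf π p) p := by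
    filter_upwards [hW.cb.base.conc] with p hP
    refine (err_YB_le hs hφ hτ hh h0 hB hb0 hb z hP).trans (le_of_eq ?_)
    by_cases hn : p ∈ nb (hp π) τ φ z
    · rw [Set.indicator_of_mem hn, Set.indicator_of_mem hn]; ring
    · rw [Set.indicator_of_notMem hn, Set.indicator_of_notMem hn, mul_zero]
  refine integral_mono_of_nonneg ?_ ((hi.indicator hm).const_mul b) hm2
  filter_upwards [hW.cb.base.conc] with p hP
  have ht := tl_nonneg hs.hh (isPr_of_G hP)
  show 0 ≤ AS_456.err π δ (YB π τ h φ B z) p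
  unfold AS_456.err AS_456.errA
  positivity

/-- the first variation of the horizontal two-point field, computed. -/
theorem FV_YB_eq (hs : Split π κ) (hφ : Cut (hp π) K Λ φ) (z : Euc k) :
    Pt_615.FV W (YB π τ h φ B z) = ∫ p, (Pt_615.D2 (ww (hp π) τ φ) z p.1
        (p.2 (B (th (hp π) h (z - p.1))))
      - ww (hp π) τ φ z p.1 * tr ((B ∘L Dth (hp π) h (z - p.1)) ∘L p.2)) ∂W := by
  unfold Pt_615.FV
  refine integral_congr_ae (Filter.Eventually.of_forall fun p => ?_)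
  show tr ((fderiv ℝ (YB π τ h φ B z) p.1) ∘L p.2) = _
  rw [(hasFDerivAt_YB hs hφ z p.1).fderiv, DYB, ContinuousLinearMap.add_comp, map_add,
    tr_smulRight_comp]
  have h5 : (ww (hp π) τ φ z p.1 • (-(B ∘L Dth (hp π) h (z - p.1)))) ∘L p.2
      = -(ww (hp π) τ φ z p.1 • ((B ∘L Dth (hp π) h (z - p.1)) ∘L p.2)) := by
    ext v; simp
  rw [h5, map_neg, map_smul, smul_eq_mul]
  ring

end hor

end Crest.Agent.R234.Pas_762
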