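import Crest.Agent.R234.Pas2_762

/-!
Row 234 (helper762), VF-DVAS, file 3: the averaged vertical field
`XA z = ∫ w(z, z') θ(z - z') dW(z')`: derivative, bounds, error density.
-/

set_option autoImplicit false

open MeasureTheory Crest.GeometryTopology.Submanifold Filter Topology Set
open scoped ENNReal InnerProductSpace

noncomputable section

namespace Crest.Agent.R234.Pas_762

open Crest.Agent.R234.Vf_884 Crest.Agent.R234.In_947
  Crest.Agent.R234.Pair2_762 Crest.Agent.R234.Pair3_762 Crest.Agent.R234.Pair4_762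
  Crest.Agent.R234.Pair5_762 Crest.Agent.R234.Pair6_762 Crest.Agent.R234.Ar_870
open Crest.Agent.R234.Cy_870 (Split CylStat Shh)

variable {m n k : ℕ} {π : Euc k →L[ℝ] Euc m} {κ : Euc k →L[ℝ] Euc n}
  {K : Set (Euc k)} {Λ τ h : ℝ} {φ : Euc k → ℝ} {W : Measure (Euc k × L k)}

theorem integrable_oneE {E : Type*} [NormedAddCommGroup E] [IsFiniteMeasure W]
    (hV : Pt_615.HBase m W) {f : Euc k × L k → E}
    (hf : Continuous f) : Integrable f W := by
  obtain ⟨R, hR⟩ := hV.bdd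
  have hCc : IsCompact (Metric.closedBall (0 : Euc k) R ×ˢ G m k) :=
    (isCompact_closedBall _ _).prod (isCompact_G m k)
  obtain ⟨B, hB⟩ := hCc.exists_bound_of_continuousOn hf.continuousOn
  refine Integrable.of_bound (C := B) (hf.aestronglyMeasurable) ?_
  filter_upwards [hR, hV.conc] with p h1 h2
  exact hB p ⟨by simpa using h1, h2⟩

/-- the integrand. -/
def FX (π : Euc k →L[ℝ] Euc m) (τ h : ℝ) (φ : Euc k → ℝ) (z : Euc k) (p : Euc k × L k) : Euc k :=
  ww (hp π) τ φ z p.1 • th (hp π) h (z - p.1)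

/-- derivative of the integrand. -/
def DFX (π : Euc k →L[ℝ] Euc m) (τ h : ℝ) (φ : Euc k → ℝ) (z : Euc k) (p : Euc k × L k) : L k :=
  ww (hp π) τ φ z p.1 • Dth (hp π) h (z - p.1)
    + (Pt_615.D1 (ww (hp π) τ φ) z p.1).smulRight (th (hp π) h (z - p.1))

/-- the averaged field. -/
def XA (W : Measure (Euc k × L k)) (π : Euc k →L[ℝ] Euc m) (τ h : ℝ) (φ : Euc k → ℝ)
    (z : Euc k) : Euc k := ∫ p, FX π τ h φ z p ∂W

/-- its derivative. -/
def DXA (W : Measure (Euc k × L k)) (π : Euc k →L[ℝ] Euc m) (τ h : ℝ) (φ : Euc k → ℝ)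
    (z : Euc k) : L k := ∫ p, DFX π τ h φ z p ∂W

theorem continuous_Dth (p : L k) (h : ℝ) : Continuous (Dth p h) := by
  have : Dth p h = fderiv ℝ (th p h) := funext fun x => (fderiv_th p h x).symm
  rw [this]
  exact (contDiff_th p h).continuous_fderiv one_ne_zero

theorem hasFDerivAt_FX (hs : Split π κ) (hφ : Cut (hp π) K Λ φ) (z : Euc k)
    (p : Euc k × L k) : HasFDerivAt (fun z => FX π τ h φ z p) (DFX π τ h φ z p) z := by
  have h1 := Pt_615.hasFDerivAt_D1 (ker_ww (τ := τ) hφ (hp_hp hs)) z p.1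
  have h2 : HasFDerivAt (fun z : Euc k => th (hp π) h (z - p.1)) (Dth (hp π) h (z - p.1)) z := by
    have h4 : HasFDerivAt (fun z : Euc k => z - p.1) (ContinuousLinearMap.id ℝ (Euc k)) z :=
      (hasFDerivAt_id z).sub_const p.1
    have h5 := (hasFDerivAt_th (hp π) h (z - p.1)).comp z h4
    rwa [ContinuousLinearMap.comp_id] at h5
  exact h1.smul h2

theorem continuous_FX (hs : Split π κ) (hφ : Cut (hp π) K Λ φ) :
    Continuous (fun q : Euc k × (Euc k × L k) => FX π τ h φ q.1 q.2) := by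
  have hw : Continuous (fun q : Euc k × (Euc k × L k) => ww (hp π) τ φ q.1 q.2.1) :=
    (ker_ww (τ := τ) hφ (hp_hp hs)).smooth.continuous.comp (by fun_prop :
      Continuous fun q : Euc k × (Euc k × L k) => (q.1, q.2.1))
  exact hw.smul ((contDiff_th (hp π) h).continuous.comp (by fun_prop))

theorem continuous_DFX (hs : Split π κ) (hφ : Cut (hp π) K Λ φ) :
    Continuous (fun q : Euc k × (Euc k × L k) => DFX π τ h φ q.1 q.2) := by
  have hw : Continuous (fun q : Euc k × (Euc k × L k) => ww (hp π) τ φ q.1 q.2.1) :=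
    (ker_ww (τ := τ) hφ (hp_hp hs)).smooth.continuous.comp (by fun_prop :
      Continuous fun q : Euc k × (Euc k × L k) => (q.1, q.2.1))
  have hD : Continuous (fun q : Euc k × (Euc k × L k) => Pt_615.D1 (ww (hp π) τ φ) q.1 q.2.1) :=
    (Pt_615.continuous_D1 (ker_ww (τ := τ) hφ (hp_hp hs))).comp (by fun_prop :
      Continuous fun q : Euc k × (Euc k × L k) => (q.1, q.2.1))
  have h1 : Continuous (fun q : Euc k × (Euc k × L k) => Dth (hp π) h (q.1 - q.2.1)) :=
    (continuous_Dth (hp π) h).comp (by fun_prop)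
  have h2 : Continuous (fun q : Euc k × (Euc k × L k) => th (hp π) h (q.1 - q.2.1)) :=
    (contDiff_th (hp π) h).continuous.comp (by fun_prop)
  unfold DFX
  exact (hw.smul h1).add
    (((ContinuousLinearMap.smulRightL ℝ (Euc k) (Euc k)).continuous.comp hD).clm_apply h2)

theorem norm_DFX_le (hs : Split π κ) (hφ : Cut (hp π) K Λ φ) (hτ : 0 < τ) (hh : 0 < h)
    (z : Euc k) (p : Euc k × L k) : ‖DFX π τ h φ z p‖ ≤ 2 + (Λ + 4 / τ) * h := by
  have hΛ := hφ.nonneg_lip
  refine ContinuousLinearMap.opNorm_le_bound _ (by positivity) fun v => ?_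
  have e : DFX π τ h φ z p v = ww (hp π) τ φ z p.1 • Dth (hp π) h (z - p.1) v
      + Pt_615.D1 (ww (hp π) τ φ) z p.1 v • th (hp π) h (z - p.1) := rfl
  rw [e]
  refine (norm_add_le _ _).trans ?_
  rw [norm_smul, norm_smul, Real.norm_eq_abs, Real.norm_eq_abs,
    abs_of_nonneg (ww_nonneg (τ := τ) hφ z p.1)]
  have h1 : ww (hp π) τ φ z p.1 * ‖Dth (hp π) h (z - p.1) v‖ ≤ 1 * (2 * ‖v‖) :=
    mul_le_mul (ww_le_one hφ z p.1) (norm_Dth_apply_le (hp_mem_G hs) hh _ _) (norm_nonneg _)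
      zero_le_one
  have h2 : |Pt_615.D1 (ww (hp π) τ φ) z p.1 v| * ‖th (hp π) h (z - p.1)‖
      ≤ (Λ + 4 / τ) * ‖v‖ * h :=
    mul_le_mul (abs_D1_le hφ (hp_hp hs) (norm_hp_le hs) hτ _ _ _) (norm_th_le_h (hp π) hh _)
      (norm_nonneg _) (by positivity)
  linarith

theorem hasFDerivAt_XA [IsFiniteMeasure W] (hW : CylBase W π κ) (hφ : Cut (hp π) K Λ φ)
    (hτ : 0 < τ) (hh : 0 < h) (z : Euc k) :
    HasFDerivAt (XA W π τ h φ) (DXA W π τ h φ z) z := by
  have hs := hW.sp
  refine hasFDerivAt_integral_of_dominated_of_fderiv_le (s := univ)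
    (bound := fun _ => 2 + (Λ + 4 / τ) * h) univ_mem ?_ ?_ ?_ ?_ (integrable_const _) ?_
  · refine Filter.Eventually.of_forall fun x => ?_
    exact ((continuous_FX hs hφ).comp (by fun_prop :
      Continuous fun p : Euc k × L k => (x, p))).aestronglyMeasurable
  · exact integrable_oneE hW.base ((continuous_FX hs hφ).comp (by fun_prop :
      Continuous fun p : Euc k × L k => (z, p)))
  · exact ((continuous_DFX hs hφ).comp (by fun_prop :
      Continuous fun p : Euc k × L k => (z, p))).aestronglyMeasurable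
  · exact Filter.Eventually.of_forall fun p x _ => norm_DFX_le hs hφ hτ hh x p
  · exact Filter.Eventually.of_forall fun p x _ => hasFDerivAt_FX hs hφ x p

theorem contDiff_XA [IsFiniteMeasure W] (hW : CylBase W π κ) (hφ : Cut (hp π) K Λ φ)
    (hτ : 0 < τ) (hh : 0 < h) : ContDiff ℝ 1 (XA W π τ h φ) := by
  have hs := hW.sp
  rw [contDiff_one_iff_fderiv]
  refine ⟨fun z => (hasFDerivAt_XA hW hφ hτ hh z).differentiableAt, ?_⟩
  have : fderiv ℝ (XA W π τ h φ) = DXA W π τ h φ :=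
    funext fun z => (hasFDerivAt_XA hW hφ hτ hh z).fderiv
  rw [this]
  refine continuous_of_dominated (bound := fun _ => 2 + (Λ + 4 / τ) * h) (fun z => ?_)
    (fun z => Filter.Eventually.of_forall fun p => norm_DFX_le hs hφ hτ hh z p)
    (integrable_const _) (Filter.Eventually.of_forall fun p => ?_)
  · exact ((continuous_DFX hs hφ).comp (by fun_prop :
      Continuous fun p : Euc k × L k => (z, p))).aestronglyMeasurable
  · exact (continuous_DFX hs hφ).comp (by fun_prop :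
      Continuous fun z : Euc k => (z, p))

/-- integrals of functions supported near `z`. -/
theorem norm_int_nb_le {E : Type*} [NormedAddCommGroup E] [NormedSpace ℝ E]
    (hφ : Continuous φ) {H : L k} {z : Euc k} {F : Euc k × L k → E}
    {f : Euc k × L k → ℝ} (hf : Integrable f W)
    (h : ∀ᵐ p ∂W, ‖F p‖ ≤ (nb H τ φ z).indicator f p) :
    ‖∫ p, F p ∂W‖ ≤ ∫ p in nb H τ φ z, f p ∂W := by
  have hm : MeasurableSet (nb (k := k) H τ φ z) := (isOpen_nb hφ z).measurableSet
  rw [← integral_indicator hm]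
  exact norm_integral_le_of_norm_le (hf.indicator hm) h

theorem norm_XA_le [IsFiniteMeasure W] (hφ : Cut (hp π) K Λ φ) (hτ : 0 < τ)
    (hh : 0 < h) (z : Euc k) : ‖XA W π τ h φ z‖ ≤ h * W.real (nb (hp π) τ φ z) := by
  have h1 := norm_int_nb_le (W := W) (τ := τ) (H := hp π) (z := z) hφ.smooth.continuous
    (F := fun p => FX π τ h φ z p)
    (f := fun _ => h) (integrable_const _) (Filter.Eventually.of_forall fun p => by
      by_cases hn : near (hp π) τ φ z p.1
      · rw [Set.indicator_of_mem (show p ∈ nb (hp π) τ φ z from hn), FX, norm_smul,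
          Real.norm_eq_abs, abs_of_nonneg (ww_nonneg (τ := τ) hφ z p.1)]
        calc _ ≤ 1 * h := mul_le_mul (ww_le_one hφ z p.1) (norm_th_le_h (hp π) hh _)
              (norm_nonneg _) zero_le_one
          _ = h := one_mul _
      · rw [Set.indicator_of_notMem (show p ∉ nb (hp π) τ φ z from hn), FX,
          ww_eq_zero hτ hn, zero_smul, norm_zero])
  rw [setIntegral_const, smul_eq_mul, mul_comm] at h1
  exact h1

theorem DXA_apply [IsFiniteMeasure W] (hW : CylBase W π κ) (hφ : Cut (hp π) K Λ φ)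
    (z v : Euc k) : DXA W π τ h φ z v = ∫ p, DFX π τ h φ z p v ∂W := by
  have hi : Integrable (fun p => DFX π τ h φ z p) W :=
    integrable_oneE hW.base ((continuous_DFX hW.sp hφ).comp (by fun_prop :
      Continuous fun p : Euc k × L k => (z, p)))
  exact ContinuousLinearMap.integral_apply hi v

theorem norm_DXA_vp_le [IsFiniteMeasure W] (hW : CylBase W π κ) (hφ : Cut (hp π) K Λ φ)
    (hτ : 0 < τ) (hh : 0 < h) (z : Euc k) :
    ‖DXA W π τ h φ z ∘L AS_456.vp π‖ ≤ 2 * W.real (nb (hp π) τ φ z) := by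
  have hs := hW.sp
  refine ContinuousLinearMap.opNorm_le_bound _ (by positivity) fun v => ?_
  rw [ContinuousLinearMap.comp_apply, DXA_apply hW hφ]
  have h1 := norm_int_nb_le (W := W) (τ := τ) (H := hp π) (z := z) hφ.smooth.continuous
    (F := fun p => DFX π τ h φ z p (AS_456.vp π v))
    (f := fun _ => 2 * ‖v‖) (integrable_const _) (Filter.Eventually.of_forall fun p => by
      have e : DFX π τ h φ z p (AS_456.vp π v)
          = ww (hp π) τ φ z p.1 • Dth (hp π) h (z - p.1) (AS_456.vp π v)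
          + Pt_615.D1 (ww (hp π) τ φ) z p.1 (AS_456.vp π v) • th (hp π) h (z - p.1) := rfl
      have e1 : Pt_615.D1 (ww (hp π) τ φ) z p.1 (AS_456.vp π v) = 0 := by
        rw [← Pt_615.D1_hor (ker_ww (τ := τ) hφ (hp_hp hs)) (G_idem (hp_mem_G hs)), hp_vp hs,
          map_zero]
      rw [e, e1, zero_smul, add_zero]
      by_cases hn : near (hp π) τ φ z p.1
      · rw [Set.indicator_of_mem (show p ∈ nb (hp π) τ φ z from hn), norm_smul,
          Real.norm_eq_abs, abs_of_nonneg (ww_nonneg (τ := τ) hφ z p.1)]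
        calc _ ≤ 1 * (2 * ‖v‖) := mul_le_mul (ww_le_one hφ z p.1)
              ((norm_Dth_apply_le (hp_mem_G hs) hh _ _).trans
                (mul_le_mul_of_nonneg_left (norm_vp_le hs v) (by norm_num)))
              (norm_nonneg _) zero_le_one
          _ = 2 * ‖v‖ := one_mul _
      · rw [Set.indicator_of_notMem (show p ∉ nb (hp π) τ φ z from hn),
          ww_eq_zero hτ hn, zero_smul, norm_zero])
  rw [setIntegral_const, smul_eq_mul] at h1
  refine h1.trans (le_of_eq ?_)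
  ring

theorem norm_q_S_H_le (hs : Split π κ) {S : L k} (hS : S ∈ G m k) (e : Euc k) :
    ‖S (hp π e) - hp π (S (hp π e))‖ ≤ √(tl π S) * ‖e‖ := by
  set u := S (hp π e) - hp π (S (hp π e)) with hu
  have hH := hp_mem_G hs
  have h1 : ‖u‖ ^ 2 = ⟪hp π e, S u⟫_ℝ := by
    have h2 : ⟪hp π (S (hp π e)), u⟫_ℝ = 0 := by
      rw [G_symm hH, hu, map_sub, G_idem_apply hH, sub_self, inner_zero_right]
    rw [← real_inner_self_eq_norm_sq]
    nth_rewrite 1 [hu]
    rw [inner_sub_left, h2, sub_zero, G_symm hS]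
  have h3 : ‖S u‖ ≤ √(tl π S) * ‖u‖ := by
    have h4 := norm_tan_perp_sq_le hH hS (S (hp π e))
    have h5 := Real.le_sqrt_of_sq_le h4
    rw [Real.sqrt_mul (tilt_nonneg hH hS), Real.sqrt_sq (norm_nonneg _), tilt_eq_tl π hS] at h5
    exact h5
  have h6 : ‖u‖ ^ 2 ≤ ‖e‖ * (√(tl π S) * ‖u‖) := by
    rw [h1]
    exact (real_inner_le_norm _ _).trans (mul_le_mul (norm_hp_le hs e) h3 (norm_nonneg _)
      (norm_nonneg _))
  rcases eq_or_lt_of_le (norm_nonneg u) with h0 | h0
  · rw [← h0]; positivity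
  · have h7 : ‖u‖ * ‖u‖ ≤ (√(tl π S) * ‖e‖) * ‖u‖ := by nlinarith
    exact le_of_mul_le_mul_right h7 h0

variable {x₀ : Euc m} {R h₀ δ : ℝ}

/-- the bound of the horizontal derivative of the averaged field. -/
def bX (π : Euc k →L[ℝ] Euc m) (Λ τ h δ : ℝ) (p : Euc k × L k) : ℝ :=
  2 * Λ * h + ((Λ + 4 / τ) * h * af π p ^ 2 + 2 * af π p)
    + (δ * (h * (Λ + 4 / τ) + h) * sf π p ^ 2 + δ * 2 * sf π p)

theorem continuous_bda (c₁ c₂ : ℝ) : Continuous fun p : Euc k × L k =>
    c₁ * af π p ^ 2 + c₂ * af π p :=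
  ((continuous_const.mul ((continuous_af π).pow 2)).add
    (continuous_const.mul (continuous_af π)))

theorem continuous_bX (π : Euc k →L[ℝ] Euc m) (Λ τ h δ : ℝ) : Continuous (bX π Λ τ h δ) :=
  (continuous_const.add (continuous_bda _ _)).add (continuous_bd _ _)

/-- **horizontal derivative of the averaged field** (one more use of almost stationarity). -/
theorem norm_DXA_hp_le [IsFiniteMeasure W] (hW : CAS W π κ x₀ R h₀ δ)
    (hφ : Cut (hp π) {y | ‖π y - x₀‖ < R} Λ φ) (hτ : 0 < τ) (hh : 0 < h) (h0 : 0 ≤ δ)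
    (z : Euc k) :
    ‖DXA W π τ h φ z ∘L hp π‖ ≤ ∫ p in nb (hp π) τ φ z, bX π Λ τ h δ p ∂W := by
  have hs := hW.cb.sp
  have hH := hp_mem_G hs
  have hΛ := hφ.nonneg_lip
  have hm : MeasurableSet (nb (k := k) (hp π) τ φ z) :=
    (isOpen_nb hφ.smooth.continuous z).measurableSet
  have hbX0 : ∀ p : Euc k × L k, 0 ≤ bX π Λ τ h δ p := fun p => by
    unfold bX
    have := sf_nonneg (π := π) p
    have := af_nonneg (π := π) p
    positivity
  refine ContinuousLinearMap.opNorm_le_bound _ (integral_nonneg hbX0) fun v => ?_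
  rw [ContinuousLinearMap.comp_apply]
  set e := hp π v with he
  set u := DXA W π τ h φ z e with hu
  set B : L k := (innerSL ℝ u).smulRight e with hB
  have hBa : ∀ w, B w = ⟪u, w⟫_ℝ • e := fun w => rfl
  have hee : hp π e = e := hp_hp hs v
  have hev : ‖e‖ ≤ ‖v‖ := norm_hp_le hs v
  -- the integrand
  have hcont1 : Continuous fun p : Euc k × L k => Pt_615.D1 (ww (hp π) τ φ) z p.1 e
      * ⟪u, th (hp π) h (z - p.1)⟫_ℝ := by
    have hD : Continuous (fun p : Euc k × L k => Pt_615.D1 (ww (hp π) τ φ) z p.1) :=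
      (Pt_615.continuous_D1 (ker_ww (τ := τ) hφ (hp_hp hs))).comp (by fun_prop :
        Continuous fun p : Euc k × L k => (z, p.1))
    exact (hD.clm_apply continuous_const).mul (continuous_const.inner
      ((contDiff_th (hp π) h).continuous.comp (by fun_prop)))
  have h1 : ‖u‖ ^ 2 = ∫ p, Pt_615.D1 (ww (hp π) τ φ) z p.1 e
      * ⟪u, th (hp π) h (z - p.1)⟫_ℝ ∂W := by
    rw [← real_inner_self_eq_norm_sq]
    nth_rewrite 2 [hu]
    rw [DXA_apply hW.cb hφ]
    have hi : Integrable (fun p => DFX π τ h φ z p e) W :=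
      integrable_oneE hW.cb.base (((continuous_DFX hs hφ).comp (by fun_prop :
        Continuous fun p : Euc k × L k => (z, p))).clm_apply continuous_const)
    have h2 := (innerSL ℝ u).integral_comp_comm hi
    simp only [innerSL_apply_apply] at h2
    rw [← h2]
    refine integral_congr_ae (Filter.Eventually.of_forall fun p => ?_)
    have e3 : DFX π τ h φ z p e = ww (hp π) τ φ z p.1 • Dth (hp π) h (z - p.1) e
      + Pt_615.D1 (ww (hp π) τ φ) z p.1 e • th (hp π) h (z - p.1) := rfl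
    show ⟪u, DFX π τ h φ z p e⟫_ℝ = _
    rw [e3, ← hee, Dth_hor hH, smul_zero, zero_add, hee, inner_smul_right]
  have hFV := FV_YB_eq (W := W) (τ := τ) (h := h) (B := B) hs hφ z
  have hFVb := FV_YB_le (B := B) (b := ‖u‖ * ‖e‖) hW hφ hτ hh h0
    (fun w => by rw [hBa, map_smul, hee]) (by positivity)
    (fun w _ => by
      rw [hBa, norm_smul, Real.norm_eq_abs]
      calc |⟪u, w⟫_ℝ| * ‖e‖ ≤ ‖u‖ * ‖w‖ * ‖e‖ := by
            gcongr; exact abs_real_inner_le_norm _ _
        _ = _ := by ring) z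
  have hcont2 : Continuous fun p : Euc k × L k => (Pt_615.D2 (ww (hp π) τ φ) z p.1
        (p.2 (B (th (hp π) h (z - p.1))))
      - ww (hp π) τ φ z p.1 * tr ((B ∘L Dth (hp π) h (z - p.1)) ∘L p.2)) := by
    have hD : Continuous (fun p : Euc k × L k => Pt_615.D2 (ww (hp π) τ φ) z p.1) :=
      (Pt_615.continuous_D2 (ker_ww (τ := τ) hφ (hp_hp hs))).comp (by fun_prop :
        Continuous fun p : Euc k × L k => (z, p.1))
    have hw : Continuous (fun p : Euc k × L k => ww (hp π) τ φ z p.1) :=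
      (ker_ww (τ := τ) hφ (hp_hp hs)).smooth.continuous.comp (by fun_prop :
        Continuous fun p : Euc k × L k => (z, p.1))
    have ht : Continuous fun p : Euc k × L k => th (hp π) h (z - p.1) :=
      (contDiff_th (hp π) h).continuous.comp (by fun_prop)
    have hDt : Continuous fun p : Euc k × L k => Dth (hp π) h (z - p.1) :=
      (continuous_Dth (hp π) h).comp (by fun_prop)
    exact (hD.clm_apply (continuous_snd.clm_apply (B.continuous.comp ht))).sub
      (hw.mul (tr.continuous.comp ((continuous_const.clm_comp hDt).clm_comp continuous_snd)))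
  have i1 := integrable_one hW.cb.base hcont1
  have i2 := integrable_one hW.cb.base hcont2
  -- sum of both
  have h4 : |∫ p, (Pt_615.D1 (ww (hp π) τ φ) z p.1 e * ⟪u, th (hp π) h (z - p.1)⟫_ℝ
      + (Pt_615.D2 (ww (hp π) τ φ) z p.1 (p.2 (B (th (hp π) h (z - p.1))))
      - ww (hp π) τ φ z p.1 * tr ((B ∘L Dth (hp π) h (z - p.1)) ∘L p.2))) ∂W|
      ≤ ∫ p in nb (hp π) τ φ z, ‖u‖ * ‖v‖ *
        (2 * Λ * h + ((Λ + 4 / τ) * h * af π p ^ 2 + 2 * af π p)) ∂W := by
    rw [← Real.norm_eq_abs]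
    refine norm_int_nb_le hφ.smooth.continuous (integrable_one hW.cb.base
      (continuous_const.mul (continuous_const.add (continuous_bda _ _)))) ?_
    filter_upwards [hW.cb.base.conc] with p hP
    have ht := tl_nonneg hs.hh (isPr_of_G hP)
    by_cases hn : near (hp π) τ φ z p.1
    · rw [Set.indicator_of_mem (show p ∈ nb (hp π) τ φ z from hn), Real.norm_eq_abs]
      have e4 : tr ((B ∘L Dth (hp π) h (z - p.1)) ∘L p.2)
          = ⟪u, Dth (hp π) h (z - p.1) (p.2 e)⟫_ℝ := by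
        have e5 : B ∘L Dth (hp π) h (z - p.1)
            = ((innerSL ℝ u) ∘L Dth (hp π) h (z - p.1)).smulRight e := by
          ext1 w; rfl
        rw [e5, tr_smulRight_comp]; rfl
      have e6 : Pt_615.D2 (ww (hp π) τ φ) z p.1 (p.2 (B (th (hp π) h (z - p.1))))
          = ⟪u, th (hp π) h (z - p.1)⟫_ℝ * Pt_615.D2 (ww (hp π) τ φ) z p.1 (p.2 e) := by
        rw [hBa, map_smul, map_smul, smul_eq_mul]
      rw [e4, e6]
      set ψ := th (hp π) h (z - p.1) with hψ
      have e7 : Pt_615.D1 (ww (hp π) τ φ) z p.1 e * ⟪u, ψ⟫_ℝ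
          + (⟪u, ψ⟫_ℝ * Pt_615.D2 (ww (hp π) τ φ) z p.1 (p.2 e)
            - ww (hp π) τ φ z p.1 * ⟪u, Dth (hp π) h (z - p.1) (p.2 e)⟫_ℝ)
          = (Pt_615.D1 (ww (hp π) τ φ) z p.1 e + Pt_615.D2 (ww (hp π) τ φ) z p.1 e) * ⟪u, ψ⟫_ℝ
            - Pt_615.D2 (ww (hp π) τ φ) z p.1 (e - p.2 e) * ⟪u, ψ⟫_ℝ
            - ww (hp π) τ φ z p.1 * ⟪u, Dth (hp π) h (z - p.1) (p.2 e)⟫_ℝ := by
        rw [map_sub (Pt_615.D2 (ww (hp π) τ φ) z p.1)]; ring
      rw [e7]
      have hψn : ‖ψ‖ ≤ h := norm_th_le_h (hp π) hh _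
      have hin : |⟪u, ψ⟫_ℝ| ≤ ‖u‖ * h :=
        (abs_real_inner_le_norm _ _).trans (mul_le_mul_of_nonneg_left hψn (norm_nonneg _))
      have b1 : |(Pt_615.D1 (ww (hp π) τ φ) z p.1 e + Pt_615.D2 (ww (hp π) τ φ) z p.1 e)
          * ⟪u, ψ⟫_ℝ| ≤ (2 * Λ * ‖v‖) * (‖u‖ * h) := by
        rw [abs_mul]
        refine mul_le_mul ((abs_D1_add_D2_le hφ (hp_hp hs) z p.1 e).trans ?_) hin
          (abs_nonneg _) (by positivity)
        gcongr
      have hsf1 : √(tl π p.2) ≤ af π p := le_rfl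
      have hsf2 : tl π p.2 ≤ af π p ^ 2 := (Real.sq_sqrt ht).symm.le
      have haf := af_nonneg (π := π) p
      have b2 : |Pt_615.D2 (ww (hp π) τ φ) z p.1 (e - p.2 e) * ⟪u, ψ⟫_ℝ|
          ≤ ((Λ + 4 / τ) * (af π p ^ 2 * ‖v‖)) * (‖u‖ * h) := by
        rw [abs_mul]
        refine mul_le_mul ?_ hin (abs_nonneg _) (by positivity)
        rw [← Pt_615.D2_hor (ker_ww (τ := τ) hφ (hp_hp hs)) (G_idem hH)]
        refine (abs_D2_le hφ (hp_hp hs) (norm_hp_le hs) hτ _ _ _).trans ?_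
        refine mul_le_mul_of_nonneg_left ?_ (by positivity)
        have := norm_cub_le hH hP v
        rw [tilt_eq_tl π hP] at this
        calc ‖hp π (e - p.2 e)‖ ≤ tl π p.2 * ‖v‖ := this
          _ ≤ _ := by gcongr
      have b3 : |ww (hp π) τ φ z p.1 * ⟪u, Dth (hp π) h (z - p.1) (p.2 e)⟫_ℝ|
          ≤ ‖u‖ * (2 * (af π p * ‖v‖)) := by
        rw [abs_mul, abs_of_nonneg (ww_nonneg (τ := τ) hφ z p.1)]
        have e8 : Dth (hp π) h (z - p.1) (p.2 e)
            = Dth (hp π) h (z - p.1) (p.2 e - hp π (p.2 e)) := by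
          rw [map_sub, Dth_hor hH, sub_zero]
        have e9 : ‖Dth (hp π) h (z - p.1) (p.2 e)‖ ≤ 2 * (af π p * ‖v‖) := by
          rw [e8]
          refine (norm_Dth_apply_le hH hh _ _).trans ?_
          refine mul_le_mul_of_nonneg_left ?_ (by norm_num)
          refine (norm_q_S_H_le hs hP v).trans ?_
          gcongr
        calc _ ≤ 1 * (‖u‖ * (2 * (af π p * ‖v‖))) := by
              refine mul_le_mul (ww_le_one hφ z p.1) ?_ (abs_nonneg _) zero_le_one
              exact (abs_real_inner_le_norm _ _).trans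
                (mul_le_mul_of_nonneg_left e9 (norm_nonneg _))
          _ = _ := one_mul _
      refine (abs_sub _ _).trans ((add_le_add (abs_sub _ _) le_rfl).trans ?_)
      refine (add_le_add (add_le_add b1 b2) b3).trans (le_of_eq ?_)
      ring
    · rw [Set.indicator_of_notMem (show p ∉ nb (hp π) τ φ z from hn),
        D1_eq_zero hφ (hp_hp hs) hτ hn, D2_eq_zero hφ (hp_hp hs) hτ hn, ww_eq_zero hτ hn]
      simp
  rw [integral_add i1 i2, ← h1, ← hFV] at h4
  have hsplit : ∫ p in nb (hp π) τ φ z, bX π Λ τ h δ p ∂W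
      = ∫ p in nb (hp π) τ φ z, (2 * Λ * h + ((Λ + 4 / τ) * h * af π p ^ 2 + 2 * af π p)) ∂W
        + ∫ p in nb (hp π) τ φ z, (δ * (h * (Λ + 4 / τ) + h) * sf π p ^ 2
          + δ * 2 * sf π p) ∂W := by
    unfold bX
    exact integral_add (integrable_one hW.cb.base
      (continuous_const.add (continuous_bda _ _))).restrict
      (integrable_one hW.cb.base (continuous_bd _ _)).restrict
  rw [integral_const_mul] at h4
  have hI0 : 0 ≤ ∫ p in nb (hp π) τ φ z, (δ * (h * (Λ + 4 / τ) + h) * sf π p ^ 2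
          + δ * 2 * sf π p) ∂W := integral_nonneg fun p => by
    have := sf_nonneg (π := π) p
    positivity
  have h5 : ‖u‖ ^ 2 ≤ ‖u‖ * ‖v‖ * ∫ p in nb (hp π) τ φ z, bX π Λ τ h δ p ∂W := by
    rw [hsplit]
    have h6 := abs_le.1 h4
    have h7 := (abs_le.1 hFVb).1
    have h8 : ‖u‖ * ‖e‖ * ∫ p in nb (hp π) τ φ z, (δ * (h * (Λ + 4 / τ) + h) * sf π p ^ 2
          + δ * 2 * sf π p) ∂W ≤ ‖u‖ * ‖v‖ * ∫ p in nb (hp π) τ φ z,
          (δ * (h * (Λ + 4 / τ) + h) * sf π p ^ 2 + δ * 2 * sf π p) ∂W := by gcongr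
    have h9 := h6.2
    rw [mul_add]
    linarith
  rcases eq_or_lt_of_le (norm_nonneg u) with h00 | h00
  · rw [← h00]
    exact mul_nonneg (integral_nonneg hbX0) (norm_nonneg _)
  · have h10 : ‖u‖ * ‖u‖ ≤ ((∫ p in nb (hp π) τ φ z, bX π Λ τ h δ p ∂W) * ‖v‖) * ‖u‖ := by
      nlinarith
    exact le_of_mul_le_mul_right h10 h00

end Crest.Agent.R234.Pas_762
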