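import Crest.Agent.R234.Pas3_762

/-!
Row 234 (helper762), VF-DVAS, file 4: double integrals over interacting pairs, the bound of the
two first variation terms in the class `AS`.
-/

set_option autoImplicit false

open MeasureTheory Crest.GeometryTopology.Submanifold Filter Topology Set
open scoped ENNReal InnerProductSpace

noncomputable section

namespace Crest.Agent.R234.Pas_762

open Crest.Agent.R234.Vf_884 Crest.Agent.R234.In_947
  Crest.Agent.R234.Pair2_762 Crest.Agent.R234.Pair3_762 Crest.Agent.R234.Pair4_762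
  Crest.Agent.R234.Pair5_762 Crest.Agent.R234.Pair6_762 Crest.Agent.R234.Ar_870
open Crest.Agent.R234.Cy_870 (Split CylStat Shh)

variable {m n k : ℕ}

/-! ### double integrals -/

section dbl

variable {H : L k} {τ M : ℝ} {φ : Euc k → ℝ} {V : Measure (Euc k × L k)}

theorem measurableSet_NN (hφ : Continuous φ) : MeasurableSet (NN (k := k) H τ φ) :=
  (isOpen_near hφ).measurableSet

theorem integrable_NN [IsFiniteMeasure V] (hV : Pt_615.HBase m V) (hφ : Continuous φ)
    {g : (Euc k × L k) × (Euc k × L k) → ℝ} (hg : Continuous g) :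
    Integrable ((NN H τ φ).indicator g) (V.prod V) :=
  (Pt_615.integrable_cont hV hg).indicator (measurableSet_NN hφ)

theorem iter_eq [IsFiniteMeasure V] (hV : Pt_615.HBase m V) (hφ : Continuous φ)
    {f g : Euc k × L k → ℝ} (hf : Continuous f) (hg : Continuous g) :
    ∫ q, (NN H τ φ).indicator (fun q => f q.1 * g q.2) q ∂(V.prod V)
      = ∫ z, f z * ∫ z' in nb H τ φ z.1, g z' ∂V ∂V := by
  have hi : Integrable ((NN H τ φ).indicator
      (fun q : (Euc k × L k) × (Euc k × L k) => f q.1 * g q.2)) (V.prod V) :=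
    integrable_NN hV hφ ((hf.comp continuous_fst).mul (hg.comp continuous_snd))
  rw [integral_prod _ hi]
  refine integral_congr_ae (Filter.Eventually.of_forall fun z => ?_)
  show ∫ z', (NN H τ φ).indicator (fun q => f q.1 * g q.2) (z, z') ∂V = _
  have hind : ∀ z' : Euc k × L k, (NN H τ φ).indicator
      (fun q : (Euc k × L k) × (Euc k × L k) => f q.1 * g q.2) (z, z')
      = (nb H τ φ z.1).indicator (fun z' => f z * g z') z' := fun z' => rfl
  simp only [hind]
  rw [integral_indicator (isOpen_nb hφ z.1).measurableSet, integral_const_mul]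

theorem integrable_iter [IsFiniteMeasure V] (hV : Pt_615.HBase m V) (hφ : Continuous φ)
    {f g : Euc k × L k → ℝ} (hf : Continuous f) (hg : Continuous g) :
    Integrable (fun z => f z * ∫ z' in nb H τ φ z.1, g z' ∂V) V := by
  have hi := (integrable_NN (H := H) (τ := τ) hV hφ ((hf.comp continuous_fst).mul
    (hg.comp continuous_snd)) : Integrable ((NN H τ φ).indicator
      (fun q : (Euc k × L k) × (Euc k × L k) => f q.1 * g q.2)) (V.prod V))
  refine hi.integral_prod_left.congr (Filter.Eventually.of_forall fun z => ?_)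
  show ∫ z', (NN H τ φ).indicator (fun q => f q.1 * g q.2) (z, z') ∂V = _
  have hind : ∀ z' : Euc k × L k, (NN H τ φ).indicator
      (fun q : (Euc k × L k) × (Euc k × L k) => f q.1 * g q.2) (z, z')
      = (nb H τ φ z.1).indicator (fun z' => f z * g z') z' := fun z' => rfl
  simp only [hind]
  rw [integral_indicator (isOpen_nb hφ z.1).measurableSet, integral_const_mul]

theorem fst_le [IsFiniteMeasure V] (hV : Pt_615.HBase m V) (hφ : Continuous φ)
    (hM : ∀ᵐ z ∂V, V.real (nb H τ φ z.1) ≤ M * τ ^ m)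
    {f : Euc k × L k → ℝ} (hf : Continuous f) (hf0 : ∀ z, 0 ≤ f z) :
    ∫ z, f z * V.real (nb H τ φ z.1) ∂V ≤ M * τ ^ m * ∫ z in S0 φ, f z ∂V := by
  have hS : MeasurableSet (S0 φ : Set (Euc k × L k)) := (isOpen_S0 hφ).measurableSet
  have hfi := integrable_one hV hf
  rw [← integral_indicator hS, ← integral_const_mul]
  refine integral_mono_of_nonneg
    (Filter.Eventually.of_forall fun z => mul_nonneg (hf0 z) measureReal_nonneg)
    ((hfi.indicator hS).const_mul _) ?_
  filter_upwards [hM] with z hz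
  by_cases h : φ z.1 = 0
  · rw [nb_eq_empty h, measureReal_empty, mul_zero,
      Set.indicator_of_notMem (show z ∉ S0 φ from fun h' => h' h), mul_zero]
  · rw [Set.indicator_of_mem (show z ∈ S0 φ from h), mul_comm]
    exact mul_le_mul_of_nonneg_right hz (hf0 z)

theorem near_fst_le [IsFiniteMeasure V] (hV : Pt_615.HBase m V) (hφ : Continuous φ)
    (hM : ∀ᵐ z ∂V, V.real (nb H τ φ z.1) ≤ M * τ ^ m)
    {f : Euc k × L k → ℝ} (hf : Continuous f) (hf0 : ∀ z, 0 ≤ f z) :
    ∫ q, (NN H τ φ).indicator (fun q => f q.1) q ∂(V.prod V)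
      ≤ M * τ ^ m * ∫ z in S0 φ, f z ∂V := by
  have h1 := iter_eq (H := H) (τ := τ) hV hφ hf (continuous_const (y := (1 : ℝ)))
  simp only [mul_one] at h1
  rw [h1]
  have h2 : ∫ z, f z * ∫ z' in nb H τ φ z.1, (1 : ℝ) ∂V ∂V
      = ∫ z, f z * V.real (nb H τ φ z.1) ∂V := by
    refine integral_congr_ae (Filter.Eventually.of_forall fun z => ?_)
    simp
  rw [h2]
  exact fst_le hV hφ hM hf hf0

theorem near_snd_le [IsFiniteMeasure V] (hV : Pt_615.HBase m V) (hφ : Continuous φ)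
    (hM : ∀ᵐ z ∂V, V.real (nb H τ φ z.1) ≤ M * τ ^ m)
    {f : Euc k × L k → ℝ} (hf : Continuous f) (hf0 : ∀ z, 0 ≤ f z) :
    ∫ q, (NN H τ φ).indicator (fun q => f q.2) q ∂(V.prod V)
      ≤ M * τ ^ m * ∫ z in S0 φ, f z ∂V := by
  refine le_trans (le_of_eq ?_) (near_fst_le hV hφ hM hf hf0)
  rw [← integral_prod_swap ((NN H τ φ).indicator fun q : (Euc k × L k) × (Euc k × L k) => f q.1)]
  refine integral_congr_ae (Filter.Eventually.of_forall fun q => ?_)
  show (NN H τ φ).indicator (fun q => f q.2) q = (NN H τ φ).indicator (fun q => f q.1) q.swap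
  by_cases hz : near H τ φ q.1.1 q.2.1
  · rw [Set.indicator_of_mem (show q ∈ NN H τ φ from hz),
      Set.indicator_of_mem (show q.swap ∈ NN H τ φ from near_symm.1 hz)]
    rfl
  · rw [Set.indicator_of_notMem (show q ∉ NN H τ φ from hz),
      Set.indicator_of_notMem (show q.swap ∉ NN H τ φ from fun h => hz (near_symm.1 h))]

/-- `∫∫_near f g' ≤ M τ^m √(∫ f² ∫ g²)`. -/
theorem near_mul_le [IsFiniteMeasure V] (hV : Pt_615.HBase m V) (hφ : Continuous φ)
    (hM0 : 0 < M) (hτ : 0 < τ)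
    (hM : ∀ᵐ z ∂V, V.real (nb H τ φ z.1) ≤ M * τ ^ m)
    {f g : Euc k × L k → ℝ} (hf : Continuous f) (hg : Continuous g) :
    ∫ q, (NN H τ φ).indicator (fun q => f q.1 * g q.2) q ∂(V.prod V)
      ≤ M * τ ^ m * √((∫ z in S0 φ, f z ^ 2 ∂V) * ∫ z in S0 φ, g z ^ 2 ∂V) := by
  have hc : 0 < M * τ ^ m := by positivity
  set X := ∫ q, (NN H τ φ).indicator (fun q => f q.1 * g q.2) q ∂(V.prod V) with hX
  have hF0 : 0 ≤ ∫ z in S0 φ, f z ^ 2 ∂V := integral_nonneg fun z => sq_nonneg _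
  have hG0 : 0 ≤ ∫ z in S0 φ, g z ^ 2 ∂V := integral_nonneg fun z => sq_nonneg _
  have h1 : X / (M * τ ^ m) ≤ √((∫ z in S0 φ, f z ^ 2 ∂V) * ∫ z in S0 φ, g z ^ 2 ∂V) := by
    refine le_sqrt_of_forall hF0 hG0 fun l hl => ?_
    have hi0 : Integrable ((NN H τ φ).indicator
        (fun q : (Euc k × L k) × (Euc k × L k) => f q.1 * g q.2)) (V.prod V) :=
      integrable_NN hV hφ ((hf.comp continuous_fst).mul (hg.comp continuous_snd))
    have hi1 : Integrable (fun q => l / 2 * (NN H τ φ).indicator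
        (fun q : (Euc k × L k) × (Euc k × L k) => f q.1 ^ 2) q) (V.prod V) :=
      (integrable_NN hV hφ ((hf.comp continuous_fst).pow 2)).const_mul _
    have hi2 : Integrable (fun q => 1 / (2 * l) * (NN H τ φ).indicator
        (fun q : (Euc k × L k) × (Euc k × L k) => g q.2 ^ 2) q) (V.prod V) :=
      (integrable_NN hV hφ ((hg.comp continuous_snd).pow 2)).const_mul _
    have h2 : ∫ q, (NN H τ φ).indicator (fun q => f q.1 * g q.2) q ∂(V.prod V)
        ≤ ∫ q, (l / 2 * (NN H τ φ).indicator (fun q => f q.1 ^ 2) q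
          + 1 / (2 * l) * (NN H τ φ).indicator (fun q => g q.2 ^ 2) q) ∂(V.prod V) := by
      refine integral_mono_ae hi0 (hi1.add hi2) (Filter.Eventually.of_forall fun q => ?_)
      by_cases hz : q ∈ NN H τ φ
      · simp only [Set.indicator_of_mem hz]
        have h3 : 0 ≤ (l * f q.1 - g q.2) ^ 2 := sq_nonneg _
        have h4 : (f q.1 * g q.2) * (2 * l)
            ≤ (l / 2 * f q.1 ^ 2 + 1 / (2 * l) * g q.2 ^ 2) * (2 * l) := by
          have : (l / 2 * f q.1 ^ 2 + 1 / (2 * l) * g q.2 ^ 2) * (2 * l)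
              = l ^ 2 * f q.1 ^ 2 + g q.2 ^ 2 := by field_simp
          rw [this]; nlinarith
        exact le_of_mul_le_mul_right h4 (by positivity)
      · simp only [Set.indicator_of_notMem hz]; simp
    have h5 : ∫ q, (NN H τ φ).indicator (fun q => f q.1 ^ 2) q ∂(V.prod V)
        ≤ M * τ ^ m * ∫ z in S0 φ, f z ^ 2 ∂V :=
      near_fst_le (H := H) (τ := τ) hV hφ hM (hf.pow 2) fun z => sq_nonneg _
    have h6 : ∫ q, (NN H τ φ).indicator (fun q => g q.2 ^ 2) q ∂(V.prod V)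
        ≤ M * τ ^ m * ∫ z in S0 φ, g z ^ 2 ∂V :=
      near_snd_le (H := H) (τ := τ) hV hφ hM (hg.pow 2) fun z => sq_nonneg _
    rw [integral_add hi1 hi2, integral_const_mul, integral_const_mul] at h2
    have h7 : X ≤ l / 2 * (M * τ ^ m * ∫ z in S0 φ, f z ^ 2 ∂V)
        + 1 / (2 * l) * (M * τ ^ m * ∫ z in S0 φ, g z ^ 2 ∂V) := by
      refine h2.trans (add_le_add ?_ ?_)
      · exact mul_le_mul_of_nonneg_left h5 (by positivity)
      · exact mul_le_mul_of_nonneg_left h6 (by positivity)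
    rw [← mul_div_assoc, div_le_iff₀ hc]
    have h8 : (l * (∫ z in S0 φ, f z ^ 2 ∂V) + (∫ z in S0 φ, g z ^ 2 ∂V) / l) * (M * τ ^ m)
        = 2 * (l / 2 * (M * τ ^ m * ∫ z in S0 φ, f z ^ 2 ∂V)
          + 1 / (2 * l) * (M * τ ^ m * ∫ z in S0 φ, g z ^ 2 ∂V)) := by
      field_simp
    rw [h8]
    linarith
  rw [div_le_iff₀ hc] at h1
  linarith

theorem S0_mul_le [IsFiniteMeasure V] (hV : Pt_615.HBase m V) {A : Set (Euc k × L k)}
    {f g : Euc k × L k → ℝ} (hf : Continuous f) (hg : Continuous g) :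
    ∫ z in A, f z * g z ∂V ≤ √((∫ z in A, f z ^ 2 ∂V) * ∫ z in A, g z ^ 2 ∂V) := by
  refine le_sqrt_of_forall (integral_nonneg fun z => sq_nonneg _)
    (integral_nonneg fun z => sq_nonneg _) fun l hl => ?_
  have hi0 : Integrable (fun z => 2 * (f z * g z)) (V.restrict A) :=
    (integrable_one hV (hf.mul hg)).restrict.const_mul 2
  have hi1 : Integrable (fun z => l * f z ^ 2) (V.restrict A) :=
    (integrable_one hV (hf.pow 2)).restrict.const_mul _
  have hi2 : Integrable (fun z => 1 / l * g z ^ 2) (V.restrict A) :=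
    (integrable_one hV (hg.pow 2)).restrict.const_mul _
  have h1 : ∫ z in A, 2 * (f z * g z) ∂V ≤ ∫ z in A, (l * f z ^ 2 + 1 / l * g z ^ 2) ∂V := by
    refine integral_mono_ae hi0 (hi1.add hi2) (Filter.Eventually.of_forall fun z => ?_)
    have h3 : 0 ≤ (l * f z - g z) ^ 2 := sq_nonneg _
    have h4 : (2 * (f z * g z)) * l ≤ (l * f z ^ 2 + 1 / l * g z ^ 2) * l := by
      have : (l * f z ^ 2 + 1 / l * g z ^ 2) * l = l ^ 2 * f z ^ 2 + g z ^ 2 := by field_simp
      rw [this]; nlinarith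
    exact le_of_mul_le_mul_right h4 hl
  rw [integral_const_mul, integral_add hi1 hi2, integral_const_mul, integral_const_mul] at h1
  rw [one_div_mul_eq_div] at h1
  exact h1

end dbl

/-! ### the two first variations -/

section fv

variable {π : Euc k →L[ℝ] Euc m} {κ : Euc k →L[ℝ] Euc n} {x₀ x : Euc m} {R h₀ δ r : ℝ}
  {Λ τ h M : ℝ} {φ : Euc k → ℝ} {W : Measure (Euc k × L k)}

/-- `∫ FV(Xf z') dW(z') = FV(XA)`. -/
theorem int_FV_Xf [IsFiniteMeasure W] (hW : CylBase W π κ) {K : Set (Euc k)}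
    (hφ : Cut (hp π) K Λ φ) (hτ : 0 < τ) (hh : 0 < h) :
    ∫ z', Pt_615.FV W (Pt_615.Xf (ww (hp π) τ φ) (th (hp π) h) z') ∂W
      = Pt_615.FV W (XA W π τ h φ) := by
  have hs := hW.sp
  have hw := ker_ww (τ := τ) hφ (hp_hp hs)
  have hψ : Pt_615.Vert (hp π) (th (hp π) h) := vert_th (hp_mem_G hs)
  have hi := Pt_615.integrable_cont hW.base (Pt_615.continuous_I1 hw hψ)
  have h1 : ∫ z', Pt_615.FV W (Pt_615.Xf (ww (hp π) τ φ) (th (hp π) h) z') ∂W
      = ∫ q, Pt_615.I1 (ww (hp π) τ φ) (th (hp π) h) q ∂(W.prod W) := by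
    rw [integral_prod_symm _ hi]
    simp only [Pt_615.int_I1 hw hψ]
  rw [h1, integral_prod _ hi]
  unfold Pt_615.FV
  refine integral_congr_ae (Filter.Eventually.of_forall fun z => ?_)
  show ∫ z', Pt_615.I1 (ww (hp π) τ φ) (th (hp π) h) (z, z') ∂W
    = tr ((fderiv ℝ (XA W π τ h φ) z.1) ∘L z.2)
  rw [(hasFDerivAt_XA hW hφ hτ hh z.1).fderiv]
  have hF : Integrable (fun p => DFX π τ h φ z.1 p) W :=
    integrable_oneE hW.base ((continuous_DFX hs hφ).comp (by fun_prop :
      Continuous fun p : Euc k × L k => (z.1, p)))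
  set T : L k →L[ℝ] ℝ := tr ∘L ((ContinuousLinearMap.compL ℝ (Euc k) (Euc k) (Euc k)).flip z.2)
    with hT
  have hTa : ∀ A : L k, T A = tr (A ∘L z.2) := fun A => rfl
  rw [← hTa, DXA, ← T.integral_comp_comm hF]
  refine integral_congr_ae (Filter.Eventually.of_forall fun p => ?_)
  show Pt_615.I1 (ww (hp π) τ φ) (th (hp π) h) (z, p) = T (DFX π τ h φ z.1 p)
  rw [hTa, DFX, ContinuousLinearMap.add_comp, map_add, tr_smulRight_comp]
  unfold Pt_615.I1
  rw [fderiv_th]
  congr 1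
  rw [ContinuousLinearMap.smul_comp, map_smul, smul_eq_mul]

theorem XA_supp (hs : Split π κ) (hφ : Cut (hp π) {y | ‖π y - x₀‖ < R} Λ φ) (z : Euc k)
    (hz : R ≤ ‖π z - x₀‖) : XA W π τ h φ z = 0 := by
  unfold XA FX
  have h1 : ∀ p : Euc k × L k, ww (hp π) τ φ z p.1 = 0 := fun p =>
    (ker_ww (τ := τ) hφ (hp_hp hs)).supp _ _ (by
      show ¬ ‖π (hp π z) - x₀‖ < R
      rw [pi_hp hs]; exact not_lt.2 hz)
  simp [h1]

theorem hp_XA [IsFiniteMeasure W] (hW : CylBase W π κ) {K : Set (Euc k)}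
    (hφ : Cut (hp π) K Λ φ) (z : Euc k) : hp π (XA W π τ h φ z) = 0 := by
  have hs := hW.sp
  have hi : Integrable (fun p => FX π τ h φ z p) W :=
    integrable_oneE hW.base ((continuous_FX hs hφ).comp (by fun_prop :
      Continuous fun p : Euc k × L k => (z, p)))
  unfold XA
  rw [← (hp π).integral_comp_comm hi]
  have h1 : ∀ p, hp π (FX π τ h φ z p) = 0 := fun p => by
    unfold FX
    rw [map_smul, p_th (hp_mem_G hs), smul_zero]
  simp [h1]

theorem hp_DXA [IsFiniteMeasure W] (hW : CylBase W π κ) {K : Set (Euc k)}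
    (hφ : Cut (hp π) K Λ φ) (z v : Euc k) : hp π (DXA W π τ h φ z v) = 0 := by
  have hs := hW.sp
  have hi : Integrable (fun p => DFX π τ h φ z p v) W :=
    integrable_oneE hW.base (((continuous_DFX hs hφ).comp (by fun_prop :
      Continuous fun p : Euc k × L k => (z, p))).clm_apply continuous_const)
  rw [DXA_apply hW hφ, ← (hp π).integral_comp_comm hi]
  have h1 : ∀ p, hp π (DFX π τ h φ z p v) = 0 := fun p => by
    have e : DFX π τ h φ z p v = ww (hp π) τ φ z p.1 • Dth (hp π) h (z - p.1) v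
      + Pt_615.D1 (ww (hp π) τ φ) z p.1 v • th (hp π) h (z - p.1) := rfl
    rw [e, map_add, map_smul, map_smul, p_th (hp_mem_G hs), p_Dth (hp_mem_G hs), smul_zero,
      smul_zero, add_zero]
  simp [h1]

/-- **error density of the averaged field.** -/
theorem err_XA_le [IsFiniteMeasure W] (hW : CAS W π κ x₀ R h₀ δ)
    (hφ : Cut (hp π) {y | ‖π y - x₀‖ < R} Λ φ) (hτ : 0 < τ) (hh : 0 < h) (h0 : 0 ≤ δ)
    {p : Euc k × L k} (hP : p.2 ∈ G m k) :
    AS_456.err π δ (XA W π τ h φ) p ≤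
      δ * (sf π p * ∫ q in nb (hp π) τ φ p.1, bX π Λ τ h δ q ∂W)
      + (δ * h * sf π p + 2 * δ * (af π p * sf π p) + √δ * h * af π p ^ 2)
        * W.real (nb (hp π) τ φ p.1) := by
  have hs := hW.cb.sp
  have hd : fderiv ℝ (XA W π τ h φ) p.1 = DXA W π τ h φ p.1 :=
    (hasFDerivAt_XA hW.cb hφ hτ hh p.1).fderiv
  have ht := tl_nonneg hs.hh (isPr_of_G hP)
  have h1 := errA_ver' hs h0 (z := p.1) (P := p.2) (A := DXA W π τ h φ p.1)
    (v := XA W π τ h φ p.1) (fun w => hp_DXA hW.cb hφ p.1 w) (hp_XA hW.cb hφ p.1)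
    (norm_DXA_hp_le hW hφ hτ hh h0 p.1) (norm_XA_le hφ hτ hh p.1)
    (norm_DXA_vp_le hW.cb hφ hτ hh p.1) hP
  unfold AS_456.err
  rw [hd]
  refine h1.trans (le_of_eq ?_)
  have e1 : tl π p.2 = af π p ^ 2 := (Real.sq_sqrt ht).symm
  have e2 : √(tl π p.2) = af π p := rfl
  have e3 : ‖AS_456.vp π p.1‖ = yf π p := rfl
  rw [e2, e3, e1, sf_eq]
  ring

end fv

end Crest.Agent.R234.Pas_762
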