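import Crest.Agent.R234.Pas4_762

/-!
Row 234 (helper762), VF-DVAS, file 5: the defect of stationarity of the pair fields in the
class of almost stationary measures, and the pair inequality (DV) for that class.
-/

set_option autoImplicit false

open MeasureTheory Crest.GeometryTopology.Submanifold Filter Topology Set
open scoped ENNReal InnerProductSpace

noncomputable section

namespace Crest.Agent.R234.Pas_762

open Crest.Agent.R234.Vf_884 Crest.Agent.R234.In_947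
  Crest.Agent.R234.Pair2_762 Crest.Agent.R234.Pair3_762 Crest.Agent.R234.Pair4_762
  Crest.Agent.R234.Pair5_762 Crest.Agent.R234.Pair6_762 Crest.Agent.R234.Ar_870
open Crest.Agent.R234.Cy_870 (Split CylStat Shh)

variable {m n k : ℕ} {π : Euc k →L[ℝ] Euc m} {κ : Euc k →L[ℝ] Euc n} {x₀ x : Euc m}
  {R h₀ δ r : ℝ} {Λ τ h M S : ℝ} {φ : Euc k → ℝ} {W : Measure (Euc k × L k)}

/-- the constant `γ S + 2`. -/
def kk (Λ τ h S : ℝ) : ℝ := (h * (Λ + 4 / τ) + h) * S + 2

theorem bX_le (hΛ : 0 ≤ Λ) (hτ : 0 < τ) (hh : 0 < h) (h0 : 0 ≤ δ) {p : Euc k × L k}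
    (hS : sf π p ≤ S) :
    bX π Λ τ h δ p ≤ 2 * Λ * h * 1 + (kk Λ τ h S * af π p + kk Λ τ h S * δ * sf π p) := by
  have h1 := af_nonneg (π := π) p
  have h2 := yf_nonneg (π := π) p
  have h3 := sf_eq (π := π) p
  have h3' := sf_nonneg (π := π) p
  have hg : 0 ≤ h * (Λ + 4 / τ) + h := by positivity
  have h4 : af π p ≤ S := by linarith
  have h5 : (Λ + 4 / τ) * h * af π p ^ 2 ≤ (h * (Λ + 4 / τ) + h) * (S * af π p) := by
    have h6 : af π p ^ 2 ≤ S * af π p := by nlinarith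
    calc (Λ + 4 / τ) * h * af π p ^ 2 ≤ (h * (Λ + 4 / τ) + h) * af π p ^ 2 := by
          nlinarith [mul_nonneg hh.le (sq_nonneg (af π p))]
      _ ≤ (h * (Λ + 4 / τ) + h) * (S * af π p) := mul_le_mul_of_nonneg_left h6 hg
  have h7 : δ * (h * (Λ + 4 / τ) + h) * sf π p ^ 2
      ≤ δ * (h * (Λ + 4 / τ) + h) * (S * sf π p) := by
    have h8 : sf π p ^ 2 ≤ S * sf π p := by nlinarith
    exact mul_le_mul_of_nonneg_left h8 (mul_nonneg h0 hg)
  unfold bX kk
  have e1 : ((h * (Λ + 4 / τ) + h) * S + 2) * af π p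
      = (h * (Λ + 4 / τ) + h) * (S * af π p) + 2 * af π p := by ring
  have e2 : ((h * (Λ + 4 / τ) + h) * S + 2) * δ * sf π p
      = δ * (h * (Λ + 4 / τ) + h) * (S * sf π p) + δ * 2 * sf π p := by ring
  rw [e1, e2]
  linarith

theorem kk_pos (hΛ : 0 ≤ Λ) (hτ : 0 < τ) (hh : 0 < h) (hS : 0 ≤ S) : 2 ≤ kk Λ τ h S := by
  unfold kk
  have : 0 ≤ (h * (Λ + 4 / τ) + h) * S := by positivity
  linarith

theorem int_mono [IsFiniteMeasure W] (hW : CylBase W π κ) {f g : Euc k × L k → ℝ}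
    (hf : Continuous f) (hg : Continuous g) (hfg : ∀ᵐ p ∂W, f p ≤ g p)
    (A : Set (Euc k × L k)) : ∫ p in A, f p ∂W ≤ ∫ p in A, g p ∂W :=
  integral_mono_ae (integrable_one hW.base hf).restrict (integrable_one hW.base hg).restrict
    (ae_restrict_of_ae hfg)

theorem nb_bX_le [IsFiniteMeasure W] (hW : CylBase W π κ) (hΛ : 0 ≤ Λ) (hτ : 0 < τ)
    (hh : 0 < h) (h0 : 0 ≤ δ) (hS : ∀ᵐ p ∂W, sf π p ≤ S) (A : Set (Euc k × L k)) :
    ∫ q in A, bX π Λ τ h δ q ∂W ≤ 2 * Λ * h * (∫ _ in A, (1 : ℝ) ∂W)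
      + (kk Λ τ h S * (∫ q in A, af π q ∂W) + kk Λ τ h S * δ * ∫ q in A, sf π q ∂W) := by
  have hc1 : Continuous fun q : Euc k × L k => 2 * Λ * h * 1
      + (kk Λ τ h S * af π q + kk Λ τ h S * δ * sf π q) :=
    continuous_const.add ((continuous_const.mul (continuous_af π)).add
      (continuous_const.mul (continuous_sf π)))
  refine (int_mono hW (continuous_bX π Λ τ h δ) hc1 (by
    filter_upwards [hS] with p hp'
    exact bX_le hΛ hτ hh h0 hp') A).trans (le_of_eq ?_)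
  have i1 : Integrable (fun _ : Euc k × L k => 2 * Λ * h * (1 : ℝ)) (W.restrict A) :=
    integrable_const _
  have i2 : Integrable (fun q : Euc k × L k => kk Λ τ h S * af π q) (W.restrict A) :=
    (integrable_one hW.base (continuous_af π)).restrict.const_mul _
  have i3 : Integrable (fun q : Euc k × L k => kk Λ τ h S * δ * sf π q) (W.restrict A) :=
    (integrable_one hW.base (continuous_sf π)).restrict.const_mul _
  have i23 : Integrable (fun q : Euc k × L k => kk Λ τ h S * af π q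
    + kk Λ τ h S * δ * sf π q) (W.restrict A) := i2.add i3
  rw [integral_add i1 i23, integral_add i2 i3, integral_const_mul, integral_const_mul,
    integral_const_mul]

/-- **first variation of the averaged vertical field.** -/
theorem FV_XA_le [IsFiniteMeasure W] (hW : CAS W π κ x₀ R h₀ δ)
    (hφ : Cut (hp π) {y | ‖π y - x₀‖ < R} Λ φ) (hτ : 0 < τ) (hh : 0 < h) (h0 : 0 ≤ δ)
    (hM0 : 0 < M) (hM : ∀ᵐ z ∂W, W.real (nb (hp π) τ φ z.1) ≤ M * τ ^ m)
    (hS0 : 0 ≤ S) (hS : ∀ᵐ p ∂W, sf π p ≤ S) :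
    |Pt_615.FV W (XA W π τ h φ)| ≤ M * τ ^ m * (
      δ * (2 * Λ * h * (∫ z in S0 φ, sf π z ∂W)
        + (kk Λ τ h S * √((∫ z in S0 φ, sf π z ^ 2 ∂W) * ∫ z in S0 φ, af π z ^ 2 ∂W)
        + kk Λ τ h S * δ * ∫ z in S0 φ, sf π z ^ 2 ∂W))
      + ∫ z in S0 φ, (δ * h * sf π z + 2 * δ * (af π z * sf π z)
        + √δ * h * af π z ^ 2) ∂W) := by
  have hs := hW.cb.sp
  have hV := hW.cb.base
  have hΛ := hφ.nonneg_lip
  have hφc := hφ.smooth.continuous
  have hkk : 0 ≤ kk Λ τ h S := zero_le_two.trans (kk_pos hΛ hτ hh hS0)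
  have hF : Continuous fun z : Euc k × L k => δ * h * sf π z + 2 * δ * (af π z * sf π z)
      + √δ * h * af π z ^ 2 :=
    ((continuous_const.mul (continuous_sf π)).add (continuous_const.mul
      ((continuous_af π).mul (continuous_sf π)))).add
      (continuous_const.mul ((continuous_af π).pow 2))
  have hF0 : ∀ z : Euc k × L k, 0 ≤ δ * h * sf π z + 2 * δ * (af π z * sf π z)
      + √δ * h * af π z ^ 2 := fun z => by
    have := sf_nonneg (π := π) z
    have := af_nonneg (π := π) z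
    positivity
  refine (hW.fv _ (contDiff_XA hW.cb hφ hτ hh) (XA_supp hs hφ)).trans ?_
  -- the four integrals
  set J1 : Euc k × L k → ℝ := fun z => sf π z * ∫ q in nb (hp π) τ φ z.1, (1 : ℝ) ∂W with hJ1
  set J2 : Euc k × L k → ℝ := fun z => sf π z * ∫ q in nb (hp π) τ φ z.1, af π q ∂W with hJ2
  set J3 : Euc k × L k → ℝ := fun z => sf π z * ∫ q in nb (hp π) τ φ z.1, sf π q ∂W with hJ3
  set J4 : Euc k × L k → ℝ := fun z => (δ * h * sf π z + 2 * δ * (af π z * sf π z)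
      + √δ * h * af π z ^ 2) * ∫ q in nb (hp π) τ φ z.1, (1 : ℝ) ∂W with hJ4
  have i1 : Integrable J1 W := integrable_iter hV hφc (continuous_sf π) continuous_const
  have i2 : Integrable J2 W := integrable_iter hV hφc (continuous_sf π) (continuous_af π)
  have i3 : Integrable J3 W := integrable_iter hV hφc (continuous_sf π) (continuous_sf π)
  have i4 : Integrable J4 W := integrable_iter hV hφc hF continuous_const
  have b1 : ∫ z, J1 z ∂W ≤ M * τ ^ m * ∫ z in S0 φ, sf π z ∂W := by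
    have h1 := fst_le (H := hp π) hV hφc hM (continuous_sf π) sf_nonneg
    refine le_trans (le_of_eq ?_) h1
    refine integral_congr_ae (Filter.Eventually.of_forall fun z => ?_)
    simp [hJ1]
  have b2 : ∫ z, J2 z ∂W
      ≤ M * τ ^ m * √((∫ z in S0 φ, sf π z ^ 2 ∂W) * ∫ z in S0 φ, af π z ^ 2 ∂W) := by
    have h1 := near_mul_le (H := hp π) hV hφc hM0 hτ hM (continuous_sf π) (continuous_af π)
    rwa [iter_eq hV hφc (continuous_sf π) (continuous_af π)] at h1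
  have b3 : ∫ z, J3 z ∂W ≤ M * τ ^ m * ∫ z in S0 φ, sf π z ^ 2 ∂W := by
    have h1 := near_mul_le (H := hp π) hV hφc hM0 hτ hM (continuous_sf π) (continuous_sf π)
    rw [iter_eq hV hφc (continuous_sf π) (continuous_sf π),
      Real.sqrt_mul_self (integral_nonneg fun z => sq_nonneg _)] at h1
    exact h1
  have b4 : ∫ z, J4 z ∂W ≤ M * τ ^ m * ∫ z in S0 φ, (δ * h * sf π z
      + 2 * δ * (af π z * sf π z) + √δ * h * af π z ^ 2) ∂W := by
    have h1 := fst_le (H := hp π) hV hφc hM hF hF0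
    refine le_trans (le_of_eq ?_) h1
    refine integral_congr_ae (Filter.Eventually.of_forall fun z => ?_)
    simp [hJ4]
  have i23 : Integrable (fun z => kk Λ τ h S * J2 z + kk Λ τ h S * δ * J3 z) W :=
    (i2.const_mul _).add (i3.const_mul _)
  have i123 : Integrable (fun z => 2 * Λ * h * J1 z
      + (kk Λ τ h S * J2 z + kk Λ τ h S * δ * J3 z)) W := (i1.const_mul _).add i23
  have i5 : Integrable (fun z => δ * (2 * Λ * h * J1 z
      + (kk Λ τ h S * J2 z + kk Λ τ h S * δ * J3 z)) + J4 z) W := (i123.const_mul _).add i4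
  have h1 : ∫ p, AS_456.err π δ (XA W π τ h φ) p ∂W
      ≤ ∫ z, (δ * (2 * Λ * h * J1 z
      + (kk Λ τ h S * J2 z + kk Λ τ h S * δ * J3 z)) + J4 z) ∂W := by
    refine integral_mono_of_nonneg ?_ i5 ?_
    · filter_upwards [hW.cb.base.conc] with p hP
      have ht := tl_nonneg hs.hh (isPr_of_G hP)
      show 0 ≤ AS_456.err π δ (XA W π τ h φ) p
      unfold AS_456.err AS_456.errA
      positivity
    · filter_upwards [hW.cb.base.conc] with p hP
      refine (err_XA_le hW hφ hτ hh h0 hP).trans ?_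
      have h2 := nb_bX_le hW.cb hΛ hτ hh h0 hS (nb (hp π) τ φ p.1)
      have h3 := mul_le_mul_of_nonneg_left (mul_le_mul_of_nonneg_left h2
        (sf_nonneg (π := π) p)) h0
      have h4 : W.real (nb (hp π) τ φ p.1) = ∫ q in nb (hp π) τ φ p.1, (1 : ℝ) ∂W := by simp
      rw [h4]
      refine (add_le_add h3 le_rfl).trans (le_of_eq ?_)
      simp only [hJ1, hJ2, hJ3, hJ4]
      ring
  refine h1.trans ?_
  rw [integral_add (i123.const_mul _) i4, integral_const_mul, integral_add (i1.const_mul _) i23,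
    integral_add (i2.const_mul _) (i3.const_mul _), integral_const_mul, integral_const_mul,
    integral_const_mul]
  have c1 : 2 * Λ * h * ∫ z, J1 z ∂W ≤ 2 * Λ * h * (M * τ ^ m * ∫ z in S0 φ, sf π z ∂W) :=
    mul_le_mul_of_nonneg_left b1 (by positivity)
  have c2 := mul_le_mul_of_nonneg_left b2 hkk
  have c3 := mul_le_mul_of_nonneg_left b3 (mul_nonneg hkk h0)
  have c4 := mul_le_mul_of_nonneg_left (add_le_add c1 (add_le_add c2 c3)) h0
  refine (add_le_add c4 b4).trans (le_of_eq ?_)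
  ring

/-- `Yf` is a horizontal two-point field. -/
theorem Yf_eq (z : Euc k × L k) :
    Pt_615.Yf (hp π) (ww (hp π) τ φ) (th (hp π) h) z = YB π τ h φ (hp π ∘L z.2) z.1 := rfl

/-- **first variation of the horizontal two-point fields.** -/
theorem int_FV_Yf_le [IsFiniteMeasure W] (hW : CAS W π κ x₀ R h₀ δ)
    (hφ : Cut (hp π) {y | ‖π y - x₀‖ < R} Λ φ) (hτ : 0 < τ) (hh : 0 < h) (h0 : 0 ≤ δ)
    (hM0 : 0 < M) (hM : ∀ᵐ z ∂W, W.real (nb (hp π) τ φ z.1) ≤ M * τ ^ m)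
    (hS0 : 0 ≤ S) (hS : ∀ᵐ p ∂W, sf π p ≤ S) :
    |∫ z, Pt_615.FV W (Pt_615.Yf (hp π) (ww (hp π) τ φ) (th (hp π) h) z) ∂W|
      ≤ M * τ ^ m * (δ * kk Λ τ h S
        * √((∫ z in S0 φ, af π z ^ 2 ∂W) * ∫ z in S0 φ, sf π z ^ 2 ∂W)) := by
  have hs := hW.cb.sp
  have hV := hW.cb.base
  have hΛ := hφ.nonneg_lip
  have hφc := hφ.smooth.continuous
  have hH := hp_mem_G hs
  have hg : 0 ≤ h * (Λ + 4 / τ) + h := by positivity
  have hkk : 0 ≤ kk Λ τ h S := zero_le_two.trans (kk_pos hΛ hτ hh hS0)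
  have hi : Integrable (fun z => δ * kk Λ τ h S
      * (af π z * ∫ q in nb (hp π) τ φ z.1, sf π q ∂W)) W :=
    (integrable_iter hV hφc (continuous_af π) (continuous_sf π)).const_mul _
  have h1 : |∫ z, Pt_615.FV W (Pt_615.Yf (hp π) (ww (hp π) τ φ) (th (hp π) h) z) ∂W|
      ≤ ∫ z, δ * kk Λ τ h S * (af π z * ∫ q in nb (hp π) τ φ z.1, sf π q ∂W) ∂W := by
    rw [← Real.norm_eq_abs]
    refine norm_integral_le_of_norm_le hi ?_
    filter_upwards [hV.conc] with z hz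
    rw [Real.norm_eq_abs, Yf_eq]
    have hB : ∀ w, hp π ((hp π ∘L z.2) w) = (hp π ∘L z.2) w := fun w => hp_hp hs _
    have hb : ∀ v, hp π v = 0 → ‖(hp π ∘L z.2) v‖ ≤ af π z * ‖v‖ := by
      intro v hv
      have g1 := norm_tan_perp_sq_le hH hz v
      rw [hv, sub_zero, tilt_eq_tl π hz] at g1
      have g2 : ‖(hp π ∘L z.2) v‖ ≤ ‖z.2 v‖ := norm_hp_le hs _
      refine g2.trans ?_
      have ht := tl_nonneg hs.hh (isPr_of_G hz)
      refine abs_le_of_sq_le_sq' ?_ (mul_nonneg (af_nonneg z) (norm_nonneg v)) |>.2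
      refine g1.trans (le_of_eq ?_)
      rw [mul_pow]
      congr 1
      exact (Real.sq_sqrt ht).symm
    refine (FV_YB_le hW hφ hτ hh h0 hB (af_nonneg z) hb z.1).trans ?_
    have h2 : ∫ p in nb (hp π) τ φ z.1,
        (δ * (h * (Λ + 4 / τ) + h) * sf π p ^ 2 + δ * 2 * sf π p) ∂W
        ≤ ∫ p in nb (hp π) τ φ z.1, δ * kk Λ τ h S * sf π p ∂W := by
      refine int_mono hW.cb (continuous_bd _ _) (continuous_const.mul (continuous_sf π)) ?_ _
      filter_upwards [hS] with p hp'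
      have h3' := sf_nonneg (π := π) p
      have h8 : sf π p ^ 2 ≤ S * sf π p := by nlinarith
      have h9 := mul_le_mul_of_nonneg_left h8 (mul_nonneg h0 hg)
      have e2 : δ * kk Λ τ h S * sf π p
          = δ * (h * (Λ + 4 / τ) + h) * (S * sf π p) + δ * 2 * sf π p := by
        unfold kk; ring
      show _ ≤ δ * kk Λ τ h S * sf π p
      rw [e2]
      linarith
    rw [integral_const_mul] at h2
    refine (mul_le_mul_of_nonneg_left h2 (af_nonneg z)).trans (le_of_eq ?_)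
    ring
  refine h1.trans ?_
  rw [integral_const_mul]
  have h2 := near_mul_le (H := hp π) hV hφc hM0 hτ hM (continuous_af π) (continuous_sf π)
  rw [iter_eq hV hφc (continuous_af π) (continuous_sf π)] at h2
  refine (mul_le_mul_of_nonneg_left h2 (mul_nonneg h0 hkk)).trans (le_of_eq ?_)
  ring

/-! ### the total -/

theorem sf_sq_le (p : Euc k × L k) : sf π p ^ 2 ≤ 2 * af π p ^ 2 + 2 * yf π p ^ 2 := by
  rw [sf_eq]
  nlinarith [sq_nonneg (af π p - yf π p)]

theorem real_aux {e Y : ℝ} (he : 0 ≤ e) (hY : 0 ≤ Y) {s : ℝ} (hs : s ≤ 2 * (e + Y)) :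
    √(s * e) ≤ 3 / 2 * (e + √(e * Y)) := by
  have h1 : 0 ≤ √(e * Y) := Real.sqrt_nonneg _
  have h2 : √(e * Y) ^ 2 = e * Y := Real.sq_sqrt (mul_nonneg he hY)
  refine Real.sqrt_le_iff.2 ⟨by positivity, ?_⟩
  have h3 : s * e ≤ 2 * (e + Y) * e := mul_le_mul_of_nonneg_right hs he
  nlinarith [mul_nonneg he h1, sq_nonneg e, mul_nonneg he hY]

theorem real_aux2 {e Y v : ℝ} (hv : 0 ≤ v) (he : 0 ≤ e) (hY : 0 ≤ Y) {s : ℝ}
    (hs : s ≤ 2 * (e + Y)) : √(s * v) ≤ 3 / 2 * √((e + Y) * v) := by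
  have h1 : 0 ≤ √((e + Y) * v) := Real.sqrt_nonneg _
  have h2 : √((e + Y) * v) ^ 2 = (e + Y) * v := Real.sq_sqrt (by positivity)
  refine Real.sqrt_le_iff.2 ⟨by positivity, ?_⟩
  have h3 : s * v ≤ 2 * (e + Y) * v := mul_le_mul_of_nonneg_right hs hv
  nlinarith [mul_nonneg (add_nonneg he hY) hv]

/-- **the defect of stationarity of the pair fields in the class `AS`.** -/
theorem err_le [IsFiniteMeasure W] (hW : CAS W π κ x₀ R h₀ δ)
    (hφ : Cut (hp π) {y | ‖π y - x₀‖ < R} Λ φ) (hτ : 0 < τ) (hh : 0 < h) (h0 : 0 ≤ δ)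
    (h1 : δ ≤ 1) (hM0 : 0 < M) (hM : ∀ᵐ z ∂W, W.real (nb (hp π) τ φ z.1) ≤ M * τ ^ m)
    (hS0 : 0 ≤ S) (hS : ∀ᵐ p ∂W, sf π p ≤ S) {e Y v : ℝ}
    (he : ∫ z in S0 φ, af π z ^ 2 ∂W ≤ e) (hY : ∫ z in S0 φ, yf π z ^ 2 ∂W ≤ Y)
    (hv : W.real (S0 φ) ≤ v) :
    |err (hp π) W φ h τ| ≤ M * τ ^ m * (7 * kk Λ τ h S * δ * (e + √(e * Y))
      + 2 * kk Λ τ h S * δ ^ 2 * Y + 3 / 2 * δ * h * (2 * Λ + 1) * √((e + Y) * v)
      + √δ * h * e) := by
  have hs := hW.cb.sp
  have hV := hW.cb.base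
  have hΛ := hφ.nonneg_lip
  have hk2 := kk_pos hΛ hτ hh hS0
  have hkk : 0 ≤ kk Λ τ h S := zero_le_two.trans hk2
  have he0 : 0 ≤ ∫ z in S0 φ, af π z ^ 2 ∂W := integral_nonneg fun z => sq_nonneg _
  have hY0 : 0 ≤ ∫ z in S0 φ, yf π z ^ 2 ∂W := integral_nonneg fun z => sq_nonneg _
  have he1 : 0 ≤ e := he0.trans he
  have hY1 : 0 ≤ Y := hY0.trans hY
  have hv1 : 0 ≤ v := measureReal_nonneg.trans hv
  have ia : Integrable (fun z : Euc k × L k => af π z ^ 2) (W.restrict (S0 φ)) :=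
    (integrable_one hV ((continuous_af π).pow 2)).restrict
  have iy : Integrable (fun z : Euc k × L k => yf π z ^ 2) (W.restrict (S0 φ)) :=
    (integrable_one hV ((continuous_yf π).pow 2)).restrict
  have is1 : Integrable (fun z : Euc k × L k => sf π z) (W.restrict (S0 φ)) :=
    (integrable_one hV (continuous_sf π)).restrict
  have is2 : Integrable (fun z : Euc k × L k => sf π z ^ 2) (W.restrict (S0 φ)) :=
    (integrable_one hV ((continuous_sf π).pow 2)).restrict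
  have ias : Integrable (fun z : Euc k × L k => af π z * sf π z) (W.restrict (S0 φ)) :=
    (integrable_one hV ((continuous_af π).mul (continuous_sf π))).restrict
  -- `∫ sf²`
  have g1 : ∫ z in S0 φ, sf π z ^ 2 ∂W ≤ 2 * (e + Y) := by
    have h2 : ∫ z in S0 φ, sf π z ^ 2 ∂W
        ≤ ∫ z in S0 φ, (2 * af π z ^ 2 + 2 * yf π z ^ 2) ∂W :=
      integral_mono_ae is2 ((ia.const_mul 2).add (iy.const_mul 2))
        (Filter.Eventually.of_forall fun z => sf_sq_le z)
    rw [integral_add (ia.const_mul 2) (iy.const_mul 2), integral_const_mul,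
      integral_const_mul] at h2
    linarith
  have g0 : 0 ≤ ∫ z in S0 φ, sf π z ^ 2 ∂W := integral_nonneg fun z => sq_nonneg _
  set Z := e + √(e * Y) with hZ
  have hZ0 : 0 ≤ Z := by positivity
  have heZ : e ≤ Z := by have := Real.sqrt_nonneg (e * Y); linarith
  -- `√(∫ sf² ∫ af²)`
  have g2 : √((∫ z in S0 φ, sf π z ^ 2 ∂W) * ∫ z in S0 φ, af π z ^ 2 ∂W) ≤ 3 / 2 * Z :=
    (Real.sqrt_le_sqrt (mul_le_mul_of_nonneg_left he g0)).trans (real_aux he1 hY1 g1)
  have g3 : √((∫ z in S0 φ, af π z ^ 2 ∂W) * ∫ z in S0 φ, sf π z ^ 2 ∂W) ≤ 3 / 2 * Z := by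
    rw [mul_comm]; exact g2
  -- `∫ sf`
  set Q := √((e + Y) * v) with hQ
  have hQ0 : 0 ≤ Q := Real.sqrt_nonneg _
  have g4 : ∫ z in S0 φ, sf π z ∂W ≤ 3 / 2 * Q := by
    have h2 := S0_mul_le (A := S0 φ) hV (continuous_sf π) (continuous_const (y := (1 : ℝ)))
    simp only [mul_one, one_pow, integral_const, smul_eq_mul, measureReal_restrict_apply_univ]
      at h2
    refine h2.trans ((Real.sqrt_le_sqrt (mul_le_mul_of_nonneg_left hv g0)).trans
      (real_aux2 hv1 he1 hY1 g1))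
  -- `∫ af sf`
  have g5 : ∫ z in S0 φ, af π z * sf π z ∂W ≤ 3 / 2 * Z :=
    (S0_mul_le (A := S0 φ) hV (continuous_af π) (continuous_sf π)).trans g3
  have g6 : ∫ z in S0 φ, (δ * h * sf π z + 2 * δ * (af π z * sf π z)
        + √δ * h * af π z ^ 2) ∂W ≤ δ * h * (3 / 2 * Q) + 2 * δ * (3 / 2 * Z) + √δ * h * e := by
    have j1 : Integrable (fun z => δ * h * sf π z) (W.restrict (S0 φ)) := is1.const_mul _
    have j2 : Integrable (fun z => 2 * δ * (af π z * sf π z)) (W.restrict (S0 φ)) :=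
      ias.const_mul _
    have j3 : Integrable (fun z => √δ * h * af π z ^ 2) (W.restrict (S0 φ)) := ia.const_mul _
    have j12 : Integrable (fun z => δ * h * sf π z + 2 * δ * (af π z * sf π z))
      (W.restrict (S0 φ)) := j1.add j2
    rw [integral_add j12 j3, integral_add j1 j2, integral_const_mul, integral_const_mul,
      integral_const_mul]
    gcongr
  have hXA := FV_XA_le hW hφ hτ hh h0 hM0 hM hS0 hS
  have hYf := int_FV_Yf_le hW hφ hτ hh h0 hM0 hM hS0 hS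
  have hc : 0 ≤ M * τ ^ m := by positivity
  have hXA2 : |Pt_615.FV W (XA W π τ h φ)| ≤ M * τ ^ m * (
      δ * (2 * Λ * h * (3 / 2 * Q) + (kk Λ τ h S * (3 / 2 * Z)
        + kk Λ τ h S * δ * (2 * (e + Y))))
      + (δ * h * (3 / 2 * Q) + 2 * δ * (3 / 2 * Z) + √δ * h * e)) := by
    refine hXA.trans ?_
    gcongr
  have hYf2 : |∫ z, Pt_615.FV W (Pt_615.Yf (hp π) (ww (hp π) τ φ) (th (hp π) h) z) ∂W|
      ≤ M * τ ^ m * (δ * kk Λ τ h S * (3 / 2 * Z)) := by
    refine hYf.trans ?_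
    gcongr
  unfold err
  rw [int_FV_Xf hW.cb hφ hτ hh]
  refine (abs_add_le _ _).trans ((add_le_add hXA2 hYf2).trans ?_)
  rw [← mul_add]
  refine mul_le_mul_of_nonneg_left ?_ hc
  have k1 : kk Λ τ h S * δ ^ 2 * e ≤ kk Λ τ h S * δ * Z := by
    have : δ ^ 2 * e ≤ δ * Z := by
      have : δ ^ 2 ≤ δ := by nlinarith
      nlinarith [mul_nonneg h0 (sub_nonneg.2 heZ), mul_nonneg (sub_nonneg.2 this) he1]
    calc kk Λ τ h S * δ ^ 2 * e = kk Λ τ h S * (δ ^ 2 * e) := by ring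
      _ ≤ kk Λ τ h S * (δ * Z) := mul_le_mul_of_nonneg_left this hkk
      _ = _ := by ring
  have k2 : 2 * (δ * Z) ≤ kk Λ τ h S * (δ * Z) :=
    mul_le_mul_of_nonneg_right hk2 (mul_nonneg h0 hZ0)
  have k3 : 0 ≤ kk Λ τ h S * (δ * Z) := by positivity
  nlinarith

end Crest.Agent.R234.Pas_762
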