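import Crest.Agent.R234.Pas5_762

/-!
Row 234 (helper762), VF-DVAS, file 6: the pair inequality (DV) in the class of almost
stationary measures.
-/

set_option autoImplicit false

open MeasureTheory Crest.GeometryTopology.Submanifold Filter Topology Set
open scoped ENNReal InnerProductSpace

noncomputable section

namespace Crest.Agent.R234.Pas_762

open Crest.Agent.R234.Vf_884 Crest.Agent.R234.In_947
  Crest.Agent.R234.Pair2_762 Crest.Agent.R234.Pair3_762 Crest.Agent.R234.Pair4_762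
  Crest.Agent.R234.Pair5_762 Crest.Agent.R234.Pair6_762 Crest.Agent.R234.Ar_870
open Crest.Agent.R234.Cy_870 (Split CylStat Shh)

variable {m n k : ℕ} {π : Euc k →L[ℝ] Euc m} {κ : Euc k →L[ℝ] Euc n} {x₀ x : Euc m}
  {R h₀ δ r : ℝ} {τ h M σ c : ℝ} {W : Measure (Euc k × L k)}

/-- second moment of the height over `B_s(y)`. -/
def yb (W : Measure (Euc k × L k)) (π : Euc k →L[ℝ] Euc m) (y : Euc m) (s : ℝ) : ℝ :=
  ∫ p in ov π y s, ‖AS_456.vp π p.1‖ ^ 2 ∂W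

theorem norm_vp_eq (hs : Split π κ) (z : Euc k) : ‖AS_456.vp π z‖ = ‖κ z‖ := by
  rw [vp_apply]; exact norm_sub_hp hs z

/-- `√tl + |y| ≤ m + 1`. -/
theorem sf_le (hW : CAS W π κ x₀ R h₀ δ) (hh1 : h₀ ≤ 1) : ∀ᵐ p ∂W, sf π p ≤ m + 1 := by
  have hs := hW.cb.sp
  filter_upwards [hW.cb.base.conc, hW.hgt] with p hP hp'
  have h1 : √(tl π p.2) ≤ m := by
    have h2 := tl_le hs.hh (isPr_of_G hP)
    have h3 : (m : ℝ) ≤ (m : ℝ) ^ 2 := by
      rcases Nat.eq_zero_or_pos m with h | h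
      · subst h; simp
      · have : (1 : ℝ) ≤ m := by exact_mod_cast h
        nlinarith
    exact Real.sqrt_le_iff.2 ⟨Nat.cast_nonneg m, h2.trans h3⟩
  unfold sf
  rw [norm_vp_eq hs]
  linarith

theorem yb_nonneg (y : Euc m) (s : ℝ) : 0 ≤ yb W π y s := integral_nonneg fun _ => sq_nonneg _

theorem eb_nonneg (hW : CylBase W π κ) (y : Euc m) (s : ℝ) : 0 ≤ eb W π y s :=
  setIntegral_nonneg_of_ae (tl_ae_nonneg hW)

theorem kk_le (hh : 0 < h) (hhτ : h ≤ τ) (hτr : τ ≤ r) (hr1 : r ≤ 1) :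
    kk (10 / r) τ h (m + 1) ≤ 17 * (m + 1) := by
  have hτ : 0 < τ := hh.trans_le hhτ
  have hr : 0 < r := hτ.trans_le hτr
  have h1 : h * (10 / r) ≤ 10 := by
    rw [mul_div_assoc', div_le_iff₀ hr]
    nlinarith [hhτ.trans hτr]
  have h2 : h * (4 / τ) ≤ 4 := by
    rw [mul_div_assoc', div_le_iff₀ hτ]
    nlinarith
  have h3 : h ≤ 1 := (hhτ.trans hτr).trans hr1
  have h4 : (0 : ℝ) ≤ m := Nat.cast_nonneg m
  unfold kk
  nlinarith

/-- the defect for the cut-off `cu`. -/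
theorem err_cu_le [IsFiniteMeasure W] (hW : CAS W π κ x₀ R h₀ δ) (hR : ‖x - x₀‖ + 2 * r ≤ R)
    (hh1 : h₀ ≤ 1) (h0 : 0 ≤ δ) (h1 : δ ≤ 1) (hh : 0 < h) (hhτ : h ≤ τ) (hτr : τ ≤ r)
    (hr1 : r ≤ 1) (hM0 : 0 < M)
    (hM : ∀ y, ‖y - x‖ < 2 * r → W.real (ov π y τ) ≤ M * τ ^ m) :
    |err (hp π) W (cu π x r) h τ| / τ ^ m ≤ M * (
      120 * (m + 1) * δ * (eb W π x (2 * r) + √(eb W π x (2 * r) * yb W π x (2 * r)))
      + 34 * (m + 1) * δ ^ 2 * yb W π x (2 * r)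
      + 32 * δ * (h / r) * √((eb W π x (2 * r) + yb W π x (2 * r)) * W.real (ov π x (2 * r)))
      + √δ * h * eb W π x (2 * r)) := by
  have hs := hW.cb.sp
  have hV := hW.cb.base
  have hτ : 0 < τ := hh.trans_le hhτ
  have hr : 0 < r := hτ.trans_le hτr
  have hτm : 0 < τ ^ m := pow_pos hτ m
  have hφ := cut_cu (x := x) (x₀ := x₀) hs hr hR
  have hM' : ∀ᵐ z ∂W, W.real (nb (hp π) τ (cu π x r) z.1) ≤ M * τ ^ m := by
    refine Filter.Eventually.of_forall fun z => ?_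
    by_cases hz : cu π x r z.1 = 0
    · rw [nb_eq_empty hz, measureReal_empty]; positivity
    · exact (measureReal_mono (nb_subset hs z.1)).trans (hM _ (mem_of_nb hr hz))
  have e1 : ∫ z in S0 (cu π x r), af π z ^ 2 ∂W ≤ eb W π x (2 * r) := by
    have h2 : ∫ z in S0 (cu π x r), af π z ^ 2 ∂W = ∫ z in S0 (cu π x r), tl π z.2 ∂W := by
      refine setIntegral_congr_ae₀
        (isOpen_S0 (continuous_cu π x r)).measurableSet.nullMeasurableSet ?_
      filter_upwards [hV.conc] with p hP _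
      exact Real.sq_sqrt (tl_nonneg hs.hh (isPr_of_G hP))
    rw [h2]
    exact setIntegral_mono_set (integrable_tl hW.cb).integrableOn
        (ae_restrict_of_ae (tl_ae_nonneg hW.cb)) (S0_subset hr).eventuallyLE
  have e2 : ∫ z in S0 (cu π x r), yf π z ^ 2 ∂W ≤ yb W π x (2 * r) :=
    setIntegral_mono_set (integrable_one hV ((continuous_yf π).pow 2)).integrableOn
      (Filter.Eventually.of_forall fun _ => sq_nonneg _) (S0_subset hr).eventuallyLE
  have e3 : W.real (S0 (cu π x r)) ≤ W.real (ov π x (2 * r)) := measureReal_mono (S0_subset hr)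
  have h2 := err_le hW hφ hτ hh h0 h1 hM0 hM' (by positivity : (0 : ℝ) ≤ m + 1)
    (sf_le hW hh1) e1 e2 e3
  rw [div_le_iff₀ hτm]
  have e4 : ∀ X : ℝ, M * X * τ ^ m = M * τ ^ m * X := fun X => by ring
  rw [e4]
  refine h2.trans (mul_le_mul_of_nonneg_left ?_ (by positivity))
  have hk := kk_le (m := m) hh hhτ hτr hr1
  have he0 := eb_nonneg hW.cb x (2 * r)
  have hY0 := yb_nonneg (W := W) (π := π) x (2 * r)
  have h3 : 7 * kk (10 / r) τ h (m + 1) * δ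
      * (eb W π x (2 * r) + √(eb W π x (2 * r) * yb W π x (2 * r)))
      ≤ 120 * (m + 1) * δ
      * (eb W π x (2 * r) + √(eb W π x (2 * r) * yb W π x (2 * r))) := by
    have : 7 * kk (10 / r) τ h (m + 1) ≤ 120 * (m + 1) := by
      have : (0 : ℝ) ≤ m := Nat.cast_nonneg m
      linarith
    gcongr
  have h4 : 2 * kk (10 / r) τ h (m + 1) * δ ^ 2 * yb W π x (2 * r)
      ≤ 34 * (m + 1) * δ ^ 2 * yb W π x (2 * r) := by
    have : 2 * kk (10 / r) τ h (m + 1) ≤ 34 * (m + 1) := by linarith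
    gcongr
  have h5 : 3 / 2 * δ * h * (2 * (10 / r) + 1) ≤ 32 * δ * (h / r) := by
    have h6 : 2 * (10 / r) + 1 ≤ 21 / r := by
      have h8 : 1 ≤ 1 / r := by rw [le_div_iff₀ hr]; linarith
      have h9 : 2 * (10 / r) + 1 / r = 21 / r := by ring
      linarith
    calc 3 / 2 * δ * h * (2 * (10 / r) + 1) ≤ 3 / 2 * δ * h * (21 / r) := by gcongr
      _ = 63 / 2 * (δ * (h / r)) := by ring
      _ ≤ 32 * (δ * (h / r)) := by
          refine mul_le_mul_of_nonneg_right (by norm_num) (by positivity)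
      _ = _ := by ring
  have h7 := mul_le_mul_of_nonneg_right h5
    (Real.sqrt_nonneg ((eb W π x (2 * r) + yb W π x (2 * r)) * W.real (ov π x (2 * r))))
  linarith

/-- the error of (DV) in the class `AS`. -/
def ea (m : ℕ) (W : Measure (Euc k × L k)) (π : Euc k →L[ℝ] Euc m) (x : Euc m)
    (r h δ : ℝ) : ℝ :=
  120 * (m + 1) * δ * (eb W π x (2 * r) + √(eb W π x (2 * r) * yb W π x (2 * r)))
    + 34 * (m + 1) * δ ^ 2 * yb W π x (2 * r)
    + 32 * δ * (h / r) * √((eb W π x (2 * r) + yb W π x (2 * r)) * W.real (ov π x (2 * r)))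
    + √δ * h * eb W π x (2 * r)

/-- **(DV), class `AS`, small points.** -/
theorem dv_small_AS [IsFiniteMeasure W] (hW : CAS W π κ x₀ R h₀ δ)
    (hR : ‖x - x₀‖ + 2 * r ≤ R) (hh1 : h₀ ≤ 1) (h0 : 0 ≤ δ) (h1 : δ ≤ 1) (hh : 0 < h)
    (hhτ : h ≤ τ) (hτr : τ ≤ r) (hr1 : r ≤ 1) (hM0 : 0 < M) (hσ0 : 0 < σ) (hc0 : 0 < c)
    (hM : ∀ y, ‖y - x‖ < 2 * r → W.real (ov π y τ) ≤ M * τ ^ m)
    (hσ : ∀ y, ‖y - x‖ < 2 * r → eb W π y τ ≤ σ ^ 2 * τ ^ m)
    {A : Set (Euc k × L k)} (hA : MeasurableSet A) (hAx : A ⊆ ov π x r)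
    (hc : ∀ᵐ z ∂W, z ∈ A →
      c * τ ^ m ≤ W.real {p | ‖π (z.1 - p.1)‖ ≤ τ / 2 ∧ ‖κ (z.1 - p.1)‖ ≤ h}) :
    ∫ z in A, vv (hp π) z.2 ∂W ≤ 32 / 3 / c *
      (h * (30 / r * M * √(eb W π x (2 * r) * W.real (ov π x (2 * r)))
        + 4 / τ * (σ * √M * eb W π x (2 * r))) + M * ea m W π x r h δ) := by
  have h2 := dv_small_fv hW.cb (hh.trans_le hhτ) hτr hh hM0 hσ0 hc0 hM hσ hA hAx hc
  have h3 := err_cu_le hW hR hh1 h0 h1 hh hhτ hτr hr1 hM0 hM
  refine h2.trans (mul_le_mul_of_nonneg_left ?_ (by positivity))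
  exact add_le_add le_rfl h3

/-- **(DV), class `AS`, in the form of 746: density `≥ c` at scale `h / 2`.** -/
theorem dv_AS [IsFiniteMeasure W] (hW : CAS W π κ x₀ R h₀ δ)
    (hR : ‖x - x₀‖ + 2 * r ≤ R) (hh1 : h₀ ≤ 1) (h0 : 0 ≤ δ) (h1 : δ ≤ 1) (hh : 0 < h)
    (hhr : h ≤ r) (hr1 : r ≤ 1) (hM0 : 0 < M) (hσ0 : 0 < σ) (hc0 : 0 < c)
    (hM : ∀ y, ‖y - x‖ < 2 * r → W.real (ov π y h) ≤ M * h ^ m)
    (hσ : ∀ y, ‖y - x‖ < 2 * r → eb W π y h ≤ σ ^ 2 * h ^ m)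
    (hc : ∀ᵐ z ∂W, ‖π z.1 - x‖ < r → c * h ^ m ≤ W.real {p | ‖z.1 - p.1‖ ≤ h / 2}) :
    ∫ z in ov π x r, tl π z.2 ^ 2 ∂W ≤ k / c *
      (320 * M * (h / r) * √(eb W π x (2 * r) * W.real (ov π x (2 * r)))
        + 43 * σ * √M * eb W π x (2 * r) + 11 * M * ea m W π x r h δ) := by
  have hr : 0 < r := hh.trans_le hhr
  have hB := hW.cb
  have h2 := dv_small_AS hW hR hh1 h0 h1 hh le_rfl hhr hr1 hM0 hσ0 hc0 hM hσ
    (isOpen_ov π x r).measurableSet subset_rfl (by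
      filter_upwards [hc] with z hz hzA
      exact (hz hzA).trans (measureReal_mono (ball_sub hB.sp z)))
  have h3 : ∫ z in ov π x r, tl π z.2 ^ 2 ∂W ≤ ∫ z in ov π x r, k * vv (hp π) z.2 ∂W := by
    have hi : Integrable (fun z : Euc k × L k => k * vv (hp π) z.2) W :=
      integrable_one hB.base (continuous_const.mul ((continuous_vv (hp π)).comp continuous_snd))
    refine integral_mono_of_nonneg (Filter.Eventually.of_forall fun z => sq_nonneg _)
      hi.restrict (ae_restrict_of_ae ?_)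
    filter_upwards [hB.base.conc] with z hz
    exact tl_sq_le hB.sp hz
  rw [integral_const_mul] at h3
  refine h3.trans ((mul_le_mul_of_nonneg_left h2 (Nat.cast_nonneg k)).trans ?_)
  have he0 := eb_nonneg hB x (2 * r)
  have hea : 0 ≤ ea m W π x r h δ := by
    have := yb_nonneg (W := W) (π := π) x (2 * r)
    unfold ea
    positivity
  have e1 : (k : ℝ) * (32 / 3 / c *
      (h * (30 / r * M * √(eb W π x (2 * r) * W.real (ov π x (2 * r)))
        + 4 / h * (σ * √M * eb W π x (2 * r))) + M * ea m W π x r h δ))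
      = k / c * (320 * M * (h / r) * √(eb W π x (2 * r) * W.real (ov π x (2 * r)))
        + 128 / 3 * (σ * √M * eb W π x (2 * r)) + 32 / 3 * (M * ea m W π x r h δ)) := by
    field_simp
    ring
  rw [e1]
  refine mul_le_mul_of_nonneg_left ?_ (by positivity)
  have h4 : 0 ≤ σ * √M * eb W π x (2 * r) := by positivity
  have h5 : 0 ≤ M * ea m W π x r h δ := by positivity
  linarith

end Crest.Agent.R234.Pas_762
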