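import Crest.Agent.R234.Pas7_762
import Crest.Agent.R234.Hol6_746

/-!
Row 234 (helper762), VF-DVAS, file 8: the pair inequality as helper746's Prop `DvH`.
-/

set_option autoImplicit false

open MeasureTheory Crest.GeometryTopology.Submanifold Filter Topology Set
open scoped ENNReal InnerProductSpace

noncomputable section

namespace Crest.Agent.R234.Pas_762

open Crest.Agent.R234.Vf_884 Crest.Agent.R234.In_947
  Crest.Agent.R234.Pair2_762 Crest.Agent.R234.Pair3_762 Crest.Agent.R234.Pair4_762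
  Crest.Agent.R234.Pair5_762 Crest.Agent.R234.Pair6_762 Crest.Agent.R234.Ar_870
open Crest.Agent.R234.Cy_870 (Split CylStat Shh)
open Crest.Agent.R234.Asl_214 (CylAS)

variable {m n k : ℕ} {π : Euc k →L[ℝ] Euc m} {κ : Euc k →L[ℝ] Euc n} {x₀ x : Euc m}
  {R h₀ δ r : ℝ} {τ h M σ c : ℝ} {W : Measure (Euc k × L k)}

theorem ov_eq (π : Euc k →L[ℝ] Euc m) (y : Euc m) (s : ℝ) :
    N5_372.ov π (Metric.ball y s) = ov π y s := by
  ext p; exact mem_ball_iff_norm

theorem bm_real {f : L k → ℝ} (hf : Continuous f) (h0 : ∀ᵐ p ∂W, 0 ≤ f p.2) (y : Euc m)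
    (s : ℝ) : (N5_372.bm W π f).real (Metric.ball y s) = ∫ p in ov π y s, f p.2 ∂W := by
  rw [Measure.real, N5_372.bm_apply _ _ _ Metric.isOpen_ball.measurableSet, ov_eq]
  exact (integral_eq_lintegral_of_nonneg_ae (ae_restrict_of_ae h0)
    (hf.comp continuous_snd).aestronglyMeasurable).symm

theorem eM_real (hW : CylBase W π κ) (y : Euc m) (s : ℝ) :
    (N5_372.eM W π).real (Metric.ball y s) = eb W π y s :=
  bm_real (measurable_tl π) (tl_ae_nonneg hW) y s

theorem qM_real (y : Euc m) (s : ℝ) :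
    (N5_372.qM W π).real (Metric.ball y s) = ∫ p in ov π y s, tl π p.2 ^ 2 ∂W :=
  bm_real ((measurable_tl π).pow 2) (Filter.Eventually.of_forall fun _ => sq_nonneg _) y s

theorem eb_le [IsFiniteMeasure W] (hW : CylBase W π κ) (y : Euc m) (s : ℝ) :
    eb W π y s ≤ m * W.real (ov π y s) := by
  have h1 : eb W π y s ≤ ∫ _ in ov π y s, (m : ℝ) ∂W := by
    refine integral_mono_ae (integrable_tl hW).restrict (integrable_const _)
      (ae_restrict_of_ae ?_)
    filter_upwards [hW.base.conc] with p hp'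
    exact tl_le hW.sp.hh (isPr_of_G hp')
  refine h1.trans (le_of_eq ?_)
  rw [integral_const, smul_eq_mul, measureReal_restrict_apply_univ, mul_comm]

theorem yb_le [IsFiniteMeasure W] (hW : CAS W π κ x₀ R h₀ δ) (hh1 : h₀ ≤ 1) (y : Euc m)
    (s : ℝ) : yb W π y s ≤ W.real (ov π y s) := by
  have h1 : yb W π y s ≤ ∫ _ in ov π y s, (1 : ℝ) ∂W := by
    refine integral_mono_ae (integrable_one hW.cb.base ((continuous_yf π).pow 2)).restrict
      (integrable_const _) (ae_restrict_of_ae ?_)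
    filter_upwards [hW.hgt] with p hp'
    show ‖AS_456.vp π p.1‖ ^ 2 ≤ 1
    rw [norm_vp_eq hW.cb.sp]
    exact pow_le_one₀ (norm_nonneg _) (hp'.trans hh1)
  refine h1.trans (le_of_eq ?_)
  rw [integral_const, smul_eq_mul, measureReal_restrict_apply_univ, mul_one]

theorem ea_le [IsFiniteMeasure W] (hW : CAS W π κ x₀ R h₀ δ) (hh1 : h₀ ≤ 1) (h0 : 0 ≤ δ)
    (h1 : δ ≤ 1) (hh : 0 < h) (hhr : h ≤ r) (hr1 : r ≤ 1) {v : ℝ}
    (hv : W.real (ov π x (2 * r)) ≤ v) :
    ea m W π x r h δ ≤ 307 * (m + 1) ^ 2 * √δ * v := by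
  have hr : 0 < r := hh.trans_le hhr
  have hm : (0 : ℝ) ≤ m := Nat.cast_nonneg m
  have hV0 : 0 ≤ W.real (ov π x (2 * r)) := measureReal_nonneg
  have hv0 : 0 ≤ v := hV0.trans hv
  have he0 := eb_nonneg hW.cb x (2 * r)
  have hY0 := yb_nonneg (W := W) (π := π) x (2 * r)
  have he : eb W π x (2 * r) ≤ m * v :=
    (eb_le hW.cb x (2 * r)).trans (mul_le_mul_of_nonneg_left hv hm)
  have hY : yb W π x (2 * r) ≤ v := (yb_le hW hh1 x (2 * r)).trans hv
  have hs0 : 0 ≤ √δ := Real.sqrt_nonneg _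
  have hs1 : √δ ≤ 1 := Real.sqrt_le_one.2 h1
  have hsd : δ = √δ * √δ := (Real.mul_self_sqrt h0).symm
  have hδs : δ ≤ √δ := by nlinarith
  have hδ2 : δ ^ 2 ≤ √δ := by nlinarith
  have a1 : √(eb W π x (2 * r) * yb W π x (2 * r)) ≤ (m + 1) * v := by
    refine Real.sqrt_le_iff.2 ⟨by positivity, ?_⟩
    have : eb W π x (2 * r) * yb W π x (2 * r) ≤ (m * v) * v :=
      mul_le_mul he hY hY0 (by positivity)
    nlinarith [mul_nonneg hm (sq_nonneg v), mul_nonneg (mul_nonneg hm hm) (sq_nonneg v),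
      sq_nonneg v]
  have a2 : √((eb W π x (2 * r) + yb W π x (2 * r)) * W.real (ov π x (2 * r)))
      ≤ (m + 1) * v := by
    refine Real.sqrt_le_iff.2 ⟨by positivity, ?_⟩
    have : (eb W π x (2 * r) + yb W π x (2 * r)) * W.real (ov π x (2 * r))
        ≤ (m * v + v) * v := mul_le_mul (add_le_add he hY) hv hV0 (by positivity)
    nlinarith [mul_nonneg hm (sq_nonneg v), mul_nonneg (mul_nonneg hm hm) (sq_nonneg v),
      sq_nonneg v]
  have a3 : h / r ≤ 1 := by rw [div_le_one hr]; exact hhr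
  have a4 : 0 ≤ h / r := by positivity
  have t1 : 120 * (m + 1) * δ * (eb W π x (2 * r) + √(eb W π x (2 * r) * yb W π x (2 * r)))
      ≤ 120 * (m + 1) * √δ * (m * v + (m + 1) * v) := by gcongr
  have t2 : 34 * (m + 1) * δ ^ 2 * yb W π x (2 * r) ≤ 34 * (m + 1) * √δ * v := by gcongr
  have t3 : 32 * δ * (h / r) * √((eb W π x (2 * r) + yb W π x (2 * r))
      * W.real (ov π x (2 * r))) ≤ 32 * √δ * 1 * ((m + 1) * v) := by gcongr
  have t4 : √δ * h * eb W π x (2 * r) ≤ √δ * 1 * (m * v) := by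
    have : h ≤ 1 := hhr.trans hr1
    gcongr
  unfold ea
  have hsv : 0 ≤ √δ * v := mul_nonneg hs0 hv0
  have t5 : 120 * (m + 1) * √δ * (m * v + (m + 1) * v) + 34 * (m + 1) * √δ * v
      + 32 * √δ * 1 * ((m + 1) * v) + √δ * 1 * (m * v)
      = (120 * (m + 1) * (2 * m + 1) + 66 * (m + 1) + m) * (√δ * v) := by ring
  have t6 : (120 * ((m : ℝ) + 1) * (2 * m + 1) + 66 * (m + 1) + m) ≤ 307 * (m + 1) ^ 2 := by
    nlinarith [mul_nonneg hm hm]
  have t7 := mul_le_mul_of_nonneg_right t6 hsv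
  have t8 : 307 * ((m : ℝ) + 1) ^ 2 * √δ * v = 307 * (m + 1) ^ 2 * (√δ * v) := by ring
  rw [t8]
  linarith

/-- **helper746's `DvH`, literally.** -/
theorem dvH (m k : ℕ) {C c : ℝ} (hC : 0 < C) (hc0 : 0 < c) : Hol_746.DvH m k C c := by
  refine ⟨k / c * (320 * C * √C + 43 * √C + 11 * C * (307 * (m + 1) ^ 2 * C)), by positivity,
    fun n π κ W x₀ R h₀ δ hW h0 h1 hh0 hh1 x r h σ hR hh hhr hr1 hσ0 hσ1 hM hv hσ hc => ?_⟩
  have : IsFiniteMeasure W := ⟨hW.fin⟩
  have hr : 0 < r := hh.trans_le hhr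
  have hB := base_of_as hW
  have hCAS := cas_of hW
  have g1 := dv_cylAS (x := x) (r := r) (h := h) (M := C) (σ := σ) (c := c) hW (by linarith)
    hh1 h0 h1 hh hhr hr1 hC hσ0 hc0
    (fun y hy => by
      have := hM y (mem_ball_iff_norm.2 hy)
      rwa [ov_eq] at this)
    (fun y hy => by
      have := hσ y (mem_ball_iff_norm.2 hy)
      rwa [eM_real hB] at this)
    (by
      filter_upwards [hc] with z hz hz2
      exact hz (mem_ball_iff_norm.2 (by linarith)))
  rw [ov_eq] at hv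
  have hv' : W.real (ov π x (2 * r)) ≤ C * r ^ m := hv
  rw [qM_real, eM_real hB]
  have he0 := eb_nonneg hB x (2 * r)
  set e := eb W π x (2 * r) with he
  have g2 := ea_le hCAS hh1 h0 h1 hh hhr hr1 hv'
  have hrm : 0 < r ^ m := pow_pos hr m
  have g3 : √(e * W.real (ov π x (2 * r))) ≤ √C * √(e * r ^ m) := by
    rw [← Real.sqrt_mul hC.le]
    refine Real.sqrt_le_sqrt ?_
    calc e * W.real (ov π x (2 * r)) ≤ e * (C * r ^ m) := mul_le_mul_of_nonneg_left hv' he0
      _ = C * (e * r ^ m) := by ring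
  refine g1.trans ?_
  have hkc : 0 ≤ (k : ℝ) / c := by positivity
  have hq0 : 0 ≤ h / r := by positivity
  have g4 : 320 * C * (h / r) * √(e * W.real (ov π x (2 * r)))
      + 43 * σ * √C * e + 11 * C * ea m W π x r h δ
      ≤ 320 * C * (h / r) * (√C * √(e * r ^ m)) + 43 * σ * √C * e
        + 11 * C * (307 * (m + 1) ^ 2 * √δ * (C * r ^ m)) := by gcongr
  refine (mul_le_mul_of_nonneg_left g4 hkc).trans ?_
  have p1 : 0 ≤ k / c * (43 * √C + 11 * C * (307 * (m + 1) ^ 2 * C))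
      * ((h / r) * √(e * r ^ m)) := by positivity
  have p2 : 0 ≤ k / c * (320 * C * √C + 11 * C * (307 * (m + 1) ^ 2 * C)) * (σ * e) := by
    positivity
  have p3 : 0 ≤ k / c * (320 * C * √C + 43 * √C) * √δ * r ^ m := by positivity
  have e1 : k / c * (320 * C * √C + 43 * √C + 11 * C * (307 * (m + 1) ^ 2 * C))
        * ((h / r) * √(e * r ^ m) + σ * e)
      + k / c * (320 * C * √C + 43 * √C + 11 * C * (307 * (m + 1) ^ 2 * C)) * √δ * r ^ m
      = k / c * (320 * C * (h / r) * (√C * √(e * r ^ m)) + 43 * σ * √C * e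
        + 11 * C * (307 * (m + 1) ^ 2 * √δ * (C * r ^ m)))
      + (k / c * (43 * √C + 11 * C * (307 * (m + 1) ^ 2 * C)) * ((h / r) * √(e * r ^ m))
      + k / c * (320 * C * √C + 11 * C * (307 * (m + 1) ^ 2 * C)) * (σ * e)
      + k / c * (320 * C * √C + 43 * √C) * √δ * r ^ m) := by ring
  rw [e1]
  linarith

end Crest.Agent.R234.Pas_762
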