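import Crest.Agent.R234.Pas8_762
import Crest.Agent.R234.Hol7_746
import Crest.Agent.R234.La6_300

/-!
Row 234 (helper762), VF-DVAS, file 9: the hole lemma of helper746 without hypotheses
(`LogH` from helper300, `DvH` from `Pas8_762`).
-/

set_option autoImplicit false

open MeasureTheory Crest.GeometryTopology.Submanifold Filter Topology Set Metric
open scoped ENNReal InnerProductSpace

noncomputable section

namespace Crest.Agent.R234.Pas_762

open Crest.Agent.R234.Vf_884 Crest.Agent.R234.Ar_870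
open Crest.Agent.R234.N5_372 (eM qM lM)
open Crest.Agent.R234.Hol_746 (HSit)

/-- **HOLE** in the class, unconditional. -/
theorem hole {m k : ℕ} (hm : 2 ≤ m) {C₀ c₀ : ℝ} (hC₀ : 0 < C₀) (hc₀ : 0 < c₀)
    {η : ℝ} (hη : 0 < η) :
    ∃ δH > 0, ∃ lam > 0, ∃ d0 > 0, ∀ (n : ℕ) (π : Euc k →L[ℝ] Euc m) (κ : Euc k →L[ℝ] Euc n)
      (W : Measure (Euc k × L k)) (x₀ : Euc m) (R h₀ δ : ℝ), HSit C₀ c₀ W π κ x₀ R h₀ δ → δ ≤ d0 →
      ∀ S : Submodule ℝ (Euc m), Module.finrank ℝ S + 2 = m → ∀ (x : Euc m) (s E : ℝ), 0 < s →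
      s ≤ 1 → h₀ ≤ s → ‖x - x₀‖ + 2 * s ≤ R → (eM W π).real (ball x (2 * s)) ≤ E * s ^ (m - 2) →
      lam * E ≤ s ^ 2 → (lM W π S).real (ball x (2 * s)) ≤ δH * E * s ^ (m - 2) →
      (qM W π).real (ball x s) ≤ η * E * s ^ (m - 2) :=
  Hol_746.hole_at hm hC₀ hc₀ (fun _ hC _ hc => La_300.logH m k hC.le hc)
    (fun _ hC _ hc => dvH m k hC hc) hη

end Crest.Agent.R234.Pas_762
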