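import Crest.Agent.R234.Pd9_435
import Crest.Agent.R234.Pin8_3

/-!
# Row 234, VF-F11 (helper435): V-level instance of `Pin3_3.Data`, part 10: the fields `up, lo, J, sep`
of `Pin8_3.CtrData` from the frequency data of 534's chart at a `Q`-point.
-/

set_option autoImplicit false
set_option linter.unusedVariables false
set_option linter.unusedSectionVars false

open MeasureTheory Filter Topology Set Metric
open scoped ENNReal NNReal ContDiff InnerProductSpace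
open Crest.GeometryTopology.Submanifold Crest.Agent.R234.Vf_884
open Crest.Agent.R234.Main_456 Crest.Agent.R234.F11_435
open Crest.Agent.R234.Gi_456
open Crest.Agent.R234.Cy_870 (Prof)
open Crest.Agent.R234.Pin3_3 (BB HH)
open Crest.Agent.R234.Pin1_3 (FD NN)
open Crest.Agent.R234.GL_394 (VK On II ee EE bb RR RF RT Ph OO qq Pf KB)
open Crest.Agent.R234.Qp_534 (Qx wz cz Tz h0)

noncomputable section

namespace Crest.Agent.R234.Pd_435

local notation "adj" => ContinuousLinearMap.adjoint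

/-- comparison of the two quadratic forms -/
theorem form_le {RR Ph I RF e α c0 τ : ℝ} (hI : 0 ≤ I) (hRF : 0 ≤ RF) (hRR : 0 ≤ RR)
    (h1 : (√RR - c0 * √I) ^ 2 ≤ RF) (h2 : |Ph - e| ≤ τ * I) (h4 : |Ph| ≤ √(I * RF) + c0 * I)
    (hc0 : 0 ≤ c0) (hc1 : c0 ≤ 1) (hα : 0 ≤ α) :
    RR - 2 * α * Ph + α ^ 2 * I ≤ (1 + 2 * c0) * (RF - 2 * α * e + α ^ 2 * I) +
      (c0 * (4 * α ^ 2 + 4 * α * (c0 + τ)) + 2 * c0 + 2 * α * τ) * I ∧
    -(2 * α * (c0 + τ) * I) ≤ RF - 2 * α * e + α ^ 2 * I := by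
  have hs : √(I * RF) = √I * √RF := Real.sqrt_mul hI _
  have hI2 := Real.sq_sqrt hI
  have hRF2 := Real.sq_sqrt hRF
  have hRR2 := Real.sq_sqrt hRR
  have hIs := Real.sqrt_nonneg I
  have hRFs := Real.sqrt_nonneg RF
  have hRRs := Real.sqrt_nonneg RR
  set a := √I with ha
  set b := √RF with hb
  set c := √RR with hc
  have e1 : c ≤ b + c0 * a := by
    have : c - c0 * a ≤ b := Real.le_sqrt_of_sq_le h1
    linarith
  have e2 : RR ≤ RF + 2 * c0 * (a * b) + c0 ^ 2 * I := by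
    rw [← hRR2, ← hRF2, ← hI2]
    have := pow_le_pow_left₀ hRRs e1 2
    calc c ^ 2 ≤ (b + c0 * a) ^ 2 := this
      _ = _ := by ring
  have e3 : 2 * (a * b) ≤ I + RF := by
    rw [← hI2, ← hRF2]
    linarith [sq_nonneg (a - b)]
  have e4 : RR ≤ (1 + c0) * RF + (c0 + c0 ^ 2) * I := by
    have := mul_le_mul_of_nonneg_left e3 hc0
    linarith
  -- e ≤ a b + (c0 + τ) I
  have e5 : e ≤ a * b + (c0 + τ) * I := by
    have h5 := (abs_le.1 h2).1
    have h6 := (abs_le.1 h4).2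
    rw [hs] at h6
    linarith
  have e6 : 2 * α * (a * b) ≤ RF / 2 + 2 * α ^ 2 * I := by
    rw [← hI2, ← hRF2]
    linarith [sq_nonneg (2 * α * a - b)]
  have e7 : 2 * α * e ≤ 2 * α * (a * b) + 2 * α * (c0 + τ) * I := by
    have := mul_le_mul_of_nonneg_left e5 (by positivity : 0 ≤ 2 * α)
    linarith
  have e8 : RF ≤ 2 * (RF - 2 * α * e + α ^ 2 * I) + (4 * α ^ 2 + 4 * α * (c0 + τ)) * I := by
    have : 0 ≤ α ^ 2 * I := by positivity
    linarith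
  have e9 : 2 * α * (e - Ph) ≤ 2 * α * (τ * I) := by
    have h5 := (abs_le.1 h2).1
    have h6 : e - Ph ≤ τ * I := by linarith
    exact mul_le_mul_of_nonneg_left h6 (by positivity)
  constructor
  · have h10 := mul_le_mul_of_nonneg_left e8 hc0
    have h11 : c0 ^ 2 * I ≤ c0 * I := by
      have : c0 ^ 2 ≤ c0 := by nlinarith
      gcongr
    linarith
  · have h10 : 2 * α * (a * b) ≤ RF + α ^ 2 * I := by
      rw [← hI2, ← hRF2]
      linarith [sq_nonneg (α * a - b)]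
    linarith

/-- smallness constant -/
def Msm (A C' Λe B : ℝ) : ℝ :=
  A * (30 * (16 * C' ^ 2 + 8 * C' * (1 + (B + Λe)) + 2 + 4 * C' * (B + Λe)) + 2880 * Λe +
    1440 * (5 + 20 * C' ^ 2)) + 4 * C' ^ 2 * (1 + (B + Λe))

theorem J_alg {A C' Λe B σ c0 d0 α I RR Ph RF e R' : ℝ} (hA : 0 ≤ A) (hAC : 90 * A ≤ C')
    (hC' : 1 ≤ C') (hΛe : 0 ≤ Λe) (hB : 0 ≤ B) (hσ0 : 0 ≤ σ) (hσ1 : σ ≤ 1) (hc0 : 0 ≤ c0)
    (hc0σ : c0 ≤ σ) (hd0 : 0 ≤ d0) (hd0σ : d0 ≤ σ) (hα : 0 ≤ α) (hα2 : α ≤ 2 * C') (hI : 0 ≤ I)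
    (hRF : 0 ≤ RF) (hRR : 0 ≤ RR) (h1 : (√RR - c0 * √I) ^ 2 ≤ RF) (he : e ≤ Λe * I)
    (h2 : |Ph - e| ≤ c0 * (B * I) + d0 * e) (h4 : |Ph| ≤ √(I * RF) + c0 * I) (hR : RF ≤ R') :
    A * (30 * (RR - 2 * α * Ph + α ^ 2 * I) + 2880 * σ ^ 2 * e +
      1440 * σ ^ 2 * (5 + 5 * α ^ 2) * I) ≤
      C' * (R' - 2 * α * e + α ^ 2 * I) + σ * Msm A C' Λe B * I := by
  obtain ⟨T, hT⟩ : ∃ T, T = B + Λe := ⟨_, rfl⟩
  have hT0 : 0 ≤ T := by rw [hT]; positivity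
  obtain ⟨τ, hτ⟩ : ∃ τ, τ = c0 * B + d0 * Λe := ⟨_, rfl⟩
  have hτ0 : 0 ≤ τ := by rw [hτ]; positivity
  have hτσ : τ ≤ σ * T := by
    rw [hτ, hT]
    have e1 := mul_le_mul_of_nonneg_right hc0σ hB
    have e2 := mul_le_mul_of_nonneg_right hd0σ hΛe
    linarith
  have h2' : |Ph - e| ≤ τ * I := by
    refine h2.trans ?_
    have e1 := mul_le_mul_of_nonneg_left he hd0
    rw [hτ]
    linarith
  obtain ⟨f1, f2⟩ := form_le (e := e) (α := α) hI hRF hRR h1 h2' h4 hc0 (hc0σ.trans hσ1) hα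
  obtain ⟨q, hq⟩ : ∃ q, q = RF - 2 * α * e + α ^ 2 * I := ⟨_, rfl⟩
  rw [← hq] at f1 f2
  have hcτ : c0 + τ ≤ σ * (1 + T) := by linarith
  have hcτ1 : c0 + τ ≤ 1 + T := by
    have : σ * (1 + T) ≤ 1 * (1 + T) := by gcongr
    linarith
  have hcτ0 : 0 ≤ c0 + τ := by positivity
  have hE : c0 * (4 * α ^ 2 + 4 * α * (c0 + τ)) + 2 * c0 + 2 * α * τ ≤
      σ * (16 * C' ^ 2 + 8 * C' * (1 + T) + 2 + 4 * C' * T) := by
    have e1 : 4 * α ^ 2 + 4 * α * (c0 + τ) ≤ 16 * C' ^ 2 + 8 * C' * (1 + T) := by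
      have e2 : α ^ 2 ≤ (2 * C') ^ 2 := pow_le_pow_left₀ hα hα2 2
      have e3 : α * (c0 + τ) ≤ 2 * C' * (1 + T) := by gcongr
      linarith
    have e4 : c0 * (4 * α ^ 2 + 4 * α * (c0 + τ)) ≤ σ * (16 * C' ^ 2 + 8 * C' * (1 + T)) := by
      gcongr
    have e5 : α * τ ≤ 2 * C' * (σ * T) := by gcongr
    linarith
  have hβ : A * (30 * ((1 + 2 * c0) * q)) ≤ C' * q + C' * (2 * (2 * C') * (σ * (1 + T)) * I) := by
    have e1 : 2 * α * (c0 + τ) * I ≤ 2 * (2 * C') * (σ * (1 + T)) * I := by gcongr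
    have e2 : A * 30 * (1 + 2 * c0) ≤ C' := by
      have : A * 30 * (1 + 2 * c0) ≤ A * 30 * (1 + 2 * 1) := by
        gcongr
        exact hc0σ.trans hσ1
      linarith
    have e3 : 0 ≤ A * 30 * (1 + 2 * c0) := by positivity
    obtain ⟨β, hβ⟩ : ∃ β, β = A * 30 * (1 + 2 * c0) := ⟨_, rfl⟩
    obtain ⟨s, hs⟩ : ∃ s, s = 2 * (2 * C') * (σ * (1 + T)) * I := ⟨_, rfl⟩
    have hs0 : 0 ≤ s := by rw [hs]; positivity
    rw [← hβ] at e2 e3
    rw [← hs] at e1 ⊢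
    have e4 : A * (30 * ((1 + 2 * c0) * q)) = β * q := by rw [hβ]; ring
    rw [e4]
    have e5 : -s ≤ q := by linarith
    have e6 : 0 ≤ (C' - β) * (q + s) := mul_nonneg (by linarith) (by linarith)
    have e7 : 0 ≤ β * s := mul_nonneg e3 hs0
    linarith
  have hq' : C' * q ≤ C' * (R' - 2 * α * e + α ^ 2 * I) := by
    rw [hq]
    gcongr
  have hσ2 : σ ^ 2 ≤ σ := by nlinarith
  have g1 : σ ^ 2 * e ≤ σ * (Λe * I) := by
    calc σ ^ 2 * e ≤ σ ^ 2 * (Λe * I) := by gcongr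
      _ ≤ σ * (Λe * I) := by gcongr
  have g2 : σ ^ 2 * (5 + 5 * α ^ 2) * I ≤ σ * (5 + 20 * C' ^ 2) * I := by
    have e2 : α ^ 2 ≤ (2 * C') ^ 2 := pow_le_pow_left₀ hα hα2 2
    have e3 : 5 + 5 * α ^ 2 ≤ 5 + 20 * C' ^ 2 := by linarith
    gcongr
  have g3 : 30 * (RR - 2 * α * Ph + α ^ 2 * I) + 2880 * σ ^ 2 * e +
      1440 * σ ^ 2 * (5 + 5 * α ^ 2) * I ≤ 30 * ((1 + 2 * c0) * q) +
      30 * (σ * (16 * C' ^ 2 + 8 * C' * (1 + T) + 2 + 4 * C' * T) * I) +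
      2880 * (σ * (Λe * I)) + 1440 * (σ * (5 + 20 * C' ^ 2) * I) := by
    have e1 := mul_le_mul_of_nonneg_right hE hI
    linarith
  have g4 := mul_le_mul_of_nonneg_left g3 hA
  unfold Msm
  rw [← hT]
  calc _ ≤ _ := g4
    _ = A * (30 * ((1 + 2 * c0) * q)) + A * (30 * (σ * (16 * C' ^ 2 + 8 * C' * (1 + T) + 2 +
        4 * C' * T) * I) + 2880 * (σ * (Λe * I)) + 1440 * (σ * (5 + 20 * C' ^ 2) * I)) := by ring
    _ ≤ (C' * (R' - 2 * α * e + α ^ 2 * I) + C' * (2 * (2 * C') * (σ * (1 + T)) * I)) +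
        A * (30 * (σ * (16 * C' ^ 2 + 8 * C' * (1 + T) + 2 +
        4 * C' * T) * I) + 2880 * (σ * (Λe * I)) + 1440 * (σ * (5 + 20 * C' ^ 2) * I)) := by
        linarith
    _ = _ := by ring

/-- rescaled function: `f̃ l = r⁻² f (l + log r - log (4/3))` -/
def sc (r : ℝ) (f : ℝ → ℝ) (l : ℝ) : ℝ := (r ^ 2)⁻¹ * f (l + (Real.log r - Real.log (4 / 3)))

theorem exp_sc {r : ℝ} (hr : 0 < r) (l : ℝ) :
    Real.exp (l + (Real.log r - Real.log (4 / 3))) = 3 / 4 * r * Real.exp l := by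
  rw [Real.exp_add, Real.exp_sub, Real.exp_log hr, Real.exp_log (by norm_num)]
  field_simp

theorem fd_sc {r : ℝ} (hr : 0 < r) {E I e b R : ℝ → ℝ} {η l₀ l₁ : ℝ}
    (h : FD E I e b R η (l₀ + (Real.log r - Real.log (4 / 3)))
      (l₁ + (Real.log r - Real.log (4 / 3)))) :
    FD (sc r E) (sc r I) (sc r e) (sc r b) (sc r R) η l₀ l₁ := by
  have hc : 0 < (r ^ 2)⁻¹ := by positivity
  set a := Real.log r - Real.log (4 / 3) with ha
  have hm : ∀ {l}, l ∈ Icc l₀ l₁ → l + a ∈ Icc (l₀ + a) (l₁ + a) := fun hl =>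
    ⟨by linarith [hl.1], by linarith [hl.2]⟩
  have hsc : ∀ (f : ℝ → ℝ) (l : ℝ), sc r f l = (r ^ 2)⁻¹ * f (l + a) := fun f l => rfl
  have hb : ∀ l ε : ℝ, |ε| ≤ η * (E (l + a) + |b (l + a)| + I (l + a)) →
      |(r ^ 2)⁻¹ * ε| ≤ η * (sc r E l + |sc r b l| + sc r I l) := by
    intro l ε hε
    rw [hsc, hsc, hsc, abs_mul, abs_mul, abs_of_pos hc]
    calc (r ^ 2)⁻¹ * |ε| ≤ (r ^ 2)⁻¹ * (η * (E (l + a) + |b (l + a)| + I (l + a))) := by gcongr
      _ = _ := by ring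
  have hd : ∀ (f : ℝ → ℝ) (d l : ℝ), HasDerivAt f d (l + a) →
      HasDerivAt (sc r f) ((r ^ 2)⁻¹ * d) l := by
    intro f d l hf
    have h1 : HasDerivAt (fun l : ℝ => f (l + a)) d l := HasDerivAt.comp_add_const l a hf
    exact h1.const_mul _
  refine ⟨fun l hl => ?_, fun l hl => ?_, fun l hl => ?_, fun l hl => ?_, fun l hl => ?_,
    fun l hl => ?_, fun l hl => ?_⟩
  · exact mul_pos hc (h.pos _ (hm hl))
  · obtain ⟨ε, h1, h2⟩ := h.dE _ (hm hl)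
    refine ⟨(r ^ 2)⁻¹ * ε, hb l ε h1, ?_⟩
    convert hd _ _ l h2 using 1
    rw [hsc, hsc]; ring
  · obtain ⟨ε, h1, h2⟩ := h.dI _ (hm hl)
    refine ⟨(r ^ 2)⁻¹ * ε, hb l ε h1, ?_⟩
    convert hd _ _ l h2 using 1
    rw [hsc]; ring
  · rw [hsc, hsc, hsc, h.eE _ (hm hl)]; ring
  · obtain ⟨ε, h1, h2⟩ := h.cs _ (hm hl)
    refine ⟨(r ^ 2)⁻¹ * ε, hb l ε h1, ?_⟩
    rw [hsc, hsc, hsc]
    calc ((r ^ 2)⁻¹ * e (l + a) + (r ^ 2)⁻¹ * ε) ^ 2 = (r ^ 2)⁻¹ ^ 2 * (e (l + a) + ε) ^ 2 := by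
          ring
      _ ≤ (r ^ 2)⁻¹ ^ 2 * (I (l + a) * R (l + a)) := by gcongr
      _ = _ := by ring
  · rw [hsc, hsc]
    have := mul_le_mul_of_nonneg_left (h.low _ (hm hl)) hc.le
    linarith
  · rw [hsc, hsc]
    have := mul_le_mul_of_nonneg_left (h.bu _ (hm hl)) hc.le
    linarith

theorem nn_sc {r : ℝ} (hr : 0 < r) (E I : ℝ → ℝ) (l : ℝ) :
    NN (sc r E) (sc r I) l = NN E I (l + (Real.log r - Real.log (4 / 3))) := by
  unfold NN sc
  have hc : (r ^ 2)⁻¹ ≠ 0 := by positivity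
  rw [show 2 * ((r ^ 2)⁻¹ * E (l + (Real.log r - Real.log (4 / 3)))) =
    (r ^ 2)⁻¹ * (2 * E (l + (Real.log r - Real.log (4 / 3)))) by ring, mul_div_mul_left _ _ hc]

variable {m n k : ℕ} {U : Set (Euc k)} {V : Measure (Euc k × L k)} {Q K : ℕ} {x : Euc k} {r : ℝ}
  {π : Euc k →L[ℝ] Euc m} {ρ : Euc k →L[ℝ] Euc n} {u : Euc m → Euc n} {ε C : ℝ}
  {W : Euc m → Euc n} {κ : ℝ} {zh : Euc k}

theorem Qz.Ph_sub (h : Qx U V Q K x r π ρ u ε C W κ zh) {g g1 g2 : ℝ → ℝ} {B : ℝ}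
    (hp : Pf g g1 g2 B) {c0 d0 hh C0 l : ℝ} {zN : Euc k → Euc k}
    (hk : KB (cz π ρ x r W zh) (Qp_534.Kz π ρ x r W zh (h0 m Q ε)) l c0 d0 hh C0 zN)
    (hl : Real.exp l ≤ 5 * r) :
    |Ph (cz π ρ x r W zh) (Vz m V Q π ρ x r ε W zh) g1 l -
      ee (cz π ρ x r W zh) (Vz m V Q π ρ x r ε W zh) g l| ≤
      c0 * (B * II (cz π ρ x r W zh) (Vz m V Q π ρ x r ε W zh) g1 l) +
        d0 * ee (cz π ρ x r W zh) (Vz m V Q π ρ x r ε W zh) g l := by
  have h1 := GL_394.ee_eq h.ok (on h) hp.pr.k0 l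
  have h2 := GL_394.er2_le (l := l) h.ok (on h) hp hk
  have h3 : Cy_870.FV (Vz m V Q π ρ x r ε W zh) (GL_394.X2 (cz π ρ x r W zh) g l) = 0 :=
    (h.loc (L := l) hl).fv2 h.reg hp.pr.k0 le_rfl
  rw [h3, zero_sub] at h1
  rw [h1]
  have e : Ph (cz π ρ x r W zh) (Vz m V Q π ρ x r ε W zh) g1 l -
      (Ph (cz π ρ x r W zh) (Vz m V Q π ρ x r ε W zh) g1 l + Real.exp ((2 - m) * l) *
        -GL_394.er2 (cz π ρ x r W zh) (Vz m V Q π ρ x r ε W zh) g l) =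
      Real.exp ((2 - m) * l) * GL_394.er2 (cz π ρ x r W zh) (Vz m V Q π ρ x r ε W zh) g l := by
    ring
  rw [e, abs_mul, abs_of_pos (Real.exp_pos _)]
  rw [h1] at h2
  exact h2

set_option maxHeartbeats 1000000 in
/-- **the fields `up`, `lo`, `J`** from 394's functions at a `Q`-point. -/
theorem ulj_core (m : ℕ) {g g1 g2 : ℝ → ℝ} {B cg C₂ Λ C' lm η : ℝ} (hp : Pf g g1 g2 B)
    (hcg : 0 < cg) (hg0 : ∀ y, 0 ≤ y → y ≤ 1 / 2 → cg ≤ g y ∧ cg ≤ -2 * g1 y) (hC₂ : 0 ≤ C₂)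
    (hΛ : 0 ≤ Λ) (h1C : 1 ≤ C') (hCJ : 90 * cg⁻¹ ≤ C') (hCu : (4 / 3) ^ m * (12 * B) ≤ C')
    (hη : 0 < η) :
    ∃ σ : ℝ, 0 < σ ∧ ∀ {n k : ℕ} {U : Set (Euc k)} {V : Measure (Euc k × L k)} {Q K : ℕ}
      {x : Euc k} {r : ℝ} {π : Euc k →L[ℝ] Euc m} {ρ : Euc k →L[ℝ] Euc n} {u : Euc m → Euc n}
      {ε C : ℝ} {W : Euc m → Euc n} {κ : ℝ} {zh : Euc k},
      Qx U V Q K x r π ρ u ε C W κ zh → κ ≤ σ → h0 m Q ε ≤ σ →
      sepz V π ρ x r u zh 7 ≤ C₂ * sep V π ρ x r u 8 →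
      ∀ Rp c0 d0 : ℝ → ℝ,
      (∀ l ∈ Icc (lm + (Real.log r - Real.log (4 / 3))) (-3 + (Real.log r - Real.log (4 / 3))),
        (∃ (hh C0 : ℝ) (zN : Euc k → Euc k), KB (cz π ρ x r W zh)
          (Qp_534.Kz π ρ x r W zh (h0 m Q ε)) l (c0 l) (d0 l) hh C0 zN) ∧
        c0 l ≤ σ ∧ d0 l ≤ σ ∧
        RT (cz π ρ x r W zh) (Vz m V Q π ρ x r ε W zh) g1 l ≤ Rp l ∧
        sep V π ρ x r u 8 ≤
          Λ * (r ^ m * II (cz π ρ x r W zh) (Vz m V Q π ρ x r ε W zh) g1 l)) →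
      (∀ l ∈ Icc lm (-3), Real.exp l ^ m * sc r (II (cz π ρ x r W zh)
          (Vz m V Q π ρ x r ε W zh) g1) l ≤ C' *
        ∫ q in BB (Xr π x r) (r⁻¹ • π (zh - x)) (Real.exp l),
          ‖Yr π ρ x r u q - r⁻¹ • hgt π ρ x r u zh‖ ^ 2 ∂(nu V π ρ x r)) ∧
      (∀ l ∈ Icc lm (-3), ∫ q in BB (Xr π x r) (r⁻¹ • π (zh - x)) (Real.exp l / 2),
          ‖Yr π ρ x r u q - r⁻¹ • hgt π ρ x r u zh‖ ^ 2 ∂(nu V π ρ x r) ≤
        C' * (Real.exp l ^ m * sc r (II (cz π ρ x r W zh) (Vz m V Q π ρ x r ε W zh) g1) l)) ∧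
      (∀ l ∈ Icc lm (-3), ∀ α, 0 ≤ α → α ≤ 2 * C' →
        ∫ q in BB (Xr π x r) (r⁻¹ • π (zh - x)) (Real.exp l / 2),
          ‖Pin2_3.er (Tr π ρ x r u q) (Xr π x r q) (r⁻¹ • π (zh - x)) (Yr π ρ x r u q)
            (r⁻¹ • hgt π ρ x r u zh) α‖ ^ 2 ∂(nu V π ρ x r) ≤
          Real.exp l ^ m * (C' * (sc r Rp l -
            2 * α * sc r (ee (cz π ρ x r W zh) (Vz m V Q π ρ x r ε W zh) g) l +
            α ^ 2 * sc r (II (cz π ρ x r W zh) (Vz m V Q π ρ x r ε W zh) g1) l) +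
            η * sc r (II (cz π ρ x r W zh) (Vz m V Q π ρ x r ε W zh) g1) l)) := by
  have hB : 0 ≤ B := (hp.nn 0 le_rfl).trans (hp.b0 0 le_rfl)
  have hCe := Qz.Ce_pos m
  obtain ⟨ΛO, hΛO⟩ : ∃ ΛO, ΛO = Qz.Ce m * (C₂ * (Λ * (4 / 3 * Real.exp (-lm)) ^ m)) :=
    ⟨_, rfl⟩
  have hΛO0 : 0 ≤ ΛO := by rw [hΛO]; positivity
  obtain ⟨Λe, hΛe⟩ : ∃ Λe, Λe = B * ΛO := ⟨_, rfl⟩
  have hΛe0 : 0 ≤ Λe := by rw [hΛe]; positivity
  obtain ⟨M, hMd⟩ : ∃ M, M = Msm cg⁻¹ C' Λe B + C' * (4 * B * ΛO + 1) := ⟨_, rfl⟩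
  have hM : 0 < M := by
    have h1 : 0 < C' := by linarith
    have : 0 < cg⁻¹ := by positivity
    rw [hMd]
    unfold Msm
    positivity
  refine ⟨min (1 / 12) (min (Real.exp lm / 32) (η / M)), by positivity, ?_⟩
  intro n k U V Q K x r π ρ u ε C W κ zh h hκ hh0 hs7 Rp c0 d0 hlev
  obtain ⟨σ, hσ⟩ : ∃ σ, σ = min (1 / 12) (min (Real.exp lm / 32) (η / M)) :=
    ⟨_, rfl⟩
  rw [← hσ] at hκ hh0 hlev
  have hσ0 : 0 < σ := by rw [hσ]; positivity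
  have hσ12 : σ ≤ 1 / 12 := by rw [hσ]; exact min_le_left _ _
  have hσlm : σ ≤ Real.exp lm / 32 := by
    rw [hσ]; exact (min_le_right _ _).trans (min_le_left _ _)
  have hση : σ * M ≤ η := by
    have : σ ≤ η / M := by
      rw [hσ]; exact (min_le_right _ _).trans (min_le_right _ _)
    rwa [le_div_iff₀ hM] at this
  have hr := h.hr
  have hκ0 := h.k0
  have hh0' := Qp_534.h0_nonneg m Q ε
  have hrm : 0 < r ^ m := by positivity
  set a := Real.log r - Real.log (4 / 3) with ha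
  set c := cz π ρ x r W zh with hc
  set ν := Vz m V Q π ρ x r ε W zh with hν
  have hmem : ∀ {l}, l ∈ Icc lm (-3) → l + a ∈ Icc (lm + a) (-3 + a) := fun hl =>
    ⟨by linarith [hl.1], by linarith [hl.2]⟩
  have hexp : ∀ l, Real.exp (l + a) = 3 / 4 * r * Real.exp l := fun l => exp_sc hr l
  have hle1 : ∀ {l}, l ∈ Icc lm (-3) → Real.exp l ≤ 1 := fun hl =>
    Real.exp_le_one_iff.2 (by linarith [hl.2])
  have hσl : ∀ {l}, l ∈ Icc lm (-3) → σ ≤ Real.exp l / 32 := fun hl =>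
    hσlm.trans (by have := Real.exp_le_exp.2 hl.1; linarith)
  have hKz := Qz.kz h h.cx.hK
  have hon : On ν m (Qp_534.Kz π ρ x r W zh (h0 m Q ε)) := Qz.on h
  have hcz : ch π ρ zh r (wz π x zh r W) 0 = c := rfl
  -- `3 h0 r` against the scale
  have hhl : ∀ {l}, l ∈ Icc lm (-3) → 3 * h0 m Q ε * r ≤ 3 / 32 * (r * Real.exp l) := by
    intro l hl
    calc 3 * h0 m Q ε * r ≤ 3 * (Real.exp l / 32) * r := by
          gcongr
          exact hh0.trans (hσl hl)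
      _ = _ := by ring
  refine ⟨?_, ?_, ?_⟩
  · -- up
    intro l hl
    have hE := Real.exp_pos l
    have h1 := hKz.up hon hp.pr 0 (l := l + a) (B := B) (t := Real.exp l * r) hp.b1 (by
      rw [hexp]
      have := hhl hl
      have := mul_pos hr hE
      linarith)
    rw [hcz] at h1
    have h2 := Qz.int_Y h (t := Real.exp l) hE (by linarith [hle1 hl])
    rw [h2]
    have h3 : Real.exp l ^ m = (4 / 3) ^ m * (r ^ m)⁻¹ * Real.exp (l + a) ^ m := by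
      rw [hexp, mul_pow, mul_pow, div_pow, div_pow]
      field_simp
    have h4 : 0 ≤ ∫ p in cyc π zh 0 (Real.exp l * r), ‖hw π ρ zh (wz π x zh r W) p.1‖ ^ 2 ∂ν :=
      integral_nonneg fun p => by positivity
    have h5 : Real.exp (l + a) ^ m * II c ν g1 (l + a) ≤
      12 * B * ∫ p in cyc π zh 0 (Real.exp l * r), ‖hw π ρ zh (wz π x zh r W) p.1‖ ^ 2 ∂ν := h1
    calc Real.exp l ^ m * sc r (II c ν g1) l =
        (4 / 3) ^ m * (r ^ (m + 2))⁻¹ * (Real.exp (l + a) ^ m * II c ν g1 (l + a)) := by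
          rw [h3, pow_add, mul_inv]
          unfold sc
          ring
      _ ≤ (4 / 3) ^ m * (r ^ (m + 2))⁻¹ * (12 * B * ∫ p in cyc π zh 0 (Real.exp l * r),
          ‖hw π ρ zh (wz π x zh r W) p.1‖ ^ 2 ∂ν) := by gcongr
      _ = ((4 / 3) ^ m * (12 * B)) * ((r ^ (m + 2))⁻¹ * ∫ p in cyc π zh 0 (Real.exp l * r),
          ‖hw π ρ zh (wz π x zh r W) p.1‖ ^ 2 ∂ν) := by ring
      _ ≤ _ := by gcongr
  · -- lo
    intro l hl
    have hE := Real.exp_pos l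
    have h1 := hKz.lo hon hp.pr 0 (l := l + a) (cg := cg) (t := Real.exp l / 2 * r) hcg hg0 (by
      rw [hexp]; linarith) (by
      rw [hexp]
      have := hhl hl
      linarith)
    rw [hcz] at h1
    have h2 := Qz.int_Y h (t := Real.exp l / 2) (by positivity) (by linarith [hle1 hl])
    rw [h2]
    have h5 : ∫ p in cyc π zh 0 (Real.exp l / 2 * r), ‖hw π ρ zh (wz π x zh r W) p.1‖ ^ 2 ∂ν ≤
        8 * cg⁻¹ * (Real.exp (l + a) ^ m * II c ν g1 (l + a)) := h1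
    have hI0 : 0 ≤ II c ν g1 (l + a) := GL_394.II_nonneg h.ok hon hp.pr.anti _
    have h6 : ((3:ℝ) / 4) ^ m ≤ 1 := pow_le_one₀ (by norm_num) (by norm_num)
    calc (r ^ (m + 2))⁻¹ * ∫ p in cyc π zh 0 (Real.exp l / 2 * r),
          ‖hw π ρ zh (wz π x zh r W) p.1‖ ^ 2 ∂ν
        ≤ (r ^ (m + 2))⁻¹ * (8 * cg⁻¹ * (Real.exp (l + a) ^ m * II c ν g1 (l + a))) := by gcongr
      _ = (8 * cg⁻¹ * (3 / 4) ^ m) * (Real.exp l ^ m * sc r (II c ν g1) l) := by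
          rw [hexp, mul_pow, mul_pow, pow_add, mul_inv]
          unfold sc
          rw [← ha]
          field_simp
      _ ≤ C' * (Real.exp l ^ m * sc r (II c ν g1) l) := by
          have e0 : 0 ≤ sc r (II c ν g1) l := mul_nonneg (by positivity) hI0
          gcongr
          have : 0 < cg⁻¹ := by positivity
          nlinarith
  · -- J
    intro l hl α hα hα2
    have hE := Real.exp_pos l
    obtain ⟨⟨hh, C0, zN, hk⟩, hc0, hd0, hR, hsepl⟩ := hlev (l + a) (hmem hl)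
    have h1 := hKz.J hon hp.pr 0 (l := l + a) (δ := σ) (α := α) (cg := cg)
      (t := Real.exp l / 2 * r) hκ (by
        rw [hexp]
        calc κ / r * (3 / 4 * r * Real.exp l) = κ * (3 / 4 * Real.exp l) := by field_simp
          _ ≤ κ * 1 := by
            gcongr
            linarith [hle1 hl]
          _ ≤ σ := by rw [mul_one]; exact hκ) hσ12 hcg (by positivity) hg0 (by
        rw [hexp]; linarith) (by
        rw [hexp]
        have := hhl hl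
        linarith)
    rw [hcz] at h1
    have h2 := Qz.int_er h (t := Real.exp l / 2) (by positivity) (by linarith [hle1 hl]) α
    rw [h2]
    have hI0 : 0 ≤ II c ν g1 (l + a) := GL_394.II_nonneg h.ok hon hp.pr.anti _
    have hRR0 : 0 ≤ RR c ν g1 (l + a) := GL_394.RR_nonneg h.ok hon hp.pr.anti _
    have hRF0 := GL_394.RF_nonneg (l := l + a) h.ok hon hp hk
    have hRFge := GL_394.RF_ge (l := l + a) h.ok hon hp hk
    have hPh := GL_394.Ph_le (l := l + a) h.ok hon hp hk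
    have hr1 : Real.exp (l + a) ≤ r := by
      rw [hexp]
      calc 3 / 4 * r * Real.exp l ≤ 3 / 4 * r * 1 := by
            gcongr
            exact hle1 hl
        _ ≤ r := by linarith
    have hl5 : Real.exp (l + a) ≤ 5 * r := by linarith
    have hl3 : Real.exp (l + a) ≤ 3 * r := by linarith
    have hPs := Qz.Ph_sub h hp hk hl5
    -- energy bound
    have hscale : ∀ E : ℝ, Real.exp (l + a) ^ m * E ≤
        Qz.Ce m * Hc V Q π ρ x r ε W zh (19 / 4) → E ≤ ΛO * II c ν g1 (l + a) := by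
      intro E e1
      have e2 : Hc V Q π ρ x r ε W zh (19 / 4) ≤ C₂ * sep V π ρ x r u 8 := by
        rw [← Qz.sepz_eq h (by norm_num) le_rfl]
        exact (Qz.sepz_mono h (by norm_num) le_rfl).trans hs7
      have e3 : Real.exp (l + a) ^ m * E ≤
          Qz.Ce m * (C₂ * (Λ * (r ^ m * II c ν g1 (l + a)))) := by
        refine e1.trans ?_
        gcongr
        exact e2.trans (by gcongr)
      have e4 : 0 < Real.exp (l + a) ^ m := by positivity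
      have e5 : r ^ m ≤ Real.exp (l + a) ^ m * (4 / 3 * Real.exp (-lm)) ^ m := by
        rw [← mul_pow, hexp]
        refine pow_le_pow_left₀ hr.le ?_ m
        have e6 : 1 ≤ Real.exp l * Real.exp (-lm) := by
          rw [← Real.exp_add]
          exact Real.one_le_exp (by linarith [hl.1])
        calc r = r * 1 := (mul_one r).symm
          _ ≤ r * (Real.exp l * Real.exp (-lm)) := by gcongr
          _ = _ := by ring
      refine le_of_mul_le_mul_left ?_ e4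
      refine e3.trans ?_
      rw [hΛO]
      calc Qz.Ce m * (C₂ * (Λ * (r ^ m * II c ν g1 (l + a)))) ≤
          Qz.Ce m * (C₂ * (Λ * ((Real.exp (l + a) ^ m * (4 / 3 * Real.exp (-lm)) ^ m) *
            II c ν g1 (l + a)))) := by gcongr
        _ = _ := by ring
    have hOO : OO c ν (l + a) ≤ ΛO * II c ν g1 (l + a) := hscale _ (Qz.B2O h hl3)
    have hOO0 : 0 ≤ OO c ν (l + a) := GL_394.OO_nonneg (l := l + a) h.ok hon hk
    have hee : ee c ν g (l + a) ≤ Λe * II c ν g1 (l + a) := by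
      have e1 := GL_394.ee_le_OO (l := l + a) h.ok hon hp hk
      rw [hΛe, mul_assoc]
      exact e1.trans (mul_le_mul_of_nonneg_left hOO hB)
    have hRF : RF c ν g1 B (c0 (l + a)) (d0 (l + a)) (l + a) ≤
        Rp (l + a) + σ * (4 * B * ΛO + 1) * II c ν g1 (l + a) := by
      unfold GL_394.RF
      have e1 : 4 * B * d0 (l + a) * OO c ν (l + a) ≤
          4 * B * σ * (ΛO * II c ν g1 (l + a)) := by
        have := hk.d0n
        gcongr
      have e2 : c0 (l + a) ^ 2 * II c ν g1 (l + a) ≤ σ * II c ν g1 (l + a) := by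
        have h1 := hk.c0n
        have : c0 (l + a) ^ 2 ≤ σ := by nlinarith
        gcongr
      calc RT c ν g1 (l + a) + 4 * B * d0 (l + a) * OO c ν (l + a) +
          c0 (l + a) ^ 2 * II c ν g1 (l + a) ≤ Rp (l + a) + 4 * B * σ *
            (ΛO * II c ν g1 (l + a)) + σ * II c ν g1 (l + a) := by gcongr
        _ = _ := by ring
    have hJ := J_alg (A := cg⁻¹) (C' := C') (Λe := Λe) (B := B) (σ := σ) (c0 := c0 (l + a))
      (d0 := d0 (l + a)) (α := α) (I := II c ν g1 (l + a)) (RR := RR c ν g1 (l + a))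
      (Ph := Ph c ν g1 (l + a)) (RF := RF c ν g1 B (c0 (l + a)) (d0 (l + a)) (l + a))
      (e := ee c ν g (l + a))
      (R' := Rp (l + a) + σ * (4 * B * ΛO + 1) * II c ν g1 (l + a)) (by positivity) hCJ h1C hΛe0
      hB hσ0.le (by linarith) hk.c0n hc0 hk.d0n hd0 hα hα2 hI0 hRF0 hRR0 hRFge hee hPs hPh hRF
    have h3 : 0 ≤ ∫ p in cyc π zh 0 (Real.exp l / 2 * r),
        ‖dhw π ρ zh (wz π x zh r W) p.1 (p.2 (adj π (π (p.1 - zh) - 0))) -
          α • hw π ρ zh (wz π x zh r W) p.1‖ ^ 2 ∂ν := integral_nonneg fun p => by positivity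
    obtain ⟨J0, hJ0⟩ : ∃ J0, J0 = ∫ p in cyc π zh 0 (Real.exp l / 2 * r),
        ‖dhw π ρ zh (wz π x zh r W) p.1 (p.2 (adj π (π (p.1 - zh) - 0))) -
          α • hw π ρ zh (wz π x zh r W) p.1‖ ^ 2 ∂ν := ⟨_, rfl⟩
    have h4 : Real.exp (-m * (l + a)) * J0 ≤
        C' * (Rp (l + a) - 2 * α * ee c ν g (l + a) + α ^ 2 * II c ν g1 (l + a)) +
          η * II c ν g1 (l + a) := by
      rw [hJ0]
      refine le_trans h1 (hJ.trans ?_)
      have e1 := mul_le_mul_of_nonneg_right hση hI0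
      rw [hMd] at e1
      linarith
    rw [← hJ0]
    rw [← hJ0] at h3
    have h5 : Real.exp (l + a) ^ m * Real.exp (-m * (l + a)) = 1 := by
      rw [← Real.exp_nat_mul, ← Real.exp_add]
      simp
    obtain ⟨X, hX⟩ : ∃ X, X = C' * (Rp (l + a) - 2 * α * ee c ν g (l + a) +
      α ^ 2 * II c ν g1 (l + a)) + η * II c ν g1 (l + a) := ⟨_, rfl⟩
    rw [← hX] at h4
    have hX0 : 0 ≤ X := le_trans (by positivity) h4
    have h6 : ((3:ℝ) / 4) ^ m ≤ 1 := pow_le_one₀ (by norm_num) (by norm_num)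
    have h7 : J0 ≤ Real.exp (l + a) ^ m * X := by
      calc J0 = Real.exp (l + a) ^ m * (Real.exp (-m * (l + a)) * J0) := by
            rw [← mul_assoc, h5, one_mul]
        _ ≤ _ := by gcongr
    calc (r ^ (m + 2))⁻¹ * J0 ≤ (r ^ (m + 2))⁻¹ * (Real.exp (l + a) ^ m * X) := by gcongr
      _ = (3 / 4) ^ m * (Real.exp l ^ m * ((r ^ 2)⁻¹ * X)) := by
          rw [hexp, mul_pow, mul_pow, pow_add, mul_inv]
          field_simp
      _ ≤ 1 * (Real.exp l ^ m * ((r ^ 2)⁻¹ * X)) := by gcongr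
      _ = _ := by
          rw [hX]
          unfold sc
          rw [← ha]
          ring

end Crest.Agent.R234.Pd_435
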