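import Crest.Agent.R234.Sp3_643

/-!
R234 (helper3), VF-PIN part 2: the algebra of pinching at the vertices of a fat simplex.

`err_i = T (X - z_i) - α_i (Y - c_i)`, `t_i(X)` barycentric coordinates:
`a(X) Y - b(X) = - ∑ t_i err_i` with `a, b` affine, `a(z_i) = α_i`, `b(z_i) = α_i c_i`.
-/

open MeasureTheory Set

namespace Crest.Agent.R234.Pin2_3

variable {E W Ω : Type*} [NormedAddCommGroup E] [InnerProductSpace ℝ E]
  [NormedAddCommGroup W] [InnerProductSpace ℝ W]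

/-- the error of pinching at the centre `z` -/
def er (T : E →L[ℝ] W) (x z : E) (y c : W) (α : ℝ) : W := T (x - z) - α • (y - c)

/-- **Barycentric identity.** -/
theorem bary {ι : Type*} (s : Finset ι) (T : E →L[ℝ] W) (x : E) (y : W) (z : ι → E) (c : ι → W)
    (α t : ι → ℝ) (h1 : ∑ i ∈ s, t i = 1) (h2 : ∑ i ∈ s, t i • z i = x) :
    (∑ i ∈ s, t i * α i) • y - ∑ i ∈ s, (t i * α i) • c i =
      -∑ i ∈ s, t i • er T x (z i) y (c i) (α i) := by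
  have h3 : ∑ i ∈ s, t i • er T x (z i) y (c i) (α i) =
      T (∑ i ∈ s, t i • (x - z i)) - (∑ i ∈ s, t i * α i) • y + ∑ i ∈ s, (t i * α i) • c i := by
    unfold er
    rw [map_sum, Finset.sum_smul, ← Finset.sum_sub_distrib, ← Finset.sum_add_distrib]
    refine Finset.sum_congr rfl fun i _ => ?_
    rw [map_smul, smul_sub, smul_smul, smul_sub]
    abel
  have h4 : ∑ i ∈ s, t i • (x - z i) = 0 := by
    simp only [smul_sub]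
    rw [Finset.sum_sub_distrib, ← Finset.sum_smul, h1, one_smul, h2, sub_self]
  rw [h3, h4, map_zero]
  abel

theorem norm_sum_smul_sq_le {ι : Type*} (s : Finset ι) (t : ι → ℝ) (w : ι → W) {Λ : ℝ}
    (ht : ∀ i ∈ s, |t i| ≤ Λ) : ‖∑ i ∈ s, t i • w i‖ ^ 2 ≤ s.card * Λ ^ 2 * ∑ i ∈ s, ‖w i‖ ^ 2 := by
  calc ‖∑ i ∈ s, t i • w i‖ ^ 2 ≤ (∑ i ∈ s, ‖t i • w i‖) ^ 2 :=
        pow_le_pow_left₀ (norm_nonneg _) (norm_sum_le _ _) 2
    _ ≤ s.card * ∑ i ∈ s, ‖t i • w i‖ ^ 2 := sq_sum_le_card_mul_sum_sq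
    _ ≤ s.card * ∑ i ∈ s, Λ ^ 2 * ‖w i‖ ^ 2 := by
        gcongr with i hi
        rw [norm_smul, mul_pow, Real.norm_eq_abs]
        have := pow_le_pow_left₀ (abs_nonneg _) (ht i hi) 2
        gcongr
    _ = s.card * Λ ^ 2 * ∑ i ∈ s, ‖w i‖ ^ 2 := by rw [← Finset.mul_sum]; ring

/-- pointwise estimate off the slab `|a| < κ`. -/
theorem ptw {ι : Type*} (s : Finset ι) (T : E →L[ℝ] W) (x : E) (y : W) (z : ι → E) (c : ι → W)
    (α t : ι → ℝ) (h1 : ∑ i ∈ s, t i = 1) (h2 : ∑ i ∈ s, t i • z i = x) {Λ : ℝ}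
    (ht : ∀ i ∈ s, |t i| ≤ Λ) :
    (∑ i ∈ s, t i * α i) ^ 2 * ‖y‖ ^ 2 ≤
      s.card * Λ ^ 2 * ∑ i ∈ s, ‖er T x (z i) y (c i) (α i)‖ ^ 2 +
        2 * ((∑ i ∈ s, t i * α i) * inner ℝ (∑ i ∈ s, (t i * α i) • c i) y) := by
  have h3 := norm_sum_smul_sq_le s t (fun i => er T x (z i) y (c i) (α i)) ht
  rw [← norm_neg, ← bary s T x y z c α t h1 h2, norm_sub_sq_real, norm_smul, mul_pow,
    Real.norm_eq_abs, sq_abs, inner_smul_left, real_inner_comm] at h3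
  simp only [RCLike.conj_to_real] at h3
  have := sq_nonneg ‖∑ i ∈ s, (t i * α i) • c i‖
  linarith

variable [MeasurableSpace Ω]

/-- **pinching at the vertices of a simplex forces the barycentre-free part to vanish** -/
theorem single {ι : Type*} (s : Finset ι) (ν : Measure Ω) (ζ : Ω → ℝ) (hζ : ∀ ω, 0 ≤ ζ ω)
    (X : Ω → E) (Y : Ω → W) (T : Ω → E →L[ℝ] W) (z : ι → E) (c : ι → W) (α : ι → ℝ)
    (t : ι → E → ℝ) {Λ κ D D' D'' : ℝ} (hκ : 0 < κ)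
    (h1 : ∀ x, ∑ i ∈ s, t i x = 1) (h2 : ∀ x, ∑ i ∈ s, t i x • z i = x)
    (ht : ∀ ω, ζ ω ≠ 0 → ∀ i ∈ s, |t i (X ω)| ≤ Λ)
    (hi : ∀ i ∈ s, Integrable (fun ω => ζ ω * ‖er (T ω) (X ω) (z i) (Y ω) (c i) (α i)‖ ^ 2) ν)
    (hi' : Integrable (fun ω => ζ ω * ((∑ i ∈ s, t i (X ω) * α i) *
      inner ℝ (∑ i ∈ s, (t i (X ω) * α i) • c i) (Y ω))) ν)
    (hY : Integrable (fun ω => ζ ω * ‖Y ω‖ ^ 2) ν)
    (hS : MeasurableSet {ω | |∑ i ∈ s, t i (X ω) * α i| < κ})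
    (hD : ∀ i ∈ s, ∫ ω, ζ ω * ‖er (T ω) (X ω) (z i) (Y ω) (c i) (α i)‖ ^ 2 ∂ν ≤ D)
    (hD' : ∫ ω, ζ ω * ((∑ i ∈ s, t i (X ω) * α i) *
      inner ℝ (∑ i ∈ s, (t i (X ω) * α i) • c i) (Y ω)) ∂ν ≤ D')
    (hD'' : ∫ ω in {ω | |∑ i ∈ s, t i (X ω) * α i| < κ}, ζ ω * ‖Y ω‖ ^ 2 ∂ν ≤ D'') :
    ∫ ω, ζ ω * ‖Y ω‖ ^ 2 ∂ν ≤ (κ ^ 2)⁻¹ * ((s.card : ℝ) ^ 2 * Λ ^ 2 * D + 2 * D') + D'' := by
  set S : Set Ω := {ω | |∑ i ∈ s, t i (X ω) * α i| < κ} with hSdef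
  have hκ2 : 0 < κ ^ 2 := by positivity
  set G : Ω → ℝ := fun ω => s.card * Λ ^ 2 *
      ∑ i ∈ s, ζ ω * ‖er (T ω) (X ω) (z i) (Y ω) (c i) (α i)‖ ^ 2 +
        2 * (ζ ω * ((∑ i ∈ s, t i (X ω) * α i) *
          inner ℝ (∑ i ∈ s, (t i (X ω) * α i) • c i) (Y ω))) with hG
  have hGi : Integrable G ν := by
    refine ((integrable_finsetSum _ fun i his => hi i his).const_mul _).add (hi'.const_mul 2)
  have hpt : ∀ ω, (∑ i ∈ s, t i (X ω) * α i) ^ 2 * (ζ ω * ‖Y ω‖ ^ 2) ≤ G ω := by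
    intro ω
    by_cases h0 : ζ ω = 0
    · simp [hG, h0]
    · have h3 := ptw s (T ω) (X ω) (Y ω) z c α (fun i => t i (X ω)) (h1 _) (h2 _) (ht ω h0)
      have h4 := mul_le_mul_of_nonneg_left h3 (hζ ω)
      simp only [hG]
      rw [← Finset.mul_sum]
      linarith
  have hG0 : ∀ ω, 0 ≤ G ω := fun ω =>
    le_trans (mul_nonneg (sq_nonneg _) (mul_nonneg (hζ ω) (sq_nonneg _))) (hpt ω)
  have hpt2 : ∀ ω, ζ ω * ‖Y ω‖ ^ 2 ≤ (κ ^ 2)⁻¹ * G ω + S.indicator (fun ω => ζ ω * ‖Y ω‖ ^ 2) ω := by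
    intro ω
    by_cases hω : ω ∈ S
    · rw [indicator_of_mem hω]
      have := mul_nonneg (inv_pos.2 hκ2).le (hG0 ω)
      linarith
    · rw [indicator_of_notMem hω, add_zero, inv_mul_eq_div, le_div_iff₀ hκ2]
      have h3 : κ ≤ |∑ i ∈ s, t i (X ω) * α i| := not_lt.1 hω
      have h4 : κ ^ 2 ≤ (∑ i ∈ s, t i (X ω) * α i) ^ 2 := by
        rw [← sq_abs (∑ i ∈ s, t i (X ω) * α i)]
        exact pow_le_pow_left₀ hκ.le h3 2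
      have h5 : 0 ≤ ζ ω * ‖Y ω‖ ^ 2 := mul_nonneg (hζ ω) (sq_nonneg _)
      calc ζ ω * ‖Y ω‖ ^ 2 * κ ^ 2 ≤ ζ ω * ‖Y ω‖ ^ 2 * (∑ i ∈ s, t i (X ω) * α i) ^ 2 := by gcongr
        _ ≤ G ω := by rw [mul_comm]; exact hpt ω
  calc ∫ ω, ζ ω * ‖Y ω‖ ^ 2 ∂ν
      ≤ ∫ ω, ((κ ^ 2)⁻¹ * G ω + S.indicator (fun ω => ζ ω * ‖Y ω‖ ^ 2) ω) ∂ν :=
        integral_mono hY ((hGi.const_mul _).add (hY.indicator hS)) hpt2
    _ = (κ ^ 2)⁻¹ * ∫ ω, G ω ∂ν + ∫ ω in S, ζ ω * ‖Y ω‖ ^ 2 ∂ν := by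
        rw [integral_add (hGi.const_mul _) (hY.indicator hS), integral_const_mul,
          integral_indicator hS]
    _ ≤ (κ ^ 2)⁻¹ * ((s.card : ℝ) ^ 2 * Λ ^ 2 * D + 2 * D') + D'' := by
        gcongr
        simp only [hG]
        rw [integral_add ((integrable_finsetSum _ fun i his => hi i his).const_mul _)
          (hi'.const_mul 2), integral_const_mul, integral_const_mul,
          integral_finsetSum _ fun i his => hi i his]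
        have h6 : ∑ i ∈ s, ∫ ω, ζ ω * ‖er (T ω) (X ω) (z i) (Y ω) (c i) (α i)‖ ^ 2 ∂ν ≤
            s.card * D := by
          calc _ ≤ ∑ _i ∈ s, D := Finset.sum_le_sum hD
            _ = s.card * D := by simp
        have h7 : (s.card : ℝ) * Λ ^ 2 *
            ∑ i ∈ s, ∫ ω, ζ ω * ‖er (T ω) (X ω) (z i) (Y ω) (c i) (α i)‖ ^ 2 ∂ν ≤
            s.card * Λ ^ 2 * (s.card * D) := by gcongr
        linarith

end Crest.Agent.R234.Pin2_3
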