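import Crest.Agent.R234.Pin1_3
import Crest.Agent.R234.Pin2_3

/-!
R234 (helper3), VF-PIN part 3: the abstract data of the pinching theorem and the comparison of the
heights at different centres and scales.
-/

open MeasureTheory Set Real
open scoped RealInnerProductSpace

namespace Crest.Agent.R234.Pin3_3

set_option linter.unusedSectionVars false

open Crest.Agent.R234.Pin1_3 Crest.Agent.R234.Pin2_3

variable {E W Ω : Type*} [NormedAddCommGroup E] [InnerProductSpace ℝ E] [FiniteDimensional ℝ E]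
  [MeasurableSpace E] [BorelSpace E]
  [NormedAddCommGroup W] [InnerProductSpace ℝ W] [FiniteDimensional ℝ W] [MeasurableSpace Ω]

/-- the part of the space over the ball `B_ρ(z)` -/
def BB (X : Ω → E) (z : E) (ρ : ℝ) : Set Ω := {ω | ‖X ω - z‖ < ρ}

/-- `∫_{B_ρ(z)} |Y|²` -/
noncomputable def HH (ν : Measure Ω) (X : Ω → E) (Y : Ω → W) (z : E) (ρ : ℝ) : ℝ :=
  ∫ ω in BB X z ρ, ‖Y ω‖ ^ 2 ∂ν

/-- Abstract data of the pinching theorem: positions `X`, heights `Y`, mixed block `T`, set `A` of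
centres with heights `c`, frequency functions `F, I, e, b, R` at the centres, scales `e^l`,
`l ∈ [lm, lt]`, structural constant `C`, smallness `η`, cut-off profile `φ`, dimension `m`. -/
structure Data (m : ℕ) (ν : Measure Ω) (X : Ω → E) (Y : Ω → W) (T : Ω → E →L[ℝ] W) (A : Set E)
    (c : E → W) (F I e b R : E → ℝ → ℝ) (φ : ℝ → ℝ) (C η lm lt : ℝ) : Prop where
  fin : IsFiniteMeasure ν
  mX : Measurable X
  mY : AEStronglyMeasurable Y ν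
  mT : AEStronglyMeasurable T ν
  bd : ∃ K, ∀ᵐ ω ∂ν, ‖X ω‖ ≤ K ∧ ‖Y ω‖ ≤ K ∧ ‖T ω‖ ≤ K
  φc : Continuous φ
  φ0 : ∀ t, 0 ≤ φ t
  φ1 : ∀ t, φ t ≤ 1
  φin : ∀ t, t ≤ 1 / 4 → φ t = 1
  φout : ∀ t, 1 ≤ t → φ t = 0
  fd : ∀ z ∈ A, FD (F z) (I z) (e z) (b z) (R z) η lm lt
  top : ∀ z ∈ A, NN (F z) (I z) lt ≤ C
  up : ∀ z ∈ A, ∀ l ∈ Icc lm lt,
    exp l ^ m * I z l ≤ C * ∫ ω in BB X z (exp l), ‖Y ω - c z‖ ^ 2 ∂ν
  lo : ∀ z ∈ A, ∀ l ∈ Icc lm lt,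
    ∫ ω in BB X z (exp l / 2), ‖Y ω - c z‖ ^ 2 ∂ν ≤ C * (exp l ^ m * I z l)
  J : ∀ z ∈ A, ∀ l ∈ Icc lm lt, ∀ α, 0 ≤ α → α ≤ 2 * C →
    ∫ ω in BB X z (exp l / 2), ‖er (T ω) (X ω) z (Y ω) (c z) α‖ ^ 2 ∂ν ≤
      exp l ^ m * (C * (R z l - 2 * α * e z l + α ^ 2 * I z l) + η * I z l)
  sup : ∀ z ∈ A, ∀ ρ, exp lm ≤ ρ → ρ ≤ exp lt →
    ∀ᵐ ω ∂ν, ω ∈ BB X z ρ → ‖Y ω‖ ^ 2 * ρ ^ m ≤ C * HH ν X Y z (2 * ρ)
  hgt : ∀ z ∈ A, ∀ ρ, exp lm ≤ ρ → ρ ≤ exp lt → ‖c z‖ ^ 2 * ρ ^ m ≤ C * HH ν X Y z ρ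
  mass : ∀ z ∈ A, ∀ ρ, exp lm ≤ ρ → ρ ≤ exp lt → ν.real (BB X z ρ) ≤ C * ρ ^ m
  massl : ∀ z ∈ A, ∀ ρ, exp lm ≤ ρ → ρ ≤ exp lt → ρ ^ m ≤ C * ν.real (BB X z ρ)
  slab : ∀ z ∈ A, ∀ ρ, exp lm ≤ ρ → ρ ≤ exp lt → ∀ u : E, ‖u‖ = 1 → ∀ t w : ℝ, 0 ≤ w →
    ν.real {ω | ‖X ω - z‖ < ρ ∧ |⟪u, X ω - z⟫ - t| ≤ w * ρ} ≤ C * (w + η) * ρ ^ m
  bar : ∀ z ∈ A, ∀ ρ, exp lm ≤ ρ → ρ ≤ exp lt → ∀ (a₀ : ℝ) (a₁ : E) (b₀ : W) (B : E →L[ℝ] W),
    |∫ ω, φ (‖X ω - z‖ ^ 2 / ρ ^ 2) *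
        ((a₀ + ⟪a₁, X ω - z⟫) * ⟪b₀ + B (X ω - z), Y ω⟫) ∂ν| ≤
      η * (|a₀| + ‖a₁‖) * (‖b₀‖ + ‖B‖) * √(I z lt)

namespace Data

variable {m : ℕ} {ν : Measure Ω} {X : Ω → E} {Y : Ω → W} {T : Ω → E →L[ℝ] W} {A : Set E}
  {c : E → W} {F I e b R : E → ℝ → ℝ} {φ : ℝ → ℝ} {C η lm lt : ℝ}

/-- continuous functions of `(X, Y, T)` are integrable -/
theorem int (h : Data m ν X Y T A c F I e b R φ C η lm lt) {G : E × W × (E →L[ℝ] W) → ℝ}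
    (hG : Continuous G) : Integrable (fun ω => G (X ω, Y ω, T ω)) ν := by
  have := h.fin
  obtain ⟨K, hK⟩ := h.bd
  have : ProperSpace (E →L[ℝ] W) := FiniteDimensional.proper ℝ _
  have : ProperSpace E := FiniteDimensional.proper ℝ _
  have : ProperSpace W := FiniteDimensional.proper ℝ _
  obtain ⟨M, hM⟩ := ((isCompact_closedBall (0 : E) K).prod ((isCompact_closedBall (0 : W) K).prod
    (isCompact_closedBall (0 : E →L[ℝ] W) K))).exists_bound_of_continuousOn hG.continuousOn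
  refine Integrable.of_bound (C := M) ?_ ?_
  · exact hG.comp_aestronglyMeasurable
      (h.mX.aestronglyMeasurable.prodMk (h.mY.prodMk h.mT))
  · filter_upwards [hK] with ω hω
    refine hM _ ⟨?_, ?_, ?_⟩
    · simpa using hω.1
    · simpa using hω.2.1
    · simpa using hω.2.2

theorem measurableSet_BB (h : Data m ν X Y T A c F I e b R φ C η lm lt) (z : E) (ρ : ℝ) :
    MeasurableSet (BB X z ρ) :=
  measurableSet_lt ((h.mX.sub_const z).norm) measurable_const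

theorem intY (h : Data m ν X Y T A c F I e b R φ C η lm lt) (y : W) :
    Integrable (fun ω => ‖Y ω - y‖ ^ 2) ν :=
  h.int (G := fun p => ‖p.2.1 - y‖ ^ 2) (by fun_prop)

theorem intY0 (h : Data m ν X Y T A c F I e b R φ C η lm lt) :
    Integrable (fun ω => ‖Y ω‖ ^ 2) ν :=
  h.int (G := fun p => ‖p.2.1‖ ^ 2) (by fun_prop)

theorem HH_mono (h : Data m ν X Y T A c F I e b R φ C η lm lt) {z z' : E} {ρ ρ' : ℝ}
    (hzz : ‖z - z'‖ + ρ ≤ ρ') : HH ν X Y z ρ ≤ HH ν X Y z' ρ' := by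
  unfold HH
  refine setIntegral_mono_set h.intY0.integrableOn
    (Filter.Eventually.of_forall fun ω => by positivity) (Filter.Eventually.of_forall ?_)
  intro ω hω
  have h1 : ‖X ω - z'‖ ≤ ‖X ω - z‖ + ‖z - z'‖ := by
    have := norm_add_le (X ω - z) (z - z')
    rwa [sub_add_sub_cancel] at this
  have h2 : ‖X ω - z‖ < ρ := hω
  change ‖X ω - z'‖ < ρ'
  linarith

theorem HH_nonneg (ν : Measure Ω) (X : Ω → E) (Y : Ω → W) (z : E) (ρ : ℝ) : 0 ≤ HH ν X Y z ρ :=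
  integral_nonneg fun ω => by positivity

/-- `∫_{B_ρ(z)} |Y - y|² ≤ 2 ∫ |Y|² + 2 |y|² ν(B)` -/
theorem int_sub_le (h : Data m ν X Y T A c F I e b R φ C η lm lt) (z : E) (ρ : ℝ) (y : W) :
    ∫ ω in BB X z ρ, ‖Y ω - y‖ ^ 2 ∂ν ≤ 2 * HH ν X Y z ρ + 2 * (‖y‖ ^ 2 * ν.real (BB X z ρ)) := by
  have := h.fin
  have h1 : ∫ ω in BB X z ρ, ‖Y ω - y‖ ^ 2 ∂ν ≤
      ∫ ω in BB X z ρ, (2 * ‖Y ω‖ ^ 2 + 2 * ‖y‖ ^ 2) ∂ν := by
    refine integral_mono (h.intY y).integrableOn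
      ((h.intY0.const_mul 2).add (integrable_const _)).integrableOn fun ω => ?_
    have h2 : ‖Y ω - y‖ ^ 2 ≤ (‖Y ω‖ + ‖y‖) ^ 2 :=
      pow_le_pow_left₀ (norm_nonneg _) (norm_sub_le _ _) 2
    simp only
    nlinarith [sq_nonneg (‖Y ω‖ - ‖y‖)]
  refine h1.trans (le_of_eq ?_)
  rw [integral_add (h.intY0.const_mul 2).integrableOn (integrable_const _), integral_const_mul,
    setIntegral_const, smul_eq_mul]
  unfold HH
  ring

/-- `∫_{B_ρ(z)} |Y|² ≤ 2 ∫ |Y - y|² + 2 |y|² ν(B)` -/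
theorem HH_le (h : Data m ν X Y T A c F I e b R φ C η lm lt) (z : E) (ρ : ℝ) (y : W) :
    HH ν X Y z ρ ≤ 2 * ∫ ω in BB X z ρ, ‖Y ω - y‖ ^ 2 ∂ν + 2 * (‖y‖ ^ 2 * ν.real (BB X z ρ)) := by
  have := h.fin
  have h1 : HH ν X Y z ρ ≤ ∫ ω in BB X z ρ, (2 * ‖Y ω - y‖ ^ 2 + 2 * ‖y‖ ^ 2) ∂ν := by
    refine integral_mono h.intY0.integrableOn
      (((h.intY y).const_mul 2).add (integrable_const _)).integrableOn fun ω => ?_
    have h2 : ‖Y ω‖ ^ 2 ≤ (‖Y ω - y‖ + ‖y‖) ^ 2 := by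
      refine pow_le_pow_left₀ (norm_nonneg _) ?_ 2
      have := norm_add_le (Y ω - y) y
      rwa [sub_add_cancel] at this
    simp only
    nlinarith [sq_nonneg (‖Y ω - y‖ - ‖y‖)]
  refine h1.trans (le_of_eq ?_)
  rw [integral_add ((h.intY y).const_mul 2).integrableOn (integrable_const _), integral_const_mul,
    setIntegral_const, smul_eq_mul]
  ring

/-- `I` is controlled by the heights in the ball of the same radius. -/
theorem I_le_HH (h : Data m ν X Y T A c F I e b R φ C η lm lt) (hC : 0 ≤ C) {z : E} (hz : z ∈ A)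
    {l : ℝ} (hl : l ∈ Icc lm lt) :
    exp l ^ m * I z l ≤ 2 * C * (1 + C ^ 2) * HH ν X Y z (exp l) := by
  have h1 := h.up z hz l hl
  have h2 := h.int_sub_le z (exp l) (c z)
  have h3 := h.hgt z hz (exp l) (exp_le_exp.2 hl.1) (exp_le_exp.2 hl.2)
  have h4 := h.mass z hz (exp l) (exp_le_exp.2 hl.1) (exp_le_exp.2 hl.2)
  have h5 : ‖c z‖ ^ 2 * ν.real (BB X z (exp l)) ≤ C ^ 2 * HH ν X Y z (exp l) := by
    calc ‖c z‖ ^ 2 * ν.real (BB X z (exp l)) ≤ ‖c z‖ ^ 2 * (C * exp l ^ m) := by gcongr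
      _ = C * (‖c z‖ ^ 2 * exp l ^ m) := by ring
      _ ≤ C * (C * HH ν X Y z (exp l)) := by gcongr
      _ = C ^ 2 * HH ν X Y z (exp l) := by ring
  calc exp l ^ m * I z l ≤ C * ∫ ω in BB X z (exp l), ‖Y ω - c z‖ ^ 2 ∂ν := h1
    _ ≤ C * (2 * HH ν X Y z (exp l) + 2 * (C ^ 2 * HH ν X Y z (exp l))) := by
        gcongr
        linarith
    _ = 2 * C * (1 + C ^ 2) * HH ν X Y z (exp l) := by ring

/-- the frequency is at most `2 C` at all scales -/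
theorem NN_le (h : Data m ν X Y T A c F I e b R φ C η lm lt) (hC : 1 ≤ C) (hη : 0 ≤ η)
    (hη1 : η ≤ 1 / 16) (hll : lm ≤ lt) (hsm : 160 * η * C * (lt - lm) ≤ 1) {z : E} (hz : z ∈ A)
    {l : ℝ} (hl : l ∈ Icc lm lt) : NN (F z) (I z) l ≤ 2 * C :=
  (h.fd z hz).NN_le hη hη1 hll (by linarith) (h.top z hz) hsm hl

/-- the cut-off -/
theorem φint (h : Data m ν X Y T A c F I e b R φ C η lm lt) {z : E} {ρ : ℝ}
    {G : E × W × (E →L[ℝ] W) → ℝ} (hG : Continuous G) :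
    Integrable (fun ω => φ (‖X ω - z‖ ^ 2 / ρ ^ 2) * G (X ω, Y ω, T ω)) ν :=
  h.int (G := fun p => φ (‖p.1 - z‖ ^ 2 / ρ ^ 2) * G p)
    ((h.φc.comp (by fun_prop)).mul hG)

theorem φ_eq_zero (h : Data m ν X Y T A c F I e b R φ C η lm lt) {z : E} {ρ : ℝ} (hρ : 0 < ρ)
    {ω : Ω} (hω : ω ∉ BB X z ρ) : φ (‖X ω - z‖ ^ 2 / ρ ^ 2) = 0 := by
  apply h.φout
  rw [le_div_iff₀ (by positivity), one_mul]
  exact pow_le_pow_left₀ hρ.le (not_lt.1 hω) 2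

theorem φ_eq_one (h : Data m ν X Y T A c F I e b R φ C η lm lt) {z : E} {ρ : ℝ} (hρ : 0 < ρ)
    {ω : Ω} (hω : ω ∈ BB X z (ρ / 2)) : φ (‖X ω - z‖ ^ 2 / ρ ^ 2) = 1 := by
  apply h.φin
  rw [div_le_iff₀ (by positivity)]
  have h1 : ‖X ω - z‖ ^ 2 ≤ (ρ / 2) ^ 2 := pow_le_pow_left₀ (norm_nonneg _) (le_of_lt hω) 2
  linarith

/-- integrals with the cut-off against integrals over balls -/
theorem φ_int_le (h : Data m ν X Y T A c F I e b R φ C η lm lt) {z : E} {ρ : ℝ} (hρ : 0 < ρ)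
    {G : E × W × (E →L[ℝ] W) → ℝ} (hG : Continuous G) (hG0 : ∀ p, 0 ≤ G p) :
    ∫ ω, φ (‖X ω - z‖ ^ 2 / ρ ^ 2) * G (X ω, Y ω, T ω) ∂ν ≤
      ∫ ω in BB X z ρ, G (X ω, Y ω, T ω) ∂ν := by
  rw [← integral_indicator (h.measurableSet_BB z ρ)]
  refine integral_mono (h.φint hG) ((h.int hG).indicator (h.measurableSet_BB z ρ)) fun ω => ?_
  by_cases hω : ω ∈ BB X z ρ
  · simp only [indicator_of_mem hω]
    exact mul_le_of_le_one_left (hG0 _) (h.φ1 _)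
  · simp only [indicator_of_notMem hω, h.φ_eq_zero hρ hω, zero_mul, le_refl]

theorem le_φ_int (h : Data m ν X Y T A c F I e b R φ C η lm lt) {z : E} {ρ : ℝ} (hρ : 0 < ρ)
    {G : E × W × (E →L[ℝ] W) → ℝ} (hG : Continuous G) (hG0 : ∀ p, 0 ≤ G p) :
    ∫ ω in BB X z (ρ / 2), G (X ω, Y ω, T ω) ∂ν ≤
      ∫ ω, φ (‖X ω - z‖ ^ 2 / ρ ^ 2) * G (X ω, Y ω, T ω) ∂ν := by
  rw [← integral_indicator (h.measurableSet_BB z (ρ / 2))]
  refine integral_mono ((h.int hG).indicator (h.measurableSet_BB z (ρ / 2))) (h.φint hG)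
    fun ω => ?_
  by_cases hω : ω ∈ BB X z (ρ / 2)
  · simp only [indicator_of_mem hω, h.φ_eq_one hρ hω, one_mul, le_refl]
  · simp only [indicator_of_notMem hω]
    exact mul_nonneg (h.φ0 _) (hG0 _)

/-- the height of the centre is controlled by `I`. -/
theorem c_le (h : Data m ν X Y T A c F I e b R φ C η lm lt) (hC : 1 ≤ C) (hη : 0 ≤ η)
    {z : E} (hz : z ∈ A) {l D₁ : ℝ} (hl : l ∈ Icc lm lt) (hl4 : exp lm ≤ exp l / 4)
    (hD₁ : I z lt ≤ D₁ * I z l) (hsm : 4 * η ^ 2 * D₁ * (C * 2 ^ m) ≤ (exp l / 2) ^ m * exp l ^ m) :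
    ‖c z‖ ^ 2 ≤ 4 ^ m * C * (2 * C + 1) * I z l := by
  have := h.fin
  set t := exp l with ht
  have ht0 : 0 < t := exp_pos l
  have hC0 : 0 < C := by linarith
  have hI : 0 < I z l := (h.fd z hz).pos l hl
  have hρ : 0 < t / 2 := by positivity
  set φf : Ω → ℝ := fun ω => φ (‖X ω - z‖ ^ 2 / (t / 2) ^ 2) with hφf
  set S := ∫ ω, φf ω * 1 ∂ν with hS
  set Q2 := ∫ ω, φf ω * ‖Y ω - c z‖ ^ 2 ∂ν with hQ2
  -- lower bound of `S`
  have hS1 : (t / 4) ^ m ≤ C * S := by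
    have h1 := h.massl z hz (t / 4) hl4 (by
      have := exp_le_exp.2 hl.2
      linarith)
    have h2 := h.le_φ_int (z := z) hρ (G := fun _ => 1) continuous_const fun _ => zero_le_one
    rw [setIntegral_const, smul_eq_mul, mul_one] at h2
    have h3 : t / 2 / 2 = t / 4 := by ring
    rw [h3] at h2
    calc (t / 4) ^ m ≤ C * ν.real (BB X z (t / 4)) := h1
      _ ≤ C * S := by
        have : ν.real (BB X z (t / 4)) ≤ S := h2
        gcongr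
  have hSpos : 0 < S := by
    have : 0 < (t / 4) ^ m := by positivity
    by_contra hcon
    have : C * S ≤ 0 := mul_nonpos_of_nonneg_of_nonpos hC0.le (not_lt.1 hcon)
    linarith
  have hQ : Q2 ≤ C * (t ^ m * I z l) :=
    (h.φ_int_le hρ (G := fun p => ‖p.2.1 - c z‖ ^ 2) (by fun_prop) fun _ => by positivity).trans
      (h.lo z hz l hl)
  -- barycentre
  have hbar := h.bar z hz (t / 2) (by linarith [exp_pos lm]) (by
      have := exp_le_exp.2 hl.2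
      linarith) 1 0 (c z) 0
  have e1 : ∫ ω, φ (‖X ω - z‖ ^ 2 / (t / 2) ^ 2) *
      ((1 + ⟪(0 : E), X ω - z⟫) * ⟪c z + (0 : E →L[ℝ] W) (X ω - z), Y ω⟫) ∂ν =
      ∫ ω, φf ω * ⟪c z, Y ω⟫ ∂ν := by
    refine integral_congr_ae (Filter.Eventually.of_forall fun ω => ?_)
    simp [hφf]
  rw [e1] at hbar
  simp only [abs_one, norm_zero, add_zero, mul_one] at hbar
  have h2 : ‖c z‖ ^ 2 / 2 * S - Q2 / 2 ≤ ∫ ω, φf ω * ⟪c z, Y ω⟫ ∂ν := by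
    have i1 : Integrable (fun ω => φf ω * 1) ν := h.φint (G := fun _ => 1) continuous_const
    have i2 : Integrable (fun ω => φf ω * ‖Y ω - c z‖ ^ 2) ν :=
      h.φint (G := fun p => ‖p.2.1 - c z‖ ^ 2) (by fun_prop)
    have i3 : Integrable (fun ω => φf ω * ⟪c z, Y ω⟫) ν :=
      h.φint (G := fun p => ⟪c z, p.2.1⟫) (by fun_prop)
    have h3 : ∫ ω, (‖c z‖ ^ 2 / 2 * (φf ω * 1) - 1 / 2 * (φf ω * ‖Y ω - c z‖ ^ 2)) ∂ν ≤
        ∫ ω, φf ω * ⟪c z, Y ω⟫ ∂ν := by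
      refine integral_mono ((i1.const_mul _).sub (i2.const_mul _)) i3 fun ω => ?_
      have h4 : ⟪c z, Y ω⟫ = ‖c z‖ ^ 2 + ⟪c z, Y ω - c z⟫ := by
        rw [inner_sub_right, real_inner_self_eq_norm_sq]
        ring
      have h5 : -(‖c z‖ * ‖Y ω - c z‖) ≤ ⟪c z, Y ω - c z⟫ := by
        have := abs_real_inner_le_norm (c z) (Y ω - c z)
        linarith [neg_abs_le (⟪c z, Y ω - c z⟫)]
      have h6 : ‖c z‖ ^ 2 / 2 - ‖Y ω - c z‖ ^ 2 / 2 ≤ ⟪c z, Y ω⟫ := by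
        rw [h4]
        nlinarith [sq_nonneg (‖c z‖ - ‖Y ω - c z‖)]
      have h7 := mul_le_mul_of_nonneg_left h6 (h.φ0 (‖X ω - z‖ ^ 2 / (t / 2) ^ 2))
      simp only [hφf]
      linarith
    rw [integral_sub (i1.const_mul _) (i2.const_mul _), integral_const_mul,
      integral_const_mul] at h3
    linarith
  have h3 : ‖c z‖ ^ 2 * S ≤ Q2 + 2 * (η * ‖c z‖ * √(I z lt)) := by
    have := (abs_le.1 hbar).2
    linarith
  have hIlt : 0 ≤ I z lt := ((h.fd z hz).pos lt ⟨hl.1.trans hl.2, le_rfl⟩).le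
  have h4 : 2 * (η * ‖c z‖ * √(I z lt)) ≤ ‖c z‖ ^ 2 * S / 2 + 2 * η ^ 2 * I z lt / S := by
    have h5 : 0 ≤ (‖c z‖ * S - 2 * η * √(I z lt)) ^ 2 / (2 * S) := by positivity
    have h6 : (‖c z‖ * S - 2 * η * √(I z lt)) ^ 2 / (2 * S) =
        ‖c z‖ ^ 2 * S / 2 - 2 * (η * ‖c z‖ * √(I z lt)) + 2 * η ^ 2 * I z lt / S := by
      have h7 : √(I z lt) ^ 2 = I z lt := Real.sq_sqrt hIlt
      field_simp
      rw [show (‖c z‖ * S - 2 * η * √(I z lt)) ^ 2 = ‖c z‖ ^ 2 * S ^ 2 -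
        4 * (η * ‖c z‖ * √(I z lt)) * S + 4 * η ^ 2 * √(I z lt) ^ 2 by ring, h7]
      ring
    linarith
  have h5 : ‖c z‖ ^ 2 * S ≤ 2 * (C * (t ^ m * I z l)) + 4 * η ^ 2 * I z lt / S := by
    have : 4 * η ^ 2 * I z lt / S = 2 * (2 * η ^ 2 * I z lt / S) := by ring
    linarith
  -- conclude
  have h6 : 4 * η ^ 2 * I z lt / S ≤ t ^ m * I z l := by
    rw [div_le_iff₀ hSpos]
    have h7 : (t / 2) ^ m ≤ 2 ^ m * (C * S) := by
      calc (t / 2) ^ m = 2 ^ m * (t / 4) ^ m := by rw [← mul_pow]; congr 1; ring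
        _ ≤ 2 ^ m * (C * S) := by gcongr
    have h8 : 4 * η ^ 2 * I z lt * (C * 2 ^ m) ≤ t ^ m * I z l * S * (C * 2 ^ m) := by
      calc 4 * η ^ 2 * I z lt * (C * 2 ^ m) ≤ 4 * η ^ 2 * (D₁ * I z l) * (C * 2 ^ m) := by gcongr
        _ = 4 * η ^ 2 * D₁ * (C * 2 ^ m) * I z l := by ring
        _ ≤ (t / 2) ^ m * t ^ m * I z l := by gcongr
        _ ≤ (2 ^ m * (C * S)) * t ^ m * I z l := by gcongr
        _ = t ^ m * I z l * S * (C * 2 ^ m) := by ring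
    exact le_of_mul_le_mul_right h8 (by positivity)
  have h7 : ‖c z‖ ^ 2 * S ≤ (2 * C + 1) * (t ^ m * I z l) := by linarith
  have h8 : ‖c z‖ ^ 2 * t ^ m ≤ 4 ^ m * C * (2 * C + 1) * I z l * t ^ m := by
    calc ‖c z‖ ^ 2 * t ^ m = ‖c z‖ ^ 2 * (4 ^ m * (t / 4) ^ m) := by
          rw [← mul_pow]; congr 2; ring
      _ ≤ ‖c z‖ ^ 2 * (4 ^ m * (C * S)) := by gcongr
      _ = 4 ^ m * C * (‖c z‖ ^ 2 * S) := by ring
      _ ≤ 4 ^ m * C * ((2 * C + 1) * (t ^ m * I z l)) := by gcongr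
      _ = _ := by ring
  exact le_of_mul_le_mul_right h8 (by positivity)

/-- the heights in half of the ball are controlled by `I`. -/
theorem HH_le_I (h : Data m ν X Y T A c F I e b R φ C η lm lt) (hC : 1 ≤ C) (hη : 0 ≤ η)
    {z : E} (hz : z ∈ A) {l D₁ : ℝ} (hl : l ∈ Icc lm lt) (hl4 : exp lm ≤ exp l / 4)
    (hD₁ : I z lt ≤ D₁ * I z l) (hsm : 4 * η ^ 2 * D₁ * (C * 2 ^ m) ≤ (exp l / 2) ^ m * exp l ^ m) :
    HH ν X Y z (exp l / 2) ≤ 4 * 4 ^ m * C ^ 2 * (2 * C + 1) * (exp l ^ m * I z l) := by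
  have h1 := h.HH_le z (exp l / 2) (c z)
  have h2 := h.lo z hz l hl
  have h3 := h.c_le hC hη hz hl hl4 hD₁ hsm
  have h4 := h.mass z hz (exp l / 2) (by linarith [exp_pos lm]) (by
      have := exp_le_exp.2 hl.2
      linarith [exp_pos l])
  have hI : 0 < I z l := (h.fd z hz).pos l hl
  have hC0 : 0 < C := by linarith
  have h5 : (exp l / 2) ^ m ≤ exp l ^ m :=
    pow_le_pow_left₀ (by positivity) (by linarith [exp_pos l]) m
  have h6 : ‖c z‖ ^ 2 * ν.real (BB X z (exp l / 2)) ≤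
      4 ^ m * C ^ 2 * (2 * C + 1) * (exp l ^ m * I z l) := by
    calc ‖c z‖ ^ 2 * ν.real (BB X z (exp l / 2))
        ≤ (4 ^ m * C * (2 * C + 1) * I z l) * (C * exp l ^ m) := by
          gcongr
          exact h4.trans (by gcongr)
      _ = _ := by ring
  have h7 : C * (exp l ^ m * I z l) ≤ 4 ^ m * C ^ 2 * (2 * C + 1) * (exp l ^ m * I z l) := by
    apply mul_le_mul_of_nonneg_right _ (by positivity)
    have h8 : (1:ℝ) ≤ 4 ^ m := one_le_pow₀ (by norm_num)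
    have h9 : 1 ≤ C * (2 * C + 1) := by nlinarith
    calc C = C * 1 * 1 := by ring
      _ ≤ C * (C * (2 * C + 1)) * 4 ^ m := by gcongr
      _ = _ := by ring
  linarith

end Data

end Crest.Agent.R234.Pin3_3
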