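import Crest.Agent.R234.Pd1_435
import Crest.Agent.R234.Pin3_3

/-!
# Row 234, VF-F11 (helper435): V-level instance of `Pin3_3.Data`, part 2: positions, heights, mixed
block, the measure; the fields `fin, mX, mY, mT, bd, sup, hgt, mass, massl`.
-/

set_option autoImplicit false
set_option linter.unusedVariables false
set_option linter.unusedSectionVars false

open MeasureTheory Filter Topology Set Metric
open scoped ENNReal NNReal ContDiff InnerProductSpace
open Crest.GeometryTopology.Submanifold Crest.Agent.R234.Vf_884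
open Crest.Agent.R234.Main_456 Crest.Agent.R234.F11_435
open Crest.Agent.R234.Strat3_842 (tilt height)
open Crest.Agent.R234.AS_456 (hp vp)
open Crest.Agent.R234.Pin3_3 (BB HH)

noncomputable section

namespace Crest.Agent.R234.Pd_435

variable {m n k : ℕ}

/-- position -/
def Xr (π : Euc k →L[ℝ] Euc m) (x : Euc k) (r : ℝ) (p : Euc k × L k) : Euc m :=
  r⁻¹ • π (p.1 - x)

/-- height -/
def Yr (π : Euc k →L[ℝ] Euc m) (ρ : Euc k →L[ℝ] Euc n) (x : Euc k) (r : ℝ) (u : Euc m → Euc n)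
    (p : Euc k × L k) : Euc n := r⁻¹ • hgt π ρ x r u p.1

/-- the derivative of the graph height -/
def Dr (π : Euc k →L[ℝ] Euc m) (ρ : Euc k →L[ℝ] Euc n) (x : Euc k) (r : ℝ) (u : Euc m → Euc n)
    (p : Euc k × L k) : Euc k →L[ℝ] Euc n := ρ - (fderiv ℝ u (Xr π x r p)) ∘L π

/-- mixed block -/
def Tr (π : Euc k →L[ℝ] Euc m) (ρ : Euc k →L[ℝ] Euc n) (x : Euc k) (r : ℝ) (u : Euc m → Euc n)
    (p : Euc k × L k) : Euc m →L[ℝ] Euc n :=
  (Dr π ρ x r u p) ∘L p.2 ∘L ContinuousLinearMap.adjoint π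

/-- the measure -/
def nu (V : Measure (Euc k × L k)) (π : Euc k →L[ℝ] Euc m) (ρ : Euc k →L[ℝ] Euc n) (x : Euc k)
    (r : ℝ) : Measure (Euc k × L k) :=
  ENNReal.ofReal (r ^ m)⁻¹ • V.restrict (box π ρ x (8 * r) ×ˢ univ)

/-- a centre: a point of density `≥ 1` in the unit ball, over `z`. -/
structure Ctr (V : Measure (Euc k × L k)) (π : Euc k →L[ℝ] Euc m) (x : Euc k) (r : ℝ) (z : Euc m)
    (zh : Euc k) : Prop where
  mem : zh ∈ closedBall x r
  th : 1 ≤ Th m V zh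
  eq : r⁻¹ • π (zh - x) = z

variable {U : Set (Euc k)} {V : Measure (Euc k × L k)} {Q K : ℕ} {x : Euc k} {r : ℝ}
  {π : Euc k →L[ℝ] Euc m} {ρ : Euc k →L[ℝ] Euc n} {u : Euc m → Euc n} {ε C : ℝ}

theorem measurableSet_bx (π : Euc k →L[ℝ] Euc m) (ρ : Euc k →L[ℝ] Euc n) (x : Euc k) (r : ℝ) :
    MeasurableSet (box π ρ x r ×ˢ (univ : Set (L k))) :=
  (isOpen_box π ρ x r).measurableSet.prod MeasurableSet.univ

theorem continuous_Xr : Continuous (Xr π x r : Euc k × L k → Euc m) := by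
  unfold Xr; fun_prop

theorem setIntegral_nu {F : Type*} [NormedAddCommGroup F] [NormedSpace ℝ F] (hr : 0 < r)
    {S : Set (Euc k × L k)} (hS : MeasurableSet S) (f : Euc k × L k → F) :
    ∫ p in S, f p ∂(nu V π ρ x r) = (r ^ m)⁻¹ • ∫ p in S ∩ box π ρ x (8 * r) ×ˢ univ, f p ∂V := by
  unfold nu
  rw [Measure.restrict_smul, integral_smul_measure, Measure.restrict_restrict hS,
    ENNReal.toReal_ofReal (by positivity)]

theorem real_nu (hr : 0 < r) {S : Set (Euc k × L k)} (hS : MeasurableSet S) :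
    (nu V π ρ x r).real S = (r ^ m)⁻¹ * V.real (S ∩ box π ρ x (8 * r) ×ˢ univ) := by
  unfold nu
  rw [measureReal_def, Measure.smul_apply, Measure.restrict_apply hS, smul_eq_mul,
    ENNReal.toReal_mul, ENNReal.toReal_ofReal (by positivity), measureReal_def]

theorem measurableSet_BB' {z : Euc m} {t : ℝ} :
    MeasurableSet (BB (Xr π x r : Euc k × L k → Euc m) z t) :=
  measurableSet_lt ((continuous_Xr.measurable.sub_const z).norm) measurable_const

namespace Cx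

variable (h : Cx U V Q K x r π ρ u ε C)

include h

/-- heights over the plane are small -/
theorem rho_small {p : Euc k} (hp : p ∈ ball x (32 * r)) (h1 : 1 ≤ Th m V p) :
    ‖ρ (p - x)‖ ≤ √(hc m Q * ε) * r := by
  have hr := h.hr
  have hf := h.ref.frame
  have home := ome_pos m
  rw [mem_ball, dist_eq_norm] at hp
  have hsub : ball p (32 * r) ⊆ ball x (64 * r) := by
    intro y hy
    rw [mem_ball, dist_eq_norm] at hy ⊢
    have h1 : y - x = (y - p) + (p - x) := by abel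
    rw [h1]
    have := norm_add_le (y - p) (p - x)
    linarith
  have hcl : closedBall p (32 * r) ⊆ U := by
    refine subset_trans ?_ h.hU
    intro y hy
    rw [mem_closedBall, dist_eq_norm] at hy ⊢
    have h1 : y - x = (y - p) + (p - x) := by abel
    rw [h1]
    have := norm_add_le (y - p) (p - x)
    linarith
  have h2 := Supm_685.height_hgt h.st h.hm hf hr (u := fun _ : Euc m => (0 : Euc n)) (κ := 0)
    (x := x) contDiff_const (s := 32 * r) (by positivity) hcl (fun z _ => by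
      refine ⟨?_, ?_⟩
      · rw [iteratedFDeriv_const_of_ne (by norm_num)]; simp
      · unfold Msys; simp) (by rw [zero_pow two_ne_zero]; simp; positivity) zero_le_one
      (by rwa [ENNReal.ofReal_one])
  have hg : ∀ z : Euc k, hgt π ρ x r (fun _ : Euc m => (0 : Euc n)) z = ρ (z - x) := fun z => by
    simp [hgt]
  simp only [hg, one_mul] at h2
  have hfin : V (ball x (64 * r) ×ˢ univ) < ⊤ :=
    (measure_mono (prod_mono ball_subset_closedBall subset_rfl)).trans_lt h.fin64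
  have hm' : MeasurableSet (ball x (64 * r) ×ˢ (univ : Set (L k))) :=
    measurableSet_ball.prod MeasurableSet.univ
  have i1 : IntegrableOn (fun p : Euc k × L k => ‖ρ (p.1 - x)‖ ^ 2) (ball x (64 * r) ×ˢ univ) V := by
    refine Measure.integrableOn_of_bounded (M := (64 * r) ^ 2) hfin.ne
      (Continuous.aestronglyMeasurable (by fun_prop)) ?_
    refine (ae_restrict_iff' hm').2 (ae_of_all _ ?_)
    rintro ⟨p, P⟩ ⟨hp, -⟩
    rw [mem_ball, dist_eq_norm] at hp
    rw [Real.norm_of_nonneg (by positivity)]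
    have := norm_rho_le hf (p - x)
    gcongr
    simp only
    linarith
  have h3 : ∫ z in Prod.fst ⁻¹' ball p (32 * r), ‖ρ (z.1 - x)‖ ^ 2 ∂V ≤ ε * (64 * r) ^ (m + 2) := by
    refine le_trans ?_ h.near_rho
    rw [← prod_univ_eq]
    exact setIntegral_mono_set i1 (ae_of_all _ fun p => by positivity)
      (LE.le.eventuallyLE (prod_mono hsub subset_rfl))
  have h4 : ‖ρ (p - x)‖ ^ 2 ≤ (hc m Q * ε) * r ^ 2 := by
    have h5 : ome m * ‖ρ (p - x)‖ ^ 2 ≤
        33 / 32 * (((32 * r) ^ m)⁻¹ * (ε * (64 * r) ^ (m + 2))) := h2.trans (by gcongr)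
    have h6 : 33 / 32 * (((32 * r) ^ m)⁻¹ * (ε * (64 * r) ^ (m + 2))) =
        33 / 32 * (2 ^ m * 64 ^ 2) * ε * r ^ 2 := by
      have : (64 * r) ^ (m + 2) = (2 * (32 * r)) ^ m * (64 * r) ^ 2 := by
        rw [pow_add]; ring_nf
      rw [this, mul_pow 2 (32 * r)]
      field_simp
    rw [h6] at h5
    have h7 : 33 / 32 * (2 ^ m * 64 ^ 2) ≤ ome m * hc m Q := by
      unfold hc
      rw [mul_div_cancel₀ _ home.ne']
      have h8 : (2:ℝ) ^ m ≤ 64 ^ m := pow_le_pow_left₀ (by norm_num) (by norm_num) m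
      have h9 : (0:ℝ) ≤ 2 * ((Q + 1) * (ome m * 64 ^ m)) := by positivity
      have h10 : (0:ℝ) < 64 ^ m := by positivity
      have h11 : (2:ℝ) ^ m * 64 ^ 2 ≤ 2 * 64 ^ (m + 2) := by
        rw [pow_add]; norm_num; linarith
      exact mul_le_mul_of_nonneg_left (by linarith) (by norm_num)
    have h8 : ome m * ‖ρ (p - x)‖ ^ 2 ≤ ome m * ((hc m Q * ε) * r ^ 2) := by
      refine h5.trans ?_
      have := h.e0
      calc 33 / 32 * (2 ^ m * 64 ^ 2) * ε * r ^ 2 ≤ (ome m * hc m Q) * ε * r ^ 2 := by gcongr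
        _ = _ := by ring
    exact le_of_mul_le_mul_left h8 home
  have h5 : 0 ≤ hc m Q * ε := mul_nonneg (hc_pos m Q).le h.e0
  calc ‖ρ (p - x)‖ = √(‖ρ (p - x)‖ ^ 2) := (Real.sqrt_sq (norm_nonneg _)).symm
    _ ≤ √((hc m Q * ε) * r ^ 2) := Real.sqrt_le_sqrt h4
    _ = _ := by rw [Real.sqrt_mul h5, Real.sqrt_sq hr.le]

theorem box_subset_U : box π ρ x (8 * r) ⊆ U :=
  ((box_subset_ball h.ref.frame h.hr).trans (ball_subset_closedBall.trans
    (closedBall_subset_closedBall (by have := h.hr; linarith)))).trans h.hU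

theorem ae_box : ∀ᵐ p ∂V, p.1 ∈ box π ρ x (8 * r) →
    1 ≤ Th m V p.1 ∧ ‖ρ (p.1 - x)‖ ≤ √(hc m Q * ε) * r := by
  filter_upwards [h.th] with p hp hpb
  have h1 := hp (h.box_subset_U hpb)
  refine ⟨h1, h.rho_small ?_ h1⟩
  have h2 := frame_norm_sq h.ref.frame (p.1 - x)
  have hr := h.hr
  rw [mem_ball, dist_eq_norm]
  have h3 := hpb.1
  have h4 := hpb.2
  refine lt_of_pow_lt_pow_left₀ 2 (by positivity) ?_
  have h5 : ‖π (p.1 - x)‖ ^ 2 < (8 * r) ^ 2 := pow_lt_pow_left₀ h3 (norm_nonneg _) two_ne_zero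
  have h6 : ‖ρ (p.1 - x)‖ ^ 2 < (8 * r) ^ 2 := pow_lt_pow_left₀ h4 (norm_nonneg _) two_ne_zero
  nlinarith [sq_nonneg r]

variable {z : Euc m} {zh : Euc k}

theorem c_pi (hz : Ctr V π x r z zh) (p : Euc k) : r⁻¹ • π (p - x) - z = r⁻¹ • π (p - zh) := by
  rw [← hz.eq, ← smul_sub, ← map_sub, sub_sub_sub_cancel_right]

theorem c_norm (hz : Ctr V π x r z zh) : ‖z‖ ≤ 1 := by
  rw [← hz.eq]
  exact norm_xi_le h.ref.frame h.hr hz.mem

theorem mem_BB_iff (hz : Ctr V π x r z zh) {t : ℝ} {p : Euc k × L k} :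
    p ∈ BB (Xr π x r) z t ↔ ‖π (p.1 - zh)‖ < t * r := by
  have hr := h.hr
  change ‖r⁻¹ • π (p.1 - x) - z‖ < t ↔ _
  rw [h.c_pi hz, norm_smul, norm_inv, Real.norm_of_nonneg hr.le, inv_mul_lt_iff₀ hr, mul_comm t]

/-- over a small base ball all points are close to the centre. -/
theorem ae_dist (hz : Ctr V π x r z zh) {t : ℝ} (ht : 0 < t) (ht1 : t ≤ 6)
    (hs : √(hc m Q * ε) ≤ t / 8) : ∀ᵐ p ∂V, p.1 ∈ box π ρ x (8 * r) →
      p ∈ BB (Xr π x r) z t → p.1 ∈ ball zh (2 * t * r) := by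
  have hr := h.hr
  filter_upwards [h.ae_box] with p hp hpb hpB
  obtain ⟨h1, h2⟩ := hp hpb
  rw [h.mem_BB_iff hz] at hpB
  have h3 : π (p.1 - x) = π (p.1 - zh) + π (zh - x) := by rw [← map_add, sub_add_sub_cancel]
  have h4 : ‖π (zh - x)‖ ≤ r :=
    (norm_pi_le h.ref.frame _).trans (by simpa [dist_eq_norm] using hz.mem)
  have h5 : ‖π (p.1 - x)‖ < 7 * r := by
    rw [h3]
    refine (norm_add_le _ _).trans_lt ?_
    nlinarith
  have h6 : √(hc m Q * ε) * r < 7 * r := by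
    have : √(hc m Q * ε) < 7 := by linarith
    gcongr
  have h7 := h.dist_lt (p := p.1) (z := zh) (t := t) ⟨h5, h2.trans_lt h6⟩ h1
    (h.mem_box_of_closedBall (by norm_num) hz.mem) hz.th ht hpB hs
  rw [mem_ball, dist_eq_norm]
  linarith

theorem fin_nu : IsFiniteMeasure (nu V π ρ x r) := by
  unfold nu
  have : IsFiniteMeasure (V.restrict (box π ρ x (8 * r) ×ˢ univ)) := ⟨by
    rw [Measure.restrict_apply_univ]; exact h.fin_box⟩
  exact Measure.smul_finite _ ENNReal.ofReal_ne_top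

/-- field `mass` -/
theorem f_mass (hz : Ctr V π x r z zh) {t : ℝ} (ht : 0 < t) (ht1 : t ≤ 6)
    (hs : √(hc m Q * ε) ≤ t / 8) :
    (nu V π ρ x r).real (BB (Xr π x r) z t) ≤ ((Q + 1) * ome m * 4 ^ m) * t ^ m := by
  have hr := h.hr
  rw [real_nu hr measurableSet_BB']
  have h1 := h.mass_le hz.mem (t := 2 * t) (by positivity) (by linarith)
  have hfin : V (ball zh (2 * t * r) ×ˢ univ) < ⊤ := by
    refine (measure_mono (prod_mono ball_subset_closedBall subset_rfl)).trans_lt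
      (h.st.fin _ (isCompact_closedBall _ _) ?_)
    refine subset_trans ?_ h.hU
    intro y hy
    have h2 := hz.mem
    rw [mem_closedBall, dist_eq_norm] at hy h2 ⊢
    have h1 : y - x = (y - zh) + (zh - x) := by abel
    rw [h1]
    have := norm_add_le (y - zh) (zh - x)
    nlinarith
  have h2 : V.real (BB (Xr π x r) z t ∩ box π ρ x (8 * r) ×ˢ univ) ≤
      V.real (ball zh (2 * t * r) ×ˢ univ) := by
    rw [measureReal_def, measureReal_def]
    refine ENNReal.toReal_mono hfin.ne (measure_mono_ae ?_)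
    filter_upwards [h.ae_dist hz ht ht1 hs] with p hp
    rintro ⟨hp1, hp2⟩
    exact ⟨hp hp2.1 hp1, mem_univ _⟩
  calc (r ^ m)⁻¹ * V.real (BB (Xr π x r) z t ∩ box π ρ x (8 * r) ×ˢ univ)
      ≤ (r ^ m)⁻¹ * ((Q + 1) * (ome m * (2 * (2 * t) * r) ^ m)) := by
        gcongr
        exact h2.trans h1
    _ = _ := by
        rw [show 2 * (2 * t) * r = 4 * t * r by ring, mul_pow, mul_pow]
        field_simp

theorem ball_subset_BB (hz : Ctr V π x r z zh) {t : ℝ} (ht : 0 < t) (ht1 : t ≤ 6) :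
    ball zh (t * r) ×ˢ (univ : Set (L k)) ⊆
      BB (Xr π x r) z t ∩ box π ρ x (8 * r) ×ˢ univ := by
  have hr := h.hr
  rintro p ⟨hp, -⟩
  rw [mem_ball, dist_eq_norm] at hp
  have h1 := norm_pi_le h.ref.frame (p.1 - zh)
  have h2 := norm_rho_le h.ref.frame (p.1 - zh)
  have h3 : p.1 - x = (p.1 - zh) + (zh - x) := by abel
  have h4 : ‖zh - x‖ ≤ r := by simpa [dist_eq_norm] using hz.mem
  have h5 := norm_pi_le h.ref.frame (p.1 - x)
  have h6 := norm_rho_le h.ref.frame (p.1 - x)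
  have h7 : ‖p.1 - x‖ < 8 * r := by
    rw [h3]
    refine (norm_add_le _ _).trans_lt ?_
    nlinarith
  refine ⟨?_, ⟨by linarith, by linarith⟩, mem_univ _⟩
  rw [h.mem_BB_iff hz]
  linarith

/-- field `massl` -/
theorem f_massl (hz : Ctr V π x r z zh) {t : ℝ} (ht : 0 < t) (ht1 : t ≤ 6) :
    t ^ m ≤ (ome m)⁻¹ * (nu V π ρ x r).real (BB (Xr π x r) z t) := by
  have hr := h.hr
  have home := ome_pos m
  rw [real_nu hr measurableSet_BB']
  have h1 := h.mass_ge (z := zh) (t := t) (by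
    have := hz.mem
    rw [mem_closedBall] at this
    rw [mem_ball]
    linarith) hz.th ht (by linarith)
  have h2 : V.real (ball zh (t * r) ×ˢ univ) ≤
      V.real (BB (Xr π x r) z t ∩ box π ρ x (8 * r) ×ˢ univ) :=
    measureReal_mono (h.ball_subset_BB hz ht ht1)
      ((measure_mono inter_subset_right).trans_lt h.fin_box).ne
  have h3 := h1.trans h2
  calc t ^ m = (ome m)⁻¹ * ((r ^ m)⁻¹ * (ome m * (t * r) ^ m)) := by
        rw [mul_pow]; field_simp
    _ ≤ _ := by gcongr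

theorem intg {f : Euc k → ℝ} (hf : Continuous f) :
    IntegrableOn (fun p : Euc k × L k => f p.1) (box π ρ x (8 * r) ×ˢ univ) V := by
  obtain ⟨B, hB⟩ := (isCompact_closedBall x (64 * r)).exists_bound_of_continuousOn hf.continuousOn
  refine F11_435.integrableOn_box h.fin_box hf (M := B) fun p hp => hB p ?_
  exact ball_subset_closedBall (box_subset_ball h.ref.frame h.hr hp)

/-- height at a point against the heights over a base ball. -/
theorem hgt_ball {p : Euc k} (hp1 : 1 ≤ Th m V p) {t : ℝ} (ht : 0 < t) (ht1 : t ≤ 1)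
    {S : Set (Euc k × L k)} (hS : MeasurableSet S)
    (hsub : ball p (t * r) ×ˢ univ ⊆ S ∩ box π ρ x (8 * r) ×ˢ univ) :
    ‖r⁻¹ • hgt π ρ x r u p‖ ^ 2 * t ^ m ≤
      (2 * (ome m)⁻¹) * ∫ q in S, ‖Yr π ρ x r u q‖ ^ 2 ∂(nu V π ρ x r) := by
  have hr := h.hr
  have home := ome_pos m
  have hb : ∀ y ∈ ball p (t * r), y ∈ box π ρ x (8 * r) := fun y hy =>
    (hsub (show (y, (0 : L k)) ∈ ball p (t * r) ×ˢ univ from ⟨hy, mem_univ _⟩)).2.1
  have hpb : p ∈ box π ρ x (8 * r) := hb p (mem_ball_self (by positivity))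
  have hcl : closedBall p (t * r) ⊆ U := by
    refine subset_trans ?_ h.hU
    have h1 := box_subset_ball h.ref.frame hr hpb
    intro y hy
    rw [mem_ball, dist_eq_norm] at h1
    rw [mem_closedBall, dist_eq_norm] at hy ⊢
    have h2 : y - x = (y - p) + (p - x) := by abel
    rw [h2]
    have := norm_add_le (y - p) (p - x)
    nlinarith
  have h1 := Supm_685.height_hgt h.st h.hm h.ref.frame hr (h.ref.smooth.of_le (by norm_cast))
    (κ := ε) (x := x) (s := t * r) (by positivity) hcl (fun y hy => by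
      have h2 : ‖r⁻¹ • π (y - x)‖ < 32 := (h.base_lt (hb y hy).1).trans (by norm_num)
      exact ⟨h.d2u_le h2, h.ref.minimal _ (by simpa using h2)⟩) (by
      have h3 := h.e2
      have h4 : (t * r) ^ 2 ≤ r ^ 2 := by
        have : t * r ≤ 1 * r := by gcongr
        rw [one_mul] at this
        exact pow_le_pow_left₀ (by positivity) this 2
      calc 64 * m * ε ^ 2 * (t * r) ^ 2 ≤ 1 * r ^ 2 := by gcongr
        _ = _ := one_mul _) zero_le_one (by rwa [ENNReal.ofReal_one])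
  rw [one_mul, ← prod_univ_eq] at h1
  have hcont : Continuous fun y : Euc k => ‖hgt π ρ x r u y‖ ^ 2 := (continuous_hgt h.cu).norm.pow 2
  have h2 : ∫ y in ball p (t * r) ×ˢ univ, ‖hgt π ρ x r u y.1‖ ^ 2 ∂V ≤
      ∫ y in S ∩ box π ρ x (8 * r) ×ˢ univ, ‖hgt π ρ x r u y.1‖ ^ 2 ∂V :=
    setIntegral_mono_set ((h.intg hcont).mono_set inter_subset_right)
      (ae_of_all _ fun p => by positivity) (LE.le.eventuallyLE hsub)
  rw [setIntegral_nu hr hS]
  have h3 : ∀ q : Euc k × L k, ‖Yr π ρ x r u q‖ ^ 2 = (r ^ 2)⁻¹ * ‖hgt π ρ x r u q.1‖ ^ 2 := by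
    intro q
    unfold Yr
    rw [norm_smul, norm_inv, Real.norm_of_nonneg hr.le, mul_pow, inv_pow]
  simp only [h3]
  rw [integral_const_mul, norm_smul, norm_inv, Real.norm_of_nonneg hr.le, mul_pow, inv_pow,
    smul_eq_mul]
  set J := ∫ y in S ∩ box π ρ x (8 * r) ×ˢ univ, ‖hgt π ρ x r u y.1‖ ^ 2 ∂V with hJ
  have hJ0 : 0 ≤ J := integral_nonneg fun p => by positivity
  have h4 : ome m * ‖hgt π ρ x r u p‖ ^ 2 ≤ 2 * (((t * r) ^ m)⁻¹ * J) := by
    refine h1.trans ?_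
    have : ((t * r) ^ m)⁻¹ * ∫ y in ball p (t * r) ×ˢ univ, ‖hgt π ρ x r u y.1‖ ^ 2 ∂V ≤
        ((t * r) ^ m)⁻¹ * J := by gcongr
    have h5 : 0 ≤ ((t * r) ^ m)⁻¹ * J := by positivity
    linarith
  have h5 : ‖hgt π ρ x r u p‖ ^ 2 ≤ (ome m)⁻¹ * (2 * (((t * r) ^ m)⁻¹ * J)) := by
    rw [← div_eq_inv_mul, le_div_iff₀ home]
    linarith
  calc (r ^ 2)⁻¹ * ‖hgt π ρ x r u p‖ ^ 2 * t ^ m
      ≤ (r ^ 2)⁻¹ * ((ome m)⁻¹ * (2 * (((t * r) ^ m)⁻¹ * J))) * t ^ m := by gcongr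
    _ = _ := by
        rw [mul_pow]
        field_simp

/-- field `hgt` -/
theorem f_hgt (hz : Ctr V π x r z zh) {t : ℝ} (ht : 0 < t) (ht1 : t ≤ 1) :
    ‖r⁻¹ • hgt π ρ x r u zh‖ ^ 2 * t ^ m ≤
      (2 * (ome m)⁻¹) * HH (nu V π ρ x r) (Xr π x r) (Yr π ρ x r u) z t :=
  h.hgt_ball hz.th ht ht1 measurableSet_BB' (h.ball_subset_BB hz ht (by linarith))

/-- field `sup` -/
theorem f_sup (hz : Ctr V π x r z zh) {t : ℝ} (ht : 0 < t) (ht1 : t ≤ 1)
    (hs : √(hc m Q * ε) ≤ 1) :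
    ∀ᵐ q ∂(nu V π ρ x r), q ∈ BB (Xr π x r) z t → ‖Yr π ρ x r u q‖ ^ 2 * t ^ m ≤
      (2 * (ome m)⁻¹) * HH (nu V π ρ x r) (Xr π x r) (Yr π ρ x r u) z (2 * t) := by
  have hr := h.hr
  have h0 : ∀ᵐ p ∂(V.restrict (box π ρ x (8 * r) ×ˢ univ)), p ∈ BB (Xr π x r) z t →
      ‖Yr π ρ x r u p‖ ^ 2 * t ^ m ≤
      (2 * (ome m)⁻¹) * HH (nu V π ρ x r) (Xr π x r) (Yr π ρ x r u) z (2 * t) := by
    rw [ae_restrict_iff' (measurableSet_bx π ρ x _)]
    filter_upwards [h.ae_box] with p hp hpb hpB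
    obtain ⟨h1, h2⟩ := hp hpb.1
    refine h.hgt_ball h1 ht ht1 measurableSet_BB' ?_
    rintro y ⟨hy, -⟩
    rw [mem_ball, dist_eq_norm] at hy
    rw [h.mem_BB_iff hz] at hpB
    have e1 := norm_pi_le h.ref.frame (y.1 - p.1)
    have e2 := norm_rho_le h.ref.frame (y.1 - p.1)
    have e3 : π (y.1 - zh) = π (y.1 - p.1) + π (p.1 - zh) := by rw [← map_add, sub_add_sub_cancel]
    have e4 : ‖π (y.1 - zh)‖ < 2 * t * r := by
      rw [e3]
      refine (norm_add_le _ _).trans_lt ?_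
      linarith
    have e5 : π (y.1 - x) = π (y.1 - zh) + π (zh - x) := by rw [← map_add, sub_add_sub_cancel]
    have e6 : ‖π (zh - x)‖ ≤ r :=
      (norm_pi_le h.ref.frame _).trans (by simpa [dist_eq_norm] using hz.mem)
    have e7 : ρ (y.1 - x) = ρ (y.1 - p.1) + ρ (p.1 - x) := by rw [← map_add, sub_add_sub_cancel]
    refine ⟨?_, ⟨?_, ?_⟩, mem_univ _⟩
    · rw [h.mem_BB_iff hz]
      exact e4
    · rw [e5]
      refine (norm_add_le _ _).trans_lt ?_
      nlinarith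
    · rw [e7]
      refine (norm_add_le _ _).trans_lt ?_
      nlinarith
  unfold nu
  refine Measure.ae_smul_measure_le _ ?_
  exact h0

theorem continuous_Yr : Continuous (Yr π ρ x r u : Euc k × L k → Euc n) := by
  have := (continuous_hgt (π := π) (ρ := ρ) (x := x) (r := r) h.cu).comp
    (continuous_fst (X := Euc k) (Y := L k))
  unfold Yr
  exact Continuous.const_smul (M := ℝ) this _

theorem continuous_Dr : Continuous (Dr π ρ x r u : Euc k × L k → Euc k →L[ℝ] Euc n) := by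
  unfold Dr
  refine continuous_const.sub (Continuous.clm_comp ?_ continuous_const)
  exact (h.ref.smooth.continuous_fderiv (by simp)).comp continuous_Xr

theorem continuous_Tr : Continuous (Tr π ρ x r u : Euc k × L k → Euc m →L[ℝ] Euc n) := by
  unfold Tr
  exact h.continuous_Dr.clm_comp (continuous_snd.clm_comp continuous_const)

theorem norm_Dr_le {p : Euc k × L k} (hp : p.1 ∈ box π ρ x (8 * r)) :
    ‖Dr π ρ x r u p‖ ≤ 1 + ε := by
  unfold Dr
  have h1 : ‖ρ‖ ≤ 1 := ContinuousLinearMap.opNorm_le_bound _ zero_le_one fun v => by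
    rw [one_mul]; exact norm_rho_le h.ref.frame v
  have h2 : ‖π‖ ≤ 1 := ContinuousLinearMap.opNorm_le_bound _ zero_le_one fun v => by
    rw [one_mul]; exact norm_pi_le h.ref.frame v
  have h3 : ‖fderiv ℝ u (Xr π x r p)‖ ≤ ε := h.du_le ((h.base_lt hp.1).trans (by norm_num))
  calc ‖ρ - (fderiv ℝ u (Xr π x r p)) ∘L π‖ ≤ ‖ρ‖ + ‖(fderiv ℝ u (Xr π x r p)) ∘L π‖ :=
        norm_sub_le _ _
    _ ≤ 1 + ‖fderiv ℝ u (Xr π x r p)‖ * ‖π‖ := by
        gcongr
        exact ContinuousLinearMap.opNorm_comp_le _ _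
    _ ≤ 1 + ε * 1 := by
        have := h.e0
        gcongr
    _ = _ := by ring

/-- field `bd` -/
theorem f_bd : ∃ B, ∀ᵐ q ∂(nu V π ρ x r), ‖Xr π x r q‖ ≤ B ∧ ‖Yr π ρ x r u q‖ ≤ B ∧
    ‖Tr π ρ x r u q‖ ≤ B := by
  have hr := h.hr
  have hK : IsCompact (closedBall x (64 * r) ×ˢ G m k) :=
    (isCompact_closedBall _ _).prod (isCompact_G m k)
  obtain ⟨B1, hB1⟩ := hK.exists_bound_of_continuousOn
    (continuous_Xr (π := π) (x := x) (r := r)).continuousOn
  obtain ⟨B2, hB2⟩ := hK.exists_bound_of_continuousOn h.continuous_Yr.continuousOn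
  obtain ⟨B3, hB3⟩ := hK.exists_bound_of_continuousOn h.continuous_Tr.continuousOn
  refine ⟨max B1 (max B2 B3), ?_⟩
  unfold nu
  refine Measure.ae_smul_measure_le _ ?_
  filter_upwards [ae_restrict_mem (measurableSet_bx π ρ x (8 * r)),
    ae_restrict_of_ae h.st.conc] with p hp hp2
  have h1 : p ∈ closedBall x (64 * r) ×ˢ G m k :=
    ⟨ball_subset_closedBall (box_subset_ball h.ref.frame hr hp.1), hp2⟩
  exact ⟨(hB1 p h1).trans (le_max_left _ _),
    (hB2 p h1).trans ((le_max_left _ _).trans (le_max_right _ _)),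
    (hB3 p h1).trans ((le_max_right _ _).trans (le_max_right _ _))⟩

end Cx

end Crest.Agent.R234.Pd_435
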