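import Crest.Agent.R234.Pd2_435

/-!
# Row 234, VF-F11 (helper435): V-level instance of `Pin3_3.Data`, part 3: the field `slab`
-/

set_option autoImplicit false
set_option linter.unusedVariables false
set_option linter.unusedSectionVars false

open MeasureTheory Filter Topology Set Metric
open scoped ENNReal NNReal ContDiff InnerProductSpace
open Crest.GeometryTopology.Submanifold Crest.Agent.R234.Vf_884
open Crest.Agent.R234.Main_456 Crest.Agent.R234.F11_435
open Crest.Agent.R234.AS_456 (hp vp)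
open Crest.Agent.R234.Pin3_3 (BB HH)

noncomputable section

namespace Crest.Agent.R234.Pd_435

variable {m n k : ℕ}

/-- the slab in a ball -/
def Sl (w : Euc m) (R s a : ℝ) : Set (Euc m) := {v | ‖v‖ < R ∧ |⟪w, v⟫_ℝ - s| < a}

theorem measurableSet_Sl (w : Euc m) (R s a : ℝ) : MeasurableSet (Sl w R s a) := by
  have h1 : IsOpen {v : Euc m | ‖v‖ < R} := isOpen_lt continuous_norm continuous_const
  have h2 : IsOpen {v : Euc m | |⟪w, v⟫_ℝ - s| < a} := isOpen_lt (by fun_prop) continuous_const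
  exact (h1.inter h2).measurableSet

theorem volume_Sl_ne_top (w : Euc m) (R s a : ℝ) : volume (Sl w R s a) ≠ ⊤ := by
  refine ((measure_mono (?_ : Sl w R s a ⊆ ball 0 R)).trans_lt measure_ball_lt_top).ne
  intro v hv
  simpa using hv.1

/-- volume of a slab in a ball. -/
theorem volume_Sl {w : Euc m} (hw : ‖w‖ = 1) {R a : ℝ} (hR : 0 < R) (ha : 0 < a) (s : ℝ) :
    volume.real (Sl w R s a) * R ≤ 5 ^ m * (ome m * R ^ m) * a := by
  have home := ome_pos m
  have hball : ∀ {T : ℝ}, 0 < T → volume.real (ball (0 : Euc m) T) = ome m * T ^ m := by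
    intro T hT
    rw [measureReal_def, volume_ball_eq m 0 hT, ENNReal.toReal_ofReal (by positivity)]
  rcases lt_or_ge R a with haR | haR
  · have h1 : volume.real (Sl w R s a) ≤ ome m * R ^ m := by
      rw [← hball hR]
      refine measureReal_mono ?_ measure_ball_lt_top.ne
      intro v hv
      simpa using hv.1
    have h5 : (1:ℝ) ≤ 5 ^ m := one_le_pow₀ (by norm_num)
    have h2 : 0 ≤ volume.real (Sl w R s a) := measureReal_nonneg
    calc volume.real (Sl w R s a) * R ≤ (ome m * R ^ m) * a := by gcongr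
      _ = 1 * (ome m * R ^ m) * a := by ring
      _ ≤ _ := by gcongr
  · obtain ⟨N, hN1, hN2⟩ : ∃ N : ℕ, R / a ≤ N ∧ (N:ℝ) < R / a + 1 :=
      ⟨⌈R / a⌉₊, Nat.le_ceil _, Nat.ceil_lt_add_one (by positivity)⟩
    have hNR : R ≤ N * a := by rwa [div_le_iff₀ ha] at hN1
    have hNR2 : N * a < R + a := by
      have := mul_lt_mul_of_pos_right hN2 ha
      rwa [add_mul, div_mul_cancel₀ _ ha.ne', one_mul] at this
    set f : ℕ → Set (Euc m) := fun j => (fun v => v + (-(2 * a * j)) • w) ⁻¹' Sl w R s a with hf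
    have hfm : ∀ j, MeasurableSet (f j) := fun j =>
      (measurable_id.add_const _) (measurableSet_Sl w R s a)
    have hfv : ∀ j, volume (f j) = volume (Sl w R s a) := fun j => by
      simp only [hf]
      exact measure_preimage_add_right volume _ _
    have hmem : ∀ j v, v ∈ f j → |⟪w, v⟫_ℝ - 2 * a * j - s| < a := by
      intro j v hv
      have h1 := hv.2
      rw [inner_add_right, inner_smul_right, real_inner_self_eq_norm_sq, hw] at h1
      convert h1 using 2
      ring
    have hdis : ((Finset.range N : Finset ℕ) : Set ℕ).PairwiseDisjoint f := by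
      intro i _ j _ hij
      rw [Function.onFun, Set.disjoint_left]
      intro v hi hj
      have h1 := abs_lt.1 (hmem i v hi)
      have h2 := abs_lt.1 (hmem j v hj)
      rcases lt_or_gt_of_ne hij with h3 | h3
      · have h4 : (i:ℝ) + 1 ≤ j := by exact_mod_cast h3
        nlinarith
      · have h4 : (j:ℝ) + 1 ≤ i := by exact_mod_cast h3
        nlinarith
    have hsum : volume (⋃ j ∈ Finset.range N, f j) = N * volume (Sl w R s a) := by
      rw [measure_biUnion_finset hdis fun j _ => hfm j]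
      simp [hfv]
    have hsub : (⋃ j ∈ Finset.range N, f j) ⊆ ball (0 : Euc m) (5 * R) := by
      intro v hv
      simp only [mem_iUnion, exists_prop] at hv
      obtain ⟨j, hj, hv⟩ := hv
      rw [Finset.mem_range] at hj
      have h1 : ‖v + (-(2 * a * j)) • w‖ < R := hv.1
      have h2 : v = (v + (-(2 * a * j)) • w) + (2 * a * j) • w := by
        rw [add_assoc, ← add_smul]; simp
      have h3 : ‖(2 * a * (j:ℝ)) • w‖ = 2 * a * j := by
        rw [norm_smul, hw, mul_one, Real.norm_of_nonneg (by positivity)]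
      rw [mem_ball_zero_iff, h2]
      have h4 := norm_add_le (v + (-(2 * a * (j:ℝ))) • w) ((2 * a * (j:ℝ)) • w)
      have h5 : (j:ℝ) ≤ N := by exact_mod_cast hj.le
      have h6 : 2 * a * (j:ℝ) ≤ 2 * (N * a) := by nlinarith
      rw [h3] at h4
      linarith
    have h1 : (N:ℝ) * volume.real (Sl w R s a) ≤ ome m * (5 * R) ^ m := by
      rw [← hball (by positivity : (0:ℝ) < 5 * R), measureReal_def, measureReal_def]
      have h2 : ((N : ℝ≥0∞) * volume (Sl w R s a)).toReal = N * (volume (Sl w R s a)).toReal := by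
        rw [ENNReal.toReal_mul, ENNReal.toReal_natCast]
      rw [← h2, ← hsum]
      exact ENNReal.toReal_mono measure_ball_lt_top.ne (measure_mono hsub)
    have h2 : 0 ≤ volume.real (Sl w R s a) := measureReal_nonneg
    calc volume.real (Sl w R s a) * R ≤ volume.real (Sl w R s a) * (N * a) := by gcongr
      _ = (N * volume.real (Sl w R s a)) * a := by ring
      _ ≤ (ome m * (5 * R) ^ m) * a := by gcongr
      _ = _ := by rw [mul_pow]; ring

/-- the Lipschitz cut-off of the slab -/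
def psi (w z : Euc m) (t s b d : ℝ) (v : Euc m) : ℝ :=
  max 0 (d - max 0 (max (‖v - z‖ - t) (|⟪w, v - z⟫_ℝ - s| - b)))

theorem psi_nonneg (w z : Euc m) (t s b d : ℝ) (v : Euc m) : 0 ≤ psi w z t s b d v := le_max_left _ _

theorem psi_le {w z : Euc m} {t s b d : ℝ} (hd : 0 ≤ d) (v : Euc m) : psi w z t s b d v ≤ d := by
  unfold psi
  refine max_le hd ?_
  have := le_max_left 0 (max (‖v - z‖ - t) (|⟪w, v - z⟫_ℝ - s| - b))
  linarith

theorem psi_eq {w z : Euc m} {t s b d : ℝ} (hd : 0 ≤ d) {v : Euc m} (h1 : ‖v - z‖ < t)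
    (h2 : |⟪w, v - z⟫_ℝ - s| ≤ b) : psi w z t s b d v = d := by
  unfold psi
  rw [max_eq_left (a := (0:ℝ)) (b := max (‖v - z‖ - t) (|⟪w, v - z⟫_ℝ - s| - b))
    (max_le (by linarith) (by linarith)), sub_zero, max_eq_right hd]

theorem psi_ne {w z : Euc m} {t s b d : ℝ} {v : Euc m} (h : psi w z t s b d v ≠ 0) :
    v - z ∈ Sl w (t + d) s (b + d) := by
  unfold psi at h
  have h1 : 0 < d - max 0 (max (‖v - z‖ - t) (|⟪w, v - z⟫_ℝ - s| - b)) := by
    by_contra hcon
    exact h (max_eq_left (not_lt.1 hcon))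
  have h2 := (le_max_left (‖v - z‖ - t) (|⟪w, v - z⟫_ℝ - s| - b)).trans (le_max_right (0:ℝ) _)
  have h3 := (le_max_right (‖v - z‖ - t) (|⟪w, v - z⟫_ℝ - s| - b)).trans (le_max_right (0:ℝ) _)
  exact ⟨by linarith, by linarith⟩

theorem lip_psi {w z : Euc m} (hw : ‖w‖ = 1) (t s b d : ℝ) : LipschitzWith 1 (psi w z t s b d) := by
  unfold psi
  have h1 : LipschitzWith 1 fun v : Euc m => ‖v - z‖ - t := by
    refine LipschitzWith.of_dist_le_mul fun v v' => ?_
    rw [NNReal.coe_one, one_mul, Real.dist_eq, dist_eq_norm]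
    have := abs_norm_sub_norm_le (v - z) (v' - z)
    rw [sub_sub_sub_cancel_right] at this
    rwa [sub_sub_sub_cancel_right]
  have h2 : LipschitzWith 1 fun v : Euc m => |⟪w, v - z⟫_ℝ - s| - b := by
    refine LipschitzWith.of_dist_le_mul fun v v' => ?_
    rw [NNReal.coe_one, one_mul, Real.dist_eq, dist_eq_norm, sub_sub_sub_cancel_right]
    refine (abs_abs_sub_abs_le _ _).trans ?_
    rw [sub_sub_sub_cancel_right, ← inner_sub_right, sub_sub_sub_cancel_right]
    refine (abs_real_inner_le_norm _ _).trans ?_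
    rw [hw, one_mul]
  have h3 := h1.max h2
  rw [max_self] at h3
  have h4 := (h3.const_max 0)
  have h5 : LipschitzWith 1 fun v : Euc m => d - max 0 (max (‖v - z‖ - t) (|⟪w, v - z⟫_ℝ - s| - b)) := by
    refine LipschitzWith.of_dist_le_mul fun v v' => ?_
    have h6 := h4.dist_le_mul v v'
    rw [Real.dist_eq] at h6 ⊢
    rw [sub_sub_sub_cancel_left, abs_sub_comm]
    exact h6
  exact h5.const_max 0

/-- integral of the cut-off. -/
theorem integral_psi_le {w z : Euc m} (hw : ‖w‖ = 1) {t s b d : ℝ} (hd : 0 ≤ d) :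
    ∫ v, psi w z t s b d v ≤ d * volume.real (Sl w (t + d) s (b + d)) := by
  set S : Set (Euc m) := (fun v => v - z) ⁻¹' Sl w (t + d) s (b + d) with hS
  have hSm : MeasurableSet S := (measurable_id.sub_const z) (measurableSet_Sl _ _ _ _)
  have hSv : volume S = volume (Sl w (t + d) s (b + d)) := by
    rw [hS]
    simp only [sub_eq_add_neg]
    exact measure_preimage_add_right volume _ _
  have h1 : ∫ v, psi w z t s b d v = ∫ v in S, psi w z t s b d v := by
    rw [setIntegral_eq_integral_of_forall_compl_eq_zero]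
    intro v hv
    by_contra hcon
    exact hv (psi_ne hcon)
  rw [h1]
  have hfin : volume S < ⊤ := by
    rw [hSv]; exact (volume_Sl_ne_top _ _ _ _).lt_top
  calc ∫ v in S, psi w z t s b d v ≤ ∫ v in S, d := by
        refine setIntegral_mono_on ?_ (integrableOn_const hfin.ne) hSm fun v _ => psi_le hd v
        refine Measure.integrableOn_of_bounded (M := d) hfin.ne
          (lip_psi hw t s b d).continuous.aestronglyMeasurable (ae_of_all _ fun v => ?_)
        rw [Real.norm_of_nonneg (psi_nonneg _ _ _ _ _ _ _)]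
        exact psi_le hd v
    _ = d * volume.real (Sl w (t + d) s (b + d)) := by
        rw [setIntegral_const, smul_eq_mul, mul_comm, measureReal_def, measureReal_def, hSv]

/-- the varifold projects to `Q` times Lebesgue measure up to `η'` in the ball of radius `4 r` -/
def QL (V : Measure (Euc k × L k)) (π : Euc k →L[ℝ] Euc m) (x : Euc k) (r : ℝ) (Q : ℕ) (η' : ℝ) :
    Prop :=
  ∀ φ : Euc m → ℝ, LipschitzWith 1 φ → (∀ v, |φ v| ≤ 1) → (∀ v, φ v ≠ 0 → ‖v‖ ≤ 2) →
    |∫ p in Metric.ball x (3 * (2 * r)) ×ˢ univ, φ ((2 * r)⁻¹ • π (p.1 - x)) ∂V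
      - (2 * r) ^ m * (Q * ∫ v, φ v)| ≤ η' * (2 * r) ^ m

variable {U : Set (Euc k)} {V : Measure (Euc k × L k)} {Q K : ℕ} {x : Euc k} {r : ℝ}
  {π : Euc k →L[ℝ] Euc m} {ρ : Euc k →L[ℝ] Euc n} {u : Euc m → Euc n} {ε C : ℝ}
  {z : Euc m} {zh : Euc k}

theorem Cx.slab_aux (h : Cx U V Q K x r π ρ u ε C) (hz : Ctr V π x r z zh) {η' : ℝ}
    (hQL : QL V π x r Q η') {t b d s : ℝ} {w : Euc m} (hw : ‖w‖ = 1) (ht : 0 < t) (ht1 : t ≤ 1)
    (hb : 0 ≤ b) (hd : 0 < d) (hd1 : d ≤ 1) (hs : √(hc m Q * ε) ≤ 1) :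
    (nu V π ρ x r).real {q | ‖Xr π x r q - z‖ < t ∧ |⟪w, Xr π x r q - z⟫_ℝ - s| ≤ b} ≤
      Q * volume.real (Sl w (t + d) s (b + d)) + 2 ^ (m + 1) * η' / d := by
  have hr := h.hr
  set S : Set (Euc k × L k) := {q | ‖Xr π x r q - z‖ < t ∧ |⟪w, Xr π x r q - z⟫_ℝ - s| ≤ b} with hS
  have hSm : MeasurableSet S := by
    have h1 : Continuous (Xr π x r : Euc k × L k → Euc m) := continuous_Xr
    have m1 : MeasurableSet {q : Euc k × L k | ‖Xr π x r q - z‖ < t} :=
      measurableSet_lt ((h1.sub continuous_const).norm).measurable measurable_const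
    have m2 : MeasurableSet {q : Euc k × L k | |⟪w, Xr π x r q - z⟫_ℝ - s| ≤ b} := by
      refine measurableSet_le ?_ measurable_const
      exact (((continuous_const.inner (h1.sub continuous_const)).sub
        continuous_const).abs).measurable
    exact m1.inter m2
  rw [real_nu hr hSm]
  have hz1 := h.c_norm hz
  set φ : Euc m → ℝ := fun v => (1 / 2) * psi w z t s b d ((2:ℝ) • v) with hφ
  have hlip : LipschitzWith 1 φ := by
    refine LipschitzWith.of_dist_le_mul fun v v' => ?_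
    have h1 := (lip_psi (z := z) hw t s b d).dist_le_mul ((2:ℝ) • v) ((2:ℝ) • v')
    rw [NNReal.coe_one, one_mul] at h1 ⊢
    rw [dist_smul₀, Real.norm_of_nonneg (by norm_num : (0:ℝ) ≤ 2)] at h1
    rw [Real.dist_eq] at h1 ⊢
    simp only [hφ]
    rw [← mul_sub, abs_mul, abs_of_pos (by norm_num : (0:ℝ) < 1 / 2)]
    linarith
  have hle : ∀ v, |φ v| ≤ 1 := by
    intro v
    have h1 := psi_nonneg w z t s b d ((2:ℝ) • v)
    have h2 := psi_le (w := w) (z := z) (t := t) (s := s) (b := b) hd.le ((2:ℝ) • v)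
    simp only [hφ]
    rw [abs_of_nonneg (by positivity)]
    linarith
  have hsupp : ∀ v, φ v ≠ 0 → ‖v‖ ≤ 2 := by
    intro v hv
    have h1 : psi w z t s b d ((2:ℝ) • v) ≠ 0 := fun hcon => hv (by simp [hφ, hcon])
    have h2 := (psi_ne h1).1
    have h3 : ‖(2:ℝ) • v‖ ≤ ‖(2:ℝ) • v - z‖ + ‖z‖ := by
      simpa using norm_add_le ((2:ℝ) • v - z) z
    rw [norm_smul, Real.norm_of_nonneg (by norm_num : (0:ℝ) ≤ 2)] at h3
    linarith
  have h1 := (abs_le.1 (hQL φ hlip hle hsupp)).2
  have hpt : ∀ p : Euc k × L k, φ ((2 * r)⁻¹ • π (p.1 - x)) = (1 / 2) * psi w z t s b d (Xr π x r p) := by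
    intro p
    simp only [hφ]
    congr 2
    rw [smul_smul]
    unfold Xr
    congr 1
    field_simp
  simp only [hpt] at h1
  rw [integral_const_mul] at h1
  have hint : ∫ v, φ v = (1 / 2) * ((2 ^ m)⁻¹ * ∫ v, psi w z t s b d v) := by
    simp only [hφ]
    rw [integral_const_mul]
    congr 1
    rw [Measure.integral_comp_smul volume (psi w z t s b d) (2:ℝ), smul_eq_mul]
    congr 1
    rw [abs_of_pos (by positivity)]
    simp
  rw [hint] at h1
  have h2 := integral_psi_le (z := z) hw (t := t) (s := s) (b := b) hd.le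
  -- lower bound
  have h3 : d * V.real (S ∩ box π ρ x (8 * r) ×ˢ univ) ≤
      ∫ p in Metric.ball x (3 * (2 * r)) ×ˢ univ, psi w z t s b d (Xr π x r p) ∂V := by
    have hfin6 : V (Metric.ball x (3 * (2 * r)) ×ˢ univ) < ⊤ := by
      refine (measure_mono (prod_mono (ball_subset_closedBall.trans
        (closedBall_subset_closedBall ?_)) subset_rfl)).trans_lt h.fin64
      linarith
    have hcont : Continuous fun p : Euc k × L k => psi w z t s b d (Xr π x r p) :=
      (lip_psi hw t s b d).continuous.comp continuous_Xr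
    have hi : IntegrableOn (fun p : Euc k × L k => psi w z t s b d (Xr π x r p))
        (Metric.ball x (3 * (2 * r)) ×ˢ univ) V := by
      refine Measure.integrableOn_of_bounded (M := d) hfin6.ne
        hcont.aestronglyMeasurable (ae_of_all _ fun v => ?_)
      rw [Real.norm_of_nonneg (psi_nonneg _ _ _ _ _ _ _)]
      exact psi_le hd.le _
    set S' : Set (Euc k × L k) := S ∩ Metric.ball x (3 * (2 * r)) ×ˢ univ with hS'
    have hS'm : MeasurableSet S' := hSm.inter (measurableSet_ball.prod MeasurableSet.univ)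
    have hfinS' : V S' < ⊤ := (measure_mono inter_subset_right).trans_lt hfin6
    have e1 : V.real (S ∩ box π ρ x (8 * r) ×ˢ univ) ≤ V.real S' := by
      rw [measureReal_def, measureReal_def]
      refine ENNReal.toReal_mono hfinS'.ne (measure_mono_ae ?_)
      filter_upwards [h.ae_box] with p hp
      rintro ⟨hp1, hp2⟩
      refine ⟨hp1, ?_, mem_univ _⟩
      obtain ⟨g1, g2⟩ := hp hp2.1
      have g3 : ‖π (p.1 - x)‖ < 2 * r := by
        have g4 : ‖Xr π x r p - z‖ < t := hp1.1
        have g5 : ‖Xr π x r p‖ < 2 := by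
          have := norm_add_le (Xr π x r p - z) z
          rw [sub_add_cancel] at this
          linarith
        unfold Xr at g5
        rw [norm_smul, norm_inv, Real.norm_of_nonneg hr.le, inv_mul_lt_iff₀ hr] at g5
        linarith
      have g4 : ‖ρ (p.1 - x)‖ ≤ r := g2.trans (by nlinarith)
      have g5 := frame_norm_sq h.ref.frame (p.1 - x)
      rw [mem_ball, dist_eq_norm]
      refine lt_of_pow_lt_pow_left₀ 2 (by positivity) ?_
      have g6 : ‖π (p.1 - x)‖ ^ 2 < (2 * r) ^ 2 := pow_lt_pow_left₀ g3 (norm_nonneg _) two_ne_zero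
      have g7 : ‖ρ (p.1 - x)‖ ^ 2 ≤ r ^ 2 := pow_le_pow_left₀ (norm_nonneg _) g4 2
      nlinarith [sq_nonneg r]
    calc d * V.real (S ∩ box π ρ x (8 * r) ×ˢ univ) ≤ d * V.real S' := by gcongr
      _ = ∫ p in S', d ∂V := by rw [setIntegral_const, smul_eq_mul, mul_comm]
      _ = ∫ p in S', psi w z t s b d (Xr π x r p) ∂V :=
          setIntegral_congr_fun hS'm fun p hp => (psi_eq hd.le hp.1.1 hp.1.2).symm
      _ ≤ _ := setIntegral_mono_set hi (ae_of_all _ fun p => psi_nonneg _ _ _ _ _ _ _)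
          (LE.le.eventuallyLE inter_subset_right)
  have h4 : (1 / 2) * (d * V.real (S ∩ box π ρ x (8 * r) ×ˢ univ)) ≤
      (2 * r) ^ m * (Q * (1 / 2 * ((2 ^ m)⁻¹ * (d * volume.real (Sl w (t + d) s (b + d)))))) +
        η' * (2 * r) ^ m := by
    have h5 : (2 * r) ^ m * (Q * (1 / 2 * ((2 ^ m)⁻¹ * ∫ v, psi w z t s b d v))) ≤
        (2 * r) ^ m * (Q * (1 / 2 * ((2 ^ m)⁻¹ * (d * volume.real (Sl w (t + d) s (b + d)))))) := by
      gcongr
    linarith
  have h5 : (2 * r) ^ m = 2 ^ m * r ^ m := mul_pow _ _ _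
  rw [h5] at h4
  have h6 : V.real (S ∩ box π ρ x (8 * r) ×ˢ univ) ≤
      (Q * volume.real (Sl w (t + d) s (b + d)) + 2 ^ (m + 1) * η' / d) * r ^ m := by
    have h7 : d * V.real (S ∩ box π ρ x (8 * r) ×ˢ univ) ≤
        d * ((Q * volume.real (Sl w (t + d) s (b + d)) + 2 ^ (m + 1) * η' / d) * r ^ m) := by
      calc d * V.real (S ∩ box π ρ x (8 * r) ×ˢ univ)
          = 2 * ((1 / 2) * (d * V.real (S ∩ box π ρ x (8 * r) ×ˢ univ))) := by ring
        _ ≤ 2 * (2 ^ m * r ^ m * (Q * (1 / 2 * ((2 ^ m)⁻¹ *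
            (d * volume.real (Sl w (t + d) s (b + d)))))) + η' * (2 ^ m * r ^ m)) := by gcongr
        _ = _ := by
            field_simp
            ring
    exact le_of_mul_le_mul_left h7 hd
  calc (r ^ m)⁻¹ * V.real (S ∩ box π ρ x (8 * r) ×ˢ univ)
      ≤ (r ^ m)⁻¹ * ((Q * volume.real (Sl w (t + d) s (b + d)) + 2 ^ (m + 1) * η' / d) * r ^ m) := by
        gcongr
    _ = _ := by field_simp

/-- field `slab` -/
theorem Cx.f_slab (h : Cx U V Q K x r π ρ u ε C) (hz : Ctr V π x r z zh) {η η' t₀ : ℝ}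
    (hη : 0 < η) (hη1 : η ≤ 1) (ht₀ : 0 < t₀)
    (hQL : QL V π x r Q η') (hη' : 2 ^ (m + 1) * η' ≤ (η * t₀) * (η * t₀ ^ m)) {t b s : ℝ} {w : Euc m}
    (hw : ‖w‖ = 1) (ht : t₀ ≤ t) (ht1 : t ≤ 1) (hb : 0 ≤ b) (hs : √(hc m Q * ε) ≤ 1) :
    (nu V π ρ x r).real {q | ‖Xr π x r q - z‖ < t ∧ |⟪w, Xr π x r q - z⟫_ℝ - s| ≤ b * t} ≤
      (Q * (5 ^ m * ome m * 2 ^ m) + 1) * (b + η) * t ^ m := by
  have home := ome_pos m
  have ht0 : 0 < t := ht₀.trans_le ht
  have hd : 0 < η * t₀ := by positivity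
  have hdt : η * t₀ ≤ η * t := by gcongr
  have hηt : η * t ≤ t := by nlinarith
  have h1 := h.slab_aux hz hQL hw ht0 ht1 (b := b * t) (s := s) (by positivity) hd (by
    have : η * t₀ ≤ 1 * 1 := by
      gcongr
      exact ht.trans ht1
    linarith) hs
  refine h1.trans ?_
  have h2 : 2 ^ (m + 1) * η' / (η * t₀) ≤ η * t ^ m := by
    rw [div_le_iff₀ hd]
    calc 2 ^ (m + 1) * η' ≤ (η * t₀) * (η * t₀ ^ m) := hη'
      _ ≤ (η * t₀) * (η * t ^ m) := by gcongr
      _ = _ := mul_comm _ _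
  have h3 := volume_Sl hw (R := t + η * t₀) (a := b * t + η * t₀) (by positivity) (by positivity) s
  have h4 : volume.real (Sl w (t + η * t₀) s (b * t + η * t₀)) * t ≤
      (5 ^ m * ome m * 2 ^ m * (b + η) * t ^ m) * t := by
    have h5 : 0 ≤ volume.real (Sl w (t + η * t₀) s (b * t + η * t₀)) := measureReal_nonneg
    calc volume.real (Sl w (t + η * t₀) s (b * t + η * t₀)) * t
        ≤ volume.real (Sl w (t + η * t₀) s (b * t + η * t₀)) * (t + η * t₀) := by
          gcongr
          linarith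
      _ ≤ 5 ^ m * (ome m * (t + η * t₀) ^ m) * (b * t + η * t₀) := h3
      _ ≤ 5 ^ m * (ome m * (2 * t) ^ m) * (b * t + η * t) := by
          gcongr
          linarith
      _ = _ := by rw [mul_pow]; ring
  have h5 := le_of_mul_le_mul_right h4 ht0
  calc Q * volume.real (Sl w (t + η * t₀) s (b * t + η * t₀)) + 2 ^ (m + 1) * η' / (η * t₀)
      ≤ Q * (5 ^ m * ome m * 2 ^ m * (b + η) * t ^ m) + η * t ^ m := by gcongr
    _ ≤ Q * (5 ^ m * ome m * 2 ^ m * (b + η) * t ^ m) + (b + η) * t ^ m := by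
        gcongr
        linarith
    _ = _ := by ring

end Crest.Agent.R234.Pd_435
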