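import Crest.Agent.R234.Gi2_456
import Crest.Agent.R234.GLK2_128

/-!
# Row 234, VF-F11 (helper435): V-level instance of `Pin3_3.Data`, part 5: pointwise comparison of the
foot chart with the base coordinate and the graph height
-/

set_option autoImplicit false
set_option linter.unusedVariables false
set_option linter.unusedSectionVars false

open MeasureTheory Filter Topology Set Metric
open scoped ENNReal NNReal ContDiff InnerProductSpace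
open Crest.GeometryTopology.Submanifold Crest.Agent.R234.Vf_884
open Crest.Agent.R234.Main_456
open Crest.Agent.R234.Ell1_3 (adjL ginv gop)
open Crest.Agent.R234.GLK_128 (A0 AA BB gg hh Fr Inv NN TT Pj tau0)
open Crest.Agent.R234.Gi_456

noncomputable section

namespace Crest.Agent.R234.Pd_435

local notation "adj" => ContinuousLinearMap.adjoint

section abs

variable {E F V : Type*} [NormedAddCommGroup E] [InnerProductSpace ℝ E] [FiniteDimensional ℝ E]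
  [NormedAddCommGroup F] [InnerProductSpace ℝ F] [FiniteDimensional ℝ F]
  [NormedAddCommGroup V] [InnerProductSpace ℝ V] [FiniteDimensional ℝ V]
  {i : F →L[ℝ] E} {j : V →L[ℝ] E} {q q' : F →L[ℝ] V} {Y gi : F →L[ℝ] F} {hi : V →L[ℝ] V}
  {Li : F →L[ℝ] F} {P : E →L[ℝ] E}

theorem adjBB_NN (h : Fr i j) (H : Inv q Y gi hi Li) (v : E) :
    adj (BB i j q) (NN i j q hi v) = adj (BB i j q) v := by
  have h1 : NN i j q hi v = BB i j q (hi (adj (BB i j q) v)) := rfl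
  have h2 : ∀ w, adj (BB i j q) (BB i j q w) = hh q w := fun w =>
    congrArg (fun T : V →L[ℝ] V => T w) (GLK_128.BB_BB h)
  rw [h1, h2, H.h2a]

theorem norm_adjBB (h : Fr i j) (hq : ‖q‖ ≤ 1 / 4) : ‖adj (BB i j q)‖ ≤ 5 / 4 := by
  rw [GLK_128.norm_adj]
  unfold BB
  calc ‖j - i ∘L adj q‖ ≤ ‖j‖ + ‖i ∘L adj q‖ := norm_sub_le _ _
    _ ≤ 1 + 1 * (1 / 4) := add_le_add h.norm_j_le
        ((ContinuousLinearMap.opNorm_comp_le _ _).trans
          (mul_le_mul h.norm_i_le (by rw [GLK_128.norm_adj]; exact hq) (norm_nonneg _) zero_le_one))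
    _ = 5 / 4 := by norm_num

theorem norm_Pj_le (hP : Pj F P) (v : E) : ‖P v‖ ≤ ‖v‖ := by
  have h1 : ‖P v‖ ^ 2 = ⟪P v, v⟫_ℝ := by
    rw [← real_inner_self_eq_norm_sq]
    nth_rewrite 2 [← hP.sa]
    rw [ContinuousLinearMap.adjoint_inner_right]
    congr 1
    exact congrArg (fun T : E →L[ℝ] E => T v) hP.idem
  have h2 := real_inner_le_norm (P v) v
  rcases (norm_nonneg (P v)).eq_or_lt with h0 | h0
  · rw [← h0]; exact norm_nonneg _
  · nlinarith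

theorem norm_NNP_le (h : Fr i j) (H : Inv q Y gi hi Li) (hP : Pj F P) (v : E) :
    ‖NN i j q hi (P v)‖ ≤ √(tau0 i j q hi P) * ‖v‖ := by
  have h1 := GLK_128.tau0_le_one_norm h H hP
  have h2 : adj (P ∘L NN i j q hi) = NN i j q hi ∘L P := by
    rw [ContinuousLinearMap.adjoint_comp, GLK_128.NN_adj H, hP.sa]
  have h3 : ‖NN i j q hi ∘L P‖ ≤ √(tau0 i j q hi P) := by
    rw [← h2, GLK_128.norm_adj]
    exact h1
  calc ‖NN i j q hi (P v)‖ = ‖(NN i j q hi ∘L P) v‖ := rfl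
    _ ≤ ‖NN i j q hi ∘L P‖ * ‖v‖ := ContinuousLinearMap.le_opNorm _ _
    _ ≤ _ := by gcongr

/-- the derivative of the graph height on the varifold plane -/
theorem norm_Dh_sq_le (h : Fr i j) (H : Inv q Y gi hi Li) (hP : Pj F P) (hq : ‖q‖ ≤ 1 / 4) (v : E) :
    ‖adj j (P v) - q' (adj i (P v))‖ ^ 2 ≤
      4 * (tau0 i j q hi P + ‖q - q'‖ ^ 2) * ‖v‖ ^ 2 := by
  have h1 : adj j (P v) - q' (adj i (P v)) =
      adj (BB i j q) (NN i j q hi (P v)) + (q - q') (adj i (P v)) := by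
    rw [adjBB_NN h H, GLK_128.adj_BB_apply]
    simp
  have h2 : ‖adj (BB i j q) (NN i j q hi (P v))‖ ≤ 5 / 4 * (√(tau0 i j q hi P) * ‖v‖) := by
    refine (ContinuousLinearMap.le_opNorm _ _).trans ?_
    exact mul_le_mul (norm_adjBB h hq) (norm_NNP_le h H hP v) (norm_nonneg _) (by norm_num)
  have h3 : ‖(q - q') (adj i (P v))‖ ≤ ‖q - q'‖ * ‖v‖ := by
    refine (ContinuousLinearMap.le_opNorm _ _).trans ?_
    gcongr
    refine (ContinuousLinearMap.le_opNorm _ _).trans ?_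
    rw [GLK_128.norm_adj]
    calc ‖i‖ * ‖P v‖ ≤ 1 * ‖v‖ := mul_le_mul h.norm_i_le (norm_Pj_le hP v) (norm_nonneg _) zero_le_one
      _ = _ := one_mul _
  have h4 : ‖adj j (P v) - q' (adj i (P v))‖ ≤
      5 / 4 * (√(tau0 i j q hi P) * ‖v‖) + ‖q - q'‖ * ‖v‖ := by
    rw [h1]
    exact (norm_add_le _ _).trans (add_le_add h2 h3)
  have h5 := pow_le_pow_left₀ (norm_nonneg _) h4 2
  have h6 : √(tau0 i j q hi P) ^ 2 = tau0 i j q hi P := Real.sq_sqrt (GLK_128.tau0_nonneg h H hP)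
  refine h5.trans ?_
  set s := √(tau0 i j q hi P) with hs
  rw [← h6]
  have h7 : 0 ≤ ‖v‖ ^ 2 := sq_nonneg _
  have h8 : (5 / 4 * (s * ‖v‖) + ‖q - q'‖ * ‖v‖) ^ 2 = (5 / 4 * s + ‖q - q'‖) ^ 2 * ‖v‖ ^ 2 := by ring
  rw [h8]
  refine mul_le_mul_of_nonneg_right ?_ h7
  nlinarith [sq_nonneg (5 / 4 * s - ‖q - q'‖), sq_nonneg s, sq_nonneg ‖q - q'‖]

/-- `Dh` on the tangent frame -/
theorem Dh_A0 (h : Fr i j) (v : F) : adj j (A0 i j q v) - q' (adj i (A0 i j q v)) = (q - q') v := by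
  simp [A0, h.ii_apply, h.jj_apply, h.ij_apply, h.ji_apply]

/-- `Dh` on the normal frame -/
theorem Dh_BB (h : Fr i j) (y : V) :
    adj j (BB i j q y) - q' (adj i (BB i j q y)) = y + q' (adj q y) := by
  simp [BB, h.ii_apply, h.jj_apply, h.ij_apply, h.ji_apply]

theorem norm_BB_sq (h : Fr i j) (y : V) : ‖BB i j q y‖ ^ 2 = ‖y‖ ^ 2 + ‖adj q y‖ ^ 2 := by
  rw [← real_inner_self_eq_norm_sq, ← ContinuousLinearMap.adjoint_inner_right]
  have h2 : adj (BB i j q) (BB i j q y) = hh q y :=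
    congrArg (fun T : V →L[ℝ] V => T y) (GLK_128.BB_BB h)
  rw [h2, real_inner_comm, GLK_128.hh_inner]

theorem le_norm_BB (h : Fr i j) (y : V) : ‖y‖ ≤ ‖BB i j q y‖ := by
  have h1 := norm_BB_sq (q := q) h y
  exact (sq_le_sq₀ (norm_nonneg _) (norm_nonneg _)).1 (by nlinarith [sq_nonneg ‖adj q y‖])

theorem norm_BB_le (h : Fr i j) {κ : ℝ} (hq : ‖q‖ ≤ κ) (y : V) : ‖BB i j q y‖ ≤ (1 + κ) * ‖y‖ := by
  have h1 : BB i j q y = j y - i (adj q y) := by simp [BB]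
  rw [h1]
  calc ‖j y - i (adj q y)‖ ≤ ‖j y‖ + ‖i (adj q y)‖ := norm_sub_le _ _
    _ = ‖y‖ + ‖adj q y‖ := by rw [h.norm_j, h.norm_i]
    _ ≤ ‖y‖ + κ * ‖y‖ := by
        gcongr
        refine (ContinuousLinearMap.le_opNorm _ _).trans ?_
        rw [GLK_128.norm_adj]
        gcongr
    _ = _ := by ring

/-- the horizontal lift of `L g₀ v` is close to `i v` -/
theorem norm_lift_sub (h : Fr i j) (H : Inv q Y gi hi Li) (hY : ‖Y‖ ≤ 1 / 2) {q0 : F →L[ℝ] V}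
    {κ : ℝ} (hq : ‖q‖ ≤ κ) (hq0 : ‖q0‖ ≤ κ) (hκ : κ ≤ 1 / 4) (v : F) :
    ‖A0 i j q (Li (gg q0 v)) - i v‖ ≤ (5 * κ ^ 2 + 3 * ‖Y‖ + κ) * ‖v‖ := by
  have hκ0 : 0 ≤ κ := (norm_nonneg _).trans hq
  set d := Li (gg q0 v) - v with hd
  have h1 : A0 i j q (Li (gg q0 v)) - i v = A0 i j q d + j (q v) := by
    rw [hd, map_sub]
    simp only [A0, _root_.add_apply, ContinuousLinearMap.comp_apply]
    abel
  have h2 : d = Li (adj q0 (q0 v) - adj q (q v) + Y v) := by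
    have h3 : v = Li (gg q v - Y v) := (H.l1a v).symm
    rw [hd]
    nth_rewrite 2 [h3]
    rw [← map_sub]
    congr 1
    simp only [gg, _root_.add_apply, ContinuousLinearMap.id_apply,
      ContinuousLinearMap.comp_apply]
    abel
  have hqq : ∀ {T : F →L[ℝ] V}, ‖T‖ ≤ κ → ‖adj T (T v)‖ ≤ κ ^ 2 * ‖v‖ := by
    intro T hT
    refine (ContinuousLinearMap.le_opNorm _ _).trans ?_
    rw [GLK_128.norm_adj]
    calc ‖T‖ * ‖T v‖ ≤ κ * (κ * ‖v‖) := by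
          refine mul_le_mul hT ((T.le_opNorm v).trans (by gcongr)) (norm_nonneg _) hκ0
      _ = _ := by ring
  have h3 : ‖d‖ ≤ 2 * (2 * κ ^ 2 * ‖v‖ + ‖Y‖ * ‖v‖) := by
    rw [h2]
    refine (Li.le_opNorm _).trans ?_
    refine mul_le_mul (H.norm_Li hY) ?_ (norm_nonneg _) zero_le_two
    refine (norm_add_le _ _).trans ?_
    have h4 := norm_sub_le (adj q0 (q0 v)) (adj q (q v))
    have h5 := hqq hq0
    have h6 := hqq hq
    have h7 := Y.le_opNorm v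
    linarith
  have h4 : ‖A0 i j q d‖ ≤ 5 / 4 * ‖d‖ := by
    refine (ContinuousLinearMap.le_opNorm _ _).trans ?_
    exact mul_le_mul_of_nonneg_right (GLK_128.norm_A0 h (hq.trans hκ)) (norm_nonneg _)
  have h5 : ‖j (q v)‖ ≤ κ * ‖v‖ := by
    rw [h.norm_j]
    exact (q.le_opNorm v).trans (by gcongr)
  rw [h1]
  refine (norm_add_le _ _).trans ?_
  have h6 : 0 ≤ ‖Y‖ * ‖v‖ := by positivity
  nlinarith

theorem norm_Li_gg_le (H : Inv q Y gi hi Li) (hY : ‖Y‖ ≤ 1 / 2) {q0 : F →L[ℝ] V}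
    (hq0 : ‖q0‖ ≤ 1 / 4) (v : F) : ‖Li (gg q0 v)‖ ≤ 3 * ‖v‖ := by
  have h1 : ‖gg q0 v‖ ≤ 17 / 16 * ‖v‖ := by
    simp only [gg, _root_.add_apply, ContinuousLinearMap.id_apply,
      ContinuousLinearMap.comp_apply]
    refine (norm_add_le _ _).trans ?_
    have h2 : ‖adj q0 (q0 v)‖ ≤ 1 / 16 * ‖v‖ := by
      refine (ContinuousLinearMap.le_opNorm _ _).trans ?_
      rw [GLK_128.norm_adj]
      calc ‖q0‖ * ‖q0 v‖ ≤ 1 / 4 * (1 / 4 * ‖v‖) := by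
            refine mul_le_mul hq0 ((q0.le_opNorm v).trans (by gcongr)) (norm_nonneg _) (by norm_num)
        _ = _ := by ring
    linarith
  refine (Li.le_opNorm _).trans ?_
  have h3 := mul_le_mul (H.norm_Li hY) h1 (norm_nonneg _) zero_le_two
  linarith [norm_nonneg v]

end abs

section tb

variable {m n k : ℕ} {π : Euc k →L[ℝ] Euc m} {ρ : Euc k →L[ℝ] Euc n} {x : Euc k} {r : ℝ}
  {w : Euc m → Euc n} {p : Euc k} {κ κ₂ : ℝ}

/-- height over the graph of `w` -/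
def hw (π : Euc k →L[ℝ] Euc m) (ρ : Euc k →L[ℝ] Euc n) (x : Euc k) (w : Euc m → Euc n) (p : Euc k) :
    Euc n := ρ (p - x) - w (π (p - x))

/-- the smallness of the graph, global -/
structure Sm (w : Euc m → Euc n) (κ κ₂ : ℝ) : Prop where
  k1 : ∀ v, ‖fderiv ℝ w v‖ ≤ κ
  k2 : ∀ v, ‖fderiv ℝ (fderiv ℝ w) v‖ ≤ κ₂
  k8 : κ ≤ 1 / 8

theorem Sm.k0 (hs : Sm w κ κ₂) : 0 ≤ κ := (norm_nonneg (fderiv ℝ w 0)).trans (hs.k1 0)

theorem Sm.k20 (hs : Sm w κ κ₂) : 0 ≤ κ₂ :=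
  le_trans (norm_nonneg (fderiv ℝ (fderiv ℝ w) 0)) (hs.k2 0)

theorem sub_Phi (h : Gr r w) (hf : Frame π ρ) (hp : p ∈ tube π ρ x r w) :
    p - Phi π ρ x w (foot π ρ x r w p, 0) =
      Bt π ρ w (foot π ρ x r w p) (yy π ρ x r w p) := by
  nth_rewrite 1 [← h.Phi_coord hf hp]
  simp only [Phi, Bt, BB, map_sub, map_add, map_zero, sub_zero, add_zero,
    _root_.sub_apply, ContinuousLinearMap.comp_apply]
  abel

theorem norm_foot_sub_le (h : Gr r w) (hp : p ∈ tube π ρ x r w) (hs : Sm w κ κ₂) :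
    ‖foot π ρ x r w p - π (p - x)‖ ≤ κ * ‖yy π ρ x r w p‖ := by
  have h1 := h.foot_fix hp
  have h2 : foot π ρ x r w p - π (p - x) =
      adj (fderiv ℝ w (foot π ρ x r w p)) (yy π ρ x r w p) := by
    nth_rewrite 1 [h1]
    abel
  rw [h2]
  refine (ContinuousLinearMap.le_opNorm _ _).trans ?_
  rw [GLK_128.norm_adj]
  gcongr
  exact hs.k1 _

theorem norm_hw_sub_le (h : Gr r w) (hp : p ∈ tube π ρ x r w) (hs : Sm w κ κ₂) :
    ‖hw π ρ x w p - yy π ρ x r w p‖ ≤ κ ^ 2 * ‖yy π ρ x r w p‖ := by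
  have hκ0 : 0 ≤ κ := (norm_nonneg _).trans (hs.k1 0)
  have h1 : hw π ρ x w p - yy π ρ x r w p = w (foot π ρ x r w p) - w (π (p - x)) := by
    unfold hw yy
    abel
  rw [h1]
  have h2 := convex_univ.norm_image_sub_le_of_norm_fderiv_le (𝕜 := ℝ)
    (fun z _ => h.differentiable z) (fun z _ => hs.k1 z) (mem_univ (π (p - x)))
    (mem_univ (foot π ρ x r w p))
  have h3 := norm_foot_sub_le h hp hs
  calc ‖w (foot π ρ x r w p) - w (π (p - x))‖ ≤ κ * ‖foot π ρ x r w p - π (p - x)‖ := h2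
    _ ≤ κ * (κ * ‖yy π ρ x r w p‖) := by gcongr
    _ = _ := by ring

theorem norm_dw_sub_le (h : Gr r w) (hp : p ∈ tube π ρ x r w) (hs : Sm w κ κ₂) :
    ‖fderiv ℝ w (foot π ρ x r w p) - fderiv ℝ w (π (p - x))‖ ≤
      κ₂ * (κ * ‖yy π ρ x r w p‖) := by
  have hκ0 : 0 ≤ κ₂ := hs.k20
  have h2 := convex_univ.norm_image_sub_le_of_norm_fderiv_le (𝕜 := ℝ)
    (fun z _ => h.differentiable' z) (fun z _ => hs.k2 z) (mem_univ (π (p - x)))
    (mem_univ (foot π ρ x r w p))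
  have h3 := norm_foot_sub_le h hp hs
  exact h2.trans (by gcongr)

/-- the normal vector at the foot -/
def nut (π : Euc k →L[ℝ] Euc m) (ρ : Euc k →L[ℝ] Euc n) (x : Euc k) (r : ℝ) (w : Euc m → Euc n)
    (p : Euc k) : Euc k := Bt π ρ w (foot π ρ x r w p) (yy π ρ x r w p)

theorem norm_yy_le_nut (hf : Frame π ρ) : ‖yy π ρ x r w p‖ ≤ ‖nut π ρ x r w p‖ :=
  le_norm_BB (frame_fr hf) _

theorem norm_nut_le (hf : Frame π ρ) (hs : Sm w κ κ₂) :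
    ‖nut π ρ x r w p‖ ≤ (1 + κ) * ‖yy π ρ x r w p‖ :=
  norm_BB_le (frame_fr hf) (hs.k1 _) _

theorem norm_hw_le (h : Gr r w) (hf : Frame π ρ) (hp : p ∈ tube π ρ x r w) (hs : Sm w κ κ₂) :
    ‖hw π ρ x w p‖ ≤ 2 * ‖nut π ρ x r w p‖ := by
  have hκ0 : 0 ≤ κ := (norm_nonneg _).trans (hs.k1 0)
  have h1 := norm_hw_sub_le h hp hs
  have h2 := norm_yy_le_nut (x := x) (r := r) (w := w) (p := p) hf
  have h3 := norm_le_norm_add_norm_sub' (hw π ρ x w p) (yy π ρ x r w p)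
  have h4 : κ ^ 2 ≤ 1 := by have := hs.k8; nlinarith
  have h5 := norm_nonneg (yy π ρ x r w p)
  nlinarith

theorem norm_nut_le_hw (h : Gr r w) (hf : Frame π ρ) (hp : p ∈ tube π ρ x r w) (hs : Sm w κ κ₂) :
    ‖nut π ρ x r w p‖ ≤ 2 * ‖hw π ρ x w p‖ := by
  have hκ0 : 0 ≤ κ := (norm_nonneg _).trans (hs.k1 0)
  have h1 := norm_hw_sub_le h hp hs
  have h2 := norm_nut_le (x := x) (r := r) (p := p) hf hs
  have h3 := norm_le_norm_add_norm_sub (hw π ρ x w p) (yy π ρ x r w p)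
  have h8 := hs.k8
  have h4 : κ ^ 2 ≤ 1 / 64 := by nlinarith
  have h5 := norm_nonneg (yy π ρ x r w p)
  have h6 : ‖yy π ρ x r w p‖ ≤ 64 / 63 * ‖hw π ρ x w p‖ := by nlinarith
  nlinarith

/-- the derivative of the height over the graph of `w` -/
def dhw (π : Euc k →L[ℝ] Euc m) (ρ : Euc k →L[ℝ] Euc n) (x : Euc k) (w : Euc m → Euc n) (p : Euc k) :
    Euc k →L[ℝ] Euc n := ρ - (fderiv ℝ w (π (p - x))) ∘L π

theorem norm_dhw_le (hf : Frame π ρ) (hs : Sm w κ κ₂) : ‖dhw π ρ x w p‖ ≤ 2 := by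
  have h1 : ‖π‖ ≤ 1 := by
    have := (frame_fr hf).norm_i_le
    rwa [GLK_128.norm_adj] at this
  have h2 : ‖ρ‖ ≤ 1 := by
    have := (frame_fr hf).norm_j_le
    rwa [GLK_128.norm_adj] at this
  have h3 := hs.k1 (π (p - x))
  have h8 := hs.k8
  unfold dhw
  calc ‖ρ - (fderiv ℝ w (π (p - x))) ∘L π‖ ≤ ‖ρ‖ + ‖(fderiv ℝ w (π (p - x))) ∘L π‖ := norm_sub_le _ _
    _ ≤ 1 + ‖fderiv ℝ w (π (p - x))‖ * ‖π‖ := by
        gcongr
        exact ContinuousLinearMap.opNorm_comp_le _ _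
    _ ≤ 1 + 1 / 8 * 1 := by
        gcongr
        linarith
    _ ≤ 2 := by norm_num

theorem dhw_apply (v : Euc k) : dhw π ρ x w p v =
    adj (adj ρ) v - fderiv ℝ w (π (p - x)) (adj (adj π) v) := by
  rw [ContinuousLinearMap.adjoint_adjoint, ContinuousLinearMap.adjoint_adjoint]
  simp [dhw]

/-- (j2) -/
theorem dhw_P (h : Gr r w) (hf : Frame π ρ) (hp : p ∈ tube π ρ x r w) (hs : Sm w κ κ₂)
    {P : Euc k →L[ℝ] Euc k} (hP : Pj (Euc m) P) {δ s : ℝ} (hδ1 : δ ≤ 1) (hκ : κ ≤ δ) (hκ2 : κ₂ * s ≤ δ)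
    (hs0 : 0 < s) (v : Euc k) :
    ‖dhw π ρ x w p (P v)‖ ^ 2 ≤ 4 * (tau0 (adj π) (adj ρ) (fderiv ℝ w (foot π ρ x r w p))
      (hinv (fderiv ℝ w (foot π ρ x r w p))) P + δ ^ 2 * (‖nut π ρ x r w p‖ ^ 2 / s ^ 2)) *
        ‖v‖ ^ 2 := by
  have hκ0 : 0 ≤ κ := (norm_nonneg _).trans (hs.k1 0)
  have hκ20 : 0 ≤ κ₂ := hs.k20
  have H := h.inv (foot π ρ x r w p) (h.norm_yy_lt hp).le
  have h1 := norm_Dh_sq_le (q' := fderiv ℝ w (π (p - x))) (frame_fr hf) H hP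
    ((hs.k1 _).trans (by have := hs.k8; linarith)) v
  rw [dhw_apply]
  refine h1.trans ?_
  have h2 := norm_dw_sub_le h hp hs
  have h3 := norm_yy_le_nut (x := x) (r := r) (w := w) (p := p) hf
  have h4 : ‖fderiv ℝ w (foot π ρ x r w p) - fderiv ℝ w (π (p - x))‖ ≤
      δ * (‖nut π ρ x r w p‖ / s) := by
    refine h2.trans ?_
    rw [← mul_div_assoc, le_div_iff₀ hs0]
    calc κ₂ * (κ * ‖yy π ρ x r w p‖) * s = (κ₂ * s) * (κ * ‖yy π ρ x r w p‖) := by ring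
      _ ≤ δ * (1 * ‖nut π ρ x r w p‖) := by
          have : κ ≤ 1 := hκ.trans hδ1
          have : 0 ≤ δ := hκ0.trans hκ
          gcongr
      _ = _ := by ring
  have h5 : ‖fderiv ℝ w (foot π ρ x r w p) - fderiv ℝ w (π (p - x))‖ ^ 2 ≤
      δ ^ 2 * (‖nut π ρ x r w p‖ ^ 2 / s ^ 2) := by
    calc _ ≤ (δ * (‖nut π ρ x r w p‖ / s)) ^ 2 := pow_le_pow_left₀ (norm_nonneg _) h4 2
      _ = _ := by ring
  gcongr

/-- (j4) -/
theorem hw_sub_dhw (h : Gr r w) (hf : Frame π ρ) (hp : p ∈ tube π ρ x r w) (hs : Sm w κ κ₂) {δ : ℝ}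
    (hκ : κ ≤ δ) : ‖hw π ρ x w p - dhw π ρ x w p (nut π ρ x r w p)‖ ≤ δ * ‖nut π ρ x r w p‖ := by
  have hκ0 : 0 ≤ κ := (norm_nonneg _).trans (hs.k1 0)
  have h1 : dhw π ρ x w p (nut π ρ x r w p) = yy π ρ x r w p +
      fderiv ℝ w (π (p - x)) (adj (fderiv ℝ w (foot π ρ x r w p)) (yy π ρ x r w p)) := by
    rw [dhw_apply]
    exact Dh_BB (frame_fr hf) _
  have h2 : ‖fderiv ℝ w (π (p - x)) (adj (fderiv ℝ w (foot π ρ x r w p)) (yy π ρ x r w p))‖ ≤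
      κ ^ 2 * ‖yy π ρ x r w p‖ := by
    refine (ContinuousLinearMap.le_opNorm _ _).trans ?_
    have h3 : ‖adj (fderiv ℝ w (foot π ρ x r w p)) (yy π ρ x r w p)‖ ≤ κ * ‖yy π ρ x r w p‖ := by
      refine (ContinuousLinearMap.le_opNorm _ _).trans ?_
      rw [GLK_128.norm_adj]
      gcongr
      exact hs.k1 _
    calc _ ≤ κ * (κ * ‖yy π ρ x r w p‖) := mul_le_mul (hs.k1 _) h3 (norm_nonneg _) hκ0
      _ = _ := by ring
  have h3 := norm_hw_sub_le h hp hs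
  have h4 := norm_yy_le_nut (x := x) (r := r) (w := w) (p := p) hf
  have h5 : hw π ρ x w p - dhw π ρ x w p (nut π ρ x r w p) = (hw π ρ x w p - yy π ρ x r w p) -
      fderiv ℝ w (π (p - x)) (adj (fderiv ℝ w (foot π ρ x r w p)) (yy π ρ x r w p)) := by
    rw [h1]; abel
  rw [h5]
  refine (norm_sub_le _ _).trans ?_
  have h6 : 2 * κ ^ 2 ≤ δ := by have := hs.k8; nlinarith
  have h7 := norm_nonneg (yy π ρ x r w p)
  calc ‖hw π ρ x w p - yy π ρ x r w p‖ +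
      ‖fderiv ℝ w (π (p - x)) (adj (fderiv ℝ w (foot π ρ x r w p)) (yy π ρ x r w p))‖
      ≤ (2 * κ ^ 2) * ‖yy π ρ x r w p‖ := by linarith
    _ ≤ δ * ‖nut π ρ x r w p‖ := by
        have : 0 ≤ δ := hκ0.trans hκ
        gcongr

/-- `dx† (x)` for the chart at the centre `X0` -/
def xit (π : Euc k →L[ℝ] Euc m) (ρ : Euc k →L[ℝ] Euc n) (x : Euc k) (r : ℝ) (w : Euc m → Euc n)
    (X0 : Euc m) (p : Euc k) : Euc k :=
  A0t π ρ w (foot π ρ x r w p)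
    (Li w (foot π ρ x r w p) (yy π ρ x r w p) (gg (fderiv ℝ w X0) (foot π ρ x r w p - X0)))

theorem norm_Yo_small (h : Gr r w) (hp : p ∈ tube π ρ x r w) (hs : Sm w κ κ₂) :
    ‖Yo w (foot π ρ x r w p) (yy π ρ x r w p)‖ ≤ κ₂ * ‖yy π ρ x r w p‖ := by
  refine (norm_Yo_le _ _ _).trans ?_
  gcongr
  exact hs.k2 _

/-- (j3) -/
theorem dhw_xit (h : Gr r w) (hf : Frame π ρ) (hp : p ∈ tube π ρ x r w) (hs : Sm w κ κ₂)
    {X0 : Euc m} {δ s : ℝ} (hκ : κ ≤ δ) (hκ2 : κ₂ * s ≤ δ)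
    (hs0 : 0 < s) (hX : ‖foot π ρ x r w p - X0‖ ≤ 2 * s) :
    ‖dhw π ρ x w p (xit π ρ x r w X0 p)‖ ≤ 12 * δ * ‖nut π ρ x r w p‖ := by
  have hκ0 : 0 ≤ κ := (norm_nonneg _).trans (hs.k1 0)
  have hκ20 : 0 ≤ κ₂ := hs.k20
  have hδ0 : 0 ≤ δ := hκ0.trans hκ
  have hY : ‖Yo w (foot π ρ x r w p) (yy π ρ x r w p)‖ ≤ 1 / 2 :=
    (h.norm_Yo_le _ (h.norm_yy_lt hp).le).trans (by norm_num)
  have H := h.inv (foot π ρ x r w p) (h.norm_yy_lt hp).le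
  have h1 : dhw π ρ x w p (xit π ρ x r w X0 p) =
      (fderiv ℝ w (foot π ρ x r w p) - fderiv ℝ w (π (p - x)))
        (Li w (foot π ρ x r w p) (yy π ρ x r w p) (gg (fderiv ℝ w X0) (foot π ρ x r w p - X0))) := by
    rw [dhw_apply]
    exact Dh_A0 (frame_fr hf) _
  rw [h1]
  refine (ContinuousLinearMap.le_opNorm _ _).trans ?_
  have h2 := norm_dw_sub_le h hp hs
  have h3 := norm_Li_gg_le H hY (q0 := fderiv ℝ w X0)
    ((hs.k1 X0).trans (by have := hs.k8; linarith)) (foot π ρ x r w p - X0)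
  have h4 := norm_yy_le_nut (x := x) (r := r) (w := w) (p := p) hf
  calc _ ≤ (κ₂ * (κ * ‖yy π ρ x r w p‖)) * (3 * ‖foot π ρ x r w p - X0‖) :=
        mul_le_mul h2 h3 (norm_nonneg _) (by positivity)
    _ ≤ (κ₂ * (κ * ‖nut π ρ x r w p‖)) * (3 * (2 * s)) := by gcongr
    _ = 6 * (κ₂ * s) * κ * ‖nut π ρ x r w p‖ := by ring
    _ ≤ 6 * δ * 1 * ‖nut π ρ x r w p‖ := by
        have : κ ≤ 1 := by have := hs.k8; linarith
        gcongr
    _ ≤ _ := by nlinarith [mul_nonneg hδ0 (norm_nonneg (nut π ρ x r w p))]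

/-- (j1) -/
theorem xit_sub (h : Gr r w) (hf : Frame π ρ) (hp : p ∈ tube π ρ x r w) (hs : Sm w κ κ₂)
    {X0 : Euc m} {δ s : ℝ} (hκ : κ ≤ δ) (hκ2 : κ₂ * s ≤ δ)
    (hs0 : 0 < s) (hX : ‖foot π ρ x r w p - X0‖ ≤ 2 * s) (hy : ‖yy π ρ x r w p‖ ≤ s) :
    ‖xit π ρ x r w X0 p - adj π (π (p - x) - X0)‖ ≤ 12 * δ * s := by
  have hκ0 : 0 ≤ κ := (norm_nonneg _).trans (hs.k1 0)
  have hκ20 : 0 ≤ κ₂ := hs.k20
  have hδ0 : 0 ≤ δ := hκ0.trans hκ
  have hY : ‖Yo w (foot π ρ x r w p) (yy π ρ x r w p)‖ ≤ 1 / 2 :=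
    (h.norm_Yo_le _ (h.norm_yy_lt hp).le).trans (by norm_num)
  have H := h.inv (foot π ρ x r w p) (h.norm_yy_lt hp).le
  have h1 := norm_lift_sub (frame_fr hf) H hY (hs.k1 (foot π ρ x r w p)) (hs.k1 X0)
    (by have := hs.k8; linarith) (foot π ρ x r w p - X0)
  have h2 : ‖adj π (foot π ρ x r w p - π (p - x))‖ ≤ κ * ‖yy π ρ x r w p‖ := by
    rw [(frame_fr hf).norm_i]
    exact norm_foot_sub_le h hp hs
  have h3 : xit π ρ x r w X0 p - adj π (π (p - x) - X0) =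
      (xit π ρ x r w X0 p - adj π (foot π ρ x r w p - X0)) +
        adj π (foot π ρ x r w p - π (p - x)) := by
    have e : π (p - x) - X0 = (foot π ρ x r w p - X0) - (foot π ρ x r w p - π (p - x)) := by abel
    rw [e, map_sub (adj π) (foot π ρ x r w p - X0)]
    abel
  rw [h3]
  refine (norm_add_le _ _).trans ?_
  have h4 : ‖xit π ρ x r w X0 p - adj π (foot π ρ x r w p - X0)‖ ≤
      (5 * κ ^ 2 + 3 * ‖Yo w (foot π ρ x r w p) (yy π ρ x r w p)‖ + κ) *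
        ‖foot π ρ x r w p - X0‖ := h1
  have h5 := norm_Yo_small h hp hs
  have h6 : ‖Yo w (foot π ρ x r w p) (yy π ρ x r w p)‖ ≤ δ := by
    refine h5.trans ((mul_le_mul_of_nonneg_left hy hκ20).trans hκ2)
  have h7 : 5 * κ ^ 2 + 3 * ‖Yo w (foot π ρ x r w p) (yy π ρ x r w p)‖ + κ ≤ 5 * δ := by
    have := hs.k8
    nlinarith
  calc _ ≤ 5 * δ * (2 * s) + δ * s := by
        refine add_le_add (h4.trans ?_) (h2.trans ?_)
        · gcongr
        · gcongr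
    _ ≤ 12 * δ * s := by nlinarith [mul_nonneg hδ0 hs0.le]

end tb

end Crest.Agent.R234.Pd_435
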