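import Crest.Agent.R234.Qp2_534
import Crest.Agent.R234.Pd6_435
import Crest.Agent.R234.Pd2_435
import Crest.Agent.R234.GL6_394

/-!
# Row 234, VF-F11 (helper435): V-level instance of `Pin3_3.Data`, part 7: the bridge between the
integrals over base balls for `nu` and the integrals over cylinders for the part of `V` over the
compact `Kz` of the chart of a `Q`-point (534's `Qx`, `cz`).
-/

set_option autoImplicit false
set_option linter.unusedVariables false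
set_option linter.unusedSectionVars false

open MeasureTheory Filter Topology Set Metric
open scoped ENNReal NNReal ContDiff InnerProductSpace
open Crest.GeometryTopology.Submanifold Crest.Agent.R234.Vf_884
open Crest.Agent.R234.Main_456 Crest.Agent.R234.F11_435
open Crest.Agent.R234.Gi_456
open Crest.Agent.R234.Pin3_3 (BB HH)
open Crest.Agent.R234.GL_394 (VK On II ee EE bb RR RF Ph OO)
open Crest.Agent.R234.Qp_534 (Qx wz cz Tz)

noncomputable section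

namespace Crest.Agent.R234.Pd_435

local notation "adj" => ContinuousLinearMap.adjoint

variable {m n k : ℕ} {U : Set (Euc k)} {V : Measure (Euc k × L k)} {Q K : ℕ} {x : Euc k} {r : ℝ}
  {π : Euc k →L[ℝ] Euc m} {ρ : Euc k →L[ℝ] Euc n} {u : Euc m → Euc n} {ε C : ℝ}
  {W : Euc m → Euc n} {κ : ℝ} {zh : Euc k}

/-- the measure of the chart at `zh` -/
def Vz (m : ℕ) (V : Measure (Euc k × L k)) (Q : ℕ) (π : Euc k →L[ℝ] Euc m) (ρ : Euc k →L[ℝ] Euc n)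
    (x : Euc k) (r ε : ℝ) (W : Euc m → Euc n) (zh : Euc k) : Measure (Euc k × L k) :=
  VK V (Qp_534.Kz π ρ x r W zh (Qp_534.h0 m Q ε))

namespace Qz

variable (h : Qx U V Q K x r π ρ u ε C W κ zh)

include h

theorem ctr : Ctr V π x r (r⁻¹ • π (zh - x)) zh := ⟨h.mem, h.th1, rfl⟩

theorem on : On (Vz m V Q π ρ x r ε W zh) m (Qp_534.Kz π ρ x r W zh (Qp_534.h0 m Q ε)) :=
  (h.loc (L := Real.log (5 * r)) (by
    have := h.hr
    rw [Real.exp_log (by positivity)])).toOn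

theorem kz (hK : 2 ≤ K) : Kz π ρ zh r (wz π x zh r W) κ (κ / r)
    (Qp_534.Kz π ρ x r W zh (Qp_534.h0 m Q ε)) (3 * Qp_534.h0 m Q ε * r) where
  gr := h.gr
  fr := h.hf
  sm := ⟨fun v => h.ext.d1 h.hr (by omega) v, fun v => h.ext.d2 h.hr hK v, h.κ8⟩
  cpt := Qx.isCompact_Kz h.gr _
  tb := fun p hp => (h.Kz_spec h.hs hp).1
  ht := fun p hp => (h.Kz_spec h.hs hp).2.2

theorem ae_eq {t : ℝ} (ht0 : 0 < t) (ht : t ≤ 19 / 4) :
    (BB (Xr π x r) (r⁻¹ • π (zh - x)) t ∩ box π ρ x (8 * r) ×ˢ univ : Set (Euc k × L k)) =ᵐ[V]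
    (cyc π zh 0 (t * r) ∩ Qp_534.Kz π ρ x r W zh (Qp_534.h0 m Q ε) ×ˢ univ :
      Set (Euc k × L k)) := by
  have hr := h.hr
  have hz := ctr h
  have hcx := h.cx
  filter_upwards [h.cx.ae_box] with p hp
  apply propext
  constructor
  · rintro ⟨h1, h2, -⟩
    have h3 : ‖π (p.1 - zh)‖ < t * r := (hcx.mem_BB_iff hz).1 h1
    obtain ⟨h4, h5⟩ := hp h2
    have h6 : π (p.1 - x) = π (p.1 - zh) + π (zh - x) := by rw [← map_add, sub_add_sub_cancel]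
    have h7 := h.norm_pi_z
    have h8 : ‖π (p.1 - x)‖ < 7 * r := by
      rw [h6]
      refine (norm_add_le _ _).trans_lt ?_
      nlinarith
    have hs := h.hs
    have hs0 := Qp_534.h0_nonneg m Q ε
    have h9 : ‖ρ (p.1 - x)‖ < 7 * r := by
      refine h5.trans_lt ?_
      have h10 : √(Cx.hc m Q * ε) ≤ 1 / 16 := h.hs
      calc √(Cx.hc m Q * ε) * r ≤ 1 / 16 * r := by gcongr
        _ < 7 * r := by linarith
    have hb7 : p.1 ∈ box π ρ x (7 * r) := ⟨h8, h9⟩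
    have hT := h.mem_Tz_of_box hb7 h4
    have h11 := h.hgt_z_le hb7 h4
    have h12 := h.gr.norm_yy_le hT
    have h13 := h.foot_sub_le hT
    have hk8 := h.κ8
    have hk0 := h.k0
    have h14 : ‖yy π ρ zh r (wz π x zh r W) p.1‖ ≤ 3 * Qp_534.h0 m Q ε * r := by
      have : 0 ≤ Qp_534.h0 m Q ε * r := by positivity
      linarith
    refine ⟨?_, ?_, mem_univ _⟩
    · show ‖π (p.1 - zh) - 0‖ < t * r
      rwa [sub_zero]
    · refine h.mem_Kz hT ?_ h14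
      have h15 : ‖foot π ρ zh r (wz π x zh r W) p.1‖ ≤ ‖π (p.1 - zh)‖ +
          ‖foot π ρ zh r (wz π x zh r W) p.1 - π (p.1 - zh)‖ := by
        have := norm_add_le (π (p.1 - zh)) (foot π ρ zh r (wz π x zh r W) p.1 - π (p.1 - zh))
        simpa using this
      have h16 : κ * ‖yy π ρ zh r (wz π x zh r W) p.1‖ ≤ 1 / 8 * (3 * (1 / 16) * r) := by
        gcongr
        refine h14.trans ?_
        gcongr
      nlinarith
  · rintro ⟨h1, h2, -⟩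
    have h3 : ‖π (p.1 - zh) - 0‖ < t * r := h1
    rw [sub_zero] at h3
    have h4 := h.Kz_box h.hs h2
    refine ⟨(hcx.mem_BB_iff hz).2 h3, ⟨?_, ?_⟩, mem_univ _⟩
    · have := h4.1; linarith
    · have := h4.2; linarith

theorem bridge {F : Type*} [NormedAddCommGroup F] [NormedSpace ℝ F] (f : Euc k × L k → F)
    {t : ℝ} (ht0 : 0 < t) (ht : t ≤ 19 / 4) :
    ∫ p in BB (Xr π x r) (r⁻¹ • π (zh - x)) t, f p ∂(nu V π ρ x r) =
      (r ^ m)⁻¹ • ∫ p in cyc π zh 0 (t * r), f p ∂(Vz m V Q π ρ x r ε W zh) := by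
  rw [setIntegral_nu h.hr measurableSet_BB', setIntegral_congr_set (ae_eq h ht0 ht)]
  unfold Vz VK
  rw [Measure.restrict_restrict (measurableSet_cyc 0 (t * r))]

theorem hw_eq {p : Euc k} (hp : ‖π (p - x)‖ < 8 * r) :
    hw π ρ zh (wz π x zh r W) p = hgt π ρ x r u p - hgt π ρ x r u zh := h.hgt_z hp

theorem dhw_eq {p : Euc k × L k} (hp : ‖π (p.1 - x)‖ < 8 * r) :
    dhw π ρ zh (wz π x zh r W) p.1 = Dr π ρ x r u p := by
  unfold dhw Dr Xr
  rw [Qp_534.fderiv_wz h.hr.ne' h.ext.cd, ← map_add, sub_add_sub_cancel,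
    h.ext.fderiv_eq ((h.cx.base_lt hp).trans (by norm_num))]

theorem Y_eq {p : Euc k × L k} (hp : p.1 ∈ Qp_534.Kz π ρ x r W zh (Qp_534.h0 m Q ε)) :
    ‖Yr π ρ x r u p - r⁻¹ • hgt π ρ x r u zh‖ ^ 2 =
      (r ^ 2)⁻¹ * ‖hw π ρ zh (wz π x zh r W) p.1‖ ^ 2 := by
  have hr := h.hr
  have hb := h.Kz_box h.hs hp
  rw [hw_eq h (by have := hb.1; linarith)]
  unfold Yr
  rw [← smul_sub, norm_smul, norm_inv, Real.norm_of_nonneg hr.le, mul_pow, inv_pow]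

theorem er_eq {p : Euc k × L k} (hp : p.1 ∈ Qp_534.Kz π ρ x r W zh (Qp_534.h0 m Q ε)) (α : ℝ) :
    ‖Pin2_3.er (Tr π ρ x r u p) (Xr π x r p) (r⁻¹ • π (zh - x)) (Yr π ρ x r u p)
        (r⁻¹ • hgt π ρ x r u zh) α‖ ^ 2 =
      (r ^ 2)⁻¹ * ‖dhw π ρ zh (wz π x zh r W) p.1 (p.2 (adj π (π (p.1 - zh) - 0))) -
        α • hw π ρ zh (wz π x zh r W) p.1‖ ^ 2 := by
  have hr := h.hr
  have hb := h.Kz_box h.hs hp
  have hb8 : ‖π (p.1 - x)‖ < 8 * r := by have := hb.1; linarith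
  rw [hw_eq h hb8, dhw_eq h hb8, sub_zero]
  have h1 : Pin2_3.er (Tr π ρ x r u p) (Xr π x r p) (r⁻¹ • π (zh - x)) (Yr π ρ x r u p)
        (r⁻¹ • hgt π ρ x r u zh) α = r⁻¹ • (Dr π ρ x r u p (p.2 (adj π (π (p.1 - zh)))) -
          α • (hgt π ρ x r u p.1 - hgt π ρ x r u zh)) := by
    unfold Pin2_3.er Tr Yr
    have h2 : Xr π x r p - r⁻¹ • π (zh - x) = r⁻¹ • π (p.1 - zh) := by
      unfold Xr
      rw [← smul_sub, ← map_sub, sub_sub_sub_cancel_right]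
    rw [h2]
    simp only [ContinuousLinearMap.comp_apply, map_smul]
    module
  rw [h1, norm_smul, norm_inv, Real.norm_of_nonneg hr.le, mul_pow, inv_pow]

theorem int_Y {t : ℝ} (ht0 : 0 < t) (ht : t ≤ 19 / 4) :
    ∫ p in BB (Xr π x r) (r⁻¹ • π (zh - x)) t,
      ‖Yr π ρ x r u p - r⁻¹ • hgt π ρ x r u zh‖ ^ 2 ∂(nu V π ρ x r) =
    (r ^ (m + 2))⁻¹ * ∫ p in cyc π zh 0 (t * r), ‖hw π ρ zh (wz π x zh r W) p.1‖ ^ 2
      ∂(Vz m V Q π ρ x r ε W zh) := by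
  rw [bridge h _ ht0 ht]
  have h1 : ∫ p in cyc π zh 0 (t * r), ‖Yr π ρ x r u p - r⁻¹ • hgt π ρ x r u zh‖ ^ 2
      ∂(Vz m V Q π ρ x r ε W zh) = ∫ p in cyc π zh 0 (t * r),
      (r ^ 2)⁻¹ * ‖hw π ρ zh (wz π x zh r W) p.1‖ ^ 2 ∂(Vz m V Q π ρ x r ε W zh) := by
    refine integral_congr_ae ?_
    filter_upwards [ae_restrict_of_ae (on h).mem] with p hp
    exact Y_eq h hp.1
  rw [h1, integral_const_mul, smul_eq_mul, ← mul_assoc, ← mul_inv, ← pow_add]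

theorem int_er {t : ℝ} (ht0 : 0 < t) (ht : t ≤ 19 / 4) (α : ℝ) :
    ∫ p in BB (Xr π x r) (r⁻¹ • π (zh - x)) t,
      ‖Pin2_3.er (Tr π ρ x r u p) (Xr π x r p) (r⁻¹ • π (zh - x)) (Yr π ρ x r u p)
        (r⁻¹ • hgt π ρ x r u zh) α‖ ^ 2 ∂(nu V π ρ x r) =
    (r ^ (m + 2))⁻¹ * ∫ p in cyc π zh 0 (t * r),
      ‖dhw π ρ zh (wz π x zh r W) p.1 (p.2 (adj π (π (p.1 - zh) - 0))) -
        α • hw π ρ zh (wz π x zh r W) p.1‖ ^ 2 ∂(Vz m V Q π ρ x r ε W zh) := by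
  rw [bridge h _ ht0 ht]
  have h1 : ∫ p in cyc π zh 0 (t * r), ‖Pin2_3.er (Tr π ρ x r u p) (Xr π x r p)
      (r⁻¹ • π (zh - x)) (Yr π ρ x r u p) (r⁻¹ • hgt π ρ x r u zh) α‖ ^ 2
      ∂(Vz m V Q π ρ x r ε W zh) = ∫ p in cyc π zh 0 (t * r),
      (r ^ 2)⁻¹ * ‖dhw π ρ zh (wz π x zh r W) p.1 (p.2 (adj π (π (p.1 - zh) - 0))) -
        α • hw π ρ zh (wz π x zh r W) p.1‖ ^ 2 ∂(Vz m V Q π ρ x r ε W zh) := by
    refine integral_congr_ae ?_
    filter_upwards [ae_restrict_of_ae (on h).mem] with p hp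
    exact er_eq h hp.1 α
  rw [h1, integral_const_mul, smul_eq_mul, ← mul_assoc, ← mul_inv, ← pow_add]

end Qz

end Crest.Agent.R234.Pd_435
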