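import Crest.Agent.R234.Pd7_435
import Crest.Agent.R234.Gs5_685

/-!
# Row 234, VF-F11 (helper435): V-level instance of `Pin3_3.Data`, part 8: the size of the frequency
functions at a `Q`-point against the separation `sep 8` of the reference: (B1), (B2).
-/

set_option autoImplicit false
set_option linter.unusedVariables false
set_option linter.unusedSectionVars false

open MeasureTheory Filter Topology Set Metric
open scoped ENNReal NNReal ContDiff InnerProductSpace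
open Crest.GeometryTopology.Submanifold Crest.Agent.R234.Vf_884
open Crest.Agent.R234.Main_456 Crest.Agent.R234.F11_435
open Crest.Agent.R234.Gi_456
open Crest.Agent.R234.Cy_870 (Prof)
open Crest.Agent.R234.Pin3_3 (BB HH)
open Crest.Agent.R234.GL_394 (VK On II ee EE bb RR RF Ph OO qq)
open Crest.Agent.R234.Qp_534 (Qx wz cz Tz h0)

noncomputable section

namespace Crest.Agent.R234.Pd_435

local notation "adj" => ContinuousLinearMap.adjoint

variable {m n k : ℕ}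

section chart

variable {π : Euc k →L[ℝ] Euc m} {ρ : Euc k →L[ℝ] Euc n} {b : Euc k} {r : ℝ}
  {w : Euc m → Euc n} {κ κ₂ : ℝ} {Kc : Set (Euc k)} {h₀ : ℝ} {V : Measure (Euc k × L k)}
  {g g1 g2 : ℝ → ℝ}

/-- lower bound of the height function, general threshold -/
theorem Kz.lo' (h : Kz π ρ b r w κ κ₂ Kc h₀) (hV : On V m Kc) (hg : Prof g g1 g2) (X0 : Euc m)
    {l cg t a a' : ℝ} (hcg : 0 < cg) (hg0 : ∀ y, 0 ≤ y → y ≤ a → cg ≤ -2 * g1 y)
    (ha : a' ^ 2 ≤ a) (hts : 65 / 64 * (t + h₀ / 8) ≤ a' * Real.exp l) :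
    ∫ p in cyc π b X0 t, ‖hw π ρ b w p.1‖ ^ 2 ∂V ≤
      8 * cg⁻¹ * (Real.exp l ^ m * II (ch π ρ b r w X0) V g1 l) := by
  have hE := Real.exp_pos l
  have hok := h.gr.ok h.fr X0 h.cpt h.tb
  have hc1 := hg.k1.continuous
  have i3 : Integrable (fun p : Euc k × L k => ((ch π ρ b r w X0).f p.1 *
      (ch π ρ b r w X0).mu ((ch π ρ b r w X0).x p.1)) *
      (-4 * g1 (Real.exp (-2 * l) * ‖(ch π ρ b r w X0).x p.1‖ ^ 2))) V :=
    hV.integrable h.cpt ((F11_435.cont_fmu hok).mul (continuousOn_const.mul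
      (F11_435.cont_q hok hc1 l)))
  have hle : ∀ᵐ p ∂V, 0 ≤ ((ch π ρ b r w X0).f p.1 *
      (ch π ρ b r w X0).mu ((ch π ρ b r w X0).x p.1)) *
      (-4 * g1 (Real.exp (-2 * l) * ‖(ch π ρ b r w X0).x p.1‖ ^ 2)) := by
    filter_upwards [hV.mem] with p hp
    have h1 := (h.II_integrand X0 hp.1).1
    have h2 := hg.anti (Real.exp (-2 * l) * ‖(ch π ρ b r w X0).x p.1‖ ^ 2) (by positivity)
    exact mul_nonneg (le_trans (by positivity) h1) (by linarith)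
  have hmono : ∫ p in cyc π b X0 t, ‖hw π ρ b w p.1‖ ^ 2 ∂V ≤
      ∫ p in cyc π b X0 t, (8 * cg⁻¹) * (((ch π ρ b r w X0).f p.1 *
      (ch π ρ b r w X0).mu ((ch π ρ b r w X0).x p.1)) *
      (-4 * g1 (Real.exp (-2 * l) * ‖(ch π ρ b r w X0).x p.1‖ ^ 2))) ∂V := by
    refine integral_mono_of_nonneg (Filter.Eventually.of_forall fun p => by positivity)
      (i3.const_mul _).integrableOn ?_
    filter_upwards [ae_restrict_of_ae hV.mem, ae_restrict_mem (measurableSet_cyc X0 t)] with p hp hpS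
    have e1 := h.chx_le hp.1 hpS
    have e2 : ‖(ch π ρ b r w X0).x p.1‖ ≤ a' * Real.exp l := e1.trans hts
    have e3 : ‖(ch π ρ b r w X0).x p.1‖ ^ 2 ≤ (a' * Real.exp l) ^ 2 :=
      pow_le_pow_left₀ (norm_nonneg _) e2 2
    have e4 : Real.exp (-2 * l) * (Real.exp l) ^ 2 = 1 := by
      rw [← Real.exp_nat_mul, ← Real.exp_add]
      norm_num
    have e5 : Real.exp (-2 * l) * ‖(ch π ρ b r w X0).x p.1‖ ^ 2 ≤ a := by
      calc Real.exp (-2 * l) * ‖(ch π ρ b r w X0).x p.1‖ ^ 2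
          ≤ Real.exp (-2 * l) * (a' * Real.exp l) ^ 2 := by gcongr
        _ = a' ^ 2 * (Real.exp (-2 * l) * (Real.exp l) ^ 2) := by ring
        _ ≤ a := by rw [e4, mul_one]; exact ha
    have e6 := hg0 _ (by positivity) e5
    have e7 := (h.II_integrand X0 hp.1).1
    calc ‖hw π ρ b w p.1‖ ^ 2 = (8 * cg⁻¹) * (‖hw π ρ b w p.1‖ ^ 2 / 16 * (2 * cg)) := by
          field_simp
          ring
      _ ≤ (8 * cg⁻¹) * (((ch π ρ b r w X0).f p.1 *
          (ch π ρ b r w X0).mu ((ch π ρ b r w X0).x p.1)) *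
          (-4 * g1 (Real.exp (-2 * l) * ‖(ch π ρ b r w X0).x p.1‖ ^ 2))) := by
        have e8 : 0 ≤ (ch π ρ b r w X0).f p.1 *
          (ch π ρ b r w X0).mu ((ch π ρ b r w X0).x p.1) := le_trans (by positivity) e7
        exact mul_le_mul_of_nonneg_left (mul_le_mul e7 (by linarith) (by positivity) e8)
          (by positivity)
  have hexp : Real.exp l ^ m * Real.exp (-m * l) = 1 := by
    rw [← Real.exp_nat_mul, ← Real.exp_add]
    simp
  have hset := setIntegral_le_integral (s := cyc π b X0 t) i3 hle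
  calc _ ≤ _ := hmono
    _ = (8 * cg⁻¹) * ∫ p in cyc π b X0 t, ((ch π ρ b r w X0).f p.1 *
      (ch π ρ b r w X0).mu ((ch π ρ b r w X0).x p.1)) *
      (-4 * g1 (Real.exp (-2 * l) * ‖(ch π ρ b r w X0).x p.1‖ ^ 2)) ∂V := integral_const_mul _ _
    _ ≤ (8 * cg⁻¹) * ∫ p, ((ch π ρ b r w X0).f p.1 *
      (ch π ρ b r w X0).mu ((ch π ρ b r w X0).x p.1)) *
      (-4 * g1 (Real.exp (-2 * l) * ‖(ch π ρ b r w X0).x p.1‖ ^ 2)) ∂V := by gcongr
    _ = 8 * cg⁻¹ * (Real.exp l ^ m * II (ch π ρ b r w X0) V g1 l) := by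
        unfold II
        rw [← mul_assoc (Real.exp l ^ m), hexp, one_mul]

end chart

variable {U : Set (Euc k)} {V : Measure (Euc k × L k)} {Q K : ℕ} {x : Euc k} {r : ℝ}
  {π : Euc k →L[ℝ] Euc m} {ρ : Euc k →L[ℝ] Euc n} {u : Euc m → Euc n} {ε C : ℝ}
  {W : Euc m → Euc n} {κ : ℝ} {zh : Euc k}

/-- the height integral over a base ball at `zh` -/
def Hc (V : Measure (Euc k × L k)) (Q : ℕ) (π : Euc k →L[ℝ] Euc m) (ρ : Euc k →L[ℝ] Euc n)
    (x : Euc k) (r ε : ℝ) (W : Euc m → Euc n) (zh : Euc k) (t : ℝ) : ℝ :=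
  ∫ p in cyc π zh 0 (t * r), ‖hw π ρ zh (wz π x zh r W) p.1‖ ^ 2 ∂(Vz m V Q π ρ x r ε W zh)

theorem sep_nonneg (V : Measure (Euc k × L k)) (π : Euc k →L[ℝ] Euc m) (ρ : Euc k →L[ℝ] Euc n)
    (x : Euc k) (r : ℝ) (u : Euc m → Euc n) (a : ℝ) : 0 ≤ sep V π ρ x r u a :=
  integral_nonneg fun p => by positivity

theorem Cx.sep_mono (h : Cx U V Q K x r π ρ u ε C) :
    sep V π ρ x r u (1 / 4) ≤ sep V π ρ x r u 8 := by
  have hr := h.hr
  have hh := continuous_hgt (π := π) (ρ := ρ) (x := x) (r := r) h.cu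
  unfold sep
  refine setIntegral_mono_set (h.intg (f := fun p => ‖hgt π ρ x r u p‖ ^ 2) (by fun_prop))
    (ae_of_all _ fun p => by positivity) (LE.le.eventuallyLE (prod_mono ?_ subset_rfl))
  intro p hp
  exact ⟨hp.1.trans (by linarith), hp.2.trans (by linarith)⟩

/-- the constants of the doubling at a `Q`-point -/
theorem exists_dbl (m Q K : ℕ) {C : ℝ} (hC : 1 ≤ C) :
    ∃ ε₁ : ℝ, 0 < ε₁ ∧ ∃ C₂ : ℝ, 1 ≤ C₂ ∧ ∀ {n k : ℕ} {U : Set (Euc k)} {V : Measure (Euc k × L k)}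
      {π : Euc k →L[ℝ] Euc m} {ρ : Euc k →L[ℝ] Euc n} {x zh : Euc k} {r ε : ℝ} {u : Euc m → Euc n},
      Cx U V Q K x r π ρ u ε C → zh ∈ closedBall x r → 1 ≤ Th m V zh → ε ≤ ε₁ →
        0 < sep V π ρ x r u 8 ∧ sep V π ρ x r u 8 ≤ C₂ * sepz V π ρ x r u zh (7 / 4) ∧
        sepz V π ρ x r u zh 7 ≤ C₂ * sep V π ρ x r u 8 := by
  have home := ome_pos m
  obtain ⟨ε₁, hε₁, hε₁1, C₂, hC₂, hmain⟩ := dbl_z m Q K (C := C) (A := 33 / 32 * (ome m)⁻¹) hC
    (by positivity)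
  refine ⟨ε₁, hε₁, max (2 * C) C₂, le_max_of_le_right hC₂, ?_⟩
  intro n k U V π ρ x zh r ε u h hzh hth hε
  have hA : ‖hgt π ρ x r u zh‖ ^ 2 * r ^ m ≤ 33 / 32 * (ome m)⁻¹ * sep V π ρ x r u 8 := by
    have h1 := h.sup8 (h.mem_box_of_closedBall (by norm_num) hzh) hth
    calc ‖hgt π ρ x r u zh‖ ^ 2 * r ^ m =
        (ome m)⁻¹ * (ome m * ‖hgt π ρ x r u zh‖ ^ 2 * r ^ m) := by field_simp
      _ ≤ (ome m)⁻¹ * (33 / 32 * sep V π ρ x r u 8) := by gcongr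
      _ = _ := by ring
  obtain ⟨h1, h2, h3, h4⟩ := hmain h.ref h.hr h.e0 hε hzh hA
  have h5 := h.sep_mono
  have h6 := h.ref.pos
  have h7 := h.ref.dbl
  have h8 := sep_nonneg V π ρ x r u 8
  refine ⟨h6.trans_le h5, ?_, ?_⟩
  · calc sep V π ρ x r u 8 ≤ C * sep V π ρ x r u (1 / 4) := h7
      _ ≤ C * (2 * sepz V π ρ x r u zh (7 / 4)) := by gcongr
      _ = (2 * C) * sepz V π ρ x r u zh (7 / 4) := by ring
      _ ≤ _ := by gcongr; exact le_max_left _ _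
  · calc sepz V π ρ x r u zh 7 ≤ C₂ * sep V π ρ x r u (1 / 4) := h3
      _ ≤ C₂ * sep V π ρ x r u 8 := by gcongr
      _ ≤ _ := by gcongr; exact le_max_right _ _

namespace Qz

variable (h : Qx U V Q K x r π ρ u ε C W κ zh)

include h

theorem sepz_eq {t : ℝ} (ht0 : 0 < t) (ht : t ≤ 19 / 4) :
    sepz V π ρ x r u zh t = Hc V Q π ρ x r ε W zh t := by
  have hr := h.hr
  have h1 : (cyz π ρ x r zh t ×ˢ univ : Set (Euc k × L k)) =
      BB (Xr π x r) (r⁻¹ • π (zh - x)) t ∩ box π ρ x (8 * r) ×ˢ univ := by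
    ext p
    constructor
    · rintro ⟨hp, -⟩
      have hp2 := cyz_subset h.hf hr h.mem (by linarith : t ≤ 7) hp
      exact ⟨(h.cx.mem_BB_iff (ctr h)).2 hp.1, hp2, mem_univ _⟩
    · rintro ⟨hp1, hp2, -⟩
      exact ⟨⟨(h.cx.mem_BB_iff (ctr h)).1 hp1, hp2.2⟩, mem_univ _⟩
  unfold sepz Hc Vz VK
  rw [h1, setIntegral_congr_set (ae_eq h ht0 ht),
    Measure.restrict_restrict (measurableSet_cyc 0 (t * r))]
  have hK : IsCompact (Qp_534.Kz π ρ x r W zh (h0 m Q ε)) := Qx.isCompact_Kz h.gr _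
  refine setIntegral_congr_fun ((measurableSet_cyc 0 (t * r)).inter
    (hK.isClosed.measurableSet.prod MeasurableSet.univ)) ?_
  intro p hp
  have hb := h.Kz_box h.hs hp.2.1
  simp only
  rw [hw_eq h (by have := hb.1; linarith)]

theorem intH (f : Euc k → ℝ) (hf : Continuous f) :
    Integrable (fun p : Euc k × L k => f p.1) (Vz m V Q π ρ x r ε W zh) :=
  (on h).integrable (Qx.isCompact_Kz h.gr _) ((hf.comp continuous_fst).continuousOn)

theorem int_hw : Integrable (fun p : Euc k × L k => ‖hw π ρ zh (wz π x zh r W) p.1‖ ^ 2)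
    (Vz m V Q π ρ x r ε W zh) := by
  have h1 := (kz h h.cx.hK).cont_hw
  exact intH h (fun p => ‖hw π ρ zh (wz π x zh r W) p‖ ^ 2) (by fun_prop)

theorem Hc_mono {s t : ℝ} (hst : s ≤ t) : Hc V Q π ρ x r ε W zh s ≤ Hc V Q π ρ x r ε W zh t := by
  have hr := h.hr
  unfold Hc
  refine setIntegral_mono_set (int_hw h).integrableOn (ae_of_all _ fun p => by positivity)
    (LE.le.eventuallyLE ?_)
  intro p hp
  have hp' : ‖π (p.1 - zh) - 0‖ < s * r := hp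
  have h1 : s * r ≤ t * r := by gcongr
  exact (hp'.trans_le h1 : ‖π (p.1 - zh) - 0‖ < t * r)

omit h in
theorem Hc_nonneg (t : ℝ) : 0 ≤ Hc V Q π ρ x r ε W zh t := integral_nonneg fun p => by positivity

theorem sepz_mono {s t : ℝ} (hst : s ≤ t) (ht : t ≤ 7) :
    sepz V π ρ x r u zh s ≤ sepz V π ρ x r u zh t := by
  have hr := h.hr
  have hh := continuous_hgt (π := π) (ρ := ρ) (x := x) (r := r) h.cx.cu
  unfold sepz
  have h1 := h.cx.intg (f := fun p => ‖hgt π ρ x r u p - hgt π ρ x r u zh‖ ^ 2) (by fun_prop)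
  refine setIntegral_mono_set (h1.mono_set (prod_mono (cyz_subset h.hf hr h.mem ht) subset_rfl))
    (ae_of_all _ fun p => by positivity) (LE.le.eventuallyLE (prod_mono ?_ subset_rfl))
  intro p hp
  refine ⟨hp.1.trans_le (by gcongr), hp.2⟩

/-- (B1) at any scale `e^l ≥ 2 r`-ish: heights are seen at the top -/
theorem B1 {C₂ : ℝ} (hC₂ : 0 ≤ C₂)
    (hs : sep V π ρ x r u 8 ≤ C₂ * sepz V π ρ x r u zh (7 / 4))
    {g g1 g2 : ℝ → ℝ} (hg : Prof g g1 g2) {cg : ℝ} (hcg : 0 < cg)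
    (hg0 : ∀ y, 0 ≤ y → y ≤ 41 / 50 → cg ≤ -2 * g1 y) {l : ℝ} (hl : 2 * r ≤ Real.exp l) :
    sep V π ρ x r u 8 ≤ C₂ * (8 * cg⁻¹ * (Real.exp l ^ m *
      II (cz π ρ x r W zh) (Vz m V Q π ρ x r ε W zh) g1 l)) := by
  have hr := h.hr
  have hs0 := h.hs
  have h1 := (kz h h.cx.hK).lo' (on h) hg 0 (l := l) (cg := cg) (t := 7 / 4 * r) (a := 41 / 50)
    (a' := 9055 / 10000) hcg hg0 (by norm_num) (by
      have e1 : 3 * h0 m Q ε * r ≤ 3 * (1 / 16) * r := by gcongr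
      nlinarith)
  rw [sepz_eq h (by norm_num) (by norm_num)] at hs
  refine hs.trans ?_
  gcongr
  exact h1

/-- (B2), height -/
theorem B2I {C₂ : ℝ} (hC₂ : 0 ≤ C₂) (hs : sepz V π ρ x r u zh 7 ≤ C₂ * sep V π ρ x r u 8)
    {g g1 g2 : ℝ → ℝ} (hg : Prof g g1 g2) {B : ℝ} (hB : ∀ y, 0 ≤ y → -g1 y ≤ B) {l : ℝ}
    (hl : Real.exp l ≤ 9 / 2 * r) :
    Real.exp l ^ m * II (cz π ρ x r W zh) (Vz m V Q π ρ x r ε W zh) g1 l ≤
      12 * B * (C₂ * sep V π ρ x r u 8) := by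
  have hr := h.hr
  have hs0 := h.hs
  have hB0 : 0 ≤ B := by
    have h1 := hB 0 le_rfl
    have h2 := hg.anti 0 le_rfl
    linarith
  have h1 := (kz h h.cx.hK).up (on h) hg 0 (l := l) (B := B) (t := 19 / 4 * r) hB (by
      have e1 : 3 * h0 m Q ε * r ≤ 3 * (1 / 16) * r := by gcongr
      linarith)
  refine h1.trans ?_
  have h2 : ∫ p in cyc π zh 0 (19 / 4 * r), ‖hw π ρ zh (wz π x zh r W) p.1‖ ^ 2
      ∂(Vz m V Q π ρ x r ε W zh) = sepz V π ρ x r u zh (19 / 4) :=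
    (sepz_eq h (by norm_num) le_rfl).symm
  rw [h2]
  gcongr
  exact (sepz_mono h (by norm_num) le_rfl).trans hs

end Qz

end Crest.Agent.R234.Pd_435
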