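import Crest.Agent.R234.Pd8_435

/-!
# Row 234, VF-F11 (helper435): V-level instance of `Pin3_3.Data`, part 9: the tilt energy at a
`Q`-point against the separation `sep 8` of the reference: (B2) for `ee` and `OO`.
-/

set_option autoImplicit false
set_option linter.unusedVariables false
set_option linter.unusedSectionVars false

open MeasureTheory Filter Topology Set Metric
open scoped ENNReal NNReal ContDiff InnerProductSpace
open Crest.GeometryTopology.Submanifold Crest.Agent.R234.Vf_884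
open Crest.Agent.R234.Main_456 Crest.Agent.R234.F11_435
open Crest.Agent.R234.Gi_456
open Crest.Agent.R234.Cy_870 (Prof)
open Crest.Agent.R234.Pin3_3 (BB HH)
open Crest.Agent.R234.GL_394 (VK On II ee EE bb RR RF Ph OO qq)
open Crest.Agent.R234.Qp_534 (Qx wz cz Tz h0)
open Crest.Agent.R234.Gu_685 (reg dsq tfoot)
open Crest.Agent.R234.Gt_685 (Ket Ket_pos tcl)

noncomputable section

namespace Crest.Agent.R234.Pd_435

local notation "adj" => ContinuousLinearMap.adjoint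

variable {m n k : ℕ} {U : Set (Euc k)} {V : Measure (Euc k × L k)} {Q K : ℕ} {x : Euc k} {r : ℝ}
  {π : Euc k →L[ℝ] Euc m} {ρ : Euc k →L[ℝ] Euc n} {u : Euc m → Euc n} {ε C : ℝ}
  {W : Euc m → Euc n} {κ : ℝ} {zh : Euc k}

/-- the identity of the base -/
abbrev idm (m : ℕ) : Euc m →L[ℝ] Euc m := ContinuousLinearMap.id ℝ (Euc m)

namespace Qz

variable (h : Qx U V Q K x r π ρ u ε C W κ zh)

include h

theorem reg_box {p : Euc k} (hp : p ∈ reg π ρ zh (wz π x zh r W) (idm m) 0 (4 * r) r) :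
    p ∈ box π ρ x (7 * r) := by
  have hr := h.hr
  have h1 : ‖π (p - zh) - 0‖ ≤ 4 * r := hp.1
  rw [sub_zero] at h1
  have h2 := hp.2
  have h3 := h.norm_wz_le (π (p - zh))
  have h4 : ‖ρ (p - zh)‖ ≤ r + 1 / 8 * (4 * r) := by
    have h5 := norm_le_norm_add_norm_sub' (ρ (p - zh)) (wz π x zh r W (π (p - zh)))
    linarith
  have e : p - x = (p - zh) + (zh - x) := by abel
  have h5 := h.norm_pi_z
  have h6 := h.norm_rho_z
  constructor
  · rw [e, map_add]
    have := norm_add_le (π (p - zh)) (π (zh - x))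
    linarith
  · rw [e, map_add]
    have := norm_add_le (ρ (p - zh)) (ρ (zh - x))
    linarith

/-- 685's standing hypotheses -/
theorem hy : Gu_685.Hy V π ρ zh r (wz π x zh r W) (idm m) 0 (κ / r) (2 * h0 m Q ε * r)
    (4 * r) where
  frame := h.hf
  gr := h.gr
  le := fun v => le_rfl
  norm := (ContinuousLinearMap.norm_id_le).trans (by norm_num)
  k0 := div_nonneg h.k0 h.hr.le
  h0 := mul_nonneg (mul_nonneg zero_le_two (Qp_534.h0_nonneg m Q ε)) h.hr.le
  kh := by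
    have hr := h.hr
    have h1 := h.hs
    have h2 := h.κ8
    have h3 := h.k0
    have h4 := Qp_534.h0_nonneg m Q ε
    have e : κ / r * (2 * h0 m Q ε * r) = κ * (2 * h0 m Q ε) := by field_simp
    rw [e]
    calc κ * (2 * h0 m Q ε) ≤ 1 / 8 * (2 * (1 / 16)) := by gcongr
      _ ≤ 1 / 2 := by norm_num
  hr := by
    have hr := h.hr
    have h1 := h.hs
    calc 2 * (2 * h0 m Q ε * r) ≤ 2 * (2 * (1 / 16) * r) := by gcongr
      _ ≤ r := by linarith
  d2 := fun X _ => h.ext.d2 h.hr h.cx.hK X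
  mn := fun X hX => by
    have hr := h.hr
    have h1 := h.hs
    have hX' : ‖X - 0‖ ≤ 4 * r + 2 * h0 m Q ε * r := hX
    rw [sub_zero] at hX'
    have h2 : 2 * h0 m Q ε * r ≤ 2 * (1 / 16) * r := by gcongr
    have h3 := h.norm_pi_z
    have h4 : ‖r⁻¹ • (X + π (zh - x))‖ < 28 := by
      rw [norm_smul, norm_inv, Real.norm_of_nonneg hr.le, inv_mul_lt_iff₀ hr]
      have := norm_add_le X (π (zh - x))
      linarith
    rw [Qp_534.Msys_wz hr.ne' h.ext.cd, h.ext.Msys_eq h4,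
      h.cx.ref.minimal _ (by rw [mem_ball_zero_iff]; linarith), smul_zero]
  ae := by
    filter_upwards [h.cx.th] with p hp hpr
    have h1 := reg_box h hpr
    exact h.hgt_z_le h1 (hp (h.box_sub_U h1))

theorem reg_sub_U : reg π ρ zh (wz π x zh r W) (idm m) 0 (4 * r) r ⊆ U := fun p hp =>
  h.box_sub_U (reg_box h hp)

/-- the region of 685 lies a.e. over the compact -/
theorem ae_reg : ∀ᵐ p ∂V, p.1 ∈ reg π ρ zh (wz π x zh r W) (idm m) 0 (4 * r) r →
    p.1 ∈ Qp_534.Kz π ρ x r W zh (h0 m Q ε) := by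
  have hr := h.hr
  have hs := h.hs
  have hs0 := Qp_534.h0_nonneg m Q ε
  filter_upwards [h.cx.th] with p hp hpr
  have h1 := reg_box h hpr
  have h2 := hp (h.box_sub_U h1)
  have hT := h.mem_Tz_of_box h1 h2
  have h11 := h.hgt_z_le h1 h2
  have h12 := h.gr.norm_yy_le hT
  have h13 := h.foot_sub_le hT
  have hk8 := h.κ8
  have hk0 := h.k0
  have h14 : ‖yy π ρ zh r (wz π x zh r W) p.1‖ ≤ 3 * h0 m Q ε * r := by
    have : 0 ≤ h0 m Q ε * r := by positivity
    linarith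
  refine h.mem_Kz hT ?_ h14
  have h3 : ‖π (p.1 - zh) - 0‖ ≤ 4 * r := hpr.1
  rw [sub_zero] at h3
  have h15 : ‖foot π ρ zh r (wz π x zh r W) p.1‖ ≤ ‖π (p.1 - zh)‖ +
      ‖foot π ρ zh r (wz π x zh r W) p.1 - π (p.1 - zh)‖ := by
    have := norm_add_le (π (p.1 - zh)) (foot π ρ zh r (wz π x zh r W) p.1 - π (p.1 - zh))
    simpa using this
  have h16 : κ * ‖yy π ρ zh r (wz π x zh r W) p.1‖ ≤ 1 / 8 * (3 * (1 / 16) * r) := by
    gcongr
    refine h14.trans ?_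
    gcongr
  linarith

theorem meas_reg : MeasurableSet (Prod.fst ⁻¹' reg π ρ zh (wz π x zh r W) (idm m) 0 (4 * r) r :
    Set (Euc k × L k)) :=
  (((hy h).isCompact_reg (4 * r) r).isClosed.preimage continuous_fst).measurableSet

/-- squared distance over 685's region -/
theorem dsq_le : ∫ p in Prod.fst ⁻¹' reg π ρ zh (wz π x zh r W) (idm m) 0 (4 * r) r,
    dsq π ρ zh r (wz π x zh r W) p.1 ∂V ≤ 4 * Hc V Q π ρ x r ε W zh (19 / 4) := by
  have hr := h.hr
  have hK : IsCompact (Qp_534.Kz π ρ x r W zh (h0 m Q ε)) := Qx.isCompact_Kz h.gr _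
  have h1 : (Prod.fst ⁻¹' reg π ρ zh (wz π x zh r W) (idm m) 0 (4 * r) r : Set (Euc k × L k))
      =ᵐ[V] (Prod.fst ⁻¹' reg π ρ zh (wz π x zh r W) (idm m) 0 (4 * r) r ∩
        Qp_534.Kz π ρ x r W zh (h0 m Q ε) ×ˢ univ : Set (Euc k × L k)) := by
    filter_upwards [ae_reg h] with p hp
    apply propext
    constructor
    · intro h2
      exact ⟨h2, hp h2, mem_univ _⟩
    · intro h2
      exact h2.1
  rw [setIntegral_congr_set h1]
  have h2 : ∫ p in (Prod.fst ⁻¹' reg π ρ zh (wz π x zh r W) (idm m) 0 (4 * r) r ∩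
        Qp_534.Kz π ρ x r W zh (h0 m Q ε) ×ˢ univ : Set (Euc k × L k)),
      dsq π ρ zh r (wz π x zh r W) p.1 ∂V =
      ∫ p in Prod.fst ⁻¹' reg π ρ zh (wz π x zh r W) (idm m) 0 (4 * r) r,
        dsq π ρ zh r (wz π x zh r W) p.1 ∂(Vz m V Q π ρ x r ε W zh) := by
    unfold Vz VK
    rw [Measure.restrict_restrict (meas_reg h)]
  rw [h2]
  have h3 : ∫ p in Prod.fst ⁻¹' reg π ρ zh (wz π x zh r W) (idm m) 0 (4 * r) r,
        dsq π ρ zh r (wz π x zh r W) p.1 ∂(Vz m V Q π ρ x r ε W zh) ≤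
      ∫ p in Prod.fst ⁻¹' reg π ρ zh (wz π x zh r W) (idm m) 0 (4 * r) r,
        4 * ‖hw π ρ zh (wz π x zh r W) p.1‖ ^ 2 ∂(Vz m V Q π ρ x r ε W zh) := by
    refine integral_mono_of_nonneg (ae_of_all _ fun p => Gu_685.dsq_nonneg _)
      ((int_hw h).const_mul 4).integrableOn ?_
    filter_upwards [ae_restrict_of_ae (on h).mem] with p hp
    have h4 : dsq π ρ zh r (wz π x zh r W) p.1 = ‖nut π ρ zh r (wz π x zh r W) p.1‖ ^ 2 :=
      Gu_685.dsq_eq_norm h.hf _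
    have h5 := norm_nut_le_hw h.gr h.hf (h.Kz_spec h.hs hp.1).1 (kz h h.cx.hK).sm
    change dsq π ρ zh r (wz π x zh r W) p.1 ≤ _
    rw [h4]
    calc ‖nut π ρ zh r (wz π x zh r W) p.1‖ ^ 2 ≤ (2 * ‖hw π ρ zh (wz π x zh r W) p.1‖) ^ 2 := by
          gcongr
      _ = _ := by ring
  refine h3.trans ?_
  rw [integral_const_mul]
  unfold Hc
  refine mul_le_mul_of_nonneg_left ?_ (by norm_num)
  refine setIntegral_mono_set (int_hw h).integrableOn (ae_of_all _ fun p => by positivity)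
    (LE.le.eventuallyLE ?_)
  intro p hp
  have h6 : ‖π (p.1 - zh) - 0‖ ≤ 4 * r := hp.1
  exact (h6.trans_lt (by linarith) : ‖π (p.1 - zh) - 0‖ < 19 / 4 * r)

theorem cont_tfoot : ContinuousOn (tfoot π ρ zh r (wz π x zh r W))
    (Tz π ρ x r W zh ×ˢ (univ : Set (L k))) := by
  have h1 : ContinuousOn (foot π ρ zh r (wz π x zh r W)) (Tz π ρ x r W zh) := fun z hz =>
    (h.gr.contDiffAt_foot h.hf hz).continuousAt.continuousWithinAt
  have h2 : ContinuousOn (fun p : Euc k × L k => foot π ρ zh r (wz π x zh r W) p.1)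
      (Tz π ρ x r W zh ×ˢ univ) := h1.comp continuousOn_fst fun p hp => hp.1
  have h3 : ContinuousOn (fun p : Euc k × L k => Supm_685.nf π ρ
      (fderiv ℝ (wz π x zh r W) (foot π ρ zh r (wz π x zh r W) p.1)))
      (Tz π ρ x r W zh ×ˢ univ) := by
    unfold Supm_685.nf
    exact continuousOn_const.sub ((h.gr.cd1.continuous.comp_continuousOn h2).clm_comp
      continuousOn_const)
  unfold tfoot Supm_685.tau
  refine continuousOn_finsetSum _ fun j _ => ?_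
  exact (h3.clm_apply ((continuous_snd.clm_apply continuous_const).continuousOn)).norm.pow 2

/-- **energy bound** -/
theorem energy {s : ℝ} (hs0 : 0 ≤ s) (hs : s ≤ 3 * r) :
    ∫ p in {p : Euc k × L k | ‖(cz π ρ x r W zh).x p.1‖ ≤ s}, (cz π ρ x r W zh).tau p.1 p.2
      ∂(Vz m V Q π ρ x r ε W zh) ≤
      8 * Ket * (2 + (m + 1) ^ 2) * (r ^ 2)⁻¹ * Hc V Q π ρ x r ε W zh (19 / 4) := by
  have hr := h.hr
  have hs16 := h.hs
  have hh0 := Qp_534.h0_nonneg m Q ε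
  have hK : IsCompact (Qp_534.Kz π ρ x r W zh (h0 m Q ε)) := Qx.isCompact_Kz h.gr _
  have hsub : Qp_534.Kz π ρ x r W zh (h0 m Q ε) ⊆ Tz π ρ x r W zh := fun p hp =>
    (h.Kz_spec h.hs hp).1
  have hcx : ContinuousOn (fun p : Euc k × L k => ‖(cz π ρ x r W zh).x p.1‖)
      (Qp_534.Kz π ρ x r W zh (h0 m Q ε) ×ˢ univ) := by
    have h1 : ContinuousOn (cz π ρ x r W zh).x (Qp_534.Kz π ρ x r W zh (h0 m Q ε)) := fun z hz =>
      (h.ok.hx z hz).continuousAt.continuousWithinAt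
    exact (h1.comp continuousOn_fst fun p hp => hp.1).norm
  have hKm : MeasurableSet (Qp_534.Kz π ρ x r W zh (h0 m Q ε) ×ˢ (univ : Set (L k))) :=
    hK.isClosed.measurableSet.prod MeasurableSet.univ
  have hSm : NullMeasurableSet {p : Euc k × L k | ‖(cz π ρ x r W zh).x p.1‖ ≤ s}
      (Vz m V Q π ρ x r ε W zh) := by
    have h1 : AEStronglyMeasurable (fun p : Euc k × L k => ‖(cz π ρ x r W zh).x p.1‖)
        (Vz m V Q π ρ x r ε W zh) := hcx.aestronglyMeasurable hKm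
    exact nullMeasurableSet_le h1.aemeasurable aemeasurable_const
  have i1 : Integrable (tfoot π ρ zh r (wz π x zh r W)) (Vz m V Q π ρ x r ε W zh) :=
    (on h).integrable hK ((cont_tfoot h).mono (prod_mono hsub (subset_univ _)))
  -- tau ≤ tfoot
  have h1 : ∫ p in {p : Euc k × L k | ‖(cz π ρ x r W zh).x p.1‖ ≤ s},
        (cz π ρ x r W zh).tau p.1 p.2 ∂(Vz m V Q π ρ x r ε W zh) ≤
      ∫ p in {p : Euc k × L k | ‖(cz π ρ x r W zh).x p.1‖ ≤ s},
        tfoot π ρ zh r (wz π x zh r W) p ∂(Vz m V Q π ρ x r ε W zh) := by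
    refine integral_mono_of_nonneg ?_ i1.integrableOn ?_
    · filter_upwards [ae_restrict_of_ae (on h).mem] with p hp
      exact tau_nonneg h.gr h.hf 0 (hsub hp.1) hp.2
    · filter_upwards [ae_restrict_of_ae (on h).mem] with p hp
      exact Gu_685.tau0_le_tfoot h.hf h.gr (hsub hp.1) hp.2
  -- to a subset of the region
  have h2 : ∫ p in {p : Euc k × L k | ‖(cz π ρ x r W zh).x p.1‖ ≤ s},
        tfoot π ρ zh r (wz π x zh r W) p ∂(Vz m V Q π ρ x r ε W zh) =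
      ∫ p in {p : Euc k × L k | ‖(cz π ρ x r W zh).x p.1‖ ≤ s} ∩
        Qp_534.Kz π ρ x r W zh (h0 m Q ε) ×ˢ univ, tfoot π ρ zh r (wz π x zh r W) p ∂V := by
    unfold Vz VK at hSm ⊢
    rw [Measure.restrict_restrict₀ hSm]
  have h3 := Gt_685.energy_foot_set (Al7_182.st_of_stat h.cx.st) (Al7_182.tr_ae h.cx.st) (by simp)
    ((hy h).nt h.cx.st (reg_sub_U h)) (s := 25 / 8 * r) (by positivity) (by linarith) hr
    (by rw [← Gu_685.reg_eq]; exact reg_sub_U h)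
    (S := {p : Euc k × L k | ‖(cz π ρ x r W zh).x p.1‖ ≤ s} ∩
        Qp_534.Kz π ρ x r W zh (h0 m Q ε) ×ˢ univ) (by
      refine LE.le.eventuallyLE ?_
      rintro p ⟨hp1, hp2, -⟩
      obtain ⟨a1, a2, a3⟩ := h.Kz_spec h.hs hp2
      have a4 : ‖foot π ρ zh r (wz π x zh r W) p.1‖ ≤ s := (Qx.foot_le_x _).trans hp1
      have a5 := h.foot_sub_le a1
      have a6 : κ * ‖yy π ρ zh r (wz π x zh r W) p.1‖ ≤ 1 / 8 * (3 * (1 / 16) * r) := by
        have := h.k0
        have := h.κ8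
        gcongr
        refine a3.trans ?_
        gcongr
      have a7 : ‖π (p.1 - zh)‖ ≤ ‖foot π ρ zh r (wz π x zh r W) p.1‖ +
          ‖foot π ρ zh r (wz π x zh r W) p.1 - π (p.1 - zh)‖ :=
        norm_le_norm_add_norm_sub (foot π ρ zh r (wz π x zh r W) p.1) (π (p.1 - zh))
      refine ⟨?_, ?_⟩
      · show ‖π (p.1 - zh) - 0‖ ≤ 25 / 8 * r
        rw [sub_zero]
        linarith
      · rw [Gu_685.ht_eq]
        exact (show ‖ρ (p.1 - zh) - wz π x zh r W (π (p.1 - zh))‖ < r from a1).le)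
  rw [← Gu_685.reg_eq] at h3
  have h4 := dsq_le h
  have hket := Ket_pos
  have h5 : Ket * (((4 * r - 25 / 8 * r) ^ 2)⁻¹ + (m + 1) ^ 2 * (κ / r) ^ 2) ≤
      2 * Ket * (2 + (m + 1) ^ 2) * (r ^ 2)⁻¹ := by
    have e1 : ((4 * r - 25 / 8 * r) ^ 2)⁻¹ ≤ 2 * (r ^ 2)⁻¹ := by
      rw [show 4 * r - 25 / 8 * r = 7 / 8 * r by ring, mul_pow, mul_inv]
      gcongr
      norm_num
    have e2 : (κ / r) ^ 2 ≤ (r ^ 2)⁻¹ := by
      rw [div_pow, div_eq_mul_inv]
      have : κ ^ 2 ≤ 1 := by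
        have := h.k0
        have := h.κ8
        nlinarith
      have : 0 < (r ^ 2)⁻¹ := by positivity
      nlinarith
    calc Ket * (((4 * r - 25 / 8 * r) ^ 2)⁻¹ + (m + 1) ^ 2 * (κ / r) ^ 2) ≤
        Ket * (2 * (r ^ 2)⁻¹ + (m + 1) ^ 2 * (r ^ 2)⁻¹) := by gcongr
      _ = Ket * (2 + (m + 1) ^ 2) * (r ^ 2)⁻¹ := by ring
      _ ≤ 2 * Ket * (2 + (m + 1) ^ 2) * (r ^ 2)⁻¹ := by
        have : 0 ≤ Ket * (2 + ((m:ℝ) + 1) ^ 2) * (r ^ 2)⁻¹ := by positivity
        linarith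
  refine h1.trans (h2.le.trans ?_)
  have h6 : ∫ p in Prod.fst ⁻¹' reg π ρ zh (wz π x zh r W) (idm m) 0 (4 * r) r,
    dsq π ρ zh r (wz π x zh r W) p.1 ∂V =
    ∫ p in Prod.fst ⁻¹' reg π ρ zh (wz π x zh r W) (idm m) 0 (4 * r) r,
    Gs_685.tf (wz π x zh r W) (foot π ρ zh r (wz π x zh r W)) (yy π ρ zh r (wz π x zh r W)) p.1
      ∂V := rfl
  rw [← h6] at h3
  refine le_trans h3 ?_
  have hH := Hc_nonneg (V := V) (Q := Q) (π := π) (ρ := ρ) (x := x) (r := r) (ε := ε) (W := W)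
    (zh := zh) (19 / 4)
  calc _ ≤ (2 * Ket * (2 + (m + 1) ^ 2) * (r ^ 2)⁻¹) *
        (4 * Hc V Q π ρ x r ε W zh (19 / 4)) := by
        refine mul_le_mul h5 h4 ?_ (by positivity)
        exact integral_nonneg fun p => Gu_685.dsq_nonneg _
    _ = _ := by ring

omit h in
theorem nm_S (h : Qx U V Q K x r π ρ u ε C W κ zh) (s : ℝ) :
    NullMeasurableSet {p : Euc k × L k | ‖(cz π ρ x r W zh).x p.1‖ ≤ s}
      (Vz m V Q π ρ x r ε W zh) := by
  have hK : IsCompact (Qp_534.Kz π ρ x r W zh (h0 m Q ε)) := Qx.isCompact_Kz h.gr _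
  have hKm : MeasurableSet (Qp_534.Kz π ρ x r W zh (h0 m Q ε) ×ˢ (univ : Set (L k))) :=
    hK.isClosed.measurableSet.prod MeasurableSet.univ
  have hcx : ContinuousOn (fun p : Euc k × L k => ‖(cz π ρ x r W zh).x p.1‖)
      (Qp_534.Kz π ρ x r W zh (h0 m Q ε) ×ˢ univ) := by
    have h1 : ContinuousOn (cz π ρ x r W zh).x (Qp_534.Kz π ρ x r W zh (h0 m Q ε)) := fun z hz =>
      (h.ok.hx z hz).continuousAt.continuousWithinAt
    exact (h1.comp continuousOn_fst fun p hp => hp.1).norm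
  have h1 : AEStronglyMeasurable (fun p : Euc k × L k => ‖(cz π ρ x r W zh).x p.1‖)
      (Vz m V Q π ρ x r ε W zh) := hcx.aestronglyMeasurable hKm
  exact nullMeasurableSet_le h1.aemeasurable aemeasurable_const

theorem int_tau : Integrable (fun p : Euc k × L k => (cz π ρ x r W zh).tau p.1 p.2)
    (Vz m V Q π ρ x r ε W zh) :=
  (on h).integrable (Qx.isCompact_Kz h.gr _) h.ok.ctau

theorem int_f : Integrable (fun p : Euc k × L k => (cz π ρ x r W zh).f p.1)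
    (Vz m V Q π ρ x r ε W zh) := by
  refine (on h).integrable (Qx.isCompact_Kz h.gr _) ?_
  have h1 : ContinuousOn (cz π ρ x r W zh).f (Qp_534.Kz π ρ x r W zh (h0 m Q ε)) := fun z hz =>
    (h.ok.hf z hz).continuousAt.continuousWithinAt
  exact h1.comp continuousOn_fst fun p hp => hp.1

theorem tau_ae : ∀ᵐ p ∂(Vz m V Q π ρ x r ε W zh), 0 ≤ (cz π ρ x r W zh).tau p.1 p.2 := by
  filter_upwards [(on h).mem] with p hp
  exact tau_nonneg h.gr h.hf 0 (h.Kz_spec h.hs hp.1).1 hp.2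

/-- the constant of the energy bounds -/
def Ce (m : ℕ) : ℝ := 72 * Ket * (2 + (m + 1) ^ 2) + 4

omit h in
theorem Ce_pos (m : ℕ) : 0 < Ce m := by
  have := Ket_pos
  unfold Ce
  positivity

/-- squared distance over `{|x| ≤ s}` -/
theorem int_2f {s : ℝ} (hs : s ≤ 3 * r) :
    ∫ p in {p : Euc k × L k | ‖(cz π ρ x r W zh).x p.1‖ ≤ s}, 2 * (cz π ρ x r W zh).f p.1
      ∂(Vz m V Q π ρ x r ε W zh) ≤ 4 * Hc V Q π ρ x r ε W zh (19 / 4) := by
  have hr := h.hr
  have hs16 := h.hs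
  have hh0 := Qp_534.h0_nonneg m Q ε
  have hf : ∀ p, 2 * (cz π ρ x r W zh).f p = ‖nut π ρ zh r (wz π x zh r W) p‖ ^ 2 := by
    intro p
    show 2 * (‖nut π ρ zh r (wz π x zh r W) p‖ ^ 2 / 2) = _
    ring
  have h1 : ∫ p in {p : Euc k × L k | ‖(cz π ρ x r W zh).x p.1‖ ≤ s}, 2 * (cz π ρ x r W zh).f p.1
      ∂(Vz m V Q π ρ x r ε W zh) ≤
      ∫ p in {p : Euc k × L k | ‖(cz π ρ x r W zh).x p.1‖ ≤ s},
        4 * ‖hw π ρ zh (wz π x zh r W) p.1‖ ^ 2 ∂(Vz m V Q π ρ x r ε W zh) := by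
    refine integral_mono_of_nonneg (ae_of_all _ fun p => ?_)
      ((int_hw h).const_mul 4).integrableOn ?_
    · change 0 ≤ 2 * (cz π ρ x r W zh).f p.1
      rw [hf]; positivity
    · filter_upwards [ae_restrict_of_ae (on h).mem] with p hp
      have h5 := norm_nut_le_hw h.gr h.hf (h.Kz_spec h.hs hp.1).1 (kz h h.cx.hK).sm
      change 2 * (cz π ρ x r W zh).f p.1 ≤ _
      rw [hf]
      calc ‖nut π ρ zh r (wz π x zh r W) p.1‖ ^ 2 ≤ (2 * ‖hw π ρ zh (wz π x zh r W) p.1‖) ^ 2 := by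
            gcongr
        _ = _ := by ring
  refine h1.trans ?_
  rw [integral_const_mul]
  unfold Hc
  refine mul_le_mul_of_nonneg_left ?_ (by norm_num)
  refine setIntegral_mono_set (int_hw h).integrableOn (ae_of_all _ fun p => by positivity) ?_
  filter_upwards [(on h).mem] with p hp hpS
  obtain ⟨a1, a2, a3⟩ := h.Kz_spec h.hs hp.1
  have a4 : ‖foot π ρ zh r (wz π x zh r W) p.1‖ ≤ s := (Qx.foot_le_x _).trans hpS
  have a5 := h.foot_sub_le a1
  have a6 : κ * ‖yy π ρ zh r (wz π x zh r W) p.1‖ ≤ 1 / 8 * (3 * (1 / 16) * r) := by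
    have := h.k0
    have := h.κ8
    gcongr
    refine a3.trans ?_
    gcongr
  have a7 : ‖π (p.1 - zh)‖ ≤ ‖foot π ρ zh r (wz π x zh r W) p.1‖ +
      ‖foot π ρ zh r (wz π x zh r W) p.1 - π (p.1 - zh)‖ :=
    norm_le_norm_add_norm_sub (foot π ρ zh r (wz π x zh r W) p.1) (π (p.1 - zh))
  show ‖π (p.1 - zh) - 0‖ < 19 / 4 * r
  rw [sub_zero]
  linarith

/-- (B2), energy + height, sharp -/
theorem B2O {l : ℝ} (hl : Real.exp l ≤ 3 * r) :
    Real.exp l ^ m * OO (cz π ρ x r W zh) (Vz m V Q π ρ x r ε W zh) l ≤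
      Ce m * Hc V Q π ρ x r ε W zh (19 / 4) := by
  have hr := h.hr
  have hE := Real.exp_pos l
  have h1 := energy h hE.le hl
  have h2 := int_2f h hl
  have hH := Hc_nonneg (V := V) (Q := Q) (π := π) (ρ := ρ) (x := x) (r := r) (ε := ε) (W := W)
    (zh := zh) (19 / 4)
  have hket := Ket_pos
  have e1 : Real.exp l ^ m * Real.exp ((2 - m) * l) = Real.exp l ^ 2 := by
    rw [← Real.exp_nat_mul, ← Real.exp_nat_mul, ← Real.exp_add]
    congr 1
    push_cast
    ring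
  have e2 : Real.exp l ^ 2 * Real.exp (-2 * l) = 1 := by
    rw [← Real.exp_nat_mul, ← Real.exp_add]
    norm_num
  have e3 : ∫ p in {p : Euc k × L k | ‖(cz π ρ x r W zh).x p.1‖ ≤ Real.exp l},
      ((cz π ρ x r W zh).tau p.1 p.2 + qq (cz π ρ x r W zh) l p.1)
        ∂(Vz m V Q π ρ x r ε W zh) =
      ∫ p in {p : Euc k × L k | ‖(cz π ρ x r W zh).x p.1‖ ≤ Real.exp l},
        (cz π ρ x r W zh).tau p.1 p.2 ∂(Vz m V Q π ρ x r ε W zh) +
      Real.exp (-2 * l) * ∫ p in {p : Euc k × L k | ‖(cz π ρ x r W zh).x p.1‖ ≤ Real.exp l},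
        2 * (cz π ρ x r W zh).f p.1 ∂(Vz m V Q π ρ x r ε W zh) := by
    unfold qq
    rw [integral_add (int_tau h).integrableOn
      (((int_f h).const_mul 2).const_mul (Real.exp (-2 * l))).integrableOn, integral_const_mul]
  unfold OO
  rw [← mul_assoc, e1, e3, mul_add, ← mul_assoc, e2, one_mul]
  set A := ∫ p in {p : Euc k × L k | ‖(cz π ρ x r W zh).x p.1‖ ≤ Real.exp l},
        (cz π ρ x r W zh).tau p.1 p.2 ∂(Vz m V Q π ρ x r ε W zh) with hA
  have hA0 : 0 ≤ A := integral_nonneg_of_ae (ae_restrict_of_ae (tau_ae h))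
  have h3 : Real.exp l ^ 2 ≤ 9 * r ^ 2 := by
    calc Real.exp l ^ 2 ≤ (3 * r) ^ 2 := by gcongr
      _ = _ := by ring
  have h4 : Real.exp l ^ 2 * A ≤
      72 * Ket * (2 + (m + 1) ^ 2) * Hc V Q π ρ x r ε W zh (19 / 4) := by
    calc Real.exp l ^ 2 * A ≤ (9 * r ^ 2) *
          (8 * Ket * (2 + (m + 1) ^ 2) * (r ^ 2)⁻¹ * Hc V Q π ρ x r ε W zh (19 / 4)) :=
          mul_le_mul h3 h1 hA0 (by positivity)
      _ = _ := by
          field_simp
          ring
  unfold Ce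
  linarith

/-- (B2), energy -/
theorem B2e {g g1 g2 : ℝ → ℝ} (hg : Prof g g1 g2) {B : ℝ} (hB : ∀ y, 0 ≤ y → g y ≤ B)
    (hg0 : ∀ y, 0 ≤ y → 0 ≤ g y) {l : ℝ} (hl : Real.exp l ≤ 3 * r) :
    Real.exp l ^ m * ee (cz π ρ x r W zh) (Vz m V Q π ρ x r ε W zh) g l ≤
      B * (Ce m * Hc V Q π ρ x r ε W zh (19 / 4)) := by
  have hr := h.hr
  have hE := Real.exp_pos l
  have hB0 : 0 ≤ B := (hg0 0 le_rfl).trans (hB 0 le_rfl)
  have h2 := B2O h hl
  have i1 := int_tau h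
  have hS := nm_S h (Real.exp l)
  -- the cut-off energy
  have h3 : ∫ p, (cz π ρ x r W zh).tau p.1 p.2 *
      g (Real.exp (-2 * l) * ‖(cz π ρ x r W zh).x p.1‖ ^ 2) ∂(Vz m V Q π ρ x r ε W zh) ≤
      B * ∫ p in {p : Euc k × L k | ‖(cz π ρ x r W zh).x p.1‖ ≤ Real.exp l},
        ((cz π ρ x r W zh).tau p.1 p.2 + qq (cz π ρ x r W zh) l p.1)
          ∂(Vz m V Q π ρ x r ε W zh) := by
    have i2 : Integrable (fun p : Euc k × L k => (cz π ρ x r W zh).tau p.1 p.2 +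
        qq (cz π ρ x r W zh) l p.1) (Vz m V Q π ρ x r ε W zh) :=
      (int_tau h).add (((int_f h).const_mul 2).const_mul (Real.exp (-2 * l)))
    rw [← setIntegral_eq_integral_of_forall_compl_eq_zero
      (s := {p : Euc k × L k | ‖(cz π ρ x r W zh).x p.1‖ ≤ Real.exp l}), ← integral_const_mul]
    · refine integral_mono_of_nonneg ?_ (i2.const_mul B).integrableOn ?_
      · filter_upwards [ae_restrict_of_ae (tau_ae h)] with p hp
        exact mul_nonneg hp (hg0 _ (by positivity))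
      · filter_upwards [ae_restrict_of_ae (tau_ae h), ae_restrict_of_ae (on h).mem] with p hp hp2
        have e1 : 0 ≤ qq (cz π ρ x r W zh) l p.1 := by
          refine mul_nonneg (Real.exp_pos _).le ?_
          show 0 ≤ 2 * (‖nut π ρ zh r (wz π x zh r W) p.1‖ ^ 2 / 2)
          positivity
        calc (cz π ρ x r W zh).tau p.1 p.2 *
            g (Real.exp (-2 * l) * ‖(cz π ρ x r W zh).x p.1‖ ^ 2) ≤
            ((cz π ρ x r W zh).tau p.1 p.2 + qq (cz π ρ x r W zh) l p.1) * B :=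
              mul_le_mul (by linarith) (hB _ (by positivity)) (hg0 _ (by positivity))
                (by linarith)
          _ = _ := mul_comm _ _
    · intro p hp
      have h4 : ¬ ‖(cz π ρ x r W zh).x p.1‖ ≤ Real.exp l := hp
      rw [hg.k0.zero _ (GL_394.t_ge h4), mul_zero]
  unfold ee
  have e1 : 0 ≤ Real.exp l ^ m * Real.exp ((2 - m) * l) := by positivity
  calc Real.exp l ^ m * (Real.exp ((2 - m) * l) * ∫ p, (cz π ρ x r W zh).tau p.1 p.2 *
      g (Real.exp (-2 * l) * ‖(cz π ρ x r W zh).x p.1‖ ^ 2) ∂(Vz m V Q π ρ x r ε W zh)) =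
      (Real.exp l ^ m * Real.exp ((2 - m) * l)) * ∫ p, (cz π ρ x r W zh).tau p.1 p.2 *
      g (Real.exp (-2 * l) * ‖(cz π ρ x r W zh).x p.1‖ ^ 2) ∂(Vz m V Q π ρ x r ε W zh) := by
        rw [mul_assoc]
    _ ≤ (Real.exp l ^ m * Real.exp ((2 - m) * l)) *
        (B * ∫ p in {p : Euc k × L k | ‖(cz π ρ x r W zh).x p.1‖ ≤ Real.exp l},
        ((cz π ρ x r W zh).tau p.1 p.2 + qq (cz π ρ x r W zh) l p.1)
          ∂(Vz m V Q π ρ x r ε W zh)) := by gcongr
    _ = B * (Real.exp l ^ m * OO (cz π ρ x r W zh) (Vz m V Q π ρ x r ε W zh) l) := by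
        unfold OO; ring
    _ ≤ _ := by gcongr

end Qz

end Crest.Agent.R234.Pd_435
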