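import Crest.Agent.R234.Strat2_842
import Crest.Agent.R234.Vf0_884

/-!
Row 234, VF-STRAT2 (helper842), part 1: algebra of two planes, extraction of a fat simplex, the
pointwise excess estimate.  (Idea of helper870, #5121.)
-/

set_option autoImplicit false

open Set Filter Topology MeasureTheory Metric Module Function
open Crest.GeometryTopology.Submanifold
open Crest.Agent.R234.Vf_884
open scoped ENNReal NNReal InnerProductSpace

noncomputable section

namespace Crest.Agent.R234.Strat3_842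

/-! ### simplex -/

section simplex

variable {E : Type*} [NormedAddCommGroup E] [NormedSpace ℝ E]

/-- greedy extraction of a fat simplex. -/
theorem exists_fat (B : Set E) (hB : ∀ v ∈ B, ‖v‖ ≤ 1) {δ : ℝ} (hδ : 0 < δ) (m : ℕ)
    (H : ∀ W : Submodule ℝ E, finrank ℝ W < m → ∃ v ∈ B, ∀ l ∈ W, δ < ‖v - l‖) :
    ∀ j : ℕ, j ≤ m → ∃ v : Fin j → E, (∀ i, v i ∈ B) ∧
      ∀ (c : Fin j → ℝ) (i : Fin j), |c i| ≤ (1 + 1 / δ) ^ j * ‖∑ i, c i • v i‖ := by
  intro j
  induction j with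
  | zero => exact fun _ => ⟨Fin.elim0, fun i => i.elim0, fun c i => i.elim0⟩
  | succ j ih =>
    intro hj
    obtain ⟨v, hvB, hv⟩ := ih (by omega)
    have hfr : finrank ℝ (Submodule.span ℝ (Set.range v)) < m := by
      have h1 := finrank_range_le_card (R := ℝ) (b := v)
      have h2 : (Set.range v).finrank ℝ = finrank ℝ (Submodule.span ℝ (Set.range v)) := rfl
      rw [h2, Fintype.card_fin] at h1
      omega
    obtain ⟨w, hwB, hw⟩ := H _ hfr
    have hone : (1 : ℝ) ≤ 1 + 1 / δ := by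
      have : 0 < 1 / δ := by positivity
      linarith
    have hpow : (1 : ℝ) ≤ (1 + 1 / δ) ^ j := one_le_pow₀ hone
    refine ⟨Fin.snoc v w, fun i => ?_, fun c i => ?_⟩
    · refine Fin.lastCases ?_ (fun i => ?_) i
      · simpa using hwB
      · simpa using hvB i
    · have hsum : ∑ i : Fin (j + 1), c i • (Fin.snoc v w : Fin (j + 1) → E) i =
          (∑ i : Fin j, c i.castSucc • v i) + c (Fin.last j) • w := by
        rw [Fin.sum_univ_castSucc]
        simp
      rw [hsum]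
      set u : E := ∑ i : Fin j, c i.castSucc • v i with hu
      set a : ℝ := c (Fin.last j) with ha
      have humem : u ∈ Submodule.span ℝ (Set.range v) :=
        Submodule.sum_mem _ fun i _ => Submodule.smul_mem _ _ (Submodule.subset_span ⟨i, rfl⟩)
      have h1 : |a| * δ ≤ ‖u + a • w‖ := by
        by_cases ha0 : a = 0
        · rw [ha0]; simp
        · have h2 := (hw (-(a⁻¹ • u)) (Submodule.neg_mem _ (Submodule.smul_mem _ _ humem))).le
          have h3 : u + a • w = a • (w - -(a⁻¹ • u)) := by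
            rw [sub_neg_eq_add, smul_add, smul_smul, mul_inv_cancel₀ ha0, one_smul, add_comm]
          rw [h3, norm_smul, Real.norm_eq_abs]
          exact mul_le_mul_of_nonneg_left h2 (abs_nonneg _)
      have h2 : |a| ≤ (1 / δ) * ‖u + a • w‖ := by
        rw [one_div, ← div_eq_inv_mul, le_div_iff₀ hδ]; exact h1
      have h3 : ‖u‖ ≤ (1 + 1 / δ) * ‖u + a • w‖ := by
        calc ‖u‖ = ‖(u + a • w) - a • w‖ := by congr 1; abel
          _ ≤ ‖u + a • w‖ + ‖a • w‖ := norm_sub_le _ _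
          _ = ‖u + a • w‖ + |a| * ‖w‖ := by rw [norm_smul, Real.norm_eq_abs]
          _ ≤ ‖u + a • w‖ + |a| * 1 := by gcongr; exact hB w hwB
          _ ≤ ‖u + a • w‖ + (1 / δ) * ‖u + a • w‖ := by rw [mul_one]; gcongr
          _ = _ := by ring
      refine Fin.lastCases ?_ (fun i => ?_) i
      · calc |c (Fin.last j)| ≤ (1 / δ) * ‖u + a • w‖ := h2
          _ ≤ (1 + 1 / δ) ^ (j + 1) * ‖u + a • w‖ := by
            gcongr
            calc 1 / δ ≤ 1 + 1 / δ := by linarith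
              _ = (1 + 1 / δ) ^ 1 := (pow_one _).symm
              _ ≤ _ := pow_le_pow_right₀ hone (by omega)
      · have h4 := hv (fun i => c i.castSucc) i
        calc |c i.castSucc| ≤ (1 + 1 / δ) ^ j * ‖u‖ := h4
          _ ≤ (1 + 1 / δ) ^ j * ((1 + 1 / δ) * ‖u + a • w‖) := by gcongr
          _ = _ := by rw [pow_succ]; ring

end simplex

/-! ### algebra of two planes -/

variable {m k : ℕ}

/-- `tr ((S - P) ∘ (S - P)) = 2 tr ((1 - P) ∘ S)`. -/
theorem tr_sub_sq {S P : L k} (hS : S ∈ G m k) (hP : P ∈ G m k) :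
    tr ((S - P) ∘L (S - P)) = 2 * tr ((ContinuousLinearMap.id ℝ (Euc k) - P) ∘L S) := by
  have e1 : (S - P) ∘L (S - P) = S ∘L S - S ∘L P - P ∘L S + P ∘L P := by
    ext1 x; simp; abel
  have e2 : (ContinuousLinearMap.id ℝ (Euc k) - P) ∘L S = S - P ∘L S := by
    ext1 x; simp
  rw [e1, e2, map_add, map_sub, map_sub, map_sub, hS.1, hP.1, hS.2.2, hP.2.2, tr_comm S P]
  ring

theorem tr_perp_symm {S P : L k} (hS : S ∈ G m k) (hP : P ∈ G m k) :
    tr ((ContinuousLinearMap.id ℝ (Euc k) - P) ∘L S) =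
      tr ((ContinuousLinearMap.id ℝ (Euc k) - S) ∘L P) := by
  have h1 := tr_sub_sq hS hP
  have h2 := tr_sub_sq hP hS
  have e : (S - P) ∘L (S - P) = (P - S) ∘L (P - S) := by
    ext1 x; simp; abel
  rw [e] at h1
  linarith

/-- Hilbert–Schmidt bound for self-adjoint operators. -/
theorem norm_sq_le_tr {A : L k} (hA : ∀ x y, ⟪A x, y⟫_ℝ = ⟪x, A y⟫_ℝ) (w : Euc k) :
    ‖A w‖ ^ 2 ≤ tr (A ∘L A) * ‖w‖ ^ 2 := by
  have h1 : ‖A w‖ ^ 2 = ∑ i, ⟪stdVec k i, A w⟫_ℝ ^ 2 := by
    have := (EuclideanSpace.basisFun (Fin k) ℝ).sum_sq_norm_inner_right (A w)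
    rw [← this]
    refine Finset.sum_congr rfl fun i _ => ?_
    rw [Real.norm_eq_abs, sq_abs]
    simp [stdVec]
  rw [h1, tr_eq_sum, Finset.sum_mul]
  refine Finset.sum_le_sum fun i _ => ?_
  rw [← hA (stdVec k i) w]
  have h2 := abs_real_inner_le_norm (A (stdVec k i)) w
  have h3 : ⟪stdVec k i, (A ∘L A) (stdVec k i)⟫_ℝ = ‖A (stdVec k i)‖ ^ 2 := by
    rw [ContinuousLinearMap.comp_apply, ← hA, real_inner_self_eq_norm_sq]
  rw [h3, ← mul_pow]
  exact sq_le_sq' (by linarith [neg_abs_le ⟪A (stdVec k i), w⟫_ℝ, h2]) ((le_abs_self _).trans h2)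

theorem sub_symm {S P : L k} (hS : S ∈ G m k) (hP : P ∈ G m k) (x y : Euc k) :
    ⟪(S - P) x, y⟫_ℝ = ⟪x, (S - P) y⟫_ℝ := by
  simp only [sub_apply, inner_sub_left, inner_sub_right, G_symm hS, G_symm hP]

theorem tr_perp_nonneg {S P : L k} (hS : S ∈ G m k) (hP : P ∈ G m k) :
    0 ≤ tr ((ContinuousLinearMap.id ℝ (Euc k) - P) ∘L S) := by
  have h1 := tr_sub_sq hS hP
  have h2 : 0 ≤ tr ((S - P) ∘L (S - P)) := by
    rw [tr_eq_sum]
    refine Finset.sum_nonneg fun i _ => ?_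
    rw [ContinuousLinearMap.comp_apply, ← sub_symm hS hP, real_inner_self_eq_norm_sq]
    positivity
  linarith

/-- `tr ((1-S) P)` as a sum over an orthonormal basis of the plane. -/
theorem tr_perp_eq_sum {S : L k} (hS : S ∈ G m k) (W : Submodule ℝ (Euc k)) {ι : Type*} [Fintype ι]
    (b : OrthonormalBasis ι ℝ W) :
    tr ((ContinuousLinearMap.id ℝ (Euc k) - S) ∘L W.starProjection) =
      ∑ i, ‖(b i : Euc k) - S (b i)‖ ^ 2 := by
  have key : ∀ w : Euc k, ⟪(w : Euc k), w - S w⟫_ℝ = ‖w - S w‖ ^ 2 := by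
    intro w
    have h1 := G_norm_sq_add hS w
    have h2 := G_inner_self hS w
    rw [inner_sub_right, real_inner_self_eq_norm_sq]
    rw [real_inner_comm] at h2
    linarith
  have e : (ContinuousLinearMap.id ℝ (Euc k) - S) ∘L W.starProjection =
      ∑ i, InnerProductSpace.rankOne ℝ ((b i : Euc k) - S (b i)) (b i : Euc k) := by
    rw [b.starProjection_eq_sum_rankOne]
    ext1 x
    simp only [ContinuousLinearMap.comp_apply, sum_apply,
      InnerProductSpace.rankOne_apply, sub_apply, ContinuousLinearMap.id_apply, map_sum, map_smul,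
      smul_sub, Finset.sum_sub_distrib]
  rw [e, map_sum]
  refine Finset.sum_congr rfl fun i _ => ?_
  rw [tr_apply, ← key]
  exact InnerProductSpace.trace_rankOne _ _

theorem linInd_of_fat {v : Fin m → Euc k} {K : ℝ}
    (hv : ∀ (c : Fin m → ℝ) (i : Fin m), |c i| ≤ K * ‖∑ i, c i • v i‖) : LinearIndependent ℝ v := by
  rw [Fintype.linearIndependent_iff]
  intro c hc i
  have h := hv c i
  rw [hc, norm_zero, mul_zero] at h
  exact abs_eq_zero.1 (le_antisymm h (abs_nonneg _))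

/-- the plane spanned by a fat simplex. -/
def plane (v : Fin m → Euc k) : Submodule ℝ (Euc k) := Submodule.span ℝ (Set.range v)

theorem finrank_plane {v : Fin m → Euc k} {K : ℝ}
    (hv : ∀ (c : Fin m → ℝ) (i : Fin m), |c i| ≤ K * ‖∑ i, c i • v i‖) :
    finrank ℝ (plane v) = m := by
  rw [plane, finrank_span_eq_card (linInd_of_fat hv), Fintype.card_fin]

theorem plane_mem_G {v : Fin m → Euc k} {K : ℝ}
    (hv : ∀ (c : Fin m → ℝ) (i : Fin m), |c i| ≤ K * ‖∑ i, c i • v i‖) :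
    (plane v).starProjection ∈ G m k := starProjection_mem_G _ (finrank_plane hv)

/-- tilt bound from the defects `‖v i - S (v i)‖`. -/
theorem tilt_le {v : Fin m → Euc k} {K : ℝ} (hK : 0 ≤ K)
    (hv : ∀ (c : Fin m → ℝ) (i : Fin m), |c i| ≤ K * ‖∑ i, c i • v i‖) {S : L k} (hS : S ∈ G m k) :
    tr ((ContinuousLinearMap.id ℝ (Euc k) - (plane v).starProjection) ∘L S) ≤
      (m * K) ^ 2 * ∑ i, ‖v i - S (v i)‖ ^ 2 := by
  rw [tr_perp_symm hS (plane_mem_G hv)]
  have b := (stdOrthonormalBasis ℝ (plane v)).reindex (finCongr (finrank_plane hv))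
  rw [tr_perp_eq_sum hS (plane v) b]
  have h1 : ∀ j : Fin m, ‖(b j : Euc k) - S (b j)‖ ^ 2 ≤ m * K ^ 2 * ∑ i, ‖v i - S (v i)‖ ^ 2 := by
    intro j
    obtain ⟨c, hc⟩ := (Submodule.mem_span_range_iff_exists_fun ℝ).1 (b j).2
    have hn : ‖(b j : Euc k)‖ = 1 := b.orthonormal.1 j
    have hcK : ∀ i, |c i| ≤ K := by
      intro i
      have := hv c i
      rw [hc, hn, mul_one] at this
      exact this
    have h2 : (b j : Euc k) - S (b j) = ∑ i, c i • (v i - S (v i)) := by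
      rw [← hc, map_sum, ← Finset.sum_sub_distrib]
      refine Finset.sum_congr rfl fun i _ => ?_
      rw [map_smul, smul_sub]
    have h3 : ‖(b j : Euc k) - S (b j)‖ ≤ ∑ i, K * ‖v i - S (v i)‖ := by
      rw [h2]
      refine (norm_sum_le _ _).trans (Finset.sum_le_sum fun i _ => ?_)
      rw [norm_smul, Real.norm_eq_abs]
      exact mul_le_mul_of_nonneg_right (hcK i) (norm_nonneg _)
    calc ‖(b j : Euc k) - S (b j)‖ ^ 2 ≤ (∑ i, K * ‖v i - S (v i)‖) ^ 2 := by gcongr
      _ ≤ (Finset.univ : Finset (Fin m)).card * ∑ i, (K * ‖v i - S (v i)‖) ^ 2 :=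
        sq_sum_le_card_mul_sum_sq
      _ = m * K ^ 2 * ∑ i, ‖v i - S (v i)‖ ^ 2 := by
        rw [Finset.card_univ, Fintype.card_fin, mul_assoc]
        congr 1
        rw [Finset.mul_sum]
        exact Finset.sum_congr rfl fun i _ => by ring
  calc ∑ j, ‖(b j : Euc k) - S (b j)‖ ^ 2 ≤ ∑ j : Fin m, m * K ^ 2 * ∑ i, ‖v i - S (v i)‖ ^ 2 :=
        Finset.sum_le_sum fun j _ => h1 j
    _ = _ := by
      rw [Finset.sum_const, Finset.card_univ, Fintype.card_fin, nsmul_eq_mul]; ring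

/-- the defect `‖(y - z) - S (y - z)‖ ^ 2`. -/
def defect (z : Euc k) (p : Euc k × L k) : ℝ := ‖(p.1 - z) - p.2 (p.1 - z)‖ ^ 2

theorem defect_nonneg (z : Euc k) (p : Euc k × L k) : 0 ≤ defect z p := by
  unfold defect; positivity

/-- the two excesses at a point, w.r.t. the plane `x + P`. -/
def tilt (P : L k) (p : Euc k × L k) : ℝ := tr ((ContinuousLinearMap.id ℝ (Euc k) - P) ∘L p.2)

def height (P : L k) (x : Euc k) (p : Euc k × L k) : ℝ := ‖(p.1 - x) - P (p.1 - x)‖ ^ 2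

theorem defect_sub {S : L k} (x y : Euc k) (r : ℝ) (v : Euc k) :
    r ^ 2 * ‖v - S v‖ ^ 2 ≤ 2 * defect x (y, S) + 2 * defect (x + r • v) (y, S) := by
  unfold defect
  simp only
  have e : r • (v - S v) = ((y - x) - S (y - x)) - ((y - (x + r • v)) - S (y - (x + r • v))) := by
    have h1 : y - (x + r • v) = (y - x) - r • v := by abel
    rw [h1, map_sub S (y - x), map_smul, smul_sub]; abel
  have h2 : r ^ 2 * ‖v - S v‖ ^ 2 = ‖r • (v - S v)‖ ^ 2 := by
    rw [norm_smul, Real.norm_eq_abs, mul_pow, sq_abs]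
  rw [h2, e]
  have h3 := norm_sub_le ((y - x) - S (y - x)) ((y - (x + r • v)) - S (y - (x + r • v)))
  have h4 := norm_nonneg (((y - x) - S (y - x)) - ((y - (x + r • v)) - S (y - (x + r • v))))
  nlinarith [sq_nonneg (‖(y - x) - S (y - x)‖ - ‖(y - (x + r • v)) - S (y - (x + r • v))‖)]

/-- **Pointwise excess estimate.** -/
theorem excess_pt {v : Fin m → Euc k} {K : ℝ} (hK : 0 ≤ K)
    (hv : ∀ (c : Fin m → ℝ) (i : Fin m), |c i| ≤ K * ‖∑ i, c i • v i‖) {S : L k} (hS : S ∈ G m k)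
    (x y : Euc k) (r : ℝ) (hy : ‖y - x‖ ≤ r) :
    r ^ 2 * tilt (plane v).starProjection (y, S) + height (plane v).starProjection x (y, S) ≤
      (2 + 10 * (m * K) ^ 2 * m) * defect x (y, S) +
        10 * (m * K) ^ 2 * ∑ i, defect (x + r • v i) (y, S) := by
  have hP := plane_mem_G hv
  set P := (plane v).starProjection with hPdef
  set D := ∑ i, defect (x + r • v i) (y, S) with hD
  have h1 : r ^ 2 * tilt P (y, S) ≤ (m * K) ^ 2 * (2 * m * defect x (y, S) + 2 * D) := by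
    have h2 := tilt_le hK hv hS
    have h3 : ∑ i, r ^ 2 * ‖v i - S (v i)‖ ^ 2 ≤ 2 * m * defect x (y, S) + 2 * D := by
      calc ∑ i, r ^ 2 * ‖v i - S (v i)‖ ^ 2
          ≤ ∑ i, (2 * defect x (y, S) + 2 * defect (x + r • v i) (y, S)) :=
            Finset.sum_le_sum fun i _ => defect_sub x y r (v i)
        _ = _ := by
          rw [Finset.sum_add_distrib, Finset.sum_const, Finset.card_univ, Fintype.card_fin,
            nsmul_eq_mul, ← Finset.mul_sum]
          ring
    calc r ^ 2 * tilt P (y, S) ≤ r ^ 2 * ((m * K) ^ 2 * ∑ i, ‖v i - S (v i)‖ ^ 2) := by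
          refine mul_le_mul_of_nonneg_left ?_ (sq_nonneg _)
          exact h2
      _ = (m * K) ^ 2 * ∑ i, r ^ 2 * ‖v i - S (v i)‖ ^ 2 := by
          rw [Finset.mul_sum, Finset.mul_sum, Finset.mul_sum]
          exact Finset.sum_congr rfl fun i _ => by ring
      _ ≤ _ := by gcongr
  have h4 : height P x (y, S) ≤ 2 * defect x (y, S) + 4 * (r ^ 2 * tilt P (y, S)) := by
    unfold height
    simp only
    have e : (y - x) - P (y - x) = ((y - x) - S (y - x)) + (S - P) (y - x) := by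
      rw [sub_apply]; abel
    have h5 := norm_add_le ((y - x) - S (y - x)) ((S - P) (y - x))
    have h6 := norm_sq_le_tr (A := S - P) (sub_symm hS hP) (y - x)
    rw [tr_sub_sq hS hP] at h6
    have h7 : ‖y - x‖ ^ 2 ≤ r ^ 2 := by gcongr
    have h8 : 0 ≤ tilt P (y, S) := tr_perp_nonneg hS hP
    have h9 : ‖(S - P) (y - x)‖ ^ 2 ≤ 2 * (r ^ 2 * tilt P (y, S)) := by
      calc ‖(S - P) (y - x)‖ ^ 2 ≤ 2 * tilt P (y, S) * ‖y - x‖ ^ 2 := h6
        _ ≤ 2 * tilt P (y, S) * r ^ 2 := by gcongr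
        _ = _ := by ring
    have h10 : ‖(y - x) - P (y - x)‖ ^ 2 ≤
        2 * ‖(y - x) - S (y - x)‖ ^ 2 + 2 * ‖(S - P) (y - x)‖ ^ 2 := by
      rw [e]
      nlinarith [norm_nonneg (((y - x) - S (y - x)) + (S - P) (y - x)),
        sq_nonneg (‖(y - x) - S (y - x)‖ - ‖(S - P) (y - x)‖)]
    unfold defect
    simp only
    linarith
  nlinarith

end Crest.Agent.R234.Strat3_842
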