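import Crest.Agent.R234.Vc5_164
import Crest.Agent.R234.Strat3_842
import Crest.Agent.R234.Vf6_884

/-!
Row 234, VF-PERS (helper540), file 1: scalar test functions, the mass of a stationary varifold is
almost invariant under translations in directions `ξ` with small `∫ ‖ξ - S ξ‖`.
-/

set_option autoImplicit false

open MeasureTheory Set Filter Topology Crest.GeometryTopology.Submanifold
open scoped ENNReal InnerProductSpace NNReal

noncomputable section

namespace Crest.Agent.R234.Pers_540

open Vf_884 Strat3_842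

variable {m k : ℕ} {U : Set (Euc k)} {V : Measure (Euc k × L k)}

/-- the first variation in the direction `f • w`. -/
theorem fv_smul (hV : Stat m k U V) {f : Euc k → ℝ} (hf : ContDiff ℝ 1 f)
    (hfc : HasCompactSupport f) (hfU : tsupport f ⊆ U) (w : Euc k) :
    ∫ p, fderiv ℝ f p.1 (p.2 w) ∂V = 0 := by
  have hX : ContDiff ℝ 1 fun x => f x • w := hf.smul contDiff_const
  have hs : tsupport (fun x => f x • w) ⊆ tsupport f := by
    refine closure_mono fun x hx => ?_
    simp only [Function.mem_support] at hx ⊢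
    intro h0; apply hx; rw [h0, zero_smul]
  have hXc : HasCompactSupport fun x => f x • w := hfc.smul_right
  rw [← hV.stat _ hX hXc (hs.trans hfU)]
  refine integral_congr_ae (Eventually.of_forall fun p => ?_)
  have h1 : fderiv ℝ (fun x => f x • w) p.1 = (fderiv ℝ f p.1).smulRight w :=
    ((hf.differentiable one_ne_zero p.1).hasFDerivAt.smul_const w).fderiv
  simp only
  rw [h1, tr_smulRight_comp]

theorem fderiv_translate (f : Euc k → ℝ) (ξ x : Euc k) :
    fderiv ℝ (fun y => f (y - ξ)) x = fderiv ℝ f (x - ξ) := by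
  rw [fderiv_comp_sub]

/-- mass is almost invariant under translations. -/
theorem trans_close (hV : Stat m k U V) {f : Euc k → ℝ} (hf : ContDiff ℝ 1 f)
    {M : ℝ} (hf1 : ∀ x, ‖fderiv ℝ f x‖ ≤ M) (ξ : Euc k)
    {K : Set (Euc k)} (hK : IsCompact K) (hKU : K ⊆ U)
    (hfK : ∀ t ∈ Icc (0:ℝ) 1, ∀ x, f (x - t • ξ) ≠ 0 → x ∈ K) :
    |∫ p, f p.1 ∂V - ∫ p, f (p.1 - ξ) ∂V| ≤ M * ∫ p in K ×ˢ univ, ‖ξ - p.2 ξ‖ ∂V := by
  have hKm : MeasurableSet (K ×ˢ (univ : Set (L k))) := hK.measurableSet.prod MeasurableSet.univ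
  set W := V.restrict (K ×ˢ (univ : Set (L k))) with hW
  have hfin : IsFiniteMeasure W := ⟨by
    rw [hW, Measure.restrict_apply_univ]; exact hV.fin K hK hKU⟩
  have hM : 0 ≤ M := (norm_nonneg _).trans (hf1 0)
  -- restriction
  have hres : ∀ t ∈ Icc (0:ℝ) 1, ∀ g : Euc k × L k → ℝ, (∀ p, f (p.1 - t • ξ) = 0 →
      p.1 ∉ K → g p = 0) → ∫ p, g p ∂V = ∫ p, g p ∂W := by
    intro t ht g hg
    rw [hW, setIntegral_eq_integral_of_forall_compl_eq_zero]
    intro p hp
    have hpK : p.1 ∉ K := fun h => hp ⟨h, mem_univ _⟩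
    refine hg p ?_ hpK
    by_contra h0
    exact hpK (hfK t ht p.1 h0)
  have r0 : ∫ p, f p.1 ∂V = ∫ p, f p.1 ∂W := by
    refine hres 0 (by simp) _ fun p hp _ => ?_
    simpa using hp
  have r1 : ∫ p, f (p.1 - ξ) ∂V = ∫ p, f (p.1 - ξ) ∂W := by
    refine hres 1 (by simp) _ fun p hp _ => ?_
    simpa using hp
  -- compact support of the translates
  have hsupp : ∀ t ∈ Icc (0:ℝ) 1, tsupport (fun x => f (x - t • ξ)) ⊆ K := fun t ht =>
    closure_minimal (fun x hx => hfK t ht x hx) hK.isClosed
  have hcs : ∀ t ∈ Icc (0:ℝ) 1, HasCompactSupport (fun x => f (x - t • ξ)) := fun t ht =>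
    hK.of_isClosed_subset (isClosed_tsupport _) (hsupp t ht)
  have hcd : ∀ t : ℝ, ContDiff ℝ 1 (fun x => f (x - t • ξ)) := fun t =>
    hf.comp (contDiff_id.sub contDiff_const)
  have hDzero : ∀ t ∈ Icc (0:ℝ) 1, ∀ x, x ∉ K → fderiv ℝ f (x - t • ξ) = 0 := by
    intro t ht x hx
    rw [← fderiv_translate]
    have h1 : x ∉ tsupport (fderiv ℝ fun y => f (y - t • ξ)) := fun h =>
      hx (hsupp t ht (tsupport_fderiv_subset ℝ h))
    exact image_eq_zero_of_notMem_tsupport h1
  -- the identity for fixed t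
  have hid : ∀ t ∈ Icc (0:ℝ) 1, ∫ p, fderiv ℝ f (p.1 - t • ξ) ξ ∂W =
      ∫ p, fderiv ℝ f (p.1 - t • ξ) (ξ - p.2 ξ) ∂W := by
    intro t ht
    have h1 : ∫ p, fderiv ℝ f (p.1 - t • ξ) (p.2 ξ) ∂W = 0 := by
      rw [← hres t ht (fun p => fderiv ℝ f (p.1 - t • ξ) (p.2 ξ)) fun p _ hp => by
        rw [hDzero t ht p.1 hp]; simp]
      have := fv_smul hV (hcd t) (hcs t ht) ((hsupp t ht).trans hKU) ξ
      simpa only [fderiv_translate] using this
    have hc : Continuous fun p : Euc k × L k => fderiv ℝ f (p.1 - t • ξ) :=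
      (hf.continuous_fderiv one_ne_zero).comp (continuous_fst.sub continuous_const)
    have hi : Integrable (fun p : Euc k × L k => fderiv ℝ f (p.1 - t • ξ) ξ) W := by
      refine Integrable.of_bound (C := M * ‖ξ‖) (hc.clm_apply continuous_const).aestronglyMeasurable
        (Eventually.of_forall fun p => ?_)
      exact (ContinuousLinearMap.le_opNorm _ _).trans (by gcongr; exact hf1 _)
    have hi2 : Integrable (fun p : Euc k × L k => fderiv ℝ f (p.1 - t • ξ) (p.2 ξ)) W := by
      refine Integrable.of_bound (C := M * ‖ξ‖) (hc.clm_apply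
        (continuous_snd.clm_apply continuous_const)).aestronglyMeasurable ?_
      filter_upwards [ae_restrict_of_ae hV.conc] with p hp
      refine (ContinuousLinearMap.le_opNorm _ _).trans ?_
      gcongr
      · exact hf1 _
      · exact G_norm_apply_le hp ξ
    calc ∫ p, fderiv ℝ f (p.1 - t • ξ) ξ ∂W
        = ∫ p, fderiv ℝ f (p.1 - t • ξ) ξ ∂W - ∫ p, fderiv ℝ f (p.1 - t • ξ) (p.2 ξ) ∂W := by
          rw [h1, sub_zero]
      _ = ∫ p, (fderiv ℝ f (p.1 - t • ξ) ξ - fderiv ℝ f (p.1 - t • ξ) (p.2 ξ)) ∂W :=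
          (integral_sub hi hi2).symm
      _ = _ := by
          refine integral_congr_ae (Eventually.of_forall fun p => ?_)
          simp only [map_sub]
  -- pointwise FTC
  have hftc : ∀ x : Euc k, f x - f (x - ξ) = ∫ t in (0:ℝ)..1, fderiv ℝ f (x - t • ξ) ξ := by
    intro x
    have hd : ∀ t ∈ uIcc (0:ℝ) 1, HasDerivAt (fun t : ℝ => - f (x - t • ξ))
        (fderiv ℝ f (x - t • ξ) ξ) t := by
      intro t _
      have h1 : HasDerivAt (fun t : ℝ => x - t • ξ) (-ξ) t := by
        simpa using ((hasDerivAt_id t).smul_const ξ).const_sub x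
      have h2 := (hf.differentiable one_ne_zero (x - t • ξ)).hasFDerivAt.comp_hasDerivAt t h1
      have h3 := h2.neg
      rw [map_neg, neg_neg] at h3
      exact h3
    have hint : IntervalIntegrable (fun t : ℝ => fderiv ℝ f (x - t • ξ) ξ) volume 0 1 := by
      apply Continuous.intervalIntegrable
      exact ((hf.continuous_fderiv one_ne_zero).comp
        (continuous_const.sub (continuous_id.smul continuous_const))).clm_apply continuous_const
    rw [intervalIntegral.integral_eq_sub_of_hasDerivAt hd hint]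
    simp
    ring
  have hcont2 : Continuous fun q : (Euc k × L k) × ℝ => fderiv ℝ f (q.1.1 - q.2 • ξ) ξ :=
    ((hf.continuous_fderiv one_ne_zero).comp ((continuous_fst.comp continuous_fst).sub
      (continuous_snd.smul continuous_const))).clm_apply continuous_const
  have hcf : Continuous f := hf.continuous
  have hfb : ∀ t ∈ Icc (0:ℝ) 1, Integrable (fun p : Euc k × L k => f (p.1 - t • ξ)) W := by
    intro t ht
    obtain ⟨C, hC⟩ := (hcs t ht).exists_bound_of_continuous (hcd t).continuous
    exact Integrable.of_bound (C := C)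
      (hcf.comp (continuous_fst.sub continuous_const)).aestronglyMeasurable
      (Eventually.of_forall fun p => hC p.1)
  have hmain : ∫ p, f p.1 ∂W - ∫ p, f (p.1 - ξ) ∂W =
      ∫ t in (0:ℝ)..1, ∫ p, fderiv ℝ f (p.1 - t • ξ) ξ ∂W := by
    rw [← integral_sub (by simpa using hfb 0 (by simp)) (by simpa using hfb 1 (by simp))]
    have e1 : (fun p : Euc k × L k => f p.1 - f (p.1 - ξ)) =
        fun p => ∫ t in (0:ℝ)..1, fderiv ℝ f (p.1 - t • ξ) ξ := by
      ext p; exact hftc p.1
    rw [e1]
    simp only [intervalIntegral.integral_of_le zero_le_one]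
    rw [integral_integral_swap]
    refine Integrable.of_bound (C := M * ‖ξ‖) hcont2.aestronglyMeasurable
      (Eventually.of_forall fun q => ?_)
    exact (ContinuousLinearMap.le_opNorm _ _).trans (by gcongr; exact hf1 _)
  rw [r0, r1, hmain]
  have hb : ∀ t ∈ Set.uIoc (0:ℝ) 1, ‖∫ p, fderiv ℝ f (p.1 - t • ξ) ξ ∂W‖ ≤
      M * ∫ p, ‖ξ - p.2 ξ‖ ∂W := by
    intro t ht
    rw [uIoc_of_le zero_le_one] at ht
    rw [hid t (Ioc_subset_Icc_self ht)]
    have hi3 : Integrable (fun p : Euc k × L k => ‖ξ - p.2 ξ‖) W := by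
      refine Integrable.of_bound (C := 2 * ‖ξ‖) (continuous_const.sub
        (continuous_snd.clm_apply continuous_const)).norm.aestronglyMeasurable ?_
      filter_upwards [ae_restrict_of_ae hV.conc] with p hp
      rw [norm_norm]
      have := G_norm_apply_le hp ξ
      exact (norm_sub_le _ _).trans (by linarith)
    rw [← integral_const_mul]
    refine norm_integral_le_of_norm_le (hi3.const_mul M) (Eventually.of_forall fun p => ?_)
    exact (ContinuousLinearMap.le_opNorm _ _).trans (by gcongr; exact hf1 _)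
  have := intervalIntegral.norm_integral_le_of_norm_le_const hb
  simpa [Real.norm_eq_abs] using this

end Crest.Agent.R234.Pers_540
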