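import Crest.Agent.R234.Pin9_3
import Crest.Agent.R234.Qp4_534

/-!
R234 (helper3), VF-PIN part 10: the per-centre data `CtrK` from the one-level inputs `InpP`
(456, 685, 128, 618, 354, 471, 435) and the comparison integrals `UljP` (435).
-/

open MeasureTheory Set Metric
open scoped RealInnerProductSpace ENNReal ContDiff

namespace Crest.Agent.R234.Pin10_3

set_option linter.unusedSectionVars false
set_option linter.unusedVariables false

open Crest.Agent.R234.Pin1_3 Crest.Agent.R234.Pin2_3 Crest.Agent.R234.Pin3_3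
open Crest.Agent.R234.Pin6_3 Crest.Agent.R234.Pin7_3 Crest.Agent.R234.Pin8_3
open Crest.GeometryTopology.Submanifold Crest.Agent.R234.Vf_884
open Crest.Agent.R234.Main_456 Crest.Agent.R234.Pd_435 Crest.Agent.R234.Qp_534
open Crest.Agent.R234.Fd_534 (GT Cf rs sh)

/-- **one-level inputs** at all `Q`-points of a reference, with the comparison of the top. -/
def InpP (m n K : ℕ) : Prop :=
  ∀ (Q : ℕ) (C : ℝ), 2 ≤ Q → ∃ A C0 Cs Ct C1 : ℝ, 0 ≤ A ∧ 0 ≤ C0 ∧ 0 ≤ Cs ∧ 0 ≤ Ct ∧ 1 ≤ C1 ∧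
    ∀ (lm θ B : ℝ), lm < -3 → 0 < θ → 1 ≤ B → ∃ ε₁ : ℝ, 0 < ε₁ ∧ ∀ ε : ℝ, 0 < ε → ε ≤ ε₁ →
      ∀ (U : Set (Euc (m + n))), IsOpen U → ∀ D : VarifoldData m (m + n),
        IsIntegralVarifoldIn U D → IsStationaryIn U D → ∀ (x : Euc (m + n)) (r : ℝ)
        (π' : Euc (m + n) →L[ℝ] Euc m) (ρ : Euc (m + n) →L[ℝ] Euc n) (u W : Euc m → Euc n)
        (κ : ℝ) (zh : Euc (m + n)), Qx U (VD D) Q K x r π' ρ u ε C W κ zh → κ ≤ B * ε →
          Th m (VD D) x = (Q : ℝ≥0∞) →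
          Inp U (VD D) Q x r π' ρ W zh (h0 m Q ε) (Real.log r + lm - 2) κ A C0 Cs Ct C1 θ ∧
          Main_456.sep (VD D) π' ρ x r u 8 ≤
            C1 * r ^ m * Iz (VD D) π' ρ x r W zh (h0 m Q ε) (bTop r)

/-- the fields `up`, `lo`, `J` of `CtrData`. -/
structure Ulj {m n k : ℕ} (V : Measure (Euc k × L k)) (x : Euc k) (r : ℝ)
    (π' : Euc k →L[ℝ] Euc m) (ρ : Euc k →L[ℝ] Euc n) (u : Euc m → Euc n) (zh : Euc k)
    (I e R : ℝ → ℝ) (C η lm : ℝ) : Prop where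
  up : ∀ l ∈ Icc lm (-3), Real.exp l ^ m * I l ≤ C *
    ∫ q in BB (Xr π' x r) (r⁻¹ • π' (zh - x)) (Real.exp l),
      ‖Yr π' ρ x r u q - r⁻¹ • hgt π' ρ x r u zh‖ ^ 2 ∂(nu V π' ρ x r)
  lo : ∀ l ∈ Icc lm (-3), ∫ q in BB (Xr π' x r) (r⁻¹ • π' (zh - x)) (Real.exp l / 2),
      ‖Yr π' ρ x r u q - r⁻¹ • hgt π' ρ x r u zh‖ ^ 2 ∂(nu V π' ρ x r) ≤
    C * (Real.exp l ^ m * I l)
  J : ∀ l ∈ Icc lm (-3), ∀ α, 0 ≤ α → α ≤ 2 * C →
    ∫ q in BB (Xr π' x r) (r⁻¹ • π' (zh - x)) (Real.exp l / 2),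
      ‖er (Tr π' ρ x r u q) (Xr π' x r q) (r⁻¹ • π' (zh - x)) (Yr π' ρ x r u q)
        (r⁻¹ • hgt π' ρ x r u zh) α‖ ^ 2 ∂(nu V π' ρ x r) ≤
      Real.exp l ^ m * (C * (R l - 2 * α * e l + α ^ 2 * I l) + η * I l)

/-- **the comparison integrals** (435): `up`, `lo`, `J` for 394's functions of 534's chart, with the
radial energy `Rz (A κ) (dz ..)`. Given: `e ≤ M I`, `0 < I`, `sep 8 ≤ M r^{m+2} I` on the window,
`e^{-2c} I(c) ≤ 1`. -/
def UljP (m n K : ℕ) : Prop :=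
  ∀ (Q : ℕ) (C A Cs : ℝ), 2 ≤ Q → 0 ≤ A → 0 ≤ Cs → ∃ C₀ : ℝ, 1 ≤ C₀ ∧ ∀ C₁ : ℝ, C₀ ≤ C₁ →
    ∀ (lm η B M : ℝ), lm < -3 → 0 < η → 1 ≤ B → 1 ≤ M → ∃ ε₂ : ℝ, 0 < ε₂ ∧ ∀ ε : ℝ, 0 < ε → ε ≤ ε₂ →
      ∀ (U : Set (Euc (m + n))), IsOpen U → ∀ D : VarifoldData m (m + n),
        IsIntegralVarifoldIn U D → IsStationaryIn U D → ∀ (x : Euc (m + n)) (r : ℝ)
        (π' : Euc (m + n) →L[ℝ] Euc m) (ρ : Euc (m + n) →L[ℝ] Euc n) (u W : Euc m → Euc n)
        (κ : ℝ) (zh : Euc (m + n)), Qx U (VD D) Q K x r π' ρ u ε C W κ zh → κ ≤ B * ε →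
          (∀ l ∈ Icc lm (-3), 0 < rs r (Iz (VD D) π' ρ x r W zh (h0 m Q ε)) l ∧
            rs r (ez (VD D) π' ρ x r W zh (h0 m Q ε)) l ≤
              M * rs r (Iz (VD D) π' ρ x r W zh (h0 m Q ε)) l ∧
            Main_456.sep (VD D) π' ρ x r u 8 ≤
              M * (r ^ (m + 2) * rs r (Iz (VD D) π' ρ x r W zh (h0 m Q ε)) l)) →
          Real.exp (-2 * cTop r) * Iz (VD D) π' ρ x r W zh (h0 m Q ε) (cTop r) ≤ 1 →
          Ulj (VD D) x r π' ρ u zh (rs r (Iz (VD D) π' ρ x r W zh (h0 m Q ε)))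
            (rs r (ez (VD D) π' ρ x r W zh (h0 m Q ε)))
            (rs r (Rz (VD D) π' ρ x r W zh (h0 m Q ε) (A * κ)
              (dz (VD D) x r π' ρ W zh (h0 m Q ε) κ A Cs (3 - lm)))) C₁ η lm

/-- **assembly of the per-centre data.** -/
theorem ctrK_of {m n K : ℕ} (hm : 1 ≤ m) (hK : 3 ≤ K) (hI : InpP m n K) (hU : UljP m n K) :
    CtrK m n K := by
  intro Q C hQ
  obtain ⟨A, C0, Cs, Ct, C1, hA, hC0, hCs, hCt, hC1, hInp⟩ := hI Q C hQ
  obtain ⟨Cu, hCu, hUlj⟩ := hU Q C A Cs hQ hA hCs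
  obtain ⟨Ce, hCe, hext⟩ := exists_ext m n K
  set G : ℝ := Real.exp (GT C1 (C2s Ct) 5) with hG
  have hG0 : 0 < G := Real.exp_pos _
  obtain ⟨C₀, hC₀⟩ : ∃ C₀ : ℝ, 1 ≤ C₀ ∧ Cf m C1 (C2s Ct) 5 ≤ C₀ ∧ Cu ≤ C₀ ∧ 16 / 9 * (C1 * G) ≤ C₀ :=
    ⟨max 1 (max (Cf m C1 (C2s Ct) 5) (max Cu (16 / 9 * (C1 * G)))), by simp, by simp, by simp,
      by simp⟩
  obtain ⟨hC₀1, hC₀2, hC₀3, hC₀4⟩ := hC₀
  refine ⟨C₀, hC₀1, fun C₁ hC₁ lm η hlm hη => ?_⟩
  have hC₁0 : 0 < C₁ := by linarith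
  -- the accuracy
  obtain ⟨η₁, hη₁0, hη₁η, hη₁1, hη₁2, hη₁3⟩ : ∃ η₁ : ℝ, 0 < η₁ ∧ η₁ ≤ η ∧ η₁ ≤ 1 / 16 ∧
      160 * η₁ * C₁ * (-3 - lm) ≤ 1 ∧ 72 * η₁ * (1 + (2 * C₁) ^ 2) ≤ 1 := by
    refine ⟨min η (min (1 / 16) (min (1 / (160 * C₁ * (-3 - lm))) (1 / (72 * (1 + (2 * C₁) ^ 2))))),
      ?_, by simp, by simp, ?_, ?_⟩
    · have : 0 < -3 - lm := by linarith
      refine lt_min hη (lt_min (by norm_num) (lt_min (by positivity) (by positivity)))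
    · have h1 : min η (min (1 / 16) (min (1 / (160 * C₁ * (-3 - lm)))
          (1 / (72 * (1 + (2 * C₁) ^ 2))))) ≤ 1 / (160 * C₁ * (-3 - lm)) := by simp
      have h2 : 0 < -3 - lm := by linarith
      rw [le_div_iff₀ (by positivity)] at h1
      linarith
    · have h1 : min η (min (1 / 16) (min (1 / (160 * C₁ * (-3 - lm)))
          (1 / (72 * (1 + (2 * C₁) ^ 2))))) ≤ 1 / (72 * (1 + (2 * C₁) ^ 2)) := by simp
      rw [le_div_iff₀ (by positivity)] at h1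
      linarith
  obtain ⟨θ, hθ, hfd⟩ := ctr_fd hm hA hC0 hCs hCt hC1 hlm hη₁0
  -- the bound `e ≤ M I`
  set Dd : ℝ := Real.exp (2 * (2 * C₁) + (3 * (2 * C₁) + 6) * (-3 - lm)) with hDd
  have hDd0 : 0 < Dd := Real.exp_pos _
  obtain ⟨M, hM1, hM, hM2⟩ : ∃ M : ℝ, 1 ≤ M ∧
      Real.exp (m * 10) * Real.exp (m * (-lm)) * C1 * G * Dd ≤ M ∧ C1 * G * Dd ≤ M :=
    ⟨max 1 (max (Real.exp (m * 10) * Real.exp (m * (-lm)) * C1 * G * Dd) (C1 * G * Dd)),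
      le_max_left _ _, (le_max_left _ _).trans (le_max_right _ _),
      (le_max_right _ _).trans (le_max_right _ _)⟩
  obtain ⟨ε₁, hε₁, hInp⟩ := hInp lm (min θ 1) Ce hlm (lt_min hθ one_pos) hCe
  obtain ⟨ε₂, hε₂, hUlj⟩ := hUlj C₁ (hC₀3.trans hC₁) lm η Ce M hlm hη hCe hM1
  have hhc := Cx.hc_pos m Q
  refine ⟨min ε₁ (min ε₂ (min (θ / Ce) (min (1 / (8 * Ce)) (1 / (256 * Cx.hc m Q))))), ?_, ?_⟩
  · have : 0 < Ce := by linarith
    refine lt_min hε₁ (lt_min hε₂ (lt_min (by positivity) (lt_min (by positivity) (by positivity))))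
  intro ε hε hεε U hUo D hD hst x r π' ρ u hcx hTh zh hzh hzQ
  have g1 : ε ≤ ε₁ := hεε.trans (by simp)
  have g2 : ε ≤ ε₂ := hεε.trans (by simp)
  have g3 : ε ≤ θ / Ce := hεε.trans (by simp)
  have g4 : ε ≤ 1 / (8 * Ce) := hεε.trans (by simp)
  have g5 : ε ≤ 1 / (256 * Cx.hc m Q) := hεε.trans (by simp)
  have hCe0 : 0 < Ce := by linarith
  have hr : 0 < r := hcx.hr
  obtain ⟨W, hW1, -, hW2, hW3⟩ := hext u ε hε.le hcx.ref.smooth.contDiffOn hcx.ref.small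
  have hExt : Ext u W K (Ce * ε) := ⟨hW1, hW2, hW3⟩
  have hQx : Qx U (VD D) Q K x r π' ρ u ε C W (Ce * ε) zh := by
    refine ⟨hcx, hUo, hExt, hK, ?_, hzh, hzQ, by omega, ?_⟩
    · rw [le_div_iff₀ (by positivity)] at g4
      linarith
    · unfold h0
      rw [Real.sqrt_le_left (by norm_num)]
      rw [le_div_iff₀ (by positivity)] at g5
      linarith
  have hκθ : Ce * ε ≤ θ := by
    rw [le_div_iff₀ hCe0] at g3
    linarith
  obtain ⟨hinp, hsep⟩ := hInp ε hε g1 U hUo D hD hst x r π' ρ u W (Ce * ε) zh hQx le_rfl hTh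
  set I := Iz (VD D) π' ρ x r W zh (h0 m Q ε) with hIdef
  have hinp' : Inp U (VD D) Q x r π' ρ W zh (h0 m Q ε) (Real.log r + lm - 2) (Ce * ε) A C0 Cs Ct C1
      θ := by
    have hIb := hinp.pos
    have hmin : min θ 1 ≤ θ := min_le_left _ _
    refine { hinp with sg := ?_, small := ?_, f4 := ?_ }
    · intro l hl
      refine (hinp.sg l hl).trans (add_le_add (mul_le_mul_of_nonneg_right hmin ?_)
        (mul_le_mul_of_nonneg_right hmin hIb.le))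
      exact hQx.Iz_nonneg l
    · exact hinp.small.trans hmin
    · intro l hl
      refine le_trans ?_ (hinp.f4 l hl)
      exact neg_le_neg (mul_le_mul_of_nonneg_right hmin hIb.le)
  obtain ⟨hdbl, hN, R', hR', hFD⟩ := hfd (m + n) n U (VD D) Q K x r π' ρ u ε C W (Ce * ε) zh hQx hκθ
    hinp'
  have hNC : NN (rs r (Ez (VD D) π' ρ x r W zh (h0 m Q ε) Q)) (rs r I) (-3) ≤ C₁ :=
    hN.trans (hC₀2.trans hC₁)
  have hNN : ∀ l ∈ Icc lm (-3), NN (rs r (Ez (VD D) π' ρ x r W zh (h0 m Q ε) Q)) (rs r I) l ≤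
      2 * C₁ := fun l hl => hFD.NN_le hη₁0.le hη₁1 hlm.le hC₁0 hNC hη₁2 hl
  -- `e ≤ M I`
  have heI : ∀ l ∈ Icc lm (-3), 0 < rs r I l ∧
      rs r (ez (VD D) π' ρ x r W zh (h0 m Q ε)) l ≤ M * rs r I l ∧
      Main_456.sep (VD D) π' ρ x r u 8 ≤ M * (r ^ (m + 2) * rs r I l) := by
    intro l hl
    have hpos := hFD.pos l hl
    refine ⟨hpos, ?_⟩
    have h1 := hFD.I_doubling hη₁0.le hη₁1 hNN hη₁3 hl ⟨hlm.le, le_rfl⟩ hl.2
    have h2 : Real.exp (2 * (2 * C₁) + (3 * (2 * C₁) + 6) * (-3 - l)) ≤ Dd := by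
      rw [hDd]
      apply Real.exp_le_exp.2
      have : (3 * (2 * C₁) + 6) * (-3 - l) ≤ (3 * (2 * C₁) + 6) * (-3 - lm) := by
        have := hl.1
        gcongr
      linarith
    have h3 : rs r I (-3) ≤ Dd * rs r I l :=
      h1.trans (mul_le_mul_of_nonneg_right h2 hpos.le)
    have hr2 : 0 < (r ^ 2)⁻¹ := by positivity
    refine and_comm.1 ⟨?_, ?_⟩
    · calc Main_456.sep (VD D) π' ρ x r u 8
          ≤ C1 * r ^ m * (G * I (-3 + sh r)) :=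
            hsep.trans (mul_le_mul_of_nonneg_left hdbl (by positivity))
        _ = (C1 * G) * (r ^ (m + 2) * rs r I (-3)) := by
            unfold rs
            rw [pow_add]
            field_simp
        _ ≤ (C1 * G) * (r ^ (m + 2) * (Dd * rs r I l)) := by gcongr
        _ = (C1 * G * Dd) * (r ^ (m + 2) * rs r I l) := by ring
        _ ≤ M * (r ^ (m + 2) * rs r I l) := by gcongr
    -- scaling
    have hshb : sh r + (-3) ≤ bTop r := by
      unfold sh bTop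
      have a1 : 0 ≤ Real.log (4 / 3) := Real.log_nonneg (by norm_num)
      have a2 : 0 ≤ Real.log 2 := Real.log_nonneg (by norm_num)
      linarith
    have hl3 : l + sh r ≤ bTop r := by linarith [hl.2]
    have h4 := hQx.ez_mono hl3
    have h5 : (m : ℝ) * (bTop r - (l + sh r)) ≤ m * 10 + m * (-lm) := by
      have a1 : Real.log (4 / 3) ≤ 1 := by
        have := Real.log_le_sub_one_of_pos (show (0:ℝ) < 4 / 3 by norm_num)
        linarith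
      have a2 : Real.log 2 ≤ 1 := by
        have := Real.log_le_sub_one_of_pos (show (0:ℝ) < 2 by norm_num)
        linarith
      have a3 : bTop r - (l + sh r) ≤ 10 + -lm := by
        unfold sh bTop
        linarith [hl.1]
      calc (m : ℝ) * (bTop r - (l + sh r)) ≤ m * (10 + -lm) := by gcongr
        _ = _ := by ring
    have h6 : Real.exp (m * (bTop r - (l + sh r))) ≤ Real.exp (m * 10) * Real.exp (m * (-lm)) := by
      rw [← Real.exp_add]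
      exact Real.exp_le_exp.2 h5
    have h7 : ez (VD D) π' ρ x r W zh (h0 m Q ε) (l + sh r) ≤
        Real.exp (m * 10) * Real.exp (m * (-lm)) * (C1 * (G * I (-3 + sh r))) := by
      refine h4.trans ?_
      have b1 : ez (VD D) π' ρ x r W zh (h0 m Q ε) (bTop r) ≤ C1 * (G * I (-3 + sh r)) :=
        hinp.eb.trans (mul_le_mul_of_nonneg_left hdbl (by linarith))
      have b2 : 0 ≤ ez (VD D) π' ρ x r W zh (h0 m Q ε) (bTop r) := hQx.ez_nonneg _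
      calc _ ≤ (Real.exp (m * 10) * Real.exp (m * (-lm))) *
            ez (VD D) π' ρ x r W zh (h0 m Q ε) (bTop r) := mul_le_mul_of_nonneg_right h6 b2
        _ ≤ _ := mul_le_mul_of_nonneg_left b1 (by positivity)
    calc rs r (ez (VD D) π' ρ x r W zh (h0 m Q ε)) l
        = (r ^ 2)⁻¹ * ez (VD D) π' ρ x r W zh (h0 m Q ε) (l + sh r) := rfl
      _ ≤ (r ^ 2)⁻¹ * (Real.exp (m * 10) * Real.exp (m * (-lm)) * (C1 * (G * I (-3 + sh r)))) :=
          mul_le_mul_of_nonneg_left h7 hr2.le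
      _ = (Real.exp (m * 10) * Real.exp (m * (-lm)) * C1 * G) * rs r I (-3) := by
          unfold rs; ring
      _ ≤ (Real.exp (m * 10) * Real.exp (m * (-lm)) * C1 * G) * (Dd * rs r I l) :=
          mul_le_mul_of_nonneg_left h3 (by positivity)
      _ = (Real.exp (m * 10) * Real.exp (m * (-lm)) * C1 * G * Dd) * rs r I l := by ring
      _ ≤ M * rs r I l := mul_le_mul_of_nonneg_right hM hpos.le
  have hulj := hUlj ε hε g2 U hUo D hD hst x r π' ρ u W (Ce * ε) zh hQx le_rfl heI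
    (hinp.small.trans (min_le_right _ _))
  refine ⟨rs r (Ez (VD D) π' ρ x r W zh (h0 m Q ε) Q), rs r I,
    rs r (ez (VD D) π' ρ x r W zh (h0 m Q ε)), rs r (bz (VD D) π' ρ x r W zh (h0 m Q ε) Q), R',
    fd_mono hFD hη₁0.le (by linarith) hη₁η le_rfl le_rfl, hNC, hulj.up, hulj.lo, ?_, ?_⟩
  · intro l hl α h0 h1
    refine (hulj.J l hl α h0 h1).trans ?_
    have h2 := hR' l hl
    gcongr
  · have h1 : Main_456.sep (VD D) π' ρ x r u 8 ≤ C1 * r ^ m * (G * I (-3 + sh r)) :=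
      hsep.trans (mul_le_mul_of_nonneg_left hdbl (by positivity))
    have h2 : 0 ≤ I (-3 + sh r) := hQx.Iz_nonneg _
    rw [div_le_iff₀ (by positivity)]
    refine h1.trans ?_
    have h3 : C1 * G ≤ C₁ := by
      have : 0 ≤ C1 * G := by positivity
      linarith
    calc C1 * r ^ m * (G * I (-3 + sh r)) = (C1 * G) * (I (-3 + sh r) * r ^ m) := by ring
      _ ≤ C₁ * (I (-3 + sh r) * r ^ m) := by gcongr
      _ = C₁ * rs r I (-3) * r ^ (m + 2) := by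
          unfold rs
          rw [pow_add]
          field_simp

end Crest.Agent.R234.Pin10_3
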