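import Crest.Agent.R234.Pin11_3
import Crest.Agent.R234.Main6_456

/-!
R234 (helper3), VF-PIN part 12: `CtrE` (the per-centre input of the pinching node, all large `K`)
from the five one-level Props `HtvP`, `SgP`, `F4P`, `TopP`, `UljP`; final form of S0362 / S0363.
-/

open MeasureTheory Set Metric Crest.GeometryTopology.Submanifold
open scoped RealInnerProductSpace ENNReal

namespace Crest.Agent.R234.Pin12_3

open Crest.Agent.R234.Pin8_3 Crest.Agent.R234.Pin10_3 Crest.Agent.R234.Pin11_3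
open Crest.Agent.R234.Main_456

/-- for all large `K`. -/
def EvK (P : ℕ → Prop) : Prop := ∃ K₁ : ℕ, ∀ K : ℕ, K₁ ≤ K → P K

theorem EvK.and {P R : ℕ → Prop} (h : EvK P) (h' : EvK R) : EvK fun K => P K ∧ R K := by
  obtain ⟨K₁, h⟩ := h
  obtain ⟨K₂, h'⟩ := h'
  exact ⟨max K₁ K₂, fun K hK => ⟨h K ((le_max_left _ _).trans hK), h' K ((le_max_right _ _).trans hK)⟩⟩

theorem EvK.mono {P R : ℕ → Prop} (h : EvK P) (hPR : ∀ K, P K → R K) : EvK R := by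
  obtain ⟨K₁, h⟩ := h
  exact ⟨K₁, fun K hK => hPR K (h K hK)⟩

theorem EvK.of_forall {P : ℕ → Prop} (h : ∀ K, P K) : EvK P := ⟨0, fun K _ => h K⟩

theorem EvK.ge (K₀ : ℕ) : EvK fun K => K₀ ≤ K := ⟨K₀, fun _ hK => hK⟩

/-- **`CtrE` from the five one-level inputs.** -/
theorem ctrE_of
    (hHtv : ∀ m n : ℕ, 3 ≤ m → 1 ≤ n → EvK (HtvP m n))
    (hSg : ∀ m n : ℕ, 3 ≤ m → 1 ≤ n → EvK (SgP m n))
    (hF4 : ∀ m n : ℕ, 3 ≤ m → 1 ≤ n → EvK (F4P m n))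
    (hTop : ∀ m n : ℕ, 3 ≤ m → 1 ≤ n → EvK (TopP m n))
    (hUlj : ∀ m n : ℕ, 3 ≤ m → 1 ≤ n → EvK (UljP m n)) : CtrE := by
  intro m n hm hn
  refine EvK.mono ((((((EvK.ge 3).and (hHtv m n hm hn)).and (hSg m n hm hn)).and
    (hF4 m n hm hn)).and (hTop m n hm hn)).and (hUlj m n hm hn)) ?_
  rintro K ⟨⟨⟨⟨⟨hK, h1⟩, h2⟩, h3⟩, h4⟩, h5⟩
  exact ctrK_of (by omega) hK (inpP_of h1 h2 h3 h4) h5

end Crest.Agent.R234.Pin12_3
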