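import Crest.Agent.R234.Pin3_3

/-!
R234 (helper3), VF-PIN part 4: one level. Pinching at the vertices of a fat simplex makes the heights
in `B_(r/2)(z0)` small compared with the heights in `B_(2M)(z0)`.
-/

open MeasureTheory Set Real
open scoped RealInnerProductSpace

namespace Crest.Agent.R234.Pin4_3

set_option linter.unusedSectionVars false

open Crest.Agent.R234.Pin1_3 Crest.Agent.R234.Pin2_3 Crest.Agent.R234.Pin3_3

variable {E W Ω : Type*} [NormedAddCommGroup E] [InnerProductSpace ℝ E] [FiniteDimensional ℝ E]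
  [MeasurableSpace E] [BorelSpace E]
  [NormedAddCommGroup W] [InnerProductSpace ℝ W] [FiniteDimensional ℝ W] [MeasurableSpace Ω]

/-- the vertices of the simplex -/
def ctr {m : ℕ} (z0 : E) (v : Fin m → E) : Option (Fin m) → E
  | none => z0
  | some i => z0 + v i

/-- barycentric coordinates from linear coordinates -/
def bco {m : ℕ} (z0 : E) (k : Fin m → E) : Option (Fin m) → E → ℝ
  | none => fun x => 1 - ∑ j, ⟪k j, x - z0⟫
  | some i => fun x => ⟪k i, x - z0⟫

/-- the dual system of a fat simplex -/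
theorem exists_dual {m : ℕ} (hm : Module.finrank ℝ E = m) {v : Fin m → E} {r Cf : ℝ} (hr : 0 < r)
    (hfat : ∀ (c : Fin m → ℝ) (i : Fin m), |c i| * r ≤ Cf * ‖∑ j, c j • v j‖) :
    ∃ k : Fin m → E, (∀ x, ∑ j, ⟪k j, x⟫ • v j = x) ∧ ∀ j, ‖k j‖ * r ≤ Cf := by
  have hli : LinearIndependent ℝ v := by
    rw [Fintype.linearIndependent_iff]
    intro c hc i
    have := hfat c i
    rw [hc, norm_zero, mul_zero] at this
    have h1 : |c i| ≤ 0 := by
      by_contra h
      push Not at h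
      have : 0 < |c i| * r := by positivity
      linarith
    exact abs_eq_zero.1 (le_antisymm h1 (abs_nonneg _))
  let b : Module.Basis (Fin m) ℝ E := basisOfLinearIndependentOfCardEqFinrank' v hli (by simp [hm])
  have hb : ∀ j, b j = v j := fun j => by simp [b]
  let k : Fin m → E := fun j =>
    (InnerProductSpace.toDual ℝ E).symm (LinearMap.toContinuousLinearMap (b.coord j))
  have hk : ∀ j x, ⟪k j, x⟫ = b.coord j x := fun j x => by
    simp [k]
  have hrep : ∀ x, ∑ j, ⟪k j, x⟫ • v j = x := by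
    intro x
    conv_rhs => rw [← b.sum_repr x]
    refine Finset.sum_congr rfl fun j _ => ?_
    rw [hk, hb, Module.Basis.coord_apply]
  refine ⟨k, hrep, fun j => ?_⟩
  have h1 := hfat (fun i => ⟪k i, k j⟫) j
  rw [hrep (k j), real_inner_self_eq_norm_sq, abs_of_nonneg (sq_nonneg _)] at h1
  rcases eq_or_lt_of_le (norm_nonneg (k j)) with h0 | h0
  · have h2 := hfat 0 j
    rw [← h0, zero_mul]
    by_contra hcon
    push Not at hcon
    have h3 := hfat (fun i => ⟪k i, v j⟫) j
    rw [hrep (v j)] at h3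
    have h4 : ⟪k j, v j⟫ = 1 := by
      rw [hk, ← hb j]
      simp
    rw [h4, abs_one, one_mul] at h3
    have : Cf * ‖v j‖ ≤ 0 := mul_nonpos_of_nonpos_of_nonneg hcon.le (norm_nonneg _)
    linarith
  · have h2 : ‖k j‖ * (‖k j‖ * r) ≤ ‖k j‖ * Cf := by
      calc ‖k j‖ * (‖k j‖ * r) = ‖k j‖ ^ 2 * r := by ring
        _ ≤ Cf * ‖k j‖ := h1
        _ = ‖k j‖ * Cf := mul_comm _ _
    exact le_of_mul_le_mul_left h2 h0

theorem bco_sum {m : ℕ} (z0 : E) (k : Fin m → E) (x : E) : ∑ o, bco z0 k o x = 1 := by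
  rw [Fintype.sum_option]
  simp [bco]

theorem bco_smul {m : ℕ} {z0 : E} {k v : Fin m → E} (h : ∀ x, ∑ j, ⟪k j, x⟫ • v j = x) (x : E) :
    ∑ o, bco z0 k o x • ctr z0 v o = x := by
  rw [Fintype.sum_option]
  simp only [bco, ctr, smul_add]
  rw [Finset.sum_add_distrib, ← Finset.sum_smul, h (x - z0), sub_smul, one_smul]
  abel

/-- the affine function with prescribed scalar values at the vertices -/
theorem bco_affine {m : ℕ} (z0 : E) (k : Fin m → E) (α : Option (Fin m) → ℝ) (x : E) :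
    ∑ o, bco z0 k o x * α o =
      α none + ⟪∑ j, (α (some j) - α none) • k j, x - z0⟫ := by
  rw [Fintype.sum_option, sum_inner]
  simp only [bco, inner_smul_left, RCLike.conj_to_real]
  have : ∑ j, (α (some j) - α none) * ⟪k j, x - z0⟫ =
      ∑ j, ⟪k j, x - z0⟫ * α (some j) - (∑ j, ⟪k j, x - z0⟫) * α none := by
    rw [Finset.sum_mul, ← Finset.sum_sub_distrib]
    exact Finset.sum_congr rfl fun j _ => by ring
  rw [this]
  ring

/-- the affine function with prescribed vector values at the vertices -/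
theorem bco_affine_vec {m : ℕ} (z0 : E) (k : Fin m → E) (w : Option (Fin m) → W) (x : E) :
    ∑ o, bco z0 k o x • w o =
      w none + (∑ j, (innerSL ℝ (k j)).smulRight (w (some j) - w none)) (x - z0) := by
  rw [Fintype.sum_option, sum_apply]
  simp only [bco, ContinuousLinearMap.smulRight_apply, innerSL_apply_apply, smul_sub]
  rw [Finset.sum_sub_distrib, ← Finset.sum_smul, sub_smul, one_smul]
  abel

variable {m : ℕ} {ν : Measure Ω} {X : Ω → E} {Y : Ω → W} {T : Ω → E →L[ℝ] W} {A : Set E}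
  {c : E → W} {F I e b R : E → ℝ → ℝ} {φ : ℝ → ℝ} {C η lm lt : ℝ}

/-- the constant in front of the barycentre error -/
noncomputable def K₃ (m : ℕ) (C Cf r : ℝ) : ℝ :=
  (2 * C + m * C * Cf / r) * (2 * C + 2 * m * C * Cf / r)

/-- **One level.** -/
theorem level (hm : Module.finrank ℝ E = m) (h : Data m ν X Y T A c F I e b R φ C η lm lt)
    (hC : 1 ≤ C) (hη : 0 ≤ η) (hη1 : η ≤ 1 / 16) {r M Cf ε κ Dt : ℝ} (hr : 0 < r)
    (hM : 20 * r ≤ M) (hlm : exp lm ≤ r / 2) (hlt : 2 * M ≤ exp lt) (hκ : 0 < κ)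
    (hκ1 : κ ≤ 1 / 4) (hCf : 0 ≤ Cf) (hε : 0 ≤ ε) {z0 : E} {v : Fin m → E}
    (hA : ∀ o, ctr z0 v o ∈ A) (hvn : ∀ i, ‖v i‖ ≤ 2 * r)
    (hfat : ∀ (c : Fin m → ℝ) (i : Fin m), |c i| * (2 * r) ≤ Cf * ‖∑ j, c j • v j‖)
    (hNN : ∀ z ∈ A, ∀ l ∈ Icc lm lt, NN (F z) (I z) l ≤ 2 * C)
    (hpin : ∀ o : Option (Fin m), ∃ t ∈ Icc (log (10 * r)) (log M),
      R (ctr z0 v o) t - 2 * NN (F (ctr z0 v o)) (I (ctr z0 v o)) t * e (ctr z0 v o) t +
        NN (F (ctr z0 v o)) (I (ctr z0 v o)) t ^ 2 * I (ctr z0 v o) t ≤ ε * I (ctr z0 v o) t)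
    (hDt0 : 0 ≤ Dt) (hDt : I z0 lt ≤ Dt * HH ν X Y z0 (2 * M)) :
    HH ν X Y z0 (r / 2) ≤
      ((κ ^ 2)⁻¹ * (((m:ℝ) + 1) ^ 2 * (1 + m * Cf) ^ 2 * ((C * ε + η) * (2 * C * (1 + C ^ 2))) +
        2 * (η * K₃ m C Cf r * √(C * Dt / M ^ m))) + C ^ 2 * (4 * κ + η)) *
          HH ν X Y z0 (2 * M) := by
  have := h.fin
  have hC0 : 0 < C := by linarith
  have hM0 : 0 < M := by linarith
  have hlm' : lm ≤ log (10 * r) := by
    rw [Real.le_log_iff_exp_le (by positivity)]; linarith
  have hlt' : log M ≤ lt := by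
    rw [Real.log_le_iff_le_exp hM0]; linarith
  have hz0 : z0 ∈ A := hA none
  obtain ⟨k, hk, hkn⟩ := exists_dual hm (v := v) (r := 2 * r) (by positivity) hfat
  set H := HH ν X Y z0 (2 * M) with hH
  have hH0 : 0 ≤ H := Data.HH_nonneg ν X Y z0 _
  choose t ht hpin using hpin
  have htI : ∀ o, t o ∈ Icc lm lt := fun o => ⟨hlm'.trans (ht o).1, (ht o).2.trans hlt'⟩
  set α : Option (Fin m) → ℝ := fun o => NN (F (ctr z0 v o)) (I (ctr z0 v o)) (t o) with hα
  have hαlow : ∀ o, 15 / 16 ≤ α o := fun o => by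
    have := (h.fd _ (hA o)).NN_low (htI o)
    simp only [hα]
    linarith
  have hαup : ∀ o, α o ≤ 2 * C := fun o => hNN _ (hA o) _ (htI o)
  have hdist : ∀ o, ‖ctr z0 v o - z0‖ ≤ 2 * r := by
    rintro (_ | i)
    · simp only [ctr, sub_self, norm_zero]; positivity
    · simp only [ctr, add_sub_cancel_left]; exact hvn i
  have hexp1 : ∀ o, 10 * r ≤ exp (t o) := fun o => by
    rw [← Real.log_le_iff_le_exp (by positivity)]; exact (ht o).1
  have hexp2 : ∀ o, exp (t o) ≤ M := fun o => by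
    rw [← Real.le_log_iff_exp_le hM0]; exact (ht o).2
  -- error integrals
  have hD : ∀ o, ∫ ω, φ (‖X ω - z0‖ ^ 2 / r ^ 2) *
      ‖er (T ω) (X ω) (ctr z0 v o) (Y ω) (c (ctr z0 v o)) (α o)‖ ^ 2 ∂ν ≤
      (C * ε + η) * (2 * C * (1 + C ^ 2)) * H := by
    intro o
    have hGc : Continuous fun p : E × W × (E →L[ℝ] W) =>
        ‖er p.2.2 p.1 (ctr z0 v o) p.2.1 (c (ctr z0 v o)) (α o)‖ ^ 2 := by
      unfold er; fun_prop
    have h1 := h.φ_int_le (z := z0) hr (G := fun p =>
      ‖er p.2.2 p.1 (ctr z0 v o) p.2.1 (c (ctr z0 v o)) (α o)‖ ^ 2) hGc fun _ => by positivity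
    have h2 : ∫ ω in BB X z0 r, ‖er (T ω) (X ω) (ctr z0 v o) (Y ω) (c (ctr z0 v o)) (α o)‖ ^ 2 ∂ν ≤
        ∫ ω in BB X (ctr z0 v o) (exp (t o) / 2),
          ‖er (T ω) (X ω) (ctr z0 v o) (Y ω) (c (ctr z0 v o)) (α o)‖ ^ 2 ∂ν := by
      refine setIntegral_mono_set (h.int hGc).integrableOn
        (Filter.Eventually.of_forall fun ω => by positivity) (Filter.Eventually.of_forall ?_)
      intro ω hω
      have h3 : ‖X ω - ctr z0 v o‖ ≤ ‖X ω - z0‖ + ‖ctr z0 v o - z0‖ := by
        have := norm_sub_le (X ω - z0) (ctr z0 v o - z0)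
        rwa [sub_sub_sub_cancel_right] at this
      have h4 : ‖X ω - z0‖ < r := hω
      have h5 := hdist o
      have h6 := hexp1 o
      change ‖X ω - ctr z0 v o‖ < exp (t o) / 2
      linarith
    have h3 := h.J _ (hA o) (t o) (htI o) (α o) (by linarith [hαlow o]) (hαup o)
    have hI := (h.fd _ (hA o)).pos (t o) (htI o)
    have h4 := h.I_le_HH hC0.le (hA o) (htI o)
    have h5 : HH ν X Y (ctr z0 v o) (exp (t o)) ≤ H := by
      refine h.HH_mono ?_
      have := hdist o
      have := hexp2 o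
      linarith
    calc _ ≤ _ := h1
      _ ≤ _ := h2
      _ ≤ _ := h3
      _ ≤ exp (t o) ^ m * (C * (ε * I (ctr z0 v o) (t o)) + η * I (ctr z0 v o) (t o)) := by
          have := hpin o
          simp only [hα]
          gcongr
      _ = (C * ε + η) * (exp (t o) ^ m * I (ctr z0 v o) (t o)) := by ring
      _ ≤ (C * ε + η) * (2 * C * (1 + C ^ 2) * H) := by
          refine mul_le_mul_of_nonneg_left (h4.trans ?_) (by positivity)
          exact mul_le_mul_of_nonneg_left h5 (by positivity)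
      _ = _ := by ring
  -- heights of the centres
  set cs := √(C * H / M ^ m) with hcs
  have hc : ∀ o, ‖c (ctr z0 v o)‖ ≤ cs := by
    intro o
    apply Real.le_sqrt_of_sq_le
    rw [le_div_iff₀ (by positivity)]
    have h1 := h.hgt _ (hA o) M (by linarith) (by linarith)
    refine h1.trans ?_
    gcongr
    refine h.HH_mono ?_
    have := hdist o
    linarith
  have hcs0 : 0 ≤ cs := Real.sqrt_nonneg _
  -- the affine functions
  set w : Option (Fin m) → W := fun o => α o • c (ctr z0 v o) with hw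
  have hwn : ∀ o, ‖w o‖ ≤ 2 * C * cs := by
    intro o
    simp only [hw]
    rw [norm_smul, Real.norm_eq_abs, abs_of_nonneg (by linarith [hαlow o])]
    exact mul_le_mul (hαup o) (hc o) (norm_nonneg _) (by positivity)
  set a1 : E := ∑ j, (α (some j) - α none) • k j with ha1
  set B : E →L[ℝ] W := ∑ j, (innerSL ℝ (k j)).smulRight (w (some j) - w none) with hB
  have hkn' : ∀ j, ‖k j‖ ≤ Cf / (2 * r) := fun j => by
    rw [le_div_iff₀ (by positivity)]; exact hkn j
  have ha1n : ‖a1‖ ≤ m * C * Cf / r := by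
    calc ‖a1‖ ≤ ∑ j, ‖(α (some j) - α none) • k j‖ := norm_sum_le _ _
      _ ≤ ∑ _j : Fin m, (2 * C) * (Cf / (2 * r)) := by
          refine Finset.sum_le_sum fun j _ => ?_
          rw [norm_smul]
          refine mul_le_mul ?_ (hkn' j) (norm_nonneg _) (by positivity)
          rw [Real.norm_eq_abs, abs_le]
          have := hαlow (some j)
          have := hαlow none
          have := hαup (some j)
          have := hαup none
          constructor <;> linarith
      _ = m * C * Cf / r := by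
          simp only [Finset.sum_const, Finset.card_univ, Fintype.card_fin, nsmul_eq_mul]
          field_simp
  have hBn : ‖B‖ ≤ 2 * m * C * Cf / r * cs := by
    calc ‖B‖ ≤ ∑ j, ‖(innerSL ℝ (k j)).smulRight (w (some j) - w none)‖ := norm_sum_le _ _
      _ ≤ ∑ _j : Fin m, (Cf / (2 * r)) * (4 * C * cs) := by
          refine Finset.sum_le_sum fun j _ => ?_
          rw [ContinuousLinearMap.norm_smulRight_apply, innerSL_apply_norm]
          refine mul_le_mul (hkn' j) ?_ (norm_nonneg _) (by positivity)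
          refine (norm_sub_le _ _).trans ?_
          have := hwn (some j)
          have := hwn none
          linarith
      _ = 2 * m * C * Cf / r * cs := by
          simp only [Finset.sum_const, Finset.card_univ, Fintype.card_fin, nsmul_eq_mul]
          field_simp
          ring
  have hafun : ∀ x, ∑ o, bco z0 k o x * α o = α none + ⟪a1, x - z0⟫ := fun x =>
    bco_affine z0 k α x
  have hbfun : ∀ x, ∑ o, (bco z0 k o x * α o) • c (ctr z0 v o) = w none + B (x - z0) := by
    intro x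
    rw [← bco_affine_vec z0 k w x]
    refine Finset.sum_congr rfl fun o _ => ?_
    simp only [hw, smul_smul]
  -- barycentre term
  have hD' : ∫ ω, φ (‖X ω - z0‖ ^ 2 / r ^ 2) * ((∑ o, bco z0 k o (X ω) * α o) *
      inner ℝ (∑ o, (bco z0 k o (X ω) * α o) • c (ctr z0 v o)) (Y ω)) ∂ν ≤
      η * K₃ m C Cf r * √(C * Dt / M ^ m) * H := by
    have h1 := h.bar z0 hz0 r (by linarith [exp_pos lm]) (by linarith) (α none) a1 (w none) B
    have h2 : ∫ ω, φ (‖X ω - z0‖ ^ 2 / r ^ 2) * ((∑ o, bco z0 k o (X ω) * α o) *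
        inner ℝ (∑ o, (bco z0 k o (X ω) * α o) • c (ctr z0 v o)) (Y ω)) ∂ν =
        ∫ ω, φ (‖X ω - z0‖ ^ 2 / r ^ 2) *
        ((α none + ⟪a1, X ω - z0⟫) * ⟪w none + B (X ω - z0), Y ω⟫) ∂ν := by
      refine integral_congr_ae (Filter.Eventually.of_forall fun ω => ?_)
      simp only
      rw [hafun, hbfun]
    rw [h2]
    refine (le_abs_self _).trans (h1.trans ?_)
    have h3 : |α none| + ‖a1‖ ≤ 2 * C + m * C * Cf / r := by
      rw [abs_of_nonneg (by linarith [hαlow none])]
      linarith [hαup none]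
    have h4 : ‖w none‖ + ‖B‖ ≤ (2 * C + 2 * m * C * Cf / r) * cs := by
      have := hwn none
      linarith
    have h5 : √(I z0 lt) ≤ √(Dt * H) := Real.sqrt_le_sqrt hDt
    have h6 : cs * √(Dt * H) = √(C * Dt / M ^ m) * H := by
      rw [hcs, ← Real.sqrt_mul (by positivity)]
      rw [show C * H / M ^ m * (Dt * H) = (C * Dt / M ^ m) * H ^ 2 by ring,
        Real.sqrt_mul (by positivity), Real.sqrt_sq hH0]
    calc η * (|α none| + ‖a1‖) * (‖w none‖ + ‖B‖) * √(I z0 lt)
        ≤ η * (2 * C + m * C * Cf / r) * ((2 * C + 2 * m * C * Cf / r) * cs) * √(Dt * H) := by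
          gcongr
      _ = η * K₃ m C Cf r * (cs * √(Dt * H)) := by unfold K₃; ring
      _ = η * K₃ m C Cf r * √(C * Dt / M ^ m) * H := by rw [h6]; ring
  -- the slab
  have hSmeas : MeasurableSet {ω | |∑ o, bco z0 k o (X ω) * α o| < κ} := by
    simp only [hafun]
    exact measurableSet_lt ((measurable_const.add (measurable_const.inner
      (h.mX.sub_const z0))).abs) measurable_const
  have hD'' : ∫ ω in {ω | |∑ o, bco z0 k o (X ω) * α o| < κ},
      φ (‖X ω - z0‖ ^ 2 / r ^ 2) * ‖Y ω‖ ^ 2 ∂ν ≤ C ^ 2 * (4 * κ + η) * H := by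
    set S : Set Ω := {ω | |∑ o, bco z0 k o (X ω) * α o| < κ} with hS
    have hsl : ν.real (S ∩ BB X z0 r) ≤ C * (4 * κ + η) * r ^ m := by
      by_cases hcase : ‖a1‖ * r ≤ 1 / 4
      · have hemp : S ∩ BB X z0 r = ∅ := by
          ext ω
          simp only [mem_inter_iff, mem_empty_iff_false, iff_false, not_and]
          intro hω hω2
          have h1 : |∑ o, bco z0 k o (X ω) * α o| < κ := hω
          rw [hafun] at h1
          have h2 : |⟪a1, X ω - z0⟫| ≤ 1 / 4 := by
            calc |⟪a1, X ω - z0⟫| ≤ ‖a1‖ * ‖X ω - z0‖ := abs_real_inner_le_norm _ _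
              _ ≤ ‖a1‖ * r := by
                  have : ‖X ω - z0‖ < r := hω2
                  gcongr
              _ ≤ 1 / 4 := hcase
          have h3 := (abs_lt.1 h1).2
          have h4 := (abs_le.1 h2).1
          have h5 := hαlow none
          linarith
        rw [hemp, measureReal_empty]
        positivity
      · push Not at hcase
        have ha0 : 0 < ‖a1‖ := by
          by_contra hcon
          have : ‖a1‖ * r ≤ 0 := mul_nonpos_of_nonpos_of_nonneg (not_lt.1 hcon) hr.le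
          linarith
        have h1 := h.slab z0 hz0 r (by linarith [exp_pos lm]) (by linarith) (‖a1‖⁻¹ • a1) (by
          rw [norm_smul, norm_inv, norm_norm, inv_mul_cancel₀ ha0.ne']) (-(α none / ‖a1‖)) (4 * κ)
          (by positivity)
        refine (measureReal_mono ?_).trans h1
        rintro ω ⟨hω, hω2⟩
        refine ⟨hω2, ?_⟩
        have h2 : |∑ o, bco z0 k o (X ω) * α o| < κ := hω
        rw [hafun] at h2
        rw [real_inner_smul_left]
        have h3 : ‖a1‖⁻¹ * ⟪a1, X ω - z0⟫ - -(α none / ‖a1‖) =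
            (α none + ⟪a1, X ω - z0⟫) / ‖a1‖ := by field_simp; ring
        rw [h3, abs_div, abs_of_pos ha0, div_le_iff₀ ha0]
        nlinarith
    have hsup := h.sup z0 hz0 r (by linarith [exp_pos lm]) (by linarith)
    have h2r : HH ν X Y z0 (2 * r) ≤ H := h.HH_mono (by rw [sub_self, norm_zero]; linarith)
    have hb : ∀ᵐ ω ∂ν.restrict S, φ (‖X ω - z0‖ ^ 2 / r ^ 2) * ‖Y ω‖ ^ 2 ≤
        (BB X z0 r).indicator (fun _ => C * H / r ^ m) ω := by
      filter_upwards [ae_restrict_of_ae hsup] with ω hω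
      by_cases hωB : ω ∈ BB X z0 r
      · rw [indicator_of_mem hωB, le_div_iff₀ (by positivity)]
        have h3 := hω hωB
        calc φ (‖X ω - z0‖ ^ 2 / r ^ 2) * ‖Y ω‖ ^ 2 * r ^ m ≤ 1 * ‖Y ω‖ ^ 2 * r ^ m := by
              gcongr
              exact h.φ1 _
          _ = ‖Y ω‖ ^ 2 * r ^ m := by ring
          _ ≤ C * HH ν X Y z0 (2 * r) := h3
          _ ≤ C * H := by gcongr
      · rw [indicator_of_notMem hωB, h.φ_eq_zero hr hωB, zero_mul]
    have hint : Integrable (fun ω => φ (‖X ω - z0‖ ^ 2 / r ^ 2) * ‖Y ω‖ ^ 2) ν :=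
      h.φint (G := fun p => ‖p.2.1‖ ^ 2) (by fun_prop)
    calc ∫ ω in S, φ (‖X ω - z0‖ ^ 2 / r ^ 2) * ‖Y ω‖ ^ 2 ∂ν
        ≤ ∫ ω in S, (BB X z0 r).indicator (fun _ => C * H / r ^ m) ω ∂ν :=
          integral_mono_ae hint.integrableOn
            ((integrable_const _).indicator (h.measurableSet_BB z0 r)).integrableOn hb
      _ = C * H / r ^ m * ν.real (S ∩ BB X z0 r) := by
          rw [integral_indicator (h.measurableSet_BB z0 r), Measure.restrict_restrict
            (h.measurableSet_BB z0 r), setIntegral_const, smul_eq_mul, inter_comm, mul_comm]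
      _ ≤ C * H / r ^ m * (C * (4 * κ + η) * r ^ m) := by gcongr
      _ = C ^ 2 * (4 * κ + η) * H := by field_simp
  -- conclusion
  have hfin := single Finset.univ ν (fun ω => φ (‖X ω - z0‖ ^ 2 / r ^ 2)) (fun ω => h.φ0 _) X Y T
    (ctr z0 v) (fun o => c (ctr z0 v o)) α (bco z0 k) (Λ := 1 + m * Cf) hκ (bco_sum z0 k)
    (bco_smul hk) ?_ ?_ ?_ ?_ hSmeas (fun o _ => hD o) hD' hD''
  · have h1 : HH ν X Y z0 (r / 2) ≤ ∫ ω, φ (‖X ω - z0‖ ^ 2 / r ^ 2) * ‖Y ω‖ ^ 2 ∂ν :=
      h.le_φ_int (z := z0) hr (G := fun p => ‖p.2.1‖ ^ 2) (by fun_prop) fun _ => by positivity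
    refine h1.trans (hfin.trans (le_of_eq ?_))
    simp only [Finset.card_univ, Fintype.card_option, Fintype.card_fin]
    push_cast
    ring
  · intro ω hω o _
    have hωB : ω ∈ BB X z0 r := by
      by_contra hcon
      exact hω (h.φ_eq_zero hr hcon)
    have h1 : ∀ j, |⟪k j, X ω - z0⟫| ≤ Cf := by
      intro j
      calc |⟪k j, X ω - z0⟫| ≤ ‖k j‖ * ‖X ω - z0‖ := abs_real_inner_le_norm _ _
        _ ≤ Cf / (2 * r) * r := by
            have : ‖X ω - z0‖ < r := hωB
            have := hkn' j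
            gcongr
        _ = Cf / 2 := by field_simp
        _ ≤ Cf := by linarith
    rcases o with _ | i
    · simp only [bco]
      calc |1 - ∑ j, ⟪k j, X ω - z0⟫| ≤ |1| + |∑ j, ⟪k j, X ω - z0⟫| := abs_sub _ _
        _ ≤ 1 + ∑ j, |⟪k j, X ω - z0⟫| := by
            rw [abs_one]
            gcongr
            exact Finset.abs_sum_le_sum_abs _ _
        _ ≤ 1 + ∑ _j : Fin m, Cf := by
            gcongr with j _
            exact h1 j
        _ = 1 + m * Cf := by simp
    · simp only [bco]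
      have h2 := h1 i
      have h3 : (1:ℝ) ≤ m := by
        have : 0 < m := lt_of_le_of_lt (Nat.zero_le _) i.2
        exact_mod_cast this
      nlinarith
  · intro o _
    exact h.φint (G := fun p => ‖er p.2.2 p.1 (ctr z0 v o) p.2.1 (c (ctr z0 v o)) (α o)‖ ^ 2)
      (by unfold er; fun_prop)
  · have : Continuous fun p : E × W × (E →L[ℝ] W) =>
        (α none + ⟪a1, p.1 - z0⟫) * ⟪w none + B (p.1 - z0), p.2.1⟫ := by fun_prop
    refine (h.φint (z := z0) (ρ := r) this).congr (Filter.Eventually.of_forall fun ω => ?_)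
    simp only
    rw [hafun, hbfun]
  · exact h.φint (G := fun p => ‖p.2.1‖ ^ 2) (by fun_prop)

end Crest.Agent.R234.Pin4_3
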