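import Mathlib
import Crest.Agent.R234.Sp1_643

/-!
# Content version of multiscale spanning with labels (VF-SPC)

Row 234.  `Pin j` = set of points which are pinched at the scale `δ ^ j`.  If a set `A` of diameter at most
one has `s`-content at least `c` (`s > k`) and every point of `A` is unpinched at at most `P` scales, then at
one of the first `K` scales the pinched points are not flat of dimension `k` (`K` depends on `s, c, P, δ`).
-/

open MeasureTheory Metric Set Filter Topology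
open scoped ENNReal NNReal
open Crest.Agent.R234.Sp1_643

namespace Crest.Agent.R234.Spc1_699

variable {E : Type*} [NormedAddCommGroup E] [InnerProductSpace ℝ E]

omit [InnerProductSpace ℝ E] in
theorem cov_union {S T : Set E} {N M ρ : ℝ} (h : Cov S N ρ) (h' : Cov T M ρ) :
    Cov (S ∪ T) (N + M) ρ := by
  classical
  obtain ⟨F, h1, h2, h3⟩ := h
  obtain ⟨G, g1, g2, g3⟩ := h'
  refine ⟨F ∪ G, ?_, ?_, ?_⟩
  · have : ((F ∪ G).card : ℝ) ≤ (F.card : ℝ) + G.card := by
      exact_mod_cast Finset.card_union_le F G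
    linarith
  · intro t ht
    rcases Finset.mem_union.1 ht with ht | ht
    · exact ⟨(h2 t ht).1.trans subset_union_left, (h2 t ht).2⟩
    · exact ⟨(g2 t ht).1.trans subset_union_right, (g2 t ht).2⟩
  · rintro y (hy | hy)
    · obtain ⟨t, ht, hyt⟩ := h3 y hy
      exact ⟨t, Finset.mem_union_left _ ht, hyt⟩
    · obtain ⟨t, ht, hyt⟩ := g3 y hy
      exact ⟨t, Finset.mem_union_right _ ht, hyt⟩

open Classical in
/-- number of scales `j ≤ i < j + n` at which `x` is unpinched -/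
noncomputable def bad (Pin : ℕ → Set E) (x : E) (j n : ℕ) : ℕ :=
  ((Finset.range n).filter fun i => x ∉ Pin (j + i)).card

omit [InnerProductSpace ℝ E] [NormedAddCommGroup E] in
open Classical in
theorem bad_succ (Pin : ℕ → Set E) (x : E) (j n : ℕ) :
    bad Pin x j (n + 1) = (if x ∉ Pin j then 1 else 0) + bad Pin x (j + 1) n := by
  unfold bad
  rw [Finset.card_filter, Finset.card_filter, Finset.sum_range_succ', add_comm]
  congr 1
  refine Finset.sum_congr rfl fun i _ => ?_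
  have : j + (i + 1) = j + 1 + i := by omega
  rw [this]

variable [FiniteDimensional ℝ E]

/-- the covering tree with labels -/
theorem tree_pin {k : ℕ} {A : Set E} {Pin : ℕ → Set E} {δ : ℝ} {K : ℕ} (hδ : 0 < δ) (hδ1 : δ ≤ 1)
    (hfl : ∀ j < K, ∀ x ∈ A, Flat k δ (A ∩ Pin j) x (δ ^ j)) :
    ∀ (n j g : ℕ) (S : Set E), j + n ≤ K → S ⊆ A → (∀ y ∈ S, ∀ z ∈ S, dist y z ≤ δ ^ j) →
      (∀ x ∈ S, bad Pin x j n ≤ g) →
      Cov S ((2 * (C0 (Module.finrank ℝ E) * (1 / δ) ^ k)) ^ n *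
        ((1 / δ) ^ (Module.finrank ℝ E)) ^ g) (δ ^ (j + n)) := by
  classical
  set d := Module.finrank ℝ E with hd
  have hb : 1 ≤ 1 / δ := by rw [le_div_iff₀ hδ]; linarith
  have hbd : 1 ≤ (1 / δ) ^ d := one_le_pow₀ hb
  have hC : 1 ≤ C0 d := one_le_C0 d
  intro n
  induction n with
  | zero =>
    intro j g S _ hSA hS _
    refine (cov_self hS).mono ?_ (by simp)
    simpa using one_le_pow₀ hbd
  | succ n ih =>
    intro j g S hjK hSA hS hg
    have hpos : 0 < δ ^ j := by positivity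
    set q : ℝ := C0 d * (1 / δ) ^ k with hq
    have hq0 : 0 < q := by positivity
    -- pinched part
    have c1 : Cov (S ∩ Pin j) (q * ((2 * q) ^ n * ((1 / δ) ^ d) ^ g)) (δ ^ (j + 1 + n)) := by
      rcases (S ∩ Pin j).eq_empty_or_nonempty with h0 | ⟨x, hx⟩
      · rw [h0]; exact cov_empty (by positivity)
      have h1 := step_flat (k := k) (A := A ∩ Pin j) (S := S ∩ Pin j) hpos hδ hδ1
        (fun y hy => ⟨hSA hy.1, hy.2⟩) hx (fun y hy z hz => hS y hy.1 z hz.1)
        (hfl j (by omega) x (hSA hx.1))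
      refine h1.comp (by positivity) ?_
      intro t ht htd
      refine ih (j + 1) g t (by omega) (fun y hy => hSA (ht hy).1) ?_ ?_
      · intro y hy z hz
        rw [pow_succ']
        exact htd y hy z hz
      · intro y hy
        have h2 := hg y (ht hy).1
        rw [bad_succ] at h2
        omega
    have c2 : Cov (S \ Pin j) (q * ((2 * q) ^ n * ((1 / δ) ^ d) ^ g)) (δ ^ (j + 1 + n)) := by
      rcases (S \ Pin j).eq_empty_or_nonempty with h0 | ⟨x, hx⟩
      · rw [h0]; exact cov_empty (by positivity)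
      obtain ⟨g', rfl⟩ : ∃ g', g = g' + 1 := by
        have h3 := hg x hx.1
        rw [bad_succ, if_pos hx.2] at h3
        exact ⟨g - 1, by omega⟩
      have h1 := step_all (k := k) (S := S \ Pin j) hpos hδ hδ1 (fun y hy z hz => hS y hy.1 z hz.1)
      have h2 := h1.comp (N' := (2 * q) ^ n * ((1 / δ) ^ d) ^ g')
        (ρ' := δ ^ (j + 1 + n)) (by positivity) (by
        intro t ht htd
        refine ih (j + 1) g' t (by omega) (fun y hy => hSA (ht hy).1) ?_ ?_
        · intro y hy z hz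
          rw [pow_succ']
          exact htd y hy z hz
        · intro y hy
          have h3 := hg y (ht hy).1
          rw [bad_succ, if_pos (ht hy).2] at h3
          omega)
      refine h2.mono (le_of_eq ?_) le_rfl
      rw [← hd, ← hq, pow_succ]; ring
    have h3 := cov_union c1 c2
    rw [inter_union_sdiff] at h3
    refine h3.mono (le_of_eq ?_) (le_of_eq ?_)
    · rw [pow_succ]; ring
    · congr 1; omega

/-- every countable covering has `∑ diam ^ s ≥ c` -/
def ContentGe (s c : ℝ) (A : Set E) : Prop :=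
  ∀ t : ℕ → Set E, A ⊆ ⋃ i, t i → ENNReal.ofReal c ≤ ∑' i, ediam (t i) ^ s

omit [InnerProductSpace ℝ E] [FiniteDimensional ℝ E] in
theorem ContentGe.of_cov {s c : ℝ} {A : Set E} (hs : 0 < s) (h : ContentGe s c A) {N ρ : ℝ}
    (hN : 0 ≤ N) (hρ : 0 ≤ ρ) (hc : Cov A N ρ) : c ≤ N * ρ ^ s := by
  classical
  obtain ⟨T, h1, h2, h3⟩ := hc
  let e := T.equivFin
  let t : ℕ → Set E := fun i => if hi : i < T.card then (e.symm ⟨i, hi⟩ : Set E) else ∅
  have hA : A ⊆ ⋃ i, t i := by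
    intro x hx
    obtain ⟨u, hu, hxu⟩ := h3 x hx
    refine mem_iUnion.2 ⟨(e ⟨u, hu⟩ : ℕ), ?_⟩
    have hlt : (e ⟨u, hu⟩ : ℕ) < T.card := (e ⟨u, hu⟩).2
    simp only [t, dif_pos hlt, Fin.eta, Equiv.symm_apply_apply]
    exact hxu
  have h4 := h t hA
  have h5 : ∑' i, ediam (t i) ^ s ≤ ENNReal.ofReal (N * ρ ^ s) := by
    have h6 : ∀ i ∉ Finset.range T.card, ediam (t i) ^ s = 0 := by
      intro i hi
      have : ¬ i < T.card := by simpa using hi
      simp only [t, dif_neg this, ediam_empty]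
      exact ENNReal.zero_rpow_of_pos hs
    rw [tsum_eq_sum h6]
    calc ∑ i ∈ Finset.range T.card, ediam (t i) ^ s
        ≤ ∑ _i ∈ Finset.range T.card, ENNReal.ofReal (ρ ^ s) := by
          refine Finset.sum_le_sum fun i hi => ?_
          have hlt : i < T.card := by simpa using hi
          simp only [t, dif_pos hlt]
          rw [← ENNReal.ofReal_rpow_of_nonneg hρ hs.le]
          refine ENNReal.rpow_le_rpow ?_ hs.le
          exact ediam_le_of_forall_dist_le ((h2 _ (e.symm ⟨i, hlt⟩).2).2)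
      _ = (T.card : ℝ≥0∞) * ENNReal.ofReal (ρ ^ s) := by simp
      _ = ENNReal.ofReal ((T.card : ℝ) * ρ ^ s) := by
          rw [ENNReal.ofReal_mul (by positivity)]; simp
      _ ≤ ENNReal.ofReal (N * ρ ^ s) :=
          ENNReal.ofReal_le_ofReal (mul_le_mul_of_nonneg_right h1 (Real.rpow_nonneg hρ _))
  have h6 := h4.trans h5
  exact (ENNReal.ofReal_le_ofReal_iff (by positivity)).1 h6

/-- **Content version of multiscale spanning with labels.** -/
theorem exists_unflat {k : ℕ} {s : ℝ} (hks : (k : ℝ) < s) :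
    ∃ δ0 > 0, δ0 ≤ 1 / 2 ∧ ∀ δ, 0 < δ → δ ≤ δ0 → ∀ c > 0, ∀ P : ℕ, ∃ K : ℕ,
      ∀ (A : Set E) (Pin : ℕ → Set E), (∀ y ∈ A, ∀ z ∈ A, dist y z ≤ 1) → ContentGe s c A →
        (∀ x ∈ A, bad Pin x 0 K ≤ P) →
        ∃ j < K, ∃ x ∈ A, ¬ Flat k δ (A ∩ Pin j) x (δ ^ j) := by
  set d := Module.finrank ℝ E with hd
  have hCp : 0 < C0 d := lt_of_lt_of_le one_pos (one_le_C0 d)
  have he : 0 < s - k := by linarith
  have hs : 0 < s := lt_of_le_of_lt (by positivity) hks
  refine ⟨min (1 / 2) ((1 / (4 * C0 d)) ^ (1 / (s - k))), ?_, min_le_left _ _, ?_⟩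
  · exact lt_min (by norm_num) (Real.rpow_pos_of_pos (by positivity) _)
  intro δ hδ hδ0 c hc P
  have h1 : δ ≤ 1 / 2 := hδ0.trans (min_le_left _ _)
  have h2 : δ ≤ (1 / (4 * C0 d)) ^ (1 / (s - k)) := hδ0.trans (min_le_right _ _)
  have h3 : δ ^ (s - k) ≤ 1 / (4 * C0 d) := by
    calc δ ^ (s - k) ≤ ((1 / (4 * C0 d)) ^ (1 / (s - k))) ^ (s - k) := by
          gcongr
      _ = 1 / (4 * C0 d) := by
          rw [← Real.rpow_mul (by positivity), one_div_mul_cancel he.ne', Real.rpow_one]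
  have h4 : 2 * (C0 d * (1 / δ) ^ k) * δ ^ s ≤ 1 / 2 := by
    have e1 : (1 / δ) ^ k * δ ^ s = δ ^ (s - k) := by
      rw [Real.rpow_sub hδ, Real.rpow_natCast, one_div, inv_pow]
      field_simp
    calc 2 * (C0 d * (1 / δ) ^ k) * δ ^ s = 2 * C0 d * ((1 / δ) ^ k * δ ^ s) := by ring
      _ = 2 * C0 d * δ ^ (s - k) := by rw [e1]
      _ ≤ 2 * C0 d * (1 / (4 * C0 d)) := by gcongr
      _ = 1 / 2 := by field_simp; norm_num
  have hM : 0 < ((1 / δ) ^ d) ^ P := by positivity
  obtain ⟨K, hK⟩ : ∃ K : ℕ, (1 / 2 : ℝ) ^ K < c / ((1 / δ) ^ d) ^ P :=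
    exists_pow_lt_of_lt_one (by positivity) (by norm_num)
  refine ⟨K, fun A Pin hA hcon hbad => ?_⟩
  by_contra hne
  push Not at hne
  have h5 := tree_pin (k := k) (A := A) (Pin := Pin) (K := K) hδ (by linarith)
    (fun j hj x hx => hne j hj x hx) K 0 P A (by omega) le_rfl (by simpa using hA) hbad
  rw [zero_add, ← hd] at h5
  have h6 := hcon.of_cov hs (by positivity) (by positivity) h5
  have e3 : (δ ^ K) ^ s = (δ ^ s) ^ K := by
    rw [← Real.rpow_natCast, ← Real.rpow_natCast, ← Real.rpow_mul hδ.le, ← Real.rpow_mul hδ.le,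
      mul_comm]
  have h7 : (2 * (C0 d * (1 / δ) ^ k)) ^ K * ((1 / δ) ^ d) ^ P * (δ ^ K) ^ s
      ≤ (1 / 2) ^ K * ((1 / δ) ^ d) ^ P := by
    calc (2 * (C0 d * (1 / δ) ^ k)) ^ K * ((1 / δ) ^ d) ^ P * (δ ^ K) ^ s
        = (2 * (C0 d * (1 / δ) ^ k) * δ ^ s) ^ K * ((1 / δ) ^ d) ^ P := by
          rw [e3, mul_pow (2 * (C0 d * (1 / δ) ^ k)) (δ ^ s)]; ring
      _ ≤ (1 / 2) ^ K * ((1 / δ) ^ d) ^ P := by gcongr
  have h8 : (1 / 2 : ℝ) ^ K * ((1 / δ) ^ d) ^ P < c := by
    rwa [lt_div_iff₀ hM] at hK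
  linarith

end Crest.Agent.R234.Spc1_699
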