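import Crest.Agent.R234.Pin4_3
import Crest.Agent.R234.Spc1_699

/-!
R234 (helper3), VF-PIN part 5: the abstract pinching theorem.
-/

open MeasureTheory Set Real
open scoped RealInnerProductSpace

namespace Crest.Agent.R234.Pin5_3

set_option linter.unusedSectionVars false

open Crest.Agent.R234.Pin1_3 Crest.Agent.R234.Pin2_3 Crest.Agent.R234.Pin3_3
open Crest.Agent.R234.Pin4_3 Crest.Agent.R234.Spc1_699 Crest.Agent.R234.Sp1_643

variable {E W Ω : Type*} [NormedAddCommGroup E] [InnerProductSpace ℝ E] [FiniteDimensional ℝ E]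
  [MeasurableSpace E] [BorelSpace E]
  [NormedAddCommGroup W] [InnerProductSpace ℝ W] [FiniteDimensional ℝ W] [MeasurableSpace Ω]

variable {m : ℕ} {ν : Measure Ω} {X : Ω → E} {Y : Ω → W} {T : Ω → E →L[ℝ] W} {A : Set E}
  {c : E → W} {F I e b R : E → ℝ → ℝ} {φ : ℝ → ℝ} {C η lm lt : ℝ}

/-- doubling constant of `I` over a logarithmic length `L` -/
noncomputable def DD (C L : ℝ) : ℝ := exp (4 * C + (6 * C + 6) * L)

theorem I_dbl (h : Data m ν X Y T A c F I e b R φ C η lm lt) (hη : 0 ≤ η)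
    (hη1 : η ≤ 1 / 16) (hNN : ∀ z ∈ A, ∀ l ∈ Icc lm lt, NN (F z) (I z) l ≤ 2 * C)
    (hsm : 72 * η * (1 + (2 * C) ^ 2) ≤ 1) {z : E} (hz : z ∈ A) {l l' : ℝ}
    (hl : l ∈ Icc lm lt) (hl' : l' ∈ Icc lm lt) (hll : l ≤ l') : I z l' ≤ DD C (l' - l) * I z l := by
  have := (h.fd z hz).I_doubling hη hη1 (hNN z hz) hsm hl hl' hll
  unfold DD
  refine this.trans (le_of_eq ?_)
  congr 2
  ring

/-- doubling of the heights between the radii `r/2` and `2 M` -/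
theorem HH_dbl (h : Data m ν X Y T A c F I e b R φ C η lm lt) (hC : 1 ≤ C) (hη : 0 ≤ η)
    (hη1 : η ≤ 1 / 16) (hNN : ∀ z ∈ A, ∀ l ∈ Icc lm lt, NN (F z) (I z) l ≤ 2 * C)
    (hsm : 72 * η * (1 + (2 * C) ^ 2) ≤ 1) {r M : ℝ} (hr : 0 < r) (hM : 20 * r ≤ M)
    (hlm : exp lm ≤ r / 2) (hlt : 4 * M ≤ exp lt)
    (hsm2 : 4 * η ^ 2 * DD C (lt - lm) * (C * 2 ^ m) ≤ exp lm ^ m * exp lm ^ m)
    {z : E} (hz : z ∈ A) :
    HH ν X Y z (2 * M) ≤ 4 * 4 ^ m * C ^ 2 * (2 * C + 1) * (8 * M / r) ^ m *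
      DD C (log (8 * M / r)) * (2 * C * (1 + C ^ 2)) * HH ν X Y z (r / 2) := by
  have hM0 : 0 < M := by linarith
  have e1 : exp (log (4 * M)) = 4 * M := exp_log (by positivity)
  have e2 : exp (log (r / 2)) = r / 2 := exp_log (by positivity)
  have h1 : log (4 * M) ∈ Icc lm lt := by
    constructor
    · rw [Real.le_log_iff_exp_le (by positivity)]; linarith
    · rw [Real.log_le_iff_le_exp (by positivity)]; linarith
  have h2 : log (r / 2) ∈ Icc lm lt := by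
    constructor
    · rw [Real.le_log_iff_exp_le (by positivity)]; linarith
    · rw [Real.log_le_iff_le_exp (by positivity)]; linarith
  have h12 : log (r / 2) ≤ log (4 * M) := Real.log_le_log (by positivity) (by linarith)
  have hlt' : lt ∈ Icc lm lt := ⟨h1.1.trans h1.2, le_rfl⟩
  have hI := (h.fd z hz).pos _ h1
  have hDpos : ∀ L, 0 < DD C L := fun L => by unfold DD; positivity
  have hD1 : I z lt ≤ DD C (lt - lm) * I z (log (4 * M)) := by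
    refine (I_dbl h hη hη1 hNN hsm hz h1 hlt' h1.2).trans ?_
    apply mul_le_mul_of_nonneg_right _ hI.le
    unfold DD
    apply exp_le_exp.2
    have := h1.1
    have : (6 * C + 6) * (lt - log (4 * M)) ≤ (6 * C + 6) * (lt - lm) := by
      apply mul_le_mul_of_nonneg_left _ (by linarith)
      linarith
    linarith
  have h3 := h.HH_le_I hC hη hz h1 (by rw [e1]; linarith) hD1 (by
    refine hsm2.trans ?_
    rw [e1]
    have := exp_pos lm
    gcongr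
    · linarith
    · linarith)
  rw [e1] at h3
  have e3 : 4 * M / 2 = 2 * M := by ring
  rw [e3] at h3
  have h4 := I_dbl h hη hη1 hNN hsm hz h2 h1 h12
  have e4 : log (4 * M) - log (r / 2) = log (8 * M / r) := by
    rw [← Real.log_div (by positivity) (by positivity)]
    congr 1
    field_simp
    ring
  rw [e4] at h4
  have h5 := h.I_le_HH (by linarith) hz h2
  rw [e2] at h5
  have h6 : (4 * M) ^ m * I z (log (4 * M)) ≤
      (8 * M / r) ^ m * DD C (log (8 * M / r)) * (2 * C * (1 + C ^ 2) * HH ν X Y z (r / 2)) := by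
    calc (4 * M) ^ m * I z (log (4 * M))
        ≤ (4 * M) ^ m * (DD C (log (8 * M / r)) * I z (log (r / 2))) := by gcongr
      _ = (8 * M / r) ^ m * DD C (log (8 * M / r)) * ((r / 2) ^ m * I z (log (r / 2))) := by
          have : (4 * M) ^ m = (8 * M / r) ^ m * (r / 2) ^ m := by
            rw [← mul_pow]; congr 1; field_simp; ring
          rw [this]; ring
      _ ≤ _ := by
          have := hDpos (log (8 * M / r))
          gcongr
  calc HH ν X Y z (2 * M)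
      ≤ 4 * 4 ^ m * C ^ 2 * (2 * C + 1) * ((4 * M) ^ m * I z (log (4 * M))) := h3
    _ ≤ 4 * 4 ^ m * C ^ 2 * (2 * C + 1) * ((8 * M / r) ^ m * DD C (log (8 * M / r)) *
          (2 * C * (1 + C ^ 2) * HH ν X Y z (r / 2))) := by
        have : 0 ≤ 2 * C + 1 := by linarith
        gcongr
    _ = _ := by ring

/-- pinched centres at level `j`: `N(10 δ^j / δ) - N(10 δ^j) ≤ κ` -/
def PinSet (F I : E → ℝ → ℝ) (δ κ : ℝ) (j : ℕ) : Set E :=
  {z | NN (F z) (I z) (log (10 * δ ^ j / δ)) - NN (F z) (I z) (log (10 * δ ^ (j + 1) / δ)) ≤ κ}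

/-- the number of unpinned levels -/
theorem bad_le (h : Data m ν X Y T A c F I e b R φ C η lm lt) (hη : 0 ≤ η)
    (hη1 : η ≤ 1 / 16) (hNN : ∀ z ∈ A, ∀ l ∈ Icc lm lt, NN (F z) (I z) l ≤ 2 * C)
    {δ κ : ℝ} (hδ : 0 < δ) (hδ1 : δ < 1) {K : ℕ}
    (hlm : exp lm ≤ 10 * δ ^ K / δ) (hlt : 10 / δ ≤ exp lt)
    (hsm : K * (36 * η * (1 + (2 * C) ^ 2) * log (1 / δ)) ≤ 1) {z : E} (hz : z ∈ A) :
    (bad (PinSet F I δ κ) z 0 K : ℝ) * κ ≤ 2 * C + 1 := by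
  classical
  set g : ℕ → ℝ := fun j => NN (F z) (I z) (log (10 * δ ^ j / δ)) with hg
  have hrange : ∀ j ≤ K, log (10 * δ ^ j / δ) ∈ Icc lm lt := by
    intro j hj
    constructor
    · rw [Real.le_log_iff_exp_le (by positivity)]
      refine hlm.trans ?_
      gcongr ?_ / δ
      gcongr 10 * ?_
      exact pow_le_pow_of_le_one hδ.le hδ1.le hj
    · rw [Real.log_le_iff_le_exp (by positivity)]
      refine le_trans ?_ hlt
      gcongr
      have : δ ^ j ≤ 1 := pow_le_one₀ hδ.le hδ1.le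
      linarith
  have hstep : ∀ j < K, g (j + 1) ≤ g j + 36 * η * (1 + (2 * C) ^ 2) * log (1 / δ) := by
    intro j hj
    have h1 := hrange j hj.le
    have h2 := hrange (j + 1) hj
    have h3 : log (10 * δ ^ (j + 1) / δ) ≤ log (10 * δ ^ j / δ) := by
      apply Real.log_le_log (by positivity)
      gcongr ?_ / δ
      gcongr 10 * ?_
      exact pow_le_pow_of_le_one hδ.le hδ1.le (Nat.le_succ j)
    have h4 := (h.fd z hz).NN_mono hη hη1 (hNN z hz) h2 h1 h3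
    refine h4.trans (le_of_eq ?_)
    congr 1
    congr 1
    rw [← Real.log_div (by positivity) (by positivity)]
    congr 1
    field_simp
    ring
  have hsum : ∑ j ∈ Finset.range K, (g j - g (j + 1)) = g 0 - g K := Finset.sum_range_sub' g K
  have h1 : ∀ j ∈ Finset.range K, (if z ∉ PinSet F I δ κ (0 + j) then κ else 0) ≤
      (g j - g (j + 1)) + 36 * η * (1 + (2 * C) ^ 2) * log (1 / δ) := by
    intro j hj
    have hj' := Finset.mem_range.1 hj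
    have h2 := hstep j hj'
    have h0 : 0 ≤ 36 * η * (1 + (2 * C) ^ 2) * log (1 / δ) := by
      have : 0 ≤ log (1 / δ) := Real.log_nonneg (by rw [le_div_iff₀ hδ]; linarith)
      positivity
    by_cases hp : z ∈ PinSet F I δ κ (0 + j)
    · rw [if_neg (not_not.2 hp)]
      linarith
    · rw [if_pos hp]
      rw [zero_add] at hp
      have h3 : κ < g j - g (j + 1) := not_le.1 hp
      linarith
  have h2 := Finset.sum_le_sum h1
  rw [Finset.sum_add_distrib, hsum, Finset.sum_const, Finset.card_range, nsmul_eq_mul,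
    ← Finset.sum_filter, Finset.sum_const, nsmul_eq_mul] at h2
  have h3 : (bad (PinSet F I δ κ) z 0 K : ℝ) * κ ≤
      g 0 - g K + K * (36 * η * (1 + (2 * C) ^ 2) * log (1 / δ)) := h2
  have h4 : g 0 ≤ 2 * C := hNN z hz _ (hrange 0 (Nat.zero_le _))
  have h5 : 0 ≤ g K := by
    have := (h.fd z hz).NN_low (hrange K le_rfl)
    simp only [hg]
    linarith
  linarith

theorem flat_of_flat {k : ℕ} {δ : ℝ} {A : Set E} {x x' : E} {r : ℝ}
    (hx : dist x' x ≤ r) (h : Flat k (δ / 2) A x' (2 * r)) : Flat k δ A x r := by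
  obtain ⟨V, h1, h2⟩ := h
  refine ⟨V, h1, fun y hy => ?_⟩
  have h4 : y ∈ Metric.closedBall x' (2 * r) := by
    rw [Metric.mem_closedBall]
    have h3 : dist y x ≤ r := hy.2
    have := dist_triangle y x x'
    rw [dist_comm x x'] at this
    linarith
  obtain ⟨w, hw, hyw⟩ := h2 y ⟨hy.1, h4⟩
  exact ⟨w, hw, hyw.trans (le_of_eq (by ring))⟩

theorem flat_of_empty {k : ℕ} {δ : ℝ} {A : Set E} {x : E} {r : ℝ}
    (h : ∀ y ∈ A, r < dist y x) : Flat k δ A x r := by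
  refine ⟨AffineSubspace.mk' x ⊥, ?_, fun y hy => ?_⟩
  · rw [AffineSubspace.direction_mk', finrank_bot]
    exact Nat.zero_le _
  · exact absurd (h y hy.1) (not_lt.2 hy.2)

theorem exists_fat' (hm1 : 1 ≤ m) {δ r : ℝ} {A : Set E} {x : E} (hδ : 0 < δ) (hr : 0 < r)
    (hx : x ∈ A) (h : ¬ Flat (m - 1) δ A x r) :
    ∃ v : Fin m → E, (∀ i, x + v i ∈ A ∧ ‖v i‖ ≤ r) ∧
      ∀ (c : Fin m → ℝ) (i : Fin m), |c i| * r ≤ Sp3_643.Cf (m - 1) δ * ‖∑ j, c j • v j‖ := by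
  obtain ⟨v, hv, hf⟩ := Sp3_643.exists_fat hδ hr hx h
  let e : Fin m ≃ Fin (m - 1 + 1) := finCongr (by omega)
  refine ⟨fun i => v (e i), fun i => hv (e i), fun c i => ?_⟩
  have h1 := hf (fun j => c (e.symm j)) (e i)
  rw [Equiv.symm_apply_apply] at h1
  rw [← Equiv.sum_comp e] at h1
  simpa only [Equiv.symm_apply_apply] using h1

/-- the doubling constant between `r/2` and `2M` -/
noncomputable def C6 (m : ℕ) (C δ : ℝ) : ℝ := 4 * 4 ^ m * C ^ 2 * (2 * C + 1) * (80 / δ) ^ m *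
      DD C (log (80 / δ)) * (2 * C * (1 + C ^ 2))

noncomputable def B1 (m : ℕ) (C Cf κ : ℝ) : ℝ := (κ ^ 2)⁻¹ * (((m:ℝ) + 1) ^ 2 * (1 + m * Cf) ^ 2 *
      (C * (2 * C * (1 + C ^ 2))))

noncomputable def Dtt (m : ℕ) (C L ρ : ℝ) : ℝ := DD C L * (2 * C * (1 + C ^ 2)) / ρ ^ m

noncomputable def B2 (m : ℕ) (C Cf κ L ρ : ℝ) : ℝ := (κ ^ 2)⁻¹ * (((m:ℝ) + 1) ^ 2 *
      (1 + m * Cf) ^ 2 * (2 * C * (1 + C ^ 2)) +
        2 * (K₃ m C Cf ρ * √(C * Dtt m C L ρ / ρ ^ m))) + C ^ 2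

theorem DD_pos (C L : ℝ) : 0 < DD C L := by unfold DD; positivity

theorem C6_pos {m : ℕ} {C δ : ℝ} (hC : 1 ≤ C) (hδ : 0 < δ) : 0 < C6 m C δ := by
  unfold C6
  have := DD_pos C (log (80 / δ))
  have : 0 < C := by linarith
  positivity

/-- one pinched level at which the centres are not flat is contradictory -/
theorem level_false (hmE : Module.finrank ℝ E = m) (h : Data m ν X Y T A c F I e b R φ C η lm lt)
    (hC : 1 ≤ C) (hη0 : 0 < η) (hη16 : η ≤ 1 / 16) {δ r ρ Cf κ ε : ℝ} (hδ : 0 < δ)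
    (hδ2 : δ ≤ 1 / 2) (hρ : 0 < ρ) (hρr : ρ ≤ r) (hr1 : r ≤ 1) (hexplm : exp lm = ρ / 8)
    (hexplt : exp lt = 40 / δ) (hCf : 1 ≤ Cf) (hκ0 : 0 < κ) (hκ1 : κ ≤ 1 / 4)
    (hκ2 : C ^ 2 * (4 * κ) * C6 m C δ ≤ 1 / 8) (hε0 : 0 < ε)
    (hε1 : B1 m C Cf κ * ε * C6 m C δ ≤ 1 / 8)
    (hsm3 : 72 * η * (1 + (2 * C) ^ 2) ≤ 1) (c4 : η * (164 * (1 + (2 * C) ^ 2)) ≤ ε)
    (c6 : 4 * η * DD C (lt - lm) * (C * 2 ^ m) ≤ exp lm ^ m * exp lm ^ m)
    (c7 : η * B2 m C Cf κ (lt - lm) ρ * C6 m C δ ≤ 1 / 8)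
    (hNN : ∀ z ∈ A, ∀ l ∈ Icc lm lt, NN (F z) (I z) l ≤ 2 * C) {z0 : E} {v : Fin m → E}
    (hA : ∀ o, ctr z0 v o ∈ A) (hvn : ∀ i, ‖v i‖ ≤ 2 * r)
    (hfat : ∀ (c : Fin m → ℝ) (i : Fin m), |c i| * (2 * r) ≤ Cf * ‖∑ j, c j • v j‖)
    (hP : ∀ o, NN (F (ctr z0 v o)) (I (ctr z0 v o)) (log (10 * r / δ)) -
        NN (F (ctr z0 v o)) (I (ctr z0 v o)) (log (10 * r)) ≤ ε / 5 * log (1 / δ)) : False := by
  have hC0 : 0 < C := by linarith
  have hr0 : 0 < r := by linarith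
  have hlog0 : 0 < log (1 / δ) := Real.log_pos (by rw [lt_div_iff₀ hδ]; linarith)
  obtain ⟨M, hM⟩ : ∃ M, M = 10 * r / δ := ⟨_, rfl⟩
  rw [← hM] at hP
  have hM0 : 0 < M := by rw [hM]; positivity
  have h20 : 20 * r ≤ M := by
    rw [hM, le_div_iff₀ hδ]
    nlinarith only [hr0, hδ2, hδ]
  have hδKr : ρ / 8 ≤ r / 2 := by linarith only [hρr, hρ]
  have h4M : 4 * M ≤ 40 / δ := by
    rw [hM]
    have : 40 / δ = 4 * (10 * 1 / δ) := by ring
    rw [this]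
    gcongr
  have hl1 : log (10 * r) ∈ Icc lm lt := by
    constructor
    · rw [Real.le_log_iff_exp_le (by positivity), hexplm]
      linarith only [hδKr, hr0]
    · rw [Real.log_le_iff_le_exp (by positivity), hexplt]
      linarith only [h20, h4M, hr0]
  have hl2 : log M ∈ Icc lm lt := by
    constructor
    · rw [Real.le_log_iff_exp_le hM0, hexplm]
      linarith only [hδKr, h20, hr0]
    · rw [Real.log_le_iff_le_exp hM0, hexplt]
      linarith only [h4M, hM0]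
  have hlmlt : lm ≤ lt := hl2.1.trans hl2.2
  have hΔ' : log M - log (10 * r) = log (1 / δ) := by
    rw [← Real.log_div (by positivity) (by positivity), hM]
    congr 1
    field_simp
  have hll : log (10 * r) < log M := by linarith only [hΔ', hlog0]
  have hpin : ∀ o : Option (Fin m), ∃ t ∈ Icc (log (10 * r)) (log M),
      R (ctr z0 v o) t - 2 * NN (F (ctr z0 v o)) (I (ctr z0 v o)) t * e (ctr z0 v o) t +
        NN (F (ctr z0 v o)) (I (ctr z0 v o)) t ^ 2 * I (ctr z0 v o) t ≤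
          ε * I (ctr z0 v o) t := by
    intro o
    obtain ⟨t, ht, h2⟩ := (h.fd _ (hA o)).exists_pinched hη0.le hη16 (hNN _ (hA o)) hl1 hl2
      hll (δ := ε / 5) (by rw [hΔ']; exact hP o)
    refine ⟨t, Ioo_subset_Icc_self ht, h2.trans ?_⟩
    have hI := (h.fd _ (hA o)).pos t ⟨hl1.1.trans ht.1.le, ht.2.le.trans hl2.2⟩
    apply mul_le_mul_of_nonneg_right _ hI.le
    linarith only [c4]
  have hDtH : I z0 lt ≤ Dtt m C (lt - lm) ρ * HH ν X Y z0 (2 * M) := by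
    have h1 := I_dbl h hη0.le hη16 hNN hsm3 (hA none) hl2 ⟨hlmlt, le_rfl⟩ hl2.2
    have h2 := h.I_le_HH hC0.le (hA none) hl2
    rw [exp_log hM0] at h2
    have h3 : HH ν X Y z0 M ≤ HH ν X Y z0 (2 * M) :=
      h.HH_mono (by rw [sub_self, norm_zero]; linarith only [hM0])
    have hI := (h.fd _ (hA none)).pos _ hl2
    have h4 : DD C (lt - log M) ≤ DD C (lt - lm) := by
      unfold DD
      apply exp_le_exp.2
      have h5 : lt - log M ≤ lt - lm := by linarith only [hl2.1]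
      have : (6 * C + 6) * (lt - log M) ≤ (6 * C + 6) * (lt - lm) :=
        mul_le_mul_of_nonneg_left h5 (by linarith only [hC0])
      linarith only [this]
    have h5 : ρ ^ m ≤ M ^ m := pow_le_pow_left₀ hρ.le (by linarith only [hρr, h20, hr0]) m
    have h6 : I z0 (log M) * ρ ^ m ≤ 2 * C * (1 + C ^ 2) * HH ν X Y z0 (2 * M) := by
      calc I z0 (log M) * ρ ^ m ≤ I z0 (log M) * M ^ m :=
            mul_le_mul_of_nonneg_left h5 hI.le
        _ = M ^ m * I z0 (log M) := mul_comm _ _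
        _ ≤ 2 * C * (1 + C ^ 2) * HH ν X Y z0 M := h2
        _ ≤ _ := mul_le_mul_of_nonneg_left h3 (by positivity)
    have hDp := DD_pos C (lt - lm)
    have h7 : I z0 lt ≤ DD C (lt - lm) * I z0 (log M) :=
      h1.trans (mul_le_mul_of_nonneg_right h4 hI.le)
    unfold Dtt
    rw [div_mul_eq_mul_div, le_div_iff₀ (by positivity)]
    calc I z0 lt * ρ ^ m ≤ (DD C (lt - lm) * I z0 (log M)) * ρ ^ m :=
          mul_le_mul_of_nonneg_right h7 (by positivity)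
      _ = DD C (lt - lm) * (I z0 (log M) * ρ ^ m) := by ring
      _ ≤ DD C (lt - lm) * (2 * C * (1 + C ^ 2) * HH ν X Y z0 (2 * M)) :=
          mul_le_mul_of_nonneg_left h6 hDp.le
      _ = _ := by ring
  have hDt0 : 0 ≤ Dtt m C (lt - lm) ρ := by
    unfold Dtt
    have := DD_pos C (lt - lm)
    positivity
  have hlev := level hmE h hC hη0.le hη16 hr0 h20 (by rw [hexplm]; exact hδKr)
    (by rw [hexplt]; linarith only [h4M, hM0]) hκ0 hκ1 (by linarith only [hCf] : 0 ≤ Cf) hε0.le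
    hA hvn hfat hNN hpin hDt0 hDtH
  have hdbl := HH_dbl h hC hη0.le hη16 hNN hsm3 hr0 h20 (by rw [hexplm]; exact hδKr)
    (by rw [hexplt]; exact h4M) (by
      have hη2 : η ^ 2 ≤ η := by nlinarith only [hη0, hη16]
      refine le_trans ?_ c6
      have := DD_pos C (lt - lm)
      gcongr) (hA none)
  have e8 : 8 * M / r = 80 / δ := by rw [hM]; field_simp; norm_num
  rw [e8] at hdbl
  change HH ν X Y z0 (2 * M) ≤ C6 m C δ * HH ν X Y z0 (r / 2) at hdbl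
  have hC6 := C6_pos (m := m) hC hδ
  set H := HH ν X Y z0 (2 * M) with hH
  have hH0 : 0 ≤ H := Data.HH_nonneg ν X Y z0 _
  -- the constant of `level`
  have hK : K₃ m C Cf r ≤ K₃ m C Cf ρ := by
    unfold K₃
    gcongr
  have hK0 : 0 ≤ K₃ m C Cf r := by unfold K₃; positivity
  have hsq : √(C * Dtt m C (lt - lm) ρ / M ^ m) ≤ √(C * Dtt m C (lt - lm) ρ / ρ ^ m) := by
    apply Real.sqrt_le_sqrt
    have h5 : ρ ^ m ≤ M ^ m := pow_le_pow_left₀ hρ.le (by linarith only [hρr, h20, hr0]) m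
    gcongr
  obtain ⟨S1, hS1⟩ : ∃ S, S = √(C * Dtt m C (lt - lm) ρ / M ^ m) := ⟨_, rfl⟩
  obtain ⟨S2, hS2⟩ : ∃ S, S = √(C * Dtt m C (lt - lm) ρ / ρ ^ m) := ⟨_, rfl⟩
  have hS1' : 0 ≤ S1 := by rw [hS1]; exact Real.sqrt_nonneg _
  have hκi : 0 ≤ (κ ^ 2)⁻¹ := by positivity
  have hΘ : ((κ ^ 2)⁻¹ * (((m:ℝ) + 1) ^ 2 * (1 + m * Cf) ^ 2 * ((C * ε + η) *
      (2 * C * (1 + C ^ 2))) + 2 * (η * K₃ m C Cf r * √(C * Dtt m C (lt - lm) ρ / M ^ m))) +
        C ^ 2 * (4 * κ + η)) ≤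
      B1 m C Cf κ * ε + η * B2 m C Cf κ (lt - lm) ρ + C ^ 2 * (4 * κ) := by
    unfold B1 B2
    rw [← hS1, ← hS2]
    rw [← hS1, ← hS2] at hsq
    have h1 : K₃ m C Cf r * S1 ≤ K₃ m C Cf ρ * S2 :=
      mul_le_mul hK hsq hS1' (hK0.trans hK)
    have h2 : (κ ^ 2)⁻¹ * (2 * (η * (K₃ m C Cf r * S1))) ≤
        (κ ^ 2)⁻¹ * (2 * (η * (K₃ m C Cf ρ * S2))) := by gcongr
    linarith only [h2]
  have h1 : HH ν X Y z0 (r / 2) ≤ (B1 m C Cf κ * ε + η * B2 m C Cf κ (lt - lm) ρ +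
      C ^ 2 * (4 * κ)) * H := hlev.trans (mul_le_mul_of_nonneg_right hΘ hH0)
  have h2 : H ≤ (3 / 8) * H := by
    calc H ≤ C6 m C δ * HH ν X Y z0 (r / 2) := hdbl
      _ ≤ C6 m C δ * ((B1 m C Cf κ * ε + η * B2 m C Cf κ (lt - lm) ρ +
            C ^ 2 * (4 * κ)) * H) := mul_le_mul_of_nonneg_left h1 hC6.le
      _ = (B1 m C Cf κ * ε * C6 m C δ + η * B2 m C Cf κ (lt - lm) ρ * C6 m C δ +
            C ^ 2 * (4 * κ) * C6 m C δ) * H := by ring
      _ ≤ (3 / 8) * H := by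
          apply mul_le_mul_of_nonneg_right _ hH0
          linarith only [hκ2, hε1, c7]
  have h3 : H ≤ 0 := by linarith only [h2, hH0]
  have hI := (h.fd _ (hA none)).pos _ hl2
  have h4 := h.I_le_HH hC0.le (hA none) hl2
  rw [exp_log hM0] at h4
  have h5 : HH ν X Y z0 M ≤ H :=
    h.HH_mono (by rw [sub_self, norm_zero]; linarith only [hM0])
  have h6 : 2 * C * (1 + C ^ 2) * HH ν X Y z0 M ≤ 0 := by
    refine mul_nonpos_of_nonneg_of_nonpos (by positivity) (h5.trans h3)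
  have h7 : 0 < M ^ m * I z0 (log M) := mul_pos (by positivity) hI
  exact absurd (h4.trans h6) (not_le.2 h7)

/-- 699's `exists_unflat` with the content replaced by coverings by sets of one diameter. -/
theorem exists_unflat_cov {k : ℕ} {s : ℝ} (hks : (k : ℝ) < s) :
    ∃ δ > 0, δ ≤ 1 / 2 ∧ ∀ c > 0, ∀ P : ℕ, ∃ K : ℕ,
      ∀ (A : Set E) (Pin : ℕ → Set E), (∀ y ∈ A, ∀ z ∈ A, dist y z ≤ 1) →
        (∀ N : ℝ, 0 ≤ N → Cov A N (δ ^ K) → c ≤ N * (δ ^ K) ^ s) →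
        (∀ x ∈ A, bad Pin x 0 K ≤ P) →
        ∃ j < K, ∃ x ∈ A, ¬ Flat k δ (A ∩ Pin j) x (δ ^ j) := by
  set d := Module.finrank ℝ E with hd
  have hCp : 0 < C0 d := lt_of_lt_of_le one_pos (one_le_C0 d)
  have he : 0 < s - k := by linarith
  have hs : 0 < s := lt_of_le_of_lt (by positivity) hks
  obtain ⟨δ, hδd⟩ : ∃ δ, δ = min (1 / 2) ((1 / (4 * C0 d)) ^ (1 / (s - k))) := ⟨_, rfl⟩
  have hδ : 0 < δ := by
    rw [hδd]; exact lt_min (by norm_num) (Real.rpow_pos_of_pos (by positivity) _)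
  refine ⟨δ, hδ, by rw [hδd]; exact min_le_left _ _, ?_⟩
  intro c hc P
  have h1 : δ ≤ 1 / 2 := by rw [hδd]; exact min_le_left _ _
  have h2 : δ ≤ (1 / (4 * C0 d)) ^ (1 / (s - k)) := by rw [hδd]; exact min_le_right _ _
  have h3 : δ ^ (s - k) ≤ 1 / (4 * C0 d) := by
    calc δ ^ (s - k) ≤ ((1 / (4 * C0 d)) ^ (1 / (s - k))) ^ (s - k) :=
          Real.rpow_le_rpow hδ.le h2 he.le
      _ = 1 / (4 * C0 d) := by
          rw [← Real.rpow_mul (by positivity), one_div_mul_cancel he.ne', Real.rpow_one]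
  have h4 : 2 * (C0 d * (1 / δ) ^ k) * δ ^ s ≤ 1 / 2 := by
    have e1 : (1 / δ) ^ k * δ ^ s = δ ^ (s - k) := by
      rw [Real.rpow_sub hδ, Real.rpow_natCast, one_div, inv_pow]
      field_simp
    calc 2 * (C0 d * (1 / δ) ^ k) * δ ^ s = 2 * C0 d * ((1 / δ) ^ k * δ ^ s) := by ring
      _ = 2 * C0 d * δ ^ (s - k) := by rw [e1]
      _ ≤ 2 * C0 d * (1 / (4 * C0 d)) := by gcongr
      _ = 1 / 2 := by field_simp; norm_num
  have hM : 0 < ((1 / δ) ^ d) ^ P := by positivity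
  obtain ⟨K, hK⟩ : ∃ K : ℕ, (1 / 2 : ℝ) ^ K < c / ((1 / δ) ^ d) ^ P :=
    exists_pow_lt_of_lt_one (by positivity) (by norm_num)
  refine ⟨K, fun A Pin hA hcon hbad => ?_⟩
  by_contra hne
  push Not at hne
  have h5 := tree_pin (k := k) (A := A) (Pin := Pin) (K := K) hδ (by linarith)
    (fun j hj x hx => hne j hj x hx) K 0 P A (by omega) le_rfl (by simpa using hA) hbad
  rw [zero_add, ← hd] at h5
  have h6 := hcon _ (by positivity) h5
  have e3 : (δ ^ K) ^ s = (δ ^ s) ^ K := by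
    rw [← Real.rpow_natCast, ← Real.rpow_natCast, ← Real.rpow_mul hδ.le, ← Real.rpow_mul hδ.le,
      mul_comm]
  have h7 : (2 * (C0 d * (1 / δ) ^ k)) ^ K * ((1 / δ) ^ d) ^ P * (δ ^ K) ^ s
      ≤ (1 / 2) ^ K * ((1 / δ) ^ d) ^ P := by
    calc (2 * (C0 d * (1 / δ) ^ k)) ^ K * ((1 / δ) ^ d) ^ P * (δ ^ K) ^ s
        = (2 * (C0 d * (1 / δ) ^ k) * δ ^ s) ^ K * ((1 / δ) ^ d) ^ P := by
          rw [e3, mul_pow (2 * (C0 d * (1 / δ) ^ k)) (δ ^ s)]; ring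
      _ ≤ (1 / 2) ^ K * ((1 / δ) ^ d) ^ P := by gcongr
  have h8 : (1 / 2 : ℝ) ^ K * ((1 / δ) ^ d) ^ P < c := by
    rwa [lt_div_iff₀ hM] at hK
  linarith

/-- **The abstract pinching theorem**: the data are contradictory when the set of centres is not
covered by few sets of diameter `ρ₀` (`s > m - 1`). -/
theorem pin_false (hmE : Module.finrank ℝ E = m) {s : ℝ} (hs : ((m - 1 : ℕ) : ℝ) < s)
    (hm1 : 1 ≤ m) :
    ∃ Lt : ℝ, 0 < Lt ∧ ∀ c₀ : ℝ, 0 < c₀ → ∀ C : ℝ, 1 ≤ C → ∃ lm < Lt, ∃ ρ₀ : ℝ, 0 < ρ₀ ∧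
      ∃ η : ℝ, 0 < η ∧
      ∀ (Ω : Type) [MeasurableSpace Ω] (ν : Measure Ω) (X : Ω → E) (Y : Ω → W)
        (T : Ω → E →L[ℝ] W) (A : Set E) (c : E → W) (F I e b R : E → ℝ → ℝ) (φ : ℝ → ℝ),
        (∀ y ∈ A, ∀ z ∈ A, dist y z ≤ 1) →
        (∀ N : ℝ, 0 ≤ N → Cov A N ρ₀ → c₀ ≤ N * ρ₀ ^ s) →
        ¬ Data m ν X Y T A c F I e b R φ C η lm Lt := by
  obtain ⟨δ, hδ, hδ2, Hun⟩ := exists_unflat_cov (E := E) hs
  have hδ1 : δ < 1 := by linarith
  obtain ⟨Δ, hΔ⟩ : ∃ Δ, Δ = log (1 / δ) := ⟨_, rfl⟩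
  have hΔ0 : 0 < Δ := by
    rw [hΔ]; exact Real.log_pos (by rw [lt_div_iff₀ hδ]; linarith)
  refine ⟨log (40 / δ), Real.log_pos (by rw [lt_div_iff₀ hδ]; linarith),
    fun c₀ hc₀ C hC => ?_⟩
  have hC0 : 0 < C := by linarith
  obtain ⟨Cf', hCf'⟩ : ∃ Cf', Cf' = Sp3_643.Cf (m - 1) (δ / 2) := ⟨_, rfl⟩
  have hCf1 : 1 ≤ Cf' := by rw [hCf']; exact Sp3_643.one_le_Cf (by positivity)
  have hC6pos := C6_pos (m := m) hC hδ
  -- `κ`
  obtain ⟨κ, hκ⟩ : ∃ κ, κ = min (1 / 4) (1 / (32 * C ^ 2 * C6 m C δ)) := ⟨_, rfl⟩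
  have hκ0 : 0 < κ := by rw [hκ]; exact lt_min (by norm_num) (by positivity)
  have hκ1 : κ ≤ 1 / 4 := by rw [hκ]; exact min_le_left _ _
  have hκ2 : C ^ 2 * (4 * κ) * C6 m C δ ≤ 1 / 8 := by
    have h1 : κ ≤ 1 / (32 * C ^ 2 * C6 m C δ) := by rw [hκ]; exact min_le_right _ _
    rw [le_div_iff₀ (by positivity)] at h1
    linarith
  -- `ε`
  have hB1pos : 0 < B1 m C Cf' κ * C6 m C δ := by unfold B1; positivity
  obtain ⟨ε, hε⟩ : ∃ ε, ε = 1 / (8 * (B1 m C Cf' κ * C6 m C δ)) := ⟨_, rfl⟩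
  have hε0 : 0 < ε := by rw [hε]; positivity
  have hε1 : B1 m C Cf' κ * ε * C6 m C δ ≤ 1 / 8 := by
    apply le_of_eq
    rw [hε]
    obtain ⟨B, hB⟩ : ∃ B, B = B1 m C Cf' κ := ⟨_, rfl⟩
    obtain ⟨C', hC'⟩ : ∃ C', C' = C6 m C δ := ⟨_, rfl⟩
    rw [← hB, ← hC'] at hB1pos ⊢
    have hB0 : B ≠ 0 := by rintro rfl; simp at hB1pos
    have hC0 : C' ≠ 0 := by rintro rfl; simp at hB1pos
    field_simp
  -- `P`, `K`, `lm`
  obtain ⟨P, hP⟩ := exists_nat_ge ((2 * C + 1) / (ε / 5 * Δ))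
  obtain ⟨K, HK⟩ := Hun c₀ hc₀ P
  have hρ : 0 < δ ^ K := by positivity
  obtain ⟨lm, hlmd⟩ : ∃ lm, lm = log (δ ^ K / 8) := ⟨_, rfl⟩
  have hexplm : exp lm = δ ^ K / 8 := by rw [hlmd]; exact exp_log (by positivity)
  have hexplt : exp (log (40 / δ)) = 40 / δ := exp_log (by positivity)
  have hδK : δ ^ K ≤ 1 := pow_le_one₀ hδ.le hδ1.le
  have hone : 1 ≤ 1 / δ := by rw [le_div_iff₀ hδ]; linarith
  have hlmlt : lm < log (40 / δ) := by
    rw [hlmd]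
    apply Real.log_lt_log (by positivity)
    have : 40 / δ = 40 * (1 / δ) := by ring
    linarith
  obtain ⟨lt, hlt⟩ : ∃ lt, lt = log (40 / δ) := ⟨_, rfl⟩
  rw [← hlt] at hexplt hlmlt ⊢
  have hL0 : 0 < lt - lm := by linarith
  have hK₃ : 0 ≤ K₃ m C Cf' (δ ^ K) := by unfold K₃; positivity
  have hB2pos : 0 ≤ B2 m C Cf' κ (lt - lm) (δ ^ K) * C6 m C δ := by unfold B2; positivity
  -- `η`
  have hDL := DD_pos C (lt - lm)
  have hexp0 := exp_pos lm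
  obtain ⟨t1, ht1⟩ : ∃ t, t = 160 * C * (lt - lm) := ⟨_, rfl⟩
  obtain ⟨t2, ht2⟩ : ∃ t, t = 72 * (1 + (2 * C) ^ 2) := ⟨_, rfl⟩
  obtain ⟨t3, ht3⟩ : ∃ t, t = 164 * (1 + (2 * C) ^ 2) / ε := ⟨_, rfl⟩
  obtain ⟨t4, ht4⟩ : ∃ t : ℝ, t = K * (36 * (1 + (2 * C) ^ 2) * Δ) := ⟨_, rfl⟩
  obtain ⟨t5, ht5⟩ : ∃ t, t = 4 * DD C (lt - lm) * (C * 2 ^ m) / (exp lm ^ m * exp lm ^ m) :=
    ⟨_, rfl⟩
  obtain ⟨t6, ht6⟩ : ∃ t, t = 8 * (B2 m C Cf' κ (lt - lm) (δ ^ K) * C6 m C δ) := ⟨_, rfl⟩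
  have t1n : 0 ≤ t1 := by rw [ht1]; positivity
  have t2n : 0 ≤ t2 := by rw [ht2]; positivity
  have t3n : 0 ≤ t3 := by rw [ht3]; positivity
  have t4n : 0 ≤ t4 := by rw [ht4]; positivity
  have t5n : 0 ≤ t5 := by rw [ht5]; positivity
  have t6n : 0 ≤ t6 := by rw [ht6]; positivity
  obtain ⟨S, hS⟩ : ∃ S : ℝ, S = 16 + t1 + t2 + t3 + t4 + t5 + t6 := ⟨_, rfl⟩
  have hSpos : 0 < S := by linarith only [hS, t1n, t2n, t3n, t4n, t5n, t6n]
  obtain ⟨η, hη⟩ : ∃ η, η = 1 / S := ⟨_, rfl⟩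
  have hη0 : 0 < η := by rw [hη]; positivity
  have hηS : ∀ t, t ≤ S → η * t ≤ 1 := fun t ht => by
    rw [hη, one_div, inv_mul_le_iff₀ hSpos, mul_one]; exact ht
  have hη16 : η ≤ 1 / 16 := by
    have := hηS 16 (by linarith only [hS, t1n, t2n, t3n, t4n, t5n, t6n])
    linarith only [this]
  have c2 := hηS t1 (by linarith only [hS, t1n, t2n, t3n, t4n, t5n, t6n])
  have c3 := hηS t2 (by linarith only [hS, t1n, t2n, t3n, t4n, t5n, t6n])
  have c4 := hηS t3 (by linarith only [hS, t1n, t2n, t3n, t4n, t5n, t6n])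
  have c5 := hηS t4 (by linarith only [hS, t1n, t2n, t3n, t4n, t5n, t6n])
  have c6 := hηS t5 (by linarith only [hS, t1n, t2n, t3n, t4n, t5n, t6n])
  have c7 := hηS t6 (by linarith only [hS, t1n, t2n, t3n, t4n, t5n, t6n])
  rw [ht1] at c2
  rw [ht2] at c3
  rw [ht3, ← mul_div_assoc, div_le_one hε0] at c4
  rw [ht4] at c5
  rw [ht5, ← mul_div_assoc, div_le_one (by positivity)] at c6
  rw [ht6] at c7
  clear ht1 ht2 ht3 ht4 ht5 ht6 t1n t2n t3n t4n t5n t6n hS hηS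
  refine ⟨lm, hlmlt, δ ^ K, hρ, η, hη0, ?_⟩
  intro Ω _ ν X Y T A c F I e b R φ hdiam hcont h
  have hNN : ∀ z ∈ A, ∀ l ∈ Icc lm lt, NN (F z) (I z) l ≤ 2 * C := fun z hz l hl =>
    h.NN_le hC hη0.le hη16 hlmlt.le (by linarith only [c2]) hz hl
  -- the number of unpinned levels
  have hbad : ∀ z ∈ A, bad (PinSet F I δ (ε / 5 * Δ)) z 0 K ≤ P := by
    intro z hz
    have h1 := bad_le h hη0.le hη16 hNN hδ hδ1 (κ := ε / 5 * Δ) (K := K) (by
      rw [hexplm, div_le_div_iff₀ (by norm_num) hδ]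
      nlinarith only [hρ, hδ, hδ2]) (by
      rw [hexplt]
      gcongr
      norm_num) (by
      rw [← hΔ]
      linarith only [c5]) hz
    have h2 : (bad (PinSet F I δ (ε / 5 * Δ)) z 0 K : ℝ) ≤ P := by
      refine le_trans ?_ hP
      rw [le_div_iff₀ (by positivity)]
      exact h1
    exact_mod_cast h2
  obtain ⟨j, hj, x, hxA, hnf⟩ := HK A (PinSet F I δ (ε / 5 * Δ)) hdiam hcont hbad
  have hr0 : 0 < δ ^ j := by positivity
  have hrK : δ ^ K ≤ δ ^ j := pow_le_pow_of_le_one hδ.le hδ1.le hj.le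
  have hr1 : δ ^ j ≤ 1 := pow_le_one₀ hδ.le hδ1.le
  -- a pinched centre in the ball
  obtain ⟨z0, ⟨hz0A, hz0P⟩, hz0x⟩ : ∃ z0 ∈ A ∩ PinSet F I δ (ε / 5 * Δ) j,
      dist z0 x ≤ δ ^ j := by
    by_contra hcon
    push Not at hcon
    exact hnf (flat_of_empty hcon)
  have hnf' : ¬ Flat (m - 1) (δ / 2) (A ∩ PinSet F I δ (ε / 5 * Δ) j) z0 (2 * δ ^ j) :=
    fun hf => hnf (flat_of_flat hz0x hf)
  obtain ⟨v, hv, hfat⟩ := exists_fat' (A := A ∩ PinSet F I δ (ε / 5 * Δ) j) hm1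
    (by positivity : (0:ℝ) < δ / 2) (by positivity : 0 < 2 * δ ^ j) ⟨hz0A, hz0P⟩ hnf'
  rw [← hCf'] at hfat
  have hAP : ∀ o, ctr z0 v o ∈ A ∩ PinSet F I δ (ε / 5 * Δ) j := by
    rintro (_ | i)
    · exact ⟨hz0A, hz0P⟩
    · exact (hv i).1
  have e10 : 10 * δ ^ (j + 1) / δ = 10 * δ ^ j := by
    rw [pow_succ]; field_simp
  refine level_false hmE h hC hη0 hη16 hδ hδ2 hρ hrK hr1 hexplm hexplt hCf1 hκ0 hκ1 hκ2 hε0 hε1
    (by linarith only [c3]) c4 (by linarith only [c6]) (by linarith only [c7]) hNN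
    (fun o => (hAP o).1) (fun i => (hv i).2) hfat fun o => ?_
  have h1 := (hAP o).2
  simp only [PinSet, mem_ofPred_eq, e10] at h1
  rw [← hΔ]
  exact h1

end Crest.Agent.R234.Pin5_3
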