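import Crest.Agent.R234.Pin5_3
import Crest.Agent.R234.Main2_456

/-!
R234 (helper3), VF-PIN part 6: rescaling of the abstract data; the literal input `PinData`
(435: all fields of `Data` but `fd`, `top`; 534: `fd`, `top`).
-/

open MeasureTheory Set Metric
open scoped RealInnerProductSpace ENNReal

namespace Crest.Agent.R234.Pin6_3

set_option linter.unusedSectionVars false
set_option linter.unusedVariables false

open Crest.Agent.R234.Pin1_3 Crest.Agent.R234.Pin2_3 Crest.Agent.R234.Pin3_3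
open Crest.GeometryTopology.Submanifold Crest.Agent.R234.Vf_884
open Crest.Agent.R234.Main_456

/-- the V-level instance of the data of the pinching theorem, for fixed `m, n, K`. -/
def PinDataK (m n K : ℕ) : Prop :=
  ∀ (Q : ℕ) (C : ℝ), 2 ≤ Q → ∃ C' : ℝ, 1 ≤ C' ∧
    ∀ (lm η : ℝ), lm < -3 → 0 < η → ∃ ε : ℝ, 0 < ε ∧
      ∀ (U : Set (Euc (m + n))), IsOpen U → ∀ D : VarifoldData m (m + n),
        IsIntegralVarifoldIn U D → IsStationaryIn U D → ∀ (x : Euc (m + n)) (r : ℝ), 0 < r →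
        Metric.closedBall x (128 * r) ⊆ U → Th m (VD D) x = (Q : ℝ≥0∞) →
        ∀ (π : Euc (m + n) →L[ℝ] Euc m) (ρ : Euc (m + n) →L[ℝ] Euc n) (u : Euc m → Euc n),
          Ref (VD D) Q x r π ρ u K ε C →
          (∀ z ∈ closedBall x r, ∀ z' ∈ closedBall x r, (Q : ℝ≥0∞) ≤ Th m (VD D) z →
            (Q : ℝ≥0∞) ≤ Th m (VD D) z' → ‖ρ (z - z')‖ ≤ η * r) ∧
          ∀ (A : Set (Euc m)) (zh : Euc m → Euc (m + n)),
            (∀ a ∈ A, zh a ∈ closedBall x r ∧ (Q : ℝ≥0∞) ≤ Th m (VD D) (zh a) ∧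
              r⁻¹ • π (zh a - x) = a) →
            ∃ (Ω : Type) (_ : MeasurableSpace Ω) (ν : Measure Ω) (X : Ω → Euc m) (Y : Ω → Euc n)
              (T : Ω → Euc m →L[ℝ] Euc n) (c : Euc m → Euc n) (F I e b R : Euc m → ℝ → ℝ)
              (φ : ℝ → ℝ), Data m ν X Y T A c F I e b R φ C' η lm (-3)

/-- the V-level instance of the data of the pinching theorem, for all large `K`. -/
def PinData : Prop :=
  ∀ (m n : ℕ), 3 ≤ m → 1 ≤ n → ∃ K₁ : ℕ, ∀ K : ℕ, K₁ ≤ K → PinDataK m n K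

theorem fd_mono {E I e b R : ℝ → ℝ} {η η' l₀ l₁ l₀' l₁' : ℝ} (h : FD E I e b R η l₀ l₁)
    (hη : 0 ≤ η) (hη1 : η ≤ 1 / 2) (hηη : η ≤ η') (h0 : l₀ ≤ l₀') (h1 : l₁' ≤ l₁) :
    FD E I e b R η' l₀' l₁' := by
  have hs : ∀ {l}, l ∈ Icc l₀' l₁' → l ∈ Icc l₀ l₁ := fun hl => ⟨h0.trans hl.1, hl.2.trans h1⟩
  have hE : ∀ {l}, l ∈ Icc l₀ l₁ → 0 ≤ E l := by
    intro l hl
    have h2 := h.low l hl
    have h3 := h.pos l hl
    have : 0 ≤ (1 - η) * I l := by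
      apply mul_nonneg (by linarith) h3.le
    linarith
  have key : ∀ {l}, l ∈ Icc l₀ l₁ → η * (E l + |b l| + I l) ≤ η' * (E l + |b l| + I l) := by
    intro l hl
    apply mul_le_mul_of_nonneg_right hηη
    have := hE hl; have := h.pos l hl; positivity
  refine ⟨fun l hl => h.pos l (hs hl), fun l hl => ?_, fun l hl => ?_, fun l hl => h.eE l (hs hl),
    fun l hl => ?_, fun l hl => ?_, fun l hl => ?_⟩
  · obtain ⟨ε, h1, h2⟩ := h.dE l (hs hl)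
    exact ⟨ε, h1.trans (key (hs hl)), h2⟩
  · obtain ⟨ε, h1, h2⟩ := h.dI l (hs hl)
    exact ⟨ε, h1.trans (key (hs hl)), h2⟩
  · obtain ⟨ε, h1, h2⟩ := h.cs l (hs hl)
    exact ⟨ε, h1.trans (key (hs hl)), h2⟩
  · have h2 := h.low l (hs hl)
    have h3 := h.pos l (hs hl)
    have : (1 - η') * I l ≤ (1 - η) * I l := mul_le_mul_of_nonneg_right (by linarith) h3.le
    linarith
  · exact (h.bu l (hs hl)).trans (mul_le_mul_of_nonneg_right hηη (hE (hs hl)))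

theorem fd_resc {E I e b R : ℝ → ℝ} {η l₀ l₁ : ℝ} (h : FD E I e b R η l₀ l₁) {κ : ℝ} (hκ : 0 < κ)
    (c : ℝ) : FD (fun l => κ * E (l + c)) (fun l => κ * I (l + c)) (fun l => κ * e (l + c))
      (fun l => κ * b (l + c)) (fun l => κ * R (l + c)) η (l₀ - c) (l₁ - c) := by
  have hs : ∀ {l}, l ∈ Icc (l₀ - c) (l₁ - c) → l + c ∈ Icc l₀ l₁ := fun hl =>
    ⟨by linarith [hl.1], by linarith [hl.2]⟩
  have hab : ∀ l, |κ * b (l + c)| = κ * |b (l + c)| := fun l => by rw [abs_mul, abs_of_pos hκ]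
  refine ⟨fun l hl => mul_pos hκ (h.pos _ (hs hl)), fun l hl => ?_, fun l hl => ?_,
    fun l hl => ?_, fun l hl => ?_, fun l hl => ?_, fun l hl => ?_⟩
  · obtain ⟨ε, h1, h2⟩ := h.dE _ (hs hl)
    refine ⟨κ * ε, ?_, ?_⟩
    · rw [abs_mul, abs_of_pos hκ, hab]
      calc κ * |ε| ≤ κ * (η * (E (l + c) + |b (l + c)| + I (l + c))) := by gcongr
        _ = _ := by ring
    · have := (h2.comp_add_const l c).const_mul κ
      refine this.congr_deriv ?_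
      ring
  · obtain ⟨ε, h1, h2⟩ := h.dI _ (hs hl)
    refine ⟨κ * ε, ?_, ?_⟩
    · rw [abs_mul, abs_of_pos hκ, hab]
      calc κ * |ε| ≤ κ * (η * (E (l + c) + |b (l + c)| + I (l + c))) := by gcongr
        _ = _ := by ring
    · have := (h2.comp_add_const l c).const_mul κ
      refine this.congr_deriv ?_
      ring
  · show κ * e (l + c) = 2 * (κ * E (l + c)) - 2 * (κ * b (l + c))
    rw [h.eE _ (hs hl)]; ring
  · obtain ⟨ε, h1, h2⟩ := h.cs _ (hs hl)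
    refine ⟨κ * ε, ?_, ?_⟩
    · rw [abs_mul, abs_of_pos hκ, hab]
      calc κ * |ε| ≤ κ * (η * (E (l + c) + |b (l + c)| + I (l + c))) := by gcongr
        _ = _ := by ring
    · calc (κ * e (l + c) + κ * ε) ^ 2 = κ ^ 2 * (e (l + c) + ε) ^ 2 := by ring
        _ ≤ κ ^ 2 * (I (l + c) * R (l + c)) := by gcongr
        _ = _ := by ring
  · show (1 - η) * (κ * I (l + c)) ≤ 2 * (κ * E (l + c))
    have := mul_le_mul_of_nonneg_left (h.low _ (hs hl)) hκ.le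
    linarith
  · show κ * b (l + c) ≤ η * (κ * E (l + c))
    have := mul_le_mul_of_nonneg_left (h.bu _ (hs hl)) hκ.le
    linarith

variable {E W Ω : Type*} [NormedAddCommGroup E] [InnerProductSpace ℝ E] [FiniteDimensional ℝ E]
  [MeasurableSpace E] [BorelSpace E]
  [NormedAddCommGroup W] [InnerProductSpace ℝ W] [FiniteDimensional ℝ W] [MeasurableSpace Ω]

variable {m : ℕ} {ν : Measure Ω} {X : Ω → E} {Y : Ω → W} {T : Ω → E →L[ℝ] W} {A : Set E}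
  {c : E → W} {F I e b R : E → ℝ → ℝ} {φ : ℝ → ℝ} {C η lm lt : ℝ}

/-- monotonicity in `η`. -/
theorem Data.mono_eta (h : Data m ν X Y T A c F I e b R φ C η lm lt) (hC : 0 ≤ C) (hη : 0 ≤ η)
    (hη1 : η ≤ 1 / 2) {η' : ℝ} (hηη : η ≤ η') :
    Data m ν X Y T A c F I e b R φ C η' lm lt := by
  refine { h with fd := ?_, J := ?_, slab := ?_, bar := ?_ }
  · exact fun z hz => fd_mono (h.fd z hz) hη hη1 hηη le_rfl le_rfl
  · intro z hz l hl α h0 h1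
    refine (h.J z hz l hl α h0 h1).trans ?_
    have := (h.fd z hz).pos l hl
    gcongr
  · intro z hz ρ h0 h1 u hu t w hw
    refine (h.slab z hz ρ h0 h1 u hu t w hw).trans ?_
    have : 0 ≤ ρ := (Real.exp_pos _).le.trans h0
    gcongr
  · intro z hz ρ h0 h1 a₀ a₁ b₀ B
    refine (h.bar z hz ρ h0 h1 a₀ a₁ b₀ B).trans ?_
    gcongr


theorem BB_smul {τ : ℝ} (hτ : 0 < τ) (X : Ω → E) (z : E) (ρ : ℝ) :
    BB (fun ω => τ⁻¹ • X ω) z ρ = BB X (τ • z) (τ * ρ) := by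
  ext ω
  simp only [BB, Set.mem_ofPred_eq]
  have h1 : τ⁻¹ • X ω - z = τ⁻¹ • (X ω - τ • z) := by
    rw [smul_sub, smul_smul, inv_mul_cancel₀ hτ.ne', one_smul]
  rw [h1, norm_smul, norm_inv, Real.norm_of_nonneg hτ.le, inv_mul_lt_iff₀ hτ]

theorem int_smul {κ : ℝ} (hκ : 0 ≤ κ) (S : Set Ω) (f : Ω → ℝ) :
    ∫ ω in S, f ω ∂(ENNReal.ofReal κ • ν) = κ * ∫ ω in S, f ω ∂ν := by
  rw [Measure.restrict_smul, integral_smul_measure, ENNReal.toReal_ofReal hκ, smul_eq_mul]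

theorem real_smul {κ : ℝ} (hκ : 0 ≤ κ) (S : Set Ω) :
    (ENNReal.ofReal κ • ν).real S = κ * ν.real S := by
  rw [measureReal_ennreal_smul_apply, ENNReal.toReal_ofReal hκ]

/-- rescaling of the data by `τ = exp a ≤ 1`. -/
theorem Data.resc (h : Data m ν X Y T A c F I e b R φ C η lm lt) (hC : 0 ≤ C) (hη : 0 ≤ η)
    {a η' : ℝ} (ha : a ≤ 0) (hη' : η * ((Real.exp a) ^ (m + 2))⁻¹ ≤ η') (hη1 : η ≤ 1 / 2)
    (A' : Set E) (hA : ∀ y ∈ A', Real.exp a • y ∈ A) :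
    Data m (ENNReal.ofReal ((Real.exp a) ^ m)⁻¹ • ν) (fun ω => (Real.exp a)⁻¹ • X ω)
      (fun ω => (Real.exp a)⁻¹ • Y ω) T A' (fun y => (Real.exp a)⁻¹ • c (Real.exp a • y))
      (fun y l => ((Real.exp a) ^ 2)⁻¹ * F (Real.exp a • y) (l + a))
      (fun y l => ((Real.exp a) ^ 2)⁻¹ * I (Real.exp a • y) (l + a))
      (fun y l => ((Real.exp a) ^ 2)⁻¹ * e (Real.exp a • y) (l + a))
      (fun y l => ((Real.exp a) ^ 2)⁻¹ * b (Real.exp a • y) (l + a))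
      (fun y l => ((Real.exp a) ^ 2)⁻¹ * R (Real.exp a • y) (l + a))
      φ C η' (lm - a) (lt - a) := by
  obtain ⟨τ, hτdef⟩ : ∃ τ, τ = Real.exp a := ⟨_, rfl⟩
  have hτ : 0 < τ := by rw [hτdef]; exact Real.exp_pos a
  have hτ1 : τ ≤ 1 := by rw [hτdef]; exact Real.exp_le_one_iff.2 ha
  have hτm : 0 < τ ^ m := pow_pos hτ m
  have hκ : 0 ≤ (τ ^ m)⁻¹ := by positivity
  have hηη : η ≤ η' := by
    refine le_trans ?_ hη'
    rw [← hτdef]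
    have h1 : 1 ≤ (τ ^ (m + 2))⁻¹ := (one_le_inv₀ (by positivity)).2 (pow_le_one₀ hτ.le hτ1)
    calc η = η * 1 := (mul_one _).symm
      _ ≤ η * (τ ^ (m + 2))⁻¹ := by gcongr
  have he : ∀ l, Real.exp (l + a) = τ * Real.exp l := by
    intro l; rw [Real.exp_add, hτdef, mul_comm]
  have hwin : ∀ {l}, l ∈ Icc (lm - a) (lt - a) → l + a ∈ Icc lm lt := fun hl =>
    ⟨by linarith [hl.1], by linarith [hl.2]⟩
  have hr0 : ∀ {ρ}, Real.exp (lm - a) ≤ ρ → Real.exp lm ≤ τ * ρ := by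
    intro ρ h0
    have : Real.exp lm = τ * Real.exp (lm - a) := by rw [← he]; congr 1; ring
    rw [this]; gcongr
  have hr1 : ∀ {ρ}, ρ ≤ Real.exp (lt - a) → τ * ρ ≤ Real.exp lt := by
    intro ρ h0
    have : Real.exp lt = τ * Real.exp (lt - a) := by rw [← he]; congr 1; ring
    rw [this]; gcongr
  rw [← hτdef] at hA hη' ⊢
  have hYn : ∀ ω y, ‖τ⁻¹ • Y ω - τ⁻¹ • y‖ ^ 2 = (τ ^ 2)⁻¹ * ‖Y ω - y‖ ^ 2 := by
    intro ω y
    rw [← smul_sub, norm_smul, norm_inv, Real.norm_of_nonneg hτ.le, mul_pow, inv_pow]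
  have hY0 : ∀ ω, ‖τ⁻¹ • Y ω‖ ^ 2 = (τ ^ 2)⁻¹ * ‖Y ω‖ ^ 2 := by
    intro ω
    rw [norm_smul, norm_inv, Real.norm_of_nonneg hτ.le, mul_pow, inv_pow]
  have hHH : ∀ z ρ, HH (ENNReal.ofReal (τ ^ m)⁻¹ • ν) (fun ω => τ⁻¹ • X ω) (fun ω => τ⁻¹ • Y ω) z ρ =
      (τ ^ m)⁻¹ * ((τ ^ 2)⁻¹ * HH ν X Y (τ • z) (τ * ρ)) := by
    intro z ρ
    unfold HH
    rw [int_smul hκ, BB_smul hτ, ← integral_const_mul]
    simp only [hY0, integral_const_mul]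
  have hsm := h.fin
  refine ⟨⟨?_⟩, h.mX.const_smul _, (h.mY.const_smul τ⁻¹).smul_measure _, h.mT.smul_measure _, ?_,
    h.φc, h.φ0, h.φ1, h.φin, h.φout, ?_, ?_, ?_, ?_, ?_, ?_, ?_, ?_, ?_, ?_, ?_⟩
  · rw [Measure.smul_apply, smul_eq_mul]
    exact ENNReal.mul_lt_top ENNReal.ofReal_lt_top (measure_lt_top ν univ)
  · obtain ⟨K, hK⟩ := h.bd
    refine ⟨max K (τ⁻¹ * K), ?_⟩
    refine Measure.ae_smul_measure ?_ _
    filter_upwards [hK] with ω hω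
    refine ⟨?_, ?_, hω.2.2.trans (le_max_left _ _)⟩
    · rw [norm_smul, norm_inv, Real.norm_of_nonneg hτ.le]
      exact le_trans (by gcongr; exact hω.1) (le_max_right _ _)
    · rw [norm_smul, norm_inv, Real.norm_of_nonneg hτ.le]
      exact le_trans (by gcongr; exact hω.2.1) (le_max_right _ _)
  · intro z hz
    exact fd_mono (fd_resc (h.fd _ (hA z hz)) (by positivity) a) hη hη1 hηη le_rfl le_rfl
  · intro z hz
    have h1 := h.top _ (hA z hz)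
    unfold NN at h1 ⊢
    show 2 * ((τ ^ 2)⁻¹ * F (τ • z) (lt - a + a)) / ((τ ^ 2)⁻¹ * I (τ • z) (lt - a + a)) ≤ C
    rw [sub_add_cancel, mul_left_comm, mul_div_mul_left _ _ (by positivity)]
    exact h1
  · intro z hz l hl
    have h1 := h.up _ (hA z hz) _ (hwin hl)
    rw [he, mul_pow] at h1
    rw [int_smul hκ, BB_smul hτ]
    simp only [hYn, integral_const_mul]
    calc Real.exp l ^ m * ((τ ^ 2)⁻¹ * I (τ • z) (l + a)) =
          (τ ^ m)⁻¹ * (τ ^ 2)⁻¹ * (τ ^ m * Real.exp l ^ m * I (τ • z) (l + a)) := by field_simp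
      _ ≤ (τ ^ m)⁻¹ * (τ ^ 2)⁻¹ * (C * ∫ ω in BB X (τ • z) (τ * Real.exp l),
            ‖Y ω - c (τ • z)‖ ^ 2 ∂ν) := by gcongr
      _ = _ := by ring
  · intro z hz l hl
    have h1 := h.lo _ (hA z hz) _ (hwin hl)
    rw [he, mul_pow] at h1
    rw [int_smul hκ, BB_smul hτ]
    simp only [hYn, integral_const_mul]
    rw [← mul_div_assoc]
    calc (τ ^ m)⁻¹ * ((τ ^ 2)⁻¹ * ∫ ω in BB X (τ • z) (τ * Real.exp l / 2),
            ‖Y ω - c (τ • z)‖ ^ 2 ∂ν) ≤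
          (τ ^ m)⁻¹ * ((τ ^ 2)⁻¹ * (C * (τ ^ m * Real.exp l ^ m * I (τ • z) (l + a)))) := by gcongr
      _ = _ := by field_simp
  · intro z hz l hl α h0 h1
    have h1 := h.J _ (hA z hz) _ (hwin hl) α h0 h1
    rw [he, mul_pow] at h1
    rw [int_smul hκ, BB_smul hτ, ← mul_div_assoc]
    have h2 : ∀ ω, ‖er (T ω) (τ⁻¹ • X ω) z (τ⁻¹ • Y ω) (τ⁻¹ • c (τ • z)) α‖ ^ 2 =
        (τ ^ 2)⁻¹ * ‖er (T ω) (X ω) (τ • z) (Y ω) (c (τ • z)) α‖ ^ 2 := by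
      intro ω
      have h3 : er (T ω) (τ⁻¹ • X ω) z (τ⁻¹ • Y ω) (τ⁻¹ • c (τ • z)) α =
          τ⁻¹ • er (T ω) (X ω) (τ • z) (Y ω) (c (τ • z)) α := by
        unfold er
        have h4 : τ⁻¹ • X ω - z = τ⁻¹ • (X ω - τ • z) := by
          rw [smul_sub, smul_smul, inv_mul_cancel₀ hτ.ne', one_smul]
        rw [h4, map_smul, ← smul_sub, smul_comm α, ← smul_sub]
      rw [h3, norm_smul, norm_inv, Real.norm_of_nonneg hτ.le, mul_pow, inv_pow]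
    simp only [h2, integral_const_mul]
    have hI := (h.fd _ (hA z hz)).pos _ (hwin hl)
    calc (τ ^ m)⁻¹ * ((τ ^ 2)⁻¹ * ∫ ω in BB X (τ • z) (τ * Real.exp l / 2),
            ‖er (T ω) (X ω) (τ • z) (Y ω) (c (τ • z)) α‖ ^ 2 ∂ν) ≤
          (τ ^ m)⁻¹ * ((τ ^ 2)⁻¹ * (τ ^ m * Real.exp l ^ m * (C * (R (τ • z) (l + a) -
            2 * α * e (τ • z) (l + a) + α ^ 2 * I (τ • z) (l + a)) + η' * I (τ • z) (l + a)))) := by
            gcongr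
            refine h1.trans ?_
            gcongr
      _ = _ := by field_simp
  · intro z hz ρ h0 h1
    have h2 := h.sup _ (hA z hz) _ (hr0 h0) (hr1 h1)
    refine Measure.ae_smul_measure ?_ _
    filter_upwards [h2] with ω hω hb
    rw [BB_smul hτ] at hb
    have h3 := hω hb
    rw [hY0, hHH]
    have e1 : τ * (2 * ρ) = 2 * (τ * ρ) := by ring
    rw [e1]
    calc (τ ^ 2)⁻¹ * ‖Y ω‖ ^ 2 * ρ ^ m = (τ ^ m)⁻¹ * (τ ^ 2)⁻¹ * (‖Y ω‖ ^ 2 * (τ * ρ) ^ m) := by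
          rw [mul_pow]; field_simp
      _ ≤ (τ ^ m)⁻¹ * (τ ^ 2)⁻¹ * (C * HH ν X Y (τ • z) (2 * (τ * ρ))) := by gcongr
      _ = _ := by ring
  · intro z hz ρ h0 h1
    have h2 := h.hgt _ (hA z hz) _ (hr0 h0) (hr1 h1)
    rw [hHH, norm_smul, norm_inv, Real.norm_of_nonneg hτ.le, mul_pow, inv_pow]
    calc (τ ^ 2)⁻¹ * ‖c (τ • z)‖ ^ 2 * ρ ^ m =
          (τ ^ m)⁻¹ * (τ ^ 2)⁻¹ * (‖c (τ • z)‖ ^ 2 * (τ * ρ) ^ m) := by
          rw [mul_pow]; field_simp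
      _ ≤ (τ ^ m)⁻¹ * (τ ^ 2)⁻¹ * (C * HH ν X Y (τ • z) (τ * ρ)) := by gcongr
      _ = _ := by ring
  · intro z hz ρ h0 h1
    have h2 := h.mass _ (hA z hz) _ (hr0 h0) (hr1 h1)
    rw [real_smul hκ, BB_smul hτ]
    calc (τ ^ m)⁻¹ * ν.real (BB X (τ • z) (τ * ρ)) ≤ (τ ^ m)⁻¹ * (C * (τ * ρ) ^ m) := by gcongr
      _ = _ := by rw [mul_pow]; field_simp
  · intro z hz ρ h0 h1
    have h2 := h.massl _ (hA z hz) _ (hr0 h0) (hr1 h1)
    rw [real_smul hκ, BB_smul hτ]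
    calc ρ ^ m = (τ ^ m)⁻¹ * (τ * ρ) ^ m := by rw [mul_pow]; field_simp
      _ ≤ (τ ^ m)⁻¹ * (C * ν.real (BB X (τ • z) (τ * ρ))) := by gcongr
      _ = _ := by ring
  · intro z hz ρ h0 h1 u hu t w hw
    have h2 := h.slab _ (hA z hz) _ (hr0 h0) (hr1 h1) u hu (τ * t) w hw
    rw [real_smul hκ]
    have h3 : {ω | ‖τ⁻¹ • X ω - z‖ < ρ ∧ |⟪u, τ⁻¹ • X ω - z⟫ - t| ≤ w * ρ} =
        {ω | ‖X ω - τ • z‖ < τ * ρ ∧ |⟪u, X ω - τ • z⟫ - τ * t| ≤ w * (τ * ρ)} := by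
      ext ω
      simp only [Set.mem_ofPred_eq]
      have h4 : τ⁻¹ • X ω - z = τ⁻¹ • (X ω - τ • z) := by
        rw [smul_sub, smul_smul, inv_mul_cancel₀ hτ.ne', one_smul]
      have h5 : τ⁻¹ * ⟪u, X ω - τ • z⟫ - t = τ⁻¹ * (⟪u, X ω - τ • z⟫ - τ * t) := by
        field_simp
      rw [h4, norm_smul, norm_inv, Real.norm_of_nonneg hτ.le, inv_mul_lt_iff₀ hτ,
        inner_smul_right, h5, abs_mul, abs_inv, abs_of_pos hτ, inv_mul_le_iff₀ hτ]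
      constructor
      · rintro ⟨a1, a2⟩; exact ⟨a1, by linarith⟩
      · rintro ⟨a1, a2⟩; exact ⟨a1, by linarith⟩
    rw [h3]
    have hρ : 0 ≤ ρ := (Real.exp_pos _).le.trans h0
    calc (τ ^ m)⁻¹ * ν.real {ω | ‖X ω - τ • z‖ < τ * ρ ∧ |⟪u, X ω - τ • z⟫ - τ * t| ≤ w * (τ * ρ)}
        ≤ (τ ^ m)⁻¹ * (C * (w + η') * (τ * ρ) ^ m) := by
          gcongr
          refine h2.trans ?_
          gcongr
      _ = _ := by rw [mul_pow]; field_simp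
  · intro z hz ρ h0 h1 a₀ a₁ b₀ B
    have h2 := h.bar _ (hA z hz) _ (hr0 h0) (hr1 h1) a₀ (τ⁻¹ • a₁) b₀ (τ⁻¹ • B)
    have h3 : ∀ ω, φ (‖τ⁻¹ • X ω - z‖ ^ 2 / ρ ^ 2) *
        ((a₀ + ⟪a₁, τ⁻¹ • X ω - z⟫) * ⟪b₀ + B (τ⁻¹ • X ω - z), τ⁻¹ • Y ω⟫) =
        τ⁻¹ * (φ (‖X ω - τ • z‖ ^ 2 / (τ * ρ) ^ 2) *
          ((a₀ + ⟪τ⁻¹ • a₁, X ω - τ • z⟫) * ⟪b₀ + (τ⁻¹ • B) (X ω - τ • z), Y ω⟫)) := by
      intro ω
      have h4 : τ⁻¹ • X ω - z = τ⁻¹ • (X ω - τ • z) := by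
        rw [smul_sub, smul_smul, inv_mul_cancel₀ hτ.ne', one_smul]
      have h5 : ‖τ⁻¹ • (X ω - τ • z)‖ ^ 2 / ρ ^ 2 = ‖X ω - τ • z‖ ^ 2 / (τ * ρ) ^ 2 := by
        rw [norm_smul, norm_inv, Real.norm_of_nonneg hτ.le, mul_pow, inv_pow, mul_pow]
        field_simp
      rw [h4, h5, inner_smul_right, map_smul, inner_smul_right, real_inner_smul_left,
        _root_.smul_apply]
      ring
    simp only [h3, integral_const_mul]
    rw [integral_smul_measure, ENNReal.toReal_ofReal hκ, smul_eq_mul, abs_mul, abs_mul,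
      abs_of_pos (inv_pos.2 hτ), abs_of_nonneg hκ]
    have hI : √(I (τ • z) lt) = τ * √((τ ^ 2)⁻¹ * I (τ • z) (lt - a + a)) := by
      rw [sub_add_cancel, ← Real.sqrt_sq hτ.le, ← Real.sqrt_mul (by positivity), Real.sqrt_sq hτ.le]
      congr 1
      field_simp
    rw [hI] at h2
    set S := √((τ ^ 2)⁻¹ * I (τ • z) (lt - a + a)) with hS
    have hS0 : 0 ≤ S := Real.sqrt_nonneg _
    have h6 : |a₀| + ‖τ⁻¹ • a₁‖ ≤ τ⁻¹ * (|a₀| + ‖a₁‖) := by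
      rw [norm_smul, norm_inv, Real.norm_of_nonneg hτ.le, mul_add]
      have : |a₀| ≤ τ⁻¹ * |a₀| := le_mul_of_one_le_left (abs_nonneg _) ((one_le_inv₀ hτ).2 hτ1)
      linarith
    have h7 : ‖b₀‖ + ‖τ⁻¹ • B‖ ≤ τ⁻¹ * (‖b₀‖ + ‖B‖) := by
      rw [norm_smul, norm_inv, Real.norm_of_nonneg hτ.le, mul_add]
      have : ‖b₀‖ ≤ τ⁻¹ * ‖b₀‖ := le_mul_of_one_le_left (norm_nonneg _) ((one_le_inv₀ hτ).2 hτ1)
      linarith
    calc _ ≤ τ⁻¹ * ((τ ^ m)⁻¹ * (η * (|a₀| + ‖τ⁻¹ • a₁‖) * (‖b₀‖ + ‖τ⁻¹ • B‖) * (τ * S))) := by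
          gcongr
      _ ≤ τ⁻¹ * ((τ ^ m)⁻¹ * (η * (τ⁻¹ * (|a₀| + ‖a₁‖)) * (τ⁻¹ * (‖b₀‖ + ‖B‖)) * (τ * S))) := by
          gcongr
      _ = (η * (τ ^ (m + 2))⁻¹) * (|a₀| + ‖a₁‖) * (‖b₀‖ + ‖B‖) * S := by
          rw [pow_add]; field_simp
      _ ≤ _ := by gcongr

end Crest.Agent.R234.Pin6_3
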