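import Crest.Agent.R234.Pin6_3
import Crest.Agent.R234.F11a_435

/-!
R234 (helper3), VF-PIN part 7: content step and assembly `PinData → Main_456.Pin`.
-/

open MeasureTheory Set Metric
open scoped RealInnerProductSpace ENNReal

namespace Crest.Agent.R234.Pin7_3

set_option linter.unusedSectionVars false
set_option linter.unusedVariables false

open Crest.Agent.R234.Pin1_3 Crest.Agent.R234.Pin2_3 Crest.Agent.R234.Pin3_3
open Crest.Agent.R234.Pin6_3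
open Crest.GeometryTopology.Submanifold Crest.Agent.R234.Vf_884
open Crest.Agent.R234.Main_456 Crest.Agent.R234.Sp1_643

/-- lifting of a covering of the feet to the points. -/
theorem cov_lift {m n : ℕ} {π : Euc (m + n) →L[ℝ] Euc m} {ρ : Euc (m + n) →L[ℝ] Euc n}
    (hf : Frame π ρ) {x : Euc (m + n)} {r τ ρ₀ N : ℝ} (hr : 0 < r) (hτ : 0 < τ) (hρ₀ : 0 < ρ₀)
    {t : Set (Euc (m + n))} (hh : ∀ z ∈ t, ∀ z' ∈ t, ‖ρ (z - z')‖ ≤ τ * ρ₀ * r)
    (hcov : Cov {y : Euc m | τ • y ∈ (fun p => r⁻¹ • π (p - x)) '' t} N ρ₀) :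
    Cov t N (2 * τ * r * ρ₀) := by
  classical
  obtain ⟨T, h1, h2, h3⟩ := hcov
  refine ⟨T.image (fun a => {p ∈ t | τ⁻¹ • r⁻¹ • π (p - x) ∈ a}), ?_, ?_, ?_⟩
  · exact le_trans (by exact_mod_cast Finset.card_image_le) h1
  · intro a ha
    obtain ⟨a, haT, rfl⟩ := Finset.mem_image.1 ha
    refine ⟨fun p hp => hp.1, ?_⟩
    rintro y ⟨hy, hya⟩ z ⟨hz, hza⟩
    have h4 := (h2 a haT).2 _ hya _ hza
    have h5 : τ⁻¹ • r⁻¹ • π (y - x) - τ⁻¹ • r⁻¹ • π (z - x) = (τ⁻¹ * r⁻¹) • π (y - z) := by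
      rw [← smul_sub, ← smul_sub, ← map_sub, smul_smul]
      congr 2
      abel
    rw [dist_eq_norm, h5, norm_smul, norm_mul, norm_inv, norm_inv, Real.norm_of_nonneg hτ.le,
      Real.norm_of_nonneg hr.le] at h4
    have h6 : ‖π (y - z)‖ ≤ τ * ρ₀ * r := by
      calc ‖π (y - z)‖ = τ * r * (τ⁻¹ * r⁻¹ * ‖π (y - z)‖) := by field_simp
        _ ≤ τ * r * ρ₀ := by gcongr
        _ = _ := by ring
    have h7 := F11_435.frame_norm_sq hf (y - z)
    rw [dist_eq_norm]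
    refine abs_le_of_sq_le_sq' ?_ (by positivity) |>.2
    have h8 := hh y hy z hz
    have h9 : ‖π (y - z)‖ ^ 2 ≤ (τ * ρ₀ * r) ^ 2 := by gcongr
    have h10 : ‖ρ (y - z)‖ ^ 2 ≤ (τ * ρ₀ * r) ^ 2 := by gcongr
    nlinarith [sq_nonneg (τ * ρ₀ * r)]
  · intro y hy
    obtain ⟨a, haT, hya⟩ := h3 (τ⁻¹ • r⁻¹ • π (y - x)) (by
      refine ⟨y, hy, ?_⟩
      show r⁻¹ • π (y - x) = τ • τ⁻¹ • r⁻¹ • π (y - x)
      rw [smul_smul τ, mul_inv_cancel₀ hτ.ne', one_smul])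
    exact ⟨_, Finset.mem_image.2 ⟨a, haT, rfl⟩, hy, hya⟩

/-- `Main_456.Pin` for fixed `m, n, K`. -/
def PinK (m n K : ℕ) : Prop :=
  ∀ (Q : ℕ) (s c C : ℝ), 2 ≤ Q → (m : ℝ) - 1 < s → 0 < c →
    ∃ ε : ℝ, 0 < ε ∧ ∀ (U : Set (Euc (m + n))), IsOpen U → ∀ D : VarifoldData m (m + n),
      IsIntegralVarifoldIn U D → IsStationaryIn U D → ∀ (x : Euc (m + n)) (r : ℝ), 0 < r →
        Metric.closedBall x (128 * r) ⊆ U → Th m (VD D) x = (Q : ℝ≥0∞) →
        ENNReal.ofReal c * ENNReal.ofReal r ^ s ≤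
          Fa_694.cont s ({y | (Q : ℝ≥0∞) ≤ Th m (VD D) y} ∩ Metric.closedBall x r) →
        ∀ (π : Euc (m + n) →L[ℝ] Euc m) (ρ : Euc (m + n) →L[ℝ] Euc n) (u : Euc m → Euc n),
          ¬ Ref (VD D) Q x r π ρ u K ε C

/-- `Main_456.Dbl` for fixed `m, n, K`. -/
def DblK (m n K : ℕ) : Prop :=
  ∀ (U : Set (Euc (m + n))), IsOpen U →
    ∀ D : VarifoldData m (m + n), IsIntegralVarifoldIn U D → IsStationaryIn U D →
      ∀ (s : ℝ) (Q : ℕ) (c : ℝ) (x : Euc (m + n)) (r : ℕ → ℝ) (P : ℕ → L (m + n)),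
        Sel m (m + n) U D s Q c x r P → ∃ C : ℝ, ∀ ε : ℝ, 0 < ε → ∃ᶠ i in Filter.atTop,
          ∃ (π : Euc (m + n) →L[ℝ] Euc m) (ρ : Euc (m + n) →L[ℝ] Euc n) (u : Euc m → Euc n),
            Ref (VD D) Q x (r i) π ρ u K ε C

/-- **the pinching node from the V-level data**, fixed `K`. -/
theorem pinK_of {m n K : ℕ} (hm : 3 ≤ m) (hn : 1 ≤ n) (hK : PinDataK m n K) : PinK m n K := by
  intro Q s c C hQ hs hc
  obtain ⟨C', hC', hdat⟩ := hK Q C hQ
  have hm1 : 1 ≤ m := by omega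
  have hs' : ((m - 1 : ℕ) : ℝ) < s := by
    rw [Nat.cast_sub hm1]; simpa using hs
  have hs0 : 0 < s := lt_of_le_of_lt (Nat.cast_nonneg _) hs'
  obtain ⟨Lt, hLt, hpin⟩ := Pin5_3.pin_false (E := Euc m) (W := Euc n) (m := m)
    (by simp) hs' hm1
  obtain ⟨τ, hτdef⟩ : ∃ τ, τ = Real.exp (-3 - Lt) := ⟨_, rfl⟩
  have hτ : 0 < τ := by rw [hτdef]; exact Real.exp_pos _
  have hτ1 : τ ≤ 1 := by rw [hτdef]; exact Real.exp_le_one_iff.2 (by linarith)
  obtain ⟨N₁, hN₁def⟩ : ∃ N₁ : ℝ, N₁ = ((2 * (Module.finrank ℝ (Euc (m + n)) : ℝ) + 4) / τ) ^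
    (Module.finrank ℝ (Euc (m + n))) := ⟨_, rfl⟩
  have hN₁ : 0 < N₁ := by rw [hN₁def]; positivity
  obtain ⟨lm, hlm, ρ₀, hρ₀, η, hη, hfalse⟩ := hpin (c / (2 * N₁ * (2 * τ) ^ s)) (by positivity) C' hC'
  obtain ⟨η', hη'⟩ : ∃ η', η' = min (η * τ ^ (m + 2)) (min (1 / 2) (τ * ρ₀)) := ⟨_, rfl⟩
  have hη'0 : 0 < η' := by
    rw [hη']; exact lt_min (by positivity) (lt_min (by norm_num) (by positivity))
  have hη'1 : η' ≤ η * τ ^ (m + 2) := by rw [hη']; exact min_le_left _ _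
  have hη'2 : η' ≤ 1 / 2 := by rw [hη']; exact (min_le_right _ _).trans (min_le_left _ _)
  have hη'3 : η' ≤ τ * ρ₀ := by rw [hη']; exact (min_le_right _ _).trans (min_le_right _ _)
  obtain ⟨ε, hε, hd⟩ := hdat (lm + (-3 - Lt)) η' (by linarith) hη'0
  refine ⟨ε, hε, fun U hU D hD hst x r hr hxU hTh hcont π ρ u href => ?_⟩
  obtain ⟨hρ, hdata⟩ := hd U hU D hD hst x r hr hxU hTh π ρ u href
  obtain ⟨S, hS⟩ : ∃ S, S = {y | (Q : ℝ≥0∞) ≤ Th m (VD D) y} ∩ closedBall x r := ⟨_, rfl⟩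
  rw [← hS] at hcont
  have hcov := cov_ball (S := S) (x := x) hr hτ hτ1 (by rw [hS]; exact inter_subset_right)
  rw [← hN₁def] at hcov
  obtain ⟨Tc, h1, h2, h3⟩ := hcov
  -- the pieces have small content
  have key : ∀ t ∈ Tc, Fa_694.cont s t ≤ ENNReal.ofReal (c / (2 * N₁) * r ^ s) := by
    intro t ht
    have hd1 := (h2 t ht).2
    have htS := (h2 t ht).1
    rw [hS] at htS
    obtain ⟨zh, hzh⟩ : ∃ zh : Euc m → Euc (m + n), ∀ a ∈ (fun p => r⁻¹ • π (p - x)) '' t,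
        zh a ∈ t ∧ r⁻¹ • π (zh a - x) = a := by
      refine ⟨Function.invFunOn (fun p => r⁻¹ • π (p - x)) t, fun a ha => ?_⟩
      exact ⟨Function.invFunOn_mem ha, Function.invFunOn_eq ha⟩
    obtain ⟨Ω, mΩ, ν, X, Y, T, cc, F, I, e, b, R, φ, hData⟩ := hdata
      ((fun p => r⁻¹ • π (p - x)) '' t) zh (fun a ha =>
        ⟨(htS (hzh a ha).1).2, (htS (hzh a ha).1).1, (hzh a ha).2⟩)
    have hData2 := Data.resc hData (by linarith) hη'0.le (a := -3 - Lt) (η' := η) (by linarith) (by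
      rw [← hτdef]
      rw [← div_eq_mul_inv, div_le_iff₀ (by positivity)]
      exact hη'1) hη'2 {y : Euc m | τ • y ∈ (fun p => r⁻¹ • π (p - x)) '' t}
      (by intro y hy; rw [← hτdef]; exact hy)
    have e1 : lm + (-3 - Lt) - (-3 - Lt) = lm := by ring
    have e2 : (-3:ℝ) - (-3 - Lt) = Lt := by ring
    rw [e1, e2] at hData2
    by_contra hcon
    refine hfalse Ω _ _ _ T _ _ _ _ _ _ _ φ ?_ ?_ hData2
    · rintro y ⟨p, hp, hpy⟩ z ⟨q, hq, hqz⟩
      have h4 : τ * dist y z ≤ τ * 1 := by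
        calc τ * dist y z = ‖τ • y - τ • z‖ := by
              rw [← smul_sub, norm_smul, Real.norm_of_nonneg hτ.le, dist_eq_norm]
          _ = ‖r⁻¹ • π (p - q)‖ := by
              rw [← hpy, ← hqz]
              show ‖r⁻¹ • π (p - x) - r⁻¹ • π (q - x)‖ = _
              rw [← smul_sub, ← map_sub]
              congr 3
              abel
          _ = r⁻¹ * ‖π (p - q)‖ := by rw [norm_smul, norm_inv, Real.norm_of_nonneg hr.le]
          _ ≤ r⁻¹ * dist p q := by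
              rw [dist_eq_norm]
              gcongr
              exact F11_435.norm_pi_le href.frame _
          _ ≤ r⁻¹ * (τ * r) := by gcongr; exact hd1 p hp q hq
          _ = τ * 1 := by field_simp
      exact le_of_mul_le_mul_left h4 hτ
    · intro N hN hcovN
      by_contra hlt
      rw [not_le] at hlt
      apply hcon
      have hlift := cov_lift href.frame hr hτ hρ₀ (t := t) (by
        intro z hz z' hz'
        refine (hρ z (htS hz).2 z' (htS hz').2 (htS hz).1 (htS hz').1).trans ?_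
        gcongr) hcovN
      refine (Fa_694.cont_le_of_cov hs0 hlift).trans ?_
      rw [ENNReal.ofReal_rpow_of_nonneg (by positivity) hs0.le, ← ENNReal.ofReal_mul hN]
      apply ENNReal.ofReal_le_ofReal
      have e3 : (2 * τ * r * ρ₀) ^ s = (2 * τ) ^ s * r ^ s * ρ₀ ^ s := by
        rw [Real.mul_rpow (by positivity) hρ₀.le, Real.mul_rpow (by positivity) hr.le]
      rw [e3]
      have h2τ : 0 < (2 * τ) ^ s := by positivity
      have hrs : 0 < r ^ s := by positivity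
      calc N * ((2 * τ) ^ s * r ^ s * ρ₀ ^ s) = (2 * τ) ^ s * r ^ s * (N * ρ₀ ^ s) := by ring
        _ ≤ (2 * τ) ^ s * r ^ s * (c / (2 * N₁ * (2 * τ) ^ s)) := by gcongr
        _ = _ := by field_simp
  have hsum : Fa_694.cont s S ≤ ENNReal.ofReal (c / 2 * r ^ s) := by
    calc Fa_694.cont s S ≤ Fa_694.cont s (⋃ t : Tc, (t : Set (Euc (m + n)))) := by
          apply Fa_694.cont_mono
          intro y hy
          obtain ⟨t, ht, hyt⟩ := h3 y hy
          exact mem_iUnion.2 ⟨⟨t, ht⟩, hyt⟩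
      _ ≤ ∑' t : Tc, Fa_694.cont s (t : Set (Euc (m + n))) := Fa_694.cont_iUnion_le hs0 _
      _ ≤ ∑' _t : Tc, ENNReal.ofReal (c / (2 * N₁) * r ^ s) :=
          ENNReal.tsum_le_tsum fun t => key t t.2
      _ = (Tc.card : ℝ≥0∞) * ENNReal.ofReal (c / (2 * N₁) * r ^ s) := by
          rw [tsum_fintype, Finset.sum_const, nsmul_eq_mul]
          simp
      _ = ENNReal.ofReal (Tc.card * (c / (2 * N₁) * r ^ s)) := by
          rw [ENNReal.ofReal_mul (Nat.cast_nonneg _), ENNReal.ofReal_natCast]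
      _ ≤ _ := by
          apply ENNReal.ofReal_le_ofReal
          have hrs : 0 < r ^ s := by positivity
          calc (Tc.card : ℝ) * (c / (2 * N₁) * r ^ s) ≤ N₁ * (c / (2 * N₁) * r ^ s) := by gcongr
            _ = _ := by field_simp
  have hlast := hcont.trans hsum
  rw [ENNReal.ofReal_rpow_of_nonneg hr.le hs0.le, ← ENNReal.ofReal_mul hc.le] at hlast
  have hrs : 0 < r ^ s := by positivity
  have h5 := (ENNReal.ofReal_le_ofReal_iff (by positivity)).1 hlast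
  nlinarith [mul_pos hc hrs]

/-- **the pinching node from the V-level data**. -/
theorem pin_of (H : PinData) : Pin := by
  intro m n hm hn
  obtain ⟨K, hK⟩ := H m n hm hn
  exact ⟨K, pinK_of hm hn (hK K le_rfl)⟩

/-- the SUCP stage from `DblK` and `PinK` for all large `K`. -/
theorem noSelK (h1 : ∀ m n : ℕ, 3 ≤ m → 1 ≤ n → ∃ K₀ : ℕ, ∀ K : ℕ, K₀ ≤ K → DblK m n K)
    (h2 : ∀ m n : ℕ, 3 ≤ m → 1 ≤ n → ∃ K₁ : ℕ, ∀ K : ℕ, K₁ ≤ K → PinK m n K) : NoSel := by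
  intro m n hm hn U hU D hD hs s Q c x r P hsel
  obtain ⟨K₀, hK₀⟩ := h1 m n hm hn
  obtain ⟨K₁, hK₁⟩ := h2 m n hm hn
  obtain ⟨C, hC⟩ := hK₀ (max K₀ K₁) (le_max_left _ _) U hU D hD hs s Q c x r P hsel
  obtain ⟨ε, hε, hpin⟩ := hK₁ (max K₀ K₁) (le_max_right _ _) Q s c C hsel.hQ hsel.hs hsel.hc
  have hxU : x ∈ U := hsel.mem.1.1
  obtain ⟨R, hR, hRU⟩ := Metric.isOpen_iff.1 hU x hxU
  have hev : ∀ᶠ i in Filter.atTop, 128 * r i < R := by
    have h := hsel.lim.const_mul 128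
    rw [mul_zero] at h
    exact h.eventually (gt_mem_nhds hR)
  obtain ⟨i, ⟨π, ρ, u, href⟩, hi⟩ := ((hC ε hε).and_eventually hev).exists
  refine hpin U hU D hD hs x (r i) (hsel.pos i) ?_ hsel.mem.2 ?_ π ρ u href
  · exact (Metric.closedBall_subset_ball hi).trans hRU
  · refine (hsel.cont i).trans (Fa_694.cont_mono s ?_)
    rintro y ⟨⟨_, hy⟩, hyx⟩
    exact ⟨hy.ge, hyx⟩

/-- the SUCP stage from `DblK` for all large `K` and `PinData`. -/
theorem noSel_of_pinData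
    (h1 : ∀ m n : ℕ, 3 ≤ m → 1 ≤ n → ∃ K₀ : ℕ, ∀ K : ℕ, K₀ ≤ K → DblK m n K)
    (h2 : PinData) : NoSel :=
  noSelK h1 fun m n hm hn => by
    obtain ⟨K₁, hK₁⟩ := h2 m n hm hn
    exact ⟨K₁, fun K hK => pinK_of hm hn (hK₁ K hK)⟩

end Crest.Agent.R234.Pin7_3
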