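import Crest.Agent.R234.Skel_884

/-!
Row 234 (helper332): the two frozen statements from `Dbl2`, `Pin2` = `Dbl`, `Pin` of `Main2_456` with
the order `K ≥ K0 (m, n)` (570's remark: a selection with quadratic mean error exists for test
functions in `C^K`, `K ≥ K0 (m, n)`, only).
-/

set_option autoImplicit false

open MeasureTheory Filter Topology Set
open scoped ENNReal NNReal ContDiff
open Crest.GeometryTopology.Submanifold Crest.Agent.R234.Vf_884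
open Crest.Agent.R234.Main_456

noncomputable section

namespace Crest.Agent.R234.Skel2_332

/-- doubling at the scales of a selection, for all `K ≥ K0 (m, n)` -/
def Dbl2 : Prop :=
  ∀ (m n : ℕ), 3 ≤ m → 1 ≤ n → ∃ K0 : ℕ, ∀ K : ℕ, K0 ≤ K →
    ∀ (U : Set (Euc (m + n))), IsOpen U →
    ∀ D : VarifoldData m (m + n), IsIntegralVarifoldIn U D → IsStationaryIn U D →
      ∀ (s : ℝ) (Q : ℕ) (c : ℝ) (x : Euc (m + n)) (r : ℕ → ℝ) (P : ℕ → L (m + n)),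
        Sel m (m + n) U D s Q c x r P → ∃ C : ℝ, ∀ ε : ℝ, 0 < ε → ∃ᶠ i in atTop,
          ∃ (π : Euc (m + n) →L[ℝ] Euc m) (ρ : Euc (m + n) →L[ℝ] Euc n) (u : Euc m → Euc n),
            Ref (VD D) Q x (r i) π ρ u K ε C

/-- pinching at a given `K` -/
def PinAt (m n K : ℕ) : Prop :=
  ∀ (Q : ℕ) (s c C : ℝ), 2 ≤ Q → (m : ℝ) - 1 < s → 0 < c →
    ∃ ε : ℝ, 0 < ε ∧ ∀ (U : Set (Euc (m + n))), IsOpen U → ∀ D : VarifoldData m (m + n),
      IsIntegralVarifoldIn U D → IsStationaryIn U D → ∀ (x : Euc (m + n)) (r : ℝ), 0 < r →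
        Metric.closedBall x (128 * r) ⊆ U → Th m (VD D) x = (Q : ℝ≥0∞) →
        ENNReal.ofReal c * ENNReal.ofReal r ^ s ≤
          Fa_694.cont s ({y | (Q : ℝ≥0∞) ≤ Th m (VD D) y} ∩ Metric.closedBall x r) →
        ∀ (π : Euc (m + n) →L[ℝ] Euc m) (ρ : Euc (m + n) →L[ℝ] Euc n) (u : Euc m → Euc n),
          ¬ Ref (VD D) Q x r π ρ u K ε C

/-- pinching, version 2: arbitrarily large `K` -/
def Pin2 : Prop :=
  ∀ (m n : ℕ), 3 ≤ m → 1 ≤ n → ∀ K0 : ℕ, ∃ K : ℕ, K0 ≤ K ∧ PinAt m n K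

theorem pin_iff : Main_456.Pin ↔ ∀ (m n : ℕ), 3 ≤ m → 1 ≤ n → ∃ K : ℕ, PinAt m n K := Iff.rfl

/-- pinching for all `K` from some `K1` on gives `Pin2` -/
theorem pin2_of (h : ∀ (m n : ℕ), 3 ≤ m → 1 ≤ n → ∃ K1 : ℕ, ∀ K : ℕ, K1 ≤ K → PinAt m n K) :
    Pin2 := by
  intro m n hm hn K0
  obtain ⟨K1, h1⟩ := h m n hm hn
  exact ⟨max K0 K1, le_max_left _ _, h1 _ (le_max_right _ _)⟩

/-- the SUCP stage, version 2 -/
theorem noSel2 (h1 : Dbl2) (h2 : Pin2) : NoSel := by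
  intro m n hm hn U hU D hD hs s Q c x r P hsel
  obtain ⟨K0, h1⟩ := h1 m n hm hn
  obtain ⟨K, hK0, hK⟩ := h2 m n hm hn K0
  obtain ⟨C, hC⟩ := h1 K hK0 U hU D hD hs s Q c x r P hsel
  obtain ⟨ε, hε, hpin⟩ := hK Q s c C hsel.hQ hsel.hs hsel.hc
  have hxU : x ∈ U := hsel.mem.1.1
  obtain ⟨R, hR, hRU⟩ := Metric.isOpen_iff.1 hU x hxU
  have hev : ∀ᶠ i in atTop, 128 * r i < R := by
    have h := hsel.lim.const_mul 128
    rw [mul_zero] at h
    exact h.eventually (gt_mem_nhds hR)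
  obtain ⟨i, ⟨π, ρ, u, href⟩, hi⟩ := ((hC ε hε).and_eventually hev).exists
  refine hpin U hU D hD hs x (r i) (hsel.pos i) ?_ hsel.mem.2 ?_ π ρ u href
  · exact (Metric.closedBall_subset_ball hi).trans hRU
  · refine (hsel.cont i).trans (Fa_694.cont_mono s ?_)
    rintro y ⟨⟨_, hy⟩, hyx⟩
    exact ⟨hy.ge, hyx⟩

/-- **S0362 from the two open nodes, version 2.** -/
theorem s0362 (h2 : Dbl2) (h3 : Pin2)
    (m n : ℕ) (hm : 1 ≤ m) (hn : 1 ≤ n) (U : Set (EuclideanSpace ℝ (Fin (m + n))))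
    (hU : IsOpen U) (D : VarifoldData m (m + n)) (hD : IsIntegralVarifoldIn U D)
    (hstat : IsStationaryIn U D) :
    dimH (singularSet m (m + n) U D) ≤ (m : ENNReal) - 1 :=
  Main_456.main Pr_937.prodStep (Fa_694.fa Skel_884.hInt Skel_884.hOne) (noSel2 h2 h3)
    m n hm hn U hU D hD hstat

/-- **S0363 from the two open nodes, version 2.** -/
theorem s0363 (h2 : Dbl2) (h3 : Pin2)
    (m n : ℕ) (hm : 1 ≤ m) (hn : 1 ≤ n) (R : ℝ) (hR : 0 < R)
    (D : VarifoldData m (m + n + 1)) (hD : IsIntegralVarifoldIn Set.univ D)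
    (hsph : ∀ i, D.chart i '' D.dom i ⊆ Metric.sphere (0 : EuclideanSpace ℝ (Fin (m + n + 1))) R)
    (hstat : ∀ X : EuclideanSpace ℝ (Fin (m + n + 1)) → EuclideanSpace ℝ (Fin (m + n + 1)),
      ContDiff ℝ 1 X → HasCompactSupport X →
      (∀ x ∈ Metric.sphere (0 : EuclideanSpace ℝ (Fin (m + n + 1))) R, inner ℝ (X x) x = 0) →
      firstVariation D X = 0) :
    μH[(m : ℝ)] (singularSet m (m + n + 1) Set.univ D) = 0 :=
  Co7_696.s0363_of (fun m n hm hn U hU D hD hs => s0362 h2 h3 m n hm hn U hU D hD hs)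
    m n hm hn R hR D hD hsph hstat

end Crest.Agent.R234.Skel2_332
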