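import Crest.Agent.R234.Pin8_3
import Crest.Agent.R234.Skel2_332

/-!
R234 (helper3), VF-PIN part 9: `Skel2_332.Pin2` from `QLeb` and `CtrK`.
-/

namespace Crest.Agent.R234.Pin9_3

open Crest.Agent.R234.Pin6_3 Crest.Agent.R234.Pin7_3 Crest.Agent.R234.Pin8_3
open Crest.Agent.R234.Main_456 Crest.Agent.R234.Skel2_332

theorem pin2_of_pinData (h : PinData) : Pin2 :=
  pin2_of fun m n hm hn => by
    obtain ⟨K₁, hK₁⟩ := h m n hm hn
    exact ⟨K₁, fun K hK => pinK_of hm hn (hK₁ K hK)⟩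

/-- **the pinching node** from 433's `QLeb` and the per-centre data. -/
theorem pin2_of_ctr (hQL : QLeb)
    (h : ∀ m n : ℕ, 3 ≤ m → 1 ≤ n → ∃ K₁ : ℕ, ∀ K : ℕ, K₁ ≤ K → CtrK m n K) : Pin2 :=
  pin2_of_pinData (pinData_of hQL h)

end Crest.Agent.R234.Pin9_3
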