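import Mathlib

/-!
R234 (helper425), POT part 1: the linear complementarity problem on a compact metric space.
-/

open MeasureTheory Filter Topology Set
open scoped ENNReal NNReal

namespace Crest.Agent.R234.Pot_425

noncomputable section

set_option linter.unusedSectionVars false

variable {X : Type*} [MetricSpace X] [CompactSpace X] [MeasurableSpace X] [BorelSpace X]

lemma integrable_cont {Y : Type*} [TopologicalSpace Y] [CompactSpace Y] [MeasurableSpace Y]
    [OpensMeasurableSpace Y] (μ : Measure Y) [IsFiniteMeasure μ] {g : Y → ℝ} (hg : Continuous g) :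
    Integrable g μ := by
  exact (BoundedContinuousFunction.mkOfCompact ⟨g, hg⟩).integrable μ

/-- potential of a measure -/
def pot (K : X × X → ℝ) (μ : Measure X) (x : X) : ℝ := ∫ y, K (x, y) ∂μ

lemma continuous_pot {K : X × X → ℝ} (hK : Continuous K) (μ : Measure X) [IsFiniteMeasure μ] :
    Continuous (pot K μ) := by
  obtain ⟨C, hC⟩ := (isCompact_univ (X := X × X)).exists_bound_of_continuousOn hK.continuousOn
  refine continuous_of_dominated (bound := fun _ => C) ?_ ?_ ?_ ?_
  · intro x
    exact (hK.comp (by fun_prop : Continuous fun y => (x, y))).aestronglyMeasurable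
  · intro x
    exact Eventually.of_forall fun y => hC (x, y) (mem_univ _)
  · exact integrable_const _
  · exact Eventually.of_forall fun y => hK.comp (by fun_prop)

/-- energy -/
def en (K : X × X → ℝ) (μ ν : Measure X) : ℝ := ∫ x, pot K ν x ∂μ

lemma en_eq_prod {K : X × X → ℝ} (hK : Continuous K) (μ ν : Measure X) [IsFiniteMeasure μ]
    [IsFiniteMeasure ν] : en K μ ν = ∫ p, K p ∂(μ.prod ν) := by
  rw [integral_prod _ (integrable_cont _ hK)]; rfl

lemma en_symm {K : X × X → ℝ} (hK : Continuous K) (hs : ∀ x y, K (x, y) = K (y, x))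
    (μ ν : Measure X) [IsFiniteMeasure μ] [IsFiniteMeasure ν] : en K μ ν = en K ν μ := by
  rw [en_eq_prod hK]
  rw [integral_prod_symm _ (integrable_cont _ hK)]
  unfold en pot
  refine integral_congr_ae (Eventually.of_forall fun y => ?_)
  refine integral_congr_ae (Eventually.of_forall fun x => ?_)
  exact hs x y

lemma continuous_prob {g : X → ℝ} (hg : Continuous g) :
    Continuous fun p : ProbabilityMeasure X => ∫ x, g x ∂(p : Measure X) := by
  have := (FiniteMeasure.continuous_integral_continuousMap (⟨g, hg⟩ : C(X, ℝ))).comp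
    (ProbabilityMeasure.toFiniteMeasure_continuous (Ω := X))
  exact this

lemma continuous_prob_en {K : X × X → ℝ} (hK : Continuous K) :
    Continuous fun p : ProbabilityMeasure X => en K (p : Measure X) (p : Measure X) := by
  have h1 : Continuous fun p : ProbabilityMeasure X => p.prod p :=
    ProbabilityMeasure.continuous_prod.comp (by fun_prop : Continuous fun p : ProbabilityMeasure X => (p, p))
  have h2 : Continuous fun q : ProbabilityMeasure (X × X) => ∫ z, K z ∂(q : Measure (X × X)) := by
    have := (FiniteMeasure.continuous_integral_continuousMap (⟨K, hK⟩ : C(X × X, ℝ))).comp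
      (ProbabilityMeasure.toFiniteMeasure_continuous (Ω := X × X))
    exact this
  have h3 := h2.comp h1
  refine h3.congr fun p => ?_
  simp only [Function.comp]
  rw [en_eq_prod hK]
  rfl

lemma pot_add {K : X × X → ℝ} (hK : Continuous K) (μ ν : Measure X) [IsFiniteMeasure μ]
    [IsFiniteMeasure ν] (x : X) : pot K (μ + ν) x = pot K μ x + pot K ν x := by
  unfold pot
  rw [integral_add_measure]
  · exact integrable_cont _ (hK.comp (by fun_prop))
  · exact integrable_cont _ (hK.comp (by fun_prop))

lemma pot_smul {K : X × X → ℝ} (c : ℝ≥0) (μ : Measure X) (x : X) :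
    pot K (c • μ) x = c * pot K μ x := by
  unfold pot
  rw [integral_smul_nnreal_measure]
  rfl

lemma en_add_add {K : X × X → ℝ} (hK : Continuous K) (hs : ∀ x y, K (x, y) = K (y, x))
    (μ ν : Measure X) [IsFiniteMeasure μ] [IsFiniteMeasure ν] :
    en K (μ + ν) (μ + ν) = en K μ μ + 2 * en K ν μ + en K ν ν := by
  have h1 : en K (μ + ν) (μ + ν) = ∫ x, (pot K μ x + pot K ν x) ∂(μ + ν) :=
    integral_congr_ae (Eventually.of_forall fun x => pot_add hK μ ν x)
  rw [h1, integral_add_measure]
  · rw [integral_add (integrable_cont _ (continuous_pot hK μ)) (integrable_cont _ (continuous_pot hK ν)),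
      integral_add (integrable_cont _ (continuous_pot hK μ)) (integrable_cont _ (continuous_pot hK ν))]
    have h2 : ∫ x, pot K ν x ∂μ = ∫ x, pot K μ x ∂ν := en_symm hK hs μ ν
    rw [h2]
    unfold en
    ring
  · exact integrable_cont _ ((continuous_pot hK μ).add (continuous_pot hK ν))
  · exact integrable_cont _ ((continuous_pot hK μ).add (continuous_pot hK ν))

lemma en_smul_smul {K : X × X → ℝ} (c : ℝ≥0) (μ : Measure X) :
    en K (c • μ) (c • μ) = c ^ 2 * en K μ μ := by
  unfold en
  rw [integral_smul_nnreal_measure]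
  have : (fun x => pot K (c • μ) x) = fun x => (c : ℝ) * pot K μ x := by
    funext x; exact pot_smul c μ x
  rw [this, integral_const_mul, NNReal.smul_def, smul_eq_mul]
  ring

/-- **LCP on a compact space**: for a continuous symmetric positive kernel `K` and a continuous obstacle
`f` there is a finite measure `ε` with `K ε ≥ f` everywhere and `K ε = f` on the support of `ε`. -/
theorem exists_contact {K : X × X → ℝ} (hK : Continuous K) (hs : ∀ x y, K (x, y) = K (y, x))
    (hpos : ∀ p, 0 < K p) {f : X → ℝ} (hf : Continuous f) :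
    ∃ ε : Measure X, IsFiniteMeasure ε ∧ (∀ x, f x ≤ pot K ε x) ∧
      ∀ x ∈ ε.support, pot K ε x = f x := by
  classical
  by_cases hne : ∃ x, 0 < f x
  swap
  · push Not at hne
    refine ⟨0, inferInstance, fun x => ?_, fun x hx => ?_⟩
    · simpa [pot] using hne x
    · simp at hx
  obtain ⟨x0, hx0⟩ := hne
  have : Nonempty X := ⟨x0⟩
  -- the functional on probability measures
  let L : ProbabilityMeasure X → ℝ := fun p => ∫ x, f x ∂(p : Measure X)
  let Q : ProbabilityMeasure X → ℝ := fun p => en K (p : Measure X) (p : Measure X)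
  have hL : Continuous L := continuous_prob hf
  have hQ : Continuous Q := continuous_prob_en hK
  -- K ≥ c > 0
  obtain ⟨pm, -, hpm⟩ := (isCompact_univ (X := X × X)).exists_isMinOn univ_nonempty hK.continuousOn
  have hc : 0 < K pm := hpos pm
  have hKc : ∀ z, K pm ≤ K z := fun z => hpm (mem_univ z)
  have hQpos : ∀ p, 0 < Q p := by
    intro p
    have h1 : ∀ x, K pm ≤ pot K (p : Measure X) x := by
      intro x
      have h2 : ∫ y, K pm ∂(p : Measure X) ≤ ∫ y, K (x, y) ∂(p : Measure X) :=
        integral_mono (integrable_const _) (integrable_cont _ (hK.comp (by fun_prop)))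
          (fun y => hKc (x, y))
      simpa [pot] using h2
    have h3 : ∫ x, K pm ∂(p : Measure X) ≤ ∫ x, pot K (p : Measure X) x ∂(p : Measure X) :=
      integral_mono (integrable_const _) (integrable_cont _ (continuous_pot hK _)) h1
    have h4 : K pm ≤ Q p := by
      have h5 : ∫ x : X, K pm ∂(p : Measure X) = K pm := by simp
      rw [h5] at h3
      exact h3
    linarith
  let R : ProbabilityMeasure X → ℝ := fun p => max (L p) 0 ^ 2 / Q p
  have hR : Continuous R := ((hL.max continuous_const).pow 2).div hQ (fun p => (hQpos p).ne')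
  obtain ⟨p0, -, hp0⟩ := (isCompact_univ (X := ProbabilityMeasure X)).exists_isMaxOn
    ⟨⟨Measure.dirac x0, inferInstance⟩, mem_univ _⟩ hR.continuousOn
  have hmax : ∀ p, R p ≤ R p0 := fun p => hp0 (mem_univ p)
  have hL0 : 0 < L p0 := by
    by_contra hcon
    push Not at hcon
    have h1 : R p0 = 0 := by
      simp only [R, max_eq_right hcon]; simp
    let pd : ProbabilityMeasure X := ⟨Measure.dirac x0, inferInstance⟩
    have h2 : L pd = f x0 := by
      simp only [L, pd]
      simp
    have h3 : 0 < R pd := by
      simp only [R, h2]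
      have : 0 < max (f x0) 0 := lt_max_of_lt_left hx0
      have h5 := hQpos pd
      positivity
    have := hmax pd
    linarith
  -- the minimiser
  let t0 : ℝ≥0 := ⟨L p0 / Q p0, (div_pos hL0 (hQpos p0)).le⟩
  obtain ⟨ε, hεd⟩ : ∃ ε : Measure X, ε = t0 • (p0 : Measure X) := ⟨_, rfl⟩
  have hεfin : IsFiniteMeasure ε := by
    rw [hεd]
    infer_instance
  have hfε : ∫ x, f x ∂ε = t0 * L p0 := by
    rw [hεd, integral_smul_nnreal_measure]
    rfl
  have hQε : en K ε ε = (t0 : ℝ) ^ 2 * Q p0 := by
    rw [hεd]
    exact en_smul_smul t0 _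
  have ht0 : (t0 : ℝ) = L p0 / Q p0 := rfl
  have hFε : en K ε ε / 2 - ∫ x, f x ∂ε = - R p0 / 2 := by
    rw [hfε, hQε, ht0]
    have h1 : R p0 = L p0 ^ 2 / Q p0 := by
      simp only [R, max_eq_left hL0.le]
    rw [h1]
    have := (hQpos p0).ne'
    field_simp
    ring
  -- lower bound of the functional
  have hlow : ∀ μ : Measure X, IsFiniteMeasure μ → - R p0 / 2 ≤ en K μ μ / 2 - ∫ x, f x ∂μ := by
    intro μ hμ
    by_cases h0 : μ = 0
    · subst h0
      have : 0 ≤ R p0 := by
        have := (hQpos p0)
        positivity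
      simp [en]
      linarith
    · let μf : FiniteMeasure X := ⟨μ, hμ⟩
      have hμf : μf ≠ 0 := by
        intro h
        apply h0
        have := congrArg (fun ν : FiniteMeasure X => (ν : Measure X)) h
        simpa [μf] using this
      let p := μf.normalize
      have hself : μ = (μf.mass) • (p : Measure X) := by
        have h1 := μf.self_eq_mass_smul_normalize
        have h2 := congrArg (fun ν : FiniteMeasure X => (ν : Measure X)) h1
        simpa [μf, p] using h2
      set t : ℝ≥0 := μf.mass with ht
      have h1 : en K μ μ = (t : ℝ) ^ 2 * Q p := by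
        rw [hself]; exact en_smul_smul t _
      have h2 : ∫ x, f x ∂μ = t * L p := by
        rw [hself, integral_smul_nnreal_measure]
        rfl
      rw [h1, h2]
      have h3 := hmax p
      have h4 := hQpos p
      have h5 : max (L p) 0 ^ 2 ≤ R p0 * Q p := by
        have : R p * Q p = max (L p) 0 ^ 2 := by
          simp only [R]; field_simp
        rw [← this]
        exact mul_le_mul_of_nonneg_right h3 h4.le
      have h6 : (t : ℝ) * L p ≤ t * max (L p) 0 :=
        mul_le_mul_of_nonneg_left (le_max_left _ _) t.2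
      set a := max (L p) 0
      -- t a ≤ t^2 Q /2 + R/2, as a^2 ≤ R Q
      have h7 : (t : ℝ) * a ≤ (t : ℝ) ^ 2 * Q p / 2 + R p0 / 2 := by
        have h8 : 0 ≤ ((t : ℝ) * Q p - a) ^ 2 := sq_nonneg _
        have h9 : 0 ≤ Q p * ((t : ℝ) ^ 2 * Q p - 2 * t * a + R p0) := by nlinarith
        have h10 : 0 ≤ ((t : ℝ) ^ 2 * Q p - 2 * t * a + R p0) := by
          by_contra hneg
          push Not at hneg
          have := mul_neg_of_pos_of_neg h4 hneg
          linarith
        linarith
      linarith
  -- first variation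
  have hge : ∀ x, f x ≤ pot K ε x := by
    intro x
    by_contra hcon
    push Not at hcon
    -- use ε + s δ_x
    set d := f x - pot K ε x with hd
    have hdpos : 0 < d := by rw [hd]; linarith
    have key : ∀ s : ℝ≥0, 0 ≤ - (s : ℝ) * d + (s : ℝ) ^ 2 * K (x, x) / 2 := by
      intro s
      have h1 := hlow (ε + s • Measure.dirac x) inferInstance
      rw [en_add_add hK hs] at h1
      have h2 : en K (s • Measure.dirac x) ε = s * pot K ε x := by
        unfold en
        rw [integral_smul_nnreal_measure, integral_dirac, NNReal.smul_def, smul_eq_mul]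
      have h3 : en K (s • Measure.dirac x) (s • Measure.dirac x) = (s : ℝ) ^ 2 * K (x, x) := by
        rw [en_smul_smul]
        unfold en pot
        rw [integral_dirac, integral_dirac]
      have h4 : ∫ y, f y ∂(ε + s • Measure.dirac x) = ∫ y, f y ∂ε + s * f x := by
        rw [integral_add_measure (integrable_cont _ hf) (integrable_cont _ hf),
          integral_smul_nnreal_measure, integral_dirac, NNReal.smul_def, smul_eq_mul]
      rw [h2, h3, h4, ← hFε] at h1
      have : d = f x - pot K ε x := hd
      rw [this]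
      nlinarith
    have hk := hpos (x, x)
    have h1 : 0 ≤ - (d / K (x, x)) * d + (d / K (x, x)) ^ 2 * K (x, x) / 2 :=
      key ⟨d / K (x, x), (div_pos hdpos hk).le⟩
    have h2 : - (d / K (x, x)) * d + (d / K (x, x)) ^ 2 * K (x, x) / 2 = - d ^ 2 / K (x, x) / 2 := by
      field_simp
      ring
    rw [h2] at h1
    have h3 : 0 < d ^ 2 / K (x, x) / 2 := by positivity
    have h4 : - d ^ 2 / K (x, x) / 2 = - (d ^ 2 / K (x, x) / 2) := by ring
    rw [h4] at h1
    linarith
  have hzero : ∫ x, (pot K ε x - f x) ∂ε = 0 := by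
    rw [integral_sub (integrable_cont _ (continuous_pot hK ε)) (integrable_cont _ hf)]
    have h1 : ∫ x, pot K ε x ∂ε = en K ε ε := rfl
    rw [h1, hQε, hfε, ht0]
    have := (hQpos p0).ne'
    field_simp
    ring
  have hcont : Continuous fun x => pot K ε x - f x := (continuous_pot hK ε).sub hf
  have hae : (fun x => pot K ε x - f x) =ᵐ[ε] 0 := by
    rw [← integral_eq_zero_iff_of_nonneg (fun x => sub_nonneg.2 (hge x)) (integrable_cont _ hcont)]
    exact hzero
  refine ⟨ε, inferInstance, hge, fun x hx => ?_⟩
  by_contra hcon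
  have hU : {z | pot K ε z - f z ≠ 0} ∈ 𝓝 x := by
    have : IsOpen {z | pot K ε z - f z ≠ 0} := isOpen_ne_fun hcont continuous_const
    exact this.mem_nhds (by
      show pot K ε x - f x ≠ 0
      intro h
      exact hcon (by linarith))
  have h1 := (Measure.mem_support_iff_forall x).1 hx _ hU
  have h2 : ε {z | pot K ε z - f z ≠ 0} = 0 := by
    have := hae
    rw [Filter.EventuallyEq, ae_iff] at this
    exact this
  rw [h2] at h1
  exact lt_irrefl _ h1

/-- domination: `∫ K ν dβ ≤ ∫ K ν dε` form: `∫ f dν ≤ ∫ K ν dε` -/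
theorem dominate {K : X × X → ℝ} (hK : Continuous K) (hs : ∀ x y, K (x, y) = K (y, x))
    {f : X → ℝ} (hf : Continuous f) {ε : Measure X} [IsFiniteMeasure ε]
    (h : ∀ x, f x ≤ pot K ε x) (ν : Measure X) [IsFiniteMeasure ν] :
    ∫ x, f x ∂ν ≤ ∫ x, pot K ν x ∂ε := by
  have h1 : ∫ x, f x ∂ν ≤ ∫ x, pot K ε x ∂ν :=
    integral_mono (integrable_cont _ hf) (integrable_cont _ (continuous_pot hK ε)) h
  have h2 : ∫ x, pot K ε x ∂ν = ∫ x, pot K ν x ∂ε := en_symm hK hs ν ε
  linarith

end

end Crest.Agent.R234.Pot_425
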