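import Mathlib

/-!
R234 (helper425), POT part 2: radial weights and the scale identity
`d/ds ∫ η(y) v(x - s y) dy = s ∫ ψ(y) Δv(x - s y) dy`.
-/

open MeasureTheory Filter Topology Set Metric
open scoped ENNReal NNReal

namespace Crest.Agent.R234.Pot_425

noncomputable section

set_option linter.unusedSectionVars false

variable {F : Type*} [NormedAddCommGroup F] [InnerProductSpace ℝ F] [FiniteDimensional ℝ F]
  [MeasurableSpace F] [BorelSpace F]

/-- A radial weight, given by its profile in `t = ‖y‖²`. -/
structure Wt where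
  θ : ℝ → ℝ
  θ' : ℝ → ℝ
  deriv : ∀ t, HasDerivAt θ (θ' t) t
  cont' : Continuous θ'
  anti : ∀ t, θ' t ≤ 0
  zero : ∀ t, 1 ≤ t → θ t = 0
  zero' : ∀ t, 1 ≤ t → θ' t = 0

namespace Wt

variable (w : Wt)

lemma cont : Continuous w.θ := continuous_iff_continuousAt.2 fun t => (w.deriv t).continuousAt

lemma antitone : Antitone w.θ := antitone_of_hasDerivAt_nonpos w.deriv w.anti

lemma nonneg (t : ℝ) : 0 ≤ w.θ t := by
  rcases le_total t 1 with h | h
  · rw [← w.zero 1 le_rfl]
    exact w.antitone h
  · rw [w.zero t h]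

/-- the weight `k` -/
def psi (y : F) : ℝ := w.θ (‖y‖ ^ 2)

/-- the averaging density, `∇ψ = - η y` -/
def eta (y : F) : ℝ := -2 * w.θ' (‖y‖ ^ 2)

lemma psi_nonneg (y : F) : 0 ≤ w.psi y := w.nonneg _

lemma eta_nonneg (y : F) : 0 ≤ w.eta y := by
  have := w.anti (‖y‖ ^ 2)
  unfold eta; linarith

lemma continuous_psi : Continuous (w.psi : F → ℝ) := w.cont.comp (by fun_prop)

lemma continuous_eta : Continuous (w.eta : F → ℝ) :=
  continuous_const.mul (w.cont'.comp (by fun_prop))

lemma psi_zero {y : F} (hy : y ∉ closedBall (0 : F) 1) : w.psi y = 0 := by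
  have : 1 < ‖y‖ := by simpa using hy
  exact w.zero _ (by nlinarith)

lemma eta_zero {y : F} (hy : y ∉ closedBall (0 : F) 1) : w.eta y = 0 := by
  have : 1 < ‖y‖ := by simpa using hy
  unfold eta
  rw [w.zero' _ (by nlinarith)]; simp

lemma psi_zero' {y : F} (hy : 1 ≤ ‖y‖) : w.psi y = 0 := w.zero _ (by nlinarith)

lemma eta_zero' {y : F} (hy : 1 ≤ ‖y‖) : w.eta y = 0 := by
  unfold eta
  rw [w.zero' _ (by nlinarith)]; simp

lemma psi_neg (y : F) : w.psi (-y) = w.psi y := by simp [psi]
lemma eta_neg (y : F) : w.eta (-y) = w.eta y := by simp [eta]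

lemma hasFDerivAt_psi (y : F) :
    HasFDerivAt (w.psi : F → ℝ) (-(w.eta y • innerSL ℝ y)) y := by
  have h1 : HasFDerivAt (fun y : F => ‖y‖ ^ 2) (2 • innerSL ℝ y) y :=
    (hasStrictFDerivAt_norm_sq y).hasFDerivAt
  have h2 := (w.deriv (‖y‖ ^ 2)).comp_hasFDerivAt y h1
  refine h2.congr_fderiv ?_
  ext z
  simp [eta]
  ring

lemma hasCompactSupport_psi : HasCompactSupport (w.psi : F → ℝ) :=
  HasCompactSupport.intro (isCompact_closedBall (0 : F) 1) (fun _ h => w.psi_zero h)

lemma hasCompactSupport_eta : HasCompactSupport (w.eta : F → ℝ) :=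
  HasCompactSupport.intro (isCompact_closedBall (0 : F) 1) (fun _ h => w.eta_zero h)

lemma integrable_psi_mul {h : F → ℝ} (hh : Continuous h) :
    Integrable (fun y => w.psi y * h y) (volume : Measure F) := by
  refine (w.continuous_psi.mul hh).integrable_of_hasCompactSupport ?_
  exact w.hasCompactSupport_psi.mul_right

lemma integrable_eta_mul {h : F → ℝ} (hh : Continuous h) :
    Integrable (fun y => w.eta y * h y) (volume : Measure F) := by
  refine (w.continuous_eta.mul hh).integrable_of_hasCompactSupport ?_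
  exact w.hasCompactSupport_eta.mul_right

end Wt

/-- divergence of a vector field with derivative `H` -/
def dv (H : F →L[ℝ] F) : ℝ :=
  ∑ i, inner ℝ (stdOrthonormalBasis ℝ F i) (H (stdOrthonormalBasis ℝ F i))

lemma continuous_dv : Continuous (dv : (F →L[ℝ] F) → ℝ) := by
  unfold dv
  refine continuous_finsetSum _ fun i _ => ?_
  exact continuous_const.inner ((ContinuousLinearMap.apply ℝ F (stdOrthonormalBasis ℝ F i)).continuous)

/-- integration by parts -/
lemma ibp (w : Wt) {G : F → F} {H : F → F →L[ℝ] F} (hG : ∀ z, HasFDerivAt G (H z) z)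
    (hH : Continuous H) (x : F) (s : ℝ) :
    ∫ y, w.eta y * (-(inner ℝ (G (x - s • y)) y)) = s * ∫ y, w.psi y * dv (H (x - s • y)) := by
  have hGc : Continuous G := continuous_iff_continuousAt.2 fun z => (hG z).continuousAt
  have hmap : Continuous fun y : F => x - s • y := by fun_prop
  set b := stdOrthonormalBasis ℝ F with hb
  have key : ∀ i, ∫ y, w.psi y * (-s * inner ℝ (b i) (H (x - s • y) (b i))) =
      ∫ y, (w.eta y * inner ℝ y (b i)) * inner ℝ (G (x - s • y)) (b i) := by
    intro i
    have hg : ∀ y : F, HasFDerivAt (fun y : F => inner ℝ (G (x - s • y)) (b i))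
        ((-s) • ((innerSL ℝ (b i)).comp (H (x - s • y)))) y := by
      intro y
      have h1 : HasFDerivAt (fun y : F => x - s • y) (-(s • ContinuousLinearMap.id ℝ F)) y := by
        have h0 : HasFDerivAt (fun y : F => s • y) (s • ContinuousLinearMap.id ℝ F) y :=
          (hasFDerivAt_id (𝕜 := ℝ) y).const_smul s
        exact h0.const_sub x
      have h2 := (hG (x - s • y)).comp y h1
      have h3 := (innerSL ℝ (b i)).hasFDerivAt.comp y h2
      have h4 : (fun y : F => inner ℝ (G (x - s • y)) (b i)) =
          (innerSL ℝ (b i)) ∘ (G ∘ fun y : F => x - s • y) := by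
        funext y
        simp [real_inner_comm]
      rw [h4]
      refine h3.congr_fderiv ?_
      ext z
      simp
    have h := integral_bilinear_hasFDerivAt_right_eq_neg_left_of_integrable
      (μ := (volume : Measure F)) (B := ContinuousLinearMap.mul ℝ ℝ) (v := b i)
      (f := (w.psi : F → ℝ)) (f' := fun y => -(w.eta y • innerSL ℝ y))
      (g := fun y : F => inner ℝ (G (x - s • y)) (b i))
      (g' := fun y => (-s) • ((innerSL ℝ (b i)).comp (H (x - s • y))))
      ?_ ?_ ?_ (fun y _ => w.hasFDerivAt_psi y) (fun y _ => hg y)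
    · simp only [ContinuousLinearMap.mul_apply'] at h
      have h1 : ∀ y : F, w.psi y * (((-s) • ((innerSL ℝ (b i)).comp (H (x - s • y)))) (b i)) =
          w.psi y * (-s * inner ℝ (b i) (H (x - s • y) (b i))) := by
        intro y; simp
      have h2 : ∀ y : F, (-(w.eta y • innerSL ℝ y)) (b i) * inner ℝ (G (x - s • y)) (b i) =
          -((w.eta y * inner ℝ y (b i)) * inner ℝ (G (x - s • y)) (b i)) := by
        intro y; simp
      simp only [h1, h2] at h
      rw [h, integral_neg, neg_neg]
    · simp only [ContinuousLinearMap.mul_apply']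
      have : ∀ y : F, (-(w.eta y • innerSL ℝ y)) (b i) * inner ℝ (G (x - s • y)) (b i) =
          w.eta y * (-(inner ℝ y (b i)) * inner ℝ (G (x - s • y)) (b i)) := by
        intro y; simp; ring
      simp only [this]
      exact w.integrable_eta_mul (by fun_prop)
    · simp only [ContinuousLinearMap.mul_apply']
      refine w.integrable_psi_mul ?_
      have : Continuous fun y : F => H (x - s • y) (b i) := by fun_prop
      have h5 : ∀ y : F, ((-s) • ((innerSL ℝ (b i)).comp (H (x - s • y)))) (b i) =
        -s * inner ℝ (b i) (H (x - s • y) (b i)) := by intro y; simp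
      simp only [h5]
      fun_prop
    · simp only [ContinuousLinearMap.mul_apply']
      exact w.integrable_psi_mul (by fun_prop)
  have h1 : ∀ y : F, w.eta y * (-(inner ℝ (G (x - s • y)) y)) =
      - ∑ i, (w.eta y * inner ℝ y (b i)) * inner ℝ (G (x - s • y)) (b i) := by
    intro y
    have h2 : inner ℝ (G (x - s • y)) y = ∑ i, inner ℝ y (b i) * inner ℝ (G (x - s • y)) (b i) := by
      rw [← b.sum_inner_mul_inner (G (x - s • y)) y]
      refine Finset.sum_congr rfl fun i _ => ?_
      rw [real_inner_comm y (b i)]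
      ring
    rw [h2, mul_neg, Finset.mul_sum]
    congr 1
    refine Finset.sum_congr rfl fun i _ => ?_
    ring
  have h2 : ∀ y : F, w.psi y * dv (H (x - s • y)) =
      ∑ i, w.psi y * inner ℝ (b i) (H (x - s • y) (b i)) := by
    intro y
    unfold dv
    rw [Finset.mul_sum]
  simp only [h1, h2]
  rw [integral_neg, integral_finsetSum, integral_finsetSum]
  · rw [Finset.mul_sum, ← Finset.sum_neg_distrib]
    refine Finset.sum_congr rfl fun i _ => ?_
    rw [← key i, ← integral_neg, ← integral_const_mul]
    refine integral_congr_ae (Eventually.of_forall fun y => ?_)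
    simp only
    ring
  · intro i _
    have : Continuous fun y : F => H (x - s • y) (b i) := by fun_prop
    exact w.integrable_psi_mul (by fun_prop)
  · intro i _
    have : ∀ y : F, w.eta y * inner ℝ y (b i) * inner ℝ (G (x - s • y)) (b i) =
      w.eta y * (inner ℝ y (b i) * inner ℝ (G (x - s • y)) (b i)) := fun y => by ring
    simp only [this]
    exact w.integrable_eta_mul (by fun_prop)

/-- derivative of the kernel mean in the scale -/
theorem scale_deriv (w : Wt) {v : F → ℝ} {G : F → F} {H : F → F →L[ℝ] F}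
    (hv : ∀ z, HasFDerivAt v (innerSL ℝ (G z)) z) (hG : ∀ z, HasFDerivAt G (H z) z)
    (hH : Continuous H) (x : F) (s : ℝ) :
    HasDerivAt (fun s : ℝ => ∫ y, w.eta y * v (x - s • y))
      (s * ∫ y, w.psi y * dv (H (x - s • y))) s := by
  have hGc : Continuous G := continuous_iff_continuousAt.2 fun z => (hG z).continuousAt
  have hvc : Continuous v := continuous_iff_continuousAt.2 fun z => (hv z).continuousAt
  rw [← ibp w hG hH x s]
  have hcont : Continuous fun p : ℝ × F => w.eta p.2 * (-(inner ℝ (G (x - p.1 • p.2)) p.2)) := by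
    have := w.continuous_eta (F := F)
    fun_prop
  obtain ⟨C, hC⟩ := ((isCompact_Icc (a := s - 1) (b := s + 1)).prod
    (isCompact_closedBall (0 : F) 1)).exists_bound_of_continuousOn hcont.continuousOn
  have h := hasDerivAt_integral_of_dominated_loc_of_deriv_le (μ := (volume : Measure F))
    (𝕜 := ℝ) (E := ℝ) (F := fun (s : ℝ) (y : F) => w.eta y * v (x - s • y))
    (F' := fun (s : ℝ) (y : F) => w.eta y * (-(inner ℝ (G (x - s • y)) y)))
    (x₀ := s) (s := Icc (s - 1) (s + 1))
    (bound := (closedBall (0 : F) 1).indicator fun _ => C)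
    (Icc_mem_nhds (by linarith) (by linarith)) ?_ ?_ ?_ ?_ ?_ ?_
  · exact h.2
  · refine Eventually.of_forall fun s' => ?_
    exact (w.integrable_eta_mul (by fun_prop : Continuous fun y : F => v (x - s' • y))).aestronglyMeasurable
  · exact w.integrable_eta_mul (by fun_prop)
  · exact (w.integrable_eta_mul (by fun_prop)).aestronglyMeasurable
  · refine Eventually.of_forall fun y s' hs' => ?_
    by_cases hy : y ∈ closedBall (0 : F) 1
    · rw [indicator_of_mem hy]
      exact hC (s', y) ⟨hs', hy⟩
    · rw [indicator_of_notMem hy, w.eta_zero hy]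
      simp
  · refine (integrable_indicator_iff measurableSet_closedBall).2 ?_
    exact integrableOn_const (by exact (isCompact_closedBall (0 : F) 1).measure_lt_top.ne)
  · refine Eventually.of_forall fun y s' _ => ?_
    have h1 : HasDerivAt (fun s : ℝ => x - s • y) (-y) s' := by
      have h0 := ((hasDerivAt_id s').smul_const y).const_sub x
      simpa using h0
    have h2 := (hv (x - s' • y)).comp_hasDerivAt s' h1
    have h3 := h2.const_mul (w.eta y)
    refine h3.congr_deriv ?_
    simp

/-- the integrated scale identity -/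
theorem scale_identity (w : Wt) {v : F → ℝ} {G : F → F} {H : F → F →L[ℝ] F}
    (hv : ∀ z, HasFDerivAt v (innerSL ℝ (G z)) z) (hG : ∀ z, HasFDerivAt G (H z) z)
    (hH : Continuous H) (x : F) (s : ℝ) :
    ∫ ρ in (0 : ℝ)..s, (ρ * ∫ y, w.psi y * dv (H (x - ρ • y))) =
      (∫ y, w.eta y * v (x - s • y)) - (∫ y : F, w.eta y) * v x := by
  have hcont : Continuous fun ρ : ℝ => ρ * ∫ y, w.psi y * dv (H (x - ρ • y)) := by
    refine continuous_id.mul ?_
    have hc : Continuous fun p : ℝ × F => w.psi p.2 * dv (H (x - p.1 • p.2)) := by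
      have h1 := w.continuous_psi (F := F)
      have h2 := continuous_dv (F := F)
      have h3 : Continuous fun p : ℝ × F => H (x - p.1 • p.2) := by fun_prop
      exact (h1.comp continuous_snd).mul (h2.comp h3)
    have h4 : (fun ρ : ℝ => ∫ y, w.psi y * dv (H (x - ρ • y))) =
        fun ρ : ℝ => ∫ y in closedBall (0 : F) 1, w.psi y * dv (H (x - ρ • y)) := by
      funext ρ
      rw [setIntegral_eq_integral_of_forall_compl_eq_zero]
      intro y hy
      rw [w.psi_zero hy, zero_mul]
    rw [h4]
    exact continuous_parametric_integral_of_continuous hc (isCompact_closedBall (0 : F) 1)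
  have h := intervalIntegral.integral_eq_sub_of_hasDerivAt (a := (0 : ℝ)) (b := s)
    (fun ρ _ => scale_deriv w hv hG hH x ρ) (hcont.intervalIntegrable _ _)
  rw [h]
  congr 1
  simp only [zero_smul, sub_zero]
  rw [integral_mul_const]

end

end Crest.Agent.R234.Pot_425
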