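import Crest.Agent.R234.Pot1_425
import Crest.Agent.R234.Pot2_425

/-!
R234 (helper425), POT part 3: the mollified Green kernel of the unit ball.
-/

open MeasureTheory Filter Topology Set Metric
open scoped ENNReal NNReal

namespace Crest.Agent.R234.Pot_425

noncomputable section

set_option linter.unusedSectionVars false

/-! ### one variable profile -/

/-- derivative of the profile -/
def gg1 (m : ℕ) (τ u : ℝ) : ℝ := -(m / 4 : ℝ) * (max u (τ ^ 2)) ^ (-(m : ℝ) / 2 - 1)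

/-- the profile `u^(-m/2)/2`, continued by its tangent below `τ²` -/
def gg (m : ℕ) (τ u : ℝ) : ℝ :=
  (1 / 2 : ℝ) * (τ ^ 2) ^ (-(m : ℝ) / 2) + ∫ t in (τ ^ 2)..u, gg1 m τ t

variable {m : ℕ} {τ : ℝ}

lemma max_pos (hτ : 0 < τ) (u : ℝ) : 0 < max u (τ ^ 2) := lt_max_of_lt_right (by positivity)

lemma continuous_gg1 (hτ : 0 < τ) : Continuous (gg1 m τ) := by
  unfold gg1
  refine continuous_const.mul ?_
  exact (continuous_id.max continuous_const).rpow_const fun u => Or.inl (max_pos hτ u).ne'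

lemma hasDerivAt_gg (hτ : 0 < τ) (u : ℝ) : HasDerivAt (gg m τ) (gg1 m τ u) u := by
  have h := intervalIntegral.integral_hasDerivAt_right
    ((continuous_gg1 (m := m) hτ).intervalIntegrable (τ ^ 2) u)
    ((continuous_gg1 (m := m) hτ).stronglyMeasurableAtFilter _ _) (continuous_gg1 hτ).continuousAt
  exact h.const_add _

lemma continuous_gg (hτ : 0 < τ) : Continuous (gg m τ) :=
  continuous_iff_continuousAt.2 fun u => (hasDerivAt_gg hτ u).continuousAt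

lemma gg_of_le (_hτ : 0 < τ) {u : ℝ} (hu : u ≤ τ ^ 2) :
    gg m τ u = (1 / 2 : ℝ) * (τ ^ 2) ^ (-(m : ℝ) / 2) +
      (m / 4 : ℝ) * (τ ^ 2) ^ (-(m : ℝ) / 2 - 1) * (τ ^ 2 - u) := by
  unfold gg
  have h : ∫ t in (τ ^ 2)..u, gg1 m τ t =
      ∫ t in (τ ^ 2)..u, -(m / 4 : ℝ) * (τ ^ 2) ^ (-(m : ℝ) / 2 - 1) := by
    refine intervalIntegral.integral_congr fun t ht => ?_
    rw [uIcc_of_ge hu] at ht
    simp only [gg1, max_eq_right ht.2]
  rw [h, intervalIntegral.integral_const]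
  simp
  ring

lemma gg_of_ge (hτ : 0 < τ) {u : ℝ} (hu : τ ^ 2 ≤ u) :
    gg m τ u = (1 / 2 : ℝ) * u ^ (-(m : ℝ) / 2) := by
  have h2 : 0 < τ ^ 2 := by positivity
  unfold gg
  have h : ∫ t in (τ ^ 2)..u, gg1 m τ t =
      (1 / 2 : ℝ) * u ^ (-(m : ℝ) / 2) - (1 / 2 : ℝ) * (τ ^ 2) ^ (-(m : ℝ) / 2) := by
    have h3 : ∀ t ∈ uIcc (τ ^ 2) u, HasDerivAt (fun t : ℝ => (1 / 2 : ℝ) * t ^ (-(m : ℝ) / 2))
        (gg1 m τ t) t := by
      intro t ht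
      rw [uIcc_of_le hu] at ht
      have ht0 : 0 < t := lt_of_lt_of_le h2 ht.1
      have h4 := (Real.hasDerivAt_rpow_const (x := t) (p := -(m : ℝ) / 2) (Or.inl ht0.ne')).const_mul
        (1 / 2 : ℝ)
      refine h4.congr_deriv ?_
      simp only [gg1, max_eq_left ht.1]
      ring
    exact intervalIntegral.integral_eq_sub_of_hasDerivAt h3
      ((continuous_gg1 hτ).intervalIntegrable _ _)
  rw [h]
  ring

lemma gg_pos (hτ : 0 < τ) (u : ℝ) : 0 < gg m τ u := by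
  have h2 : 0 < τ ^ 2 := by positivity
  rcases le_total u (τ ^ 2) with h | h
  · rw [gg_of_le hτ h]
    have h3 : 0 ≤ τ ^ 2 - u := by linarith
    positivity
  · rw [gg_of_ge hτ h]
    have : 0 < u := lt_of_lt_of_le h2 h
    positivity

/-- the Laplacian profile `4 u g'(u) + 2 m g(u)` -/
def DD (m : ℕ) (τ u : ℝ) : ℝ := 4 * u * gg1 m τ u + 2 * m * gg m τ u

lemma DD_of_ge (hτ : 0 < τ) {u : ℝ} (hu : τ ^ 2 ≤ u) : DD m τ u = 0 := by
  have h2 : 0 < τ ^ 2 := by positivity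
  have hu0 : 0 < u := lt_of_lt_of_le h2 hu
  unfold DD
  rw [gg_of_ge hτ hu]
  simp only [gg1, max_eq_left hu]
  have h3 : u ^ (-(m : ℝ) / 2 - 1) * u = u ^ (-(m : ℝ) / 2) := by
    rw [← Real.rpow_add_one hu0.ne']; congr 1; ring
  rw [← h3]
  ring

lemma DD_of_le (hτ : 0 < τ) {u : ℝ} (hu : u ≤ τ ^ 2) :
    DD m τ u = m * (1 + m / 2) * (τ ^ 2) ^ (-(m : ℝ) / 2 - 1) * (τ ^ 2 - u) := by
  have h2 : 0 < τ ^ 2 := by positivity
  unfold DD
  rw [gg_of_le hτ hu]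
  simp only [gg1, max_eq_right hu]
  have h3 : (τ ^ 2) ^ (-(m : ℝ) / 2) = (τ ^ 2) ^ (-(m : ℝ) / 2 - 1) * τ ^ 2 := by
    rw [← Real.rpow_add_one h2.ne']; congr 1; ring
  rw [h3]
  ring

lemma DD_nonneg (hτ : 0 < τ) (u : ℝ) : 0 ≤ DD m τ u := by
  rcases le_total u (τ ^ 2) with h | h
  · rw [DD_of_le hτ h]
    have h3 : 0 ≤ τ ^ 2 - u := by linarith
    positivity
  · rw [DD_of_ge hτ h]

lemma continuous_DD (hτ : 0 < τ) : Continuous (DD m τ) := by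
  unfold DD
  have h1 := continuous_gg1 (m := m) hτ
  have h2 := continuous_gg (m := m) hτ
  fun_prop

/-- primitive of the profile -/
def PP (m : ℕ) (τ u : ℝ) : ℝ := ∫ t in (0 : ℝ)..u, gg m τ t

lemma hasDerivAt_PP (hτ : 0 < τ) (u : ℝ) : HasDerivAt (PP m τ) (gg m τ u) u :=
  intervalIntegral.integral_hasDerivAt_right
    ((continuous_gg (m := m) hτ).intervalIntegrable 0 u)
    ((continuous_gg (m := m) hτ).stronglyMeasurableAtFilter _ _) (continuous_gg hτ).continuousAt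

lemma continuous_PP (hτ : 0 < τ) : Continuous (PP m τ) :=
  continuous_iff_continuousAt.2 fun u => (hasDerivAt_PP hτ u).continuousAt

lemma PP_strictMono (hτ : 0 < τ) : StrictMono (PP m τ) :=
  strictMono_of_hasDerivAt_pos (hasDerivAt_PP hτ) (gg_pos hτ)

/-! ### functions `Φ(q)` of a quadratic polynomial -/

variable {F : Type*} [NormedAddCommGroup F] [InnerProductSpace ℝ F] [FiniteDimensional ℝ F]

/-- `q(z) = α‖z‖² + ⟨β, z⟩ + γ` -/
def qq (α : ℝ) (β : F) (γ : ℝ) (z : F) : ℝ := α * ‖z‖ ^ 2 + inner ℝ β z + γ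

lemma hasFDerivAt_qq (α : ℝ) (β : F) (γ : ℝ) (z : F) :
    HasFDerivAt (qq α β γ) (innerSL ℝ ((2 * α) • z + β)) z := by
  have h1 : HasFDerivAt (fun y : F => ‖y‖ ^ 2) (2 • innerSL ℝ z) z :=
    (hasStrictFDerivAt_norm_sq z).hasFDerivAt
  have h2 : HasFDerivAt (fun y : F => inner ℝ β y) (innerSL ℝ β) z := (innerSL ℝ β).hasFDerivAt
  have h3 := ((h1.const_mul α).add h2).add_const γ
  refine h3.congr_fderiv ?_
  ext y
  simp [inner_add_left]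
  ring

/-- the gradient field -/
def GF (g : ℝ → ℝ) (α : ℝ) (β : F) (γ : ℝ) (z : F) : F := g (qq α β γ z) • ((2 * α) • z + β)

/-- its derivative -/
def HF (g g' : ℝ → ℝ) (α : ℝ) (β : F) (γ : ℝ) (z : F) : F →L[ℝ] F :=
  g (qq α β γ z) • ((2 * α) • ContinuousLinearMap.id ℝ F) +
    (g' (qq α β γ z) • innerSL ℝ ((2 * α) • z + β)).smulRight ((2 * α) • z + β)

lemma hasFDerivAt_comp_qq {Φ g : ℝ → ℝ} (hΦ : ∀ u, HasDerivAt Φ (g u) u) (α : ℝ) (β : F) (γ : ℝ)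
    (z : F) : HasFDerivAt (fun z => Φ (qq α β γ z)) (innerSL ℝ (GF g α β γ z)) z := by
  have h := (hΦ (qq α β γ z)).comp_hasFDerivAt z (hasFDerivAt_qq α β γ z)
  refine h.congr_fderiv ?_
  ext y
  simp [GF]

lemma hasFDerivAt_GF {g g' : ℝ → ℝ} (hg : ∀ u, HasDerivAt g (g' u) u) (α : ℝ) (β : F) (γ : ℝ)
    (z : F) : HasFDerivAt (GF g α β γ) (HF g g' α β γ z) z := by
  have h1 := (hg (qq α β γ z)).comp_hasFDerivAt z (hasFDerivAt_qq α β γ z)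
  have h0 : HasFDerivAt (fun z : F => (2 * α) • z) ((2 * α) • ContinuousLinearMap.id ℝ F) z :=
    (hasFDerivAt_id (𝕜 := ℝ) z).const_smul (2 * α)
  have h2 : HasFDerivAt (fun z : F => (2 * α) • z + β) ((2 * α) • ContinuousLinearMap.id ℝ F) z :=
    h0.add_const β
  exact h1.smul h2

lemma dv_HF (g g' : ℝ → ℝ) (α : ℝ) (β : F) (γ : ℝ) (z : F) :
    dv (HF g g' α β γ z) = g' (qq α β γ z) * ‖(2 * α) • z + β‖ ^ 2 +
      2 * α * (Module.finrank ℝ F : ℝ) * g (qq α β γ z) := by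
  unfold dv HF
  set c := (2 * α) • z + β
  set b := stdOrthonormalBasis ℝ F
  have h1 : ∀ i, inner ℝ (b i) ((g (qq α β γ z) • ((2 * α) • ContinuousLinearMap.id ℝ F) +
      (g' (qq α β γ z) • innerSL ℝ c).smulRight c) (b i)) =
      g (qq α β γ z) * (2 * α) + g' (qq α β γ z) * (inner ℝ c (b i) * inner ℝ (b i) c) := by
    intro i
    simp [inner_add_right, inner_smul_right]
    ring
  simp only [h1]
  have h2 : ∑ i, g' (qq α β γ z) * (inner ℝ c (b i) * inner ℝ (b i) c) =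
      g' (qq α β γ z) * ‖c‖ ^ 2 := by
    rw [← Finset.mul_sum, b.sum_inner_mul_inner, real_inner_self_eq_norm_sq]
  rw [Finset.sum_add_distrib, h2]
  simp
  ring

lemma continuous_HF {g g' : ℝ → ℝ} (hg : Continuous g) (hg' : Continuous g') (α : ℝ) (β : F)
    (γ : ℝ) : Continuous (HF g g' α β γ) := by
  have hq : Continuous (qq α β γ) := by unfold qq; fun_prop
  unfold HF
  refine Continuous.add ?_ ?_
  · exact (hg.comp hq).smul continuous_const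
  · have h1 : Continuous fun z : F => g' (qq α β γ z) • innerSL ℝ ((2 * α) • z + β) :=
      (hg'.comp hq).smul ((innerSL ℝ).continuous.comp (by fun_prop))
    exact (ContinuousLinearMap.smulRightL ℝ F F).continuous₂.comp (h1.prodMk (by fun_prop : Continuous fun z : F => (2 * α) • z + β))

/-! ### the kernel -/

/-- `p(x,y) = ‖x - y‖² + (1 - ‖x‖²)(1 - ‖y‖²)` -/
def pp (x y : F) : ℝ := ‖x - y‖ ^ 2 + (1 - ‖x‖ ^ 2) * (1 - ‖y‖ ^ 2)

/-- mollified Green kernel of the unit ball -/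
def KK (m : ℕ) (τ : ℝ) (x y : F) : ℝ := PP m τ (pp x y) - PP m τ (‖x - y‖ ^ 2)

lemma pp_symm (x y : F) : pp x y = pp y x := by
  unfold pp; rw [norm_sub_rev]; ring

lemma KK_symm (x y : F) : KK m τ x y = KK m τ y x := by
  unfold KK; rw [pp_symm, norm_sub_rev]

lemma continuous_KK (hτ : 0 < τ) : Continuous fun z : F × F => KK m τ z.1 z.2 := by
  have h := continuous_PP (m := m) hτ
  unfold KK pp
  fun_prop

lemma KK_pos (hτ : 0 < τ) {x y : F} (hx : ‖x‖ < 1) (hy : ‖y‖ < 1) : 0 < KK m τ x y := by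
  unfold KK
  have h1 : 0 < (1 - ‖x‖ ^ 2) * (1 - ‖y‖ ^ 2) := by
    have h3 := norm_nonneg x
    have h4 := norm_nonneg y
    exact mul_pos (by nlinarith) (by nlinarith)
  have h2 : ‖x - y‖ ^ 2 < pp x y := by unfold pp; linarith
  have := PP_strictMono (m := m) hτ h2
  linarith

lemma KK_zero {x : F} (hx : ‖x‖ = 1) (y : F) : KK m τ x y = 0 := by
  unfold KK pp; rw [hx]; simp

lemma pp_eq_qq (z y : F) : pp z y = qq (‖y‖ ^ 2) ((-2 : ℝ) • y) 1 z := by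
  unfold pp qq
  rw [norm_sub_sq_real, inner_smul_left, real_inner_comm y z]
  simp
  ring

lemma dist_eq_qq (z y : F) : ‖z - y‖ ^ 2 = qq 1 ((-2 : ℝ) • y) (‖y‖ ^ 2) z := by
  unfold qq
  rw [norm_sub_sq_real, inner_smul_left, real_inner_comm y z]
  simp
  ring

/-- gradient field of `K(·,y)` -/
def GK (m : ℕ) (τ : ℝ) (y z : F) : F :=
  GF (gg m τ) (‖y‖ ^ 2) ((-2 : ℝ) • y) 1 z - GF (gg m τ) 1 ((-2 : ℝ) • y) (‖y‖ ^ 2) z

/-- second derivative of `K(·,y)` -/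
def HK (m : ℕ) (τ : ℝ) (y z : F) : F →L[ℝ] F :=
  HF (gg m τ) (gg1 m τ) (‖y‖ ^ 2) ((-2 : ℝ) • y) 1 z -
    HF (gg m τ) (gg1 m τ) 1 ((-2 : ℝ) • y) (‖y‖ ^ 2) z

lemma hasFDerivAt_KK (hτ : 0 < τ) (y z : F) :
    HasFDerivAt (fun z => KK m τ z y) (innerSL ℝ (GK m τ y z)) z := by
  have h1 := hasFDerivAt_comp_qq (hasDerivAt_PP (m := m) hτ) (‖y‖ ^ 2) ((-2 : ℝ) • y) 1 z
  have h2 := hasFDerivAt_comp_qq (hasDerivAt_PP (m := m) hτ) 1 ((-2 : ℝ) • y) (‖y‖ ^ 2) z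
  have h3 := h1.sub h2
  have h4 : (fun z => KK m τ z y) = fun z => PP m τ (qq (‖y‖ ^ 2) ((-2 : ℝ) • y) 1 z) -
      PP m τ (qq 1 ((-2 : ℝ) • y) (‖y‖ ^ 2) z) := by
    funext z
    unfold KK
    rw [pp_eq_qq, dist_eq_qq]
  rw [h4]
  refine h3.congr_fderiv ?_
  simp [GK]

lemma hasFDerivAt_GK (hτ : 0 < τ) (y z : F) : HasFDerivAt (GK m τ y) (HK m τ y z) z :=
  (hasFDerivAt_GF (hasDerivAt_gg (m := m) hτ) (‖y‖ ^ 2) ((-2 : ℝ) • y) 1 z).sub
    (hasFDerivAt_GF (hasDerivAt_gg (m := m) hτ) 1 ((-2 : ℝ) • y) (‖y‖ ^ 2) z)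

lemma continuous_HK (hτ : 0 < τ) (y : F) : Continuous (HK m τ y) :=
  (continuous_HF (continuous_gg hτ) (continuous_gg1 hτ) _ _ _).sub
    (continuous_HF (continuous_gg hτ) (continuous_gg1 hτ) _ _ _)

lemma dv_sub (A B : F →L[ℝ] F) : dv (A - B) = dv A - dv B := by
  unfold dv
  rw [← Finset.sum_sub_distrib]
  refine Finset.sum_congr rfl fun i _ => ?_
  simp [inner_sub_right]

lemma dv_HK (hm : m = Module.finrank ℝ F) (y z : F) :
    dv (HK m τ y z) = ‖y‖ ^ 2 * DD m τ (pp z y) - DD m τ (‖z - y‖ ^ 2) := by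
  unfold HK
  rw [dv_sub, dv_HF, dv_HF, ← pp_eq_qq, ← dist_eq_qq]
  have h1 : ‖(2 * ‖y‖ ^ 2) • z + (-2 : ℝ) • y‖ ^ 2 = 4 * ‖y‖ ^ 2 * pp z y := by
    have : (2 * ‖y‖ ^ 2) • z + (-2 : ℝ) • y = (2 : ℝ) • (‖y‖ ^ 2 • z - y) := by
      rw [smul_sub, smul_smul]; module
    rw [this, norm_smul, mul_pow, norm_sub_sq_real, norm_smul, inner_smul_left]
    unfold pp
    rw [norm_sub_sq_real]
    simp
    ring
  have h2 : ‖(2 * (1 : ℝ)) • z + (-2 : ℝ) • y‖ ^ 2 = 4 * ‖z - y‖ ^ 2 := by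
    have : (2 * (1 : ℝ)) • z + (-2 : ℝ) • y = (2 : ℝ) • (z - y) := by module
    rw [this, norm_smul, mul_pow]
    norm_num
  rw [h1, h2]
  unfold DD
  rw [hm]
  ring

lemma pp_ge (hτ : 0 < τ) {z y : F} (hz : ‖z‖ ≤ 1 - τ) (hy : ‖y‖ ≤ 1 - τ) : τ ^ 2 ≤ pp z y := by
  unfold pp
  have h1 : τ ≤ 1 - ‖z‖ ^ 2 := by nlinarith [norm_nonneg z]
  have h2 : τ ≤ 1 - ‖y‖ ^ 2 := by nlinarith [norm_nonneg y]
  have h3 : τ * τ ≤ (1 - ‖z‖ ^ 2) * (1 - ‖y‖ ^ 2) := by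
    apply mul_le_mul h1 h2 hτ.le (by linarith)
  have h4 : 0 ≤ ‖z - y‖ ^ 2 := by positivity
  nlinarith

lemma dv_HK' (hm : m = Module.finrank ℝ F) (hτ : 0 < τ) {y z : F} (hz : ‖z‖ ≤ 1 - τ)
    (hy : ‖y‖ ≤ 1 - τ) : dv (HK m τ y z) = - DD m τ (‖z - y‖ ^ 2) := by
  rw [dv_HK hm, DD_of_ge hτ (pp_ge hτ hz hy)]
  ring

end

end Crest.Agent.R234.Pot_425
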