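import Crest.Prelude.Def_Varifold

/-!
Row 234, VF-PROD (helper937), file 1: the splitting `Euc (k+1) = ℝ × Euc k`.
-/

set_option autoImplicit false

open MeasureTheory Crest.GeometryTopology.Submanifold
open scoped ENNReal InnerProductSpace

noncomputable section

namespace Crest.Agent.R234.Pr_937

variable {k : ℕ}

/-- horizontal embedding. -/
def emb (k : ℕ) : Euc k →L[ℝ] Euc (k + 1) :=
  LinearMap.toContinuousLinearMap
    { toFun := fun x => WithLp.toLp 2 (Fin.cons 0 (fun i => x i) : Fin (k + 1) → ℝ)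
      map_add' := fun x y => by
        ext i
        refine Fin.cases ?_ (fun j => ?_) i <;> simp
      map_smul' := fun c x => by
        ext i
        refine Fin.cases ?_ (fun j => ?_) i <;> simp }

/-- vertical unit vector. -/
def e (k : ℕ) : Euc (k + 1) := EuclideanSpace.single 0 1

/-- projection to the base. -/
def pr (k : ℕ) : Euc (k + 1) →L[ℝ] Euc k :=
  LinearMap.toContinuousLinearMap
    { toFun := fun x => WithLp.toLp 2 (fun i => x i.succ)
      map_add' := fun x y => by ext i; simp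
      map_smul' := fun c x => by ext i; simp }

/-- height. -/
def ht (k : ℕ) : Euc (k + 1) →L[ℝ] ℝ :=
  LinearMap.toContinuousLinearMap
    { toFun := fun x => x 0
      map_add' := fun x y => by simp
      map_smul' := fun c x => by simp }

@[simp] theorem emb_zero (x : Euc k) : emb k x 0 = 0 := rfl
@[simp] theorem emb_succ (x : Euc k) (i : Fin k) : emb k x i.succ = x i := rfl
@[simp] theorem e_zero : e k 0 = 1 := by simp [e]
@[simp] theorem e_succ (i : Fin k) : e k i.succ = 0 := by simp [e]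
@[simp] theorem pr_apply (x : Euc (k + 1)) (i : Fin k) : pr k x i = x i.succ := rfl
theorem ht_apply (x : Euc (k + 1)) : ht k x = x 0 := rfl

@[simp] theorem pr_emb (x : Euc k) : pr k (emb k x) = x := by ext i; simp
@[simp] theorem pr_e : pr k (e k) = 0 := by ext i; simp
@[simp] theorem ht_emb (x : Euc k) : ht k (emb k x) = 0 := rfl
@[simp] theorem ht_e : ht k (e k) = 1 := by simp [ht_apply]

theorem split (w : Euc (k + 1)) : ht k w • e k + emb k (pr k w) = w := by
  ext i
  refine Fin.cases ?_ (fun j => ?_) i <;> simp [ht_apply]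

/-- the product map. -/
def J (k : ℕ) (p : ℝ × Euc k) : Euc (k + 1) := p.1 • e k + emb k p.2

@[simp] theorem pr_J (p : ℝ × Euc k) : pr k (J k p) = p.2 := by simp [J]
@[simp] theorem ht_J (p : ℝ × Euc k) : ht k (J k p) = p.1 := by simp [J]
theorem J_split (w : Euc (k + 1)) : J k (ht k w, pr k w) = w := split w

theorem J_eq (p : ℝ × Euc k) :
    J k p = WithLp.toLp 2 (Fin.cons p.1 (fun i => p.2 i) : Fin (k + 1) → ℝ) := by
  ext i
  refine Fin.cases ?_ (fun j => ?_) i <;> simp [J]

theorem continuous_J : Continuous (J k) := by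
  unfold J
  fun_prop

theorem norm_sq_J (p : ℝ × Euc k) : ‖J k p‖ ^ 2 = p.1 ^ 2 + ‖p.2‖ ^ 2 := by
  rw [J_eq, EuclideanSpace.real_norm_sq_eq, EuclideanSpace.real_norm_sq_eq, Fin.sum_univ_succ]
  simp

theorem inner_J (p q : ℝ × Euc k) : ⟪J k p, J k q⟫_ℝ = p.1 * q.1 + ⟪p.2, q.2⟫_ℝ := by
  rw [J_eq, J_eq, PiLp.inner_apply, PiLp.inner_apply, Fin.sum_univ_succ]
  simp [mul_comm]

theorem norm_sq_split (w : Euc (k + 1)) : ‖w‖ ^ 2 = ht k w ^ 2 + ‖pr k w‖ ^ 2 := by
  conv_lhs => rw [← J_split w]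
  rw [norm_sq_J]

theorem norm_pr_le (w : Euc (k + 1)) : ‖pr k w‖ ≤ ‖w‖ := by
  have := norm_sq_split w
  nlinarith [norm_nonneg w, norm_nonneg (pr k w), sq_nonneg (ht k w)]

theorem abs_ht_le (w : Euc (k + 1)) : |ht k w| ≤ ‖w‖ := by
  have := norm_sq_split w
  refine abs_le_of_sq_le_sq ?_ (norm_nonneg _)
  nlinarith [sq_nonneg ‖pr k w‖]

theorem J_sub (p q : ℝ × Euc k) : J k p - J k q = J k (p - q) := by
  simp only [J, Prod.fst_sub, Prod.snd_sub, map_sub, sub_smul]
  abel

theorem volume_preserving_J : MeasurePreserving (J k) volume volume := by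
  have h1 := (volume_preserving_piFinSuccAbove (fun _ : Fin (k + 1) => ℝ) 0).symm
  have h2 : MeasurePreserving (@WithLp.toLp 2 (Fin (k + 1) → ℝ)) volume volume :=
    PiLp.volume_preserving_toLp (Fin (k + 1))
  have h3 : MeasurePreserving (Prod.map (id : ℝ → ℝ) (@WithLp.ofLp 2 (Fin k → ℝ)))
      (volume.prod volume) (volume.prod volume) :=
    (MeasurePreserving.id volume).prod (PiLp.volume_preserving_ofLp (Fin k))
  have h4 := (h2.comp h1).comp h3
  have h5 : J k = (@WithLp.toLp 2 (Fin (k + 1) → ℝ) ∘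
      (MeasurableEquiv.piFinSuccAbove (fun _ : Fin (k + 1) => ℝ) 0).symm) ∘
      Prod.map (id : ℝ → ℝ) (@WithLp.ofLp 2 (Fin k → ℝ)) := by
    funext p
    rw [J_eq]
    simp only [Function.comp]
    congr 1
    funext i
    refine Fin.cases ?_ (fun j => ?_) i
    · simp [MeasurableEquiv.piFinSuccAbove]
    · simp [MeasurableEquiv.piFinSuccAbove]
  rw [h5]
  exact h4

end Crest.Agent.R234.Pr_937
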