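import Crest.Agent.R234.Vf2_884
import Crest.Agent.R234.Pr1_937

/-!
Row 234, VF-PROD (helper937), file 2: the product of a general stationary varifold with a line.
-/

set_option autoImplicit false

open MeasureTheory Crest.GeometryTopology.Submanifold Crest.Agent.R234.Vf_884
open scoped ENNReal InnerProductSpace

noncomputable section

namespace Crest.Agent.R234.Pr_937

variable {m k : ℕ}

theorem stdVec_zero : stdVec (k + 1) 0 = e k := rfl

theorem stdVec_succ (j : Fin k) : stdVec (k + 1) j.succ = emb k (stdVec k j) := by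
  ext i
  refine Fin.cases ?_ (fun l => ?_) i
  · simp [stdVec]
  · simp [stdVec]

theorem inner_emb (x y : Euc k) : ⟪emb k x, emb k y⟫_ℝ = ⟪x, y⟫_ℝ := by
  have h := inner_J (k := k) (0, x) (0, y)
  simpa [J] using h

theorem inner_split (v w : Euc (k + 1)) :
    ⟪v, w⟫_ℝ = ht k v * ht k w + ⟪pr k v, pr k w⟫_ℝ := by
  conv_lhs => rw [← J_split v, ← J_split w]
  rw [inner_J]

/-- rectangular trace commutation. -/
theorem tr_rect {k l : ℕ} (A : Euc k →L[ℝ] Euc l) (B : Euc l →L[ℝ] Euc k) :
    tr (A ∘L B) = tr (B ∘L A) := by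
  rw [tr_apply, tr_apply]
  exact LinearMap.trace_comp_comm' B.toLinearMap A.toLinearMap

theorem tr_smulRight (c : Euc k →L[ℝ] ℝ) (y : Euc k) : tr (c.smulRight y) = c y := by
  rw [tr_eq_sum]
  have h : y = ∑ i, ⟪stdVec k i, y⟫_ℝ • stdVec k i := by
    ext j
    simp [stdVec, Pi.single_apply, EuclideanSpace.inner_single_left]
  conv_rhs => rw [h, map_sum]
  refine Finset.sum_congr rfl fun i _ => ?_
  rw [map_smul, smul_eq_mul, ContinuousLinearMap.smulRight_apply, inner_smul_right]
  ring

/-- the plane spanned by the line and a plane. -/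
def liftP (P : L k) : L (k + 1) := (ht k).smulRight (e k) + emb k ∘L P ∘L pr k

theorem liftP_apply (P : L k) (w : Euc (k + 1)) :
    liftP P w = ht k w • e k + emb k (P (pr k w)) := by
  simp [liftP]

theorem liftP_J (P : L k) (w : Euc (k + 1)) : liftP P w = J k (ht k w, P (pr k w)) :=
  liftP_apply P w

theorem continuous_liftP : Continuous (liftP (k := k)) := by
  unfold liftP
  fun_prop

theorem tr_comp_liftP (A : L (k + 1)) (P : L k) :
    tr (A ∘L liftP P) = ht k (A (e k)) + tr ((pr k ∘L A ∘L emb k) ∘L P) := by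
  have h1 : A ∘L liftP P = (ht k).smulRight (A (e k)) + (A ∘L emb k ∘L P) ∘L pr k := by
    ext1 w
    simp [liftP]
  rw [h1, map_add, tr_smulRight, tr_rect]
  rfl

theorem liftP_mem {P : L k} (h : P ∈ G m k) : liftP P ∈ G (m + 1) (k + 1) := by
  refine ⟨?_, ?_, ?_⟩
  · ext1 w
    rw [ContinuousLinearMap.comp_apply, liftP_J, liftP_J]
    simp [G_idem_apply h]
  · rw [ContinuousLinearMap.isSelfAdjoint_iff_isSymmetric]
    intro v w
    change ⟪liftP P v, w⟫_ℝ = ⟪v, liftP P w⟫_ℝ
    rw [inner_split, inner_split, liftP_J, liftP_J]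
    simp [G_symm h]
  · have h1 := tr_comp_liftP (ContinuousLinearMap.id ℝ (Euc (k + 1))) P
    rw [ContinuousLinearMap.id_comp] at h1
    rw [h1]
    have h2 : (pr k ∘L ContinuousLinearMap.id ℝ (Euc (k + 1)) ∘L emb k) ∘L P = P := by
      ext1 w
      simp
    rw [h2, h.2.2]
    simp
    ring

/-- the product of a general varifold with the line. -/
def lmap (q : ℝ × (Euc k × L k)) : Euc (k + 1) × L (k + 1) := (J k (q.1, q.2.1), liftP q.2.2)

theorem continuous_lmap : Continuous (lmap (k := k)) := by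
  unfold lmap
  exact (continuous_J.comp (by fun_prop)).prodMk (continuous_liftP.comp (by fun_prop))

def line (V : Measure (Euc k × L k)) : Measure (Euc (k + 1) × L (k + 1)) :=
  ((volume : Measure ℝ).prod V).map lmap

variable {U : Set (Euc k)} {V : Measure (Euc k × L k)}

theorem line_conc [SFinite V] (hV : Stat m k U V) : ∀ᵐ p ∂(line V), p.2 ∈ G (m + 1) (k + 1) := by
  unfold line
  rw [ae_map_iff continuous_lmap.measurable.aemeasurable
    (measurable_snd (measurableSet_G (m + 1) (k + 1)))]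
  have h1 : ∀ᵐ q ∂((volume : Measure ℝ).prod V), q.2.2 ∈ G m k := by
    have h2 := (Measure.quasiMeasurePreserving_snd (μ := (volume : Measure ℝ)) (ν := V)).ae
      hV.conc
    exact h2
  filter_upwards [h1] with q hq
  exact liftP_mem hq

theorem line_prod_le [SFinite V] (K : Set (Euc (k + 1))) {R : ℝ} (hK : ∀ w ∈ K, |ht k w| ≤ R)
    (hKm : MeasurableSet K) :
    line V (K ×ˢ Set.univ) ≤ ENNReal.ofReal (2 * R) * V ((pr k '' K) ×ˢ Set.univ) := by
  unfold line
  rw [Measure.map_apply continuous_lmap.measurable (hKm.prod MeasurableSet.univ)]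
  have h1 : lmap ⁻¹' (K ×ˢ Set.univ) ⊆ (Set.Icc (-R) R) ×ˢ ((pr k '' K) ×ˢ (Set.univ : Set (L k))) := by
    rintro ⟨t, x, P⟩ ⟨h, -⟩
    have h : J k (t, x) ∈ K := h
    refine ⟨?_, ⟨J k (t, x), h, by simp⟩, trivial⟩
    have := hK _ h
    rw [ht_J] at this
    exact abs_le.1 this
  refine (measure_mono h1).trans ?_
  rw [Measure.prod_prod, Real.volume_Icc]
  gcongr
  linarith

theorem line_fin [SFinite V] (hV : Stat m k U V) {K : Set (Euc (k + 1))} (hK : IsCompact K)
    (hKU : K ⊆ {w | pr k w ∈ U}) : line V (K ×ˢ Set.univ) < ⊤ := by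
  obtain ⟨R, hR⟩ := hK.isBounded.exists_norm_le
  refine (line_prod_le K (R := R) (fun w hw => (abs_ht_le w).trans (hR w hw))
    hK.measurableSet).trans_lt ?_
  refine ENNReal.mul_lt_top ENNReal.ofReal_lt_top ?_
  refine hV.fin _ (hK.image (pr k).continuous) ?_
  rintro _ ⟨w, hw, rfl⟩
  exact hKU hw

end Crest.Agent.R234.Pr_937
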