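import Crest.Agent.R234.Pr2_937

/-!
Row 234, VF-PROD (helper937), file 3: the product of a stationary varifold with a line is
stationary.
-/

set_option autoImplicit false

open MeasureTheory Crest.GeometryTopology.Submanifold Crest.Agent.R234.Vf_884
open scoped ENNReal InnerProductSpace

noncomputable section

namespace Crest.Agent.R234.Pr_937

variable {m k : ℕ}

/-- horizontal slice of a field. -/
def slice (X : Euc (k + 1) → Euc (k + 1)) (t : ℝ) (x : Euc k) : Euc k := pr k (X (J k (t, x)))

theorem hasFDerivAt_slice {X : Euc (k + 1) → Euc (k + 1)} (hX : ContDiff ℝ 1 X) (t : ℝ)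
    (x : Euc k) :
    HasFDerivAt (slice X t) (pr k ∘L fderiv ℝ X (J k (t, x)) ∘L emb k) x := by
  have h1 : HasFDerivAt (fun x : Euc k => J k (t, x)) (emb k) x := by
    unfold J
    simpa using (emb k).hasFDerivAt.const_add (t • e k)
  have h2 : HasFDerivAt X (fderiv ℝ X (J k (t, x))) (J k (t, x)) :=
    (hX.differentiable one_ne_zero _).hasFDerivAt
  exact (pr k).hasFDerivAt.comp x (h2.comp x h1)

theorem contDiff_slice {X : Euc (k + 1) → Euc (k + 1)} (hX : ContDiff ℝ 1 X) (t : ℝ) :
    ContDiff ℝ 1 (slice X t) := by
  have h1 : ContDiff ℝ 1 fun x : Euc k => J k (t, x) := by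
    have h2 : ContDiff ℝ 1 fun x : Euc k => t • e k + emb k x :=
      contDiff_const.add (emb k).contDiff
    exact h2
  exact (pr k).contDiff.comp (hX.comp h1)

theorem support_slice {X : Euc (k + 1) → Euc (k + 1)} (hXc : HasCompactSupport X) (t : ℝ) :
    tsupport (slice X t) ⊆ pr k '' tsupport X := by
  have h0 : IsCompact (pr k '' tsupport X) := IsCompact.image hXc (pr k).continuous
  refine closure_minimal ?_ h0.isClosed
  intro x hx
  refine ⟨J k (t, x), subset_tsupport _ fun h => hx ?_, by simp⟩
  unfold slice
  rw [h, map_zero]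

variable {U : Set (Euc k)} {V : Measure (Euc k × L k)}

theorem hasDerivAt_vert {X : Euc (k + 1) → Euc (k + 1)} (hX : ContDiff ℝ 1 X) (x : Euc k)
    (t : ℝ) :
    HasDerivAt (fun t : ℝ => ht k (X (J k (t, x)))) (ht k (fderiv ℝ X (J k (t, x)) (e k))) t := by
  have h1 : HasDerivAt (fun t : ℝ => J k (t, x)) (e k) t := by
    unfold J
    simpa using ((hasDerivAt_id t).smul_const (e k)).add_const (emb k x)
  have h2 : HasFDerivAt X (fderiv ℝ X (J k (t, x))) (J k (t, x)) :=
    (hX.differentiable one_ne_zero _).hasFDerivAt
  exact (ht k).hasFDerivAt.comp_hasDerivAt t (h2.comp_hasDerivAt t h1)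

theorem line_stat [SFinite V] (hV : Stat m k U V) :
    Stat (m + 1) (k + 1) {w | pr k w ∈ U} (line V) where
  conc := line_conc hV
  fin _ hK hKU := line_fin hV hK hKU
  stat X hX hXc hXU := by
    have hint := integrable_fv (line_conc hV) hX hXc (line_fin hV hXc hXU)
    have hint' : Integrable (fun q : ℝ × (Euc k × L k) =>
        tr (fderiv ℝ X (J k (q.1, q.2.1)) ∘L liftP q.2.2)) ((volume : Measure ℝ).prod V) := by
      unfold line at hint
      rw [integrable_map_measure hint.aestronglyMeasurable
        continuous_lmap.measurable.aemeasurable] at hint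
      exact hint
    obtain ⟨R, hR⟩ := hXc.isBounded.exists_norm_le
    -- the compact set where everything lives
    set K : Set (Euc k) := pr k '' tsupport X with hKdef
    have hK : IsCompact K := hXc.image (pr k).continuous
    have hKU : K ⊆ U := by
      rintro _ ⟨w, hw, rfl⟩
      exact hXU hw
    have hVK : V (K ×ˢ Set.univ) < ⊤ := hV.fin K hK hKU
    have hzero : ∀ t : ℝ, ∀ x : Euc k, ¬ (t ∈ Set.Icc (-R) R ∧ x ∈ K) →
        fderiv ℝ X (J k (t, x)) = 0 := by
      intro t x hn
      by_contra hne
      have h1 : J k (t, x) ∈ tsupport X := support_fderiv_subset ℝ hne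
      refine hn ⟨?_, ⟨_, h1, by simp⟩⟩
      have h2 := (abs_ht_le (J k (t, x))).trans (hR _ h1)
      rw [ht_J] at h2
      exact abs_le.1 h2
    have hcd : Continuous fun q : ℝ × (Euc k × L k) => fderiv ℝ X (J k (q.1, q.2.1)) :=
      (hX.continuous_fderiv one_ne_zero).comp (continuous_J.comp (by fun_prop))
    -- the second part is integrable
    have hF2 : Integrable (fun q : ℝ × (Euc k × L k) =>
        ht k (fderiv ℝ X (J k (q.1, q.2.1)) (e k))) ((volume : Measure ℝ).prod V) := by
      have hc2 : Continuous fun q : ℝ × (Euc k × L k) =>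
          ht k (fderiv ℝ X (J k (q.1, q.2.1)) (e k)) :=
        (ht k).continuous.comp (hcd.clm_apply continuous_const)
      obtain ⟨C, hC⟩ : ∃ C, ∀ w ∈ tsupport X, ‖fderiv ℝ X w‖ ≤ C :=
        hXc.exists_bound_of_continuousOn (hX.continuous_fderiv one_ne_zero).continuousOn
      set S : Set (ℝ × (Euc k × L k)) := Set.Icc (-R) R ×ˢ (K ×ˢ Set.univ) with hS
      have hSm : MeasurableSet S :=
        measurableSet_Icc.prod (hK.measurableSet.prod MeasurableSet.univ)
      have hSf : ((volume : Measure ℝ).prod V) S < ⊤ := by
        rw [hS, Measure.prod_prod, Real.volume_Icc]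
        exact ENNReal.mul_lt_top ENNReal.ofReal_lt_top hVK
      have h1 : IntegrableOn (fun q : ℝ × (Euc k × L k) =>
          ht k (fderiv ℝ X (J k (q.1, q.2.1)) (e k))) S ((volume : Measure ℝ).prod V) := by
        refine IntegrableOn.of_bound hSf hc2.aestronglyMeasurable (max C 0 * ‖e k‖) ?_
        refine Filter.Eventually.of_forall fun q => ?_
        have h3 : ‖fderiv ℝ X (J k (q.1, q.2.1))‖ ≤ max C 0 := by
          by_cases hq : J k (q.1, q.2.1) ∈ tsupport X
          · exact (hC _ hq).trans (le_max_left _ _)
          · have : fderiv ℝ X (J k (q.1, q.2.1)) = 0 := by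
              by_contra hne
              exact hq (support_fderiv_subset ℝ hne)
            rw [this, norm_zero]
            exact le_max_right _ _
        rw [Real.norm_eq_abs]
        refine (abs_ht_le _).trans ?_
        exact (ContinuousLinearMap.le_opNorm _ _).trans (by gcongr)
      refine (integrableOn_iff_integrable_of_support_subset ?_).1 h1
      intro q hq
      by_contra hcon
      apply hq
      have : fderiv ℝ X (J k (q.1, q.2.1)) = 0 := by
        refine hzero _ _ fun h => hcon ?_
        exact ⟨h.1, h.2, trivial⟩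
      simp [this]
    have hF1 : Integrable (fun q : ℝ × (Euc k × L k) =>
        tr ((pr k ∘L fderiv ℝ X (J k (q.1, q.2.1)) ∘L emb k) ∘L q.2.2))
        ((volume : Measure ℝ).prod V) := by
      refine (hint'.sub hF2).congr (Filter.Eventually.of_forall fun q => ?_)
      simp only [Pi.sub_apply]
      rw [tr_comp_liftP]
      ring
    unfold line
    rw [integral_map continuous_lmap.measurable.aemeasurable]
    swap
    · have := hint.aestronglyMeasurable
      exact this
    have h0 : ∀ q : ℝ × (Euc k × L k), tr (fderiv ℝ X (lmap q).1 ∘L (lmap q).2) =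
        ht k (fderiv ℝ X (J k (q.1, q.2.1)) (e k)) +
          tr ((pr k ∘L fderiv ℝ X (J k (q.1, q.2.1)) ∘L emb k) ∘L q.2.2) := by
      intro q
      exact tr_comp_liftP _ _
    simp_rw [h0]
    rw [integral_add hF2 hF1]
    have hA : ∫ q : ℝ × (Euc k × L k), ht k (fderiv ℝ X (J k (q.1, q.2.1)) (e k))
        ∂((volume : Measure ℝ).prod V) = 0 := by
      rw [integral_prod_symm _ hF2]
      refine integral_eq_zero_of_ae (Filter.Eventually.of_forall fun p => ?_)
      simp only [Pi.zero_apply]
      have hcomp : ∀ t : ℝ, t ∉ Set.Icc (-R) R → X (J k (t, p.1)) = 0 := by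
        intro t ht'
        by_contra hne
        apply ht'
        have h1 : J k (t, p.1) ∈ tsupport X := subset_tsupport _ hne
        have h2 := (abs_ht_le (J k (t, p.1))).trans (hR _ h1)
        rw [ht_J] at h2
        exact abs_le.1 h2
      refine integral_eq_zero_of_hasDerivAt_of_integrable (hasDerivAt_vert hX p.1) ?_ ?_
      · refine Continuous.integrable_of_hasCompactSupport ?_ ?_
        · exact (ht k).continuous.comp (((hX.continuous_fderiv one_ne_zero).comp
            (continuous_J.comp (by fun_prop))).clm_apply continuous_const)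
        · refine HasCompactSupport.intro (isCompact_Icc (a := -R) (b := R)) fun t ht' => ?_
          rw [hzero t p.1 fun h => ht' h.1]
          simp
      · refine Continuous.integrable_of_hasCompactSupport ?_ ?_
        · exact (ht k).continuous.comp (hX.continuous.comp (continuous_J.comp (by fun_prop)))
        · refine HasCompactSupport.intro (isCompact_Icc (a := -R) (b := R)) fun t ht' => ?_
          rw [hcomp t ht']
          simp
    have hB : ∫ q : ℝ × (Euc k × L k),
        tr ((pr k ∘L fderiv ℝ X (J k (q.1, q.2.1)) ∘L emb k) ∘L q.2.2)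
        ∂((volume : Measure ℝ).prod V) = 0 := by
      rw [integral_prod _ hF1]
      refine integral_eq_zero_of_ae (Filter.Eventually.of_forall fun t => ?_)
      simp only [Pi.zero_apply]
      have hsup := support_slice hXc t
      have h1 := hV.stat (slice X t) (contDiff_slice hX t)
        (hK.of_isClosed_subset (isClosed_tsupport _) hsup) (hsup.trans hKU)
      rw [← h1]
      refine integral_congr_ae (Filter.Eventually.of_forall fun p => ?_)
      simp only
      rw [(hasFDerivAt_slice hX t p.1).fderiv]
    rw [hA, hB, add_zero]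

end Crest.Agent.R234.Pr_937
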