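import Crest.Agent.R234.Pr3_937

/-!
Row 234, VF-PROD (helper937), file 4: the product of the frozen varifold data with a line.
-/

set_option autoImplicit false

open MeasureTheory Crest.GeometryTopology.Submanifold Crest.Agent.R234.Vf_884
open scoped ENNReal InnerProductSpace

noncomputable section

namespace Crest.Agent.R234.Pr_937

variable {m k : ℕ}

/-- product of a chart with the line. -/
def pchart (f : Euc m → Euc k) (z : Euc (m + 1)) : Euc (k + 1) := J k (ht m z, f (pr m z))

/-- product of the data with the line. -/
def prodData (D : VarifoldData m k) : VarifoldData (m + 1) (k + 1) where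
  chart i := pchart (D.chart i)
  dom i := {z | pr m z ∈ D.dom i}
  mult i z := D.mult i (pr m z)

section chart

variable {f : Euc m → Euc k}

theorem contDiff_pchart {n : WithTop ℕ∞} (hf : ContDiff ℝ n f) : ContDiff ℝ n (pchart f) := by
  have h1 : ContDiff ℝ n fun z : Euc (m + 1) => ht m z • e k + emb k (f (pr m z)) :=
    ((ht m).contDiff.smul contDiff_const).add ((emb k).contDiff.comp (hf.comp (pr m).contDiff))
  exact h1

theorem hasFDerivAt_pchart {z : Euc (m + 1)} (hf : DifferentiableAt ℝ f (pr m z)) :
    HasFDerivAt (pchart f)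
      ((ht m).smulRight (e k) + emb k ∘L fderiv ℝ f (pr m z) ∘L pr m) z := by
  have h1 : HasFDerivAt (fun z : Euc (m + 1) => ht m z • e k) ((ht m).smulRight (e k)) z :=
    (ht m).hasFDerivAt.smul_const (e k)
  have h2 : HasFDerivAt (fun z : Euc (m + 1) => emb k (f (pr m z)))
      (emb k ∘L fderiv ℝ f (pr m z) ∘L pr m) z :=
    (emb k).hasFDerivAt.comp z (hf.hasFDerivAt.comp z (pr m).hasFDerivAt)
  exact h1.add h2

theorem fderiv_pchart_apply {z : Euc (m + 1)} (hf : DifferentiableAt ℝ f (pr m z))
    (v : Euc (m + 1)) :
    fderiv ℝ (pchart f) z v = J k (ht m v, fderiv ℝ f (pr m z) (pr m v)) := by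
  rw [(hasFDerivAt_pchart hf).fderiv]
  simp [J]

theorem injective_fderiv_pchart {z : Euc (m + 1)} (hf : DifferentiableAt ℝ f (pr m z))
    (hi : Function.Injective (fderiv ℝ f (pr m z))) :
    Function.Injective (fderiv ℝ (pchart f) z) := by
  intro v w h
  rw [fderiv_pchart_apply hf, fderiv_pchart_apply hf] at h
  have h1 : ht m v = ht m w := by simpa using congrArg (ht k) h
  have h2 : pr m v = pr m w := hi (by simpa using congrArg (pr k) h)
  rw [← J_split v, ← J_split w, h1, h2]

theorem pd_zero {z : Euc (m + 1)} (hf : DifferentiableAt ℝ f (pr m z)) :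
    pd (pchart f) z 0 = J k (1, 0) := by
  unfold pd
  rw [stdVec_zero, fderiv_pchart_apply hf]
  simp

theorem pd_succ {z : Euc (m + 1)} (hf : DifferentiableAt ℝ f (pr m z)) (j : Fin m) :
    pd (pchart f) z j.succ = J k (0, pd f (pr m z) j) := by
  unfold pd
  rw [stdVec_succ, fderiv_pchart_apply hf]
  simp

theorem det_metricMat_pchart {z : Euc (m + 1)} (hf : DifferentiableAt ℝ f (pr m z)) :
    (metricMat (pchart f) z).det = (metricMat f (pr m z)).det := by
  rw [Matrix.det_succ_row_zero, Fin.sum_univ_succ]
  have h0 : ∀ j : Fin m, metricMat (pchart f) z 0 j.succ = 0 := by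
    intro j
    simp only [metricMat, Matrix.of_apply]
    rw [pd_zero hf, pd_succ hf, inner_J]
    simp
  have h1 : metricMat (pchart f) z 0 0 = 1 := by
    simp only [metricMat, Matrix.of_apply]
    rw [pd_zero hf, inner_J]
    simp
  have h2 : (metricMat (pchart f) z).submatrix Fin.succ Fin.succ
      = metricMat f (pr m z) := by
    ext i j
    simp only [metricMat, Matrix.of_apply, Matrix.submatrix_apply]
    rw [pd_succ hf, pd_succ hf, inner_J]
    simp
  simp [h0, h1, h2]

theorem jac_pchart {z : Euc (m + 1)} (hf : DifferentiableAt ℝ f (pr m z)) :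
    jac (pchart f) z = jac f (pr m z) := by
  unfold jac
  rw [det_metricMat_pchart hf]

theorem tangentAt_pchart {z : Euc (m + 1)} (hf : DifferentiableAt ℝ f (pr m z))
    (w : Euc (k + 1)) :
    w ∈ tangentAt (pchart f) z ↔ pr k w ∈ tangentAt f (pr m z) := by
  rw [tangentAt_eq_range, tangentAt_eq_range]
  constructor
  · rintro ⟨v, hv⟩
    refine ⟨pr m v, ?_⟩
    have hv' : fderiv ℝ (pchart f) z v = w := hv
    rw [fderiv_pchart_apply hf] at hv'
    rw [← hv']
    simp
  · rintro ⟨v, hv⟩
    refine ⟨J m (ht k w, v), ?_⟩
    change fderiv ℝ (pchart f) z (J m (ht k w, v)) = w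
    rw [fderiv_pchart_apply hf]
    have hv' : fderiv ℝ f (pr m z) v = pr k w := hv
    simp only [ht_J, pr_J, hv', J_split]

theorem projF_pchart {z : Euc (m + 1)} (hf : DifferentiableAt ℝ f (pr m z)) :
    projF (pchart f) z = liftP (projF f (pr m z)) := by
  ext1 v
  unfold projF
  refine Submodule.eq_starProjection_of_mem_orthogonal (K := tangentAt (pchart f) z) ?_ ?_
  · rw [tangentAt_pchart hf, liftP_J, pr_J]
    exact Submodule.starProjection_apply_mem _ _
  · rw [Submodule.mem_orthogonal]
    intro u hu
    rw [tangentAt_pchart hf] at hu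
    rw [inner_split, liftP_J, map_sub, map_sub, ht_J, pr_J, sub_self, mul_zero, zero_add]
    exact Submodule.inner_right_of_mem_orthogonal hu
      (Submodule.sub_starProjection_mem_orthogonal _)

end chart

variable {U : Set (Euc k)} {D : VarifoldData m k}

theorem diff_chart (hD : IsIntegralVarifoldIn U D) (i : ℕ) (a : Euc m) :
    DifferentiableAt ℝ (D.chart i) a := (hD.contDiff i).differentiable one_ne_zero a

instance sfinite_base (D : VarifoldData m k) (i : ℕ) : SFinite (base D i) := by
  unfold base
  infer_instance

instance sfinite_VD (D : VarifoldData m k) : SFinite (VD D) := by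
  unfold VD
  infer_instance

theorem measurableEmbedding_J : MeasurableEmbedding (J k) := by
  refine (Topology.IsClosedEmbedding.measurableEmbedding ?_)
  refine Topology.IsClosedEmbedding.of_continuous_injective_isClosedMap continuous_J ?_ ?_
  · intro p q h
    have h1 := congrArg (ht k) h
    have h2 := congrArg (pr k) h
    rw [ht_J, ht_J] at h1
    rw [pr_J, pr_J] at h2
    exact Prod.ext h1 h2
  · intro S hS
    have : J k '' S = (fun w => (ht k w, pr k w)) ⁻¹' S := by
      ext w
      constructor
      · rintro ⟨p, hp, rfl⟩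
        simpa using hp
      · intro hw
        exact ⟨_, hw, J_split w⟩
    rw [this]
    exact hS.preimage ((ht k).continuous.prodMk (pr k).continuous)

theorem base_prodData (hD : IsIntegralVarifoldIn U D) (i : ℕ) :
    base (prodData D) i = ((volume : Measure ℝ).prod (base D i)).map (J m) := by
  have hd : ∀ z, dens (prodData D) i z = dens D i (pr m z) := by
    intro z
    change ENNReal.ofReal (((D.mult i (pr m z) : ℕ) : ℝ) * jac (pchart (D.chart i)) z) = _
    rw [jac_pchart (diff_chart hD i _)]
    rfl
  have hdom : (prodData D).dom i = {z | pr m z ∈ D.dom i} := rfl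
  have hdm : MeasurableSet ((prodData D).dom i) := (pr m).continuous.measurable (hD.measurableSet i)
  have hJm : Measurable (J m) := continuous_J.measurable
  refine Measure.ext_of_lintegral _ fun φ hφ => ?_
  rw [lintegral_map hφ hJm]
  unfold base
  rw [lintegral_withDensity_eq_lintegral_mul _ ?_ hφ]
  swap
  · have : dens (prodData D) i = fun z => dens D i (pr m z) := funext hd
    rw [this]
    exact (measurable_dens hD i).comp (pr m).continuous.measurable
  rw [prod_withDensity_right (measurable_dens hD i)]
  rw [lintegral_withDensity_eq_lintegral_mul (f := fun z : ℝ × Euc m => dens D i z.2) _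
    ((measurable_dens hD i).comp measurable_snd)
    (g := fun a => φ (J m a)) (hφ.comp hJm)]
  have h1 : (volume : Measure ℝ).prod (volume.restrict (D.dom i))
      = ((volume : Measure ℝ).prod (volume : Measure (Euc m))).restrict
        (Set.univ ×ˢ D.dom i) := by
    rw [← Measure.prod_restrict, Measure.restrict_univ]
  rw [h1, ← lintegral_indicator hdm, ← lintegral_indicator (MeasurableSet.univ.prod
    (hD.measurableSet i))]
  have h2 := (volume_preserving_J (k := m)).lintegral_comp_emb measurableEmbedding_J
    (((prodData D).dom i).indicator ((dens (prodData D) i) * φ))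
  rw [← h2]
  refine lintegral_congr fun q => ?_
  by_cases hq : q.2 ∈ D.dom i
  · rw [Set.indicator_of_mem, Set.indicator_of_mem]
    · simp [hd]
    · exact ⟨trivial, hq⟩
    · rw [hdom]
      simpa using hq
  · rw [Set.indicator_of_notMem, Set.indicator_of_notMem]
    · exact fun h => hq h.2
    · rw [hdom]
      simpa using hq

end Crest.Agent.R234.Pr_937
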