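import Crest.Agent.R234.Pr4_937

/-!
Row 234, VF-PROD (helper937), file 5: the product data is a stationary integral varifold.
-/

set_option autoImplicit false

open MeasureTheory Crest.GeometryTopology.Submanifold Crest.Agent.R234.Vf_884
open scoped ENNReal InnerProductSpace

noncomputable section

namespace Crest.Agent.R234.Pr_937

variable {m k : ℕ} {U : Set (Euc k)} {D : VarifoldData m k}

theorem measurable_J : Measurable (J k) := continuous_J.measurable

instance sfinite_weight (D : VarifoldData m k) : SFinite (weight D) := by
  unfold weight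
  infer_instance

theorem weight_eq_sum (D : VarifoldData m k) :
    weight D = Measure.sum fun i => (base D i).map (D.chart i) := rfl

theorem pchart_J (f : Euc m → Euc k) (q : ℝ × Euc m) : pchart f (J m q) = J k (q.1, f q.2) := by
  simp [pchart]

theorem lift_prodData (hD : IsIntegralVarifoldIn U D) (i : ℕ) (q : ℝ × Euc m) :
    lift (prodData D) i (J m q) = lmap (q.1, lift D i q.2) := by
  refine Prod.ext ?_ ?_
  · exact pchart_J _ _
  · change projF (pchart (D.chart i)) (J m q) = liftP (projF (D.chart i) q.2)
    rw [projF_pchart (diff_chart hD i _), pr_J]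

theorem weight_prodData (hD : IsIntegralVarifoldIn U D) :
    weight (prodData D) = ((volume : Measure ℝ).prod (weight D)).map (J k) := by
  rw [weight_eq_sum D, Measure.prod_sum_right, Measure.map_sum measurable_J.aemeasurable,
    weight_eq_sum]
  congr 1
  funext i
  have h1 : Measurable (pchart (D.chart i)) := (contDiff_pchart (hD.contDiff i)).continuous.measurable
  have h2 : Measurable (D.chart i) := (hD.contDiff i).continuous.measurable
  have h3 : (volume : Measure ℝ).prod ((base D i).map (D.chart i))
      = ((volume : Measure ℝ).prod (base D i)).map (Prod.map id (D.chart i)) := by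
    conv_lhs => rw [← Measure.map_id (μ := (volume : Measure ℝ))]
    rw [Measure.map_prod_map _ _ measurable_id h2]
  rw [base_prodData hD]
  change ((Measure.map (J m) _).map (pchart (D.chart i))) = _
  rw [h3, Measure.map_map h1 measurable_J, Measure.map_map measurable_J (measurable_id.prodMap h2)]
  congr 1
  funext q
  exact pchart_J _ _

theorem VD_prodData (hD : IsIntegralVarifoldIn U D) : VD (prodData D) = line (VD D) := by
  unfold line
  unfold VD
  rw [Measure.prod_sum_right, Measure.map_sum continuous_lmap.measurable.aemeasurable]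
  congr 1
  funext i
  rw [base_prodData hD]
  have hl := aemeasurable_lift hD i
  have hq : AEMeasurable (fun q : ℝ × Euc m => (q.1, lift D i q.2))
      ((volume : Measure ℝ).prod (base D i)) :=
    measurable_fst.aemeasurable.prodMk
      (hl.comp_quasiMeasurePreserving Measure.quasiMeasurePreserving_snd)
  have hq2 : lift (prodData D) i ∘ J m = lmap ∘ fun q : ℝ × Euc m => (q.1, lift D i q.2) := by
    funext q
    exact lift_prodData hD i q
  have h3 : (volume : Measure ℝ).prod ((base D i).map (lift D i))
      = ((volume : Measure ℝ).prod (base D i)).map (fun q : ℝ × Euc m => (q.1, lift D i q.2)) := by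
    have h4 : (base D i).map (lift D i) = (base D i).map (hl.mk _) :=
      Measure.map_congr hl.ae_eq_mk
    have h5 : (fun q : ℝ × Euc m => (q.1, lift D i q.2))
        =ᵐ[(volume : Measure ℝ).prod (base D i)] Prod.map id (hl.mk _) := by
      have h6 := (Measure.quasiMeasurePreserving_snd (μ := (volume : Measure ℝ))
        (ν := base D i)).ae hl.ae_eq_mk
      filter_upwards [h6] with q hq
      exact Prod.ext rfl hq
    rw [Measure.map_congr h5, h4]
    conv_lhs => rw [← Measure.map_id (μ := (volume : Measure ℝ))]
    rw [Measure.map_prod_map _ _ measurable_id hl.measurable_mk]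
  rw [h3, AEMeasurable.map_map_of_aemeasurable continuous_lmap.measurable.aemeasurable hq, ← hq2,
    AEMeasurable.map_map_of_aemeasurable _ measurable_J.aemeasurable]
  rw [measurableEmbedding_J.aemeasurable_map_iff, hq2]
  exact continuous_lmap.measurable.comp_aemeasurable hq

theorem isIntegral_prodData (hD : IsIntegralVarifoldIn U D) :
    IsIntegralVarifoldIn {w | pr k w ∈ U} (prodData D) where
  measurableSet i := (pr m).continuous.measurable (hD.measurableSet i)
  contDiff i := contDiff_pchart (hD.contDiff i)
  injOn i z hz z' hz' h := by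
    have h : J k (ht m z, D.chart i (pr m z)) = J k (ht m z', D.chart i (pr m z')) := h
    have h1 : ht m z = ht m z' := by simpa using congrArg (ht k) h
    have h2 : pr m z = pr m z' := hD.injOn i hz hz' (by simpa using congrArg (pr k) h)
    rw [← J_split z, ← J_split z', h1, h2]
  injective_fderiv i z hz :=
    injective_fderiv_pchart (diff_chart hD i _) (hD.injective_fderiv i _ hz)
  disjoint i j hij := by
    rw [Set.disjoint_left]
    rintro w ⟨z, hz, rfl⟩ ⟨z', hz', h⟩
    have h : J k (ht m z', D.chart j (pr m z')) = J k (ht m z, D.chart i (pr m z)) := h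
    have h2 : D.chart j (pr m z') = D.chart i (pr m z) := by simpa using congrArg (pr k) h
    exact Set.disjoint_left.1 (hD.disjoint i j hij) ⟨_, hz, rfl⟩ ⟨_, hz', h2⟩
  subset i := by
    rintro w ⟨z, hz, rfl⟩
    change pr k (J k (ht m z, D.chart i (pr m z))) ∈ U
    rw [pr_J]
    exact hD.subset i ⟨_, hz, rfl⟩
  measurable_mult i := (hD.measurable_mult i).comp (pr m).continuous.measurable
  mult_pos i z hz := hD.mult_pos i _ hz
  locallyFinite K hK hKU := by
    obtain ⟨R, hR⟩ := hK.isBounded.exists_norm_le
    rw [weight_prodData hD, Measure.map_apply measurable_J hK.measurableSet]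
    have h1 : J k ⁻¹' K ⊆ (Set.Icc (-R) R) ×ˢ (pr k '' K) := by
      rintro ⟨t, x⟩ h
      have h : J k (t, x) ∈ K := h
      refine ⟨?_, ⟨J k (t, x), h, by simp⟩⟩
      have := (abs_ht_le _).trans (hR _ h)
      rw [ht_J] at this
      exact abs_le.1 this
    refine (measure_mono h1).trans_lt ?_
    rw [Measure.prod_prod, Real.volume_Icc]
    refine ENNReal.mul_lt_top ENNReal.ofReal_lt_top ?_
    refine hD.locallyFinite _ (hK.image (pr k).continuous) ?_
    rintro _ ⟨w, hw, rfl⟩
    exact hKU hw

theorem isStationary_prodData (hD : IsIntegralVarifoldIn U D) (hs : IsStationaryIn U D) :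
    IsStationaryIn {w | pr k w ∈ U} (prodData D) := by
  intro X hX hXc hXU
  rw [firstVariation_eq (isIntegral_prodData hD) hX hXc hXU, VD_prodData hD]
  exact (line_stat (stat_VD hD hs)).stat X hX hXc hXU

/-- the support of the product. -/
theorem support_prodData (hD : IsIntegralVarifoldIn U D) (w : Euc (k + 1)) :
    w ∈ support (prodData D) ↔ pr k w ∈ support D := by
  unfold support
  simp only [Set.mem_ofPred_eq]
  have hw : ∀ S : Set (Euc (k + 1)), MeasurableSet S →
      weight (prodData D) S = ((volume : Measure ℝ).prod (weight D)) (J k ⁻¹' S) := fun S hS => by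
    rw [weight_prodData hD, Measure.map_apply measurable_J hS]
  constructor
  · intro h ρ hρ
    have h1 := h ρ hρ
    rw [hw _ measurableSet_ball] at h1
    by_contra h2
    have h2 : weight D (Metric.ball (pr k w) ρ) = 0 := by simpa using h2
    have h3 : J k ⁻¹' (Metric.ball w ρ) ⊆ Set.univ ×ˢ Metric.ball (pr k w) ρ := by
      rintro ⟨t, x⟩ hx
      refine ⟨trivial, ?_⟩
      have hx : dist (J k (t, x)) w < ρ := hx
      change dist x (pr k w) < ρ
      rw [dist_eq_norm] at hx ⊢
      refine lt_of_le_of_lt ?_ hx
      have := norm_pr_le (J k (t, x) - w)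
      rw [map_sub, pr_J] at this
      exact this
    have h4 := measure_mono (μ := (volume : Measure ℝ).prod (weight D)) h3
    rw [Measure.prod_prod, h2, mul_zero] at h4
    exact absurd h1 (not_lt.2 h4)
  · intro h ρ hρ
    rw [hw _ measurableSet_ball]
    have h3 : Metric.ball (ht k w) (ρ / 2) ×ˢ Metric.ball (pr k w) (ρ / 2)
        ⊆ J k ⁻¹' (Metric.ball w ρ) := by
      rintro ⟨t, x⟩ ⟨ht', hx⟩
      have ht' : dist t (ht k w) < ρ / 2 := ht'
      have hx : dist x (pr k w) < ρ / 2 := hx
      change dist (J k (t, x)) w < ρ
      rw [dist_eq_norm] at hx ⊢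
      rw [Real.dist_eq] at ht'
      have h5 := norm_sq_split (J k (t, x) - w)
      rw [map_sub, map_sub, pr_J, ht_J] at h5
      have h6 : (t - ht k w) ^ 2 < (ρ / 2) ^ 2 := by
        rw [← sq_abs (t - ht k w)]
        gcongr
      have h7 : ‖x - pr k w‖ ^ 2 < (ρ / 2) ^ 2 := by gcongr
      refine lt_of_pow_lt_pow_left₀ 2 hρ.le ?_
      simp only at h5
      rw [h5]
      nlinarith
    refine lt_of_lt_of_le ?_ (measure_mono h3)
    rw [Measure.prod_prod]
    refine ENNReal.mul_pos ?_ (h (ρ / 2) (by positivity)).ne'
    exact (Metric.measure_ball_pos volume _ (by positivity)).ne'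

end Crest.Agent.R234.Pr_937
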