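import Crest.Agent.R234.Pr8_937
import Crest.Agent.R234.Main_456

/-!
Row 234, VF-PROD (helper937), file 9: the node `ProdStep` of Main_456.
-/

set_option autoImplicit false

open Crest.GeometryTopology.Submanifold

namespace Crest.Agent.R234.Pr_937

theorem prodStep : Main_456.ProdStep := by
  intro m n hm _ h
  have h1 : St (m + 1) (m + n + 1) := by
    have h2 : m + n + 1 = m + 1 + n := by omega
    rw [h2]
    exact h
  exact step hm h1

end Crest.Agent.R234.Pr_937
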