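import Crest.Agent.R234.Rig2_300

/-! Row 234, VF-PROJ (task 1505), part 1: projection of a divergence free tensor `a I - e`
on a subspace `L` (given by an isometry `ι : G → F`): test fields `ζ_i = χ(x_⊥) ∂_i U(P x)`. -/

namespace Crest.Agent.R234.Proj_929

open MeasureTheory Set Metric Crest.Agent.R234.Rig_300
open scoped ENNReal

set_option linter.unusedSectionVars false

noncomputable section

variable {F G : Type*} [NormedAddCommGroup F] [InnerProductSpace ℝ F] [FiniteDimensional ℝ F]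
  [NormedAddCommGroup G] [InnerProductSpace ℝ G] [FiniteDimensional ℝ G]
  {I : Type*} [Fintype I]

/-- the Laplacian with respect to an orthonormal basis. -/
def lap (b : OrthonormalBasis I ℝ G) (U : G → ℝ) (x : G) : ℝ :=
  ∑ i, fderiv ℝ (fderiv ℝ U) x (b i) (b i)

/-- the projection on `L = range ι` in coordinates of `G`. -/
def pr (ι : G →ₗᵢ[ℝ] F) : F →L[ℝ] G := ContinuousLinearMap.adjoint ι.toContinuousLinearMap

/-- the projection on the orthogonal complement of `L`. -/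
def nr (ι : G →ₗᵢ[ℝ] F) : F →L[ℝ] F :=
  ContinuousLinearMap.id ℝ F - ι.toContinuousLinearMap ∘L pr ι

theorem nr_apply (ι : G →ₗᵢ[ℝ] F) (x : F) : nr ι x = x - ι (pr ι x) := rfl

theorem inner_pr (ι : G →ₗᵢ[ℝ] F) (x : F) (g : G) : inner ℝ (pr ι x) g = inner ℝ x (ι g) := by
  rw [pr, ContinuousLinearMap.adjoint_inner_left]; rfl

@[simp] theorem pr_iso (ι : G →ₗᵢ[ℝ] F) (g : G) : pr ι (ι g) = g := by
  refine ext_inner_right ℝ fun v => ?_
  rw [inner_pr, ι.inner_map_map]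

@[simp] theorem nr_iso (ι : G →ₗᵢ[ℝ] F) (g : G) : nr ι (ι g) = 0 := by
  rw [nr_apply, pr_iso, sub_self]

theorem norm_sq_split (ι : G →ₗᵢ[ℝ] F) (x : F) :
    ‖x‖ ^ 2 = ‖pr ι x‖ ^ 2 + ‖nr ι x‖ ^ 2 := by
  have h1 : inner ℝ (ι (pr ι x)) (nr ι x) = 0 := by
    rw [nr_apply, inner_sub_right, ι.inner_map_map, real_inner_comm, ← inner_pr, sub_self]
  have h2 : x = ι (pr ι x) + nr ι x := by rw [nr_apply]; abel
  have h3 : ‖x‖ ^ 2 = ‖ι (pr ι x) + nr ι x‖ ^ 2 := by rw [← h2]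
  rw [h3, @norm_add_sq_real, h1, ι.norm_map]
  ring

theorem norm_pr_le (ι : G →ₗᵢ[ℝ] F) (x : F) : ‖pr ι x‖ ≤ ‖x‖ := by
  have := norm_sq_split ι x
  nlinarith [norm_nonneg x, norm_nonneg (pr ι x), sq_nonneg (‖nr ι x‖)]

theorem norm_nr_le (ι : G →ₗᵢ[ℝ] F) (x : F) : ‖nr ι x‖ ≤ ‖x‖ := by
  have := norm_sq_split ι x
  nlinarith [norm_nonneg x, norm_nonneg (nr ι x), sq_nonneg (‖pr ι x‖)]

/-! ### the cut-off in the normal directions -/

/-- smooth profile on `F`: `1` for `‖y‖ ≤ 1`, `0` for `‖y‖² ≥ 2`. -/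
def prof (y : F) : ℝ := Real.smoothTransition (2 - ‖y‖ ^ 2)

theorem prof_contDiff : ContDiff ℝ (⊤ : ℕ∞) (prof (F := F)) :=
  Real.smoothTransition.contDiff.comp (contDiff_const.sub (contDiff_norm_sq ℝ))

theorem prof_one {y : F} (h : ‖y‖ ≤ 1) : prof y = 1 := by
  refine Real.smoothTransition.one_of_one_le ?_
  nlinarith [norm_nonneg y]

theorem prof_zero {y : F} (h : 2 ≤ ‖y‖ ^ 2) : prof y = 0 :=
  Real.smoothTransition.zero_of_nonpos (by linarith)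

theorem prof_nonneg (y : F) : 0 ≤ prof y := Real.smoothTransition.nonneg _

theorem prof_le_one (y : F) : prof y ≤ 1 := Real.smoothTransition.le_one _

theorem prof_compact : HasCompactSupport (prof (F := F)) := by
  refine HasCompactSupport.intro (isCompact_closedBall (0 : F) 2) fun y hy => prof_zero ?_
  rw [mem_closedBall, dist_zero_right, not_le] at hy
  nlinarith

theorem exists_prof_bound : ∃ C : ℝ, 0 ≤ C ∧ ∀ y : F, ‖fderiv ℝ (prof (F := F)) y‖ ≤ C := by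
  obtain ⟨C, hC⟩ := (prof_contDiff (F := F).continuous_fderiv (by simp)).bounded_above_of_compact_support
    (prof_compact.fderiv ℝ)
  exact ⟨C, (norm_nonneg _).trans (hC 0), hC⟩

/-- the cut-off `χ(x) = prof (N (x - x₀) / s)`. -/
def cut (ι : G →ₗᵢ[ℝ] F) (x₀ : F) (s : ℝ) (x : F) : ℝ := prof (s⁻¹ • nr ι (x - x₀))

theorem cut_contDiff (ι : G →ₗᵢ[ℝ] F) (x₀ : F) (s : ℝ) : ContDiff ℝ (⊤ : ℕ∞) (cut ι x₀ s) :=
  prof_contDiff.comp (contDiff_const.smul ((nr ι).contDiff.comp (contDiff_id.sub contDiff_const)))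

theorem cut_one {ι : G →ₗᵢ[ℝ] F} {x₀ : F} {s : ℝ} (hs : 0 < s) {x : F} (h : x ∈ ball x₀ s) :
    cut ι x₀ s x = 1 := by
  refine prof_one ?_
  rw [norm_smul, norm_inv, Real.norm_of_nonneg hs.le, inv_mul_le_iff₀ hs, mul_one]
  rw [mem_ball, dist_eq_norm] at h
  exact (norm_nr_le ι _).trans h.le

theorem cut_zero {ι : G →ₗᵢ[ℝ] F} {x₀ : F} {s : ℝ} (hs : 0 < s) {x : F}
    (h : 2 * s ^ 2 ≤ ‖nr ι (x - x₀)‖ ^ 2) : cut ι x₀ s x = 0 := by
  refine prof_zero ?_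
  rw [norm_smul, norm_inv, Real.norm_of_nonneg hs.le, mul_pow, inv_pow, le_inv_mul_iff₀ (by positivity)]
  linarith

theorem cut_nonneg (ι : G →ₗᵢ[ℝ] F) (x₀ : F) (s : ℝ) (x : F) : 0 ≤ cut ι x₀ s x := prof_nonneg _

theorem cut_le_one (ι : G →ₗᵢ[ℝ] F) (x₀ : F) (s : ℝ) (x : F) : cut ι x₀ s x ≤ 1 := prof_le_one _

theorem cut_fderiv (ι : G →ₗᵢ[ℝ] F) (x₀ : F) (s : ℝ) (x v : F) :
    fderiv ℝ (cut ι x₀ s) x v = fderiv ℝ (prof (F := F)) (s⁻¹ • nr ι (x - x₀)) (s⁻¹ • nr ι v) := by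
  have h1 : HasFDerivAt (prof (F := F)) (fderiv ℝ (prof (F := F)) (s⁻¹ • nr ι (x - x₀)))
      (s⁻¹ • nr ι (x - x₀)) :=
    ((prof_contDiff (F := F)).differentiable (by simp) _).hasFDerivAt
  have h2 : HasFDerivAt (fun x : F => s⁻¹ • nr ι (x - x₀)) (s⁻¹ • nr ι) x := by
    have := ((nr ι).hasFDerivAt (x := x - x₀)).comp x ((hasFDerivAt_id x).sub_const x₀)
    exact this.const_smul s⁻¹
  have h3 : HasFDerivAt (cut ι x₀ s) _ x := h1.comp x h2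
  rw [h3.fderiv]
  rfl

theorem cut_fderiv_iso (ι : G →ₗᵢ[ℝ] F) (x₀ : F) (s : ℝ) (x : F) (g : G) :
    fderiv ℝ (cut ι x₀ s) x (ι g) = 0 := by
  rw [cut_fderiv, nr_iso, smul_zero, map_zero]

theorem cut_fderiv_le {C : ℝ} (hC : ∀ y : F, ‖fderiv ℝ (prof (F := F)) y‖ ≤ C)
    (ι : G →ₗᵢ[ℝ] F) (x₀ : F) {s : ℝ} (hs : 0 < s) (x v : F) :
    |fderiv ℝ (cut ι x₀ s) x v| ≤ C / s * ‖v‖ := by
  rw [cut_fderiv, ← Real.norm_eq_abs]
  refine (ContinuousLinearMap.le_opNorm _ _).trans ?_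
  rw [norm_smul, norm_inv, Real.norm_of_nonneg hs.le]
  have h0 : 0 ≤ C := (norm_nonneg _).trans (hC 0)
  calc ‖fderiv ℝ (prof (F := F)) (s⁻¹ • nr ι (x - x₀))‖ * (s⁻¹ * ‖nr ι v‖)
      ≤ C * (s⁻¹ * ‖v‖) := by
        gcongr
        · exact hC _
        · exact norm_nr_le ι v
    _ = C / s * ‖v‖ := by ring

/-! ### the test functions -/

/-- `ζ_g(x) = χ(x) (∂_g U)(P x)`. -/
def zet (ι : G →ₗᵢ[ℝ] F) (x₀ : F) (s : ℝ) (U : G → ℝ) (g : G) (x : F) : ℝ :=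
  cut ι x₀ s x * fderiv ℝ U (pr ι x) g

variable {ι : G →ₗᵢ[ℝ] F} {x₀ : F} {s : ℝ} {U : G → ℝ}

theorem dU_contDiff (hU : ContDiff ℝ (⊤ : ℕ∞) U) : ContDiff ℝ (⊤ : ℕ∞) (fderiv ℝ U) :=
  hU.fderiv_right (by simp)

theorem zet_contDiff (hU : ContDiff ℝ (⊤ : ℕ∞) U) (g : G) :
    ContDiff ℝ (⊤ : ℕ∞) (zet ι x₀ s U g) := by
  refine (cut_contDiff ι x₀ s).mul ?_
  exact ((dU_contDiff hU).comp (pr ι).contDiff).clm_apply contDiff_const

theorem zet_support (hs : 0 < s) (g : G) :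
    Function.support (zet ι x₀ s U g) ⊆
      {x | pr ι x ∈ tsupport U ∧ ‖nr ι (x - x₀)‖ ^ 2 ≤ 2 * s ^ 2} := by
  intro x hx
  rw [Function.mem_support] at hx
  constructor
  · by_contra h
    refine hx ?_
    have : fderiv ℝ U (pr ι x) = 0 := by
      by_contra h'
      exact h (support_fderiv_subset ℝ (f := U) h')
    rw [zet, this]; simp
  · by_contra h
    refine hx ?_
    rw [zet, cut_zero hs (by linarith [not_le.1 h]), zero_mul]

theorem set_closed (K : Set G) (hK : IsClosed K) (ι : G →ₗᵢ[ℝ] F) (x₀ : F) (s : ℝ) :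
    IsClosed {x | pr ι x ∈ K ∧ ‖nr ι (x - x₀)‖ ^ 2 ≤ 2 * s ^ 2} := by
  refine (hK.preimage (pr ι).continuous).inter ?_
  have h : Continuous fun x : F => ‖nr ι (x - x₀)‖ ^ 2 :=
    (((nr ι).continuous.comp (continuous_id.sub continuous_const)).norm).pow 2
  exact isClosed_le h continuous_const

theorem set_subset (hs : 0 < s) (hU : tsupport U ⊆ ball (pr ι x₀) (4 * s)) :
    {x | pr ι x ∈ tsupport U ∧ ‖nr ι (x - x₀)‖ ^ 2 ≤ 2 * s ^ 2} ⊆ ball x₀ (6 * s) := by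
  rintro x ⟨h1, h2⟩
  have h3 := hU h1
  rw [mem_ball, dist_eq_norm, ← map_sub] at h3
  rw [mem_ball, dist_eq_norm]
  have h4 := norm_sq_split ι (x - x₀)
  have h5 : ‖pr ι (x - x₀)‖ ^ 2 < (4 * s) ^ 2 := by
    have := norm_nonneg (pr ι (x - x₀))
    nlinarith
  refine lt_of_pow_lt_pow_left₀ 2 (by positivity) ?_
  nlinarith

theorem zet_tsupport (hs : 0 < s) (hU : tsupport U ⊆ ball (pr ι x₀) (4 * s)) (g : G) :
    tsupport (zet ι x₀ s U g) ⊆ ball x₀ (6 * s) :=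
  (closure_minimal (zet_support hs g) (set_closed _ (isClosed_tsupport U) ι x₀ s)).trans
    (set_subset hs hU)

theorem zet_compact (hs : 0 < s) (hU : tsupport U ⊆ ball (pr ι x₀) (4 * s)) (g : G) :
    HasCompactSupport (zet ι x₀ s U g) :=
  IsCompact.of_isClosed_subset (isCompact_closedBall x₀ (6 * s)) (isClosed_tsupport _)
    ((zet_tsupport hs hU g).trans ball_subset_closedBall)

theorem zet_fderiv (hU : ContDiff ℝ (⊤ : ℕ∞) U) (g : G) (x v : F) :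
    fderiv ℝ (zet ι x₀ s U g) x v =
      fderiv ℝ (cut ι x₀ s) x v * fderiv ℝ U (pr ι x) g +
        cut ι x₀ s x * fderiv ℝ (fderiv ℝ U) (pr ι x) (pr ι v) g := by
  have h1 : HasFDerivAt (cut ι x₀ s) (fderiv ℝ (cut ι x₀ s) x) x :=
    ((cut_contDiff ι x₀ s).differentiable (by simp) _).hasFDerivAt
  have h2 : HasFDerivAt (fderiv ℝ U) (fderiv ℝ (fderiv ℝ U) (pr ι x)) (pr ι x) :=
    ((dU_contDiff hU).differentiable (by simp) _).hasFDerivAt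
  have h3 : HasFDerivAt (fun x => fderiv ℝ U (pr ι x)) _ x := h2.comp x (pr ι).hasFDerivAt
  have h4 : HasFDerivAt (fun x => fderiv ℝ U (pr ι x) g) _ x := h3.clm_apply (hasFDerivAt_const g x)
  have h5 : HasFDerivAt (zet ι x₀ s U g) _ x := h1.mul h4
  rw [h5.fderiv]
  simp
  ring

/-! ### pointwise identities and bounds -/

theorem zet_fderiv_iso (hU : ContDiff ℝ (⊤ : ℕ∞) U) (g : G) (x : F) :
    fderiv ℝ (zet ι x₀ s U g) x (ι g) = cut ι x₀ s x * fderiv ℝ (fderiv ℝ U) (pr ι x) g g := by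
  rw [zet_fderiv hU, cut_fderiv_iso, pr_iso, zero_mul, zero_add]

theorem sum_zet (b : OrthonormalBasis I ℝ G) (hU : ContDiff ℝ (⊤ : ℕ∞) U) (x : F) :
    ∑ i, fderiv ℝ (zet ι x₀ s U (b i)) x (ι (b i)) = cut ι x₀ s x * lap b U (pr ι x) := by
  simp only [zet_fderiv_iso hU, lap, Finset.mul_sum]

/-- the trace of `q` on `L`. -/
def tL (b : OrthonormalBasis I ℝ G) (ι : G →ₗᵢ[ℝ] F) (q : F →L[ℝ] F) : ℝ :=
  ∑ i, inner ℝ (q (ι (b i))) (ι (b i))

variable {b : OrthonormalBasis I ℝ G} {q : F →L[ℝ] F}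

theorem tL_nonneg (h : PSD q) : 0 ≤ tL b ι q := Finset.sum_nonneg fun _ _ => h.nonneg _

theorem le_tL (h : PSD q) (i : I) : inner ℝ (q (ι (b i))) (ι (b i)) ≤ tL b ι q :=
  Finset.single_le_sum (f := fun i => inner ℝ (q (ι (b i))) (ι (b i)))
    (fun _ _ => h.nonneg _) (Finset.mem_univ i)

theorem norm_pr_q_le (h : PSD q) (i : I) : ‖pr ι (q (ι (b i)))‖ ≤ tL b ι q := by
  refine le_of_sq_le_sq ?_ (tL_nonneg h)
  rw [← b.sum_sq_norm_inner_left (pr ι (q (ι (b i))))]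
  have h1 : ∀ j ∈ Finset.univ, ‖inner ℝ (pr ι (q (ι (b i)))) (b j)‖ ^ 2 ≤
      tL b ι q * inner ℝ (q (ι (b j))) (ι (b j)) := by
    intro j _
    rw [Real.norm_eq_abs, sq_abs, inner_pr]
    refine (h.cs _ _).trans ?_
    exact mul_le_mul_of_nonneg_right (le_tL h i) (h.nonneg _)
  refine (Finset.sum_le_sum h1).trans ?_
  rw [← Finset.mul_sum, sq]
  exact le_refl _

theorem zet_q_le {C : ℝ} (hC : ∀ y : F, ‖fderiv ℝ (prof (F := F)) y‖ ≤ C) (hs : 0 < s)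
    (hU : ContDiff ℝ (⊤ : ℕ∞) U) (h : PSD q) (i : I) (x : F) :
    |fderiv ℝ (zet ι x₀ s U (b i)) x (q (ι (b i)))| ≤
      C / s * Real.sqrt (‖q‖ * tL b ι q) * ‖fderiv ℝ U (pr ι x)‖ +
        tL b ι q * ‖fderiv ℝ (fderiv ℝ U) (pr ι x)‖ := by
  have hC0 : 0 ≤ C := (norm_nonneg _).trans (hC 0)
  have hb : ‖b i‖ = 1 := b.norm_eq_one i
  rw [zet_fderiv hU]
  refine (abs_add_le _ _).trans ?_
  rw [abs_mul, abs_mul, abs_of_nonneg (cut_nonneg ι x₀ s x)]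
  have h1 := cut_fderiv_le hC ι x₀ hs x (q (ι (b i)))
  have h2 : |fderiv ℝ U (pr ι x) (b i)| ≤ ‖fderiv ℝ U (pr ι x)‖ := by
    have := (fderiv ℝ U (pr ι x)).le_opNorm (b i)
    rwa [hb, mul_one, Real.norm_eq_abs] at this
  have h3 : ‖q (ι (b i))‖ ≤ Real.sqrt (‖q‖ * tL b ι q) := by
    refine (h.norm_le_sqrt _).trans ?_
    rw [← Real.sqrt_mul (norm_nonneg _)]
    exact Real.sqrt_le_sqrt (mul_le_mul_of_nonneg_left (le_tL h i) (norm_nonneg _))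
  have h4 : |fderiv ℝ (fderiv ℝ U) (pr ι x) (pr ι (q (ι (b i)))) (b i)| ≤
      tL b ι q * ‖fderiv ℝ (fderiv ℝ U) (pr ι x)‖ := by
    rw [← Real.norm_eq_abs]
    refine (ContinuousLinearMap.le_opNorm _ _).trans ?_
    rw [hb, mul_one]
    refine (ContinuousLinearMap.le_opNorm _ _).trans ?_
    rw [mul_comm]
    exact mul_le_mul_of_nonneg_right (norm_pr_q_le h i) (norm_nonneg _)
  refine add_le_add ?_ ?_
  · refine mul_le_mul (h1.trans ?_) h2 (abs_nonneg _) (by positivity)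
    exact mul_le_mul_of_nonneg_left h3 (by positivity)
  · calc cut ι x₀ s x * |fderiv ℝ (fderiv ℝ U) (pr ι x) (pr ι (q (ι (b i)))) (b i)|
        ≤ 1 * |fderiv ℝ (fderiv ℝ U) (pr ι x) (pr ι (q (ι (b i)))) (b i)| :=
          mul_le_mul_of_nonneg_right (cut_le_one _ _ _ _) (abs_nonneg _)
      _ ≤ _ := by rw [one_mul]; exact h4

theorem zet_le {C : ℝ} (hC : ∀ y : F, ‖fderiv ℝ (prof (F := F)) y‖ ≤ C) (hs : 0 < s)
    (hU : ContDiff ℝ (⊤ : ℕ∞) U) (i : I) (x : F) :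
    ‖fderiv ℝ (zet ι x₀ s U (b i)) x‖ + |zet ι x₀ s U (b i) x| / s ≤
      (C + 1) / s * ‖fderiv ℝ U (pr ι x)‖ + ‖fderiv ℝ (fderiv ℝ U) (pr ι x)‖ := by
  have hC0 : 0 ≤ C := (norm_nonneg _).trans (hC 0)
  have hb : ‖b i‖ = 1 := b.norm_eq_one i
  have h2 : |fderiv ℝ U (pr ι x) (b i)| ≤ ‖fderiv ℝ U (pr ι x)‖ := by
    have := (fderiv ℝ U (pr ι x)).le_opNorm (b i)
    rwa [hb, mul_one, Real.norm_eq_abs] at this
  have h3 : |zet ι x₀ s U (b i) x| / s ≤ 1 / s * ‖fderiv ℝ U (pr ι x)‖ := by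
    rw [zet, abs_mul, abs_of_nonneg (cut_nonneg ι x₀ s x), div_mul_eq_mul_div, one_mul]
    refine div_le_div_of_nonneg_right ?_ hs.le
    calc _ ≤ 1 * |fderiv ℝ U (pr ι x) (b i)| :=
          mul_le_mul_of_nonneg_right (cut_le_one _ _ _ _) (abs_nonneg _)
      _ ≤ _ := by rw [one_mul]; exact h2
  have h4 : ‖fderiv ℝ (zet ι x₀ s U (b i)) x‖ ≤
      C / s * ‖fderiv ℝ U (pr ι x)‖ + ‖fderiv ℝ (fderiv ℝ U) (pr ι x)‖ := by
    refine ContinuousLinearMap.opNorm_le_bound _ (by positivity) fun v => ?_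
    rw [zet_fderiv hU, Real.norm_eq_abs]
    refine (abs_add_le _ _).trans ?_
    rw [abs_mul, abs_mul, abs_of_nonneg (cut_nonneg ι x₀ s x), add_mul]
    have h5 := cut_fderiv_le hC ι x₀ hs x v
    have h6 : |fderiv ℝ (fderiv ℝ U) (pr ι x) (pr ι v) (b i)| ≤
        ‖fderiv ℝ (fderiv ℝ U) (pr ι x)‖ * ‖v‖ := by
      rw [← Real.norm_eq_abs]
      refine (ContinuousLinearMap.le_opNorm _ _).trans ?_
      rw [hb, mul_one]
      refine (ContinuousLinearMap.le_opNorm _ _).trans ?_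
      exact mul_le_mul_of_nonneg_left (norm_pr_le ι v) (norm_nonneg _)
    refine add_le_add ?_ ?_
    · calc |fderiv ℝ (cut ι x₀ s) x v| * |fderiv ℝ U (pr ι x) (b i)|
          ≤ (C / s * ‖v‖) * ‖fderiv ℝ U (pr ι x)‖ :=
            mul_le_mul h5 h2 (abs_nonneg _) (by positivity)
        _ = _ := by ring
    · calc cut ι x₀ s x * |fderiv ℝ (fderiv ℝ U) (pr ι x) (pr ι v) (b i)|
          ≤ 1 * |fderiv ℝ (fderiv ℝ U) (pr ι x) (pr ι v) (b i)| :=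
            mul_le_mul_of_nonneg_right (cut_le_one _ _ _ _) (abs_nonneg _)
        _ ≤ _ := by rw [one_mul]; exact h6
  have e : (C + 1) / s * ‖fderiv ℝ U (pr ι x)‖ =
      C / s * ‖fderiv ℝ U (pr ι x)‖ + 1 / s * ‖fderiv ℝ U (pr ι x)‖ := by ring
  rw [e]
  linarith

end

end Crest.Agent.R234.Proj_929
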