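import Crest.Agent.R234.Proj1_929

/-! Row 234, VF-PROJ (task 1505), part 2: the projected inequality (H2) (hypothesis of the strong
constancy lemma VF-SC on `L`) and the energy bound of sets with small projection. -/

namespace Crest.Agent.R234.Proj_929

open MeasureTheory Set Metric Crest.Agent.R234.Rig_300
open scoped ENNReal

set_option linter.unusedSectionVars false

noncomputable section

variable {F G : Type*} [NormedAddCommGroup F] [InnerProductSpace ℝ F] [FiniteDimensional ℝ F]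
  [NormedAddCommGroup G] [InnerProductSpace ℝ G] [FiniteDimensional ℝ G]
  [MeasurableSpace F] [BorelSpace F] [MeasurableSpace G] [BorelSpace G]
  {I : Type*} [Fintype I] {Ω : Type*} [MeasurableSpace Ω]

/-- DIV with an error measure `κ`: `α I - e` is divergence free in `B` up to `κ`,
`e = p_# (Q dV)`. -/
def DivErr (α : Measure F) (V : Measure Ω) (p : Ω → F) (Q : Ω → F →L[ℝ] F) (κ : Measure F)
    (s : ℝ) (B : Set F) : Prop :=
  ∀ ζ : F → ℝ, ContDiff ℝ (⊤ : ℕ∞) ζ → HasCompactSupport ζ → tsupport ζ ⊆ B → ∀ ξ : F,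
    |∫ y, fderiv ℝ ζ y ξ ∂α - ∫ ω, fderiv ℝ ζ (p ω) (Q ω ξ) ∂V| ≤
      ‖ξ‖ * ∫ y, (‖fderiv ℝ ζ y‖ + |ζ y| / s) ∂κ

/-- push forward of a density. -/
def push {X : Type*} [MeasurableSpace X] (μ : Measure X) (f : X → ℝ) (g : X → G) : Measure G :=
  (μ.withDensity fun x => ENNReal.ofReal (f x)).map g

theorem integral_push {X : Type*} [MeasurableSpace X] {μ : Measure X} {f : X → ℝ} {g : X → G}
    (hf : AEMeasurable f μ) (h0 : ∀ᵐ x ∂μ, 0 ≤ f x) (hg : Measurable g) {φ : G → ℝ}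
    (hφ : Continuous φ) : ∫ y, φ y ∂(push μ f g) = ∫ x, f x * φ (g x) ∂μ := by
  rw [push, integral_map hg.aemeasurable hφ.aestronglyMeasurable,
    integral_withDensity_eq_integral_toReal_smul₀ hf.ennreal_ofReal
      (Filter.Eventually.of_forall fun _ => ENNReal.ofReal_lt_top)]
  refine integral_congr_ae ?_
  filter_upwards [h0] with x hx
  rw [ENNReal.toReal_ofReal hx, smul_eq_mul]

theorem push_univ {X : Type*} [MeasurableSpace X] {μ : Measure X} {f : X → ℝ} {g : X → G}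
    (hf : Integrable f μ) (h0 : ∀ᵐ x ∂μ, 0 ≤ f x) (hg : Measurable g) :
    push μ f g univ = ENNReal.ofReal (∫ x, f x ∂μ) := by
  rw [push, Measure.map_apply hg MeasurableSet.univ, preimage_univ,
    withDensity_apply _ MeasurableSet.univ, setLIntegral_univ,
    ofReal_integral_eq_lintegral_ofReal hf h0]

theorem push_apply_le {X : Type*} [MeasurableSpace X] {μ : Measure X} {f : X → ℝ} {g : X → G}
    (hg : Measurable g) {A : Set X} (hA : MeasurableSet A) (h1 : ∀ x ∈ A, f x = 1) {S : Set G}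
    (hS : MeasurableSet S) : μ (A ∩ g ⁻¹' S) ≤ push μ f g S := by
  rw [push, Measure.map_apply hg hS, withDensity_apply _ (hg hS)]
  have h2 : MeasurableSet (A ∩ g ⁻¹' S) := hA.inter (hg hS)
  calc μ (A ∩ g ⁻¹' S) = ∫⁻ _ in A ∩ g ⁻¹' S, 1 ∂μ := by rw [setLIntegral_one]
    _ = ∫⁻ x in A ∩ g ⁻¹' S, ENNReal.ofReal (f x) ∂μ := by
        refine setLIntegral_congr_fun h2 fun x hx => ?_
        simp only [h1 x hx.1, ENNReal.ofReal_one]
    _ ≤ ∫⁻ x in g ⁻¹' S, ENNReal.ofReal (f x) ∂μ := lintegral_mono_set inter_subset_right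

variable {α κ : Measure F} {V : Measure Ω} {p : Ω → F} {Q : Ω → F →L[ℝ] F}
  {b : OrthonormalBasis I ℝ G} {ι : G →ₗᵢ[ℝ] F} {x₀ : F} {s C : ℝ}

/-- `A`: projected excess (with the cut-off). -/
def mA (α : Measure F) (ι : G →ₗᵢ[ℝ] F) (x₀ : F) (s : ℝ) : Measure G :=
  push (α.restrict (ball x₀ (6 * s))) (cut ι x₀ s) (pr ι)

/-- projected `e_LL`. -/
def mE (b : OrthonormalBasis I ℝ G) (V : Measure Ω) (p : Ω → F) (Q : Ω → F →L[ℝ] F)
    (ι : G →ₗᵢ[ℝ] F) (x₀ : F) (s : ℝ) : Measure G :=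
  push (V.restrict (p ⁻¹' ball x₀ (6 * s))) (fun ω => tL b ι (Q ω)) (fun ω => pr ι (p ω))

/-- projected lateral error `√(e e_LL)`. -/
def mH (b : OrthonormalBasis I ℝ G) (V : Measure Ω) (p : Ω → F) (Q : Ω → F →L[ℝ] F)
    (ι : G →ₗᵢ[ℝ] F) (x₀ : F) (s : ℝ) : Measure G :=
  push (V.restrict (p ⁻¹' ball x₀ (6 * s))) (fun ω => Real.sqrt (‖Q ω‖ * tL b ι (Q ω)))
    (fun ω => pr ι (p ω))

/-- projected error measure. -/
def mK (κ : Measure F) (ι : G →ₗᵢ[ℝ] F) (x₀ : F) (s : ℝ) : Measure G :=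
  push (κ.restrict (ball x₀ (6 * s))) (fun _ => 1) (pr ι)

theorem measurable_pr : Measurable (pr ι) := (pr ι).continuous.measurable

theorem aemeas_tL (hI : IntegrableOn Q (p ⁻¹' ball x₀ (6 * s)) V) :
    Integrable (fun ω => tL b ι (Q ω)) (V.restrict (p ⁻¹' ball x₀ (6 * s))) := by
  unfold tL
  refine integrable_finsetSum _ fun i _ => ?_
  exact (hI.apply_continuousLinearMap _).inner_const _

theorem int_sqrt (hQ : ∀ᵐ ω ∂V.restrict (p ⁻¹' ball x₀ (6 * s)), PSD (Q ω))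
    (hI : IntegrableOn Q (p ⁻¹' ball x₀ (6 * s)) V) :
    Integrable (fun ω => Real.sqrt (‖Q ω‖ * tL b ι (Q ω)))
      (V.restrict (p ⁻¹' ball x₀ (6 * s))) := by
  have h1 := aemeas_tL (b := b) (ι := ι) hI
  refine (hI.norm.add h1).mono' ?_ ?_
  · exact Real.continuous_sqrt.comp_aestronglyMeasurable
      (hI.norm.aestronglyMeasurable.mul h1.aestronglyMeasurable)
  · filter_upwards [hQ] with ω h
    rw [Real.norm_of_nonneg (Real.sqrt_nonneg _), Pi.add_apply]
    refine Real.sqrt_le_iff.2 ⟨add_nonneg (norm_nonneg _) (tL_nonneg h), ?_⟩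
    nlinarith [norm_nonneg (Q ω), tL_nonneg (b := b) (ι := ι) h]

theorem int_sqrt_le (hQ : ∀ᵐ ω ∂V.restrict (p ⁻¹' ball x₀ (6 * s)), PSD (Q ω))
    (hI : IntegrableOn Q (p ⁻¹' ball x₀ (6 * s)) V) :
    ∫ ω in p ⁻¹' ball x₀ (6 * s), Real.sqrt (‖Q ω‖ * tL b ι (Q ω)) ∂V ≤
      Real.sqrt ((∫ ω in p ⁻¹' ball x₀ (6 * s), ‖Q ω‖ ∂V) *
        ∫ ω in p ⁻¹' ball x₀ (6 * s), tL b ι (Q ω) ∂V) := by
  have h1 := aemeas_tL (b := b) (ι := ι) hI
  set μ := V.restrict (p ⁻¹' ball x₀ (6 * s)) with hμ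
  have e0 : (fun ω => Real.sqrt (‖Q ω‖ * tL b ι (Q ω))) =
      fun ω => Real.sqrt ‖Q ω‖ * Real.sqrt (tL b ι (Q ω)) := by
    funext ω; rw [Real.sqrt_mul (norm_nonneg _)]
  have e1 : ∀ᵐ ω ∂μ, Real.sqrt ‖Q ω‖ ^ 2 = ‖Q ω‖ :=
    Filter.Eventually.of_forall fun ω => Real.sq_sqrt (norm_nonneg _)
  have e2 : ∀ᵐ ω ∂μ, Real.sqrt (tL b ι (Q ω)) ^ 2 = tL b ι (Q ω) := by
    filter_upwards [hQ] with ω h using Real.sq_sqrt (tL_nonneg h)
  have hcs := integral_cs (μ := μ) (f := fun ω => Real.sqrt ‖Q ω‖)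
    (g := fun ω => Real.sqrt (tL b ι (Q ω)))
    (hI.norm.congr (e1.mono fun _ h => h.symm)) (h1.congr (e2.mono fun _ h => h.symm))
    (by have := int_sqrt (b := b) (ι := ι) hQ hI; rwa [e0] at this)
  rw [integral_congr_ae e1, integral_congr_ae e2] at hcs
  refine Real.le_sqrt_of_sq_le ?_
  rw [e0]
  exact hcs

/-- **the projected inequality (H2)**. -/
theorem proj_H2 (hC : ∀ y : F, ‖fderiv ℝ (prof (F := F)) y‖ ≤ C) (hs : 0 < s)
    (hα : α (ball x₀ (6 * s)) < ∞) (hκ : κ (ball x₀ (6 * s)) < ∞) (hp : Measurable p)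
    (hQ : ∀ᵐ ω ∂V.restrict (p ⁻¹' ball x₀ (6 * s)), PSD (Q ω))
    (hI : IntegrableOn Q (p ⁻¹' ball x₀ (6 * s)) V)
    (hD : DivErr α V p Q κ s (ball x₀ (6 * s)))
    {U : G → ℝ} (hU : ContDiff ℝ (⊤ : ℕ∞) U) (hUc : HasCompactSupport U)
    (hUs : tsupport U ⊆ ball (pr ι x₀) (4 * s)) :
    |∫ y, lap b U y ∂(mA α ι x₀ s)| ≤ (Fintype.card I : ℝ) *
      (∫ y, ‖fderiv ℝ (fderiv ℝ U) y‖ ∂(mE b V p Q ι x₀ s) +
        C / s * ∫ y, ‖fderiv ℝ U y‖ ∂(mH b V p Q ι x₀ s) +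
        ∫ y, ‖fderiv ℝ (fderiv ℝ U) y‖ ∂(mK κ ι x₀ s) +
        (C + 1) / s * ∫ y, ‖fderiv ℝ U y‖ ∂(mK κ ι x₀ s)) := by
  set B := ball x₀ (6 * s) with hB
  have hC0 : 0 ≤ C := (norm_nonneg _).trans (hC 0)
  have hBm : MeasurableSet B := measurableSet_ball
  have : IsFiniteMeasure (α.restrict B) := ⟨by rwa [Measure.restrict_apply_univ]⟩
  have : IsFiniteMeasure (κ.restrict B) := ⟨by rwa [Measure.restrict_apply_univ]⟩
  have c1 : Continuous (fun y => ‖fderiv ℝ U y‖) := (hU.continuous_fderiv (by simp)).norm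
  have c2 : Continuous (fun y => ‖fderiv ℝ (fderiv ℝ U) y‖) :=
    ((dU_contDiff hU).continuous_fderiv (by simp)).norm
  have c3 : Continuous (lap b U) := by
    unfold lap
    refine continuous_finsetSum _ fun i _ => ?_
    exact (((dU_contDiff hU).continuous_fderiv (by simp)).clm_apply continuous_const).clm_apply
      continuous_const
  -- bounds
  obtain ⟨M1, hM1⟩ := (hU.continuous_fderiv (by simp)).bounded_above_of_compact_support
    (hUc.fderiv ℝ)
  obtain ⟨M2, hM2⟩ := ((dU_contDiff hU).continuous_fderiv (by simp)).bounded_above_of_compact_support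
    ((hUc.fderiv ℝ).fderiv ℝ)
  have hgp : Measurable (fun ω => pr ι (p ω)) := measurable_pr.comp hp
  -- S1
  have S1 : ∫ y, lap b U y ∂(mA α ι x₀ s) = ∑ i, ∫ x, fderiv ℝ (zet ι x₀ s U (b i)) x (ι (b i)) ∂α := by
    rw [mA, integral_push (cut_contDiff ι x₀ s).continuous.aemeasurable
      (Filter.Eventually.of_forall fun x => cut_nonneg ι x₀ s x) measurable_pr c3]
    simp only [← sum_zet b hU]
    rw [integral_finsetSum]
    · refine Finset.sum_congr rfl fun i _ => ?_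
      refine setIntegral_eq_integral_of_forall_compl_eq_zero fun x hx => ?_
      have : fderiv ℝ (zet ι x₀ s U (b i)) x = 0 := by
        by_contra h
        exact hx (zet_tsupport hs hUs (b i) (support_fderiv_subset ℝ h))
      rw [this]; rfl
    · intro i _
      have hc : Continuous fun x => fderiv ℝ (zet ι x₀ s U (b i)) x (ι (b i)) :=
        ((zet_contDiff hU (b i)).continuous_fderiv (by simp)).clm_apply continuous_const
      refine hc.integrable_of_hasCompactSupport ?_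
      exact (zet_compact hs hUs (b i)).fderiv_apply ℝ (ι (b i))
  -- integrability of the bounds
  have i1 : Integrable (fun ω => Real.sqrt (‖Q ω‖ * tL b ι (Q ω)) * ‖fderiv ℝ U (pr ι (p ω))‖)
      (V.restrict (p ⁻¹' B)) := by
    refine (int_sqrt (b := b) (ι := ι) hQ hI).mul_bdd (c := M1) ?_ ?_
    · exact (c1.measurable.comp hgp).aestronglyMeasurable
    · exact Filter.Eventually.of_forall fun ω => by rw [Real.norm_eq_abs, abs_norm]; exact hM1 _
  have i2 : Integrable (fun ω => tL b ι (Q ω) * ‖fderiv ℝ (fderiv ℝ U) (pr ι (p ω))‖)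
      (V.restrict (p ⁻¹' B)) := by
    refine (aemeas_tL (b := b) (ι := ι) hI).mul_bdd (c := M2) ?_ ?_
    · exact (c2.measurable.comp hgp).aestronglyMeasurable
    · exact Filter.Eventually.of_forall fun ω => (le_of_eq (abs_of_nonneg (norm_nonneg _))).trans (hM2 _)
  have i3 : Integrable (fun x => ‖fderiv ℝ U (pr ι x)‖) (κ.restrict B) := by
    refine Integrable.of_bound (c1.comp (pr ι).continuous).aestronglyMeasurable M1 ?_
    exact Filter.Eventually.of_forall fun ω => by rw [Real.norm_eq_abs, abs_norm]; exact hM1 _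
  have i4 : Integrable (fun x => ‖fderiv ℝ (fderiv ℝ U) (pr ι x)‖) (κ.restrict B) := by
    refine Integrable.of_bound (c2.comp (pr ι).continuous).aestronglyMeasurable M2 ?_
    exact Filter.Eventually.of_forall fun ω => (le_of_eq (abs_of_nonneg (norm_nonneg _))).trans (hM2 _)
  -- S3
  have S3 : ∀ i, |∫ ω, fderiv ℝ (zet ι x₀ s U (b i)) (p ω) (Q ω (ι (b i))) ∂V| ≤
      C / s * ∫ ω in p ⁻¹' B, Real.sqrt (‖Q ω‖ * tL b ι (Q ω)) * ‖fderiv ℝ U (pr ι (p ω))‖ ∂V +
        ∫ ω in p ⁻¹' B, tL b ι (Q ω) * ‖fderiv ℝ (fderiv ℝ U) (pr ι (p ω))‖ ∂V := by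
    intro i
    have h1 : ∫ ω, fderiv ℝ (zet ι x₀ s U (b i)) (p ω) (Q ω (ι (b i))) ∂V =
        ∫ ω in p ⁻¹' B, fderiv ℝ (zet ι x₀ s U (b i)) (p ω) (Q ω (ι (b i))) ∂V := by
      refine (setIntegral_eq_integral_of_forall_compl_eq_zero fun ω hω => ?_).symm
      have : fderiv ℝ (zet ι x₀ s U (b i)) (p ω) = 0 := by
        by_contra h
        exact hω (zet_tsupport hs hUs (b i) (support_fderiv_subset ℝ h))
      rw [this]; rfl
    rw [h1, ← Real.norm_eq_abs, ← integral_const_mul, ← integral_add (i1.const_mul _) i2]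
    refine norm_integral_le_of_norm_le ((i1.const_mul _).add i2) ?_
    filter_upwards [hQ] with ω h
    have := zet_q_le (x₀ := x₀) (b := b) (ι := ι) hC hs hU h i (p ω)
    rw [Real.norm_eq_abs]
    refine this.trans (le_of_eq ?_)
    ring
  -- S4
  have S4 : ∀ i, ∫ y, (‖fderiv ℝ (zet ι x₀ s U (b i)) y‖ + |zet ι x₀ s U (b i) y| / s) ∂κ ≤
      (C + 1) / s * ∫ x in B, ‖fderiv ℝ U (pr ι x)‖ ∂κ +
        ∫ x in B, ‖fderiv ℝ (fderiv ℝ U) (pr ι x)‖ ∂κ := by
    intro i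
    have h1 : ∫ y, (‖fderiv ℝ (zet ι x₀ s U (b i)) y‖ + |zet ι x₀ s U (b i) y| / s) ∂κ =
        ∫ y in B, (‖fderiv ℝ (zet ι x₀ s U (b i)) y‖ + |zet ι x₀ s U (b i) y| / s) ∂κ := by
      refine (setIntegral_eq_integral_of_forall_compl_eq_zero fun y hy => ?_).symm
      have e1 : fderiv ℝ (zet ι x₀ s U (b i)) y = 0 := by
        by_contra h
        exact hy (zet_tsupport hs hUs (b i) (support_fderiv_subset ℝ h))
      have e2 : zet ι x₀ s U (b i) y = 0 := by
        by_contra h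
        exact hy (zet_tsupport hs hUs (b i) (subset_tsupport _ h))
      rw [e1, e2]; simp
    rw [h1, ← integral_const_mul, ← integral_add (i3.const_mul _) i4]
    refine integral_mono_of_nonneg ?_ ((i3.const_mul _).add i4) ?_
    · exact Filter.Eventually.of_forall fun y => by positivity
    · exact Filter.Eventually.of_forall fun y => zet_le (x₀ := x₀) (ι := ι) hC hs hU i y
  -- conclusion
  have S5 : ∀ i, |∫ x, fderiv ℝ (zet ι x₀ s U (b i)) x (ι (b i)) ∂α| ≤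
      (C / s * ∫ ω in p ⁻¹' B, Real.sqrt (‖Q ω‖ * tL b ι (Q ω)) * ‖fderiv ℝ U (pr ι (p ω))‖ ∂V +
        ∫ ω in p ⁻¹' B, tL b ι (Q ω) * ‖fderiv ℝ (fderiv ℝ U) (pr ι (p ω))‖ ∂V) +
      ((C + 1) / s * ∫ x in B, ‖fderiv ℝ U (pr ι x)‖ ∂κ +
        ∫ x in B, ‖fderiv ℝ (fderiv ℝ U) (pr ι x)‖ ∂κ) := by
    intro i
    have h1 := hD (zet ι x₀ s U (b i)) (zet_contDiff hU (b i)) (zet_compact hs hUs (b i))
      (zet_tsupport hs hUs (b i)) (ι (b i))
    rw [ι.norm_map, b.norm_eq_one, one_mul] at h1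
    have h2 := S3 i
    have h3 := S4 i
    rw [abs_le] at h1 h2 ⊢
    constructor <;> linarith [h1.1, h1.2, h2.1, h2.2]
  rw [mE, mH, mK, integral_push (aemeas_tL hI).aestronglyMeasurable.aemeasurable
      (by filter_upwards [hQ] with ω h using tL_nonneg h) hgp c2,
    integral_push (int_sqrt hQ hI).aestronglyMeasurable.aemeasurable
      (Filter.Eventually.of_forall fun _ => Real.sqrt_nonneg _) hgp c1,
    integral_push aemeasurable_const (Filter.Eventually.of_forall fun _ => zero_le_one)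
      measurable_pr c2,
    integral_push aemeasurable_const (Filter.Eventually.of_forall fun _ => zero_le_one)
      measurable_pr c1, S1]
  simp only [one_mul]
  refine (Finset.abs_sum_le_sum_abs _ _).trans ?_
  refine (Finset.sum_le_sum fun i _ => S5 i).trans (le_of_eq ?_)
  rw [Finset.sum_const, Finset.card_univ, nsmul_eq_mul]
  ring

end

end Crest.Agent.R234.Proj_929
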