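import Crest.Agent.R234.Proj2_929

/-! Row 234, VF-PROJ (task 1505), part 3: energy bound of sets with small projection
(`f ≤ η E` of #5124, (4) + (3)) from the strong constancy lemma on `L` (Prop `SC1`). -/

namespace Crest.Agent.R234.Proj_929

open MeasureTheory Set Metric Crest.Agent.R234.Rig_300
open scoped ENNReal

set_option linter.unusedSectionVars false

noncomputable section

universe u

variable {F G : Type*} [NormedAddCommGroup F] [InnerProductSpace ℝ F] [FiniteDimensional ℝ F]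
  [NormedAddCommGroup G] [InnerProductSpace ℝ G] [FiniteDimensional ℝ G]
  [MeasurableSpace F] [BorelSpace F] [MeasurableSpace G] [BorelSpace G]
  {I : Type*} [Fintype I]

/-- the strong constancy lemma VF-SC (helper173, #5425) on `G`, orthonormal basis `b`. -/
def SC1 (b : OrthonormalBasis I ℝ G) : Prop :=
  ∃ C : ℝ, 0 ≤ C ∧ ∀ (A Em Gm : Measure G) [IsFiniteMeasure A] [IsFiniteMeasure Em]
    [IsFiniteMeasure Gm] (x₀ : G) (r M δ : ℝ), 0 < r → 0 ≤ δ → δ ≤ M →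
    A (ball x₀ (4 * r)) ≤ ENNReal.ofReal M → Em (ball x₀ (4 * r)) ≤ ENNReal.ofReal δ →
    Gm (ball x₀ (4 * r)) ≤ ENNReal.ofReal (δ / r) →
    (∀ U : G → ℝ, ContDiff ℝ (⊤ : ℕ∞) U → HasCompactSupport U → tsupport U ⊆ ball x₀ (4 * r) →
      |∫ y, lap b U y ∂A| ≤
        ∫ y, ‖fderiv ℝ (fderiv ℝ U) y‖ ∂Em + ∫ y, ‖fderiv ℝ U y‖ ∂Gm) →
    ∀ S : Set G, MeasurableSet S → S ⊆ ball x₀ r →
      A S ≤ ENNReal.ofReal
        (C * (M * (volume S).toReal / r ^ Module.finrank ℝ G + Real.sqrt (M * δ)))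

theorem push_univ_le {X : Type*} [MeasurableSpace X] {μ : Measure X} {f : X → ℝ} {g : X → G}
    (hg : Measurable g) (h1 : ∀ x, f x ≤ 1) : push μ f g univ ≤ μ univ := by
  rw [push, Measure.map_apply hg MeasurableSet.univ, preimage_univ,
    withDensity_apply _ MeasurableSet.univ, setLIntegral_univ]
  calc ∫⁻ x, ENNReal.ofReal (f x) ∂μ ≤ ∫⁻ _, 1 ∂μ := by
        refine lintegral_mono fun x => ?_
        rw [← ENNReal.ofReal_one]
        exact ENNReal.ofReal_le_ofReal (h1 x)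
    _ = μ univ := lintegral_one

theorem d2_zero {U : G → ℝ} {y : G} (hy : y ∉ tsupport U) : fderiv ℝ (fderiv ℝ U) y = 0 := by
  by_contra h
  exact hy (tsupport_fderiv_subset ℝ (f := U) (support_fderiv_subset ℝ (f := fderiv ℝ U) h))

theorem d2_compact {U : G → ℝ} (hUc : HasCompactSupport U) :
    HasCompactSupport (fun y => ‖fderiv ℝ (fderiv ℝ U) y‖) := by
  refine HasCompactSupport.intro (K := tsupport U) hUc fun y hy => ?_
  simp only [d2_zero hy]
  exact ContinuousLinearMap.opNorm_zero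

theorem integral_comb {μ₁ μ₂ : Measure G} [IsFiniteMeasure μ₁] [IsFiniteMeasure μ₂] {a₁ a₂ : ℝ}
    (h₁ : 0 ≤ a₁) (h₂ : 0 ≤ a₂) {φ : G → ℝ} (hφ : Continuous φ) (hc : HasCompactSupport φ) :
    ∫ y, φ y ∂(ENNReal.ofReal a₁ • μ₁ + ENNReal.ofReal a₂ • μ₂) =
      a₁ * ∫ y, φ y ∂μ₁ + a₂ * ∫ y, φ y ∂μ₂ := by
  have f1 : Integrable φ μ₁ := hφ.integrable_of_hasCompactSupport hc
  have f2 : Integrable φ μ₂ := hφ.integrable_of_hasCompactSupport hc
  have g1 : Integrable φ (ENNReal.ofReal a₁ • μ₁) := f1.smul_measure ENNReal.ofReal_ne_top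
  have g2 : Integrable φ (ENNReal.ofReal a₂ • μ₂) := f2.smul_measure ENNReal.ofReal_ne_top
  rw [integral_add_measure g1 g2, integral_smul_measure, integral_smul_measure,
    ENNReal.toReal_ofReal h₁, ENNReal.toReal_ofReal h₂, smul_eq_mul, smul_eq_mul]

theorem finite_comb {μ₁ μ₂ : Measure G} [IsFiniteMeasure μ₁] [IsFiniteMeasure μ₂] (a₁ a₂ : ℝ) :
    IsFiniteMeasure (ENNReal.ofReal a₁ • μ₁ + ENNReal.ofReal a₂ • μ₂) := by
  have f1 : IsFiniteMeasure (ENNReal.ofReal a₁ • μ₁) :=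
    Measure.smul_finite _ ENNReal.ofReal_ne_top
  have f2 : IsFiniteMeasure (ENNReal.ofReal a₂ • μ₂) :=
    Measure.smul_finite _ ENNReal.ofReal_ne_top
  infer_instance

theorem comb_le {μ₁ μ₂ : Measure G} {a₁ a₂ δ t : ℝ} (h₁ : 0 ≤ a₁) (h₂ : 0 ≤ a₂) (hδ : 0 ≤ δ)
    (m₁ : μ₁ univ ≤ ENNReal.ofReal δ) (m₂ : μ₂ univ ≤ ENNReal.ofReal δ)
    (ht : a₁ * δ + a₂ * δ ≤ t) (S : Set G) :
    (ENNReal.ofReal a₁ • μ₁ + ENNReal.ofReal a₂ • μ₂) S ≤ ENNReal.ofReal t := by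
  refine (measure_mono (subset_univ _)).trans ?_
  rw [Measure.add_apply, Measure.smul_apply, Measure.smul_apply, smul_eq_mul, smul_eq_mul]
  calc ENNReal.ofReal a₁ * μ₁ univ + ENNReal.ofReal a₂ * μ₂ univ
      ≤ ENNReal.ofReal a₁ * ENNReal.ofReal δ + ENNReal.ofReal a₂ * ENNReal.ofReal δ := by gcongr
    _ = ENNReal.ofReal (a₁ * δ + a₂ * δ) := by
        rw [← ENNReal.ofReal_mul h₁, ← ENNReal.ofReal_mul h₂,
          ← ENNReal.ofReal_add (by positivity) (by positivity)]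
    _ ≤ _ := ENNReal.ofReal_le_ofReal ht

/-- the data of the projection lemma: `α ≥ 0` (excess + holes), `κ` (errors), `e = p_# (Q dV)`,
`B = ball x₀ (6 s)`. -/
structure Data {Ω : Type u} [MeasurableSpace Ω] (b : OrthonormalBasis I ℝ G) (ι : G →ₗᵢ[ℝ] F)
    (α κ : Measure F) (V : Measure Ω) (p : Ω → F) (Q : Ω → F →L[ℝ] F) (x₀ : F) (s M δ : ℝ) :
    Prop where
  s_pos : 0 < s
  meas : Measurable p
  psd : ∀ᵐ ω ∂V.restrict (p ⁻¹' ball x₀ (6 * s)), PSD (Q ω)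
  int : IntegrableOn Q (p ⁻¹' ball x₀ (6 * s)) V
  div : DivErr α V p Q κ s (ball x₀ (6 * s))
  δM : δ ≤ M
  mα : α (ball x₀ (6 * s)) ≤ ENNReal.ofReal M
  mκ : κ (ball x₀ (6 * s)) ≤ ENNReal.ofReal δ
  mL : ∫ ω in p ⁻¹' ball x₀ (6 * s), tL b ι (Q ω) ∂V ≤ δ
  mS : Real.sqrt ((∫ ω in p ⁻¹' ball x₀ (6 * s), ‖Q ω‖ ∂V) *
    ∫ ω in p ⁻¹' ball x₀ (6 * s), tL b ι (Q ω) ∂V) ≤ δ

set_option maxHeartbeats 1000000 in
/-- **mass of the excess over sets of `L`**. -/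
theorem alpha_le (b : OrthonormalBasis I ℝ G) (hSC : SC1 b) : ∃ C : ℝ, 0 ≤ C ∧
    ∀ {Ω : Type u} [MeasurableSpace Ω] (ι : G →ₗᵢ[ℝ] F) (α κ : Measure F) (V : Measure Ω)
      (p : Ω → F) (Q : Ω → F →L[ℝ] F) (x₀ : F) (s M δ : ℝ), Data b ι α κ V p Q x₀ s M δ →
      ∀ S : Set G, MeasurableSet S →
        α (ball x₀ s ∩ pr ι ⁻¹' S) ≤ ENNReal.ofReal (C * M / s ^ Module.finrank ℝ G) * volume S +
          ENNReal.ofReal (C * Real.sqrt (M * δ)) := by
  obtain ⟨C₀, hC₀, hSC⟩ := hSC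
  obtain ⟨C', hC'0, hC'⟩ := exists_prof_bound (F := F)
  set n : ℝ := (Fintype.card I : ℝ) with hn
  have hn0 : 0 ≤ n := Nat.cast_nonneg _
  set K : ℝ := 1 + 2 * n + n * (2 * C' + 1) with hK
  have hK1 : 1 ≤ K := by rw [hK]; nlinarith [mul_nonneg hn0 hC'0]
  refine ⟨C₀ * K, by positivity, ?_⟩
  intro Ω _ ι α κ V p Q x₀ s M δ D S hS
  have hs := D.s_pos
  have hδ0 : 0 ≤ δ := (Real.sqrt_nonneg _).trans D.mS
  have hM0 : 0 ≤ M := hδ0.trans D.δM
  have hgp : Measurable (fun ω => pr ι (p ω)) := measurable_pr.comp D.meas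
  have hα : α (ball x₀ (6 * s)) < ∞ := D.mα.trans_lt ENNReal.ofReal_lt_top
  have hκ : κ (ball x₀ (6 * s)) < ∞ := D.mκ.trans_lt ENNReal.ofReal_lt_top
  -- masses
  have mA1 : mA α ι x₀ s univ ≤ ENNReal.ofReal M := by
    refine (push_univ_le measurable_pr (cut_le_one ι x₀ s)).trans ?_
    rw [Measure.restrict_apply_univ]
    exact D.mα
  have mE1 : mE b V p Q ι x₀ s univ ≤ ENNReal.ofReal δ := by
    rw [mE, push_univ (aemeas_tL D.int) (by filter_upwards [D.psd] with ω h using tL_nonneg h) hgp]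
    exact ENNReal.ofReal_le_ofReal D.mL
  have mH1 : mH b V p Q ι x₀ s univ ≤ ENNReal.ofReal δ := by
    rw [mH, push_univ (int_sqrt D.psd D.int)
      (Filter.Eventually.of_forall fun _ => Real.sqrt_nonneg _) hgp]
    exact ENNReal.ofReal_le_ofReal ((int_sqrt_le D.psd D.int).trans D.mS)
  have mK1 : mK κ ι x₀ s univ ≤ ENNReal.ofReal δ := by
    refine (push_univ_le measurable_pr (fun _ => le_refl _)).trans ?_
    rw [Measure.restrict_apply_univ]
    exact D.mκ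
  have fA : IsFiniteMeasure (mA α ι x₀ s) := ⟨mA1.trans_lt ENNReal.ofReal_lt_top⟩
  have fE : IsFiniteMeasure (mE b V p Q ι x₀ s) := ⟨mE1.trans_lt ENNReal.ofReal_lt_top⟩
  have fH : IsFiniteMeasure (mH b V p Q ι x₀ s) := ⟨mH1.trans_lt ENNReal.ofReal_lt_top⟩
  have fK : IsFiniteMeasure (mK κ ι x₀ s) := ⟨mK1.trans_lt ENNReal.ofReal_lt_top⟩
  -- the two measures
  have e1 : 0 ≤ n * (C' / s) := by positivity
  have e2 : 0 ≤ n * ((C' + 1) / s) := by positivity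
  have fEm : IsFiniteMeasure (ENNReal.ofReal n • mE b V p Q ι x₀ s +
    ENNReal.ofReal n • mK κ ι x₀ s) := finite_comb _ _
  have fGm : IsFiniteMeasure (ENNReal.ofReal (n * (C' / s)) • mH b V p Q ι x₀ s +
    ENNReal.ofReal (n * ((C' + 1) / s)) • mK κ ι x₀ s) := finite_comb _ _
  have a1 : mA α ι x₀ s (ball (pr ι x₀) (4 * s)) ≤ ENNReal.ofReal (K * M) := by
    refine (measure_mono (subset_univ _)).trans (mA1.trans (ENNReal.ofReal_le_ofReal ?_))
    nlinarith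
  have a2 : (ENNReal.ofReal n • mE b V p Q ι x₀ s + ENNReal.ofReal n • mK κ ι x₀ s)
      (ball (pr ι x₀) (4 * s)) ≤ ENNReal.ofReal (K * δ) := by
    refine comb_le hn0 hn0 hδ0 mE1 mK1 ?_ _
    rw [hK]
    nlinarith [mul_nonneg (mul_nonneg hn0 hC'0) hδ0, mul_nonneg hn0 hδ0]
  have a3 : (ENNReal.ofReal (n * (C' / s)) • mH b V p Q ι x₀ s +
      ENNReal.ofReal (n * ((C' + 1) / s)) • mK κ ι x₀ s)
      (ball (pr ι x₀) (4 * s)) ≤ ENNReal.ofReal (K * δ / s) := by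
    refine comb_le e1 e2 hδ0 mH1 mK1 ?_ _
    rw [le_div_iff₀ hs]
    have e3 : (n * (C' / s) * δ + n * ((C' + 1) / s) * δ) * s = n * (2 * C' + 1) * δ := by
      field_simp
      ring
    rw [e3, hK]
    nlinarith [mul_nonneg (mul_nonneg hn0 hC'0) hδ0, mul_nonneg hn0 hδ0]
  have a4 : ∀ U : G → ℝ, ContDiff ℝ (⊤ : ℕ∞) U → HasCompactSupport U →
      tsupport U ⊆ ball (pr ι x₀) (4 * s) → |∫ y, lap b U y ∂(mA α ι x₀ s)| ≤
        ∫ y, ‖fderiv ℝ (fderiv ℝ U) y‖ ∂(ENNReal.ofReal n • mE b V p Q ι x₀ s +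
          ENNReal.ofReal n • mK κ ι x₀ s) +
        ∫ y, ‖fderiv ℝ U y‖ ∂(ENNReal.ofReal (n * (C' / s)) • mH b V p Q ι x₀ s +
          ENNReal.ofReal (n * ((C' + 1) / s)) • mK κ ι x₀ s) := by
    intro U hU hUc hUs
    have h1 := proj_H2 (b := b) hC' hs hα hκ D.meas D.psd D.int D.div hU hUc hUs
    have c1 : Continuous (fun y => ‖fderiv ℝ U y‖) := (hU.continuous_fderiv (by simp)).norm
    have c2 : Continuous (fun y => ‖fderiv ℝ (fderiv ℝ U) y‖) :=
      ((dU_contDiff hU).continuous_fderiv (by simp)).norm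
    have s1 : HasCompactSupport (fun y => ‖fderiv ℝ U y‖) := (hUc.fderiv ℝ).norm
    have s2 : HasCompactSupport (fun y => ‖fderiv ℝ (fderiv ℝ U) y‖) := d2_compact hUc
    have g1 := integral_comb (μ₁ := mE b V p Q ι x₀ s) (μ₂ := mK κ ι x₀ s) hn0 hn0 c2 s2
    have g2 := integral_comb (μ₁ := mH b V p Q ι x₀ s) (μ₂ := mK κ ι x₀ s) e1 e2 c1 s1
    rw [g1, g2]
    refine h1.trans (le_of_eq ?_)
    ring
  have a5 : 0 ≤ K * δ := by positivity
  have a6 : K * δ ≤ K * M := mul_le_mul_of_nonneg_left D.δM (by positivity)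
  have key := hSC (mA α ι x₀ s) _ _ (pr ι x₀) s (K * M) (K * δ) hs a5 a6 a1 a2 a3 a4
    (S ∩ ball (pr ι x₀) s) (hS.inter measurableSet_ball) inter_subset_right
  -- conclusion
  have h2 : α (ball x₀ s ∩ pr ι ⁻¹' S) ≤ mA α ι x₀ s (S ∩ ball (pr ι x₀) s) := by
    have h3 : ball x₀ s ∩ pr ι ⁻¹' S = ball x₀ s ∩ pr ι ⁻¹' (S ∩ ball (pr ι x₀) s) := by
      ext x
      constructor
      · rintro ⟨hx1, hx2⟩
        refine ⟨hx1, hx2, ?_⟩
        rw [mem_ball, dist_eq_norm] at hx1 ⊢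
        rw [← map_sub]
        exact (norm_pr_le ι _).trans_lt hx1
      · rintro ⟨hx1, hx2, _⟩
        exact ⟨hx1, hx2⟩
    have h4 : α (ball x₀ s ∩ pr ι ⁻¹' (S ∩ ball (pr ι x₀) s)) =
        (α.restrict (ball x₀ (6 * s))) (ball x₀ s ∩ pr ι ⁻¹' (S ∩ ball (pr ι x₀) s)) := by
      rw [Measure.restrict_apply' measurableSet_ball]
      congr 1
      refine (inter_eq_left.2 ?_).symm
      exact inter_subset_left.trans (ball_subset_ball (by linarith))
    rw [h3, h4]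
    exact push_apply_le measurable_pr measurableSet_ball (fun x hx => cut_one hs hx)
      (hS.inter measurableSet_ball)
  refine h2.trans (key.trans ?_)
  set v := (volume (S ∩ ball (pr ι x₀) s)).toReal with hv
  have hv0 : 0 ≤ v := ENNReal.toReal_nonneg
  have e3 : Real.sqrt (K * M * (K * δ)) = K * Real.sqrt (M * δ) := by
    rw [show K * M * (K * δ) = K ^ 2 * (M * δ) by ring, Real.sqrt_mul (by positivity),
      Real.sqrt_sq (by positivity)]
  have e4 : C₀ * (K * M * v / s ^ Module.finrank ℝ G + Real.sqrt (K * M * (K * δ))) =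
      C₀ * K * M / s ^ Module.finrank ℝ G * v + C₀ * K * Real.sqrt (M * δ) := by
    rw [e3]; ring
  rw [e4, ENNReal.ofReal_add (by positivity) (by positivity),
    ENNReal.ofReal_mul (by positivity)]
  gcongr
  rw [hv, ENNReal.ofReal_toReal]
  · exact measure_mono inter_subset_left
  · exact ((measure_mono inter_subset_right).trans_lt measure_ball_lt_top).ne

/-- **(2): energy of an arbitrary set with small projection** (`e ≤ 2 α + κ` in `ball x₀ s`). -/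
theorem energy_le (b : OrthonormalBasis I ℝ G) (hSC : SC1 b) : ∃ C : ℝ, 0 ≤ C ∧
    ∀ {Ω : Type u} [MeasurableSpace Ω] (ι : G →ₗᵢ[ℝ] F) (α κ : Measure F) (V : Measure Ω)
      (p : Ω → F) (Q : Ω → F →L[ℝ] F) (x₀ : F) (s M δ : ℝ), Data b ι α κ V p Q x₀ s M δ →
      ∀ e : Measure F, (∀ A, MeasurableSet A → A ⊆ ball x₀ s → e A ≤ 2 * α A + κ A) →
      ∀ N : Set F, N ⊆ ball x₀ s →
        e N ≤ ENNReal.ofReal (C * M / s ^ Module.finrank ℝ G) * volume (pr ι '' N) +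
          ENNReal.ofReal (C * Real.sqrt (M * δ)) := by
  obtain ⟨C, hC, h⟩ := alpha_le.{u} (F := F) b hSC
  refine ⟨2 * C + 1, by positivity, ?_⟩
  intro Ω _ ι α κ V p Q x₀ s M δ D e he N hN
  have hs := D.s_pos
  have hδ0 : 0 ≤ δ := (Real.sqrt_nonneg _).trans D.mS
  have hM0 : 0 ≤ M := hδ0.trans D.δM
  set S := toMeasurable volume (pr ι '' N) with hS
  have hSm : MeasurableSet S := measurableSet_toMeasurable _ _
  have h1 : N ⊆ ball x₀ s ∩ pr ι ⁻¹' S := fun x hx =>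
    ⟨hN hx, subset_toMeasurable _ _ (mem_image_of_mem _ hx)⟩
  have h2 := h ι α κ V p Q x₀ s M δ D S hSm
  have h3 : κ (ball x₀ s ∩ pr ι ⁻¹' S) ≤ ENNReal.ofReal δ :=
    (measure_mono (inter_subset_left.trans (ball_subset_ball (by linarith)))).trans D.mκ
  have h4 : δ ≤ Real.sqrt (M * δ) := Real.le_sqrt_of_sq_le (by nlinarith [D.δM])
  have hm : MeasurableSet (ball x₀ s ∩ pr ι ⁻¹' S) :=
    measurableSet_ball.inter (measurable_pr hSm)
  rw [measure_toMeasurable] at h2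
  have hq0 : 0 ≤ Real.sqrt (M * δ) := Real.sqrt_nonneg _
  calc e N ≤ e (ball x₀ s ∩ pr ι ⁻¹' S) := measure_mono h1
    _ ≤ 2 * α (ball x₀ s ∩ pr ι ⁻¹' S) + κ (ball x₀ s ∩ pr ι ⁻¹' S) :=
        he _ hm inter_subset_left
    _ ≤ 2 * (ENNReal.ofReal (C * M / s ^ Module.finrank ℝ G) * volume (pr ι '' N) +
          ENNReal.ofReal (C * Real.sqrt (M * δ))) + ENNReal.ofReal (Real.sqrt (M * δ)) := by
        gcongr
        exact h3.trans (ENNReal.ofReal_le_ofReal h4)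
    _ ≤ ENNReal.ofReal ((2 * C + 1) * M / s ^ Module.finrank ℝ G) * volume (pr ι '' N) +
          ENNReal.ofReal ((2 * C + 1) * Real.sqrt (M * δ)) := by
        rw [mul_add, ← mul_assoc, add_assoc]
        have e1 : (2 : ℝ≥0∞) = ENNReal.ofReal 2 := by simp
        rw [e1, ← ENNReal.ofReal_mul (by norm_num), ← ENNReal.ofReal_mul (by norm_num),
          ← ENNReal.ofReal_add (by positivity) hq0]
        refine add_le_add ?_ (ENNReal.ofReal_le_ofReal (by linarith))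
        gcongr
        rw [show 2 * (C * M / s ^ Module.finrank ℝ G) = (2 * C) * M / s ^ Module.finrank ℝ G by ring]
        gcongr
        linarith

end

end Crest.Agent.R234.Proj_929
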