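import Crest.Agent.R234.Proj4_929
import Crest.Agent.R234.Sc13_173

/-! Row 234, VF-PROJ (task 1505), part 5: the instance of `SC1` (helper173's strong constancy
lemma), for every finite dimensional inner product space and every orthonormal basis. -/

namespace Crest.Agent.R234.Proj_929

open MeasureTheory Set Metric
open scoped ENNReal

noncomputable section

variable {G : Type*} [NormedAddCommGroup G] [InnerProductSpace ℝ G] [FiniteDimensional ℝ G]
  [MeasurableSpace G] [BorelSpace G] {I : Type*} [Fintype I]

/-- the strong constancy lemma in the form used by `alpha_le`, `energy_le` -/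
theorem sc1_fin {d : ℕ} (b : OrthonormalBasis (Fin d) ℝ G) : SC1 b := by
  refine ⟨max (Crest.Agent.R234.Sc173.Csc d) 0, le_max_right _ _, ?_⟩
  intro A Em Gm _ _ _ x₀ r M δ hr hδ hδM hA hE hG hH S hS hSr
  have hd : Module.finrank ℝ G = d := by
    rw [Module.finrank_eq_card_basis b.toBasis, Fintype.card_fin]
  have key := Crest.Agent.R234.Sc173.SC1 b hr (hδ.trans hδM) hδ hA hE hG hH hS hSr
  rw [hd]
  have h0 : 0 ≤ M * ((volume S).toReal / r ^ d) + Real.sqrt (M * δ) :=
    add_nonneg (mul_nonneg (hδ.trans hδM) (by positivity)) (Real.sqrt_nonneg _)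
  have h1 : A.real S ≤ max (Crest.Agent.R234.Sc173.Csc d) 0 *
      (M * (volume S).toReal / r ^ d + Real.sqrt (M * δ)) := by
    refine key.trans ?_
    rw [mul_div_assoc]
    exact mul_le_mul_of_nonneg_right (le_max_left _ _) h0
  rw [← ENNReal.ofReal_toReal (measure_ne_top A S)]
  exact ENNReal.ofReal_le_ofReal h1

/-- **`SC1` holds for every orthonormal basis.** -/
theorem sc1 (b : OrthonormalBasis I ℝ G) : SC1 b :=
  SC1.congr (sc1_fin (stdOrthonormalBasis ℝ G)) (LinearIsometryEquiv.refl ℝ G) b

end

end Crest.Agent.R234.Proj_929
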