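import Crest.Agent.R234.Vf3_884

/-!
Row 234, VF-PTOV (helper615), file 1: the pair-truncated outer variation as an exact two-point
identity for general stationary varifolds.

`H` = orthogonal projection on the horizontal plane, `N = 1 - H`; `w (x, x')` a symmetric
horizontal kernel, `ψ` an odd vertical field with symmetric derivative.
-/

set_option autoImplicit false

open MeasureTheory Crest.GeometryTopology.Submanifold Filter Topology
open Crest.Agent.R234.Vf_884
open scoped ENNReal InnerProductSpace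

noncomputable section

namespace Crest.Agent.R234.Pt_615

variable {m k : ℕ}

/-- a bounded varifold (no stationarity). -/
structure HBase (m : ℕ) {k : ℕ} (V : Measure (Euc k × L k)) : Prop where
  conc : ∀ᵐ p ∂V, p.2 ∈ G m k
  bdd : ∃ R : ℝ, ∀ᵐ p ∂V, ‖p.1‖ ≤ R

/-- the first variation. -/
def FV {k : ℕ} (V : Measure (Euc k × L k)) (X : Euc k → Euc k) : ℝ :=
  ∫ p, tr ((fderiv ℝ X p.1) ∘L p.2) ∂V

/-- stationarity of a finite measure over the compact part `K` of the base of the
(horizontal) projection `H`: all `C¹` fields supported over `K` are allowed. -/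
structure HStat (m : ℕ) {k : ℕ} (H : L k) (K : Set (Euc k)) (V : Measure (Euc k × L k)) : Prop
    extends HBase m V where
  stat : ∀ X : Euc k → Euc k, ContDiff ℝ 1 X → (∀ x, H x ∉ K → X x = 0) → FV V X = 0

/-- a symmetric horizontal kernel. -/
structure Ker (H : L k) (K : Set (Euc k)) (w : Euc k → Euc k → ℝ) : Prop where
  smooth : ContDiff ℝ 1 (fun q : Euc k × Euc k => w q.1 q.2)
  symm : ∀ x y, w x y = w y x
  hor : ∀ x y, w x y = w (H x) (H y)
  supp : ∀ x y, H x ∉ K → w x y = 0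

/-- an odd vertical field with symmetric derivative. -/
structure Vert (H : L k) (ψ : Euc k → Euc k) : Prop where
  smooth : ContDiff ℝ 1 ψ
  odd : ∀ u, ψ (-u) = -ψ u
  ver : ∀ u, ψ u = ψ (u - H u)
  Hψ : ∀ u, H (ψ u) = 0
  symm : ∀ u, IsSelfAdjoint (fderiv ℝ ψ u)

/-- derivative in the first variable. -/
def D1 (w : Euc k → Euc k → ℝ) (x y : Euc k) : Euc k →L[ℝ] ℝ :=
  (fderiv ℝ (fun q : Euc k × Euc k => w q.1 q.2) (x, y)) ∘L (ContinuousLinearMap.inl ℝ _ _)

/-- derivative in the second variable. -/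
def D2 (w : Euc k → Euc k → ℝ) (x y : Euc k) : Euc k →L[ℝ] ℝ :=
  (fderiv ℝ (fun q : Euc k × Euc k => w q.1 q.2) (x, y)) ∘L (ContinuousLinearMap.inr ℝ _ _)

variable {H : L k} {K : Set (Euc k)} {w : Euc k → Euc k → ℝ} {ψ : Euc k → Euc k}

theorem hasFDerivAt_D1 (hw : Ker H K w) (x y : Euc k) :
    HasFDerivAt (fun z => w z y) (D1 w x y) x := by
  have h1 : HasFDerivAt (fun q : Euc k × Euc k => w q.1 q.2)
      (fderiv ℝ (fun q : Euc k × Euc k => w q.1 q.2) (x, y)) (x, y) :=
    (hw.smooth.differentiable one_ne_zero _).hasFDerivAt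
  have h2 : HasFDerivAt (fun z : Euc k => (z, y)) (ContinuousLinearMap.inl ℝ (Euc k) (Euc k)) x :=
    hasFDerivAt_prodMk_left x y
  exact h1.comp x h2

theorem hasFDerivAt_D2 (hw : Ker H K w) (x y : Euc k) :
    HasFDerivAt (fun z => w x z) (D2 w x y) y := by
  have h1 : HasFDerivAt (fun q : Euc k × Euc k => w q.1 q.2)
      (fderiv ℝ (fun q : Euc k × Euc k => w q.1 q.2) (x, y)) (x, y) :=
    (hw.smooth.differentiable one_ne_zero _).hasFDerivAt
  have h2 : HasFDerivAt (fun z : Euc k => (x, z)) (ContinuousLinearMap.inr ℝ (Euc k) (Euc k)) y :=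
    hasFDerivAt_prodMk_right x y
  exact h1.comp y h2

theorem continuous_D1 (hw : Ker H K w) :
    Continuous (fun q : Euc k × Euc k => D1 w q.1 q.2) := by
  have h := hw.smooth.continuous_fderiv one_ne_zero
  exact h.clm_comp continuous_const

theorem continuous_D2 (hw : Ker H K w) :
    Continuous (fun q : Euc k × Euc k => D2 w q.1 q.2) := by
  have h := hw.smooth.continuous_fderiv one_ne_zero
  exact h.clm_comp continuous_const

/-- the vertical part of `D1` vanishes. -/
theorem D1_hor (hw : Ker H K w) (hH : H ∘L H = H) (x y v : Euc k) :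
    D1 w x y (H v) = D1 w x y v := by
  have h1 := hasFDerivAt_D1 hw x y
  -- the line `t ↦ x + t (v - H v)` is constant for `w`
  have hHH : ∀ u, H (H u) = H u := fun u => congrArg (fun A : L k => A u) hH
  have h2 : HasDerivAt (fun t : ℝ => w (x + t • (v - H v)) y) (D1 w x y (v - H v)) 0 := by
    have h3 : HasDerivAt (fun t : ℝ => x + t • (v - H v)) (v - H v) 0 := by
      simpa using ((hasDerivAt_id (0 : ℝ)).smul_const (v - H v)).const_add x
    have h1' : HasFDerivAt (fun z => w z y) (D1 w x y) (x + (0 : ℝ) • (v - H v)) := by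
      simpa using h1
    exact h1'.comp_hasDerivAt (0 : ℝ) h3
  have h4 : (fun t : ℝ => w (x + t • (v - H v)) y) = fun _ => w x y := by
    funext t
    rw [hw.hor, hw.hor x y]
    congr 1
    rw [map_add, map_smul, map_sub, hHH, sub_self, smul_zero, add_zero]
  rw [h4] at h2
  have h5 := h2.unique (hasDerivAt_const (0 : ℝ) (w x y))
  rw [map_sub, sub_eq_zero] at h5
  exact h5.symm

theorem D2_eq (hw : Ker H K w) (x y : Euc k) : D2 w x y = D1 w y x := by
  refine (hasFDerivAt_D2 hw x y).unique ?_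
  have h : (fun z => w x z) = fun z => w z x := funext fun z => hw.symm x z
  rw [h]
  exact hasFDerivAt_D1 hw y x

theorem D2_hor (hw : Ker H K w) (hH : H ∘L H = H) (x y v : Euc k) :
    D2 w x y (H v) = D2 w x y v := by
  rw [D2_eq hw]; exact D1_hor hw hH y x v

theorem supp' (hw : Ker H K w) (x y : Euc k) (h : H y ∉ K) : w x y = 0 := by
  rw [hw.symm]; exact hw.supp y x h

/-! ### the vertical field -/

theorem fderiv_even (hψ : Vert H ψ) (u : Euc k) : fderiv ℝ ψ (-u) = fderiv ℝ ψ u := by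
  have h1 : HasFDerivAt ψ (fderiv ℝ ψ (-u)) (-u) :=
    (hψ.smooth.differentiable one_ne_zero _).hasFDerivAt
  have h2 : HasFDerivAt (fun u : Euc k => -u) (-(ContinuousLinearMap.id ℝ (Euc k))) u :=
    (hasFDerivAt_id u).neg
  have h3 := (h1.comp u h2).neg
  have h4 : -(ψ ∘ Neg.neg) = ψ := by
    funext u; simp [hψ.odd]
  have h5 : HasFDerivAt ψ (-((fderiv ℝ ψ (-u)) ∘L (-(ContinuousLinearMap.id ℝ (Euc k))))) u := by
    have := h3
    rwa [h4] at this
  rw [h5.fderiv]
  ext v; simp

theorem fderiv_H (hψ : Vert H ψ) (u v : Euc k) : H (fderiv ℝ ψ u v) = 0 := by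
  have h1 : HasFDerivAt ψ (fderiv ℝ ψ u) u :=
    (hψ.smooth.differentiable one_ne_zero _).hasFDerivAt
  have h2 := H.hasFDerivAt.comp u h1
  have h3 : (H ∘ ψ) = fun _ => (0 : Euc k) := funext fun u => hψ.Hψ u
  rw [h3] at h2
  have h4 := h2.unique (hasFDerivAt_const (0 : Euc k) u)
  exact congrArg (fun A : L k => A v) h4

/-- `H A = 0`. -/
theorem comp_H_left (hψ : Vert H ψ) (u : Euc k) : H ∘L (fderiv ℝ ψ u) = 0 := by
  ext1 v; exact fderiv_H hψ u v

/-- `A H = 0`. -/
theorem comp_H_right (hψ : Vert H ψ) (hs : IsSelfAdjoint H) (u : Euc k) :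
    (fderiv ℝ ψ u) ∘L H = 0 := by
  have h := congrArg ContinuousLinearMap.adjoint (comp_H_left hψ u)
  rw [ContinuousLinearMap.adjoint_comp, hs.adjoint_eq, (hψ.symm u).adjoint_eq, map_zero] at h
  exact h

/-! ### the two first variations -/

/-- integrand of the vertical field `w(·, x') ψ(· - x')`. -/
def I1 (w : Euc k → Euc k → ℝ) (ψ : Euc k → Euc k) (q : (Euc k × L k) × (Euc k × L k)) : ℝ :=
  w q.1.1 q.2.1 * tr ((fderiv ℝ ψ (q.1.1 - q.2.1)) ∘L q.1.2)
    + D1 w q.1.1 q.2.1 (q.1.2 (ψ (q.1.1 - q.2.1)))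

/-- integrand of the horizontal field `w(x, ·) H S ψ(x - ·)`. -/
def I2 (H : L k) (w : Euc k → Euc k → ℝ) (ψ : Euc k → Euc k)
    (q : (Euc k × L k) × (Euc k × L k)) : ℝ :=
  -(w q.1.1 q.2.1 * tr ((H ∘L q.1.2 ∘L (fderiv ℝ ψ (q.1.1 - q.2.1))) ∘L q.2.2))
    + D2 w q.1.1 q.2.1 (q.2.2 (H (q.1.2 (ψ (q.1.1 - q.2.1)))))

variable {V : Measure (Euc k × L k)}

/-- the vertical field (second point frozen). -/
def Xf (w : Euc k → Euc k → ℝ) (ψ : Euc k → Euc k) (z' : Euc k × L k) : Euc k → Euc k :=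
  fun x => w x z'.1 • ψ (x - z'.1)

/-- the horizontal field (first point frozen). -/
def Yf (H : L k) (w : Euc k → Euc k → ℝ) (ψ : Euc k → Euc k) (z : Euc k × L k) :
    Euc k → Euc k :=
  fun y => w z.1 y • H (z.2 (ψ (z.1 - y)))

theorem contDiff_Xf (hw : Ker H K w) (hψ : Vert H ψ) (z' : Euc k × L k) :
    ContDiff ℝ 1 (Xf w ψ z') := by
  have h1 : ContDiff ℝ 1 (fun x : Euc k => w x z'.1) :=
    hw.smooth.comp (contDiff_id.prodMk contDiff_const)
  exact h1.smul (hψ.smooth.comp (contDiff_id.sub contDiff_const))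

theorem contDiff_Yf (hw : Ker H K w) (hψ : Vert H ψ) (z : Euc k × L k) :
    ContDiff ℝ 1 (Yf H w ψ z) := by
  have h1 : ContDiff ℝ 1 (fun y : Euc k => w z.1 y) :=
    hw.smooth.comp (contDiff_const.prodMk contDiff_id)
  exact h1.smul ((H ∘L z.2).contDiff.comp (hψ.smooth.comp (contDiff_const.sub contDiff_id)))

theorem Xf_supp (hw : Ker H K w) (z' : Euc k × L k) (x : Euc k) (hx : H x ∉ K) :
    Xf w ψ z' x = 0 := by
  rw [Xf, hw.supp x z'.1 hx, zero_smul]

theorem Yf_supp (hw : Ker H K w) (z : Euc k × L k) (x : Euc k) (hx : H x ∉ K) :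
    Yf H w ψ z x = 0 := by
  rw [Yf, supp' hw z.1 x hx, zero_smul]

theorem int_I1 (hw : Ker H K w) (hψ : Vert H ψ) (z' : Euc k × L k) :
    ∫ z, I1 w ψ (z, z') ∂V = FV V (Xf w ψ z') := by
  have hd : ∀ x : Euc k, HasFDerivAt (fun x : Euc k => w x z'.1 • ψ (x - z'.1))
      (w x z'.1 • (fderiv ℝ ψ (x - z'.1)) + (D1 w x z'.1).smulRight (ψ (x - z'.1))) x := by
    intro x
    have h1 := hasFDerivAt_D1 hw x z'.1
    have h2 : HasFDerivAt (fun x : Euc k => ψ (x - z'.1)) (fderiv ℝ ψ (x - z'.1)) x := by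
      have h3 : HasFDerivAt ψ (fderiv ℝ ψ (x - z'.1)) (x - z'.1) :=
        (hψ.smooth.differentiable one_ne_zero _).hasFDerivAt
      have h4 : HasFDerivAt (fun x : Euc k => x - z'.1) (ContinuousLinearMap.id ℝ (Euc k)) x :=
        (hasFDerivAt_id x).sub_const z'.1
      have h5 := h3.comp x h4
      rwa [ContinuousLinearMap.comp_id] at h5
    exact h1.smul h2
  refine integral_congr_ae (Filter.Eventually.of_forall fun z => ?_)
  simp only [I1]
  unfold Xf
  rw [(hd z.1).fderiv, ContinuousLinearMap.add_comp, map_add, tr_smulRight_comp]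
  congr 1
  rw [ContinuousLinearMap.smul_comp, map_smul, smul_eq_mul]

theorem int_I2 (hw : Ker H K w) (hψ : Vert H ψ) (z : Euc k × L k) :
    ∫ z', I2 H w ψ (z, z') ∂V = FV V (Yf H w ψ z) := by
  have hd : ∀ y : Euc k, HasFDerivAt (fun y : Euc k => w z.1 y • H (z.2 (ψ (z.1 - y))))
      (w z.1 y • (-(H ∘L z.2 ∘L (fderiv ℝ ψ (z.1 - y))))
        + (D2 w z.1 y).smulRight (H (z.2 (ψ (z.1 - y))))) y := by
    intro y
    have h1 := hasFDerivAt_D2 hw z.1 y
    have h2 : HasFDerivAt (fun y : Euc k => H (z.2 (ψ (z.1 - y))))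
        (-(H ∘L z.2 ∘L (fderiv ℝ ψ (z.1 - y)))) y := by
      have h3 : HasFDerivAt ψ (fderiv ℝ ψ (z.1 - y)) (z.1 - y) :=
        (hψ.smooth.differentiable one_ne_zero _).hasFDerivAt
      have h4 : HasFDerivAt (fun y : Euc k => z.1 - y) (-(ContinuousLinearMap.id ℝ (Euc k))) y :=
        (hasFDerivAt_id y).const_sub z.1
      have h5 := (H ∘L z.2).hasFDerivAt.comp y (h3.comp y h4)
      have h6 : (H ∘L z.2) ∘L ((fderiv ℝ ψ (z.1 - y)) ∘L (-(ContinuousLinearMap.id ℝ (Euc k))))
          = -(H ∘L z.2 ∘L (fderiv ℝ ψ (z.1 - y))) := by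
        ext v; simp
      rw [h6] at h5
      exact h5
    exact h1.smul h2
  refine integral_congr_ae (Filter.Eventually.of_forall fun z' => ?_)
  simp only [I2]
  unfold Yf
  rw [(hd z'.1).fderiv, ContinuousLinearMap.add_comp, map_add, tr_smulRight_comp]
  congr 1
  rw [ContinuousLinearMap.smul_comp, map_smul, smul_eq_mul, ContinuousLinearMap.neg_comp, map_neg,
    mul_neg]

/-! ### integrability -/

/-- continuous functions of the two points are integrable for the product. -/
theorem integrable_cont [IsFiniteMeasure V] (hV : HBase m V) {F : Type*}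
    [NormedAddCommGroup F] {f : (Euc k × L k) × (Euc k × L k) → F}
    (hf : Continuous f) : Integrable f (V.prod V) := by
  obtain ⟨R, hR⟩ := hV.bdd
  set C : Set (Euc k × L k) := Metric.closedBall 0 R ×ˢ G m k with hC
  have hCc : IsCompact C := (isCompact_closedBall _ _).prod (isCompact_G m k)
  have hCm : ∀ᵐ p ∂V, p ∈ C := by
    filter_upwards [hR, hV.conc] with p h1 h2
    exact ⟨by simpa using h1, h2⟩
  have hCC : ∀ᵐ q ∂(V.prod V), q ∈ C ×ˢ C := by
    have h1 : ∀ᵐ q ∂(V.prod V), q.1 ∈ C :=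
      Measure.quasiMeasurePreserving_fst.ae hCm
    have h2 : ∀ᵐ q ∂(V.prod V), q.2 ∈ C :=
      Measure.quasiMeasurePreserving_snd.ae hCm
    filter_upwards [h1, h2] with q h3 h4
    exact ⟨h3, h4⟩
  obtain ⟨B, hB⟩ := (hCc.prod hCc).exists_bound_of_continuousOn hf.continuousOn
  refine Integrable.of_bound (C := B) (hf.aestronglyMeasurable) ?_
  filter_upwards [hCC] with q hq
  exact hB q hq

theorem continuous_I1 (hw : Ker H K w) (hψ : Vert H ψ) : Continuous (I1 w ψ) := by
  have hA : Continuous (fun q : (Euc k × L k) × (Euc k × L k) =>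
      fderiv ℝ ψ (q.1.1 - q.2.1)) :=
    (hψ.smooth.continuous_fderiv one_ne_zero).comp (by fun_prop)
  have hw0 : Continuous (fun q : (Euc k × L k) × (Euc k × L k) => w q.1.1 q.2.1) :=
    hw.smooth.continuous.comp (by fun_prop :
      Continuous fun q : (Euc k × L k) × (Euc k × L k) => (q.1.1, q.2.1))
  have hD : Continuous (fun q : (Euc k × L k) × (Euc k × L k) => D1 w q.1.1 q.2.1) :=
    (continuous_D1 hw).comp (by fun_prop :
      Continuous fun q : (Euc k × L k) × (Euc k × L k) => (q.1.1, q.2.1))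
  have hp : Continuous (fun q : (Euc k × L k) × (Euc k × L k) => ψ (q.1.1 - q.2.1)) :=
    hψ.smooth.continuous.comp (by fun_prop)
  unfold I1
  exact (hw0.mul (tr.continuous.comp (hA.clm_comp (by fun_prop)))).add
    (hD.clm_apply ((by fun_prop : Continuous fun q : (Euc k × L k) × (Euc k × L k) =>
      q.1.2).clm_apply hp))

theorem continuous_I2 (hw : Ker H K w) (hψ : Vert H ψ) : Continuous (I2 H w ψ) := by
  have hA : Continuous (fun q : (Euc k × L k) × (Euc k × L k) =>
      fderiv ℝ ψ (q.1.1 - q.2.1)) :=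
    (hψ.smooth.continuous_fderiv one_ne_zero).comp (by fun_prop)
  have hw0 : Continuous (fun q : (Euc k × L k) × (Euc k × L k) => w q.1.1 q.2.1) :=
    hw.smooth.continuous.comp (by fun_prop :
      Continuous fun q : (Euc k × L k) × (Euc k × L k) => (q.1.1, q.2.1))
  have hD : Continuous (fun q : (Euc k × L k) × (Euc k × L k) => D2 w q.1.1 q.2.1) :=
    (continuous_D2 hw).comp (by fun_prop :
      Continuous fun q : (Euc k × L k) × (Euc k × L k) => (q.1.1, q.2.1))
  have hp : Continuous (fun q : (Euc k × L k) × (Euc k × L k) => ψ (q.1.1 - q.2.1)) :=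
    hψ.smooth.continuous.comp (by fun_prop)
  have hS : Continuous (fun q : (Euc k × L k) × (Euc k × L k) => q.1.2) := by fun_prop
  have hS' : Continuous (fun q : (Euc k × L k) × (Euc k × L k) => q.2.2) := by fun_prop
  unfold I2
  refine Continuous.add (Continuous.neg (hw0.mul (tr.continuous.comp ?_))) ?_
  · exact (continuous_const.clm_comp (hS.clm_comp hA)).clm_comp hS'
  · exact hD.clm_apply (hS'.clm_apply (H.continuous.comp (hS.clm_apply hp)))

/-- the sum of the two first variations, integrated. -/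
theorem int_I [IsFiniteMeasure V] (hV : HBase m V) (hw : Ker H K w) (hψ : Vert H ψ) :
    ∫ q, (I1 w ψ q + I2 H w ψ q) ∂(V.prod V)
      = ∫ z', FV V (Xf w ψ z') ∂V + ∫ z, FV V (Yf H w ψ z) ∂V := by
  have h1 := integrable_cont hV (continuous_I1 hw hψ)
  have h2 := integrable_cont hV (continuous_I2 hw hψ)
  rw [integral_add h1 h2, integral_prod_symm _ h1, integral_prod _ h2]
  simp only [int_I1 hw hψ, int_I2 hw hψ]

end Crest.Agent.R234.Pt_615
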