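import Crest.Agent.R234.Pt1_615

/-!
Row 234, VF-PTOV (helper615), file 2: the exact two-point identity (symmetrised).
-/

set_option autoImplicit false

open MeasureTheory Crest.GeometryTopology.Submanifold Filter Topology
open Crest.Agent.R234.Vf_884
open scoped ENNReal InnerProductSpace

noncomputable section

namespace Crest.Agent.R234.Pt_615

variable {m k : ℕ}

/-- the quadratic form of the two-point identity:
`A : [(S - S') H (S - S') + S (1 - H) S + S' (1 - H) S']`. -/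
def Sq (H A S S' : L k) : ℝ :=
  tr (A ∘L ((S - S') ∘L (H ∘L (S - S'))))
    + tr (A ∘L (S ∘L ((ContinuousLinearMap.id ℝ (Euc k) - H) ∘L S)))
    + tr (A ∘L (S' ∘L ((ContinuousLinearMap.id ℝ (Euc k) - H) ∘L S')))

theorem Sq_eq {H A S S' : L k} (hS : S ∘L S = S) (hS' : S' ∘L S' = S') :
    (tr (A ∘L S) - tr ((H ∘L S ∘L A) ∘L S')) + (tr (A ∘L S') - tr ((H ∘L S' ∘L A) ∘L S))
      = Sq H A S S' := by
  have e1 : tr ((H ∘L S ∘L A) ∘L S') = tr (A ∘L (S' ∘L (H ∘L S))) := by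
    rw [show (H ∘L S ∘L A) ∘L S' = (H ∘L S) ∘L (A ∘L S') from rfl, tr_comm]
    rfl
  have e2 : tr ((H ∘L S' ∘L A) ∘L S) = tr (A ∘L (S ∘L (H ∘L S'))) := by
    rw [show (H ∘L S' ∘L A) ∘L S = (H ∘L S') ∘L (A ∘L S) from rfl, tr_comm]
    rfl
  have e3 : A ∘L ((S - S') ∘L (H ∘L (S - S'))) = A ∘L (S ∘L (H ∘L S)) - A ∘L (S ∘L (H ∘L S'))
      - A ∘L (S' ∘L (H ∘L S)) + A ∘L (S' ∘L (H ∘L S')) := by
    ext1 v; simp only [ContinuousLinearMap.comp_apply, _root_.sub_apply,
      _root_.add_apply, map_sub]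
    abel
  have e4 : ∀ T : L k, T ∘L T = T → A ∘L (T ∘L ((ContinuousLinearMap.id ℝ (Euc k) - H) ∘L T))
      = A ∘L T - A ∘L (T ∘L (H ∘L T)) := by
    intro T hT
    ext1 v
    have : T (T v) = T v := congrArg (fun B : L k => B v) hT
    simp only [ContinuousLinearMap.comp_apply, _root_.sub_apply,
      ContinuousLinearMap.id_apply, map_sub, this]
  rw [Sq, e3, e4 S hS, e4 S' hS', e1, e2]
  simp only [map_add, map_sub]
  ring

variable {H : L k} {K : Set (Euc k)} {w : Euc k → Euc k → ℝ} {ψ : Euc k → Euc k}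
  {V : Measure (Euc k × L k)}

/-- the right hand side of the identity: cut-off part. -/
def Rcut (H : L k) (w : Euc k → Euc k → ℝ) (ψ : Euc k → Euc k)
    (q : (Euc k × L k) × (Euc k × L k)) : ℝ :=
  (D1 w q.1.1 q.2.1 + D2 w q.1.1 q.2.1) (H (q.1.2 (ψ (q.1.1 - q.2.1))))

/-- the right hand side of the identity: cubic part. -/
def Rcub (H : L k) (w : Euc k → Euc k → ℝ) (ψ : Euc k → Euc k)
    (q : (Euc k × L k) × (Euc k × L k)) : ℝ :=
  D2 w q.1.1 q.2.1
    (H (H (q.1.2 (ψ (q.1.1 - q.2.1))) - q.2.2 (H (q.1.2 (ψ (q.1.1 - q.2.1))))))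

theorem continuous_aux (hψ : Vert H ψ) : Continuous (fun q : (Euc k × L k) × (Euc k × L k) =>
    H (q.1.2 (ψ (q.1.1 - q.2.1)))) := by
  have hp : Continuous (fun q : (Euc k × L k) × (Euc k × L k) => ψ (q.1.1 - q.2.1)) :=
    hψ.smooth.continuous.comp (by fun_prop)
  exact H.continuous.comp ((by fun_prop : Continuous fun q : (Euc k × L k) × (Euc k × L k) =>
      q.1.2).clm_apply hp)

theorem continuous_Rcut (hw : Ker H K w) (hψ : Vert H ψ) : Continuous (Rcut H w ψ) := by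
  have hD : Continuous (fun q : (Euc k × L k) × (Euc k × L k) => D1 w q.1.1 q.2.1) :=
    (continuous_D1 hw).comp (by fun_prop :
      Continuous fun q : (Euc k × L k) × (Euc k × L k) => (q.1.1, q.2.1))
  have hD2 : Continuous (fun q : (Euc k × L k) × (Euc k × L k) => D2 w q.1.1 q.2.1) :=
    (continuous_D2 hw).comp (by fun_prop :
      Continuous fun q : (Euc k × L k) × (Euc k × L k) => (q.1.1, q.2.1))
  exact (hD.add hD2).clm_apply (continuous_aux hψ)

theorem continuous_Rcub (hw : Ker H K w) (hψ : Vert H ψ) : Continuous (Rcub H w ψ) := by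
  have hD2 : Continuous (fun q : (Euc k × L k) × (Euc k × L k) => D2 w q.1.1 q.2.1) :=
    (continuous_D2 hw).comp (by fun_prop :
      Continuous fun q : (Euc k × L k) × (Euc k × L k) => (q.1.1, q.2.1))
  have h1 := continuous_aux (H := H) hψ
  have h2 : Continuous (fun q : (Euc k × L k) × (Euc k × L k) =>
      q.2.2 (H (q.1.2 (ψ (q.1.1 - q.2.1))))) :=
    (by fun_prop : Continuous fun q : (Euc k × L k) × (Euc k × L k) => q.2.2).clm_apply h1
  exact hD2.clm_apply (H.continuous.comp (h1.sub h2))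

/-- the diagonal part of the two first variations. -/
def Gm (H : L k) (w : Euc k → Euc k → ℝ) (ψ : Euc k → Euc k)
    (q : (Euc k × L k) × (Euc k × L k)) : ℝ :=
  w q.1.1 q.2.1 * (tr ((fderiv ℝ ψ (q.1.1 - q.2.1)) ∘L q.1.2)
    - tr ((H ∘L q.1.2 ∘L (fderiv ℝ ψ (q.1.1 - q.2.1))) ∘L q.2.2))

theorem I_eq (hw : Ker H K w) (hH : H ∘L H = H) (q : (Euc k × L k) × (Euc k × L k)) :
    I1 w ψ q + I2 H w ψ q = Gm H w ψ q + Rcut H w ψ q - Rcub H w ψ q := by
  have hHH : ∀ u, H (H u) = H u := fun u => congrArg (fun A : L k => A u) hH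
  unfold I1 I2 Gm Rcut Rcub
  set x := q.1.1
  set y := q.2.1
  set S := q.1.2
  set S' := q.2.2
  set p := ψ (x - y)
  have h1 : D1 w x y (S p) = D1 w x y (H (S p)) := (D1_hor hw hH x y _).symm
  have h2 : D2 w x y (H (H (S p) - S' (H (S p))))
      = D2 w x y (H (S p)) - D2 w x y (S' (H (S p))) := by
    rw [map_sub H, hHH, map_sub, D2_hor hw hH x y (S' _)]
  rw [h1, h2, _root_.add_apply]
  ring

theorem continuous_Gm (hw : Ker H K w) (hψ : Vert H ψ) : Continuous (Gm H w ψ) := by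
  have hA : Continuous (fun q : (Euc k × L k) × (Euc k × L k) =>
      fderiv ℝ ψ (q.1.1 - q.2.1)) :=
    (hψ.smooth.continuous_fderiv one_ne_zero).comp (by fun_prop)
  have hw0 : Continuous (fun q : (Euc k × L k) × (Euc k × L k) => w q.1.1 q.2.1) :=
    hw.smooth.continuous.comp (by fun_prop :
      Continuous fun q : (Euc k × L k) × (Euc k × L k) => (q.1.1, q.2.1))
  have hS : Continuous (fun q : (Euc k × L k) × (Euc k × L k) => q.1.2) := by fun_prop
  have hS' : Continuous (fun q : (Euc k × L k) × (Euc k × L k) => q.2.2) := by fun_prop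
  unfold Gm
  exact hw0.mul ((tr.continuous.comp (hA.clm_comp hS)).sub (tr.continuous.comp
    ((continuous_const.clm_comp (hS.clm_comp hA)).clm_comp hS')))

theorem continuous_Sq {X : Type*} [TopologicalSpace X] {a b c : X → L k} (h1 : Continuous a)
    (h2 : Continuous b) (h3 : Continuous c) : Continuous (fun q => Sq H (a q) (b q) (c q)) := by
  unfold Sq
  refine Continuous.add (Continuous.add ?_ ?_) ?_
  · exact tr.continuous.comp (h1.clm_comp ((h2.sub h3).clm_comp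
      (continuous_const.clm_comp (h2.sub h3))))
  · exact tr.continuous.comp (h1.clm_comp (h2.clm_comp (continuous_const.clm_comp h2)))
  · exact tr.continuous.comp (h1.clm_comp (h3.clm_comp (continuous_const.clm_comp h3)))

/-- the integrand of the left hand side. -/
def Lhs (H : L k) (w : Euc k → Euc k → ℝ) (ψ : Euc k → Euc k)
    (q : (Euc k × L k) × (Euc k × L k)) : ℝ :=
  w q.1.1 q.2.1 * Sq H (fderiv ℝ ψ (q.1.1 - q.2.1)) q.1.2 q.2.2

theorem continuous_Lhs (hw : Ker H K w) (hψ : Vert H ψ) : Continuous (Lhs H w ψ) := by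
  have hA : Continuous (fun q : (Euc k × L k) × (Euc k × L k) =>
      fderiv ℝ ψ (q.1.1 - q.2.1)) :=
    (hψ.smooth.continuous_fderiv one_ne_zero).comp (by fun_prop)
  have hw0 : Continuous (fun q : (Euc k × L k) × (Euc k × L k) => w q.1.1 q.2.1) :=
    hw.smooth.continuous.comp (by fun_prop :
      Continuous fun q : (Euc k × L k) × (Euc k × L k) => (q.1.1, q.2.1))
  unfold Lhs
  exact hw0.mul (continuous_Sq hA (by fun_prop) (by fun_prop))

/-- **The exact two-point identity** (VF-PTOV), for every bounded varifold: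
`(1/2) ∫∫ w Dψ(x-x') : [(S-S') H (S-S') + S N S + S' N S']
   = - ∫∫ Rcut + ∫∫ Rcub + ∫ FV(X_z') dV(z') + ∫ FV(Y_z) dV(z)`. -/
theorem ptov_fv [IsFiniteMeasure V] (hV : HBase m V) (hH : H ∘L H = H)
    (hw : Ker H K w) (hψ : Vert H ψ) :
    (1 / 2 : ℝ) * ∫ q, Lhs H w ψ q ∂(V.prod V)
      = -∫ q, Rcut H w ψ q ∂(V.prod V) + ∫ q, Rcub H w ψ q ∂(V.prod V)
        + (∫ z', FV V (Xf w ψ z') ∂V + ∫ z, FV V (Yf H w ψ z) ∂V) := by
  have iG := integrable_cont hV (continuous_Gm hw hψ)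
  have iC := integrable_cont hV (continuous_Rcut hw hψ)
  have iB := integrable_cont hV (continuous_Rcub hw hψ)
  have h0 := int_I hV hw hψ
  have h1 : ∫ q, (I1 w ψ q + I2 H w ψ q) ∂(V.prod V)
      = ∫ q, Gm H w ψ q ∂(V.prod V) + ∫ q, Rcut H w ψ q ∂(V.prod V)
        - ∫ q, Rcub H w ψ q ∂(V.prod V) := by
    have iGC : Integrable (fun q => Gm H w ψ q + Rcut H w ψ q) (V.prod V) := iG.add iC
    rw [← integral_add iG iC, ← integral_sub iGC iB]
    exact integral_congr_ae (Filter.Eventually.of_forall fun q => I_eq hw hH q)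
  have hsw : ∫ q, Gm H w ψ q.swap ∂(V.prod V) = ∫ q, Gm H w ψ q ∂(V.prod V) :=
    integral_prod_swap (Gm H w ψ)
  have iGs : Integrable (fun q => Gm H w ψ q.swap) (V.prod V) := iG.swap
  have hsum : ∫ q, (Gm H w ψ q + Gm H w ψ q.swap) ∂(V.prod V)
      = ∫ q, Lhs H w ψ q ∂(V.prod V) := by
    refine integral_congr_ae ?_
    have hc1 : ∀ᵐ q ∂(V.prod V), q.1.2 ∈ G m k :=
      Measure.quasiMeasurePreserving_fst.ae hV.conc
    have hc2 : ∀ᵐ q ∂(V.prod V), q.2.2 ∈ G m k :=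
      Measure.quasiMeasurePreserving_snd.ae hV.conc
    filter_upwards [hc1, hc2] with q g1 g2
    unfold Gm Lhs
    simp only [Prod.fst_swap, Prod.snd_swap]
    have hA : fderiv ℝ ψ (q.2.1 - q.1.1) = fderiv ℝ ψ (q.1.1 - q.2.1) := by
      rw [← fderiv_even hψ, neg_sub]
    rw [hA, hw.symm q.2.1 q.1.1, ← Sq_eq (H := H) (A := fderiv ℝ ψ (q.1.1 - q.2.1)) g1.1 g2.1]
    ring
  rw [integral_add iG iGs, hsw] at hsum
  rw [h0] at h1
  linarith

/-- **The exact two-point identity** (VF-PTOV), stationary case: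
`(1/2) ∫∫ w Dψ(x-x') : [(S-S') H (S-S') + S N S + S' N S'] = - ∫∫ Rcut + ∫∫ Rcub`. -/
theorem ptov [IsFiniteMeasure V] (hV : HStat m H K V) (hH : H ∘L H = H)
    (hw : Ker H K w) (hψ : Vert H ψ) :
    (1 / 2 : ℝ) * ∫ q, Lhs H w ψ q ∂(V.prod V)
      = -∫ q, Rcut H w ψ q ∂(V.prod V) + ∫ q, Rcub H w ψ q ∂(V.prod V) := by
  have h1 : ∀ z', FV V (Xf w ψ z') = 0 := fun z' =>
    hV.stat _ (contDiff_Xf hw hψ z') (Xf_supp hw z')
  have h2 : ∀ z, FV V (Yf H w ψ z) = 0 := fun z =>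
    hV.stat _ (contDiff_Yf hw hψ z) (Yf_supp hw z)
  rw [ptov_fv hV.toHBase hH hw hψ]
  simp only [h1, h2, integral_zero, add_zero]

end Crest.Agent.R234.Pt_615
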