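import Crest.Agent.R234.Pt2_615

/-!
Row 234, VF-PTOV (helper615), file 3: a stationary varifold with bounded heights over a ball of
the base satisfies `HStat` (fields supported over a compact part of the base, no vertical support
condition).
-/

set_option autoImplicit false

open MeasureTheory Crest.GeometryTopology.Submanifold Filter Topology
open Crest.Agent.R234.Vf_884
open scoped ENNReal InnerProductSpace

noncomputable section

namespace Crest.Agent.R234.Pt_615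

variable {m k : ℕ}

/-- the closed cylinder `|H (x - x₀)| ≤ r`, `|N (x - x₀)| ≤ ρ`. -/
def Cyl (H : L k) (x₀ : Euc k) (r ρ : ℝ) : Set (Euc k) :=
  {x | ‖H (x - x₀)‖ ≤ r ∧ ‖(x - x₀) - H (x - x₀)‖ ≤ ρ}

theorem isClosed_Cyl (H : L k) (x₀ : Euc k) (r ρ : ℝ) : IsClosed (Cyl H x₀ r ρ) := by
  have h1 : Continuous fun x : Euc k => ‖H (x - x₀)‖ := by fun_prop
  have h2 : Continuous fun x : Euc k => ‖(x - x₀) - H (x - x₀)‖ := by fun_prop
  exact (isClosed_le h1 continuous_const).inter (isClosed_le h2 continuous_const)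

theorem isCompact_Cyl (H : L k) (x₀ : Euc k) (r ρ : ℝ) : IsCompact (Cyl H x₀ r ρ) := by
  refine (isCompact_closedBall x₀ (r + ρ)).of_isClosed_subset (isClosed_Cyl H x₀ r ρ) ?_
  intro x hx
  rw [Metric.mem_closedBall, dist_eq_norm]
  calc ‖x - x₀‖ = ‖H (x - x₀) + ((x - x₀) - H (x - x₀))‖ := by congr 1; abel
    _ ≤ ‖H (x - x₀)‖ + ‖(x - x₀) - H (x - x₀)‖ := norm_add_le _ _
    _ ≤ r + ρ := add_le_add hx.1 hx.2

theorem norm_of_mem_Cyl {H : L k} {x₀ x : Euc k} {r ρ : ℝ} (hx : x ∈ Cyl H x₀ r ρ) :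
    ‖x‖ ≤ ‖x₀‖ + (r + ρ) := by
  have h : ‖x - x₀‖ ≤ r + ρ := by
    calc ‖x - x₀‖ = ‖H (x - x₀) + ((x - x₀) - H (x - x₀))‖ := by congr 1; abel
      _ ≤ ‖H (x - x₀)‖ + ‖(x - x₀) - H (x - x₀)‖ := norm_add_le _ _
      _ ≤ r + ρ := add_le_add hx.1 hx.2
  calc ‖x‖ = ‖x₀ + (x - x₀)‖ := by congr 1; abel
    _ ≤ ‖x₀‖ + ‖x - x₀‖ := norm_add_le _ _
    _ ≤ _ := by linarith

/-- **Bridge.** `Stat` + heights `≤ ρ'` over the closed ball `|H (x-x₀)| ≤ r` (inside the
cylinder of height `ρ > ρ'`) gives `HStat` for the part of `V` in the cylinder, over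
`{y | |y - H x₀| ≤ r₁}`, `r₁ < r`. -/
theorem hstat_of_stat {U : Set (Euc k)} {V : Measure (Euc k × L k)} (hV : Stat m k U V)
    {H : L k} {x₀ : Euc k} {r r₁ ρ ρ' : ℝ} (hr : r₁ < r) (h0 : 0 ≤ ρ') (hρ : ρ' < ρ)
    (hU : Cyl H x₀ r ρ ⊆ U)
    (hgap : ∀ᵐ p ∂V, p.1 ∈ Cyl H x₀ r ρ → p.1 ∈ Cyl H x₀ r ρ') :
    HStat m H {y | ‖y - H x₀‖ ≤ r₁} (V.restrict (Cyl H x₀ r ρ ×ˢ Set.univ)) := by
  have hCm : MeasurableSet (Cyl H x₀ r ρ ×ˢ (Set.univ : Set (L k))) :=
    (isClosed_Cyl H x₀ r ρ).measurableSet.prod MeasurableSet.univ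
  refine ⟨⟨ae_restrict_of_ae hV.conc, ⟨‖x₀‖ + (r + ρ), ?_⟩⟩, ?_⟩
  · refine (ae_restrict_iff' hCm).2 (Filter.Eventually.of_forall fun p hp => ?_)
    exact norm_of_mem_Cyl hp.1
  intro X hX hX0
  -- the vertical cut-off
  set a : ℝ := ρ' + (ρ - ρ') / 3 with ha
  set b : ℝ := ρ' + 2 * (ρ - ρ') / 3 with hb
  have ha0 : 0 < a := by rw [ha]; linarith
  have hab : a < b := by rw [ha, hb]; linarith
  have hbρ : b < ρ := by rw [hb]; linarith
  have haρ : ρ' < a := by rw [ha]; linarith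
  let χ : ContDiffBump (0 : Euc k) := ⟨a, b, ha0, hab⟩
  let n : Euc k → Euc k := fun x => (x - x₀) - H (x - x₀)
  have hn : ContDiff ℝ 1 n := by
    have h1 : ContDiff ℝ 1 (fun x : Euc k => x - x₀) := contDiff_id.sub contDiff_const
    exact h1.sub (H.contDiff.comp h1)
  let Y : Euc k → Euc k := fun x => χ (n x) • X x
  have hY : ContDiff ℝ 1 Y := (χ.contDiff.comp hn).smul hX
  -- `Y` vanishes near every point outside the cylinder
  have hY0 : ∀ x, x ∉ Cyl H x₀ r₁ b → Y x = 0 := by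
    intro x hx
    by_cases h : ‖H (x - x₀)‖ ≤ r₁
    · have h2 : b < ‖n x‖ := by
        by_contra hcon
        exact hx ⟨h, not_lt.1 hcon⟩
      have h3 : χ (n x) = 0 := χ.zero_of_le_dist (by rw [dist_zero_right]; exact h2.le)
      simp only [Y]; rw [h3, zero_smul]
    · have h3 : X x = 0 := hX0 x (by
        simp only [Set.mem_ofPred_eq, ← map_sub]; exact h)
      simp only [Y]; rw [h3, smul_zero]
  have hts : tsupport Y ⊆ Cyl H x₀ r₁ b := by
    refine closure_minimal ?_ (isClosed_Cyl H x₀ r₁ b)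
    intro x hx
    by_contra hcon
    exact hx (hY0 x hcon)
  have hsub : Cyl H x₀ r₁ b ⊆ Cyl H x₀ r ρ := fun x hx => ⟨hx.1.trans hr.le, hx.2.trans hbρ.le⟩
  have hst := hV.stat Y hY
    (HasCompactSupport.of_support_subset_isCompact (isCompact_Cyl H x₀ r₁ b)
      (subset_closure.trans hts)) (hts.trans (hsub.trans hU))
  rw [← hst]
  have hz : ∀ p : Euc k × L k, p ∉ Cyl H x₀ r ρ ×ˢ (Set.univ : Set (L k)) →
      tr ((fderiv ℝ Y p.1) ∘L p.2) = 0 := by
    intro p hp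
    have h1 : p.1 ∉ tsupport Y := fun h => hp ⟨hsub (hts h), trivial⟩
    have h2 : fderiv ℝ Y p.1 = 0 := by
      by_contra hcon
      exact h1 (support_fderiv_subset ℝ (Function.mem_support.2 hcon))
    rw [h2, ContinuousLinearMap.zero_comp, map_zero]
  rw [← setIntegral_eq_integral_of_forall_compl_eq_zero hz]
  refine setIntegral_congr_ae hCm ?_
  filter_upwards [hgap] with p hp hpC
  have h1 := hp hpC.1
  have h2 : Y =ᶠ[𝓝 p.1] X := by
    have h3 : ∀ᶠ x in 𝓝 p.1, ‖n x‖ < a :=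
      (hn.continuous.norm.continuousAt).eventually_lt continuousAt_const
        (lt_of_le_of_lt h1.2 haρ)
    filter_upwards [h3] with x hx
    have h4 : χ (n x) = 1 := χ.one_of_mem_closedBall (by
      rw [Metric.mem_closedBall, dist_zero_right]; exact hx.le)
    simp only [Y]; rw [h4, one_smul]
  rw [h2.fderiv_eq]

/-- the restricted measure is finite. -/
theorem finite_restrict {U : Set (Euc k)} {V : Measure (Euc k × L k)} (hV : Stat m k U V)
    {H : L k} {x₀ : Euc k} {r ρ : ℝ} (hU : Cyl H x₀ r ρ ⊆ U) :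
    IsFiniteMeasure (V.restrict (Cyl H x₀ r ρ ×ˢ (Set.univ : Set (L k)))) :=
  ⟨by rw [Measure.restrict_apply_univ]; exact hV.fin _ (isCompact_Cyl H x₀ r ρ) hU⟩

end Crest.Agent.R234.Pt_615
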