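import Crest.Agent.R234.Cacc_113

/-!
Row 234, VF-PTV (helper427), file 1: algebra for the pair-truncated outer variation
(doubling of variables).  `p` horizontal projection, `q = 1 - p`, `S, S'` tangent projections.
-/

set_option autoImplicit false
set_option linter.unusedSectionVars false

namespace Crest.Agent.R234.Ptv_427

open MeasureTheory Set
open Crest.Agent.R234.Cacc_113
open scoped InnerProductSpace

variable {E : Type*} [NormedAddCommGroup E] [InnerProductSpace ℝ E] [FiniteDimensional ℝ E]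

theorem tr_cyc3 (A B C : E →L[ℝ] E) : tr (A ∘L B ∘L C) = tr (C ∘L A ∘L B) := by
  have h1 : A ∘L B ∘L C = (A ∘L B) ∘L C := rfl
  rw [h1, tr_comp_comm]

/-- the cross term of the doubled first variation. -/
noncomputable def crs (p D S S' : E →L[ℝ] E) : ℝ := tr (D ∘L S) - tr (p ∘L S ∘L D ∘L S')

/-- symmetrisation. -/
theorem crs_symm {p D S S' : E →L[ℝ] E} (hS : IsPr S) (hS' : IsPr S') :
    crs p D S S' + crs p D S' S =
      tr (D ∘L (S - S') ∘L p ∘L (S - S')) + tr (D ∘L S ∘L (1 - p) ∘L S) +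
        tr (D ∘L S' ∘L (1 - p) ∘L S') := by
  have e1 : ∀ {R : E →L[ℝ] E}, IsPr R → tr (D ∘L R) = tr (D ∘L R ∘L p ∘L R) +
      tr (D ∘L R ∘L (1 - p) ∘L R) := by
    intro R hR
    rw [← tr_add]
    congr 1
    ext x
    simp only [ContinuousLinearMap.comp_apply, add_apply, sub_apply,
      one_apply_eq_self, map_sub, hR.idem]
    abel
  have e2 : ∀ R R' : E →L[ℝ] E, tr (p ∘L R ∘L D ∘L R') = tr (D ∘L R' ∘L p ∘L R) := by
    intro R R'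
    have h1 : p ∘L R ∘L D ∘L R' = (p ∘L R) ∘L (D ∘L R') := rfl
    rw [h1, tr_comp_comm]
    rfl
  have e3 : tr (D ∘L (S - S') ∘L p ∘L (S - S')) = tr (D ∘L S ∘L p ∘L S) +
      tr (D ∘L S' ∘L p ∘L S') - tr (D ∘L S ∘L p ∘L S') - tr (D ∘L S' ∘L p ∘L S) := by
    rw [← tr_add, ← tr_sub, ← tr_sub]
    congr 1
    ext x
    simp only [ContinuousLinearMap.comp_apply, add_apply, sub_apply, map_sub]
    abel
  unfold crs
  rw [e3, e2 S S', e2 S' S, e1 hS, e1 hS']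
  ring

/-- `tr (D T r T) = ∑ ⟨T r e, D T r e⟩` for `T` symmetric, `r` a projection. -/
theorem tr_sandwich {D T r : E →L[ℝ] E} (hT : ∀ x y, ⟪T x, y⟫_ℝ = ⟪x, T y⟫_ℝ) (hr : IsPr r) :
    tr (D ∘L T ∘L r ∘L T) = ∑ i, ⟪T (r ((stdOrthonormalBasis ℝ E) i)),
      D (T (r ((stdOrthonormalBasis ℝ E) i)))⟫_ℝ := by
  have h1 : tr (D ∘L T ∘L r ∘L T) = tr (r ∘L T ∘L D ∘L T ∘L r) := by
    have h2 : D ∘L T ∘L r ∘L T = (D ∘L T ∘L r) ∘L (r ∘L T) := by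
      ext x; simp [hr.idem]
    rw [h2, tr_comp_comm]
    rfl
  rw [h1, tr, LinearMap.trace_eq_sum_inner _ (stdOrthonormalBasis ℝ E)]
  refine Finset.sum_congr rfl fun i _ => ?_
  simp only [ContinuousLinearMap.coe_coe, ContinuousLinearMap.comp_apply]
  rw [← hr.sa, ← hT]

theorem tr_sandwich_nonneg {D T r : E →L[ℝ] E} (hT : ∀ x y, ⟪T x, y⟫_ℝ = ⟪x, T y⟫_ℝ)
    (hr : IsPr r) (hD : ∀ x, 0 ≤ ⟪x, D x⟫_ℝ) : 0 ≤ tr (D ∘L T ∘L r ∘L T) := by
  rw [tr_sandwich hT hr]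
  exact Finset.sum_nonneg fun i _ => hD _

/-- the squared Hilbert-Schmidt norm of `q S q`. -/
noncomputable def vv (q S : E →L[ℝ] E) : ℝ := tr (q ∘L S ∘L q ∘L S)

theorem vv_nonneg {q S : E →L[ℝ] E} (hq : IsPr q) (hS : IsPr S) : 0 ≤ vv q S :=
  tr_sandwich_nonneg hS.sa hq fun x => hq.inner_self_nonneg x

theorem le_tr_sandwich {D S q : E →L[ℝ] E} (hS : IsPr S) (hq : IsPr q) {c : ℝ}
    (hD : ∀ x, c * ⟪x, q x⟫_ℝ ≤ ⟪x, D x⟫_ℝ) : c * vv q S ≤ tr (D ∘L S ∘L q ∘L S) := by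
  unfold vv
  rw [tr_sandwich hS.sa hq, tr_sandwich hS.sa hq, Finset.mul_sum]
  exact Finset.sum_le_sum fun i _ => hD _

/-- `|S y| ≤ sqrt (tr (q S)) |y|` for vertical `y`. -/
theorem norm_vert_le {q S : E →L[ℝ] E} (hS : IsPr S) (hq : IsPr q) {y : E} (hy : q y = y) :
    ‖S y‖ ≤ Real.sqrt (tr (q ∘L S)) * ‖y‖ := by
  refine (sq_le_sq₀ (norm_nonneg _) (by positivity)).mp ?_
  rw [mul_pow, Real.sq_sqrt (hS.tr_nonneg_conj hq)]
  exact hS.norm_sq_le hq hy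

/-- the horizontal complement: `|⟨a, (1 - S) v⟩| ≤ tr (q S) |a| |v|` for horizontal `a, v`. -/
theorem inner_hor_le {p S : E →L[ℝ] E} (hS : IsPr S) (hp : IsPr p) (h : tr S = tr p) {a v : E}
    (ha : p a = a) (hv : p v = v) : |⟪a, v - S v⟫_ℝ| ≤ tr ((1 - p) ∘L S) * (‖a‖ * ‖v‖) := by
  have hc := hS.compl
  have e : tr (p ∘L (1 - S)) = tr ((1 - p) ∘L S) := by
    have h1 : p ∘L (1 - S) = p - p ∘L S := by ext x; simp
    have h2 : (1 - p) ∘L S = S - p ∘L S := by ext x; simp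
    rw [h1, h2, tr_sub, tr_sub, h]
  have h1 := hc.norm_sq_le hp ha
  have h2 := hc.norm_sq_le hp hv
  rw [e] at h1 h2
  have h3 : ⟪a, v - S v⟫_ℝ = ⟪(1 - S) a, (1 - S) v⟫_ℝ := by
    rw [hc.sa, hc.idem]
    simp
  rw [h3]
  refine (abs_real_inner_le_norm _ _).trans ?_
  have ht : 0 ≤ tr ((1 - p) ∘L S) := hS.tr_nonneg_conj hp.compl
  refine (sq_le_sq₀ (by positivity) (by positivity)).mp ?_
  calc (‖(1 - S) a‖ * ‖(1 - S) v‖) ^ 2 = ‖(1 - S) a‖ ^ 2 * ‖(1 - S) v‖ ^ 2 := by ring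
    _ ≤ (tr ((1 - p) ∘L S) * ‖a‖ ^ 2) * (tr ((1 - p) ∘L S) * ‖v‖ ^ 2) := by gcongr
    _ = _ := by ring

end Crest.Agent.R234.Ptv_427
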