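import Crest.Agent.R234.Ptv1_427

/-!
Row 234, VF-PTV (helper427), file 2: the doubled first variation.
-/

set_option autoImplicit false
set_option linter.unusedSectionVars false

namespace Crest.Agent.R234.Ptv_427

open MeasureTheory Set Filter Topology
open Crest.Agent.R234.Cacc_113
open scoped InnerProductSpace

variable {E : Type*} [NormedAddCommGroup E] [InnerProductSpace ℝ E] [FiniteDimensional ℝ E]
  [MeasurableSpace E] [BorelSpace E]

/-- a finite measure carried by `K × projections`. -/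
structure Car (K : Set E) (W : Measure (E × (E →L[ℝ] E))) : Prop where
  fin : IsFiniteMeasure W
  cpt : IsCompact K
  mem : ∀ᵐ z ∂W, z.1 ∈ K
  pr : ∀ᵐ z ∂W, IsPr z.2

theorem car_restrict {U : Set E} {V : Measure (E × (E →L[ℝ] E))} (h : St U V) {K : Set E}
    (hK : IsCompact K) (hKU : K ⊆ U) : Car K (V.restrict (K ×ˢ univ)) where
  fin := ⟨by rw [Measure.restrict_apply_univ]; exact h.fin K hKU hK⟩
  cpt := hK
  mem := by
    rw [ae_restrict_iff' (hK.measurableSet.prod MeasurableSet.univ)]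
    exact Eventually.of_forall fun z hz => hz.1
  pr := ae_restrict_of_ae h.pr

/-- the compact set carrying `W`. -/
def crr (K : Set E) : Set (E × (E →L[ℝ] E)) := K ×ˢ Metric.closedBall (0 : E →L[ℝ] E) 1

theorem Car.compact {K : Set E} {W : Measure (E × (E →L[ℝ] E))} (h : Car K W) :
    IsCompact (crr K) := h.cpt.prod (isCompact_closedBall _ _)

theorem Car.ae {K : Set E} {W : Measure (E × (E →L[ℝ] E))} (h : Car K W) :
    ∀ᵐ z ∂W, z ∈ crr K := by
  filter_upwards [h.mem, h.pr] with z h1 h2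
  exact ⟨h1, by simpa using h2.opNorm_le⟩

theorem Car.integrable {K : Set E} {W : Measure (E × (E →L[ℝ] E))} (h : Car K W)
    {F : Type*} [NormedAddCommGroup F] {g : E × (E →L[ℝ] E) → F} (hg : Continuous g) : Integrable g W := by
  have := h.fin
  obtain ⟨C, hC⟩ := h.compact.exists_bound_of_continuousOn hg.continuousOn
  refine Integrable.of_bound hg.aestronglyMeasurable C ?_
  filter_upwards [h.ae] with z hz
  exact hC z hz

theorem Car.integrable_prod {K : Set E} {W : Measure (E × (E →L[ℝ] E))} (h : Car K W)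
    {g : (E × (E →L[ℝ] E)) × (E × (E →L[ℝ] E)) → ℝ} (hg : Continuous g) :
    Integrable g (W.prod W) := by
  have := h.fin
  obtain ⟨C, hC⟩ := (h.compact.prod h.compact).exists_bound_of_continuousOn hg.continuousOn
  refine Integrable.of_bound hg.aestronglyMeasurable C ?_
  have h1 : ∀ᵐ z ∂(W.prod W), z.1 ∈ crr K := Measure.quasiMeasurePreserving_fst.ae h.ae
  have h2 : ∀ᵐ z ∂(W.prod W), z.2 ∈ crr K := Measure.quasiMeasurePreserving_snd.ae h.ae
  filter_upwards [h1, h2] with z hz1 hz2
  exact hC z ⟨hz1, hz2⟩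

/-- horizontal mollification of the varifold: derivative of `x ↦ ∫ φ(x') G(x - x') dW`. -/
theorem Car.hasFDerivAt_conv {K : Set E} {W : Measure (E × (E →L[ℝ] E))} (h : Car K W)
    {φ : E → ℝ} (hφ : Continuous φ) {G : E → E} (hG : ContDiff ℝ 1 G) (x₀ : E) :
    HasFDerivAt (fun x => ∫ z : E × (E →L[ℝ] E), φ z.1 • G (x - z.1) ∂W)
      (∫ z : E × (E →L[ℝ] E), φ z.1 • fderiv ℝ G (x₀ - z.1) ∂W) x₀ := by
  have := h.fin
  have hG' : Continuous (fderiv ℝ G) := hG.continuous_fderiv one_ne_zero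
  have hc : Continuous fun y : E × E => φ y.2 • fderiv ℝ G (y.1 - y.2) :=
    (hφ.comp continuous_snd).smul (hG'.comp (continuous_fst.sub continuous_snd))
  obtain ⟨C, hC⟩ := ((isCompact_closedBall x₀ 1).prod h.cpt).exists_bound_of_continuousOn
    hc.continuousOn
  refine hasFDerivAt_integral_of_dominated_of_fderiv_le (s := Metric.ball x₀ 1)
    (bound := fun _ => C) (F' := fun x (z : E × (E →L[ℝ] E)) => φ z.1 • fderiv ℝ G (x - z.1))
    (Metric.ball_mem_nhds _ one_pos) ?_ ?_ ?_ ?_ ?_ ?_
  · refine Eventually.of_forall fun x => ?_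
    exact Continuous.aestronglyMeasurable
      ((hφ.comp continuous_fst).smul (hG.continuous.comp (continuous_const.sub continuous_fst)))
  · exact h.integrable
      ((hφ.comp continuous_fst).smul (hG.continuous.comp (continuous_const.sub continuous_fst)))
  · exact Continuous.aestronglyMeasurable
      ((hφ.comp continuous_fst).smul (hG'.comp (continuous_const.sub continuous_fst)))
  · filter_upwards [h.mem] with z hz x hx
    exact hC (x, z.1) ⟨Metric.ball_subset_closedBall hx, hz⟩
  · exact integrable_const C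
  · refine Eventually.of_forall fun z x _ => ?_
    have h1 : HasFDerivAt (fun x => x - z.1) (ContinuousLinearMap.id ℝ E) x :=
      (hasFDerivAt_id x).sub_const _
    have h2 := ((hG.differentiable one_ne_zero (x - z.1)).hasFDerivAt.comp x h1)
    have h3 := h2.const_smul (φ z.1)
    rw [ContinuousLinearMap.comp_id] at h3
    exact h3

theorem Car.continuous_conv {K : Set E} {W : Measure (E × (E →L[ℝ] E))} (h : Car K W)
    {φ : E → ℝ} (hφ : Continuous φ) {F : Type*} [NormedAddCommGroup F] [NormedSpace ℝ F]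
    {G : E → F} (hG : Continuous G) :
    Continuous (fun x => ∫ z : E × (E →L[ℝ] E), φ z.1 • G (x - z.1) ∂W) := by
  have := h.fin
  rw [continuous_iff_continuousAt]
  intro x₀
  have hc : Continuous fun y : E × E => φ y.2 • G (y.1 - y.2) :=
    (hφ.comp continuous_snd).smul (hG.comp (continuous_fst.sub continuous_snd))
  obtain ⟨C, hC⟩ := ((isCompact_closedBall x₀ 1).prod h.cpt).exists_bound_of_continuousOn
    hc.continuousOn
  refine continuousAt_of_dominated (bound := fun _ => C) ?_ ?_ (integrable_const C) ?_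
  · refine Eventually.of_forall fun x => ?_
    exact Continuous.aestronglyMeasurable
      ((hφ.comp continuous_fst).smul (hG.comp (continuous_const.sub continuous_fst)))
  · filter_upwards [Metric.ball_mem_nhds x₀ one_pos] with x hx
    filter_upwards [h.mem] with z hz
    exact hC (x, z.1) ⟨Metric.ball_subset_closedBall hx, hz⟩
  · refine Eventually.of_forall fun z => ?_
    exact (continuous_const.smul (hG.comp (continuous_id.sub continuous_const))).continuousAt

theorem Car.contDiff_conv {K : Set E} {W : Measure (E × (E →L[ℝ] E))} (h : Car K W)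
    {φ : E → ℝ} (hφ : Continuous φ) {G : E → E} (hG : ContDiff ℝ 1 G) :
    ContDiff ℝ 1 (fun x => ∫ z : E × (E →L[ℝ] E), φ z.1 • G (x - z.1) ∂W) := by
  rw [contDiff_one_iff_fderiv]
  refine ⟨fun x => (h.hasFDerivAt_conv hφ hG x).differentiableAt, ?_⟩
  have : fderiv ℝ (fun x => ∫ z : E × (E →L[ℝ] E), φ z.1 • G (x - z.1) ∂W) =
      fun x => ∫ z, φ z.1 • fderiv ℝ G (x - z.1) ∂W :=
    funext fun x => (h.hasFDerivAt_conv hφ hG x).fderiv
  rw [this]
  exact h.continuous_conv hφ (hG.continuous_fderiv one_ne_zero)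

/-- `A ↦ tr (A S)` as a continuous linear form. -/
noncomputable def trR (S : E →L[ℝ] E) : (E →L[ℝ] E) →L[ℝ] ℝ :=
  trL ∘L ((ContinuousLinearMap.compL ℝ E E E).flip S)

theorem trR_apply (S A : E →L[ℝ] E) : trR S A = tr (A ∘L S) := rfl

/-- the integrand of the first field. -/
noncomputable def A1 (φ : E → ℝ) (G : E → E) (z z' : E × (E →L[ℝ] E)) : ℝ :=
  φ z.1 * (φ z'.1 * tr (fderiv ℝ G (z.1 - z'.1) ∘L z.2)) +
    φ z'.1 * fderiv ℝ φ z.1 (z.2 (G (z.1 - z'.1)))

/-- the integrand of the second field. -/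
noncomputable def A2 (p : E →L[ℝ] E) (φ : E → ℝ) (G : E → E) (z z' : E × (E →L[ℝ] E)) : ℝ :=
  - (φ z'.1 * tr ((p ∘L z.2 ∘L fderiv ℝ G (z.1 - z'.1)) ∘L z'.2)) +
    fderiv ℝ φ z'.1 (z'.2 (p (z.2 (G (z.1 - z'.1)))))

section field

variable {U : Set E} {V : Measure (E × (E →L[ℝ] E))} {φ : E → ℝ} {G : E → E}

theorem fderiv_off {φ : E → ℝ} {x : E} (hx : x ∉ tsupport φ) : fderiv ℝ φ x = 0 := by
  by_contra hcon
  exact hx (support_fderiv_subset ℝ hcon)

/-- the first field. -/
theorem first_field (h : St U V) (hφ : ContDiff ℝ 1 φ) (hc : HasCompactSupport φ)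
    (hs : tsupport φ ⊆ U) (hG : ContDiff ℝ 1 G) {W : Measure (E × (E →L[ℝ] E))}
    (hW : W = V.restrict (tsupport φ ×ˢ univ)) :
    ∫ z, (∫ z', A1 φ G z z' ∂W) ∂W = 0 := by
  have hcar : Car (tsupport φ) W := by
    rw [hW]; exact car_restrict h hc.isCompact hs
  have hG' : Continuous (fderiv ℝ G) := hG.continuous_fderiv one_ne_zero
  set F : E → E := fun x => ∫ z', φ z'.1 • G (x - z'.1) ∂W with hF
  have h1 := h.st (fun x => φ x • F x) (hφ.smul (hcar.contDiff_conv hφ.continuous hG))
    hc.smul_right ((tsupport_smul_subset_left _ _).trans hs)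
  have hder : ∀ x, fderiv ℝ (fun x => φ x • F x) x =
      φ x • (∫ z', φ z'.1 • fderiv ℝ G (x - z'.1) ∂W) + (fderiv ℝ φ x).smulRight (F x) := by
    intro x
    exact ((hφ.differentiable one_ne_zero x).hasFDerivAt.smul
      (hcar.hasFDerivAt_conv hφ.continuous hG x)).fderiv
  have hval : ∀ z : E × (E →L[ℝ] E), tr (fderiv ℝ (fun x => φ x • F x) z.1 ∘L z.2) =
      ∫ z', A1 φ G z z' ∂W := by
    intro z
    rw [hder, ContinuousLinearMap.add_comp, tr_add, tr_smulRight_comp,
      ContinuousLinearMap.smul_comp, tr_smul, ← trR_apply]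
    have i1 : Integrable (fun z' : E × (E →L[ℝ] E) => φ z'.1 • fderiv ℝ G (z.1 - z'.1)) W :=
      hcar.integrable ((hφ.continuous.comp continuous_fst).smul
        (hG'.comp (continuous_const.sub continuous_fst)))
    have i2 : Integrable (fun z' : E × (E →L[ℝ] E) => φ z'.1 • G (z.1 - z'.1)) W :=
      hcar.integrable ((hφ.continuous.comp continuous_fst).smul
        (hG.continuous.comp (continuous_const.sub continuous_fst)))
    rw [← (trR z.2).integral_comp_comm i1, hF]
    have e2 : (fderiv ℝ φ z.1) (z.2 (∫ z', φ z'.1 • G (z.1 - z'.1) ∂W)) =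
        ∫ z', φ z'.1 * fderiv ℝ φ z.1 (z.2 (G (z.1 - z'.1))) ∂W := by
      have := ((fderiv ℝ φ z.1) ∘L z.2).integral_comp_comm i2
      simp only [ContinuousLinearMap.comp_apply, map_smul, smul_eq_mul] at this
      exact this.symm
    rw [e2, ← integral_const_mul, ← integral_add]
    · refine integral_congr_ae (Eventually.of_forall fun z' => ?_)
      simp only [A1, map_smul, smul_eq_mul, trR_apply]
    · exact ((trR z.2).integrable_comp i1).const_mul _
    · have := ((fderiv ℝ φ z.1) ∘L z.2).integrable_comp i2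
      simpa only [ContinuousLinearMap.comp_apply, map_smul, smul_eq_mul] using this
  rw [← h1]
  rw [hW, setIntegral_eq_integral_of_forall_compl_eq_zero]
  · rw [← hW]
    exact integral_congr_ae (Eventually.of_forall fun z => (hval z).symm)
  · intro z hz
    have hz1 : z.1 ∉ tsupport φ := fun hcon => hz ⟨hcon, mem_univ _⟩
    have : ∀ z', A1 φ G z z' = 0 := by
      intro z'
      simp [A1, fderiv_off hz1, image_eq_zero_of_notMem_tsupport hz1]
    simp [this]

/-- the second field. -/
theorem second_field (h : St U V) (hφ : ContDiff ℝ 1 φ) (hc : HasCompactSupport φ)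
    (hs : tsupport φ ⊆ U) (hG : ContDiff ℝ 1 G) (p : E →L[ℝ] E) {W : Measure (E × (E →L[ℝ] E))}
    (hW : W = V.restrict (tsupport φ ×ˢ univ)) (z : E × (E →L[ℝ] E)) :
    ∫ z', A2 p φ G z z' ∂W = 0 := by
  have hGd : ∀ x', HasFDerivAt (fun x' => p (z.2 (G (z.1 - x'))))
      (-(p ∘L z.2 ∘L fderiv ℝ G (z.1 - x'))) x' := by
    intro x'
    have h1 : HasFDerivAt (fun x' : E => z.1 - x') ((-(ContinuousLinearMap.id ℝ E))) x' :=
      (hasFDerivAt_id x').const_sub _
    have h2 := ((hG.differentiable one_ne_zero (z.1 - x')).hasFDerivAt.comp x' h1)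
    have h3 := (p ∘L z.2).hasFDerivAt.comp x' h2
    have e : (p ∘L z.2) ∘L (fderiv ℝ G (z.1 - x') ∘L (-(ContinuousLinearMap.id ℝ E))) =
        -(p ∘L z.2 ∘L fderiv ℝ G (z.1 - x')) := by
      ext v; simp
    rw [e] at h3
    exact h3
  have hGc : ContDiff ℝ 1 (fun x' => p (z.2 (G (z.1 - x')))) :=
    (p ∘L z.2).contDiff.comp (hG.comp (contDiff_const.sub contDiff_id))
  have h1 := h.st (fun x' => φ x' • p (z.2 (G (z.1 - x')))) (hφ.smul hGc)
    hc.smul_right ((tsupport_smul_subset_left _ _).trans hs)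
  have hval : ∀ z' : E × (E →L[ℝ] E),
      tr (fderiv ℝ (fun x' => φ x' • p (z.2 (G (z.1 - x')))) z'.1 ∘L z'.2) = A2 p φ G z z' := by
    intro z'
    have hd : fderiv ℝ (fun x' => φ x' • p (z.2 (G (z.1 - x')))) z'.1 =
        φ z'.1 • (-(p ∘L z.2 ∘L fderiv ℝ G (z.1 - z'.1))) +
          (fderiv ℝ φ z'.1).smulRight (p (z.2 (G (z.1 - z'.1)))) :=
      ((hφ.differentiable one_ne_zero z'.1).hasFDerivAt.smul (hGd z'.1)).fderiv
    rw [hd, ContinuousLinearMap.add_comp, tr_add, tr_smulRight_comp, ContinuousLinearMap.smul_comp,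
      tr_smul, A2, ContinuousLinearMap.neg_comp]
    have : tr (-((p ∘L z.2 ∘L fderiv ℝ G (z.1 - z'.1)) ∘L z'.2)) =
        - tr ((p ∘L z.2 ∘L fderiv ℝ G (z.1 - z'.1)) ∘L z'.2) := by
      simp [tr]
    rw [this]
    ring
  rw [← h1, hW, setIntegral_eq_integral_of_forall_compl_eq_zero]
  · exact integral_congr_ae (Eventually.of_forall fun z' => (hval z').symm)
  · intro z' hz
    have hz1 : z'.1 ∉ tsupport φ := fun hcon => hz ⟨hcon, mem_univ _⟩
    simp [A2, fderiv_off hz1, image_eq_zero_of_notMem_tsupport hz1]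

end field

end Crest.Agent.R234.Ptv_427
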