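import Crest.Agent.R234.Ptv2_427

/-!
Row 234, VF-PTV (helper427), file 3: the pair-truncated outer variation: identity and inequality on
`V × V`.
-/

set_option autoImplicit false
set_option linter.unusedSectionVars false

namespace Crest.Agent.R234.Ptv_427

open MeasureTheory Set Filter Topology
open Crest.Agent.R234.Cacc_113
open scoped InnerProductSpace

variable {E : Type*} [NormedAddCommGroup E] [InnerProductSpace ℝ E] [FiniteDimensional ℝ E]
  [MeasurableSpace E] [BorelSpace E]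

/-- data of the truncation: `k` horizontal kernel, `ψ` vertical truncation. -/
structure Trunc (p : E →L[ℝ] E) (k : E → ℝ) (ψ : E → E) : Prop where
  hp : IsPr p
  k1 : ContDiff ℝ 1 k
  ψ1 : ContDiff ℝ 1 ψ
  keven : ∀ x, k (-x) = k x
  khor : ∀ x v, fderiv ℝ k x v = fderiv ℝ k x (p v)
  ψodd : ∀ x, ψ (-x) = - ψ x
  ψver : ∀ x, p (ψ x) = 0

theorem fderiv_odd {ψ : E → E} (h : ∀ x, ψ (-x) = - ψ x) (h1 : ContDiff ℝ 1 ψ) (x : E) :
    fderiv ℝ ψ (-x) = fderiv ℝ ψ x := by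
  have h2 : HasFDerivAt (fun y => - ψ (-y)) (fderiv ℝ ψ (-x)) x := by
    have h3 : HasFDerivAt (fun y : E => -y) (-(ContinuousLinearMap.id ℝ E)) x :=
      (hasFDerivAt_id x).neg
    have h4 := ((h1.differentiable one_ne_zero (-x)).hasFDerivAt.comp x h3).neg
    have e : -(fderiv ℝ ψ (-x) ∘L (-(ContinuousLinearMap.id ℝ E))) = fderiv ℝ ψ (-x) := by
      ext v; simp
    rw [e] at h4
    exact h4
  have h5 : (fun y => - ψ (-y)) = ψ := by
    funext y; rw [h]; simp
  rw [h5] at h2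
  exact h2.fderiv.symm

/-- the weight `φ(x) φ(x') k(x - x')`. -/
def wt (φ k : E → ℝ) (w : (E × (E →L[ℝ] E)) × (E × (E →L[ℝ] E))) : ℝ :=
  φ w.1.1 * φ w.2.1 * k (w.1.1 - w.2.1)

/-- main term -/
noncomputable def mainT (p : E →L[ℝ] E) (φ k : E → ℝ) (ψ : E → E)
    (w : (E × (E →L[ℝ] E)) × (E × (E →L[ℝ] E))) : ℝ :=
  wt φ k w * crs p (fderiv ℝ ψ (w.1.1 - w.2.1)) w.1.2 w.2.2

/-- kernel error -/
noncomputable def kerT (p : E →L[ℝ] E) (φ k : E → ℝ) (ψ : E → E)
    (w : (E × (E →L[ℝ] E)) × (E × (E →L[ℝ] E))) : ℝ :=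
  φ w.1.1 * φ w.2.1 * (fderiv ℝ k (w.1.1 - w.2.1) (w.1.2 (ψ (w.1.1 - w.2.1))) -
    fderiv ℝ k (w.1.1 - w.2.1) (w.2.2 (p (w.1.2 (ψ (w.1.1 - w.2.1))))))

/-- cut-off error -/
noncomputable def cutT (p : E →L[ℝ] E) (φ k : E → ℝ) (ψ : E → E)
    (w : (E × (E →L[ℝ] E)) × (E × (E →L[ℝ] E))) : ℝ :=
  k (w.1.1 - w.2.1) * (φ w.2.1 * fderiv ℝ φ w.1.1 (w.1.2 (ψ (w.1.1 - w.2.1))) +
    φ w.1.1 * fderiv ℝ φ w.2.1 (w.2.2 (p (w.1.2 (ψ (w.1.1 - w.2.1))))))

section identity

variable {U : Set E} {V : Measure (E × (E →L[ℝ] E))} {φ k : E → ℝ} {ψ : E → E} {p : E →L[ℝ] E}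

theorem sum_fields (T : Trunc p k ψ)
    (w : (E × (E →L[ℝ] E)) × (E × (E →L[ℝ] E))) :
    A1 φ (fun x => k x • ψ x) w.1 w.2 + φ w.1.1 * A2 p φ (fun x => k x • ψ x) w.1 w.2 =
      mainT p φ k ψ w + kerT p φ k ψ w + cutT p φ k ψ w := by
  obtain ⟨⟨x, S⟩, ⟨x', S'⟩⟩ := w
  have hd : fderiv ℝ (fun x => k x • ψ x) (x - x') =
      k (x - x') • fderiv ℝ ψ (x - x') + (fderiv ℝ k (x - x')).smulRight (ψ (x - x')) :=
    ((T.k1.differentiable one_ne_zero _).hasFDerivAt.smul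
      (T.ψ1.differentiable one_ne_zero _).hasFDerivAt).fderiv
  have e1 : tr ((k (x - x') • fderiv ℝ ψ (x - x') +
      (fderiv ℝ k (x - x')).smulRight (ψ (x - x'))) ∘L S) =
      k (x - x') * tr (fderiv ℝ ψ (x - x') ∘L S) + fderiv ℝ k (x - x') (S (ψ (x - x'))) := by
    rw [ContinuousLinearMap.add_comp, tr_add, tr_smulRight_comp, ContinuousLinearMap.smul_comp,
      tr_smul]
  have e2 : tr ((p ∘L S ∘L (k (x - x') • fderiv ℝ ψ (x - x') +
      (fderiv ℝ k (x - x')).smulRight (ψ (x - x')))) ∘L S') =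
      k (x - x') * tr (p ∘L S ∘L fderiv ℝ ψ (x - x') ∘L S') +
        fderiv ℝ k (x - x') (S' (p (S (ψ (x - x'))))) := by
    have h1 : (p ∘L S ∘L (k (x - x') • fderiv ℝ ψ (x - x') +
      (fderiv ℝ k (x - x')).smulRight (ψ (x - x')))) ∘L S' =
      k (x - x') • (p ∘L S ∘L fderiv ℝ ψ (x - x') ∘L S') +
        ((fderiv ℝ k (x - x')).smulRight (p (S (ψ (x - x'))))) ∘L S' := by
      ext v
      simp
    rw [h1, tr_add, tr_smulRight_comp, tr_smul]
  simp only [A1, A2, mainT, kerT, cutT, wt, crs, hd, e1, e2, map_smul, smul_eq_mul]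
  ring

theorem continuous_mainT (hφ : ContDiff ℝ 1 φ) (T : Trunc p k ψ) : Continuous (mainT p φ k ψ) := by
  have c1 : Continuous (fderiv ℝ ψ) := T.ψ1.continuous_fderiv one_ne_zero
  have c2 : Continuous φ := hφ.continuous
  have c3 : Continuous k := T.k1.continuous
  have c4 : Continuous fun w : (E × (E →L[ℝ] E)) × (E × (E →L[ℝ] E)) => w.1.1 - w.2.1 := by
    fun_prop
  have c5 : Continuous fun w : (E × (E →L[ℝ] E)) × (E × (E →L[ℝ] E)) =>
      fderiv ℝ ψ (w.1.1 - w.2.1) := c1.comp c4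
  refine Continuous.mul ?_ ?_
  · unfold wt
    exact ((c2.comp (continuous_fst.comp continuous_fst)).mul
      (c2.comp (continuous_fst.comp continuous_snd))).mul (c3.comp c4)
  · unfold crs
    refine Continuous.sub (continuous_tr.comp ?_) (continuous_tr.comp ?_)
    · exact c5.clm_comp (continuous_snd.comp continuous_fst)
    · exact continuous_const.clm_comp ((continuous_snd.comp continuous_fst).clm_comp
        (c5.clm_comp (continuous_snd.comp continuous_snd)))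

theorem continuous_kerT (hφ : ContDiff ℝ 1 φ) (T : Trunc p k ψ) : Continuous (kerT p φ k ψ) := by
  have c1 : Continuous (fderiv ℝ k) := T.k1.continuous_fderiv one_ne_zero
  have c2 : Continuous φ := hφ.continuous
  have c3 : Continuous ψ := T.ψ1.continuous
  have c4 : Continuous fun w : (E × (E →L[ℝ] E)) × (E × (E →L[ℝ] E)) => w.1.1 - w.2.1 := by
    fun_prop
  have c5 : Continuous fun w : (E × (E →L[ℝ] E)) × (E × (E →L[ℝ] E)) =>
      w.1.2 (ψ (w.1.1 - w.2.1)) :=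
    (continuous_snd.comp continuous_fst).clm_apply (c3.comp c4)
  refine Continuous.mul ?_ ?_
  · exact ((c2.comp (continuous_fst.comp continuous_fst)).mul
      (c2.comp (continuous_fst.comp continuous_snd)))
  · refine Continuous.sub ?_ ?_
    · exact (c1.comp c4).clm_apply c5
    · exact (c1.comp c4).clm_apply ((continuous_snd.comp continuous_snd).clm_apply
        (p.continuous.comp c5))

theorem continuous_cutT (hφ : ContDiff ℝ 1 φ) (T : Trunc p k ψ) : Continuous (cutT p φ k ψ) := by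
  have c1 : Continuous (fderiv ℝ φ) := hφ.continuous_fderiv one_ne_zero
  have c2 : Continuous φ := hφ.continuous
  have c3 : Continuous ψ := T.ψ1.continuous
  have c3' : Continuous k := T.k1.continuous
  have c4 : Continuous fun w : (E × (E →L[ℝ] E)) × (E × (E →L[ℝ] E)) => w.1.1 - w.2.1 := by
    fun_prop
  have c5 : Continuous fun w : (E × (E →L[ℝ] E)) × (E × (E →L[ℝ] E)) =>
      w.1.2 (ψ (w.1.1 - w.2.1)) :=
    (continuous_snd.comp continuous_fst).clm_apply (c3.comp c4)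
  refine Continuous.mul (c3'.comp c4) ?_
  refine Continuous.add ?_ ?_
  · exact (c2.comp (continuous_fst.comp continuous_snd)).mul
      ((c1.comp (continuous_fst.comp continuous_fst)).clm_apply c5)
  · exact (c2.comp (continuous_fst.comp continuous_fst)).mul
      ((c1.comp (continuous_fst.comp continuous_snd)).clm_apply
        ((continuous_snd.comp continuous_snd).clm_apply (p.continuous.comp c5)))

/-- **the doubled first variation identity.** -/
theorem ptv_identity (h : St U V) (hφ : ContDiff ℝ 1 φ) (hc : HasCompactSupport φ)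
    (hs : tsupport φ ⊆ U) (T : Trunc p k ψ) {W : Measure (E × (E →L[ℝ] E))}
    (hW : W = V.restrict (tsupport φ ×ˢ univ)) :
    ∫ w, mainT p φ k ψ w ∂(W.prod W) =
      - ∫ w, kerT p φ k ψ w ∂(W.prod W) - ∫ w, cutT p φ k ψ w ∂(W.prod W) := by
  have hcar : Car (tsupport φ) W := by
    rw [hW]; exact car_restrict h hc.isCompact hs
  have := hcar.fin
  have hG : ContDiff ℝ 1 (fun x => k x • ψ x) := T.k1.smul T.ψ1
  have i1 := hcar.integrable_prod (continuous_mainT hφ T)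
  have i2 := hcar.integrable_prod (continuous_kerT hφ T)
  have i3 := hcar.integrable_prod (continuous_cutT hφ T)
  have i12 : Integrable (fun w => mainT p φ k ψ w + kerT p φ k ψ w) (W.prod W) := i1.add i2
  have i123 : Integrable (fun w => mainT p φ k ψ w + kerT p φ k ψ w + cutT p φ k ψ w)
    (W.prod W) := i12.add i3
  have h1 := first_field h hφ hc hs hG hW
  have h2 := second_field h hφ hc hs hG p hW
  have h4 : ∫ w, (mainT p φ k ψ w + kerT p φ k ψ w + cutT p φ k ψ w) ∂(W.prod W) = 0 := by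
    rw [integral_prod _ i123]
    have h5 : ∀ z, ∫ z', (mainT p φ k ψ (z, z') + kerT p φ k ψ (z, z') + cutT p φ k ψ (z, z')) ∂W =
        ∫ z', A1 φ (fun x => k x • ψ x) z z' ∂W := by
      intro z
      have h6 : ∀ z', mainT p φ k ψ (z, z') + kerT p φ k ψ (z, z') + cutT p φ k ψ (z, z') =
          A1 φ (fun x => k x • ψ x) z z' + φ z.1 * A2 p φ (fun x => k x • ψ x) z z' := fun z' =>
        (sum_fields T (z, z')).symm
      simp_rw [h6]
      have c1 : Continuous (fderiv ℝ (fun x => k x • ψ x)) := hG.continuous_fderiv one_ne_zero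
      have c2 : Continuous (fderiv ℝ φ) := hφ.continuous_fderiv one_ne_zero
      have c4 : Continuous fun z' : E × (E →L[ℝ] E) => z.1 - z'.1 := by fun_prop
      have c5 : Continuous fun z' : E × (E →L[ℝ] E) => k (z.1 - z'.1) • ψ (z.1 - z'.1) :=
        hG.continuous.comp c4
      have j1 : Integrable (fun z' => A1 φ (fun x => k x • ψ x) z z') W := by
        refine hcar.integrable ?_
        unfold A1
        refine Continuous.add ?_ ?_
        · exact continuous_const.mul ((hφ.continuous.comp continuous_fst).mul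
            (continuous_tr.comp ((c1.comp c4).clm_comp continuous_const)))
        · exact (hφ.continuous.comp continuous_fst).mul
            ((fderiv ℝ φ z.1).continuous.comp (z.2.continuous.comp c5))
      have j2 : Integrable (fun z' => A2 p φ (fun x => k x • ψ x) z z') W := by
        refine hcar.integrable ?_
        unfold A2
        refine Continuous.add ?_ ?_
        · exact ((hφ.continuous.comp continuous_fst).mul
            (continuous_tr.comp ((continuous_const.clm_comp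
              (continuous_const.clm_comp (c1.comp c4))).clm_comp continuous_snd))).neg
        · exact (c2.comp continuous_fst).clm_apply
            (continuous_snd.clm_apply (p.continuous.comp (z.2.continuous.comp c5)))
      rw [integral_add j1 (j2.const_mul _), integral_const_mul, h2 z]
      ring
    simp_rw [h5]
    exact h1
  rw [integral_add i12 i3, integral_add i1 i2] at h4
  linarith

/-- vertical part of the tilt of the second copy etc.: kernel error bound -/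
theorem kerT_le (T : Trunc p k ψ) {H : ℝ} (hH : ∀ x, ‖ψ x‖ ≤ H) (hφ0 : ∀ x, 0 ≤ φ x)
    {w : (E × (E →L[ℝ] E)) × (E × (E →L[ℝ] E))} (h1 : IsPr w.1.2) (h2 : IsPr w.2.2)
    (ht : tr w.2.2 = tr p) :
    |kerT p φ k ψ w| ≤ H * (φ w.1.1 * φ w.2.1 * ‖fderiv ℝ k (w.1.1 - w.2.1)‖ *
      (tr ((1 - p) ∘L w.2.2) * Real.sqrt (tr ((1 - p) ∘L w.1.2)))) := by
  obtain ⟨⟨x, S⟩, ⟨x', S'⟩⟩ := w
  simp only [kerT] at *
  set y := x - x' with hy
  set v := p (S (ψ y)) with hv
  have hq : (1 - p) (ψ y) = ψ y := by simp [T.ψver]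
  have hH0 : 0 ≤ H := (norm_nonneg _).trans (hH 0)
  have hvn : ‖v‖ ≤ Real.sqrt (tr ((1 - p) ∘L S)) * H := by
    calc ‖v‖ ≤ ‖S (ψ y)‖ := T.hp.norm_le _
      _ ≤ Real.sqrt (tr ((1 - p) ∘L S)) * ‖ψ y‖ := norm_vert_le h1 T.hp.compl hq
      _ ≤ _ := by gcongr; exact hH y
  set a : E := (InnerProductSpace.toDual ℝ E).symm (fderiv ℝ k y) with ha
  have hai : ∀ u, fderiv ℝ k y u = ⟪a, u⟫_ℝ := fun u => by
    rw [ha, InnerProductSpace.toDual_symm_apply]
  have hpa : p a = a := by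
    refine ext_inner_right ℝ fun u => ?_
    rw [T.hp.sa, ← hai, ← hai, ← T.khor]
  have han : ‖a‖ = ‖fderiv ℝ k y‖ := by rw [ha, LinearIsometryEquiv.norm_map]
  have hpv : p v = v := by rw [hv, T.hp.idem]
  have e1 : fderiv ℝ k y (S (ψ y)) - fderiv ℝ k y (S' v) = ⟪a, v - S' v⟫_ℝ := by
    rw [T.khor y (S (ψ y)), ← hv, hai, hai, inner_sub_right]
  rw [e1, abs_mul, abs_of_nonneg (mul_nonneg (hφ0 x) (hφ0 x'))]
  have h3 := inner_hor_le h2 T.hp ht hpa hpv
  rw [han] at h3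
  have ht0 : 0 ≤ tr ((1 - p) ∘L S') := h2.tr_nonneg_conj T.hp.compl
  calc φ x * φ x' * |⟪a, v - S' v⟫_ℝ|
      ≤ φ x * φ x' * (tr ((1 - p) ∘L S') * (‖fderiv ℝ k y‖ *
        (Real.sqrt (tr ((1 - p) ∘L S)) * H))) := by
        refine mul_le_mul_of_nonneg_left (h3.trans ?_) (mul_nonneg (hφ0 x) (hφ0 x'))
        gcongr
    _ = _ := by ring

theorem cutT_le (T : Trunc p k ψ) {H : ℝ} (hH : ∀ x, ‖ψ x‖ ≤ H) (hφ0 : ∀ x, 0 ≤ φ x)
    (hk0 : ∀ x, 0 ≤ k x)
    {w : (E × (E →L[ℝ] E)) × (E × (E →L[ℝ] E))} (h1 : IsPr w.1.2) (h2 : IsPr w.2.2) :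
    |cutT p φ k ψ w| ≤ H * (k (w.1.1 - w.2.1) * (φ w.2.1 * ‖fderiv ℝ φ w.1.1‖ +
      φ w.1.1 * ‖fderiv ℝ φ w.2.1‖) * Real.sqrt (tr ((1 - p) ∘L w.1.2))) := by
  obtain ⟨⟨x, S⟩, ⟨x', S'⟩⟩ := w
  simp only [cutT] at *
  set y := x - x' with hy
  set v := p (S (ψ y)) with hv
  have hq : (1 - p) (ψ y) = ψ y := by simp [T.ψver]
  have hH0 : 0 ≤ H := (norm_nonneg _).trans (hH 0)
  have hun : ‖S (ψ y)‖ ≤ Real.sqrt (tr ((1 - p) ∘L S)) * H := by
    calc ‖S (ψ y)‖ ≤ Real.sqrt (tr ((1 - p) ∘L S)) * ‖ψ y‖ := norm_vert_le h1 T.hp.compl hq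
      _ ≤ _ := by gcongr; exact hH y
  have hvn : ‖v‖ ≤ Real.sqrt (tr ((1 - p) ∘L S)) * H := (T.hp.norm_le _).trans hun
  have e1 : |fderiv ℝ φ x (S (ψ y))| ≤ ‖fderiv ℝ φ x‖ * (Real.sqrt (tr ((1 - p) ∘L S)) * H) := by
    rw [← Real.norm_eq_abs]
    exact ((fderiv ℝ φ x).le_opNorm _).trans (by gcongr)
  have e2 : |fderiv ℝ φ x' (S' v)| ≤ ‖fderiv ℝ φ x'‖ * (Real.sqrt (tr ((1 - p) ∘L S)) * H) := by
    rw [← Real.norm_eq_abs]
    refine ((fderiv ℝ φ x').le_opNorm _).trans ?_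
    gcongr
    exact (h2.norm_le v).trans hvn
  rw [abs_mul, abs_of_nonneg (hk0 y)]
  calc k y * |φ x' * fderiv ℝ φ x (S (ψ y)) + φ x * fderiv ℝ φ x' (S' v)|
      ≤ k y * (φ x' * (‖fderiv ℝ φ x‖ * (Real.sqrt (tr ((1 - p) ∘L S)) * H)) +
        φ x * (‖fderiv ℝ φ x'‖ * (Real.sqrt (tr ((1 - p) ∘L S)) * H))) := by
        refine mul_le_mul_of_nonneg_left ?_ (hk0 y)
        refine (abs_add_le _ _).trans ?_
        rw [abs_mul, abs_mul, abs_of_nonneg (hφ0 x), abs_of_nonneg (hφ0 x')]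
        exact add_le_add (mul_le_mul_of_nonneg_left e1 (hφ0 x'))
          (mul_le_mul_of_nonneg_left e2 (hφ0 x))
    _ = _ := by ring

/-- pointwise lower bound after symmetrisation. -/
theorem crs_lower (hp : IsPr p) {D S S' : E →L[ℝ] E} (hS : IsPr S) (hS' : IsPr S') {c : ℝ}
    (hc : 0 ≤ c) (hD : ∀ v, c * ⟪v, (1 - p) v⟫_ℝ ≤ ⟪v, D v⟫_ℝ) :
    c * vv (1 - p) S + c * vv (1 - p) S' ≤ crs p D S S' + crs p D S' S := by
  rw [crs_symm hS hS']
  have h1 := le_tr_sandwich hS hp.compl hD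
  have h2 := le_tr_sandwich hS' hp.compl hD
  have h3 : 0 ≤ tr (D ∘L (S - S') ∘L p ∘L (S - S')) :=
    tr_sandwich_nonneg (hS.sub_sa hS') hp fun v =>
      (mul_nonneg hc (hp.compl.inner_self_nonneg v)).trans (hD v)
  linarith

theorem continuous_vv (q : E →L[ℝ] E) : Continuous (vv q) := by
  unfold vv
  refine continuous_tr.comp ?_
  exact continuous_const.clm_comp (continuous_id.clm_comp (continuous_const.clm_comp continuous_id))

/-- the integrand of the left side -/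
noncomputable def lhsT (p : E →L[ℝ] E) (φ k c : E → ℝ)
    (w : (E × (E →L[ℝ] E)) × (E × (E →L[ℝ] E))) : ℝ :=
  wt φ k w * (c (w.1.1 - w.2.1) * vv (1 - p) w.1.2)

/-- the kernel part of the right side -/
noncomputable def rk (p : E →L[ℝ] E) (φ k : E → ℝ)
    (w : (E × (E →L[ℝ] E)) × (E × (E →L[ℝ] E))) : ℝ :=
  φ w.1.1 * φ w.2.1 * ‖fderiv ℝ k (w.1.1 - w.2.1)‖ *
      (tr ((1 - p) ∘L w.2.2) * Real.sqrt (tr ((1 - p) ∘L w.1.2)))

/-- the cut-off part of the right side -/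
noncomputable def rc (p : E →L[ℝ] E) (φ k : E → ℝ)
    (w : (E × (E →L[ℝ] E)) × (E × (E →L[ℝ] E))) : ℝ :=
  k (w.1.1 - w.2.1) * (φ w.2.1 * ‖fderiv ℝ φ w.1.1‖ + φ w.1.1 * ‖fderiv ℝ φ w.2.1‖) *
    Real.sqrt (tr ((1 - p) ∘L w.1.2))

/-- **PTV: the pair-truncated outer variation inequality**, every stationary varifold. -/
theorem ptv (h : St U V) (hφ : ContDiff ℝ 1 φ) (hc : HasCompactSupport φ)
    (hs : tsupport φ ⊆ U) (T : Trunc p k ψ) (hm : ∀ᵐ z ∂V, tr z.2 = tr p)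
    (hφ0 : ∀ x, 0 ≤ φ x) (hk0 : ∀ x, 0 ≤ k x) {c : E → ℝ} (hcc : Continuous c)
    (hc0 : ∀ x, 0 ≤ c x) (hce : ∀ x, c (-x) = c x)
    (hD : ∀ x v, c x * ⟪v, (1 - p) v⟫_ℝ ≤ ⟪v, fderiv ℝ ψ x v⟫_ℝ) {H : ℝ} (hH : ∀ x, ‖ψ x‖ ≤ H)
    {W : Measure (E × (E →L[ℝ] E))} (hW : W = V.restrict (tsupport φ ×ˢ univ)) :
    ∫ w, lhsT p φ k c w ∂(W.prod W) ≤
      H * ∫ w, rk p φ k w ∂(W.prod W) + H * ∫ w, rc p φ k w ∂(W.prod W) := by
  have hcar : Car (tsupport φ) W := by
    rw [hW]; exact car_restrict h hc.isCompact hs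
  have := hcar.fin
  have hm' : ∀ᵐ z ∂W, tr z.2 = tr p := by rw [hW]; exact ae_restrict_of_ae hm
  have a1 : ∀ᵐ w ∂(W.prod W), IsPr w.1.2 := Measure.quasiMeasurePreserving_fst.ae hcar.pr
  have a2 : ∀ᵐ w ∂(W.prod W), IsPr w.2.2 := Measure.quasiMeasurePreserving_snd.ae hcar.pr
  have a3 : ∀ᵐ w ∂(W.prod W), tr w.2.2 = tr p := Measure.quasiMeasurePreserving_snd.ae hm'
  have cφ : Continuous φ := hφ.continuous
  have ck : Continuous k := T.k1.continuous
  have cdφ : Continuous (fderiv ℝ φ) := hφ.continuous_fderiv one_ne_zero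
  have cdk : Continuous (fderiv ℝ k) := T.k1.continuous_fderiv one_ne_zero
  have c4 : Continuous fun w : (E × (E →L[ℝ] E)) × (E × (E →L[ℝ] E)) => w.1.1 - w.2.1 := by
    fun_prop
  have c1 : Continuous fun w : (E × (E →L[ℝ] E)) × (E × (E →L[ℝ] E)) => φ w.1.1 :=
    cφ.comp (continuous_fst.comp continuous_fst)
  have c2 : Continuous fun w : (E × (E →L[ℝ] E)) × (E × (E →L[ℝ] E)) => φ w.2.1 :=
    cφ.comp (continuous_fst.comp continuous_snd)
  have cs1 : Continuous fun w : (E × (E →L[ℝ] E)) × (E × (E →L[ℝ] E)) =>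
      tr ((1 - p) ∘L w.1.2) :=
    continuous_tr.comp (continuous_const.clm_comp (continuous_snd.comp continuous_fst))
  have cs2 : Continuous fun w : (E × (E →L[ℝ] E)) × (E × (E →L[ℝ] E)) =>
      tr ((1 - p) ∘L w.2.2) :=
    continuous_tr.comp (continuous_const.clm_comp (continuous_snd.comp continuous_snd))
  have cwt : Continuous (wt φ k : (E × (E →L[ℝ] E)) × (E × (E →L[ℝ] E)) → ℝ) :=
    (c1.mul c2).mul (ck.comp c4)
  have iM := hcar.integrable_prod (continuous_mainT hφ T)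
  have iK := hcar.integrable_prod (continuous_kerT hφ T)
  have iC := hcar.integrable_prod (continuous_cutT hφ T)
  have iL : Integrable (lhsT p φ k c) (W.prod W) := hcar.integrable_prod
    (cwt.mul ((hcc.comp c4).mul ((continuous_vv _).comp (continuous_snd.comp continuous_fst))))
  have irk : Integrable (rk p φ k) (W.prod W) := hcar.integrable_prod
    (((c1.mul c2).mul (cdk.comp c4).norm).mul (cs2.mul cs1.sqrt))
  have irc : Integrable (rc p φ k) (W.prod W) := hcar.integrable_prod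
    (((ck.comp c4).mul ((c2.mul (cdφ.comp (continuous_fst.comp continuous_fst)).norm).add
      (c1.mul (cdφ.comp (continuous_fst.comp continuous_snd)).norm))).mul cs1.sqrt)
  have hid := ptv_identity h hφ hc hs T hW
  -- symmetrisation
  have iMs : Integrable (fun w => mainT p φ k ψ w.swap) (W.prod W) := iM.swap
  have iLs : Integrable (fun w => lhsT p φ k c w.swap) (W.prod W) := iL.swap
  have sM : ∫ w, mainT p φ k ψ w.swap ∂(W.prod W) = ∫ w, mainT p φ k ψ w ∂(W.prod W) :=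
    integral_prod_swap (mainT p φ k ψ)
  have sL : ∫ w, lhsT p φ k c w.swap ∂(W.prod W) = ∫ w, lhsT p φ k c w ∂(W.prod W) :=
    integral_prod_swap (lhsT p φ k c)
  have hle : ∫ w, (lhsT p φ k c w + lhsT p φ k c w.swap) ∂(W.prod W) ≤
      ∫ w, (mainT p φ k ψ w + mainT p φ k ψ w.swap) ∂(W.prod W) := by
    refine integral_mono_ae (iL.add iLs) (iM.add iMs) ?_
    filter_upwards [a1, a2] with w h1 h2
    obtain ⟨⟨x, S⟩, ⟨x', S'⟩⟩ := w
    simp only [Prod.swap_prod_mk, lhsT, mainT, wt] at *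
    have e : x' - x = -(x - x') := by abel
    rw [e, T.keven, hce, fderiv_odd T.ψodd T.ψ1]
    have h3 := crs_lower T.hp h1 h2 (hc0 (x - x')) (hD (x - x'))
    have h4 : 0 ≤ φ x * φ x' * k (x - x') := mul_nonneg (mul_nonneg (hφ0 x) (hφ0 x')) (hk0 _)
    nlinarith [mul_le_mul_of_nonneg_left h3 h4]
  rw [integral_add iL iLs, integral_add iM iMs, sM, sL] at hle
  have hK : - ∫ w, kerT p φ k ψ w ∂(W.prod W) ≤ H * ∫ w, rk p φ k w ∂(W.prod W) := by
    rw [← integral_neg, ← integral_const_mul]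
    refine integral_mono_ae iK.neg (irk.const_mul _) ?_
    filter_upwards [a1, a2, a3] with w h1 h2 h3
    exact (neg_le_abs _).trans (kerT_le T hH hφ0 h1 h2 h3)
  have hC : - ∫ w, cutT p φ k ψ w ∂(W.prod W) ≤ H * ∫ w, rc p φ k w ∂(W.prod W) := by
    rw [← integral_neg, ← integral_const_mul]
    refine integral_mono_ae iC.neg (irc.const_mul _) ?_
    filter_upwards [a1, a2] with w h1 h2
    exact (neg_le_abs _).trans (cutT_le T hH hφ0 hk0 h1 h2)
  linarith

end identity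

end Crest.Agent.R234.Ptv_427
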