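import Crest.Agent.R234.Ptv1_427
import Crest.Agent.R234.Ar3_870
import Crest.Agent.R234.In2_947

/-!
Row 234, VF-B4 (helper427):
* `tau_sq_le` : `τ² ≤ m |S_vv|²`, hence `abs_anom_le_vv` : `|1 - J - τ/2| ≤ (m/2) |S_vv|²` for the
  Jacobian `Jh` of 870 (no smallness of the tilt);
* `small_of_tilt` : small tilt energy in the ball of radius `ρ + h` about a point of density `≥ ω` forces
  mass `≥ c ρ^m` in the slab of height `h` over the ball of radius `ρ` (small / tall dichotomy).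
-/

set_option autoImplicit false
set_option linter.unusedSectionVars false

namespace Crest.Agent.R234.Ptv_427

open MeasureTheory Set
open Crest.Agent.R234.Cacc_113
open Crest.GeometryTopology.Submanifold
open scoped InnerProductSpace

section alg

variable {E : Type*} [NormedAddCommGroup E] [InnerProductSpace ℝ E] [FiniteDimensional ℝ E]

theorem tr_idem_sum {P : E →L[ℝ] E} (hP : IsPr P) :
    tr P = ∑ i, ‖P ((stdOrthonormalBasis ℝ E) i)‖ ^ 2 := by
  rw [tr, LinearMap.trace_eq_sum_inner _ (stdOrthonormalBasis ℝ E)]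
  refine Finset.sum_congr rfl fun i _ => ?_
  simp only [ContinuousLinearMap.coe_coe]
  rw [hP.inner_self]

/-- `τ² ≤ m |S_vv|²`. -/
theorem tau_sq_le {P S : E →L[ℝ] E} (hP : IsPr P) (hS : IsPr S) (h : tr S = tr P) :
    tr ((1 - P) ∘L S) ^ 2 ≤ tr P * vv (1 - P) S := by
  set A : E →L[ℝ] E := P ∘L (1 - S) ∘L P with hA
  have hAs : ∀ x y, ⟪A x, y⟫_ℝ = ⟪x, A y⟫_ℝ := by
    intro x y
    simp only [hA, ContinuousLinearMap.comp_apply]
    rw [hP.sa, hS.compl.sa, hP.sa]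
  have hPA : ∀ x, P (A x) = A x := fun x => by
    simp only [hA, ContinuousLinearMap.comp_apply, hP.idem]
  have e1 : tr A = tr ((1 - P) ∘L S) := by
    have h1 : tr A = tr ((1 - S) ∘L P) := by
      have h2 : A = P ∘L ((1 - S) ∘L P) := rfl
      rw [h2, tr_comp_comm]
      congr 1
      ext x; simp [hP.idem]
    have h3 : (1 - S) ∘L P = P - S ∘L P := by ext x; simp
    have h4 : (1 - P) ∘L S = S - P ∘L S := by ext x; simp
    rw [h1, h3, h4, tr_sub, tr_sub, h, tr_comp_comm]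
  have e2 : tr (A ∘L A) = vv (1 - P) S := by
    have h1 : A ∘L A = P ∘L ((1 - S) ∘L P ∘L (1 - S) ∘L P) := by
      ext x; simp only [hA, ContinuousLinearMap.comp_apply, hP.idem]
    have h2 : tr (A ∘L A) = tr ((1 - S) ∘L P ∘L (1 - S) ∘L P) := by
      rw [h1, tr_comp_comm]
      congr 1
      ext x; simp [hP.idem]
    have h3 : (1 - S) ∘L P ∘L (1 - S) ∘L P = P - S ∘L P - P ∘L S ∘L P + S ∘L P ∘L S ∘L P := by
      ext x
      simp only [ContinuousLinearMap.comp_apply, sub_apply, add_apply, one_apply_eq_self, map_sub,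
        hP.idem]
      abel
    have h4 : (1 - P) ∘L S ∘L (1 - P) ∘L S = S - P ∘L S - S ∘L P ∘L S + P ∘L S ∘L P ∘L S := by
      ext x
      simp only [ContinuousLinearMap.comp_apply, sub_apply, add_apply, one_apply_eq_self, map_sub,
        hS.idem]
      abel
    have h5 : tr (P ∘L S ∘L P) = tr (S ∘L P) := by
      have : P ∘L S ∘L P = P ∘L (S ∘L P) := rfl
      rw [this, tr_comp_comm]
      congr 1
      ext x; simp [hP.idem]
    have h6 : tr (S ∘L P ∘L S) = tr (P ∘L S) := by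
      have : S ∘L P ∘L S = S ∘L (P ∘L S) := rfl
      rw [this, tr_comp_comm]
      congr 1
      ext x; simp [hS.idem]
    have h7 : tr (S ∘L P ∘L S ∘L P) = tr (P ∘L S ∘L P ∘L S) := by
      have : S ∘L P ∘L S ∘L P = S ∘L (P ∘L S ∘L P) := rfl
      rw [this, tr_comp_comm]
      rfl
    unfold vv
    rw [h2, h3, h4, tr_add, tr_add, tr_sub, tr_sub, tr_sub, tr_sub, h5, h6, h7, h,
      tr_comp_comm S P]
  rw [← e1, ← e2, tr_sq_eq_sum hAs, tr_idem_sum hP]
  have e3 : tr A = ∑ i, ⟪P ((stdOrthonormalBasis ℝ E) i), A ((stdOrthonormalBasis ℝ E) i)⟫_ℝ := by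
    rw [tr, LinearMap.trace_eq_sum_inner _ (stdOrthonormalBasis ℝ E)]
    refine Finset.sum_congr rfl fun i _ => ?_
    simp only [ContinuousLinearMap.coe_coe]
    rw [hP.sa, hPA]
  have e4 : |tr A| ≤ ∑ i, ‖P ((stdOrthonormalBasis ℝ E) i)‖ * ‖A ((stdOrthonormalBasis ℝ E) i)‖ := by
    rw [e3]
    exact (Finset.abs_sum_le_sum_abs _ _).trans
      (Finset.sum_le_sum fun i _ => abs_real_inner_le_norm _ _)
  calc tr A ^ 2 = |tr A| ^ 2 := (sq_abs _).symm
    _ ≤ (∑ i, ‖P ((stdOrthonormalBasis ℝ E) i)‖ * ‖A ((stdOrthonormalBasis ℝ E) i)‖) ^ 2 := by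
        gcongr
    _ ≤ _ := Finset.sum_mul_sq_le_sq_mul_sq _ _ _

/-- `|S_vv|² ≤ τ²` and `|S_vv|² ≤ τ` (crude upper bounds). -/
theorem vv_le_tau {q S : E →L[ℝ] E} (hq : IsPr q) (hS : IsPr S) : vv q S ≤ tr (q ∘L S) := by
  have h1 : tr (q ∘L S) = vv q S + tr (q ∘L S ∘L (1 - q) ∘L S) := by
    unfold vv
    rw [← tr_add]
    congr 1
    ext x
    simp only [ContinuousLinearMap.comp_apply, add_apply, sub_apply, one_apply_eq_self, map_sub,
      hS.idem]
    abel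
  have h2 : 0 ≤ tr (q ∘L S ∘L (1 - q) ∘L S) :=
    tr_sandwich_nonneg hS.sa hq.compl fun x => hq.inner_self_nonneg x
  linarith

end alg

section euc

open Crest.Agent.R234.Vf_884 Crest.Agent.R234.In_947

variable {m k : ℕ}

theorem isPr_of_mem_G {P : L k} (h : P ∈ G m k) : Cacc_113.IsPr P :=
  ⟨fun x => G_idem_apply h x, fun x y => G_symm h x y⟩

theorem tr_eq (A : L k) : Vf_884.tr A = Cacc_113.tr A := rfl

theorem tr_of_mem_G {P : L k} (h : P ∈ G m k) : Cacc_113.tr P = m := h.2.2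

/-- `|S_vv|²` in the language of 884. -/
noncomputable def qv (P S : L k) : ℝ := vv (1 - P) S

theorem qv_eq (P S : L k) : qv P S = Vf_884.tr ((1 - P) ∘L S ∘L (1 - P) ∘L S) := rfl

theorem tilt_eq (P S : L k) : tilt P S = Cacc_113.tr ((1 - P) ∘L S) := by
  have : (1 - P) ∘L S = S - P ∘L S := by ext1 x; simp
  rw [this, Cacc_113.tr_sub]
  rfl

theorem tilt_sq_le {P S : L k} (hP : P ∈ G m k) (hS : S ∈ G m k) :
    tilt P S ^ 2 ≤ m * qv P S := by
  rw [tilt_eq, qv, ← tr_of_mem_G hP]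
  exact tau_sq_le (isPr_of_mem_G hP) (isPr_of_mem_G hS) (by rw [tr_of_mem_G hP, tr_of_mem_G hS])

theorem qv_le_tilt {P S : L k} (hP : P ∈ G m k) (hS : S ∈ G m k) : qv P S ≤ tilt P S := by
  rw [tilt_eq, qv]
  exact vv_le_tau (isPr_of_mem_G hP).compl (isPr_of_mem_G hS)

theorem qv_nonneg {P S : L k} (hP : P ∈ G m k) (hS : S ∈ G m k) : 0 ≤ qv P S :=
  vv_nonneg (isPr_of_mem_G hP).compl (isPr_of_mem_G hS)

/-- the horizontal projection of `π`. -/
theorem co_mem_G {π : Euc k →L[ℝ] Euc m} (hπ : Ar_870.IsCo π) :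
    ContinuousLinearMap.adjoint π ∘L π ∈ G m k := by
  refine ⟨?_, ?_, ?_⟩
  · have h : ∀ v, π (ContinuousLinearMap.adjoint π v) = v := fun v =>
      congrArg (fun T : Euc m →L[ℝ] Euc m => T v) hπ
    ext1 x
    simp only [ContinuousLinearMap.comp_apply]
    rw [h]
  · rw [ContinuousLinearMap.isSelfAdjoint_iff', ContinuousLinearMap.adjoint_comp,
      ContinuousLinearMap.adjoint_adjoint]
  · have h1 : Vf_884.tr (ContinuousLinearMap.adjoint π ∘L π) =
        LinearMap.trace ℝ (Euc m) (π ∘L ContinuousLinearMap.adjoint π : Euc m →L[ℝ] Euc m) :=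
      LinearMap.trace_comp_comm' _ _
    rw [h1, hπ]
    simp

theorem tl_eq_tilt (π : Euc k →L[ℝ] Euc m) {S : L k} (hS : S ∈ G m k) :
    Ar_870.tl π S = tilt (ContinuousLinearMap.adjoint π ∘L π) S := by
  have h1 : LinearMap.trace ℝ (Euc m)
      (π ∘L S ∘L ContinuousLinearMap.adjoint π : Euc m →L[ℝ] Euc m) =
      Vf_884.tr ((ContinuousLinearMap.adjoint π ∘L π) ∘L S) := by
    have h2 := LinearMap.trace_comp_comm' (R := ℝ)
      ((π ∘L S : Euc k →L[ℝ] Euc m) : Euc k →ₗ[ℝ] Euc m)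
      ((ContinuousLinearMap.adjoint π : Euc m →L[ℝ] Euc k) : Euc m →ₗ[ℝ] Euc k)
    exact h2.symm
  unfold Ar_870.tl tilt
  rw [h1, hS.2.2]

/-- **the anomaly is controlled by `|S_vv|²`**, without smallness. -/
theorem abs_anom_le_vv {π : Euc k →L[ℝ] Euc m} (hπ : Ar_870.IsCo π) {S : L k} (hS : S ∈ G m k) :
    |1 - Ar_870.Jh π S - Ar_870.tl π S / 2| ≤
      (m / 2 : ℝ) * qv (ContinuousLinearMap.adjoint π ∘L π) S := by
  have h1 := Ar_870.abs_anom_le hπ (P := S) ⟨hS.1, hS.2.1.adjoint_eq⟩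
  have h2 := tilt_sq_le (co_mem_G hπ) hS
  rw [← tl_eq_tilt π hS] at h2
  linarith

/-- **small / tall dichotomy.**  `θ` = tilt ratio of `V` in the ball of radius `ρ + h` about `c`,
`M` = mass ratio, `ω ≤ 1` = lower density at scale `h / 2`. -/
theorem small_of_tilt : ∃ C : ℝ, 1 ≤ C ∧ ∀ {m k : ℕ} {U : Set (Euc k)} {V : Measure (Euc k × L k)}
    (_hV : Stat m k U V) {P : L k} (_hP : P ∈ G m k) {c : Euc k} {ρ h ω M θ : ℝ} (_hh : 0 < h)
    (_hhρ : h ≤ ρ) (_hω : 0 < ω) (_hω1 : ω ≤ 1) (_hM : 0 ≤ M)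
    (_hU : Metric.closedBall c (ρ + h) ⊆ U)
    (_hdens : ω * (h / 2) ^ m ≤ ms V (Metric.closedBall c (h / 2)))
    (_hmass : ms V (Metric.closedBall c (ρ + h)) ≤ M * ρ ^ m)
    (_htilt : tl P V (Metric.closedBall c (ρ + h)) ≤ θ * ρ ^ m) (_hθ0 : 0 ≤ θ)
    (_hθ : θ * (16 * 4 ^ m * C ^ 2 * (1 + M) * (ρ / h) ^ (2 * m + 4)) ≤ ω ^ 2),
    ω / 2 ^ (m + 1) * ρ ^ m ≤ ms V (cyl P c ρ h) := by
  obtain ⟨C₀, hC₀, hslab⟩ := slab_mass
  refine ⟨C₀ + 1, by linarith, ?_⟩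
  intro m k U V hV P hP c ρ h ω M θ hh hhρ hω hω1 hM hU hdens hmass htilt hθ0 hθ
  have hρ : 0 < ρ := hh.trans_le hhρ
  set C := C₀ + 1 with hC
  set K := ρ / h with hK
  have hK1 : 1 ≤ K := by rw [hK, one_le_div hh]; exact hhρ
  have hK0 : 0 < K := by linarith
  set D : ℝ := 4 * 2 ^ m * K ^ (m + 2) * C * (1 + M) with hD
  have hC1 : 1 ≤ C := by rw [hC]; linarith
  have h2m : (1 : ℝ) ≤ 2 ^ m := one_le_pow₀ (by norm_num)
  have hKm : (1 : ℝ) ≤ K ^ (m + 2) := one_le_pow₀ hK1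
  have hD1 : 1 ≤ D := by
    have a1 : (1 : ℝ) ≤ 4 * 2 ^ m := by linarith
    have a2 : (1 : ℝ) ≤ 4 * 2 ^ m * K ^ (m + 2) := by nlinarith
    have a3 : (1 : ℝ) ≤ 4 * 2 ^ m * K ^ (m + 2) * C := by nlinarith
    rw [hD]; nlinarith
  set lam : ℝ := ω / D with hlam
  have hlam0 : 0 < lam := div_pos hω (by linarith)
  have hlam1 : lam ≤ 1 := by
    rw [hlam, div_le_one (by linarith)]; linarith
  have key := hslab hV hP (c := c) (R := ρ) (W := h) (s := h / 2) (α := 1 / 2) (lam := lam)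
    (by norm_num) (by norm_num) (by linarith) (by linarith) (by linarith) hlam0 hU
  have e1 : (1 / 2 / (h / 2) : ℝ) = 1 / h := by field_simp
  rw [e1] at key
  have hρm : 0 < ρ ^ m := pow_pos hρ m
  -- lower bound of the left side
  have l1 : ω / 2 ^ m ≤ (1 / h) ^ m * ms V (Metric.closedBall c (h / 2)) := by
    calc ω / 2 ^ m = (1 / h) ^ m * (ω * (h / 2) ^ m) := by
          rw [div_pow, div_pow, one_pow]; field_simp
      _ ≤ _ := by gcongr
  -- upper bound of the error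
  have hpow : ρ * (1 / h) ^ (m + 1) * ρ ^ m = K ^ (m + 1) := by
    rw [hK, div_pow, div_pow, one_pow, pow_succ ρ m]; ring
  have hc1 : 0 ≤ 1 + C₀ * ρ / (lam * h) := by positivity
  have r1 : ρ * (1 / h) ^ (m + 1) * ((1 + C₀ * ρ / (lam * h)) *
      tl P V (Metric.closedBall c (ρ + h)) + C₀ * ρ * lam / h * ms V (Metric.closedBall c (ρ + h)))
      ≤ K ^ (m + 1) * ((1 + C₀ * K / lam) * θ + C₀ * K * lam * M) := by
    calc ρ * (1 / h) ^ (m + 1) * ((1 + C₀ * ρ / (lam * h)) *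
        tl P V (Metric.closedBall c (ρ + h)) + C₀ * ρ * lam / h * ms V (Metric.closedBall c (ρ + h)))
        ≤ ρ * (1 / h) ^ (m + 1) * ((1 + C₀ * ρ / (lam * h)) * (θ * ρ ^ m) +
          C₀ * ρ * lam / h * (M * ρ ^ m)) := by gcongr
      _ = (ρ * (1 / h) ^ (m + 1) * ρ ^ m) * ((1 + C₀ * ρ / (lam * h)) * θ +
          C₀ * ρ * lam / h * M) := by ring
      _ = _ := by
          rw [hpow, hK]
          congr 2
          · congr 2
            field_simp
          · field_simp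
  have r2 : K ^ (m + 1) * (C₀ * K * lam * M) ≤ ω / (4 * 2 ^ m) := by
    have : K ^ (m + 1) * (C₀ * K * lam * M) = ω * (K ^ (m + 2) * C₀ * M) / D := by
      rw [hlam]; ring
    rw [this, div_le_div_iff₀ (by linarith) (by positivity), hD]
    have h3 : C₀ * M ≤ C * (1 + M) := by nlinarith
    have h4 : 0 < K ^ (m + 2) := by positivity
    calc ω * (K ^ (m + 2) * C₀ * M) * (4 * 2 ^ m)
        = ω * (4 * 2 ^ m * K ^ (m + 2)) * (C₀ * M) := by ring
      _ ≤ ω * (4 * 2 ^ m * K ^ (m + 2)) * (C * (1 + M)) := by gcongr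
      _ = _ := by ring
  have r3 : K ^ (m + 1) * ((1 + C₀ * K / lam) * θ) ≤ ω / (4 * 2 ^ m) := by
    have h3 : 1 + C₀ * K / lam ≤ C * K / lam := by
      have h5 : 1 ≤ K / lam := by
        rw [le_div_iff₀ hlam0]; linarith
      calc 1 + C₀ * K / lam ≤ K / lam + C₀ * K / lam := by linarith
        _ = C * K / lam := by rw [hC]; ring
    have h4 : K ^ (m + 1) * ((1 + C₀ * K / lam) * θ) ≤ K ^ (m + 1) * (C * K / lam * θ) := by
      gcongr
    refine h4.trans ?_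
    have h5 : K ^ (m + 1) * (C * K / lam * θ) = (θ * (K ^ (m + 2) * C * D)) / ω := by
      rw [hlam]; field_simp
      ring
    rw [h5, div_le_div_iff₀ hω (by positivity)]
    have h6 : θ * (K ^ (m + 2) * C * D) * (4 * 2 ^ m) =
        θ * (16 * 4 ^ m * C ^ 2 * (1 + M) * K ^ (2 * m + 4)) := by
      rw [hD]
      have h7 : (4 : ℝ) ^ m = 2 ^ m * 2 ^ m := by rw [← mul_pow]; norm_num
      have h8 : K ^ (2 * m + 4) = K ^ (m + 2) * K ^ (m + 2) := by rw [← pow_add]; ring_nf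
      rw [h7, h8]; ring
    rw [h6]
    calc θ * (16 * 4 ^ m * C ^ 2 * (1 + M) * K ^ (2 * m + 4)) ≤ ω ^ 2 := hθ
      _ = ω * ω := by ring
  have hfin : ω / 2 ^ m ≤ (ρ ^ m)⁻¹ * ms V (cyl P c ρ h) + ω / (4 * 2 ^ m) + ω / (4 * 2 ^ m) := by
    calc ω / 2 ^ m ≤ (1 / h) ^ m * ms V (Metric.closedBall c (h / 2)) := l1
      _ ≤ _ := key
      _ ≤ (ρ ^ m)⁻¹ * ms V (cyl P c ρ h) +
          K ^ (m + 1) * ((1 + C₀ * K / lam) * θ + C₀ * K * lam * M) := by linarith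
      _ = (ρ ^ m)⁻¹ * ms V (cyl P c ρ h) + K ^ (m + 1) * ((1 + C₀ * K / lam) * θ) +
          K ^ (m + 1) * (C₀ * K * lam * M) := by ring
      _ ≤ _ := by linarith
  have e2 : ω / 2 ^ (m + 1) = ω / 2 ^ m - ω / (4 * 2 ^ m) - ω / (4 * 2 ^ m) := by
    rw [pow_succ]; field_simp; norm_num
  have hfin2 : ω / 2 ^ (m + 1) ≤ (ρ ^ m)⁻¹ * ms V (cyl P c ρ h) := by rw [e2]; linarith
  calc ω / 2 ^ (m + 1) * ρ ^ m ≤ ((ρ ^ m)⁻¹ * ms V (cyl P c ρ h)) * ρ ^ m := by gcongr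
    _ = ms V (cyl P c ρ h) := by field_simp

end euc

end Crest.Agent.R234.Ptv_427
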