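import Crest.Agent.R234.NearChg_660

/-!
Row 234 (helper433), task VF-QLEB, part 1: almost translation invariance of the horizontal
projection of a flat stationary varifold (one test field, explicit error).
-/

set_option autoImplicit false
set_option linter.unusedVariables false

open MeasureTheory Filter Topology Set Metric
open scoped ENNReal NNReal ContDiff InnerProductSpace
open Crest.GeometryTopology.Submanifold Crest.Agent.R234.Vf_884
open Crest.Agent.R234.Strat3_842 (tilt height)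
open Crest.Agent.R234.AS_456 (hp vp)

noncomputable section

namespace Crest.Agent.R234.QLeb_433

open Crest.Agent.R234.Main_456 Crest.Agent.R234.Al4_182

variable {m k : ℕ} {π : Euc k →L[ℝ] Euc m}

/-! ### linear algebra of a coisometry -/

theorem co_apply (hπ : Ar_870.IsCo π) (w : Euc m) : π (ContinuousLinearMap.adjoint π w) = w :=
  congrArg (fun T : Euc m →L[ℝ] Euc m => T w) hπ

theorem norm_hp (hπ : Ar_870.IsCo π) (v : Euc k) : ‖hp π v‖ = ‖π v‖ := by
  have : hp π v = ContinuousLinearMap.adjoint π (π v) := rfl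
  rw [this, Ar_870.norm_adjoint_co hπ]

theorem pyth (hπ : Ar_870.IsCo π) (v : Euc k) : ‖v‖ ^ 2 = ‖π v‖ ^ 2 + ‖v - hp π v‖ ^ 2 := by
  have h1 : ⟪hp π v, v - hp π v⟫_ℝ = 0 := by
    have e : hp π v = ContinuousLinearMap.adjoint π (π v) := rfl
    rw [e, ContinuousLinearMap.adjoint_inner_left, map_sub, co_apply hπ, sub_self, inner_zero_right]
  have h2 : v = hp π v + (v - hp π v) := by abel
  have h3 := norm_add_sq_real (hp π v) (v - hp π v)
  rw [← h2, h1, norm_hp hπ] at h3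
  linarith

theorem norm_pi_le (hπ : Ar_870.IsCo π) (v : Euc k) : ‖π v‖ ≤ ‖v‖ := by
  have h := pyth hπ v
  have h1 := norm_nonneg (π v)
  have h2 := norm_nonneg v
  nlinarith [sq_nonneg ‖v - hp π v‖]

theorem norm_vp_le (hπ : Ar_870.IsCo π) (v : Euc k) : ‖v - hp π v‖ ≤ ‖v‖ := by
  have h := pyth hπ v
  have h1 := norm_nonneg (v - hp π v)
  have h2 := norm_nonneg v
  nlinarith [sq_nonneg ‖π v‖]

/-! ### cut-off in the height -/

/-- base point in units of `r` -/
def tt (π : Euc k →L[ℝ] Euc m) (x : Euc k) (r : ℝ) (y : Euc k) : Euc m := r⁻¹ • π (y - x)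

/-- cut-off in the height variable -/
def chi (π : Euc k →L[ℝ] Euc m) (x : Euc k) (r : ℝ) (y : Euc k) : ℝ :=
  ph 2 (‖(y - x) - hp π (y - x)‖ ^ 2 / (3 * r) ^ 2)

theorem continuous_tt (x : Euc k) (r : ℝ) : Continuous (tt π x r) := by
  unfold tt; fun_prop

theorem hasFDerivAt_tt (x : Euc k) (r : ℝ) (y : Euc k) :
    HasFDerivAt (tt π x r) (r⁻¹ • π) y := by
  have h1 : HasFDerivAt (fun y : Euc k => y - x) (ContinuousLinearMap.id ℝ (Euc k)) y :=
    (hasFDerivAt_id y).sub_const x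
  have h2 : HasFDerivAt (fun y : Euc k => π (y - x)) (π ∘L ContinuousLinearMap.id ℝ (Euc k)) y :=
    π.hasFDerivAt.comp y h1
  have h3 := h2.const_smul r⁻¹
  refine h3.congr_fderiv ?_
  ext v; simp

theorem contDiff_tt (x : Euc k) (r : ℝ) : ContDiff ℝ 1 (tt π x r) := by
  unfold tt; fun_prop

theorem chi_nonneg (x : Euc k) (r : ℝ) (y : Euc k) : 0 ≤ chi π x r y := ph_nonneg _ _

theorem chi_le_one (x : Euc k) (r : ℝ) (y : Euc k) : chi π x r y ≤ 1 :=
  ph_le_one _ (by positivity)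

theorem continuous_chi (x : Euc k) (r : ℝ) : Continuous (chi π x r) := by
  unfold chi
  refine (continuous_ph 2).comp ?_
  fun_prop

theorem chi_zero {x : Euc k} {r : ℝ} (hr : 0 < r) {y : Euc k}
    (h : 3 * r ≤ ‖(y - x) - hp π (y - x)‖) : chi π x r y = 0 := by
  refine ph_zero_of_ge two_ne_zero ?_
  rw [le_div_iff₀ (by positivity), one_mul]
  exact pow_le_pow_left₀ (by positivity) h 2

theorem hasFDerivAt_chi (x : Euc k) (r : ℝ) (y : Euc k) :
    HasFDerivAt (chi π x r) ((-4 * ph 1 (‖(y - x) - hp π (y - x)‖ ^ 2 / (3 * r) ^ 2) /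
      (3 * r) ^ 2) • (innerSL ℝ ((y - x) - hp π (y - x)) ∘L
        (ContinuousLinearMap.id ℝ (Euc k) - hp π))) y := by
  have h0 : HasFDerivAt (fun y : Euc k => (y - x) - hp π (y - x))
      (ContinuousLinearMap.id ℝ (Euc k) - hp π) y := by
    have h1 : HasFDerivAt (fun y : Euc k => y - x) (ContinuousLinearMap.id ℝ (Euc k)) y :=
      (hasFDerivAt_id y).sub_const x
    have h2 := h1.sub ((hp π).hasFDerivAt.comp y h1)
    refine h2.congr_fderiv ?_
    ext v; simp
  have h1 := h0.norm_sq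
  have h3 : HasFDerivAt (fun y : Euc k => ‖(y - x) - hp π (y - x)‖ ^ 2 / (3 * r) ^ 2)
      (((3 * r) ^ 2)⁻¹ • (2 • innerSL ℝ ((y - x) - hp π (y - x)) ∘L
        (ContinuousLinearMap.id ℝ (Euc k) - hp π))) y := by
    have := h1.const_smul (((3 * r) ^ 2)⁻¹)
    refine this.congr_of_eventuallyEq (Eventually.of_forall fun y => ?_)
    simp [div_eq_inv_mul]
  have h4 := (hasDerivAt_ph2 (‖(y - x) - hp π (y - x)‖ ^ 2 / (3 * r) ^ 2)).comp_hasFDerivAt y h3
  refine HasFDerivAt.congr_fderiv h4 ?_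
  ext v
  simp
  ring

theorem contDiff_chi (x : Euc k) (r : ℝ) : ContDiff ℝ 1 (chi π x r) := by
  unfold chi
  refine contDiff_ph2.comp ?_
  refine ContDiff.div_const ?_ _
  refine ContDiff.norm_sq ℝ ?_
  fun_prop

/-- derivative of the cut-off. -/
theorem chi_deriv (hπ : Ar_870.IsCo π) {x : Euc k} {r : ℝ} (hr : 0 < r) (y u : Euc k) :
    |fderiv ℝ (chi π x r) y u| ≤ 4 / (9 * r ^ 2) * ‖(y - x) - hp π (y - x)‖ * ‖u‖ := by
  rw [(hasFDerivAt_chi x r y).fderiv]
  set a := (y - x) - hp π (y - x) with ha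
  have h0 := ph_nonneg 1 (‖a‖ ^ 2 / (3 * r) ^ 2)
  have h1 : ph 1 (‖a‖ ^ 2 / (3 * r) ^ 2) ≤ 1 := ph_le_one _ (by positivity)
  have h2 : |⟪a, u - hp π u⟫_ℝ| ≤ ‖a‖ * ‖u‖ :=
    (abs_real_inner_le_norm _ _).trans (by
      gcongr
      exact norm_vp_le hπ u)
  generalize ph 1 (‖a‖ ^ 2 / (3 * r) ^ 2) = c at h0 h1 ⊢
  have h3 : ((-4 * c / (3 * r) ^ 2) •
      (innerSL ℝ a ∘L (ContinuousLinearMap.id ℝ (Euc k) - hp π))) u =
      -(4 / (9 * r ^ 2) * (c * ⟪a, u - hp π u⟫_ℝ)) := by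
    have e : ((-4 * c / (3 * r) ^ 2) •
      (innerSL ℝ a ∘L (ContinuousLinearMap.id ℝ (Euc k) - hp π))) u =
      (-4 * c / (3 * r) ^ 2) * ⟪a, u - hp π u⟫_ℝ := rfl
    rw [e]
    field_simp
    ring
  rw [h3, abs_neg, abs_mul, abs_mul, abs_of_nonneg h0, abs_of_nonneg (by positivity :
    (0:ℝ) ≤ 4 / (9 * r ^ 2)), mul_assoc (4 / (9 * r ^ 2))]
  refine mul_le_mul_of_nonneg_left ?_ (by positivity)
  calc c * |⟪a, u - hp π u⟫_ℝ| ≤ 1 * (‖a‖ * ‖u‖) :=
        mul_le_mul h1 h2 (abs_nonneg _) zero_le_one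
    _ = _ := one_mul _

/-- outside of the ball of radius `4r` one of the two cut-offs vanishes. -/
theorem out {x : Euc k} (hπ : Ar_870.IsCo π) {r : ℝ} (hr : 0 < r) {y : Euc k}
    (hy : 4 * r ≤ ‖y - x‖) (ht : ‖tt π x r y‖ < 5 / 2) :
    3 * r ≤ ‖(y - x) - hp π (y - x)‖ := by
  have h1 := pyth hπ (y - x)
  have h2 : ‖π (y - x)‖ < 5 / 2 * r := by
    unfold tt at ht
    rw [norm_smul, norm_inv, Real.norm_eq_abs, abs_of_pos hr, inv_mul_lt_iff₀ hr] at ht
    linarith
  have h3 := norm_nonneg (π (y - x))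
  have h4 : (3 * r) ^ 2 ≤ ‖(y - x) - hp π (y - x)‖ ^ 2 := by nlinarith
  exact le_of_sq_le_sq h4 (norm_nonneg _)

/-! ### the test field -/

variable {U : Set (Euc k)} {V : Measure (Euc k × L k)}

/-- the scalar factor of the test field -/
def gg (π : Euc k →L[ℝ] Euc m) (x : Euc k) (r : ℝ) (ζ : Euc m → ℝ) (y : Euc k) : ℝ :=
  ζ (tt π x r y) * chi π x r y

theorem contDiff_gg (x : Euc k) (r : ℝ) {ζ : Euc m → ℝ} (hζ : ContDiff ℝ 1 ζ) :
    ContDiff ℝ 1 (gg π x r ζ) :=
  (hζ.comp (contDiff_tt x r)).mul (contDiff_chi x r)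

theorem fderiv_gg (x : Euc k) (r : ℝ) {ζ : Euc m → ℝ} (hζ : ContDiff ℝ 1 ζ) (y u : Euc k) :
    fderiv ℝ (gg π x r ζ) y u =
      ζ (tt π x r y) * fderiv ℝ (chi π x r) y u +
        chi π x r y * fderiv ℝ ζ (tt π x r y) (r⁻¹ • π u) := by
  have h1 : HasFDerivAt (fun y => ζ (tt π x r y)) (fderiv ℝ ζ (tt π x r y) ∘L (r⁻¹ • π)) y :=
    ((hζ.differentiable one_ne_zero _).hasFDerivAt).comp y (hasFDerivAt_tt x r y)
  have h2 := ((contDiff_chi (π := π) x r).differentiable one_ne_zero y).hasFDerivAt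
  have h3 : HasFDerivAt (gg π x r ζ) _ y := h1.mul h2
  rw [h3.fderiv]
  simp

theorem gg_zero (hπ : Ar_870.IsCo π) {x : Euc k} {r : ℝ} (hr : 0 < r) {ζ : Euc m → ℝ}
    (hs : ∀ z, 5 / 2 ≤ ‖z‖ → ζ z = 0) {y : Euc k} (hy : 4 * r ≤ ‖y - x‖) : gg π x r ζ y = 0 := by
  unfold gg
  rcases lt_or_ge ‖tt π x r y‖ (5 / 2) with h | h
  · rw [chi_zero hr (out hπ hr hy h), mul_zero]
  · rw [hs _ h, zero_mul]

theorem tsupport_gg (hπ : Ar_870.IsCo π) {x : Euc k} {r : ℝ} (hr : 0 < r) {ζ : Euc m → ℝ}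
    (hs : ∀ z, 5 / 2 ≤ ‖z‖ → ζ z = 0) : tsupport (gg π x r ζ) ⊆ closedBall x (4 * r) := by
  refine closure_minimal ?_ isClosed_closedBall
  intro y hy
  rw [mem_closedBall, dist_eq_norm]
  by_contra hcon
  exact hy (gg_zero hπ hr hs (not_le.1 hcon).le)

/-- pointwise estimate -/
theorem pt_est (hπ : Ar_870.IsCo π) (hP : hp π ∈ G m k) {x : Euc k} {r θ A B : ℝ} (hr : 0 < r)
    (hθ : 0 < θ) (hA : 0 ≤ A) (hB : 0 ≤ B) {ζ : Euc m → ℝ} (hζ : ContDiff ℝ 1 ζ)
    (h0 : ∀ z, |ζ z| ≤ A) (h1 : ∀ z, ‖fderiv ℝ ζ z‖ ≤ B) (w : Euc m) {p : Euc k × L k}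
    (hp2 : p.2 ∈ G m k) :
    |chi π x r p.1 * fderiv ℝ ζ (tt π x r p.1) w -
      r * fderiv ℝ (gg π x r ζ) p.1 (p.2 (ContinuousLinearMap.adjoint π w))| ≤
      ‖w‖ * (A + B) * (θ + 2 / θ * (((4 * r) ^ 2)⁻¹ *
        ((4 * r) ^ 2 * tilt (hp π) p + height (hp π) x p))) := by
  set v := ContinuousLinearMap.adjoint π w with hv
  have hvn : ‖v‖ = ‖w‖ := Ar_870.norm_adjoint_co hπ w
  have hπv : π v = w := co_apply hπ w
  have hPv : hp π v = v := by
    change ContinuousLinearMap.adjoint π (π v) = v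
    rw [hπv]
  set a := ‖(p.1 - x) - hp π (p.1 - x)‖ with ha
  set b := ‖(p.2 - hp π) v‖ with hb
  have ha0 : 0 ≤ a := norm_nonneg _
  have hb0 : 0 ≤ b := norm_nonneg _
  have hw0 : 0 ≤ ‖w‖ := norm_nonneg _
  have hht : height (hp π) x p = a ^ 2 := rfl
  have ht0 : 0 ≤ tilt (hp π) p := Strat3_842.tr_perp_nonneg hp2 hP
  have hb2 : b ^ 2 ≤ 2 * tilt (hp π) p * ‖w‖ ^ 2 := by
    have h6 := Strat3_842.norm_sq_le_tr (A := p.2 - hp π) (Strat3_842.sub_symm hp2 hP) v
    rw [Strat3_842.tr_sub_sq hp2 hP, hvn] at h6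
    exact h6
  have hSv : ‖p.2 v‖ ≤ ‖w‖ := by
    have := G_norm_apply_le hp2 v
    rwa [hvn] at this
  have hx : π (p.2 v) = w + π ((p.2 - hp π) v) := by
    rw [sub_apply, hPv, map_sub, hπv]; abel
  have e1 : chi π x r p.1 * fderiv ℝ ζ (tt π x r p.1) w -
      r * fderiv ℝ (gg π x r ζ) p.1 (p.2 v) =
      -(r * (ζ (tt π x r p.1) * fderiv ℝ (chi π x r) p.1 (p.2 v))) -
        chi π x r p.1 * fderiv ℝ ζ (tt π x r p.1) (π ((p.2 - hp π) v)) := by
    rw [fderiv_gg x r hζ, hx, map_smul, map_add, smul_eq_mul]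
    field_simp
    ring
  have e2 : |r * (ζ (tt π x r p.1) * fderiv ℝ (chi π x r) p.1 (p.2 v))| ≤
      A * (4 / 9 * (a / r) * ‖w‖) := by
    have h3 := chi_deriv hπ (x := x) hr p.1 (p.2 v)
    rw [abs_mul, abs_mul, abs_of_pos hr]
    calc r * (|ζ (tt π x r p.1)| * |fderiv ℝ (chi π x r) p.1 (p.2 v)|)
        ≤ r * (A * (4 / (9 * r ^ 2) * a * ‖w‖)) := by
          gcongr
          · exact h0 _
          · exact h3.trans (by gcongr)
      _ = A * (4 / 9 * (a / r) * ‖w‖) := by field_simp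
  have e3 : |chi π x r p.1 * fderiv ℝ ζ (tt π x r p.1) (π ((p.2 - hp π) v))| ≤ B * b := by
    rw [abs_mul, abs_of_nonneg (chi_nonneg _ _ _)]
    calc chi π x r p.1 * |fderiv ℝ ζ (tt π x r p.1) (π ((p.2 - hp π) v))|
        ≤ 1 * (B * b) := by
          refine mul_le_mul (chi_le_one _ _ _) ?_ (abs_nonneg _) zero_le_one
          rw [← Real.norm_eq_abs]
          refine (ContinuousLinearMap.le_opNorm _ _).trans ?_
          exact mul_le_mul (h1 _) (norm_pi_le hπ _) (norm_nonneg _) hB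
      _ = B * b := one_mul _
  have e4 : 4 / 9 * (a / r) ≤ θ + 2 / θ * (((4 * r) ^ 2)⁻¹ *
        ((4 * r) ^ 2 * tilt (hp π) p + height (hp π) x p)) := by
    rw [hht]
    have h5 : 2 / θ * (((4 * r) ^ 2)⁻¹ * ((4 * r) ^ 2 * tilt (hp π) p + a ^ 2)) =
        2 / θ * tilt (hp π) p + (a / r) ^ 2 / (8 * θ) := by
      field_simp
      ring
    rw [h5]
    have h6 : 0 ≤ 2 / θ * tilt (hp π) p := by positivity
    have h7 : 4 / 9 * (a / r) ≤ θ + (a / r) ^ 2 / (8 * θ) := by
      set q := a / r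
      have h8 : θ + q ^ 2 / (8 * θ) - 4 / 9 * q = (8 * θ ^ 2 + q ^ 2 - 32 / 9 * θ * q) / (8 * θ) := by
        field_simp
        ring
      have h9 : 0 ≤ (8 * θ ^ 2 + q ^ 2 - 32 / 9 * θ * q) / (8 * θ) := by
        refine div_nonneg ?_ (by positivity)
        nlinarith [sq_nonneg (q - 16 / 9 * θ), sq_nonneg θ]
      linarith
    linarith
  have e5 : b ≤ ‖w‖ * (θ + 2 / θ * (((4 * r) ^ 2)⁻¹ *
        ((4 * r) ^ 2 * tilt (hp π) p + height (hp π) x p))) := by
    rw [hht]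
    have h5 : 2 / θ * (((4 * r) ^ 2)⁻¹ * ((4 * r) ^ 2 * tilt (hp π) p + a ^ 2)) =
        2 / θ * tilt (hp π) p + (a / r) ^ 2 / (8 * θ) := by
      field_simp
      ring
    rw [h5]
    have h6 : 0 ≤ (a / r) ^ 2 / (8 * θ) := by positivity
    set t := tilt (hp π) p
    have h7 : b ≤ ‖w‖ * (θ + 2 / θ * t) := by
      refine le_of_sq_le_sq ?_ (by positivity)
      refine hb2.trans ?_
      rw [mul_pow]
      have h8 : 2 * t ≤ (θ + 2 / θ * t) ^ 2 := by
        have h9 : (θ + 2 / θ * t) ^ 2 = θ ^ 2 + 4 * t + (2 / θ * t) ^ 2 := by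
          field_simp
          ring
        rw [h9]
        nlinarith [sq_nonneg θ, sq_nonneg (2 / θ * t)]
      calc 2 * t * ‖w‖ ^ 2 ≤ (θ + 2 / θ * t) ^ 2 * ‖w‖ ^ 2 := by gcongr
        _ = _ := by ring
    refine h7.trans ?_
    gcongr
    linarith
  rw [e1]
  have e6 := abs_sub (-(r * (ζ (tt π x r p.1) * fderiv ℝ (chi π x r) p.1 (p.2 v))))
    (chi π x r p.1 * fderiv ℝ ζ (tt π x r p.1) (π ((p.2 - hp π) v)))
  rw [abs_neg] at e6
  refine e6.trans ?_
  set Z := θ + 2 / θ * (((4 * r) ^ 2)⁻¹ *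
        ((4 * r) ^ 2 * tilt (hp π) p + height (hp π) x p))
  calc |r * (ζ (tt π x r p.1) * fderiv ℝ (chi π x r) p.1 (p.2 v))| +
        |chi π x r p.1 * fderiv ℝ ζ (tt π x r p.1) (π ((p.2 - hp π) v))|
      ≤ A * (Z * ‖w‖) + B * (‖w‖ * Z) := by
        refine add_le_add (e2.trans ?_) (e3.trans ?_)
        · gcongr
        · gcongr
    _ = ‖w‖ * (A + B) * Z := by ring

/-- **almost translation invariance.** -/
theorem inv_est (hV : Stat m k U V) (hπ : Ar_870.IsCo π) (hP : hp π ∈ G m k) {x : Euc k}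
    {r θ A B : ℝ} (hr : 0 < r) (hU : closedBall x (4 * r) ⊆ U)
    (hθ : 0 < θ) (hA : 0 ≤ A) (hB : 0 ≤ B) {ζ : Euc m → ℝ} (hζ : ContDiff ℝ 1 ζ)
    (h0 : ∀ z, |ζ z| ≤ A) (h1 : ∀ z, ‖fderiv ℝ ζ z‖ ≤ B) (hs : ∀ z, 5 / 2 ≤ ‖z‖ → ζ z = 0)
    (w : Euc m) :
    |∫ p in ball x (4 * r) ×ˢ univ, chi π x r p.1 * fderiv ℝ ζ (tt π x r p.1) w ∂V| ≤
      ‖w‖ * (A + B) * (θ * V.real (ball x (4 * r) ×ˢ univ) + 2 / θ * (((4 * r) ^ 2)⁻¹ *
        ∫ p in ball x (4 * r) ×ˢ univ, ((4 * r) ^ 2 * tilt (hp π) p + height (hp π) x p) ∂V)) := by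
  have hK := isCompact_closedBall x (4 * r)
  have hB4 : MeasurableSet (ball x (4 * r) ×ˢ (univ : Set (L k))) := measurableSet_ball.prod .univ
  have hct : Continuous (tilt (hp π)) :=
    Cacc_113.continuous_tr.comp (continuous_const.clm_comp continuous_snd)
  have hch : Continuous (height (hp π) x) := by
    have e : height (hp π) x = fun p : Euc k × L k => ‖(p.1 - x) - hp π (p.1 - x)‖ ^ 2 := rfl
    rw [e]
    fun_prop
  have hint : ∀ g : Euc k × L k → ℝ, Continuous g →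
      IntegrableOn g (ball x (4 * r) ×ˢ (univ : Set (L k))) V := fun g hg =>
    NearChg_660.intOn hV hg measurableSet_ball hK ball_subset_closedBall hU
  set v := ContinuousLinearMap.adjoint π w with hv
  have hcg := contDiff_gg (π := π) x r hζ
  have hc1 : Continuous fun p : Euc k × L k => fderiv ℝ (gg π x r ζ) p.1 (p.2 v) :=
    ((hcg.continuous_fderiv one_ne_zero).comp continuous_fst).clm_apply
      (continuous_snd.clm_apply continuous_const)
  have hc2 : Continuous fun p : Euc k × L k =>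
      chi π x r p.1 * fderiv ℝ ζ (tt π x r p.1) w :=
    ((continuous_chi x r).comp continuous_fst).mul
      (((hζ.continuous_fderiv one_ne_zero).comp ((continuous_tt x r).comp continuous_fst)).clm_apply
        continuous_const)
  -- stationarity
  have hst : ∫ p in ball x (4 * r) ×ˢ univ, fderiv ℝ (gg π x r ζ) p.1 (p.2 v) ∂V = 0 := by
    have hX : ContDiff ℝ 1 (fun y => gg π x r ζ y • v) := hcg.smul contDiff_const
    have hts : tsupport (fun y => gg π x r ζ y • v) ⊆ closedBall x (4 * r) :=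
      (tsupport_smul_subset_left _ _).trans (tsupport_gg hπ hr hs)
    have h2 := hV.stat _ hX (hK.of_isClosed_subset (isClosed_tsupport _) hts) (hts.trans hU)
    have h3 : ∀ p : Euc k × L k, tr ((fderiv ℝ (fun y => gg π x r ζ y • v) p.1) ∘L p.2) =
        fderiv ℝ (gg π x r ζ) p.1 (p.2 v) := by
      intro p
      rw [fderiv_smul_const (hcg.differentiable one_ne_zero _), tr_smulRight_comp]
    simp only [h3] at h2
    rw [setIntegral_eq_integral_of_forall_compl_eq_zero, h2]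
    intro p hpo
    have hp1 : p.1 ∉ ball x (4 * r) := fun h => hpo ⟨h, mem_univ _⟩
    rw [mem_ball, dist_eq_norm, not_lt] at hp1
    rcases hp1.lt_or_eq with h | h
    · have h4 : p.1 ∉ tsupport (gg π x r ζ) := by
        intro h5
        have := tsupport_gg hπ hr hs h5
        rw [mem_closedBall, dist_eq_norm] at this
        linarith
      have h5 : fderiv ℝ (gg π x r ζ) p.1 = 0 := by
        by_contra h6
        exact h4 (support_fderiv_subset ℝ (Function.mem_support.2 h6))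
      rw [h5]; rfl
    · -- on the sphere: the height is at least `3 r`, all terms vanish
      rw [fderiv_gg x r hζ]
      rcases lt_or_ge ‖tt π x r p.1‖ (5 / 2) with h6 | h6
      · have h7 := out hπ hr h.le h6
        rw [chi_zero hr h7, zero_mul, add_zero, (hasFDerivAt_chi x r p.1).fderiv]
        have h8 : ph 1 (‖(p.1 - x) - hp π (p.1 - x)‖ ^ 2 / (3 * r) ^ 2) = 0 := by
          refine ph_zero_of_ge one_ne_zero ?_
          rw [le_div_iff₀ (by positivity), one_mul]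
          exact pow_le_pow_left₀ (by positivity) h7 2
        rw [h8]
        simp
      · have h7 : fderiv ℝ ζ (tt π x r p.1) = 0 := by
          rcases h6.lt_or_eq with h8 | h8
          · have h9 : ζ =ᶠ[𝓝 (tt π x r p.1)] fun _ => (0:ℝ) := by
              have : {z : Euc m | 5 / 2 < ‖z‖} ∈ 𝓝 (tt π x r p.1) :=
                (isOpen_lt continuous_const continuous_norm).mem_nhds h8
              filter_upwards [this] with z hz
              exact hs z hz.le
            rw [h9.fderiv_eq, fderiv_fun_const]; rfl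
          · by_contra h9
            have h10 := (hζ.continuous_fderiv one_ne_zero).tendsto (tt π x r p.1)
            have h11 : ∀ᶠ z in 𝓝 (tt π x r p.1), fderiv ℝ ζ z ≠ 0 := h10.eventually_ne h9
            have h12 : ∃ᶠ z in 𝓝 (tt π x r p.1), 5 / 2 < ‖z‖ := by
              have h13 : Tendsto (fun s : ℝ => s • tt π x r p.1) (𝓝[>] 1) (𝓝 (tt π x r p.1)) := by
                have : Tendsto (fun s : ℝ => s • tt π x r p.1) (𝓝 1) (𝓝 ((1:ℝ) • tt π x r p.1)) :=
                  (continuous_id.smul continuous_const).tendsto 1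
                rw [one_smul] at this
                exact this.mono_left nhdsWithin_le_nhds
              refine h13.frequently (Eventually.frequently ?_)
              filter_upwards [self_mem_nhdsWithin] with s hs1
              have hs2 : (1:ℝ) < s := hs1
              rw [norm_smul, Real.norm_eq_abs, abs_of_pos (by linarith), ← h8]
              nlinarith
            obtain ⟨z, hz1, hz2⟩ := (h12.and_eventually h11).exists
            have h14 : ζ =ᶠ[𝓝 z] fun _ => (0:ℝ) := by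
              filter_upwards [(isOpen_lt continuous_const continuous_norm).mem_nhds hz1] with z' hz'
              exact hs z' (le_of_lt hz')
            exact hz2 (by rw [h14.fderiv_eq, fderiv_fun_const]; rfl)
        rw [h7, hs _ h6]
        simp
  -- the estimate
  have hmain : ∫ p in ball x (4 * r) ×ˢ univ, chi π x r p.1 * fderiv ℝ ζ (tt π x r p.1) w ∂V =
      ∫ p in ball x (4 * r) ×ˢ univ, (chi π x r p.1 * fderiv ℝ ζ (tt π x r p.1) w -
        r * fderiv ℝ (gg π x r ζ) p.1 (p.2 v)) ∂V := by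
    rw [integral_sub (hint _ hc2) ((hint _ hc1).const_mul _), integral_const_mul, hst]
    ring
  have hci : IntegrableOn (fun p : Euc k × L k => ‖w‖ * (A + B) * (θ + 2 / θ *
      (((4 * r) ^ 2)⁻¹ * ((4 * r) ^ 2 * tilt (hp π) p + height (hp π) x p))))
      (ball x (4 * r) ×ˢ (univ : Set (L k))) V := by
    refine hint _ ?_
    fun_prop
  rw [hmain]
  refine (abs_integral_le_integral_abs).trans ?_
  refine (integral_mono_ae ((hint _ (hc2.sub (continuous_const.mul hc1))).abs) hci ?_).trans ?_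
  · have h4 : ∀ᵐ p ∂(V.restrict (ball x (4 * r) ×ˢ (univ : Set (L k)))), p.2 ∈ G m k :=
      ae_restrict_of_ae hV.conc
    filter_upwards [h4] with p hp2
    exact pt_est hπ hP hr hθ hA hB hζ h0 h1 w hp2
  · have h5 : IntegrableOn (fun _ : Euc k × L k => θ)
        (ball x (4 * r) ×ˢ (univ : Set (L k))) V := hint _ continuous_const
    have h6 : IntegrableOn (fun p : Euc k × L k => 2 / θ *
      (((4 * r) ^ 2)⁻¹ * ((4 * r) ^ 2 * tilt (hp π) p + height (hp π) x p)))
        (ball x (4 * r) ×ˢ (univ : Set (L k))) V := by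
      refine hint _ ?_
      fun_prop
    rw [integral_const_mul, integral_add h5 h6, integral_const_mul, integral_const_mul,
      setIntegral_const, smul_eq_mul, mul_comm (V.real _) θ]

end Crest.Agent.R234.QLeb_433
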