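import Crest.Agent.R234.QLeb1_433

/-!
Row 234 (helper433), task VF-QLEB, part 2: the bump, translation differences, averaging (Fubini),
radial comparison (layer cake).
-/

set_option autoImplicit false
set_option linter.unusedVariables false

open MeasureTheory Topology Set Metric
open Filter hiding ker
open scoped ENNReal NNReal ContDiff InnerProductSpace
open Crest.GeometryTopology.Submanifold Crest.Agent.R234.Vf_884
open Crest.Agent.R234.Strat3_842 (tilt height)
open Crest.Agent.R234.AS_456 (hp vp)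

noncomputable section

namespace Crest.Agent.R234.QLeb_433

open Crest.Agent.R234.Main_456 Crest.Agent.R234.Al4_182

variable {m k : ℕ} {π : Euc k →L[ℝ] Euc m}

/-! ### the bump -/

theorem ker_shift (p : ℕ) (z' : Euc m) (δ : ℝ) (z : Euc m) :
    ker p z' δ z = ker p (0 : Euc m) δ (z - z') := by
  unfold Al4_182.ker; rw [sub_zero]

theorem norm_fderiv_ker2 (z' : Euc m) {δ : ℝ} (hδ : 0 < δ) (z : Euc m) :
    ‖fderiv ℝ (ker 2 z' δ) z‖ ≤ 4 / δ := by
  rw [(hasFDerivAt_ker2 z' δ z).fderiv]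
  rcases le_or_gt δ ‖z - z'‖ with h | h
  · rw [ker_zero one_ne_zero hδ h]
    simp
    positivity
  · rw [norm_smul, innerSL_apply_norm, Real.norm_eq_abs]
    have h2 := ker_nonneg 1 z' δ z
    have h3 := ker_le_one 1 z' δ z
    have h5 : -4 * ker 1 z' δ z / δ ^ 2 = -(4 * ker 1 z' δ z / δ ^ 2) := by ring
    rw [h5, abs_neg, abs_of_nonneg (by positivity)]
    calc 4 * ker 1 z' δ z / δ ^ 2 * ‖z - z'‖ ≤ 4 * 1 / δ ^ 2 * δ := by gcongr
      _ = 4 / δ := by field_simp

theorem ph2_lip {s t : ℝ} (hs : 0 ≤ s) (ht : 0 ≤ t) : |ph 2 s - ph 2 t| ≤ 2 * |s - t| := by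
  have h : ∀ u ∈ Set.Ici (0:ℝ), HasDerivWithinAt (ph 2) (-2 * ph 1 u) (Set.Ici 0) u :=
    fun u _ => (hasDerivAt_ph2 u).hasDerivWithinAt
  have h2 : ∀ u ∈ Set.Ici (0:ℝ), ‖-2 * ph 1 u‖ ≤ 2 := by
    intro u hu
    have h3 := ph_nonneg 1 u
    have h4 : ph 1 u ≤ 1 := ph_le_one 1 hu
    rw [Real.norm_eq_abs, abs_le]
    constructor <;> linarith
  have := (convex_Ici (0:ℝ)).norm_image_sub_le_of_norm_hasDerivWithin_le h h2 ht hs
  simpa [Real.norm_eq_abs] using this

theorem ph2_zero : ph 2 0 = 1 := by simp [ph]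

/-! ### translation differences -/

variable {U : Set (Euc k)} {V : Measure (Euc k × L k)}

/-- the functional. -/
def aa (V : Measure (Euc k × L k)) (π : Euc k →L[ℝ] Euc m) (x : Euc k) (r : ℝ) (f : Euc m → ℝ) : ℝ :=
  ∫ p in ball x (4 * r) ×ˢ univ, chi π x r p.1 * f (tt π x r p.1) ∂V

theorem hfin (hV : Stat m k U V) {x : Euc k} {r : ℝ} (hU : closedBall x (4 * r) ⊆ U) :
    V (ball x (4 * r) ×ˢ univ) < ⊤ :=
  (measure_mono (Set.prod_mono ball_subset_closedBall le_rfl)).trans_lt
    (hV.fin _ (isCompact_closedBall x (4 * r)) hU)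

/-- translation of the bump. -/
theorem transl (hV : Stat m k U V) (hπ : Ar_870.IsCo π) (hP : hp π ∈ G m k) {x : Euc k}
    {r θ δ e : ℝ} (hr : 0 < r) (hU : closedBall x (4 * r) ⊆ U) (hθ : 0 < θ) (hδ : 0 < δ)
    (hδ2 : δ ≤ 1 / 2)
    (he : θ * V.real (ball x (4 * r) ×ˢ univ) + 2 / θ * (((4 * r) ^ 2)⁻¹ *
        ∫ p in ball x (4 * r) ×ˢ univ, ((4 * r) ^ 2 * tilt (hp π) p + height (hp π) x p) ∂V) ≤ e)
    (he0 : 0 ≤ e) {z' : Euc m} (hz' : ‖z'‖ ≤ 2) :
    |aa V π x r (ker 2 z' δ) - aa V π x r (ker 2 0 δ)| ≤ 2 * (1 + 4 / δ) * e := by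
  have hfin' : IsFiniteMeasure (V.restrict (ball x (4 * r) ×ˢ (univ : Set (L k)))) :=
    ⟨by rw [Measure.restrict_apply_univ]; exact hfin hV hU⟩
  set F : ℝ → ℝ := fun s => aa V π x r (ker 2 (s • z') δ) with hF
  set F' : ℝ → ℝ := fun s => ∫ p in ball x (4 * r) ×ˢ univ,
    chi π x r p.1 * -(fderiv ℝ (ker 2 (s • z') δ) (tt π x r p.1) z') ∂V with hF'
  have hcont : ∀ s : ℝ, Continuous fun p : Euc k × L k =>
      chi π x r p.1 * ker 2 (s • z') δ (tt π x r p.1) := fun s =>
    ((continuous_chi x r).comp continuous_fst).mul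
      ((continuous_ker 2 _ _).comp ((continuous_tt x r).comp continuous_fst))
  have hcont' : ∀ s : ℝ, Continuous fun p : Euc k × L k =>
      chi π x r p.1 * -(fderiv ℝ (ker 2 (s • z') δ) (tt π x r p.1) z') := fun s =>
    ((continuous_chi x r).comp continuous_fst).mul
      (((((contDiff_ker2 (s • z') δ).continuous_fderiv one_ne_zero).comp
        ((continuous_tt x r).comp continuous_fst)).clm_apply continuous_const).neg)
  have hder : ∀ s : ℝ, HasDerivAt F (F' s) s := by
    intro s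
    have h1 := hasDerivAt_integral_of_dominated_loc_of_deriv_le
      (μ := V.restrict (ball x (4 * r) ×ˢ (univ : Set (L k))))
      (F := fun s p => chi π x r p.1 * ker 2 (s • z') δ (tt π x r p.1))
      (F' := fun s p => chi π x r p.1 * -(fderiv ℝ (ker 2 (s • z') δ) (tt π x r p.1) z'))
      (x₀ := s) (s := univ) (bound := fun _ => 4 / δ * 2) univ_mem
      (Eventually.of_forall fun s => (hcont s).aestronglyMeasurable)
      (by
        refine Integrable.of_bound (hcont s).aestronglyMeasurable 1 ?_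
        refine Eventually.of_forall fun p => ?_
        rw [norm_mul, Real.norm_eq_abs, Real.norm_eq_abs, abs_of_nonneg (chi_nonneg _ _ _),
          abs_of_nonneg (ker_nonneg _ _ _ _)]
        exact mul_le_one₀ (chi_le_one _ _ _) (ker_nonneg _ _ _ _) (ker_le_one _ _ _ _))
      (hcont' s).aestronglyMeasurable
      (by
        refine Eventually.of_forall fun p s _ => ?_
        rw [norm_mul, Real.norm_eq_abs, abs_of_nonneg (chi_nonneg _ _ _), norm_neg]
        calc chi π x r p.1 * ‖fderiv ℝ (ker 2 (s • z') δ) (tt π x r p.1) z'‖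
            ≤ 1 * (4 / δ * 2) := by
              refine mul_le_mul (chi_le_one _ _ _) ?_ (norm_nonneg _) zero_le_one
              refine (ContinuousLinearMap.le_opNorm _ _).trans ?_
              exact mul_le_mul (norm_fderiv_ker2 _ hδ _) hz' (norm_nonneg _) (by positivity)
          _ = _ := one_mul _)
      (integrable_const _)
      (by
        refine Eventually.of_forall fun p s _ => ?_
        refine HasDerivAt.const_mul _ ?_
        have h3 : HasDerivAt (fun s : ℝ => tt π x r p.1 - s • z') (-z') s := by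
          have := ((hasDerivAt_id s).smul_const z').const_sub (tt π x r p.1)
          simpa using this
        have h4 := (hasFDerivAt_ker2 (0 : Euc m) δ (tt π x r p.1 - s • z')).comp_hasDerivAt s h3
        have h5 : (fun s : ℝ => ker 2 (s • z') δ (tt π x r p.1)) =
            (ker 2 (0 : Euc m) δ) ∘ fun s : ℝ => tt π x r p.1 - s • z' := by
          funext s
          exact ker_shift 2 _ _ _
        rw [h5]
        refine h4.congr_deriv ?_
        rw [(hasFDerivAt_ker2 (s • z') δ (tt π x r p.1)).fderiv, ker_shift 1 (s • z')]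
        simp
        ring)
    exact h1.2
  have hb : ∀ s ∈ Set.Icc (0:ℝ) 1, ‖F' s‖ ≤ 2 * (1 + 4 / δ) * e := by
    intro s hs
    have h1 := inv_est hV hπ hP (x := x) hr hU hθ (zero_le_one (α := ℝ))
      (by positivity : (0:ℝ) ≤ 4 / δ)
      (contDiff_ker2 (s • z') δ) (fun z => by
        rw [abs_of_nonneg (ker_nonneg _ _ _ _)]; exact ker_le_one _ _ _ _)
      (fun z => norm_fderiv_ker2 (s • z') hδ z) (fun z hz => by
        refine ker_zero two_ne_zero hδ ?_
        have h2 : ‖s • z'‖ ≤ 2 := by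
          rw [norm_smul, Real.norm_eq_abs, abs_of_nonneg hs.1]
          nlinarith [hs.2, norm_nonneg z']
        have h3 := norm_sub_norm_le z (s • z')
        linarith) z'
    have h4 : F' s = -∫ p in ball x (4 * r) ×ˢ univ,
        chi π x r p.1 * fderiv ℝ (ker 2 (s • z') δ) (tt π x r p.1) z' ∂V := by
      rw [hF', ← integral_neg]
      refine integral_congr_ae (Eventually.of_forall fun p => ?_)
      simp
    rw [h4, norm_neg, Real.norm_eq_abs]
    refine h1.trans ?_
    have h5 : ‖z'‖ * (1 + 4 / δ) ≤ 2 * (1 + 4 / δ) := by gcongr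
    exact mul_le_mul h5 he (by
      have h6 : 0 ≤ |∫ p in ball x (4 * r) ×ˢ univ,
        chi π x r p.1 * fderiv ℝ (ker 2 (s • z') δ) (tt π x r p.1) z' ∂V| := abs_nonneg _
      by_contra hcon
      rw [not_le] at hcon
      have h7 : 0 ≤ ∫ p in ball x (4 * r) ×ˢ univ,
          ((4 * r) ^ 2 * tilt (hp π) p + height (hp π) x p) ∂V := by
        refine integral_nonneg_of_ae ?_
        filter_upwards [ae_restrict_of_ae hV.conc] with p hp2
        have h8 : 0 ≤ tilt (hp π) p := Strat3_842.tr_perp_nonneg hp2 hP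
        have h9 : 0 ≤ height (hp π) x p := sq_nonneg _
        change (0:ℝ) ≤ (4 * r) ^ 2 * tilt (hp π) p + height (hp π) x p
        positivity
      have h10 : 0 ≤ V.real (ball x (4 * r) ×ˢ univ) := measureReal_nonneg
      have : 0 ≤ θ * V.real (ball x (4 * r) ×ˢ univ) + 2 / θ * (((4 * r) ^ 2)⁻¹ *
        ∫ p in ball x (4 * r) ×ˢ univ, ((4 * r) ^ 2 * tilt (hp π) p + height (hp π) x p) ∂V) := by
        positivity
      linarith) (by positivity)
  have h := norm_image_sub_le_of_norm_deriv_le_segment_01' (f := F) (f' := F')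
    (C := 2 * (1 + 4 / δ) * e) (fun s hs => (hder s).hasDerivWithinAt)
    (fun s hs => hb s ⟨hs.1, hs.2.le⟩)
  rw [Real.norm_eq_abs] at h
  have e1 : F 1 = aa V π x r (ker 2 z' δ) := by rw [hF]; simp
  have e0 : F 0 = aa V π x r (ker 2 0 δ) := by rw [hF]; simp
  rwa [e1, e0] at h

/-! ### averaging -/

/-- the mass of the bump -/
def cb (m : ℕ) (δ : ℝ) : ℝ := ∫ z, ker 2 (0 : Euc m) δ z

theorem ker_supp {δ : ℝ} (hδ : 0 < δ) (z' z : Euc m) (h : ker 2 z' δ z ≠ 0) : ‖z - z'‖ < δ := by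
  by_contra hcon
  exact h (ker_zero two_ne_zero hδ (not_lt.1 hcon))

theorem ker_integrable {δ : ℝ} (hδ : 0 < δ) : Integrable (ker 2 (0 : Euc m) δ) := by
  refine (continuous_ker 2 0 δ).integrable_of_hasCompactSupport ?_
  refine HasCompactSupport.intro (isCompact_closedBall (0 : Euc m) δ) ?_
  intro z hz
  by_contra h
  have := ker_supp hδ 0 z h
  rw [sub_zero] at this
  exact hz (by rw [mem_closedBall, dist_zero_right]; exact this.le)

theorem cb_pos {δ : ℝ} (hδ : 0 < δ) : 0 < cb m δ := by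
  refine (continuous_ker 2 (0 : Euc m) δ).integral_pos_of_hasCompactSupport_nonneg_nonzero ?_ ?_
    (x := 0) ?_
  · refine HasCompactSupport.intro (isCompact_closedBall (0 : Euc m) δ) ?_
    intro z hz
    by_contra h
    have := ker_supp hδ 0 z h
    rw [sub_zero] at this
    exact hz (by rw [mem_closedBall, dist_zero_right]; exact this.le)
  · intro z; exact ker_nonneg _ _ _ _
  · have : ker 2 (0 : Euc m) δ 0 = 1 := by simp [Al4_182.ker, ph]
    rw [this]; exact one_ne_zero

theorem ker_int_shift {δ : ℝ} (T : Euc m) : ∫ z', ker 2 z' δ T = cb m δ := by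
  have h : (fun z' : Euc m => ker 2 z' δ T) = fun z' => ker 2 (0 : Euc m) δ (T - z') := by
    funext z'; exact ker_shift 2 _ _ _
  rw [h]
  exact integral_sub_left_eq_self (ker 2 (0 : Euc m) δ) volume T

theorem ker_shift_integrable {δ : ℝ} (hδ : 0 < δ) (T : Euc m) :
    Integrable fun z' : Euc m => ker 2 z' δ T := by
  have h : (fun z' : Euc m => ker 2 z' δ T) = fun z' => ker 2 (0 : Euc m) δ (T - z') := by
    funext z'; exact ker_shift 2 _ _ _
  rw [h]
  exact (ker_integrable hδ).comp_sub_left T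

theorem cont_ker_joint (δ : ℝ) : Continuous fun q : Euc m × Euc m => ker 2 q.1 δ q.2 := by
  have h : (fun q : Euc m × Euc m => ker 2 q.1 δ q.2) =
      fun q => ker 2 (0 : Euc m) δ (q.2 - q.1) := by
    funext q; exact ker_shift 2 _ _ _
  rw [h]
  exact (continuous_ker 2 _ _).comp (continuous_snd.sub continuous_fst)

variable {φ : Euc m → ℝ}

theorem phi_integrable (hφ : LipschitzWith 1 φ) (hsupp : ∀ z, φ z ≠ 0 → ‖z‖ ≤ 2) :
    Integrable φ := by
  refine hφ.continuous.integrable_of_hasCompactSupport ?_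
  refine HasCompactSupport.intro (isCompact_closedBall (0 : Euc m) 2) ?_
  intro z hz
  by_contra h
  exact hz (by rw [mem_closedBall, dist_zero_right]; exact hsupp z h)

theorem phi_abs_int (hφ : LipschitzWith 1 φ) (hb : ∀ z, |φ z| ≤ 1)
    (hsupp : ∀ z, φ z ≠ 0 → ‖z‖ ≤ 2) : ∫ z, |φ z| ≤ ome m * 2 ^ m := by
  have h1 : ∫ z, |φ z| ≤ ∫ z, (closedBall (0 : Euc m) 2).indicator (fun _ => (1:ℝ)) z := by
    refine integral_mono (phi_integrable hφ hsupp).abs ?_ ?_
    · exact (integrable_indicator_iff measurableSet_closedBall).2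
        (integrableOn_const measure_closedBall_lt_top.ne)
    · intro z
      by_cases hz : z ∈ closedBall (0 : Euc m) 2
      · rw [indicator_of_mem hz]; exact hb z
      · rw [indicator_of_notMem hz]
        have : φ z = 0 := by
          by_contra h
          exact hz (by rw [mem_closedBall, dist_zero_right]; exact hsupp z h)
        change |φ z| ≤ 0
        rw [this, abs_zero]
  refine h1.trans ?_
  rw [integral_indicator measurableSet_closedBall, setIntegral_const, smul_eq_mul, mul_one,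
    measureReal_def, Measure.addHaar_closedBall _ _ zero_le_two, ENNReal.toReal_mul,
    ENNReal.toReal_ofReal (by positivity), finrank_euclideanSpace_fin]
  exact le_of_eq (mul_comm _ _)

theorem avg_pt {δ : ℝ} (hδ : 0 < δ) (hφ : LipschitzWith 1 φ)
    (hsupp : ∀ z, φ z ≠ 0 → ‖z‖ ≤ 2) (hb : ∀ z, |φ z| ≤ 1) (T : Euc m) :
    |cb m δ * φ T - ∫ z', φ z' * ker 2 z' δ T| ≤ δ * cb m δ := by
  have hi := ker_shift_integrable (m := m) hδ T
  have hi2 : Integrable fun z' : Euc m => φ z' * ker 2 z' δ T := by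
    refine Integrable.bdd_mul (c := 1) hi hφ.continuous.aestronglyMeasurable ?_
    exact Eventually.of_forall fun z => by rw [Real.norm_eq_abs]; exact hb z
  have h1 : cb m δ * φ T = ∫ z', φ T * ker 2 z' δ T := by
    rw [integral_const_mul, ker_int_shift]; ring
  rw [h1, ← integral_sub (hi.const_mul _) hi2]
  calc |∫ z', (φ T * ker 2 z' δ T - φ z' * ker 2 z' δ T)|
      ≤ ∫ z', |φ T * ker 2 z' δ T - φ z' * ker 2 z' δ T| := abs_integral_le_integral_abs
    _ ≤ ∫ z', δ * ker 2 z' δ T := by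
        refine integral_mono ((hi.const_mul _).sub hi2).abs (hi.const_mul _) ?_
        intro z'
        change |φ T * ker 2 z' δ T - φ z' * ker 2 z' δ T| ≤ δ * ker 2 z' δ T
        rw [← sub_mul, abs_mul, abs_of_nonneg (ker_nonneg _ _ _ _)]
        by_cases h : ker 2 z' δ T = 0
        · rw [h]; simp
        · have h2 := ker_supp hδ z' T h
          have h3 := hφ.dist_le_mul T z'
          rw [Real.dist_eq, dist_eq_norm] at h3
          refine mul_le_mul_of_nonneg_right ?_ (ker_nonneg _ _ _ _)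
          simp at h3
          linarith
    _ = δ * cb m δ := by rw [integral_const_mul, ker_int_shift]

/-! #### abstract form -/

section abs

variable {Ω : Type*} [MeasurableSpace Ω] {μ : Measure Ω} [IsFiniteMeasure μ] {T : Ω → Euc m}
  {c : Ω → ℝ}

/-- the functional, abstractly -/
def ag (μ : Measure Ω) (c : Ω → ℝ) (T : Ω → Euc m) (f : Euc m → ℝ) : ℝ := ∫ p, c p * f (T p) ∂μ

theorem meas_joint (hT : Measurable T) (hc : Measurable c) (δ : ℝ) :
    Measurable fun q : Euc m × Ω => c q.2 * ker 2 q.1 δ (T q.2) := by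
  have h1 : Measurable fun q : Euc m × Ω => c q.2 := hc.comp measurable_snd
  have h3 : Measurable fun q : Euc m × Ω => (q.1, T q.2) :=
    measurable_fst.prodMk (hT.comp measurable_snd)
  have h4 : Measurable fun q : Euc m × Euc m => ker 2 q.1 δ q.2 :=
    (cont_ker_joint (m := m) δ).measurable
  have h2 := Measurable.comp h4 h3
  have h5 : ((fun q : Euc m × Euc m => ker 2 q.1 δ q.2) ∘ fun q : Euc m × Ω => (q.1, T q.2)) =
      fun q : Euc m × Ω => ker 2 q.1 δ (T q.2) := rfl
  rw [h5] at h2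
  exact h1.mul h2

/-- Fubini. -/
theorem fubini (hT : Measurable T) (hc : Measurable c) (hc0 : ∀ p, 0 ≤ c p) (hc1 : ∀ p, c p ≤ 1)
    {δ : ℝ} (hφ : LipschitzWith 1 φ) (hsupp : ∀ z, φ z ≠ 0 → ‖z‖ ≤ 2) :
    ∫ z', φ z' * ag μ c T (ker 2 z' δ) =
      ∫ p, (c p * ∫ z', φ z' * ker 2 z' δ (T p)) ∂μ := by
  unfold ag
  simp_rw [← integral_const_mul]
  rw [integral_integral_swap]
  · refine integral_congr_ae (Eventually.of_forall fun p => ?_)
    refine integral_congr_ae (Eventually.of_forall fun z => ?_)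
    simp only
    ring
  · have h1 : Integrable (fun q : Euc m × Ω => φ q.1 * (1:ℝ)) (volume.prod μ) :=
      (phi_integrable hφ hsupp).mul_prod (integrable_const 1)
    refine h1.mono ?_ ?_
    · have h3 : Measurable fun q : Euc m × Ω => φ q.1 := hφ.continuous.measurable.comp measurable_fst
      exact (h3.mul (meas_joint hT hc δ)).aestronglyMeasurable
    · refine Eventually.of_forall fun q => ?_
      change ‖φ q.1 * (c q.2 * ker 2 q.1 δ (T q.2))‖ ≤ ‖φ q.1 * 1‖
      rw [norm_mul (φ q.1) (c q.2 * ker 2 q.1 δ (T q.2)), norm_mul (φ q.1) 1]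
      refine mul_le_mul_of_nonneg_left ?_ (norm_nonneg (φ q.1))
      rw [norm_mul, Real.norm_eq_abs, Real.norm_eq_abs, abs_of_nonneg (hc0 _),
          abs_of_nonneg (ker_nonneg _ _ _ _), norm_one]
      exact mul_le_one₀ (hc1 _) (ker_nonneg _ _ _ _) (ker_le_one _ _ _ _)

theorem avg1 (hT : Measurable T) (hc : Measurable c) (hc0 : ∀ p, 0 ≤ c p) (hc1 : ∀ p, c p ≤ 1)
    {δ : ℝ} (hδ : 0 < δ) (hφ : LipschitzWith 1 φ) (hsupp : ∀ z, φ z ≠ 0 → ‖z‖ ≤ 2)
    (hb : ∀ z, |φ z| ≤ 1) :
    |cb m δ * ag μ c T φ - ∫ z', φ z' * ag μ c T (ker 2 z' δ)| ≤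
      δ * cb m δ * μ.real univ := by
  have hcb := cb_pos (m := m) hδ
  rw [fubini hT hc hc0 hc1 hφ hsupp]
  set Φ : Euc m → ℝ := fun T => ∫ z', φ z' * ker 2 z' δ T with hΦ
  have hΦm : Measurable Φ := by
    refine StronglyMeasurable.measurable ?_
    refine StronglyMeasurable.integral_prod_left' (f := fun q : Euc m × Euc m =>
      φ q.1 * ker 2 q.1 δ q.2) ?_
    exact ((hφ.continuous.comp continuous_fst).mul (cont_ker_joint δ)).stronglyMeasurable
  have hΦb : ∀ T, |cb m δ * φ T - Φ T| ≤ δ * cb m δ := fun T => avg_pt hδ hφ hsupp hb T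
  have hΦb2 : ∀ T, |Φ T| ≤ cb m δ + δ * cb m δ := by
    intro T
    have h1 := hΦb T
    have h2 : |cb m δ * φ T| ≤ cb m δ := by
      rw [abs_mul, abs_of_pos hcb]
      nlinarith [hb T]
    have h3 : Φ T = cb m δ * φ T - (cb m δ * φ T - Φ T) := by ring
    rw [h3]
    exact (abs_sub _ _).trans (add_le_add h2 h1)
  have hi1 : Integrable (fun p => c p * Φ (T p)) μ := by
    refine Integrable.of_bound (hc.mul (hΦm.comp hT)).aestronglyMeasurable
      (cb m δ + δ * cb m δ) ?_
    refine Eventually.of_forall fun p => ?_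
    rw [norm_mul, Real.norm_eq_abs, Real.norm_eq_abs, abs_of_nonneg (hc0 _)]
    calc c p * |Φ (T p)| ≤ 1 * (cb m δ + δ * cb m δ) :=
          mul_le_mul (hc1 _) (hΦb2 _) (abs_nonneg _) zero_le_one
      _ = _ := one_mul _
  have hi2 : Integrable (fun p => c p * φ (T p)) μ := by
    refine Integrable.of_bound (hc.mul (hφ.continuous.measurable.comp hT)).aestronglyMeasurable 1 ?_
    refine Eventually.of_forall fun p => ?_
    rw [norm_mul, Real.norm_eq_abs, Real.norm_eq_abs, abs_of_nonneg (hc0 _)]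
    exact mul_le_one₀ (hc1 _) (abs_nonneg _) (hb _)
  have h0 : ag μ c T φ = ∫ p, c p * φ (T p) ∂μ := rfl
  rw [h0, ← integral_const_mul, ← integral_sub (hi2.const_mul _) hi1]
  have h2 : ∀ p, ‖cb m δ * (c p * φ (T p)) - c p * Φ (T p)‖ ≤ δ * cb m δ := by
    intro p
    have h3 : cb m δ * (c p * φ (T p)) - c p * Φ (T p) =
      c p * (cb m δ * φ (T p) - Φ (T p)) := by ring
    rw [h3, norm_mul, Real.norm_eq_abs, Real.norm_eq_abs, abs_of_nonneg (hc0 _)]
    calc c p * |cb m δ * φ (T p) - Φ (T p)| ≤ 1 * (δ * cb m δ) :=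
          mul_le_mul (hc1 _) (hΦb _) (abs_nonneg _) zero_le_one
      _ = _ := one_mul _
  have h4 := norm_integral_le_of_norm_le_const (μ := μ) (Eventually.of_forall h2)
  rwa [Real.norm_eq_abs] at h4

theorem avg2 (hT : Measurable T) (hc : Measurable c) {δ e : ℝ}
    (he : ∀ z' : Euc m, ‖z'‖ ≤ 2 → |ag μ c T (ker 2 z' δ) - ag μ c T (ker 2 0 δ)| ≤ e)
    (hφ : LipschitzWith 1 φ) (hsupp : ∀ z, φ z ≠ 0 → ‖z‖ ≤ 2) (hb : ∀ z, |φ z| ≤ 1) :
    |(∫ z', φ z' * ag μ c T (ker 2 z' δ)) - (∫ z, φ z) * ag μ c T (ker 2 0 δ)| ≤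
      e * (ome m * 2 ^ m) := by
  have he0 : 0 ≤ e := (abs_nonneg _).trans (he 0 (by simp))
  have hφi := phi_integrable hφ hsupp
  have hmeas : Measurable (fun z' : Euc m => ag μ c T (ker 2 z' δ)) := by
    refine StronglyMeasurable.measurable ?_
    unfold ag
    exact StronglyMeasurable.integral_prod_right' (f := fun q : Euc m × Ω =>
      c q.2 * ker 2 q.1 δ (T q.2)) (meas_joint hT hc δ).stronglyMeasurable
  generalize hA : ag μ c T (ker 2 0 δ) = A at he ⊢
  generalize hF : (fun z' : Euc m => ag μ c T (ker 2 z' δ)) = F at hmeas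
  have hF' : ∀ z', ag μ c T (ker 2 z' δ) = F z' := fun z' => congrFun hF z'
  simp only [hF'] at he ⊢
  have h5 : Integrable fun z' => φ z' * (F z' - A) := by
    refine Integrable.mono' (hφi.abs.mul_const e)
      (hφi.aestronglyMeasurable.mul (hmeas.sub measurable_const).aestronglyMeasurable) ?_
    refine Eventually.of_forall fun z => ?_
    rw [norm_mul, Real.norm_eq_abs, Real.norm_eq_abs]
    by_cases hz : φ z = 0
    · rw [hz]; simp
    · exact mul_le_mul_of_nonneg_left (he z (hsupp z hz)) (abs_nonneg _)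
  have h6 : (∫ z', φ z' * F z') - (∫ z, φ z) * A = ∫ z', φ z' * (F z' - A) := by
    have h7 : ∀ z', φ z' * F z' = φ z' * (F z' - A) + φ z' * A := fun z' => by ring
    rw [integral_congr_ae (Eventually.of_forall h7), integral_add h5 (hφi.mul_const _),
      integral_mul_const]
    ring
  rw [h6]
  calc |∫ z', φ z' * (F z' - A)|
      ≤ ∫ z', |φ z' * (F z' - A)| := abs_integral_le_integral_abs
    _ ≤ ∫ z', |φ z'| * e := by
        refine integral_mono h5.abs (hφi.abs.mul_const e) ?_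
        intro z
        change |φ z * (F z - A)| ≤ |φ z| * e
        rw [abs_mul]
        by_cases hz : φ z = 0
        · rw [hz]; simp
        · exact mul_le_mul_of_nonneg_left (he z (hsupp z hz)) (abs_nonneg _)
    _ = (∫ z', |φ z'|) * e := integral_mul_const _ _
    _ ≤ (ome m * 2 ^ m) * e := by
        gcongr
        exact phi_abs_int hφ hb hsupp
    _ = _ := by ring

/-- comparison of the functional with a multiple of the Lebesgue integral. -/
theorem avg (hT : Measurable T) (hc : Measurable c) (hc0 : ∀ p, 0 ≤ c p) (hc1 : ∀ p, c p ≤ 1)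
    {δ e : ℝ} (hδ : 0 < δ)
    (he : ∀ z' : Euc m, ‖z'‖ ≤ 2 → |ag μ c T (ker 2 z' δ) - ag μ c T (ker 2 0 δ)| ≤ e)
    (hφ : LipschitzWith 1 φ) (hsupp : ∀ z, φ z ≠ 0 → ‖z‖ ≤ 2) (hb : ∀ z, |φ z| ≤ 1) :
    |cb m δ * ag μ c T φ - (∫ z, φ z) * ag μ c T (ker 2 0 δ)| ≤
      δ * cb m δ * μ.real univ + e * (ome m * 2 ^ m) := by
  have h1 := avg1 (μ := μ) hT hc hc0 hc1 hδ hφ hsupp hb
  have h2 := avg2 hT hc he hφ hsupp hb
  have h3 : cb m δ * ag μ c T φ - (∫ z, φ z) * ag μ c T (ker 2 0 δ) =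
      (cb m δ * ag μ c T φ - ∫ z', φ z' * ag μ c T (ker 2 z' δ)) +
      ((∫ z', φ z' * ag μ c T (ker 2 z' δ)) - (∫ z, φ z) * ag μ c T (ker 2 0 δ)) := by ring
  rw [h3]
  exact (abs_add_le _ _).trans (add_le_add h1 h2)

end abs

theorem aa_eq (V : Measure (Euc k × L k)) (x : Euc k) (r : ℝ) (f : Euc m → ℝ) :
    aa V π x r f = ag (V.restrict (ball x (4 * r) ×ˢ (univ : Set (L k))))
      (fun p => chi π x r p.1) (fun p => tt π x r p.1) f := rfl

end Crest.Agent.R234.QLeb_433
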