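import Crest.Agent.R234.Grot8_842
import Crest.Agent.R234.Gi1_456
import Crest.Agent.R234.F11a_435

/-!
# Row 234, node QP-CH (helper534), part 1: global extension of a reference graph, the graph function
at a `Q`-point

* `exists_ext` : global smooth extension with small derivatives.
* `wz` : the graph function of `M_z = M + c(z)` at the base point `zh`, ambient scale; `Gr r wz`.
-/

set_option autoImplicit false
set_option linter.unusedVariables false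

open MeasureTheory Filter Topology Set Metric
open scoped ENNReal NNReal ContDiff InnerProductSpace
open Crest.GeometryTopology.Submanifold Crest.Agent.R234.Vf_884
open Crest.Agent.R234.Main_456 Crest.Agent.R234.F11_435

noncomputable section

namespace Crest.Agent.R234.Qp_534

variable {m n k : ℕ}

/-- **global extension** of a graph function which is small on `ball 0 32`. -/
theorem exists_ext (m n K : ℕ) : ∃ C : ℝ, 1 ≤ C ∧ ∀ (u : Euc m → Euc n) (κ : ℝ), 0 ≤ κ →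
    ContDiffOn ℝ ∞ u (ball 0 32) →
    (∀ j ≤ K, ∀ y ∈ ball (0 : Euc m) 32, ‖iteratedFDeriv ℝ j u y‖ ≤ κ) →
    ∃ U : Euc m → Euc n, ContDiff ℝ ∞ U ∧ HasCompactSupport U ∧ (∀ y, ‖y‖ ≤ 28 → U y = u y) ∧
      ∀ j ≤ K, ∀ y, ‖iteratedFDeriv ℝ j U y‖ ≤ C * κ := by
  obtain ⟨χ, hχ, hχ1, hχs, hχ0, hχle, hχc, hχb⟩ :=
    Grot_842.exists_cut (Euc m) (7 / 8) (by norm_num) (by norm_num)
  obtain ⟨C1, hC1, hb1⟩ := hχb K
  have hC2 : (1:ℝ) ≤ 2 ^ K * C1 * 32 ^ K := by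
    have h2 : (1:ℝ) ≤ 2 ^ K := one_le_pow₀ (by norm_num)
    have h3 : (1:ℝ) ≤ 32 ^ K := one_le_pow₀ (by norm_num)
    calc (1:ℝ) = 1 * 1 * 1 := by norm_num
      _ ≤ _ := by gcongr
  refine ⟨2 ^ K * C1 * 32 ^ K, hC2, ?_⟩
  intro u κ hκ hu hb
  set v : Euc m → Euc n := fun y => u ((32 : ℝ) • y) with hvdef
  have hm : ∀ y ∈ ball (0 : Euc m) 1, (32 : ℝ) • y ∈ ball (0 : Euc m) 32 := by
    intro y hy
    rw [mem_ball_zero_iff] at hy ⊢
    rw [norm_smul, Real.norm_of_nonneg (by norm_num)]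
    linarith
  have hv : ContDiffOn ℝ ∞ v (ball 0 1) :=
    ContDiffOn.comp hu (contDiff_const_smul (32:ℝ)).contDiffOn hm
  have hvb : ∀ j ≤ K, ∀ y ∈ ball (0 : Euc m) 1, ‖iteratedFDeriv ℝ j v y‖ ≤ 32 ^ K * κ := by
    intro j hj y hy
    have h1 := Grot_842.iter_comp_smul (32:ℝ) isOpen_ball hu j (hm y hy)
    refine h1.trans ?_
    have h2 := hb j hj _ (hm y hy)
    have h3 : |(32:ℝ)| ^ j ≤ 32 ^ K := by
      rw [abs_of_pos (by norm_num)]
      exact pow_le_pow_right₀ (by norm_num) hj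
    calc ‖iteratedFDeriv ℝ j u ((32:ℝ) • y)‖ * |(32:ℝ)| ^ j ≤ κ * 32 ^ K := by gcongr
      _ = _ := by ring
  set V : Euc m → Euc n := fun y => χ y • v y with hVdef
  have hV : ContDiff ℝ ∞ V := Grot_842.cut_smooth hχ hχs hv
  have hVb := Grot_842.cut_bound hχ hχs hC1 hb1 (by positivity : (0:ℝ) ≤ 32 ^ K * κ) hv hvb
  refine ⟨fun y => V ((32 : ℝ)⁻¹ • y), hV.comp (contDiff_const_smul _), ?_, ?_, ?_⟩
  · have h1 : HasCompactSupport V := hχc.smul_right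
    exact h1.comp_homeomorph (Homeomorph.smulOfNeZero ((32:ℝ)⁻¹) (by norm_num))
  · intro y hy
    have h1 : (32 : ℝ)⁻¹ • y ∈ closedBall (0 : Euc m) (7 / 8) := by
      rw [mem_closedBall_zero_iff, norm_smul, Real.norm_of_nonneg (by norm_num)]
      linarith
    simp only [hVdef, hvdef]
    rw [hχ1 _ h1, one_smul, smul_smul]
    norm_num
  · intro j hj y
    have h1 := Grot_842.iter_comp_smul ((32:ℝ)⁻¹) isOpen_univ hV.contDiffOn j (x := y) (mem_univ _)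
    refine h1.trans ?_
    have h2 := hVb j hj ((32:ℝ)⁻¹ • y)
    have h3 : |(32:ℝ)⁻¹| ^ j ≤ 1 := pow_le_one₀ (abs_nonneg _) (by rw [abs_of_pos] <;> norm_num)
    calc ‖iteratedFDeriv ℝ j V ((32:ℝ)⁻¹ • y)‖ * |(32:ℝ)⁻¹| ^ j ≤
        (2 ^ K * C1 * (32 ^ K * κ)) * 1 := by gcongr
      _ = _ := by ring

/-! ### the graph function at a centre -/

/-- the graph function of `M + c(z)` at the base point `z`, ambient scale. -/
def wz (π : Euc k →L[ℝ] Euc m) (x z : Euc k) (r : ℝ) (W : Euc m → Euc n) (ξ : Euc m) : Euc n :=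
  r • uz π x z r W (r⁻¹ • ξ)

section

variable {π : Euc k →L[ℝ] Euc m} {ρ : Euc k →L[ℝ] Euc n} {x z : Euc k} {r : ℝ} {W : Euc m → Euc n}

theorem wz_zero : wz π x z r W 0 = 0 := by simp [wz, uz_zero]

/-- the height over `M_z`. -/
theorem hgt_wz (hr : r ≠ 0) (p : Euc k) :
    ρ (p - z) - wz π x z r W (π (p - z)) = hgt π ρ x r W p - hgt π ρ x r W z := by
  rw [← hgt_uz]
  rfl

theorem contDiff_wz (hW : ContDiff ℝ ∞ W) : ContDiff ℝ ∞ (wz π x z r W) :=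
  ((contDiff_uz hW).comp (contDiff_const_smul _)).const_smul r

theorem iter_wz (hr : 0 < r) (hW : ContDiff ℝ ∞ W) {j : ℕ} (hj : 1 ≤ j) (ξ : Euc m) :
    ‖iteratedFDeriv ℝ j (wz π x z r W) ξ‖ ≤
      r * (‖iteratedFDeriv ℝ j W (r⁻¹ • ξ + r⁻¹ • π (z - x))‖ * r⁻¹ ^ j) := by
  have h0 : wz π x z r W = fun ξ => r • (fun ξ => uz π x z r W (r⁻¹ • ξ)) ξ := rfl
  have hc : ContDiff ℝ ∞ (fun ξ => uz π x z r W (r⁻¹ • ξ)) :=
    (contDiff_uz hW).comp (contDiff_const_smul _)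
  rw [h0, iteratedFDeriv_const_smul_apply' (hc.contDiffAt.of_le (by exact_mod_cast le_top)),
    norm_smul, Real.norm_of_nonneg hr.le]
  have h1 := Grot_842.iter_comp_smul (r⁻¹) isOpen_univ
    (contDiff_uz (π := π) (x := x) (z := z) (r := r) hW).contDiffOn j (x := ξ) (mem_univ _)
  rw [iter_uz hW hj, abs_of_pos (inv_pos.2 hr)] at h1
  gcongr

theorem fderiv_wz (hr : r ≠ 0) (hW : ContDiff ℝ ∞ W) (ξ : Euc m) :
    fderiv ℝ (wz π x z r W) ξ = fderiv ℝ W (r⁻¹ • (ξ + π (z - x))) := by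
  have h0 : wz π x z r W = Grot_842.sc r⁻¹ (uz π x z r W) := by
    funext ξ
    simp [wz, Grot_842.sc]
  rw [h0, Grot_842.fderiv_sc (inv_ne_zero hr), fderiv_uz hW, smul_add]

theorem Msys_wz (hr : r ≠ 0) (hW : ContDiff ℝ ∞ W) (ξ : Euc m) :
    Msys (wz π x z r W) ξ = r⁻¹ • Msys W (r⁻¹ • (ξ + π (z - x))) := by
  have h0 : wz π x z r W = Grot_842.sc r⁻¹ (uz π x z r W) := by
    funext ξ
    simp [wz, Grot_842.sc]
  rw [h0, Grot_842.Msys_sc (inv_ne_zero hr), Msys_uz hW, smul_add]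

/-- `W` is a small global extension of `u`. -/
structure Ext (u W : Euc m → Euc n) (K : ℕ) (κ : ℝ) : Prop where
  cd : ContDiff ℝ ∞ W
  eq : ∀ y, ‖y‖ ≤ 28 → W y = u y
  bd : ∀ j ≤ K, ∀ y, ‖iteratedFDeriv ℝ j W y‖ ≤ κ

namespace Ext

variable {u : Euc m → Euc n} {K : ℕ} {κ : ℝ}

theorem k0 (h : Ext u W K κ) : 0 ≤ κ := (norm_nonneg _).trans (h.bd 0 (Nat.zero_le _) 0)

theorem ev (h : Ext u W K κ) {y : Euc m} (hy : ‖y‖ < 28) : W =ᶠ[𝓝 y] u := by
  filter_upwards [(isOpen_lt continuous_norm continuous_const).mem_nhds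
    (show y ∈ {y : Euc m | ‖y‖ < 28} from hy)] with y' hy'
  exact h.eq y' (le_of_lt hy')

theorem fderiv_eq (h : Ext u W K κ) {y : Euc m} (hy : ‖y‖ < 28) : fderiv ℝ W y = fderiv ℝ u y :=
  (h.ev hy).fderiv_eq

theorem Msys_eq (h : Ext u W K κ) {y : Euc m} (hy : ‖y‖ < 28) : Msys W y = Msys u y := by
  unfold Msys
  rw [h.fderiv_eq hy, ((h.ev hy).fderiv (𝕜 := ℝ)).fderiv_eq]

/-- derivatives of the graph function at the centre. -/
theorem iter (h : Ext u W K κ) (hr : 0 < r) {j : ℕ} (hj : 1 ≤ j) (hjK : j ≤ K) (ξ : Euc m) :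
    ‖iteratedFDeriv ℝ j (wz π x z r W) ξ‖ ≤ κ * r * r⁻¹ ^ j := by
  refine (iter_wz hr h.cd hj ξ).trans ?_
  have := h.bd j hjK (r⁻¹ • ξ + r⁻¹ • π (z - x))
  calc r * (‖iteratedFDeriv ℝ j W (r⁻¹ • ξ + r⁻¹ • π (z - x))‖ * r⁻¹ ^ j) ≤ r * (κ * r⁻¹ ^ j) := by
        gcongr
    _ = _ := by ring

theorem d1 (h : Ext u W K κ) (hr : 0 < r) (hK : 1 ≤ K) (ξ : Euc m) :
    ‖fderiv ℝ (wz π x z r W) ξ‖ ≤ κ := by
  have h1 := h.iter (π := π) (x := x) (z := z) hr le_rfl hK ξ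
  rw [norm_iteratedFDeriv_one] at h1
  refine h1.trans (le_of_eq ?_)
  field_simp

theorem d2 (h : Ext u W K κ) (hr : 0 < r) (hK : 2 ≤ K) (ξ : Euc m) :
    ‖fderiv ℝ (fderiv ℝ (wz π x z r W)) ξ‖ ≤ κ / r := by
  have h1 := h.iter (π := π) (x := x) (z := z) hr one_le_two hK ξ
  rw [← norm_iteratedFDeriv_one, norm_iteratedFDeriv_fderiv]
  refine h1.trans (le_of_eq ?_)
  field_simp

theorem d3 (h : Ext u W K κ) (hr : 0 < r) (hK : 3 ≤ K) (ξ : Euc m) :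
    ‖iteratedFDeriv ℝ 3 (wz π x z r W) ξ‖ ≤ κ / r ^ 2 := by
  have h1 := h.iter (π := π) (x := x) (z := z) hr (by norm_num : 1 ≤ 3) hK ξ
  refine h1.trans (le_of_eq ?_)
  field_simp

/-- the class of 456. -/
theorem gr (h : Ext u W K κ) (hr : 0 < r) (hK : 2 ≤ K) (hκ : κ ≤ 1 / 8) :
    Gi_456.Gr r (wz π x z r W) where
  pos := hr
  cd := contDiff_infty.1 (contDiff_wz h.cd) 4
  d1 := fun X => (h.d1 hr (by omega) X).trans hκ
  d2 := fun X => (h.d2 hr hK X).trans (by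
    rw [div_le_div_iff₀ hr (by positivity)]
    nlinarith)

end Ext

end

end Crest.Agent.R234.Qp_534
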