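import Crest.Agent.R234.Qp2_534
import Crest.Agent.R234.GLK6_128
import Crest.Agent.R234.GL7_394
import Crest.Agent.R234.Fd1_534

/-!
# Row 234, node QP-CH (helper534), part 3: 128's hypotheses `Hy` at a `Q`-point, the frequency
functions at a `Q`-point, monotonicity in the scale.
-/

set_option autoImplicit false
set_option linter.unusedVariables false
set_option linter.unusedSectionVars false
set_option maxSynthPendingDepth 3

open MeasureTheory Filter Topology Set Metric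
open scoped ENNReal NNReal ContDiff InnerProductSpace
open Crest.GeometryTopology.Submanifold Crest.Agent.R234.Vf_884
open Crest.Agent.R234.Main_456 Crest.Agent.R234.F11_435
open Crest.Agent.R234.Gi_456

noncomputable section

namespace Crest.Agent.R234.Qp_534

variable {m n k : ℕ}

variable {U : Set (Euc k)} {V : Measure (Euc k × L k)} {Q K : ℕ} {x : Euc k} {r : ℝ}
  {π : Euc k →L[ℝ] Euc m} {ρ : Euc k →L[ℝ] Euc n} {u : Euc m → Euc n} {ε C : ℝ}
  {W : Euc m → Euc n} {κ : ℝ} {zh : Euc k}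

theorem Ext.d3' {z : Euc k} (h : Ext u W K κ) (hr : 0 < r) (hK : 3 ≤ K) (ξ : Euc m) :
    ‖fderiv ℝ (fderiv ℝ (fderiv ℝ (wz π x z r W))) ξ‖ ≤ κ / r ^ 2 := by
  have h1 := h.d3 (π := π) (x := x) (z := z) hr hK ξ
  rw [← norm_iteratedFDeriv_one, norm_iteratedFDeriv_fderiv, norm_iteratedFDeriv_fderiv]
  exact h1

namespace Qx

variable (h : Qx U V Q K x r π ρ u ε C W κ zh)

include h

/-- minimality of the graph function of the centre -/
theorem msys {X : Euc m} (hX : ‖X‖ < 20 * r) : Msys (wz π x zh r W) X = 0 := by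
  have hr := h.hr
  rw [Msys_wz hr.ne' h.ext.cd]
  have h1 : ‖r⁻¹ • (X + π (zh - x))‖ < 28 := by
    rw [norm_smul, norm_inv, Real.norm_of_nonneg hr.le, inv_mul_lt_iff₀ hr]
    have := norm_add_le X (π (zh - x))
    have := h.norm_pi_z
    linarith
  rw [h.ext.Msys_eq h1, h.cx.ref.minimal _ (by
    rw [mem_ball_zero_iff]; linarith), smul_zero]

theorem msys_ev {X : Euc m} (hX : ‖X‖ < 20 * r) : ∀ᶠ X' in 𝓝 X, Msys (wz π x zh r W) X' = 0 := by
  filter_upwards [(isOpen_lt continuous_norm continuous_const).mem_nhds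
    (show X ∈ {y : Euc m | ‖y‖ < 20 * r} from hX)] with y hy
  exact h.msys hy

/-- **128's hypotheses** at the scale `e^l ≤ 4 r`. -/
theorem hy {l hb : ℝ} {S : Set (Euc k)} (hl : Real.exp l ≤ 4 * r) (hS : S ⊆ Tz π ρ x r W zh)
    (hb0 : 0 ≤ hb) (hb1 : hb ≤ 1)
    (hnu : ∀ z ∈ S, ‖(cz π ρ x r W zh).x z‖ ≤ Real.exp l →
      ‖(cz π ρ x r W zh).nu z‖ ≤ hb * Real.exp l) :
    GLK_128.Hy π ρ zh r (wz π x zh r W) 0 S l κ (κ / r) (κ / r ^ 2) hb where
  gr := h.gr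
  fr := h.hf
  sub := hS
  k1 := fun X _ => h.ext.d1 h.hr (by have := h.hK; omega) X
  k2 := fun X _ => h.ext.d2 h.hr (by have := h.hK; omega) X
  k3 := fun X _ => h.ext.d3' h.hr h.hK X
  k1le := h.κ8.trans (by norm_num)
  k2s := by
    have hr := h.hr
    have h1 := h.κ8
    have h2 := h.k0
    calc κ / r * Real.exp l ≤ κ / r * (4 * r) := by gcongr
      _ = 4 * κ := by field_simp
      _ ≤ 1 / 2 := by linarith
  hb0 := hb0
  hb1 := hb1
  min := fun X hX => h.msys_ev (by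
    rw [sub_zero] at hX
    have := h.hr
    linarith)
  nu := hnu

/-- on `Kz` the relative height at the scale `e^l` is at most `4 h₀ r e^{-l}`. -/
theorem nu_le_scale {l lo : ℝ} (hlo : lo ≤ l) {z : Euc k} (hz : z ∈ Kz π ρ x r W zh (h0 m Q ε)) :
    ‖(cz π ρ x r W zh).nu z‖ ≤ (4 * h0 m Q ε * r * Real.exp (-lo)) * Real.exp l := by
  have h1 := h.nu_le_Kz hz
  have h2 : 0 ≤ 4 * h0 m Q ε * r := by
    have := h0_nonneg m Q ε
    have := h.hr
    positivity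
  have h3 : 1 ≤ Real.exp (-lo) * Real.exp l := by
    rw [← Real.exp_add]
    exact Real.one_le_exp (by linarith)
  calc ‖(cz π ρ x r W zh).nu z‖ ≤ (4 * h0 m Q ε * r) * 1 := by linarith
    _ ≤ (4 * h0 m Q ε * r) * (Real.exp (-lo) * Real.exp l) := by gcongr
    _ = _ := by ring

/-- **128's hypotheses on `Kz`** at all scales `e^lo ≤ e^l ≤ 4 r`. -/
theorem hyK {l lo : ℝ} (hlo : lo ≤ l) (hl : Real.exp l ≤ 4 * r)
    (hs : 4 * h0 m Q ε * r * Real.exp (-lo) ≤ 1) :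
    GLK_128.Hy π ρ zh r (wz π x zh r W) 0 (Kz π ρ x r W zh (h0 m Q ε)) l κ (κ / r) (κ / r ^ 2)
      (4 * h0 m Q ε * r * Real.exp (-lo)) := by
  refine h.hy hl (fun p hp => (h.Kz_spec h.hs hp).1) ?_ hs fun z hz _ => h.nu_le_scale hlo hz
  have := h0_nonneg m Q ε
  have := h.hr
  positivity

theorem tau_nonneg {p : Euc k × L k} (hp : p ∈ Kz π ρ x r W zh (h0 m Q ε) ×ˢ G m k) :
    0 ≤ (cz π ρ x r W zh).tau p.1 p.2 := by
  have H := h.gr.inv (foot π ρ zh r (wz π x zh r W) p.1) (Y := yy π ρ zh r (wz π x zh r W) p.1)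
    (h.gr.norm_yy_lt (h.Kz_spec h.hs hp.1).1).le
  exact GLK_128.tau0_nonneg (frame_fr h.hf) H (GLK_128.pj_of_mem hp.2)

end Qx

/-! ### the frequency functions at a `Q`-point -/

open Crest.Agent.R234.GI_640 (g3 g31 g32)

/-- the part of `V` over `Kz` -/
def Vz (V : Measure (Euc k × L k)) (π : Euc k →L[ℝ] Euc m) (ρ : Euc k →L[ℝ] Euc n) (x : Euc k)
    (r : ℝ) (W : Euc m → Euc n) (zh : Euc k) (t : ℝ) : Measure (Euc k × L k) :=
  GL_394.VK V (Kz π ρ x r W zh t)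

def Iz (V : Measure (Euc k × L k)) (π : Euc k →L[ℝ] Euc m) (ρ : Euc k →L[ℝ] Euc n) (x : Euc k)
    (r : ℝ) (W : Euc m → Euc n) (zh : Euc k) (t : ℝ) : ℝ → ℝ :=
  GL_394.II (cz π ρ x r W zh) (Vz V π ρ x r W zh t) g31

def Ez (V : Measure (Euc k × L k)) (π : Euc k →L[ℝ] Euc m) (ρ : Euc k →L[ℝ] Euc n) (x : Euc k)
    (r : ℝ) (W : Euc m → Euc n) (zh : Euc k) (t : ℝ) (Q : ℕ) : ℝ → ℝ :=
  GL_394.EE (cz π ρ x r W zh) (Vz V π ρ x r W zh t) g3 Q

def ez (V : Measure (Euc k × L k)) (π : Euc k →L[ℝ] Euc m) (ρ : Euc k →L[ℝ] Euc n) (x : Euc k)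
    (r : ℝ) (W : Euc m → Euc n) (zh : Euc k) (t : ℝ) : ℝ → ℝ :=
  GL_394.ee (cz π ρ x r W zh) (Vz V π ρ x r W zh t) g3

def bz (V : Measure (Euc k × L k)) (π : Euc k →L[ℝ] Euc m) (ρ : Euc k →L[ℝ] Euc n) (x : Euc k)
    (r : ℝ) (W : Euc m → Euc n) (zh : Euc k) (t : ℝ) (Q : ℕ) : ℝ → ℝ :=
  GL_394.bb (cz π ρ x r W zh) (Vz V π ρ x r W zh t) g3 Q

/-- radial energy of 394's output, with the constants `c0, d0` of `KB` -/
def Rz (V : Measure (Euc k × L k)) (π : Euc k →L[ℝ] Euc m) (ρ : Euc k →L[ℝ] Euc n) (x : Euc k)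
    (r : ℝ) (W : Euc m → Euc n) (zh : Euc k) (t c0 d0 : ℝ) : ℝ → ℝ :=
  GL_394.RF (cz π ρ x r W zh) (Vz V π ρ x r W zh t) g31 6 c0 d0

namespace Qx

variable (h : Qx U V Q K x r π ρ u ε C W κ zh)

include h

theorem on : GL_394.On (Vz V π ρ x r W zh (h0 m Q ε)) m (Kz π ρ x r W zh (h0 m Q ε)) :=
  (h.loc (L := Real.log r) (by
    rw [Real.exp_log h.hr]
    have := h.hr
    linarith)).toOn

theorem ez_nonneg (l : ℝ) : 0 ≤ ez V π ρ x r W zh (h0 m Q ε) l :=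
  Fd_534.ee_nonneg h.on GL_394.pf_cubic.pr (fun p hp => h.tau_nonneg hp) l

theorem Iz_nonneg (l : ℝ) : 0 ≤ Iz V π ρ x r W zh (h0 m Q ε) l :=
  GL_394.II_nonneg h.ok h.on GL_394.pf_cubic.pr.anti l

theorem ez_mono {l l' : ℝ} (hl : l ≤ l') : ez V π ρ x r W zh (h0 m Q ε) l ≤
    Real.exp (m * (l' - l)) * ez V π ρ x r W zh (h0 m Q ε) l' := by
  refine (Fd_534.ee_mono h.ok h.on GL_394.pf_cubic.pr (fun p hp => h.tau_nonneg hp) hl).trans ?_
  have h1 := h.ez_nonneg l'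
  refine mul_le_mul_of_nonneg_right (Real.exp_le_exp.2 ?_) h1
  exact mul_le_mul_of_nonneg_right (by linarith) (by linarith)

theorem Iz_mono {l l' : ℝ} (hl : l ≤ l') : Iz V π ρ x r W zh (h0 m Q ε) l ≤
    Real.exp (m * (l' - l)) * Iz V π ρ x r W zh (h0 m Q ε) l' :=
  Fd_534.II_mono h.ok h.on GL_394.pf_cubic.pr (fun t ht => by
    unfold g32
    positivity) hl

end Qx

end Crest.Agent.R234.Qp_534
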