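import Crest.Agent.R234.Qp5_534
import Crest.Agent.R234.LowF14_471
import Crest.Agent.R234.QLeb4_433

/-!
# Row 234, node QP-CH (helper534), part 6: the total variation input at a `Q`-point
-/

set_option autoImplicit false
set_option linter.unusedVariables false
set_option linter.unusedSectionVars false

open MeasureTheory Filter Topology Set Metric
open scoped ENNReal NNReal ContDiff InnerProductSpace
open Crest.GeometryTopology.Submanifold Crest.Agent.R234.Vf_884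
open Crest.Agent.R234.Main_456 Crest.Agent.R234.F11_435
open Crest.Agent.R234.Gi_456
open Crest.Agent.R234.AS_456 (hp vp)
open Crest.Agent.R234.GI_640 (g3 g31 g32)
open Crest.Agent.R234.GL_394 (Ch Ok On VK Pf pf_cubic KB TV)
open Crest.Agent.R234.LowF14_471 (Wt)

noncomputable section

namespace Crest.Agent.R234.Qp_534

variable {m n k : ℕ}

/-! ### change of the constants in 394's `TV` -/

section tv
variable {c : Ch m k} {K : Set (Euc k)} {D : Set (Euc m)} {V : Measure (Euc k × L k)}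

theorem f_nonneg (h : Ok c K D) {z : Euc k} (hz : z ∈ K) : 0 ≤ c.f z := by
  have := h.nusq z hz
  have := sq_nonneg ‖c.nu z‖
  linarith

theorem tv_mono (h : Ok c K D) (hV : On V m K)
    (htau : ∀ p ∈ K ×ˢ G m k, 0 ≤ c.tau p.1 p.2) {Q ρ C1 Ca kq sig : ℝ} {e2 : Measure (Euc m)}
    (hCa : 1 ≤ Ca) (hC1 : 0 ≤ C1) (hkq : 0 ≤ kq) (hT : TV c V Q ρ C1 (Ca * kq) sig e2) :
    TV c V Q ρ (C1 * Ca) kq sig e2 where
  fin := hT.fin
  i := hT.i
  iii := by
    intro F Lf hF hL hF0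
    refine (hT.iii F Lf hF hL hF0).trans ?_
    have cF : ContinuousOn (fun p : Euc k × L k => F (c.x p.1)) (K ×ˢ G m k) := by
      refine hL.continuous.comp_continuousOn ?_
      intro p hp
      exact ((h.hx p.1 hp.1).continuousAt.comp continuousAt_fst).continuousWithinAt
    have cf : ContinuousOn (fun p : Euc k × L k => c.f p.1) (K ×ˢ G m k) := by
      intro p hp
      exact ((h.hf p.1 hp.1).continuousAt.comp continuousAt_fst).continuousWithinAt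
    have hi : ∀ a : ℝ, Integrable (fun p : Euc k × L k =>
        F (c.x p.1) * (c.tau p.1 p.2 + a * (2 * c.f p.1))) V := fun a =>
      hV.integrable h.cpt (cF.mul (h.ctau.add (continuousOn_const.mul
        (continuousOn_const.mul cf))))
    have h1 : ∫ p, F (c.x p.1) * (c.tau p.1 p.2 + Ca * kq * (2 * c.f p.1)) ∂V ≤
        Ca * ∫ p, F (c.x p.1) * (c.tau p.1 p.2 + kq * (2 * c.f p.1)) ∂V := by
      rw [← integral_const_mul]
      refine integral_mono_ae (hi _) ((hi _).const_mul _) ?_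
      filter_upwards [hV.mem] with p hp
      have h2 := hF (c.x p.1)
      have h3 := htau p hp
      have h4 := f_nonneg h hp.1
      have h5 : c.tau p.1 p.2 ≤ Ca * c.tau p.1 p.2 := le_mul_of_one_le_left h3 hCa
      calc F (c.x p.1) * (c.tau p.1 p.2 + Ca * kq * (2 * c.f p.1)) ≤
            F (c.x p.1) * (Ca * c.tau p.1 p.2 + Ca * kq * (2 * c.f p.1)) := by gcongr
        _ = _ := by ring
    have h6 := mul_le_mul_of_nonneg_left h1 hC1
    have h7 : C1 * (Ca * ∫ p, F (c.x p.1) * (c.tau p.1 p.2 + kq * (2 * c.f p.1)) ∂V) =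
        C1 * Ca * ∫ p, F (c.x p.1) * (c.tau p.1 p.2 + kq * (2 * c.f p.1)) ∂V := by ring
    linarith

theorem TV.mono_C (h : Ok c K D) (hV : On V m K)
    (htau : ∀ p ∈ K ×ˢ G m k, 0 ≤ c.tau p.1 p.2) {Q ρ C1 C2 kq sig : ℝ} {e2 : Measure (Euc m)}
    (hC : C1 ≤ C2) (hkq : 0 ≤ kq) (hT : TV c V Q ρ C1 kq sig e2) :
    TV c V Q ρ C2 kq sig e2 where
  fin := hT.fin
  i := hT.i
  iii := by
    intro F Lf hF hL hF0
    refine (hT.iii F Lf hF hL hF0).trans ?_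
    have h1 : 0 ≤ ∫ p, F (c.x p.1) * (c.tau p.1 p.2 + kq * (2 * c.f p.1)) ∂V := by
      refine integral_nonneg_of_ae ?_
      filter_upwards [hV.mem] with p hp
      have h2 := hF (c.x p.1)
      have h3 := htau p hp
      have h4 := f_nonneg h hp.1
      show 0 ≤ F (c.x p.1) * (c.tau p.1 p.2 + kq * (2 * c.f p.1))
      positivity
    have h2 := mul_le_mul_of_nonneg_right hC h1
    linarith

theorem tN_int (h : Ok c K D) (hV : On V m K) (a : ℝ) :
    Integrable (fun p : Euc k × L k => c.tau p.1 p.2 + a * (2 * c.f p.1)) V := by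
  have cf : ContinuousOn (fun p : Euc k × L k => c.f p.1) (K ×ˢ G m k) := by
    intro p hp
    exact ((h.hf p.1 hp.1).continuousAt.comp continuousAt_fst).continuousWithinAt
  exact hV.integrable h.cpt (h.ctau.add (continuousOn_const.mul (continuousOn_const.mul cf)))

theorem sN_pos {cT N : ℝ} (hN : 0 ≤ N) : 0 < Ng_290.sN cT N := by
  unfold Ng_290.sN Ng_290.eN
  positivity

theorem tN_eq (c : Ch m k) (V : Measure (Euc k × L k)) (cT N κ : ℝ) :
    Ng_290.tN c V cT N κ = ((Ng_290.sN cT N)⁻¹) ^ m *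
      ∫ p in Ng_290.Sr c (Real.exp (cT - 3 / (4 * N))),
        (c.tau p.1 p.2 + κ * ((Ng_290.sN cT N) ^ 2)⁻¹ * (2 * c.f p.1)) ∂V := by
  unfold Ng_290.tN
  congr 2
  funext p
  ring

theorem tN_nonneg (h : Ok c K D) (hV : On V m K)
    (htau : ∀ p ∈ K ×ˢ G m k, 0 ≤ c.tau p.1 p.2) {cT N κ : ℝ} (hN : 0 ≤ N) (hκ : 0 ≤ κ) :
    0 ≤ Ng_290.tN c V cT N κ := by
  have hs := sN_pos (cT := cT) hN
  rw [tN_eq]
  refine mul_nonneg (by positivity) ?_
  refine integral_nonneg_of_ae ?_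
  filter_upwards [ae_restrict_of_ae hV.mem] with p hp
  have h3 := htau p hp
  have h4 := f_nonneg h hp.1
  show 0 ≤ c.tau p.1 p.2 + κ * ((Ng_290.sN cT N) ^ 2)⁻¹ * (2 * c.f p.1)
  positivity

theorem tN_mul_le (h : Ok c K D) (hV : On V m K)
    (htau : ∀ p ∈ K ×ˢ G m k, 0 ≤ c.tau p.1 p.2) {cT N κ Ca : ℝ} (hN : 0 ≤ N) (hκ : 0 ≤ κ)
    (hCa : 1 ≤ Ca) : Ng_290.tN c V cT N (Ca * κ) ≤ Ca * Ng_290.tN c V cT N κ := by
  have hs := sN_pos (cT := cT) hN
  rw [tN_eq, tN_eq, mul_left_comm Ca]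
  refine mul_le_mul_of_nonneg_left ?_ (pow_nonneg (inv_nonneg.2 hs.le) m)
  rw [← integral_const_mul]
  refine integral_mono_ae (tN_int h hV _).integrableOn ((tN_int h hV _).integrableOn.const_mul _) ?_
  filter_upwards [ae_restrict_of_ae hV.mem] with p hp
  have h3 := htau p hp
  have h4 := f_nonneg h hp.1
  have h5 : c.tau p.1 p.2 ≤ Ca * c.tau p.1 p.2 := le_mul_of_one_le_left h3 hCa
  calc c.tau p.1 p.2 + Ca * κ * ((Ng_290.sN cT N) ^ 2)⁻¹ * (2 * c.f p.1) ≤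
        Ca * c.tau p.1 p.2 + Ca * κ * ((Ng_290.sN cT N) ^ 2)⁻¹ * (2 * c.f p.1) := by gcongr
    _ = _ := by ring

/-- the `sig` bound -/
theorem sig_le {m : ℕ} (hm : 1 ≤ m) {Ca t t' : ℝ} (hCa : 1 ≤ Ca) (ht' : 0 ≤ t')
    (htt : t' ≤ Ca * t) : t' * t' ^ (1 / (m : ℝ)) ≤ Ca ^ 2 * (t * t ^ (1 / (m : ℝ))) := by
  have hm0 : (1:ℝ) ≤ m := by exact_mod_cast hm
  have hCa0 : 0 < Ca := by linarith
  have ht : 0 ≤ t := by
    by_contra hcon
    push Not at hcon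
    have := mul_neg_of_pos_of_neg hCa0 hcon
    linarith
  have h1 : t' ^ (1 / (m : ℝ)) ≤ Ca * t ^ (1 / (m : ℝ)) := by
    calc t' ^ (1 / (m : ℝ)) ≤ (Ca * t) ^ (1 / (m : ℝ)) := by
          apply Real.rpow_le_rpow ht' htt; positivity
      _ = Ca ^ (1 / (m : ℝ)) * t ^ (1 / (m : ℝ)) := Real.mul_rpow hCa0.le ht
      _ ≤ Ca * t ^ (1 / (m : ℝ)) := by
          apply mul_le_mul_of_nonneg_right _ (Real.rpow_nonneg ht _)
          calc Ca ^ (1 / (m : ℝ)) ≤ Ca ^ (1:ℝ) := by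
                apply Real.rpow_le_rpow_of_exponent_le hCa
                rw [div_le_one (by linarith)]; exact hm0
            _ = Ca := Real.rpow_one _
  calc t' * t' ^ (1 / (m : ℝ)) ≤ (Ca * t) * (Ca * t ^ (1 / (m : ℝ))) :=
        mul_le_mul htt h1 (Real.rpow_nonneg ht' _) (by positivity)
    _ = _ := by ring

end tv


/-! ### the scale of the total variation -/

theorem eN4 : Ng_290.eN 4 = 1 / 16 := by unfold Ng_290.eN; norm_num

/-- `(1 + 1/16) s = e^{cTop - 3/16}` -/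
theorem sN4_mul (r : ℝ) : (1 + 1 / 16) * Ng_290.sN (cTop r) 4 = Real.exp (cTop r - 3 / 16) := by
  unfold Ng_290.sN
  rw [eN4]
  have e : (3 : ℝ) / (4 * 4) = 3 / 16 := by norm_num
  rw [e]
  field_simp

theorem exp_sixteenth : Real.exp (1 / 16) ≤ 17 / 16 + 1 / 16 := by
  have h1 : Real.exp (1 / 16) ^ 16 = Real.exp 1 := by
    rw [← Real.exp_nat_mul]; norm_num
  have h3 := Real.exp_one_lt_d9
  by_contra hcon
  push Not at hcon
  have h4 : (17 / 16 + 1 / 16 : ℝ) ^ 16 < Real.exp (1 / 16) ^ 16 :=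
    pow_lt_pow_left₀ hcon (by norm_num) (by norm_num)
  rw [h1] at h4
  norm_num at h4
  linarith

theorem exp_cT3 {r : ℝ} (hr : 0 < r) :
    Real.exp (cTop r - 3 / 16) = 2 * r * Real.exp (1 / 16) := by
  unfold cTop
  have e : Real.log r + Real.log 2 + 1 / 4 - 3 / 16 = Real.log r + Real.log 2 + 1 / 16 := by ring
  rw [e, Real.exp_add, Real.exp_add, Real.exp_log hr, Real.exp_log (by norm_num)]
  ring

theorem exp_cT3_le {r : ℝ} (hr : 0 < r) : Real.exp (cTop r - 3 / 16) ≤ 9 / 4 * r := by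
  rw [exp_cT3 hr]
  have := exp_sixteenth
  nlinarith

theorem sN4_ge {r : ℝ} (hr : 0 < r) : 2 * r ≤ Ng_290.sN (cTop r) 4 := by
  have h1 := sN4_mul r
  rw [exp_cT3 hr] at h1
  have h2 : (1:ℝ) + 1 / 16 ≤ Real.exp (1 / 16) := by
    have := Real.add_one_le_exp (1 / 16 : ℝ)
    linarith
  have h3 : 2 * r * (1 + 1 / 16) ≤ 2 * r * Real.exp (1 / 16) := by gcongr
  linarith

theorem sN4_le {r : ℝ} (hr : 0 < r) : Ng_290.sN (cTop r) 4 ≤ 9 / 4 * r := by
  have h1 := sN4_mul r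
  have h2 := exp_cT3_le hr
  have h3 := sN4_ge hr
  linarith

/-! ### density ratio and mass at a `Q`-point -/

theorem NearQ.mono' {V : Measure (Euc k × L k)} {Q : ℕ} {x : Euc k} {r ε ε' : ℝ} {P : L k}
    (h : NearQ m V Q x r ε P) (hr : 0 ≤ r) (he : ε ≤ ε') : NearQ m V Q x r ε' P :=
  ⟨h.1, h.2.1.trans (by gcongr), h.2.2.trans (by gcongr)⟩

theorem exists_rat (hm : 1 ≤ m) {Q : ℕ} (hQ : 1 ≤ Q) {δ : ℝ} (hδ : 0 < δ) : ∃ ε₁ : ℝ, 0 < ε₁ ∧
    ∀ (U : Set (Euc k)) (D : VarifoldData m k), IsIntegralVarifoldIn U D → IsStationaryIn U D →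
      ∀ (n K : ℕ) (x : Euc k) (r : ℝ) (π : Euc k →L[ℝ] Euc m) (ρ : Euc k →L[ℝ] Euc n)
        (u : Euc m → Euc n) (ε C : ℝ) (W : Euc m → Euc n) (κ : ℝ) (zh : Euc k),
        Qx U (VD D) Q K x r π ρ u ε C W κ zh → ε ≤ ε₁ → (Q : ℝ≥0∞) ≤ Th m (VD D) x →
        rat m (VD D) zh (16 * r) ≤ ENNReal.ofReal (Q + δ) := by
  obtain ⟨ε₁, hε₁, H⟩ := QLeb_433.nearZ m k Q hm hQ 1 δ one_pos hδ
  refine ⟨ε₁, hε₁, ?_⟩
  intro U D hD hst n K x r π ρ u ε C W κ zh h hε hTh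
  have hr := h.hr
  have h1 := H U h.opU D hD hst x r hr ((closedBall_subset_closedBall (by linarith)).trans h.cx.hU)
    hTh (hp π) (NearQ.mono' h.cx.ref.near (by positivity) hε) zh
    (closedBall_subset_closedBall (by linarith) h.mem) h.th (16 * r) (by linarith) le_rfl
  have h2 := h1.2.2
  rwa [← ENNReal.ofReal_natCast, ← ENNReal.ofReal_add (Nat.cast_nonneg Q) hδ.le] at h2

variable {U : Set (Euc k)} {V : Measure (Euc k × L k)} {Q K : ℕ} {x : Euc k} {r : ℝ}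
  {π : Euc k →L[ℝ] Euc m} {ρ : Euc k →L[ℝ] Euc n} {u : Euc m → Euc n} {ε C : ℝ}
  {W : Euc m → Euc n} {κ : ℝ} {zh : Euc k}

namespace Qx

variable (h : Qx U V Q K x r π ρ u ε C W κ zh)

include h

theorem nu_le_t {t : ℝ} (ht : r / 2 ≤ t) {z : Euc k} (hz : z ∈ Kz π ρ x r W zh (h0 m Q ε)) :
    ‖(cz π ρ x r W zh).nu z‖ ≤ (8 * h0 m Q ε) * t := by
  have h1 := h.nu_le_Kz hz
  have h2 := h0_nonneg m Q ε
  calc ‖(cz π ρ x r W zh).nu z‖ ≤ 4 * h0 m Q ε * r := h1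
    _ = 8 * h0 m Q ε * (r / 2) := by ring
    _ ≤ _ := by gcongr

theorem mass_pin (hrat : rat m V zh (16 * r) ≤ ENNReal.ofReal (Q + 1 / 8))
    (hsm : 16 * (Q + 1) * m * (κ + 8 * h0 m Q ε) ≤ 1) :
    |V.real (Wt (cz π ρ x r W zh) (Kz π ρ x r W zh (h0 m Q ε)) (Ng_290.sN (cTop r) 4 / 4) ×ˢ univ) -
      Q * (ome m * (Ng_290.sN (cTop r) 4 / 4) ^ m)| ≤
      ome m * (Ng_290.sN (cTop r) 4 / 4) ^ m / 4 := by
  have hr := h.hr
  have h2 := h0_nonneg m Q ε
  have h3 := sN4_ge hr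
  have h4 := sN4_le hr
  refine LowF14_471.Qx.mass_W h (δ := 1 / 8) (η := 8 * h0 m Q ε) (by norm_num) le_rfl (by positivity)
    hsm hrat subset_rfl ?_ (by linarith) (by linarith) fun z hz _ => h.nu_le_t (by linarith) hz
  have hK : MeasurableSet (Kz π ρ x r W zh (h0 m Q ε) ×ˢ (univ : Set (L k))) :=
    (isCompact_Kz h.gr _).isClosed.measurableSet.prod MeasurableSet.univ
  filter_upwards [ae_restrict_mem hK] with p hp
  exact hp.1

theorem mass_up (hrat : rat m V zh (16 * r) ≤ ENNReal.ofReal (Q + 1 / 8))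
    (hsm : κ + 8 * h0 m Q ε ≤ 1 / 2) :
    V.real (Wt (cz π ρ x r W zh) (Kz π ρ x r W zh (h0 m Q ε))
      ((1 + Ng_290.eN 4) * Ng_290.sN (cTop r) 4) ×ˢ univ) ≤
      ((Q + 1) * (ome m * 2 ^ m)) * Ng_290.sN (cTop r) 4 ^ m := by
  have hr := h.hr
  have hk := h.k0
  have h2 := h0_nonneg m Q ε
  have h3 := sN4_ge hr
  have h4 := sN4_le hr
  have h5 := exp_cT3_le hr
  have h6 : (1 + Ng_290.eN 4) * Ng_290.sN (cTop r) 4 ≤ 9 / 4 * r := by
    rw [eN4, sN4_mul]; exact h5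
  have h6' : 2 * r ≤ (1 + Ng_290.eN 4) * Ng_290.sN (cTop r) 4 := by
    rw [eN4]; linarith
  have h7 := LowF14_471.Qx.mass_W_le h (δ := 1 / 8) (η := 8 * h0 m Q ε) (by norm_num)
    (by positivity) hrat subset_rfl (t := (1 + Ng_290.eN 4) * Ng_290.sN (cTop r) 4) (by linarith)
    (by nlinarith) fun z hz _ => h.nu_le_t (by linarith) hz
  refine h7.trans ?_
  have hs0 : 0 < Ng_290.sN (cTop r) 4 := by linarith
  have h8 : (1 + κ + 8 * h0 m Q ε) * ((1 + Ng_290.eN 4) * Ng_290.sN (cTop r) 4) ≤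
      2 * Ng_290.sN (cTop r) 4 := by
    rw [eN4]
    nlinarith
  have h9 : 0 ≤ (1 + κ + 8 * h0 m Q ε) * ((1 + Ng_290.eN 4) * Ng_290.sN (cTop r) 4) := by
    have := Ng_290.eN_pos (N := 4) (by norm_num)
    positivity
  have h10 := pow_le_pow_left₀ h9 h8 m
  have ho := ome_pos m
  calc (Q + 1 / 8) * (ome m * ((1 + κ + 8 * h0 m Q ε) *
        ((1 + Ng_290.eN 4) * Ng_290.sN (cTop r) 4)) ^ m) ≤
        (Q + 1) * (ome m * (2 * Ng_290.sN (cTop r) 4) ^ m) := by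
        gcongr
        norm_num
    _ = _ := by rw [mul_pow]; ring

end Qx

end Crest.Agent.R234.Qp_534
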