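import Crest.Agent.R234.Qp7_534
import Crest.Agent.R234.Pd11_435

/-!
# Row 234, node QP-CH (helper534), part 8: the soft sign at a `Q`-point, numerical part
-/

set_option autoImplicit false
set_option linter.unusedVariables false
set_option linter.unusedSectionVars false

open MeasureTheory Filter Topology Set Metric
open scoped ENNReal NNReal ContDiff InnerProductSpace
open Crest.GeometryTopology.Submanifold Crest.Agent.R234.Vf_884
open Crest.Agent.R234.Main_456 Crest.Agent.R234.F11_435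
open Crest.Agent.R234.Gi_456
open Crest.Agent.R234.AS_456 (hp vp)
open Crest.Agent.R234.GI_640 (g3 g31 g32)
open Crest.Agent.R234.GL_394 (Ch Ok On VK Pf pf_cubic KB TV)

noncomputable section

namespace Crest.Agent.R234.Qp_534

variable {m n k : ℕ}

theorem exp_cTop_ge {r : ℝ} (hr : 0 < r) : 5 / 2 * r ≤ Real.exp (cTop r) := by
  unfold cTop
  rw [Real.exp_add, Real.exp_add, Real.exp_log hr, Real.exp_log (by norm_num)]
  have := Real.add_one_le_exp (1 / 4 : ℝ)
  nlinarith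

variable {U : Set (Euc k)} {V : Measure (Euc k × L k)} {Q K : ℕ} {x : Euc k} {r : ℝ}
  {π : Euc k →L[ℝ] Euc m} {ρ : Euc k →L[ℝ] Euc n} {u : Euc m → Euc n} {ε C : ℝ}
  {W : Euc m → Euc n} {κ : ℝ} {zh : Euc k}

namespace Qx

variable (h : Qx U V Q K x r π ρ u ε C W κ zh)

include h

theorem cx_cont : ContinuousOn (fun p : Euc k × L k => (cz π ρ x r W zh).x p.1)
    (Kz π ρ x r W zh (h0 m Q ε) ×ˢ G m k) := by
  intro p hp
  exact ((h.ok.hx p.1 hp.1).continuousAt.comp continuousAt_fst).continuousWithinAt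

theorem cf_cont : ContinuousOn (fun p : Euc k × L k => (cz π ρ x r W zh).f p.1)
    (Kz π ρ x r W zh (h0 m Q ε) ×ˢ G m k) := by
  intro p hp
  exact ((h.ok.hf p.1 hp.1).continuousAt.comp continuousAt_fst).continuousWithinAt

theorem int_2f : Integrable (fun p : Euc k × L k => 2 * (cz π ρ x r W zh).f p.1)
    (Vz V π ρ x r W zh (h0 m Q ε)) :=
  h.on.integrable h.ok.cpt (continuousOn_const.mul h.cf_cont)

/-- the height excess of the ball of radius `9/4 r` -/
theorem int_2f_le (hκ : (0:ℝ) ≤ κ) {t : ℝ} (ht : t ≤ 9 / 4 * r) :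
    ∫ p in {p : Euc k × L k | ‖(cz π ρ x r W zh).x p.1‖ ≤ t}, 2 * (cz π ρ x r W zh).f p.1
      ∂(Vz V π ρ x r W zh (h0 m Q ε)) ≤
      6 * (3 * r) ^ m * Iz V π ρ x r W zh (h0 m Q ε) (cTop r) := by
  have hr := h.hr
  have hon := h.on
  have hfin := hon.fin
  set c := cz π ρ x r W zh with hc
  set S := Kz π ρ x r W zh (h0 m Q ε) with hS
  set F : Euc k × L k → ℝ := fun p => (c.f p.1 * c.mu (c.x p.1)) *
      (-4 * g31 (Real.exp (-2 * cTop r) * ‖c.x p.1‖ ^ 2)) with hF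
  have cg : Continuous g31 := by unfold g31; fun_prop
  have hFi : Integrable F (Vz V π ρ x r W zh (h0 m Q ε)) := by
    refine hon.integrable h.ok.cpt ?_
    refine (h.cf_cont.mul (h.ok.cmu.comp h.cx_cont fun p hp => mem_univ _)).mul
      (continuousOn_const.mul (cg.comp_continuousOn (continuousOn_const.mul
        ((continuous_norm.comp_continuousOn h.cx_cont).pow 2))))
  have hpos : ∀ p ∈ S ×ˢ G m k, 0 ≤ F p := by
    intro p hp
    have h1 := f_nonneg h.ok hp.1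
    have h2 := h.mu_ge (c.x p.1)
    have h3 := GI_640.g31_nonpos (Real.exp (-2 * cTop r) * ‖c.x p.1‖ ^ 2)
    have h4 : 0 ≤ c.mu (c.x p.1) := by linarith
    have h5 : 0 ≤ -4 * g31 (Real.exp (-2 * cTop r) * ‖c.x p.1‖ ^ 2) := by linarith
    exact mul_nonneg (mul_nonneg h1 h4) h5
  have hpt : ∀ p ∈ S ×ˢ G m k, ‖c.x p.1‖ ≤ t → 2 * c.f p.1 ≤ 6 * F p := by
    intro p hp hx
    have h1 := f_nonneg h.ok hp.1
    have h2 := h.mu_ge (c.x p.1)
    have e1 : Real.exp (-2 * cTop r) * ‖c.x p.1‖ ^ 2 ≤ 81 / 100 := by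
      have e2 := exp_cTop_ge hr
      have e3 : Real.exp (-2 * cTop r) = (Real.exp (cTop r) ^ 2)⁻¹ := by
        rw [← Real.exp_nat_mul, ← Real.exp_neg]; congr 1; push_cast; ring
      rw [e3, inv_mul_le_iff₀ (by positivity)]
      have e4 : ‖c.x p.1‖ ^ 2 ≤ (9 / 4 * r) ^ 2 := by
        have := norm_nonneg (c.x p.1)
        have := hx.trans ht
        gcongr
      have e5 : (5 / 2 * r) ^ 2 ≤ Real.exp (cTop r) ^ 2 := by gcongr
      nlinarith
    have h3 := GI_640.g31_lower' (a := 81 / 100) (by norm_num) e1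
    set G1 := g31 (Real.exp (-2 * cTop r) * ‖c.x p.1‖ ^ 2) with hG1
    set μ := c.mu (c.x p.1) with hμ
    have h4 : (1083 / 10000 : ℝ) ≤ -G1 := by norm_num at h3; linarith
    have h5 : (1 / 3 : ℝ) ≤ μ * (-4 * G1) := by nlinarith
    show 2 * c.f p.1 ≤ 6 * ((c.f p.1 * μ) * (-4 * G1))
    nlinarith
  have hmeas : ∫ p in {p : Euc k × L k | ‖c.x p.1‖ ≤ t}, 2 * c.f p.1
      ∂(Vz V π ρ x r W zh (h0 m Q ε)) ≤ 6 * ∫ p, F p ∂(Vz V π ρ x r W zh (h0 m Q ε)) := by
    have h1 : ∫ p in {p : Euc k × L k | ‖c.x p.1‖ ≤ t}, 2 * c.f p.1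
      ∂(Vz V π ρ x r W zh (h0 m Q ε)) ≤ ∫ p in {p : Euc k × L k | ‖c.x p.1‖ ≤ t}, 6 * F p
      ∂(Vz V π ρ x r W zh (h0 m Q ε)) := by
      have hn : NullMeasurableSet {p : Euc k × L k | ‖c.x p.1‖ ≤ t}
          (Vz V π ρ x r W zh (h0 m Q ε)) := by
        have h0 : AEStronglyMeasurable (fun p : Euc k × L k => c.x p.1)
          (Vz V π ρ x r W zh (h0 m Q ε)) := by
          rw [← Measure.restrict_eq_self_of_ae_mem hon.mem]
          exact h.cx_cont.aestronglyMeasurable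
            (h.ok.cpt.isClosed.measurableSet.prod (measurableSet_G m k))
        exact nullMeasurableSet_le h0.norm.aemeasurable aemeasurable_const
      refine integral_mono_ae h.int_2f.integrableOn (hFi.const_mul 6).integrableOn ?_
      filter_upwards [ae_restrict_of_ae hon.mem, ae_restrict_mem₀ hn] with p hp hp2
      exact hpt p hp hp2
    refine h1.trans ?_
    rw [← integral_const_mul]
    refine setIntegral_le_integral (hFi.const_mul 6) ?_
    filter_upwards [hon.mem] with p hp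
    have := hpos p hp
    show 0 ≤ 6 * F p
    linarith
  refine hmeas.trans ?_
  have h7 : ∫ p, F p ∂(Vz V π ρ x r W zh (h0 m Q ε)) =
      Real.exp (m * cTop r) * Iz V π ρ x r W zh (h0 m Q ε) (cTop r) := by
    unfold Iz GL_394.II
    rw [← mul_assoc, ← Real.exp_add]
    have : (m : ℝ) * cTop r + -m * cTop r = 0 := by ring
    rw [this, Real.exp_zero, one_mul]
  rw [h7]
  have h8 : Real.exp (m * cTop r) ≤ (3 * r) ^ m := by
    rw [Real.exp_nat_mul]
    exact pow_le_pow_left₀ (Real.exp_pos _).le (exp_cTop hr) m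
  have h9 := h.Iz_nonneg (cTop r)
  calc 6 * (Real.exp (m * cTop r) * Iz V π ρ x r W zh (h0 m Q ε) (cTop r)) ≤
        6 * ((3 * r) ^ m * Iz V π ρ x r W zh (h0 m Q ε) (cTop r)) := by gcongr
    _ = _ := by ring

end Qx


/-! ### numerics -/

theorem log_small {η : ℝ} (hη : 0 < η) : ∃ H1 : ℝ, 0 < H1 ∧ ∀ H : ℝ, 0 < H → H ≤ H1 →
    (Real.log (1 / H))⁻¹ ≤ η ∧ 0 < Real.log (1 / H) := by
  refine ⟨Real.exp (-(1 / η)), Real.exp_pos _, fun H hH hH1 => ?_⟩
  have h1 : 1 / η ≤ Real.log (1 / H) := by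
    have e1 : Real.log (1 / H) = -Real.log H := by rw [one_div, Real.log_inv]
    rw [e1]
    have := Real.log_le_log hH hH1
    rw [Real.log_exp] at this
    linarith
  have h2 : 0 < 1 / η := by positivity
  have h3 : 0 < Real.log (1 / H) := by linarith
  refine ⟨?_, h3⟩
  rw [inv_le_comm₀ h3 hη]
  rwa [one_div] at h1

/-- the numbers of the soft sign -/
theorem sg_num {m : ℕ} {H0 Cf C1 lm θ ec : ℝ} (hH0 : 0 < H0) (hCf : 0 ≤ Cf) (hC1 : 1 ≤ C1)
    (hθ : 0 < θ) (hec : 0 < ec) : ∃ θ' : ℝ, 0 < θ' ∧ ∀ (κ r J Jb s : ℝ), 0 ≤ κ → κ ≤ θ' → 0 < r →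
    0 < J → Real.exp (-2 * cTop r) * J ≤ θ' → J ≤ C1 * Jb → Real.exp (lm - 2) * r ≤ s →
    0 < 6 * (3 * r) ^ m * J / s ^ (m + 2) ∧ 6 * (3 * r) ^ m * J / s ^ (m + 2) ≤ H0 ∧
      (Real.log (1 / (6 * (3 * r) ^ m * J / s ^ (m + 2))))⁻¹ ≤ ec ∧
      0 < Real.log (1 / (6 * (3 * r) ^ m * J / s ^ (m + 2))) ∧
      s ^ 2 * (Cf * κ ^ 2 * (6 * (3 * r) ^ m * J / s ^ (m + 2)) +
        (Real.log (1 / (6 * (3 * r) ^ m * J / s ^ (m + 2))))⁻¹ *
          (6 * (3 * r) ^ m * J / s ^ (m + 2))) ≤ θ * Jb := by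
  set q : ℝ := Real.exp (lm - 2) with hq
  have hq0 : 0 < q := Real.exp_pos _
  set C7 : ℝ := 6 * 3 ^ m / q ^ m with hC7
  have hC70 : 0 < C7 := by rw [hC7]; positivity
  set C6 : ℝ := 6 * 3 ^ m * 9 / q ^ (m + 2) with hC6
  have hC60 : 0 < C6 := by rw [hC6]; positivity
  set η : ℝ := θ / (2 * C1 * C7) with hη
  have hη0 : 0 < η := by rw [hη]; positivity
  obtain ⟨H1, hH1, hlog⟩ := log_small (η := min η ec) (lt_min hη0 hec)
  refine ⟨min (min 1 (η / (Cf + 1))) (min (H0 / C6) (H1 / C6)), ?_, ?_⟩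
  · refine lt_min (lt_min one_pos (by positivity)) (lt_min (by positivity) (by positivity))
  intro κ r J Jb s hκ hκ' hr hJ hJ' hJb hs
  have k1 : κ ≤ 1 := hκ'.trans ((min_le_left _ _).trans (min_le_left _ _))
  have k2 : κ ≤ η / (Cf + 1) := hκ'.trans ((min_le_left _ _).trans (min_le_right _ _))
  have j1 : Real.exp (-2 * cTop r) * J ≤ H0 / C6 :=
    hJ'.trans ((min_le_right _ _).trans (min_le_left _ _))
  have j2 : Real.exp (-2 * cTop r) * J ≤ H1 / C6 :=
    hJ'.trans ((min_le_right _ _).trans (min_le_right _ _))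
  have hs0 : 0 < s := lt_of_lt_of_le (by positivity) hs
  set H : ℝ := 6 * (3 * r) ^ m * J / s ^ (m + 2) with hH
  have hHp : 0 < H := by rw [hH]; positivity
  -- `s² H ≤ C7 J`
  have a1 : s ^ 2 * H ≤ C7 * J := by
    rw [hH, hC7]
    have e1 : s ^ 2 * (6 * (3 * r) ^ m * J / s ^ (m + 2)) = 6 * (3 * r) ^ m * J / s ^ m := by
      rw [pow_add]; field_simp
    rw [e1, mul_pow]
    have e2 : (q * r) ^ m ≤ s ^ m := by gcongr
    calc 6 * (3 ^ m * r ^ m) * J / s ^ m ≤ 6 * (3 ^ m * r ^ m) * J / (q * r) ^ m := by gcongr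
      _ = _ := by rw [mul_pow]; field_simp
  -- `H ≤ C6 e^{-2c} J`
  have a2 : H ≤ C6 * (Real.exp (-2 * cTop r) * J) := by
    have e3 : Real.exp (-2 * cTop r) = (Real.exp (cTop r) ^ 2)⁻¹ := by
      rw [← Real.exp_nat_mul, ← Real.exp_neg]; congr 1; push_cast; ring
    have e4 : (1:ℝ) / (9 * r ^ 2) ≤ Real.exp (-2 * cTop r) := by
      rw [e3, ← one_div]
      apply one_div_le_one_div_of_le (by positivity)
      calc Real.exp (cTop r) ^ 2 ≤ (3 * r) ^ 2 := by
            have := exp_cTop hr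
            gcongr
        _ = _ := by ring
    have e5 : (q * r) ^ (m + 2) ≤ s ^ (m + 2) := by gcongr
    calc H ≤ 6 * (3 * r) ^ m * J / (q * r) ^ (m + 2) := by rw [hH]; gcongr
      _ = C6 * (1 / (9 * r ^ 2) * J) := by
          rw [hC6, mul_pow, mul_pow, pow_add, pow_add]; field_simp
      _ ≤ _ := by gcongr
  have b1 : H ≤ H0 := by
    calc H ≤ C6 * (Real.exp (-2 * cTop r) * J) := a2
      _ ≤ C6 * (H0 / C6) := by gcongr
      _ = H0 := by field_simp
  have b2 : H ≤ H1 := by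
    calc H ≤ C6 * (Real.exp (-2 * cTop r) * J) := a2
      _ ≤ C6 * (H1 / C6) := by gcongr
      _ = H1 := by field_simp
  obtain ⟨c1, c2⟩ := hlog H hHp b2
  refine ⟨hHp, b1, c1.trans (min_le_right _ _), c2, ?_⟩
  have c3 : (Real.log (1 / H))⁻¹ ≤ η := c1.trans (min_le_left _ _)
  have c4 : Cf * κ ^ 2 ≤ η := by
    have e1 : κ ^ 2 ≤ κ := by nlinarith
    have e2 : Cf * κ ^ 2 ≤ Cf * (η / (Cf + 1)) := by gcongr; linarith
    refine e2.trans ?_
    rw [← mul_div_assoc, div_le_iff₀ (by positivity)]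
    nlinarith
  have hJb0 : 0 < Jb := by
    by_contra hcon
    push Not at hcon
    have : C1 * Jb ≤ 0 := mul_nonpos_of_nonneg_of_nonpos (by linarith) hcon
    linarith
  calc s ^ 2 * (Cf * κ ^ 2 * H + (Real.log (1 / H))⁻¹ * H) =
        (Cf * κ ^ 2 + (Real.log (1 / H))⁻¹) * (s ^ 2 * H) := by ring
    _ ≤ (η + η) * (C7 * J) := by
        have : 0 ≤ s ^ 2 * H := by positivity
        gcongr
    _ ≤ (η + η) * (C7 * (C1 * Jb)) := by gcongr
    _ = θ * Jb := by rw [hη]; field_simp; ring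

end Crest.Agent.R234.Qp_534
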