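import Crest.Agent.R234.Qp8_534
import Crest.Agent.R234.F36_354

/-!
# Row 234, node QP-CH (helper534), part 9: the chart of a `Q`-point with the tube radius `s`
-/

set_option autoImplicit false
set_option linter.unusedVariables false
set_option linter.unusedSectionVars false

open MeasureTheory Filter Topology Set Metric
open scoped ENNReal NNReal ContDiff InnerProductSpace
open Crest.GeometryTopology.Submanifold Crest.Agent.R234.Vf_884
open Crest.Agent.R234.Main_456 Crest.Agent.R234.F11_435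
open Crest.Agent.R234.Gi_456
open Crest.Agent.R234.AS_456 (hp vp)
open Crest.Agent.R234.GI_640 (g3 g31 g32)
open Crest.Agent.R234.GL_394 (Ch Ok On VK Pf pf_cubic KB TV)

noncomputable section

namespace Crest.Agent.R234.Qp_534

variable {m n k : ℕ}

local notation "adj" => ContinuousLinearMap.adjoint

/-! ### change of the radius of the tube -/

section radius
variable {π : Euc k →L[ℝ] Euc m} {ρ : Euc k →L[ℝ] Euc n} {x : Euc k} {r s : ℝ} {w : Euc m → Euc n}

theorem foot_radius (h : Gr r w) (h' : Gr s w) {z : Euc k} (hz : z ∈ tube π ρ x r w)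
    (hz' : z ∈ tube π ρ x s w) : foot π ρ x r w z = foot π ρ x s w z := by
  rcases le_total s r with hsr | hsr
  · exact h.foot_eq ⟨(h'.foot_spec hz').1, (h'.foot_spec hz').2.trans (by linarith)⟩
  · exact (h'.foot_eq ⟨(h.foot_spec hz).1, (h.foot_spec hz).2.trans (by linarith)⟩).symm

theorem yy_radius (h : Gr r w) (h' : Gr s w) {z : Euc k} (hz : z ∈ tube π ρ x r w)
    (hz' : z ∈ tube π ρ x s w) : yy π ρ x r w z = yy π ρ x s w z := by
  unfold yy
  rw [foot_radius h h' hz hz']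

variable {X0 : Euc m}

theorem ch_x_radius (h : Gr r w) (h' : Gr s w) {z : Euc k} (hz : z ∈ tube π ρ x r w)
    (hz' : z ∈ tube π ρ x s w) : (ch π ρ x r w X0).x z = (ch π ρ x s w X0).x z := by
  show Lo (fderiv ℝ w X0) (foot π ρ x r w z - X0) = Lo (fderiv ℝ w X0) (foot π ρ x s w z - X0)
  rw [foot_radius h h' hz hz']

theorem ch_nu_radius (h : Gr r w) (h' : Gr s w) {z : Euc k} (hz : z ∈ tube π ρ x r w)
    (hz' : z ∈ tube π ρ x s w) : (ch π ρ x r w X0).nu z = (ch π ρ x s w X0).nu z := by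
  show Bt π ρ w (foot π ρ x r w z) (yy π ρ x r w z) = Bt π ρ w (foot π ρ x s w z) (yy π ρ x s w z)
  rw [foot_radius h h' hz hz', yy_radius h h' hz hz']

theorem ch_f_radius (h : Gr r w) (h' : Gr s w) {z : Euc k} (hz : z ∈ tube π ρ x r w)
    (hz' : z ∈ tube π ρ x s w) : (ch π ρ x r w X0).f z = (ch π ρ x s w X0).f z := by
  show ‖Bt π ρ w (foot π ρ x r w z) (yy π ρ x r w z)‖ ^ 2 / 2 =
    ‖Bt π ρ w (foot π ρ x s w z) (yy π ρ x s w z)‖ ^ 2 / 2
  rw [foot_radius h h' hz hz', yy_radius h h' hz hz']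

theorem ch_tau_radius (h : Gr r w) (h' : Gr s w) {z : Euc k} (hz : z ∈ tube π ρ x r w)
    (hz' : z ∈ tube π ρ x s w) (P : L k) :
    (ch π ρ x r w X0).tau z P = (ch π ρ x s w X0).tau z P := by
  show tr (GLK_128.NN (adj π) (adj ρ) (fderiv ℝ w (foot π ρ x r w z))
    (hinv (fderiv ℝ w (foot π ρ x r w z))) ∘L P) = tr (GLK_128.NN (adj π) (adj ρ)
      (fderiv ℝ w (foot π ρ x s w z)) (hinv (fderiv ℝ w (foot π ρ x s w z))) ∘L P)
  rw [foot_radius h h' hz hz']

theorem bb_radius (h : Gr r w) (h' : Gr s w) {S : Set (Euc k)} (hS : IsCompact S)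
    (hr : S ⊆ tube π ρ x r w) (hs : S ⊆ tube π ρ x s w) (V : Measure (Euc k × L k))
    (g : ℝ → ℝ) (Q l : ℝ) : GL_394.bb (ch π ρ x r w X0) (VK V S) g Q l =
      GL_394.bb (ch π ρ x s w X0) (VK V S) g Q l := by
  have hSm : MeasurableSet (S ×ˢ (univ : Set (L k))) :=
    hS.isClosed.measurableSet.prod MeasurableSet.univ
  have hae : ∀ᵐ p ∂(VK V S), p.1 ∈ S := by
    filter_upwards [ae_restrict_mem hSm] with p hp
    exact hp.1
  have e1 : ∫ p, 1 * g (Real.exp (-2 * l) * ‖(ch π ρ x r w X0).x p.1‖ ^ 2) ∂(VK V S) =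
      ∫ p, 1 * g (Real.exp (-2 * l) * ‖(ch π ρ x s w X0).x p.1‖ ^ 2) ∂(VK V S) := by
    refine integral_congr_ae ?_
    filter_upwards [hae] with p hp
    rw [ch_x_radius h h' (hr hp) (hs hp)]
  have e2 : ∫ p, (ch π ρ x r w X0).tau p.1 p.2 *
        g (Real.exp (-2 * l) * ‖(ch π ρ x r w X0).x p.1‖ ^ 2) ∂(VK V S) =
      ∫ p, (ch π ρ x s w X0).tau p.1 p.2 *
        g (Real.exp (-2 * l) * ‖(ch π ρ x s w X0).x p.1‖ ^ 2) ∂(VK V S) := by
    refine integral_congr_ae ?_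
    filter_upwards [hae] with p hp
    rw [ch_x_radius h h' (hr hp) (hs hp), ch_tau_radius h h' (hr hp) (hs hp)]
  unfold GL_394.bb GL_394.EE GL_394.ee
  rw [e1, e2]
  rfl

end radius

variable {U : Set (Euc k)} {V : Measure (Euc k × L k)} {Q K : ℕ} {x : Euc k} {r : ℝ}
  {π : Euc k →L[ℝ] Euc m} {ρ : Euc k →L[ℝ] Euc n} {u : Euc m → Euc n} {ε C : ℝ}
  {W : Euc m → Euc n} {κ : ℝ} {zh : Euc k}

/-- the chart at the `Q`-point with the tube of radius `s` -/
def cs (π : Euc k →L[ℝ] Euc m) (ρ : Euc k →L[ℝ] Euc n) (x : Euc k) (r : ℝ) (W : Euc m → Euc n)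
    (zh : Euc k) (s : ℝ) : GL_394.Ch m k := ch π ρ zh s (wz π x zh r W) 0

namespace Qx

variable (h : Qx U V Q K x r π ρ u ε C W κ zh)

include h

theorem gr_s {s : ℝ} (hs : 0 < s) (hs2 : s ≤ 2 * r) (hκ : κ ≤ 1 / 16) :
    Gr s (wz π x zh r W) where
  pos := hs
  cd := h.gr.cd
  d1 := h.gr.d1
  d2 := fun X => (h.ext.d2 h.hr (by have := h.hK; omega) X).trans (by
    have hr := h.hr
    have hk := h.k0
    rw [div_le_div_iff₀ hr (by positivity)]
    nlinarith)

/-- `Kz` lies in the tube of radius `s` -/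
theorem Kz_sub_s {s : ℝ} (hs : 4 * h0 m Q ε * r < s) :
    Kz π ρ x r W zh (h0 m Q ε) ⊆ tube π ρ zh s (wz π x zh r W) := by
  intro p hp
  obtain ⟨h1, h2, h3⟩ := h.Kz_spec h.hs hp
  have h4 := h.gr.le_norm_yy h1
  have h5 := h0_nonneg m Q ε
  have hr := h.hr
  show ‖ρ (p - zh) - wz π x zh r W (π (p - zh))‖ < s
  have h6 : 9 / 8 * ‖yy π ρ zh r (wz π x zh r W) p‖ ≤ 9 / 8 * (3 * h0 m Q ε * r) := by gcongr
  have h7 : 0 ≤ h0 m Q ε * r := by positivity
  linarith

/-- points of the tube of radius `s ≤ 2 r` over `|foot| ≤ 3 r` lie in the box -/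
theorem tube_s_box {s : ℝ} (hs : 0 < s) (hs2 : s ≤ 2 * r) (hκ : κ ≤ 1 / 16) {p : Euc k}
    (hp : p ∈ tube π ρ zh s (wz π x zh r W))
    (hx : ‖foot π ρ zh s (wz π x zh r W) p‖ ≤ 3 * r) : p ∈ box π ρ x (7 * r) := by
  have hr := h.hr
  have hg := h.gr_s hs hs2 hκ
  have hp' : ‖ρ (p - zh) - wz π x zh r W (π (p - zh))‖ < s := hp
  have h1 := hg.norm_foot_sub hp
  have h2 : ‖π (p - zh)‖ ≤ 3 * r + s / 4 := by
    have h3 := norm_le_norm_add_norm_sub (foot π ρ zh s (wz π x zh r W) p) (π (p - zh))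
    linarith
  have h3 := h.norm_wz_le (π (p - zh))
  have h4 : ‖ρ (p - zh)‖ ≤ s + 1 / 8 * (3 * r + s / 4) := by
    have h5 := norm_le_norm_add_norm_sub' (ρ (p - zh)) (wz π x zh r W (π (p - zh)))
    linarith
  have e : p - x = (p - zh) + (zh - x) := by abel
  have h5 := h.norm_pi_z
  have h6 := h.norm_rho_z
  constructor
  · rw [e, map_add]
    have := norm_add_le (π (p - zh)) (π (zh - x))
    linarith
  · rw [e, map_add]
    have := norm_add_le (ρ (p - zh)) (ρ (zh - x))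
    linarith

/-- **`Loc` in the tube of radius `s`** -/
theorem loc_s {s L' : ℝ} (hs : 4 * h0 m Q ε * r < s) (hs2 : s ≤ 2 * r) (hκ : κ ≤ 1 / 16)
    (hL : Real.exp L' ≤ 3 * r) :
    GL_394.Loc (cs π ρ x r W zh s) U (tube π ρ zh s (wz π x zh r W))
      (Kz π ρ x r W zh (h0 m Q ε)) V L' where
  st := h.cx.st
  opU := h.opU
  cpt := isCompact_Kz h.gr _
  sub := fun p hp => ⟨h.Kz_sub_s hs hp, h.Kz_U h.hs hp⟩
  gap := by
    have hr := h.hr
    have hh := h0_nonneg m Q ε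
    have hs0 : 0 < s := lt_of_le_of_lt (by positivity) hs
    have hg := h.gr_s hs0 hs2 hκ
    filter_upwards [h.cx.th, h.gap] with p hp hgap hpt hpx
    have hfoot : ‖foot π ρ zh s (wz π x zh r W) p.1‖ ≤ 3 * r := by
      have h1 : ‖foot π ρ zh s (wz π x zh r W) p.1‖ ≤ ‖(cs π ρ x r W zh s).x p.1‖ := by
        have h2 := le_norm_Lo (fderiv ℝ (wz π x zh r W) 0)
          (foot π ρ zh s (wz π x zh r W) p.1 - 0)
        rw [sub_zero] at h2
        show _ ≤ ‖Lo (fderiv ℝ (wz π x zh r W) 0) (foot π ρ zh s (wz π x zh r W) p.1 - 0)‖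
        rw [sub_zero]
        exact h2
      exact (h1.trans hpx).trans hL
    have hbox := h.tube_s_box hs0 hs2 hκ hpt.1 hfoot
    have h1 := hp hpt.2
    have hT := h.mem_Tz_of_box hbox h1
    refine hgap ⟨hT, hpt.2⟩ ?_
    have hT' : p.1 ∈ tube π ρ zh r (wz π x zh r W) := hT
    rw [foot_radius h.gr hg hT' hpt.1]
    linarith

end Qx

end Crest.Agent.R234.Qp_534
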