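import Crest.Agent.R234.Rep1_387
import Crest.Agent.R234.Ptv4_427

/-!
# Row 234 (helper387): mass of `β(A)`

`β(A) ≤ (m/2) ∫_{π p ∈ A} |S_vv|² dV + ∫_A (N - Q)₊ dx`.
-/

set_option autoImplicit false

open MeasureTheory Set Function Filter Topology Metric
open Crest.GeometryTopology.Submanifold
open Crest.Agent.R234.Vf_884 Crest.Agent.R234.Ar_870 Crest.Agent.R234.Cy_870
open Crest.Agent.R234.Pot_425 Crest.Agent.R234.Avg_387
open scoped ENNReal NNReal InnerProductSpace

noncomputable section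

namespace Crest.Agent.R234.Rep_387

variable {m n k : ℕ} {τ : ℝ} {π : Euc k →L[ℝ] Euc m}
variable {D : VarifoldData m k} {U : Set (Euc k)} {W₀ : Set (Euc k)} {Q : ℝ}

/-- the quadratic vertical form `|S_vv|²` of helper427 -/
def qq (π : Euc k →L[ℝ] Euc m) (P : L k) : ℝ :=
  Ptv_427.qv (ContinuousLinearMap.adjoint π ∘L π) P

theorem continuous_qq (π : Euc k →L[ℝ] Euc m) : Continuous (qq π : L k → ℝ) := by
  have h1 : (qq π : L k → ℝ) = fun P => Vf_884.tr
      ((1 - ContinuousLinearMap.adjoint π ∘L π) ∘L P ∘L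
        (1 - ContinuousLinearMap.adjoint π ∘L π) ∘L P) := rfl
  rw [h1]
  exact tr.continuous.comp (continuous_const.clm_comp (continuous_id.clm_comp
    (continuous_const.clm_comp continuous_id)))

theorem max_an_le_qq (hπ : IsCo π) {P : L k} (hP : P ∈ G m k) :
    max (an π P) 0 ≤ (m / 2 : ℝ) * qq π P := by
  have h1 := Ptv_427.abs_anom_le_vv hπ hP
  have h2 : 0 ≤ (m / 2 : ℝ) * qq π P := (abs_nonneg _).trans h1
  exact max_le ((le_abs_self _).trans h1) h2

theorem max_an_le_tl (hπ : IsCo π) {P : L k} (hP : P ∈ G m k) :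
    max (an π P) 0 ≤ tl π P / 2 := by
  have h1 := one_sub_Jh_le hπ (isPr_of_G hP)
  have h2 := tl_nonneg hπ (isPr_of_G hP)
  refine max_le ?_ (by linarith)
  unfold an; linarith

theorem qq_nonneg (hπ : IsCo π) {P : L k} (hP : P ∈ G m k) : 0 ≤ (m / 2 : ℝ) * qq π P :=
  (abs_nonneg _).trans (Ptv_427.abs_anom_le_vv hπ hP)

section

variable (S : Sheets D π) (hD : IsIntegralVarifoldIn U D) (hπ : IsCo π)
  (hW : MeasurableSet W₀) (hfin : VD D (W₀ ×ˢ univ) < ⊤)

theorem integrableOn_cont (hD : IsIntegralVarifoldIn U D) (hfin : VD D (W₀ ×ˢ univ) < ⊤)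
    {f : L k → ℝ} (hf : Continuous f) :
    Integrable (fun p : Euc k × L k => f p.2) ((VD D).restrict (W₀ ×ˢ univ)) := by
  have := finite_W hfin
  obtain ⟨C, hC⟩ := (isCompact_G m k).exists_bound_of_continuousOn hf.continuousOn
  refine Integrable.of_bound (hf.measurable.comp measurable_snd).aestronglyMeasurable C ?_
  filter_upwards [ae_restrict_of_ae (VD_conc hD)] with p hp
  exact hC _ hp

include hD hπ hW hfin in
theorem beta_real {T : Set (Euc m)} (hT : MeasurableSet T) :
    (beta S W₀ Q τ T).real univ =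
      (∫ p in {p : Euc k × L k | π p.1 ∈ T ∩ closedBall (0 : Euc m) (1 - τ)},
        max (an π p.2) 0 ∂((VD D).restrict (W₀ ×ˢ univ))) +
        ∫ x in T ∩ closedBall (0 : Euc m) (1 - τ), max ((S.N W₀ x).toReal - Q) 0 := by
  have h1 := integral_beta (τ := τ) (Q := Q) S hD hπ hW hfin hT (φ := fun _ => 1)
    measurable_const (K := 1) (fun _ => by simp)
  simpa using h1

include hD hπ hW hfin in
/-- **gamma estimate** -/
theorem beta_real_le {T : Set (Euc m)} (hT : MeasurableSet T) :
    (beta S W₀ Q τ T).real univ ≤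
      (m / 2 : ℝ) * (∫ p in {p : Euc k × L k | π p.1 ∈ T ∩ closedBall (0 : Euc m) (1 - τ)},
        qq π p.2 ∂((VD D).restrict (W₀ ×ˢ univ))) +
        ∫ x in T ∩ closedBall (0 : Euc m) (1 - τ), max ((S.N W₀ x).toReal - Q) 0 := by
  rw [beta_real S hD hπ hW hfin hT, ← integral_const_mul]
  refine add_le_add ?_ le_rfl
  have i1 := integrableOn_cont hD hfin (f := fun P => max (an π P) 0)
    ((continuous_an π).max continuous_const)
  have i2 := (integrableOn_cont hD hfin (continuous_qq π)).const_mul (m / 2 : ℝ)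
  refine integral_mono_ae i1.integrableOn i2.integrableOn ?_
  filter_upwards [ae_restrict_of_ae (ae_restrict_of_ae (VD_conc hD))] with p hp
  exact max_an_le_qq hπ hp

include hD hπ hW hfin in
/-- the same with the tilt -/
theorem beta_real_le_tl {T : Set (Euc m)} (hT : MeasurableSet T) :
    (beta S W₀ Q τ T).real univ ≤
      (1 / 2 : ℝ) * (∫ p in {p : Euc k × L k | π p.1 ∈ T ∩ closedBall (0 : Euc m) (1 - τ)},
        tl π p.2 ∂((VD D).restrict (W₀ ×ˢ univ))) +
        ∫ x in T ∩ closedBall (0 : Euc m) (1 - τ), max ((S.N W₀ x).toReal - Q) 0 := by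
  rw [beta_real S hD hπ hW hfin hT, ← integral_const_mul]
  refine add_le_add ?_ le_rfl
  have i1 := integrableOn_cont hD hfin (f := fun P => max (an π P) 0)
    ((continuous_an π).max continuous_const)
  have i2 := (integrableOn_cont hD hfin (measurable_tl π)).const_mul (1 / 2 : ℝ)
  refine integral_mono_ae i1.integrableOn i2.integrableOn ?_
  filter_upwards [ae_restrict_of_ae (ae_restrict_of_ae (VD_conc hD))] with p hp
  have := max_an_le_tl hπ hp
  linarith

theorem beta_univ (S : Sheets D π) : beta S W₀ Q τ univ = b1 S W₀ Q τ := by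
  unfold beta
  have : {z : XB (Euc m) τ | (z : Euc m) ∈ (univ : Set (Euc m))} = univ := by ext; simp
  rw [this, Measure.restrict_univ]

include hD hπ hW hfin in
/-- total mass of `b₁` -/
theorem b1_real_le :
    (b1 S W₀ Q τ).real univ ≤
      (1 / 2 : ℝ) * (∫ p, tl π p.2 ∂((VD D).restrict (W₀ ×ˢ univ))) +
        ∫ x in closedBall (0 : Euc m) (1 - τ), max ((S.N W₀ x).toReal - Q) 0 := by
  have h1 := beta_real_le_tl (τ := τ) (Q := Q) S hD hπ hW hfin (T := univ) MeasurableSet.univ
  rw [beta_univ] at h1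
  simp only [univ_inter] at h1
  refine h1.trans (add_le_add ?_ le_rfl)
  refine mul_le_mul_of_nonneg_left ?_ (by norm_num)
  refine setIntegral_le_integral (integrableOn_cont hD hfin (measurable_tl π)) ?_
  filter_upwards [ae_restrict_of_ae (VD_conc hD)] with p hp
  exact tl_nonneg hπ (isPr_of_G hp)

theorem beta_le (S : Sheets D π) {T T' : Set (Euc m)} (h : T ⊆ T') :
    beta S W₀ Q τ T ≤ beta S W₀ Q τ T' := by
  unfold beta
  exact Measure.restrict_mono_set _ fun z hz => h hz

theorem beta_le_b1 (S : Sheets D π) (T : Set (Euc m)) : beta S W₀ Q τ T ≤ b1 S W₀ Q τ :=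
  Measure.restrict_le_self

end

end Crest.Agent.R234.Rep_387
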