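import Crest.Agent.R234.Sel5_570

/-!
# Row 234, node F2-REP (helper681), part 1: functionals with decay on the Wiener algebra

`rep` : `T (χ a) = T a`, `‖T a‖ ≤ K ns(-k) a`, `k = s + m + 1`, `m = dim F` imply
`T a = ∫ ev J · ev a` with `J ∈ X s`.
-/

set_option autoImplicit false
set_option linter.unusedSectionVars false

open MeasureTheory Complex Filter Real
open scoped ContDiff Topology InnerProductSpace ENNReal NNReal FourierTransform SchwartzMap

noncomputable section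

namespace Crest.Agent.R234.Rep_681

open Crest.Agent.R086.Wie Crest.Agent.R234.Mx1_397 Crest.Agent.R234.Mx2_397
  Crest.Agent.R234.Mx3_397 Crest.Agent.R234.Mx6_397 Crest.Agent.R234.Sel5_570

variable {F : Type*} [NormedAddCommGroup F] [InnerProductSpace ℝ F] [FiniteDimensional ℝ F]
  [MeasurableSpace F] [BorelSpace F]

/-! ### translations of a Schwartz density -/

theorem wt_zero (ξ : F) : wt 0 ξ = 1 := by unfold wt; rw [pow_zero]

theorem wint_tr (h : 𝓢(F, ℂ)) (ξ : F) : WInt 0 (fun η => h (η - ξ)) := by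
  have h1 : Integrable (fun η : F => h (η - ξ)) := h.integrable.comp_sub_right ξ
  refine h1.congr (Eventually.of_forall fun η => ?_)
  simp only [wtV_apply, wt_zero, one_smul]

/-- translation of the density `h` -/
def Mo (h : 𝓢(F, ℂ)) (ξ : F) : X F 0 := XG.mk (fun η => h (η - ξ)) (wint_tr h ξ)

theorem den_Mo (h : 𝓢(F, ℂ)) (ξ : F) : XG.den (Mo h ξ) =ᵐ[volume] fun η => h (η - ξ) :=
  XG.den_mk _

theorem norm_Mo (h : 𝓢(F, ℂ)) (ξ : F) : ‖Mo h ξ‖ = ∫ η, ‖h η‖ := by
  unfold Mo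
  rw [XG.norm_mk]
  simp only [wtV_apply, wt_zero, one_mul]
  exact integral_sub_right_eq_self (fun η => ‖h η‖) ξ

theorem norm_Mo_sub (h : 𝓢(F, ℂ)) (ξ ξ₀ : F) :
    ‖Mo h ξ - Mo h ξ₀‖ = ∫ η, ‖h (η - ξ) - h (η - ξ₀)‖ := by
  rw [XG.norm_eq]
  simp only [wtV_apply, wt_zero, one_mul]
  refine integral_congr_ae ?_
  filter_upwards [XG.den_sub (Mo h ξ) (Mo h ξ₀), den_Mo h ξ, den_Mo h ξ₀] with η h1 h2 h3
  rw [h1, h2, h3]

theorem exists_decay (h : 𝓢(F, ℂ)) : ∃ (n : ℕ) (A : ℝ), 0 ≤ A ∧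
    Integrable (fun x : F => (1 + ‖x‖) ^ (-(n : ℝ))) ∧
    ∀ x : F, ‖h x‖ ≤ A * (1 + ‖x‖) ^ (-(n : ℝ)) := by
  obtain ⟨n, hn⟩ := exists_pow (F := F)
  refine ⟨n, 2 ^ (0 + n) * ((Finset.Iic (0 + n, 0)).sup
      (schwartzSeminormFamily ℂ F ℂ) h), by positivity, hn, fun x => ?_⟩
  have := wt_mul_le 0 n h x
  rwa [wt_zero, one_mul] at this

theorem decay_shift (n : ℕ) {x y : F} (hxy : ‖x - y‖ ≤ 1) :
    (1 + ‖x‖) ^ (-(n : ℝ)) ≤ 2 ^ n * (1 + ‖y‖) ^ (-(n : ℝ)) := by
  have h1 : 1 + ‖y‖ ≤ 2 * (1 + ‖x‖) := by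
    have : ‖y‖ ≤ ‖x‖ + ‖x - y‖ := by
      have := norm_sub_le x (x - y)
      rwa [sub_sub_cancel] at this
    linarith [norm_nonneg x]
  have hx : (0 : ℝ) < 1 + ‖x‖ := by positivity
  have hy : (0 : ℝ) < 1 + ‖y‖ := by positivity
  rw [rpow_neg hx.le, rpow_neg hy.le, rpow_natCast, rpow_natCast, ← div_eq_mul_inv,
    le_div_iff₀ (pow_pos hy n), inv_mul_le_iff₀ (pow_pos hx n)]
  calc (1 + ‖y‖) ^ n ≤ (2 * (1 + ‖x‖)) ^ n := pow_le_pow_left₀ hy.le h1 n
    _ = _ := by rw [mul_pow]; ring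

theorem continuous_Mo (h : 𝓢(F, ℂ)) : Continuous (Mo h) := by
  refine continuous_iff_continuousAt.2 fun ξ₀ => ?_
  rw [ContinuousAt, tendsto_iff_norm_sub_tendsto_zero]
  simp only [norm_Mo_sub]
  obtain ⟨n, A, hA, hn, hd⟩ := exists_decay h
  have hlim : ∫ _η : F, (0 : ℝ) = 0 := integral_zero F ℝ
  rw [← hlim]
  refine tendsto_integral_filter_of_dominated_convergence
    (fun η => (A * 2 ^ n + A) * (1 + ‖η - ξ₀‖) ^ (-(n : ℝ)))
    (Eventually.of_forall fun ξ => ?_) ?_ ((hn.comp_sub_right ξ₀).const_mul _)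
    (Eventually.of_forall fun η => ?_)
  · exact (((h.continuous.comp (continuous_id.sub continuous_const)).sub
      (h.continuous.comp (continuous_id.sub continuous_const))).norm).aestronglyMeasurable
  · filter_upwards [Metric.closedBall_mem_nhds ξ₀ zero_lt_one] with ξ hξ
    refine Eventually.of_forall fun η => ?_
    rw [norm_norm]
    have h1 : ‖(η - ξ) - (η - ξ₀)‖ ≤ 1 := by
      rw [sub_sub_sub_cancel_left, ← dist_eq_norm, dist_comm]
      exact hξ
    have h2 := decay_shift n h1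
    calc ‖h (η - ξ) - h (η - ξ₀)‖ ≤ ‖h (η - ξ)‖ + ‖h (η - ξ₀)‖ := norm_sub_le _ _
      _ ≤ A * (2 ^ n * (1 + ‖η - ξ₀‖) ^ (-(n : ℝ))) + A * (1 + ‖η - ξ₀‖) ^ (-(n : ℝ)) := by
          refine add_le_add ((hd _).trans ?_) (hd _)
          gcongr
      _ = _ := by ring
  · have h1 : Continuous fun ξ : F => ‖h (η - ξ) - h (η - ξ₀)‖ :=
      ((h.continuous.comp (continuous_const.sub continuous_id)).sub continuous_const).norm
    have h2 := h1.tendsto ξ₀
    rwa [sub_self, norm_zero] at h2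

theorem ev_Mo (h : 𝓢(F, ℂ)) (ξ x : F) : ev (Mo h ξ) x = chr x ξ * ∫ η, chr x η * h η := by
  rw [ev_eq]
  have h1 : ∫ η, chr x η * XG.den (Mo h ξ) η = ∫ η, chr x η * h (η - ξ) :=
    integral_congr_ae ((den_Mo h ξ).mono fun η hη => by simp only [hη])
  rw [h1, ← integral_add_right_eq_self (fun η => chr x η * h (η - ξ)) ξ, ← integral_const_mul]
  refine integral_congr_ae (Eventually.of_forall fun η => ?_)
  simp only [add_sub_cancel_right, chr_add]
  ring

theorem ev_Mo_fourier (g : 𝓢(F, ℂ)) (ξ x : F) :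
    ev (Mo (𝓕 g) ξ) x = chr x ξ * ev (toX 0 g) x := by
  rw [ev_Mo, ev_eq]
  congr 1
  exact integral_congr_ae ((den_toX 0 g).mono fun η hη => by
    simp only [hη, SchwartzMap.fourier_coe])

/-- evaluation as a continuous functional -/
def evC (x : F) : X F 0 →L[ℂ] ℂ :=
  (evL (N := 0) x).mkContinuous 1 fun a => by
    rw [one_mul]
    exact norm_ev_le a x

theorem evC_apply (x : F) (a : X F 0) : evC x a = ev a x := rfl

theorem integrable_Mo (h : 𝓢(F, ℂ)) (a : X F 0) :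
    Integrable fun ξ => XG.den a ξ • Mo h ξ := by
  have hm : AEStronglyMeasurable (fun ξ => XG.den a ξ • Mo h ξ) (volume : Measure F) :=
    (XG.integrable_den a).aestronglyMeasurable.smul (continuous_Mo h).aestronglyMeasurable
  refine ((XG.integrable_den a).norm.mul_const (∫ η, ‖h η‖)).mono' hm
    (Eventually.of_forall fun ξ => ?_)
  rw [norm_smul, norm_Mo]

theorem mul_eq_integral (g : 𝓢(F, ℂ)) (a : X F 0) :
    toX 0 g * a = ∫ ξ, XG.den a ξ • Mo (𝓕 g) ξ := by
  refine ev_inj fun x => ?_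
  rw [← evC_apply x (∫ ξ, XG.den a ξ • Mo (𝓕 g) ξ),
    ← (evC x).integral_comp_comm (integrable_Mo (𝓕 g) a), ev_mul, ev_eq a, ← integral_const_mul]
  refine integral_congr_ae (Eventually.of_forall fun ξ => ?_)
  simp only [map_smul, evC_apply, ev_Mo_fourier, smul_eq_mul]
  ring

theorem T_mul_eq (T : X F 0 →L[ℂ] ℂ) (g : 𝓢(F, ℂ)) (a : X F 0) :
    T (toX 0 g * a) = ∫ ξ, XG.den a ξ * T (Mo (𝓕 g) ξ) := by
  rw [mul_eq_integral, ← T.integral_comp_comm (integrable_Mo (𝓕 g) a)]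
  simp only [map_smul, smul_eq_mul]

/-! ### decay -/

theorem wz_neg (s : ℤ) (ξ : F) : wz s (-ξ) = wz s ξ := by unfold wz; rw [norm_neg]

theorem ns_Mo_le (g : 𝓢(F, ℂ)) (k : ℕ) (ξ : F) :
    ns (-(k : ℤ)) (Mo (𝓕 g) ξ)
      ≤ ENNReal.ofReal ‖toX k g‖ * ENNReal.ofReal (wz (-(k : ℤ)) ξ) := by
  have e1 : ns (-(k : ℤ)) (Mo (𝓕 g) ξ)
      = ∫⁻ η, ‖(𝓕 g) (η - ξ)‖ₑ * ENNReal.ofReal (wz (-(k : ℤ)) η) :=
    lintegral_congr_ae ((den_Mo (𝓕 g) ξ).mono fun η hη => by simp only [hη])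
  have hc : Continuous fun η : F => (𝓕 g) (η - ξ) :=
    (𝓕 g).continuous.comp (continuous_id.sub continuous_const)
  have hm : Measurable fun η : F => ‖(𝓕 g) (η - ξ)‖ₑ * ENNReal.ofReal (wt k (η - ξ)) :=
    hc.measurable.enorm.mul ((continuous_wt k).comp
      (continuous_id.sub continuous_const)).measurable.ennreal_ofReal
  have e2 : ∫⁻ η, ‖(𝓕 g) (η - ξ)‖ₑ * ENNReal.ofReal (wt k (η - ξ))
      = ENNReal.ofReal ‖toX k g‖ := by
    have e3 := lintegral_sub_right_eq_self (μ := (volume : Measure F))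
      (fun η : F => ‖(𝓕 g) η‖ₑ * ENNReal.ofReal (wt k η)) ξ
    refine e3.trans ?_
    rw [← ns_nat]
    unfold ns
    refine lintegral_congr_ae ((den_toX k g).mono fun η hη => ?_)
    simp only [hη, SchwartzMap.fourier_coe, wz_nat]
  rw [e1, ← e2, ← lintegral_mul_const _ hm]
  refine lintegral_mono fun η => ?_
  have h1 : wz (-(k : ℤ)) η ≤ wt k (η - ξ) * wz (-(k : ℤ)) ξ := by
    have := wz_peetre (s := -(k : ℤ)) (N := k) (by simp) η (η - ξ)
    rwa [sub_sub_cancel] at this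
  calc ‖(𝓕 g) (η - ξ)‖ₑ * ENNReal.ofReal (wz (-(k : ℤ)) η)
      ≤ ‖(𝓕 g) (η - ξ)‖ₑ * ENNReal.ofReal (wt k (η - ξ) * wz (-(k : ℤ)) ξ) := by gcongr
    _ = _ := by rw [ENNReal.ofReal_mul (wt_nonneg k _), mul_assoc]

theorem norm_T_Mo_le {T : X F 0 →L[ℂ] ℂ} {g : 𝓢(F, ℂ)} {k : ℕ} {K : ℝ} (hK : 0 ≤ K)
    (hT : ∀ a : X F 0, ENNReal.ofReal ‖T a‖ ≤ ENNReal.ofReal K * ns (-(k : ℤ)) a) (ξ : F) :
    ‖T (Mo (𝓕 g) ξ)‖ ≤ K * ‖toX k g‖ * wz (-(k : ℤ)) ξ := by
  have h1 : ENNReal.ofReal ‖T (Mo (𝓕 g) ξ)‖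
      ≤ ENNReal.ofReal (K * ‖toX k g‖ * wz (-(k : ℤ)) ξ) := by
    refine (hT _).trans ?_
    rw [ENNReal.ofReal_mul (by positivity), ENNReal.ofReal_mul hK, mul_assoc]
    gcongr
    exact ns_Mo_le g k ξ
  exact (ENNReal.ofReal_le_ofReal_iff
    (mul_nonneg (mul_nonneg hK (norm_nonneg _)) (wz_nonneg _ _))).1 h1

theorem wt_mul_wz (s r : ℕ) (ξ : F) :
    wt s ξ * wz (-((s + r : ℕ) : ℤ)) ξ = (1 + ‖ξ‖) ^ (-(r : ℝ)) := by
  have h0 : (0 : ℝ) < 1 + ‖ξ‖ := one_add_pos ξ
  rw [← wz_nat, ← wz_add]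
  unfold wz
  have : ((s : ℤ) + -((s + r : ℕ) : ℤ)) = -(r : ℤ) := by push_cast; ring
  rw [this, ← Real.rpow_intCast]
  congr 1
  push_cast
  ring

/-! ### the Fourier inversion -/

theorem continuous_chr2 : Continuous fun z : F × F => chr z.1 z.2 := by
  unfold chr
  exact continuous_subtype_val.comp (Real.continuous_fourierChar.comp
    (continuous_snd.inner continuous_fst))

theorem chr_neg_left (x ξ : F) : chr x (-ξ) = chr (-x) ξ := by
  unfold chr
  rw [inner_neg_left, inner_neg_right]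

theorem integral_schwartz_mul_ev (φ : 𝓢(F, ℂ)) (a : X F 0) :
    ∫ x, φ x * ev a x = ∫ ξ, 𝓕⁻ (φ : F → ℂ) ξ * XG.den a ξ := by
  have h3 : ∀ x, φ x * ev a x = ∫ ξ, φ x * (chr x ξ * XG.den a ξ) := fun x => by
    rw [integral_const_mul, ← ev_eq]
  have hint : Integrable (Function.uncurry fun (x ξ : F) => φ x * (chr x ξ * XG.den a ξ))
      (volume.prod volume) := by
    have a1 : Integrable (fun z : F × F => φ z.1 * XG.den a z.2) (volume.prod volume) :=
      φ.integrable.mul_prod (XG.integrable_den a)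
    have a2 : Integrable (fun z : F × F => chr z.1 z.2 * (φ z.1 * XG.den a z.2))
        (volume.prod volume) :=
      a1.bdd_mul (c := 1) continuous_chr2.aestronglyMeasurable
        (Eventually.of_forall fun z => (norm_chr _ _).le)
    refine a2.congr (Eventually.of_forall fun z => ?_)
    simp only [Function.uncurry]
    ring
  rw [integral_congr_ae (Eventually.of_forall h3), integral_integral_swap hint]
  refine integral_congr_ae (Eventually.of_forall fun ξ => ?_)
  simp only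
  rw [Real.fourierInv_eq, ← integral_mul_const]
  refine integral_congr_ae (Eventually.of_forall fun x => ?_)
  simp only
  rw [Circle.smul_def, smul_eq_mul]
  unfold chr
  rw [real_inner_comm]
  ring

/-- **inversion**: the density is the Fourier transform of the synthesis when the latter is
integrable. -/
theorem den_eq {a : X F 0} (ha : Integrable (ev a)) :
    (fun ξ => ∫ x, chr x (-ξ) * ev a x) =ᵐ[volume] XG.den a := by
  have hcont : Continuous fun ξ : F => ∫ x, chr x (-ξ) * ev a x := by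
    refine continuous_of_dominated (bound := fun x => ‖ev a x‖) (fun ξ => ?_) (fun ξ => ?_)
      ha.norm (Eventually.of_forall fun x => ?_)
    · refine AEStronglyMeasurable.mul ?_ ha.aestronglyMeasurable
      exact (continuous_chr2.comp (continuous_id.prodMk continuous_const)).aestronglyMeasurable
    · refine Eventually.of_forall fun x => ?_
      rw [norm_mul, norm_chr, one_mul]
    · exact ((continuous_chr x).comp continuous_neg).mul continuous_const
  refine ae_eq_of_integral_contDiff_smul_eq hcont.locallyIntegrable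
    (XG.integrable_den a).locallyIntegrable fun g hg hs => ?_
  set φ : 𝓢(F, ℂ) := 𝓕 (toS g hs hg) with hφ
  have h4 : ∀ ξ, 𝓕⁻ (φ : F → ℂ) ξ = (g ξ : ℂ) := fun ξ => by
    rw [← SchwartzMap.fourierInv_coe, hφ, FourierTransform.fourierInv_fourier_eq, toS_apply]
  have h5 : ∀ x, φ x = ∫ ξ, (g ξ : ℂ) * chr x (-ξ) := fun x => by
    rw [hφ, SchwartzMap.fourier_coe, Real.fourier_eq]
    refine integral_congr_ae (Eventually.of_forall fun ξ => ?_)
    simp only
    rw [Circle.smul_def, smul_eq_mul, toS_apply, mul_comm]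
    unfold chr
    rw [inner_neg_left]
  have h6 : ∫ ξ, g ξ • XG.den a ξ = ∫ x, φ x * ev a x := by
    rw [integral_schwartz_mul_ev]
    refine integral_congr_ae (Eventually.of_forall fun ξ => ?_)
    simp only [h4, Complex.real_smul]
  rw [h6]
  have hgi : Integrable (fun ξ : F => (g ξ : ℂ)) := (toS g hs hg).integrable
  have hint : Integrable (Function.uncurry fun (ξ x : F) => (g ξ : ℂ) * (chr x (-ξ) * ev a x))
      (volume.prod volume) := by
    have a1 : Integrable (fun z : F × F => (g z.1 : ℂ) * ev a z.2) (volume.prod volume) :=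
      hgi.mul_prod ha
    have a2 : Integrable (fun z : F × F => chr z.2 (-z.1) * ((g z.1 : ℂ) * ev a z.2))
        (volume.prod volume) := by
      refine a1.bdd_mul (c := 1) ?_ (Eventually.of_forall fun z => (norm_chr _ _).le)
      exact (continuous_chr2.comp (continuous_snd.prodMk continuous_fst.neg)).aestronglyMeasurable
    refine a2.congr (Eventually.of_forall fun z => ?_)
    simp only [Function.uncurry]
    ring
  have e1 : ∫ ξ, g ξ • ∫ x, chr x (-ξ) * ev a x
      = ∫ ξ, ∫ x, (g ξ : ℂ) * (chr x (-ξ) * ev a x) := by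
    refine integral_congr_ae (Eventually.of_forall fun ξ => ?_)
    simp only [integral_const_mul, Complex.real_smul]
  rw [e1, integral_integral_swap hint]
  refine integral_congr_ae (Eventually.of_forall fun x => ?_)
  simp only
  rw [h5, ← integral_mul_const]
  refine integral_congr_ae (Eventually.of_forall fun ξ => ?_)
  simp only
  ring

theorem integral_ev_mul_ev {s : ℕ} (J : X F s) {a : X F 0} (ha : Integrable (ev a)) :
    ∫ x, ev J x * ev a x = ∫ ξ, XG.den J (-ξ) * XG.den a ξ := by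
  have hJ : Integrable (XG.den J) := XG.integrable_den J
  have hint : Integrable (Function.uncurry fun (x ξ : F) => chr x ξ * XG.den J ξ * ev a x)
      (volume.prod volume) := by
    have a1 : Integrable (fun z : F × F => ev a z.1 * XG.den J z.2) (volume.prod volume) :=
      ha.mul_prod hJ
    have a2 : Integrable (fun z : F × F => chr z.1 z.2 * (ev a z.1 * XG.den J z.2))
        (volume.prod volume) :=
      a1.bdd_mul (c := 1) continuous_chr2.aestronglyMeasurable
        (Eventually.of_forall fun z => (norm_chr _ _).le)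
    refine a2.congr (Eventually.of_forall fun z => ?_)
    simp only [Function.uncurry]
    ring
  have e1 : ∫ x, ev J x * ev a x = ∫ x, ∫ ξ, chr x ξ * XG.den J ξ * ev a x := by
    refine integral_congr_ae (Eventually.of_forall fun x => ?_)
    simp only [integral_mul_const, ev_eq J]
  rw [e1, integral_integral_swap hint, ← integral_neg_eq_self]
  refine integral_congr_ae ?_
  filter_upwards [den_eq ha] with ξ hξ
  rw [← hξ, ← integral_const_mul]
  refine integral_congr_ae (Eventually.of_forall fun x => ?_)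
  simp only
  ring

/-! ### the representation -/

/-- **representation** of functionals with decay. -/
theorem rep (s r : ℕ) (hr : (Module.finrank ℝ F : ℝ) < r) (T : X F 0 →L[ℂ] ℂ) (g : 𝓢(F, ℂ))
    (K : ℝ) (hK : 0 ≤ K) (hg : ∀ a : X F 0, T (toX 0 g * a) = T a)
    (hT : ∀ a : X F 0, ENNReal.ofReal ‖T a‖ ≤ ENNReal.ofReal K * ns (-((s + r : ℕ) : ℤ)) a) :
    ∃ J : X F s, ‖J‖ ≤ (∫ ξ : F, (1 + ‖ξ‖) ^ (-(r : ℝ))) * K * ‖toX (s + r) g‖ ∧
      ∀ a : X F 0, Integrable (ev a) → T a = ∫ x, ev J x * ev a x := by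
  have hint : Integrable fun ξ : F => (1 + ‖ξ‖) ^ (-(r : ℝ)) := integrable_one_add_norm hr
  set j : F → ℂ := fun ξ => T (Mo (𝓕 g) (-ξ)) with hj
  have hjc : Continuous j := T.continuous.comp ((continuous_Mo (𝓕 g)).comp continuous_neg)
  have hjb : ∀ ξ, wt s ξ * ‖j ξ‖ ≤ K * ‖toX (s + r) g‖ * (1 + ‖ξ‖) ^ (-(r : ℝ)) := fun ξ => by
    have h1 := norm_T_Mo_le hK hT (g := g) (-ξ)
    rw [wz_neg] at h1
    rw [← wt_mul_wz s r ξ]
    calc wt s ξ * ‖j ξ‖ ≤ wt s ξ * (K * ‖toX (s + r) g‖ * wz (-((s + r : ℕ) : ℤ)) ξ) :=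
          mul_le_mul_of_nonneg_left h1 (wt_nonneg s ξ)
      _ = _ := by ring
  have hjw : Integrable fun ξ : F => wt s ξ * ‖j ξ‖ := by
    refine (hint.const_mul (K * ‖toX (s + r) g‖)).mono'
      ((continuous_wt s).mul hjc.norm).aestronglyMeasurable (Eventually.of_forall fun ξ => ?_)
    rw [Real.norm_of_nonneg (mul_nonneg (wt_nonneg s ξ) (norm_nonneg _))]
    exact hjb ξ
  have hw : WInt s j := (gint_iff hjc.aestronglyMeasurable).2 hjw
  refine ⟨XG.mk j hw, ?_, fun a ha => ?_⟩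
  · rw [XG.norm_mk]
    calc ∫ ξ, (wtV F s) ξ * ‖j ξ‖
        ≤ ∫ ξ : F, K * ‖toX (s + r) g‖ * (1 + ‖ξ‖) ^ (-(r : ℝ)) :=
          integral_mono hjw (hint.const_mul _) hjb
      _ = _ := by rw [integral_const_mul]; ring
  · rw [← hg a, T_mul_eq, integral_ev_mul_ev _ ha]
    refine integral_congr_ae ?_
    filter_upwards [XG.ae_neg (XG.den_mk hw)] with ξ hξ
    rw [hξ, hj]
    simp only [neg_neg]
    ring

end Crest.Agent.R234.Rep_681
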