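import Crest.Agent.R234.MgDefs3_570
import Crest.Agent.R234.Rep_681

/-!
# Row 234, node F2-REP (helper681), part 2: the literal `RepP` of `MgDefs3_570`
-/

set_option autoImplicit false

open MeasureTheory
open Crest.GeometryTopology.Submanifold

noncomputable section

namespace Crest.Agent.R234.Rep_681

/-- node F2-REP, literal form. -/
theorem repP : MG_570.RepP := by
  intro m s
  have hd : (Module.finrank ℝ (Euc m) : ℝ) < ((m + 1 : ℕ) : ℝ) := by
    rw [finrank_euclideanSpace_fin]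
    exact_mod_cast Nat.lt_succ_self m
  refine ⟨(∫ ξ : Euc m, (1 + ‖ξ‖) ^ (-((m + 1 : ℕ) : ℝ))) + 1,
    add_pos_of_nonneg_of_pos (integral_nonneg fun ξ => by positivity) one_pos,
    fun T g K hK hg hT => ?_⟩
  obtain ⟨J, hJ, hJ'⟩ := rep s (m + 1) hd T g K hK hg hT
  refine ⟨J, hJ.trans ?_, hJ'⟩
  have h0 : 0 ≤ ‖Mx3_397.toX (s + m + 1) g‖ := norm_nonneg _
  show _ ≤ _ * K * ‖Mx3_397.toX (s + m + 1) g‖
  gcongr
  · linarith
  · exact le_rfl

end Crest.Agent.R234.Rep_681
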