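import Crest.Agent.R234.Rig1_300

/-! Row 234, VF-RIG (task 1369), part 2: (7)(iii) of #5124: if the tensor `a I - e`
(`a = μ - ν`, `e = p_# (Q dV)`) is divergence free and `e_WW` is small then `a` is almost
invariant under translations along `W`, hence decays like `(r/s)^(dim W)`. -/

namespace Crest.Agent.R234.Rig_300

open MeasureTheory Set Metric

noncomputable section

/-! ### Cauchy-Schwarz -/

theorem integral_cs {α : Type*} [MeasurableSpace α] {μ : Measure α} {f g : α → ℝ}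
    (hf : Integrable (fun x => f x ^ 2) μ) (hg : Integrable (fun x => g x ^ 2) μ)
    (hfg : Integrable (fun x => f x * g x) μ) :
    (∫ x, f x * g x ∂μ) ^ 2 ≤ (∫ x, f x ^ 2 ∂μ) * ∫ x, g x ^ 2 ∂μ := by
  have key : ∀ t : ℝ, 0 ≤ (∫ x, g x ^ 2 ∂μ) * (t * t) + (2 * ∫ x, f x * g x ∂μ) * t +
      ∫ x, f x ^ 2 ∂μ := by
    intro t
    have h1 : 0 ≤ ∫ x, (f x + t * g x) ^ 2 ∂μ := integral_nonneg fun x => sq_nonneg _
    have h2 : ∫ x, (f x + t * g x) ^ 2 ∂μ =
        (∫ x, f x ^ 2 ∂μ) + (2 * t) * (∫ x, f x * g x ∂μ) + t ^ 2 * ∫ x, g x ^ 2 ∂μ := by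
      have e1 : (fun x => (f x + t * g x) ^ 2) =
          fun x => f x ^ 2 + ((2 * t) * (f x * g x) + t ^ 2 * g x ^ 2) := by
        funext x; ring
      have h12 : Integrable (fun x => (2 * t) * (f x * g x) + t ^ 2 * g x ^ 2) μ :=
        (hfg.const_mul _).add (hg.const_mul _)
      rw [e1, integral_add hf h12,
        integral_add (hfg.const_mul _) (hg.const_mul _), integral_const_mul, integral_const_mul]
      ring
    rw [h2] at h1
    linarith
  have := discrim_le_zero key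
  rw [discrim] at this
  nlinarith [this]

variable {F : Type*} [NormedAddCommGroup F] [InnerProductSpace ℝ F]
variable {Ω : Type*} [MeasurableSpace Ω]

/-- `e`-mass estimate: `∫ ‖Q w‖ ≤ √(∫ ‖Q‖) √(∫ ⟨Q w, w⟩)`. -/
theorem integral_norm_apply_le {V : Measure Ω} {Q : Ω → F →L[ℝ] F}
    (hQ : ∀ᵐ ω ∂V, PSD (Q ω)) (hI : Integrable Q V) (w : F) :
    ∫ ω, ‖Q ω w‖ ∂V ≤ Real.sqrt (∫ ω, ‖Q ω‖ ∂V) * Real.sqrt (∫ ω, inner ℝ (Q ω w) w ∂V) := by
  have hw : Integrable (fun ω => inner ℝ (Q ω w) w) V :=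
    (hI.apply_continuousLinearMap w).inner_const w
  have hn : Integrable (fun ω => ‖Q ω w‖) V := (hI.apply_continuousLinearMap w).norm
  have hfg : Integrable (fun ω => Real.sqrt ‖Q ω‖ * Real.sqrt (inner ℝ (Q ω w) w)) V := by
    refine ((hI.norm.add hw)).mono' ?_ ?_
    · exact (Real.continuous_sqrt.comp_aestronglyMeasurable hI.norm.aestronglyMeasurable).mul
        (Real.continuous_sqrt.comp_aestronglyMeasurable hw.aestronglyMeasurable)
    · filter_upwards [hQ] with ω h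
      have h1 := Real.sq_sqrt (norm_nonneg (Q ω))
      have h2 := Real.sq_sqrt (h.nonneg w)
      rw [Real.norm_of_nonneg (by positivity), Pi.add_apply]
      nlinarith [sq_nonneg (Real.sqrt ‖Q ω‖ - Real.sqrt (inner ℝ (Q ω w) w)),
        Real.sqrt_nonneg ‖Q ω‖, Real.sqrt_nonneg (inner ℝ (Q ω w) w)]
  have e1 : ∫ ω, Real.sqrt ‖Q ω‖ ^ 2 ∂V = ∫ ω, ‖Q ω‖ ∂V := by
    refine integral_congr_ae (Filter.Eventually.of_forall fun ω => ?_)
    exact Real.sq_sqrt (norm_nonneg _)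
  have e2 : ∫ ω, Real.sqrt (inner ℝ (Q ω w) w) ^ 2 ∂V = ∫ ω, inner ℝ (Q ω w) w ∂V := by
    refine integral_congr_ae ?_
    filter_upwards [hQ] with ω h
    exact Real.sq_sqrt (h.nonneg w)
  have hcs := integral_cs (μ := V) (f := fun ω => Real.sqrt ‖Q ω‖)
    (g := fun ω => Real.sqrt (inner ℝ (Q ω w) w))
    (hI.norm.congr (Filter.Eventually.of_forall fun ω => (Real.sq_sqrt (norm_nonneg _)).symm))
    (hw.congr (by filter_upwards [hQ] with ω h; exact (Real.sq_sqrt (h.nonneg w)).symm)) hfg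
  simp only [e1, e2] at hcs
  calc ∫ ω, ‖Q ω w‖ ∂V ≤ ∫ ω, Real.sqrt ‖Q ω‖ * Real.sqrt (inner ℝ (Q ω w) w) ∂V := by
        refine integral_mono_ae hn hfg ?_
        filter_upwards [hQ] with ω h using h.norm_le_sqrt w
    _ ≤ Real.sqrt ((∫ ω, ‖Q ω‖ ∂V) * ∫ ω, inner ℝ (Q ω w) w ∂V) := Real.le_sqrt_of_sq_le hcs
    _ = _ := Real.sqrt_mul (integral_nonneg fun _ => norm_nonneg _) _

variable [FiniteDimensional ℝ F] [MeasurableSpace F] [BorelSpace F]

/-- DIV: `a I - e` is divergence free in `B`, `a = μ - ν`, `e = p_# (Q dV)`. -/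
def DivFree (μ ν : Measure F) (V : Measure Ω) (p : Ω → F) (Q : Ω → F →L[ℝ] F) (B : Set F) :
    Prop :=
  ∀ ζ : F → ℝ, ContDiff ℝ (⊤ : ℕ∞) ζ → HasCompactSupport ζ → tsupport ζ ⊆ B → ∀ ξ : F,
    ∫ y, fderiv ℝ ζ y ξ ∂μ - ∫ y, fderiv ℝ ζ y ξ ∂ν = ∫ ω, fderiv ℝ ζ (p ω) (Q ω ξ) ∂V

omit [FiniteDimensional ℝ F] [MeasurableSpace F] [BorelSpace F] in
/-- the right hand side of DIV. -/
theorem rhs_le {V : Measure Ω} {p : Ω → F} {Q : Ω → F →L[ℝ] F} {B : Set F}
    (hQ : ∀ᵐ ω ∂V.restrict (p ⁻¹' B), PSD (Q ω)) (hI : IntegrableOn Q (p ⁻¹' B) V)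
    {ζ : F → ℝ} (hs : tsupport ζ ⊆ B) {C : ℝ} (hC : ∀ y, ‖fderiv ℝ ζ y‖ ≤ C) (w : F) :
    ‖∫ ω, fderiv ℝ ζ (p ω) (Q ω w) ∂V‖ ≤
      C * (Real.sqrt (∫ ω in p ⁻¹' B, ‖Q ω‖ ∂V) *
        Real.sqrt (∫ ω in p ⁻¹' B, inner ℝ (Q ω w) w ∂V)) := by
  have hC0 : 0 ≤ C := (norm_nonneg _).trans (hC 0)
  have h1 : ∫ ω, fderiv ℝ ζ (p ω) (Q ω w) ∂V = ∫ ω in p ⁻¹' B, fderiv ℝ ζ (p ω) (Q ω w) ∂V := by
    refine (setIntegral_eq_integral_of_forall_compl_eq_zero fun ω hω => ?_).symm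
    have : fderiv ℝ ζ (p ω) = 0 := by
      by_contra h
      exact hω (hs (support_fderiv_subset ℝ (f := ζ) h))
    rw [this]; rfl
  rw [h1]
  have hn : Integrable (fun ω => ‖Q ω w‖) (V.restrict (p ⁻¹' B)) :=
    (hI.apply_continuousLinearMap w).norm
  calc ‖∫ ω in p ⁻¹' B, fderiv ℝ ζ (p ω) (Q ω w) ∂V‖
      ≤ ∫ ω in p ⁻¹' B, C * ‖Q ω w‖ ∂V := by
        refine norm_integral_le_of_norm_le (hn.const_mul C) ?_
        refine Filter.Eventually.of_forall fun ω => ?_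
        exact ((fderiv ℝ ζ (p ω)).le_opNorm _).trans
          (mul_le_mul_of_nonneg_right (hC _) (norm_nonneg _))
    _ = C * ∫ ω in p ⁻¹' B, ‖Q ω w‖ ∂V := integral_const_mul _ _
    _ ≤ _ := mul_le_mul_of_nonneg_left (integral_norm_apply_le hQ hI w) hC0

/-- differentiation of translates under the integral. -/
theorem hasDerivAt_transl (μ : Measure F) [IsFiniteMeasureOnCompacts μ] {ζ : F → ℝ}
    (hζ : ContDiff ℝ (⊤ : ℕ∞) ζ) (hc : HasCompactSupport ζ) (w : F) (t₀ : ℝ) :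
    HasDerivAt (fun t : ℝ => ∫ y, ζ (y - t • w) ∂μ)
      (∫ y, -(fderiv ℝ ζ (y - t₀ • w) w) ∂μ) t₀ := by
  obtain ⟨R, hR⟩ := hc.isCompact.isBounded.subset_closedBall (0 : F)
  have hfc : Continuous (fderiv ℝ ζ) := hζ.continuous_fderiv (by simp)
  have hfs : HasCompactSupport (fderiv ℝ ζ) := hc.fderiv ℝ
  obtain ⟨C, hC⟩ := hfc.bounded_above_of_compact_support hfs
  set S : Set F := closedBall 0 (R + (|t₀| + 1) * ‖w‖) with hS
  have hSm : MeasurableSet S := isClosed_closedBall.measurableSet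
  have hμS : μ S < ⊤ := (isCompact_closedBall _ _).measure_lt_top
  have hint : ∀ t : ℝ, Integrable (fun y => ζ (y - t • w)) μ := by
    intro t
    refine Continuous.integrable_of_hasCompactSupport (hζ.continuous.comp (by fun_prop)) ?_
    have := hc.comp_homeomorph (Homeomorph.subRight (t • w))
    exact this
  refine (hasDerivAt_integral_of_dominated_loc_of_deriv_le (μ := μ)
    (F := fun t y => ζ (y - t • w)) (F' := fun t y => -(fderiv ℝ ζ (y - t • w) w))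
    (bound := S.indicator fun _ => C * ‖w‖) (s := ball t₀ 1) (ball_mem_nhds t₀ one_pos)
    ?_ (hint t₀) ?_ ?_ ?_ ?_).2
  · exact Filter.Eventually.of_forall fun t => (hint t).aestronglyMeasurable
  · refine Continuous.aestronglyMeasurable ?_
    have h1 : Continuous fun y : F => y - t₀ • w := by fun_prop
    exact ((hfc.comp h1).clm_apply continuous_const).neg
  · refine Filter.Eventually.of_forall fun y t ht => ?_
    rw [norm_neg]
    by_cases hy : y ∈ S
    · rw [indicator_of_mem hy]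
      exact ((fderiv ℝ ζ (y - t • w)).le_opNorm w).trans
        (mul_le_mul_of_nonneg_right (hC _) (norm_nonneg _))
    · rw [indicator_of_notMem hy]
      have h0 : fderiv ℝ ζ (y - t • w) = 0 := by
        by_contra h
        have h1 := hR (support_fderiv_subset ℝ (f := ζ) h)
        rw [mem_closedBall_zero_iff] at h1
        apply hy
        rw [hS, mem_closedBall_zero_iff]
        have h2 : |t| ≤ |t₀| + 1 := by
          rw [mem_ball, Real.dist_eq] at ht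
          have := abs_sub_abs_le_abs_sub t t₀
          linarith
        calc ‖y‖ = ‖(y - t • w) + t • w‖ := by congr 1; abel
          _ ≤ ‖y - t • w‖ + ‖t • w‖ := norm_add_le _ _
          _ ≤ R + (|t₀| + 1) * ‖w‖ := by
              rw [norm_smul, Real.norm_eq_abs]
              gcongr
      rw [h0]; simp
  · refine (integrable_indicator_iff hSm).2 ?_
    exact integrableOn_const hμS.ne
  · refine Filter.Eventually.of_forall fun y t _ => ?_
    have h1 : HasFDerivAt ζ (fderiv ℝ ζ (y - t • w)) (y - t • w) :=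
      (hζ.differentiable (by simp)).differentiableAt.hasFDerivAt
    have h2 : HasDerivAt (fun t : ℝ => y - t • w) (-w) t := by
      have := ((hasDerivAt_id t).smul_const w).const_sub y
      simpa using this
    have := h1.comp_hasDerivAt t h2
    simpa [Function.comp_def] using this

/-- **almost invariance of `a` under translations.** -/
theorem transl_le {μ ν : Measure F} [IsFiniteMeasureOnCompacts μ] [IsFiniteMeasureOnCompacts ν]
    {V : Measure Ω} {p : Ω → F} {Q : Ω → F →L[ℝ] F} {B : Set F}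
    (hdiv : DivFree μ ν V p Q B)
    (hQ : ∀ᵐ ω ∂V.restrict (p ⁻¹' B), PSD (Q ω)) (hI : IntegrableOn Q (p ⁻¹' B) V)
    {ζ : F → ℝ} (hζ : ContDiff ℝ (⊤ : ℕ∞) ζ) (hc : HasCompactSupport ζ) (w : F)
    (hs : ∀ t ∈ Icc (0 : ℝ) 1, tsupport (fun y => ζ (y - t • w)) ⊆ B)
    {C : ℝ} (hC : ∀ y, ‖fderiv ℝ ζ y‖ ≤ C) :
    |(∫ y, ζ (y - w) ∂μ - ∫ y, ζ (y - w) ∂ν) - (∫ y, ζ y ∂μ - ∫ y, ζ y ∂ν)| ≤
      C * (Real.sqrt (∫ ω in p ⁻¹' B, ‖Q ω‖ ∂V) *
        Real.sqrt (∫ ω in p ⁻¹' B, inner ℝ (Q ω w) w ∂V)) := by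
  set g : ℝ → ℝ := fun t => ∫ y, ζ (y - t • w) ∂μ - ∫ y, ζ (y - t • w) ∂ν with hg
  set M := C * (Real.sqrt (∫ ω in p ⁻¹' B, ‖Q ω‖ ∂V) *
        Real.sqrt (∫ ω in p ⁻¹' B, inner ℝ (Q ω w) w ∂V)) with hM
  set g' : ℝ → ℝ := fun t => ∫ y, -(fderiv ℝ ζ (y - t • w) w) ∂μ -
    ∫ y, -(fderiv ℝ ζ (y - t • w) w) ∂ν with hg'
  have hd : ∀ t : ℝ, HasDerivAt g (g' t) t := fun t =>
    (hasDerivAt_transl μ hζ hc w t).sub (hasDerivAt_transl ν hζ hc w t)
  have hb : ∀ t ∈ Ico (0 : ℝ) 1, ‖g' t‖ ≤ M := by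
    intro t ht
    have hsm : ContDiff ℝ (⊤ : ℕ∞) (fun y => ζ (y - t • w)) := hζ.comp (by fun_prop)
    have hcs : HasCompactSupport (fun y => ζ (y - t • w)) :=
      hc.comp_homeomorph (Homeomorph.subRight (t • w))
    have hfd : ∀ y, fderiv ℝ (fun y => ζ (y - t • w)) y = fderiv ℝ ζ (y - t • w) := fun y =>
      fderiv_comp_sub (f := ζ) (x := y) (t • w)
    have h1 := hdiv _ hsm hcs (hs t ⟨ht.1, ht.2.le⟩) w
    have h2 := rhs_le (V := V) hQ hI (hs t ⟨ht.1, ht.2.le⟩) (C := C)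
      (fun y => by rw [hfd]; exact hC _) w
    rw [← h1] at h2
    simp only [hfd] at h2
    have h3 : g' t = -(∫ y, fderiv ℝ ζ (y - t • w) w ∂μ - ∫ y, fderiv ℝ ζ (y - t • w) w ∂ν) := by
      rw [hg']
      simp only [integral_neg]
      ring
    rw [h3, norm_neg]
    exact h2
  have key := norm_image_sub_le_of_norm_deriv_le_segment_01' (f := g) (f' := g') (C := M)
    (fun t _ => (hd t).hasDerivWithinAt) hb
  simpa [hg] using key

/-! ### (7)(iii) -/

/-- the shifts `Σ 3 r k_i e_i`. -/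
def shift {d : ℕ} (e : Fin d → F) (ρ : ℝ) {K : ℕ} (k : Fin d → Fin K) : F :=
  ∑ i, (ρ * (k i : ℝ)) • e i

omit [FiniteDimensional ℝ F] [MeasurableSpace F] [BorelSpace F] in
theorem norm_shift_le {d : ℕ} {e : Fin d → F} (he : Orthonormal ℝ e) {ρ : ℝ} (hρ : 0 ≤ ρ) {K : ℕ}
    (k : Fin d → Fin K) : ‖shift e ρ k‖ ≤ d * (ρ * K) := by
  calc ‖shift e ρ k‖ ≤ ∑ i, ‖(ρ * (k i : ℝ)) • e i‖ := norm_sum_le _ _
    _ ≤ ∑ _i : Fin d, ρ * K := by
        refine Finset.sum_le_sum fun i _ => ?_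
        rw [norm_smul, he.1 i, mul_one, Real.norm_of_nonneg (by positivity)]
        have : ((k i : ℕ) : ℝ) ≤ K := by exact_mod_cast (k i).2.le
        gcongr
    _ = _ := by simp

omit [FiniteDimensional ℝ F] [MeasurableSpace F] [BorelSpace F] in
theorem shift_sep {d : ℕ} {e : Fin d → F} (he : Orthonormal ℝ e) {ρ : ℝ} (hρ : 0 ≤ ρ) {K : ℕ}
    {k k' : Fin d → Fin K} (h : k ≠ k') : ρ ≤ ‖shift e ρ k - shift e ρ k'‖ := by
  obtain ⟨i, hi⟩ := Function.ne_iff.1 h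
  have h1 : inner ℝ (e i) (shift e ρ k - shift e ρ k') = ρ * ((k i : ℝ) - (k' i : ℝ)) := by
    rw [shift, shift, inner_sub_right, he.inner_right_fintype, he.inner_right_fintype]
    ring
  have h2 : (1 : ℝ) ≤ |((k i : ℕ) : ℝ) - ((k' i : ℕ) : ℝ)| := by
    have h3 : ((k i : ℕ) : ℤ) - ((k' i : ℕ) : ℤ) ≠ 0 := by
      intro h4
      apply hi
      apply Fin.ext
      omega
    have := Int.one_le_abs h3
    exact_mod_cast this
  calc ρ = ρ * 1 := (mul_one _).symm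
    _ ≤ ρ * |((k i : ℕ) : ℝ) - ((k' i : ℕ) : ℝ)| := by gcongr
    _ = |inner ℝ (e i) (shift e ρ k - shift e ρ k')| := by
        rw [h1, abs_mul, abs_of_nonneg hρ]
    _ ≤ ‖e i‖ * ‖shift e ρ k - shift e ρ k'‖ := abs_real_inner_le_norm _ _
    _ = _ := by rw [he.1 i, one_mul]

omit [FiniteDimensional ℝ F] [MeasurableSpace F] [BorelSpace F] in
theorem inner_shift_le {d : ℕ} {e : Fin d → F} {q : F →L[ℝ] F} (hq : PSD q) {ρ : ℝ}
    (hρ : 0 ≤ ρ) {K : ℕ} (k : Fin d → Fin K) :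
    inner ℝ (q (shift e ρ k)) (shift e ρ k) ≤ d * (ρ * K) ^ 2 * ∑ i, inner ℝ (q (e i)) (e i) := by
  refine (hq.sum_le Finset.univ (fun i => ρ * (k i : ℝ)) e).trans ?_
  refine mul_le_mul_of_nonneg_right ?_ (Finset.sum_nonneg fun i _ => hq.nonneg _)
  calc ∑ i, (ρ * (k i : ℝ)) ^ 2 ≤ ∑ _i : Fin d, (ρ * K) ^ 2 := by
        refine Finset.sum_le_sum fun i _ => ?_
        have : ((k i : ℕ) : ℝ) ≤ K := by exact_mod_cast (k i).2.le
        gcongr
    _ = _ := by simp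

/-- **(7)(iii) of #5124, quantitative.**  `f` a bump of radius `r` at `z`, `e₁..e_d`
orthonormal in `W`, `Φ ≥ 1` on the ball of radius `r + 3 r d K`, all in `B`;
`κ` = holes (`ν ≤ μ + κ` on `B`). -/
theorem rigid {μ ν κ : Measure F} [IsFiniteMeasureOnCompacts μ] [IsFiniteMeasureOnCompacts ν]
    [IsFiniteMeasureOnCompacts κ]
    {V : Measure Ω} {p : Ω → F} {Q : Ω → F →L[ℝ] F} {B : Set F}
    (hdiv : DivFree μ ν V p Q B)
    (hQ : ∀ᵐ ω ∂V.restrict (p ⁻¹' B), PSD (Q ω)) (hI : IntegrableOn Q (p ⁻¹' B) V)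
    (hκ : ν.restrict B ≤ μ.restrict B + κ.restrict B)
    {d : ℕ} {e : Fin d → F} (he : Orthonormal ℝ e) {z : F} {r : ℝ} (hr : 0 < r) (K : ℕ)
    (hzB : closedBall z (r + d * (3 * r * K)) ⊆ B)
    {f : F → ℝ} (hf : ContDiff ℝ (⊤ : ℕ∞) f) (hf0 : ∀ y, 0 ≤ f y) (hf1 : ∀ y, f y ≤ 1)
    (hfs : Function.support f ⊆ closedBall z r) {C : ℝ} (hC : ∀ y, ‖fderiv ℝ f y‖ ≤ C)
    {Φ : F → ℝ} (hΦ : Continuous Φ) (hΦc : HasCompactSupport Φ) (hΦB : Function.support Φ ⊆ B)
    (hΦ0 : ∀ y, 0 ≤ Φ y) (hΦ1 : ∀ y ∈ closedBall z (r + d * (3 * r * K)), 1 ≤ Φ y) :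
    (K : ℝ) ^ d * (∫ y, f y ∂μ - ∫ y, f y ∂ν) ≤
      (∫ y, Φ y ∂μ - ∫ y, Φ y ∂ν + ∫ y, Φ y ∂κ) +
        (K : ℝ) ^ d * (C * (3 * r * K * Real.sqrt d) * (Real.sqrt (∫ ω in p ⁻¹' B, ‖Q ω‖ ∂V) *
          Real.sqrt (∑ i, ∫ ω in p ⁻¹' B, inner ℝ (Q ω (e i)) (e i) ∂V))) := by
  classical
  have hC0 : 0 ≤ C := (norm_nonneg _).trans (hC 0)
  set ρ : ℝ := 3 * r with hρ
  have hρ0 : 0 ≤ ρ := by positivity
  set w : (Fin d → Fin K) → F := fun k => shift e ρ k with hw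
  have hfc : HasCompactSupport f := by
    refine HasCompactSupport.intro' (isCompact_closedBall z r) isClosed_closedBall fun x hx => ?_
    by_contra h
    exact hx (hfs h)
  have hfk : ∀ k, HasCompactSupport (fun y => f (y - w k)) := fun k =>
    hfc.comp_homeomorph (Homeomorph.subRight (w k))
  have hfkc : ∀ k, Continuous (fun y => f (y - w k)) := fun k =>
    hf.continuous.comp (by fun_prop)
  -- the translated functions have disjoint supports
  have hg : ∀ y, ∑ k, f (y - w k) ≤ Φ y := by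
    intro y
    by_cases hy : ∃ k, f (y - w k) ≠ 0
    · obtain ⟨k, hk⟩ := hy
      have h1 : ‖y - w k - z‖ ≤ r := by
        have := hfs hk
        rwa [mem_closedBall, dist_eq_norm] at this
      have h2 : ∑ k, f (y - w k) = f (y - w k) := by
        refine Finset.sum_eq_single k (fun k' _ hkk => ?_) (fun h => absurd (Finset.mem_univ k) h)
        by_contra h3
        have h4 : ‖y - w k' - z‖ ≤ r := by
          have := hfs h3
          rwa [mem_closedBall, dist_eq_norm] at this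
        have h5 := shift_sep he hρ0 hkk
        have h6 : shift e ρ k' - shift e ρ k = (y - w k - z) - (y - w k' - z) := by
          simp only [hw]; abel
        have h7 := norm_sub_le (y - w k - z) (y - w k' - z)
        rw [← h6] at h7
        linarith
      rw [h2]
      refine (hf1 _).trans (hΦ1 y ?_)
      rw [mem_closedBall, dist_eq_norm]
      have h3 := norm_shift_le he hρ0 k
      have h4 : y - z = (y - w k - z) + shift e ρ k := by simp only [hw]; abel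
      rw [h4]
      refine (norm_add_le _ _).trans ?_
      linarith
    · push Not at hy
      rw [Finset.sum_eq_zero fun k _ => hy k]
      exact hΦ0 y
  have hig : ∀ (m : Measure F) [IsFiniteMeasureOnCompacts m], ∀ k,
      Integrable (fun y => f (y - w k)) m := fun m _ k =>
    (hfkc k).integrable_of_hasCompactSupport (hfk k)
  have hiΦ : ∀ (m : Measure F) [IsFiniteMeasureOnCompacts m], Integrable Φ m := fun m _ =>
    hΦ.integrable_of_hasCompactSupport hΦc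
  have hgi : ∀ (m : Measure F) [IsFiniteMeasureOnCompacts m],
      Integrable (fun y => ∑ k, f (y - w k)) m := fun m _ =>
    integrable_finsetSum _ fun k _ => hig m k
  have hsupp0 : ∀ y, y ∉ B → Φ y - ∑ k, f (y - w k) = 0 := by
    intro y hy
    have h1 : Φ y = 0 := by
      by_contra h
      exact hy (hΦB h)
    have h2 : 0 ≤ ∑ k, f (y - w k) := Finset.sum_nonneg fun k _ => hf0 _
    have h3 := hg y
    rw [h1] at h3 ⊢
    linarith
  have hsum : ∑ k, (∫ y, f (y - w k) ∂μ - ∫ y, f (y - w k) ∂ν) ≤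
      ∫ y, Φ y ∂μ - ∫ y, Φ y ∂ν + ∫ y, Φ y ∂κ := by
    have hr1 : ∀ (m : Measure F), ∫ y, (Φ y - ∑ k, f (y - w k)) ∂m =
        ∫ y, (Φ y - ∑ k, f (y - w k)) ∂(m.restrict B) := fun m =>
      (setIntegral_eq_integral_of_forall_compl_eq_zero hsupp0).symm
    have h1 : ∫ y, (Φ y - ∑ k, f (y - w k)) ∂ν ≤
        ∫ y, (Φ y - ∑ k, f (y - w k)) ∂μ + ∫ y, (Φ y - ∑ k, f (y - w k)) ∂κ := by
      rw [hr1 ν, hr1 μ, hr1 κ]
      have i1 : Integrable (fun y => Φ y - ∑ k, f (y - w k)) (μ.restrict B) :=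
        ((hiΦ μ).sub (hgi μ)).restrict
      have i2 : Integrable (fun y => Φ y - ∑ k, f (y - w k)) (κ.restrict B) :=
        ((hiΦ κ).sub (hgi κ)).restrict
      rw [← integral_add_measure i1 i2]
      refine integral_mono_measure hκ ?_ (i1.add_measure i2)
      exact Filter.Eventually.of_forall fun y => sub_nonneg.2 (hg y)
    have h2 : ∀ (m : Measure F) [IsFiniteMeasureOnCompacts m],
        ∫ y, (Φ y - ∑ k, f (y - w k)) ∂m = ∫ y, Φ y ∂m - ∑ k, ∫ y, f (y - w k) ∂m := by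
      intro m _
      rw [integral_sub (hiΦ m) (hgi m), integral_finsetSum _ fun k _ => hig m k]
    rw [h2 ν, h2 μ, h2 κ] at h1
    have h3 : 0 ≤ ∑ k, ∫ y, f (y - w k) ∂κ :=
      Finset.sum_nonneg fun k _ => integral_nonneg fun y => hf0 _
    rw [Finset.sum_sub_distrib]
    linarith
  set EW : ℝ := ∑ i, ∫ ω in p ⁻¹' B, inner ℝ (Q ω (e i)) (e i) ∂V with hEW
  set E0 : ℝ := ∫ ω in p ⁻¹' B, ‖Q ω‖ ∂V with hE0
  have hterm : ∀ k, ∫ y, f y ∂μ - ∫ y, f y ∂ν ≤
      (∫ y, f (y - w k) ∂μ - ∫ y, f (y - w k) ∂ν) +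
        C * (3 * r * K * Real.sqrt d) * (Real.sqrt E0 * Real.sqrt EW) := by
    intro k
    have hs : ∀ t ∈ Icc (0 : ℝ) 1, tsupport (fun y => f (y - t • w k)) ⊆ B := by
      intro t ht
      refine Subset.trans (closure_minimal ?_ isClosed_closedBall) hzB
      intro y hy
      have h1 : ‖y - t • w k - z‖ ≤ r := by
        have := hfs hy
        rwa [mem_closedBall, dist_eq_norm] at this
      rw [mem_closedBall, dist_eq_norm]
      have h4 : y - z = (y - t • w k - z) + t • w k := by abel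
      rw [h4]
      refine (norm_add_le _ _).trans ?_
      have h5 : ‖t • w k‖ ≤ d * (ρ * K) := by
        rw [norm_smul, Real.norm_of_nonneg ht.1]
        calc t * ‖w k‖ ≤ 1 * ‖w k‖ := by gcongr; exact ht.2
          _ = ‖w k‖ := one_mul _
          _ ≤ _ := norm_shift_le he hρ0 k
      linarith
    have h1 := transl_le hdiv hQ hI hf hfc (w k) hs hC
    have h2 : ∫ ω in p ⁻¹' B, inner ℝ (Q ω (w k)) (w k) ∂V ≤ d * (ρ * K) ^ 2 * EW := by
      have hie : ∀ v : F, Integrable (fun ω => inner ℝ (Q ω v) v) (V.restrict (p ⁻¹' B)) :=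
        fun v => (hI.apply_continuousLinearMap v).inner_const v
      rw [hEW, ← integral_finsetSum _ fun i _ => hie (e i), ← integral_const_mul]
      refine integral_mono_ae (hie _) ((integrable_finsetSum _ fun i _ => hie (e i)).const_mul _) ?_
      filter_upwards [hQ] with ω h
      exact inner_shift_le h hρ0 k
    have h3 : Real.sqrt (∫ ω in p ⁻¹' B, inner ℝ (Q ω (w k)) (w k) ∂V) ≤
        (ρ * K * Real.sqrt d) * Real.sqrt EW := by
      refine (Real.sqrt_le_sqrt h2).trans (le_of_eq ?_)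
      rw [Real.sqrt_mul (by positivity), Real.sqrt_mul (by positivity),
        Real.sqrt_sq (by positivity)]
      ring
    have h4 : C * (Real.sqrt E0 * Real.sqrt (∫ ω in p ⁻¹' B, inner ℝ (Q ω (w k)) (w k) ∂V)) ≤
        C * (3 * r * K * Real.sqrt d) * (Real.sqrt E0 * Real.sqrt EW) := by
      calc C * (Real.sqrt E0 * Real.sqrt (∫ ω in p ⁻¹' B, inner ℝ (Q ω (w k)) (w k) ∂V))
          ≤ C * (Real.sqrt E0 * ((ρ * K * Real.sqrt d) * Real.sqrt EW)) := by gcongr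
        _ = _ := by rw [hρ]; ring
    have h5 := (abs_le.1 h1).1
    linarith
  have hcard : (Fintype.card (Fin d → Fin K) : ℝ) = (K : ℝ) ^ d := by
    simp
  have hfin : ∑ _k : Fin d → Fin K, (∫ y, f y ∂μ - ∫ y, f y ∂ν) ≤
      ∑ k : Fin d → Fin K, ((∫ y, f (y - w k) ∂μ - ∫ y, f (y - w k) ∂ν) +
        C * (3 * r * K * Real.sqrt d) * (Real.sqrt E0 * Real.sqrt EW)) :=
    Finset.sum_le_sum fun k _ => hterm k
  rw [Finset.sum_add_distrib, Finset.sum_const, Finset.sum_const, Finset.card_univ,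
    nsmul_eq_mul, nsmul_eq_mul, hcard] at hfin
  linarith

end

end Crest.Agent.R234.Rig_300
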