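import Crest.Agent.R234.Rn0_870

/-!
# Row 234, N9-AV, part 1 (helper870): the integrated drift

`drift_int`: `|f'| ≤ C₄ q √R + C₆ R + θ₂ q²`, `R = U'`.  `hdr_of`: hypothesis `hdr` of `hrun2` from
the pointwise drift with `R' (l) + R' (l + 1/2)`.
-/

set_option autoImplicit false

open Set Filter Topology

noncomputable section

namespace Crest.Agent.R234.Rn_870

open Crest.Agent.R234.Well_761 (sqrt_le_half le_of_deriv_le)

/-- integrated drift -/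
theorem drift_int {f U R : ℝ → ℝ} {a b C₄ C₆ θ₂ q β : ℝ}
    (h : ∀ l ∈ Icc a b, ∃ d, HasDerivAt f d l ∧ |d| ≤ C₄ * q * √(R l) + C₆ * R l + θ₂ * q ^ 2)
    (hab : a < b) (hC : 0 < C₄) (hq : 0 < q) (hβ : 0 < β)
    (hR : ∀ l ∈ Icc a b, 0 ≤ R l) (hU : ∀ l ∈ Icc a b, HasDerivAt U (R l) l)
    (h1 : 4 * C₄ ^ 2 * (b - a) * (U b - U a) ≤ β ^ 2 * q ^ 2) :
    f b - f a ≤ β * q ^ 2 / 2 + C₆ * (U b - U a) + θ₂ * (b - a) * q ^ 2 := by
  set α : ℝ := 2 * C₄ * (b - a) / (β * q) with hα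
  have hba : 0 < b - a := sub_pos.2 hab
  have hα0 : 0 < α := by positivity
  have key := le_of_deriv_le (f := f)
    (g := fun l => C₄ * q * (α * U l + l / α) / 2 + C₆ * U l + θ₂ * q ^ 2 * l) hab.le ?_
  · refine key.trans ?_
    have e1 : C₄ * q * ((b - a) / α) / 2 = β * q ^ 2 / 4 := by
      rw [hα]; field_simp; ring
    have e2 : C₄ * q * (α * (U b - U a)) / 2 ≤ β * q ^ 2 / 4 := by
      have : C₄ * q * (α * (U b - U a)) / 2 = (4 * C₄ ^ 2 * (b - a) * (U b - U a)) / (4 * β) := by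
        rw [hα]; field_simp
      rw [this, div_le_iff₀ (by positivity)]
      calc 4 * C₄ ^ 2 * (b - a) * (U b - U a) ≤ β ^ 2 * q ^ 2 := h1
        _ = β * q ^ 2 / 4 * (4 * β) := by ring
    have e3 : C₄ * q * (α * U b + b / α) / 2 + C₆ * U b + θ₂ * q ^ 2 * b -
        (C₄ * q * (α * U a + a / α) / 2 + C₆ * U a + θ₂ * q ^ 2 * a) =
        C₄ * q * (α * (U b - U a)) / 2 + C₄ * q * ((b - a) / α) / 2 + C₆ * (U b - U a) +
          θ₂ * (b - a) * q ^ 2 := by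
      ring
    rw [e3]
    linarith
  · intro l hl
    obtain ⟨d, hd, hd1⟩ := h l hl
    have h2 : HasDerivAt (fun l => C₄ * q * (α * U l + l / α) / 2 + C₆ * U l + θ₂ * q ^ 2 * l)
        (C₄ * q * (α * R l + 1 / α) / 2 + C₆ * R l + θ₂ * q ^ 2 * 1) l := by
      have e1 := (hU l hl).const_mul α
      have e2 := (hasDerivAt_id l).div_const α
      have e3 := ((e1.add e2).const_mul (C₄ * q)).div_const 2
      exact (e3.add ((hU l hl).const_mul C₆)).add ((hasDerivAt_id l).const_mul (θ₂ * q ^ 2))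
    refine ⟨d, _, hd, h2, (le_abs_self d).trans (hd1.trans ?_)⟩
    have h3 := sqrt_le_half hα0 (hR l hl)
    have h4 : C₄ * q * √(R l) ≤ C₄ * q * ((α * R l + 1 / α) / 2) :=
      mul_le_mul_of_nonneg_left h3 (by positivity)
    linarith

theorem log4_pos : 0 < Real.log 4 := Real.log_pos (by norm_num)

theorem log4_le : Real.log 4 ≤ 3 / 2 := by
  have h1 : Real.log 4 = 2 * Real.log 2 := by
    rw [show (4 : ℝ) = 2 ^ 2 by norm_num, Real.log_pow]; norm_num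
  have := Real.log_two_lt_d9
  rw [h1]; linarith

/-- **the integrated drift bound of `hrun2`** -/
theorem hdr_of {f : ℝ → ℝ} {U e R' : ℝ → ℝ} {L0 a0 T M A CR C₄ C₆ θ₂ b : ℝ}
    (hC₄ : 0 < C₄) (hC₆ : 0 ≤ C₆) (hθ₂ : 0 ≤ θ₂) (hb : 0 < b) (hA : 0 < A)
    (hCR : 0 ≤ CR)
    (hR0 : ∀ l ∈ Icc (L0 + a0 - Real.log 4) (L0 + T + Real.log 4 + 1 / 2), 0 ≤ R' l)
    (hU : ∀ l ∈ Icc (L0 + a0 - Real.log 4) (L0 + T + Real.log 4 + 1 / 2),
      HasDerivAt (fun l => U (l - L0)) (R' l) l)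
    (hU0 : 0 ≤ U (a0 - Real.log 4))
    (hUe : ∀ t ∈ Icc a0 T, U (t + Real.log 4 + 1 / 2) ≤ CR * e (t + 3))
    (hM1 : 16 * C₄ ^ 2 ≤ (b / 16) ^ 2 * M ^ 2) (hM2 : 32 * C₆ ≤ b * M ^ 2)
    (hA1 : 16 * C₄ ^ 2 * CR ≤ (b / 16) ^ 2 * A) (hA2 : 32 * (C₆ * CR) ≤ b * A)
    (hθ : θ₂ * (T + 4) ≤ b / 16)
    {τ₁ τ₂ q : ℝ} (h1 : a0 ≤ τ₁) (h11 : 1 ≤ τ₁) (h12 : 16 * τ₁ ≤ τ₂) (h2 : τ₂ ≤ T) (hq : 0 < q)
    (hq2 : q ^ 2 = M ^ 2 * (U τ₂ * τ₂)) (hqe : A * e (τ₂ + 3) ≤ M ^ 2 * (U τ₂ * τ₂))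
    (hdr : ∀ l ∈ Icc (L0 + a0 - Real.log 4) (L0 + T + Real.log 4), ∃ d, HasDerivAt f d l ∧
      |d| ≤ C₄ * q * √(R' l + R' (l + 1 / 2)) + C₆ * (R' l + R' (l + 1 / 2)) + θ₂ * q ^ 2) :
    f (L0 + τ₂ + Real.log 4) - f (L0 + τ₁ - Real.log 4) ≤ b / 4 * q ^ 2 := by
  have hl4 := log4_pos
  have hl4' := log4_le
  have hτ2 : 1 ≤ τ₂ := by linarith
  -- monotonicity
  have hUmono : ∀ a b, a0 - Real.log 4 ≤ a → a ≤ b → b ≤ T + Real.log 4 + 1 / 2 → U a ≤ U b := by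
    intro a b h1 h2 h3
    have h4 := le_of_deriv_le (f := fun _ : ℝ => (0 : ℝ)) (g := fun l => U (l - L0))
      (a := L0 + a) (b := L0 + b) (by linarith) (fun l hl => by
        have hl' : l ∈ Icc (L0 + a0 - Real.log 4) (L0 + T + Real.log 4 + 1 / 2) :=
          ⟨by linarith [hl.1], by linarith [hl.2]⟩
        exact ⟨0, R' l, hasDerivAt_const _ _, hU l hl', hR0 l hl'⟩)
    rw [add_sub_cancel_left, add_sub_cancel_left] at h4
    linarith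
  have hUnn : ∀ t, a0 - Real.log 4 ≤ t → t ≤ T + Real.log 4 + 1 / 2 → 0 ≤ U t := fun t h1 h2 =>
    hU0.trans (hUmono _ _ le_rfl h1 h2)
  set V : ℝ → ℝ := fun l => U (l - L0) + U (l + 1 / 2 - L0) with hV
  set S : ℝ → ℝ := fun l => R' l + R' (l + 1 / 2) with hS
  have hVd : ∀ l ∈ Icc (L0 + a0 - Real.log 4) (L0 + T + Real.log 4), HasDerivAt V (S l) l := by
    intro l hl
    have e1 := hU l ⟨hl.1, by linarith [hl.2]⟩
    have e2 := (hU (l + 1 / 2) ⟨by linarith [hl.1], by linarith [hl.2]⟩).comp l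
      ((hasDerivAt_id l).add_const (1 / 2))
    rw [mul_one] at e2
    exact e1.add e2
  have hS0 : ∀ l ∈ Icc (L0 + a0 - Real.log 4) (L0 + T + Real.log 4), 0 ≤ S l := by
    intro l hl
    exact add_nonneg (hR0 l ⟨hl.1, by linarith [hl.2]⟩)
      (hR0 (l + 1 / 2) ⟨by linarith [hl.1], by linarith [hl.2]⟩)
  have hβ : 0 < b / 16 := by positivity
  have hq20 : 0 < q ^ 2 := by positivity
  have hUt : 0 ≤ U τ₂ * τ₂ := mul_nonneg (hUnn τ₂ (by linarith) (by linarith)) (by linarith)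
  -- first part
  have hsub1 : ∀ l ∈ Icc (L0 + τ₁ - Real.log 4) (L0 + τ₂ - 1 / 2),
      l ∈ Icc (L0 + a0 - Real.log 4) (L0 + T + Real.log 4) := fun l hl =>
    ⟨by linarith [hl.1], by linarith [hl.2]⟩
  have hV1 : V (L0 + τ₂ - 1 / 2) - V (L0 + τ₁ - Real.log 4) ≤ 2 * U τ₂ := by
    simp only [hV]
    have e1 : L0 + τ₂ - 1 / 2 - L0 = τ₂ - 1 / 2 := by ring
    have e2 : L0 + τ₂ - 1 / 2 + 1 / 2 - L0 = τ₂ := by ring
    have e3 : L0 + τ₁ - Real.log 4 - L0 = τ₁ - Real.log 4 := by ring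
    have e4 : L0 + τ₁ - Real.log 4 + 1 / 2 - L0 = τ₁ - Real.log 4 + 1 / 2 := by ring
    rw [e1, e2, e3, e4]
    have := hUmono (τ₂ - 1 / 2) τ₂ (by linarith) (by linarith) (by linarith)
    have := hUnn (τ₁ - Real.log 4) (by linarith) (by linarith)
    have := hUnn (τ₁ - Real.log 4 + 1 / 2) (by linarith) (by linarith)
    linarith
  have p1 := drift_int (f := f) (U := V) (R := S) (a := L0 + τ₁ - Real.log 4)
    (b := L0 + τ₂ - 1 / 2) (C₄ := C₄) (C₆ := C₆) (θ₂ := θ₂) (q := q) (β := b / 16)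
    (fun l hl => hdr l (hsub1 l hl)) (by linarith) hC₄ hq hβ (fun l hl => hS0 l (hsub1 l hl))
    (fun l hl => hVd l (hsub1 l hl)) (by
      have e5 : L0 + τ₂ - 1 / 2 - (L0 + τ₁ - Real.log 4) ≤ 2 * τ₂ := by linarith
      have e6 : 0 ≤ L0 + τ₂ - 1 / 2 - (L0 + τ₁ - Real.log 4) := by linarith
      calc 4 * C₄ ^ 2 * (L0 + τ₂ - 1 / 2 - (L0 + τ₁ - Real.log 4)) *
            (V (L0 + τ₂ - 1 / 2) - V (L0 + τ₁ - Real.log 4))
          ≤ 4 * C₄ ^ 2 * (L0 + τ₂ - 1 / 2 - (L0 + τ₁ - Real.log 4)) * (2 * U τ₂) :=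
            mul_le_mul_of_nonneg_left hV1 (by positivity)
        _ ≤ 4 * C₄ ^ 2 * (2 * τ₂) * (2 * U τ₂) := by
            refine mul_le_mul_of_nonneg_right ?_
              (mul_nonneg zero_le_two (hUnn τ₂ (by linarith) (by linarith)))
            exact mul_le_mul_of_nonneg_left e5 (by positivity)
        _ = 16 * C₄ ^ 2 * (U τ₂ * τ₂) := by ring
        _ ≤ (b / 16) ^ 2 * M ^ 2 * (U τ₂ * τ₂) := mul_le_mul_of_nonneg_right hM1 hUt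
        _ = (b / 16) ^ 2 * q ^ 2 := by rw [hq2]; ring)
  -- second part
  have hsub2 : ∀ l ∈ Icc (L0 + τ₂ - 1 / 2) (L0 + τ₂ + Real.log 4),
      l ∈ Icc (L0 + a0 - Real.log 4) (L0 + T + Real.log 4) := fun l hl =>
    ⟨by linarith [hl.1], by linarith [hl.2]⟩
  have he : e (τ₂ + 3) ≤ q ^ 2 / A := by
    rw [le_div_iff₀ hA, hq2]; linarith
  have hV2 : V (L0 + τ₂ + Real.log 4) - V (L0 + τ₂ - 1 / 2) ≤ 2 * (CR * (q ^ 2 / A)) := by
    simp only [hV]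
    have e1 : L0 + τ₂ + Real.log 4 - L0 = τ₂ + Real.log 4 := by ring
    have e2 : L0 + τ₂ + Real.log 4 + 1 / 2 - L0 = τ₂ + Real.log 4 + 1 / 2 := by ring
    have e3 : L0 + τ₂ - 1 / 2 - L0 = τ₂ - 1 / 2 := by ring
    have e4 : L0 + τ₂ - 1 / 2 + 1 / 2 - L0 = τ₂ := by ring
    rw [e1, e2, e3, e4]
    have c1 := hUmono (τ₂ + Real.log 4) (τ₂ + Real.log 4 + 1 / 2) (by linarith) (by linarith)
      (by linarith)
    have c2 := hUnn (τ₂ - 1 / 2) (by linarith) (by linarith)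
    have c3 := hUnn τ₂ (by linarith) (by linarith)
    have c4 := (hUe τ₂ ⟨by linarith, h2⟩).trans (mul_le_mul_of_nonneg_left he hCR)
    linarith
  have hqA : 0 ≤ q ^ 2 / A := by positivity
  have p2 := drift_int (f := f) (U := V) (R := S) (a := L0 + τ₂ - 1 / 2)
    (b := L0 + τ₂ + Real.log 4) (C₄ := C₄) (C₆ := C₆) (θ₂ := θ₂) (q := q) (β := b / 16)
    (fun l hl => hdr l (hsub2 l hl)) (by linarith) hC₄ hq hβ (fun l hl => hS0 l (hsub2 l hl))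
    (fun l hl => hVd l (hsub2 l hl)) (by
      have e5 : L0 + τ₂ + Real.log 4 - (L0 + τ₂ - 1 / 2) ≤ 2 := by linarith
      have e6 : 0 ≤ L0 + τ₂ + Real.log 4 - (L0 + τ₂ - 1 / 2) := by linarith
      calc 4 * C₄ ^ 2 * (L0 + τ₂ + Real.log 4 - (L0 + τ₂ - 1 / 2)) *
            (V (L0 + τ₂ + Real.log 4) - V (L0 + τ₂ - 1 / 2))
          ≤ 4 * C₄ ^ 2 * (L0 + τ₂ + Real.log 4 - (L0 + τ₂ - 1 / 2)) *
              (2 * (CR * (q ^ 2 / A))) := mul_le_mul_of_nonneg_left hV2 (by positivity)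
        _ ≤ 4 * C₄ ^ 2 * 2 * (2 * (CR * (q ^ 2 / A))) := by
            refine mul_le_mul_of_nonneg_right ?_ (by positivity)
            exact mul_le_mul_of_nonneg_left e5 (by positivity)
        _ = 16 * C₄ ^ 2 * CR * (q ^ 2 / A) := by ring
        _ ≤ (b / 16) ^ 2 * A * (q ^ 2 / A) := mul_le_mul_of_nonneg_right hA1 hqA
        _ = (b / 16) ^ 2 * q ^ 2 := by field_simp)
  -- the sum
  have s1 : C₆ * (V (L0 + τ₂ - 1 / 2) - V (L0 + τ₁ - Real.log 4)) ≤ b / 16 * q ^ 2 := by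
    have c1 : C₆ * (V (L0 + τ₂ - 1 / 2) - V (L0 + τ₁ - Real.log 4)) ≤ C₆ * (2 * U τ₂) :=
      mul_le_mul_of_nonneg_left hV1 hC₆
    have c2 : U τ₂ ≤ U τ₂ * τ₂ :=
      le_mul_of_one_le_right (hUnn τ₂ (by linarith) (by linarith)) hτ2
    have c3 : C₆ * (2 * U τ₂) ≤ C₆ * (2 * (U τ₂ * τ₂)) :=
      mul_le_mul_of_nonneg_left (by linarith) hC₆
    have c4 : C₆ * (2 * (U τ₂ * τ₂)) = 32 * C₆ * (U τ₂ * τ₂) / 16 := by ring
    have c5 : 32 * C₆ * (U τ₂ * τ₂) ≤ b * M ^ 2 * (U τ₂ * τ₂) :=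
      mul_le_mul_of_nonneg_right hM2 hUt
    rw [hq2]
    linarith
  have s2 : C₆ * (V (L0 + τ₂ + Real.log 4) - V (L0 + τ₂ - 1 / 2)) ≤ b / 16 * q ^ 2 := by
    have c1 := mul_le_mul_of_nonneg_left hV2 hC₆
    have c2 : 32 * (C₆ * CR) * (q ^ 2 / A) ≤ b * A * (q ^ 2 / A) :=
      mul_le_mul_of_nonneg_right hA2 hqA
    have c3 : b * A * (q ^ 2 / A) = b * q ^ 2 := by field_simp
    have c4 : C₆ * (2 * (CR * (q ^ 2 / A))) = 32 * (C₆ * CR) * (q ^ 2 / A) / 16 := by ring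
    linarith
  have s3 : θ₂ * (L0 + τ₂ - 1 / 2 - (L0 + τ₁ - Real.log 4)) * q ^ 2 +
      θ₂ * (L0 + τ₂ + Real.log 4 - (L0 + τ₂ - 1 / 2)) * q ^ 2 ≤ b / 16 * q ^ 2 := by
    have e : θ₂ * (L0 + τ₂ - 1 / 2 - (L0 + τ₁ - Real.log 4)) * q ^ 2 +
      θ₂ * (L0 + τ₂ + Real.log 4 - (L0 + τ₂ - 1 / 2)) * q ^ 2 =
      θ₂ * (τ₂ - τ₁ + 2 * Real.log 4) * q ^ 2 := by ring
    rw [e]
    refine mul_le_mul_of_nonneg_right (le_trans ?_ hθ) (sq_nonneg q)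
    exact mul_le_mul_of_nonneg_left (by linarith) hθ₂
  have hb4 : b / 4 * q ^ 2 = 4 * (b / 16 * q ^ 2) := by ring
  rw [hb4]
  linarith

end Crest.Agent.R234.Rn_870
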