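import Crest.Agent.R234.We11_822

/-!
Row 234 (helper822), WELL-AS part 3: mass at centres with small energies, `Good` of helper761 and
NODE N7 (`cross_as`, `cross_as_node`) in the class AS; all error terms discharged.
-/

set_option autoImplicit false

open MeasureTheory Set Function Filter Topology
open Crest.GeometryTopology.Submanifold
open Crest.Agent.R234.Vf_884 Crest.Agent.R234.Ar_870 Crest.Agent.R234.Cy_870
open Crest.Agent.R234.Wi_870 Crest.Agent.R234.Asl_214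
open scoped ENNReal NNReal InnerProductSpace

noncomputable section

namespace Crest.Agent.R234.We_822

variable {m n k : ℕ} {π : Euc k →L[ℝ] Euc m} {κ : Euc k →L[ℝ] Euc n} {x x₀ : Euc m}
  {W : Measure (Euc k × L k)} {g g1 g2 : ℝ → ℝ} {R h₀ δ K ρ₀ : ℝ}

theorem le_sqrt_self {d : ℝ} (h0 : 0 ≤ d) (h1 : d ≤ 1) : d ≤ √d := by
  refine Real.le_sqrt_of_sq_le ?_
  nlinarith

theorem TB_le_enR (h : CylAS W π κ x₀ R h₀ δ) (x : Euc m) (l : ℝ) :
    TB W π x (Real.exp l) ≤ enR W π κ x l := by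
  have h1 := tb_le_enR h x l
  unfold tb at h1
  exact le_of_mul_le_mul_left h1 (Real.exp_pos _)

theorem MB_le_muR (h : CylAS W π κ x₀ R h₀ δ) (x : Euc m) (l : ℝ) :
    MB W π x (Real.exp l) ≤ muR W π κ x l := by
  have h1 := mb_le_muR h x l
  unfold mb at h1
  exact le_of_mul_le_mul_left h1 (Real.exp_pos _)

/-- the first variation of `X1`, in the form of `mass_good` -/
theorem FV1_le_R (h : CylAS W π κ x₀ R h₀ δ) (h0 : 0 ≤ δ) (hh : 0 ≤ h₀) (hg : Ker g g1)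
    (hK : Bd g g1 K) {l : ℝ} (hl : ‖x - x₀‖ + Real.exp l ≤ R) (hl0 : l ≤ 0) :
    |FV W (X1 π x g l)| ≤ 4 * K * δ * (enR W π κ x l + h₀ ^ 2 * muR W π κ x l) := by
  have h1 := h.FV1_le h0 hh hg hK hl
  have hs : Real.exp l ≤ 1 := Real.exp_le_one_iff.2 hl0
  have hK0 := hK.nonneg
  have h2 := TB_le_enR h x l
  have h3 := MB_le_muR h x l
  have h4 := h.TB_nonneg x (Real.exp l)
  have h5 := MB_nonneg (W := W) (π := π) x (Real.exp l)
  refine h1.trans ?_
  calc δ * (K * (3 + Real.exp l)) * (TB W π x (Real.exp l) + h₀ ^ 2 * MB W π x (Real.exp l))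
      ≤ δ * (K * (3 + 1)) * (enR W π κ x l + h₀ ^ 2 * muR W π κ x l) := by gcongr
    _ = _ := by ring

/-- the constant of `mass_as` -/
def CMU (m : ℕ) (c a K C1 A : ℝ) : ℝ := 2 * (c⁻¹ * Real.exp (m * a) * (K * C1 + 5 * K * A))

theorem CMU_nonneg {c a K C1 A : ℝ} (hc : 0 < c) (hK : 0 ≤ K) (hC1 : 0 ≤ C1) (hA : 0 ≤ A) :
    0 ≤ CMU m c a K C1 A := by
  unfold CMU; positivity

/-- **mass at centres with small energies, class AS**: `lam (l1 - l0) ≤ A` -/
theorem mass_as (h : CylAS W π κ x₀ R h₀ δ) (h0 : 0 ≤ δ) (hδ : δ ≤ 1) (hh : 0 ≤ h₀)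
    (hg : Prof g g1 g2) (hg0 : ∀ t, 0 ≤ t → 0 ≤ g t) (hK : Bd g g1 K) {c a : ℝ} (hc : 0 < c)
    (ha : 0 ≤ a) (hgc : ∀ t, 0 ≤ t → t ≤ Real.exp (-2 * a) → c ≤ g t) {l0 l1 lam C1 A : ℝ}
    (hl : l0 ≤ l1) (hl1 : l1 ≤ 0) (hdom : ‖x - x₀‖ + Real.exp l1 ≤ R) (hlam : 0 ≤ lam)
    (hC1 : 0 ≤ C1) (hA : lam * (l1 - l0) ≤ A)
    (hen : ∀ t ∈ Icc l0 l1, enR W π κ x t ≤ lam * Real.exp (m * t))
    (htop : muR W π κ x l1 ≤ C1 * Real.exp (m * l1))
    (hsmall : c⁻¹ * Real.exp (m * a) * (4 * K * δ * h₀ ^ 2) * (l1 - l0) ≤ 1 / 2) :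
    ∀ l ∈ Icc l0 l1, muR W π κ x l ≤ CMU m c a K C1 A * Real.exp (m * l) := by
  have hK0 := hK.nonneg
  intro l hl'
  have h1 := mass_good (η := 4 * K * δ) (h := h₀) (fun L₀ => h.fr x L₀) hg hg0
    (fun t ht => (le_abs_self _).trans (hK.b0 t ht)) hc ha hgc hl (by positivity) hlam hC1 hen
    (fun t ht => FV1_le_R h h0 hh hg.k0 hK (by
      have := Real.exp_le_exp.2 ht.2
      linarith) (ht.2.trans hl1)) htop hsmall l hl'
  refine h1.trans ?_
  have hci : 0 < c⁻¹ := inv_pos.2 hc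
  refine mul_le_mul_of_nonneg_right ?_ (Real.exp_pos _).le
  unfold CMU
  have e1 : (K + 4 * K * δ) * lam * (l1 - l0) ≤ 5 * K * A := by
    have h2 : 0 ≤ lam * (l1 - l0) := mul_nonneg hlam (by linarith)
    calc (K + 4 * K * δ) * lam * (l1 - l0) = (K + 4 * K * δ) * (lam * (l1 - l0)) := by ring
      _ ≤ (K + 4 * K * 1) * A := by gcongr
      _ = 5 * K * A := by ring
  gcongr

/-- the constant of `good_as` -/
def CG (m : ℕ) (c a K C1 A a₂ lam : ℝ) : ℝ := CAS K a₂ lam (CMU m c a K C1 A)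

/-- **`Good` in the class AS**: energies `≤ lam ρ^m` on `[e^l0, e^l1]`, `lam e^{2 l1} ≤ a₂ q²`,
`δ h₀ e^{l1} ≤ b q`, top mass -/
theorem good_as (h : CylAS W π κ x₀ R h₀ δ) (h0 : 0 ≤ δ) (hδ : δ ≤ 1) (hh : 0 ≤ h₀)
    (hh1 : h₀ ≤ 1) (hg : Prof g g1 g2) (hg0 : ∀ t, 0 ≤ t → 0 ≤ g t) (hK : Bd g g1 K)
    {c a : ℝ} (hc : 0 < c) (ha : 0 ≤ a)
    (hgc : ∀ t, 0 ≤ t → t ≤ Real.exp (-2 * a) → c ≤ g t) {l0 l1 lam C1 A a₂ b q : ℝ}
    (hl : l0 ≤ l1) (hl1 : l1 ≤ 0) (hρ : ρ₀ ≤ R) (hdom : dist x x₀ + Real.exp l1 ≤ ρ₀)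
    (hlam : 0 ≤ lam) (hC1 : 0 ≤ C1) (hA : lam * (l1 - l0) ≤ A)
    (hen : ∀ t ∈ Icc l0 l1, enR W π κ x t ≤ lam * Real.exp (m * t))
    (htop : muR W π κ x l1 ≤ C1 * Real.exp (m * l1))
    (hsmall : c⁻¹ * Real.exp (m * a) * (4 * K * δ * h₀ ^ 2) * (l1 - l0) ≤ 1 / 2)
    (hq : 0 < q) (hq1 : q ≤ 1) (ha₂ : 0 ≤ a₂) (hlq : lam * Real.exp (2 * l1) ≤ a₂ * q ^ 2)
    (hb0 : 0 ≤ b) (hb : δ * h₀ * Real.exp l1 ≤ b * q) :
    Well_761.Good m (muOf W π κ) (enOf W π κ) (erAS W π K δ h₀) (CMU m c a K C1 A) x₀ ρ₀ x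
      l0 l1 lam (CG m c a K C1 A a₂ lam * (√δ + b)) q := by
  have hK0 := hK.nonneg
  have hA0 : 0 ≤ A := le_trans (mul_nonneg hlam (by linarith)) hA
  have hdom' : ‖x - x₀‖ + Real.exp l1 ≤ R := by
    rw [← dist_eq_norm]; exact hdom.trans hρ
  have hmass := mass_as h h0 hδ hh hg hg0 hK hc ha hgc hl hl1 hdom' hlam hC1 hA hen htop hsmall
  have hCμ0 := CMU_nonneg (m := m) (a := a) hc hK0 hC1 hA0
  refine ⟨hl, hdom, hen, ?_, hCμ0, ?_⟩
  · intro l hl'
    have hexp2 : Real.exp ((2 - m) * l) * Real.exp (m * l) = Real.exp (2 * l) := by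
      rw [← Real.exp_add]; congr 1; ring
    have hexpm : Real.exp (-m * l) * Real.exp (m * l) = 1 := by
      rw [← Real.exp_add]
      have : (-m * l + m * l : ℝ) = 0 := by ring
      rw [this, Real.exp_zero]
    have hexpm2 : Real.exp (-2 * l) * Real.exp (2 * l) = 1 := by
      rw [← Real.exp_add]
      have : (-2 * l + 2 * l : ℝ) = 0 := by ring
      rw [this, Real.exp_zero]
    have e1 : tb W π x l ≤ lam * Real.exp (2 * l) := by
      refine (tb_le_enR h x l).trans ?_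
      calc Real.exp ((2 - m) * l) * enR W π κ x l
          ≤ Real.exp ((2 - m) * l) * (lam * Real.exp (m * l)) :=
            mul_le_mul_of_nonneg_left (hen l hl') (Real.exp_pos _).le
        _ = lam * (Real.exp ((2 - m) * l) * Real.exp (m * l)) := by ring
        _ = _ := by rw [hexp2]
    have e2 : Real.exp (2 * l) ≤ Real.exp (2 * l1) := Real.exp_le_exp.2 (by linarith [hl'.2])
    have e3 : tb W π x l ≤ a₂ * q ^ 2 :=
      e1.trans ((mul_le_mul_of_nonneg_left e2 hlam).trans hlq)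
    have e4 : Real.exp (-2 * l) * tb W π x l ≤ lam := by
      calc Real.exp (-2 * l) * tb W π x l ≤ Real.exp (-2 * l) * (lam * Real.exp (2 * l)) :=
            mul_le_mul_of_nonneg_left e1 (Real.exp_pos _).le
        _ = lam * (Real.exp (-2 * l) * Real.exp (2 * l)) := by ring
        _ = lam := by rw [hexpm2, mul_one]
    have e5 : mb W π x l ≤ CMU m c a K C1 A := by
      refine (mb_le_muR h x l).trans ?_
      calc Real.exp (-m * l) * muR W π κ x l
          ≤ Real.exp (-m * l) * (CMU m c a K C1 A * Real.exp (m * l)) :=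
            mul_le_mul_of_nonneg_left (hmass l hl') (Real.exp_pos _).le
        _ = CMU m c a K C1 A * (Real.exp (-m * l) * Real.exp (m * l)) := by ring
        _ = _ := by rw [hexpm, mul_one]
    refine erAS_le h hK0 h0 hδ hh hh1 hq hq1 (hl'.2.trans hl1) ha₂ hb0 hlam e3 e4 e5 ?_
    have e6 : Real.exp l ≤ Real.exp l1 := Real.exp_le_exp.2 hl'.2
    have e7 : 0 ≤ δ * h₀ := mul_nonneg h0 hh
    exact (mul_le_mul_of_nonneg_left e6 e7).trans hb
  · intro l hl'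
    have h1 := hmass l hl'
    unfold muR at h1
    have h2 : muOf W π κ (Well_761.cyl x (Real.exp l) univ) ≠ ⊤ :=
      muOf_cyl_ne_top (fun L₀ => h.fr x L₀) _
    rw [← ENNReal.ofReal_toReal h2]
    exact ENNReal.ofReal_le_ofReal h1

/-- the error of `Flow` at all scales, conditional to small scaled energies (hypothesis `her1` of
`cross_enr`) -/
theorem er_cond_as (h : CylAS W π κ x₀ R h₀ δ) (h0 : 0 ≤ δ) (hδ : δ ≤ 1) (hh : 0 ≤ h₀)
    (hh1 : h₀ ≤ 1) (hg : Prof g g1 g2) (hg0 : ∀ t, 0 ≤ t → 0 ≤ g t) (hK : Bd g g1 K)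
    {c a : ℝ} (hc : 0 < c) (ha : 0 ≤ a)
    (hgc : ∀ t, 0 ≤ t → t ≤ Real.exp (-2 * a) → c ≤ g t) {C1 A b q s' : ℝ}
    (hq : 0 < q) (hq1 : q ≤ 1) (hqs : q ≤ 32 * s') (hs' : s' ≤ 1) (hdom : ‖x - x₀‖ + s' ≤ R)
    (hC1 : 0 ≤ C1) (hA : 0 ≤ A)
    (htop : muR W π κ x (Real.log s') ≤ C1 * Real.exp (m * Real.log s'))
    (hsmall : c⁻¹ * Real.exp (m * a) * (4 * K * δ * h₀ ^ 2) * Real.log (32 * s' / q) ≤ 1 / 2)
    (hb0 : 0 ≤ b) (hb : δ * h₀ * s' ≤ b * (q / 8))
    (hen : ∀ l ∈ Icc (Real.log (q / 32)) (Real.log s'), enS m (enOf W π κ) x l <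
      A * (q / 8) ^ 2 / (1 + Real.log (32 * s' / q))) :
    ∀ l ∈ Icc (Real.log (q / 32)) (Real.log s'),
      erAS W π K δ h₀ x l (q / 8) ≤ CAS K A (16 * A) (CMU m c a K C1 (16 * A)) *
        (√δ + b) * (q / 8) ^ 2 := by
  have hK0 := hK.nonneg
  have hs'0 : 0 < s' := by linarith
  have hLg : Real.log s' - Real.log (q / 32) = Real.log (32 * s' / q) := by
    rw [← Real.log_div hs'0.ne' (by positivity)]
    congr 1
    field_simp
  have hlog0 : 0 ≤ Real.log (32 * s' / q) := by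
    refine Real.log_nonneg ?_
    rw [le_div_iff₀ hq]
    linarith
  set Lg := Real.log (32 * s' / q) with hLgdef
  have hle : Real.log (q / 32) ≤ Real.log s' := by linarith
  have hl1 : Real.log s' ≤ 0 := Real.log_nonpos hs'0.le hs'
  have hse : Real.exp (Real.log s') = s' := Real.exp_log hs'0
  have hqe : Real.exp (Real.log (q / 32)) = q / 32 := Real.exp_log (by positivity)
  set lam := 16 * A / (1 + Lg) with hlam
  have hlam0 : 0 ≤ lam := by positivity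
  have hlamA : lam ≤ 16 * A := by
    rw [hlam]
    exact div_le_self (by positivity) (by linarith)
  have hlamL : lam * (Real.log s' - Real.log (q / 32)) ≤ 16 * A := by
    rw [hLg, hlam, div_mul_eq_mul_div, div_le_iff₀ (by positivity)]
    nlinarith
  -- energies
  have hen2 : ∀ l ∈ Icc (Real.log (q / 32)) (Real.log s'),
      enR W π κ x l ≤ lam * Real.exp (m * l) := by
    intro l hl'
    have h1 := hen l hl'
    have h2 : enS m (enOf W π κ) x l = Real.exp ((2 - m) * l) * enR W π κ x l := rfl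
    rw [h2] at h1
    have h3 : q / 32 ≤ Real.exp l := by
      rw [← hqe]; exact Real.exp_le_exp.2 hl'.1
    have h4 : (q / 8) ^ 2 ≤ 16 * Real.exp (2 * l) := by
      have h5 : (q / 32) ^ 2 ≤ Real.exp l ^ 2 := pow_le_pow_left₀ (by positivity) h3 2
      have h6 : Real.exp l ^ 2 = Real.exp (2 * l) := by
        rw [← Real.exp_nat_mul]; push_cast; rfl
      rw [h6] at h5
      nlinarith
    have h5 : enR W π κ x l = Real.exp ((m - 2) * l) *
        (Real.exp ((2 - m) * l) * enR W π κ x l) := by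
      rw [← mul_assoc, ← Real.exp_add]
      have : (m - 2 : ℝ) * l + (2 - m) * l = 0 := by ring
      rw [this, Real.exp_zero, one_mul]
    have h6 : Real.exp ((m - 2) * l) * Real.exp (2 * l) = Real.exp (m * l) := by
      rw [← Real.exp_add]; congr 1; ring
    rw [h5]
    calc Real.exp ((m - 2) * l) * (Real.exp ((2 - m) * l) * enR W π κ x l)
        ≤ Real.exp ((m - 2) * l) * (A * (q / 8) ^ 2 / (1 + Lg)) :=
          mul_le_mul_of_nonneg_left h1.le (Real.exp_pos _).le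
      _ ≤ Real.exp ((m - 2) * l) * (A * (16 * Real.exp (2 * l)) / (1 + Lg)) := by gcongr
      _ = 16 * A / (1 + Lg) * (Real.exp ((m - 2) * l) * Real.exp (2 * l)) := by ring
      _ = _ := by rw [h6]
  have hmass := mass_as h h0 hδ hh hg hg0 hK hc ha hgc hle hl1 (by rw [hse]; exact hdom) hlam0
    hC1 hlamL hen2 htop (by rw [hLg]; exact hsmall)
  intro l hl'
  have hexpm : Real.exp (-m * l) * Real.exp (m * l) = 1 := by
    rw [← Real.exp_add]
    have : (-m * l + m * l : ℝ) = 0 := by ring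
    rw [this, Real.exp_zero]
  have h1 : tb W π x l < A * (q / 8) ^ 2 / (1 + Lg) := (tb_le_enR h x l).trans_lt (hen l hl')
  have e1 : tb W π x l ≤ A * (q / 8) ^ 2 :=
    h1.le.trans (div_le_self (by positivity) (by linarith))
  have e2 : Real.exp (-2 * l) * tb W π x l ≤ 16 * A := by
    refine le_trans ?_ hlamA
    have h2 := tb_le_enR h x l
    have h3 := hen2 l hl'
    have h4 : Real.exp (-2 * l) * Real.exp ((2 - m) * l) * Real.exp (m * l) = 1 := by
      rw [← Real.exp_add, ← Real.exp_add]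
      have : (-2 * l + (2 - m) * l + m * l : ℝ) = 0 := by ring
      rw [this, Real.exp_zero]
    calc Real.exp (-2 * l) * tb W π x l
        ≤ Real.exp (-2 * l) * (Real.exp ((2 - m) * l) * (lam * Real.exp (m * l))) := by
          refine mul_le_mul_of_nonneg_left (h2.trans ?_) (Real.exp_pos _).le
          exact mul_le_mul_of_nonneg_left h3 (Real.exp_pos _).le
      _ = lam * (Real.exp (-2 * l) * Real.exp ((2 - m) * l) * Real.exp (m * l)) := by ring
      _ = lam := by rw [h4, mul_one]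
  have e3 : mb W π x l ≤ CMU m c a K C1 (16 * A) := by
    refine (mb_le_muR h x l).trans ?_
    calc Real.exp (-m * l) * muR W π κ x l
        ≤ Real.exp (-m * l) * (CMU m c a K C1 (16 * A) * Real.exp (m * l)) :=
          mul_le_mul_of_nonneg_left (hmass l hl') (Real.exp_pos _).le
      _ = CMU m c a K C1 (16 * A) * (Real.exp (-m * l) * Real.exp (m * l)) := by ring
      _ = _ := by rw [hexpm, mul_one]
  refine erAS_le h hK0 h0 hδ hh hh1 (by positivity) (by linarith) (hl'.2.trans hl1) hA hb0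
    (by positivity) e1 e2 e3 ?_
  have e6 : Real.exp l ≤ s' := by
    rw [← hse]; exact Real.exp_le_exp.2 hl'.2
  exact (mul_le_mul_of_nonneg_left e6 (mul_nonneg h0 hh)).trans hb

/-- **NODE N7 in the class AS**, explicit constants hidden: there are `cs cup cG > 0` (depending on
the dimension, the profile, the lower density `c0` and the upper mass `C1`) -/
theorem cross_as (hg : Prof g g1 g2) (hg0 : ∀ t, 0 ≤ t → 0 ≤ g t) (hK : Bd g g1 K)
    (hK' : Bd g1 g2 K) {c a : ℝ} (hc : 0 < c) (ha : 0 ≤ a)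
    (hgc : ∀ t, 0 ≤ t → t ≤ Real.exp (-2 * a) → c ≤ g t) {Kκ cκ : ℝ}
    (hκ : Well_761.Ker (kap g1) Kκ cκ) {c0 C1 : ℝ} (hc0 : 0 < c0) (hC1 : 0 ≤ C1)
    {L' : Type*} [NormedAddCommGroup L'] [NormedSpace ℝ L'] [FiniteDimensional ℝ L']
    [MeasurableSpace L'] [BorelSpace L'] (ν : Measure L') [ν.IsAddHaarMeasure]
    (hL : Module.finrank ℝ L' + 2 = m) :
    ∃ cs cup cG : ℝ, 0 < cs ∧ 0 < cup ∧ 0 < cG ∧
    ∀ {n k : ℕ} {π : Euc k →L[ℝ] Euc m} {κ : Euc k →L[ℝ] Euc n} {x x₀ : Euc m}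
      {W : Measure (Euc k × L k)} {R h₀ δ : ℝ}, CylAS W π κ x₀ R h₀ δ → 0 ≤ δ → δ ≤ 1 →
      0 ≤ h₀ → h₀ ≤ 1 →
    ∀ {C : Finset (Euc n)} {q s s' t b : ℝ}, 0 < q → q ≤ 1 → Well_761.Sep C q →
      q ≤ 32 * s' → s' ≤ 1 → 0 < s → s + s' ≤ Real.exp t / 2 → dist x x₀ + (s + s') ≤ R →
      Well_761.nu m (kap g1) (muOf W π κ) x t (Well_761.wells C q) ≤
        cup * (s' / Real.exp t) ^ m * q ^ 2 →
      (∀ x' ∈ Metric.closedBall x s, ∀ p, (x', p) ∈ TT W π κ →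
        ENNReal.ofReal (c0 * (q / 128) ^ m) ≤
          muOf W π κ (Well_761.cyl x' (q / 128) (Metric.closedBall p (q / 128)))) →
      (∀ x' ∈ Metric.closedBall x s, muR W π κ x' (Real.log s') ≤
        C1 * Real.exp (m * Real.log s')) →
      0 ≤ b → δ * h₀ * s' ≤ b * q → (√δ + b) * (1 + Real.log (32 * s' / q)) ≤ cs →
    ∀ {pL : Euc m → L'}, LipschitzWith 1 pL → ∀ {G' θ' w : ℝ}, 0 ≤ G' →
      N5_372.eM W π (Metric.closedBall x (s + s')) ≤ ENNReal.ofReal G' →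
      G' * (1 + Real.log (32 * s' / q)) ≤ cG * θ' * q ^ 2 → 0 ≤ w →
      (∀ N : Set (Euc m), N ⊆ Metric.ball x s → ν (pL '' N) ≤ ENNReal.ofReal θ' →
        N5_372.eM W π N ≤ ENNReal.ofReal w) →
      enr W π κ x s (away (C : Set (Euc n)) (q / 8)) ≤ w := by
  have hK0 := hK.nonneg
  have hcK : c ≤ K := (hgc 0 le_rfl (Real.exp_pos _).le).trans
    ((le_abs_self _).trans (hK.b0 0 le_rfl))
  have hKpos : 0 < K := hc.trans_le hcK
  have hBB := BB_one
  have hcκ := hκ.cpos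
  have hKκ := hκ.Kpos
  set Kf : ℝ := K * BB + 6 * K with hKf
  have hKf0 : 0 < Kf := by positivity
  set A : ℝ := cX m cκ c0 Kf with hAdef
  have hA0 : 0 < A := by rw [hAdef]; unfold cX; positivity
  set Cμ := CMU m c a K C1 (16 * A) with hCμ
  have hCμ0 : 0 ≤ Cμ := CMU_nonneg hc hK0 hC1 (by positivity)
  set CA := CAS K A (16 * A) Cμ with hCA
  have hCA0 : 0 ≤ CA := CAS_nonneg hK0 hA0.le (by positivity) hCμ0
  have hci : 0 < c⁻¹ := inv_pos.2 hc
  set E1 : ℝ := c⁻¹ * Real.exp (m * a) * (4 * K) with hE1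
  have hE10 : 0 < E1 := by positivity
  set c3 : ℝ := 3 / 262144 * cκ * (c0 / 4 ^ m) with hc3
  have hc30 : 0 < c3 := by positivity
  set νb : ℝ := (ν (Metric.ball 0 1)).toReal with hνb
  have hνb0 : 0 ≤ νb := ENNReal.toReal_nonneg
  refine ⟨min (1 / (2 * E1)) (c3 / (CA + 1)), 27 / 65536 * cκ ^ 2 * (c0 / 4 ^ m) / Kκ,
    A / (64 * (5 ^ (m - 2) * νb + 1)), by positivity, by positivity, by positivity, ?_⟩
  intro n k π κ x x₀ W R h₀ δ h h0 hδ hh hh1 C q s s' t b hq hq1 hC hqs hs' hs hst hdom hup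
    hlow htop hb0 hb hcs pL hpL G' θ' w hG0 hG hGθ hw hN5
  have hs'0 : 0 < s' := by linarith
  have hlog0 : 0 ≤ Real.log (32 * s' / q) := by
    refine Real.log_nonneg ?_
    rw [le_div_iff₀ hq]
    linarith
  set Lg := Real.log (32 * s' / q) with hLg
  have hsd := Real.sqrt_nonneg δ
  have hδ' : δ ≤ √δ := le_sqrt_self h0 hδ
  have hcs1 := hcs.trans (min_le_left _ _)
  have hcs2 := hcs.trans (min_le_right _ _)
  rw [le_div_iff₀ (by positivity)] at hcs1 hcs2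
  have hsum0 : 0 ≤ √δ + b := by positivity
  have hfl := flow_as h h0 hh (le_refl R) hg hK hK' hg0
  -- smallness for the mass
  have hsmall : c⁻¹ * Real.exp (m * a) * (4 * K * δ * h₀ ^ 2) * Lg ≤ 1 / 2 := by
    have h1 : h₀ ^ 2 ≤ 1 := pow_le_one₀ hh hh1
    calc c⁻¹ * Real.exp (m * a) * (4 * K * δ * h₀ ^ 2) * Lg
        = E1 * (δ * h₀ ^ 2 * Lg) := by rw [hE1]; ring
      _ ≤ E1 * (√δ * 1 * Lg) := by gcongr
      _ ≤ E1 * ((√δ + b) * (1 + Lg)) := by
          have : √δ * 1 * Lg ≤ (√δ + b) * (1 + Lg) :=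
            mul_le_mul (by linarith) (by linarith) hlog0 hsum0
          exact mul_le_mul_of_nonneg_left this hE10.le
      _ ≤ 1 / 2 := by linarith
  have hnd : ∀ x' ∈ Metric.closedBall x s, ‖x' - x₀‖ + s' ≤ R := by
    intro x' hx'
    have h1 := dist_triangle x' x x₀
    rw [Metric.mem_closedBall] at hx'
    rw [← dist_eq_norm]
    linarith
  refine cross_enr ν hL (fun y L₀ => h.fr y L₀) hfl hKf0 hκ hc0 (x := x) (C := C) (q := q)
    (s := s) (s' := s') (t := t) (e0 := CA * (√δ + 8 * b) * (q / 8) ^ 2) hlow hq hC hqs hs hst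
    hdom hup (by positivity) ?_ ?_ (Kp := 1) hpL hG0 hG (θ' := θ') ?_ hw hN5
  · intro x' hx' hen
    refine er_cond_as h h0 hδ hh hh1 hg hg0 hK hc ha hgc hq hq1 hqs hs' (hnd x' hx') hC1 hA0.le
      (htop x' hx') hsmall (by positivity) (by linarith) hen
  · -- her
    have h1 : (√δ + 8 * b) * Lg ≤ 8 * ((√δ + b) * (1 + Lg)) := by
      have e1 : (√δ + 8 * b) * Lg ≤ (8 * (√δ + b)) * (1 + Lg) :=
        mul_le_mul (by linarith) (by linarith) hlog0 (by positivity)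
      linarith
    have h2 : CA * ((√δ + b) * (1 + Lg)) ≤ c3 := by
      have e1 : 0 ≤ (√δ + b) * (1 + Lg) := by positivity
      have e2 : CA * ((√δ + b) * (1 + Lg)) ≤ (CA + 1) * ((√δ + b) * (1 + Lg)) :=
        mul_le_mul_of_nonneg_right (by linarith) e1
      linarith
    calc CA * (√δ + 8 * b) * (q / 8) ^ 2 * Lg = CA * ((√δ + 8 * b) * Lg) * (q ^ 2 / 64) := by
          ring
      _ ≤ CA * (8 * ((√δ + b) * (1 + Lg))) * (q ^ 2 / 64) := by gcongr
      _ = CA * ((√δ + b) * (1 + Lg)) * (q ^ 2 / 8) := by ring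
      _ ≤ c3 * (q ^ 2 / 8) := by gcongr
      _ ≤ c3 * q ^ 2 := by
          have : q ^ 2 / 8 ≤ q ^ 2 := by linarith [sq_nonneg q]
          exact mul_le_mul_of_nonneg_left this hc30.le
      _ = _ := by rw [hc3]
  · -- hθ
    have h1 : (0:ℝ) < 64 * (5 ^ (m - 2) * νb + 1) := by positivity
    have h2 : A / (64 * (5 ^ (m - 2) * νb + 1)) * θ' * q ^ 2 =
        A * θ' * q ^ 2 / (64 * (5 ^ (m - 2) * νb + 1)) := by ring
    rw [h2, le_div_iff₀ h1] at hGθ
    have h3 : 0 ≤ G' * (1 + Lg) := by positivity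
    have h4 : (5 * ((1:ℝ≥0):ℝ)) ^ (m - 2) * νb * G' * (1 + Lg) =
        (5:ℝ) ^ (m - 2) * νb * (G' * (1 + Lg)) := by
      rw [NNReal.coe_one]; ring
    rw [h4]
    have h5 : (5:ℝ) ^ (m - 2) * νb * (G' * (1 + Lg)) ≤
        (64 * (5 ^ (m - 2) * νb + 1)) * (G' * (1 + Lg)) / 64 := by
      have e1 : (64 * ((5:ℝ) ^ (m - 2) * νb + 1)) * (G' * (1 + Lg)) / 64 =
          5 ^ (m - 2) * νb * (G' * (1 + Lg)) + G' * (1 + Lg) := by ring
      rw [e1]
      linarith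
    have h6 : θ' * (A * (q / 8) ^ 2) = A * θ' * q ^ 2 / 64 := by ring
    rw [h6]
    linarith

end Crest.Agent.R234.We_822
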