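import Crest.Agent.R234.Well4_761

/-!
Row 234, VF-WELL (helper761), file 5: the net of heights at a good centre.
-/

set_option autoImplicit false
set_option linter.unusedSectionVars false

open Set Filter Topology MeasureTheory Metric
open scoped ContDiff InnerProductSpace ENNReal

noncomputable section

namespace Crest.Agent.R234.Well_761

variable {H : Type*} [PseudoMetricSpace H] [MeasurableSpace H] [OpensMeasurableSpace H]
variable {W : Type*} [NormedAddCommGroup W] [InnerProductSpace ℝ W] [MeasurableSpace W]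
  [BorelSpace W]

variable {m : ℕ} {κ : ℝ → ℝ} {Kκ cκ : ℝ} {mu en : Measure (H × W)}
  {R : H → ℝ → ℝ} {er : H → ℝ → ℝ → ℝ} {K : ℝ} {x₀ : H} {ρ₀ : ℝ}

/-- lower mass bounds at the support `T` over the ball of radius `ρ₀` around `x₀`. -/
structure Geo (m : ℕ) (mu : Measure (H × W)) (T : Set (H × W)) (c0 : ℝ) (x₀ : H) (ρ₀ : ℝ) :
    Prop where
  null : mu Tᶜ = 0
  cpos : 0 < c0
  lower : ∀ x p, (x, p) ∈ T → ∀ r, 0 < r → dist x x₀ + r ≤ ρ₀ →
    ENNReal.ofReal (c0 * r ^ m) ≤ mu (cyl x r (closedBall p r))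

/-- good centre at all scales `≤ l1` and `≥ l0`. -/
structure Good (m : ℕ) (mu en : Measure (H × W)) (er : H → ℝ → ℝ → ℝ) (Cμ : ℝ) (x₀ : H)
    (ρ₀ : ℝ) (x : H) (l0 l1 lam θ q : ℝ) : Prop where
  le : l0 ≤ l1
  dom : dist x x₀ + Real.exp l1 ≤ ρ₀
  en : ∀ l ∈ Icc l0 l1, (en (cyl x (Real.exp l) univ)).toReal ≤ lam * Real.exp (m * l)
  er : ∀ l ∈ Icc l0 l1, er x l q ≤ θ * q ^ 2
  Cpos : 0 ≤ Cμ
  mass : ∀ l ∈ Icc l0 l1, mu (cyl x (Real.exp l) univ) ≤ ENNReal.ofReal (Cμ * Real.exp (m * l))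

variable {Cμ c0 : ℝ}

theorem Good.mono {x : H} {l0 l1 l0' l1' lam θ q : ℝ}
    (h : Good m mu en er Cμ x₀ ρ₀ x l0 l1 lam θ q)
    (h0 : l0 ≤ l0') (h1 : l1' ≤ l1) (hle : l0' ≤ l1') :
    Good m mu en er Cμ x₀ ρ₀ x l0' l1' lam θ q where
  le := hle
  dom := by
    have := Real.exp_le_exp.2 h1
    linarith [h.dom]
  en l hl := h.en l ⟨h0.trans hl.1, hl.2.trans h1⟩
  er l hl := h.er l ⟨h0.trans hl.1, hl.2.trans h1⟩
  Cpos := h.Cpos
  mass l hl := h.mass l ⟨h0.trans hl.1, hl.2.trans h1⟩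

/-- (iii) heights over the ball of radius `D` carry mass at larger scales. -/
theorem heights_mass (hfl : Flow m κ mu en R er K x₀ ρ₀) (hκ : Ker κ Kκ cκ)
    {T : Set (H × W)} (hg : Geo m mu T c0 x₀ ρ₀) {x : H} {D l lam θ q : ℝ}
    (hD : 0 < D) (hDq : D ≤ q / 16) (hx : Good m mu en er Cμ x₀ ρ₀ x (Real.log (4 * D)) l lam θ q)
    {p : W} (hp : p ∈ Ht T x D) :
    q ^ 2 * (3 / 512) * cκ * (c0 / 4 ^ m) - (K * lam * (Real.exp (2 * l) / 2) +
      (K * lam + θ) * (l - Real.log (4 * D)) * q ^ 2) ≤ nu m κ mu x l (bump p q) := by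
  have hq : 0 < q := by linarith
  obtain ⟨x', hx'T, hx'⟩ := hp
  have h4 : Real.exp (Real.log (4 * D)) = 4 * D := Real.exp_log (by positivity)
  have hup := hfl.up hx.le hq hx.dom hx.en hx.er (test_bump p hq).neg
  rw [nu_neg, nu_neg] at hup
  have hdom0 : dist x x₀ + 4 * D ≤ ρ₀ := by
    have h5 := Real.exp_le_exp.2 hx.le
    rw [h4] at h5
    linarith [hx.dom]
  have hlow : q ^ 2 * (3 / 512) * cκ * (c0 / 4 ^ m) ≤
      nu m κ mu x (Real.log (4 * D)) (bump p q) := by
    refine nu_ge hκ (x' := x') (p := p) (test_bump p hq).meas (M := q ^ 2) (test_bump p hq).bF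
      (bump_nonneg p q) (by positivity) ?_ ?_ hg.cpos.le ?_ ?_
    · intro y hy
      rw [h4] at hy
      refine bump_ge hq ?_
      rw [← dist_eq_norm]
      have := mem_closedBall.1 hy
      linarith
    · rw [h4]; linarith
    · exact ne_top_of_le_ne_top ENNReal.ofReal_ne_top (hx.mass _ (left_mem_Icc.2 hx.le))
    · rw [h4]
      have e : 4 * D / 4 = D := by ring
      rw [e]
      refine hg.lower x' p hx'T D hD ?_
      have := dist_triangle x' x x₀
      linarith
  linarith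

/-- (ii') heights which carry mass at a large scale are close to the net. -/
theorem mass_heights (hfl : Flow m κ mu en R er K x₀ ρ₀) (hκ : Ker κ Kκ cκ)
    {T : Set (H × W)} (hg : Geo m mu T c0 x₀ ρ₀) {x : H} {D l lam θ q : ℝ}
    (hD : 0 < D) (hq : 0 < q) (hx : Good m mu en er Cμ x₀ ρ₀ x (Real.log D) l lam θ q)
    {p : W} (hp : K * lam * (Real.exp (2 * l) / 2) +
      (K * lam + θ) * (l - Real.log D) * q ^ 2 < nu m κ mu x l (bump p q)) :
    ∃ y ∈ Ht T x D, dist y p ≤ q / 4 := by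
  by_contra hcon
  push Not at hcon
  have hup := hfl.up hx.le hq hx.dom hx.en hx.er (test_bump p hq)
  have h0 : nu m κ mu x (Real.log D) (bump p q) = 0 := by
    refine nu_eq_zero hκ hg.null fun y hy => ?_
    rw [Real.exp_log hD] at hy
    have := hcon y hy
    rw [dist_eq_norm] at this
    exact bump_eq_zero hq this.le
  linarith

/-- Gronwall. -/
theorem gronwall_up {f g : ℝ → ℝ} {a b θ : ℝ} (hab : a ≤ b) (hθ : 0 ≤ θ)
    (h : ∀ l ∈ Icc a b, ∃ d d', HasDerivAt f d l ∧ HasDerivAt g d' l ∧ 0 ≤ d' ∧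
      d ≤ d' + θ * f l) :
    f b ≤ Real.exp (θ * (b - a)) * (f a + (g b - g a)) := by
  have key := le_of_deriv_le (f := fun l => Real.exp (-(θ * (l - a))) * f l) (g := g) hab ?_
  · simp only [sub_self, mul_zero, neg_zero, Real.exp_zero, one_mul] at key
    have h1 : Real.exp (-(θ * (b - a))) * f b ≤ f a + (g b - g a) := by linarith
    have h2 := mul_le_mul_of_nonneg_left h1 (Real.exp_pos (θ * (b - a))).le
    rwa [← mul_assoc, ← Real.exp_add, add_neg_cancel, Real.exp_zero, one_mul] at h2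
  · intro l hl
    obtain ⟨d, d', hd, hd', hd0, hle⟩ := h l hl
    have e1 : HasDerivAt (fun l => Real.exp (-(θ * (l - a)))) (Real.exp (-(θ * (l - a))) *
        (-(θ * 1))) l :=
      ((((hasDerivAt_id l).sub_const a).const_mul θ).neg).exp
    refine ⟨_, d', e1.mul hd, hd', ?_⟩
    have e2 : Real.exp (-(θ * (l - a))) ≤ 1 := by
      rw [Real.exp_le_one_iff]
      have := mul_nonneg hθ (sub_nonneg.2 hl.1)
      linarith
    have e3 := (Real.exp_pos (-(θ * (l - a)))).le
    calc Real.exp (-(θ * (l - a))) * (-(θ * 1)) * f l + Real.exp (-(θ * (l - a))) * d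
        = Real.exp (-(θ * (l - a))) * (d - θ * f l) := by ring
      _ ≤ Real.exp (-(θ * (l - a))) * d' := mul_le_mul_of_nonneg_left (by linarith) e3
      _ ≤ 1 * d' := mul_le_mul_of_nonneg_right e2 hd0
      _ = d' := one_mul _

/-- the flow of the wells, with an error proportional to the functional itself. -/
structure WFlow (m : ℕ) (κ : ℝ → ℝ) (mu en : Measure (H × W)) (erw : H → ℝ → ℝ → ℝ)
    (K θ₁ : ℝ) (x₀ : H) (ρ₀ : ℝ) : Prop where
  K0 : 0 ≤ K
  θ0 : 0 ≤ θ₁
  flow : ∀ x l, dist x x₀ + Real.exp l ≤ ρ₀ → ∀ (C : Finset W) q, 0 < q → Sep C q →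
    ∃ d, HasDerivAt (fun l => nu m κ mu x l (wells C q)) d l ∧
      d ≤ K * (Real.exp (2 * l) + q ^ 2) * Real.exp (-(m * l)) *
          (en (cyl x (Real.exp l) univ)).toReal + θ₁ * nu m κ mu x l (wells C q) + erw x l q

/-- the stationary case. -/
theorem Flow.wflow (hfl : Flow m κ mu en R er K x₀ ρ₀) :
    WFlow m κ mu en er K 0 x₀ ρ₀ where
  K0 := hfl.K0
  θ0 := le_rfl
  flow x l hx C q hq hC := by
    obtain ⟨d, hd, -, hd2⟩ := hfl.flow x l hx _ _ _ q hq (test_wells hq hC)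
    have h1 := hd2 univ MeasurableSet.univ (fun y hy => absurd (mem_univ y) hy)
    exact ⟨d, hd, by linarith⟩

/-- (a') the wells. -/
theorem wells_small {erw : H → ℝ → ℝ → ℝ} {θ₁ θw : ℝ}
    (hwf : WFlow m κ mu en erw K θ₁ x₀ ρ₀) (hκ : Ker κ Kκ cκ)
    {T : Set (H × W)} (hg : Geo m mu T c0 x₀ ρ₀) {x : H} {D l lam θ q q' r : ℝ}
    (hD : 0 < D) (hq : 0 < q) (hx : Good m mu en er Cμ x₀ ρ₀ x (Real.log D) l lam θ q')
    (hlam : 0 ≤ lam) (hθw : 0 ≤ θw)
    (herw : ∀ l' ∈ Icc (Real.log D) l, erw x l' q ≤ θw * q ^ 2)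
    {C : Finset W} (hC : Sep C q) (hnet : ∀ y ∈ Ht T x D, ∃ c ∈ C, dist y c ≤ r) :
    nu m κ mu x l (wells C q) ≤ Real.exp (θ₁ * (l - Real.log D)) *
      (r ^ 2 / 2 * Kκ * Cμ + K * lam * (Real.exp (2 * l) / 2) +
      (K * lam + θw) * (l - Real.log D) * q ^ 2) := by
  have key := gronwall_up (f := fun l => nu m κ mu x l (wells C q))
    (g := fun l => K * lam * (Real.exp (2 * l) / 2) + (K * lam + θw) * q ^ 2 * l) hx.le hwf.θ0 ?_
  · refine key.trans (mul_le_mul_of_nonneg_left ?_ (Real.exp_pos _).le)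
    have h0 : nu m κ mu x (Real.log D) (wells C q) ≤ r ^ 2 / 2 * Kκ * Cμ := by
      refine nu_le hκ hg.null (test_wells hq hC).meas (M := q ^ 2) (test_wells hq hC).bF
        (by positivity) ?_ hx.Cpos (hx.mass _ (left_mem_Icc.2 hx.le))
      intro y hy
      rw [Real.exp_log hD] at hy
      obtain ⟨c, hc, hd⟩ := hnet y hy
      refine (wells_le_sq hq y hc).trans ?_
      rw [← dist_eq_norm]
      have : dist y c ^ 2 ≤ r ^ 2 := pow_le_pow_left₀ dist_nonneg hd 2
      linarith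
    have h1 : 0 ≤ K * lam * (Real.exp (2 * Real.log D) / 2) := by
      have := hwf.K0
      positivity
    have h2 : K * lam * (Real.exp (2 * l) / 2) + (K * lam + θw) * q ^ 2 * l -
        (K * lam * (Real.exp (2 * Real.log D) / 2) + (K * lam + θw) * q ^ 2 * Real.log D) =
        K * lam * (Real.exp (2 * l) / 2) - K * lam * (Real.exp (2 * Real.log D) / 2) +
        (K * lam + θw) * (l - Real.log D) * q ^ 2 := by ring
    rw [h2]
    linarith
  · intro l' hlm
    obtain ⟨d, hd, hd1⟩ := hwf.flow x l' (by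
      have := Real.exp_le_exp.2 hlm.2
      linarith [hx.dom]) C q hq hC
    have h2 : HasDerivAt (fun l => K * lam * (Real.exp (2 * l) / 2) +
        (K * lam + θw) * q ^ 2 * l) (K * lam * (Real.exp (2 * l') * 2 / 2) +
        (K * lam + θw) * q ^ 2 * 1) l' := by
      have e1 : HasDerivAt (fun l : ℝ => 2 * l) (2 * 1) l' := (hasDerivAt_id l').const_mul 2
      have e2 := (e1.exp.div_const 2).const_mul (K * lam)
      have e3 := (hasDerivAt_id l').const_mul ((K * lam + θw) * q ^ 2)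
      have e4 := e2.add e3
      refine HasDerivAt.congr_deriv e4 ?_
      simp only [mul_one]
    have hK := hwf.K0
    refine ⟨d, _, hd, h2, by positivity, hd1.trans ?_⟩
    have h3 := hx.en l' hlm
    have h4 := herw l' hlm
    have h5 : K * (Real.exp (2 * l') + q ^ 2) * Real.exp (-(m * l')) *
        (en (cyl x (Real.exp l') univ)).toReal ≤
        K * (Real.exp (2 * l') + q ^ 2) * Real.exp (-(m * l')) * (lam * Real.exp (m * l')) :=
      mul_le_mul_of_nonneg_left h3 (by positivity)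
    have h6 : K * (Real.exp (2 * l') + q ^ 2) * Real.exp (-(m * l')) * (lam * Real.exp (m * l'))
        = K * lam * (Real.exp (2 * l') + q ^ 2) := by
      have : Real.exp (-(m * l')) * Real.exp (m * l') = 1 := by rw [← Real.exp_add]; simp
      calc _ = K * lam * (Real.exp (2 * l') + q ^ 2) *
            (Real.exp (-(m * l')) * Real.exp (m * l')) := by ring
        _ = _ := by rw [this, mul_one]
    rw [h6] at h5
    linarith

/-- number of separated heights. -/
theorem card_heights {T : Set (H × W)} (hg : Geo m mu T c0 x₀ ρ₀) {x : H}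
    {D r l lam θ q : ℝ} (hD : 0 < D) (hr : 2 * D < r) {n : ℕ}
    (hx : Good m mu en er Cμ x₀ ρ₀ x (Real.log D) l lam θ q) (hDl : 2 * D ≤ Real.exp l)
    (h : HasSep (Ht T x D) r n) : (n : ℝ) ≤ 2 ^ m * Cμ / c0 := by
  have hdom : dist x x₀ + 2 * D ≤ ρ₀ := by linarith [hx.dom]
  obtain ⟨C, hC1, hC2, hC3⟩ := h
  have hf : ∀ c : W, ∃ x' : H, c ∈ C → (x', c) ∈ T ∧ dist x' x ≤ D := by
    intro c
    by_cases hc : c ∈ C
    · obtain ⟨x', h1, h2⟩ := hC1 hc
      exact ⟨x', fun _ => ⟨h1, h2⟩⟩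
    · exact ⟨x, fun h => absurd h hc⟩
  choose f hf using hf
  have h1 : ∑ c ∈ C, mu (cyl (f c) D (closedBall c D)) ≤ mu (cyl x (2 * D) univ) := by
    rw [← measure_biUnion_finset]
    · refine measure_mono (iUnion₂_subset fun c hc => ?_)
      rintro z ⟨hz1, -⟩
      refine ⟨?_, trivial⟩
      rw [mem_closedBall] at hz1 ⊢
      have := dist_triangle z.1 (f c) x
      have := (hf c hc).2
      linarith
    · intro c hc c' hc' hne
      refine Set.disjoint_left.2 ?_
      rintro z ⟨-, hz⟩ ⟨-, hz'⟩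
      rw [mem_closedBall] at hz hz'
      have h2 := hC3 c hc c' hc' hne
      have h3 := dist_triangle_left c c' z.2
      linarith
    · intro c _
      exact cyl_meas _ _ measurableSet_closedBall
  have h2 : (n : ℝ≥0∞) * ENNReal.ofReal (c0 * D ^ m) ≤ ENNReal.ofReal (Cμ * (2 * D) ^ m) := by
    calc (n : ℝ≥0∞) * ENNReal.ofReal (c0 * D ^ m) = ∑ _c ∈ C, ENNReal.ofReal (c0 * D ^ m) := by
          rw [Finset.sum_const, hC2, nsmul_eq_mul]
      _ ≤ ∑ c ∈ C, mu (cyl (f c) D (closedBall c D)) := by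
          refine Finset.sum_le_sum fun c hc => ?_
          refine hg.lower _ _ (hf c hc).1 D hD ?_
          have := dist_triangle (f c) x x₀
          have := (hf c hc).2
          linarith
      _ ≤ mu (cyl x (2 * D) univ) := h1
      _ ≤ ENNReal.ofReal (Cμ * (2 * D) ^ m) := by
          have h3 := hx.mass (Real.log (2 * D)) ⟨Real.log_le_log hD (by linarith),
            (Real.log_le_iff_le_exp (by positivity)).2 hDl⟩
          rw [Real.exp_log (by positivity)] at h3
          refine h3.trans (le_of_eq ?_)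
          congr 2
          rw [← Real.log_pow, Real.exp_log (by positivity)]
  have h3 : (n : ℝ) * (c0 * D ^ m) ≤ Cμ * (2 * D) ^ m := by
    have hc0 := hg.cpos
    have hCμ := hx.Cpos
    rw [← ENNReal.ofReal_natCast, ← ENNReal.ofReal_mul (Nat.cast_nonneg _)] at h2
    exact (ENNReal.ofReal_le_ofReal_iff (by positivity)).1 h2
  rw [le_div_iff₀ hg.cpos]
  have hDm : 0 < D ^ m := pow_pos hD m
  rw [mul_pow] at h3
  have h4 : (n : ℝ) * c0 * D ^ m ≤ 2 ^ m * Cμ * D ^ m := by linarith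
  exact le_of_mul_le_mul_right h4 hDm

/-- over a point of the base there is a height. -/
theorem Ht.nonempty_of_nu (hκ : Ker κ Kκ cκ) {T : Set (H × W)} (hT : mu Tᶜ = 0) {x : H} {l : ℝ}
    {F : W → ℝ} (h : nu m κ mu x l F ≠ 0) : (Ht T x (Real.exp l)).Nonempty := by
  by_contra hcon
  rw [not_nonempty_iff_eq_empty] at hcon
  exact h (nu_eq_zero hκ hT fun y hy => by rw [hcon] at hy; exact absurd hy (notMem_empty y))

end Crest.Agent.R234.Well_761
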