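import Crest.Agent.R234.Well3_761

/-!
Row 234, VF-WELL (helper761), file 4: test functions, the structure `Flow`, evolution lemmas.
-/

set_option autoImplicit false
set_option linter.unusedSectionVars false

open Set Filter Topology MeasureTheory Metric
open scoped ContDiff InnerProductSpace ENNReal

noncomputable section

namespace Crest.Agent.R234.Well_761

variable {H : Type*} [PseudoMetricSpace H] [MeasurableSpace H] [OpensMeasurableSpace H]
variable {W : Type*} [NormedAddCommGroup W] [InnerProductSpace ℝ W] [MeasurableSpace W]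
  [BorelSpace W]

/-- smooth test functions of the heights of size `q`. -/
structure Test (F : W → ℝ) (G : W → W) (A : W → W →L[ℝ] W) (q : ℝ) : Prop where
  cF : ContDiff ℝ ∞ F
  cG : ContDiff ℝ ∞ G
  dF : ∀ y, HasFDerivAt F (innerSL ℝ (G y)) y
  dG : ∀ y, HasFDerivAt G (A y) y
  symm : ∀ y v w, ⟪A y v, w⟫_ℝ = ⟪v, A y w⟫_ℝ
  bF : ∀ y, |F y| ≤ q ^ 2
  bG : ∀ y, ‖G y‖ ≤ q
  bA : ∀ y, ‖A y‖ ≤ 1 + etaC / 8

theorem Test.neg {F : W → ℝ} {G : W → W} {A : W → W →L[ℝ] W} {q : ℝ} (h : Test F G A q) :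
    Test (fun y => -F y) (fun y => -G y) (fun y => -A y) q where
  cF := h.cF.neg
  cG := h.cG.neg
  dF y := by
    rw [map_neg]
    exact (h.dF y).neg
  dG y := (h.dG y).neg
  symm y v w := by
    simp only [neg_apply, inner_neg_left, inner_neg_right, h.symm]
  bF y := by rw [abs_neg]; exact h.bF y
  bG y := by rw [norm_neg]; exact h.bG y
  bA y := by rw [norm_neg]; exact h.bA y

theorem Test.meas {F : W → ℝ} {G : W → W} {A : W → W →L[ℝ] W} {q : ℝ} (h : Test F G A q) :
    Measurable F := h.cF.continuous.measurable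

theorem wellH_norm_le (c : W) {q : ℝ} (hq : 0 < q) (y : W) :
    ‖wellH c q y‖ ≤ 1 + etaC / 8 := by
  have hC := etaC_nonneg
  refine ContinuousLinearMap.opNorm_le_bound _ (by linarith) fun v => ?_
  rw [wellH_apply]
  set t := ‖y - c‖ ^ 2 / q ^ 2 with ht
  have h0 := eta_nonneg t
  have h1 := eta_le_one t
  have h2 := neg_etaC_le t
  have h3 := deriv_eta_nonpos t
  have hn : ‖y - c‖ ^ 2 = q ^ 2 * t := by rw [ht]; field_simp
  have e1 : ‖eta t • v‖ ≤ ‖v‖ := by
    rw [norm_smul, Real.norm_eq_abs, abs_of_nonneg h0]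
    exact mul_le_of_le_one_left (norm_nonneg _) h1
  have e2 : ‖(2 * deriv eta t / q ^ 2 * ⟪y - c, v⟫_ℝ) • (y - c)‖ ≤ etaC / 8 * ‖v‖ := by
    rw [norm_smul, Real.norm_eq_abs, abs_mul]
    have h4 : |⟪y - c, v⟫_ℝ| ≤ ‖y - c‖ * ‖v‖ := abs_real_inner_le_norm _ _
    have h5 : |2 * deriv eta t / q ^ 2| = 2 * (-deriv eta t) / q ^ 2 := by
      rw [abs_div, abs_mul, abs_of_nonpos h3, abs_of_pos (by positivity : (0 : ℝ) < q ^ 2)]
      norm_num
    rw [h5]
    rcases le_total (1 / 16) t with ht' | ht'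
    · rw [deriv_eta_eq_zero_of_ge ht']
      simp only [neg_zero, mul_zero, zero_div, zero_mul]
      positivity
    · calc 2 * (-deriv eta t) / q ^ 2 * |⟪y - c, v⟫_ℝ| * ‖y - c‖
          ≤ 2 * (-deriv eta t) / q ^ 2 * (‖y - c‖ * ‖v‖) * ‖y - c‖ := by
            have : 0 ≤ 2 * (-deriv eta t) / q ^ 2 :=
              div_nonneg (by linarith) (by positivity)
            gcongr
        _ = 2 * (-deriv eta t) * t * ‖v‖ := by
            have : 2 * (-deriv eta t) / q ^ 2 * (‖y - c‖ * ‖v‖) * ‖y - c‖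
              = 2 * (-deriv eta t) / q ^ 2 * ‖y - c‖ ^ 2 * ‖v‖ := by ring
            rw [this, hn]
            field_simp
        _ ≤ 2 * etaC * (1 / 16) * ‖v‖ := by
            have h6 : 0 ≤ t := by positivity
            gcongr
            linarith
        _ = etaC / 8 * ‖v‖ := by ring
  calc ‖eta t • v + (2 * deriv eta t / q ^ 2 * ⟪y - c, v⟫_ℝ) • (y - c)‖
      ≤ ‖eta t • v‖ + ‖(2 * deriv eta t / q ^ 2 * ⟪y - c, v⟫_ℝ) • (y - c)‖ := norm_add_le _ _
    _ ≤ ‖v‖ + etaC / 8 * ‖v‖ := add_le_add e1 e2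
    _ = (1 + etaC / 8) * ‖v‖ := by ring

theorem test_well (c : W) {q : ℝ} (hq : 0 < q) : Test (well c q) (wellG c q) (wellH c q) q where
  cF := well_contDiff c q
  cG := wellG_contDiff c q
  dF := well_hasFDerivAt c hq
  dG := wellG_hasFDerivAt c q
  symm := wellH_symm c q
  bF y := by
    rw [abs_of_nonneg (well_nonneg c q y)]
    have := well_le_top c q y
    have := wellTop_le q
    nlinarith [sq_nonneg q]
  bG y := by
    have h1 := wellG_sq_le c hq y
    have h2 := well_le_top c q y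
    have h3 := wellTop_le q
    refine abs_le_of_sq_le_sq' ?_ hq.le |>.2
    nlinarith [sq_nonneg q]
  bA := wellH_norm_le c hq

theorem test_wells {C : Finset W} {q : ℝ} (hq : 0 < q) (h : Sep C q) :
    Test (wells C q) (wellsG C q) (wellsH C q) q where
  cF := wells_contDiff C q
  cG := wellsG_contDiff C q
  dF := wells_hasFDerivAt C hq
  dG := wellsG_hasFDerivAt C q
  symm := wellsH_symm C q
  bF y := by
    rw [abs_of_nonneg (wells_nonneg hq h y)]
    have := wells_le_top (C := C) (q := q) y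
    have := wellTop_le q
    nlinarith [sq_nonneg q]
  bG y := by
    have h1 := wellsG_sq_le hq h y
    have h2 := wells_le_top (C := C) (q := q) y
    have h3 := wellTop_le q
    refine abs_le_of_sq_le_sq' ?_ hq.le |>.2
    nlinarith [sq_nonneg q]
  bA y := by
    rcases wells_cases hq h y with ⟨c, -, -, -, -, h1⟩ | ⟨-, -, -, h1⟩
    · rw [h1]; exact wellH_norm_le c hq y
    · rw [h1, norm_zero]
      have := etaC_nonneg
      linarith

/-- the bump around `p`. -/
def bump (p : W) (q : ℝ) (y : W) : ℝ := wellTop q - well p q y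

theorem bump_nonneg (p : W) (q : ℝ) (y : W) : 0 ≤ bump p q y := sub_nonneg.2 (well_le_top p q y)

theorem bump_le (p : W) (q : ℝ) (y : W) : bump p q y ≤ q ^ 2 / 32 := by
  unfold bump
  have := well_nonneg p q y
  have := wellTop_le q
  linarith

theorem bump_ge {p : W} {q : ℝ} (hq : 0 < q) {y : W} (hy : ‖y - p‖ ≤ q / 16) :
    q ^ 2 * (3 / 512) ≤ bump p q y := top_sub_well_ge hq hy

theorem bump_eq_zero {p : W} {q : ℝ} (hq : 0 < q) {y : W} (hy : q / 4 ≤ ‖y - p‖) :
    bump p q y = 0 := by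
  unfold bump
  rw [well_eq_top hq hy, sub_self]

theorem test_bump (p : W) {q : ℝ} (hq : 0 < q) :
    Test (bump p q) (fun y => -wellG p q y) (fun y => -wellH p q y) q where
  cF := contDiff_const.sub (well_contDiff p q)
  cG := (wellG_contDiff p q).neg
  dF y := by
    rw [map_neg]
    exact (well_hasFDerivAt p hq y).const_sub _
  dG y := (wellG_hasFDerivAt p q y).neg
  symm y v w := by
    simp only [neg_apply, inner_neg_left, inner_neg_right, wellH_symm p q y v w]
  bF y := by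
    rw [abs_of_nonneg (bump_nonneg p q y)]
    have := bump_le p q y
    nlinarith [sq_nonneg q]
  bG y := by
    rw [norm_neg]; exact (test_well p hq).bG y
  bA y := by
    rw [norm_neg]; exact wellH_norm_le p hq y

variable {m : ℕ} {κ : ℝ → ℝ} {Kκ cκ : ℝ} {mu en : Measure (H × W)}
  {R : H → ℝ → ℝ} {er : H → ℝ → ℝ → ℝ} {K : ℝ} {x₀ : H} {ρ₀ : ℝ}

/-- the flow of the height functionals in the scale. -/
structure Flow (m : ℕ) (κ : ℝ → ℝ) (mu en : Measure (H × W)) (R : H → ℝ → ℝ)
    (er : H → ℝ → ℝ → ℝ) (K : ℝ) (x₀ : H) (ρ₀ : ℝ) : Prop where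
  K0 : 0 ≤ K
  Rnn : ∀ x l, 0 ≤ R x l
  flow : ∀ x l, dist x x₀ + Real.exp l ≤ ρ₀ → ∀ F G A q, 0 < q → Test F G A q →
    ∃ d, HasDerivAt (fun l => nu m κ mu x l F) d l ∧
      |d| ≤ √(nu m κ mu x l fun y => ‖G y‖ ^ 2) * √(R x l)
        + K * q ^ 2 * Real.exp (-(m * l)) * (en (cyl x (Real.exp l) univ)).toReal + er x l q ∧
      ∀ S : Set W, MeasurableSet S → (∀ y ∉ S, F y = 0 ∧ ∀ v, ⟪A y v, v⟫_ℝ ≤ 0) →
        d ≤ K * (Real.exp (2 * l) + q ^ 2) * Real.exp (-(m * l)) *
          (en (cyl x (Real.exp l) S)).toReal + er x l q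

/-- a real function with `f' ≤ g'` on an interval. -/
theorem le_of_deriv_le {f g : ℝ → ℝ} {a b : ℝ} (hab : a ≤ b)
    (h : ∀ l ∈ Icc a b, ∃ d d', HasDerivAt f d l ∧ HasDerivAt g d' l ∧ d ≤ d') :
    f b - f a ≤ g b - g a := by
  have hf : ∀ l ∈ Icc a b, ∃ e, HasDerivAt (fun l => g l - f l) e l ∧ 0 ≤ e := by
    intro l hl
    obtain ⟨d, d', h1, h2, h3⟩ := h l hl
    exact ⟨d' - d, h2.sub h1, sub_nonneg.2 h3⟩
  have hmono : MonotoneOn (fun l => g l - f l) (Icc a b) := by
    refine monotoneOn_of_deriv_nonneg (convex_Icc a b) ?_ ?_ ?_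
    · intro l hl
      obtain ⟨e, he, -⟩ := hf l hl
      exact he.continuousAt.continuousWithinAt
    · intro l hl
      obtain ⟨e, he, -⟩ := hf l (interior_subset hl)
      exact he.differentiableAt.differentiableWithinAt
    · intro l hl
      obtain ⟨e, he, he0⟩ := hf l (interior_subset hl)
      rw [he.deriv]; exact he0
  have := hmono (left_mem_Icc.2 hab) (right_mem_Icc.2 hab) hab
  simp only at this
  linarith

/-- upward evolution at a good centre. -/
theorem Flow.up (hfl : Flow m κ mu en R er K x₀ ρ₀) {x : H} {l0 l1 q lam θ : ℝ} (hl : l0 ≤ l1)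
    (hq : 0 < q) (hdom : dist x x₀ + Real.exp l1 ≤ ρ₀)
    (hen : ∀ l ∈ Icc l0 l1, (en (cyl x (Real.exp l) univ)).toReal ≤ lam * Real.exp (m * l))
    (her : ∀ l ∈ Icc l0 l1, er x l q ≤ θ * q ^ 2) {F : W → ℝ} {G : W → W}
    {A : W → W →L[ℝ] W} (hF : Test F G A q) :
    nu m κ mu x l1 F - nu m κ mu x l0 F ≤
      K * lam * (Real.exp (2 * l1) / 2) + (K * lam + θ) * (l1 - l0) * q ^ 2 := by
  have key := le_of_deriv_le (f := fun l => nu m κ mu x l F)
    (g := fun l => K * lam * (Real.exp (2 * l) / 2) + (K * lam + θ) * q ^ 2 * l) hl ?_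
  · have h0 : 0 ≤ K * lam := by
      have h1 : 0 ≤ lam * Real.exp (m * l0) :=
        ENNReal.toReal_nonneg.trans (hen l0 (left_mem_Icc.2 hl))
      have h2 : 0 ≤ lam := nonneg_of_mul_nonneg_left h1 (Real.exp_pos _)
      exact mul_nonneg hfl.K0 h2
    have h3 : 0 ≤ K * lam * (Real.exp (2 * l0) / 2) := by positivity
    calc nu m κ mu x l1 F - nu m κ mu x l0 F
        ≤ K * lam * (Real.exp (2 * l1) / 2) + (K * lam + θ) * q ^ 2 * l1 -
          (K * lam * (Real.exp (2 * l0) / 2) + (K * lam + θ) * q ^ 2 * l0) := key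
      _ ≤ _ := by linarith
  · intro l hlm
    obtain ⟨d, hd, -, hd2⟩ := hfl.flow x l
      (by have := Real.exp_le_exp.2 hlm.2; linarith) F G A q hq hF
    have h1 := hd2 univ MeasurableSet.univ (fun y hy => absurd (mem_univ y) hy)
    have h2 : HasDerivAt (fun l => K * lam * (Real.exp (2 * l) / 2) +
        (K * lam + θ) * q ^ 2 * l) (K * lam * (Real.exp (2 * l) * 2 / 2) +
        (K * lam + θ) * q ^ 2 * 1) l := by
      have e1 : HasDerivAt (fun l : ℝ => 2 * l) (2 * 1) l := (hasDerivAt_id l).const_mul 2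
      have e2 := (e1.exp.div_const 2).const_mul (K * lam)
      have e3 := (hasDerivAt_id l).const_mul ((K * lam + θ) * q ^ 2)
      have e4 := e2.add e3
      refine HasDerivAt.congr_deriv e4 ?_
      simp only [mul_one]
    refine ⟨d, _, hd, h2, h1.trans ?_⟩
    have h3 := hen l hlm
    have h4 := her l hlm
    have h5 : K * (Real.exp (2 * l) + q ^ 2) * Real.exp (-(m * l)) *
        (en (cyl x (Real.exp l) univ)).toReal ≤
        K * (Real.exp (2 * l) + q ^ 2) * Real.exp (-(m * l)) * (lam * Real.exp (m * l)) := by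
      refine mul_le_mul_of_nonneg_left h3 ?_
      have := hfl.K0
      positivity
    have h6 : K * (Real.exp (2 * l) + q ^ 2) * Real.exp (-(m * l)) * (lam * Real.exp (m * l))
        = K * lam * (Real.exp (2 * l) + q ^ 2) := by
      have : Real.exp (-(m * l)) * Real.exp (m * l) = 1 := by rw [← Real.exp_add]; simp
      calc _ = K * lam * (Real.exp (2 * l) + q ^ 2) *
            (Real.exp (-(m * l)) * Real.exp (m * l)) := by ring
        _ = _ := by rw [this, mul_one]
    rw [h6] at h5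
    linarith

/-- drift of a test function at a fixed centre. -/
theorem Flow.drift (hfl : Flow m κ mu en R er K x₀ ρ₀) (hκ : Ker κ Kκ cκ)
    {T : Set (H × W)} (hT : mu Tᶜ = 0) {Cμ : ℝ} (hC0 : 0 ≤ Cμ)
    {x : H} {l0 l1 q θ θ' : ℝ} (hl : l0 ≤ l1)
    (hq : 0 < q) (hdom : dist x x₀ + Real.exp l1 ≤ ρ₀)
    (hmass : ∀ l ∈ Icc l0 l1, mu (cyl x (Real.exp l) univ) ≤ ENNReal.ofReal (Cμ * Real.exp (m * l)))
    (hen : ∀ l ∈ Icc l0 l1, (en (cyl x (Real.exp l) univ)).toReal ≤ θ' * Real.exp (m * l))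
    (her : ∀ l ∈ Icc l0 l1, er x l q ≤ θ * q ^ 2) {U : ℝ → ℝ}
    (hU : ∀ l ∈ Icc l0 l1, HasDerivAt U (R x l) l) {a : ℝ} (ha : 0 < a) {F : W → ℝ} {G : W → W}
    {A : W → W →L[ℝ] W} (hF : Test F G A q) :
    |nu m κ mu x l1 F - nu m κ mu x l0 F| ≤
      √(Kκ * Cμ) * q * (a * (U l1 - U l0) + (l1 - l0) / a) / 2 +
        (K * θ' + θ) * (l1 - l0) * q ^ 2 := by
  have main : ∀ (F : W → ℝ) (G : W → W) (A : W → W →L[ℝ] W), Test F G A q →
      nu m κ mu x l1 F - nu m κ mu x l0 F ≤
      √(Kκ * Cμ) * q * (a * (U l1 - U l0) + (l1 - l0) / a) / 2 +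
        (K * θ' + θ) * (l1 - l0) * q ^ 2 := by
    intro F G A hF
    have key := le_of_deriv_le (f := fun l => nu m κ mu x l F)
      (g := fun l => √(Kκ * Cμ) * q * (a * U l + l / a) / 2 + (K * θ' + θ) * q ^ 2 * l) hl ?_
    · refine key.trans (le_of_eq ?_)
      ring
    · intro l hlm
      obtain ⟨d, hd, hd1, -⟩ := hfl.flow x l
        (by have := Real.exp_le_exp.2 hlm.2; linarith) F G A q hq hF
      have h2 : HasDerivAt (fun l => √(Kκ * Cμ) * q * (a * U l + l / a) / 2 +
          (K * θ' + θ) * q ^ 2 * l)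
          (√(Kκ * Cμ) * q * (a * R x l + 1 / a) / 2 + (K * θ' + θ) * q ^ 2 * 1) l := by
        have e1 := (hU l hlm).const_mul a
        have e2 := (hasDerivAt_id l).div_const a
        have e3 := ((e1.add e2).const_mul (√(Kκ * Cμ) * q)).div_const 2
        exact e3.add ((hasDerivAt_id l).const_mul ((K * θ' + θ) * q ^ 2))
      refine ⟨d, _, hd, h2, (le_abs_self d).trans (hd1.trans ?_)⟩
      have h3 := hen l hlm
      have h4 := her l hlm
      have h5 : K * q ^ 2 * Real.exp (-(m * l)) * (en (cyl x (Real.exp l) univ)).toReal ≤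
          K * θ' * q ^ 2 := by
        calc K * q ^ 2 * Real.exp (-(m * l)) * (en (cyl x (Real.exp l) univ)).toReal
            ≤ K * q ^ 2 * Real.exp (-(m * l)) * (θ' * Real.exp (m * l)) := by
              refine mul_le_mul_of_nonneg_left h3 ?_
              have := hfl.K0
              positivity
          _ = K * θ' * q ^ 2 * (Real.exp (-(m * l)) * Real.exp (m * l)) := by ring
          _ = K * θ' * q ^ 2 := by rw [← Real.exp_add]; simp
      have h6 : nu m κ mu x l (fun y => ‖G y‖ ^ 2) ≤ q ^ 2 * Kκ * Cμ := by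
        refine nu_le hκ hT ((hF.cG.continuous.norm.pow 2).measurable) (M := q ^ 2) ?_
          (sq_nonneg q) ?_ hC0 (hmass l hlm)
        · intro y
          rw [abs_of_nonneg (sq_nonneg _)]
          exact pow_le_pow_left₀ (norm_nonneg _) (hF.bG y) 2
        · intro y _
          exact pow_le_pow_left₀ (norm_nonneg _) (hF.bG y) 2
      have h7 : √(nu m κ mu x l fun y => ‖G y‖ ^ 2) ≤ √(Kκ * Cμ) * q := by
        have : q ^ 2 * Kκ * Cμ = (Kκ * Cμ) * q ^ 2 := by ring
        rw [this] at h6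
        calc √(nu m κ mu x l fun y => ‖G y‖ ^ 2) ≤ √((Kκ * Cμ) * q ^ 2) := Real.sqrt_le_sqrt h6
          _ = √(Kκ * Cμ) * q := by
              rw [Real.sqrt_mul (mul_nonneg hκ.Kpos.le hC0), Real.sqrt_sq hq.le]
      have h8 : √(R x l) ≤ (a * R x l + 1 / a) / 2 := by
        have hR := hfl.Rnn x l
        have h9 : 0 ≤ (√(a * R x l) - √(1 / a)) ^ 2 := sq_nonneg _
        rw [sub_sq, Real.sq_sqrt (by positivity), Real.sq_sqrt (by positivity), mul_assoc,
          ← Real.sqrt_mul (by positivity)] at h9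
        have : a * R x l * (1 / a) = R x l := by field_simp
        rw [this] at h9
        linarith
      have h10 : √(nu m κ mu x l fun y => ‖G y‖ ^ 2) * √(R x l) ≤
          √(Kκ * Cμ) * q * (a * R x l + 1 / a) / 2 := by
        calc √(nu m κ mu x l fun y => ‖G y‖ ^ 2) * √(R x l)
            ≤ (√(Kκ * Cμ) * q) * ((a * R x l + 1 / a) / 2) :=
              mul_le_mul h7 h8 (Real.sqrt_nonneg _) (by positivity)
          _ = _ := by ring
      linarith
  rw [abs_le]
  constructor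
  · have h := main _ _ _ hF.neg
    rw [nu_neg, nu_neg] at h
    linarith
  · exact main _ _ _ hF

end Crest.Agent.R234.Well_761
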