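import Crest.Agent.R234.Wi2_870
import Crest.Agent.R234.Well4_761

/-!
# Row 234, VF-WELLINST, part 3 (helper870)

Instance of the abstract interface `Flow` of helper761 (Well4_761) for the push-forward of a varifold
in a cylinder. `flow_of` keeps the first variation terms in `er`; `CylStat.flow` is the stationary case.
-/

set_option autoImplicit false

open MeasureTheory Set Function Filter Topology
open Crest.GeometryTopology.Submanifold
open Crest.Agent.R234.Vf_884 Crest.Agent.R234.Ar_870 Crest.Agent.R234.Cy_870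
open scoped ENNReal NNReal InnerProductSpace ContDiff

noncomputable section

namespace Crest.Agent.R234.Wi_870

variable {m n k : ℕ}

/-- base and height -/
def bh (π : Euc k →L[ℝ] Euc m) (κ : Euc k →L[ℝ] Euc n) (p : Euc k × L k) : Euc m × Euc n :=
  (π p.1, κ p.1)

/-- mass of the base × heights -/
def muOf (V : Measure (Euc k × L k)) (π : Euc k →L[ℝ] Euc m) (κ : Euc k →L[ℝ] Euc n) :
    Measure (Euc m × Euc n) := V.map (bh π κ)

/-- tilt energy of the base × heights -/
def enOf (V : Measure (Euc k × L k)) (π : Euc k →L[ℝ] Euc m) (κ : Euc k →L[ℝ] Euc n) :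
    Measure (Euc m × Euc n) :=
  (V.withDensity fun p => ENNReal.ofReal (tl π p.2)).map (bh π κ)

/-- the kernel `κ(t) = -2 g'(t²)` -/
def kap (g1 : ℝ → ℝ) (t : ℝ) : ℝ := -2 * g1 (t ^ 2)

theorem measurable_bh (π : Euc k →L[ℝ] Euc m) (κ : Euc k →L[ℝ] Euc n) : Measurable (bh π κ) :=
  ((π.continuous.comp continuous_fst).prodMk (κ.continuous.comp continuous_fst)).measurable

variable {π : Euc k →L[ℝ] Euc m} {κ : Euc k →L[ℝ] Euc n} {x x₀ : Euc m} {L₀ h₀ ρ₀ : ℝ}
  {V : Measure (Euc k × L k)} {g g1 g2 : ℝ → ℝ}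

/-- `kap` is an admissible kernel -/
theorem ker_kap (hg : Prof g g1 g2) {K c : ℝ} (hK1 : ∀ t, 0 ≤ t → |g1 t| ≤ K) (hc : 0 < c)
    (hc1 : ∀ t, 0 ≤ t → t ≤ 1 / 4 → g1 t ≤ -c) :
    Well_761.Ker (kap g1) (2 * K) (2 * c) where
  meas := by
    unfold kap
    exact (measurable_const.mul ((hg.k1.continuous.comp (continuous_pow 2)).measurable))
  nonneg t := by
    have := hg.anti (t ^ 2) (by positivity)
    unfold kap; linarith
  le t := by
    have := (abs_le.1 (hK1 (t ^ 2) (by positivity))).1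
    unfold kap; linarith
  zero t ht := by
    unfold kap
    rw [hg.k1.zero _ (by nlinarith), mul_zero]
  ge t h0 h1 := by
    have := hc1 (t ^ 2) (by positivity) (by nlinarith)
    unfold kap; linarith
  cpos := by linarith

theorem dist_sq_exp (u x : Euc m) (l : ℝ) :
    (dist u x * Real.exp (-l)) ^ 2 = Real.exp (-2 * l) * ‖u - x‖ ^ 2 := by
  rw [dist_eq_norm, mul_pow, ← Real.exp_nat_mul, mul_comm]
  congr 2
  push_cast
  ring

/-- the abstract functional of the push-forward -/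
theorem nu_eq (hg : Prof g g1 g2) (V : Measure (Euc k × L k)) (π : Euc k →L[ℝ] Euc m)
    (κ : Euc k →L[ℝ] Euc n) (x : Euc m) (l : ℝ) {F : Euc n → ℝ} (hF : Measurable F) :
    Well_761.nu m (kap g1) (muOf V π κ) x l F = nuG V π κ x F g1 l := by
  unfold Well_761.nu muOf nuG
  have h1 : Measurable fun z : Euc m × Euc n => dist z.1 x :=
    (continuous_fst.dist continuous_const).measurable
  have h2 : Measurable fun z : Euc m × Euc n => kap g1 (dist z.1 x * Real.exp (-l)) * F z.2 := by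
    refine Measurable.mul ?_ (hF.comp measurable_snd)
    unfold kap
    exact measurable_const.mul (hg.k1.continuous.measurable.comp ((h1.mul_const _).pow_const 2))
  rw [integral_map (measurable_bh π κ).aemeasurable h2.aestronglyMeasurable]
  congr 1
  · congr 1; ring
  · refine integral_congr_ae (Eventually.of_forall fun p => ?_)
    simp only [bh, kap]
    rw [dist_sq_exp]
    ring

theorem IF_eq_nuG (V : Measure (Euc k × L k)) (π : Euc k →L[ℝ] Euc m) (κ : Euc k →L[ℝ] Euc n)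
    (x : Euc m) (l : ℝ) (F : Euc n → ℝ) (g1 : ℝ → ℝ) :
    nuG V π κ x F g1 l = IF V π κ x F g1 l / 2 := by
  unfold nuG IF
  have h1 : ∫ p, F (κ p.1) * (-4 * g1 (Real.exp (-2 * l) * ‖π p.1 - x‖ ^ 2)) ∂V =
      2 * ∫ p, F (κ p.1) * (-2 * g1 (Real.exp (-2 * l) * ‖π p.1 - x‖ ^ 2)) ∂V := by
    rw [← integral_const_mul]
    refine integral_congr_ae (Eventually.of_forall fun p => ?_)
    simp only
    ring
  rw [h1]
  ring

theorem RR_nonneg' (hg : Prof g g1 g2) (h : Fr V π κ x L₀) (x' : Euc m) (l : ℝ) :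
    0 ≤ RR V π x' g1 l := by
  unfold RR
  refine mul_nonneg (Real.exp_pos _).le (integral_nonneg_of_ae ?_)
  filter_upwards [h.conc] with p hp
  have h1 := hg.anti (Real.exp (-2 * l) * ‖π p.1 - x'‖ ^ 2) (by positivity)
  exact mul_nonneg (qf_nonneg h.sp.hh (isPr_of_G hp) _) (by linarith)

/-- the energy measure of a cylinder dominates `tS` -/
theorem tS_le_en (h : Fr V π κ x L₀) {l : ℝ} (hl : l < L₀) {S : Set (Euc n)}
    (hS : MeasurableSet S) :
    tS V π κ x l S ≤ (enOf V π κ (Well_761.cyl x (Real.exp l) S)).toReal := by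
  have hcm : MeasurableSet (Well_761.cyl x (Real.exp l) S) :=
    Metric.isClosed_closedBall.measurableSet.prod hS
  have hpre : MeasurableSet (bh π κ ⁻¹' Well_761.cyl x (Real.exp l) S) :=
    measurable_bh (m := m) π κ hcm
  have hsub1 : bh π κ ⁻¹' Well_761.cyl x (Real.exp l) S ⊆
      {p | ‖π p.1 - x‖ ^ 2 < Real.exp (2 * L₀)} := by
    intro p hp
    have h1 : ‖π p.1 - x‖ ≤ Real.exp l := by
      have := hp.1
      rwa [Metric.mem_closedBall, dist_eq_norm] at this
    have h2 : ‖π p.1 - x‖ ^ 2 ≤ Real.exp l ^ 2 := pow_le_pow_left₀ (norm_nonneg _) h1 2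
    rw [← Real.exp_nat_mul] at h2
    refine lt_of_le_of_lt h2 (Real.exp_lt_exp.2 ?_)
    push_cast
    linarith
  have hint : IntegrableOn (fun p => tl π p.2) (bh π κ ⁻¹' Well_761.cyl x (Real.exp l) S) V :=
    (integrableOn_tl h).mono_set hsub1
  have hnn : ∀ᵐ p ∂V, 0 ≤ tl π p.2 := by
    filter_upwards [h.conc] with p hp
    exact tl_nonneg h.sp.hh (isPr_of_G hp)
  have e1 : enOf V π κ (Well_761.cyl x (Real.exp l) S) =
      ∫⁻ p in bh π κ ⁻¹' Well_761.cyl x (Real.exp l) S, ENNReal.ofReal (tl π p.2) ∂V := by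
    unfold enOf
    rw [Measure.map_apply (measurable_bh π κ) hcm, withDensity_apply _ hpre]
  rw [e1, ← ofReal_integral_eq_lintegral_ofReal hint (ae_restrict_of_ae hnn),
    ENNReal.toReal_ofReal (integral_nonneg_of_ae (ae_restrict_of_ae hnn))]
  unfold tS
  refine setIntegral_mono_set hint (ae_restrict_of_ae hnn) ?_
  refine LE.le.eventuallyLE ?_
  intro p hp
  refine ⟨?_, hp.2⟩
  rw [Metric.mem_closedBall, bh, dist_eq_norm]
  have h1 : ‖π p.1 - x‖ ^ 2 ≤ Real.exp l ^ 2 := by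
    rw [← Real.exp_nat_mul]; push_cast; exact hp.1.le
  exact (sq_le_sq₀ (norm_nonneg _) (Real.exp_pos _).le).1 h1

theorem test_c2w {F : Euc n → ℝ} {G : Euc n → Euc n} {A : Euc n → L n} {q : ℝ}
    (h : Well_761.Test F G A q) : C2w F G A where
  hasF := h.dF
  hasdF := h.dG
  contH := by
    have h1 : A = fderiv ℝ G := funext fun y => (h.dG y).fderiv.symm
    rw [h1]
    exact h.cG.continuous_fderiv (by simp)

/-- **the instance of `Flow`**, first variation terms in `er` -/
theorem flow_of (hfr : ∀ x L, Fr V π κ x L) (hh : ∀ x L, Hgt V π κ x L h₀)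
    (hg : Prof g g1 g2) {Kg K : ℝ} (hg0 : ∀ t, 0 ≤ t → 0 ≤ g t) (hKg : ∀ t, 0 ≤ t → g t ≤ Kg)
    (hK1 : ∀ t, 0 ≤ t → |g1 t| ≤ K) (hK2 : ∀ t, 0 ≤ t → |t * g2 t| ≤ K)
    {er : Euc m → ℝ → ℝ → ℝ}
    (her : ∀ x l, dist x x₀ + Real.exp l ≤ ρ₀ → ∀ (F : Euc n → ℝ) (G : Euc n → Euc n)
      (A : Euc n → L n) (q : ℝ), 0 < q → Well_761.Test F G A q →
      2 * Real.exp (-m * l) * |FV V (X3 π κ x F g1 l)| +
        Real.exp ((2 - m) * l) * |FV V (X2 π κ x G g l)| ≤ er x l q) :
    Well_761.Flow m (kap g1) (muOf V π κ) (enOf V π κ) (fun x l => RR V π x g1 l) er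
      (Kg * (1 + Well_761.etaC / 8) + 6 * K) x₀ ρ₀ where
  K0 := by
    have h1 := (hg0 0 le_rfl).trans (hKg 0 le_rfl)
    have h2 : 0 ≤ K := (abs_nonneg _).trans (hK1 0 le_rfl)
    have h3 := Well_761.etaC_nonneg
    positivity
  Rnn x l := RR_nonneg' hg (hfr x l) x l
  flow := by
    intro x l hx F G A q hq hT
    have hF := test_c2w hT
    have hfr' := hfr x (l + 1)
    have hh' := hh x (l + 1)
    have hl : l < l + 1 := by linarith
    have h1 := (hasDerivAt_IF hfr' hh' hF hg hl).div_const 2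
    have hKg0 : 0 ≤ Kg := (hg0 0 le_rfl).trans (hKg 0 le_rfl)
    have hK0 : 0 ≤ K := (abs_nonneg _).trans (hK1 0 le_rfl)
    have hB0 : 0 ≤ 1 + Well_761.etaC / 8 := by
      have := Well_761.etaC_nonneg; linarith
    have hfun : (fun l => Well_761.nu m (kap g1) (muOf V π κ) x l F) =
        fun l => IF V π κ x F g1 l / 2 := by
      funext l'
      rw [nu_eq hg V π κ x l' hT.meas, IF_eq_nuG]
    have hGm : Measurable fun y : Euc n => ‖G y‖ ^ 2 :=
      (hT.cG.continuous.norm.pow 2).measurable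
    have hers := her x l hx F G A q hq hT
    have hexp : Real.exp (-m * l) = Real.exp (-(m * l)) := by congr 1; ring
    have hexp2 : Real.exp ((2 - m) * l) = Real.exp (2 * l) * Real.exp (-(m * l)) := by
      rw [← Real.exp_add]; congr 1; ring
    have hFV2 := le_abs_self (FV V (X2 π κ x G g l))
    have hFV3 := le_abs_self (FV V (X3 π κ x F g1 l))
    have hP2 := Real.exp_pos ((2 - m) * l)
    have hPm := Real.exp_pos (-m * l)
    refine ⟨_, by rw [hfun]; exact h1, ?_, ?_⟩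
    · -- (N2)
      have e1 := abs_eF_sub_le hfr' hh' hF hg hl.le
      have e2 := abs_err3_le_S hfr' hg hK1 hK2 hT.bF MeasurableSet.univ
        (fun y hy => (hy (mem_univ y)).elim) hl.le
      have e3 := tS_le_en hfr' hl (S := (univ : Set (Euc n))) MeasurableSet.univ
      rw [nu_eq hg V π κ x l hGm]
      set a := eF V π κ x A g l - Real.exp ((2 - m) * l) * FV V (X2 π κ x G g l) with ha
      set E := (enOf V π κ (Well_761.cyl x (Real.exp l) univ)).toReal with hE
      have hE0 : 0 ≤ E := ENNReal.toReal_nonneg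
      have e4 : (2 * eF V π κ x A g l + err3 V π κ x F g1 g2 l +
          (4 * Real.exp (-m * l) * FV V (X3 π κ x F g1 l) -
            2 * (Real.exp ((2 - m) * l) * FV V (X2 π κ x G g l)))) / 2 =
          a + err3 V π κ x F g1 g2 l / 2 + 2 * Real.exp (-m * l) * FV V (X3 π κ x F g1 l) := by
        rw [ha]; ring
      rw [e4]
      have e5 : |a + err3 V π κ x F g1 g2 l / 2 + 2 * Real.exp (-m * l) * FV V (X3 π κ x F g1 l)| ≤
          |a| + |err3 V π κ x F g1 g2 l| / 2 +
            2 * Real.exp (-m * l) * |FV V (X3 π κ x F g1 l)| := by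
        refine (abs_add_le _ _).trans (add_le_add ((abs_add_le _ _).trans (add_le_add le_rfl ?_)) ?_)
        · rw [abs_div, abs_of_pos (by norm_num : (0:ℝ) < 2)]
        · rw [abs_mul, abs_of_pos (by positivity : 0 < 2 * Real.exp (-m * l))]
      have e6 : |err3 V π κ x F g1 g2 l| / 2 ≤ 6 * K * q ^ 2 * Real.exp (-(m * l)) * E := by
        have e7 : 12 * K * q ^ 2 * Real.exp (-m * l) * tS V π κ x l univ ≤
            12 * K * q ^ 2 * Real.exp (-m * l) * E :=
          mul_le_mul_of_nonneg_left e3 (by positivity)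
        rw [← hexp]
        linarith
      have e8 : 6 * K * q ^ 2 * Real.exp (-(m * l)) * E ≤
          (Kg * (1 + Well_761.etaC / 8) + 6 * K) * q ^ 2 * Real.exp (-(m * l)) * E := by
        have : 0 ≤ Kg * (1 + Well_761.etaC / 8) := mul_nonneg hKg0 hB0
        gcongr
        linarith
      have e9 : 0 ≤ Real.exp ((2 - m) * l) * |FV V (X2 π κ x G g l)| := by positivity
      linarith
    · -- (N1)
      intro S hS hoff
      have e1 := eF_le_S hfr' hh' hF hg hg0 hKg hT.bA hS (fun y hy => (hoff y hy).2) hl.le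
      have e2 := abs_err3_le_S hfr' hg hK1 hK2 hT.bF hS (fun y hy => (hoff y hy).1) hl.le
      have e3 := tS_le_en hfr' hl hS
      set E := (enOf V π κ (Well_761.cyl x (Real.exp l) S)).toReal with hE
      have hE0 : 0 ≤ E := ENNReal.toReal_nonneg
      have e5 : Real.exp ((2 - m) * l) * ((1 + Well_761.etaC / 8) * Kg * tS V π κ x l S) ≤
          Real.exp ((2 - m) * l) * ((1 + Well_761.etaC / 8) * Kg * E) := by
        gcongr
      have e6 : err3 V π κ x F g1 g2 l / 2 ≤ 6 * K * q ^ 2 * Real.exp (-(m * l)) * E := by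
        have e7 : 12 * K * q ^ 2 * Real.exp (-m * l) * tS V π κ x l S ≤
            12 * K * q ^ 2 * Real.exp (-m * l) * E :=
          mul_le_mul_of_nonneg_left e3 (by positivity)
        have e8 := le_abs_self (err3 V π κ x F g1 g2 l)
        rw [← hexp]
        linarith
      have e9 : Real.exp ((2 - m) * l) * ((1 + Well_761.etaC / 8) * Kg * E) +
          6 * K * q ^ 2 * Real.exp (-(m * l)) * E ≤
          (Kg * (1 + Well_761.etaC / 8) + 6 * K) * (Real.exp (2 * l) + q ^ 2) *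
            Real.exp (-(m * l)) * E := by
        rw [hexp2]
        have h2 : 0 ≤ Kg * (1 + Well_761.etaC / 8) * q ^ 2 * Real.exp (-(m * l)) * E := by
          positivity
        have h3 : 0 ≤ 6 * K * Real.exp (2 * l) * Real.exp (-(m * l)) * E := by positivity
        nlinarith
      have e10 : -(Real.exp ((2 - m) * l) * FV V (X2 π κ x G g l)) ≤
          Real.exp ((2 - m) * l) * |FV V (X2 π κ x G g l)| := by
        have := neg_abs_le (FV V (X2 π κ x G g l))
        nlinarith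
      have e11 : 2 * Real.exp (-m * l) * FV V (X3 π κ x F g1 l) ≤
          2 * Real.exp (-m * l) * |FV V (X3 π κ x F g1 l)| := by
        gcongr
      linarith

/-! ### the stationary case -/

theorem contDiff_X2 {F : Euc n → ℝ} {dF : Euc n → Euc n} {H : Euc n → L n} (hF : C2w F dF H)
    (hg : Ker g g1) (π : Euc k →L[ℝ] Euc m) (κ : Euc k →L[ℝ] Euc n) (x : Euc m) (l : ℝ) :
    ContDiff ℝ 1 (X2 π κ x dF g l) := by
  unfold X2
  have h1 : ContDiff ℝ 1 dF := by
    rw [contDiff_one_iff_fderiv]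
    refine ⟨fun y => (hF.hasdF y).differentiableAt, ?_⟩
    have : fderiv ℝ dF = H := funext fun y => (hF.hasdF y).fderiv
    rw [this]
    exact hF.contH
  have h2 : ContDiff ℝ 1 fun v : Euc m => ‖v - x‖ ^ 2 :=
    (contDiff_id.sub contDiff_const).norm_sq ℝ
  exact ((contDiff_scaled hg.der hg.cont l).comp (h2.comp π.contDiff)).smul
    ((ContinuousLinearMap.adjoint κ).contDiff.comp (h1.comp κ.contDiff))

theorem contDiff_X3 {F : Euc n → ℝ} {dF : Euc n → Euc n} {H : Euc n → L n} (hF : C2w F dF H)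
    (hg : Ker g1 g2) (π : Euc k →L[ℝ] Euc m) (κ : Euc k →L[ℝ] Euc n) (x : Euc m) (l : ℝ) :
    ContDiff ℝ 1 (X3 π κ x F g1 l) := by
  unfold X3
  have h1 : ContDiff ℝ 1 F := by
    rw [contDiff_one_iff_fderiv]
    refine ⟨fun y => (hF.hasF y).differentiableAt, ?_⟩
    have : fderiv ℝ F = fun y => innerSL ℝ (dF y) := funext fun y => (hF.hasF y).fderiv
    rw [this]
    exact (innerSL ℝ).continuous.comp hF.contdF
  exact (h1.comp κ.contDiff).smul ((ContinuousLinearMap.adjoint π).contDiff.comp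
    ((contDiff_rad hg.der hg.cont l x).comp π.contDiff))

variable {R : ℝ}

theorem FV2_c (h : CylStat V π κ x₀ R h₀) {F : Euc n → ℝ} {dF : Euc n → Euc n} {H : Euc n → L n}
    (hF : C2w F dF H) (hg : Ker g g1) {l : ℝ} (hl : ‖x - x₀‖ + Real.exp l ≤ R) :
    FV V (X2 π κ x dF g l) = 0 :=
  h.stat _ (contDiff_X2 hF hg π κ x l) fun _ hp => X2_zero hg (CylStat.le_of_R hl hp)

theorem FV3_c (h : CylStat V π κ x₀ R h₀) {F : Euc n → ℝ} {dF : Euc n → Euc n} {H : Euc n → L n}
    (hF : C2w F dF H) (hg : Ker g1 g2) {l : ℝ} (hl : ‖x - x₀‖ + Real.exp l ≤ R) :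
    FV V (X3 π κ x F g1 l) = 0 :=
  h.stat _ (contDiff_X3 hF hg π κ x l) fun _ hp => X3_zero hg (CylStat.le_of_R hl hp)

/-- **(W3) for signed functions of the height**, stationary case -/
theorem W3_c (h : CylStat V π κ x₀ R h₀) {F : Euc n → ℝ} {dF : Euc n → Euc n} {H : Euc n → L n}
    (hF : C2w F dF H) (hg : Prof g g1 g2) {l : ℝ} (hl : ‖x - x₀‖ + Real.exp l ≤ R) :
    HasDerivAt (IF V π κ x F g1) (2 * eF V π κ x H g l + err3 V π κ x F g1 g2 l) l := by
  have h1 := hasDerivAt_IF (h.fr x (l + 1)) (h.hgt' x (l + 1)) hF hg (by linarith : l < l + 1)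
  rw [FV2_c h hF hg.k0 hl, FV3_c h hF hg.k1 hl] at h1
  simpa using h1

/-- **(W2) for signed functions of the height**, stationary case: `|e_F| ≤ √ν(|dF|²) √R` -/
theorem W2_c (h : CylStat V π κ x₀ R h₀) {F : Euc n → ℝ} {dF : Euc n → Euc n} {H : Euc n → L n}
    (hF : C2w F dF H) (hg : Prof g g1 g2) {l : ℝ} (hl : ‖x - x₀‖ + Real.exp l ≤ R) :
    |eF V π κ x H g l| ≤
      Real.sqrt (nuG V π κ x (fun y => ‖dF y‖ ^ 2) g1 l) * Real.sqrt (RR V π x g1 l) := by
  have h1 := abs_eF_sub_le (h.fr x l) (h.hgt' x l) hF hg le_rfl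
  rw [FV2_c h hF hg.k0 hl, mul_zero, sub_zero] at h1
  exact h1

/-- **the instance of `Flow` for a stationary varifold in a cylinder**, no error -/
theorem flow_cyl (h : CylStat V π κ x₀ R h₀) (hρ : ρ₀ ≤ R)
    (hg : Prof g g1 g2) {Kg K : ℝ} (hg0 : ∀ t, 0 ≤ t → 0 ≤ g t) (hKg : ∀ t, 0 ≤ t → g t ≤ Kg)
    (hK1 : ∀ t, 0 ≤ t → |g1 t| ≤ K) (hK2 : ∀ t, 0 ≤ t → |t * g2 t| ≤ K) :
    Well_761.Flow m (kap g1) (muOf V π κ) (enOf V π κ) (fun x l => RR V π x g1 l)
      (fun _ _ _ => 0) (Kg * (1 + Well_761.etaC / 8) + 6 * K) x₀ ρ₀ := by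
  refine flow_of h.fr h.hgt' hg hg0 hKg hK1 hK2 ?_
  intro x l hx F G A q hq hT
  have hl : ‖x - x₀‖ + Real.exp l ≤ R := by
    rw [← dist_eq_norm]; exact hx.trans hρ
  rw [FV2_c h (test_c2w hT) hg.k0 hl, FV3_c h (test_c2w hT) hg.k1 hl]
  simp

end Crest.Agent.R234.Wi_870
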