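import Crest.Agent.R234.Asl8_214
import Crest.Agent.R234.Wi3_870
import Crest.Agent.R234.Well5_761

/-!
# Row 234, VF-ASL / WELL-AS (helper214)

The flow of the wells (`WFlow`, helper761 #7249) for almost stationary varifolds in a cylinder: the
first variation errors are bounded by `2 δ I_F`, the tilt energy with the coefficient `e^{2l} + q²`,
and terms which decay with the scale.
-/

set_option autoImplicit false

open MeasureTheory Set Function Filter Topology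
open Crest.GeometryTopology.Submanifold
open Crest.Agent.R234.Vf_884 Crest.Agent.R234.Ar_870 Crest.Agent.R234.Cy_870
open Crest.Agent.R234.AS_456 (AS errA err hp vp)
open scoped ENNReal NNReal InnerProductSpace

noncomputable section

namespace Crest.Agent.R234.Asl_214

variable {m n k : ℕ} {π : Euc k →L[ℝ] Euc m} {κ : Euc k →L[ℝ] Euc n} {δ : ℝ}
  {x₀ x : Euc m} {R h₀ : ℝ} {W : Measure (Euc k × L k)} {g g1 g2 : ℝ → ℝ}
  {F : Euc n → ℝ} {dF : Euc n → Euc n} {H : Euc n → L n}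

theorem young_ver {δ q a y g u r G Hn σ K F d₀ B₀ h₀ : ℝ} (h0 : 0 ≤ δ) (hq : 0 ≤ q) (ha : 0 ≤ a)
    (hy : 0 ≤ y) (hg : 0 ≤ g) (hu : 0 ≤ u) (hG : 0 ≤ G) (hH : 0 ≤ Hn) (hσ : 0 ≤ σ)
    (hσr : σ * r ^ 2 ≤ 1) (hgK : g ≤ K) (huK : u ≤ K) (hGF : G ^ 2 ≤ 2 * F) (hGd : G ≤ d₀)
    (hHB : Hn ≤ B₀) (hyh : y ≤ h₀) :
    δ * (a + y) * (2 * σ * u * r * G + g * G) + δ * (a ^ 2 + y * a) * (g * Hn) +
      q * a ^ 2 * (g * G) ≤
      4 * δ * σ * (u * F) + (K * (3 / 2 * δ * (1 + B₀) + q * d₀)) * a ^ 2 +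
        K * δ * ((3 + B₀) / 2 * h₀ ^ 2 + d₀ ^ 2) := by
  have hK : 0 ≤ K := hg.trans hgK
  have hB : 0 ≤ B₀ := hH.trans hHB
  have hd : 0 ≤ d₀ := hG.trans hGd
  have hh : 0 ≤ h₀ := hy.trans hyh
  have hy2 : y ^ 2 ≤ h₀ ^ 2 := pow_le_pow_left₀ hy hyh 2
  have hG2 : G ^ 2 ≤ d₀ ^ 2 := pow_le_pow_left₀ hG hGd 2
  have hur : u * (σ * r ^ 2) ≤ K := by
    calc u * (σ * r ^ 2) ≤ u * 1 := mul_le_mul_of_nonneg_left hσr hu
      _ ≤ K := by linarith
  have hsu : 0 ≤ σ * u := mul_nonneg hσ hu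
  have t1 : ∀ b : ℝ, 2 * σ * u * r * G * b ≤ K * b ^ 2 + 2 * σ * (u * F) := by
    intro b
    have e0 : σ * u * (r ^ 2 * b ^ 2 + G ^ 2) - 2 * σ * u * r * G * b =
        σ * u * (r * b - G) ^ 2 := by ring
    have e1 : 0 ≤ σ * u * (r * b - G) ^ 2 := mul_nonneg hsu (sq_nonneg _)
    have e2 : σ * u * G ^ 2 ≤ σ * u * (2 * F) := mul_le_mul_of_nonneg_left hGF hsu
    have e3 : u * (σ * r ^ 2) * b ^ 2 ≤ K * b ^ 2 := mul_le_mul_of_nonneg_right hur (sq_nonneg b)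
    linarith
  have hgG : g * G ≤ K * d₀ := mul_le_mul hgK hGd hG hK
  have hgH : g * Hn ≤ K * B₀ := mul_le_mul hgK hHB hH hK
  have t3 : ∀ b : ℝ, 0 ≤ b → g * G * b ≤ K / 2 * (b ^ 2 + d₀ ^ 2) := by
    intro b hb
    have e1 : g * G * b ≤ K * d₀ * b := mul_le_mul_of_nonneg_right hgG hb
    have e2 := mul_nonneg hK (sq_nonneg (b - d₀))
    linarith
  have t5 : (a ^ 2 + y * a) * (g * Hn) ≤ K * B₀ * (3 / 2 * a ^ 2 + h₀ ^ 2 / 2) := by
    have e1 : (a ^ 2 + y * a) * (g * Hn) ≤ (a ^ 2 + y * a) * (K * B₀) :=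
      mul_le_mul_of_nonneg_left hgH (by positivity)
    have e2 : a ^ 2 + y * a ≤ 3 / 2 * a ^ 2 + h₀ ^ 2 / 2 := by
      have e4 := sq_nonneg (a - y)
      linarith
    have e3 := mul_le_mul_of_nonneg_left e2 (mul_nonneg hK hB)
    linarith
  have t6 : q * a ^ 2 * (g * G) ≤ q * a ^ 2 * (K * d₀) :=
    mul_le_mul_of_nonneg_left hgG (by positivity)
  have a1 := t1 a
  have a2 := t1 y
  have a3 := t3 a ha
  have a4 := t3 y hy
  have hKy : K * y ^ 2 ≤ K * h₀ ^ 2 := mul_le_mul_of_nonneg_left hy2 hK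
  have s1 : (a + y) * (2 * σ * u * r * G + g * G) + (a ^ 2 + y * a) * (g * Hn) ≤
      4 * σ * (u * F) + K * (3 / 2 * (1 + B₀)) * a ^ 2 +
        K * ((3 + B₀) / 2 * h₀ ^ 2 + d₀ ^ 2) := by
    have e1 : (a + y) * (2 * σ * u * r * G + g * G) = 2 * σ * u * r * G * a +
        2 * σ * u * r * G * y + g * G * a + g * G * y := by ring
    rw [e1]
    linarith
  have s2 := mul_le_mul_of_nonneg_left s1 h0
  linarith

theorem young_hor {δ a y u r G dRn s K F F₀ h₀ : ℝ} (h0 : 0 ≤ δ)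
    (hy : 0 ≤ y) (hu : 0 ≤ u) (hr : 0 ≤ r) (hdR0 : 0 ≤ dRn)
    (hrs : r ≤ s) (hdR : dRn ≤ 3 * K) (huK : u ≤ K) (hF : 0 ≤ F) (hGF : G ^ 2 ≤ 2 * F)
    (hFF : F ≤ F₀) (hyh : y ≤ h₀) :
    δ * (a ^ 2 + y ^ 2) * (F * (dRn + u * r)) + δ * (a + y) * (G * (u * r)) ≤
      2 * δ * (u * F) + δ * (K * (F₀ * (3 + s) + s ^ 2 / 2)) * (a ^ 2 + h₀ ^ 2) := by
  have hK : 0 ≤ K := hu.trans huK
  have hh : 0 ≤ h₀ := hy.trans hyh
  have hF0 : 0 ≤ F₀ := hF.trans hFF
  have hy2 : y ^ 2 ≤ h₀ ^ 2 := pow_le_pow_left₀ hy hyh 2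
  have hr2 : r ^ 2 ≤ s ^ 2 := pow_le_pow_left₀ hr hrs 2
  have c1 : u * r ≤ K * s := mul_le_mul huK hrs hr hK
  have c2 : F * (dRn + u * r) ≤ F₀ * (K * (3 + s)) := by
    refine mul_le_mul hFF (by nlinarith) (by positivity) hF0
  have c3 : (a ^ 2 + y ^ 2) * (F * (dRn + u * r)) ≤ (a ^ 2 + h₀ ^ 2) * (F₀ * (K * (3 + s))) :=
    mul_le_mul (by linarith) c2 (by positivity) (by positivity)
  have c4 : u * r ^ 2 ≤ K * s ^ 2 := mul_le_mul huK hr2 (sq_nonneg r) hK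
  have t1 : ∀ b : ℝ, b * (G * (u * r)) ≤ K * s ^ 2 / 2 * b ^ 2 + u * F := by
    intro b
    have e1 : b * (G * (u * r)) ≤ u / 2 * (r ^ 2 * b ^ 2 + G ^ 2) := by
      nlinarith [mul_nonneg hu (sq_nonneg (r * b - G))]
    have e2 : u / 2 * G ^ 2 ≤ u / 2 * (2 * F) :=
      mul_le_mul_of_nonneg_left hGF (by linarith)
    have e3 : u * r ^ 2 * b ^ 2 ≤ K * s ^ 2 * b ^ 2 := mul_le_mul_of_nonneg_right c4 (sq_nonneg b)
    nlinarith
  have a1 := t1 a
  have a2 := t1 y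
  have hKy : K * s ^ 2 / 2 * y ^ 2 ≤ K * s ^ 2 / 2 * h₀ ^ 2 :=
    mul_le_mul_of_nonneg_left hy2 (by positivity)
  have s1 : (a ^ 2 + y ^ 2) * (F * (dRn + u * r)) + (a + y) * (G * (u * r)) ≤
      2 * (u * F) + K * (F₀ * (3 + s) + s ^ 2 / 2) * (a ^ 2 + h₀ ^ 2) := by
    have e1 : (a + y) * (G * (u * r)) = a * (G * (u * r)) + y * (G * (u * r)) := by ring
    rw [e1]
    nlinarith
  have s2 := mul_le_mul_of_nonneg_left s1 h0
  nlinarith

theorem real_a2 {δ r K B q t S e E tbv : ℝ} (h0 : 0 ≤ δ) (h1 : δ ≤ 1) (hr0 : 0 ≤ r) (hr1 : r ≤ 1)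
    (hK : 0 ≤ K) (hB : 0 ≤ B) (hq : 0 < q) (ht : 0 < t) (ht4 : t ≤ 4) (hS : S = t ^ 2)
    (he : 0 < e) (hE : 0 ≤ E) (htb : tbv ≤ S * (e * E)) :
    (K * (3 / 2 * δ * (1 + B) + r * q)) * tbv ≤
      K * (3 / 2 * (1 + B) + 2) * (S + q ^ 2) * (e * E) := by
  have hS0 : 0 ≤ S := by rw [hS]; positivity
  have c2 : r * q * S ≤ 2 * (S + q ^ 2) := by
    have c3 : r * q * S ≤ 1 * q * S := by gcongr
    have c4 : q * S ≤ 4 * (q * t) := by
      rw [hS]
      have := mul_le_mul_of_nonneg_left ht4 (mul_nonneg hq.le ht.le)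
      linarith
    have c5 : 4 * (q * t) ≤ 2 * (S + q ^ 2) := by
      rw [hS]
      have := sq_nonneg (q - t)
      linarith
    linarith
  have c6 : 3 / 2 * δ * (1 + B) * S ≤ 3 / 2 * (1 + B) * (S + q ^ 2) := by
    have c7 : δ * S ≤ S + q ^ 2 := by
      have : δ * S ≤ 1 * S := mul_le_mul_of_nonneg_right h1 hS0
      have := sq_nonneg q
      linarith
    have c8 := mul_le_mul_of_nonneg_left c7 (by positivity : (0:ℝ) ≤ 3 / 2 * (1 + B))
    linarith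
  have c1 : (3 / 2 * δ * (1 + B) + r * q) * S ≤ (3 / 2 * (1 + B) + 2) * (S + q ^ 2) := by
    linarith
  calc (K * (3 / 2 * δ * (1 + B) + r * q)) * tbv ≤
        (K * (3 / 2 * δ * (1 + B) + r * q)) * (S * (e * E)) :=
        mul_le_mul_of_nonneg_left htb (by positivity)
    _ = K * (e * E) * ((3 / 2 * δ * (1 + B) + r * q) * S) := by ring
    _ ≤ K * (e * E) * ((3 / 2 * (1 + B) + 2) * (S + q ^ 2)) :=
        mul_le_mul_of_nonneg_left c1 (by positivity)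
    _ = _ := by ring

theorem real_a4 {δ K q t S e E M h₀ tb' mbv : ℝ} (h0 : 0 ≤ δ) (h1 : δ ≤ 1)
    (hK : 0 ≤ K) (ht4 : t ≤ 4) (hS : S = t ^ 2)
    (he : 0 < e) (hE : 0 ≤ E) (htb0 : 0 ≤ tb') (htb : tb' ≤ e * E)
    (hmb0 : 0 ≤ mbv) (hmb : mbv ≤ M) :
    2 * (δ * (K * (q ^ 2 * (3 + t) + t ^ 2 / 2)) * (tb' + h₀ ^ 2 * mbv)) ≤
      14 * K * (S + q ^ 2) * (e * E) + δ * K * ((14 * q ^ 2 + S) * h₀ ^ 2) * M := by
  have hS0 : 0 ≤ S := by rw [hS]; positivity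
  have hq0 := sq_nonneg q
  have c1 : q ^ 2 * (3 + t) + t ^ 2 / 2 ≤ 7 * q ^ 2 + S / 2 := by
    rw [hS]
    have := mul_le_mul_of_nonneg_left ht4 hq0
    linarith
  have c2 : tb' + h₀ ^ 2 * mbv ≤ e * E + h₀ ^ 2 * M :=
    add_le_add htb (mul_le_mul_of_nonneg_left hmb (sq_nonneg _))
  have c3 : 0 ≤ tb' + h₀ ^ 2 * mbv := by positivity
  have c4 : (q ^ 2 * (3 + t) + t ^ 2 / 2) * (tb' + h₀ ^ 2 * mbv) ≤
      (7 * q ^ 2 + S / 2) * (e * E + h₀ ^ 2 * M) :=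
    mul_le_mul c1 c2 c3 (by positivity)
  have c5 := mul_le_mul_of_nonneg_left c4 (by positivity : 0 ≤ 2 * (δ * K))
  have c6 : δ * (K * ((14 * q ^ 2 + S) * (e * E))) ≤ K * ((14 * q ^ 2 + S) * (e * E)) :=
    mul_le_of_le_one_left (by positivity) h1
  have c7 : K * ((14 * q ^ 2 + S) * (e * E)) ≤ 14 * K * (S + q ^ 2) * (e * E) := by
    have c8 : 14 * q ^ 2 + S ≤ 14 * (S + q ^ 2) := by linarith
    have c9 := mul_le_mul_of_nonneg_left c8 (by positivity : 0 ≤ K * (e * E))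
    linarith
  linarith

theorem real_a5 {δ K B q S M h₀ : ℝ} (h0 : 0 ≤ δ) (hK : 0 ≤ K) (hB : 0 ≤ B) (hS : 0 ≤ S)
    (hM : 0 ≤ M) :
    K * δ * (((3 + B) / 2 * h₀ ^ 2 + q ^ 2) * S) * M +
      δ * K * ((14 * q ^ 2 + S) * h₀ ^ 2) * M ≤
      K * (14 + B) * δ * ((h₀ ^ 2 + q ^ 2) * S + h₀ ^ 2 * q ^ 2) * M := by
  have b1 : 0 ≤ h₀ ^ 2 * S := by positivity
  have b2 : 0 ≤ q ^ 2 * S := by positivity
  have b3 : 0 ≤ h₀ ^ 2 * q ^ 2 := by positivity
  have b4 := mul_nonneg hB b1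
  have b5 := mul_nonneg hB b2
  have b6 := mul_nonneg hB b3
  have c1 : ((3 + B) / 2 * h₀ ^ 2 + q ^ 2) * S + (14 * q ^ 2 + S) * h₀ ^ 2 ≤
      (14 + B) * ((h₀ ^ 2 + q ^ 2) * S + h₀ ^ 2 * q ^ 2) := by
    linarith
  have c2 := mul_le_mul_of_nonneg_left c1 (by positivity : 0 ≤ K * δ * M)
  linarith

theorem real_wflow {δ r K Kg B q t S e E M h₀ tbv tb' mbv I TS eFv er3 f2 f3 : ℝ}
    (h0 : 0 ≤ δ) (h1 : δ ≤ 1) (hr0 : 0 ≤ r) (hr1 : r ≤ 1) (hK : 0 ≤ K) (hKg : 0 ≤ Kg)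
    (hB : 0 ≤ B) (hq : 0 < q) (ht : 0 < t) (ht4 : t ≤ 4) (hS : S = t ^ 2) (he : 0 < e)
    (hE : 0 ≤ E) (hM : 0 ≤ M) (_ : 0 ≤ tbv) (htb : tbv ≤ S * (e * E)) (htb'0 : 0 ≤ tb')
    (htb' : tb' ≤ e * E) (hmb0 : 0 ≤ mbv) (hmb : mbv ≤ M) (_ : 0 ≤ TS) (hTS : TS ≤ E)
    (e1 : eFv ≤ S * e * (B * Kg * TS)) (e2 : |er3| ≤ 12 * K * q ^ 2 * e * TS)
    (r2 : S * e * |f2| ≤ δ * I + (K * (3 / 2 * δ * (1 + B) + r * q)) * tbv +
      K * δ * ((3 + B) / 2 * h₀ ^ 2 + q ^ 2) * (t ^ 2 * mbv))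
    (r3 : e * |f3| ≤ δ / 2 * I + δ * (K * (q ^ 2 * (3 + t) + t ^ 2 / 2)) *
      (tb' + h₀ ^ 2 * mbv)) :
    (2 * eFv + er3 + (4 * e * f3 - 2 * (S * e * f2))) / 2 ≤
      (Kg * B + K * (22 + 3 / 2 * (1 + B))) * (S + q ^ 2) * e * E + 4 * δ * (I / 2) +
        K * (14 + B) * δ * ((h₀ ^ 2 + q ^ 2) * S + h₀ ^ 2 * q ^ 2) * M := by
  have hS0 : 0 ≤ S := by rw [hS]; positivity
  have a2 := real_a2 h0 h1 hr0 hr1 hK hB hq ht ht4 hS he hE htb
  have a4 := real_a4 (q := q) (h₀ := h₀) h0 h1 hK ht4 hS he hE htb'0 htb' hmb0 hmb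
  have a5 := real_a5 (q := q) (h₀ := h₀) h0 hK hB hS0 hM
  have a3 : K * δ * ((3 + B) / 2 * h₀ ^ 2 + q ^ 2) * (t ^ 2 * mbv) ≤
      K * δ * (((3 + B) / 2 * h₀ ^ 2 + q ^ 2) * S) * M := by
    have : t ^ 2 * mbv ≤ S * M := by
      rw [hS]; exact mul_le_mul_of_nonneg_left hmb (by positivity)
    calc _ ≤ K * δ * ((3 + B) / 2 * h₀ ^ 2 + q ^ 2) * (S * M) :=
          mul_le_mul_of_nonneg_left this (by positivity)
      _ = _ := by ring
  have b1 : S * e * (B * Kg * TS) ≤ Kg * B * (S + q ^ 2) * (e * E) := by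
    have c1 : S * e * (B * Kg * TS) ≤ S * e * (B * Kg * E) := by gcongr
    have c2 : 0 ≤ Kg * B * q ^ 2 * (e * E) := by positivity
    linarith
  have b2 : 12 * K * q ^ 2 * e * TS ≤ 12 * K * (S + q ^ 2) * (e * E) := by
    have c1 : 12 * K * q ^ 2 * e * TS ≤ 12 * K * q ^ 2 * e * E := by gcongr
    have c2 : 0 ≤ 12 * K * S * (e * E) := by positivity
    linarith
  have b4 := (abs_le.1 (e2.trans b2)).2
  have b5 : e * f3 ≤ e * |f3| := mul_le_mul_of_nonneg_left (le_abs_self _) he.le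
  have b6 : -(S * e * f2) ≤ S * e * |f2| := by
    have := mul_le_mul_of_nonneg_left (neg_le_abs f2) (by positivity : 0 ≤ S * e)
    linarith
  have b7 := e1.trans b1
  have b8 := r2.trans (add_le_add (add_le_add le_rfl a2) a3)
  have b9 : 2 * (e * |f3|) ≤ δ * I + (14 * K * (S + q ^ 2) * (e * E) +
      δ * K * ((14 * q ^ 2 + S) * h₀ ^ 2) * M) := by
    have := mul_le_mul_of_nonneg_left r3 (by norm_num : (0:ℝ) ≤ 2)
    linarith
  have b10 : (2 * eFv + er3 + (4 * e * f3 - 2 * (S * e * f2))) / 2 =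
      eFv + er3 / 2 + 2 * (e * f3) + -(S * e * f2) := by ring
  rw [b10]
  have b11 : (Kg * B + K * (22 + 3 / 2 * (1 + B))) * (S + q ^ 2) * e * E =
      Kg * B * (S + q ^ 2) * (e * E) + 12 * K * (S + q ^ 2) * (e * E) / 2 +
      14 * K * (S + q ^ 2) * (e * E) +
      K * (3 / 2 * (1 + B) + 2) * (S + q ^ 2) * (e * E) := by ring
  rw [b11]
  linarith

namespace CylAS

/-- integral of a bound `a F u + 1_{ball} (b tl + c)` -/
theorem int_bound (h : CylAS W π κ x₀ R h₀ δ) (hg : Prof g g1 g2) (hF : Well F dF H)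
    (x : Euc m) (l a b c : ℝ) :
    Integrable (fun p : Euc k × L k => a * (-g1 (Real.exp (-2 * l) * ‖π p.1 - x‖ ^ 2) * F (κ p.1)) +
      (ovr π x (Real.exp l)).indicator (fun p => b * tl π p.2 + c) p) W ∧
    ∫ p, (a * (-g1 (Real.exp (-2 * l) * ‖π p.1 - x‖ ^ 2) * F (κ p.1)) +
      (ovr π x (Real.exp l)).indicator (fun p => b * tl π p.2 + c) p) ∂W =
      a * (Real.exp (m * l) * IF W π κ x F g1 l / 4) + b * TB W π x (Real.exp l) +
        c * MB W π x (Real.exp l) := by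
  have : IsFiniteMeasure W := ⟨h.fin⟩
  have cn : Continuous fun p : Euc k × L k => ‖π p.1 - x‖ :=
    ((π.continuous.comp continuous_fst).sub continuous_const).norm
  have cu : Continuous fun p : Euc k × L k =>
      -g1 (Real.exp (-2 * l) * ‖π p.1 - x‖ ^ 2) :=
    (hg.k1.continuous.comp (continuous_const.mul (cn.pow 2))).neg
  have cF : Continuous fun p : Euc k × L k => F (κ p.1) :=
    hF.contF.comp (κ.continuous.comp continuous_fst)
  have i1 : Integrable (fun p : Euc k × L k =>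
      a * (-g1 (Real.exp (-2 * l) * ‖π p.1 - x‖ ^ 2) * F (κ p.1))) W :=
    h.integrable_continuous (continuous_const.mul (cu.mul cF))
  have iT : Integrable (fun p : Euc k × L k => b * tl π p.2) W :=
    (h.integrable_continuous (continuous_tl π)).const_mul _
  have i2 : Integrable ((ovr π x (Real.exp l)).indicator
      (fun p : Euc k × L k => b * tl π p.2 + c)) W :=
    (iT.add (integrable_const _)).indicator (measurableSet_ovr π x _)
  refine ⟨i1.add i2, ?_⟩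
  rw [integral_add i1 i2, integral_indicator (measurableSet_ovr π x _),
    integral_add iT.restrict (integrable_const _), integral_const_mul, integral_const_mul,
    integral_const]
  simp only [Measure.real, Measure.restrict_apply_univ, smul_eq_mul]
  have e1 : Real.exp (m * l) * IF W π κ x F g1 l / 4 =
      ∫ p, -g1 (Real.exp (-2 * l) * ‖π p.1 - x‖ ^ 2) * F (κ p.1) ∂W := by
    unfold IF
    have e2 : ∫ p, F (κ p.1) * (-4 * g1 (Real.exp (-2 * l) * ‖π p.1 - x‖ ^ 2)) ∂W =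
        4 * ∫ p, -g1 (Real.exp (-2 * l) * ‖π p.1 - x‖ ^ 2) * F (κ p.1) ∂W := by
      rw [← integral_const_mul]
      refine integral_congr_ae (Eventually.of_forall fun p => ?_)
      simp only
      ring
    have e3 : Real.exp (m * l) * Real.exp (-m * l) = 1 := by
      rw [← Real.exp_add]
      have : (m : ℝ) * l + -m * l = 0 := by ring
      rw [this, Real.exp_zero]
    rw [e2]
    linear_combination (∫ p, -g1 (Real.exp (-2 * l) * ‖π p.1 - x‖ ^ 2) * F (κ p.1) ∂W) * e3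
  rw [e1]
  unfold MB TB
  ring

/-- `s^{2-m} |FV X2|` for wells -/
theorem x2_young (h : CylAS W π κ x₀ R h₀ δ) (h0 : 0 ≤ δ) (hg : Prof g g1 g2)
    {K : ℝ} (hK : Bd g g1 K) (hF : Well F dF H) {d₀ B₀ : ℝ}
    (hd₀ : ∀ y, ‖y‖ ≤ h₀ → ‖dF y‖ ≤ d₀) (hB₀ : ∀ y, ‖y‖ ≤ h₀ → ‖H y‖ ≤ B₀)
    {l : ℝ} (hl : ‖x - x₀‖ + Real.exp l ≤ R) :
    Real.exp ((2 - m) * l) * |FV W (X2 π κ x dF g l)| ≤
      δ * IF W π κ x F g1 l + (K * (3 / 2 * δ * (1 + B₀) + √δ * d₀)) * tb W π x l +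
        K * δ * ((3 + B₀) / 2 * h₀ ^ 2 + d₀ ^ 2) * (Real.exp l ^ 2 * mb W π x l) := by
  have hzR : ∀ v, R ≤ ‖v - x₀‖ → Real.exp l ≤ ‖v - x‖ := by
    intro v hv
    have h1 : ‖v - x₀‖ ≤ ‖v - x‖ + ‖x - x₀‖ := norm_sub_le_norm_sub_add_norm_sub v x x₀
    linarith
  have h1 := h.fv_ver h0 (f := fun v : Euc m => g (Real.exp (-2 * l) * ‖v - x‖ ^ 2))
    (df := dr g1 l x) (fun v => hasFDerivAt_rad hg.k0.der l x v) (continuous_dr hg.k0 l x) hF.hasdF
    hF.contH (fun v hv => hg.k0.zero _ (Ker.one_le_of x (hzR v hv)))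
  have hX : (fun p => (fun v : Euc m => g (Real.exp (-2 * l) * ‖v - x‖ ^ 2)) (π p) •
      ContinuousLinearMap.adjoint κ (dF (κ p))) = X2 π κ x dF g l := rfl
  rw [hX] at h1
  obtain ⟨ib, eb⟩ := h.int_bound hg hF x l (4 * δ * Real.exp (-2 * l))
    (K * (3 / 2 * δ * (1 + B₀) + √δ * d₀)) (K * δ * ((3 + B₀) / 2 * h₀ ^ 2 + d₀ ^ 2))
  have h2 : |FV W (X2 π κ x dF g l)| ≤ ∫ p, (4 * δ * Real.exp (-2 * l) *
      (-g1 (Real.exp (-2 * l) * ‖π p.1 - x‖ ^ 2) * F (κ p.1)) +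
      (ovr π x (Real.exp l)).indicator (fun p => (K * (3 / 2 * δ * (1 + B₀) + √δ * d₀)) *
        tl π p.2 + K * δ * ((3 + B₀) / 2 * h₀ ^ 2 + d₀ ^ 2)) p) ∂W := by
    refine h1.trans (integral_mono_of_nonneg ?_ ib ?_)
    · filter_upwards [h.tl_nonneg'] with p hp
      simp only [Pi.zero_apply]
      have := Real.sqrt_nonneg δ
      positivity
    · filter_upwards [h.tl_nonneg', h.hgt] with p hp hy
      have hu : 0 ≤ -g1 (Real.exp (-2 * l) * ‖π p.1 - x‖ ^ 2) := by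
        have := hg.anti _ (scaled_nonneg l x (π p.1)); linarith
      have ht0 := scaled_nonneg l x (π p.1)
      by_cases hp2 : p ∈ ovr π x (Real.exp l)
      · rw [indicator_of_mem hp2]
        have hg0 : 0 ≤ g (Real.exp (-2 * l) * ‖π p.1 - x‖ ^ 2) := Prof.nonneg hg _ ht0
        have hgK := hK.b0 _ ht0
        rw [abs_of_nonneg hg0] at hgK
        have huK := hK.b1 _ ht0
        rw [abs_of_nonpos (hg.anti _ ht0)] at huK
        have hσr : Real.exp (-2 * l) * ‖π p.1 - x‖ ^ 2 ≤ 1 := by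
          have h3 : ‖π p.1 - x‖ ^ 2 ≤ Real.exp l ^ 2 :=
            pow_le_pow_left₀ (norm_nonneg _) (le_of_lt hp2) 2
          calc Real.exp (-2 * l) * ‖π p.1 - x‖ ^ 2 ≤ Real.exp (-2 * l) * Real.exp l ^ 2 :=
                mul_le_mul_of_nonneg_left h3 (Real.exp_pos _).le
            _ = 1 := by
                rw [← Real.exp_nat_mul, ← Real.exp_add]
                have : -2 * l + ((2 : ℕ) : ℝ) * l = 0 := by push_cast; ring
                rw [this, Real.exp_zero]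
        have key := young_ver (δ := δ) (q := √δ) (a := √(tl π p.2)) (y := ‖κ p.1‖)
          (g := g (Real.exp (-2 * l) * ‖π p.1 - x‖ ^ 2))
          (u := -g1 (Real.exp (-2 * l) * ‖π p.1 - x‖ ^ 2)) (r := ‖π p.1 - x‖)
          (G := ‖dF (κ p.1)‖) (Hn := ‖H (κ p.1)‖) (σ := Real.exp (-2 * l)) (K := K)
          (F := F (κ p.1)) (d₀ := d₀) (B₀ := B₀) (h₀ := h₀) h0 (Real.sqrt_nonneg _)
          (Real.sqrt_nonneg _) (norm_nonneg _) hg0 hu (norm_nonneg _)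
          (norm_nonneg _) (Real.exp_pos _).le hσr hgK huK (hF.grad _) (hd₀ _ hy) (hB₀ _ hy) hy
        rw [Real.sq_sqrt hp] at key
        have e1 : ‖dr g1 l x (π p.1)‖ = 2 * Real.exp (-2 * l) *
            -g1 (Real.exp (-2 * l) * ‖π p.1 - x‖ ^ 2) * ‖π p.1 - x‖ := by
          unfold dr
          rw [innerSL_apply_norm, norm_smul, Real.norm_eq_abs, abs_mul,
            abs_of_nonneg (by positivity : (0:ℝ) ≤ 2 * Real.exp (-2 * l)),
            abs_of_nonpos (hg.anti _ ht0)]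
        simp only [abs_of_nonneg hg0]
        rw [e1]
        refine le_trans (le_of_eq ?_) (key.trans (le_of_eq ?_))
        · ring
        · ring
      · rw [indicator_of_notMem hp2]
        have h3 : Real.exp l ≤ ‖π p.1 - x‖ := not_lt.1 hp2
        simp only [hg.k0.zero _ (Ker.one_le_of x h3), dr_zero hg.k0 h3]
        have h4 := hF.nonneg (κ p.1)
        simp only [norm_zero, abs_zero, zero_mul, mul_zero, add_zero]
        positivity
  rw [eb, TB_eq, MB_eq] at h2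
  have e0 : Real.exp ((2 - m) * l) * Real.exp (-2 * l) * Real.exp (m * l) = 1 := by
    rw [← Real.exp_add, ← Real.exp_add]
    have : (2 - m : ℝ) * l + -2 * l + m * l = 0 := by ring
    rw [this, Real.exp_zero]
  have e1 : Real.exp ((2 - m) * l) * Real.exp ((m - 2) * l) = 1 := by
    rw [← Real.exp_add]
    have : (2 - m : ℝ) * l + (m - 2) * l = 0 := by ring
    rw [this, Real.exp_zero]
  have e2 : Real.exp ((2 - m) * l) * Real.exp (m * l) = Real.exp l ^ 2 := by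
    rw [← Real.exp_add, ← Real.exp_nat_mul]
    congr 1; push_cast; ring
  calc Real.exp ((2 - m) * l) * |FV W (X2 π κ x dF g l)| ≤ Real.exp ((2 - m) * l) * _ :=
        mul_le_mul_of_nonneg_left h2 (Real.exp_pos _).le
    _ = δ * ((Real.exp ((2 - m) * l) * Real.exp (-2 * l) * Real.exp (m * l)) *
          IF W π κ x F g1 l) + (K * (3 / 2 * δ * (1 + B₀) + √δ * d₀)) *
          ((Real.exp ((2 - m) * l) * Real.exp ((m - 2) * l)) * tb W π x l) +
        K * δ * ((3 + B₀) / 2 * h₀ ^ 2 + d₀ ^ 2) *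
          ((Real.exp ((2 - m) * l) * Real.exp (m * l)) * mb W π x l) := by ring
    _ = _ := by rw [e0, e1, e2]; ring

/-- `s^{-m} |FV X3|` for wells -/
theorem x3_young (h : CylAS W π κ x₀ R h₀ δ) (h0 : 0 ≤ δ) (hg : Prof g g1 g2)
    {K : ℝ} (hK : Bd g1 g2 K) (hF : Well F dF H) {F₀ : ℝ}
    (hF₀ : ∀ y, ‖y‖ ≤ h₀ → F y ≤ F₀) {l : ℝ} (hl : ‖x - x₀‖ + Real.exp l ≤ R) :
    Real.exp (-m * l) * |FV W (X3 π κ x F g1 l)| ≤
      δ / 2 * IF W π κ x F g1 l + δ * (K * (F₀ * (3 + Real.exp l) + Real.exp l ^ 2 / 2)) *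
        (Real.exp (-2 * l) * tb W π x l + h₀ ^ 2 * mb W π x l) := by
  have hzR : ∀ v, R ≤ ‖v - x₀‖ → Real.exp l ≤ ‖v - x‖ := by
    intro v hv
    have h1 : ‖v - x₀‖ ≤ ‖v - x‖ + ‖x - x₀‖ := norm_sub_le_norm_sub_add_norm_sub v x x₀
    linarith
  have h1 := h.fv_hor h0 hF.hasF ((innerSL ℝ).continuous.comp hF.contdF)
    (hasFDerivAt_R hg.k1 l x) (continuous_dR hg.k1 l x)
    (fun v hv => by rw [hg.k1.zero _ (Ker.one_le_of x (hzR v hv)), zero_smul])
  have hX : (fun p => F (κ p) • ContinuousLinearMap.adjoint π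
      ((fun v : Euc m => g1 (Real.exp (-2 * l) * ‖v - x‖ ^ 2) • (v - x)) (π p))) =
      X3 π κ x F g1 l := rfl
  rw [hX] at h1
  obtain ⟨ib, eb⟩ := h.int_bound hg hF x l (2 * δ)
    (δ * (K * (F₀ * (3 + Real.exp l) + Real.exp l ^ 2 / 2)))
    (δ * (K * (F₀ * (3 + Real.exp l) + Real.exp l ^ 2 / 2)) * h₀ ^ 2)
  have h2 : |FV W (X3 π κ x F g1 l)| ≤ ∫ p, (2 * δ *
      (-g1 (Real.exp (-2 * l) * ‖π p.1 - x‖ ^ 2) * F (κ p.1)) +
      (ovr π x (Real.exp l)).indicator (fun p =>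
        δ * (K * (F₀ * (3 + Real.exp l) + Real.exp l ^ 2 / 2)) * tl π p.2 +
        δ * (K * (F₀ * (3 + Real.exp l) + Real.exp l ^ 2 / 2)) * h₀ ^ 2) p) ∂W := by
    refine h1.trans (integral_mono_of_nonneg ?_ ib ?_)
    · filter_upwards [h.tl_nonneg'] with p hp
      simp only [Pi.zero_apply]
      positivity
    · filter_upwards [h.tl_nonneg', h.hgt] with p hp hy
      have hu : 0 ≤ -g1 (Real.exp (-2 * l) * ‖π p.1 - x‖ ^ 2) := by
        have := hg.anti _ (scaled_nonneg l x (π p.1)); linarith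
      have ht0 := scaled_nonneg l x (π p.1)
      by_cases hp2 : p ∈ ovr π x (Real.exp l)
      · rw [indicator_of_mem hp2]
        have huK := hK.b0 _ ht0
        rw [abs_of_nonpos (hg.anti _ ht0)] at huK
        have e1 : ‖g1 (Real.exp (-2 * l) * ‖π p.1 - x‖ ^ 2) • (π p.1 - x)‖ =
            -g1 (Real.exp (-2 * l) * ‖π p.1 - x‖ ^ 2) * ‖π p.1 - x‖ := by
          rw [norm_smul, Real.norm_eq_abs, abs_of_nonpos (hg.anti _ ht0)]
        have key := young_hor (δ := δ) (a := √(tl π p.2)) (y := ‖κ p.1‖)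
          (u := -g1 (Real.exp (-2 * l) * ‖π p.1 - x‖ ^ 2)) (r := ‖π p.1 - x‖)
          (G := ‖(innerSL ℝ) (dF (κ p.1))‖) (dRn := ‖dR g1 g2 l x (π p.1)‖)
          (s := Real.exp l) (K := K)
          (F := F (κ p.1)) (F₀ := F₀) (h₀ := h₀) h0
          (norm_nonneg _) hu (norm_nonneg _)
          (norm_nonneg _) (le_of_lt hp2) (norm_dR_le hK l x (π p.1)) huK (hF.nonneg _)
          (by rw [innerSL_apply_norm]; exact hF.grad _) (hF₀ _ hy) hy
        rw [Real.sq_sqrt hp] at key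
        rw [e1, abs_of_nonneg (hF.nonneg _)]
        refine key.trans (le_of_eq ?_)
        ring
      · rw [indicator_of_notMem hp2]
        have h3 : Real.exp l ≤ ‖π p.1 - x‖ := not_lt.1 hp2
        rw [hg.k1.zero _ (Ker.one_le_of x h3), dR_zero hg.k1 h3]
        simp
  rw [eb, TB_eq, MB_eq] at h2
  have e0 : Real.exp (-m * l) * Real.exp (m * l) = 1 := by
    rw [← Real.exp_add]
    have : (-m : ℝ) * l + m * l = 0 := by ring
    rw [this, Real.exp_zero]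
  have e1 : Real.exp (-m * l) * Real.exp ((m - 2) * l) = Real.exp (-2 * l) := by
    rw [← Real.exp_add]; congr 1; ring
  calc Real.exp (-m * l) * |FV W (X3 π κ x F g1 l)| ≤ Real.exp (-m * l) * _ :=
        mul_le_mul_of_nonneg_left h2 (Real.exp_pos _).le
    _ = δ / 2 * ((Real.exp (-m * l) * Real.exp (m * l)) * IF W π κ x F g1 l) +
        δ * (K * (F₀ * (3 + Real.exp l) + Real.exp l ^ 2 / 2)) *
          ((Real.exp (-m * l) * Real.exp ((m - 2) * l)) * tb W π x l +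
          h₀ ^ 2 * ((Real.exp (-m * l) * Real.exp (m * l)) * mb W π x l)) := by ring
    _ = _ := by rw [e0, e1]; ring

/-- the error of the flow of the wells -/
def erwF (W : Measure (Euc k × L k)) (π : Euc k →L[ℝ] Euc m) (κ : Euc k →L[ℝ] Euc n)
    (C δ h₀ : ℝ) (x : Euc m) (l q : ℝ) : ℝ :=
  C * δ * ((h₀ ^ 2 + q ^ 2) * Real.exp (2 * l) + h₀ ^ 2 * q ^ 2) *
    (Real.exp (-(m * l)) *
      (Wi_870.muOf W π κ (Well_761.cyl x (Real.exp l) univ)).toReal)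

theorem MB_le_mu (h : CylAS W π κ x₀ R h₀ δ) (x : Euc m) (l : ℝ) :
    MB W π x (Real.exp l) ≤
      (Wi_870.muOf W π κ (Well_761.cyl x (Real.exp l) univ)).toReal := by
  have hcm : MeasurableSet (Well_761.cyl (W := Euc n) x (Real.exp l) univ) :=
    Metric.isClosed_closedBall.measurableSet.prod MeasurableSet.univ
  unfold MB Wi_870.muOf
  rw [Measure.map_apply (Wi_870.measurable_bh π κ) hcm]
  refine ENNReal.toReal_mono (lt_of_le_of_lt (measure_mono (subset_univ _)) h.fin).ne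
    (measure_mono ?_)
  intro p hp
  refine ⟨?_, mem_univ _⟩
  rw [Metric.mem_closedBall, dist_eq_norm]
  exact le_of_lt hp

theorem TB_eq_tS (W : Measure (Euc k × L k)) (π : Euc k →L[ℝ] Euc m) (κ : Euc k →L[ℝ] Euc n)
    (x : Euc m) (l : ℝ) : TB W π x (Real.exp l) = Wi_870.tS W π κ x l univ := by
  unfold TB Wi_870.tS
  congr 2
  ext p
  simp only [ovr, mem_ofPred_eq, mem_univ, and_true]
  rw [show (2:ℝ) * l = ((2:ℕ):ℝ) * l by push_cast; rfl, Real.exp_nat_mul]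
  exact (sq_lt_sq₀ (norm_nonneg _) (Real.exp_pos _).le).symm

/-- **`WFlow` for almost stationary varifolds in a cylinder** -/
theorem wflow (h : CylAS W π κ x₀ R h₀ δ) (h0 : 0 ≤ δ) (h1 : δ ≤ 1) {ρ₀ : ℝ} (hρ : ρ₀ ≤ R)
    (hρ4 : ρ₀ ≤ 4) (hg : Prof g g1 g2) {Kg K : ℝ} (hKg : ∀ t, 0 ≤ t → g t ≤ Kg)
    (hK : Bd g g1 K) (hK' : Bd g1 g2 K) :
    Well_761.WFlow m (Wi_870.kap g1) (Wi_870.muOf W π κ) (Wi_870.enOf W π κ)
      (erwF W π κ (K * (15 + Well_761.etaC / 8)) δ h₀)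
      (Kg * (1 + Well_761.etaC / 8) + K * (22 + 3 / 2 * (2 + Well_761.etaC / 8)))
      (4 * δ) x₀ ρ₀ where
  K0 := by
    have h2 := (Prof.nonneg hg 0 le_rfl).trans (hKg 0 le_rfl)
    have h3 := hK.nonneg
    have h4 := Well_761.etaC_nonneg
    positivity
  θ0 := by linarith
  flow := by
    intro x l hx C q hq hC
    have hT := Well_761.test_wells hq hC
    have hF := Wi_870.test_c2w hT
    have hW : Well (Well_761.wells C q) (Well_761.wellsG C q) (Well_761.wellsH C q) :=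
      ⟨hF.hasF, hF.hasdF, hF.contH, Well_761.wells_nonneg hq hC, Well_761.wellsG_sq_le hq hC⟩
    have hl : ‖x - x₀‖ + Real.exp l ≤ R := by
      rw [← dist_eq_norm]; exact hx.trans hρ
    have hs4 : Real.exp l ≤ 4 := by
      have := dist_nonneg (x := x) (y := x₀); linarith
    have hs0 := Real.exp_pos l
    have hfr := h.fr x (l + 1)
    have hh' := h.hgt' x (l + 1)
    have hll : l < l + 1 := by linarith
    have hd := (Wi_870.hasDerivAt_IF hfr hh' hF hg hll).div_const 2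
    have hfun : (fun l => Well_761.nu m (Wi_870.kap g1) (Wi_870.muOf W π κ) x l
        (Well_761.wells C q)) = fun l => IF W π κ x (Well_761.wells C q) g1 l / 2 := by
      funext l'
      rw [Wi_870.nu_eq hg W π κ x l' hT.meas, Wi_870.IF_eq_nuG]
    refine ⟨_, by rw [hfun]; exact hd, ?_⟩
    have hnu : Well_761.nu m (Wi_870.kap g1) (Wi_870.muOf W π κ) x l (Well_761.wells C q) =
        IF W π κ x (Well_761.wells C q) g1 l / 2 := congrFun hfun l
    rw [hnu]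
    set B : ℝ := 1 + Well_761.etaC / 8 with hB
    have hB0 : 0 ≤ B := by have := Well_761.etaC_nonneg; rw [hB]; positivity
    set I := IF W π κ x (Well_761.wells C q) g1 l with hI
    set E := (Wi_870.enOf W π κ (Well_761.cyl x (Real.exp l) univ)).toReal with hE
    set M := Real.exp (-(m * l)) *
      (Wi_870.muOf W π κ (Well_761.cyl x (Real.exp l) univ)).toReal with hM
    set e := Real.exp (-(m * l)) with he
    have hexp : Real.exp (-m * l) = e := by rw [he]; congr 1; ring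
    have hexp2 : Real.exp ((2 - m) * l) = Real.exp (2 * l) * e := by
      rw [he, ← Real.exp_add]; congr 1; ring
    have hs2 : Real.exp (2 * l) = Real.exp l ^ 2 := by
      rw [← Real.exp_nat_mul]; push_cast; rfl
    have he0 : 0 < e := Real.exp_pos _
    have hE0 : 0 ≤ E := ENNReal.toReal_nonneg
    have hM0 : 0 ≤ M := mul_nonneg he0.le ENNReal.toReal_nonneg
    have hKg0 : 0 ≤ Kg := (Prof.nonneg hg 0 le_rfl).trans (hKg 0 le_rfl)
    have hK0 := hK.nonneg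
    -- the main terms
    have e1 := Wi_870.eF_le_S hfr hh' hF hg (fun t ht => Prof.nonneg hg t ht) hKg hT.bA
      MeasurableSet.univ (fun y hy => absurd (mem_univ y) hy) hll.le
    have e2 := Wi_870.abs_err3_le_S hfr hg hK'.b0 hK'.b2 hT.bF MeasurableSet.univ
      (fun y hy => absurd (mem_univ y) hy) hll.le
    have e3 : Wi_870.tS W π κ x l univ ≤ E := Wi_870.tS_le_en hfr hll MeasurableSet.univ
    have hTB : TB W π x (Real.exp l) ≤ E := by rw [TB_eq_tS W π κ]; exact e3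
    have hTB0 := h.TB_nonneg x (Real.exp l)
    have htb : tb W π x l ≤ Real.exp (2 * l) * (e * E) := by
      unfold tb
      rw [hexp2, mul_assoc]
      gcongr
    have htb2 : Real.exp (-2 * l) * tb W π x l ≤ e * E := by
      unfold tb
      have : Real.exp (-2 * l) * (Real.exp ((2 - m) * l) * TB W π x (Real.exp l)) =
          e * TB W π x (Real.exp l) := by
        rw [← mul_assoc, ← Real.exp_add, he]
        congr 2; ring
      rw [this]
      gcongr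
    have hmb : mb W π x l ≤ M := by
      unfold mb
      rw [hexp, hM]
      exact mul_le_mul_of_nonneg_left (h.MB_le_mu x l) he0.le
    have hmb0 := mb_nonneg (W := W) (π := π) x l
    -- the errors
    have r2 := h.x2_young h0 hg hK hW (d₀ := q) (B₀ := B) (fun y _ => hT.bG y)
      (fun y _ => hT.bA y) hl
    have r3 := h.x3_young h0 hg hK' hW (F₀ := q ^ 2)
      (fun y _ => (le_abs_self _).trans (hT.bF y)) hl
    rw [hexp] at r3 e2
    rw [hexp2] at r2 e1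
    rw [← hI] at r2 r3
    have hqd : √δ ≤ 1 := Real.sqrt_le_one.2 h1
    have hqd0 := Real.sqrt_nonneg δ
    have hTS : 0 ≤ Wi_870.tS W π κ x l univ := by rw [← TB_eq_tS W π κ]; exact hTB0
    have a6 : erwF W π κ (K * (15 + Well_761.etaC / 8)) δ h₀ x l q =
        K * (14 + B) * δ * ((h₀ ^ 2 + q ^ 2) * Real.exp (2 * l) + h₀ ^ 2 * q ^ 2) * M := by
      unfold erwF
      rw [hM, hB]
      ring
    rw [a6]
    have htb0 := h.tb_nonneg x l
    have hBB : 2 + Well_761.etaC / 8 = 1 + B := by rw [hB]; ring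
    rw [hexp, hexp2, hBB]
    exact real_wflow h0 h1 hqd0 hqd hK0 hKg0 hB0 hq hs0 hs4 hs2 he0 hE0 hM0 htb0 htb
      (mul_nonneg (Real.exp_pos _).le htb0) htb2 hmb0 hmb hTS e3 e1 e2 r2 r3

end CylAS

end Crest.Agent.R234.Asl_214
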