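import Crest.Agent.R234.Rn1_870
import Crest.Agent.R234.Sml4_870
import Crest.Agent.R234.Wi5_870
import Crest.Agent.R234.We11_822
import Crest.Agent.R234.Wfl1_214
import Crest.Agent.R234.Core4_809
import Crest.Agent.R234.Avg6_387
import Crest.Agent.R234.We12_822
import Crest.Agent.R234.Ins1_387
import Crest.Agent.R234.Crs6_173

/-!
# Row 234, N9-AV, part 2 (helper870): the environment of a contact situation

`Env W π κ h₀ δ c0 Cc`: `CylAS`, lower density, coarse bounds of mass and energy.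
Instances of 761's `Flow`, `WFlow`, `Ker`, `Geo`, `Centre`, error bounds, mass at good centres, mass at
the contact centre, all for the profile `(1 - t)₊⁴`.
-/

set_option autoImplicit false

open MeasureTheory Set Function Filter Topology Metric
open Crest.GeometryTopology.Submanifold
open Crest.Agent.R234.Vf_884 Crest.Agent.R234.Ar_870 Crest.Agent.R234.Cy_870
open Crest.Agent.R234.Wi_870 Crest.Agent.R234.Asl_214
open Crest.Agent.R234.Avg_387 (CW av dd cw_dd Md integral_dd Md_pos eea RRa)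
open Crest.Agent.R234.Core_809 (w0 w2 prof0 Cls part Lam)
open Crest.Agent.R234.We_822 (BB BB_one erAS erAS_le CAS CAS_nonneg flow_as enR muR tb_le_enR mb_le_muR
  mass_as CMU CMU_nonneg)
open Crest.Agent.R234.Well_761 (etaC etaC_nonneg)
open scoped ENNReal NNReal

noncomputable section

namespace Crest.Agent.R234.Rn_870

variable {m n k : ℕ} {π : Euc k →L[ℝ] Euc m} {κ : Euc k →L[ℝ] Euc n}
  {W : Measure (Euc k × L k)} {h₀ δ c0 Cc : ℝ}

/-! ### the profile -/

theorem w0θ (t : ℝ) : w0.θ t = (max (1 - t) 0) ^ 4 := rfl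
theorem w0θ' (t : ℝ) : w0.θ' t = -(4 * (max (1 - t) 0) ^ 3) := rfl

theorem mx_le {t : ℝ} (ht : 0 ≤ t) : max (1 - t) 0 ≤ 1 := max_le (by linarith) zero_le_one

theorem mx_nonneg (t : ℝ) : 0 ≤ max (1 - t) 0 := le_max_right _ _

theorem w0_nonneg (t : ℝ) : 0 ≤ w0.θ t := pow_nonneg (mx_nonneg t) 4

theorem w0_le {t : ℝ} (ht : 0 ≤ t) : w0.θ t ≤ 1 := pow_le_one₀ (mx_nonneg t) (mx_le ht)

theorem abs_w0' {t : ℝ} (ht : 0 ≤ t) : |w0.θ' t| ≤ 4 := by
  rw [w0θ', abs_neg, abs_of_nonneg (by have := mx_nonneg t; positivity)]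
  have := pow_le_one₀ (n := 3) (mx_nonneg t) (mx_le ht)
  linarith

theorem abs_w2 {t : ℝ} (ht : 0 ≤ t) : |w2 t| ≤ 12 := by
  unfold w2
  rw [abs_of_nonneg (by have := mx_nonneg t; positivity)]
  have := pow_le_one₀ (n := 2) (mx_nonneg t) (mx_le ht)
  linarith

theorem t_mx {t : ℝ} (ht : 0 ≤ t) (j : ℕ) : t * (max (1 - t) 0) ^ (j + 1) ≤ 1 := by
  rcases le_total t 1 with h | h
  · have h1 := pow_le_one₀ (n := j + 1) (mx_nonneg t) (mx_le ht)
    have h2 := pow_nonneg (mx_nonneg t) (j + 1)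
    calc t * (max (1 - t) 0) ^ (j + 1) ≤ 1 * 1 := mul_le_mul h h1 h2 zero_le_one
      _ = 1 := one_mul 1
  · rw [max_eq_right (by linarith), zero_pow (by lia), mul_zero]
    exact zero_le_one

theorem bdA : Bd w0.θ w0.θ' 12 where
  b0 t ht := by rw [abs_of_nonneg (w0_nonneg t)]; exact (w0_le ht).trans (by norm_num)
  b1 t ht := (abs_w0' ht).trans (by norm_num)
  b2 t ht := by
    have h1 := t_mx ht 2
    have h2 : t * w0.θ' t = -(4 * (t * (max (1 - t) 0) ^ (2 + 1))) := by rw [w0θ']; ring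
    rw [h2, abs_neg, abs_of_nonneg (by have := mx_nonneg t; positivity)]
    linarith

theorem bdB : Bd w0.θ' w2 12 where
  b0 t ht := (abs_w0' ht).trans (by norm_num)
  b1 t ht := abs_w2 ht
  b2 t ht := by
    have h1 := t_mx ht 1
    have h2 : t * w2 t = 12 * (t * (max (1 - t) 0) ^ (1 + 1)) := by unfold w2; ring
    rw [h2, abs_of_nonneg (by have := mx_nonneg t; positivity)]
    linarith

theorem w0_low {t : ℝ} (ht : t ≤ 1 / 4) : ((3:ℝ) / 4) ^ 4 ≤ w0.θ t :=
  pow_le_pow_left₀ (by norm_num) (le_max_of_le_left (by linarith)) 4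

theorem w0'_low {t : ℝ} (ht : t ≤ 1 / 4) : w0.θ' t ≤ -(27 / 16) := by
  rw [w0θ']
  have h1 : ((3:ℝ) / 4) ^ 3 ≤ (max (1 - t) 0) ^ 3 :=
    pow_le_pow_left₀ (by norm_num) (le_max_of_le_left (by linarith)) 3
  norm_num at h1 ⊢
  linarith

theorem ker0 : Well_761.Ker (kap w0.θ') (2 * 4) (2 * (27 / 16)) :=
  ker_kap prof0 (fun _ ht => abs_w0' ht) (by norm_num) (fun _ _ ht => w0'_low ht)

theorem w0_low1 : ∀ t, 0 ≤ t → t ≤ Real.exp (-2 * 1) → ((3:ℝ) / 4) ^ 4 ≤ w0.θ t :=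
  fun _ _ ht => w0_low (ht.trans Sml_870.exp_neg_two_le)

/-! ### the environment -/

/-- what is used of the varifold -/
structure Env (W : Measure (Euc k × L k)) (π : Euc k →L[ℝ] Euc m) (κ : Euc k →L[ℝ] Euc n)
    (h₀ δ c0 Cc : ℝ) : Prop where
  as : CylAS W π κ 0 4 h₀ δ
  δ0 : 0 ≤ δ
  δ1 : δ ≤ 1 / 16
  hh : 0 ≤ h₀
  hh1 : h₀ ≤ 1 / 16
  cpos : 0 < c0
  Cnn : 0 ≤ Cc
  low : ∀ᵐ z ∂W, ∀ r, 0 < r → ‖π z.1 - 0‖ + r ≤ 4 →
    ENNReal.ofReal (c0 * r ^ m) ≤ W (closedBall z.1 r ×ˢ univ)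
  mass : ∀ y : Euc m, ‖y‖ ≤ 3 → ∀ r, 0 < r → h₀ ≤ r → r ≤ 1 / 4 → MB W π y r ≤ Cc * r ^ m
  ener : ∀ y : Euc m, ‖y‖ ≤ 3 → ∀ r, 0 < r → h₀ ≤ r → r ≤ 1 / 4 →
    TB W π y r ≤ Cc * (h₀ / r) ^ 2 * r ^ m

/-- the common constant of the flows -/
def KF : ℝ := (12 * BB + 6 * 12) + (1 * (1 + etaC / 8) + 12 * (22 + 3 / 2 * (2 + etaC / 8)))

theorem KF_pos : 0 < KF := by
  have := BB_one
  have := etaC_nonneg
  unfold KF; positivity

theorem flow_mono {H V : Type*} [PseudoMetricSpace H] [MeasurableSpace H]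
    [NormedAddCommGroup V] [InnerProductSpace ℝ V] [MeasurableSpace V] {m : ℕ} {κ : ℝ → ℝ}
    {mu en : Measure (H × V)} {R : H → ℝ → ℝ} {er : H → ℝ → ℝ → ℝ} {K K' : ℝ} {x₀ : H} {ρ₀ : ℝ}
    (h : Well_761.Flow m κ mu en R er K x₀ ρ₀) (hK : K ≤ K') :
    Well_761.Flow m κ mu en R er K' x₀ ρ₀ where
  K0 := h.K0.trans hK
  Rnn := h.Rnn
  flow x l hx F G A q hq hT := by
    obtain ⟨d, hd, h1, h2⟩ := h.flow x l hx F G A q hq hT
    refine ⟨d, hd, h1.trans ?_, fun S hS hF => (h2 S hS hF).trans ?_⟩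
    · have : K * q ^ 2 * Real.exp (-(m * l)) * (en (Well_761.cyl x (Real.exp l) univ)).toReal ≤
          K' * q ^ 2 * Real.exp (-(m * l)) * (en (Well_761.cyl x (Real.exp l) univ)).toReal := by
        gcongr
      linarith
    · have : K * (Real.exp (2 * l) + q ^ 2) * Real.exp (-(m * l)) *
          (en (Well_761.cyl x (Real.exp l) S)).toReal ≤ K' * (Real.exp (2 * l) + q ^ 2) *
            Real.exp (-(m * l)) * (en (Well_761.cyl x (Real.exp l) S)).toReal := by
        gcongr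
      linarith

theorem wflow_mono {H V : Type*} [PseudoMetricSpace H] [MeasurableSpace H]
    [NormedAddCommGroup V] [InnerProductSpace ℝ V] [MeasurableSpace V] {m : ℕ} {κ : ℝ → ℝ}
    {mu en : Measure (H × V)} {er : H → ℝ → ℝ → ℝ} {K K' θ₁ : ℝ} {x₀ : H} {ρ₀ : ℝ}
    (h : Well_761.WFlow m κ mu en er K θ₁ x₀ ρ₀) (hK : K ≤ K') :
    Well_761.WFlow m κ mu en er K' θ₁ x₀ ρ₀ where
  K0 := h.K0.trans hK
  θ0 := h.θ0
  flow x l hx C q hq hC := by
    obtain ⟨d, hd, h1⟩ := h.flow x l hx C q hq hC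
    refine ⟨d, hd, h1.trans ?_⟩
    have : K * (Real.exp (2 * l) + q ^ 2) * Real.exp (-(m * l)) *
          (en (Well_761.cyl x (Real.exp l) univ)).toReal ≤ K' * (Real.exp (2 * l) + q ^ 2) *
            Real.exp (-(m * l)) * (en (Well_761.cyl x (Real.exp l) univ)).toReal := by
      gcongr
    linarith

namespace Env

variable (h : Env W π κ h₀ δ c0 Cc)

include h

theorem flow : Well_761.Flow m (kap w0.θ') (muOf W π κ) (enOf W π κ)
    (fun x l => RR W π x w0.θ' l) (erAS W π 12 δ h₀) KF 0 4 :=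
  flow_mono (flow_as h.as h.δ0 h.hh le_rfl prof0 bdA bdB (fun t _ => w0_nonneg t)) (by
    have := etaC_nonneg
    unfold KF
    have : 0 ≤ 1 * (1 + etaC / 8) + 12 * (22 + 3 / 2 * (2 + etaC / 8)) := by positivity
    linarith)

theorem wflow : Well_761.WFlow m (kap w0.θ') (muOf W π κ) (enOf W π κ)
    (CylAS.erwF W π κ (12 * (15 + etaC / 8)) δ h₀) KF (4 * δ) 0 4 :=
  wflow_mono (h.as.wflow h.δ0 (by linarith [h.δ1]) le_rfl le_rfl prof0 (Kg := 1)
    (fun _ ht => w0_le ht) bdA bdB) (by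
    have := BB_one
    unfold KF
    linarith)

theorem geo : Well_761.Geo m (muOf W π κ) (TT W π κ) c0 0 4 where
  null := null_TT W π κ
  cpos := h.cpos
  lower _ _ hxy _ hr hd := lower_TT h.as.sp h.low hxy hr hd

theorem fin_en (x : Euc m) (r : ℝ) : enOf W π κ (Well_761.cyl x r univ) ≠ ⊤ :=
  We_822.enOf_cyl_ne_top (fun _ => h.as.fr x _) r

theorem fin_mu (x : Euc m) (r : ℝ) : muOf W π κ (Well_761.cyl x r univ) ≠ ⊤ :=
  We_822.muOf_cyl_ne_top (fun _ => h.as.fr x _) r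

end Env

theorem exp_mul_sq (l : ℝ) : Real.exp (2 * l) = Real.exp l ^ 2 := by
  have := Real.exp_nat_mul l 2
  exact_mod_cast this

theorem exp_cancel (a : ℝ) : Real.exp (-a) * Real.exp a = 1 := by
  rw [← Real.exp_add]; simp

/-- `erAS` grows at most quadratically in `q ≥ 1` -/
theorem erAS_quad (has : CylAS W π κ 0 4 h₀ δ) (h0 : 0 ≤ δ) (hh : 0 ≤ h₀) {K : ℝ} (hK : 0 ≤ K)
    (x : Euc m) (l : ℝ) {q : ℝ} (hq : 1 ≤ q) :
    erAS W π K δ h₀ x l q ≤ q ^ 2 * erAS W π K δ h₀ x l 1 := by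
  have ht := has.tb_nonneg x l
  have hm := mb_nonneg (W := W) (π := π) x l
  have hBB := BB_one
  have hE := Real.exp_pos l
  have hs1 := Real.sqrt_nonneg (tb W π x l)
  have hs2 := Real.sqrt_nonneg (mb W π x l)
  have hs3 := Real.sqrt_nonneg δ
  have hq1 : q ≤ q ^ 2 := by nlinarith
  have hq2 : 1 ≤ q ^ 2 := by nlinarith
  unfold erAS
  have a1 : 0 ≤ K * (4 + Real.exp l) * δ *
      (√(tb W π x l) * √(mb W π x l) + h₀ * Real.exp l * mb W π x l) := by positivity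
  have a2 : 0 ≤ K * BB * δ * h₀ * Real.exp l * (√(tb W π x l) * √(mb W π x l)) := by positivity
  have a3 : 0 ≤ K * (δ * BB) * tb W π x l := by positivity
  have a4 : 0 ≤ K * √δ * tb W π x l := by positivity
  nlinarith [mul_le_mul_of_nonneg_left hq1 a1, mul_le_mul_of_nonneg_left hq2 a2,
    mul_le_mul_of_nonneg_left hq2 a3, mul_le_mul_of_nonneg_left hq1 a4]

namespace Env

variable (h : Env W π κ h₀ δ c0 Cc)

include h

/-- **error of the flow at good centres** -/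
theorem her {x : Euc m} {l q Cμ β : ℝ} (hCμ : 0 ≤ Cμ) (hβ : 0 ≤ β) (hq : 0 < q) (hl : l ≤ 0)
    (hb : δ * h₀ * Real.exp l ≤ β * min q 1)
    (h1 : (enOf W π κ (Well_761.cyl x (Real.exp l) univ)).toReal ≤ Real.exp (m * l))
    (h2 : (enOf W π κ (Well_761.cyl x (Real.exp l) univ)).toReal * Real.exp (2 * l) ≤
      q ^ 2 * Real.exp (m * l))
    (h3 : muOf W π κ (Well_761.cyl x (Real.exp l) univ) ≤
      ENNReal.ofReal (Cμ * Real.exp (m * l))) :
    erAS W π 12 δ h₀ x l q ≤ CAS 12 1 1 Cμ * (√δ + β) * q ^ 2 := by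
  have hE : Real.exp l ≤ 1 := Real.exp_le_one_iff.2 hl
  have htbE := tb_le_enR (κ := κ) h.as x l
  have hen : enR W π κ x l = (enOf W π κ (Well_761.cyl x (Real.exp l) univ)).toReal := rfl
  have htb1 : tb W π x l ≤ Real.exp (2 * l) := by
    refine htbE.trans ?_
    rw [hen]
    refine (mul_le_mul_of_nonneg_left h1 (Real.exp_pos _).le).trans (le_of_eq ?_)
    rw [← Real.exp_add]; congr 1; ring
  have htb2 : tb W π x l ≤ q ^ 2 := by
    refine htbE.trans ?_
    rw [hen]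
    have e : Real.exp ((2 - m) * l) = Real.exp (2 * l) * Real.exp (-(m * l)) := by
      rw [← Real.exp_add]; congr 1; ring
    rw [e]
    have h4 := mul_le_mul_of_nonneg_right h2 (Real.exp_pos (-(m * l))).le
    have h5 : q ^ 2 * Real.exp (m * l) * Real.exp (-(m * l)) = q ^ 2 := by
      have := exp_cancel (m * l)
      linear_combination q ^ 2 * this
    rw [h5] at h4
    linarith
  have htb3 : Real.exp (-2 * l) * tb W π x l ≤ 1 := by
    have h4 := mul_le_mul_of_nonneg_left htb1 (Real.exp_pos (-2 * l)).le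
    have h5 : Real.exp (-2 * l) * Real.exp (2 * l) = 1 := by
      rw [← Real.exp_add]
      have : -2 * l + 2 * l = 0 := by ring
      rw [this, Real.exp_zero]
    rwa [h5] at h4
  have hmb : mb W π x l ≤ Cμ := by
    refine (mb_le_muR (κ := κ) h.as x l).trans ?_
    have h4 : muR W π κ x l ≤ Cμ * Real.exp (m * l) :=
      ENNReal.toReal_le_of_le_ofReal (by positivity) h3
    refine (mul_le_mul_of_nonneg_left h4 (Real.exp_pos _).le).trans (le_of_eq ?_)
    have h5 : Real.exp (-m * l) * Real.exp (m * l) = 1 := by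
      rw [← Real.exp_add]
      have : -m * l + m * l = 0 := by ring
      rw [this, Real.exp_zero]
    linear_combination Cμ * h5
  have hδ1 : δ ≤ 1 := by linarith [h.δ1]
  have hh1 : h₀ ≤ 1 := by linarith [h.hh1]
  rcases le_or_gt q 1 with hq1 | hq1
  · exact erAS_le h.as (by norm_num) h.δ0 hδ1 h.hh hh1 hq hq1 hl zero_le_one hβ zero_le_one
      (by rw [one_mul]; exact htb2) htb3 hmb (by rwa [min_eq_left hq1] at hb)
  · have h4 := erAS_quad h.as h.δ0 h.hh (by norm_num : (0:ℝ) ≤ 12) x l hq1.le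
    have h5 := erAS_le h.as (K := 12) (by norm_num) h.δ0 hδ1 h.hh hh1 (q := 1) one_pos le_rfl hl
      (a := 1) (b := β) (lam := 1) (Cμ := Cμ) zero_le_one hβ zero_le_one
      (by
        have : Real.exp (2 * l) ≤ 1 := Real.exp_le_one_iff.2 (by linarith)
        linarith) htb3 hmb (by rwa [min_eq_right hq1.le] at hb)
    refine h4.trans ((mul_le_mul_of_nonneg_left h5 (sq_nonneg q)).trans (le_of_eq ?_))
    ring

/-- **error of the wells at good centres** -/
theorem herw {x : Euc m} {l q Cμ β s₁ : ℝ} (hCμ : 0 ≤ Cμ) (hs : Real.exp l ≤ s₁) (hq : 0 < q)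
    (hb : h₀ * s₁ ≤ β * q)
    (h3 : muOf W π κ (Well_761.cyl x (Real.exp l) univ) ≤
      ENNReal.ofReal (Cμ * Real.exp (m * l))) :
    CylAS.erwF W π κ (12 * (15 + etaC / 8)) δ h₀ x l q ≤
      12 * (15 + etaC / 8) * δ * Cμ * (β ^ 2 + s₁ ^ 2 + h₀ ^ 2) * q ^ 2 := by
  have hη := etaC_nonneg
  have hδ := h.δ0
  have hh := h.hh
  have hE := Real.exp_pos l
  have hs0 : 0 < s₁ := hE.trans_le hs
  have h4 : muR W π κ x l ≤ Cμ * Real.exp (m * l) :=
    ENNReal.toReal_le_of_le_ofReal (by positivity) h3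
  have h5 : Real.exp (-(m * l)) * (muOf W π κ (Well_761.cyl x (Real.exp l) univ)).toReal ≤
      Cμ := by
    refine (mul_le_mul_of_nonneg_left h4 (Real.exp_pos _).le).trans (le_of_eq ?_)
    have := exp_cancel (m * l)
    linear_combination Cμ * this
  have h50 : 0 ≤ Real.exp (-(m * l)) *
      (muOf W π κ (Well_761.cyl x (Real.exp l) univ)).toReal :=
    mul_nonneg (Real.exp_pos _).le ENNReal.toReal_nonneg
  have h6 : (h₀ ^ 2 + q ^ 2) * Real.exp (2 * l) + h₀ ^ 2 * q ^ 2 ≤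
      (β ^ 2 + s₁ ^ 2 + h₀ ^ 2) * q ^ 2 := by
    rw [exp_mul_sq]
    have e1 : Real.exp l ^ 2 ≤ s₁ ^ 2 := pow_le_pow_left₀ hE.le hs 2
    have e2 : (h₀ * s₁) ^ 2 ≤ (β * q) ^ 2 := pow_le_pow_left₀ (by positivity) hb 2
    have e3 : h₀ ^ 2 * Real.exp l ^ 2 ≤ h₀ ^ 2 * s₁ ^ 2 :=
      mul_le_mul_of_nonneg_left e1 (sq_nonneg _)
    have e4 : q ^ 2 * Real.exp l ^ 2 ≤ q ^ 2 * s₁ ^ 2 :=
      mul_le_mul_of_nonneg_left e1 (sq_nonneg _)
    nlinarith
  unfold CylAS.erwF
  calc _ ≤ 12 * (15 + etaC / 8) * δ * ((β ^ 2 + s₁ ^ 2 + h₀ ^ 2) * q ^ 2) * Cμ := by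
        refine mul_le_mul (mul_le_mul_of_nonneg_left h6 (by positivity)) h5 h50 (by positivity)
    _ = _ := by ring

/-- coarse mass of a solid cylinder -/
theorem mu_coarse {y : Euc m} (hy : ‖y‖ ≤ 3) {r : ℝ} (hr : 0 < r) (hr0 : h₀ ≤ 2 * r)
    (hr1 : r ≤ 1 / 8) : (muOf W π κ (Well_761.cyl y r univ)).toReal ≤ Cc * 2 ^ m * r ^ m := by
  have hcm : MeasurableSet (Well_761.cyl y r (univ : Set (Euc n))) :=
    Metric.isClosed_closedBall.measurableSet.prod MeasurableSet.univ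
  have h1 := h.mass y hy (2 * r) (by positivity) hr0 (by linarith)
  have h2 : (muOf W π κ (Well_761.cyl y r univ)).toReal ≤ MB W π y (2 * r) := by
    unfold muOf MB
    rw [Measure.map_apply (measurable_bh π κ) hcm]
    refine ENNReal.toReal_mono (lt_of_le_of_lt (measure_mono (subset_univ _)) h.as.fin).ne
      (measure_mono ?_)
    rintro p ⟨hp, -⟩
    change ‖π p.1 - y‖ < 2 * r
    rw [mem_closedBall, dist_eq_norm] at hp
    change ‖π p.1 - y‖ ≤ r at hp
    linarith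
  refine h2.trans (h1.trans (le_of_eq ?_))
  rw [mul_pow]; ring

/-- coarse energy of a solid cylinder -/
theorem en_coarse {y : Euc m} (hy : ‖y‖ ≤ 3) {r : ℝ} (hr : 0 < r) (hr0 : h₀ ≤ 2 * r)
    (hr1 : r ≤ 1 / 8) : (enOf W π κ (Well_761.cyl y r univ)).toReal ≤
      Cc * 2 ^ m * (h₀ / r) ^ 2 * r ^ m := by
  have h1 := h.ener y hy (2 * r) (by positivity) hr0 (by linarith)
  have hcm : MeasurableSet (Well_761.cyl y r (univ : Set (Euc n))) :=
    Metric.isClosed_closedBall.measurableSet.prod MeasurableSet.univ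
  have h2 : (enOf W π κ (Well_761.cyl y r univ)).toReal ≤ TB W π y (2 * r) := by
    rw [We_822.enOf_cyl]
    have hT0 : 0 ≤ TB W π y (2 * r) := h.as.TB_nonneg y _
    refine ENNReal.toReal_le_of_le_ofReal hT0 ?_
    unfold N5_372.eM
    rw [N5_372.bm_apply _ _ _ Metric.isClosed_closedBall.measurableSet]
    have hint : IntegrableOn (fun p : Euc k × L k => tl π p.2) (ovr π y (2 * r)) W :=
      (h.as.integrable_continuous (CylAS.continuous_tl (k := k) π)).integrableOn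
    have hnn : 0 ≤ᵐ[W.restrict (ovr π y (2 * r))] fun p => tl π p.2 :=
      ae_restrict_of_ae h.as.tl_nonneg'
    unfold TB
    rw [ofReal_integral_eq_lintegral_ofReal hint hnn]
    refine lintegral_mono_set ?_
    intro p hp
    change ‖π p.1 - y‖ < 2 * r
    have hp' : π p.1 ∈ closedBall y r := hp
    rw [mem_closedBall, dist_eq_norm] at hp'
    linarith
  refine h2.trans (h1.trans ?_)
  have hr2 : (h₀ / (2 * r)) ^ 2 ≤ (h₀ / r) ^ 2 := by
    have := h.hh
    refine pow_le_pow_left₀ (by positivity) ?_ 2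
    exact div_le_div_of_nonneg_left this hr (by linarith)
  have hC := h.Cnn
  calc Cc * (h₀ / (2 * r)) ^ 2 * (2 * r) ^ m ≤ Cc * (h₀ / r) ^ 2 * (2 * r) ^ m := by gcongr
    _ = _ := by rw [mul_pow]; ring

/-- the constant of the mass at good centres -/
def _root_.Crest.Agent.R234.Rn_870.CMr (m : ℕ) (Cc : ℝ) : ℝ :=
  CMU m ((3 / 4) ^ 4) 1 12 (Cc * 2 ^ m) 1

/-- **mass at good centres** -/
theorem hms {x' : Euc m} {l0 l1 lam : ℝ} (hx : ‖x'‖ ≤ 3) (hl : l0 ≤ l1)
    (hr0 : h₀ ≤ 2 * Real.exp l1) (hr1 : Real.exp l1 ≤ 1 / 8) (hlam : 0 ≤ lam)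
    (hen : ∀ l ∈ Icc l0 l1,
      (enOf W π κ (Well_761.cyl x' (Real.exp l) univ)).toReal ≤ lam * Real.exp (m * l))
    (hA : lam * (l1 - l0) ≤ 1)
    (hsmall : (((3:ℝ) / 4) ^ 4)⁻¹ * Real.exp (m * 1) * (4 * 12 * δ * h₀ ^ 2) * (l1 - l0) ≤ 1 / 2) :
    ∀ l ∈ Icc l0 l1, muOf W π κ (Well_761.cyl x' (Real.exp l) univ) ≤
      ENNReal.ofReal (CMr m Cc * Real.exp (m * l)) := by
  intro l hl'
  have hCc := h.Cnn
  have hl10 : l1 ≤ 0 := by
    have : Real.exp l1 ≤ 1 := by linarith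
    exact Real.exp_le_one_iff.1 this
  have htop : muR W π κ x' l1 ≤ Cc * 2 ^ m * Real.exp (m * l1) := by
    have h1 := h.mu_coarse hx (Real.exp_pos l1) hr0 hr1
    rw [← Real.exp_nat_mul] at h1
    exact h1
  have h2 := mass_as h.as h.δ0 (by linarith [h.δ1]) h.hh prof0
    (fun t _ => w0_nonneg t) bdA (c := (3 / 4) ^ 4) (a := 1) (by norm_num) zero_le_one w0_low1 hl
    hl10 (x := x') (by rw [sub_zero]; linarith) hlam (C1 := Cc * 2 ^ m) (A := 1) (by positivity) hA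
    hen htop hsmall l hl'
  exact (ENNReal.le_ofReal_iff_toReal_le (h.fin_mu x' _) (by
    have := CMU_nonneg (m := m) (c := (3 / 4) ^ 4) (a := 1) (K := 12) (C1 := Cc * 2 ^ m) (A := 1)
      (by norm_num) (by norm_num) (by positivity) zero_le_one
    unfold CMr
    positivity)).2 h2

theorem CMr_nonneg : 0 ≤ CMr m Cc := by
  have := h.Cnn
  exact CMU_nonneg (by norm_num) (by norm_num) (by positivity) zero_le_one

/-- a point of the support near `x` -/
theorem exists_TT {x : Euc m} {ρ : ℝ} (hpos : 0 < W {p | ‖π p.1 - x‖ ≤ ρ}) :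
    ∃ (x' : Euc m) (p : Euc n), (x', p) ∈ TT W π κ ∧ dist x' x ≤ ρ := by
  by_contra hcon
  push Not at hcon
  have hcm : MeasurableSet (Well_761.cyl x ρ (univ : Set (Euc n))) :=
    Metric.isClosed_closedBall.measurableSet.prod MeasurableSet.univ
  have h1 : muOf W π κ (Well_761.cyl x ρ univ) = 0 := by
    refine measure_mono_null ?_ (null_TT W π κ)
    rintro ⟨x', p⟩ ⟨hz, -⟩ hT
    have := hcon x' p hT
    rw [mem_closedBall] at hz
    linarith
  unfold muOf at h1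
  rw [Measure.map_apply (measurable_bh π κ) hcm] at h1
  refine hpos.ne' (measure_mono_null ?_ h1)
  intro p hp
  refine ⟨?_, mem_univ _⟩
  rw [mem_closedBall, dist_eq_norm]
  exact hp

/-- **mass at the contact centre** -/
theorem hmass {x : Euc m} {lmin lmax : ℝ} {N : ℝ → (Euc n → ℝ) → ℝ} {C₅ : ℝ}
    (hN : Well_761.Centre m (kap w0.θ') (muOf W π κ) x lmin lmax N C₅) {l ρ : ℝ}
    (hl : lmin ≤ l - Real.log 4) (hl2 : l ≤ lmax)
    (hpos : 0 < W {p | ‖π p.1 - x‖ ≤ ρ}) (hρ : ρ ≤ Real.exp l / 16)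
    (hx : ‖x‖ + Real.exp l ≤ 4) :
    2 * (27 / 16) * (c0 / 4 ^ m) / C₅ ≤ N l (fun _ => (1:ℝ)) := by
  have hlog : 0 < Real.log 4 := Real.log_pos (by norm_num)
  have hC₅ : 0 < C₅ := one_pos.trans_le hN.C1
  have hE := Real.exp_pos l
  obtain ⟨x', p, hT, hd⟩ := h.exists_TT hpos
  have e1 : Real.exp (l - Real.log 4) = Real.exp l / 4 := by
    rw [Real.exp_sub, Real.exp_log (by norm_num)]
  have h1 := Well_761.nu_ge (m := m) ker0 (x := x) (x' := x') (p := p) (l := l - Real.log 4)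
    (F := fun _ : Euc n => (1:ℝ)) (mu := muOf W π κ) measurable_const (M := 1)
    (fun _ => by simp) (fun _ => zero_le_one) (b := 1) zero_le_one (fun _ _ => le_rfl)
    (by rw [e1]; linarith) (c0 := c0) h.cpos.le (h.fin_mu x _) (by
      refine h.geo.lower x' p hT _ (by positivity) ?_
      rw [e1, dist_zero_right]
      have := norm_sub_norm_le x' x
      rw [← dist_eq_norm] at this
      linarith)
  rw [one_mul] at h1
  have h2 := hN.nu_le x (l - Real.log 4) (fun _ => (1:ℝ)) 1 hl (by linarith)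
    (by rw [dist_self]; positivity) measurable_const (fun _ => zero_le_one) (fun _ => le_rfl)
  rw [sub_add_cancel] at h2
  rw [div_le_iff₀ hC₅]
  calc 2 * (27 / 16) * (c0 / 4 ^ m) ≤ C₅ * N l (fun _ => (1:ℝ)) := h1.trans h2
    _ = _ := mul_comm _ _

end Env

/-! ### the class of the core -/

/-- the constant of the lower density -/
def clow (m : ℕ) : ℝ := ome m / 2 ^ m / 8 ^ m

theorem clow_pos (m : ℕ) : 0 < clow m := by
  have := ome_pos m
  unfold clow
  positivity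

/-- lower density of the part, all radii -/
theorem low_cls {Q : ℕ} {D : ℝ} {U : Set (Euc k)} {Dd : VarifoldData m k}
    (h : Cls Q δ D π κ U Dd) (hm : 1 ≤ m) (hD1 : D ≤ 1 / 4) :
    ∀ᵐ z ∂(part π κ Dd), ∀ r, 0 < r → ‖π z.1 - 0‖ + r ≤ 4 →
      ENNReal.ofReal (clow m * r ^ m) ≤ part π κ Dd (closedBall z.1 r ×ˢ univ) := by
  have hcm : MeasurableSet (Cy_870.cyl π κ 0 4 1 ×ˢ (univ : Set (L k))) :=
    (isClosed_cyl π κ 0 4 1).measurableSet.prod MeasurableSet.univ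
  obtain ⟨T, T', hT, hg, hst⟩ := h.ex
  unfold part
  filter_upwards [ae_restrict_mem hcm, ae_restrict_of_ae h.hgt,
    ae_restrict_of_ae (Sml_870.ae_mem_support h.int)] with z hz hh hsup
  have hh' := hh hz.1
  have h1 : ‖κ z.1‖ ≤ 1 / 2 :=
    (sq_le_sq₀ (norm_nonneg _) (by norm_num)).1 (by linarith)
  have key : ∀ r, 0 < r → r ≤ 1 / 2 → ‖π z.1 - 0‖ + r ≤ 4 →
      ENNReal.ofReal (ome m / 2 ^ m * r ^ m) ≤
        (VD Dd).restrict (Cy_870.cyl π κ 0 4 1 ×ˢ univ) (closedBall z.1 r ×ˢ univ) := by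
    intro r hr hr1 hdom
    have hsub : Metric.closedBall z.1 r ⊆ Cy_870.cyl π κ 0 4 1 := by
      intro w hw
      rw [Metric.mem_closedBall, dist_eq_norm] at hw
      have hn := h.sp.norm_sq (w - z.1)
      have h2 : ‖π (w - z.1)‖ ≤ r :=
        (sq_le_sq₀ (norm_nonneg _) hr.le).1
          (by nlinarith [sq_nonneg ‖κ (w - z.1)‖, norm_nonneg (w - z.1)])
      have h3 : ‖κ (w - z.1)‖ ≤ r :=
        (sq_le_sq₀ (norm_nonneg _) hr.le).1
          (by nlinarith [sq_nonneg ‖π (w - z.1)‖, norm_nonneg (w - z.1)])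
      have h4 : π w - 0 = (π z.1 - 0) + π (w - z.1) := by rw [map_sub]; abel
      have h5 : κ w = κ z.1 + κ (w - z.1) := by rw [map_sub]; abel
      refine ⟨?_, ?_⟩
      · rw [h4]; exact (norm_add_le _ _).trans (by linarith)
      · rw [h5]; exact (norm_add_le _ _).trans (by linarith)
    have h6 := Ex_46.low_mass h.int h.isOpen hT hg hst hm hsup hr
      (Metric.ball_subset_closedBall.trans (hsub.trans h.dom))
    rw [Measure.restrict_apply (Metric.isClosed_closedBall.measurableSet.prod MeasurableSet.univ),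
      Set.prod_inter_prod, univ_inter, inter_eq_left.2 hsub,
      VD_prod_univ h.int Metric.isClosed_closedBall.measurableSet]
    exact h6.trans (measure_mono Metric.ball_subset_closedBall)
  intro r hr hdom
  have hom := ome_pos m
  rcases le_or_gt r (1 / 2) with hr1 | hr1
  · refine le_trans (ENNReal.ofReal_le_ofReal ?_) (key r hr hr1 hdom)
    have h8 : (1:ℝ) ≤ 8 ^ m := one_le_pow₀ (by norm_num)
    have : clow m ≤ ome m / 2 ^ m := by
      unfold clow
      exact div_le_self (by positivity) h8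
    gcongr
  · refine le_trans (ENNReal.ofReal_le_ofReal ?_) ((key (1 / 2) (by norm_num) le_rfl
      (by linarith)).trans (measure_mono (prod_mono (closedBall_subset_closedBall hr1.le) le_rfl)))
    have hr4 : r ≤ 4 := by
      have := norm_nonneg (π z.1 - 0)
      linarith
    have h9 : r ^ m ≤ 8 ^ m * (1 / 2) ^ m := by
      rw [← mul_pow]
      norm_num
      exact pow_le_pow_left₀ hr.le hr4 m
    unfold clow
    calc ome m / 2 ^ m / 8 ^ m * r ^ m ≤ ome m / 2 ^ m / 8 ^ m * (8 ^ m * (1 / 2) ^ m) := by gcongr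
      _ = _ := by
        have h8 : (8:ℝ) ^ m ≠ 0 := by positivity
        field_simp

/-- **the class of the core gives `Env`** -/
theorem env_cls (m Q : ℕ) (hm : 1 ≤ m) : ∃ Cc : ℝ, 1 ≤ Cc ∧ ∀ {n k : ℕ}
    {π : Euc k →L[ℝ] Euc m} {κ : Euc k →L[ℝ] Euc n} {U : Set (Euc k)} {Dd : VarifoldData m k}
    {δ D : ℝ}, Cls Q δ D π κ U Dd → D ≤ 1 / 256 → 0 ≤ δ → δ ≤ 1 / 16 →
      Env (part π κ Dd) π κ (√D) δ (clow m) Cc := by
  obtain ⟨C, hC, hen⟩ := Crs_173.energy m (Ins_387.C0_nonneg m Q)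
  refine ⟨C, hC, ?_⟩
  intro n k π κ U Dd δ D h hD h0 hδ
  have has := Ins_387.cylAS h (by linarith : D < 1)
  have h1 := hen has (fun z r hr _ => Ins_387.ubd h hm z hr) h0 hδ
  have hs : √D ≤ 1 / 16 := by
    rw [show (1:ℝ) / 16 = √(1 / 256) by
      rw [show (1:ℝ) / 256 = (1 / 16) ^ 2 by norm_num, Real.sqrt_sq (by norm_num)]]
    exact Real.sqrt_le_sqrt hD
  exact
    { as := has
      δ0 := h0
      δ1 := hδ
      hh := Real.sqrt_nonneg D
      hh1 := hs
      cpos := clow_pos m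
      Cnn := by linarith
      low := low_cls h hm (by linarith)
      mass := fun y hy r hr hr0 hr1 => (h1 y (by rwa [mem_closedBall_zero_iff]) r hr hr0 hr1).1
      ener := fun y hy r hr hr0 hr1 => (h1 y (by rwa [mem_closedBall_zero_iff]) r hr hr0 hr1).2 }

end Crest.Agent.R234.Rn_870
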