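import Crest.Agent.R234.Rn3_870

/-!
# Row 234, N9-AV, part 4 (helper870): assembly of `NRun`
-/

set_option autoImplicit false

open MeasureTheory Set Function Filter Topology Metric
open Crest.GeometryTopology.Submanifold
open Crest.Agent.R234.Vf_884 Crest.Agent.R234.Ar_870 Crest.Agent.R234.Cy_870
open Crest.Agent.R234.Wi_870 Crest.Agent.R234.Asl_214
open Crest.Agent.R234.Avg_387 (CW av dd cw_dd Md integral_dd Md_pos eea RRa)
open Crest.Agent.R234.Core_809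
open Crest.Agent.R234.N5_372 (eM)
open Crest.Agent.R234.Well_761 (etaC etaC_nonneg bump b1 WCfg wells)
open Crest.Agent.R234.Par_504 (s0Of_pos stOf_pos tauOf_pos hOf_pos tOf_pos Dmin_pos
  exp_log_s0Of_add_T)
open scoped ENNReal NNReal

noncomputable section

namespace Crest.Agent.R234.Rn_870

variable {m n k Q : ℕ} {a : ℝ} {K cS : ℝ}

theorem le_mul_of_div_le {x y A : ℝ} (hy : 0 < y) (h : x / y ≤ A) : x ≤ y * A := by
  rwa [div_le_iff₀' hy] at h

/-! ### the constants -/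

/-- the constant of `Centre` -/
def C5 (m : ℕ) : ℝ :=
  max 1 (max (2 * 4 / (2 * (27 / 16)) * 4 ^ m * Md m) (2 * 4 / (2 * (27 / 16)) * 4 ^ m / Md m))

theorem one_le_C5 (m : ℕ) : 1 ≤ C5 m := le_max_left _ _

/-! ### facts at a contact situation -/

theorem pow_big {Λ : ℝ} (hΛ : 2 ≤ Λ) (ha : 1 ≤ a) :
    32 * Λ ^ a ≤ Λ ^ (100 * (m + 1) * (a + 1)) ∧ 1 ≤ Λ ^ a := by
  have hΛ1 : 1 ≤ Λ := by linarith
  have hm : (0:ℝ) ≤ m := Nat.cast_nonneg m
  have h1 : a + 5 ≤ 100 * (m + 1) * (a + 1) := by nlinarith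
  have h2 := Real.rpow_le_rpow_of_exponent_le hΛ1 h1
  have h3 : Λ ^ (a + 5) = Λ ^ a * Λ ^ (5:ℕ) := by
    rw [Real.rpow_add (by linarith)]
    norm_cast
  have h4 : (32:ℝ) ≤ Λ ^ (5:ℕ) := by
    calc (32:ℝ) = 2 ^ 5 := by norm_num
      _ ≤ _ := pow_le_pow_left₀ (by norm_num) hΛ 5
  have h5 : 0 < Λ ^ a := Real.rpow_pos_of_pos (by linarith) a
  refine ⟨?_, Real.one_le_rpow hΛ1 (by linarith)⟩
  rw [h3] at h2
  nlinarith

/-- positive mass near a contact point -/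
theorem mass_pos_sit {X : Sit m n a} (hX : IsSit Q K cS X) (hcS : 0 < cS) {x : Euc m}
    (hx : x ∈ X.Z) : 0 < X.V {p | ‖X.π p.1 - x‖ ≤ tOf a X.D + 2 * tauOf a X.D} := by
  obtain ⟨x', hx', rfl⟩ := hx
  obtain ⟨s, hs, hle⟩ := hX.out.tl x' hx'
  have hh := hOf_pos (a := a) hX.D0 hX.D1
  have ht := tOf_pos (a := a) hX.D0 hX.D1
  have hs0 : 0 < s := hh.trans_le hs.1
  have hlam : 0 < lamOf cS a X.D := by unfold lamOf; positivity
  have h1 : 0 < eM X.V X.π (closedBall (x' : Euc m) (s + 2 * tauOf a X.D)) :=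
    lt_of_lt_of_le (ENNReal.ofReal_pos.2 (by positivity)) hle
  unfold eM at h1
  rw [N5_372.bm_apply _ _ _ Metric.isClosed_closedBall.measurableSet] at h1
  refine pos_iff_ne_zero.2 fun h0 => h1.ne' ?_
  have h2 : X.V.restrict (N5_372.ov X.π (closedBall (x' : Euc m) (s + 2 * tauOf a X.D))) = 0 := by
    rw [Measure.restrict_eq_zero]
    refine measure_mono_null ?_ h0
    intro p hp
    have hp' : X.π p.1 ∈ closedBall (x' : Euc m) (s + 2 * tauOf a X.D) := hp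
    rw [mem_closedBall, dist_eq_norm] at hp'
    have := hs.2
    change ‖X.π p.1 - x'‖ ≤ _
    linarith
  rw [h2, lintegral_zero_measure]

/-- the norm of contact points -/
theorem norm_sit {X : Sit m n a} (hX : IsSit Q K cS X) {x : Euc m} (hx : x ∈ X.Z) :
    ‖x‖ ≤ 1 + tauOf a X.D := by
  obtain ⟨x', hx', rfl⟩ := hx
  have h1 := hX.out.nrm x' hx'
  have h2 : 0 < blOf a X.D := Par_504.blOf_pos hX.D0 hX.D1
  linarith

/-- numbers of the bottom of the window -/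
structure Bot (m : ℕ) (a D : ℝ) : Prop where
  τ1 : tauOf a D ≤ √D / 4
  τs : tauOf a D ≤ 3 / 4 * (s0Of m a D * Lam D / 4)
  ρ : tOf a D + 2 * tauOf a D ≤ s0Of m a D * Lam D / 16
  sq : √D ≤ s0Of m a D * Lam D

theorem bot {D : ℝ} (h0 : 0 < D) (ha : 1 ≤ a) (hΛ : 2 ≤ Lam D) : Bot m a D := by
  have hs : 0 < √D := Real.sqrt_pos.2 h0
  have hΛ0 : 0 < Lam D := by linarith
  obtain ⟨h1, h2⟩ := pow_big (m := m) hΛ ha
  have h3 : Lam D ^ (-a) ≤ 1 := Real.rpow_le_one_of_one_le_of_nonpos (by linarith) (by linarith)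
  have h4 : tauOf a D ≤ √D / 4 := by
    unfold tauOf hOf
    have := mul_le_mul_of_nonneg_left h3 hs.le
    linarith
  have h5 : √D * (32 * Lam D ^ a) ≤ s0Of m a D := by
    unfold s0Of
    exact mul_le_mul_of_nonneg_left h1 hs.le
  have h6 : √D ≤ √D * Lam D ^ a := le_mul_of_one_le_right hs.le h2
  have h7 : 0 < s0Of m a D := by unfold s0Of; positivity
  have h8 : s0Of m a D * 2 ≤ s0Of m a D * Lam D := mul_le_mul_of_nonneg_left hΛ h7.le
  refine ⟨h4, by linarith, ?_, by linarith⟩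
  unfold tOf
  linarith

/-- **`Centre` at a contact point** -/
theorem centre_sit {V : Measure (Euc k × L k)} {π : Euc k →L[ℝ] Euc m} {κ : Euc k →L[ℝ] Euc n}
    (hfr : ∀ x L, Fr V π κ x L) (hm : 0 < m) {τ : ℝ} (hτ : 0 < τ) {x : Euc m} {lmin lmax : ℝ}
    (hτl : τ ≤ 3 / 4 * Real.exp lmin) :
    Well_761.Centre m (kap w0.θ') (muOf V π κ) x lmin lmax
      (fun l F => Nav (dd m τ) V π κ w0.θ' x l F) (C5 m) := by
  have hM := Md_pos hm
  refine centre_av hfr hτ.le (cw_dd hτ) prof0 ker0 hτl (by rw [integral_dd hτ]; exact hM)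
    (one_le_C5 m) ?_ ?_
  · rw [integral_dd hτ]
    exact (le_max_left _ _).trans (le_max_right _ _)
  · rw [integral_dd hτ, ← div_le_iff₀ hM]
    exact (le_max_right _ _).trans (le_max_right _ _)

set_option maxHeartbeats 4000000 in
/-- **`NRun` from the two sides** -/
theorem nRun_of (hm : 3 ≤ m) (hcS : 0 < cS) (ha : 1 ≤ a) (hU : UProp m n Q K cS a)
    (hD : DrProp m n Q K cS a) (hNum : NumRun m a) : NRun m n Q K cS a := by
  obtain ⟨cU', CU, CR, Ce, lU, hcU', hCU, hCR, hCe, hU⟩ := hU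
  obtain ⟨C₄, C₆, hC₄, hC₆, hD⟩ := hD
  obtain ⟨Cc, hCc, henv⟩ := env_cls m Q (by lia)
  -- `cU ≤ 1`
  obtain ⟨cU, hcUdef⟩ : ∃ cU : ℝ, cU = min cU' 1 := ⟨_, rfl⟩
  have hcU : 0 < cU := by rw [hcUdef]; exact lt_min hcU' one_pos
  have hcU1 : cU ≤ 1 := by rw [hcUdef]; exact min_le_right _ _
  have hcUU : cU ≤ cU' := by rw [hcUdef]; exact min_le_left _ _
  have hc0 := clow_pos m
  have hCc0 : 0 ≤ Cc := by linarith
  obtain ⟨c0, hc0d⟩ : ∃ c0 : ℝ, c0 = clow m := ⟨_, rfl⟩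
  rw [← hc0d] at hc0
  obtain ⟨Cμ, hCμd⟩ : ∃ Cμ : ℝ, Cμ = CMr m Cc := ⟨_, rfl⟩
  have hCμ : 0 ≤ Cμ := by
    rw [hCμd]
    exact We_822.CMU_nonneg (by norm_num) (by norm_num) (by positivity) zero_le_one
  obtain ⟨C₅, hC5d⟩ : ∃ C₅ : ℝ, C₅ = C5 m := ⟨_, rfl⟩
  have hC51 : 1 ≤ C₅ := hC5d ▸ one_le_C5 m
  have hC5 : 0 < C₅ := by linarith
  obtain ⟨B1, hB1d⟩ : ∃ B1 : ℝ, B1 = b1 m (2 * (27 / 16)) c0 := ⟨_, rfl⟩
  have hB1 : 0 < B1 := by rw [hB1d]; unfold b1; positivity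
  obtain ⟨b, hbd⟩ : ∃ b : ℝ, b = B1 / C₅ := ⟨_, rfl⟩
  have hb : 0 < b := by rw [hbd]; positivity
  have hKF := KF_pos
  -- the constant `A`
  obtain ⟨A, hAd⟩ : ∃ A : ℝ, A = 1 + 16 * (2 * 80 ^ m * Ce * KF) / (B1 / (32 * C₅ ^ 2)) +
      32 * 80 ^ m * Ce + 2 * 80 ^ m * Ce * KF + 16 * C₄ ^ 2 * CR / (b / 16) ^ 2 +
      32 * (C₆ * CR) / b := ⟨_, rfl⟩
  have t1 : 0 ≤ 16 * (2 * 80 ^ m * Ce * KF) / (B1 / (32 * C₅ ^ 2)) := by positivity
  have t2 : 0 ≤ 32 * 80 ^ m * Ce := by positivity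
  have t3 : 0 ≤ 2 * 80 ^ m * Ce * KF := by positivity
  have t4 : 0 ≤ 16 * C₄ ^ 2 * CR / (b / 16) ^ 2 := by positivity
  have t5 : 0 ≤ 32 * (C₆ * CR) / b := by positivity
  have hA0 : 0 < A := by rw [hAd]; linarith
  have hA1 : 16 * (2 * 80 ^ m * Ce * KF) / A ≤ B1 / (32 * C₅ ^ 2) := by
    rw [div_le_iff₀ hA0]
    refine le_mul_of_div_le (by positivity) ?_
    rw [hAd]; linarith
  have hA2 : 32 * 80 ^ m * Ce ≤ A := by rw [hAd]; linarith
  have hA3 : 2 * 80 ^ m * Ce * KF ≤ A := by rw [hAd]; linarith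
  have hA4 : 16 * C₄ ^ 2 * CR ≤ (b / 16) ^ 2 * A :=
    le_mul_of_div_le (by positivity) (by rw [hAd]; linarith)
  have hA5 : 32 * (C₆ * CR) ≤ b * A := le_mul_of_div_le hb (by rw [hAd]; linarith)
  -- the constant `M0`
  have s1 : 0 ≤ 16 * C₄ ^ 2 / (b / 16) ^ 2 := by positivity
  have s2 : 0 ≤ 32 * C₆ / b := by positivity
  obtain ⟨nN, hnN⟩ : ∃ nN : ℕ, nN = ⌈2 ^ m * Cμ / c0⌉₊ + 1 := ⟨_, rfl⟩
  refine ⟨nN, A, 6 * C₅ * (2 * 4 * Cμ / 2 + B1 / 16 + 1 / 2),
    1 + 16 * C₄ ^ 2 / (b / 16) ^ 2 + 32 * C₆ / b, hA0.le, by positivity, ?_⟩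
  intro M hM
  have hM1 : 1 ≤ M := by linarith
  have hM0 : 0 < M := by linarith
  have hMM : M ≤ M ^ 2 := by nlinarith
  have hMa : 16 * C₄ ^ 2 ≤ (b / 16) ^ 2 * M ^ 2 :=
    le_mul_of_div_le (by positivity) (by linarith)
  have hMb : 32 * C₆ ≤ b * M ^ 2 := le_mul_of_div_le hb (by linarith)
  obtain ⟨lD, hD⟩ := hD cU (b / 16) hcU (by positivity)
  obtain ⟨lN, hN⟩ := hNum CU cU M Cμ (B1 / (32 * C₅ ^ 2))
    ((((3:ℝ) / 4) ^ 4)⁻¹ * Real.exp (m * 1) * (4 * 12)) hCU hcU hcU1 hM1 hCμ (by positivity)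
    (by positivity)
  refine ⟨max 1 (max lU (max lD lN)), fun X hX hl => ?_⟩
  have hl1 : 1 ≤ Real.log (Lam X.D) := (le_max_left _ _).trans hl
  have hlU := ((le_max_left _ _).trans (le_max_right _ _)).trans hl
  have hlD := (((le_max_left _ _).trans (le_max_right _ _)).trans (le_max_right _ _)).trans hl
  have hlN := (((le_max_right _ _).trans (le_max_right _ _)).trans (le_max_right _ _)).trans hl
  have hD0 := hX.D0
  have hD1 := hX.D1
  have hΛ0 : 0 < Lam X.D := Par_504.Lam_pos hD0 hD1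
  have hΛ2 : 2 ≤ Lam X.D := by
    have h1 := (Real.le_log_iff_exp_le hΛ0).1 hl1
    have := Real.exp_one_gt_d9
    linarith
  have hbot := bot (m := m) hD0 ha hΛ2
  intro x hx τ hτ hτ16 hτe
  have hu := hU X hX hlU x hx
  -- numbers
  obtain ⟨L0, hL0⟩ : ∃ L0 : ℝ, L0 = Real.log (s0Of m a X.D) := ⟨_, rfl⟩
  obtain ⟨a0, ha0⟩ : ∃ a0 : ℝ, a0 = Real.log (Lam X.D) := ⟨_, rfl⟩
  obtain ⟨T, hT⟩ : ∃ T : ℝ, T = TOf m a X.D := ⟨_, rfl⟩
  obtain ⟨st, hst⟩ : ∃ st : ℝ, st = stOf m a X.D := ⟨_, rfl⟩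
  have hst0 : 0 < st := hst ▸ stOf_pos hD0 hD1
  have hs00 : 0 < s0Of m a X.D := s0Of_pos hD0 hD1
  have hexpT : Real.exp (L0 + T) = st := by
    rw [hL0, hT, hst]; exact exp_log_s0Of_add_T hD0 hD1
  have hexpa : Real.exp (L0 + a0) = s0Of m a X.D * Lam X.D := by
    rw [hL0, ha0, Real.exp_add, Real.exp_log hs00, Real.exp_log hΛ0]
  have hτa0 : a0 ≤ τ 0 := ha0 ▸ (hτ 0 (Nat.zero_le _)).1
  have hτT : τ 0 ≤ T := hT ▸ (hτ 0 (Nat.zero_le _)).2.1
  have haT : a0 ≤ T := hτa0.trans hτT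
  have hlog4 := log4_pos
  have hlog42 := log4_le
  -- `U`
  set U : ℝ → ℝ := fun t => X.sU Q K cS x (t + Real.log (s0Of m a X.D)) with hUdef
  set e : ℝ → ℝ := fun t => X.se Q K cS x (t + Real.log (s0Of m a X.D)) with hedef
  have hUa' : cU * Par_504.Dmin m a X.D ≤ U a0 := by
    have h1 := hu.low
    have h2 := Dmin_pos (m := m) (a := a) hD0 hD1
    have h3 := mul_le_mul_of_nonneg_right hcUU h2.le
    have h4 : U a0 = X.sU Q K cS x (Real.log (Lam X.D) + Real.log (s0Of m a X.D)) := by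
      simp only [hUdef, ha0]
    rw [h4]
    linarith
  have hDm : 0 < cU * Par_504.Dmin m a X.D :=
    mul_pos hcU (Dmin_pos (m := m) (a := a) hD0 hD1)
  have hUa : 0 < U a0 := hDm.trans_le hUa'
  have hder : ∀ l ∈ Icc (L0 + a0 - Real.log 4) (L0 + T + Real.log 4 + 1 / 2),
      HasDerivAt (fun l => U (l - L0)) (X.sR Q K cS x l) l := by
    intro l hl'
    have h1 := hu.der l (by rw [← hL0, ← ha0, ← hT]; exact hl')
    have h2 : (fun l => U (l - L0)) = fun l => X.sU Q K cS x l := by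
      funext l
      simp only [hUdef, hL0, sub_add_cancel]
    rw [h2]
    exact h1
  have hR0 : ∀ l ∈ Icc (L0 + a0 - Real.log 4) (L0 + T + Real.log 4 + 1 / 2),
      0 ≤ X.sR Q K cS x l := by
    intro l hl'
    exact hu.R0 l (by rw [← hL0, ← ha0, ← hT]; exact hl')
  have hUm : ∀ s t, a0 ≤ s → s ≤ t → t ≤ T → U s ≤ U t := by
    intro s t h1 h2 h3
    have h4 := Well_761.le_of_deriv_le (f := fun _ : ℝ => (0 : ℝ)) (g := fun l => U (l - L0))
      (a := L0 + s) (b := L0 + t) (by linarith) (fun l hl => by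
        have hl' : l ∈ Icc (L0 + a0 - Real.log 4) (L0 + T + Real.log 4 + 1 / 2) :=
          ⟨by linarith [hl.1], by linarith [hl.2]⟩
        exact ⟨0, X.sR Q K cS x l, hasDerivAt_const _ _, hder l hl', hR0 l hl'⟩)
    rw [add_sub_cancel_left, add_sub_cancel_left] at h4
    linarith
  have hUT : U T ≤ CU * X.D := by
    have h1 := hu.up
    simp only [hUdef, hT]
    exact h1
  have hUT0 : 0 ≤ U T := hUa.le.trans (hUm _ _ le_rfl haT le_rfl)
  obtain ⟨k1, k2, k3, k4, k5, k6, k7, k8, k9, k10, k11⟩ :=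
    hN X.D X.δ (U a0) (U T) hD0 hD1 hlN hX.δ0 hX.δ1 hUa' hUT0 hUT
  rw [← hst] at k1 k7
  rw [← hT] at k2 k3 k11
  have hδ16 : X.δ ≤ 1 / 16 := by
    refine hX.δ1.trans ?_
    have h1 : Lam X.D ^ (-4 : ℝ) = (Lam X.D ^ (4:ℕ))⁻¹ := by
      rw [Real.rpow_neg hΛ0.le]
      norm_cast
    have h2 : (16:ℝ) ≤ Lam X.D ^ (4:ℕ) := by
      calc (16:ℝ) = 2 ^ 4 := by norm_num
        _ ≤ _ := pow_le_pow_left₀ (by norm_num) hΛ2 4
    rw [h1, ← one_div]
    exact one_div_le_one_div_of_le (by norm_num) h2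
  have E : Env X.V X.π X.κ (√X.D) X.δ c0 Cc := by
    rw [hc0d]
    exact henv hX.cls k8 hX.δ0 hδ16
  -- geometry
  have hτp : 0 < tauOf a X.D := tauOf_pos hD0 hD1
  have hsq1 : √X.D ≤ 1 / 16 := E.hh1
  have hxn : ‖x‖ ≤ 5 / 4 := by
    have h1 := norm_sit hX hx
    have h2 := hbot.τ1
    linarith
  have hC := centre_sit (V := X.V) (π := X.π) (κ := X.κ) E.as.fr (by lia) hτp (x := x)
    (lmin := L0 + a0 - Real.log 4) (lmax := L0 + T) (by
      rw [Real.exp_sub, hexpa, Real.exp_log (by norm_num)]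
      exact hbot.τs)
  rw [← hC5d] at hC
  have hβ : 0 ≤ beR m a cU X.D := by
    unfold beR
    have := stOf_pos (m := m) (a := a) hD0 hD1
    positivity
  have hy0 : 0 < √(cU * Par_504.Dmin m a X.D) := Real.sqrt_pos.2 hDm
  have hyβ : beR m a cU X.D * √(cU * Par_504.Dmin m a X.D) = 4 * st * √X.D := by
    unfold beR
    rw [← hst]
    field_simp
  have hyq : ∀ q, M * √(U a0) ≤ q → √(cU * Par_504.Dmin m a X.D) ≤ q := by
    intro q hq
    refine (Real.sqrt_le_sqrt hUa').trans (le_trans ?_ hq)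
    exact le_mul_of_one_le_left (Real.sqrt_nonneg _) hM1
  have key : _ := hrun2 (n := nN) (A := A) (M := M) (T := T) (a0 := a0) (L0 := L0) (U := U) (e := e)
    (Lg := Lam X.D) (Ce := Ce) (θ := thR m a cU Cμ X.δ X.D) (θw := thwR m a cU Cμ X.δ X.D)
    (Cμ := Cμ) (c1 := 2 * (27 / 16) * (c0 / 4 ^ m) / C₅) (by rw [finrank_euclideanSpace,
      Fintype.card_fin]) E.flow E.wflow ker0 hCμ E.geo (by rw [hnN]; lia)
    (by
      rw [hnN]
      push_cast
      have := Nat.le_ceil (2 ^ m * Cμ / c0)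
      linarith) hC le_rfl le_rfl
    (by rw [dist_zero_right, hexpT]; linarith) (E.fin_en _ _) hM0 hCe ?_ ?_ hUa hUm ?_ ?_ ?_ ?_
    ?_ ?_ (by linarith) ?_ ?_ ?_ ?_ ?_ ?_ hA0 ?_ hA2 hA3 τ ?_ hτ16 ?_
  · obtain ⟨i, hi, w, hw1, hw2⟩ := key
    refine ⟨i, hi, w, hw1, ?_⟩
    have e1 : (X.cd Q K cS).IF x w (τ i) = 2 * Nav (dd m (tauOf a X.D)) X.V X.π X.κ w0.θ' x
        (L0 + τ i) (wells w.C w.q) := by
      rw [hL0, add_comm]
      rfl
    rw [e1]
    refine hw2.trans (le_of_eq ?_)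
    rw [hB1d]
    rfl
  · unfold thR
    have := We_822.CAS_nonneg (K := 12) (a := 1) (lam := 1) (Cμ := Cμ) (by norm_num) zero_le_one
      zero_le_one hCμ
    positivity
  · intro t ht
    have h1 := hu.en t (by rw [← ha0, ← hT]; exact ht)
    rw [← hL0] at h1
    have e1 : e (t + 3) = X.se Q K cS x (L0 + t + 3) := by
      simp only [hedef, hL0]
      congr 1; ring
    rw [e1]
    exact h1
  · -- her
    intro x' l q hd hl' hq1 hq2 h1 h2 h3
    have hq0 : 0 < q := lt_of_lt_of_le (by positivity) hq1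
    rw [hexpT] at hl'
    have hl0 : l ≤ 0 := Real.exp_le_one_iff.1 (by linarith)
    refine E.her hCμ hβ hq0 hl0 ?_ h1 h2 h3
    have h4 : √(cU * Par_504.Dmin m a X.D) ≤ min q 1 := le_min (hyq q hq1) k10
    have h5 := mul_le_mul_of_nonneg_left h4 hβ
    rw [hyβ] at h5
    have hsD := Real.sqrt_nonneg X.D
    calc X.δ * √X.D * Real.exp l ≤ 1 * √X.D * (4 * st) := by
          gcongr
          linarith
      _ = 4 * st * √X.D := by ring
      _ ≤ _ := h5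
  · -- herw
    intro x' l q hd hl' hq1 hq2 h1 h2 h3
    have hq0 : 0 < q := lt_of_lt_of_le (by positivity) hq1
    rw [hexpT] at hl'
    unfold thwR
    rw [← hst]
    refine E.herw hCμ hl' hq0 ?_ h3
    have h5 := mul_le_mul_of_nonneg_left (hyq q hq1) hβ
    rw [hyβ] at h5
    linarith
  · -- hms
    intro x' l0 l1 lam hd hl1' hl2' hl01 hq hlen hlam hlam1 hen hA l hl'
    have hexp4 : Real.exp (Real.log 4) = 4 := Real.exp_log (by norm_num)
    have hE1 : s0Of m a X.D * Lam X.D * 4 ≤ Real.exp l1 := by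
      have h1 := Real.exp_le_exp.2 hl1'
      rwa [Real.exp_add, hexpa, hexp4] at h1
    have hE2 : Real.exp l1 ≤ st * 4 := by
      have h1 := Real.exp_le_exp.2 hl2'
      rwa [Real.exp_add, hexpT, hexp4] at h1
    have hsq := hbot.sq
    have hsD := Real.sqrt_nonneg X.D
    have h1 : l1 - l0 ≤ l1 + Real.log 4 - l0 := by linarith
    refine hCμd ▸ E.hms (x' := x') ?_ hl01 (by linarith) (by linarith) hlam (fun l hl => hen l
      ⟨hl.1, by linarith [hl.2]⟩) ((mul_le_mul_of_nonneg_left h1 hlam).trans hA) ?_ l hl'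
    · have h2 : ‖x'‖ ≤ ‖x‖ + dist x x' := by
        rw [dist_comm, dist_eq_norm]
        have := norm_add_le x (x' - x)
        rwa [add_sub_cancel] at this
      linarith
    · rw [Real.sq_sqrt hD0.le]
      refine le_trans ?_ k6
      have h3 : (((3:ℝ) / 4) ^ 4)⁻¹ * Real.exp (m * 1) * (4 * 12 * X.δ * X.D) =
          (((3:ℝ) / 4) ^ 4)⁻¹ * Real.exp (m * 1) * (4 * 12) * (X.δ * X.D) := by ring
      rw [h3]
      have h4 := hX.δ0
      exact mul_le_mul_of_nonneg_left (by linarith) (by positivity)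
  · -- hdr
    intro τ₁ τ₂ q h1 h11 h12 h2 hq hq2 hqe p
    have hτ2 : 1 ≤ τ₂ := by linarith
    have hUτ : U a0 ≤ U τ₂ := hUm _ _ le_rfl (by linarith) h2
    have hUτ2 : U τ₂ ≤ U T := hUm _ _ (by linarith) h2 le_rfl
    have hq1 : q ≤ 1 := by
      have h3 : q ^ 2 ≤ 1 := by
        rw [hq2]
        refine le_trans ?_ k11
        have h30 : 0 ≤ τ₂ := zero_le_one.trans hτ2
        have h31 : U τ₂ * τ₂ ≤ U T * T := mul_le_mul hUτ2 h2 h30 hUT0
        exact mul_le_mul_of_nonneg_left h31 (sq_nonneg M)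
      exact (sq_le_one_iff₀ hq.le).1 h3
    have hqD : cU * Par_504.Dmin m a X.D ≤ q ^ 2 := by
      rw [hq2]
      have h30 : 0 < U τ₂ := hUa.trans_le hUτ
      have h3 : U τ₂ * 1 ≤ U τ₂ * τ₂ := mul_le_mul_of_nonneg_left hτ2 h30.le
      rw [mul_one] at h3
      have h4 : 1 * (U τ₂ * τ₂) ≤ M ^ 2 * (U τ₂ * τ₂) :=
        mul_le_mul_of_nonneg_right (hM1.trans hMM) (h30.le.trans h3)
      rw [one_mul] at h4
      exact hUa'.trans (hUτ.trans (h3.trans h4))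
    obtain ⟨θ₂, hθ₂, hθT, hdr⟩ := hD X hX hlD x hx q hq hq1 hqD
    have h5 := hdr_of (f := fun l => Nav (dd m (tauOf a X.D)) X.V X.π X.κ w0.θ' x l (bump p q))
      (b := b) hC₄ hC₆ hθ₂ hb hA0 hCR hR0 hder ?_ ?_ hMa hMb hA4 hA5 (by rw [hT]; exact hθT) h1 h11
      h12 h2 hq hq2 hqe (by
        have := hdr p
        rw [← hL0, ← ha0, ← hT] at this
        exact this)
    · refine h5.trans (le_of_eq ?_)
      rw [hbd, hB1d]
      field_simp
    · have h6 := hu.U0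
      have e1 : U (a0 - Real.log 4) = X.sU Q K cS x (Real.log (s0Of m a X.D) +
          Real.log (Lam X.D) - Real.log 4) := by
        simp only [hUdef, ha0]
        congr 1; ring
      rw [e1]; exact h6
    · intro t ht
      have h6 := hu.Ue t (by rw [← ha0, ← hT]; exact ht)
      have e1 : U (t + Real.log 4 + 1 / 2) = X.sU Q K cS x (Real.log (s0Of m a X.D) + t +
          Real.log 4 + 1 / 2) := by
        simp only [hUdef]
        congr 1; ring
      have e2 : e (t + 3) = X.se Q K cS x (Real.log (s0Of m a X.D) + t + 3) := by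
        simp only [hedef]
        congr 1; ring
      rw [e1, e2]; exact h6
  · -- hmass
    intro t ht
    have hE1 : s0Of m a X.D * Lam X.D ≤ Real.exp (L0 + t) := by
      rw [← hexpa]
      exact Real.exp_le_exp.2 (by linarith [ht.1])
    have hE2 : Real.exp (L0 + t) ≤ st := by
      rw [← hexpT]
      exact Real.exp_le_exp.2 (by linarith [ht.2])
    exact E.hmass hC (l := L0 + t) (by linarith [ht.1]) (by linarith [ht.2])
      (mass_pos_sit hX hcS hx) (hbot.ρ.trans (by linarith)) (by linarith)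
  · -- hb1
    unfold b1
    rw [div_lt_div_iff₀ (by positivity) hC5]
    have h2 : 0 < c0 / 4 ^ m * C₅ := by positivity
    clear * - h2
    nlinarith
  · rw [hexpT]; exact k1
  · have e1 : Real.exp (2 * (L0 + a0)) = (s0Of m a X.D * Lam X.D) ^ 2 := by
      rw [exp_mul_sq, hexpa]
    rw [e1]; exact k2
  · unfold thwR
    have := hX.δ0
    have := etaC_nonneg
    positivity
  · exact k3
  · exact k4
  · rw [← hB1d]; exact k5
  · rw [← hB1d]; exact hA1
  · intro i hi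
    have := hτ i hi
    rw [ha0, hT]
    exact this
  · intro i hi
    exact hτe i hi

end Crest.Agent.R234.Rn_870
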