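import Crest.Agent.R234.Well9_761
import Crest.Agent.R234.Wi5_870
import Crest.Agent.R234.Wfl1_214
import Crest.Agent.R234.We12_822
import Crest.Agent.R234.Shp5_98

/-!
Row 234, VF-N8AV (helper761), file 10: supply lemmas in the class `CylAS` for N8 (and N9) at an
averaged contact centre.
-/

set_option autoImplicit false
set_option linter.unusedSectionVars false

open MeasureTheory Set Function Filter Topology Metric
open Crest.GeometryTopology.Submanifold
open Crest.Agent.R234.Vf_884 Crest.Agent.R234.Ar_870 Crest.Agent.R234.Cy_870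
open Crest.Agent.R234.Wi_870 Crest.Agent.R234.Asl_214 Crest.Agent.R234.Avg_387
open scoped ENNReal NNReal InnerProductSpace

noncomputable section

namespace Crest.Agent.R234.Well_761

section abstr
variable {H : Type*} [NormedAddCommGroup H] [NormedSpace ℝ H] [FiniteDimensional ℝ H]
  [MeasurableSpace H] [BorelSpace H]
variable {W : Type*} [NormedAddCommGroup W] [InnerProductSpace ℝ W] [MeasurableSpace W]
  [BorelSpace W]
variable {m : ℕ} {κ : ℝ → ℝ} {Kκ cκ : ℝ} {mu en : Measure (H × W)} {K : ℝ} {x₀ : H} {ρ₀ : ℝ}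

theorem WFlow.mono {erw : H → ℝ → ℝ → ℝ} {K' θ₁ θ₁' ρ₁ : ℝ}
    (h : WFlow m κ mu en erw K θ₁ x₀ ρ₀) (hκ : Ker κ Kκ cκ) (hK : K ≤ K') (hθ : θ₁ ≤ θ₁')
    (hρ : ρ₁ ≤ ρ₀) : WFlow m κ mu en erw K' θ₁' x₀ ρ₁ where
  K0 := h.K0.trans hK
  θ0 := h.θ0.trans hθ
  flow x l hx C q hq hC := by
    obtain ⟨d, h1, h2⟩ := h.flow x l (hx.trans hρ) C q hq hC
    refine ⟨d, h1, h2.trans ?_⟩
    have h3 : 0 ≤ nu m κ mu x l (wells C q) := nu_nonneg hκ x l (wells_nonneg hq hC)
    have h4 := mul_le_mul_of_nonneg_right hθ h3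
    have h5 : 0 ≤ (Real.exp (2 * l) + q ^ 2) * Real.exp (-(m * l)) *
        (en (cyl x (Real.exp l) univ)).toReal := by
      have : 0 ≤ (en (cyl x (Real.exp l) univ)).toReal := ENNReal.toReal_nonneg
      positivity
    have h6 := mul_le_mul_of_nonneg_right hK h5
    have h7 : ∀ a : ℝ, a * (Real.exp (2 * l) + q ^ 2) * Real.exp (-(m * l)) *
        (en (cyl x (Real.exp l) univ)).toReal = a * ((Real.exp (2 * l) + q ^ 2) *
        Real.exp (-(m * l)) * (en (cyl x (Real.exp l) univ)).toReal) := fun a => by ring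
    rw [h7, h7]
    linarith

theorem nu_one_ge (hκ : Ker κ Kκ cκ) {x y : H} {r l : ℝ} (hfin : mu (cyl y (Real.exp l) univ) ≠ ⊤)
    (hr : r + dist x y ≤ Real.exp l / 2) :
    Real.exp (-(m * l)) * (cκ * (mu (cyl x r univ)).toReal) ≤
      nu m κ mu y l (fun _ : W => (1 : ℝ)) := by
  have hB : MeasurableSet (cyl x r (univ : Set W)) := cyl_meas _ _ MeasurableSet.univ
  have hsub : cyl x r (univ : Set W) ⊆ cyl y (Real.exp l) univ := by
    refine prod_mono (closedBall_subset_closedBall' ?_) le_rfl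
    have := Real.exp_pos l
    linarith
  have hfin2 : mu (cyl x r univ) ≠ ⊤ := ne_top_of_le_ne_top hfin (measure_mono hsub)
  have hint := kerF_integrable (W := W) hκ (F := fun _ => (1 : ℝ)) measurable_const (M := 1)
    (fun _ => by simp) hfin
  have key : cκ * (mu (cyl x r univ)).toReal ≤
      ∫ z : H × W, κ (dist z.1 y * Real.exp (-l)) * 1 ∂mu := by
    have e1 : cκ * (mu (cyl x r univ)).toReal = ∫ _z in cyl x r (univ : Set W), cκ ∂mu := by
      rw [setIntegral_const, smul_eq_mul, mul_comm]; rfl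
    rw [e1, ← integral_indicator hB]
    refine integral_mono ((integrable_indicator_iff hB).2 (integrableOn_const hfin2)) hint ?_
    intro z
    simp only
    by_cases hz : z ∈ cyl x r (univ : Set W)
    · rw [indicator_of_mem hz, mul_one]
      refine hκ.ge _ (by positivity) ?_
      have h1 : dist z.1 x ≤ r := mem_closedBall.1 hz.1
      have h2 := dist_triangle z.1 x y
      rw [Real.exp_neg, ← div_eq_mul_inv, div_le_iff₀ (Real.exp_pos l)]
      linarith
    · rw [indicator_of_notMem hz, mul_one]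
      exact hκ.nonneg _
  unfold nu
  exact mul_le_mul_of_nonneg_left key (Real.exp_pos _).le

end abstr

variable {m n k : ℕ} {π : Euc k →L[ℝ] Euc m} {κ : Euc k →L[ℝ] Euc n} {x x₀ : Euc m}
  {R h₀ δ τ ρ₀ : ℝ} {V W : Measure (Euc k × L k)} {g g1 g2 : ℝ → ℝ} {d : Euc m → ℝ}

/-- the energy measure of a cylinder is bounded by the kernel energy at a near centre -/
theorem enOf_cyl_le_ee {y : Euc m} {L₀ : ℝ} (h : Fr V π κ y L₀) (hg : Prof g g1 g2)
    (hg0 : ∀ t, 0 ≤ t → 0 ≤ g t) {cg ρ : ℝ} (hcg : 0 < cg) (hρ : ρ ≤ 1)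
    (hgc : ∀ t, 0 ≤ t → t ≤ ρ ^ 2 → cg ≤ g t) {r l : ℝ}
    (hr : r + dist x y ≤ ρ * Real.exp l) (hl : l < L₀) :
    (enOf V π κ (cyl x r univ)).toReal ≤
      cg⁻¹ * (Real.exp ((m - 2) * l) * ee V π y g l) := by
  have hcm : MeasurableSet (cyl x r (univ : Set (Euc n))) :=
    Metric.isClosed_closedBall.measurableSet.prod MeasurableSet.univ
  have hpre : MeasurableSet (bh π κ ⁻¹' cyl x r (univ : Set (Euc n))) :=
    measurable_bh (m := m) π κ hcm
  have hy : ∀ p ∈ bh π κ ⁻¹' cyl x r (univ : Set (Euc n)), ‖π p.1 - y‖ ≤ ρ * Real.exp l := by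
    intro p hp
    have h1 : dist (π p.1) x ≤ r := by
      have := hp.1
      rwa [Metric.mem_closedBall, bh] at this
    have h2 := dist_triangle (π p.1) x y
    rw [← dist_eq_norm]
    linarith
  have hsub1 : bh π κ ⁻¹' cyl x r (univ : Set (Euc n)) ⊆
      {p | ‖π p.1 - y‖ ^ 2 < Real.exp (2 * L₀)} := by
    intro p hp
    have h1 := hy p hp
    have h2 : ‖π p.1 - y‖ ≤ Real.exp l :=
      h1.trans (mul_le_of_le_one_left (Real.exp_pos l).le hρ)
    have h3 : ‖π p.1 - y‖ ^ 2 ≤ Real.exp l ^ 2 := pow_le_pow_left₀ (norm_nonneg _) h2 2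
    rw [← Real.exp_nat_mul] at h3
    refine lt_of_le_of_lt h3 (Real.exp_lt_exp.2 ?_)
    push_cast
    linarith
  have hint : IntegrableOn (fun p => tl π p.2) (bh π κ ⁻¹' cyl x r (univ : Set (Euc n))) V :=
    (integrableOn_tl h).mono_set hsub1
  have hnn : ∀ᵐ p ∂V, 0 ≤ tl π p.2 := by
    filter_upwards [h.conc] with p hp
    exact tl_nonneg h.sp.hh (isPr_of_G hp)
  have e1 : enOf V π κ (cyl x r (univ : Set (Euc n))) =
      ∫⁻ p in bh π κ ⁻¹' cyl x r (univ : Set (Euc n)), ENNReal.ofReal (tl π p.2) ∂V := by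
    unfold enOf
    rw [Measure.map_apply (measurable_bh π κ) hcm, withDensity_apply _ hpre]
  rw [e1, ← ofReal_integral_eq_lintegral_ofReal hint (ae_restrict_of_ae hnn),
    ENNReal.toReal_ofReal (integral_nonneg_of_ae (ae_restrict_of_ae hnn))]
  have hI := h.integrable_c (aestronglyMeasurable_tl π V) h.tl_bound hg.k0 hl.le
  have e2 : Real.exp ((m - 2) * l) * ee V π y g l =
      ∫ p, tl π p.2 * g (Real.exp (-2 * l) * ‖π p.1 - y‖ ^ 2) ∂V := by
    unfold ee
    rw [← mul_assoc, ← Real.exp_add]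
    have : ((m : ℝ) - 2) * l + (2 - m) * l = 0 := by ring
    rw [this, Real.exp_zero, one_mul]
  rw [e2, ← integral_const_mul, ← integral_indicator hpre]
  refine integral_mono_ae ((integrable_indicator_iff hpre).2 hint) (hI.const_mul _) ?_
  filter_upwards [hnn] with p hp
  by_cases hps : p ∈ bh π κ ⁻¹' cyl x r (univ : Set (Euc n))
  · rw [indicator_of_mem hps]
    have h1 := hy p hps
    have h2 : Real.exp (-2 * l) * ‖π p.1 - y‖ ^ 2 ≤ ρ ^ 2 := by
      have h3 : ‖π p.1 - y‖ ^ 2 ≤ (ρ * Real.exp l) ^ 2 := pow_le_pow_left₀ (norm_nonneg _) h1 2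
      calc Real.exp (-2 * l) * ‖π p.1 - y‖ ^ 2 ≤ Real.exp (-2 * l) * (ρ * Real.exp l) ^ 2 :=
            mul_le_mul_of_nonneg_left h3 (Real.exp_pos _).le
        _ = ρ ^ 2 * (Real.exp (-2 * l) * Real.exp l ^ 2) := by ring
        _ = ρ ^ 2 := by
            rw [← Real.exp_nat_mul, ← Real.exp_add]
            have : -2 * l + ((2 : ℕ) : ℝ) * l = 0 := by push_cast; ring
            rw [this, Real.exp_zero, mul_one]
    have h4 := hgc _ (by positivity) h2
    have h5 : 1 ≤ cg⁻¹ * g (Real.exp (-2 * l) * ‖π p.1 - y‖ ^ 2) := by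
      rw [← div_eq_inv_mul, le_div_iff₀ hcg, one_mul]
      exact h4
    calc tl π p.2 = tl π p.2 * 1 := (mul_one _).symm
      _ ≤ tl π p.2 * (cg⁻¹ * g (Real.exp (-2 * l) * ‖π p.1 - y‖ ^ 2)) :=
          mul_le_mul_of_nonneg_left h5 hp
      _ = _ := by ring
  · rw [indicator_of_notMem hps]
    have := hg0 (Real.exp (-2 * l) * ‖π p.1 - y‖ ^ 2) (by positivity)
    have : 0 < cg⁻¹ := inv_pos.2 hcg
    positivity

/-- ... by the averaged energy -/
theorem enOf_cyl_le_eea (hfr : ∀ x L, Fr V π κ x L) (hτ : 0 ≤ τ) (hd : CW d τ)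
    (hg : Prof g g1 g2) (hg0 : ∀ t, 0 ≤ t → 0 ≤ g t) {cg ρ : ℝ} (hcg : 0 < cg) (hρ : ρ ≤ 1)
    (hgc : ∀ t, 0 ≤ t → t ≤ ρ ^ 2 → cg ≤ g t) {r l : ℝ} (hr : r + τ ≤ ρ * Real.exp l) :
    (enOf V π κ (cyl x r univ)).toReal * ∫ h, d h ≤
      cg⁻¹ * (Real.exp ((m - 2) * l) * eea d V π g x l) := by
  have hl1 : l < l + 1 := by linarith
  have hco1 : CO x τ (l + 1) (fun (_ : Euc m) (_ : ℝ) => (enOf V π κ (cyl x r univ)).toReal) :=
    CO_const _ continuous_const
  have hco2 : CO x τ (l + 1) (fun y t => ee V π y g t) := (afr_of hfr hτ x (l + 1)).co_ee hg.k0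
  have h1 := av_mono hd hco1 (hco2.const_mul (cg⁻¹ * Real.exp ((m - 2) * l))) hl1 (by
    intro y hy
    have h2 := enOf_cyl_le_ee (x := x) (hfr y (l + 1)) hg hg0 hcg hρ hgc (r := r) (l := l) (by
      have : dist y x ≤ τ := mem_closedBall.1 hy
      rw [dist_comm x y]
      linarith) hl1
    rw [← mul_assoc] at h2
    exact h2)
  rw [av_const, av_const_mul, mul_assoc] at h1
  exact h1

/-- lower bound of the averaged mass -/
theorem le_Nav (hfr : ∀ x L, Fr V π κ x L) (hτ : 0 ≤ τ) (hd : CW d τ) (hg : Prof g g1 g2)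
    {Kκ cκ : ℝ} (hκ : Ker (kap g1) Kκ cκ) {r l : ℝ} (hr : r + τ ≤ Real.exp l / 2) :
    Real.exp (-(m * l)) * (cκ * (muOf V π κ (cyl x r univ)).toReal) * ∫ h, d h ≤
      Nav d V π κ g1 x l (fun _ => (1 : ℝ)) := by
  have hl1 : l < l + 1 := by linarith
  have hco1 : CO x τ (l + 1) (fun (_ : Euc m) (_ : ℝ) =>
      Real.exp (-(m * l)) * (cκ * (muOf V π κ (cyl x r univ)).toReal)) :=
    CO_const _ continuous_const
  have hco2 := co_nuG (κ := κ) hfr hτ hg (F := fun _ => (1 : ℝ)) measurable_const (M := 1)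
    (fun _ => by simp) x (l + 1)
  have h1 := av_mono hd hco1 hco2 hl1 (by
    intro y hy
    have hfin : muOf V π κ (cyl y (Real.exp l) univ) ≠ ⊤ := by
      have hcm : MeasurableSet (cyl y (Real.exp l) (univ : Set (Euc n))) :=
        Metric.isClosed_closedBall.measurableSet.prod MeasurableSet.univ
      unfold muOf
      rw [Measure.map_apply (measurable_bh π κ) hcm]
      refine ne_top_of_le_ne_top (hfr y (l + 1)).fin.ne (measure_mono ?_)
      intro p hp
      have h4 : ‖π p.1 - y‖ ≤ Real.exp l := by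
        have := hp.1
        rwa [Metric.mem_closedBall, bh, dist_eq_norm] at this
      have h5 : ‖π p.1 - y‖ ^ 2 ≤ Real.exp l ^ 2 := pow_le_pow_left₀ (norm_nonneg _) h4 2
      rw [← Real.exp_nat_mul] at h5
      refine lt_of_le_of_lt h5 (Real.exp_lt_exp.2 ?_)
      push_cast
      linarith
    have h2 := nu_one_ge (W := Euc n) (m := m) (mu := muOf V π κ) hκ (x := x) (y := y) (r := r)
      (l := l) hfin (by
        have : dist y x ≤ τ := mem_closedBall.1 hy
        rw [dist_comm x y]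
        linarith)
    rw [nu_eq hg V π κ y l measurable_const] at h2
    exact h2)
  rw [av_const] at h1
  exact h1

/-- the averaged well height -/
theorem IFa_eq_Nav (d : Euc m → ℝ) (V : Measure (Euc k × L k)) (π : Euc k →L[ℝ] Euc m)
    (κ : Euc k →L[ℝ] Euc n) (F : Euc n → ℝ) (g1 : ℝ → ℝ) (x : Euc m) (l : ℝ) :
    IFa d V π κ F g1 x l = 2 * Nav d V π κ g1 x l F := by
  unfold IFa Nav
  rw [← av_const_mul]
  congr 1
  funext y t
  rw [IF_eq_nuG]
  ring

/-- the additive error of the wells -/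
theorem erwF_le {C Cμ : ℝ} (hC : 0 ≤ C) (h0 : 0 ≤ δ) (hCμ : 0 ≤ Cμ) {l q : ℝ}
    (hmu : muOf W π κ (cyl x (Real.exp l) univ) ≤ ENNReal.ofReal (Cμ * Real.exp (m * l)))
    (h1 : h₀ ^ 2 * Real.exp (2 * l) ≤ q ^ 2) (h2 : Real.exp (2 * l) ≤ 1) (h3 : h₀ ^ 2 ≤ 1) :
    CylAS.erwF W π κ C δ h₀ x l q ≤ 3 * C * Cμ * δ * q ^ 2 := by
  have h4 : (muOf W π κ (cyl x (Real.exp l) univ)).toReal ≤ Cμ * Real.exp (m * l) :=
    ENNReal.toReal_le_of_le_ofReal (by positivity) hmu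
  have h5 : Real.exp (-(m * l)) * (muOf W π κ (cyl x (Real.exp l) univ)).toReal ≤ Cμ := by
    calc Real.exp (-(m * l)) * (muOf W π κ (cyl x (Real.exp l) univ)).toReal
        ≤ Real.exp (-(m * l)) * (Cμ * Real.exp (m * l)) :=
          mul_le_mul_of_nonneg_left h4 (Real.exp_pos _).le
      _ = Cμ * (Real.exp (-(m * l)) * Real.exp (m * l)) := by ring
      _ = Cμ := by rw [← Real.exp_add, neg_add_cancel, Real.exp_zero, mul_one]
  have h6 : (h₀ ^ 2 + q ^ 2) * Real.exp (2 * l) + h₀ ^ 2 * q ^ 2 ≤ 3 * q ^ 2 := by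
    have h7 : q ^ 2 * Real.exp (2 * l) ≤ q ^ 2 * 1 := mul_le_mul_of_nonneg_left h2 (sq_nonneg q)
    have h8 : h₀ ^ 2 * q ^ 2 ≤ 1 * q ^ 2 := mul_le_mul_of_nonneg_right h3 (sq_nonneg q)
    linarith
  unfold CylAS.erwF
  calc C * δ * ((h₀ ^ 2 + q ^ 2) * Real.exp (2 * l) + h₀ ^ 2 * q ^ 2) *
        (Real.exp (-(m * l)) * (muOf W π κ (cyl x (Real.exp l) univ)).toReal)
      ≤ C * δ * (3 * q ^ 2) * Cμ :=
        mul_le_mul (mul_le_mul_of_nonneg_left h6 (by positivity)) h5 (by positivity)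
          (by positivity)
    _ = _ := by ring

/-- **mass at good centres** (`hms` of `hnet` and `hrun`) in the class `CylAS` -/
theorem hms_as (h : CylAS W π κ x₀ R h₀ δ) (h0 : 0 ≤ δ) (hδ : δ ≤ 1) (hh : 0 ≤ h₀)
    (hg : Prof g g1 g2) (hg0 : ∀ t, 0 ≤ t → 0 ≤ g t) {K : ℝ} (hK : Bd g g1 K) {c : ℝ}
    (hc : 0 < c) (hgc : ∀ t, 0 ≤ t → t ≤ Real.exp (-2 * (1 / 4)) → c ≤ g t) {l0 l1 a lam C1 : ℝ}
    (hl : l0 ≤ l1) (ha : 0 ≤ a) (hl1 : l1 ≤ 0) (hdom : dist x x₀ + Real.exp l1 ≤ R)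
    (hlam : 0 ≤ lam) (hC1 : 0 ≤ C1) (hA : lam * (l1 + a - l0) ≤ 1)
    (hen : ∀ t ∈ Icc l0 (l1 + a), (enOf W π κ (cyl x (Real.exp t) univ)).toReal ≤
      lam * Real.exp (m * t))
    (htop : We_822.muR W π κ x l1 ≤ C1 * Real.exp (m * l1))
    (hsmall : c⁻¹ * Real.exp (m * (1 / 4)) * (4 * K * δ * h₀ ^ 2) * (l1 - l0) ≤ 1 / 2) :
    ∀ l ∈ Icc l0 l1, muOf W π κ (cyl x (Real.exp l) univ) ≤
      ENNReal.ofReal (We_822.CMU m c (1 / 4) K C1 1 * Real.exp (m * l)) := by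
  intro l hl'
  have hA' : lam * (l1 - l0) ≤ 1 :=
    (mul_le_mul_of_nonneg_left (by linarith) hlam).trans hA
  have h1 := We_822.mass_as h h0 hδ hh hg hg0 hK hc (by norm_num : (0:ℝ) ≤ 1 / 4) hgc hl hl1
    (by rw [← dist_eq_norm]; exact hdom) hlam hC1 hA'
    (fun t ht => hen t ⟨ht.1, ht.2.trans (by linarith)⟩) htop hsmall l hl'
  unfold We_822.muR at h1
  rw [← ENNReal.ofReal_toReal (a := muOf W π κ (cyl x (Real.exp l) univ))]
  · exact ENNReal.ofReal_le_ofReal h1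
  · have : IsFiniteMeasure W := ⟨h.fin⟩
    unfold muOf
    have : IsFiniteMeasure (W.map (bh π κ)) := inferInstance
    exact measure_ne_top _ _

end Crest.Agent.R234.Well_761
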