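import Crest.Agent.R234.We12_822
import Crest.Agent.R234.Well10_761
import Crest.Agent.R234.Shp6_98

/-!
# Row 234 (helper98): the drift at the contact centre in the class `CylAS`

`tb`, `en` at the near centres and scale `l` by the averaged energy at scale `l + 1/2`;
`drift_as`: `|d/dl Nav F| ≤ C q √RRa(l) + C q √ε⁺ + C ε⁺ + C θ q²`, `ε⁺ = δ eea(l + 1/2)`.
-/

set_option autoImplicit false

open MeasureTheory Set Function Filter Topology Metric
open Crest.GeometryTopology.Submanifold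
open Crest.Agent.R234.Vf_884 Crest.Agent.R234.Ar_870 Crest.Agent.R234.Cy_870
open Crest.Agent.R234.Asl_214 Crest.Agent.R234.Wi_870 Crest.Agent.R234.We_822
open Crest.Agent.R234.Avg_387 hiding BB
open scoped ENNReal NNReal InnerProductSpace

noncomputable section

namespace Crest.Agent.R234.Rni_98

variable {m n k : ℕ} {π : Euc k →L[ℝ] Euc m} {κ : Euc k →L[ℝ] Euc n} {δ : ℝ}
  {x₀ x y : Euc m} {R h₀ τ K : ℝ} {W : Measure (Euc k × L k)} {g g1 g2 : ℝ → ℝ} {d : Euc m → ℝ}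

/-- the constant in `tb ≤ CE eea (l + 1/2)` -/
def CE (m : ℕ) (cg M : ℝ) : ℝ := Real.exp ((m - 2) / 2) * (cg⁻¹ * M⁻¹)

theorem CE_nonneg {cg M : ℝ} (hcg : 0 < cg) (hM : 0 < M) : 0 ≤ CE m cg M := by
  unfold CE
  positivity

/-- energy of the solid cylinders at the near centres -/
theorem en_le_eea (h : CylAS W π κ x₀ R h₀ δ) (hτ : 0 ≤ τ) (hd : CW d τ) (hg : Prof g g1 g2)
    (hg0 : ∀ t, 0 ≤ t → 0 ≤ g t) {cg : ℝ} (hcg : 0 < cg)
    (hgc : ∀ t, 0 ≤ t → t ≤ Real.exp (-(1 / 4)) ^ 2 → cg ≤ g t) (hM : 0 < ∫ h, d h) {l : ℝ}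
    (hτl : 8 * τ ≤ Real.exp l) (hy : y ∈ closedBall x τ) :
    (enOf W π κ (Well_761.cyl y (Real.exp l) univ)).toReal ≤
      Real.exp ((m - 2) * l) * (CE m cg (∫ h, d h) * eea d W π g x (l + 1 / 2)) := by
  have hyx : dist y x ≤ τ := mem_closedBall.1 hy
  have hexp : 1 + 1 / 4 ≤ Real.exp (1 / 4 : ℝ) := by
    have := Real.add_one_le_exp (1 / 4 : ℝ)
    linarith
  have e0 : Real.exp (-(1 / 4)) * Real.exp (l + 1 / 2) = Real.exp (1 / 4) * Real.exp l := by
    rw [← Real.exp_add, ← Real.exp_add]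
    congr 1
    ring
  have hl0 := Real.exp_pos l
  have h1 := Well_761.enOf_cyl_le_eea (π := π) (κ := κ) (V := W) (x := x) (fun x L => h.fr x L) hτ hd
    hg hg0 hcg (ρ := Real.exp (-(1 / 4))) (Real.exp_le_one_iff.2 (by norm_num)) hgc
    (r := Real.exp l + τ) (l := l + 1 / 2) (by
      rw [e0]
      nlinarith)
  have h2 : (enOf W π κ (Well_761.cyl y (Real.exp l) univ)).toReal ≤
      (enOf W π κ (Well_761.cyl x (Real.exp l + τ) univ)).toReal := by
    refine ENNReal.toReal_mono (enOf_cyl_ne_top (fun L => h.fr x L) _) (measure_mono ?_)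
    exact prod_mono (closedBall_subset_closedBall' (by linarith)) le_rfl
  have h3 : (enOf W π κ (Well_761.cyl x (Real.exp l + τ) univ)).toReal ≤
      (∫ h, d h)⁻¹ * (cg⁻¹ * (Real.exp ((m - 2) * (l + 1 / 2)) * eea d W π g x (l + 1 / 2))) := by
    rw [← div_eq_inv_mul, le_div_iff₀ hM]
    exact h1
  refine h2.trans (h3.trans (le_of_eq ?_))
  have e1 : Real.exp ((m - 2) * (l + 1 / 2)) = Real.exp ((m - 2) * l) * Real.exp ((m - 2) / 2) := by
    rw [← Real.exp_add]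
    congr 1
    ring
  rw [e1]
  unfold CE
  ring

/-- scaled tilt energy at the near centres -/
theorem tb_le_eea (h : CylAS W π κ x₀ R h₀ δ) (hτ : 0 ≤ τ) (hd : CW d τ) (hg : Prof g g1 g2)
    (hg0 : ∀ t, 0 ≤ t → 0 ≤ g t) {cg : ℝ} (hcg : 0 < cg)
    (hgc : ∀ t, 0 ≤ t → t ≤ Real.exp (-(1 / 4)) ^ 2 → cg ≤ g t) (hM : 0 < ∫ h, d h) {l : ℝ}
    (hτl : 8 * τ ≤ Real.exp l) (hy : y ∈ closedBall x τ) :
    tb W π y l ≤ CE m cg (∫ h, d h) * eea d W π g x (l + 1 / 2) := by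
  have h1 := en_le_eea h hτ hd hg hg0 hcg hgc hM hτl hy
  have h2 := tb_le_enR h y l
  have h3 := mul_le_mul_of_nonneg_left h1 (Real.exp_pos ((2 - m) * l)).le
  have e1 : Real.exp ((2 - m) * l) * Real.exp ((m - 2) * l) = 1 := by
    rw [← Real.exp_add]
    have : (2 - m : ℝ) * l + (m - 2) * l = 0 := by ring
    rw [this, Real.exp_zero]
  refine h2.trans (h3.trans (le_of_eq ?_))
  rw [← mul_assoc, e1, one_mul]

/-- the error `erAS` with a bound of the energy -/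
theorem erAS_le2 (h : CylAS W π κ x₀ R h₀ δ) (hK : 0 ≤ K) (h0 : 0 ≤ δ) (hδ : δ ≤ 1) (hh : 0 ≤ h₀)
    {l q ε C Mb θ : ℝ} (hq : 0 < q) (hl0 : l ≤ 0) (hε : 0 ≤ ε) (hε1 : ε ≤ 1) (hC : 0 ≤ C)
    (htb : tb W π x l ≤ C * ε) (hmb : mb W π x l ≤ Mb)
    (hθ1 : Real.exp (-2 * l) * ε ≤ θ) (hθ2 : h₀ ^ 2 ≤ θ) (hθ3 : h₀ * Real.exp l ≤ θ * q)
    (hθ : θ ≤ 1) :
    erAS W π K δ h₀ x l q ≤ (K * (5 * √(C * Mb) + BB * √(C * Mb) + C)) * q * √(δ * ε) +
      (K * BB * C) * (δ * ε) + (K * (8 * C + 13 * Mb)) * (θ * q ^ 2) := by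
  have hs : Real.exp l ≤ 1 := Real.exp_le_one_iff.2 hl0
  have hs0 := Real.exp_pos l
  have ht := h.tb_nonneg x l
  have hm := mb_nonneg (W := W) (π := π) x l
  have hMb : 0 ≤ Mb := hm.trans hmb
  have hBB := BB_one
  have hθ0 : 0 ≤ θ := (sq_nonneg h₀).trans hθ2
  have hsd := Real.sqrt_nonneg δ
  have hdd : √δ * √δ = δ := Real.mul_self_sqrt h0
  have hδs : δ ≤ √δ := le_sqrt_self h0 hδ
  have hδ1 : √δ ≤ 1 := by
    rw [show (1:ℝ) = √1 from Real.sqrt_one.symm]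
    exact Real.sqrt_le_sqrt hδ
  have hee : √ε * √ε = ε := Real.mul_self_sqrt hε
  have hse := Real.sqrt_nonneg ε
  have hse1 : √ε ≤ 1 := by
    rw [show (1:ℝ) = √1 from Real.sqrt_one.symm]
    exact Real.sqrt_le_sqrt hε1
  have hde : √(δ * ε) = √δ * √ε := Real.sqrt_mul h0 ε
  set T := tb W π x l with hT
  set M := mb W π x l with hM
  set s := Real.exp l with hsdef
  -- mixed term
  have hST : √T * √M ≤ √(C * Mb) * √ε := by
    rw [← Real.sqrt_mul ht, ← Real.sqrt_mul (by positivity)]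
    refine Real.sqrt_le_sqrt ?_
    calc T * M ≤ (C * ε) * Mb := mul_le_mul htb hmb hm (by positivity)
      _ = C * Mb * ε := by ring
  have hSM : 0 ≤ √(C * Mb) := Real.sqrt_nonneg _
  have hTM0 : 0 ≤ √T * √M := by positivity
  -- the four summands
  have a1 : 2 * (K * (3 + s)) * δ * q ^ 2 * (Real.exp (-2 * l) * T + h₀ ^ 2 * M) ≤
      K * (8 * C + 8 * Mb) * (θ * q ^ 2) := by
    have b1 : Real.exp (-2 * l) * T ≤ C * θ := by
      calc Real.exp (-2 * l) * T ≤ Real.exp (-2 * l) * (C * ε) :=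
            mul_le_mul_of_nonneg_left htb (Real.exp_pos _).le
        _ = C * (Real.exp (-2 * l) * ε) := by ring
        _ ≤ C * θ := mul_le_mul_of_nonneg_left hθ1 hC
    have b2 : h₀ ^ 2 * M ≤ θ * Mb := mul_le_mul hθ2 hmb hm hθ0
    have b3 : 0 ≤ Real.exp (-2 * l) * T + h₀ ^ 2 * M := by positivity
    have b4 : 2 * (K * (3 + s)) * δ * q ^ 2 ≤ 8 * K * q ^ 2 := by
      have : 2 * (K * (3 + s)) * δ ≤ 2 * (K * (3 + 1)) * 1 := by gcongr
      nlinarith [sq_nonneg q]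
    calc _ ≤ 8 * K * q ^ 2 * (C * θ + θ * Mb) :=
          mul_le_mul b4 (add_le_add b1 b2) b3 (by positivity)
      _ = _ := by ring
  have a2 : K * (4 + s) * δ * q * (√T * √M + h₀ * s * M) ≤
      K * 5 * √(C * Mb) * q * (√δ * √ε) + 5 * K * Mb * (θ * q ^ 2) := by
    have b1 : K * (4 + s) * δ * q ≤ 5 * K * q * √δ := by
      have : K * (4 + s) * δ ≤ K * (4 + 1) * √δ := by gcongr
      nlinarith
    have b2 : K * (4 + s) * δ * q ≤ 5 * K * q := by
      have : 5 * K * q * √δ ≤ 5 * K * q * 1 := mul_le_mul_of_nonneg_left hδ1 (by positivity)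
      linarith
    have b3 : h₀ * s * M ≤ θ * q * Mb := mul_le_mul hθ3 hmb hm (by positivity)
    have b4 : 0 ≤ h₀ * s * M := by positivity
    have c1 : K * (4 + s) * δ * q * (√T * √M) ≤ 5 * K * q * √δ * (√(C * Mb) * √ε) :=
      mul_le_mul b1 hST hTM0 (by positivity)
    have c2 : K * (4 + s) * δ * q * (h₀ * s * M) ≤ 5 * K * q * (θ * q * Mb) :=
      mul_le_mul b2 b3 b4 (by positivity)
    calc _ = K * (4 + s) * δ * q * (√T * √M) + K * (4 + s) * δ * q * (h₀ * s * M) := by ring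
      _ ≤ 5 * K * q * √δ * (√(C * Mb) * √ε) + 5 * K * q * (θ * q * Mb) := add_le_add c1 c2
      _ = _ := by ring
  have a3 : K * BB * δ * h₀ * s * (√T * √M) ≤ K * BB * √(C * Mb) * q * (√δ * √ε) := by
    have b1 : h₀ * s ≤ q := by nlinarith
    have b2 : K * BB * δ * h₀ * s ≤ K * BB * √δ * q := by
      calc K * BB * δ * h₀ * s = K * BB * δ * (h₀ * s) := by ring
        _ ≤ K * BB * √δ * q := by gcongr
    calc _ ≤ K * BB * √δ * q * (√(C * Mb) * √ε) := mul_le_mul b2 hST hTM0 (by positivity)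
      _ = _ := by ring
  have a4 : K * (δ * BB + √δ * q) * T ≤ K * BB * C * (δ * ε) + K * C * q * (√δ * √ε) := by
    have b1 : K * (δ * BB + √δ * q) * T ≤ K * (δ * BB + √δ * q) * (C * ε) :=
      mul_le_mul_of_nonneg_left htb (by positivity)
    have b2 : √δ * q * (C * ε) ≤ C * q * (√δ * √ε) := by
      calc √δ * q * (C * ε) = C * q * (√δ * √ε) * √ε := by
            conv_lhs => rw [← hee]
            ring
        _ ≤ C * q * (√δ * √ε) * 1 := mul_le_mul_of_nonneg_left hse1 (by positivity)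
        _ = _ := by ring
    calc _ ≤ K * (δ * BB + √δ * q) * (C * ε) := b1
      _ = K * BB * C * (δ * ε) + K * (√δ * q * (C * ε)) := by ring
      _ ≤ K * BB * C * (δ * ε) + K * (C * q * (√δ * √ε)) := by gcongr
      _ = _ := by ring
  unfold erAS
  rw [hde]
  refine (add_le_add (add_le_add (add_le_add a1 a2) a3) a4).trans (le_of_eq ?_)
  ring

/-- constants of the drift -/
def D4 (K Mb M : ℝ) : ℝ := √(2 * K * Mb * M)

def D5 (m : ℕ) (cg K Mb M : ℝ) : ℝ :=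
  K * (5 * √(CE m cg M * Mb) + BB * √(CE m cg M * Mb) + CE m cg M) * M

def D6 (m : ℕ) (cg K M : ℝ) : ℝ := K * BB * CE m cg M * M

def D7 (m : ℕ) (cg K Mb M : ℝ) : ℝ :=
  ((K * BB + 6 * K) * CE m cg M + K * (8 * CE m cg M + 13 * Mb)) * M

/-- **the drift of the averaged functional in the class `CylAS`** -/
theorem drift_as (h : CylAS W π κ x₀ R h₀ δ) (h0 : 0 ≤ δ) (hδ : δ ≤ 1) (hh : 0 ≤ h₀)
    (hτ : 0 ≤ τ) (hd : CW d τ) (hg : Prof g g1 g2) (hg0 : ∀ t, 0 ≤ t → 0 ≤ g t)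
    (hK : Bd g g1 K) (hK' : Bd g1 g2 K) {cg : ℝ} (hcg : 0 < cg)
    (hgc : ∀ t, 0 ≤ t → t ≤ Real.exp (-(1 / 4)) ^ 2 → cg ≤ g t) (hM : 0 < ∫ h, d h)
    {l q θ Mb : ℝ} (hq : 0 < q) (hl0 : l ≤ 0) (hτl : 8 * τ ≤ Real.exp l)
    (hdom : ‖x - x₀‖ + τ + Real.exp l ≤ R)
    (hmb : ∀ y ∈ closedBall x τ, mb W π y l ≤ Mb)
    (hε1 : eea d W π g x (l + 1 / 2) ≤ 1)
    (hθ1 : Real.exp (-2 * l) * eea d W π g x (l + 1 / 2) ≤ θ) (hθ2 : h₀ ^ 2 ≤ θ)
    (hθ3 : h₀ * Real.exp l ≤ θ * q) (hθ : θ ≤ 1)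
    {F : Euc n → ℝ} {G : Euc n → Euc n} {A : Euc n → L n} (hT : Well_761.Test F G A q) :
    ∃ D, HasDerivAt (fun l => Nav d W π κ g1 x l F) D l ∧
      |D| ≤ D4 K Mb (∫ h, d h) * q * √(RRa d W π g1 x l) +
        D5 m cg K Mb (∫ h, d h) * q * √(δ * eea d W π g x (l + 1 / 2)) +
        D6 m cg K (∫ h, d h) * (δ * eea d W π g x (l + 1 / 2)) +
        D7 m cg K Mb (∫ h, d h) * (θ * q ^ 2) := by
  have : IsFiniteMeasure W := ⟨h.fin⟩
  have hK0 := hK.nonneg
  set M := ∫ h, d h with hMdef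
  set ε := eea d W π g x (l + 1 / 2) with hεdef
  set C := CE m cg M with hC
  have hC0 : 0 ≤ C := CE_nonneg hcg hM
  have hx : x ∈ closedBall x τ := mem_closedBall_self hτ
  have htb : ∀ y ∈ closedBall x τ, tb W π y l ≤ C * ε := fun y hy =>
    tb_le_eea h hτ hd hg hg0 hcg hgc hM hτl hy
  have hen : ∀ y ∈ closedBall x τ, (enOf W π κ (Well_761.cyl y (Real.exp l) univ)).toReal ≤
      Real.exp ((m - 2) * l) * (C * ε) := fun y hy =>
    en_le_eea h hτ hd hg hg0 hcg hgc hM hτl hy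
  have hε0 : 0 ≤ ε := by
    exact av_nonneg hd fun y _ => h.ee_nonneg hg y (l + 1 / 2)
  have hMb : 0 ≤ Mb := (mb_nonneg x l).trans (hmb x hx)
  have hθ0 : 0 ≤ θ := (sq_nonneg h₀).trans hθ2
  have her : ∀ y ∈ closedBall x τ, erAS W π K δ h₀ y l q ≤
      (((K * (5 * √(C * Mb) + BB * √(C * Mb) + C)) * q * √(δ * ε) +
      (K * BB * C) * (δ * ε) + (K * (8 * C + 13 * Mb)) * (θ * q ^ 2)) / q ^ 2) * q ^ 2 := by
    intro y hy
    rw [div_mul_cancel₀ _ (by positivity)]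
    exact erAS_le2 h hK0 h0 hδ hh hq hl0 hε0 hε1 hC0 (htb y hy) (hmb y hy) hθ1 hθ2 hθ3 hθ
  have hfl := flow_as (ρ₀ := R) (x₀ := x₀) h h0 hh le_rfl hg hK hK' hg0
  have e1 : Real.exp ((m - 2) * l) * (C * ε) = (Real.exp (-2 * l) * (C * ε)) * Real.exp (m * l) := by
    have : Real.exp ((m - 2) * l) = Real.exp (-2 * l) * Real.exp (m * l) := by
      rw [← Real.exp_add]
      congr 1
      ring
    rw [this]
    ring
  obtain ⟨D, hD1, hD2⟩ := drift_av (fun x L => h.fr x L) hτ hd hg (fun t ht => hK'.b0 t ht) hfl hq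
    hMb (by rw [dist_eq_norm]; exact hdom) (fun y hy => by
      have h1 : W {p | ‖π p.1 - y‖ ^ 2 < Real.exp (2 * l)} = W (ovr π y (Real.exp l)) := by
        congr 1
        ext p
        simp only [ovr, mem_ofPred_eq]
        rw [show Real.exp (2 * l) = Real.exp l ^ 2 by rw [← Real.exp_nat_mul]; norm_num]
        exact pow_lt_pow_iff_left₀ (norm_nonneg _) (Real.exp_pos l).le two_ne_zero
      rw [h1, ← ENNReal.ofReal_toReal (measure_ne_top W _)]
      refine ENNReal.ofReal_le_ofReal ?_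
      have h2 := hmb y hy
      unfold mb MB at h2
      have h3 := mul_le_mul_of_nonneg_right h2 (Real.exp_pos (m * l)).le
      have e2 : Real.exp (-m * l) * Real.exp (m * l) = 1 := by
        rw [← Real.exp_add]
        have : (-m * l + m * l : ℝ) = 0 := by ring
        rw [this, Real.exp_zero]
      calc (W (ovr π y (Real.exp l))).toReal =
          Real.exp (-m * l) * (W (ovr π y (Real.exp l))).toReal * Real.exp (m * l) := by
            linear_combination (-(W (ovr π y (Real.exp l))).toReal) * e2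
        _ ≤ _ := h3)
    (fun y hy => by rw [← e1]; exact hen y hy) her hT
  refine ⟨D, hD1, hD2.trans ?_⟩
  have h6 : Real.exp (-2 * l) * (C * ε) ≤ C * θ := by
    have := mul_le_mul_of_nonneg_left hθ1 hC0
    linarith
  have h7 : (K * BB + 6 * K) * (Real.exp (-2 * l) * (C * ε)) ≤ (K * BB + 6 * K) * (C * θ) := by
    have hBB := BB_one
    exact mul_le_mul_of_nonneg_left h6 (by positivity)
  have h8 := mul_le_mul_of_nonneg_right h7 (show 0 ≤ M * q ^ 2 by positivity)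
  have hq2 : q ^ 2 ≠ 0 := by positivity
  unfold D4 D5 D6 D7
  rw [← hC]
  have e3 : ∀ E : ℝ, ((K * BB + 6 * K) * (Real.exp (-2 * l) * (C * ε)) + E / q ^ 2) * M * q ^ 2 =
      (K * BB + 6 * K) * (Real.exp (-2 * l) * (C * ε)) * (M * q ^ 2) + E * M := by
    intro E
    field_simp
  rw [e3]
  refine (add_le_add_right (add_le_add_left h8 _) _).trans (le_of_eq ?_)
  ring

end Crest.Agent.R234.Rni_98
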