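import Crest.Agent.R234.Rni1_98
import Crest.Agent.R234.Fldc4_387
import Crest.Agent.R234.Bds6_214
import Crest.Agent.R234.Par2_504

/-!
# Row 234 (helper98): one contact centre of a situation, all data; the `U` side of NRUN

`Pk A C X Q K cS x`: the properties of 387's data at a contact centre on the window
`[log s0 - 4, log s0 + T + 5]`; `exists_pk`; `USide`: what `hrun2` needs of `U, R', e`.
-/

set_option autoImplicit false

open MeasureTheory Set Function Filter Topology Metric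
open Crest.GeometryTopology.Submanifold
open Crest.Agent.R234.Vf_884 Crest.Agent.R234.Ar_870 Crest.Agent.R234.Cy_870
open Crest.Agent.R234.Pot_425 Crest.Agent.R234.Rep_387
open Crest.Agent.R234.Raw_387 Crest.Agent.R234.N0_309 Crest.Agent.R234.Asl_214
open Crest.Agent.R234.Core_809 Crest.Agent.R234.Fld_387 Crest.Agent.R234.Wi_870
open Crest.Agent.R234.Avg_387 hiding BB
open scoped ENNReal NNReal

noncomputable section

namespace Crest.Agent.R234.Rni_98

variable {m n : ℕ} {a : ℝ}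

/-- one contact centre of a situation with all its data -/
structure Pk (A C C₁ : ℝ) (X : Sit m n a) (Q : ℕ) (K cS : ℝ) (x : Euc m) : Prop where
  m2 : 2 ≤ m
  hA : Real.exp ((m:ℝ) - 2) ≤ A
  C1 : 1 ≤ C
  C10 : 0 < C₁
  Dp : 0 < X.D
  D1 : X.D < 1
  δ0 : 0 ≤ X.δ
  T1 : 1 ≤ TOf m a X.D
  lT : Real.log (Lam X.D) ≤ TOf m a X.D
  ok : (daOf X Q K cS X.ds).OkAS 4 (√X.D) X.δ (1 / 3) 4 12 w2
  D0 : 0 < D0f m cS a X.D
  at_ : (daOf X Q K cS X.ds).AtAS A (D0f m cS a X.D) (Real.log (s0Of m a X.D) - 4)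
    (Real.log (s0Of m a X.D) + TOf m a X.D + 5) X.δ (√X.D) 12 (Real.exp (-Real.log (Lam X.D)))
    (Lam X.D ^ (2 : ℝ) * X.D) (fun _ => C * X.D) (fun _ => C) x
  PT : (daOf X Q K cS X.ds).P x (Real.log (s0Of m a X.D) + TOf m a X.D + 5) ≤
    D0f m cS a X.D / (4 * A)
  e_le : ∀ l, Real.log (s0Of m a X.D) - 4 ≤ l → l ≤ Real.log (s0Of m a X.D) + TOf m a X.D + 5 →
    (daOf X Q K cS X.ds).e x l ≤ C₁ * X.D
  tau8 : ∀ l, Real.log (s0Of m a X.D) - 4 ≤ l → 8 * tauOf a X.D ≤ Real.exp l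

theorem exists_pk (m n Q : ℕ) (hm : 2 ≤ m) {K cS a : ℝ} (hK : 9 ≤ K) (hcS : 0 < cS) (ha : 1 ≤ a) :
    ∃ A C C₁ l0 : ℝ, 1 ≤ A ∧ 1 ≤ C ∧ 0 < C₁ ∧ 0 ≤ l0 ∧ ∀ X : Sit m n a, IsSit Q K cS X →
      l0 ≤ Real.log (Lam X.D) → ∀ x ∈ X.Z, Pk A C C₁ X Q K cS x := by
  obtain ⟨A, C, l1, hA1, hA, hC, hl1, hat⟩ := exists_at m n Q hm hK hcS (exps m ha)
  obtain ⟨C₁, l2, hC₁, hco⟩ := Bds_214.e_coarse (m := m) hm n Q K cS a ha
  obtain ⟨l3, hds⟩ := Par_504.ev_ds ha one_pos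
  obtain ⟨l4, hT⟩ := Par_504.ev_T m a 1
  obtain ⟨l5, hl5⟩ := Par_504.ev_scales' m ha (Real.exp 4)
  refine ⟨A, C, C₁, max l1 (max l2 (max l3 (max l4 l5))), hA1, hC, hC₁,
    hl1.trans (le_max_left _ _), ?_⟩
  intro X hX hl x hx
  have hla : l1 ≤ Real.log (Lam X.D) := (le_max_left _ _).trans hl
  have hl' : max l2 (max l3 (max l4 l5)) ≤ Real.log (Lam X.D) := (le_max_right _ _).trans hl
  have hlb : l2 ≤ Real.log (Lam X.D) := (le_max_left _ _).trans hl'
  have hl'' : max l3 (max l4 l5) ≤ Real.log (Lam X.D) := (le_max_right _ _).trans hl'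
  have hlc : l3 ≤ Real.log (Lam X.D) := (le_max_left _ _).trans hl''
  have hl3 : max l4 l5 ≤ Real.log (Lam X.D) := (le_max_right _ _).trans hl''
  have hld : l4 ≤ Real.log (Lam X.D) := (le_max_left _ _).trans hl3
  have hle : l5 ≤ Real.log (Lam X.D) := (le_max_right _ _).trans hl3
  obtain ⟨-, -, hT3, hT4, hT5, hT6⟩ := hT X.D hX.D0 hX.D1 hld
  obtain ⟨s1, s2, s3, -⟩ := hl5 X.D hX.D0 hX.D1 hle
  have hδ1 : X.δ ≤ Lam X.D ^ (-1 : ℝ) :=
    hX.δ1.trans (Real.rpow_le_rpow_of_exponent_le hT6 (by norm_num))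
  have hds1 : 7 * Lam X.D ^ (-a) ≤ X.ds :=
    mul_le_mul_of_nonneg_left (le_max_right _ _) (by norm_num)
  have hds2 : 7 * X.δ ≤ X.ds := mul_le_mul_of_nonneg_left (le_max_left _ _) (by norm_num)
  obtain ⟨hok, hD0, -, hx'⟩ := hat X hX.cls hX.D0 hX.D1 hX.δ0 hδ1 X.ds _ hds1 hds2
    (hds X.D X.δ hX.D0 hX.D1 hlc hX.δ1) hX.out hla
  obtain ⟨h1, h2⟩ := hx' x hx
  have e1 : Real.log (sB (100 * (m + 1) * (a + 1)) X.D) = Real.log (s0Of m a X.D) := rfl
  have e2 : Real.log (sT (100 * (m + 1) * (a + 1)) X.D) =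
      Real.log (s0Of m a X.D) + TOf m a X.D := (Par_504.log_s0Of_add_T hX.D0 hX.D1).symm
  rw [e1, e2] at h1
  rw [e2] at h2
  have hxn : ‖x‖ ≤ 1 := by
    have h3 := h1.hT
    have h5 := Real.exp_pos (Real.log (s0Of m a X.D) + TOf m a X.D + 5)
    have h6 : 0 < (daOf X Q K cS X.ds).τ := hok.τ0
    linarith
  exact
    { m2 := hm
      hA := hA
      C1 := hC
      C10 := hC₁
      Dp := hX.D0
      D1 := hX.D1
      δ0 := hX.δ0
      T1 := (Real.one_le_exp (by linarith)).trans hT3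
      lT := by linarith
      ok := hok
      D0 := hD0
      at_ := h1
      PT := h2
      e_le := fun l hl1 hl2 => hco X hX hlb x hxn l hl1 hl2
      tau8 := fun l hl => by
        have a1 := Real.exp_le_exp.2 hl
        have s0p := Par_504.s0Of_pos (m := m) (a := a) hX.D0 hX.D1
        have hp := Par_504.hOf_pos (a := a) hX.D0 hX.D1
        have tp := Par_504.tOf_pos (a := a) hX.D0 hX.D1
        rw [Real.exp_sub, Real.exp_log s0p] at a1
        have e4 : (4 : ℝ) ≤ Real.exp 4 := by linarith [Real.add_one_le_exp (4 : ℝ)]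
        have e5 : 4 * hOf a X.D ≤ √X.D := le_trans (by nlinarith) s1
        have e6 : √X.D ≤ tOf a X.D := le_trans (by nlinarith [Real.sqrt_nonneg X.D]) s2
        have e7 : tOf a X.D ≤ s0Of m a X.D / Real.exp 4 := by
          rw [le_div_iff₀ (Real.exp_pos 4), mul_comm]
          exact s3
        have e8 : tauOf a X.D = hOf a X.D / 4 := rfl
        rw [e8]
        linarith }

namespace Pk

variable {Q : ℕ} {A C C₁ K cS : ℝ} {X : Sit m n a} {x : Euc m}

theorem ctr (h : Pk A C C₁ X Q K cS x) :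
    Ctr m K X.ds (4 / (1 / 3)) A (D0f m cS a X.D) (Real.log (s0Of m a X.D) - 4)
      (Real.log (s0Of m a X.D) + TOf m a X.D + 5) ((daOf X Q K cS X.ds).E x)
      ((daOf X Q K cS X.ds).e x) ((daOf X Q K cS X.ds).et x) ((daOf X Q K cS X.ds).b x)
      ((daOf X Q K cS X.ds).g x) ((daOf X Q K cS X.ds).R x) ((daOf X Q K cS X.ds).f x)
      ((daOf X Q K cS X.ds).p x) ((daOf X Q K cS X.ds).P x) ((daOf X Q K cS X.ds).B x) :=
  h.at_.ctr h.ok h.hA h.D0 (by linarith [h.T1])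

theorem pt (h : Pk A C C₁ X Q K cS x) : Bds_214.Pt (daOf X Q K cS X.ds) (C₁ * X.D) A
    (D0f m cS a X.D) (Real.log (s0Of m a X.D) - 4) (Real.log (s0Of m a X.D) + TOf m a X.D + 5)
    x :=
  Bds_214.pt h.ok.ok (h.at_.at' h.ok) h.hA h.D0 (by linarith [h.T1]) h.ok.δ1 h.e_le h.PT

theorem K9 (h : Pk A C C₁ X Q K cS x) : 9 ≤ K := h.ok.K9

theorem nx (h : Pk A C C₁ X Q K cS x) :
    ‖x‖ + Real.exp (Real.log (s0Of m a X.D) + TOf m a X.D + 5) + 2 * tauOf a X.D ≤ 1 := h.at_.hT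

end Pk

/-! ### the profile -/

theorem w0_nn : ∀ t, 0 ≤ t → 0 ≤ w0.θ t := fun t _ => w0.nonneg t

theorem w0_low9 : ∀ t, 0 ≤ t → t ≤ ((9:ℝ) / 10) ^ 2 → ((19:ℝ) / 100) ^ 4 ≤ w0.θ t := by
  intro t _ ht
  change ((19:ℝ) / 100) ^ 4 ≤ (max (1 - t) 0) ^ 4
  refine pow_le_pow_left₀ (by norm_num) (le_max_of_le_left ?_) 4
  norm_num at ht
  linarith

theorem w0_low4 : ∀ t, 0 ≤ t → t ≤ Real.exp (-(1 / 4)) ^ 2 → ((19:ℝ) / 100) ^ 4 ≤ w0.θ t := by
  intro t h0 ht
  refine w0_low9 t h0 (ht.trans (pow_le_pow_left₀ (Real.exp_pos _).le ?_ 2))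
  rw [Real.exp_neg]
  have h1 := Real.add_one_le_exp (1 / 4 : ℝ)
  rw [inv_le_comm₀ (Real.exp_pos _) (by norm_num)]
  norm_num at h1 ⊢
  linarith

theorem w0_bd0 : Bd w0.θ w0.θ' 12 where
  b0 t ht := by
    obtain ⟨h1, h2⟩ := mx_le ht
    have h5 := pow_le_one₀ h1 h2 (n := 4)
    have h6 := pow_nonneg h1 4
    change |(max (1 - t) 0) ^ 4| ≤ 12
    rw [abs_of_nonneg (by positivity)]
    linarith
  b1 t ht := w0_bd.b0 t ht
  b2 t ht := by
    obtain ⟨h1, h2⟩ := mx_le ht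
    have h5 := pow_le_one₀ h1 h2 (n := 3)
    have h6 := pow_nonneg h1 3
    change |t * (-(4 * (max (1 - t) 0) ^ 3))| ≤ 12
    rcases le_or_gt t 1 with h | h
    · rw [mul_neg, abs_neg, abs_of_nonneg (by positivity)]
      have h7 : t * (4 * (max (1 - t) 0) ^ 3) ≤ 1 * (4 * (max (1 - t) 0) ^ 3) :=
        mul_le_mul_of_nonneg_right h (by positivity)
      linarith
    · rw [max_eq_right (by linarith)]
      norm_num

theorem exp3_ge : (20 : ℝ) ≤ Real.exp 3 := by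
  have h1 : Real.exp 3 = Real.exp 1 ^ 3 := by rw [← Real.exp_nat_mul]; norm_num
  have h2 := Real.exp_one_gt_d9
  rw [h1]
  have h3 : (2.718 : ℝ) ^ 3 ≤ Real.exp 1 ^ 3 := pow_le_pow_left₀ (by norm_num) (by linarith) 3
  norm_num at h3
  linarith

theorem log4_le : Real.log 4 ≤ 1.387 := by
  have h1 : Real.log 4 = 2 * Real.log 2 := by
    rw [show (4 : ℝ) = 2 ^ 2 by norm_num, Real.log_pow]; norm_num
  have := Real.log_two_lt_d9
  rw [h1]
  norm_num at this ⊢
  linarith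

theorem log4_nn : 0 ≤ Real.log 4 := Real.log_nonneg (by norm_num)

/-! ### the `U` side -/

/-- what `hrun2` needs of `U, R', e` at a contact centre -/
structure USide (c C CR Ce : ℝ) (X : Sit m n a) (Q : ℕ) (K cS : ℝ) (x : Euc m) : Prop where
  Ulow : c * Par_504.Dmin m a X.D ≤
    X.sU Q K cS x (Real.log (Lam X.D) + Real.log (s0Of m a X.D))
  Upos : 0 < X.sU Q K cS x (Real.log (Lam X.D) + Real.log (s0Of m a X.D))
  Uup : ∀ t, -4 ≤ t → t ≤ TOf m a X.D + 3 →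
    X.sU Q K cS x (t + Real.log (s0Of m a X.D)) ≤ C * X.D
  U0 : 0 ≤ X.sU Q K cS x (Real.log (Lam X.D) - Real.log 4 + Real.log (s0Of m a X.D))
  R0 : ∀ l ∈ Icc (Real.log (s0Of m a X.D) + Real.log (Lam X.D) - Real.log 4)
    (Real.log (s0Of m a X.D) + TOf m a X.D + Real.log 4 + 1 / 2), 0 ≤ X.sR Q K cS x l
  dU : ∀ l ∈ Icc (Real.log (s0Of m a X.D) + Real.log (Lam X.D) - Real.log 4)
    (Real.log (s0Of m a X.D) + TOf m a X.D + Real.log 4 + 1 / 2),
    HasDerivAt (fun l => X.sU Q K cS x (l - Real.log (s0Of m a X.D) + Real.log (s0Of m a X.D)))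
      (X.sR Q K cS x l) l
  mono : ∀ t t', Real.log (Lam X.D) ≤ t → t ≤ t' → t' ≤ TOf m a X.D →
    X.sU Q K cS x (t + Real.log (s0Of m a X.D)) ≤ X.sU Q K cS x (t' + Real.log (s0Of m a X.D))
  Ue : ∀ t ∈ Icc (Real.log (Lam X.D)) (TOf m a X.D),
    X.sU Q K cS x (t + Real.log 4 + 1 / 2 + Real.log (s0Of m a X.D)) ≤
      CR * X.se Q K cS x (t + 3 + Real.log (s0Of m a X.D))
  he : ∀ t ∈ Icc (Real.log (Lam X.D)) (TOf m a X.D),
    (enOf X.V X.π X.κ (Well_761.cyl x (17 * Real.exp (Real.log (s0Of m a X.D) + t))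
      univ)).toReal ≤ Ce * Real.exp (m * (Real.log (s0Of m a X.D) + t)) *
        Real.exp (-(2 * (Real.log (s0Of m a X.D) + t))) *
          X.se Q K cS x (t + 3 + Real.log (s0Of m a X.D))

/-- the constant of the energy bound -/
def Cen (m : ℕ) : ℝ := (((19:ℝ) / 100) ^ 4)⁻¹ * (Md m)⁻¹ * Real.exp (3 * (m - 2))

variable {Q : ℕ} {A C C₁ K cS : ℝ} {X : Sit m n a} {x : Euc m}

theorem Pk.uside (h : Pk A C C₁ X Q K cS x) (hl : 0 ≤ Real.log (Lam X.D)) :
    USide (cD m cS) (2 * (A + K) * C₁) (A * Real.exp (2 * (m - 2))) (Cen m) X Q K cS x := by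
  have hc := h.ctr
  have hp := h.pt
  have hr := hc.raw
  have hK := h.K9
  have l4 := log4_le
  have l4' := log4_nn
  have hT1 := h.T1
  have hm2 : (2 : ℝ) ≤ m := by exact_mod_cast h.m2
  have hsU : ∀ l, X.sU Q K cS x l = (daOf X Q K cS X.ds).Us x l := fun _ => rfl
  have hse : ∀ l, X.se Q K cS x l = (daOf X Q K cS X.ds).es x l := fun _ => rfl
  have hsR : ∀ l, X.sR Q K cS x l = (daOf X Q K cS X.ds).Rs x l := fun _ => rfl
  set L := Real.log (s0Of m a X.D) with hL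
  set T := TOf m a X.D with hTdef
  have hlow : ∀ l, L - 4 ≤ l → l ≤ L + T + 5 → D0f m cS a X.D ≤ X.sU Q K cS x l :=
    fun l h1 h2 => hc.U_pos h1 h2
  have hlT : Real.log (Lam X.D) ≤ T := h.lT
  refine ⟨hlow _ (by linarith) (by linarith), ?_, ?_, ?_, ?_, ?_, ?_, ?_, ?_⟩
  · exact lt_of_lt_of_le h.D0 (hlow _ (by linarith) (by linarith))
  · intro t h1 h2
    have h3 := hp.Uup (t + L) (by linarith) (by linarith)
    rw [← mul_assoc] at h3
    exact h3
  · exact h.D0.le.trans (hlow _ (by linarith) (by linarith))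
  · intro l hl
    exact hr.Rs_nonneg (by linarith) (by linarith [hl.2])
  · intro l hl
    have h1 := hr.dU (l := l) (by linarith [hl.2])
    have e1 : (fun l => X.sU Q K cS x (l - L + L)) = X.sU Q K cS x := by
      funext u
      rw [sub_add_cancel]
    rw [e1]
    exact h1
  · intro t t' _ h2 h3
    exact hr.Us_mono (by linarith) (by linarith) (by linarith)
  · intro t ht
    have h1 := hc.UE (l := t + Real.log 4 + 1 / 2 + L) (by linarith [ht.1]) (by linarith [ht.2])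
    have h2 := hc.eb (l := t + Real.log 4 + 1 / 2 + L) (by linarith [ht.1]) (by linarith [ht.2])
    have h3 := hc.qm (s := t + Real.log 4 + 1 / 2 + L + 1) (t := t + 3 + L) (by linarith)
      (by linarith [ht.2])
    have h4 := hc.epos (l := t + 3 + L) (by linarith [ht.1]) (by linarith [ht.2])
    have h5 : Real.exp ((m - 2) * (t + 3 + L - (t + Real.log 4 + 1 / 2 + L + 1))) ≤
        Real.exp (2 * (m - 2)) := by
      refine Real.exp_le_exp.2 ?_
      have h6 : t + 3 + L - (t + Real.log 4 + 1 / 2 + L + 1) ≤ 2 := by linarith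
      have h7 := mul_le_mul_of_nonneg_left h6 (by linarith : 0 ≤ (m:ℝ) - 2)
      linarith
    have hA1 := hc.A1
    refine h1.trans (h2.trans ?_)
    rw [mul_assoc]
    refine mul_le_mul_of_nonneg_left (h3.trans ?_) (by linarith)
    exact mul_le_mul_of_nonneg_right h5 h4.le
  · intro t ht
    have hMd : 0 < Md m := Md_pos (by have := h.m2; lia)
    have hτ : 0 < tauOf a X.D := h.ok.τ0
    have h8 := h.tau8 (L + t) (by linarith [ht.1])
    have h20 := exp3_ge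
    have e1 : Real.exp (L + t + 3) = Real.exp (L + t) * Real.exp 3 := Real.exp_add _ _
    have h1 := Well_761.enOf_cyl_le_eea (π := X.π) (κ := X.κ) (V := X.V) (x := x)
      (fun x L => h.ok.cyl.fr x L) hτ.le (cw_dd hτ) prof0 w0_nn
      (cg := ((19:ℝ) / 100) ^ 4) (by norm_num) (ρ := 9 / 10) (by norm_num) w0_low9
      (r := 17 * Real.exp (L + t)) (l := L + t + 3) (by
        rw [e1]
        have := Real.exp_pos (L + t)
        nlinarith)
    rw [integral_dd hτ] at h1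
    have h2 : eea (dd m (tauOf a X.D)) X.V X.π w0.θ x (L + t + 3) ≤
        X.se Q K cS x (t + 3 + L) := by
      have e2 : L + t + 3 = t + 3 + L := by ring
      rw [e2]
      exact hr.e_le_es (by linarith [ht.2])
    have h3 : (enOf X.V X.π X.κ (Well_761.cyl x (17 * Real.exp (L + t)) univ)).toReal ≤
        (Md m)⁻¹ * ((((19:ℝ) / 100) ^ 4)⁻¹ * (Real.exp ((m - 2) * (L + t + 3)) *
          eea (dd m (tauOf a X.D)) X.V X.π w0.θ x (L + t + 3))) := by
      rw [← div_eq_inv_mul, le_div_iff₀ hMd]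
      exact h1
    refine h3.trans ?_
    have e3 : Real.exp ((m - 2) * (L + t + 3)) =
        Real.exp (3 * (m - 2)) * (Real.exp (m * (L + t)) * Real.exp (-(2 * (L + t)))) := by
      rw [← Real.exp_add, ← Real.exp_add]
      congr 1
      ring
    rw [e3]
    have h4 : 0 ≤ Cen m * Real.exp (m * (L + t)) * Real.exp (-(2 * (L + t))) := by
      unfold Cen
      positivity
    refine le_trans (le_of_eq ?_) (mul_le_mul_of_nonneg_left h2 h4)
    unfold Cen
    ring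

end Crest.Agent.R234.Rni_98
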