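import Crest.Agent.R234.Rni2_98

/-!
# Row 234 (helper98): the drift of the averaged functionals for a contact situation (NRUN)

`Pk.drift`: hypothesis `hdr` of `hrun2` for `X : Sit` at a contact centre.
-/

set_option autoImplicit false

open MeasureTheory Set Function Filter Topology Metric
open Crest.GeometryTopology.Submanifold
open Crest.Agent.R234.Vf_884 Crest.Agent.R234.Ar_870 Crest.Agent.R234.Cy_870
open Crest.Agent.R234.Pot_425 Crest.Agent.R234.Rep_387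
open Crest.Agent.R234.Raw_387 Crest.Agent.R234.N0_309 Crest.Agent.R234.Asl_214
open Crest.Agent.R234.Core_809 Crest.Agent.R234.Fld_387 Crest.Agent.R234.Wi_870
open Crest.Agent.R234.Avg_387 hiding BB
open scoped ENNReal NNReal

noncomputable section

namespace Crest.Agent.R234.Rni_98

variable {m n : ℕ} {a : ℝ}

/-- the numbers of the drift -/
theorem ev_drift (m : ℕ) {a : ℝ} (ha : 1 ≤ a) (C₁ E : ℝ) {c η : ℝ} (hc : 0 < c) (hη : 0 < η) :
    ∃ l0 : ℝ, ∀ D : ℝ, 0 < D → D < 1 → l0 ≤ Real.log (Lam D) →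
      16 * C₁ * D ≤ Lam D ^ (-2 : ℝ) * s0Of m a D ^ 2 ∧ D ≤ Lam D ^ (-2 : ℝ) ∧
      √D * (4 * stOf m a D) ≤ Lam D ^ (-2 : ℝ) * √(c * Par_504.Dmin m a D) ∧
      Lam D ^ (-2 : ℝ) ≤ 1 ∧ C₁ * D ≤ 1 ∧ E * Lam D ^ (-2 : ℝ) * (TOf m a D + 4) ≤ η ∧
      1 ≤ Lam D ∧ TOf m a D ≤ Lam D := by
  have h4 : (0 : ℝ) ≤ m := Nat.cast_nonneg m
  have hb : (2 * m + 3) * a / 2 + 2 < Par_504.bb m a ∧ 1 < Par_504.bb m a := by
    unfold Par_504.bb
    constructor <;> nlinarith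
  have hsc := Real.sqrt_pos.2 hc
  obtain ⟨l1, hl1⟩ := Par_504.ev_l
    (((Par_504.ev_le (α := -1) (β := 0) (α' := -1) (β' := -2 + 2 * Par_504.bb m a) (16 * C₁)
      (Or.inr ⟨rfl, by linarith [hb.2]⟩))).and
    ((Par_504.ev_le (α := -1) (β := 0) (α' := 0) (β' := -2) 1 (Or.inl (by norm_num))).and
    ((Par_504.ev_le' (α := -1 / 2) (β := -Par_504.bb m a) (α' := -1 / 2)
      (β' := -2 + -((2 * m + 3) * a) / 2) 4 hsc (Or.inr ⟨rfl, by linarith [hb.1]⟩)).and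
    ((Par_504.ev_small (α := 0) (β := -2) 1 one_pos (Or.inr ⟨rfl, by norm_num⟩)).and
    ((Par_504.ev_small (α := -1) (β := 0) C₁ one_pos (Or.inl (by norm_num))).and
    (Par_504.ev_small (α := 0) (β := -1) (|E| * 5) hη (Or.inr ⟨rfl, by norm_num⟩)))))))
  obtain ⟨l2, hl2⟩ := Par_504.ev_T m a 1
  refine ⟨max l1 l2, fun D h0 h1 hl => ?_⟩
  obtain ⟨e1, e2, e3, e4, e5, e6⟩ := hl1 D h0 h1 ((le_max_left _ _).trans hl)
  obtain ⟨-, t2, t3, -, -, t6⟩ := hl2 D h0 h1 ((le_max_right _ _).trans hl)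
  have hΛ := Par_504.Lam_pos h0 h1
  have f2 : Lam D ^ (-2 : ℝ) = Par_504.X 0 (-2) (Lam D) := Par_504.rpow_eq h0 h1 _
  have f3 : √(c * Par_504.Dmin m a D) =
      √c * Par_504.X (-1 / 2) (-((2 * m + 3) * a) / 2) (Lam D) := by
    rw [Real.sqrt_mul hc.le, Par_504.Dmin_eq h0 h1, Par_504.X_sqrt]
  have f4 : √D = Par_504.X (-1 / 2) 0 (Lam D) := Par_504.sqrt_D_eq h0
  have f5 : stOf m a D = Par_504.X 0 (-Par_504.bb m a) (Lam D) := Par_504.stOf_eq h0 h1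
  have f6 : s0Of m a D = Par_504.X (-1 / 2) (Par_504.bb m a) (Lam D) := Par_504.s0Of_eq h0 h1
  have f1 : D = Par_504.X (-1) 0 (Lam D) := Par_504.D_eq h0
  refine ⟨?_, ?_, ?_, ?_, ?_, ?_, t6, t2⟩
  · rw [f2, f6, Par_504.X_pow, Par_504.X_mul]
    refine le_trans (le_of_eq ?_) (e1.trans (le_of_eq ?_))
    · rw [← f1]
    · congr 1
      · norm_num
  · rw [f2]
    rw [one_mul, ← f1] at e2
    exact e2
  · rw [f2, f3, f4, f5]
    calc Par_504.X (-1 / 2) 0 (Lam D) * (4 * Par_504.X 0 (-Par_504.bb m a) (Lam D))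
        = 4 * (Par_504.X (-1 / 2) 0 (Lam D) * Par_504.X 0 (-Par_504.bb m a) (Lam D)) := by ring
      _ = 4 * Par_504.X (-1 / 2) (-Par_504.bb m a) (Lam D) := by
          rw [Par_504.X_mul]; congr 2 <;> ring
      _ ≤ _ := e3
      _ = √c * (Par_504.X 0 (-2) (Lam D) *
          Par_504.X (-1 / 2) (-((2 * m + 3) * a) / 2) (Lam D)) := by
          rw [Par_504.X_mul]; congr 2; ring
      _ = _ := by ring
  · rw [f2]
    rw [one_mul] at e4
    exact e4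
  · rw [← f1] at e5
    exact e5
  · have g1 : Lam D = Par_504.X 0 1 (Lam D) := Par_504.self_eq_X hΛ
    have hX := Par_504.X_pos 0 (-2) (Lam D)
    have hTp : 0 ≤ TOf m a D + 4 := by
      have := Real.exp_pos (Real.log (Lam D) / 2)
      linarith
    rw [f2]
    calc E * Par_504.X 0 (-2) (Lam D) * (TOf m a D + 4)
        ≤ |E| * Par_504.X 0 (-2) (Lam D) * (TOf m a D + 4) := by
          gcongr
          exact le_abs_self E
      _ ≤ |E| * Par_504.X 0 (-2) (Lam D) * (5 * Lam D) := by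
          gcongr
          linarith
      _ = |E| * 5 * (Par_504.X 0 (-2) (Lam D) * Lam D) := by ring
      _ = |E| * 5 * Par_504.X 0 (-1) (Lam D) := by
          conv_lhs => rw [show Par_504.X 0 (-2) (Lam D) * Lam D =
            Par_504.X 0 (-2) (Lam D) * Par_504.X 0 1 (Lam D) by rw [← g1]]
          rw [Par_504.X_mul]
          congr 2 <;> norm_num
      _ ≤ η := e6

/-- constants of the drift -/
def Dr4 (m : ℕ) (C : ℝ) : ℝ := D4 12 C (Md m) + D5 m (((19:ℝ) / 100) ^ 4) 12 C (Md m) + 1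

def Dr6 (m : ℕ) : ℝ := D6 m (((19:ℝ) / 100) ^ 4) 12 (Md m)

def Dr7 (m : ℕ) (C : ℝ) : ℝ := D7 m (((19:ℝ) / 100) ^ 4) 12 C (Md m)

theorem D5_nonneg {m : ℕ} {cg K Mb M : ℝ} (hcg : 0 < cg) (hK : 0 ≤ K) (hM : 0 < M) :
    0 ≤ D5 m cg K Mb M := by
  have h1 := CE_nonneg (m := m) hcg hM
  have h2 := We_822.BB_one
  unfold D5
  positivity

theorem D6_nonneg {m : ℕ} {cg K M : ℝ} (hcg : 0 < cg) (hK : 0 ≤ K) (hM : 0 < M) :
    0 ≤ D6 m cg K M := by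
  have h1 := CE_nonneg (m := m) hcg hM
  have h2 := We_822.BB_one
  unfold D6
  positivity

theorem D7_nonneg {m : ℕ} {cg K Mb M : ℝ} (hcg : 0 < cg) (hK : 0 ≤ K) (hMb : 0 ≤ Mb)
    (hM : 0 < M) : 0 ≤ D7 m cg K Mb M := by
  have h1 := CE_nonneg (m := m) hcg hM
  have h2 := We_822.BB_one
  unfold D7
  positivity

theorem Dr4_pos {m : ℕ} (hm : 2 ≤ m) (C : ℝ) : 0 < Dr4 m C := by
  have h1 := D5_nonneg (m := m) (cg := ((19:ℝ) / 100) ^ 4) (K := 12) (Mb := C) (M := Md m)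
    (by norm_num) (by norm_num) (Md_pos (by lia))
  have h2 : 0 ≤ D4 12 C (Md m) := Real.sqrt_nonneg _
  unfold Dr4
  linarith

theorem Dr6_nonneg {m : ℕ} (hm : 2 ≤ m) : 0 ≤ Dr6 m :=
  D6_nonneg (by norm_num) (by norm_num) (Md_pos (by lia))

theorem Dr7_nonneg {m : ℕ} (hm : 2 ≤ m) {C : ℝ} (hC : 0 ≤ C) : 0 ≤ Dr7 m C :=
  D7_nonneg (by norm_num) (by norm_num) hC (Md_pos (by lia))

set_option maxHeartbeats 1000000 in
/-- **the drift at a contact centre** -/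
theorem Pk.drift (m n Q : ℕ) (hm : 2 ≤ m) {a : ℝ} (ha : 1 ≤ a) (A C C₁ K cS : ℝ) {c η : ℝ}
    (hc : 0 < c) (hη : 0 < η) :
    ∃ l0 : ℝ, ∀ X : Sit m n a, ∀ x, Pk A C C₁ X Q K cS x → l0 ≤ Real.log (Lam X.D) →
      Dr7 m C * Lam X.D ^ (-2 : ℝ) * (TOf m a X.D + 4) ≤ η ∧
      ∀ q : ℝ, 0 < q → c * Par_504.Dmin m a X.D ≤ q ^ 2 →
        ∀ l ∈ Icc (Real.log (s0Of m a X.D) + Real.log (Lam X.D) - Real.log 4)
          (Real.log (s0Of m a X.D) + TOf m a X.D + Real.log 4), ∀ p : Euc n,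
          ∃ d, HasDerivAt (fun l => Nav (dd m (tauOf a X.D)) X.V X.π X.κ w0.θ' x l
            (Well_761.bump p q)) d l ∧
          |d| ≤ Dr4 m C * q * √(X.sR Q K cS x l + X.sR Q K cS x (l + 1 / 2)) +
            Dr6 m * (X.sR Q K cS x l + X.sR Q K cS x (l + 1 / 2)) +
            (Dr7 m C * Lam X.D ^ (-2 : ℝ)) * q ^ 2 := by
  obtain ⟨l0, hl0⟩ := ev_drift m ha C₁ (Dr7 m C) hc hη
  refine ⟨max l0 0, fun X x h hl => ?_⟩
  obtain ⟨e1, e2, e3, e4, e5, e6, e7, -⟩ := hl0 X.D h.Dp h.D1 ((le_max_left _ _).trans hl)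
  have hla : 0 ≤ Real.log (Lam X.D) := (le_max_right _ _).trans hl
  refine ⟨e6, fun q hq hcq l hlI p => ?_⟩
  have l4 := log4_le
  have l4' := log4_nn
  have hT1 := h.T1
  have hlT := h.lT
  have hMd : 0 < Md m := Md_pos (by lia)
  have hC : 0 ≤ C := by linarith [h.C1]
  have hCtr := h.ctr
  have hr := hCtr.raw
  have hK := h.K9
  have hδ0 := h.δ0
  have hδs : 7 * X.δ ≤ X.ds := h.ok.δδ
  have hds0 : 0 < X.ds := h.ok.δ0
  have hds1 : X.ds ≤ 1 := h.ok.δ1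
  have hΛ : 0 < Lam X.D := Par_504.Lam_pos h.Dp h.D1
  have hτ : 0 < tauOf a X.D := h.ok.τ0
  have s0p := Par_504.s0Of_pos (m := m) (a := a) h.Dp h.D1
  have hθp : 0 < Lam X.D ^ (-2 : ℝ) := Real.rpow_pos_of_pos hΛ _
  have hDm := Par_504.Dmin_pos (m := m) (a := a) h.Dp h.D1
  -- the window
  have hlo : Real.log (s0Of m a X.D) - 4 ≤ l := by linarith [hlI.1]
  have hup : l + 1 / 2 ≤ Real.log (s0Of m a X.D) + TOf m a X.D + 5 := by linarith [hlI.2]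
  have hnx := h.nx
  have hexp : Real.exp l ≤ Real.exp (Real.log (s0Of m a X.D) + TOf m a X.D + 5) :=
    Real.exp_le_exp.2 (by linarith)
  have hnn := norm_nonneg x
  have hel1 : Real.exp l ≤ 1 := by linarith
  have hl0' : l ≤ 0 := by
    rwa [← Real.exp_le_one_iff]
  have hs0l : s0Of m a X.D / 4 ≤ Real.exp l := by
    have h1 : Real.exp (Real.log (s0Of m a X.D) - Real.log 4) ≤ Real.exp l :=
      Real.exp_le_exp.2 (by linarith [hlI.1])
    rwa [Real.exp_sub, Real.exp_log s0p, Real.exp_log (by norm_num)] at h1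
  have hlst : Real.exp l ≤ 4 * stOf m a X.D := by
    have h1 : Real.exp l ≤ Real.exp (Real.log (s0Of m a X.D) + TOf m a X.D + Real.log 4) :=
      Real.exp_le_exp.2 hlI.2
    rwa [Real.exp_add, Par_504.exp_log_s0Of_add_T h.Dp h.D1, Real.exp_log (by norm_num),
      mul_comm] at h1
  -- the energy at `l + 1/2`
  have hε : eea (dd m (tauOf a X.D)) X.V X.π w0.θ x (l + 1 / 2) ≤ C₁ * X.D :=
    h.e_le (l + 1 / 2) (by linarith) hup
  have hε0 : 0 ≤ eea (dd m (tauOf a X.D)) X.V X.π w0.θ x (l + 1 / 2) := hr.e0 (l + 1 / 2) hup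
  have hsq : √(c * Par_504.Dmin m a X.D) ≤ q := by
    rw [show q = √(q ^ 2) from (Real.sqrt_sq hq.le).symm]
    exact Real.sqrt_le_sqrt hcq
  obtain ⟨d, hd1, hd2⟩ := drift_as (x := x) h.ok.cyl h.δ0 (by linarith) (Real.sqrt_nonneg _) hτ.le
    (cw_dd hτ) prof0 w0_nn w0_bd0 w0_bd (cg := ((19:ℝ) / 100) ^ 4) (by norm_num) w0_low4
    (by rw [integral_dd hτ]; exact hMd) (l := l) (q := q) (θ := Lam X.D ^ (-2 : ℝ)) (Mb := C) hq
    hl0' (h.tau8 l hlo) (by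
      rw [sub_zero]
      linarith)
    (fun y hy => h.at_.hmb l ⟨hlo, by linarith⟩ y hy)
    (hε.trans e5) (by
      have h1 : Real.exp (-2 * l) * Real.exp l ^ 2 = 1 := by
        rw [← Real.exp_nat_mul, ← Real.exp_add]
        have : (-2 * l + ((2 : ℕ) : ℝ) * l) = 0 := by push_cast; ring
        rw [this, Real.exp_zero]
      have h2 : (s0Of m a X.D / 4) ^ 2 ≤ Real.exp l ^ 2 := pow_le_pow_left₀ (by positivity) hs0l 2
      have h3 := Real.exp_pos (-2 * l)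
      have h4 : C₁ * X.D ≤ Lam X.D ^ (-2 : ℝ) * Real.exp l ^ 2 := by
        have h5 := mul_le_mul_of_nonneg_left h2 hθp.le
        linarith
      calc Real.exp (-2 * l) * eea (dd m (tauOf a X.D)) X.V X.π w0.θ x (l + 1 / 2)
          ≤ Real.exp (-2 * l) * (Lam X.D ^ (-2 : ℝ) * Real.exp l ^ 2) :=
            mul_le_mul_of_nonneg_left (hε.trans h4) h3.le
        _ = Lam X.D ^ (-2 : ℝ) := by linear_combination (Lam X.D ^ (-2 : ℝ)) * h1)
    (by rw [Real.sq_sqrt h.Dp.le]; exact e2)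
    (by
      calc √X.D * Real.exp l ≤ √X.D * (4 * stOf m a X.D) :=
            mul_le_mul_of_nonneg_left hlst (Real.sqrt_nonneg _)
        _ ≤ Lam X.D ^ (-2 : ℝ) * √(c * Par_504.Dmin m a X.D) := e3
        _ ≤ Lam X.D ^ (-2 : ℝ) * q := mul_le_mul_of_nonneg_left hsq hθp.le) e4
    (Well_761.test_bump p hq)
  rw [integral_dd hτ] at hd2
  have hd3 : |d| ≤ D4 12 C (Md m) * q * √(RRa (dd m (tauOf a X.D)) X.V X.π w0.θ' x l) +
      D5 m (((19:ℝ) / 100) ^ 4) 12 C (Md m) * q *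
        √(X.δ * eea (dd m (tauOf a X.D)) X.V X.π w0.θ x (l + 1 / 2)) +
      D6 m (((19:ℝ) / 100) ^ 4) 12 (Md m) *
        (X.δ * eea (dd m (tauOf a X.D)) X.V X.π w0.θ x (l + 1 / 2)) +
      D7 m (((19:ℝ) / 100) ^ 4) 12 C (Md m) * (Lam X.D ^ (-2 : ℝ) * q ^ 2) := hd2
  refine ⟨d, hd1, hd3.trans ?_⟩
  -- the right side
  have hR1 : RRa (dd m (tauOf a X.D)) X.V X.π w0.θ' x l ≤ X.sR Q K cS x l :=
    hr.R_le_Rs (by linarith) (by linarith)
  have hR0 : 0 ≤ X.sR Q K cS x l := hr.Rs_nonneg (by linarith) (by linarith)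
  have hR2 : X.δ * eea (dd m (tauOf a X.D)) X.V X.π w0.θ x (l + 1 / 2) ≤
      X.sR Q K cS x (l + 1 / 2) := by
    have h1 := hCtr.Rs_lower hup
    have h2 : 0 ≤ (daOf X Q K cS X.ds).R x (l + 1 / 2) := hr.R0 _ hup
    have h3 : 0 ≤ (daOf X Q K cS X.ds).g x (l + 1 / 2) := hr.g0 _ hup
    have h4 : 0 ≤ (daOf X Q K cS X.ds).p x (l + 1 / 2) := hr.p0 _ hup
    have h5 : 0 ≤ (daOf X Q K cS X.ds).et x (l + 1 / 2) := hr.et0 hup
    have h6 : X.δ * eea (dd m (tauOf a X.D)) X.V X.π w0.θ x (l + 1 / 2) ≤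
        X.ds * ((daOf X Q K cS X.ds).e x (l + 1 / 2) +
          (daOf X Q K cS X.ds).et x (l + 1 / 2)) := by
      have h7 : (daOf X Q K cS X.ds).e x (l + 1 / 2) =
        eea (dd m (tauOf a X.D)) X.V X.π w0.θ x (l + 1 / 2) := rfl
      rw [h7]
      exact mul_le_mul (by linarith) (by linarith) hε0 hds0.le
    have h8 : 0 ≤ X.ds * ((daOf X Q K cS X.ds).e x (l + 1 / 2) +
          (daOf X Q K cS X.ds).et x (l + 1 / 2)) := by
      have : 0 ≤ (daOf X Q K cS X.ds).e x (l + 1 / 2) := hε0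
      positivity
    have h9 : 1 * (X.ds * ((daOf X Q K cS X.ds).e x (l + 1 / 2) +
          (daOf X Q K cS X.ds).et x (l + 1 / 2))) ≤ (K - 1) * (X.ds *
            ((daOf X Q K cS X.ds).e x (l + 1 / 2) + (daOf X Q K cS X.ds).et x (l + 1 / 2))) :=
      mul_le_mul_of_nonneg_right (by linarith) h8
    have h10 : X.sR Q K cS x (l + 1 / 2) = Shp_98.Rs K X.ds ((daOf X Q K cS X.ds).e x)
      ((daOf X Q K cS X.ds).et x) ((daOf X Q K cS X.ds).g x) ((daOf X Q K cS X.ds).R x)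
      ((daOf X Q K cS X.ds).f x) ((daOf X Q K cS X.ds).p x) (l + 1 / 2) := rfl
    rw [h10]
    linarith
  have hR20 : 0 ≤ X.sR Q K cS x (l + 1 / 2) := by
    refine le_trans ?_ hR2
    positivity
  set a1 := X.sR Q K cS x l with ha1
  set b1 := X.sR Q K cS x (l + 1 / 2) with hb1
  have g1 : √(RRa (dd m (tauOf a X.D)) X.V X.π w0.θ' x l) ≤ √(a1 + b1) :=
    Real.sqrt_le_sqrt (by linarith)
  have g2 : √(X.δ * eea (dd m (tauOf a X.D)) X.V X.π w0.θ x (l + 1 / 2)) ≤ √(a1 + b1) :=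
    Real.sqrt_le_sqrt (by linarith)
  have g3 : X.δ * eea (dd m (tauOf a X.D)) X.V X.π w0.θ x (l + 1 / 2) ≤ a1 + b1 := by linarith
  have k4 : 0 ≤ D4 12 C (Md m) := Real.sqrt_nonneg _
  have k5 := D5_nonneg (m := m) (cg := ((19:ℝ) / 100) ^ 4) (K := 12) (Mb := C) (M := Md m)
    (by norm_num) (by norm_num) hMd
  have k6 := Dr6_nonneg hm
  have hsqn := Real.sqrt_nonneg (a1 + b1)
  have j1 : D4 12 C (Md m) * q * √(RRa (dd m (tauOf a X.D)) X.V X.π w0.θ' x l) ≤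
      D4 12 C (Md m) * q * √(a1 + b1) := mul_le_mul_of_nonneg_left g1 (by positivity)
  have j2 : D5 m (((19:ℝ) / 100) ^ 4) 12 C (Md m) * q *
      √(X.δ * eea (dd m (tauOf a X.D)) X.V X.π w0.θ x (l + 1 / 2)) ≤
      D5 m (((19:ℝ) / 100) ^ 4) 12 C (Md m) * q * √(a1 + b1) :=
    mul_le_mul_of_nonneg_left g2 (by positivity)
  have j3 : D6 m (((19:ℝ) / 100) ^ 4) 12 (Md m) *
      (X.δ * eea (dd m (tauOf a X.D)) X.V X.π w0.θ x (l + 1 / 2)) ≤ Dr6 m * (a1 + b1) :=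
    mul_le_mul_of_nonneg_left g3 k6
  have j4 : 0 ≤ q * √(a1 + b1) := by positivity
  have j5 : Dr4 m C * q * √(a1 + b1) = D4 12 C (Md m) * q * √(a1 + b1) +
      D5 m (((19:ℝ) / 100) ^ 4) 12 C (Md m) * q * √(a1 + b1) + q * √(a1 + b1) := by
    unfold Dr4
    ring
  have j6 : Dr7 m C * Lam X.D ^ (-2 : ℝ) * q ^ 2 =
      D7 m (((19:ℝ) / 100) ^ 4) 12 C (Md m) * (Lam X.D ^ (-2 : ℝ) * q ^ 2) := by
    unfold Dr7
    ring
  rw [j5, j6]
  linarith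

/-- **NRUN-INST, parts (A) and (B)** -/
theorem exists_run (m n Q : ℕ) (hm : 2 ≤ m) {K cS a : ℝ} (hK : 9 ≤ K) (hcS : 0 < cS)
    (ha : 1 ≤ a) :
    ∃ c C CR Ce C4 C6 : ℝ, 0 < c ∧ 0 < C ∧ 0 < CR ∧ 0 ≤ Ce ∧ 0 < C4 ∧ 0 ≤ C6 ∧
      ∀ c' η : ℝ, 0 < c' → 0 < η → ∃ l0 : ℝ, 0 ≤ l0 ∧ ∀ X : Sit m n a, IsSit Q K cS X →
        l0 ≤ Real.log (Lam X.D) → ∃ θ₂ : ℝ, 0 ≤ θ₂ ∧ θ₂ * (TOf m a X.D + 4) ≤ η ∧
        ∀ x ∈ X.Z, USide c C CR Ce X Q K cS x ∧
          ∀ q : ℝ, 0 < q → c' * Par_504.Dmin m a X.D ≤ q ^ 2 →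
          ∀ l ∈ Icc (Real.log (s0Of m a X.D) + Real.log (Lam X.D) - Real.log 4)
            (Real.log (s0Of m a X.D) + TOf m a X.D + Real.log 4), ∀ p : Euc n,
            ∃ d, HasDerivAt (fun l => Nav (dd m (tauOf a X.D)) X.V X.π X.κ w0.θ' x l
              (Well_761.bump p q)) d l ∧
            |d| ≤ C4 * q * √(X.sR Q K cS x l + X.sR Q K cS x (l + 1 / 2)) +
              C6 * (X.sR Q K cS x l + X.sR Q K cS x (l + 1 / 2)) + θ₂ * q ^ 2 := by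
  obtain ⟨A, C, C₁, l1, hA, hC, hC₁, hl1, hpk⟩ := exists_pk m n Q hm hK hcS ha
  have hm0 : 0 < m := by lia
  refine ⟨cD m cS, 2 * (A + K) * C₁, A * Real.exp (2 * (m - 2)), Cen m, Dr4 m C, Dr6 m,
    cD_pos hm0 hcS, by positivity, by positivity, ?_, Dr4_pos hm C, Dr6_nonneg hm, ?_⟩
  · have := Md_pos hm0
    unfold Cen
    positivity
  intro c' η hc' hη
  obtain ⟨l2, hl2⟩ := Pk.drift m n Q hm ha A C C₁ K cS hc' hη
  obtain ⟨l3, hl3⟩ := ev_drift m ha C₁ (Dr7 m C) hc' hη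
  refine ⟨max l1 (max l2 l3), hl1.trans (le_max_left _ _), fun X hX hl => ?_⟩
  have hla : l1 ≤ Real.log (Lam X.D) := (le_max_left _ _).trans hl
  have hlb : l2 ≤ Real.log (Lam X.D) := ((le_max_left _ _).trans (le_max_right _ _)).trans hl
  have hlc : l3 ≤ Real.log (Lam X.D) := ((le_max_right _ _).trans (le_max_right _ _)).trans hl
  obtain ⟨-, -, -, -, -, e6, -, -⟩ := hl3 X.D hX.D0 hX.D1 hlc
  have hΛ : 0 < Lam X.D := Par_504.Lam_pos hX.D0 hX.D1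
  refine ⟨Dr7 m C * Lam X.D ^ (-2 : ℝ), ?_, e6, fun x hx => ?_⟩
  · have := Dr7_nonneg hm (C := C) (by linarith)
    have := Real.rpow_pos_of_pos hΛ (-2 : ℝ)
    positivity
  · have h := hpk X hX hla x hx
    exact ⟨h.uside (hl1.trans hla), (hl2 X x h hlb).2⟩

end Crest.Agent.R234.Rni_98
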