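import Crest.Agent.R234.Rn3_870

/-!
# Row 234 (helper98): the numbers of NRUN (`Rn3_870.NumRun`)
-/

set_option autoImplicit false

open Filter Real Crest.Agent.R234.Core_809
open Crest.Agent.R234.Well_761 (etaC etaC_nonneg)

noncomputable section

namespace Crest.Agent.R234.Rni_98

open Crest.Agent.R234 (Par_504.X)

local notation "PX" => Par_504.X

set_option maxHeartbeats 2000000 in
/-- **the numbers of NRUN** -/
theorem numRun (m : ℕ) {a : ℝ} (ha : 1 ≤ a) : Rn_870.NumRun m a := by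
  intro C c M Cμ b η hC hc hc1 hM hCμ hb hη
  have h4 : (0 : ℝ) ≤ m := Nat.cast_nonneg m
  set B := Par_504.bb m a with hB
  set E : ℝ := (2 * m + 3) * a with hE
  have hE0 : 0 ≤ E := by positivity
  have hBE : E + 4 < B := by
    rw [hB, hE]
    unfold Par_504.bb
    nlinarith
  have hsc : 0 < √c := Real.sqrt_pos.2 hc
  set G : ℝ := 12 * (15 + etaC / 8) * Cμ with hG
  have hη0 := etaC_nonneg
  have hG0 : 0 ≤ G := by positivity
  set F : ℝ := |We_822.CAS 12 1 1 Cμ| with hF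
  have hF0 : 0 ≤ F := abs_nonneg _
  obtain ⟨l1, hl1⟩ := Par_504.ev_l
    ((Par_504.ev_le' (α := 1 / 2) (β := -B + E / 2) (α' := 1) (β' := 0) 64 hsc
      (Or.inl (by norm_num))).and
    ((Par_504.ev_le (α := -1) (β := 2) (α' := -1) (β' := 2 * B + 2) (M ^ 2 * C)
      (Or.inr ⟨rfl, by linarith⟩)).and
    ((Par_504.ev_le' (α := -1) (β := -2 + (-2 * B + E)) (α' := -1) (β' := -E)
      (3 * (C * G * (16 / c))) hc (Or.inr ⟨rfl, by linarith⟩)).and
    ((Par_504.ev_le' (α := -1) (β := -2 + (-2 * B)) (α' := -1) (β' := -E)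
      (3 * (C * G * 16)) hc (Or.inr ⟨rfl, by linarith⟩)).and
    ((Par_504.ev_le' (α := -2) (β := -2) (α' := -1) (β' := -E)
      (3 * (C * G)) hc (Or.inl (by norm_num))).and
    ((Par_504.ev_small (α := 0) (β := -3) 4 one_pos (Or.inr ⟨rfl, by norm_num⟩)).and
    ((Par_504.ev_small (α := 0) (β := -1) (2 * F) hb (Or.inr ⟨rfl, by norm_num⟩)).and
    ((Par_504.ev_small (α := 0) (β := 1 + (-B + E / 2)) (2 * (F * (4 / √c))) hb
      (Or.inr ⟨rfl, by linarith⟩)).and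
    ((Par_504.ev_small (α := -1) (β := -3) (3 * η) (c := 1 / 2) (by norm_num)
      (Or.inl (by norm_num))).and
    ((Par_504.ev_small (α := 0) (β := -B) 4 (c := 1 / 64) (by norm_num)
      (Or.inr ⟨rfl, by linarith⟩)).and
    ((Par_504.ev_small (α := -1) (β := 0) 1 (c := 1 / 256) (by norm_num)
      (Or.inl (by norm_num))).and
    ((Par_504.ev_small (α := -1) (β := -E) 1 one_pos (Or.inl (by norm_num))).and
    (Par_504.ev_small (α := -1) (β := 1) (M ^ 2 * C) one_pos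
      (Or.inl (by norm_num)))))))))))))))
  obtain ⟨l2, hl2⟩ := Par_504.ev_T m a 1
  refine ⟨max l1 l2, fun D δ Ua UT h0 h1 hl hδ0 hδ hUa hUT0 hUT => ?_⟩
  obtain ⟨e1, e2, e3, e4, e5, e6, e7, e8, e9, e10, e11, e12, e13⟩ :=
    hl1 D h0 h1 ((le_max_left _ _).trans hl)
  obtain ⟨-, t2, t3, -, -, t6⟩ := hl2 D h0 h1 ((le_max_right _ _).trans hl)
  have hΛ := Par_504.Lam_pos h0 h1
  set Λ := Lam D with hΛd
  have f1 : D = PX (-1) 0 Λ := Par_504.D_eq h0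
  have f4 : √D = PX (-1 / 2) 0 Λ := Par_504.sqrt_D_eq h0
  have f5 : stOf m a D = PX 0 (-B) Λ := Par_504.stOf_eq h0 h1
  have f6 : s0Of m a D = PX (-1 / 2) B Λ := Par_504.s0Of_eq h0 h1
  have f7 : Par_504.Dmin m a D = PX (-1) (-E) Λ := Par_504.Dmin_eq h0 h1
  have f8 : Λ = PX 0 1 Λ := Par_504.self_eq_X hΛ
  have f9 : Λ ^ (-4 : ℝ) = PX 0 (-4) Λ := Par_504.rpow_eq h0 h1 _
  have f3 : √(c * Par_504.Dmin m a D) = √c * PX (-1 / 2) (-E / 2) Λ := by
    rw [Real.sqrt_mul hc.le, f7, Par_504.X_sqrt]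
  have hDm : 0 < Par_504.Dmin m a D := Par_504.Dmin_pos h0 h1
  have hUa0 : 0 < Ua := lt_of_lt_of_le (by positivity) hUa
  have hT0 : 0 ≤ TOf m a D := (Real.exp_pos _).le.trans t3
  have hbe : Rn_870.beR m a c D = 4 / √c * PX 0 (-B + E / 2) Λ := by
    unfold Rn_870.beR
    rw [f3, f4, f5]
    have h6 : 4 * PX 0 (-B) Λ * PX (-1 / 2) 0 Λ = 4 * PX (-1 / 2) (-B) Λ := by
      rw [mul_assoc, Par_504.X_mul]; congr 2 <;> ring
    have h7 : PX (-1 / 2) (-B) Λ / PX (-1 / 2) (-E / 2) Λ = PX 0 (-B + E / 2) Λ := by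
      rw [Par_504.X_div]; congr 1 <;> ring
    rw [h6, mul_div_mul_comm, h7]
  have g1 : D * Λ = PX (-1) 1 Λ := by
    calc D * Λ = PX (-1) 0 Λ * PX 0 1 Λ := by rw [← f1, ← f8]
      _ = PX (-1) 1 Λ := by rw [Par_504.X_mul]; congr 1 <;> ring
  have hUTT : UT * TOf m a D ≤ C * PX (-1) 1 Λ := by
    have h6 : UT * TOf m a D ≤ (C * D) * Λ := mul_le_mul hUT t2 hT0 (by positivity)
    refine h6.trans (le_of_eq ?_)
    rw [mul_assoc, g1]
  have hUTT0 : 0 ≤ UT * TOf m a D := by positivity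
  have hδ' : δ ≤ PX 0 (-4) Λ := hδ.trans (le_of_eq f9)
  have g2 : PX (-1) 1 Λ * Λ = PX (-1) 2 Λ := by
    calc PX (-1) 1 Λ * Λ = PX (-1) 1 Λ * PX 0 1 Λ := by rw [← f8]
      _ = PX (-1) 2 Λ := by rw [Par_504.X_mul]; congr 1 <;> ring
  have g3 : PX 0 (-4) Λ * Λ = PX 0 (-3) Λ := by
    calc PX 0 (-4) Λ * Λ = PX 0 (-4) Λ * PX 0 1 Λ := by rw [← f8]
      _ = PX 0 (-3) Λ := by rw [Par_504.X_mul]; congr 1 <;> ring
  refine ⟨?_, ?_, ?_, ?_, ?_, ?_, ?_, ?_, t6, ?_, ?_⟩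
  · -- (1)
    have h5 := Par_504.stOf_pos (m := m) (a := a) h0 h1
    have h6 : √c * PX (-1 / 2) (-E / 2) Λ ≤ √Ua := by
      rw [← f3]
      exact Real.sqrt_le_sqrt hUa
    have h7 : 0 < √Ua := Real.sqrt_pos.2 hUa0
    have h8 : 64 * stOf m a D / (M * √Ua) ≤ PX 1 0 Λ := by
      rw [div_le_iff₀ (by positivity)]
      have k1 : PX 1 0 Λ * (√c * PX (-1 / 2) (-E / 2) Λ) ≤ PX 1 0 Λ * (M * √Ua) := by
        refine mul_le_mul_of_nonneg_left ?_ (Par_504.X_nonneg _ _ _)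
        exact h6.trans (le_mul_of_one_le_left h7.le hM)
      refine le_trans ?_ k1
      have k2 : PX (-1 / 2) (-E / 2) Λ * (√c * PX 1 0 Λ) =
          PX 1 0 Λ * (√c * PX (-1 / 2) (-E / 2) Λ) := by ring
      rw [← k2]
      have k3 := mul_le_mul_of_nonneg_left e1 (Par_504.X_nonneg (-1 / 2) (-E / 2) Λ)
      refine le_trans (le_of_eq ?_) k3
      rw [f5]
      have k4 : PX (-1 / 2) (-E / 2) Λ * PX (1 / 2) (-B + E / 2) Λ = PX 0 (-B) Λ := by
        rw [Par_504.X_mul]; congr 1 <;> ring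
      rw [← k4]
      ring
    have h9 : PX 1 0 Λ = Real.exp Λ := by
      unfold Par_504.X
      congr 1
      ring
    rw [Real.log_le_iff_le_exp (by positivity), ← h9]
    exact h8
  · -- (2)
    have k1 : (s0Of m a D * Λ) ^ 2 = PX (-1) (2 * B + 2) Λ := by
      have k2 : s0Of m a D * Λ = PX (-1 / 2) (B + 1) Λ := by
        calc s0Of m a D * Λ = PX (-1 / 2) B Λ * PX 0 1 Λ := by rw [← f6, ← f8]
          _ = _ := by rw [Par_504.X_mul]; congr 1; ring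
      rw [k2, Par_504.X_pow]
      congr 1 <;> push_cast <;> ring
    rw [k1]
    refine le_trans ?_ e2
    calc M ^ 2 * (UT * TOf m a D) * Λ ≤ M ^ 2 * (C * PX (-1) 1 Λ) * Λ := by gcongr
      _ = M ^ 2 * C * (PX (-1) 1 Λ * Λ) := by ring
      _ = _ := by rw [g2]
  · -- (3)
    have k1 : Rn_870.thwR m a c Cμ δ D =
        G * δ * (16 / c * PX 0 (-2 * B + E) Λ + 16 * PX 0 (-2 * B) Λ + PX (-1) 0 Λ) := by
      have k2 : (4 / √c * PX 0 (-B + E / 2) Λ) ^ 2 = 16 / c * PX 0 (-2 * B + E) Λ := by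
        rw [mul_pow, div_pow, Real.sq_sqrt hc.le, Par_504.X_pow]
        congr 1
        · norm_num
        · congr 1 <;> push_cast <;> ring
      have k3 : (4 * PX 0 (-B) Λ) ^ 2 = 16 * PX 0 (-2 * B) Λ := by
        rw [mul_pow, Par_504.X_pow]
        congr 1
        · norm_num
        · congr 1 <;> push_cast <;> ring
      unfold Rn_870.thwR
      rw [hbe, f5, k2, k3, Real.sq_sqrt h0.le, ← f1, hG]
      ring
    have k5 : PX 0 (-4) Λ * Λ * PX (-1) 1 Λ = PX (-1) (-2) Λ := by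
      rw [g3, Par_504.X_mul]; congr 1 <;> ring
    have p1 := Par_504.X_pos 0 (-2 * B + E) Λ
    have p2 := Par_504.X_pos 0 (-2 * B) Λ
    have p3 := Par_504.X_pos (-1) 0 Λ
    have p4 := Par_504.X_pos (-1) 1 Λ
    have p5 := Par_504.X_pos 0 (-4) Λ
    have k6 : G * δ * (16 / c * PX 0 (-2 * B + E) Λ + 16 * PX 0 (-2 * B) Λ + PX (-1) 0 Λ) * Λ *
        (UT * TOf m a D) ≤ G * PX 0 (-4) Λ * (16 / c * PX 0 (-2 * B + E) Λ +
          16 * PX 0 (-2 * B) Λ + PX (-1) 0 Λ) * Λ * (C * PX (-1) 1 Λ) := by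
      gcongr
    have k7 : G * PX 0 (-4) Λ * (16 / c * PX 0 (-2 * B + E) Λ +
          16 * PX 0 (-2 * B) Λ + PX (-1) 0 Λ) * Λ * (C * PX (-1) 1 Λ) =
        C * G * (16 / c) * PX (-1) (-2 + (-2 * B + E)) Λ +
          C * G * 16 * PX (-1) (-2 + (-2 * B)) Λ + C * G * PX (-2) (-2) Λ := by
      have j1 : PX (-1) (-2) Λ * PX 0 (-2 * B + E) Λ = PX (-1) (-2 + (-2 * B + E)) Λ := by
        rw [Par_504.X_mul]; congr 1; ring
      have j2 : PX (-1) (-2) Λ * PX 0 (-2 * B) Λ = PX (-1) (-2 + (-2 * B)) Λ := by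
        rw [Par_504.X_mul]; congr 1; ring
      have j3 : PX (-1) (-2) Λ * PX (-1) 0 Λ = PX (-2) (-2) Λ := by
        rw [Par_504.X_mul]; congr 1 <;> ring
      rw [← j1, ← j2, ← j3, ← k5]
      ring
    rw [k1]
    refine (k6.trans (le_of_eq k7)).trans ?_
    rw [f7] at hUa
    linarith
  · -- (4)
    calc 4 * δ * Λ ≤ 4 * PX 0 (-4) Λ * Λ := by gcongr
      _ = 4 * (PX 0 (-4) Λ * Λ) := by ring
      _ ≤ 1 := by rw [g3]; exact e6
  · -- (5)
    have k1 : √δ ≤ PX 0 (-2) Λ := by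
      refine (Real.sqrt_le_sqrt hδ').trans (le_of_eq ?_)
      rw [Par_504.X_sqrt]
      congr 1 <;> ring
    have k2 : Rn_870.thR m a c Cμ δ D ≤ F * (PX 0 (-2) Λ + 4 / √c * PX 0 (-B + E / 2) Λ) := by
      unfold Rn_870.thR
      rw [hbe]
      have k3 : 0 ≤ √δ + 4 / √c * PX 0 (-B + E / 2) Λ := by
        have := Par_504.X_pos 0 (-B + E / 2) Λ
        positivity
      calc _ ≤ F * (√δ + 4 / √c * PX 0 (-B + E / 2) Λ) :=
            mul_le_mul_of_nonneg_right (le_abs_self _) k3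
        _ ≤ _ := by gcongr
    have k4 : PX 0 (-2) Λ * Λ = PX 0 (-1) Λ := by
      calc PX 0 (-2) Λ * Λ = PX 0 (-2) Λ * PX 0 1 Λ := by rw [← f8]
        _ = _ := by rw [Par_504.X_mul]; congr 1 <;> ring
    have k5 : PX 0 (-B + E / 2) Λ * Λ = PX 0 (1 + (-B + E / 2)) Λ := by
      calc PX 0 (-B + E / 2) Λ * Λ = PX 0 (-B + E / 2) Λ * PX 0 1 Λ := by rw [← f8]
        _ = _ := by rw [Par_504.X_mul]; congr 1 <;> ring
    calc Rn_870.thR m a c Cμ δ D * Λ ≤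
          F * (PX 0 (-2) Λ + 4 / √c * PX 0 (-B + E / 2) Λ) * Λ :=
          mul_le_mul_of_nonneg_right k2 hΛ.le
      _ = F * (PX 0 (-2) Λ * Λ) + F * (4 / √c) * (PX 0 (-B + E / 2) Λ * Λ) := by ring
      _ ≤ b := by rw [k4, k5]; linarith
  · -- (6)
    have k1 : PX 0 (-4) Λ * PX (-1) 1 Λ = PX (-1) (-3) Λ := by
      rw [Par_504.X_mul]; congr 1 <;> ring
    have p4 := Par_504.X_pos (-1) 1 Λ
    calc η * (δ * D) * (3 * Λ) = 3 * η * (δ * (D * Λ)) := by ring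
      _ = 3 * η * (δ * PX (-1) 1 Λ) := by rw [g1]
      _ ≤ 3 * η * (PX 0 (-4) Λ * PX (-1) 1 Λ) := by gcongr
      _ ≤ 1 / 2 := by rw [k1]; exact e9
  · rw [f5]
    exact e10
  · rw [one_mul, ← f1] at e11
    exact e11
  · rw [show (1:ℝ) = √1 from Real.sqrt_one.symm]
    refine Real.sqrt_le_sqrt ?_
    rw [f7]
    have := Par_504.X_pos (-1) (-E) Λ
    nlinarith
  · calc M ^ 2 * (UT * TOf m a D) ≤ M ^ 2 * (C * PX (-1) 1 Λ) := by gcongr
      _ = M ^ 2 * C * PX (-1) 1 Λ := by ring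
      _ ≤ 1 := e13

end Crest.Agent.R234.Rni_98
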