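import Crest.Agent.R234.N5a_372

/-!
# Row 234 (helper746): rotations of general varifolds

`O : Euc k ≃ₗᵢ[ℝ] Euc k`.  `rotV O V` is the image of `V`; stationarity, `CylStat`, the base measures
are invariant.  `exists_rot`: any two coisometries differ by a rotation, so constants chosen for one
fixed `π` serve for all.
-/

set_option autoImplicit false

open MeasureTheory Metric Set Filter Topology
open Crest.GeometryTopology.Submanifold
open Crest.Agent.R234.Vf_884 Crest.Agent.R234.Ar_870 Crest.Agent.R234.Cy_870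
open Crest.Agent.R234.N5_372
open scoped ENNReal NNReal InnerProductSpace

noncomputable section

namespace Crest.Agent.R234.Rot_746

variable {m n k : ℕ}

/-- the isometry as a continuous linear map. -/
def oc (O : Euc k ≃ₗᵢ[ℝ] Euc k) : L k := O.toContinuousLinearEquiv.toContinuousLinearMap

@[simp] theorem oc_apply (O : Euc k ≃ₗᵢ[ℝ] Euc k) (x : Euc k) : oc O x = O x := rfl

theorem oc_symm_comp (O : Euc k ≃ₗᵢ[ℝ] Euc k) :
    oc O.symm ∘L oc O = ContinuousLinearMap.id ℝ (Euc k) := by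
  ext1 x
  simp

theorem oc_comp_symm (O : Euc k ≃ₗᵢ[ℝ] Euc k) :
    oc O ∘L oc O.symm = ContinuousLinearMap.id ℝ (Euc k) := by
  ext1 x
  simp

theorem adjoint_oc (O : Euc k ≃ₗᵢ[ℝ] Euc k) :
    ContinuousLinearMap.adjoint (oc O) = oc O.symm := by
  refine (ContinuousLinearMap.eq_adjoint_iff (oc O.symm) (oc O)).2 (fun x y => ?_) |>.symm
  rw [oc_apply, oc_apply]
  calc ⟪O.symm x, y⟫_ℝ = ⟪O (O.symm x), O y⟫_ℝ := (O.inner_map_map _ _).symm
    _ = _ := by rw [O.apply_symm_apply]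

/-- rotated plane. -/
def rotL (O : Euc k ≃ₗᵢ[ℝ] Euc k) (P : L k) : L k := oc O ∘L P ∘L oc O.symm

theorem continuous_rotL (O : Euc k ≃ₗᵢ[ℝ] Euc k) : Continuous (rotL O) := by
  unfold rotL
  exact continuous_const.clm_comp (continuous_id.clm_comp continuous_const)

theorem rotL_symm (O : Euc k ≃ₗᵢ[ℝ] Euc k) (P : L k) : rotL O.symm (rotL O P) = P := by
  ext1 x
  simp [rotL]

theorem rotL_symm' (O : Euc k ≃ₗᵢ[ℝ] Euc k) (P : L k) : rotL O (rotL O.symm P) = P := by
  ext1 x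
  simp [rotL]

theorem tr_rotL (O : Euc k ≃ₗᵢ[ℝ] Euc k) (P : L k) : tr (rotL O P) = tr P := by
  unfold rotL
  rw [tr_comm, ContinuousLinearMap.comp_assoc, oc_symm_comp, ContinuousLinearMap.comp_id]

theorem tr_comp_rotL (O : Euc k ≃ₗᵢ[ℝ] Euc k) (A P : L k) :
    tr (A ∘L rotL O P) = tr ((rotL O.symm A) ∘L P) := by
  have h1 : A ∘L rotL O P = (A ∘L oc O ∘L P) ∘L oc O.symm := by
    ext1 x
    simp [rotL]
  rw [h1, tr_comm]
  congr 1

theorem rotL_mem_G (O : Euc k ≃ₗᵢ[ℝ] Euc k) {P : L k} (hP : P ∈ G m k) : rotL O P ∈ G m k := by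
  obtain ⟨h1, h2, h3⟩ := hP
  refine ⟨?_, ?_, ?_⟩
  · ext1 x
    have : P (P (O.symm x)) = P (O.symm x) := congrArg (fun A : L k => A (O.symm x)) h1
    simp [rotL, this]
  · rw [ContinuousLinearMap.isSelfAdjoint_iff'] at h2 ⊢
    unfold rotL
    rw [ContinuousLinearMap.adjoint_comp, ContinuousLinearMap.adjoint_comp, h2, adjoint_oc,
      adjoint_oc, LinearIsometryEquiv.symm_symm]
    rfl
  · rw [tr_rotL, h3]

/-- the rotation on point-plane pairs. -/
def rotH (O : Euc k ≃ₗᵢ[ℝ] Euc k) : (Euc k × L k) ≃ₜ (Euc k × L k) where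
  toFun p := (O p.1, rotL O p.2)
  invFun p := (O.symm p.1, rotL O.symm p.2)
  left_inv p := by
    ext1
    · simp
    · exact rotL_symm O p.2
  right_inv p := by
    ext1
    · simp
    · exact rotL_symm' O p.2
  continuous_toFun := (O.continuous.comp continuous_fst).prodMk
    ((continuous_rotL O).comp continuous_snd)
  continuous_invFun := (O.symm.continuous.comp continuous_fst).prodMk
    ((continuous_rotL O.symm).comp continuous_snd)

@[simp] theorem rotH_apply (O : Euc k ≃ₗᵢ[ℝ] Euc k) (p : Euc k × L k) :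
    rotH O p = (O p.1, rotL O p.2) := rfl

/-- the rotated varifold. -/
def rotV (O : Euc k ≃ₗᵢ[ℝ] Euc k) (V : Measure (Euc k × L k)) : Measure (Euc k × L k) :=
  V.map (rotH O)

theorem emb (O : Euc k ≃ₗᵢ[ℝ] Euc k) : MeasurableEmbedding (rotH O) :=
  (rotH O).measurableEmbedding

theorem rotV_symm (O : Euc k ≃ₗᵢ[ℝ] Euc k) (V : Measure (Euc k × L k)) :
    rotV O.symm (rotV O V) = V := by
  unfold rotV
  rw [Measure.map_map (rotH O.symm).measurable (rotH O).measurable]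
  have : (rotH O.symm ∘ rotH O) = id := by
    funext p
    ext1
    · simp
    · exact rotL_symm O p.2
  rw [this, Measure.map_id]

theorem rotV_apply (O : Euc k ≃ₗᵢ[ℝ] Euc k) (V : Measure (Euc k × L k)) (S : Set (Euc k × L k)) :
    rotV O V S = V (rotH O ⁻¹' S) := (emb O).map_apply V S

theorem integral_rotV (O : Euc k ≃ₗᵢ[ℝ] Euc k) (V : Measure (Euc k × L k))
    (f : Euc k × L k → ℝ) : ∫ p, f p ∂(rotV O V) = ∫ p, f (O p.1, rotL O p.2) ∂V :=
  (emb O).integral_map f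

theorem ae_rotV (O : Euc k ≃ₗᵢ[ℝ] Euc k) (V : Measure (Euc k × L k)) {Q : Euc k × L k → Prop} :
    (∀ᵐ p ∂(rotV O V), Q p) ↔ ∀ᵐ p ∂V, Q (O p.1, rotL O p.2) := (emb O).ae_map_iff

theorem fderiv_conj (O : Euc k ≃ₗᵢ[ℝ] Euc k) {X : Euc k → Euc k} (hX : ContDiff ℝ 1 X)
    (z : Euc k) : fderiv ℝ (fun y => O.symm (X (O y))) z = rotL O.symm (fderiv ℝ X (O z)) := by
  have h1 : HasFDerivAt X (fderiv ℝ X (O z)) (O z) :=
    (hX.differentiable one_ne_zero (O z)).hasFDerivAt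
  have h2 : HasFDerivAt (fun y => O y) (oc O) z := (oc O).hasFDerivAt
  have h3 : HasFDerivAt (fun y => O.symm y) (oc O.symm) (X (O z)) := (oc O.symm).hasFDerivAt
  have h4 := h3.comp z (h1.comp z h2)
  rw [show (fun y => O.symm (X (O y))) = (fun y => O.symm y) ∘ X ∘ fun y => O y from rfl,
    h4.fderiv]
  rfl

theorem contDiff_conj (O : Euc k ≃ₗᵢ[ℝ] Euc k) {X : Euc k → Euc k} (hX : ContDiff ℝ 1 X) :
    ContDiff ℝ 1 fun y => O.symm (X (O y)) :=
  O.symm.toContinuousLinearEquiv.contDiff.comp (hX.comp O.toContinuousLinearEquiv.contDiff)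

theorem FV_rotV (O : Euc k ≃ₗᵢ[ℝ] Euc k) (V : Measure (Euc k × L k)) {X : Euc k → Euc k}
    (hX : ContDiff ℝ 1 X) : FV (rotV O V) X = FV V fun y => O.symm (X (O y)) := by
  unfold FV
  rw [integral_rotV]
  congr 1
  funext p
  rw [tr_comp_rotL, fderiv_conj O hX]

/-- **stationarity is invariant.** -/
theorem stat_rotV {U : Set (Euc k)} {V : Measure (Euc k × L k)} (O : Euc k ≃ₗᵢ[ℝ] Euc k)
    (hV : Stat m k U V) : Stat m k (O.symm ⁻¹' U) (rotV O V) where
  conc := (ae_rotV O V).2 (hV.conc.mono fun _ hp => rotL_mem_G O hp)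
  fin K hK hKU := by
    rw [rotV_apply]
    have h1 : rotH O ⁻¹' (K ×ˢ univ) ⊆ (O.symm '' K) ×ˢ univ := by
      rintro p ⟨hp, -⟩
      exact ⟨⟨O p.1, hp, O.symm_apply_apply _⟩, mem_univ _⟩
    refine (measure_mono h1).trans_lt (hV.fin _ (hK.image O.symm.continuous) ?_)
    rintro _ ⟨y, hy, rfl⟩
    exact hKU hy
  stat X hX hXc hXU := by
    have h1 := FV_rotV O V hX
    unfold FV at h1
    rw [h1]
    have hsupp : Function.support (fun y => O.symm (X (O y))) = O ⁻¹' Function.support X := by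
      ext y
      simp
    have hts : tsupport (fun y => O.symm (X (O y))) = O ⁻¹' tsupport X := by
      unfold tsupport
      rw [hsupp]
      exact (O.toHomeomorph.preimage_closure _).symm
    refine hV.stat _ (contDiff_conj O hX) ?_ ?_
    · unfold HasCompactSupport
      rw [hts]
      have : O ⁻¹' tsupport X = O.symm '' tsupport X := by
        ext y
        constructor
        · intro hy
          exact ⟨O y, hy, O.symm_apply_apply _⟩
        · rintro ⟨w, hw, rfl⟩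
          simpa using hw
      rw [this]
      exact hXc.isCompact.image O.symm.continuous
    · rw [hts]
      intro y hy
      have := hXU hy
      simpa using this

/-- the rotated coordinates. -/
def rc (O : Euc k ≃ₗᵢ[ℝ] Euc k) {a : ℕ} (π : Euc k →L[ℝ] Euc a) : Euc k →L[ℝ] Euc a :=
  π ∘L oc O.symm

theorem rc_apply (O : Euc k ≃ₗᵢ[ℝ] Euc k) {a : ℕ} (π : Euc k →L[ℝ] Euc a) (x : Euc k) :
    rc O π (O x) = π x := by simp [rc]

theorem adjoint_rc (O : Euc k ≃ₗᵢ[ℝ] Euc k) {a : ℕ} (π : Euc k →L[ℝ] Euc a) :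
    ContinuousLinearMap.adjoint (rc O π) = oc O ∘L ContinuousLinearMap.adjoint π := by
  unfold rc
  rw [ContinuousLinearMap.adjoint_comp, adjoint_oc, LinearIsometryEquiv.symm_symm]

theorem isCo_rc (O : Euc k ≃ₗᵢ[ℝ] Euc k) {π : Euc k →L[ℝ] Euc m} (h : IsCo π) :
    IsCo (rc O π) := by
  unfold IsCo
  rw [adjoint_rc]
  ext1 x
  have : π (ContinuousLinearMap.adjoint π x) = x := congrArg (fun A : L m => A x) h
  simp [rc, this]

theorem split_rc (O : Euc k ≃ₗᵢ[ℝ] Euc k) {π : Euc k →L[ℝ] Euc m} {κ : Euc k →L[ℝ] Euc n}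
    (h : Split π κ) : Split (rc O π) (rc O κ) where
  hh := isCo_rc O h.hh
  vv := isCo_rc O h.vv
  sum := by
    rw [adjoint_rc, adjoint_rc]
    ext1 x
    have : ContinuousLinearMap.adjoint π (π (O.symm x)) +
        ContinuousLinearMap.adjoint κ (κ (O.symm x)) = O.symm x :=
      congrArg (fun A : L k => A (O.symm x)) h.sum
    have h2 := congrArg O this
    rw [map_add, O.apply_symm_apply] at h2
    simpa [rc] using h2

theorem Shh_rc (O : Euc k ≃ₗᵢ[ℝ] Euc k) (π : Euc k →L[ℝ] Euc m) (P : L k) :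
    Shh (rc O π) (rotL O P) = Shh π P := by
  unfold Shh
  rw [adjoint_rc]
  ext1 x
  simp [rc, rotL]

theorem tl_rc (O : Euc k ≃ₗᵢ[ℝ] Euc k) (π : Euc k →L[ℝ] Euc m) (P : L k) :
    tl (rc O π) (rotL O P) = tl π P := by
  have h := Shh_rc O π P
  unfold Shh at h
  unfold tl
  rw [h]

theorem qf_rc (O : Euc k ≃ₗᵢ[ℝ] Euc k) (π : Euc k →L[ℝ] Euc m) (P : L k) (v : Euc m) :
    qf (rc O π) (rotL O P) v = qf π P v := by
  unfold qf
  rw [Shh_rc]

theorem eL_rc (O : Euc k ≃ₗᵢ[ℝ] Euc k) (π : Euc k →L[ℝ] Euc m) (S : Submodule ℝ (Euc m))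
    (P : L k) : eL (rc O π) S (rotL O P) = eL π S P := by
  unfold eL
  simp only [qf_rc]

theorem bm_rc (O : Euc k ≃ₗᵢ[ℝ] Euc k) (W : Measure (Euc k × L k)) (π : Euc k →L[ℝ] Euc m)
    {c c' : L k → ℝ} (hc : Measurable c) (h : ∀ P, c' (rotL O P) = c P) :
    bm (rotV O W) (rc O π) c' = bm W π c := by
  have hc' : c' = fun P => c (rotL O.symm P) := by
    funext P
    rw [← h, rotL_symm']
  have hmc' : Measurable fun p : Euc k × L k => ENNReal.ofReal (c' p.2) := by
    rw [hc']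
    exact (hc.comp ((continuous_rotL O.symm).measurable.comp measurable_snd)).ennreal_ofReal
  ext A hA
  rw [bm_apply _ _ _ hA, bm_apply _ _ _ hA]
  unfold rotV
  rw [(emb O).restrict_map, (emb O).lintegral_map]
  have h1 : rotH O ⁻¹' ov (rc O π) A = ov π A := by
    ext p
    show rc O π (O p.1) ∈ A ↔ π p.1 ∈ A
    rw [rc_apply]
  rw [h1]
  congr 1
  funext p
  simp only [rotH_apply, h]

theorem eM_rc (O : Euc k ≃ₗᵢ[ℝ] Euc k) (W : Measure (Euc k × L k)) (π : Euc k →L[ℝ] Euc m) :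
    eM (rotV O W) (rc O π) = eM W π :=
  bm_rc O W π (measurable_tl π).measurable (tl_rc O π)

theorem qM_rc (O : Euc k ≃ₗᵢ[ℝ] Euc k) (W : Measure (Euc k × L k)) (π : Euc k →L[ℝ] Euc m) :
    qM (rotV O W) (rc O π) = qM W π :=
  bm_rc O W π ((measurable_tl π).measurable.pow_const 2) fun P => by rw [tl_rc]

theorem lM_rc (O : Euc k ≃ₗᵢ[ℝ] Euc k) (W : Measure (Euc k × L k)) (π : Euc k →L[ℝ] Euc m)
    (S : Submodule ℝ (Euc m)) : lM (rotV O W) (rc O π) S = lM W π S :=
  bm_rc O W π (continuous_eL π S).measurable (eL_rc O π S)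

theorem cylStat_rotV {W : Measure (Euc k × L k)} {π : Euc k →L[ℝ] Euc m}
    {κ : Euc k →L[ℝ] Euc n} {x₀ : Euc m} {R h₀ : ℝ} (O : Euc k ≃ₗᵢ[ℝ] Euc k)
    (h : CylStat W π κ x₀ R h₀) : CylStat (rotV O W) (rc O π) (rc O κ) x₀ R h₀ where
  sp := split_rc O h.sp
  conc := (ae_rotV O W).2 (h.conc.mono fun _ hp => rotL_mem_G O hp)
  fin := by
    rw [rotV_apply, preimage_univ]
    exact h.fin
  base := (ae_rotV O W).2 (h.base.mono fun p hp => by simpa only [rc_apply] using hp)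
  hgt := (ae_rotV O W).2 (h.hgt.mono fun p hp => by simpa only [rc_apply] using hp)
  stat X hX h0 := by
    rw [FV_rotV O W hX]
    refine h.stat _ (contDiff_conj O hX) fun p hp => ?_
    rw [h0 (O p) (by rwa [rc_apply]), map_zero]

/-- masses of balls. -/
theorem closedBall_rotV (O : Euc k ≃ₗᵢ[ℝ] Euc k) (W : Measure (Euc k × L k)) (z : Euc k) (r : ℝ) :
    rotV O W (closedBall (O z) r ×ˢ univ) = W (closedBall z r ×ˢ univ) := by
  rw [rotV_apply]
  congr 1
  ext p
  simp only [mem_preimage, rotH_apply, mem_prod, mem_closedBall, mem_univ, and_true, O.dist_map]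

theorem ball_rotV (O : Euc k ≃ₗᵢ[ℝ] Euc k) (W : Measure (Euc k × L k)) (z : Euc k) (r : ℝ) :
    rotV O W (ball (O z) r ×ˢ univ) = W (ball z r ×ˢ univ) := by
  rw [rotV_apply]
  congr 1
  ext p
  simp only [mem_preimage, rotH_apply, mem_prod, mem_ball, mem_univ, and_true, O.dist_map]

/-- **any two coisometries differ by a rotation.** -/
theorem exists_rot {π π' : Euc k →L[ℝ] Euc m} (h : IsCo π) (h' : IsCo π') :
    ∃ O : Euc k ≃ₗᵢ[ℝ] Euc k, rc O π = π' := by
  classical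
  have hn : ∀ {ρ : Euc k →L[ℝ] Euc m}, IsCo ρ → ∀ v, ‖ContinuousLinearMap.adjoint ρ v‖ = ‖v‖ := by
    intro ρ hρ v
    have h2 : ‖ContinuousLinearMap.adjoint ρ v‖ ^ 2 = ‖v‖ ^ 2 := by
      rw [← real_inner_self_eq_norm_sq, ContinuousLinearMap.adjoint_inner_left]
      have h3 : ρ (ContinuousLinearMap.adjoint ρ v) = v := congrArg (fun A : L m => A v) hρ
      rw [h3, real_inner_self_eq_norm_sq]
    exact (pow_left_inj₀ (norm_nonneg _) (norm_nonneg _) two_ne_zero).1 h2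
  set a : Euc m →ₗᵢ[ℝ] Euc k := ⟨(ContinuousLinearMap.adjoint π).toLinearMap, hn h⟩ with ha
  set a' : Euc m →ₗᵢ[ℝ] Euc k := ⟨(ContinuousLinearMap.adjoint π').toLinearMap, hn h'⟩ with ha'
  set S := LinearMap.range a.toLinearMap with hS
  let e : Euc m ≃ₗᵢ[ℝ] S := a.equivRange
  let Lf : S →ₗᵢ[ℝ] Euc k := a'.comp e.symm.toLinearIsometry
  let E : Euc k →ₗᵢ[ℝ] Euc k := Lf.extend
  let O : Euc k ≃ₗᵢ[ℝ] Euc k := E.toLinearIsometryEquiv rfl
  have hO : ∀ v, O (ContinuousLinearMap.adjoint π v) = ContinuousLinearMap.adjoint π' v := by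
    intro v
    have h1 : Lf (e v) = a' v := by simp [Lf]
    have h2 : E ((e v : S) : Euc k) = Lf (e v) := Lf.extend_apply (e v)
    have h3 : ((e v : S) : Euc k) = ContinuousLinearMap.adjoint π v := rfl
    rw [← h3]
    show E _ = _
    rw [h2, h1]
    rfl
  refine ⟨O, ?_⟩
  have h1 : oc O ∘L ContinuousLinearMap.adjoint π = ContinuousLinearMap.adjoint π' := by
    ext1 v
    exact hO v
  have h2 := congrArg ContinuousLinearMap.adjoint h1
  rw [ContinuousLinearMap.adjoint_comp, ContinuousLinearMap.adjoint_adjoint,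
    ContinuousLinearMap.adjoint_adjoint, adjoint_oc] at h2
  exact h2

end Crest.Agent.R234.Rot_746
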