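import Mathlib

/-! # Row 234, VF-F6 (helper733), part 1: interpolation

A map with bounded derivatives whose tested averages (against bumps, w.r.t. a measure with lower
density at the scale `ρ`) are small is small together with its first derivatives, with a power. -/

set_option autoImplicit false
set_option linter.unusedSectionVars false

open MeasureTheory Set Metric Filter Topology
open scoped ENNReal NNReal ContDiff

noncomputable section

namespace Crest.Agent.R234.Sw_733

variable {F : Type*} [NormedAddCommGroup F] [InnerProductSpace ℝ F] [FiniteDimensional ℝ F]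
  [MeasurableSpace F] [BorelSpace F]
variable {G : Type*} [NormedAddCommGroup G] [NormedSpace ℝ G] [CompleteSpace G]

/-- the fixed bump: `1` on the ball of radius `1/2`, supported in the unit ball. -/
def bp (F : Type*) [NormedAddCommGroup F] [InnerProductSpace ℝ F] [FiniteDimensional ℝ F] :
    ContDiffBump (0 : F) where
  rIn := 1 / 2
  rOut := 1
  rIn_pos := by norm_num
  rIn_lt_rOut := by norm_num

/-- the bump at `x` of scale `ρ`. -/
def bs (x : F) (ρ : ℝ) (z : F) : ℝ := bp F (ρ⁻¹ • (z - x))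

theorem contDiff_bs (x : F) (ρ : ℝ) : ContDiff ℝ ∞ (bs x ρ) := by
  unfold bs
  exact (bp F).contDiff.comp (by fun_prop)

theorem bs_nonneg (x : F) (ρ : ℝ) (z : F) : 0 ≤ bs x ρ z := (bp F).nonneg

theorem bs_le_one (x : F) (ρ : ℝ) (z : F) : bs x ρ z ≤ 1 := (bp F).le_one

theorem bs_eq_one {x : F} {ρ : ℝ} (hρ : 0 < ρ) {z : F} (hz : z ∈ closedBall x (ρ / 2)) :
    bs x ρ z = 1 := by
  unfold bs
  refine (bp F).one_of_mem_closedBall ?_
  rw [mem_closedBall_zero_iff, norm_smul, norm_inv, Real.norm_of_nonneg hρ.le]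
  rw [mem_closedBall, dist_eq_norm] at hz
  change ρ⁻¹ * ‖z - x‖ ≤ 1 / 2
  rw [inv_mul_le_iff₀ hρ]
  linarith

theorem bs_support {x : F} {ρ : ℝ} (hρ : 0 < ρ) : Function.support (bs x ρ) ⊆ ball x ρ := by
  intro z hz
  rw [Function.mem_support] at hz
  have h1 : ρ⁻¹ • (z - x) ∈ Function.support (bp F) := hz
  rw [(bp F).support_eq, mem_ball_zero_iff, norm_smul, norm_inv, Real.norm_of_nonneg hρ.le] at h1
  rw [mem_ball, dist_eq_norm]
  change ρ⁻¹ * ‖z - x‖ < 1 at h1
  rw [inv_mul_lt_iff₀ hρ] at h1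
  linarith

theorem bs_tsupport {x : F} {ρ : ℝ} (hρ : 0 < ρ) : tsupport (bs x ρ) ⊆ closedBall x ρ :=
  closure_minimal ((bs_support hρ).trans ball_subset_closedBall) isClosed_closedBall

theorem bs_compact {x : F} {ρ : ℝ} (hρ : 0 < ρ) : HasCompactSupport (bs x ρ) :=
  HasCompactSupport.of_support_subset_isCompact (isCompact_closedBall x ρ)
    ((bs_support hρ).trans ball_subset_closedBall)

/-- all derivatives of the fixed bump up to order `K` are bounded. -/
theorem exists_bp_bound (F : Type*) [NormedAddCommGroup F] [InnerProductSpace ℝ F]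
    [FiniteDimensional ℝ F] (K : ℕ) :
    ∃ C : ℝ, 1 ≤ C ∧ ∀ j ≤ K, ∀ z : F, ‖iteratedFDeriv ℝ j (bp F) z‖ ≤ C := by
  have h1 : ∀ j : ℕ, ∃ C : ℝ, 0 ≤ C ∧ ∀ z : F, ‖iteratedFDeriv ℝ j (bp F) z‖ ≤ C := by
    intro j
    have hc : Continuous (iteratedFDeriv ℝ j (bp F)) :=
      (bp F).contDiff.continuous_iteratedFDeriv (m := j) (n := ∞) (by exact_mod_cast le_top)
    have hs : HasCompactSupport (iteratedFDeriv ℝ j (bp F)) :=
      (bp F).hasCompactSupport.iteratedFDeriv j
    obtain ⟨C, hC⟩ := hc.bounded_above_of_compact_support hs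
    exact ⟨C, (norm_nonneg _).trans (hC 0), hC⟩
  choose C hC0 hC using h1
  refine ⟨1 + ∑ j ∈ Finset.range (K + 1), C j, ?_, ?_⟩
  · have : 0 ≤ ∑ j ∈ Finset.range (K + 1), C j := Finset.sum_nonneg fun j _ => hC0 j
    linarith
  · intro j hj z
    have h2 := Finset.single_le_sum (f := C) (fun i _ => hC0 i)
      (Finset.mem_range.2 (Nat.lt_succ_of_le hj))
    have := hC j z
    linarith

theorem norm_iteratedFDeriv_bs_le {C : ℝ} {K : ℕ}
    (hC : ∀ j ≤ K, ∀ z : F, ‖iteratedFDeriv ℝ j (bp F) z‖ ≤ C) (hC1 : 1 ≤ C) (x : F) {ρ : ℝ}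
    (hρ : 0 < ρ) (hρ1 : ρ ≤ 1) {j : ℕ} (hj : j ≤ K) (z : F) :
    ‖iteratedFDeriv ℝ j (bs x ρ) z‖ ≤ C * (ρ⁻¹) ^ K := by
  have h1 : bs x ρ = fun z => ((bp F : F → ℝ) ∘ (ρ⁻¹ • ContinuousLinearMap.id ℝ F : F →L[ℝ] F))
      (z - x) := by
    funext z
    simp [bs]
  rw [h1, iteratedFDeriv_comp_sub]
  have hcd : ContDiff ℝ j (bp F : F → ℝ) := (bp F).contDiff.of_le (by exact_mod_cast le_top)
  rw [ContinuousLinearMap.iteratedFDeriv_comp_right _ hcd _ le_rfl]
  refine (ContinuousMultilinearMap.norm_compContinuousLinearMap_le _ _).trans ?_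
  have h2 : ‖(ρ⁻¹ • ContinuousLinearMap.id ℝ F : F →L[ℝ] F)‖ ≤ ρ⁻¹ := by
    rw [norm_smul, norm_inv, Real.norm_of_nonneg hρ.le]
    have := ContinuousLinearMap.norm_id_le (𝕜 := ℝ) (E := F)
    have h3 : 0 ≤ ρ⁻¹ := by positivity
    nlinarith
  have h3 : ∏ _i : Fin j, ‖(ρ⁻¹ • ContinuousLinearMap.id ℝ F : F →L[ℝ] F)‖ ≤ (ρ⁻¹) ^ K := by
    rw [Finset.prod_const, Finset.card_univ, Fintype.card_fin]
    refine (pow_le_pow_left₀ (norm_nonneg _) h2 j).trans ?_
    exact pow_le_pow_right₀ ((one_le_inv₀ hρ).2 hρ1) hj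
  exact mul_le_mul (hC j hj _) h3 (Finset.prod_nonneg fun _ _ => norm_nonneg _) (by linarith)

/-- **averages control values.** -/
theorem norm_le_of_tested (μ : Measure F) {w : F → G} {x : F} {ρ L T c : ℝ}
    (hρ : 0 < ρ) (hw : Continuous w) (hμ : μ (closedBall x ρ) < ⊤)
    (hL : ∀ z ∈ ball x ρ, ‖w z - w x‖ ≤ L) (hc : 0 < c)
    (hlow : c ≤ μ.real (closedBall x (ρ / 2)))
    (hT : ‖∫ z, bs x ρ z • w z ∂μ‖ ≤ T) : ‖w x‖ ≤ L + T / c := by
  have hL0 : 0 ≤ L := (norm_nonneg _).trans (hL x (mem_ball_self hρ))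
  set B := closedBall x ρ with hB
  have hfin : IsFiniteMeasure (μ.restrict B) := ⟨by rw [Measure.restrict_apply_univ]; exact hμ⟩
  have hz : ∀ z ∉ B, bs x ρ z = 0 := by
    intro z hz
    by_contra h
    exact hz (ball_subset_closedBall (bs_support hρ h))
  have hcb : Continuous (bs x ρ) := (contDiff_bs x ρ).continuous
  have i1 : Integrable (fun z => bs x ρ z) (μ.restrict B) :=
    hcb.integrable_of_hasCompactSupport (bs_compact hρ)
  have i2 : Integrable (fun z => bs x ρ z • w z) (μ.restrict B) :=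
    (hcb.smul hw).integrable_of_hasCompactSupport (bs_compact hρ).smul_right
  have e1 : ∫ z, bs x ρ z • w z ∂μ = ∫ z in B, bs x ρ z • w z ∂μ :=
    (setIntegral_eq_integral_of_forall_compl_eq_zero fun z h => by rw [hz z h, zero_smul]).symm
  set M := ∫ z in B, bs x ρ z ∂μ with hM
  have hMc : c ≤ M := by
    refine hlow.trans ?_
    have h1 : μ.real (closedBall x (ρ / 2)) = ∫ z in B, (closedBall x (ρ / 2)).indicator
        (fun _ => (1 : ℝ)) z ∂μ := by
      rw [integral_indicator isClosed_closedBall.measurableSet, setIntegral_const]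
      rw [smul_eq_mul, mul_one, measureReal_restrict_apply isClosed_closedBall.measurableSet]
      rw [inter_eq_left.2 (closedBall_subset_closedBall (by linarith))]
    rw [h1]
    refine integral_mono_of_nonneg ?_ i1 ?_
    · exact Eventually.of_forall fun z => indicator_nonneg (fun _ _ => zero_le_one) z
    · refine Eventually.of_forall fun z => ?_
      by_cases h : z ∈ closedBall x (ρ / 2)
      · rw [indicator_of_mem h, bs_eq_one hρ h]
      · rw [indicator_of_notMem h]
        exact bs_nonneg x ρ z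
  have hM0 : 0 < M := hc.trans_le hMc
  have e2 : M • w x = (∫ z, bs x ρ z • w z ∂μ) - ∫ z in B, bs x ρ z • (w z - w x) ∂μ := by
    rw [e1, ← integral_sub i2]
    · rw [hM, ← integral_smul_const]
      refine integral_congr_ae (Eventually.of_forall fun z => ?_)
      simp only [smul_sub]
      abel
    · exact (hcb.smul (hw.sub continuous_const)).integrable_of_hasCompactSupport
        (bs_compact hρ).smul_right
  have h3 : ‖∫ z in B, bs x ρ z • (w z - w x) ∂μ‖ ≤ M * L := by
    rw [hM, ← integral_mul_const]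
    refine norm_integral_le_of_norm_le (i1.mul_const L) (Eventually.of_forall fun z => ?_)
    rw [norm_smul, Real.norm_of_nonneg (bs_nonneg x ρ z)]
    by_cases h : z ∈ ball x ρ
    · exact mul_le_mul_of_nonneg_left (hL z h) (bs_nonneg x ρ z)
    · have : bs x ρ z = 0 := by
        by_contra h'
        exact h (bs_support hρ h')
      rw [this, zero_mul, zero_mul]
  have h4 : M * ‖w x‖ ≤ T + M * L := by
    have h5 : ‖M • w x‖ = M * ‖w x‖ := by rw [norm_smul, Real.norm_of_nonneg hM0.le]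
    rw [← h5, e2]
    exact (norm_sub_le _ _).trans (add_le_add hT h3)
  have hT0 : 0 ≤ T := (norm_nonneg _).trans hT
  have h6 : ‖w x‖ ≤ T / M + L := by
    rw [← mul_le_mul_iff_right₀ hM0]
    have : M * (T / M + L) = T + M * L := by field_simp
    rw [this]
    exact h4
  have h7 : T / M ≤ T / c := div_le_div_of_nonneg_left hT0 hc hMc
  linarith

/-! ### Landau's inequality -/

variable {G' : Type*} [NormedAddCommGroup G'] [NormedSpace ℝ G']

/-- `|Df| ≤ 2 a / t + b t`. -/
theorem landau {f : F → G'} {x : F} {a b t : ℝ} (ht : 0 < t)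
    (hd : ∀ z ∈ ball x (2 * t), DifferentiableAt ℝ f z)
    (ha : ∀ z ∈ ball x (2 * t), ‖f z‖ ≤ a)
    (hb : ∀ z ∈ ball x (2 * t), ‖fderiv ℝ f z - fderiv ℝ f x‖ ≤ b * ‖z - x‖) (hb0 : 0 ≤ b) :
    ‖fderiv ℝ f x‖ ≤ 2 * a / t + b * t := by
  have hx : x ∈ ball x (2 * t) := mem_ball_self (by linarith)
  have ha0 : 0 ≤ a := (norm_nonneg _).trans (ha x hx)
  refine ContinuousLinearMap.opNorm_le_of_unit_norm (by positivity) ?_
  intro v hv
  set T := fderiv ℝ f x with hT
  have hmem : x + t • v ∈ closedBall x t := by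
    rw [mem_closedBall, dist_eq_norm, add_sub_cancel_left, norm_smul, hv,
      Real.norm_of_nonneg ht.le, mul_one]
  have key : ‖f (x + t • v) - f x - T (x + t • v - x)‖ ≤ (b * t) * ‖x + t • v - x‖ := by
    refine (convex_closedBall x t).norm_image_sub_le_of_norm_hasFDerivWithin_le'
      (f' := fun z => fderiv ℝ f z) ?_ ?_ (mem_closedBall_self ht.le) hmem
    · intro z hz
      have : z ∈ ball x (2 * t) := closedBall_subset_ball (by linarith) hz
      exact (hd z this).hasFDerivAt.hasFDerivWithinAt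
    · intro z hz
      have h1 : z ∈ ball x (2 * t) := closedBall_subset_ball (by linarith) hz
      refine (hb z h1).trans ?_
      rw [mem_closedBall, dist_eq_norm] at hz
      exact mul_le_mul_of_nonneg_left hz hb0
  rw [add_sub_cancel_left, norm_smul, hv, Real.norm_of_nonneg ht.le, mul_one, map_smul] at key
  have h2 : ‖t • T v‖ ≤ 2 * a + b * t * t := by
    have e : t • T v = (f (x + t • v) - f x) - (f (x + t • v) - f x - t • T v) := by abel
    rw [e]
    refine (norm_sub_le _ _).trans (add_le_add ?_ key)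
    refine (norm_sub_le _ _).trans ?_
    have h3 := ha _ (closedBall_subset_ball (by linarith) hmem)
    have h4 := ha x hx
    linarith
  rw [norm_smul, Real.norm_of_nonneg ht.le] at h2
  rw [← mul_le_mul_iff_right₀ ht]
  have : t * (2 * a / t + b * t) = 2 * a + b * t * t := by field_simp
  rw [this]
  exact h2

/-- Landau's inequality for iterated derivatives. -/
theorem landau_iter {f : F → G} (hf : ContDiff ℝ ∞ f) {j : ℕ} {x : F} {a b t : ℝ} (ht : 0 < t)
    (ha : ∀ z ∈ ball x (2 * t), ‖iteratedFDeriv ℝ j f z‖ ≤ a)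
    (hb : ∀ z ∈ ball x (2 * t), ‖iteratedFDeriv ℝ (j + 2) f z‖ ≤ b) :
    ‖iteratedFDeriv ℝ (j + 1) f x‖ ≤ 2 * a / t + b * t := by
  have hx : x ∈ ball x (2 * t) := mem_ball_self (by linarith)
  have hb0 : 0 ≤ b := (norm_nonneg _).trans (hb x hx)
  have hd : ∀ i : ℕ, Differentiable ℝ (iteratedFDeriv ℝ i f) := fun i =>
    hf.differentiable_iteratedFDeriv (by exact_mod_cast ENat.natCast_lt_top i)
  have hfd : ∀ z, fderiv ℝ (iteratedFDeriv ℝ j f) z =
      (continuousMultilinearCurryLeftEquiv ℝ (fun _ : Fin (j + 1) => F) G)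
        (iteratedFDeriv ℝ (j + 1) f z) := by
    intro z
    rw [fderiv_iteratedFDeriv]
    rfl
  have h1 : ∀ z ∈ ball x (2 * t), ‖fderiv ℝ (iteratedFDeriv ℝ j f) z -
      fderiv ℝ (iteratedFDeriv ℝ j f) x‖ ≤ b * ‖z - x‖ := by
    intro z hz
    have hiso := (continuousMultilinearCurryLeftEquiv ℝ (fun _ : Fin (j + 1) => F) G).isometry.dist_eq
      (iteratedFDeriv ℝ (j + 1) f z) (iteratedFDeriv ℝ (j + 1) f x)
    rw [← hfd, ← hfd, dist_eq_norm, dist_eq_norm] at hiso
    rw [hiso]
    refine (convex_ball x (2 * t)).norm_image_sub_le_of_norm_fderiv_le (𝕜 := ℝ)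
      (f := iteratedFDeriv ℝ (j + 1) f) (fun y _ => (hd (j + 1)) y) ?_ hx hz
    intro y hy
    rw [norm_fderiv_iteratedFDeriv]
    exact hb y hy
  have := landau (f := iteratedFDeriv ℝ j f) (x := x) ht (fun z _ => (hd j) z) ha h1 hb0
  rwa [norm_fderiv_iteratedFDeriv] at this

/-! ### the interpolation theorem -/

/-- iterated square roots. -/
def rt (ρ : ℝ) : ℕ → ℝ
  | 0 => ρ
  | j + 1 => Real.sqrt (rt ρ j)

theorem rt_pos {ρ : ℝ} (h : 0 < ρ) : ∀ j, 0 < rt ρ j
  | 0 => h
  | j + 1 => Real.sqrt_pos.2 (rt_pos h j)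

theorem rt_le_one {ρ : ℝ} (h1 : ρ ≤ 1) : ∀ j, rt ρ j ≤ 1
  | 0 => h1
  | j + 1 => by
    have := rt_le_one h1 j
    exact Real.sqrt_le_one.2 this

theorem rt_le_succ {ρ : ℝ} (h : 0 < ρ) (h1 : ρ ≤ 1) (j : ℕ) : rt ρ j ≤ rt ρ (j + 1) := by
  have h2 := rt_le_one h1 j
  have h3 := rt_pos h j
  change rt ρ j ≤ Real.sqrt (rt ρ j)
  refine Real.le_sqrt_of_sq_le ?_
  nlinarith

theorem rt_mono {ρ : ℝ} (h : 0 < ρ) (h1 : ρ ≤ 1) {i j : ℕ} (hij : i ≤ j) : rt ρ i ≤ rt ρ j :=
  monotone_nat_of_le_succ (rt_le_succ h h1) hij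

/-- constants. -/
def ct (C : ℝ) : ℕ → ℝ
  | 0 => C
  | j + 1 => 2 * ct C j + 1

theorem ct_nonneg {C : ℝ} (h : 0 ≤ C) : ∀ j, 0 ≤ ct C j
  | 0 => h
  | j + 1 => by
    have := ct_nonneg h j
    change 0 ≤ 2 * ct C j + 1
    linarith

theorem ct_mono {C : ℝ} (h : 0 ≤ C) {i j : ℕ} (hij : i ≤ j) : ct C i ≤ ct C j := by
  refine monotone_nat_of_le_succ (fun j => ?_) hij
  have := ct_nonneg h j
  change ct C j ≤ 2 * ct C j + 1
  linarith

/-- the induction. -/
theorem interp_aux {w : F → G} (hw : ContDiff ℝ ∞ w) {A C ρ R : ℝ} {J : ℕ} (hρ : 0 < ρ)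
    (_hA0 : 0 ≤ A) (hA : ∀ j ≤ J + 1, ∀ z ∈ ball (0 : F) R, ‖iteratedFDeriv ℝ j w z‖ ≤ A)
    (h0 : ∀ z ∈ ball (0 : F) R, ‖w z‖ ≤ C * ρ * A) :
    ∀ j ≤ J, ∀ z ∈ ball (0 : F) (R - 2 * ∑ i ∈ Finset.range j, rt ρ (i + 1)),
      ‖iteratedFDeriv ℝ j w z‖ ≤ ct C j * rt ρ j * A := by
  intro j
  induction j with
  | zero =>
    intro _ z hz
    simp only [Finset.range_zero, Finset.sum_empty, mul_zero, sub_zero] at hz
    rw [norm_iteratedFDeriv_zero]
    exact h0 z hz
  | succ j ih =>
    intro hj z hz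
    rw [Finset.sum_range_succ] at hz
    set S := ∑ i ∈ Finset.range j, rt ρ (i + 1) with hS
    set t := rt ρ (j + 1) with ht
    have htp : 0 < t := rt_pos hρ _
    have hS0 : 0 ≤ S := Finset.sum_nonneg fun i _ => (rt_pos hρ _).le
    have hsub : ball z (2 * t) ⊆ ball (0 : F) (R - 2 * S) := by
      intro y hy
      rw [mem_ball_zero_iff] at hz ⊢
      rw [mem_ball, dist_eq_norm] at hy
      have : ‖y‖ ≤ ‖y - z‖ + ‖z‖ := by
        calc ‖y‖ = ‖(y - z) + z‖ := by congr 1; abel
          _ ≤ _ := norm_add_le _ _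
      linarith
    have hsub2 : ball z (2 * t) ⊆ ball (0 : F) R :=
      hsub.trans (ball_subset_ball (by linarith))
    have h1 := landau_iter hw (j := j) (x := z) htp
      (fun y hy => ih (by omega) y (hsub hy))
      (fun y hy => hA (j + 2) (by omega) y (hsub2 hy))
    refine h1.trans (le_of_eq ?_)
    have hsq : rt ρ j = t * t := by
      rw [ht]
      change rt ρ j = Real.sqrt (rt ρ j) * Real.sqrt (rt ρ j)
      rw [Real.mul_self_sqrt (rt_pos hρ j).le]
    change 2 * (ct C j * rt ρ j * A) / t + A * t = (2 * ct C j + 1) * t * A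
    rw [hsq]
    field_simp

/-- **interpolation.**  `w` has derivatives bounded by `A` and tested averages `≤ ρ^(d+K+1) A`
with respect to a measure of lower density at scale `ρ`; then all derivatives are small. -/
theorem interp (F : Type*) [NormedAddCommGroup F] [InnerProductSpace ℝ F] [FiniteDimensional ℝ F]
    [MeasurableSpace F] [BorelSpace F] (K J : ℕ) :
    ∃ C₀ : ℝ, 1 ≤ C₀ ∧ ∀ (G : Type) [NormedAddCommGroup G] [NormedSpace ℝ G] [CompleteSpace G]
      (d : ℕ) (μ : Measure F) (w : F → G) (r ε A ρ c : ℝ), ContDiff ℝ ∞ w →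
      0 < ε → ε ≤ 1 → 0 < ρ → ρ ≤ 1 → 0 < c → c ≤ 1 → 0 ≤ A →
      (∀ j ≤ J + 1, ∀ z ∈ ball (0 : F) (r + ε), ‖iteratedFDeriv ℝ j w z‖ ≤ A) →
      μ (ball 0 (r + ε)) < ⊤ →
      (∀ z ∈ ball (0 : F) (r + ε / 2), c * ρ ^ d ≤ μ.real (closedBall z (ρ / 2))) →
      (∀ ζ : F → ℝ, ContDiff ℝ ∞ ζ → tsupport ζ ⊆ ball 0 (r + ε) →
        (∀ j ≤ K, ∀ z, ‖iteratedFDeriv ℝ j ζ z‖ ≤ 1) → ‖∫ z, ζ z • w z ∂μ‖ ≤ ρ ^ (d + K + 1) * A) →
      ∀ j ≤ J, ∀ z ∈ ball (0 : F) r, ‖iteratedFDeriv ℝ j w z‖ ≤ C₀ / (c * ε) * rt ρ J * A := by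
  obtain ⟨Cη, hCη1, hCη⟩ := exists_bp_bound F K
  set B : ℝ := ct (1 + Cη) J with hB
  have hB0 : 0 ≤ B := ct_nonneg (by linarith) J
  refine ⟨B + (4 * J + 4), by have : (0:ℝ) ≤ J := Nat.cast_nonneg J; linarith, ?_⟩
  intro G _ _ _ d μ w r ε A ρ c hw hε hε1 hρ hρ1 hc hc1 hA0 hA hfin hlow htest j hj z hz
  have hJ0 : (0 : ℝ) ≤ J := Nat.cast_nonneg J
  have hrt : 0 < rt ρ J := rt_pos hρ J
  by_cases hsmall : rt ρ J ≤ ε / (4 * J + 4)
  · -- the main case
    have hρε : ρ ≤ ε / 4 := by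
      have h1 : ρ ≤ rt ρ J := rt_mono hρ hρ1 (Nat.zero_le J)
      refine h1.trans (hsmall.trans ?_)
      refine div_le_div_of_nonneg_left hε.le (by norm_num) (by linarith)
    have h0 : ∀ y ∈ ball (0 : F) (r + ε / 2), ‖w y‖ ≤ ((1 + Cη) / c) * ρ * A := by
      intro y hy
      rw [mem_ball_zero_iff] at hy
      have hcb : closedBall y ρ ⊆ ball (0 : F) (r + ε) := by
        intro v hv
        rw [mem_closedBall, dist_eq_norm] at hv
        rw [mem_ball_zero_iff]
        have : ‖v‖ ≤ ‖v - y‖ + ‖y‖ := by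
          calc ‖v‖ = ‖(v - y) + y‖ := by congr 1; abel
            _ ≤ _ := norm_add_le _ _
        linarith
      set q : ℝ := (Cη * (ρ⁻¹) ^ K)⁻¹ with hq
      have hCp : 0 < Cη * (ρ⁻¹) ^ K := by positivity
      have hq0 : 0 < q := inv_pos.2 hCp
      have hζ := htest (fun v => q * bs y ρ v) (contDiff_const.mul (contDiff_bs y ρ)) ?_ ?_
      · have e1 : ∫ v, (q * bs y ρ v) • w v ∂μ = q • ∫ v, bs y ρ v • w v ∂μ := by
          rw [← integral_smul]
          refine integral_congr_ae (Eventually.of_forall fun v => ?_)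
          simp only [mul_smul]
        rw [e1, norm_smul, Real.norm_of_nonneg hq0.le] at hζ
        have hT : ‖∫ v, bs y ρ v • w v ∂μ‖ ≤ Cη * ρ ^ (d + 1) * A := by
          have h2 : ‖∫ v, bs y ρ v • w v ∂μ‖ ≤ q⁻¹ * (ρ ^ (d + K + 1) * A) := by
            rw [← mul_le_mul_iff_right₀ hq0, mul_inv_cancel_left₀ hq0.ne']
            exact hζ
          refine h2.trans (le_of_eq ?_)
          rw [hq, inv_inv, inv_pow]
          have : ρ ^ (d + K + 1) = ρ ^ (d + 1) * ρ ^ K := by ring
          rw [this]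
          field_simp
        have h3 := norm_le_of_tested μ (w := w) (x := y) (L := A * ρ) (c := c * ρ ^ d) hρ
          hw.continuous ((measure_mono hcb).trans_lt hfin) ?_ (by positivity)
          (hlow y (by rwa [mem_ball_zero_iff])) hT
        · have h30 : Cη * ρ ^ (d + 1) * A / (c * ρ ^ d) = Cη * ρ * A / c := by
            rw [pow_succ]
            field_simp
          rw [h30] at h3
          have h4 : A * ρ ≤ ρ * A / c := by
            rw [le_div_iff₀ hc]
            nlinarith [mul_nonneg hA0 hρ.le]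
          have h5 : (1 + Cη) / c * ρ * A = ρ * A / c + Cη * ρ * A / c := by
            field_simp
          rw [h5]
          linarith
        · intro v hv
          have hv' : v ∈ ball (0 : F) (r + ε) := hcb (ball_subset_closedBall hv)
          have hy' : y ∈ ball (0 : F) (r + ε) := by rw [mem_ball_zero_iff]; linarith
          have h4 := (convex_ball (0 : F) (r + ε)).norm_image_sub_le_of_norm_fderiv_le (𝕜 := ℝ)
            (f := w) (fun u _ => (hw.differentiable (by simp)) u) (C := A) (fun u hu => by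
              have := hA 1 (by omega) u hu
              rwa [norm_iteratedFDeriv_one] at this) hy' hv'
          refine h4.trans ?_
          rw [mem_ball, dist_eq_norm] at hv
          exact mul_le_mul_of_nonneg_left hv.le hA0
      · refine Subset.trans ?_ hcb
        refine Subset.trans (closure_mono ?_) (bs_tsupport (x := y) hρ)
        intro v hv
        rw [Function.mem_support] at hv ⊢
        exact right_ne_zero_of_mul hv
      · intro i hi v
        have e2 : (fun v => q * bs y ρ v) = q • (fun v => bs y ρ v) := by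
          funext v; simp
        rw [e2, iteratedFDeriv_const_smul_apply ((contDiff_bs y ρ).contDiffAt.of_le
          (by exact_mod_cast le_top)), norm_smul, Real.norm_of_nonneg hq0.le]
        have := norm_iteratedFDeriv_bs_le hCη hCη1 y hρ hρ1 hi v
        calc q * ‖iteratedFDeriv ℝ i (fun v => bs y ρ v) v‖ ≤ q * (Cη * (ρ⁻¹) ^ K) :=
              mul_le_mul_of_nonneg_left this hq0.le
          _ = 1 := by rw [hq]; exact inv_mul_cancel₀ hCp.ne'
    have h1 := interp_aux (J := J) hw hρ hA0 (R := r + ε / 2) (C := (1 + Cη) / c) (A := A)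
      (fun i hi y hy => hA i hi y (ball_subset_ball (by linarith) hy)) h0 j hj z ?_
    · refine h1.trans ?_
      have hcc : ct ((1 + Cη) / c) j ≤ ct (1 + Cη) J / c := by
        have h2 : ∀ i : ℕ, ct ((1 + Cη) / c) i ≤ ct (1 + Cη) i / c := by
          intro i
          induction i with
          | zero => exact le_rfl
          | succ i ih =>
            change 2 * ct ((1 + Cη) / c) i + 1 ≤ (2 * ct (1 + Cη) i + 1) / c
            rw [le_div_iff₀ hc] at ih ⊢
            nlinarith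
        refine (h2 j).trans ?_
        gcongr
        exact ct_mono (by linarith) hj
      have hrj : rt ρ j ≤ rt ρ J := rt_mono hρ hρ1 hj
      have h3 : ct ((1 + Cη) / c) j * rt ρ j * A ≤ (B / c) * rt ρ J * A := by
        have h0' : 0 ≤ ct ((1 + Cη) / c) j := ct_nonneg (by positivity) j
        have h4 := (rt_pos hρ j).le
        gcongr
      refine h3.trans ?_
      have h5 : B / c ≤ (B + (4 * J + 4)) / (c * ε) := by
        rw [div_le_div_iff₀ hc (by positivity)]
        have : B * (c * ε) ≤ B * c := by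
          have := mul_le_mul_of_nonneg_left hε1 (mul_nonneg hB0 hc.le)
          nlinarith
        nlinarith [mul_nonneg (by linarith : (0:ℝ) ≤ 4 * J + 4) hc.le]
      gcongr
    · have h6 : ∑ i ∈ Finset.range j, rt ρ (i + 1) ≤ J * (ε / (4 * J + 4)) := by
        calc ∑ i ∈ Finset.range j, rt ρ (i + 1) ≤ ∑ _i ∈ Finset.range j, rt ρ J := by
              refine Finset.sum_le_sum fun i hi => ?_
              have := Finset.mem_range.1 hi
              exact rt_mono hρ hρ1 (by omega)
          _ = j * rt ρ J := by simp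
          _ ≤ J * (ε / (4 * J + 4)) := by gcongr
      have h7 : (J : ℝ) * (ε / (4 * J + 4)) ≤ ε / 4 := by
        rw [mul_div_assoc', div_le_div_iff₀ (by linarith) (by norm_num)]
        nlinarith
      exact ball_subset_ball (by linarith) hz
  · -- trivial case
    rw [not_le] at hsmall
    refine (hA j (by omega) z (ball_subset_ball (by linarith) hz)).trans ?_
    have h1 : 1 ≤ (B + (4 * J + 4)) / (c * ε) * rt ρ J := by
      rw [div_lt_iff₀ (by linarith)] at hsmall
      rw [div_mul_eq_mul_div, le_div_iff₀ (by positivity), one_mul]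
      have : c * ε ≤ ε := mul_le_of_le_one_left hε.le hc1
      nlinarith [mul_nonneg hB0 hrt.le]
    nlinarith

end Crest.Agent.R234.Sw_733
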