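import Crest.Agent.R234.Grot8_842
import Crest.Agent.R234.Sw1_733

/-!
# Row 234, node RESCALE (helper182), part 3: abstract pieces

* `rot_core'`   : 842's rotation of a global graph for `q` near `0` (not the slope at `0`)
* `rot_glob`    : the coordinate change `ψ a = H (a + qᵀ v a)` is a bijection, close to the identity
* `cutU`        : cut-off on an open set with derivative bounds
* `interp_glob` : interpolation `sup |w| ≤ C ρ A`, `|D^j w| ≤ A` ⟹ `|D^j w| ≤ C' ρ^(2^-J) A`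
* `loc_model`   : derivatives of a function with a rescaled local model
-/

set_option autoImplicit false
set_option linter.unusedSectionVars false

open Set Metric Filter Topology
open scoped ContDiff NNReal RealInnerProductSpace

noncomputable section

namespace Crest.Agent.R234.Rs_182

open Crest.Agent.R234.Ell1_3 Crest.Agent.R234.Grot_842

section

variable {F V : Type} [NormedAddCommGroup F] [InnerProductSpace ℝ F] [FiniteDimensional ℝ F]
  [NormedAddCommGroup V] [InnerProductSpace ℝ V] [FiniteDimensional ℝ V]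

/-- bijectivity for differentiable maps close to the identity -/
theorem exists_inv0 {ψ : F → F} (hd : Differentiable ℝ ψ) (h1 : ∀ x, ‖fderiv ℝ ψ x - 1‖ ≤ 1 / 2) :
    ∃ φ : F → F, Continuous φ ∧ (∀ y, ψ (φ y) = y) ∧ (∀ x, φ (ψ x) = x) := by
  have hap : ApproximatesLinearOn ψ (ContinuousLinearEquiv.refl ℝ F : F →L[ℝ] F) univ
      (1 / 2 : ℝ≥0) := by
    intro x _ y _
    have h := Convex.norm_image_sub_le_of_norm_hasFDerivWithin_le (𝕜 := ℝ)
      (f := fun z => ψ z - z) (f' := fun z => fderiv ℝ ψ z - 1) (s := univ) (C := 1 / 2)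
      (fun z _ => ((hd z).hasFDerivAt.sub (hasFDerivAt_id z)).hasFDerivWithinAt)
      (fun z _ => h1 z) convex_univ (mem_univ y) (mem_univ x)
    have e : ψ x - ψ y - (ContinuousLinearEquiv.refl ℝ F : F →L[ℝ] F) (x - y) =
        (ψ x - x) - (ψ y - y) := by
      simp only [ContinuousLinearEquiv.coe_refl, ContinuousLinearMap.coe_id', id_eq]; abel
    rw [e]
    simpa using h
  have hc : Subsingleton F ∨ (1 / 2 : ℝ≥0) <
      ‖((ContinuousLinearEquiv.refl ℝ F).symm : F →L[ℝ] F)‖₊⁻¹ := by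
    rcases subsingleton_or_nontrivial F with h | h
    · exact Or.inl h
    · right
      have : ‖((ContinuousLinearEquiv.refl ℝ F).symm : F →L[ℝ] F)‖₊ = 1 := by
        have h2 : ‖((ContinuousLinearEquiv.refl ℝ F).symm : F →L[ℝ] F)‖ = 1 :=
          ContinuousLinearMap.norm_id
        exact NNReal.eq h2
      rw [this, inv_one]
      exact NNReal.half_lt_self one_ne_zero
  let e : F ≃ₜ F := hap.toHomeomorph ψ hc
  have he : ∀ x, e x = ψ x := fun x => rfl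
  refine ⟨e.symm, e.symm.continuous, ?_, ?_⟩
  · intro y; rw [← he]; exact e.apply_symm_apply y
  · intro x; rw [← he]; exact e.symm_apply_apply x

/-- the coordinate change -/
def chg (q : F →L[ℝ] V) (H : F →L[ℝ] F) (v : F → V) (a : F) : F :=
  H (a + ContinuousLinearMap.adjoint q (v a))

variable {q : F →L[ℝ] V} {H : F →L[ℝ] F} {H' : V →L[ℝ] V}

theorem hasFDerivAt_chg {v : F → V} {x : F} (hv : DifferentiableAt ℝ v x) :
    HasFDerivAt (chg q H v) (H ∘L (ContinuousLinearMap.id ℝ F +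
      ContinuousLinearMap.adjoint q ∘L fderiv ℝ v x)) x :=
  H.hasFDerivAt.comp x ((hasFDerivAt_id x).add
    ((ContinuousLinearMap.adjoint q).hasFDerivAt.comp x hv.hasFDerivAt))

theorem norm_dchg_sub (hR : Rt q H H') {T : F →L[ℝ] V} {l : ℝ} (hl : ‖T‖ ≤ l) (hq : ‖q‖ ≤ l) :
    ‖H ∘L (ContinuousLinearMap.id ℝ F + ContinuousLinearMap.adjoint q ∘L T) - 1‖ ≤
      2 * l * ‖q‖ := by
  have e : H ∘L (ContinuousLinearMap.id ℝ F + ContinuousLinearMap.adjoint q ∘L T) - 1 =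
      (H - 1) + (H ∘L (ContinuousLinearMap.adjoint q ∘L T)) := by
    ext y; simp; abel
  rw [e]
  have h1 : ‖H ∘L (ContinuousLinearMap.adjoint q ∘L T)‖ ≤ 1 * (‖q‖ * l) := by
    refine (ContinuousLinearMap.opNorm_comp_le _ _).trans ?_
    have h2 : ‖ContinuousLinearMap.adjoint q ∘L T‖ ≤ ‖q‖ * l := by
      refine (ContinuousLinearMap.opNorm_comp_le _ _).trans ?_
      rw [LinearIsometryEquiv.norm_map]
      gcongr
    exact mul_le_mul hR.norm_le h2 (norm_nonneg _) zero_le_one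
  have h3 := hR.norm_sub
  calc _ ≤ ‖q‖ ^ 2 + 1 * (‖q‖ * l) := (norm_add_le _ _).trans (add_le_add h3 h1)
    _ ≤ 2 * l * ‖q‖ := by nlinarith [norm_nonneg q]

/-- **the coordinate change is a bijection close to the identity** -/
theorem rot_glob (hR : Rt q H H') {v : F → V} {l : ℝ} (hl0 : 0 ≤ l) (hl : l ≤ 1 / 8)
    (hq : ‖q‖ ≤ l) (hd : Differentiable ℝ v) (hv0 : v 0 = 0) (hb : ∀ x, ‖fderiv ℝ v x‖ ≤ l) :
    ∃ φ : F → F, Continuous φ ∧ (∀ y, chg q H v (φ y) = y) ∧ (∀ x, φ (chg q H v x) = x) ∧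
      φ 0 = 0 ∧ (∀ y, ‖φ y - y‖ ≤ 4 * l * ‖q‖ * ‖y‖) := by
  have hq0 := norm_nonneg q
  have hψd : Differentiable ℝ (chg q H v) := fun x => (hasFDerivAt_chg (hd x)).differentiableAt
  have hnear : ∀ x, ‖fderiv ℝ (chg q H v) x - 1‖ ≤ 1 / 2 := fun x => by
    rw [(hasFDerivAt_chg (hd x)).fderiv]
    refine (norm_dchg_sub hR (hb x) hq).trans ?_
    nlinarith
  obtain ⟨φ, hφ, h1, h2⟩ := exists_inv0 hψd hnear
  have hψ0 : chg q H v 0 = 0 := by simp [chg, hv0]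
  have hφ0 : φ 0 = 0 := by
    have h3 := h2 0
    rwa [hψ0] at h3
  have hlow : ∀ x, ‖chg q H v x - x‖ ≤ 2 * l * ‖q‖ * ‖x‖ := by
    intro x
    have h := Convex.norm_image_sub_le_of_norm_hasFDerivWithin_le (𝕜 := ℝ)
      (f := fun z => chg q H v z - z) (f' := fun z => fderiv ℝ (chg q H v) z - 1) (s := univ)
      (C := 2 * l * ‖q‖)
      (fun z _ => ((hψd z).hasFDerivAt.sub (hasFDerivAt_id z)).hasFDerivWithinAt)
      (fun z _ => by
        rw [(hasFDerivAt_chg (hd z)).fderiv]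
        exact norm_dchg_sub hR (hb z) hq) convex_univ (mem_univ 0) (mem_univ x)
    simpa [hψ0] using h
  refine ⟨φ, hφ, h1, h2, hφ0, fun y => ?_⟩
  have h3 := hlow (φ y)
  rw [h1] at h3
  have h4 : ‖φ y‖ ≤ 2 * ‖y‖ := by
    have h5 : ‖φ y‖ ≤ ‖y‖ + ‖y - φ y‖ := by
      calc ‖φ y‖ = ‖y - (y - φ y)‖ := by congr 1; abel
        _ ≤ _ := norm_sub_le _ _
    have h6 : 2 * l * ‖q‖ * ‖φ y‖ ≤ 1 / 2 * ‖φ y‖ := by
      have : 2 * l * ‖q‖ ≤ 1 / 2 := by nlinarith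
      gcongr
    linarith
  rw [norm_sub_rev]
  calc ‖y - φ y‖ ≤ 2 * l * ‖q‖ * ‖φ y‖ := h3
    _ ≤ 2 * l * ‖q‖ * (2 * ‖y‖) := by gcongr
    _ = _ := by ring

end

/-- the rotated graph of a globally defined `v` with small derivatives; `q` arbitrary small -/
theorem rot_core' (F V : Type) [NormedAddCommGroup F] [InnerProductSpace ℝ F]
    [FiniteDimensional ℝ F] [NormedAddCommGroup V] [InnerProductSpace ℝ V] [FiniteDimensional ℝ V]
    (K : ℕ) : ∃ C : ℝ, 1 ≤ C ∧ ∀ (v : F → V) (q : F →L[ℝ] V) (H : F →L[ℝ] F) (H' : V →L[ℝ] V)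
      (κ : ℝ), 0 ≤ κ → κ ≤ 1 / 8 → ContDiff ℝ ∞ v → v 0 = 0 → ‖q‖ ≤ κ → Rt q H H' →
      (∀ j, 1 ≤ j → j ≤ K + 1 → ∀ x, ‖iteratedFDeriv ℝ j v x‖ ≤ κ) →
      ∃ (φ : F → F), ContDiff ℝ ∞ φ ∧ (∀ y, chg q H v (φ y) = y) ∧
        (∀ x, φ (chg q H v x) = x) ∧ φ 0 = 0 ∧ (∀ y, ‖φ y‖ ≤ 2 * ‖y‖) ∧
        ContDiff ℝ ∞ (fun y => H' (v (φ y) - q (φ y))) ∧
        (∀ j, 1 ≤ j → j ≤ K + 1 → ∀ y, ‖iteratedFDeriv ℝ j (fun y => H' (v (φ y) - q (φ y))) y‖ ≤
          C * κ) := by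
  obtain ⟨C0, hC0, hC⟩ := inv_bound (F := F) (K + 1) 2 (by norm_num)
  refine ⟨(K + 1).factorial * 2 * C0 ^ (K + 1), ?_, ?_⟩
  · have h1 : (1 : ℝ) ≤ (K + 1).factorial := by exact_mod_cast (K + 1).factorial_pos
    have h2 : (1 : ℝ) ≤ C0 ^ (K + 1) := one_le_pow₀ hC0
    calc (1:ℝ) ≤ 1 * 2 * 1 := by norm_num
      _ ≤ _ := by gcongr
  intro v q H H' κ hκ0 hκ hv hv0 hqκ hR hb
  set qa := ContinuousLinearMap.adjoint q with hqa
  have hdv : Differentiable ℝ v := hv.differentiable (by simp)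
  have hfd : ∀ x, ‖fderiv ℝ v x‖ ≤ κ := fun x => by
    have h := hb 1 le_rfl (by omega) x
    rwa [← norm_iteratedFDeriv_fderiv, norm_iteratedFDeriv_zero] at h
  have hqaκ : ‖qa‖ ≤ κ := by rw [hqa, LinearIsometryEquiv.norm_map]; exact hqκ
  set ψ : F → F := chg q H v with hψd
  have hψ : ContDiff ℝ ∞ ψ := H.contDiff.comp (contDiff_id.add (qa.contDiff.comp hv))
  have hH1 := hR.norm_le
  have hnear : ∀ x, ‖fderiv ℝ ψ x - 1‖ ≤ 1 / 2 := by
    intro x
    rw [hψd, (hasFDerivAt_chg (hdv x)).fderiv]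
    refine (norm_dchg_sub hR (hfd x) hqκ).trans ?_
    nlinarith [norm_nonneg q]
  have hψb : ∀ x, ∀ j, 1 ≤ j → j ≤ K + 1 → ‖iteratedFDeriv ℝ j ψ x‖ ≤ 2 := by
    intro x j hj hj'
    have e : ψ = fun x => H x + (H ∘L qa) (v x) := by
      funext x; simp [hψd, chg, hqa]
    have h1 : iteratedFDeriv ℝ j ψ x = iteratedFDeriv ℝ j H x +
        iteratedFDeriv ℝ j (fun x => (H ∘L qa) (v x)) x := by
      rw [e]
      exact iteratedFDeriv_add_apply (f := fun x => H x) (g := fun x => (H ∘L qa) (v x))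
        (H.contDiff.contDiffAt) (((H ∘L qa).contDiff.comp hv).contDiffAt.of_le (by exact_mod_cast le_top))
    rw [h1]
    have h2 := norm_iter_clm H x hj
    have h3 : ‖iteratedFDeriv ℝ j (fun x => (H ∘L qa) (v x)) x‖ ≤ 1 * κ * κ := by
      have h4 := (H ∘L qa).norm_iteratedFDeriv_comp_left (f := v) (x := x) (N := ∞) (n := j)
        hv.contDiffAt (by exact_mod_cast le_top)
      refine h4.trans ?_
      have h5 : ‖H ∘L qa‖ ≤ 1 * κ := (ContinuousLinearMap.opNorm_comp_le _ _).trans (by gcongr)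
      have h6 := hb j hj hj' x
      gcongr
    calc ‖iteratedFDeriv ℝ j H x + iteratedFDeriv ℝ j (fun x => (H ∘L qa) (v x)) x‖
        ≤ 1 + 1 * κ * κ := (norm_add_le _ _).trans (add_le_add (h2.trans hH1) h3)
      _ ≤ 2 := by nlinarith
  obtain ⟨φ, hφ, h1, h2⟩ := exists_inv hψ hnear
  have hφb := hC ψ φ hψ hφ h1 hnear hψb
  have hψ0 : ψ 0 = 0 := by simp [hψd, chg, hv0]
  have hφ0 : φ 0 = 0 := by
    have h3 := h2 0
    rwa [hψ0] at h3
  have hψlow : ∀ x y, ‖x - y‖ ≤ 2 * ‖ψ x - ψ y‖ := by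
    intro x y
    have h := Convex.norm_image_sub_le_of_norm_hasFDerivWithin_le (𝕜 := ℝ)
      (f := fun z => ψ z - z) (f' := fun z => fderiv ℝ ψ z - 1) (s := univ) (C := 1 / 2)
      (fun z _ => (((hψ.differentiable (by simp)) z).hasFDerivAt.sub
        (hasFDerivAt_id z)).hasFDerivWithinAt)
      (fun z _ => hnear z) convex_univ (mem_univ y) (mem_univ x)
    have e : x - y = (ψ x - ψ y) - ((ψ x - x) - (ψ y - y)) := by abel
    have h3 : ‖x - y‖ ≤ ‖ψ x - ψ y‖ + 1 / 2 * ‖x - y‖ := by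
      nth_rewrite 1 [e]
      exact (norm_sub_le _ _).trans (by gcongr)
    linarith
  have hφn : ∀ y, ‖φ y‖ ≤ 2 * ‖y‖ := by
    intro y
    have h3 := hψlow (φ y) 0
    rw [h1, hψ0, sub_zero, sub_zero] at h3
    exact h3
  -- the function η
  set η : F → V := fun x => H' (v x - q x) with hη
  have hηs : ContDiff ℝ ∞ η := H'.contDiff.comp (hv.sub q.contDiff)
  have hH1' := hR.norm_le'
  have hηb : ∀ x, ∀ j, 1 ≤ j → j ≤ K + 1 → ‖iteratedFDeriv ℝ j η x‖ ≤ 2 * κ := by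
    intro x j hj hj'
    have h3 : iteratedFDeriv ℝ j (fun x => v x - q x) x = iteratedFDeriv ℝ j v x -
        iteratedFDeriv ℝ j q x :=
      iteratedFDeriv_sub_apply (f := v) (g := fun x => q x)
        (hv.contDiffAt.of_le (by exact_mod_cast le_top)) q.contDiff.contDiffAt
    have h4 := H'.norm_iteratedFDeriv_comp_left (f := fun x => v x - q x) (x := x) (N := ∞) (n := j)
      (hv.sub q.contDiff).contDiffAt (by exact_mod_cast le_top)
    have h5 : ‖iteratedFDeriv ℝ j (fun x => v x - q x) x‖ ≤ 2 * κ := by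
      rw [h3]
      have := norm_iter_clm q x hj
      have := hb j hj hj' x
      calc _ ≤ ‖iteratedFDeriv ℝ j v x‖ + ‖iteratedFDeriv ℝ j q x‖ := norm_sub_le _ _
        _ ≤ 2 * κ := by linarith
    calc ‖iteratedFDeriv ℝ j η x‖ ≤ ‖H'‖ * ‖iteratedFDeriv ℝ j (fun x => v x - q x) x‖ := h4
      _ ≤ 1 * (2 * κ) := by gcongr
      _ = 2 * κ := one_mul _
  refine ⟨φ, hφ, h1, h2, hφ0, hφn, hηs.comp hφ, ?_⟩
  intro j hj hj' y
  have h3 := comp_bound (g := η) (f := φ) hηs hφ hj y (C := 2 * κ) (D := C0) (by positivity)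
    (fun i hi hi' => hηb _ i hi (by omega)) (fun i hi hi' => hφb y i hi (by omega))
  refine h3.trans ?_
  have h4 : (j.factorial : ℝ) ≤ (K + 1).factorial := by exact_mod_cast Nat.factorial_le hj'
  have h5 : C0 ^ j ≤ C0 ^ (K + 1) := pow_le_pow_right₀ hC0 hj'
  calc (j.factorial : ℝ) * (2 * κ) * C0 ^ j ≤ (K + 1).factorial * (2 * κ) * C0 ^ (K + 1) := by
        gcongr
    _ = _ := by ring

/-! ### cut-offs on open sets -/

section

variable {F V : Type} [NormedAddCommGroup F] [NormedSpace ℝ F]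
  [NormedAddCommGroup V] [NormedSpace ℝ V]

theorem cutU {χ : F → ℝ} (hχ : ContDiff ℝ ∞ χ) {U : Set F} (hU : IsOpen U)
    (hs : tsupport χ ⊆ U) {K : ℕ} {P Q : ℝ} (hP : 0 ≤ P)
    (hb : ∀ i ≤ K, ∀ x, ‖iteratedFDeriv ℝ i χ x‖ ≤ P) {v : F → V} (hQ : 0 ≤ Q)
    (hv : ContDiffOn ℝ ∞ v U) (hvb : ∀ i ≤ K, ∀ x ∈ U, ‖iteratedFDeriv ℝ i v x‖ ≤ Q) :
    ContDiff ℝ ∞ (fun x => χ x • v x) ∧
      ∀ i ≤ K, ∀ x, ‖iteratedFDeriv ℝ i (fun x => χ x • v x) x‖ ≤ 2 ^ K * P * Q := by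
  refine ⟨?_, ?_⟩
  · rw [contDiff_iff_contDiffAt]
    intro x
    by_cases hx : x ∈ U
    · exact hχ.contDiffAt.smul (hv.contDiffAt (hU.mem_nhds hx))
    · have hx' : x ∉ tsupport χ := fun h => hx (hs h)
      have h1 : (fun x => χ x • v x) =ᶠ[𝓝 x] fun _ => 0 := by
        filter_upwards [(isClosed_tsupport χ).isOpen_compl.mem_nhds hx'] with y hy
        rw [image_eq_zero_of_notMem_tsupport hy, zero_smul]
      exact (contDiffAt_const (c := (0 : V))).congr_of_eventuallyEq h1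
  intro i hi x
  by_cases hx : x ∈ U
  · have h := norm_iteratedFDerivWithin_smul_le (𝕜 := ℝ) (f := χ) (g := v) (s := U)
      (N := ∞) hχ.contDiffOn hv hU.uniqueDiffOn hx (n := i) (by exact_mod_cast le_top)
    rw [iteratedFDerivWithin_of_isOpen i hU hx] at h
    refine h.trans ?_
    have h1 : ∑ j ∈ Finset.range (i + 1), (i.choose j : ℝ) *
        ‖iteratedFDerivWithin ℝ j χ U x‖ *
          ‖iteratedFDerivWithin ℝ (i - j) v U x‖ ≤
        ∑ j ∈ Finset.range (i + 1), (i.choose j : ℝ) * (P * Q) := by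
      refine Finset.sum_le_sum fun j hj => ?_
      rw [Finset.mem_range] at hj
      rw [iteratedFDerivWithin_of_isOpen j hU hx,
        iteratedFDerivWithin_of_isOpen (i - j) hU hx, mul_assoc]
      have h2 := hb j (by omega) x
      have h3 := hvb (i - j) (by omega) x hx
      gcongr
    refine h1.trans ?_
    rw [← Finset.sum_mul]
    have h4 : ∑ j ∈ Finset.range (i + 1), (i.choose j : ℝ) = 2 ^ i := by
      exact_mod_cast Nat.sum_range_choose i
    rw [h4, mul_assoc]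
    have h5 : (2:ℝ) ^ i ≤ 2 ^ K := pow_le_pow_right₀ (by norm_num) hi
    gcongr
  · have hx' : x ∉ tsupport χ := fun h => hx (hs h)
    have h1 : (fun x => χ x • v x) =ᶠ[𝓝 x] fun _ => 0 := by
      filter_upwards [(isClosed_tsupport χ).isOpen_compl.mem_nhds hx'] with y hy
      rw [image_eq_zero_of_notMem_tsupport hy, zero_smul]
    have h2 : iteratedFDeriv ℝ i (fun x => χ x • v x) x = 0 := by
      rw [(h1.iteratedFDeriv ℝ i).eq_of_nhds]
      simp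
    rw [h2, norm_zero]
    positivity

/-- derivatives of a function given by a rescaled local model -/
theorem loc_model {f g : F → V} {y₀ : F} {c₀ : V} {δ : ℝ} (hδ : 0 < δ) (hg : ContDiff ℝ ∞ g)
    (h : ∀ᶠ y in 𝓝 (0 : F), f (y₀ + δ • y) = c₀ + δ • g y) :
    ContDiffAt ℝ ∞ f y₀ ∧ ∀ j, 1 ≤ j →
      ‖iteratedFDeriv ℝ j f y₀‖ ≤ δ * (δ⁻¹) ^ j * ‖iteratedFDeriv ℝ j g 0‖ := by
  have hc : Tendsto (fun z : F => δ⁻¹ • (z - y₀)) (𝓝 y₀) (𝓝 0) := by
    have h1 : Continuous fun z : F => δ⁻¹ • (z - y₀) := by fun_prop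
    have h2 := h1.tendsto y₀
    simpa using h2
  have h1 : f =ᶠ[𝓝 y₀] fun z => c₀ + δ • g (δ⁻¹ • (z - y₀)) := by
    filter_upwards [hc.eventually h] with z hz
    rw [smul_smul, mul_inv_cancel₀ hδ.ne', one_smul, add_sub_cancel] at hz
    exact hz
  have hgs : ContDiff ℝ ∞ (fun z : F => g (δ⁻¹ • (z - y₀))) :=
    hg.comp (contDiff_const.smul (contDiff_id.sub contDiff_const))
  have hgs2 : ContDiff ℝ ∞ (fun z : F => δ • g (δ⁻¹ • (z - y₀))) := contDiff_const.smul hgs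
  refine ⟨((contDiff_const (c := c₀)).add hgs2).contDiffAt.congr_of_eventuallyEq h1, ?_⟩
  intro j hj
  rw [(h1.iteratedFDeriv ℝ j).eq_of_nhds]
  have e1 : iteratedFDeriv ℝ j (fun z => c₀ + δ • g (δ⁻¹ • (z - y₀))) y₀ =
      iteratedFDeriv ℝ j (fun z => δ • g (δ⁻¹ • (z - y₀))) y₀ := by
    have h2 := iteratedFDeriv_add_apply (𝕜 := ℝ) (i := j) (f := fun _ : F => c₀)
      (g := fun z : F => δ • g (δ⁻¹ • (z - y₀))) (x := y₀) contDiffAt_const
      (hgs2.contDiffAt.of_le (by exact_mod_cast le_top))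
    have h3 : iteratedFDeriv ℝ j (fun z => c₀ + δ • g (δ⁻¹ • (z - y₀))) y₀ =
      iteratedFDeriv ℝ j (fun _ : F => c₀) y₀ +
        iteratedFDeriv ℝ j (fun z => δ • g (δ⁻¹ • (z - y₀))) y₀ := h2
    rw [h3, iteratedFDeriv_const_of_ne (by omega)]
    simp
  have e2 : iteratedFDeriv ℝ j (fun z => δ • g (δ⁻¹ • (z - y₀))) y₀ =
      δ • iteratedFDeriv ℝ j (fun z => g (δ⁻¹ • (z - y₀))) y₀ :=
    iteratedFDeriv_const_smul_apply (a := δ) (f := fun z : F => g (δ⁻¹ • (z - y₀)))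
      (hgs.contDiffAt.of_le (by exact_mod_cast le_top))
  have e3 : iteratedFDeriv ℝ j (fun z : F => g (δ⁻¹ • (z - y₀))) y₀ =
      iteratedFDeriv ℝ j (fun z : F => g (δ⁻¹ • z)) (y₀ - y₀) :=
    iteratedFDeriv_comp_sub (𝕜 := ℝ) (f := fun z : F => g (δ⁻¹ • z)) j y₀ y₀
  rw [e1, e2, e3, sub_self, norm_smul, Real.norm_of_nonneg hδ.le]
  have e4 : iteratedFDeriv ℝ j (fun z : F => g (δ⁻¹ • z)) 0 =
      (iteratedFDeriv ℝ j g (δ⁻¹ • (0 : F))).compContinuousLinearMap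
        fun _ => (δ⁻¹ • ContinuousLinearMap.id ℝ F : F →L[ℝ] F) := by
    have h4 := (δ⁻¹ • ContinuousLinearMap.id ℝ F : F →L[ℝ] F).iteratedFDeriv_comp_right
      (f := g) (n := ∞) hg 0 (i := j) (by exact_mod_cast le_top)
    exact h4
  rw [e4, smul_zero]
  have h5 := ContinuousMultilinearMap.norm_compContinuousLinearMap_le (iteratedFDeriv ℝ j g (0 : F))
    fun _ => (δ⁻¹ • ContinuousLinearMap.id ℝ F : F →L[ℝ] F)
  rw [Finset.prod_const, Finset.card_univ, Fintype.card_fin] at h5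
  have h6 : ‖(δ⁻¹ • ContinuousLinearMap.id ℝ F : F →L[ℝ] F)‖ ≤ δ⁻¹ := by
    rw [norm_smul, norm_inv, Real.norm_of_nonneg hδ.le]
    have := ContinuousLinearMap.norm_id_le (𝕜 := ℝ) (E := F)
    have h7 : 0 ≤ δ⁻¹ := by positivity
    nlinarith
  calc δ * ‖_‖ ≤ δ * (‖iteratedFDeriv ℝ j g 0‖ *
        ‖(δ⁻¹ • ContinuousLinearMap.id ℝ F : F →L[ℝ] F)‖ ^ j) := by gcongr
    _ ≤ δ * (‖iteratedFDeriv ℝ j g 0‖ * (δ⁻¹) ^ j) := by gcongr
    _ = _ := by ring

end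

/-! ### interpolation -/

theorem rt_eq {ρ : ℝ} (h : 0 ≤ ρ) : ∀ j, Sw_733.rt ρ j = ρ ^ ((1 / 2 : ℝ) ^ j)
  | 0 => by simp [Sw_733.rt]
  | j + 1 => by
    have h1 := rt_eq h j
    change Real.sqrt (Sw_733.rt ρ j) = _
    rw [h1, Real.sqrt_eq_rpow, ← Real.rpow_mul h, pow_succ]

theorem interp_glob {F G : Type} [NormedAddCommGroup F] [InnerProductSpace ℝ F]
    [FiniteDimensional ℝ F] [NormedAddCommGroup G] [NormedSpace ℝ G] [CompleteSpace G]
    {w : F → G} (hw : ContDiff ℝ ∞ w) {A C ρ : ℝ} {J : ℕ} (hρ : 0 < ρ) (hρ1 : ρ ≤ 1)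
    (hA0 : 0 ≤ A) (hC : 0 ≤ C) (hA : ∀ j ≤ J + 1, ∀ z, ‖iteratedFDeriv ℝ j w z‖ ≤ A)
    (h0 : ∀ z, ‖w z‖ ≤ C * ρ * A) :
    ∀ j ≤ J, ∀ z, ‖iteratedFDeriv ℝ j w z‖ ≤ Sw_733.ct C J * ρ ^ ((1 / 2 : ℝ) ^ J) * A := by
  letI : MeasurableSpace F := borel F
  haveI : BorelSpace F := ⟨rfl⟩
  intro j hj z
  have h1 := Sw_733.interp_aux hw (A := A) (C := C) (ρ := ρ) (R := ‖z‖ + 2 * j + 1) (J := J) hρ hA0
    (fun j hj z _ => hA j hj z) (fun z _ => h0 z) j hj z (by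
      rw [mem_ball_zero_iff]
      have h2 : ∑ i ∈ Finset.range j, Sw_733.rt ρ (i + 1) ≤ ∑ _i ∈ Finset.range j, (1 : ℝ) :=
        Finset.sum_le_sum fun i _ => Sw_733.rt_le_one hρ1 _
      simp only [Finset.sum_const, Finset.card_range, nsmul_eq_mul, mul_one] at h2
      linarith)
  refine h1.trans ?_
  rw [← rt_eq hρ.le]
  have h2 := Sw_733.ct_mono hC hj
  have h3 := Sw_733.rt_mono hρ hρ1 hj
  have h4 := Sw_733.ct_nonneg hC j
  have h5 := Sw_733.ct_nonneg hC J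
  have h6 := (Sw_733.rt_pos hρ j).le
  gcongr

end Crest.Agent.R234.Rs_182
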