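import Crest.Agent.R234.Rs3_182
import Crest.Agent.R234.Cto_161

/-!
# Row 234, node RESCALE (helper182), part 4: the rotated graph on a ball with small collar

`LM v R δ κ K`: near every point of `ball 0 (R - δ)` the map `v` has a local model of scale `δ` with
derivatives `≤ κ`. `rot_diff`: the rotated graph `ro` is smooth on `ball 0 ((1-ε/4) R)` and its
difference to `v - q`, cut off, has derivatives `≤ C ε⁻ᵖ th^(2^-K) κ`.
-/

set_option autoImplicit false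
set_option linter.unusedSectionVars false

open Set Metric Filter Topology
open scoped ContDiff NNReal RealInnerProductSpace

noncomputable section

namespace Crest.Agent.R234.Rs_182

open Crest.Agent.R234.Ell1_3 Crest.Agent.R234.Grot_842

variable {F V : Type} [NormedAddCommGroup F] [InnerProductSpace ℝ F] [FiniteDimensional ℝ F]
  [NormedAddCommGroup V] [InnerProductSpace ℝ V] [FiniteDimensional ℝ V]

/-- local models of scale `δ` -/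
def LM (v : F → V) (R δ κ : ℝ) (K : ℕ) : Prop :=
  ∀ a : F, ‖a‖ + δ ≤ R → ∃ W : F → V, ContDiff ℝ ∞ W ∧ W 0 = 0 ∧
    (∀ j, 1 ≤ j → j ≤ K + 1 → ∀ x, ‖iteratedFDeriv ℝ j W x‖ ≤ κ) ∧
    ∀ x, ‖x‖ ≤ 1 / 2 → v (a + δ • x) = v a + δ • W x

/-- the rotated graph function -/
def ro (q : F →L[ℝ] V) (H' : V →L[ℝ] V) (v : F → V) (φ : F → F) (y : F) : V :=
  H' (v (φ y) - q (φ y))

theorem LM.at {v : F → V} {R δ κ : ℝ} {K : ℕ} (h : LM v R δ κ K) (hδ : 0 < δ) {a : F}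
    (ha : ‖a‖ + δ ≤ R) : ContDiffAt ℝ ∞ v a ∧ ∀ j, 1 ≤ j → j ≤ K + 1 →
      ‖iteratedFDeriv ℝ j v a‖ ≤ δ * (δ⁻¹) ^ j * κ := by
  obtain ⟨W, h1, h2, h3, h4⟩ := h a ha
  obtain ⟨h5, h6⟩ := loc_model (f := v) (g := W) (y₀ := a) (c₀ := v a) hδ h1 (by
    filter_upwards [ball_mem_nhds (0 : F) (show (0:ℝ) < 1 / 2 by norm_num)] with y hy
    exact h4 y (mem_ball_zero_iff.1 hy).le)
  refine ⟨h5, fun j hj hj' => (h6 j hj).trans ?_⟩
  have := h3 j hj hj' 0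
  gcongr

theorem rot_loc (F V : Type) [NormedAddCommGroup F] [InnerProductSpace ℝ F]
    [FiniteDimensional ℝ F] [NormedAddCommGroup V] [InnerProductSpace ℝ V] [FiniteDimensional ℝ V]
    (K : ℕ) : ∃ C : ℝ, 1 ≤ C ∧ ∀ (v : F → V) (q : F →L[ℝ] V) (H : F →L[ℝ] F) (H' : V →L[ℝ] V)
      (φ : F → F) (κ R δ : ℝ), 0 ≤ κ → κ ≤ 1 / 8 → 0 < δ → ‖q‖ ≤ κ → Rt q H H' → LM v R δ κ K →
      (∀ y, chg q H v (φ y) = y) → (∀ x, φ (chg q H v x) = x) → ∀ y₀, ‖φ y₀‖ + δ ≤ R →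
      ContDiffAt ℝ ∞ (ro q H' v φ) y₀ ∧ ∀ j, 1 ≤ j → j ≤ K + 1 →
        ‖iteratedFDeriv ℝ j (ro q H' v φ) y₀‖ ≤ δ * (δ⁻¹) ^ j * (C * κ) := by
  obtain ⟨C, hC, hcore⟩ := rot_core' F V K
  refine ⟨C, hC, ?_⟩
  intro v q H H' φ κ R δ hκ0 hκ hδ hq hR hLM h1 h2 y₀ hy₀
  obtain ⟨W, hW, hW0, hWb, hWv⟩ := hLM (φ y₀) hy₀
  obtain ⟨φW, hφW, h3, h4, h5, h6, h7, h8⟩ := hcore W q H H' κ hκ0 hκ hW hW0 hq hR hWb
  obtain ⟨h9, h10⟩ := loc_model (f := ro q H' v φ) (g := fun y => H' (W (φW y) - q (φW y)))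
    (y₀ := y₀) (c₀ := ro q H' v φ y₀) hδ h7 (by
      filter_upwards [ball_mem_nhds (0 : F) (show (0:ℝ) < 1 / 4 by norm_num)] with y hy
      have hy' : ‖y‖ < 1 / 4 := mem_ball_zero_iff.1 hy
      have hx : ‖φW y‖ ≤ 1 / 2 := (h6 y).trans (by linarith)
      have e1 := hWv (φW y) hx
      have e2 : chg q H v (φ y₀ + δ • φW y) = y₀ + δ • y := by
        have e3 := h1 y₀
        have e4 := h3 y
        unfold chg at e3 e4 ⊢
        rw [e1]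
        nth_rewrite 3 [← e3]
        nth_rewrite 3 [← e4]
        simp only [map_add, map_smul, smul_add]
        abel
      have e5 : φ (y₀ + δ • y) = φ y₀ + δ • φW y := by rw [← e2, h2]
      unfold ro
      rw [e5, e1]
      simp only [map_add, map_sub, map_smul, smul_sub]
      abel)
  refine ⟨h9, fun j hj hj' => (h10 j hj).trans ?_⟩
  have := h8 j hj hj' 0
  gcongr

/-- sup bound of the difference -/
theorem ro_sub_le {v : F → V} {q : F →L[ℝ] V} {H : F →L[ℝ] F} {H' : V →L[ℝ] V} {φ : F → F}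
    {l : ℝ} (hl0 : 0 ≤ l) (hl : l ≤ 1 / 8) (hq : ‖q‖ ≤ l) (hR : Rt q H H')
    (hd : Differentiable ℝ v) (hv0 : v 0 = 0) (hb : ∀ x, ‖fderiv ℝ v x‖ ≤ l)
    (hφ : ∀ y, ‖φ y - y‖ ≤ 4 * l * ‖q‖ * ‖y‖) (y : F) :
    ‖ro q H' v φ y - (v y - q y)‖ ≤ 2 * l * ‖q‖ * ‖y‖ := by
  have hq0 := norm_nonneg q
  have hy0 := norm_nonneg y
  have hlip : ∀ x z : F, ‖(v x - q x) - (v z - q z)‖ ≤ 2 * l * ‖x - z‖ := by
    intro x z
    refine Convex.norm_image_sub_le_of_norm_hasFDerivWithin_le (𝕜 := ℝ)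
      (f := fun z => v z - q z) (f' := fun z => fderiv ℝ v z - q) (s := univ) (C := 2 * l)
      (fun z _ => ((hd z).hasFDerivAt.sub q.hasFDerivAt).hasFDerivWithinAt)
      (fun z _ => ?_) convex_univ (mem_univ z) (mem_univ x)
    calc ‖fderiv ℝ v z - q‖ ≤ l + l := (norm_sub_le _ _).trans (add_le_add (hb z) hq)
      _ = 2 * l := by ring
  have h1 := hlip (φ y) y
  have h2 := hlip (φ y) 0
  rw [hv0, map_zero, sub_self, sub_zero, sub_zero] at h2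
  have h3 := hR.near' (v (φ y) - q (φ y))
  have hφy := hφ y
  have h4 : ‖φ y‖ ≤ 2 * ‖y‖ := by
    have h5 : ‖φ y‖ ≤ ‖φ y - y‖ + ‖y‖ := by
      calc ‖φ y‖ = ‖(φ y - y) + y‖ := by congr 1; abel
        _ ≤ _ := norm_add_le _ _
    have h6 : 4 * l * ‖q‖ * ‖y‖ ≤ 1 * ‖y‖ := by
      have : 4 * l * ‖q‖ ≤ 1 := by nlinarith
      gcongr
    linarith
  have e : ro q H' v φ y - (v y - q y) = (H' (v (φ y) - q (φ y)) - (v (φ y) - q (φ y))) +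
      ((v (φ y) - q (φ y)) - (v y - q y)) := by
    unfold ro; abel
  rw [e]
  have h7 : ‖q‖ ^ 2 * ‖v (φ y) - q (φ y)‖ ≤ (l * ‖q‖) * (2 * l * (2 * ‖y‖)) := by
    have h8 : ‖q‖ ^ 2 ≤ l * ‖q‖ := by nlinarith
    have h9 : ‖v (φ y) - q (φ y)‖ ≤ 2 * l * (2 * ‖y‖) := h2.trans (by gcongr)
    exact mul_le_mul h8 h9 (norm_nonneg _) (by positivity)
  have h10 : 2 * l * ‖φ y - y‖ ≤ 2 * l * (4 * l * ‖q‖ * ‖y‖) := by gcongr
  calc _ ≤ (l * ‖q‖) * (2 * l * (2 * ‖y‖)) + 2 * l * (4 * l * ‖q‖ * ‖y‖) :=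
        (norm_add_le _ _).trans (add_le_add (h3.trans h7) (h1.trans h10))
    _ = (12 * l) * (l * ‖q‖ * ‖y‖) := by ring
    _ ≤ 2 * (l * ‖q‖ * ‖y‖) := by
        have : 12 * l ≤ 2 := by linarith
        gcongr
    _ = _ := by ring

set_option maxHeartbeats 1600000 in
/-- **the difference of the rotated graph and the graph, cut off** -/
theorem rot_diff (F V : Type) [NormedAddCommGroup F] [InnerProductSpace ℝ F]
    [FiniteDimensional ℝ F] [NormedAddCommGroup V] [InnerProductSpace ℝ V] [FiniteDimensional ℝ V]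
    (K : ℕ) (r₀ : ℝ) (hr0 : 0 < r₀) (hr1 : r₀ ≤ 1) :
    ∃ (C : ℝ) (p : ℕ), 1 ≤ C ∧ ∀ (v : F → V) (q : F →L[ℝ] V) (H : F →L[ℝ] F)
      (H' : V →L[ℝ] V) (φ : F → F) (l κ ε R th : ℝ), 0 < ε → ε ≤ 1 / 4 → r₀ ≤ R → R ≤ 3 / 2 →
      0 ≤ l → l ≤ κ → κ ≤ 1 / 8 → ‖q‖ ≤ l → ‖q‖ ≤ th → 0 < th → th ≤ 1 →
      4 * l * ‖q‖ ≤ ε / 8 → Differentiable ℝ v → v 0 = 0 → (∀ x, ‖fderiv ℝ v x‖ ≤ l) →
      Rt q H H' → (∀ y, chg q H v (φ y) = y) → (∀ x, φ (chg q H v x) = x) →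
      (∀ y, ‖φ y - y‖ ≤ 4 * l * ‖q‖ * ‖y‖) → LM v R (ε * r₀ / 8) κ K →
      (∀ y, ‖y‖ < (1 - ε / 4) * R → ContDiffAt ℝ ∞ (ro q H' v φ) y) ∧
      ∃ g : F → V, ContDiff ℝ ∞ g ∧
        (∀ y, ‖y‖ ≤ (1 - ε) * R → g y = ro q H' v φ y - (v y - q y)) ∧
        (∀ y, (1 - ε / 2) * R ≤ ‖y‖ → g y = 0) ∧
        ∀ j ≤ K, ∀ y, ‖iteratedFDeriv ℝ j g y‖ ≤ C * (ε⁻¹) ^ p * th ^ ((1 / 2 : ℝ) ^ K) * κ := by
  let _ : MeasurableSpace F := borel F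
  have _ : BorelSpace F := ⟨rfl⟩
  obtain ⟨C1, hC1, hloc⟩ := rot_loc F V K
  obtain ⟨Cχ, hCχ, hχb⟩ := Cto_161.ct_bound (F := F) (K + 1)
  have hri : 1 ≤ r₀⁻¹ := (one_le_inv₀ hr0).2 hr1
  set A0 : ℝ := 2 ^ (K + 1) * (Cχ * (2 * r₀⁻¹) ^ (K + 1)) * ((8 * r₀⁻¹) ^ (K + 1) * (C1 + 3))
    with hA0
  have hA01 : 1 ≤ A0 := by
    have h1 : (1:ℝ) ≤ 2 ^ (K + 1) := one_le_pow₀ (by norm_num)
    have h2 : (1:ℝ) ≤ (2 * r₀⁻¹) ^ (K + 1) := one_le_pow₀ (by linarith)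
    have h3 : (1:ℝ) ≤ (8 * r₀⁻¹) ^ (K + 1) := one_le_pow₀ (by linarith)
    have h4 : (1:ℝ) ≤ C1 + 3 := by linarith
    calc (1:ℝ) = 1 * (1 * 1) * (1 * 1) := by norm_num
      _ ≤ _ := by rw [hA0]; gcongr
  have hct : 0 ≤ Sw_733.ct 3 K := Sw_733.ct_nonneg (by norm_num) K
  refine ⟨max 1 (Sw_733.ct 3 K * A0), 2 * (K + 1), le_max_left _ _, ?_⟩
  intro v q H H' φ l κ ε R th hε hε1 hR1 hR2 hl0 hlκ hκ hq hqth hth hth1 hsm hd hv0 hb hRt h1 h2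
    hφ hLM
  have hκ0 : 0 ≤ κ := hl0.trans hlκ
  have hR0 : 0 < R := hr0.trans_le hR1
  set δ : ℝ := ε * r₀ / 8 with hδ
  have hδ0 : 0 < δ := by positivity
  have hδ1 : δ ≤ 1 := by rw [hδ]; nlinarith
  have hδi : 1 ≤ δ⁻¹ := (one_le_inv₀ hδ0).2 hδ1
  have hεi : 1 ≤ ε⁻¹ := (one_le_inv₀ hε).2 (by linarith)
  have hδR : δ ≤ ε * R / 8 := by rw [hδ]; gcongr
  -- points of the open set
  have hpt : ∀ y : F, ‖y‖ < (1 - ε / 4) * R → ‖y‖ + δ ≤ R ∧ ‖φ y‖ + δ ≤ R := by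
    intro y hy
    have hyR : ‖y‖ ≤ R := by nlinarith
    have h3 : ‖φ y‖ ≤ ‖y‖ + ε / 8 * R := by
      have h5 : ‖φ y‖ ≤ ‖φ y - y‖ + ‖y‖ := by
        calc ‖φ y‖ = ‖(φ y - y) + y‖ := by congr 1; abel
          _ ≤ _ := norm_add_le _ _
      have h6 : 4 * l * ‖q‖ * ‖y‖ ≤ ε / 8 * R := by gcongr
      linarith [hφ y]
    constructor
    · nlinarith
    · nlinarith
  have hsmooth : ∀ y, ‖y‖ < (1 - ε / 4) * R → ContDiffAt ℝ ∞ (ro q H' v φ) y := fun y hy =>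
    (hloc v q H H' φ κ R δ hκ0 hκ hδ0 (hq.trans hlκ) hRt hLM h1 h2 y (hpt y hy).2).1
  refine ⟨hsmooth, ?_⟩
  set U : Set F := ball 0 ((1 - ε / 4) * R) with hU
  set d : F → V := fun y => ro q H' v φ y - (v y - q y) with hd'
  have hvs : ∀ y ∈ U, ContDiffAt ℝ ∞ v y := fun y hy =>
    (hLM.at hδ0 (hpt y (mem_ball_zero_iff.1 hy)).1).1
  have hrs : ∀ y ∈ U, ContDiffAt ℝ ∞ (ro q H' v φ) y := fun y hy =>
    hsmooth y (mem_ball_zero_iff.1 hy)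
  have hds : ContDiffOn ℝ ∞ d U := fun y hy =>
    ((hrs y hy).sub ((hvs y hy).sub q.contDiff.contDiffAt)).contDiffWithinAt
  -- the bounds
  set B : ℝ := (δ⁻¹) ^ (K + 1) with hB
  set Q : ℝ := B * (C1 + 3) * κ with hQ
  have hB1 : (1:ℝ) ≤ B := one_le_pow₀ hδi
  have hB0 : 0 ≤ B := zero_le_one.trans hB1
  have hQ0 : 0 ≤ Q := by positivity
  have hδe : δ⁻¹ = (8 * r₀⁻¹) * ε⁻¹ := by rw [hδ]; field_simp
  have hdsup : ∀ y ∈ U, ‖d y‖ ≤ 3 * th * κ := by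
    intro y hy
    have hy' : ‖y‖ ≤ 3 / 2 := by
      have := mem_ball_zero_iff.1 hy
      nlinarith
    calc ‖d y‖ ≤ 2 * l * ‖q‖ * ‖y‖ := ro_sub_le hl0 (hlκ.trans hκ) hq hRt hd hv0 hb hφ y
      _ ≤ 2 * κ * th * (3 / 2) := by gcongr
      _ = 3 * th * κ := by ring
  have hdb : ∀ i ≤ K + 1, ∀ y ∈ U, ‖iteratedFDeriv ℝ i d y‖ ≤ Q := by
    intro i hi y hy
    rcases Nat.eq_zero_or_pos i with h0 | h0
    · subst h0
      rw [norm_iteratedFDeriv_zero]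
      refine (hdsup y hy).trans ?_
      calc 3 * th * κ ≤ 3 * 1 * κ := by gcongr
        _ = 1 * 3 * κ := by ring
        _ ≤ Q := by
            rw [hQ]
            have : (3:ℝ) ≤ C1 + 3 := by linarith
            gcongr
    · have hy' := mem_ball_zero_iff.1 hy
      have a1 := (hloc v q H H' φ κ R δ hκ0 hκ hδ0 (hq.trans hlκ) hRt hLM h1 h2 y (hpt y hy').2).2 i
        h0 hi
      have a2 := (hLM.at hδ0 (hpt y hy').1).2 i h0 hi
      have a3 := norm_iter_clm q y h0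
      have hcast : (i : WithTop ℕ∞) ≤ ∞ := by exact_mod_cast le_top
      have e1 : iteratedFDeriv ℝ i d y = iteratedFDeriv ℝ i (ro q H' v φ) y -
          iteratedFDeriv ℝ i (fun y => v y - q y) y :=
        iteratedFDeriv_sub_apply (f := ro q H' v φ) (g := fun y => v y - q y)
          ((hrs y hy).of_le hcast) (((hvs y hy).sub q.contDiff.contDiffAt).of_le hcast)
      have e2 : iteratedFDeriv ℝ i (fun y => v y - q y) y = iteratedFDeriv ℝ i v y -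
          iteratedFDeriv ℝ i q y :=
        iteratedFDeriv_sub_apply (f := v) (g := fun y => q y)
          ((hvs y hy).of_le hcast) q.contDiff.contDiffAt
      have hδp : δ * (δ⁻¹) ^ i ≤ B := by
        calc δ * (δ⁻¹) ^ i ≤ 1 * (δ⁻¹) ^ (K + 1) := by
              have := pow_le_pow_right₀ hδi hi
              gcongr
          _ = _ := by rw [one_mul]
      rw [e1, e2]
      calc _ ≤ δ * (δ⁻¹) ^ i * (C1 * κ) + (δ * (δ⁻¹) ^ i * κ + κ) := by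
            refine (norm_sub_le _ _).trans (add_le_add a1 ((norm_sub_le _ _).trans
              (add_le_add a2 (a3.trans (hq.trans hlκ)))))
        _ ≤ B * (C1 * κ) + (B * κ + B * κ) := by
            have : κ ≤ B * κ := le_mul_of_one_le_left hκ0 hB1
            gcongr
        _ = B * (C1 + 2) * κ := by ring
        _ ≤ Q := by rw [hQ]; gcongr; norm_num
  -- the cut-off
  set s : ℝ := (1 - ε) * R with hs
  set r : ℝ := (1 - ε / 2) * R with hr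
  have hs0 : 0 ≤ s := by rw [hs]; nlinarith
  have hsr : s < r := by rw [hs, hr]; nlinarith
  have hrs' : ε * r₀ / 2 ≤ r - s := by
    have : r - s = ε * R / 2 := by rw [hs, hr]; ring
    rw [this]; gcongr
  have hrU : r < (1 - ε / 4) * R := by rw [hr]; nlinarith
  set χ : F → ℝ := Cto_161.ct s r with hχ
  have hχs : ContDiff ℝ ∞ χ := Cto_161.ct_smooth s r
  have hsupp : tsupport χ ⊆ U :=
    (Cto_161.tsupport_ct hs0 hsr).trans (closedBall_subset_ball hrU)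
  set P : ℝ := Cχ * (2 * r₀⁻¹ * ε⁻¹) ^ (K + 1) with hP
  have hP0 : 0 ≤ P := by positivity
  have h4e : 1 ≤ 2 * r₀⁻¹ * ε⁻¹ := by nlinarith
  have hχb' : ∀ i ≤ K + 1, ∀ x, ‖iteratedFDeriv ℝ i χ x‖ ≤ P := by
    intro i hi x
    refine (hχb s r hs0 hsr i hi x).trans ?_
    have h5 : (r - s)⁻¹ ≤ 2 * r₀⁻¹ * ε⁻¹ := by
      have h6 : (r - s)⁻¹ ≤ (ε * r₀ / 2)⁻¹ := inv_anti₀ (by positivity) hrs'
      have h7 : (ε * r₀ / 2)⁻¹ = 2 * r₀⁻¹ * ε⁻¹ := by field_simp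
      rwa [h7] at h6
    have h7 : 0 < r - s := lt_of_lt_of_le (by positivity) hrs'
    rw [div_eq_mul_inv, ← inv_pow, hP]
    have h8 : ((r - s)⁻¹) ^ i ≤ (2 * r₀⁻¹ * ε⁻¹) ^ (K + 1) := by
      calc ((r - s)⁻¹) ^ i ≤ (2 * r₀⁻¹ * ε⁻¹) ^ i := pow_le_pow_left₀ (by positivity) h5 i
        _ ≤ _ := pow_le_pow_right₀ h4e hi
    gcongr
  obtain ⟨hg, hgb⟩ := cutU hχs isOpen_ball hsupp hP0 hχb' hQ0 hds hdb
  set A : ℝ := 2 ^ (K + 1) * P * Q with hA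
  have hAe : A = A0 * (ε⁻¹) ^ (2 * (K + 1)) * κ := by
    rw [hA, hP, hQ, hB, hA0, hδe, mul_pow _ (ε⁻¹), mul_pow _ (ε⁻¹), two_mul (K + 1), pow_add (ε⁻¹)]
    ring
  have hκA : κ ≤ A := by
    rw [hAe]
    have h5 : (1:ℝ) ≤ (ε⁻¹) ^ (2 * (K + 1)) := one_le_pow₀ hεi
    have h6 : 1 ≤ A0 * (ε⁻¹) ^ (2 * (K + 1)) := by
      calc (1:ℝ) = 1 * 1 := by norm_num
        _ ≤ _ := by gcongr
    exact le_mul_of_one_le_left hκ0 h6
  have hA00 : 0 ≤ A := hκ0.trans hκA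
  have hsup : ∀ z, ‖χ z • d z‖ ≤ 3 * th * A := by
    intro z
    by_cases hz : z ∈ U
    · rw [norm_smul, Real.norm_of_nonneg (Cto_161.ct_nonneg s r z)]
      calc χ z * ‖d z‖ ≤ 1 * (3 * th * κ) :=
            mul_le_mul (Cto_161.ct_le_one s r z) (hdsup z hz) (norm_nonneg _) zero_le_one
        _ ≤ 3 * th * A := by rw [one_mul]; gcongr
    · have : χ z = 0 := image_eq_zero_of_notMem_tsupport fun h => hz (hsupp h)
      rw [this, zero_smul, norm_zero]; positivity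
  have hint := interp_glob (F := F) hg (A := A) (C := 3) (ρ := th) (J := K) hth hth1 hA00
    (by norm_num) hgb hsup
  refine ⟨fun x => χ x • d x, hg, ?_, ?_, ?_⟩
  · intro y hy
    simp only [hχ, Cto_161.ct_one hs0 hsr hy, one_smul, hd']
  · intro y hy
    simp only [hχ, Cto_161.ct_zero hs0 hsr hy, zero_smul]
  · intro j hj y
    refine (hint j hj y).trans ?_
    rw [hAe]
    have h5 : 0 ≤ th ^ ((1 / 2 : ℝ) ^ K) := by positivity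
    calc Sw_733.ct 3 K * th ^ ((1 / 2 : ℝ) ^ K) * (A0 * (ε⁻¹) ^ (2 * (K + 1)) * κ)
        = (Sw_733.ct 3 K * A0) * (ε⁻¹) ^ (2 * (K + 1)) * th ^ ((1 / 2 : ℝ) ^ K) * κ := by ring
      _ ≤ _ := by
          have := le_max_right 1 (Sw_733.ct 3 K * A0)
          gcongr

end Crest.Agent.R234.Rs_182
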