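import Crest.Agent.R234.Zm3_161
import Crest.Agent.R234.Mx5_397

/-!
# Row 234 (helper161): the zoom of synthesised maps `F → V`
-/

set_option autoImplicit false
set_option linter.unusedSectionVars false

open MeasureTheory Complex Filter Real
open scoped ContDiff FourierTransform Topology InnerProductSpace SchwartzMap

noncomputable section

namespace Crest.Agent.R234.Zm_161

open Crest.Agent.R086.Wie Crest.Agent.R234.Mx1_397 Crest.Agent.R234.Mx2_397
open Crest.Agent.R234.Mx3_397 Crest.Agent.R234.Mx5_397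

variable {F V : Type} [NormedAddCommGroup F] [InnerProductSpace ℝ F] [FiniteDimensional ℝ F]
  [MeasurableSpace F] [BorelSpace F]
  [NormedAddCommGroup V] [InnerProductSpace ℝ V] [FiniteDimensional ℝ V]
variable {κ : Type*} [Fintype κ]

theorem inner_fderiv_syn (b : OrthonormalBasis κ ℝ V) {N : ℕ} (a : κ → X F (N + 1)) (z x : F)
    (α : κ) : ⟪b α, fderiv ℝ (syn b a) z x⟫_ℝ = fderiv ℝ (fun y => (ev (a α) y).re) z x := by
  rw [fderiv_syn, inner_syn]
  obtain ⟨L, hL, hLv⟩ := hasFDerivAt_ev (a α) z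
  have h1 : HasFDerivAt (fun y => (ev (a α) y).re) (Complex.reCLM ∘L L) z :=
    Complex.reCLM.hasFDerivAt.comp z hL
  rw [h1.fderiv, ContinuousLinearMap.comp_apply, hLv]
  rfl

theorem zoomV (N : ℕ) (b : OrthonormalBasis κ ℝ V) {η : F → ℝ} (hη : IsCut η) :
    ∃ C : ℝ, 1 ≤ C ∧ ∀ (z : F) (t : ℝ), 0 < t → t ≤ 1 → ∀ a : κ → X F (N + 2),
      (∀ α, star (a α) = a α) →
      (∃ a' : κ → X F (N + 2), (∀ α, star (a' α) = a' α) ∧ ‖a'‖ ≤ C * t * ‖a‖ ∧ ∀ x,
        syn b a' x = η x • t⁻¹ • (syn b a (z + t • x) - syn b a z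
          - fderiv ℝ (syn b a) z (t • x))) ∧
      ∃ a' : κ → X F (N + 2), (∀ α, star (a' α) = a' α) ∧ ‖a'‖ ≤ C * ‖a‖ ∧ ∀ x,
        syn b a' x = η x • t⁻¹ • (syn b a (z + t • x) - syn b a z) := by
  obtain ⟨C, hC1, hC⟩ := zoom (F := F) N hη
  refine ⟨C, hC1, fun z t ht ht1 a ha => ?_⟩
  have hti : ‖((t⁻¹ : ℝ) : ℂ)‖ = t⁻¹ := by
    rw [Complex.norm_real, Real.norm_of_nonneg (by positivity)]
  have hst : ∀ c : X F (N + 2), star c = c →
      star (((t⁻¹ : ℝ) : ℂ) • c) = ((t⁻¹ : ℝ) : ℂ) • c := fun c hc => by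
    rw [star_smul, hc]
    simp only [RCLike.star_def, Complex.conj_ofReal]
  constructor
  · choose a' h1 h2 h3 using fun α => (hC z t ht ht1 (a α) (ha α)).1
    refine ⟨fun α => ((t⁻¹ : ℝ) : ℂ) • a' α, fun α => hst _ (h1 α), ?_, fun x => ?_⟩
    · rw [pi_norm_le_iff_of_nonneg (by positivity)]
      intro α
      rw [norm_smul, hti]
      calc t⁻¹ * ‖a' α‖ ≤ t⁻¹ * (C * t ^ 2 * ‖a‖) := by
            gcongr
            refine (h2 α).trans ?_
            gcongr
            exact norm_le_pi_norm a α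
        _ = C * t * ‖a‖ := by field_simp
    · refine onb_ext b fun α => ?_
      rw [inner_syn, inner_smul_right, inner_smul_right, inner_sub_right, inner_sub_right,
        inner_syn, inner_syn, inner_fderiv_syn, ev_smul, h3, ← Complex.ofReal_mul,
        Complex.ofReal_re]
      ring
  · choose a' h1 h2 h3 using fun α => (hC z t ht ht1 (a α) (ha α)).2
    refine ⟨fun α => ((t⁻¹ : ℝ) : ℂ) • a' α, fun α => hst _ (h1 α), ?_, fun x => ?_⟩
    · rw [pi_norm_le_iff_of_nonneg (by positivity)]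
      intro α
      rw [norm_smul, hti]
      calc t⁻¹ * ‖a' α‖ ≤ t⁻¹ * (C * t * ‖a‖) := by
            gcongr
            refine (h2 α).trans ?_
            gcongr
            exact norm_le_pi_norm a α
        _ = C * ‖a‖ := by field_simp
    · refine onb_ext b fun α => ?_
      rw [inner_syn, inner_smul_right, inner_smul_right, inner_sub_right,
        inner_syn, inner_syn, ev_smul, h3, ← Complex.ofReal_mul,
        Complex.ofReal_re]
      ring

end Crest.Agent.R234.Zm_161
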