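import Crest.Agent.R234.Rs4_182
import Crest.Agent.R234.Zm4_161
import Crest.Agent.R234.Mx16_397

/-!
# Row 234, node RESCALE (helper182), part 5: local models in the Wiener class, the core theorem

* `exists_LM` : a minimal graph in the class has smooth local models at every scale, same constant
* `RotG`      : exact relation of a graph and its rotated and rescaled graph about a base point
* `core`      : rotation in the class, for any base element `e` representing the zoomed graph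
-/

set_option autoImplicit false
set_option linter.unusedSectionVars false

open MeasureTheory Set Metric Filter Topology
open scoped ContDiff NNReal RealInnerProductSpace
open Crest.GeometryTopology.Submanifold

noncomputable section

namespace Crest.Agent.R234.Rs_182

open Crest.Agent.R086.Wie Crest.Agent.R234.Mx1_397 Crest.Agent.R234.Mx2_397
  Crest.Agent.R234.Mx3_397 Crest.Agent.R234.Mx4_397 Crest.Agent.R234.Mx5_397
  Crest.Agent.R234.Mx6_397 Crest.Agent.R234.Mx13_397 Crest.Agent.R234.Mx16_397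
  Crest.Agent.R234.Zm_161 Crest.Agent.R234.MG_570
  Crest.Agent.R234.Ell1_3 Crest.Agent.R234.Grot_842
open Crest.Agent.R234.Main_456 (Msys)

section

variable {F V : Type} [NormedAddCommGroup F] [InnerProductSpace ℝ F] [FiniteDimensional ℝ F]
  [MeasurableSpace F] [BorelSpace F]
  [NormedAddCommGroup V] [InnerProductSpace ℝ V] [FiniteDimensional ℝ V]
variable {κ : Type*} [Fintype κ]

/-- `msop` of a zoomed map -/
theorem msop_zoom {s : ℝ} (hs : s ≠ 0) (z : F) (u : F → V) (d : V) (x : F) :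
    msop (fun x => s⁻¹ • (u (z + s • x) - d)) x = s • msop u (z + s • x) := by
  have e : (fun x => s⁻¹ • (u (z + s • x) - d)) =
      fun x => (fun x => s⁻¹ • (fun y => u (y + z)) (s • x)) x + (-(s⁻¹ • d)) := by
    funext x
    simp only [smul_sub, add_comm z]
    abel
  have h1 := msop_scale hs (fun y => u (y + z)) x
  rw [e, msop_add_const, h1, msop_translate, add_comm z]

/-- **local models** -/
theorem exists_LM {c : F} (hc : ‖c‖ = 11 / 2) (b : OrthonormalBasis κ ℝ V) (N K : ℕ) :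
    ∃ κ₀ C : ℝ, 0 < κ₀ ∧ 1 ≤ C ∧ ∀ a : κ → X F (N + 2), (∀ α, star (a α) = a α) → ‖a‖ ≤ κ₀ →
      ∀ (z : F) (s : ℝ), 0 < s → s ≤ 1 → (∀ x, ‖x - z‖ < s → msop (syn b a) x = 0) →
      ∃ W : F → V, ContDiff ℝ ∞ W ∧ W 0 = 0 ∧ (∀ j ≤ K, ∀ x, ‖iteratedFDeriv ℝ j W x‖ ≤ C * ‖a‖) ∧
        ∀ x, ‖x‖ ≤ 1 / 2 → syn b a (z + s • x) = syn b a z + s • W x := by
  obtain ⟨Cz, hCz, hz⟩ := zoomV (F := F) N b chi0_isCut
  obtain ⟨ε1, C1, he1, hC1, H1⟩ := smooth_ref hc b N K (r' := 1 / 2) (r := 1) (by norm_num)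
    (by norm_num) (by norm_num)
  refine ⟨ε1 / Cz, max 1 (C1 * Cz), by positivity, le_max_left _ _, ?_⟩
  intro a ha haκ z s hs hs1 hM
  obtain ⟨-, e, he, hen, hev⟩ := hz z s hs hs1 a ha
  have hen' : ‖e‖ ≤ ε1 := by
    refine hen.trans ?_
    rw [le_div_iff₀ (by linarith)] at haκ
    linarith
  have hev' : ∀ x, ‖x‖ ≤ 3 / 2 → syn b e x = s⁻¹ • (syn b a (z + s • x) - syn b a z) :=
    fun x hx => by rw [hev, chi0_one hx, one_smul]
  obtain ⟨W, -, h1, -, -, -, h2, -, -, h3⟩ := H1 e he hen' (fun x hx => by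
    have h4 : syn b e =ᶠ[𝓝 x] fun x => s⁻¹ • (syn b a (z + s • x) - syn b a z) := by
      filter_upwards [(isOpen_lt continuous_norm continuous_const).mem_nhds
        (show ‖x‖ < (3/2 : ℝ) by linarith)] with y hy
      exact hev' y (le_of_lt hy)
    rw [msop_congr h4, msop_zoom hs.ne', hM, smul_zero]
    rw [add_sub_cancel_left, norm_smul, Real.norm_of_nonneg hs.le]
    nlinarith)
  refine ⟨W, h1, ?_, ?_, ?_⟩
  · rw [h2 0 (by simp), hev' 0 (by rw [norm_zero]; norm_num)]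
    simp
  · intro j hj x
    refine (h3 j hj x).trans ?_
    calc C1 * ‖e‖ ≤ C1 * (Cz * ‖a‖) := by gcongr
      _ = (C1 * Cz) * ‖a‖ := by ring
      _ ≤ _ := by
        have := le_max_right 1 (C1 * Cz)
        gcongr
  · intro x hx
    rw [h2 x hx, hev' x (by linarith), smul_smul, mul_inv_cancel₀ hs.ne', one_smul]
    abel

end

variable {m n : ℕ}

/-- **the exact relation**: over `ball 0 R'` the function `u' - c` is the graph of `u` about `X₀`,
rotated by `q, H, H'` and rescaled by `t`. -/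
structure RotG (u u' : Euc m → Euc n) (X₀ : Euc m) (c : Euc n) (q : Euc m →L[ℝ] Euc n)
    (H : Euc m →L[ℝ] Euc m) (H' : Euc n →L[ℝ] Euc n) (t R R' σ : ℝ) : Prop where
  rt : Rt q H H'
  val : u' 0 = c
  der : fderiv ℝ u' 0 = 0
  bwd : ∀ y ∈ ball (0 : Euc m) R', ∃ a ∈ ball (0 : Euc m) R,
    H (t • a + ContinuousLinearMap.adjoint q (u (X₀ + t • a) - u X₀)) = t • y ∧
      u' y - c = t⁻¹ • H' ((u (X₀ + t • a) - u X₀) - q (t • a)) ∧ ‖a - y‖ ≤ σ * ‖y‖
  inj : ∀ a ∈ ball (0 : Euc m) R, ∀ a' ∈ ball (0 : Euc m) R,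
    H (t • a + ContinuousLinearMap.adjoint q (u (X₀ + t • a) - u X₀)) =
      H (t • a' + ContinuousLinearMap.adjoint q (u (X₀ + t • a') - u X₀)) → a = a'
  fwd : ∀ a ∈ ball (0 : Euc m) R, ∀ y ∈ ball (0 : Euc m) R',
    H (t • a + ContinuousLinearMap.adjoint q (u (X₀ + t • a) - u X₀)) = t • y →
      u' y - c = t⁻¹ • H' ((u (X₀ + t • a) - u X₀) - q (t • a))

theorem num1 {ε R : ℝ} (hε : 0 < ε) (hε1 : ε ≤ 1 / 4) (hR : 0 < R) :
    (1 - ε / 8) * R ≤ R ∧ 31 / 32 * R ≤ (1 - ε / 8) * R ∧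
    (1 - ε) * R ≤ (1 - ε / 2) * ((1 - ε / 8) * R) ∧
    (1 - ε / 2) * ((1 - ε / 8) * R) < (1 - ε / 2 / 4) * ((1 - ε / 8) * R) ∧
    (1 - ε / 2) * ((1 - ε / 8) * R) ≤ R ∧ 0 < (1 - ε) * R ∧ (1 - ε) * R ≤ R ∧
    (1 - ε) * R + ε / 2 / 8 * R < (1 - ε / 8) * R := by
  have h1 : 0 < ε * R := mul_pos hε hR
  have h2 : 0 < ε * (ε * R) := mul_pos hε h1
  have h3 : ε * R ≤ 1 / 4 * R := mul_le_mul_of_nonneg_right hε1 hR.le
  have h4 : ε * (ε * R) ≤ 1 / 4 * (ε * R) := mul_le_mul_of_nonneg_right hε1 h1.le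
  refine ⟨?_, ?_, ?_, ?_, ?_, ?_, ?_, ?_⟩ <;> ring_nf at * <;> linarith

theorem num2 {ε r₀ : ℝ} (hε : 0 < ε) (hε1 : ε ≤ 1 / 4) (_hr0 : 0 < r₀) (hr1 : r₀ ≤ 1) :
    ε / 2 * (r₀ * (31 / 32)) / 8 ≤ 1 := by nlinarith

set_option maxHeartbeats 1600000 in
/-- **core theorem** -/
theorem core (m n N : ℕ) (hm : 1 ≤ m) (r₀ : ℝ) (hr0 : 0 < r₀) (hr1 : r₀ ≤ 1) (Ce : ℝ)
    (hCe : 1 ≤ Ce) : ∃ (κ₀ C : ℝ) (p J : ℕ), 0 < κ₀ ∧ 1 ≤ C ∧
    ∀ (t ε R κ th : ℝ) (u : Euc m → Euc n) (X₀ : Euc m) (c : Euc n) (a e : XV m n (N + 2)),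
      0 < t → t ≤ 1 → 0 < ε → ε ≤ 1 / 4 → r₀ ≤ R → R ≤ 3 / 2 → κ ≤ κ₀ →
      IsReal a → ‖a‖ ≤ κ → Rep a u → (∀ z ∈ ball (0 : Euc m) (t * R), Msys u z = 0) →
      ‖X₀‖ ≤ ε * (t * R) / 8 → ‖fderiv ℝ u X₀‖ ≤ th → 0 < th → th ≤ 1 →
      C * (ε⁻¹) ^ p * th ^ ((1 / 2 : ℝ) ^ J) ≤ 1 → IsReal e → ‖e‖ ≤ Ce * κ →
      (∀ x, ‖x‖ ≤ 3 / 2 → syn (EuclideanSpace.basisFun (Fin n) ℝ) e x =
        t⁻¹ • (u (X₀ + t • x) - u X₀) - fderiv ℝ u X₀ x) →
      ∃ (H : Euc m →L[ℝ] Euc m) (H' : Euc n →L[ℝ] Euc n) (u' : Euc m → Euc n)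
        (e' : XV m n (N + 2)), IsReal e' ∧
        ‖e'‖ ≤ C * (ε⁻¹) ^ p * th ^ ((1 / 2 : ℝ) ^ J) * κ + C * ‖c‖ ∧
        Rep (e + e') u' ∧ (∀ z ∈ ball (0 : Euc m) ((1 - ε) * R), Msys u' z = 0) ∧
        RotG u u' X₀ c (fderiv ℝ u X₀) H H' t R ((1 - ε) * R) (C * κ * ‖fderiv ℝ u X₀‖) := by
  have hnt : Nontrivial (Euc m) := by
    have : 0 < Module.finrank ℝ (Euc m) := by
      rw [finrank_euclideanSpace, Fintype.card_fin]; exact hm
    exact Module.nontrivial_of_finrank_pos this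
  obtain ⟨c0, hc0⟩ := exists_norm_eq (Euc m) (by norm_num : (0 : ℝ) ≤ 11 / 2)
  set b := EuclideanSpace.basisFun (Fin n) ℝ with hb
  obtain ⟨K, Cw, hCw, hw⟩ := exists_wX_bound (F := Euc m) b (N + 2)
  obtain ⟨κ1, CL, hκ1, hCL, hLMx⟩ := exists_LM hc0 b N (K + 1)
  obtain ⟨Cd, p, hCd, hrd⟩ := rot_diff (Euc m) (Euc n) K (r₀ * (31 / 32)) (by positivity)
    (by nlinarith)
  have hpi := Real.pi_pos
  set Cg : ℝ := Fintype.card (Fin n) * (2 * Real.pi) ^ (N + 2) with hCg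
  have hCg0 : 0 ≤ Cg := by positivity
  set Cκ : ℝ := Cg * (1 + Ce) + CL with hCκ
  have hCκ1 : 1 ≤ Cκ := by
    have : 0 ≤ Cg * (1 + Ce) := by positivity
    linarith
  set C : ℝ := 8 + Cw * Cd * 2 ^ p * Cκ + Cw + 4 * (Cg * (1 + Ce)) with hC
  have hC0 : 0 ≤ Cw * Cd * 2 ^ p * Cκ := by positivity
  have hC1 : 0 ≤ 4 * (Cg * (1 + Ce)) := by positivity
  refine ⟨min κ1 (1 / (8 * Cκ)), C, p + 1, K, by positivity, by linarith, ?_⟩
  intro t ε R κ th u X₀ c a e ht ht1 hε hε1 hR1 hR2 hκ ha haκ hrep hM hX₀ hqth hth hth1 hsm he heκ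
    hev
  have hκ0 : 0 ≤ κ := (norm_nonneg _).trans haκ
  have hR0 : 0 < R := hr0.trans_le hR1
  have hu : u = syn b a := rep_syn hrep
  set q : Euc m →L[ℝ] Euc n := fderiv ℝ u X₀ with hq
  have hgrad : ∀ (f : XV m n (N + 2)) (x : Euc m), ‖fderiv ℝ (syn b f) x‖ ≤ Cg * ‖f‖ := fun f x => by
    have h3 := norm_iteratedFDeriv_syn_le b f (j := 1) (by omega) x
    rw [norm_iteratedFDeriv_one] at h3
    refine h3.trans (le_of_eq ?_)
    rw [hCg]; ring
  have hqn : ‖q‖ ≤ Cg * κ := by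
    rw [hq, hu]
    exact (hgrad a X₀).trans (by gcongr)
  set l : ℝ := Cg * (1 + Ce) * κ with hl
  have hl0 : 0 ≤ l := by positivity
  have hql : ‖q‖ ≤ l := by
    refine hqn.trans ?_
    rw [hl]
    have : Cg ≤ Cg * (1 + Ce) := le_mul_of_one_le_right hCg0 (by linarith)
    gcongr
  have hκC : Cκ * κ ≤ 1 / 8 := by
    have h1 := hκ.trans (min_le_right _ _)
    rw [le_div_iff₀ (by positivity)] at h1
    linarith
  have hlκ : l ≤ Cκ * κ := by
    rw [hl, hCκ]
    have : 0 ≤ CL * κ := by positivity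
    linarith
  have hl8 : l ≤ 1 / 8 := hlκ.trans hκC
  have hq0 := norm_nonneg q
  -- smallness of th
  have hths : th ≤ th ^ ((1 / 2 : ℝ) ^ K) := by
    have h1 : th ^ (1 : ℝ) ≤ th ^ ((1 / 2 : ℝ) ^ K) :=
      Real.rpow_le_rpow_of_exponent_ge hth hth1 (pow_le_one₀ (by norm_num) (by norm_num))
    rwa [Real.rpow_one] at h1
  have hεi : 1 ≤ ε⁻¹ := (one_le_inv₀ hε).2 (by linarith)
  have hth8 : th ≤ ε / 8 := by
    have h1 : 8 * ε⁻¹ * th ≤ C * (ε⁻¹) ^ (p + 1) * th ^ ((1 / 2 : ℝ) ^ K) := by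
      have h2 : (8:ℝ) ≤ C := by linarith
      have h3 : ε⁻¹ ≤ (ε⁻¹) ^ (p + 1) := le_self_pow₀ hεi (by omega)
      gcongr
    have h4 := h1.trans hsm
    have h5 : 8 * ε⁻¹ * th = th / (ε / 8) := by field_simp
    rw [h5, div_le_one (by positivity)] at h4
    exact h4
  have hsmall : 4 * l * ‖q‖ ≤ ε / 2 / 8 := by
    calc 4 * l * ‖q‖ ≤ 4 * (1 / 8) * (ε / 8) := by
          have := hqth.trans hth8
          gcongr
      _ = _ := by ring
  -- the graph
  set v : Euc m → Euc n := fun x => q x + syn b e x with hv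
  have hve : ∀ x, ‖x‖ ≤ 3 / 2 → v x = t⁻¹ • (u (X₀ + t • x) - u X₀) := fun x hx => by
    simp only [hv, hev x hx]; abel
  have hvsub : ∀ x, v x - q x = syn b e x := fun x => by simp only [hv]; abel
  have hsd : Differentiable ℝ (syn b e) := (contDiff_syn b e).differentiable (by
    norm_cast)
  have hvd : Differentiable ℝ v := q.differentiable.add hsd
  have hv0 : v 0 = 0 := by
    rw [hve 0 (by rw [norm_zero]; norm_num)]; simp
  have hvf : ∀ x, ‖fderiv ℝ v x‖ ≤ l := fun x => by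
    have h1 : fderiv ℝ v x = q + fderiv ℝ (syn b e) x :=
      (q.hasFDerivAt.add (hsd x).hasFDerivAt).fderiv
    rw [h1]
    calc ‖q + fderiv ℝ (syn b e) x‖ ≤ Cg * κ + Cg * (Ce * κ) := by
          refine (norm_add_le _ _).trans (add_le_add hqn ((hgrad e x).trans ?_))
          gcongr
      _ = l := by rw [hl]; ring
  obtain ⟨H, H', hRt⟩ := exists_Rt q
  obtain ⟨φ, hφc, h1, h2, hφ0, hφ⟩ := rot_glob hRt hl0 hl8 hql hvd hv0 hvf
  set R1 : ℝ := (1 - ε / 8) * R with hR1d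
  obtain ⟨hR1le, hR1r', hRR, hRR2, hRR3', h0R', hRR4, hRR5⟩ := num1 hε hε1 hR0
  rw [← hR1d] at hR1le hR1r' hRR hRR2 hRR3' hRR5
  have hR1r : r₀ * (31 / 32) ≤ R1 := by linarith
  set δ : ℝ := ε / 2 * (r₀ * (31 / 32)) / 8 with hδ
  have hδ0 : 0 < δ := by positivity
  have hδ1 : δ ≤ 1 := num2 hε hε1 hr0 hr1
  -- minimality of the zoomed points
  have hMz : ∀ x : Euc m, ‖x‖ < R1 → msop (syn b a) (X₀ + t • x) = 0 := fun x hx => by
    rw [← hu, ← Msys_eq]
    refine hM _ (mem_ball_zero_iff.2 ?_)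
    calc ‖X₀ + t • x‖ ≤ ‖X₀‖ + t * ‖x‖ := by
          refine (norm_add_le _ _).trans ?_
          rw [norm_smul, Real.norm_of_nonneg ht.le]
      _ < ε * (t * R) / 8 + t * R1 := add_lt_add_of_le_of_lt hX₀ (by gcongr)
      _ = t * R := by rw [hR1d]; ring
  have hLM : LM v R1 δ (Cκ * κ) K := by
    intro x₀ hx₀
    obtain ⟨W, w1, w2, w3, w4⟩ := hLMx a ha (haκ.trans (hκ.trans (min_le_left _ _))) (X₀ + t • x₀)
      (t * δ) (by positivity) (mul_le_one₀ ht1 hδ0.le hδ1) (fun x hx => by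
        have h3 : x = X₀ + t • (t⁻¹ • (x - X₀)) := by
          rw [smul_smul, mul_inv_cancel₀ ht.ne', one_smul]; abel
        rw [h3]
        refine hMz _ ?_
        have h4 : t⁻¹ • (x - X₀) = x₀ + t⁻¹ • (x - (X₀ + t • x₀)) := by
          rw [← sub_sub, smul_sub t⁻¹ (x - X₀), smul_smul, inv_mul_cancel₀ ht.ne', one_smul]; abel
        rw [h4]
        refine (norm_add_le _ _).trans_lt ?_
        rw [norm_smul, norm_inv, Real.norm_of_nonneg ht.le]
        have h5 : t⁻¹ * ‖x - (X₀ + t • x₀)‖ < δ := by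
          rw [inv_mul_lt_iff₀ ht]; exact hx
        linarith)
    refine ⟨W, w1, w2, fun j _ hj x => ?_, fun x hx => ?_⟩
    · refine (w3 j hj x).trans ?_
      have : CL ≤ Cκ := by rw [hCκ]; linarith [show 0 ≤ Cg * (1 + Ce) by positivity]
      gcongr
    · have h3 := w4 x hx
      have hx1 : ‖x₀ + δ • x‖ ≤ 3 / 2 := by
        have h6 : ‖x₀ + δ • x‖ ≤ ‖x₀‖ + δ * ‖x‖ := by
          refine (norm_add_le _ _).trans ?_
          rw [norm_smul, Real.norm_of_nonneg hδ0.le]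
        have h8 : δ * ‖x‖ ≤ δ * 1 := mul_le_mul_of_nonneg_left (by linarith) hδ0.le
        linarith
      rw [hve _ hx1, hve x₀ (by linarith), smul_add t, smul_smul t, ← add_assoc, hu, h3]
      have h7 : δ • W x = t⁻¹ • ((t * δ) • W x) := by
        rw [smul_smul, ← mul_assoc, inv_mul_cancel₀ ht.ne', one_mul]
      rw [h7, ← smul_add]
      congr 1
      abel
  obtain ⟨hsmooth, g, hg, hg1, hg2, hg3⟩ := hrd v q H H' φ l (Cκ * κ) (ε / 2) R1 th (by positivity)
    (by linarith) hR1r (hR1le.trans hR2) hl0 hlκ hκC hql hqth hth hth1 hsmall hvd hv0 hvf hRt h1 h2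
    hφ hLM
  -- the new element
  set T : ℝ := th ^ ((1 / 2 : ℝ) ^ K) with hT
  have hT0 : 0 ≤ T := by positivity
  have hgX : ContDiffOn ℝ ∞ g (ball 0 2) := hg.contDiffOn
  have hcX : ContDiffOn ℝ ∞ (fun _ : Euc m => c) (ball 0 2) := contDiffOn_const
  set eg : XV m n (N + 2) := wX b (N + 2) hgX with heg
  set ec : XV m n (N + 2) := wX b (N + 2) hcX with hec
  have hegn : ‖eg‖ ≤ Cw * (Cd * ((ε / 2)⁻¹) ^ p * T * (Cκ * κ)) :=
    hw g hgX _ (by positivity) fun j hj x _ => hg3 j hj x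
  have hecn : ‖ec‖ ≤ Cw * ‖c‖ := by
    refine hw _ hcX _ (norm_nonneg _) fun j hj x _ => ?_
    rcases Nat.eq_zero_or_pos j with h0 | h0
    · subst h0; rw [norm_iteratedFDeriv_zero]
    · rw [iteratedFDeriv_const_of_ne (by omega)]
      simp
  set u' : Euc m → Euc n := syn b (e + (eg + ec)) with hu'
  have hu'e : ∀ x, ‖x‖ ≤ 3 / 2 → u' x = syn b e x + (g x + c) := fun x hx => by
    have e1 : u' x = syn b e x + syn b (eg + ec) x := syn_add b e (eg + ec) x
    have e2 : syn b (eg + ec) x = syn b eg x + syn b ec x := syn_add b eg ec x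
    rw [e1, e2, heg, hec, syn_wX, syn_wX, nb_one (by linarith), one_smul, one_smul]
  have hRR3 : (1 - ε / 2) * R1 ≤ 3 / 2 := hRR3'.trans hR2
  have hu'r : ∀ y, ‖y‖ < (1 - ε) * R → u' y = ro q H' v φ y + c := fun y hy => by
    rw [hu'e y (by linarith), hg1 y (by linarith), hvsub]
    abel
  have hev' : ∀ y, ‖y‖ < (1 - ε) * R → u' =ᶠ[𝓝 y] fun y => ro q H' v φ y + c := fun y hy => by
    filter_upwards [(isOpen_lt continuous_norm continuous_const).mem_nhds hy] with z hz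
    exact hu'r z hz
  have hφR : ∀ y, ‖y‖ < (1 - ε) * R → ‖φ y‖ < R1 := fun y hy => by
    have h5 : ‖φ y‖ ≤ ‖φ y - y‖ + ‖y‖ := by
      calc ‖φ y‖ = ‖(φ y - y) + y‖ := by congr 1; abel
        _ ≤ _ := norm_add_le _ _
    have h6 : 4 * l * ‖q‖ * ‖y‖ ≤ ε / 2 / 8 * R := by
      have : ‖y‖ ≤ R := by linarith
      gcongr
    have h7 := hφ y
    linarith
  have hchg : ∀ x, ‖x‖ ≤ 3 / 2 →
      H (t • x + ContinuousLinearMap.adjoint q (u (X₀ + t • x) - u X₀)) = t • chg q H v x :=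
    fun x hx => by
      have e1 : u (X₀ + t • x) - u X₀ = t • v x := by
        rw [hve x hx, smul_smul, mul_inv_cancel₀ ht.ne', one_smul]
      rw [e1]
      unfold chg
      simp only [map_add, map_smul, smul_add]
  have hroe : ∀ x, ‖x‖ ≤ 3 / 2 → H' (v x - q x) =
      t⁻¹ • H' ((u (X₀ + t • x) - u X₀) - q (t • x)) := fun x hx => by
    have e1 : u (X₀ + t • x) - u X₀ = t • v x := by
      rw [hve x hx, smul_smul, mul_inv_cancel₀ ht.ne', one_smul]
    rw [e1, map_smul, ← smul_sub, map_smul, smul_smul, inv_mul_cancel₀ ht.ne', one_smul]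
  refine ⟨H, H', u', eg + ec, ?_, ?_, ?_, ?_, ?_⟩
  · intro α
    show star (eg α + ec α) = eg α + ec α
    rw [star_add, heg, hec, star_wX, star_wX]
  · refine (norm_add_le _ _).trans (add_le_add (hegn.trans ?_) (hecn.trans ?_))
    · have e1 : (ε / 2)⁻¹ = 2 * ε⁻¹ := by field_simp
      rw [e1, mul_pow]
      have h3 : (ε⁻¹) ^ p ≤ (ε⁻¹) ^ (p + 1) := pow_le_pow_right₀ hεi (by omega)
      calc Cw * (Cd * (2 ^ p * (ε⁻¹) ^ p) * T * (Cκ * κ))
          = (Cw * Cd * 2 ^ p * Cκ) * (ε⁻¹) ^ p * T * κ := by ring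
        _ ≤ C * (ε⁻¹) ^ (p + 1) * T * κ := by
            have : Cw * Cd * 2 ^ p * Cκ ≤ C := by linarith
            gcongr
    · have : Cw ≤ C := by linarith
      gcongr
  · rw [hu']
    refine syn_rep fun α => ?_
    show star (e α + (eg α + ec α)) = e α + (eg α + ec α)
    rw [star_add, star_add, heg, hec, star_wX, star_wX, he α]
  · intro y hy
    have hy' : ‖y‖ < (1 - ε) * R := mem_ball_zero_iff.1 hy
    have hay := hφR y hy'
    have e1 : Msys u' y = Msys (ro q H' v φ) y := by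
      rw [Msys_eq, Msys_eq, msop_congr (hev' y hy'), msop_add_const]
    rw [e1]
    have hvs : ContDiff ℝ 2 v := q.contDiff.add ((contDiff_syn b e).of_le (by
      norm_cast; omega))
    have h5 := ms_rot (EuclideanSpace.basisFun (Fin m) ℝ) hRt (v := v) (w := ro q H' v φ)
      (a := φ y) hvs.contDiffAt (by
        have h6 : H (φ y + ContinuousLinearMap.adjoint q (v (φ y))) = y := h1 y
        rw [h6]
        exact (hsmooth y (by linarith)).of_le two_le_inf) (by
        refine Eventually.of_forall fun x => ?_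
        have h6 : φ (H (x + ContinuousLinearMap.adjoint q (v x))) = x := h2 x
        unfold ro
        rw [h6])
    have h6 : H (φ y + ContinuousLinearMap.adjoint q (v (φ y))) = y := h1 y
    have h7 : Msys v (φ y) = 0 := by
      have h8 : v =ᶠ[𝓝 (φ y)] fun x => t⁻¹ • (u (X₀ + t • x) - u X₀) := by
        filter_upwards [(isOpen_lt continuous_norm continuous_const).mem_nhds
          (show ‖φ y‖ < (3 / 2 : ℝ) by linarith)] with z hz
        exact hve z (le_of_lt hz)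
      rw [Msys_eq, msop_congr h8, msop_zoom ht.ne', hu, hMz _ hay, smul_zero]
    rw [h6, ms_std, ms_std, h7] at h5
    simpa using h5
  · have h0R : ‖(0 : Euc m)‖ < (1 - ε) * R := by rw [norm_zero]; exact h0R'
    have hro0 : ro q H' v φ 0 = 0 := by
      unfold ro; rw [hφ0, hv0]; simp
    refine ⟨hRt, ?_, ?_, ?_, ?_, ?_⟩
    · rw [hu'r 0 h0R, hro0, zero_add]
    · rw [(hev' 0 h0R).fderiv_eq]
      -- the derivative of `v - q` at `0` vanishes
      have hd0 : HasFDerivAt (syn b e) (0 : Euc m →L[ℝ] Euc n) 0 := by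
        have h3 : syn b e =ᶠ[𝓝 0] fun x => t⁻¹ • (u (X₀ + t • x) - u X₀) - q x := by
          filter_upwards [(isOpen_lt continuous_norm continuous_const).mem_nhds
            (show ‖(0 : Euc m)‖ < (3 / 2 : ℝ) by rw [norm_zero]; norm_num)] with z hz
          exact hev z (le_of_lt hz)
        refine HasFDerivAt.congr_of_eventuallyEq ?_ h3
        have hud : HasFDerivAt u q (X₀ + t • (0 : Euc m)) := by
          rw [smul_zero, add_zero, hq]
          have : Differentiable ℝ u := by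
            rw [hu]
            exact (contDiff_syn b a).differentiable (by norm_cast)
          exact (this X₀).hasFDerivAt
        have h4 : HasFDerivAt (fun x : Euc m => X₀ + t • x) (t • ContinuousLinearMap.id ℝ (Euc m))
            0 := ((hasFDerivAt_id (0 : Euc m)).const_smul t).const_add X₀
        have h5 := ((hud.comp (0 : Euc m) h4).sub_const (u X₀)).const_smul t⁻¹
        have h6 := h5.sub q.hasFDerivAt (x := (0 : Euc m))
        have h7 : t⁻¹ • (q ∘L (t • ContinuousLinearMap.id ℝ (Euc m))) - q = 0 := by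
          ext x
          simp [smul_smul, inv_mul_cancel₀ ht.ne']
        rw [h7] at h6
        exact h6
      have hl1 : (fun x => syn b e x) =o[𝓝 0] fun x : Euc m => x := by
        have h3 := hd0.isLittleO
        have h4 : syn b e 0 = 0 := by rw [hev 0 (by rw [norm_zero]; norm_num)]; simp
        simpa [h4] using h3
      have hφt : Tendsto φ (𝓝 0) (𝓝 0) := by
        have := hφc.tendsto 0
        rwa [hφ0] at this
      have hl2 : (fun y => syn b e (φ y)) =o[𝓝 0] φ := hl1.comp_tendsto hφt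
      have hl3 : φ =O[𝓝 0] fun y : Euc m => y := by
        refine Asymptotics.IsBigO.of_bound 2 (Eventually.of_forall fun y => ?_)
        have h5 : ‖φ y‖ ≤ ‖φ y - y‖ + ‖y‖ := by
          calc ‖φ y‖ = ‖(φ y - y) + y‖ := by congr 1; abel
            _ ≤ _ := norm_add_le _ _
        have h6 : 4 * l * ‖q‖ * ‖y‖ ≤ 1 * ‖y‖ := by
          have : 4 * l * ‖q‖ ≤ 1 := by linarith
          gcongr
        linarith [hφ y]
      have hl4 : (fun y => ro q H' v φ y) =o[𝓝 0] fun y : Euc m => y := by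
        have h3 : (fun y => ro q H' v φ y) =O[𝓝 0] fun y => syn b e (φ y) := by
          refine Asymptotics.IsBigO.of_bound 1 (Eventually.of_forall fun y => ?_)
          unfold ro
          rw [hvsub, one_mul]
          exact hRt.le' _
        exact h3.trans_isLittleO (hl2.trans_isBigO hl3)
      have hl5 : HasFDerivAt (ro q H' v φ) (0 : Euc m →L[ℝ] Euc n) 0 := by
        refine HasFDerivAt.of_isLittleO ?_
        simpa [hro0] using hl4
      exact (hl5.add_const c).fderiv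
    · intro y hy
      have hy' : ‖y‖ < (1 - ε) * R := mem_ball_zero_iff.1 hy
      have hay := hφR y hy'
      refine ⟨φ y, mem_ball_zero_iff.2 (by linarith), ?_, ?_, ?_⟩
      · rw [hchg _ (by linarith), h1]
      · rw [hu'r y hy', ← hroe _ (by linarith)]
        unfold ro
        abel
      · refine (hφ y).trans ?_
        have h3 : 4 * (Cg * (1 + Ce)) ≤ C := by linarith
        calc 4 * l * ‖q‖ * ‖y‖ = 4 * (Cg * (1 + Ce)) * κ * ‖q‖ * ‖y‖ := by rw [hl]; ring
          _ ≤ C * κ * ‖q‖ * ‖y‖ := by gcongr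
    · intro x hx x' hx' h3
      have hx1 := mem_ball_zero_iff.1 hx
      have hx2 := mem_ball_zero_iff.1 hx'
      rw [hchg x (by linarith), hchg x' (by linarith)] at h3
      have h4 : chg q H v x = chg q H v x' := smul_right_injective _ ht.ne' h3
      rw [← h2 x, h4, h2]
    · intro x hx y hy h3
      have hx1 := mem_ball_zero_iff.1 hx
      have hy' : ‖y‖ < (1 - ε) * R := mem_ball_zero_iff.1 hy
      rw [hchg x (by linarith)] at h3
      have h4 : chg q H v x = y := smul_right_injective _ ht.ne' h3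
      have h5 : φ y = x := by rw [← h4, h2]
      rw [hu'r y hy', ← hroe _ (by linarith)]
      unfold ro
      rw [h5]
      abel

end Crest.Agent.R234.Rs_182
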