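import Crest.Agent.R234.Rs5_182

/-!
# Row 234, node RESCALE (helper182), part 6: the final theorems

* `rescale` : rotation to the tangent plane at a base point near the centre and zoom by `t`;
  the class norm is `C t κ + C ε⁻ᵖ th^(2^-J) κ + C ‖c‖`, the radius loses only the factor `1 - ε`.
* `rotate`  : the same without zoom; the coefficient of `κ` is exactly `1`.
-/

set_option autoImplicit false
set_option linter.unusedSectionVars false

open MeasureTheory Set Metric Filter Topology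
open scoped ContDiff NNReal RealInnerProductSpace
open Crest.GeometryTopology.Submanifold

noncomputable section

namespace Crest.Agent.R234.Rs_182

open Crest.Agent.R086.Wie Crest.Agent.R234.Mx1_397 Crest.Agent.R234.Mx2_397
  Crest.Agent.R234.Mx3_397 Crest.Agent.R234.Mx4_397 Crest.Agent.R234.Mx5_397
  Crest.Agent.R234.Mx6_397 Crest.Agent.R234.Mx13_397 Crest.Agent.R234.Mx16_397
  Crest.Agent.R234.Zm_161 Crest.Agent.R234.MG_570
  Crest.Agent.R234.Ell1_3 Crest.Agent.R234.Grot_842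
open Crest.Agent.R234.Main_456 (Msys)

/-- **RESCALE** -/
theorem rescale (m n N : ℕ) (hm : 1 ≤ m) (r₀ : ℝ) (hr0 : 0 < r₀) (hr1 : r₀ ≤ 1) :
    ∃ (κ₀ C : ℝ) (p J : ℕ), 0 < κ₀ ∧ 1 ≤ C ∧
    ∀ (t ε R κ th : ℝ) (u : Euc m → Euc n) (X₀ : Euc m) (c : Euc n),
      0 < t → t ≤ 1 → 0 < ε → ε ≤ 1 / 4 → r₀ ≤ R → R ≤ 3 / 2 → κ ≤ κ₀ → MG N κ (t * R) u →
      ‖X₀‖ ≤ ε * (t * R) / 8 → ‖fderiv ℝ u X₀‖ ≤ th → 0 < th → th ≤ 1 →
      C * (ε⁻¹) ^ p * th ^ ((1 / 2 : ℝ) ^ J) ≤ 1 →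
      ∃ (H : Euc m →L[ℝ] Euc m) (H' : Euc n →L[ℝ] Euc n) (u' : Euc m → Euc n),
        MG N (C * t * κ + C * (ε⁻¹) ^ p * th ^ ((1 / 2 : ℝ) ^ J) * κ + C * ‖c‖) ((1 - ε) * R) u' ∧
        RotG u u' X₀ c (fderiv ℝ u X₀) H H' t R ((1 - ε) * R) (C * κ * ‖fderiv ℝ u X₀‖) := by
  set b := EuclideanSpace.basisFun (Fin n) ℝ with hb
  obtain ⟨Cz, hCz, hz⟩ := zoomV (F := Euc m) N b chi0_isCut
  obtain ⟨κ₀, C, p, J, hκ₀, hC, hcore⟩ := core m n N hm r₀ hr0 hr1 Cz hCz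
  refine ⟨κ₀, max C Cz, p, J, hκ₀, hC.trans (le_max_left _ _), ?_⟩
  intro t ε R κ th u X₀ c ht ht1 hε hε1 hR1 hR2 hκ hMG hX₀ hqth hth hth1 hsm
  obtain ⟨a, ha, haκ, hrep, hM⟩ := hMG
  have hκ0 : 0 ≤ κ := (norm_nonneg _).trans haκ
  have hu : u = syn b a := rep_syn hrep
  obtain ⟨⟨e, he, hen, hev⟩, -⟩ := hz X₀ t ht ht1 a ha
  have hCC : C ≤ max C Cz := le_max_left _ _
  have hT0 : 0 ≤ (ε⁻¹) ^ p * th ^ ((1 / 2 : ℝ) ^ J) := by positivity
  obtain ⟨H, H', u', e', he', hen', hrep', hM', hRot⟩ := hcore t ε R κ th u X₀ c a e ht ht1 hε hε1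
    hR1 hR2 hκ ha haκ hrep hM hX₀ hqth hth hth1 (by
      refine le_trans ?_ hsm
      rw [mul_assoc, mul_assoc]
      gcongr) he (by
      refine hen.trans ?_
      calc Cz * t * ‖a‖ ≤ Cz * 1 * κ := by gcongr
        _ = Cz * κ := by ring) (fun x hx => by
      rw [hev, chi0_one hx, one_smul, ← hu, smul_sub, map_smul, smul_smul,
        inv_mul_cancel₀ ht.ne', one_smul])
  refine ⟨H, H', u', ⟨e + e', fun α => ?_, ?_, hrep', hM'⟩, ?_⟩
  · show star (e α + e' α) = e α + e' α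
    rw [star_add, he α, he' α]
  · calc ‖e + e'‖ ≤ Cz * t * ‖a‖ + (C * (ε⁻¹) ^ p * th ^ ((1 / 2 : ℝ) ^ J) * κ + C * ‖c‖) :=
          (norm_add_le _ _).trans (add_le_add hen hen')
      _ ≤ max C Cz * t * κ + (max C Cz * (ε⁻¹) ^ p * th ^ ((1 / 2 : ℝ) ^ J) * κ +
            max C Cz * ‖c‖) := by
          have := le_max_right C Cz
          gcongr
      _ = _ := by ring
  · refine ⟨hRot.rt, hRot.val, hRot.der, fun y hy => ?_, hRot.inj, hRot.fwd⟩
    obtain ⟨x, h1, h2, h3, h4⟩ := hRot.bwd y hy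
    refine ⟨x, h1, h2, h3, h4.trans ?_⟩
    gcongr

/-- **ROTATE** (unit scale) -/
theorem rotate (m n N : ℕ) (hm : 1 ≤ m) (r₀ : ℝ) (hr0 : 0 < r₀) (hr1 : r₀ ≤ 1) :
    ∃ (κ₀ C : ℝ) (p J : ℕ), 0 < κ₀ ∧ 1 ≤ C ∧
    ∀ (ε R κ th : ℝ) (u : Euc m → Euc n) (X₀ : Euc m) (c : Euc n),
      0 < ε → ε ≤ 1 / 4 → r₀ ≤ R → R ≤ 3 / 2 → κ ≤ κ₀ → MG N κ R u →
      ‖X₀‖ ≤ ε * R / 8 → ‖fderiv ℝ u X₀‖ ≤ th → 0 < th → th ≤ 1 →
      C * (ε⁻¹) ^ p * th ^ ((1 / 2 : ℝ) ^ J) ≤ 1 →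
      ∃ (H : Euc m →L[ℝ] Euc m) (H' : Euc n →L[ℝ] Euc n) (u' : Euc m → Euc n),
        MG N (κ + C * ‖u X₀‖ + C * ‖fderiv ℝ u X₀‖ +
          C * (ε⁻¹) ^ p * th ^ ((1 / 2 : ℝ) ^ J) * κ + C * ‖c‖) ((1 - ε) * R) u' ∧
        RotG u u' X₀ c (fderiv ℝ u X₀) H H' 1 R ((1 - ε) * R) (C * κ * ‖fderiv ℝ u X₀‖) := by
  set b := EuclideanSpace.basisFun (Fin n) ℝ with hb
  obtain ⟨K, Cw, hCw, hw⟩ := exists_wX_bound (F := Euc m) b (N + 2)
  have hpi := Real.pi_pos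
  set Cg : ℝ := Fintype.card (Fin n) * (2 * Real.pi) ^ (N + 2) with hCg
  have hCg0 : 0 ≤ Cg := by positivity
  obtain ⟨κ₀, C, p, J, hκ₀, hC, hcore⟩ := core m n N hm r₀ hr0 hr1 (1 + 3 * Cw * Cg) (by
    have : 0 ≤ 3 * Cw * Cg := by positivity
    linarith)
  refine ⟨κ₀, max C (2 * Cw), p, J, hκ₀, hC.trans (le_max_left _ _), ?_⟩
  intro ε R κ th u X₀ c hε hε1 hR1 hR2 hκ hMG hX₀ hqth hth hth1 hsm
  obtain ⟨a, ha, haκ, hrep, hM⟩ := hMG
  have hκ0 : 0 ≤ κ := (norm_nonneg _).trans haκ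
  have hu : u = syn b a := rep_syn hrep
  set q : Euc m →L[ℝ] Euc n := fderiv ℝ u X₀ with hq
  have hqn : ‖q‖ ≤ Cg * κ := by
    have h3 := norm_iteratedFDeriv_syn_le b a (j := 1) (by omega) X₀
    rw [norm_iteratedFDeriv_one, ← hu] at h3
    refine h3.trans ?_
    calc _ = Cg * ‖a‖ := by rw [hCg]; ring
      _ ≤ Cg * κ := by gcongr
  have hun : ‖u X₀‖ ≤ Cg * κ := by
    have h3 := norm_iteratedFDeriv_syn_le b a (j := 0) (by omega) X₀
    rw [norm_iteratedFDeriv_zero, ← hu] at h3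
    refine h3.trans ?_
    calc _ = Cg * ‖a‖ := by rw [hCg]; ring
      _ ≤ Cg * κ := by gcongr
  -- the affine part
  have haf : ContDiff ℝ ∞ (fun x : Euc m => u X₀ + q x) := contDiff_const.add q.contDiff
  set ea : XV m n (N + 2) := wX b (N + 2) haf.contDiffOn with hea
  have hean : ‖ea‖ ≤ Cw * (‖u X₀‖ + 2 * ‖q‖) := by
    refine hw _ haf.contDiffOn _ (by positivity) fun j hj x hx => ?_
    rcases Nat.eq_zero_or_pos j with h0 | h0
    · subst h0
      rw [norm_iteratedFDeriv_zero]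
      refine (norm_add_le _ _).trans (add_le_add le_rfl ((q.le_opNorm x).trans ?_))
      have := (mem_ball_zero_iff.1 hx).le
      nlinarith [norm_nonneg q]
    · have e1 : iteratedFDeriv ℝ j (fun x : Euc m => u X₀ + q x) x =
          iteratedFDeriv ℝ j (fun _ : Euc m => u X₀) x + iteratedFDeriv ℝ j q x :=
        iteratedFDeriv_add_apply (f := fun _ : Euc m => u X₀) (g := fun x => q x)
          contDiffAt_const q.contDiff.contDiffAt
      rw [e1, iteratedFDeriv_const_of_ne (by omega), Pi.zero_apply, zero_add]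
      have := norm_iter_clm q x h0
      linarith [norm_nonneg (u X₀), norm_nonneg q]
  set et : XV m n (N + 2) := fun α => tw (N + 2) X₀ (a α) with het
  have hetn : ‖et‖ ≤ κ := by
    refine le_trans ?_ haκ
    refine (pi_norm_le_iff_of_nonneg (norm_nonneg _)).2 fun α => ?_
    exact (norm_tw_le X₀ (a α)).trans (norm_le_pi_norm a α)
  have hets : ∀ x, syn b et x = u (X₀ + x) := fun x => by
    rw [hu]
    unfold syn
    refine Finset.sum_congr rfl fun α _ => ?_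
    rw [het]
    simp only [ev_tw]
  set e : XV m n (N + 2) := et + -ea with hedef
  have hsn : ∀ x, syn b e x = syn b et x - syn b ea x := fun x => by
    have e1 : syn b e x = syn b et x + syn b (fun α => -ea α) x := syn_add b et (-ea) x
    have e2 : syn b (fun α => -ea α) x = - syn b ea x := by
      unfold syn
      rw [← Finset.sum_neg_distrib]
      refine Finset.sum_congr rfl fun α _ => ?_
      have e3 : ev (-ea α) x = - ev (ea α) x := by
        have e4 := ev_add (-ea α) (ea α) x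
        rw [neg_add_cancel] at e4
        have e5 : ev (0 : X (Euc m) (N + 2)) x = 0 := by
          have e6 := ev_add (0 : X (Euc m) (N + 2)) 0 x
          rw [add_zero] at e6
          exact left_eq_add.1 e6
        rw [e5] at e4
        exact eq_neg_of_add_eq_zero_left e4.symm
      rw [e3, Complex.neg_re, neg_smul]
    rw [e1, e2, sub_eq_add_neg]
  have he : IsReal e := fun α => by
    show star (tw (N + 2) X₀ (a α) + -ea α) = tw (N + 2) X₀ (a α) + -ea α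
    rw [star_add, star_neg, star_tw, ha α, hea, star_wX]
  have hen : ‖e‖ ≤ κ + Cw * (‖u X₀‖ + 2 * ‖q‖) := by
    refine (norm_add_le _ _).trans (add_le_add hetn ?_)
    rwa [norm_neg]
  have hT0 : 0 ≤ (ε⁻¹) ^ p * th ^ ((1 / 2 : ℝ) ^ J) := by positivity
  obtain ⟨H, H', u', e', he', hen', hrep', hM', hRot⟩ := hcore 1 ε R κ th u X₀ c a e one_pos le_rfl
    hε hε1 hR1 hR2 hκ ha haκ hrep (by rwa [one_mul]) (by rwa [one_mul]) hqth hth hth1 (by
      refine le_trans ?_ hsm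
      rw [mul_assoc, mul_assoc]
      have := le_max_left C (2 * Cw)
      gcongr) he (by
      refine hen.trans ?_
      calc κ + Cw * (‖u X₀‖ + 2 * ‖q‖) ≤ κ + Cw * (Cg * κ + 2 * (Cg * κ)) := by gcongr
        _ = (1 + 3 * Cw * Cg) * κ := by ring) (fun x hx => by
      rw [hsn, hets, hea, syn_wX, nb_one (by linarith), one_smul, inv_one, one_smul, one_smul]
      abel)
  refine ⟨H, H', u', ⟨e + e', fun α => ?_, ?_, hrep', hM'⟩, ?_⟩
  · show star (e α + e' α) = e α + e' α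
    rw [star_add, he α, he' α]
  · have h1 := le_max_left C (2 * Cw)
    have h2 := le_max_right C (2 * Cw)
    have h3 : Cw ≤ 2 * Cw := by linarith
    calc ‖e + e'‖ ≤ (κ + Cw * (‖u X₀‖ + 2 * ‖q‖)) +
          (C * (ε⁻¹) ^ p * th ^ ((1 / 2 : ℝ) ^ J) * κ + C * ‖c‖) :=
          (norm_add_le _ _).trans (add_le_add hen hen')
      _ = (κ + Cw * ‖u X₀‖ + (2 * Cw) * ‖q‖) +
          (C * (ε⁻¹) ^ p * th ^ ((1 / 2 : ℝ) ^ J) * κ + C * ‖c‖) := by ring
      _ ≤ (κ + max C (2 * Cw) * ‖u X₀‖ + max C (2 * Cw) * ‖q‖) +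
          (max C (2 * Cw) * (ε⁻¹) ^ p * th ^ ((1 / 2 : ℝ) ^ J) * κ + max C (2 * Cw) * ‖c‖) := by
          have h4 := h3.trans h2
          gcongr
      _ = _ := by ring
  · refine ⟨hRot.rt, hRot.val, hRot.der, fun y hy => ?_, hRot.inj, hRot.fwd⟩
    obtain ⟨x, h1, h2, h3, h4⟩ := hRot.bwd y hy
    refine ⟨x, h1, h2, h3, h4.trans ?_⟩
    have := le_max_left C (2 * Cw)
    gcongr

end Crest.Agent.R234.Rs_182
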