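import Crest.Agent.R234.Rs7_182

/-!
# Row 234, node RESCALE (helper182), part 8: `rescaleG`, explicit `C¹` closeness on `ball 0 6`
-/

set_option autoImplicit false
set_option linter.unusedSectionVars false

open MeasureTheory Set Metric Filter Topology
open scoped ContDiff NNReal RealInnerProductSpace
open Crest.GeometryTopology.Submanifold

noncomputable section

namespace Crest.Agent.R234.Rs_182

open Crest.Agent.R086.Wie Crest.Agent.R234.Mx1_397 Crest.Agent.R234.Mx5_397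
  Crest.Agent.R234.Mx6_397 Crest.Agent.R234.Mx16_397 Crest.Agent.R234.MG_570
  Crest.Agent.R234.Ell1_3 Crest.Agent.R234.Grot_842
open Crest.Agent.R234.Main_456 (Msys)

/-- derivative bounds of the class with an explicit constant -/
theorem MG_bd {m n N : ℕ} {κ r : ℝ} {u : Euc m → Euc n} (h : MG N κ r u) {j : ℕ} (hj : j ≤ N + 2)
    (x : Euc m) :
    ‖iteratedFDeriv ℝ j u x‖ ≤ (Fintype.card (Fin n) * (2 * Real.pi) ^ (N + 2)) * κ := by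
  obtain ⟨a, ha, han, hrep, _⟩ := h
  rw [rep_syn hrep]
  refine (norm_iteratedFDeriv_syn_le _ a hj x).trans ?_
  rw [mul_assoc]
  gcongr

theorem MG_contDiff {m n N : ℕ} {κ r : ℝ} {u : Euc m → Euc n} (h : MG N κ r u) :
    ContDiff ℝ ((N + 2 : ℕ) : WithTop ℕ∞) u := by
  obtain ⟨a, ha, han, hrep, _⟩ := h
  rw [rep_syn hrep]
  exact contDiff_syn _ a

theorem MG_diff {m n N : ℕ} {κ r : ℝ} {u : Euc m → Euc n} (h : MG N κ r u) :
    Differentiable ℝ u := (MG_contDiff h).differentiable (by norm_cast)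

/-- **RESCALE with explicit `C¹` closeness** -/
theorem rescaleG (m n N : ℕ) (hm : 1 ≤ m) (r₀ : ℝ) (hr0 : 0 < r₀) (hr1 : r₀ ≤ 1) :
    ∃ (κ₀ C : ℝ) (p J : ℕ), 0 < κ₀ ∧ 1 ≤ C ∧
    ∀ (t ε R κ th : ℝ) (u : Euc m → Euc n) (X₀ : Euc m) (c : Euc n),
      0 < t → 4 * t ≤ 1 → 0 < ε → ε ≤ 1 / 4 → r₀ ≤ R → R ≤ 3 / 2 → κ ≤ κ₀ → MG N κ (t * R) u →
      ‖X₀‖ ≤ ε * (t * R) / 8 → ‖fderiv ℝ u X₀‖ ≤ th → 0 < th → th ≤ 1 →
      C * (ε⁻¹) ^ p * th ^ ((1 / 2 : ℝ) ^ J) ≤ 1 →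
      ∃ (H : Euc m →L[ℝ] Euc m) (H' : Euc n →L[ℝ] Euc n) (u' : Euc m → Euc n),
        MG N (C * t * κ + C * (ε⁻¹) ^ p * th ^ ((1 / 2 : ℝ) ^ J) * κ + C * ‖c‖) ((1 - ε) * R) u' ∧
        RotG u u' X₀ c (fderiv ℝ u X₀) H H' t R ((1 - ε) * R) (C * κ * ‖fderiv ℝ u X₀‖) ∧
        (∀ y, ‖y‖ < 6 → ‖u' y - (t⁻¹ • (u (X₀ + t • y) - u X₀) - fderiv ℝ u X₀ y + c)‖ ≤
          C * (ε⁻¹) ^ p * th ^ ((1 / 2 : ℝ) ^ J) * κ) ∧
        ∀ y, ‖y‖ < 6 → ‖fderiv ℝ u' y - (fderiv ℝ u (X₀ + t • y) - fderiv ℝ u X₀)‖ ≤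
          C * (ε⁻¹) ^ p * th ^ ((1 / 2 : ℝ) ^ J) * κ := by
  obtain ⟨κ₀, C, p, J, hκ₀, hC, h⟩ := rescale' m n N hm r₀ hr0 hr1
  have hpi := Real.pi_pos
  set Cg : ℝ := Fintype.card (Fin n) * (2 * Real.pi) ^ (N + 2) with hCg
  have hCg0 : 0 ≤ Cg := by positivity
  set D : ℝ := (1 + Cg) * C with hD
  have hC0 : 0 ≤ C := zero_le_one.trans hC
  have hCD : C ≤ D := le_mul_of_one_le_left hC0 (by linarith)
  have hgD : Cg * C ≤ D := mul_le_mul_of_nonneg_right (by linarith) hC0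
  refine ⟨κ₀, D, p, J, hκ₀, hC.trans hCD, ?_⟩
  intro t ε R κ th u X₀ c ht ht1 hε hε1 hR1 hR2 hκ hMG hX₀ hqth hth hth1 hsm
  have hκ0 : 0 ≤ κ := by
    obtain ⟨a, _, haκ, _, _⟩ := hMG
    exact (norm_nonneg _).trans haκ
  have hT0 : 0 ≤ (ε⁻¹) ^ p * th ^ ((1 / 2 : ℝ) ^ J) := by positivity
  obtain ⟨H, H', u', d, h1, h2, h3, h4⟩ := h t ε R κ th u X₀ c ht ht1 hε hε1 hR1 hR2 hκ hMG hX₀ hqth
    hth hth1 (by
      refine le_trans ?_ hsm
      rw [mul_assoc, mul_assoc]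
      gcongr)
  set q := fderiv ℝ u X₀ with hq
  have hfor : ∀ y : Euc m, ‖y‖ ≤ 6 → u' y = (t⁻¹ • (u (X₀ + t • y) - u X₀) - q y + c) + d y := by
    intro y hy
    rw [h4 y hy, smul_sub, map_smul, smul_smul, inv_mul_cancel₀ ht.ne', one_smul]
  have hb : Cg * (C * (ε⁻¹) ^ p * th ^ ((1 / 2 : ℝ) ^ J) * κ) ≤
      D * (ε⁻¹) ^ p * th ^ ((1 / 2 : ℝ) ^ J) * κ := by
    calc Cg * (C * (ε⁻¹) ^ p * th ^ ((1 / 2 : ℝ) ^ J) * κ)
        = (Cg * C) * (ε⁻¹) ^ p * th ^ ((1 / 2 : ℝ) ^ J) * κ := by ring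
      _ ≤ _ := by gcongr
  refine ⟨H, H', u', ?_, ?_, ?_, ?_⟩
  · obtain ⟨a, a1, a2, a3, a4⟩ := h1
    refine ⟨a, a1, a2.trans ?_, a3, a4⟩
    gcongr
  · refine ⟨h2.rt, h2.val, h2.der, fun y hy => ?_, h2.inj, h2.fwd⟩
    obtain ⟨x, b1, b2, b3, b4⟩ := h2.bwd y hy
    refine ⟨x, b1, b2, b3, b4.trans ?_⟩
    gcongr
  · intro y hy
    rw [hfor y hy.le, add_sub_cancel_left]
    have h5 := MG_bd h3 (j := 0) (by omega) y
    rw [norm_iteratedFDeriv_zero] at h5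
    exact h5.trans hb
  · intro y hy
    have hud : Differentiable ℝ u := MG_diff hMG
    have hdd : Differentiable ℝ d := MG_diff h3
    have h6 : u' =ᶠ[𝓝 y] fun y => (t⁻¹ • (u (X₀ + t • y) - u X₀) - q y + c) + d y := by
      filter_upwards [(isOpen_lt continuous_norm continuous_const).mem_nhds hy] with z hz
      exact hfor z (le_of_lt hz)
    have h7 : HasFDerivAt (fun y : Euc m => X₀ + t • y) (t • ContinuousLinearMap.id ℝ (Euc m)) y :=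
      ((hasFDerivAt_id y).const_smul t).const_add X₀
    have h8 : HasFDerivAt (fun y => u (X₀ + t • y))
        (fderiv ℝ u (X₀ + t • y) ∘L (t • ContinuousLinearMap.id ℝ (Euc m))) y :=
      (hud _).hasFDerivAt.comp y h7
    have h9 := ((((h8.sub_const (u X₀)).const_smul t⁻¹).sub q.hasFDerivAt).add_const c).add
      (hdd y).hasFDerivAt
    have h10 : fderiv ℝ u' y = t⁻¹ • (fderiv ℝ u (X₀ + t • y) ∘L
        (t • ContinuousLinearMap.id ℝ (Euc m))) - q + fderiv ℝ d y := by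
      rw [h6.fderiv_eq]
      exact h9.fderiv
    have h11 : t⁻¹ • (fderiv ℝ u (X₀ + t • y) ∘L (t • ContinuousLinearMap.id ℝ (Euc m))) =
        fderiv ℝ u (X₀ + t • y) := by
      ext x
      simp [smul_smul, inv_mul_cancel₀ ht.ne']
    rw [h10, h11, add_sub_cancel_left, ← norm_iteratedFDeriv_one]
    exact (MG_bd h3 (j := 1) (by omega) y).trans hb

end Crest.Agent.R234.Rs_182
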