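import Crest.Agent.R234.Rs8_182

/-!
# Row 234, node RESCALE (helper182), part 9: the rotation first, then every constant `c`
-/

set_option autoImplicit false
set_option linter.unusedSectionVars false

open MeasureTheory Set Metric Filter Topology
open scoped ContDiff NNReal RealInnerProductSpace
open Crest.GeometryTopology.Submanifold

noncomputable section

namespace Crest.Agent.R234.Rs_182

open Crest.Agent.R086.Wie Crest.Agent.R234.Mx1_397 Crest.Agent.R234.Mx5_397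
  Crest.Agent.R234.Mx6_397 Crest.Agent.R234.Mx16_397 Crest.Agent.R234.MG_570
  Crest.Agent.R234.Ell1_3 Crest.Agent.R234.Grot_842
open Crest.Agent.R234.Main_456 (Msys)

/-- adding a constant inside the class -/
theorem MG_add_const (m n N : ℕ) : ∃ Ck : ℝ, 0 ≤ Ck ∧
    ∀ (κ r : ℝ) (u₀ : Euc m → Euc n) (c : Euc n), r ≤ 6 → MG N κ r u₀ →
      ∃ u' : Euc m → Euc n, MG N (κ + Ck * ‖c‖) r u' ∧ (∀ y, ‖y‖ ≤ 6 → u' y = u₀ y + c) ∧
        ∀ j ≤ N + 2, ∀ y, ‖iteratedFDeriv ℝ j (fun y => u' y - u₀ y) y‖ ≤ Ck * ‖c‖ := by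
  obtain ⟨Ck, hCk, hk⟩ := norm_kX_le m n (N + 2)
  have hpi := Real.pi_pos
  set Cg : ℝ := Fintype.card (Fin n) * (2 * Real.pi) ^ (N + 2) with hCg
  have hCg0 : 0 ≤ Cg := by positivity
  refine ⟨(1 + Cg) * Ck, by positivity, ?_⟩
  intro κ r u₀ c hr h
  obtain ⟨a, ha, han, hrep, hM⟩ := h
  set b := EuclideanSpace.basisFun (Fin n) ℝ with hb
  have hu₀ : u₀ = syn b a := rep_syn hrep
  have hkc : Ck * ‖c‖ ≤ (1 + Cg) * Ck * ‖c‖ := by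
    have : 0 ≤ Cg * (Ck * ‖c‖) := by positivity
    nlinarith
  have hgc : Cg * (Ck * ‖c‖) ≤ (1 + Cg) * Ck * ‖c‖ := by
    have : 0 ≤ Ck * ‖c‖ := by positivity
    nlinarith
  have hu'e : ∀ x, ‖x‖ ≤ 6 → syn b (a + kX m (N + 2) c) x = u₀ x + c := fun x hx => by
    have e1 : syn b (a + kX m (N + 2) c) x = syn b a x + syn b (kX m (N + 2) c) x :=
      syn_add b a _ x
    rw [e1, syn_kX, chi0_quarter hx, one_smul, hu₀]
  have hr1 : IsReal (a + kX m (N + 2) c) := fun α => by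
    show star (a α + kX m (N + 2) c α) = a α + kX m (N + 2) c α
    rw [star_add, ha α, star_kX]
  refine ⟨syn b (a + kX m (N + 2) c), ⟨a + kX m (N + 2) c, hr1, ?_, syn_rep hr1,
    msys_add_const' hM fun y hy => hu'e y (by linarith)⟩, hu'e, ?_⟩
  · calc ‖a + kX m (N + 2) c‖ ≤ κ + Ck * ‖c‖ := (norm_add_le _ _).trans (add_le_add han (hk c))
      _ ≤ _ := by linarith
  · intro j hj y
    have e1 : (fun y => syn b (a + kX m (N + 2) c) y - u₀ y) = syn b (kX m (N + 2) c) := by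
      funext x
      have e1 : syn b (a + kX m (N + 2) c) x = syn b a x + syn b (kX m (N + 2) c) x :=
        syn_add b a _ x
      rw [e1, hu₀, add_sub_cancel_left]
    rw [e1]
    refine (norm_iteratedFDeriv_syn_le b _ hj y).trans (le_trans ?_ hgc)
    rw [hCg, mul_assoc]
    have := hk c
    gcongr

/-- **RESCALE, the rotation chosen before the constant `c`** -/
theorem rescaleH (m n N : ℕ) (hm : 1 ≤ m) (r₀ : ℝ) (hr0 : 0 < r₀) (hr1 : r₀ ≤ 1) :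
    ∃ (κ₀ C : ℝ) (p J : ℕ), 0 < κ₀ ∧ 1 ≤ C ∧
    ∀ (t ε R κ th : ℝ) (u : Euc m → Euc n) (X₀ : Euc m),
      0 < t → 4 * t ≤ 1 → 0 < ε → ε ≤ 1 / 4 → r₀ ≤ R → R ≤ 3 / 2 → κ ≤ κ₀ → MG N κ (t * R) u →
      ‖X₀‖ ≤ ε * (t * R) / 8 → ‖fderiv ℝ u X₀‖ ≤ th → 0 < th → th ≤ 1 →
      C * (ε⁻¹) ^ p * th ^ ((1 / 2 : ℝ) ^ J) ≤ 1 →
      ∃ (H : Euc m →L[ℝ] Euc m) (H' : Euc n →L[ℝ] Euc n), Rt (fderiv ℝ u X₀) H H' ∧
        ∀ c : Euc n, ∃ u' : Euc m → Euc n,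
        MG N (C * t * κ + C * (ε⁻¹) ^ p * th ^ ((1 / 2 : ℝ) ^ J) * κ + C * ‖c‖) ((1 - ε) * R) u' ∧
        RotG u u' X₀ c (fderiv ℝ u X₀) H H' t R ((1 - ε) * R) (C * κ * ‖fderiv ℝ u X₀‖) ∧
        (∀ y, ‖y‖ < 6 → ‖u' y - (t⁻¹ • (u (X₀ + t • y) - u X₀) - fderiv ℝ u X₀ y + c)‖ ≤
          C * (ε⁻¹) ^ p * th ^ ((1 / 2 : ℝ) ^ J) * κ) ∧
        ∀ y, ‖y‖ < 6 → ‖fderiv ℝ u' y - (fderiv ℝ u (X₀ + t • y) - fderiv ℝ u X₀)‖ ≤
          C * (ε⁻¹) ^ p * th ^ ((1 / 2 : ℝ) ^ J) * κ := by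
  obtain ⟨κ₀, C, p, J, hκ₀, hC, h⟩ := rescaleG m n N hm r₀ hr0 hr1
  obtain ⟨Ck, hCk, hk⟩ := MG_add_const m n N
  have hC0 : 0 ≤ C := zero_le_one.trans hC
  refine ⟨κ₀, C + Ck, p, J, hκ₀, by linarith, ?_⟩
  intro t ε R κ th u X₀ ht ht1 hε hε1 hR1 hR2 hκ hMG hX₀ hqth hth hth1 hsm
  have hκ0 : 0 ≤ κ := by
    obtain ⟨a, _, haκ, _, _⟩ := hMG
    exact (norm_nonneg _).trans haκ
  have hCD : C ≤ C + Ck := by linarith
  have hkD : Ck ≤ C + Ck := by linarith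
  have hT0 : 0 ≤ (ε⁻¹) ^ p * th ^ ((1 / 2 : ℝ) ^ J) := by positivity
  have hmono : C * (ε⁻¹) ^ p * th ^ ((1 / 2 : ℝ) ^ J) * κ ≤
      (C + Ck) * (ε⁻¹) ^ p * th ^ ((1 / 2 : ℝ) ^ J) * κ := by gcongr
  obtain ⟨H, H', u₀, h1, h2, h3, h4⟩ := h t ε R κ th u X₀ 0 ht ht1 hε hε1 hR1 hR2 hκ hMG hX₀ hqth
    hth hth1 (by
      refine le_trans ?_ hsm
      rw [mul_assoc, mul_assoc]
      gcongr)
  rw [norm_zero, mul_zero, add_zero] at h1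
  have hR0 : 0 < R := hr0.trans_le hR1
  have hRR : (1 - ε) * R ≤ R := by nlinarith
  have hRR0 : 0 < (1 - ε) * R := mul_pos (by linarith) hR0
  refine ⟨H, H', h2.rt, fun c => ?_⟩
  obtain ⟨u', k1, k2, -⟩ := hk _ _ u₀ c (by linarith) h1
  refine ⟨u', ?_, ?_, ?_, ?_⟩
  · obtain ⟨a, a1, a2, a3, a4⟩ := k1
    refine ⟨a, a1, a2.trans ?_, a3, a4⟩
    gcongr
  · have k3 := h2.add_const hRR0 (c := c) (u' := u') fun y hy => k2 y (by linarith)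
    refine ⟨k3.rt, k3.val, k3.der, fun y hy => ?_, k3.inj, k3.fwd⟩
    obtain ⟨x, b1, b2, b3, b4⟩ := k3.bwd y hy
    refine ⟨x, b1, b2, b3, b4.trans ?_⟩
    gcongr
  · intro y hy
    have k4 := h3 y hy
    rw [add_zero] at k4
    rw [k2 y hy.le, add_sub_add_right_eq_sub]
    exact k4.trans hmono
  · intro y hy
    have k5 : u' =ᶠ[𝓝 y] fun y => u₀ y + c := by
      filter_upwards [(isOpen_lt continuous_norm continuous_const).mem_nhds hy] with z hz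
      exact k2 z (le_of_lt hz)
    rw [k5.fderiv_eq, fderiv_add_const]
    exact (h4 y hy).trans hmono

/-- **ROTATE, the rotation chosen before the constant `c`** -/
theorem rotateH (m n N : ℕ) (hm : 1 ≤ m) (r₀ : ℝ) (hr0 : 0 < r₀) (hr1 : r₀ ≤ 1) :
    ∃ (κ₀ C : ℝ) (p J : ℕ), 0 < κ₀ ∧ 1 ≤ C ∧
    ∀ (ε R κ th : ℝ) (u : Euc m → Euc n) (X₀ : Euc m),
      0 < ε → ε ≤ 1 / 4 → r₀ ≤ R → R ≤ 3 / 2 → κ ≤ κ₀ → MG N κ R u →
      ‖X₀‖ ≤ ε * R / 8 → ‖fderiv ℝ u X₀‖ ≤ th → 0 < th → th ≤ 1 →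
      C * (ε⁻¹) ^ p * th ^ ((1 / 2 : ℝ) ^ J) ≤ 1 →
      ∃ (H : Euc m →L[ℝ] Euc m) (H' : Euc n →L[ℝ] Euc n), Rt (fderiv ℝ u X₀) H H' ∧
        ∀ c : Euc n, ∃ u' : Euc m → Euc n,
        MG N (κ + C * ‖u X₀‖ + C * ‖fderiv ℝ u X₀‖ +
          C * (ε⁻¹) ^ p * th ^ ((1 / 2 : ℝ) ^ J) * κ + C * ‖c‖) ((1 - ε) * R) u' ∧
        RotG u u' X₀ c (fderiv ℝ u X₀) H H' 1 R ((1 - ε) * R) (C * κ * ‖fderiv ℝ u X₀‖) ∧
        ∀ j ≤ N + 1, ∀ y, ‖iteratedFDeriv ℝ j (fun y => u' y - u y) y‖ ≤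
          C * (κ * ‖X₀‖ + ‖u X₀‖ + ‖fderiv ℝ u X₀‖ +
            (ε⁻¹) ^ p * th ^ ((1 / 2 : ℝ) ^ J) * κ + ‖c‖) := by
  obtain ⟨κ₀, C, p, J, hκ₀, hC, h⟩ := rotate' m n N hm r₀ hr0 hr1
  obtain ⟨Ck, hCk, hk⟩ := MG_add_const m n N
  have hC0 : 0 ≤ C := zero_le_one.trans hC
  refine ⟨κ₀, C + Ck, p, J, hκ₀, by linarith, ?_⟩
  intro ε R κ th u X₀ hε hε1 hR1 hR2 hκ hMG hX₀ hqth hth hth1 hsm
  have hκ0 : 0 ≤ κ := by
    obtain ⟨a, _, haκ, _, _⟩ := hMG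
    exact (norm_nonneg _).trans haκ
  have hCD : C ≤ C + Ck := by linarith
  have hkD : Ck ≤ C + Ck := by linarith
  have hT0 : 0 ≤ (ε⁻¹) ^ p * th ^ ((1 / 2 : ℝ) ^ J) := by positivity
  obtain ⟨H, H', u₀, h1, h2, h3⟩ := h ε R κ th u X₀ 0 hε hε1 hR1 hR2 hκ hMG hX₀ hqth
    hth hth1 (by
      refine le_trans ?_ hsm
      rw [mul_assoc, mul_assoc]
      gcongr)
  rw [norm_zero, mul_zero, add_zero] at h1
  have hR0 : 0 < R := hr0.trans_le hR1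
  have hRR : (1 - ε) * R ≤ R := by nlinarith
  have hRR0 : 0 < (1 - ε) * R := mul_pos (by linarith) hR0
  refine ⟨H, H', h2.rt, fun c => ?_⟩
  obtain ⟨u', k1, k2, k6⟩ := hk _ _ u₀ c (by linarith) h1
  refine ⟨u', ?_, ?_, ?_⟩
  · obtain ⟨a, a1, a2, a3, a4⟩ := k1
    refine ⟨a, a1, a2.trans ?_, a3, a4⟩
    gcongr
  · have k3 := h2.add_const hRR0 (c := c) (u' := u') fun y hy => k2 y (by linarith)
    refine ⟨k3.rt, k3.val, k3.der, fun y hy => ?_, k3.inj, k3.fwd⟩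
    obtain ⟨x, b1, b2, b3, b4⟩ := k3.bwd y hy
    refine ⟨x, b1, b2, b3, b4.trans ?_⟩
    gcongr
  · intro j hj y
    have hj' : ((j : ℕ) : WithTop ℕ∞) ≤ ((N + 2 : ℕ) : WithTop ℕ∞) := by
      norm_cast; omega
    have s1 := MG_contDiff hMG
    have s2 := MG_contDiff h1
    have s3 := MG_contDiff k1
    have e1 : (fun y => u' y - u y) = fun y => (u₀ y - u y) + (u' y - u₀ y) := by
      funext y; abel
    have e2 : iteratedFDeriv ℝ j (fun y => (u₀ y - u y) + (u' y - u₀ y)) y =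
        iteratedFDeriv ℝ j (fun y => u₀ y - u y) y +
          iteratedFDeriv ℝ j (fun y => u' y - u₀ y) y :=
      iteratedFDeriv_add_apply (f := fun y => u₀ y - u y) (g := fun y => u' y - u₀ y)
        ((s2.sub s1).contDiffAt.of_le hj') ((s3.sub s2).contDiffAt.of_le hj')
    rw [e1, e2]
    have k7 := k6 j (by omega) y
    have k8 := h3 j hj y
    rw [norm_zero, add_zero] at k8
    set A : ℝ := κ * ‖X₀‖ + ‖u X₀‖ + ‖fderiv ℝ u X₀‖ +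
      (ε⁻¹) ^ p * th ^ ((1 / 2 : ℝ) ^ J) * κ with hA
    have hA0 : 0 ≤ A := by positivity
    calc _ ≤ C * A + Ck * ‖c‖ := (norm_add_le _ _).trans (add_le_add k8 k7)
      _ ≤ (C + Ck) * A + (C + Ck) * ‖c‖ := by gcongr
      _ = _ := by ring

end Crest.Agent.R234.Rs_182
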