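import Mathlib

/-!
Row 234, (F5) of the F-list (post #6174): frequency lemma for arbitrarily large frequency.
Pure real analysis.  Variable `l = log s`.
-/

set_option autoImplicit false

open Set

namespace Crest.Agent.R234.Rv_518

/-- One point inequality for `W = E - α I / 2`. -/
lemma w_ineq {E b R I e1 e2 e3 t α : ℝ} (hI : 0 < I) (ht : 0 ≤ t) (ht1 : t ≤ 1) (hα : 1 ≤ α)
    (hcs : (2 * E - 2 * b + e2) ^ 2 ≤ I * R)
    (h1 : |e1| ≤ t * (|E| + |b|)) (h2 : |e2| ≤ t * I) (h3 : |e3| ≤ t * I) :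
    - (2 * α * max b 0) - 2 * t * |E - α * I / 2| ≤
      (2 * b + R + e1) - 2 * α * E - (α / 2) * (2 * (2 * E - 2 * b) + e3) + α ^ 2 * I
        + 4 * t * α * I := by
  set X : ℝ := 2 * E - 2 * b + e2 - α * I with hX
  set w : ℝ := E - α * I / 2 with hw
  set q : ℝ := X ^ 2 / I with hq
  have hq0 : 0 ≤ q := by positivity
  have hqI : q * I = X ^ 2 := by rw [hq]; field_simp
  -- lower bound for R
  have hR : q + 2 * α * X + α ^ 2 * I ≤ R := by
    have : (q + 2 * α * X + α ^ 2 * I) * I ≤ R * I := by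
      have e : (q + 2 * α * X + α ^ 2 * I) * I = (X + α * I) ^ 2 := by
        have : (q + 2 * α * X + α ^ 2 * I) * I = q * I + 2 * α * X * I + α ^ 2 * I * I := by ring
        rw [this, hqI]; ring
      have e' : X + α * I = 2 * E - 2 * b + e2 := by rw [hX]; ring
      rw [e, e']; linarith [hcs, mul_comm R I]
    exact le_of_mul_le_mul_right this hI
  have hkey : q + 2 * (1 - α) * b + 2 * α * e2 + e1 - (α / 2) * e3 + 4 * t * α * I ≤
      (2 * b + R + e1) - 2 * α * E - (α / 2) * (2 * (2 * E - 2 * b) + e3) + α ^ 2 * I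
        + 4 * t * α * I := by
    have : 2 * α * X = 4 * α * E - 4 * α * b + 2 * α * e2 - 2 * α ^ 2 * I := by rw [hX]; ring
    linarith [hR, this]
  refine le_trans ?_ hkey
  have hE : |E| ≤ |w| + α * I / 2 := by
    have : E = w + α * I / 2 := by rw [hw]; ring
    calc |E| = |w + α * I / 2| := by rw [← this]
      _ ≤ |w| + |α * I / 2| := abs_add_le _ _
      _ = |w| + α * I / 2 := by rw [abs_of_nonneg (by positivity : (0:ℝ) ≤ α * I / 2)]
  have e1l : -(t * (|E| + |b|)) ≤ e1 := by linarith [neg_abs_le e1]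
  have e2l : -(t * I) ≤ e2 := by linarith [neg_abs_le e2]
  have e2u : e2 ≤ t * I := by linarith [le_abs_self e2]
  have e3u : e3 ≤ t * I := by linarith [le_abs_self e3]
  have hα0 : 0 < α := by linarith
  have a2 : -(2 * α * (t * I)) ≤ 2 * α * e2 := by nlinarith
  have a3 : -((α / 2) * (t * I)) ≤ - ((α / 2) * e3) := by nlinarith
  have htE : t * |E| ≤ t * |w| + t * (α * I / 2) := by nlinarith [hE]
  have htI : 0 ≤ t * I := by positivity
  have hat : t * I ≤ α * (t * I) := by nlinarith
  rcases le_or_gt 0 b with hb | hb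
  · have hm : max b 0 = b := max_eq_left hb
    have hab : |b| = b := abs_of_nonneg hb
    rw [hm]
    rw [hab] at e1l
    have htw : 0 ≤ t * |w| := by positivity
    have htb : t * b ≤ b := by nlinarith
    linarith [e1l, a2, a3, htE, hq0, htI, hat, htb, htw]
  · have hm : max b 0 = 0 := max_eq_right hb.le
    have hab : |b| = -b := abs_of_neg hb
    rw [hm]
    rw [hab] at e1l
    -- 2 |b| = X - 2 w - e2
    have hbX : 2 * (-b) = X - 2 * w - e2 := by rw [hX, hw]; ring
    have hX1 : X ≤ |X| := le_abs_self X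
    have hw1 : -w ≤ |w| := neg_le_abs w
    have hb2 : 2 * (-b) ≤ |X| + 2 * |w| + t * I := by linarith
    have htb : t * (-b) ≤ t * |X| / 2 + t * |w| + t * (t * I) / 2 := by
      have := mul_le_mul_of_nonneg_left hb2 ht
      linarith
    have htt : t * (t * I) ≤ t * I := by
      have := mul_le_mul_of_nonneg_right ht1 htI
      linarith
    -- t |X| / 2 ≤ q + t I / 16
    have hXq : t * |X| / 2 ≤ q + t * I / 16 := by
      have hsq : |X| ^ 2 = q * I := by rw [sq_abs, hqI]
      have : (t * |X| / 2) * I ≤ (q + t * I / 16) * I := by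
        have h0 : 0 ≤ (|X| - t * I / 4) ^ 2 := sq_nonneg _
        have h1' : t * (t * I) * I ≤ t * I * I := mul_le_mul_of_nonneg_right htt hI.le
        have e1' : (|X| - t * I / 4) ^ 2 = |X| ^ 2 - t * |X| * I / 2 + t * (t * I) * I / 16 := by
          ring
        rw [e1', hsq] at h0
        have e2' : (t * |X| / 2) * I = t * |X| * I / 2 := by ring
        have e3' : (q + t * I / 16) * I = q * I + t * I * I / 16 := by ring
        rw [e2', e3']
        linarith
      exact le_of_mul_le_mul_right this hI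
    have hneg : 0 ≤ 2 * (1 - α) * b := by
      have : 0 ≤ (α - 1) * (-b) := mul_nonneg (by linarith) (by linarith)
      have e4 : 2 * (1 - α) * b = 2 * ((α - 1) * (-b)) := by ring
      rw [e4]; linarith
    linarith [e1l, a2, a3, htE, hXq, htb, htt, htI, hat, hneg]

/-- One point inequality for `y = E`. -/
lemma y_ineq {E b R I e1 e2 t α : ℝ} (hI : 0 < I) (ht1 : t ≤ 1) (hα : 1 ≤ α)
    (hcs : (2 * E - 2 * b + e2) ^ 2 ≤ I * R)
    (h1 : |e1| ≤ t * (|E| + |b|)) (h2 : |e2| ≤ t * I) :
    - (4 * α * max b 0) + 2 * α * (E - α * I / 2) - 4 * t * (α * I / 2) - t * |E| ≤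
      (2 * b + R + e1) - 2 * α * E := by
  set P : ℝ := 2 * E - 2 * b + e2 with hP
  set D : ℝ := α * I / 2 with hD
  have hα0 : 0 < α := by linarith
  have hD0 : 0 < D := by rw [hD]; positivity
  have hR : 2 * α * (P - D) ≤ R := by
    have h0 : 0 ≤ (P - 2 * D) ^ 2 := sq_nonneg _
    have : (2 * α * (P - D)) * I ≤ R * I := by
      have e : (2 * α * (P - D)) * I = 4 * D * (P - D) := by rw [hD]; ring
      rw [e]; nlinarith [hcs, h0]
    exact le_of_mul_le_mul_right this hI
  have e1l : -(t * (|E| + |b|)) ≤ e1 := by linarith [neg_abs_le e1]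
  have e2l : -(t * I) ≤ e2 := by linarith [neg_abs_le e2]
  have a2 : -(2 * α * (t * I)) ≤ 2 * α * e2 := by nlinarith
  have hPe : 2 * α * (P - D) = 4 * α * E - 4 * α * b + 2 * α * e2 - 2 * α * D := by rw [hP]; ring
  have hdi : 4 * t * D = 2 * α * (t * I) := by rw [hD]; ring
  rcases le_or_gt 0 b with hb | hb
  · have hm : max b 0 = b := max_eq_left hb
    have hab : |b| = b := abs_of_nonneg hb
    rw [hm]; rw [hab] at e1l
    have htb : t * b ≤ b := by nlinarith
    linarith [hR, hPe, e1l, a2, hdi, htb]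
  · have hm : max b 0 = 0 := max_eq_right hb.le
    have hab : |b| = -b := abs_of_neg hb
    rw [hm]; rw [hab] at e1l
    have htb : t * (-b) ≤ -b := by nlinarith
    have hαb : 0 ≤ (4 * α - 3) * (-b) := by
      apply mul_nonneg <;> linarith
    linarith [hR, hPe, e1l, a2, hdi, htb, hαb]


/-- Comparison: `f' ≥ -G - 2 t |f|`, `f a ≥ 0` gives `f ≥ - e^{2T} G (l - a)`. -/
lemma low {f f' T t : ℝ → ℝ} {a b G : ℝ} (hG : 0 ≤ G)
    (hf : ∀ l ∈ Icc a b, HasDerivAt f (f' l) l)
    (hT : ∀ l ∈ Icc a b, HasDerivAt T (t l) l) (ht : ∀ l ∈ Icc a b, 0 ≤ t l) (Ta : T a = 0)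
    (h : ∀ l ∈ Icc a b, -G - 2 * t l * |f l| ≤ f' l) (fa : 0 ≤ f a) :
    ∀ l ∈ Icc a b, -(Real.exp (2 * T l) * (G * (l - a))) ≤ f l := by
  intro l hl
  have hal : a ≤ l := hl.1
  have Tmono : MonotoneOn T (Icc a b) := by
    apply monotoneOn_of_deriv_nonneg (convex_Icc a b)
    · exact fun x hx => (hT x hx).continuousAt.continuousWithinAt
    · intro x hx
      rw [interior_Icc] at hx
      exact (hT x ⟨hx.1.le, hx.2.le⟩).differentiableAt.differentiableWithinAt
    · intro x hx
      rw [interior_Icc] at hx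
      rw [(hT x ⟨hx.1.le, hx.2.le⟩).deriv]
      exact ht x ⟨hx.1.le, hx.2.le⟩
  have Tnn : ∀ x ∈ Icc a b, 0 ≤ T x := by
    intro x hx
    have := Tmono (left_mem_Icc.2 (hx.1.trans hx.2)) hx hx.1
    rwa [Ta] at this
  by_contra hcon
  push Not at hcon
  have hneg : f l < 0 := by
    have : 0 ≤ Real.exp (2 * T l) * (G * (l - a)) := by
      have : 0 ≤ l - a := by linarith
      positivity
    linarith
  set S : Set ℝ := {x | x ∈ Icc a l ∧ 0 ≤ f x} with hS
  have hfc : ContinuousOn f (Icc a l) := fun x hx =>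
    (hf x ⟨hx.1, hx.2.trans hl.2⟩).continuousAt.continuousWithinAt
  have hScl : IsClosed S := by
    have : S = Icc a l ∩ f ⁻¹' (Ici 0) := by ext x; simp [hS]
    rw [this]
    exact hfc.preimage_isClosed_of_isClosed isClosed_Icc isClosed_Ici
  have hSne : S.Nonempty := ⟨a, ⟨le_rfl, hal⟩, fa⟩
  have hSb : BddAbove S := ⟨l, fun x hx => hx.1.2⟩
  set c := sSup S with hc
  have hcS : c ∈ S := hScl.csSup_mem hSne hSb
  have hac : a ≤ c := hcS.1.1
  have hcl : c ≤ l := hcS.1.2
  have hbelow : ∀ x ∈ Ioo c l, f x < 0 := by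
    intro x hx
    by_contra hx'
    push Not at hx'
    have : x ∈ S := ⟨⟨hac.trans hx.1.le, hx.2.le⟩, hx'⟩
    exact absurd (le_csSup hSb this) (not_le.2 hx.1)
  have hsub : ∀ x ∈ Icc c l, x ∈ Icc a b := fun x hx => ⟨hac.trans hx.1, hx.2.trans hl.2⟩
  have hmono : MonotoneOn (fun x => f x * Real.exp (-(2 * T x)) + G * (x - a)) (Icc c l) := by
    have hd : ∀ x ∈ Icc c l, HasDerivAt (fun x => f x * Real.exp (-(2 * T x)) + G * (x - a))
        (f' x * Real.exp (-(2 * T x)) + f x * (Real.exp (-(2 * T x)) * (-(2 * t x))) + G * 1)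
        x := by
      intro x hx
      have h1 := hf x (hsub x hx)
      have h2 : HasDerivAt (fun x => Real.exp (-(2 * T x)))
          (Real.exp (-(2 * T x)) * (-(2 * t x))) x :=
        (((hT x (hsub x hx)).const_mul 2).neg).exp
      have h3 : HasDerivAt (fun x => G * (x - a)) (G * 1) x :=
        ((hasDerivAt_id x).sub_const a).const_mul G
      exact (h1.mul h2).add h3
    apply monotoneOn_of_deriv_nonneg (convex_Icc c l)
    · exact fun x hx => (hd x hx).continuousAt.continuousWithinAt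
    · intro x hx
      rw [interior_Icc] at hx
      exact (hd x ⟨hx.1.le, hx.2.le⟩).differentiableAt.differentiableWithinAt
    · intro x hx
      rw [interior_Icc] at hx
      have hx' : x ∈ Icc c l := ⟨hx.1.le, hx.2.le⟩
      rw [(hd x hx').deriv]
      have hfx := hbelow x hx
      have h1 := h x (hsub x hx')
      rw [abs_of_neg hfx] at h1
      have h2 : -G ≤ f' x - 2 * t x * f x := by linarith
      have h3 : Real.exp (-(2 * T x)) ≤ 1 := by
        apply Real.exp_le_one_iff.2
        have := Tnn x (hsub x hx')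
        linarith
      have h4 : 0 < Real.exp (-(2 * T x)) := Real.exp_pos _
      have h5 : -G * Real.exp (-(2 * T x)) ≤ (f' x - 2 * t x * f x) * Real.exp (-(2 * T x)) :=
        mul_le_mul_of_nonneg_right h2 h4.le
      have h6 : G * Real.exp (-(2 * T x)) ≤ G * 1 := mul_le_mul_of_nonneg_left h3 hG
      have e1 : f' x * Real.exp (-(2 * T x)) + f x * (Real.exp (-(2 * T x)) * (-(2 * t x))) +
          G * 1 = (f' x - 2 * t x * f x) * Real.exp (-(2 * T x)) + G * 1 := by ring
      rw [e1]
      linarith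
  have hend := hmono (left_mem_Icc.2 hcl) (right_mem_Icc.2 hcl) hcl
  have hc0 : 0 ≤ f c * Real.exp (-(2 * T c)) + G * (c - a) := by
    have h1 : 0 ≤ f c := hcS.2
    have h2 : 0 ≤ c - a := by linarith
    positivity
  have hfin : 0 ≤ f l * Real.exp (-(2 * T l)) + G * (l - a) := le_trans hc0 hend
  have hmul := mul_nonneg (Real.exp_pos (2 * T l)).le hfin
  have e2 : Real.exp (2 * T l) * (f l * Real.exp (-(2 * T l)) + G * (l - a)) =
      f l + Real.exp (2 * T l) * (G * (l - a)) := by
    have : Real.exp (2 * T l) * Real.exp (-(2 * T l)) = 1 := by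
      rw [← Real.exp_add]; simp
    calc _ = f l * (Real.exp (2 * T l) * Real.exp (-(2 * T l))) +
          Real.exp (2 * T l) * (G * (l - a)) := by ring
      _ = _ := by rw [this]; ring
  rw [e2] at hmul
  linarith

end Crest.Agent.R234.Rv_518
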