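import Mathlib
import Crest.Agent.R234.Rv1_518

/-!
Row 234, (F5) of the F-list (post #6174): the frequency lemma `rv` for arbitrarily large frequency.
-/

set_option autoImplicit false

open Set MeasureTheory

namespace Crest.Agent.R234.Rv_518

/-- Data of the frequency identities at one centre, on `[l0, l1 + ρ]`. -/
structure FD (l0 l1 ρ η : ℝ) (E b R I e1 e2 e3 t : ℝ → ℝ) : Prop where
  h01 : l0 ≤ l1
  hρ : 0 ≤ ρ
  hη : 0 ≤ η
  tc : Continuous t
  t0 : ∀ l, 0 ≤ t l
  t1 : ∀ l ∈ Icc l0 l1, t l ≤ 1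
  hE : ∀ l ∈ Icc l0 l1, HasDerivAt E (2 * b l + R l + e1 l) l
  hI : ∀ l ∈ Icc l0 l1, HasDerivAt I (2 * (2 * E l - 2 * b l) + e3 l) l
  Ipos : ∀ l ∈ Icc l0 l1, 0 < I l
  hcs : ∀ l ∈ Icc l0 l1, (2 * E l - 2 * b l + e2 l) ^ 2 ≤ I l * R l
  h1 : ∀ l ∈ Icc l0 l1, |e1 l| ≤ t l * (|E l| + |b l|)
  h2 : ∀ l ∈ Icc l0 l1, |e2 l| ≤ t l * I l
  h3 : ∀ l ∈ Icc l0 l1, |e3 l| ≤ t l * I l
  hb : ∀ l ∈ Icc l0 l1, ∀ S, 0 ≤ S → (∀ l' ∈ Icc l (l + ρ), E l' ≤ S) → b l ≤ η * S
  htop : ∀ l' ∈ Icc l1 (l1 + ρ), E l' ≤ 4 * E l1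

theorem rv {l0 l1 ρ η : ℝ} {E b R I e1 e2 e3 t : ℝ → ℝ} (D : FD l0 l1 ρ η E b R I e1 e2 e3 t)
    {α0 θ T : ℝ} (hα0 : α0 = 2 * E l0 / I l0) (hT : T = ∫ x in l0..l1, t x)
    (hbig : 1 ≤ α0 * Real.exp (-(8 * T))) (hαρ : 2 * α0 * ρ ≤ 1)
    (hθ : θ = Real.exp (2 * T) * (2 * α0 * (η * Real.exp 1) * (l1 - l0))) (hθ1 : θ ≤ 1)
    (hsmall : (4 * α0 * (η * Real.exp 1) + 2 * α0 * θ) * (l1 - l0) + (5 + 4 * θ) * T ≤ 1 / 2) :
    α0 * Real.exp (-(8 * T)) ≤ (1 + 4 * θ) * (2 * E l1 / I l1) ∧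
      E l0 * Real.exp (2 * (α0 * Real.exp (-(8 * T))) * (l1 - l0)) ≤ 4 * E l1 ∧ 0 < E l1 := by
  have h01 := D.h01
  have hL : 0 ≤ l1 - l0 := by linarith
  have m0 : l0 ∈ Icc l0 l1 := ⟨le_rfl, h01⟩
  have m1 : l1 ∈ Icc l0 l1 := ⟨h01, le_rfl⟩
  have hT0 : 0 ≤ T := by
    rw [hT]; exact intervalIntegral.integral_nonneg h01 (fun x _ => D.t0 x)
  have hα1 : 1 ≤ α0 := by
    have h1 : Real.exp (-(8 * T)) ≤ 1 := Real.exp_le_one_iff.2 (by linarith)
    have h2 : 0 < Real.exp (-(8 * T)) := Real.exp_pos _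
    by_contra hc
    push Not at hc
    have : α0 * Real.exp (-(8 * T)) < 1 := by
      rcases le_or_gt α0 0 with h | h
      · have : α0 * Real.exp (-(8 * T)) ≤ 0 := mul_nonpos_of_nonpos_of_nonneg h h2.le
        linarith
      · nlinarith
    linarith
  have hα00 : 0 < α0 := by linarith
  have hE0 : 0 < E l0 := by
    have hI0 := D.Ipos l0 m0
    have : 2 * E l0 = α0 * I l0 := by rw [hα0]; field_simp
    nlinarith
  have hηe : 0 ≤ η * Real.exp 1 := mul_nonneg D.hη (Real.exp_pos _).le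
  have hθ0 : 0 ≤ θ := by
    rw [hθ]; positivity
  -- the functions
  set Tf : ℝ → ℝ := fun l => ∫ x in l0..l, t x with hTf
  have Tder : ∀ l, HasDerivAt Tf (t l) l := fun l =>
    intervalIntegral.integral_hasDerivAt_right (D.tc.intervalIntegrable _ _)
      D.tc.aestronglyMeasurable.stronglyMeasurableAtFilter D.tc.continuousAt
  have Tf0 : Tf l0 = 0 := by simp [hTf]
  have Tf1 : Tf l1 = T := by rw [hT]
  have TfM : Monotone Tf := by
    apply monotone_of_deriv_nonneg
    · exact fun l => (Tder l).differentiableAt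
    · intro l; rw [(Tder l).deriv]; exact D.t0 l
  have Tfc : Continuous Tf := continuous_iff_continuousAt.2 fun l => (Tder l).continuousAt
  have Tfnn : ∀ l ∈ Icc l0 l1, 0 ≤ Tf l := fun l hl => by
    have := TfM hl.1; rwa [Tf0] at this
  have TfT : ∀ l ∈ Icc l0 l1, Tf l ≤ T := fun l hl => by
    have := TfM hl.2; rwa [Tf1] at this
  set α : ℝ → ℝ := fun l => α0 * Real.exp (-(8 * Tf l)) with hα
  have αder : ∀ l, HasDerivAt α (-(8 * t l * α l)) l := by
    intro l
    have h1 : HasDerivAt (fun l => Real.exp (-(8 * Tf l)))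
        (Real.exp (-(8 * Tf l)) * (-(8 * t l))) l := (((Tder l).const_mul 8).neg).exp
    have h2 := h1.const_mul α0
    refine HasDerivAt.congr_deriv h2 ?_
    show α0 * (Real.exp (-(8 * Tf l)) * -(8 * t l)) = -(8 * t l * (α0 * Real.exp (-(8 * Tf l))))
    ring
  have αc : Continuous α := continuous_iff_continuousAt.2 fun l => (αder l).continuousAt
  have αpos : ∀ l, 0 < α l := fun l => mul_pos hα00 (Real.exp_pos _)
  have αge : ∀ l ∈ Icc l0 l1, α0 * Real.exp (-(8 * T)) ≤ α l := by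
    intro l hl
    apply mul_le_mul_of_nonneg_left _ hα00.le
    apply Real.exp_le_exp.2
    have := TfT l hl
    linarith
  have α1 : ∀ l ∈ Icc l0 l1, 1 ≤ α l := fun l hl => hbig.trans (αge l hl)
  have αle : ∀ l ∈ Icc l0 l1, α l ≤ α0 := by
    intro l hl
    have : Real.exp (-(8 * Tf l)) ≤ 1 := Real.exp_le_one_iff.2 (by have := Tfnn l hl; linarith)
    calc α l = α0 * Real.exp (-(8 * Tf l)) := rfl
      _ ≤ α0 * 1 := mul_le_mul_of_nonneg_left this hα00.le
      _ = α0 := mul_one _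
  set A : ℝ → ℝ := fun l => ∫ x in l0..l, α x with hA
  have Ader : ∀ l, HasDerivAt A (α l) l := fun l =>
    intervalIntegral.integral_hasDerivAt_right (αc.intervalIntegrable _ _)
      αc.aestronglyMeasurable.stronglyMeasurableAtFilter αc.continuousAt
  have A0 : A l0 = 0 := by simp [hA]
  set ω : ℝ → ℝ := fun l => Real.exp (-(2 * A l)) with hω
  have ωpos : ∀ l, 0 < ω l := fun l => Real.exp_pos _
  have ωder : ∀ l, HasDerivAt ω (-(2 * α l * ω l)) l := by
    intro l
    have h1 : HasDerivAt ω (Real.exp (-(2 * A l)) * (-(2 * α l))) l :=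
      (((Ader l).const_mul 2).neg).exp
    refine HasDerivAt.congr_deriv h1 ?_
    show Real.exp (-(2 * A l)) * -(2 * α l) = -(2 * α l * Real.exp (-(2 * A l)))
    ring
  have ω0 : ω l0 = 1 := by simp [hω, A0]
  -- comparison of ω at nearby points
  have Alip : ∀ l ∈ Icc l0 l1, ∀ l' ∈ Icc l0 l1, l ≤ l' → A l' - A l ≤ α0 * (l' - l) := by
    intro l hl l' hl' hll'
    have hd : ∀ x ∈ Icc l l', HasDerivAt (fun x => α0 * x - A x) (α0 * 1 - α x) x := fun x _ =>
      ((hasDerivAt_id x).const_mul α0).sub (Ader x)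
    have hm : MonotoneOn (fun x => α0 * x - A x) (Icc l l') := by
      apply monotoneOn_of_deriv_nonneg (convex_Icc l l')
      · exact fun x hx => (hd x hx).continuousAt.continuousWithinAt
      · intro x hx
        rw [interior_Icc] at hx
        exact (hd x ⟨hx.1.le, hx.2.le⟩).differentiableAt.differentiableWithinAt
      · intro x hx
        rw [interior_Icc] at hx
        rw [(hd x ⟨hx.1.le, hx.2.le⟩).deriv]
        have := αle x ⟨hl.1.trans hx.1.le, hx.2.le.trans hl'.2⟩
        linarith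
    have := hm (left_mem_Icc.2 hll') (right_mem_Icc.2 hll') hll'
    simp only at this
    linarith
  have Age : ∀ l ∈ Icc l0 l1, α0 * Real.exp (-(8 * T)) * (l - l0) ≤ A l := by
    intro l hl
    have hd : ∀ x ∈ Icc l0 l, HasDerivAt (fun x => A x - α0 * Real.exp (-(8 * T)) * (x - l0))
        (α x - α0 * Real.exp (-(8 * T)) * 1) x := fun x _ =>
      (Ader x).sub (((hasDerivAt_id x).sub_const l0).const_mul _)
    have hm : MonotoneOn (fun x => A x - α0 * Real.exp (-(8 * T)) * (x - l0)) (Icc l0 l) := by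
      apply monotoneOn_of_deriv_nonneg (convex_Icc l0 l)
      · exact fun x hx => (hd x hx).continuousAt.continuousWithinAt
      · intro x hx
        rw [interior_Icc] at hx
        exact (hd x ⟨hx.1.le, hx.2.le⟩).differentiableAt.differentiableWithinAt
      · intro x hx
        rw [interior_Icc] at hx
        rw [(hd x ⟨hx.1.le, hx.2.le⟩).deriv]
        have := αge x ⟨hx.1.le, hx.2.le.trans hl.2⟩
        linarith
    have := hm (left_mem_Icc.2 hl.1) (right_mem_Icc.2 hl.1) hl.1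
    simp only [A0, sub_self, mul_zero] at this
    linarith
  set y : ℝ → ℝ := fun l => ω l * E l with hy
  have yder : ∀ l ∈ Icc l0 l1,
      HasDerivAt y (ω l * ((2 * b l + R l + e1 l) - 2 * α l * E l)) l := by
    intro l hl
    have h1 : HasDerivAt y (-(2 * α l * ω l) * E l + ω l * (2 * b l + R l + e1 l)) l :=
      (ωder l).mul (D.hE l hl)
    exact h1.congr_deriv (by ring)
  have ycont : ContinuousOn y (Icc l0 l1) := fun l hl =>
    (yder l hl).continuousAt.continuousWithinAt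
  obtain ⟨ls, hls, hmax⟩ := isCompact_Icc.exists_isMaxOn ⟨l0, m0⟩ ycont
  have hmax' : ∀ l ∈ Icc l0 l1, y l ≤ y ls := fun l hl => hmax hl
  set Y : ℝ := max (y ls) (4 * y l1) with hY
  have y0 : y l0 = E l0 := by simp [hy, ω0]
  have hYs : y ls ≤ Y := le_max_left _ _
  have hY0 : 0 < Y := by
    have := hmax' l0 m0
    rw [y0] at this
    linarith
  have yY : ∀ l ∈ Icc l0 l1, y l ≤ Y := fun l hl => (hmax' l hl).trans hYs
  have hrepr : ∀ l, E l = y l / ω l := fun l => by
    simp only [hy]; field_simp [(ωpos l).ne']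
  -- bound of b
  have bY : ∀ l ∈ Icc l0 l1, ω l * max (b l) 0 ≤ η * Real.exp 1 * Y := by
    intro l hl
    have hwl := ωpos l
    have hS : b l ≤ η * (Y * Real.exp 1 / ω l) := by
      apply D.hb l hl
      · positivity
      · intro l' hl'
        rcases le_or_gt l' l1 with h | h
        · have ml' : l' ∈ Icc l0 l1 := ⟨hl.1.trans hl'.1, h⟩
          rw [hrepr l', div_le_div_iff₀ (ωpos l') hwl]
          have h1 : ω l ≤ Real.exp 1 * ω l' := by
            have := Alip l hl l' ml' hl'.1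
            simp only [hω]
            rw [← Real.exp_add]
            apply Real.exp_le_exp.2
            have h3 : α0 * (l' - l) ≤ α0 * ρ :=
              mul_le_mul_of_nonneg_left (by linarith [hl'.2]) hα00.le
            linarith
          have h2 := yY l' ml'
          calc y l' * ω l ≤ Y * ω l := mul_le_mul_of_nonneg_right h2 hwl.le
            _ ≤ Y * (Real.exp 1 * ω l') := mul_le_mul_of_nonneg_left h1 hY0.le
            _ = Y * Real.exp 1 * ω l' := by ring
        · have h4 := D.htop l' ⟨h.le, by linarith [hl'.2, hl.2]⟩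
          refine h4.trans ?_
          have h5 : 4 * E l1 = 4 * y l1 / ω l1 := by rw [hrepr l1]; ring
          rw [h5, div_le_div_iff₀ (ωpos l1) hwl]
          have h1 : ω l ≤ Real.exp 1 * ω l1 := by
            have := Alip l hl l1 m1 hl.2
            simp only [hω]
            rw [← Real.exp_add]
            apply Real.exp_le_exp.2
            have h3 : α0 * (l1 - l) ≤ α0 * ρ :=
              mul_le_mul_of_nonneg_left (by linarith [hl'.2]) hα00.le
            linarith
          have h2 : 4 * y l1 ≤ Y := le_max_right _ _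
          calc 4 * y l1 * ω l ≤ Y * ω l := mul_le_mul_of_nonneg_right h2 hwl.le
            _ ≤ Y * (Real.exp 1 * ω l1) := mul_le_mul_of_nonneg_left h1 hY0.le
            _ = Y * Real.exp 1 * ω l1 := by ring
    have h6 : max (b l) 0 ≤ η * (Y * Real.exp 1 / ω l) := by
      apply max_le hS
      have : 0 ≤ Y * Real.exp 1 / ω l := by positivity
      exact mul_nonneg D.hη this
    calc ω l * max (b l) 0 ≤ ω l * (η * (Y * Real.exp 1 / ω l)) :=
          mul_le_mul_of_nonneg_left h6 hwl.le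
      _ = η * Real.exp 1 * Y := by field_simp
  -- W
  set W : ℝ → ℝ := fun l => ω l * (E l - α l * I l / 2) with hW
  have Wder : ∀ l ∈ Icc l0 l1, HasDerivAt W (ω l * ((2 * b l + R l + e1 l) - 2 * α l * E l
      - (α l / 2) * (2 * (2 * E l - 2 * b l) + e3 l) + α l ^ 2 * I l + 4 * t l * α l * I l)) l := by
    intro l hl
    have h1 : HasDerivAt (fun l => α l * I l / 2)
        ((-(8 * t l * α l) * I l + α l * (2 * (2 * E l - 2 * b l) + e3 l)) / 2) l :=
      ((αder l).mul (D.hI l hl)).div_const 2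
    have h2 : HasDerivAt W (-(2 * α l * ω l) * (E l - α l * I l / 2) +
        ω l * ((2 * b l + R l + e1 l) -
          (-(8 * t l * α l) * I l + α l * (2 * (2 * E l - 2 * b l) + e3 l)) / 2)) l :=
      (ωder l).mul ((D.hE l hl).sub h1)
    exact h2.congr_deriv (by ring)
  have W0 : W l0 = 0 := by
    have hI0 := D.Ipos l0 m0
    have ha : α l0 = α0 := by simp [hα, Tf0]
    have : 2 * E l0 = α0 * I l0 := by rw [hα0]; field_simp
    simp only [hW, ω0, ha]; linarith
  have Wlow : ∀ l ∈ Icc l0 l1, -(θ * Y) ≤ W l := by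
    have hG : 0 ≤ 2 * α0 * (η * Real.exp 1 * Y) := by
      have : 0 ≤ η * Real.exp 1 * Y := mul_nonneg hηe hY0.le
      positivity
    have key := low (f := W) (T := Tf) (t := t) (a := l0) (b := l1)
      (G := 2 * α0 * (η * Real.exp 1 * Y)) hG Wder (fun l _ => Tder l) (fun l _ => D.t0 l) Tf0
      (by
        intro l hl
        have hp := w_ineq (E := E l) (b := b l) (R := R l) (I := I l) (e1 := e1 l) (e2 := e2 l)
          (e3 := e3 l) (t := t l) (α := α l) (D.Ipos l hl) (D.t0 l) (D.t1 l hl) (α1 l hl)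
          (D.hcs l hl) (D.h1 l hl) (D.h2 l hl) (D.h3 l hl)
        have hm := mul_le_mul_of_nonneg_left hp (ωpos l).le
        refine le_trans ?_ hm
        have habs : |W l| = ω l * |E l - α l * I l / 2| := by
          simp only [hW]; rw [abs_mul, abs_of_pos (ωpos l)]
        rw [habs]
        have h7 : α l * (ω l * max (b l) 0) ≤ α0 * (η * Real.exp 1 * Y) := by
          apply mul_le_mul (αle l hl) (bY l hl)
          · exact mul_nonneg (ωpos l).le (le_max_right _ _)
          · exact hα00.le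
        have e5 : ω l * (-(2 * α l * max (b l) 0) - 2 * t l * |E l - α l * I l / 2|) =
            -(2 * (α l * (ω l * max (b l) 0))) - 2 * t l * (ω l * |E l - α l * I l / 2|) := by
          ring
        rw [e5]
        linarith)
      (by rw [W0])
    intro l hl
    refine le_trans ?_ (key l hl)
    have h8 : Real.exp (2 * Tf l) ≤ Real.exp (2 * T) :=
      Real.exp_le_exp.2 (by have := TfT l hl; linarith)
    have h9 : 2 * α0 * (η * Real.exp 1 * Y) * (l - l0) ≤
        2 * α0 * (η * Real.exp 1 * Y) * (l1 - l0) :=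
      mul_le_mul_of_nonneg_left (by linarith [hl.2]) hG
    have h10 : 0 ≤ 2 * α0 * (η * Real.exp 1 * Y) * (l - l0) :=
      mul_nonneg hG (by linarith [hl.1])
    have h11 : Real.exp (2 * Tf l) * (2 * α0 * (η * Real.exp 1 * Y) * (l - l0)) ≤
        Real.exp (2 * T) * (2 * α0 * (η * Real.exp 1 * Y) * (l1 - l0)) :=
      mul_le_mul h8 h9 h10 (Real.exp_pos _).le
    have h12 : θ * Y = Real.exp (2 * T) * (2 * α0 * (η * Real.exp 1 * Y) * (l1 - l0)) := by
      rw [hθ]; ring
    rw [h12]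
    linarith
  have Wrel : ∀ l, y l - W l = ω l * (α l * I l / 2) := by
    intro l; simp only [hy, hW]; ring
  have ylow : ∀ l ∈ Icc l0 l1, -Y ≤ y l := by
    intro l hl
    have h1 := Wlow l hl
    have h2 : 0 ≤ ω l * (α l * I l / 2) := by
      have := D.Ipos l hl
      have := αpos l
      have := ωpos l
      positivity
    have h3 := Wrel l
    have h4 : θ * Y ≤ 1 * Y := mul_le_mul_of_nonneg_right hθ1 hY0.le
    linarith
  -- drop of y
  set c1 : ℝ := (4 * α0 * (η * Real.exp 1) + 2 * α0 * θ) * Y with hc1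
  set c2 : ℝ := (5 + 4 * θ) * Y with hc2
  have Φmono : MonotoneOn (fun l => y l + c1 * (l - l0) + c2 * Tf l) (Icc l0 l1) := by
    have hd : ∀ l ∈ Icc l0 l1, HasDerivAt (fun l => y l + c1 * (l - l0) + c2 * Tf l)
        (ω l * ((2 * b l + R l + e1 l) - 2 * α l * E l) + c1 * 1 + c2 * t l) l := fun l hl =>
      ((yder l hl).add (((hasDerivAt_id l).sub_const l0).const_mul c1)).add
        ((Tder l).const_mul c2)
    apply monotoneOn_of_deriv_nonneg (convex_Icc l0 l1)
    · exact fun x hx => (hd x hx).continuousAt.continuousWithinAt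
    · intro x hx
      rw [interior_Icc] at hx
      exact (hd x ⟨hx.1.le, hx.2.le⟩).differentiableAt.differentiableWithinAt
    · intro l hx
      rw [interior_Icc] at hx
      have hl : l ∈ Icc l0 l1 := ⟨hx.1.le, hx.2.le⟩
      rw [(hd l hl).deriv]
      have hp := y_ineq (E := E l) (b := b l) (R := R l) (I := I l) (e1 := e1 l) (e2 := e2 l)
        (t := t l) (α := α l) (D.Ipos l hl) (D.t1 l hl) (α1 l hl) (D.hcs l hl) (D.h1 l hl)
        (D.h2 l hl)
      have hm := mul_le_mul_of_nonneg_left hp (ωpos l).le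
      have e5 : ω l * (-(4 * α l * max (b l) 0) + 2 * α l * (E l - α l * I l / 2) -
          4 * t l * (α l * I l / 2) - t l * |E l|) =
          -(4 * (α l * (ω l * max (b l) 0))) + 2 * (α l * W l) - 4 * (t l * (y l - W l)) -
            t l * |y l| := by
        rw [Wrel l]
        have : |y l| = ω l * |E l| := by simp only [hy]; rw [abs_mul, abs_of_pos (ωpos l)]
        rw [this]; simp only [hW]; ring
      rw [e5] at hm
      have h7 : α l * (ω l * max (b l) 0) ≤ α0 * (η * Real.exp 1 * Y) := by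
        apply mul_le_mul (αle l hl) (bY l hl)
        · exact mul_nonneg (ωpos l).le (le_max_right _ _)
        · exact hα00.le
      have hWl := Wlow l hl
      have hθY : 0 ≤ θ * Y := mul_nonneg hθ0 hY0.le
      have h8 : -(α0 * (θ * Y)) ≤ α l * W l := by
        have h9 : α l * (-(θ * Y)) ≤ α l * W l := mul_le_mul_of_nonneg_left hWl (αpos l).le
        have h10 : α l * (θ * Y) ≤ α0 * (θ * Y) := mul_le_mul_of_nonneg_right (αle l hl) hθY
        linarith
      have h11 : t l * (y l - W l) ≤ t l * (Y + θ * Y) :=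
        mul_le_mul_of_nonneg_left (by linarith [yY l hl]) (D.t0 l)
      have h12 : t l * |y l| ≤ t l * Y :=
        mul_le_mul_of_nonneg_left (abs_le.2 ⟨ylow l hl, yY l hl⟩) (D.t0 l)
      have e6 : c1 * 1 = 4 * (α0 * (η * Real.exp 1 * Y)) + 2 * (α0 * (θ * Y)) := by
        rw [hc1]; ring
      have e7 : c2 * t l = 4 * (t l * (Y + θ * Y)) + t l * Y := by rw [hc2]; ring
      rw [e6, e7]
      linarith
  have hdrop : y ls ≤ y l1 + Y / 2 := by
    have h1 := Φmono hls m1 hls.2
    simp only [Tf1] at h1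
    have hc10 : 0 ≤ c1 := by rw [hc1]; positivity
    have hc20 : 0 ≤ c2 := by rw [hc2]; positivity
    have h2 : 0 ≤ c1 * (ls - l0) := mul_nonneg hc10 (by linarith [hls.1])
    have h3 : 0 ≤ c2 * Tf ls := mul_nonneg hc20 (Tfnn ls hls)
    have h4 : c1 * (l1 - l0) + c2 * T ≤ 1 / 2 * Y := by
      have h5 := mul_le_mul_of_nonneg_right hsmall hY0.le
      have e8 : c1 * (l1 - l0) + c2 * T =
          ((4 * α0 * (η * Real.exp 1) + 2 * α0 * θ) * (l1 - l0) + (5 + 4 * θ) * T) * Y := by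
        rw [hc1, hc2]; ring
      rw [e8]; exact h5
    linarith
  have hYy : Y ≤ 4 * y l1 := by
    rcases le_total (y ls) (4 * y l1) with h | h
    · rw [hY, max_eq_right h]
    · have hYe : Y = y ls := by rw [hY, max_eq_left h]
      rw [← hYe] at hdrop
      linarith
  have hy1 : 0 < y l1 := by linarith
  have hE1 : 0 < E l1 := by
    rw [hrepr l1]; exact div_pos hy1 (ωpos l1)
  refine ⟨?_, ?_, hE1⟩
  · have h1 := Wlow l1 m1
    have h2 := Wrel l1
    have hI1 := D.Ipos l1 m1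
    have h3 : ω l1 * (α l1 * I l1 / 2) ≤ (1 + 4 * θ) * y l1 := by
      have : θ * Y ≤ θ * (4 * y l1) := mul_le_mul_of_nonneg_left hYy hθ0
      linarith
    have h4 : α l1 * I l1 / 2 ≤ (1 + 4 * θ) * E l1 := by
      have h5 : ω l1 * (α l1 * I l1 / 2) ≤ ω l1 * ((1 + 4 * θ) * E l1) := by
        refine h3.trans (le_of_eq ?_)
        simp only [hy]; ring
      exact le_of_mul_le_mul_left h5 (ωpos l1)
    have h6 : α l1 ≤ (1 + 4 * θ) * (2 * E l1 / I l1) := by
      have h7 : α l1 * I l1 ≤ (1 + 4 * θ) * (2 * E l1) := by linarith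
      rw [← mul_div_assoc, le_div_iff₀ hI1]
      exact h7
    exact (αge l1 m1).trans h6
  · have h1 : E l0 ≤ Y := by rw [← y0]; exact yY l0 m0
    have h2 : E l0 ≤ 4 * (ω l1 * E l1) := h1.trans hYy
    have h3 := Age l1 m1
    have h4 : Real.exp (2 * (α0 * Real.exp (-(8 * T))) * (l1 - l0)) * ω l1 ≤ 1 := by
      simp only [hω]
      rw [← Real.exp_add]
      apply Real.exp_le_one_iff.2
      nlinarith
    calc E l0 * Real.exp (2 * (α0 * Real.exp (-(8 * T))) * (l1 - l0))
        ≤ 4 * (ω l1 * E l1) * Real.exp (2 * (α0 * Real.exp (-(8 * T))) * (l1 - l0)) :=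
          mul_le_mul_of_nonneg_right h2 (Real.exp_pos _).le
      _ = 4 * E l1 * (Real.exp (2 * (α0 * Real.exp (-(8 * T))) * (l1 - l0)) * ω l1) := by ring
      _ ≤ 4 * E l1 * 1 := mul_le_mul_of_nonneg_left h4 (by positivity)
      _ = 4 * E l1 := by ring

end Crest.Agent.R234.Rv_518

namespace Crest.Agent.R234.Rv_518

/-- Existence of a non-jump point: if `E ≤ H` on `[a, a + K ρ]` and `H ≤ 4^K E a`, `0 < E a`,
some `l ∈ [a, a + K ρ]` has `E ≤ 4 E l` on `[l, l + ρ]`, and `E a ≤ E l`. -/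
theorem exists_nonjump {E : ℝ → ℝ} {a ρ H : ℝ} {K : ℕ} (hρ : 0 ≤ ρ) (ha : 0 < E a)
    (hH : ∀ l ∈ Icc a (a + K * ρ), E l ≤ H) (hK : H ≤ 4 ^ K * E a) (hK0 : 0 < K) :
    ∃ l ∈ Icc a (a + (K - 1 : ℕ) * ρ), E a ≤ E l ∧ ∀ l' ∈ Icc l (l + ρ), E l' ≤ 4 * E l := by
  by_contra hcon
  push Not at hcon
  have key : ∀ j : ℕ, j ≤ K → ∃ l ∈ Icc a (a + j * ρ), 4 ^ j * E a ≤ E l ∧ (0 < j → 4 ^ j * E a < E l) := by
    intro j
    induction j with
    | zero => intro _; exact ⟨a, by simp, by simp, by simp⟩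
    | succ j ih =>
      intro hj
      obtain ⟨l, hl, h1, -⟩ := ih (by omega)
      have hl' : l ∈ Icc a (a + (K - 1 : ℕ) * ρ) := by
        refine ⟨hl.1, hl.2.trans ?_⟩
        have : (j : ℝ) ≤ (K - 1 : ℕ) := by exact_mod_cast (by omega : j ≤ K - 1)
        nlinarith
      have h4 : (1:ℝ) ≤ 4 ^ j := one_le_pow₀ (by norm_num)
      have hEl : E a ≤ E l := by nlinarith
      obtain ⟨l', hl1, hl2⟩ := hcon l hl' hEl
      have hlt : 4 ^ (j + 1) * E a < E l' := by
        calc (4:ℝ) ^ (j + 1) * E a = 4 * (4 ^ j * E a) := by ring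
          _ ≤ 4 * E l := by linarith
          _ < E l' := hl2
      refine ⟨l', ⟨hl.1.trans hl1.1, ?_⟩, hlt.le, fun _ => hlt⟩
      push_cast
      have := hl1.2
      have := hl.2
      linarith
  obtain ⟨l, hl, -, h2⟩ := key K le_rfl
  have := h2 hK0
  have := hH l hl
  linarith

end Crest.Agent.R234.Rv_518
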