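import Crest.Agent.R234.Sc9_173

/-!
Row 234, strong constancy lemma (helper173).  Part 10: the constancy lemma in the unit ball.
-/

set_option autoImplicit false

open MeasureTheory Metric Set Filter Topology
open scoped ContDiff ENNReal

namespace Crest.Agent.R234.Sc173

noncomputable section

open Crest.Agent.R246.H2x622 (Psi eta deta Psi_contDiff eta_contDiff deta_contDiff Psi_zero eta_zero
  deta_zero hasFDerivAt_Psi hasFDerivAt_eta G1_nonneg)

variable {d : ℕ}

lemma fubini0 {A : Measure (Eu d)} [IsFiniteMeasure A] {w g : Eu d → ℝ} (hw : Integrable w)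
    (hg : Continuous g) (hc : HasCompactSupport g) :
    ∫ y, cv w g y ∂A = ∫ x, w x * ∫ y, g (y - x) ∂A := by
  unfold cv
  obtain ⟨C, hC0, hC⟩ := bdd_of_cc hg hc
  have hint : Integrable (Function.uncurry fun (y x : Eu d) => w x * g (y - x))
      (A.prod volume) := by
    refine (hw.comp_snd A).mul_bdd (c := C)
      (hg.comp (continuous_fst.sub continuous_snd)).aestronglyMeasurable
      (Eventually.of_forall fun p => by simpa using hC (p.1 - p.2))
  rw [integral_integral_swap hint]
  refine integral_congr_ae (Eventually.of_forall fun x => ?_)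
  simp only
  rw [integral_const_mul]

/-- mollified indicator -/
def mi (V : Set (Eu d)) (T : ℝ) : Eu d → ℝ := cv (V.indicator 1) (mo T)

lemma ind_abs_le (V : Set (Eu d)) (x : Eu d) : |V.indicator (1 : Eu d → ℝ) x| ≤ 1 := by
  by_cases hx : x ∈ V <;> simp [hx]

lemma ind_integrable {V : Set (Eu d)} (hV : MeasurableSet V) (hVf : volume V ≠ ⊤) :
    Integrable (V.indicator (1 : Eu d → ℝ)) :=
  (integrable_indicator_iff hV).2 (integrableOn_const hVf)

lemma fubini_mi {A : Measure (Eu d)} [IsFiniteMeasure A] {V : Set (Eu d)} (hV : MeasurableSet V)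
    (hVf : volume V ≠ ⊤) {T : ℝ} (hT : 0 ≤ T) :
    ∫ y, mi V T y ∂A = ∫ x in V, fA A T x := by
  unfold mi
  rw [fubini0 (ind_integrable hV hVf) (mo_continuous T) (mo_hasCompactSupport hT),
    ← integral_indicator hV]
  refine integral_congr_ae (Eventually.of_forall fun x => ?_)
  simp only
  by_cases hx : x ∈ V
  · simp [hx, fA]
  · simp [hx]

lemma mi_nonneg (V : Set (Eu d)) (T : ℝ) (y : Eu d) : 0 ≤ mi V T y := by
  unfold mi cv
  refine integral_nonneg fun x => mul_nonneg ?_ (mo_nonneg _ _)
  exact indicator_nonneg (fun _ _ => zero_le_one) x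

lemma mi_le (V : Set (Eu d)) {T : ℝ} (hT : 0 ≤ T) (y : Eu d) : mi V T y ≤ c0 d := by
  have h1 := cv_abs_le (ind_abs_le V) (mo_integrable hT) y
  have h2 : ∀ x : Eu d, |mo T x| = mo T x := fun x => abs_of_nonneg (mo_nonneg T x)
  simp_rw [h2, integral_mo, one_mul] at h1
  exact (le_abs_self _).trans h1

lemma mi_continuous {V : Set (Eu d)} (hV : MeasurableSet V) (hVf : volume V ≠ ⊤) {T : ℝ}
    (hT : 0 ≤ T) : Continuous (mi V T) :=
  (cv_contDiff (ind_integrable hV hVf).locallyIntegrable (mo_contDiff T)
    (mo_hasCompactSupport hT)).continuous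

lemma mi_integrable {V : Set (Eu d)} (hV : MeasurableSet V) (hVf : volume V ≠ ⊤) {T : ℝ}
    (hT : 0 ≤ T) (A : Measure (Eu d)) [IsFiniteMeasure A] : Integrable (mi V T) A :=
  Integrable.of_bound (mi_continuous hV hVf hT).aestronglyMeasurable (c0 d)
    (Eventually.of_forall fun y => by
      rw [Real.norm_eq_abs, abs_of_nonneg (mi_nonneg V T y)]
      exact mi_le V hT y)

lemma mi_eq {V : Set (Eu d)} {T : ℝ} {y : Eu d} (h : closedBall y (Real.exp (-T)) ⊆ V) :
    mi V T y = c0 d := by
  unfold mi cv
  rw [← integral_mo T, ← integral_sub_left_eq_self (fun x => mo T x) volume y]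
  refine integral_congr_ae (Eventually.of_forall fun x => ?_)
  simp only
  by_cases hx : x ∈ V
  · simp [hx]
  · have h1 : mo T (y - x) = 0 := by
      refine mo_zero ?_
      have h2 : x ∉ closedBall y (Real.exp (-T)) := fun hh => hx (h hh)
      rw [mem_closedBall, dist_eq_norm, norm_sub_rev, not_le] at h2
      have h3 := mul_lt_mul_of_pos_left h2 (Real.exp_pos T)
      rwa [← Real.exp_add, add_neg_cancel, Real.exp_zero] at h3
    rw [h1, mul_zero]

lemma mi_zero {V : Set (Eu d)} {T : ℝ} {y : Eu d} (h : ∀ x ∈ V, Real.exp (-T) < dist y x) :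
    mi V T y = 0 := by
  unfold mi cv
  rw [integral_eq_zero_of_ae]
  refine Eventually.of_forall fun x => ?_
  simp only [Pi.zero_apply]
  by_cases hx : x ∈ V
  · have h1 : mo T (y - x) = 0 := by
      refine mo_zero ?_
      have h2 := h x hx
      rw [dist_eq_norm] at h2
      have h3 := mul_lt_mul_of_pos_left h2 (Real.exp_pos T)
      rwa [← Real.exp_add, add_neg_cancel, Real.exp_zero] at h3
    rw [h1, mul_zero]
  · simp [hx]

lemma exists_T {e : ℝ} (he : 0 < e) : ∃ T : ℝ, 0 ≤ T ∧ Real.exp (-T) ≤ e := by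
  refine ⟨max 0 (-Real.log e), le_max_left _ _, ?_⟩
  calc Real.exp (-max 0 (-Real.log e)) ≤ Real.exp (Real.log e) := by
        refine Real.exp_le_exp.2 ?_
        have := le_max_right 0 (-Real.log e)
        linarith
    _ = e := Real.exp_log he

/-- **upper bound** -/
lemma upper {A : Measure (Eu d)} [IsFiniteMeasure A] {m B : ℝ}
    (hm : ∀ x ∈ ball (0 : Eu d) 1, fA A 0 x ≤ m) (hm0 : 0 ≤ m)
    (hB : ∀ T, 0 ≤ T → ∫ x in ball (0 : Eu d) 1, |fA A T x - fA A 0 x| ≤ B) {S : Set (Eu d)}
    (hS : MeasurableSet S) (hS1 : S ⊆ ball 0 1) :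
    c0 d * A.real S ≤ m * volume.real S + B := by
  have hc := @c0_pos d
  refine le_of_forall_pos_le_add fun e he => ?_
  set e' : ℝ := e / (c0 d + m) with he'
  have he0 : 0 < e' := by positivity
  have hSf : volume S ≠ ⊤ := ((measure_mono hS1).trans_lt measure_ball_lt_top).ne
  obtain ⟨K, hKS, hK, hKA⟩ := hS.exists_isCompact_lt_add (μ := A) (measure_ne_top A S)
    (ε := ENNReal.ofReal e') (by simpa using he0)
  obtain ⟨V', hSV', hV'o, hV'v⟩ := S.exists_isOpen_lt_add (μ := volume) hSf
    (ε := ENNReal.ofReal e') (by simpa using he0)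
  set V := V' ∩ ball 0 1 with hV
  have hVo : IsOpen V := hV'o.inter isOpen_ball
  have hVm := hVo.measurableSet
  have hSV : S ⊆ V := subset_inter hSV' hS1
  have hV1 : V ⊆ ball 0 1 := inter_subset_right
  have hVf : volume V ≠ ⊤ := ((measure_mono hV1).trans_lt measure_ball_lt_top).ne
  have h1 : A.real S ≤ A.real K + e' := by
    unfold Measure.real
    rw [← ENNReal.toReal_ofReal he0.le, ← ENNReal.toReal_add (measure_ne_top A K) ENNReal.ofReal_ne_top]
    exact ENNReal.toReal_mono (by finiteness) hKA.le
  have h2 : volume.real V ≤ volume.real S + e' := by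
    unfold Measure.real
    rw [← ENNReal.toReal_ofReal he0.le, ← ENNReal.toReal_add hSf ENNReal.ofReal_ne_top]
    refine ENNReal.toReal_mono (by finiteness) ?_
    exact (measure_mono inter_subset_left).trans hV'v.le
  obtain ⟨dl, hdl, hdK⟩ := hK.exists_cthickening_subset_open hVo (hKS.trans hSV)
  obtain ⟨T, hT, hTd⟩ := exists_T hdl
  have h3 : c0 d * A.real K ≤ ∫ y, mi V T y ∂A := by
    calc c0 d * A.real K = ∫ y, K.indicator (fun _ => c0 d) y ∂A := by
          rw [integral_indicator_const _ hK.measurableSet, smul_eq_mul, mul_comm]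
      _ ≤ _ := by
          refine integral_mono ((integrable_indicator_iff hK.measurableSet).2
            (integrableOn_const (measure_ne_top A K))) (mi_integrable hVm hVf hT A) fun y => ?_
          by_cases hy : y ∈ K
          · rw [indicator_of_mem hy]
            rw [mi_eq]
            refine Subset.trans ?_ hdK
            intro x hx
            exact mem_cthickening_of_dist_le x y dl K hy ((mem_closedBall.1 hx).trans hTd)
          · rw [indicator_of_notMem hy]
            exact mi_nonneg _ _ _
  rw [fubini_mi hVm hVf hT] at h3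
  have hcT := fA_continuous A hT
  have hc0 := fA_continuous A (t := 0) le_rfl
  have hio : ∀ {f : Eu d → ℝ}, Continuous f → ∀ {W : Set (Eu d)}, W ⊆ ball 0 1 →
      IntegrableOn f W := by
    intro f hf W hW
    exact (hf.continuousOn.integrableOn_compact (isCompact_closedBall (0 : Eu d) 1)).mono_set
      (hW.trans ball_subset_closedBall)
  have h4 : ∫ x in V, fA A T x ≤ m * volume.real V + B := by
    calc ∫ x in V, fA A T x ≤ ∫ x in V, (m + |fA A T x - fA A 0 x|) := by
          refine setIntegral_mono_on (hio hcT hV1)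
            (hio (continuous_const.add (hcT.sub hc0).abs) hV1) hVm fun x hx => ?_
          have := hm x (hV1 hx)
          have := le_abs_self (fA A T x - fA A 0 x)
          linarith
      _ = m * volume.real V + ∫ x in V, |fA A T x - fA A 0 x| := by
          have hcm : Integrable (fun _ : Eu d => m) (volume.restrict V) := integrableOn_const hVf
          have hcD : Integrable (fun x => |fA A T x - fA A 0 x|) (volume.restrict V) :=
            hio (hcT.sub hc0).abs hV1
          rw [integral_add hcm hcD, setIntegral_const, smul_eq_mul, mul_comm]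
      _ ≤ _ := by
          have h5 : ∫ x in V, |fA A T x - fA A 0 x| ≤ ∫ x in ball (0 : Eu d) 1,
              |fA A T x - fA A 0 x| :=
            setIntegral_mono_set (hio (hcT.sub hc0).abs subset_rfl)
              (Eventually.of_forall fun _ => abs_nonneg _) (hV1.eventuallyLE)
          have := hB T hT
          linarith
  have h6 : m * volume.real V ≤ m * (volume.real S + e') := mul_le_mul_of_nonneg_left h2 hm0
  have h7 : c0 d * A.real S ≤ c0 d * (A.real K + e') := mul_le_mul_of_nonneg_left h1 hc.le
  have h8 : (c0 d + m) * e' = e := by rw [he']; field_simp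
  nlinarith

/-- **lower bound** -/
lemma lower {A : Measure (Eu d)} [IsFiniteMeasure A] {m B : ℝ} (hB0 : 0 ≤ B)
    (hm : ∀ x ∈ ball (0 : Eu d) 1, m ≤ fA A 0 x)
    (hB : ∀ T, 0 ≤ T → ∫ x in ball (0 : Eu d) 1, |fA A T x - fA A 0 x| ≤ B) {S : Set (Eu d)}
    (hS : MeasurableSet S) (hS1 : S ⊆ ball 0 1) :
    m * volume.real S ≤ c0 d * A.real S + B := by
  have hc := @c0_pos d
  rcases lt_or_ge m 0 with hm1 | hm0
  · have h1 : m * volume.real S ≤ 0 := mul_nonpos_of_nonpos_of_nonneg hm1.le measureReal_nonneg
    have h2 : 0 ≤ c0 d * A.real S := mul_nonneg hc.le measureReal_nonneg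
    linarith
  refine le_of_forall_pos_le_add fun e he => ?_
  set e' : ℝ := e / (c0 d + m) with he'
  have he0 : 0 < e' := by positivity
  have hSf : volume S ≠ ⊤ := ((measure_mono hS1).trans_lt measure_ball_lt_top).ne
  obtain ⟨K, hKS, hK, hKA⟩ := hS.exists_isCompact_lt_add (μ := volume) hSf
    (ε := ENNReal.ofReal e') (by simpa using he0)
  obtain ⟨V, hSV, hVo, hV'v⟩ := S.exists_isOpen_lt_add (μ := A) (measure_ne_top A S)
    (ε := ENNReal.ofReal e') (by simpa using he0)
  have hVm := hVo.measurableSet
  have hK1 : K ⊆ ball 0 1 := hKS.trans hS1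
  have hKf : volume K ≠ ⊤ := ((measure_mono hK1).trans_lt measure_ball_lt_top).ne
  have hKm := hK.measurableSet
  have h1 : volume.real S ≤ volume.real K + e' := by
    unfold Measure.real
    rw [← ENNReal.toReal_ofReal he0.le, ← ENNReal.toReal_add hKf ENNReal.ofReal_ne_top]
    exact ENNReal.toReal_mono (by finiteness) hKA.le
  have h2 : A.real V ≤ A.real S + e' := by
    unfold Measure.real
    rw [← ENNReal.toReal_ofReal he0.le, ← ENNReal.toReal_add (measure_ne_top A S) ENNReal.ofReal_ne_top]
    exact ENNReal.toReal_mono (by finiteness) hV'v.le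
  obtain ⟨dl, hdl, hdK⟩ := hK.exists_cthickening_subset_open hVo (hKS.trans hSV)
  obtain ⟨T, hT, hTd⟩ := exists_T hdl
  have h3 : ∫ y, mi K T y ∂A ≤ c0 d * A.real V := by
    calc ∫ y, mi K T y ∂A ≤ ∫ y, V.indicator (fun _ => c0 d) y ∂A := by
          refine integral_mono (mi_integrable hKm hKf hT A) ((integrable_indicator_iff hVm).2
            (integrableOn_const (measure_ne_top A V))) fun y => ?_
          by_cases hy : y ∈ V
          · rw [indicator_of_mem hy]
            exact mi_le _ hT _
          · rw [indicator_of_notMem hy, mi_zero]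
            intro x hx
            by_contra hcon
            exact hy (hdK (mem_cthickening_of_dist_le y x dl K hx ((not_lt.1 hcon).trans hTd)))
      _ = c0 d * A.real V := by
          rw [integral_indicator_const _ hVm, smul_eq_mul, mul_comm]
  rw [fubini_mi hKm hKf hT] at h3
  have hcT := fA_continuous A hT
  have hc0 := fA_continuous A (t := 0) le_rfl
  have hio : ∀ {f : Eu d → ℝ}, Continuous f → ∀ {W : Set (Eu d)}, W ⊆ ball 0 1 →
      IntegrableOn f W := by
    intro f hf W hW
    exact (hf.continuousOn.integrableOn_compact (isCompact_closedBall (0 : Eu d) 1)).mono_set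
      (hW.trans ball_subset_closedBall)
  have h4 : m * volume.real K ≤ (∫ x in K, fA A T x) + B := by
    calc m * volume.real K = ∫ x in K, m := by rw [setIntegral_const, smul_eq_mul, mul_comm]
      _ ≤ ∫ x in K, (fA A T x + |fA A T x - fA A 0 x|) := by
          refine setIntegral_mono_on (integrableOn_const hKf)
            (hio (hcT.add (hcT.sub hc0).abs) hK1) hKm fun x hx => ?_
          have := hm x (hK1 hx)
          have := neg_abs_le (fA A T x - fA A 0 x)
          linarith
      _ = (∫ x in K, fA A T x) + ∫ x in K, |fA A T x - fA A 0 x| :=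
          integral_add (hio hcT hK1) (hio (hcT.sub hc0).abs hK1)
      _ ≤ _ := by
          have h5 : ∫ x in K, |fA A T x - fA A 0 x| ≤ ∫ x in ball (0 : Eu d) 1,
              |fA A T x - fA A 0 x| :=
            setIntegral_mono_set (hio (hcT.sub hc0).abs subset_rfl)
              (Eventually.of_forall fun _ => abs_nonneg _) (hK1.eventuallyLE)
          have := hB T hT
          linarith
  have h6 : m * volume.real S ≤ m * (volume.real K + e') := mul_le_mul_of_nonneg_left h1 hm0
  have h7 : c0 d * A.real V ≤ c0 d * (A.real S + e') := mul_le_mul_of_nonneg_left h2 hc.le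
  have h8 : (c0 d + m) * e' = e := by rw [he']; field_simp
  nlinarith

/-- **strong constancy, unit ball, (H2) version** -/
theorem sc1_unit (hd : 0 < d) : ∃ C : ℝ, 0 ≤ C ∧ ∀ (A E G : Measure (Eu d)) [IsFiniteMeasure A]
    [IsFiniteMeasure E] [IsFiniteMeasure G] (M δ : ℝ), H2 A E G → A.real univ ≤ M →
    E.real univ ≤ δ → G.real univ ≤ δ → ∀ S : Set (Eu d), MeasurableSet S → S ⊆ ball 0 1 →
    A.real S ≤ C * (M * volume.real S + Real.sqrt (M * δ)) := by
  obtain ⟨Ca, hCa0, hCa⟩ := l1_est (d := d) hd
  obtain ⟨Cb, hCb0, hCb⟩ := fA_zero_le d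
  have hc := @c0_pos d
  refine ⟨1 + (Cb + 2 * Ca) / c0 d, by positivity, ?_⟩
  intro A E G _ _ _ M δ h2 hAM hE hG S hS hS1
  have hM : 0 ≤ M := measureReal_nonneg.trans hAM
  have hδ : 0 ≤ δ := measureReal_nonneg.trans hE
  have hS0 : 0 ≤ M * volume.real S := mul_nonneg hM measureReal_nonneg
  have hs0 : 0 ≤ Real.sqrt (M * δ) := Real.sqrt_nonneg _
  have hK0 : 0 ≤ (Cb + 2 * Ca) / c0 d := by positivity
  rcases le_total M δ with h | h
  · have h1 : M ≤ Real.sqrt (M * δ) := by
      refine Real.le_sqrt_of_sq_le ?_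
      nlinarith
    have h3 : A.real S ≤ M := (measureReal_mono (subset_univ S)).trans hAM
    have h4 : 0 ≤ (Cb + 2 * Ca) / c0 d * (M * volume.real S + Real.sqrt (M * δ)) := by positivity
    linarith
  · have h1 : δ ≤ Real.sqrt (M * δ) := by
      refine Real.le_sqrt_of_sq_le ?_
      nlinarith
    have h3 := upper (A := A) (m := Cb * M) (B := Ca * (δ + Real.sqrt (M * δ)))
      (fun x _ => hCb A M hAM x) (by positivity)
      (fun T hT => hCa A E G M δ h2 hAM hE hG T hT) hS hS1
    have h4 : c0 d * A.real S ≤ (Cb + 2 * Ca) * (M * volume.real S + Real.sqrt (M * δ)) := by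
      have h5 : 0 ≤ Cb * Real.sqrt (M * δ) := by positivity
      have h6 : 0 ≤ Ca * (M * volume.real S) := by positivity
      have h7 : Ca * δ ≤ Ca * Real.sqrt (M * δ) := mul_le_mul_of_nonneg_left h1 hCa0
      nlinarith
    have h5 : A.real S ≤ (Cb + 2 * Ca) / c0 d * (M * volume.real S + Real.sqrt (M * δ)) := by
      rw [div_mul_eq_mul_div, le_div_iff₀ hc]
      linarith
    linarith

end

end Crest.Agent.R234.Sc173
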