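import Crest.Agent.R234.Sc10_173

/-!
Row 234, strong constancy lemma (helper173).  Part 11: full constancy in the unit ball from the
divergence form.
-/

set_option autoImplicit false

open MeasureTheory Metric Set Filter Topology
open scoped ContDiff ENNReal

namespace Crest.Agent.R234.Sc173

noncomputable section

open Crest.Agent.R246.H2x622 (Psi eta deta Psi_contDiff eta_contDiff deta_contDiff Psi_zero eta_zero
  deta_zero hasFDerivAt_Psi hasFDerivAt_eta G1_nonneg)

variable {d : ℕ}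

lemma inner_ee (i : Fin d) (v : Eu d) : inner ℝ (ee i) v = v i := by
  simpa using EuclideanSpace.inner_single_left i (1:ℝ) v

lemma inner_ee_ee (i j : Fin d) : inner ℝ (ee i : Eu d) (ee j) = if i = j then (1:ℝ) else 0 := by
  rw [inner_ee]
  by_cases h : i = j
  · subst h; simp
  · simp [h]

lemma int_le {E : Measure (Eu d)} [IsFiniteMeasure E] {f g : Eu d → ℝ} (hf : ∀ x, 0 ≤ f x)
    (hg : Continuous g) (hc : HasCompactSupport g) (hfg : ∀ x, f x ≤ g x) :
    ∫ x, f x ∂E ≤ ∫ x, g x ∂E := by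
  obtain ⟨C, hC⟩ := hc.exists_bound_of_continuous hg
  exact integral_mono_of_nonneg (Eventually.of_forall hf)
    (Integrable.of_bound (C := C) hg.aestronglyMeasurable (Eventually.of_forall hC))
    (Eventually.of_forall hfg)

/-- divergence -/
def dv (X : Eu d → Eu d) (x : Eu d) : ℝ := ∑ i, inner ℝ (fderiv ℝ X x (ee i)) (ee i)

/-- the divergence form of the equation -/
def H1 (A E G : Measure (Eu d)) : Prop := ∀ X : Eu d → Eu d, ContDiff ℝ ∞ X → HasCompactSupport X →
  tsupport X ⊆ ball (0 : Eu d) 4 →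
  |∫ x, dv X x ∂A| ≤ (∫ x, ‖fderiv ℝ X x‖ ∂E) + ∫ x, ‖X x‖ ∂G

/-- coordinates of a functional -/
def JJ (d : ℕ) : (Eu d →L[ℝ] ℝ) →L[ℝ] Eu d :=
  ∑ i, (ContinuousLinearMap.apply ℝ ℝ (ee i : Eu d)).smulRight (ee i : Eu d)

lemma JJ_apply (p : Eu d →L[ℝ] ℝ) : JJ d p = ∑ i, p (ee i) • (ee i : Eu d) := by
  simp [JJ]

lemma inner_JJ (p : Eu d →L[ℝ] ℝ) (v : Eu d) : inner ℝ (JJ d p) v = p v := by
  have h1 : v = ∑ i, (v i) • (ee i : Eu d) := by
    have h2 := (EuclideanSpace.basisFun (Fin d) ℝ).sum_repr v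
    simp only [EuclideanSpace.basisFun_apply, EuclideanSpace.basisFun_repr] at h2
    exact h2.symm
  rw [JJ_apply, sum_inner]
  conv_rhs => rw [h1, map_sum]
  refine Finset.sum_congr rfl fun i _ => ?_
  rw [inner_smul_left, map_smul, smul_eq_mul, mul_comm, inner_ee]
  simp

lemma norm_JJ_apply_le (p : Eu d →L[ℝ] ℝ) : ‖JJ d p‖ ≤ ‖p‖ := by
  have h1 : ‖JJ d p‖ * ‖JJ d p‖ ≤ ‖p‖ * ‖JJ d p‖ := by
    rw [← real_inner_self_eq_norm_mul_norm, inner_JJ]
    exact (le_abs_self _).trans (p.le_opNorm _)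
  rcases (norm_nonneg (JJ d p)).eq_or_lt with h | h
  · rw [← h]; exact norm_nonneg _
  · exact le_of_mul_le_mul_right h1 h

lemma norm_JJ_apply (p : Eu d →L[ℝ] ℝ) : ‖JJ d p‖ = ‖p‖ := by
  refine le_antisymm (norm_JJ_apply_le p) (p.opNorm_le_bound (norm_nonneg _) fun v => ?_)
  rw [← inner_JJ]
  exact norm_inner_le_norm _ _

lemma norm_JJ_comp {Z : Type*} [NormedAddCommGroup Z] [NormedSpace ℝ Z]
    (L : Z →L[ℝ] (Eu d →L[ℝ] ℝ)) : ‖(JJ d).comp L‖ = ‖L‖ := by
  refine le_antisymm (((JJ d).comp L).opNorm_le_bound (norm_nonneg L) fun z =>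
    (norm_JJ_apply_le _).trans (L.le_opNorm z))
    (L.opNorm_le_bound (norm_nonneg ((JJ d).comp L)) fun z => ?_)
  rw [← norm_JJ_apply (L z)]
  exact ((JJ d).comp L).le_opNorm z

/-- gradient field -/
def XX (U : Eu d → ℝ) (x : Eu d) : Eu d := JJ d (fderiv ℝ U x)

lemma D_contDiff {U : Eu d → ℝ} (hU : ContDiff ℝ ∞ U) : ContDiff ℝ ∞ (fderiv ℝ U) :=
  hU.fderiv_right (by norm_cast)

lemma XX_contDiff {U : Eu d → ℝ} (hU : ContDiff ℝ ∞ U) : ContDiff ℝ ∞ (XX U) :=
  (JJ d).contDiff.comp (D_contDiff hU)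

lemma XX_support (U : Eu d → ℝ) : Function.support (XX U) ⊆ Function.support (fderiv ℝ U) := by
  intro x hx hx0
  refine hx ?_
  unfold XX
  rw [hx0, map_zero]

lemma fderiv_XX {U : Eu d → ℝ} (hU : ContDiff ℝ ∞ U) (x : Eu d) :
    fderiv ℝ (XX U) x = (JJ d).comp (fderiv ℝ (fderiv ℝ U) x) := by
  have h1 : HasFDerivAt (fderiv ℝ U) (fderiv ℝ (fderiv ℝ U) x) x :=
    ((D_contDiff hU).differentiable (by simp) x).hasFDerivAt
  exact ((JJ d).hasFDerivAt.comp x h1).fderiv

lemma dv_XX {U : Eu d → ℝ} (hU : ContDiff ℝ ∞ U) (x : Eu d) : dv (XX U) x = Lap U x := by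
  rw [Lap_eq hU]
  unfold dv
  refine Finset.sum_congr rfl fun i _ => ?_
  rw [fderiv_XX hU, ContinuousLinearMap.comp_apply, inner_JJ]

lemma norm_fderiv_XX {U : Eu d → ℝ} (hU : ContDiff ℝ ∞ U) (x : Eu d) :
    ‖fderiv ℝ (XX U) x‖ = ‖fderiv ℝ (fderiv ℝ U) x‖ := by
  rw [fderiv_XX hU]
  exact norm_JJ_comp _

lemma H1_toH2 {A E G : Measure (Eu d)} (h : H1 A E G) : H2 A E G := by
  intro U hU hc ht
  have h1 := h (XX U) (XX_contDiff hU) ((hc.fderiv ℝ).mono (XX_support U))
    ((closure_mono (XX_support U)).trans ((tsupport_fderiv_subset ℝ).trans ht))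
  simp_rw [dv_XX hU, norm_fderiv_XX hU] at h1
  have h3 : ∀ x, ‖XX U x‖ = ‖fderiv ℝ U x‖ := fun x => norm_JJ_apply _
  simp_rw [h3] at h1
  exact h1

/-- the mollification at scale one is nearly constant -/
lemma grad_fA (d : ℕ) : ∃ C : ℝ, 0 ≤ C ∧ ∀ (A E G : Measure (Eu d)) [IsFiniteMeasure A]
    [IsFiniteMeasure E] [IsFiniteMeasure G] (δ : ℝ), H1 A E G → E.real univ ≤ δ → G.real univ ≤ δ →
    ∀ x ∈ ball (0 : Eu d) 1, |fA A 0 x - fA A 0 0| ≤ C * δ := by
  have hcc := mo_hasCompactSupport (d := d) (t := 0) le_rfl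
  have hdd : ContDiff ℝ ∞ (fderiv ℝ (mo 0 : Eu d → ℝ)) := (mo_contDiff 0).fderiv_right (by norm_cast)
  obtain ⟨Ca, hCa0, hCa⟩ := mo_bdd (d := d) (t := 0) le_rfl
  obtain ⟨Cb', hCb'⟩ := (hcc.fderiv ℝ).exists_bound_of_continuous hdd.continuous
  set Cb := max Cb' 0 with hCbdef
  have hCb0 : 0 ≤ Cb := le_max_right _ _
  have hCb : ∀ x : Eu d, ‖fderiv ℝ (mo 0) x‖ ≤ Cb := fun x => (hCb' x).trans (le_max_left _ _)
  refine ⟨d * (Cb + Ca), by positivity, ?_⟩
  intro A E G _ _ _ δ h1 hE hG x hx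
  have hδ : 0 ≤ δ := measureReal_nonneg.trans hE
  -- bound of the derivative
  have hder : ∀ z ∈ ball (0 : Eu d) 1,
      ‖(∫ y, -fderiv ℝ (mo 0) (y - z) ∂A : Eu d →L[ℝ] ℝ)‖ ≤ d * (Cb + Ca) * δ := by
    intro z hz
    refine (norm_clm_le _).trans ?_
    have hterm : ∀ i : Fin d, ‖(∫ y, -fderiv ℝ (mo 0) (y - z) ∂A : Eu d →L[ℝ] ℝ) (ee i)‖ ≤
        (Cb + Ca) * δ := by
      intro i
      have hint : Integrable (fun y => -fderiv ℝ (mo 0) (y - z)) A :=
        Integrable.of_bound (hdd.continuous.comp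
          (continuous_id.sub continuous_const)).neg.aestronglyMeasurable Cb
          (Eventually.of_forall fun y => by rw [norm_neg]; exact hCb _)
      rw [ContinuousLinearMap.integral_apply hint]
      -- the vector field
      set X : Eu d → Eu d := fun y => mo 0 (y - z) • (ee i : Eu d) with hX
      have hXd : ContDiff ℝ ∞ X :=
        ((mo_contDiff 0).comp (contDiff_id.sub contDiff_const)).smul contDiff_const
      have hz1 : ‖z‖ < 1 := by simpa using hz
      have hX0 : ∀ y : Eu d, 2 < ‖y‖ → X y = 0 := by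
        intro y hy
        rw [hX]
        simp only
        rw [mo_zero' le_rfl, zero_smul]
        have := norm_sub_norm_le y z
        linarith
      have hXs : tsupport X ⊆ closedBall (0 : Eu d) 2 := by
        refine closure_minimal ?_ isClosed_closedBall
        intro y hy
        by_contra hcon
        exact hy (hX0 y (by simpa using hcon))
      have hXc : HasCompactSupport X :=
        HasCompactSupport.intro (isCompact_closedBall (0 : Eu d) 2) fun y hy =>
          hX0 y (by simpa using hy)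
      have hXt : tsupport X ⊆ ball (0 : Eu d) 4 :=
        hXs.trans (closedBall_subset_ball (by norm_num))
      have hXder : ∀ y, fderiv ℝ X y = (fderiv ℝ (mo 0) (y - z)).smulRight (ee i : Eu d) := by
        intro y
        have a1 : HasFDerivAt (mo 0 : Eu d → ℝ) (fderiv ℝ (mo 0) (y - z)) (y - z) :=
          ((mo_contDiff 0).differentiable (by simp) _).hasFDerivAt
        have a2 : HasFDerivAt (fun y : Eu d => y - z) (ContinuousLinearMap.id ℝ (Eu d)) y :=
          (hasFDerivAt_id y).sub_const z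
        have a3 := (a1.comp y a2).smul_const (ee i : Eu d)
        exact a3.fderiv
      have hdv : ∀ y, dv X y = fderiv ℝ (mo 0) (y - z) (ee i) := by
        intro y
        unfold dv
        rw [hXder]
        rw [Finset.sum_eq_single i]
        · rw [ContinuousLinearMap.smulRight_apply, inner_smul_left, inner_ee_ee]
          simp
        · intro j _ hj
          rw [ContinuousLinearMap.smulRight_apply, inner_smul_left, inner_ee_ee, if_neg hj.symm,
            mul_zero]
        · intro h; exact absurd (Finset.mem_univ i) h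
      have h2 := h1 X hXd hXc hXt
      simp_rw [hdv] at h2
      have h3 : ∫ y, (-fderiv ℝ (mo 0) (y - z)) (ee i) ∂A = -∫ y, fderiv ℝ (mo 0) (y - z) (ee i) ∂A := by
        rw [← integral_neg]
        rfl
      rw [h3, norm_neg, Real.norm_eq_abs]
      refine h2.trans ?_
      have h4 : ∫ y, ‖fderiv ℝ X y‖ ∂E ≤ Cb * δ := by
        calc ∫ y, ‖fderiv ℝ X y‖ ∂E ≤ ∫ y, Cb ∂E := by
              refine integral_mono_of_nonneg
                (Eventually.of_forall fun y => norm_nonneg (fderiv ℝ X y)) (integrable_const _)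
                (Eventually.of_forall fun y => ?_)
              simp only
              rw [hXder, ContinuousLinearMap.norm_smulRight_apply]
              simpa using hCb (y - z)
          _ = Cb * E.real univ := by rw [integral_const, smul_eq_mul, mul_comm]
          _ ≤ _ := mul_le_mul_of_nonneg_left hE hCb0
      have h5 : ∫ y, ‖X y‖ ∂G ≤ Ca * δ := by
        calc ∫ y, ‖X y‖ ∂G ≤ ∫ y, Ca ∂G := by
              refine integral_mono_of_nonneg
                (Eventually.of_forall fun y => norm_nonneg (X y)) (integrable_const _)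
                (Eventually.of_forall fun y => ?_)
              simp only [hX, norm_smul]
              simpa using hCa (y - z)
          _ = Ca * G.real univ := by rw [integral_const, smul_eq_mul, mul_comm]
          _ ≤ _ := mul_le_mul_of_nonneg_left hG hCa0
      linarith
    refine (Finset.sum_le_sum fun i _ => hterm i).trans_eq ?_
    simp
    ring
  have hmv := (convex_ball (0 : Eu d) 1).norm_image_sub_le_of_norm_hasFDerivWithin_le
    (f := fA A 0) (f' := fun z => ∫ y, -fderiv ℝ (mo 0) (y - z) ∂A) (C := d * (Cb + Ca) * δ)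
    (fun z _ => (fA_hasFDerivAt A le_rfl z).hasFDerivWithinAt) hder
    (mem_ball_self one_pos) hx
  rw [Real.norm_eq_abs, sub_zero] at hmv
  refine hmv.trans ?_
  have hx1 : ‖x‖ < 1 := by simpa using hx
  have h0 : 0 ≤ d * (Cb + Ca) * δ := by positivity
  nlinarith [norm_nonneg x]

/-- **strong constancy, unit ball, full version** -/
theorem sc2_unit (hd : 0 < d) : ∃ C : ℝ, 0 ≤ C ∧ ∀ (A E G : Measure (Eu d)) [IsFiniteMeasure A]
    [IsFiniteMeasure E] [IsFiniteMeasure G] (M δ : ℝ), H1 A E G → A.real univ ≤ M →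
    E.real univ ≤ δ → G.real univ ≤ δ → ∃ c : ℝ, 0 ≤ c ∧ c ≤ C * M ∧
    ∀ S : Set (Eu d), MeasurableSet S → S ⊆ ball 0 1 →
    |A.real S - c * volume.real S| ≤ C * Real.sqrt (M * δ) := by
  obtain ⟨Ca, hCa0, hCa⟩ := l1_est (d := d) hd
  obtain ⟨Cb, hCb0, hCb⟩ := fA_zero_le d
  obtain ⟨Cc, hCc0, hCc⟩ := grad_fA d
  have hc := @c0_pos d
  have hom := @om_pos d
  refine ⟨1 + Cb / c0 d + Cb / c0 d * om d + (Cc * om d + 2 * Ca) / c0 d, by positivity, ?_⟩
  intro A E G _ _ _ M δ h1 hAM hE hG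
  have hM : 0 ≤ M := measureReal_nonneg.trans hAM
  have hδ : 0 ≤ δ := measureReal_nonneg.trans hE
  have hs0 : 0 ≤ Real.sqrt (M * δ) := Real.sqrt_nonneg _
  have hf0 : 0 ≤ fA A 0 0 := fA_nonneg A 0 0
  have hf1 : fA A 0 0 ≤ Cb * M := hCb A M hAM 0
  have hcM : fA A 0 0 / c0 d ≤ Cb / c0 d * M := by
    rw [div_mul_eq_mul_div]
    exact div_le_div_of_nonneg_right hf1 hc.le
  have hr1 : 0 ≤ Cb / c0 d := by positivity
  have hr2 : 0 ≤ Cb / c0 d * om d := by positivity
  have hr3 : 0 ≤ (Cc * om d + 2 * Ca) / c0 d := by positivity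
  refine ⟨fA A 0 0 / c0 d, by positivity, ?_, ?_⟩
  · refine hcM.trans (mul_le_mul_of_nonneg_right ?_ hM)
    linarith
  intro S hS hS1
  have hSv : volume.real S ≤ om d := measureReal_mono hS1 measure_ball_lt_top.ne
  have hSv0 : 0 ≤ volume.real S := measureReal_nonneg
  rcases le_total M δ with h | h
  · have h2 : M ≤ Real.sqrt (M * δ) := by
      refine Real.le_sqrt_of_sq_le ?_
      nlinarith
    have h3 : A.real S ≤ M := (measureReal_mono (subset_univ S)).trans hAM
    have h3' : 0 ≤ A.real S := measureReal_nonneg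
    have h4 : 0 ≤ fA A 0 0 / c0 d := by positivity
    have h5 : fA A 0 0 / c0 d * volume.real S ≤ Cb / c0 d * om d * M := by
      calc fA A 0 0 / c0 d * volume.real S ≤ (Cb / c0 d * M) * om d :=
            mul_le_mul hcM hSv hSv0 (by positivity)
        _ = _ := by ring
    have h6 : 0 ≤ fA A 0 0 / c0 d * volume.real S := by positivity
    have h7 : Cb / c0 d * om d * M ≤ Cb / c0 d * om d * Real.sqrt (M * δ) :=
      mul_le_mul_of_nonneg_left h2 hr2
    have h8 : 0 ≤ Cb / c0 d * Real.sqrt (M * δ) := by positivity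
    have h9 : 0 ≤ (Cc * om d + 2 * Ca) / c0 d * Real.sqrt (M * δ) := by positivity
    rw [abs_le]
    constructor <;> nlinarith
  · have h2 : δ ≤ Real.sqrt (M * δ) := by
      refine Real.le_sqrt_of_sq_le ?_
      nlinarith
    have hg := hCc A E G δ h1 hE hG
    have hB0 : 0 ≤ Ca * (δ + Real.sqrt (M * δ)) := by positivity
    have hL := fun T hT => hCa A E G M δ (H1_toH2 h1) hAM hE hG T hT
    have hu := upper (A := A) (m := fA A 0 0 + Cc * δ) (B := Ca * (δ + Real.sqrt (M * δ)))
      (fun x hx => by have := (abs_le.1 (hg x hx)).2; linarith) (by positivity) hL hS hS1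
    have hl := lower (A := A) (m := fA A 0 0 - Cc * δ) (B := Ca * (δ + Real.sqrt (M * δ))) hB0
      (fun x hx => by have := (abs_le.1 (hg x hx)).1; linarith) hL hS hS1
    have h3 : |c0 d * A.real S - fA A 0 0 * volume.real S| ≤
        (Cc * om d + 2 * Ca) * Real.sqrt (M * δ) := by
      have h4 : Cc * δ * volume.real S ≤ Cc * om d * Real.sqrt (M * δ) := by
        calc Cc * δ * volume.real S ≤ Cc * Real.sqrt (M * δ) * om d :=
              mul_le_mul (mul_le_mul_of_nonneg_left h2 hCc0) hSv hSv0 (by positivity)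
          _ = _ := by ring
      have h5 : Ca * δ ≤ Ca * Real.sqrt (M * δ) := mul_le_mul_of_nonneg_left h2 hCa0
      rw [abs_le]
      constructor <;> nlinarith
    have h6 : |A.real S - fA A 0 0 / c0 d * volume.real S| ≤
        (Cc * om d + 2 * Ca) / c0 d * Real.sqrt (M * δ) := by
      have h7 : A.real S - fA A 0 0 / c0 d * volume.real S =
          (c0 d * A.real S - fA A 0 0 * volume.real S) / c0 d := by
        field_simp
      rw [h7, abs_div, abs_of_pos hc, div_mul_eq_mul_div]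
      exact div_le_div_of_nonneg_right h3 hc.le
    refine h6.trans (mul_le_mul_of_nonneg_right ?_ hs0)
    linarith

end

end Crest.Agent.R234.Sc173
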