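import Crest.Agent.R234.Sc11_173

/-!
Row 234, strong constancy lemma (helper173).  Part 12: arbitrary balls in finite dimensional inner
product spaces.
-/

set_option autoImplicit false
set_option linter.unusedSectionVars false

open MeasureTheory Metric Set Filter Topology
open scoped ContDiff ENNReal

namespace Crest.Agent.R234.Sc173

noncomputable section

variable {d : ℕ} {V : Type*} [NormedAddCommGroup V] [InnerProductSpace ℝ V] [MeasurableSpace V]
  [BorelSpace V]

/-- double divergence form of the equation in the ball `B_R(x0)`, no signed measures -/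
def H2g (b : OrthonormalBasis (Fin d) ℝ V) (A E G : Measure V) (x0 : V) (R : ℝ) : Prop :=
  ∀ U : V → ℝ, ContDiff ℝ ∞ U → HasCompactSupport U → tsupport U ⊆ ball x0 R →
  |∫ x, ∑ i, fderiv ℝ (fderiv ℝ U) x (b i) (b i) ∂A| ≤
    (∫ x, ‖fderiv ℝ (fderiv ℝ U) x‖ ∂E) + ∫ x, ‖fderiv ℝ U x‖ ∂G

/-- divergence form of the equation in the ball `B_R(x0)` -/
def H1g (b : OrthonormalBasis (Fin d) ℝ V) (A E G : Measure V) (x0 : V) (R : ℝ) : Prop :=
  ∀ X : V → V, ContDiff ℝ ∞ X → HasCompactSupport X → tsupport X ⊆ ball x0 R →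
  |∫ x, ∑ i, inner ℝ (fderiv ℝ X x (b i)) (b i) ∂A| ≤
    (∫ x, ‖fderiv ℝ X x‖ ∂E) + ∫ x, ‖X x‖ ∂G

/-- the rescaling -/
def phi (b : OrthonormalBasis (Fin d) ℝ V) (x0 : V) (r : ℝ) (x : V) : Eu d :=
  r⁻¹ • b.repr (x - x0)

/-- its inverse -/
def psi (b : OrthonormalBasis (Fin d) ℝ V) (x0 : V) (r : ℝ) (y : Eu d) : V :=
  x0 + b.repr.symm (r • y)

variable {b : OrthonormalBasis (Fin d) ℝ V} {x0 : V} {r : ℝ}

lemma psi_phi (hr : 0 < r) (x : V) : psi b x0 r (phi b x0 r x) = x := by
  unfold psi phi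
  rw [smul_inv_smul₀ hr.ne', LinearIsometryEquiv.symm_apply_apply]
  abel

lemma phi_psi (hr : 0 < r) (y : Eu d) : phi b x0 r (psi b x0 r y) = y := by
  unfold psi phi
  rw [add_sub_cancel_left, LinearIsometryEquiv.apply_symm_apply, inv_smul_smul₀ hr.ne']

lemma phi_contDiff : ContDiff ℝ ∞ (phi b x0 r) := by
  unfold phi
  exact (b.repr.toContinuousLinearEquiv.contDiff.comp (contDiff_id.sub contDiff_const)).const_smul _

lemma psi_continuous : Continuous (psi b x0 r) := by
  unfold psi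
  exact continuous_const.add (b.repr.symm.continuous.comp (continuous_const_smul r))

lemma phi_continuous : Continuous (phi b x0 r) := by
  unfold phi
  exact (b.repr.continuous.comp (continuous_id.sub continuous_const)).const_smul (r⁻¹ : ℝ)

/-- the homeomorphism -/
def phiH (b : OrthonormalBasis (Fin d) ℝ V) (x0 : V) (hr : 0 < r) : V ≃ₜ Eu d where
  toFun := phi b x0 r
  invFun := psi b x0 r
  left_inv := psi_phi hr
  right_inv := phi_psi hr
  continuous_toFun := phi_continuous
  continuous_invFun := psi_continuous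

lemma phi_emb (hr : 0 < r) : MeasurableEmbedding (phi b x0 r) :=
  (phiH b x0 hr).measurableEmbedding

lemma norm_phi (hr : 0 < r) (x : V) : ‖phi b x0 r x‖ = r⁻¹ * ‖x - x0‖ := by
  unfold phi
  rw [norm_smul, LinearIsometryEquiv.norm_map, Real.norm_eq_abs, abs_of_pos (by positivity)]

lemma phi_mem_ball (hr : 0 < r) {x : V} {s : ℝ} :
    phi b x0 r x ∈ ball (0 : Eu d) s ↔ x ∈ ball x0 (s * r) := by
  rw [mem_ball_zero_iff, norm_phi hr, mem_ball, dist_eq_norm, inv_mul_lt_iff₀ hr, mul_comm]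

/-- derivative of the rescaling -/
def LL (b : OrthonormalBasis (Fin d) ℝ V) (r : ℝ) : V →L[ℝ] Eu d :=
  r⁻¹ • (b.repr.toContinuousLinearEquiv : V →L[ℝ] Eu d)

lemma LL_apply (v : V) : LL b r v = r⁻¹ • b.repr v := rfl

lemma hasFDerivAt_phi (x : V) : HasFDerivAt (phi b x0 r) (LL b r) x := by
  unfold phi LL
  have h1 : HasFDerivAt (fun x : V => b.repr (x - x0))
      ((b.repr.toContinuousLinearEquiv : V →L[ℝ] Eu d).comp (ContinuousLinearMap.id ℝ V)) x :=
    (b.repr.toContinuousLinearEquiv.hasFDerivAt).comp x ((hasFDerivAt_id x).sub_const x0)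
  rw [ContinuousLinearMap.comp_id] at h1
  exact h1.const_smul r⁻¹

lemma fderiv_comp_phi {W : Type*} [NormedAddCommGroup W] [NormedSpace ℝ W] {f : Eu d → W}
    (hf : Differentiable ℝ f) (x : V) :
    fderiv ℝ (fun x => f (phi b x0 r x)) x = (fderiv ℝ f (phi b x0 r x)).comp (LL b r) :=
  ((hf _).hasFDerivAt.comp x (hasFDerivAt_phi x)).fderiv

lemma fderiv2_comp_phi {U : Eu d → ℝ} (hU : ContDiff ℝ ∞ U) (x v w : V) :
    fderiv ℝ (fderiv ℝ fun x => U (phi b x0 r x)) x v w =
      fderiv ℝ (fderiv ℝ U) (phi b x0 r x) (LL b r v) (LL b r w) := by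
  have h1 : (fun x => fderiv ℝ (fun x => U (phi b x0 r x)) x) =
      fun x => (fderiv ℝ U (phi b x0 r x)).comp (LL b r) := by
    funext x
    exact fderiv_comp_phi (hU.differentiable (by simp)) x
  have hd : ContDiff ℝ ∞ fun x => U (phi b x0 r x) := hU.comp phi_contDiff
  have hd' : DifferentiableAt ℝ (fderiv ℝ fun x => U (phi b x0 r x)) x :=
    (hd.fderiv_right (m := ∞) (by norm_cast)).differentiable (by simp) x
  -- evaluate at `w`
  have h2 : fderiv ℝ (fun x => fderiv ℝ (fun x => U (phi b x0 r x)) x w) x v =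
      fderiv ℝ (fderiv ℝ fun x => U (phi b x0 r x)) x v w := by
    have h3 : HasFDerivAt (fun x => fderiv ℝ (fun x => U (phi b x0 r x)) x w)
        ((ContinuousLinearMap.apply ℝ ℝ w).comp
          (fderiv ℝ (fderiv ℝ fun x => U (phi b x0 r x)) x)) x :=
      (ContinuousLinearMap.apply ℝ ℝ w).hasFDerivAt.comp x hd'.hasFDerivAt
    rw [h3.fderiv]
    simp
  rw [← h2]
  have h4 : (fun x => fderiv ℝ (fun x => U (phi b x0 r x)) x w) =
      fun x => (Dd (LL b r w) U) (phi b x0 r x) := by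
    funext x
    rw [congrFun h1 x]
    rfl
  rw [h4, fderiv_comp_phi ((Dd_contDiff hU).differentiable (by simp))]
  rw [ContinuousLinearMap.comp_apply]
  exact Dd_Dd_eq hU _ _ _

lemma norm_LL (hr : 0 < r) (v : V) : ‖LL b r v‖ = r⁻¹ * ‖v‖ := by
  rw [LL_apply, norm_smul, LinearIsometryEquiv.norm_map, Real.norm_eq_abs,
    abs_of_pos (by positivity)]

lemma norm_comp_LL (hr : 0 < r) {W : Type*} [NormedAddCommGroup W] [NormedSpace ℝ W]
    (f : Eu d →L[ℝ] W) : ‖f.comp (LL b r)‖ = r⁻¹ * ‖f‖ := by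
  refine le_antisymm ((f.comp (LL b r)).opNorm_le_bound (by positivity) fun v => ?_) ?_
  · rw [ContinuousLinearMap.comp_apply]
    refine (f.le_opNorm _).trans_eq ?_
    rw [norm_LL hr]
    ring
  · rw [inv_mul_le_iff₀ hr]
    refine f.opNorm_le_bound (by positivity) fun v => ?_
    have h1 : f v = (f.comp (LL b r)) (b.repr.symm (r • v)) := by
      rw [ContinuousLinearMap.comp_apply, LL_apply, LinearIsometryEquiv.apply_symm_apply,
        inv_smul_smul₀ hr.ne']
    rw [h1]
    refine ((f.comp (LL b r)).le_opNorm _).trans_eq ?_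
    rw [LinearIsometryEquiv.norm_map, norm_smul, Real.norm_eq_abs, abs_of_pos hr]
    ring

lemma norm_fderiv2_comp_phi (hr : 0 < r) {U : Eu d → ℝ} (hU : ContDiff ℝ ∞ U) (x : V) :
    ‖fderiv ℝ (fderiv ℝ fun x => U (phi b x0 r x)) x‖ =
      r⁻¹ ^ 2 * ‖fderiv ℝ (fderiv ℝ U) (phi b x0 r x)‖ := by
  refine le_antisymm ?_ ?_
  · refine ContinuousLinearMap.opNorm_le_bound₂ _ (by positivity) fun v w => ?_
    rw [fderiv2_comp_phi hU]
    refine (ContinuousLinearMap.le_opNorm₂ _ _ _).trans_eq ?_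
    rw [norm_LL hr, norm_LL hr]
    ring
  · rw [inv_pow, inv_mul_le_iff₀ (by positivity)]
    refine ContinuousLinearMap.opNorm_le_bound₂ _ (by positivity) fun v w => ?_
    have h1 : ∀ v : Eu d, v = LL b r (b.repr.symm (r • v)) := by
      intro v
      rw [LL_apply, LinearIsometryEquiv.apply_symm_apply, inv_smul_smul₀ hr.ne']
    have h2 := fderiv2_comp_phi (b := b) (x0 := x0) (r := r) hU x (b.repr.symm (r • v))
      (b.repr.symm (r • w))
    rw [← h1, ← h1] at h2
    rw [← h2]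
    refine (ContinuousLinearMap.le_opNorm₂ _ _ _).trans_eq ?_
    rw [LinearIsometryEquiv.norm_map, LinearIsometryEquiv.norm_map, norm_smul, norm_smul,
      Real.norm_eq_abs, abs_of_pos hr]
    ring

/-! ### transfer of measures -/

/-- the rescaled measure -/
def mp (b : OrthonormalBasis (Fin d) ℝ V) (x0 : V) (r : ℝ) (A : Measure V) : Measure (Eu d) :=
  (A.restrict (ball x0 (4 * r))).map (phi b x0 r)

lemma mp_univ (hr : 0 < r) (A : Measure V) : mp b x0 r A univ = A (ball x0 (4 * r)) := by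
  unfold mp
  rw [(phi_emb hr).map_apply, preimage_univ, Measure.restrict_apply_univ]

lemma integral_mp (hr : 0 < r) (A : Measure V) (f : Eu d → ℝ) :
    ∫ y, f y ∂(mp b x0 r A) = ∫ x in ball x0 (4 * r), f (phi b x0 r x) ∂A := by
  unfold mp
  rw [(phi_emb hr).integral_map]

lemma mp_psi (hr : 0 < r) (A : Measure V) {S : Set V} (hS : MeasurableSet S)
    (hS1 : S ⊆ ball x0 r) : mp b x0 r A (psi b x0 r ⁻¹' S) = A S := by
  unfold mp
  rw [(phi_emb hr).map_apply, ← preimage_comp]
  have h1 : psi b x0 r ∘ phi b x0 r = id := by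
    funext x; exact psi_phi hr x
  rw [h1, preimage_id, Measure.restrict_apply hS, inter_eq_left.2]
  exact hS1.trans (ball_subset_ball (by linarith))

lemma vol_psi [FiniteDimensional ℝ V] (hr : 0 < r) (S : Set V) :
    volume.real (psi b x0 r ⁻¹' S) = volume.real S / r ^ d := by
  have h1 : psi b x0 r ⁻¹' S = (fun y : Eu d => r • y) ⁻¹' (b.repr.symm ⁻¹' ((fun x => x0 + x) ⁻¹' S)) :=
    rfl
  have h2 : MeasurePreserving (b.repr.symm : Eu d → V) := b.measurePreserving_repr_symm
  unfold Measure.real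
  rw [h1, Measure.addHaar_preimage_smul volume hr.ne', ENNReal.toReal_mul,
    ENNReal.toReal_ofReal (abs_nonneg _)]
  have h3 : volume (b.repr.symm ⁻¹' ((fun x => x0 + x) ⁻¹' S)) = volume ((fun x => x0 + x) ⁻¹' S) := by
    have h4 : MeasurableEmbedding (b.repr.symm : Eu d → V) :=
      b.repr.symm.toHomeomorph.measurableEmbedding
    exact h2.measure_preimage_emb h4 _
  rw [h3, measure_preimage_add, finrank_euclideanSpace, Fintype.card_fin, abs_of_pos (by positivity)]
  field_simp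

lemma setInt_of_tsupport {A : Measure V} {f : V → ℝ} {R : ℝ} (hf : ∀ x, x ∉ ball x0 R → f x = 0) :
    ∫ x in ball x0 R, f x ∂A = ∫ x, f x ∂A := by
  refine setIntegral_eq_integral_of_forall_compl_eq_zero fun x hx => hf x hx

end

end Crest.Agent.R234.Sc173
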