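import Mathlib
import Crest.Agent.R246.H2b1_622
import Crest.Agent.R216.ParamInt

/-!
Row 234, strong constancy lemma (helper173).  Part 1: the scale kernel.

`F = EuclideanSpace ℝ (Fin d)`, `eta` the radial mollifier of R246, `vk T` the compactly supported
smooth function with `Δ (vk T) = e^{dT} eta (e^T z) - eta z`.
-/

set_option autoImplicit false

open MeasureTheory Metric Set Filter Topology
open scoped ContDiff

namespace Crest.Agent.R234.Sc173

noncomputable section

open Crest.Agent.R246.H2x622 (Psi eta deta Psi_contDiff eta_contDiff deta_contDiff Psi_zero eta_zero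
  deta_zero hasFDerivAt_Psi hasFDerivAt_eta)

/-- the space -/
abbrev Eu (d : ℕ) := EuclideanSpace ℝ (Fin d)

/-- directional derivative -/
def Dd {d : ℕ} (a : Eu d) (v : Eu d → ℝ) : Eu d → ℝ := fun z => fderiv ℝ v z a

variable {d : ℕ}

lemma Dd_contDiff {a : Eu d} {v : Eu d → ℝ} (h : ContDiff ℝ ∞ v) : ContDiff ℝ ∞ (Dd a v) := by
  have h1 : ContDiff ℝ ∞ (fderiv ℝ v) := h.fderiv_right (by norm_cast)
  exact h1.clm_apply contDiff_const

lemma Dd_hasCompactSupport {a : Eu d} {v : Eu d → ℝ} (h : HasCompactSupport v) :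
    HasCompactSupport (Dd a v) := h.fderiv_apply ℝ a

lemma hasFDerivAt_param {W : Type*} [NormedAddCommGroup W] [NormedSpace ℝ W] [CompleteSpace W]
    {h : Eu d → ℝ → W} (hh : ContDiff ℝ ∞ (Function.uncurry h)) (a b : ℝ) (z : Eu d) :
    HasFDerivAt (fun z => ∫ t in a..b, h z t)
      (∫ t in a..b, fderiv ℝ (fun z => h z t) z) z := by
  have hc : Continuous (Function.uncurry h) := hh.continuous
  have hslice : ∀ t, ContDiff ℝ ∞ (fun z => h z t) := fun t =>
    hh.comp (contDiff_id.prodMk contDiff_const)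
  have hd' : ∀ (z : Eu d) (t : ℝ), fderiv ℝ (fun z => h z t) z =
      (fderiv ℝ (Function.uncurry h) (z, t)).comp (ContinuousLinearMap.inl ℝ (Eu d) ℝ) := by
    intro z t
    have h1 : HasFDerivAt (Function.uncurry h) (fderiv ℝ (Function.uncurry h) (z, t)) (z, t) :=
      (hh.differentiable (by simp) _).hasFDerivAt
    exact (HasFDerivAt.comp (f := fun e : Eu d => (e, t)) z h1 (hasFDerivAt_prodMk_left z t)).fderiv
  have hdc : Continuous (fun p : Eu d × ℝ => fderiv ℝ (fun z => h z p.2) p.1) := by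
    have h1 : Continuous (fderiv ℝ (Function.uncurry h)) := hh.continuous_fderiv (by simp)
    have h2 : Continuous (fun p : Eu d × ℝ =>
        (fderiv ℝ (Function.uncurry h) (p.1, p.2)).comp (ContinuousLinearMap.inl ℝ (Eu d) ℝ)) :=
      (h1.comp (continuous_fst.prodMk continuous_snd)).clm_comp continuous_const
    exact h2.congr fun p => (hd' p.1 p.2).symm
  obtain ⟨C, hC⟩ := ((isCompact_closedBall z 1).prod (isCompact_uIcc (a := a) (b := b))).exists_bound_of_continuousOn
    hdc.continuousOn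
  refine (intervalIntegral.hasFDerivAt_integral_of_dominated_of_fderiv_le (𝕜 := ℝ)
    (s := ball z 1) (bound := fun _ => C) (F := fun z t => h z t)
    (F' := fun z t => fderiv ℝ (fun z => h z t) z) (ball_mem_nhds z one_pos) ?_ ?_ ?_ ?_ ?_ ?_)
  · exact Eventually.of_forall fun x =>
      (hc.comp (continuous_const.prodMk continuous_id)).aestronglyMeasurable
  · exact (hc.comp (continuous_const.prodMk continuous_id)).intervalIntegrable _ _
  · exact (hdc.comp (continuous_const.prodMk continuous_id)).aestronglyMeasurable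
  · refine Eventually.of_forall fun t ht x hx => ?_
    exact hC (x, t) ⟨ball_subset_closedBall hx, uIoc_subset_uIcc ht⟩
  · exact intervalIntegrable_const
  · refine Eventually.of_forall fun t ht x hx => ?_
    exact ((hslice t).differentiable (by simp) x).hasFDerivAt

/-- directional derivatives of parameter integrals -/
lemma Dd_param {h : Eu d → ℝ → ℝ} (hh : ContDiff ℝ ∞ (Function.uncurry h)) (T : ℝ) (a z : Eu d) :
    Dd a (fun z => ∫ t in (0:ℝ)..T, h z t) z = ∫ t in (0:ℝ)..T, Dd a (fun z => h z t) z := by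
  have h1 := hasFDerivAt_param hh 0 T z
  unfold Dd
  rw [h1.fderiv]
  have hdc : Continuous (fun t : ℝ => fderiv ℝ (fun z => h z t) z) := by
    have h1 : Continuous (fderiv ℝ (Function.uncurry h)) := hh.continuous_fderiv (by simp)
    have h2 : Continuous (fun t : ℝ =>
        (fderiv ℝ (Function.uncurry h) (z, t)).comp (ContinuousLinearMap.inl ℝ (Eu d) ℝ)) :=
      (h1.comp (continuous_const.prodMk continuous_id)).clm_comp continuous_const
    refine h2.congr fun t => ?_
    have h1 : HasFDerivAt (Function.uncurry h) (fderiv ℝ (Function.uncurry h) (z, t)) (z, t) :=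
      (hh.differentiable (by simp) _).hasFDerivAt
    exact (HasFDerivAt.comp (f := fun e : Eu d => (e, t)) z h1
      (hasFDerivAt_prodMk_left z t)).fderiv.symm
  rw [ContinuousLinearMap.intervalIntegral_apply (hdc.intervalIntegrable _ _)]

/-- the scaled function -/
def sc (g : Eu d → ℝ) (m : ℝ) (t : ℝ) (z : Eu d) : ℝ := Real.exp (m * t) * g (Real.exp t • z)

/-- scale integrals -/
def SI (g : Eu d → ℝ) (m T : ℝ) (z : Eu d) : ℝ := ∫ t in (0:ℝ)..T, sc g m t z

lemma sc_contDiff {g : Eu d → ℝ} (hg : ContDiff ℝ ∞ g) (m : ℝ) :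
    ContDiff ℝ ∞ (Function.uncurry fun (z : Eu d) (t : ℝ) => sc g m t z) := by
  have h1 : ContDiff ℝ ∞ (fun p : Eu d × ℝ => Real.exp (m * p.2)) :=
    Real.contDiff_exp.comp (contDiff_const.mul contDiff_snd)
  have h2 : ContDiff ℝ ∞ (fun p : Eu d × ℝ => Real.exp p.2 • p.1) :=
    (Real.contDiff_exp.comp contDiff_snd).smul contDiff_fst
  exact h1.mul (hg.comp h2)

lemma SI_contDiff {g : Eu d → ℝ} (hg : ContDiff ℝ ∞ g) (m T : ℝ) : ContDiff ℝ ∞ (SI g m T) :=
  Crest.Agent.R216.contDiff_param_integral (n := ⊤) 0 T (sc_contDiff hg m)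

lemma Dd_sc {g : Eu d → ℝ} (hg : ContDiff ℝ ∞ g) (m t : ℝ) (a z : Eu d) :
    Dd a (fun z => sc g m t z) z = sc (Dd a g) (m + 1) t z := by
  have h1 : HasFDerivAt (fun z : Eu d => Real.exp t • z)
      (Real.exp t • ContinuousLinearMap.id ℝ (Eu d)) z :=
    (Real.exp t • ContinuousLinearMap.id ℝ (Eu d)).hasFDerivAt
  have h2 : HasFDerivAt g (fderiv ℝ g (Real.exp t • z)) (Real.exp t • z) :=
    (hg.differentiable (by simp) _).hasFDerivAt
  have h3 := (h2.comp z h1).const_mul (Real.exp (m * t))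
  unfold Dd sc
  have h4 := h3.fderiv
  simp only [Function.comp_def] at h4
  rw [h4]
  simp only [_root_.smul_apply, ContinuousLinearMap.comp_apply,
    ContinuousLinearMap.id_apply, map_smul, smul_eq_mul]
  rw [show (m + 1) * t = m * t + t by ring, Real.exp_add]
  ring

lemma Dd_SI {g : Eu d → ℝ} (hg : ContDiff ℝ ∞ g) (m T : ℝ) (a : Eu d) :
    Dd a (SI g m T) = SI (Dd a g) (m + 1) T := by
  funext z
  unfold SI
  rw [Dd_param (sc_contDiff hg m) T a z]
  refine intervalIntegral.integral_congr fun t _ => ?_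
  exact Dd_sc hg m t a z

lemma sc_zero {g : Eu d → ℝ} (hg : ∀ y : Eu d, 1 < ‖y‖ → g y = 0) {m t : ℝ} {z : Eu d}
    (hz : 1 < Real.exp t * ‖z‖) : sc g m t z = 0 := by
  unfold sc
  rw [hg _ (by rwa [norm_smul, Real.norm_eq_abs, abs_of_pos (Real.exp_pos t)]), mul_zero]

lemma SI_zero {g : Eu d → ℝ} (hg : ∀ y : Eu d, 1 < ‖y‖ → g y = 0) {m T : ℝ} (hT : 0 ≤ T) {z : Eu d}
    (hz : 1 < ‖z‖) : SI g m T z = 0 := by
  unfold SI
  rw [intervalIntegral.integral_congr (g := fun _ => (0:ℝ)), intervalIntegral.integral_zero]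
  intro t ht
  rw [uIcc_of_le hT] at ht
  have h1 : 1 ≤ Real.exp t := Real.one_le_exp ht.1
  exact sc_zero hg (by nlinarith [norm_nonneg z])

lemma SI_hasCompactSupport {g : Eu d → ℝ} (hg : ∀ y : Eu d, 1 < ‖y‖ → g y = 0) {m T : ℝ}
    (hT : 0 ≤ T) : HasCompactSupport (SI g m T) := by
  refine HasCompactSupport.intro (isCompact_closedBall (0 : Eu d) 1) fun z hz => ?_
  refine SI_zero hg hT ?_
  simpa using hz

/-- integral of a scaled function -/
lemma integral_abs_sc {g : Eu d → ℝ} (m t : ℝ) :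
    ∫ z, |sc g m t z| = Real.exp ((m - d) * t) * ∫ z, |g z| := by
  unfold sc
  have h1 : ∀ z : Eu d, |Real.exp (m * t) * g (Real.exp t • z)| =
      Real.exp (m * t) * |g (Real.exp t • z)| := by
    intro z; rw [abs_mul, abs_of_pos (Real.exp_pos _)]
  simp_rw [h1]
  rw [integral_const_mul, Measure.integral_comp_smul volume (fun z => |g z|) (Real.exp t)]
  simp only [finrank_euclideanSpace, Fintype.card_fin, smul_eq_mul]
  rw [abs_of_pos (by positivity), ← Real.exp_nat_mul, ← Real.exp_neg, ← mul_assoc, ← Real.exp_add]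
  congr 2
  ring

/-! ### Fubini for scale integrals -/

lemma integrable_prod {H : Eu d × ℝ → ℝ} (hH : Continuous H) {T R : ℝ}
    (h0 : ∀ z t, t ∈ Icc (0:ℝ) T → R < ‖z‖ → H (z, t) = 0) :
    Integrable H ((volume : Measure (Eu d)).prod ((volume : Measure ℝ).restrict (Ioc 0 T))) := by
  have hK : IsCompact (closedBall (0 : Eu d) R ×ˢ Icc (0:ℝ) T) :=
    (isCompact_closedBall _ _).prod isCompact_Icc
  have h1 : IntegrableOn H (closedBall (0 : Eu d) R ×ˢ Icc (0:ℝ) T)
      ((volume : Measure (Eu d)).prod (volume : Measure ℝ)) :=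
    hH.continuousOn.integrableOn_compact hK
  have h2 : IntegrableOn H (closedBall (0 : Eu d) R ×ˢ Ioc (0:ℝ) T)
      ((volume : Measure (Eu d)).prod (volume : Measure ℝ)) :=
    h1.mono_set (prod_mono le_rfl Ioc_subset_Icc_self)
  have h3 : IntegrableOn H (univ ×ˢ Ioc (0:ℝ) T)
      ((volume : Measure (Eu d)).prod (volume : Measure ℝ)) := by
    refine h2.of_forall_sdiff_eq_zero (MeasurableSet.univ.prod measurableSet_Ioc) ?_
    rintro ⟨z, t⟩ ⟨⟨_, ht⟩, hn⟩
    refine h0 z t (Ioc_subset_Icc_self ht) ?_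
    by_contra hz
    exact hn ⟨by simpa using not_lt.1 hz, ht⟩
  rw [IntegrableOn, ← Measure.prod_restrict, Measure.restrict_univ] at h3
  exact h3

lemma sc_continuous {g : Eu d → ℝ} (hg : Continuous g) (m : ℝ) :
    Continuous (fun p : Eu d × ℝ => sc g m p.2 p.1) := by
  unfold sc
  fun_prop

lemma integral_abs_SI_le {g : Eu d → ℝ} (hg : Continuous g) (h0 : ∀ y : Eu d, 1 < ‖y‖ → g y = 0)
    {m T : ℝ} (hT : 0 ≤ T) :
    ∫ z, |SI g m T z| ≤ (∫ t in (0:ℝ)..T, Real.exp ((m - d) * t)) * ∫ z, |g z| := by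
  have hc := (sc_continuous hg m).abs
  have hint : Integrable (fun p : Eu d × ℝ => |sc g m p.2 p.1|)
      ((volume : Measure (Eu d)).prod ((volume : Measure ℝ).restrict (Ioc 0 T))) := by
    refine integrable_prod (R := 1) hc fun z t ht hz => ?_
    have h1 : 1 ≤ Real.exp t := Real.one_le_exp ht.1
    simp [sc_zero h0 (m := m) (t := t) (z := z) (by nlinarith [norm_nonneg z])]
  calc ∫ z, |SI g m T z| ≤ ∫ z, ∫ t in Ioc (0:ℝ) T, |sc g m t z| := by
        refine integral_mono_of_nonneg (Eventually.of_forall fun z => abs_nonneg _)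
          hint.integral_prod_left (Eventually.of_forall fun z => ?_)
        have h2 := intervalIntegral.norm_integral_le_integral_norm (f := fun t => sc g m t z)
          (μ := volume) hT
        simpa [SI, intervalIntegral.integral_of_le hT, Real.norm_eq_abs] using h2
    _ = ∫ t in Ioc (0:ℝ) T, ∫ z, |sc g m t z| := integral_integral_swap hint
    _ = (∫ t in (0:ℝ)..T, Real.exp ((m - d) * t)) * ∫ z, |g z| := by
        simp_rw [integral_abs_sc]
        rw [integral_mul_const, intervalIntegral.integral_of_le hT]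

/-- Fubini for convolutions with scale integrals -/
lemma conv_SI {g : Eu d → ℝ} (hg : Continuous g) (h0 : ∀ y : Eu d, 1 < ‖y‖ → g y = 0)
    {m T : ℝ} (hT : 0 ≤ T) {w : Eu d → ℝ} (hw : Measurable w) (hw1 : ∀ x, |w x| ≤ 1) (y : Eu d) :
    ∫ x, w x * SI g m T (y - x) = ∫ t in (0:ℝ)..T, ∫ x, w x * sc g m t (y - x) := by
  have hc : Continuous (fun p : Eu d × ℝ => sc g m p.2 (y - p.1)) :=
    (sc_continuous hg m).comp ((continuous_const.sub continuous_fst).prodMk continuous_snd)
  have hint0 : Integrable (fun p : Eu d × ℝ => sc g m p.2 (y - p.1))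
      ((volume : Measure (Eu d)).prod ((volume : Measure ℝ).restrict (Ioc 0 T))) := by
    refine integrable_prod (R := 1 + ‖y‖) hc fun z t ht hz => ?_
    have h1 : 1 ≤ Real.exp t := Real.one_le_exp ht.1
    have h2 : 1 < ‖y - z‖ := by
      have := norm_sub_norm_le z y
      rw [norm_sub_rev] at this
      linarith
    exact sc_zero h0 (by nlinarith)
  have hint : Integrable (fun p : Eu d × ℝ => w p.1 * sc g m p.2 (y - p.1))
      ((volume : Measure (Eu d)).prod ((volume : Measure ℝ).restrict (Ioc 0 T))) := by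
    refine hint0.bdd_mul (c := 1) (hw.comp measurable_fst).aestronglyMeasurable ?_
    exact Eventually.of_forall fun p => by simpa using hw1 p.1
  have h1 : ∀ x, w x * SI g m T (y - x) = ∫ t in Ioc (0:ℝ) T, w x * sc g m t (y - x) := by
    intro x
    rw [integral_const_mul, SI, intervalIntegral.integral_of_le hT]
  simp_rw [h1]
  rw [intervalIntegral.integral_of_le hT]
  exact integral_integral_swap hint

end

end Crest.Agent.R234.Sc173
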