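import Crest.Agent.R234.Sc1_173

/-!
Row 234, strong constancy lemma (helper173).  Part 2: oscillation of the second derivatives away from
the support, and the kernel `vk T`.
-/

set_option autoImplicit false

open MeasureTheory Metric Set Filter Topology
open scoped ContDiff

namespace Crest.Agent.R234.Sc173

noncomputable section

open Crest.Agent.R246.H2x622 (Psi eta deta Psi_contDiff eta_contDiff deta_contDiff Psi_zero eta_zero
  deta_zero hasFDerivAt_Psi hasFDerivAt_eta G1_nonneg)

variable {d : ℕ}

/-- volume of the unit ball -/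
def om (d : ℕ) : ℝ := (volume (ball (0 : Eu d) 1)).toReal

lemma om_nonneg : 0 ≤ om d := ENNReal.toReal_nonneg

lemma vol_closedBall (x : Eu d) {r : ℝ} (hr : 0 ≤ r) :
    (volume (closedBall x r)).toReal = r ^ d * om d := by
  rw [Measure.addHaar_closedBall _ _ hr, ENNReal.toReal_mul, ENNReal.toReal_ofReal (by positivity)]
  simp [om, finrank_euclideanSpace]

/-- one scale -/
lemma osc_one {g : Eu d → ℝ} (hg : Continuous g) (h0 : ∀ y : Eu d, 1 < ‖y‖ → g y = 0)
    {L : ℝ} (hL : ∀ x y : Eu d, |g x - g y| ≤ L * ‖x - y‖)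
    {w : Eu d → ℝ} (hw : Measurable w) (hw1 : ∀ x, |w x| ≤ 1) {y y' : Eu d} {t : ℝ} :
    |(∫ x, w x * sc g d t (y - x)) - ∫ x, w x * sc g d t (y' - x)| ≤
      2 * L * om d * Real.exp t * ‖y - y'‖ := by
  have hcont : ∀ y : Eu d, Continuous fun x => sc g d t (y - x) := fun y =>
    (sc_continuous hg (d:ℝ)).comp ((continuous_const.sub continuous_id).prodMk continuous_const)
  have hL0 : 0 ≤ L * ‖y - y'‖ := (abs_nonneg _).trans (hL y y')
  have hsupp : ∀ y x : Eu d, x ∉ closedBall y (Real.exp (-t)) → sc g d t (y - x) = 0 := by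
    intro y x hx
    rw [mem_closedBall, dist_eq_norm, norm_sub_rev, not_le] at hx
    refine sc_zero h0 ?_
    have : Real.exp t * Real.exp (-t) = 1 := by rw [← Real.exp_add]; simp
    have h2 := mul_lt_mul_of_pos_left hx (Real.exp_pos t)
    rwa [this] at h2
  have hint : ∀ y : Eu d, Integrable fun x => w x * sc g d t (y - x) := by
    intro y
    refine Integrable.bdd_mul (c := 1) ?_ hw.aestronglyMeasurable
      (Eventually.of_forall fun p => by simpa using hw1 p)
    exact (hcont y).integrable_of_hasCompactSupport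
      (HasCompactSupport.intro (isCompact_closedBall y (Real.exp (-t))) (hsupp y))
  rw [← integral_sub (hint y) (hint y')]
  set S : Set (Eu d) := closedBall y (Real.exp (-t)) ∪ closedBall y' (Real.exp (-t)) with hS
  have hSm : MeasurableSet S := measurableSet_closedBall.union measurableSet_closedBall
  have hSf : volume S < ⊤ := (measure_union_le _ _).trans_lt
    (ENNReal.add_lt_top.2 ⟨measure_closedBall_lt_top, measure_closedBall_lt_top⟩)
  have h1 : ∫ x, (w x * sc g d t (y - x) - w x * sc g d t (y' - x)) =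
      ∫ x in S, (w x * sc g d t (y - x) - w x * sc g d t (y' - x)) := by
    rw [setIntegral_eq_integral_of_forall_compl_eq_zero]
    intro x hx
    rw [hS, mem_union, not_or] at hx
    rw [hsupp y x hx.1, hsupp y' x hx.2]; ring
  rw [h1]
  have h2 : ‖∫ x in S, (w x * sc g d t (y - x) - w x * sc g d t (y' - x))‖ ≤
      (Real.exp (d * t) * (L * (Real.exp t * ‖y - y'‖))) * (volume S).toReal := by
    refine norm_setIntegral_le_of_norm_le_const hSf fun x _ => ?_
    rw [← mul_sub, norm_mul, Real.norm_eq_abs, Real.norm_eq_abs]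
    have h3 : |sc g d t (y - x) - sc g d t (y' - x)| ≤
        Real.exp (d * t) * (L * (Real.exp t * ‖y - y'‖)) := by
      unfold sc
      rw [← mul_sub, abs_mul, abs_of_pos (Real.exp_pos _)]
      refine mul_le_mul_of_nonneg_left ?_ (Real.exp_pos _).le
      refine (hL _ _).trans_eq ?_
      rw [← smul_sub, norm_smul, Real.norm_eq_abs, abs_of_pos (Real.exp_pos t)]
      congr 3
      abel
    calc |w x| * |sc g d t (y - x) - sc g d t (y' - x)|
        ≤ 1 * (Real.exp (d * t) * (L * (Real.exp t * ‖y - y'‖))) :=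
          mul_le_mul (hw1 x) h3 (abs_nonneg _) zero_le_one
      _ = _ := one_mul _
  have h4 : (volume S).toReal ≤ 2 * (Real.exp (-t) ^ d * om d) := by
    calc (volume S).toReal ≤ (volume (closedBall y (Real.exp (-t))) +
          volume (closedBall y' (Real.exp (-t)))).toReal :=
          ENNReal.toReal_mono (by
            exact ENNReal.add_ne_top.2 ⟨measure_closedBall_lt_top.ne, measure_closedBall_lt_top.ne⟩)
            (measure_union_le _ _)
      _ = _ := by
          rw [ENNReal.toReal_add measure_closedBall_lt_top.ne measure_closedBall_lt_top.ne,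
            vol_closedBall _ (Real.exp_pos _).le, vol_closedBall _ (Real.exp_pos _).le]
          ring
  rw [Real.norm_eq_abs] at h2
  refine h2.trans ?_
  have h5 : 0 ≤ Real.exp (d * t) * (L * (Real.exp t * ‖y - y'‖)) := by
    have : L * (Real.exp t * ‖y - y'‖) = Real.exp t * (L * ‖y - y'‖) := by ring
    rw [this]; positivity
  refine (mul_le_mul_of_nonneg_left h4 h5).trans_eq ?_
  have h6 : Real.exp (d * t) * Real.exp (-t) ^ d = 1 := by
    rw [← Real.exp_nat_mul, ← Real.exp_add]
    have : (d:ℝ) * t + d * -t = 0 := by ring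
    rw [this, Real.exp_zero]
  calc Real.exp (d * t) * (L * (Real.exp t * ‖y - y'‖)) * (2 * (Real.exp (-t) ^ d * om d))
      = (Real.exp (d * t) * Real.exp (-t) ^ d) * (2 * L * om d * Real.exp t * ‖y - y'‖) := by ring
    _ = _ := by rw [h6, one_mul]

/-- **oscillation away from the support** -/
lemma osc_SI {g : Eu d → ℝ} (hg : Continuous g) (h0 : ∀ y : Eu d, 1 < ‖y‖ → g y = 0)
    {L : ℝ} (hL0 : 0 ≤ L) (hL : ∀ x y : Eu d, |g x - g y| ≤ L * ‖x - y‖)
    {w : Eu d → ℝ} (hw : Measurable w) (hw1 : ∀ x, |w x| ≤ 1) {y y' : Eu d} {r T : ℝ} (hr : 0 < r)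
    (hT : 0 ≤ T) (hy : ∀ x, w x ≠ 0 → r ≤ ‖y - x‖) (hy' : ∀ x, w x ≠ 0 → r ≤ ‖y' - x‖) :
    |(∫ x, w x * SI g d T (y - x)) - ∫ x, w x * SI g d T (y' - x)| ≤
      2 * L * om d * ‖y - y'‖ / r := by
  rw [conv_SI hg h0 hT hw hw1, conv_SI hg h0 hT hw hw1]
  set W : Eu d → ℝ → ℝ := fun y t => ∫ x, w x * sc g d t (y - x) with hW
  -- for large `t` the integrand vanishes
  have hz : ∀ y : Eu d, (∀ x, w x ≠ 0 → r ≤ ‖y - x‖) → ∀ t, 1 < Real.exp t * r → W y t = 0 := by
    intro y hy t ht
    rw [hW]
    simp only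
    rw [integral_eq_zero_of_ae]
    refine Eventually.of_forall fun x => ?_
    simp only [Pi.zero_apply, mul_eq_zero]
    by_cases h : w x = 0
    · exact Or.inl h
    · refine Or.inr (sc_zero h0 ?_)
      have := mul_le_mul_of_nonneg_left (hy x h) (Real.exp_pos t).le
      linarith
  have hbd : ∀ t, |W y t - W y' t| ≤ 2 * L * om d * Real.exp t * ‖y - y'‖ := fun t =>
    osc_one hg h0 hL hw hw1
  have hiv : ∀ y : Eu d, IntervalIntegrable (W y) volume 0 T := by
    intro y
    have hc : Continuous (fun p : Eu d × ℝ => sc g d p.2 (y - p.1)) :=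
      (sc_continuous hg (d:ℝ)).comp ((continuous_const.sub continuous_fst).prodMk continuous_snd)
    have hint0 : Integrable (fun p : Eu d × ℝ => sc g d p.2 (y - p.1))
        ((volume : Measure (Eu d)).prod ((volume : Measure ℝ).restrict (Ioc 0 T))) := by
      refine integrable_prod (R := 1 + ‖y‖) hc fun z t ht hz => ?_
      have h1 : 1 ≤ Real.exp t := Real.one_le_exp ht.1
      have h2 : 1 < ‖y - z‖ := by
        have := norm_sub_norm_le z y
        rw [norm_sub_rev] at this
        linarith
      exact sc_zero h0 (by nlinarith)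
    have hint : Integrable (fun p : Eu d × ℝ => w p.1 * sc g d p.2 (y - p.1))
        ((volume : Measure (Eu d)).prod ((volume : Measure ℝ).restrict (Ioc 0 T))) := by
      refine hint0.bdd_mul (c := 1) (hw.comp measurable_fst).aestronglyMeasurable ?_
      exact Eventually.of_forall fun p => by simpa using hw1 p.1
    rw [intervalIntegrable_iff_integrableOn_Ioc_of_le hT]
    exact hint.integral_prod_right
  rw [← intervalIntegral.integral_sub (hiv y) (hiv y')]
  have hK0 : 0 ≤ 2 * L * om d * ‖y - y'‖ := by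
    have := @om_nonneg d
    positivity
  -- cut at `ln (1/r)`
  set τ : ℝ := max 0 (min T (-Real.log r)) with hτ
  have hτ0 : 0 ≤ τ := le_max_left _ _
  have hτT : τ ≤ T := max_le hT (min_le_left _ _)
  have hsub : ∀ a b, 0 ≤ a → a ≤ b → b ≤ T → IntervalIntegrable (fun t => W y t - W y' t) volume a b := by
    intro a b ha hab hb
    refine ((hiv y).sub (hiv y')).mono_set ?_
    rw [uIcc_of_le hab, uIcc_of_le hT]
    exact Icc_subset_Icc ha hb
  have hsplit : ∫ t in (0:ℝ)..T, (W y t - W y' t) = (∫ t in (0:ℝ)..τ, (W y t - W y' t)) +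
      ∫ t in τ..T, (W y t - W y' t) :=
    (intervalIntegral.integral_add_adjacent_intervals (hsub 0 τ le_rfl hτ0 hτT)
      (hsub τ T hτ0 hτT le_rfl)).symm
  have hsec : ∫ t in τ..T, (W y t - W y' t) = 0 := by
    rw [intervalIntegral.integral_of_le hτT]
    refine setIntegral_eq_zero_of_forall_eq_zero fun t ht => ?_
    have h1 : τ < t := ht.1
    have h2 : -Real.log r < t := by
      by_contra hcon
      push Not at hcon
      have h3 : min T (-Real.log r) ≤ τ := le_max_right _ _
      rcases min_le_iff.1 h3 with h | h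
      · linarith [ht.2]
      · linarith
    have h3 : 1 < Real.exp t * r := by
      have h4 : Real.exp (-Real.log r) < Real.exp t := Real.exp_lt_exp.2 h2
      rw [Real.exp_neg, Real.exp_log hr] at h4
      have h5 := mul_lt_mul_of_pos_right h4 hr
      rwa [inv_mul_cancel₀ hr.ne'] at h5
    rw [hz y hy t h3, hz y' hy' t h3, sub_zero]
  rw [hsplit, hsec, add_zero]
  have h7 : |∫ t in (0:ℝ)..τ, (W y t - W y' t)| ≤
      ∫ t in (0:ℝ)..τ, 2 * L * om d * Real.exp t * ‖y - y'‖ := by
    have h8 := intervalIntegral.norm_integral_le_of_norm_le (f := fun t => W y t - W y' t)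
      (g := fun t => 2 * L * om d * Real.exp t * ‖y - y'‖) (μ := volume) hτ0
      (Eventually.of_forall fun t _ => hbd t)
      (Continuous.intervalIntegrable (by fun_prop) _ _)
    simpa using h8
  refine h7.trans ?_
  have h9 : ∫ t in (0:ℝ)..τ, 2 * L * om d * Real.exp t * ‖y - y'‖ =
      2 * L * om d * ‖y - y'‖ * (Real.exp τ - 1) := by
    have : ∀ t, 2 * L * om d * Real.exp t * ‖y - y'‖ = (2 * L * om d * ‖y - y'‖) * Real.exp t := by
      intro t; ring
    simp_rw [this]
    rw [intervalIntegral.integral_const_mul, integral_exp, Real.exp_zero]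
  rw [h9, div_eq_mul_inv]
  refine mul_le_mul_of_nonneg_left ?_ hK0
  rcases le_total (min T (-Real.log r)) 0 with h | h
  · rw [hτ, max_eq_left h, Real.exp_zero, sub_self]
    positivity
  · rw [hτ, max_eq_right h]
    have h10 : Real.exp (min T (-Real.log r)) ≤ r⁻¹ := by
      calc Real.exp (min T (-Real.log r)) ≤ Real.exp (-Real.log r) :=
            Real.exp_le_exp.2 (min_le_right _ _)
        _ = r⁻¹ := by rw [Real.exp_neg, Real.exp_log hr]
    linarith

end

end Crest.Agent.R234.Sc173
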