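import Crest.Agent.R234.Sc2_173

/-!
Row 234, strong constancy lemma (helper173).  Part 3: the kernel `vk T`, convolutions, the `L²` identity.
-/

set_option autoImplicit false

open MeasureTheory Metric Set Filter Topology
open scoped ContDiff

namespace Crest.Agent.R234.Sc173

noncomputable section

open Crest.Agent.R246.H2x622 (Psi eta deta Psi_contDiff eta_contDiff deta_contDiff Psi_zero eta_zero
  deta_zero hasFDerivAt_Psi hasFDerivAt_eta G1_nonneg)

variable {d : ℕ}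

/-- standard basis vectors -/
abbrev ee (i : Fin d) : Eu d := EuclideanSpace.single i (1:ℝ)

/-- Laplacian -/
def Lap (U : Eu d → ℝ) (z : Eu d) : ℝ := ∑ i, Dd (ee i) (Dd (ee i) U) z

lemma Dd_zero {a : Eu d} {v : Eu d → ℝ} {R : ℝ} (h : ∀ y : Eu d, R < ‖y‖ → v y = 0) :
    ∀ y : Eu d, R < ‖y‖ → Dd a v y = 0 := by
  intro y hy
  have h1 : v =ᶠ[𝓝 y] fun _ => 0 := by
    have : {z : Eu d | R < ‖z‖} ∈ 𝓝 y := (isOpen_lt continuous_const continuous_norm).mem_nhds hy
    filter_upwards [this] with z hz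
    exact h z hz
  unfold Dd
  rw [h1.fderiv_eq]
  simp

lemma Dd_comm {U : Eu d → ℝ} (hU : ContDiff ℝ ∞ U) (a b z : Eu d) :
    Dd a (Dd b U) z = Dd b (Dd a U) z := by
  have key : ∀ a b : Eu d, Dd a (Dd b U) z = fderiv ℝ (fderiv ℝ U) z a b := by
    intro a b
    have h1 : DifferentiableAt ℝ (fderiv ℝ U) z :=
      (hU.fderiv_right (m := ∞) (by norm_cast)).differentiable (by simp) z
    have h2 : HasFDerivAt (fun y => fderiv ℝ U y b)
        ((ContinuousLinearMap.apply ℝ ℝ b).comp (fderiv ℝ (fderiv ℝ U) z)) z :=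
      (ContinuousLinearMap.apply ℝ ℝ b).hasFDerivAt.comp z h1.hasFDerivAt
    unfold Dd
    rw [h2.fderiv]
    simp
  rw [key, key]
  have hsym : IsSymmSndFDerivAt ℝ U z := by
    refine hU.contDiffAt.isSymmSndFDerivAt ?_
    simp only [minSmoothness_of_isRCLikeNormedField]
    exact WithTop.coe_le_coe.2 (le_top : (2:ℕ∞) ≤ ⊤)
  exact hsym.eq a b

lemma Dd_Dd_eq {U : Eu d → ℝ} (hU : ContDiff ℝ ∞ U) (a b z : Eu d) :
    Dd a (Dd b U) z = fderiv ℝ (fderiv ℝ U) z a b := by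
  have h1 : DifferentiableAt ℝ (fderiv ℝ U) z :=
    (hU.fderiv_right (m := ∞) (by norm_cast)).differentiable (by simp) z
  have h2 : HasFDerivAt (fun y => fderiv ℝ U y b)
      ((ContinuousLinearMap.apply ℝ ℝ b).comp (fderiv ℝ (fderiv ℝ U) z)) z :=
    (ContinuousLinearMap.apply ℝ ℝ b).hasFDerivAt.comp z h1.hasFDerivAt
  unfold Dd
  rw [h2.fderiv]
  simp

/-- integration by parts -/
lemma ibp {f g : Eu d → ℝ} (hf : ContDiff ℝ ∞ f) (hg : ContDiff ℝ ∞ g) (hfc : HasCompactSupport f)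
    (a : Eu d) : ∫ x, f x * Dd a g x = - ∫ x, Dd a f x * g x := by
  have h1 : ∀ {p q : Eu d → ℝ}, ContDiff ℝ ∞ p → ContDiff ℝ ∞ q → HasCompactSupport p →
      Integrable (fun x => p x * q x) := by
    intro p q hp hq hpc
    exact (hp.continuous.mul hq.continuous).integrable_of_hasCompactSupport hpc.mul_right
  exact integral_mul_fderiv_eq_neg_fderiv_mul_of_integrable
    (h1 (Dd_contDiff hf) hg (Dd_hasCompactSupport hfc)) (h1 hf (Dd_contDiff hg) hfc) (h1 hf hg hfc)
    (fun x _ => hf.differentiable (by simp) x) (fun x _ => hg.differentiable (by simp) x)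

/-- **`L²` identity** -/
lemma l2_id {U : Eu d → ℝ} (hU : ContDiff ℝ ∞ U) (hc : HasCompactSupport U) :
    ∑ i, ∑ j, ∫ x, (Dd (ee i) (Dd (ee j) U) x) ^ 2 = ∫ x, (Lap U x) ^ 2 := by
  have key : ∀ i j : Fin d, ∫ x, (Dd (ee i) (Dd (ee j) U) x) ^ 2 =
      ∫ x, Dd (ee j) (Dd (ee j) U) x * Dd (ee i) (Dd (ee i) U) x := by
    intro i j
    have hj := Dd_contDiff (a := ee j) hU
    have hi := Dd_contDiff (a := ee i) hU
    have h1 : ∫ x, (Dd (ee i) (Dd (ee j) U) x) ^ 2 =
        ∫ x, Dd (ee i) (Dd (ee j) U) x * Dd (ee i) (Dd (ee j) U) x := by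
      simp_rw [pow_two]
    have h2 := ibp (f := Dd (ee i) (Dd (ee j) U)) (g := Dd (ee j) U) (Dd_contDiff hj) hj
      (Dd_hasCompactSupport (Dd_hasCompactSupport hc)) (ee i)
    have h3 := ibp (f := Dd (ee i) (Dd (ee i) U)) (g := Dd (ee j) U) (Dd_contDiff hi) hj
      (Dd_hasCompactSupport (Dd_hasCompactSupport hc)) (ee j)
    have h4 : ∀ x, Dd (ee i) (Dd (ee i) (Dd (ee j) U)) x = Dd (ee j) (Dd (ee i) (Dd (ee i) U)) x := by
      intro x
      have h5 : Dd (ee i) (Dd (ee j) U) = Dd (ee j) (Dd (ee i) U) := by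
        funext z; exact Dd_comm hU _ _ z
      rw [h5]
      exact Dd_comm hi _ _ x
    rw [h1, h2]
    simp_rw [h4]
    rw [← h3]
    refine integral_congr_ae (Eventually.of_forall fun x => ?_)
    simp only
    ring
  simp_rw [key]
  unfold Lap
  simp_rw [pow_two, Finset.sum_mul_sum]
  have hint : ∀ i j : Fin d, Integrable fun x =>
      Dd (ee i) (Dd (ee i) U) x * Dd (ee j) (Dd (ee j) U) x := by
    intro i j
    exact ((Dd_contDiff (Dd_contDiff hU)).continuous.mul
      (Dd_contDiff (Dd_contDiff hU)).continuous).integrable_of_hasCompactSupport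
      (Dd_hasCompactSupport (Dd_hasCompactSupport hc)).mul_right
  rw [integral_finsetSum _ fun i _ => integrable_finsetSum _ fun j _ => hint i j]
  rw [Finset.sum_comm]
  refine Finset.sum_congr rfl fun i _ => ?_
  rw [integral_finsetSum _ fun j _ => hint i j]

/-! ### the kernel -/

/-- potential of `y η(y)` -/
def g0 (y : Eu d) : ℝ := - Psi y

lemma g0_contDiff : ContDiff ℝ ∞ (g0 : Eu d → ℝ) := Psi_contDiff.neg

lemma notMem_of_norm {y : Eu d} (h : 1 < ‖y‖) : y ∉ closedBall (0 : Eu d) 1 := by simpa using h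

lemma g0_zero : ∀ y : Eu d, 1 < ‖y‖ → g0 y = 0 := fun y hy => by
  simp [g0, Psi_zero (notMem_of_norm hy)]

lemma Dd_g0 (b : Eu d) : Dd b g0 = fun y => eta y * inner ℝ y b := by
  funext y
  have h := (hasFDerivAt_Psi (F := Eu d) y).neg
  unfold Dd
  have h2 : fderiv ℝ (g0 : Eu d → ℝ) y = -(-(eta y • innerSL ℝ y)) := h.fderiv
  rw [h2]
  simp

lemma Dd_Dd_g0 (a b y : Eu d) :
    Dd a (Dd b g0) y = deta y a * inner ℝ y b + eta y * inner ℝ a b := by
  rw [Dd_g0]
  have h1 := (hasFDerivAt_eta (F := Eu d) y)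
  have h2 : HasFDerivAt (fun y : Eu d => inner ℝ y b) (innerSL ℝ b) y := by
    refine ((innerSL ℝ b).hasFDerivAt (x := y)).congr_of_eventuallyEq
      (Eventually.of_forall fun z => ?_)
    simp only [innerSL_apply_apply]
    exact real_inner_comm _ _
  have h3 := h1.mul h2
  unfold Dd
  have h4 := h3.fderiv
  simp only [Pi.mul_def] at h4
  rw [h4]
  simp only [_root_.add_apply, _root_.smul_apply, smul_eq_mul, innerSL_apply_apply]
  rw [real_inner_comm a b]
  ring

/-- the kernel -/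
def vk (T : ℝ) : Eu d → ℝ := SI g0 ((d:ℝ) - 2) T

lemma vk_contDiff (T : ℝ) : ContDiff ℝ ∞ (vk T : Eu d → ℝ) := SI_contDiff g0_contDiff _ _

lemma vk_zero {T : ℝ} (hT : 0 ≤ T) : ∀ y : Eu d, 1 < ‖y‖ → vk T y = 0 := fun _ hy =>
  SI_zero g0_zero hT hy

lemma vk_hasCompactSupport {T : ℝ} (hT : 0 ≤ T) : HasCompactSupport (vk T : Eu d → ℝ) :=
  SI_hasCompactSupport g0_zero hT

lemma Dd_vk (T : ℝ) (b : Eu d) : Dd b (vk T) = SI (Dd b g0) ((d:ℝ) - 1) T := by
  unfold vk
  rw [Dd_SI g0_contDiff]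
  congr 1
  ring

lemma Dd_Dd_vk (T : ℝ) (a b : Eu d) : Dd a (Dd b (vk T)) = SI (Dd a (Dd b g0)) (d:ℝ) T := by
  rw [Dd_vk, Dd_SI (Dd_contDiff g0_contDiff)]
  congr 1
  ring

/-- the mollifier at scale `e^{-t}` -/
def mo (t : ℝ) : Eu d → ℝ := sc eta (d:ℝ) t

lemma sum_Dd_Dd_g0 (y : Eu d) :
    ∑ i : Fin d, Dd (ee i) (Dd (ee i) g0) y = deta y y + d * eta y := by
  simp_rw [Dd_Dd_g0]
  rw [Finset.sum_add_distrib]
  congr 1
  · have h1 : ∑ i : Fin d, (inner ℝ y (ee i)) • (ee i : Eu d) = y := by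
      have h2 := (EuclideanSpace.basisFun (Fin d) ℝ).sum_repr' y
      simp only [EuclideanSpace.basisFun_apply] at h2
      conv_rhs => rw [← h2]
      refine Finset.sum_congr rfl fun i _ => ?_
      rw [real_inner_comm]
    have h3 : ∑ i : Fin d, deta y (ee i) * inner ℝ y (ee i) =
        deta y (∑ i : Fin d, (inner ℝ y (ee i)) • (ee i : Eu d)) := by
      rw [map_sum]
      refine Finset.sum_congr rfl fun i _ => ?_
      rw [map_smul, smul_eq_mul, mul_comm]
    rw [h3, h1]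
  · simp

lemma Lap_vk {T : ℝ} (z : Eu d) : Lap (vk T) z = mo T z - mo 0 z := by
  unfold Lap
  simp_rw [Dd_Dd_vk]
  unfold SI
  have hcont : ∀ i : Fin d, Continuous fun t => sc (Dd (ee i) (Dd (ee i) g0)) (d:ℝ) t z := by
    intro i
    exact (sc_continuous (Dd_contDiff (Dd_contDiff g0_contDiff)).continuous (d:ℝ)).comp
      (continuous_const.prodMk continuous_id)
  rw [← intervalIntegral.integral_finsetSum fun i _ => (hcont i).intervalIntegrable _ _]
  have hder : ∀ t : ℝ, HasDerivAt (fun t => mo t z)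
      (∑ i : Fin d, sc (Dd (ee i) (Dd (ee i) g0)) (d:ℝ) t z) t := by
    intro t
    unfold mo sc
    rw [← Finset.mul_sum, sum_Dd_Dd_g0]
    have h1 : HasDerivAt (fun t : ℝ => Real.exp ((d:ℝ) * t)) (Real.exp ((d:ℝ) * t) * d) t := by
      have h2 : HasDerivAt (fun t : ℝ => (d:ℝ) * t) ((d:ℝ) * 1) t := (hasDerivAt_id t).const_mul _
      simpa using h2.exp
    have h3 : HasDerivAt (fun t : ℝ => Real.exp t • z) (Real.exp t • z) t :=
      (Real.hasDerivAt_exp t).smul_const z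
    have h4 : HasDerivAt ((eta : Eu d → ℝ) ∘ fun t : ℝ => Real.exp t • z)
        (deta (Real.exp t • z) (Real.exp t • z)) t :=
      (hasFDerivAt_eta (F := Eu d) (Real.exp t • z)).comp_hasDerivAt t h3
    simp only [Function.comp_def] at h4
    refine (h1.mul h4).congr_deriv ?_
    ring
  have hci : Continuous fun t => ∑ i : Fin d, sc (Dd (ee i) (Dd (ee i) g0)) (d:ℝ) t z :=
    continuous_finsetSum _ fun i _ => hcont i
  exact intervalIntegral.integral_eq_sub_of_hasDerivAt (fun t _ => hder t) (hci.intervalIntegrable _ _)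

end

end Crest.Agent.R234.Sc173
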