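import Crest.Agent.R234.Sc3_173

/-!
Row 234, strong constancy lemma (helper173).  Part 4: convolutions.
-/

set_option autoImplicit false

open MeasureTheory Metric Set Filter Topology
open scoped ContDiff Convolution

namespace Crest.Agent.R234.Sc173

noncomputable section

open Crest.Agent.R246.H2x622 (Psi eta deta Psi_contDiff eta_contDiff deta_contDiff Psi_zero eta_zero
  deta_zero hasFDerivAt_Psi hasFDerivAt_eta G1_nonneg)

variable {d : ℕ}

/-- convolution -/
def cv (w g : Eu d → ℝ) (y : Eu d) : ℝ := ∫ x, w x * g (y - x)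

lemma cv_eq (w g : Eu d → ℝ) : cv w g = (w ⋆[ContinuousLinearMap.lsmul ℝ ℝ, volume] g) := by
  funext y
  simp [cv, convolution_def]

lemma cv_contDiff {w g : Eu d → ℝ} (hw : LocallyIntegrable w volume) (hg : ContDiff ℝ ∞ g)
    (hc : HasCompactSupport g) : ContDiff ℝ ∞ (cv w g) := by
  rw [cv_eq]
  exact hc.contDiff_convolution_right (n := ⊤) _ hw hg

lemma Dd_cv {w g : Eu d → ℝ} (hw : LocallyIntegrable w volume) (hg : ContDiff ℝ ∞ g)
    (hc : HasCompactSupport g) (a : Eu d) : Dd a (cv w g) = cv w (Dd a g) := by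
  funext y
  rw [cv_eq, cv_eq]
  have h1 := hc.hasFDerivAt_convolution_right (ContinuousLinearMap.lsmul ℝ ℝ) hw
    (hg.of_le (by norm_cast)) y
  show (fderiv ℝ (w ⋆[ContinuousLinearMap.lsmul ℝ ℝ, volume] g) y) a = _
  rw [h1.fderiv]
  rw [convolution_precompR_apply (ContinuousLinearMap.lsmul ℝ ℝ) hw (hc.fderiv ℝ)
    (hg.continuous_fderiv (by simp))]
  rfl

lemma cv_abs_le {w g : Eu d → ℝ} {c : ℝ} (hw1 : ∀ x, |w x| ≤ c) (hg : Integrable g) (y : Eu d) :
    |cv w g y| ≤ c * ∫ x, |g x| := by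
  have h1 : ∫ x, |g x| = ∫ x, |g (y - x)| :=
    (integral_sub_left_eq_self (fun x => |g x|) volume y).symm
  rw [h1, ← integral_const_mul]
  unfold cv
  rw [← Real.norm_eq_abs]
  refine norm_integral_le_of_norm_le ((hg.comp_sub_left y).abs.const_mul c)
    (Eventually.of_forall fun x => ?_)
  rw [norm_mul, Real.norm_eq_abs, Real.norm_eq_abs]
  exact mul_le_mul_of_nonneg_right (hw1 x) (abs_nonneg _)

lemma cv_comm (w g : Eu d → ℝ) : cv w g = cv g w := by
  funext y
  unfold cv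
  rw [← integral_sub_left_eq_self (fun x => w x * g (y - x)) volume y]
  refine integral_congr_ae (Eventually.of_forall fun x => ?_)
  simp only [sub_sub_cancel]
  ring

lemma integral_abs_cv_le {w g : Eu d → ℝ} (hw : Integrable w) (hg : Integrable g) :
    ∫ y, |cv w g y| ≤ (∫ x, |w x|) * ∫ x, |g x| := by
  have h1 := integral_convolution (ContinuousLinearMap.lsmul ℝ ℝ) (μ := volume) (ν := volume)
    hw.abs hg.abs
  simp only [ContinuousLinearMap.lsmul_apply, smul_eq_mul] at h1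
  rw [← h1]
  have h2 : Integrable ((fun x => |w x|) ⋆[ContinuousLinearMap.lsmul ℝ ℝ, volume] fun x => |g x|) :=
    hw.abs.integrable_convolution _ hg.abs
  refine integral_mono_of_nonneg (Eventually.of_forall fun y => abs_nonneg _) h2
    (Eventually.of_forall fun y => ?_)
  simp only [convolution_def, ContinuousLinearMap.lsmul_apply, smul_eq_mul]
  unfold cv
  have h3 := abs_integral_le_integral_abs (f := fun x => w x * g (y - x)) (μ := volume)
  simpa [abs_mul] using h3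

lemma cv_zero {w g : Eu d → ℝ} {r s : ℝ} (hw : ∀ x : Eu d, r < ‖x‖ → w x = 0)
    (hg : ∀ x : Eu d, s < ‖x‖ → g x = 0) {y : Eu d} (hy : r + s < ‖y‖) : cv w g y = 0 := by
  unfold cv
  rw [integral_eq_zero_of_ae]
  refine Eventually.of_forall fun x => ?_
  simp only [Pi.zero_apply, mul_eq_zero]
  by_cases h : r < ‖x‖
  · exact Or.inl (hw x h)
  · refine Or.inr (hg _ ?_)
    have := norm_sub_norm_le y x
    linarith

lemma hasCompactSupport_of_zero {v : Eu d → ℝ} {R : ℝ} (h : ∀ x : Eu d, R < ‖x‖ → v x = 0) :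
    HasCompactSupport v := by
  refine HasCompactSupport.intro (isCompact_closedBall (0 : Eu d) R) fun z hz => h z ?_
  simpa using hz

lemma tsupport_of_zero {v : Eu d → ℝ} {R : ℝ} (h : ∀ x : Eu d, R < ‖x‖ → v x = 0) :
    tsupport v ⊆ closedBall (0 : Eu d) R := by
  refine closure_minimal ?_ isClosed_closedBall
  intro x hx
  by_contra hcon
  exact hx (h x (by simpa using hcon))

/-! ### norms -/

lemma norm_clm_le {X : Type*} [NormedAddCommGroup X] [NormedSpace ℝ X] (B : Eu d →L[ℝ] X) :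
    ‖B‖ ≤ ∑ i, ‖B (ee i)‖ := by
  refine B.opNorm_le_bound (Finset.sum_nonneg fun i _ => norm_nonneg _) fun v => ?_
  have h1 : v = ∑ i, (v i) • (ee i : Eu d) := by
    have h2 := (EuclideanSpace.basisFun (Fin d) ℝ).sum_repr v
    simp only [EuclideanSpace.basisFun_apply, EuclideanSpace.basisFun_repr] at h2
    exact h2.symm
  conv_lhs => rw [h1]
  rw [map_sum, Finset.sum_mul]
  refine (norm_sum_le _ _).trans (Finset.sum_le_sum fun i _ => ?_)
  rw [map_smul, norm_smul, mul_comm]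
  exact mul_le_mul_of_nonneg_left (PiLp.norm_apply_le v i) (norm_nonneg _)

lemma norm_D1_le (U : Eu d → ℝ) (y : Eu d) : ‖fderiv ℝ U y‖ ≤ ∑ j, |Dd (ee j) U y| :=
  norm_clm_le _

lemma norm_D2_le {U : Eu d → ℝ} (hU : ContDiff ℝ ∞ U) (y : Eu d) :
    ‖fderiv ℝ (fderiv ℝ U) y‖ ≤ ∑ i, ∑ j, |Dd (ee i) (Dd (ee j) U) y| := by
  refine (norm_clm_le _).trans (Finset.sum_le_sum fun i _ => ?_)
  refine (norm_clm_le _).trans (Finset.sum_le_sum fun j _ => ?_)
  rw [Dd_Dd_eq hU, Real.norm_eq_abs]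

lemma Lap_eq {U : Eu d → ℝ} (hU : ContDiff ℝ ∞ U) (y : Eu d) :
    Lap U y = ∑ i, fderiv ℝ (fderiv ℝ U) y (ee i) (ee i) := by
  unfold Lap
  exact Finset.sum_congr rfl fun i _ => Dd_Dd_eq hU _ _ _

/-! ### the mollifier -/

lemma eta_nonneg (y : Eu d) : 0 ≤ eta y := mul_nonneg zero_le_two (G1_nonneg _)

lemma mo_nonneg (t : ℝ) (y : Eu d) : 0 ≤ mo t y := mul_nonneg (Real.exp_pos _).le (eta_nonneg _)

/-- the mass of the mollifier -/
def c0 (d : ℕ) : ℝ := ∫ y : Eu d, eta y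

lemma eta_zero' : ∀ y : Eu d, 1 < ‖y‖ → eta y = 0 := fun _ hy => eta_zero (notMem_of_norm hy)

lemma mo_zero {t : ℝ} {y : Eu d} (hy : 1 < Real.exp t * ‖y‖) : mo t y = 0 := sc_zero eta_zero' hy

lemma mo_contDiff (t : ℝ) : ContDiff ℝ ∞ (mo t : Eu d → ℝ) := by
  unfold mo
  exact (sc_contDiff eta_contDiff (d:ℝ)).comp (contDiff_id.prodMk contDiff_const)

lemma mo_continuous (t : ℝ) : Continuous (mo t : Eu d → ℝ) := (mo_contDiff t).continuous

lemma mo_zero' {t : ℝ} (ht : 0 ≤ t) : ∀ y : Eu d, 1 < ‖y‖ → mo t y = 0 := fun y hy =>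
  mo_zero (by nlinarith [Real.one_le_exp ht, norm_nonneg y])

lemma mo_hasCompactSupport {t : ℝ} (ht : 0 ≤ t) : HasCompactSupport (mo t : Eu d → ℝ) :=
  hasCompactSupport_of_zero (mo_zero' ht)

lemma mo_integrable {t : ℝ} (ht : 0 ≤ t) : Integrable (mo t : Eu d → ℝ) :=
  (mo_continuous t).integrable_of_hasCompactSupport (mo_hasCompactSupport ht)

lemma integral_mo (t : ℝ) : ∫ y : Eu d, mo t y = c0 d := by
  have h1 := integral_abs_sc (g := (eta : Eu d → ℝ)) (d:ℝ) t
  have h2 : ∀ z : Eu d, |sc eta (d:ℝ) t z| = mo t z := fun z => abs_of_nonneg (mo_nonneg t z)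
  simp_rw [h2] at h1
  rw [h1, sub_self, zero_mul, Real.exp_zero, one_mul]
  exact integral_congr_ae (Eventually.of_forall fun z => abs_of_nonneg (eta_nonneg z))

lemma c0_nonneg : 0 ≤ c0 d := integral_nonneg eta_nonneg

lemma G1_one_pos : 0 < Crest.Agent.R246.H2x622.G1 1 := by
  have h1 : Crest.Agent.R246.H2x622.G0 =ᶠ[𝓝 (1:ℝ)] fun x => Real.exp (-x⁻¹) := by
    filter_upwards [Ioi_mem_nhds (zero_lt_one' ℝ)] with x hx
    have hx' : ¬ x ≤ 0 := not_le.2 hx
    simp [Crest.Agent.R246.H2x622.G0, expNegInvGlue, hx']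
  have h2 : HasDerivAt (fun x : ℝ => Real.exp (-x⁻¹)) (Real.exp (-(1:ℝ)⁻¹) * (-(-((1:ℝ) ^ 2)⁻¹))) 1 :=
    ((hasDerivAt_inv (one_ne_zero)).neg).exp
  have h3 : Crest.Agent.R246.H2x622.G1 1 = Real.exp (-(1:ℝ)⁻¹) * (-(-((1:ℝ) ^ 2)⁻¹)) := by
    unfold Crest.Agent.R246.H2x622.G1
    rw [h1.deriv_eq, h2.deriv]
  rw [h3]
  simp [Real.exp_pos]

lemma c0_pos : 0 < c0 d := by
  have hy : 0 < eta (0 : Eu d) := by
    unfold Crest.Agent.R246.H2x622.eta
    simpa using G1_one_pos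
  have hc : Continuous (eta : Eu d → ℝ) := eta_contDiff.continuous
  exact hc.integral_pos_of_hasCompactSupport_nonneg_nonzero
    (hasCompactSupport_of_zero eta_zero') eta_nonneg hy.ne'

end

end Crest.Agent.R234.Sc173
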