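import Crest.Agent.R234.Sc4_173

/-!
Row 234, strong constancy lemma (helper173).  Part 5: covering and smoothing.
-/

set_option autoImplicit false

open MeasureTheory Metric Set Filter Topology
open scoped ContDiff ENNReal

namespace Crest.Agent.R234.Sc173

noncomputable section

variable {d : ℕ}

lemma om_pos : 0 < om d := by
  unfold om
  exact ENNReal.toReal_pos (measure_ball_pos volume _ one_pos).ne' measure_ball_lt_top.ne

lemma vol_ball (x : Eu d) {r : ℝ} (hr : 0 < r) :
    volume (ball x r) = ENNReal.ofReal (r ^ d * om d) := by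
  rw [Measure.addHaar_ball_of_pos _ _ hr, ENNReal.ofReal_mul (by positivity)]
  simp [om, finrank_euclideanSpace, ENNReal.ofReal_toReal measure_ball_lt_top.ne]

lemma vol_closedBall' (x : Eu d) {r : ℝ} (hr : 0 < r) :
    volume (closedBall x r) = ENNReal.ofReal (r ^ d * om d) := by
  rw [← vol_closedBall x hr.le, ENNReal.ofReal_toReal measure_closedBall_lt_top.ne]

/-- the set where the maximal function is large -/
def bad (E : Measure (Eu d)) (lam : ℝ) : Set (Eu d) :=
  {x | ∃ r : ℝ, 0 < r ∧ lam * (r ^ d * om d) < E.real (ball x r)}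

lemma isOpen_bad (E : Measure (Eu d)) [IsFiniteMeasure E] (lam : ℝ) : IsOpen (bad E lam) := by
  rw [Metric.isOpen_iff]
  rintro x ⟨r, hr, hx⟩
  have hc : Continuous fun e : ℝ => lam * ((r + e) ^ d * om d) := by fun_prop
  have h1 : ∀ᶠ e in 𝓝 (0:ℝ), lam * ((r + e) ^ d * om d) < E.real (ball x r) :=
    hc.continuousAt.eventually_lt continuousAt_const (by simpa using hx)
  obtain ⟨e, he, h2⟩ := Metric.eventually_nhds_iff.1 h1
  refine ⟨e / 2, by positivity, fun y hy => ⟨r + e / 2, by positivity, ?_⟩⟩
  refine (h2 (y := e / 2) ?_).trans_le (measureReal_mono ?_)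
  · rw [dist_zero_right, Real.norm_eq_abs, abs_of_pos (by positivity)]; linarith
  · intro z hz
    rw [mem_ball] at *
    have := dist_triangle_right z y x
    have h3 := dist_triangle z x y
    rw [dist_comm x y] at h3
    linarith

/-- Vitali covering -/
lemma vol_bad (hd : 0 < d) (E : Measure (Eu d)) [IsFiniteMeasure E] {lam : ℝ} (hl : 0 < lam) :
    volume (bad E lam) ≤ ENNReal.ofReal (5 ^ d / lam) * E univ := by
  classical
  choose! r hr hbig using fun x (hx : x ∈ bad E lam) => hx
  have hom := @om_pos d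
  -- bound for the radii
  have hR : ∀ x ∈ bad E lam, r x ≤ max 1 (E.real univ / (lam * om d)) := by
    intro x hx
    rcases le_total (r x) 1 with h | h
    · exact h.trans (le_max_left _ _)
    · refine le_trans ?_ (le_max_right _ _)
      rw [le_div_iff₀ (by positivity)]
      have h1 : r x ≤ r x ^ d := le_self_pow₀ h hd.ne'
      have h2 := hbig x hx
      have h3 : E.real (ball x (r x)) ≤ E.real univ := measureReal_mono (subset_univ _)
      calc r x * (lam * om d) ≤ r x ^ d * (lam * om d) :=
            mul_le_mul_of_nonneg_right h1 (by positivity)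
        _ = lam * (r x ^ d * om d) := by ring
        _ ≤ E.real univ := (h2.trans_le h3).le
  obtain ⟨u, hut, hdisj, hcov⟩ := Vitali.exists_disjoint_subfamily_covering_enlargement_closedBall
    (bad E lam) (fun x : Eu d => x) r _ hR 5 (by norm_num)
  have hcount : u.Countable := by
    refine hdisj.countable_of_nonempty_interior fun x hx => ?_
    exact ⟨x, ball_subset_interior_closedBall (mem_ball_self (hr x (hut hx)))⟩
  have hsub : bad E lam ⊆ ⋃ b ∈ u, closedBall b (5 * r b) := by
    intro x hx
    obtain ⟨b, hb, h⟩ := hcov x hx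
    exact mem_iUnion₂.2 ⟨b, hb, h (mem_closedBall_self (hr x hx).le)⟩
  have : Countable u := hcount.to_subtype
  calc volume (bad E lam) ≤ volume (⋃ b ∈ u, closedBall b (5 * r b)) := measure_mono hsub
    _ ≤ ∑' b : u, volume (closedBall (b : Eu d) (5 * r b)) := measure_biUnion_le _ hcount _
    _ ≤ ∑' b : u, ENNReal.ofReal (5 ^ d / lam) * E (ball (b : Eu d) (r b)) := by
        refine ENNReal.tsum_le_tsum fun b => ?_
        have hb := hr b (hut b.2)
        rw [vol_closedBall' _ (by positivity)]
        have h1 := hbig b (hut b.2)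
        have h2 : (5 * r b) ^ d * om d ≤ 5 ^ d / lam * E.real (ball (b : Eu d) (r b)) := by
          rw [mul_pow]
          calc 5 ^ d * r b ^ d * om d = 5 ^ d / lam * (lam * (r b ^ d * om d)) := by
                field_simp
            _ ≤ _ := mul_le_mul_of_nonneg_left h1.le (by positivity)
        refine (ENNReal.ofReal_le_ofReal h2).trans_eq ?_
        rw [ENNReal.ofReal_mul (by positivity), Measure.real, ENNReal.ofReal_toReal (by finiteness)]
    _ = ENNReal.ofReal (5 ^ d / lam) * ∑' b : u, E (ball (b : Eu d) (r b)) := ENNReal.tsum_mul_left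
    _ ≤ ENNReal.ofReal (5 ^ d / lam) * E univ := by
        gcongr
        have h3 : ∑' b : u, E (ball (b : Eu d) (r b)) = E (⋃ b : u, ball (b : Eu d) (r b)) := by
          refine (measure_iUnion ?_ fun b => measurableSet_ball).symm
          intro b c hbc
          exact (hdisj b.2 c.2 (fun h => hbc (Subtype.ext h))).mono ball_subset_closedBall
            ball_subset_closedBall
        rw [h3]
        exact measure_mono (subset_univ _)

lemma compl_bad_nonempty (hd : 0 < d) (E : Measure (Eu d)) [IsFiniteMeasure E] {lam : ℝ}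
    (hl : 0 < lam) : ((bad E lam)ᶜ).Nonempty := by
  by_contra hcon
  rw [not_nonempty_iff_eq_empty, compl_empty_iff] at hcon
  have h1 := vol_bad hd E hl
  rw [hcon] at h1
  have : Nontrivial (Eu d) := by
    refine ⟨0, ee ⟨0, hd⟩, fun h => ?_⟩
    have := congrArg norm h
    simp at this
  have h2 : volume (univ : Set (Eu d)) = ⊤ := measure_univ_of_isAddLeftInvariant _
  rw [h2, top_le_iff] at h1
  exact (ENNReal.mul_ne_top ENNReal.ofReal_ne_top (measure_ne_top E _)) h1

/-! ### smoothing -/

/-- radius function -/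
def rho (F : Set (Eu d)) (tau : ℝ) (y : Eu d) : ℝ := max tau (infDist y F / 4)

lemma rho_pos {F : Set (Eu d)} {tau : ℝ} (h : 0 < tau) (y : Eu d) : 0 < rho F tau y :=
  h.trans_le (le_max_left _ _)

lemma rho_continuous (F : Set (Eu d)) (tau : ℝ) : Continuous (rho F tau) := by
  unfold rho
  fun_prop

lemma rho_le (F : Set (Eu d)) (tau : ℝ) (y z : Eu d) : rho F tau y ≤ rho F tau z + dist y z / 4 := by
  unfold rho
  have h1 : infDist y F ≤ infDist z F + dist y z := infDist_le_infDist_add_dist
  have h2 := @dist_nonneg _ _ y z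
  refine max_le ?_ ?_
  · exact (le_max_left tau (infDist z F / 4)).trans (by linarith)
  · have h3 : infDist z F / 4 ≤ max tau (infDist z F / 4) := le_max_right _ _
    linarith

/-- the smoothing kernel -/
def Kk (F : Set (Eu d)) (tau : ℝ) (y z : Eu d) : ℝ≥0∞ :=
  {p : Eu d × Eu d | dist p.2 p.1 < rho F tau p.1}.indicator
    (fun p => (ENNReal.ofReal (rho F tau p.1 ^ d * om d))⁻¹) (y, z)

lemma Kk_measurable (F : Set (Eu d)) (tau : ℝ) : Measurable (Function.uncurry (Kk F tau)) := by
  have hc := rho_continuous F tau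
  have h1 : MeasurableSet {p : Eu d × Eu d | dist p.2 p.1 < rho F tau p.1} :=
    (isOpen_lt (by fun_prop) (hc.comp continuous_fst)).measurableSet
  refine Measurable.indicator ?_ h1
  have h2 : Measurable fun p : Eu d × Eu d => rho F tau p.1 ^ d * om d := by
    exact (((hc.comp continuous_fst).pow d).mul continuous_const).measurable
  exact h2.ennreal_ofReal.inv

lemma lintegral_Kk {F : Set (Eu d)} {tau : ℝ} (h : 0 < tau) (y : Eu d) :
    ∫⁻ z, Kk F tau y z = 1 := by
  have h1 : ∀ z, Kk F tau y z = (ball y (rho F tau y)).indicator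
      (fun _ => (ENNReal.ofReal (rho F tau y ^ d * om d))⁻¹) z := by
    intro z
    unfold Kk
    by_cases hz : dist z y < rho F tau y
    · rw [indicator_of_mem (by exact hz), indicator_of_mem (by exact hz)]
    · rw [indicator_of_notMem (by exact hz), indicator_of_notMem (by exact hz)]
  simp_rw [h1]
  rw [lintegral_indicator_const measurableSet_ball, vol_ball _ (rho_pos h y)]
  have h2 := @om_pos d
  have h3 := rho_pos (F := F) h y
  exact ENNReal.inv_mul_cancel (by simpa using by positivity) ENNReal.ofReal_ne_top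

lemma lintegral_Kk_le (hd : 0 < d) {E : Measure (Eu d)} [IsFiniteMeasure E] {lam tau : ℝ} (hl : 0 < lam)
    (h : 0 < tau) (z : Eu d) :
    ∫⁻ y, Kk (bad E lam)ᶜ tau y z ∂E ≤ ENNReal.ofReal (14 ^ d * lam) := by
  set F := (bad E lam)ᶜ with hF
  have hne : F.Nonempty := compl_bad_nonempty hd E hl
  have hom := @om_pos d
  have hr := rho_pos (F := F) h z
  set r := rho F tau z with hr_def
  -- pointwise bound
  have h1 : ∀ y, Kk F tau y z ≤ (ball z (2 * r)).indicator
      (fun _ => (ENNReal.ofReal ((r / 2) ^ d * om d))⁻¹) y := by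
    intro y
    unfold Kk
    by_cases hz : dist z y < rho F tau y
    · have h2 := rho_le F tau y z
      have h3 := rho_le F tau z y
      rw [dist_comm] at h2
      have hy := rho_pos (F := F) h y
      have h4 : rho F tau y ≤ 2 * r := by rw [hr_def]; linarith
      have h5 : r / 2 ≤ rho F tau y := by rw [hr_def]; linarith
      rw [indicator_of_mem (by exact hz), indicator_of_mem
        (by rw [mem_ball, dist_comm]; exact hz.trans_le h4)]
      refine ENNReal.inv_le_inv.2 (ENNReal.ofReal_le_ofReal ?_)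
      exact mul_le_mul_of_nonneg_right (pow_le_pow_left₀ (by positivity) h5 d) hom.le
    · rw [indicator_of_notMem (by exact hz)]
      exact zero_le
  have h6 : ∃ x' ∈ F, dist z x' < 5 * r := by
    rw [← infDist_lt_iff hne]
    have h7 : infDist z F / 4 ≤ r := le_max_right _ _
    linarith
  obtain ⟨x', hx', hd'⟩ := h6
  have h8 : E.real (ball z (2 * r)) ≤ lam * ((7 * r) ^ d * om d) := by
    have h9 : ball z (2 * r) ⊆ ball x' (7 * r) := by
      intro y hy
      rw [mem_ball] at *
      have := dist_triangle y z x'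
      linarith
    have h10 : ¬ lam * ((7 * r) ^ d * om d) < E.real (ball x' (7 * r)) := by
      intro hcon
      exact hx' ⟨7 * r, by positivity, hcon⟩
    exact (measureReal_mono h9).trans (not_lt.1 h10)
  calc ∫⁻ y, Kk F tau y z ∂E
      ≤ ∫⁻ y, (ball z (2 * r)).indicator
          (fun _ => (ENNReal.ofReal ((r / 2) ^ d * om d))⁻¹) y ∂E := lintegral_mono h1
    _ = (ENNReal.ofReal ((r / 2) ^ d * om d))⁻¹ * E (ball z (2 * r)) := by
        rw [lintegral_indicator_const measurableSet_ball]
    _ ≤ (ENNReal.ofReal ((r / 2) ^ d * om d))⁻¹ * ENNReal.ofReal (lam * ((7 * r) ^ d * om d)) := by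
        gcongr
        rw [← ENNReal.ofReal_toReal (measure_ne_top E _)]
        exact ENNReal.ofReal_le_ofReal h8
    _ = ENNReal.ofReal (14 ^ d * lam) := by
        rw [← ENNReal.ofReal_inv_of_pos (by positivity), ← ENNReal.ofReal_mul (by positivity)]
        congr 1
        rw [show (14:ℝ) = 7 * 2 by norm_num, mul_pow, mul_pow, div_pow]
        field_simp

/-- abstract smoothing inequality -/
lemma smoothing_abs {E : Measure (Eu d)} [IsFiniteMeasure E] {K : Eu d → Eu d → ℝ≥0∞}
    (hKm : Measurable (Function.uncurry K)) (hK1 : ∀ y, ∫⁻ z, K y z = 1) {c : ℝ} 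
    (hKc : ∀ z, ∫⁻ y, K y z ∂E ≤ ENNReal.ofReal c)
    {f : Eu d → ℝ≥0∞} (hf : Measurable f) {C1 : ℝ≥0∞}
    (hosc : ∀ y z, K y z ≠ 0 → f y ≤ f z + C1) {kap : ℝ} (hk : 0 < kap) :
    ∫⁻ y, f y ∂E ≤ ENNReal.ofReal kap * (∫⁻ z, f z ^ 2) +
      (ENNReal.ofReal (c / kap) + C1) * E univ := by
  have hKy : ∀ y, Measurable (K y) := fun y => hKm.comp (measurable_const.prodMk measurable_id)
  have hKz : ∀ z, Measurable (fun y => K y z) := fun z =>
    hKm.comp (measurable_id.prodMk measurable_const)
  -- step 1: pointwise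
  have h1 : ∀ y, f y ≤ (∫⁻ z, f z * K y z) + C1 := by
    intro y
    calc f y = ∫⁻ z, f y * K y z := by
          rw [lintegral_const_mul _ (hKy y), hK1, mul_one]
      _ ≤ ∫⁻ z, (f z * K y z + C1 * K y z) := by
          refine lintegral_mono fun z => ?_
          simp only
          rw [← add_mul]
          by_cases hz : K y z = 0
          · rw [hz]; simp
          · exact mul_le_mul_left (hosc y z hz) _
      _ = (∫⁻ z, f z * K y z) + C1 := by
          rw [lintegral_add_right _ ((hKy y).const_mul _), lintegral_const_mul _ (hKy y),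
            hK1, mul_one]
  -- step 2: Tonelli
  have hfK : Measurable (Function.uncurry fun y z => f z * K y z) :=
    (hf.comp measurable_snd).mul hKm
  have h2 : ∫⁻ y, f y ∂E ≤ (∫⁻ z, ∫⁻ y, f z * K y z ∂E) + C1 * E univ := by
    calc ∫⁻ y, f y ∂E ≤ ∫⁻ y, ((∫⁻ z, f z * K y z) + C1) ∂E := lintegral_mono h1
      _ = (∫⁻ y, (∫⁻ z, f z * K y z) ∂E) + C1 * E univ := by
          rw [lintegral_add_right _ measurable_const, lintegral_const]
      _ = _ := by
          rw [lintegral_lintegral_swap hfK.aemeasurable]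
  -- step 3: pointwise in `z`
  have h3 : ∀ z, ∫⁻ y, f z * K y z ∂E ≤ ENNReal.ofReal kap * f z ^ 2 +
      ENNReal.ofReal (c / kap) * ∫⁻ y, K y z ∂E := by
    intro z
    rw [lintegral_const_mul _ (hKz z)]
    have h4 := hKc z
    rcases le_total (f z) (ENNReal.ofReal (c / kap)) with h5 | h5
    · exact (mul_le_mul_left h5 _).trans le_add_self
    · refine le_trans ?_ le_self_add
      rw [pow_two, ← mul_assoc, mul_comm]
      refine mul_le_mul_left ?_ _
      refine h4.trans ?_
      calc ENNReal.ofReal c = ENNReal.ofReal kap * ENNReal.ofReal (c / kap) := by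
            rw [← ENNReal.ofReal_mul hk.le]
            congr 1
            field_simp
        _ ≤ _ := mul_le_mul_right h5 _
  have h6 : Measurable fun z => ∫⁻ y, K y z ∂E := hKm.lintegral_prod_left
  have h7 : ∫⁻ z, ∫⁻ y, K y z ∂E = E univ := by
    rw [← lintegral_lintegral_swap hKm.aemeasurable]
    simp_rw [hK1]
    simp
  have h8 : ∫⁻ z, ∫⁻ y, f z * K y z ∂E ≤ ENNReal.ofReal kap * (∫⁻ z, f z ^ 2) +
      ENNReal.ofReal (c / kap) * E univ := by
    refine (lintegral_mono h3).trans_eq ?_
    rw [lintegral_add_right _ (h6.const_mul _), lintegral_const_mul _ (hf.pow_const 2),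
      lintegral_const_mul _ h6, h7]
  calc ∫⁻ y, f y ∂E ≤ (∫⁻ z, ∫⁻ y, f z * K y z ∂E) + C1 * E univ := h2
    _ ≤ (ENNReal.ofReal kap * (∫⁻ z, f z ^ 2) + ENNReal.ofReal (c / kap) * E univ) + C1 * E univ := by
        gcongr
    _ = _ := by rw [add_mul, add_assoc]

/-- **smoothing inequality** -/
lemma smoothing (hd : 0 < d) {E : Measure (Eu d)} [IsFiniteMeasure E] {lam tau : ℝ} (hl : 0 < lam)
    (h : 0 < tau) {f : Eu d → ℝ≥0∞} (hf : Measurable f) {C1 : ℝ≥0∞}
    (hosc : ∀ y z, dist z y < rho (bad E lam)ᶜ tau y → f y ≤ f z + C1) {kap : ℝ} (hk : 0 < kap) :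
    ∫⁻ y, f y ∂E ≤ ENNReal.ofReal kap * (∫⁻ z, f z ^ 2) +
      (ENNReal.ofReal (14 ^ d * lam / kap) + C1) * E univ := by
  refine smoothing_abs (Kk_measurable (bad E lam)ᶜ tau) (lintegral_Kk h) (lintegral_Kk_le hd hl h)
    hf ?_ hk
  intro y z hK
  refine hosc y z ?_
  by_contra hz
  refine hK ?_
  unfold Kk
  rw [indicator_of_notMem (by exact hz)]

end

end Crest.Agent.R234.Sc173
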