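import Crest.Agent.R234.Sc5_173

/-!
Row 234, strong constancy lemma (helper173).  Part 6: the weak type estimate.
-/

set_option autoImplicit false

open MeasureTheory Metric Set Filter Topology
open scoped ContDiff ENNReal

namespace Crest.Agent.R234.Sc173

noncomputable section

open Crest.Agent.R246.H2x622 (Psi eta deta Psi_contDiff eta_contDiff deta_contDiff Psi_zero eta_zero
  deta_zero hasFDerivAt_Psi hasFDerivAt_eta G1_nonneg)

variable {d : ℕ}

/-- the double divergence form of the equation -/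
def H2 (A E G : Measure (Eu d)) : Prop := ∀ U : Eu d → ℝ, ContDiff ℝ ∞ U → HasCompactSupport U →
  tsupport U ⊆ ball (0 : Eu d) 4 →
  |∫ x, Lap U x ∂A| ≤ (∫ x, ‖fderiv ℝ (fderiv ℝ U) x‖ ∂E) + ∫ x, ‖fderiv ℝ U x‖ ∂G

/-- mollification -/
def fA (A : Measure (Eu d)) (t : ℝ) (x : Eu d) : ℝ := ∫ y, mo t (y - x) ∂A

lemma bdd_of_cc {g : Eu d → ℝ} (hg : Continuous g) (hc : HasCompactSupport g) :
    ∃ C : ℝ, 0 ≤ C ∧ ∀ x, |g x| ≤ C := by
  obtain ⟨C, hC⟩ := hc.exists_bound_of_continuous hg
  exact ⟨max C 0, le_max_right _ _, fun x => (hC x).trans (le_max_left _ _)⟩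

lemma cv_integrable {w g : Eu d → ℝ} (hw : Integrable w) (hg : Continuous g)
    (hc : HasCompactSupport g) (y : Eu d) : Integrable fun x => w x * g (y - x) := by
  obtain ⟨C, hC0, hC⟩ := bdd_of_cc hg hc
  exact hw.mul_bdd (c := C) (hg.comp (continuous_const.sub continuous_id)).aestronglyMeasurable
    (Eventually.of_forall fun x => by simpa using hC (y - x))

lemma Lap_cv {w g : Eu d → ℝ} (hw : Integrable w) (hg : ContDiff ℝ ∞ g) (hc : HasCompactSupport g)
    (y : Eu d) : Lap (cv w g) y = cv w (Lap g) y := by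
  have h1 : ∀ i : Fin d, Dd (ee i) (Dd (ee i) (cv w g)) = cv w (Dd (ee i) (Dd (ee i) g)) := by
    intro i
    rw [Dd_cv hw.locallyIntegrable hg hc, Dd_cv hw.locallyIntegrable (Dd_contDiff hg)
      (Dd_hasCompactSupport hc)]
  unfold Lap
  simp_rw [h1]
  unfold cv
  rw [← integral_finsetSum _ fun i _ => cv_integrable hw (Dd_contDiff (Dd_contDiff hg)).continuous
    (Dd_hasCompactSupport (Dd_hasCompactSupport hc)) y]
  refine integral_congr_ae (Eventually.of_forall fun x => ?_)
  simp only
  rw [Finset.mul_sum]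

lemma Lap_continuous {g : Eu d → ℝ} (hg : ContDiff ℝ ∞ g) : Continuous (Lap g) :=
  continuous_finsetSum _ fun i _ => (Dd_contDiff (Dd_contDiff hg)).continuous

lemma Lap_hasCompactSupport {g : Eu d → ℝ} (hc : HasCompactSupport g) :
    HasCompactSupport (Lap g) := by
  refine hc.mono' ?_
  intro x hx
  by_contra hcon
  refine hx ?_
  unfold Lap
  refine Finset.sum_eq_zero fun i _ => ?_
  have h1 : ∀ {v : Eu d → ℝ} {a : Eu d}, x ∉ tsupport v → x ∉ tsupport (Dd a v) := by
    intro v a h1 h2
    refine h1 ?_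
    have h3 : tsupport (Dd a v) ⊆ tsupport v := by
      refine closure_minimal (fun z hz => ?_) (isClosed_tsupport v)
      by_contra h4
      refine hz ?_
      unfold Dd
      rw [fderiv_of_notMem_tsupport ℝ h4]
      simp
    exact h3 h2
  exact image_eq_zero_of_notMem_tsupport (h1 (h1 hcon))

/-- **the pairing** -/
lemma pairing {A : Measure (Eu d)} [IsFiniteMeasure A] {w g : Eu d → ℝ} (hw : Integrable w)
    (hg : ContDiff ℝ ∞ g) (hc : HasCompactSupport g) :
    ∫ y, Lap (cv w g) y ∂A = ∫ x, w x * ∫ y, Lap g (y - x) ∂A := by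
  simp_rw [Lap_cv hw hg hc]
  unfold cv
  have hgc := Lap_continuous hg
  obtain ⟨C, hC0, hC⟩ := bdd_of_cc hgc (Lap_hasCompactSupport hc)
  have hint : Integrable (Function.uncurry fun (y x : Eu d) => w x * Lap g (y - x))
      (A.prod volume) := by
    refine (hw.comp_snd A).mul_bdd (c := C)
      (hgc.comp (continuous_fst.sub continuous_snd)).aestronglyMeasurable
      (Eventually.of_forall fun p => by simpa using hC (p.1 - p.2))
  rw [integral_integral_swap hint]
  refine integral_congr_ae (Eventually.of_forall fun x => ?_)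
  simp only
  rw [integral_const_mul]

lemma mo_bdd {t : ℝ} (ht : 0 ≤ t) : ∃ C : ℝ, 0 ≤ C ∧ ∀ x : Eu d, |mo t x| ≤ C :=
  bdd_of_cc (mo_continuous t) (mo_hasCompactSupport ht)

lemma integrable_fA (A : Measure (Eu d)) [IsFiniteMeasure A] {t : ℝ} (ht : 0 ≤ t) (x : Eu d) :
    Integrable (fun y => mo t (y - x)) A := by
  obtain ⟨C, hC0, hC⟩ := mo_bdd (d := d) ht
  refine Integrable.of_bound
    ((mo_continuous t).comp (continuous_id.sub continuous_const)).aestronglyMeasurable C
    (Eventually.of_forall fun y => by simpa using hC (y - x))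

lemma pairing_vk {A : Measure (Eu d)} [IsFiniteMeasure A] {w : Eu d → ℝ} (hw : Integrable w)
    {T : ℝ} (hT : 0 ≤ T) :
    ∫ y, Lap (cv w (vk T)) y ∂A = ∫ x, w x * (fA A T x - fA A 0 x) := by
  rw [pairing hw (vk_contDiff T) (vk_hasCompactSupport hT)]
  refine integral_congr_ae (Eventually.of_forall fun x => ?_)
  simp only [Lap_vk]
  rw [integral_sub (integrable_fA A hT x) (integrable_fA A le_rfl x)]
  rfl

/-- mollifications are differentiable -/
lemma fA_hasFDerivAt (A : Measure (Eu d)) [IsFiniteMeasure A] {t : ℝ} (ht : 0 ≤ t) (x : Eu d) :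
    HasFDerivAt (fA A t) (∫ y, -fderiv ℝ (mo t) (y - x) ∂A) x := by
  have hd : ContDiff ℝ ∞ (fderiv ℝ (mo t : Eu d → ℝ)) := (mo_contDiff t).fderiv_right (by norm_cast)
  obtain ⟨C, hC⟩ := ((mo_hasCompactSupport (d := d) ht).fderiv ℝ).exists_bound_of_continuous
    hd.continuous
  unfold fA
  refine hasFDerivAt_integral_of_dominated_of_fderiv_le (bound := fun _ => C) (s := univ)
    (F := fun x y => mo t (y - x)) (F' := fun x y => -fderiv ℝ (mo t) (y - x)) univ_mem ?_
    (integrable_fA A ht x) ?_ ?_ (integrable_const C) ?_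
  · exact Eventually.of_forall fun z =>
      ((mo_continuous t).comp (continuous_id.sub continuous_const)).aestronglyMeasurable
  · exact (hd.continuous.comp (continuous_id.sub continuous_const)).neg.aestronglyMeasurable
  · refine Eventually.of_forall fun y z _ => ?_
    rw [norm_neg]
    exact hC _
  · refine Eventually.of_forall fun y z _ => ?_
    have h1 : HasFDerivAt (mo t : Eu d → ℝ) (fderiv ℝ (mo t) (y - z)) (y - z) :=
      ((mo_contDiff t).differentiable (by simp) _).hasFDerivAt
    have h2 : HasFDerivAt (fun z : Eu d => y - z) (-ContinuousLinearMap.id ℝ (Eu d)) z :=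
      (hasFDerivAt_id z).const_sub y
    have h3 := h1.comp z h2
    refine h3.congr_fderiv ?_
    ext v
    simp

lemma fA_continuous (A : Measure (Eu d)) [IsFiniteMeasure A] {t : ℝ} (ht : 0 ≤ t) :
    Continuous (fA A t) :=
  continuous_iff_continuousAt.2 fun x => (fA_hasFDerivAt A ht x).continuousAt

lemma fA_nonneg (A : Measure (Eu d)) (t : ℝ) (x : Eu d) : 0 ≤ fA A t x :=
  integral_nonneg fun _ => mo_nonneg _ _

end

end Crest.Agent.R234.Sc173
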