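import Crest.Agent.R234.Sc6_173

/-!
Row 234, strong constancy lemma (helper173).  Part 7: the weak type estimate.
-/

set_option autoImplicit false

open MeasureTheory Metric Set Filter Topology
open scoped ContDiff ENNReal

namespace Crest.Agent.R234.Sc173

noncomputable section

open Crest.Agent.R246.H2x622 (Psi eta deta Psi_contDiff eta_contDiff deta_contDiff Psi_zero eta_zero
  deta_zero hasFDerivAt_Psi hasFDerivAt_eta G1_nonneg)

variable {d : ℕ}

/-- smoothing inequality, real form -/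
lemma smoothing_real (hd : 0 < d) {E : Measure (Eu d)} [IsFiniteMeasure E] {lam tau : ℝ} (hl : 0 < lam)
    (ht : 0 < tau) {h : Eu d → ℝ} (hc : Continuous h) (hs : HasCompactSupport h) {C1 : ℝ}
    (hC1 : 0 ≤ C1)
    (hosc : ∀ y z, dist z y < rho (bad E lam)ᶜ tau y → |h y| ≤ |h z| + C1) {kap : ℝ} (hk : 0 < kap) :
    ∫ y, |h y| ∂E ≤ kap * (∫ z, h z ^ 2) + (14 ^ d * lam / kap + C1) * E.real univ := by
  have h1 := smoothing hd hl ht (f := fun y => ENNReal.ofReal |h y|)
    hc.abs.measurable.ennreal_ofReal (C1 := ENNReal.ofReal C1) (fun y z hyz => by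
      rw [← ENNReal.ofReal_add (abs_nonneg _) hC1]
      exact ENNReal.ofReal_le_ofReal (hosc y z hyz)) hk
  have hi1 : Integrable (fun y => |h y|) E := by
    obtain ⟨C, _, hC⟩ := bdd_of_cc hc hs
    exact Integrable.of_bound hc.abs.aestronglyMeasurable C
      (Eventually.of_forall fun y => by simpa using hC y)
  have hi2 : Integrable (fun y => h y ^ 2) := by
    have : HasCompactSupport fun y => h y ^ 2 := by
      refine hs.mono ?_
      intro x hx hx0
      exact hx (by simp only [hx0]; ring)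
    exact (hc.pow 2).integrable_of_hasCompactSupport this
  have h2 : ∀ z, ENNReal.ofReal |h z| ^ 2 = ENNReal.ofReal (h z ^ 2) := by
    intro z
    rw [← ENNReal.ofReal_pow (abs_nonneg _), sq_abs]
  simp_rw [h2] at h1
  rw [← ofReal_integral_eq_lintegral_ofReal hi1 (Eventually.of_forall fun y => abs_nonneg _),
    ← ofReal_integral_eq_lintegral_ofReal hi2 (Eventually.of_forall fun y => sq_nonneg _),
    ← ENNReal.ofReal_mul hk.le, ← ENNReal.ofReal_add (by positivity) hC1,
    ← ENNReal.ofReal_toReal (measure_ne_top E univ), ← ENNReal.ofReal_mul (by positivity),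
    ← ENNReal.ofReal_add (mul_nonneg hk.le (integral_nonneg fun _ => sq_nonneg _))
      (by positivity)] at h1
  refine (ENNReal.ofReal_le_ofReal_iff ?_).1 h1
  have := integral_nonneg (μ := volume) (f := fun z => h z ^ 2) fun _ => sq_nonneg _
  positivity

lemma osc_app {E : Measure (Eu d)} {lam : ℝ} {w : Eu d → ℝ} (hw : Measurable w)
    (hw1 : ∀ x, |w x| ≤ 1) (hwF : ∀ x, w x ≠ 0 → x ∉ bad E lam) {g : Eu d → ℝ} (hg : Continuous g)
    (h0 : ∀ y : Eu d, 1 < ‖y‖ → g y = 0)
    {L : ℝ} (hL0 : 0 ≤ L) (hL : ∀ x y : Eu d, |g x - g y| ≤ L * ‖x - y‖) {T : ℝ} (hT : 0 ≤ T)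
    (hu : UniformContinuous (cv w (SI g d T))) :
    ∃ tau > 0, ∀ y z, dist z y < rho (bad E lam)ᶜ tau y →
      |cv w (SI g d T) y| ≤ |cv w (SI g d T) z| + (2 * L * om d + 1) := by
  obtain ⟨tau, ht, h1⟩ := Metric.uniformContinuous_iff.1 hu 1 one_pos
  have hom := @om_pos d
  have hab : ∀ a b c : ℝ, |a - b| ≤ c → |a| ≤ |b| + c := by
    intro a b c h
    have := abs_sub_abs_le_abs_sub a b
    linarith
  refine ⟨tau, ht, fun y z hyz => ?_⟩
  refine hab _ _ _ ?_
  rcases le_or_gt (infDist y (bad E lam)ᶜ / 4) tau with h | h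
  · rw [rho, max_eq_left h] at hyz
    have h2 := h1 (a := y) (b := z) (by rwa [dist_comm])
    rw [Real.dist_eq] at h2
    have : 0 ≤ 2 * L * om d := by positivity
    linarith
  · rw [rho, max_eq_right h.le] at hyz
    set r := infDist y (bad E lam)ᶜ / 4 with hr
    have hr0 : 0 < r := ht.trans h
    have h2 : ∀ x, w x ≠ 0 → 4 * r ≤ ‖y - x‖ := by
      intro x hx
      have h3 : infDist y (bad E lam)ᶜ ≤ dist y x := infDist_le_dist_of_mem (hwF x hx)
      rw [dist_eq_norm] at h3
      rw [hr]; linarith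
    have h4 : ∀ x, w x ≠ 0 → 3 * r ≤ ‖z - x‖ := by
      intro x hx
      have h5 := h2 x hx
      rw [← dist_eq_norm] at h5 ⊢
      have := dist_triangle y z x
      rw [dist_comm y z] at this
      linarith
    have h5 := osc_SI hg h0 hL0 hL hw hw1 (y := y) (y' := z) (r := 3 * r) (by positivity) hT
      (fun x hx => by have := h2 x hx; linarith) h4
    refine h5.trans ?_
    rw [← dist_eq_norm, div_le_iff₀ (by positivity)]
    rw [dist_comm] at hyz
    have h6 : 0 ≤ 2 * L * om d := by positivity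
    calc 2 * L * om d * dist y z ≤ 2 * L * om d * (3 * r) :=
          mul_le_mul_of_nonneg_left (by linarith) h6
      _ ≤ _ := by nlinarith

lemma Lap_cv_abs_le {w : Eu d → ℝ} (hw : Integrable w) (hw1 : ∀ x, |w x| ≤ 1) {T : ℝ} (hT : 0 ≤ T)
    (y : Eu d) : |Lap (cv w (vk T)) y| ≤ 2 * c0 d := by
  rw [Lap_cv hw (vk_contDiff T) (vk_hasCompactSupport hT)]
  have h1 : (Lap (vk T) : Eu d → ℝ) = fun z => mo T z - mo 0 z := by
    funext z; exact Lap_vk z
  have hi : Integrable (Lap (vk T) : Eu d → ℝ) := by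
    rw [h1]; exact (mo_integrable hT).sub (mo_integrable le_rfl)
  refine (cv_abs_le hw1 hi y).trans ?_
  rw [one_mul]
  calc ∫ x, |Lap (vk T) x| ≤ ∫ x : Eu d, (mo T x + mo 0 x) := by
        refine integral_mono hi.abs ((mo_integrable hT).add (mo_integrable le_rfl)) fun x => ?_
        simp only [h1]
        have a1 := mo_nonneg T x
        have a2 := mo_nonneg 0 x
        rw [abs_le]
        constructor <;> linarith
    _ = 2 * c0 d := by
        rw [integral_add (mo_integrable hT) (mo_integrable le_rfl), integral_mo, integral_mo]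
        ring

lemma integral_Lap_cv_le {w : Eu d → ℝ} (hw : Integrable w) {T : ℝ} (hT : 0 ≤ T) :
    ∫ y, |Lap (cv w (vk T)) y| ≤ (∫ x, |w x|) * (2 * c0 d) := by
  simp_rw [Lap_cv hw (vk_contDiff T) (vk_hasCompactSupport hT)]
  have h1 : (Lap (vk T) : Eu d → ℝ) = fun z => mo T z - mo 0 z := by
    funext z; exact Lap_vk z
  have hi : Integrable (Lap (vk T) : Eu d → ℝ) := by
    rw [h1]; exact (mo_integrable hT).sub (mo_integrable le_rfl)
  refine (integral_abs_cv_le hw hi).trans ?_
  refine mul_le_mul_of_nonneg_left ?_ (integral_nonneg fun _ => abs_nonneg _)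
  calc ∫ x, |Lap (vk T) x| ≤ ∫ x : Eu d, (mo T x + mo 0 x) := by
        refine integral_mono hi.abs ((mo_integrable hT).add (mo_integrable le_rfl)) fun x => ?_
        simp only [h1]
        have a1 := mo_nonneg T x
        have a2 := mo_nonneg 0 x
        rw [abs_le]
        constructor <;> linarith
    _ = 2 * c0 d := by
        rw [integral_add (mo_integrable hT) (mo_integrable le_rfl), integral_mo, integral_mo]
        ring

lemma cv_vk_contDiff {w : Eu d → ℝ} (hw : Integrable w) {T : ℝ} (hT : 0 ≤ T) :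
    ContDiff ℝ ∞ (cv w (vk T)) :=
  cv_contDiff hw.locallyIntegrable (vk_contDiff T) (vk_hasCompactSupport hT)

lemma cv_vk_zero {w : Eu d → ℝ} {R : ℝ} (hw0 : ∀ x : Eu d, R < ‖x‖ → w x = 0) {T : ℝ} (hT : 0 ≤ T) :
    ∀ y : Eu d, R + 1 < ‖y‖ → cv w (vk T) y = 0 := fun _ hy => cv_zero hw0 (vk_zero hT) hy

/-- first derivatives of the test function -/
lemma D1_cv_vk {w : Eu d → ℝ} (hw : Integrable w) (hw1 : ∀ x, |w x| ≤ 1) {T : ℝ} (hT : 0 ≤ T)
    (j : Fin d) (y : Eu d) : |Dd (ee j) (cv w (vk T)) y| ≤ ∫ x : Eu d, |Dd (ee j) g0 x| := by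
  rw [Dd_cv hw.locallyIntegrable (vk_contDiff T) (vk_hasCompactSupport hT)]
  have hi : Integrable (Dd (ee j) (vk T) : Eu d → ℝ) :=
    (Dd_contDiff (vk_contDiff T)).continuous.integrable_of_hasCompactSupport
      (Dd_hasCompactSupport (vk_hasCompactSupport hT))
  refine (cv_abs_le hw1 hi y).trans ?_
  rw [one_mul, Dd_vk]
  refine (integral_abs_SI_le (Dd_contDiff g0_contDiff).continuous (Dd_zero g0_zero) hT).trans ?_
  have h1 : (∫ t in (0:ℝ)..T, Real.exp (((d:ℝ) - 1 - d) * t)) ≤ 1 := by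
    have h2 : ∀ t : ℝ, Real.exp (((d:ℝ) - 1 - d) * t) = Real.exp (-t) := by
      intro t; congr 1; ring
    simp_rw [h2]
    rw [intervalIntegral.integral_comp_neg (fun t => Real.exp t), integral_exp]
    simp [(Real.exp_pos _).le]
  calc _ ≤ 1 * ∫ x : Eu d, |Dd (ee j) g0 x| :=
        mul_le_mul_of_nonneg_right h1 (integral_nonneg fun _ => abs_nonneg _)
    _ = _ := one_mul _

lemma integrable_D2 {E : Measure (Eu d)} [IsFiniteMeasure E] {U : Eu d → ℝ} (hU : ContDiff ℝ ∞ U)
    (hc : HasCompactSupport U) (i j : Fin d) :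
    Integrable (fun x => |Dd (ee i) (Dd (ee j) U) x|) E := by
  have h1 := (Dd_contDiff (a := ee i) (Dd_contDiff (a := ee j) hU)).continuous
  obtain ⟨C, _, hC⟩ := bdd_of_cc h1 (Dd_hasCompactSupport (Dd_hasCompactSupport hc))
  exact Integrable.of_bound h1.abs.aestronglyMeasurable C
    (Eventually.of_forall fun y => by simpa using hC y)

lemma integrable_D1 {E : Measure (Eu d)} [IsFiniteMeasure E] {U : Eu d → ℝ} (hU : ContDiff ℝ ∞ U)
    (hc : HasCompactSupport U) (j : Fin d) :
    Integrable (fun x => |Dd (ee j) U x|) E := by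
  have h1 := (Dd_contDiff (a := ee j) hU).continuous
  obtain ⟨C, _, hC⟩ := bdd_of_cc h1 (Dd_hasCompactSupport hc)
  exact Integrable.of_bound h1.abs.aestronglyMeasurable C
    (Eventually.of_forall fun y => by simpa using hC y)

lemma integral_D2_le {E : Measure (Eu d)} [IsFiniteMeasure E] {U : Eu d → ℝ} (hU : ContDiff ℝ ∞ U)
    (hc : HasCompactSupport U) :
    ∫ x, ‖fderiv ℝ (fderiv ℝ U) x‖ ∂E ≤ ∑ i, ∑ j, ∫ x, |Dd (ee i) (Dd (ee j) U) x| ∂E := by
  have hi : ∀ i j : Fin d, Integrable (fun x => |Dd (ee i) (Dd (ee j) U) x|) E :=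
    integrable_D2 hU hc
  calc ∫ x, ‖fderiv ℝ (fderiv ℝ U) x‖ ∂E ≤ ∫ x, ∑ i, ∑ j, |Dd (ee i) (Dd (ee j) U) x| ∂E := by
        refine integral_mono_of_nonneg
          (Eventually.of_forall fun x => norm_nonneg (fderiv ℝ (fderiv ℝ U) x))
          (integrable_finsetSum _ fun i _ => integrable_finsetSum _ fun j _ => hi i j)
          (Eventually.of_forall fun x => norm_D2_le hU x)
    _ = _ := by
        rw [integral_finsetSum _ fun i _ => integrable_finsetSum _ fun j _ => hi i j]
        refine Finset.sum_congr rfl fun i _ => ?_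
        rw [integral_finsetSum _ fun j _ => hi i j]

lemma integral_D1_le {E : Measure (Eu d)} [IsFiniteMeasure E] {U : Eu d → ℝ} (hU : ContDiff ℝ ∞ U)
    (hc : HasCompactSupport U) :
    ∫ x, ‖fderiv ℝ U x‖ ∂E ≤ ∑ j, ∫ x, |Dd (ee j) U x| ∂E := by
  have hi : ∀ j : Fin d, Integrable (fun x => |Dd (ee j) U x|) E := integrable_D1 hU hc
  calc ∫ x, ‖fderiv ℝ U x‖ ∂E ≤ ∫ x, ∑ j, |Dd (ee j) U x| ∂E := by
        refine integral_mono_of_nonneg (Eventually.of_forall fun x => norm_nonneg (fderiv ℝ U x))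
          (integrable_finsetSum _ fun j _ => hi j)
          (Eventually.of_forall fun x => norm_D1_le U x)
    _ = _ := by
        rw [integral_finsetSum _ fun j _ => hi j]

end

end Crest.Agent.R234.Sc173
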