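import Crest.Agent.R234.Sc7_173

/-!
Row 234, strong constancy lemma (helper173).  Part 8: the weak type estimate, conclusion.
-/

set_option autoImplicit false

open MeasureTheory Metric Set Filter Topology
open scoped ContDiff ENNReal

namespace Crest.Agent.R234.Sc173

noncomputable section

open Crest.Agent.R246.H2x622 (Psi eta deta Psi_contDiff eta_contDiff deta_contDiff Psi_zero eta_zero
  deta_zero hasFDerivAt_Psi hasFDerivAt_eta G1_nonneg)

variable {d : ℕ}

/-- the set where the mollification drops -/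
def NN (A : Measure (Eu d)) (T lam : ℝ) : Set (Eu d) :=
  {x | x ∈ ball (0 : Eu d) 2 ∧ fA A T x - fA A 0 x < -lam}

lemma NN_measurable (A : Measure (Eu d)) [IsFiniteMeasure A] {T : ℝ} (hT : 0 ≤ T) (lam : ℝ) :
    MeasurableSet (NN A T lam) := by
  have h1 : IsOpen {x : Eu d | fA A T x - fA A 0 x < -lam} :=
    isOpen_lt ((fA_continuous A hT).sub (fA_continuous A le_rfl)) continuous_const
  exact (isOpen_ball.inter h1).measurableSet

lemma exists_L (d : ℕ) : ∃ L : ℝ, 0 ≤ L ∧ ∀ i j : Fin d, ∀ x y : Eu d,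
    |Dd (ee i) (Dd (ee j) g0) x - Dd (ee i) (Dd (ee j) g0) y| ≤ L * ‖x - y‖ := by
  have h1 : ∀ i j : Fin d, ∃ C, LipschitzWith C (Dd (ee i) (Dd (ee j) g0) : Eu d → ℝ) := by
    intro i j
    refine ContDiff.lipschitzWith_of_hasCompactSupport (𝕂 := ℝ) (n := ∞)
      (Dd_hasCompactSupport (Dd_hasCompactSupport (hasCompactSupport_of_zero g0_zero)))
      (Dd_contDiff (Dd_contDiff g0_contDiff)) (by simp)
  choose C hC using h1
  refine ⟨∑ i, ∑ j, (C i j : ℝ), Finset.sum_nonneg fun i _ => Finset.sum_nonneg fun j _ => (C i j).2,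
    fun i j x y => ?_⟩
  have h2 := (hC i j).dist_le_mul x y
  rw [Real.dist_eq, dist_eq_norm] at h2
  refine h2.trans (mul_le_mul_of_nonneg_right ?_ (norm_nonneg _))
  have h3 : (C i j : ℝ) ≤ ∑ j, (C i j : ℝ) :=
    Finset.single_le_sum (f := fun j => (C i j : ℝ)) (fun j _ => (C i j).2) (Finset.mem_univ j)
  have h4 : ∑ j, (C i j : ℝ) ≤ ∑ i, ∑ j, (C i j : ℝ) :=
    Finset.single_le_sum (f := fun i => ∑ j, (C i j : ℝ))
      (fun i _ => Finset.sum_nonneg fun j _ => (C i j).2) (Finset.mem_univ i)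
  exact h3.trans h4

/-- **weak type estimate** -/
theorem weak (hd : 0 < d) : ∃ C : ℝ, 0 ≤ C ∧ ∀ (A E G : Measure (Eu d)) [IsFiniteMeasure A]
    [IsFiniteMeasure E] [IsFiniteMeasure G] (δ : ℝ), H2 A E G → E.real univ ≤ δ → G.real univ ≤ δ →
    ∀ T, 0 ≤ T → ∀ lam, 0 < lam → lam * volume.real (NN A T lam) ≤ C * δ := by
  obtain ⟨L, hL0, hL⟩ := exists_L d
  have hom := @om_pos d
  have hc := @c0_pos d
  set C1 : ℝ := 2 * L * om d + 1 with hC1
  have hC10 : 0 ≤ C1 := by positivity
  set C2 : ℝ := ∑ j, ∫ x : Eu d, |Dd (ee j) g0 x| with hC2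
  have hC20 : 0 ≤ C2 := Finset.sum_nonneg fun j _ => integral_nonneg fun _ => abs_nonneg _
  set C3 : ℝ := d ^ 2 * (14 ^ d * (8 * c0 d ^ 2) + C1) + C2 with hC3
  have hC30 : 0 ≤ C3 := by positivity
  refine ⟨2 * C3 + 5 ^ d, by positivity, ?_⟩
  intro A E G _ _ _ δ h2 hE hG T hT lam hl
  have hδ : 0 ≤ δ := measureReal_nonneg.trans hE
  set S : Set (Eu d) := NN A T lam \ bad E lam with hS
  have hSm : MeasurableSet S := (NN_measurable A hT lam).diff (isOpen_bad E lam).measurableSet
  have hSsub : S ⊆ ball 0 2 := fun x hx => hx.1.1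
  have hSfin : volume S ≠ ⊤ := ((measure_mono hSsub).trans_lt measure_ball_lt_top).ne
  set w : Eu d → ℝ := S.indicator 1 with hw
  have hwm : Measurable w := measurable_one.indicator hSm
  have hw1 : ∀ x, |w x| ≤ 1 := by
    intro x
    rw [hw]
    by_cases hx : x ∈ S
    · simp [hx]
    · simp [hx]
  have hwS : ∀ x, w x ≠ 0 → x ∈ S := by
    intro x hx
    by_contra hcon
    exact hx (by rw [hw, indicator_of_notMem hcon])
  have hwi : Integrable w := by
    rw [hw]
    exact (integrable_indicator_iff hSm).2 (integrableOn_const hSfin)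
  have hw0 : ∀ x : Eu d, 2 < ‖x‖ → w x = 0 := by
    intro x hx
    by_contra hcon
    have := hSsub (hwS x hcon)
    rw [mem_ball_zero_iff] at this
    linarith
  set U := cv w (vk T) with hU
  have hUd : ContDiff ℝ ∞ U := cv_vk_contDiff hwi hT
  have hU0 : ∀ y : Eu d, 2 + 1 < ‖y‖ → U y = 0 := cv_vk_zero hw0 hT
  have hUc : HasCompactSupport U := hasCompactSupport_of_zero hU0
  have hUt : tsupport U ⊆ ball (0 : Eu d) 4 :=
    (tsupport_of_zero hU0).trans (closedBall_subset_ball (by norm_num))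
  have hmain := h2 U hUd hUc hUt
  -- the gradient term
  have hI1 : ∫ x, ‖fderiv ℝ U x‖ ∂G ≤ C2 * δ := by
    refine (integral_D1_le hUd hUc).trans ?_
    rw [hC2, Finset.sum_mul]
    refine Finset.sum_le_sum fun j _ => ?_
    calc ∫ x, |Dd (ee j) U x| ∂G ≤ ∫ x, (∫ x : Eu d, |Dd (ee j) g0 x|) ∂G := by
          refine integral_mono (integrable_D1 hUd hUc j) (integrable_const _) fun y => ?_
          exact D1_cv_vk hwi hw1 hT j y
      _ = (∫ x : Eu d, |Dd (ee j) g0 x|) * G.real univ := by
          rw [integral_const, smul_eq_mul, mul_comm]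
      _ ≤ _ := mul_le_mul_of_nonneg_left hG (integral_nonneg fun _ => abs_nonneg _)
  -- the Hessian term
  have hkap : 0 < lam / (8 * c0 d ^ 2) := by positivity
  have hI2 : ∫ x, ‖fderiv ℝ (fderiv ℝ U) x‖ ∂E ≤
      lam / (8 * c0 d ^ 2) * (∫ x, Lap U x ^ 2) + d ^ 2 * (14 ^ d * (8 * c0 d ^ 2) + C1) * δ := by
    refine (integral_D2_le hUd hUc).trans ?_
    have h3 : ∀ i j : Fin d, ∫ x, |Dd (ee i) (Dd (ee j) U) x| ∂E ≤
        lam / (8 * c0 d ^ 2) * (∫ x, (Dd (ee i) (Dd (ee j) U) x) ^ 2) +
          (14 ^ d * (8 * c0 d ^ 2) + C1) * δ := by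
      intro i j
      have h4 : Dd (ee i) (Dd (ee j) U) = cv w (SI (Dd (ee i) (Dd (ee j) g0)) d T) := by
        rw [hU, Dd_cv hwi.locallyIntegrable (vk_contDiff T) (vk_hasCompactSupport hT),
          Dd_cv hwi.locallyIntegrable (Dd_contDiff (vk_contDiff T))
            (Dd_hasCompactSupport (vk_hasCompactSupport hT)), Dd_Dd_vk]
      have h5 : Continuous (Dd (ee i) (Dd (ee j) U)) := (Dd_contDiff (Dd_contDiff hUd)).continuous
      have h6 : HasCompactSupport (Dd (ee i) (Dd (ee j) U)) :=
        Dd_hasCompactSupport (Dd_hasCompactSupport hUc)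
      have h7 : UniformContinuous (cv w (SI (Dd (ee i) (Dd (ee j) g0)) d T)) := by
        rw [← h4]
        exact h6.uniformContinuous_of_continuous h5
      obtain ⟨tau, ht, h8⟩ := osc_app (E := E) (lam := lam) hwm hw1 (fun x hx => (hwS x hx).2)
        (Dd_contDiff (Dd_contDiff g0_contDiff)).continuous (Dd_zero (Dd_zero g0_zero)) hL0 (hL i j)
        hT h7
      rw [← h4] at h8
      have h9 := smoothing_real hd hl ht h5 h6 hC10 h8 hkap
      refine h9.trans ?_
      have h10 : 14 ^ d * lam / (lam / (8 * c0 d ^ 2)) = 14 ^ d * (8 * c0 d ^ 2) := by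
        field_simp
      rw [h10]
      have h11 : 0 ≤ 14 ^ d * (8 * c0 d ^ 2) + C1 := by positivity
      have := mul_le_mul_of_nonneg_left hE h11
      linarith
    calc ∑ i, ∑ j, ∫ x, |Dd (ee i) (Dd (ee j) U) x| ∂E
        ≤ ∑ i : Fin d, ∑ j : Fin d, (lam / (8 * c0 d ^ 2) * (∫ x, (Dd (ee i) (Dd (ee j) U) x) ^ 2) +
          (14 ^ d * (8 * c0 d ^ 2) + C1) * δ) :=
          Finset.sum_le_sum fun i _ => Finset.sum_le_sum fun j _ => h3 i j
      _ = _ := by
          rw [← l2_id hUd hUc]
          simp only [Finset.sum_add_distrib, Finset.sum_const, Finset.card_univ, Fintype.card_fin,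
            nsmul_eq_mul, ← Finset.mul_sum]
          ring
  have hw_abs : ∀ x, |w x| = w x := by
    intro x
    rw [hw]
    by_cases hx : x ∈ S
    · simp [hx]
    · simp [hx]
  have hwint : ∫ x, |w x| = volume.real S := by
    simp_rw [hw_abs]
    rw [hw, integral_indicator_one hSm]
  -- the `L²` norm
  have hL2 : ∫ x, Lap U x ^ 2 ≤ 4 * c0 d ^ 2 * volume.real S := by
    have hLc : Continuous (Lap U) := Lap_continuous hUd
    have hLs : HasCompactSupport (Lap U) := Lap_hasCompactSupport hUc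
    have hLi : Integrable (fun x => |Lap U x|) :=
      (hLc.integrable_of_hasCompactSupport hLs).abs
    calc ∫ x, Lap U x ^ 2 ≤ ∫ x, 2 * c0 d * |Lap U x| := by
          refine integral_mono_of_nonneg (Eventually.of_forall fun _ => sq_nonneg _)
            (hLi.const_mul _) (Eventually.of_forall fun x => ?_)
          simp only
          rw [← sq_abs, pow_two]
          exact mul_le_mul_of_nonneg_right (Lap_cv_abs_le hwi hw1 hT x) (abs_nonneg _)
      _ = 2 * c0 d * ∫ x, |Lap U x| := integral_const_mul _ _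
      _ ≤ 2 * c0 d * ((∫ x, |w x|) * (2 * c0 d)) :=
          mul_le_mul_of_nonneg_left (integral_Lap_cv_le hwi hT) (by positivity)
      _ = _ := by rw [hwint]; ring
  -- the left hand side
  have hleft : lam * volume.real S ≤ -∫ x, Lap U x ∂A := by
    rw [hU, pairing_vk hwi hT]
    have h3 : ∀ x, w x * (fA A T x - fA A 0 x) = S.indicator (fun x => fA A T x - fA A 0 x) x := by
      intro x
      rw [hw]
      by_cases hx : x ∈ S
      · simp [hx]
      · simp [hx]
    simp_rw [h3]
    rw [integral_indicator hSm, ← integral_neg]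
    have hcont : Continuous fun x => -(fA A T x - fA A 0 x) :=
      ((fA_continuous A hT).sub (fA_continuous A le_rfl)).neg
    have h4 : ∫ x in S, lam ≤ ∫ x in S, -(fA A T x - fA A 0 x) := by
      refine setIntegral_mono_on (integrableOn_const hSfin) ?_ hSm fun x hx => ?_
      · exact (hcont.continuousOn.integrableOn_compact (isCompact_closedBall (0 : Eu d) 2)).mono_set
          (hSsub.trans ball_subset_closedBall)
      · have := hx.1.2
        linarith
    rw [setIntegral_const, smul_eq_mul] at h4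
    linarith
  have h5 : lam * volume.real S ≤ 2 * C3 * δ := by
    have h6 : -∫ x, Lap U x ∂A ≤ |∫ x, Lap U x ∂A| := neg_le_abs _
    have h7 : lam / (8 * c0 d ^ 2) * (∫ x, Lap U x ^ 2) ≤ lam * volume.real S / 2 := by
      refine (mul_le_mul_of_nonneg_left hL2 hkap.le).trans_eq ?_
      field_simp
      ring
    have h8 : C3 * δ = d ^ 2 * (14 ^ d * (8 * c0 d ^ 2) + C1) * δ + C2 * δ := by rw [hC3]; ring
    linarith
  -- the bad set
  have h9 : lam * volume.real (bad E lam) ≤ 5 ^ d * δ := by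
    have h10 := vol_bad hd E hl
    have h11 : volume.real (bad E lam) ≤ 5 ^ d / lam * E.real univ := by
      unfold Measure.real
      rw [← ENNReal.toReal_ofReal (show 0 ≤ (5:ℝ) ^ d / lam by positivity), ← ENNReal.toReal_mul]
      exact ENNReal.toReal_mono (by finiteness) h10
    calc lam * volume.real (bad E lam) ≤ lam * (5 ^ d / lam * E.real univ) :=
          mul_le_mul_of_nonneg_left h11 hl.le
      _ = 5 ^ d * E.real univ := by field_simp
      _ ≤ _ := mul_le_mul_of_nonneg_left hE (by positivity)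
  have h12 : volume.real (NN A T lam) ≤ volume.real S + volume.real (bad E lam) := by
    have h13 : NN A T lam ⊆ S ∪ bad E lam := by
      intro x hx
      by_cases h : x ∈ bad E lam
      · exact Or.inr h
      · exact Or.inl ⟨hx, h⟩
    have hfin : volume (bad E lam) ≠ ⊤ :=
      ((vol_bad hd E hl).trans_lt (by finiteness)).ne
    refine (measureReal_mono h13 ?_).trans (measureReal_union_le _ _)
    exact (measure_union_lt_top hSfin.lt_top hfin.lt_top).ne
  calc lam * volume.real (NN A T lam) ≤ lam * (volume.real S + volume.real (bad E lam)) :=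
        mul_le_mul_of_nonneg_left h12 hl.le
    _ ≤ _ := by rw [mul_add]; linarith

end

end Crest.Agent.R234.Sc173
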