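import Crest.Agent.R234.Sc8_173

/-!
Row 234, strong constancy lemma (helper173).  Part 9: the `L¹` estimate (Scheffé).
-/

set_option autoImplicit false

open MeasureTheory Metric Set Filter Topology
open scoped ContDiff ENNReal

namespace Crest.Agent.R234.Sc173

noncomputable section

open Crest.Agent.R246.H2x622 (Psi eta deta Psi_contDiff eta_contDiff deta_contDiff Psi_zero eta_zero
  deta_zero hasFDerivAt_Psi hasFDerivAt_eta G1_nonneg)

variable {d : ℕ}

/-- the cutoff -/
def phb (d : ℕ) : ContDiffBump (0 : Eu d) where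
  rIn := 1
  rOut := 2
  rIn_pos := one_pos
  rIn_lt_rOut := by norm_num

/-- the cutoff function -/
def ph (x : Eu d) : ℝ := phb d x

lemma ph_contDiff : ContDiff ℝ ∞ (ph : Eu d → ℝ) := (phb d).contDiff

lemma ph_nonneg (x : Eu d) : 0 ≤ ph x := (phb d).nonneg

lemma ph_le_one (x : Eu d) : ph x ≤ 1 := (phb d).le_one

lemma ph_abs_le (x : Eu d) : |ph x| ≤ 1 := by
  rw [abs_of_nonneg (ph_nonneg x)]; exact ph_le_one x

lemma ph_one {x : Eu d} (hx : x ∈ ball (0 : Eu d) 1) : ph x = 1 :=
  (phb d).one_of_mem_closedBall (ball_subset_closedBall hx)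

lemma ph_zero : ∀ x : Eu d, 2 < ‖x‖ → ph x = 0 := by
  intro x hx
  refine (phb d).zero_of_le_dist ?_
  rw [dist_zero_right]
  exact hx.le

lemma ph_zero' {x : Eu d} (hx : x ∉ ball (0 : Eu d) 2) : ph x = 0 := by
  refine (phb d).zero_of_le_dist ?_
  rw [mem_ball, not_lt] at hx
  exact hx

lemma ph_integrable : Integrable (ph : Eu d → ℝ) :=
  ph_contDiff.continuous.integrable_of_hasCompactSupport (hasCompactSupport_of_zero ph_zero)

lemma vk_integrable {T : ℝ} (hT : 0 ≤ T) : Integrable (vk T : Eu d → ℝ) :=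
  (vk_contDiff T).continuous.integrable_of_hasCompactSupport (vk_hasCompactSupport hT)

lemma integral_abs_vk {T : ℝ} (hT : 0 ≤ T) : ∫ x : Eu d, |vk T x| ≤ ∫ x : Eu d, |g0 x| := by
  unfold vk
  refine (integral_abs_SI_le g0_contDiff.continuous g0_zero hT).trans ?_
  have h1 : (∫ t in (0:ℝ)..T, Real.exp (((d:ℝ) - 2 - d) * t)) ≤ 1 := by
    have h2 : ∀ t : ℝ, 0 ≤ t → Real.exp (((d:ℝ) - 2 - d) * t) ≤ Real.exp (-t) := by
      intro t ht
      exact Real.exp_le_exp.2 (by nlinarith)
    calc (∫ t in (0:ℝ)..T, Real.exp (((d:ℝ) - 2 - d) * t)) ≤ ∫ t in (0:ℝ)..T, Real.exp (-t) := by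
          refine intervalIntegral.integral_mono_on hT
            (Continuous.intervalIntegrable (by fun_prop) _ _)
            (Continuous.intervalIntegrable (by fun_prop) _ _) fun t ht => h2 t ht.1
      _ ≤ 1 := by
          rw [intervalIntegral.integral_comp_neg (fun t => Real.exp t), integral_exp]
          simp [(Real.exp_pos _).le]
  calc _ ≤ 1 * ∫ x : Eu d, |g0 x| :=
        mul_le_mul_of_nonneg_right h1 (integral_nonneg fun _ => abs_nonneg _)
    _ = _ := one_mul _

lemma D2_cv_ph (i j : Fin d) : ∃ C : ℝ, 0 ≤ C ∧ ∀ T, 0 ≤ T → ∀ y : Eu d,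
    |Dd (ee i) (Dd (ee j) (cv ph (vk T))) y| ≤ C := by
  have hcph : HasCompactSupport (ph : Eu d → ℝ) := hasCompactSupport_of_zero ph_zero
  obtain ⟨C, hC0, hC⟩ := bdd_of_cc (Dd_contDiff (a := ee i) (Dd_contDiff (a := ee j) ph_contDiff)).continuous
    (Dd_hasCompactSupport (Dd_hasCompactSupport hcph))
  refine ⟨C * ∫ x : Eu d, |g0 x|, mul_nonneg hC0 (integral_nonneg fun _ => abs_nonneg _),
    fun T hT y => ?_⟩
  rw [cv_comm, Dd_cv (vk_integrable hT).locallyIntegrable ph_contDiff hcph,
    Dd_cv (vk_integrable hT).locallyIntegrable (Dd_contDiff ph_contDiff) (Dd_hasCompactSupport hcph),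
    cv_comm]
  exact (cv_abs_le hC (vk_integrable hT) y).trans
    (mul_le_mul_of_nonneg_left (integral_abs_vk hT) hC0)

/-- test with the cutoff -/
lemma ph_pair (d : ℕ) : ∃ C : ℝ, 0 ≤ C ∧ ∀ (A E G : Measure (Eu d)) [IsFiniteMeasure A]
    [IsFiniteMeasure E] [IsFiniteMeasure G] (δ : ℝ), H2 A E G → E.real univ ≤ δ → G.real univ ≤ δ →
    ∀ T, 0 ≤ T → |∫ x, ph x * (fA A T x - fA A 0 x)| ≤ C * δ := by
  choose C hC0 hC using D2_cv_ph (d := d)
  set C2 : ℝ := ∑ j, ∫ x : Eu d, |Dd (ee j) g0 x| with hC2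
  have hC20 : 0 ≤ C2 := Finset.sum_nonneg fun j _ => integral_nonneg fun _ => abs_nonneg _
  have hC30 : 0 ≤ ∑ i, ∑ j, C i j :=
    Finset.sum_nonneg fun i _ => Finset.sum_nonneg fun j _ => hC0 i j
  refine ⟨(∑ i, ∑ j, C i j) + C2, by positivity, ?_⟩
  intro A E G _ _ _ δ h2 hE hG T hT
  rw [← pairing_vk ph_integrable hT]
  set U : Eu d → ℝ := cv ph (vk T) with hU
  have hUd : ContDiff ℝ ∞ U := cv_vk_contDiff ph_integrable hT
  have hU0 : ∀ y : Eu d, 2 + 1 < ‖y‖ → U y = 0 := cv_vk_zero ph_zero hT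
  have hUc : HasCompactSupport U := hasCompactSupport_of_zero hU0
  have hUt : tsupport U ⊆ ball (0 : Eu d) 4 :=
    (tsupport_of_zero hU0).trans (closedBall_subset_ball (by norm_num))
  have hmain := h2 U hUd hUc hUt
  have hI1 : ∫ x, ‖fderiv ℝ U x‖ ∂G ≤ C2 * δ := by
    refine (integral_D1_le hUd hUc).trans ?_
    rw [hC2, Finset.sum_mul]
    refine Finset.sum_le_sum fun j _ => ?_
    calc ∫ x, |Dd (ee j) U x| ∂G ≤ ∫ x, (∫ x : Eu d, |Dd (ee j) g0 x|) ∂G := by
          refine integral_mono (integrable_D1 hUd hUc j) (integrable_const _) fun y => ?_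
          exact D1_cv_vk ph_integrable ph_abs_le hT j y
      _ = (∫ x : Eu d, |Dd (ee j) g0 x|) * G.real univ := by
          rw [integral_const, smul_eq_mul, mul_comm]
      _ ≤ _ := mul_le_mul_of_nonneg_left hG (integral_nonneg fun _ => abs_nonneg _)
  have hI2 : ∫ x, ‖fderiv ℝ (fderiv ℝ U) x‖ ∂E ≤ (∑ i, ∑ j, C i j) * δ := by
    refine (integral_D2_le hUd hUc).trans ?_
    rw [Finset.sum_mul]
    refine Finset.sum_le_sum fun i _ => ?_
    rw [Finset.sum_mul]
    refine Finset.sum_le_sum fun j _ => ?_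
    calc ∫ x, |Dd (ee i) (Dd (ee j) U) x| ∂E ≤ ∫ x, C i j ∂E := by
          refine integral_mono (integrable_D2 hUd hUc i j) (integrable_const _) fun y => ?_
          exact hC i j T hT y
      _ = C i j * E.real univ := by
          rw [integral_const, smul_eq_mul, mul_comm]
      _ ≤ _ := mul_le_mul_of_nonneg_left hE (hC0 i j)
  refine hmain.trans ?_
  rw [add_mul]
  linarith

/-- sup bound of the mollification at scale one -/
lemma fA_zero_le (d : ℕ) : ∃ C : ℝ, 0 ≤ C ∧ ∀ (A : Measure (Eu d)) [IsFiniteMeasure A] (M : ℝ),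
    A.real univ ≤ M → ∀ x, fA A 0 x ≤ C * M := by
  obtain ⟨C, hC0, hC⟩ := mo_bdd (d := d) (t := 0) le_rfl
  refine ⟨C, hC0, fun A _ M hM x => ?_⟩
  calc fA A 0 x ≤ ∫ y, C ∂A := by
        refine integral_mono (integrable_fA A le_rfl x) (integrable_const _) fun y => ?_
        exact (le_abs_self _).trans (hC _)
    _ = C * A.real univ := by rw [integral_const, smul_eq_mul, mul_comm]
    _ ≤ _ := mul_le_mul_of_nonneg_left hM hC0

/-- the `L¹` estimate, positive parameters -/
lemma l1_aux (hd : 0 < d) : ∃ C : ℝ, 0 ≤ C ∧ ∀ (A E G : Measure (Eu d)) [IsFiniteMeasure A]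
    [IsFiniteMeasure E] [IsFiniteMeasure G] (M δ : ℝ), H2 A E G → 0 < M → 0 < δ → A.real univ ≤ M →
    E.real univ ≤ δ → G.real univ ≤ δ → ∀ T, 0 ≤ T →
    ∫ x, ph x * |fA A T x - fA A 0 x| ≤ C * (δ + Real.sqrt (M * δ)) := by
  obtain ⟨Ca, hCa0, hCa⟩ := weak (d := d) hd
  obtain ⟨Cb, hCb0, hCb⟩ := ph_pair d
  obtain ⟨Cc, hCc0, hCc⟩ := fA_zero_le d
  have hom := @om_pos d
  refine ⟨Cb + 2 * (2 ^ d * om d + Cc * Ca), by positivity, ?_⟩
  intro A E G _ _ _ M δ h2 hM hδ hAM hE hG T hT
  set lam := Real.sqrt (M * δ) with hlam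
  have hl : 0 < lam := Real.sqrt_pos.2 (by positivity)
  have hl2 : lam * lam = M * δ := Real.mul_self_sqrt (by positivity)
  have hw := hCa A E G δ h2 hE hG T hT lam hl
  have hp := hCb A E G δ h2 hE hG T hT
  set D : Eu d → ℝ := fun x => fA A T x - fA A 0 x with hD
  have hDc : Continuous D := (fA_continuous A hT).sub (fA_continuous A le_rfl)
  have hcph : HasCompactSupport (ph : Eu d → ℝ) := hasCompactSupport_of_zero ph_zero
  have hi1 : Integrable fun x => ph x * D x :=
    (ph_contDiff.continuous.mul hDc).integrable_of_hasCompactSupport hcph.mul_right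
  have hi2 : Integrable fun x => ph x * |D x| :=
    (ph_contDiff.continuous.mul hDc.abs).integrable_of_hasCompactSupport hcph.mul_right
  have hNm := NN_measurable A hT lam
  have hNsub : NN A T lam ⊆ ball 0 2 := fun x hx => hx.1
  have hNfin : volume (NN A T lam) ≠ ⊤ := ((measure_mono hNsub).trans_lt measure_ball_lt_top).ne
  have hi3 : Integrable ((ball (0 : Eu d) 2).indicator fun _ => lam) :=
    (integrable_indicator_iff measurableSet_ball).2 (integrableOn_const measure_ball_lt_top.ne)
  have hi4 : Integrable ((NN A T lam).indicator fun _ => Cc * M) :=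
    (integrable_indicator_iff hNm).2 (integrableOn_const hNfin)
  have hi34 : Integrable fun x => (ball (0 : Eu d) 2).indicator (fun _ => lam) x +
      (NN A T lam).indicator (fun _ => Cc * M) x := hi3.add hi4
  have hpt : ∀ x, ph x * |D x| ≤ ph x * D x + 2 * ((ball (0 : Eu d) 2).indicator (fun _ => lam) x +
      (NN A T lam).indicator (fun _ => Cc * M) x) := by
    intro x
    by_cases hx : x ∈ ball (0 : Eu d) 2
    · have hp0 := ph_nonneg x
      have hp1 := ph_le_one x
      rw [indicator_of_mem hx]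
      by_cases hN : x ∈ NN A T lam
      · rw [indicator_of_mem hN]
        have h1 : D x < -lam := hN.2
        have h3 : -D x ≤ Cc * M := by
          have h4 := fA_nonneg A T x
          have h5 := hCc A M hAM x
          simp only [hD]
          linarith
        rw [abs_of_neg (by linarith)]
        have h6 : 0 ≤ -D x := by linarith
        have h7 : ph x * -D x ≤ 1 * -D x := mul_le_mul_of_nonneg_right hp1 h6
        linarith
      · rw [indicator_of_notMem hN]
        have h1 : -lam ≤ D x := by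
          by_contra hcon
          exact hN ⟨hx, not_le.1 hcon⟩
        rcases le_total 0 (D x) with h0 | h0
        · rw [abs_of_nonneg h0]; linarith
        · rw [abs_of_nonpos h0]
          have h7 : ph x * -D x ≤ 1 * -D x := mul_le_mul_of_nonneg_right hp1 (by linarith)
          linarith
    · have h1 := ph_zero' hx
      rw [indicator_of_notMem hx, indicator_of_notMem fun h => hx (hNsub h), h1]
      simp
  calc ∫ x, ph x * |D x| ≤ ∫ x, (ph x * D x + 2 * ((ball (0 : Eu d) 2).indicator (fun _ => lam) x +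
        (NN A T lam).indicator (fun _ => Cc * M) x)) :=
        integral_mono hi2 (hi1.add (hi34.const_mul 2)) hpt
    _ = (∫ x, ph x * D x) + 2 * (2 ^ d * om d * lam + Cc * M * volume.real (NN A T lam)) := by
        rw [integral_add hi1 (hi34.const_mul 2), integral_const_mul]
        congr 2
        rw [integral_add hi3 hi4, integral_indicator_const _ measurableSet_ball, integral_indicator_const _ hNm,
          smul_eq_mul, smul_eq_mul]
        congr 1
        · congr 1
          rw [Measure.real, vol_ball _ two_pos, ENNReal.toReal_ofReal (by positivity)]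
        · ring
    _ ≤ Cb * δ + 2 * (2 ^ d * om d * lam + Cc * (Ca * lam)) := by
        have h1 : M * volume.real (NN A T lam) ≤ Ca * lam := by
          have h3 : lam * (M * volume.real (NN A T lam)) ≤ lam * (Ca * lam) := by
            calc lam * (M * volume.real (NN A T lam)) = M * (lam * volume.real (NN A T lam)) := by ring
              _ ≤ M * (Ca * δ) := mul_le_mul_of_nonneg_left hw hM.le
              _ = Ca * (lam * lam) := by rw [hl2]; ring
              _ = _ := by ring
          exact le_of_mul_le_mul_left h3 hl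
        have h4 : Cc * M * volume.real (NN A T lam) ≤ Cc * (Ca * lam) := by
          rw [mul_assoc]
          exact mul_le_mul_of_nonneg_left h1 hCc0
        have h5 := le_abs_self (∫ x, ph x * D x)
        linarith
    _ ≤ _ := by
        have h1 : 0 ≤ Cb * lam := by positivity
        have h3 : 0 ≤ (2 * (2 ^ d * om d + Cc * Ca)) * δ := by positivity
        nlinarith

/-- **the `L¹` estimate** -/
theorem l1_est (hd : 0 < d) : ∃ C : ℝ, 0 ≤ C ∧ ∀ (A E G : Measure (Eu d)) [IsFiniteMeasure A]
    [IsFiniteMeasure E] [IsFiniteMeasure G] (M δ : ℝ), H2 A E G → A.real univ ≤ M →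
    E.real univ ≤ δ → G.real univ ≤ δ → ∀ T, 0 ≤ T →
    ∫ x in ball 0 1, |fA A T x - fA A 0 x| ≤ C * (δ + Real.sqrt (M * δ)) := by
  obtain ⟨C, hC0, hC⟩ := l1_aux (d := d) hd
  refine ⟨C, hC0, ?_⟩
  intro A E G _ _ _ M δ h2 hAM hE hG T hT
  have hM : 0 ≤ M := measureReal_nonneg.trans hAM
  have hδ : 0 ≤ δ := measureReal_nonneg.trans hE
  have h1 : ∫ x, ph x * |fA A T x - fA A 0 x| ≤ C * (δ + Real.sqrt (M * δ)) := by
    have ht : Tendsto (fun e : ℝ => C * ((δ + e) + Real.sqrt ((M + e) * (δ + e)))) (𝓝[>] 0)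
        (𝓝 (C * ((δ + 0) + Real.sqrt ((M + 0) * (δ + 0))))) := by
      refine (Continuous.tendsto ?_ 0).mono_left nhdsWithin_le_nhds
      fun_prop
    simp only [add_zero] at ht
    refine ge_of_tendsto ht ?_
    filter_upwards [self_mem_nhdsWithin] with e he
    have he' : 0 < e := he
    exact hC A E G (M + e) (δ + e) h2 (by linarith) (by linarith) (by linarith) (by linarith)
      (by linarith) T hT
  refine le_trans ?_ h1
  have hDc : Continuous fun x => |fA A T x - fA A 0 x| :=
    ((fA_continuous A hT).sub (fA_continuous A le_rfl)).abs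
  have hcph : HasCompactSupport (ph : Eu d → ℝ) := hasCompactSupport_of_zero ph_zero
  have hi2 : Integrable fun x => ph x * |fA A T x - fA A 0 x| :=
    (ph_contDiff.continuous.mul hDc).integrable_of_hasCompactSupport hcph.mul_right
  rw [← integral_indicator measurableSet_ball]
  refine integral_mono_of_nonneg (Eventually.of_forall fun x => ?_) hi2
    (Eventually.of_forall fun x => ?_)
  · exact indicator_nonneg (fun _ _ => abs_nonneg _) x
  · by_cases hx : x ∈ ball (0 : Eu d) 1
    · simp only [indicator_of_mem hx, ph_one hx, one_mul, le_refl]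
    · simp only [indicator_of_notMem hx]
      exact mul_nonneg (ph_nonneg x) (abs_nonneg _)

end

end Crest.Agent.R234.Sc173
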