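import Crest.Agent.R234.Sc3_173

/-!
Row 234, application of the strong constancy lemma (helper372), part 1: algebra of positive forms,
the projection onto a subspace given by an isometry `J`, the cut-off in the orthogonal directions,
push-forward of weighted measures.
-/

set_option autoImplicit false

open MeasureTheory Metric Set Filter Topology
open scoped ContDiff InnerProductSpace ENNReal

noncomputable section

namespace Crest.Agent.R234.Sca_372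

open Crest.Agent.R234.Sc173 (Eu Dd ee Lap Dd_contDiff Dd_hasCompactSupport Dd_Dd_eq)

variable {F : Type*} [NormedAddCommGroup F] [InnerProductSpace ℝ F]

/-- Cauchy-Schwarz for a positive symmetric form. -/
theorem psd_cs {q : F →L[ℝ] F} (hs : ∀ u v, ⟪q u, v⟫_ℝ = ⟪u, q v⟫_ℝ)
    (h0 : ∀ u, 0 ≤ ⟪q u, u⟫_ℝ) (u v : F) : ⟪q u, v⟫_ℝ ^ 2 ≤ ⟪q u, u⟫_ℝ * ⟪q v, v⟫_ℝ := by
  have h1 : ∀ t : ℝ, 0 ≤ ⟪q v, v⟫_ℝ * (t * t) + (2 * ⟪q u, v⟫_ℝ) * t + ⟪q u, u⟫_ℝ := by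
    intro t
    have h2 := h0 (u + t • v)
    have h3 : ⟪q v, u⟫_ℝ = ⟪q u, v⟫_ℝ := by rw [hs v u, real_inner_comm]
    have h4 : ⟪q (u + t • v), u + t • v⟫_ℝ
        = ⟪q v, v⟫_ℝ * (t * t) + (2 * ⟪q u, v⟫_ℝ) * t + ⟪q u, u⟫_ℝ := by
      rw [map_add, map_smul, inner_add_left, inner_add_right, inner_add_right, inner_smul_left,
        inner_smul_right, inner_smul_left, inner_smul_right, h3]
      simp only [conj_trivial]
      ring
    linarith [h4 ▸ h2]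
  have h5 := discrim_le_zero h1
  unfold discrim at h5
  nlinarith

/-- the same in the form used below. -/
theorem abs_inner_le {q : F →L[ℝ] F} (hs : ∀ u v, ⟪q u, v⟫_ℝ = ⟪u, q v⟫_ℝ)
    (h0 : ∀ u, 0 ≤ ⟪q u, u⟫_ℝ) {τ lam k : ℝ} (hk : 0 < k) (hτ : 0 ≤ τ) (hlam : 0 ≤ lam) {u v : F}
    (hu : ⟪q u, u⟫_ℝ ≤ lam) (hv : ⟪q v, v⟫_ℝ ≤ τ * ‖v‖ ^ 2) :
    |⟪v, q u⟫_ℝ| ≤ ‖v‖ * (k * τ + k⁻¹ * lam) := by
  have h1 := psd_cs hs h0 u v
  have h2 : ⟪v, q u⟫_ℝ = ⟪q u, v⟫_ℝ := real_inner_comm _ _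
  rw [h2]
  have h3 : ⟪q u, v⟫_ℝ ^ 2 ≤ lam * (τ * ‖v‖ ^ 2) :=
    h1.trans (mul_le_mul hu hv (h0 v) hlam)
  have h4 : 0 ≤ ‖v‖ * (k * τ + k⁻¹ * lam) := by positivity
  refine abs_le_of_sq_le_sq ?_ h4
  have h5 : k * k⁻¹ = 1 := mul_inv_cancel₀ hk.ne'
  have h6 : lam * τ ≤ (k * τ + k⁻¹ * lam) ^ 2 := by
    have : (k * τ + k⁻¹ * lam) ^ 2 = (k * τ) ^ 2 + (k⁻¹ * lam) ^ 2 + 2 * (k * k⁻¹) * (lam * τ) := by
      ring
    rw [this, h5]
    have := mul_nonneg hlam hτ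
    nlinarith [sq_nonneg (k * τ), sq_nonneg (k⁻¹ * lam)]
  calc ⟪q u, v⟫_ℝ ^ 2 ≤ lam * (τ * ‖v‖ ^ 2) := h3
    _ = ‖v‖ ^ 2 * (lam * τ) := by ring
    _ ≤ ‖v‖ ^ 2 * (k * τ + k⁻¹ * lam) ^ 2 := by gcongr
    _ = _ := by ring

variable [FiniteDimensional ℝ F] {d : ℕ} (J : Eu d →ₗᵢ[ℝ] F)

/-- the projection onto the subspace `range J` in the coordinates `J`. -/
def pr : F →L[ℝ] Eu d := ContinuousLinearMap.adjoint J.toContinuousLinearMap

theorem inner_pr (x : F) (v : Eu d) : ⟪pr J x, v⟫_ℝ = ⟪x, J v⟫_ℝ :=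
  ContinuousLinearMap.adjoint_inner_left J.toContinuousLinearMap v x

theorem pr_J (v : Eu d) : pr J (J v) = v := by
  refine ext_inner_right ℝ fun w => ?_
  rw [inner_pr, J.inner_map_map]

theorem norm_sq_pr (x : F) : ‖x‖ ^ 2 = ‖pr J x‖ ^ 2 + ‖x - J (pr J x)‖ ^ 2 := by
  rw [norm_sub_sq_real, ← inner_pr, real_inner_self_eq_norm_sq, J.norm_map]
  ring

theorem norm_pr_le (x : F) : ‖pr J x‖ ≤ ‖x‖ := by
  have h := norm_sq_pr J x
  have h2 : ‖pr J x‖ ^ 2 ≤ ‖x‖ ^ 2 := by nlinarith [sq_nonneg ‖x - J (pr J x)‖]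
  exact le_of_sq_le_sq h2 (norm_nonneg x)

/-- the orthogonal part. -/
def pe : F →L[ℝ] F := ContinuousLinearMap.id ℝ F - J.toContinuousLinearMap ∘L pr J

theorem pe_apply (x : F) : pe J x = x - J (pr J x) := rfl

theorem pe_J (v : Eu d) : pe J (J v) = 0 := by rw [pe_apply, pr_J, sub_self]

theorem norm_sq_pe (x : F) : ‖x‖ ^ 2 = ‖pr J x‖ ^ 2 + ‖pe J x‖ ^ 2 := norm_sq_pr J x

theorem norm_pe_le (x : F) : ‖pe J x‖ ≤ ‖x‖ := by
  have h := norm_sq_pe J x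
  have h2 : ‖pe J x‖ ^ 2 ≤ ‖x‖ ^ 2 := by nlinarith [sq_nonneg ‖pr J x‖]
  exact le_of_sq_le_sq h2 (norm_nonneg x)

/-- the fixed bump. -/
def bp (F : Type*) [NormedAddCommGroup F] : ContDiffBump (0 : F) := ⟨1, 2, one_pos, one_lt_two⟩

theorem exists_bound_bp (F : Type*) [NormedAddCommGroup F] [InnerProductSpace ℝ F]
    [FiniteDimensional ℝ F] : ∃ C : ℝ, 0 ≤ C ∧ ∀ y : F, ‖fderiv ℝ (bp F) y‖ ≤ C := by
  have h1 : Continuous (fderiv ℝ (bp F : F → ℝ)) :=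
    ((bp F).contDiff (n := 1)).continuous_fderiv one_ne_zero
  have h2 : HasCompactSupport (fderiv ℝ (bp F : F → ℝ)) := (bp F).hasCompactSupport.fderiv ℝ
  obtain ⟨C, hC⟩ := h1.bounded_above_of_compact_support h2
  exact ⟨max C 0, le_max_right _ _, fun y => (hC y).trans (le_max_left _ _)⟩

/-- the cut-off in the orthogonal directions. -/
def al (x0 : F) (s : ℝ) (x : F) : ℝ := bp F (s⁻¹ • pe J (x - x0))

theorem al_contDiff (x0 : F) (s : ℝ) : ContDiff ℝ ∞ (al J x0 s) := by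
  unfold al
  exact (bp F).contDiff.comp
    (((pe J).contDiff.comp (contDiff_id.sub contDiff_const)).const_smul s⁻¹)

theorem al_nonneg (x0 : F) (s : ℝ) (x : F) : 0 ≤ al J x0 s x := (bp F).nonneg

theorem al_le_one (x0 : F) (s : ℝ) (x : F) : al J x0 s x ≤ 1 := (bp F).le_one

theorem al_eq_one {x0 : F} {s : ℝ} (hs : 0 < s) {x : F} (hx : ‖x - x0‖ ≤ s) : al J x0 s x = 1 := by
  unfold al
  refine (bp F).one_of_mem_closedBall ?_
  rw [mem_closedBall_zero_iff, norm_smul, norm_inv, Real.norm_of_nonneg hs.le]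
  change s⁻¹ * ‖pe J (x - x0)‖ ≤ 1
  rw [inv_mul_le_iff₀ hs, mul_one]
  exact (norm_pe_le J _).trans hx

theorem al_eq_zero {x0 : F} {s : ℝ} (hs : 0 < s) {x : F} (hx : 2 * s ≤ ‖pe J (x - x0)‖) :
    al J x0 s x = 0 := by
  unfold al
  refine (bp F).zero_of_le_dist ?_
  rw [dist_zero_right, norm_smul, norm_inv, Real.norm_of_nonneg hs.le]
  change (2:ℝ) ≤ s⁻¹ * ‖pe J (x - x0)‖
  rw [le_inv_mul_iff₀ hs]
  linarith

theorem hasFDerivAt_al (x0 : F) (s : ℝ) (x : F) :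
    HasFDerivAt (al J x0 s) (((fderiv ℝ (bp F) (s⁻¹ • pe J (x - x0))) ∘L (s⁻¹ • pe J))) x := by
  have h1 : HasFDerivAt (fun x => s⁻¹ • pe J (x - x0)) (s⁻¹ • pe J) x := by
    have h2 : HasFDerivAt (fun x : F => x - x0) (ContinuousLinearMap.id ℝ F) x :=
      (hasFDerivAt_id x).sub_const x0
    have h3 := ((pe J).hasFDerivAt.comp x h2).const_smul s⁻¹
    exact h3
  have h4 : HasFDerivAt (bp F) (fderiv ℝ (bp F) (s⁻¹ • pe J (x - x0))) (s⁻¹ • pe J (x - x0)) :=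
    (((bp F).contDiff (n := 1)).differentiable one_ne_zero _).hasFDerivAt
  exact h4.comp x h1

theorem fderiv_al_J (x0 : F) (s : ℝ) (x : F) (v : Eu d) : fderiv ℝ (al J x0 s) x (J v) = 0 := by
  rw [(hasFDerivAt_al J x0 s x).fderiv]
  simp [pe_J]

theorem norm_fderiv_al_le {C : ℝ} (hC : ∀ y : F, ‖fderiv ℝ (bp F) y‖ ≤ C) (hC0 : 0 ≤ C) (x0 : F)
    {s : ℝ} (hs : 0 < s) (x : F) : ‖fderiv ℝ (al J x0 s) x‖ ≤ C / s := by
  rw [(hasFDerivAt_al J x0 s x).fderiv]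
  refine ContinuousLinearMap.opNorm_le_bound _ (by positivity) fun v => ?_
  rw [ContinuousLinearMap.comp_apply]
  refine (ContinuousLinearMap.le_opNorm _ _).trans ?_
  rw [_root_.smul_apply, norm_smul, norm_inv, Real.norm_of_nonneg hs.le]
  calc ‖fderiv ℝ (bp F) (s⁻¹ • pe J (x - x0))‖ * (s⁻¹ * ‖pe J v‖) ≤ C * (s⁻¹ * ‖v‖) := by
        gcongr
        · exact hC _
        · exact norm_pe_le J v
    _ = C / s * ‖v‖ := by field_simp

end Crest.Agent.R234.Sca_372
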