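import Crest.Agent.R234.Sca1_372

/-!
Row 234, application of the strong constancy lemma (helper372), part 2: the test functions
`ze i = α(x_⊥) ∂_i U(π x)`, weighted push-forwards.
-/

set_option autoImplicit false

open MeasureTheory Metric Set Filter Topology
open scoped ContDiff InnerProductSpace ENNReal

noncomputable section

namespace Crest.Agent.R234.Sca_372

open Crest.Agent.R234.Sc173 (Eu Dd ee Lap Dd_contDiff Dd_hasCompactSupport Dd_Dd_eq)

variable {F : Type*} [NormedAddCommGroup F] [InnerProductSpace ℝ F]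
variable [FiniteDimensional ℝ F] {d : ℕ} (J : Eu d →ₗᵢ[ℝ] F)

/-- the test functions. -/
def ze (x0 : F) (s : ℝ) (U : Eu d → ℝ) (i : Fin d) (x : F) : ℝ :=
  al J x0 s x * Dd (ee i) U (pr J x)

variable {J} {x0 : F} {s : ℝ} {U : Eu d → ℝ}

theorem ze_contDiff (hU : ContDiff ℝ ∞ U) (i : Fin d) : ContDiff ℝ ∞ (ze J x0 s U i) :=
  (al_contDiff J x0 s).mul ((Dd_contDiff hU).comp (pr J).contDiff)

theorem norm_ee (i : Fin d) : ‖ee i‖ = 1 := by simp [ee]

theorem tsupport_ze_subset (hs : 0 < s) (i : Fin d) :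
    tsupport (ze J x0 s U i) ⊆ {x | pr J x ∈ tsupport U ∧ ‖pe J (x - x0)‖ ≤ 2 * s} := by
  have hcl : IsClosed {x | pr J x ∈ tsupport U ∧ ‖pe J (x - x0)‖ ≤ 2 * s} := by
    have h1 : IsClosed {x : F | pr J x ∈ tsupport U} :=
      (isClosed_tsupport U).preimage (pr J).continuous
    have h2 : Continuous fun x : F => ‖pe J (x - x0)‖ :=
      ((pe J).continuous.comp (continuous_id.sub continuous_const)).norm
    exact h1.inter (isClosed_le h2 continuous_const)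
  refine closure_minimal ?_ hcl
  intro x hx
  rw [Function.mem_support] at hx
  constructor
  · by_contra h
    apply hx
    have h1 : Dd (ee i) U (pr J x) = 0 := by
      unfold Dd
      have h2 : fderiv ℝ U (pr J x) = 0 := by
        by_contra h3
        exact h (support_fderiv_subset ℝ (Function.mem_support.2 h3))
      rw [h2]; rfl
    unfold ze
    rw [h1, mul_zero]
  · by_contra h
    apply hx
    unfold ze
    rw [al_eq_zero J hs (not_le.1 h).le, zero_mul]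

theorem sub_ball (hs : 0 < s) (hsup : tsupport U ⊆ ball (pr J x0) (4 * s)) :
    {x | pr J x ∈ tsupport U ∧ ‖pe J (x - x0)‖ ≤ 2 * s} ⊆ ball x0 (5 * s) := by
  rintro x ⟨h1, h2⟩
  have h3 := hsup h1
  rw [mem_ball_iff_norm, ← map_sub] at h3
  rw [mem_ball_iff_norm]
  have h4 := norm_sq_pe J (x - x0)
  have h5 : ‖pr J (x - x0)‖ ^ 2 ≤ (4 * s) ^ 2 := by gcongr
  have h6 : ‖pe J (x - x0)‖ ^ 2 ≤ (2 * s) ^ 2 := by gcongr
  refine lt_of_pow_lt_pow_left₀ 2 (by positivity) ?_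
  nlinarith [sq_pos_of_pos hs]

theorem tsupport_ze_subset_ball (hs : 0 < s) (hsup : tsupport U ⊆ ball (pr J x0) (4 * s))
    (i : Fin d) : tsupport (ze J x0 s U i) ⊆ ball x0 (5 * s) :=
  (tsupport_ze_subset hs i).trans (sub_ball hs hsup)

theorem ze_hasCompactSupport (hs : 0 < s) (hsup : tsupport U ⊆ ball (pr J x0) (4 * s))
    (i : Fin d) : HasCompactSupport (ze J x0 s U i) := by
  refine HasCompactSupport.of_support_subset_isCompact (isCompact_closedBall x0 (5 * s)) ?_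
  exact (subset_tsupport _).trans ((tsupport_ze_subset_ball hs hsup i).trans ball_subset_closedBall)

theorem hasFDerivAt_ze (hU : ContDiff ℝ ∞ U) (i : Fin d) (x : F) :
    HasFDerivAt (ze J x0 s U i)
      (al J x0 s x • ((fderiv ℝ (Dd (ee i) U) (pr J x)) ∘L pr J)
        + Dd (ee i) U (pr J x) • fderiv ℝ (al J x0 s) x) x := by
  have h1 : HasFDerivAt (al J x0 s) (fderiv ℝ (al J x0 s) x) x :=
    ((al_contDiff J x0 s).differentiable (by simp) x).hasFDerivAt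
  have h2 : HasFDerivAt (Dd (ee i) U) (fderiv ℝ (Dd (ee i) U) (pr J x)) (pr J x) :=
    ((Dd_contDiff hU).differentiable (by simp) _).hasFDerivAt
  exact h1.mul (h2.comp x (pr J).hasFDerivAt)

theorem fderiv_ze_apply (hU : ContDiff ℝ ∞ U) (i : Fin d) (x v : F) :
    fderiv ℝ (ze J x0 s U i) x v = al J x0 s x * fderiv ℝ (fderiv ℝ U) (pr J x) (pr J v) (ee i)
      + Dd (ee i) U (pr J x) * fderiv ℝ (al J x0 s) x v := by
  rw [(hasFDerivAt_ze hU i x).fderiv]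
  simp only [_root_.add_apply, _root_.smul_apply, ContinuousLinearMap.comp_apply, smul_eq_mul]
  congr 2
  exact Dd_Dd_eq hU (pr J v) (ee i) (pr J x)

theorem sum_fderiv_ze (hU : ContDiff ℝ ∞ U) (x : F) :
    ∑ i, fderiv ℝ (ze J x0 s U i) x (J (ee i)) = al J x0 s x * Lap U (pr J x) := by
  unfold Lap
  rw [Finset.mul_sum]
  refine Finset.sum_congr rfl fun i _ => ?_
  rw [fderiv_ze_apply hU, pr_J, fderiv_al_J, mul_zero, add_zero, Dd_Dd_eq hU]

theorem abs_Dd_le (i : Fin d) (z : Eu d) : |Dd (ee i) U z| ≤ ‖fderiv ℝ U z‖ := by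
  unfold Dd
  have h := (fderiv ℝ U z).le_opNorm (ee i)
  rwa [norm_ee, mul_one] at h

theorem abs_fderiv2_le (i : Fin d) (z v : Eu d) :
    |fderiv ℝ (fderiv ℝ U) z v (ee i)| ≤ ‖fderiv ℝ (fderiv ℝ U) z‖ * ‖v‖ := by
  have h := (fderiv ℝ (fderiv ℝ U) z v).le_opNorm (ee i)
  rw [norm_ee, mul_one] at h
  exact h.trans ((fderiv ℝ (fderiv ℝ U) z).le_opNorm v)

theorem abs_Lap_le (hU : ContDiff ℝ ∞ U) (z : Eu d) :
    |Lap U z| ≤ d * ‖fderiv ℝ (fderiv ℝ U) z‖ := by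
  unfold Lap
  refine (Finset.abs_sum_le_sum_abs _ _).trans ?_
  calc ∑ i, |Dd (ee i) (Dd (ee i) U) z| ≤ ∑ _i : Fin d, ‖fderiv ℝ (fderiv ℝ U) z‖ := by
        refine Finset.sum_le_sum fun i _ => ?_
        rw [Dd_Dd_eq hU]
        have := abs_fderiv2_le (U := U) i z (ee i)
        rwa [norm_ee, mul_one] at this
    _ = _ := by simp

/-- the bound of the full derivative. -/
theorem norm_fderiv_ze_le {C : ℝ} (hC : ∀ y : F, ‖fderiv ℝ (bp F) y‖ ≤ C) (hC0 : 0 ≤ C)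
    (hs : 0 < s) (hU : ContDiff ℝ ∞ U) (i : Fin d) (x : F) :
    ‖fderiv ℝ (ze J x0 s U i) x‖
      ≤ ‖fderiv ℝ (fderiv ℝ U) (pr J x)‖ + C / s * ‖fderiv ℝ U (pr J x)‖ := by
  refine ContinuousLinearMap.opNorm_le_bound _ (by positivity) fun v => ?_
  rw [fderiv_ze_apply hU]
  refine (norm_add_le _ _).trans ?_
  rw [norm_mul, norm_mul, add_mul]
  have h1 : ‖al J x0 s x‖ ≤ 1 := by
    rw [Real.norm_of_nonneg (al_nonneg J x0 s x)]; exact al_le_one J x0 s x
  have h2 := abs_fderiv2_le (U := U) i (pr J x) (pr J v)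
  have h3 := abs_Dd_le (U := U) i (pr J x)
  have h4 : ‖fderiv ℝ (al J x0 s) x v‖ ≤ C / s * ‖v‖ :=
    ((fderiv ℝ (al J x0 s) x).le_opNorm v).trans (by
      gcongr; exact norm_fderiv_al_le J hC hC0 x0 hs x)
  refine add_le_add ?_ ?_
  · calc ‖al J x0 s x‖ * ‖fderiv ℝ (fderiv ℝ U) (pr J x) (pr J v) (ee i)‖
        ≤ 1 * (‖fderiv ℝ (fderiv ℝ U) (pr J x)‖ * ‖v‖) := by
          refine mul_le_mul h1 (h2.trans ?_) (norm_nonneg _) zero_le_one
          gcongr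
          exact norm_pr_le J v
      _ = _ := one_mul _
  · calc ‖Dd (ee i) U (pr J x)‖ * ‖fderiv ℝ (al J x0 s) x v‖
        ≤ ‖fderiv ℝ U (pr J x)‖ * (C / s * ‖v‖) := by
          refine mul_le_mul h3 h4 (norm_nonneg _) (norm_nonneg _)
      _ = _ := by ring

theorem abs_ze_le (i : Fin d) (x : F) : |ze J x0 s U i x| ≤ ‖fderiv ℝ U (pr J x)‖ := by
  unfold ze
  rw [abs_mul, abs_of_nonneg (al_nonneg J x0 s x)]
  calc al J x0 s x * |Dd (ee i) U (pr J x)| ≤ 1 * ‖fderiv ℝ U (pr J x)‖ :=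
        mul_le_mul (al_le_one J x0 s x) (abs_Dd_le i _) (abs_nonneg _) zero_le_one
    _ = _ := one_mul _

/-- norm of `pr (q J e_i)` for a positive symmetric `q`. -/
theorem norm_pr_q_le {q : F →L[ℝ] F} (hsym : ∀ u v, ⟪q u, v⟫_ℝ = ⟪u, q v⟫_ℝ)
    (h0 : ∀ u, 0 ≤ ⟪q u, u⟫_ℝ) {lam : ℝ} (hlam : 0 ≤ lam)
    (h : ∀ i, ⟪q (J (ee i)), J (ee i)⟫_ℝ ≤ lam) (i : Fin d) :
    ‖pr J (q (J (ee i)))‖ ≤ d * lam := by
  have h1 : ∀ j, |(pr J (q (J (ee i)))) j| ≤ lam := by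
    intro j
    have h2 : (pr J (q (J (ee i)))) j = ⟪q (J (ee i)), J (ee j)⟫_ℝ := by
      rw [← inner_pr]
      simp [ee, EuclideanSpace.inner_single_right]
    rw [h2]
    have h3 := psd_cs hsym h0 (J (ee i)) (J (ee j))
    refine abs_le_of_sq_le_sq ?_ hlam
    calc _ ≤ ⟪q (J (ee i)), J (ee i)⟫_ℝ * ⟪q (J (ee j)), J (ee j)⟫_ℝ := h3
      _ ≤ lam * lam := mul_le_mul (h i) (h j) (h0 _) hlam
      _ = lam ^ 2 := by ring
  have hd : (1:ℝ) ≤ d := by
    have : 0 < d := i.pos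
    exact_mod_cast this
  refine le_of_sq_le_sq ?_ (by positivity)
  rw [EuclideanSpace.real_norm_sq_eq]
  calc ∑ j, (pr J (q (J (ee i)))) j ^ 2 ≤ ∑ _j : Fin d, lam ^ 2 := by
        refine Finset.sum_le_sum fun j _ => ?_
        rw [← sq_abs]
        gcongr
        exact h1 j
    _ = d * lam ^ 2 := by simp
    _ ≤ (d * lam) ^ 2 := by
        rw [mul_pow]
        have : (d:ℝ) ≤ (d:ℝ) ^ 2 := by nlinarith
        gcongr

/-- the pointwise bound of the stress term. -/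
theorem abs_stress_le {C : ℝ} (hC : ∀ y : F, ‖fderiv ℝ (bp F) y‖ ≤ C) (hC0 : 0 ≤ C)
    (hs : 0 < s) (hU : ContDiff ℝ ∞ U) {q : F →L[ℝ] F} (hsym : ∀ u v, ⟪q u, v⟫_ℝ = ⟪u, q v⟫_ℝ)
    (h0 : ∀ u, 0 ≤ ⟪q u, u⟫_ℝ) {τ lam k : ℝ} (hk : 0 < k) (hτ : 0 ≤ τ) (hlam : 0 ≤ lam)
    (h : ∀ i, ⟪q (J (ee i)), J (ee i)⟫_ℝ ≤ lam) (hq : ∀ u, ⟪q u, u⟫_ℝ ≤ τ * ‖u‖ ^ 2) (i : Fin d)
    (x : F) :
    |fderiv ℝ (ze J x0 s U i) x (q (J (ee i)))|
      ≤ d * lam * ‖fderiv ℝ (fderiv ℝ U) (pr J x)‖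
        + C / s * (k * τ + k⁻¹ * lam) * ‖fderiv ℝ U (pr J x)‖ := by
  rw [fderiv_ze_apply hU]
  refine (abs_add_le _ _).trans ?_
  rw [abs_mul, abs_mul, abs_of_nonneg (al_nonneg J x0 s x)]
  refine add_le_add ?_ ?_
  · calc al J x0 s x * |fderiv ℝ (fderiv ℝ U) (pr J x) (pr J (q (J (ee i)))) (ee i)|
        ≤ 1 * (‖fderiv ℝ (fderiv ℝ U) (pr J x)‖ * (d * lam)) := by
          refine mul_le_mul (al_le_one J x0 s x) ((abs_fderiv2_le i _ _).trans ?_) (abs_nonneg _)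
            zero_le_one
          gcongr
          exact norm_pr_q_le hsym h0 hlam h i
      _ = _ := by ring
  · -- the derivative of the cut-off as an inner product
    set a : F := (InnerProductSpace.toDual ℝ F).symm (fderiv ℝ (al J x0 s) x) with ha
    have h1 : ∀ v, fderiv ℝ (al J x0 s) x v = ⟪a, v⟫_ℝ := fun v => by
      rw [ha, InnerProductSpace.toDual_symm_apply]
    have h2 : ‖a‖ ≤ C / s := by
      rw [ha, LinearIsometryEquiv.norm_map]
      exact norm_fderiv_al_le J hC hC0 x0 hs x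
    have h3 : |⟪a, q (J (ee i))⟫_ℝ| ≤ ‖a‖ * (k * τ + k⁻¹ * lam) :=
      abs_inner_le hsym h0 hk hτ hlam (h i) (hq a)
    rw [h1]
    have h4 : 0 ≤ k * τ + k⁻¹ * lam := by positivity
    calc |Dd (ee i) U (pr J x)| * |⟪a, q (J (ee i))⟫_ℝ|
        ≤ ‖fderiv ℝ U (pr J x)‖ * (C / s * (k * τ + k⁻¹ * lam)) := by
          refine mul_le_mul (abs_Dd_le i _) (h3.trans ?_) (abs_nonneg _) (norm_nonneg _)
          gcongr
      _ = _ := by ring

section push

variable {Ω : Type*} [MeasurableSpace Ω] {V : Measure Ω} {f : Ω → Eu d} {ρ : Ω → ℝ}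

/-- weighted push-forward. -/
def wp (V : Measure Ω) (f : Ω → Eu d) (ρ : Ω → ℝ) : Measure (Eu d) :=
  (V.withDensity fun w => ENNReal.ofReal (ρ w)).map f

theorem wp_univ (hf : Measurable f) : wp V f ρ univ = ∫⁻ w, ENNReal.ofReal (ρ w) ∂V := by
  rw [wp, Measure.map_apply hf MeasurableSet.univ, preimage_univ,
    withDensity_apply _ MeasurableSet.univ, Measure.restrict_univ]

theorem wp_integrable (hf : Measurable f)
    (hfin : ∫⁻ w, ENNReal.ofReal (ρ w) ∂V < ⊤) {g : Eu d → ℝ} (hg : Continuous g) {C : ℝ}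
    (hC : ∀ z, |g z| ≤ C) : Integrable g (wp V f ρ) := by
  have : IsFiniteMeasure (wp V f ρ) := ⟨by rw [wp_univ hf]; exact hfin⟩
  exact Integrable.of_bound hg.aestronglyMeasurable C (Eventually.of_forall hC)

theorem wp_integral (hf : Measurable f) (hρ : Measurable ρ) (h0 : ∀ w, 0 ≤ ρ w)
    {g : Eu d → ℝ} (hg : Continuous g) :
    ∫ z, g z ∂(wp V f ρ) = ∫ w, ρ w * g (f w) ∂V := by
  rw [wp, integral_map hf.aemeasurable hg.aestronglyMeasurable,
    integral_withDensity_eq_integral_toReal_smul hρ.ennreal_ofReal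
      (Eventually.of_forall fun _ => ENNReal.ofReal_lt_top)]
  refine integral_congr_ae (Eventually.of_forall fun w => ?_)
  simp only [smul_eq_mul, ENNReal.toReal_ofReal (h0 w)]

theorem wp_integrable' (hf : Measurable f) (hρ : Measurable ρ) (h0 : ∀ w, 0 ≤ ρ w)
    (hfin : ∫⁻ w, ENNReal.ofReal (ρ w) ∂V < ⊤) {g : Eu d → ℝ} (hg : Continuous g) {C : ℝ}
    (hC : ∀ z, |g z| ≤ C) : Integrable (fun w => ρ w * g (f w)) V := by
  have h1 : Integrable ρ V := by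
    refine ⟨hρ.aestronglyMeasurable, ?_⟩
    rw [hasFiniteIntegral_iff_norm]
    refine lt_of_le_of_lt (lintegral_mono fun w => ?_) hfin
    rw [Real.norm_of_nonneg (h0 w)]
  exact h1.mul_bdd (hg.measurable.comp hf).aestronglyMeasurable
    (Eventually.of_forall fun w => hC (f w))

end push

end Crest.Agent.R234.Sca_372
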