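import Crest.Agent.R234.Sel9_570

/-!
Row 234, VF-SEL (helper570), file 10: the abstract selection step, literal `S2P`.
-/

set_option autoImplicit false
set_option linter.unusedSectionVars false

open MeasureTheory Complex Filter Real
open scoped ContDiff Topology InnerProductSpace ENNReal NNReal SchwartzMap

noncomputable section

namespace Crest.Agent.R234.Sel6_570

open Crest.GeometryTopology.Submanifold Crest.Agent.R234.Vf_884
open Crest.Agent.R086.Wie Crest.Agent.R234.Mx1_397 Crest.Agent.R234.Mx2_397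
  Crest.Agent.R234.Mx3_397 Crest.Agent.R234.Mx4_397 Crest.Agent.R234.Mx6_397
  Crest.Agent.R234.Sel5_570
open Crest.Agent.R234.MG_570 (Cf Lop i0)

/-- the outer cut-off (a fixed function). -/
def gS (m : ℕ) : 𝓢(Euc m, ℂ) := toS (Cto_161.ct (7 / 4) (15 / 8) : Euc m → ℝ)
  (Cto_161.ct_isCut (by norm_num) (by norm_num) (by norm_num)).compact (Cto_161.ct_smooth _ _)

theorem gS_one {m : ℕ} {x : Euc m} (hx : ‖x‖ ≤ 7 / 4) : gS m x = 1 := by
  unfold gS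
  rw [toS_apply, Cto_161.ct_one (by norm_num) (by norm_num) hx, ofReal_one]

theorem exists_dir {m : ℕ} (hm : 1 ≤ m) : ∃ c : Euc m, ‖c‖ = 11 / 2 := by
  obtain ⟨i⟩ : Nonempty (Fin m) := ⟨⟨0, hm⟩⟩
  refine ⟨EuclideanSpace.single i (11 / 2), ?_⟩
  rw [PiLp.norm_single]
  norm_num

theorem s2P : MG_570.S2P := by
  intro m n s hm
  obtain ⟨c₀, hc₀⟩ := exists_dir hm
  obtain ⟨CR, hCR, hrep⟩ := Rep_681.repP m s
  obtain ⟨C₁, hC₁, p₁, hnest⟩ := exists_nest (F := Euc m)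
    (ι := Fin (Module.finrank ℝ (Euc m))) (s + m + 1)
  obtain ⟨Q, hQ0, hQ⟩ : ∃ Q : ℝ, 0 ≤ Q ∧ ‖(nbX 2 : X (Euc m) 2)‖ * 72 = Q :=
    ⟨_, mul_nonneg (norm_nonneg _) (by norm_num), rfl⟩
  obtain ⟨c₂, hc₂0, hcK⟩ : ∃ c₂ : ℝ, 0 ≤ c₂ ∧
      ∀ P : ℝ, cK (Fin (Module.finrank ℝ (Euc m))) P = c₂ * P :=
    ⟨cK (Fin (Module.finrank ℝ (Euc m))) 1, cK_nonneg zero_le_one, fun P => by unfold cK; ring⟩
  obtain ⟨gn, hgn0, hgn⟩ : ∃ gn : ℝ, 0 ≤ gn ∧ ‖toX (s + m + 1) (gS m)‖ = gn :=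
    ⟨_, norm_nonneg _, rfl⟩
  obtain ⟨C₃, hC₃0, hC₃⟩ : ∃ C₃ : ℝ, 0 ≤ C₃ ∧
      C₃ = CR * (c₂ ^ (s + m + 1) * C₁ ^ (s + m + 1 + 1)) * gn * (1 + 2 * Q) :=
    ⟨_, mul_nonneg (mul_nonneg (mul_nonneg hCR.le (mul_nonneg (pow_nonneg hc₂0 _)
      (pow_nonneg (by linarith) _))) hgn0) (by linarith), rfl⟩
  refine ⟨1 / (4 * (2 * π) ^ 2 * (1 + Q)), 1 + 2 * Q + C₃, by positivity, by positivity,
    p₁ * (s + m + 1 + 1), ?_⟩
  intro c hc β r R H η hr hrR hR hH hη hβ hsm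
  have hsz0 := sz_nonneg c
  have hpi : 0 < (2 * π) ^ 2 := by positivity
  have hsz : (2 * π) ^ 2 * c.sz * (1 + Q) ≤ 1 / 4 := by
    rw [le_div_iff₀ (by positivity)] at hc
    linarith
  have hs4 : (2 * π) ^ 2 * c.sz ≤ 1 / 4 := by nlinarith [mul_nonneg hpi.le hsz0]
  have hs2 : Q * ((2 * π) ^ 2 * c.sz) ≤ 1 / 2 := by nlinarith [mul_nonneg hpi.le hsz0]
  obtain ⟨J, hJann, hJβ⟩ := exists_ann hc₀ (stdOrthonormalBasis ℝ (Euc m)) c
    (by rw [hQ]; exact hs2) hR β hη (fun φ hφ => hsm φ hφ)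
  rw [hQ] at hJβ
  obtain ⟨χ, hχ, hχ1⟩ := hnest (stdOrthonormalBasis ℝ (Euc m)) r R hr hrR hR
  have hRr : 0 < R - r := by linarith
  set P : ℝ := C₁ / (R - r) ^ p₁ with hP
  have hP0 : 0 ≤ P := by positivity
  set H' : ℝ := H + η * (2 * Q) with hH'
  have hH'0 : 0 ≤ H' := by positivity
  have hJn : ‖J‖ ≤ H' := by
    calc ‖J‖ = ‖β - (β - J)‖ := by rw [sub_sub_cancel]
      _ ≤ ‖β‖ + ‖β - J‖ := norm_sub_le _ _
      _ ≤ _ := add_le_add hβ hJβ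
  have hdec := decay (stdOrthonormalBasis ℝ (Euc m)) c hs4 hH'0 hχ J hJn hJann (s + m + 1) le_rfl
  set Kd : ℝ := H' * P * cK (Fin (Module.finrank ℝ (Euc m))) P ^ (s + m + 1) with hKd
  have hKd0 : 0 ≤ Kd := by rw [hKd, hcK]; positivity
  have hRP : R - r ≤ 2 := by linarith
  -- representation of the components
  have hT : ∀ γ : Fin n, ∃ j : X (Euc m) s, ‖j‖ ≤ CR * Kd * gn ∧
      ∀ a : X (Euc m) 0, Integrable (ev a) → Tc J (χ (s + m + 1)) γ a = ∫ x, ev j x * ev a x := fun γ => by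
    rw [← hgn]
    refine hrep (Tc J (χ (s + m + 1)) γ) (gS m) Kd hKd0 (fun a => ?_) (fun a => ?_)
    · refine Tc_congr J _ γ (ev_inj fun x => ?_)
      rw [ev_mul, ev_mul, ev_mul, ev_i0, ev_toX]
      by_cases hx : ‖x‖ ≤ 7 / 4
      · rw [gS_one hx, one_mul]
      · rw [hχ.zero _ x (hR.trans (not_le.1 hx).le), zero_mul, zero_mul]
    · classical
      rw [Tc_apply]
      refine (hdec _).trans ?_
      have := nv_single (-((s + m + 1 : ℕ) : ℤ)) γ a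
      rw [this]
  choose j hj1 hj2 using hT
  have hsum : ∀ a : Fin n → X (Euc m) 0, (∀ γ x, r < ‖x‖ → ev (a γ) x = 0) →
      ∑ γ, ∫ x, ev (j γ) x * ev (a γ) x = J a := fun a ha => by
    have h1 : ∀ γ, Integrable (ev (a γ)) := fun γ => by
      refine (contDiff_ev (a γ)).continuous.integrable_of_hasCompactSupport ?_
      refine HasCompactSupport.intro (isCompact_closedBall (0 : Euc m) r) fun x hx => ?_
      exact ha γ x (by simpa using hx)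
    have h2 : ∑ γ, ∫ x, ev (j γ) x * ev (a γ) x = ∑ γ, Tc J (χ (s + m + 1)) γ (a γ) :=
      Finset.sum_congr rfl fun γ _ => (hj2 γ (a γ) (h1 γ)).symm
    rw [h2, sum_Tc, cm_eq_self]
    intro x
    by_cases hx : ‖x‖ ≤ r
    · exact Or.inl (hχ1 _ x hx)
    · exact Or.inr fun γ => ha γ x (not_le.1 hx)
  refine ⟨j, ?_, fun φ hφ => ?_, fun ζ hζ => ?_⟩
  · refine (pi_norm_le_iff_of_nonneg (by positivity)).2 fun γ => (hj1 γ).trans ?_
    have e1 : Kd = H' * (c₂ ^ (s + m + 1) * C₁ ^ (s + m + 1 + 1)) / (R - r) ^ (p₁ * (s + m + 1 + 1)) := by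
      rw [hKd, hcK, hP, mul_pow, div_pow, pow_mul]
      field_simp
      ring
    rw [e1]
    have e2 : H' ≤ (1 + 2 * Q) * (H + η) := by rw [hH']; nlinarith [mul_nonneg hQ0 hH]
    have e3 : CR * (H' * (c₂ ^ (s + m + 1) * C₁ ^ (s + m + 1 + 1)) / (R - r) ^ (p₁ * (s + m + 1 + 1))) * gn
        = CR * (c₂ ^ (s + m + 1) * C₁ ^ (s + m + 1 + 1)) * gn * H' / (R - r) ^ (p₁ * (s + m + 1 + 1)) := by ring
    rw [e3]
    refine div_le_div_of_nonneg_right ?_ (by positivity)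
    calc CR * (c₂ ^ (s + m + 1) * C₁ ^ (s + m + 1 + 1)) * gn * H'
        ≤ CR * (c₂ ^ (s + m + 1) * C₁ ^ (s + m + 1 + 1)) * gn * ((1 + 2 * Q) * (H + η)) := by gcongr
      _ = C₃ * (H + η) := by rw [hC₃]; ring
      _ ≤ (1 + 2 * Q + C₃) * (H + η) := by
          gcongr
          linarith
  · have hopen : IsOpen {x : Euc m | r < ‖x‖} := isOpen_lt continuous_const continuous_norm
    have h1 := hsum (Lop (stdOrthonormalBasis ℝ (Euc m)) c φ) fun γ x hx =>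
      ev_Lop_zero _ c φ hopen (fun γ y hy => hφ γ y (le_of_lt hy)) γ x hx
    rw [h1]
    exact hJann φ fun γ x hx => hφ γ x (hrR.le.trans hx)
  · rw [hsum ζ fun γ x hx => hζ γ x hx.le]
    calc ‖β ζ - J ζ‖ = ‖(β - J) ζ‖ := by rw [sub_apply]
      _ ≤ ‖β - J‖ * ‖ζ‖ := ContinuousLinearMap.le_opNorm _ _
      _ ≤ η * (2 * Q) * ‖ζ‖ := by gcongr
      _ ≤ (1 + 2 * Q + C₃) * η * ‖ζ‖ := by
          refine mul_le_mul_of_nonneg_right ?_ (norm_nonneg _)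
          nlinarith [mul_nonneg hC₃0 hη]

end Crest.Agent.R234.Sel6_570
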