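import Crest.Agent.R234.Sel10_570
import Crest.Agent.R234.Ibp2_937
import Crest.Agent.R234.Jr3_186

/-!
Row 234, VF-SEL (helper570), file 11: real and imaginary parts, linearity of `lopT`, the
functional of the heights.
-/

set_option autoImplicit false
set_option linter.unusedSectionVars false

open MeasureTheory Complex Filter Real
open scoped ContDiff Topology InnerProductSpace ENNReal NNReal SchwartzMap

noncomputable section

namespace Crest.Agent.R234.Sel11_570

open Crest.GeometryTopology.Submanifold Crest.Agent.R234.Vf_884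
open Crest.Agent.R086.Wie Crest.Agent.R234.Mx1_397 Crest.Agent.R234.Mx2_397
  Crest.Agent.R234.Mx3_397 Crest.Agent.R234.Mx4_397 Crest.Agent.R234.Mx6_397
  Crest.Agent.R234.Sel5_570 Crest.Agent.R234.Sel6_570
open Crest.Agent.R234.MG_570 (Cf Lop i0 Rep IsReal XV lopT Psi)

section re

variable {F : Type} [NormedAddCommGroup F] [InnerProductSpace ℝ F] [FiniteDimensional ℝ F]
  [MeasurableSpace F] [BorelSpace F] {ι κ : Type*} [Fintype ι] [Fintype κ] {t : ℕ}

/-- real part. -/
def rX {N : ℕ} (a : X F N) : X F N := (1 / 2 : ℂ) • (a + star a)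

/-- imaginary part. -/
def iX {N : ℕ} (a : X F N) : X F N := (-(I / 2) : ℂ) • (a - star a)

theorem star_rX {N : ℕ} (a : X F N) : star (rX a) = rX a := by
  unfold rX
  rw [star_smul, star_add, star_star, add_comm]
  congr 1
  simp

theorem star_iX {N : ℕ} (a : X F N) : star (iX a) = iX a := by
  unfold iX
  rw [star_smul, star_sub, star_star, ← neg_sub a (star a), smul_neg, ← neg_smul]
  congr 1
  simp [neg_div]

theorem rX_add_iX {N : ℕ} (a : X F N) : rX a + I • iX a = a := by
  unfold rX iX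
  rw [smul_smul]
  have h1 : I * (-(I / 2)) = 1 / 2 := by
    rw [mul_neg, ← mul_div_assoc, I_mul_I]
    norm_num
  rw [h1, ← smul_add]
  have h2 : a + star a + (a - star a) = (2 : ℂ) • a := by
    rw [two_smul]; abel
  rw [h2, smul_smul]
  norm_num

theorem norm_rX_le {N : ℕ} (a : X F N) : ‖rX a‖ ≤ ‖a‖ := by
  unfold rX
  rw [norm_smul]
  have h1 : ‖a + star a‖ ≤ 2 * ‖a‖ := (norm_add_le _ _).trans (by rw [norm_star]; linarith)
  have h2 : ‖(1 / 2 : ℂ)‖ = 1 / 2 := by norm_num
  rw [h2]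
  linarith

theorem norm_iX_le {N : ℕ} (a : X F N) : ‖iX a‖ ≤ ‖a‖ := by
  unfold iX
  rw [norm_smul]
  have h1 : ‖a - star a‖ ≤ 2 * ‖a‖ := (norm_sub_le _ _).trans (by rw [norm_star]; linarith)
  have h2 : ‖(-(I / 2) : ℂ)‖ = 1 / 2 := by
    rw [norm_neg, norm_div, norm_I]; norm_num
  rw [h2]
  linarith

theorem ev_rX {N : ℕ} (a : X F N) (x : F) : ev (rX a) x = (((ev a x).re : ℝ) : ℂ) := by
  unfold rX
  rw [ev_smul, ev_add, ev_star, add_conj]
  push_cast
  ring

theorem ev_iX {N : ℕ} (a : X F N) (x : F) : ev (iX a) x = (((ev a x).im : ℝ) : ℂ) := by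
  have h1 : ev a x = ev (rX a) x + I * ev (iX a) x := by
    conv_lhs => rw [← rX_add_iX a]
    rw [ev_add, ev_smul]
  rw [ev_rX] at h1
  have h2 : I * ev (iX a) x = I * (((ev a x).im : ℝ) : ℂ) := by
    have h3 := re_add_im (ev a x)
    have h4 : I * ev (iX a) x = ev a x - (((ev a x).re : ℝ) : ℂ) := by
      rw [eq_sub_iff_add_eq, add_comm]; exact h1.symm
    rw [h4]
    nth_rewrite 1 [← h3]
    ring
  exact mul_left_cancel₀ I_ne_zero h2

theorem i0_star {N : ℕ} (a : X F N) : i0 (star a) = star (i0 a) := (star_inclV _ a).symm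

theorem star_Lop (e : OrthonormalBasis ι ℝ F) (c : Cf F ι κ t) (hc : c.Real) (b : κ → X F 2)
    (β : κ) : star (Lop e c b β) = Lop e c (fun γ => star (b γ)) β := by
  unfold Lop
  simp only [star_add, star_sum, star_mul', D_star, ← i0_star, hc.A, hc.B, hc.Z]

end re

variable {m n : ℕ}

/-- linearity of `lopT`. -/
theorem lopT_lin {u φ : Euc m → Euc n} (hu : ContDiff ℝ 3 u) (hφ : ContDiff ℝ 2 φ) (x : Euc m) :
    IsLinearMap ℝ (lopT u φ x) := by
  have dA : HasFDerivAt (Ibp_937.Aop u) (fderiv ℝ (Ibp_937.Aop u) x) x :=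
    (((Ibp_937.contDiff_Aop hu).differentiable one_ne_zero) x).hasFDerivAt
  have dφ : HasFDerivAt φ (fderiv ℝ φ x) x := ((hφ.differentiable two_ne_zero) x).hasFDerivAt
  have dP : ∀ y v, fderiv ℝ (fun x => Psi u φ x y) x v
      = fderiv ℝ (Ibp_937.Aop u) x v y (φ x) + Ibp_937.Aop u x y (fderiv ℝ φ x v) := by
    intro y v
    have h1 : HasFDerivAt (fun x => Psi u φ x y) _ x :=
      (dA.clm_apply (hasFDerivAt_const y x)).clm_apply dφ
    rw [h1.fderiv]
    simp
    abel
  refine ⟨fun y y' => ?_, fun c y => ?_⟩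
  · unfold lopT
    simp only [dP, map_add, add_apply, inner_add_left, inner_add_right, Finset.sum_add_distrib,
      mul_add]
    ring
  · unfold lopT
    simp only [dP, map_smul, smul_apply, inner_add_left, real_inner_smul_left,
      real_inner_smul_right, Finset.sum_add_distrib, ← Finset.mul_sum, smul_eq_mul]
    ring

theorem lopT_sum {u φ : Euc m → Euc n} (hu : ContDiff ℝ 3 u) (hφ : ContDiff ℝ 2 φ) (x : Euc m)
    (y : Euc n) : lopT u φ x y = ∑ γ, y γ * lopT u φ x (EuclideanSpace.single γ 1) := by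
  have h1 := lopT_lin hu hφ x
  have h2 : y = ∑ γ, y γ • EuclideanSpace.single γ (1 : ℝ) := by
    have := (EuclideanSpace.basisFun (Fin n) ℝ).sum_repr y
    simpa using this.symm
  set Lm : Euc n →ₗ[ℝ] ℝ := h1.mk' _ with hL
  have h3 : ∀ z, lopT u φ x z = Lm z := fun z => rfl
  rw [h3]
  conv_lhs => rw [h2]
  rw [map_sum]
  exact Finset.sum_congr rfl fun γ _ => by rw [map_smul, smul_eq_mul, h3]

end Crest.Agent.R234.Sel11_570
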