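import Crest.Agent.R234.Sel11_570

/-!
Row 234, VF-SEL (helper570), file 12: the functional of the heights.
-/

set_option autoImplicit false
set_option linter.unusedSectionVars false

open MeasureTheory Complex Filter
open scoped ContDiff Topology InnerProductSpace ENNReal NNReal SchwartzMap

noncomputable section

namespace Crest.Agent.R234.Sel11_570

open Crest.GeometryTopology.Submanifold Crest.Agent.R234.Vf_884
open Crest.Agent.R086.Wie Crest.Agent.R234.Mx1_397 Crest.Agent.R234.Mx2_397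
  Crest.Agent.R234.Mx3_397 Crest.Agent.R234.Mx4_397 Crest.Agent.R234.Mx6_397
  Crest.Agent.R234.Sel5_570 Crest.Agent.R234.Sel6_570
open Crest.Agent.R234.MG_570 (Cf Lop i0 Rep IsReal XV lopT Psi)

variable {m n k : ℕ} {W : Measure (Euc k × L k)} {π : Euc k →L[ℝ] Euc m}
  {ρ : Euc k →L[ℝ] Euc n} {u : Euc m → Euc n}

/-- heights. -/
def hf (π : Euc k →L[ℝ] Euc m) (ρ : Euc k →L[ℝ] Euc n) (u : Euc m → Euc n)
    (p : Euc k × L k) : Euc n := ρ p.1 - u (π p.1)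

theorem continuous_hf (hu : Continuous u) : Continuous (hf π ρ u) :=
  (ρ.continuous.comp continuous_fst).sub (hu.comp (π.continuous.comp continuous_fst))

/-- the integrand. -/
def bI (π : Euc k →L[ℝ] Euc m) (ρ : Euc k →L[ℝ] Euc n) (u : Euc m → Euc n)
    (ζ : Fin n → X (Euc m) 0) (p : Euc k × L k) : ℂ :=
  ∑ α, ev (ζ α) (π p.1) * ((hf π ρ u p α : ℝ) : ℂ)

theorem continuous_bI (hu : Continuous u) (ζ : Fin n → X (Euc m) 0) :
    Continuous (bI π ρ u ζ) := by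
  unfold bI
  refine continuous_finsetSum _ fun α _ => ?_
  refine (((contDiff_ev (ζ α)).continuous).comp (π.continuous.comp continuous_fst)).mul ?_
  exact continuous_ofReal.comp
    ((EuclideanSpace.proj (𝕜 := ℝ) α : Euc n →L[ℝ] ℝ).continuous.comp (continuous_hf hu))

theorem abs_apply_le (y : Euc n) (α : Fin n) : |y α| ≤ ‖y‖ := by
  rw [← Real.norm_eq_abs]
  exact PiLp.norm_apply_le y α

theorem norm_bI_le (ζ : Fin n → X (Euc m) 0) {h : ℝ} {p : Euc k × L k} (hp : ‖hf π ρ u p‖ ≤ h) :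
    ‖bI π ρ u ζ p‖ ≤ n * h * ‖ζ‖ := by
  unfold bI
  refine (norm_sum_le _ _).trans ?_
  have h0 : 0 ≤ h := (norm_nonneg _).trans hp
  calc ∑ α, ‖ev (ζ α) (π p.1) * ((hf π ρ u p α : ℝ) : ℂ)‖ ≤ ∑ _α : Fin n, ‖ζ‖ * h := by
        refine Finset.sum_le_sum fun α _ => ?_
        rw [norm_mul, norm_real, Real.norm_eq_abs]
        gcongr
        · exact (norm_ev_le _ _).trans (norm_le_pi_norm ζ α)
        · exact (abs_apply_le _ α).trans hp
    _ = n * h * ‖ζ‖ := by rw [Finset.sum_const, Finset.card_univ, Fintype.card_fin, nsmul_eq_mul]; ring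

theorem integrable_bI [IsFiniteMeasure W] (hu : Continuous u) {h : ℝ}
    (hh : ∀ᵐ q ∂W, ‖hf π ρ u q‖ ≤ h) (ζ : Fin n → X (Euc m) 0) :
    Integrable (bI π ρ u ζ) W :=
  Integrable.of_bound (continuous_bI hu ζ).aestronglyMeasurable (n * h * ‖ζ‖)
    (hh.mono fun _ hq => norm_bI_le ζ hq)

/-- **the functional of the heights**. -/
theorem exists_beta [IsFiniteMeasure W] (hu : Continuous u) {h Λ : ℝ} (h0 : 0 ≤ h) (hΛ : 0 ≤ Λ)
    (hW : W Set.univ ≤ ENNReal.ofReal Λ) (hh : ∀ᵐ q ∂W, ‖hf π ρ u q‖ ≤ h) :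
    ∃ β : (Fin n → X (Euc m) 0) →L[ℂ] ℂ, ‖β‖ ≤ n * h * Λ ∧
      ∀ ζ, β ζ = ∫ p, bI π ρ u ζ p ∂W := by
  have hreal : W.real Set.univ ≤ Λ := by
    unfold Measure.real
    exact ENNReal.toReal_le_of_le_ofReal hΛ hW
  set f : (Fin n → X (Euc m) 0) →ₗ[ℂ] ℂ :=
    { toFun := fun ζ => ∫ p, bI π ρ u ζ p ∂W
      map_add' := fun ζ ζ' => by
        rw [← integral_add (integrable_bI hu hh ζ) (integrable_bI hu hh ζ')]
        refine integral_congr_ae (Eventually.of_forall fun p => ?_)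
        simp only [bI, Pi.add_apply, ev_add, add_mul, Finset.sum_add_distrib]
      map_smul' := fun c ζ => by
        rw [RingHom.id_apply, smul_eq_mul, ← integral_const_mul]
        refine integral_congr_ae (Eventually.of_forall fun p => ?_)
        simp only [bI, Pi.smul_apply, ev_smul, Finset.mul_sum, mul_assoc] } with hf'
  refine ⟨f.mkContinuous (n * h * Λ) fun ζ => ?_, f.mkContinuous_norm_le (by positivity) _,
    fun ζ => rfl⟩
  show ‖∫ p, bI π ρ u ζ p ∂W‖ ≤ _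
  calc ‖∫ p, bI π ρ u ζ p ∂W‖ ≤ n * h * ‖ζ‖ * W.real Set.univ :=
        norm_integral_le_of_norm_le_const (hh.mono fun _ hq => norm_bI_le ζ hq)
    _ ≤ n * h * ‖ζ‖ * Λ := by gcongr
    _ = _ := by ring

/-- the functional on `Lop b`, real `b`. -/
theorem bI_Lop (hu : ContDiff ℝ 3 u) {t : ℕ}
    {c : Cf (Euc m) (Fin (Module.finrank ℝ (Euc m))) (Fin n) t}
    (hc : ∀ (b : XV m n 2) (φ : Euc m → Euc n), IsReal b → Rep b φ → ∀ (x : Euc m) (β : Fin n),
      ev (Lop (stdOrthonormalBasis ℝ (Euc m)) c b β) x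
        = ((lopT u φ x (EuclideanSpace.single β 1) : ℝ) : ℂ))
    {b : XV m n 2} {φ : Euc m → Euc n} (hb : IsReal b) (hφ : Rep b φ) (hφ2 : ContDiff ℝ 2 φ)
    (p : Euc k × L k) :
    bI π ρ u (Lop (stdOrthonormalBasis ℝ (Euc m)) c b) p
      = ((lopT u φ (π p.1) (hf π ρ u p) : ℝ) : ℂ) := by
  unfold bI
  rw [lopT_sum hu hφ2]
  push_cast
  refine Finset.sum_congr rfl fun α _ => ?_
  rw [hc b φ hb hφ]
  ring

/-- **weak Jacobi inequality, complex test functions**. -/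
theorem weak_complex [IsFiniteMeasure W] (hu : ContDiff ℝ 3 u) {h Λ : ℝ} {t : ℕ}
    {c : Cf (Euc m) (Fin (Module.finrank ℝ (Euc m))) (Fin n) t}
    (hc : ∀ (b : XV m n 2) (φ : Euc m → Euc n), IsReal b → Rep b φ → ∀ (x : Euc m) (β : Fin n),
      ev (Lop (stdOrthonormalBasis ℝ (Euc m)) c b β) x
        = ((lopT u φ x (EuclideanSpace.single β 1) : ℝ) : ℂ))
    {β : (Fin n → X (Euc m) 0) →L[ℂ] ℂ} (hβ : ∀ ζ, β ζ = ∫ p, bI π ρ u ζ p ∂W) {r M : ℝ}
    (hw : ∀ (b : XV m n 2) (φ : Euc m → Euc n), IsReal b → Rep b φ → (∀ x, r ≤ ‖x‖ → φ x = 0) →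
      |∫ p, lopT u φ (π p.1) (ρ p.1 - u (π p.1)) ∂W| ≤ M * ‖b‖) (hM : 0 ≤ M)
    (φ : Fin n → X (Euc m) 2) (hφ : ∀ γ x, r ≤ ‖x‖ → ev (φ γ) x = 0) :
    ‖β (Lop (stdOrthonormalBasis ℝ (Euc m)) c φ)‖ ≤ 2 * M * ‖φ‖ := by
  have key : ∀ b : XV m n 2, IsReal b → (∀ γ x, r ≤ ‖x‖ → ev (b γ) x = 0) →
      ‖β (Lop (stdOrthonormalBasis ℝ (Euc m)) c b)‖ ≤ M * ‖b‖ := by
    intro b hb hz
    set ψ : Euc m → Euc n := Mx5_397.syn (EuclideanSpace.basisFun (Fin n) ℝ) b with hψ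
    have hrep : Rep b ψ := Jr_186.rep_syn hb
    have hψ2 : ContDiff ℝ 2 ψ := Mx5_397.contDiff_syn _ b
    have hz' : ∀ x, r ≤ ‖x‖ → ψ x = 0 := fun x hx => by
      ext α
      have h1 := hrep x α
      rw [hz α x hx] at h1
      exact ofReal_eq_zero.1 h1
    have h2 := hw b ψ hb hrep hz'
    rw [hβ]
    have h3 : ∫ p, bI π ρ u (Lop (stdOrthonormalBasis ℝ (Euc m)) c b) p ∂W
        = ((∫ p, lopT u ψ (π p.1) (ρ p.1 - u (π p.1)) ∂W : ℝ) : ℂ) := by
      refine Eq.trans ?_ integral_ofReal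
      refine integral_congr_ae (Eventually.of_forall fun p => ?_)
      exact bI_Lop hu hc hb hrep hψ2 p
    rw [h3, norm_real, Real.norm_eq_abs]
    exact h2
  have e1 : Lop (stdOrthonormalBasis ℝ (Euc m)) c φ
      = Lop (stdOrthonormalBasis ℝ (Euc m)) c (fun γ => rX (φ γ))
        + I • Lop (stdOrthonormalBasis ℝ (Euc m)) c (fun γ => iX (φ γ)) := by
    rw [← Lop_smul, ← Lop_add]
    congr 1
    funext γ
    exact (rX_add_iX (φ γ)).symm
  have b1 : ‖(fun γ => rX (φ γ) : Fin n → X (Euc m) 2)‖ ≤ ‖φ‖ :=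
    (pi_norm_le_iff_of_nonneg (norm_nonneg _)).2 fun γ =>
      (norm_rX_le _).trans (norm_le_pi_norm φ γ)
  have b2 : ‖(fun γ => iX (φ γ) : Fin n → X (Euc m) 2)‖ ≤ ‖φ‖ :=
    (pi_norm_le_iff_of_nonneg (norm_nonneg _)).2 fun γ =>
      (norm_iX_le _).trans (norm_le_pi_norm φ γ)
  have k1 := key (fun γ => rX (φ γ)) (fun γ => star_rX _) fun γ x hx => by
    rw [ev_rX, hφ γ x hx]; simp
  have k2 := key (fun γ => iX (φ γ)) (fun γ => star_iX _) fun γ x hx => by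
    rw [ev_iX, hφ γ x hx]; simp
  rw [e1, map_add, map_smul]
  refine (norm_add_le _ _).trans ?_
  rw [norm_smul, norm_I, one_mul]
  calc _ ≤ M * ‖φ‖ + M * ‖φ‖ := by
        refine add_le_add (k1.trans ?_) (k2.trans ?_)
        · gcongr
        · gcongr
    _ = _ := by ring

end Crest.Agent.R234.Sel11_570
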