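import Crest.Agent.R234.Sel12_570

/-!
Row 234, VF-SEL (helper570), file 13: the real part of the represented functional.
-/

set_option autoImplicit false
set_option linter.unusedSectionVars false
set_option linter.unusedVariables false

open MeasureTheory Complex Filter
open scoped ContDiff Topology InnerProductSpace ENNReal NNReal SchwartzMap

noncomputable section

namespace Crest.Agent.R234.Sel11_570

open Crest.GeometryTopology.Submanifold Crest.Agent.R234.Vf_884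
open Crest.Agent.R086.Wie Crest.Agent.R234.Mx1_397 Crest.Agent.R234.Mx2_397
  Crest.Agent.R234.Mx3_397 Crest.Agent.R234.Mx4_397 Crest.Agent.R234.Mx6_397
  Crest.Agent.R234.Sel5_570 Crest.Agent.R234.Sel6_570
open Crest.Agent.R234.MG_570 (Cf Lop i0 Rep IsReal XV lopT Psi)

variable {m n k : ℕ}

theorem continuous_ev {N : ℕ} (a : X (Euc m) N) : Continuous (ev a) := (contDiff_ev a).continuous

theorem integrable_ev_mul {N M : ℕ} (a : X (Euc m) N) (b : X (Euc m) M) {r : ℝ}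
    (h : ∀ x, r < ‖x‖ → ev b x = 0) : Integrable fun x => ev a x * ev b x := by
  refine ((continuous_ev a).mul (continuous_ev b)).integrable_of_hasCompactSupport ?_
  refine HasCompactSupport.intro (isCompact_closedBall (0 : Euc m) r) fun x hx => ?_
  show ev a x * ev b x = 0
  rw [h x (by simpa using hx), mul_zero]

theorem ev_conj_of_real {N : ℕ} {a : X (Euc m) N} (h : star a = a) (x : Euc m) :
    (((ev a x).re : ℝ) : ℂ) = ev a x := ev_real h x

/-- the real part of an annihilating family is annihilating. -/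
theorem real_ann {t N : ℕ} {c : Cf (Euc m) (Fin (Module.finrank ℝ (Euc m))) (Fin n) t}
    (hc : c.Real) {J : Fin n → X (Euc m) N} {r : ℝ}
    (hJ : ∀ φ : Fin n → X (Euc m) 2, (∀ γ x, r ≤ ‖x‖ → ev (φ γ) x = 0) →
      ∑ γ, ∫ x, ev (J γ) x * ev (Lop (stdOrthonormalBasis ℝ (Euc m)) c φ γ) x = 0)
    (φ : Fin n → X (Euc m) 2) (hφ : ∀ γ x, r ≤ ‖x‖ → ev (φ γ) x = 0) :
    ∑ γ, ∫ x, ev (rX (J γ)) x * ev (Lop (stdOrthonormalBasis ℝ (Euc m)) c φ γ) x = 0 := by
  have hopen : IsOpen {x : Euc m | r < ‖x‖} := isOpen_lt continuous_const continuous_norm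
  have hz : ∀ φ : Fin n → X (Euc m) 2, (∀ γ x, r ≤ ‖x‖ → ev (φ γ) x = 0) → ∀ γ x, r < ‖x‖ →
      ev (Lop (stdOrthonormalBasis ℝ (Euc m)) c φ γ) x = 0 := fun φ hφ γ x hx =>
    ev_Lop_zero _ c φ hopen (fun γ y hy => hφ γ y (le_of_lt hy)) γ x hx
  have h1 := hJ φ hφ
  have h2 := hJ (fun γ => star (φ γ)) fun γ x hx => by rw [ev_star, hφ γ x hx, map_zero]
  have h3 : ∑ γ, ∫ x, ev (star (J γ)) x
      * ev (Lop (stdOrthonormalBasis ℝ (Euc m)) c φ γ) x = 0 := by
    have h4 : ∀ γ, ∫ x, ev (star (J γ)) x * ev (Lop (stdOrthonormalBasis ℝ (Euc m)) c φ γ) x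
        = (starRingEnd ℂ) (∫ x, ev (J γ) x
          * ev (Lop (stdOrthonormalBasis ℝ (Euc m)) c (fun γ => star (φ γ)) γ) x) := fun γ => by
      rw [← integral_conj]
      refine integral_congr_ae (Eventually.of_forall fun x => ?_)
      simp only [map_mul]
      rw [← star_Lop _ c hc, ev_star, ev_star, conj_conj]
    simp_rw [h4]
    rw [← map_sum, h2, map_zero]
  have h5 : ∀ γ, ∫ x, ev (rX (J γ)) x * ev (Lop (stdOrthonormalBasis ℝ (Euc m)) c φ γ) x
      = (1 / 2 : ℂ) * ((∫ x, ev (J γ) x * ev (Lop (stdOrthonormalBasis ℝ (Euc m)) c φ γ) x)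
        + ∫ x, ev (star (J γ)) x * ev (Lop (stdOrthonormalBasis ℝ (Euc m)) c φ γ) x) := fun γ => by
    rw [← integral_add (integrable_ev_mul _ _ (hz φ hφ γ)) (integrable_ev_mul _ _ (hz φ hφ γ)),
      ← integral_const_mul]
    refine integral_congr_ae (Eventually.of_forall fun x => ?_)
    simp only [rX, ev_smul, ev_add]
    ring
  simp_rw [h5]
  rw [← Finset.mul_sum, Finset.sum_add_distrib, h1, h3]
  simp

/-- the real part approximates a real functional on real functions. -/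
theorem real_approx {N : ℕ} {J : Fin n → X (Euc m) N} {r : ℝ} {ζ : Fin n → X (Euc m) 0}
    (hζ : ∀ γ, star (ζ γ) = ζ γ) (hz : ∀ γ x, r ≤ ‖x‖ → ev (ζ γ) x = 0) {B : ℂ} (hB : B.im = 0) :
    ‖B - ∑ γ, ∫ x, ev (rX (J γ)) x * ev (ζ γ) x‖ ≤ ‖B - ∑ γ, ∫ x, ev (J γ) x * ev (ζ γ) x‖ := by
  have h1 : ∀ γ, ∫ x, ev (rX (J γ)) x * ev (ζ γ) x
      = (((∫ x, ev (J γ) x * ev (ζ γ) x).re : ℝ) : ℂ) := fun γ => by
    have h2 := integral_re (μ := (volume : Measure (Euc m)))
      (integrable_ev_mul (J γ) (ζ γ) fun x hx => hz γ x hx.le)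
    have h3 : (∫ x, ev (J γ) x * ev (ζ γ) x).re = ∫ x, (ev (J γ) x * ev (ζ γ) x).re := h2.symm
    rw [h3]
    refine Eq.trans ?_ integral_ofReal
    refine integral_congr_ae (Eventually.of_forall fun x => ?_)
    show ev (rX (J γ)) x * ev (ζ γ) x = (((ev (J γ) x * ev (ζ γ) x).re : ℝ) : ℂ)
    rw [ev_rX, ← ev_conj_of_real (hζ γ) x]
    simp
  simp_rw [h1]
  rw [← ofReal_sum]
  have h4 : B - ((∑ γ, (∫ x, ev (J γ) x * ev (ζ γ) x).re : ℝ) : ℂ)
      = (((B - ∑ γ, ∫ x, ev (J γ) x * ev (ζ γ) x).re : ℝ) : ℂ) := by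
    apply Complex.ext
    · simp
    · simp [hB]
  rw [h4, norm_real, Real.norm_eq_abs]
  exact abs_re_le_norm _

/-- the functional is real on real functions. -/
theorem beta_real {W : Measure (Euc k × L k)} {π : Euc k →L[ℝ] Euc m}
    {ρ : Euc k →L[ℝ] Euc n} {u : Euc m → Euc n} {ζ : Fin n → X (Euc m) 0}
    {g : Fin n → Euc m → ℝ} (hg : ∀ γ x, ev (ζ γ) x = ((g γ x : ℝ) : ℂ)) :
    ∫ p, bI π ρ u ζ p ∂W = ((∫ p, ∑ α, g α (π p.1) * hf π ρ u p α ∂W : ℝ) : ℂ) := by
  refine Eq.trans ?_ integral_ofReal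
  refine integral_congr_ae (Eventually.of_forall fun p => ?_)
  show bI π ρ u ζ p = _
  unfold bI
  push_cast
  exact Finset.sum_congr rfl fun α _ => by rw [hg]; rfl

end Crest.Agent.R234.Sel11_570
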