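import Crest.Agent.R234.Sel13_570
import Crest.Agent.R234.LT2_640
import Crest.Agent.R234.Th3_186
import Crest.Agent.R234.Mx17_397

/-!
Row 234, VF-SEL (helper570), file 14: the Jacobi field selected by the heights.
-/

set_option autoImplicit false
set_option linter.unusedSectionVars false
set_option linter.unusedVariables false

open MeasureTheory Complex Filter
open scoped ContDiff Topology InnerProductSpace ENNReal NNReal SchwartzMap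

noncomputable section

namespace Crest.Agent.R234.Sel11_570

open Crest.GeometryTopology.Submanifold Crest.Agent.R234.Vf_884
open Crest.Agent.R234.Ell1_3 (gop ginv dns)
open Crest.Agent.R234.Mx5_397 (msop)
open Crest.Agent.R234.Mx9_397 (lop)
open Crest.Agent.R234.Main_456 (Frame Msys)
open Crest.Agent.R086.Wie Crest.Agent.R234.Mx1_397 Crest.Agent.R234.Mx2_397
  Crest.Agent.R234.Mx3_397 Crest.Agent.R234.Mx4_397 Crest.Agent.R234.Mx6_397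
  Crest.Agent.R234.Sel5_570 Crest.Agent.R234.Sel6_570
open Crest.Agent.R234.MG_570

variable {m n k : ℕ}

/-- lowering the regularity. -/
def low {M N : ℕ} (h : M ≤ N) (a : XV m n N) : XV m n M := fun γ => inclV h (a γ)

theorem low_real {M N : ℕ} (h : M ≤ N) {a : XV m n N} (ha : IsReal a) : IsReal (low h a) :=
  fun γ => by
    show star (inclV h (a γ)) = inclV h (a γ)
    rw [star_inclV, ha γ]

theorem low_rep {M N : ℕ} (h : M ≤ N) {a : XV m n N} {u : Euc m → Euc n} (ha : Rep a u) :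
    Rep (low h a) u := fun x γ => by
  show _ = ev (inclV h (a γ)) x
  rw [ev_inclV]
  exact ha x γ

theorem low_norm {M N : ℕ} (h : M ≤ N) (a : XV m n N) : ‖low h a‖ ≤ ‖a‖ :=
  (pi_norm_le_iff_of_nonneg (norm_nonneg _)).2 fun γ =>
    (norm_inclV_le _ _).trans (norm_le_pi_norm a γ)

/-- derivative bounds in the form used here. -/
theorem mg_bd (m n N : ℕ) (hN : 1 ≤ N) : ∃ C : ℝ, 0 < C ∧ ∀ (κ r : ℝ) (u : Euc m → Euc n),
    MG N κ r u → ContDiff ℝ 3 u ∧ (∀ x, ‖u x‖ ≤ C * κ) ∧ (∀ x, ‖fderiv ℝ u x‖ ≤ C * κ) ∧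
      ∀ x, ‖fderiv ℝ (fderiv ℝ u) x‖ ≤ C * κ := by
  obtain ⟨C, hC0, hC⟩ := Mx17_397.bdP m n N
  refine ⟨C + 1, by linarith, fun κ r u h => ?_⟩
  have hκ : 0 ≤ κ := by
    obtain ⟨a, _, ha, _⟩ := h
    exact (norm_nonneg _).trans ha
  obtain ⟨h1, h2⟩ := hC κ r u h
  have h3 : C * κ ≤ (C + 1) * κ := by nlinarith
  refine ⟨h1.of_le ?_, fun x => ?_, fun x => ?_, fun x => ?_⟩
  · have : (3 : ℕ) ≤ N + 2 := by omega
    exact WithTop.coe_le_coe.2 (ENat.natCast_le_natCast.2 this)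
  · have := h2 0 (by omega) x
    rw [norm_iteratedFDeriv_zero] at this
    exact this.trans h3
  · have := h2 1 (by omega) x
    rw [norm_iteratedFDeriv_one] at this
    exact this.trans h3
  · have := h2 2 (by omega) x
    rw [← norm_iteratedFDeriv_fderiv, norm_iteratedFDeriv_one] at this
    exact this.trans h3

/-- the output of the field step. -/
structure Fld (N P : ℕ) (C d h r : ℝ) (W : Measure (Euc k × L k)) (π : Euc k →L[ℝ] Euc m)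
    (ρ : Euc k →L[ℝ] Euc n) (u : Euc m → Euc n) (b : XV m n (N + 2)) (v : Euc m → Euc n)
    (J : XV m n 2) (θ : ℝ) : Prop where
  real : IsReal b
  rep : Rep b v
  norm : ‖b‖ ≤ C * h / d ^ P
  jac : ∀ x ∈ Metric.ball (0 : Euc m) (r + d), lop u v x = 0
  app : ∀ ζ : Fin n → X (Euc m) 0, (∀ γ, star (ζ γ) = ζ γ) →
    (∀ γ x, r ≤ ‖x‖ → ev (ζ γ) x = 0) →
    ‖(∫ p, bI π ρ u ζ p ∂W) - ∑ γ, ∫ x, ev (J γ) x * ev (ζ γ) x‖ ≤ C * h ^ 2 / d ^ P * ‖ζ‖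
  val : ∀ x ∈ Metric.ball (0 : Euc m) r, ∀ γ,
    ev (J γ) x = ((θ * dns (fderiv ℝ u x) * v x γ : ℝ) : ℂ)
  area : ∀ ζ : Euc m → ℝ, ContDiff ℝ 1 ζ → (∀ x, r ≤ ‖x‖ → ζ x = 0) → (∀ x, |ζ x| ≤ 1) →
    (∀ x, ‖fderiv ℝ ζ x‖ ≤ 1) →
    |∫ p, ζ (π p.1) ∂W - θ * ∫ x, ζ x * dns (fderiv ℝ u x)| ≤ C * h / d ^ P

/-- the field step. -/
def FldP : Prop := ∀ (m n : ℕ), 1 ≤ m → ∃ N₀ : ℕ, ∀ N ≥ N₀, ∃ κ₀ : ℝ, 0 < κ₀ ∧ ∃ P : ℕ,
  ∀ Λ r₀ : ℝ, 0 < Λ → 0 < r₀ → ∃ C : ℝ, 1 ≤ C ∧ ∀ (k : ℕ) (W : Measure (Euc k × L k))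
    (π : Euc k →L[ℝ] Euc m) (ρ : Euc k →L[ℝ] Euc n) (κ h d r : ℝ) (u : Euc m → Euc n),
    κ ≤ κ₀ → 0 < d → 8 * d ≤ 1 / 2 → 8 * d ≤ r → r₀ ≤ r → r ≤ 1 → 0 < h →
    Cy_870.CylStat W π ρ 0 (r + 8 * d) 1 → W Set.univ ≤ ENNReal.ofReal Λ →
    ENNReal.ofReal Λ⁻¹ ≤ W ((fun p => π p.1) ⁻¹' Metric.ball 0 (r / 16)) →
    MG N κ (r + 8 * d) u → (∀ᵐ q ∂W, ‖ρ q.1 - u (π q.1)‖ ≤ h) → C * h ≤ d ^ P →
    ∃ (b : XV m n (N + 2)) (v : Euc m → Euc n) (J : XV m n 2) (θ : ℝ),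
      Fld N P C d h r W π ρ u b v J θ

/-- powers of `d ≤ 1`. -/
theorem div_pow_le {d : ℝ} (hd : 0 < d) (hd1 : d ≤ 1) {a b : ℝ} (hb : 0 ≤ b) (hab : a ≤ b)
    {p q : ℕ} (hpq : p ≤ q) : a / d ^ p ≤ b / d ^ q := by
  have h1 : d ^ q ≤ d ^ p := pow_le_pow_of_le_one hd.le hd1 hpq
  calc a / d ^ p ≤ b / d ^ p := by gcongr
    _ ≤ b / d ^ q := by gcongr

end Crest.Agent.R234.Sel11_570
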