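import Crest.Agent.R234.Sel14_570

/-!
Row 234, VF-SEL (helper570), file 15: the represented functional of the heights.
-/

set_option autoImplicit false
set_option linter.unusedSectionVars false
set_option linter.unusedVariables false

open MeasureTheory Complex Filter
open scoped ContDiff Topology InnerProductSpace ENNReal NNReal SchwartzMap

noncomputable section

namespace Crest.Agent.R234.Sel11_570

open Crest.GeometryTopology.Submanifold Crest.Agent.R234.Vf_884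
open Crest.Agent.R234.Ell1_3 (gop ginv dns)
open Crest.Agent.R234.Mx5_397 (msop)
open Crest.Agent.R234.Mx9_397 (lop)
open Crest.Agent.R234.Main_456 (Frame Msys)
open Crest.Agent.R086.Wie Crest.Agent.R234.Mx1_397 Crest.Agent.R234.Mx2_397
  Crest.Agent.R234.Mx3_397 Crest.Agent.R234.Mx4_397 Crest.Agent.R234.Mx6_397
  Crest.Agent.R234.Sel5_570 Crest.Agent.R234.Sel6_570
open Crest.Agent.R234.MG_570

variable {m n k : ℕ}

theorem norm_rV_le {N : ℕ} (J : Fin n → X (Euc m) N) : ‖(fun γ => rX (J γ) : XV m n N)‖ ≤ ‖J‖ :=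
  (pi_norm_le_iff_of_nonneg (norm_nonneg _)).2 fun γ =>
    (norm_rX_le _).trans (norm_le_pi_norm J γ)

/-- output of the functional step. -/
structure JS (C Λ d h r : ℝ) (p : ℕ) (W : Measure (Euc k × L k)) (π : Euc k →L[ℝ] Euc m)
    (ρ : Euc k →L[ℝ] Euc n) (u : Euc m → Euc n)
    (c : Cf (Euc m) (Fin (Module.finrank ℝ (Euc m))) (Fin n) (2 + m + 1)) (J : XV m n 2) : Prop where
  lt : ∀ (b : XV m n 2) (φ : Euc m → Euc n), IsReal b → Rep b φ → ∀ (x : Euc m) (β : Fin n),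
      ev (Lop (stdOrthonormalBasis ℝ (Euc m)) c b β) x
        = ((lopT u φ x (EuclideanSpace.single β 1) : ℝ) : ℂ)
  real : IsReal J
  norm : ‖J‖ ≤ C * (1 + Λ) * h / d ^ p
  ann : ∀ φ : XV m n 2, (∀ γ x, r + 6 * d ≤ ‖x‖ → ev (φ γ) x = 0) →
    ∑ γ, ∫ x, ev (J γ) x * ev (Lop (stdOrthonormalBasis ℝ (Euc m)) c φ γ) x = 0
  app : ∀ ζ : Fin n → X (Euc m) 0, (∀ γ, star (ζ γ) = ζ γ) →
    (∀ γ x, r + 6 * d ≤ ‖x‖ → ev (ζ γ) x = 0) →
    ‖(∫ p, bI π ρ u ζ p ∂W) - ∑ γ, ∫ x, ev (J γ) x * ev (ζ γ) x‖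
      ≤ C * (1 + Λ) * h ^ 2 / d ^ 2 * ‖ζ‖
  tilt : ∫ p in {p : Euc k × L k | ‖π p.1‖ < r + 7 * d}, ‖p.2 - TG π ρ u (π p.1)‖ ∂W
      ≤ C * (1 + Λ) * h / d ^ 2

theorem step_J (hWJ : WJP) (m n : ℕ) (hm : 1 ≤ m) : ∃ κ₁ C : ℝ, 0 < κ₁ ∧ 0 < C ∧ ∃ p : ℕ,
    ∀ (k : ℕ) (W : Measure (Euc k × L k)) (π : Euc k →L[ℝ] Euc m) (ρ : Euc k →L[ℝ] Euc n)
      (h Λ d r : ℝ) (u : Euc m → Euc n) (a : XV m n (2 + m + 1 + 3)), 0 < d → 8 * d ≤ 1 / 2 →
      0 < r → r ≤ 1 → 0 ≤ h → h ≤ 1 → 0 ≤ Λ → Cy_870.CylStat W π ρ 0 (r + 8 * d) 1 →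
      W Set.univ ≤ ENNReal.ofReal Λ → IsReal a → ‖a‖ ≤ κ₁ → Rep a u → ContDiff ℝ 3 u →
      (∀ x ∈ Metric.ball (0 : Euc m) (r + 8 * d), msop u x = 0) →
      (∀ᵐ q ∂W, ‖ρ q.1 - u (π q.1)‖ ≤ h) →
      ∃ (c : Cf (Euc m) (Fin (Module.finrank ℝ (Euc m))) (Fin n) (2 + m + 1)) (J : XV m n 2),
        JS C Λ d h r p W π ρ u c J := by
  obtain ⟨κW, CW, hκW, hCW, hW⟩ := hWJ m n hm
  obtain ⟨κS, CS, hκS, hCS, pS, hS⟩ := s2P m n 2 hm
  obtain ⟨κL, CL, hκL, hCL, hL⟩ := LT2_640.ltp m n (2 + m + 1)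
  refine ⟨min κW (min κL (κS / CL)), CW + CS * (n + 2 * CW) + 2 * CS * CW, by positivity,
    by positivity, pS + 2, ?_⟩
  intro k W π ρ h Λ d r u a hd hd8 hr hr1 h0 h1 hΛ hcyl hWΛ har ha harep hu3 hms hh
  have haW : ‖a‖ ≤ κW := ha.trans (min_le_left _ _)
  have haL : ‖a‖ ≤ κL := ha.trans ((min_le_right _ _).trans (min_le_left _ _))
  have haS : CL * ‖a‖ ≤ κS := by
    have h2 : ‖a‖ ≤ κS / CL := ha.trans ((min_le_right _ _).trans (min_le_right _ _))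
    rwa [le_div_iff₀ hCL, mul_comm] at h2
  obtain ⟨c, hcr, hcs, hc⟩ := hL a u har haL harep
  obtain ⟨hti, hwj⟩ := hW k W π ρ h Λ (r + 7 * d) (r + 8 * d) (low (by omega : 3 ≤ 2 + m + 1 + 3) a)
    u (by linarith) (by linarith) (by linarith) h0 hcyl hWΛ hΛ (low_real _ har)
    ((low_norm _ a).trans haW) (low_rep _ harep) hms hh
  have e78 : r + 8 * d - (r + 7 * d) = d := by ring
  rw [e78] at hti hwj
  have : IsFiniteMeasure W := ⟨hcyl.fin⟩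
  obtain ⟨β, hβn, hβ⟩ := exists_beta (W := W) (π := π) (ρ := ρ) (u := u) hu3.continuous h0 hΛ hWΛ
    (show ∀ᵐ q ∂W, ‖hf π ρ u q‖ ≤ h from hh)
  have hM0 : 0 ≤ CW * Λ * h ^ 2 / d ^ 2 := by positivity
  have hsm := weak_complex (W := W) (π := π) (ρ := ρ) (u := u) (h := h) (Λ := Λ) hu3 hc hβ hwj hM0
  obtain ⟨J₀, hJn, hJann, hJapp⟩ := hS c (hcs.trans haS) β (r + 6 * d) (r + 7 * d)
    (n * h * Λ) (2 * (CW * Λ * h ^ 2 / d ^ 2)) (by linarith) (by linarith) (by linarith)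
    (by positivity) (by positivity) hβn hsm
  have e67 : r + 7 * d - (r + 6 * d) = d := by ring
  rw [e67] at hJn
  have hd1 : d ≤ 1 := by linarith
  refine ⟨c, fun γ => rX (J₀ γ), hc, fun γ => star_rX _, ?_, ?_, ?_, ?_⟩
  · refine (norm_rV_le J₀).trans (hJn.trans ?_)
    have e1 : n * h * Λ + 2 * (CW * Λ * h ^ 2 / d ^ 2) ≤ (n + 2 * CW) * (1 + Λ) * h / d ^ 2 := by
      have hd2 : d ^ 2 ≤ 1 := pow_le_one₀ hd.le hd1
      rw [le_div_iff₀ (by positivity), add_mul]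
      have e2 : 2 * (CW * Λ * h ^ 2 / d ^ 2) * d ^ 2 = 2 * (CW * Λ * h ^ 2) := by
        field_simp
      rw [e2]
      have e3 : n * h * Λ * d ^ 2 ≤ n * h * Λ := mul_le_of_le_one_right (by positivity) hd2
      have e4 : h ^ 2 ≤ h := by nlinarith
      have e5 : CW * Λ * h ^ 2 ≤ CW * Λ * h := by gcongr
      have e6 : (0 : ℝ) ≤ n * h := by positivity
      have e7 : 0 ≤ CW * h := by positivity
      nlinarith
    calc CS * (n * h * Λ + 2 * (CW * Λ * h ^ 2 / d ^ 2)) / d ^ pS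
        ≤ CS * ((n + 2 * CW) * (1 + Λ) * h / d ^ 2) / d ^ pS := by gcongr
      _ = CS * (n + 2 * CW) * (1 + Λ) * h / d ^ (pS + 2) := by
          rw [pow_add]; field_simp
      _ ≤ _ := by
          gcongr
          have : 0 ≤ 2 * CS * CW := by positivity
          linarith
  · exact fun φ hφ => real_ann hcr hJann φ hφ
  · intro ζ hζ hζz
    have hre : (∫ p, bI π ρ u ζ p ∂W).im = 0 := by
      rw [beta_real (g := fun γ x => (ev (ζ γ) x).re) fun γ x => (ev_real (hζ γ) x).symm,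
        ofReal_im]
    refine (real_approx hζ hζz hre).trans ?_
    rw [← hβ]
    refine (hJapp ζ hζz).trans ?_
    have e8 : CS * (2 * (CW * Λ * h ^ 2 / d ^ 2)) = 2 * CS * CW * Λ * h ^ 2 / d ^ 2 := by ring
    rw [e8]
    have e9 : 2 * CS * CW * Λ ≤ (CW + CS * (n + 2 * CW) + 2 * CS * CW) * (1 + Λ) := by
      have : 0 ≤ CW + CS * (n + 2 * CW) := by positivity
      have h3 : 0 ≤ 2 * CS * CW := by positivity
      nlinarith
    gcongr
  · refine hti.trans ?_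
    have : 0 ≤ CS * (n + 2 * CW) + 2 * CS * CW := by positivity
    gcongr
    linarith

end Crest.Agent.R234.Sel11_570
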