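import Crest.Agent.R234.Sel15_570

/-!
Row 234, VF-SEL (helper570), file 16: the Jacobi field selected by the heights (`FldP`).
-/

set_option autoImplicit false
set_option linter.unusedSectionVars false
set_option linter.unusedVariables false

open MeasureTheory Complex Filter
open scoped ContDiff Topology InnerProductSpace ENNReal NNReal SchwartzMap

noncomputable section

namespace Crest.Agent.R234.Sel11_570

open Crest.GeometryTopology.Submanifold Crest.Agent.R234.Vf_884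
open Crest.Agent.R234.Ell1_3 (gop ginv dns)
open Crest.Agent.R234.Mx5_397 (msop)
open Crest.Agent.R234.Mx9_397 (lop)
open Crest.Agent.R234.Main_456 (Frame Msys)
open Crest.Agent.R086.Wie Crest.Agent.R234.Mx1_397 Crest.Agent.R234.Mx2_397
  Crest.Agent.R234.Mx3_397 Crest.Agent.R234.Mx4_397 Crest.Agent.R234.Mx6_397
  Crest.Agent.R234.Sel5_570 Crest.Agent.R234.Sel6_570
open Crest.Agent.R234.MG_570

variable {m n k : ℕ}

/-- scaled family divided by the density. -/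
def jD (θ : ℝ) (J : XV m n 2) (D : X (Euc m) 2) : XV m n 2 :=
  fun γ => (((θ⁻¹ : ℝ) : ℂ) • J γ) * D

theorem jD_real {θ : ℝ} {J : XV m n 2} {D : X (Euc m) 2} (hJ : IsReal J) (hD : star D = D) :
    IsReal (jD θ J D) := fun γ => by
  show star ((((θ⁻¹ : ℝ) : ℂ) • J γ) * D) = _
  rw [star_mul', star_smul, hJ γ, hD]
  congr 2
  exact conj_ofReal _

theorem smul_real {θ : ℝ} {J : XV m n 2} (hJ : IsReal J) :
    IsReal (fun γ => ((θ⁻¹ : ℝ) : ℂ) • J γ : XV m n 2) := fun γ => by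
  show star (((θ⁻¹ : ℝ) : ℂ) • J γ) = _
  rw [star_smul, hJ γ]
  congr 1
  exact conj_ofReal _

theorem norm_jD_le {θ : ℝ} (hθ : 0 < θ) (J : XV m n 2) (D : X (Euc m) 2) :
    ‖jD θ J D‖ ≤ θ⁻¹ * ‖J‖ * ‖D‖ := by
  refine (pi_norm_le_iff_of_nonneg (by positivity)).2 fun γ => ?_
  refine (norm_mul_le _ _).trans ?_
  rw [norm_smul, norm_real, Real.norm_of_nonneg (by positivity)]
  gcongr
  exact norm_le_pi_norm J γ

theorem ann_smul {θ : ℝ} {t : ℕ} {c : Cf (Euc m) (Fin (Module.finrank ℝ (Euc m))) (Fin n) t}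
    {J : XV m n 2} {φ : XV m n 2}
    (h : ∑ γ, ∫ x, ev (J γ) x * ev (Lop (stdOrthonormalBasis ℝ (Euc m)) c φ γ) x = 0) :
    ∑ γ, ∫ x, ev (((θ⁻¹ : ℝ) : ℂ) • J γ) x
      * ev (Lop (stdOrthonormalBasis ℝ (Euc m)) c φ γ) x = 0 := by
  have h1 : ∀ γ, ∫ x, ev (((θ⁻¹ : ℝ) : ℂ) • J γ) x
      * ev (Lop (stdOrthonormalBasis ℝ (Euc m)) c φ γ) x
      = ((θ⁻¹ : ℝ) : ℂ) * ∫ x, ev (J γ) x
        * ev (Lop (stdOrthonormalBasis ℝ (Euc m)) c φ γ) x := fun γ => by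
    rw [← integral_const_mul]
    refine integral_congr_ae (Eventually.of_forall fun x => ?_)
    simp only [ev_smul]
    ring
  simp_rw [h1]
  rw [← Finset.mul_sum, h, mul_zero]

/-- value of the field. -/
theorem jD_val {θ : ℝ} (hθ : 0 < θ) {J : XV m n 2} {D : X (Euc m) 2} {j : Euc m → Euc n}
    (hj : Rep (jD θ J D) j) {x : Euc m} {w : ℝ} (hw : 0 < w)
    (hD : ev D x = ((w⁻¹ : ℝ) : ℂ)) (γ : Fin n) :
    ev (J γ) x = ((θ * w * j x γ : ℝ) : ℂ) := by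
  have h1 := hj x γ
  rw [jD, ev_mul, ev_smul, hD] at h1
  push_cast
  rw [h1]
  push_cast
  have h2 : (θ : ℂ) ≠ 0 := ofReal_ne_zero.2 hθ.ne'
  have h3 : (w : ℂ) ≠ 0 := ofReal_ne_zero.2 hw.ne'
  field_simp

/-- lower bound of `θ`. -/
theorem theta_low (hTl : TlP) (m n : ℕ) (hm : 1 ≤ m) {Λ r₀ : ℝ} (hΛ : 0 < Λ) (hr₀ : 0 < r₀) :
    ∃ c e₀ : ℝ, 0 < c ∧ 0 < e₀ ∧ ∀ (k : ℕ) (W : Measure (Euc k × L k)) (π : Euc k →L[ℝ] Euc m)
      (u : Euc m → Euc n) (r θ E : ℝ), r₀ ≤ r → r ≤ 2 → W Set.univ < ⊤ →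
      ENNReal.ofReal Λ⁻¹ ≤ W ((fun p => π p.1) ⁻¹' Metric.ball 0 (r / 16)) →
      ContDiff ℝ 3 u → (∀ x, ‖fderiv ℝ u x‖ ≤ 1) → E ≤ e₀ →
      (∀ ζ : Euc m → ℝ, ContDiff ℝ 1 ζ → (∀ x, r ≤ ‖x‖ → ζ x = 0) → (∀ x, |ζ x| ≤ 1) →
        (∀ x, ‖fderiv ℝ ζ x‖ ≤ 1) →
        |∫ p, ζ (π p.1) ∂W - θ * ∫ x, ζ x * dns (fderiv ℝ u x)| ≤ E) → c ≤ θ := by
  obtain ⟨Dn, hDn1, hDn⟩ := Th_186.exists_dns m n
  obtain ⟨c, e₀, hc, he₀, h⟩ := hTl m hm Λ r₀ hΛ hr₀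
  have hDn0 : 0 < Dn := by linarith
  refine ⟨c * (2 / Dn), e₀, by positivity, he₀, fun k W π u r θ E hr hr2 hW hmass hu hu1 hE ht => ?_⟩
  have hcont : Continuous fun x => dns (fderiv ℝ u x) :=
    Ell1_3.dns_contDiff.continuous.comp (hu.continuous_fderiv (by norm_num))
  have key := h k W π (fun x => 2 / Dn * dns (fderiv ℝ u x)) r (θ * (Dn / 2)) E hr hr2 hW hmass
    (continuous_const.mul hcont)
    (fun x => mul_nonneg (by positivity) (Ell1_3.dns_pos _).le)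
    (fun x => by
      have h1 := (hDn _ (hu1 x)).2
      calc 2 / Dn * dns (fderiv ℝ u x) ≤ 2 / Dn * Dn := by gcongr
        _ = 2 := by field_simp)
    hE fun ζ hζ hz h1 h2 => by
      have h3 : ∫ x, ζ x * (2 / Dn * dns (fderiv ℝ u x))
          = 2 / Dn * ∫ x, ζ x * dns (fderiv ℝ u x) := by
        rw [← integral_const_mul]
        refine integral_congr_ae (Eventually.of_forall fun x => ?_)
        simp only []
        ring
      have h4 : θ * (Dn / 2) * (2 / Dn * ∫ x, ζ x * dns (fderiv ℝ u x))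
          = θ * ∫ x, ζ x * dns (fderiv ℝ u x) := by
        field_simp
      rw [h3, h4]
      exact ht ζ hζ hz h1 h2
  have h5 : θ = θ * (Dn / 2) * (2 / Dn) := by field_simp
  rw [h5]
  gcongr

end Crest.Agent.R234.Sel11_570
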