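import Crest.Agent.R234.Sel16_570

/-!
Row 234, VF-SEL (helper570), file 17: the Jacobi field selected by the heights (`FldP`).
-/

set_option autoImplicit false
set_option linter.unusedSectionVars false
set_option linter.unusedVariables false

open MeasureTheory Complex Filter
open scoped ContDiff Topology InnerProductSpace ENNReal NNReal SchwartzMap

noncomputable section

namespace Crest.Agent.R234.Sel11_570

open Crest.GeometryTopology.Submanifold Crest.Agent.R234.Vf_884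
open Crest.Agent.R234.Ell1_3 (gop ginv dns)
open Crest.Agent.R234.Mx5_397 (msop)
open Crest.Agent.R234.Mx9_397 (lop)
open Crest.Agent.R234.Main_456 (Frame Msys)
open Crest.Agent.R086.Wie Crest.Agent.R234.Mx1_397 Crest.Agent.R234.Mx2_397
  Crest.Agent.R234.Mx3_397 Crest.Agent.R234.Mx4_397 Crest.Agent.R234.Mx6_397
  Crest.Agent.R234.Sel5_570 Crest.Agent.R234.Sel6_570
open Crest.Agent.R234.MG_570

variable {m n k : ℕ}

/-- **the Jacobi field selected by the heights**. -/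
theorem fldP_of (hWJ : WJP) (hDns : DnsP) (hJac : JacP) (hTl : TlP) : FldP := by
  intro m n hm
  obtain ⟨κJ, CJ, hκJ, hCJ, pJ, hJ⟩ := step_J hWJ m n hm
  obtain ⟨ND, hND⟩ := hDns m n
  refine ⟨max ND (m + 4), fun N hN => ?_⟩
  obtain ⟨κD, CD, hκD, hCD, pD, hD⟩ := hND N (le_trans (le_max_left _ _) hN)
  have hNm : m + 4 ≤ N := le_trans (le_max_right _ _) hN
  obtain ⟨κR, hκR, CR, hCR, pR, hR⟩ := Jr_186.jRegP m n N
  obtain ⟨Cb, hCb, hb⟩ := mg_bd m n N (by omega)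
  have hκ0 : 0 < min (min κJ κD) (min κR (1 / Cb)) := by positivity
  refine ⟨min (min κJ κD) (min κR (1 / Cb)), hκ0, pJ + pD + pR + 2, fun Λ r₀ hΛ hr₀ => ?_⟩
  obtain ⟨CT, hCT, hT⟩ := Th_186.thP m n hm r₀ hr₀
  obtain ⟨cθ, e₀, hcθ, he₀, hθl⟩ := theta_low hTl m n hm hΛ hr₀
  obtain ⟨A₁, hA₁0, hA₁⟩ : ∃ A₁ : ℝ, 0 < A₁ ∧ A₁ = CJ * (1 + Λ) := ⟨_, by positivity, rfl⟩
  obtain ⟨A₂, hA₂0, hA₂⟩ : ∃ A₂ : ℝ, 0 < A₂ ∧ A₂ = CR * (cθ⁻¹ * A₁ * CD) :=
    ⟨_, by positivity, rfl⟩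
  refine ⟨1 + CT * A₁ / e₀ + A₂ + A₁ + CT * A₁, ?_, ?_⟩
  · have : 0 ≤ CT * A₁ / e₀ + A₂ + A₁ + CT * A₁ := by positivity
    linarith
  intro k W π ρ κ h d r u hκ hd hd8 hdr hr₀r hr1 hh0 hcyl hWΛ hmass hMG hh hsmall
  obtain ⟨C, hC⟩ : ∃ C : ℝ, C = 1 + CT * A₁ / e₀ + A₂ + A₁ + CT * A₁ := ⟨_, rfl⟩
  rw [← hC] at hsmall ⊢
  have hC1 : 1 ≤ C := by
    have : 0 ≤ CT * A₁ / e₀ + A₂ + A₁ + CT * A₁ := by positivity
    linarith
  have hCe : CT * A₁ / e₀ ≤ C := by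
    have : 0 ≤ 1 + A₂ + A₁ + CT * A₁ := by positivity
    linarith
  have hCA₂ : A₂ ≤ C := by
    have : 0 ≤ 1 + CT * A₁ / e₀ + A₁ + CT * A₁ := by positivity
    linarith
  have hCA₁ : A₁ ≤ C := by
    have : 0 ≤ 1 + CT * A₁ / e₀ + A₂ + CT * A₁ := by positivity
    linarith
  have hCT₁ : CT * A₁ ≤ C := by
    have : 0 ≤ 1 + CT * A₁ / e₀ + A₂ + A₁ := by positivity
    linarith
  clear hC
  have hd1 : d ≤ 1 := by linarith
  have hr : 0 < r := by linarith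
  have hdP1 : d ^ (pJ + pD + pR + 2) ≤ 1 := pow_le_one₀ hd.le hd1
  have hdP2 : d ^ (pJ + pD + pR + 2) ≤ d ^ 2 := pow_le_pow_of_le_one hd.le hd1 (by omega)
  have hh1 : h ≤ 1 := by nlinarith
  obtain ⟨a, har, han, harep, hams⟩ := id hMG
  have hκJ' : κ ≤ κJ := hκ.trans ((min_le_left _ _).trans (min_le_left _ _))
  have hκD' : κ ≤ κD := hκ.trans ((min_le_left _ _).trans (min_le_right _ _))
  have hκR' : κ ≤ κR := hκ.trans ((min_le_right _ _).trans (min_le_left _ _))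
  have hκb : Cb * κ ≤ 1 := by
    have h2 : κ ≤ 1 / Cb := hκ.trans ((min_le_right _ _).trans (min_le_right _ _))
    rwa [le_div_iff₀ hCb, mul_comm] at h2
  obtain ⟨hu3, hub0, hub1, hub2⟩ := hb κ _ u hMG
  have hms : ∀ x ∈ Metric.ball (0 : Euc m) (r + 8 * d), msop u x = 0 := fun x hx => by
    rw [← Mx16_397.Msys_eq]; exact hams x hx
  have hlow : 2 + m + 1 + 3 ≤ N + 2 := by omega
  obtain ⟨c, J, hJS⟩ := hJ k W π ρ h Λ d r u (low hlow a) hd hd8 hr hr1 hh0.le hh1 hΛ.le hcyl hWΛ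
    (low_real _ har) ((low_norm _ a).trans (han.trans hκJ')) (low_rep _ harep) hu3 hms hh
  -- the constant
  obtain ⟨θ, hθ⟩ := hT k W π ρ u (r + 7 * d) (r + 8 * d) (CJ * (1 + Λ) * h / d ^ 2)
    (by linarith) (by linarith) (by linarith) hcyl (hu3.of_le (by norm_num))
    (fun x => (hub1 x).trans hκb) (fun x => (hub2 x).trans hκb) hJS.tilt
  have hE : CT * (CJ * (1 + Λ) * h / d ^ 2) ≤ e₀ := by
    rw [← hA₁]
    have h3 : CT * A₁ / e₀ * h ≤ d ^ 2 := (mul_le_mul_of_nonneg_right hCe hh0.le).trans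
      (hsmall.trans hdP2)
    rw [div_mul_eq_mul_div, div_le_iff₀ he₀] at h3
    rw [mul_div_assoc', div_le_iff₀ (by positivity)]
    linarith
  have hθ' : ∀ ζ : Euc m → ℝ, ContDiff ℝ 1 ζ → (∀ x, r ≤ ‖x‖ → ζ x = 0) → (∀ x, |ζ x| ≤ 1) →
      (∀ x, ‖fderiv ℝ ζ x‖ ≤ 1) →
      |∫ p, ζ (π p.1) ∂W - θ * ∫ x, ζ x * dns (fderiv ℝ u x)| ≤ CT * (CJ * (1 + Λ) * h / d ^ 2) :=
    fun ζ h1 h2 h3 h4 => hθ ζ h1 (fun x hx => h2 x (by linarith)) h3 h4
  have hθc : cθ ≤ θ := hθl k W π u r θ _ hr₀r (by linarith) hcyl.fin hmass hu3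
    (fun x => (hub1 x).trans hκb) hE hθ'
  have hθ0 : 0 < θ := hcθ.trans_le hθc
  -- the inverse density
  obtain ⟨D, hDs, hDn, hDv⟩ := hD κ (r + 8 * d) d u hκD' hd hd1 (by linarith) (by linarith) hMG
  have e87 : r + 8 * d - d = r + 7 * d := by ring
  rw [e87] at hDv
  -- the field
  set j : Euc m → Euc n := Mx5_397.syn (EuclideanSpace.basisFun (Fin n) ℝ) (jD θ J D) with hj
  have hjrep : Rep (jD θ J D) j := Jr_186.rep_syn (jD_real hJS.real hDs)
  have hlop : ∀ x ∈ Metric.ball (0 : Euc m) (r + 6 * d), lop u j x = 0 :=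
    hJac m n (2 + m + 1) (low hlow a) u c (fun γ => ((θ⁻¹ : ℝ) : ℂ) • J γ) D j (r + 6 * d)
      (low_real _ har) (low_rep _ harep) (smul_real hJS.real) hDs (by linarith)
      (fun x hx => hms x (Metric.ball_subset_ball (by linarith) hx)) hJS.lt
      (fun x hx => hDv x (Metric.ball_subset_ball (by linarith) hx))
      (fun φ hφ => ann_smul (hJS.ann φ hφ)) hjrep
  have e56 : r + 6 * d = r + 5 * d + d := by ring
  rw [e56] at hlop
  obtain ⟨b, v, hbr, hbrep, hbn, hvj⟩ := hR (r + 5 * d) d u j a (jD θ J D) (by linarith) hd hd1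
    (by linarith) har (han.trans hκR') harep (jD_real hJS.real hDs) hjrep hlop
  refine ⟨b, v, J, θ, hbr, hbrep, ?_, ?_, ?_, ?_, ?_⟩
  · -- norm
    have h4 : ‖jD θ J D‖ ≤ cθ⁻¹ * (A₁ * h / d ^ pJ) * (CD / d ^ pD) := by
      refine (norm_jD_le hθ0 J D).trans ?_
      have h5 := hJS.norm
      rw [← hA₁] at h5
      have h6 : θ⁻¹ ≤ cθ⁻¹ := inv_anti₀ hcθ hθc
      have h7 : 0 ≤ A₁ * h / d ^ pJ := by positivity
      gcongr
    calc ‖b‖ ≤ CR * ‖jD θ J D‖ / d ^ pR := hbn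
      _ ≤ CR * (cθ⁻¹ * (A₁ * h / d ^ pJ) * (CD / d ^ pD)) / d ^ pR := by gcongr
      _ = A₂ * h / d ^ (pJ + pD + pR) := by
          rw [hA₂, pow_add, pow_add]
          field_simp
      _ ≤ C * h / d ^ (pJ + pD + pR + 2) :=
          div_pow_le hd hd1 (by positivity) (by gcongr) (by omega)
  · -- Jacobi
    intro x hx
    have hx5 : x ∈ Metric.ball (0 : Euc m) (r + 5 * d) :=
      Metric.ball_subset_ball (by linarith) hx
    have h8 : v =ᶠ[𝓝 x] j := by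
      filter_upwards [Metric.isOpen_ball.mem_nhds hx5] with y hy
      exact hvj y hy
    rw [Mx9_397.lop_congr (EventuallyEq.refl _ _) h8]
    exact hlop x (Metric.ball_subset_ball (by linarith) hx)
  · -- approximation
    intro ζ hζ hζz
    refine (hJS.app ζ hζ fun γ x hx => hζz γ x (by linarith)).trans ?_
    refine mul_le_mul_of_nonneg_right ?_ (norm_nonneg _)
    rw [← hA₁]
    exact div_pow_le hd hd1 (by positivity) (by gcongr) (by omega)
  · -- values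
    intro x hx γ
    have h9 := jD_val hθ0 hjrep (Ell1_3.dns_pos (fderiv ℝ u x))
      (hDv x (Metric.ball_subset_ball (by linarith) hx)) γ
    rw [h9, hvj x (Metric.ball_subset_ball (by linarith) hx)]
  · -- area
    intro ζ h1 h2 h3 h4
    refine (hθ' ζ h1 h2 h3 h4).trans ?_
    rw [← hA₁, mul_div_assoc', ← mul_assoc]
    exact div_pow_le hd hd1 (by positivity) (by gcongr) (by omega)

end Crest.Agent.R234.Sel11_570
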