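import Crest.Agent.R234.Sel17_570

/-!
Row 234, VF-SEL (helper570), file 18: the mean of the new heights.
-/

set_option autoImplicit false
set_option linter.unusedSectionVars false
set_option linter.unusedVariables false

open MeasureTheory Complex Filter
open scoped ContDiff Topology InnerProductSpace ENNReal NNReal SchwartzMap

noncomputable section

namespace Crest.Agent.R234.Sel11_570

open Crest.GeometryTopology.Submanifold Crest.Agent.R234.Vf_884
open Crest.Agent.R234.Ell1_3 (gop ginv dns)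
open Crest.Agent.R234.Mx5_397 (msop)
open Crest.Agent.R234.Mx9_397 (lop)
open Crest.Agent.R234.Main_456 (Frame Msys)
open Crest.Agent.R086.Wie Crest.Agent.R234.Mx1_397 Crest.Agent.R234.Mx2_397
  Crest.Agent.R234.Mx3_397 Crest.Agent.R234.Mx4_397 Crest.Agent.R234.Mx6_397
  Crest.Agent.R234.Sel5_570 Crest.Agent.R234.Sel6_570
open Crest.Agent.R234.MG_570

variable {m n k : ℕ}

theorem norm_le_sum (y : Euc n) : ‖y‖ ≤ ∑ α, |y α| := by
  have h2 : y = ∑ γ, y γ • EuclideanSpace.single γ (1 : ℝ) := by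
    have := (EuclideanSpace.basisFun (Fin n) ℝ).sum_repr y
    simpa using this.symm
  conv_lhs => rw [h2]
  refine (norm_sum_le _ _).trans (le_of_eq (Finset.sum_congr rfl fun α _ => ?_))
  rw [norm_smul, PiLp.norm_single, norm_one, mul_one, Real.norm_eq_abs]

variable {N P : ℕ} {C d h r : ℝ} {W : Measure (Euc k × L k)} {π : Euc k →L[ℝ] Euc m}
  {ρ : Euc k →L[ℝ] Euc n} {u : Euc m → Euc n} {b : XV m n (N + 2)} {v : Euc m → Euc n}
  {J : XV m n 2} {θ : ℝ}

/-- scaled area formula. -/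
theorem Fld.area' (H : Fld N P C d h r W π ρ u b v J θ) {g : Euc m → ℝ} {M : ℝ} (hM : 0 < M)
    (hg : ContDiff ℝ 1 g) (hz : ∀ x, r ≤ ‖x‖ → g x = 0) (h0 : ∀ x, |g x| ≤ M)
    (h1 : ∀ x, ‖fderiv ℝ g x‖ ≤ M) :
    |∫ p, g (π p.1) ∂W - θ * ∫ x, g x * dns (fderiv ℝ u x)| ≤ M * (C * h / d ^ P) := by
  have key := H.area (fun x => M⁻¹ * g x) (contDiff_const.mul hg)
    (fun x hx => by simp only [hz x hx, mul_zero])
    (fun x => by
      rw [abs_mul, abs_of_pos (inv_pos.2 hM), inv_mul_le_iff₀ hM, mul_one]; exact h0 x)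
    (fun x => by
      have h2 : fderiv ℝ (fun x => M⁻¹ * g x) x = M⁻¹ • fderiv ℝ g x := by
        rw [fderiv_const_mul (hg.differentiable one_ne_zero x)]
      rw [h2, norm_smul, norm_inv, Real.norm_of_nonneg hM.le, inv_mul_le_iff₀ hM, mul_one]
      exact h1 x)
  have e1 : ∫ p, M⁻¹ * g (π p.1) ∂W = M⁻¹ * ∫ p, g (π p.1) ∂W := integral_const_mul _ _
  have e2 : ∫ x, M⁻¹ * g x * dns (fderiv ℝ u x) = M⁻¹ * ∫ x, g x * dns (fderiv ℝ u x) := by
    rw [← integral_const_mul]
    refine integral_congr_ae (Eventually.of_forall fun x => ?_)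
    simp only []
    ring
  rw [e1, e2] at key
  have e3 : ∫ p, g (π p.1) ∂W - θ * ∫ x, g x * dns (fderiv ℝ u x)
      = M * (M⁻¹ * ∫ p, g (π p.1) ∂W - θ * (M⁻¹ * ∫ x, g x * dns (fderiv ℝ u x))) := by
    field_simp
  rw [e3, abs_mul, abs_of_pos hM]
  gcongr

/-- the functional against one component. -/
theorem Fld.mean (H : Fld N P C d h r W π ρ u b v J θ) (hC : 0 ≤ C) (hd : 0 < d)
    {ζ : Euc m → ℝ} (hζ : ContDiff ℝ ∞ ζ)
    (hc : HasCompactSupport ζ) (hz : ∀ x, r ≤ ‖x‖ → ζ x = 0) (α : Fin n) :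
    |∫ p, ζ (π p.1) * hf π ρ u p α ∂W - θ * ∫ x, (ζ x * v x α) * dns (fderiv ℝ u x)|
      ≤ C * h ^ 2 / d ^ P * ‖toX (F := Euc m) 0 (toS ζ hc hζ)‖ := by
  set a : X (Euc m) 0 := toX 0 (toS ζ hc hζ) with ha
  have hev : ∀ x, ev a x = ((ζ x : ℝ) : ℂ) := fun x => by rw [ha, ev_toX, toS_apply]
  have hst : star a = a := star_toX_toS _ _ _ _
  have hsingle : ‖(Pi.single α a : Fin n → X (Euc m) 0)‖ ≤ ‖a‖ :=
    (pi_norm_le_iff_of_nonneg (norm_nonneg _)).2 fun γ => by
      by_cases hγ : γ = α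
      · subst hγ; rw [Pi.single_eq_same]
      · rw [Pi.single_eq_of_ne hγ, norm_zero]; exact norm_nonneg _
  have key := H.app (Pi.single α a) (fun γ => by
      by_cases hγ : γ = α
      · subst hγ; rw [Pi.single_eq_same, hst]
      · rw [Pi.single_eq_of_ne hγ, star_zero]) fun γ x hx => by
      by_cases hγ : γ = α
      · subst hγ; rw [Pi.single_eq_same, hev, hz x hx, ofReal_zero]
      · rw [Pi.single_eq_of_ne hγ, ev_zero]
  have e1 : ∫ p, bI π ρ u (Pi.single α a) p ∂W
      = ((∫ p, ζ (π p.1) * hf π ρ u p α ∂W : ℝ) : ℂ) := by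
    rw [beta_real (g := fun γ x => if γ = α then ζ x else 0) fun γ x => by
      by_cases hγ : γ = α
      · subst hγ; rw [Pi.single_eq_same, hev, if_pos rfl]
      · rw [Pi.single_eq_of_ne hγ, ev_zero, if_neg hγ, ofReal_zero]]
    congr 1
    refine integral_congr_ae (Eventually.of_forall fun p => ?_)
    simp only [ite_mul, zero_mul, Finset.sum_ite_eq', Finset.mem_univ, if_true]
  have e2 : ∑ γ, ∫ x, ev (J γ) x * ev ((Pi.single α a : Fin n → X (Euc m) 0) γ) x
      = ((θ * ∫ x, (ζ x * v x α) * dns (fderiv ℝ u x) : ℝ) : ℂ) := by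
    rw [Finset.sum_eq_single α]
    · rw [Pi.single_eq_same]
      push_cast
      have e3 : ((∫ x, (ζ x * v x α) * dns (fderiv ℝ u x) : ℝ) : ℂ)
          = ∫ x, (((ζ x * v x α) * dns (fderiv ℝ u x) : ℝ) : ℂ) := integral_ofReal.symm
      rw [e3, ← integral_const_mul]
      refine integral_congr_ae (Eventually.of_forall fun x => ?_)
      simp only []
      rw [hev]
      by_cases hx : ‖x‖ < r
      · rw [H.val x (by simpa using hx) α]
        push_cast
        ring
      · rw [hz x (not_lt.1 hx)]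
        simp
    · intro γ _ hγ
      rw [Pi.single_eq_of_ne hγ]
      simp [ev_zero]
    · intro h0
      exact absurd (Finset.mem_univ α) h0
  rw [e1, e2, ← ofReal_sub, norm_real, Real.norm_eq_abs] at key
  refine key.trans ?_
  gcongr

end Crest.Agent.R234.Sel11_570
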