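import Crest.Agent.R234.Sel18_570

/-!
Row 234, VF-SEL (helper570), file 19: the mean of the new heights, all components.
-/

set_option autoImplicit false
set_option linter.unusedSectionVars false
set_option linter.unusedVariables false

open MeasureTheory Complex Filter
open scoped ContDiff Topology InnerProductSpace ENNReal NNReal SchwartzMap

noncomputable section

namespace Crest.Agent.R234.Sel11_570

open Crest.GeometryTopology.Submanifold Crest.Agent.R234.Vf_884
open Crest.Agent.R234.Ell1_3 (gop ginv dns)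
open Crest.Agent.R234.Mx5_397 (msop)
open Crest.Agent.R234.Mx9_397 (lop)
open Crest.Agent.R234.Main_456 (Frame Msys)
open Crest.Agent.R086.Wie Crest.Agent.R234.Mx1_397 Crest.Agent.R234.Mx2_397
  Crest.Agent.R234.Mx3_397 Crest.Agent.R234.Mx4_397 Crest.Agent.R234.Mx6_397
  Crest.Agent.R234.Sel5_570 Crest.Agent.R234.Sel6_570
open Crest.Agent.R234.MG_570

variable {m n k N P : ℕ} {C d h r : ℝ} {W : Measure (Euc k × L k)} {π : Euc k →L[ℝ] Euc m}
  {ρ : Euc k →L[ℝ] Euc n} {u : Euc m → Euc n} {b : XV m n (N + 2)} {v : Euc m → Euc n}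
  {J : XV m n 2} {θ : ℝ}

theorem integrable_base [IsFiniteMeasure W] {g : Euc m → ℝ} (hg : Continuous g) {B : ℝ}
    (hB : ∀ x, |g x| ≤ B) : Integrable (fun p => g (π p.1)) W :=
  Integrable.of_bound (hg.comp (π.continuous.comp continuous_fst)).aestronglyMeasurable B
    (Eventually.of_forall fun p => by rw [Real.norm_eq_abs]; exact hB _)

theorem continuous_coord {f : Euc m → Euc n} (hf : Continuous f) (α : Fin n) :
    Continuous fun x => f x α :=
  (EuclideanSpace.proj (𝕜 := ℝ) α : Euc n →L[ℝ] ℝ).continuous.comp hf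

theorem integrable_hgt [IsFiniteMeasure W] (hu : Continuous u)
    (hh : ∀ᵐ q ∂W, ‖hf π ρ u q‖ ≤ h) {g : Euc m → ℝ} (hg : Continuous g)
    (hB : ∀ x, |g x| ≤ 1) (α : Fin n) : Integrable (fun p => g (π p.1) * hf π ρ u p α) W := by
  refine Integrable.of_bound (((hg.comp (π.continuous.comp continuous_fst))).mul
    ((EuclideanSpace.proj (𝕜 := ℝ) α : Euc n →L[ℝ] ℝ).continuous.comp
      (continuous_hf hu))).aestronglyMeasurable h (hh.mono fun p hp => ?_)
  rw [norm_mul, Real.norm_eq_abs]
  calc |g (π p.1)| * ‖_‖ ≤ 1 * h := by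
        refine mul_le_mul (hB _) ?_ (norm_nonneg _) zero_le_one
        rw [Real.norm_eq_abs]
        exact (abs_apply_le _ α).trans hp
    _ = h := one_mul h

/-- **the mean of the new heights**. -/
theorem Fld.total (H : Fld N P C d h r W π ρ u b v J θ) (hC : 0 ≤ C) (hd : 0 < d) {Λ : ℝ}
    (hΛ : 0 ≤ Λ) (hW : W Set.univ ≤ ENNReal.ofReal Λ) (hu : Continuous u)
    (hh : ∀ᵐ q ∂W, ‖hf π ρ u q‖ ≤ h) {w : Euc m → Euc n} {V Wb : ℝ} (hV : 0 < V)
    (hv : ContDiff ℝ 1 v) (hv0 : ∀ x, ‖v x‖ ≤ V) (hv1 : ∀ x, ‖fderiv ℝ v x‖ ≤ V)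
    (hw : Continuous w) (hw0 : ∀ x, ‖w x‖ ≤ Wb)
    {ζ : Euc m → ℝ} (hζ : ContDiff ℝ ∞ ζ)
    (hc : HasCompactSupport ζ) (hz : ∀ x, r ≤ ‖x‖ → ζ x = 0) (hζ0 : ∀ x, |ζ x| ≤ 1)
    (hζ1 : ∀ x, ‖fderiv ℝ ζ x‖ ≤ 1) :
    ‖bar W π ρ (fun x => u x + v x + w x) ζ‖
      ≤ n * (C * h ^ 2 / d ^ P * ‖toX (F := Euc m) 0 (toS ζ hc hζ)‖
        + 2 * V * (C * h / d ^ P) + Λ * Wb) := by
  have hfin : IsFiniteMeasure W := ⟨hW.trans_lt ENNReal.ofReal_lt_top⟩
  have hreal : W.real Set.univ ≤ Λ := by
    unfold Measure.real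
    exact ENNReal.toReal_le_of_le_ofReal hΛ hW
  have hWb : 0 ≤ Wb := (norm_nonneg _).trans (hw0 0)
  have cζ : Continuous ζ := hζ.continuous
  have cv : Continuous v := hv.continuous
  have i1 : ∀ α, Integrable (fun p => ζ (π p.1) * hf π ρ u p α) W := fun α =>
    integrable_hgt hu hh cζ hζ0 α
  have i2 : ∀ α, Integrable (fun p => ζ (π p.1) * v (π p.1) α) W := fun α =>
    integrable_base (g := fun x => ζ x * v x α) (cζ.mul (continuous_coord cv α)) (B := V)
      fun x => by
        rw [abs_mul]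
        calc |ζ x| * |v x α| ≤ 1 * V := mul_le_mul (hζ0 x) ((abs_apply_le _ α).trans (hv0 x))
              (abs_nonneg _) zero_le_one
          _ = V := one_mul V
  have i3 : ∀ α, Integrable (fun p => ζ (π p.1) * w (π p.1) α) W := fun α =>
    integrable_base (g := fun x => ζ x * w x α) (cζ.mul (continuous_coord hw α)) (B := Wb)
      fun x => by
        rw [abs_mul]
        calc |ζ x| * |w x α| ≤ 1 * Wb := mul_le_mul (hζ0 x) ((abs_apply_le _ α).trans (hw0 x))
              (abs_nonneg _) zero_le_one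
          _ = Wb := one_mul Wb
  have hint : Integrable (fun p => ζ (π p.1) • (ρ p.1 - (u (π p.1) + v (π p.1) + w (π p.1)))) W := by
    refine Integrable.of_bound ((cζ.comp (π.continuous.comp continuous_fst)).smul
      ((ρ.continuous.comp continuous_fst).sub (((hu.comp (π.continuous.comp continuous_fst)).add
        (cv.comp (π.continuous.comp continuous_fst))).add
        (hw.comp (π.continuous.comp continuous_fst))))).aestronglyMeasurable (h + V + Wb)
      (hh.mono fun p hp => ?_)
    rw [norm_smul, Real.norm_eq_abs]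
    have e1 : ρ p.1 - (u (π p.1) + v (π p.1) + w (π p.1))
        = hf π ρ u p - v (π p.1) - w (π p.1) := by unfold hf; abel
    rw [e1]
    have e2 : ‖hf π ρ u p - v (π p.1) - w (π p.1)‖ ≤ h + V + Wb :=
      (norm_sub_le _ _).trans (add_le_add ((norm_sub_le _ _).trans (add_le_add hp (hv0 _))) (hw0 _))
    calc _ ≤ 1 * (h + V + Wb) := mul_le_mul (hζ0 _) e2 (norm_nonneg _) zero_le_one
      _ = _ := one_mul _
  have hcomp : ∀ α, bar W π ρ (fun x => u x + v x + w x) ζ α
      = ∫ p, ζ (π p.1) * hf π ρ u p α ∂W - ∫ p, ζ (π p.1) * v (π p.1) α ∂W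
        - ∫ p, ζ (π p.1) * w (π p.1) α ∂W := fun α => by
    have e3 : bar W π ρ (fun x => u x + v x + w x) ζ α
        = (EuclideanSpace.proj (𝕜 := ℝ) α : Euc n →L[ℝ] ℝ)
          (∫ p, ζ (π p.1) • (ρ p.1 - (u (π p.1) + v (π p.1) + w (π p.1))) ∂W) := rfl
    have i12 : Integrable (fun p => ζ (π p.1) * hf π ρ u p α - ζ (π p.1) * v (π p.1) α) W :=
      (i1 α).sub (i2 α)
    rw [e3, ← ContinuousLinearMap.integral_comp_comm _ hint, ← integral_sub (i1 α) (i2 α),
      ← integral_sub i12 (i3 α)]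
    refine integral_congr_ae (Eventually.of_forall fun p => ?_)
    show (ζ (π p.1) • (ρ p.1 - (u (π p.1) + v (π p.1) + w (π p.1)))) α
      = ζ (π p.1) * hf π ρ u p α - ζ (π p.1) * v (π p.1) α - ζ (π p.1) * w (π p.1) α
    have e1 : ρ p.1 - (u (π p.1) + v (π p.1) + w (π p.1))
        = hf π ρ u p - v (π p.1) - w (π p.1) := by unfold hf; abel
    rw [e1]
    simp only [PiLp.smul_apply, PiLp.sub_apply, smul_eq_mul]
    ring
  refine (norm_le_sum _).trans ?_
  calc ∑ α, |bar W π ρ (fun x => u x + v x + w x) ζ α|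
      ≤ ∑ _α : Fin n, (C * h ^ 2 / d ^ P * ‖toX (F := Euc m) 0 (toS ζ hc hζ)‖
        + 2 * V * (C * h / d ^ P) + Λ * Wb) := by
        refine Finset.sum_le_sum fun α _ => ?_
        rw [hcomp]
        have k1 := H.mean hC hd hζ hc hz α
        have hcd : ContDiff ℝ 1 fun x => ζ x * v x α :=
          (hζ.of_le (by exact_mod_cast le_top)).mul
            ((EuclideanSpace.proj (𝕜 := ℝ) α : Euc n →L[ℝ] ℝ).contDiff.comp hv)
        have k2 := H.area' (g := fun x => ζ x * v x α) (M := 2 * V) (by linarith) hcd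
          (fun x hx => by simp only [hz x hx, zero_mul])
          (fun x => by
            rw [abs_mul]
            calc |ζ x| * |v x α| ≤ 1 * V := mul_le_mul (hζ0 x) ((abs_apply_le _ α).trans (hv0 x))
                  (abs_nonneg _) zero_le_one
              _ ≤ 2 * V := by linarith)
          (fun x => by
            have d1 : HasFDerivAt ζ (fderiv ℝ ζ x) x :=
              (hζ.differentiable (by simp) x).hasFDerivAt
            have d2 : HasFDerivAt (fun x => v x α)
                ((EuclideanSpace.proj (𝕜 := ℝ) α : Euc n →L[ℝ] ℝ) ∘L fderiv ℝ v x) x :=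
              (EuclideanSpace.proj (𝕜 := ℝ) α : Euc n →L[ℝ] ℝ).hasFDerivAt.comp x
                (hv.differentiable one_ne_zero x).hasFDerivAt
            have d3 : HasFDerivAt (fun x => ζ x * v x α) _ x := d1.mul d2
            rw [d3.fderiv]
            refine (norm_add_le _ _).trans ?_
            rw [norm_smul, norm_smul, Real.norm_eq_abs, Real.norm_eq_abs]
            have d4 : ‖(EuclideanSpace.proj (𝕜 := ℝ) α : Euc n →L[ℝ] ℝ) ∘L fderiv ℝ v x‖ ≤ V := by
              refine ContinuousLinearMap.opNorm_le_bound _ hV.le fun y => ?_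
              refine le_trans (b := ‖fderiv ℝ v x y‖) ?_ ?_
              · exact PiLp.norm_apply_le (fderiv ℝ v x y) α
              · exact (ContinuousLinearMap.le_opNorm _ _).trans (by gcongr; exact hv1 x)
            calc |ζ x| * _ + |v x α| * ‖fderiv ℝ ζ x‖ ≤ 1 * V + V * 1 :=
                  add_le_add (mul_le_mul (hζ0 x) d4 (norm_nonneg _) zero_le_one)
                    (mul_le_mul ((abs_apply_le _ α).trans (hv0 x)) (hζ1 x) (norm_nonneg _) hV.le)
              _ = 2 * V := by ring)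
        have k3 : |∫ p, ζ (π p.1) * w (π p.1) α ∂W| ≤ Λ * Wb := by
          rw [← Real.norm_eq_abs]
          calc _ ≤ Wb * W.real Set.univ := by
                refine norm_integral_le_of_norm_le_const (Eventually.of_forall fun p => ?_)
                rw [norm_mul, Real.norm_eq_abs, Real.norm_eq_abs]
                calc |ζ (π p.1)| * |w (π p.1) α| ≤ 1 * Wb :=
                      mul_le_mul (hζ0 _) ((abs_apply_le _ α).trans (hw0 _)) (abs_nonneg _)
                        zero_le_one
                  _ = Wb := one_mul _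
            _ ≤ Wb * Λ := by gcongr
            _ = Λ * Wb := mul_comm _ _
        have e4 : ∫ p, ζ (π p.1) * hf π ρ u p α ∂W - ∫ p, ζ (π p.1) * v (π p.1) α ∂W
            - ∫ p, ζ (π p.1) * w (π p.1) α ∂W
            = (∫ p, ζ (π p.1) * hf π ρ u p α ∂W
                - θ * ∫ x, (ζ x * v x α) * dns (fderiv ℝ u x))
              - (∫ p, ζ (π p.1) * v (π p.1) α ∂W
                - θ * ∫ x, (ζ x * v x α) * dns (fderiv ℝ u x))
              - ∫ p, ζ (π p.1) * w (π p.1) α ∂W := by ring
        rw [e4]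
        refine (abs_sub _ _).trans (add_le_add ((abs_sub _ _).trans (add_le_add k1 ?_)) k3)
        exact k2
    _ = _ := by rw [Finset.sum_const, Finset.card_univ, Fintype.card_fin, nsmul_eq_mul]

end Crest.Agent.R234.Sel11_570
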