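import Crest.Agent.R234.Vf3_884
import Crest.Agent.R234.Strat3_842

/-!
Row 234, VF-SEL (helper570), file 1: pointwise algebra of a plane `S` against the tangent plane `T`
of the graph of a linear map `B` (all operators in the ring `L k`; `H` = horizontal projection,
`B = B H`, `H B = 0`).
-/

set_option autoImplicit false

open MeasureTheory Crest.GeometryTopology.Submanifold
open Crest.Agent.R234.Vf_884
open scoped ENNReal InnerProductSpace

noncomputable section

namespace Crest.Agent.R234.Sel1_570

variable {m k : ℕ}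

/-- expand products in the ring `L k`. -/
macro "nr570" : tactic => `(tactic| (simp only [sub_mul, mul_sub, add_mul, mul_add, one_mul, mul_one,
  mul_assoc, mul_zero, zero_mul, mul_neg, neg_mul, neg_neg, neg_sub, neg_add_rev]; abel))

theorem sadd (A B : L k) : star (A + B) = star A + star B := star_add A B
theorem ssub (A B : L k) : star (A - B) = star A - star B := star_sub A B
theorem szero : star (0 : L k) = 0 := star_zero (L k)
theorem sone : star (1 : L k) = 1 := star_one (L k)

theorem inner_star (A : L k) (x y : Euc k) : ⟪star A x, y⟫_ℝ = ⟪x, A y⟫_ℝ := by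
  rw [ContinuousLinearMap.star_eq_adjoint, ContinuousLinearMap.adjoint_inner_left]

theorem inner_star' (A : L k) (x y : Euc k) : ⟪x, star A y⟫_ℝ = ⟪A x, y⟫_ℝ := by
  rw [ContinuousLinearMap.star_eq_adjoint, ContinuousLinearMap.adjoint_inner_right]

/-- the data of a graph at one point. -/
structure GB (H B : L k) : Prop where
  idem : H * H = H
  sa : star H = H
  BH : B * H = B
  HB : H * B = 0

variable {H B : L k}

theorem GB.HBs (h : GB H B) : H * star B = star B := by
  have := congrArg star h.BH
  rwa [star_mul, h.sa] at this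

theorem GB.BsH (h : GB H B) : star B * H = 0 := by
  have := congrArg star h.HB
  rwa [star_mul, h.sa, szero] at this

theorem GB.BB (h : GB H B) : B * B = 0 := by
  calc B * B = (B * H) * B := by rw [h.BH]
    _ = B * (H * B) := mul_assoc _ _ _
    _ = 0 := by rw [h.HB, mul_zero]

theorem GB.BsBs (h : GB H B) : star B * star B = 0 := by
  rw [← star_mul, h.BB, szero]

/-- `1 + B†B` is a unit. -/
theorem isUnit_one_add (B : L k) : IsUnit (1 + star B * B) := by
  have hinj : Function.Injective (1 + star B * B : L k) := by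
    rw [injective_iff_map_eq_zero]
    intro x hx
    have h1 : ⟪x, (1 + star B * B : L k) x⟫_ℝ = ‖x‖ ^ 2 + ‖B x‖ ^ 2 := by
      rw [add_apply, one_apply_eq_self,
        mul_apply_eq_comp, inner_add_right, inner_star', real_inner_self_eq_norm_sq,
        real_inner_self_eq_norm_sq]
    rw [hx, inner_zero_right] at h1
    have h2 : ‖x‖ ^ 2 ≤ 0 := by nlinarith [sq_nonneg ‖B x‖]
    exact norm_eq_zero.1 (pow_eq_zero_iff two_ne_zero |>.1 (le_antisymm h2 (sq_nonneg _)))
  let e := (LinearEquiv.ofInjectiveEndo (1 + star B * B : L k).toLinearMap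
    hinj).toContinuousLinearEquiv
  have he : (e : L k) = 1 + star B * B := by
    ext1 x; rfl
  rw [← he]
  exact ⟨ContinuousLinearEquiv.toUnit e, rfl⟩

/-- the inverse metric (identity on the vertical part). -/
def gI (B : L k) : L k := Ring.inverse (1 + star B * B)

theorem gI_mul (B : L k) : gI B * (1 + star B * B) = 1 :=
  Ring.inverse_mul_cancel _ (isUnit_one_add B)

theorem mul_gI (B : L k) : (1 + star B * B) * gI B = 1 :=
  Ring.mul_inverse_cancel _ (isUnit_one_add B)

theorem gI_BsB (B : L k) : gI B * (star B * B) = 1 - gI B := by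
  have := gI_mul B
  rw [mul_add, mul_one] at this
  rw [← this]; abel

theorem BsB_gI (B : L k) : star B * B * gI B = 1 - gI B := by
  have := mul_gI B
  rw [add_mul, one_mul] at this
  rw [← this]; abel

theorem star_gI (B : L k) : star (gI B) = gI B := by
  have h1 : star (gI B) * (1 + star B * B) = 1 := by
    have := congrArg star (mul_gI B)
    rwa [star_mul, sadd, sone, star_mul, star_star] at this
  calc star (gI B) = star (gI B) * ((1 + star B * B) * gI B) := by rw [mul_gI, mul_one]
    _ = (star (gI B) * (1 + star B * B)) * gI B := by rw [mul_assoc]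
    _ = gI B := by rw [h1, one_mul]

/-- `H` commutes with the inverse metric. -/
theorem GB.H_gI (h : GB H B) : H * gI B = gI B * H := by
  have hc : H * (1 + star B * B) = (1 + star B * B) * H := by
    rw [mul_add, add_mul, mul_one, one_mul, ← mul_assoc, h.HBs, mul_assoc, h.BH]
  calc H * gI B = (gI B * (1 + star B * B)) * (H * gI B) := by rw [gI_mul, one_mul]
    _ = gI B * ((1 + star B * B) * H) * gI B := by simp only [mul_assoc]
    _ = gI B * (H * (1 + star B * B)) * gI B := by rw [hc]
    _ = gI B * H * ((1 + star B * B) * gI B) := by simp only [mul_assoc]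
    _ = gI B * H := by rw [mul_gI, mul_one]

theorem GB.gI_ver (h : GB H B) : gI B * (1 - H) = 1 - H := by
  have h1 : (1 + star B * B) * (1 - H) = 1 - H := by
    rw [add_mul, one_mul, mul_assoc, mul_sub, mul_one, h.BH, sub_self, mul_zero, add_zero]
  calc gI B * (1 - H) = gI B * ((1 + star B * B) * (1 - H)) := by rw [h1]
    _ = 1 - H := by rw [← mul_assoc, gI_mul, one_mul]

/-- the tangent projection of the graph. -/
def TT (H B : L k) : L k := (H + B) * gI B * (H + star B)

/-- the normal frame. -/
def nu (H B : L k) : L k := 1 - H - star B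

/-- `(1 + B B†)⁻¹`. -/
def KK (B : L k) : L k := 1 - B * gI B * star B

theorem GB.star_nu (h : GB H B) : star (nu H B) = 1 - H - B := by
  rw [nu, ssub, ssub, sone, h.sa, star_star]

theorem GB.KK_H (h : GB H B) : KK B * H = H := by
  rw [KK, sub_mul, one_mul, mul_assoc, h.BsH, mul_zero, sub_zero]

theorem GB.H_KK (h : GB H B) : H * KK B = H := by
  rw [KK, mul_sub, mul_one, ← mul_assoc, ← mul_assoc, h.HB, zero_mul, zero_mul, sub_zero]

theorem star_KK (B : L k) : star (KK B) = KK B := by
  rw [KK, ssub, sone, star_mul, star_mul, star_star, star_gI, mul_assoc]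

theorem KK_B (B : L k) : KK B * B = B * gI B := by
  rw [KK, sub_mul, one_mul, mul_assoc, mul_assoc, gI_BsB, mul_sub, mul_one]
  abel

theorem Bs_KK (B : L k) : star B * KK B = gI B * star B := by
  have := congrArg star (KK_B B)
  rwa [star_mul, star_mul, star_KK, star_gI] at this

theorem GB.nu_H (h : GB H B) : nu H B * H = 0 := by
  rw [nu, sub_mul, sub_mul, one_mul, h.idem, sub_self, h.BsH, sub_zero]

theorem GB.H_snu (h : GB H B) : H * star (nu H B) = 0 := by
  have := congrArg star h.nu_H
  rwa [star_mul, h.sa, szero] at this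

/-- the normal projection. -/
theorem GB.TT_add (h : GB H B) : TT H B + nu H B * KK B * star (nu H B) = 1 := by
  have e0 : gI B * H = H * gI B := h.H_gI.symm
  have e1 : TT H B = H * gI B + H * gI B * star B + B * gI B + B * gI B * star B := by
    have a1 : H * gI B * H = H * gI B := by rw [mul_assoc, e0, ← mul_assoc, h.idem]
    have a2 : B * gI B * H = B * gI B := by rw [mul_assoc, e0, ← mul_assoc, h.BH]
    rw [TT]
    calc (H + B) * gI B * (H + star B)
        = H * gI B * H + H * gI B * star B + (B * gI B * H + B * gI B * star B) := by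
          nr570
      _ = _ := by rw [a1, a2]; abel
  have e2 : nu H B * KK B * star (nu H B)
      = (1 - H) * KK B * (1 - H) - (1 - H) * (KK B * B) - (star B * KK B) * (1 - H)
        + star B * (KK B * B) := by
    rw [h.star_nu, nu]; nr570
  have b1 : (1 - H) * KK B * (1 - H) = 1 - H - B * gI B * star B := by
    have c1 : (1 - H) * KK B = KK B - H := by rw [sub_mul, one_mul, h.H_KK]
    rw [c1, sub_mul, mul_sub, mul_sub, mul_one, mul_one, h.KK_H, h.idem, sub_self, sub_zero, KK]
    abel
  have b2 : (1 - H) * (KK B * B) = B * gI B := by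
    rw [KK_B, sub_mul, one_mul, ← mul_assoc, h.HB, zero_mul, sub_zero]
  have b3 : (star B * KK B) * (1 - H) = gI B * star B := by
    rw [Bs_KK, mul_sub, mul_one, mul_assoc, h.BsH, mul_zero, sub_zero]
  have b4 : star B * (KK B * B) = 1 - gI B := by
    rw [KK_B, ← mul_assoc, BsB_gI]
  have b5 : H * gI B * star B = gI B * star B := by
    rw [h.H_gI, mul_assoc, h.HBs]
  have b6 : H * gI B = gI B - (1 - H) := by
    have := h.gI_ver
    rw [mul_sub, mul_one, ← h.H_gI] at this
    have h2 : gI B = 1 - H + H * gI B := by rw [← this]; abel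
    rw [eq_comm, sub_eq_iff_eq_add, add_comm]; exact h2
  rw [e1, e2, b1, b2, b3, b4, b5, b6]
  abel

theorem GB.snu_nu (h : GB H B) : star (nu H B) * nu H B = 1 - H + B * star B := by
  rw [h.star_nu, nu]
  have a1 : (1 - H - B) * (1 - H - star B)
      = 1 - H - H + H * H - (star B - H * star B) - (B - B * H) + B * star B := by nr570
  rw [a1, h.idem, h.HBs, h.BH]; abel

theorem KK_mul (B : L k) : KK B * (1 + B * star B) = 1 := by
  have : KK B * (1 + B * star B) = KK B + (KK B * B) * star B := by
    rw [mul_add, mul_one, mul_assoc]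
  rw [this, KK_B, KK]; abel

theorem GB.T'nu (h : GB H B) : nu H B * KK B * star (nu H B) * nu H B = nu H B := by
  rw [mul_assoc, h.snu_nu]
  have : nu H B * KK B * (1 - H + B * star B)
      = nu H B * (KK B * (1 + B * star B)) - nu H B * (KK B * H) := by nr570
  rw [this, KK_mul, h.KK_H, h.nu_H, mul_one, sub_zero]

theorem GB.T_nu (h : GB H B) : TT H B * nu H B = 0 := by
  have h1 : TT H B = 1 - nu H B * KK B * star (nu H B) := by
    rw [← h.TT_add]; abel
  rw [h1, sub_mul, one_mul, h.T'nu, sub_self]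

theorem star_TT (h : GB H B) : star (TT H B) = TT H B := by
  rw [TT, star_mul, star_mul, sadd, sadd, h.sa, star_star, star_gI, mul_assoc]

theorem GB.TT_idem (h : GB H B) : TT H B * TT H B = TT H B := by
  have h1 : TT H B = 1 - nu H B * KK B * star (nu H B) := by
    rw [← h.TT_add]; abel
  calc TT H B * TT H B = TT H B * (1 - nu H B * KK B * star (nu H B)) := by rw [← h1]
    _ = TT H B - TT H B * nu H B * (KK B * star (nu H B)) := by
          rw [mul_sub, mul_one]; simp only [mul_assoc]
    _ = TT H B := by rw [h.T_nu, zero_mul, sub_zero]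

theorem tr_mul_comm (A C : L k) : tr (A * C) = tr (C * A) := tr_comm A C

theorem tr_one' : tr (1 : L k) = k := tr_one

theorem GB.tr_TT (h : GB H B) : tr (TT H B) = tr H := by
  have h1 : TT H B = (H + B) * (gI B * (H + star B)) := by rw [TT, mul_assoc]
  have h2 : gI B * (H + star B) * (H + B) = 1 - gI B * (1 - H) := by
    have : gI B * (H + star B) * (H + B)
        = gI B * (H * H) + gI B * (H * B) + gI B * (star B * H) + gI B * (star B * B) := by
      nr570
    rw [this, h.idem, h.HB, h.BsH, gI_BsB, mul_sub, mul_one]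
    simp only [mul_zero, add_zero]
    abel
  rw [h1, tr_mul_comm, h2, h.gI_ver, map_sub, map_sub, tr_one']
  ring

theorem GB.TT_mem (h : GB H B) (hm : tr H = m) : TT H B ∈ G m k :=
  ⟨h.TT_idem, star_TT h, by rw [h.tr_TT, hm]⟩

/-- **The exact decomposition** of a plane `S` with respect to `T`, tested against a symmetric
horizontal operator `A`. -/
theorem tr_decomp (h : GB H B) {A S : L k} (hA : star A = A) (hAH : A * H = A)
    (hS : star S = S) :
    tr (A * S) = tr (A * TT H B) - 2 * tr (A * gI B * star B * star (nu H B) * S)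
      - tr (A * (TT H B * (1 - S) * TT H B))
      - tr (A * ((1 - TT H B) * S * (1 - TT H B))) := by
  set T := TT H B with hT
  have hTT : T * T = T := h.TT_idem
  have hTs : star T = T := star_TT h
  have hHA : H * A = A := by
    have := congrArg star hAH
    rwa [star_mul, hA, h.sa] at this
  have e1 : 1 - T = nu H B * KK B * star (nu H B) := by
    rw [← h.TT_add]; abel
  have e2 : A * S = A * T + A * ((1 - T) * S) + A * (S * (1 - T))
      - A * (T * (1 - S) * T) - A * ((1 - T) * S * (1 - T)) := by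
    have : A * T + A * ((1 - T) * S) + A * (S * (1 - T))
      - A * (T * (1 - S) * T) - A * ((1 - T) * S * (1 - T))
        = A * S + A * (T - T * T) := by nr570
    rw [this, hTT, sub_self, mul_zero, add_zero]
  have e3 : tr (A * (S * (1 - T))) = tr (A * ((1 - T) * S)) := by
    -- the trace of the adjoint
    have hst : ∀ X : L k, tr (star X) = tr X := by
      intro X
      rw [tr_eq_sum, tr_eq_sum]
      refine Finset.sum_congr rfl fun i _ => ?_
      rw [inner_star', real_inner_comm]
    rw [← hst (A * (S * (1 - T)))]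
    have : star (A * (S * (1 - T))) = (1 - T) * S * A := by
      rw [star_mul, star_mul, ssub, sone, hTs, hS, hA]
    rw [this, tr_mul_comm]
  have e4 : A * ((1 - T) * S) = -(A * gI B * star B * star (nu H B) * S) := by
    have a1 : A * nu H B = -(A * star B) := by
      rw [nu, mul_sub, mul_sub, mul_one, hAH, sub_self, zero_sub]
    calc A * ((1 - T) * S) = (A * nu H B) * KK B * star (nu H B) * S := by
          rw [e1]; simp only [mul_assoc]
      _ = -(A * (star B * KK B) * star (nu H B) * S) := by
          have a2 : ∀ X : L k, (-(A * star B)) * X = -((A * star B) * X) := fun X => by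
            ext1 x; simp only [mul_apply_eq_comp, neg_apply]
          rw [a1, mul_assoc, mul_assoc, a2]; simp only [mul_assoc]
      _ = _ := by rw [Bs_KK]; simp only [mul_assoc]
  have e5 : tr (A * S) = tr (A * T) + tr (A * ((1 - T) * S)) + tr (A * (S * (1 - T)))
      - tr (A * (T * (1 - S) * T)) - tr (A * ((1 - T) * S * (1 - T))) := by
    rw [← map_add, ← map_add, ← map_sub, ← map_sub, ← e2]
  rw [e5, e3, e4, map_neg]
  ring

/-- the tilt of `S` against `T`. -/
def tau (T S : L k) : ℝ := tr ((1 - T) * S)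

theorem tau_nonneg {S T : L k} (hS : S ∈ G m k) (hT : T ∈ G m k) : 0 ≤ tau T S :=
  Strat3_842.tr_perp_nonneg hS hT

theorem abs_tr_le (A : L k) : |tr A| ≤ k * ‖A‖ := by
  rw [tr_eq_sum]
  refine (Finset.abs_sum_le_sum_abs _ _).trans ?_
  calc ∑ i : Fin k, |⟪stdVec k i, A (stdVec k i)⟫_ℝ| ≤ ∑ _i : Fin k, ‖A‖ := by
        refine Finset.sum_le_sum fun i _ => ?_
        have h1 : ‖stdVec k i‖ = 1 := by simp [stdVec]
        calc |⟪stdVec k i, A (stdVec k i)⟫_ℝ| ≤ ‖stdVec k i‖ * ‖A (stdVec k i)‖ :=
              abs_real_inner_le_norm _ _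
          _ ≤ 1 * (‖A‖ * 1) := by
              rw [h1]; gcongr; simpa [h1] using A.le_opNorm (stdVec k i)
          _ = ‖A‖ := by ring
    _ = k * ‖A‖ := by simp

/-- `‖S - T‖² ≤ 2 τ`. -/
theorem norm_sub_sq_le {S T : L k} (hS : S ∈ G m k) (hT : T ∈ G m k) :
    ‖S - T‖ ^ 2 ≤ 2 * tau T S := by
  have h0 : 0 ≤ 2 * tau T S := by have := tau_nonneg hS hT; linarith
  have h1 : ∀ w, ‖(S - T) w‖ ≤ Real.sqrt (2 * tau T S) * ‖w‖ := by
    intro w
    have h2 := Strat3_842.norm_sq_le_tr (A := S - T) (Strat3_842.sub_symm hS hT) w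
    rw [Strat3_842.tr_sub_sq hS hT] at h2
    have h3 : ‖(S - T) w‖ ^ 2 ≤ (Real.sqrt (2 * tau T S) * ‖w‖) ^ 2 := by
      rw [mul_pow, Real.sq_sqrt h0]
      exact h2
    exact abs_le_of_sq_le_sq' h3 (by positivity) |>.2
  have h4 : ‖S - T‖ ≤ Real.sqrt (2 * tau T S) :=
    ContinuousLinearMap.opNorm_le_bound _ (Real.sqrt_nonneg _) h1
  calc ‖S - T‖ ^ 2 ≤ Real.sqrt (2 * tau T S) ^ 2 := by gcongr
    _ = _ := Real.sq_sqrt h0

theorem norm_sub_le {S T : L k} (hS : S ∈ G m k) (hT : T ∈ G m k) :
    ‖S - T‖ ≤ Real.sqrt (2 * tau T S) :=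
  Real.le_sqrt_of_sq_le (norm_sub_sq_le hS hT)

/-- linear error. -/
theorem tr_lin_le {S T : L k} (hS : S ∈ G m k) (hT : T ∈ G m k) (A : L k) :
    |tr (A * S) - tr (A * T)| ≤ k * ‖A‖ * Real.sqrt (2 * tau T S) := by
  rw [← map_sub, ← mul_sub]
  refine (abs_tr_le _).trans ?_
  have := norm_sub_le hS hT
  calc (k : ℝ) * ‖A * (S - T)‖ ≤ k * (‖A‖ * Real.sqrt (2 * tau T S)) := by
        gcongr
        exact (norm_mul_le _ _).trans (by gcongr)
    _ = _ := by ring

theorem norm_one_sub_le {S : L k} (hS : S ∈ G m k) : ‖(1 : L k) - S‖ ≤ 1 := by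
  refine ContinuousLinearMap.opNorm_le_bound _ zero_le_one fun x => ?_
  have := G_norm_sq_add hS x
  have h2 : ‖x - S x‖ ^ 2 ≤ ‖x‖ ^ 2 := by nlinarith [sq_nonneg ‖S x‖]
  rw [one_mul]
  exact abs_le_of_sq_le_sq' h2 (norm_nonneg _) |>.2

/-- quadratic error. -/
theorem quad_le {S T : L k} (hS : S ∈ G m k) (hT : T ∈ G m k) (A : L k) :
    |tr (A * (T * (1 - S) * T)) + tr (A * ((1 - T) * S * (1 - T)))| ≤ 4 * k * ‖A‖ * tau T S := by
  have hSS : S * S = S := hS.1
  have hTT : T * T = T := hT.1
  have hR := norm_sub_sq_le hS hT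
  have a1 : ‖T * (1 - S) * T‖ ≤ ‖S - T‖ ^ 2 := by
    have e1 : T * (1 - S) * T = -((S - T) * (1 - S) * (T - S)) + (S - T) * (1 - S) * 0 := by
      have : (S - T) * (1 - S) * (T - S) = S * (T - S) - S * S * (T - S) - T * (1 - S) * T
          + T * (S - S * S) := by nr570
      rw [this, hSS]; nr570
    rw [mul_zero, add_zero] at e1
    rw [e1, norm_neg]
    calc ‖(S - T) * (1 - S) * (T - S)‖ ≤ ‖S - T‖ * ‖1 - S‖ * ‖T - S‖ :=
          (norm_mul_le _ _).trans (by gcongr; exact norm_mul_le _ _)
      _ ≤ ‖S - T‖ * 1 * ‖S - T‖ := by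
          rw [norm_sub_rev T S]; gcongr; exact norm_one_sub_le hS
      _ = _ := by ring
  have a2 : ‖(1 - T) * S * (1 - T)‖ ≤ ‖S - T‖ ^ 2 := by
    have e1 : (1 - T) * S * (1 - T) = (S - T) * S * (S - T) := by
      have : (1 - T) * S * (1 - T) = (S - T) * S * (S - T) + ((1 - S) * S * (1 - T)
          + (S - T) * (S * (1 - S))) := by nr570
      rw [this]
      have h1 : (1 - S) * S = 0 := by rw [sub_mul, one_mul, hSS, sub_self]
      have h2 : S * (1 - S) = 0 := by rw [mul_sub, mul_one, hSS, sub_self]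
      rw [h1, h2, zero_mul, mul_zero, add_zero, add_zero]
    rw [e1]
    calc ‖(S - T) * S * (S - T)‖ ≤ ‖S - T‖ * ‖S‖ * ‖S - T‖ :=
          (norm_mul_le _ _).trans (by gcongr; exact norm_mul_le _ _)
      _ ≤ ‖S - T‖ * 1 * ‖S - T‖ := by gcongr; exact G_norm_le hS
      _ = _ := by ring
  calc |tr (A * (T * (1 - S) * T)) + tr (A * ((1 - T) * S * (1 - T)))|
      ≤ |tr (A * (T * (1 - S) * T))| + |tr (A * ((1 - T) * S * (1 - T)))| := abs_add_le _ _
    _ ≤ k * (‖A‖ * ‖S - T‖ ^ 2) + k * (‖A‖ * ‖S - T‖ ^ 2) := by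
        gcongr
        · refine (abs_tr_le _).trans ?_
          gcongr
          exact (norm_mul_le _ _).trans (by gcongr)
        · refine (abs_tr_le _).trans ?_
          gcongr
          exact (norm_mul_le _ _).trans (by gcongr)
    _ = 2 * k * ‖A‖ * ‖S - T‖ ^ 2 := by ring
    _ ≤ 2 * k * ‖A‖ * (2 * tau T S) := by gcongr
    _ = _ := by ring

end Crest.Agent.R234.Sel1_570
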