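import Crest.Agent.R234.Sel19_570

/-!
Row 234, VF-SEL (helper570), file 20: **SELECTION** (`SelP3`) from its last leaves.
-/

set_option autoImplicit false
set_option linter.unusedSectionVars false
set_option linter.unusedVariables false

open MeasureTheory Complex Filter
open scoped ContDiff Topology InnerProductSpace ENNReal NNReal SchwartzMap

noncomputable section

namespace Crest.Agent.R234.Sel11_570

open Crest.GeometryTopology.Submanifold Crest.Agent.R234.Vf_884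
open Crest.Agent.R234.Ell1_3 (gop ginv dns)
open Crest.Agent.R234.Mx5_397 (msop)
open Crest.Agent.R234.Mx9_397 (lop)
open Crest.Agent.R234.Main_456 (Frame Msys)
open Crest.Agent.R086.Wie Crest.Agent.R234.Mx1_397 Crest.Agent.R234.Mx2_397
  Crest.Agent.R234.Mx3_397 Crest.Agent.R234.Mx4_397 Crest.Agent.R234.Mx6_397
  Crest.Agent.R234.Sel5_570 Crest.Agent.R234.Sel6_570
open Crest.Agent.R234.MG_570

variable {m n k : ℕ}

theorem MG_zero (m n N : ℕ) : MG (m := m) (n := n) N 0 0 (fun _ => 0) := by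
  refine ⟨0, fun α => by simp, by simp, fun x α => ?_, fun z hz => ?_⟩
  · simp [ev_zero]
  · simp at hz

theorem MG_of_rep {N : ℕ} {b : XV m n (N + 2)} {v : Euc m → Euc n} (hb : IsReal b)
    (hv : Rep b v) {κ : ℝ} (h : ‖b‖ ≤ κ) : MG N κ 0 v :=
  ⟨b, hb, h, hv, fun z hz => by simp at hz⟩

/-- the final sum. -/
theorem arith {C h d CK Cv Λ CN Xn hb : ℝ} {P pN q n : ℕ} (hd : 0 < d) (hd1 : d ≤ 1) (hC : 0 ≤ C)
    (hCK : 0 ≤ CK) (hCv : 0 ≤ Cv) (hΛ : 0 ≤ Λ) (hCN : 0 ≤ CN) (hh : 0 ≤ h) (hX : Xn ≤ CK)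
    (hhb : hb = C * h / d ^ P) (hq : q = 2 * P + pN) :
    n * (C * h ^ 2 / d ^ P * Xn + 2 * (Cv * hb) * (C * h / d ^ P)
      + Λ * (n * (CN * hb ^ 2 / d ^ pN)))
      ≤ n * (C * CK + 2 * (Cv * C) * C + Λ * (n * (CN * C ^ 2))) * h ^ 2 / d ^ q := by
  have t1 : C * h ^ 2 / d ^ P * Xn ≤ C * CK * h ^ 2 / d ^ q := by
    calc C * h ^ 2 / d ^ P * Xn ≤ C * h ^ 2 / d ^ P * CK := by gcongr
      _ = C * CK * h ^ 2 / d ^ P := by ring
      _ ≤ _ := div_pow_le hd hd1 (by positivity) le_rfl (by omega)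
  have t2 : 2 * (Cv * hb) * (C * h / d ^ P) ≤ 2 * (Cv * C) * C * h ^ 2 / d ^ q := by
    calc 2 * (Cv * hb) * (C * h / d ^ P) = 2 * (Cv * C) * C * h ^ 2 / d ^ (P + P) := by
          rw [hhb, pow_add]
          field_simp
      _ ≤ _ := div_pow_le hd hd1 (by positivity) le_rfl (by omega)
  have t3 : Λ * (n * (CN * hb ^ 2 / d ^ pN)) = Λ * (n * (CN * C ^ 2)) * h ^ 2 / d ^ q := by
    rw [hhb, hq, pow_add, two_mul, pow_add]
    field_simp
  rw [t3]
  calc _ ≤ n * (C * CK * h ^ 2 / d ^ q + 2 * (Cv * C) * C * h ^ 2 / d ^ q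
        + Λ * (n * (CN * C ^ 2)) * h ^ 2 / d ^ q) := by gcongr
    _ = _ := by ring

set_option maxHeartbeats 1600000 in
theorem selP3_of (hF : FldP) (hNw : NwP) : SelP3 := by
  intro m n hm
  obtain ⟨N₀, hF⟩ := hF m n hm
  obtain ⟨K, CK, hCK, hK⟩ := exists_toX_bound (F := Euc m) 0
  refine ⟨max 1 K, max N₀ 1, fun N hN => ?_⟩
  obtain ⟨κF, hκF, P, hF⟩ := hF N (le_trans (le_max_left _ _) hN)
  have hN1 : 1 ≤ N := le_trans (le_max_right _ _) hN
  obtain ⟨κN, CN, hκN, hCN, pN, hNw⟩ := hNw m n N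
  obtain ⟨Cv, hCv, hbv⟩ := mg_bd m n N hN1
  obtain ⟨q, hq⟩ : ∃ q : ℕ, q = 2 * P + pN := ⟨_, rfl⟩
  refine ⟨min κF κN, by positivity, q, fun Λ r₀ hΛ hr₀ => ?_⟩
  obtain ⟨C, hC1, hF⟩ := hF Λ r₀ hΛ hr₀
  have hC0 : 0 < C := by linarith
  obtain ⟨T, hT⟩ : ∃ T : ℝ, T = (8 / r₀) ^ q := ⟨_, rfl⟩
  have hT0 : 0 < T := by rw [hT]; positivity
  obtain ⟨B, hB⟩ : ∃ B : ℝ, B = n * (C * CK + 2 * (Cv * C) * C + Λ * (n * (CN * C ^ 2))) :=
    ⟨_, rfl⟩
  have hB0 : 0 ≤ B := by rw [hB]; positivity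
  obtain ⟨Cf, hCf⟩ : ∃ Cf : ℝ, Cf = T * (3 * C + CN * C + B) := ⟨_, rfl⟩
  have hCf0 : 0 < Cf := by rw [hCf]; positivity
  refine ⟨Cf, hCf0, ?_⟩
  intro k W π ρ κ h ε r u hκ hε hε2 hr₀r hr1 hh0 hcyl hWΛ hmass hMG hh hsmall
  have hr : 0 < r := hr₀.trans_le hr₀r
  have hκ0 : 0 ≤ κ := by
    obtain ⟨a, _, ha, _⟩ := hMG
    exact (norm_nonneg _).trans ha
  rcases hh0.eq_or_lt with h00 | hh00
  · -- `h = 0`
    subst h00
    refine ⟨u, hMG.mono (by simp) (by nlinarith), ?_, fun ζ _ _ _ => ?_⟩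
    · have : (fun x => u x - u x) = fun _ => (0 : Euc n) := by funext x; simp
      rw [this]
      simpa using MG_zero m n N
    · have h1 : bar W π ρ u ζ = 0 := by
        unfold bar
        rw [integral_eq_zero_of_ae]
        filter_upwards [hh] with p hp
        have h2 : ρ p.1 - u (π p.1) = 0 := norm_le_zero_iff.1 hp
        simp only [Pi.zero_apply]
        rw [h2, smul_zero]
      rw [h1]
      simp
  obtain ⟨d, hd⟩ : ∃ d : ℝ, d = r * ε / 8 := ⟨_, rfl⟩
  have hd0 : 0 < d := by rw [hd]; positivity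
  have e8 : r + 8 * d = r * (1 + ε) := by rw [hd]; ring
  have hd8 : 8 * d ≤ 1 / 2 := by rw [hd]; nlinarith
  have hdr : 8 * d ≤ r := by rw [hd]; nlinarith
  have hd1 : d ≤ 1 := by linarith
  -- comparison of powers
  have hεd : ε ^ q ≤ T * d ^ q := by
    rw [hT, ← mul_pow]
    refine pow_le_pow_left₀ hε.le ?_ q
    rw [hd]
    have : ε ≤ r / r₀ * ε := by
      have : 1 ≤ r / r₀ := by rwa [le_div_iff₀ hr₀, one_mul]
      nlinarith
    calc ε ≤ r / r₀ * ε := this
      _ = 8 / r₀ * (r * ε / 8) := by ring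
  have hdq : ∀ A : ℝ, 0 ≤ A → A / d ^ q ≤ T * A / ε ^ q := fun A hA => by
    rw [div_le_div_iff₀ (by positivity) (by positivity)]
    calc A * ε ^ q ≤ A * (T * d ^ q) := by gcongr
      _ = T * A * d ^ q := by ring
  have hsm : (3 * C + CN * C + B) * h ≤ d ^ q := by
    have h1 : T * (3 * C + CN * C + B) * h ≤ T * d ^ q := by
      rw [← hCf]; exact hsmall.trans hεd
    have h2 : T * ((3 * C + CN * C + B) * h) ≤ T * d ^ q := by linarith
    exact le_of_mul_le_mul_left h2 hT0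
  have hsm1 : C * h ≤ d ^ q := by
    refine le_trans ?_ hsm
    gcongr
    have : 0 ≤ 2 * C + CN * C + B := by positivity
    linarith
  have hsm2 : CN * C * h ≤ d ^ q := by
    refine le_trans ?_ hsm
    gcongr
    have : 0 ≤ 3 * C + B := by positivity
    linarith
  have hqP : d ^ q ≤ d ^ P := pow_le_pow_of_le_one hd0.le hd1 (by omega)
  have hqPN : d ^ q ≤ d ^ (P + pN) := pow_le_pow_of_le_one hd0.le hd1 (by omega)
  obtain ⟨b, v, J, θ, H⟩ := hF k W π ρ κ h d r u (hκ.trans (min_le_left _ _)) hd0 hd8 hdr hr₀r hr1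
    hh00 (by rw [e8]; exact hcyl) hWΛ hmass (by rw [e8]; exact hMG) hh (hsm1.trans hqP)
  -- Newton step
  obtain ⟨hb, hhb⟩ : ∃ hb : ℝ, hb = C * h / d ^ P := ⟨_, rfl⟩
  have hb0 : 0 < hb := by rw [hhb]; positivity
  have hNs : CN * hb ≤ d ^ pN := by
    rw [hhb, mul_div_assoc', div_le_iff₀ (by positivity), ← pow_add, add_comm pN P]
    calc CN * (C * h) = CN * C * h := by ring
      _ ≤ _ := hsm2.trans hqPN
  obtain ⟨w, c, hcr, hcrep, hcn, hMGn⟩ := hNw κ hb r d u v b (hκ.trans (min_le_right _ _)) hr hr1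
    hd0 (by linarith) (hMG.mono le_rfl (by rw [← e8]; linarith)) H.real H.rep
    (by rw [hhb]; exact H.norm) hNs H.jac
  have hcn2 : ‖c‖ ≤ hb := by
    refine hcn.trans ?_
    rw [div_le_iff₀ (by positivity)]
    nlinarith
  have hbq : 3 * hb ≤ Cf * h / ε ^ q := by
    have h1 : 3 * hb ≤ (3 * C * h) / d ^ q := by
      rw [hhb, mul_div_assoc']
      exact div_pow_le hd0 hd1 (by positivity) (le_of_eq (by ring)) (by omega)
    refine h1.trans ((hdq _ (by positivity)).trans ?_)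
    rw [hCf]
    refine div_le_div_of_nonneg_right ?_ (by positivity)
    have h2 : 0 ≤ CN * C + B := by positivity
    nlinarith [mul_nonneg (mul_nonneg hT0.le h2) hh0]
  refine ⟨fun x => u x + v x + w x, hMGn.mono (by linarith) le_rfl, ?_, ?_⟩
  · refine MG_of_rep (b := fun α => b α + c α) (fun α => ?_) (fun x α => ?_) ?_
    · show star (b α + c α) = b α + c α
      rw [star_add, H.real α, hcr α]
    · rw [ev_add, ← H.rep x α, ← hcrep x α]
      simp only [PiLp.sub_apply, PiLp.add_apply]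
      push_cast
      ring
    · refine (show ‖b + c‖ ≤ _ from ?_)
      have h3 : ‖b‖ ≤ hb := by rw [hhb]; exact H.norm
      exact (norm_add_le _ _).trans (by linarith)
  · intro ζ hζ hts hζK
    have hz : ∀ x, r ≤ ‖x‖ → ζ x = 0 := fun x hx => by
      by_contra hne
      have h1 := hts (subset_tsupport ζ (Function.mem_support.2 hne))
      rw [Metric.mem_ball, dist_zero_right] at h1
      linarith
    have hc : HasCompactSupport ζ := HasCompactSupport.intro
      (isCompact_closedBall (0 : Euc m) r) fun x hx => hz x (by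
        have : r < ‖x‖ := by simpa using hx
        exact this.le)
    have hζ0 : ∀ x, |ζ x| ≤ 1 := fun x => by
      have := hζK 0 (by omega) x
      rwa [norm_iteratedFDeriv_zero, Real.norm_eq_abs] at this
    have hζ1 : ∀ x, ‖fderiv ℝ ζ x‖ ≤ 1 := fun x => by
      have := hζK 1 (le_max_left _ _) x
      rwa [norm_iteratedFDeriv_one] at this
    have hnX : ‖toX (F := Euc m) 0 (toS ζ hc hζ)‖ ≤ CK := by
      have := hK (toS ζ hc hζ) 1 zero_le_one (fun x hx => by
        rw [toS_apply, hz x (by linarith), ofReal_zero]) fun j hj x =>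
          (norm_iteratedFDeriv_toS _ _ _ j x).trans (hζK j (hj.trans (le_max_right _ _)) x)
      rwa [mul_one] at this
    have h3 : ‖b‖ ≤ hb := by rw [hhb]; exact H.norm
    obtain ⟨hu3, -, -, -⟩ := hbv κ _ u hMG
    obtain ⟨hv3, hv0, hv1, _⟩ := hbv hb 0 v (MG_of_rep H.real H.rep h3)
    obtain ⟨hw3, -, -, -⟩ := hbv hb 0 w (MG_of_rep hcr hcrep hcn2)
    have hw0 : ∀ x, ‖w x‖ ≤ n * ‖c‖ := fun x => by
      refine (norm_le_sum _).trans ?_
      calc ∑ α, |w x α| ≤ ∑ _α : Fin n, ‖c‖ := Finset.sum_le_sum fun α _ => by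
            have h4 : |w x α| = ‖ev (c α) x‖ := by
              rw [← hcrep x α, norm_real, Real.norm_eq_abs]
            rw [h4]
            exact (norm_ev_le _ _).trans (norm_le_pi_norm c α)
        _ = n * ‖c‖ := by rw [Finset.sum_const, Finset.card_univ, Fintype.card_fin, nsmul_eq_mul]
    have hw0' : ∀ x, ‖w x‖ ≤ n * (CN * hb ^ 2 / d ^ pN) := fun x => (hw0 x).trans (by gcongr)
    have key := H.total hC0.le hd0 hΛ.le hWΛ hu3.continuous hh (w := w) (V := Cv * hb)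
      (by positivity) (hv3.of_le (by norm_num)) hv0 hv1 hw3.continuous hw0' hζ hc hz hζ0 hζ1
    refine key.trans ((arith hd0 hd1 hC0.le hCK hCv.le hΛ.le hCN.le hh0 hnX hhb hq).trans ?_)
    rw [← hB]
    refine (hdq _ (by positivity)).trans ?_
    have e9 : T * (B * h ^ 2) ≤ Cf * h ^ 2 := by
      rw [hCf]
      have h2 : 0 ≤ 3 * C + CN * C := by positivity
      nlinarith [mul_nonneg (mul_nonneg hT0.le h2) (sq_nonneg h)]
    gcongr

end Crest.Agent.R234.Sel11_570
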