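import Crest.Agent.R234.Sel1_570
import Crest.Agent.R234.Pt3_615

/-!
Row 234, VF-SEL (helper570), file 2: graph data, the exact Jacobi identity for the mean height of a
stationary varifold over a graph, the Caccioppoli inequality relative to a minimal graph.

`H` = horizontal projection, `w : Euc k → Euc k` the graph map (`w z = w (H z)`, `H (w z) = 0`),
`f z = z - H z - w z` the height.
-/

set_option autoImplicit false

open MeasureTheory Crest.GeometryTopology.Submanifold Filter Topology
open Crest.Agent.R234.Vf_884 Crest.Agent.R234.Sel1_570 Crest.Agent.R234.Pt_615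
open scoped ENNReal InnerProductSpace

noncomputable section

namespace Crest.Agent.R234.Sel2_570

variable {m k : ℕ}

/-- graph data. -/
structure GD (H : L k) (w : Euc k → Euc k) : Prop where
  idem : H * H = H
  sa : star H = H
  smooth : ContDiff ℝ 3 w
  hor : ∀ z, w (H z) = w z
  ver : ∀ z, H (w z) = 0

variable {H : L k} {w : Euc k → Euc k}

/-- the differential of the graph map. -/
def Bz (w : Euc k → Euc k) (z : Euc k) : L k := fderiv ℝ w z

theorem GD.hasFDerivAt (h : GD H w) (z : Euc k) : HasFDerivAt w (Bz w z) z :=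
  (h.smooth.differentiable (by norm_num) z).hasFDerivAt

theorem GD.gb (h : GD H w) (z : Euc k) : GB H (Bz w z) := by
  have hHd : HasFDerivAt (fun z : Euc k => H z) H z := H.hasFDerivAt
  refine ⟨h.idem, h.sa, ?_, ?_⟩
  · have h1 : HasFDerivAt (fun z => w (H z)) ((Bz w (H z)) ∘L H) z :=
      (h.hasFDerivAt (H z)).comp z hHd
    have h2 : (fun z => w (H z)) = w := funext h.hor
    rw [h2] at h1
    have h3 : Bz w z = (Bz w (H z)) * H := (h.hasFDerivAt z).unique h1
    rw [h3, mul_assoc, h.idem]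
  · have h1 : HasFDerivAt (fun z => H (w z)) (H ∘L (Bz w z)) z :=
      H.hasFDerivAt.comp z (h.hasFDerivAt z)
    have h2 : (fun z => H (w z)) = fun _ => (0 : Euc k) := funext h.ver
    rw [h2] at h1
    exact h1.unique (hasFDerivAt_const (0 : Euc k) z)

/-- the adjoint differential. -/
def Bs (w : Euc k → Euc k) (z : Euc k) : L k := star (Bz w z)

/-- `star` as a continuous linear map. -/
def stL : L k →L[ℝ] L k := (starL' ℝ : L k ≃L[ℝ] L k).toContinuousLinearMap

theorem stL_apply (A : L k) : stL A = star A := rfl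

theorem GD.contDiff_Bz (h : GD H w) : ContDiff ℝ 2 (Bz w) :=
  h.smooth.fderiv_right (m := 2) (by norm_num)

theorem GD.contDiff_Bs (h : GD H w) : ContDiff ℝ 2 (Bs w) :=
  (stL (k := k)).contDiff.comp h.contDiff_Bz

/-- derivative of the adjoint differential. -/
def DBs (w : Euc k → Euc k) (z : Euc k) : Euc k →L[ℝ] L k := fderiv ℝ (Bs w) z

theorem GD.hasFDerivAt_Bs (h : GD H w) (z : Euc k) : HasFDerivAt (Bs w) (DBs w z) z :=
  (h.contDiff_Bs.differentiable (by norm_num) z).hasFDerivAt

/-- the Hessian of the component `⟨w, e⟩`. -/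
def AA (w : Euc k → Euc k) (z e : Euc k) : L k := (DBs w z).flip e

theorem AA_apply (z e v : Euc k) : AA w z e v = DBs w z v e := rfl

theorem GD.DBs_eq (h : GD H w) (z v : Euc k) : DBs w z v = star (fderiv ℝ (Bz w) z v) := by
  have h1 : HasFDerivAt (Bz w) (fderiv ℝ (Bz w) z) z :=
    (h.contDiff_Bz.differentiable (by norm_num) z).hasFDerivAt
  have h2 : HasFDerivAt (Bs w) ((stL (k := k)) ∘L (fderiv ℝ (Bz w) z)) z :=
    (stL (k := k)).hasFDerivAt.comp z h1
  rw [(h.hasFDerivAt_Bs z).unique h2]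
  rfl

theorem GD.AA_inner (h : GD H w) (z e v v' : Euc k) :
    ⟪AA w z e v, v'⟫_ℝ = ⟪e, fderiv ℝ (fderiv ℝ w) z v v'⟫_ℝ := by
  rw [AA_apply, h.DBs_eq, inner_star]
  rfl

theorem GD.AA_symm (h : GD H w) (z e : Euc k) : star (AA w z e) = AA w z e := by
  refine ContinuousLinearMap.ext fun v => ext_inner_right ℝ fun v' => ?_
  have hs : IsSymmSndFDerivAt ℝ w z :=
    (h.smooth.contDiffAt).isSymmSndFDerivAt (by simp; norm_num)
  rw [inner_star, h.AA_inner, real_inner_comm, h.AA_inner, hs v v']

theorem GD.AA_H (h : GD H w) (z e : Euc k) : AA w z e * H = AA w z e := by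
  -- `H * A = A` from `H B† = B†`
  have h1 : H * AA w z e = AA w z e := by
    have h2 : HasFDerivAt (fun z => Bs w z e) (AA w z e) z := by
      have := (h.hasFDerivAt_Bs z).clm_apply (hasFDerivAt_const e z)
      refine this.congr_fderiv ?_
      ext1 v
      simp [AA_apply]
    have h3 : HasFDerivAt (fun z => H (Bs w z e)) (H ∘L (AA w z e)) z :=
      H.hasFDerivAt.comp z h2
    have h4 : (fun z => H (Bs w z e)) = fun z => Bs w z e := by
      funext y
      exact congrArg (fun A : L k => A e) (h.gb y).HBs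
    rw [h4] at h3
    exact h3.unique h2
  have := congrArg star h1
  rwa [star_mul, h.AA_symm, h.sa] at this

theorem GD.contDiff_gI (h : GD H w) : ContDiff ℝ 2 fun z => gI (Bz w z) := by
  rw [contDiff_iff_contDiffAt]
  intro z
  have h1 : ContDiffAt ℝ 2 (Ring.inverse : L k → L k) (1 + star (Bz w z) * Bz w z) := by
    obtain ⟨u, hu⟩ := isUnit_one_add (Bz w z)
    rw [← hu]
    exact contDiffAt_ringInverse ℝ u
  have h2 : ContDiffAt ℝ 2 (fun z => (1 : L k) + star (Bz w z) * Bz w z) z :=
    contDiffAt_const.add ((h.contDiff_Bs.contDiffAt).mul (h.contDiff_Bz.contDiffAt))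
  exact h1.comp z h2

theorem GD.contDiff_KK (h : GD H w) : ContDiff ℝ 2 fun z => KK (Bz w z) :=
  contDiff_const.sub ((h.contDiff_Bz.mul h.contDiff_gI).mul h.contDiff_Bs)

theorem GD.contDiff_nu (h : GD H w) : ContDiff ℝ 2 fun z => nu H (Bz w z) :=
  contDiff_const.sub h.contDiff_Bs

theorem GD.contDiff_TT (h : GD H w) : ContDiff ℝ 2 fun z => TT H (Bz w z) :=
  ((contDiff_const.add h.contDiff_Bz).mul h.contDiff_gI).mul (contDiff_const.add h.contDiff_Bs)

theorem GD.contDiff_AA (h : GD H w) (e : Euc k) : ContDiff ℝ 1 fun z => AA w z e := by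
  have h1 : ContDiff ℝ 1 (DBs w) := h.contDiff_Bs.fderiv_right (m := 1) (by norm_num)
  have h2 : (fun z => AA w z e) = fun z =>
      (ContinuousLinearMap.apply ℝ (Euc k) e : L k →L[ℝ] Euc k) ∘L (DBs w z) := rfl
  rw [h2]
  exact contDiff_const.clm_comp h1

/-- the height. -/
def ht (H : L k) (w : Euc k → Euc k) (z : Euc k) : Euc k := z - H z - w z

theorem GD.hasFDerivAt_ht (h : GD H w) (z : Euc k) :
    HasFDerivAt (ht H w) (star (nu H (Bz w z))) z := by
  rw [(h.gb z).star_nu]
  exact ((hasFDerivAt_id z).sub H.hasFDerivAt).sub (h.hasFDerivAt z)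

theorem GD.H_ht (h : GD H w) (z : Euc k) : H (ht H w z) = 0 := by
  have hHH : ∀ u, H (H u) = H u := fun u => congrArg (fun A : L k => A u) h.idem
  rw [ht, map_sub, map_sub, hHH, h.ver, sub_self, sub_zero]

theorem GD.contDiff_ht (h : GD H w) : ContDiff ℝ 1 (ht H w) :=
  (contDiff_id.sub H.contDiff).sub (h.smooth.of_le (by norm_num))

end Crest.Agent.R234.Sel2_570
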