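import Crest.Agent.R234.Sel2_570

/-!
Row 234, VF-SEL (helper570), file 3: the exact Jacobi identity for the mean height of a stationary
varifold over a graph (no minimality used), and the resulting weak Jacobi inequality.
-/

set_option autoImplicit false

open MeasureTheory Crest.GeometryTopology.Submanifold Filter Topology
open Crest.Agent.R234.Vf_884 Crest.Agent.R234.Sel1_570 Crest.Agent.R234.Pt_615
open scoped ENNReal InnerProductSpace

noncomputable section

namespace Crest.Agent.R234.Sel2_570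

variable {m k : ℕ} {H : L k} {w : Euc k → Euc k}

/-! ### integrability -/

theorem integrable_of_cont' {V : Measure (Euc k × L k)} [IsFiniteMeasure V] (hV : HBase m V)
    {F : Euc k × L k → ℝ} (hF : Continuous F) : Integrable F V := by
  obtain ⟨R, hR⟩ := hV.bdd
  obtain ⟨C, hC⟩ : ∃ C, ∀ p ∈ Metric.closedBall (0 : Euc k) R ×ˢ G m k, ‖F p‖ ≤ C :=
    ((isCompact_closedBall 0 R).prod (isCompact_G m k)).exists_bound_of_continuousOn hF.continuousOn
  refine Integrable.of_bound hF.aestronglyMeasurable C ?_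
  filter_upwards [hR, hV.conc] with p h1 h2
  exact hC p ⟨by rw [mem_closedBall_zero_iff]; exact h1, h2⟩

/-! ### the three fields -/

theorem smul_mul' (c : ℝ) (A B : L k) : (c • A) * B = c • (A * B) :=
  ContinuousLinearMap.smul_comp c A B

theorem tr_rank (G v : Euc k) (S : L k) :
    tr (((innerSL ℝ G).smulRight v) ∘L S) = ⟪G, S v⟫_ℝ := by
  rw [tr_smulRight_comp]
  rfl

/-- test function data. -/
structure TF (H : L k) (K : Set (Euc k)) (φ : Euc k → ℝ) (G : Euc k → Euc k) : Prop where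
  der : ∀ z, HasFDerivAt φ (innerSL ℝ (G z)) z
  smooth : ContDiff ℝ 1 φ
  smoothG : ContDiff ℝ 1 G
  zero : ∀ z, H z ∉ K → φ z = 0
  zeroG : ∀ z, H z ∉ K → G z = 0

variable {K : Set (Euc k)} {φ : Euc k → ℝ} {G : Euc k → Euc k}

/-- the field `φ ν e`. -/
theorem GD.X1 (h : GD H w) (hφ : TF H K φ G) (e : Euc k) (z : Euc k) (S : L k) :
    tr ((fderiv ℝ (fun z => φ z • (nu H (Bz w z)) e) z) ∘L S)
      = ⟪G z, S (nu H (Bz w z) e)⟫_ℝ - φ z * tr (AA w z e * S) := by
  have h1 : HasFDerivAt (fun z => (nu H (Bz w z)) e) (-(AA w z e)) z := by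
    have h2 : HasFDerivAt (fun z => nu H (Bz w z)) (-(DBs w z)) z :=
      ((hasFDerivAt_const (1 - H : L k) z).sub (h.hasFDerivAt_Bs z)).congr_fderiv (by simp)
    refine (h2.clm_apply (hasFDerivAt_const e z)).congr_fderiv ?_
    ext1 v
    simp [AA_apply]
  have h3 : HasFDerivAt (fun z => φ z • (nu H (Bz w z)) e) _ z := (hφ.der z).smul h1
  rw [h3.fderiv, ContinuousLinearMap.add_comp, map_add, ContinuousLinearMap.smul_comp, map_smul,
    tr_rank _ _ S, ContinuousLinearMap.neg_comp, map_neg, smul_eq_mul]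
  show φ z * -tr (AA w z e * S) + _ = _
  ring

/-- the field `f_e ∇ φ`. -/
theorem GD.X2 (h : GD H w) (hφ : TF H K φ G) (e : Euc k) (z : Euc k) {S : L k}
    (hS : star S = S) :
    tr ((fderiv ℝ (fun z => ⟪ht H w z, e⟫_ℝ • G z) z) ∘L S)
      = ⟪G z, S (nu H (Bz w z) e)⟫_ℝ + ⟪ht H w z, e⟫_ℝ * tr (fderiv ℝ G z * S) := by
  have h1 : HasFDerivAt (fun z => ⟪ht H w z, e⟫_ℝ) (innerSL ℝ (nu H (Bz w z) e)) z := by
    refine ((h.hasFDerivAt_ht z).inner ℝ (hasFDerivAt_const e z)).congr_fderiv ?_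
    ext1 v
    simp only [ContinuousLinearMap.comp_apply, fderivInnerCLM_apply, innerSL_apply_apply]
    simp [inner_star]
    rw [real_inner_comm]
  have h2 : HasFDerivAt G (fderiv ℝ G z) z :=
    (hφ.smoothG.differentiable (by norm_num) z).hasFDerivAt
  have h3 : HasFDerivAt (fun z => ⟪ht H w z, e⟫_ℝ • G z) _ z := h1.smul h2
  rw [h3.fderiv, ContinuousLinearMap.add_comp, map_add, ContinuousLinearMap.smul_comp,
    map_smul, tr_rank _ _ S, smul_eq_mul]
  have h4 : ⟪nu H (Bz w z) e, S (G z)⟫_ℝ = ⟪G z, S (nu H (Bz w z) e)⟫_ℝ := by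
    conv_lhs => rw [← hS]
    rw [inner_star', real_inner_comm]
  rw [h4]
  show ⟪ht H w z, e⟫_ℝ * tr (fderiv ℝ G z * S) + _ = _
  ring

/-- a field `Y z (f z)`. -/
theorem GD.X3 (h : GD H w) {Y : Euc k → L k} (hY : ContDiff ℝ 1 Y) (z : Euc k) (S : L k) :
    tr ((fderiv ℝ (fun z => Y z (ht H w z)) z) ∘L S)
      = tr ((fderiv ℝ Y z).flip (ht H w z) * S) + tr (Y z * star (nu H (Bz w z)) * S) := by
  have h1 : HasFDerivAt Y (fderiv ℝ Y z) z := (hY.differentiable (by norm_num) z).hasFDerivAt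
  have h2 := h1.clm_apply (h.hasFDerivAt_ht z)
  rw [h2.fderiv, ContinuousLinearMap.add_comp, map_add]
  show tr (Y z * star (nu H (Bz w z)) * S) + _ = _
  rw [add_comm]
  rfl

/-- the coefficient `Q_e = D²w_e g⁻¹ B†`. -/
def QQ (w : Euc k → Euc k) (z e : Euc k) : L k := AA w z e * gI (Bz w z) * star (Bz w z)

theorem GD.contDiff_QQ (h : GD H w) (e : Euc k) : ContDiff ℝ 1 fun z => QQ w z e :=
  ((h.contDiff_AA e).mul (h.contDiff_gI.of_le (by norm_num))).mul
    (h.contDiff_Bs.of_le (by norm_num))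

/-- tangent projection along the graph. -/
abbrev TZ (H : L k) (w : Euc k → Euc k) (z : Euc k) : L k := TT H (Bz w z)

/-- the quadratic remainder. -/
def qd (A T S : L k) : ℝ := tr (A * (T * (1 - S) * T)) + tr (A * ((1 - T) * S * (1 - T)))

/-- **exact identity, pointwise**. -/
theorem GD.pointwise (h : GD H w) (hφ : TF H K φ G) {e : Euc k} (z : Euc k) {S : L k}
    (hS : star S = S) :
    tr ((fderiv ℝ (fun z => ⟪ht H w z, e⟫_ℝ • G z) z) ∘L S)
      - tr ((fderiv ℝ (fun z => φ z • (nu H (Bz w z)) e) z) ∘L S)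
      + 2 * tr ((fderiv ℝ (fun z => (φ z • QQ w z e) (ht H w z)) z) ∘L S)
    = ⟪ht H w z, e⟫_ℝ * tr (fderiv ℝ G z * S)
      + 2 * tr ((fderiv ℝ (fun z => φ z • QQ w z e) z).flip (ht H w z) * S)
      + φ z * tr (AA w z e * TZ H w z) - φ z * qd (AA w z e) (TZ H w z) S := by
  have hY : ContDiff ℝ 1 fun z => φ z • QQ w z e := hφ.smooth.smul (h.contDiff_QQ e)
  rw [h.X2 hφ e z hS, h.X1 hφ e z S, h.X3 hY z S]
  have h1 := tr_decomp (h.gb z) (h.AA_symm z e) (h.AA_H z e) hS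
  have h2 : tr ((φ z • QQ w z e) * star (nu H (Bz w z)) * S)
      = φ z * tr (AA w z e * gI (Bz w z) * star (Bz w z) * star (nu H (Bz w z)) * S) := by
    rw [smul_mul', smul_mul', map_smul, smul_eq_mul]
    rfl
  rw [h2, h1, qd]
  ring

variable {V : Measure (Euc k × L k)} [IsFiniteMeasure V]

theorem continuous_tr_field {X : Euc k → Euc k} (hX : ContDiff ℝ 1 X) :
    Continuous fun p : Euc k × L k => tr ((fderiv ℝ X p.1) ∘L p.2) :=
  tr.continuous.comp (((hX.continuous_fderiv (by norm_num)).comp continuous_fst).clm_comp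
    continuous_snd)

/-- **THE EXACT JACOBI IDENTITY.** -/
theorem GD.jacobi_exact (h : GD H w) (hV : HStat m H K V) (hφ : TF H K φ G) (e : Euc k) :
    ∫ p, (⟪ht H w p.1, e⟫_ℝ * tr (fderiv ℝ G p.1 * p.2)
      + 2 * tr ((fderiv ℝ (fun z => φ z • QQ w z e) p.1).flip (ht H w p.1) * p.2)
      + φ p.1 * tr (AA w p.1 e * TZ H w p.1)
      - φ p.1 * qd (AA w p.1 e) (TZ H w p.1) p.2) ∂V = 0 := by
  have c1 : ContDiff ℝ 1 fun z => ⟪ht H w z, e⟫_ℝ • G z :=
    (h.contDiff_ht.inner ℝ contDiff_const).smul hφ.smoothG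
  have c2 : ContDiff ℝ 1 fun z => φ z • (nu H (Bz w z)) e :=
    hφ.smooth.smul ((h.contDiff_nu.of_le (by norm_num)).clm_apply contDiff_const)
  have c3 : ContDiff ℝ 1 fun z => (φ z • QQ w z e) (ht H w z) :=
    (hφ.smooth.smul (h.contDiff_QQ e)).clm_apply h.contDiff_ht
  have e1 : FV V (fun z => ⟪ht H w z, e⟫_ℝ • G z) = 0 :=
    hV.stat _ c1 fun z hz => by simp only [hφ.zeroG z hz, smul_zero]
  have e2 : FV V (fun z => φ z • (nu H (Bz w z)) e) = 0 :=
    hV.stat _ c2 fun z hz => by simp only [hφ.zero z hz, zero_smul]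
  have e3 : FV V (fun z => (φ z • QQ w z e) (ht H w z)) = 0 :=
    hV.stat _ c3 fun z hz => by
      show (φ z • QQ w z e) (ht H w z) = 0
      rw [hφ.zero z hz]
      exact zero_smul ℝ ((QQ w z e) (ht H w z))
  have i1 := integrable_of_cont' hV.toHBase (continuous_tr_field c1)
  have i2 := integrable_of_cont' hV.toHBase (continuous_tr_field c2)
  have i3 := integrable_of_cont' hV.toHBase (continuous_tr_field c3)
  have key : ∫ p, (tr ((fderiv ℝ (fun z => ⟪ht H w z, e⟫_ℝ • G z) p.1) ∘L p.2)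
      - tr ((fderiv ℝ (fun z => φ z • (nu H (Bz w z)) e) p.1) ∘L p.2)
      + 2 * tr ((fderiv ℝ (fun z => (φ z • QQ w z e) (ht H w z)) p.1) ∘L p.2)) ∂V = 0 := by
    have e0 := integral_add (i1.sub i2) (i3.const_mul 2)
    simp only [Pi.sub_apply] at e0
    rw [e0, integral_sub i1 i2, integral_const_mul]
    have e1' : ∫ p, tr ((fderiv ℝ (fun z => ⟪ht H w z, e⟫_ℝ • G z) p.1) ∘L p.2) ∂V = 0 := e1
    have e2' : ∫ p, tr ((fderiv ℝ (fun z => φ z • (nu H (Bz w z)) e) p.1) ∘L p.2) ∂V = 0 := e2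
    have e3' : ∫ p, tr ((fderiv ℝ (fun z => (φ z • QQ w z e) (ht H w z)) p.1) ∘L p.2) ∂V = 0 := e3
    rw [e1', e2', e3']; ring
  rw [← key]
  refine integral_congr_ae ?_
  filter_upwards [hV.conc] with p hp
  have hS : star p.2 = p.2 := hp.2.1
  rw [h.pointwise hφ p.1 hS]

end Crest.Agent.R234.Sel2_570
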