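import Crest.Agent.R234.MgDefs3_570
import Crest.Agent.R234.Mx10_397

/-!
Row 234, VF-SEL (helper570), file 6: the operator `Lop`: linearity, bounds in all seminorms,
commutator with a cut-off, a priori estimate, Hahn-Banach.
-/

set_option autoImplicit false
set_option linter.unusedSectionVars false

open MeasureTheory Complex Filter Real
open scoped ContDiff Topology InnerProductSpace ENNReal NNReal

noncomputable section

namespace Crest.Agent.R234.Sel6_570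

open Crest.Agent.R086.Wie Crest.Agent.R234.Mx1_397 Crest.Agent.R234.Mx2_397
  Crest.Agent.R234.Mx3_397 Crest.Agent.R234.Mx4_397 Crest.Agent.R234.Mx6_397
  Crest.Agent.R234.Sel5_570
open Crest.Agent.R234.MG_570 (Cf Lop i0)

variable {F : Type} [NormedAddCommGroup F] [InnerProductSpace ℝ F] [FiniteDimensional ℝ F]
  [MeasurableSpace F] [BorelSpace F] {ι κ : Type*} [Fintype ι] [Fintype κ]

/-- the Laplacian. -/
def Lap (e : OrthonormalBasis ι ℝ F) (b : κ → X F 2) : κ → X F 0 :=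
  fun β => ∑ i, D (e i) (D (e i) (b β))

/-- the perturbation. -/
def Pop {t : ℕ} (e : OrthonormalBasis ι ℝ F) (c : Cf F ι κ t) (b : κ → X F 2) : κ → X F 0 :=
  fun β => ∑ i, ∑ j, i0 (c.A i j) * D (e i) (D (e j) (b β))
    + ∑ i, ∑ α, i0 (c.B i β α) * i0 (D (e i) (b α)) + ∑ α, i0 (c.Z β α) * i0 (b α)

theorem Lop_eq {t : ℕ} (e : OrthonormalBasis ι ℝ F) (c : Cf F ι κ t) (b : κ → X F 2) :
    Lop e c b = Lap e b + Pop e c b := by
  funext β
  show _ = Lap e b β + Pop e c b β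
  unfold Lop Lap Pop
  abel

theorem i0_add {N : ℕ} (a b : X F N) : i0 (a + b) = i0 a + i0 b := map_add _ a b

theorem i0_smul {N : ℕ} (r : ℂ) (a : X F N) : i0 (r • a) = r • i0 a := map_smul _ r a

theorem smul_mul_X (r : ℂ) (a b : X F 0) : a * (r • b) = r • (a * b) := mul_smul_comm r a b

theorem Lop_add {t : ℕ} (e : OrthonormalBasis ι ℝ F) (c : Cf F ι κ t) (a b : κ → X F 2) :
    Lop e c (a + b) = Lop e c a + Lop e c b := by
  funext β
  show _ = Lop e c a β + Lop e c b β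
  unfold Lop
  simp only [Pi.add_apply, map_add, mul_add, Finset.sum_add_distrib]
  abel

theorem Lop_smul {t : ℕ} (e : OrthonormalBasis ι ℝ F) (c : Cf F ι κ t) (r : ℂ) (b : κ → X F 2) :
    Lop e c (r • b) = r • Lop e c b := by
  funext β
  show _ = r • Lop e c b β
  unfold Lop
  simp only [Pi.smul_apply, map_smul, smul_mul_X, Finset.smul_sum, smul_add]

/-- `Lop` as a linear map. -/
def LopL {t : ℕ} (e : OrthonormalBasis ι ℝ F) (c : Cf F ι κ t) :
    (κ → X F 2) →ₗ[ℂ] (κ → X F 0) where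
  toFun := Lop e c
  map_add' := Lop_add e c
  map_smul' r b := Lop_smul e c r b

theorem two_pi_ge : (1 : ℝ) ≤ 2 * π := by linarith [Real.pi_gt_three]

theorem norm_D1_le (e : OrthonormalBasis ι ℝ F) (i : ι) {N : ℕ} (a : X F (N + 1)) :
    ‖D (e i) a‖ ≤ 2 * π * ‖a‖ := by
  refine (norm_D_le _ _).trans ?_
  rw [e.norm_eq_one, mul_one]

theorem norm_D2_le (e : OrthonormalBasis ι ℝ F) (i j : ι) {N : ℕ} (a : X F (N + 2)) :
    ‖D (e i) (D (e j) a)‖ ≤ (2 * π) ^ 2 * ‖a‖ := by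
  have h1 := norm_D1_le e i (D (e j) a)
  have h2 := norm_D1_le e j a
  have hp := Real.pi_pos
  calc _ ≤ 2 * π * ‖D (e j) a‖ := h1
    _ ≤ 2 * π * (2 * π * ‖a‖) := by gcongr
    _ = _ := by ring

/-- bound of the perturbation. -/
theorem norm_Pop_le {t : ℕ} (e : OrthonormalBasis ι ℝ F) (c : Cf F ι κ t) (b : κ → X F 2) :
    ‖Pop e c b‖ ≤ (2 * π) ^ 2 * c.sz * ‖b‖ := by
  have hp := two_pi_ge
  have hsz : 0 ≤ c.sz := by unfold Cf.sz; positivity
  refine (pi_norm_le_iff_of_nonneg (by positivity)).2 fun β => ?_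
  have hb : ∀ α, ‖b α‖ ≤ ‖b‖ := fun α => norm_le_pi_norm b α
  have hi0 : ∀ {N : ℕ} (a : X F N), ‖i0 a‖ ≤ ‖a‖ := fun a => norm_inclV_le _ a
  have h1 : ‖∑ i, ∑ j, i0 (c.A i j) * D (e i) (D (e j) (b β))‖
      ≤ (∑ i, ∑ j, ‖c.A i j‖) * ((2 * π) ^ 2 * ‖b‖) := by
    rw [Finset.sum_mul]
    refine (norm_sum_le _ _).trans (Finset.sum_le_sum fun i _ => ?_)
    rw [Finset.sum_mul]
    refine (norm_sum_le _ _).trans (Finset.sum_le_sum fun j _ => ?_)
    refine (norm_mul_le _ _).trans ?_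
    have := norm_D2_le e i j (b β)
    have := hb β
    have h3 : (2 * π) ^ 2 * ‖b β‖ ≤ (2 * π) ^ 2 * ‖b‖ := by gcongr
    exact mul_le_mul (hi0 _) (le_trans (norm_D2_le e i j (b β)) h3) (norm_nonneg _) (norm_nonneg _)
  have h2 : ‖∑ i, ∑ α, i0 (c.B i β α) * i0 (D (e i) (b α))‖
      ≤ (∑ i, ∑ α, ‖c.B i β α‖) * ((2 * π) ^ 2 * ‖b‖) := by
    rw [Finset.sum_mul]
    refine (norm_sum_le _ _).trans (Finset.sum_le_sum fun i _ => ?_)
    rw [Finset.sum_mul]
    refine (norm_sum_le _ _).trans (Finset.sum_le_sum fun α _ => ?_)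
    refine (norm_mul_le _ _).trans ?_
    have h3 : ‖i0 (D (e i) (b α))‖ ≤ (2 * π) ^ 2 * ‖b‖ := by
      refine (hi0 _).trans ((norm_D1_le e i (b α)).trans ?_)
      have := hb α
      have h4 : 2 * π * ‖b α‖ ≤ 2 * π * ‖b‖ := by gcongr
      nlinarith [norm_nonneg b, mul_nonneg (sub_nonneg.2 hp) (norm_nonneg b)]
    exact mul_le_mul (hi0 _) h3 (norm_nonneg _) (norm_nonneg _)
  have h3 : ‖∑ α, i0 (c.Z β α) * i0 (b α)‖ ≤ (∑ α, ‖c.Z β α‖) * ((2 * π) ^ 2 * ‖b‖) := by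
    rw [Finset.sum_mul]
    refine (norm_sum_le _ _).trans (Finset.sum_le_sum fun α _ => ?_)
    refine (norm_mul_le _ _).trans ?_
    have h3 : ‖i0 (b α)‖ ≤ (2 * π) ^ 2 * ‖b‖ := by
      refine (hi0 _).trans ?_
      have := hb α
      nlinarith [norm_nonneg b, mul_nonneg (sub_nonneg.2 hp) (norm_nonneg b),
        mul_nonneg (mul_nonneg (sub_nonneg.2 hp) (sub_nonneg.2 hp)) (norm_nonneg b)]
    exact mul_le_mul (hi0 _) h3 (norm_nonneg _) (norm_nonneg _)
  have h4 : ∑ i, ∑ α, ‖c.B i β α‖ ≤ ∑ i, ∑ β, ∑ α, ‖c.B i β α‖ :=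
    Finset.sum_le_sum fun i _ => Finset.single_le_sum (f := fun β => ∑ α, ‖c.B i β α‖)
      (fun β _ => Finset.sum_nonneg fun α _ => norm_nonneg _) (Finset.mem_univ β)
  have h5 : ∑ α, ‖c.Z β α‖ ≤ ∑ β, ∑ α, ‖c.Z β α‖ :=
    Finset.single_le_sum (f := fun β => ∑ α, ‖c.Z β α‖)
      (fun β _ => Finset.sum_nonneg fun α _ => norm_nonneg _) (Finset.mem_univ β)
  unfold Pop
  refine (norm_add_le _ _).trans ((add_le_add (norm_add_le _ _) le_rfl).trans ?_)
  have h6 : 0 ≤ (2 * π) ^ 2 * ‖b‖ := by positivity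
  unfold Cf.sz
  nlinarith [mul_le_mul_of_nonneg_right h4 h6, mul_le_mul_of_nonneg_right h5 h6]

/-! ### vector seminorms -/

/-- sum of the seminorms. -/
def nv {N : ℕ} (s : ℤ) (b : κ → X F N) : ℝ≥0∞ := ∑ β, ns s (b β)

theorem ns_le_nv {N : ℕ} (s : ℤ) (b : κ → X F N) (β : κ) : ns s (b β) ≤ nv s b :=
  Finset.single_le_sum (f := fun β => ns s (b β)) (fun _ _ => zero_le) (Finset.mem_univ β)

theorem nv_mono {N : ℕ} {s t : ℤ} (h : s ≤ t) (b : κ → X F N) : nv s b ≤ nv t b :=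
  Finset.sum_le_sum fun β _ => ns_mono h (b β)

theorem nv_add_le {N : ℕ} (s : ℤ) (a b : κ → X F N) : nv s (a + b) ≤ nv s a + nv s b := by
  unfold nv
  rw [← Finset.sum_add_distrib]
  exact Finset.sum_le_sum fun β _ => ns_add_le s (a β) (b β)

theorem norm_le_nv (b : κ → X F 0) : ENNReal.ofReal ‖b‖ ≤ nv 0 b := by
  have h1 : ∀ β, ENNReal.ofReal ‖b β‖ ≤ nv 0 b := fun β => by
    rw [← ns_nat (b β)]
    exact ns_le_nv _ b β
  by_cases htop : nv 0 b = ⊤
  · rw [htop]; exact le_top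
  refine ENNReal.ofReal_le_of_le_toReal ?_
  refine (pi_norm_le_iff_of_nonneg ENNReal.toReal_nonneg).2 fun β => ?_
  exact (ENNReal.ofReal_le_iff_le_toReal htop).1 (h1 β)

theorem nv_lt_top {N : ℕ} {s : ℤ} (h : s ≤ N) (b : κ → X F N) : nv s b ≠ ⊤ :=
  ENNReal.sum_ne_top.2 fun β _ => ns_ne_top h (b β)

theorem ns_D1 (e : OrthonormalBasis ι ℝ F) (i : ι) {N : ℕ} (s : ℤ) (a : X F (N + 1)) :
    ns s (D (e i) a) ≤ ENNReal.ofReal (2 * π) * ns (s + 1) a := by
  have := ns_D s (e i) a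
  rwa [e.norm_eq_one, mul_one] at this

theorem ns_D2 (e : OrthonormalBasis ι ℝ F) (i j : ι) {N : ℕ} (s : ℤ) (a : X F (N + 2)) :
    ns s (D (e i) (D (e j) a)) ≤ ENNReal.ofReal ((2 * π) ^ 2) * ns (s + 2) a := by
  have h1 := ns_D1 e i s (D (e j) a)
  have h2 := ns_D1 e j (s + 1) a
  have hp := Real.pi_pos
  calc _ ≤ ENNReal.ofReal (2 * π) * ns (s + 1) (D (e j) a) := h1
    _ ≤ ENNReal.ofReal (2 * π) * (ENNReal.ofReal (2 * π) * ns (s + 1 + 1) a) := by gcongr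
    _ = _ := by
        rw [← mul_assoc, ← ENNReal.ofReal_mul (by positivity), show s + 1 + 1 = s + 2 by ring,
          show 2 * π * (2 * π) = (2 * π) ^ 2 by ring]

theorem one_le_tp : (1 : ℝ≥0∞) ≤ ENNReal.ofReal ((2 * π) ^ 2) := by
  rw [← ENNReal.ofReal_one]
  exact ENNReal.ofReal_le_ofReal (one_le_pow₀ two_pi_ge)

theorem tp_le : ENNReal.ofReal (2 * π) ≤ ENNReal.ofReal ((2 * π) ^ 2) := by
  refine ENNReal.ofReal_le_ofReal ?_
  have := two_pi_ge
  nlinarith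

theorem ofReal_sum2 {ι' κ' : Type*} [Fintype ι'] [Fintype κ'] (f : ι' → κ' → ℝ)
    (hf : ∀ i j, 0 ≤ f i j) :
    ∑ i, ∑ j, ENNReal.ofReal (f i j) = ENNReal.ofReal (∑ i, ∑ j, f i j) := by
  rw [ENNReal.ofReal_sum_of_nonneg fun i _ => Finset.sum_nonneg fun j _ => hf i j]
  exact Finset.sum_congr rfl fun i _ => (ENNReal.ofReal_sum_of_nonneg fun j _ => hf i j).symm

/-- **bound of the perturbation in the seminorms of order `≥ -t`**. -/
theorem nv_Pop_le {t : ℕ} (e : OrthonormalBasis ι ℝ F) (c : Cf F ι κ t) (b : κ → X F 2) {s : ℤ}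
    (hs : s.natAbs ≤ t) :
    nv s (Pop e c b) ≤ ENNReal.ofReal ((2 * π) ^ 2 * c.sz) * nv (s + 2) b := by
  set M : ℝ≥0∞ := ENNReal.ofReal ((2 * π) ^ 2) with hM
  have key : ∀ β, ns s (Pop e c b β) ≤ (∑ i, ∑ j, ENNReal.ofReal ‖c.A i j‖) * (M * ns (s + 2) (b β))
      + (∑ i, ∑ α, ENNReal.ofReal ‖c.B i β α‖) * (M * nv (s + 2) b)
      + (∑ α, ENNReal.ofReal ‖c.Z β α‖) * (M * nv (s + 2) b) := fun β => by
    unfold Pop
    refine (ns_add_le _ _ _).trans (add_le_add ((ns_add_le _ _ _).trans (add_le_add ?_ ?_)) ?_)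
    · rw [Finset.sum_mul]
      refine (ns_sum_le _ _ _).trans (Finset.sum_le_sum fun i _ => ?_)
      rw [Finset.sum_mul]
      refine (ns_sum_le _ _ _).trans (Finset.sum_le_sum fun j _ => ?_)
      refine (ns_mul hs (c.A i j) _).trans ?_
      gcongr
      exact ns_D2 e i j s (b β)
    · rw [Finset.sum_mul]
      refine (ns_sum_le _ _ _).trans (Finset.sum_le_sum fun i _ => ?_)
      rw [Finset.sum_mul]
      refine (ns_sum_le _ _ _).trans (Finset.sum_le_sum fun α _ => ?_)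
      refine (ns_mul hs (c.B i β α) _).trans ?_
      gcongr
      rw [ns_inclV]
      refine (ns_D1 e i s (b α)).trans ?_
      have h1 : ns (s + 1) (b α) ≤ nv (s + 2) b :=
        (ns_mono (by linarith) (b α)).trans (ns_le_nv _ b α)
      exact mul_le_mul' tp_le h1
    · rw [Finset.sum_mul]
      refine (ns_sum_le _ _ _).trans (Finset.sum_le_sum fun α _ => ?_)
      refine (ns_mul hs (c.Z β α) _).trans ?_
      gcongr
      rw [ns_inclV]
      have h1 : ns s (b α) ≤ nv (s + 2) b :=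
        (ns_mono (by linarith) (b α)).trans (ns_le_nv _ b α)
      calc ns s (b α) ≤ 1 * nv (s + 2) b := by rw [one_mul]; exact h1
        _ ≤ _ := mul_le_mul' one_le_tp le_rfl
  have hA : ∑ i, ∑ j, ENNReal.ofReal ‖c.A i j‖ = ENNReal.ofReal (∑ i, ∑ j, ‖c.A i j‖) :=
    ofReal_sum2 _ fun i j => norm_nonneg _
  have hZ : ∑ β, ∑ α, ENNReal.ofReal ‖c.Z β α‖ = ENNReal.ofReal (∑ β, ∑ α, ‖c.Z β α‖) :=
    ofReal_sum2 _ fun i j => norm_nonneg _
  have hB : ∑ β, ∑ i, ∑ α, ENNReal.ofReal ‖c.B i β α‖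
      = ENNReal.ofReal (∑ i, ∑ β, ∑ α, ‖c.B i β α‖) := by
    rw [Finset.sum_comm, ENNReal.ofReal_sum_of_nonneg fun i _ => Finset.sum_nonneg fun j _ =>
      Finset.sum_nonneg fun α _ => norm_nonneg _]
    exact Finset.sum_congr rfl fun i _ => ofReal_sum2 _ fun i j => norm_nonneg _
  calc nv s (Pop e c b) ≤ ∑ β, ((∑ i, ∑ j, ENNReal.ofReal ‖c.A i j‖) * (M * ns (s + 2) (b β))
      + (∑ i, ∑ α, ENNReal.ofReal ‖c.B i β α‖) * (M * nv (s + 2) b)
      + (∑ α, ENNReal.ofReal ‖c.Z β α‖) * (M * nv (s + 2) b)) := Finset.sum_le_sum fun β _ => key β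
    _ = (∑ i, ∑ j, ENNReal.ofReal ‖c.A i j‖) * (M * nv (s + 2) b)
      + (∑ β, ∑ i, ∑ α, ENNReal.ofReal ‖c.B i β α‖) * (M * nv (s + 2) b)
      + (∑ β, ∑ α, ENNReal.ofReal ‖c.Z β α‖) * (M * nv (s + 2) b) := by
        rw [Finset.sum_add_distrib, Finset.sum_add_distrib, ← Finset.mul_sum, ← Finset.mul_sum,
          ← Finset.sum_mul, ← Finset.sum_mul]
        rfl
    _ = ENNReal.ofReal ((2 * π) ^ 2 * c.sz) * nv (s + 2) b := by
        rw [hA, hB, hZ, ← add_mul, ← add_mul, ← ENNReal.ofReal_add (by positivity) (by positivity),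
          ← ENNReal.ofReal_add (by positivity) (by positivity), ← mul_assoc, hM,
          ← ENNReal.ofReal_mul (by positivity)]
        congr 2
        unfold Cf.sz
        ring

/-! ### a priori estimate -/

/-- fixed cut-off, one on `closedBall 0 (7/4)`. -/
def nbX (N : ℕ) : X F N := toX N (toS _ (Mx5_397.isCut_nb (F := F)).compact
  (Mx5_397.isCut_nb (F := F)).smooth)

theorem ev_nbX (N : ℕ) (x : F) : ev (nbX N : X F N) x = (Mx5_397.nb F x : ℂ) := by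
  unfold nbX
  rw [ev_toX, toS_apply]

theorem ev_Ps {c : F} {M N : ℕ} (a : X F N) (x : F) :
    ev (Mx10_397.Ps c a : X F M) x
      = ∫ y, (psi c y : ℂ) * ((ev a (x + y) + ev a (x - y)) / 2) := by
  rw [← ev_ph, ev_eq]
  refine integral_congr_ae ((Mx10_397.den_Ps (M := M) c a).mono fun ξ hξ => ?_)
  show chr x ξ * _ = _
  rw [hξ]

/-- **a priori estimate for compactly supported elements**. -/
theorem apriori {c : F} (hc : ‖c‖ = 11 / 2) (e : OrthonormalBasis ι ℝ F) (b : κ → X F 2)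
    (hb : ∀ β x, 7 / 4 ≤ ‖x‖ → ev (b β) x = 0) :
    ‖b‖ ≤ ‖(nbX 2 : X F 2)‖ * 72 * ‖Lap e b‖ := by
  refine (pi_norm_le_iff_of_nonneg (by positivity)).2 fun β => ?_
  have h1 := Mx10_397.G_lap hc e (b β)
  have h2 : b β = nbX 2 * G hc (Lap e b β) := by
    refine ev_inj fun x => ?_
    rw [ev_mul, ev_nbX]
    by_cases hx : 7 / 4 ≤ ‖x‖
    · rw [hb β x hx]
      by_cases hx2 : 2 ≤ ‖x‖
      · rw [(Mx5_397.isCut_nb (F := F)).zero hx2, Complex.ofReal_zero, zero_mul]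
      · have h3 : ev (b β) x = ev (G hc (Lap e b β)) x + ev (Mx10_397.Ps c (b β) : X F 2) x := by
          conv_lhs => rw [h1]
          rw [ev_add]; rfl
        have h4 : ev (Mx10_397.Ps c (b β) : X F 2) x = 0 := by
          rw [ev_Ps, ← integral_zero F ℂ]
          refine integral_congr_ae (Eventually.of_forall fun y => ?_)
          simp only
          by_cases h : psi c y = 0
          · rw [h, Complex.ofReal_zero, zero_mul]
          · have h8 := (psi_ne hc h).1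
            have h9 : 7 / 4 ≤ ‖x + y‖ := by
              have := norm_sub_le (x + y) x
              rw [add_sub_cancel_left] at this
              linarith
            have h10 : 7 / 4 ≤ ‖x - y‖ := by
              have := norm_sub_le x (x - y)
              rw [sub_sub_cancel] at this
              linarith
            rw [hb _ _ h9, hb _ _ h10]
            simp
        rw [h4, add_zero, hb β x hx] at h3
        rw [← h3, mul_zero]
    · have hx' : ‖x‖ ≤ 7 / 4 := (not_le.1 hx).le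
      rw [Mx5_397.nb_one hx', Complex.ofReal_one, one_mul]
      have h3 : ev (b β) x = ev (G hc (Lap e b β)) x + ev (Mx10_397.Ps c (b β) : X F 2) x := by
        conv_lhs => rw [h1]
        rw [ev_add]; rfl
      have h4 : ev (Mx10_397.Ps c (b β) : X F 2) x = 0 := by
        rw [ev_Ps, ← integral_zero F ℂ]
        refine integral_congr_ae (Eventually.of_forall fun y => ?_)
        simp only
        by_cases h : psi c y = 0
        · rw [h, Complex.ofReal_zero, zero_mul]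
        · have h8 := (psi_ne hc h).1
          have h9 : 7 / 4 ≤ ‖x + y‖ := by
            have := norm_sub_le (x + y) x
            rw [add_sub_cancel_left] at this
            linarith
          have h10 : 7 / 4 ≤ ‖x - y‖ := by
            have := norm_sub_le x (x - y)
            rw [sub_sub_cancel] at this
            linarith
          rw [hb _ _ h9, hb _ _ h10]
          simp
      rw [h3, h4, add_zero]
  rw [h2]
  calc ‖nbX 2 * G hc (Lap e b β)‖ ≤ ‖(nbX 2 : X F 2)‖ * ‖G hc (Lap e b β)‖ := norm_mul_le _ _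
    _ ≤ ‖(nbX 2 : X F 2)‖ * (72 * ‖Lap e b β‖) := by
        gcongr
        exact norm_G_le hc _
    _ ≤ ‖(nbX 2 : X F 2)‖ * (72 * ‖Lap e b‖) := by
        gcongr
        exact norm_le_pi_norm (Lap e b) β
    _ = _ := by ring

theorem apriori_L {c : F} (hc : ‖c‖ = 11 / 2) (e : OrthonormalBasis ι ℝ F) {t : ℕ}
    (cf : Cf F ι κ t)
    (hs : ‖(nbX 2 : X F 2)‖ * 72 * ((2 * π) ^ 2 * cf.sz) ≤ 1 / 2) (b : κ → X F 2)
    (hb : ∀ β x, 7 / 4 ≤ ‖x‖ → ev (b β) x = 0) :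
    ‖b‖ ≤ 2 * (‖(nbX 2 : X F 2)‖ * 72) * ‖Lop e cf b‖ := by
  have h1 := apriori hc e b hb
  have h2 : Lap e b = Lop e cf b - Pop e cf b := by rw [Lop_eq]; abel
  have h3 : ‖Lap e b‖ ≤ ‖Lop e cf b‖ + ‖Pop e cf b‖ := by rw [h2]; exact norm_sub_le _ _
  have h4 := norm_Pop_le e cf b
  have hC : 0 ≤ ‖(nbX 2 : X F 2)‖ * 72 := by positivity
  have h5 : ‖(nbX 2 : X F 2)‖ * 72 * ‖Pop e cf b‖ ≤ 1 / 2 * ‖b‖ := by
    calc _ ≤ ‖(nbX 2 : X F 2)‖ * 72 * ((2 * π) ^ 2 * cf.sz * ‖b‖) := by gcongr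
      _ = ‖(nbX 2 : X F 2)‖ * 72 * ((2 * π) ^ 2 * cf.sz) * ‖b‖ := by ring
      _ ≤ _ := mul_le_mul_of_nonneg_right hs (norm_nonneg _)
  nlinarith [mul_le_mul_of_nonneg_left h3 hC]

/-! ### Hahn-Banach -/

variable (F κ) in
/-- elements supported in `ball 0 R`. -/
def Sp (R : ℝ) : Submodule ℂ (κ → X F 2) where
  carrier := {b | ∀ β x, R ≤ ‖x‖ → ev (b β) x = 0}
  add_mem' := fun {a b} ha hb β x hx => by
    rw [Pi.add_apply, ev_add, ha β x hx, hb β x hx, add_zero]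
  zero_mem' := fun β x _ => by rw [Pi.zero_apply, ev_zero]
  smul_mem' := fun r b hb β x hx => by
    rw [Pi.smul_apply, ev_smul, hb β x hx, mul_zero]

theorem mem_Sp {R : ℝ} {b : κ → X F 2} : b ∈ Sp F κ R ↔ ∀ β x, R ≤ ‖x‖ → ev (b β) x = 0 := Iff.rfl

/-- **the annihilating part**: a functional which is small on `{L φ : supp φ ⊆ B_R}` is the sum of
a functional annihilating this space and a small functional. -/
theorem exists_ann {c : F} (hc : ‖c‖ = 11 / 2) (e : OrthonormalBasis ι ℝ F) {t : ℕ}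
    (cf : Cf F ι κ t) (hs : ‖(nbX 2 : X F 2)‖ * 72 * ((2 * π) ^ 2 * cf.sz) ≤ 1 / 2)
    {R : ℝ} (hR : R ≤ 7 / 4) (β : (κ → X F 0) →L[ℂ] ℂ) {η : ℝ} (hη : 0 ≤ η)
    (hβ : ∀ φ ∈ Sp F κ R, ‖β (Lop e cf φ)‖ ≤ η * ‖φ‖) :
    ∃ J : (κ → X F 0) →L[ℂ] ℂ, (∀ φ ∈ Sp F κ R, J (Lop e cf φ) = 0) ∧
      ‖β - J‖ ≤ η * (2 * (‖(nbX 2 : X F 2)‖ * 72)) := by
  set C : ℝ := 2 * (‖(nbX 2 : X F 2)‖ * 72) with hC
  have hC0 : 0 ≤ C := by positivity
  set p : Submodule ℂ (κ → X F 0) := (Sp F κ R).map (LopL e cf) with hp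
  set f : p →ₗ[ℂ] ℂ := β.toLinearMap.domRestrict p with hf
  have hb : ∀ x : p, ‖f x‖ ≤ η * C * ‖x‖ := by
    rintro ⟨x, hx⟩
    obtain ⟨φ, hφ, rfl⟩ := hx
    show ‖β (Lop e cf φ)‖ ≤ η * C * ‖Lop e cf φ‖
    have h1 := hβ φ hφ
    have h2 := apriori_L hc e cf hs φ fun β x hx => hφ β x (hR.trans hx)
    calc _ ≤ η * ‖φ‖ := h1
      _ ≤ η * (C * ‖Lop e cf φ‖) := by gcongr
      _ = _ := by ring
  obtain ⟨g, hg, hgn⟩ := exists_extension_norm_eq p (f.mkContinuous (η * C) hb)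
  refine ⟨β - g, fun φ hφ => ?_, ?_⟩
  · have h1 : g (Lop e cf φ) = β (Lop e cf φ) := by
      have := hg ⟨Lop e cf φ, ⟨φ, hφ, rfl⟩⟩
      rw [this]
      rfl
    rw [sub_apply, h1, sub_self]
  · rw [sub_sub_cancel, hgn]
    exact LinearMap.mkContinuous_norm_le _ (by positivity) _

end Crest.Agent.R234.Sel6_570
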