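import Crest.Agent.R234.Sel6_570

/-!
Row 234, VF-SEL (helper570), file 7: commutator with a cut-off and the iteration in negative norms:
a functional on `X 0` annihilating `{L φ : supp φ ⊆ B_R}` has arbitrary decay off the boundary.
-/

set_option autoImplicit false
set_option linter.unusedSectionVars false

open MeasureTheory Complex Filter Real
open scoped ContDiff Topology InnerProductSpace ENNReal NNReal

noncomputable section

namespace Crest.Agent.R234.Sel6_570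

open Crest.Agent.R086.Wie Crest.Agent.R234.Mx1_397 Crest.Agent.R234.Mx2_397
  Crest.Agent.R234.Mx3_397 Crest.Agent.R234.Mx4_397 Crest.Agent.R234.Mx6_397
  Crest.Agent.R234.Sel5_570
open Crest.Agent.R234.MG_570 (Cf Lop i0)

variable {F : Type} [NormedAddCommGroup F] [InnerProductSpace ℝ F] [FiniteDimensional ℝ F]
  [MeasurableSpace F] [BorelSpace F] {ι κ : Type*} [Fintype ι] [Fintype κ] {t : ℕ}

/-- multiplication of a vector by a cut-off. -/
def cm {N M : ℕ} (h : N ≤ M) (χ : X F M) (b : κ → X F N) : κ → X F N := fun β => inclV h χ * b β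

/-- inclusion of vectors. -/
def iv {N : ℕ} (b : κ → X F N) : κ → X F 0 := fun β => i0 (b β)

/-- first order coefficient of the commutator. -/
def C1 (e : OrthonormalBasis ι ℝ F) (c : Cf F ι κ t) (χ : X F (t + 2)) (i : ι) : X F t :=
  (2 : ℂ) • inclV (Nat.le_succ t) (D (e i) χ)
    + ∑ j, (c.A i j + c.A j i) * inclV (Nat.le_succ t) (D (e j) χ)

/-- zeroth order coefficient of the commutator. -/
def C0 (e : OrthonormalBasis ι ℝ F) (c : Cf F ι κ t) (χ : X F (t + 2)) : X F t :=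
  ∑ i, D (e i) (D (e i) χ) + ∑ i, ∑ j, c.A i j * D (e i) (D (e j) χ)

/-- zeroth order coefficient of the commutator, mixed. -/
def CW (e : OrthonormalBasis ι ℝ F) (c : Cf F ι κ t) (χ : X F (t + 2)) (β α : κ) : X F t :=
  ∑ i, c.B i β α * inclV (Nat.le_succ t) (D (e i) χ)

/-- the commutator. -/
def comm (e : OrthonormalBasis ι ℝ F) (c : Cf F ι κ t) (χ : X F (t + 2)) (b : κ → X F 2) :
    κ → X F 0 := fun β =>
  ∑ i, i0 (C1 e c χ i) * i0 (D (e i) (b β)) + i0 (C0 e c χ) * i0 (b β)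
    + ∑ α, i0 (CW e c χ β α) * i0 (b α)

theorem ev_i0 {N : ℕ} (a : X F N) (x : F) : ev (i0 a) x = ev a x := ev_inclV _ a x

theorem ev_C1 (e : OrthonormalBasis ι ℝ F) (c : Cf F ι κ t) (χ : X F (t + 2)) (i : ι) (x : F) :
    ev (C1 e c χ i) x = 2 * ev (D (e i) χ) x
      + ∑ j, (ev (c.A i j) x + ev (c.A j i) x) * ev (D (e j) χ) x := by
  unfold C1
  rw [ev_add, ev_smul, ev_inclV, ev_sum]
  congr 1
  refine Finset.sum_congr rfl fun j _ => ?_
  rw [ev_mul, ev_add, ev_inclV]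

theorem ev_C0 (e : OrthonormalBasis ι ℝ F) (c : Cf F ι κ t) (χ : X F (t + 2)) (x : F) :
    ev (C0 e c χ) x = ∑ i, ev (D (e i) (D (e i) χ)) x
      + ∑ i, ∑ j, ev (c.A i j) x * ev (D (e i) (D (e j) χ)) x := by
  unfold C0
  rw [ev_add, ev_sum, ev_sum]
  congr 1
  refine Finset.sum_congr rfl fun i _ => ?_
  rw [ev_sum]
  exact Finset.sum_congr rfl fun j _ => ev_mul _ _ x

theorem ev_CW (e : OrthonormalBasis ι ℝ F) (c : Cf F ι κ t) (χ : X F (t + 2)) (β α : κ) (x : F) :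
    ev (CW e c χ β α) x = ∑ i, ev (c.B i β α) x * ev (D (e i) χ) x := by
  unfold CW
  rw [ev_sum]
  refine Finset.sum_congr rfl fun i _ => ?_
  rw [ev_mul, ev_inclV]

theorem ev_comm (e : OrthonormalBasis ι ℝ F) (c : Cf F ι κ t) (χ : X F (t + 2)) (b : κ → X F 2)
    (β : κ) (x : F) :
    ev (comm e c χ b β) x = ∑ i, ev (C1 e c χ i) x * ev (D (e i) (b β)) x
      + ev (C0 e c χ) x * ev (b β) x + ∑ α, ev (CW e c χ β α) x * ev (b α) x := by
  unfold comm
  rw [ev_add, ev_add, ev_sum, ev_mul, ev_i0, ev_i0, ev_sum]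
  congr 1
  · congr 1
    refine Finset.sum_congr rfl fun i _ => ?_
    rw [ev_mul, ev_i0, ev_i0]
  · refine Finset.sum_congr rfl fun i _ => ?_
    rw [ev_mul, ev_i0, ev_i0]

theorem ev_Lop (e : OrthonormalBasis ι ℝ F) (c : Cf F ι κ t) (b : κ → X F 2) (β : κ) (x : F) :
    ev (Lop e c b β) x = ∑ i, ev (D (e i) (D (e i) (b β))) x
      + ∑ i, ∑ j, ev (c.A i j) x * ev (D (e i) (D (e j) (b β))) x
      + ∑ i, ∑ α, ev (c.B i β α) x * ev (D (e i) (b α)) x
      + ∑ α, ev (c.Z β α) x * ev (b α) x := by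
  unfold Lop
  rw [ev_add, ev_add, ev_add, ev_sum, ev_sum, ev_sum, ev_sum]
  congr 1
  · congr 1
    · congr 1
      refine Finset.sum_congr rfl fun i _ => ?_
      rw [ev_sum]
      refine Finset.sum_congr rfl fun j _ => ?_
      rw [ev_mul, ev_i0]
    · refine Finset.sum_congr rfl fun i _ => ?_
      rw [ev_sum]
      refine Finset.sum_congr rfl fun j _ => ?_
      rw [ev_mul, ev_i0, ev_i0]
  · refine Finset.sum_congr rfl fun j _ => ?_
    rw [ev_mul, ev_i0, ev_i0]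

theorem ev_D_incl2 (v : F) (χ : X F (t + 2)) (x : F) :
    ev (D v (inclV (Nat.le_add_left 2 t) χ)) x = ev (D v χ) x := by
  have h1 : ev (inclV (Nat.le_add_left 2 t) χ) = ev χ := funext fun y => ev_inclV _ χ y
  rw [← fderiv_ev, ← fderiv_ev, h1]

theorem ev_DD_incl2 (v w : F) (χ : X F (t + 2)) (x : F) :
    ev (D v (D w (inclV (Nat.le_add_left 2 t) χ))) x = ev (D v (D w χ)) x := by
  have h1 : ev (D w (inclV (Nat.le_add_left 2 t) χ)) = ev (D w χ) :=
    funext fun y => ev_D_incl2 w χ y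
  rw [← fderiv_ev, ← fderiv_ev, h1]

/-- **the commutator identity**. -/
theorem Lop_cm (e : OrthonormalBasis ι ℝ F) (c : Cf F ι κ t) (χ : X F (t + 2)) (b : κ → X F 2) :
    Lop e c (cm (Nat.le_add_left 2 t) χ b)
      = cm (Nat.zero_le _) χ (Lop e c b) + comm e c χ b := by
  funext β
  refine ev_inj fun x => ?_
  show _ = ev (i0 χ * Lop e c b β + comm e c χ b β) x
  rw [ev_add, ev_mul, ev_i0, ev_comm, ev_Lop, ev_Lop, ev_C0]
  simp only [ev_C1, ev_CW]
  have h2 : ∀ i j (γ : κ), ev (D (e i) (D (e j) (cm (Nat.le_add_left 2 t) χ b γ))) x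
      = ev (D (e i) (D (e j) χ)) x * ev (b γ) x + ev (D (e j) χ) x * ev (D (e i) (b γ)) x
      + ev (D (e i) χ) x * ev (D (e j) (b γ)) x + ev χ x * ev (D (e i) (D (e j) (b γ))) x :=
    fun i j γ => by
      have := Sel5_570.ev_DD_mul (e i) (e j) (inclV (Nat.le_add_left 2 t) χ) (b γ) x
      rw [ev_DD_incl2, ev_D_incl2, ev_D_incl2, ev_inclV] at this
      exact this
  have h1 : ∀ i (γ : κ), ev (D (e i) (cm (Nat.le_add_left 2 t) χ b γ)) x
      = ev (D (e i) χ) x * ev (b γ) x + ev χ x * ev (D (e i) (b γ)) x := fun i γ => by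
    have := Sel5_570.ev_D_mul (e i) (inclV (Nat.le_add_left 2 t) χ) (b γ) x
    rw [ev_D_incl2, ev_inclV] at this
    exact this
  have h0 : ∀ γ : κ, ev (cm (Nat.le_add_left 2 t) χ b γ) x = ev χ x * ev (b γ) x := fun γ => by
    show ev (inclV (Nat.le_add_left 2 t) χ * b γ) x = _
    rw [ev_mul, ev_inclV]
  simp only [h2, h1, h0]
  -- algebra
  have s1 : ∑ i, ∑ j, ev (c.A i j) x * (ev (D (e i) (D (e j) χ)) x * ev (b β) x
      + ev (D (e j) χ) x * ev (D (e i) (b β)) x + ev (D (e i) χ) x * ev (D (e j) (b β)) x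
      + ev χ x * ev (D (e i) (D (e j) (b β))) x)
      = (∑ i, ∑ j, ev (c.A i j) x * ev (D (e i) (D (e j) χ)) x) * ev (b β) x
        + ∑ i, (∑ j, (ev (c.A i j) x + ev (c.A j i) x) * ev (D (e j) χ) x)
          * ev (D (e i) (b β)) x
        + ev χ x * ∑ i, ∑ j, ev (c.A i j) x * ev (D (e i) (D (e j) (b β))) x := by
    have a1 : ∑ i, (∑ j, (ev (c.A i j) x + ev (c.A j i) x) * ev (D (e j) χ) x)
          * ev (D (e i) (b β)) x
        = ∑ i, ∑ j, ev (c.A i j) x * ev (D (e j) χ) x * ev (D (e i) (b β)) x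
          + ∑ i, ∑ j, ev (c.A i j) x * ev (D (e i) χ) x * ev (D (e j) (b β)) x := by
      rw [Finset.sum_comm (f := fun i j => ev (c.A i j) x * ev (D (e i) χ) x
        * ev (D (e j) (b β)) x), ← Finset.sum_add_distrib]
      refine Finset.sum_congr rfl fun i _ => ?_
      rw [Finset.sum_mul, ← Finset.sum_add_distrib]
      exact Finset.sum_congr rfl fun j _ => by ring
    rw [a1, Finset.sum_mul, Finset.mul_sum, ← Finset.sum_add_distrib, ← Finset.sum_add_distrib,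
      ← Finset.sum_add_distrib]
    refine Finset.sum_congr rfl fun i _ => ?_
    rw [Finset.sum_mul, Finset.mul_sum, ← Finset.sum_add_distrib, ← Finset.sum_add_distrib,
      ← Finset.sum_add_distrib]
    exact Finset.sum_congr rfl fun j _ => by ring
  have s2 : ∑ i, ∑ α, ev (c.B i β α) x * (ev (D (e i) χ) x * ev (b α) x
      + ev χ x * ev (D (e i) (b α)) x)
      = (∑ α, (∑ i, ev (c.B i β α) x * ev (D (e i) χ) x) * ev (b α) x)
        + ev χ x * ∑ i, ∑ α, ev (c.B i β α) x * ev (D (e i) (b α)) x := by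
    have a1 : ev χ x * ∑ i, ∑ α, ev (c.B i β α) x * ev (D (e i) (b α)) x
        = ∑ α, ∑ i, ev χ x * (ev (c.B i β α) x * ev (D (e i) (b α)) x) := by
      rw [Finset.sum_comm, Finset.mul_sum]
      exact Finset.sum_congr rfl fun i _ => by rw [Finset.mul_sum]
    rw [a1, Finset.sum_comm, ← Finset.sum_add_distrib]
    refine Finset.sum_congr rfl fun α _ => ?_
    rw [Finset.sum_mul, ← Finset.sum_add_distrib]
    exact Finset.sum_congr rfl fun i _ => by ring
  have s3 : ∑ i, (ev (D (e i) (D (e i) χ)) x * ev (b β) x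
      + ev (D (e i) χ) x * ev (D (e i) (b β)) x + ev (D (e i) χ) x * ev (D (e i) (b β)) x
      + ev χ x * ev (D (e i) (D (e i) (b β))) x)
      = (∑ i, ev (D (e i) (D (e i) χ)) x) * ev (b β) x
        + ∑ i, 2 * ev (D (e i) χ) x * ev (D (e i) (b β)) x
        + ev χ x * ∑ i, ev (D (e i) (D (e i) (b β))) x := by
    rw [Finset.sum_mul, Finset.mul_sum, ← Finset.sum_add_distrib, ← Finset.sum_add_distrib]
    exact Finset.sum_congr rfl fun i _ => by ring
  have s4 : ∑ α, ev (c.Z β α) x * (ev χ x * ev (b α) x)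
      = ev χ x * ∑ α, ev (c.Z β α) x * ev (b α) x := by
    rw [Finset.mul_sum]
    exact Finset.sum_congr rfl fun i _ => by ring
  have s5 : ∑ i, (2 * ev (D (e i) χ) x + ∑ j, (ev (c.A i j) x + ev (c.A j i) x)
        * ev (D (e j) χ) x) * ev (D (e i) (b β)) x
      = ∑ i, 2 * ev (D (e i) χ) x * ev (D (e i) (b β)) x
        + ∑ i, (∑ j, (ev (c.A i j) x + ev (c.A j i) x) * ev (D (e j) χ) x)
          * ev (D (e i) (b β)) x := by
    rw [← Finset.sum_add_distrib]
    exact Finset.sum_congr rfl fun i _ => by rw [add_mul]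
  rw [s1, s2, s3, s4, s5]
  ring

/-- the commutator lives where the cut-off is not locally constant. -/
theorem cm_comm (e : OrthonormalBasis ι ℝ F) (c : Cf F ι κ t) {M : ℕ} (χ' : X F M)
    (χ : X F (t + 2)) (b : κ → X F 2)
    (h : ∀ x, ev χ' x = 1 ∨ ((∀ i, ev (D (e i) χ) x = 0) ∧
      ∀ i j, ev (D (e i) (D (e j) χ)) x = 0)) :
    cm (Nat.zero_le M) χ' (comm e c χ b) = comm e c χ b := by
  funext β
  refine ev_inj fun x => ?_
  show ev (i0 χ' * comm e c χ b β) x = _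
  rw [ev_mul, ev_i0]
  rcases h x with h1 | ⟨h1, h2⟩
  · rw [h1, one_mul]
  · have h3 : ev (comm e c χ b β) x = 0 := by
      rw [ev_comm, ev_C0]
      simp only [ev_C1, ev_CW, h1, h2, mul_zero, Finset.sum_const_zero, add_zero, zero_mul]
    rw [h3, mul_zero]

/-- size of the commutator coefficients. -/
def cmB (c : Cf F ι κ t) (χ : X F (t + 2)) : ℝ :=
  (Fintype.card ι + 1) * (1 + c.sz) * (4 * (2 * π) ^ 2) * ‖χ‖

theorem sz_nonneg (c : Cf F ι κ t) : 0 ≤ c.sz := by unfold Cf.sz; positivity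

set_option maxHeartbeats 1000000 in
theorem cmB_bound (e : OrthonormalBasis ι ℝ F) (c : Cf F ι κ t) (χ : X F (t + 2)) :
    ∑ i, ‖C1 e c χ i‖ + ‖C0 e c χ‖ + ∑ β, ∑ α, ‖CW e c χ β α‖ ≤ cmB c χ := by
  classical
  have hp := two_pi_ge
  have hsz := sz_nonneg c
  have hD1 : ∀ i, ‖(inclV (Nat.le_succ t) (D (e i) χ) : X F t)‖ ≤ 2 * π * ‖χ‖ := fun i =>
    (norm_inclV_le _ _).trans (norm_D1_le e i χ)
  have hD2 : ∀ i j, ‖D (e i) (D (e j) χ)‖ ≤ (2 * π) ^ 2 * ‖χ‖ := fun i j => norm_D2_le e i j χ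
  -- the coefficient bounds
  have b1 : ∑ i, ‖C1 e c χ i‖ ≤ (Fintype.card ι) * (2 * (2 * π * ‖χ‖))
      + 2 * (∑ i, ∑ j, ‖c.A i j‖) * (2 * π * ‖χ‖) := by
    have h1 : ∀ i, ‖C1 e c χ i‖ ≤ 2 * (2 * π * ‖χ‖)
        + ∑ j, (‖c.A i j‖ + ‖c.A j i‖) * (2 * π * ‖χ‖) := fun i => by
      unfold C1
      refine (norm_add_le _ _).trans (add_le_add ?_ ?_)
      · rw [norm_smul, Complex.norm_two]
        gcongr
        exact hD1 i
      · refine (norm_sum_le _ _).trans (Finset.sum_le_sum fun j _ => ?_)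
        refine (norm_mul_le _ _).trans ?_
        exact mul_le_mul (norm_add_le _ _) (hD1 j) (norm_nonneg _) (by positivity)
    refine (Finset.sum_le_sum fun i _ => h1 i).trans (le_of_eq ?_)
    rw [Finset.sum_add_distrib, Finset.sum_const, Finset.card_univ, nsmul_eq_mul]
    congr 1
    have : ∑ i, ∑ j, (‖c.A i j‖ + ‖c.A j i‖) * (2 * π * ‖χ‖)
        = (∑ i, ∑ j, ‖c.A i j‖ + ∑ i, ∑ j, ‖c.A j i‖) * (2 * π * ‖χ‖) := by
      rw [← Finset.sum_add_distrib, Finset.sum_mul]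
      refine Finset.sum_congr rfl fun i _ => ?_
      rw [← Finset.sum_add_distrib, Finset.sum_mul]
    rw [this, Finset.sum_comm (f := fun i j => ‖c.A j i‖)]
    ring
  have b0 : ‖C0 e c χ‖ ≤ (Fintype.card ι) * ((2 * π) ^ 2 * ‖χ‖)
      + (∑ i, ∑ j, ‖c.A i j‖) * ((2 * π) ^ 2 * ‖χ‖) := by
    unfold C0
    refine (norm_add_le _ _).trans (add_le_add ?_ ?_)
    · refine (norm_sum_le _ _).trans ((Finset.sum_le_sum fun i _ => hD2 i i).trans ?_)
      rw [Finset.sum_const, Finset.card_univ, nsmul_eq_mul]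
    · rw [Finset.sum_mul]
      refine (norm_sum_le _ _).trans (Finset.sum_le_sum fun i _ => ?_)
      rw [Finset.sum_mul]
      refine (norm_sum_le _ _).trans (Finset.sum_le_sum fun j _ => ?_)
      exact (norm_mul_le _ _).trans (mul_le_mul_of_nonneg_left (hD2 i j) (norm_nonneg _))
  have bw : ∑ β, ∑ α, ‖CW e c χ β α‖ ≤ (∑ i, ∑ β, ∑ α, ‖c.B i β α‖) * (2 * π * ‖χ‖) := by
    have h1 : ∀ β α, ‖CW e c χ β α‖ ≤ ∑ i, ‖c.B i β α‖ * (2 * π * ‖χ‖) := fun β α => by
      unfold CW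
      refine (norm_sum_le _ _).trans (Finset.sum_le_sum fun i _ => ?_)
      exact (norm_mul_le _ _).trans (mul_le_mul_of_nonneg_left (hD1 i) (norm_nonneg _))
    refine (Finset.sum_le_sum fun β _ => Finset.sum_le_sum fun α _ => h1 β α).trans (le_of_eq ?_)
    rw [Finset.sum_mul, Finset.sum_comm]
    have : ∀ β, ∑ α, ∑ i, ‖c.B i β α‖ * (2 * π * ‖χ‖)
        = ∑ i, (∑ α, ‖c.B i β α‖) * (2 * π * ‖χ‖) := fun β => by
      rw [Finset.sum_comm]
      exact Finset.sum_congr rfl fun i _ => by rw [Finset.sum_mul]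
    rw [Finset.sum_comm (f := fun α β => ∑ i, ‖c.B i β α‖ * (2 * π * ‖χ‖)),
      Finset.sum_congr rfl fun β _ => this β, Finset.sum_comm]
    exact Finset.sum_congr rfl fun i _ => by rw [Finset.sum_mul]
  refine (add_le_add (add_le_add b1 b0) bw).trans ?_
  clear b1 b0 bw hD1 hD2
  have ha0 : 0 ≤ ∑ i, ∑ j, ‖c.A i j‖ := by positivity
  have hw0 : 0 ≤ ∑ i, ∑ β, ∑ α, ‖c.B i β α‖ := by positivity
  have hz : ∑ i, ∑ j, ‖c.A i j‖ + ∑ i, ∑ β, ∑ α, ‖c.B i β α‖ ≤ c.sz := by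
    unfold Cf.sz
    have : 0 ≤ ∑ β, ∑ α, ‖c.Z β α‖ := by positivity
    linarith
  unfold cmB
  generalize (∑ i, ∑ j, ‖c.A i j‖) = a at *
  generalize (∑ i, ∑ β, ∑ α, ‖c.B i β α‖) = w at *
  generalize c.sz = z at *
  have hn : (0 : ℝ) ≤ Fintype.card ι := Nat.cast_nonneg _
  generalize (Fintype.card ι : ℝ) = ν at *
  have hX := norm_nonneg χ
  generalize ‖χ‖ = y at *
  generalize 2 * π = P at *
  have hq : P ≤ P ^ 2 := by nlinarith
  have hq' : P * y ≤ P ^ 2 * y := by gcongr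
  have hq0 : 0 ≤ P * y := by positivity
  have hq1 : 0 ≤ P ^ 2 * y := hq0.trans hq'
  calc ν * (2 * (P * y)) + 2 * a * (P * y) + (ν * (P ^ 2 * y) + a * (P ^ 2 * y)) + w * (P * y)
      ≤ ν * (2 * (P ^ 2 * y)) + 2 * a * (P ^ 2 * y) + (ν * (P ^ 2 * y) + a * (P ^ 2 * y))
        + w * (P ^ 2 * y) := by gcongr
    _ = (3 * ν + 3 * a + w) * (P ^ 2 * y) := by ring
    _ ≤ ((ν + 1) * (1 + z) * 4) * (P ^ 2 * y) := by
        refine mul_le_mul_of_nonneg_right ?_ hq1
        nlinarith [mul_nonneg hn hsz]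
    _ = _ := by ring

set_option maxHeartbeats 1000000 in
theorem nv_comm_le (e : OrthonormalBasis ι ℝ F) (c : Cf F ι κ t) (χ : X F (t + 2))
    (b : κ → X F 2) {s : ℤ} (hs : s.natAbs ≤ t) :
    nv s (comm e c χ b) ≤ ENNReal.ofReal ((2 * π) ^ 2 * cmB c χ) * nv (s + 1) b := by
  classical
  have btot := cmB_bound e c χ
  set M : ℝ≥0∞ := ENNReal.ofReal ((2 * π) ^ 2) with hM
  have key : ∀ β, ns s (comm e c χ b β)
      ≤ (∑ i, ENNReal.ofReal ‖C1 e c χ i‖) * (M * ns (s + 1) (b β))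
        + ENNReal.ofReal ‖C0 e c χ‖ * (M * ns (s + 1) (b β))
        + (∑ α, ENNReal.ofReal ‖CW e c χ β α‖) * (M * nv (s + 1) b) := fun β => by
    unfold comm
    refine (ns_add_le _ _ _).trans (add_le_add ((ns_add_le _ _ _).trans (add_le_add ?_ ?_)) ?_)
    · rw [Finset.sum_mul]
      refine (ns_sum_le _ _ _).trans (Finset.sum_le_sum fun i _ => ?_)
      refine (ns_mul hs (C1 e c χ i) _).trans ?_
      gcongr
      rw [ns_inclV]
      exact (ns_D1 e i s (b β)).trans (mul_le_mul' tp_le le_rfl)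
    · refine (ns_mul hs (C0 e c χ) _).trans ?_
      gcongr
      rw [ns_inclV]
      calc ns s (b β) ≤ 1 * ns (s + 1) (b β) := by rw [one_mul]; exact ns_mono (by linarith) _
        _ ≤ _ := mul_le_mul' one_le_tp le_rfl
    · rw [Finset.sum_mul]
      refine (ns_sum_le _ _ _).trans (Finset.sum_le_sum fun α _ => ?_)
      refine (ns_mul hs (CW e c χ β α) _).trans ?_
      gcongr
      rw [ns_inclV]
      have h1 : ns s (b α) ≤ nv (s + 1) b :=
        (ns_mono (by linarith) (b α)).trans (ns_le_nv _ b α)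
      calc ns s (b α) ≤ 1 * nv (s + 1) b := by rw [one_mul]; exact h1
        _ ≤ _ := mul_le_mul' one_le_tp le_rfl
  have h1' : ∑ i, ENNReal.ofReal ‖C1 e c χ i‖ = ENNReal.ofReal (∑ i, ‖C1 e c χ i‖) :=
    (ENNReal.ofReal_sum_of_nonneg fun i _ => norm_nonneg _).symm
  have hW' : ∑ β, ∑ α, ENNReal.ofReal ‖CW e c χ β α‖
      = ENNReal.ofReal (∑ β, ∑ α, ‖CW e c χ β α‖) := ofReal_sum2 _ fun i j => norm_nonneg _
  calc nv s (comm e c χ b) ≤ ∑ β, ((∑ i, ENNReal.ofReal ‖C1 e c χ i‖) * (M * ns (s + 1) (b β))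
        + ENNReal.ofReal ‖C0 e c χ‖ * (M * ns (s + 1) (b β))
        + (∑ α, ENNReal.ofReal ‖CW e c χ β α‖) * (M * nv (s + 1) b)) :=
        Finset.sum_le_sum fun β _ => key β
    _ = (∑ i, ENNReal.ofReal ‖C1 e c χ i‖) * (M * nv (s + 1) b)
        + ENNReal.ofReal ‖C0 e c χ‖ * (M * nv (s + 1) b)
        + (∑ β, ∑ α, ENNReal.ofReal ‖CW e c χ β α‖) * (M * nv (s + 1) b) := by
        rw [Finset.sum_add_distrib, Finset.sum_add_distrib, ← Finset.mul_sum, ← Finset.mul_sum,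
          ← Finset.mul_sum, ← Finset.mul_sum, ← Finset.sum_mul]
        rfl
    _ = ENNReal.ofReal ((2 * π) ^ 2 * (∑ i, ‖C1 e c χ i‖ + ‖C0 e c χ‖
          + ∑ β, ∑ α, ‖CW e c χ β α‖)) * nv (s + 1) b := by
        rw [h1', hW', ← add_mul, ← add_mul, ← ENNReal.ofReal_add (by positivity) (by positivity),
          ← ENNReal.ofReal_add (by positivity) (by positivity), ← mul_assoc, hM,
          ← ENNReal.ofReal_mul (by positivity)]
        congr 2
        ring
    _ ≤ _ := by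
        gcongr

end Crest.Agent.R234.Sel6_570
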