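import Crest.Agent.R234.Sel7_570

/-!
Row 234, VF-SEL (helper570), file 8: the iteration in negative norms.
-/

set_option autoImplicit false
set_option linter.unusedSectionVars false

open MeasureTheory Complex Filter Real
open scoped ContDiff Topology InnerProductSpace ENNReal NNReal

noncomputable section

namespace Crest.Agent.R234.Sel6_570

open Crest.Agent.R086.Wie Crest.Agent.R234.Mx1_397 Crest.Agent.R234.Mx2_397
  Crest.Agent.R234.Mx3_397 Crest.Agent.R234.Mx4_397 Crest.Agent.R234.Mx6_397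
  Crest.Agent.R234.Sel5_570
open Crest.Agent.R234.MG_570 (Cf Lop i0)

variable {F : Type} [NormedAddCommGroup F] [InnerProductSpace ℝ F] [FiniteDimensional ℝ F]
  [MeasurableSpace F] [BorelSpace F] {ι κ : Type*} [Fintype ι] [Fintype κ] {t : ℕ}

/-- abstract recursion. -/
theorem recursion {E : Type*} (T : E → E) (f n q : E → ℝ≥0∞) {A B : ℝ≥0∞} (hB : B ≠ ⊤)
    (h1 : ∀ a, f a ≤ A * n a + f (T a)) (h2 : ∀ a, n (T a) ≤ 2⁻¹ * n a)
    (h3 : ∀ a, f a ≤ B * q a) (h4 : ∀ a, q (T a) ≤ 2⁻¹ * q a) (hq : ∀ a, q a ≠ ⊤) (a : E) :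
    f a ≤ 2 * A * n a := by
  have hstep : ∀ i : ℕ, ∀ a, f a ≤ 2 * A * n a + B * ((2⁻¹) ^ i * q a) := by
    intro i
    induction i with
    | zero =>
      intro a
      rw [pow_zero, one_mul]
      exact (h3 a).trans le_add_self
    | succ i ih =>
      intro a
      refine (h1 a).trans ?_
      have h5 := ih (T a)
      calc A * n a + f (T a) ≤ A * n a + (2 * A * n (T a) + B * ((2⁻¹) ^ i * q (T a))) := by gcongr
        _ ≤ A * n a + (2 * A * (2⁻¹ * n a) + B * ((2⁻¹) ^ i * (2⁻¹ * q a))) := by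
            gcongr
            · exact h2 a
            · exact h4 a
        _ = 2 * A * n a + B * ((2⁻¹) ^ (i + 1) * q a) := by
            have h6 : (2 : ℝ≥0∞) * A * (2⁻¹ * n a) = A * n a := by
              calc (2 : ℝ≥0∞) * A * (2⁻¹ * n a) = (2 * 2⁻¹) * (A * n a) := by ring
                _ = A * n a := by
                    rw [ENNReal.mul_inv_cancel (by norm_num) (by norm_num), one_mul]
            rw [h6, pow_succ]
            ring
  have hlim : Tendsto (fun i : ℕ => 2 * A * n a + B * ((2⁻¹ : ℝ≥0∞) ^ i * q a)) atTop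
      (𝓝 (2 * A * n a + B * (0 * q a))) := by
    refine Tendsto.const_add _ (ENNReal.Tendsto.const_mul ?_ (Or.inr hB))
    refine ENNReal.Tendsto.mul_const ?_ (Or.inr (hq a))
    exact ENNReal.tendsto_pow_atTop_nhds_zero_of_lt_one (by norm_num)
  have := ge_of_tendsto' hlim fun i => hstep i a
  rwa [zero_mul, mul_zero, add_zero] at this

/-- resolvent of vectors. -/
def RV (a : κ → X F 0) : κ → X F 2 := fun β => Rs (a β)

theorem norm_RV_le (a : κ → X F 0) : ‖RV a‖ ≤ 2 * ‖a‖ :=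
  (pi_norm_le_iff_of_nonneg (by positivity)).2 fun β =>
    (norm_Rs_le (a β)).trans (mul_le_mul_of_nonneg_left (norm_le_pi_norm a β) (by norm_num))

theorem nv_RV_le (s : ℤ) (a : κ → X F 0) : nv (s + 2) (RV a) ≤ 2 * nv s a := by
  unfold nv
  rw [Finset.mul_sum]
  exact Finset.sum_le_sum fun β _ => ns_Rs s (a β)

theorem cm_add {N M : ℕ} (h : N ≤ M) (χ : X F M) (a b : κ → X F N) :
    cm h χ (a + b) = cm h χ a + cm h χ b := by
  funext β
  show inclV h χ * (a β + b β) = inclV h χ * a β + inclV h χ * b β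
  rw [mul_add]

/-- decomposition of `χ a` by the resolvent. -/
theorem cm_split (e : OrthonormalBasis ι ℝ F) (c : Cf F ι κ t) (χ : X F (t + 2)) (a : κ → X F 0) :
    cm (Nat.zero_le _) χ a = iv (cm (Nat.le_add_left 2 t) χ (RV a))
      - Lop e c (cm (Nat.le_add_left 2 t) χ (RV a)) + comm e c χ (RV a)
      + cm (Nat.zero_le _) χ (Pop e c (RV a)) := by
  have h1 : a = iv (RV a) - Lap e (RV a) := by
    funext β
    exact (Rs_eq e (a β)).symm
  have h2 : Lap e (RV a) = Lop e c (RV a) - Pop e c (RV a) := by rw [Lop_eq]; abel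
  rw [Lop_cm]
  funext β
  show i0 χ * a β = i0 (inclV (Nat.le_add_left 2 t) χ * RV a β)
    - (i0 χ * Lop e c (RV a) β + comm e c χ (RV a) β) + comm e c χ (RV a) β
    + i0 χ * Pop e c (RV a) β
  have h3 : a β = i0 (RV a β) - (Lop e c (RV a) β - Pop e c (RV a) β) := by
    conv_lhs => rw [h1, h2]
    rfl
  have h4 : i0 (inclV (Nat.le_add_left 2 t) χ * RV a β) = i0 χ * i0 (RV a β) := by
    rw [i0, Sel5_570.inclV_mul, inclV_inclV]
  rw [h4]
  conv_lhs => rw [h3]
  rw [mul_sub, mul_sub]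
  abel

theorem nv_cm_le {M : ℕ} (χ : X F M) (a : κ → X F 0) {s : ℤ} (hs : s.natAbs ≤ M) :
    nv s (cm (Nat.zero_le M) χ a) ≤ ENNReal.ofReal ‖χ‖ * nv s a := by
  unfold nv
  rw [Finset.mul_sum]
  exact Finset.sum_le_sum fun β _ => ns_mul hs χ (a β)

theorem nv_iv {N : ℕ} (s : ℤ) (b : κ → X F N) : nv s (iv b) = nv s b := by
  unfold nv iv
  exact Finset.sum_congr rfl fun β _ => ns_inclV _ s (b β)

/-- nested cut-offs. -/
structure Nest (e : OrthonormalBasis ι ℝ F) (R : ℝ) (P : ℝ) (χ : ℕ → X F (t + 2)) : Prop where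
  bd : ∀ k, ‖χ k‖ ≤ P
  zero : ∀ k x, R ≤ ‖x‖ → ev (χ k) x = 0
  nest : ∀ k < t, ∀ x, ev (χ k) x = 1 ∨ (ev (χ (k + 1)) x = 0 ∧ (∀ i, ev (D (e i) (χ (k + 1))) x = 0) ∧
      ∀ i j, ev (D (e i) (D (e j) (χ (k + 1)))) x = 0)

theorem Nest.mul {e : OrthonormalBasis ι ℝ F} {R P : ℝ} {χ : ℕ → X F (t + 2)}
    (h : Nest e R P χ) {k : ℕ} (hk : k < t) (a : κ → X F 0) :
    cm (Nat.zero_le _) (χ k) (cm (Nat.zero_le _) (χ (k + 1)) a)
      = cm (Nat.zero_le _) (χ (k + 1)) a := by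
  funext β
  refine ev_inj fun x => ?_
  show ev (i0 (χ k) * (i0 (χ (k + 1)) * a β)) x = ev (i0 (χ (k + 1)) * a β) x
  rw [ev_mul, ev_mul, ev_i0, ev_i0]
  rcases h.nest k hk x with h1 | ⟨h1, _⟩
  · rw [h1, one_mul]
  · rw [h1]; ring

/-- constant of one step of the iteration. -/
def cK (ι : Type*) [Fintype ι] (P : ℝ) : ℝ :=
  4 * (P + (2 * π) ^ 2 * ((Fintype.card ι + 1) * 2 * (4 * (2 * π) ^ 2) * P))

theorem cK_nonneg {P : ℝ} (hP : 0 ≤ P) : 0 ≤ cK ι P := by unfold cK; positivity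

theorem cmB_le {c : Cf F ι κ t} {P : ℝ} (hsz : c.sz ≤ 1) (χ : X F (t + 2)) (hχ : ‖χ‖ ≤ P) :
    cmB c χ ≤ (Fintype.card ι + 1) * 2 * (4 * (2 * π) ^ 2) * P := by
  unfold cmB
  have h0 := sz_nonneg c
  have hP : 0 ≤ P := (norm_nonneg χ).trans hχ
  gcongr
  linarith

/-- **the iteration**: decay of an annihilating functional. -/
theorem decay (e : OrthonormalBasis ι ℝ F) (c : Cf F ι κ t)
    (hs : (2 * π) ^ 2 * c.sz ≤ 1 / 4) {R P H : ℝ} (hH : 0 ≤ H) {χ : ℕ → X F (t + 2)}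
    (h : Nest e R P χ) (J : (κ → X F 0) →L[ℂ] ℂ) (hJ : ‖J‖ ≤ H)
    (hann : ∀ φ ∈ Sp F κ R, J (Lop e c φ) = 0) :
    ∀ k ≤ t, ∀ a : κ → X F 0, ENNReal.ofReal ‖J (cm (Nat.zero_le _) (χ k) a)‖
      ≤ ENNReal.ofReal (H * P * (cK ι P) ^ k) * nv (-(k : ℤ)) a := by
  have hP : 0 ≤ P := (norm_nonneg (χ 0)).trans (h.bd 0)
  have hsz1 : c.sz ≤ 1 := by
    have h0 := sz_nonneg c
    have h1 : (1 : ℝ) ≤ (2 * π) ^ 2 := one_le_pow₀ two_pi_ge
    nlinarith
  have hbase : ∀ k, ∀ a : κ → X F 0, ENNReal.ofReal ‖J (cm (Nat.zero_le _) (χ k) a)‖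
      ≤ ENNReal.ofReal (H * P) * ENNReal.ofReal ‖a‖ := fun k a => by
    rw [← ENNReal.ofReal_mul (by positivity)]
    refine ENNReal.ofReal_le_ofReal ?_
    have h1 : ‖cm (Nat.zero_le _) (χ k) a‖ ≤ P * ‖a‖ := by
      refine (pi_norm_le_iff_of_nonneg (by positivity)).2 fun β => ?_
      refine (norm_mul_le _ _).trans ?_
      exact mul_le_mul ((norm_inclV_le _ _).trans (h.bd k)) (norm_le_pi_norm a β) (norm_nonneg _) hP
    calc _ ≤ ‖J‖ * ‖cm (Nat.zero_le _) (χ k) a‖ := J.le_opNorm _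
      _ ≤ H * (P * ‖a‖) := by gcongr
      _ = _ := by ring
  intro k
  induction k with
  | zero =>
    intro _ a
    refine (hbase 0 a).trans ?_
    rw [pow_zero, mul_one]
    gcongr
    simpa using norm_le_nv a
  | succ k ih =>
    intro hk a
    have ih' := ih (by omega)
    set Kk : ℝ≥0∞ := ENNReal.ofReal (H * P * (cK ι P) ^ k) with hKk
    set B : ℝ := (Fintype.card ι + 1) * 2 * (4 * (2 * π) ^ 2) * P with hB
    have hB0 : 0 ≤ B := by positivity
    have key := recursion (fun a : κ → X F 0 => Pop e c (RV a))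
      (fun a => ENNReal.ofReal ‖J (cm (Nat.zero_le _) (χ (k + 1)) a)‖)
      (fun a => nv (-((k + 1 : ℕ) : ℤ)) a) (fun a => ENNReal.ofReal ‖a‖)
      (A := Kk * ENNReal.ofReal (2 * (P + (2 * π) ^ 2 * B)))
      (B := ENNReal.ofReal (H * P)) ENNReal.ofReal_ne_top
      (fun a => ?_) (fun a => ?_) (fun a => hbase (k + 1) a) (fun a => ?_)
      (fun a => ENNReal.ofReal_ne_top) a
    · refine key.trans (le_of_eq ?_)
      congr 1
      rw [hKk, ← ENNReal.ofReal_mul (by have := cK_nonneg (ι := ι) hP; positivity)]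
      rw [show (2 : ℝ≥0∞) = ENNReal.ofReal 2 by norm_num, ← ENNReal.ofReal_mul (by norm_num)]
      congr 1
      rw [pow_succ, cK, ← hB]
      ring
    · -- one step
      rw [cm_split e c (χ (k + 1)) a]
      have hmem : cm (Nat.le_add_left 2 t) (χ (k + 1)) (RV a) ∈ Sp F κ R := fun β x hx => by
        show ev (inclV (Nat.le_add_left 2 t) (χ (k + 1)) * RV a β) x = 0
        rw [ev_mul, ev_inclV, h.zero _ x hx, zero_mul]
      rw [map_add, map_add, map_sub, hann _ hmem, sub_zero]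
      have t1 : ENNReal.ofReal ‖J (iv (cm (Nat.le_add_left 2 t) (χ (k + 1)) (RV a)))‖
          ≤ Kk * (ENNReal.ofReal P * (2 * nv (-((k + 1 : ℕ) : ℤ)) a)) := by
        have e1 : iv (cm (Nat.le_add_left 2 t) (χ (k + 1)) (RV a))
            = cm (Nat.zero_le _) (χ k) (cm (Nat.zero_le _) (χ (k + 1)) (iv (RV a))) := by
          rw [h.mul (by omega)]
          funext β
          show i0 (inclV (Nat.le_add_left 2 t) (χ (k + 1)) * RV a β) = i0 (χ (k + 1)) * i0 (RV a β)
          rw [i0, Sel5_570.inclV_mul, inclV_inclV]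
        rw [e1]
        refine (ih' _).trans ?_
        gcongr
        refine (nv_cm_le _ _ (s := -(k : ℤ)) (by simp; omega)).trans ?_
        gcongr
        · exact h.bd _
        · rw [nv_iv]
          refine le_trans (nv_mono (t := -((k + 1 : ℕ) : ℤ) + 2) (by push_cast; linarith) _)
            (nv_RV_le _ a)
      have t2 : ENNReal.ofReal ‖J (comm e c (χ (k + 1)) (RV a))‖
          ≤ Kk * (ENNReal.ofReal ((2 * π) ^ 2 * B) * (2 * nv (-((k + 1 : ℕ) : ℤ)) a)) := by
        rw [← cm_comm e c (χ k) (χ (k + 1)) (RV a) fun x => (h.nest k (by omega) x).imp id fun h => h.2]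
        refine (ih' _).trans ?_
        gcongr
        refine (nv_comm_le e c _ _ (s := -(k : ℤ)) (by simp; omega)).trans ?_
        have e2 : -(k : ℤ) + 1 = -((k + 1 : ℕ) : ℤ) + 2 := by push_cast; ring
        rw [e2]
        gcongr
        · exact cmB_le hsz1 _ (h.bd _)
        · exact nv_RV_le _ a
      refine (ENNReal.ofReal_le_ofReal (norm_add_le _ _)).trans ?_
      rw [ENNReal.ofReal_add (norm_nonneg _) (norm_nonneg _)]
      refine add_le_add ?_ le_rfl
      refine (ENNReal.ofReal_le_ofReal (norm_add_le _ _)).trans ?_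
      rw [ENNReal.ofReal_add (norm_nonneg _) (norm_nonneg _)]
      refine (add_le_add t1 t2).trans (le_of_eq ?_)
      rw [ENNReal.ofReal_mul (p := 2) (by norm_num), ENNReal.ofReal_add hP (by positivity)]
      rw [show ENNReal.ofReal 2 = (2 : ℝ≥0∞) by norm_num]
      ring
    · -- contraction of the seminorm
      refine (nv_Pop_le e c (RV a) (s := -((k + 1 : ℕ) : ℤ)) (by simp; omega)).trans ?_
      calc _ ≤ ENNReal.ofReal (1 / 4) * (2 * nv (-((k + 1 : ℕ) : ℤ)) a) := by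
            gcongr
            exact nv_RV_le _ a
        _ = 2⁻¹ * nv (-((k + 1 : ℕ) : ℤ)) a := by
            rw [← mul_assoc]
            congr 1
            rw [show (2 : ℝ≥0∞) = ENNReal.ofReal 2 by norm_num, ← ENNReal.ofReal_mul (by norm_num),
              ← ENNReal.ofReal_inv_of_pos (by norm_num)]
            norm_num
    · have h1 := norm_Pop_le e c (RV a)
      have h2 := norm_RV_le a
      have h3 : ‖Pop e c (RV a)‖ ≤ 1 / 2 * ‖a‖ := by
        calc _ ≤ 1 / 4 * (2 * ‖a‖) := h1.trans (by gcongr)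
          _ = _ := by ring
      refine (ENNReal.ofReal_le_ofReal h3).trans (le_of_eq ?_)
      rw [ENNReal.ofReal_mul (by norm_num)]
      congr 1
      rw [show (2 : ℝ≥0∞) = ENNReal.ofReal 2 by norm_num, ← ENNReal.ofReal_inv_of_pos (by norm_num)]
      norm_num

end Crest.Agent.R234.Sel6_570
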