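import Crest.Agent.R234.Sel8_570
import Crest.Agent.R234.Cto_161
import Crest.Agent.R234.Rep2_681
import Crest.Agent.R234.MgDefs5_570

/-!
Row 234, VF-SEL (helper570), file 9: the abstract selection step `S2P`.
-/

set_option autoImplicit false
set_option linter.unusedSectionVars false

open MeasureTheory Complex Filter Real
open scoped ContDiff Topology InnerProductSpace ENNReal NNReal SchwartzMap

noncomputable section

namespace Crest.Agent.R234.Sel6_570

open Crest.Agent.R086.Wie Crest.Agent.R234.Mx1_397 Crest.Agent.R234.Mx2_397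
  Crest.Agent.R234.Mx3_397 Crest.Agent.R234.Mx4_397 Crest.Agent.R234.Mx6_397
  Crest.Agent.R234.Sel5_570
open Crest.Agent.R234.MG_570 (Cf Lop i0)

variable {F : Type} [NormedAddCommGroup F] [InnerProductSpace ℝ F] [FiniteDimensional ℝ F]
  [MeasurableSpace F] [BorelSpace F] {ι κ : Type*} [Fintype ι] [Fintype κ] {t : ℕ}

theorem ev_D_zero {N : ℕ} {s : Set F} (hs : IsOpen s) (a : X F (N + 1))
    (h : ∀ x ∈ s, ev a x = 0) (v : F) : ∀ x ∈ s, ev (D v a) x = 0 := fun x hx => by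
  rw [← fderiv_ev]
  have h1 : ev a =ᶠ[𝓝 x] fun _ => (0 : ℂ) := eventually_of_mem (hs.mem_nhds hx) h
  rw [h1.fderiv_eq]
  simp

theorem ev_Lop_zero (e : OrthonormalBasis ι ℝ F) (c : Cf F ι κ t) (b : κ → X F 2) {s : Set F}
    (hs : IsOpen s) (h : ∀ γ, ∀ x ∈ s, ev (b γ) x = 0) (β : κ) :
    ∀ x ∈ s, ev (Lop e c b β) x = 0 := fun x hx => by
  have h1 : ∀ γ i, ev (D (e i) (b γ)) x = 0 := fun γ i => ev_D_zero hs (b γ) (h γ) (e i) x hx
  have h2 : ∀ γ i j, ev (D (e i) (D (e j) (b γ))) x = 0 := fun γ i j =>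
    ev_D_zero hs _ (ev_D_zero hs (b γ) (h γ) (e j)) (e i) x hx
  rw [ev_Lop]
  simp only [h1, h2, h _ x hx, mul_zero, Finset.sum_const_zero, add_zero]

/-- the `γ`-component of a cut-off functional. -/
def Tc (J : (κ → X F 0) →L[ℂ] ℂ) (χ : X F (t + 2)) (γ : κ) : X F 0 →L[ℂ] ℂ :=
  haveI := Classical.decEq κ
  J.comp ((ContinuousLinearMap.single ℂ (fun _ : κ => X F 0) γ).comp
    (ContinuousLinearMap.mul ℂ (X F 0) (i0 χ)))

open Classical in
theorem Tc_apply (J : (κ → X F 0) →L[ℂ] ℂ) (χ : X F (t + 2)) (γ : κ) (a : X F 0) :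
    Tc J χ γ a = J (cm (Nat.zero_le _) χ (Pi.single γ a)) := by
  show J (Pi.single γ (i0 χ * a)) = _
  congr 1
  funext β
  by_cases h : β = γ
  · subst h
    simp [cm, Pi.single_eq_same]
  · simp [cm, Pi.single_eq_of_ne h]

open Classical in
theorem Tc_congr (J : (κ → X F 0) →L[ℂ] ℂ) (χ : X F (t + 2)) (γ : κ) {a b : X F 0}
    (h : i0 χ * a = i0 χ * b) : Tc J χ γ a = Tc J χ γ b := by
  show J (Pi.single γ (i0 χ * a)) = J (Pi.single γ (i0 χ * b))
  rw [h]

open Classical in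
theorem nv_single (s : ℤ) (γ : κ) (a : X F 0) : nv s (Pi.single γ a : κ → X F 0) = ns s a := by
  unfold nv
  rw [Finset.sum_eq_single γ, Pi.single_eq_same]
  · intro β _ hβ
    rw [Pi.single_eq_of_ne hβ]
    exact ns_zero s
  · intro h
    exact absurd (Finset.mem_univ γ) h

open Classical in
theorem sum_Tc (J : (κ → X F 0) →L[ℂ] ℂ) (χ : X F (t + 2)) (a : κ → X F 0) :
    ∑ γ, Tc J χ γ (a γ) = J (cm (Nat.zero_le _) χ a) := by
  simp_rw [Tc_apply]
  rw [← map_sum]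
  congr 1
  funext β
  rw [Finset.sum_apply]
  rw [Finset.sum_eq_single β]
  · simp [cm, Pi.single_eq_same]
  · intro γ _ hγ
    simp [cm, Pi.single_eq_of_ne (Ne.symm hγ)]
  · intro h
    exact absurd (Finset.mem_univ β) h

/-- `χ a = a` when `a` vanishes where `χ ≠ 1`. -/
theorem cm_eq_self {M : ℕ} (χ : X F M) (a : κ → X F 0)
    (h : ∀ x, ev χ x = 1 ∨ ∀ γ, ev (a γ) x = 0) : cm (Nat.zero_le _) χ a = a := by
  funext β
  refine ev_inj fun x => ?_
  show ev (i0 χ * a β) x = _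
  rw [ev_mul, ev_i0]
  rcases h x with h1 | h1
  · rw [h1, one_mul]
  · rw [h1 β, mul_zero]

/-- radii. -/
def rk (r R : ℝ) (t k : ℕ) : ℝ := R - (R - r) * ((min k t : ℕ) : ℝ) / ((t : ℝ) + 2)

def dk (r R : ℝ) (t : ℕ) : ℝ := (R - r) / ((t : ℝ) + 2)

theorem dk_pos {r R : ℝ} (h : r < R) (t : ℕ) : 0 < dk r R t := by
  unfold dk
  have : 0 < R - r := by linarith
  positivity

theorem rk_le {r R : ℝ} (h : r < R) (t k : ℕ) : rk r R t k ≤ R := by
  unfold rk
  have : 0 < R - r := by linarith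
  have : 0 ≤ (R - r) * ((min k t : ℕ) : ℝ) / ((t : ℝ) + 2) := by positivity
  linarith

theorem lt_rk_sub {r R : ℝ} (h : r < R) (t k : ℕ) : r < rk r R t k - dk r R t := by
  unfold rk dk
  have h1 : 0 < R - r := by linarith
  have h2 : ((min k t : ℕ) : ℝ) ≤ t := by exact_mod_cast min_le_right k t
  have h3 : (0 : ℝ) < (t : ℝ) + 2 := by positivity
  have h4 : (R - r) * ((min k t : ℕ) : ℝ) / ((t : ℝ) + 2) + (R - r) / ((t : ℝ) + 2)
      = (R - r) * (((min k t : ℕ) : ℝ) + 1) / ((t : ℝ) + 2) := by ring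
  have h5 : (R - r) * (((min k t : ℕ) : ℝ) + 1) / ((t : ℝ) + 2) < R - r := by
    rw [div_lt_iff₀ h3]
    nlinarith
  linarith

theorem rk_succ {r R : ℝ} {t k : ℕ} (hk : k < t) : rk r R t (k + 1) = rk r R t k - dk r R t := by
  unfold rk dk
  rw [min_eq_left (by omega : k + 1 ≤ t), min_eq_left hk.le]
  push_cast
  ring

/-- the nested family. -/
theorem exists_nest (t : ℕ) : ∃ C : ℝ, 1 ≤ C ∧ ∃ p : ℕ, ∀ (e : OrthonormalBasis ι ℝ F) (r R : ℝ),
    0 < r → r < R → R ≤ 7 / 4 → ∃ χ : ℕ → X F (t + 2), Nest e R (C / (R - r) ^ p) χ ∧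
      ∀ k x, ‖x‖ ≤ r → ev (χ k) x = 1 := by
  obtain ⟨C, hC1, p, hC⟩ := Cto_161.cX_bound (F := F) (t + 2)
  refine ⟨C * ((t : ℝ) + 2) ^ p, ?_, p, fun e r R hr hrR hR => ?_⟩
  · have h1 : (1 : ℝ) ≤ ((t : ℝ) + 2) ^ p := one_le_pow₀ (by linarith [(Nat.cast_nonneg t : (0:ℝ) ≤ t)])
    nlinarith
  have hd := dk_pos hrR t
  have hs : ∀ k, 0 ≤ rk r R t k - dk r R t := fun k => (hr.trans (lt_rk_sub hrR t k)).le
  have hlt : ∀ k, rk r R t k - dk r R t < rk r R t k := fun k => by linarith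
  have h2 : ∀ k, rk r R t k < 2 := fun k => (rk_le hrR t k).trans_lt (by linarith)
  refine ⟨fun k => Cto_161.cX (t + 2) (hs k) (hlt k) (h2 k), ⟨fun k => ?_, fun k x hx => ?_,
    fun k hk x => ?_⟩, fun k x hx => ?_⟩
  · refine (hC _ _ (hs k) (hlt k) (h2 k)).trans (le_of_eq ?_)
    have h3 : rk r R t k - (rk r R t k - dk r R t) = (R - r) / ((t : ℝ) + 2) := by
      rw [sub_sub_cancel]; rfl
    rw [h3, div_pow, div_div_eq_mul_div]
  · rw [Cto_161.ev_cX, Cto_161.ct_zero (hs k) (hlt k) ((rk_le hrR t k).trans hx), ofReal_zero]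
  · by_cases hx : ‖x‖ ≤ rk r R t k - dk r R t
    · left
      rw [Cto_161.ev_cX, Cto_161.ct_one (hs k) (hlt k) hx, ofReal_one]
    · right
      have hopen : IsOpen {y : F | rk r R t (k + 1) < ‖y‖} :=
        isOpen_lt continuous_const continuous_norm
      have hz : ∀ y ∈ {y : F | rk r R t (k + 1) < ‖y‖},
          ev (Cto_161.cX (F := F) (t + 2) (hs (k + 1)) (hlt (k + 1)) (h2 (k + 1))) y = 0 :=
        fun y hy => by
          rw [Cto_161.ev_cX, Cto_161.ct_zero (hs (k + 1)) (hlt (k + 1)) (le_of_lt hy), ofReal_zero]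
      have hx' : x ∈ {y : F | rk r R t (k + 1) < ‖y‖} := by
        show rk r R t (k + 1) < ‖x‖
        rw [rk_succ hk]
        exact not_le.1 hx
      exact ⟨hz x hx', fun i => ev_D_zero hopen _ hz (e i) x hx', fun i j =>
        ev_D_zero hopen _ (ev_D_zero hopen _ hz (e j)) (e i) x hx'⟩
  · rw [Cto_161.ev_cX, Cto_161.ct_one (hs k) (hlt k) (hx.trans (lt_rk_sub hrR t k).le), ofReal_one]

end Crest.Agent.R234.Sel6_570
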