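import Mathlib
import Crest.Agent.R234.Sev3_201

/-!
# R234 / Sev5_201 : real-variable counts for the levels of Core2 (#6582)

* `shift_sum_le` : `∑_{a ≤ k < a + n} (f (k + p) - f k) ≤ p (L1 - L0)` for `L0 ≤ f ≤ L1`;
* `drop_count` : few `k` with `c ≤ f (k + p) - f k` if `-A ≤ f (k + p) - f k` always;
* `level_count` : the two exceptions of `Good_k` in one block of levels.
-/

namespace Crest.Agent.R234.Sev_201

open Set

theorem shift_sum_le {f : ℕ → ℝ} {L0 L1 : ℝ} (a n p : ℕ)
    (h0 : ∀ k, a ≤ k → k < a + n + p → L0 ≤ f k) (h1 : ∀ k, a ≤ k → k < a + n + p → f k ≤ L1)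
    (hL : L0 ≤ L1) :
    ∑ k ∈ Finset.range n, (f (a + k + p) - f (a + k)) ≤ p * (L1 - L0) := by
  rcases Nat.eq_zero_or_pos n with rfl | hn
  · simp only [Finset.range_zero, Finset.sum_empty]
    exact mul_nonneg (Nat.cast_nonneg p) (by linarith)
  have key : ∀ i, i ≤ p → ∑ k ∈ Finset.range n, (f (a + k + i) - f (a + k)) ≤ i * (L1 - L0) := by
    intro i
    induction i with
    | zero => intro _; simp
    | succ i ih =>
      intro hi
      have e1 : ∑ k ∈ Finset.range n, (f (a + k + (i + 1)) - f (a + k))
          = ∑ k ∈ Finset.range n, (f (a + k + i) - f (a + k))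
            + ∑ k ∈ Finset.range n, (f (a + (k + 1) + i) - f (a + k + i)) := by
        rw [← Finset.sum_add_distrib]
        apply Finset.sum_congr rfl
        intro k _
        have : a + k + (i + 1) = a + (k + 1) + i := by ring
        rw [this]
        ring
      have e2 : ∑ k ∈ Finset.range n, (f (a + (k + 1) + i) - f (a + k + i))
          = f (a + n + i) - f (a + 0 + i) := Finset.sum_range_sub (fun k => f (a + k + i)) n
      rw [e1, e2]
      have h2 := h1 (a + n + i) (by lia) (by lia)
      have h3 := h0 (a + 0 + i) (by lia) (by lia)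
      have h4 := ih (by lia)
      push_cast
      linarith
  exact key p le_rfl

open Classical in
theorem drop_count {f : ℕ → ℝ} {L0 L1 A c : ℝ} (a n p : ℕ)
    (h0 : ∀ k, a ≤ k → k < a + n + p → L0 ≤ f k) (h1 : ∀ k, a ≤ k → k < a + n + p → f k ≤ L1)
    (hL : L0 ≤ L1) (hA : 0 ≤ A) (hc : 0 < c)
    (hlow : ∀ k, a ≤ k → k < a + n → -A ≤ f (k + p) - f k) :
    (((Finset.range n).filter fun k => c ≤ f (a + k + p) - f (a + k)).card : ℝ)
      ≤ (p * (L1 - L0) + A * n) / c := by
  rw [le_div_iff₀ hc]
  have h2 := shift_sum_le a n p h0 h1 hL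
  set B := (Finset.range n).filter fun k => c ≤ f (a + k + p) - f (a + k) with hB
  have h3 : ∑ k ∈ Finset.range n, (f (a + k + p) - f (a + k))
      = ∑ k ∈ B, (f (a + k + p) - f (a + k))
        + ∑ k ∈ (Finset.range n).filter (fun k => ¬ c ≤ f (a + k + p) - f (a + k)),
          (f (a + k + p) - f (a + k)) := by
    rw [hB, Finset.sum_filter_add_sum_filter_not]
  have h4 : (B.card : ℝ) * c ≤ ∑ k ∈ B, (f (a + k + p) - f (a + k)) := by
    rw [← nsmul_eq_mul, ← Finset.sum_const]
    exact Finset.sum_le_sum fun k hk => (Finset.mem_filter.1 hk).2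
  have h5 : -(A * n) ≤ ∑ k ∈ (Finset.range n).filter
      (fun k => ¬ c ≤ f (a + k + p) - f (a + k)), (f (a + k + p) - f (a + k)) := by
    have h6 : ∑ _k ∈ (Finset.range n).filter (fun k => ¬ c ≤ f (a + k + p) - f (a + k)), (-A)
        ≤ ∑ k ∈ (Finset.range n).filter (fun k => ¬ c ≤ f (a + k + p) - f (a + k)),
          (f (a + k + p) - f (a + k)) :=
      Finset.sum_le_sum fun k hk => hlow (a + k) (by lia)
        (by have := Finset.mem_range.1 (Finset.mem_filter.1 hk).1; lia)
    rw [Finset.sum_const, nsmul_eq_mul] at h6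
    refine le_trans ?_ h6
    have h7 : (((Finset.range n).filter
        (fun k => ¬ c ≤ f (a + k + p) - f (a + k))).card : ℝ) ≤ n := by
      have := Finset.card_filter_le (Finset.range n) fun k => ¬ c ≤ f (a + k + p) - f (a + k)
      rw [Finset.card_range] at this
      exact_mod_cast this
    nlinarith
  linarith

open Classical in
/-- the exceptional levels of one block at one centre: `f = log e` (drops at most `A` over `p`
levels), `u = log U` monotone. -/
theorem level_count {f u : ℕ → ℝ} {L0 L1 A c c' H : ℝ} (a n p : ℕ)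
    (h0 : ∀ k, a ≤ k → k < a + n + p → L0 ≤ f k) (h1 : ∀ k, a ≤ k → k < a + n + p → f k ≤ L1)
    (hL : L0 ≤ L1) (hA : 0 ≤ A) (hc : 0 < c) (hc' : 0 < c')
    (hlow : ∀ k, a ≤ k → k < a + n → -A ≤ f (k + p) - f k)
    (hu : ∀ k, a ≤ k → k < a + n + p → u k ≤ u (k + 1)) (hH : u (a + n + p) - u a ≤ H) :
    (((Finset.range n).filter fun k => ¬ (f (a + k + p) - f (a + k) < c ∧
        u (a + k + p) - u (a + k) < c')).card : ℝ)
      ≤ (p * (L1 - L0) / c + p * H / c') + A / c * n := by
  have hsub : ((Finset.range n).filter fun k => ¬ (f (a + k + p) - f (a + k) < c ∧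
        u (a + k + p) - u (a + k) < c'))
      ⊆ ((Finset.range n).filter fun k => c ≤ f (a + k + p) - f (a + k))
        ∪ ((Finset.range n).filter fun k => c' ≤ u (a + k + p) - u (a + k)) := by
    intro k hk
    rw [Finset.mem_filter] at hk
    rw [Finset.mem_union, Finset.mem_filter, Finset.mem_filter]
    by_cases h : f (a + k + p) - f (a + k) < c
    · right
      refine ⟨hk.1, ?_⟩
      by_contra h'
      exact hk.2 ⟨h, not_le.1 h'⟩
    · exact Or.inl ⟨hk.1, not_lt.1 h⟩
  have hcard := (Finset.card_le_card hsub).trans (Finset.card_union_le _ _)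
  have hcr : (((Finset.range n).filter fun k => ¬ (f (a + k + p) - f (a + k) < c ∧
        u (a + k + p) - u (a + k) < c')).card : ℝ)
      ≤ (((Finset.range n).filter fun k => c ≤ f (a + k + p) - f (a + k)).card : ℝ)
        + (((Finset.range n).filter fun k => c' ≤ u (a + k + p) - u (a + k)).card : ℝ) := by
    exact_mod_cast hcard
  have hd := drop_count a n p h0 h1 hL hA hc hlow
  -- the jumps of `u`
  have hj : (((Finset.range n).filter fun k => c' ≤ u (a + k + p) - u (a + k)).card : ℝ)
      ≤ p * H / c' := by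
    -- truncation of `u` to a monotone sequence
    set v : ℕ → ℝ := fun k => u (a + min k (n + p)) with hv
    have hvm : Monotone v := by
      apply monotone_nat_of_le_succ
      intro k
      simp only [hv]
      rcases Nat.lt_or_ge k (n + p) with h | h
      · rw [min_eq_left h.le, min_eq_left h, ← add_assoc]
        exact hu (a + k) (by lia) (by lia)
      · rw [min_eq_right h, min_eq_right (h.trans (Nat.le_succ k))]
    have h2 := jump_count hvm n p hc'
    have h3 : ((Finset.range n).filter fun k => c' ≤ u (a + k + p) - u (a + k))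
        = ((Finset.range n).filter fun k => c' ≤ v (k + p) - v k) := by
      apply Finset.filter_congr
      intro k hk
      have hk' := Finset.mem_range.1 hk
      simp only [hv]
      rw [min_eq_left (by lia : k + p ≤ n + p), min_eq_left (by lia : k ≤ n + p), ← add_assoc]
    rw [h3]
    refine h2.trans ?_
    apply div_le_div_of_nonneg_right _ hc'.le
    apply mul_le_mul_of_nonneg_left _ (Nat.cast_nonneg p)
    simp only [hv]
    rw [min_self, Nat.zero_min, ← add_assoc, add_zero]
    exact hH
  refine hcr.trans ((add_le_add hd hj).trans (le_of_eq ?_))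
  field_simp
  ring

end Crest.Agent.R234.Sev_201
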