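import Crest.Agent.R234.Shp9_98
import Crest.Agent.R234.Ins1_387
import Crest.Agent.R234.Core4_809

/-!
# Row 234 (helper98): `tb ≤ C D`, `mb ≤ C` and the field `ht` in the class `Cls`
-/

set_option autoImplicit false

open MeasureTheory Set Function Filter Topology Metric
open Crest.GeometryTopology.Submanifold
open Crest.Agent.R234.Vf_884 Crest.Agent.R234.Ar_870 Crest.Agent.R234.Cy_870
open Crest.Agent.R234.Asl_214 Crest.Agent.R234.Avg_387 Crest.Agent.R234.Core_809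
open scoped ENNReal NNReal InnerProductSpace

noncomputable section

namespace Crest.Agent.R234.Shp_98

/-- `tb ≤ C D`, `mb ≤ C` in the class -/
theorem tb_mb_cls (m Q : ℕ) (hm : 1 ≤ m) : ∃ C : ℝ, 1 ≤ C ∧ ∀ {n k : ℕ}
    {π : Euc k →L[ℝ] Euc m} {κ : Euc k →L[ℝ] Euc n} {U : Set (Euc k)} {Dd : VarifoldData m k}
    {δ D : ℝ}, Cls Q δ D π κ U Dd → 0 < D → D < 1 → 0 ≤ δ → δ ≤ 1 / 16 →
    ∀ y ∈ closedBall (0 : Euc m) 3, ∀ l : ℝ, √D ≤ Real.exp l → Real.exp l ≤ 1 / 4 →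
      tb (part π κ Dd) π y l ≤ C * D ∧ mb (part π κ Dd) π y l ≤ C := by
  obtain ⟨C, hC, h⟩ := tb_mb_le m (Ins_387.C0_nonneg m Q)
  refine ⟨C, hC, ?_⟩
  intro n k π κ U Dd δ D hc hD hD1 hδ hδ1 y hy l hl hl4
  obtain ⟨h1, h2⟩ := h (Ins_387.cylAS hc hD1) (fun z r hr _ => Ins_387.ubd hc hm z hr) hδ hδ1 y hy
    l hl hl4
  rw [Real.sq_sqrt hD.le] at h1
  exact ⟨h1, h2⟩

/-- a constant of the profile `(1 - t)₊⁴` -/
theorem exists_bd0 : ∃ KB : ℝ, 0 ≤ KB ∧ Bd w0.θ' w2 KB := exists_Bd prof0.k1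

/-- **the fields `htb`, `hmb`, `ht` of `Fld_387.Da.AtAS`** in the class, with `h₀ = √D`,
`tM = C D`, `mM = C`, `κ' = exp (- log Λ)`, `q1 = Λ² D`, for `Λ` large; `e^a ≥ cw √D Λ^b` -/
theorem window_cls (m Q : ℕ) (hm : 1 ≤ m) : ∃ C : ℝ, 1 ≤ C ∧ ∀ (KB : ℝ), 0 ≤ KB →
    ∀ a b c' cw c : ℝ, 1 + a + 2 * c' + 4 < 4 * b → 0 < b → 0 < cw → 0 < c →
    ∃ Λ₀ : ℝ, 1 ≤ Λ₀ ∧ ∀ {n k : ℕ} {π : Euc k →L[ℝ] Euc m} {κ : Euc k →L[ℝ] Euc n}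
    {U : Set (Euc k)} {Dd : VarifoldData m k} {δ D : ℝ}, Cls Q δ D π κ U Dd → 0 < D → D < 1 →
    Λ₀ ≤ Lam D → 0 ≤ δ → δ ≤ 1 / 16 → ∀ (τ : ℝ), 0 < τ → ∀ l₀ T : ℝ,
    cw * (√D * Lam D ^ b) ≤ Real.exp l₀ → Real.exp T ≤ 1 / 4 → ∀ x : Euc m,
    ‖x‖ + Real.exp T + 2 * τ ≤ 1 →
      (∀ l ∈ Icc l₀ T, ∀ y ∈ closedBall x τ, tb (part π κ Dd) π y l ≤ C * D) ∧
      (∀ l ∈ Icc l₀ T, ∀ y ∈ closedBall x τ, mb (part π κ Dd) π y l ≤ C) ∧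
      ∀ δ' D₀ : ℝ, 7 * Lam D ^ (-a) ≤ δ' → c * (Lam D ^ (-c') * D) ≤ D₀ →
        ∀ q : ℝ, q ^ 2 ≤ Lam D ^ (2 : ℝ) * D → ∀ l ∈ Icc l₀ T,
        4 * tw KB δ √D (∫ z, dd m τ z) q (C * D) C l ^ 2 ≤
          Real.exp (-Real.log (Lam D)) * δ' * D₀ ^ 2 := by
  obtain ⟨C, hC, h⟩ := tb_mb_cls m Q hm
  refine ⟨C, hC, ?_⟩
  intro KB hKB a b c' cw c hab hb hcw hc
  have hM : 0 ≤ Md m := (Md_pos (by lia)).le
  obtain ⟨Λ₁, hΛ₁, h1⟩ := ht_num2 hab hcw hKB hM (by linarith : 0 ≤ C) hc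
  obtain ⟨Λ₂, h2⟩ := Filter.eventually_atTop.1
    ((tendsto_rpow_atTop hb).eventually_ge_atTop (1 / cw))
  refine ⟨max Λ₁ (max Λ₂ 1), (le_max_right _ _).trans (le_max_right _ _), ?_⟩
  intro n k π κ U Dd δ D hcl hD hD1 hΛ hδ hδ1 τ hτ l₀ T hl₀ hT x hx
  have hΛ1 : Λ₁ ≤ Lam D := (le_max_left _ _).trans hΛ
  have hΛ2 : Λ₂ ≤ Lam D := ((le_max_left _ _).trans (le_max_right _ _)).trans hΛ
  have hsq : √D ≤ Real.exp l₀ := by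
    refine le_trans ?_ hl₀
    have h3 := h2 _ hΛ2
    have h4 : 1 ≤ cw * Lam D ^ b := by
      have := mul_le_mul_of_nonneg_left h3 hcw.le
      rwa [mul_one_div_cancel hcw.ne'] at this
    have h5 := mul_le_mul_of_nonneg_left h4 (Real.sqrt_nonneg D)
    linarith
  have hin : ∀ l ∈ Icc l₀ T, ∀ y ∈ closedBall x τ,
      tb (part π κ Dd) π y l ≤ C * D ∧ mb (part π κ Dd) π y l ≤ C := by
    intro l hl y hy
    refine h hcl hD hD1 hδ hδ1 y ?_ l (hsq.trans (Real.exp_le_exp.2 hl.1))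
      ((Real.exp_le_exp.2 hl.2).trans hT)
    rw [mem_closedBall_zero_iff]
    rw [mem_closedBall_iff_norm] at hy
    have h3 := norm_add_le (y - x) x
    rw [sub_add_cancel] at h3
    have h4 := Real.exp_pos T
    linarith
  refine ⟨fun l hl y hy => (hin l hl y hy).1, fun l hl y hy => (hin l hl y hy).2, ?_⟩
  intro δ' D₀ hδ' hD₀ q hq l hl
  rw [integral_dd hτ]
  exact h1 D hD hΛ1 δ δ' D₀ q l hδ (by linarith) hδ' hq hD₀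
    (hl₀.trans (Real.exp_le_exp.2 hl.1))

end Crest.Agent.R234.Shp_98
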