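import Crest.Agent.R234.Asl7_214

/-!
# Row 234 (helper98): weighted bounds of the first variation errors

The errors of (W1) and (W3) for almost stationary varifolds, with the weights of the profile
(needed for the absorption of Shp1_98):

* `abs_X1_le` : `|s^{2-m} FV X1| ≤ 2 δ (e + et) + 2 δ (y + yt)`,
* `abs_X3_le` : `|4 s^{-m} FV X3| ≤ 2 δ √(IF et) + tt`.
-/

set_option autoImplicit false

open MeasureTheory Set Function Filter Topology
open Crest.GeometryTopology.Submanifold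
open Crest.Agent.R234.Vf_884 Crest.Agent.R234.Ar_870 Crest.Agent.R234.Cy_870
open Crest.Agent.R234.Asl_214
open scoped ENNReal NNReal InnerProductSpace

noncomputable section

namespace Crest.Agent.R234.Shp2_98

/-- Cauchy-Schwarz in the form `∫ √(u v) ≤ √(∫ u ∫ v)` -/
theorem integral_sqrt_mul_le {α : Type*} [MeasurableSpace α] {μ : Measure α} {u v : α → ℝ}
    (hu : Integrable u μ) (hv : Integrable v μ) (hu0 : 0 ≤ᵐ[μ] u) (hv0 : 0 ≤ᵐ[μ] v) :
    ∫ a, √(u a * v a) ∂μ ≤ √((∫ a, u a ∂μ) * ∫ a, v a ∂μ) := by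
  have hi : Integrable (fun a => √(u a * v a)) μ := by
    refine (hu.add hv).mono' ?_ ?_
    · exact Real.continuous_sqrt.comp_aestronglyMeasurable
        (hu.aestronglyMeasurable.mul hv.aestronglyMeasurable)
    · filter_upwards [hu0, hv0] with a h1 h2
      simp only [Pi.zero_apply] at h1 h2
      rw [Real.norm_eq_abs, abs_of_nonneg (Real.sqrt_nonneg _), Pi.add_apply]
      rw [Real.sqrt_le_left (add_nonneg h1 h2)]
      nlinarith [mul_nonneg h1 h2]
  set I := ∫ a, √(u a * v a) ∂μ with hI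
  have hI0 : 0 ≤ I := integral_nonneg fun a => Real.sqrt_nonneg _
  have key : ∀ c : ℝ, 0 ≤ (∫ a, u a ∂μ) * (c * c) + (-2 * I) * c + ∫ a, v a ∂μ := by
    intro c
    have e1 : ∫ a, ((c * c) * u a + (-2 * c) * √(u a * v a) + v a) ∂μ =
        (∫ a, u a ∂μ) * (c * c) + (-2 * I) * c + ∫ a, v a ∂μ := by
      have e2 : ∫ a, ((c * c) * u a + (-2 * c) * √(u a * v a) + v a) ∂μ =
          (∫ a, ((c * c) * u a + (-2 * c) * √(u a * v a)) ∂μ) + ∫ a, v a ∂μ :=
        integral_add ((hu.const_mul _).add (hi.const_mul _)) hv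
      have e3 : ∫ a, ((c * c) * u a + (-2 * c) * √(u a * v a)) ∂μ =
          (∫ a, (c * c) * u a ∂μ) + ∫ a, (-2 * c) * √(u a * v a) ∂μ :=
        integral_add (hu.const_mul _) (hi.const_mul _)
      rw [e2, e3, integral_const_mul, integral_const_mul, ← hI]
      ring
    rw [← e1]
    refine integral_nonneg_of_ae ?_
    filter_upwards [hu0, hv0] with a h1 h2
    simp only [Pi.zero_apply] at h1 h2 ⊢
    rw [Real.sqrt_mul h1]
    have h3 : √(u a) ^ 2 = u a := Real.sq_sqrt h1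
    have h4 : √(v a) ^ 2 = v a := Real.sq_sqrt h2
    nlinarith [sq_nonneg (c * √(u a) - √(v a))]
  have hd := discrim_le_zero key
  unfold discrim at hd
  have h3 : I ^ 2 ≤ (∫ a, u a ∂μ) * ∫ a, v a ∂μ := by nlinarith
  calc I = √(I ^ 2) := (Real.sqrt_sq hI0).symm
    _ ≤ _ := Real.sqrt_le_sqrt h3

variable {m n k : ℕ} {π : Euc k →L[ℝ] Euc m} {κ : Euc k →L[ℝ] Euc n} {δ : ℝ}
  {x₀ x : Euc m} {R h₀ : ℝ} {W : Measure (Euc k × L k)} {g g1 g2 : ℝ → ℝ}

/-- `s^{2-m} ∫ c(p) f(t) dW`, `t = r² / s²`. -/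
def kk (W : Measure (Euc k × L k)) (π : Euc k →L[ℝ] Euc m) (x : Euc m)
    (c : Euc k × L k → ℝ) (f : ℝ → ℝ) (l : ℝ) : ℝ :=
  Real.exp ((2 - m) * l) * ∫ p, c p * f (Real.exp (-2 * l) * ‖π p.1 - x‖ ^ 2) ∂W

/-- the kernel of the derivative: `-2 t g'(t)` -/
def k2 (g1 : ℝ → ℝ) (t : ℝ) : ℝ := -2 * (t * g1 t)

/-- height part `s^{2-m} ∫ |y|² f(t) dW` -/
def yk (W : Measure (Euc k × L k)) (π : Euc k →L[ℝ] Euc m) (κ : Euc k →L[ℝ] Euc n) (x : Euc m)
    (f : ℝ → ℝ) (l : ℝ) : ℝ :=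
  kk W π x (fun p => ‖κ p.1‖ ^ 2) f l

theorem ee_eq_kk (W : Measure (Euc k × L k)) (π : Euc k →L[ℝ] Euc m) (x : Euc m) (g : ℝ → ℝ)
    (l : ℝ) : ee W π x g l = kk W π x (fun p => tl π p.2) g l := rfl

theorem et_eq_kk (W : Measure (Euc k × L k)) (π : Euc k →L[ℝ] Euc m) (x : Euc m) (g1 : ℝ → ℝ)
    (l : ℝ) : et W π x g1 l = kk W π x (fun p => tl π p.2) (k2 g1) l := rfl

theorem k2_nonneg (hg : Prof g g1 g2) {t : ℝ} (ht : 0 ≤ t) : 0 ≤ k2 g1 t := by
  unfold k2
  have := mul_nonneg ht (neg_nonneg.2 (hg.anti t ht))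
  linarith

theorem continuous_k2 (hg : Ker g g1) : Continuous (k2 g1) := by
  have := hg.cont
  unfold k2
  fun_prop

theorem continuous_sd (π : Euc k →L[ℝ] Euc m) (x : Euc m) (l : ℝ) :
    Continuous fun p : Euc k × L k => Real.exp (-2 * l) * ‖π p.1 - x‖ ^ 2 :=
  continuous_const.mul
    (((π.continuous.comp continuous_fst).sub continuous_const).norm.pow 2)

/-- weighted bound of the derivative of the radial field -/
theorem norm_dR_le2 (hg : Prof g g1 g2) (l : ℝ) (x v : Euc m) :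
    ‖dR g g1 l x v‖ ≤ g (Real.exp (-2 * l) * ‖v - x‖ ^ 2) +
      k2 g1 (Real.exp (-2 * l) * ‖v - x‖ ^ 2) := by
  set t := Real.exp (-2 * l) * ‖v - x‖ ^ 2 with ht
  have ht0 : 0 ≤ t := scaled_nonneg l x v
  have hg0 : 0 ≤ g t := Prof.nonneg hg _ ht0
  have h1 : ‖g t • ContinuousLinearMap.id ℝ (Euc m)‖ ≤ g t := by
    rw [norm_smul, Real.norm_eq_abs, abs_of_nonneg hg0]
    exact mul_le_of_le_one_right hg0 ContinuousLinearMap.norm_id_le
  have h2 : ‖(innerSL ℝ ((2 * Real.exp (-2 * l) * g1 t) • (v - x))).smulRight (v - x)‖ ≤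
      k2 g1 t := by
    rw [ContinuousLinearMap.norm_smulRight_apply, innerSL_apply_norm, norm_smul,
      Real.norm_eq_abs, abs_mul, abs_of_nonneg (by positivity : (0:ℝ) ≤ 2 * Real.exp (-2 * l)),
      abs_of_nonpos (hg.anti t ht0)]
    apply le_of_eq
    unfold k2
    rw [ht]
    ring
  unfold dR
  rw [← ht]
  exact (norm_add_le _ _).trans (add_le_add h1 h2)

theorem norm_R_le2 (hg : Prof g g1 g2) (l : ℝ) (x v : Euc m) :
    ‖g (Real.exp (-2 * l) * ‖v - x‖ ^ 2) • (v - x)‖ ≤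
      g (Real.exp (-2 * l) * ‖v - x‖ ^ 2) * Real.exp l := by
  have ht0 := scaled_nonneg l x v
  rw [norm_smul, Real.norm_eq_abs, abs_of_nonneg (Prof.nonneg hg _ ht0)]
  rcases le_or_gt (Real.exp l) ‖v - x‖ with h1 | h1
  · rw [hg.k0.zero _ (Ker.one_le_of x h1), zero_mul, zero_mul]
  · exact mul_le_mul_of_nonneg_left h1.le (Prof.nonneg hg _ ht0)

/-- a field vanishing over `‖v - x‖ ≥ s` vanishes over `‖v - x₀‖ ≥ R` -/
theorem far {s : ℝ} (hs : ‖x - x₀‖ + s ≤ R) {v : Euc m} (hv : R ≤ ‖v - x₀‖) : s ≤ ‖v - x‖ := by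
  have h1 : ‖v - x₀‖ ≤ ‖v - x‖ + ‖x - x₀‖ := norm_sub_le_norm_sub_add_norm_sub v x x₀
  linarith

/-- **(a)** the error of (W1), weighted -/
theorem abs_X1_le (h : CylAS W π κ x₀ R h₀ δ) (h0 : 0 ≤ δ) (hg : Prof g g1 g2) {l : ℝ}
    (hl : ‖x - x₀‖ + Real.exp l ≤ R) (hl0 : l ≤ 0) :
    |Real.exp ((2 - m) * l) * FV W (X1 π x g l)| ≤
      2 * δ * (ee W π x g l + et W π x g1 l) +
        2 * δ * (yk W π κ x g l + yk W π κ x (k2 g1) l) := by
  have c0 := continuous_sd (k := k) π x l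
  have cg : Continuous fun p : Euc k × L k => g (Real.exp (-2 * l) * ‖π p.1 - x‖ ^ 2) :=
    hg.k0.continuous.comp c0
  have ck : Continuous fun p : Euc k × L k => k2 g1 (Real.exp (-2 * l) * ‖π p.1 - x‖ ^ 2) :=
    (continuous_k2 hg.k0).comp c0
  have ct := CylAS.continuous_tl (k := k) π
  have cy : Continuous fun p : Euc k × L k => ‖κ p.1‖ ^ 2 :=
    (κ.continuous.comp continuous_fst).norm.pow 2
  have h1 := h.fv_hor h0 (f := fun _ => (1:ℝ)) (df := fun _ => 0)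
    (fun y => hasFDerivAt_const _ _) continuous_const (hasFDerivAt_R hg.k0 l x)
    (continuous_dR hg.k0 l x) (fun v hv => by
      rw [hg.k0.zero _ (Ker.one_le_of x (far hl hv)), zero_smul])
  have i1 : Integrable (fun p : Euc k × L k =>
      tl π p.2 * g (Real.exp (-2 * l) * ‖π p.1 - x‖ ^ 2)) W :=
    h.integrable_continuous (ct.mul cg)
  have i2 : Integrable (fun p : Euc k × L k =>
      tl π p.2 * k2 g1 (Real.exp (-2 * l) * ‖π p.1 - x‖ ^ 2)) W :=
    h.integrable_continuous (ct.mul ck)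
  have i3 : Integrable (fun p : Euc k × L k =>
      ‖κ p.1‖ ^ 2 * g (Real.exp (-2 * l) * ‖π p.1 - x‖ ^ 2)) W :=
    h.integrable_continuous (cy.mul cg)
  have i4 : Integrable (fun p : Euc k × L k =>
      ‖κ p.1‖ ^ 2 * k2 g1 (Real.exp (-2 * l) * ‖π p.1 - x‖ ^ 2)) W :=
    h.integrable_continuous (cy.mul ck)
  have h2 : ∫ p, (δ * (tl π p.2 + ‖κ p.1‖ ^ 2) * (|(fun _ : Euc n => (1:ℝ)) (κ p.1)| *
        (‖dR g g1 l x (π p.1)‖ + ‖g (Real.exp (-2 * l) * ‖π p.1 - x‖ ^ 2) • (π p.1 - x)‖)) +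
        δ * (√(tl π p.2) + ‖κ p.1‖) * (‖(fun _ : Euc n => (0 : Euc n →L[ℝ] ℝ)) (κ p.1)‖ *
          ‖g (Real.exp (-2 * l) * ‖π p.1 - x‖ ^ 2) • (π p.1 - x)‖)) ∂W ≤
      2 * δ * ((∫ p, tl π p.2 * g (Real.exp (-2 * l) * ‖π p.1 - x‖ ^ 2) ∂W) +
        ∫ p, tl π p.2 * k2 g1 (Real.exp (-2 * l) * ‖π p.1 - x‖ ^ 2) ∂W) +
      2 * δ * ((∫ p, ‖κ p.1‖ ^ 2 * g (Real.exp (-2 * l) * ‖π p.1 - x‖ ^ 2) ∂W) +
        ∫ p, ‖κ p.1‖ ^ 2 * k2 g1 (Real.exp (-2 * l) * ‖π p.1 - x‖ ^ 2) ∂W) := by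
    have e1 : 2 * δ * ((∫ p, tl π p.2 * g (Real.exp (-2 * l) * ‖π p.1 - x‖ ^ 2) ∂W) +
        ∫ p, tl π p.2 * k2 g1 (Real.exp (-2 * l) * ‖π p.1 - x‖ ^ 2) ∂W) +
      2 * δ * ((∫ p, ‖κ p.1‖ ^ 2 * g (Real.exp (-2 * l) * ‖π p.1 - x‖ ^ 2) ∂W) +
        ∫ p, ‖κ p.1‖ ^ 2 * k2 g1 (Real.exp (-2 * l) * ‖π p.1 - x‖ ^ 2) ∂W) =
      ∫ p, (2 * δ * (tl π p.2 * g (Real.exp (-2 * l) * ‖π p.1 - x‖ ^ 2) +
          tl π p.2 * k2 g1 (Real.exp (-2 * l) * ‖π p.1 - x‖ ^ 2)) +
        2 * δ * (‖κ p.1‖ ^ 2 * g (Real.exp (-2 * l) * ‖π p.1 - x‖ ^ 2) +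
          ‖κ p.1‖ ^ 2 * k2 g1 (Real.exp (-2 * l) * ‖π p.1 - x‖ ^ 2))) ∂W := by
      have j1 := integral_add ((i1.add i2).const_mul (2 * δ)) ((i3.add i4).const_mul (2 * δ))
      simp only [Pi.add_apply] at j1
      rw [j1, integral_const_mul, integral_const_mul, integral_add i1 i2, integral_add i3 i4]
    rw [e1]
    refine integral_mono_ae ?_ (((i1.add i2).const_mul _).add ((i3.add i4).const_mul _)) ?_
    · refine h.integrable_continuous ?_
      have c4 : Continuous fun p : Euc k × L k => ‖dR g g1 l x (π p.1)‖ :=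
        ((continuous_dR hg.k0 l x).comp (π.continuous.comp continuous_fst)).norm
      have c5 : Continuous fun p : Euc k × L k =>
          ‖g (Real.exp (-2 * l) * ‖π p.1 - x‖ ^ 2) • (π p.1 - x)‖ :=
        (cg.smul ((π.continuous.comp continuous_fst).sub continuous_const)).norm
      have c2 : Continuous fun p : Euc k × L k => ‖κ p.1‖ :=
        (κ.continuous.comp continuous_fst).norm
      exact ((continuous_const.mul (ct.add cy)).mul (continuous_const.mul (c4.add c5))).add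
        ((continuous_const.mul (ct.sqrt.add c2)).mul (continuous_const.mul c5))
    · filter_upwards [h.tl_nonneg'] with p ht
      have a1 := norm_dR_le2 hg l x (π p.1)
      have a2 := norm_R_le2 hg l x (π p.1)
      have a3 : 0 ≤ g (Real.exp (-2 * l) * ‖π p.1 - x‖ ^ 2) := Prof.nonneg hg _ (scaled_nonneg l x _)
      have a4 : 0 ≤ k2 g1 (Real.exp (-2 * l) * ‖π p.1 - x‖ ^ 2) :=
        k2_nonneg hg (scaled_nonneg l x _)
      have a5 : g (Real.exp (-2 * l) * ‖π p.1 - x‖ ^ 2) * Real.exp l ≤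
          g (Real.exp (-2 * l) * ‖π p.1 - x‖ ^ 2) :=
        mul_le_of_le_one_right a3 (Real.exp_le_one_iff.2 hl0)
      simp only [abs_one, one_mul, norm_zero, zero_mul, mul_zero, add_zero]
      have a6 : ‖dR g g1 l x (π p.1)‖ + ‖g (Real.exp (-2 * l) * ‖π p.1 - x‖ ^ 2) • (π p.1 - x)‖ ≤
          2 * (g (Real.exp (-2 * l) * ‖π p.1 - x‖ ^ 2) +
            k2 g1 (Real.exp (-2 * l) * ‖π p.1 - x‖ ^ 2)) := by linarith
      have a7 : 0 ≤ δ * (tl π p.2 + ‖κ p.1‖ ^ 2) := by positivity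
      have a8 := mul_le_mul_of_nonneg_left a6 a7
      refine a8.trans (le_of_eq ?_)
      ring
  have h3 := h1.trans h2
  rw [abs_mul, abs_of_pos (Real.exp_pos _)]
  have h4 := mul_le_mul_of_nonneg_left h3 (Real.exp_pos ((2 - m) * l)).le
  refine h4.trans (le_of_eq ?_)
  rw [ee_eq_kk, et_eq_kk]
  simp only [yk, kk]
  ring

/-- **(b)** the error of (W3), weighted -/
theorem abs_X3_le (h : CylAS W π κ x₀ R h₀ δ) (h0 : 0 ≤ δ) (hh : 0 ≤ h₀) (hg : Prof g g1 g2)
    {K : ℝ} (hK : Bd g1 g2 K) {F : Euc n → ℝ} {dF : Euc n → Euc n} {H : Euc n → L n}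
    (hF : Well F dF H) {F₀ : ℝ} (hF₀ : ∀ y, ‖y‖ ≤ h₀ → F y ≤ F₀) {l : ℝ}
    (hl : ‖x - x₀‖ + Real.exp l ≤ R) (hl0 : l ≤ 0) :
    |4 * Real.exp (-m * l) * FV W (X3 π κ x F g1 l)| ≤
      2 * δ * √(IF W π κ x F g1 l * et W π x g1 l) +
        (16 * K * δ * F₀ * (Real.exp (-2 * l) * tb W π x l + h₀ ^ 2 * mb W π x l) +
          3 * δ * h₀ * Real.exp l * √(K * mb W π x l * IF W π κ x F g1 l)) := by
  have : IsFiniteMeasure W := ⟨h.fin⟩
  have hK0 := hK.nonneg
  have hF0 : 0 ≤ F₀ := (hF.nonneg 0).trans (hF₀ 0 (by simpa using hh))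
  set t : Euc k × L k → ℝ := fun p => Real.exp (-2 * l) * ‖π p.1 - x‖ ^ 2 with ht
  have ht0 : ∀ p, 0 ≤ t p := fun p => scaled_nonneg l x _
  have c0 : Continuous t := continuous_sd (k := k) π x l
  have cg1 : Continuous fun p : Euc k × L k => g1 (t p) := hg.k0.cont.comp c0
  have ct := CylAS.continuous_tl (k := k) π
  have cn : Continuous fun p : Euc k × L k => ‖π p.1 - x‖ :=
    ((π.continuous.comp continuous_fst).sub continuous_const).norm
  have cF : Continuous fun p : Euc k × L k => F (κ p.1) :=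
    hF.contF.comp (κ.continuous.comp continuous_fst)
  have cdF : Continuous fun p : Euc k × L k => ‖dF (κ p.1)‖ :=
    (hF.contdF.comp (κ.continuous.comp continuous_fst)).norm
  have cκ : Continuous fun p : Euc k × L k => ‖κ p.1‖ := (κ.continuous.comp continuous_fst).norm
  set ξ : Euc m → Euc m := fun v => g1 (Real.exp (-2 * l) * ‖v - x‖ ^ 2) • (v - x) with hξ
  have cξ : Continuous fun p : Euc k × L k => ‖ξ (π p.1)‖ :=
    (cg1.smul ((π.continuous.comp continuous_fst).sub continuous_const)).norm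
  have cdξ : Continuous fun p : Euc k × L k => ‖dR g1 g2 l x (π p.1)‖ :=
    ((continuous_dR hg.k1 l x).comp (π.continuous.comp continuous_fst)).norm
  have hfv := h.fv_hor h0 hF.hasF ((innerSL ℝ).continuous.comp hF.contdF)
    (hasFDerivAt_R hg.k1 l x) (continuous_dR hg.k1 l x) (fun v hv => by
      rw [hg.k1.zero _ (Ker.one_le_of x (far hl hv)), zero_smul])
  -- the three parts
  have iA : Integrable (fun p : Euc k × L k => δ * (tl π p.2 + ‖κ p.1‖ ^ 2) *
      (|F (κ p.1)| * (‖dR g1 g2 l x (π p.1)‖ + ‖ξ (π p.1)‖))) W :=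
    h.integrable_continuous ((continuous_const.mul (ct.add (cκ.pow 2))).mul
      (cF.abs.mul (cdξ.add cξ)))
  have iB : Integrable (fun p : Euc k × L k => δ * (√(tl π p.2) + ‖κ p.1‖) *
      (‖innerSL ℝ (dF (κ p.1))‖ * ‖ξ (π p.1)‖)) W := by
    simp only [innerSL_apply_norm]
    exact h.integrable_continuous ((continuous_const.mul (ct.sqrt.add cκ)).mul (cdF.mul cξ))
  have hsplit : |FV W (X3 π κ x F g1 l)| ≤
      (∫ p, δ * (tl π p.2 + ‖κ p.1‖ ^ 2) *
        (|F (κ p.1)| * (‖dR g1 g2 l x (π p.1)‖ + ‖ξ (π p.1)‖)) ∂W) +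
      ∫ p, δ * (√(tl π p.2) + ‖κ p.1‖) * (‖innerSL ℝ (dF (κ p.1))‖ * ‖ξ (π p.1)‖) ∂W := by
    rw [← integral_add iA iB]
    exact hfv
  -- part A
  have hA : ∫ p, δ * (tl π p.2 + ‖κ p.1‖ ^ 2) *
        (|F (κ p.1)| * (‖dR g1 g2 l x (π p.1)‖ + ‖ξ (π p.1)‖)) ∂W ≤
      δ * F₀ * (4 * K) * (TB W π x (Real.exp l) + h₀ ^ 2 * MB W π x (Real.exp l)) := by
    have e1 : δ * F₀ * (4 * K) * (TB W π x (Real.exp l) + h₀ ^ 2 * MB W π x (Real.exp l)) =
        ∫ p in ovr π x (Real.exp l), (δ * F₀ * (4 * K) * tl π p.2 +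
          δ * F₀ * (4 * K) * h₀ ^ 2) ∂W := by
      rw [integral_add ((h.integrable_continuous ct).restrict.const_mul _) (integrable_const _),
        integral_const_mul, integral_const]
      simp only [Measure.real, Measure.restrict_apply_univ, smul_eq_mul, TB, MB]
      ring
    rw [e1, ← integral_indicator (measurableSet_ovr π x _)]
    refine integral_mono_ae iA ?_ ?_
    · rw [integrable_indicator_iff (measurableSet_ovr π x _)]
      exact (((h.integrable_continuous ct).restrict).const_mul _).add (integrable_const _)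
    · filter_upwards [h.tl_nonneg', h.hgt] with p htl hy
      by_cases hp : p ∈ ovr π x (Real.exp l)
      · rw [indicator_of_mem hp]
        have b1 : ‖dR g1 g2 l x (π p.1)‖ + ‖ξ (π p.1)‖ ≤ 4 * K := by
          have b2 := norm_dR_le hK l x (π p.1)
          have b3 := norm_R_le hg.k1 hK l x (π p.1)
          have b4 : K * Real.exp l ≤ K :=
            mul_le_of_le_one_right hK0 (Real.exp_le_one_iff.2 hl0)
          simp only [hξ]
          linarith
        have b5 : |F (κ p.1)| * (‖dR g1 g2 l x (π p.1)‖ + ‖ξ (π p.1)‖) ≤ F₀ * (4 * K) := by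
          rw [abs_of_nonneg (hF.nonneg _)]
          exact mul_le_mul (hF₀ _ hy) b1 (by positivity) hF0
        have b6 : ‖κ p.1‖ ^ 2 ≤ h₀ ^ 2 := pow_le_pow_left₀ (norm_nonneg _) hy 2
        have b7 : δ * (tl π p.2 + ‖κ p.1‖ ^ 2) ≤ δ * (tl π p.2 + h₀ ^ 2) :=
          mul_le_mul_of_nonneg_left (by linarith) h0
        have b8 := mul_le_mul b7 b5 (by positivity) (by positivity)
        refine b8.trans (le_of_eq ?_)
        ring
      · rw [indicator_of_notMem hp]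
        have hp' : Real.exp l ≤ ‖π p.1 - x‖ := not_lt.1 hp
        rw [dR_zero hg.k1 hp']
        simp only [hξ]
        rw [hg.k1.zero _ (Ker.one_le_of x hp')]
        simp
  -- part B
  have iu : Integrable (fun p : Euc k × L k => 2 * F (κ p.1) * (-g1 (t p))) W :=
    h.integrable_continuous ((continuous_const.mul cF).mul cg1.neg)
  have iv : Integrable (fun p : Euc k × L k => tl π p.2 * ((-g1 (t p)) * ‖π p.1 - x‖ ^ 2)) W :=
    h.integrable_continuous (ct.mul (cg1.neg.mul (cn.pow 2)))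
  have iw : Integrable (fun p : Euc k × L k => (-g1 (t p)) * ‖π p.1 - x‖ ^ 2) W :=
    h.integrable_continuous (cg1.neg.mul (cn.pow 2))
  have hu0 : 0 ≤ᵐ[W] fun p : Euc k × L k => 2 * F (κ p.1) * (-g1 (t p)) := by
    filter_upwards with p
    have := hg.anti _ (ht0 p)
    have := hF.nonneg (κ p.1)
    simp only [Pi.zero_apply]
    nlinarith
  have hv0 : 0 ≤ᵐ[W] fun p : Euc k × L k => tl π p.2 * ((-g1 (t p)) * ‖π p.1 - x‖ ^ 2) := by
    filter_upwards [h.tl_nonneg'] with p htl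
    have := neg_nonneg.2 (hg.anti _ (ht0 p))
    simp only [Pi.zero_apply]
    positivity
  have hw0 : 0 ≤ᵐ[W] fun p : Euc k × L k => (-g1 (t p)) * ‖π p.1 - x‖ ^ 2 := by
    filter_upwards with p
    have := neg_nonneg.2 (hg.anti _ (ht0 p))
    simp only [Pi.zero_apply]
    positivity
  have hsq1 : Integrable (fun p : Euc k × L k => √(2 * F (κ p.1) * (-g1 (t p)) *
      (tl π p.2 * ((-g1 (t p)) * ‖π p.1 - x‖ ^ 2)))) W :=
    h.integrable_continuous (((continuous_const.mul cF).mul cg1.neg).mul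
      (ct.mul (cg1.neg.mul (cn.pow 2)))).sqrt
  have hsq2 : Integrable (fun p : Euc k × L k => √(2 * F (κ p.1) * (-g1 (t p)) *
      ((-g1 (t p)) * ‖π p.1 - x‖ ^ 2))) W :=
    h.integrable_continuous (((continuous_const.mul cF).mul cg1.neg).mul
      (cg1.neg.mul (cn.pow 2))).sqrt
  have hB : ∫ p, δ * (√(tl π p.2) + ‖κ p.1‖) * (‖innerSL ℝ (dF (κ p.1))‖ * ‖ξ (π p.1)‖) ∂W ≤
      δ * √((∫ p, 2 * F (κ p.1) * (-g1 (t p)) ∂W) *
          ∫ p, tl π p.2 * ((-g1 (t p)) * ‖π p.1 - x‖ ^ 2) ∂W) +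
        δ * h₀ * √((∫ p, 2 * F (κ p.1) * (-g1 (t p)) ∂W) *
          ∫ p, (-g1 (t p)) * ‖π p.1 - x‖ ^ 2 ∂W) := by
    have h1 := mul_le_mul_of_nonneg_left (integral_sqrt_mul_le iu iv hu0 hv0) h0
    have h2 := mul_le_mul_of_nonneg_left (integral_sqrt_mul_le iu iw hu0 hw0)
      (mul_nonneg h0 hh)
    refine le_trans ?_ (add_le_add h1 h2)
    rw [← integral_const_mul, ← integral_const_mul,
      ← integral_add (hsq1.const_mul _) (hsq2.const_mul _)]
    refine integral_mono_ae iB ((hsq1.const_mul _).add (hsq2.const_mul _)) ?_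
    filter_upwards [h.tl_nonneg', h.hgt] with p htl hy
    have hg1 : 0 ≤ -g1 (t p) := neg_nonneg.2 (hg.anti _ (ht0 p))
    have hr : 0 ≤ ‖π p.1 - x‖ := norm_nonneg _
    have hFn := hF.nonneg (κ p.1)
    have hdF : ‖dF (κ p.1)‖ ≤ √(2 * F (κ p.1)) := by
      apply Real.le_sqrt_of_sq_le
      exact hF.grad _
    have hξn : ‖ξ (π p.1)‖ = (-g1 (t p)) * ‖π p.1 - x‖ := by
      simp only [hξ]
      rw [norm_smul, Real.norm_eq_abs, abs_of_nonpos (hg.anti _ (ht0 p))]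
    have e1 : √(2 * F (κ p.1) * (-g1 (t p)) * ((-g1 (t p)) * ‖π p.1 - x‖ ^ 2)) =
        √(2 * F (κ p.1)) * ((-g1 (t p)) * ‖π p.1 - x‖) := by
      have : 2 * F (κ p.1) * (-g1 (t p)) * ((-g1 (t p)) * ‖π p.1 - x‖ ^ 2) =
          2 * F (κ p.1) * ((-g1 (t p)) * ‖π p.1 - x‖) ^ 2 := by ring
      rw [this, Real.sqrt_mul (by positivity), Real.sqrt_sq (by positivity)]
    have e2 : √(2 * F (κ p.1) * (-g1 (t p)) * (tl π p.2 * ((-g1 (t p)) * ‖π p.1 - x‖ ^ 2))) =
        √(tl π p.2) * (√(2 * F (κ p.1)) * ((-g1 (t p)) * ‖π p.1 - x‖)) := by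
      have : 2 * F (κ p.1) * (-g1 (t p)) * (tl π p.2 * ((-g1 (t p)) * ‖π p.1 - x‖ ^ 2)) =
          tl π p.2 * (2 * F (κ p.1) * ((-g1 (t p)) * ‖π p.1 - x‖) ^ 2) := by ring
      rw [this, Real.sqrt_mul htl, Real.sqrt_mul (by positivity), Real.sqrt_sq (by positivity)]
    rw [e1, e2, innerSL_apply_norm, hξn]
    have q1 := Real.sqrt_nonneg (tl π p.2)
    have q2 : ‖dF (κ p.1)‖ * ((-g1 (t p)) * ‖π p.1 - x‖) ≤
        √(2 * F (κ p.1)) * ((-g1 (t p)) * ‖π p.1 - x‖) :=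
      mul_le_mul_of_nonneg_right hdF (by positivity)
    have q3 : 0 ≤ √(2 * F (κ p.1)) * ((-g1 (t p)) * ‖π p.1 - x‖) := by positivity
    have q4 : δ * (√(tl π p.2) + ‖κ p.1‖) ≤ δ * (√(tl π p.2) + h₀) :=
      mul_le_mul_of_nonneg_left (by linarith) h0
    have q5 := mul_le_mul q4 q2 (by positivity) (by positivity)
    refine q5.trans (le_of_eq ?_)
    ring
  -- the integrals
  have e1 : ∫ p, 2 * F (κ p.1) * (-g1 (t p)) ∂W = Real.exp (m * l) * IF W π κ x F g1 l / 2 := by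
    unfold IF
    rw [← mul_assoc, ← Real.exp_add]
    have : (m : ℝ) * l + -m * l = 0 := by ring
    rw [this, Real.exp_zero, one_mul, ← integral_div]
    refine integral_congr_ae (Eventually.of_forall fun p => ?_)
    simp only [ht]
    ring
  have e2 : ∫ p, tl π p.2 * ((-g1 (t p)) * ‖π p.1 - x‖ ^ 2) ∂W =
      Real.exp (m * l) * et W π x g1 l / 2 := by
    rw [et_eq_kk]
    unfold kk k2
    rw [← mul_assoc, ← Real.exp_add]
    have : (m : ℝ) * l + (2 - m) * l = 2 * l := by ring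
    rw [this, ← integral_const_mul, ← integral_div]
    refine integral_congr_ae (Eventually.of_forall fun p => ?_)
    simp only [ht]
    have h3 : Real.exp (2 * l) * Real.exp (-2 * l) = 1 := by
      rw [← Real.exp_add]
      have : 2 * l + -2 * l = 0 := by ring
      rw [this, Real.exp_zero]
    linear_combination (-(tl π p.2 * g1 (Real.exp (-2 * l) * ‖π p.1 - x‖ ^ 2) *
      ‖π p.1 - x‖ ^ 2)) * h3.symm
  have e3 : ∫ p, (-g1 (t p)) * ‖π p.1 - x‖ ^ 2 ∂W ≤
      Real.exp (m * l) * (K * Real.exp (2 * l) * mb W π x l) := by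
    have e4 : Real.exp (m * l) * (K * Real.exp (2 * l) * mb W π x l) =
        ∫ p in ovr π x (Real.exp l), K * Real.exp (2 * l) ∂W := by
      rw [integral_const]
      simp only [Measure.real, Measure.restrict_apply_univ, smul_eq_mul, mb, MB]
      have : Real.exp (m * l) * Real.exp (-m * l) = 1 := by
        rw [← Real.exp_add]
        have : (m : ℝ) * l + -m * l = 0 := by ring
        rw [this, Real.exp_zero]
      linear_combination (K * Real.exp (2 * l) * (W (ovr π x (Real.exp l))).toReal) * this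
    rw [e4, ← integral_indicator (measurableSet_ovr π x _)]
    refine integral_mono_ae iw ?_ ?_
    · rw [integrable_indicator_iff (measurableSet_ovr π x _)]
      exact integrable_const _
    · filter_upwards with p
      by_cases hp : p ∈ ovr π x (Real.exp l)
      · rw [indicator_of_mem hp]
        have hp' : ‖π p.1 - x‖ < Real.exp l := hp
        have b1 := hK.b0 _ (ht0 p)
        rw [abs_of_nonpos (hg.anti _ (ht0 p))] at b1
        have b2 : ‖π p.1 - x‖ ^ 2 ≤ Real.exp (2 * l) := by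
          have : Real.exp (2 * l) = Real.exp l ^ 2 := by
            rw [← Real.exp_nat_mul]; norm_num
          rw [this]
          exact pow_le_pow_left₀ (norm_nonneg _) hp'.le 2
        exact mul_le_mul b1 b2 (by positivity) hK0
      · rw [indicator_of_notMem hp]
        have hp' : Real.exp l ≤ ‖π p.1 - x‖ := not_lt.1 hp
        simp only [ht]
        rw [hg.k1.zero _ (Ker.one_le_of x hp')]
        simp
  have hIF : 0 ≤ IF W π κ x F g1 l := by
    have : 0 ≤ ∫ p, 2 * F (κ p.1) * (-g1 (t p)) ∂W := integral_nonneg_of_ae hu0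
    rw [e1] at this
    have h4 := Real.exp_pos (m * l)
    by_contra hcon
    push Not at hcon
    have : Real.exp (m * l) * IF W π κ x F g1 l < 0 := mul_neg_of_pos_of_neg h4 hcon
    linarith
  have het : 0 ≤ et W π x g1 l := by
    have : 0 ≤ ∫ p, tl π p.2 * ((-g1 (t p)) * ‖π p.1 - x‖ ^ 2) ∂W := integral_nonneg_of_ae hv0
    rw [e2] at this
    have h4 := Real.exp_pos (m * l)
    by_contra hcon
    push Not at hcon
    have : Real.exp (m * l) * et W π x g1 l < 0 := mul_neg_of_pos_of_neg h4 hcon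
    linarith
  have hmb : 0 ≤ mb W π x l := mb_nonneg x l
  have s1 : √((∫ p, 2 * F (κ p.1) * (-g1 (t p)) ∂W) *
          ∫ p, tl π p.2 * ((-g1 (t p)) * ‖π p.1 - x‖ ^ 2) ∂W) =
      Real.exp (m * l) / 2 * √(IF W π κ x F g1 l * et W π x g1 l) := by
    rw [e1, e2]
    have : Real.exp (m * l) * IF W π κ x F g1 l / 2 * (Real.exp (m * l) * et W π x g1 l / 2) =
        (Real.exp (m * l) / 2) ^ 2 * (IF W π κ x F g1 l * et W π x g1 l) := by ring
    rw [this, Real.sqrt_mul (by positivity), Real.sqrt_sq (by positivity)]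
  have s2 : √((∫ p, 2 * F (κ p.1) * (-g1 (t p)) ∂W) *
          ∫ p, (-g1 (t p)) * ‖π p.1 - x‖ ^ 2 ∂W) ≤
      Real.exp (m * l) * (3 / 4 * Real.exp l * √(K * mb W π x l * IF W π κ x F g1 l)) := by
    have h1 : (∫ p, 2 * F (κ p.1) * (-g1 (t p)) ∂W) * ∫ p, (-g1 (t p)) * ‖π p.1 - x‖ ^ 2 ∂W ≤
        (Real.exp (m * l) * (3 / 4 * Real.exp l * √(K * mb W π x l * IF W π κ x F g1 l))) ^ 2 := by
      have h2 : (∫ p, 2 * F (κ p.1) * (-g1 (t p)) ∂W) * ∫ p, (-g1 (t p)) * ‖π p.1 - x‖ ^ 2 ∂W ≤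
          (Real.exp (m * l) * IF W π κ x F g1 l / 2) *
            (Real.exp (m * l) * (K * Real.exp (2 * l) * mb W π x l)) := by
        rw [e1]
        exact mul_le_mul_of_nonneg_left e3 (by positivity)
      refine h2.trans ?_
      have h3 : √(K * mb W π x l * IF W π κ x F g1 l) ^ 2 = K * mb W π x l * IF W π κ x F g1 l :=
        Real.sq_sqrt (by positivity)
      have h4 : Real.exp (2 * l) = Real.exp l ^ 2 := by
        rw [← Real.exp_nat_mul]; norm_num
      have h5 : (Real.exp (m * l) *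
          (3 / 4 * Real.exp l * √(K * mb W π x l * IF W π κ x F g1 l))) ^ 2 =
          9 / 16 * (Real.exp (m * l) ^ 2 * Real.exp l ^ 2 *
            (K * mb W π x l * IF W π κ x F g1 l)) := by
        linear_combination (9 / 16 * (Real.exp (m * l) ^ 2 * Real.exp l ^ 2)) * h3
      rw [h5, h4]
      have h6 : 0 ≤ Real.exp (m * l) ^ 2 * Real.exp l ^ 2 *
            (K * mb W π x l * IF W π κ x F g1 l) := by positivity
      nlinarith
    exact (Real.sqrt_le_sqrt h1).trans (le_of_eq (Real.sqrt_sq (by positivity)))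
  have hfin : |FV W (X3 π κ x F g1 l)| ≤
      δ * F₀ * (4 * K) * (TB W π x (Real.exp l) + h₀ ^ 2 * MB W π x (Real.exp l)) +
      (δ * (Real.exp (m * l) / 2 * √(IF W π κ x F g1 l * et W π x g1 l)) +
        δ * h₀ * (Real.exp (m * l) *
          (3 / 4 * Real.exp l * √(K * mb W π x l * IF W π κ x F g1 l)))) := by
    refine hsplit.trans (add_le_add hA (hB.trans ?_))
    rw [s1]
    have := mul_le_mul_of_nonneg_left s2 (mul_nonneg h0 hh)
    linarith
  rw [abs_mul, abs_of_pos (by positivity : (0:ℝ) < 4 * Real.exp (-m * l))]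
  have h4 := mul_le_mul_of_nonneg_left hfin (by positivity : (0:ℝ) ≤ 4 * Real.exp (-m * l))
  refine h4.trans (le_of_eq ?_)
  rw [TB_eq, MB_eq]
  have h5 : Real.exp (-m * l) * Real.exp (m * l) = 1 := by
    rw [← Real.exp_add]
    have : -(m : ℝ) * l + m * l = 0 := by ring
    rw [this, Real.exp_zero]
  have h6 : Real.exp (-m * l) * Real.exp ((m - 2) * l) = Real.exp (-2 * l) := by
    rw [← Real.exp_add]
    congr 1
    ring
  linear_combination (16 * K * δ * F₀ * tb W π x l) * h6 +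
    (16 * K * δ * F₀ * h₀ ^ 2 * mb W π x l +
      2 * δ * √(IF W π κ x F g1 l * et W π x g1 l) +
      3 * δ * h₀ * Real.exp l * √(K * mb W π x l * IF W π κ x F g1 l)) * h5

end Crest.Agent.R234.Shp2_98
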