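import Crest.Agent.R234.Pot4_425

/-!
# Row 234 (helper98): upper bounds for the mollified potentials

`ml m τ b z ≤ m (1 + m/2) τ^{-m} b(closedBall z τ)` and
`SS m τ w b x s ≤ (s²/2) (∫ψ) m (1 + m/2) τ^{-m} sup_z b(closedBall z τ)`.
-/

set_option autoImplicit false
set_option linter.unusedSectionVars false

open MeasureTheory Filter Topology Set Metric
open Crest.Agent.R234.Pot_425

noncomputable section

namespace Crest.Agent.R234.Shp3_98

variable {F : Type*} [NormedAddCommGroup F] [InnerProductSpace ℝ F] [FiniteDimensional ℝ F]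
  [MeasurableSpace F] [BorelSpace F] {m : ℕ} {τ : ℝ}

theorem DD_le (hτ : 0 < τ) {u : ℝ} (hu0 : 0 ≤ u) :
    DD m τ u ≤ m * (1 + m / 2) * (τ ^ m)⁻¹ := by
  have h2 : 0 < τ ^ 2 := by positivity
  rcases le_total u (τ ^ 2) with h | h
  · rw [DD_of_le hτ h]
    have h3 : (τ ^ 2) ^ (-(m : ℝ) / 2 - 1) * τ ^ 2 = (τ ^ m)⁻¹ := by
      rw [← Real.rpow_add_one h2.ne', ← Real.rpow_natCast τ m, ← Real.rpow_neg hτ.le,
        ← Real.rpow_natCast τ 2, ← Real.rpow_mul hτ.le]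
      congr 1
      push_cast
      ring
    rw [← h3, ← mul_assoc]
    exact mul_le_mul_of_nonneg_left (by linarith : τ ^ 2 - u ≤ τ ^ 2) (by positivity)
  · rw [DD_of_ge hτ h]
    positivity

theorem ml_le (hτ : 0 < τ) (b : Measure (XB F τ)) [IsFiniteMeasure b] {z : F} {A : ℝ}
    (hA : b.real {y : XB F τ | ‖z - (y : F)‖ ≤ τ} ≤ A) :
    ml m τ b z ≤ m * (1 + m / 2) * (τ ^ m)⁻¹ * A := by
  have hS : MeasurableSet {y : XB F τ | ‖z - (y : F)‖ ≤ τ} :=
    (isClosed_le (by fun_prop) continuous_const).measurableSet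
  unfold ml
  have hc : Continuous fun y : XB F τ => DD m τ (‖z - (y : F)‖ ^ 2) :=
    (continuous_DD hτ).comp (by fun_prop)
  have h1 : ∫ y, DD m τ (‖z - (y : F)‖ ^ 2) ∂b ≤
      ∫ y, {y : XB F τ | ‖z - (y : F)‖ ≤ τ}.indicator
        (fun _ => (m * (1 + m / 2) * (τ ^ m)⁻¹ : ℝ)) y ∂b := by
    refine integral_mono (integrable_cont _ hc) ((integrable_const _).indicator hS) fun y => ?_
    by_cases hy : y ∈ {y : XB F τ | ‖z - (y : F)‖ ≤ τ}
    · rw [indicator_of_mem hy]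
      exact DD_le hτ (by positivity)
    · rw [indicator_of_notMem hy]
      have h3 : τ < ‖z - (y : F)‖ := by simpa using hy
      have h4 : τ ^ 2 ≤ ‖z - (y : F)‖ ^ 2 := pow_le_pow_left₀ hτ.le h3.le 2
      simp only
      rw [DD_of_ge hτ h4]
  refine h1.trans ?_
  rw [integral_indicator_const _ hS, smul_eq_mul, mul_comm]
  exact mul_le_mul_of_nonneg_left hA (by positivity)

theorem SS_le_of_ml (hτ : 0 < τ) (w : Wt) (b : Measure (XB F τ)) [IsFiniteMeasure b]
    {x : F} {s M : ℝ} (hs : 0 ≤ s) (hM : ∀ z, ‖z - x‖ ≤ s → ml m τ b z ≤ M) :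
    SS m τ w b x s ≤ s ^ 2 / 2 * ((∫ y : F, w.psi y) * M) := by
  unfold SS
  have hcl : Continuous fun p : ℝ × F => w.psi p.2 * ml m τ b (x - p.1 • p.2) :=
    (w.continuous_psi.comp continuous_snd).mul ((continuous_ml hτ b).comp (by fun_prop))
  have h0 : ∀ ρ : ℝ, Continuous fun y : F => ml m τ b (x - ρ • y) := fun ρ =>
    (continuous_ml hτ b).comp (by fun_prop)
  have h1 : ∀ ρ ∈ Icc 0 s, ρ * ∫ y, w.psi y * ml m τ b (x - ρ • y) ≤
      ρ * ((∫ y : F, w.psi y) * M) := by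
    intro ρ hρ
    refine mul_le_mul_of_nonneg_left ?_ hρ.1
    rw [← integral_mul_const]
    refine integral_mono (w.integrable_psi_mul (h0 ρ))
      (w.integrable_psi_mul (h := fun _ => M) continuous_const) fun y => ?_
    by_cases hy : y ∈ closedBall (0 : F) 1
    · refine mul_le_mul_of_nonneg_left (hM _ ?_) (w.psi_nonneg y)
      have hy1 : ‖y‖ ≤ 1 := by simpa using hy
      have : x - ρ • y - x = -(ρ • y) := by abel
      rw [this, norm_neg, norm_smul, Real.norm_of_nonneg hρ.1]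
      calc ρ * ‖y‖ ≤ ρ * 1 := mul_le_mul_of_nonneg_left hy1 hρ.1
        _ ≤ s := by linarith [hρ.2]
    · simp only
      rw [w.psi_zero hy]; simp
  have hci : ContinuousOn (fun ρ : ℝ => ρ * ∫ y, w.psi y * ml m τ b (x - ρ • y)) (uIcc 0 s) := by
    refine (continuous_id.mul ?_).continuousOn
    exact continuous_int_ball (g := fun (ρ : ℝ) (y : F) => w.psi y * ml m τ b (x - ρ • y)) hcl
      fun y hy ρ => by rw [w.psi_zero hy, zero_mul]
  have h2 : ∫ ρ in (0:ℝ)..s, ρ * ((∫ y : F, w.psi y) * M) = s ^ 2 / 2 * ((∫ y : F, w.psi y) * M) := by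
    rw [intervalIntegral.integral_mul_const, integral_id]
    ring
  rw [← h2]
  exact intervalIntegral.integral_mono_on hs hci.intervalIntegrable
    (by fun_prop : Continuous fun ρ : ℝ => ρ * ((∫ y : F, w.psi y) * M)).continuousOn.intervalIntegrable h1

/-- **bound of the scale integral** by the masses of the balls of radius `τ` -/
theorem SS_le (hτ : 0 < τ) (w : Wt) (b : Measure (XB F τ)) [IsFiniteMeasure b]
    {x : F} {s A : ℝ} (hs : 0 ≤ s)
    (hA : ∀ z, ‖z - x‖ ≤ s → b.real {y : XB F τ | ‖z - (y : F)‖ ≤ τ} ≤ A * τ ^ m) :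
    SS m τ w b x s ≤ s ^ 2 / 2 * ((∫ y : F, w.psi y) * (m * (1 + m / 2) * A)) := by
  refine SS_le_of_ml hτ w b hs fun z hz => ?_
  refine (ml_le hτ b (hA z hz)).trans (le_of_eq ?_)
  have : τ ^ m ≠ 0 := by positivity
  field_simp

/-- growth `b(closedBall z r) ≤ C₀ r^m` for `r ≥ h` is enough, `τ ≥ h / L` -/
theorem SS_le_growth (hτ : 0 < τ) (w : Wt) (b : Measure (XB F τ)) [IsFiniteMeasure b]
    {x : F} {s C₀ L h : ℝ} (hs : 0 ≤ s) (hL : 1 ≤ L) (hh : h ≤ L * τ)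
    (hA : ∀ z, ‖z - x‖ ≤ s → ∀ r, h ≤ r → r ≤ L * τ →
      b.real {y : XB F τ | ‖z - (y : F)‖ ≤ r} ≤ C₀ * r ^ m) :
    SS m τ w b x s ≤ s ^ 2 / 2 * ((∫ y : F, w.psi y) * (m * (1 + m / 2) * (C₀ * L ^ m))) := by
  refine SS_le hτ w b hs fun z hz => ?_
  have h1 := hA z hz (L * τ) hh le_rfl
  have h2 : b.real {y : XB F τ | ‖z - (y : F)‖ ≤ τ} ≤
      b.real {y : XB F τ | ‖z - (y : F)‖ ≤ L * τ} := by
    refine measureReal_mono (fun y hy => ?_)
    simp only [mem_ofPred_eq] at hy ⊢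
    nlinarith
  refine h2.trans (h1.trans (le_of_eq ?_))
  rw [mul_pow]
  ring

end Crest.Agent.R234.Shp3_98
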