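import Crest.Agent.R234.Skel2_332
import Crest.Agent.R234.F10d_188
import Crest.Agent.R234.Pin7_3

/-!
Row 234 (helper884, captain): the two frozen statements from the two V-level inputs that are left:
`ThyAll` (188's `Thy` at every singular point of density `Q ≥ 2`, for all large `K`) and 3's
`PinData`.
-/

set_option autoImplicit false

open MeasureTheory Filter Topology Set
open scoped ENNReal NNReal ContDiff
open Crest.GeometryTopology.Submanifold Crest.Agent.R234.Vf_884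
open Crest.Agent.R234.Main_456

noncomputable section

namespace Crest.Agent.R234.Skel3_884

/-- the theory of the frequency chain at every point, for all large `K` -/
def ThyAll : Prop :=
  ∀ (m n : ℕ), 3 ≤ m → 1 ≤ n → ∃ K₀ : ℕ, ∀ K : ℕ, K₀ ≤ K →
    ∀ (U : Set (Euc (m + n))), IsOpen U →
      ∀ D : VarifoldData m (m + n), IsIntegralVarifoldIn U D → IsStationaryIn U D →
        ∀ (Q : ℕ) (x : Euc (m + n)), 2 ≤ Q → x ∈ SingQ m (m + n) U D Q →
          Nonempty (F10d_188.Thy m n D Q x K)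

theorem dblK_of (H : ThyAll) : ∀ m n : ℕ, 3 ≤ m → 1 ≤ n → ∃ K₀ : ℕ, ∀ K : ℕ, K₀ ≤ K →
    Pin7_3.DblK m n K := by
  intro m n hm hn
  obtain ⟨K₀, hK₀⟩ := H m n hm hn
  refine ⟨K₀, fun K hK U hU D hD hst s Q c x r P hS => ?_⟩
  obtain ⟨T⟩ := hK₀ K hK U hU D hD hst Q x hS.hQ hS.mem
  exact F10d_188.dbl_at (by omega) hU hD hst hS T

theorem noSel (h1 : ThyAll) (h2 : Pin6_3.PinData) : NoSel :=
  Pin7_3.noSel_of_pinData (dblK_of h1) h2

/-- **S0362 from the two V-level inputs.** -/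
theorem s0362 (h1 : ThyAll) (h2 : Pin6_3.PinData)
    (m n : ℕ) (hm : 1 ≤ m) (hn : 1 ≤ n) (U : Set (EuclideanSpace ℝ (Fin (m + n))))
    (hU : IsOpen U) (D : VarifoldData m (m + n)) (hD : IsIntegralVarifoldIn U D)
    (hstat : IsStationaryIn U D) :
    dimH (singularSet m (m + n) U D) ≤ (m : ENNReal) - 1 :=
  Main_456.main Pr_937.prodStep (Fa_694.fa Skel_884.hInt Skel_884.hOne) (noSel h1 h2)
    m n hm hn U hU D hD hstat

/-- **S0363 from the two V-level inputs.** -/
theorem s0363 (h1 : ThyAll) (h2 : Pin6_3.PinData)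
    (m n : ℕ) (hm : 1 ≤ m) (hn : 1 ≤ n) (R : ℝ) (hR : 0 < R)
    (D : VarifoldData m (m + n + 1)) (hD : IsIntegralVarifoldIn Set.univ D)
    (hsph : ∀ i, D.chart i '' D.dom i ⊆ Metric.sphere (0 : EuclideanSpace ℝ (Fin (m + n + 1))) R)
    (hstat : ∀ X : EuclideanSpace ℝ (Fin (m + n + 1)) → EuclideanSpace ℝ (Fin (m + n + 1)),
      ContDiff ℝ 1 X → HasCompactSupport X →
      (∀ x ∈ Metric.sphere (0 : EuclideanSpace ℝ (Fin (m + n + 1))) R, inner ℝ (X x) x = 0) →
      firstVariation D X = 0) :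
    μH[(m : ℝ)] (singularSet m (m + n + 1) Set.univ D) = 0 :=
  Co7_696.s0363_of (fun m n hm hn U hU D hD hs => s0362 h1 h2 m n hm hn U hU D hD hs)
    m n hm hn R hR D hD hsph hstat

end Crest.Agent.R234.Skel3_884
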