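import Crest.Agent.R234.Thya1_685
import Crest.Agent.R234.Main7_456

/-!
Row 234 (helper884, captain), skeleton part 4: the two frozen statements from the literal leaves
`StepAll`, `FlAll`, `StartAll`, `FinAll` (chain; `Thya1_685`), `SgE`, `F3E` (pinching; `Main7_456`).
-/

set_option autoImplicit false

open MeasureTheory Crest.GeometryTopology.Submanifold
open scoped ENNReal

noncomputable section

namespace Crest.Agent.R234.Skel4_884

open Crest.Agent.R234 Crest.Agent.R234.Main_456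

/-- all literal leaves that are left -/
structure Leaves : Prop where
  step : ∀ m n : ℕ, 3 ≤ m → 1 ≤ n → Thya_685.StepAll m n
  fl : ∀ m n : ℕ, 3 ≤ m → 1 ≤ n → Thya_685.FlAll m n
  start : ∀ m n : ℕ, 3 ≤ m → 1 ≤ n → Thya_685.StartAll m n
  fin : ∀ m n : ℕ, 3 ≤ m → 1 ≤ n → Thya_685.FinAll m n
  sg : SgE
  f3 : F3E

theorem dblE (h : Leaves) : DblE :=
  Skel3_884.dblK_of (Thya_685.thyAll_of h.step h.fl h.start h.fin)

/-- **S0362** from the leaves -/
theorem s0362 (h : Leaves)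
    (m n : ℕ) (hm : 1 ≤ m) (hn : 1 ≤ n) (U : Set (EuclideanSpace ℝ (Fin (m + n))))
    (hU : IsOpen U) (D : VarifoldData m (m + n)) (hDi : IsIntegralVarifoldIn U D)
    (hstat : IsStationaryIn U D) :
    dimH (singularSet m (m + n) U D) ≤ (m : ENNReal) - 1 :=
  s0362_7 (dblE h) h.sg h.f3 m n hm hn U hU D hDi hstat

/-- **S0363** from the leaves -/
theorem s0363 (h : Leaves)
    (m n : ℕ) (hm : 1 ≤ m) (hn : 1 ≤ n) (R : ℝ) (hR : 0 < R)
    (D : VarifoldData m (m + n + 1)) (hDi : IsIntegralVarifoldIn Set.univ D)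
    (hsph : ∀ i, D.chart i '' D.dom i ⊆ Metric.sphere (0 : EuclideanSpace ℝ (Fin (m + n + 1))) R)
    (hstat : ∀ X : EuclideanSpace ℝ (Fin (m + n + 1)) → EuclideanSpace ℝ (Fin (m + n + 1)),
      ContDiff ℝ 1 X → HasCompactSupport X →
      (∀ x ∈ Metric.sphere (0 : EuclideanSpace ℝ (Fin (m + n + 1))) R, inner ℝ (X x) x = 0) →
      firstVariation D X = 0) :
    μH[(m : ℝ)] (singularSet m (m + n + 1) Set.univ D) = 0 :=
  s0363_7 (dblE h) h.sg h.f3 m n hm hn R hR D hDi hsph hstat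

end Crest.Agent.R234.Skel4_884
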