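import Crest.Agent.R234.Main2_456
import Crest.Agent.R234.Fa5_694
import Crest.Agent.R234.In6_947
import Crest.Agent.R234.Pr9_937
import Crest.Agent.R234.Co7_696
import Crest.Agent.R234.Al9_182

/-!
Row 234 (helper884, captain): the two frozen statements S0362 and S0363 from the open nodes.

Open nodes: `Main_456.Dbl` (doubling relative to minimal graphs), `Main_456.Pin` (pinching).
(`Fa_694.HOne`, Allard at points of density at most one, is closed by 182's `Al9_182.hone`.)
-/

set_option autoImplicit false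

open MeasureTheory Crest.GeometryTopology.Submanifold
open scoped ENNReal

namespace Crest.Agent.R234.Skel_884

open Crest.Agent.R234

/-- the integrality of the density at flat points is closed (947). -/
theorem hInt : Fa_694.HInt := fun m k hm U hU D hD hs x hxU _ hn =>
  In_947.Th_integer (m := m) (k := k) hD hs hm hU hxU hn

/-- Allard's theorem at points of density at most one is closed (182, 640, 3). -/
theorem hOne : Fa_694.HOne := fun _ _ hm _ hU _ hD hs =>
  Al9_182.hone hU hm hD hs

/-- **S0362 from the open nodes.** -/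
theorem s0362 (h2 : Main_456.Dbl) (h3 : Main_456.Pin)
    (m n : ℕ) (hm : 1 ≤ m) (hn : 1 ≤ n) (U : Set (EuclideanSpace ℝ (Fin (m + n))))
    (hU : IsOpen U) (D : VarifoldData m (m + n)) (hD : IsIntegralVarifoldIn U D)
    (hstat : IsStationaryIn U D) :
    dimH (singularSet m (m + n) U D) ≤ (m : ENNReal) - 1 :=
  Main_456.main2 Pr_937.prodStep (Fa_694.fa hInt hOne) h2 h3 m n hm hn U hU D hD hstat

/-- **S0363 from the open nodes.** -/
theorem s0363 (h2 : Main_456.Dbl) (h3 : Main_456.Pin)
    (m n : ℕ) (hm : 1 ≤ m) (hn : 1 ≤ n) (R : ℝ) (hR : 0 < R)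
    (D : VarifoldData m (m + n + 1)) (hD : IsIntegralVarifoldIn Set.univ D)
    (hsph : ∀ i, D.chart i '' D.dom i ⊆ Metric.sphere (0 : EuclideanSpace ℝ (Fin (m + n + 1))) R)
    (hstat : ∀ X : EuclideanSpace ℝ (Fin (m + n + 1)) → EuclideanSpace ℝ (Fin (m + n + 1)),
      ContDiff ℝ 1 X → HasCompactSupport X →
      (∀ x ∈ Metric.sphere (0 : EuclideanSpace ℝ (Fin (m + n + 1))) R, inner ℝ (X x) x = 0) →
      firstVariation D X = 0) :
    μH[(m : ℝ)] (singularSet m (m + n + 1) Set.univ D) = 0 :=
  Co7_696.s0363_of (fun m n hm hn U hU D hD hs => s0362 h2 h3 m n hm hn U hU D hD hs)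
    m n hm hn R hR D hD hsph hstat

end Crest.Agent.R234.Skel_884
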