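import Mathlib

/-!
# Smooth modification of a function away from a ball (helper290)

`w` of class `C^(N+1)` with bounded derivatives, smooth on `ball X0 R`. For `R' < R` there is a
smooth `w'` with `w' = w` on `ball X0 R'` and derivatives up to the order `N` bounded by those of
`w` plus `η`.
-/

set_option autoImplicit false
set_option linter.unusedVariables false
set_option linter.unusedSectionVars false

open MeasureTheory Metric Set Function Filter Topology
open scoped ContDiff Convolution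

noncomputable section

namespace Crest.Agent.R234.Sme_290

variable {E F G : Type*} [NormedAddCommGroup E] [InnerProductSpace ℝ E] [FiniteDimensional ℝ E]
  [MeasurableSpace E] [BorelSpace E] [NormedAddCommGroup F] [NormedSpace ℝ F] [CompleteSpace F]
  [NormedAddCommGroup G] [NormedSpace ℝ G] [CompleteSpace G]

/-- mollification -/
def mo (φ : ContDiffBump (0 : E)) (f : E → F) (x : E) : F :=
  ∫ t, φ.normed volume t • f (x - t)

theorem mo_eq (φ : ContDiffBump (0 : E)) (f : E → F) :
    mo φ f = (φ.normed volume) ⋆[ContinuousLinearMap.lsmul ℝ ℝ, volume] f := by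
  funext x; rfl

theorem int_mo (φ : ContDiffBump (0 : E)) {f : E → F} (hf : Continuous f) (x : E) :
    Integrable (fun t => φ.normed volume t • f (x - t)) := by
  refine Continuous.integrable_of_hasCompactSupport ?_ ?_
  · exact φ.continuous_normed.smul (hf.comp (continuous_const.sub continuous_id))
  · exact φ.hasCompactSupport_normed.smul_right

theorem contDiff_mo (φ : ContDiffBump (0 : E)) {f : E → F} (hf : Continuous f) :
    ContDiff ℝ ∞ (mo φ f) := by
  rw [mo_eq]
  exact φ.hasCompactSupport_normed.contDiff_convolution_left _ φ.contDiff_normed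
    hf.locallyIntegrable

theorem norm_mo_le (φ : ContDiffBump (0 : E)) {f : E → F} (hf : Continuous f) {b : ℝ}
    (hb : ∀ y, ‖f y‖ ≤ b) (x : E) : ‖mo φ f x‖ ≤ b := by
  have h1 : ‖mo φ f x‖ ≤ ∫ t, φ.normed volume t * b := by
    refine norm_integral_le_of_norm_le (φ.integrable_normed.mul_const b)
      (Eventually.of_forall fun t => ?_)
    rw [norm_smul, Real.norm_of_nonneg (φ.nonneg_normed t)]
    exact mul_le_mul_of_nonneg_left (hb _) (φ.nonneg_normed t)
  rwa [integral_mul_const, φ.integral_normed, one_mul] at h1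

theorem norm_sub_mo_le (φ : ContDiffBump (0 : E)) {f : E → F} (hf : Differentiable ℝ f) {b : ℝ}
    (hb : ∀ y, ‖fderiv ℝ f y‖ ≤ b) (x : E) : ‖f x - mo φ f x‖ ≤ φ.rOut * b := by
  have hfc : Continuous f := hf.continuous
  have h0 : f x - mo φ f x = ∫ t, φ.normed volume t • (f x - f (x - t)) := by
    have h1 : ∀ t, φ.normed volume t • (f x - f (x - t)) =
        φ.normed volume t • f x - φ.normed volume t • f (x - t) := fun t => smul_sub _ _ _
    simp_rw [h1]
    rw [integral_sub (φ.integrable_normed.smul_const (f x)) (int_mo φ hfc x),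
      φ.integral_normed_smul]
    rfl
  rw [h0]
  have h1 : ‖∫ t, φ.normed volume t • (f x - f (x - t))‖ ≤
      ∫ t, φ.normed volume t * (φ.rOut * b) := by
    refine norm_integral_le_of_norm_le (φ.integrable_normed.mul_const _)
      (Eventually.of_forall fun t => ?_)
    rw [norm_smul, Real.norm_of_nonneg (φ.nonneg_normed t)]
    by_cases ht : t ∈ ball (0 : E) φ.rOut
    · refine mul_le_mul_of_nonneg_left ?_ (φ.nonneg_normed t)
      have h2 := (convex_univ : Convex ℝ (univ : Set E)).norm_image_sub_le_of_norm_fderiv_le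
        (𝕜 := ℝ) (f := f) (C := b) (fun y _ => hf y) (fun y _ => hb y) (mem_univ (x - t))
        (mem_univ x)
      refine h2.trans ?_
      have h3 : x - (x - t) = t := by abel
      rw [h3, mul_comm]
      refine mul_le_mul_of_nonneg_right (mem_ball_zero_iff.1 ht).le ?_
      exact (norm_nonneg _).trans (hb 0)
    · have h2 : φ.normed volume t = 0 := by
        rw [← Function.notMem_support, φ.support_normed_eq]
        exact ht
      rw [h2, zero_mul, zero_mul]
  rwa [integral_mul_const, φ.integral_normed, one_mul] at h1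

theorem hasFDerivAt_mo (φ : ContDiffBump (0 : E)) {f : E → F} (hf : ContDiff ℝ 1 f) {b : ℝ}
    (hb : ∀ y, ‖fderiv ℝ f y‖ ≤ b) (x : E) : HasFDerivAt (mo φ f) (mo φ (fderiv ℝ f) x) x := by
  have hfc : Continuous f := hf.continuous
  have hdc : Continuous (fderiv ℝ f) := hf.continuous_fderiv (by norm_num)
  have hd : Differentiable ℝ f := hf.differentiable (by norm_num)
  refine hasFDerivAt_integral_of_dominated_of_fderiv_le (s := univ)
    (F := fun x t => φ.normed volume t • f (x - t))
    (F' := fun x t => φ.normed volume t • fderiv ℝ f (x - t))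
    (bound := fun t => φ.normed volume t * b) univ_mem ?_ ?_ ?_ ?_ ?_ ?_
  · exact Eventually.of_forall fun y => (int_mo φ hfc y).aestronglyMeasurable
  · exact int_mo φ hfc x
  · exact (int_mo φ hdc x).aestronglyMeasurable
  · refine Eventually.of_forall fun t y _ => ?_
    rw [norm_smul, Real.norm_of_nonneg (φ.nonneg_normed t)]
    exact mul_le_mul_of_nonneg_left (hb _) (φ.nonneg_normed t)
  · exact φ.integrable_normed.mul_const b
  · refine Eventually.of_forall fun t y _ => ?_
    have h1 : HasFDerivAt (fun y : E => f (y - t)) (fderiv ℝ f (y - t)) y := by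
      have h2 := (hd (y - t)).hasFDerivAt.comp y ((hasFDerivAt_id y).sub_const t)
      simpa [Function.comp_def] using h2
    exact h1.const_smul _

theorem clm_mo (φ : ContDiffBump (0 : E)) (L : F ≃L[ℝ] G) (f : E → F) (x : E) :
    L (mo φ f x) = mo φ (fun y => L (f y)) x := by
  unfold mo
  rw [← ContinuousLinearEquiv.integral_comp_comm]
  congr 1
  funext t
  rw [map_smul]

theorem iter_mo (φ : ContDiffBump (0 : E)) {f : E → F} : ∀ (N : ℕ), ContDiff ℝ N f →
    (∀ j, 1 ≤ j → j ≤ N → ∃ b, ∀ y, ‖iteratedFDeriv ℝ j f y‖ ≤ b) →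
    iteratedFDeriv ℝ N (mo φ f) = mo φ (iteratedFDeriv ℝ N f) := by
  intro N
  induction N with
  | zero =>
    intro hf _
    funext x
    rw [iteratedFDeriv_zero_eq_comp, iteratedFDeriv_zero_eq_comp]
    exact clm_mo φ (continuousMultilinearCurryFin0 ℝ E F).symm.toContinuousLinearEquiv f x
  | succ N ih =>
    intro hf hb
    have hf' : ContDiff ℝ N f := hf.of_le (by exact_mod_cast Nat.le_succ N)
    have h1 := ih hf' fun j h1 h2 => hb j h1 (by omega)
    funext x
    rw [iteratedFDeriv_succ_eq_comp_left, iteratedFDeriv_succ_eq_comp_left, h1]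
    obtain ⟨b, hb1⟩ := hb (N + 1) (by omega) le_rfl
    have h2 : ContDiff ℝ 1 (iteratedFDeriv ℝ N f) :=
      hf.iteratedFDeriv_right (by norm_cast; omega)
    have h3 := (hasFDerivAt_mo φ h2 (b := b) (fun y => by
      rw [norm_fderiv_iteratedFDeriv]; exact hb1 y) x).fderiv
    simp only [comp_apply]
    rw [h3]
    exact clm_mo (F := E →L[ℝ] ContinuousMultilinearMap ℝ (fun _ : Fin N => E) F)
      (G := ContinuousMultilinearMap ℝ (fun _ : Fin (N + 1) => E) F) φ
      (continuousMultilinearCurryLeftEquiv ℝ (fun _ : Fin (N + 1) => E)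
      F).symm.toContinuousLinearEquiv (fderiv ℝ (iteratedFDeriv ℝ N f)) x

/-- **smooth modification away from a ball** -/
theorem exists_smooth_ext {w : E → F} {N : ℕ} (hw : ContDiff ℝ (N + 1 : ℕ) w) {b : ℕ → ℝ}
    (hb : ∀ j, 1 ≤ j → j ≤ N + 1 → ∀ Y, ‖iteratedFDeriv ℝ j w Y‖ ≤ b j) {X0 : E} {R R' : ℝ}
    (hR0 : 0 < R') (hR : R' < R) (hs : ContDiffOn ℝ ∞ w (ball X0 R)) {η : ℝ} (hη : 0 < η) :
    ∃ w' : E → F, ContDiff ℝ ∞ w' ∧ (∀ Y ∈ ball X0 R', w' Y = w Y) ∧
      (∀ Y, ‖w' Y - w Y‖ ≤ η) ∧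
      (∀ j, 1 ≤ j → j ≤ N → ∀ Y, ‖iteratedFDeriv ℝ j w' Y‖ ≤ b j + η) ∧
      ∀ j ≤ N, ∀ Y, ‖iteratedFDeriv ℝ j w' Y - iteratedFDeriv ℝ j w Y‖ ≤ η := by
  classical
  let χ : ContDiffBump X0 := ⟨R', (R' + R) / 2, hR0, by linarith⟩
  have hχs : ContDiff ℝ ∞ (χ : E → ℝ) := χ.contDiff
  have hχb : ∀ i : ℕ, ∃ C : ℝ, ∀ y, ‖iteratedFDeriv ℝ i (χ : E → ℝ) y‖ ≤ C := fun i => by
    have h1 : Continuous (iteratedFDeriv ℝ i (χ : E → ℝ)) :=
      hχs.continuous_iteratedFDeriv (by exact_mod_cast le_top)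
    exact h1.bounded_above_of_compact_support (χ.hasCompactSupport.iteratedFDeriv i)
  choose C hC using hχb
  have hC0 : ∀ i, 0 ≤ C i := fun i => (norm_nonneg _).trans (hC i X0)
  set A : ℝ := 1 + ∑ i ∈ Finset.range (N + 1), C i with hA
  have hA1 : 1 ≤ A := by
    have : 0 ≤ ∑ i ∈ Finset.range (N + 1), C i := Finset.sum_nonneg fun i _ => hC0 i
    linarith
  have hAi : ∀ i ≤ N, ∀ y, ‖iteratedFDeriv ℝ i (χ : E → ℝ) y‖ ≤ A := fun i hi y => by
    have h1 : C i ≤ ∑ i ∈ Finset.range (N + 1), C i :=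
      Finset.single_le_sum (fun i _ => hC0 i) (Finset.mem_range.2 (by omega))
    linarith [hC i y]
  set B : ℝ := 1 + ∑ i ∈ Finset.range (N + 2), |b i| with hB
  have hB1 : 1 ≤ B := by
    have : 0 ≤ ∑ i ∈ Finset.range (N + 2), |b i| := Finset.sum_nonneg fun i _ => abs_nonneg _
    linarith
  have hBi : ∀ j, 1 ≤ j → j ≤ N + 1 → ∀ y, ‖iteratedFDeriv ℝ j w y‖ ≤ B := fun j h1 h2 y => by
    have h3 : |b j| ≤ ∑ i ∈ Finset.range (N + 2), |b i| :=
      Finset.single_le_sum (fun i _ => abs_nonneg (b i)) (Finset.mem_range.2 (by omega))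
    linarith [hb j h1 h2 y, le_abs_self (b j)]
  set δ : ℝ := η / (2 * (2 ^ N * A * B)) with hδ
  have hδ0 : 0 < δ := by positivity
  have hδe' : 2 * (2 ^ N * A * (δ * B)) = η := by rw [hδ]; field_simp
  have hδe : 2 ^ N * A * (δ * B) ≤ η / 2 := by linarith
  let φ : ContDiffBump (0 : E) := ⟨δ / 2, δ, by positivity, by linarith⟩
  have hφ : φ.rOut = δ := rfl
  have hwc : Continuous w := hw.continuous
  have hsm := contDiff_mo φ hwc
  have hcd : ∀ j ≤ N, ContDiff ℝ j w := fun j hj => hw.of_le (by exact_mod_cast (by omega))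
  have hmo : ∀ j ≤ N, iteratedFDeriv ℝ j (mo φ w) = mo φ (iteratedFDeriv ℝ j w) := fun j hj =>
    iter_mo φ j (hcd j hj) fun i h1 h2 => ⟨B, hBi i h1 (by omega)⟩
  set v : E → F := fun y => w y - mo φ w y with hv
  have hvc : ContDiff ℝ N v := (hcd N le_rfl).sub (hsm.of_le (by exact_mod_cast le_top))
  have hvj : ∀ j ≤ N, ∀ y, ‖iteratedFDeriv ℝ j v y‖ ≤ δ * B := fun j hj y => by
    have h1 : iteratedFDeriv ℝ j v y = iteratedFDeriv ℝ j w y - iteratedFDeriv ℝ j (mo φ w) y := by
      have := iteratedFDeriv_sub_apply (𝕜 := ℝ) (i := j) (f := w) (g := mo φ w) (x := y)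
        (hcd j hj).contDiffAt (hsm.of_le (by exact_mod_cast le_top)).contDiffAt
      rw [← this]
      rfl
    rw [h1, hmo j hj, ← hφ]
    have h2 : ContDiff ℝ 1 (iteratedFDeriv ℝ j w) :=
      hw.iteratedFDeriv_right (by norm_cast; omega)
    refine norm_sub_mo_le φ (h2.differentiable (by norm_num)) (fun z => ?_) y
    rw [norm_fderiv_iteratedFDeriv]
    exact hBi (j + 1) (by omega) (by omega) z
  have hχle : ∀ y, |χ y| ≤ 1 := fun y => by
    rw [abs_of_nonneg χ.nonneg]; exact χ.le_one
  have hprod : ∀ j ≤ N, ∀ y, ‖iteratedFDeriv ℝ j (fun y => χ y • v y) y‖ ≤ η / 2 := by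
    intro j hj2 y
    refine (norm_iteratedFDeriv_smul_le (N := (N : ℕ∞)) (hχs.of_le (by exact_mod_cast le_top))
      hvc y (n := j) (by exact_mod_cast hj2)).trans ?_
    calc ∑ i ∈ Finset.range (j + 1), (j.choose i : ℝ) * ‖iteratedFDeriv ℝ i (χ : E → ℝ) y‖ *
          ‖iteratedFDeriv ℝ (j - i) v y‖
        ≤ ∑ i ∈ Finset.range (j + 1), (j.choose i : ℝ) * (A * (δ * B)) := by
          refine Finset.sum_le_sum fun i hi => ?_
          have hi' := Finset.mem_range.1 hi
          rw [mul_assoc]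
          refine mul_le_mul_of_nonneg_left ?_ (Nat.cast_nonneg _)
          exact mul_le_mul (hAi i (by omega) y) (hvj _ (by omega) y) (norm_nonneg _) (by linarith)
      _ = 2 ^ j * (A * (δ * B)) := by
          rw [← Finset.sum_mul, ← Nat.cast_sum, Nat.sum_range_choose]
          push_cast; ring
      _ ≤ 2 ^ N * (A * (δ * B)) := by
          refine mul_le_mul_of_nonneg_right ?_ (by positivity)
          exact pow_le_pow_right₀ (by norm_num) hj2
      _ ≤ η / 2 := by rw [← mul_assoc]; exact hδe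
  have hadd : ∀ j ≤ N, ∀ y, iteratedFDeriv ℝ j (fun y => mo φ w y + χ y • v y) y =
      iteratedFDeriv ℝ j (mo φ w) y + iteratedFDeriv ℝ j (fun y => χ y • v y) y := by
    intro j hj2 y
    have := iteratedFDeriv_add_apply (𝕜 := ℝ) (i := j) (f := mo φ w) (g := fun y => χ y • v y)
      (x := y) (hsm.of_le (by exact_mod_cast le_top)).contDiffAt
      ((hχs.of_le (by exact_mod_cast le_top)).smul
        (hvc.of_le (by exact_mod_cast hj2))).contDiffAt
    rw [← this]
    rfl
  refine ⟨fun y => mo φ w y + χ y • v y, ?_, ?_, ?_, ?_, ?_⟩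
  · rw [contDiff_iff_contDiffAt]
    intro y
    by_cases hy : y ∈ ball X0 R
    · have h1 : ContDiffAt ℝ ∞ w y := hs.contDiffAt (isOpen_ball.mem_nhds hy)
      exact hsm.contDiffAt.add (hχs.contDiffAt.smul (h1.sub hsm.contDiffAt))
    · have h2 : (fun y => mo φ w y + χ y • v y) =ᶠ[𝓝 y] mo φ w := by
        have h3 : y ∈ (closedBall X0 ((R' + R) / 2))ᶜ := by
          rw [mem_compl_iff, mem_closedBall]
          rw [mem_ball] at hy
          push Not at hy ⊢
          linarith
        filter_upwards [isClosed_closedBall.isOpen_compl.mem_nhds h3] with z hz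
        have h4 : χ z = 0 := by
          refine χ.zero_of_le_dist ?_
          rw [mem_compl_iff, mem_closedBall] at hz
          push Not at hz
          exact hz.le
        rw [h4, zero_smul, add_zero]
      exact hsm.contDiffAt.congr_of_eventuallyEq h2
  · intro y hy
    have h1 : χ y = 1 := χ.one_of_mem_closedBall (ball_subset_closedBall hy)
    show mo φ w y + χ y • (w y - mo φ w y) = w y
    rw [h1, one_smul]; abel
  · intro y
    have h1 : mo φ w y + χ y • v y - w y = (χ y - 1) • v y := by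
      show mo φ w y + χ y • (w y - mo φ w y) - w y = (χ y - 1) • (w y - mo φ w y)
      rw [sub_smul, one_smul]; abel
    rw [h1, norm_smul]
    have h2 : ‖χ y - 1‖ ≤ 1 := by
      rw [Real.norm_eq_abs, abs_le]
      constructor <;> linarith [χ.nonneg (x := y), χ.le_one (x := y)]
    have h3 : ‖v y‖ ≤ δ * B := by
      have := hvj 0 (by omega) y
      rwa [norm_iteratedFDeriv_zero] at this
    have h4 : δ * B ≤ η := by
      have h5 : (1:ℝ) ≤ 2 ^ N * A := by
        have : (1:ℝ) ≤ 2 ^ N := one_le_pow₀ (by norm_num)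
        nlinarith
      have h6 : δ * B ≤ 2 ^ N * A * (δ * B) := le_mul_of_one_le_left (by positivity) h5
      linarith
    calc ‖χ y - 1‖ * ‖v y‖ ≤ 1 * (δ * B) := mul_le_mul h2 h3 (norm_nonneg _) zero_le_one
      _ ≤ η := by rw [one_mul]; exact h4
  · intro j hj1 hj2 y
    rw [hadd j hj2 y]
    refine (norm_add_le _ _).trans (add_le_add ?_ ((hprod j hj2 y).trans (by linarith)))
    rw [hmo j hj2]
    exact norm_mo_le φ ((hw.continuous_iteratedFDeriv (by exact_mod_cast (by omega))))
      (hb j hj1 (by omega)) y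
  · intro j hj2 y
    rw [hadd j hj2 y]
    have h1 : iteratedFDeriv ℝ j v y = iteratedFDeriv ℝ j w y - iteratedFDeriv ℝ j (mo φ w) y := by
      have := iteratedFDeriv_sub_apply (𝕜 := ℝ) (i := j) (f := w) (g := mo φ w) (x := y)
        (hcd j hj2).contDiffAt (hsm.of_le (by exact_mod_cast le_top)).contDiffAt
      rw [← this]
      rfl
    have h2 : iteratedFDeriv ℝ j (mo φ w) y + iteratedFDeriv ℝ j (fun y => χ y • v y) y -
        iteratedFDeriv ℝ j w y = iteratedFDeriv ℝ j (fun y => χ y • v y) y -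
          iteratedFDeriv ℝ j v y := by rw [h1]; abel
    rw [h2]
    have h3 := hvj j hj2 y
    have h4 : δ * B ≤ η / 2 := by
      have h5 : (1:ℝ) ≤ 2 ^ N * A := by
        have : (1:ℝ) ≤ 2 ^ N := one_le_pow₀ (by norm_num)
        nlinarith
      have h6 : δ * B ≤ 2 ^ N * A * (δ * B) := le_mul_of_one_le_left (by positivity) h5
      linarith
    refine (norm_sub_le _ _).trans ?_
    linarith [hprod j hj2 y]

end Crest.Agent.R234.Sme_290
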