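import Crest.Agent.R234.Sme1_290
import Crest.Agent.R234.F3d_433

/-!
# Row 234 (helper290): the smoothing input `SmP` of F3
-/

set_option autoImplicit false

open MeasureTheory Metric Set Function Filter Topology
open scoped ContDiff
open Crest.GeometryTopology.Submanifold Crest.Agent.R234.Vf_884

namespace Crest.Agent.R234.Sme_290

theorem smP (m n : ℕ) : F3d_433.SmP m n := by
  intro w X0 R R' η hR0 hR hη hw hB hs
  obtain ⟨B, hB⟩ := hB
  obtain ⟨w', h1, h2, -, -, h3⟩ := exists_smooth_ext (N := 4) (w := w) (b := fun _ => B)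
    (by exact_mod_cast hw) (fun j _ hj Y => hB j (by omega) Y) hR0 hR hs hη
  exact ⟨w', h1, h2, h3⟩

end Crest.Agent.R234.Sme_290
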