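import Crest.Agent.R234.Wi4_870
import Crest.Agent.R234.Well5_761

/-!
# Row 234, N0-SMALL (helper870), for helper309

At a centre with small energy at all scales in `[h, τ0]` every point of the support over `B_{h/4}(x)` has
a large mass of the cylinder over `B_{τ0}(x)` at distance `≤ h` from its height.
-/

set_option autoImplicit false
set_option linter.unusedSectionVars false

open Set Filter Topology MeasureTheory Metric
open scoped ContDiff InnerProductSpace ENNReal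

noncomputable section

namespace Crest.Agent.R234.Sml_870

open Crest.Agent.R234.Well_761

variable {H : Type*} [PseudoMetricSpace H] [MeasurableSpace H] [OpensMeasurableSpace H]
variable {W : Type*} [NormedAddCommGroup W] [InnerProductSpace ℝ W] [MeasurableSpace W]
  [BorelSpace W]

variable {m : ℕ} {κ : ℝ → ℝ} {Kκ cκ : ℝ} {mu en : Measure (H × W)}
  {R : H → ℝ → ℝ} {er : H → ℝ → ℝ → ℝ} {K : ℝ} {x₀ : H} {ρ₀ : ℝ}

/-- the constant of N0-SMALL -/
def cS (m : ℕ) (K Kκ cκ c0 : ℝ) : ℝ :=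
  min (3 / 1024 * cκ * (c0 / 4 ^ m) / (K / 32 + K + 1))
    (3 / 32 * cκ * (c0 / 4 ^ m) / Kκ)

theorem cS_pos {K Kκ cκ c0 : ℝ} (m : ℕ) (hK : 0 ≤ K) (hKκ : 0 < Kκ) (hcκ : 0 < cκ)
    (hc0 : 0 < c0) : 0 < cS m K Kκ cκ c0 := by
  unfold cS
  refine lt_min ?_ ?_
  · positivity
  · positivity

theorem log_le_mul_sq {t : ℝ} (ht : 1 ≤ t) : Real.log t / t ^ 2 ≤ 1 := by
  rw [div_le_one (by positivity)]
  have h1 := Real.log_le_sub_one_of_pos (by linarith : 0 < t)
  nlinarith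

/-- upper bound of the functional of a bump by the mass of the box -/
theorem nu_bump_le (hκ : Ker κ Kκ cκ) {x : H} {y : W} {τ0 h : ℝ} (hτ : 0 < τ0) (hh : 0 < h)
    (hfin : mu (cyl x τ0 univ) ≠ ⊤) :
    nu m κ mu x (Real.log τ0) (bump y (4 * h)) ≤
      Kκ * ((4 * h) ^ 2 / 32) * ((τ0 ^ m)⁻¹ * (mu (cyl x τ0 (closedBall y h))).toReal) := by
  set B := cyl x τ0 (closedBall y h) with hB
  have hBm : MeasurableSet B := cyl_meas _ _ measurableSet_closedBall
  have hsub : B ⊆ cyl x τ0 univ := prod_mono subset_rfl (subset_univ _)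
  have hfinB : mu B ≠ ⊤ := ne_top_of_le_ne_top hfin (measure_mono hsub)
  have he : Real.exp (Real.log τ0) = τ0 := Real.exp_log hτ
  have h1 : ∫ z, κ (dist z.1 x * Real.exp (-Real.log τ0)) * bump y (4 * h) z.2 ∂mu ≤
      ∫ _z in B, (Kκ * ((4 * h) ^ 2 / 32)) ∂mu := by
    rw [← integral_indicator hBm]
    have h0 : IntegrableOn (fun _ : H × W => Kκ * ((4 * h) ^ 2 / 32)) B mu :=
      integrableOn_const hfinB
    refine integral_mono_of_nonneg ?_ (h0.integrable_indicator hBm) ?_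
    · exact Eventually.of_forall fun z => mul_nonneg (hκ.nonneg _) (bump_nonneg _ _ _)
    · refine Eventually.of_forall fun z => ?_
      simp only
      by_cases hz : z ∈ B
      · rw [indicator_of_mem hz]
        exact mul_le_mul (hκ.le _) (bump_le _ _ _) (bump_nonneg _ _ _) hκ.Kpos.le
      · rw [indicator_of_notMem hz]
        by_cases hz1 : z ∈ cyl x (Real.exp (Real.log τ0)) (univ : Set W)
        · have hz2 : z.2 ∉ closedBall y h := by
            intro hcon
            rw [he] at hz1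
            exact hz ⟨hz1.1, hcon⟩
          rw [mem_closedBall, not_le, dist_eq_norm] at hz2
          rw [bump_eq_zero (by positivity) (by linarith), mul_zero]
        · rw [ker_zero hκ hz1, zero_mul]
  have h2 : ∫ _z in B, (Kκ * ((4 * h) ^ 2 / 32)) ∂mu =
      Kκ * ((4 * h) ^ 2 / 32) * (mu B).toReal := by
    rw [setIntegral_const, smul_eq_mul, mul_comm]; rfl
  have h3 : Real.exp (-(m * Real.log τ0)) = (τ0 ^ m)⁻¹ := by
    rw [Real.exp_neg, Real.exp_nat_mul, he]
  unfold nu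
  rw [h3]
  calc (τ0 ^ m)⁻¹ * ∫ z, κ (dist z.1 x * Real.exp (-Real.log τ0)) * bump y (4 * h) z.2 ∂mu
      ≤ (τ0 ^ m)⁻¹ * (Kκ * ((4 * h) ^ 2 / 32) * (mu B).toReal) :=
        mul_le_mul_of_nonneg_left (h1.trans h2.le) (by positivity)
    _ = _ := by ring

/-- **N0-SMALL**, abstract form -/
theorem small_box (hfl : Flow m κ mu en R er K x₀ ρ₀) (hκ : Ker κ Kκ cκ) {c0 : ℝ} (hc0 : 0 < c0)
    {x x' : H} {y : W} {h τ0 lam : ℝ} (hh : 0 < h) (hτ : h ≤ τ0) (hx : dist x' x ≤ h / 4)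
    (hdom : dist x x₀ + τ0 ≤ ρ₀) (hfin : mu (cyl x τ0 univ) ≠ ⊤)
    (hlow : ENNReal.ofReal (c0 * (h / 4) ^ m) ≤ mu (cyl x' (h / 4) (closedBall y (h / 4))))
    (hen : ∀ s ∈ Icc h τ0, (en (cyl x s univ)).toReal ≤ lam * s ^ m)
    (hlam : lam ≤ cS m K Kκ cκ c0 * (h / τ0) ^ 2)
    (her : ∀ l ∈ Icc (Real.log h) (Real.log τ0),
      er x l (4 * h) ≤ cS m K Kκ cκ c0 / (1 + Real.log (τ0 / h)) * (4 * h) ^ 2) :
    ENNReal.ofReal (cS m K Kκ cκ c0 * τ0 ^ m) ≤ mu (cyl x τ0 (closedBall y h)) := by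
  set c := cS m K Kκ cκ c0 with hc
  have hK0 := hfl.K0
  have hKκ := hκ.Kpos
  have hcκ := hκ.cpos
  have hcpos : 0 < c := cS_pos m hK0 hKκ hcκ hc0
  have hτ0 : 0 < τ0 := hh.trans_le hτ
  have hlogh : Real.exp (Real.log h) = h := Real.exp_log hh
  have hlogτ : Real.exp (Real.log τ0) = τ0 := Real.exp_log hτ0
  have hll : Real.log h ≤ Real.log τ0 := Real.log_le_log hh hτ
  have hlq : Real.log τ0 - Real.log h = Real.log (τ0 / h) :=
    (Real.log_div hτ0.ne' hh.ne').symm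
  have h1t : 1 ≤ τ0 / h := by rw [le_div_iff₀ hh, one_mul]; exact hτ
  have hlog0 : 0 ≤ Real.log (τ0 / h) := Real.log_nonneg h1t
  have hq : 0 < 4 * h := by linarith
  have hlam0 : 0 ≤ lam := by
    have h1 := hen τ0 ⟨hτ, le_rfl⟩
    have h2 : 0 ≤ lam * τ0 ^ m := ENNReal.toReal_nonneg.trans h1
    exact nonneg_of_mul_nonneg_left h2 (by positivity)
  -- upward evolution
  have hup := hfl.up (x := x) (l0 := Real.log h) (l1 := Real.log τ0) (q := 4 * h) (lam := lam)
    (θ := c / (1 + Real.log (τ0 / h))) hll hq (by rw [hlogτ]; exact hdom) (by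
      intro l hl
      have h1 : h ≤ Real.exp l := by rw [← hlogh]; exact Real.exp_le_exp.2 hl.1
      have h2 : Real.exp l ≤ τ0 := by rw [← hlogτ]; exact Real.exp_le_exp.2 hl.2
      have h3 := hen (Real.exp l) ⟨h1, h2⟩
      rwa [← Real.exp_nat_mul] at h3) her (test_bump y hq).neg
  rw [nu_neg, nu_neg, hlq] at hup
  have hlow2 : 3 * (4 * h) ^ 2 / 512 * cκ * (c0 / 4 ^ m) ≤
      nu m κ mu x (Real.log h) (bump y (4 * h)) := by
    refine nu_ge hκ (x' := x') (p := y) (test_bump y hq).meas (M := (4 * h) ^ 2)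
      (test_bump y hq).bF (bump_nonneg y _) (by positivity) ?_ ?_ hc0.le ?_ ?_
    · intro y' hy'
      rw [hlogh] at hy'
      have h4 := bump_ge (p := y) hq (y := y') (by
        rw [← dist_eq_norm]
        have := mem_closedBall.1 hy'
        linarith)
      linarith
    · rw [hlogh]; exact hx
    · rw [hlogh]
      exact ne_top_of_le_ne_top hfin (measure_mono (prod_mono (closedBall_subset_closedBall hτ)
        subset_rfl))
    · rw [hlogh]; exact hlow
  -- the errors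
  have e1 : K * lam * (Real.exp (2 * Real.log τ0) / 2) ≤ c * (K / 32) * (4 * h) ^ 2 := by
    have h5 : Real.exp (2 * Real.log τ0) = τ0 ^ 2 := by
      have := Real.exp_nat_mul (Real.log τ0) 2
      rw [hlogτ] at this
      exact_mod_cast this
    rw [h5]
    have h6 : lam * τ0 ^ 2 ≤ c * h ^ 2 := by
      calc lam * τ0 ^ 2 ≤ c * (h / τ0) ^ 2 * τ0 ^ 2 := by gcongr
        _ = c * h ^ 2 := by field_simp
    calc K * lam * (τ0 ^ 2 / 2) = K / 2 * (lam * τ0 ^ 2) := by ring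
      _ ≤ K / 2 * (c * h ^ 2) := by gcongr
      _ = c * (K / 32) * (4 * h) ^ 2 := by ring
  have e2 : K * lam * Real.log (τ0 / h) ≤ c * K := by
    have h7 := log_le_mul_sq h1t
    calc K * lam * Real.log (τ0 / h) ≤ K * (c * (h / τ0) ^ 2) * Real.log (τ0 / h) := by gcongr
      _ = c * K * (Real.log (τ0 / h) / (τ0 / h) ^ 2) := by field_simp
      _ ≤ c * K * 1 := by gcongr
      _ = c * K := mul_one _
  have e3 : c / (1 + Real.log (τ0 / h)) * Real.log (τ0 / h) ≤ c := by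
    rw [div_mul_eq_mul_div, div_le_iff₀ (by linarith)]
    nlinarith
  have e4 : (K * lam + c / (1 + Real.log (τ0 / h))) * Real.log (τ0 / h) * (4 * h) ^ 2 ≤
      c * (K + 1) * (4 * h) ^ 2 := by
    refine mul_le_mul_of_nonneg_right ?_ (sq_nonneg _)
    calc (K * lam + c / (1 + Real.log (τ0 / h))) * Real.log (τ0 / h)
        = K * lam * Real.log (τ0 / h) + c / (1 + Real.log (τ0 / h)) * Real.log (τ0 / h) := by ring
      _ ≤ c * K + c := add_le_add e2 e3
      _ = c * (K + 1) := by ring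
  have e5 : c * (K / 32 + K + 1) ≤ 3 / 1024 * cκ * (c0 / 4 ^ m) := by
    have h8 : c ≤ 3 / 1024 * cκ * (c0 / 4 ^ m) / (K / 32 + K + 1) := min_le_left _ _
    rwa [le_div_iff₀ (by positivity)] at h8
  have e6 : 3 / 1024 * cκ * (c0 / 4 ^ m) * (4 * h) ^ 2 ≤
      nu m κ mu x (Real.log τ0) (bump y (4 * h)) := by
    have h9 := mul_le_mul_of_nonneg_right e5 (sq_nonneg (4 * h))
    linarith
  have e7 := e6.trans (nu_bump_le (m := m) hκ (y := y) hτ0 hh hfin)
  set M := (mu (cyl x τ0 (closedBall y h))).toReal with hM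
  have e8 : c * τ0 ^ m ≤ M := by
    have h10 : c ≤ 3 / 32 * cκ * (c0 / 4 ^ m) / Kκ := min_le_right _ _
    have h11 : 3 / 32 * cκ * (c0 / 4 ^ m) ≤ Kκ * ((τ0 ^ m)⁻¹ * M) := by
      have h12 : 0 < (4 * h) ^ 2 / 32 := by positivity
      have h13 : 3 / 32 * cκ * (c0 / 4 ^ m) * ((4 * h) ^ 2 / 32) ≤
          Kκ * ((τ0 ^ m)⁻¹ * M) * ((4 * h) ^ 2 / 32) := by
        calc 3 / 32 * cκ * (c0 / 4 ^ m) * ((4 * h) ^ 2 / 32)
            = 3 / 1024 * cκ * (c0 / 4 ^ m) * (4 * h) ^ 2 := by ring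
          _ ≤ _ := e7
          _ = _ := by ring
      exact le_of_mul_le_mul_right h13 h12
    have h14 : c ≤ (τ0 ^ m)⁻¹ * M := by
      refine h10.trans ?_
      rw [div_le_iff₀ hKκ]
      linarith
    calc c * τ0 ^ m ≤ ((τ0 ^ m)⁻¹ * M) * τ0 ^ m := by gcongr
      _ = M := by field_simp
  have hfinB : mu (cyl x τ0 (closedBall y h)) ≠ ⊤ :=
    ne_top_of_le_ne_top hfin (measure_mono (prod_mono subset_rfl (subset_univ _)))
  rw [← ENNReal.ofReal_toReal hfinB]
  exact ENNReal.ofReal_le_ofReal e8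

end Crest.Agent.R234.Sml_870
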