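import Crest.Agent.R234.Sml1_870

/-!
# Row 234, N0-SMALL, part 2 (helper870): varifold form

General measure `W` on points × planes with frames at all centres and a `Flow`; conclusion in the form
consumed by 762's `dv_small_fv`.
-/

set_option autoImplicit false

open MeasureTheory Set Function Filter Topology
open Crest.GeometryTopology.Submanifold
open Crest.Agent.R234.Vf_884 Crest.Agent.R234.Ar_870 Crest.Agent.R234.Cy_870
open Crest.Agent.R234.Wi_870
open scoped ENNReal NNReal InnerProductSpace ContDiff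

noncomputable section

namespace Crest.Agent.R234.Sml_870

variable {m n k : ℕ} {π : Euc k →L[ℝ] Euc m} {κ : Euc k →L[ℝ] Euc n} {x₀ : Euc m}
  {ρ₀ : ℝ} {W : Measure (Euc k × L k)} {g1 : ℝ → ℝ}

/-- ambient balls inside boxes -/
theorem ball_le_box (hs : Split π κ) (W : Measure (Euc k × L k)) (z : Euc k) {r : ℝ}
    (hr : 0 ≤ r) :
    W (Metric.closedBall z r ×ˢ univ) ≤
      muOf W π κ (Well_761.cyl (π z) r (Metric.closedBall (κ z) r)) := by
  have hcm : MeasurableSet (Well_761.cyl (π z) r (Metric.closedBall (κ z) r)) :=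
    Metric.isClosed_closedBall.measurableSet.prod Metric.isClosed_closedBall.measurableSet
  unfold muOf
  rw [Measure.map_apply (measurable_bh π κ) hcm]
  refine measure_mono ?_
  rintro q ⟨hq, -⟩
  rw [Metric.mem_closedBall, dist_eq_norm] at hq
  have hn := hs.norm_sq (q.1 - z)
  have hq2 : ‖q.1 - z‖ ^ 2 ≤ r ^ 2 := pow_le_pow_left₀ (norm_nonneg _) hq 2
  have h1 : ‖π (q.1 - z)‖ ≤ r :=
    (sq_le_sq₀ (norm_nonneg _) hr).1 (by nlinarith [sq_nonneg ‖κ (q.1 - z)‖])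
  have h2 : ‖κ (q.1 - z)‖ ≤ r :=
    (sq_le_sq₀ (norm_nonneg _) hr).1 (by nlinarith [sq_nonneg ‖π (q.1 - z)‖])
  rw [map_sub, ← dist_eq_norm] at h1 h2
  exact ⟨h1, h2⟩

/-- solid cylinders have finite mass -/
theorem muOf_cyl_ne_top (hfr : ∀ x L, Fr W π κ x L) (x : Euc m) {s : ℝ} (hs : 0 < s)
    (S : Set (Euc n)) : muOf W π κ (Well_761.cyl x s S) ≠ ⊤ := by
  refine ne_top_of_le_ne_top ?_ (measure_mono (Set.prod_mono subset_rfl (subset_univ S)))
  have hcm : MeasurableSet (Well_761.cyl x s (univ : Set (Euc n))) :=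
    Metric.isClosed_closedBall.measurableSet.prod MeasurableSet.univ
  change muOf W π κ (Well_761.cyl x s univ) ≠ ⊤
  unfold muOf
  rw [Measure.map_apply (measurable_bh π κ) hcm]
  refine ne_top_of_le_ne_top (hfr x (Real.log s + 1)).fin.ne (measure_mono ?_)
  intro p hp
  have h4 : ‖π p.1 - x‖ ≤ s := by
    have := hp.1
    rwa [Metric.mem_closedBall, bh, dist_eq_norm] at this
  have h5 : ‖π p.1 - x‖ ^ 2 ≤ s ^ 2 := pow_le_pow_left₀ (norm_nonneg _) h4 2
  have h6 : s ^ 2 = Real.exp (2 * Real.log s) := by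
    have h7 := Real.exp_nat_mul (Real.log s) 2
    rw [Real.exp_log hs] at h7
    exact_mod_cast h7.symm
  rw [h6] at h5
  refine lt_of_le_of_lt h5 (Real.exp_lt_exp.2 ?_)
  linarith

/-- **N0-SMALL**, varifold form: `W`-almost every point over `B_{h/4}(x)`, `x` a centre with small energy
at all scales in `[h, τ0]`, is `(h, 4 τ0)`-small in the sense of 762's `dv_small_fv` -/
theorem small_close (hfr : ∀ x L, Fr W π κ x L) {R : Euc m → ℝ → ℝ} {er : Euc m → ℝ → ℝ → ℝ}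
    {K : ℝ}
    (hfl : Well_761.Flow m (kap g1) (muOf W π κ) (enOf W π κ) R er K x₀ ρ₀) {Kκ cκ : ℝ}
    (hκ : Well_761.Ker (kap g1) Kκ cκ) {c0 : ℝ} (hc0 : 0 < c0) {h : ℝ} (hh : 0 < h)
    (hlow : ∀ᵐ z ∂W, ‖π z.1 - x₀‖ + h / 4 ≤ ρ₀ →
      ENNReal.ofReal (c0 * (h / 4) ^ m) ≤ W (Metric.closedBall z.1 (h / 4) ×ˢ univ)) :
    ∀ᵐ z ∂W, ∀ (x : Euc m) (τ0 lam : ℝ), ‖π z.1 - x‖ ≤ h / 4 → h ≤ τ0 → ‖x - x₀‖ + τ0 ≤ ρ₀ →
      (∀ s ∈ Icc h τ0, (enOf W π κ (Well_761.cyl x s univ)).toReal ≤ lam * s ^ m) →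
      lam ≤ cS m K Kκ cκ c0 * (h / τ0) ^ 2 →
      (∀ l ∈ Icc (Real.log h) (Real.log τ0),
        er x l (4 * h) ≤ cS m K Kκ cκ c0 / (1 + Real.log (τ0 / h)) * (4 * h) ^ 2) →
      cS m K Kκ cκ c0 * τ0 ^ m ≤
        W.real {p | ‖π (z.1 - p.1)‖ ≤ 2 * τ0 ∧ ‖κ (z.1 - p.1)‖ ≤ h} := by
  filter_upwards [hlow] with z hz x τ0 lam hx hτ hdom hen hlam her
  have hs : Split π κ := (hfr x 0).sp
  have hτ0 : 0 < τ0 := hh.trans_le hτ
  have h1 : ENNReal.ofReal (c0 * (h / 4) ^ m) ≤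
      muOf W π κ (Well_761.cyl (π z.1) (h / 4) (Metric.closedBall (κ z.1) (h / 4))) := by
    refine (hz ?_).trans (ball_le_box hs W z.1 (by linarith))
    have h2 : ‖π z.1 - x₀‖ ≤ ‖π z.1 - x‖ + ‖x - x₀‖ := norm_sub_le_norm_sub_add_norm_sub _ _ _
    linarith
  have h3 := small_box hfl hκ hc0 (x := x) (x' := π z.1) (y := κ z.1) (h := h) (τ0 := τ0)
    (lam := lam) hh hτ (by rw [dist_eq_norm]; exact hx) (by rw [dist_eq_norm]; exact hdom)
    (muOf_cyl_ne_top hfr x hτ0 univ) h1 hen hlam her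
  have hcm : MeasurableSet (Well_761.cyl x τ0 (Metric.closedBall (κ z.1) h)) :=
    Metric.isClosed_closedBall.measurableSet.prod Metric.isClosed_closedBall.measurableSet
  have hsub : bh π κ ⁻¹' Well_761.cyl x τ0 (Metric.closedBall (κ z.1) h) ⊆
      {p | ‖π (z.1 - p.1)‖ ≤ 2 * τ0 ∧ ‖κ (z.1 - p.1)‖ ≤ h} := by
    rintro p ⟨hp1, hp2⟩
    rw [Metric.mem_closedBall, bh, dist_eq_norm] at hp1 hp2
    refine ⟨?_, ?_⟩
    · rw [map_sub]
      have h5 : π z.1 - π p.1 = (π z.1 - x) - (π p.1 - x) := by abel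
      rw [h5]
      refine (norm_sub_le _ _).trans ?_
      change ‖π p.1 - x‖ ≤ τ0 at hp1
      linarith
    · rw [map_sub, norm_sub_rev]
      exact hp2
  have hmu : muOf W π κ (Well_761.cyl x τ0 (Metric.closedBall (κ z.1) h)) =
      W (bh π κ ⁻¹' Well_761.cyl x τ0 (Metric.closedBall (κ z.1) h)) := by
    unfold muOf
    rw [Measure.map_apply (measurable_bh π κ) hcm]
  have hfinB : W {p | ‖π (z.1 - p.1)‖ ≤ 2 * τ0 ∧ ‖κ (z.1 - p.1)‖ ≤ h} ≠ ⊤ := by
    refine ne_top_of_le_ne_top (muOf_cyl_ne_top hfr (π z.1) (s := 2 * τ0) (by linarith) univ) ?_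
    have hcm2 : MeasurableSet (Well_761.cyl (π z.1) (2 * τ0) (univ : Set (Euc n))) :=
      Metric.isClosed_closedBall.measurableSet.prod MeasurableSet.univ
    unfold muOf
    rw [Measure.map_apply (measurable_bh π κ) hcm2]
    refine measure_mono ?_
    rintro p ⟨hp1, -⟩
    refine ⟨?_, trivial⟩
    rw [Metric.mem_closedBall, bh, dist_eq_norm, norm_sub_rev]
    rw [map_sub] at hp1
    exact hp1
  rw [hmu] at h3
  have h6 := h3.trans (measure_mono hsub)
  rw [Measure.real]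
  exact (ENNReal.ofReal_le_iff_le_toReal hfinB).1 h6

end Crest.Agent.R234.Sml_870
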