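import Crest.Agent.R234.Pot4_425
import Crest.Agent.R234.Vit1_534

/-!
Row 234, VF-SOFT (helper309), part 1: the measure half of the soft sign lemma.
`soft_eps`: if at the points of `Z` and at all scales of a window `2 SS ε + D0 ≤ A e^(2s)`, then
`ε Z ≤ C δ e(B)` (534's growth argument over 425's averaged kernels).
-/

open MeasureTheory Filter Topology Set Metric
open scoped ENNReal NNReal

namespace Crest.Agent.R234.Soft_309

open Crest.Agent.R234.Pot_425 Crest.Agent.R234.Vit_534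

noncomputable section

set_option linter.unusedSectionVars false

variable {F : Type*} [NormedAddCommGroup F] [InnerProductSpace ℝ F] [FiniteDimensional ℝ F]
  [MeasurableSpace F] [BorelSpace F]

variable {m : ℕ} {τ : ℝ}

/-- constant of the kernel lower bound -/
def cS (F : Type*) [NormedAddCommGroup F] [InnerProductSpace ℝ F] [FiniteDimensional ℝ F]
    [MeasurableSpace F] [BorelSpace F] (m : ℕ) : ℝ :=
  m * (1 + m / 2) * (3 / 4) * ((1 / 2) ^ m * (volume : Measure F).real (ball 0 1))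

lemma cS_pos (hm : 0 < m) : 0 < cS F m := by
  unfold cS
  have h1 : 0 < (volume : Measure F).real (ball (0:F) 1) := by
    rw [measureReal_def]
    exact ENNReal.toReal_pos (measure_ball_pos _ _ one_pos).ne' measure_ball_lt_top.ne
  positivity

lemma vol_ball (hm : m = Module.finrank ℝ F) (x : F) {r : ℝ} (hr : 0 < r) :
    (volume : Measure F).real (ball x r) = r ^ m * (volume : Measure F).real (ball 0 1) := by
  rw [measureReal_def, measureReal_def, Measure.addHaar_ball_of_pos _ _ hr, hm,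
    ENNReal.toReal_mul, ENNReal.toReal_ofReal (by positivity)]

/-- lower bound of the averaged kernel -/
lemma kernel_lower (hm : m = Module.finrank ℝ F) (hτ : 0 < τ) (w : Wt) {ρ : ℝ} (hρ : 4 * τ ≤ ρ)
    {a : F} (ha : ‖a‖ ≤ ρ / 4) :
    w.θ (1 / 4) * cS F m / ρ ^ m ≤ ∫ y, w.psi y * DD m τ (‖a - ρ • y‖ ^ 2) := by
  have hρ0 : 0 < ρ := by linarith
  have hc : Continuous fun y : F => w.psi y * DD m τ (‖a - ρ • y‖ ^ 2) :=
    w.continuous_psi.mul ((continuous_DD hτ).comp (by fun_prop))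
  have hi : Integrable (fun y : F => w.psi y * DD m τ (‖a - ρ • y‖ ^ 2)) :=
    w.integrable_psi_mul ((continuous_DD hτ).comp (by fun_prop))
  set B : Set F := ball (ρ⁻¹ • a) (τ / (2 * ρ)) with hB
  have h1 : ∫ y in B, w.psi y * DD m τ (‖a - ρ • y‖ ^ 2) ≤
      ∫ y, w.psi y * DD m τ (‖a - ρ • y‖ ^ 2) :=
    setIntegral_le_integral hi
      (Eventually.of_forall fun y => mul_nonneg (w.psi_nonneg y) (DD_nonneg hτ _))
  refine le_trans ?_ h1
  set κ : ℝ := w.θ (1 / 4) * (m * (1 + m / 2) * (τ ^ 2) ^ (-(m : ℝ) / 2 - 1) * (3 / 4 * τ ^ 2))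
    with hκ
  have h2 : ∀ y ∈ B, κ ≤ w.psi y * DD m τ (‖a - ρ • y‖ ^ 2) := by
    intro y hy
    have h3 : ‖a - ρ • y‖ ≤ τ / 2 := by
      have h4 : a - ρ • y = -(ρ • (y - ρ⁻¹ • a)) := by
        rw [smul_sub, smul_smul, mul_inv_cancel₀ hρ0.ne', one_smul]
        abel
      rw [h4, norm_neg, norm_smul, Real.norm_of_nonneg hρ0.le]
      have h5 : ‖y - ρ⁻¹ • a‖ < τ / (2 * ρ) := by rw [hB, mem_ball, dist_eq_norm] at hy; exact hy
      have h6 : ρ * ‖y - ρ⁻¹ • a‖ ≤ ρ * (τ / (2 * ρ)) := by gcongr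
      have h7 : ρ * (τ / (2 * ρ)) = τ / 2 := by field_simp
      linarith
    have h8 : ‖y‖ ≤ 1 / 2 := by
      have h5 : ‖y - ρ⁻¹ • a‖ < τ / (2 * ρ) := by rw [hB, mem_ball, dist_eq_norm] at hy; exact hy
      have h9 : ‖ρ⁻¹ • a‖ ≤ 1 / 4 := by
        rw [norm_smul, norm_inv, Real.norm_of_nonneg hρ0.le, inv_mul_le_iff₀ hρ0]
        linarith
      have h10 : τ / (2 * ρ) ≤ 1 / 8 := by
        rw [div_le_iff₀ (by positivity)]; linarith
      have h11 : ‖y‖ ≤ ‖y - ρ⁻¹ • a‖ + ‖ρ⁻¹ • a‖ := by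
        have := norm_add_le (y - ρ⁻¹ • a) (ρ⁻¹ • a)
        simpa using this
      linarith
    have h12 : w.θ (1 / 4) ≤ w.psi y := by
      unfold Wt.psi
      apply w.antitone
      nlinarith [norm_nonneg y]
    have h13 : ‖a - ρ • y‖ ^ 2 ≤ τ ^ 2 / 4 := by nlinarith [norm_nonneg (a - ρ • y)]
    have h14 : m * (1 + m / 2) * (τ ^ 2) ^ (-(m : ℝ) / 2 - 1) * (3 / 4 * τ ^ 2) ≤
        DD m τ (‖a - ρ • y‖ ^ 2) := by
      rw [DD_of_le hτ (by nlinarith [sq_nonneg τ])]
      gcongr
      linarith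
    rw [hκ]
    exact mul_le_mul h12 h14 (by positivity) (w.psi_nonneg y)
  have h3 : κ * (volume : Measure F).real B ≤ ∫ y in B, w.psi y * DD m τ (‖a - ρ • y‖ ^ 2) := by
    have := setIntegral_ge_of_const_le (μ := (volume : Measure F)) (s := B) (c := κ)
      measurableSet_ball measure_ball_lt_top.ne h2 hi.integrableOn
    rw [smul_eq_mul] at this
    linarith
  refine le_trans (le_of_eq ?_) h3
  rw [hB, vol_ball hm _ (by positivity), hκ, cS]
  have h4 : (τ ^ 2) ^ (-(m : ℝ) / 2 - 1) * τ ^ 2 = (τ ^ m)⁻¹ := by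
    rw [← Real.rpow_natCast τ 2, ← Real.rpow_mul hτ.le, ← Real.rpow_add hτ,
      ← Real.rpow_natCast τ m, ← Real.rpow_neg hτ.le]
    congr 1
    push_cast
    ring
  have h5 : (τ / (2 * ρ)) ^ m = τ ^ m * ((1 / 2) ^ m / ρ ^ m) := by
    rw [div_pow, mul_pow, one_div, inv_pow]
    field_simp
  rw [h5]
  have h6 : (m : ℝ) * (1 + m / 2) * (τ ^ 2) ^ (-(m : ℝ) / 2 - 1) * (3 / 4 * τ ^ 2) =
      m * (1 + m / 2) * (3 / 4) * (τ ^ m)⁻¹ := by
    rw [← h4]; ring
  rw [h6]
  have h7 : τ ^ m ≠ 0 := by positivity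
  field_simp

/-- `∫ ψ(y) ε_τ(x - ρ y) dy` -/
def JJ (m : ℕ) (τ : ℝ) (w : Wt) (μ : Measure (XB F τ)) (x : F) (ρ : ℝ) : ℝ :=
  ∫ y, w.psi y * ml m τ μ (x - ρ • y)

lemma continuous_JJ (hτ : 0 < τ) (w : Wt) (μ : Measure (XB F τ)) [IsFiniteMeasure μ] (x : F) :
    Continuous (JJ m τ w μ x) := by
  unfold JJ
  refine continuous_int_ball (g := fun (ρ : ℝ) (y : F) => w.psi y * ml m τ μ (x - ρ • y)) ?_ ?_
  · have h1 := continuous_ml (m := m) hτ μ
    have h2 : Continuous fun p : ℝ × F => x - p.1 • p.2 := by fun_prop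
    exact (w.continuous_psi.comp continuous_snd).mul (h1.comp h2)
  · intro y hy z
    simp only [w.psi_zero hy, zero_mul]

lemma JJ_nonneg (hτ : 0 < τ) (w : Wt) (μ : Measure (XB F τ)) (x : F) (ρ : ℝ) :
    0 ≤ JJ m τ w μ x ρ :=
  integral_nonneg fun y => mul_nonneg (w.psi_nonneg y) (ml_nonneg hτ μ _)

lemma JJ_eq (hτ : 0 < τ) (w : Wt) (μ : Measure (XB F τ)) [IsFiniteMeasure μ] (x : F) (ρ : ℝ) :
    JJ m τ w μ x ρ = ∫ z, (∫ y : F, w.psi y * DD m τ (‖(x - (z : F)) - ρ • y‖ ^ 2)) ∂μ := by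
  have h : ∀ y (z : XB F τ), x - ρ • y - (z : F) = x - (z : F) - ρ • y := fun y z => by abel
  rw [← swap_ball (F := F) μ (g := fun (y : F) (z : XB F τ) =>
      w.psi y * DD m τ (‖(x - (z : F)) - ρ • y‖ ^ 2))]
  · unfold JJ ml
    refine integral_congr_ae (Eventually.of_forall fun y => ?_)
    simp only
    rw [integral_const_mul]
    congr 1
    refine integral_congr_ae (Eventually.of_forall fun z => ?_)
    simp only
    rw [h]
  · have h3 : Continuous fun p : F × XB F τ => ‖(x - (p.2 : F)) - ρ • p.1‖ ^ 2 := by fun_prop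
    exact (w.continuous_psi.comp continuous_fst).mul ((continuous_DD (m := m) hτ).comp h3)
  · intro y hy z
    rw [w.psi_zero hy, zero_mul]

lemma JJ_lower (hm : m = Module.finrank ℝ F) (hτ : 0 < τ) (w : Wt) (μ : Measure (XB F τ))
    [IsFiniteMeasure μ] (x : F) {ρ : ℝ} (hρ : 4 * τ ≤ ρ) :
    w.θ (1 / 4) * cS F m / ρ ^ m * (μ.map Subtype.val).real (closedBall x (ρ / 4)) ≤
      JJ m τ w μ x ρ := by
  have hρ0 : 0 < ρ := by linarith
  have hval : Measurable (Subtype.val : XB F τ → F) := measurable_subtype_coe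
  rw [JJ_eq hτ]
  have hc : Continuous fun z : XB F τ =>
      ∫ y : F, w.psi y * DD m τ (‖(x - (z : F)) - ρ • y‖ ^ 2) := by
    refine continuous_int_ball (g := fun (z : XB F τ) (y : F) =>
      w.psi y * DD m τ (‖(x - (z : F)) - ρ • y‖ ^ 2)) ?_ ?_
    · have h3 : Continuous fun p : XB F τ × F => ‖(x - (p.1 : F)) - ρ • p.2‖ ^ 2 := by fun_prop
      exact (w.continuous_psi.comp continuous_snd).mul ((continuous_DD (m := m) hτ).comp h3)
    · intro y hy z
      simp only [w.psi_zero hy, zero_mul]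
  have hi := integrable_cont μ hc
  set S : Set (XB F τ) := Subtype.val ⁻¹' (closedBall x (ρ / 4)) with hS
  have hSm : MeasurableSet S := hval measurableSet_closedBall
  have h1 : ∫ z in S, (∫ y : F, w.psi y * DD m τ (‖(x - (z : F)) - ρ • y‖ ^ 2)) ∂μ ≤
      ∫ z, (∫ y : F, w.psi y * DD m τ (‖(x - (z : F)) - ρ • y‖ ^ 2)) ∂μ :=
    setIntegral_le_integral hi (Eventually.of_forall fun z => integral_nonneg fun y =>
      mul_nonneg (w.psi_nonneg y) (DD_nonneg hτ _))
  refine le_trans ?_ h1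
  have h2 := setIntegral_ge_of_const_le (μ := μ) (s := S)
    (c := w.θ (1 / 4) * cS F m / ρ ^ m) hSm (measure_ne_top _ _) (fun z hz => by
      refine kernel_lower hm hτ w hρ ?_
      rw [hS, mem_preimage, mem_closedBall, dist_comm, dist_eq_norm] at hz
      exact hz) hi.integrableOn
  rw [smul_eq_mul] at h2
  rw [measureReal_def, Measure.map_apply hval measurableSet_closedBall, ← hS, ← measureReal_def]
  linarith

lemma hasDerivAt_SS (hτ : 0 < τ) (w : Wt) (μ : Measure (XB F τ)) [IsFiniteMeasure μ] (x : F)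
    (s : ℝ) : HasDerivAt (SS m τ w μ x) (s * JJ m τ w μ x s) s := by
  have h : Continuous fun ρ : ℝ => ρ * JJ m τ w μ x ρ := continuous_id.mul (continuous_JJ hτ w μ x)
  exact intervalIntegral.integral_hasDerivAt_right (h.intervalIntegrable 0 s)
    (h.stronglyMeasurableAtFilter _ _) h.continuousAt

lemma SS_nonneg' (hτ : 0 < τ) (w : Wt) (μ : Measure (XB F τ)) (x : F) {s : ℝ} (hs : 0 ≤ s) :
    0 ≤ SS m τ w μ x s := SS_nonneg hτ w μ x hs

/-- **the simple bound** over the averaged kernels of `Pot_425`. -/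
theorem soft_eps (hm : m = Module.finrank ℝ F) (hm2 : 2 ≤ m) (hτ : 0 < τ) (w : Wt)
    (ε : Measure (XB F τ)) [IsFiniteMeasure ε] (e : Measure F) [IsFiniteMeasure e]
    (Z B : Set F) {s0 A δ D0 D1 : ℝ} (N : ℕ) (hτs : τ ≤ s0) (hA : 0 < A) (hδ : 0 < δ)
    (hD0 : 0 ≤ D0)
    (hH : ∀ x ∈ Z, ∀ s ∈ Icc s0 (s0 * 1600 ^ (N + 1)),
      2 * SS m τ w ε x s + D0 ≤ A * e.real (closedBall x (2 * s)) / s ^ (m - 2))
    (hD1 : ∀ x ∈ Z, A * e.real (closedBall x (2 * (s0 * 1600 ^ (N + 1)))) /
      (s0 * 1600 ^ (N + 1)) ^ (m - 2) ≤ D1)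
    (hbig : D1 < (1 + δ) ^ N * (δ * D0))
    (hB : ∀ x ∈ Z, closedBall x (s0 * 1600 ^ (N + 1)) ⊆ B) :
    w.θ (1 / 4) * cS F m * 2 / 20 ^ (m - 2) * (ε.map Subtype.val).real Z ≤
      δ * A * 2 ^ (m - 2) * e.real B := by
  have hs0 : 0 < s0 := lt_of_lt_of_le hτ hτs
  set c : ℝ := Real.log 40 with hc
  have hc1 : 1 ≤ c := by
    rw [hc, Real.le_log_iff_exp_le (by norm_num)]
    exact (Real.exp_one_lt_d9.le).trans (by norm_num)
  have hexpc : Real.exp c = 40 := Real.exp_log (by norm_num)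
  set l0 : ℝ := Real.log (2 * s0) with hl0
  have hexp0 : Real.exp l0 = 2 * s0 := Real.exp_log (by positivity)
  have hN1 : (0 : ℝ) ≤ (N : ℝ) + 1 := by positivity
  have htop : Real.exp (l0 + 2 * c * (N + 1)) = 2 * (s0 * 1600 ^ (N + 1)) := by
    rw [Real.exp_add, hexp0]
    have h1 : Real.exp (2 * c * (N + 1)) = 1600 ^ (N + 1) := by
      have h2 : 2 * c * ((N : ℝ) + 1) = ((N + 1 : ℕ) : ℝ) * (c + c) := by push_cast; ring
      rw [h2, Real.exp_nat_mul, Real.exp_add, hexpc]
      norm_num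
    rw [h1]; ring
  set P : F → ℝ → ℝ := fun x l => 2 * SS m τ w ε x (Real.exp l / 2) with hP
  set p : F → ℝ → ℝ := fun x l =>
    2 * ((Real.exp l / 2) * ((Real.exp l / 2) * JJ m τ w ε x (Real.exp l / 2))) with hp
  set E : F → ℝ → ℝ := fun x l =>
    A * e.real (closedBall x (Real.exp l)) / (Real.exp l / 2) ^ (m - 2) with hE
  have hwin : ∀ l, l0 ≤ l → l ≤ l0 + 2 * c * (N + 1) →
      Real.exp l / 2 ∈ Icc s0 (s0 * 1600 ^ (N + 1)) := by
    intro l h1 h2
    have h3 := Real.exp_le_exp.2 h1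
    have h4 := Real.exp_le_exp.2 h2
    rw [hexp0] at h3
    rw [htop] at h4
    exact ⟨by linarith, by linarith⟩
  have hEs : ∀ x l, E x l = A * e.real (closedBall x (2 * (Real.exp l / 2))) /
      (Real.exp l / 2) ^ (m - 2) := by
    intro x l
    simp only [hE]
    rw [show 2 * (Real.exp l / 2) = Real.exp l by ring]
  have hpcont : ∀ x, Continuous (p x) := by
    intro x
    have h1 := continuous_JJ (m := m) hτ w ε x
    have h2 : Continuous fun l : ℝ => Real.exp l / 2 := by fun_prop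
    exact continuous_const.mul (h2.mul (h2.mul (h1.comp h2)))
  have hPder : ∀ x l, HasDerivAt (P x) (p x l) l := by
    intro x l
    have h1 := hasDerivAt_SS (m := m) hτ w ε x (Real.exp l / 2)
    have h2 : HasDerivAt (fun l : ℝ => Real.exp l / 2) (Real.exp l / 2) l :=
      (Real.hasDerivAt_exp l).div_const 2
    have h3 := (h1.comp l h2).const_mul 2
    refine h3.congr_deriv ?_
    simp only [hp]; ring
  have hp0 : ∀ x l, 0 ≤ p x l := fun x l => by
    have := JJ_nonneg (m := m) hτ w ε x (Real.exp l / 2)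
    simp only [hp]
    positivity
  have hmain := simple_bound (ε.map Subtype.val) (ENNReal.ofReal (A * 2 ^ (m - 2)) • e) Z B
    (n := ((m - 2 : ℕ) : ℝ)) p P E l0 c δ D0 D1 N (by linarith) hδ
    (fun x _ u v _ _ _ => ⟨(hpcont x).intervalIntegrable _ _,
      (intervalIntegral.integral_eq_sub_of_hasDerivAt (fun t _ => hPder x t)
        ((hpcont x).intervalIntegrable _ _)).symm⟩)
    (fun x _ t _ => hp0 x t)
    (fun x _ => by
      simp only [hP]
      have := SS_nonneg (m := m) hτ w ε x (s := Real.exp l0 / 2) (by positivity)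
      linarith)
    (fun x hx l hl => by
      have h1 := hH x hx _ (hwin l hl.1 hl.2)
      rw [← hEs] at h1
      simp only [hP]
      linarith)
    (fun x hx l hl => by
      have h1 := hH x hx _ (hwin l hl.1 hl.2)
      rw [← hEs] at h1
      have := SS_nonneg (m := m) hτ w ε x (s := Real.exp l / 2) (by positivity)
      linarith)
    (fun x hx => by
      have h1 := hD1 x hx
      simp only [hE]
      rw [htop, show 2 * (s0 * 1600 ^ (N + 1)) / 2 = s0 * 1600 ^ (N + 1) by ring]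
      exact h1)
    (by
      refine hbig.trans_le ?_
      have h1 : δ * D0 ≤ c * δ * D0 := by
        have : 0 ≤ δ * D0 := by positivity
        nlinarith
      have h2 : (1 + δ) ^ N ≤ (1 + c * δ) ^ N := by
        gcongr
        nlinarith
      have h3 : 0 ≤ δ * D0 := by positivity
      exact mul_le_mul h2 h1 h3 (by positivity))
    (ENNReal.ofReal (w.θ (1 / 4) * cS F m * 2 / 20 ^ (m - 2)))
    (fun x hx l hl1 hl2 => by
      have h20 : Real.exp (l + c) / 2 = 20 * Real.exp l := by rw [Real.exp_add, hexpc]; ring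
      have h3 := Real.exp_le_exp.2 hl1
      rw [hexp0] at h3
      have h4 := JJ_lower hm hτ w ε x (ρ := 20 * Real.exp l) (by linarith)
      rw [show 20 * Real.exp l / 4 = 5 * Real.exp l by ring] at h4
      rw [← ENNReal.ofReal_toReal (measure_ne_top (ε.map Subtype.val) (closedBall x (5 * Real.exp l))),
        ← ENNReal.ofReal_mul (by
          have := cS_pos (F := F) (m := m) (by omega)
          have := w.nonneg (1 / 4)
          positivity)]
      apply ENNReal.ofReal_le_ofReal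
      rw [← measureReal_def]
      simp only [hp]
      rw [h20]
      set M := (ε.map Subtype.val).real (closedBall x (5 * Real.exp l))
      have hn : Real.exp (((m - 2 : ℕ) : ℝ) * l) = Real.exp l ^ (m - 2) := by
        rw [← Real.exp_nat_mul]
      rw [hn]
      have h5 : (20 * Real.exp l) ^ m = (20 * Real.exp l) ^ (m - 2) * (20 * Real.exp l) ^ 2 := by
        rw [← pow_add]; congr 1; omega
      have h6 : 0 < Real.exp l := Real.exp_pos l
      have h7 : Real.exp l ^ (m - 2) * (2 * (20 * Real.exp l * (20 * Real.exp l *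
          (w.θ (1 / 4) * cS F m / (20 * Real.exp l) ^ m * M)))) =
          w.θ (1 / 4) * cS F m * 2 / 20 ^ (m - 2) * M := by
        rw [h5, mul_pow]
        field_simp
      rw [← h7]
      gcongr)
    (fun x hx l hl1 hl2 => by
      have hn : Real.exp (((m - 2 : ℕ) : ℝ) * l) = Real.exp l ^ (m - 2) := by
        rw [← Real.exp_nat_mul]
      rw [hn]
      simp only [hE, Measure.smul_apply, smul_eq_mul]
      rw [← ENNReal.ofReal_toReal (measure_ne_top e (closedBall x (Real.exp l))),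
        ← ENNReal.ofReal_mul (by positivity), ← measureReal_def]
      apply ENNReal.ofReal_le_ofReal
      have h6 : 0 < Real.exp l := Real.exp_pos l
      rw [div_pow]
      apply le_of_eq
      field_simp)
    (fun x hx => by
      refine (closedBall_subset_closedBall ?_).trans (hB x hx)
      rw [Real.exp_sub, htop, hexpc]
      have : 0 < s0 * 1600 ^ (N + 1) := by positivity
      linarith)
  -- back to reals
  have hk0 : 0 ≤ w.θ (1 / 4) * cS F m * 2 / 20 ^ (m - 2) := by
    have := cS_pos (F := F) (m := m) (by omega)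
    have := w.nonneg (1 / 4)
    positivity
  have h8 := ENNReal.toReal_mono (by
    simp only [Measure.smul_apply, smul_eq_mul]
    exact ENNReal.mul_ne_top ENNReal.ofReal_ne_top
      (ENNReal.mul_ne_top ENNReal.ofReal_ne_top (measure_ne_top _ _))) hmain
  simp only [Measure.smul_apply, smul_eq_mul, ENNReal.toReal_mul] at h8
  rw [ENNReal.toReal_ofReal hk0, ENNReal.toReal_ofReal hδ.le,
    ENNReal.toReal_ofReal (by positivity)] at h8
  rw [measureReal_def, measureReal_def]
  calc _ ≤ _ := h8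
    _ = _ := by ring

end

end Crest.Agent.R234.Soft_309
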