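import Mathlib
import Crest.Agent.R234.Sp1_643

/-!
# Multiscale spanning (VF-SPAN), part 2: Hausdorff measure and dimension
-/

open MeasureTheory Metric Set Filter Topology
open scoped ENNReal NNReal
open Crest.Agent.R234.Sp1_643

namespace Crest.Agent.R234.Sp2_643

section null

variable {E : Type*} [NormedAddCommGroup E] [MeasurableSpace E] [BorelSpace E]

/-- Borel-Cantelli for coverings. -/
theorem null_of_cov {X : Set E} {s : ℝ} (hs : 0 < s) (B : ℕ → Set E) (N ρ : ℕ → ℝ)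
    (hρ0 : ∀ K, 0 ≤ ρ K) (hρ : Tendsto ρ atTop (𝓝 0)) (hanti : Antitone ρ)
    (hcov : ∀ K, Cov (B K) (N K) (ρ K)) (hsum : ∀ K, N K * (ρ K) ^ s ≤ (1 / 2) ^ K)
    (hX : ∀ n, ∀ x ∈ X, ∃ K, n ≤ K ∧ x ∈ B K) : μH[s] X = 0 := by
  classical
  choose T hT1 hT2 hT3 using hcov
  let f : ℕ → ℝ≥0∞ := fun K => ENNReal.ofReal ((1 / 2) ^ K)
  have hf : ∑' K, f K ≠ ∞ := by
    have h1 : Summable fun K : ℕ => ((1:ℝ) / 2) ^ K := summable_geometric_two
    have h2 : ∑' K, f K = ENNReal.ofReal (∑' K : ℕ, ((1:ℝ) / 2) ^ K) :=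
      (ENNReal.ofReal_tsum_of_nonneg (fun n => by positivity) h1).symm
    rw [h2]
    exact ENNReal.ofReal_ne_top
  have hlim := ENNReal.tendsto_sum_nat_add f hf
  let t : ∀ n : ℕ, (Σ K : ℕ, {u // u ∈ T (K + n)}) → Set E := fun n a => (a.2 : Set E)
  have hbound : ∀ n, ∑' i, ediam (t n i) ^ s ≤ ∑' K, f (K + n) := by
    intro n
    rw [ENNReal.tsum_sigma']
    refine ENNReal.tsum_le_tsum fun K => ?_
    rw [tsum_fintype]
    have hdi : ∀ u : {u // u ∈ T (K + n)}, ediam (u : Set E) ^ s ≤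
        ENNReal.ofReal ((ρ (K + n)) ^ s) := by
      intro u
      rw [← ENNReal.ofReal_rpow_of_nonneg (hρ0 _) hs.le]
      refine ENNReal.rpow_le_rpow ?_ hs.le
      exact ediam_le_of_forall_dist_le ((hT2 _ _ u.2).2)
    calc ∑ u : {u // u ∈ T (K + n)}, ediam (u : Set E) ^ s
        ≤ ∑ _u : {u // u ∈ T (K + n)}, ENNReal.ofReal ((ρ (K + n)) ^ s) :=
          Finset.sum_le_sum fun u _ => hdi u
      _ = ((T (K + n)).card : ℝ≥0∞) * ENNReal.ofReal ((ρ (K + n)) ^ s) := by simp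
      _ = ENNReal.ofReal (((T (K + n)).card : ℝ) * (ρ (K + n)) ^ s) := by
          rw [ENNReal.ofReal_mul (by positivity)]
          simp
      _ ≤ ENNReal.ofReal ((1 / 2) ^ (K + n)) := by
          refine ENNReal.ofReal_le_ofReal (le_trans ?_ (hsum (K + n)))
          exact mul_le_mul_of_nonneg_right (hT1 _) (Real.rpow_nonneg (hρ0 _) _)
  have h0 : μH[s] X ≤ liminf (fun n => ∑' i, ediam (t n i) ^ s) atTop := by
    refine Measure.hausdorffMeasure_le_liminf_tsum s X (fun n => ENNReal.ofReal (ρ n)) ?_ t ?_ ?_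
    · have := (ENNReal.continuous_ofReal.tendsto 0).comp hρ
      rw [ENNReal.ofReal_zero] at this
      exact this
    · refine Eventually.of_forall fun n a => ?_
      refine ediam_le_of_forall_dist_le fun y hy z hz => ?_
      exact ((hT2 _ _ a.2.2).2 y hy z hz).trans (hanti (by omega))
    · refine Eventually.of_forall fun n x hx => ?_
      obtain ⟨K, hK, hxK⟩ := hX n x hx
      obtain ⟨u, hu, hxu⟩ := hT3 K x hxK
      obtain ⟨K', rfl⟩ : ∃ K', K = K' + n := ⟨K - n, by omega⟩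
      exact mem_iUnion.2 ⟨⟨K', u, hu⟩, hxu⟩
  have h1 : Tendsto (fun n => ∑' i, ediam (t n i) ^ s) atTop (𝓝 0) :=
    tendsto_of_tendsto_of_tendsto_of_le_of_le tendsto_const_nhds hlim (fun _ => zero_le) hbound
  rw [h1.liminf_eq] at h0
  exact le_antisymm h0 zero_le

end null

variable {E : Type*} [NormedAddCommGroup E] [InnerProductSpace ℝ E] [FiniteDimensional ℝ E]
  [MeasurableSpace E] [BorelSpace E]

/-- the fraction of non flat scales that is guaranteed -/
noncomputable def theta (E : Type*) [NormedAddCommGroup E] [InnerProductSpace ℝ E] (k : ℕ) (s : ℝ) :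
    ℝ := (s - k) / (2 * ((Module.finrank ℝ E : ℝ) + 1))

omit [FiniteDimensional ℝ E] [MeasurableSpace E] [BorelSpace E] in
theorem theta_pos {k : ℕ} {s : ℝ} (h : (k : ℝ) < s) : 0 < theta E k s := by
  unfold theta
  have : 0 < s - k := by linarith
  positivity

/-- Property of a point: for all large `K`, at least `θ K` of the first `K` scales are non flat. -/
def Spans (k : ℕ) (δ θ : ℝ) (A : Set E) (x : E) : Prop :=
  ∃ K0 : ℕ, ∀ K, K0 ≤ K → θ * K ≤ (good k δ A x 0 K : ℝ)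

theorem null_aux {k : ℕ} {s δ : ℝ} (hks : (k : ℝ) < s) (hδ : 0 < δ) (hδ1 : δ ≤ 1 / 2)
    (hC : C0 (Module.finrank ℝ E) * δ ^ ((s - k) / 2) ≤ 1 / 2) (A : Set E) (c : E) :
    μH[s] {x ∈ A ∩ closedBall c (1 / 2) | ¬ Spans k δ (theta E k s) A x} = 0 := by
  set d := Module.finrank ℝ E with hd
  have hs : 0 < s := lt_of_le_of_lt (by positivity) hks
  have hb1 : 1 ≤ 1 / δ := by rw [le_div_iff₀ hδ]; linarith
  set θ := theta E k s with hθ
  have hθ0 : 0 < θ := theta_pos hks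
  let B : ℕ → Set E := fun K =>
    {x ∈ A ∩ closedBall c (1 / 2) | (good k δ A x 0 K : ℝ) ≤ θ * K}
  let N : ℕ → ℝ := fun K => (C0 d * (1 / δ) ^ k) ^ K * ((1 / δ) ^ d) ^ (⌊θ * K⌋₊)
  refine null_of_cov hs B N (fun K => δ ^ K) (fun K => by positivity)
    (tendsto_pow_atTop_nhds_zero_of_lt_one hδ.le (by linarith))
    (pow_right_anti₀ hδ.le (by linarith)) ?_ ?_ ?_
  · intro K
    have h := tree (k := k) (A := A) hδ (by linarith) K 0 (⌊θ * K⌋₊) (B K)
      (fun x hx => hx.1.1) (fun y hy z hz => by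
        have h1 := hy.1.2
        have h2 := hz.1.2
        rw [mem_closedBall] at h1 h2
        have h3 := dist_triangle_right y z c
        rw [pow_zero]
        linarith) (fun x hx => by
        exact Nat.le_floor hx.2)
    rw [zero_add] at h
    exact h
  · intro K
    have hfl : ((⌊θ * K⌋₊ : ℕ) : ℝ) ≤ θ * K := Nat.floor_le (by positivity)
    have hb0 : (0:ℝ) < 1 / δ := by positivity
    have e1 : ((1 / δ) ^ d) ^ (⌊θ * K⌋₊) ≤ (1 / δ) ^ ((s - k) / 2 * K) := by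
      rw [← pow_mul, ← Real.rpow_natCast]
      refine Real.rpow_le_rpow_of_exponent_le hb1 ?_
      push_cast
      have h1 : (d : ℝ) * ((⌊θ * K⌋₊ : ℕ) : ℝ) ≤ d * (θ * K) := by gcongr
      have h2 : (d : ℝ) * θ ≤ (s - k) / 2 := by
        rw [hθ]; unfold theta
        rw [← hd]
        have h3 : 0 < s - k := by linarith
        have h4 : (0:ℝ) < (d : ℝ) + 1 := by positivity
        rw [mul_div_assoc', div_le_div_iff₀ (by positivity) (by norm_num)]
        nlinarith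
      calc (d : ℝ) * ((⌊θ * K⌋₊ : ℕ) : ℝ) ≤ d * (θ * K) := h1
        _ = d * θ * K := by ring
        _ ≤ (s - k) / 2 * K := by gcongr
    have e2 : (1 / δ) ^ ((s - k) / 2 * K) = ((1 / δ) ^ ((s - k) / 2)) ^ K := by
      rw [Real.rpow_mul hb0.le, Real.rpow_natCast]
    have e3 : (δ ^ K) ^ s = (δ ^ s) ^ K := by
      rw [← Real.rpow_natCast, ← Real.rpow_natCast, ← Real.rpow_mul hδ.le, ← Real.rpow_mul hδ.le,
        mul_comm]
    have hCp : 0 < C0 d := lt_of_lt_of_le one_pos (one_le_C0 d)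
    calc N K * (δ ^ K) ^ s
        ≤ (C0 d * (1 / δ) ^ k) ^ K * ((1 / δ) ^ ((s - k) / 2)) ^ K * (δ ^ s) ^ K := by
          rw [e3, ← e2]
          have e4 : N K ≤ (C0 d * (1 / δ) ^ k) ^ K * (1 / δ) ^ ((s - k) / 2 * K) := by
            simp only [N]
            gcongr
          gcongr
      _ = (C0 d * ((1 / δ) ^ k * (1 / δ) ^ ((s - k) / 2) * δ ^ s)) ^ K := by
          rw [← mul_pow, ← mul_pow]; congr 1; ring
      _ = (C0 d * δ ^ ((s - k) / 2)) ^ K := by
          congr 2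
          rw [one_div, inv_pow, ← Real.rpow_natCast, Real.inv_rpow hδ.le, ← Real.rpow_neg hδ.le,
            ← Real.rpow_neg hδ.le, ← Real.rpow_add hδ, ← Real.rpow_add hδ]
          congr 1; ring
      _ ≤ (1 / 2) ^ K := by
          gcongr
  · intro n x hx
    obtain ⟨hxA, hns⟩ := hx
    unfold Spans at hns
    push Not at hns
    obtain ⟨K, hK, h1⟩ := hns n
    exact ⟨K, hK, hxA, h1.le⟩

/-- **Multiscale spanning.** For `s > k` there is `δ₀ > 0` such that for `0 < δ ≤ δ₀`, with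
`θ = theta E k s > 0`, and for EVERY set `A`: for `μH[s]`-almost every `x ∈ A`, for all large `K` at
least `θ K` of the `K` first scales `δ ^ j` are non flat. -/
theorem span_null {k : ℕ} {s : ℝ} (hks : (k : ℝ) < s) :
    ∃ δ0 > 0, ∀ δ, 0 < δ → δ ≤ δ0 → ∀ A : Set E,
      μH[s] {x ∈ A | ¬ Spans k δ (theta E k s) A x} = 0 := by
  set d := Module.finrank ℝ E with hd
  have hCp : 0 < C0 d := lt_of_lt_of_le one_pos (one_le_C0 d)
  have he : 0 < (s - k) / 2 := by linarith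
  refine ⟨min (1 / 2) ((1 / (2 * C0 d)) ^ (1 / ((s - k) / 2))), ?_, ?_⟩
  · exact lt_min (by norm_num) (Real.rpow_pos_of_pos (by positivity) _)
  · intro δ hδ hδ0 A
    have h1 : δ ≤ 1 / 2 := hδ0.trans (min_le_left _ _)
    have h2 : δ ≤ (1 / (2 * C0 d)) ^ (1 / ((s - k) / 2)) := hδ0.trans (min_le_right _ _)
    have h3 : δ ^ ((s - k) / 2) ≤ 1 / (2 * C0 d) := by
      calc δ ^ ((s - k) / 2) ≤ ((1 / (2 * C0 d)) ^ (1 / ((s - k) / 2))) ^ ((s - k) / 2) := by
            gcongr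
        _ = 1 / (2 * C0 d) := by
            rw [← Real.rpow_mul (by positivity), one_div_mul_cancel he.ne', Real.rpow_one]
    have h4 : C0 d * δ ^ ((s - k) / 2) ≤ 1 / 2 := by
      calc C0 d * δ ^ ((s - k) / 2) ≤ C0 d * (1 / (2 * C0 d)) := by gcongr
        _ = 1 / 2 := by field_simp
    have h5 : {x ∈ A | ¬ Spans k δ (theta E k s) A x} ⊆
        ⋃ n : ℕ, {x ∈ A ∩ closedBall (TopologicalSpace.denseSeq E n) (1 / 2) |
          ¬ Spans k δ (theta E k s) A x} := by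
      rintro x ⟨hxA, hx⟩
      obtain ⟨n, hy⟩ := (TopologicalSpace.denseRange_denseSeq E).exists_dist_lt x
        (show (0:ℝ) < 1 / 2 by norm_num)
      exact mem_iUnion.2 ⟨n, ⟨hxA, hy.le⟩, hx⟩
    refine measure_mono_null h5 ?_
    exact measure_iUnion_null fun n => null_aux hks hδ h1 h4 A _

/-- If `dimH A > k` then there are points of `A` (even infinitely many in the sense of `μH[s]`) which see
a positive fraction of non flat scales; `δ` may be prescribed arbitrarily small. -/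
theorem exists_spans {k : ℕ} {A : Set E} (hA : (k : ℝ≥0∞) < dimH A) :
    ∃ s : ℝ≥0, (k : ℝ) < s ∧ (s : ℝ≥0∞) < dimH A ∧ ∃ δ0 > 0, ∀ δ, 0 < δ → δ ≤ δ0 →
      ∀ N ⊆ A, μH[(s : ℝ)] N ≠ ∞ → ∃ x ∈ A \ N, Spans k δ (theta E k s) A x := by
  obtain ⟨s, hs1, hs2⟩ := ENNReal.lt_iff_exists_nnreal_btwn.1 hA
  have hks : (k : ℝ) < s := by
    have : ((k : ℝ≥0) : ℝ≥0∞) < s := by simpa using hs1
    have h2 : (k : ℝ≥0) < s := by exact_mod_cast this
    exact_mod_cast h2
  refine ⟨s, hks, hs2, ?_⟩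
  obtain ⟨δ0, hδ0, h⟩ := span_null (E := E) hks
  refine ⟨δ0, hδ0, fun δ hδ hδδ N hN hNf => ?_⟩
  by_contra hcon
  push Not at hcon
  have h1 : μH[(s : ℝ)] A = ∞ := hausdorffMeasure_of_lt_dimH hs2
  have h2 : A ⊆ N ∪ {x ∈ A | ¬ Spans k δ (theta E k s) A x} := by
    intro x hx
    by_cases hxN : x ∈ N
    · exact Or.inl hxN
    · exact Or.inr ⟨hx, hcon x ⟨hx, hxN⟩⟩
  have h3 := (measure_mono h2).trans (measure_union_le (μ := μH[(s : ℝ)]) _ _)
  rw [h δ hδ hδδ A, add_zero, h1] at h3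
  exact hNf (top_le_iff.1 h3)

end Crest.Agent.R234.Sp2_643
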