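import Mathlib

/-!
# Row 234, stage (F-c): start scale with logarithmic gap (helper332)

`Λ = log (1 / D)` as a function of `l = log s` is antitone and finite. Then there are arbitrarily small
`l` with `Λ (l - Λ l ^ (-a)) ≤ p Λ l`: the frequency satisfies `N ≤ Λ ^ (1 + a)` at some scale near
`l`, so the window `N ≤ Λ ^ (1 + a)` (and not only `N ≤ D ^ (-2 γ)`) is reached.
-/

set_option autoImplicit false

open Set Filter Topology MeasureTheory

namespace Crest.Agent.R234.StartL_332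

/-- **start scale, logarithmic gap**: a positive antitone `L` on `(-∞, l₀]`, `p > 1`, `a > 0`. -/
theorem startl {L : ℝ → ℝ} {l₀ a p : ℝ} (ha : 0 < a) (hp : 1 < p) (hpos : ∀ l ≤ l₀, 0 < L l)
    (hanti : AntitoneOn L (Iic l₀)) :
    ∀ l₁ ≤ l₀, ∃ l ≤ l₁, L (l - L l ^ (-a)) ≤ p * L l := by
  intro l₁ hl₁
  by_contra hcon
  push Not at hcon
  let t : ℕ → ℝ := fun k => Nat.rec l₁ (fun _ x => x - L x ^ (-a)) k
  have t0 : t 0 = l₁ := rfl
  have tS : ∀ k, t (k + 1) = t k - L (t k) ^ (-a) := fun k => rfl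
  have ht : ∀ k, t k ≤ l₁ := by
    intro k
    induction k with
    | zero => exact le_refl _
    | succ k ih =>
      rw [tS]
      have := Real.rpow_nonneg (hpos _ (ih.trans hl₁)).le (-a)
      linarith
  have hL0 : 0 < L l₁ := hpos _ hl₁
  have hgrow : ∀ k, p ^ k * L l₁ ≤ L (t k) := by
    intro k
    induction k with
    | zero => simp [t0]
    | succ k ih =>
      have h1 := hcon (t k) (ht k)
      rw [← tS] at h1
      calc p ^ (k + 1) * L l₁ = p * (p ^ k * L l₁) := by ring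
        _ ≤ p * L (t k) := mul_le_mul_of_nonneg_left ih (by linarith)
        _ ≤ L (t (k + 1)) := h1.le
  set q : ℝ := p ^ (-a) with hq
  have hq0 : 0 ≤ q := Real.rpow_nonneg (by linarith) _
  have hq1 : q < 1 := Real.rpow_lt_one_of_one_lt_of_neg hp (by linarith)
  have hgap : ∀ k, L (t k) ^ (-a) ≤ q ^ k * L l₁ ^ (-a) := by
    intro k
    have h1 : 0 < p ^ k * L l₁ := by positivity
    calc L (t k) ^ (-a) ≤ (p ^ k * L l₁) ^ (-a) :=
          Real.rpow_le_rpow_of_nonpos h1 (hgrow k) (by linarith)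
      _ = q ^ k * L l₁ ^ (-a) := by
          rw [Real.mul_rpow (by positivity) hL0.le, hq, ← Real.rpow_natCast p k,
            ← Real.rpow_mul (by linarith), mul_comm (k : ℝ) (-a),
            Real.rpow_mul (by linarith), Real.rpow_natCast]
  have hlow : ∀ k, l₁ - L l₁ ^ (-a) * (1 - q)⁻¹ ≤ t k := by
    have h2 : ∀ k, l₁ - L l₁ ^ (-a) * ∑ i ∈ Finset.range k, q ^ i ≤ t k := by
      intro k
      induction k with
      | zero => simp [t0]
      | succ k ih =>
        rw [tS, Finset.sum_range_succ]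
        have := hgap k
        nlinarith
    intro k
    refine le_trans ?_ (h2 k)
    have h3 : ∑ i ∈ Finset.range k, q ^ i ≤ (1 - q)⁻¹ := by
      rw [← tsum_geometric_of_lt_one hq0 hq1]
      exact (summable_geometric_of_lt_one hq0 hq1).sum_le_tsum _ fun i _ => pow_nonneg hq0 i
    have h4 : 0 ≤ L l₁ ^ (-a) := Real.rpow_nonneg hL0.le _
    have := mul_le_mul_of_nonneg_left h3 h4
    linarith
  obtain ⟨k, hk⟩ := ((tendsto_pow_atTop_atTop_of_one_lt hp).eventually_gt_atTop
    (L (l₁ - L l₁ ^ (-a) * (1 - q)⁻¹) / L l₁)).exists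
  have h5 : L (t k) ≤ L (l₁ - L l₁ ^ (-a) * (1 - q)⁻¹) := by
    refine hanti ?_ ((ht k).trans hl₁) (hlow k)
    exact (hlow k).trans ((ht k).trans hl₁)
  have h6 := hgrow k
  rw [div_lt_iff₀ hL0] at hk
  linarith

/-- the frequency at a point of the gap. -/
theorem exists_small {L N : ℝ → ℝ} {l g c : ℝ} (hg : 0 < g)
    (hint : IntervalIntegrable N volume (l - g) l)
    (hLN : 2 * ∫ t in (l - g)..l, N t ≤ L (l - g) - L l) (hc : L (l - g) ≤ L l + 2 * g * c) :
    ∃ t ∈ Icc (l - g) l, N t ≤ c := by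
  by_contra hcon
  push Not at hcon
  have h1 : 0 < ∫ t in (l - g)..l, (N t - c) := by
    refine intervalIntegral.intervalIntegral_pos_of_pos_on (hint.sub intervalIntegrable_const) ?_
      (by linarith)
    intro x hx
    have := hcon x (Ioo_subset_Icc_self hx)
    linarith
  rw [intervalIntegral.integral_sub hint intervalIntegrable_const,
    intervalIntegral.integral_const] at h1
  simp only [smul_eq_mul] at h1
  nlinarith

/-- **start of the frequency stage**: `Λ` antitone, `Λ ≥ 1`, `Λ' = - 2 N` (integrated, `≥` suffices):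
arbitrarily small scales with `N ≤ (p - 1) / 2 · Λ ^ (1 + a)`. -/
theorem start_freq {L N : ℝ → ℝ} {l₀ a p : ℝ} (ha : 0 < a) (hp : 1 < p)
    (hpos : ∀ l ≤ l₀, 1 ≤ L l) (hanti : AntitoneOn L (Iic l₀))
    (hint : ∀ x y, x ≤ y → y ≤ l₀ → IntervalIntegrable N volume x y)
    (hLN : ∀ x y, x ≤ y → y ≤ l₀ → 2 * ∫ t in x..y, N t ≤ L x - L y) :
    ∀ l₁ ≤ l₀, ∃ t ≤ l₁, N t ≤ (p - 1) / 2 * L t ^ (1 + a) := by
  intro l₁ hl₁
  obtain ⟨l, hl, h⟩ := startl ha hp (fun l hl => by linarith [hpos l hl]) hanti l₁ hl₁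
  have hl0 := hl.trans hl₁
  have hL := hpos l hl0
  have hg : 0 < L l ^ (-a) := Real.rpow_pos_of_pos (by linarith) _
  have hid : L l ^ (-a) * L l ^ (1 + a) = L l := by
    rw [← Real.rpow_add (by linarith)]
    simp
  obtain ⟨t, ht, hN⟩ := exists_small (L := L) (N := N) (l := l) (g := L l ^ (-a))
    (c := (p - 1) / 2 * L l ^ (1 + a)) hg (hint _ _ (by linarith) hl0)
    (hLN _ _ (by linarith) hl0) (by
      have : 2 * L l ^ (-a) * ((p - 1) / 2 * L l ^ (1 + a)) = (p - 1) * L l := by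
        rw [show 2 * L l ^ (-a) * ((p - 1) / 2 * L l ^ (1 + a)) =
          (p - 1) * (L l ^ (-a) * L l ^ (1 + a)) by ring, hid]
      rw [this]
      linarith)
  refine ⟨t, ht.2.trans hl, hN.trans ?_⟩
  have h7 : L l ≤ L t := hanti (ht.2.trans hl0) hl0 ht.2
  have h8 : L l ^ (1 + a) ≤ L t ^ (1 + a) := Real.rpow_le_rpow (by linarith) h7 (by linarith)
  exact mul_le_mul_of_nonneg_left h8 (by linarith)

/-- the same start lemma for `D` as a function of the scale `s`. -/
theorem start_scale {D : ℝ → ℝ} {r₀ a p : ℝ} (ha : 0 < a) (hp : 1 < p)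
    (hpos : ∀ s, 0 < s → s ≤ r₀ → 0 < D s) (hlt : ∀ s, 0 < s → s ≤ r₀ → D s < 1)
    (hmono : ∀ s t, 0 < s → s ≤ t → t ≤ r₀ → D s ≤ D t) :
    ∀ r₁, 0 < r₁ → r₁ ≤ r₀ →
      ∃ s, 0 < s ∧ s ≤ r₁ ∧ D s ^ p ≤ D (s * Real.exp (-(-Real.log (D s)) ^ (-a))) := by
  intro r₁ hr₁ hr₁₀
  have hr₀ : 0 < r₀ := hr₁.trans_le hr₁₀
  have key := startl (L := fun l => -Real.log (D (Real.exp l))) (l₀ := Real.log r₀) ha hp ?_ ?_
    (Real.log r₁) (Real.log_le_log hr₁ hr₁₀)
  · obtain ⟨l, hl, h⟩ := key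
    have he : Real.exp l ≤ r₁ := by
      rw [← Real.exp_log hr₁]
      exact Real.exp_le_exp.2 hl
    refine ⟨Real.exp l, Real.exp_pos l, he, ?_⟩
    have hx : Real.exp (l - (-Real.log (D (Real.exp l))) ^ (-a)) =
        Real.exp l * Real.exp (-(-Real.log (D (Real.exp l))) ^ (-a)) := by
      rw [← Real.exp_add, sub_eq_add_neg]
    have h : -Real.log (D (Real.exp (l - (-Real.log (D (Real.exp l))) ^ (-a)))) ≤
        p * -Real.log (D (Real.exp l)) := h
    rw [hx] at h
    have hD := hpos _ (Real.exp_pos l) (he.trans hr₁₀)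
    have hle : Real.exp l * Real.exp (-(-Real.log (D (Real.exp l))) ^ (-a)) ≤ Real.exp l := by
      have h1 : 0 ≤ (-Real.log (D (Real.exp l))) ^ (-a) := Real.rpow_nonneg (by
        have := Real.log_neg hD (hlt _ (Real.exp_pos l) (he.trans hr₁₀))
        linarith) _
      have h2 : Real.exp (-(-Real.log (D (Real.exp l))) ^ (-a)) ≤ 1 :=
        Real.exp_le_one_iff.2 (by linarith)
      nlinarith [Real.exp_pos l]
    have hD' := hpos _ (mul_pos (Real.exp_pos l)
      (Real.exp_pos (-(-Real.log (D (Real.exp l))) ^ (-a)))) (hle.trans (he.trans hr₁₀))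
    rw [← Real.log_le_log_iff (Real.rpow_pos_of_pos hD p) hD', Real.log_rpow hD]
    linarith
  · intro l hl
    have he : Real.exp l ≤ r₀ := by
      rw [← Real.exp_log hr₀]
      exact Real.exp_le_exp.2 hl
    have := Real.log_neg (hpos _ (Real.exp_pos l) he) (hlt _ (Real.exp_pos l) he)
    change 0 < -Real.log (D (Real.exp l))
    linarith
  · intro x hx y hy hxy
    have hy' : Real.exp y ≤ r₀ := by
      rw [← Real.exp_log hr₀]
      exact Real.exp_le_exp.2 hy
    have h1 := hmono _ _ (Real.exp_pos x) (Real.exp_le_exp.2 hxy) hy'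
    have h2 := hpos _ (Real.exp_pos x) ((Real.exp_le_exp.2 hxy).trans hy')
    have := Real.log_le_log h2 h1
    change -Real.log (D (Real.exp y)) ≤ -Real.log (D (Real.exp x))
    linarith

end Crest.Agent.R234.StartL_332
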