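import Mathlib

/-!
# Row 234, stage (F-c): start scale and N-bound (helper471)

Pure real analysis, Mathlib only.

* `start` : a positive, non-decreasing function `D < 1` on `(0, r0]` has arbitrarily small scales `s`
  with `D s ^ p ≤ D (s * (1 - D s ^ gam))` (`p > 1`, `gam > 0`).
* `nbound` : Gronwall for the frequency: `(log N)' ≥ -(φ (L) * N + g)`, `L' = -2 N`.
-/

set_option autoImplicit false

open Set Filter Topology

namespace Crest.Agent.R234.Start_471

/-- Weierstrass: a product of `1 - a k` is at least `1 - ∑ a k`. -/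
theorem one_sub_sum_le_prod (a : ℕ → ℝ) (h0 : ∀ k, 0 ≤ a k) (h1 : ∀ k, a k ≤ 1) (n : ℕ) :
    1 - ∑ k ∈ Finset.range n, a k ≤ ∏ k ∈ Finset.range n, (1 - a k) := by
  induction n with
  | zero => simp
  | succ n ih =>
    rw [Finset.sum_range_succ, Finset.prod_range_succ]
    have hs : 0 ≤ ∑ k ∈ Finset.range n, a k := Finset.sum_nonneg fun k _ => h0 k
    have h2 : (1 - ∑ k ∈ Finset.range n, a k) * (1 - a n)
        ≤ (∏ k ∈ Finset.range n, (1 - a k)) * (1 - a n) :=
      mul_le_mul_of_nonneg_right ih (by linarith [h1 n])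
    nlinarith [mul_nonneg hs (h0 n)]

/-- Start scale. -/
theorem start {D : ℝ → ℝ} {r0 gam p : ℝ} (hg : 0 < gam) (hp : 1 < p)
    (hpos : ∀ s, 0 < s → s ≤ r0 → 0 < D s) (hlt : ∀ s, 0 < s → s ≤ r0 → D s < 1)
    (hmono : ∀ s t, 0 < s → s ≤ t → t ≤ r0 → D s ≤ D t) :
    ∀ r1, 0 < r1 → r1 ≤ r0 →
      ∃ s, 0 < s ∧ s ≤ r1 ∧ D s ^ p ≤ D (s * (1 - D s ^ gam)) := by
  intro r1 hr1 hr10
  by_contra hcon
  push Not at hcon
  -- the sequence
  let s : ℕ → ℝ := fun k => Nat.rec r1 (fun _ t => t * (1 - D t ^ gam)) k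
  have s0 : s 0 = r1 := rfl
  have sS : ∀ k, s (k + 1) = s k * (1 - D (s k) ^ gam) := fun k => rfl
  have hs : ∀ k, 0 < s k ∧ s k ≤ r1 := by
    intro k
    induction k with
    | zero => exact ⟨hr1, le_refl _⟩
    | succ k ih =>
      have hD0 := hpos (s k) ih.1 (ih.2.trans hr10)
      have hD1 := hlt (s k) ih.1 (ih.2.trans hr10)
      have h1 : D (s k) ^ gam < 1 := Real.rpow_lt_one hD0.le hD1 hg
      have h2 : 0 < D (s k) ^ gam := Real.rpow_pos_of_pos hD0 _
      rw [sS]
      constructor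
      · exact mul_pos ih.1 (by linarith)
      · calc s k * (1 - D (s k) ^ gam) ≤ s k * 1 :=
              mul_le_mul_of_nonneg_left (by linarith) ih.1.le
          _ ≤ r1 := by rw [mul_one]; exact ih.2
  have hD0 : ∀ k, 0 < D (s k) := fun k => hpos _ (hs k).1 ((hs k).2.trans hr10)
  have hD1 : ∀ k, D (s k) < 1 := fun k => hlt _ (hs k).1 ((hs k).2.trans hr10)
  -- decay
  have hdec : ∀ k, D (s k) ≤ D r1 ^ (p ^ k) := by
    intro k
    induction k with
    | zero => simp [s0]
    | succ k ih =>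
      have h1 : D (s (k + 1)) < D (s k) ^ p := by
        have := hcon (s k) (hs k).1 (hs k).2
        rwa [sS]
      calc D (s (k + 1)) ≤ D (s k) ^ p := h1.le
        _ ≤ (D r1 ^ (p ^ k)) ^ p :=
            Real.rpow_le_rpow (hD0 k).le ih (by linarith)
        _ = D r1 ^ (p ^ (k + 1)) := by
            rw [← Real.rpow_mul (hpos r1 hr1 hr10).le, pow_succ]
  -- geometric bound
  have hd0 := hpos r1 hr1 hr10
  have hd1 := hlt r1 hr1 hr10
  set q : ℝ := D r1 ^ (gam * (p - 1)) with hq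
  have hq0 : 0 < q := Real.rpow_pos_of_pos hd0 _
  have hq1 : q < 1 := Real.rpow_lt_one hd0.le hd1 (mul_pos hg (by linarith))
  have hgeo : ∀ k, D (s k) ^ gam ≤ q ^ k := by
    intro k
    have hb : 1 + (k : ℝ) * (p - 1) ≤ p ^ k := by
      have := one_add_mul_le_pow (a := p - 1) (by linarith) k
      simpa using this
    calc D (s k) ^ gam ≤ (D r1 ^ (p ^ k)) ^ gam :=
          Real.rpow_le_rpow (hD0 k).le (hdec k) hg.le
      _ = D r1 ^ (p ^ k * gam) := by rw [← Real.rpow_mul hd0.le]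
      _ ≤ D r1 ^ ((gam * (p - 1)) * k) := by
          apply Real.rpow_le_rpow_of_exponent_ge hd0 hd1.le
          nlinarith [hg]
      _ = q ^ k := by rw [hq, Real.rpow_mul_natCast hd0.le]
  -- tail sum small
  have hsum : Summable fun k => D (s k) ^ gam :=
    Summable.of_nonneg_of_le (fun k => (Real.rpow_pos_of_pos (hD0 k) _).le) hgeo
      (summable_geometric_of_lt_one hq0.le hq1)
  obtain ⟨k0, hk0⟩ : ∃ k0, ∑' k, D (s (k + k0)) ^ gam < 1 / 2 := by
    have := tendsto_sum_nat_add (fun k => D (s k) ^ gam)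
    exact ((this.eventually (gt_mem_nhds (by norm_num : (0 : ℝ) < 1 / 2))).exists)
  have hsum' : Summable fun k => D (s (k + k0)) ^ gam := (summable_nat_add_iff k0).2 hsum
  have hlow : ∀ n, s k0 / 2 ≤ s (k0 + n) := by
    intro n
    have hprod : s (k0 + n) = s k0 * ∏ k ∈ Finset.range n, (1 - D (s (k + k0)) ^ gam) := by
      induction n with
      | zero => simp
      | succ n ih =>
        rw [← add_assoc, sS, Finset.prod_range_succ, ← mul_assoc, ← ih, add_comm n k0]
    have h1 := one_sub_sum_le_prod (fun k => D (s (k + k0)) ^ gam)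
      (fun k => (Real.rpow_pos_of_pos (hD0 _) _).le)
      (fun k => (Real.rpow_lt_one (hD0 _).le (hD1 _) hg).le) n
    have h2 : ∑ k ∈ Finset.range n, D (s (k + k0)) ^ gam ≤ ∑' k, D (s (k + k0)) ^ gam :=
      hsum'.sum_le_tsum _ (fun k _ => (Real.rpow_pos_of_pos (hD0 _) _).le)
    rw [hprod]
    nlinarith [(hs k0).1]
  -- contradiction
  have hc : 0 < D (s k0 / 2) := hpos _ (by linarith [(hs k0).1]) (by linarith [(hs k0).1, (hs k0).2])
  have hlim : Tendsto (fun k : ℕ => D r1 ^ (p ^ k : ℝ)) atTop (𝓝 0) := by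
    have h1 : Tendsto (fun k : ℕ => (p : ℝ) ^ k) atTop atTop :=
      tendsto_pow_atTop_atTop_of_one_lt hp
    exact (tendsto_rpow_atTop_of_base_lt_one _ (by linarith) hd1).comp h1
  obtain ⟨k, hk⟩ := ((hlim.eventually (gt_mem_nhds hc)).and (eventually_ge_atTop k0)).exists
  obtain ⟨n, rfl⟩ := Nat.exists_eq_add_of_le hk.2
  have := hmono (s k0 / 2) (s (k0 + n)) (by linarith [(hs k0).1]) (hlow n) ((hs _).2.trans hr10)
  have := hdec (k0 + n)
  linarith [hk.1]

/-- N-bound: Gronwall for the frequency with error `φ (L) * N + g`, `L' = -2 N`. -/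
theorem nbound {lN L n N g Φ φ G : ℝ → ℝ} {a b : ℝ} (hab : a ≤ b)
    (hlN : ContinuousOn lN (Icc a b)) (hLc : ContinuousOn L (Icc a b))
    (hGc : ContinuousOn G (Icc a b)) (hΦ : ∀ t, HasDerivAt Φ (φ t) t)
    (dlN : ∀ l ∈ Ioo a b, HasDerivAt lN (n l) l) (dL : ∀ l ∈ Ioo a b, HasDerivAt L (-(2 * N l)) l)
    (dG : ∀ l ∈ Ioo a b, HasDerivAt G (g l) l)
    (hn : ∀ l ∈ Ioo a b, -(φ (L l) * N l + g l) ≤ n l) :
    lN a ≤ lN b + (Φ (L a) - Φ (L b)) / 2 + (G b - G a) := by
  have key : MonotoneOn (fun l => lN l - Φ (L l) / 2 + G l) (Icc a b) := by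
    apply monotoneOn_of_deriv_nonneg (convex_Icc a b)
    · have hΦc : Continuous Φ := continuous_iff_continuousAt.2 fun t => (hΦ t).continuousAt
      exact (hlN.sub ((hΦc.comp_continuousOn hLc).div_const 2)).add hGc
    · intro l hl
      rw [interior_Icc] at hl
      exact (((dlN l hl).sub (((hΦ (L l)).comp l (dL l hl)).div_const 2)).add
        (dG l hl)).differentiableAt.differentiableWithinAt
    · intro l hl
      rw [interior_Icc] at hl
      have h := ((dlN l hl).sub (((hΦ (L l)).comp l (dL l hl)).div_const 2)).add (dG l hl)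
      have h' : deriv (fun l => lN l - Φ (L l) / 2 + G l) l
          = n l - φ (L l) * -(2 * N l) / 2 + g l := h.deriv
      rw [h']
      have := hn l hl
      linarith
  have := key (left_mem_Icc.2 hab) (right_mem_Icc.2 hab) hab
  simp only at this
  linarith

end Crest.Agent.R234.Start_471
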