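import Crest.Agent.R234.Stp3_518

/-!
# Row 234, F7-STEPV (helper518), part 4: selection + switch in a fixed frame (`core_sel`)

`out_of_stepW` : `Out` of a reference from 290's `StepW.step6`.
`core_sel` : sharp sup (SupP) + selection (SelP3) + switch (SwP) for one reference.
-/

set_option autoImplicit false
set_option linter.unusedVariables false

open MeasureTheory Filter Topology Set
open scoped ENNReal NNReal ContDiff
open Crest.GeometryTopology.Submanifold Crest.Agent.R234.Vf_884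
open Crest.Agent.R234.Main_456 (Frame Msys hgt)
open Crest.Agent.R234.MG_570 (MG SelP3 bar)

noncomputable section

namespace Crest.Agent.R234.Stp_518

variable {m n k : ℕ}

/-! ### elementary -/

theorem ev_exp (C c : ℝ) (p : ℕ) (hc : 0 < c) {δ : ℝ} (hδ : 0 < δ) :
    ∀ᶠ L : ℝ in atTop, C * L ^ p * Real.exp (-(c * L)) ≤ δ := by
  have h1 : Tendsto (fun L : ℝ => c * L) atTop atTop := tendsto_id.const_mul_atTop hc
  have h2 := (Real.tendsto_pow_mul_exp_neg_atTop_nhds_zero p).comp h1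
  have h3 := h2.const_mul (C * (c ^ p)⁻¹)
  rw [mul_zero] at h3
  filter_upwards [h3.eventually (ge_mem_nhds hδ)] with L hL
  refine le_trans (le_of_eq ?_) hL
  simp only [Function.comp]
  rw [mul_pow]
  field_simp

theorem sqrt_I {I : ℝ → ℝ} {l : ℝ} (h : 0 < I l) : √(I l) = Real.exp (l - lam I l / 2) := by
  have e1 : I l = Real.exp (2 * l - lam I l) := by
    unfold lam
    rw [show 2 * l - (2 * l - Real.log (I l)) = Real.log (I l) by ring, Real.exp_log h]
  rw [Real.sqrt_eq_iff_mul_self_eq h.le (Real.exp_pos _).le, ← Real.exp_add]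
  nth_rewrite 1 [e1]
  congr 1
  ring

theorem sqrt_le_of {C K I L : ℝ} (m : ℕ) (hC : 0 ≤ C) (hI : 0 ≤ I) (hL : 0 ≤ L) (hK : 0 ≤ K)
    (hKL : K ≤ 4 * L ^ 2) :
    √(C * (4 * K) ^ (m + 2) * I) ≤ √C * 4 ^ (m + 2) * L ^ (m + 2) * √I := by
  rw [Real.sqrt_le_left (by positivity)]
  have e2 : (4 ^ (m + 2) : ℝ) ^ 2 = 16 ^ (m + 2) := by
    rw [← pow_mul, mul_comm (m + 2) 2, pow_mul]; norm_num
  have e3 : (L ^ (m + 2)) ^ 2 = (L ^ 2) ^ (m + 2) := by
    rw [← pow_mul, mul_comm (m + 2) 2, pow_mul]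
  have e1 : (√C * 4 ^ (m + 2) * L ^ (m + 2) * √I) ^ 2 = C * (16 * L ^ 2) ^ (m + 2) * I := by
    rw [mul_pow, mul_pow, mul_pow, Real.sq_sqrt hC, Real.sq_sqrt hI, e2, e3, mul_pow 16]
    ring
  rw [e1]
  have h4 : (4 * K) ^ (m + 2) ≤ (16 * L ^ 2) ^ (m + 2) :=
    pow_le_pow_left₀ (by positivity) (by linarith) _
  exact mul_le_mul_of_nonneg_right (mul_le_mul_of_nonneg_left h4 hC) hI

/-- `Out` from 290's one-step theorem. -/
theorem out_of_stepW {I E e b R : ℝ → ℝ} {C₀ δ w l K y : ℝ}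
    (h : Nb_290.StepW C₀ (l - 3 / K) l δ w I E e b R) (hC : 1 ≤ C₀) (hδ : 0 ≤ δ) (hw : 0 ≤ w)
    (hK : 32 ≤ K) (hy1 : y ≤ 1 / 100)
    (hy : δ + w * Real.exp (Nb_290.GC C₀ + 1) / I l ≤ y) (hN : 8 * fr E I l ≤ K) (hI : 0 < I l) :
    Out I E l K y (Nb_290.GC C₀) := by
  have hK0 : 0 < K := by linarith
  have h2K : 0 < 2 / K := by positivity
  have e3 : l - 3 / K ≤ l - 2 / K - 1 / K := by
    have : 3 / K = 2 / K + 1 / K := by rw [← add_div]; norm_num
    linarith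
  obtain ⟨h1, h2, h3, h4, -, h6⟩ := h.step6 (a := l - 2 / K) (y := y) (K := K) hC hδ hw hK hy1 e3
    (by linarith) (by linarith) hy hN hI
  have hla : l - 2 / K ≤ l := by linarith
  have hy0 : 0 ≤ y := by
    have : 0 ≤ w * Real.exp (Nb_290.GC C₀ + 1) / I l := by positivity
    linarith
  have h16 : 2 / K ≤ 1 / 16 := by
    rw [div_le_div_iff₀ hK0 (by norm_num)]; linarith
  have esub : l - (l - 2 / K) = 2 / K := by ring
  rw [esub] at h3 h4
  have g1 := h1 (l - 2 / K) l le_rfl hla le_rfl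
  rw [esub] at g1
  refine ⟨fun z hz => ?_, g1, h2, ?_, ?_, ?_⟩
  · have := h2 z hz
    by_contra hneg
    push Not at hneg
    have h5 : Real.exp (Nb_290.GC C₀) * I z ≤ 0 :=
      mul_nonpos_of_nonneg_of_nonpos (Real.exp_pos _).le hneg
    linarith
  · intro hc
    exact h3 hc
  · exact h4
  · intro z hz
    have := h6 z l hz.1 hz.2 le_rfl
    refine this.trans ?_
    refine mul_le_mul_of_nonneg_right (Real.exp_le_exp.2 ?_) hI.le
    have h7 : l - z ≤ 1 := by linarith [hz.1]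
    have h8 : 0 ≤ l - z := by linarith [hz.2]
    nlinarith

theorem pow_le_of {c W L : ℝ} {j p₀ : ℕ} (hc : c ≤ W) (hW : W ≤ L) (hL : 1 ≤ L)
    (hj : j + 1 ≤ p₀) : c * L ^ j ≤ L ^ p₀ := by
  have hL0 : 0 ≤ L := by linarith
  calc c * L ^ j ≤ L * L ^ j := mul_le_mul_of_nonneg_right (hc.trans hW) (by positivity)
    _ = L ^ (j + 1) := by rw [pow_succ]; ring
    _ ≤ L ^ p₀ := pow_le_pow_right₀ hL hj

theorem SupLe.mono {M : Mo m n k} {x : Euc k} {V : Measure (Euc k × L k)} {R R' η η' : ℝ}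
    (h : SupLe M x V R η) (hR : R' ≤ R) (hη : η ≤ η') : SupLe M x V R' η' := by
  have hS := M.S_pos
  filter_upwards [h] with p hp h1 h2
  exact (hp (h1.trans (mul_le_mul_of_nonneg_left hR hS.le)) h2).trans
    (mul_le_mul_of_nonneg_left hη hS.le)

theorem MeanK.mono {Ks : ℕ} {M : Mo m n k} {x : Euc k} {V : Measure (Euc k × L k)}
    {R R' τ τ' : ℝ} (h : MeanK Ks M x V R τ) (hR : R' ≤ R) (hτ : τ ≤ τ') :
    MeanK Ks M x V R' τ' := by
  have hS := M.S_pos
  intro ζ h1 h2 h3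
  exact (h ζ h1 (h2.trans (Metric.ball_subset_ball hR)) h3).trans
    (mul_le_mul_of_nonneg_left hτ (by positivity))

theorem MeanK.monoK {Ks Ks' : ℕ} {M : Mo m n k} {x : Euc k} {V : Measure (Euc k × L k)}
    {R τ : ℝ} (h : MeanK Ks M x V R τ) (hK : Ks ≤ Ks') : MeanK Ks' M x V R τ :=
  fun ζ h1 h2 h3 => h ζ h1 h2 fun j hj => h3 j (hj.trans hK)

theorem le_exp_of_log {a b G : ℝ} (hb : 0 < b) (h : Real.log a ≤ Real.log b + G) :
    a ≤ Real.exp G * b := by
  rcases le_or_gt a 0 with ha | ha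
  · exact ha.trans (by positivity)
  · have h1 := Real.exp_le_exp.2 h
    rw [Real.exp_log ha, Real.exp_add, Real.exp_log hb] at h1
    linarith

/-- the situation with a larger `ε`. -/
theorem Sit.mono {U : Set (Euc k)} {D : VarifoldData m k} {Q : ℕ} {x : Euc k} {M : Mo m n k}
    {ε ε' Λ : ℝ} (hs : Sit U D Q x M ε Λ) (h : ε ≤ ε') : Sit U D Q x M ε' Λ := by
  have hS := M.S_pos
  have hp := hs.pack
  refine ⟨hs.opn, hs.int, hs.st, hs.Q1, hs.Th, hs.sub, ?_⟩
  refine ⟨hp.frame, fun z h1 h2 => (hp.sup z h1 h2).trans (mul_le_mul_of_nonneg_right h hS.le),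
    ?_, ⟨hp.near.1, ?_, ?_⟩, fun A hA => ?_, hp.mass_le, hp.le_mass⟩
  · filter_upwards [hp.supae] with z hz h1
    exact (hz h1).trans (mul_le_mul_of_nonneg_right h hS.le)
  · exact hp.near.2.1.trans (mul_le_mul_of_nonneg_right h (by positivity))
  · refine hp.near.2.2.trans ?_
    gcongr
  · have hc := hp.cyl A hA
    refine ⟨hc.sp, hc.conc, hc.fin, hc.base, ?_, hc.stat⟩
    filter_upwards [hc.hgt] with z hz
    exact hz.trans h

set_option maxHeartbeats 1000000 in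
/-- **sharp sup + selection + switch in a fixed frame.** -/
theorem core_sel (hSup : SupP) (hSw : SwP) (hSel : SelP3) (m n : ℕ) (hm : 3 ≤ m) (hn : 1 ≤ n) :
    ∃ Ks₀ : ℕ, ∀ Ks : ℕ, Ks₀ ≤ Ks → ∀ Q : ℕ, 1 ≤ Q → ∃ N₀ : ℕ, ∀ N : ℕ, N₀ ≤ N →
      ∃ p₀ : ℕ, ∀ (q : ℕ) (T Λ G : ℝ),
      ∃ q₁ : ℕ, ∃ κ₀ ε L₁ : ℝ, 0 < κ₀ ∧ 0 < ε ∧
    ∀ (U : Set (Euc (m + n))) (D : VarifoldData m (m + n)) (x : Euc (m + n))
      (M : Mo m n (m + n)) (l K L : ℝ), L = lam (M.I x (VD D)) l →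
      Sit U D Q x M ε Λ → 0 ≤ M.κ → M.κ ≤ κ₀ →
      MG N M.κ (Real.exp (l + 1 / K - M.lb)) M.u → ‖fderiv ℝ M.u 0‖ ≤ κ₀ / (4 * K) →
      32 ≤ K → K ≤ 4 * L ^ 2 → M.lb - T ≤ l → l + 1 / K ≤ M.lb →
      0 < M.I x (VD D) l → L₁ ≤ L →
      Real.log (M.I x (VD D) (l + 3 / (4 * K))) ≤ Real.log (M.I x (VD D) l) + G →
      (∀ y ∈ Icc (l - 2 / K) l, M.I x (VD D) l ≤ Real.exp G * M.I x (VD D) y) →
      SupLe M x (VD D) (Real.exp (l + 1 / (2 * K) - M.lb)) (Real.exp (-(L / 8))) →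
      MeanK Ks M x (VD D) (Real.exp (l - M.lb) * (1 + 1 / (8 * K)))
        ((L ^ q₁)⁻¹ * √(M.I x (VD D) l)) →
      ∃ (u' : Euc m → Euc n) (A : ℝ), 0 ≤ A ∧ A ≤ L ^ p₀ * Real.exp (-(L / 2)) ∧
        MG N (M.κ + A) (rsel M.lb l K) u' ∧
        ‖fderiv ℝ u' 0‖ ≤ ‖fderiv ℝ M.u 0‖ + L ^ p₀ * Real.exp (-(L / 2)) ∧
        ∀ M' : Mo m n (m + n), M'.π = M.π → M'.ρ = M.ρ → M'.lb = M.lb → M'.u = u' →
          M'.κ = M.κ + A →
          SupLe M' x (VD D) (rsel M.lb l K) (L ^ p₀ * Real.exp (-(L / 2))) ∧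
          MeanK Ks M' x (VD D) (rsel M.lb l K)
            (L ^ p₀ * Real.exp (-(L / 2)) * √(M.I x (VD D) l)) ∧
          Near (M.I x (VD D)) (M.E x (VD D) Q) (M'.I x (VD D)) (M'.E x (VD D) Q) l K
            (L ^ q)⁻¹ := by
  obtain ⟨Ks, Ns, hNs2, Hsel⟩ := sel_step hSel m n (by omega)
  refine ⟨Ks, fun Ks' hKs Q hQ => ?_⟩
  obtain ⟨N1, Hsup⟩ := hSup m n Q hm hn hQ
  obtain ⟨N2, Hsw⟩ := hSw m n Q hm hn hQ
  refine ⟨max Ns (max N1 N2), fun N hN => ?_⟩
  have hN1 : Ns ≤ N := (le_max_left _ _).trans hN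
  have hN2 : N1 ≤ N := ((le_max_left _ _).trans (le_max_right _ _)).trans hN
  have hN3 : N2 ≤ N := ((le_max_right _ _).trans (le_max_right _ _)).trans hN
  obtain ⟨κsel, hκsel, p, Hsel⟩ := Hsel N hN1
  obtain ⟨Cb, hCb, Hb⟩ := Mx17_397.bdP m n N
  set p₀ := 2 * p + 2 * m + 8 with hp₀
  refine ⟨p₀, ?_⟩
  intro q T Λ G
  obtain ⟨Cs, κs, εs, hCs, hκs, hεs, Hsup⟩ := Hsup N hN2 (T + 1) Λ
  obtain ⟨q₁, κw, εw, Lw, hκw, hεw, Hsw⟩ := Hsw N hN3 Ks' p₀ q T Λ G
  obtain ⟨C, hC, Hsel⟩ := Hsel Λ T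
  set Dd := √(Cs * Real.exp G) * 4 ^ (m + 2) with hDd
  have hDd0 : 0 ≤ Dd := by positivity
  set a₀ := C * Dd * 32 ^ p with ha₀
  have ha₀0 : 0 ≤ a₀ := by positivity
  set W := 1 + Dd + a₀ + Cb * a₀ + a₀ * Dd with hW
  have hCa : 0 ≤ Cb * a₀ := by positivity
  have haD : 0 ≤ a₀ * Dd := by positivity
  -- thresholds
  have hev : ∀ᶠ L : ℝ in atTop, 16 * L ^ 2 * Real.exp (-(1 / 8 * L)) ≤ κs ∧
      1 * L ^ p₀ * Real.exp (-(1 / 2 * L)) ≤ min 1 (min κsel (κw / 2)) ∧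
      1 * L ^ (p₀ + q₁) * Real.exp (-(1 / 2 * L)) ≤ 1 ∧ W ≤ L ∧ 1 ≤ L ∧ Lw ≤ L := by
    filter_upwards [ev_exp 16 (1 / 8) 2 (by norm_num) hκs,
      ev_exp 1 (1 / 2) p₀ (by norm_num) (show 0 < min 1 (min κsel (κw / 2)) by positivity),
      ev_exp 1 (1 / 2) (p₀ + q₁) (by norm_num) one_pos, eventually_ge_atTop W,
      eventually_ge_atTop 1, eventually_ge_atTop Lw] with L h1 h2 h3 h4 h5 h6
    exact ⟨h1, h2, h3, h4, h5, h6⟩
  obtain ⟨L₁, hL₁⟩ := eventually_atTop.1 hev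
  refine ⟨q₁, min κsel (min κs (κw / 2)), min (1 / 8) (min εs εw), L₁, by positivity,
    by positivity, ?_⟩
  intro U D x M l K L hLdef hs hκ0 hκ hMG hdu hK hKL hT hlb hI hL hgr hgd hsup hmean
  obtain ⟨t1, t2, t3, t4, t5, t6⟩ := hL₁ L hL
  have hK0 : 0 < K := by linarith
  have hS := M.S_pos
  have hL0 : 0 < L := by linarith
  have eh8 : Real.exp (-(1 / 8 * L)) = Real.exp (-(L / 8)) := by congr 1; ring
  have eh2 : Real.exp (-(1 / 2 * L)) = Real.exp (-(L / 2)) := by congr 1; ring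
  rw [eh8] at t1
  rw [eh2, one_mul] at t2 t3
  set E := Real.exp (-(L / 2)) with hE
  have hE0 : 0 < E := Real.exp_pos _
  have hIe := le_exp_of_log hI hgr
  set I := M.I x (VD D) l with hIdef
  have hε1 : min (1 / 8) (min εs εw) ≤ 1 / 8 := min_le_left _ _
  have hεs' : min (1 / 8) (min εs εw) ≤ εs := (min_le_right _ _).trans (min_le_left _ _)
  have hεw' : min (1 / 8) (min εs εw) ≤ εw := (min_le_right _ _).trans (min_le_right _ _)
  set κ₀ := min κsel (min κs (κw / 2)) with hκ₀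
  have hk1 : κ₀ ≤ κsel := min_le_left _ _
  have hk2 : κ₀ ≤ κs := (min_le_right _ _).trans (min_le_left _ _)
  have hk3 : κ₀ ≤ κw / 2 := (min_le_right _ _).trans (min_le_right _ _)
  -- arithmetic of levels
  have q1 : 0 < 1 / K := by positivity
  have q2 : 1 / (2 * K) = 1 / K / 2 := by field_simp
  have q3 : 3 / (4 * K) = 3 * (1 / K) / 4 := by field_simp
  have q4 : 1 / (4 * K) = 1 / K / 4 := by field_simp
  have q8 : 1 / (8 * K) = 1 / K / 8 := by field_simp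
  have q32 : 1 / K ≤ 1 / 32 := one_div_le_one_div_of_le (by norm_num) hK
  -- sharp sup
  have hLd : lam (M.I x (VD D)) l = L := hLdef.symm
  have hsup1 := Hsup U D x M (l + 3 / (4 * K)) (4 * K) (hs.mono hεs') hκ0 (hκ.trans hk2)
    (hMG.mono le_rfl (Real.exp_le_exp.2 (by rw [q3]; linarith))) (by linarith)
    (by rw [q3]; linarith) (by rw [q3]; linarith)
    (hdu.trans (div_le_div_of_nonneg_right hk2 (by positivity)))
    (hsup.mono (Real.exp_le_exp.2 (by rw [q3, q4, q2]; linarith)) (by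
      rw [le_div_iff₀ (by positivity)]
      have : Real.exp (-(L / 8)) * (4 * K) ≤ Real.exp (-(L / 8)) * (16 * L ^ 2) :=
        mul_le_mul_of_nonneg_left (by linarith) (Real.exp_pos _).le
      linarith))
  set h := M.S⁻¹ * √(Cs * Real.exp G * (4 * K) ^ (m + 2) * I) with hh
  have hh0 : 0 ≤ h := by positivity
  have hsup2 : ∀ᵐ p ∂(VD D), ‖M.π (p.1 - x)‖ ≤ Real.exp (l + 1 / (2 * K)) →
      ‖M.ρ (p.1 - x)‖ ≤ M.S → ‖hgt M.π M.ρ x M.S M.u p.1‖ ≤ M.S * h := by
    filter_upwards [hsup1] with z hz h1 h2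
    have e1 : l + 3 / (4 * K) - 1 / (4 * K) = l + 1 / (2 * K) := by rw [q3, q4, q2]; ring
    rw [e1] at hz
    have h3 := hz h1 h2
    rw [hh, ← mul_assoc, mul_inv_cancel₀ hS.ne', one_mul]
    refine Real.le_sqrt_of_sq_le (h3.trans ?_)
    have h4 : Cs * (4 * K) ^ (m + 2) * M.I x (VD D) (l + 3 / (4 * K)) ≤
        Cs * (4 * K) ^ (m + 2) * (Real.exp G * I) := mul_le_mul_of_nonneg_left hIe (by positivity)
    refine h4.trans (le_of_eq ?_)
    ring
  have hSh : M.S * h ≤ Dd * L ^ (m + 2) * √I := by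
    rw [hh, ← mul_assoc, mul_inv_cancel₀ hS.ne', one_mul]
    exact sqrt_le_of m (by positivity) hI.le hL0.le hK0.le hKL
  have hsqI : √I = Real.exp (l - L / 2) := by
    have h0 : √I = Real.exp (l - lam (M.I x (VD D)) l / 2) := sqrt_I (I := M.I x (VD D)) hI
    rw [h0, ← hLdef]
  have hhE : h ≤ Dd * L ^ (m + 2) * E := by
    have h1 : √I ≤ M.S * E := by
      rw [hsqI, hE]
      unfold Mo.S
      rw [← Real.exp_add]
      exact Real.exp_le_exp.2 (by linarith)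
    have h2 : M.S * h ≤ M.S * (Dd * L ^ (m + 2) * E) := by
      refine hSh.trans ?_
      calc Dd * L ^ (m + 2) * √I ≤ Dd * L ^ (m + 2) * (M.S * E) :=
            mul_le_mul_of_nonneg_left h1 (by positivity)
        _ = _ := by ring
    exact le_of_mul_le_mul_left h2 hS
  -- the size of the change
  set A := C * h * (8 * K) ^ p with hA
  have hA0 : 0 ≤ A := by positivity
  have hAE : A ≤ a₀ * L ^ (m + 2 + 2 * p) * E := by
    have h1 : (8 * K) ^ p ≤ (32 * L ^ 2) ^ p := pow_le_pow_left₀ (by positivity) (by linarith) _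
    calc A ≤ C * (Dd * L ^ (m + 2) * E) * (32 * L ^ 2) ^ p := by
          rw [hA]
          exact mul_le_mul (mul_le_mul_of_nonneg_left hhE hC.le) h1 (by positivity) (by positivity)
      _ = a₀ * L ^ (m + 2 + 2 * p) * E := by
          rw [ha₀, mul_pow, ← pow_mul, pow_add L (m + 2) (2 * p)]; ring
  have hAE' : A ≤ L ^ p₀ * E := by
    refine hAE.trans (mul_le_mul_of_nonneg_right ?_ hE0.le)
    exact pow_le_of (W := W) (by rw [hW]; linarith) t4 t5 (by omega)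
  have hA1 : A ≤ 1 := hAE'.trans (t2.trans (min_le_left _ _))
  have hA2 : A ≤ κsel := hAE'.trans (t2.trans ((min_le_right _ _).trans (min_le_left _ _)))
  have hA3 : A ≤ κw / 2 := hAE'.trans (t2.trans ((min_le_right _ _).trans (min_le_right _ _)))
  obtain ⟨u', g1, g2, g3⟩ := Hsel (m + n) U D Q x M l K h _ hs hε1 hκ0 (hκ.trans hk1)
    (hMG.mono le_rfl (Real.exp_le_exp.2 (by rw [q2]; linarith))) (by linarith) hT
    (by rw [q2]; linarith) hh0 hsup2 hA1 hA2
  have hbd := Hb _ _ _ g2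
  have hcu := (Hb _ _ _ hMG).1
  have hcu' := (Hb _ _ _ g1).1
  have hCbA : Cb * A ≤ Cb * a₀ * L ^ (m + 2 + 2 * p) * E := by
    have := mul_le_mul_of_nonneg_left hAE hCb
    linarith
  refine ⟨u', A, hA0, hAE', g1, ?_, ?_⟩
  · -- gradient at the centre
    have hd1 : DifferentiableAt ℝ u' 0 := (hcu'.differentiable (by simp)).differentiableAt
    have hd2 : DifferentiableAt ℝ M.u 0 := (hcu.differentiable (by simp)).differentiableAt
    have h1 := hbd.2 1 (by omega) 0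
    rw [norm_iteratedFDeriv_one, fderiv_fun_sub hd1 hd2] at h1
    have h2 := norm_le_norm_add_norm_sub' (fderiv ℝ u' 0) (fderiv ℝ M.u 0)
    have h3 : Cb * A ≤ L ^ p₀ * E := by
      refine hCbA.trans (mul_le_mul_of_nonneg_right ?_ hE0.le)
      exact pow_le_of (W := W) (by rw [hW]; linarith) t4 t5 (by omega)
    linarith
  · intro M' e1 e2 e3 e4 e5
    have hS' : M'.S = M.S := by unfold Mo.S; rw [e3]
    have hrs : rsel M.lb l K ≤ Real.exp (l + 1 / (2 * K) - M.lb) := by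
      refine le_trans ?_ (rsel_mul (by linarith : (4:ℝ) ≤ K))
      have h1 := rsel_pos M.lb l K (by linarith)
      have h2 : 0 < 1 / (8 * K) := by positivity
      nlinarith
    have hmean' : MeanK Ks' M' x (VD D) (rsel M.lb l K)
        (L ^ p₀ * E * √I) := by
      refine ((g3 M' e1 e2 e3 e4).monoK hKs).mono le_rfl ?_
      have h1 : M.S * (C * h ^ 2 * (8 * K) ^ p) = A * (M.S * h) := by rw [hA]; ring
      rw [h1]
      calc A * (M.S * h) ≤ (a₀ * L ^ (m + 2 + 2 * p) * E) * (Dd * L ^ (m + 2) * √I) :=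
            mul_le_mul hAE hSh (by positivity) (by positivity)
        _ = (a₀ * Dd * L ^ (m + 2 + 2 * p + (m + 2))) * E * √I := by
            rw [pow_add L (m + 2 + 2 * p) (m + 2)]; ring
        _ ≤ L ^ p₀ * E * √I := by
            refine mul_le_mul_of_nonneg_right (mul_le_mul_of_nonneg_right ?_ hE0.le)
              (Real.sqrt_nonneg _)
            exact pow_le_of (W := W) (by rw [hW]; linarith) t4 t5 (by omega)
    refine ⟨?_, hmean', ?_⟩
    · filter_upwards [hsup2] with z hz h1 h2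
      rw [hS', e1] at h1
      rw [hS', e2] at h2
      have h3 : ‖M.π (z.1 - x)‖ ≤ Real.exp (l + 1 / (2 * K)) := by
        refine h1.trans ?_
        have h4 : M.S * rsel M.lb l K ≤ M.S * Real.exp (l + 1 / (2 * K) - M.lb) :=
          mul_le_mul_of_nonneg_left hrs hS.le
        have h5 : M.S * Real.exp (l + 1 / (2 * K) - M.lb) = Real.exp (l + 1 / (2 * K)) := by
          unfold Mo.S
          rw [← Real.exp_add]; congr 1; ring
        linarith
      have h4 := hz h3 h2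
      have h5 := hbd.2 0 (by omega) (M.S⁻¹ • M.π (z.1 - x))
      rw [norm_iteratedFDeriv_zero] at h5
      have h6 : hgt M'.π M'.ρ x M'.S M'.u z.1 = hgt M.π M.ρ x M.S M.u z.1 -
          M.S • (u' (M.S⁻¹ • M.π (z.1 - x)) - M.u (M.S⁻¹ • M.π (z.1 - x))) := by
        rw [e1, e2, hS', e4]
        unfold Main_456.hgt
        rw [smul_sub]
        abel
      rw [h6]
      refine (norm_sub_le _ _).trans ?_
      rw [norm_smul, Real.norm_of_nonneg hS.le, hS']
      have h7 : h + Cb * A ≤ L ^ p₀ * E := by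
        have i1 : h ≤ Dd * L ^ (m + 2 + 2 * p) * E := by
          refine hhE.trans (mul_le_mul_of_nonneg_right ?_ hE0.le)
          exact mul_le_mul_of_nonneg_left (pow_le_pow_right₀ t5 (by omega)) hDd0
        have i2 : (Dd + Cb * a₀) * L ^ (m + 2 + 2 * p) ≤ L ^ p₀ :=
          pow_le_of (W := W) (by rw [hW]; linarith) t4 t5 (by omega)
        have i3 := mul_le_mul_of_nonneg_right i2 hE0.le
        calc h + Cb * A ≤ Dd * L ^ (m + 2 + 2 * p) * E + Cb * a₀ * L ^ (m + 2 + 2 * p) * E :=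
              add_le_add i1 hCbA
          _ = (Dd + Cb * a₀) * L ^ (m + 2 + 2 * p) * E := by ring
          _ ≤ _ := i3
      have h8 : M.S * ‖u' (M.S⁻¹ • M.π (z.1 - x)) - M.u (M.S⁻¹ • M.π (z.1 - x))‖ ≤
          M.S * (Cb * A) := mul_le_mul_of_nonneg_left h5 hS.le
      have h9 : M.S * (h + Cb * A) ≤ M.S * (L ^ p₀ * E) := mul_le_mul_of_nonneg_left h7 hS.le
      linarith
    · -- switch
      have hr1 : Real.exp (l - M.lb) * (1 + 1 / (8 * K)) ≤ rsel M.lb l K := by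
        unfold rsel
        refine mul_le_mul_of_nonneg_left ?_ (Real.exp_pos _).le
        rw [q8, q4]; linarith
      have hLq : L ^ p₀ * E ≤ (L ^ q₁)⁻¹ := by
        rw [le_inv_comm₀ (by positivity) (by positivity), ← one_div,
          le_div_iff₀ (by positivity), ← mul_assoc, ← pow_add, add_comm q₁ p₀]
        exact t3
      have := Hsw U D x M M' l K A (hs.mono hεw') e1 e2 e3 hκ0 (hκ.trans (hk3.trans (by linarith)))
        (by rw [e5]; linarith) (by rw [e5]; linarith) hMG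
        (by rw [e4, e5]; exact g1.mono le_rfl hr1) (by rw [e4]; exact g2)
        (by rw [hLd]; exact hAE') hK (by rw [hLd]; exact hKL) hT hlb hI (by rw [hLd]; exact t6)
        hgr hgd ?_ (by rw [hLd]; exact hsup) (by rw [hLd]; exact hmean)
        (by rw [hLd]; exact hmean'.mono hr1 (mul_le_mul_of_nonneg_right hLq (Real.sqrt_nonneg _)))
      · rw [hLd] at this
        exact this
      · refine hdu.trans ?_
        rw [div_le_div_iff₀ (by positivity) hK0]
        have h1 : κ₀ * K ≤ κw * K := mul_le_mul_of_nonneg_right (by linarith) hK0.le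
        have h2 : κw * K ≤ κw * (4 * K) := mul_le_mul_of_nonneg_left (by linarith) hκw.le
        exact h1.trans h2

end Crest.Agent.R234.Stp_518
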