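import Crest.Agent.R234.Stp4_518
import Crest.Agent.R234.Mono1_757
import Crest.Agent.R234.Lvs1_214
import Crest.Agent.R234.End8_395

/-!
# Row 234, F7-STEPV (helper518), part 5: positivity, situation of a flat level, `Out` of a state

* `on_of_sit`, `I_posm` : positivity of `I` upwards (757).
* `sit_of` : 395's flat package for a reference at a flat level.
* `Near.mono`, `Near.trans`, `lam_near`.
* `out_sta` : `Out` from GLP.
-/

set_option autoImplicit false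
set_option linter.unusedVariables false

open MeasureTheory Filter Topology Set
open scoped ENNReal NNReal ContDiff
open Crest.GeometryTopology.Submanifold Crest.Agent.R234.Vf_884
open Crest.Agent.R234.Main_456 (Frame Msys hgt)
open Crest.Agent.R234.MG_570 (MG SelP3 bar)
open Crest.Agent.R234.F10d_188 (flatL)

noncomputable section

namespace Crest.Agent.R234.Stp_518

variable {m n k : ℕ}

/-! ### positivity -/

/-- constant of the class: `Gr` and positivity of `I` upwards. -/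
theorem I_posm (m n : ℕ) {N : ℕ} (hN : 2 ≤ N) : ∃ κ₀ : ℝ, 0 < κ₀ ∧
    ∀ {k : ℕ} {U : Set (Euc k)} {D : VarifoldData m k} {Q : ℕ} {x : Euc k} {M : Mo m n k}
      {ε Λ R : ℝ}, Sit U D Q x M ε Λ → 0 ≤ M.κ → M.κ ≤ κ₀ → MG N M.κ R M.u →
      ∀ {l l' : ℝ}, l ≤ l' → 0 < M.I x (VD D) l →
        0 < M.I x (VD D) l' ∧
          M.I x (VD D) l ≤ Real.exp (m * (l' - l)) * M.I x (VD D) l' := by
  obtain ⟨C, hC, H⟩ := Lvs_214.exists_wb m n hN
  refine ⟨1 / (8 * C), by positivity, ?_⟩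
  intro k U D Q x M ε Λ R hs hκ0 hκ hMG l l' hl hI
  have hCκ : C * M.κ ≤ 1 / 8 := by
    have h1 : C * M.κ ≤ C * (1 / (8 * C)) := mul_le_mul_of_nonneg_left hκ (by linarith)
    have h2 : C * (1 / (8 * C)) = 1 / 8 := by
      have : C ≠ 0 := by linarith
      field_simp
    linarith
  have hw := H hκ0 hCκ hMG
  have hf := hs.pack.frame
  have hst : Stat m k U (VD D) := stat_VD hs.int hs.st
  have hon := Mo.on_of_subset hw.gr hst ((hw.reg_sub_ball hf).trans hs.sub)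
  exact ⟨Mo.I_pos_mono hw.gr hf hon hl hI, Mo.I_mono hw.gr hf hon hl⟩

/-! ### the situation at a flat level -/

theorem sit_of (m n N Q : ℕ) (hm : 1 ≤ m) (hQ : 1 ≤ Q) (T : ℝ) (hT : 0 ≤ T) :
    ∃ Λ : ℝ, 1 ≤ Λ ∧ ∀ ε c₀ : ℝ, 0 < ε → T + 3 ≤ c₀ →
    ∃ κ₀ η om : ℝ, 0 < κ₀ ∧ 0 < η ∧ 0 < om ∧
      ∀ (U : Set (Euc (m + n))) (D : VarifoldData m (m + n)) (x : Euc (m + n)) (om' r₁ : ℝ)
        (M : Mo m n (m + n)) (l R : ℝ), om' ≤ om → Env m U D Q x om' r₁ →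
        flatL m (VD D) x om' c₀ r₁ l → l ≤ M.lb → M.lb ≤ l + T → Frame M.π M.ρ →
        0 ≤ M.κ → M.κ ≤ κ₀ → MG N M.κ R M.u →
        SupLe M x (VD D) (Real.exp (l - M.lb)) η → Sit U D Q x M ε Λ := by
  obtain ⟨Λ, hΛ, H⟩ := End_395.pack_mo m n (m + n) N Q hm hQ T hT
  refine ⟨Λ, hΛ, ?_⟩
  intro ε c₀ hε hc₀
  obtain ⟨ww, κ₀, η, hww, hww1, hκ₀, hη, H1⟩ := H (min ε (1 / 2)) (by positivity)
    (lt_of_le_of_lt (min_le_right _ _) (by norm_num))
  refine ⟨κ₀, η, ww * Real.exp (-((m + 2) * c₀)), hκ₀, hη, by positivity, ?_⟩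
  intro U D x om' r₁ M l R hom henv hfl hl1 hl2 hf hκ0 hκ hMG hsup
  have hS := M.S_pos
  have hst : Stat m (m + n) U (VD D) := stat_VD henv.int henv.st
  obtain ⟨hr, P, hP, hPe⟩ := hfl
  have hcS : c₀ ≤ c₀ := le_rfl
  have hmc : Real.exp (-((m + 2) * c₀)) ≤ 1 := Real.exp_le_one_iff.2 (by
    have : 0 ≤ ((m:ℝ) + 2) * c₀ := by
      have : 0 ≤ c₀ := by linarith
      positivity
    linarith)
  have hom1 : om' ≤ ww := hom.trans (by nlinarith)
  have h8 : 8 * M.S ≤ Real.exp (l + c₀) := by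
    have h1 : (8:ℝ) ≤ Real.exp 3 := by
      have h2 := Real.add_one_le_exp (1:ℝ)
      have h3 : Real.exp 3 = Real.exp 1 ^ 3 := by
        rw [← Real.exp_nat_mul]; norm_num
      rw [h3]
      have h4 : (2:ℝ) ≤ Real.exp 1 := by linarith
      calc (8:ℝ) = 2 ^ 3 := by norm_num
        _ ≤ _ := pow_le_pow_left₀ (by norm_num) h4 3
    calc 8 * M.S ≤ Real.exp 3 * M.S := mul_le_mul_of_nonneg_right h1 hS.le
      _ = Real.exp (3 + M.lb) := by unfold Mo.S; rw [Real.exp_add]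
      _ ≤ Real.exp (l + c₀) := Real.exp_le_exp.2 (by linarith)
  have h8r : 8 * M.S ≤ r₁ := h8.trans hr
  have hsub : Metric.closedBall x (8 * M.S) ⊆ U :=
    (Metric.closedBall_subset_closedBall h8r).trans henv.sub
  have hlS : Real.exp l ≤ M.S := Real.exp_le_exp.2 hl1
  have hflat : Top_395.FlatAt m (VD D) x ww (8 * M.S) := by
    refine ⟨P, hP, ?_⟩
    have h1 := Top_395.pex_mono (P := P) (m := m) hst (by positivity) h8
      ((Metric.closedBall_subset_closedBall hr).trans henv.sub)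
    have h2 : Real.exp (l + c₀) ^ (m + 2) * Top_395.pex m (VD D) P x (Real.exp (l + c₀)) ≤
        Real.exp (l + c₀) ^ (m + 2) * om' := mul_le_mul_of_nonneg_left hPe (by positivity)
    have h3 : Real.exp (l + c₀) ^ (m + 2) = Real.exp l ^ (m + 2) * Real.exp ((m + 2) * c₀) := by
      rw [Real.exp_add, mul_pow, ← Real.exp_nat_mul c₀]; push_cast; rfl
    have h4 : Real.exp l ^ (m + 2) ≤ (8 * M.S) ^ (m + 2) :=
      pow_le_pow_left₀ (Real.exp_pos _).le (by linarith) _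
    have h5 : Real.exp ((m + 2) * c₀) * om' ≤ ww := by
      calc Real.exp ((m + 2) * c₀) * om' ≤
            Real.exp ((m + 2) * c₀) * (ww * Real.exp (-((m + 2) * c₀))) :=
            mul_le_mul_of_nonneg_left hom (Real.exp_pos _).le
        _ = ww * (Real.exp ((m + 2) * c₀) * Real.exp (-((m + 2) * c₀))) := by ring
        _ = ww := by rw [← Real.exp_add]; simp
    have h6 : (8 * M.S) ^ (m + 2) * Top_395.pex m (VD D) P x (8 * M.S) ≤
        (8 * M.S) ^ (m + 2) * ww := by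
      refine (h1.trans h2).trans ?_
      rw [h3, mul_assoc]
      calc Real.exp l ^ (m + 2) * (Real.exp ((m + 2) * c₀) * om') ≤ Real.exp l ^ (m + 2) * ww :=
            mul_le_mul_of_nonneg_left h5 (by positivity)
        _ ≤ _ := mul_le_mul_of_nonneg_right h4 hww.le
    exact le_of_mul_le_mul_left h6 (by positivity)
  have hrat : rat m (VD D) x (8 * M.S) ≤ (Q : ℝ≥0∞) + ENNReal.ofReal ww := by
    refine (henv.drop _ (by positivity) h8r).trans ?_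
    gcongr
  have hp := H1 U D x M l R henv.opn henv.int henv.st henv.Th hsub hrat hf hκ0 hκ hMG
    (by linarith) hsup hflat
  have hs : Sit U D Q x M (min ε (1 / 2)) Λ := ⟨henv.opn, henv.int, henv.st, hQ, henv.Th, hsub, hp⟩
  exact hs.mono (min_le_left _ _)

/-! ### closeness -/

theorem Near.mono {I E I' E' : ℝ → ℝ} {l K θ θ' : ℝ} (h : Near I E I' E' l K θ) (hθ : θ ≤ θ')
    (hI : ∀ y ∈ Icc (l - 2 / K) l, 0 < I y) : Near I E I' E' l K θ' := fun y hy =>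
  ⟨(h y hy).1.trans (mul_le_mul_of_nonneg_right hθ (hI y hy).le),
    (h y hy).2.trans (mul_le_mul_of_nonneg_right hθ (hI y hy).le)⟩

theorem Near.trans {I E I₁ E₁ I₂ E₂ : ℝ → ℝ} {l K θ θ₁ : ℝ} (h : Near I E I₁ E₁ l K θ)
    (h' : Near I₁ E₁ I₂ E₂ l K θ₁) (hI : ∀ y ∈ Icc (l - 2 / K) l, 0 < I y) (h1 : 0 ≤ θ₁)
    (hθ : θ ≤ 1) : Near I E I₂ E₂ l K (θ + 2 * θ₁) := by
  intro y hy
  have h2 := hI y hy
  obtain ⟨a1, a2⟩ := h y hy
  obtain ⟨b1, b2⟩ := h' y hy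
  have h3 : I₁ y ≤ 2 * I y := by
    have := (abs_le.1 a1).2
    nlinarith
  have h4 : θ₁ * I₁ y ≤ θ₁ * (2 * I y) := mul_le_mul_of_nonneg_left h3 h1
  constructor
  · calc |I₂ y - I y| ≤ |I₂ y - I₁ y| + |I₁ y - I y| := abs_sub_le _ _ _
      _ ≤ θ₁ * (2 * I y) + θ * I y := by linarith
      _ = (θ + 2 * θ₁) * I y := by ring
  · calc |E₂ y - E y| ≤ |E₂ y - E₁ y| + |E₁ y - E y| := abs_sub_le _ _ _
      _ ≤ θ₁ * (2 * I y) + θ * I y := by linarith
      _ = (θ + 2 * θ₁) * I y := by ring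

/-- `Λ` of a close reference. -/
theorem lam_near {I I' : ℝ → ℝ} {l θ : ℝ} (hI : 0 < I l) (h : |I' l - I l| ≤ θ * I l)
    (hθ0 : 0 ≤ θ) (hθ : θ ≤ 1 / 100) : 0 < I' l ∧ lam I l - θ ≤ lam I' l ∧
      lam I' l ≤ lam I l + 2 * θ := by
  obtain ⟨h3, h4⟩ := abs_le.1 h
  have h1 : 0 < I' l := by nlinarith
  obtain ⟨g1, g2⟩ := log_bounds hI hθ0 hθ (by linarith) (by linarith : I' l ≤ (1 + θ) * I l)
  unfold lam
  exact ⟨h1, by linarith, by linarith⟩

/-! ### `Out` from `GLP` -/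

set_option maxHeartbeats 800000 in
theorem out_of_GLP (hGL : GLP) (m n Q : ℕ) (hm : 3 ≤ m) (hn : 1 ≤ n) (hQ : 1 ≤ Q) :
    ∃ N₀ : ℕ, ∀ N : ℕ, N₀ ≤ N → ∀ T Λ : ℝ, ∃ G₀ Cδ : ℝ, 0 ≤ G₀ ∧ 0 ≤ Cδ ∧ ∀ G : ℝ,
    ∃ κ₀ ε L₁ : ℝ, 0 < κ₀ ∧ 0 < ε ∧
    ∀ (U : Set (Euc (m + n))) (D : VarifoldData m (m + n)) (x : Euc (m + n))
      (M : Mo m n (m + n)) (l K L δu : ℝ), L = lam (M.I x (VD D)) l →
      Sit U D Q x M ε Λ → 0 ≤ M.κ → M.κ ≤ κ₀ → MG N M.κ (Real.exp (l + 1 / K - M.lb)) M.u →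
      32 ≤ K → K ≤ 2 * L ^ 2 → M.lb - T ≤ l → l + 1 / 8 ≤ M.lb → 0 < M.I x (VD D) l → L₁ ≤ L →
      8 * fr (M.E x (VD D) Q) (M.I x (VD D)) l ≤ K →
      Real.log (M.I x (VD D) (l + 1 / K)) ≤ Real.log (M.I x (VD D) l) + G →
      ‖fderiv ℝ M.u 0‖ ≤ δu → Cδ * δu ≤ 1 / (2 * L ^ 2) →
      Out (M.I x (VD D)) (M.E x (VD D) Q) l K (Cδ * M.kap l + 1 / L ^ 2) G₀ ∧
        Cδ * M.kap l + 1 / L ^ 2 ≤ 1 / 100 := by
  obtain ⟨N₀, H⟩ := hGL m n Q hm hn hQ
  refine ⟨max 2 N₀, fun N hN T Λ => ?_⟩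
  obtain ⟨C₀, Cδ, hC₀, hCδ, H⟩ := H N ((le_max_right _ _).trans hN) (T + 1) Λ
  obtain ⟨κp, hκp, Hp⟩ := I_posm m n ((le_max_left 2 N₀).trans hN)
  obtain ⟨κg, εg, Lg, hκg, hεg, H⟩ := H 3
  have hGC : 0 ≤ Nb_290.GC C₀ := by unfold Nb_290.GC; linarith
  refine ⟨Nb_290.GC C₀, 2 * Cδ, hGC, by positivity, fun G => ?_⟩
  set E := Real.exp (G + Nb_290.GC C₀ + 1) with hE
  have hE0 : 0 < E := Real.exp_pos _
  refine ⟨min κg (min κp (1 / (400 * (2 * Cδ + 1)))), εg,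
    max 40 (max (2 * Lg) (max (2 * |G|) (16 * E))), by positivity, hεg, ?_⟩
  intro U D x M l K L δu hLdef hs hκ0 hκ hMG hK hKL hT hlb hI hL hN8 hgr hdu hδu
  have b1 : (40:ℝ) ≤ L := (le_max_left _ _).trans hL
  have b2 : 2 * Lg ≤ L := ((le_max_left _ _).trans (le_max_right _ _)).trans hL
  have b3 : 2 * |G| ≤ L :=
    ((le_max_left _ _).trans ((le_max_right _ _).trans (le_max_right _ _))).trans hL
  have b4 : 16 * E ≤ L :=
    ((le_max_right _ _).trans ((le_max_right _ _).trans (le_max_right _ _))).trans hL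
  have hκg' : M.κ ≤ κg := hκ.trans (min_le_left _ _)
  have hκp' : M.κ ≤ κp := hκ.trans ((min_le_right _ _).trans (min_le_left _ _))
  have hκd : M.κ ≤ 1 / (400 * (2 * Cδ + 1)) :=
    hκ.trans ((min_le_right _ _).trans (min_le_right _ _))
  have hK0 : 0 < K := by linarith
  have hL0 : 0 < L := by linarith
  have q1 : 0 < 1 / K := by positivity
  have q32 : 1 / K ≤ 1 / 32 := one_div_le_one_div_of_le (by norm_num) hK
  have q3 : 3 / K = 3 * (1 / K) := by ring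
  have hG1 := le_abs_self G
  -- the top level
  have hIc := (Hp hs hκ0 hκp' hMG (l := l) (l' := l + 1 / K) (by linarith) hI).1
  have hlc : L - G ≤ lam (M.I x (VD D)) (l + 1 / K) := by
    rw [hLdef]; unfold lam; linarith
  have hlc2 : L / 2 ≤ lam (M.I x (VD D)) (l + 1 / K) := by linarith
  have hK3 : K ≤ lam (M.I x (VD D)) (l + 1 / K) ^ 3 := by
    have h1 : (L / 2) ^ 3 ≤ lam (M.I x (VD D)) (l + 1 / K) ^ 3 :=
      pow_le_pow_left₀ (by positivity) hlc2 3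
    have h2 : 2 * L ^ 2 ≤ (L / 2) ^ 3 := by nlinarith [sq_nonneg L]
    linarith
  obtain ⟨R, w, hw0, hw, hst⟩ := H U D x M (l - 3 / K) (l + 1 / K) K hs hκ0 hκg' hMG (by linarith)
    (by linarith) (by rw [q3]; linarith) (by linarith) hIc (by linarith) hK3
  have etop : l + 1 / K - 1 / K = l := by ring
  rw [etop] at hst
  have hIe := le_exp_of_log hI hgr
  set δ := Cδ * (M.κ * Real.exp (l + 1 / K - M.lb) + ‖fderiv ℝ M.u 0‖) with hδ
  have hδ0 : 0 ≤ δ := by positivity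
  have hkap0 : 0 ≤ M.kap l := M.kap_nonneg hκ0 l
  have hkap1 : M.kap l ≤ M.κ := by
    unfold Mo.kap
    have : Real.exp (-(4 / 5 * (M.lb - l))) ≤ 1 := Real.exp_le_one_iff.2 (by linarith)
    nlinarith
  have hL2 : 0 < L ^ 2 := by positivity
  -- curvature part
  have hk2 : M.κ * Real.exp (l + 1 / K - M.lb) ≤ 2 * M.kap l := by
    unfold Mo.kap
    have h1 : Real.exp (l + 1 / K - M.lb) ≤
        Real.exp (1 / 2) * Real.exp (-(4 / 5 * (M.lb - l))) := by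
      rw [← Real.exp_add]
      exact Real.exp_le_exp.2 (by linarith)
    have h2 : Real.exp (1 / 2 : ℝ) ≤ 2 := by
      have h1 : Real.exp (1 / 2 : ℝ) * Real.exp (1 / 2) = Real.exp 1 := by
        rw [← Real.exp_add]; norm_num
      have h2 := Real.exp_one_lt_d9
      have h3 := Real.exp_pos (1 / 2 : ℝ)
      nlinarith
    have h3 := Real.exp_pos (-(4 / 5 * (M.lb - l)))
    calc M.κ * Real.exp (l + 1 / K - M.lb) ≤
          M.κ * (2 * Real.exp (-(4 / 5 * (M.lb - l)))) :=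
          mul_le_mul_of_nonneg_left (h1.trans (mul_le_mul_of_nonneg_right h2 h3.le)) hκ0
      _ = _ := by ring
  have hδ1 : δ ≤ 2 * Cδ * M.kap l + 1 / (4 * L ^ 2) := by
    have h1 : Cδ * (M.κ * Real.exp (l + 1 / K - M.lb)) ≤ Cδ * (2 * M.kap l) :=
      mul_le_mul_of_nonneg_left hk2 hCδ
    have h2 : Cδ * ‖fderiv ℝ M.u 0‖ ≤ Cδ * δu := mul_le_mul_of_nonneg_left hdu hCδ
    have h3 : 1 / (4 * L ^ 2) = 1 / (2 * L ^ 2) / 2 := by field_simp; norm_num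
    rw [hδ, mul_add]
    linarith
  -- window part
  have hw1 : w * Real.exp (Nb_290.GC C₀ + 1) / M.I x (VD D) l ≤ 1 / (2 * L ^ 2) := by
    have h1 : (lam (M.I x (VD D)) (l + 1 / K) ^ 3)⁻¹ ≤ ((L / 2) ^ 3)⁻¹ :=
      inv_anti₀ (by positivity) (pow_le_pow_left₀ (by positivity) hlc2 3)
    have h2 : w ≤ ((L / 2) ^ 3)⁻¹ * (Real.exp G * M.I x (VD D) l) :=
      hw.trans (mul_le_mul h1 hIe hIc.le (by positivity))
    rw [div_le_iff₀ hI]
    have h3 : w * Real.exp (Nb_290.GC C₀ + 1) ≤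
        ((L / 2) ^ 3)⁻¹ * (Real.exp G * M.I x (VD D) l) * Real.exp (Nb_290.GC C₀ + 1) :=
      mul_le_mul_of_nonneg_right h2 (Real.exp_pos _).le
    have h4 : ((L / 2) ^ 3)⁻¹ * (Real.exp G * M.I x (VD D) l) * Real.exp (Nb_290.GC C₀ + 1) =
        ((L / 2) ^ 3)⁻¹ * E * M.I x (VD D) l := by
      rw [hE, add_assoc, Real.exp_add G]; ring
    rw [h4] at h3
    refine h3.trans (mul_le_mul_of_nonneg_right ?_ hI.le)
    have h5 : ((L / 2) ^ 3)⁻¹ * E = (8 * E) / L ^ 3 := by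
      rw [div_pow, inv_div]; ring
    rw [h5, div_le_div_iff₀ (by positivity) (by positivity)]
    have h6 : 16 * E * L ^ 2 ≤ L * L ^ 2 := mul_le_mul_of_nonneg_right b4 hL2.le
    nlinarith
  have hy : δ + w * Real.exp (Nb_290.GC C₀ + 1) / M.I x (VD D) l ≤
      2 * Cδ * M.kap l + 1 / L ^ 2 := by
    have h3 : 1 / (4 * L ^ 2) = 1 / L ^ 2 / 4 := by field_simp
    have h4 : 1 / (2 * L ^ 2) = 1 / L ^ 2 / 2 := by field_simp
    have h5 : 0 < 1 / L ^ 2 := by positivity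
    linarith
  have hy1 : 2 * Cδ * M.kap l + 1 / L ^ 2 ≤ 1 / 100 := by
    have h1 : 1 / L ^ 2 ≤ 1 / 1600 := by
      refine one_div_le_one_div_of_le (by norm_num) ?_
      nlinarith
    have h2 : 2 * Cδ * M.kap l ≤ 1 / 400 := by
      have h3 : 2 * Cδ * M.kap l ≤ (2 * Cδ + 1) * (1 / (400 * (2 * Cδ + 1))) :=
        mul_le_mul (by linarith) (hkap1.trans hκd) hkap0 (by positivity)
      have h4 : (2 * Cδ + 1) * (1 / (400 * (2 * Cδ + 1))) = 1 / 400 := by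
        have : (2 * Cδ + 1) ≠ 0 := by positivity
        field_simp
      linarith
    linarith
  exact ⟨out_of_stepW hst hC₀ hδ0 hw0 hK hy1 hy hN8 hI, hy1⟩

end Crest.Agent.R234.Stp_518
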