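import Crest.Agent.R234.Stp5_518

/-!
# Row 234, F7-STEPV (helper518), part 6: the two cases of the step at the level of references

`CoreH`, `BlkH` : the inner statements of `core_sel`, `BlkP`.
`case_in` : inside the block; `case_blk` : change of the block.
-/

set_option autoImplicit false
set_option linter.unusedVariables false

open MeasureTheory Filter Topology Set
open scoped ENNReal NNReal ContDiff
open Crest.GeometryTopology.Submanifold Crest.Agent.R234.Vf_884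
open Crest.Agent.R234.Main_456 (Frame Msys hgt)
open Crest.Agent.R234.MG_570 (MG SelP3 bar)
open Crest.Agent.R234.F10d_188 (flatL)

noncomputable section

namespace Crest.Agent.R234.Stp_518

variable {m n k : ℕ}

/-- size of the change: `L₀^p e^{-L₀/2}` against `L^{p+1} e^{-L/2}`. -/
theorem size_le {L L₀ : ℝ} (p : ℕ) (hL : 1 ≤ L) (h1 : L₀ ≤ 2 * L) (h2 : L - 1 ≤ L₀)
    (h0 : 0 ≤ L₀) (hp : 2 ^ (p + 3) ≤ L) :
    2 * (L₀ ^ p * Real.exp (-(L₀ / 2))) ≤ L ^ (p + 1) * Real.exp (-(L / 2)) := by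
  have e1 : L₀ ^ p ≤ 2 ^ p * L ^ p := by
    rw [← mul_pow]; exact pow_le_pow_left₀ h0 h1 p
  have e2 : Real.exp (-(L₀ / 2)) ≤ 2 * Real.exp (-(L / 2)) := by
    have h3 : Real.exp (-(L₀ / 2)) ≤ Real.exp (1 / 2) * Real.exp (-(L / 2)) := by
      rw [← Real.exp_add]
      exact Real.exp_le_exp.2 (by linarith)
    have h4 : Real.exp (1 / 2 : ℝ) ≤ 2 := by
      have h1 : Real.exp (1 / 2 : ℝ) * Real.exp (1 / 2) = Real.exp 1 := by
        rw [← Real.exp_add]; norm_num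
      have h2 := Real.exp_one_lt_d9
      have h3 := Real.exp_pos (1 / 2 : ℝ)
      nlinarith
    exact h3.trans (mul_le_mul_of_nonneg_right h4 (Real.exp_pos _).le)
  have hE := Real.exp_pos (-(L / 2))
  have hLp : 0 ≤ L ^ p := by positivity
  calc 2 * (L₀ ^ p * Real.exp (-(L₀ / 2))) ≤
        2 * ((2 ^ p * L ^ p) * (2 * Real.exp (-(L / 2)))) :=
        mul_le_mul_of_nonneg_left (mul_le_mul e1 e2 (Real.exp_pos _).le (by positivity))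
          (by norm_num)
    _ = (2 ^ (p + 2) * L ^ p) * Real.exp (-(L / 2)) := by ring
    _ ≤ L ^ (p + 1) * Real.exp (-(L / 2)) := by
        refine mul_le_mul_of_nonneg_right ?_ hE.le
        have h3 : (2:ℝ) ^ (p + 2) ≤ 2 ^ (p + 3) := pow_le_pow_right₀ (by norm_num) (by omega)
        calc 2 ^ (p + 2) * L ^ p ≤ L * L ^ p := mul_le_mul_of_nonneg_right (h3.trans hp) hLp
          _ = L ^ (p + 1) := by ring

/-- inner statement of `core_sel`. -/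
def CoreH (m n Q Ks N p₀ q q₁ : ℕ) (T Λ G κ₀ ε L₁ : ℝ) : Prop :=
    ∀ (U : Set (Euc (m + n))) (D : VarifoldData m (m + n)) (x : Euc (m + n))
      (M : Mo m n (m + n)) (l K L : ℝ), L = lam (M.I x (VD D)) l →
      Sit U D Q x M ε Λ → 0 ≤ M.κ → M.κ ≤ κ₀ →
      MG N M.κ (Real.exp (l + 1 / K - M.lb)) M.u → ‖fderiv ℝ M.u 0‖ ≤ κ₀ / (4 * K) →
      32 ≤ K → K ≤ 4 * L ^ 2 → M.lb - T ≤ l → l + 1 / K ≤ M.lb →
      0 < M.I x (VD D) l → L₁ ≤ L →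
      Real.log (M.I x (VD D) (l + 3 / (4 * K))) ≤ Real.log (M.I x (VD D) l) + G →
      (∀ y ∈ Icc (l - 2 / K) l, M.I x (VD D) l ≤ Real.exp G * M.I x (VD D) y) →
      SupLe M x (VD D) (Real.exp (l + 1 / (2 * K) - M.lb)) (Real.exp (-(L / 8))) →
      MeanK Ks M x (VD D) (Real.exp (l - M.lb) * (1 + 1 / (8 * K)))
        ((L ^ q₁)⁻¹ * √(M.I x (VD D) l)) →
      ∃ (u' : Euc m → Euc n) (A : ℝ), 0 ≤ A ∧ A ≤ L ^ p₀ * Real.exp (-(L / 2)) ∧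
        MG N (M.κ + A) (rsel M.lb l K) u' ∧
        ‖fderiv ℝ u' 0‖ ≤ ‖fderiv ℝ M.u 0‖ + L ^ p₀ * Real.exp (-(L / 2)) ∧
        ∀ M' : Mo m n (m + n), M'.π = M.π → M'.ρ = M.ρ → M'.lb = M.lb → M'.u = u' →
          M'.κ = M.κ + A →
          SupLe M' x (VD D) (rsel M.lb l K) (L ^ p₀ * Real.exp (-(L / 2))) ∧
          MeanK Ks M' x (VD D) (rsel M.lb l K)
            (L ^ p₀ * Real.exp (-(L / 2)) * √(M.I x (VD D) l)) ∧
          Near (M.I x (VD D)) (M.E x (VD D) Q) (M'.I x (VD D)) (M'.E x (VD D) Q) l K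
            (L ^ q)⁻¹

theorem coreH (hSup : SupP) (hSw : SwP) (hSel : SelP3) (m n : ℕ) (hm : 3 ≤ m) (hn : 1 ≤ n) :
    ∃ Ks₀ : ℕ, ∀ Ks : ℕ, Ks₀ ≤ Ks → ∀ Q : ℕ, 1 ≤ Q → ∃ N₀ : ℕ, ∀ N : ℕ, N₀ ≤ N →
      ∃ p₀ : ℕ, ∀ (q : ℕ) (T Λ G : ℝ),
      ∃ q₁ : ℕ, ∃ κ₀ ε L₁ : ℝ, 0 < κ₀ ∧ 0 < ε ∧ CoreH m n Q Ks N p₀ q q₁ T Λ G κ₀ ε L₁ :=
  core_sel hSup hSw hSel m n hm hn

/-- inner statement of `BlkP` (with `L`). -/
def BlkH (m n Q Ks N q q₁ : ℕ) (C₁ T Λ G κ₀ ε L₁ : ℝ) : Prop :=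
    ∀ (U : Set (Euc (m + n))) (D : VarifoldData m (m + n)) (x : Euc (m + n))
      (M : Mo m n (m + n)) (l K L : ℝ), L = lam (M.I x (VD D)) l →
      Sit U D Q x M ε Λ → 0 ≤ M.κ → M.κ ≤ κ₀ →
      MG N M.κ (Real.exp (l + 1 / K - M.lb) * (1 + 1 / (8 * K))) M.u →
      ‖fderiv ℝ M.u 0‖ ≤ (L ^ q₁)⁻¹ →
      32 ≤ K → K ≤ 2 * L ^ 2 → M.lb - T ≤ l → l ≤ M.lb - T + 1 →
      0 < M.I x (VD D) l → L₁ ≤ L →
      Real.log (M.I x (VD D) (l + 1 / K)) ≤ Real.log (M.I x (VD D) l) + G →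
      (∀ y ∈ Icc (l - 2 / K) l, M.I x (VD D) l ≤ Real.exp G * M.I x (VD D) y) →
      SupLe M x (VD D) (Real.exp (l + 1 / K - M.lb) * (1 + 1 / (8 * K)))
        (Real.exp (-(L / 4))) →
      MeanK Ks M x (VD D) (Real.exp (l + 1 / K - M.lb) * (1 + 1 / (8 * K)))
        ((L ^ q₁)⁻¹ * √(M.I x (VD D) l)) →
      ∃ M' : Mo m n (m + n), M'.lb = l - 2 / K + 1 / 8 ∧ Frame M'.π M'.ρ ∧
        0 ≤ M'.κ ∧ M'.κ ≤ C₁ * Real.exp (M'.lb - M.lb) * M.κ + (L ^ q)⁻¹ ∧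
        MG N M'.κ (Real.exp (l + 1 / K - M'.lb) * (1 + 1 / (16 * K))) M'.u ∧
        fderiv ℝ M'.u 0 = 0 ∧
        Near (M.I x (VD D)) (M.E x (VD D) Q) (M'.I x (VD D)) (M'.E x (VD D) Q) l K
          (L ^ q)⁻¹ ∧
        M'.I x (VD D) (l + 3 / (4 * K)) ≤ 2 * Real.exp m * M.I x (VD D) (l + 1 / K) ∧
        SupLe M' x (VD D) (Real.exp (l + 3 / (4 * K) - M'.lb)) (Real.exp (-(L / 5))) ∧
        MeanK Ks M' x (VD D) (Real.exp (l + 3 / (4 * K) - M'.lb))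
          ((L ^ q)⁻¹ * √(M.I x (VD D) l))

theorem blkH (hBlk : BlkP) (m n Q : ℕ) (hm : 3 ≤ m) (hn : 1 ≤ n) (hQ : 1 ≤ Q) :
    ∃ N₀ : ℕ, ∀ N : ℕ, N₀ ≤ N →
      ∃ C₁ T₀ : ℝ, 1 ≤ C₁ ∧ ∀ (Ks q : ℕ) (T Λ G : ℝ), 1 ≤ Ks → T₀ ≤ T → ∃ q₁ : ℕ,
        ∃ κ₀ ε L₁ : ℝ, 0 < κ₀ ∧ 0 < ε ∧ BlkH m n Q Ks N q q₁ C₁ T Λ G κ₀ ε L₁ := by
  obtain ⟨N₀, H⟩ := hBlk m n Q hm hn hQ
  refine ⟨N₀, fun N hN => ?_⟩
  obtain ⟨C₁, T₀, hC₁, H⟩ := H N hN
  refine ⟨C₁, T₀, hC₁, fun Ks q T Λ G hKs hT => ?_⟩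
  obtain ⟨q₁, κ₀, ε, L₁, hκ₀, hε, H⟩ := H Ks q T Λ G hKs hT
  refine ⟨q₁, κ₀, ε, L₁, hκ₀, hε, ?_⟩
  rintro U D x M l K L rfl
  exact H U D x M l K

/-- outcome of the step for the references. -/
structure Res (U : Set (Euc (m + n))) (D : VarifoldData m (m + n)) (Q : ℕ) (x : Euc (m + n))
    (Ks N : ℕ) (M M₁ : Mo m n (m + n)) (l K L σ θ : ℝ) : Prop where
  fr : Frame M₁.π M₁.ρ
  κ0 : 0 ≤ M₁.κ
  mg : MG N M₁.κ (rsel M₁.lb l K) M₁.u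
  sup : SupLe M₁ x (VD D) (rsel M₁.lb l K) σ
  mean : MeanK Ks M₁ x (VD D) (rsel M₁.lb l K) (σ * √(M.I x (VD D) l))
  near : Near (M.I x (VD D)) (M.E x (VD D) Q) (M₁.I x (VD D)) (M₁.E x (VD D) Q) l K θ

/-- **inside the block.** -/
theorem case_in {Q Ks N p₀ q₁ : ℕ} {T Λ G κ₀ ε L₁ : ℝ}
    (HC : CoreH m n Q Ks N p₀ 6 q₁ T Λ G κ₀ ε L₁)
    {U : Set (Euc (m + n))} {D : VarifoldData m (m + n)} {x : Euc (m + n)}
    {M : Mo m n (m + n)} {l K L : ℝ} (hLdef : L = lam (M.I x (VD D)) l)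
    (hs : Sit U D Q x M ε Λ) (hκ0 : 0 ≤ M.κ) (hκ : M.κ ≤ κ₀)
    (hMG : MG N M.κ (Real.exp (l + 1 / K - M.lb) * (1 + 1 / (8 * K))) M.u)
    (hdu : ‖fderiv ℝ M.u 0‖ ≤ κ₀ / (4 * K)) (hK : 32 ≤ K) (hKL : K ≤ 2 * L ^ 2)
    (hlo : M.lb - T ≤ l) (hhi : l + 1 / 8 ≤ M.lb) (hI : 0 < M.I x (VD D) l) (hL : L₁ ≤ L)
    (hL1 : 1 ≤ L)
    (hgr : Real.log (M.I x (VD D) (l + 3 / (4 * K))) ≤ Real.log (M.I x (VD D) l) + G)
    (hpos : ∀ y ∈ Icc (l - 2 / K) l, 0 < M.I x (VD D) y)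
    (hdn : ∀ y ∈ Icc (l - 2 / K) l, M.I x (VD D) l ≤ Real.exp G * M.I x (VD D) y)
    (hsup : SupLe M x (VD D) (Real.exp (l + 1 / K - M.lb) * (1 + 1 / (8 * K)))
      (Real.exp (-(L / 4))))
    (hmean : MeanK Ks M x (VD D) (Real.exp (l + 1 / K - M.lb) * (1 + 1 / (8 * K)))
      (Real.exp (-(L / 4)) * √(M.I x (VD D) l)))
    (ht3 : L ^ q₁ * Real.exp (-(L / 4)) ≤ 1) (ht8 : 2 ^ (p₀ + 3) ≤ L) :
    ∃ M₁ : Mo m n (m + n), Res U D Q x Ks N M M₁ l K L (L ^ (p₀ + 1) * Real.exp (-(L / 2)))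
        (L ^ 5)⁻¹ ∧ M₁.lb = M.lb ∧
      M₁.κ ≤ M.κ + L ^ (p₀ + 1) * Real.exp (-(L / 2)) ∧
      ‖fderiv ℝ M₁.u 0‖ ≤ ‖fderiv ℝ M.u 0‖ + L ^ (p₀ + 1) * Real.exp (-(L / 2)) := by
  have hK0 : 0 < K := by linarith
  have hL0 : 0 < L := by linarith
  have q1 : 0 < 1 / K := by positivity
  have q2 : 1 / (2 * K) = 1 / K / 2 := by field_simp
  have q8 : 1 / (8 * K) = 1 / K / 8 := by field_simp
  have q32 : 1 / K ≤ 1 / 32 := one_div_le_one_div_of_le (by norm_num) hK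
  have hE := Real.exp_pos (l + 1 / K - M.lb)
  have hrad1 : Real.exp (l + 1 / K - M.lb) ≤
      Real.exp (l + 1 / K - M.lb) * (1 + 1 / (8 * K)) := by
    rw [q8]; nlinarith
  have hsize := size_le p₀ hL1 (by linarith : L ≤ 2 * L) (by linarith : L - 1 ≤ L) hL0.le ht8
  have hsz0 : 0 ≤ L ^ p₀ * Real.exp (-(L / 2)) := by positivity
  have hszle : L ^ p₀ * Real.exp (-(L / 2)) ≤ L ^ (p₀ + 1) * Real.exp (-(L / 2)) := by linarith
  have hKL4 : K ≤ 4 * L ^ 2 := by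
    have : 0 ≤ L ^ 2 := by positivity
    linarith
  have hsup' : SupLe M x (VD D) (Real.exp (l + 1 / (2 * K) - M.lb)) (Real.exp (-(L / 8))) :=
    hsup.mono ((Real.exp_le_exp.2 (by rw [q2]; linarith)).trans hrad1)
      (Real.exp_le_exp.2 (by linarith))
  have hmean' : MeanK Ks M x (VD D) (Real.exp (l - M.lb) * (1 + 1 / (8 * K)))
      ((L ^ q₁)⁻¹ * √(M.I x (VD D) l)) := by
    refine hmean.mono ?_ ?_
    · refine mul_le_mul_of_nonneg_right (Real.exp_le_exp.2 (by linarith)) ?_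
      rw [q8]; linarith
    · refine mul_le_mul_of_nonneg_right ?_ (Real.sqrt_nonneg _)
      rw [← one_div, le_div_iff₀ (by positivity)]
      linarith
  obtain ⟨u', A, hA0, hA, g1, g2, g3⟩ := HC U D x M l K L hLdef hs hκ0 hκ
    (hMG.mono le_rfl hrad1) hdu hK hKL4 hlo (by linarith) hI hL hgr hdn hsup' hmean'
  obtain ⟨g4, g5, g6⟩ := g3 { M with u := u', κ := M.κ + A } rfl rfl rfl rfl rfl
  refine ⟨{ M with u := u', κ := M.κ + A }, ⟨hs.pack.frame, add_nonneg hκ0 hA0, g1,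
    g4.mono le_rfl hszle,
    g5.mono le_rfl (mul_le_mul_of_nonneg_right hszle (Real.sqrt_nonneg _)),
    g6.mono (inv_anti₀ (by positivity) (pow_le_pow_right₀ hL1 (by norm_num))) hpos⟩, rfl, ?_, ?_⟩
  · show M.κ + A ≤ _
    linarith
  · show ‖fderiv ℝ u' 0‖ ≤ _
    linarith

/-- `(L^(q+7))⁻¹` against `(L₀^q)⁻¹`. -/
theorem inv_size {L L₀ : ℝ} (q : ℕ) (hL : 1 ≤ L) (h1 : L₀ ≤ 2 * L) (h0 : 0 < L₀)
    (hq : 2 ^ (q + 2) ≤ L) : 2 * (L ^ (q + 7))⁻¹ ≤ (L₀ ^ q)⁻¹ := by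
  have hL0 : 0 < L := by linarith
  rw [← div_eq_mul_inv, div_le_iff₀ (by positivity), inv_mul_eq_div, le_div_iff₀ (by positivity)]
  have e1 : L₀ ^ q ≤ 2 ^ q * L ^ q := by
    rw [← mul_pow]; exact pow_le_pow_left₀ h0.le h1 q
  have hLq : 0 ≤ L ^ q := by positivity
  calc 2 * L₀ ^ q ≤ 2 * (2 ^ q * L ^ q) := mul_le_mul_of_nonneg_left e1 (by norm_num)
    _ = 2 ^ (q + 1) * L ^ q := by ring
    _ ≤ L * L ^ q := by
        refine mul_le_mul_of_nonneg_right ?_ hLq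
        exact (pow_le_pow_right₀ (by norm_num) (by omega)).trans hq
    _ = L ^ (q + 1) := by ring
    _ ≤ L ^ (q + 7) := pow_le_pow_right₀ hL (by omega)

theorem inv_le_of {L a : ℝ} {j : ℕ} (hL : 1 ≤ L) (ha : 0 < a) (h : 4 / a ≤ L) (hj : 1 ≤ j) :
    (L ^ j)⁻¹ ≤ a / 4 := by
  have hL0 : 0 < L := by linarith
  have h1 : (L ^ j)⁻¹ ≤ L⁻¹ := by
    refine inv_anti₀ hL0 ?_
    calc L = L ^ 1 := (pow_one L).symm
      _ ≤ L ^ j := pow_le_pow_right₀ hL hj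
  have h2 : L⁻¹ ≤ a / 4 := by
    rw [inv_le_comm₀ hL0 (by positivity), inv_div]
    exact h
  exact h1.trans h2

set_option maxHeartbeats 800000 in
/-- **change of the block.** -/
theorem case_blk {Q Ks N p₀ qs qB : ℕ} {C₁ T Λ G Gs κs εs Ls κB εB LB κS κp η : ℝ}
    (HC : CoreH m n Q Ks N p₀ 6 qs T Λ Gs κs εs Ls)
    (HB : BlkH m n Q Ks N (qs + 7) qB C₁ T Λ G κB εB LB)
    {U : Set (Euc (m + n))} {D : VarifoldData m (m + n)} {x : Euc (m + n)}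
    {M : Mo m n (m + n)} {l K L : ℝ} (hLdef : L = lam (M.I x (VD D)) l)
    (hs : Sit U D Q x M εB Λ) (hκ0 : 0 ≤ M.κ) (hκ : M.κ ≤ κB) (hκs : 0 < κs) (hκS : 0 < κS)
    (hκp : 0 < κp) (hk2 : M.κ ≤ κs / 2) (hk4 : M.κ ≤ κS / 2) (hk5 : M.κ ≤ κp / 2)
    (hMG : MG N M.κ (Real.exp (l + 1 / K - M.lb) * (1 + 1 / (8 * K))) M.u)
    (hdu : ‖fderiv ℝ M.u 0‖ ≤ (L ^ qB)⁻¹) (hK : 32 ≤ K) (hKL : K ≤ 2 * L ^ 2)
    (hlo : M.lb - T ≤ l) (hcase : l - 2 / K < M.lb - T) (hI : 0 < M.I x (VD D) l)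
    (hgr : Real.log (M.I x (VD D) (l + 1 / K)) ≤ Real.log (M.I x (VD D) l) + G)
    (hpos : ∀ y ∈ Icc (l - 2 / K) l, 0 < M.I x (VD D) y)
    (hdn : ∀ y ∈ Icc (l - 2 / K) l, M.I x (VD D) l ≤ Real.exp G * M.I x (VD D) y)
    (hsup : SupLe M x (VD D) (Real.exp (l + 1 / K - M.lb) * (1 + 1 / (8 * K)))
      (Real.exp (-(L / 4))))
    (hmean : MeanK Ks M x (VD D) (Real.exp (l + 1 / K - M.lb) * (1 + 1 / (8 * K)))
      (Real.exp (-(L / 4)) * √(M.I x (VD D) l)))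
    (hsit : ∀ (M' : Mo m n (m + n)) (R : ℝ), l ≤ M'.lb → M'.lb ≤ l + T → Frame M'.π M'.ρ →
      0 ≤ M'.κ → M'.κ ≤ κS → MG N M'.κ R M'.u →
      SupLe M' x (VD D) (Real.exp (l - M'.lb)) η → Sit U D Q x M' εs Λ)
    (hpm : ∀ (M' : Mo m n (m + n)) (R : ℝ), Sit U D Q x M' εs Λ → 0 ≤ M'.κ → M'.κ ≤ κp →
      MG N M'.κ R M'.u → ∀ l', l ≤ l' → 0 < M'.I x (VD D) l → 0 < M'.I x (VD D) l')
    (hC₁ : 1 ≤ C₁) (hT1 : 1 ≤ T) (hCT : C₁ * Real.exp (-(T / 5)) ≤ 1 / 4) (hGs : G + m + 3 ≤ Gs)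
    (t1 : Real.exp (-(L / 5)) ≤ η) (t2 : L ^ qB * Real.exp (-(L / 4)) ≤ 1)
    (t5 : Ls + 1 ≤ L) (t6 : LB ≤ L) (t7 : 200 ≤ L)
    (t8 : (2:ℝ) ^ (p₀ + 3) ≤ L) (t9 : (2:ℝ) ^ (qs + 2) ≤ L) (t10 : 4 / κs ≤ L) (t11 : 4 / κS ≤ L)
    (t12 : 4 / κp ≤ L) :
    ∃ M₁ : Mo m n (m + n), Res U D Q x Ks N M M₁ l K L (L ^ (p₀ + 1) * Real.exp (-(L / 2)))
        (L ^ 5)⁻¹ ∧ M₁.lb = l - 2 / K + 1 / 8 ∧
      M₁.κ ≤ C₁ * Real.exp (M₁.lb - M.lb) * M.κ + (L ^ 5)⁻¹ +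
        L ^ (p₀ + 1) * Real.exp (-(L / 2)) ∧
      ‖fderiv ℝ M₁.u 0‖ ≤ L ^ (p₀ + 1) * Real.exp (-(L / 2)) := by
  have hK0 : 0 < K := by linarith
  have hL1 : 1 ≤ L := by linarith
  have hL0 : 0 < L := by linarith
  have q1 : 0 < 1 / K := by positivity
  have q2 : 1 / (2 * K) = 1 / K / 2 := by field_simp
  have q22 : 2 / K = 2 * (1 / K) := by ring
  have q3 : 3 / (4 * K) = 3 * (1 / K) / 4 := by field_simp
  have q8 : 1 / (8 * K) = 1 / K / 8 := by field_simp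
  have q16 : 1 / (16 * K) = 1 / K / 16 := by field_simp
  have q32 : 1 / K ≤ 1 / 32 := one_div_le_one_div_of_le (by norm_num) hK
  have hmeanB : MeanK Ks M x (VD D) (Real.exp (l + 1 / K - M.lb) * (1 + 1 / (8 * K)))
      ((L ^ qB)⁻¹ * √(M.I x (VD D) l)) := by
    refine hmean.mono le_rfl ?_
    refine mul_le_mul_of_nonneg_right ?_ (Real.sqrt_nonneg _)
    rw [← one_div, le_div_iff₀ (by positivity)]
    linarith
  obtain ⟨M₀, b1, b2, b3, b4, b5, b6, b7, b8, b9, b10⟩ := HB U D x M l K L hLdef hs hκ0 hκ hMG hdu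
    hK hKL hlo (by linarith) hI t6 hgr hdn hsup hmeanB
  clear HB hsup hmean hmeanB hMG hs
  -- closeness at `l`
  set θ := (L ^ (qs + 7))⁻¹ with hθ
  have hθ0 : 0 < θ := by positivity
  have hθ5 : θ ≤ (L ^ 5)⁻¹ * (1 / 200) := by
    rw [hθ]
    have h1 : (L ^ (qs + 7))⁻¹ ≤ (L ^ 6)⁻¹ :=
      inv_anti₀ (by positivity) (pow_le_pow_right₀ hL1 (by omega))
    refine h1.trans ?_
    rw [pow_succ L 5, mul_inv]
    refine mul_le_mul_of_nonneg_left ?_ (by positivity)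
    rw [← one_div]
    exact one_div_le_one_div_of_le (by norm_num) t7
  have hL5 : (L ^ 5)⁻¹ ≤ 1 := inv_le_one_of_one_le₀ (one_le_pow₀ hL1)
  have hθ1 : θ ≤ 1 / 200 := by linarith
  have hll : l ∈ Icc (l - 2 / K) l := ⟨by rw [q22]; linarith, le_rfl⟩
  have hnl := (b7 l hll).1
  obtain ⟨hI₀, hLo1, hLo2⟩ := lam_near (I := M.I x (VD D)) hI hnl hθ0.le (by linarith)
  rw [← hLdef] at hLo1 hLo2
  set L₀ := lam (M₀.I x (VD D)) l with hL₀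
  have hLb1 : L - 1 ≤ L₀ := by linarith
  have hLb2 : L₀ ≤ 2 * L := by linarith
  have hL₀0 : 0 < L₀ := by linarith
  have hθI : θ * M.I x (VD D) l ≤ 1 / 200 * M.I x (VD D) l :=
    mul_le_mul_of_nonneg_right hθ1 hI.le
  have hII1 : M₀.I x (VD D) l ≤ 2 * M.I x (VD D) l := by
    have := (abs_le.1 hnl).2; linarith
  have hII2 : M.I x (VD D) l ≤ 2 * M₀.I x (VD D) l := by
    have := (abs_le.1 hnl).1; linarith
  have hsq1 : √(M₀.I x (VD D) l) ≤ 2 * √(M.I x (VD D) l) := by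
    rw [Real.sqrt_le_left (by positivity), mul_pow, Real.sq_sqrt hI.le]
    linarith
  have hsq2 : √(M.I x (VD D) l) ≤ 2 * √(M₀.I x (VD D) l) := by
    rw [Real.sqrt_le_left (by positivity), mul_pow, Real.sq_sqrt hI₀.le]
    linarith
  -- curvature
  have hCe : C₁ * Real.exp (M₀.lb - M.lb) ≤ 1 / 4 := by
    refine le_trans (mul_le_mul_of_nonneg_left (Real.exp_le_exp.2 ?_) (by linarith)) hCT
    linarith
  have hκ₀ : M₀.κ ≤ M.κ / 4 + θ := by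
    have h1 : C₁ * Real.exp (M₀.lb - M.lb) * M.κ ≤ 1 / 4 * M.κ :=
      mul_le_mul_of_nonneg_right hCe hκ0
    linarith
  have hθs : θ ≤ κs / 4 := inv_le_of hL1 hκs t10 (by omega)
  have hθS : θ ≤ κS / 4 := inv_le_of hL1 hκS t11 (by omega)
  have hθp : θ ≤ κp / 4 := inv_le_of hL1 hκp t12 (by omega)
  have hκs' : M₀.κ ≤ κs := by linarith
  have hκS' : M₀.κ ≤ κS := by linarith
  have hκp' : M₀.κ ≤ κp := by linarith
  -- situation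
  have hMG0 : MG N M₀.κ (Real.exp (l + 1 / K - M₀.lb)) M₀.u := by
    refine b5.mono le_rfl (le_mul_of_one_le_right (Real.exp_pos _).le ?_)
    rw [q16]; linarith
  have hs₀ : Sit U D Q x M₀ εs Λ := hsit M₀ _ (by rw [b1, q22]; linarith)
    (by rw [b1, q22]; linarith) b2 b3 hκS' b5
    (b9.mono (Real.exp_le_exp.2 (by rw [q3]; linarith)) t1)
  -- growth
  have hgr₀ : Real.log (M₀.I x (VD D) (l + 3 / (4 * K))) ≤
      Real.log (M₀.I x (VD D) l) + Gs := by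
    have hp := hpm M₀ _ hs₀ b3 hκp' b5 (l + 3 / (4 * K)) (by rw [q3]; linarith) hI₀
    have h1 := le_exp_of_log hI hgr
    have h2 : M₀.I x (VD D) (l + 3 / (4 * K)) ≤
        4 * (Real.exp m * (Real.exp G * M₀.I x (VD D) l)) := by
      calc M₀.I x (VD D) (l + 3 / (4 * K)) ≤ 2 * Real.exp m * M.I x (VD D) (l + 1 / K) := b8
        _ ≤ 2 * Real.exp m * (Real.exp G * M.I x (VD D) l) :=
            mul_le_mul_of_nonneg_left h1 (by positivity)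
        _ ≤ 2 * Real.exp m * (Real.exp G * (2 * M₀.I x (VD D) l)) :=
            mul_le_mul_of_nonneg_left (mul_le_mul_of_nonneg_left hII2 (Real.exp_pos _).le)
              (by positivity)
        _ = _ := by ring
    have h3 : (4:ℝ) ≤ Real.exp 3 := by
      have := Real.add_one_le_exp (3:ℝ); linarith
    have h4 : M₀.I x (VD D) (l + 3 / (4 * K)) ≤ Real.exp (G + m + 3) * M₀.I x (VD D) l := by
      refine h2.trans ?_
      rw [Real.exp_add, Real.exp_add]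
      have h5 : 0 ≤ Real.exp m * (Real.exp G * M₀.I x (VD D) l) := by positivity
      calc 4 * (Real.exp m * (Real.exp G * M₀.I x (VD D) l)) ≤
            Real.exp 3 * (Real.exp m * (Real.exp G * M₀.I x (VD D) l)) :=
            mul_le_mul_of_nonneg_right h3 h5
        _ = _ := by ring
    have h6 := Real.log_le_log hp h4
    rw [Real.log_mul (Real.exp_pos _).ne' hI₀.ne', Real.log_exp] at h6
    linarith
  have hdn₀ : ∀ y ∈ Icc (l - 2 / K) l,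
      M₀.I x (VD D) l ≤ Real.exp Gs * M₀.I x (VD D) y := by
    intro y hy
    have h1 := hdn y hy
    have h2 := hpos y hy
    have h3 := (abs_le.1 (b7 y hy).1).1
    have hθy : θ * M.I x (VD D) y ≤ 1 / 200 * M.I x (VD D) y :=
      mul_le_mul_of_nonneg_right hθ1 h2.le
    have h4 : M.I x (VD D) y ≤ 2 * M₀.I x (VD D) y := by linarith
    have h40 : 0 ≤ M₀.I x (VD D) y := by linarith
    have h5 : (4:ℝ) ≤ Real.exp (m + 3) := by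
      have h6 := Real.add_one_le_exp ((m:ℝ) + 3)
      have h7 : (0:ℝ) ≤ m := by positivity
      linarith
    have h8 : Real.exp G * Real.exp (m + 3) ≤ Real.exp Gs := by
      rw [← Real.exp_add]
      exact Real.exp_le_exp.2 (by linarith)
    calc M₀.I x (VD D) l ≤ 2 * M.I x (VD D) l := hII1
      _ ≤ 2 * (Real.exp G * M.I x (VD D) y) := mul_le_mul_of_nonneg_left h1 (by norm_num)
      _ ≤ 2 * (Real.exp G * (2 * M₀.I x (VD D) y)) :=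
          mul_le_mul_of_nonneg_left (mul_le_mul_of_nonneg_left h4 (Real.exp_pos _).le)
            (by norm_num)
      _ = 4 * (Real.exp G * M₀.I x (VD D) y) := by ring
      _ ≤ Real.exp (m + 3) * (Real.exp G * M₀.I x (VD D) y) :=
          mul_le_mul_of_nonneg_right h5 (by positivity)
      _ = (Real.exp G * Real.exp (m + 3)) * M₀.I x (VD D) y := by ring
      _ ≤ Real.exp Gs * M₀.I x (VD D) y := mul_le_mul_of_nonneg_right h8 h40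
  have hsup₀ : SupLe M₀ x (VD D) (Real.exp (l + 1 / (2 * K) - M₀.lb)) (Real.exp (-(L₀ / 8))) :=
    b9.mono (Real.exp_le_exp.2 (by rw [q2, q3]; linarith)) (Real.exp_le_exp.2 (by linarith))
  have hmean₀ : MeanK Ks M₀ x (VD D) (Real.exp (l - M₀.lb) * (1 + 1 / (8 * K)))
      ((L₀ ^ qs)⁻¹ * √(M₀.I x (VD D) l)) := by
    refine b10.mono ?_ ?_
    · have h1 : l + 3 / (4 * K) - M₀.lb = (l - M₀.lb) + 3 / (4 * K) := by ring
      rw [h1, Real.exp_add]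
      refine mul_le_mul_of_nonneg_left ?_ (Real.exp_pos _).le
      have h2 := Real.add_one_le_exp (3 / (4 * K))
      rw [q3] at h2 ⊢
      rw [q8]; linarith
    · have h1 := inv_size qs hL1 hLb2 hL₀0 t9
      calc θ * √(M.I x (VD D) l) ≤ θ * (2 * √(M₀.I x (VD D) l)) :=
            mul_le_mul_of_nonneg_left hsq2 hθ0.le
        _ = 2 * θ * √(M₀.I x (VD D) l) := by ring
        _ ≤ _ := mul_le_mul_of_nonneg_right h1 (Real.sqrt_nonneg _)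
  have hKL4 : K ≤ 4 * L₀ ^ 2 := by
    have h1 : (L - 1) ^ 2 ≤ L₀ ^ 2 := pow_le_pow_left₀ (by linarith) hLb1 2
    have h2 : 200 * L ≤ L * L := mul_le_mul_of_nonneg_right t7 hL0.le
    have h3 : (L - 1) ^ 2 = L * L - 2 * L + 1 := by ring
    have h4 : L ^ 2 = L * L := by ring
    rw [h3] at h1
    rw [h4] at hKL
    linarith
  obtain ⟨u', A, hA0, hA, g1, g2, g3⟩ := HC U D x M₀ l K L₀ hL₀ hs₀ b3 hκs' hMG0
    (by rw [b6, norm_zero]; positivity) hK hKL4 (by rw [b1, q22]; linarith)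
    (by rw [b1, q22]; linarith) hI₀ (by linarith) hgr₀ hdn₀ hsup₀ hmean₀
  obtain ⟨g4, g5, g6⟩ := g3 { M₀ with u := u', κ := M₀.κ + A } rfl rfl rfl rfl rfl
  have hsize := size_le p₀ hL1 hLb2 hLb1 hL₀0.le t8
  set σ₀ := L₀ ^ p₀ * Real.exp (-(L₀ / 2)) with hσ₀
  have hσ₀0 : 0 ≤ σ₀ := by positivity
  rw [b6, norm_zero, zero_add] at g2
  have hnear := b7.trans g6 hpos (by positivity) (by linarith)
  have hth : θ + 2 * (L₀ ^ 6)⁻¹ ≤ (L ^ 5)⁻¹ := by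
    have h1 : (L₀ ^ 6)⁻¹ ≤ ((L / (11/10)) ^ 6)⁻¹ :=
      inv_anti₀ (by positivity) (pow_le_pow_left₀ (by positivity) (by linarith) 6)
    have h2 : ((L / (11/10)) ^ 6)⁻¹ ≤ 2 * (L ^ 6)⁻¹ := by
      rw [div_pow, inv_div, div_eq_mul_inv]
      exact mul_le_mul_of_nonneg_right (by norm_num) (by positivity)
    have h3 : (L ^ 6)⁻¹ ≤ (L ^ 5)⁻¹ * (1 / 200) := by
      rw [pow_succ L 5, mul_inv]
      refine mul_le_mul_of_nonneg_left ?_ (by positivity)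
      rw [← one_div]
      exact one_div_le_one_div_of_le (by norm_num) t7
    have h4 : 0 < (L ^ 5)⁻¹ := by positivity
    linarith
  have hθ5' : θ ≤ (L ^ 5)⁻¹ := by
    have h4 : 0 < (L ^ 5)⁻¹ := by positivity
    linarith
  refine ⟨{ M₀ with u := u', κ := M₀.κ + A }, ⟨b2, add_nonneg b3 hA0, g1,
    g4.mono le_rfl (by linarith), g5.mono le_rfl ?_, hnear.mono hth hpos⟩, b1, ?_, ?_⟩
  · calc σ₀ * √(M₀.I x (VD D) l) ≤ σ₀ * (2 * √(M.I x (VD D) l)) :=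
          mul_le_mul_of_nonneg_left hsq1 hσ₀0
      _ = 2 * σ₀ * √(M.I x (VD D) l) := by ring
      _ ≤ _ := mul_le_mul_of_nonneg_right hsize (Real.sqrt_nonneg _)
  · show M₀.κ + A ≤ _
    have : A ≤ L ^ (p₀ + 1) * Real.exp (-(L / 2)) := by linarith
    linarith
  · show ‖fderiv ℝ u' 0‖ ≤ _
    linarith

end Crest.Agent.R234.Stp_518
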