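import Crest.Agent.R234.Stp6_518

/-!
# Row 234, F7-STEPV (helper518), part 7: the step at the level of references (`pre_step`)

From a reference with the properties of a state at a flat level: `Out` on `[l - 2/K, l]` and the
new reference `M₁` (same block, or rotated and rescaled block).
-/

set_option autoImplicit false
set_option linter.unusedVariables false

open MeasureTheory Filter Topology Set
open scoped ENNReal NNReal ContDiff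
open Crest.GeometryTopology.Submanifold Crest.Agent.R234.Vf_884
open Crest.Agent.R234.Main_456 (Frame Msys hgt)
open Crest.Agent.R234.MG_570 (MG SelP3 bar)
open Crest.Agent.R234.F10d_188 (flatL)

noncomputable section

namespace Crest.Agent.R234.Stp_518

variable {m n k : ℕ}

/-- inner statement of `sit_of` at one point. -/
def SitH (m n Q N : ℕ) (T ε Λ κ₀ η : ℝ) (U : Set (Euc (m + n))) (D : VarifoldData m (m + n))
    (x : Euc (m + n)) (l : ℝ) : Prop :=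
  ∀ (M : Mo m n (m + n)) (R : ℝ), l ≤ M.lb → M.lb ≤ l + T → Frame M.π M.ρ → 0 ≤ M.κ →
    M.κ ≤ κ₀ → MG N M.κ R M.u → SupLe M x (VD D) (Real.exp (l - M.lb)) η → Sit U D Q x M ε Λ

/-- inner statement of `out_of_GLP`. -/
def OutH (m n Q N : ℕ) (T Λ Cδ G₀ G κ₀ ε L₁ : ℝ) : Prop :=
    ∀ (U : Set (Euc (m + n))) (D : VarifoldData m (m + n)) (x : Euc (m + n))
      (M : Mo m n (m + n)) (l K L δu : ℝ), L = lam (M.I x (VD D)) l →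
      Sit U D Q x M ε Λ → 0 ≤ M.κ → M.κ ≤ κ₀ → MG N M.κ (Real.exp (l + 1 / K - M.lb)) M.u →
      32 ≤ K → K ≤ 2 * L ^ 2 → M.lb - T ≤ l → l + 1 / 8 ≤ M.lb → 0 < M.I x (VD D) l → L₁ ≤ L →
      8 * fr (M.E x (VD D) Q) (M.I x (VD D)) l ≤ K →
      Real.log (M.I x (VD D) (l + 1 / K)) ≤ Real.log (M.I x (VD D) l) + G →
      ‖fderiv ℝ M.u 0‖ ≤ δu → Cδ * δu ≤ 1 / (2 * L ^ 2) →
      Out (M.I x (VD D)) (M.E x (VD D) Q) l K (Cδ * M.kap l + 1 / L ^ 2) G₀ ∧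
        Cδ * M.kap l + 1 / L ^ 2 ≤ 1 / 100

/-- the properties of a state used by the step. -/
structure StH (Q Ks N : ℕ) (D : VarifoldData m (m + n)) (x : Euc (m + n))
    (M : Mo m n (m + n)) (l L T G κ₀ : ℝ) : Prop where
  eL : L = lam (M.I x (VD D)) l
  fr : Frame M.π M.ρ
  κ0 : 0 ≤ M.κ
  κ1 : M.κ ≤ κ₀
  mg : MG N M.κ (M.rad l) M.u
  lo : M.lb - T ≤ l
  hi : l + 1 / 8 ≤ M.lb
  pos : 0 < M.I x (VD D) l
  mean : MeanK Ks M x (VD D) (M.rad l) (Real.exp (-(L / 4)) * √(M.I x (VD D) l))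
  sup : SupLe M x (VD D) (M.rad l) (Real.exp (-(L / 4)))
  grow : Real.log (M.I x (VD D) (l + 1 / M.K)) ≤ Real.log (M.I x (VD D) l) + G
  K32 : 32 ≤ M.K
  KL : M.K ≤ 2 * L ^ 2
  KN : 8 * Stp_518.fr (M.E x (VD D) Q) (M.I x (VD D)) l ≤ M.K

/-- thresholds. -/
structure ThH (p₀ qs qB : ℕ) (η LO Ls LB κs κS κp Cδ L : ℝ) : Prop where
  t1 : Real.exp (-(L / 5)) ≤ η
  t2 : L ^ qB * Real.exp (-(L / 4)) ≤ 1
  t3 : L ^ qs * Real.exp (-(L / 4)) ≤ 1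
  t4 : LO ≤ L
  t5 : Ls + 1 ≤ L
  t6 : LB ≤ L
  t7 : 200 ≤ L
  t8 : (2:ℝ) ^ (p₀ + 3) ≤ L
  t9 : (2:ℝ) ^ (qs + 2) ≤ L
  t10 : 4 / κs ≤ L
  t11 : 4 / κS ≤ L
  t12 : 4 / κp ≤ L
  t13 : 2 * Cδ ≤ L
  t14 : 8 / κs ≤ L

theorem exists_ThH (p₀ qs qB : ℕ) {η LO Ls LB κs κS κp Cδ : ℝ} (hη : 0 < η) :
    ∃ L₁ : ℝ, ∀ L : ℝ, L₁ ≤ L → ThH p₀ qs qB η LO Ls LB κs κS κp Cδ L := by
  have hev : ∀ᶠ L : ℝ in atTop, ThH p₀ qs qB η LO Ls LB κs κS κp Cδ L := by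
    filter_upwards [ev_exp 1 (1 / 5) 0 (by norm_num) hη, ev_exp 1 (1 / 4) qB (by norm_num) one_pos,
      ev_exp 1 (1 / 4) qs (by norm_num) one_pos, eventually_ge_atTop LO,
      eventually_ge_atTop (Ls + 1), eventually_ge_atTop LB, eventually_ge_atTop 200,
      eventually_ge_atTop ((2:ℝ) ^ (p₀ + 3)), eventually_ge_atTop ((2:ℝ) ^ (qs + 2)),
      eventually_ge_atTop (4 / κs), eventually_ge_atTop (4 / κS), eventually_ge_atTop (4 / κp),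
      eventually_ge_atTop (2 * Cδ), eventually_ge_atTop (8 / κs)] with
      L h1 h2 h3 h4 h5 h6 h7 h8 h9 h10 h11 h12 h13 h14
    have e5 : Real.exp (-(1 / 5 * L)) = Real.exp (-(L / 5)) := by congr 1; ring
    have e4 : Real.exp (-(1 / 4 * L)) = Real.exp (-(L / 4)) := by congr 1; ring
    rw [e5, pow_zero, one_mul, one_mul] at h1
    rw [e4, one_mul] at h2 h3
    exact ⟨h1, h2, h3, h4, h5, h6, h7, h8, h9, h10, h11, h12, h13, h14⟩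
  exact eventually_atTop.1 hev

/-- slope bounds. -/
theorem slope {δu L κs Cδ K : ℝ} {qB : ℕ} (hδ0 : 0 ≤ δu) (hL1 : 1 ≤ L) (hκs : 0 < κs)
    (hK0 : 0 < K) (hKL : K ≤ 2 * L ^ 2) (t13 : 2 * Cδ ≤ L) (t14 : 8 / κs ≤ L)
    (hδu : δu * L ^ max 3 qB ≤ 1) :
    δu ≤ (L ^ qB)⁻¹ ∧ Cδ * δu ≤ 1 / (2 * L ^ 2) ∧ δu ≤ κs / (4 * K) := by
  have hL0 : 0 < L := by linarith
  have hqq : L ^ 3 ≤ L ^ max 3 qB := pow_le_pow_right₀ hL1 (le_max_left _ _)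
  have hδ3 : δu * L ^ 3 ≤ 1 := (mul_le_mul_of_nonneg_left hqq hδ0).trans hδu
  refine ⟨?_, ?_, ?_⟩
  · rw [← one_div, le_div_iff₀ (by positivity)]
    exact (mul_le_mul_of_nonneg_left (pow_le_pow_right₀ hL1 (le_max_right _ _)) hδ0).trans hδu
  · rw [le_div_iff₀ (by positivity)]
    calc Cδ * δu * (2 * L ^ 2) = (2 * Cδ) * (δu * L ^ 2) := by ring
      _ ≤ L * (δu * L ^ 2) := mul_le_mul_of_nonneg_right t13 (by positivity)
      _ = δu * L ^ 3 := by ring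
      _ ≤ 1 := hδ3
  · rw [le_div_iff₀ (by positivity)]
    have h1 : δu * (4 * K) ≤ δu * (8 * L ^ 2) := mul_le_mul_of_nonneg_left (by linarith) hδ0
    have h2 : 8 ≤ L * κs := by rwa [div_le_iff₀ hκs] at t14
    have h3 : δu * (8 * L ^ 2) ≤ δu * ((L * κs) * L ^ 2) :=
      mul_le_mul_of_nonneg_left (mul_le_mul_of_nonneg_right h2 (by positivity)) hδ0
    have h4 : δu * ((L * κs) * L ^ 2) = κs * (δu * L ^ 3) := by ring
    have h5 : κs * (δu * L ^ 3) ≤ κs * 1 := mul_le_mul_of_nonneg_left hδ3 hκs.le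
    linarith

/-- outcome of the step. -/
def ResH (Q Ks N p : ℕ) (C₁ T G₀ Cδ : ℝ) (U : Set (Euc (m + n))) (D : VarifoldData m (m + n))
    (x : Euc (m + n)) (M : Mo m n (m + n)) (l L : ℝ) : Prop :=
  Out (M.I x (VD D)) (M.E x (VD D) Q) l M.K (Cδ * M.kap l + 1 / L ^ 2) G₀ ∧
    Cδ * M.kap l + 1 / L ^ 2 ≤ 1 / 100 ∧
  ∃ M₁ : Mo m n (m + n), Res U D Q x Ks N M M₁ l M.K L (L ^ p * Real.exp (-(L / 2)))
    (L ^ 5)⁻¹ ∧
    ((M₁.lb = M.lb ∧ M.lb - T ≤ l - 2 / M.K ∧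
        M₁.κ ≤ M.κ + L ^ p * Real.exp (-(L / 2)) ∧
        ‖fderiv ℝ M₁.u 0‖ ≤ ‖fderiv ℝ M.u 0‖ + L ^ p * Real.exp (-(L / 2))) ∨
     (M₁.lb = l - 2 / M.K + 1 / 8 ∧ l - 2 / M.K < M.lb - T ∧
        M₁.κ ≤ C₁ * Real.exp (M₁.lb - M.lb) * M.κ + (L ^ 5)⁻¹ +
          L ^ p * Real.exp (-(L / 2)) ∧
        ‖fderiv ℝ M₁.u 0‖ ≤ L ^ p * Real.exp (-(L / 2))))

set_option maxHeartbeats 800000 in
/-- the step at one reference, all inputs instantiated. -/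
theorem step_one {Q Ks N p₀ qs qB : ℕ}
    {C₁ T Λ G G₀ Gs Cδ κO εO LO κs εs Ls κB εB LB κS κp η ε : ℝ}
    {U : Set (Euc (m + n))} {D : VarifoldData m (m + n)} {x : Euc (m + n)}
    {M : Mo m n (m + n)} {l L δu κ₀ : ℝ}
    (HC : CoreH m n Q Ks N p₀ 6 qs T Λ Gs κs εs Ls)
    (HB : BlkH m n Q Ks N (qs + 7) qB C₁ T Λ (max G G₀) κB εB LB)
    (HO : OutH m n Q N T Λ Cδ G₀ G κO εO LO) (HS : SitH m n Q N T ε Λ κS η U D x l)
    (Hp : ∀ (M : Mo m n (m + n)) (ε Λ R : ℝ), Sit U D Q x M ε Λ → 0 ≤ M.κ → M.κ ≤ κp →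
      MG N M.κ R M.u → ∀ (l l' : ℝ), l ≤ l' → 0 < M.I x (VD D) l →
        0 < M.I x (VD D) l' ∧ M.I x (VD D) l ≤ Real.exp (m * (l' - l)) * M.I x (VD D) l')
    (hGs : max G G₀ + m + 3 ≤ Gs) (hE1 : ε ≤ εO) (hE2 : ε ≤ εs) (hE3 : ε ≤ εB)
    (hκs : 0 < κs) (hκS : 0 < κS) (hκp : 0 < κp) (hC₁ : 1 ≤ C₁) (hT1 : 1 ≤ T)
    (hCT : C₁ * Real.exp (-(T / 5)) ≤ 1 / 4)
    (k1 : κ₀ ≤ κO) (k2 : κ₀ ≤ κs / 2) (k3 : κ₀ ≤ κB) (k4 : κ₀ ≤ κS / 2) (k5 : κ₀ ≤ κp / 2)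
    (st : StH Q Ks N D x M l L T G κ₀) (t : ThH p₀ qs qB η LO Ls LB κs κS κp Cδ L)
    (hdu : ‖fderiv ℝ M.u 0‖ ≤ δu) (hδu : δu * L ^ max 3 qB ≤ 1) :
    ResH Q Ks N (p₀ + 1) C₁ T G₀ Cδ U D x M l L := by
  have t7 := t.t7
  have hK := st.K32
  have hlo := st.lo
  have hhi := st.hi
  have hK0 : 0 < M.K := by linarith
  have hL1 : 1 ≤ L := by linarith
  have hL0 : 0 < L := by linarith
  have q1 : 0 < 1 / M.K := by positivity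
  have q3 : 3 / (4 * M.K) = 3 * (1 / M.K) / 4 := by field_simp
  have q8 : 1 / (8 * M.K) = 1 / M.K / 8 := by field_simp
  have q32 : 1 / M.K ≤ 1 / 32 := one_div_le_one_div_of_le (by norm_num) hK
  obtain ⟨d1, d2, d3⟩ := slope (qB := qB) ((norm_nonneg _).trans hdu) hL1 hκs hK0 st.KL t.t13
    t.t14 hδu
  have c1 : M.κ ≤ κO := st.κ1.trans k1
  have c2 : M.κ ≤ κs / 2 := st.κ1.trans k2
  have c3 : M.κ ≤ κB := st.κ1.trans k3
  have c4 : M.κ ≤ κS / 2 := st.κ1.trans k4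
  have c5 : M.κ ≤ κp / 2 := st.κ1.trans k5
  have hradE : M.rad l = Real.exp (l + 1 / M.K - M.lb) * (1 + 1 / (8 * M.K)) := rfl
  have hrad1 : Real.exp (l + 1 / M.K - M.lb) ≤ M.rad l := by
    rw [hradE]
    refine le_mul_of_one_le_right (Real.exp_pos _).le ?_
    rw [q8]; linarith
  have hs : Sit U D Q x M ε Λ := HS M (M.rad l) (by linarith) (by linarith) st.fr st.κ0
    (by linarith) st.mg (st.sup.mono ((Real.exp_le_exp.2 (by linarith)).trans hrad1)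
      (le_trans (Real.exp_le_exp.2 (by linarith)) t.t1))
  obtain ⟨ho, hy1⟩ := HO U D x M l M.K L δu st.eL (hs.mono hE1) st.κ0 c1
    (st.mg.mono le_rfl hrad1) hK st.KL hlo hhi st.pos t.t4 st.KN st.grow hdu d2
  refine ⟨ho, hy1, ?_⟩
  have hGG : Real.exp G₀ ≤ Real.exp (max G G₀) := Real.exp_le_exp.2 (le_max_right _ _)
  have hm0 : (0:ℝ) ≤ m := by positivity
  have hdn : ∀ y ∈ Icc (l - 2 / M.K) l,
      M.I x (VD D) l ≤ Real.exp (max G G₀) * M.I x (VD D) y :=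
    fun y hy => (ho.o2 y hy).trans (mul_le_mul_of_nonneg_right hGG (ho.pos y hy).le)
  rcases le_or_gt (M.lb - T) (l - 2 / M.K) with hcase | hcase
  · have hI34 := Hp M ε Λ _ hs st.κ0 (by linarith) st.mg l (l + 3 / (4 * M.K))
      (by rw [q3]; linarith) st.pos
    have hI1 := Hp M ε Λ _ hs st.κ0 (by linarith) st.mg (l + 3 / (4 * M.K)) (l + 1 / M.K)
      (by rw [q3]; linarith) hI34.1
    have hgr34 : Real.log (M.I x (VD D) (l + 3 / (4 * M.K))) ≤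
        Real.log (M.I x (VD D) l) + Gs := by
      have h1 := Real.log_le_log hI34.1 hI1.2
      rw [Real.log_mul (Real.exp_pos _).ne' hI1.1.ne', Real.log_exp] at h1
      have h2 := le_max_left G G₀
      have h3 : (m:ℝ) * (l + 1 / M.K - (l + 3 / (4 * M.K))) ≤ m * 1 :=
        mul_le_mul_of_nonneg_left (by rw [q3]; linarith) hm0
      have h4 := st.grow
      linarith
    have hGGs : Real.exp (max G G₀) ≤ Real.exp Gs := Real.exp_le_exp.2 (by linarith)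
    obtain ⟨M₁, r1, r2, r3, r4⟩ := case_in HC st.eL (hs.mono hE2) st.κ0 (by linarith) st.mg
      (hdu.trans d3) hK st.KL hlo hhi st.pos (by linarith [t.t5]) hL1 hgr34 ho.pos
      (fun y hy => (hdn y hy).trans (mul_le_mul_of_nonneg_right hGGs (ho.pos y hy).le))
      st.sup st.mean t.t3 t.t8
    exact ⟨M₁, r1, Or.inl ⟨r2, hcase, r3, r4⟩⟩
  · obtain ⟨M₁, r1, r2, r3, r4⟩ := case_blk HC HB st.eL (hs.mono hE3) st.κ0 c3 hκs hκS hκp c2 c4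
      c5 st.mg (hdu.trans d1) hK st.KL hlo hcase st.pos
      (st.grow.trans (by linarith [le_max_left G G₀])) ho.pos hdn st.sup st.mean
      (fun M' R h1 h2 h3 h4 h5 h6 h7 => (HS M' R h1 h2 h3 h4 h5 h6 h7).mono hE2)
      (fun M' R h1 h2 h3 h4 l' hl' hI' => (Hp M' _ _ R h1 h2 h3 h4 l l' hl' hI').1)
      hC₁ hT1 hCT hGs t.t1 t.t2 t.t5 t.t6 t.t7 t.t8 t.t9 t.t10 t.t11 t.t12
    exact ⟨M₁, r1, Or.inr ⟨r2, hcase, r3, r4⟩⟩

/-- **the step at the level of references.** -/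
theorem pre_step (hGL : GLP) (hSup : SupP) (hSw : SwP) (hBlk : BlkP) (hSel : SelP3) (m n : ℕ)
    (hm : 3 ≤ m) (hn : 1 ≤ n) :
    ∃ Ks₀ : ℕ, ∀ Ks : ℕ, Ks₀ ≤ Ks → ∀ Q : ℕ, 1 ≤ Q → ∃ N₀ : ℕ, ∀ N : ℕ, N₀ ≤ N →
    ∃ (p : ℕ) (C₁ T₀ : ℝ), 1 ≤ C₁ ∧
    ∀ T : ℝ, T₀ ≤ T → 1 ≤ T → C₁ * Real.exp (-(T / 5)) ≤ 1 / 4 →
    ∃ G₀ Cδ : ℝ, 0 ≤ G₀ ∧ 0 ≤ Cδ ∧ ∀ G c₀ : ℝ, T + 3 ≤ c₀ →
    ∃ (q₁ : ℕ) (κ₀ L₁ om : ℝ), 0 < κ₀ ∧ 0 < om ∧
    ∀ (U : Set (Euc (m + n))) (D : VarifoldData m (m + n)) (x : Euc (m + n)) (om' r₁ : ℝ)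
      (M : Mo m n (m + n)) (l L δu κ' : ℝ), om' ≤ om → Env m U D Q x om' r₁ →
      flatL m (VD D) x om' c₀ r₁ l → κ' ≤ κ₀ → StH Q Ks N D x M l L T G κ' → L₁ ≤ L →
      ‖fderiv ℝ M.u 0‖ ≤ δu → δu * L ^ q₁ ≤ 1 →
      ResH Q Ks N p C₁ T G₀ Cδ U D x M l L := by
  obtain ⟨Ks₁, HC⟩ := coreH hSup hSw hSel m n hm hn
  refine ⟨max 1 Ks₁, ?_⟩
  intro Ks hKs Q hQ
  obtain ⟨N₁, HC⟩ := HC Ks ((le_max_right _ _).trans hKs) Q hQ
  obtain ⟨N₂, HO⟩ := out_of_GLP hGL m n Q hm hn hQ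
  obtain ⟨N₃, HB⟩ := blkH hBlk m n Q hm hn hQ
  refine ⟨max (max 2 N₁) (max N₂ N₃), ?_⟩
  intro N hN
  have hN0 : 2 ≤ N := ((le_max_left _ _).trans (le_max_left _ _)).trans hN
  have hN1 : N₁ ≤ N := ((le_max_right _ _).trans (le_max_left _ _)).trans hN
  have hN2 : N₂ ≤ N := ((le_max_left _ _).trans (le_max_right _ _)).trans hN
  have hN3 : N₃ ≤ N := ((le_max_right _ _).trans (le_max_right _ _)).trans hN
  obtain ⟨p₀, HC⟩ := HC N hN1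
  obtain ⟨C₁, T₀, hC₁, HB⟩ := HB N hN3
  refine ⟨p₀ + 1, C₁, T₀, hC₁, ?_⟩
  intro T hT hT1 hCT
  obtain ⟨Λ, hΛ, HS⟩ := sit_of m n N Q (by omega) hQ T (by linarith)
  obtain ⟨G₀, Cδ, hG₀, hCδ, HO⟩ := HO N hN2 T Λ
  refine ⟨G₀, Cδ, hG₀, hCδ, ?_⟩
  intro G c₀ hc₀
  obtain ⟨κO, εO, LO, hκO, hεO, HO⟩ := HO G
  obtain ⟨qs, κs, εs, Ls, hκs, hεs, HC⟩ := HC 6 T Λ (max G G₀ + m + 3)
  obtain ⟨qB, κB, εB, LB, hκB, hεB, HB⟩ := HB Ks (qs + 7) T Λ (max G G₀)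
    ((le_max_left _ _).trans hKs) hT
  obtain ⟨κp, hκp, Hp⟩ := I_posm m n hN0
  obtain ⟨κS, η, om, hκS, hη, hom, HS⟩ := HS (min εO (min εs εB)) c₀ (by positivity) hc₀
  obtain ⟨L₁, hL₁⟩ := exists_ThH p₀ qs qB (LO := LO) (Ls := Ls) (LB := LB) (κs := κs) (κS := κS)
    (κp := κp) (Cδ := Cδ) hη
  refine ⟨max 3 qB, min κO (min (κs / 2) (min κB (min (κS / 2) (κp / 2)))), L₁, om,
    by positivity, hom, ?_⟩
  intro U D x om' r₁ M l L δu κ' homle henv hfl hκ' st hL hdu hδu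
  exact step_one HC HB HO
    (fun M R h1 h2 h3 h4 h5 h6 h7 => HS U D x om' r₁ M l R homle henv hfl h1 h2 h3 h4 h5 h6 h7)
    (fun M ε Λ R h1 h2 h3 h4 l l' h5 h6 => Hp h1 h2 h3 h4 h5 h6) le_rfl (min_le_left _ _)
    ((min_le_right _ _).trans (min_le_left _ _)) ((min_le_right _ _).trans (min_le_right _ _))
    hκs hκS hκp hC₁ hT1 hCT (hκ'.trans (min_le_left _ _))
    (hκ'.trans ((min_le_right _ _).trans (min_le_left _ _)))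
    (hκ'.trans ((min_le_right _ _).trans ((min_le_right _ _).trans (min_le_left _ _))))
    (hκ'.trans ((min_le_right _ _).trans ((min_le_right _ _).trans
      ((min_le_right _ _).trans (min_le_left _ _)))))
    (hκ'.trans ((min_le_right _ _).trans ((min_le_right _ _).trans
      ((min_le_right _ _).trans (min_le_right _ _)))))
    st (hL₁ L hL) hdu hδu

end Crest.Agent.R234.Stp_518
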