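import Crest.Agent.R234.Stp7_518

/-!
# Row 234, F7-STEPV (helper518), part 8: real-variable closing of the step

`rec_start` : record of a new block; `kap_in`, `kap_blk` : normalised curvature; thresholds.
-/

set_option autoImplicit false
set_option linter.unusedVariables false

open Filter Topology Set Real

noncomputable section

namespace Crest.Agent.R234.Stp_518

open Crest.Agent.R234.F10a_188

/-- start of the record in a new block, with a weak bound of the frequency. -/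
theorem rec_start {k : Cst} {L₁ κm G l L f κ K : ℝ} (hL₁ : 0 < L₁) (hL : L₁ ≤ L) (hκm : κ ≤ κm)
    (hf : -1 < f) (hK : K ≤ 2 * L ^ 2) (hP : 32 * (1 + f) ≤ 8 * L ^ 2)
    (hb : 32 * exp (k.base L₁ κm) ≤ L₁ ^ 2) (he : 2 * k.b * κm + 4 * k.A / L₁ ≤ 1) :
    Rec k L₁ κm G l L (max K (max (32 * exp (k.pot L f κ)) (L ^ 2)))
      (max (k.pot L f κ) (k.base L₁ κm)) l L f κ K ∧
      max K (max (32 * exp (k.pot L f κ)) (L ^ 2)) ≤ 40 * L ^ 2 := by
  have hL0 : 0 < L := hL₁.trans_le hL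
  have hb0 := k.hb
  have hA0 := k.A_nonneg
  constructor
  · refine ⟨le_refl _, hL, le_max_left _ _, le_max_left _ _, le_max_right _ _, ?_, by simp,
      by simp⟩
    rcases le_total (k.pot L f κ) (k.base L₁ κm) with h1 | h1
    · rw [max_eq_right h1]
      refine hb.trans ?_
      have : L₁ ^ 2 ≤ L ^ 2 := pow_le_pow_left₀ hL₁.le hL 2
      exact this.trans ((le_max_right _ _).trans (le_max_right _ _))
    · rw [max_eq_left h1]
      exact (le_max_left _ _).trans (le_max_right _ _)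
  · have hL2 : 0 < L ^ 2 := by positivity
    have h1 : k.pot L f κ ≤ log (1 + f) + 1 := by
      unfold Cst.pot
      have h2 : 2 * k.b * κ ≤ 2 * k.b * κm := mul_le_mul_of_nonneg_left hκm (by positivity)
      have h3 : 4 * k.A / L ≤ 4 * k.A / L₁ := div_le_div_of_nonneg_left (by positivity) hL₁ hL
      linarith
    have h4 : exp (k.pot L f κ) ≤ (1 + f) * exp 1 := by
      refine (exp_le_exp.2 h1).trans ?_
      rw [exp_add, exp_log (by linarith)]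
    have h5 : exp (1:ℝ) ≤ 3 := by have := exp_one_lt_d9; linarith
    have h6 : (1 + f) * exp 1 ≤ (1 + f) * 3 := mul_le_mul_of_nonneg_left h5 (by linarith)
    refine max_le (by linarith) (max_le (by linarith) (by linarith))

theorem base_le {k : Cst} {L₁ κm : ℝ} (hc : k.c = 1) (h14 : 14 ≤ L₁)
    (he : 2 * k.b * κm + 4 * k.A / L₁ ≤ 1) : 32 * exp (k.base L₁ κm) ≤ L₁ ^ 2 := by
  have h1 : k.base L₁ κm ≤ log 2 + 1 := by
    unfold Cst.base
    rw [hc]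
    norm_num
    linarith
  have h2 : exp (k.base L₁ κm) ≤ 2 * exp 1 := by
    refine (exp_le_exp.2 h1).trans ?_
    rw [exp_add, exp_log (by norm_num)]
  have h5 : exp (1:ℝ) ≤ 3 := by have := exp_one_lt_d9; linarith
  nlinarith

theorem exp_h {h : ℝ} (h0 : 0 ≤ h) (h1 : h ≤ 1 / 16) : exp (-(4 / 5 * h)) ≤ 1 - h / 2 := by
  have h2 := add_one_le_exp (4 / 5 * h)
  have h3 : exp (-(4 / 5 * h)) * exp (4 / 5 * h) = 1 := by rw [← exp_add]; simp
  have h4 := exp_pos (-(4 / 5 * h))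
  have h5 : exp (-(4 / 5 * h)) * (1 + 4 / 5 * h) ≤ 1 := by
    have := mul_le_mul_of_nonneg_left h2 h4.le
    linarith
  have h6 : 1 ≤ (1 - h / 2) * (1 + 4 / 5 * h) := by nlinarith
  exact le_of_mul_le_mul_right (h5.trans h6) (by linarith)

theorem kap_in {κ κ₁ σ lb l h s : ℝ} (h0 : 0 ≤ h) (h1 : h ≤ 1 / 16) (hκ : 0 ≤ κ) (hσ : 0 ≤ σ)
    (hl : l ≤ lb) (hκ₁ : κ₁ ≤ κ + σ) (hσa : σ ≤ s) :
    κ₁ * exp (-(4 / 5 * (lb - (l - h)))) ≤ (1 - h / 2) * (κ * exp (-(4 / 5 * (lb - l)))) + s := by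
  have e1 : exp (-(4 / 5 * (lb - (l - h)))) = exp (-(4 / 5 * (lb - l))) * exp (-(4 / 5 * h)) := by
    rw [← exp_add]; congr 1; ring
  have e2 := exp_h h0 h1
  have e3 : exp (-(4 / 5 * (lb - l))) ≤ 1 := exp_le_one_iff.2 (by linarith)
  have e4 := exp_pos (-(4 / 5 * (lb - l)))
  have e5 := exp_pos (-(4 / 5 * h))
  rw [e1]
  set a := exp (-(4 / 5 * (lb - l)))
  set b := exp (-(4 / 5 * h))
  have f1 : κ₁ * (a * b) ≤ (κ + σ) * (a * b) := mul_le_mul_of_nonneg_right hκ₁ (by positivity)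
  have f2 : κ * a * b ≤ κ * a * (1 - h / 2) := mul_le_mul_of_nonneg_left e2 (by positivity)
  have f3 : a * b ≤ 1 := by nlinarith
  have f4 : σ * (a * b) ≤ σ * 1 := mul_le_mul_of_nonneg_left f3 hσ
  linarith

theorem kap_blk {C₁ T κ κ₁ σ θ lb lb₁ l h s : ℝ} (hC₁ : 0 ≤ C₁) (h0 : 0 ≤ h) (h1 : h ≤ 1 / 16)
    (hκ : 0 ≤ κ) (hσ : 0 ≤ σ + θ) (hlb₁ : lb₁ = l - h + 1 / 8) (hT : l - h < lb - T)
    (hCT : C₁ * exp (-(T / 5)) ≤ 1 / 4)
    (hκ₁ : κ₁ ≤ C₁ * exp (lb₁ - lb) * κ + θ + σ) (hσa : σ + θ ≤ s) :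
    κ₁ * exp (-(4 / 5 * (lb₁ - (l - h)))) ≤
      (1 - h / 2) * (κ * exp (-(4 / 5 * (lb - l)))) + s := by
  have e0 : exp (-(4 / 5 * (lb₁ - (l - h)))) ≤ 1 := exp_le_one_iff.2 (by rw [hlb₁]; linarith)
  have e00 := exp_pos (-(4 / 5 * (lb₁ - (l - h))))
  have e1 : exp (lb₁ - lb) ≤ exp (-(T / 5)) * exp (1 / 2) * exp (-(4 / 5 * (lb - l))) := by
    rw [← exp_add, ← exp_add]
    refine exp_le_exp.2 ?_
    rw [hlb₁]; linarith
  have e2 : exp (1 / 2 : ℝ) ≤ 15 / 8 := by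
    have h1 : exp (1 / 2 : ℝ) * exp (1 / 2) = exp 1 := by rw [← exp_add]; norm_num
    have h2 := exp_one_lt_d9
    have h3 := exp_pos (1 / 2 : ℝ)
    nlinarith
  have ea := exp_pos (-(4 / 5 * (lb - l)))
  set a := exp (-(4 / 5 * (lb - l)))
  have ec := exp_pos (-(T / 5))
  have f1 : C₁ * exp (lb₁ - lb) ≤ 15 / 32 * a := by
    calc C₁ * exp (lb₁ - lb) ≤ C₁ * (exp (-(T / 5)) * exp (1 / 2) * a) :=
          mul_le_mul_of_nonneg_left e1 hC₁
      _ = (C₁ * exp (-(T / 5))) * (exp (1 / 2) * a) := by ring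
      _ ≤ 1 / 4 * (15 / 8 * a) := by
          refine mul_le_mul hCT (mul_le_mul_of_nonneg_right e2 ea.le) (by positivity) (by norm_num)
      _ = 15 / 32 * a := by ring
  have f2 : C₁ * exp (lb₁ - lb) * κ ≤ 15 / 32 * a * κ := mul_le_mul_of_nonneg_right f1 hκ
  have f3 : κ₁ ≤ 15 / 32 * a * κ + s := by linarith
  have hs : 0 ≤ s := hσ.trans hσa
  have haκ : 0 ≤ a * κ := by positivity
  have f4 : κ₁ * exp (-(4 / 5 * (lb₁ - (l - h)))) ≤ 15 / 32 * a * κ + s := by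
    rcases le_or_gt κ₁ 0 with g | g
    · have : κ₁ * exp (-(4 / 5 * (lb₁ - (l - h)))) ≤ 0 :=
        mul_nonpos_of_nonpos_of_nonneg g e00.le
      have h5 : 0 ≤ 15 / 32 * a * κ := by positivity
      linarith
    · calc κ₁ * exp (-(4 / 5 * (lb₁ - (l - h)))) ≤ κ₁ * 1 := mul_le_mul_of_nonneg_left e0 g.le
        _ ≤ _ := by linarith
  nlinarith

/-- thresholds in `L`. -/
structure Th2 (p : ℕ) (a κ₀ κm T G₀ L : ℝ) : Prop where
  big : 200 ≤ L
  G1 : G₀ + 1 ≤ L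
  s1 : 8 * (L ^ (p + 2) * exp (-(L / 4))) ≤ exp (-(G₀ + 2)) * exp (-T)
  s2 : L ^ (p + 4) * exp (-(L / 2)) ≤ 1
  s3 : L ^ p * exp (-(L / 2)) ≤ κ₀ / 4
  s4 : (L ^ 5)⁻¹ ≤ κ₀ / 4
  s5 : a / L ^ 2 ≤ κm / 2

theorem ev_exp' (C c : ℝ) (p : ℕ) (hc : 0 < c) {δ : ℝ} (hδ : 0 < δ) :
    ∀ᶠ L : ℝ in atTop, C * (L ^ p * exp (-(c * L))) ≤ δ := by
  filter_upwards [ev_exp C c p hc hδ] with L hL
  rw [← mul_assoc]; exact hL

theorem exists_Th2 (p : ℕ) {a κ₀ κm T G₀ : ℝ} (hκ₀ : 0 < κ₀) (hκm : 0 < κm) :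
    ∃ L₁ : ℝ, ∀ L : ℝ, L₁ ≤ L → Th2 p a κ₀ κm T G₀ L := by
  have h5 : Tendsto (fun L : ℝ => (L ^ 5)⁻¹) atTop (𝓝 0) :=
    tendsto_inv_atTop_zero.comp (tendsto_pow_atTop (by norm_num))
  have h6 : Tendsto (fun L : ℝ => a / L ^ 2) atTop (𝓝 0) :=
    tendsto_const_nhds.div_atTop (tendsto_pow_atTop (by norm_num))
  have hev : ∀ᶠ L : ℝ in atTop, Th2 p a κ₀ κm T G₀ L := by
    filter_upwards [eventually_ge_atTop 200, eventually_ge_atTop (G₀ + 1),
      ev_exp' 8 (1 / 4) (p + 2) (by norm_num)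
        (show 0 < exp (-(G₀ + 2)) * exp (-T) by positivity),
      ev_exp 1 (1 / 2) (p + 4) (by norm_num) one_pos,
      ev_exp 1 (1 / 2) p (by norm_num) (show 0 < κ₀ / 4 by positivity),
      h5.eventually (ge_mem_nhds (show 0 < κ₀ / 4 by positivity)),
      h6.eventually (ge_mem_nhds (show 0 < κm / 2 by positivity))] with L h1 h2 h3 h4 h5 h6 h7
    have e4 : exp (-(1 / 4 * L)) = exp (-(L / 4)) := by congr 1; ring
    have e2 : exp (-(1 / 2 * L)) = exp (-(L / 2)) := by congr 1; ring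
    rw [e4] at h3
    rw [e2, one_mul] at h4 h5
    exact ⟨h1, h2, h3, h4, h5, h6, h7⟩
  exact eventually_atTop.1 hev

/-- consequences of the thresholds for one step. -/
theorem Th2.sig {p : ℕ} {a κ₀ κm T G₀ L : ℝ} (t : Th2 p a κ₀ κm T G₀ L) {K : ℝ} (hK : 32 ≤ K)
    (hKL : K ≤ 2 * L ^ 2) (hT : 0 ≤ T) (hG : 0 ≤ G₀) (ha : 26 ≤ a) :
    (L ^ 5)⁻¹ ≤ (2 / K) / L ^ 2 ∧
    L ^ p * exp (-(L / 2)) + (L ^ 5)⁻¹ ≤ a * (2 / K) / L ^ 2 ∧
    L ^ p * exp (-(L / 2)) ≤ (2 / K) * (exp (-(L / 4)) * exp (-T)) ∧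
    8 * (L ^ p * exp (-(L / 2))) ≤ exp (-(L / 4)) * exp (-(G₀ + 2)) := by
  have h200 := t.big
  have hL0 : 0 < L := by linarith
  have hL1 : 1 ≤ L := by linarith
  have hK0 : 0 < K := by linarith
  have hh : 1 / L ^ 2 ≤ 2 / K := by
    rw [div_le_div_iff₀ (by positivity) hK0]; linarith
  have e4 : 1 / L ^ 4 ≤ (2 / K) / L ^ 2 := by
    have : 1 / L ^ 4 = (1 / L ^ 2) / L ^ 2 := by
      rw [div_div, ← pow_add]
    rw [this]
    exact div_le_div_of_nonneg_right hh (by positivity)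
  have e5 : (L ^ 5)⁻¹ ≤ 1 / L ^ 4 := by
    rw [one_div]
    exact inv_anti₀ (by positivity) (pow_le_pow_right₀ hL1 (by norm_num))
  have e6 : L ^ p * exp (-(L / 2)) ≤ 1 / L ^ 4 := by
    rw [le_div_iff₀ (by positivity)]
    have := t.s2
    rw [pow_add] at this
    linarith
  have hE : exp (-(L / 2)) = exp (-(L / 4)) * exp (-(L / 4)) := by
    rw [← exp_add]; congr 1; ring
  have hE4 := exp_pos (-(L / 4))
  have hGT : exp (-(G₀ + 2)) ≤ 1 := exp_le_one_iff.2 (by linarith)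
  have hTT : exp (-T) ≤ 1 := exp_le_one_iff.2 (by linarith)
  have hG0 := exp_pos (-(G₀ + 2))
  have hT0 := exp_pos (-T)
  have hp0 : 0 ≤ L ^ p * exp (-(L / 4)) := by positivity
  have s1' : L ^ 2 * (8 * (L ^ p * exp (-(L / 4)))) ≤ exp (-(G₀ + 2)) * exp (-T) := by
    have := t.s1
    rw [pow_add] at this
    linarith
  refine ⟨e5.trans e4, ?_, ?_, ?_⟩
  · have h1 : a * (2 / K) / L ^ 2 = a * ((2 / K) / L ^ 2) := by ring
    rw [h1]
    have h2 : 0 < (2 / K) / L ^ 2 := by positivity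
    nlinarith
  · -- `σ ≤ h e^{-L/4} e^{-T}`
    have h1 : L ^ p * exp (-(L / 4)) ≤ 1 / L ^ 2 * exp (-T) := by
      rw [div_mul_eq_mul_div, one_mul, le_div_iff₀ (by positivity)]
      have h2 : exp (-(G₀ + 2)) * exp (-T) ≤ 1 * exp (-T) :=
        mul_le_mul_of_nonneg_right hGT hT0.le
      nlinarith
    calc L ^ p * exp (-(L / 2)) = (L ^ p * exp (-(L / 4))) * exp (-(L / 4)) := by
          rw [hE]; ring
      _ ≤ (1 / L ^ 2 * exp (-T)) * exp (-(L / 4)) := mul_le_mul_of_nonneg_right h1 hE4.le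
      _ ≤ ((2 / K) * exp (-T)) * exp (-(L / 4)) :=
          mul_le_mul_of_nonneg_right (mul_le_mul_of_nonneg_right hh hT0.le) hE4.le
      _ = _ := by ring
  · have h1 : 8 * (L ^ p * exp (-(L / 4))) ≤ exp (-(G₀ + 2)) := by
      have h2 : exp (-(G₀ + 2)) * exp (-T) ≤ exp (-(G₀ + 2)) * 1 :=
        mul_le_mul_of_nonneg_left hTT hG0.le
      have h3 : 1 ≤ L ^ 2 := one_le_pow₀ hL1
      have h4 : 8 * (L ^ p * exp (-(L / 4))) ≤ L ^ 2 * (8 * (L ^ p * exp (-(L / 4)))) := by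
        nlinarith
      linarith
    calc 8 * (L ^ p * exp (-(L / 2))) = (8 * (L ^ p * exp (-(L / 4)))) * exp (-(L / 4)) := by
          rw [hE]; ring
      _ ≤ exp (-(G₀ + 2)) * exp (-(L / 4)) := mul_le_mul_of_nonneg_right h1 hE4.le
      _ = _ := by ring

end Crest.Agent.R234.Stp_518
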