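import Crest.Agent.R234.Thya1_685

/-!
R234 (helper685): adapters for the step and for (FL).
-/

set_option autoImplicit false

open MeasureTheory Filter Topology Set
open scoped ENNReal NNReal

namespace Crest.Agent.R234.Thya_685

open Crest.GeometryTopology.Submanifold Crest.Agent.R234.Vf_884
open Crest.Agent.R234.F10a_188 Crest.Agent.R234.F10b_188 Crest.Agent.R234.F10d_188
open Crest.Agent.R234.Stp_518

noncomputable section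

/-- text of 518's step (`L₁` free, thresholds for `Λ₀` may depend on `L₁`) -/
def StepT (m n : ℕ) : Prop :=
  ∃ Ks₀ : ℕ, ∀ Ks : ℕ, Ks₀ ≤ Ks → ∀ Q : ℕ, 1 ≤ Q → ∃ N₀ : ℕ, ∀ N : ℕ, N₀ ≤ N →
    ∃ T₀ : ℝ, ∀ T : ℝ, T₀ ≤ T → ∃ G₀ b : ℝ, 0 ≤ b ∧ ∀ G : ℝ, G₀ ≤ G →
      ∀ k : Cst, k.c = 1 → k.d ≤ 1 / 4 → 26 ≤ k.a → b ≤ k.b →
        ∀ CK : ℝ, 40 ≤ CK → ∀ c₀ : ℝ, T + 3 ≤ c₀ →
          ∃ κs : ℝ, 0 < κs ∧ ∀ κ₀ : ℝ, 0 < κ₀ → κ₀ ≤ κs → ∃ Ls : ℝ, ∀ L₁ : ℝ, Ls ≤ L₁ →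
            ∃ Λs : ℝ, ∀ Λ₀ : ℝ, Λs ≤ Λ₀ → ∃ oms : ℝ, 0 < oms ∧ ∀ om : ℝ, 0 < om → om ≤ oms →
              ∀ (U : Set (Euc (m + n))) (D : VarifoldData m (m + n)) (x : Euc (m + n)) (r₁ : ℝ),
                Env m U D Q x om r₁ →
                  StepH (world (⟨N, Ks, T, κ₀, L₁, G, CK⟩ : Cn) k (κ₀ * Real.exp (-(4 / 5 * (T + 1))))
                    (VD D) Q x : World (Mo m n (m + n))) k (flatL m (VD D) x om c₀ r₁) Λ₀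
                    (κ₀ * Real.exp (-(4 / 5 * (T + 1)))) 32 32

theorem stepAll_of {m n : ℕ} (h : StepT m n) : StepAll m n := by
  obtain ⟨Ks₀, h⟩ := h
  refine ⟨Ks₀, fun Ks hKs K _ Q hQ => ?_⟩
  obtain ⟨N₀, h⟩ := h Ks hKs Q (by omega)
  refine ⟨N₀, fun N hN => ?_⟩
  obtain ⟨T₀, h⟩ := h N hN
  refine ⟨T₀, fun T hT c₀ hc₀ => ?_⟩
  obtain ⟨G₀, b, hb, h⟩ := h T hT
  obtain ⟨κs, hκs, h⟩ := h (max G₀ 3) (le_max_left _ _)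
    ⟨26, b, 1, 1 / 4, by norm_num, hb, by norm_num, by norm_num⟩ rfl le_rfl le_rfl le_rfl
    40 le_rfl c₀ (by linarith)
  exact ⟨max G₀ 3, 40, 32, 32, ⟨26, b, 1, 1 / 4, by norm_num, hb, by norm_num, by norm_num⟩,
    le_max_right _ _, by norm_num, by norm_num, by norm_num, κs, hκs, h⟩

end

end Crest.Agent.R234.Thya_685
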