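import Crest.Agent.R234.Stp8_518
import Crest.Agent.R234.Thya4_685

/-!
# Row 234, F7-STEPV (helper518), part 9: the step (`stepT : Thya_685.StepT m n`)

`sta_mk` : the fields of `Sta` for the new reference; `nx_of_res` : the step of the world.
-/

set_option autoImplicit false
set_option linter.unusedVariables false

open MeasureTheory Filter Topology Set
open scoped ENNReal NNReal ContDiff
open Crest.GeometryTopology.Submanifold Crest.Agent.R234.Vf_884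
open Crest.Agent.R234.Main_456 (Frame Msys hgt)
open Crest.Agent.R234.MG_570 (MG SelP3 bar)
open Crest.Agent.R234.F10a_188 Crest.Agent.R234.F10b_188
open Crest.Agent.R234.F10d_188 (flatL)

noncomputable section

namespace Crest.Agent.R234.Stp_518

variable {m n k : ℕ}

/-- the new reference with its record. -/
def upd (M₁ : Mo m n k) (K Lb Kb Pb : ℝ) : Mo m n k :=
  { M₁ with K := K, Lb := Lb, Kb := Kb, Pb := Pb }

theorem sta_mk {c : Cn} {C : Cst} {κm : ℝ} {Q : ℕ} {U : Set (Euc (m + n))}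
    {D : VarifoldData m (m + n)} {x : Euc (m + n)} {M M₁ : Mo m n (m + n)}
    {l K L σ θ Lb Kb Pb : ℝ} (hK : 32 ≤ K)
    (r : Res U D Q x c.Ks c.N M M₁ l K L σ θ) (hκ : M₁.κ ≤ c.κ₀)
    (hdu : ‖fderiv ℝ M₁.u 0‖ ≤ Real.exp (-Lb / 4) * (M₁.lb - (l - 2 / K)))
    (hlo : M₁.lb - c.T ≤ l - 2 / K)
    (hpos : ∀ y ∈ Icc (l - 2 / K) l, 0 < M₁.I x (VD D) y)
    (hσ1 : σ * √(M.I x (VD D) l) ≤
      Real.exp (-(lam (M₁.I x (VD D)) (l - 2 / K) / 4)) * √(M₁.I x (VD D) (l - 2 / K)))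
    (hσ2 : σ ≤ Real.exp (-(lam (M₁.I x (VD D)) (l - 2 / K) / 4)))
    (hgrow : ∀ y ∈ Icc (l - 2 / K) l,
      Real.log (M₁.I x (VD D) y) ≤ Real.log (M₁.I x (VD D) (l - 2 / K)) + c.G)
    (hKL : newK (M₁.E x (VD D) Q) (M₁.I x (VD D)) l K ≤
      2 * lam (M₁.I x (VD D)) (l - 2 / K) ^ 2)
    (hL1 : c.L₁ ≤ lam (M₁.I x (VD D)) (l - 2 / K)) (hKb : Kb ≤ c.CK * Lb ^ 2)
    (hrec : Rec C c.L₁ κm c.G (M₁.lb - 1 / 8) Lb Kb Pb (l - 2 / K)
      (lam (M₁.I x (VD D)) (l - 2 / K)) (fx (M₁.E x (VD D) Q) (M₁.I x (VD D)) (l - 2 / K))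
      (M₁.kap (l - 2 / K)) (newK (M₁.E x (VD D) Q) (M₁.I x (VD D)) l K)) :
    Sta c C κm (VD D) Q x (upd M₁ (newK (M₁.E x (VD D) Q) (M₁.I x (VD D)) l K) Lb Kb Pb)
      (l - 2 / K) := by
  obtain ⟨n1, n2, n3, n4, n5⟩ := newK_props (M₁.E x (VD D) Q) (M₁.I x (VD D)) (l := l) hK
  set K' := newK (M₁.E x (VD D) Q) (M₁.I x (VD D)) l K with hK'
  have hK0 : 0 < K := by linarith
  have hK'0 : 0 < K' := by linarith
  have q1 : 0 < 1 / K' := by positivity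
  have q8 : 1 / (8 * K') = 1 / K' / 8 := by field_simp
  have q4 : 1 / (4 * K) = 2 / K / 8 := by field_simp; norm_num
  have hrad : (upd M₁ K' Lb Kb Pb).rad (l - 2 / K) ≤ rsel M₁.lb l K := by
    have e1 : (upd M₁ K' Lb Kb Pb).rad (l - 2 / K) =
        Real.exp (l - 2 / K + 1 / K' - M₁.lb) * (1 + 1 / (8 * K')) := rfl
    rw [e1]
    unfold rsel
    refine mul_le_mul (Real.exp_le_exp.2 (by linarith)) ?_ (by positivity) (Real.exp_pos _).le
    rw [q8, q4]; linarith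
  have hla : l - 2 / K ∈ Icc (l - 2 / K) l := ⟨le_rfl, by
    have : 0 < 2 / K := by positivity
    linarith⟩
  exact
    { cls := ⟨r.fr, r.κ0, hκ, r.mg.mono le_rfl hrad, hdu⟩
      lo := hlo
      pos := hpos _ hla
      mean := fun ζ h1 h2 h3 => (r.mean.mono hrad hσ1) ζ h1 h2 h3
      sup := r.sup.mono hrad hσ2
      grow := hgrow (l - 2 / K + 1 / K') ⟨by linarith, by linarith⟩
      K32 := n1
      KL := hKL
      KN := n2
      L1 := hL1
      KbL := hKb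
      rcd := hrec }

set_option maxHeartbeats 1000000 in
/-- **the step of the world from the step of the references.** -/
theorem nx_of_res {Q Ks N p : ℕ} {C₁ T G₀ Cδ G κ₀ κm L₁ CK L : ℝ} {C : Cst}
    {U : Set (Euc (m + n))} {D : VarifoldData m (m + n)} {x : Euc (m + n)}
    {M : Mo m n (m + n)} {l : ℝ}
    (hc : C.c = 1) (hd : C.d ≤ 1 / 4) (ha : 26 ≤ C.a) (hb : 22 * Cδ ≤ C.b)
    (st : Sta ⟨N, Ks, T, κ₀, L₁, G, CK⟩ C κm (VD D) Q x M l) (hkm : M.kap l ≤ κm)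
    (hLdef : L = lam (M.I x (VD D)) l)
    (hP : 32 * (1 + fx (M.E x (VD D) Q) (M.I x (VD D)) l) ≤ L ^ 2) (hΛ : L₁ + 1 ≤ L)
    (res : ResH Q Ks N p C₁ T G₀ Cδ U D x M l L) (t : Th2 p C.a κ₀ κm T G₀ L)
    (hC₁ : 1 ≤ C₁) (hT : 1 ≤ T) (hCT : C₁ * Real.exp (-(T / 5)) ≤ 1 / 4) (hG₀ : 0 ≤ G₀)
    (hG : G₀ + 1 ≤ G) (hCK : 40 ≤ CK) (h14 : 14 ≤ L₁)
    (he : 2 * C.b * κm + 4 * C.A / L₁ ≤ 1) (hκ2 : M.κ ≤ κ₀ / 2) (hκ₀ : 0 < κ₀) :
    ∃ (M' : Mo m n (m + n)) (h : ℝ),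
      Nx (world ⟨N, Ks, T, κ₀, L₁, G, CK⟩ C κm (VD D) Q x) C 32 M l M' h := by
  obtain ⟨ho, hy1, M₁, r, hcase⟩ := res
  have hK := st.K32
  have hKL := st.KL
  have hN8 := st.KN
  have hlo := st.lo
  have hhi := st.rcd.hl
  have hI := st.pos
  have hκ0 := st.cls.κ0
  have hdu := st.cls.du
  have hrcd := st.rcd
  have hKbL := st.KbL
  rw [← hLdef] at hKL hrcd
  set K := M.K with hKdef
  have hK0 : 0 < K := by linarith
  set h := 2 / K with hh
  have hh0 : 0 < h := by positivity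
  have hh1 : h ≤ 1 / 16 := by
    rw [hh, div_le_iff₀ hK0]; linarith
  have hL200 := t.big
  have hL0 : 0 < L := by linarith
  have hL1 : 1 ≤ L := by linarith
  obtain ⟨a1, a2, a3, a4⟩ := t.sig hK hKL (by linarith) hG₀ ha
  rw [← hh] at a1 a2 a3
  set σ := L ^ p * Real.exp (-(L / 2)) with hσ
  set θ := (L ^ 5)⁻¹ with hθ
  have hσ0 : 0 ≤ σ := by positivity
  have hθ0 : 0 < θ := by positivity
  have hll : l ≤ M.lb := by linarith
  -- curvature
  have hκ' : M₁.kap (l - h) ≤ (1 - h / 2) * M.kap l + C.a * h / L ^ 2 := by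
    rcases hcase with ⟨c1, c2, c3, c4⟩ | ⟨c1, c2, c3, c4⟩
    · unfold Mo.kap
      rw [c1]
      exact kap_in hh0.le hh1 hκ0 hσ0 hll c3 (by linarith)
    · unfold Mo.kap
      exact kap_blk (by linarith) hh0.le hh1 hκ0 (by positivity) c1 c2 hCT c3 a2
  have hκ₁ : M₁.κ ≤ κ₀ := by
    have s3 := t.s3
    have s4 := t.s4
    rcases hcase with ⟨c1, c2, c3, c4⟩ | ⟨c1, c2, c3, c4⟩
    · linarith
    · have e1 : C₁ * Real.exp (M₁.lb - M.lb) ≤ 1 / 4 := by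
        refine le_trans (mul_le_mul_of_nonneg_left (Real.exp_le_exp.2 ?_) (by linarith)) hCT
        linarith
      have e2 : C₁ * Real.exp (M₁.lb - M.lb) * M.κ ≤ 1 / 4 * M.κ :=
        mul_le_mul_of_nonneg_right e1 hκ0
      linarith
  -- the real-variable step
  have hG1 := t.G1
  have hrel := step_rel (k := C) (Cδ := Cδ) (κ := M.kap l) (κ' := M₁.kap (l - h)) (θ := θ)
    (y := Cδ * M.kap l + 1 / L ^ 2) hc hd ha hb (M.kap_nonneg hκ0 l) ho r.near hK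
    (by rw [← hLdef]; exact hKL) (by rw [← hLdef]; linarith) (by rw [← hLdef]; exact hG1)
    (by rw [← hLdef]; exact hP) (by rw [← hLdef]) hy1 hθ0.le (by rw [← hLdef]; exact a1)
    (by rw [← hLdef]; exact hκ')
  rw [← hLdef] at hrel
  obtain ⟨rel, hnK, hpos', hgr', hLlo, hLup⟩ := hrel
  rw [← hh] at rel hnK hpos' hgr' hLlo hLup
  set L' := lam (M₁.I x (VD D)) (l - h) with hL'
  set f' := fx (M₁.E x (VD D) Q) (M₁.I x (VD D)) (l - h) with hf'
  set K' := newK (M₁.E x (VD D) Q) (M₁.I x (VD D)) l K with hK'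
  obtain ⟨n1, n2, n3, n4, n5⟩ := newK_props (M₁.E x (VD D) Q) (M₁.I x (VD D)) (l := l) hK
  rw [← hh, ← hf', ← hK'] at n5
  have hla : l - h ∈ Icc (l - h) l := ⟨le_rfl, by linarith⟩
  have hI' := hpos' _ hla
  have hL'1 : L₁ ≤ L' := by linarith
  have hf'0 : 0 ≤ f' := fx_nonneg _ _ _
  have hkm' : M₁.kap (l - h) ≤ κm := by
    have s5 := t.s5
    have h1 : (1 - h / 2) * M.kap l ≤ (1 - h / 2) * κm :=
      mul_le_mul_of_nonneg_left hkm (by linarith)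
    have h2 : C.a * h / L ^ 2 = h * (C.a / L ^ 2) := by ring
    have h3 : h * (C.a / L ^ 2) ≤ h * (κm / 2) := mul_le_mul_of_nonneg_left s5 hh0.le
    rw [h2] at hκ'
    linarith
  have hkap0' : 0 ≤ M₁.kap (l - h) := M₁.kap_nonneg r.κ0 _
  -- sizes
  have hEG : Real.exp (-(L / 4)) * Real.exp (-(G₀ + 2)) ≤ Real.exp (-(L' / 4)) := by
    rw [← Real.exp_add]
    exact Real.exp_le_exp.2 (by linarith)
  have hσ2 : σ ≤ Real.exp (-(L' / 4)) := by linarith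
  have hsqI : √(M.I x (VD D) l) = Real.exp (l - L / 2) := by
    have h0 : √(M.I x (VD D) l) = Real.exp (l - lam (M.I x (VD D)) l / 2) :=
      sqrt_I (I := M.I x (VD D)) hI
    rw [h0, ← hLdef]
  have hsqI' : √(M₁.I x (VD D) (l - h)) = Real.exp (l - h - L' / 2) :=
    sqrt_I (I := M₁.I x (VD D)) hI'
  have hσ1 : σ * √(M.I x (VD D) l) ≤
      Real.exp (-(L' / 4)) * √(M₁.I x (VD D) (l - h)) := by
    rw [hsqI, hsqI', ← Real.exp_add]
    have h1 : σ ≤ Real.exp (-(L / 4)) * Real.exp (-(G₀ + 2)) := by linarith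
    calc σ * Real.exp (l - L / 2) ≤
          Real.exp (-(L / 4)) * Real.exp (-(G₀ + 2)) * Real.exp (l - L / 2) :=
          mul_le_mul_of_nonneg_right h1 (Real.exp_pos _).le
      _ = Real.exp (-(L / 4) + -(G₀ + 2) + (l - L / 2)) := by
          rw [Real.exp_add, Real.exp_add]
      _ ≤ _ := Real.exp_le_exp.2 (by linarith)
  have hgr'' : ∀ y ∈ Icc (l - h) l,
      Real.log (M₁.I x (VD D) y) ≤ Real.log (M₁.I x (VD D) (l - h)) + G :=
    fun y hy => (hgr' y hy).trans (by linarith)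
  rcases hcase with ⟨c1, c2, c3, c4⟩ | ⟨c1, c2, c3, c4⟩
  · -- same block
    have hrec : Rec C L₁ κm G (M₁.lb - 1 / 8) M.Lb M.Kb M.Pb (l - h) L' f' (M₁.kap (l - h)) K' := by
      rw [c1]
      exact hrcd.next (by linarith) hK0 (by linarith) hL0 hL'1 hkm' (by linarith) hkap0' rel
        (by linarith) (by linarith) n5
    have hdu' : ‖fderiv ℝ M₁.u 0‖ ≤ Real.exp (-M.Lb / 4) * (M₁.lb - (l - h)) := by
      rw [c1]
      have hLb : Real.exp (-(L / 4)) * Real.exp (-T) ≤ Real.exp (-M.Lb / 4) := by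
        rw [← Real.exp_add]
        refine Real.exp_le_exp.2 ?_
        have h1 := hrcd.lo
        have h2 : M.lb - 1 / 8 - l ≤ T := by
          have : M.lb - T ≤ l := hlo
          linarith
        linarith
      have h3 : σ ≤ h * Real.exp (-M.Lb / 4) := a3.trans (mul_le_mul_of_nonneg_left hLb hh0.le)
      have h4 : Real.exp (-M.Lb / 4) * (M.lb - (l - h)) =
          Real.exp (-M.Lb / 4) * (M.lb - l) + h * Real.exp (-M.Lb / 4) := by ring
      rw [h4]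
      linarith
    refine ⟨upd M₁ K' M.Lb M.Kb M.Pb, h, ?_, by linarith, ?_, by rw [hLdef] at rel; exact rel, n5⟩
    · show 1 / K ≤ h
      rw [hh]; exact div_le_div_of_nonneg_right (by norm_num) hK0.le
    · exact sta_mk (c := ⟨N, Ks, T, κ₀, L₁, G, CK⟩) hK r hκ₁ hdu' (by show M₁.lb - T ≤ _; rw [c1]; exact c2)
        hpos' hσ1 hσ2 hgr'' hnK hL'1 hKbL hrec
  · -- new block
    have hfr : 8 * fr (M₁.E x (VD D) Q) (M₁.I x (VD D)) (l - h) ≤ 2 * L' ^ 2 := n2.trans hnK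
    have hL'199 : 100 ≤ L' := by linarith
    have hf8 : 32 * (1 + f') ≤ 8 * L' ^ 2 := by
      have h1 : 1 + f' = max (fr (M₁.E x (VD D) Q) (M₁.I x (VD D)) (l - h)) 1 :=
        one_add_fx _ _ _
      rw [h1]
      have h2 : (1:ℝ) ≤ L' ^ 2 / 4 := by nlinarith
      have h3 : max (fr (M₁.E x (VD D) Q) (M₁.I x (VD D)) (l - h)) 1 ≤ L' ^ 2 / 4 :=
        max_le (by linarith) h2
      linarith
    obtain ⟨hrec, hKb⟩ := rec_start (k := C) (κm := κm) (G := G) (l := l - h) (K := K')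
      (by linarith : (0:ℝ) < L₁) hL'1 hkm' (by linarith : -1 < f') hnK hf8
      (base_le hc h14 he) he
    have elb : M₁.lb - 1 / 8 = l - h := by rw [c1]; ring
    rw [← elb] at hrec
    have hrec' : Rec C L₁ κm G (M₁.lb - 1 / 8) L'
        (max K' (max (32 * Real.exp (C.pot L' f' (M₁.kap (l - h)))) (L' ^ 2)))
        (max (C.pot L' f' (M₁.kap (l - h))) (C.base L₁ κm)) (l - h) L' f' (M₁.kap (l - h)) K' := by
      rw [elb] at hrec ⊢
      exact hrec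
    have hKb' : max K' (max (32 * Real.exp (C.pot L' f' (M₁.kap (l - h)))) (L' ^ 2)) ≤
        CK * L' ^ 2 := hKb.trans (mul_le_mul_of_nonneg_right hCK (by positivity))
    have hdu' : ‖fderiv ℝ M₁.u 0‖ ≤ Real.exp (-L' / 4) * (M₁.lb - (l - h)) := by
      have h1 : M₁.lb - (l - h) = 1 / 8 := by rw [c1]; ring
      have h2 : -L' / 4 = -(L' / 4) := by ring
      rw [h1, h2]
      linarith
    refine ⟨upd M₁ K' L' (max K' (max (32 * Real.exp (C.pot L' f' (M₁.kap (l - h)))) (L' ^ 2)))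
      (max (C.pot L' f' (M₁.kap (l - h))) (C.base L₁ κm)), h, ?_, by linarith, ?_, by rw [hLdef] at rel; exact rel, n5⟩
    · show 1 / K ≤ h
      rw [hh]; exact div_le_div_of_nonneg_right (by norm_num) hK0.le
    · exact sta_mk (c := ⟨N, Ks, T, κ₀, L₁, G, CK⟩) hK r hκ₁ hdu'
        (by show M₁.lb - T ≤ _; rw [c1]; linarith) hpos' hσ1 hσ2 hgr'' hnK hL'1 hKb' hrec'

/-- slope of a state against powers of `L`. -/
theorem slope_state {T L Lb G CK Kb lb l : ℝ} (q : ℕ) (hT : 0 ≤ T) (hLb : 1 ≤ Lb) (hG : 0 ≤ G)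
    (hCK : 0 ≤ CK) (hKb : Kb ≤ CK * Lb ^ 2) (hL : 0 ≤ L) (hlb : 0 ≤ lb - l) (hlT : lb - l ≤ T)
    (hup : L ≤ Lb + (G + 1) * Kb * (lb - l)) (hKb0 : 0 ≤ Kb)
    (hth : T * (1 + (G + 1) * CK * T) ^ q * Lb ^ (2 * q) * Real.exp (-(1 / 4 * Lb)) ≤ 1) :
    T * Real.exp (-Lb / 4) * L ^ q ≤ 1 := by
  have h1 : (G + 1) * Kb * (lb - l) ≤ (G + 1) * (CK * Lb ^ 2) * T := by
    have h2 : (G + 1) * Kb ≤ (G + 1) * (CK * Lb ^ 2) := mul_le_mul_of_nonneg_left hKb (by linarith)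
    exact mul_le_mul h2 hlT hlb (by positivity)
  have h3 : Lb ≤ Lb ^ 2 := by nlinarith
  have h4 : L ≤ (1 + (G + 1) * CK * T) * Lb ^ 2 := by
    calc L ≤ Lb ^ 2 + (G + 1) * (CK * Lb ^ 2) * T := by linarith
      _ = _ := by ring
  have h5 : L ^ q ≤ (1 + (G + 1) * CK * T) ^ q * Lb ^ (2 * q) := by
    rw [pow_mul, ← mul_pow]
    exact pow_le_pow_left₀ hL h4 q
  have e1 : Real.exp (-Lb / 4) = Real.exp (-(1 / 4 * Lb)) := by congr 1; ring
  rw [e1]
  calc T * Real.exp (-(1 / 4 * Lb)) * L ^ q ≤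
        T * Real.exp (-(1 / 4 * Lb)) * ((1 + (G + 1) * CK * T) ^ q * Lb ^ (2 * q)) :=
        mul_le_mul_of_nonneg_left h5 (by positivity)
    _ = T * (1 + (G + 1) * CK * T) ^ q * Lb ^ (2 * q) * Real.exp (-(1 / 4 * Lb)) := by ring
    _ ≤ 1 := hth

set_option maxHeartbeats 1000000 in
/-- **F7: the step of the world**, literal target of helper685. -/
theorem stepT (hGL : GLP) (hSup : SupP) (hSw : SwP) (hBlk : BlkP) (hSel : SelP3) (m n : ℕ)
    (hm : 3 ≤ m) (hn : 1 ≤ n) : Thya_685.StepT m n := by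
  obtain ⟨Ks₀, H⟩ := pre_step hGL hSup hSw hBlk hSel m n hm hn
  refine ⟨Ks₀, fun Ks hKs Q hQ => ?_⟩
  obtain ⟨N₀, H⟩ := H Ks hKs Q hQ
  refine ⟨N₀, fun N hN => ?_⟩
  obtain ⟨p, C₁, T₀, hC₁, H⟩ := H N hN
  refine ⟨max T₀ (max 1 (5 * Real.log (4 * C₁))), fun T hT => ?_⟩
  have hT0 : T₀ ≤ T := (le_max_left _ _).trans hT
  have hT1 : 1 ≤ T := ((le_max_left _ _).trans (le_max_right _ _)).trans hT
  have hT2 : 5 * Real.log (4 * C₁) ≤ T := ((le_max_right _ _).trans (le_max_right _ _)).trans hT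
  have hCT : C₁ * Real.exp (-(T / 5)) ≤ 1 / 4 := by
    have h1 : Real.exp (-(T / 5)) ≤ (4 * C₁)⁻¹ := by
      rw [← Real.exp_log (show 0 < (4 * C₁)⁻¹ by positivity), Real.log_inv]
      exact Real.exp_le_exp.2 (by linarith)
    calc C₁ * Real.exp (-(T / 5)) ≤ C₁ * (4 * C₁)⁻¹ := mul_le_mul_of_nonneg_left h1 (by linarith)
      _ = 1 / 4 := by
          have : C₁ ≠ 0 := by linarith
          field_simp
  obtain ⟨G₀, Cδ, hG₀, hCδ, H⟩ := H T hT0 hT1 hCT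
  refine ⟨G₀ + 1, 22 * Cδ, by positivity, ?_⟩
  intro G hG C hc hd ha hb CK hCK c₀ hc₀
  obtain ⟨q₁, κp, Lp, omp, hκp, homp, H⟩ := H G c₀ hc₀
  have hCb := C.hb
  refine ⟨min κp (1 / (4 * (C.b + 1))), by positivity, ?_⟩
  intro κ₀ hκ₀ hκ₀le
  set κm := κ₀ * Real.exp (-(4 / 5 * (T + 1))) with hκm
  have hκm0 : 0 < κm := by positivity
  have hκmκ : κm ≤ κ₀ := by
    rw [hκm]
    exact mul_le_of_le_one_right hκ₀.le (Real.exp_le_one_iff.2 (by linarith))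
  have hbκ : 2 * C.b * κm ≤ 1 / 2 := by
    have h1 : κm ≤ 1 / (4 * (C.b + 1)) := hκmκ.trans (hκ₀le.trans (min_le_right _ _))
    calc 2 * C.b * κm ≤ 2 * (C.b + 1) * (1 / (4 * (C.b + 1))) :=
          mul_le_mul (by linarith) h1 hκm0.le (by positivity)
      _ = 1 / 2 := by
          have : C.b + 1 ≠ 0 := by positivity
          field_simp; norm_num
  have hA0 := C.A_nonneg
  -- thresholds
  obtain ⟨L2, hL2⟩ := exists_Th2 p (a := C.a) (T := T) (G₀ := G₀) hκ₀ hκm0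
  have hev : ∀ᶠ Lb : ℝ in atTop,
      T * (1 + (G + 1) * CK * T) ^ q₁ * Lb ^ (2 * q₁) * Real.exp (-(1 / 4 * Lb)) ≤ 1 :=
    ev_exp _ (1 / 4) (2 * q₁) (by norm_num) one_pos
  obtain ⟨L3, hL3⟩ := eventually_atTop.1 hev
  refine ⟨max 14 (max (8 * C.A) L3), fun L₁ hL₁ => ?_⟩
  have g14 : (14:ℝ) ≤ L₁ := (le_max_left _ _).trans hL₁
  have gA : 8 * C.A ≤ L₁ := ((le_max_left _ _).trans (le_max_right _ _)).trans hL₁
  have g3 : L3 ≤ L₁ := ((le_max_right _ _).trans (le_max_right _ _)).trans hL₁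
  have he : 2 * C.b * κm + 4 * C.A / L₁ ≤ 1 := by
    have h1 : 4 * C.A / L₁ ≤ 1 / 2 := by
      rw [div_le_iff₀ (by linarith)]; linarith
    linarith
  refine ⟨max (L₁ + 1) (max L2 Lp), fun Λ₀ hΛ₀ => ?_⟩
  have s1 : L₁ + 1 ≤ Λ₀ := (le_max_left _ _).trans hΛ₀
  have s2 : L2 ≤ Λ₀ := ((le_max_left _ _).trans (le_max_right _ _)).trans hΛ₀
  have s3 : Lp ≤ Λ₀ := ((le_max_right _ _).trans (le_max_right _ _)).trans hΛ₀
  refine ⟨omp, homp, ?_⟩
  intro om hom homle U D x r₁ henv M l st hfl hΛL hkm hP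
  set L := lam (M.I x (VD D)) l with hL
  have hΛL' : Λ₀ ≤ L := hΛL
  have hkm' : M.kap l ≤ κm := hkm
  have hP' : 32 * (1 + fx (M.E x (VD D) Q) (M.I x (VD D)) l) ≤ L ^ 2 := hP
  have hcls := st.cls
  have hrcd := st.rcd
  have hlo : M.lb - T ≤ l := st.lo
  have hhi : l ≤ M.lb - 1 / 8 := hrcd.hl
  have hK32 := st.K32
  have hLb1 : L₁ ≤ M.Lb := hrcd.hLb
  -- curvature
  have hκ2 : M.κ ≤ κ₀ / 2 := by
    have h1 : M.κ = M.kap l * Real.exp (4 / 5 * (M.lb - l)) := by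
      unfold Mo.kap
      rw [mul_assoc, ← Real.exp_add]
      simp
    have h2 : Real.exp (4 / 5 * (M.lb - l)) ≤ Real.exp (4 / 5 * T) :=
      Real.exp_le_exp.2 (by linarith)
    have h3 : κm * Real.exp (4 / 5 * T) = κ₀ * Real.exp (-(4 / 5)) := by
      rw [hκm, mul_assoc, ← Real.exp_add]
      congr 2; ring
    have h4 : Real.exp (-(4 / 5) : ℝ) ≤ 1 / 2 := by
      have h5 : Real.exp (-(4 / 5) : ℝ) * Real.exp (4 / 5) = 1 := by rw [← Real.exp_add]; simp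
      have h6 : (2:ℝ) ≤ Real.exp (4 / 5) := by
        have h7 := Real.add_one_le_exp (2 / 5 : ℝ)
        have h8 : Real.exp (4 / 5 : ℝ) = Real.exp (2 / 5) * Real.exp (2 / 5) := by
          rw [← Real.exp_add]; norm_num
        rw [h8]
        have h9 := Real.quadratic_le_exp_of_nonneg (show (0:ℝ) ≤ 2 / 5 by norm_num)
        nlinarith
      have h7 := Real.exp_pos (-(4 / 5) : ℝ)
      nlinarith
    rw [h1]
    calc M.kap l * Real.exp (4 / 5 * (M.lb - l)) ≤ κm * Real.exp (4 / 5 * T) :=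
          mul_le_mul hkm' h2 (Real.exp_pos _).le hκm0.le
      _ = κ₀ * Real.exp (-(4 / 5)) := h3
      _ ≤ κ₀ * (1 / 2) := mul_le_mul_of_nonneg_left h4 hκ₀.le
      _ = κ₀ / 2 := by ring
  -- slope
  have hslope : T * Real.exp (-M.Lb / 4) * L ^ q₁ ≤ 1 := by
    refine slope_state (lb := M.lb - 1 / 8) (l := l) (Kb := M.Kb) (G := G) (CK := CK) q₁
      (by linarith) (by linarith) (by linarith) (by linarith) st.KbL (by linarith) (by linarith)
      (by linarith) hrcd.up ?_ (hL3 _ (g3.trans hLb1))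
    have h1 : M.K ≤ M.Kb := hrcd.hK
    linarith
  have hdu : ‖fderiv ℝ M.u 0‖ ≤ T * Real.exp (-M.Lb / 4) := by
    refine hcls.du.trans ?_
    rw [mul_comm T]
    exact mul_le_mul_of_nonneg_left (by linarith) (Real.exp_pos _).le
  have sth : StH Q Ks N D x M l L T G (κ₀ / 2) :=
    ⟨rfl, hcls.frame, hcls.κ0, hκ2, hcls.mg, hlo, by linarith, st.pos, st.mean, st.sup, st.grow,
      hK32, st.KL, st.KN⟩
  have res := H U D x om r₁ M l L (T * Real.exp (-M.Lb / 4)) (κ₀ / 2) homle henv hfl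
    (by have := hκ₀le.trans (min_le_left _ _); linarith) sth (s3.trans hΛL') hdu hslope
  exact nx_of_res hc hd ha hb st hkm' rfl hP' (s1.trans hΛL') res (hL2 L (s2.trans hΛL')) hC₁ hT1
    hCT hG₀ hG hCK g14 he hκ2 hκ₀

end Crest.Agent.R234.Stp_518
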