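import Mathlib

/-!
Row 234, VF-STRAT (helper842): the abstract stratification theorem (Almgren, Federer, White, Simon).
`card_sep`   : a delta-separated finite subset of the unit ball of a normed space of dimension j has at most
               (1 + 2/delta)^j elements.
`dimH_le_of_cover` : a set A such that A ∩ closedBall x ρ (x ∈ A, ρ ≤ ρ₀) is covered by M balls of radius λρ centred
               on A, with M λ^s < 1, has dimH A ≤ s.
`dimH_of_planes` : δ-approximation by ≤ j-dimensional planes through the points of A, at all small scales, all δ.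
`dimH_strat` : the stratification theorem for a density function Θ.
-/

set_option autoImplicit false

open Set Filter Topology MeasureTheory Metric Module Function
open scoped ENNReal NNReal

namespace Crest.Agent.R234.Strat_842

/-- δ-separated finite subsets of the unit ball. -/
theorem card_sep {F : Type*} [NormedAddCommGroup F] [NormedSpace ℝ F] [FiniteDimensional ℝ F]
    (s : Finset F) {δ : ℝ} (hδ : 0 < δ) (hs : ∀ c ∈ s, ‖c‖ ≤ 1)
    (h : ∀ c ∈ s, ∀ d ∈ s, c ≠ d → δ ≤ ‖c - d‖) :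
    (s.card : ℝ) ≤ (1 + 2 / δ) ^ finrank ℝ F := by
  borelize F
  let μ : Measure F := Measure.addHaar
  let r : ℝ := δ / 2
  let ρ : ℝ := 1 + δ / 2
  have hr : 0 < r := by positivity
  have hρ : 0 < ρ := by positivity
  set A := ⋃ c ∈ s, ball (c : F) r with hA
  have D : Set.Pairwise (s : Set F) (Disjoint on fun c => ball (c : F) r) := by
    rintro c hc d hd hcd
    apply ball_disjoint_ball
    rw [dist_eq_norm]
    have := h c hc d hd hcd
    simp only [r]; linarith
  have A_subset : A ⊆ ball (0 : F) ρ := by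
    refine iUnion₂_subset fun x hx => ?_
    apply ball_subset_ball'
    have := hs x hx
    simp only [dist_zero_right]
    simp only [r, ρ]; linarith
  have I : (s.card : ℝ≥0∞) * ENNReal.ofReal (r ^ finrank ℝ F) * μ (ball 0 1) ≤
      ENNReal.ofReal (ρ ^ finrank ℝ F) * μ (ball 0 1) :=
    calc
      (s.card : ℝ≥0∞) * ENNReal.ofReal (r ^ finrank ℝ F) * μ (ball 0 1) = μ A := by
        rw [hA, measure_biUnion_finset D fun c _ => measurableSet_ball]
        have I : 0 < r := hr
        simp only [μ.addHaar_ball_of_pos _ I]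
        simp only [Finset.sum_const, nsmul_eq_mul, mul_assoc]
      _ ≤ μ (ball (0 : F) ρ) := measure_mono A_subset
      _ = ENNReal.ofReal (ρ ^ finrank ℝ F) * μ (ball 0 1) := by
        simp only [μ.addHaar_ball_of_pos _ hρ]
  have J : (s.card : ℝ≥0∞) * ENNReal.ofReal (r ^ finrank ℝ F) ≤
      ENNReal.ofReal (ρ ^ finrank ℝ F) :=
    (ENNReal.mul_le_mul_iff_left (measure_ball_pos _ _ zero_lt_one).ne'
      measure_ball_lt_top.ne).1 I
  have K : (s.card : ℝ) * r ^ finrank ℝ F ≤ ρ ^ finrank ℝ F := by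
    rw [← ENNReal.ofReal_natCast, ← ENNReal.ofReal_mul (by positivity),
      ENNReal.ofReal_le_ofReal_iff (by positivity)] at J
    exact J
  have e : (1 + 2 / δ) ^ finrank ℝ F = ρ ^ finrank ℝ F / r ^ finrank ℝ F := by
    rw [← div_pow]
    congr 1
    simp only [r, ρ]; field_simp
    ring
  rw [e, le_div_iff₀ (by positivity)]
  exact K

theorem ediam_cb {X : Type*} [MetricSpace X] (x : X) {r : ℝ} (hr : 0 ≤ r) :
    ediam (closedBall x r) ≤ ENNReal.ofReal (2 * r) := by
  have _ := hr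
  refine Metric.ediam_le_of_forall_dist_le fun y hy z hz => ?_
  have h1 : dist y x ≤ r := hy
  have h2 : dist z x ≤ r := hz
  have := dist_triangle_right y z x
  linarith

/-- a bounded maximal separated set -/
theorem exists_net {X : Type*} [MetricSpace X] (B : Set X) {η : ℝ} (hη : 0 ≤ η) (M : ℕ)
    (hM : ∀ t : Finset X, (t : Set X) ⊆ B → (∀ c ∈ t, ∀ d ∈ t, c ≠ d → η < dist c d) → t.card ≤ M) :
    ∃ t : Finset X, (t : Set X) ⊆ B ∧ t.card ≤ M ∧ B ⊆ ⋃ a ∈ t, closedBall a η := by
  classical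
  let P : ℕ → Prop := fun n => ∃ t : Finset X, (t : Set X) ⊆ B ∧
    (∀ c ∈ t, ∀ d ∈ t, c ≠ d → η < dist c d) ∧ t.card = n
  have h0 : P 0 := ⟨∅, by simp, by simp, by simp⟩
  obtain ⟨t, ht, hsep, hc⟩ : P (Nat.findGreatest P M) := Nat.findGreatest_spec (Nat.zero_le M) h0
  refine ⟨t, ht, hM t ht hsep, fun x hx => ?_⟩
  by_contra hcon
  simp only [mem_iUnion, mem_closedBall, not_exists, not_le, exists_prop, not_and] at hcon
  have hxt : x ∉ t := by
    intro hxt
    have := hcon x hxt
    rw [dist_self] at this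
    linarith
  have hP : P ((insert x t).card) := by
    refine ⟨insert x t, ?_, ?_, rfl⟩
    · intro y hy
      rcases Finset.mem_insert.1 (by simpa using hy) with rfl | hy
      · exact hx
      · exact ht hy
    · intro c hc d hd hcd
      rcases Finset.mem_insert.1 hc with rfl | hc'
      · rcases Finset.mem_insert.1 hd with rfl | hd'
        · exact absurd rfl hcd
        · exact hcon d hd'
      · rcases Finset.mem_insert.1 hd with rfl | hd'
        · rw [dist_comm]; exact hcon c hc'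
        · exact hsep c hc' d hd' hcd
  have hle : (insert x t).card ≤ M := by
    obtain ⟨t', ht', hs', hc'⟩ := hP
    rw [← hc']; exact hM t' ht' hs'
  have := Nat.le_findGreatest hle hP
  rw [Finset.card_insert_of_notMem hxt, ← hc] at this
  omega

/-- iteration of a covering property -/
theorem iter_cover {X : Type*} [MetricSpace X] (A : Set X) (M : ℕ) {l ρ₀ : ℝ} (hl : 0 < l) (hl1 : l ≤ 1)
    (h : ∀ x ∈ A, ∀ ρ : ℝ, 0 < ρ → ρ ≤ ρ₀ → ∃ t : Finset X, (t : Set X) ⊆ A ∧ t.card ≤ M ∧
      A ∩ closedBall x ρ ⊆ ⋃ a ∈ t, closedBall a (l * ρ)) {x : X} (hx : x ∈ A) (hρ₀ : 0 < ρ₀) (k : ℕ) :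
    ∃ t : Finset X, (t : Set X) ⊆ A ∧ t.card ≤ M ^ k ∧
      A ∩ closedBall x ρ₀ ⊆ ⋃ a ∈ t, closedBall a (l ^ k * ρ₀) := by
  classical
  induction k with
  | zero => exact ⟨{x}, by simpa using hx, by simp, by simp⟩
  | succ k ih =>
    obtain ⟨t, ht, hc, hcov⟩ := ih
    have hk : 0 < l ^ k * ρ₀ := by positivity
    have hk1 : l ^ k * ρ₀ ≤ ρ₀ := by
      have : l ^ k ≤ 1 := pow_le_one₀ hl.le hl1
      nlinarith
    choose! u hu using fun a (ha : a ∈ A) => h a ha (l ^ k * ρ₀) hk hk1
    refine ⟨t.biUnion u, ?_, ?_, ?_⟩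
    · intro y hy
      simp only [Finset.coe_biUnion, mem_iUnion] at hy
      obtain ⟨a, ha, hy⟩ := hy
      exact (hu a (ht ha)).1 hy
    · calc (t.biUnion u).card ≤ t.card * M :=
            Finset.card_biUnion_le_card_mul _ _ _ fun a ha => (hu a (ht ha)).2.1
        _ ≤ M ^ k * M := Nat.mul_le_mul_right _ hc
        _ = M ^ (k + 1) := (pow_succ M k).symm
    · rintro y ⟨hyA, hy⟩
      have := hcov ⟨hyA, hy⟩
      simp only [mem_iUnion] at this
      obtain ⟨a, ha, hya⟩ := this
      have := (hu a (ht ha)).2.2 ⟨hyA, hya⟩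
      simp only [mem_iUnion] at this
      obtain ⟨b, hb, hyb⟩ := this
      simp only [mem_iUnion]
      refine ⟨b, Finset.mem_biUnion.2 ⟨a, ha, hb⟩, ?_⟩
      have e : l ^ (k + 1) * ρ₀ = l * (l ^ k * ρ₀) := by ring
      rw [e]; exact hyb

/-- covering property => dimension bound -/
theorem dimH_le_of_cover {X : Type*} [MetricSpace X] [SecondCountableTopology X] (A : Set X) (M : ℕ)
    {l ρ₀ : ℝ} (hl : 0 < l) (hl1 : l < 1) (hρ₀ : 0 < ρ₀) {s : ℝ≥0} (hs : 0 < s) (hMs : (M : ℝ) * l ^ (s : ℝ) < 1)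
    (h : ∀ x ∈ A, ∀ ρ : ℝ, 0 < ρ → ρ ≤ ρ₀ → ∃ t : Finset X, (t : Set X) ⊆ A ∧ t.card ≤ M ∧
      A ∩ closedBall x ρ ⊆ ⋃ a ∈ t, closedBall a (l * ρ)) : dimH A ≤ s := by
  borelize X
  -- local statement
  have loc : ∀ x ∈ A, dimH (A ∩ closedBall x ρ₀) ≤ s := by
    intro x hx
    apply dimH_le_of_hausdorffMeasure_ne_top
    have key := fun k => iter_cover A M hl hl1.le h hx hρ₀ k
    choose t ht hc hcov using key
    have hr : Tendsto (fun k : ℕ => ENNReal.ofReal (2 * (l ^ k * ρ₀))) atTop (𝓝 0) := by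
      have : Tendsto (fun k : ℕ => 2 * (l ^ k * ρ₀)) atTop (𝓝 (2 * (0 * ρ₀))) :=
        ((tendsto_pow_atTop_nhds_zero_of_lt_one hl.le hl1).mul_const ρ₀).const_mul 2
      have h2 := ENNReal.tendsto_ofReal this
      simpa using h2
    have hb := Measure.hausdorffMeasure_le_liminf_sum (X := X) (s : ℝ) (A ∩ closedBall x ρ₀)
      (l := atTop) (fun k : ℕ => ENNReal.ofReal (2 * (l ^ k * ρ₀))) hr
      (ι := fun k => {a // a ∈ t k}) (fun k a => closedBall (a : X) (l ^ k * ρ₀))
      (Eventually.of_forall fun k a => ?_) (Eventually.of_forall fun k => ?_)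
    · have hz : liminf (fun k : ℕ => ∑ a : {a // a ∈ t k},
          ediam (closedBall (a : X) (l ^ k * ρ₀)) ^ (s : ℝ)) atTop = 0 := by
        have hT : Tendsto (fun k : ℕ => ∑ a : {a // a ∈ t k},
            ediam (closedBall (a : X) (l ^ k * ρ₀)) ^ (s : ℝ)) atTop (𝓝 0) := by
          have up : ∀ k : ℕ, (∑ a : {a // a ∈ t k},
              ediam (closedBall (a : X) (l ^ k * ρ₀)) ^ (s : ℝ)) ≤
              ENNReal.ofReal (((M : ℝ) * l ^ (s : ℝ)) ^ k * (2 * ρ₀) ^ (s : ℝ)) := by
            intro k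
            have h1 : ∀ a : {a // a ∈ t k},
                ediam (closedBall (a : X) (l ^ k * ρ₀)) ^ (s : ℝ) ≤
                  ENNReal.ofReal ((l ^ (s : ℝ)) ^ k * (2 * ρ₀) ^ (s : ℝ)) := by
              intro a
              have hd : ediam (closedBall (a : X) (l ^ k * ρ₀)) ≤ ENNReal.ofReal (2 * (l ^ k * ρ₀)) := by
                exact ediam_cb (a : X) (by positivity)
              calc ediam (closedBall (a : X) (l ^ k * ρ₀)) ^ (s : ℝ)
                  ≤ (ENNReal.ofReal (2 * (l ^ k * ρ₀))) ^ (s : ℝ) :=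
                    ENNReal.rpow_le_rpow hd s.2
                _ = ENNReal.ofReal ((2 * (l ^ k * ρ₀)) ^ (s : ℝ)) :=
                    ENNReal.ofReal_rpow_of_nonneg (by positivity) s.2
                _ = ENNReal.ofReal ((l ^ (s : ℝ)) ^ k * (2 * ρ₀) ^ (s : ℝ)) := by
                    congr 1
                    have e1 : 2 * (l ^ k * ρ₀) = l ^ k * (2 * ρ₀) := by ring
                    rw [e1, Real.mul_rpow (by positivity) (by positivity)]
                    congr 1
                    rw [← Real.rpow_natCast, ← Real.rpow_natCast, ← Real.rpow_mul hl.le,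
                      ← Real.rpow_mul hl.le, mul_comm]
            calc (∑ a : {a // a ∈ t k}, ediam (closedBall (a : X) (l ^ k * ρ₀)) ^ (s : ℝ))
                ≤ ∑ _a : {a // a ∈ t k}, ENNReal.ofReal ((l ^ (s : ℝ)) ^ k * (2 * ρ₀) ^ (s : ℝ)) :=
                  Finset.sum_le_sum fun a _ => h1 a
              _ = (t k).card * ENNReal.ofReal ((l ^ (s : ℝ)) ^ k * (2 * ρ₀) ^ (s : ℝ)) := by
                  simp
              _ ≤ ((M ^ k : ℕ) : ℝ≥0∞) * ENNReal.ofReal ((l ^ (s : ℝ)) ^ k * (2 * ρ₀) ^ (s : ℝ)) := by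
                  gcongr
                  exact_mod_cast hc k
              _ = ENNReal.ofReal (((M : ℝ) * l ^ (s : ℝ)) ^ k * (2 * ρ₀) ^ (s : ℝ)) := by
                  rw [← ENNReal.ofReal_natCast, ← ENNReal.ofReal_mul (by positivity)]
                  congr 1
                  push_cast
                  rw [mul_pow]; ring
          have lim : Tendsto (fun k : ℕ => ENNReal.ofReal (((M : ℝ) * l ^ (s : ℝ)) ^ k * (2 * ρ₀) ^ (s : ℝ)))
              atTop (𝓝 0) := by
            have h0 : 0 ≤ (M : ℝ) * l ^ (s : ℝ) := by positivity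
            have : Tendsto (fun k : ℕ => ((M : ℝ) * l ^ (s : ℝ)) ^ k * (2 * ρ₀) ^ (s : ℝ)) atTop
                (𝓝 (0 * (2 * ρ₀) ^ (s : ℝ))) :=
              (tendsto_pow_atTop_nhds_zero_of_lt_one h0 hMs).mul_const _
            have h2 := ENNReal.tendsto_ofReal this
            simpa using h2
          exact tendsto_of_tendsto_of_tendsto_of_le_of_le tendsto_const_nhds lim (fun k => bot_le) up
        exact hT.liminf_eq
      rw [hz] at hb
      exact (lt_of_le_of_lt hb ENNReal.zero_lt_top).ne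
    · exact ediam_cb (a : X) (by positivity)
    · intro y hy
      have := hcov k hy
      simp only [mem_iUnion] at this ⊢
      obtain ⟨a, ha, hy'⟩ := this
      exact ⟨⟨a, ha⟩, hy'⟩
  -- countable subcover
  obtain ⟨T, hTA, hTc, hTU⟩ : ∃ T ⊆ A, T.Countable ∧ A ⊆ ⋃ x ∈ T, ball x ρ₀ := by
    obtain ⟨T, hT, hc, hU⟩ := TopologicalSpace.countable_cover_nhdsWithin
      (s := A) (f := fun x => ball x ρ₀) (fun x _ => mem_nhdsWithin_of_mem_nhds (ball_mem_nhds x hρ₀))
    exact ⟨T, hT, hc, hU⟩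
  have hA : A ⊆ ⋃ x ∈ T, (A ∩ closedBall x ρ₀) := by
    intro y hy
    have := hTU hy
    simp only [mem_iUnion] at this ⊢
    obtain ⟨x, hx, hyx⟩ := this
    exact ⟨x, hx, hy, ball_subset_closedBall hyx⟩
  calc dimH A ≤ dimH (⋃ x ∈ T, (A ∩ closedBall x ρ₀)) := dimH_mono hA
    _ = ⨆ x ∈ T, dimH (A ∩ closedBall x ρ₀) := dimH_bUnion hTc _
    _ ≤ s := iSup₂_le fun x hx => loc x (hTA hx)

end Crest.Agent.R234.Strat_842
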