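import Crest.Agent.R234.Strat1_842

/-!
Row 234, VF-STRAT (helper842), part 2: approximation by planes and the stratification theorem.
-/

set_option autoImplicit false

open Set Filter Topology MeasureTheory Metric Module Function
open scoped ENNReal NNReal

namespace Crest.Agent.R234.Strat_842

variable {E : Type*} [NormedAddCommGroup E] [NormedSpace ℝ E] [FiniteDimensional ℝ E]

/-- `A` is `δ`-close, in the ball of radius `ρ` about `x`, to a plane through `x` of dimension `≤ j`. -/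
def Near (j : ℕ) (A : Set E) (x : E) (ρ δ : ℝ) : Prop :=
  ∃ L : Submodule ℝ E, finrank ℝ L ≤ j ∧ ∀ y ∈ A, dist y x ≤ ρ → ∃ l ∈ L, ‖y - x - l‖ ≤ δ * ρ

theorem net_of_near {j : ℕ} {A : Set E} {x : E} {ρ δ : ℝ} (hρ : 0 < ρ) (hδ : 0 < δ) (hδ1 : δ ≤ 1)
    (h : Near j A x ρ δ) :
    ∃ t : Finset E, (t : Set E) ⊆ A ∧ t.card ≤ ⌊(1 + 2 / δ) ^ j⌋₊ ∧
      A ∩ closedBall x ρ ⊆ ⋃ a ∈ t, closedBall a (4 * δ * ρ) := by
  classical
  obtain ⟨L, hL, hA⟩ := h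
  suffices hM : ∀ t : Finset E, (t : Set E) ⊆ A ∩ closedBall x ρ →
      (∀ c ∈ t, ∀ d ∈ t, c ≠ d → 4 * δ * ρ < dist c d) → t.card ≤ ⌊(1 + 2 / δ) ^ j⌋₊ by
    obtain ⟨t, ht, hc, hcov⟩ := exists_net (A ∩ closedBall x ρ) (η := 4 * δ * ρ) (by positivity)
      ⌊(1 + 2 / δ) ^ j⌋₊ hM
    exact ⟨t, fun a ha => (ht ha).1, hc, hcov⟩
  · intro t ht hsep
    have key : ∀ c : E, c ∈ t → ∃ v : L, ‖v‖ ≤ 1 ∧ ‖c - x - (2 * ρ) • (v : E)‖ ≤ δ * ρ := by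
      intro c hc
      have hcA := ht hc
      obtain ⟨l, hl, hle⟩ := hA c hcA.1 hcA.2
      refine ⟨(2 * ρ)⁻¹ • (⟨l, hl⟩ : L), ?_, ?_⟩
      · rw [norm_smul, Real.norm_of_nonneg (by positivity)]
        have h1 : ‖(⟨l, hl⟩ : L)‖ = ‖l‖ := rfl
        rw [h1]
        have h2 : ‖l‖ ≤ 2 * ρ := by
          have h3 : ‖c - x‖ ≤ ρ := by rw [← dist_eq_norm]; exact hcA.2
          calc ‖l‖ = ‖(c - x) - (c - x - l)‖ := by congr 1; abel
            _ ≤ ‖c - x‖ + ‖c - x - l‖ := norm_sub_le _ _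
            _ ≤ ρ + δ * ρ := add_le_add h3 hle
            _ ≤ 2 * ρ := by nlinarith
        rw [inv_mul_le_iff₀ (by positivity)]
        linarith
      · have h1 : (((2 * ρ)⁻¹ • (⟨l, hl⟩ : L) : L) : E) = (2 * ρ)⁻¹ • l := rfl
        rw [h1, smul_smul, mul_inv_cancel₀ (by positivity), one_smul]
        exact hle
    choose! v hv1 hv2 using key
    have sep : ∀ c ∈ t, ∀ d ∈ t, c ≠ d → δ ≤ ‖v c - v d‖ := by
      intro c hc d hd hcd
      have h1 := hsep c hc d hd hcd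
      rw [dist_eq_norm] at h1
      have h2 := hv2 c hc
      have h3 := hv2 d hd
      have h4 : ‖c - d‖ ≤ (2 * ρ) * ‖v c - v d‖ + 2 * (δ * ρ) := by
        have e : c - d = (2 * ρ) • ((v c : E) - (v d : E)) + (c - x - (2 * ρ) • (v c : E)) -
            (d - x - (2 * ρ) • (v d : E)) := by
          rw [smul_sub]; abel
        have e2 : ‖v c - v d‖ = ‖(v c : E) - (v d : E)‖ := rfl
        rw [e2]
        calc ‖c - d‖ = ‖(2 * ρ) • ((v c : E) - (v d : E)) + (c - x - (2 * ρ) • (v c : E)) -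
            (d - x - (2 * ρ) • (v d : E))‖ := by rw [← e]
          _ ≤ ‖(2 * ρ) • ((v c : E) - (v d : E)) + (c - x - (2 * ρ) • (v c : E))‖ +
              ‖d - x - (2 * ρ) • (v d : E)‖ := norm_sub_le _ _
          _ ≤ ‖(2 * ρ) • ((v c : E) - (v d : E))‖ + ‖c - x - (2 * ρ) • (v c : E)‖ +
              ‖d - x - (2 * ρ) • (v d : E)‖ := by gcongr; exact norm_add_le _ _
          _ ≤ (2 * ρ) * ‖(v c : E) - (v d : E)‖ + δ * ρ + δ * ρ := by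
              gcongr
              rw [norm_smul, Real.norm_of_nonneg (by positivity)]
          _ = (2 * ρ) * ‖(v c : E) - (v d : E)‖ + 2 * (δ * ρ) := by ring
      have h5 : 4 * δ * ρ < (2 * ρ) * ‖v c - v d‖ + 2 * (δ * ρ) := lt_of_lt_of_le h1 h4
      by_contra hlt
      push Not at hlt
      nlinarith
    have inj : Set.InjOn v (t : Set E) := by
      intro c hc d hd hcd
      by_contra hne
      have := sep c hc d hd hne
      rw [hcd, sub_self, norm_zero] at this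
      linarith
    have h1 := card_sep (t.image v) hδ
      (by
        intro c hc
        obtain ⟨a, ha, rfl⟩ := Finset.mem_image.1 hc
        exact hv1 a ha)
      (by
        intro c hc d hd hcd
        obtain ⟨a, ha, rfl⟩ := Finset.mem_image.1 hc
        obtain ⟨b, hb, rfl⟩ := Finset.mem_image.1 hd
        exact sep a ha b hb (fun hab => hcd (by rw [hab])))
    rw [Finset.card_image_of_injOn inj] at h1
    apply Nat.le_floor
    calc (t.card : ℝ) ≤ (1 + 2 / δ) ^ finrank ℝ L := h1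
      _ ≤ (1 + 2 / δ) ^ j := by
        apply pow_le_pow_right₀ _ hL
        have : 0 < 2 / δ := by positivity
        linarith

/-- For `s > j` there is `δ > 0` such that sets which are `δ`-close to `≤ j`-planes at all small scales
about all their points have dimension `≤ s`. -/
theorem exists_delta (E : Type*) [NormedAddCommGroup E] [NormedSpace ℝ E] [FiniteDimensional ℝ E]
    (j : ℕ) (s : ℝ≥0) (hs : (j : ℝ) < s) :
    ∃ δ : ℝ, 0 < δ ∧ ∀ (A : Set E) (ρ₀ : ℝ), 0 < ρ₀ →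
      (∀ x ∈ A, ∀ ρ : ℝ, 0 < ρ → ρ ≤ ρ₀ → Near j A x ρ δ) → dimH A ≤ s := by
  have lim : Tendsto (fun δ : ℝ => (3 : ℝ) ^ j * 4 ^ (s : ℝ) * δ ^ ((s : ℝ) - j)) (𝓝[>] 0) (𝓝 0) := by
    have h1 : Tendsto (fun δ : ℝ => δ ^ ((s : ℝ) - j)) (𝓝[>] 0) (𝓝 0) := by
      have h2 : ContinuousAt (fun δ : ℝ => δ ^ ((s : ℝ) - j)) 0 :=
        Real.continuousAt_rpow_const _ _ (Or.inr (by linarith))
      have h3 := h2.tendsto
      rw [Real.zero_rpow (by linarith)] at h3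
      exact h3.mono_left nhdsWithin_le_nhds
    simpa using h1.const_mul ((3 : ℝ) ^ j * 4 ^ (s : ℝ))
  have ev : ∀ᶠ δ : ℝ in 𝓝[>] 0, (3 : ℝ) ^ j * 4 ^ (s : ℝ) * δ ^ ((s : ℝ) - j) < 1 ∧ δ < 1 / 8 ∧ 0 < δ := by
    refine (lim.eventually (gt_mem_nhds one_pos)).and (Filter.Eventually.and ?_ ?_)
    · exact nhdsWithin_le_nhds (gt_mem_nhds (by norm_num))
    · exact self_mem_nhdsWithin
  obtain ⟨δ, h1, h2, h3⟩ := ev.exists
  refine ⟨δ, h3, fun A ρ₀ hρ₀ hA => ?_⟩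
  have hspos : (0 : ℝ) < s := lt_of_le_of_lt (Nat.cast_nonneg j) hs
  have hl : 0 < 4 * δ := by linarith
  refine dimH_le_of_cover A ⌊(1 + 2 / δ) ^ j⌋₊ hl (by linarith) hρ₀ (by exact_mod_cast hspos) ?_
    (fun x hx ρ hρ hρ' => ?_)
  · have hb : (1 + 2 / δ) ≤ 3 / δ := by
      rw [le_div_iff₀ h3, add_mul, div_mul_cancel₀ _ h3.ne']
      linarith
    have hM : ((⌊(1 + 2 / δ) ^ j⌋₊ : ℕ) : ℝ) ≤ (3 / δ) ^ j := by
      calc ((⌊(1 + 2 / δ) ^ j⌋₊ : ℕ) : ℝ) ≤ (1 + 2 / δ) ^ j := Nat.floor_le (by positivity)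
        _ ≤ (3 / δ) ^ j := by gcongr
    calc ((⌊(1 + 2 / δ) ^ j⌋₊ : ℕ) : ℝ) * (4 * δ) ^ (s : ℝ)
        ≤ (3 / δ) ^ j * (4 * δ) ^ (s : ℝ) := by gcongr
      _ = (3 : ℝ) ^ j * 4 ^ (s : ℝ) * δ ^ ((s : ℝ) - j) := by
        rw [div_pow, Real.mul_rpow (by norm_num) h3.le, Real.rpow_sub h3, Real.rpow_natCast]
        field_simp
      _ < 1 := h1
  · obtain ⟨t, ht, hc, hcov⟩ := net_of_near hρ h3 (by linarith) (hA x hx ρ hρ hρ')
    exact ⟨t, ht, hc, hcov⟩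

/-- `δ`-approximation by planes at all small scales, for every `δ`. -/
theorem dimH_of_planes (j : ℕ) (A : Set E)
    (h : ∀ δ : ℝ, 0 < δ → ∃ ρ₀ : ℝ, 0 < ρ₀ ∧ ∀ x ∈ A, ∀ ρ : ℝ, 0 < ρ → ρ ≤ ρ₀ → Near j A x ρ δ) :
    dimH A ≤ j := by
  by_contra hcon
  push Not at hcon
  obtain ⟨s, hs1, hs2⟩ := ENNReal.lt_iff_exists_nnreal_btwn.1 hcon
  have hs : (j : ℝ) < s := by
    have : ((j : ℝ≥0) : ℝ≥0∞) < (s : ℝ≥0∞) := by simpa using hs1
    exact_mod_cast this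
  obtain ⟨δ, hδ, hE⟩ := exists_delta E j s hs
  obtain ⟨ρ₀, hρ₀, hA⟩ := h δ hδ
  exact absurd (hE A ρ₀ hρ₀ hA) (not_le.2 hs2)

/-- The stratification theorem, quantitative form. -/
theorem dimH_of_approx (Θ : E → ℝ) (S : Set E) (j : ℕ)
    (h : ∀ x ∈ S, ∀ δ : ℝ, 0 < δ → ∃ ε : ℝ, 0 < ε ∧ ∀ ρ : ℝ, 0 < ρ → ρ ≤ ε →
      ∃ L : Submodule ℝ E, finrank ℝ L ≤ j ∧ ∀ y : E, ‖y‖ ≤ 1 → Θ x - ε ≤ Θ (x + ρ • y) →
        ∃ l ∈ L, ‖y - l‖ ≤ δ) : dimH S ≤ j := by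
  by_contra hcon
  push Not at hcon
  obtain ⟨s, hs1, hs2⟩ := ENNReal.lt_iff_exists_nnreal_btwn.1 hcon
  have hs : (j : ℝ) < s := by
    have : ((j : ℝ≥0) : ℝ≥0∞) < (s : ℝ≥0∞) := by simpa using hs1
    exact_mod_cast this
  obtain ⟨δ, hδ, hE⟩ := exists_delta E j s hs
  let P : ℝ → E → Prop := fun ε x => ∀ ρ : ℝ, 0 < ρ → ρ ≤ ε →
      ∃ L : Submodule ℝ E, finrank ℝ L ≤ j ∧ ∀ y : E, ‖y‖ ≤ 1 → Θ x - ε ≤ Θ (x + ρ • y) →
        ∃ l ∈ L, ‖y - l‖ ≤ δ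
  have mono : ∀ x ε ε', P ε x → ε' ≤ ε → P ε' x := by
    intro x ε ε' hP hle ρ h1 h2
    obtain ⟨L, hL, hy⟩ := hP ρ h1 (h2.trans hle)
    exact ⟨L, hL, fun y hy1 hy2 => hy y hy1 (by linarith)⟩
  let T : ℕ × ℤ → Set E := fun p =>
    {x ∈ S | P (1 / ((p.1 : ℝ) + 1)) x ∧ (p.2 : ℝ) * (1 / ((p.1 : ℝ) + 1)) ≤ Θ x ∧
      Θ x < ((p.2 : ℝ) + 1) * (1 / ((p.1 : ℝ) + 1))}
  have hT : ∀ p, dimH (T p) ≤ s := by
    rintro ⟨i, q⟩
    have hε : (0 : ℝ) < 1 / ((i : ℝ) + 1) := by positivity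
    refine hE (T (i, q)) (1 / ((i : ℝ) + 1)) hε fun x hx ρ h1 h2 => ?_
    obtain ⟨_, hP, hq1, hq2⟩ := hx
    obtain ⟨L, hL, hy⟩ := hP ρ h1 h2
    refine ⟨L, hL, fun y hyT hd => ?_⟩
    obtain ⟨_, _, hy1, hy2⟩ := hyT
    have hn : ‖ρ⁻¹ • (y - x)‖ ≤ 1 := by
      rw [norm_smul, Real.norm_of_nonneg (by positivity), ← dist_eq_norm, inv_mul_le_iff₀ h1]
      linarith
    have e : x + ρ • (ρ⁻¹ • (y - x)) = y := by
      rw [smul_smul, mul_inv_cancel₀ h1.ne', one_smul]; abel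
    have hΘ : Θ x - 1 / ((i : ℝ) + 1) ≤ Θ (x + ρ • (ρ⁻¹ • (y - x))) := by
      rw [e]
      simp only at hq1 hq2 hy1 hy2
      nlinarith
    obtain ⟨l, hl, hle⟩ := hy _ hn hΘ
    refine ⟨ρ • l, L.smul_mem _ hl, ?_⟩
    have e2 : y - x - ρ • l = ρ • (ρ⁻¹ • (y - x) - l) := by
      rw [smul_sub, smul_smul, mul_inv_cancel₀ h1.ne', one_smul]
    rw [e2, norm_smul, Real.norm_of_nonneg h1.le, mul_comm δ ρ]
    exact mul_le_mul_of_nonneg_left hle h1.le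
  have hS : S ⊆ ⋃ p, T p := by
    intro x hx
    obtain ⟨ε, hε, hP⟩ := h x hx δ hδ
    obtain ⟨i, hi⟩ := exists_nat_one_div_lt hε
    have hi0 : (0 : ℝ) < (i : ℝ) + 1 := by positivity
    refine mem_iUnion.2 ⟨(i, ⌊Θ x * ((i : ℝ) + 1)⌋), hx, mono x ε _ hP hi.le, ?_, ?_⟩
    · have := Int.floor_le (Θ x * ((i : ℝ) + 1))
      simp only
      rw [mul_one_div, div_le_iff₀ hi0]
      exact this
    · have := Int.lt_floor_add_one (Θ x * ((i : ℝ) + 1))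
      simp only
      rw [mul_one_div, lt_div_iff₀ hi0]
      exact this
  have : dimH S ≤ s := by
    calc dimH S ≤ dimH (⋃ p, T p) := dimH_mono hS
      _ = ⨆ p, dimH (T p) := dimH_iUnion _
      _ ≤ s := iSup_le hT
  exact absurd this (not_le.2 hs2)

/-- **The stratification theorem** (Almgren, Federer, Simon, White).  `Θ` = density function, `S` = stratum.
For `x ∈ S` every sequence of scales tending to `0` has a subsequence `φ` (a tangent cone) and a plane `L` of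
dimension `≤ j` (the spine of the cone, enlarged) such that limits of points of asymptotic density `≥ Θ x` in the
blow-ups lie in `L`. -/
theorem dimH_strat (Θ : E → ℝ) (S : Set E) (j : ℕ)
    (h : ∀ x ∈ S, ∀ ρ : ℕ → ℝ, (∀ i, 0 < ρ i) → Tendsto ρ atTop (𝓝 0) →
      ∃ φ : ℕ → ℕ, StrictMono φ ∧ ∃ L : Submodule ℝ E, finrank ℝ L ≤ j ∧
        ∀ ψ : ℕ → ℕ, StrictMono ψ → ∀ (y : ℕ → E) (z : E), (∀ i, ‖y i‖ ≤ 1) → Tendsto y atTop (𝓝 z) →
          (∀ ε : ℝ, 0 < ε → ∀ᶠ i in atTop, Θ x - ε ≤ Θ (x + ρ (φ (ψ i)) • y i)) → z ∈ L) :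
    dimH S ≤ j := by
  refine dimH_of_approx Θ S j fun x hx δ hδ => ?_
  by_contra hcon
  push Not at hcon
  have hε : ∀ i : ℕ, (0 : ℝ) < 1 / ((i : ℝ) + 1) := fun i => by positivity
  choose ρ hρ0 hρ1 hbad using fun i : ℕ => hcon (1 / ((i : ℝ) + 1)) (hε i)
  have hlim : Tendsto (fun i : ℕ => (1 : ℝ) / ((i : ℝ) + 1)) atTop (𝓝 0) :=
    tendsto_one_div_add_atTop_nhds_zero_nat
  have hρlim : Tendsto ρ atTop (𝓝 0) :=
    squeeze_zero (fun i => (hρ0 i).le) hρ1 hlim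
  obtain ⟨φ, hφ, L, hL, hcl⟩ := h x hx ρ hρ0 hρlim
  choose y hy1 hy2 hy3 using fun i => hbad (φ i) L hL
  obtain ⟨z, -, ψ, hψ, hz⟩ := (isCompact_closedBall (0 : E) 1).tendsto_subseq
    (fun i => (by simpa using hy1 i : y i ∈ closedBall (0 : E) 1))
  have hzL : z ∈ L := by
    refine hcl ψ hψ (fun i => y (ψ i)) z (fun i => hy1 _) hz fun ε hε' => ?_
    have h1 : Tendsto (fun i => (1 : ℝ) / (((φ (ψ i) : ℕ) : ℝ) + 1)) atTop (𝓝 0) :=
      hlim.comp (hφ.tendsto_atTop.comp hψ.tendsto_atTop)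
    filter_upwards [h1.eventually (gt_mem_nhds hε')] with i hi
    have := hy2 (ψ i)
    linarith
  have h2 : Tendsto (fun i => ‖y (ψ i) - z‖) atTop (𝓝 0) := by
    rw [tendsto_iff_norm_sub_tendsto_zero] at hz
    exact hz
  obtain ⟨i, hi⟩ := (h2.eventually (gt_mem_nhds hδ)).exists
  exact absurd (hy3 (ψ i) z hzL) (not_lt.2 hi.le)

end Crest.Agent.R234.Strat_842
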