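import Crest.Agent.R234.Sup2_113
import Crest.Agent.R234.Ell1_3

/-!
R234 (helper685), VF-SUPM part 1: the algebra of a graph `{ρ = u(π)}` against a plane `P`.

`π : E → F`, `ρ : E → W` orthonormal frame, `q = Du`, `nf = ρ - q π` the derivative of the height,
`tau N P = ∑ ‖N (P b_j)‖²` the tilt of `P` relative to the graph,
`pg = J (gop q)⁻¹ Jᵀ`, `J = πᵀ + ρᵀ q` the tangent projection of the graph.
-/

set_option autoImplicit false
set_option linter.unusedSectionVars false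

open MeasureTheory Metric Set Filter Topology
open scoped InnerProductSpace ContDiff

namespace Crest.Agent.R234.Supm_685

open Crest.Agent.R234.Cacc_113 (tr IsPr)
open Crest.Agent.R234.Ell1_3 (gop ginv)

noncomputable section

variable {E F W : Type} [NormedAddCommGroup E] [InnerProductSpace ℝ E] [FiniteDimensional ℝ E]
  [NormedAddCommGroup F] [InnerProductSpace ℝ F] [FiniteDimensional ℝ F]
  [NormedAddCommGroup W] [InnerProductSpace ℝ W] [FiniteDimensional ℝ W]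

/-- orthonormal frame -/
structure Fr (π : E →L[ℝ] F) (ρ : E →L[ℝ] W) : Prop where
  pp : ∀ a, π (ContinuousLinearMap.adjoint π a) = a
  rr : ∀ b, ρ (ContinuousLinearMap.adjoint ρ b) = b
  pr : ∀ b, π (ContinuousLinearMap.adjoint ρ b) = 0
  full : ∀ x, ContinuousLinearMap.adjoint π (π x) + ContinuousLinearMap.adjoint ρ (ρ x) = x

namespace Fr

variable {π : E →L[ℝ] F} {ρ : E →L[ℝ] W}

theorem rp (h : Fr π ρ) (a : F) : ρ (ContinuousLinearMap.adjoint π a) = 0 := by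
  rw [← inner_self_eq_zero (𝕜 := ℝ), ← ContinuousLinearMap.adjoint_inner_right ρ,
    ContinuousLinearMap.adjoint_inner_left π, h.pr, inner_zero_right]

theorem norm_adjr (h : Fr π ρ) (b : W) : ‖ContinuousLinearMap.adjoint ρ b‖ = ‖b‖ := by
  have h1 : ‖ContinuousLinearMap.adjoint ρ b‖ ^ 2 = ‖b‖ ^ 2 := by
    rw [← real_inner_self_eq_norm_sq, ContinuousLinearMap.adjoint_inner_left, h.rr,
      real_inner_self_eq_norm_sq]
  exact (sq_eq_sq₀ (norm_nonneg _) (norm_nonneg _)).1 h1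

theorem norm_adjp (h : Fr π ρ) (b : F) : ‖ContinuousLinearMap.adjoint π b‖ = ‖b‖ := by
  have h1 : ‖ContinuousLinearMap.adjoint π b‖ ^ 2 = ‖b‖ ^ 2 := by
    rw [← real_inner_self_eq_norm_sq, ContinuousLinearMap.adjoint_inner_left, h.pp,
      real_inner_self_eq_norm_sq]
  exact (sq_eq_sq₀ (norm_nonneg _) (norm_nonneg _)).1 h1

theorem norm_sq (h : Fr π ρ) (x : E) : ‖π x‖ ^ 2 + ‖ρ x‖ ^ 2 = ‖x‖ ^ 2 := by
  have h1 : ⟪x, x⟫_ℝ = ⟪x, ContinuousLinearMap.adjoint π (π x)⟫_ℝ +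
      ⟪x, ContinuousLinearMap.adjoint ρ (ρ x)⟫_ℝ := by
    rw [← inner_add_right, h.full]
  rw [ContinuousLinearMap.adjoint_inner_right, ContinuousLinearMap.adjoint_inner_right,
    real_inner_self_eq_norm_sq, real_inner_self_eq_norm_sq, real_inner_self_eq_norm_sq] at h1
  exact h1.symm

theorem norm_p_le (h : Fr π ρ) (x : E) : ‖π x‖ ≤ ‖x‖ := by
  have := h.norm_sq x
  exact le_of_sq_le_sq (by nlinarith [sq_nonneg ‖ρ x‖]) (norm_nonneg _)

theorem norm_r_le (h : Fr π ρ) (x : E) : ‖ρ x‖ ≤ ‖x‖ := by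
  have := h.norm_sq x
  exact le_of_sq_le_sq (by nlinarith [sq_nonneg ‖π x‖]) (norm_nonneg _)

end Fr

/-- the derivative of the height -/
def nf (π : E →L[ℝ] F) (ρ : E →L[ℝ] W) (q : F →L[ℝ] W) : E →L[ℝ] W := ρ - q ∘L π

/-- the graph map -/
def jf (π : E →L[ℝ] F) (ρ : E →L[ℝ] W) (q : F →L[ℝ] W) : F →L[ℝ] E :=
  ContinuousLinearMap.adjoint π + (ContinuousLinearMap.adjoint ρ) ∘L q

/-- the tangent projection of the graph -/
def pg (π : E →L[ℝ] F) (ρ : E →L[ℝ] W) (q : F →L[ℝ] W) : E →L[ℝ] E :=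
  (jf π ρ q) ∘L (ginv q) ∘L (ContinuousLinearMap.adjoint (jf π ρ q))

/-- the tilt relative to the graph -/
def tau (N : E →L[ℝ] W) (P : E →L[ℝ] E) : ℝ := ∑ j, ‖N (P (stdOrthonormalBasis ℝ E j))‖ ^ 2

theorem ginv_inner (q : F →L[ℝ] W) (a b : F) : ⟪ginv q a, b⟫_ℝ = ⟪a, ginv q b⟫_ℝ := by
  have h1 : ∀ c, gop q (ginv q c) = c := fun c => by
    have := congrArg (fun A : F →L[ℝ] F => A c) (Ell1_3.gop_ginv q)
    simpa using this
  have h2 : ∀ x y, ⟪x, gop q y⟫_ℝ = ⟪gop q x, y⟫_ℝ := fun x y => by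
    rw [Ell1_3.gop_inner, real_inner_comm y (gop q x), Ell1_3.gop_inner, real_inner_comm x y,
      real_inner_comm (q x) (q y)]
  conv_lhs => rw [← h1 b]
  rw [h2, h1]

section alg

variable {π : E →L[ℝ] F} {ρ : E →L[ℝ] W} (h : Fr π ρ) (q : F →L[ℝ] W)
include h

theorem p_j (a : F) : π (jf π ρ q a) = a := by
  simp [jf, h.pp, h.pr]

theorem n_j (a : F) : nf π ρ q (jf π ρ q a) = 0 := by
  have h1 := p_j h q a
  simp only [nf, sub_apply, ContinuousLinearMap.comp_apply, h1]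
  simp [jf, h.rp, h.rr]

theorem sub_j (v : E) : v - jf π ρ q (π v) = ContinuousLinearMap.adjoint ρ (nf π ρ q v) := by
  have h1 := h.full v
  simp only [nf, jf, sub_apply, add_apply, ContinuousLinearMap.comp_apply, map_sub]
  nth_rewrite 1 [← h1]
  abel

theorem jj (a : F) : ContinuousLinearMap.adjoint (jf π ρ q) (jf π ρ q a) = gop q a := by
  refine ext_inner_left ℝ fun b => ?_
  rw [ContinuousLinearMap.adjoint_inner_right, Ell1_3.gop_inner]
  simp only [jf, add_apply, ContinuousLinearMap.comp_apply, inner_add_left, inner_add_right,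
    ContinuousLinearMap.adjoint_inner_left, h.pp, h.rr, h.pr, h.rp]
  simp

theorem pg_j (a : F) : pg π ρ q (jf π ρ q a) = jf π ρ q a := by
  simp only [pg, ContinuousLinearMap.comp_apply, jj h]
  have := congrArg (fun A : F →L[ℝ] F => A a) (Ell1_3.ginv_gop q)
  simp only [ContinuousLinearMap.comp_apply, ContinuousLinearMap.id_apply] at this
  rw [this]

theorem isPr_pg : IsPr (pg π ρ q) := by
  refine ⟨fun x => ?_, fun x y => ?_⟩
  · have : pg π ρ q x = jf π ρ q (ginv q (ContinuousLinearMap.adjoint (jf π ρ q) x)) := rfl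
    rw [this, pg_j h]
  · simp only [pg, ContinuousLinearMap.comp_apply]
    rw [← ContinuousLinearMap.adjoint_inner_right, ginv_inner,
      ContinuousLinearMap.adjoint_inner_left]

theorem tr_pg : tr (pg π ρ q) = Module.finrank ℝ F := by
  have h1 : (pg π ρ q).toLinearMap = (jf π ρ q).toLinearMap ∘ₗ
      ((ginv q).toLinearMap ∘ₗ (ContinuousLinearMap.adjoint (jf π ρ q)).toLinearMap) := rfl
  rw [tr, h1, LinearMap.trace_comp_comm']
  have h2 : ((ginv q).toLinearMap ∘ₗ (ContinuousLinearMap.adjoint (jf π ρ q)).toLinearMap) ∘ₗ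
      (jf π ρ q).toLinearMap = LinearMap.id := by
    ext a
    simp only [LinearMap.comp_apply, ContinuousLinearMap.coe_coe, jj h, LinearMap.id_apply]
    have := congrArg (fun A : F →L[ℝ] F => A a) (Ell1_3.ginv_gop q)
    simpa using this
  rw [h2, LinearMap.trace_id]

theorem p_pg_adj (a : F) : π (pg π ρ q (ContinuousLinearMap.adjoint π a)) = ginv q a := by
  have h1 : ContinuousLinearMap.adjoint (jf π ρ q) (ContinuousLinearMap.adjoint π a) = a := by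
    refine ext_inner_left ℝ fun b => ?_
    rw [ContinuousLinearMap.adjoint_inner_right, ContinuousLinearMap.adjoint_inner_right, p_j h]
  simp only [pg, ContinuousLinearMap.comp_apply, h1, p_j h]

theorem norm_sub_pg_le (v : E) : ‖v - pg π ρ q v‖ ≤ ‖nf π ρ q v‖ := by
  have h1 : v - pg π ρ q v = (1 - pg π ρ q) (v - jf π ρ q (π v)) := by
    simp only [map_sub, sub_apply, one_apply_eq_self, pg_j h]
    abel
  rw [h1, sub_j h]
  exact ((isPr_pg h q).compl.norm_le _).trans (h.norm_adjr _).le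

theorem tr_compl_le (P : E →L[ℝ] E) (hP : IsPr P) :
    tr ((1 - pg π ρ q) ∘L P) ≤ tau (nf π ρ q) P := by
  have hQ : IsPr (1 - pg π ρ q) := (isPr_pg h q).compl
  have h1 : tr ((1 - pg π ρ q) ∘L P) = tr (P ∘L (1 - pg π ρ q) ∘L P) := by
    have h2 : P ∘L (1 - pg π ρ q) ∘L P = P ∘L ((1 - pg π ρ q) ∘L P) := rfl
    rw [h2, Cacc_113.tr_comp_comm P ((1 - pg π ρ q) ∘L P)]
    congr 1
    ext x
    simp [hP.idem]
  rw [h1, tr, LinearMap.trace_eq_sum_inner _ (stdOrthonormalBasis ℝ E), tau]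
  refine Finset.sum_le_sum fun i _ => ?_
  have h2 : ⟪(stdOrthonormalBasis ℝ E) i, (P ∘L (1 - pg π ρ q) ∘L P)
      ((stdOrthonormalBasis ℝ E) i)⟫_ℝ = ⟪P ((stdOrthonormalBasis ℝ E) i),
        (1 - pg π ρ q) (P ((stdOrthonormalBasis ℝ E) i))⟫_ℝ := by
    simp only [ContinuousLinearMap.comp_apply]
    rw [hP.sa]
  simp only [ContinuousLinearMap.coe_coe]
  rw [h2, hQ.inner_self]
  have h3 := norm_sub_pg_le h q (P ((stdOrthonormalBasis ℝ E) i))
  simp only [sub_apply, one_apply_eq_self]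
  gcongr

theorem norm_sub_pg_sq (P : E →L[ℝ] E) (hP : IsPr P) (hm : tr P = Module.finrank ℝ F) :
    ‖P - pg π ρ q‖ ^ 2 ≤ 2 * tau (nf π ρ q) P := by
  have h1 := hP.norm_sub_sq_le (isPr_pg h q) (hm.trans (tr_pg h q).symm)
  have h2 := tr_compl_le h q P hP
  linarith

end alg

theorem tau_nonneg (N : E →L[ℝ] W) (P : E →L[ℝ] E) : 0 ≤ tau N P :=
  Finset.sum_nonneg fun _ _ => by positivity

theorem norm_np_sq (N : E →L[ℝ] W) (P : E →L[ℝ] E) (y : E) :
    ‖N (P y)‖ ^ 2 ≤ tau N P * ‖y‖ ^ 2 := by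
  have h4 : N (P y) = ∑ i, ⟪(stdOrthonormalBasis ℝ E) i, y⟫_ℝ •
      N (P ((stdOrthonormalBasis ℝ E) i)) := by
    conv_lhs => rw [← (stdOrthonormalBasis ℝ E).sum_repr' y]
    simp only [map_sum, map_smul]
  have h5 : ‖N (P y)‖ ≤ ∑ i, |⟪(stdOrthonormalBasis ℝ E) i, y⟫_ℝ| *
      ‖N (P ((stdOrthonormalBasis ℝ E) i))‖ := by
    rw [h4]
    refine (norm_sum_le _ _).trans (Finset.sum_le_sum fun i _ => ?_)
    rw [norm_smul, Real.norm_eq_abs]
  have h6 : (∑ i, |⟪(stdOrthonormalBasis ℝ E) i, y⟫_ℝ| *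
      ‖N (P ((stdOrthonormalBasis ℝ E) i))‖) ^ 2 ≤
      (∑ i, |⟪(stdOrthonormalBasis ℝ E) i, y⟫_ℝ| ^ 2) *
        ∑ i, ‖N (P ((stdOrthonormalBasis ℝ E) i))‖ ^ 2 :=
    Finset.sum_mul_sq_le_sq_mul_sq _ _ _
  have h7 : ∑ i, |⟪(stdOrthonormalBasis ℝ E) i, y⟫_ℝ| ^ 2 = ‖y‖ ^ 2 := by
    rw [← (stdOrthonormalBasis ℝ E).sum_sq_norm_inner_right y]
    refine Finset.sum_congr rfl fun i _ => ?_
    rw [Real.norm_eq_abs]
  rw [h7] at h6
  calc ‖N (P y)‖ ^ 2 ≤ (∑ i, |⟪(stdOrthonormalBasis ℝ E) i, y⟫_ℝ| *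
      ‖N (P ((stdOrthonormalBasis ℝ E) i))‖) ^ 2 := by gcongr
    _ ≤ _ := by rw [mul_comm]; exact h6

theorem norm_np_le (N : E →L[ℝ] W) (P : E →L[ℝ] E) (y : E) :
    ‖N (P y)‖ ≤ √(tau N P) * ‖y‖ := by
  refine le_of_sq_le_sq ?_ (by positivity)
  rw [mul_pow, Real.sq_sqrt (tau_nonneg N P)]
  exact norm_np_sq N P y

theorem norm_p_adj_le (N : E →L[ℝ] W) {P : E →L[ℝ] E} (hP : IsPr P) (w : W) :
    ‖P (ContinuousLinearMap.adjoint N w)‖ ≤ √(tau N P) * ‖w‖ := by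
  set v := P (ContinuousLinearMap.adjoint N w) with hv
  have h1 : ‖v‖ ^ 2 ≤ √(tau N P) * ‖v‖ * ‖w‖ := by
    rw [← real_inner_self_eq_norm_sq]
    have h2 : ⟪v, v⟫_ℝ = ⟪N (P v), w⟫_ℝ := by
      nth_rewrite 2 [hv]
      rw [← hP.sa, ContinuousLinearMap.adjoint_inner_right]
    rw [h2]
    calc ⟪N (P v), w⟫_ℝ ≤ ‖N (P v)‖ * ‖w‖ := real_inner_le_norm _ _
      _ ≤ _ := by gcongr; exact norm_np_le N P v
  rcases (norm_nonneg v).eq_or_lt with h0 | h0
  · rw [← h0]; positivity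
  · by_contra hcon
    push Not at hcon
    nlinarith

theorem tau_eq (N : E →L[ℝ] W) {P : E →L[ℝ] E} (hP : IsPr P) :
    tr ((ContinuousLinearMap.adjoint N ∘L N) ∘L P) = tau N P := by
  have h1 : tr ((ContinuousLinearMap.adjoint N ∘L N) ∘L P) =
      tr (P ∘L (ContinuousLinearMap.adjoint N ∘L N) ∘L P) := by
    have h2 : P ∘L (ContinuousLinearMap.adjoint N ∘L N) ∘L P =
      P ∘L ((ContinuousLinearMap.adjoint N ∘L N) ∘L P) := rfl
    rw [h2, Cacc_113.tr_comp_comm P]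
    congr 1
    ext x
    simp [hP.idem]
  rw [h1, tr, LinearMap.trace_eq_sum_inner _ (stdOrthonormalBasis ℝ E), tau]
  refine Finset.sum_congr rfl fun i _ => ?_
  simp only [ContinuousLinearMap.coe_coe, ContinuousLinearMap.comp_apply]
  rw [← hP.sa, ContinuousLinearMap.adjoint_inner_right, real_inner_self_eq_norm_sq]

/-- the second order form `∑_j ⟨f, B (π A b_j) (π b_j)⟩` -/
def sig (π : E →L[ℝ] F) (B : F →L[ℝ] F →L[ℝ] W) (f : W) (A : E →L[ℝ] E) : ℝ :=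
  ∑ j, ⟪f, B (π (A (stdOrthonormalBasis ℝ E j))) (π (stdOrthonormalBasis ℝ E j))⟫_ℝ

theorem sig_eq (π : E →L[ℝ] F) (B : F →L[ℝ] F →L[ℝ] W) (f : W) (A : E →L[ℝ] E)
    {ι : Type} [Fintype ι] (e : OrthonormalBasis ι ℝ F) :
    sig π B f A = ∑ i, ⟪f, B (π (A (ContinuousLinearMap.adjoint π (e i)))) (e i)⟫_ℝ := by
  have h1 : ∀ j, ⟪f, B (π (A (stdOrthonormalBasis ℝ E j))) (π (stdOrthonormalBasis ℝ E j))⟫_ℝ =
      ∑ i, ⟪e i, π (stdOrthonormalBasis ℝ E j)⟫_ℝ *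
        ⟪f, B (π (A (stdOrthonormalBasis ℝ E j))) (e i)⟫_ℝ := by
    intro j
    have h2 : ∀ C : F →L[ℝ] W, ⟪f, C (π (stdOrthonormalBasis ℝ E j))⟫_ℝ =
        ∑ i, ⟪e i, π (stdOrthonormalBasis ℝ E j)⟫_ℝ * ⟪f, C (e i)⟫_ℝ := by
      intro C
      conv_lhs => rw [← e.sum_repr' (π (stdOrthonormalBasis ℝ E j))]
      simp only [map_sum, map_smul, inner_sum, inner_smul_right]
    exact h2 _
  have h3 : ∀ i, ⟪f, B (π (A (ContinuousLinearMap.adjoint π (e i)))) (e i)⟫_ℝ =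
      ∑ j, ⟪e i, π (stdOrthonormalBasis ℝ E j)⟫_ℝ *
        ⟪f, B (π (A (stdOrthonormalBasis ℝ E j))) (e i)⟫_ℝ := by
    intro i
    conv_lhs => rw [← (stdOrthonormalBasis ℝ E).sum_repr' (ContinuousLinearMap.adjoint π (e i))]
    simp only [map_sum, map_smul, sum_apply, smul_apply,
      inner_sum, inner_smul_right]
    refine Finset.sum_congr rfl fun j _ => ?_
    rw [ContinuousLinearMap.adjoint_inner_right, real_inner_comm]
  rw [sig]
  simp_rw [h1, h3]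
  exact Finset.sum_comm

theorem sig_sub (π : E →L[ℝ] F) (B : F →L[ℝ] F →L[ℝ] W) (f : W) (A A' : E →L[ℝ] E) :
    sig π B f (A - A') = sig π B f A - sig π B f A' := by
  simp [sig, Finset.sum_sub_distrib, inner_sub_right]

theorem sig_pg {π : E →L[ℝ] F} {ρ : E →L[ℝ] W} (h : Fr π ρ) (q : F →L[ℝ] W)
    (B : F →L[ℝ] F →L[ℝ] W) (f : W) {ι : Type} [Fintype ι] (e : OrthonormalBasis ι ℝ F) :
    sig π B f (pg π ρ q) = ⟪f, ∑ i, B (ginv q (e i)) (e i)⟫_ℝ := by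
  rw [sig_eq π B f _ e, inner_sum]
  refine Finset.sum_congr rfl fun i _ => ?_
  rw [p_pg_adj h]

theorem sig_le {π : E →L[ℝ] F} {ρ : E →L[ℝ] W} (h : Fr π ρ)
    (B : F →L[ℝ] F →L[ℝ] W) (f : W) (A : E →L[ℝ] E) :
    |sig π B f A| ≤ Module.finrank ℝ F * (‖B‖ * ‖f‖ * ‖A‖) := by
  rw [sig_eq π B f _ (stdOrthonormalBasis ℝ F)]
  refine (Finset.abs_sum_le_sum_abs _ _).trans ?_
  have h1 : ∀ i ∈ (Finset.univ : Finset (Fin (Module.finrank ℝ F))),
      |⟪f, B (π (A (ContinuousLinearMap.adjoint π (stdOrthonormalBasis ℝ F i))))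
        (stdOrthonormalBasis ℝ F i)⟫_ℝ| ≤ ‖B‖ * ‖f‖ * ‖A‖ := by
    intro i _
    have e1 : ‖stdOrthonormalBasis ℝ F i‖ = 1 := (stdOrthonormalBasis ℝ F).norm_eq_one i
    have e2 : ‖π (A (ContinuousLinearMap.adjoint π (stdOrthonormalBasis ℝ F i)))‖ ≤ ‖A‖ := by
      refine (h.norm_p_le _).trans ((A.le_opNorm _).trans ?_)
      rw [h.norm_adjp, e1, mul_one]
    refine (abs_real_inner_le_norm _ _).trans ?_
    have e3 : ‖B (π (A (ContinuousLinearMap.adjoint π (stdOrthonormalBasis ℝ F i))))‖ ≤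
        ‖B‖ * ‖A‖ := (B.le_opNorm _).trans (by gcongr)
    have e4 := ContinuousLinearMap.le_opNorm
      (B (π (A (ContinuousLinearMap.adjoint π (stdOrthonormalBasis ℝ F i)))))
      (stdOrthonormalBasis ℝ F i)
    rw [e1, mul_one] at e4
    have e5 := mul_le_mul_of_nonneg_left (e4.trans e3) (norm_nonneg f)
    refine e5.trans (le_of_eq (by ring))
  refine (Finset.sum_le_card_nsmul _ _ _ h1).trans (le_of_eq ?_)
  rw [Finset.card_univ, Fintype.card_fin, nsmul_eq_mul]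

/-- the second order term is controlled by the relative tilt, if the graph is minimal. -/
theorem sig_min {π : E →L[ℝ] F} {ρ : E →L[ℝ] W} (h : Fr π ρ) (q : F →L[ℝ] W)
    (B : F →L[ℝ] F →L[ℝ] W) (f : W) {ι : Type} [Fintype ι] (e : OrthonormalBasis ι ℝ F)
    (hB : ∑ i, B (ginv q (e i)) (e i) = 0) {P : E →L[ℝ] E} (hP : IsPr P)
    (hm : tr P = Module.finrank ℝ F) :
    |sig π B f P| ≤ Module.finrank ℝ F * (‖B‖ * ‖f‖ * √(2 * tau (nf π ρ q) P)) := by
  have h1 : sig π B f P = sig π B f (P - pg π ρ q) := by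
    rw [sig_sub, sig_pg h q B f e, hB, inner_zero_right, sub_zero]
  rw [h1]
  refine (sig_le h B f _).trans ?_
  gcongr
  refine le_of_sq_le_sq ?_ (by positivity)
  rw [Real.sq_sqrt (by have := tau_nonneg (nf π ρ q) P; positivity)]
  exact norm_sub_pg_sq h q P hP hm

end

end Crest.Agent.R234.Supm_685
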