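import Crest.Agent.R234.Supm1_685

/-!
R234 (helper685), VF-SUPM part 2: calculus of the height over a minimal graph and its squared norm.
-/

set_option autoImplicit false
set_option linter.unusedSectionVars false

open MeasureTheory Metric Set Filter Topology
open scoped InnerProductSpace ContDiff

namespace Crest.Agent.R234.Supm_685

open Crest.Agent.R234.Cacc_113 (tr IsPr St)
open Crest.Agent.R234.Ell1_3 (gop ginv adjL)

noncomputable section

variable {E F W : Type} [NormedAddCommGroup E] [InnerProductSpace ℝ E] [FiniteDimensional ℝ E]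
  [NormedAddCommGroup F] [InnerProductSpace ℝ F] [FiniteDimensional ℝ F]
  [NormedAddCommGroup W] [InnerProductSpace ℝ W] [FiniteDimensional ℝ W]

/-- the height over the graph of `u` (at scale `r` about `x`) -/
def ht (π : E →L[ℝ] F) (ρ : E →L[ℝ] W) (x : E) (r : ℝ) (u : F → W) (z : E) : W :=
  ρ (z - x) - r • u (r⁻¹ • π (z - x))

/-- its derivative -/
def nz (π : E →L[ℝ] F) (ρ : E →L[ℝ] W) (x : E) (r : ℝ) (u : F → W) (z : E) : E →L[ℝ] W :=
  nf π ρ (fderiv ℝ u (r⁻¹ • π (z - x)))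

/-- the second derivative of `u` at the base point of `z` -/
def bz (π : E →L[ℝ] F) (x : E) (r : ℝ) (u : F → W) (z : E) : F →L[ℝ] F →L[ℝ] W :=
  fderiv ℝ (fderiv ℝ u) (r⁻¹ • π (z - x))

/-- gradient of the squared height -/
def g0 (π : E →L[ℝ] F) (ρ : E →L[ℝ] W) (x : E) (r : ℝ) (u : F → W) (z : E) : E :=
  (2 : ℝ) • ContinuousLinearMap.adjoint (nz π ρ x r u z) (ht π ρ x r u z)

/-- the weight -/
def ps (a : ℝ) (z0 z : E) : ℝ := 1 + a * ‖z - z0‖ ^ 2

/-- gradient of the weighted squared height -/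
def g1 (π : E →L[ℝ] F) (ρ : E →L[ℝ] W) (x : E) (r : ℝ) (u : F → W) (a : ℝ) (z0 z : E) : E :=
  ps a z0 z • g0 π ρ x r u z + (2 * a * ‖ht π ρ x r u z‖ ^ 2) • (z - z0)

section calcu

variable {π : E →L[ℝ] F} {ρ : E →L[ℝ] W} {x : E} {r : ℝ} {u : F → W}

theorem hasFDerivAt_pt (z : E) :
    HasFDerivAt (fun z : E => r⁻¹ • π (z - x)) (r⁻¹ • π) z := by
  have h4 : HasFDerivAt (fun z => π z - π x) π z := π.hasFDerivAt.sub_const _
  have h5 : HasFDerivAt (fun z => π (z - x)) π z := by simpa only [map_sub] using h4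
  exact h5.const_smul r⁻¹

theorem hasFDerivAt_ht (hr : r ≠ 0) (hu : ContDiff ℝ 2 u) (z : E) :
    HasFDerivAt (ht π ρ x r u) (nz π ρ x r u z) z := by
  have h1 : HasFDerivAt u (fderiv ℝ u (r⁻¹ • π (z - x))) (r⁻¹ • π (z - x)) :=
    (hu.differentiable (by norm_num) _).hasFDerivAt
  have h2 : HasFDerivAt (fun z => r • u (r⁻¹ • π (z - x)))
      (r • (fderiv ℝ u (r⁻¹ • π (z - x)) ∘L (r⁻¹ • π))) z :=
    (h1.comp z (hasFDerivAt_pt z)).const_smul r
  have h3 : HasFDerivAt (fun z => ρ (z - x)) ρ z := by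
    have h4 : HasFDerivAt (fun z => ρ z - ρ x) ρ z := ρ.hasFDerivAt.sub_const _
    simpa only [map_sub] using h4
  have h5 := h3.sub h2
  have h6 : ρ - r • (fderiv ℝ u (r⁻¹ • π (z - x)) ∘L (r⁻¹ • π)) = nz π ρ x r u z := by
    ext v
    simp only [nz, nf, sub_apply, smul_apply, ContinuousLinearMap.comp_apply,
      map_smul, smul_smul, mul_inv_cancel₀ hr, one_smul]
  rw [h6] at h5
  exact h5

/-- the derivative of `nz` -/
def dnz (π : E →L[ℝ] F) (x : E) (r : ℝ) (u : F → W) (z : E) : E →L[ℝ] (E →L[ℝ] W) :=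
  -(((ContinuousLinearMap.compL ℝ E F W).flip π) ∘L (bz π x r u z ∘L (r⁻¹ • π)))

theorem dnz_apply (z v w : E) :
    dnz π x r u z v w = -(r⁻¹ • bz π x r u z (π v) (π w)) := by
  simp [dnz]

theorem hasFDerivAt_nz (hu : ContDiff ℝ 2 u) (z : E) :
    HasFDerivAt (nz π ρ x r u) (dnz π x r u z) z := by
  have h0 : ContDiff ℝ 1 (fderiv ℝ u) := hu.fderiv_right (by norm_num)
  have h1 : HasFDerivAt (fderiv ℝ u) (bz π x r u z) (r⁻¹ • π (z - x)) :=
    (h0.differentiable one_ne_zero _).hasFDerivAt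
  have h2 := h1.comp z (hasFDerivAt_pt (π := π) (x := x) (r := r) z)
  have h3 := (((ContinuousLinearMap.compL ℝ E F W).flip π).hasFDerivAt).comp z h2
  have h4 := h3.const_sub ρ
  exact h4

theorem contDiff_ht (hu : ContDiff ℝ 2 u) : ContDiff ℝ 2 (ht π ρ x r u) := by
  have h1 : ContDiff ℝ 2 fun z : E => ρ (z - x) := ρ.contDiff.comp (contDiff_id.sub contDiff_const)
  have h2 : ContDiff ℝ 2 fun z : E => r⁻¹ • π (z - x) :=
    contDiff_const.smul (π.contDiff.comp (contDiff_id.sub contDiff_const))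
  exact h1.sub (contDiff_const.smul (hu.comp h2))

theorem contDiff_nz (hu : ContDiff ℝ 2 u) : ContDiff ℝ 1 (nz π ρ x r u) := by
  have h0 : ContDiff ℝ 1 (fderiv ℝ u) := hu.fderiv_right (by norm_num)
  have h2 : ContDiff ℝ 1 fun z : E => r⁻¹ • π (z - x) :=
    contDiff_const.smul (π.contDiff.comp (contDiff_id.sub contDiff_const))
  have h3 : ContDiff ℝ 1 fun z : E => ((ContinuousLinearMap.compL ℝ E F W).flip π)
    (fderiv ℝ u (r⁻¹ • π (z - x))) := (ContinuousLinearMap.contDiff _).comp (h0.comp h2)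
  exact contDiff_const.sub h3

theorem contDiff_g0 (hu : ContDiff ℝ 2 u) : ContDiff ℝ 1 (g0 π ρ x r u) := by
  have h1 : ContDiff ℝ 1 fun z => adjL (nz π ρ x r u z) :=
    ((adjL (F := E) (V := W)).contDiff).comp (contDiff_nz hu)
  have h2 : ContDiff ℝ 1 (ht π ρ x r u) := (contDiff_ht hu).of_le (by norm_num)
  exact contDiff_const.smul (h1.clm_apply h2)

theorem contDiff_nsq (hu : ContDiff ℝ 2 u) : ContDiff ℝ 1 fun z => ‖ht π ρ x r u z‖ ^ 2 :=
  ((contDiff_ht hu).of_le (by norm_num)).norm_sq ℝ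

theorem contDiff_ps (a : ℝ) (z0 : E) : ContDiff ℝ 1 (ps a z0) :=
  contDiff_const.add (contDiff_const.mul ((contDiff_id.sub contDiff_const).norm_sq ℝ))

theorem contDiff_g1 (hu : ContDiff ℝ 2 u) (a : ℝ) (z0 : E) :
    ContDiff ℝ 1 (g1 π ρ x r u a z0) :=
  ((contDiff_ps a z0).smul (contDiff_g0 hu)).add
    ((contDiff_const.mul (contDiff_nsq hu)).smul (contDiff_id.sub contDiff_const))

theorem g0_inner (z v : E) :
    ⟪g0 π ρ x r u z, v⟫_ℝ = 2 * ⟪ht π ρ x r u z, nz π ρ x r u z v⟫_ℝ := by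
  rw [g0, inner_smul_left, ContinuousLinearMap.adjoint_inner_left]
  simp

theorem hasFDerivAt_nsq (hr : r ≠ 0) (hu : ContDiff ℝ 2 u) (z : E) :
    HasFDerivAt (fun z => ‖ht π ρ x r u z‖ ^ 2) (innerSL ℝ (g0 π ρ x r u z)) z := by
  have h1 := (hasFDerivAt_ht (π := π) (ρ := ρ) (x := x) hr hu z).norm_sq
  refine h1.congr_fderiv ?_
  ext v
  rw [innerSL_apply_apply, g0_inner]
  simp [two_mul]

theorem hasFDerivAt_ps (a : ℝ) (z0 z : E) :
    HasFDerivAt (ps a z0) (innerSL ℝ ((2 * a) • (z - z0))) z := by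
  have h0 : HasFDerivAt (fun z : E => z - z0) (ContinuousLinearMap.id ℝ E) z :=
    (hasFDerivAt_id z).sub_const z0
  have h1 := (h0.norm_sq.const_mul a).const_add 1
  refine h1.congr_fderiv ?_
  ext v
  simp [inner_smul_left]
  ring

theorem hasFDerivAt_g0 (hr : r ≠ 0) (hu : ContDiff ℝ 2 u) (z : E) :
    HasFDerivAt (g0 π ρ x r u) ((2 : ℝ) • (((adjL (nz π ρ x r u z)) ∘L (nz π ρ x r u z)) +
      ((adjL (F := E) (V := W)) ∘L dnz π x r u z).flip (ht π ρ x r u z))) z := by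
  have h1 : HasFDerivAt (fun z => adjL (nz π ρ x r u z)) ((adjL (F := E) (V := W)) ∘L dnz π x r u z)
      z := ((adjL (F := E) (V := W)).hasFDerivAt).comp z (hasFDerivAt_nz hu z)
  exact (h1.clm_apply (hasFDerivAt_ht hr hu z)).const_smul (2 : ℝ)

/-- the trace of `P` against the Hessian of the squared height. -/
theorem tr_g0 (hr : r ≠ 0) (hu : ContDiff ℝ 2 u) (z : E) {P : E →L[ℝ] E} (hP : IsPr P) :
    tr (fderiv ℝ (g0 π ρ x r u) z ∘L P) = 2 * tau (nz π ρ x r u z) P -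
      2 * (r⁻¹ * sig π (bz π x r u z) (ht π ρ x r u z) P) := by
  rw [(hasFDerivAt_g0 hr hu z).fderiv]
  have h1 : ((2 : ℝ) • (((adjL (nz π ρ x r u z)) ∘L (nz π ρ x r u z)) +
      ((adjL (F := E) (V := W)) ∘L dnz π x r u z).flip (ht π ρ x r u z))) ∘L P =
      (2 : ℝ) • (((ContinuousLinearMap.adjoint (nz π ρ x r u z) ∘L (nz π ρ x r u z)) ∘L P) +
      (((adjL (F := E) (V := W)) ∘L dnz π x r u z).flip (ht π ρ x r u z) ∘L P)) := by
    ext v; simp
  rw [h1, Cacc_113.tr_smul, Cacc_113.tr_add, tau_eq _ hP]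
  have h2 : tr (((adjL (F := E) (V := W)) ∘L dnz π x r u z).flip (ht π ρ x r u z) ∘L P) =
      -(r⁻¹ * sig π (bz π x r u z) (ht π ρ x r u z) P) := by
    rw [tr, LinearMap.trace_eq_sum_inner _ (stdOrthonormalBasis ℝ E), sig, Finset.mul_sum,
      ← Finset.sum_neg_distrib]
    refine Finset.sum_congr rfl fun j _ => ?_
    simp only [ContinuousLinearMap.coe_coe, ContinuousLinearMap.comp_apply,
      ContinuousLinearMap.flip_apply, Ell1_3.adjL_apply]
    rw [ContinuousLinearMap.adjoint_inner_right, dnz_apply, inner_neg_left, inner_smul_left,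
      real_inner_comm]
    simp
  rw [h2]
  ring

theorem tr_g1 (hr : r ≠ 0) (hu : ContDiff ℝ 2 u) (a : ℝ) (z0 z : E) {P : E →L[ℝ] E}
    (hP : IsPr P) :
    tr (fderiv ℝ (g1 π ρ x r u a z0) z ∘L P) =
      ps a z0 z * (2 * tau (nz π ρ x r u z) P -
        2 * (r⁻¹ * sig π (bz π x r u z) (ht π ρ x r u z) P)) +
      8 * a * ⟪ht π ρ x r u z, nz π ρ x r u z (P (z - z0))⟫_ℝ +
      2 * a * ‖ht π ρ x r u z‖ ^ 2 * tr P := by
  have h0 : HasFDerivAt (g0 π ρ x r u) (fderiv ℝ (g0 π ρ x r u) z) z :=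
    ((contDiff_g0 hu).differentiable one_ne_zero z).hasFDerivAt
  have h1 := (hasFDerivAt_ps a z0 z).smul h0
  have h2 : HasFDerivAt (fun z : E => z - z0) (ContinuousLinearMap.id ℝ E) z :=
    (hasFDerivAt_id z).sub_const z0
  have h3 := ((hasFDerivAt_nsq (π := π) (ρ := ρ) (x := x) hr hu z).const_mul (2 * a)).smul h2
  have h4 := h1.add h3
  have h5 : HasFDerivAt (g1 π ρ x r u a z0) _ z := h4
  rw [h5.fderiv]
  simp only [ContinuousLinearMap.add_comp, Cacc_113.tr_add, Cacc_113.tr_smulRight_comp,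
    ContinuousLinearMap.smul_comp, Cacc_113.tr_smul, ContinuousLinearMap.id_comp,
    tr_g0 hr hu z hP, smul_apply, innerSL_apply_apply, smul_eq_mul]
  rw [inner_smul_left, real_inner_comm, hP.sa, g0_inner]
  simp only [conj_trivial]
  ring

theorem hasFDerivAt_h (hr : r ≠ 0) (hu : ContDiff ℝ 2 u) (a : ℝ) (z0 z : E) :
    HasFDerivAt (fun z => ps a z0 z * ‖ht π ρ x r u z‖ ^ 2) (innerSL ℝ (g1 π ρ x r u a z0 z)) z := by
  have h1 := (hasFDerivAt_ps a z0 z).mul (hasFDerivAt_nsq (π := π) (ρ := ρ) (x := x) hr hu z)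
  refine h1.congr_fderiv ?_
  ext v
  simp only [g1, innerSL_apply_apply, add_apply, smul_apply, smul_eq_mul, inner_add_left,
    inner_smul_left, conj_trivial]
  ring

end calcu

end

end Crest.Agent.R234.Supm_685
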