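import Crest.Agent.R234.Supm2_685

/-!
R234 (helper685), VF-SUPM part 3: height bound, energy (Caccioppoli) inequality and first variation
identity for the height of a stationary general varifold over a MINIMAL graph `{ρ = r u(π / r)}`.
-/

set_option autoImplicit false
set_option linter.unusedSectionVars false

open MeasureTheory Metric Set Filter Topology
open scoped InnerProductSpace ContDiff

namespace Crest.Agent.R234.Supm_685

open Crest.Agent.R234.Cacc_113 (tr IsPr St)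
open Crest.Agent.R234.Ell1_3 (gop ginv adjL)

noncomputable section

variable {E F W : Type} [NormedAddCommGroup E] [InnerProductSpace ℝ E] [FiniteDimensional ℝ E]
  [NormedAddCommGroup F] [InnerProductSpace ℝ F] [FiniteDimensional ℝ F]
  [NormedAddCommGroup W] [InnerProductSpace ℝ W] [FiniteDimensional ℝ W]

/-- at the base point of `z`: `‖D²u‖ ≤ κ` and the minimal surface system. -/
def MinAt {ι : Type} [Fintype ι] (e : OrthonormalBasis ι ℝ F) (π : E →L[ℝ] F) (x : E) (r : ℝ)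
    (u : F → W) (κ : ℝ) (z : E) : Prop :=
  ‖bz π x r u z‖ ≤ κ ∧
    ∑ i, bz π x r u z (ginv (fderiv ℝ u (r⁻¹ • π (z - x))) (e i)) (e i) = 0

section pointwise

variable {π : E →L[ℝ] F} {ρ : E →L[ℝ] W} {x : E} {r : ℝ} {u : F → W}
  {ι : Type} [Fintype ι] {e : OrthonormalBasis ι ℝ F} {κ : ℝ}

theorem MinAt.nonneg {z : E} (hz : MinAt e π x r u κ z) : 0 ≤ κ := by
  have h1 := norm_nonneg (bz π x r u z)
  exact le_trans h1 hz.1

theorem sig_bound (h : Fr π ρ) (hr : 0 < r) {z : E} (hz : MinAt e π x r u κ z)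
    {P : E →L[ℝ] E} (hP : IsPr P) (hm : tr P = Module.finrank ℝ F) (w : W) :
    |r⁻¹ * sig π (bz π x r u z) w P| ≤
      (Module.finrank ℝ F * κ / r) * ‖w‖ * √(2 * tau (nz π ρ x r u z) P) := by
  have h1 : |sig π (bz π x r u z) w P| ≤ Module.finrank ℝ F * (‖bz π x r u z‖ * ‖w‖ *
      √(2 * tau (nz π ρ x r u z) P)) :=
    sig_min h (fderiv ℝ u (r⁻¹ • π (z - x))) (bz π x r u z) w e hz.2 hP hm
  have h2 := hz.1
  rw [abs_mul, abs_of_pos (inv_pos.2 hr)]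
  calc r⁻¹ * |sig π (bz π x r u z) w P|
      ≤ r⁻¹ * (Module.finrank ℝ F * (κ * ‖w‖ * √(2 * tau (nz π ρ x r u z) P))) := by
        gcongr
        refine h1.trans ?_
        gcongr
    _ = _ := by ring

/-- the squared height is almost subharmonic, with the full tilt as a gain. -/
theorem tr_g0_ge (h : Fr π ρ) (hr : 0 < r) (hu : ContDiff ℝ 2 u) {z : E}
    (hz : MinAt e π x r u κ z) {P : E →L[ℝ] E} (hP : IsPr P) (hm : tr P = Module.finrank ℝ F) :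
    tau (nz π ρ x r u z) P - 2 * (Module.finrank ℝ F * κ / r) ^ 2 * ‖ht π ρ x r u z‖ ^ 2 ≤
      tr (fderiv ℝ (g0 π ρ x r u) z ∘L P) := by
  have h1 := sig_bound h hr hz hP hm (ht π ρ x r u z)
  rw [tr_g0 hr.ne' hu z hP]
  have h0 := tau_nonneg (nz π ρ x r u z) P
  have h2 : √(2 * tau (nz π ρ x r u z) P) ^ 2 = 2 * tau (nz π ρ x r u z) P :=
    Real.sq_sqrt (by positivity)
  set X := √(2 * tau (nz π ρ x r u z) P)
  set Y := ‖ht π ρ x r u z‖
  set c := (Module.finrank ℝ F * κ / r : ℝ)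
  have h3 := le_abs_self (r⁻¹ * sig π (bz π x r u z) (ht π ρ x r u z) P)
  nlinarith [sq_nonneg (X - 2 * (c * Y))]

theorem arith_g1 {M κ r s X Y T0 I0 N : ℝ} (hr : 0 < r) (hM0 : 0 ≤ M) (hMM : M ≤ M ^ 2)
    (hs : 0 ≤ s) (hN0 : 0 ≤ N) (hN : N ≤ s)
    (hsr : 64 * M * κ ^ 2 * s ^ 2 ≤ r ^ 2) (h4 : X ^ 2 - 2 * (M * κ / r) ^ 2 * Y ^ 2 ≤ T0)
    (h2 : |I0| ≤ Y * (X * s)) :
    0 ≤ (1 + 2 * M * κ ^ 2 / r ^ 2 * N ^ 2) * T0 + 8 * (2 * M * κ ^ 2 / r ^ 2) * I0 +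
      2 * (2 * M * κ ^ 2 / r ^ 2) * Y ^ 2 * M := by
  set a : ℝ := 2 * M * κ ^ 2 / r ^ 2 with ha
  set c2 : ℝ := (M * κ / r) ^ 2 with hc2
  have ha0 : 0 ≤ a := by rw [ha]; positivity
  have hc0 : 0 ≤ c2 := by rw [hc2]; positivity
  have has : a * s ^ 2 ≤ 1 / 32 := by
    rw [ha, div_mul_eq_mul_div, div_le_iff₀ (by positivity)]
    nlinarith
  have hac : 2 * a * M = 4 * c2 := by
    rw [ha, hc2]; field_simp; ring
  have hac2 : a / 2 ≤ c2 := by
    have e1 : a / 2 = M * (κ / r) ^ 2 := by rw [ha]; field_simp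
    have e2 : c2 = M ^ 2 * (κ / r) ^ 2 := by rw [hc2]; field_simp
    rw [e1, e2]
    gcongr
  have hp1 : 1 ≤ 1 + a * N ^ 2 := by nlinarith [mul_nonneg ha0 (sq_nonneg N)]
  have hp2 : 1 + a * N ^ 2 ≤ 33 / 32 := by
    have : a * N ^ 2 ≤ a * s ^ 2 := by gcongr
    linarith
  set p := 1 + a * N ^ 2
  have h5 : X ^ 2 - 33 / 16 * (c2 * Y ^ 2) ≤ p * T0 := by
    have e1 : p * (X ^ 2 - 2 * c2 * Y ^ 2) ≤ p * T0 := by
      have : 0 ≤ p := by linarith
      gcongr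
    have e2 : X ^ 2 ≤ p * X ^ 2 := by nlinarith [sq_nonneg X]
    have e3 : p * (c2 * Y ^ 2) ≤ 33 / 32 * (c2 * Y ^ 2) := by gcongr
    nlinarith
  have h6 : -(X ^ 2) - c2 * Y ^ 2 ≤ 8 * a * I0 := by
    have e1 := neg_abs_le I0
    have e2 : 8 * a * -(Y * (X * s)) ≤ 8 * a * I0 := by
      gcongr
      linarith
    have e3 : 16 * a ^ 2 * s ^ 2 * Y ^ 2 ≤ c2 * Y ^ 2 := by
      have : 16 * a ^ 2 * s ^ 2 ≤ c2 := by
        have e4 : 16 * a * (a * s ^ 2) ≤ 16 * a * (1 / 32) := by gcongr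
        nlinarith
      gcongr
    nlinarith [sq_nonneg (X - 4 * a * s * Y)]
  have h7 : 2 * a * Y ^ 2 * M = 4 * (c2 * Y ^ 2) := by
    calc 2 * a * Y ^ 2 * M = (2 * a * M) * Y ^ 2 := by ring
      _ = _ := by rw [hac]; ring
  rw [h7]
  nlinarith [mul_nonneg hc0 (sq_nonneg Y)]

theorem tr_g1_nonneg (h : Fr π ρ) (hr : 0 < r) (hu : ContDiff ℝ 2 u) {z z0 : E}
    (hz : MinAt e π x r u κ z) {P : E →L[ℝ] E} (hP : IsPr P) (hm : tr P = Module.finrank ℝ F)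
    {s : ℝ} (hs : ‖z - z0‖ ≤ s) (hsr : 64 * Module.finrank ℝ F * κ ^ 2 * s ^ 2 ≤ r ^ 2) :
    0 ≤ tr (fderiv ℝ (g1 π ρ x r u (2 * Module.finrank ℝ F * κ ^ 2 / r ^ 2) z0) z ∘L P) := by
  have h1 := tr_g0_ge h hr hu hz hP hm
  rw [tr_g0 hr.ne' hu z hP] at h1
  rw [tr_g1 hr.ne' hu _ z0 z hP, hm]
  have h2 : |⟪ht π ρ x r u z, nz π ρ x r u z (P (z - z0))⟫_ℝ| ≤
      ‖ht π ρ x r u z‖ * (√(tau (nz π ρ x r u z) P) * s) := by
    refine (abs_real_inner_le_norm _ _).trans ?_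
    gcongr
    exact (norm_np_le _ _ _).trans (by gcongr)
  have h3 := Real.sq_sqrt (tau_nonneg (nz π ρ x r u z) P)
  have hMM : (Module.finrank ℝ F : ℝ) ≤ (Module.finrank ℝ F : ℝ) ^ 2 := by
    have : (Module.finrank ℝ F) ≤ (Module.finrank ℝ F) ^ 2 := Nat.le_self_pow two_ne_zero _
    exact_mod_cast this
  rw [← h3] at h1
  have h5 := arith_g1 hr (Nat.cast_nonneg _) hMM ((norm_nonneg _).trans hs) (norm_nonneg _) hs hsr
    h1 h2
  rw [h3] at h5
  exact h5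

theorem g0_pair_le {P : E →L[ℝ] E} (hP : IsPr P) (z : E) (l : E →L[ℝ] ℝ) :
    |l (P (g0 π ρ x r u z))| ≤ 2 * (‖l‖ * (√(tau (nz π ρ x r u z) P) * ‖ht π ρ x r u z‖)) := by
  have h1 : l (P (g0 π ρ x r u z)) =
      2 * l (P (ContinuousLinearMap.adjoint (nz π ρ x r u z) (ht π ρ x r u z))) := by
    simp [g0]
  rw [h1, abs_mul, abs_of_pos (by norm_num : (0:ℝ) < 2)]
  gcongr
  rw [← Real.norm_eq_abs]
  refine (l.le_opNorm _).trans ?_
  gcongr
  exact norm_p_adj_le _ hP _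

end pointwise

section integral

variable [MeasurableSpace E] [BorelSpace E]
  {π : E →L[ℝ] F} {ρ : E →L[ℝ] W} {x : E} {r : ℝ} {u : F → W}
  {ι : Type} [Fintype ι] {e : OrthonormalBasis ι ℝ F} {κ : ℝ}
  {U : Set E} {V : Measure (E × (E →L[ℝ] E))} {m : ℕ}

/-- **height bound over a minimal graph**, weighted form. -/
theorem height_graph_ps (hV : St U V) (hm : ∀ᵐ z ∂V, tr z.2 = m) (hF : Module.finrank ℝ F = m)
    (h : Fr π ρ) (hr : 0 < r) (hu : ContDiff ℝ 2 u) {z0 : E} {s : ℝ} (hs : 0 < s)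
    (hU : closedBall z0 s ⊆ U)
    (hz : ∀ᵐ z ∂V, z.1 ∈ ball z0 s → MinAt e π x r u κ z.1)
    (hsr : 64 * m * κ ^ 2 * s ^ 2 ≤ r ^ 2) {θ : ℝ} (hθ : 0 ≤ θ)
    (hdens : ∃ᶠ t in 𝓝[>] (0 : ℝ), θ * t ^ m ≤ (V (Prod.fst ⁻¹' ball z0 t)).toReal) :
    θ * ‖ht π ρ x r u z0‖ ^ 2 ≤ (s ^ m)⁻¹ *
      ∫ z in Prod.fst ⁻¹' ball z0 s, ps (2 * m * κ ^ 2 / r ^ 2) z0 z.1 * ‖ht π ρ x r u z.1‖ ^ 2 ∂V := by
  have h1 := hV.mean_value (m := m) (x₀ := z0) (R := s)
    (f := fun z => ps (2 * m * κ ^ 2 / r ^ 2) z0 z * ‖ht π ρ x r u z‖ ^ 2)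
    (G := g1 π ρ x r u (2 * m * κ ^ 2 / r ^ 2) z0) hm hs hU
    (fun z => hasFDerivAt_h hr.ne' hu _ z0 z) (contDiff_g1 hu _ _) ?_ ?_ hθ hdens
  · have h2 : ps (2 * m * κ ^ 2 / r ^ 2) z0 z0 = 1 := by simp [ps]
    simpa only [h2, one_mul] using h1
  · refine Eventually.of_forall fun z _ => ?_
    have : 0 ≤ ps (2 * m * κ ^ 2 / r ^ 2) z0 z.1 := by unfold ps; positivity
    positivity
  · filter_upwards [hz, hm, hV.pr] with z hz hm hpr hzb
    subst hF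
    exact tr_g1_nonneg h hr hu (hz hzb) hpr hm (by
      rw [← dist_eq_norm]; exact (mem_ball.1 hzb).le) hsr

/-- continuous functions are integrable over balls -/
theorem integrableOn_ball (hV : St U V) {g : E → ℝ} (hg : Continuous g) {z0 : E} {s : ℝ}
    (hU : closedBall z0 s ⊆ U) :
    IntegrableOn (fun z : E × (E →L[ℝ] E) => g z.1) (Prod.fst ⁻¹' ball z0 s) V :=
  hV.integrableOn hU hg.continuousOn

/-- **height bound over a minimal graph** (sup by `L²`). -/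
theorem height_graph (hV : St U V) (hm : ∀ᵐ z ∂V, tr z.2 = m) (hF : Module.finrank ℝ F = m)
    (h : Fr π ρ) (hr : 0 < r) (hu : ContDiff ℝ 2 u) {z0 : E} {s : ℝ} (hs : 0 < s)
    (hU : closedBall z0 s ⊆ U)
    (hz : ∀ᵐ z ∂V, z.1 ∈ ball z0 s → MinAt e π x r u κ z.1)
    (hsr : 64 * m * κ ^ 2 * s ^ 2 ≤ r ^ 2) {θ : ℝ} (hθ : 0 ≤ θ)
    (hdens : ∃ᶠ t in 𝓝[>] (0 : ℝ), θ * t ^ m ≤ (V (Prod.fst ⁻¹' ball z0 t)).toReal) :
    θ * ‖ht π ρ x r u z0‖ ^ 2 ≤ 33 / 32 * ((s ^ m)⁻¹ *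
      ∫ z in Prod.fst ⁻¹' ball z0 s, ‖ht π ρ x r u z.1‖ ^ 2 ∂V) := by
  refine (height_graph_ps hV hm hF h hr hu hs hU hz hsr hθ hdens).trans ?_
  have hc1 : Continuous fun z => ‖ht π ρ x r u z‖ ^ 2 := (contDiff_nsq hu).continuous
  have hc2 : Continuous fun z => ps (2 * m * κ ^ 2 / r ^ 2) z0 z * ‖ht π ρ x r u z‖ ^ 2 :=
    (contDiff_ps _ z0).continuous.mul hc1
  have h1 : ∫ z in Prod.fst ⁻¹' ball z0 s,
      ps (2 * m * κ ^ 2 / r ^ 2) z0 z.1 * ‖ht π ρ x r u z.1‖ ^ 2 ∂V ≤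
      ∫ z in Prod.fst ⁻¹' ball z0 s, 33 / 32 * ‖ht π ρ x r u z.1‖ ^ 2 ∂V := by
    refine setIntegral_mono_on (integrableOn_ball hV hc2 hU)
      ((integrableOn_ball hV hc1 hU).const_mul _) (measurable_fst measurableSet_ball) ?_
    intro z hzb
    have e1 : ‖z.1 - z0‖ ≤ s := by
      rw [← dist_eq_norm]; exact (mem_ball.1 hzb).le
    have e2 : ps (2 * m * κ ^ 2 / r ^ 2) z0 z.1 ≤ 33 / 32 := by
      unfold ps
      have : 2 * m * κ ^ 2 / r ^ 2 * ‖z.1 - z0‖ ^ 2 ≤ 2 * m * κ ^ 2 / r ^ 2 * s ^ 2 := by gcongr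
      have e3 : 2 * m * κ ^ 2 / r ^ 2 * s ^ 2 ≤ 1 / 32 := by
        rw [div_mul_eq_mul_div, div_le_iff₀ (by positivity)]
        nlinarith
      linarith
    gcongr
  rw [integral_const_mul] at h1
  calc _ ≤ (s ^ m)⁻¹ * (33 / 32 * ∫ z in Prod.fst ⁻¹' ball z0 s, ‖ht π ρ x r u z.1‖ ^ 2 ∂V) := by
        gcongr
    _ = _ := by ring

/-- **first variation of the squared height** over any `C²` graph. -/
theorem ident_g0 (hV : St U V) (hr : 0 < r) (hu : ContDiff ℝ 2 u) {ζ : E → ℝ}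
    (hζ : ContDiff ℝ 1 ζ) (hc : HasCompactSupport ζ) (hs : tsupport ζ ⊆ U) :
    ∫ z, ζ z.1 * tr (fderiv ℝ (g0 π ρ x r u) z.1 ∘L z.2) ∂V =
      - ∫ z, fderiv ℝ ζ z.1 (z.2 (g0 π ρ x r u z.1)) ∂V := by
  have hg := contDiff_g0 (π := π) (ρ := ρ) (x := x) (r := r) hu
  have h1 := hV.st (fun x' => ζ x' • g0 π ρ x r u x') (hζ.smul hg) hc.smul_right
    ((tsupport_smul_subset_left _ _).trans hs)
  have hd : ∀ z : E × (E →L[ℝ] E), tr (fderiv ℝ (fun x' => ζ x' • g0 π ρ x r u x') z.1 ∘L z.2) =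
      fderiv ℝ ζ z.1 (z.2 (g0 π ρ x r u z.1)) +
        ζ z.1 * tr (fderiv ℝ (g0 π ρ x r u) z.1 ∘L z.2) := by
    intro z
    have e1 : HasFDerivAt ζ (fderiv ℝ ζ z.1) z.1 :=
      (hζ.differentiable one_ne_zero z.1).hasFDerivAt
    have e2 : HasFDerivAt (g0 π ρ x r u) (fderiv ℝ (g0 π ρ x r u) z.1) z.1 :=
      (hg.differentiable one_ne_zero z.1).hasFDerivAt
    have e3 : HasFDerivAt (fun x' => ζ x' • g0 π ρ x r u x') _ z.1 := e1.smul e2
    rw [e3.fderiv, ContinuousLinearMap.add_comp, Cacc_113.tr_add,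
      Cacc_113.tr_smulRight_comp, ContinuousLinearMap.smul_comp, Cacc_113.tr_smul]
    ring
  have hi1 : Integrable (fun z : E × (E →L[ℝ] E) =>
      fderiv ℝ ζ z.1 (z.2 (g0 π ρ x r u z.1))) V := by
    refine hV.integrable ?_ hc.isCompact hs ?_
    · exact ((hζ.continuous_fderiv one_ne_zero).comp continuous_fst).clm_apply
        (continuous_snd.clm_apply (hg.continuous.comp continuous_fst))
    · intro z hz
      have : fderiv ℝ ζ z.1 = 0 := by
        by_contra hcon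
        exact hz (support_fderiv_subset ℝ hcon)
      rw [this]; simp
  have hi2 : Integrable (fun z : E × (E →L[ℝ] E) =>
      ζ z.1 * tr (fderiv ℝ (g0 π ρ x r u) z.1 ∘L z.2)) V := by
    refine hV.integrable ?_ hc.isCompact hs ?_
    · refine (hζ.continuous.comp continuous_fst).mul (Cacc_113.continuous_tr.comp ?_)
      exact ((hg.continuous_fderiv one_ne_zero).comp continuous_fst).clm_comp continuous_snd
    · intro z hz
      rw [image_eq_zero_of_notMem_tsupport hz, zero_mul]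
  simp_rw [hd] at h1
  rw [integral_add hi1 hi2] at h1
  linarith

/-- **energy inequality over a minimal graph**. -/
theorem cacc_graph (hV : St U V) (hm : ∀ᵐ z ∂V, tr z.2 = m) (hF : Module.finrank ℝ F = m)
    (h : Fr π ρ) (hr : 0 < r) (hu : ContDiff ℝ 2 u) {φ : E → ℝ} (hφ : ContDiff ℝ 1 φ)
    (hc : HasCompactSupport φ) (hs : tsupport φ ⊆ U)
    (hz : ∀ᵐ z ∂V, z.1 ∈ tsupport φ → MinAt e π x r u κ z.1) :
    ∫ z, φ z.1 ^ 2 * tau (nz π ρ x r u z.1) z.2 ∂V ≤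
      16 * ∫ z, ‖fderiv ℝ φ z.1‖ ^ 2 * ‖ht π ρ x r u z.1‖ ^ 2 ∂V +
      4 * (m * κ / r) ^ 2 * ∫ z, φ z.1 ^ 2 * ‖ht π ρ x r u z.1‖ ^ 2 ∂V := by
  have hφ2 : ContDiff ℝ 1 (fun x => φ x ^ 2) := hφ.pow 2
  have hts : tsupport (fun x => φ x ^ 2) ⊆ tsupport φ := by
    have : (fun x => φ x ^ 2) = fun x => φ x • φ x := by funext x; simp [sq]
    rw [this]
    exact tsupport_smul_subset_left _ _
  have hcφ : HasCompactSupport (fun x => φ x ^ 2) := by
    have : (fun x => φ x ^ 2) = fun x => φ x • φ x := by funext x; simp [sq]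
    rw [this]
    exact hc.smul_right
  have hid := ident_g0 (π := π) (ρ := ρ) (x := x) hV hr hu hφ2 hcφ (hts.trans hs)
  have hder : ∀ x, fderiv ℝ (fun x => φ x ^ 2) x = (2 * φ x) • fderiv ℝ φ x := by
    intro x
    have h2 : HasFDerivAt φ (fderiv ℝ φ x) x := (hφ.differentiable one_ne_zero x).hasFDerivAt
    rw [(h2.pow 2).fderiv]
    simp
  simp_rw [hder, smul_apply, smul_eq_mul] at hid
  have hfd0 : ∀ z : E × (E →L[ℝ] E), z.1 ∉ tsupport φ → fderiv ℝ φ z.1 = 0 := by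
    intro z hz
    by_contra hcon
    exact hz (support_fderiv_subset ℝ hcon)
  have hcf : Continuous (fderiv ℝ φ) := hφ.continuous_fderiv one_ne_zero
  have hg := contDiff_g0 (π := π) (ρ := ρ) (x := x) (r := r) hu
  have hcn : Continuous fun z => ‖ht π ρ x r u z‖ ^ 2 := (contDiff_nsq hu).continuous
  have hcnz : Continuous (nz π ρ x r u) := (contDiff_nz hu).continuous
  have hctau : Continuous fun z : E × (E →L[ℝ] E) => tau (nz π ρ x r u z.1) z.2 := by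
    unfold tau
    refine continuous_finsetSum _ fun j _ => ?_
    exact (((hcnz.comp continuous_fst).clm_apply
      (continuous_snd.clm_apply continuous_const)).norm.pow 2)
  have hiA : Integrable (fun z : E × (E →L[ℝ] E) =>
      φ z.1 ^ 2 * tau (nz π ρ x r u z.1) z.2) V := by
    refine hV.integrable (((hφ.continuous.comp continuous_fst).pow 2).mul hctau)
      hc.isCompact hs ?_
    intro z hz
    rw [image_eq_zero_of_notMem_tsupport hz]; simp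
  have hiB : Integrable (fun z : E × (E →L[ℝ] E) =>
      φ z.1 ^ 2 * ‖ht π ρ x r u z.1‖ ^ 2) V := by
    refine hV.integrable (((hφ.continuous.comp continuous_fst).pow 2).mul
      (hcn.comp continuous_fst)) hc.isCompact hs ?_
    intro z hz
    rw [image_eq_zero_of_notMem_tsupport hz]; simp
  have hiC : Integrable (fun z : E × (E →L[ℝ] E) =>
      ‖fderiv ℝ φ z.1‖ ^ 2 * ‖ht π ρ x r u z.1‖ ^ 2) V := by
    refine hV.integrable (((hcf.comp continuous_fst).norm.pow 2).mul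
      (hcn.comp continuous_fst)) hc.isCompact hs ?_
    intro z hz
    rw [hfd0 z hz]; simp
  have hiD : Integrable (fun z : E × (E →L[ℝ] E) =>
      2 * φ z.1 * fderiv ℝ φ z.1 (z.2 (g0 π ρ x r u z.1))) V := by
    refine hV.integrable ((continuous_const.mul (hφ.continuous.comp continuous_fst)).mul
      ((hcf.comp continuous_fst).clm_apply (continuous_snd.clm_apply
        (hg.continuous.comp continuous_fst)))) hc.isCompact hs ?_
    intro z hz
    rw [hfd0 z hz]; simp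
  have hiE : Integrable (fun z : E × (E →L[ℝ] E) =>
      φ z.1 ^ 2 * tr (fderiv ℝ (g0 π ρ x r u) z.1 ∘L z.2)) V := by
    refine hV.integrable ?_ hc.isCompact hs ?_
    · refine ((hφ.continuous.comp continuous_fst).pow 2).mul (Cacc_113.continuous_tr.comp ?_)
      exact ((hg.continuous_fderiv one_ne_zero).comp continuous_fst).clm_comp continuous_snd
    · intro z hz
      rw [image_eq_zero_of_notMem_tsupport hz]; simp
  have hle : ∫ z, (φ z.1 ^ 2 * tau (nz π ρ x r u z.1) z.2 -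
      2 * (m * κ / r) ^ 2 * (φ z.1 ^ 2 * ‖ht π ρ x r u z.1‖ ^ 2)) ∂V ≤
      ∫ z, φ z.1 ^ 2 * tr (fderiv ℝ (g0 π ρ x r u) z.1 ∘L z.2) ∂V := by
    refine integral_mono_ae (hiA.sub (hiB.const_mul _)) hiE ?_
    filter_upwards [hz, hm, hV.pr] with z hz hm hpr
    by_cases hzφ : z.1 ∈ tsupport φ
    · subst hF
      have := tr_g0_ge h hr hu (hz hzφ) hpr hm
      have := mul_le_mul_of_nonneg_left this (sq_nonneg (φ z.1))
      linarith
    · simp [image_eq_zero_of_notMem_tsupport hzφ]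
  have hle2 : - ∫ z, 2 * φ z.1 * fderiv ℝ φ z.1 (z.2 (g0 π ρ x r u z.1)) ∂V ≤
      ∫ z, (1 / 2 * (φ z.1 ^ 2 * tau (nz π ρ x r u z.1) z.2) +
        8 * (‖fderiv ℝ φ z.1‖ ^ 2 * ‖ht π ρ x r u z.1‖ ^ 2)) ∂V := by
    rw [← integral_neg]
    refine integral_mono_ae hiD.neg ((hiA.const_mul _).add (hiC.const_mul _)) ?_
    filter_upwards [hV.pr] with z hpr
    have e1 := g0_pair_le (π := π) (ρ := ρ) (x := x) (r := r) (u := u) hpr z.1 (fderiv ℝ φ z.1)
    have e2 := Real.sq_sqrt (tau_nonneg (nz π ρ x r u z.1) z.2)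
    set X := √(tau (nz π ρ x r u z.1) z.2)
    set Y := ‖ht π ρ x r u z.1‖
    set L := fderiv ℝ φ z.1 (z.2 (g0 π ρ x r u z.1))
    set D := ‖fderiv ℝ φ z.1‖
    have e3 : -(2 * φ z.1 * L) ≤ 2 * |φ z.1| * (2 * (D * (X * Y))) := by
      calc -(2 * φ z.1 * L) ≤ |2 * φ z.1 * L| := neg_le_abs _
        _ = 2 * |φ z.1| * |L| := by rw [abs_mul, abs_mul]; simp
        _ ≤ _ := by gcongr
    refine e3.trans ?_
    rw [← e2, ← sq_abs (φ z.1)]
    nlinarith [sq_nonneg (|φ z.1| * X - 4 * (D * Y))]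
  rw [integral_sub hiA (hiB.const_mul _), integral_const_mul] at hle
  rw [integral_add (hiA.const_mul _) (hiC.const_mul _), integral_const_mul,
    integral_const_mul] at hle2
  rw [hid] at hle
  linarith

end integral

end

end Crest.Agent.R234.Supm_685
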