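import Crest.Agent.R234.Sw9_733
import Crest.Agent.R234.Main2_456

/-! # Row 234, VF-F6 (helper733), part 10: the switch of the reference, varifold level,
in foot coordinates -/

set_option autoImplicit false
set_option linter.unusedSectionVars false

open MeasureTheory Set Metric Filter Topology
open scoped ENNReal NNReal ContDiff InnerProductSpace
open Crest.GeometryTopology.Submanifold
open Crest.Agent.R234.Ell1_3 Crest.Agent.R234.Fm_209 Crest.Agent.R234.Cy_870 Crest.Agent.R234.Vf_884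
open Crest.Agent.R234.Main_456 (Frame)

noncomputable section

namespace Crest.Agent.R234.Sw_733

variable {m n k : ℕ}

local notation "adj" => ContinuousLinearMap.adjoint

/-! ### the height integral, general kernels -/

section Height

variable {F V : Type} [NormedAddCommGroup F] [InnerProductSpace ℝ F] [FiniteDimensional ℝ F]
  [NormedAddCommGroup V] [InnerProductSpace ℝ V] [FiniteDimensional ℝ V]
  [MeasurableSpace F] [BorelSpace F]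

theorem Cl.J_pt {u u' : F → V} {D : Set F} {κ τ : ℝ} (h : Cl u u' D κ τ)
    {a : F} {b : V} {x x' : F} {y y' : V}
    (hf1 : Foot u a b x y) (hf1' : Foot u' a b x' y') (hx : x ∈ D) (hx' : x' ∈ D)
    (hy : ‖y‖ ≤ 1 / 4) {Ψ Ψ' : F → ℝ} {e : ℝ} (he : 0 ≤ e)
    (M0' : ∀ v ∈ D, |Ψ' v| ≤ e) (M1 : ∀ v ∈ D, |Ψ' v - Ψ v| ≤ e * τ)
    (M2 : ∀ v ∈ D, ∀ v' ∈ D, |Ψ v' - Ψ v| ≤ e * ‖v' - v‖) :
    |hf (fderiv ℝ u' x') y' * Ψ' x' - hf (fderiv ℝ u x) y * Ψ x| ≤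
      4 * e * (τ * ‖y‖ + τ ^ 2) := by
  obtain ⟨n1, n2, n3⟩ := h.foot_close hf1 hf1' hx hx' hy
  have h1 := h.hf_pt hf1 hf1' hx hx' hy
  have hτ0 := h.τ0
  have hy0 := norm_nonneg y
  have h2 : hf (fderiv ℝ u x) y ≤ 1 / 4 * ‖y‖ := (hf_le ((h.d1 x hx).trans h.κ1) y).trans (by
    rw [sq]; exact mul_le_mul_of_nonneg_right hy hy0)
  have h3 := hf_nonneg (fderiv ℝ u x) y
  set f := hf (fderiv ℝ u x) y
  set f' := hf (fderiv ℝ u' x') y'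
  have e1 : f' * Ψ' x' - f * Ψ x = (f' - f) * Ψ' x' + f * ((Ψ' x' - Ψ x') + (Ψ x' - Ψ x)) := by
    ring
  have p1 : |(f' - f) * Ψ' x'| ≤ (3 * (τ * ‖y‖ + τ ^ 2)) * e := by
    rw [abs_mul]
    exact mul_le_mul h1 (M0' x' hx') (abs_nonneg _) (by positivity)
  have p2 : |f * ((Ψ' x' - Ψ x') + (Ψ x' - Ψ x))| ≤ (1 / 4 * ‖y‖) * (e * τ + e * τ) := by
    rw [abs_mul, abs_of_nonneg h3]
    refine mul_le_mul h2 ?_ (abs_nonneg _) (by positivity)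
    exact (abs_add_le _ _).trans (add_le_add (M1 x' hx') ((M2 x hx x' hx').trans
      (mul_le_mul_of_nonneg_left n1 he)))
  rw [e1]
  have t1 := abs_add_le ((f' - f) * Ψ' x') (f * ((Ψ' x' - Ψ x') + (Ψ x' - Ψ x)))
  have s1 : 0 ≤ e * (τ * ‖y‖) := by positivity
  have s2 : 0 ≤ e * τ ^ 2 := by positivity
  nlinarith

theorem Cl.J_switch {Ω : Type*} [MeasurableSpace Ω] {μ : Measure Ω} [IsFiniteMeasure μ]
    {u u' : F → V} {D S : Set F} {κ τ : ℝ} (h : Cl u u' D κ τ) {a : Ω → F} {b : Ω → V}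
    {x x' : Ω → F} {y y' : Ω → V} {R : Set Ω} (hs : Sit μ u u' D S a b x x' y y' R)
    {Ψ Ψ' : F → ℝ} {e : ℝ} (he : 0 ≤ e) (hψ : ∀ v ∉ S, Ψ v = 0) (hψ' : ∀ v ∉ S, Ψ' v = 0)
    (M0' : ∀ v ∈ D, |Ψ' v| ≤ e) (M1 : ∀ v ∈ D, |Ψ' v - Ψ v| ≤ e * τ)
    (M2 : ∀ v ∈ D, ∀ v' ∈ D, |Ψ v' - Ψ v| ≤ e * ‖v' - v‖)
    {f f' : Ω → ℝ}
    (hf1 : ∀ᵐ p ∂μ, p ∈ R → f p = hf (fderiv ℝ u (x p)) (y p))
    (hf1' : ∀ᵐ p ∂μ, p ∈ R → f' p = hf (fderiv ℝ u' (x' p)) (y' p))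
    (hi : Integrable (fun p => f p * Ψ (x p)) μ)
    (hi' : Integrable (fun p => f' p * Ψ' (x' p)) μ)
    (hyi : IntegrableOn (fun p => ‖y p‖) R μ) :
    |∫ p, f' p * Ψ' (x' p) ∂μ - ∫ p, f p * Ψ (x p) ∂μ| ≤
      4 * e * (τ * ∫ p in R, ‖y p‖ ∂μ + τ ^ 2 * μ.real R) := by
  rw [← integral_sub hi' hi]
  have e2 : ∫ p, (f' p * Ψ' (x' p) - f p * Ψ (x p)) ∂μ =
      ∫ p in R, (f' p * Ψ' (x' p) - f p * Ψ (x p)) ∂μ := by
    rw [← integral_indicator hs.mR]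
    refine integral_congr_ae ?_
    filter_upwards [hs.out] with p hp
    by_cases hR : p ∈ R
    · rw [indicator_of_mem hR]
    · rw [indicator_of_notMem hR]
      obtain ⟨h1, h2, h3⟩ := hp hR
      rw [hψ _ h1, hψ' _ h2]
      simp
  have e3 : 4 * e * (τ * ∫ p in R, ‖y p‖ ∂μ + τ ^ 2 * μ.real R) =
      ∫ p in R, 4 * e * (τ * ‖y p‖ + τ ^ 2) ∂μ := by
    rw [integral_const_mul, integral_add (hyi.const_mul τ) (integrable_const _),
      integral_const_mul, setIntegral_const, smul_eq_mul, mul_comm (μ.real R)]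
  rw [e2, e3, ← Real.norm_eq_abs]
  refine norm_integral_le_of_norm_le ?_ ?_
  · exact ((hyi.const_mul τ).add (integrable_const _)).const_mul _
  · rw [ae_restrict_iff' hs.mR]
    filter_upwards [hs.inn, hf1, hf1'] with p hp g1 g1' hR
    obtain ⟨h1, h2, h3, h4, h5, h6⟩ := hp hR
    rw [Real.norm_eq_abs, g1 hR, g1' hR]
    exact h.J_pt h1 h2 h4 h5 h6 he M0' M1 M2

/-- Cauchy-Schwarz for a set integral. -/
theorem setIntegral_le_sqrt {Ω : Type*} [MeasurableSpace Ω] {μ : Measure Ω} [IsFiniteMeasure μ]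
    {R : Set Ω} {f : Ω → ℝ} (hf : IntegrableOn f R μ) (hf2 : IntegrableOn (fun p => f p ^ 2) R μ)
    {T Λ : ℝ} (hT : ∫ p in R, f p ^ 2 ∂μ ≤ T) (hR : μ.real R ≤ Λ) (hΛ : 1 ≤ Λ) :
    ∫ p in R, f p ∂μ ≤ Λ * Real.sqrt T := by
  have hΛ0 : 0 < Λ := by linarith
  have h0 : 0 ≤ ∫ p in R, f p ^ 2 ∂μ := integral_nonneg fun p => sq_nonneg _
  have hT0 : 0 ≤ T := h0.trans hT
  set s := Real.sqrt T with hs
  have hs0 : 0 ≤ s := Real.sqrt_nonneg _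
  have hss : s * s = T := Real.mul_self_sqrt hT0
  rcases eq_or_lt_of_le hs0 with hs1 | hs1
  · -- `T = 0`
    have hT00 : T = 0 := by rw [← hss, ← hs1]; ring
    have h1 : ∫ p in R, f p ^ 2 ∂μ = 0 := le_antisymm (by linarith) h0
    have h2 := (integral_eq_zero_iff_of_nonneg (fun p => sq_nonneg (f p)) hf2).1 h1
    have h3 : ∫ p in R, f p ∂μ = 0 := by
      rw [← integral_zero Ω ℝ (μ := μ.restrict R)]
      refine integral_congr_ae ?_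
      filter_upwards [h2] with p hp
      have : f p ^ 2 = 0 := hp
      exact pow_eq_zero_iff (two_ne_zero) |>.1 this
    rw [h3]; positivity
  · -- `2 f ≤ f² / s + s`
    have h1 : ∫ p in R, f p ∂μ ≤ ∫ p in R, ((2 * s)⁻¹ * f p ^ 2 + s / 2) ∂μ := by
      refine integral_mono hf ((hf2.const_mul _).add (integrable_const _)) fun p => ?_
      have : 0 ≤ (f p - s) ^ 2 := sq_nonneg _
      have h2 : f p * (2 * s) ≤ f p ^ 2 + s ^ 2 := by nlinarith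
      have h3 : (2 * s)⁻¹ * f p ^ 2 + s / 2 = (f p ^ 2 + s ^ 2) / (2 * s) := by
        field_simp
      change f p ≤ (2 * s)⁻¹ * f p ^ 2 + s / 2
      rw [h3, le_div_iff₀ (by positivity)]
      exact h2
    rw [integral_add (hf2.const_mul _) (integrable_const _), integral_const_mul,
      setIntegral_const, smul_eq_mul] at h1
    have h4 : (2 * s)⁻¹ * ∫ p in R, f p ^ 2 ∂μ ≤ s / 2 := by
      calc (2 * s)⁻¹ * ∫ p in R, f p ^ 2 ∂μ ≤ (2 * s)⁻¹ * T :=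
            mul_le_mul_of_nonneg_left hT (by positivity)
        _ = s / 2 := by rw [← hss]; field_simp
    have h5 : μ.real R * (s / 2) ≤ Λ * (s / 2) := mul_le_mul_of_nonneg_right hR (by positivity)
    nlinarith

end Height

/-! ### varifold level -/

/-- `E` in foot coordinates. -/
def Ef (V : Measure (Euc k × L k)) (X : Euc k → Euc m) (u : Euc m → Euc n) (g : ℝ → ℝ)
    (X₀ : Euc m) (Q l : ℝ) : ℝ :=
  Real.exp ((2 - m) * l) * (∫ p, radq g l (fderiv ℝ u X₀) X₀ (X p.1) ∂V -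
    Q * ∫ v, radq g l (fderiv ℝ u X₀) X₀ v * dns (fderiv ℝ u v))

/-- `I` in foot coordinates. -/
def If (V : Measure (Euc k × L k)) (X : Euc k → Euc m) (Y : Euc k → Euc n) (u : Euc m → Euc n)
    (g1 : ℝ → ℝ) (X₀ : Euc m) (l : ℝ) : ℝ :=
  Real.exp (-m * l) * ∫ p, hf (fderiv ℝ u (X p.1)) (Y p.1) *
    (mq (fderiv ℝ u X₀) (fderiv ℝ u (X p.1)) (X p.1 - X₀) *
      (-4 * radq g1 l (fderiv ℝ u X₀) X₀ (X p.1))) ∂V

/-- the region of integration. -/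
def Rg (π : Euc k →L[ℝ] Euc m) (x₀ : Euc k) (X₀ : Euc m) (t : ℝ) : Set (Euc k × L k) :=
  {p | ‖π (p.1 - x₀) - X₀‖ < t}

theorem measurableSet_Rg (π : Euc k →L[ℝ] Euc m) (x₀ : Euc k) (X₀ : Euc m) (t : ℝ) :
    MeasurableSet (Rg π x₀ X₀ t) := by
  have : IsOpen (Rg π x₀ X₀ t) := isOpen_lt (by fun_prop) continuous_const
  exact this.measurableSet

/-- **the data of a switch at scale `e^l`**: `h` = height bound, `T` = tilt, `B` = total variation of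
`X_# V - Q · area`, all relative to the old reference `u`; `τ` = distance of the references. -/
structure SD (V : Measure (Euc k × L k)) (π : Euc k →L[ℝ] Euc m) (ρ : Euc k →L[ℝ] Euc n)
    (x₀ : Euc k) (u u' : Euc m → Euc n) (X X' : Euc k → Euc m) (Y Y' : Euc k → Euc n) (X₀ : Euc m)
    (t : Euc k × L k → ℝ) (Q l κ τ ε h T B Λ : ℝ) : Prop where
  fr : Frame π ρ
  fin : V univ ≤ ENNReal.ofReal Λ
  L1 : 1 ≤ Λ
  hQ : |Q| ≤ Λ
  pl : ∀ᵐ p ∂V, p.2 ∈ G m k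
  cl : Cl u u' (ball X₀ (Real.exp l + ε)) κ τ
  eps : 0 < ε
  mX : AEMeasurable (fun p => X p.1) V
  mX' : AEMeasurable (fun p => X' p.1) V
  foot : ∀ᵐ p ∂V, Foot u (π (p.1 - x₀)) (ρ (p.1 - x₀)) (X p.1) (Y p.1)
  foot' : ∀ᵐ p ∂V, Foot u' (π (p.1 - x₀)) (ρ (p.1 - x₀)) (X' p.1) (Y' p.1)
  near : ∀ᵐ p ∂V, ‖X p.1 - π (p.1 - x₀)‖ ≤ ε / 4
  near' : ∀ᵐ p ∂V, ‖X' p.1 - π (p.1 - x₀)‖ ≤ ε / 4
  hh : ∀ᵐ p ∂V, p ∈ Rg π x₀ X₀ (Real.exp l + ε / 2) → ‖Y p.1‖ ≤ h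
  h4 : h ≤ 1 / 4
  st : ∀ Z : Euc k → Euc k, ContDiff ℝ 1 Z →
    (∀ z, Real.exp l ≤ ‖π (z - x₀) - X₀‖ → Z z = 0) → FV V Z = 0
  tl : ∀ᵐ p ∂V, p ∈ Rg π x₀ X₀ (Real.exp l + ε / 2) →
    ‖π ∘L p.2 ∘L adj ρ - KT (fderiv ℝ u (X p.1))‖ ^ 2 ≤ 2 * t p
  ti : IntegrableOn t (Rg π x₀ X₀ (Real.exp l + ε / 2)) V
  tT : ∫ p in Rg π x₀ X₀ (Real.exp l + ε / 2), t p ∂V ≤ T
  tv : ∀ (f : Euc m → ℝ) (s : ℝ), Continuous f → (∀ v, |f v| ≤ s) →
    (∀ v, Real.exp l ≤ ‖v - X₀‖ → f v = 0) →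
    |∫ p, f (X p.1) ∂V - Q * ∫ v, f v * dns (fderiv ℝ u v)| ≤ s * B

variable {V : Measure (Euc k × L k)} {π : Euc k →L[ℝ] Euc m} {ρ : Euc k →L[ℝ] Euc n}
  {x₀ : Euc k} {u u' : Euc m → Euc n} {X X' : Euc k → Euc m} {Y Y' : Euc k → Euc n} {X₀ : Euc m}
  {t : Euc k × L k → ℝ} {Q l κ τ ε h T B Λ : ℝ}

theorem norm_co_le {A : Euc k →L[ℝ] Euc m} (h : Ar_870.IsCo A) : ‖A‖ ≤ 1 := by
  refine ContinuousLinearMap.opNorm_le_bound _ zero_le_one fun v => ?_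
  have h1 : ⟪A v, A v⟫_ℝ = ⟪v, adj A (A v)⟫_ℝ := by
    rw [ContinuousLinearMap.adjoint_inner_right]
  have h2 : ‖adj A (A v)‖ = ‖A v‖ := by
    have e1 : ‖adj A (A v)‖ ^ 2 = ‖A v‖ ^ 2 := by
      rw [← real_inner_self_eq_norm_sq, ContinuousLinearMap.adjoint_inner_right,
        ← real_inner_self_eq_norm_sq]
      congr 1
      exact congrArg (fun T : Euc m →L[ℝ] Euc m => T (A v)) h
    exact (sq_eq_sq₀ (norm_nonneg _) (norm_nonneg _)).1 e1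
  have h3 := real_inner_le_norm v (adj A (A v))
  rw [← h1, real_inner_self_eq_norm_sq, h2] at h3
  rw [one_mul]
  rcases eq_or_lt_of_le (norm_nonneg (A v)) with h4 | h4
  · rw [← h4]; exact norm_nonneg _
  · nlinarith

theorem norm_G_le {P : L k} (h : P ∈ G m k) : ‖P‖ ≤ 1 := by
  refine ContinuousLinearMap.opNorm_le_bound _ zero_le_one fun v => ?_
  have h1 : ⟪P v, P v⟫_ℝ = ⟪v, P v⟫_ℝ := by
    have h2 : adj P = P := h.2.1.adjoint_eq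
    calc ⟪P v, P v⟫_ℝ = ⟪v, adj P (P v)⟫_ℝ := by rw [ContinuousLinearMap.adjoint_inner_right]
      _ = ⟪v, P v⟫_ℝ := by rw [h2, G_idem_apply h]
  have h3 := real_inner_le_norm v (P v)
  rw [← h1, real_inner_self_eq_norm_sq] at h3
  rw [one_mul]
  rcases eq_or_lt_of_le (norm_nonneg (P v)) with h4 | h4
  · rw [← h4]; exact norm_nonneg _
  · nlinarith

/-- the block `π P ρᵀ`. -/
def Kb (π : Euc k →L[ℝ] Euc m) (ρ : Euc k →L[ℝ] Euc n) (P : L k) : Euc n →L[ℝ] Euc m :=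
  π ∘L P ∘L adj ρ

theorem norm_Kb_le (hf : Frame π ρ) {P : L k} (h : P ∈ G m k) : ‖Kb π ρ P‖ ≤ 1 := by
  refine (ContinuousLinearMap.opNorm_comp_le _ _).trans ?_
  have h1 := norm_co_le hf.coπ
  have h2 : ‖P ∘L adj ρ‖ ≤ 1 := by
    refine (ContinuousLinearMap.opNorm_comp_le _ _).trans ?_
    have h3 : ‖adj ρ‖ ≤ 1 := by rw [LinearIsometryEquiv.norm_map]; exact norm_co_le hf.coρ
    exact mul_le_one₀ (norm_G_le h) (norm_nonneg _) h3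
  exact mul_le_one₀ h1 (norm_nonneg _) h2

theorem continuous_Kb : Continuous (Kb π ρ) :=
  continuous_const.clm_comp (continuous_id.clm_comp continuous_const)

/-- the first variation of the comparison field. -/
theorem tr_cmp {ξ : Euc m → Euc n} {z : Euc k} (hξ : DifferentiableAt ℝ ξ (π (z - x₀))) (P : L k) :
    tr (fderiv ℝ (fun z => adj ρ (ξ (π (z - x₀)))) z ∘L P) =
      trc (Euc n) (fderiv ℝ ξ (π (z - x₀)) ∘L Kb π ρ P) := by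
  have h1 : HasFDerivAt (fun z : Euc k => π (z - x₀)) π z :=
    π.hasFDerivAt.comp z ((hasFDerivAt_id z).sub_const x₀)
  have h2 : HasFDerivAt (fun z => adj ρ (ξ (π (z - x₀))))
      (adj ρ ∘L (fderiv ℝ ξ (π (z - x₀)) ∘L π)) z :=
    (adj ρ).hasFDerivAt.comp z (hξ.hasFDerivAt.comp z h1)
  rw [h2.fderiv]
  have e1 : (adj ρ ∘L (fderiv ℝ ξ (π (z - x₀)) ∘L π)) ∘L P =
      adj ρ ∘L ((fderiv ℝ ξ (π (z - x₀)) ∘L π) ∘L P) := rfl
  rw [e1]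
  change trc (Euc k) _ = _
  rw [trc_comp_comm]
  rfl

end Crest.Agent.R234.Sw_733
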