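import Crest.Agent.R234.Sw10_733

/-! # Row 234, VF-F6 (helper733), part 11: **the switch of the reference**, in foot coordinates -/

set_option autoImplicit false
set_option linter.unusedSectionVars false

open MeasureTheory Set Metric Filter Topology
open scoped ENNReal NNReal ContDiff InnerProductSpace
open Crest.GeometryTopology.Submanifold
open Crest.Agent.R234.Ell1_3 Crest.Agent.R234.Fm_209 Crest.Agent.R234.Cy_870 Crest.Agent.R234.Vf_884
open Crest.Agent.R234.Main_456 (Frame)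

noncomputable section

namespace Crest.Agent.R234.Sw_733

variable {m n k : ℕ}

local notation "adj" => ContinuousLinearMap.adjoint

variable {V : Measure (Euc k × L k)} {π : Euc k →L[ℝ] Euc m} {ρ : Euc k →L[ℝ] Euc n}
  {x₀ : Euc k} {u u' : Euc m → Euc n} {X X' : Euc k → Euc m} {Y Y' : Euc k → Euc n} {X₀ : Euc m}
  {t : Euc k × L k → ℝ} {Q l κ τ ε h T B Λ : ℝ}

namespace SD

theorem isFin (H : SD V π ρ x₀ u u' X X' Y Y' X₀ t Q l κ τ ε h T B Λ) : IsFiniteMeasure V :=
  ⟨H.fin.trans_lt ENNReal.ofReal_lt_top⟩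

theorem X0D (H : SD V π ρ x₀ u u' X X' Y Y' X₀ t Q l κ τ ε h T B Λ) :
    X₀ ∈ ball X₀ (Real.exp l + ε) :=
  mem_ball_self (by have := Real.exp_pos l; have := H.eps; linarith)

theorem sit (H : SD V π ρ x₀ u u' X X' Y Y' X₀ t Q l κ τ ε h T B Λ) :
    Sit V u u' (ball X₀ (Real.exp l + ε)) (closedBall X₀ (Real.exp l))
      (fun p => π (p.1 - x₀)) (fun p => ρ (p.1 - x₀)) (fun p => X p.1) (fun p => X' p.1)
      (fun p => Y p.1) (fun p => Y' p.1) (Rg π x₀ X₀ (Real.exp l + ε / 2)) where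
  mx := H.mX
  mx' := H.mX'
  mR := measurableSet_Rg _ _ _ _
  SD := closedBall_subset_ball (by have := H.eps; linarith)
  cS := isCompact_closedBall _ _
  inn := by
    have he := H.eps
    filter_upwards [H.foot, H.foot', H.near, H.near', H.hh] with p h1 h2 h3 h4 h5 hR
    have hR' : ‖π (p.1 - x₀) - X₀‖ < Real.exp l + ε / 2 := hR
    refine ⟨h1, h2, ?_, ?_, ?_, (h5 hR).trans H.h4⟩
    · rw [mem_ball, dist_eq_norm]; linarith
    · rw [mem_ball, dist_eq_norm]
      have : X p.1 - X₀ = (X p.1 - π (p.1 - x₀)) + (π (p.1 - x₀) - X₀) := by abel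
      rw [this]
      refine (norm_add_le _ _).trans_lt ?_
      linarith
    · rw [mem_ball, dist_eq_norm]
      have : X' p.1 - X₀ = (X' p.1 - π (p.1 - x₀)) + (π (p.1 - x₀) - X₀) := by abel
      rw [this]
      refine (norm_add_le _ _).trans_lt ?_
      linarith
  out := by
    have he := H.eps
    filter_upwards [H.near, H.near'] with p h3 h4 hR
    have hR' : Real.exp l + ε / 2 ≤ ‖π (p.1 - x₀) - X₀‖ := not_lt.1 hR
    refine ⟨?_, ?_, ?_⟩
    · rw [mem_closedBall, dist_eq_norm, not_le]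
      have h5 : ‖π (p.1 - x₀) - X₀‖ ≤ ‖X p.1 - X₀‖ + ‖X p.1 - π (p.1 - x₀)‖ := by
        have : π (p.1 - x₀) - X₀ = (X p.1 - X₀) - (X p.1 - π (p.1 - x₀)) := by abel
        rw [this]; exact norm_sub_le _ _
      linarith
    · rw [mem_closedBall, dist_eq_norm, not_le]
      have h5 : ‖π (p.1 - x₀) - X₀‖ ≤ ‖X' p.1 - X₀‖ + ‖X' p.1 - π (p.1 - x₀)‖ := by
        have : π (p.1 - x₀) - X₀ = (X' p.1 - X₀) - (X' p.1 - π (p.1 - x₀)) := by abel
        rw [this]; exact norm_sub_le _ _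
      linarith
    · rw [mem_closedBall, dist_eq_norm, not_le]
      linarith

theorem aeY (H : SD V π ρ x₀ u u' X X' Y Y' X₀ t Q l κ τ ε h T B Λ) :
    AEMeasurable (fun p => Y p.1) V := by
  have h1 : AEMeasurable (fun p : Euc k × L k => ρ (p.1 - x₀) - u (X p.1)) V := by
    refine AEMeasurable.sub ?_ ?_
    · exact (ρ.continuous.comp (continuous_fst.sub continuous_const)).measurable.aemeasurable
    · exact H.cl.cu.continuous.measurable.comp_aemeasurable H.mX
  refine h1.congr ?_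
  filter_upwards [H.foot] with p hp
  rw [hp.2]; abel

theorem aeY' (H : SD V π ρ x₀ u u' X X' Y Y' X₀ t Q l κ τ ε h T B Λ) :
    AEMeasurable (fun p => Y' p.1) V := by
  have h1 : AEMeasurable (fun p : Euc k × L k => ρ (p.1 - x₀) - u' (X' p.1)) V := by
    refine AEMeasurable.sub ?_ ?_
    · exact (ρ.continuous.comp (continuous_fst.sub continuous_const)).measurable.aemeasurable
    · exact H.cl.cu'.continuous.measurable.comp_aemeasurable H.mX'
  refine h1.congr ?_
  filter_upwards [H.foot'] with p hp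
  rw [hp.2]; abel

theorem h0 (H : SD V π ρ x₀ u u' X X' Y Y' X₀ t Q l κ τ ε h T B Λ)
    (hR : V (Rg π x₀ X₀ (Real.exp l + ε / 2)) ≠ 0) : 0 ≤ h := by
  have := H.isFin
  by_contra hc
  apply hR
  have h1 : ∀ᵐ p ∂V, p ∉ Rg π x₀ X₀ (Real.exp l + ε / 2) := by
    filter_upwards [H.hh] with p hp hp2
    exact hc ((norm_nonneg _).trans (hp hp2))
  exact measure_eq_zero_iff_ae_notMem.2 h1

theorem real_le (H : SD V π ρ x₀ u u' X X' Y Y' X₀ t Q l κ τ ε h T B Λ) (R : Set (Euc k × L k)) :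
    V.real R ≤ Λ := by
  have := H.isFin
  have h1 : V R ≤ ENNReal.ofReal Λ := (measure_mono (subset_univ _)).trans H.fin
  exact ENNReal.toReal_le_of_le_ofReal (by have := H.L1; linarith) h1

theorem yi (H : SD V π ρ x₀ u u' X X' Y Y' X₀ t Q l κ τ ε h T B Λ) :
    IntegrableOn (fun p => ‖Y p.1‖) (Rg π x₀ X₀ (Real.exp l + ε / 2)) V := by
  have := H.isFin
  refine Integrable.mono' (integrable_const |h|) H.aeY.norm.aestronglyMeasurable.restrict ?_
  rw [ae_restrict_iff' (measurableSet_Rg _ _ _ _)]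
  filter_upwards [H.hh] with p hp hR
  rw [norm_norm]
  exact (hp hR).trans (le_abs_self h)

theorem int_y (H : SD V π ρ x₀ u u' X X' Y Y' X₀ t Q l κ τ ε h T B Λ) (hh0 : 0 ≤ h) :
    ∫ p in Rg π x₀ X₀ (Real.exp l + ε / 2), ‖Y p.1‖ ∂V ≤ Λ * h := by
  have := H.isFin
  calc ∫ p in Rg π x₀ X₀ (Real.exp l + ε / 2), ‖Y p.1‖ ∂V ≤
      ∫ p in Rg π x₀ X₀ (Real.exp l + ε / 2), h ∂V := by
        refine integral_mono_ae H.yi (integrable_const _) ?_
        rw [EventuallyLE, ae_restrict_iff' (measurableSet_Rg _ _ _ _)]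
        exact H.hh
    _ = V.real (Rg π x₀ X₀ (Real.exp l + ε / 2)) * h := by rw [setIntegral_const, smul_eq_mul]
    _ ≤ _ := mul_le_mul_of_nonneg_right (H.real_le _) hh0

theorem continuous_KT : Continuous (KT : (Euc m →L[ℝ] Euc n) → (Euc n →L[ℝ] Euc m)) := by
  have h1 : Continuous (ginv : (Euc m →L[ℝ] Euc n) → (Euc m →L[ℝ] Euc m)) :=
    ginv_contDiff.continuous
  have h2 : Continuous (fun q : Euc m →L[ℝ] Euc n => adjL q) := adjL.continuous
  exact h1.clm_comp h2

theorem ki (H : SD V π ρ x₀ u u' X X' Y Y' X₀ t Q l κ τ ε h T B Λ) :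
    IntegrableOn (fun p => ‖Kb π ρ p.2 - KT (fderiv ℝ u (X p.1))‖)
      (Rg π x₀ X₀ (Real.exp l + ε / 2)) V ∧
    IntegrableOn (fun p => ‖Kb π ρ p.2 - KT (fderiv ℝ u (X p.1))‖ ^ 2)
      (Rg π x₀ X₀ (Real.exp l + ε / 2)) V := by
  have := H.isFin
  have hm : AEStronglyMeasurable (fun p : Euc k × L k => Kb π ρ p.2 - KT (fderiv ℝ u (X p.1))) V := by
    refine AEStronglyMeasurable.sub ?_ ?_
    · exact (continuous_Kb.comp continuous_snd).aestronglyMeasurable
    · have h1 : Continuous (fun v => KT (fderiv ℝ u v)) :=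
        continuous_KT.comp (H.cl.cu.fderiv_right (m := 1) (by norm_num)).continuous
      exact (h1.measurable.comp_aemeasurable H.mX).aestronglyMeasurable
  have hb : ∀ᵐ p ∂(V.restrict (Rg π x₀ X₀ (Real.exp l + ε / 2))),
      ‖Kb π ρ p.2 - KT (fderiv ℝ u (X p.1))‖ ≤ 2 := by
    rw [ae_restrict_iff' (measurableSet_Rg _ _ _ _)]
    filter_upwards [H.sit.inn, H.pl] with p hp h2 hR
    obtain ⟨-, -, -, h4, -, -⟩ := hp hR
    refine (norm_sub_le _ _).trans ?_
    have a1 := norm_Kb_le H.fr h2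
    have a2 := norm_KT_le (H.cl.d1 _ h4)
    have := H.cl.κ1
    linarith
  refine ⟨?_, ?_⟩
  · refine Integrable.mono' (integrable_const 2) hm.norm.restrict ?_
    filter_upwards [hb] with p hp
    rwa [norm_norm]
  · refine Integrable.mono' (integrable_const 4) (hm.norm.restrict.pow 2) ?_
    filter_upwards [hb] with p hp
    rw [norm_pow, norm_norm]
    have h0 := norm_nonneg (Kb π ρ p.2 - KT (fderiv ℝ u (X p.1)))
    calc ‖Kb π ρ p.2 - KT (fderiv ℝ u (X p.1))‖ ^ 2 ≤ 2 ^ 2 := pow_le_pow_left₀ h0 hp 2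
      _ = 4 := by norm_num

theorem int_k (H : SD V π ρ x₀ u u' X X' Y Y' X₀ t Q l κ τ ε h T B Λ) :
    ∫ p in Rg π x₀ X₀ (Real.exp l + ε / 2), ‖Kb π ρ p.2 - KT (fderiv ℝ u (X p.1))‖ ∂V ≤
      Λ * (2 * Real.sqrt T) := by
  have := H.isFin
  have h1 : ∫ p in Rg π x₀ X₀ (Real.exp l + ε / 2),
      ‖Kb π ρ p.2 - KT (fderiv ℝ u (X p.1))‖ ^ 2 ∂V ≤ 2 * T := by
    calc _ ≤ ∫ p in Rg π x₀ X₀ (Real.exp l + ε / 2), 2 * t p ∂V := by
          refine integral_mono_ae H.ki.2 (H.ti.const_mul 2) ?_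
          rw [EventuallyLE, ae_restrict_iff' (measurableSet_Rg _ _ _ _)]
          exact H.tl
      _ = 2 * ∫ p in Rg π x₀ X₀ (Real.exp l + ε / 2), t p ∂V := integral_const_mul _ _
      _ ≤ _ := by linarith [H.tT]
  refine (setIntegral_le_sqrt H.ki.1 H.ki.2 h1 (H.real_le _) H.L1).trans ?_
  refine mul_le_mul_of_nonneg_left ?_ (by have := H.L1; linarith)
  rw [Real.sqrt_mul (by norm_num)]
  refine mul_le_mul_of_nonneg_right ?_ (Real.sqrt_nonneg _)
  rw [Real.sqrt_le_left (by norm_num)]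
  norm_num

end SD

variable (m n) in
/-- **SWITCH, the excess.** -/
theorem exists_E_switch {g g1 g2 : ℝ → ℝ} (hg : Ker g g1) (hg1 : Ker g1 g2) (b Λ : ℝ) :
    ∃ C : ℝ, 0 ≤ C ∧ ∀ (k : ℕ) (V : Measure (Euc k × L k)) (π : Euc k →L[ℝ] Euc m)
      (ρ : Euc k →L[ℝ] Euc n) (x₀ : Euc k) (u u' : Euc m → Euc n) (X X' : Euc k → Euc m)
      (Y Y' : Euc k → Euc n) (X₀ : Euc m) (t : Euc k × L k → ℝ) (Q l κ τ ε h T B : ℝ),
      SD V π ρ x₀ u u' X X' Y Y' X₀ t Q l κ τ ε h T B Λ → l ≤ 0 → Real.exp (-l) ≤ b → 0 ≤ h →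
      |Ef V X' u' g X₀ Q l - Ef V X u g X₀ Q l| ≤ C * τ * (τ + h + Real.sqrt T + B) := by
  obtain ⟨c, hc0, Hc⟩ := exists_radq (Euc m) (Euc n) hg hg1
  obtain ⟨Cd, hCd, hdns⟩ := exists_dns (Euc m) (Euc n)
  set om := volume.real (closedBall (0 : Euc m) 1) with hom
  have hom0 : 0 ≤ om := measureReal_nonneg
  set tv := ‖trc (Euc n)‖ with htv
  have htv0 : 0 ≤ tv := (trc (Euc n)).opNorm_nonneg
  set tf := ‖trc (Euc m)‖ with htf
  have htf0 : 0 ≤ tf := (trc (Euc m)).opNorm_nonneg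
  set c' := c * (|b| * |b|) with hc'
  have hc'0 : 0 ≤ c' := by positivity
  set Λ' := |Λ| with hΛ'
  have hΛ'0 : 0 ≤ Λ' := abs_nonneg Λ
  refine ⟨|b| ^ m * ((6 + 3 * tv) * c' * (2 * Λ') + Λ' * (c' * Cd) * om + c' * tf + c),
    by positivity, ?_⟩
  intro k V π ρ x₀ u u' X X' Y Y' X₀ t Q l κ τ ε h T B H hl hb hh0
  have := H.isFin
  have hτ0 := H.cl.τ0
  have hκ0 := H.cl.κ0
  have hκ1 := H.cl.κ1
  have hΛ1 := H.L1
  have hΛe : Λ' = Λ := abs_of_nonneg (by linarith)
  have hb0 : 0 ≤ b := (Real.exp_pos _).le.trans hb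
  have hbe : |b| = b := abs_of_nonneg hb0
  have hel : Real.exp l ≤ 1 := Real.exp_le_one_iff.2 hl
  have hsT : 0 ≤ Real.sqrt T := Real.sqrt_nonneg _
  -- scale factors
  have hs1 : Real.exp ((2 - m) * l) ≤ b ^ m := by
    have h1 : Real.exp ((2 - m) * l) ≤ Real.exp (-l) ^ m := by
      rw [← Real.exp_nat_mul]
      refine Real.exp_le_exp.2 ?_
      nlinarith
    exact h1.trans (pow_le_pow_left₀ (Real.exp_pos _).le hb m)
  have hs2 : Real.exp (-2 * l) ≤ b * b := by
    have h1 : Real.exp (-2 * l) = Real.exp (-l) * Real.exp (-l) := by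
      rw [← Real.exp_add]; congr 1; ring
    rw [h1]
    exact mul_le_mul hb hb (Real.exp_pos _).le hb0
  -- slopes at the centre
  set q0 := fderiv ℝ u X₀ with hq0
  set q0' := fderiv ℝ u' X₀ with hq0'
  have hq0n : ‖q0‖ ≤ 1 / 4 := (H.cl.d1 _ H.X0D).trans hκ1
  have hq0n' : ‖q0'‖ ≤ 1 / 4 := (H.cl.d1' _ H.X0D).trans hκ1
  have hq0d : ‖q0' - q0‖ ≤ τ := H.cl.w1 _ H.X0D
  obtain ⟨T1, -, -, -⟩ := Hc l hl q0' X₀ hq0n'
  obtain ⟨T0, -, -, D0⟩ := Hc l hl q0 X₀ hq0n
  have Dg := (D0 q0' hq0n').1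
  have hT1 : Tst (radq g l q0' X₀) c' := by
    have hle : c * Real.exp (-2 * l) ≤ c' := by
      rw [hc', hbe]; exact mul_le_mul_of_nonneg_left hs2 hc0
    exact ⟨T1.cd, hc'0, fun v => (T1.b0 v).trans hle, fun v => (T1.b1 v).trans hle,
      fun v => (T1.b2 v).trans hle⟩
  -- the field
  set w : Euc m → Euc n := fun v => radq g l q0' X₀ v • (u' v - u v) with hw
  have hwcd : ContDiff ℝ 2 w := hT1.cd.smul (H.cl.cu'.sub H.cl.cu)
  have hw0 : ∀ v, Real.exp l ≤ ‖v - X₀‖ → w v = 0 := by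
    intro v hv
    rw [hw]
    simp only
    rw [radq_zero hg hv, zero_smul]
  have hFVz : FV V (fun z => adj ρ (w (π (z - x₀)))) = 0 := by
    refine H.st _ ?_ ?_
    · refine (adj ρ).contDiff.comp ((hwcd.of_le (by norm_num)).comp ?_)
      exact π.contDiff.comp (contDiff_id.sub contDiff_const)
    · intro z hz
      rw [hw0 _ hz, map_zero]
  have hFV : ∫ p, trc (Euc n) (fderiv ℝ w (π (p.1 - x₀)) ∘L Kb π ρ p.2) ∂V = 0 := by
    rw [← hFVz]
    unfold FV
    refine integral_congr_ae (Eventually.of_forall fun p => ?_)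
    exact (tr_cmp ((hwcd.differentiable (by norm_num)) _) p.2).symm
  have hFi : Integrable (fun p : Euc k × L k =>
      trc (Euc n) (fderiv ℝ w (π (p.1 - x₀)) ∘L Kb π ρ p.2)) V := by
    have hc1 : Continuous (fderiv ℝ w) := hwcd.continuous_fderiv (by norm_num)
    have hts : ∀ v ∉ closedBall X₀ (Real.exp l), fderiv ℝ w v = 0 := by
      intro v hv
      refine image_eq_zero_of_notMem_tsupport fun hc => hv ?_
      have h1 := tsupport_fderiv_subset ℝ hc
      refine closure_minimal (fun v hv => ?_) isClosed_closedBall h1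
      rw [mem_closedBall, dist_eq_norm]
      by_contra h2
      exact hv (hw0 v (not_le.1 h2).le)
    obtain ⟨Cw, hCw⟩ := (isCompact_closedBall X₀ (Real.exp l)).exists_bound_of_continuousOn
      hc1.continuousOn
    have hCw' : ∀ v, ‖fderiv ℝ w v‖ ≤ |Cw| := by
      intro v
      by_cases hv : v ∈ closedBall X₀ (Real.exp l)
      · exact (hCw v hv).trans (le_abs_self _)
      · rw [hts v hv, norm_zero]; exact abs_nonneg _
    refine Integrable.mono' (integrable_const (tv * |Cw|)) ?_ ?_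
    · refine Continuous.aestronglyMeasurable ?_
      refine (trc (Euc n)).continuous.comp ((hc1.comp ?_).clm_comp (continuous_Kb.comp
        continuous_snd))
      exact π.continuous.comp (continuous_fst.sub continuous_const)
    · filter_upwards [H.pl] with p hp
      rw [Real.norm_eq_abs]
      refine (abs_trc_le _).trans (mul_le_mul_of_nonneg_left ?_ htv0)
      refine (ContinuousLinearMap.opNorm_comp_le _ _).trans ?_
      calc ‖fderiv ℝ w (π (p.1 - x₀))‖ * ‖Kb π ρ p.2‖ ≤ |Cw| * 1 :=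
            mul_le_mul (hCw' _) (norm_Kb_le H.fr hp) (norm_nonneg _) (abs_nonneg _)
        _ = _ := mul_one _
  have main := H.cl.E_switch hT1 (radq_tsupport hg l q0' X₀) H.sit (K := fun p => Kb π ρ p.2)
    (by filter_upwards [H.pl] with p hp; exact norm_Kb_le H.fr hp) hFi hFV H.yi H.ki.1 hCd hdns Q
  -- the bounds
  have b1 := H.real_le (Rg π x₀ X₀ (Real.exp l + ε / 2))
  have b2 := H.int_y hh0
  have b3 := H.int_k
  have b4 : volume.real (closedBall X₀ (Real.exp l)) ≤ om := by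
    have e1 : volume (closedBall X₀ (Real.exp l)) = volume (closedBall (0 : Euc m) (Real.exp l)) := by
      rw [Measure.addHaar_closedBall_center]
    rw [hom, measureReal_def, measureReal_def, e1]
    refine ENNReal.toReal_mono measure_closedBall_lt_top.ne ?_
    exact measure_mono (closedBall_subset_closedBall hel)
  have hXic : Continuous (Xi (radq g l q0' X₀) u u') := by
    have hcu1 : Continuous (fderiv ℝ u) := (H.cl.cu.fderiv_right (m := 1) (by norm_num)).continuous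
    have hcu1' : Continuous (fderiv ℝ u') :=
      (H.cl.cu'.fderiv_right (m := 1) (by norm_num)).continuous
    refine hT1.cd.continuous.mul ((trc (Euc m)).continuous.comp ?_)
    exact (SD.continuous_KT.comp hcu1).clm_comp (hcu1'.sub hcu1)
  have hXi0 : ∀ v, Real.exp l ≤ ‖v - X₀‖ → Xi (radq g l q0' X₀) u u' v = 0 := by
    intro v hv; rw [Xi, radq_zero hg hv, zero_mul]
  have hXib : ∀ v, |Xi (radq g l q0' X₀) u u' v| ≤ c' * tf * τ := by
    intro v
    by_cases hv : Real.exp l ≤ ‖v - X₀‖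
    · rw [hXi0 v hv, abs_zero]; positivity
    · have hvD : v ∈ ball X₀ (Real.exp l + ε) := by
        rw [mem_ball, dist_eq_norm]; have := H.eps; linarith [not_le.1 hv]
      rw [Xi, abs_mul]
      calc |radq g l q0' X₀ v| * |trc (Euc m) (KT (fderiv ℝ u v) ∘L
            (fderiv ℝ u' v - fderiv ℝ u v))| ≤ c' * (tf * (1 * τ)) := by
            refine mul_le_mul (hT1.b0 v) ((abs_trc_le _).trans (mul_le_mul_of_nonneg_left ?_ htf0))
              (abs_nonneg _) hc'0
            refine (ContinuousLinearMap.opNorm_comp_le _ _).trans (mul_le_mul ?_ (H.cl.w1 v hvD)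
              (norm_nonneg _) zero_le_one)
            exact (norm_KT_le (H.cl.d1 v hvD)).trans (by linarith)
        _ = _ := by ring
  have b5 := H.tv (Xi (radq g l q0' X₀) u u') (c' * tf * τ) hXic hXib hXi0
  -- change of the test function
  have hdc : Continuous (fun v => radq g l q0' X₀ v - radq g l q0 X₀ v) :=
    hT1.cd.continuous.sub T0.cd.continuous
  have b6 := H.tv (fun v => radq g l q0' X₀ v - radq g l q0 X₀ v) (c * τ) hdc
    (fun v => (Dg v).trans (mul_le_mul_of_nonneg_left hq0d hc0))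
    (fun v hv => by rw [radq_zero hg hv, radq_zero hg hv, sub_zero])
  -- integrability for the splitting
  have iV : ∀ (q : Euc m →L[ℝ] Euc n), ‖q‖ ≤ 1 / 4 →
      Integrable (fun p : Euc k × L k => radq g l q X₀ (X p.1)) V := by
    intro q hq
    obtain ⟨Tq, -, -, -⟩ := Hc l hl q X₀ hq
    refine Integrable.mono' (integrable_const (c * Real.exp (-2 * l)))
      ((Tq.cd.continuous.measurable.comp_aemeasurable H.mX).aestronglyMeasurable) ?_
    filter_upwards with p
    rw [Real.norm_eq_abs]; exact Tq.b0 _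
  have iL : ∀ (q : Euc m →L[ℝ] Euc n), ‖q‖ ≤ 1 / 4 →
      Integrable (fun v => radq g l q X₀ v * dns (fderiv ℝ u v)) := by
    intro q hq
    obtain ⟨Tq, -, -, -⟩ := Hc l hl q X₀ hq
    have hcu1 : Continuous (fderiv ℝ u) := (H.cl.cu.fderiv_right (m := 1) (by norm_num)).continuous
    have hdnsc : Continuous (dns : (Euc m →L[ℝ] Euc n) → ℝ) := dns_contDiff.continuous
    refine (Tq.cd.continuous.mul (hdnsc.comp hcu1)).integrable_of_hasCompactSupport ?_
    refine HasCompactSupport.intro (isCompact_closedBall X₀ (Real.exp l)) fun v hv => ?_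
    rw [mem_closedBall, dist_eq_norm, not_le] at hv
    change radq g l q X₀ v * dns (fderiv ℝ u v) = 0
    rw [radq_zero hg hv.le, zero_mul]
  have e1 : ∫ p, (radq g l q0' X₀ (X p.1) - radq g l q0 X₀ (X p.1)) ∂V =
      ∫ p, radq g l q0' X₀ (X p.1) ∂V - ∫ p, radq g l q0 X₀ (X p.1) ∂V :=
    integral_sub (iV q0' hq0n') (iV q0 hq0n)
  have e2 : ∫ v, (radq g l q0' X₀ v - radq g l q0 X₀ v) * dns (fderiv ℝ u v) =
      (∫ v, radq g l q0' X₀ v * dns (fderiv ℝ u v)) -
        ∫ v, radq g l q0 X₀ v * dns (fderiv ℝ u v) := by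
    rw [← integral_sub (iL q0' hq0n') (iL q0 hq0n)]
    refine integral_congr_ae (Eventually.of_forall fun v => ?_)
    simp only
    ring
  rw [e1, e2] at b6
  unfold Ef
  rw [← hq0, ← hq0', ← mul_sub, abs_mul, abs_of_pos (Real.exp_pos _)]
  set A1 := ∫ p, radq g l q0' X₀ (X' p.1) ∂V
  set A2 := ∫ p, radq g l q0' X₀ (X p.1) ∂V
  set A3 := ∫ p, radq g l q0 X₀ (X p.1) ∂V
  set B1 := ∫ v, radq g l q0' X₀ v * dns (fderiv ℝ u' v)
  set B2 := ∫ v, radq g l q0' X₀ v * dns (fderiv ℝ u v)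
  set B3 := ∫ v, radq g l q0 X₀ v * dns (fderiv ℝ u v)
  have key : |(A1 - Q * B1) - (A3 - Q * B3)| ≤
      ((6 + 3 * tv) * c' * (2 * Λ') + Λ' * (c' * Cd) * om + c' * tf + c) *
        (τ * (τ + h + Real.sqrt T + B)) := by
    have e3 : (A1 - Q * B1) - (A3 - Q * B3) = ((A1 - Q * B1) - (A2 - Q * B2)) +
        ((A2 - A3) - Q * (B2 - B3)) := by ring
    rw [e3]
    refine (abs_add_le _ _).trans ?_
    have hB0 : 0 ≤ B ∨ τ = 0 := by
      by_contra hc
      rw [not_or, not_le] at hc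
      have h1 := H.tv (fun _ => 0) 1 continuous_const (fun v => by simp) (fun _ _ => rfl)
      simp only [integral_zero, zero_mul, mul_zero, sub_zero, abs_zero, one_mul] at h1
      linarith [hc.1]
    have f1 : (6 + 3 * tv) * c' * (τ ^ 2 * V.real (Rg π x₀ X₀ (Real.exp l + ε / 2)) +
        τ * ∫ p in Rg π x₀ X₀ (Real.exp l + ε / 2), ‖Y p.1‖ ∂V +
        τ * ∫ p in Rg π x₀ X₀ (Real.exp l + ε / 2),
          ‖Kb π ρ p.2 - KT (fderiv ℝ u (X p.1))‖ ∂V) ≤
        (6 + 3 * tv) * c' * (2 * Λ') * (τ * (τ + h + Real.sqrt T)) := by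
      rw [hΛe]
      have g1 : τ ^ 2 * V.real (Rg π x₀ X₀ (Real.exp l + ε / 2)) ≤ τ ^ 2 * Λ :=
        mul_le_mul_of_nonneg_left b1 (sq_nonneg _)
      have g2 : τ * ∫ p in Rg π x₀ X₀ (Real.exp l + ε / 2), ‖Y p.1‖ ∂V ≤ τ * (Λ * h) :=
        mul_le_mul_of_nonneg_left b2 hτ0
      have g3 : τ * ∫ p in Rg π x₀ X₀ (Real.exp l + ε / 2),
          ‖Kb π ρ p.2 - KT (fderiv ℝ u (X p.1))‖ ∂V ≤ τ * (Λ * (2 * Real.sqrt T)) :=
        mul_le_mul_of_nonneg_left b3 hτ0
      rw [mul_assoc ((6 + 3 * tv) * c') (2 * Λ)]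
      refine mul_le_mul_of_nonneg_left ?_ (by positivity)
      have g4 : 0 ≤ τ ^ 2 * Λ := by positivity
      have g5 : 0 ≤ τ * (Λ * h) := by positivity
      nlinarith
    have f2 : |Q| * (c' * (Cd * τ ^ 2) * volume.real (closedBall X₀ (Real.exp l))) ≤
        Λ' * (c' * Cd) * om * (τ * τ) := by
      have g1 : |Q| ≤ Λ' := H.hQ.trans (le_abs_self _)
      calc |Q| * (c' * (Cd * τ ^ 2) * volume.real (closedBall X₀ (Real.exp l))) ≤
            Λ' * (c' * (Cd * τ ^ 2) * om) :=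
            mul_le_mul g1 (mul_le_mul_of_nonneg_left b4 (by positivity)) (by positivity) hΛ'0
        _ = _ := by ring
    have f3 : |∫ p, Xi (radq g l q0' X₀) u u' (X p.1) ∂V -
        Q * ∫ v, Xi (radq g l q0' X₀) u u' v * dns (fderiv ℝ u v)| ≤ c' * tf * (τ * B) :=
      b5.trans (le_of_eq (by ring))
    have f4 : |(A2 - A3) - Q * (B2 - B3)| ≤ c * (τ * B) := b6.trans (le_of_eq (by ring))
    have hτB : 0 ≤ τ * B := by
      rcases hB0 with h1 | h1
      · positivity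
      · rw [h1, zero_mul]
    have hτh : 0 ≤ τ * h := by positivity
    have hτT : 0 ≤ τ * Real.sqrt T := by positivity
    have hττ : 0 ≤ τ * τ := by positivity
    have expand : ((6 + 3 * tv) * c' * (2 * Λ') + Λ' * (c' * Cd) * om + c' * tf + c) *
        (τ * (τ + h + Real.sqrt T + B)) =
        (6 + 3 * tv) * c' * (2 * Λ') * (τ * (τ + h + Real.sqrt T)) +
        (6 + 3 * tv) * c' * (2 * Λ') * (τ * B) +
        Λ' * (c' * Cd) * om * (τ * τ) + Λ' * (c' * Cd) * om * (τ * h + τ * Real.sqrt T + τ * B) +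
        c' * tf * (τ * B) + c' * tf * (τ * τ + τ * h + τ * Real.sqrt T) +
        c * (τ * B) + c * (τ * τ + τ * h + τ * Real.sqrt T) := by ring
    rw [expand]
    have p1 : 0 ≤ (6 + 3 * tv) * c' * (2 * Λ') * (τ * B) := by positivity
    have p2 : 0 ≤ Λ' * (c' * Cd) * om * (τ * h + τ * Real.sqrt T + τ * B) := by positivity
    have p3 : 0 ≤ c' * tf * (τ * τ + τ * h + τ * Real.sqrt T) := by positivity
    have p4 : 0 ≤ c * (τ * τ + τ * h + τ * Real.sqrt T) := by positivity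
    linarith
  have hp : 0 ≤ |(A1 - Q * B1) - (A3 - Q * B3)| := abs_nonneg _
  calc Real.exp ((2 - m) * l) * |(A1 - Q * B1) - (A3 - Q * B3)| ≤
        |b| ^ m * (((6 + 3 * tv) * c' * (2 * Λ') + Λ' * (c' * Cd) * om + c' * tf + c) *
        (τ * (τ + h + Real.sqrt T + B))) :=
        mul_le_mul (hs1.trans (by rw [hbe])) key hp (by positivity)
    _ = _ := by ring

end Crest.Agent.R234.Sw_733
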