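import Crest.Agent.R234.Sw11_733

/-! # Row 234, VF-F6 (helper733), part 12: **the switch of the reference**: the height -/

set_option autoImplicit false
set_option linter.unusedSectionVars false

open MeasureTheory Set Metric Filter Topology
open scoped ENNReal NNReal ContDiff InnerProductSpace
open Crest.GeometryTopology.Submanifold
open Crest.Agent.R234.Ell1_3 Crest.Agent.R234.Fm_209 Crest.Agent.R234.Cy_870 Crest.Agent.R234.Vf_884
open Crest.Agent.R234.Main_456 (Frame)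

noncomputable section

namespace Crest.Agent.R234.Sw_733

variable {m n k : ℕ}

local notation "adj" => ContinuousLinearMap.adjoint

variable {V : Measure (Euc k × L k)} {π : Euc k →L[ℝ] Euc m} {ρ : Euc k →L[ℝ] Euc n}
  {x₀ : Euc k} {u u' : Euc m → Euc n} {X X' : Euc k → Euc m} {Y Y' : Euc k → Euc n} {X₀ : Euc m}
  {t : Euc k × L k → ℝ} {Q l κ τ ε h T B Λ : ℝ}

/-- the kernel of the height in foot coordinates. -/
def Ps (u : Euc m → Euc n) (g1 : ℝ → ℝ) (X₀ : Euc m) (l : ℝ) (v : Euc m) : ℝ :=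
  mq (fderiv ℝ u X₀) (fderiv ℝ u v) (v - X₀) * (-4 * radq g1 l (fderiv ℝ u X₀) X₀ v)

theorem If_eq (V : Measure (Euc k × L k)) (X : Euc k → Euc m) (Y : Euc k → Euc n)
    (u : Euc m → Euc n) (g1 : ℝ → ℝ) (X₀ : Euc m) (l : ℝ) :
    If V X Y u g1 X₀ l = Real.exp (-m * l) *
      ∫ p, hf (fderiv ℝ u (X p.1)) (Y p.1) * Ps u g1 X₀ l (X p.1) ∂V := rfl

theorem Ps_zero {g1 g2 : ℝ → ℝ} (hg1 : Ker g1 g2) (u : Euc m → Euc n) {X₀ v : Euc m} {l : ℝ}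
    (hv : Real.exp l ≤ ‖v - X₀‖) : Ps u g1 X₀ l v = 0 := by
  rw [Ps, radq_zero hg1 hv]; ring

/-- bounds of the kernel. -/
theorem Ps_bound {g1 : ℝ → ℝ} {c b : ℝ} (hc : 0 ≤ c) (hb1 : 1 ≤ b) {u u' : Euc m → Euc n}
    {D : Set (Euc m)} {κ τ : ℝ} (cl : Cl u u' D κ τ) (h0 : X₀ ∈ D) {l : ℝ}
    (r0 : ∀ v, |radq g1 l (fderiv ℝ u X₀) X₀ v| ≤ c * b)
    (r0' : ∀ v, |radq g1 l (fderiv ℝ u' X₀) X₀ v| ≤ c * b)
    (r1 : ∀ v v', |radq g1 l (fderiv ℝ u X₀) X₀ v' - radq g1 l (fderiv ℝ u X₀) X₀ v| ≤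
      c * b * ‖v' - v‖)
    (r2 : ∀ v, |radq g1 l (fderiv ℝ u' X₀) X₀ v - radq g1 l (fderiv ℝ u X₀) X₀ v| ≤ c * τ) :
    (∀ v ∈ D, |Ps u g1 X₀ l v| ≤ 212 * c * b) ∧ (∀ v ∈ D, |Ps u' g1 X₀ l v| ≤ 212 * c * b) ∧
    (∀ v ∈ D, |Ps u' g1 X₀ l v - Ps u g1 X₀ l v| ≤ 212 * c * b * τ) ∧
    ∀ v ∈ D, ∀ v' ∈ D, |Ps u g1 X₀ l v' - Ps u g1 X₀ l v| ≤ 212 * c * b * ‖v' - v‖ := by
  have hκ0 := cl.κ0
  have hκ1 := cl.κ1
  have hτ0 := cl.τ0
  have hq : ∀ v ∈ D, ‖fderiv ℝ u v‖ ≤ 1 / 4 := fun v hv => (cl.d1 v hv).trans hκ1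
  have hq' : ∀ v ∈ D, ‖fderiv ℝ u' v‖ ≤ 1 / 4 := fun v hv => (cl.d1' v hv).trans hκ1
  have hcb : 0 ≤ c * b := by positivity
  refine ⟨fun v hv => ?_, fun v hv => ?_, fun v hv => ?_, fun v hv v' hv' => ?_⟩
  · rw [Ps, abs_mul, abs_mul, abs_neg, abs_of_pos (by norm_num : (0:ℝ) < 4)]
    calc |mq (fderiv ℝ u X₀) (fderiv ℝ u v) (v - X₀)| *
          (4 * |radq g1 l (fderiv ℝ u X₀) X₀ v|) ≤ 3 * (4 * (c * b)) :=
          mul_le_mul (abs_mq_le (hq _ h0) (hq v hv) _) (mul_le_mul_of_nonneg_left (r0 v)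
            (by norm_num)) (by positivity) (by norm_num)
      _ ≤ _ := by nlinarith
  · rw [Ps, abs_mul, abs_mul, abs_neg, abs_of_pos (by norm_num : (0:ℝ) < 4)]
    calc |mq (fderiv ℝ u' X₀) (fderiv ℝ u' v) (v - X₀)| *
          (4 * |radq g1 l (fderiv ℝ u' X₀) X₀ v|) ≤ 3 * (4 * (c * b)) :=
          mul_le_mul (abs_mq_le (hq' _ h0) (hq' v hv) _) (mul_le_mul_of_nonneg_left (r0' v)
            (by norm_num)) (by positivity) (by norm_num)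
      _ ≤ _ := by nlinarith
  · have e : Ps u' g1 X₀ l v - Ps u g1 X₀ l v =
        (mq (fderiv ℝ u' X₀) (fderiv ℝ u' v) (v - X₀) - mq (fderiv ℝ u X₀) (fderiv ℝ u v) (v - X₀)) *
          (-4 * radq g1 l (fderiv ℝ u' X₀) X₀ v) + mq (fderiv ℝ u X₀) (fderiv ℝ u v) (v - X₀) *
          (-4 * (radq g1 l (fderiv ℝ u' X₀) X₀ v - radq g1 l (fderiv ℝ u X₀) X₀ v)) := by
      unfold Ps; ring
    rw [e]
    refine (abs_add_le _ _).trans ?_
    rw [abs_mul, abs_mul, abs_mul, abs_mul, abs_neg, abs_of_pos (by norm_num : (0:ℝ) < 4)]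
    have p1 : |mq (fderiv ℝ u' X₀) (fderiv ℝ u' v) (v - X₀) -
        mq (fderiv ℝ u X₀) (fderiv ℝ u v) (v - X₀)| *
        (4 * |radq g1 l (fderiv ℝ u' X₀) X₀ v|) ≤ (14 * τ) * (4 * (c * b)) :=
      mul_le_mul (mq_slope (hq _ h0) (hq v hv) (hq' _ h0) (hq' v hv) (cl.w1 _ h0) (cl.w1 v hv) _)
        (mul_le_mul_of_nonneg_left (r0' v) (by norm_num)) (by positivity) (by positivity)
    have p2 : |mq (fderiv ℝ u X₀) (fderiv ℝ u v) (v - X₀)| *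
        (4 * |radq g1 l (fderiv ℝ u' X₀) X₀ v - radq g1 l (fderiv ℝ u X₀) X₀ v|) ≤
        3 * (4 * (c * τ)) :=
      mul_le_mul (abs_mq_le (hq _ h0) (hq v hv) _) (mul_le_mul_of_nonneg_left (r2 v)
        (by norm_num)) (by positivity) (by norm_num)
    have p3 : c * τ ≤ c * b * τ := by
      have : 0 ≤ c * τ := by positivity
      nlinarith
    have p4 : 0 ≤ c * b * τ := by positivity
    nlinarith
  · have e : Ps u g1 X₀ l v' - Ps u g1 X₀ l v =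
        (mq (fderiv ℝ u X₀) (fderiv ℝ u v') (v' - X₀) - mq (fderiv ℝ u X₀) (fderiv ℝ u v) (v - X₀)) *
          (-4 * radq g1 l (fderiv ℝ u X₀) X₀ v') + mq (fderiv ℝ u X₀) (fderiv ℝ u v) (v - X₀) *
          (-4 * (radq g1 l (fderiv ℝ u X₀) X₀ v' - radq g1 l (fderiv ℝ u X₀) X₀ v)) := by
      unfold Ps; ring
    rw [e]
    refine (abs_add_le _ _).trans ?_
    rw [abs_mul, abs_mul, abs_mul, abs_mul, abs_neg, abs_of_pos (by norm_num : (0:ℝ) < 4)]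
    have lip : ∀ v ∈ D, ∀ v' ∈ D, ‖fderiv ℝ u v' - fderiv ℝ u v‖ ≤ ‖v' - v‖ := fun v hv v' hv' =>
      (cl.du_lip hv hv').trans (mul_le_of_le_one_left (norm_nonneg _) (by linarith))
    have e3 : (v' - X₀) - (v - X₀) = v' - v := by abel
    have p1 : |mq (fderiv ℝ u X₀) (fderiv ℝ u v') (v' - X₀) -
        mq (fderiv ℝ u X₀) (fderiv ℝ u v) (v - X₀)| *
        (4 * |radq g1 l (fderiv ℝ u X₀) X₀ v'|) ≤ (50 * ‖v' - v‖) * (4 * (c * b)) := by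
      refine mul_le_mul ?_ (mul_le_mul_of_nonneg_left (r0 v') (by norm_num)) (by positivity)
        (by positivity)
      have := mq_lip (hq _ h0) (hq v hv) (hq v' hv') (ξ := v - X₀) (ξ' := v' - X₀)
        (lip _ h0 v hv) (lip _ h0 v' hv') (by rw [e3]; exact lip v hv v' hv')
      rwa [e3] at this
    have p2 : |mq (fderiv ℝ u X₀) (fderiv ℝ u v) (v - X₀)| *
        (4 * |radq g1 l (fderiv ℝ u X₀) X₀ v' - radq g1 l (fderiv ℝ u X₀) X₀ v|) ≤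
        3 * (4 * (c * b * ‖v' - v‖)) :=
      mul_le_mul (abs_mq_le (hq _ h0) (hq v hv) _) (mul_le_mul_of_nonneg_left (r1 v v')
        (by norm_num)) (by positivity) (by norm_num)
    nlinarith

/-- continuity of the kernel. -/
theorem Ps_continuous {g1 g2 : ℝ → ℝ} (hg1 : Ker g1 g2) {u : Euc m → Euc n} {l ε e : ℝ}
    (hε : 0 < ε) (hl : ∀ v ∈ ball X₀ (Real.exp l + ε), ∀ v' ∈ ball X₀ (Real.exp l + ε),
      |Ps u g1 X₀ l v' - Ps u g1 X₀ l v| ≤ e * ‖v' - v‖) : Continuous (Ps u g1 X₀ l) := by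
  rw [continuous_iff_continuousAt]
  intro v
  by_cases hv : v ∈ ball X₀ (Real.exp l + ε)
  · rw [ContinuousAt, tendsto_iff_norm_sub_tendsto_zero]
    have hlim : Tendsto (fun v' : Euc m => e * ‖v' - v‖) (𝓝 v) (𝓝 0) := by
      have : Continuous fun v' : Euc m => e * ‖v' - v‖ := by fun_prop
      simpa using this.tendsto v
    refine squeeze_zero' (Eventually.of_forall fun v => norm_nonneg _) ?_ hlim
    filter_upwards [isOpen_ball.mem_nhds hv] with v' hv'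
    rw [Real.norm_eq_abs]
    exact hl v hv v' hv'
  · have hv2 : Real.exp l < ‖v - X₀‖ := by
      rw [mem_ball, dist_eq_norm, not_lt] at hv; linarith
    have hev : ∀ᶠ v' in 𝓝 v, Ps u g1 X₀ l v' = 0 := by
      have ho : IsOpen {v' : Euc m | Real.exp l < ‖v' - X₀‖} :=
        isOpen_lt continuous_const (by fun_prop)
      filter_upwards [ho.mem_nhds hv2] with v' hv'
      exact Ps_zero hg1 u (le_of_lt hv')
    have h0 : Ps u g1 X₀ l v = 0 := Ps_zero hg1 u hv2.le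
    rw [ContinuousAt, h0]
    exact tendsto_const_nhds.congr' (hev.mono fun v' hv' => hv'.symm)

theorem mq_smul (s : ℝ) (q0 q : Euc m →L[ℝ] Euc n) (ξ : Euc m) (hs : 0 < s) :
    mq q0 q (s • ξ) = mq q0 q ξ := by
  unfold mq
  by_cases hξ : ξ = 0
  · subst hξ; simp
  · have hs' : s • ξ ≠ 0 := smul_ne_zero hs.ne' hξ
    rw [if_neg hs', if_neg hξ]
    simp only [map_smul, inner_smul_left, inner_smul_right, conj_trivial]
    have h1 : 0 < ⟪ξ, gop q0 ξ⟫_ℝ :=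
      lt_of_lt_of_le (by have := norm_pos_iff.2 hξ; positivity) (le_gop_inner q0 ξ)
    field_simp

/-- Lipschitz property of the second kernel. -/
theorem Ps_lip' {g1 : ℝ → ℝ} {c b : ℝ} (hc : 0 ≤ c) (hb1 : 1 ≤ b) {u u' : Euc m → Euc n}
    {D : Set (Euc m)} {κ τ : ℝ} (cl : Cl u u' D κ τ) (h0 : X₀ ∈ D) {l : ℝ}
    (r0' : ∀ v, |radq g1 l (fderiv ℝ u' X₀) X₀ v| ≤ c * b)
    (r1' : ∀ v v', |radq g1 l (fderiv ℝ u' X₀) X₀ v' - radq g1 l (fderiv ℝ u' X₀) X₀ v| ≤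
      c * b * ‖v' - v‖) :
    ∀ v ∈ D, ∀ v' ∈ D, |Ps u' g1 X₀ l v' - Ps u' g1 X₀ l v| ≤
      (250 * (1 + κ + τ) * c * b) * ‖v' - v‖ := by
  have hκ0 := cl.κ0
  have hκ1 := cl.κ1
  have hτ0 := cl.τ0
  have hlip : ∀ v ∈ D, ∀ v' ∈ D,
      ‖fderiv ℝ u' v' - fderiv ℝ u' v‖ ≤ (1 + κ + τ) * ‖v' - v‖ := by
    intro v hv v' hv'
    have a1 := cl.du_lip hv hv'
    have a2 := cl.dw_lip hv hv'
    have e : fderiv ℝ u' v' - fderiv ℝ u' v = ((fderiv ℝ u' v' - fderiv ℝ u v') -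
        (fderiv ℝ u' v - fderiv ℝ u v)) + (fderiv ℝ u v' - fderiv ℝ u v) := by abel
    rw [e]
    refine (norm_add_le _ _).trans ?_
    have := norm_nonneg (v' - v)
    nlinarith
  intro v hv v' hv'
  set s : ℝ := 1 + κ + τ with hs
  have hs1' : 1 ≤ s := by linarith
  have hs0 : 0 < s := by linarith
  have hq' : ∀ v ∈ D, ‖fderiv ℝ u' v‖ ≤ 1 / 4 := fun v hv => (cl.d1' v hv).trans hκ1
  have e3 : s • (v' - X₀) - s • (v - X₀) = s • (v' - v) := by rw [← smul_sub]; congr 1; abel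
  have hn : ∀ w : Euc m, ‖s • w‖ = s * ‖w‖ := fun w => by
    rw [norm_smul, Real.norm_of_nonneg hs0.le]
  have hm1 : |mq (fderiv ℝ u' X₀) (fderiv ℝ u' v') (v' - X₀) -
      mq (fderiv ℝ u' X₀) (fderiv ℝ u' v) (v - X₀)| ≤ 50 * (s * ‖v' - v‖) := by
    have := mq_lip (hq' _ h0) (hq' v hv) (hq' v' hv') (ξ := s • (v - X₀)) (ξ' := s • (v' - X₀))
      (by rw [hn]; exact hlip _ h0 v hv) (by rw [hn]; exact hlip _ h0 v' hv')
      (by rw [e3, hn]; exact hlip v hv v' hv')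
    rwa [mq_smul s _ _ _ hs0, mq_smul s _ _ _ hs0, e3, hn] at this
  have e : Ps u' g1 X₀ l v' - Ps u' g1 X₀ l v =
      (mq (fderiv ℝ u' X₀) (fderiv ℝ u' v') (v' - X₀) -
        mq (fderiv ℝ u' X₀) (fderiv ℝ u' v) (v - X₀)) *
        (-4 * radq g1 l (fderiv ℝ u' X₀) X₀ v') + mq (fderiv ℝ u' X₀) (fderiv ℝ u' v) (v - X₀) *
        (-4 * (radq g1 l (fderiv ℝ u' X₀) X₀ v' - radq g1 l (fderiv ℝ u' X₀) X₀ v)) := by
    unfold Ps; ring
  rw [e]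
  refine (abs_add_le _ _).trans ?_
  rw [abs_mul, abs_mul, abs_mul, abs_mul, abs_neg, abs_of_pos (by norm_num : (0:ℝ) < 4)]
  have p1 : |mq (fderiv ℝ u' X₀) (fderiv ℝ u' v') (v' - X₀) -
      mq (fderiv ℝ u' X₀) (fderiv ℝ u' v) (v - X₀)| *
      (4 * |radq g1 l (fderiv ℝ u' X₀) X₀ v'|) ≤ (50 * (s * ‖v' - v‖)) * (4 * (c * b)) :=
    mul_le_mul hm1 (mul_le_mul_of_nonneg_left (r0' v') (by norm_num))
      (by positivity) (by positivity)
  have p2 : |mq (fderiv ℝ u' X₀) (fderiv ℝ u' v) (v - X₀)| *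
      (4 * |radq g1 l (fderiv ℝ u' X₀) X₀ v' - radq g1 l (fderiv ℝ u' X₀) X₀ v|) ≤
      3 * (4 * (c * b * ‖v' - v‖)) :=
    mul_le_mul (abs_mq_le (hq' _ h0) (hq' v hv) _) (mul_le_mul_of_nonneg_left
      (r1' v v') (by norm_num)) (by positivity) (by norm_num)
  have p3 : c * b * ‖v' - v‖ ≤ s * (c * b * ‖v' - v‖) :=
    le_mul_of_one_le_left (by positivity) hs1'
  have p4 : 250 * s * c * b * ‖v' - v‖ = 250 * (s * (c * b * ‖v' - v‖)) := by ring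
  rw [p4]
  have p5 : 50 * (s * ‖v' - v‖) * (4 * (c * b)) = 200 * (s * (c * b * ‖v' - v‖)) := by ring
  have p6 : 0 ≤ s * (c * b * ‖v' - v‖) := by positivity
  linarith

theorem continuous_hf {u : Euc m → Euc n} (hu : Continuous (fderiv ℝ u)) :
    Continuous (fun q : Euc m × Euc n => hf (fderiv ℝ u q.1) q.2) := by
  unfold hf
  have h1 : Continuous (fun q : Euc m × Euc n => adjL (fderiv ℝ u q.1) q.2) :=
    (adjL.continuous.comp (hu.comp continuous_fst)).clm_apply continuous_snd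
  exact ((h1.norm.pow 2).add (continuous_snd.norm.pow 2)).div_const 2

theorem aem_hf {u : Euc m → Euc n} (hu : Continuous (fderiv ℝ u)) {X : Euc k → Euc m}
    {Y : Euc k → Euc n} (hX : AEMeasurable (fun p : Euc k × L k => X p.1) V)
    (hY : AEMeasurable (fun p : Euc k × L k => Y p.1) V) :
    AEMeasurable (fun p : Euc k × L k => hf (fderiv ℝ u (X p.1)) (Y p.1)) V := by
  have h1 : Continuous (fun q : Euc m × Euc n => hf (fderiv ℝ u q.1) q.2) := continuous_hf hu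
  have h3 : AEMeasurable (fun p : Euc k × L k => (X p.1, Y p.1)) V := hX.prodMk hY
  have h4 := h1.measurable.comp_aemeasurable h3
  exact h4

/-- integrability of the two height densities. -/
theorem SD.int_J (H : SD V π ρ x₀ u u' X X' Y Y' X₀ t Q l κ τ ε h T B Λ) {Ψ Ψ' : Euc m → ℝ} {e : ℝ}
    (he : 0 ≤ e) (hc : Continuous Ψ) (hc' : Continuous Ψ')
    (hz : ∀ v, Real.exp l ≤ ‖v - X₀‖ → Ψ v = 0) (hz' : ∀ v, Real.exp l ≤ ‖v - X₀‖ → Ψ' v = 0)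
    (P0 : ∀ v ∈ ball X₀ (Real.exp l + ε), |Ψ v| ≤ e)
    (P0' : ∀ v ∈ ball X₀ (Real.exp l + ε), |Ψ' v| ≤ e) :
    Integrable (fun p : Euc k × L k => hf (fderiv ℝ u (X p.1)) (Y p.1) * Ψ (X p.1)) V ∧
    Integrable (fun p : Euc k × L k => hf (fderiv ℝ u' (X' p.1)) (Y' p.1) * Ψ' (X' p.1)) V := by
  have := H.isFin
  have hκ1 := H.cl.κ1
  have hcu1 : Continuous (fderiv ℝ u) := (H.cl.cu.fderiv_right (m := 1) (by norm_num)).continuous
  have hcu1' : Continuous (fderiv ℝ u') :=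
    (H.cl.cu'.fderiv_right (m := 1) (by norm_num)).continuous
  have mf := aem_hf hcu1 H.mX H.aeY
  have mf' := aem_hf hcu1' H.mX' H.aeY'
  refine ⟨?_, ?_⟩
  · refine Integrable.mono' (integrable_const (1 * e))
      (mf.mul (hc.measurable.comp_aemeasurable H.mX)).aestronglyMeasurable ?_
    filter_upwards [H.sit.inn, H.sit.out] with p h1 h2
    rw [norm_mul, Real.norm_of_nonneg (hf_nonneg _ _), Real.norm_eq_abs]
    by_cases hR : p ∈ Rg π x₀ X₀ (Real.exp l + ε / 2)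
    · obtain ⟨-, -, -, a1, -, a2⟩ := h1 hR
      refine mul_le_mul ?_ (P0 _ a1) (abs_nonneg _) zero_le_one
      refine (hf_le ((H.cl.d1 _ a1).trans hκ1) _).trans ?_
      have := norm_nonneg (Y p.1)
      nlinarith
    · obtain ⟨a1, -, -⟩ := h2 hR
      rw [mem_closedBall, dist_eq_norm, not_le] at a1
      rw [hz _ a1.le, abs_zero, mul_zero]
      positivity
  · refine Integrable.mono' (integrable_const (9 * e))
      (mf'.mul (hc'.measurable.comp_aemeasurable H.mX')).aestronglyMeasurable ?_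
    filter_upwards [H.sit.inn, H.sit.out] with p h1 h2
    rw [norm_mul, Real.norm_of_nonneg (hf_nonneg _ _), Real.norm_eq_abs]
    by_cases hR : p ∈ Rg π x₀ X₀ (Real.exp l + ε / 2)
    · obtain ⟨f1, f2, -, a1, a1', a2⟩ := h1 hR
      refine mul_le_mul ?_ (P0' _ a1') (abs_nonneg _) (by norm_num)
      refine (hf_le ((H.cl.d1' _ a1').trans hκ1) _).trans ?_
      obtain ⟨-, n2, -⟩ := H.cl.foot_close f1 f2 a1 a1' a2
      have n3 : ‖Y' p.1‖ ≤ 3 := by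
        have e : Y' p.1 = (Y' p.1 - Y p.1) + Y p.1 := by abel
        rw [e]
        refine (norm_add_le _ _).trans ?_
        have := H.cl.τ1
        linarith
      have := norm_nonneg (Y' p.1)
      nlinarith
    · obtain ⟨-, a1, -⟩ := h2 hR
      rw [mem_closedBall, dist_eq_norm, not_le] at a1
      rw [hz' _ a1.le, abs_zero, mul_zero]
      positivity

/-- comparison of the height integrals for general kernels. -/
theorem SD.J_le (H : SD V π ρ x₀ u u' X X' Y Y' X₀ t Q l κ τ ε h T B Λ) (hh0 : 0 ≤ h)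
    {Ψ Ψ' : Euc m → ℝ} {e : ℝ}
    (he : 0 ≤ e) (hc : Continuous Ψ) (hc' : Continuous Ψ')
    (hz : ∀ v, Real.exp l ≤ ‖v - X₀‖ → Ψ v = 0) (hz' : ∀ v, Real.exp l ≤ ‖v - X₀‖ → Ψ' v = 0)
    (P0 : ∀ v ∈ ball X₀ (Real.exp l + ε), |Ψ v| ≤ e)
    (P0' : ∀ v ∈ ball X₀ (Real.exp l + ε), |Ψ' v| ≤ e)
    (P1 : ∀ v ∈ ball X₀ (Real.exp l + ε), |Ψ' v - Ψ v| ≤ e * τ)
    (P2 : ∀ v ∈ ball X₀ (Real.exp l + ε), ∀ v' ∈ ball X₀ (Real.exp l + ε),
      |Ψ v' - Ψ v| ≤ e * ‖v' - v‖) :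
    |∫ p, hf (fderiv ℝ u' (X' p.1)) (Y' p.1) * Ψ' (X' p.1) ∂V -
      ∫ p, hf (fderiv ℝ u (X p.1)) (Y p.1) * Ψ (X p.1) ∂V| ≤ 4 * e * Λ * (τ * (τ + h)) := by
  have := H.isFin
  have hτ0 := H.cl.τ0
  obtain ⟨hi, hi'⟩ := H.int_J he hc hc' hz hz' P0 P0'
  have main := H.cl.J_switch H.sit (Ψ := Ψ) (Ψ' := Ψ') he
    (fun v hv => hz v (by rw [mem_closedBall, dist_eq_norm, not_le] at hv; exact hv.le))
    (fun v hv => hz' v (by rw [mem_closedBall, dist_eq_norm, not_le] at hv; exact hv.le))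
    P0' P1 P2 (f := fun p => hf (fderiv ℝ u (X p.1)) (Y p.1))
    (f' := fun p => hf (fderiv ℝ u' (X' p.1)) (Y' p.1))
    (Eventually.of_forall fun _ _ => rfl) (Eventually.of_forall fun _ _ => rfl) hi hi' H.yi
  refine main.trans ?_
  have b1 := H.real_le (Rg π x₀ X₀ (Real.exp l + ε / 2))
  have b2 := H.int_y hh0
  rw [mul_assoc (4 * e) Λ]
  refine mul_le_mul_of_nonneg_left ?_ (by positivity)
  have g1 : τ ^ 2 * V.real (Rg π x₀ X₀ (Real.exp l + ε / 2)) ≤ τ ^ 2 * Λ :=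
    mul_le_mul_of_nonneg_left b1 (sq_nonneg _)
  have g2 : τ * ∫ p in Rg π x₀ X₀ (Real.exp l + ε / 2), ‖Y p.1‖ ∂V ≤ τ * (Λ * h) :=
    mul_le_mul_of_nonneg_left b2 hτ0
  nlinarith

variable (m n) in
/-- **SWITCH, the height.** -/
theorem exists_I_switch {g g1 g2 : ℝ → ℝ} (hg : Ker g g1) (hg1 : Ker g1 g2) (b Λ : ℝ) :
    ∃ C : ℝ, 0 ≤ C ∧ ∀ (k : ℕ) (V : Measure (Euc k × L k)) (π : Euc k →L[ℝ] Euc m)
      (ρ : Euc k →L[ℝ] Euc n) (x₀ : Euc k) (u u' : Euc m → Euc n) (X X' : Euc k → Euc m)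
      (Y Y' : Euc k → Euc n) (X₀ : Euc m) (t : Euc k × L k → ℝ) (Q l κ τ ε h T B : ℝ),
      SD V π ρ x₀ u u' X X' Y Y' X₀ t Q l κ τ ε h T B Λ → l ≤ 0 → Real.exp (-l) ≤ b → 0 ≤ h →
      |If V X' Y' u' g1 X₀ l - If V X Y u g1 X₀ l| ≤ C * τ * (τ + h) := by
  obtain ⟨c, hc0, Hc⟩ := exists_radq (Euc m) (Euc n) hg hg1
  refine ⟨|b| ^ m * (4 * (212 * c * |b|) * |Λ|), by positivity, ?_⟩
  intro k V π ρ x₀ u u' X X' Y Y' X₀ t Q l κ τ ε h T B H hl hb hh0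
  have hτ0 := H.cl.τ0
  have hκ0 := H.cl.κ0
  have hκ1 := H.cl.κ1
  have hΛ1 := H.L1
  have hΛe : |Λ| = Λ := abs_of_nonneg (by linarith)
  have hb1 : 1 ≤ b := (Real.one_le_exp (by linarith)).trans hb
  have hb0 : 0 ≤ b := by linarith
  have hbe : |b| = b := abs_of_nonneg hb0
  rw [hbe, hΛe]
  have hs1 : Real.exp (-m * l) ≤ b ^ m := by
    have h1 : Real.exp (-m * l) = Real.exp (-l) ^ m := by
      rw [← Real.exp_nat_mul]; congr 1; ring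
    rw [h1]
    exact pow_le_pow_left₀ (Real.exp_pos _).le hb m
  have hq0n : ‖fderiv ℝ u X₀‖ ≤ 1 / 4 := (H.cl.d1 _ H.X0D).trans hκ1
  have hq0n' : ‖fderiv ℝ u' X₀‖ ≤ 1 / 4 := (H.cl.d1' _ H.X0D).trans hκ1
  have hq0d : ‖fderiv ℝ u' X₀ - fderiv ℝ u X₀‖ ≤ τ := H.cl.w1 _ H.X0D
  obtain ⟨-, R0, R1, D0⟩ := Hc l hl (fderiv ℝ u X₀) X₀ hq0n
  obtain ⟨-, R0', R1', -⟩ := Hc l hl (fderiv ℝ u' X₀) X₀ hq0n'
  have hcb : c * Real.exp (-l) ≤ c * b := mul_le_mul_of_nonneg_left hb hc0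
  have D1 : ∀ v, |radq g1 l (fderiv ℝ u' X₀) X₀ v - radq g1 l (fderiv ℝ u X₀) X₀ v| ≤ c * τ :=
    fun v => ((D0 _ hq0n').2 v).trans (mul_le_mul_of_nonneg_left hq0d hc0)
  obtain ⟨P0, P0', P1, P2⟩ := Ps_bound hc0 hb1 H.cl H.X0D (fun v => (R0 v).trans hcb)
    (fun v => (R0' v).trans hcb)
    (fun v v' => (R1 v v').trans (mul_le_mul_of_nonneg_right hcb (norm_nonneg _))) D1
  have P2' := Ps_lip' hc0 hb1 H.cl H.X0D (fun v => (R0' v).trans hcb)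
    (fun v v' => (R1' v v').trans (mul_le_mul_of_nonneg_right hcb (norm_nonneg _)))
  have key := H.J_le hh0 (Ψ := Ps u g1 X₀ l) (Ψ' := Ps u' g1 X₀ l) (e := 212 * c * b)
    (by positivity) (Ps_continuous hg1 H.eps P2) (Ps_continuous hg1 H.eps P2')
    (fun v hv => Ps_zero hg1 u hv) (fun v hv => Ps_zero hg1 u' hv) P0 P0' P1 P2
  rw [If_eq, If_eq, ← mul_sub, abs_mul, abs_of_pos (Real.exp_pos _)]
  have hfin := mul_le_mul hs1 key (abs_nonneg _) (pow_nonneg hb0 m)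
  refine hfin.trans (le_of_eq ?_)
  ring

end Crest.Agent.R234.Sw_733
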