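import Crest.Agent.R234.Sw12_733

/-! # Row 234, VF-F6 (helper733), part 13: the switch of the reference over an abstract measure
space (all points inside the ball) -/

set_option autoImplicit false
set_option linter.unusedSectionVars false
set_option linter.unusedVariables false

open MeasureTheory Set Metric Filter Topology
open scoped ENNReal NNReal ContDiff InnerProductSpace
open Crest.GeometryTopology.Submanifold
open Crest.Agent.R234.Ell1_3 Crest.Agent.R234.Fm_209 Crest.Agent.R234.Cy_870 Crest.Agent.R234.Vf_884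
open Crest.Agent.R234.Main_456 (Frame)

noncomputable section

namespace Crest.Agent.R234.Sw_733

variable {m n : ℕ}

/-- `E` in foot coordinates. -/
def Eg {Ω : Type} [MeasurableSpace Ω] (μ : Measure Ω) (X : Ω → Euc m) (u : Euc m → Euc n)
    (g : ℝ → ℝ) (X₀ : Euc m) (Q l : ℝ) : ℝ :=
  Real.exp ((2 - m) * l) * (∫ p, radq g l (fderiv ℝ u X₀) X₀ (X p) ∂μ -
    Q * ∫ v, radq g l (fderiv ℝ u X₀) X₀ v * dns (fderiv ℝ u v))

/-- `I` in foot coordinates. -/
def Ig {Ω : Type} [MeasurableSpace Ω] (μ : Measure Ω) (X : Ω → Euc m) (Y : Ω → Euc n)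
    (u : Euc m → Euc n) (g1 : ℝ → ℝ) (X₀ : Euc m) (l : ℝ) : ℝ :=
  Real.exp (-m * l) * ∫ p, hf (fderiv ℝ u (X p)) (Y p) * Ps u g1 X₀ l (X p) ∂μ

/-- **the data of a switch at scale `e^l`**: `h` = height bound, `T` = tilt, `B` = total variation of
`X_# μ - Q · area`, all relative to the old reference `u`; `τ` = distance of the references. -/
structure SE {Ω : Type} [MeasurableSpace Ω] (μ : Measure Ω) (α : Ω → Euc m) (β : Ω → Euc n)
    (Kf : Ω → Euc n →L[ℝ] Euc m) (u u' : Euc m → Euc n) (X X' : Ω → Euc m)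
    (Y Y' : Ω → Euc n) (X₀ : Euc m) (t : Ω → ℝ) (Q l κ τ ε h T B Λ : ℝ) : Prop where
  fin : μ univ ≤ ENNReal.ofReal Λ
  L1 : 1 ≤ Λ
  hQ : |Q| ≤ Λ
  mα : AEMeasurable α μ
  mβ : AEMeasurable β μ
  mK : AEStronglyMeasurable Kf μ
  nK : ∀ᵐ p ∂μ, ‖Kf p‖ ≤ 1
  cl : Cl u u' (ball X₀ (Real.exp l + ε)) κ τ
  eps : 0 < ε
  mX : AEMeasurable X μ
  mX' : AEMeasurable X' μ
  foot : ∀ᵐ p ∂μ, Foot u (α p) (β p) (X p) (Y p)
  foot' : ∀ᵐ p ∂μ, Foot u' (α p) (β p) (X' p) (Y' p)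
  ina : ∀ᵐ p ∂μ, α p ∈ ball X₀ (Real.exp l + ε)
  inX : ∀ᵐ p ∂μ, X p ∈ ball X₀ (Real.exp l + ε)
  inX' : ∀ᵐ p ∂μ, X' p ∈ ball X₀ (Real.exp l + ε)
  hh : ∀ᵐ p ∂μ, ‖Y p‖ ≤ h
  h4 : h ≤ 1 / 4
  st : ∀ w : Euc m → Euc n, ContDiff ℝ 2 w → (∀ v, Real.exp l ≤ ‖v - X₀‖ → w v = 0) →
    ∫ p, trc (Euc n) (fderiv ℝ w (α p) ∘L Kf p) ∂μ = 0
  tl : ∀ᵐ p ∂μ, ‖Kf p - KT (fderiv ℝ u (X p))‖ ^ 2 ≤ 2 * t p
  ti : Integrable t μ
  tT : ∫ p, t p ∂μ ≤ T
  tv : ∀ (f : Euc m → ℝ) (s : ℝ), Continuous f → (∀ v, |f v| ≤ s) →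
    (∀ v, Real.exp l ≤ ‖v - X₀‖ → f v = 0) →
    |∫ p, f (X p) ∂μ - Q * ∫ v, f v * dns (fderiv ℝ u v)| ≤ s * B

variable {Ω : Type} [MeasurableSpace Ω] {μ : Measure Ω} {α : Ω → Euc m} {β : Ω → Euc n}
  {Kf : Ω → Euc n →L[ℝ] Euc m} {u u' : Euc m → Euc n} {X X' : Ω → Euc m} {Y Y' : Ω → Euc n}
  {X₀ : Euc m} {t : Ω → ℝ} {Q l κ τ ε h T B Λ : ℝ}

namespace SE

theorem isFin (H : SE μ α β Kf u u' X X' Y Y' X₀ t Q l κ τ ε h T B Λ) : IsFiniteMeasure μ :=
  ⟨H.fin.trans_lt ENNReal.ofReal_lt_top⟩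

theorem X0D (H : SE μ α β Kf u u' X X' Y Y' X₀ t Q l κ τ ε h T B Λ) :
    X₀ ∈ ball X₀ (Real.exp l + ε) :=
  mem_ball_self (by have := Real.exp_pos l; have := H.eps; linarith)

theorem sit (H : SE μ α β Kf u u' X X' Y Y' X₀ t Q l κ τ ε h T B Λ) :
    Sit μ u u' (ball X₀ (Real.exp l + ε)) (closedBall X₀ (Real.exp l)) α β X X' Y Y' univ where
  mx := H.mX
  mx' := H.mX'
  mR := MeasurableSet.univ
  SD := closedBall_subset_ball (by have := H.eps; linarith)
  cS := isCompact_closedBall _ _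
  inn := by
    filter_upwards [H.foot, H.foot', H.ina, H.inX, H.inX', H.hh] with p h1 h2 h3 h4 h5 h6 _
    exact ⟨h1, h2, h3, h4, h5, h6.trans H.h4⟩
  out := Eventually.of_forall fun p hp => absurd (mem_univ p) hp

theorem aeY (H : SE μ α β Kf u u' X X' Y Y' X₀ t Q l κ τ ε h T B Λ) :
    AEMeasurable Y μ := by
  have h1 : AEMeasurable (fun p : Ω => β p - u (X p)) μ := by
    refine AEMeasurable.sub ?_ ?_
    · exact H.mβ
    · exact H.cl.cu.continuous.measurable.comp_aemeasurable H.mX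
  refine h1.congr ?_
  filter_upwards [H.foot] with p hp
  rw [hp.2]; abel

theorem aeY' (H : SE μ α β Kf u u' X X' Y Y' X₀ t Q l κ τ ε h T B Λ) :
    AEMeasurable Y' μ := by
  have h1 : AEMeasurable (fun p : Ω => β p - u' (X' p)) μ := by
    refine AEMeasurable.sub ?_ ?_
    · exact H.mβ
    · exact H.cl.cu'.continuous.measurable.comp_aemeasurable H.mX'
  refine h1.congr ?_
  filter_upwards [H.foot'] with p hp
  rw [hp.2]; abel

theorem real_le (H : SE μ α β Kf u u' X X' Y Y' X₀ t Q l κ τ ε h T B Λ) (R : Set Ω) :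
    μ.real R ≤ Λ := by
  have := H.isFin
  have h1 : μ R ≤ ENNReal.ofReal Λ := (measure_mono (subset_univ _)).trans H.fin
  exact ENNReal.toReal_le_of_le_ofReal (by have := H.L1; linarith) h1

theorem yi (H : SE μ α β Kf u u' X X' Y Y' X₀ t Q l κ τ ε h T B Λ) :
    IntegrableOn (fun p => ‖Y p‖) univ μ := by
  have := H.isFin
  refine Integrable.mono' (integrable_const |h|) H.aeY.norm.aestronglyMeasurable.restrict ?_
  rw [ae_restrict_iff' (MeasurableSet.univ)]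
  filter_upwards [H.hh] with p hp hR
  rw [norm_norm]
  exact hp.trans (le_abs_self h)

theorem int_y (H : SE μ α β Kf u u' X X' Y Y' X₀ t Q l κ τ ε h T B Λ) (hh0 : 0 ≤ h) :
    ∫ p in univ, ‖Y p‖ ∂μ ≤ Λ * h := by
  have := H.isFin
  calc ∫ p in univ, ‖Y p‖ ∂μ ≤
      ∫ p in univ, h ∂μ := by
        refine integral_mono_ae H.yi (integrable_const _) ?_
        rw [EventuallyLE, ae_restrict_iff' (MeasurableSet.univ)]
        filter_upwards [H.hh] with p hp _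
        exact hp
    _ = μ.real (univ) * h := by rw [setIntegral_const, smul_eq_mul]
    _ ≤ _ := mul_le_mul_of_nonneg_right (H.real_le _) hh0

theorem ki (H : SE μ α β Kf u u' X X' Y Y' X₀ t Q l κ τ ε h T B Λ) :
    IntegrableOn (fun p => ‖Kf p - KT (fderiv ℝ u (X p))‖)
      univ μ ∧
    IntegrableOn (fun p => ‖Kf p - KT (fderiv ℝ u (X p))‖ ^ 2)
      univ μ := by
  have := H.isFin
  have hm : AEStronglyMeasurable (fun p : Ω => Kf p - KT (fderiv ℝ u (X p))) μ := by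
    refine AEStronglyMeasurable.sub ?_ ?_
    · exact H.mK
    · have h1 : Continuous (fun v => KT (fderiv ℝ u v)) :=
        SD.continuous_KT.comp (H.cl.cu.fderiv_right (m := 1) (by norm_num)).continuous
      exact (h1.measurable.comp_aemeasurable H.mX).aestronglyMeasurable
  have hb : ∀ᵐ p ∂(μ.restrict (univ)),
      ‖Kf p - KT (fderiv ℝ u (X p))‖ ≤ 2 := by
    rw [ae_restrict_iff' (MeasurableSet.univ)]
    filter_upwards [H.sit.inn, H.nK] with p hp h2 hR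
    obtain ⟨-, -, -, h4, -, -⟩ := hp hR
    refine (norm_sub_le _ _).trans ?_
    have a1 := h2
    have a2 := norm_KT_le (H.cl.d1 _ h4)
    have := H.cl.κ1
    linarith
  refine ⟨?_, ?_⟩
  · refine Integrable.mono' (integrable_const 2) hm.norm.restrict ?_
    filter_upwards [hb] with p hp
    rwa [norm_norm]
  · refine Integrable.mono' (integrable_const 4) (hm.norm.restrict.pow 2) ?_
    filter_upwards [hb] with p hp
    rw [norm_pow, norm_norm]
    have h0 := norm_nonneg (Kf p - KT (fderiv ℝ u (X p)))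
    calc ‖Kf p - KT (fderiv ℝ u (X p))‖ ^ 2 ≤ 2 ^ 2 := pow_le_pow_left₀ h0 hp 2
      _ = 4 := by norm_num

theorem int_k (H : SE μ α β Kf u u' X X' Y Y' X₀ t Q l κ τ ε h T B Λ) :
    ∫ p in univ, ‖Kf p - KT (fderiv ℝ u (X p))‖ ∂μ ≤
      Λ * (2 * Real.sqrt T) := by
  have := H.isFin
  have h1 : ∫ p in univ,
      ‖Kf p - KT (fderiv ℝ u (X p))‖ ^ 2 ∂μ ≤ 2 * T := by
    calc _ ≤ ∫ p in univ, 2 * t p ∂μ := by
          refine integral_mono_ae H.ki.2 (H.ti.const_mul 2).integrableOn ?_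
          rw [EventuallyLE, ae_restrict_iff' (MeasurableSet.univ)]
          filter_upwards [H.tl] with p hp _
          exact hp
      _ = 2 * ∫ p, t p ∂μ := by rw [integral_const_mul, Measure.restrict_univ]
      _ ≤ _ := by linarith [H.tT]
  refine (setIntegral_le_sqrt H.ki.1 H.ki.2 h1 (H.real_le _) H.L1).trans ?_
  refine mul_le_mul_of_nonneg_left ?_ (by have := H.L1; linarith)
  rw [Real.sqrt_mul (by norm_num)]
  refine mul_le_mul_of_nonneg_right ?_ (Real.sqrt_nonneg _)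
  rw [Real.sqrt_le_left (by norm_num)]
  norm_num

end SE

variable (m n) in
/-- **SWITCH, the excess.** -/
theorem exists_Eg_switch {g g1 g2 : ℝ → ℝ} (hg : Ker g g1) (hg1 : Ker g1 g2) (b Λ : ℝ) :
    ∃ C : ℝ, 0 ≤ C ∧ ∀ (Ω : Type) [MeasurableSpace Ω] (μ : Measure Ω) (α : Ω → Euc m)
      (β : Ω → Euc n) (Kf : Ω → Euc n →L[ℝ] Euc m) (u u' : Euc m → Euc n) (X X' : Ω → Euc m)
      (Y Y' : Ω → Euc n) (X₀ : Euc m) (t : Ω → ℝ) (Q l κ τ ε h T B : ℝ),
      SE μ α β Kf u u' X X' Y Y' X₀ t Q l κ τ ε h T B Λ → l ≤ 0 → Real.exp (-l) ≤ b → 0 ≤ h →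
      |Eg μ X' u' g X₀ Q l - Eg μ X u g X₀ Q l| ≤ C * τ * (τ + h + Real.sqrt T + B) := by
  obtain ⟨c, hc0, Hc⟩ := exists_radq (Euc m) (Euc n) hg hg1
  obtain ⟨Cd, hCd, hdns⟩ := exists_dns (Euc m) (Euc n)
  set om := volume.real (closedBall (0 : Euc m) 1) with hom
  have hom0 : 0 ≤ om := measureReal_nonneg
  set tv := ‖trc (Euc n)‖ with htv
  have htv0 : 0 ≤ tv := (trc (Euc n)).opNorm_nonneg
  set tf := ‖trc (Euc m)‖ with htf
  have htf0 : 0 ≤ tf := (trc (Euc m)).opNorm_nonneg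
  set c' := c * (|b| * |b|) with hc'
  have hc'0 : 0 ≤ c' := by positivity
  set Λ' := |Λ| with hΛ'
  have hΛ'0 : 0 ≤ Λ' := abs_nonneg Λ
  refine ⟨|b| ^ m * ((6 + 3 * tv) * c' * (2 * Λ') + Λ' * (c' * Cd) * om + c' * tf + c),
    by positivity, ?_⟩
  intro Ω _ μ α β Kf u u' X X' Y Y' X₀ t Q l κ τ ε h T B H hl hb hh0
  have := H.isFin
  have hτ0 := H.cl.τ0
  have hκ0 := H.cl.κ0
  have hκ1 := H.cl.κ1
  have hΛ1 := H.L1
  have hΛe : Λ' = Λ := abs_of_nonneg (by linarith)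
  have hb0 : 0 ≤ b := (Real.exp_pos _).le.trans hb
  have hbe : |b| = b := abs_of_nonneg hb0
  have hel : Real.exp l ≤ 1 := Real.exp_le_one_iff.2 hl
  have hsT : 0 ≤ Real.sqrt T := Real.sqrt_nonneg _
  -- scale factors
  have hs1 : Real.exp ((2 - m) * l) ≤ b ^ m := by
    have h1 : Real.exp ((2 - m) * l) ≤ Real.exp (-l) ^ m := by
      rw [← Real.exp_nat_mul]
      refine Real.exp_le_exp.2 ?_
      nlinarith
    exact h1.trans (pow_le_pow_left₀ (Real.exp_pos _).le hb m)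
  have hs2 : Real.exp (-2 * l) ≤ b * b := by
    have h1 : Real.exp (-2 * l) = Real.exp (-l) * Real.exp (-l) := by
      rw [← Real.exp_add]; congr 1; ring
    rw [h1]
    exact mul_le_mul hb hb (Real.exp_pos _).le hb0
  -- slopes at the centre
  set q0 := fderiv ℝ u X₀ with hq0
  set q0' := fderiv ℝ u' X₀ with hq0'
  have hq0n : ‖q0‖ ≤ 1 / 4 := (H.cl.d1 _ H.X0D).trans hκ1
  have hq0n' : ‖q0'‖ ≤ 1 / 4 := (H.cl.d1' _ H.X0D).trans hκ1
  have hq0d : ‖q0' - q0‖ ≤ τ := H.cl.w1 _ H.X0D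
  obtain ⟨T1, -, -, -⟩ := Hc l hl q0' X₀ hq0n'
  obtain ⟨T0, -, -, D0⟩ := Hc l hl q0 X₀ hq0n
  have Dg := (D0 q0' hq0n').1
  have hT1 : Tst (radq g l q0' X₀) c' := by
    have hle : c * Real.exp (-2 * l) ≤ c' := by
      rw [hc', hbe]; exact mul_le_mul_of_nonneg_left hs2 hc0
    exact ⟨T1.cd, hc'0, fun v => (T1.b0 v).trans hle, fun v => (T1.b1 v).trans hle,
      fun v => (T1.b2 v).trans hle⟩
  -- the field
  set w : Euc m → Euc n := fun v => radq g l q0' X₀ v • (u' v - u v) with hw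
  have hwcd : ContDiff ℝ 2 w := hT1.cd.smul (H.cl.cu'.sub H.cl.cu)
  have hw0 : ∀ v, Real.exp l ≤ ‖v - X₀‖ → w v = 0 := by
    intro v hv
    rw [hw]
    simp only
    rw [radq_zero hg hv, zero_smul]
  have hFV : ∫ p, trc (Euc n) (fderiv ℝ w (α p) ∘L Kf p) ∂μ = 0 := H.st w hwcd hw0
  have hFi : Integrable (fun p : Ω =>
      trc (Euc n) (fderiv ℝ w (α p) ∘L Kf p)) μ := by
    have hc1 : Continuous (fderiv ℝ w) := hwcd.continuous_fderiv (by norm_num)
    have hts : ∀ v ∉ closedBall X₀ (Real.exp l), fderiv ℝ w v = 0 := by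
      intro v hv
      refine image_eq_zero_of_notMem_tsupport fun hc => hv ?_
      have h1 := tsupport_fderiv_subset ℝ hc
      refine closure_minimal (fun v hv => ?_) isClosed_closedBall h1
      rw [mem_closedBall, dist_eq_norm]
      by_contra h2
      exact hv (hw0 v (not_le.1 h2).le)
    obtain ⟨Cw, hCw⟩ := (isCompact_closedBall X₀ (Real.exp l)).exists_bound_of_continuousOn
      hc1.continuousOn
    have hCw' : ∀ v, ‖fderiv ℝ w v‖ ≤ |Cw| := by
      intro v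
      by_cases hv : v ∈ closedBall X₀ (Real.exp l)
      · exact (hCw v hv).trans (le_abs_self _)
      · rw [hts v hv, norm_zero]; exact abs_nonneg _
    refine Integrable.mono' (integrable_const (tv * |Cw|)) ?_ ?_
    · have m1 : AEStronglyMeasurable (fun p => fderiv ℝ w (α p)) μ :=
        (hc1.measurable.comp_aemeasurable H.mα).aestronglyMeasurable
      have m2 : Continuous fun q : (Euc m →L[ℝ] Euc n) × (Euc n →L[ℝ] Euc m) =>
          trc (Euc n) (q.1 ∘L q.2) :=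
        (trc (Euc n)).continuous.comp (continuous_fst.clm_comp continuous_snd)
      exact m2.comp_aestronglyMeasurable (m1.prodMk H.mK)
    · filter_upwards [H.nK] with p hp
      rw [Real.norm_eq_abs]
      refine (abs_trc_le _).trans (mul_le_mul_of_nonneg_left ?_ htv0)
      refine (ContinuousLinearMap.opNorm_comp_le _ _).trans ?_
      calc ‖fderiv ℝ w (α p)‖ * ‖Kf p‖ ≤ |Cw| * 1 :=
            mul_le_mul (hCw' _) hp (norm_nonneg _) (abs_nonneg _)
        _ = _ := mul_one _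
  have main := H.cl.E_switch hT1 (radq_tsupport hg l q0' X₀) H.sit (K := Kf)
    H.nK hFi hFV H.yi H.ki.1 hCd hdns Q
  -- the bounds
  have b1 := H.real_le univ
  have b2 := H.int_y hh0
  have b3 := H.int_k
  have b4 : volume.real (closedBall X₀ (Real.exp l)) ≤ om := by
    have e1 : volume (closedBall X₀ (Real.exp l)) = volume (closedBall (0 : Euc m) (Real.exp l)) := by
      rw [Measure.addHaar_closedBall_center]
    rw [hom, measureReal_def, measureReal_def, e1]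
    refine ENNReal.toReal_mono measure_closedBall_lt_top.ne ?_
    exact measure_mono (closedBall_subset_closedBall hel)
  have hXic : Continuous (Xi (radq g l q0' X₀) u u') := by
    have hcu1 : Continuous (fderiv ℝ u) := (H.cl.cu.fderiv_right (m := 1) (by norm_num)).continuous
    have hcu1' : Continuous (fderiv ℝ u') :=
      (H.cl.cu'.fderiv_right (m := 1) (by norm_num)).continuous
    refine hT1.cd.continuous.mul ((trc (Euc m)).continuous.comp ?_)
    exact (SD.continuous_KT.comp hcu1).clm_comp (hcu1'.sub hcu1)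
  have hXi0 : ∀ v, Real.exp l ≤ ‖v - X₀‖ → Xi (radq g l q0' X₀) u u' v = 0 := by
    intro v hv; rw [Xi, radq_zero hg hv, zero_mul]
  have hXib : ∀ v, |Xi (radq g l q0' X₀) u u' v| ≤ c' * tf * τ := by
    intro v
    by_cases hv : Real.exp l ≤ ‖v - X₀‖
    · rw [hXi0 v hv, abs_zero]; positivity
    · have hvD : v ∈ ball X₀ (Real.exp l + ε) := by
        rw [mem_ball, dist_eq_norm]; have := H.eps; linarith [not_le.1 hv]
      rw [Xi, abs_mul]
      calc |radq g l q0' X₀ v| * |trc (Euc m) (KT (fderiv ℝ u v) ∘L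
            (fderiv ℝ u' v - fderiv ℝ u v))| ≤ c' * (tf * (1 * τ)) := by
            refine mul_le_mul (hT1.b0 v) ((abs_trc_le _).trans (mul_le_mul_of_nonneg_left ?_ htf0))
              (abs_nonneg _) hc'0
            refine (ContinuousLinearMap.opNorm_comp_le _ _).trans (mul_le_mul ?_ (H.cl.w1 v hvD)
              (norm_nonneg _) zero_le_one)
            exact (norm_KT_le (H.cl.d1 v hvD)).trans (by linarith)
        _ = _ := by ring
  have b5 := H.tv (Xi (radq g l q0' X₀) u u') (c' * tf * τ) hXic hXib hXi0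
  -- change of the test function
  have hdc : Continuous (fun v => radq g l q0' X₀ v - radq g l q0 X₀ v) :=
    hT1.cd.continuous.sub T0.cd.continuous
  have b6 := H.tv (fun v => radq g l q0' X₀ v - radq g l q0 X₀ v) (c * τ) hdc
    (fun v => (Dg v).trans (mul_le_mul_of_nonneg_left hq0d hc0))
    (fun v hv => by rw [radq_zero hg hv, radq_zero hg hv, sub_zero])
  -- integrability for the splitting
  have iV : ∀ (q : Euc m →L[ℝ] Euc n), ‖q‖ ≤ 1 / 4 →
      Integrable (fun p : Ω => radq g l q X₀ (X p)) μ := by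
    intro q hq
    obtain ⟨Tq, -, -, -⟩ := Hc l hl q X₀ hq
    refine Integrable.mono' (integrable_const (c * Real.exp (-2 * l)))
      ((Tq.cd.continuous.measurable.comp_aemeasurable H.mX).aestronglyMeasurable) ?_
    filter_upwards with p
    rw [Real.norm_eq_abs]; exact Tq.b0 _
  have iL : ∀ (q : Euc m →L[ℝ] Euc n), ‖q‖ ≤ 1 / 4 →
      Integrable (fun v => radq g l q X₀ v * dns (fderiv ℝ u v)) := by
    intro q hq
    obtain ⟨Tq, -, -, -⟩ := Hc l hl q X₀ hq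
    have hcu1 : Continuous (fderiv ℝ u) := (H.cl.cu.fderiv_right (m := 1) (by norm_num)).continuous
    have hdnsc : Continuous (dns : (Euc m →L[ℝ] Euc n) → ℝ) := dns_contDiff.continuous
    refine (Tq.cd.continuous.mul (hdnsc.comp hcu1)).integrable_of_hasCompactSupport ?_
    refine HasCompactSupport.intro (isCompact_closedBall X₀ (Real.exp l)) fun v hv => ?_
    rw [mem_closedBall, dist_eq_norm, not_le] at hv
    change radq g l q X₀ v * dns (fderiv ℝ u v) = 0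
    rw [radq_zero hg hv.le, zero_mul]
  have e1 : ∫ p, (radq g l q0' X₀ (X p) - radq g l q0 X₀ (X p)) ∂μ =
      ∫ p, radq g l q0' X₀ (X p) ∂μ - ∫ p, radq g l q0 X₀ (X p) ∂μ :=
    integral_sub (iV q0' hq0n') (iV q0 hq0n)
  have e2 : ∫ v, (radq g l q0' X₀ v - radq g l q0 X₀ v) * dns (fderiv ℝ u v) =
      (∫ v, radq g l q0' X₀ v * dns (fderiv ℝ u v)) -
        ∫ v, radq g l q0 X₀ v * dns (fderiv ℝ u v) := by
    rw [← integral_sub (iL q0' hq0n') (iL q0 hq0n)]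
    refine integral_congr_ae (Eventually.of_forall fun v => ?_)
    simp only
    ring
  rw [e1, e2] at b6
  unfold Eg
  rw [← hq0, ← hq0', ← mul_sub, abs_mul, abs_of_pos (Real.exp_pos _)]
  set A1 := ∫ p, radq g l q0' X₀ (X' p) ∂μ
  set A2 := ∫ p, radq g l q0' X₀ (X p) ∂μ
  set A3 := ∫ p, radq g l q0 X₀ (X p) ∂μ
  set B1 := ∫ v, radq g l q0' X₀ v * dns (fderiv ℝ u' v)
  set B2 := ∫ v, radq g l q0' X₀ v * dns (fderiv ℝ u v)
  set B3 := ∫ v, radq g l q0 X₀ v * dns (fderiv ℝ u v)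
  have key : |(A1 - Q * B1) - (A3 - Q * B3)| ≤
      ((6 + 3 * tv) * c' * (2 * Λ') + Λ' * (c' * Cd) * om + c' * tf + c) *
        (τ * (τ + h + Real.sqrt T + B)) := by
    have e3 : (A1 - Q * B1) - (A3 - Q * B3) = ((A1 - Q * B1) - (A2 - Q * B2)) +
        ((A2 - A3) - Q * (B2 - B3)) := by ring
    rw [e3]
    refine (abs_add_le _ _).trans ?_
    have hB0 : 0 ≤ B ∨ τ = 0 := by
      by_contra hc
      rw [not_or, not_le] at hc
      have h1 := H.tv (fun _ => 0) 1 continuous_const (fun v => by simp) (fun _ _ => rfl)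
      simp only [integral_zero, zero_mul, mul_zero, sub_zero, abs_zero, one_mul] at h1
      linarith [hc.1]
    have f1 : (6 + 3 * tv) * c' * (τ ^ 2 * μ.real (univ) +
        τ * ∫ p in univ, ‖Y p‖ ∂μ +
        τ * ∫ p in univ,
          ‖Kf p - KT (fderiv ℝ u (X p))‖ ∂μ) ≤
        (6 + 3 * tv) * c' * (2 * Λ') * (τ * (τ + h + Real.sqrt T)) := by
      rw [hΛe]
      have g1 : τ ^ 2 * μ.real (univ) ≤ τ ^ 2 * Λ :=
        mul_le_mul_of_nonneg_left b1 (sq_nonneg _)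
      have g2 : τ * ∫ p in univ, ‖Y p‖ ∂μ ≤ τ * (Λ * h) :=
        mul_le_mul_of_nonneg_left b2 hτ0
      have g3 : τ * ∫ p in univ,
          ‖Kf p - KT (fderiv ℝ u (X p))‖ ∂μ ≤ τ * (Λ * (2 * Real.sqrt T)) :=
        mul_le_mul_of_nonneg_left b3 hτ0
      rw [mul_assoc ((6 + 3 * tv) * c') (2 * Λ)]
      refine mul_le_mul_of_nonneg_left ?_ (by positivity)
      have g4 : 0 ≤ τ ^ 2 * Λ := by positivity
      have g5 : 0 ≤ τ * (Λ * h) := by positivity
      nlinarith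
    have f2 : |Q| * (c' * (Cd * τ ^ 2) * volume.real (closedBall X₀ (Real.exp l))) ≤
        Λ' * (c' * Cd) * om * (τ * τ) := by
      have g1 : |Q| ≤ Λ' := H.hQ.trans (le_abs_self _)
      calc |Q| * (c' * (Cd * τ ^ 2) * volume.real (closedBall X₀ (Real.exp l))) ≤
            Λ' * (c' * (Cd * τ ^ 2) * om) :=
            mul_le_mul g1 (mul_le_mul_of_nonneg_left b4 (by positivity)) (by positivity) hΛ'0
        _ = _ := by ring
    have f3 : |∫ p, Xi (radq g l q0' X₀) u u' (X p) ∂μ -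
        Q * ∫ v, Xi (radq g l q0' X₀) u u' v * dns (fderiv ℝ u v)| ≤ c' * tf * (τ * B) :=
      b5.trans (le_of_eq (by ring))
    have f4 : |(A2 - A3) - Q * (B2 - B3)| ≤ c * (τ * B) := b6.trans (le_of_eq (by ring))
    have hτB : 0 ≤ τ * B := by
      rcases hB0 with h1 | h1
      · positivity
      · rw [h1, zero_mul]
    have hτh : 0 ≤ τ * h := by positivity
    have hτT : 0 ≤ τ * Real.sqrt T := by positivity
    have hττ : 0 ≤ τ * τ := by positivity
    have expand : ((6 + 3 * tv) * c' * (2 * Λ') + Λ' * (c' * Cd) * om + c' * tf + c) *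
        (τ * (τ + h + Real.sqrt T + B)) =
        (6 + 3 * tv) * c' * (2 * Λ') * (τ * (τ + h + Real.sqrt T)) +
        (6 + 3 * tv) * c' * (2 * Λ') * (τ * B) +
        Λ' * (c' * Cd) * om * (τ * τ) + Λ' * (c' * Cd) * om * (τ * h + τ * Real.sqrt T + τ * B) +
        c' * tf * (τ * B) + c' * tf * (τ * τ + τ * h + τ * Real.sqrt T) +
        c * (τ * B) + c * (τ * τ + τ * h + τ * Real.sqrt T) := by ring
    rw [expand]
    have p1 : 0 ≤ (6 + 3 * tv) * c' * (2 * Λ') * (τ * B) := by positivity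
    have p2 : 0 ≤ Λ' * (c' * Cd) * om * (τ * h + τ * Real.sqrt T + τ * B) := by positivity
    have p3 : 0 ≤ c' * tf * (τ * τ + τ * h + τ * Real.sqrt T) := by positivity
    have p4 : 0 ≤ c * (τ * τ + τ * h + τ * Real.sqrt T) := by positivity
    linarith
  have hp : 0 ≤ |(A1 - Q * B1) - (A3 - Q * B3)| := abs_nonneg _
  calc Real.exp ((2 - m) * l) * |(A1 - Q * B1) - (A3 - Q * B3)| ≤
        |b| ^ m * (((6 + 3 * tv) * c' * (2 * Λ') + Λ' * (c' * Cd) * om + c' * tf + c) *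
        (τ * (τ + h + Real.sqrt T + B))) :=
        mul_le_mul (hs1.trans (by rw [hbe])) key hp (by positivity)
    _ = _ := by ring



theorem aem_hf' {v : Euc m → Euc n} (hu : Continuous (fderiv ℝ v)) {ξ : Ω → Euc m}
    {η : Ω → Euc n} (hX : AEMeasurable ξ μ) (hY : AEMeasurable η μ) :
    AEMeasurable (fun p : Ω => hf (fderiv ℝ v (ξ p)) (η p)) μ := by
  have h1 : Continuous (fun q : Euc m × Euc n => hf (fderiv ℝ v q.1) q.2) := continuous_hf hu
  have h3 : AEMeasurable (fun p : Ω => (ξ p, η p)) μ := hX.prodMk hY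
  have h4 := h1.measurable.comp_aemeasurable h3
  exact h4

/-- integrability of the two height densities. -/
theorem SE.int_J (H : SE μ α β Kf u u' X X' Y Y' X₀ t Q l κ τ ε h T B Λ) {Ψ Ψ' : Euc m → ℝ} {e : ℝ}
    (he : 0 ≤ e) (hc : Continuous Ψ) (hc' : Continuous Ψ')
    (P0 : ∀ v ∈ ball X₀ (Real.exp l + ε), |Ψ v| ≤ e)
    (P0' : ∀ v ∈ ball X₀ (Real.exp l + ε), |Ψ' v| ≤ e) :
    Integrable (fun p : Ω => hf (fderiv ℝ u (X p)) (Y p) * Ψ (X p)) μ ∧
    Integrable (fun p : Ω => hf (fderiv ℝ u' (X' p)) (Y' p) * Ψ' (X' p)) μ := by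
  have := H.isFin
  have hκ1 := H.cl.κ1
  have hcu1 : Continuous (fderiv ℝ u) := (H.cl.cu.fderiv_right (m := 1) (by norm_num)).continuous
  have hcu1' : Continuous (fderiv ℝ u') :=
    (H.cl.cu'.fderiv_right (m := 1) (by norm_num)).continuous
  have mf := aem_hf' hcu1 H.mX H.aeY
  have mf' := aem_hf' hcu1' H.mX' H.aeY'
  refine ⟨?_, ?_⟩
  · refine Integrable.mono' (integrable_const (1 * e))
      (mf.mul (hc.measurable.comp_aemeasurable H.mX)).aestronglyMeasurable ?_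
    filter_upwards [H.sit.inn] with p h1
    rw [norm_mul, Real.norm_of_nonneg (hf_nonneg _ _), Real.norm_eq_abs]
    obtain ⟨-, -, -, a1, -, a2⟩ := h1 (mem_univ p)
    refine mul_le_mul ?_ (P0 _ a1) (abs_nonneg _) zero_le_one
    refine (hf_le ((H.cl.d1 _ a1).trans hκ1) _).trans ?_
    have := norm_nonneg (Y p)
    nlinarith
  · refine Integrable.mono' (integrable_const (9 * e))
      (mf'.mul (hc'.measurable.comp_aemeasurable H.mX')).aestronglyMeasurable ?_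
    filter_upwards [H.sit.inn] with p h1
    rw [norm_mul, Real.norm_of_nonneg (hf_nonneg _ _), Real.norm_eq_abs]
    obtain ⟨f1, f2, -, a1, a1', a2⟩ := h1 (mem_univ p)
    refine mul_le_mul ?_ (P0' _ a1') (abs_nonneg _) (by norm_num)
    refine (hf_le ((H.cl.d1' _ a1').trans hκ1) _).trans ?_
    obtain ⟨-, n2, -⟩ := H.cl.foot_close f1 f2 a1 a1' a2
    have n3 : ‖Y' p‖ ≤ 3 := by
      have e : Y' p = (Y' p - Y p) + Y p := by abel
      rw [e]
      refine (norm_add_le _ _).trans ?_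
      have := H.cl.τ1
      linarith
    have := norm_nonneg (Y' p)
    nlinarith

/-- comparison of the height integrals for general kernels. -/
theorem SE.J_le (H : SE μ α β Kf u u' X X' Y Y' X₀ t Q l κ τ ε h T B Λ) (hh0 : 0 ≤ h)
    {Ψ Ψ' : Euc m → ℝ} {e : ℝ}
    (he : 0 ≤ e) (hc : Continuous Ψ) (hc' : Continuous Ψ')
    (hz : ∀ v, Real.exp l ≤ ‖v - X₀‖ → Ψ v = 0) (hz' : ∀ v, Real.exp l ≤ ‖v - X₀‖ → Ψ' v = 0)
    (P0 : ∀ v ∈ ball X₀ (Real.exp l + ε), |Ψ v| ≤ e)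
    (P0' : ∀ v ∈ ball X₀ (Real.exp l + ε), |Ψ' v| ≤ e)
    (P1 : ∀ v ∈ ball X₀ (Real.exp l + ε), |Ψ' v - Ψ v| ≤ e * τ)
    (P2 : ∀ v ∈ ball X₀ (Real.exp l + ε), ∀ v' ∈ ball X₀ (Real.exp l + ε),
      |Ψ v' - Ψ v| ≤ e * ‖v' - v‖) :
    |∫ p, hf (fderiv ℝ u' (X' p)) (Y' p) * Ψ' (X' p) ∂μ -
      ∫ p, hf (fderiv ℝ u (X p)) (Y p) * Ψ (X p) ∂μ| ≤ 4 * e * Λ * (τ * (τ + h)) := by
  have := H.isFin
  have hτ0 := H.cl.τ0
  obtain ⟨hi, hi'⟩ := H.int_J he hc hc' P0 P0'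
  have main := H.cl.J_switch H.sit (Ψ := Ψ) (Ψ' := Ψ') he
    (fun v hv => hz v (by rw [mem_closedBall, dist_eq_norm, not_le] at hv; exact hv.le))
    (fun v hv => hz' v (by rw [mem_closedBall, dist_eq_norm, not_le] at hv; exact hv.le))
    P0' P1 P2 (f := fun p => hf (fderiv ℝ u (X p)) (Y p))
    (f' := fun p => hf (fderiv ℝ u' (X' p)) (Y' p))
    (Eventually.of_forall fun _ _ => rfl) (Eventually.of_forall fun _ _ => rfl) hi hi' H.yi
  refine main.trans ?_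
  have b1 := H.real_le univ
  have b2 := H.int_y hh0
  rw [mul_assoc (4 * e) Λ]
  refine mul_le_mul_of_nonneg_left ?_ (by positivity)
  have g1 : τ ^ 2 * μ.real (univ) ≤ τ ^ 2 * Λ :=
    mul_le_mul_of_nonneg_left b1 (sq_nonneg _)
  have g2 : τ * ∫ p in univ, ‖Y p‖ ∂μ ≤ τ * (Λ * h) :=
    mul_le_mul_of_nonneg_left b2 hτ0
  nlinarith

variable (m n) in
/-- **SWITCH, the height.** -/
theorem exists_Ig_switch {g g1 g2 : ℝ → ℝ} (hg : Ker g g1) (hg1 : Ker g1 g2) (b Λ : ℝ) :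
    ∃ C : ℝ, 0 ≤ C ∧ ∀ (Ω : Type) [MeasurableSpace Ω] (μ : Measure Ω) (α : Ω → Euc m)
      (β : Ω → Euc n) (Kf : Ω → Euc n →L[ℝ] Euc m) (u u' : Euc m → Euc n) (X X' : Ω → Euc m)
      (Y Y' : Ω → Euc n) (X₀ : Euc m) (t : Ω → ℝ) (Q l κ τ ε h T B : ℝ),
      SE μ α β Kf u u' X X' Y Y' X₀ t Q l κ τ ε h T B Λ → l ≤ 0 → Real.exp (-l) ≤ b → 0 ≤ h →
      |Ig μ X' Y' u' g1 X₀ l - Ig μ X Y u g1 X₀ l| ≤ C * τ * (τ + h) := by
  obtain ⟨c, hc0, Hc⟩ := exists_radq (Euc m) (Euc n) hg hg1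
  refine ⟨|b| ^ m * (4 * (212 * c * |b|) * |Λ|), by positivity, ?_⟩
  intro Ω _ μ α β Kf u u' X X' Y Y' X₀ t Q l κ τ ε h T B H hl hb hh0
  have hτ0 := H.cl.τ0
  have hκ0 := H.cl.κ0
  have hκ1 := H.cl.κ1
  have hΛ1 := H.L1
  have hΛe : |Λ| = Λ := abs_of_nonneg (by linarith)
  have hb1 : 1 ≤ b := (Real.one_le_exp (by linarith)).trans hb
  have hb0 : 0 ≤ b := by linarith
  have hbe : |b| = b := abs_of_nonneg hb0
  rw [hbe, hΛe]
  have hs1 : Real.exp (-m * l) ≤ b ^ m := by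
    have h1 : Real.exp (-m * l) = Real.exp (-l) ^ m := by
      rw [← Real.exp_nat_mul]; congr 1; ring
    rw [h1]
    exact pow_le_pow_left₀ (Real.exp_pos _).le hb m
  have hq0n : ‖fderiv ℝ u X₀‖ ≤ 1 / 4 := (H.cl.d1 _ H.X0D).trans hκ1
  have hq0n' : ‖fderiv ℝ u' X₀‖ ≤ 1 / 4 := (H.cl.d1' _ H.X0D).trans hκ1
  have hq0d : ‖fderiv ℝ u' X₀ - fderiv ℝ u X₀‖ ≤ τ := H.cl.w1 _ H.X0D
  obtain ⟨-, R0, R1, D0⟩ := Hc l hl (fderiv ℝ u X₀) X₀ hq0n
  obtain ⟨-, R0', R1', -⟩ := Hc l hl (fderiv ℝ u' X₀) X₀ hq0n'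
  have hcb : c * Real.exp (-l) ≤ c * b := mul_le_mul_of_nonneg_left hb hc0
  have D1 : ∀ v, |radq g1 l (fderiv ℝ u' X₀) X₀ v - radq g1 l (fderiv ℝ u X₀) X₀ v| ≤ c * τ :=
    fun v => ((D0 _ hq0n').2 v).trans (mul_le_mul_of_nonneg_left hq0d hc0)
  obtain ⟨P0, P0', P1, P2⟩ := Ps_bound hc0 hb1 H.cl H.X0D (fun v => (R0 v).trans hcb)
    (fun v => (R0' v).trans hcb)
    (fun v v' => (R1 v v').trans (mul_le_mul_of_nonneg_right hcb (norm_nonneg _))) D1
  have P2' := Ps_lip' hc0 hb1 H.cl H.X0D (fun v => (R0' v).trans hcb)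
    (fun v v' => (R1' v v').trans (mul_le_mul_of_nonneg_right hcb (norm_nonneg _)))
  have key := H.J_le hh0 (Ψ := Ps u g1 X₀ l) (Ψ' := Ps u' g1 X₀ l) (e := 212 * c * b)
    (by positivity) (Ps_continuous hg1 H.eps P2) (Ps_continuous hg1 H.eps P2')
    (fun v hv => Ps_zero hg1 u hv) (fun v hv => Ps_zero hg1 u' hv) P0 P0' P1 P2
  unfold Ig
  rw [← mul_sub, abs_mul, abs_of_pos (Real.exp_pos _)]
  have hfin := mul_le_mul hs1 key (abs_nonneg _) (pow_nonneg hb0 m)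
  refine hfin.trans (le_of_eq ?_)
  ring



end Crest.Agent.R234.Sw_733
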