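import Crest.Agent.R234.Sw13_733
import Crest.Agent.R234.Stp3_518
import Crest.Agent.R234.Mono2_757

/-! # Row 234, VF-F6 (helper733), part 14: the functionals of a reference in foot coordinates -/

set_option autoImplicit false
set_option linter.unusedSectionVars false
set_option linter.unusedVariables false

open MeasureTheory Set Metric Filter Topology
open scoped ENNReal NNReal ContDiff InnerProductSpace
open Crest.GeometryTopology.Submanifold
open Crest.Agent.R234.Ell1_3 Crest.Agent.R234.Fm_209 Crest.Agent.R234.Cy_870 Crest.Agent.R234.Vf_884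
open Crest.Agent.R234.Main_456 (Frame)
open Crest.Agent.R234.Stp_518 (Mo)
open Crest.Agent.R234.Gi_456 (Lo Loi giB jB muG Gr)

noncomputable section

namespace Crest.Agent.R234.Sw_733

variable {m n k : ℕ}

local notation "adj" => ContinuousLinearMap.adjoint

theorem gg_eq_gop (q : Euc m →L[ℝ] Euc n) : GLK_128.gg q = gop q := rfl

theorem norm_Lo_sq' (q : Euc m →L[ℝ] Euc n) (v : Euc m) : ‖Lo q v‖ ^ 2 = ⟪v, gop q v⟫_ℝ := by
  rw [Gi_456.norm_Lo_sq, gop_inner, real_inner_self_eq_norm_sq, real_inner_self_eq_norm_sq]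

theorem adj_Lo_Lo' (q : Euc m →L[ℝ] Euc n) (v : Euc m) : adj (Lo q) (Lo q v) = gop q v :=
  congrArg (fun T : L m => T v) (Gi_456.adj_Lo_Lo q)

/-- `μ` of the chart in foot coordinates. -/
theorem muG_Lo {w : Euc m → Euc n} (X : Euc m) :
    muG (giB w 0) (Lo (fderiv ℝ w 0) X) = mq (fderiv ℝ w 0) (fderiv ℝ w X) X := by
  unfold mq
  by_cases hX : X = 0
  · subst hX
    rw [map_zero, Gi_456.muG_zero, if_pos rfl]
  · have h0 : Lo (fderiv ℝ w 0) X ≠ 0 := by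
      intro hc
      have := Gi_456.le_norm_Lo (fderiv ℝ w 0) X
      rw [hc, norm_zero] at this
      exact hX (norm_le_zero_iff.1 this)
    rw [Gi_456.muG_of_ne h0, if_neg hX, norm_Lo_sq']
    congr 1
    have e1 : Gi_456.pt w 0 (Lo (fderiv ℝ w 0) X) = X := by
      rw [Gi_456.pt, Gi_456.Loi_Lo, zero_add]
    have e2 : giB w 0 (Lo (fderiv ℝ w 0) X) (Lo (fderiv ℝ w 0) X) =
        Lo (fderiv ℝ w 0) (ginv (fderiv ℝ w X) (gop (fderiv ℝ w 0) X)) := by
      rw [giB, e1]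
      simp only [ContinuousLinearMap.comp_apply]
      rw [adj_Lo_Lo']
    rw [e2, ← ContinuousLinearMap.adjoint_inner_left, adj_Lo_Lo']

theorem norm_Bt_sq {π : Euc k →L[ℝ] Euc m} {ρ : Euc k →L[ℝ] Euc n} (hf1 : Frame π ρ)
    (w : Euc m → Euc n) (X : Euc m) (Y : Euc n) :
    ‖Gi_456.Bt π ρ w X Y‖ ^ 2 / 2 = hf (fderiv ℝ w X) Y := by
  have e1 : Gi_456.Bt π ρ w X Y = adj π (-(adj (fderiv ℝ w X) Y)) + adj ρ Y := by
    simp only [Gi_456.Bt, GLK_128.BB]
    rw [_root_.sub_apply, ContinuousLinearMap.comp_apply, map_neg]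
    abel
  rw [e1, Gi_456.norm_sq_frame hf1, norm_neg]
  rfl

namespace St

variable (M : Mo m n k) (x : Euc k)

/-- the foot in block units. -/
def X (z : Euc k) : Euc m := M.S⁻¹ • Gi_456.foot M.π M.ρ x M.S M.w z

/-- the height in block units. -/
def Y (z : Euc k) : Euc n := M.S⁻¹ • Gi_456.yy M.π M.ρ x M.S M.w z

/-- base coordinate in block units. -/
def a (z : Euc k) : Euc m := M.S⁻¹ • M.π (z - x)

/-- height coordinate in block units. -/
def b (z : Euc k) : Euc n := M.S⁻¹ • M.ρ (z - x)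

variable {M x}

theorem S_smul_X (z : Euc k) : M.S • X M x z = Gi_456.foot M.π M.ρ x M.S M.w z := by
  rw [X, smul_smul, mul_inv_cancel₀ M.S_pos.ne', one_smul]

theorem S_smul_Y (z : Euc k) : M.S • Y M x z = Gi_456.yy M.π M.ρ x M.S M.w z := by
  rw [Y, smul_smul, mul_inv_cancel₀ M.S_pos.ne', one_smul]

theorem fd_w (hu : Differentiable ℝ M.u) (z : Euc k) :
    fderiv ℝ M.w (Gi_456.foot M.π M.ρ x M.S M.w z) = fderiv ℝ M.u (X M x z) := by
  rw [Mo.fderiv_w hu]; rfl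

theorem fd_w0 (hu : Differentiable ℝ M.u) : fderiv ℝ M.w 0 = fderiv ℝ M.u 0 := by
  rw [Mo.fderiv_w hu]
  simp only [smul_zero]

/-- `foot` in block units. -/
theorem isFoot (hu : Differentiable ℝ M.u) (hg : Gr M.S M.w) {z : Euc k}
    (hz : z ∈ Gi_456.tube M.π M.ρ x M.S M.w) : Foot M.u (a M x z) (b M x z) (X M x z) (Y M x z) := by
  have hS := M.S_pos
  have h1 := hg.foot_fix hz
  have h2 : Gi_456.yy M.π M.ρ x M.S M.w z = M.ρ (z - x) - M.w (Gi_456.foot M.π M.ρ x M.S M.w z) := rfl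
  refine ⟨?_, ?_⟩
  · show M.S⁻¹ • M.π (z - x) = _
    rw [fd_w hu] at h1
    have e1 : M.π (z - x) = Gi_456.foot M.π M.ρ x M.S M.w z -
        adj (fderiv ℝ M.u (X M x z)) (Gi_456.yy M.π M.ρ x M.S M.w z) := by
      nth_rewrite 1 [h1]; abel
    rw [e1, smul_sub, Y, map_smul]
    rfl
  · show M.S⁻¹ • M.ρ (z - x) = _
    have e1 : M.ρ (z - x) = M.w (Gi_456.foot M.π M.ρ x M.S M.w z) +
        Gi_456.yy M.π M.ρ x M.S M.w z := by rw [h2]; abel
    rw [e1, smul_add]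
    congr 1
    show M.S⁻¹ • (M.S • M.u (M.S⁻¹ • _)) = _
    rw [smul_smul, inv_mul_cancel₀ hS.ne', one_smul]
    rfl

theorem x_sq (hu : Differentiable ℝ M.u) (z : Euc k) :
    ‖(M.ch x).x z‖ ^ 2 = M.S ^ 2 * ⟪X M x z, gop (fderiv ℝ M.u 0) (X M x z)⟫_ℝ := by
  have e : (M.ch x).x z = Lo (fderiv ℝ M.w 0) (M.S • X M x z) := by
    show Lo (fderiv ℝ M.w 0) (Gi_456.foot M.π M.ρ x M.S M.w z - 0) = _
    rw [sub_zero, S_smul_X]
  rw [e, norm_Lo_sq', fd_w0 hu, map_smul, inner_smul_left, inner_smul_right, conj_trivial]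
  ring

theorem exp_S (y : ℝ) : Real.exp (-2 * y) * M.S ^ 2 = Real.exp (-2 * (y - M.lb)) := by
  rw [Mo.S, ← Real.exp_nat_mul, ← Real.exp_add]
  congr 1
  push_cast
  ring

theorem g_x (hu : Differentiable ℝ M.u) (g : ℝ → ℝ) (y : ℝ) (z : Euc k) :
    g (Real.exp (-2 * y) * ‖(M.ch x).x z‖ ^ 2) =
      radq g (y - M.lb) (fderiv ℝ M.u 0) 0 (X M x z) := by
  rw [x_sq hu, ← mul_assoc, exp_S, radq, sub_zero]

/-- the measure in block units. -/
def mu (V : Measure (Euc k × L k)) : Measure (Euc k × L k) :=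
  ENNReal.ofReal ((M.S ^ m)⁻¹) • V

theorem integral_mu (V : Measure (Euc k × L k)) (f : Euc k × L k → ℝ) :
    ∫ p, f p ∂(mu (M := M) V) = (M.S ^ m)⁻¹ * ∫ p, f p ∂V := by
  have hS := M.S_pos
  rw [mu, integral_smul_measure, ENNReal.toReal_ofReal (by positivity), smul_eq_mul]

/-- the base integral. -/
theorem integral_j (hu : Differentiable ℝ M.u) (g : ℝ → ℝ) (y : ℝ) :
    ∫ v : Euc m, (M.ch x).j v * g (Real.exp (-2 * y) * ‖v‖ ^ 2) =
      M.S ^ m * ∫ v, radq g (y - M.lb) (fderiv ℝ M.u 0) 0 v * dns (fderiv ℝ M.u v) := by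
  have hS := M.S_pos
  set q0 := fderiv ℝ M.w 0 with hq0
  set T : L m := Lo q0 ∘L (M.S • ContinuousLinearMap.id ℝ (Euc m)) with hT
  have hdet : LinearMap.det (T : Euc m →ₗ[ℝ] Euc m) = M.S ^ m * (Lo q0).det := by
    have e1 : (T : Euc m →ₗ[ℝ] Euc m) = M.S • (Lo q0 : Euc m →ₗ[ℝ] Euc m) := by
      ext v : 1
      show Lo q0 (M.S • v) = M.S • Lo q0 v
      rw [map_smul]
    rw [e1, LinearMap.det_smul, finrank_euclideanSpace_fin]
  have hd0 := Gi_456.det_Lo_pos q0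
  have hne : LinearMap.det (T : Euc m →ₗ[ℝ] Euc m) ≠ 0 := by rw [hdet]; positivity
  have key : ∫ v : Euc m, (M.ch x).j (T v) * g (Real.exp (-2 * y) * ‖T v‖ ^ 2) =
      |(LinearMap.det (T : Euc m →ₗ[ℝ] Euc m))⁻¹| *
        ∫ v : Euc m, (M.ch x).j v * g (Real.exp (-2 * y) * ‖v‖ ^ 2) := by
    have h1 : Measure.map T (volume : Measure (Euc m)) =
        ENNReal.ofReal |(LinearMap.det (T : Euc m →ₗ[ℝ] Euc m))⁻¹| • volume :=
      Measure.map_linearMap_addHaar_eq_smul_addHaar volume hne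
    have h2 : MeasurableEmbedding T := by
      have h3 : IsUnit (LinearMap.det (T : Euc m →ₗ[ℝ] Euc m)) := isUnit_iff_ne_zero.2 hne
      set e := LinearEquiv.ofIsUnitDet (f := (T : Euc m →ₗ[ℝ] Euc m)) (v := Module.finBasis ℝ (Euc m))
        (v' := Module.finBasis ℝ (Euc m)) (by
          rw [LinearMap.det_toMatrix]; exact h3) with he
      have h4 : (T : Euc m → Euc m) = e.toContinuousLinearEquiv.toHomeomorph := by
        ext v : 1
        rfl
      rw [h4]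
      exact e.toContinuousLinearEquiv.toHomeomorph.measurableEmbedding
    have h5 := h2.integral_map (μ := volume)
      (fun v : Euc m => (M.ch x).j v * g (Real.exp (-2 * y) * ‖v‖ ^ 2))
    rw [← h5, h1, integral_smul_measure, ENNReal.toReal_ofReal (abs_nonneg _), smul_eq_mul]
  have e2 : ∀ v : Euc m, (M.ch x).j (T v) * g (Real.exp (-2 * y) * ‖T v‖ ^ 2) =
      (Lo q0).det⁻¹ * (radq g (y - M.lb) (fderiv ℝ M.u 0) 0 v * dns (fderiv ℝ M.u v)) := by
    intro v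
    have e3 : T v = Lo q0 (M.S • v) := rfl
    have e4 : (M.ch x).j (T v) = dns (fderiv ℝ M.u v) / (Lo q0).det := by
      show dns (fderiv ℝ M.w (Gi_456.pt M.w 0 (T v))) / (Lo (fderiv ℝ M.w 0)).det = _
      rw [Gi_456.pt, e3, ← hq0, Gi_456.Loi_Lo, zero_add, Mo.fderiv_w hu]
      simp only
      rw [smul_smul, inv_mul_cancel₀ hS.ne', one_smul]
    have e5 : ‖T v‖ ^ 2 = M.S ^ 2 * ⟪v, gop (fderiv ℝ M.u 0) v⟫_ℝ := by
      rw [e3, norm_Lo_sq', hq0, fd_w0 hu, map_smul, inner_smul_left, inner_smul_right,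
        conj_trivial]
      ring
    rw [e4, e5, ← mul_assoc, exp_S, radq, sub_zero]
    field_simp
  simp only [e2] at key
  rw [integral_const_mul, hdet, abs_of_pos (by positivity)] at key
  have h6 : ∫ v : Euc m, (M.ch x).j v * g (Real.exp (-2 * y) * ‖v‖ ^ 2) =
      (M.S ^ m * (Lo q0).det) * ((M.S ^ m * (Lo q0).det)⁻¹ *
        ∫ v : Euc m, (M.ch x).j v * g (Real.exp (-2 * y) * ‖v‖ ^ 2)) := by
    field_simp
  rw [h6, ← key]
  field_simp

theorem exp_lb (y : ℝ) (c : ℝ) : Real.exp (c * y) = Real.exp (c * (y - M.lb)) * Real.exp (c * M.lb) := by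
  rw [← Real.exp_add]; congr 1; ring

/-- **`EE` in foot coordinates.** -/
theorem EE_eq (hu : Differentiable ℝ M.u) (V : Measure (Euc k × L k)) (g : ℝ → ℝ) (Q y : ℝ) :
    GL_394.EE (M.ch x) V g Q y =
      M.S ^ 2 * Eg (mu (M := M) V) (fun p => X M x p.1) M.u g 0 Q (y - M.lb) := by
  have hS := M.S_pos
  unfold GL_394.EE Eg
  rw [integral_j hu, integral_mu]
  have e1 : ∫ p : Euc k × L k, 1 * g (Real.exp (-2 * y) * ‖(M.ch x).x p.1‖ ^ 2) ∂V =
      ∫ p : Euc k × L k, radq g (y - M.lb) (fderiv ℝ M.u 0) 0 (X M x p.1) ∂V := by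
    refine integral_congr_ae (Eventually.of_forall fun p => ?_)
    simp only [one_mul]
    exact g_x hu g y p.1
  rw [e1]
  have e2 : Real.exp ((2 - m) * y) = Real.exp ((2 - m) * (y - M.lb)) * (M.S ^ 2 * (M.S ^ m)⁻¹) := by
    rw [exp_lb (M := M) y]
    congr 1
    rw [Mo.S, ← Real.exp_nat_mul, ← Real.exp_nat_mul, ← Real.exp_neg, ← Real.exp_add]
    congr 1
    push_cast
    ring
  rw [e2]
  field_simp

/-- **`II` in foot coordinates.** -/
theorem II_eq (hu : Differentiable ℝ M.u) (hf1 : Frame M.π M.ρ) (V : Measure (Euc k × L k))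
    (g1 : ℝ → ℝ) (y : ℝ) :
    GL_394.II (M.ch x) V g1 y =
      M.S ^ 2 * Ig (mu (M := M) V) (fun p => X M x p.1) (fun p => Y M x p.1) M.u g1 0 (y - M.lb) := by
  have hS := M.S_pos
  unfold GL_394.II Ig
  rw [integral_mu]
  have e1 : ∀ z : Euc k, ((M.ch x).f z * (M.ch x).mu ((M.ch x).x z)) *
      (-4 * g1 (Real.exp (-2 * y) * ‖(M.ch x).x z‖ ^ 2)) =
      M.S ^ 2 * (hf (fderiv ℝ M.u (X M x z)) (Y M x z) * Ps M.u g1 0 (y - M.lb) (X M x z)) := by
    intro z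
    have e2 : (M.ch x).f z = M.S ^ 2 * hf (fderiv ℝ M.u (X M x z)) (Y M x z) := by
      show ‖Gi_456.Bt M.π M.ρ M.w (Gi_456.foot M.π M.ρ x M.S M.w z)
        (Gi_456.yy M.π M.ρ x M.S M.w z)‖ ^ 2 / 2 = _
      rw [norm_Bt_sq hf1, fd_w hu, ← S_smul_Y]
      unfold hf
      rw [map_smul, norm_smul, norm_smul, Real.norm_of_nonneg hS.le]
      ring
    have e3 : (M.ch x).mu ((M.ch x).x z) =
        mq (fderiv ℝ M.u 0) (fderiv ℝ M.u (X M x z)) (X M x z - 0) := by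
      show muG (giB M.w 0) (Lo (fderiv ℝ M.w 0) (Gi_456.foot M.π M.ρ x M.S M.w z - 0)) = _
      rw [sub_zero, muG_Lo, fd_w hu, fd_w0 hu, ← S_smul_X, mq_smul _ _ _ _ hS, sub_zero]
    rw [e2, e3, g_x hu g1 y z, Ps]
    ring
  have e4 : ∫ p : Euc k × L k, ((M.ch x).f p.1 * (M.ch x).mu ((M.ch x).x p.1)) *
      (-4 * g1 (Real.exp (-2 * y) * ‖(M.ch x).x p.1‖ ^ 2)) ∂V =
      M.S ^ 2 * ∫ p : Euc k × L k, hf (fderiv ℝ M.u (X M x p.1)) (Y M x p.1) *
        Ps M.u g1 0 (y - M.lb) (X M x p.1) ∂V := by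
    rw [← integral_const_mul]
    exact integral_congr_ae (Eventually.of_forall fun p => e1 p.1)
  rw [e4]
  have e2 : Real.exp (-m * y) = Real.exp (-m * (y - M.lb)) * (M.S ^ m)⁻¹ := by
    rw [exp_lb (M := M) y]
    congr 1
    rw [Mo.S, ← Real.exp_nat_mul, ← Real.exp_neg]
    congr 1
    ring
  rw [e2]
  ring

end St

end Crest.Agent.R234.Sw_733
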